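import Crest.Agent.R096.Mal12_874

/-!
# Row 96, library (MESH-AL), part 13: the aligned mesh of a locally finite family of core blocks
-/

set_option autoImplicit false

open Set Filter Topology Metric

namespace Crest.Agent.R096.Mal_874

open Msh_715 Cut_874 Msh_810

variable {n : ℕ} {E : Type*} [NormedAddCommGroup E] [NormedSpace ℝ E]

/-! ### translation of a block -/

namespace CB

/-- the translated block -/
def tr (Q : CB E n) (v : E) : CB E n where
  ψ := Q.ψ
  a' := Q.a' + Q.ψ v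
  kc := Q.kc
  S := Q.S
  w := Q.w
  hkc := Q.hkc
  hw := Q.hw

theorem ps_tr (Q : CB E n) (v y : E) :
    ps (Q.tr v).a' (Q.tr v).kc ((Q.tr v).ψ y) = ps Q.a' Q.kc (Q.ψ (y - v)) := by
  funext l
  show ps (Q.a' + Q.ψ v) Q.kc (Q.ψ y) l = ps Q.a' Q.kc (Q.ψ (y - v)) l
  unfold ps
  rw [map_sub]
  simp only [Pi.add_apply, Pi.sub_apply]
  ring

theorem mem_N_tr (Q : CB E n) (v y : E) : y ∈ (Q.tr v).N ↔ y - v ∈ Q.N := by
  rw [mem_N, mem_N, ps_tr]
  rfl

theorem mem_Kc_tr (Q : CB E n) (v y : E) : y ∈ (Q.tr v).Kc ↔ y - v ∈ Q.Kc := by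
  unfold Kc
  rw [mem_ofPred_eq, mem_ofPred_eq, ps_tr]
  rfl

theorem N_tr (Q : CB E n) (v : E) : (Q.tr v).N = (Homeomorph.subRight v) ⁻¹' Q.N := by
  ext y
  exact Q.mem_N_tr v y

theorem frontier_N_tr (Q : CB E n) (v : E) {y : E} :
    y ∈ frontier (Q.tr v).N ↔ y - v ∈ frontier Q.N := by
  rw [N_tr, ← (Homeomorph.subRight v).preimage_frontier]
  rfl

end CB

/-! ### separation of locally finite compact sets -/

/-- a compact set has positive distance from the union of a locally finite family of closed sets -/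
theorem exists_sep {X : Type*} [PseudoMetricSpace X] {J : Type*} {A : Set X} (hA : IsCompact A)
    {B : J → Set X} (hB : ∀ l, IsClosed (B l)) (hd : ∀ l, Disjoint A (B l))
    (hlf : ∀ x ∈ A, ∃ r > 0, {l | (B l ∩ ball x r).Nonempty}.Finite) :
    ∃ m > 0, ∀ x ∈ A, ∀ l, Disjoint (ball x m) (B l) := by
  have h1 : ∀ x ∈ A, ∃ r > 0, ∀ l, Disjoint (ball x r) (B l) := by
    intro x hx
    obtain ⟨r, hr, hf⟩ := hlf x hx
    have h2 : ∀ᶠ y in 𝓝 x, ∀ l ∈ {l | (B l ∩ ball x r).Nonempty}, y ∉ B l := by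
      rw [eventually_all_finite hf]
      intro l _
      exact (hB l).isOpen_compl.mem_nhds (Set.disjoint_left.1 (hd l) hx)
    obtain ⟨s, hs, hb⟩ := Metric.eventually_nhds_iff_ball.1 h2
    refine ⟨min r s, lt_min hr hs, fun l => ?_⟩
    rw [Set.disjoint_left]
    intro y hy hyl
    have hyr : y ∈ ball x r := ball_subset_ball (min_le_left _ _) hy
    exact hb y (ball_subset_ball (min_le_right _ _) hy) l ⟨y, hyl, hyr⟩ hyl
  choose! r hr hr2 using h1
  obtain ⟨t, ht, hc⟩ := hA.elim_nhds_subcover (fun x => ball x (r x / 2))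
    (fun x hx => ball_mem_nhds x (by have := hr x hx; linarith))
  by_cases hte : t.Nonempty
  · obtain ⟨x0, hx0, hmin⟩ := t.exists_min_image (fun x => r x) hte
    refine ⟨r x0 / 2, by have := hr x0 (ht x0 hx0); linarith, fun x hx l => ?_⟩
    have hx' := hc hx
    simp only [Set.mem_iUnion] at hx'
    obtain ⟨z, hz, hxz⟩ := hx'
    refine (hr2 z (ht z hz) l).mono_left ?_
    intro y hy
    rw [mem_ball] at hy hxz ⊢
    have h3 := hmin z hz
    have h4 := dist_triangle y x z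
    linarith
  · refine ⟨1, one_pos, fun x hx => ?_⟩
    rw [Finset.not_nonempty_iff_eq_empty] at hte
    have := hc hx
    rw [hte] at this
    simp at this

/-! ### mesh data -/

/-- outer frame, outer Whitney data, core blocks, room for translations -/
structure MD (E : Type*) [NormedAddCommGroup E] [NormedSpace ℝ E] (n : ℕ) (J : Type*) where
  φ : E ≃L[ℝ] (Fin n → ℝ)
  D0 : Dat n
  hC : 6 ≤ D0.C
  Q : J → CB E n
  r : J → ℝ
  r_pos : ∀ j, 0 < r j
  Vdis : ∀ j l, j ≠ l →
    Disjoint (cthickening (r j) (φ '' (Q j).N)) (cthickening (r l) (φ '' (Q l).N))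
  Vsub : ∀ j, cthickening (r j) (φ '' (Q j).N) ⊆ D0.Om
  Vlf : ∀ x ∈ D0.Om, ∃ s > 0, {j | (cthickening (r j) (φ '' (Q j).N) ∩ ball x s).Nonempty}.Finite

namespace MD

variable {J : Type*} (M : MD E n J)

/-- the room of the block `j` (in outer coordinates) -/
def V (j : J) : Set (Fin n → ℝ) := cthickening (M.r j) (M.φ '' (M.Q j).N)

/-- the zone of the wall `j` (in outer coordinates) -/
def W (j : J) : Set (Fin n → ℝ) := cthickening (M.r j) (M.φ '' frontier (M.Q j).N)

theorem isCompact_V (j : J) : IsCompact (M.V j) :=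
  (((M.Q j).isCompact_N.image M.φ.continuous).cthickening (r := M.r j))

theorem W_sub_V (j : J) : M.W j ⊆ M.V j :=
  cthickening_subset_of_subset _ (image_mono (M.Q j).frontier_sub)

theorem isCompact_W (j : J) : IsCompact (M.W j) :=
  (M.isCompact_V j).of_isClosed_subset isClosed_cthickening (M.W_sub_V j)

theorem W_ne [NeZero n] (j : J) : (M.W j).Nonempty := by
  obtain ⟨x, hx⟩ := (M.Q j).W_ne
  refine ⟨M.φ ((M.Q j).ψ.symm x), self_subset_cthickening _ (mem_image_of_mem _ ?_)⟩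
  rw [CB.frontier_N, mem_preimage, ContinuousLinearEquiv.apply_symm_apply]
  exact hx

/-- admissible translations of the blocks -/
def Adm (v : J → E) : Prop := ∀ j, ‖M.φ (v j)‖ ≤ M.r j

variable {M}

theorem wall_mem {v : J → E} (hv : M.Adm v) (j : J) {x : E}
    (hx : x ∈ frontier ((M.Q j).tr (v j)).N) : M.φ x ∈ M.W j := by
  rw [CB.frontier_N_tr] at hx
  refine mem_cthickening_of_dist_le _ _ _ _ (mem_image_of_mem M.φ hx) ?_
  rw [dist_eq_norm, ← map_sub, sub_sub_cancel]
  exact hv j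

theorem N_mem {v : J → E} (hv : M.Adm v) (j : J) {x : E} (hx : x ∈ ((M.Q j).tr (v j)).N) :
    M.φ x ∈ M.V j := by
  rw [CB.mem_N_tr] at hx
  refine mem_cthickening_of_dist_le _ _ _ _ (mem_image_of_mem M.φ hx) ?_
  rw [dist_eq_norm, ← map_sub, sub_sub_cancel]
  exact hv j

variable (M)

/-- the scales at the walls are admissible -/
structure Sc (k : J → ℕ) : Prop where
  kc : ∀ j, (M.Q j).kc ≤ k j
  rho : ∀ j x, infDist x (M.W j) ≤ 6 / 2 ^ k j → M.D0.C / 2 ^ k j ≤ M.D0.ρ x
  sep : ∀ j l, j ≠ l → ∀ x, infDist x (M.W j) ≤ 6 / 2 ^ k j →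
    M.D0.C / 2 ^ k j ≤ infDist x (M.W l) ∧ 5 / 2 ^ k l ≤ infDist x (M.W l)

/-- **all large scales are admissible** -/
theorem exists_thr [NeZero n] : ∃ k0 : J → ℕ, ∀ k : J → ℕ, (∀ j, k0 j ≤ k j) → M.Sc k := by
  have hC := M.hC
  have hC0 : 0 < M.D0.C := by linarith
  -- distance between the walls
  have h1 : ∀ j, ∃ m > 0, ∀ x ∈ M.W j, ∀ l : {l // l ≠ j}, Disjoint (ball x m) (M.W l) := by
    intro j
    refine exists_sep (M.isCompact_W j) (fun l => isClosed_cthickening) (fun l => ?_) ?_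
    · exact (M.Vdis j l (fun e => l.2 e.symm)).mono (M.W_sub_V j) (M.W_sub_V l)
    · intro x hx
      obtain ⟨s, hs, hf⟩ := M.Vlf x (M.Vsub j (M.W_sub_V j hx))
      refine ⟨s, hs, ?_⟩
      refine Set.Finite.of_finite_image (f := Subtype.val) (hf.subset ?_)
        Subtype.val_injective.injOn
      rintro _ ⟨l, ⟨y, hy1, hy2⟩, rfl⟩
      exact ⟨y, M.W_sub_V _ hy1, hy2⟩
  choose m hm hm2 using h1
  -- lower bound of the size function
  have h2 : ∀ j, ∃ c > 0, ∀ x ∈ M.W j, c ≤ M.D0.ρ x := by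
    intro j
    obtain ⟨x0, hx0, hmin⟩ := (M.isCompact_W j).exists_isMinOn (M.W_ne j)
      M.D0.continuous_ρ.continuousOn
    exact ⟨M.D0.ρ x0, M.Vsub j (M.W_sub_V j hx0), fun x hx => hmin hx⟩
  choose c hc hc2 using h2
  have h3 : ∀ j, ∃ k : ℕ, (M.D0.C + 12) / 2 ^ k ≤ min (c j) (m j) := by
    intro j
    have h4 : 0 < min (c j) (m j) := lt_min (hc j) (hm j)
    obtain ⟨k, hk⟩ := exists_nat_gt ((M.D0.C + 12) / min (c j) (m j))
    refine ⟨k, ?_⟩
    rw [div_le_iff₀ (by positivity)]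
    rw [div_lt_iff₀ h4] at hk
    have h5 : (k : ℝ) ≤ 2 ^ k := by exact_mod_cast Nat.lt_two_pow_self.le
    nlinarith
  choose k1 hk1 using h3
  refine ⟨fun j => max (k1 j) (M.Q j).kc, fun k hk => ?_⟩
  have hsmall : ∀ j, (M.D0.C + 12) / 2 ^ k j ≤ min (c j) (m j) := by
    intro j
    refine le_trans ?_ (hk1 j)
    have h5 : (2 : ℝ) ^ k1 j ≤ 2 ^ k j :=
      pow_le_pow_right₀ (by norm_num) ((le_max_left _ _).trans (hk j))
    exact div_le_div_of_nonneg_left (by linarith) (by positivity) h5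
  have hnear : ∀ j x, infDist x (M.W j) ≤ 6 / 2 ^ k j → ∃ y ∈ M.W j, dist x y ≤ 6 / 2 ^ k j := by
    intro j x hx
    obtain ⟨y, hy, e⟩ := (M.isCompact_W j).exists_infDist_eq_dist (M.W_ne j) x
    exact ⟨y, hy, e ▸ hx⟩
  -- distance of the walls
  have hww : ∀ j l, j ≠ l → ∀ x ∈ M.W j, ∀ y ∈ M.W l, m j ≤ dist x y := by
    intro j l hjl x hx y hy
    by_contra hcon
    push Not at hcon
    refine Set.disjoint_left.1 (hm2 j x hx ⟨l, fun e => hjl e.symm⟩) ?_ hy
    rw [mem_ball, dist_comm]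
    exact hcon
  refine ⟨fun j => (le_max_right _ _).trans (hk j), ?_, ?_⟩
  · intro j x hx
    obtain ⟨y, hy, hxy⟩ := hnear j x hx
    have h5 := (hsmall j).trans (min_le_left _ _)
    have h6 := hc2 j y hy
    have h7 := M.D0.lip y x
    rw [dist_comm] at h7
    have e : (M.D0.C + 12) / 2 ^ k j = M.D0.C / 2 ^ k j + 2 * (6 / 2 ^ k j) := by ring
    have h8 : (0 : ℝ) < 6 / 2 ^ k j := by positivity
    linarith
  · intro j l hjl x hx
    obtain ⟨y, hy, hxy⟩ := hnear j x hx
    have hdist : ∀ z ∈ M.W l, m j - 6 / 2 ^ k j ≤ dist x z ∧ m l - 6 / 2 ^ k j ≤ dist x z := by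
      intro z hz
      have h5 := hww j l hjl y hy z hz
      have h6 := hww l j (fun e => hjl e.symm) z hz y hy
      rw [dist_comm] at h6
      have h7 := dist_triangle y x z
      rw [dist_comm y x] at h7
      constructor <;> linarith
    have h5 := (hsmall j).trans (min_le_right _ _)
    have h6 := (hsmall l).trans (min_le_right _ _)
    have e : (M.D0.C + 12) / 2 ^ k j = M.D0.C / 2 ^ k j + 2 * (6 / 2 ^ k j) := by ring
    have el : (M.D0.C + 12) / 2 ^ k l = M.D0.C / 2 ^ k l + 2 * (5 / 2 ^ k l) + 2 * (1 / 2 ^ k l) := by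
      ring
    have h8 : (0 : ℝ) < 6 / 2 ^ k j := by positivity
    have h9 : (0 : ℝ) < 5 / 2 ^ k l := by positivity
    have h10 : (0 : ℝ) < M.D0.C / 2 ^ k l := by positivity
    have h11 : (0 : ℝ) < M.D0.C / 2 ^ k j := by positivity
    have h12 : (0 : ℝ) < 1 / 2 ^ k l := by positivity
    constructor
    · rw [le_infDist (M.W_ne l)]
      intro z hz
      have := (hdist z hz).1
      linarith
    · rw [le_infDist (M.W_ne l)]
      intro z hz
      obtain ⟨h13, h14⟩ := hdist z hz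
      -- one of the two scales is the finer one
      rcases le_total (k j) (k l) with h15 | h15
      · have h16 : (5 : ℝ) / 2 ^ k l ≤ 5 / 2 ^ k j :=
          div_le_div_of_nonneg_left (by norm_num) (by positivity)
            (pow_le_pow_right₀ (by norm_num) h15)
        have h17 : (5 : ℝ) / 2 ^ k j ≤ M.D0.C / 2 ^ k j :=
          div_le_div_of_nonneg_right (by linarith) (by positivity)
        linarith
      · have h16 : (6 : ℝ) / 2 ^ k j ≤ 6 / 2 ^ k l :=
          div_le_div_of_nonneg_left (by norm_num) (by positivity)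
            (pow_le_pow_right₀ (by norm_num) h15)
        have e6 : (6 : ℝ) / 2 ^ k l = 5 / 2 ^ k l + 1 / 2 ^ k l := by ring
        linarith

end MD

end Crest.Agent.R096.Mal_874
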