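import Crest.Agent.R096.Mal13_874

/-!
# Row 96, library (MESH-AL), part 14: the aligned mesh of core blocks, shapes of its tiles
-/

set_option autoImplicit false

open Set Filter Topology Metric

namespace Crest.Agent.R096.Mal_874

open Msh_715 Cut_874 Msh_810

variable {n : ℕ} {E : Type*} [NormedAddCommGroup E] [NormedSpace ℝ E]

/-! ### change of the name of the domain -/

/-- the same tiles, another name of the domain -/
def reOm {Om Om' : Set E} {ι : Type*} (T : Tiling Om ι) (h : Om = Om') : Tiling Om' ι where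
  H := T.H
  cpt := T.cpt
  ne := T.ne
  sub i := h ▸ T.sub i
  cov x hx := T.cov x (h ▸ hx)
  dis := T.dis
  lf x hx := T.lf x (h ▸ hx)
  op := h ▸ T.op

/-! ### rational frames -/

/-- the vectors of a rational frame -/
noncomputable def NR (A : Fin n → Fin n → ℤ) (d : ℕ) : Finset (Fin n → ℝ) := by
  classical
  exact N0 n ∪ (Finset.univ.image (fun m : Fin n => fun l => (A m l : ℝ) / d) ∪
    Finset.univ.image (fun m : Fin n => fun l => -((A m l : ℝ) / d)))

theorem N0_sub_NR (A : Fin n → Fin n → ℤ) (d : ℕ) : N0 n ⊆ NR A d := by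
  classical
  unfold NR
  exact Finset.subset_union_left

theorem row_mem_NR (A : Fin n → Fin n → ℤ) (d : ℕ) (m : Fin n) :
    (fun l => (A m l : ℝ) / d) ∈ NR A d ∧ (fun l => -((A m l : ℝ) / d)) ∈ NR A d := by
  classical
  unfold NR
  constructor
  · exact Finset.mem_union_right _ (Finset.mem_union_left _
      (Finset.mem_image_of_mem (fun m : Fin n => fun l => (A m l : ℝ) / d) (Finset.mem_univ m)))
  · exact Finset.mem_union_right _ (Finset.mem_union_right _
      (Finset.mem_image_of_mem (fun m : Fin n => fun l => -((A m l : ℝ) / d)) (Finset.mem_univ m)))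

theorem NR_rat (A : Fin n → Fin n → ℤ) {d : ℕ} (hd : 0 < d) :
    ∀ ν ∈ NR A d, ∀ m, ∃ c : ℤ, ν m = c / d := by
  classical
  intro ν hν m
  unfold NR at hν
  rcases Finset.mem_union.1 hν with h | h
  · exact N0_rat hd ν h m
  · rcases Finset.mem_union.1 h with h | h
    · obtain ⟨l, -, rfl⟩ := Finset.mem_image.1 h
      exact ⟨A l m, rfl⟩
    · obtain ⟨l, -, rfl⟩ := Finset.mem_image.1 h
      exact ⟨-A l m, by push_cast; ring⟩

/-- the frame `ψ` is rational in the coordinates `φ` -/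
def Rt (φ ψ : E ≃L[ℝ] (Fin n → ℝ)) (A : Fin n → Fin n → ℤ) (d : ℕ) : Prop :=
  ∀ y m, (d : ℝ) * ψ y m = ∑ l, (A m l : ℝ) * φ y l

/-- **a rational frame with a rational relative shift is compatible with the outer grid** -/
theorem fr_rat {φ ψ : E ≃L[ℝ] (Fin n → ℝ)} {A : Fin n → Fin n → ℤ} {d : ℕ} (hd : 0 < d)
    (hA : Rt φ ψ A d) {a a0 : Fin n → ℝ} {v : E} {κ k : ℕ} (hκ : κ ≤ k)
    (h0 : ∀ m, ∃ c : ℤ, 2 ^ κ * (d : ℝ) * a0 m = c) (hv : ∀ l, ∃ z : ℤ, 2 ^ κ * (φ v l - a l) = z) :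
    Fr (chi φ a k) k (NR A d) d ψ (a0 + ψ v) := by
  have hd' : (d : ℝ) ≠ 0 := by exact_mod_cast hd.ne'
  have hψ : ∀ y m, ψ y m = dt (fun l => (A m l : ℝ) / d) (φ y) := by
    intro y m
    have h1 := hA y m
    unfold dt
    have e : ∑ l, (A m l : ℝ) / d * φ y l = (∑ l, (A m l : ℝ) * φ y l) / d := by
      rw [Finset.sum_div]
      exact Finset.sum_congr rfl fun l _ => by ring
    rw [e, ← h1]
    field_simp
  choose z hz using hv
  refine fr_block (fun m l => (A m l : ℝ) / d)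
    (fun m => a0 m + dt (fun l => (A m l : ℝ) / d) (fun l => φ v l - a l)) ?_
    (fun m => row_mem_NR A d m) ?_
  · intro y m
    rw [Pi.add_apply, hψ y m, hψ v m, dt_sub, dt_sub]
    ring
  · intro m
    obtain ⟨c, hc⟩ := h0 m
    refine ⟨2 ^ (k - κ) * (c + ∑ l, A m l * z l), ?_⟩
    have hpow : (2 : ℝ) ^ k = 2 ^ (k - κ) * 2 ^ κ := by rw [← pow_add, Nat.sub_add_cancel hκ]
    have e1 : (2 : ℝ) ^ κ * dt (fun l => (A m l : ℝ) / d) (fun l => φ v l - a l) =
        (∑ l, (A m l : ℝ) * z l) / d := by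
      unfold dt
      rw [Finset.mul_sum, Finset.sum_div]
      refine Finset.sum_congr rfl fun l _ => ?_
      rw [← hz l]
      ring
    have e2 : (2 : ℝ) ^ κ * a0 m = c / d := by
      rw [← hc]
      field_simp
    rw [hpow, mul_assoc, mul_add, e1, e2]
    push_cast
    ring

/-! ### the mesh -/

namespace MD

variable {J : Type*} (M : MD E n J)

theorem W_lf (x : Fin n → ℝ) (hx : x ∈ M.D0.Om) :
    ∃ r > 0, {j | (M.W j ∩ ball x r).Nonempty}.Finite := by
  obtain ⟨s, hs, hf⟩ := M.Vlf x hx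
  refine ⟨s, hs, hf.subset ?_⟩
  rintro j ⟨y, hy1, hy2⟩
  exact ⟨y, M.W_sub_V j hy1, hy2⟩

variable [NeZero n] {k : J → ℕ} (hk : M.Sc k) (a : Fin n → ℝ) {v : J → E} (hv : M.Adm v)

theorem outD_Om_eq : (outD M.D0 k M.W a).Om = M.D0.Om := outD_Om M.W_ne M.W_lf

/-- the translated block -/
abbrev Bk (M : MD E n J) (v : J → E) (j : J) : CB E n := (M.Q j).tr (v j)

/-- **the aligned mesh data** -/
noncomputable def ad : AD E n J where
  φ := M.φ
  D := outD M.D0 k M.W a
  ψ j := (M.Q j).ψ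
  a' j := (M.Bk v j).a'
  κ j := (M.Q j).kc
  Z j := bx (M.Q j).al (M.Q j).be
  k := k
  W := M.W
  fin j := bx_finite _ _
  ne := M.W_ne
  wall j x hx := wall_mem hv j hx
  sub j x hx := by
    rw [mem_preimage, M.outD_Om_eq a]
    exact M.Vsub j (N_mem hv j hx)
  dis j l hjl := by
    rw [Set.disjoint_left]
    intro x hx hx'
    exact Set.disjoint_left.1 (M.Vdis j l hjl) (N_mem hv j hx) (N_mem hv l hx')
  lf x hx := by
    rw [mem_preimage, M.outD_Om_eq a] at hx
    obtain ⟨s, hs, hf⟩ := M.Vlf _ hx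
    have hc : M.φ ⁻¹' (ball (M.φ x) s) ∈ 𝓝 x :=
      M.φ.continuous.continuousAt.preimage_mem_nhds (ball_mem_nhds _ hs)
    obtain ⟨r, hr, hb⟩ := Metric.mem_nhds_iff.1 hc
    refine ⟨r, hr, hf.subset ?_⟩
    rintro j ⟨y, hy1, hy2⟩
    exact ⟨M.φ y, N_mem hv j hy1, hb hy2⟩
  zone j x hx := by
    have hC := M.hC
    have hp : (0 : ℝ) < 1 / 2 ^ k j := by positivity
    have e5 : (5 : ℝ) / 2 ^ k j = 5 * (1 / 2 ^ k j) := by ring
    have e6 : (6 : ℝ) / 2 ^ k j = 6 * (1 / 2 ^ k j) := by ring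
    have eC : M.D0.C / 2 ^ k j = M.D0.C * (1 / 2 ^ k j) := by ring
    have hnear : ∀ y, dist x y ≤ (2 ^ k j)⁻¹ → infDist y (M.W j) ≤ 6 / 2 ^ k j := by
      intro y hy
      have h1 := infDist_le_infDist_add_dist (s := M.W j) (x := y) (y := x)
      rw [dist_comm] at h1
      rw [← one_div] at hy
      rw [e6]
      rw [e5] at hx
      linarith
    refine outD_K_wall ?_ (fun y hy => hk.rho j y (hnear y hy))
      (fun y hy l hl => (hk.sep j l (fun e => hl e.symm) y (hnear y hy)).1)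
    rw [eC]
    rw [e5] at hx
    nlinarith
  zdis j l hjl x hx := by
    have h1 : (5 : ℝ) / 2 ^ k j ≤ 6 / 2 ^ k j :=
      div_le_div_of_nonneg_right (by norm_num) (by positivity)
    exact (hk.sep j l hjl x (hx.le.trans h1)).2

/-- the inner tilings -/
noncomputable abbrev S (j : J) := (M.Bk v j).T (k j) (hk.kc j)

theorem inn : (M.ad hk a hv).In (M.S hk (v := v)) where
  un j := (M.Bk v j).un_N (k j) (hk.kc j)
  sub j := by
    intro x _
    rw [mem_preimage, CB.D_Om]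
    trivial

/-- **the aligned mesh** on `φ ⁻¹' D0.Om` -/
noncomputable def mesh := reOm ((M.ad hk a hv).mesh (M.inn hk a hv))
  (by
    show M.φ ⁻¹' (outD M.D0 k M.W a).Om = M.φ ⁻¹' M.D0.Om
    rw [M.outD_Om_eq a])

theorem cfg_mesh (t) : cfg (M.mesh hk a hv) t = cfg ((M.ad hk a hv).mesh (M.inn hk a hv)) t := rfl

end MD

/-! ### outer tiles, again, with the distance to the actual wall -/

namespace AD

variable {J : Type*} {M : AD E n J} {Om' : J → Set E} {ι' : J → Type*}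
  {S : ∀ j, Tiling (Om' j) (ι' j)}

/-- **dichotomy for outer tiles**, with the distance to the wall of the block -/
theorem outer_dich' (hS : M.In S) (p : {p // p ∉ {p | P (M.T1.H p) ⊆ ⋃ j, M.N j}}) :
    (P ((M.mesh hS).H (Sum.inl p)) = P (M.T0.H p.1.par) ∧
      cfg (M.mesh hS) (Sum.inl p) = cfg M.T0 p.1.par ∧
      ∀ j, Disjoint (P (M.T0.H p.1.par)) (frontier (M.N j))) ∨
    ∃ j, p.1.par.1.1.k = M.k j ∧
      (∀ x ∈ P (M.T0.H p.1.par), infDist (M.φ x) (M.W j) ≤ 2 / 2 ^ M.k j) ∧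
      ∃ y ∈ frontier (M.N j), ∀ x ∈ P (M.T0.H p.1.par), dist (M.φ x) (M.φ y) ≤ 2 / 2 ^ M.k j := by
  by_cases h : ∀ τ : Top M.D, (P (M.T0.H τ) ∩ P (M.T0.H p.1.par)).Nonempty →
      ∀ j, Disjoint (P (M.T0.H τ)) (frontier (M.N j))
  · left
    rcases outer_dich hS p with h1 | ⟨j, hkp, hx⟩
    · exact h1
    · -- the first alternative of `outer_dich` holds under `h`
      have hself : (P (M.T0.H p.1.par) ∩ P (M.T0.H p.1.par)).Nonempty := by
        obtain ⟨x, hx⟩ := M.T0.ne p.1.par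
        exact ⟨x, I_sub_P _ hx, I_sub_P _ hx⟩
      have h0 := h p.1.par hself
      have hA : AF M.T0 M.ψ M.a' M.κ M.Z p.1.par = ∅ := AF_empty h0
      have hP : P (M.T1.H p.1) = P (M.T0.H p.1.par) := by
        refine Set.Subset.antisymm (cut_tile_sub (hA := AF_ne) p.1) ?_
        intro x hx
        refine mem_P_cutH.2 ⟨hx, ?_, ?_⟩
        · intro a ha
          have h1 : a ∈ AF M.T0 M.ψ M.a' M.κ M.Z p.1.par := p.1.2.1 ha
          rw [hA] at h1
          exact absurd h1 (Finset.notMem_empty _)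
        · intro a ha
          have h1 : a ∈ AF M.T0 M.ψ M.a' M.κ M.Z p.1.par := ha
          rw [hA] at h1
          exact absurd h1 (Finset.notMem_empty _)
      refine ⟨hP, ?_, h0⟩
      have h1 : cfg M.T1 p.1 = cfg M.T0 p.1.par := by
        refine cfg_cut (hA := AF_ne) fun τ hτ => ?_
        exact AF_empty (h τ hτ)
      rw [← h1]
      refine cfg_off ?_
      rw [Set.disjoint_left]
      intro x hx hxN
      obtain ⟨j, hj⟩ := Set.mem_iUnion.1 hxN
      have hx0 : x ∈ P (M.T0.H p.1.par) := hP ▸ hx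
      exact Set.disjoint_left.1 (h0 j) hx0 (frontier_of p.2 hx hj)
  · right
    push Not at h
    obtain ⟨τ, ⟨x, hx1, hx2⟩, j, hj⟩ := h
    obtain ⟨y, hy1, hy2⟩ := Set.not_disjoint_iff.1 hj
    have hp : (0 : ℝ) < 1 / 2 ^ M.k j := by positivity
    have hp' : (0 : ℝ) < 2 ^ M.k j := by positivity
    have e2 : (2 : ℝ) / 2 ^ M.k j = 2 * (1 / 2 ^ M.k j) := by ring
    have e5 : (5 : ℝ) / 2 ^ M.k j = 5 * (1 / 2 ^ M.k j) := by ring
    have hy0 : infDist (M.φ y) (M.W j) = 0 := infDist_zero_of_mem (M.wall j y hy2)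
    have hkτ : τ.1.1.k = M.k j := zone_k (by rw [hy0, e5]; linarith) hy1
    have h3 := zone_dist hkτ hy1 hx1
    have hkp : p.1.par.1.1.k = M.k j := zone_k (x := x) (by rw [hy0] at h3; rw [e5]; linarith) hx2
    refine ⟨j, hkp, fun z hz => ?_, y, hy2, fun z hz => ?_⟩
    · have h4 := zone_dist hkp hx2 hz
      rw [hy0] at h3
      rw [e2]
      linarith
    · have h5 := dist_le_of_mem_Cu ((tile_T0 τ).1 hx1) ((tile_T0 τ).1 hy1)
      have h6 := dist_le_of_mem_Cu ((tile_T0 _).1 hz) ((tile_T0 _).1 hx2)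
      rw [hkτ] at h5
      rw [hkp] at h6
      have h7 : dist (M.φ x) (M.φ y) ≤ 1 / 2 ^ M.k j := by
        rw [le_div_iff₀' hp']; exact h5
      have h8 : dist (M.φ z) (M.φ x) ≤ 1 / 2 ^ M.k j := by
        rw [le_div_iff₀' hp']; exact h6
      rw [e2]
      exact (dist_triangle _ _ _).trans (by linarith)

end AD

end Crest.Agent.R096.Mal_874
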