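import Crest.Agent.R096.Mal16_874

/-!
# Row 96, library (MESH-AL), part 17: rigidity (a common translation of the outer grid and of all blocks)
-/

set_option autoImplicit false

open Set Filter Topology Metric

namespace Crest.Agent.R096.Mal_874

open Msh_715 Cut_874 Msh_810

variable {n : ℕ} {E : Type*} [NormedAddCommGroup E] [NormedSpace ℝ E]

/-! ### translated inequalities -/

/-- translated inequality -/
def trh (b : E) (h : (E →L[ℝ] ℝ) × ℝ) : (E →L[ℝ] ℝ) × ℝ := (h.1, h.2 + h.1 b)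

theorem trh_inj (b : E) : Function.Injective (trh b) := by
  rintro ⟨f, s⟩ ⟨g, t⟩ h
  simp only [trh, Prod.mk.injEq] at h
  obtain ⟨rfl, h⟩ := h
  rw [add_left_inj] at h
  rw [h]

theorem opp_trh (b : E) (h : (E →L[ℝ] ℝ) × ℝ) : opp (trh b h) = trh b (opp h) := by
  unfold opp trh
  ext1
  · rfl
  · show -(h.2 + h.1 b) = -h.2 + (-h.1) b
    rw [neg_apply]
    ring

open Classical in
/-- translated system of inequalities -/
noncomputable def trS (b : E) (G : Finset ((E →L[ℝ] ℝ) × ℝ)) : Finset ((E →L[ℝ] ℝ) × ℝ) :=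
  G.image (trh b)

theorem forall_trS {b : E} {G : Finset ((E →L[ℝ] ℝ) × ℝ)} {Q : (E →L[ℝ] ℝ) × ℝ → Prop} :
    (∀ h ∈ trS b G, Q h) ↔ ∀ h ∈ G, Q (trh b h) := by
  classical
  unfold trS
  simp only [Finset.mem_image, forall_exists_index, and_imp, forall_apply_eq_imp_iff₂]

theorem mem_trS {b : E} {G : Finset ((E →L[ℝ] ℝ) × ℝ)} {h : (E →L[ℝ] ℝ) × ℝ} :
    trh b h ∈ trS b G ↔ h ∈ G := by
  classical
  unfold trS
  rw [Finset.mem_image]
  exact ⟨fun ⟨g, hg, e⟩ => trh_inj b e ▸ hg, fun hh => ⟨h, hh, rfl⟩⟩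

theorem mem_P_trS {b y : E} {G : Finset ((E →L[ℝ] ℝ) × ℝ)} : y + b ∈ P (trS b G) ↔ y ∈ P G := by
  show (∀ h ∈ trS b G, h.1 (y + b) ≤ h.2) ↔ ∀ h ∈ G, h.1 y ≤ h.2
  rw [forall_trS]
  refine forall₂_congr fun h _ => ?_
  show h.1 (y + b) ≤ h.2 + h.1 b ↔ _
  rw [map_add, add_le_add_iff_right]

theorem mem_I_trS {b y : E} {G : Finset ((E →L[ℝ] ℝ) × ℝ)} : y + b ∈ I (trS b G) ↔ y ∈ I G := by
  show (∀ h ∈ trS b G, h.1 (y + b) < h.2) ↔ ∀ h ∈ G, h.1 y < h.2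
  rw [forall_trS]
  refine forall₂_congr fun h _ => ?_
  show h.1 (y + b) < h.2 + h.1 b ↔ _
  rw [map_add, add_lt_add_iff_right]

theorem P_trS (b : E) (G : Finset ((E →L[ℝ] ℝ) × ℝ)) : P (trS b G) = (fun y => b + y) '' P G := by
  ext y
  constructor
  · intro hy
    refine ⟨y - b, mem_P_trS.1 (by rwa [sub_add_cancel]), ?_⟩
    show b + (y - b) = y
    abel
  · rintro ⟨z, hz, rfl⟩
    show b + z ∈ _
    rw [add_comm]
    exact mem_P_trS.2 hz

theorem I_trS_ne {b : E} {G : Finset ((E →L[ℝ] ℝ) × ℝ)} (h : (I G).Nonempty) :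
    (I (trS b G)).Nonempty := by
  obtain ⟨y, hy⟩ := h
  exact ⟨y + b, mem_I_trS.2 hy⟩

theorem trS_trS (b c : E) (G : Finset ((E →L[ℝ] ℝ) × ℝ)) : trS c (trS b G) = trS (b + c) G := by
  classical
  unfold trS
  rw [Finset.image_image]
  congr 1
  funext h
  show trh c (trh b h) = trh (b + c) h
  unfold trh
  ext1
  · rfl
  · show h.2 + h.1 b + h.1 c = h.2 + h.1 (b + c)
    rw [map_add]
    ring

theorem trS_zero (G : Finset ((E →L[ℝ] ℝ) × ℝ)) : trS 0 G = G := by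
  classical
  unfold trS
  have : (trh (0 : E)) = id := by
    funext h
    unfold trh
    ext1
    · rfl
    · show h.2 + h.1 0 = h.2
      rw [map_zero, add_zero]
  rw [this, Finset.image_id]

/-- a piece of a translated tile -/
theorem trS_cutH (b : E) (H A σ : Finset ((E →L[ℝ] ℝ) × ℝ)) :
    cutH (trS b H) (trS b A) (trS b σ) = trS b (cutH H A σ) := by
  classical
  ext g
  constructor
  · intro hg
    rcases mem_cutH.1 hg with h | h | ⟨a, ha, hn, rfl⟩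
    · unfold trS at h
      obtain ⟨h', hh, rfl⟩ := Finset.mem_image.1 h
      exact mem_trS.2 (mem_cutH.2 (Or.inl hh))
    · unfold trS at h
      obtain ⟨h', hh, rfl⟩ := Finset.mem_image.1 h
      exact mem_trS.2 (mem_cutH.2 (Or.inr (Or.inl hh)))
    · unfold trS at ha
      obtain ⟨a', ha', rfl⟩ := Finset.mem_image.1 ha
      rw [opp_trh]
      exact mem_trS.2 (mem_cutH.2 (Or.inr (Or.inr ⟨a', ha', fun h => hn (mem_trS.2 h), rfl⟩)))
  · intro hg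
    unfold trS at hg
    obtain ⟨g', hg', rfl⟩ := Finset.mem_image.1 hg
    rcases mem_cutH.1 hg' with h | h | ⟨a, ha, hn, rfl⟩
    · exact mem_cutH.2 (Or.inl (mem_trS.2 h))
    · exact mem_cutH.2 (Or.inr (Or.inl (mem_trS.2 h)))
    · rw [← opp_trh]
      exact mem_cutH.2 (Or.inr (Or.inr ⟨_, mem_trS.2 ha, fun h => hn (mem_trS.1 h), rfl⟩))

/-! ### rigidity at a point -/

/-- the tiles of `T'` through `p + b` are the translates of the tiles of `T` through `p`, with their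
inequalities -/
def Rg {Om Om' : Set E} {ι ι' : Type*} (T : Tiling Om ι) (T' : Tiling Om' ι') (b p : E) : Prop :=
  (∀ i ∈ T.at_ p, ∃ i' ∈ T'.at_ (p + b), T'.H i' = trS b (T.H i)) ∧
    ∀ i' ∈ T'.at_ (p + b), ∃ i ∈ T.at_ p, T'.H i' = trS b (T.H i)

section

variable {Om Om' : Set E} {ι ι' : Type*} {T : Tiling Om ι} {T' : Tiling Om' ι'} {b p : E}

/-- the tile sets through the point -/
theorem Rg.sets (h : Rg T T' b p) :
    (fun j => P (T'.H j)) '' T'.at_ (p + b) =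
      (fun i => (fun y => b + y) '' P (T.H i)) '' T.at_ p := by
  ext C
  constructor
  · rintro ⟨j, hj, rfl⟩
    obtain ⟨i, hi, e⟩ := h.2 j hj
    refine ⟨i, hi, ?_⟩
    show (fun y => b + y) '' P (T.H i) = P (T'.H j)
    rw [e, P_trS]
  · rintro ⟨i, hi, rfl⟩
    obtain ⟨j, hj, e⟩ := h.1 i hi
    refine ⟨j, hj, ?_⟩
    show P (T'.H j) = (fun y => b + y) '' P (T.H i)
    rw [e, P_trS]

/-- the closed cell -/
theorem Rg.cc (h : Rg T T' b p) {y : E} : y + b ∈ T'.cc (p + b) ↔ y ∈ T.cc p := by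
  have key : ∀ g : (E →L[ℝ] ℝ) × ℝ, ((trh b g).1 (y + b) ≤ (trh b g).2 ∧
      ((trh b g).1 (p + b) = (trh b g).2 → (trh b g).1 (y + b) = (trh b g).2)) ↔
      (g.1 y ≤ g.2 ∧ (g.1 p = g.2 → g.1 y = g.2)) := by
    intro g
    show (g.1 (y + b) ≤ g.2 + g.1 b ∧ (g.1 (p + b) = g.2 + g.1 b → g.1 (y + b) = g.2 + g.1 b)) ↔ _
    rw [map_add, map_add, add_le_add_iff_right, add_left_inj, add_left_inj]
  constructor
  · intro hy i hi g hg
    obtain ⟨j, hj, e⟩ := h.1 i hi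
    have := hy j hj (trh b g) (by rw [e]; exact mem_trS.2 hg)
    exact (key g).1 this
  · intro hy j hj
    obtain ⟨i, hi, e⟩ := h.2 j hj
    rw [e, forall_trS]
    intro g hg
    exact (key g).2 (hy i hi g hg)

/-- the directions of the cell -/
theorem Rg.V (h : Rg T T' b p) : T'.V (p + b) = T.V p := by
  ext v
  constructor
  · intro hv i hi g hg e0
    obtain ⟨j, hj, e⟩ := h.1 i hi
    refine hv j hj (trh b g) (by rw [e]; exact mem_trS.2 hg) ?_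
    show g.1 (p + b) = g.2 + g.1 b
    rw [map_add, e0]
  · intro hv j hj
    obtain ⟨i, hi, e⟩ := h.2 j hj
    rw [e, forall_trS]
    intro g hg e0
    refine hv i hi g hg ?_
    have e1 : g.1 (p + b) = g.2 + g.1 b := e0
    rw [map_add, add_left_inj] at e1
    exact e1

theorem Rg.dim (h : Rg T T' b p) : T'.dim (p + b) = T.dim p := by
  unfold Tiling.dim
  rw [h.V]

theorem Rg.mem_Om (h : Rg T T' b p) : p + b ∈ Om' ↔ p ∈ Om := by
  constructor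
  · intro hp
    obtain ⟨j, hj⟩ := T'.at_nonempty hp
    obtain ⟨i, hi, -⟩ := h.2 j hj
    exact T.sub i hi
  · intro hp
    obtain ⟨i, hi⟩ := T.at_nonempty hp
    obtain ⟨j, hj, -⟩ := h.1 i hi
    exact T'.sub j hj

/-- rigidity of a cut mesh -/
theorem Rg.cut {A : ι → Finset ((E →L[ℝ] ℝ) × ℝ)} {hA : ∀ i, ∀ a ∈ A i, a.1 ≠ 0}
    {A' : ι' → Finset ((E →L[ℝ] ℝ) × ℝ)} {hA' : ∀ i, ∀ a ∈ A' i, a.1 ≠ 0} (h : Rg T T' b p)
    (hAA : ∀ i ∈ T.at_ p, ∀ i', T'.H i' = trS b (T.H i) → A' i' = trS b (A i)) :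
    Rg (Cut_874.cut T A hA) (Cut_874.cut T' A' hA') b p := by
  classical
  constructor
  · rintro ⟨⟨i, σ⟩, hσ, hne⟩ hi
    have hi0 : i ∈ T.at_ p := (mem_P_cutH.1 (show p ∈ P (cutH (T.H i) (A i) σ) from hi)).1
    obtain ⟨i', hi', e⟩ := h.1 i hi0
    have e2 := hAA i hi0 i' e
    have e3 : cutH (T'.H i') (A' i') (trS b σ) = trS b (cutH (T.H i) (A i) σ) := by
      rw [e, e2, trS_cutH]
    refine ⟨⟨⟨i', trS b σ⟩, ?_, ?_⟩, ?_, e3⟩
    · rw [e2]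
      exact Finset.image_subset_image hσ
    · rw [e3]
      exact I_trS_ne hne
    · show p + b ∈ P (cutH (T'.H i') (A' i') (trS b σ))
      rw [e3]
      exact mem_P_trS.2 hi
  · rintro ⟨⟨i', σ'⟩, hσ, hne⟩ hi
    have hi0 : i' ∈ T'.at_ (p + b) :=
      (mem_P_cutH.1 (show p + b ∈ P (cutH (T'.H i') (A' i') σ') from hi)).1
    obtain ⟨i, hi1, e⟩ := h.2 i' hi0
    have e2 := hAA i hi1 i' e
    obtain ⟨σ, rfl⟩ : ∃ σ, σ' = trS b σ := ⟨trS (-b) σ', by rw [trS_trS, neg_add_cancel, trS_zero]⟩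
    have e3 : cutH (T'.H i') (A' i') (trS b σ) = trS b (cutH (T.H i) (A i) σ) := by
      rw [e, e2, trS_cutH]
    refine ⟨⟨⟨i, σ⟩, ?_, ?_⟩, ?_, e3⟩
    · intro a ha
      have h1 : trh b a ∈ A' i' := hσ (mem_trS.2 ha)
      rw [e2] at h1
      exact mem_trS.1 h1
    · have h1 : (I (trS b (cutH (T.H i) (A i) σ))).Nonempty := by
        rw [← e3]; exact hne
      obtain ⟨y, hy⟩ := h1
      refine ⟨y - b, (mem_I_trS (b := b)).1 ?_⟩
      rwa [sub_add_cancel]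
    · show p ∈ P (cutH (T.H i) (A i) σ)
      have h1 : p + b ∈ P (cutH (T'.H i') (A' i') (trS b σ)) := hi
      rw [e3] at h1
      exact mem_P_trS.1 h1

/-- rigidity of a patched mesh -/
theorem Rg.patch {A : Set ι} {A' : Set ι'} {κ κ' : Type*} {H : κ → Finset ((E →L[ℝ] ℝ) × ℝ)}
    {H' : κ' → Finset ((E →L[ℝ] ℝ) × ℝ)} {R : Repl T A H} {R' : Repl T' A' H'} (h : Rg T T' b p)
    (hA : ∀ i ∈ T.at_ p, ∀ i', T'.H i' = trS b (T.H i) → (i' ∈ A' ↔ i ∈ A))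
    (h1 : ∀ k, p ∈ P (H k) → ∃ k', H' k' = trS b (H k))
    (h2 : ∀ k', p + b ∈ P (H' k') → ∃ k, H' k' = trS b (H k)) :
    Rg (Mal_874.patch T A H R) (Mal_874.patch T' A' H' R') b p := by
  constructor
  · rintro (i | k) hi
    · obtain ⟨i', hi', e⟩ := h.1 i.1 hi
      exact ⟨Sum.inl ⟨i', fun hh => i.2 ((hA i.1 hi i' e).1 hh)⟩, hi', e⟩
    · obtain ⟨k', e⟩ := h1 k hi
      refine ⟨Sum.inr k', ?_, e⟩
      show p + b ∈ P (H' k')
      rw [e]
      exact mem_P_trS.2 hi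
  · rintro (i' | k') hi'
    · obtain ⟨i, hi, e⟩ := h.2 i'.1 hi'
      exact ⟨Sum.inl ⟨i, fun hh => i'.2 ((hA i hi i'.1 e).2 hh)⟩, hi, e⟩
    · obtain ⟨k, e⟩ := h2 k' hi'
      refine ⟨Sum.inr k, ?_, e⟩
      show p ∈ P (H k)
      have h3 : p + b ∈ P (H' k') := hi'
      rw [e] at h3
      exact mem_P_trS.1 h3

end

/-! ### graded cubes -/

theorem Hc_tr (φ : E ≃L[ℝ] (Fin n → ℝ)) (a : Fin n → ℝ) (b : E) (k : ℕ) (z : Fin n → ℤ) :
    Hc φ (a + φ b) k z = trS b (Hc φ a k z) := by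
  classical
  unfold Hc trS
  rw [Finset.image_image]
  congr 1
  funext q
  show hc φ (a + φ b) k z q = trh b (hc φ a k z q)
  unfold hc trh
  by_cases h : q.2 = true
  · rw [if_pos h, if_pos h]
    ext1
    · rfl
    · show a q.1 + φ b q.1 + _ = a q.1 + _ + φ b q.1
      ring
  · rw [if_neg h, if_neg h]
    ext1
    · rfl
    · show -(a q.1 + φ b q.1 + _) = -(a q.1 + _) + -(φ b q.1)
      ring

theorem ps_add (a c x : Fin n → ℝ) (k : ℕ) : ps (a + c) k (x + c) = ps a k x := by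
  funext i
  unfold ps
  simp only [Pi.add_apply]
  ring

theorem mem_Cu_add {a c x : Fin n → ℝ} {k : ℕ} {z : Fin n → ℤ} :
    x + c ∈ Cu (a + c) k z ↔ x ∈ Cu a k z := by
  rw [mem_Cu, mem_Cu, ps_add]

theorem mem_Do_add {a c x : Fin n → ℝ} {σ : Idx n} : x + c ∈ Do (a + c) σ ↔ x ∈ Do a σ := by
  unfold Do
  rw [mem_ofPred_eq, mem_ofPred_eq, ps_add]

/-- data of a translated Whitney mesh -/
structure TrD (D D' : Dat n) (c : Fin n → ℝ) : Prop where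
  ρ : ∀ x, D'.ρ (x + c) = D.ρ x
  C : D'.C = D.C
  a : D'.a = D.a + c

theorem TrD.adm {D D' : Dat n} {c : Fin n → ℝ} (h : TrD D D' c) {k : ℕ} {z : Fin n → ℤ} :
    Msh_810.Adm D' k z ↔ Msh_810.Adm D k z := by
  unfold Msh_810.Adm
  rw [h.C, h.a]
  constructor
  · intro hx x hxz
    rw [← h.ρ x]
    exact hx _ (mem_Cu_add.2 hxz)
  · intro hx x hxz
    have e : x = (x - c) + c := by abel
    rw [e, h.ρ]
    refine hx _ (mem_Cu_add (c := c).1 ?_)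
    rwa [← e]

theorem TrD.K {D D' : Dat n} {c : Fin n → ℝ} (h : TrD D D' c) (x : Fin n → ℝ) :
    K D' (x + c) = K D x := by
  unfold Msh_810.K
  congr 1
  ext k
  unfold gd
  rw [mem_ofPred_eq, mem_ofPred_eq]
  refine forall_congr' fun z => ?_
  rw [h.adm, h.a, mem_Cu_add]

theorem TrD.isM {D D' : Dat n} {c : Fin n → ℝ} (h : TrD D D' c) {σ : Idx n} :
    IsM D' σ ↔ IsM D σ := by
  unfold IsM
  constructor
  · rintro ⟨x, hx, hx0, hxK⟩
    have e : x = (x - c) + c := by abel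
    rw [e, h.a, mem_Do_add] at hx
    rw [e, h.ρ] at hx0
    rw [e, h.K] at hxK
    exact ⟨x - c, hx, hx0, hxK⟩
  · rintro ⟨x, hx, hx0, hxK⟩
    refine ⟨x + c, ?_, ?_, ?_⟩
    · rw [h.a]; exact mem_Do_add.2 hx
    · rw [h.ρ]; exact hx0
    · rw [h.K]; exact hxK

theorem mem_at_tiling {φ : E ≃L[ℝ] (Fin n → ℝ)} {D : Dat n} {p : E} {τ : Top D} :
    τ ∈ (tiling φ D).at_ p ↔ φ p ∈ Cu D.a τ.1.1.k τ.1.1.z := by
  have h := P_Hc φ D.a τ.1.1.k τ.1.1.z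
  change p ∈ P (Hc φ D.a τ.1.1.k τ.1.1.z) ↔ _
  rw [h]
  rfl

/-- a Whitney mesh and its translate -/
theorem TrD.rg {φ : E ≃L[ℝ] (Fin n → ℝ)} {D D' : Dat n} {b : E} (h : TrD D D' (φ b)) (p : E) :
    Rg (tiling φ D) (tiling φ D') b p := by
  constructor
  · rintro τ hτ
    refine ⟨⟨⟨τ.1.1, h.isM.2 τ.1.2⟩, τ.2⟩, ?_, ?_⟩
    · rw [mem_at_tiling] at hτ ⊢
      rw [map_add, h.a]
      exact mem_Cu_add.2 hτ
    · show Hc φ D'.a _ _ = trS b (Hc φ D.a _ _)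
      rw [h.a, Hc_tr]
  · rintro τ hτ
    refine ⟨⟨⟨τ.1.1, h.isM.1 τ.1.2⟩, τ.2⟩, ?_, ?_⟩
    · rw [mem_at_tiling] at hτ ⊢
      rw [map_add, h.a] at hτ
      exact mem_Cu_add.1 hτ
    · show Hc φ D'.a _ _ = trS b (Hc φ D.a _ _)
      rw [h.a, Hc_tr]

/-- near a point where the scale is `κ` all cubes of scale `κ` are tiles -/
theorem isM_of_near {D : Dat n} {x : Fin n → ℝ} {κ : ℕ} (hx : x ∈ D.Om)
    (h : ∀ᶠ y in 𝓝 x, K D y = κ) {z : Fin n → ℤ} (hz : x ∈ Cu D.a κ z) :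
    IsM D ⟨κ, z, Finset.univ⟩ := by
  have h1 : ∀ᶠ y in 𝓝 x, 0 < D.ρ y :=
    (isOpen_lt continuous_const D.continuous_ρ).mem_nhds hx
  have h2 := (mem_closure_iff_frequently.1 (Cu_sub_closure D.a κ z hz)).and_eventually (h.and h1)
  obtain ⟨y, hy1, hy2, hy3⟩ := h2.exists
  refine ⟨y, ?_, hy3, hy2⟩
  rw [Do_univ]
  exact hy1

/-- **two Whitney meshes with constant scale near the point** -/
theorem rg_const {φ : E ≃L[ℝ] (Fin n → ℝ)} {D D' : Dat n} {b p : E} (ha : D'.a = D.a + φ b)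
    {κ : ℕ} (hp : φ p ∈ D.Om) (hp' : φ (p + b) ∈ D'.Om) (h : ∀ᶠ y in 𝓝 (φ p), K D y = κ)
    (h' : ∀ᶠ y in 𝓝 (φ (p + b)), K D' y = κ) : Rg (tiling φ D) (tiling φ D') b p := by
  constructor
  · rintro τ hτ
    have hk : τ.1.1.k = κ := tile_k_eq (φ := φ) (D := D) (x := p) hτ h
    rw [mem_at_tiling] at hτ
    have hz : φ (p + b) ∈ Cu D'.a κ τ.1.1.z := by
      rw [map_add, ha, ← hk]
      exact mem_Cu_add.2 hτ
    refine ⟨⟨⟨⟨κ, τ.1.1.z, Finset.univ⟩, isM_of_near hp' h' hz⟩, rfl⟩, ?_, ?_⟩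
    · rw [mem_at_tiling]
      exact hz
    · show Hc φ D'.a κ _ = trS b (Hc φ D.a τ.1.1.k _)
      rw [ha, Hc_tr, hk]
  · rintro τ hτ
    have hk : τ.1.1.k = κ := tile_k_eq (φ := φ) (D := D') (x := p + b) hτ h'
    rw [mem_at_tiling] at hτ
    have hz : φ p ∈ Cu D.a κ τ.1.1.z := by
      rw [map_add, ha, hk] at hτ
      exact mem_Cu_add.1 hτ
    refine ⟨⟨⟨⟨κ, τ.1.1.z, Finset.univ⟩, isM_of_near hp h hz⟩, rfl⟩, ?_, ?_⟩
    · rw [mem_at_tiling]
      exact hz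
    · show Hc φ D'.a τ.1.1.k _ = trS b (Hc φ D.a κ _)
      rw [ha, Hc_tr, hk]

end Crest.Agent.R096.Mal_874
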