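import Crest.Agent.R096.Mal3_874

/-!
# Row 96, library (MESH-AL), part 4: the outer mesh cut along the walls of the blocks
-/

set_option autoImplicit false

open Set Filter Topology Metric

namespace Crest.Agent.R096.Mal_874

open Msh_715 Cut_874 Msh_810

variable {n : ℕ} {E : Type*} [NormedAddCommGroup E] [NormedSpace ℝ E]

/-! ### the block as a set -/

/-- the block: polycube in the frame `ψ` with shift `a'` -/
def blk (ψ : E ≃L[ℝ] (Fin n → ℝ)) (a' : Fin n → ℝ) (κ : ℕ) (Z : Set (Fin n → ℤ)) : Set E :=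
  ψ ⁻¹' pc a' κ Z

theorem blk_compact {ψ : E ≃L[ℝ] (Fin n → ℝ)} {a' : Fin n → ℝ} {κ : ℕ} {Z : Set (Fin n → ℤ)}
    (hZ : Z.Finite) : IsCompact (blk ψ a' κ Z) :=
  ψ.toHomeomorph.isCompact_preimage.2 (pc_compact hZ)

theorem blk_regular (ψ : E ≃L[ℝ] (Fin n → ℝ)) (a' : Fin n → ℝ) (κ : ℕ) (Z : Set (Fin n → ℤ)) :
    blk ψ a' κ Z ⊆ closure (interior (blk ψ a' κ Z)) := by
  have h1 : ψ ⁻¹' closure (interior (pc a' κ Z)) = closure (interior (ψ ⁻¹' pc a' κ Z)) := by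
    have h2 := ψ.toHomeomorph.preimage_closure (interior (pc a' κ Z))
    have h3 := ψ.toHomeomorph.preimage_interior (pc a' κ Z)
    change ψ ⁻¹' closure (interior (pc a' κ Z)) = closure (ψ ⁻¹' interior (pc a' κ Z)) at h2
    change ψ ⁻¹' interior (pc a' κ Z) = interior (ψ ⁻¹' pc a' κ Z) at h3
    rw [h2, h3]
  intro x hx
  have := pc_regular a' κ Z hx
  rw [← mem_preimage, h1] at this
  exact this

/-- **the block is a union of tiles of a Whitney mesh in its frame with scales `≥ κ`** -/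
theorem isUn_tiling {ψ : E ≃L[ℝ] (Fin n → ℝ)} {D : Dat n} {κ : ℕ} {Z : Set (Fin n → ℤ)}
    (hO : pc D.a κ Z ⊆ D.Om) (hκ : ∀ x, 2 ^ κ * D.ρ x ≤ D.C) :
    IsUn (tiling ψ D) (blk ψ D.a κ Z) := by
  refine IsUn.of_side (blk_regular ψ D.a κ Z) (preimage_mono hO) ?_
  intro τ
  obtain ⟨x, hx, hx0, hxK⟩ := τ.1.2
  have hk : κ ≤ τ.1.1.k := hxK ▸ le_K_of hx0 (hκ x)
  have h1 : P ((tiling ψ D).H τ) = ψ ⁻¹' Cu D.a τ.1.1.k τ.1.1.z := P_Hc _ _ _ _
  have h2 : I ((tiling ψ D).H τ) = ψ ⁻¹' Co D.a τ.1.1.k τ.1.1.z := by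
    have := I_Hc ψ D.a τ.1.1.k τ.1.1.z
    rw [Do_univ] at this
    exact this
  obtain ⟨h3, h4⟩ := Cu_nest D.a hk τ.1.1.z
  rcases pc_side (Z := Z) h3 h4 with h | h
  · left
    rw [h1]
    exact preimage_mono h
  · right
    rw [h2]
    exact (h.preimage ψ).mono_right interior_subset

/-! ### the planes -/

variable {Om : Set E} {ι : Type*}

/-- the walls of the grid `(ψ, a', κ)` which meet the tile `i` -/
def plS (T : Tiling Om ι) (ψ : E ≃L[ℝ] (Fin n → ℝ)) (a' : Fin n → ℝ) (κ : ℕ) (i : ι) :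
    Set ((E →L[ℝ] ℝ) × ℝ) :=
  {h | ∃ m, ∃ t : ℤ, (co ψ m, a' m + t / 2 ^ κ) = h ∧ ∃ y ∈ P (T.H i), ψ y m = a' m + t / 2 ^ κ}

theorem plS_finite (T : Tiling Om ι) (ψ : E ≃L[ℝ] (Fin n → ℝ)) (a' : Fin n → ℝ) (κ : ℕ) (i : ι) :
    (plS T ψ a' κ i).Finite := by
  have hp : (0 : ℝ) < 2 ^ κ := by positivity
  have hb : ∀ m, ∃ R : ℝ, ∀ y ∈ P (T.H i), |ps a' κ (ψ y) m| ≤ R := by
    intro m
    have hc : ContinuousOn (fun y => ps a' κ (ψ y) m) (P (T.H i)) :=
      ((continuous_ps a' κ m).comp ψ.continuous).continuousOn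
    obtain ⟨R, hR⟩ := (T.cpt i).exists_bound_of_continuousOn hc
    exact ⟨R, fun y hy => hR y hy⟩
  choose R hR using hb
  have hfin : (⋃ m, (fun t : ℤ => ((co ψ m, a' m + t / 2 ^ κ) : (E →L[ℝ] ℝ) × ℝ)) ''
      {t : ℤ | |(t : ℝ)| ≤ R m}).Finite := by
    refine Set.finite_iUnion fun m => Set.Finite.image _ ?_
    refine (Set.finite_Icc (-⌈R m⌉) ⌈R m⌉).subset ?_
    intro t ht
    have h0 : |(t : ℝ)| ≤ R m := ht
    have h2 := abs_le.1 h0
    have h3 : (t : ℝ) ≤ (⌈R m⌉ : ℤ) := h2.2.trans (Int.le_ceil _)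
    have h4 : (-(⌈R m⌉ : ℤ) : ℝ) ≤ t := by
      have := Int.le_ceil (R m)
      linarith
    exact ⟨by exact_mod_cast h4, by exact_mod_cast h3⟩
  refine hfin.subset ?_
  rintro h ⟨m, t, rfl, y, hy, e⟩
  refine mem_iUnion.2 ⟨m, t, ?_, rfl⟩
  have h1 := hR m y hy
  have h2 : ps a' κ (ψ y) m = t := by
    unfold ps
    rw [e]
    field_simp
    ring
  rw [h2] at h1
  exact h1

variable {J : Type*}

/-- the planes which cut the tile `i`: the walls of all blocks whose frontier meets the tile -/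
def AS (T : Tiling Om ι) (ψ : J → E ≃L[ℝ] (Fin n → ℝ)) (a' : J → Fin n → ℝ) (κ : J → ℕ)
    (Z : J → Set (Fin n → ℤ)) (i : ι) : Set ((E →L[ℝ] ℝ) × ℝ) :=
  {h | ∃ j, (P (T.H i) ∩ frontier (blk (ψ j) (a' j) (κ j) (Z j))).Nonempty ∧
    h ∈ plS T (ψ j) (a' j) (κ j) i}

/-- local finiteness of the walls -/
def WLF (T : Tiling Om ι) (ψ : J → E ≃L[ℝ] (Fin n → ℝ)) (a' : J → Fin n → ℝ) (κ : J → ℕ)
    (Z : J → Set (Fin n → ℤ)) : Prop :=
  ∀ i, {j | (P (T.H i) ∩ frontier (blk (ψ j) (a' j) (κ j) (Z j))).Nonempty}.Finite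

theorem AS_finite {T : Tiling Om ι} {ψ : J → E ≃L[ℝ] (Fin n → ℝ)} {a' : J → Fin n → ℝ}
    {κ : J → ℕ} {Z : J → Set (Fin n → ℤ)} (hW : WLF T ψ a' κ Z) (i : ι) :
    (AS T ψ a' κ Z i).Finite := by
  refine ((hW i).biUnion fun j _ => plS_finite T (ψ j) (a' j) (κ j) i).subset ?_
  rintro h ⟨j, hj', hj⟩
  simp only [Set.mem_iUnion]
  exact ⟨j, hj', hj⟩

/-- walls are locally finite if the blocks are -/
theorem WLF.of_lf {T : Tiling Om ι} {ψ : J → E ≃L[ℝ] (Fin n → ℝ)} {a' : J → Fin n → ℝ}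
    {κ : J → ℕ} {Z : J → Set (Fin n → ℤ)} (hZ : ∀ j, (Z j).Finite)
    (h : ∀ x ∈ Om, ∃ r > 0, {j | (blk (ψ j) (a' j) (κ j) (Z j) ∩ ball x r).Nonempty}.Finite) :
    WLF T ψ a' κ Z := by
  intro i
  choose! r hr hf using h
  obtain ⟨t, ht, hc⟩ := (T.cpt i).elim_nhds_subcover (fun x => ball x (r x))
    (fun x hx => ball_mem_nhds x (hr x (T.sub i hx)))
  refine (t.finite_toSet.biUnion (fun x hx => hf x (T.sub i (ht x hx)))).subset ?_
  rintro j ⟨y, hy1, hy2⟩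
  have hyN : y ∈ blk (ψ j) (a' j) (κ j) (Z j) :=
    (blk_compact (hZ j)).isClosed.frontier_subset hy2
  have := hc hy1
  simp only [Set.mem_iUnion] at this
  obtain ⟨x, hx, hxy⟩ := this
  simp only [Set.mem_iUnion]
  exact ⟨x, hx, y, hyN, hxy⟩

/-- the cutting planes as a finite set -/
noncomputable def AF (T : Tiling Om ι) (ψ : J → E ≃L[ℝ] (Fin n → ℝ)) (a' : J → Fin n → ℝ)
    (κ : J → ℕ) (Z : J → Set (Fin n → ℤ)) (i : ι) : Finset ((E →L[ℝ] ℝ) × ℝ) := by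
  classical
  exact if h : (AS T ψ a' κ Z i).Finite then h.toFinset else ∅

theorem of_mem_AF {T : Tiling Om ι} {ψ : J → E ≃L[ℝ] (Fin n → ℝ)} {a' : J → Fin n → ℝ}
    {κ : J → ℕ} {Z : J → Set (Fin n → ℤ)} {i : ι} {h : (E →L[ℝ] ℝ) × ℝ}
    (hh : h ∈ AF T ψ a' κ Z i) :
    ∃ j, (P (T.H i) ∩ frontier (blk (ψ j) (a' j) (κ j) (Z j))).Nonempty ∧
      h ∈ plS T (ψ j) (a' j) (κ j) i := by
  unfold AF at hh
  split_ifs at hh with h1
  · rw [Set.Finite.mem_toFinset] at hh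
    exact hh
  · exact absurd hh (Finset.notMem_empty _)

theorem mem_AF {T : Tiling Om ι} {ψ : J → E ≃L[ℝ] (Fin n → ℝ)} {a' : J → Fin n → ℝ}
    {κ : J → ℕ} {Z : J → Set (Fin n → ℤ)} (hW : WLF T ψ a' κ Z) {i : ι} {h : (E →L[ℝ] ℝ) × ℝ} :
    h ∈ AF T ψ a' κ Z i ↔ ∃ j, (P (T.H i) ∩ frontier (blk (ψ j) (a' j) (κ j) (Z j))).Nonempty ∧
      h ∈ plS T (ψ j) (a' j) (κ j) i := by
  refine ⟨of_mem_AF, fun hh => ?_⟩
  unfold AF
  rw [dif_pos (AS_finite hW i), Set.Finite.mem_toFinset]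
  exact hh

theorem AF_ne {T : Tiling Om ι} {ψ : J → E ≃L[ℝ] (Fin n → ℝ)} {a' : J → Fin n → ℝ}
    {κ : J → ℕ} {Z : J → Set (Fin n → ℤ)} : ∀ i, ∀ h ∈ AF T ψ a' κ Z i, h.1 ≠ 0 := by
  intro i h hh
  obtain ⟨j, -, m, t, rfl, -⟩ := of_mem_AF hh
  exact co_ne_zero _ _

/-- **the outer mesh cut along the walls of the blocks** -/
noncomputable def outer (T : Tiling Om ι) (ψ : J → E ≃L[ℝ] (Fin n → ℝ)) (a' : J → Fin n → ℝ)
    (κ : J → ℕ) (Z : J → Set (Fin n → ℤ)) : Tiling Om (CutIx T (AF T ψ a' κ Z)) :=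
  cut T (AF T ψ a' κ Z) AF_ne

section

variable {T : Tiling Om ι} {ψ : J → E ≃L[ℝ] (Fin n → ℝ)} {a' : J → Fin n → ℝ}
  {κ : J → ℕ} {Z : J → Set (Fin n → ℤ)}

/-- a tile which meets no frontier is not cut -/
theorem AF_empty {i : ι}
    (h : ∀ j, Disjoint (P (T.H i)) (frontier (blk (ψ j) (a' j) (κ j) (Z j)))) :
    AF T ψ a' κ Z i = ∅ := by
  rw [Finset.eq_empty_iff_forall_notMem]
  intro x hx
  obtain ⟨j, ⟨y, hy1, hy2⟩, -⟩ := of_mem_AF hx
  exact Set.disjoint_left.1 (h j) hy1 hy2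

/-- a piece of a tile which meets the frontier of the block `j` lies in one cube of its grid -/
theorem piece_cube (hW : WLF T ψ a' κ Z) {p : CutIx T (AF T ψ a' κ Z)} {j : J}
    (hj : (P (T.H p.par) ∩ frontier (blk (ψ j) (a' j) (κ j) (Z j))).Nonempty) :
    ∃ z, P ((outer T ψ a' κ Z).H p) ⊆ ψ j ⁻¹' Cu (a' j) (κ j) z ∧
      I ((outer T ψ a' κ Z).H p) ⊆ ψ j ⁻¹' Co (a' j) (κ j) z := by
  have hp : (0 : ℝ) < 2 ^ κ j := by positivity
  obtain ⟨y0, hy0⟩ := (outer T ψ a' κ Z).ne p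
  have hy0' : y0 ∈ P ((outer T ψ a' κ Z).H p) := I_sub_P _ hy0
  -- walls
  have hwall : ∀ (m : Fin n) (t : ℤ), (∃ y ∈ P (T.H p.par), ps (a' j) (κ j) (ψ j y) m = t) →
      ((∀ y ∈ P ((outer T ψ a' κ Z).H p), ps (a' j) (κ j) (ψ j y) m ≤ t) ∧
        ∀ y ∈ I ((outer T ψ a' κ Z).H p), ps (a' j) (κ j) (ψ j y) m < t) ∨
      ((∀ y ∈ P ((outer T ψ a' κ Z).H p), (t : ℝ) ≤ ps (a' j) (κ j) (ψ j y) m) ∧
        ∀ y ∈ I ((outer T ψ a' κ Z).H p), (t : ℝ) < ps (a' j) (κ j) (ψ j y) m) := by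
    rintro m t ⟨y, hy, e⟩
    have conv : ∀ w : E, (ψ j w m ≤ a' j m + t / 2 ^ κ j ↔ ps (a' j) (κ j) (ψ j w) m ≤ t) ∧
        (ψ j w m < a' j m + t / 2 ^ κ j ↔ ps (a' j) (κ j) (ψ j w) m < t) := by
      intro w
      unfold ps
      constructor
      · rw [← sub_le_iff_le_add', le_div_iff₀' hp]
      · rw [← sub_lt_iff_lt_add', lt_div_iff₀' hp]
    have conv' : ∀ w : E, (a' j m + t / 2 ^ κ j ≤ ψ j w m ↔ (t : ℝ) ≤ ps (a' j) (κ j) (ψ j w) m) ∧
        (a' j m + t / 2 ^ κ j < ψ j w m ↔ (t : ℝ) < ps (a' j) (κ j) (ψ j w) m) := by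
      intro w
      have := conv w
      constructor
      · rw [← not_lt, this.2, not_lt]
      · rw [← not_le, this.1, not_le]
    have hmem : ((co (ψ j) m, a' j m + t / 2 ^ κ j) : (E →L[ℝ] ℝ) × ℝ) ∈
        AF T ψ a' κ Z p.par := by
      refine (mem_AF hW).2 ⟨j, hj, m, t, rfl, y, hy, ?_⟩
      apply le_antisymm
      · exact (conv y).1.2 e.le
      · exact (conv' y).1.2 e.ge
    by_cases hs : ((co (ψ j) m, a' j m + t / 2 ^ κ j) : (E →L[ℝ] ℝ) × ℝ) ∈ p.sg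
    · left
      constructor
      · intro w hw
        exact (conv w).1.1 ((mem_P_cutH.1 hw).2.1 _ hs)
      · intro w hw
        exact (conv w).2.1 ((mem_I_cutH.1 hw).2.1 _ hs)
    · right
      constructor
      · intro w hw
        exact (conv' w).1.1 ((mem_P_cutH.1 hw).2.2 _ hmem hs)
      · intro w hw
        exact (conv' w).2.1 ((mem_I_cutH.1 hw).2.2 _ hmem hs)
  have hsub : ∀ y ∈ P ((outer T ψ a' κ Z).H p), y ∈ P (T.H p.par) := fun y hy => cut_tile_sub p hy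
  -- intermediate values
  have hmeet : ∀ (m : Fin n) (t : ℤ), ∀ y ∈ P (T.H p.par), ∀ w ∈ P (T.H p.par),
      ps (a' j) (κ j) (ψ j y) m ≤ t → (t : ℝ) ≤ ps (a' j) (κ j) (ψ j w) m →
      ∃ v ∈ P (T.H p.par), ps (a' j) (κ j) (ψ j v) m = t := by
    intro m t y hy w hw h1 h2
    have hc : ContinuousOn (fun v => ps (a' j) (κ j) (ψ j v) m) (P (T.H p.par)) :=
      ((continuous_ps (a' j) (κ j) m).comp (ψ j).continuous).continuousOn
    obtain ⟨v, hv, e⟩ := (convex_P (T.H p.par)).isPreconnected.intermediate_value hy hw hc ⟨h1, h2⟩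
    exact ⟨v, hv, e⟩
  refine ⟨fun m => ⌊ps (a' j) (κ j) (ψ j y0) m⌋, ?_, ?_⟩
  · intro y hy
    rw [mem_preimage, mem_Cu]
    intro m
    constructor
    · by_contra hcon
      push Not at hcon
      rcases hwall m _ (hmeet m _ y (hsub y hy) y0 (hsub y0 hy0') hcon.le (Int.floor_le _)) with h | h
      · exact absurd (h.2 y0 hy0) (not_lt.2 (Int.floor_le _))
      · exact absurd (h.1 y hy) (not_le.2 hcon)
    · by_contra hcon
      push Not at hcon
      have h1 : ps (a' j) (κ j) (ψ j y0) m ≤ ((⌊ps (a' j) (κ j) (ψ j y0) m⌋ + 1 : ℤ) : ℝ) := by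
        push_cast
        exact (Int.lt_floor_add_one _).le
      have h2 : ((⌊ps (a' j) (κ j) (ψ j y0) m⌋ + 1 : ℤ) : ℝ) ≤ ps (a' j) (κ j) (ψ j y) m := by
        push_cast
        exact hcon.le
      rcases hwall m _ (hmeet m _ y0 (hsub y0 hy0') y (hsub y hy) h1 h2) with h | h
      · have := h.1 y hy
        push_cast at this
        exact absurd this (not_le.2 hcon)
      · have := h.2 y0 hy0
        push_cast at this
        exact absurd this (not_lt.2 (Int.lt_floor_add_one _).le)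
  · intro y hy m
    have hyP := I_sub_P _ hy
    constructor
    · by_contra hcon
      push Not at hcon
      rcases hwall m _ (hmeet m _ y (hsub y hyP) y0 (hsub y0 hy0') hcon (Int.floor_le _)) with h | h
      · exact absurd (h.2 y0 hy0) (not_lt.2 (Int.floor_le _))
      · exact absurd (h.2 y hy) (not_lt.2 hcon)
    · by_contra hcon
      push Not at hcon
      have h1 : ps (a' j) (κ j) (ψ j y0) m ≤ ((⌊ps (a' j) (κ j) (ψ j y0) m⌋ + 1 : ℤ) : ℝ) := by
        push_cast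
        exact (Int.lt_floor_add_one _).le
      have h2 : ((⌊ps (a' j) (κ j) (ψ j y0) m⌋ + 1 : ℤ) : ℝ) ≤ ps (a' j) (κ j) (ψ j y) m := by
        push_cast
        exact hcon
      rcases hwall m _ (hmeet m _ y0 (hsub y0 hy0') y (hsub y hyP) h1 h2) with h | h
      · have := h.2 y hy
        push_cast at this
        exact absurd this (not_lt.2 hcon)
      · have := h.2 y0 hy0
        push_cast at this
        exact absurd this (not_lt.2 (Int.lt_floor_add_one _).le)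

/-- **the blocks are unions of tiles of the cut outer mesh** -/
theorem isUn_outer (hW : WLF T ψ a' κ Z) {j : J} (hO : blk (ψ j) (a' j) (κ j) (Z j) ⊆ Om) :
    IsUn (outer T ψ a' κ Z) (blk (ψ j) (a' j) (κ j) (Z j)) := by
  refine IsUn.of_side (blk_regular _ _ _ _) hO ?_
  intro p
  by_cases hj : (P (T.H p.par) ∩ frontier (blk (ψ j) (a' j) (κ j) (Z j))).Nonempty
  · obtain ⟨z, h1, h2⟩ := piece_cube hW hj
    rcases pc_side (Z := Z j) (z := z) (S := Cu (a' j) (κ j) z) (So := Co (a' j) (κ j) z)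
      subset_rfl subset_rfl with h | h
    · exact Or.inl (h1.trans (preimage_mono h))
    · exact Or.inr (((h.preimage (ψ j)).mono_left h2).mono_right interior_subset)
  · rw [Set.not_nonempty_iff_eq_empty] at hj
    have hpre : IsPreconnected (P (T.H p.par)) := (convex_P _).isPreconnected
    have hcov : P (T.H p.par) ⊆ interior (blk (ψ j) (a' j) (κ j) (Z j)) ∪
        (closure (blk (ψ j) (a' j) (κ j) (Z j)))ᶜ := by
      intro y hy
      by_cases h1 : y ∈ closure (blk (ψ j) (a' j) (κ j) (Z j))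
      · left
        by_contra h2
        have : y ∈ P (T.H p.par) ∩ frontier (blk (ψ j) (a' j) (κ j) (Z j)) := ⟨hy, h1, h2⟩
        rw [hj] at this
        exact this
      · exact Or.inr h1
    have hdis : Disjoint (interior (blk (ψ j) (a' j) (κ j) (Z j)))
        (closure (blk (ψ j) (a' j) (κ j) (Z j)))ᶜ := by
      rw [Set.disjoint_left]
      intro y h1 h2
      exact h2 (subset_closure (interior_subset h1))
    rcases hpre.subset_or_subset isOpen_interior isClosed_closure.isOpen_compl hdis hcov with h | h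
    · left
      exact (cut_tile_sub p).trans (h.trans interior_subset)
    · right
      rw [Set.disjoint_left]
      intro y h1 h2
      exact h (cut_tile_sub p (I_sub_P _ h1)) (subset_closure (interior_subset h2))

end

end Crest.Agent.R096.Mal_874
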