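import Crest.Agent.R096.Mal5_874

/-!
# Row 96, library (MESH-AL), part 6: the universal list, the list of a block, configurations of the
final mesh
-/

set_option autoImplicit false

open Set Filter Topology Metric

namespace Crest.Agent.R096.Mal_874

open Msh_715 Cut_874 Msh_810

variable {n : ℕ} {E : Type*} [NormedAddCommGroup E] [NormedSpace ℝ E]
variable {Om : Set E} {ι : Type*}

/-- the unit vectors and their opposites -/
noncomputable def N0 (n : ℕ) : Finset (Fin n → ℝ) := by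
  classical
  exact Finset.univ.image (fun m : Fin n => Pi.single m (1 : ℝ)) ∪
    Finset.univ.image (fun m : Fin n => fun l => -(Pi.single m (1 : ℝ) : Fin n → ℝ) l)

theorem single_mem_N0 (m : Fin n) : (Pi.single m (1 : ℝ) : Fin n → ℝ) ∈ N0 n := by
  classical
  unfold N0
  exact Finset.mem_union_left _ (Finset.mem_image_of_mem _ (Finset.mem_univ m))

theorem neg_single_mem_N0 (m : Fin n) :
    (fun l => -(Pi.single m (1 : ℝ) : Fin n → ℝ) l) ∈ N0 n := by
  classical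
  unfold N0
  exact Finset.mem_union_right _ (Finset.mem_image_of_mem
    (fun m : Fin n => fun l => -(Pi.single m (1 : ℝ) : Fin n → ℝ) l) (Finset.mem_univ m))

theorem N0_rat {d : ℕ} (hd : 0 < d) : ∀ ν ∈ N0 n, ∀ m, ∃ c : ℤ, ν m = c / d := by
  classical
  have hd' : (d : ℝ) ≠ 0 := by exact_mod_cast hd.ne'
  intro ν hν m
  unfold N0 at hν
  rcases Finset.mem_union.1 hν with h | h
  · obtain ⟨l, -, rfl⟩ := Finset.mem_image.1 h
    by_cases hml : m = l
    · subst hml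
      exact ⟨d, by simp [hd']⟩
    · exact ⟨0, by simp [Pi.single_eq_of_ne hml]⟩
  · obtain ⟨l, -, rfl⟩ := Finset.mem_image.1 h
    by_cases hml : m = l
    · subst hml
      refine ⟨-d, ?_⟩
      simp only [Pi.single_eq_same]
      push_cast
      rw [neg_div, div_self hd']
    · exact ⟨0, by simp [Pi.single_eq_of_ne hml]⟩

theorem dt_single (m : Fin n) (u : Fin n → ℝ) : dt (Pi.single m 1) u = u m := by
  unfold dt
  rw [Finset.sum_eq_single m]
  · rw [Pi.single_eq_same, one_mul]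
  · intro l _ h
    rw [Pi.single_eq_of_ne h, zero_mul]
  · intro h
    exact absurd (Finset.mem_univ m) h

/-- scaled coordinates `2 ^ k (φ x - a)` -/
noncomputable def chi (φ : E ≃L[ℝ] (Fin n → ℝ)) (a : Fin n → ℝ) (k : ℕ) :
    E ≃ᵃ[ℝ] (Fin n → ℝ) :=
  (φ.toLinearEquiv.toAffineEquiv.trans (AffineEquiv.constVAdd ℝ (Fin n → ℝ) (-a))).trans
    (LinearEquiv.smulOfNeZero ℝ (Fin n → ℝ) ((2 : ℝ) ^ k) (by positivity)).toAffineEquiv

theorem chi_apply (φ : E ≃L[ℝ] (Fin n → ℝ)) (a : Fin n → ℝ) (k : ℕ) (x : E) (m : Fin n) :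
    chi φ a k x m = 2 ^ k * (φ x m - a m) := by
  show (2 : ℝ) ^ k * ((-a) m + φ x m) = _
  rw [Pi.neg_apply]
  ring

theorem fr_self (φ : E ≃L[ℝ] (Fin n → ℝ)) (a : Fin n → ℝ) (k : ℕ) {𝒩 : Finset (Fin n → ℝ)}
    (h : N0 n ⊆ 𝒩) (d : ℕ) : Fr (chi φ a k) k 𝒩 d φ a := by
  intro m
  refine ⟨Pi.single m 1, h (single_mem_N0 m), h (neg_single_mem_N0 m), 0, fun y => ?_⟩
  rw [dt_single, chi_apply]
  simp

/-- the frame of a block: `ψ y - a' = M (φ y - a) - b` with rational `M`, `b` -/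
theorem fr_block {φ ψ : E ≃L[ℝ] (Fin n → ℝ)} {a a' : Fin n → ℝ} {k : ℕ} {𝒩 : Finset (Fin n → ℝ)}
    {d : ℕ} (M : Fin n → Fin n → ℝ) (b : Fin n → ℝ)
    (hM : ∀ y m, ψ y m - a' m = dt (M m) (fun l => φ y l - a l) - b m)
    (h1 : ∀ m, M m ∈ 𝒩 ∧ (fun l => -(M m l)) ∈ 𝒩)
    (h2 : ∀ m, ∃ c : ℤ, 2 ^ k * b m = c / d) : Fr (chi φ a k) k 𝒩 d ψ a' := by
  intro m
  obtain ⟨c, hc⟩ := h2 m
  refine ⟨M m, (h1 m).1, (h1 m).2, -c, fun y => ?_⟩
  rw [hM y m, mul_sub, hc]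
  have e : dt (M m) (chi φ a k y) = 2 ^ k * dt (M m) (fun l => φ y l - a l) := by
    unfold dt
    rw [Finset.mul_sum]
    refine Finset.sum_congr rfl fun l _ => ?_
    rw [chi_apply]
    ring
  rw [e]
  push_cast
  ring

/-! ### the universal list -/

/-- two neighbouring tiles of a Whitney mesh: the scales differ by at most one -/
theorem K_le_succ {D : Dat n} {τ : Cel D} {x : Fin n → ℝ} (hx : x ∈ τ.c) : K D x ≤ τ.1.k + 1 := by
  have h1 := τ.2.lower hx
  have h0 : 0 < D.ρ x := τ.2.pos hx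
  have h2 := K_upper h0
  have hC := D.hC
  by_contra hcon
  push Not at hcon
  have h3 : (2 : ℝ) ^ (τ.1.k + 2) ≤ 2 ^ (K D x) := pow_le_pow_right₀ (by norm_num) hcon
  rw [pow_add] at h3
  nlinarith

theorem size_tile {φ : E ≃L[ℝ] (Fin n → ℝ)} {a : Fin n → ℝ} {k k' : ℕ} {z : Fin n → ℤ} {x y : E}
    (hx : φ x ∈ Cu a k' z) (hy : φ y ∈ Cu a k' z) (m : Fin n) :
    |chi φ a k y m - chi φ a k x m| ≤ 2 ^ k / 2 ^ k' := by
  have hp : (0 : ℝ) < 2 ^ k' := by positivity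
  have hk : (0 : ℝ) < 2 ^ k := by positivity
  have h1 := dist_le_of_mem_Cu hy hx
  have h2 : dist (φ y m) (φ x m) ≤ dist (φ y) (φ x) := dist_le_pi_dist _ _ m
  rw [Real.dist_eq] at h2
  rw [chi_apply, chi_apply, ← mul_sub, abs_mul, abs_of_pos hk, le_div_iff₀ hp]
  have e : φ y m - a m - (φ x m - a m) = φ y m - φ x m := by ring
  rw [e]
  have h3 : 2 ^ k' * |φ y m - φ x m| ≤ 1 := (mul_le_mul_of_nonneg_left h2 hp.le).trans h1
  nlinarith

/-- **every tile of a Whitney mesh has a configuration of the universal list** -/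
theorem sim_univ (φ : E ≃L[ℝ] (Fin n → ℝ)) (D : Dat n) (τ : Top D) :
    ∃ z : Fin n → ℤ, (fun K => ((chi φ D.a (τ.1.1.k + 1)).trans (trz z)) '' K) ''
      cfg (tiling φ D) τ ∈ simL (N0 n) 1 2 := by
  refine sim_tile (s := 2 ^ (τ.1.1.k + 1)) (by positivity) one_pos (N0_rat one_pos) ?_ ?_
  · rintro l ⟨x, hl, hx⟩
    refine gf_cube one_pos (fr_self φ D.a _ subset_rfl 1) ?_ _
    exact (tile_k_le hl).trans (K_le_succ (mem_at.1 hx))
  · intro x hx y hy m
    have hx' : φ x ∈ Cu D.a τ.1.1.k τ.1.1.z := by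
      have h1 : x ∈ P (Hc φ D.a τ.1.1.k τ.1.1.z) := hx
      rwa [P_Hc] at h1
    have hy' : φ y ∈ Cu D.a τ.1.1.k τ.1.1.z := by
      have h1 : y ∈ P (Hc φ D.a τ.1.1.k τ.1.1.z) := hy
      rwa [P_Hc] at h1
    refine (size_tile (k := τ.1.1.k + 1) hx' hy' m).trans ?_
    rw [pow_succ, mul_comm, mul_div_assoc, div_self (by positivity), mul_one]

/-! ### configurations of patched and cut tilings -/

theorem cfg_congr {Om' : Set E} {ι' : Type*} {T : Tiling Om ι} {T' : Tiling Om' ι'} {i : ι} {i' : ι'}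
    (hP : P (T.H i) = P (T'.H i')) (h : ∀ x ∈ P (T.H i), T.cc x = T'.cc x) :
    cfg T i = cfg T' i' := by
  ext K
  constructor
  · rintro ⟨x, hx, rfl⟩
    exact ⟨x, hP ▸ hx, h x hx⟩
  · rintro ⟨x, hx, rfl⟩
    exact ⟨x, hP ▸ hx, (h x (hP ▸ hx)).symm⟩

/-- a tile all of whose neighbours are untouched keeps its configuration -/
theorem cfg_cut {T : Tiling Om ι} {A : ι → Finset ((E →L[ℝ] ℝ) × ℝ)} {hA : ∀ i, ∀ a ∈ A i, a.1 ≠ 0}
    {p : CutIx T A} (h : ∀ l, (P (T.H l) ∩ P (T.H p.par)).Nonempty → A l = ∅) :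
    cfg (cut T A hA) p = cfg T p.par := by
  have h0 : A p.par = ∅ := by
    obtain ⟨x, hx⟩ := T.ne p.par
    exact h p.par ⟨x, I_sub_P _ hx, I_sub_P _ hx⟩
  have hP : P ((cut T A hA).H p) = P (T.H p.par) := by
    refine Set.Subset.antisymm (cut_tile_sub p) ?_
    intro x hx
    refine mem_P_cutH.2 ⟨hx, ?_, ?_⟩
    · intro a ha
      have h1 : a ∈ A p.par := p.2.1 ha
      rw [h0] at h1
      exact absurd h1 (Finset.notMem_empty _)
    · intro a ha
      have h1 : a ∈ A p.par := ha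
      rw [h0] at h1
      exact absurd h1 (Finset.notMem_empty _)
  refine cfg_congr hP fun x hx => ?_
  exact cc_cut_eq fun l hl => h l ⟨x, hl, hP ▸ hx⟩

section blocks

variable {J : Type*} {T : Tiling Om ι} {Om' : J → Set E} {ι' : J → Type*}
  {S : ∀ j, Tiling (Om' j) (ι' j)} {N : J → Set E} {hT : ∀ j, IsUn T (N j)}
  {hS : ∀ j, IsUn (S j) (N j)} {hc : ∀ j, IsCompact (N j)} {hO : ∀ j, N j ⊆ Om' j}
  {hd : ∀ j l, j ≠ l → Disjoint (N j) (N l)}
  {hlf : ∀ x ∈ Om, ∃ r > 0, {j | (N j ∩ ball x r).Nonempty}.Finite}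

/-- a tile off the blocks keeps its configuration -/
theorem cfg_off {i : {i // i ∉ {i | P (T.H i) ⊆ ⋃ j, N j}}} (h : Disjoint (P (T.H i.1)) (⋃ j, N j)) :
    cfg (blocks T S hT hS hc hO hd hlf) (Sum.inl i) = cfg T i.1 :=
  cfg_congr rfl fun _ hx => (blocks_off (Set.disjoint_left.1 h hx)).1

/-- a tile in the interior of a block keeps its configuration -/
theorem cfg_in {j : J} {i : {i : ι' j // P ((S j).H i) ⊆ N j}} (h : P ((S j).H i.1) ⊆ interior (N j)) :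
    cfg (blocks T S hT hS hc hO hd hlf) (Sum.inr ⟨j, i⟩) = cfg (S j) i.1 :=
  cfg_congr rfl fun _ hx => (blocks_in (h hx)).1

end blocks

end Crest.Agent.R096.Mal_874
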