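import Crest.Agent.R096.Mal6_874

/-!
# Row 96, library (MESH-AL), part 7: the layer tiles
-/

set_option autoImplicit false

open Set Filter Topology Metric

namespace Crest.Agent.R096.Mal_874

open Msh_715 Cut_874 Msh_810

variable {n : ℕ} {E : Type*} [NormedAddCommGroup E] [NormedSpace ℝ E]

section layer

variable {J : Type*} {φ : E ≃L[ℝ] (Fin n → ℝ)} {D : Dat n}
  {ψ : J → E ≃L[ℝ] (Fin n → ℝ)} {a' : J → Fin n → ℝ} {κ : J → ℕ} {Z : J → Set (Fin n → ℤ)}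
  {Om' : J → Set E} {ι' : J → Type*} {S : ∀ j, Tiling (Om' j) (ι' j)}
  {hT : ∀ j, IsUn (outer (tiling φ D) ψ a' κ Z) (blk (ψ j) (a' j) (κ j) (Z j))}
  {hS : ∀ j, IsUn (S j) (blk (ψ j) (a' j) (κ j) (Z j))}
  {hc : ∀ j, IsCompact (blk (ψ j) (a' j) (κ j) (Z j))}
  {hO : ∀ j, blk (ψ j) (a' j) (κ j) (Z j) ⊆ Om' j}
  {hd : ∀ j l, j ≠ l → Disjoint (blk (ψ j) (a' j) (κ j) (Z j)) (blk (ψ l) (a' l) (κ l) (Z l))}
  {hlf : ∀ x ∈ φ ⁻¹' D.Om, ∃ r > 0,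
    {j | (blk (ψ j) (a' j) (κ j) (Z j) ∩ ball x r).Nonempty}.Finite}

/-- the inequalities of a piece of the cut outer mesh are in good form -/
theorem gf_outer {χ : E → Fin n → ℝ} {k : ℕ} {𝒩 : Finset (Fin n → ℝ)} {d : ℕ} (hd : 0 < d)
    (F0 : Fr χ k 𝒩 d φ D.a) {p : CutIx (tiling φ D) (AF (tiling φ D) ψ a' κ Z)}
    (F : ∀ j, (P ((tiling φ D).H p.par) ∩ frontier (blk (ψ j) (a' j) (κ j) (Z j))).Nonempty →
      Fr χ k 𝒩 d (ψ j) (a' j) ∧ κ j ≤ k) (hk : p.par.1.1.k ≤ k) :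
    ∀ h ∈ (outer (tiling φ D) ψ a' κ Z).H p, ∃ ν, ∃ t : ℤ, GF χ (2 ^ k) 𝒩 d h ν t := by
  intro h hh
  rcases mem_cutH.1 hh with h1 | h1 | ⟨b, h1, -, rfl⟩
  · exact gf_cube hd F0 hk _ h h1
  · obtain ⟨j, hj, m, t, rfl, -⟩ := of_mem_AF (p.2.1 h1)
    exact (gf_wall hd (F j hj).1 (F j hj).2 m t).1
  · obtain ⟨j, hj, m, t, rfl, -⟩ := of_mem_AF h1
    exact (gf_wall hd (F j hj).1 (F j hj).2 m t).2

/-- **the configuration of a tile of the layer** -/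
theorem sim_layer {k : ℕ} {𝒩 : Finset (Fin n → ℝ)} {d : ℕ} (hd0 : 0 < d)
    (h𝒩 : ∀ ν ∈ 𝒩, ∀ m, ∃ c : ℤ, ν m = c / d) {χ : E ≃ᵃ[ℝ] (Fin n → ℝ)}
    (F0 : Fr χ k 𝒩 d φ D.a) {R : ℝ}
    {t : {p // p ∉ {p | P ((outer (tiling φ D) ψ a' κ Z).H p) ⊆
      ⋃ j, blk (ψ j) (a' j) (κ j) (Z j)}} ⊕
      Σ j, {i : ι' j // P ((S j).H i) ⊆ blk (ψ j) (a' j) (κ j) (Z j)}}
    (h1 : ∀ p : CutIx (tiling φ D) (AF (tiling φ D) ψ a' κ Z),
      ¬ P ((outer (tiling φ D) ψ a' κ Z).H p) ⊆ ⋃ j, blk (ψ j) (a' j) (κ j) (Z j) →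
      (P ((outer (tiling φ D) ψ a' κ Z).H p) ∩
      P ((blocks (outer (tiling φ D) ψ a' κ Z) S hT hS hc hO hd hlf).H t)).Nonempty →
      p.par.1.1.k ≤ k ∧
      ∀ j, (P ((tiling φ D).H p.par) ∩ frontier (blk (ψ j) (a' j) (κ j) (Z j))).Nonempty →
        Fr χ k 𝒩 d (ψ j) (a' j) ∧ κ j ≤ k)
    (h2 : ∀ j i, P ((S j).H i) ⊆ blk (ψ j) (a' j) (κ j) (Z j) → (P ((S j).H i) ∩
      P ((blocks (outer (tiling φ D) ψ a' κ Z) S hT hS hc hO hd hlf).H t)).Nonempty →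
      ∀ h ∈ (S j).H i, ∃ ν, ∃ t : ℤ, GF χ (2 ^ k) 𝒩 d h ν t)
    (hR : ∀ x ∈ P ((blocks (outer (tiling φ D) ψ a' κ Z) S hT hS hc hO hd hlf).H t),
      ∀ y ∈ P ((blocks (outer (tiling φ D) ψ a' κ Z) S hT hS hc hO hd hlf).H t),
      ∀ m, |χ y m - χ x m| ≤ R) :
    ∃ z : Fin n → ℤ, (fun K => (χ.trans (trz z)) '' K) ''
      cfg (blocks (outer (tiling φ D) ψ a' κ Z) S hT hS hc hO hd hlf) t ∈ simL 𝒩 d R := by
  refine sim_tile (s := 2 ^ k) (by positivity) hd0 h𝒩 ?_ hR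
  rintro (p | ⟨j, i⟩) hl
  · obtain ⟨h3, h4⟩ := h1 p.1 p.2 hl
    exact gf_outer hd0 F0 h4 h3
  · exact h2 j i.1 i.2 hl

end layer

/-! ### patching preserves unions of tiles -/

theorem IsUn.patch {Om : Set E} {ι κ : Type*} {T : Tiling Om ι} {A : Set ι}
    {H : κ → Finset ((E →L[ℝ] ℝ) × ℝ)} {R : Repl T A H} {N : Set E} (h : IsUn T N)
    (hsub : ∀ k, (P (H k) ∩ N).Nonempty → P (H k) ⊆ N) : IsUn (Mal_874.patch T A H R) N := by
  intro x hx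
  obtain ⟨i, hi, hN⟩ := h x hx
  by_cases hA : i ∈ A
  · have h1 : x ∈ ⋃ k, P (H k) := R.eq ▸ Set.mem_iUnion.2 ⟨i, Set.mem_iUnion.2 ⟨hA, hi⟩⟩
    obtain ⟨k, hk⟩ := Set.mem_iUnion.1 h1
    exact ⟨Sum.inr k, hk, hsub k ⟨x, hk, hx⟩⟩
  · exact ⟨Sum.inl ⟨i, hA⟩, hi, hN⟩

/-! ### fans and shells of frustums -/

/-- a complete fan with centre `b` and face functionals: `w τ` is the gauge of the box on the cone
`τ` -/
structure Fan (E : Type*) [NormedAddCommGroup E] [NormedSpace ℝ E] (Tc : Type*) where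
  /-- centre -/
  b : E
  /-- face functional -/
  w : Tc → E →L[ℝ] ℝ
  /-- sides of the cone -/
  S : Tc → Finset (E →L[ℝ] ℝ)
  /-- a direction inside the cone -/
  v : Tc → E
  v_neg : ∀ τ, ∀ π ∈ S τ, π (v τ) < 0
  v_one : ∀ τ, w τ (v τ) = 1
  cov : ∀ u : E, ∃ τ, ∀ π ∈ S τ, π u ≤ 0
  dis : ∀ τ τ', τ ≠ τ' → ∀ u : E, (∀ π ∈ S τ, π u < 0) → ¬ ∀ π ∈ S τ', π u < 0
  max : ∀ τ, ∀ u : E, (∀ π ∈ S τ, π u ≤ 0) → ∀ τ', w τ' u ≤ w τ u

namespace Fan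

variable {Tc : Type*} (F : Fan E Tc)

/-- the box of size `r` -/
def box (r : ℝ) : Set E := {x | ∀ τ, F.w τ (x - F.b) ≤ r}

/-- the frustum over the cone `τ` -/
def fr (d : ℝ) (τ : Tc) : Set E :=
  {x | (∀ π ∈ F.S τ, π (x - F.b) ≤ 0) ∧ 1 ≤ F.w τ (x - F.b) ∧ F.w τ (x - F.b) ≤ 1 + d}

/-- inequalities of the core -/
noncomputable def HC [Fintype Tc] : Finset ((E →L[ℝ] ℝ) × ℝ) := by
  classical
  exact Finset.univ.image fun τ => (F.w τ, F.w τ F.b + 1)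

/-- inequalities of the frustum -/
noncomputable def HF (d : ℝ) (τ : Tc) : Finset ((E →L[ℝ] ℝ) × ℝ) := by
  classical
  exact (F.S τ).image (fun π => (π, π F.b)) ∪
    {(F.w τ, F.w τ F.b + (1 + d)), (-F.w τ, -(F.w τ F.b + 1))}

theorem P_HC [Fintype Tc] : P F.HC = F.box 1 := by
  classical
  ext x
  unfold HC box P
  simp only [Finset.mem_image, Finset.mem_univ, true_and, Set.mem_ofPred_eq, forall_exists_index,
    forall_apply_eq_imp_iff, map_sub]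
  refine forall_congr' fun τ => ?_
  constructor <;> intro h <;> linarith

theorem I_HC [Fintype Tc] : I F.HC = {x | ∀ τ, F.w τ (x - F.b) < 1} := by
  classical
  ext x
  unfold HC I
  simp only [Finset.mem_image, Finset.mem_univ, true_and, Set.mem_ofPred_eq, forall_exists_index,
    forall_apply_eq_imp_iff, map_sub]
  refine forall_congr' fun τ => ?_
  constructor <;> intro h <;> linarith

theorem forall_HF {d : ℝ} {τ : Tc} {Q : (E →L[ℝ] ℝ) × ℝ → Prop} :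
    (∀ h ∈ F.HF d τ, Q h) ↔ (∀ π ∈ F.S τ, Q (π, π F.b)) ∧ Q (F.w τ, F.w τ F.b + (1 + d)) ∧
      Q (-F.w τ, -(F.w τ F.b + 1)) := by
  classical
  unfold HF
  simp only [Finset.mem_union, Finset.mem_image, Finset.mem_insert, Finset.mem_singleton]
  constructor
  · intro h
    exact ⟨fun π hπ => h _ (Or.inl ⟨π, hπ, rfl⟩), h _ (Or.inr (Or.inl rfl)), h _ (Or.inr (Or.inr rfl))⟩
  · rintro ⟨h1, h2, h3⟩ h (⟨π, hπ, rfl⟩ | rfl | rfl)
    · exact h1 π hπ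
    · exact h2
    · exact h3

theorem P_HF (d : ℝ) (τ : Tc) : P (F.HF d τ) = F.fr d τ := by
  ext x
  change (∀ h ∈ F.HF d τ, h.1 x ≤ h.2) ↔ _
  rw [F.forall_HF (Q := fun h => h.1 x ≤ h.2)]
  unfold fr
  simp only [Set.mem_ofPred_eq, map_sub]
  have e : (-F.w τ) x = -(F.w τ x) := rfl
  rw [e]
  constructor
  · rintro ⟨h1, h2, h3⟩
    exact ⟨fun π hπ => by have := h1 π hπ; linarith, by linarith, by linarith⟩
  · rintro ⟨h1, h2, h3⟩
    exact ⟨fun π hπ => by have := h1 π hπ; linarith, by linarith, by linarith⟩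

theorem mem_I_HF {d : ℝ} {τ : Tc} {x : E} : x ∈ I (F.HF d τ) ↔
    (∀ π ∈ F.S τ, π (x - F.b) < 0) ∧ 1 < F.w τ (x - F.b) ∧ F.w τ (x - F.b) < 1 + d := by
  change (∀ h ∈ F.HF d τ, h.1 x < h.2) ↔ _
  rw [F.forall_HF (Q := fun h => h.1 x < h.2)]
  simp only [map_sub]
  have e : (-F.w τ) x = -(F.w τ x) := rfl
  rw [e]
  constructor
  · rintro ⟨h1, h2, h3⟩
    exact ⟨fun π hπ => by have := h1 π hπ; linarith, by linarith, by linarith⟩
  · rintro ⟨h1, h2, h3⟩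
    exact ⟨fun π hπ => by have := h1 π hπ; linarith, by linarith, by linarith⟩

/-- the inequalities of the core and its frustums -/
noncomputable def H [Fintype Tc] (d : ℝ) : Option Tc → Finset ((E →L[ℝ] ℝ) × ℝ)
  | none => F.HC
  | some τ => F.HF d τ

theorem union [Fintype Tc] {d : ℝ} (hd : 0 < d) : ⋃ k, P (F.H d k) = F.box (1 + d) := by
  ext x
  simp only [Set.mem_iUnion]
  constructor
  · rintro ⟨_ | τ, h⟩
    · have h' : x ∈ P F.HC := h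
      rw [P_HC] at h'
      intro τ
      have := h' τ
      linarith
    · have h' : x ∈ P (F.HF d τ) := h
      rw [P_HF] at h'
      intro τ'
      exact (F.max τ _ h'.1 τ').trans h'.2.2
  · intro h
    by_cases h1 : ∀ τ, F.w τ (x - F.b) ≤ 1
    · refine ⟨none, ?_⟩
      show x ∈ P F.HC
      rw [P_HC]
      exact h1
    · push Not at h1
      obtain ⟨τ', h2⟩ := h1
      obtain ⟨τ, hτ⟩ := F.cov (x - F.b)
      refine ⟨some τ, ?_⟩
      show x ∈ P (F.HF d τ)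
      rw [P_HF]
      exact ⟨hτ, (h2.trans_le (F.max τ _ hτ τ')).le, h τ⟩

theorem ne [Fintype Tc] {d : ℝ} (hd : 0 < d) (k : Option Tc) : (I (F.H d k)).Nonempty := by
  rcases k with _ | τ
  · refine ⟨F.b, ?_⟩
    show F.b ∈ I F.HC
    rw [I_HC]
    intro τ
    simp
  · refine ⟨F.b + (1 + d / 2) • F.v τ, ?_⟩
    show F.b + (1 + d / 2) • F.v τ ∈ I (F.HF d τ)
    rw [mem_I_HF]
    simp only [add_sub_cancel_left, map_smul, smul_eq_mul, F.v_one]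
    refine ⟨fun π hπ => ?_, by linarith, by linarith⟩
    have := F.v_neg τ π hπ
    nlinarith

theorem disj [Fintype Tc] {d : ℝ} {k l : Option Tc} (h : k ≠ l) :
    Disjoint (I (F.H d k)) (I (F.H d l)) := by
  rw [Set.disjoint_left]
  intro x hx hy
  rcases k with _ | τ <;> rcases l with _ | τ'
  · exact h rfl
  · have h1 : x ∈ I F.HC := hx
    have h2 : x ∈ I (F.HF d τ') := hy
    rw [I_HC] at h1
    rw [mem_I_HF] at h2
    exact absurd (h1 τ') (not_lt.2 h2.2.1.le)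
  · have h1 : x ∈ I F.HC := hy
    have h2 : x ∈ I (F.HF d τ) := hx
    rw [I_HC] at h1
    rw [mem_I_HF] at h2
    exact absurd (h1 τ) (not_lt.2 h2.2.1.le)
  · have h1 : x ∈ I (F.HF d τ) := hx
    have h2 : x ∈ I (F.HF d τ') := hy
    rw [mem_I_HF] at h1 h2
    exact F.dis τ τ' (fun e => h (by rw [e])) _ h1.1 h2.1

theorem sub_box [Fintype Tc] {d : ℝ} (hd : 0 < d) (k : Option Tc) : P (F.H d k) ⊆ F.box (1 + d) := by
  rw [← F.union hd]
  exact Set.subset_iUnion (fun k => P (F.H d k)) k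

end Fan

/-- **cores with shells of frustums**: the tiles in `⋃ c, box_c (1 + d)` are replaced by the cores
`box_c 1` and the frustums -/
theorem shell_repl {Om : Set E} {ι Γ : Type*} {Tc : Γ → Type*} [∀ c, Fintype (Tc c)]
    (T : Tiling Om ι) (F : ∀ c, Fan E (Tc c)) {d : ℝ} (hd : 0 < d)
    (hU : ∀ c, IsUn T ((F c).box (1 + d))) (hc : ∀ c, IsCompact ((F c).box (1 + d)))
    (hdis : ∀ c c', c ≠ c' → Disjoint ((F c).box (1 + d)) ((F c').box (1 + d)))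
    (hlf : ∀ x ∈ Om, ∃ r > 0, {c | ((F c).box (1 + d) ∩ ball x r).Nonempty}.Finite) :
    Repl T {i | P (T.H i) ⊆ ⋃ c, (F c).box (1 + d)}
      (fun k : Σ c, Option (Tc c) => (F k.1).H d k.2) where
  cpt k := (hc k.1).of_isClosed_subset (isClosed_P _) ((F k.1).sub_box hd k.2)
  ne k := (F k.1).ne hd k.2
  dis := by
    rintro ⟨c, k⟩ ⟨c', k'⟩ h
    by_cases hcc : c = c'
    · subst hcc
      refine (F c).disj fun e => h ?_
      have e' : k = k' := e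
      rw [e']
    · exact (hdis c c' hcc).mono ((I_sub_P _).trans ((F c).sub_box hd k))
        ((I_sub_P _).trans ((F c').sub_box hd k'))
  lf x hx := by
    obtain ⟨r, hr, hf⟩ := hlf x hx
    refine ⟨r, hr, ?_⟩
    have h1 : (⋃ c ∈ {c | ((F c).box (1 + d) ∩ ball x r).Nonempty}, Set.range
        (fun k : Option (Tc c) => (⟨c, k⟩ : Σ c, Option (Tc c)))).Finite :=
      hf.biUnion fun c _ => Set.finite_range _
    refine h1.subset ?_
    rintro ⟨c, k⟩ ⟨y, hy, hyb⟩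
    simp only [Set.mem_iUnion]
    exact ⟨c, ⟨y, (F c).sub_box hd k hy, hyb⟩, k, rfl⟩
  eq := by
    rw [(IsUn.iUnion hU).eq]
    ext x
    simp only [Set.mem_iUnion]
    constructor
    · rintro ⟨⟨c, k⟩, hx⟩
      exact ⟨c, (F c).sub_box hd k hx⟩
    · rintro ⟨c, hx⟩
      rw [← (F c).union hd] at hx
      obtain ⟨k, hk⟩ := Set.mem_iUnion.1 hx
      exact ⟨⟨c, k⟩, hk⟩

/-- the tiling with cores and shells -/
noncomputable def shells {Om : Set E} {ι Γ : Type*} {Tc : Γ → Type*} [∀ c, Fintype (Tc c)]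
    (T : Tiling Om ι) (F : ∀ c, Fan E (Tc c)) {d : ℝ} (hd : 0 < d)
    (hU : ∀ c, IsUn T ((F c).box (1 + d))) (hc : ∀ c, IsCompact ((F c).box (1 + d)))
    (hdis : ∀ c c', c ≠ c' → Disjoint ((F c).box (1 + d)) ((F c').box (1 + d)))
    (hlf : ∀ x ∈ Om, ∃ r > 0, {c | ((F c).box (1 + d) ∩ ball x r).Nonempty}.Finite) :=
  patch T _ _ (shell_repl T F hd hU hc hdis hlf)

end Crest.Agent.R096.Mal_874
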