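import Crest.Agent.R096.Mal7_874

/-!
# Row 96, library (MESH-AL), part 8: explicit size functions
-/

set_option autoImplicit false

open Set Filter Topology Metric

namespace Crest.Agent.R096.Mal_874

open Msh_715 Cut_874 Msh_810

variable {n : ℕ}

/-! ### the size function of a block -/

/-- size function of a block: `C 2^-kc` deep inside, `C 2^-k` at the wall `W` -/
noncomputable def blkD (W : Set (Fin n → ℝ)) (C : ℝ) (hC : 1 < C) (kc k : ℕ) (a : Fin n → ℝ)
    (h : C ≤ 2 ^ kc) : Dat n where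
  ρ x := min (C / 2 ^ kc) (C / 2 ^ k + infDist x W)
  C := C
  a := a
  lip x y := by
    have h1 := infDist_le_infDist_add_dist (s := W) (x := x) (y := y)
    rcases le_total (C / 2 ^ kc) (C / 2 ^ k + infDist y W) with h2 | h2
    · rw [min_eq_left h2]
      exact (min_le_left _ _).trans (by linarith [dist_nonneg (x := x) (y := y)])
    · rw [min_eq_right h2]
      exact (min_le_right _ _).trans (by linarith)
  nonneg x := le_min (by positivity) (by have := infDist_nonneg (s := W) (x := x); positivity)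
  le_one x := (min_le_left _ _).trans (by
    rw [div_le_one (by positivity)]
    exact h)
  hC := hC

section

variable {W : Set (Fin n → ℝ)} {C : ℝ} {hC : 1 < C} {kc k : ℕ} {a : Fin n → ℝ} {h : C ≤ 2 ^ kc}

theorem blkD_ρ (x : Fin n → ℝ) :
    (blkD W C hC kc k a h).ρ x = min (C / 2 ^ kc) (C / 2 ^ k + infDist x W) := rfl

theorem blkD_C : (blkD W C hC kc k a h).C = C := rfl

theorem blkD_a : (blkD W C hC kc k a h).a = a := rfl

theorem blkD_pos (x : Fin n → ℝ) : 0 < (blkD W C hC kc k a h).ρ x := by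
  rw [blkD_ρ]
  have h1 := infDist_nonneg (s := W) (x := x)
  have h2 : 0 < C := by linarith
  exact lt_min (by positivity) (by positivity)

theorem blkD_Om : (blkD W C hC kc k a h).Om = univ :=
  Set.eq_univ_of_forall fun x => blkD_pos x

theorem blkD_le {κ : ℕ} (hκ : κ ≤ kc) (x : Fin n → ℝ) :
    2 ^ κ * (blkD W C hC kc k a h).ρ x ≤ (blkD W C hC kc k a h).C := by
  rw [blkD_ρ, blkD_C]
  have h2 : 0 < C := by linarith
  have h3 : (2 : ℝ) ^ κ ≤ 2 ^ kc := pow_le_pow_right₀ (by norm_num) hκ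
  calc (2 : ℝ) ^ κ * min (C / 2 ^ kc) (C / 2 ^ k + infDist x W) ≤ 2 ^ κ * (C / 2 ^ kc) :=
        mul_le_mul_of_nonneg_left (min_le_left _ _) (by positivity)
    _ ≤ 2 ^ kc * (C / 2 ^ kc) := mul_le_mul_of_nonneg_right h3 (by positivity)
    _ = C := by field_simp

theorem blkD_kc_le (x : Fin n → ℝ) : kc ≤ K (blkD W C hC kc k a h) x :=
  le_K_of (blkD_pos x) (blkD_le le_rfl x)

theorem blkD_lower (hk : kc ≤ k) (y : Fin n → ℝ) : C ≤ 2 ^ k * (blkD W C hC kc k a h).ρ y := by
  rw [blkD_ρ]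
  have h2 : 0 < C := by linarith
  have h3 : (2 : ℝ) ^ kc ≤ 2 ^ k := pow_le_pow_right₀ (by norm_num) hk
  have h4 := infDist_nonneg (s := W) (x := y)
  have h5 : C / 2 ^ k ≤ min (C / 2 ^ kc) (C / 2 ^ k + infDist y W) := by
    refine le_min ?_ (by linarith)
    exact div_le_div_of_nonneg_left h2.le (by positivity) h3
  calc C = 2 ^ k * (C / 2 ^ k) := by field_simp
    _ ≤ _ := mul_le_mul_of_nonneg_left h5 (by positivity)

theorem blkD_K_le (hk : kc ≤ k) (x : Fin n → ℝ) : K (blkD W C hC kc k a h) x ≤ k :=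
  K_le_of fun y _ => blkD_lower hk y

/-- deep inside the scale is exactly `kc` -/
theorem blkD_K_deep {x : Fin n → ℝ} (hx : (C + 1) / 2 ^ kc ≤ infDist x W) :
    K (blkD W C hC kc k a h) x = kc := by
  have h2 : 0 < C := by linarith
  have hp : (0 : ℝ) < 2 ^ kc := by positivity
  refine K_eq_of ?_ ?_
  · intro y hy
    rw [blkD_ρ, blkD_C]
    have h3 := infDist_le_infDist_add_dist (s := W) (x := x) (y := y)
    have h4 : (C + 1) / 2 ^ kc = C / 2 ^ kc + (2 ^ kc)⁻¹ := by
      rw [add_div, one_div]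
    have h5 : C / 2 ^ kc ≤ min (C / 2 ^ kc) (C / 2 ^ k + infDist y W) := by
      refine le_min le_rfl ?_
      have : 0 < C / 2 ^ k := by positivity
      linarith
    calc C = 2 ^ kc * (C / 2 ^ kc) := by field_simp
      _ ≤ _ := mul_le_mul_of_nonneg_left h5 (by positivity)
  · have := blkD_le (W := W) (hC := hC) (k := k) (a := a) (h := h) (le_refl kc) x
    rw [blkD_C] at this ⊢
    linarith

/-- at the wall the scale is exactly `k` -/
theorem blkD_K_wall (hk : kc ≤ k) {x : Fin n → ℝ} (hx : infDist x W < C / 2 ^ k) :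
    K (blkD W C hC kc k a h) x = k := by
  have h2 : 0 < C := by linarith
  have hp : (0 : ℝ) < 2 ^ k := by positivity
  refine K_eq_of (fun y _ => blkD_lower hk y) ?_
  rw [blkD_ρ, blkD_C]
  calc (2 : ℝ) ^ k * min (C / 2 ^ kc) (C / 2 ^ k + infDist x W)
      ≤ 2 ^ k * (C / 2 ^ k + infDist x W) :=
        mul_le_mul_of_nonneg_left (min_le_right _ _) (by positivity)
    _ < 2 ^ k * (C / 2 ^ k + C / 2 ^ k) := by
        refine mul_lt_mul_of_pos_left ?_ hp
        linarith
    _ = 2 * C := by field_simp; ring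

end

/-! ### the size function outside -/

/-- the family of size functions -/
noncomputable def outF {J : Type*} (ρ0 : (Fin n → ℝ) → ℝ) (C : ℝ) (k : J → ℕ)
    (W : J → Set (Fin n → ℝ)) (x : Fin n → ℝ) : Option J → ℝ
  | none => ρ0 x
  | some j => C / 2 ^ k j + infDist x (W j)

theorem outF_nonneg {J : Type*} {ρ0 : (Fin n → ℝ) → ℝ} {C : ℝ} (hC : 0 < C)
    (h0 : ∀ x, 0 ≤ ρ0 x) {k : J → ℕ}
    {W : J → Set (Fin n → ℝ)} (x : Fin n → ℝ) (o : Option J) : 0 ≤ outF ρ0 C k W x o := by
  rcases o with _ | j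
  · exact h0 x
  · have := infDist_nonneg (s := W j) (x := x)
    show 0 ≤ C / 2 ^ k j + infDist x (W j)
    positivity

/-- size function of the outer mesh: `≤ ρ0`, and `≈ C 2^-k j` at the walls `W j` -/
noncomputable def outD {J : Type*} (D0 : Dat n) (k : J → ℕ) (W : J → Set (Fin n → ℝ))
    (a : Fin n → ℝ) : Dat n where
  ρ x := ⨅ o, outF D0.ρ D0.C k W x o
  C := D0.C
  a := a
  lip x y := by
    have hC : 0 < D0.C := D0.C_pos
    have hbd : BddBelow (range (outF D0.ρ D0.C k W x)) :=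
      ⟨0, by rintro _ ⟨o, rfl⟩; exact outF_nonneg hC D0.nonneg x o⟩
    rw [← sub_le_iff_le_add]
    refine le_ciInf fun o => ?_
    have h1 : ⨅ o, outF D0.ρ D0.C k W x o ≤ outF D0.ρ D0.C k W x o := ciInf_le hbd o
    have h2 : outF D0.ρ D0.C k W x o ≤ outF D0.ρ D0.C k W y o + dist x y := by
      rcases o with _ | j
      · exact D0.lip x y
      · have := infDist_le_infDist_add_dist (s := W j) (x := x) (y := y)
        show D0.C / 2 ^ k j + infDist x (W j) ≤ D0.C / 2 ^ k j + infDist y (W j) + dist x y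
        linarith
    linarith
  nonneg x := le_ciInf fun o => outF_nonneg D0.C_pos D0.nonneg x o
  le_one x := by
    have hbd : BddBelow (range (outF D0.ρ D0.C k W x)) :=
      ⟨0, by rintro _ ⟨o, rfl⟩; exact outF_nonneg D0.C_pos D0.nonneg x o⟩
    exact (ciInf_le hbd none).trans (D0.le_one x)
  hC := D0.hC

section

variable {J : Type*} {D0 : Dat n} {k : J → ℕ} {W : J → Set (Fin n → ℝ)} {a : Fin n → ℝ}

theorem outD_C : (outD D0 k W a).C = D0.C := rfl

theorem outD_a : (outD D0 k W a).a = a := rfl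

theorem outD_le (x : Fin n → ℝ) (o : Option J) : (outD D0 k W a).ρ x ≤ outF D0.ρ D0.C k W x o :=
  ciInf_le ⟨0, by rintro _ ⟨o, rfl⟩; exact outF_nonneg D0.C_pos D0.nonneg x o⟩ o

theorem outD_le_ρ0 (x : Fin n → ℝ) : (outD D0 k W a).ρ x ≤ D0.ρ x := outD_le x none

theorem le_outD {x : Fin n → ℝ} {r : ℝ} (h0 : r ≤ D0.ρ x)
    (h : ∀ j, r ≤ D0.C / 2 ^ k j + infDist x (W j)) : r ≤ (outD D0 k W a).ρ x := by
  refine le_ciInf fun o => ?_
  rcases o with _ | j
  · exact h0
  · exact h j

/-- the domain does not change -/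
theorem outD_Om (hne : ∀ j, (W j).Nonempty)
    (hlf : ∀ x ∈ D0.Om, ∃ r > 0, {j | (W j ∩ ball x r).Nonempty}.Finite) :
    (outD D0 k W a).Om = D0.Om := by
  have hC := D0.C_pos
  ext x
  constructor
  · intro hx
    exact lt_of_lt_of_le hx (outD_le_ρ0 x)
  · intro hx
    obtain ⟨r, hr, hf⟩ := hlf x hx
    have hm : ∃ m > 0, ∀ j ∈ {j | (W j ∩ ball x r).Nonempty}, m ≤ D0.C / 2 ^ k j := by
      have h2 := hf.exists_finset_coe
      obtain ⟨s, hs⟩ := h2
      by_cases hne' : s.Nonempty
      · obtain ⟨j0, hj0, hmin⟩ := s.exists_min_image (fun j => D0.C / 2 ^ k j) hne'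
        refine ⟨D0.C / 2 ^ k j0, by positivity, fun j hj => hmin j ?_⟩
        rw [← hs] at hj
        exact hj
      · refine ⟨1, one_pos, fun j hj => ?_⟩
        rw [← hs] at hj
        exact absurd ⟨j, hj⟩ hne'
    obtain ⟨m, hm0, hm⟩ := hm
    have hx0 : 0 < D0.ρ x := hx
    have h3 : min (D0.ρ x) (min m r) ≤ (outD D0 k W a).ρ x := by
      refine le_outD (min_le_left _ _) fun j => ?_
      have h5 := infDist_nonneg (s := W j) (x := x)
      by_cases hj : (W j ∩ ball x r).Nonempty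
      · have h6 := hm j hj
        have : min (D0.ρ x) (min m r) ≤ m := (min_le_right _ _).trans (min_le_left _ _)
        linarith
      · have h6 : r ≤ infDist x (W j) := by
          rw [le_infDist (hne j)]
          intro y hy
          by_contra hcon
          push Not at hcon
          exact hj ⟨y, hy, by rw [mem_ball, dist_comm]; exact hcon⟩
        have : min (D0.ρ x) (min m r) ≤ r := (min_le_right _ _).trans (min_le_right _ _)
        have h7 : 0 < D0.C / 2 ^ k j := by positivity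
        linarith
    exact lt_of_lt_of_le (lt_min hx0 (lt_min hm0 hr)) h3

/-- near the wall `W j` the scale is exactly `k j` -/
theorem outD_K_wall {j : J} {x : Fin n → ℝ} (hx : infDist x (W j) < D0.C / 2 ^ k j)
    (h0 : ∀ y, dist x y ≤ (2 ^ k j)⁻¹ → D0.C / 2 ^ k j ≤ D0.ρ y)
    (h1 : ∀ y, dist x y ≤ (2 ^ k j)⁻¹ → ∀ l, l ≠ j → D0.C / 2 ^ k j ≤ infDist y (W l)) :
    K (outD D0 k W a) x = k j := by
  have hC := D0.C_pos
  have hp : (0 : ℝ) < 2 ^ k j := by positivity
  refine K_eq_of ?_ ?_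
  · intro y hy
    have h2 : D0.C / 2 ^ k j ≤ (outD D0 k W a).ρ y := by
      refine le_outD (h0 y hy) fun l => ?_
      by_cases hl : l = j
      · subst hl
        have := infDist_nonneg (s := W l) (x := y)
        linarith
      · have h3 := h1 y hy l hl
        have h4 : 0 < D0.C / 2 ^ k l := by positivity
        linarith
    calc (outD D0 k W a).C = 2 ^ k j * (D0.C / 2 ^ k j) := by rw [outD_C]; field_simp
      _ ≤ _ := mul_le_mul_of_nonneg_left h2 hp.le
  · have h2 := outD_le (D0 := D0) (k := k) (W := W) (a := a) x (some j)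
    have h3 : outF D0.ρ D0.C k W x (some j) = D0.C / 2 ^ k j + infDist x (W j) := rfl
    rw [h3] at h2
    rw [outD_C]
    calc (2 : ℝ) ^ k j * (outD D0 k W a).ρ x ≤ 2 ^ k j * (D0.C / 2 ^ k j + infDist x (W j)) :=
          mul_le_mul_of_nonneg_left h2 hp.le
      _ < 2 ^ k j * (D0.C / 2 ^ k j + D0.C / 2 ^ k j) := by
          refine mul_lt_mul_of_pos_left ?_ hp
          linarith
      _ = 2 * D0.C := by field_simp; ring

end

end Crest.Agent.R096.Mal_874
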