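/-
helper31, row 96, leaf U5/M7 (measure half of the graded mesh): averages of the cells of ALL scales of one
shifted (dyadic) hierarchy `a + ∏ (1/M_i) ℤ`, one shift `a ∈ [0,1)ⁿ` for all scales.
The steps `1 / M i` may depend on the direction (long boxes).
-/
import Mathlib

set_option autoImplicit false
set_option linter.unusedSectionVars false

open MeasureTheory Set Filter
open scoped ENNReal Topology

namespace Crest.Agent.R096.Mav_31

noncomputable section

variable {n : ℕ}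

/-- the shifts -/
def D (n : ℕ) : Set (Fin n → ℝ) := {a | ∀ i, 0 ≤ a i ∧ a i < 1}

/-- the lattice point `z / M` -/
def pt (M : Fin n → ℕ) (z : Fin n → ℤ) : Fin n → ℝ := fun i => (z i : ℝ) / M i

theorem D_eq : D n = Set.pi univ (fun _ => Ico (0:ℝ) 1) := by
  ext a; simp [D, mem_Ico]

theorem measurableSet_D : MeasurableSet (D n) := by
  rw [D_eq]
  exact MeasurableSet.univ_pi fun _ => measurableSet_Ico

theorem volume_D : volume (D n) = 1 := by
  rw [D_eq, volume_pi, Measure.pi_pi]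
  simp

/-- the integers `t` with `0 ≤ x - t / M < 1` -/
theorem mem_Ioc_iff {M : ℕ} (hM : 0 < M) (x : ℝ) (t : ℤ) :
    t ∈ Finset.Ioc (⌊(M:ℝ) * x⌋ - (M:ℤ)) ⌊(M:ℝ) * x⌋ ↔ 0 ≤ x - (t:ℝ) / M ∧ x - (t:ℝ) / M < 1 := by
  have hM' : (0:ℝ) < M := by exact_mod_cast hM
  rw [Finset.mem_Ioc]
  constructor
  · rintro ⟨h1, h2⟩
    have h3 : (t:ℝ) ≤ M * x := Int.le_floor.1 h2
    have h4 : (M:ℝ) * x < t + M := by
      have : ⌊(M:ℝ) * x⌋ < t + M := by linarith
      exact_mod_cast Int.floor_lt.1 this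
    constructor
    · have : (t:ℝ) / M ≤ x := by
        rw [div_le_iff₀ hM']; linarith
      linarith
    · have : x - 1 < (t:ℝ) / M := by
        rw [lt_div_iff₀ hM']; nlinarith
      linarith
  · rintro ⟨h1, h2⟩
    have h3 : (t:ℝ) / M ≤ x := by linarith
    rw [div_le_iff₀ hM'] at h3
    have h4 : x - 1 < (t:ℝ) / M := by linarith
    rw [lt_div_iff₀ hM'] at h4
    constructor
    · have h5 : (M:ℝ) * x < ((t + M : ℤ) : ℝ) := by push_cast; nlinarith
      have := Int.floor_lt.2 h5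
      linarith
    · apply Int.le_floor.2
      linarith

/-- exactly `∏ M i` lattice translates of `D` cover a point -/
theorem tsum_count {M : Fin n → ℕ} (hM : ∀ i, 0 < M i) (x : Fin n → ℝ) (c : ℝ≥0∞) :
    ∑' z : Fin n → ℤ, (D n).indicator (fun _ => c) (x - pt M z) = (∏ i, (M i:ℝ≥0∞)) * c := by
  classical
  set S : Finset (Fin n → ℤ) := Fintype.piFinset
    (fun i => Finset.Ioc (⌊(M i:ℝ) * x i⌋ - (M i:ℤ)) ⌊(M i:ℝ) * x i⌋) with hS
  have hmem : ∀ z : Fin n → ℤ, x - pt M z ∈ D n ↔ z ∈ S := by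
    intro z
    rw [hS, Fintype.mem_piFinset]
    simp only [D, mem_ofPred_eq, Pi.sub_apply, pt]
    exact forall_congr' fun i => (mem_Ioc_iff (hM i) (x i) (z i)).symm
  rw [tsum_eq_sum (s := S)]
  · rw [Finset.sum_congr rfl (g := fun _ => c)]
    · rw [Finset.sum_const, hS, Fintype.card_piFinset]
      simp [nsmul_eq_mul]
    · intro z hz
      rw [indicator_of_mem ((hmem z).2 hz)]
  · intro z hz
    rw [indicator_of_notMem]
    rwa [hmem z]

/-- **(M7a) one shift for the lattice `∏ (1/M_i) ℤ`** -/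
theorem lintegral_lattice {M : Fin n → ℕ} (hM : ∀ i, 0 < M i) {F : (Fin n → ℝ) → ℝ≥0∞}
    (hF : AEMeasurable F) :
    ∫⁻ a in D n, ∑' z : Fin n → ℤ, F (a + pt M z) = (∏ i, (M i:ℝ≥0∞)) * ∫⁻ x, F x := by
  have h0 : ∀ z : Fin n → ℤ, AEMeasurable (fun a => F (a + pt M z)) := fun z =>
    hF.comp_quasiMeasurePreserving (measurePreserving_add_right volume (pt M z)).quasiMeasurePreserving
  have h1 : ∀ z : Fin n → ℤ, ∫⁻ a in D n, F (a + pt M z) =
      ∫⁻ x, (D n).indicator (fun _ => F x) (x - pt M z) := by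
    intro z
    rw [← lintegral_indicator measurableSet_D]
    rw [← lintegral_sub_right_eq_self _ (pt M z)]
    apply lintegral_congr
    intro x
    by_cases hx : x - pt M z ∈ D n
    · rw [indicator_of_mem hx, indicator_of_mem hx, sub_add_cancel]
    · rw [indicator_of_notMem hx, indicator_of_notMem hx]
  rw [lintegral_tsum fun z => (h0 z).restrict]
  simp_rw [h1]
  rw [← lintegral_tsum]
  · simp_rw [tsum_count hM]
    rw [lintegral_const_mul'' _ hF]
  · intro z
    have h2 : (fun x : Fin n → ℝ => (D n).indicator (fun _ => F x) (x - pt M z)) =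
        ((fun x => x - pt M z) ⁻¹' (D n)).indicator F := by
      funext x
      by_cases hx : x - pt M z ∈ D n
      · rw [indicator_of_mem hx, indicator_of_mem (show x ∈ (fun x => x - pt M z) ⁻¹' (D n) from hx)]
      · rw [indicator_of_notMem hx,
          indicator_of_notMem (show x ∉ (fun x => x - pt M z) ⁻¹' (D n) from hx)]
    rw [h2]
    exact hF.indicator ((measurable_id.sub_const _) measurableSet_D)

/-! ### cells -/

/-- projection to the directions of `J` -/
def jp (J : Finset (Fin n)) (τ : Fin n → ℝ) : Fin n → ℝ := fun i => if i ∈ J then τ i else 0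

/-- scaling by `1 / M` -/
def sc (M : Fin n → ℕ) (τ : Fin n → ℝ) : Fin n → ℝ := fun i => τ i / M i

theorem measurable_jp (J : Finset (Fin n)) : Measurable (jp J) := by
  apply measurable_pi_lambda
  intro i
  by_cases h : i ∈ J
  · simp only [jp, h, if_true]; exact measurable_pi_apply i
  · simp only [jp, h, if_false]; exact measurable_const

theorem measurable_sc (M : Fin n → ℕ) : Measurable (sc M) :=
  measurable_pi_lambda _ fun i => (measurable_pi_apply i).div_const _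

theorem measurable_scjp (M : Fin n → ℕ) (J : Finset (Fin n)) :
    Measurable (fun τ : Fin n → ℝ => sc M (jp J τ)) := (measurable_sc M).comp (measurable_jp J)

/-- the closed cell `{ a_i + z_i/M_i ≤ x_i ≤ a_i + (z_i+1)/M_i (i ∈ J), x_i = a_i + z_i/M_i (i ∉ J) }` -/
def Dc (a : Fin n → ℝ) (M : Fin n → ℕ) (z : Fin n → ℤ) (J : Finset (Fin n)) : Set (Fin n → ℝ) :=
  {x | ∀ i, (i ∈ J → a i + (z i : ℝ) / M i ≤ x i ∧ x i ≤ a i + ((z i : ℝ) + 1) / M i) ∧
    (i ∉ J → x i = a i + (z i : ℝ) / M i)}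

/-- the average of `F` over the cell (with respect to the `|J|`-dimensional measure) -/
def cellAv (F : (Fin n → ℝ) → ℝ≥0∞) (a : Fin n → ℝ) (M : Fin n → ℕ) (z : Fin n → ℤ)
    (J : Finset (Fin n)) : ℝ≥0∞ :=
  ∫⁻ τ in Icc (0 : Fin n → ℝ) 1, F (a + pt M z + sc M (jp J τ))

theorem mem_Dc {a : Fin n → ℝ} {M : Fin n → ℕ} (hM : ∀ i, 0 < M i) {z : Fin n → ℤ}
    {J : Finset (Fin n)} {τ : Fin n → ℝ} (hτ : τ ∈ Icc (0 : Fin n → ℝ) 1) :
    a + pt M z + sc M (jp J τ) ∈ Dc a M z J := by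
  intro i
  have hM' : (0:ℝ) < M i := by exact_mod_cast hM i
  have h0 : (0:ℝ) ≤ τ i := hτ.1 i
  have h1 : τ i ≤ 1 := hτ.2 i
  simp only [Pi.add_apply, pt, jp, sc]
  constructor
  · intro hi
    rw [if_pos hi]
    constructor
    · have : 0 ≤ τ i / M i := by positivity
      linarith
    · rw [add_div, ← add_assoc]
      have : τ i / M i ≤ 1 / M i := by gcongr
      linarith
  · intro hi
    rw [if_neg hi]; simp

/-- `cellAv` only sees the values on the cell -/
theorem cellAv_congr {F G : (Fin n → ℝ) → ℝ≥0∞} {a : Fin n → ℝ} {M : Fin n → ℕ}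
    (hM : ∀ i, 0 < M i) {z : Fin n → ℤ} {J : Finset (Fin n)} (h : ∀ x ∈ Dc a M z J, F x = G x) :
    cellAv F a M z J = cellAv G a M z J := by
  apply setLIntegral_congr_fun measurableSet_Icc
  intro τ hτ
  exact h _ (mem_Dc hM hτ)

theorem cellAv_mono {F G : (Fin n → ℝ) → ℝ≥0∞} {a : Fin n → ℝ} {M : Fin n → ℕ}
    (hM : ∀ i, 0 < M i) {z : Fin n → ℤ} {J : Finset (Fin n)} (h : ∀ x ∈ Dc a M z J, F x ≤ G x) :
    cellAv F a M z J ≤ cellAv G a M z J := by
  apply setLIntegral_mono' measurableSet_Icc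
  intro τ hτ
  exact h _ (mem_Dc hM hτ)

theorem volume_cube : volume (Icc (0 : Fin n → ℝ) 1) = 1 := by
  rw [Real.volume_Icc_pi]
  simp

theorem mp_shear {g : (Fin n → ℝ) → (Fin n → ℝ)} (hg : Measurable g)
    (ν : Measure (Fin n → ℝ)) [SFinite ν] :
    MeasurePreserving (fun p : (Fin n → ℝ) × (Fin n → ℝ) => (p.1, p.2 + g p.1))
      (ν.prod volume) (ν.prod volume) := by
  apply MeasurePreserving.skew_product (MeasurePreserving.id ν)
    (g := fun (τ : Fin n → ℝ) (x : Fin n → ℝ) => x + g τ)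
  · exact measurable_snd.add (hg.comp measurable_fst)
  · apply Eventually.of_forall
    intro τ
    exact (measurePreserving_add_right volume (g τ)).map_eq

theorem aemeasurable_shear {g : (Fin n → ℝ) → (Fin n → ℝ)} (hg : Measurable g)
    (ν : Measure (Fin n → ℝ)) [SFinite ν] {F : (Fin n → ℝ) → ℝ≥0∞} (hF : AEMeasurable F) :
    AEMeasurable (fun p : (Fin n → ℝ) × (Fin n → ℝ) => F (p.2 + g p.1)) (ν.prod volume) := by
  have h1 : AEMeasurable (fun p : (Fin n → ℝ) × (Fin n → ℝ) => F p.2) (ν.prod volume) :=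
    hF.comp_quasiMeasurePreserving Measure.quasiMeasurePreserving_snd
  exact h1.comp_quasiMeasurePreserving (mp_shear hg ν).quasiMeasurePreserving

/-- the piece average as a function of the base point -/
def pcAv (F : (Fin n → ℝ) → ℝ≥0∞) (M : Fin n → ℕ) (J : Finset (Fin n)) (y : Fin n → ℝ) : ℝ≥0∞ :=
  ∫⁻ τ in Icc (0 : Fin n → ℝ) 1, F (y + sc M (jp J τ))

theorem cellAv_eq (F : (Fin n → ℝ) → ℝ≥0∞) (a : Fin n → ℝ) (M : Fin n → ℕ) (z : Fin n → ℤ)
    (J : Finset (Fin n)) : cellAv F a M z J = pcAv F M J (a + pt M z) := rfl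

theorem aemeasurable_pcAv {F : (Fin n → ℝ) → ℝ≥0∞} (hF : AEMeasurable F) (M : Fin n → ℕ)
    (J : Finset (Fin n)) : AEMeasurable (pcAv F M J) := by
  have h1 := aemeasurable_shear (measurable_scjp M J) (volume.restrict (Icc (0 : Fin n → ℝ) 1)) hF
  have h2 : AEMeasurable (fun p : (Fin n → ℝ) × (Fin n → ℝ) => F (p.1 + sc M (jp J p.2)))
      (volume.prod (volume.restrict (Icc (0 : Fin n → ℝ) 1))) := h1.prod_swap
  exact h2.lintegral_prod_right'

theorem lintegral_pcAv {F : (Fin n → ℝ) → ℝ≥0∞} (hF : AEMeasurable F) (M : Fin n → ℕ)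
    (J : Finset (Fin n)) : ∫⁻ y, pcAv F M J y = ∫⁻ x, F x := by
  have h1 := aemeasurable_shear (measurable_scjp M J) (volume.restrict (Icc (0 : Fin n → ℝ) 1)) hF
  have h2 : AEMeasurable (Function.uncurry fun (x τ : Fin n → ℝ) => F (x + sc M (jp J τ)))
      (volume.prod (volume.restrict (Icc (0 : Fin n → ℝ) 1))) := h1.prod_swap
  simp only [pcAv]
  rw [lintegral_lintegral_swap h2]
  have h3 : ∀ τ : Fin n → ℝ, ∫⁻ x, F (x + sc M (jp J τ)) = ∫⁻ x, F x := fun τ =>
    lintegral_add_right_eq_self F _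
  simp_rw [h3]
  rw [lintegral_const, Measure.restrict_apply_univ, volume_cube, mul_one]

/-- the sum of the averages over all `J`-cells of scale `1/M` -/
def sumAv (F : (Fin n → ℝ) → ℝ≥0∞) (M : Fin n → ℕ) (J : Finset (Fin n)) (a : Fin n → ℝ) : ℝ≥0∞ :=
  ∑' z : Fin n → ℤ, cellAv F a M z J

theorem aemeasurable_sumAv {F : (Fin n → ℝ) → ℝ≥0∞} (hF : AEMeasurable F) (M : Fin n → ℕ)
    (J : Finset (Fin n)) : AEMeasurable (sumAv F M J) := by
  apply AEMeasurable.tsum
  intro z
  exact (aemeasurable_pcAv hF M J).comp_quasiMeasurePreserving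
    (measurePreserving_add_right volume (pt M z)).quasiMeasurePreserving

/-- **(M7a), cells** -/
theorem lintegral_sumAv {M : Fin n → ℕ} (hM : ∀ i, 0 < M i) {F : (Fin n → ℝ) → ℝ≥0∞}
    (hF : AEMeasurable F) (J : Finset (Fin n)) :
    ∫⁻ a in D n, sumAv F M J a = (∏ i, (M i:ℝ≥0∞)) * ∫⁻ x, F x := by
  rw [← lintegral_pcAv hF M J, ← lintegral_lattice hM (aemeasurable_pcAv hF M J)]
  rfl

/-- **(M7b), pointwise**: the cells which are actually used lie in the region `R` -/
theorem used_le {M : Fin n → ℕ} (hM : ∀ i, 0 < M i) {F : (Fin n → ℝ) → ℝ≥0∞}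
    {J : Finset (Fin n)} {a : Fin n → ℝ} {U : Set (Fin n → ℤ)} {R : Set (Fin n → ℝ)}
    (hU : ∀ z ∈ U, Dc a M z J ⊆ R) :
    ∑' z : U, cellAv F a M z J ≤ sumAv (R.indicator F) M J a := by
  calc ∑' z : U, cellAv F a M z J = ∑' z : U, cellAv (R.indicator F) a M z J := by
        apply tsum_congr
        intro z
        apply cellAv_congr hM
        intro x hx
        rw [indicator_of_mem (hU z z.2 hx)]
    _ ≤ sumAv (R.indicator F) M J a := ENNReal.tsum_comp_le_tsum_of_injective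
        Subtype.val_injective (fun z => cellAv (R.indicator F) a M z J)

/-- Jensen on a probability space, lower integrals -/
theorem jensen {α : Type*} [MeasurableSpace α] {ν : Measure α} [IsProbabilityMeasure ν] {p : ℝ}
    (hp : 1 ≤ p) {f : α → ℝ≥0∞} (hf : AEMeasurable f ν) :
    (∫⁻ a, f a ∂ν) ^ p ≤ ∫⁻ a, f a ^ p ∂ν := by
  rcases eq_or_lt_of_le hp with h1 | h1
  · rw [← h1]; simp
  · have hpq : p.HolderConjugate (Real.conjExponent p) := Real.HolderConjugate.conjExponent h1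
    have h2 := ENNReal.lintegral_mul_le_Lp_mul_Lq ν hpq hf (aemeasurable_const (b := (1:ℝ≥0∞)))
    simp only [Pi.mul_apply, mul_one, ENNReal.one_rpow, lintegral_const, measure_univ] at h2
    have h3 := ENNReal.rpow_le_rpow h2 (by linarith : (0:ℝ) ≤ p)
    rw [← ENNReal.rpow_mul, one_div, inv_mul_cancel₀ (by linarith : p ≠ 0), ENNReal.rpow_one] at h3
    exact h3

instance : IsProbabilityMeasure (volume.restrict (Icc (0 : Fin n → ℝ) 1)) :=
  ⟨by rw [Measure.restrict_apply_univ, volume_cube]⟩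

/-- Jensen on a cell, for a.e. shift; `p ≥ 1` -/
theorem ae_cellAv_rpow_le {F : (Fin n → ℝ) → ℝ≥0∞} (hF : AEMeasurable F) {p : ℝ} (hp : 1 ≤ p) :
    ∀ᵐ a : Fin n → ℝ, ∀ (M : Fin n → ℕ) (J : Finset (Fin n)) (z : Fin n → ℤ),
      cellAv F a M z J ^ p ≤ cellAv (fun x => F x ^ p) a M z J := by
  rw [ae_all_iff]; intro M
  rw [ae_all_iff]; intro J
  rw [ae_all_iff]; intro z
  have h1 := aemeasurable_shear (measurable_scjp M J) (volume.restrict (Icc (0 : Fin n → ℝ) 1)) hF
  have h2 : AEMeasurable (fun q : (Fin n → ℝ) × (Fin n → ℝ) => F (q.1 + sc M (jp J q.2)))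
      (volume.prod (volume.restrict (Icc (0 : Fin n → ℝ) 1))) := h1.prod_swap
  obtain ⟨G, hGm, hG⟩ := h2
  have h3 : ∀ᵐ y : Fin n → ℝ, ∀ᵐ τ ∂(volume.restrict (Icc (0 : Fin n → ℝ) 1)),
      F (y + sc M (jp J τ)) = G (y, τ) := Measure.ae_ae_of_ae_prod hG
  have h4 : ∀ᵐ a : Fin n → ℝ, ∀ᵐ τ ∂(volume.restrict (Icc (0 : Fin n → ℝ) 1)),
      F (a + pt M z + sc M (jp J τ)) = G (a + pt M z, τ) :=
    (measurePreserving_add_right volume (pt M z)).quasiMeasurePreserving.ae h3
  filter_upwards [h4] with a ha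
  have h5 : AEMeasurable (fun τ : Fin n → ℝ => F (a + pt M z + sc M (jp J τ)))
      (volume.restrict (Icc (0 : Fin n → ℝ) 1)) :=
    ⟨fun τ => G (a + pt M z, τ), hGm.comp (measurable_const.prodMk measurable_id), ha⟩
  exact jensen hp h5

/-- Jensen on a cell for measurable `F`: every shift -/
theorem cellAv_rpow_le {F : (Fin n → ℝ) → ℝ≥0∞} (hF : Measurable F) {p : ℝ} (hp : 1 ≤ p)
    (a : Fin n → ℝ) (M : Fin n → ℕ) (z : Fin n → ℤ) (J : Finset (Fin n)) :
    cellAv F a M z J ^ p ≤ cellAv (fun x => F x ^ p) a M z J := by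
  apply jensen hp
  exact (hF.comp (measurable_const.add (measurable_scjp M J))).aemeasurable

end

end Crest.Agent.R096.Mav_31
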