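/-
helper31, row 96, leaf U5/M7, part 2: totals over all scales, Chebyshev for countably many functionals,
null sets.
-/
import Mathlib
import Crest.Agent.R096.Mav1_31

set_option autoImplicit false
set_option linter.unusedSectionVars false

open MeasureTheory Set Filter
open scoped ENNReal Topology

namespace Crest.Agent.R096.Mav_31

noncomputable section

variable {n : ℕ}

/-! ### totals over countably many (scale, direction, density) -/

/-- total of countably many families of cells -/
def total {κ : Type*} (w : κ → ℝ≥0∞) (M : κ → Fin n → ℕ) (J : κ → Finset (Fin n))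
    (G : κ → (Fin n → ℝ) → ℝ≥0∞) (a : Fin n → ℝ) : ℝ≥0∞ :=
  ∑' k, w k * sumAv (G k) (M k) (J k) a

theorem aemeasurable_total {κ : Type*} [Countable κ] (w : κ → ℝ≥0∞) (M : κ → Fin n → ℕ)
    (J : κ → Finset (Fin n)) {G : κ → (Fin n → ℝ) → ℝ≥0∞} (hG : ∀ k, AEMeasurable (G k)) :
    AEMeasurable (total w M J G) := by
  apply AEMeasurable.tsum
  intro k
  exact (aemeasurable_sumAv (hG k) (M k) (J k)).const_mul _

/-- **(M7b) average of the total over ONE shift for all scales** -/
theorem lintegral_total {κ : Type*} [Countable κ] (w : κ → ℝ≥0∞) {M : κ → Fin n → ℕ} (hM : ∀ k i, 0 < M k i)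
    (J : κ → Finset (Fin n)) {G : κ → (Fin n → ℝ) → ℝ≥0∞} (hG : ∀ k, AEMeasurable (G k)) :
    ∫⁻ a in D n, total w M J G a = ∑' k, w k * (∏ i, (M k i : ℝ≥0∞)) * ∫⁻ x, G k x := by
  simp only [total]
  rw [lintegral_tsum fun k => ((aemeasurable_sumAv (hG k) (M k) (J k)).const_mul _).restrict]
  apply tsum_congr
  intro k
  rw [lintegral_const_mul'' _ ((aemeasurable_sumAv (hG k) (M k) (J k)).restrict),
    lintegral_sumAv (hM k) (hG k) (J k), mul_assoc]

/-- the used cells are below the total -/
theorem used_total_le {κ : Type*} (w : κ → ℝ≥0∞) {M : κ → Fin n → ℕ} (hM : ∀ k i, 0 < M k i)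
    (J : κ → Finset (Fin n)) (F : κ → (Fin n → ℝ) → ℝ≥0∞) {a : Fin n → ℝ}
    {U : κ → Set (Fin n → ℤ)} {R : κ → Set (Fin n → ℝ)}
    (hU : ∀ k, ∀ z ∈ U k, Dc a (M k) z (J k) ⊆ R k) :
    ∑' k, w k * ∑' z : U k, cellAv (F k) a (M k) z (J k) ≤
      total w M J (fun k => (R k).indicator (F k)) a :=
  ENNReal.tsum_le_tsum fun k => mul_le_mul_right (used_le (hM k) (hU k)) _

/-- bounded overlap of the level regions -/
theorem tsum_regions_le {κ : Type*} [Countable κ] {R : κ → Set (Fin n → ℝ)}
    (hR : ∀ k, MeasurableSet (R k)) {F : (Fin n → ℝ) → ℝ≥0∞} (hF : AEMeasurable F) {N : ℕ}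
    {Om : Set (Fin n → ℝ)} (hsub : ∀ k, R k ⊆ Om) (hOm : MeasurableSet Om)
    (hN : ∀ x, {k | x ∈ R k}.encard ≤ N) :
    ∑' k, ∫⁻ x, (R k).indicator F x ≤ N * ∫⁻ x in Om, F x := by
  rw [← lintegral_tsum fun k => hF.indicator (hR k), ← lintegral_indicator hOm,
    ← lintegral_const_mul'' _ (hF.indicator hOm)]
  apply lintegral_mono
  intro x
  simp only
  by_cases hx : x ∈ Om
  · rw [indicator_of_mem hx]
    have hfin : {k | x ∈ R k}.Finite := by
      apply Set.finite_of_encard_le_coe (hN x)
    rw [tsum_eq_sum (s := hfin.toFinset)]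
    · calc ∑ k ∈ hfin.toFinset, (R k).indicator F x ≤ ∑ k ∈ hfin.toFinset, F x :=
            Finset.sum_le_sum fun k _ => indicator_le_self _ _ _
        _ = (hfin.toFinset.card : ℝ≥0∞) * F x := by rw [Finset.sum_const, nsmul_eq_mul]
        _ ≤ N * F x := by
            gcongr
            have h1 := hN x
            rw [hfin.encard_eq_coe_toFinset_card] at h1
            exact_mod_cast h1
    · intro k hk
      rw [indicator_of_notMem]
      intro h
      exact hk (hfin.mem_toFinset.2 h)
  · have : ∀ k, (R k).indicator F x = 0 := fun k => indicator_of_notMem (fun h => hx (hsub k h)) _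
    simp [this]

/-! ### Chebyshev -/

/-- one functional -/
theorem volume_bad {H : (Fin n → ℝ) → ℝ≥0∞} (hH : AEMeasurable H (volume.restrict (D n)))
    {c : ℝ≥0∞} (hc : ∫⁻ a in D n, H a ≤ c) {w : ℝ≥0∞} (hw1 : w ≠ ∞) :
    volume.restrict (D n) {a | c < w * H a} ≤ w := by
  by_cases hw0 : w = 0
  · subst hw0
    simp
  by_cases hct : c = ∞
  · have : {a | c < w * H a} = ∅ := by
      ext a
      simp [hct]
    rw [this]; simp
  by_cases hc0 : c = 0
  · have h1 : H =ᵐ[volume.restrict (D n)] 0 :=
      (lintegral_eq_zero_iff' hH).1 (le_antisymm (hc.trans hc0.le) zero_le)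
    have h2 : volume.restrict (D n) {a | c < w * H a} = 0 := by
      rw [← nonpos_iff_eq_zero]
      calc volume.restrict (D n) {a | c < w * H a} ≤ volume.restrict (D n) {a | ¬ H a = 0} := by
            apply measure_mono
            intro a ha h0
            simp only [mem_ofPred_eq] at ha
            rw [h0, mul_zero] at ha
            exact absurd ha (not_lt.2 zero_le)
        _ ≤ 0 := by
            rw [nonpos_iff_eq_zero]
            exact h1
    rw [h2]; exact zero_le
  · have h1 : {a | c < w * H a} ⊆ {a | c ≤ w * H a} := fun a (ha : c < w * H a) => le_of_lt ha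
    have hm' : AEMeasurable (fun a => w * H a) (volume.restrict (D n)) := hH.const_mul w
    have h2 := mul_meas_ge_le_lintegral₀ hm' c
    rw [lintegral_const_mul'' _ hH] at h2
    have h3 : c * volume.restrict (D n) {a | c < w * H a} ≤ c * w := by
      calc c * volume.restrict (D n) {a | c < w * H a}
          ≤ c * volume.restrict (D n) {a | c ≤ w * H a} := by gcongr
        _ ≤ w * ∫⁻ a in D n, H a := h2
        _ ≤ w * c := by gcongr
        _ = c * w := mul_comm _ _
    exact (ENNReal.mul_le_mul_iff_right hc0 hct).1 h3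

/-- **(M7c)** the shifts which are bad for one of countably many functionals -/
theorem volume_bad_tsum {ι : Type*} [Countable ι] {H : ι → (Fin n → ℝ) → ℝ≥0∞}
    (hH : ∀ j, AEMeasurable (H j) (volume.restrict (D n))) {c w : ι → ℝ≥0∞}
    (hc : ∀ j, ∫⁻ a in D n, H j a ≤ c j) (hw1 : ∀ j, w j ≠ ∞) :
    volume.restrict (D n) {a | ∃ j, c j < w j * H j a} ≤ ∑' j, w j := by
  have : {a | ∃ j, c j < w j * H j a} = ⋃ j, {a | c j < w j * H j a} := by
    ext a; simp
  rw [this]
  exact (measure_iUnion_le _).trans (ENNReal.tsum_le_tsum fun j => volume_bad (hH j) (hc j) (hw1 j))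

/-- **(M7c)** one good shift for countably many functionals, off a null set -/
theorem exists_shift {ι : Type*} [Countable ι] {H : ι → (Fin n → ℝ) → ℝ≥0∞}
    (hH : ∀ j, AEMeasurable (H j) (volume.restrict (D n))) {c w : ι → ℝ≥0∞}
    (hc : ∀ j, ∫⁻ a in D n, H j a ≤ c j) (hw : ∑' j, w j < 1) {P : (Fin n → ℝ) → Prop}
    (hP : ∀ᵐ a, P a) : ∃ a ∈ D n, P a ∧ ∀ j, w j * H j a ≤ c j := by
  by_contra hcon
  push Not at hcon
  have hwi : ∀ j, w j ≠ ∞ := fun j => (lt_of_le_of_lt (ENNReal.le_tsum j)
    (lt_trans hw ENNReal.one_lt_top)).ne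
  have hcov : D n ⊆ {a | ¬ P a} ∪ {a | ∃ j, c j < w j * H j a} := by
    intro a ha
    by_cases haP : P a
    · exact Or.inr (hcon a ha haP)
    · exact Or.inl haP
  have h1 : (1:ℝ≥0∞) ≤ ∑' j, w j := by
    calc (1:ℝ≥0∞) = volume.restrict (D n) (D n) := by rw [Measure.restrict_apply_self, volume_D]
      _ ≤ volume.restrict (D n) ({a | ¬ P a} ∪ {a | ∃ j, c j < w j * H j a}) := measure_mono hcov
      _ ≤ volume.restrict (D n) {a | ¬ P a} +
          volume.restrict (D n) {a | ∃ j, c j < w j * H j a} := measure_union_le _ _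
      _ ≤ 0 + ∑' j, w j := by
          apply add_le_add
          · exact le_trans (Measure.restrict_apply_le _ _) (le_of_eq hP)
          · exact volume_bad_tsum hH hc hwi
      _ = ∑' j, w j := zero_add _
  exact absurd h1 (not_le.2 hw)

/-! ### null sets -/

/-- a property of almost all points holds at all lattice points of all scales, for a.e. shift -/
theorem ae_shift {P : (Fin n → ℝ) → Prop} (hP : ∀ᵐ x, P x) :
    ∀ᵐ a : Fin n → ℝ, ∀ (M : Fin n → ℕ) (z : Fin n → ℤ), P (a + pt M z) := by
  rw [ae_all_iff]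
  intro M
  rw [ae_all_iff]
  intro z
  exact (measurePreserving_add_right volume (pt M z)).quasiMeasurePreserving.ae hP

/-- the same with countably many further displacements (centres, corners of cells, ...) -/
theorem ae_shift' {ι : Type*} [Countable ι] (d : ι → Fin n → ℝ) {P : ι → (Fin n → ℝ) → Prop}
    (hP : ∀ i, ∀ᵐ x, P i x) :
    ∀ᵐ a : Fin n → ℝ, ∀ (i : ι) (M : Fin n → ℕ) (z : Fin n → ℤ), P i (a + pt M z + d i) := by
  rw [ae_all_iff]
  intro i
  have h1 : ∀ᵐ x : Fin n → ℝ, P i (x + d i) :=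
    (measurePreserving_add_right volume (d i)).quasiMeasurePreserving.ae (hP i)
  exact ae_shift h1

end

end Crest.Agent.R096.Mav_31
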