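/-
helper31, row 96, leaf U5/M7, part 3: strong `L^p` convergence of the cell averages (edges, faces, cubes) to the
function, as the mesh size tends to zero, in the mean over the shift.
-/
import Mathlib
import Crest.Agent.R096.Mav2_31

set_option autoImplicit false
set_option linter.unusedSectionVars false

open MeasureTheory Set Filter
open scoped ENNReal Topology

namespace Crest.Agent.R096.Mav_31

noncomputable section

variable {n : ℕ} {V : Type*} [NormedAddCommGroup V]

/-- `L^p` modulus of continuity -/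
def om (p : ℝ) (F : (Fin n → ℝ) → V) (h : Fin n → ℝ) : ℝ≥0∞ := ∫⁻ x, ‖F (x + h) - F x‖ₑ ^ p

/-- continuity of translations in `L^p`, `1 ≤ p < ∞` -/
theorem tendsto_om {p : ℝ} (hp : 1 ≤ p) {F : (Fin n → ℝ) → V}
    (hF : MemLp F (ENNReal.ofReal p) volume) : Tendsto (om p F) (𝓝 0) (𝓝 0) := by
  have hp0 : 0 < p := by linarith
  have : Fact ((1 : ℝ≥0∞) ≤ ENNReal.ofReal p) := ⟨by
    rw [← ENNReal.ofReal_one]; exact ENNReal.ofReal_le_ofReal hp⟩
  have hpt : ENNReal.ofReal p ≠ ∞ := ENNReal.ofReal_ne_top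
  have hpz : ENNReal.ofReal p ≠ 0 := by
    rw [Ne, ENNReal.ofReal_eq_zero]; linarith
  let T : (Fin n → ℝ) → C(Fin n → ℝ, Fin n → ℝ) := fun z => ⟨fun x => x + z, by fun_prop⟩
  have hT : Continuous T := by
    refine ContinuousMap.continuous_of_continuous_uncurry _ ?_
    exact continuous_snd.add continuous_fst
  have hTm : ∀ z, MeasurePreserving (T z) (volume : Measure (Fin n → ℝ)) volume := fun z =>
    measurePreserving_add_right volume z
  have hc := (continuous_const (y := hF.toLp F)).compMeasurePreservingLp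
    (μ := (volume : Measure (Fin n → ℝ)))
    (ν := (volume : Measure (Fin n → ℝ))) (p := ENNReal.ofReal p) hT hTm hpt
  have h0 := (hc.tendsto 0)
  rw [tendsto_iff_norm_sub_tendsto_zero] at h0
  have h1 := ENNReal.tendsto_ofReal h0
  rw [ENNReal.ofReal_zero] at h1
  have h2 : Tendsto (fun z : Fin n → ℝ => eLpNorm (fun x => F (x + z) - F x) (ENNReal.ofReal p)
      volume) (𝓝 0) (𝓝 0) := by
    refine h1.congr fun z => ?_
    rw [Lp.norm_def, ENNReal.ofReal_toReal (Lp.eLpNorm_ne_top _)]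
    refine eLpNorm_congr_ae ?_
    refine (Lp.coeFn_sub _ _).trans ?_
    have a1 : ∀ w, (Lp.compMeasurePreserving (T w) (hTm w) (hF.toLp F) : (Fin n → ℝ) → V) =ᵐ[volume]
        fun x => F (x + w) := by
      intro w
      refine (Lp.coeFn_compMeasurePreserving _ _).trans ?_
      exact (hTm w).quasiMeasurePreserving.ae_eq_comp hF.coeFn_toLp
    filter_upwards [a1 z, a1 0] with x h2 h3
    simp only [Pi.sub_apply]
    rw [h2, h3, add_zero]
  have h3 : ∀ z : Fin n → ℝ, om p F z =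
      (eLpNorm (fun x => F (x + z) - F x) (ENNReal.ofReal p) volume) ^ p := by
    intro z
    rw [eLpNorm_eq_lintegral_rpow_enorm_toReal hpz hpt, ENNReal.toReal_ofReal hp0.le,
      ← ENNReal.rpow_mul, one_div, inv_mul_cancel₀ hp0.ne', ENNReal.rpow_one]
    rfl
  have h4 := (ENNReal.continuous_rpow_const (y := p)).tendsto 0 |>.comp h2
  rw [ENNReal.zero_rpow_of_pos hp0] at h4
  exact h4.congr fun z => (h3 z).symm

theorem om_add_sub {p : ℝ} {F : (Fin n → ℝ) → V} (u v : Fin n → ℝ) :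
    ∫⁻ y, ‖F (y + u) - F (y + v)‖ₑ ^ p = om p F (u - v) := by
  rw [om, ← lintegral_add_right_eq_self (fun x => ‖F (x + (u - v)) - F x‖ₑ ^ p) v]
  apply lintegral_congr
  intro y
  have : y + v + (u - v) = y + u := by abel
  simp only [this]

/-- `L^p` discrepancy between the values of `F` on the `J`-cell (second variable) and on the full cube
(first variable) at the base point `y` -/
def dsc (p : ℝ) (F : (Fin n → ℝ) → V) (M : Fin n → ℕ) (J : Finset (Fin n)) (y : Fin n → ℝ) :
    ℝ≥0∞ :=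
  ∫⁻ q, ‖F (y + sc M (jp J q.2)) - F (y + sc M q.1)‖ₑ ^ p
    ∂((volume.restrict (Icc (0 : Fin n → ℝ) 1)).prod (volume.restrict (Icc (0 : Fin n → ℝ) 1)))

theorem ae_eq3 {F G : (Fin n → ℝ) → V} (hG : F =ᵐ[volume] G) {T : Type*} [MeasurableSpace T]
    (ν : Measure T) [SFinite ν] {g : T → (Fin n → ℝ)} (hg : Measurable g) :
    ∀ᵐ q ∂((volume : Measure (Fin n → ℝ)).prod ν), F (q.1 + g q.2) = G (q.1 + g q.2) := by
  have hmp : MeasurePreserving (fun q : T × (Fin n → ℝ) =>
      (q.1, q.2 + g q.1)) (ν.prod volume) (ν.prod volume) := by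
    apply MeasurePreserving.skew_product (MeasurePreserving.id ν)
      (g := fun (t : T) (x : Fin n → ℝ) => x + g t)
    · exact measurable_snd.add (hg.comp measurable_fst)
    · apply Eventually.of_forall
      intro t
      exact (measurePreserving_add_right volume (g t)).map_eq
  have h1 : ∀ᵐ q ∂(ν.prod (volume : Measure (Fin n → ℝ))), F q.2 = G q.2 :=
    Measure.quasiMeasurePreserving_snd.ae hG
  have h2 := hmp.quasiMeasurePreserving.ae h1
  have h3 := (Measure.measurePreserving_swap (μ := (volume : Measure (Fin n → ℝ)))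
    (ν := ν)).quasiMeasurePreserving.ae h2
  exact h3

theorem aemeasurable_dsc3 {p : ℝ} {F : (Fin n → ℝ) → V} (hF : AEStronglyMeasurable F volume)
    (M : Fin n → ℕ) (J : Finset (Fin n)) :
    AEMeasurable (fun q : (Fin n → ℝ) × ((Fin n → ℝ) × (Fin n → ℝ)) =>
      ‖F (q.1 + sc M (jp J q.2.2)) - F (q.1 + sc M q.2.1)‖ₑ ^ p)
      ((volume : Measure (Fin n → ℝ)).prod ((volume.restrict (Icc (0 : Fin n → ℝ) 1)).prod
        (volume.restrict (Icc (0 : Fin n → ℝ) 1)))) := by
  obtain ⟨G, hGm, hG⟩ := hF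
  refine ⟨fun q => ‖G (q.1 + sc M (jp J q.2.2)) - G (q.1 + sc M q.2.1)‖ₑ ^ p, ?_, ?_⟩
  · have h1 : StronglyMeasurable (fun q : (Fin n → ℝ) × ((Fin n → ℝ) × (Fin n → ℝ)) =>
        G (q.1 + sc M (jp J q.2.2)) - G (q.1 + sc M q.2.1)) := by
      apply StronglyMeasurable.sub
      · exact hGm.comp_measurable (measurable_fst.add
          ((measurable_scjp M J).comp (measurable_snd.comp measurable_snd)))
      · exact hGm.comp_measurable (measurable_fst.add
          ((measurable_sc M).comp (measurable_fst.comp measurable_snd)))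
    exact h1.enorm.pow_const p
  · filter_upwards [ae_eq3 hG _ ((measurable_scjp M J).comp measurable_snd),
      ae_eq3 hG _ ((measurable_sc M).comp measurable_fst)] with q h1 h2
    simp only [Function.comp] at h1 h2
    rw [h1, h2]

theorem aemeasurable_dsc {p : ℝ} {F : (Fin n → ℝ) → V} (hF : AEStronglyMeasurable F volume)
    (M : Fin n → ℕ) (J : Finset (Fin n)) : AEMeasurable (dsc p F M J) :=
  (aemeasurable_dsc3 (p := p) hF M J).lintegral_prod_right'

theorem lintegral_dsc {p : ℝ} {F : (Fin n → ℝ) → V} (hF : AEStronglyMeasurable F volume)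
    (M : Fin n → ℕ) (J : Finset (Fin n)) :
    ∫⁻ y, dsc p F M J y = ∫⁻ q, om p F (sc M (jp J q.2) - sc M q.1)
      ∂((volume.restrict (Icc (0 : Fin n → ℝ) 1)).prod (volume.restrict (Icc (0 : Fin n → ℝ) 1))) := by
  simp only [dsc]
  rw [lintegral_lintegral_swap (aemeasurable_dsc3 (p := p) hF M J)]
  apply lintegral_congr
  intro q
  exact om_add_sub _ _

/-- the mean discrepancy over all cubes of the grid with shift `a` -/
def Hd (p : ℝ) (F : (Fin n → ℝ) → V) (M : Fin n → ℕ) (J : Finset (Fin n)) (a : Fin n → ℝ) :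
    ℝ≥0∞ := (∏ i, (M i : ℝ≥0∞))⁻¹ * ∑' z : Fin n → ℤ, dsc p F M J (a + pt M z)

theorem aemeasurable_Hd {p : ℝ} {F : (Fin n → ℝ) → V} (hF : AEStronglyMeasurable F volume)
    (M : Fin n → ℕ) (J : Finset (Fin n)) : AEMeasurable (Hd p F M J) := by
  apply AEMeasurable.const_mul
  apply AEMeasurable.tsum
  intro z
  exact (aemeasurable_dsc hF M J).comp_quasiMeasurePreserving
    (measurePreserving_add_right volume (pt M z)).quasiMeasurePreserving

theorem prod_ne_zero {M : Fin n → ℕ} (hM : ∀ i, 0 < M i) : (∏ i, (M i : ℝ≥0∞)) ≠ 0 := by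
  rw [Finset.prod_ne_zero_iff]
  intro i _
  exact_mod_cast (hM i).ne'

theorem prod_ne_top (M : Fin n → ℕ) : (∏ i, (M i : ℝ≥0∞)) ≠ ∞ := by
  apply ENNReal.prod_ne_top
  intro i _
  exact ENNReal.natCast_ne_top _

theorem norm_arg_le {M : Fin n → ℕ} {N : ℕ} (hN : 0 < N) (hM : ∀ i, N ≤ M i)
    (J : Finset (Fin n)) {u τ : Fin n → ℝ} (hu : u ∈ Icc (0 : Fin n → ℝ) 1)
    (hτ : τ ∈ Icc (0 : Fin n → ℝ) 1) : ‖sc M (jp J τ) - sc M u‖ ≤ 1 / N := by
  have hN' : (0:ℝ) < N := by exact_mod_cast hN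
  rw [pi_norm_le_iff_of_nonneg (by positivity)]
  intro i
  have hMi : (N:ℝ) ≤ M i := by exact_mod_cast hM i
  have hM' : (0:ℝ) < M i := lt_of_lt_of_le hN' hMi
  have h0 : (0:ℝ) ≤ τ i := hτ.1 i
  have h1 : τ i ≤ 1 := hτ.2 i
  have h2 : (0:ℝ) ≤ u i := hu.1 i
  have h3 : u i ≤ 1 := hu.2 i
  have h4 : ‖(sc M (jp J τ) - sc M u) i‖ ≤ 1 / M i := by
    simp only [Pi.sub_apply, sc, jp]
    rw [← sub_div, Real.norm_eq_abs, abs_div, abs_of_pos hM']
    apply div_le_div_of_nonneg_right _ hM'.le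
    rw [abs_le]
    split_ifs <;> constructor <;> linarith
  exact h4.trans (one_div_le_one_div_of_le hN' hMi)

/-- **(M7d)** mean over the shift of the mean discrepancy -/
theorem lintegral_Hd_le {p : ℝ} {F : (Fin n → ℝ) → V} (hF : AEStronglyMeasurable F volume)
    {M : Fin n → ℕ} {N : ℕ} (hN : 0 < N) (hM : ∀ i, N ≤ M i) (J : Finset (Fin n)) {c : ℝ≥0∞}
    (hc : ∀ h : Fin n → ℝ, ‖h‖ ≤ 1 / N → om p F h ≤ c) : ∫⁻ a in D n, Hd p F M J a ≤ c := by
  have hM0 : ∀ i, 0 < M i := fun i => lt_of_lt_of_le hN (hM i)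
  simp only [Hd]
  rw [lintegral_const_mul']
  · rw [lintegral_lattice hM0 (aemeasurable_dsc hF M J), ← mul_assoc,
      ENNReal.inv_mul_cancel (prod_ne_zero hM0) (prod_ne_top M), one_mul, lintegral_dsc hF]
    have h1 : ∀ᵐ q ∂((volume.restrict (Icc (0 : Fin n → ℝ) 1)).prod
        (volume.restrict (Icc (0 : Fin n → ℝ) 1))), om p F (sc M (jp J q.2) - sc M q.1) ≤ c := by
      rw [Measure.prod_restrict]
      filter_upwards [ae_restrict_mem (measurableSet_Icc.prod measurableSet_Icc)] with q hq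
      exact hc _ (norm_arg_le hN hM J hq.1 hq.2)
    calc _ ≤ ∫⁻ _q, c ∂((volume.restrict (Icc (0 : Fin n → ℝ) 1)).prod
        (volume.restrict (Icc (0 : Fin n → ℝ) 1))) := lintegral_mono_ae h1
      _ = c := by rw [lintegral_const, measure_univ, mul_one]
  · exact ENNReal.inv_ne_top.2 (prod_ne_zero hM0)

/-- **(M7d)** for `F ∈ L^p`: the mean over the shift of the mean discrepancy tends to zero -/
theorem exists_mesh {p : ℝ} (hp : 1 ≤ p) {F : (Fin n → ℝ) → V}
    (hF : MemLp F (ENNReal.ofReal p) volume) {ε : ℝ≥0∞} (hε : 0 < ε) :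
    ∃ N : ℕ, 0 < N ∧ ∀ M : Fin n → ℕ, (∀ i, N ≤ M i) → ∀ J : Finset (Fin n),
      ∫⁻ a in D n, Hd p F M J a ≤ ε := by
  have h1 := tendsto_om hp hF
  have h2 : ∀ᶠ h in 𝓝 (0 : Fin n → ℝ), om p F h < ε := h1.eventually_lt_const hε
  obtain ⟨r, hr, hr'⟩ := Metric.eventually_nhds_iff.1 h2
  obtain ⟨N, hN⟩ := exists_nat_one_div_lt hr
  refine ⟨N + 1, Nat.succ_pos _, fun M hM J => ?_⟩
  apply lintegral_Hd_le hF.1 (Nat.succ_pos N) hM J
  intro h hh
  apply le_of_lt
  apply hr'
  rw [dist_zero_right]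
  push_cast at hh
  exact lt_of_le_of_lt hh hN

/-! ### tiling -/

theorem sc_eq (M : Fin n → ℕ) (y : Fin n → ℝ) :
    sc M y = Matrix.toLin' (Matrix.diagonal fun i => ((M i : ℝ))⁻¹) y := by
  rw [Matrix.diagonal_toLin']
  funext i
  simp [sc, div_eq_inv_mul]

theorem lintegral_sc {M : Fin n → ℕ} (hM : ∀ i, 0 < M i) {H : (Fin n → ℝ) → ℝ≥0∞}
    (hH : AEMeasurable H) (a : Fin n → ℝ) :
    ∫⁻ y, H (a + sc M y) = (∏ i, (M i : ℝ≥0∞)) * ∫⁻ x, H x := by
  have hdet : Matrix.det (Matrix.diagonal fun i => ((M i : ℝ))⁻¹) ≠ 0 := by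
    rw [Matrix.det_diagonal, Finset.prod_ne_zero_iff]
    intro i _
    exact inv_ne_zero (by exact_mod_cast (hM i).ne')
  have h1 := Real.smul_map_diagonal_volume_pi (D := fun i => ((M i : ℝ))⁻¹) hdet
  set c : ℝ≥0∞ := ENNReal.ofReal |Matrix.det (Matrix.diagonal fun i => ((M i : ℝ))⁻¹)| with hc
  set L := Matrix.toLin' (Matrix.diagonal fun i => ((M i : ℝ))⁻¹) with hL
  have hLm : Measurable L := (LinearMap.continuous_on_pi _).measurable
  have hcc : c = (∏ i, (M i : ℝ≥0∞))⁻¹ := by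
    rw [hc, Matrix.det_diagonal, abs_of_nonneg (Finset.prod_nonneg fun i _ => by positivity),
      ENNReal.ofReal_prod_of_nonneg (fun i _ => by positivity),
      ENNReal.prod_inv_distrib]
    · apply Finset.prod_congr rfl
      intro i _
      rw [ENNReal.ofReal_inv_of_pos (by exact_mod_cast hM i), ENNReal.ofReal_natCast]
    · intro i _ j _ _
      left
      exact_mod_cast (hM i).ne'
  have hc0 : c ≠ 0 := by rw [hcc]; exact ENNReal.inv_ne_zero.2 (prod_ne_top M)
  have hct : c ≠ ∞ := by rw [hcc]; exact ENNReal.inv_ne_top.2 (prod_ne_zero hM)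
  have hHa : AEMeasurable (fun x => H (a + x)) :=
    hH.comp_quasiMeasurePreserving (measurePreserving_add_left volume a).quasiMeasurePreserving
  have hmap : AEMeasurable (fun x => H (a + x)) (Measure.map L volume) := by
    apply hHa.mono_ac
    intro s hs
    have h2 : c * (Measure.map L volume) s = 0 := by
      rw [← smul_eq_mul, ← Measure.smul_apply, h1]; exact hs
    exact (mul_eq_zero.1 h2).resolve_left hc0
  have h3 : ∫⁻ x, H x = c * ∫⁻ y, H (a + sc M y) := by
    calc ∫⁻ x, H x = ∫⁻ x, H (a + x) := (lintegral_add_left_eq_self H a).symm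
      _ = ∫⁻ x, H (a + x) ∂(c • Measure.map L volume) := by rw [h1]
      _ = c * ∫⁻ x, H (a + x) ∂(Measure.map L volume) := by rw [lintegral_smul_measure, smul_eq_mul]
      _ = c * ∫⁻ y, H (a + L y) := by rw [lintegral_map' hmap hLm.aemeasurable]
      _ = c * ∫⁻ y, H (a + sc M y) := by simp_rw [sc_eq, ← hL]
  rw [h3, ← mul_assoc, hcc, ENNReal.mul_inv_cancel (prod_ne_zero hM) (prod_ne_top M), one_mul]

theorem det_sc {M : Fin n → ℕ} (hM : ∀ i, 0 < M i) :
    Matrix.det (Matrix.diagonal fun i => ((M i : ℝ))⁻¹) ≠ 0 := by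
  rw [Matrix.det_diagonal, Finset.prod_ne_zero_iff]
  intro i _
  exact inv_ne_zero (by exact_mod_cast (hM i).ne')

theorem qmp_sc {M : Fin n → ℕ} (hM : ∀ i, 0 < M i) (a : Fin n → ℝ) :
    Measure.QuasiMeasurePreserving (fun y => a + sc M y) volume volume := by
  have h1 : Measure.QuasiMeasurePreserving
      (Matrix.toLin' (Matrix.diagonal fun i => ((M i : ℝ))⁻¹)) (volume : Measure (Fin n → ℝ))
      volume := by
    refine Measure.LinearMap.quasiMeasurePreserving _ _ ?_
    rw [LinearMap.det_toLin']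
    exact det_sc hM
  have h2 := (measurePreserving_add_left (volume : Measure (Fin n → ℝ)) a).quasiMeasurePreserving.comp h1
  have h3 : (fun y => a + sc M y) = (fun x => a + x) ∘
      (Matrix.toLin' (Matrix.diagonal fun i => ((M i : ℝ))⁻¹)) := by
    funext y
    simp only [Function.comp, sc_eq]
  rw [h3]
  exact h2

/-- **tiling**: the integral is the sum over the cubes of the grid, in normalised coordinates -/
theorem lintegral_eq_tsum_cubes {M : Fin n → ℕ} (hM : ∀ i, 0 < M i) {H : (Fin n → ℝ) → ℝ≥0∞}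
    (hH : AEMeasurable H) (a : Fin n → ℝ) :
    ∫⁻ x, H x = (∏ i, (M i : ℝ≥0∞))⁻¹ *
      ∑' z : Fin n → ℤ, ∫⁻ u in D n, H (a + pt M z + sc M u) := by
  have h1 : AEMeasurable (fun y => H (a + sc M y)) := hH.comp_quasiMeasurePreserving (qmp_sc hM a)
  have h2 := lintegral_lattice (n := n) (M := fun _ => 1) (fun _ => Nat.one_pos) h1
  simp only [Nat.cast_one, Finset.prod_const_one, one_mul] at h2
  rw [lintegral_sc hM hH a, lintegral_tsum] at h2
  · have h3 : ∀ z : Fin n → ℤ, ∀ u : Fin n → ℝ, a + sc M (u + pt (fun _ => 1) z) =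
        a + pt M z + sc M u := by
      intro z u
      funext i
      simp only [Pi.add_apply, sc, pt, Nat.cast_one, div_one]
      ring
    simp_rw [h3] at h2
    rw [h2, ← mul_assoc, ENNReal.inv_mul_cancel (prod_ne_zero hM) (prod_ne_top M), one_mul]
  · intro z
    exact (h1.comp_quasiMeasurePreserving
      (measurePreserving_add_right volume (pt (fun _ => 1) z)).quasiMeasurePreserving).restrict

/-- the index of the cube containing `x` -/
def idx (a : Fin n → ℝ) (M : Fin n → ℕ) (x : Fin n → ℝ) : Fin n → ℤ :=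
  fun i => ⌊(M i : ℝ) * (x i - a i)⌋

theorem idx_eq {M : Fin n → ℕ} (hM : ∀ i, 0 < M i) (a : Fin n → ℝ) (z : Fin n → ℤ)
    {u : Fin n → ℝ} (hu : u ∈ D n) : idx a M (a + pt M z + sc M u) = z := by
  funext i
  have hM' : (0:ℝ) < M i := by exact_mod_cast hM i
  have h1 : (M i : ℝ) * ((a + pt M z + sc M u) i - a i) = z i + u i := by
    simp only [Pi.add_apply, pt, sc]
    field_simp
    ring
  simp only [idx]
  rw [h1, Int.floor_eq_iff]
  constructor
  · linarith [(hu i).1]
  · linarith [(hu i).2]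

end

end Crest.Agent.R096.Mav_31
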