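/-
helper31, row 96, leaf U5/M7, part 4: Bochner averages of cells, Riemann sums (choice of regular levels),
almost sure convergence along a subsequence of meshes for countably many functions at once.
-/
import Mathlib
import Crest.Agent.R096.Mav3_31

set_option autoImplicit false
set_option linter.unusedSectionVars false

open MeasureTheory Set Filter
open scoped ENNReal Topology

namespace Crest.Agent.R096.Mav_31

noncomputable section

variable {n : ℕ} {V : Type*} [NormedAddCommGroup V]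

/-- **(M7e)** countably many functions `F i ∈ L^{p i}`: along a subsequence of any sequence of meshes whose
sizes tend to zero, for a.e. shift all discrepancies tend to zero. -/
theorem exists_subseq {p : ℕ → ℝ} (hp : ∀ i, 1 ≤ p i) {F : ℕ → (Fin n → ℝ) → V}
    (hF : ∀ i, MemLp (F i) (ENNReal.ofReal (p i)) volume) {M : ℕ → Fin n → ℕ}
    (hM : ∀ i, Tendsto (fun k => M k i) atTop atTop) :
    ∃ φ : ℕ → ℕ, StrictMono φ ∧ ∀ᵐ a ∂(volume.restrict (D n)), ∀ i (J : Finset (Fin n)),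
      Tendsto (fun k => Hd (p i) (F i) (M (φ k)) J a) atTop (𝓝 0) := by
  classical
  -- tail meshes are good for the first functions
  have h1 : ∀ k : ℕ, ∃ m₀ : ℕ, ∀ m, m₀ ≤ m → ∀ i, i ≤ k → ∀ J : Finset (Fin n),
      ∫⁻ a in D n, Hd (p i) (F i) (M m) J a ≤ (2:ℝ≥0∞)⁻¹ ^ k := by
    intro k
    have h2 : ∀ i : ℕ, ∃ m₀ : ℕ, ∀ m, m₀ ≤ m → ∀ J : Finset (Fin n),
        ∫⁻ a in D n, Hd (p i) (F i) (M m) J a ≤ (2:ℝ≥0∞)⁻¹ ^ k := by
      intro i
      have hpos : (0:ℝ≥0∞) < (2:ℝ≥0∞)⁻¹ ^ k := by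
        apply ENNReal.pow_pos
        simp
      obtain ⟨N, -, hN⟩ := exists_mesh (hp i) (hF i) hpos
      have h3 : ∀ᶠ m in atTop, ∀ j : Fin n, N ≤ M m j := by
        rw [eventually_all]
        intro j
        exact (hM j).eventually_ge_atTop N
      obtain ⟨m₀, hm₀⟩ := eventually_atTop.1 h3
      exact ⟨m₀, fun m hm J => hN (M m) (hm₀ m hm) J⟩
    choose g hg using h2
    refine ⟨(Finset.range (k+1)).sup g, fun m hm i hi J => hg i m ?_ J⟩
    exact le_trans (Finset.le_sup (f := g) (Finset.mem_range.2 (Nat.lt_succ_of_le hi))) hm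
  choose m₀ hm₀ using h1
  obtain ⟨φ, hφ, hφm⟩ : ∃ φ : ℕ → ℕ, StrictMono φ ∧ ∀ k, m₀ k ≤ φ k := by
    have := Filter.extraction_forall_of_eventually (P := fun k m => m₀ k ≤ m)
      (fun k => eventually_ge_atTop (m₀ k))
    obtain ⟨φ, hφ, h⟩ := this
    exact ⟨φ, hφ, h⟩
  refine ⟨φ, hφ, ?_⟩
  rw [ae_all_iff]
  intro i
  rw [ae_all_iff]
  intro J
  have hmeas : ∀ k, AEMeasurable (Hd (p i) (F i) (M (φ k)) J) (volume.restrict (D n)) := fun k =>
    (aemeasurable_Hd (hF i).1 _ J).restrict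
  -- the sum of the discrepancies has finite integral over the tail
  have h4 : ∫⁻ a in D n, ∑' k : ℕ, Hd (p i) (F i) (M (φ (k + i))) J a ≠ ∞ := by
    rw [lintegral_tsum fun k => hmeas (k + i)]
    have h5 : ∑' k : ℕ, ∫⁻ a in D n, Hd (p i) (F i) (M (φ (k + i))) J a ≤
        ∑' k : ℕ, (2:ℝ≥0∞)⁻¹ ^ k := by
      apply ENNReal.tsum_le_tsum
      intro k
      refine (hm₀ (k + i) _ (hφm (k + i)) i (Nat.le_add_left i k) J).trans ?_
      rw [pow_add]
      exact mul_le_of_le_one_right zero_le (pow_le_one₀ zero_le (by simp))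
    refine ne_top_of_le_ne_top ?_ h5
    rw [ENNReal.tsum_geometric, ENNReal.one_sub_inv_two, inv_inv]
    exact ENNReal.ofNat_ne_top
  have h6 : AEMeasurable (fun a => ∑' k : ℕ, Hd (p i) (F i) (M (φ (k + i))) J a)
      (volume.restrict (D n)) := AEMeasurable.tsum fun k => hmeas (k + i)
  filter_upwards [ae_lt_top' h6 h4] with a ha
  have h7 : Tendsto (fun k => Hd (p i) (F i) (M (φ (k + i))) J a) atTop (𝓝 0) := by
    have := ENNReal.tendsto_cofinite_zero_of_tsum_ne_top ha.ne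
    rwa [Nat.cofinite_eq_atTop] at this
  exact (tendsto_add_atTop_iff_nat (f := fun k => Hd (p i) (F i) (M (φ k)) J a) i).1 h7

variable [NormedSpace ℝ V] [CompleteSpace V]

/-- the average of `F` over the `J`-cell with index `z` -/
def cav (F : (Fin n → ℝ) → V) (a : Fin n → ℝ) (M : Fin n → ℕ) (z : Fin n → ℤ)
    (J : Finset (Fin n)) : V :=
  ∫ τ in Icc (0 : Fin n → ℝ) 1, F (a + pt M z + sc M (jp J τ))

theorem D_ae_eq : (D n : Set (Fin n → ℝ)) =ᵐ[volume] Icc (0 : Fin n → ℝ) 1 := by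
  rw [D_eq]
  exact Measure.univ_pi_Ico_ae_eq_Icc (μ := fun _ : Fin n => (volume : Measure ℝ))
    (f := fun _ => (0:ℝ)) (g := fun _ => (1:ℝ))

/-- for a.e. base point the average of `F` over the piece is `L^p` close to `F` on the cube,
with the discrepancy as bound -/
theorem ae_cav_le {p : ℝ} (hp : 1 ≤ p) {F : (Fin n → ℝ) → V}
    (hF : MemLp F (ENNReal.ofReal p) volume) (M : Fin n → ℕ) (J : Finset (Fin n)) :
    ∀ᵐ y : Fin n → ℝ, IntegrableOn (fun τ => F (y + sc M (jp J τ))) (Icc (0 : Fin n → ℝ) 1) ∧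
      ∫⁻ u in Icc (0 : Fin n → ℝ) 1,
        ‖(∫ τ in Icc (0 : Fin n → ℝ) 1, F (y + sc M (jp J τ))) - F (y + sc M u)‖ₑ ^ p ≤
      dsc p F M J y := by
  have hp0 : 0 < p := by linarith
  have hpt : ENNReal.ofReal p ≠ ∞ := ENNReal.ofReal_ne_top
  have hpz : ENNReal.ofReal p ≠ 0 := by
    rw [Ne, ENNReal.ofReal_eq_zero]; linarith
  have hp1 : (1:ℝ≥0∞) ≤ ENNReal.ofReal p := by
    rw [← ENNReal.ofReal_one]; exact ENNReal.ofReal_le_ofReal hp
  set ν : Measure (Fin n → ℝ) := volume.restrict (Icc (0 : Fin n → ℝ) 1) with hν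
  have : IsProbabilityMeasure ν := by rw [hν]; infer_instance
  -- measurability of sections
  have h1 : ∀ᵐ y : Fin n → ℝ, AEStronglyMeasurable (fun τ => F (y + sc M (jp J τ))) ν := by
    obtain ⟨G, hGm, hG⟩ := hF.1
    have h0 : AEStronglyMeasurable (fun q : (Fin n → ℝ) × (Fin n → ℝ) =>
        F (q.1 + sc M (jp J q.2))) ((volume : Measure (Fin n → ℝ)).prod ν) :=
      ⟨fun q => G (q.1 + sc M (jp J q.2)), hGm.comp_measurable (measurable_fst.add
        ((measurable_scjp M J).comp measurable_snd)), ae_eq3 hG ν (measurable_scjp M J)⟩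
    exact h0.prodMk_left
  have h2 : ∀ᵐ y : Fin n → ℝ, ∫⁻ τ, ‖F (y + sc M (jp J τ))‖ₑ ^ p ∂ν < ∞ := by
    have hm : AEMeasurable (fun x => ‖F x‖ₑ ^ p) := hF.1.enorm.pow_const p
    have h3 := lintegral_pcAv hm M J
    have h4 : ∫⁻ x, ‖F x‖ₑ ^ p ≠ ∞ := by
      have := hF.2
      rw [eLpNorm_lt_top_iff_lintegral_rpow_enorm_lt_top hpz hpt,
        ENNReal.toReal_ofReal hp0.le] at this
      exact this.ne
    exact ae_lt_top' (aemeasurable_pcAv hm M J) (by rw [← h3] at h4; exact h4)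
  have h5 : ∀ᵐ y : Fin n → ℝ, AEMeasurable (fun q : (Fin n → ℝ) × (Fin n → ℝ) =>
      ‖F (y + sc M (jp J q.2)) - F (y + sc M q.1)‖ₑ ^ p) (ν.prod ν) := by
    have h6 := (aemeasurable_dsc3 (p := p) hF.1 M J).aestronglyMeasurable.prodMk_left
    filter_upwards [h6] with y hy
    exact hy.aemeasurable
  filter_upwards [h1, h2, h5] with y hy1 hy2 hy5
  have hLp : MemLp (fun τ => F (y + sc M (jp J τ))) (ENNReal.ofReal p) ν := by
    refine ⟨hy1, ?_⟩
    rw [eLpNorm_lt_top_iff_lintegral_rpow_enorm_lt_top hpz hpt, ENNReal.toReal_ofReal hp0.le]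
    exact hy2
  have hint : Integrable (fun τ => F (y + sc M (jp J τ))) ν := hLp.integrable hp1
  refine ⟨hint, ?_⟩
  rw [dsc, ← hν, lintegral_prod _ hy5]
  apply lintegral_mono
  intro u
  simp only
  have h7 : (∫ τ, F (y + sc M (jp J τ)) ∂ν) - F (y + sc M u) =
      ∫ τ, (F (y + sc M (jp J τ)) - F (y + sc M u)) ∂ν := by
    rw [integral_sub hint (integrable_const _), integral_const]
    simp
  rw [h7]
  calc ‖∫ τ, (F (y + sc M (jp J τ)) - F (y + sc M u)) ∂ν‖ₑ ^ p
      ≤ (∫⁻ τ, ‖F (y + sc M (jp J τ)) - F (y + sc M u)‖ₑ ∂ν) ^ p :=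
        ENNReal.rpow_le_rpow (enorm_integral_le_lintegral_enorm _) hp0.le
    _ ≤ ∫⁻ τ, ‖F (y + sc M (jp J τ)) - F (y + sc M u)‖ₑ ^ p ∂ν :=
        jensen hp (hy1.sub aestronglyMeasurable_const).enorm

theorem measurable_idx (a : Fin n → ℝ) (M : Fin n → ℕ) : Measurable (idx a M) := by
  apply measurable_pi_lambda
  intro i
  exact Int.measurable_floor.comp (((measurable_pi_apply i).sub_const _).const_mul _)

/-- **(M7d), continuous form.** For a.e. shift and all meshes: the piecewise constant function whose value on a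
cube is the average of `F` over the `J`-face at the corner of the cube is `L^p`-close to `F`. -/
theorem ae_mesh_le {p : ℝ} (hp : 1 ≤ p) {F : (Fin n → ℝ) → V}
    (hF : MemLp F (ENNReal.ofReal p) volume) :
    ∀ᵐ a : Fin n → ℝ, ∀ (M : Fin n → ℕ), (∀ i, 0 < M i) → ∀ J : Finset (Fin n),
      ∫⁻ x, ‖cav F a M (idx a M x) J - F x‖ₑ ^ p ≤ Hd p F M J a := by
  rw [ae_all_iff]; intro M
  by_cases hM : ∀ i, 0 < M i
  swap
  · exact Eventually.of_forall fun a h => absurd h hM
  have h1 : ∀ᵐ a : Fin n → ℝ, ∀ (J : Finset (Fin n)) (z : Fin n → ℤ),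
      ∫⁻ u in Icc (0 : Fin n → ℝ) 1, ‖cav F a M z J - F (a + pt M z + sc M u)‖ₑ ^ p ≤
        dsc p F M J (a + pt M z) := by
    rw [ae_all_iff]; intro J
    rw [ae_all_iff]; intro z
    filter_upwards [(measurePreserving_add_right volume (pt M z)).quasiMeasurePreserving.ae
      (ae_cav_le hp hF M J)] with a ha
    exact ha.2
  filter_upwards [h1] with a ha _ J
  have hm : AEMeasurable (fun x => ‖cav F a M (idx a M x) J - F x‖ₑ ^ p) := by
    have h2 : StronglyMeasurable (fun x => cav F a M (idx a M x) J) :=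
      (StronglyMeasurable.of_discrete (f := fun z => cav F a M z J)).comp_measurable
        (measurable_idx a M)
    exact (h2.aestronglyMeasurable.sub hF.1).enorm.pow_const p
  rw [lintegral_eq_tsum_cubes hM hm a, Hd]
  refine mul_le_mul_right (ENNReal.tsum_le_tsum fun z => ?_) _
  calc ∫⁻ u in D n, ‖cav F a M (idx a M (a + pt M z + sc M u)) J - F (a + pt M z + sc M u)‖ₑ ^ p
      = ∫⁻ u in D n, ‖cav F a M z J - F (a + pt M z + sc M u)‖ₑ ^ p := by
        apply setLIntegral_congr_fun measurableSet_D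
        intro u hu
        simp only
        rw [idx_eq hM a z hu]
    _ = ∫⁻ u in Icc (0 : Fin n → ℝ) 1, ‖cav F a M z J - F (a + pt M z + sc M u)‖ₑ ^ p := by
        rw [Measure.restrict_congr_set D_ae_eq]
    _ ≤ dsc p F M J (a + pt M z) := ha J z

end

end Crest.Agent.R096.Mav_31
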