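/-
helper31, row 96, leaf U5/M7, part 5: Riemann sums over the shifted lattice `a + ∏ (1/M_i) ℤ`
(dimension one: choice of the regular levels `b + j / m`).
-/
import Mathlib
import Crest.Agent.R096.Mav4_31

set_option autoImplicit false
set_option linter.unusedSectionVars false

open MeasureTheory Set Filter
open scoped ENNReal Topology

namespace Crest.Agent.R096.Mav_31

noncomputable section

variable {n : ℕ}

/-- the Riemann sum -/
def rs (g : (Fin n → ℝ) → ℝ≥0∞) (M : Fin n → ℕ) (a : Fin n → ℝ) : ℝ≥0∞ :=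
  (∏ i, (M i : ℝ≥0∞))⁻¹ * ∑' z : Fin n → ℤ, g (a + pt M z)

theorem jp_empty (τ : Fin n → ℝ) : jp ∅ τ = 0 := by
  funext i; simp [jp]

theorem sc_zero (M : Fin n → ℕ) : sc M 0 = 0 := by
  funext i; simp [sc]

theorem le_add_toReal {x y : ℝ≥0∞} (hx : x ≠ ∞) (hy : y ≠ ∞) :
    x ≤ y + ‖x.toReal - y.toReal‖ₑ := by
  have h : ENNReal.ofReal x.toReal ≤ ENNReal.ofReal (y.toReal + |x.toReal - y.toReal|) := by
    apply ENNReal.ofReal_le_ofReal
    linarith [le_abs_self (x.toReal - y.toReal)]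
  rwa [ENNReal.ofReal_add ENNReal.toReal_nonneg (abs_nonneg _), ENNReal.ofReal_toReal hx,
    ENNReal.ofReal_toReal hy, ← Real.enorm_eq_ofReal_abs] at h

theorem le_add_toReal' {x y : ℝ≥0∞} (hx : x ≠ ∞) (hy : y ≠ ∞) :
    y ≤ x + ‖x.toReal - y.toReal‖ₑ := by
  have h : ENNReal.ofReal y.toReal ≤ ENNReal.ofReal (x.toReal + |x.toReal - y.toReal|) := by
    apply ENNReal.ofReal_le_ofReal
    linarith [neg_abs_le (x.toReal - y.toReal)]
  rwa [ENNReal.ofReal_add ENNReal.toReal_nonneg (abs_nonneg _), ENNReal.ofReal_toReal hx,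
    ENNReal.ofReal_toReal hy, ← Real.enorm_eq_ofReal_abs] at h

theorem dsc_empty {g : (Fin n → ℝ) → ℝ} (hg : AEStronglyMeasurable g volume) (M : Fin n → ℕ) :
    ∀ᵐ y : Fin n → ℝ, dsc 1 g M ∅ y =
      ∫⁻ u in Icc (0 : Fin n → ℝ) 1, ‖g y - g (y + sc M u)‖ₑ := by
  have h6 := (aemeasurable_dsc3 (p := 1) hg M ∅).aestronglyMeasurable.prodMk_left
  filter_upwards [h6] with y hy
  rw [dsc, lintegral_prod _ hy.aemeasurable]
  apply lintegral_congr
  intro u
  simp only [jp_empty, sc_zero, add_zero, ENNReal.rpow_one]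
  rw [lintegral_const, measure_univ, mul_one]

/-- **Riemann sums**: for a.e. shift and all meshes, upper and lower bound -/
theorem ae_riemann {g : (Fin n → ℝ) → ℝ≥0∞} (hg : AEMeasurable g) (hfin : ∫⁻ x, g x ≠ ∞) :
    ∀ᵐ a : Fin n → ℝ, ∀ M : Fin n → ℕ, (∀ i, 0 < M i) →
      rs g M a ≤ (∫⁻ x, g x) + Hd 1 (fun x => (g x).toReal) M ∅ a ∧
      ∫⁻ x, g x ≤ rs g M a + Hd 1 (fun x => (g x).toReal) M ∅ a := by
  rw [ae_all_iff]; intro M
  by_cases hM : ∀ i, 0 < M i
  swap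
  · exact Eventually.of_forall fun a h => absurd h hM
  set ν : Measure (Fin n → ℝ) := volume.restrict (Icc (0 : Fin n → ℝ) 1) with hν
  have hgf : ∀ᵐ x : Fin n → ℝ, g x ≠ ∞ := by
    filter_upwards [ae_lt_top' hg hfin] with x hx using hx.ne
  have hgr : AEStronglyMeasurable (fun x => (g x).toReal) (volume : Measure (Fin n → ℝ)) :=
    hg.ennreal_toReal.aestronglyMeasurable
  have h1 : ∀ᵐ y : Fin n → ℝ, ∀ᵐ u ∂ν, g (y + sc M u) ≠ ∞ := by
    have h2 : ∀ᵐ q ∂(ν.prod (volume : Measure (Fin n → ℝ))), g (q.2 + sc M q.1) ≠ ∞ :=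
      (mp_shear (measurable_sc M) ν).quasiMeasurePreserving.ae
        (Measure.quasiMeasurePreserving_snd.ae hgf)
    have h3 : ∀ᵐ q ∂((volume : Measure (Fin n → ℝ)).prod ν), g (q.1 + sc M q.2) ≠ ∞ :=
      (Measure.measurePreserving_swap (μ := (volume : Measure (Fin n → ℝ)))
        (ν := ν)).quasiMeasurePreserving.ae h2
    exact Measure.ae_ae_of_ae_prod h3
  have h2m : ∀ᵐ y : Fin n → ℝ, AEMeasurable (fun u => g (y + sc M u)) ν := by
    have h3 := aemeasurable_shear (measurable_sc M) ν hg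
    have h4 : AEMeasurable (fun q : (Fin n → ℝ) × (Fin n → ℝ) => g (q.1 + sc M q.2))
      ((volume : Measure (Fin n → ℝ)).prod ν) := h3.prod_swap
    have h5 := h4.aestronglyMeasurable.prodMk_left
    filter_upwards [h5] with y hy using hy.aemeasurable
  have hy : ∀ᵐ y : Fin n → ℝ, g y ≤ (∫⁻ u, g (y + sc M u) ∂ν) + dsc 1 (fun x => (g x).toReal) M ∅ y ∧
      (∫⁻ u, g (y + sc M u) ∂ν) ≤ g y + dsc 1 (fun x => (g x).toReal) M ∅ y := by
    filter_upwards [h1, h2m, hgf, dsc_empty hgr M] with y hy1 hy2 hy3 hy4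
    rw [hy4, ← hν]
    constructor
    · calc g y = ∫⁻ _u, g y ∂ν := by rw [lintegral_const, measure_univ, mul_one]
        _ ≤ ∫⁻ u, (g (y + sc M u) + ‖(g y).toReal - (g (y + sc M u)).toReal‖ₑ) ∂ν := by
            apply lintegral_mono_ae
            filter_upwards [hy1] with u hu
            exact le_add_toReal hy3 hu
        _ = _ := lintegral_add_left' hy2 _
    · calc (∫⁻ u, g (y + sc M u) ∂ν)
          ≤ ∫⁻ u, (g y + ‖(g y).toReal - (g (y + sc M u)).toReal‖ₑ) ∂ν := by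
            apply lintegral_mono_ae
            filter_upwards [hy1] with u hu
            exact le_add_toReal' hy3 hu
        _ = (∫⁻ _u, g y ∂ν) + ∫⁻ u, ‖(g y).toReal - (g (y + sc M u)).toReal‖ₑ ∂ν :=
            lintegral_add_left' aemeasurable_const _
        _ = _ := by rw [lintegral_const, measure_univ, mul_one]
  have hya : ∀ᵐ a : Fin n → ℝ, ∀ z : Fin n → ℤ,
      g (a + pt M z) ≤ (∫⁻ u, g (a + pt M z + sc M u) ∂ν) +
        dsc 1 (fun x => (g x).toReal) M ∅ (a + pt M z) ∧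
      (∫⁻ u, g (a + pt M z + sc M u) ∂ν) ≤ g (a + pt M z) +
        dsc 1 (fun x => (g x).toReal) M ∅ (a + pt M z) := by
    rw [ae_all_iff]; intro z
    exact (measurePreserving_add_right volume (pt M z)).quasiMeasurePreserving.ae hy
  filter_upwards [hya] with a ha _
  have htile : (∫⁻ x, g x) = (∏ i, (M i : ℝ≥0∞))⁻¹ *
      ∑' z : Fin n → ℤ, ∫⁻ u, g (a + pt M z + sc M u) ∂ν := by
    rw [lintegral_eq_tsum_cubes hM hg a, hν, Measure.restrict_congr_set D_ae_eq]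
  constructor
  · rw [htile, rs, Hd, ← mul_add, ← ENNReal.tsum_add]
    exact mul_le_mul_right (ENNReal.tsum_le_tsum fun z => (ha z).1) _
  · rw [htile, rs, Hd, ← mul_add, ← ENNReal.tsum_add]
    exact mul_le_mul_right (ENNReal.tsum_le_tsum fun z => (ha z).2) _

/-- **choice of levels**: countably many integrable functions; along a subsequence of the meshes, for a.e.
shift, all Riemann sums converge. -/
theorem exists_subseq_riemann {g : ℕ → (Fin n → ℝ) → ℝ≥0∞} (hg : ∀ i, AEMeasurable (g i))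
    (hfin : ∀ i, ∫⁻ x, g i x ≠ ∞) {M : ℕ → Fin n → ℕ} (hM : ∀ i, Tendsto (fun k => M k i) atTop atTop) :
    ∃ φ : ℕ → ℕ, StrictMono φ ∧ ∀ᵐ a ∂(volume.restrict (D n)), ∀ i,
      Tendsto (fun k => rs (g i) (M (φ k)) a) atTop (𝓝 (∫⁻ x, g i x)) := by
  have hF : ∀ i, MemLp (fun x => (g i x).toReal) (ENNReal.ofReal 1) (volume : Measure (Fin n → ℝ)) := by
    intro i
    rw [ENNReal.ofReal_one, memLp_one_iff_integrable]
    exact integrable_toReal_of_lintegral_ne_top (hg i) (hfin i)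
  obtain ⟨φ, hφ, h1⟩ := exists_subseq (p := fun _ => 1) (fun _ => le_rfl) hF hM
  refine ⟨φ, hφ, ?_⟩
  have h2 : ∀ᵐ a ∂(volume.restrict (D n)), ∀ i, ∀ M : Fin n → ℕ, (∀ i, 0 < M i) →
      rs (g i) M a ≤ (∫⁻ x, g i x) + Hd 1 (fun x => (g i x).toReal) M ∅ a ∧
      ∫⁻ x, g i x ≤ rs (g i) M a + Hd 1 (fun x => (g i x).toReal) M ∅ a :=
    ae_restrict_of_ae (ae_all_iff.2 fun i => ae_riemann (hg i) (hfin i))
  filter_upwards [h1, h2] with a ha1 ha2 i
  have hpos : ∀ᶠ k in atTop, ∀ j, 0 < M (φ k) j := by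
    rw [eventually_all]
    intro j
    exact ((hM j).comp hφ.tendsto_atTop).eventually_gt_atTop 0
  have h3 := ha1 i ∅
  have h4 : Tendsto (fun k => (∫⁻ x, g i x) + Hd 1 (fun x => (g i x).toReal) (M (φ k)) ∅ a) atTop
      (𝓝 (∫⁻ x, g i x)) := by
    have := (tendsto_const_nhds (x := ∫⁻ x, g i x)).add h3
    rwa [add_zero] at this
  have h5 : Tendsto (fun k => (∫⁻ x, g i x) - Hd 1 (fun x => (g i x).toReal) (M (φ k)) ∅ a) atTop
      (𝓝 (∫⁻ x, g i x)) := by
    have := ENNReal.Tendsto.sub (tendsto_const_nhds (x := ∫⁻ x, g i x)) h3 (Or.inl (hfin i))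
    rwa [tsub_zero] at this
  refine tendsto_of_tendsto_of_tendsto_of_le_of_le' h5 h4 ?_ ?_
  · filter_upwards [hpos] with k hk
    exact tsub_le_iff_right.2 (ha2 i _ hk).2
  · filter_upwards [hpos] with k hk
    exact (ha2 i _ hk).1

end

end Crest.Agent.R096.Mav_31
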