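import Crest.Agent.R096.Mal15_874

/-!
# Row 96, library (CORE CELLS): the cells of the aligned mesh at a core block

`cell S u`, `ocell S u`, `dirS S u`: closed cell, open cell, directions of a point `u` of the enlarged
box in the prism shell `S`.  They are the cells of the aligned mesh at the points of the (translated)
enlarged box of a block, in the scaled coordinates of the frame of the block.  For `u` in the box the
cells are described by the walls of the box through `u` and by the tilings of the faces.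
-/

set_option autoImplicit false

open Set Filter Topology Metric

namespace Crest.Agent.R096.Mcc_715

open Msh_715 Cut_874 Msh_810 Mal_874

variable {n : ℕ}

/-- the closed cell of a point of the enlarged box (scaled coordinates) -/
def cell (S : PS n) (u : Fin n → ℝ) : Set (Fin n → ℝ) :=
  {v | ∀ i : S.Ix, u ∈ ZP (S.GG i) → ∀ p ∈ S.GG i,
    dt (rv p.1) v ≤ p.2 ∧ (dt (rv p.1) u = p.2 → dt (rv p.1) v = p.2)}

/-- the open cell of a point of the enlarged box (scaled coordinates) -/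
def ocell (S : PS n) (u : Fin n → ℝ) : Set (Fin n → ℝ) :=
  {v | ∀ i : S.Ix, u ∈ ZP (S.GG i) → ∀ p ∈ S.GG i,
    dt (rv p.1) v ≤ p.2 ∧ (dt (rv p.1) v = p.2 ↔ dt (rv p.1) u = p.2)}

/-- the vectors orthogonal to integer vectors form a submodule -/
def dtL (ν : Fin n → ℝ) : (Fin n → ℝ) →ₗ[ℝ] ℝ where
  toFun v := dt ν v
  map_add' u v := by
    unfold dt
    rw [← Finset.sum_add_distrib]
    exact Finset.sum_congr rfl fun m _ => by simp only [Pi.add_apply]; ring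
  map_smul' c v := by
    unfold dt
    rw [RingHom.id_apply, smul_eq_mul, Finset.mul_sum]
    exact Finset.sum_congr rfl fun m _ => by simp only [Pi.smul_apply, smul_eq_mul]; ring

theorem dtL_apply (ν v : Fin n → ℝ) : dtL ν v = dt ν v := rfl

/-- the directions of a point of the enlarged box -/
def dirS (S : PS n) (u : Fin n → ℝ) : Submodule ℝ (Fin n → ℝ) where
  carrier := {v | ∀ i : S.Ix, u ∈ ZP (S.GG i) → ∀ p ∈ S.GG i,
    dt (rv p.1) u = p.2 → dt (rv p.1) v = 0}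
  zero_mem' := by
    intro i _ p _ _
    exact (dtL (rv p.1)).map_zero
  add_mem' := by
    intro a b ha hb i hi p hp e
    have h := (dtL (rv p.1)).map_add a b
    rw [dtL_apply, dtL_apply, dtL_apply] at h
    rw [h, ha i hi p hp e, hb i hi p hp e, add_zero]
  smul_mem' := by
    intro c a ha i hi p hp e
    have h := (dtL (rv p.1)).map_smul c a
    rw [dtL_apply, dtL_apply] at h
    rw [h, ha i hi p hp e, smul_zero]

theorem mem_dirS {S : PS n} {u v : Fin n → ℝ} : v ∈ dirS S u ↔ ∀ i : S.Ix, u ∈ ZP (S.GG i) →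
    ∀ p ∈ S.GG i, dt (rv p.1) u = p.2 → dt (rv p.1) v = 0 := Iff.rfl

theorem self_mem_cell {S : PS n} (u : Fin n → ℝ) : u ∈ cell S u := fun _ hi p hp => ⟨hi p hp, id⟩

theorem self_mem_ocell {S : PS n} (u : Fin n → ℝ) : u ∈ ocell S u :=
  fun _ hi p hp => ⟨hi p hp, Iff.rfl⟩

theorem ocell_sub_cell (S : PS n) (u : Fin n → ℝ) : ocell S u ⊆ cell S u :=
  fun _ hv i hi p hp => ⟨(hv i hi p hp).1, (hv i hi p hp).2.2⟩

/-! ### the cells in the frame -/

section frame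

variable {E : Type*} [NormedAddCommGroup E] [NormedSpace ℝ E]

theorem iq_fst (ψ : E ≃L[ℝ] (Fin n → ℝ)) (a' : Fin n → ℝ) (k : ℕ) (p : (Fin n → ℤ) × ℤ) (y : E) :
    (iq ψ a' k p).1 y = dt (rv p.1) (ψ y) := by
  show (∑ m, (p.1 m : ℝ) • co ψ m) y = _
  rw [_root_.sum_apply]
  rfl

variable (S : PS n) (ψ : E ≃L[ℝ] (Fin n → ℝ)) (a' : Fin n → ℝ) (k : ℕ)

theorem fcc_iH (x : E) : fcc (fun i : S.Ix => iH ψ a' k (S.GG i)) x =
    {y | ps a' k (ψ y) ∈ cell S (ps a' k (ψ x))} := by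
  ext y
  constructor
  · intro hy i hi p hp
    have h := hy i (mem_P_iH.2 hi)
    rw [forall_iH (Q := fun h => h.1 y ≤ h.2 ∧ (h.1 x = h.2 → h.1 y = h.2))] at h
    have h' := h p hp
    rw [iq_le, iq_eq', iq_eq'] at h'
    exact h'
  · intro hy i hi
    rw [forall_iH (Q := fun h => h.1 y ≤ h.2 ∧ (h.1 x = h.2 → h.1 y = h.2))]
    intro p hp
    rw [iq_le, iq_eq', iq_eq']
    exact hy i (mem_P_iH.1 hi) p hp

theorem foc_iH (x : E) : foc (fun i : S.Ix => iH ψ a' k (S.GG i)) x =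
    {y | ps a' k (ψ y) ∈ ocell S (ps a' k (ψ x))} := by
  ext y
  constructor
  · intro hy i hi p hp
    have h := hy i (mem_P_iH.2 hi)
    rw [forall_iH (Q := fun h => h.1 y ≤ h.2 ∧ (h.1 y = h.2 ↔ h.1 x = h.2))] at h
    have h' := h p hp
    rw [iq_le, iq_eq', iq_eq'] at h'
    exact h'
  · intro hy i hi
    rw [forall_iH (Q := fun h => h.1 y ≤ h.2 ∧ (h.1 y = h.2 ↔ h.1 x = h.2))]
    intro p hp
    rw [iq_le, iq_eq', iq_eq']
    exact hy i (mem_P_iH.1 hi) p hp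

theorem fV_iH (x : E) : fV (fun i : S.Ix => iH ψ a' k (S.GG i)) x =
    {y | ψ y ∈ dirS S (ps a' k (ψ x))} := by
  ext y
  constructor
  · intro hy i hi p hp e
    have h := hy i (mem_P_iH.2 hi)
    rw [forall_iH (Q := fun h => h.1 x = h.2 → h.1 y = 0)] at h
    have h' := h p hp
    rw [iq_eq', iq_fst] at h'
    exact h' e
  · intro hy i hi
    rw [forall_iH (Q := fun h => h.1 x = h.2 → h.1 y = 0)]
    intro p hp
    rw [iq_eq', iq_fst]
    exact hy i (mem_P_iH.1 hi) p hp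

end frame

/-! ### the cells of the aligned mesh at a core block -/

section mesh

variable {E : Type*} [NormedAddCommGroup E] [NormedSpace ℝ E]

/-- points strictly inside the enlarged box are interior -/
theorem mem_interior_bp (S : PS n) (ψ : E ≃L[ℝ] (Fin n → ℝ)) (a' : Fin n → ℝ) (k : ℕ) {x : E}
    (hx : ∀ l, (S.lo l : ℝ) - S.t < ps a' k (ψ x) l ∧ ps a' k (ψ x) l < S.hi l + S.t) :
    x ∈ interior (S.bp ψ a' k) := by
  have h2 : IsOpen {y : E | ∀ l, (S.lo l : ℝ) - S.t < ps a' k (ψ y) l ∧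
      ps a' k (ψ y) l < S.hi l + S.t} := by
    have : {y : E | ∀ l, (S.lo l : ℝ) - S.t < ps a' k (ψ y) l ∧ ps a' k (ψ y) l < S.hi l + S.t} =
        ⋂ l, {y | (S.lo l : ℝ) - S.t < ps a' k (ψ y) l ∧ ps a' k (ψ y) l < S.hi l + S.t} := by
      ext y; simp
    rw [this]
    refine isOpen_iInter_of_finite fun l => ?_
    have hc : Continuous fun y : E => ps a' k (ψ y) l := (continuous_ps a' k l).comp ψ.continuous
    exact (isOpen_lt continuous_const hc).inter (isOpen_lt hc continuous_const)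
  refine mem_interior.2 ⟨_, ?_, h2, hx⟩
  intro y hy
  rw [PS.mem_bp]
  exact fun l => ⟨(hy l).1.le, (hy l).2.le⟩

/-- cells of the tiling of a block at its enlarged box -/
theorem T_in (Q : CB E n) (k : ℕ) (hk : Q.kc ≤ k) {x : E}
    (hx : x ∈ interior (Q.S.bp Q.ψ Q.a' Q.kc)) :
    (Q.T k hk).cc x = {y | ps Q.a' Q.kc (Q.ψ y) ∈ cell Q.S (ps Q.a' Q.kc (Q.ψ x))} ∧
    (Q.T k hk).oc x = {y | ps Q.a' Q.kc (Q.ψ y) ∈ ocell Q.S (ps Q.a' Q.kc (Q.ψ x))} ∧
    ((Q.T k hk).V x : Set E) = {y | Q.ψ y ∈ dirS Q.S (ps Q.a' Q.kc (Q.ψ x))} := by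
  have h1 : ∀ i ∈ (Q.T0 k hk).at_ x, i ∈ {i | P ((Q.T0 k hk).H i) ⊆ Q.S.bp Q.ψ Q.a' Q.kc} :=
    fun i hi => (Q.un_bp k hk).at_sub hx hi
  have h2 := patch_in (R := Q.S.repl Q.ψ Q.a' Q.kc (Q.un_bp k hk)) h1
  rw [fcc_iH, foc_iH, fV_iH] at h2
  exact h2

variable {J : Type*} (M : MD E n J) [NeZero n] {k : J → ℕ} (hk : M.Sc k) (a : Fin n → ℝ)
  {v : J → E} (hv : M.Adm v)

theorem mesh_in (j : J) {x : E}
    (hx : ∀ l, ((M.Bk v j).S.lo l : ℝ) - (M.Bk v j).S.t <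
        ps (M.Bk v j).a' (M.Bk v j).kc ((M.Bk v j).ψ x) l ∧
      ps (M.Bk v j).a' (M.Bk v j).kc ((M.Bk v j).ψ x) l < (M.Bk v j).S.hi l + (M.Bk v j).S.t) :
    (M.mesh hk a hv).cc x = (M.S hk (v := v) j).cc x ∧
    (M.mesh hk a hv).oc x = (M.S hk (v := v) j).oc x ∧
    (M.mesh hk a hv).V x = (M.S hk (v := v) j).V x := by
  have h1 := mem_interior_bp (M.Bk v j).S (M.Bk v j).ψ (M.Bk v j).a' (M.Bk v j).kc hx
  have h2 : x ∈ interior ((M.ad hk a hv).N j) := interior_mono (M.Bk v j).bp_sub_N h1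
  exact blocks_in (hT := (M.ad hk a hv).isUn) (hS := (M.inn hk a hv).un)
    (hc := (M.ad hk a hv).isCompact_N) (hO := (M.inn hk a hv).sub) (hd := (M.ad hk a hv).dis)
    (hlf := (M.ad hk a hv).lf) h2

/-- **the closed cells of the aligned mesh at a block** -/
theorem cc_mesh (j : J) {x : E}
    (hx : ∀ l, ((M.Bk v j).S.lo l : ℝ) - (M.Bk v j).S.t <
        ps (M.Bk v j).a' (M.Bk v j).kc ((M.Bk v j).ψ x) l ∧
      ps (M.Bk v j).a' (M.Bk v j).kc ((M.Bk v j).ψ x) l < (M.Bk v j).S.hi l + (M.Bk v j).S.t) :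
    (M.mesh hk a hv).cc x = {y | ps (M.Bk v j).a' (M.Bk v j).kc ((M.Bk v j).ψ y) ∈
      cell (M.Bk v j).S (ps (M.Bk v j).a' (M.Bk v j).kc ((M.Bk v j).ψ x))} :=
  (mesh_in M hk a hv j hx).1.trans (T_in (M.Bk v j) (k j) (hk.kc j)
    (mem_interior_bp (M.Bk v j).S (M.Bk v j).ψ (M.Bk v j).a' (M.Bk v j).kc hx)).1

/-- **the open cells of the aligned mesh at a block** -/
theorem oc_mesh (j : J) {x : E}
    (hx : ∀ l, ((M.Bk v j).S.lo l : ℝ) - (M.Bk v j).S.t <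
        ps (M.Bk v j).a' (M.Bk v j).kc ((M.Bk v j).ψ x) l ∧
      ps (M.Bk v j).a' (M.Bk v j).kc ((M.Bk v j).ψ x) l < (M.Bk v j).S.hi l + (M.Bk v j).S.t) :
    (M.mesh hk a hv).oc x = {y | ps (M.Bk v j).a' (M.Bk v j).kc ((M.Bk v j).ψ y) ∈
      ocell (M.Bk v j).S (ps (M.Bk v j).a' (M.Bk v j).kc ((M.Bk v j).ψ x))} :=
  (mesh_in M hk a hv j hx).2.1.trans (T_in (M.Bk v j) (k j) (hk.kc j)
    (mem_interior_bp (M.Bk v j).S (M.Bk v j).ψ (M.Bk v j).a' (M.Bk v j).kc hx)).2.1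

/-- **the direction spaces of the aligned mesh at a block** -/
theorem V_mesh (j : J) {x : E}
    (hx : ∀ l, ((M.Bk v j).S.lo l : ℝ) - (M.Bk v j).S.t <
        ps (M.Bk v j).a' (M.Bk v j).kc ((M.Bk v j).ψ x) l ∧
      ps (M.Bk v j).a' (M.Bk v j).kc ((M.Bk v j).ψ x) l < (M.Bk v j).S.hi l + (M.Bk v j).S.t) :
    (M.mesh hk a hv).V x = (dirS (M.Bk v j).S
      (ps (M.Bk v j).a' (M.Bk v j).kc ((M.Bk v j).ψ x))).comap
        ((M.Bk v j).ψ.toLinearEquiv : E →ₗ[ℝ] (Fin n → ℝ)) := by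
  rw [(mesh_in M hk a hv j hx).2.2]
  apply SetLike.coe_injective
  exact (T_in (M.Bk v j) (k j) (hk.kc j)
    (mem_interior_bp (M.Bk v j).S (M.Bk v j).ψ (M.Bk v j).a' (M.Bk v j).kc hx)).2.2

theorem mem_V_mesh (j : J) {x : E}
    (hx : ∀ l, ((M.Bk v j).S.lo l : ℝ) - (M.Bk v j).S.t <
        ps (M.Bk v j).a' (M.Bk v j).kc ((M.Bk v j).ψ x) l ∧
      ps (M.Bk v j).a' (M.Bk v j).kc ((M.Bk v j).ψ x) l < (M.Bk v j).S.hi l + (M.Bk v j).S.t)
    {y : E} : y ∈ (M.mesh hk a hv).V x ↔ (M.Bk v j).ψ y ∈ dirS (M.Bk v j).S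
      (ps (M.Bk v j).a' (M.Bk v j).kc ((M.Bk v j).ψ x)) := by
  rw [V_mesh M hk a hv j hx]
  rfl

/-- **the dimensions of the cells of the aligned mesh at a block** -/
theorem dim_mesh (j : J) {x : E}
    (hx : ∀ l, ((M.Bk v j).S.lo l : ℝ) - (M.Bk v j).S.t <
        ps (M.Bk v j).a' (M.Bk v j).kc ((M.Bk v j).ψ x) l ∧
      ps (M.Bk v j).a' (M.Bk v j).kc ((M.Bk v j).ψ x) l < (M.Bk v j).S.hi l + (M.Bk v j).S.t) :
    (M.mesh hk a hv).dim x = Module.finrank ℝ (dirS (M.Bk v j).S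
      (ps (M.Bk v j).a' (M.Bk v j).kc ((M.Bk v j).ψ x))) := by
  unfold Tiling.dim
  rw [V_mesh M hk a hv j hx]
  exact ((M.Bk v j).ψ.toLinearEquiv.ofSubmodule' _).finrank_eq

end mesh

/-! ### the cells at the box: walls and the tilings of the faces -/

section box

variable (S : PS n)

/-- the walls of the box which contain `u` may be used with the sign pattern `σ` -/
def wal (u : Fin n → ℝ) (σ : Fin n → SignType) : Prop :=
  ∀ l, (σ l = 1 → u l = S.hi l) ∧ (σ l = -1 → u l = S.lo l)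

variable {S}

theorem wal_zero (u : Fin n → ℝ) : wal S u 0 := by
  intro l
  refine ⟨fun h => absurd h ?_, fun h => absurd h ?_⟩
  · show (0 : SignType) ≠ 1
    decide
  · show (0 : SignType) ≠ -1
    decide

/-- tiles of the shell at a point of the box -/
theorem mem_ZP_box {u : Fin n → ℝ} (hu : u ∈ S.B0) {i : S.Ix} :
    u ∈ ZP (S.GG i) ↔ u ∈ ZP ((S.F i.1).G i.2) ∧ wal S u i.1 := by
  have ht := S.t_pos
  rw [S.mem_ZP]
  refine and_congr Iff.rfl ⟨fun h l => ?_, fun h l => ?_⟩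
  · have h0 := hu l
    obtain ⟨h1, h2⟩ := h l
    exact ⟨fun e => le_antisymm h0.2 (h1 e).1, fun e => le_antisymm (h2 e).2 h0.1⟩
  · obtain ⟨h1, h2⟩ := h l
    refine ⟨fun e => ?_, fun e => ?_⟩
    · rw [h1 e]
      exact ⟨le_rfl, by linarith⟩
    · rw [h2 e]
      exact ⟨by linarith, le_rfl⟩

/-- a wall through `u` belongs to some tile at `u` -/
theorem exists_hi {u : Fin n → ℝ} (hu : u ∈ S.B0) {l : Fin n} (h : u l = S.hi l) :
    ∃ i : S.Ix, u ∈ ZP (S.GG i) ∧ i.1 l = 1 := by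
  classical
  set σ : Fin n → SignType := Pi.single l 1 with hσ
  obtain ⟨τ, hτ⟩ := (S.F σ).cov u fun m _ => hu m
  have el : σ l = 1 := by rw [hσ]; simp
  refine ⟨⟨σ, τ⟩, (mem_ZP_box hu).2 ⟨hτ, ?_⟩, el⟩
  intro m
  by_cases hm : m = l
  · subst hm
    refine ⟨fun _ => h, fun e => absurd e ?_⟩
    show σ m ≠ _
    rw [el]
    decide
  · have e0 : σ m = 0 := by rw [hσ]; simp [Pi.single_eq_of_ne hm]
    refine ⟨fun e => absurd e ?_, fun e => absurd e ?_⟩ <;>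
    · show σ m ≠ _
      rw [e0]
      decide

/-- a wall through `u` belongs to some tile at `u` -/
theorem exists_lo {u : Fin n → ℝ} (hu : u ∈ S.B0) {l : Fin n} (h : u l = S.lo l) :
    ∃ i : S.Ix, u ∈ ZP (S.GG i) ∧ i.1 l = -1 := by
  classical
  set σ : Fin n → SignType := Pi.single l (-1) with hσ
  obtain ⟨τ, hτ⟩ := (S.F σ).cov u fun m _ => hu m
  have el : σ l = -1 := by rw [hσ]; simp
  refine ⟨⟨σ, τ⟩, (mem_ZP_box hu).2 ⟨hτ, ?_⟩, el⟩
  intro m
  by_cases hm : m = l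
  · subst hm
    refine ⟨fun e => absurd e ?_, fun _ => h⟩
    show σ m ≠ _
    rw [el]
    decide
  · have e0 : σ m = 0 := by rw [hσ]; simp [Pi.single_eq_of_ne hm]
    refine ⟨fun e => absurd e ?_, fun e => absurd e ?_⟩ <;>
    · show σ m ≠ _
      rw [e0]
      decide

/-- **the closed cells at the points of the box** -/
theorem mem_cell_box {u : Fin n → ℝ} (hu : u ∈ S.B0) {v : Fin n → ℝ} : v ∈ cell S u ↔
    (∀ l, (u l = S.hi l → v l = S.hi l) ∧ (u l = S.lo l → v l = S.lo l)) ∧ v ∈ S.B0 ∧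
    ∀ σ, (∀ l, (σ l = 1 → u l = S.hi l) ∧ (σ l = -1 → u l = S.lo l)) → ∀ τ : (S.F σ).Tc,
      u ∈ ZP ((S.F σ).G τ) → ∀ p ∈ (S.F σ).G τ,
        dt (rv p.1) v ≤ p.2 ∧ (dt (rv p.1) u = p.2 → dt (rv p.1) v = p.2) := by
  have ht := S.t_pos
  constructor
  · intro hv
    have hfam : ∀ σ, (∀ l, (σ l = 1 → u l = S.hi l) ∧ (σ l = -1 → u l = S.lo l)) →
        ∀ τ : (S.F σ).Tc, u ∈ ZP ((S.F σ).G τ) → ∀ p ∈ (S.F σ).G τ,
          dt (rv p.1) v ≤ p.2 ∧ (dt (rv p.1) u = p.2 → dt (rv p.1) v = p.2) := by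
      intro σ hσ τ hτ
      exact (S.forall_GG.1 (hv ⟨σ, τ⟩ ((mem_ZP_box hu).2 ⟨hτ, hσ⟩))).1
    refine ⟨fun l => ⟨fun h => ?_, fun h => ?_⟩, ?_, hfam⟩
    · obtain ⟨i, hi, hil⟩ := exists_hi hu h
      have h1 := ((S.forall_GG.1 (hv i hi)).2 l).1 hil
      have h2 := h1.1.2
      rw [dt_neg_ez, dt_neg_ez] at h2
      push_cast at h2
      have h3 := h2 (by rw [h])
      linarith
    · obtain ⟨i, hi, hil⟩ := exists_lo hu h
      have h1 := ((S.forall_GG.1 (hv i hi)).2 l).2 hil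
      have h2 := h1.2.2
      rw [dt_ez, dt_ez] at h2
      exact h2 h
    · rw [← S.ZP_core]
      rw [← S.ZP_core] at hu
      exact fun p hp => (hv S.core hu p hp).1
  · rintro ⟨h1, h2, h3⟩ i hi
    obtain ⟨h4, h5⟩ := (mem_ZP_box hu).1 hi
    rw [S.forall_GG (Q := fun p => dt (rv p.1) v ≤ p.2 ∧
      (dt (rv p.1) u = p.2 → dt (rv p.1) v = p.2))]
    refine ⟨h3 i.1 h5 i.2 h4, fun l => ⟨fun e => ?_, fun e => ?_⟩⟩
    · have h6 := (h5 l).1 e
      have h7 := (h1 l).1 h6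
      simp only [dt_ez, dt_neg_ez]
      push_cast
      rw [h6, h7]
      exact ⟨⟨le_rfl, fun _ => rfl⟩, by linarith, fun h => h⟩
    · have h6 := (h5 l).2 e
      have h7 := (h1 l).2 h6
      simp only [dt_ez, dt_neg_ez]
      push_cast
      rw [h6, h7]
      exact ⟨⟨by linarith, fun h => h⟩, le_rfl, fun _ => rfl⟩

/-- one may move beyond a point of the open cell -/
theorem exists_beyond {G : Finset ((Fin n → ℤ) × ℤ)} {u v : Fin n → ℝ}
    (h : ∀ p ∈ G, dt (rv p.1) v ≤ p.2 ∧ (dt (rv p.1) v = p.2 ↔ dt (rv p.1) u = p.2)) :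
    ∃ δ : ℝ, 0 < δ ∧ (fun l => v l + δ * (v l - u l)) ∈ ZP G := by
  have e : ∀ (ν : Fin n → ℝ) (δ : ℝ), dt ν (fun l => v l + δ * (v l - u l)) =
      dt ν v + δ * (dt ν v - dt ν u) := by
    intro ν δ
    unfold dt
    rw [← Finset.sum_sub_distrib, Finset.mul_sum, ← Finset.sum_add_distrib]
    exact Finset.sum_congr rfl fun m _ => by ring
  have key : ∀ᶠ δ in 𝓝[>] (0 : ℝ), ∀ p ∈ G, dt (rv p.1) (fun l => v l + δ * (v l - u l)) ≤ p.2 := by
    rw [Filter.eventually_all_finset]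
    intro p hp
    obtain ⟨h1, h2⟩ := h p hp
    rcases h1.eq_or_lt with h3 | h3
    · refine Filter.Eventually.of_forall fun δ => ?_
      rw [e, h2.1 h3, h3]
      linarith
    · have hc : Tendsto (fun δ : ℝ => dt (rv p.1) v + δ * (dt (rv p.1) v - dt (rv p.1) u)) (𝓝 0)
          (𝓝 (dt (rv p.1) v + 0 * (dt (rv p.1) v - dt (rv p.1) u))) := by
        apply Continuous.tendsto
        fun_prop
      rw [zero_mul, add_zero] at hc
      filter_upwards [(hc.eventually (gt_mem_nhds h3)).filter_mono nhdsWithin_le_nhds] with δ hδ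
      rw [e]
      exact hδ.le
  obtain ⟨δ, h1, h2⟩ := (key.and self_mem_nhdsWithin).exists
  exact ⟨δ, h2, h1⟩

/-- **the open cells at the points of the box** -/
theorem mem_ocell_box {u : Fin n → ℝ} (hu : u ∈ S.B0) {v : Fin n → ℝ} : v ∈ ocell S u ↔
    (∀ l, (v l = S.hi l ↔ u l = S.hi l) ∧ (v l = S.lo l ↔ u l = S.lo l)) ∧ v ∈ S.B0 ∧
    ∀ σ, (∀ l, (σ l = 1 → u l = S.hi l) ∧ (σ l = -1 → u l = S.lo l)) → ∀ τ : (S.F σ).Tc,
      u ∈ ZP ((S.F σ).G τ) → ∀ p ∈ (S.F σ).G τ,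
        dt (rv p.1) v ≤ p.2 ∧ (dt (rv p.1) v = p.2 ↔ dt (rv p.1) u = p.2) := by
  have ht := S.t_pos
  constructor
  · intro hv
    have hvB : v ∈ S.B0 := by
      rw [← S.ZP_core]
      rw [← S.ZP_core] at hu
      exact fun p hp => (hv S.core hu p hp).1
    have hc := ((mem_cell_box hu).1 (ocell_sub_cell S u hv)).1
    obtain ⟨δ, hδ, hw⟩ := exists_beyond (G := S.GG S.core) (u := u) (v := v)
      (fun p hp => hv S.core (by rw [S.ZP_core]; exact hu) p hp)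
    rw [S.ZP_core] at hw
    refine ⟨fun l => ⟨⟨fun h => ?_, (hc l).1⟩, ⟨fun h => ?_, (hc l).2⟩⟩, hvB, ?_⟩
    · have h1 := (hw l).2
      have h2 := (hu l).2
      simp only [h] at h1
      by_contra hne
      have h3 : u l < S.hi l := lt_of_le_of_ne h2 hne
      nlinarith
    · have h1 := (hw l).1
      have h2 := (hu l).1
      simp only [h] at h1
      by_contra hne
      have h3 : (S.lo l : ℝ) < u l := lt_of_le_of_ne h2 (Ne.symm hne)
      nlinarith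
    · intro σ hσ τ hτ
      exact (S.forall_GG.1 (hv ⟨σ, τ⟩ ((mem_ZP_box hu).2 ⟨hτ, hσ⟩))).1
  · rintro ⟨h1, h2, h3⟩ i hi
    obtain ⟨h4, h5⟩ := (mem_ZP_box hu).1 hi
    rw [S.forall_GG (Q := fun p => dt (rv p.1) v ≤ p.2 ∧
      (dt (rv p.1) v = p.2 ↔ dt (rv p.1) u = p.2))]
    refine ⟨h3 i.1 h5 i.2 h4, fun l => ⟨fun e => ?_, fun e => ?_⟩⟩
    · have h6 := (h5 l).1 e
      have h7 := (h1 l).1.2 h6
      simp only [dt_ez, dt_neg_ez]
      push_cast
      rw [h6, h7]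
      exact ⟨⟨le_rfl, Iff.rfl⟩, by linarith, Iff.rfl⟩
    · have h6 := (h5 l).2 e
      have h7 := (h1 l).2.2 h6
      simp only [dt_ez, dt_neg_ez]
      push_cast
      rw [h6, h7]
      exact ⟨⟨by linarith, Iff.rfl⟩, le_rfl, Iff.rfl⟩

/-- **the directions at the points of the box** -/
theorem mem_dirS_box {u : Fin n → ℝ} (hu : u ∈ S.B0) {v : Fin n → ℝ} : v ∈ dirS S u ↔
    (∀ l, (u l = S.hi l → v l = 0) ∧ (u l = S.lo l → v l = 0)) ∧
    ∀ σ, (∀ l, (σ l = 1 → u l = S.hi l) ∧ (σ l = -1 → u l = S.lo l)) → ∀ τ : (S.F σ).Tc,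
      u ∈ ZP ((S.F σ).G τ) → ∀ p ∈ (S.F σ).G τ, dt (rv p.1) u = p.2 → dt (rv p.1) v = 0 := by
  have ht := S.t_pos
  constructor
  · intro hv
    refine ⟨fun l => ⟨fun h => ?_, fun h => ?_⟩, ?_⟩
    · obtain ⟨i, hi, hil⟩ := exists_hi hu h
      have h1 := ((S.forall_GG.1 (hv i hi)).2 l).1 hil
      have h2 := h1.1
      rw [dt_neg_ez, dt_neg_ez] at h2
      push_cast at h2
      have h3 := h2 (by rw [h])
      linarith
    · obtain ⟨i, hi, hil⟩ := exists_lo hu h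
      have h1 := ((S.forall_GG.1 (hv i hi)).2 l).2 hil
      have h2 := h1.2
      rw [dt_ez, dt_ez] at h2
      exact h2 h
    · intro σ hσ τ hτ
      exact (S.forall_GG.1 (hv ⟨σ, τ⟩ ((mem_ZP_box hu).2 ⟨hτ, hσ⟩))).1
  · rintro ⟨h1, h3⟩ i hi
    obtain ⟨h4, h5⟩ := (mem_ZP_box hu).1 hi
    rw [S.forall_GG (Q := fun p => dt (rv p.1) u = p.2 → dt (rv p.1) v = 0)]
    refine ⟨h3 i.1 h5 i.2 h4, fun l => ⟨fun e => ?_, fun e => ?_⟩⟩
    · have h6 := (h5 l).1 e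
      have h7 := (h1 l).1 h6
      simp only [dt_ez, dt_neg_ez]
      rw [h7]
      exact ⟨fun _ => neg_zero, fun _ => rfl⟩
    · have h6 := (h5 l).2 e
      have h7 := (h1 l).2 h6
      simp only [dt_ez, dt_neg_ez]
      rw [h7]
      exact ⟨fun _ => neg_zero, fun _ => rfl⟩

/-- the same with the core taken out, if the core has the inequalities of the box -/
theorem mem_cell_box' (h0 : ∀ τ, (S.F 0).G τ = boxG S.lo S.hi 0) {u : Fin n → ℝ} (hu : u ∈ S.B0)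
    {v : Fin n → ℝ} : v ∈ cell S u ↔
    (∀ l, (u l = S.hi l → v l = S.hi l) ∧ (u l = S.lo l → v l = S.lo l)) ∧ v ∈ S.B0 ∧
    ∀ σ, σ ≠ 0 → (∀ l, (σ l = 1 → u l = S.hi l) ∧ (σ l = -1 → u l = S.lo l)) →
      ∀ τ : (S.F σ).Tc, u ∈ ZP ((S.F σ).G τ) → ∀ p ∈ (S.F σ).G τ,
        dt (rv p.1) v ≤ p.2 ∧ (dt (rv p.1) u = p.2 → dt (rv p.1) v = p.2) := by
  rw [mem_cell_box hu]
  refine and_congr_right fun h1 => and_congr_right fun h2 =>
    ⟨fun h σ _ => h σ, fun h σ hσ τ hτ => ?_⟩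
  by_cases h3 : σ = 0
  · subst h3
    rw [h0 τ, forall_boxG (Q := fun p => dt (rv p.1) v ≤ p.2 ∧
      (dt (rv p.1) u = p.2 → dt (rv p.1) v = p.2))]
    intro l _
    have h4 := h2 l
    have h5 := h1 l
    simp only [dt_ez, dt_neg_ez]
    push_cast
    refine ⟨⟨h4.2, h5.1⟩, by linarith [h4.1], fun h6 => ?_⟩
    have h7 := h5.2 (by linarith)
    linarith
  · exact h σ h3 hσ τ hτ

/-- the same for the directions -/
theorem mem_dirS_box' (h0 : ∀ τ, (S.F 0).G τ = boxG S.lo S.hi 0) {u : Fin n → ℝ} (hu : u ∈ S.B0)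
    {v : Fin n → ℝ} : v ∈ dirS S u ↔
    (∀ l, (u l = S.hi l → v l = 0) ∧ (u l = S.lo l → v l = 0)) ∧
    ∀ σ, σ ≠ 0 → (∀ l, (σ l = 1 → u l = S.hi l) ∧ (σ l = -1 → u l = S.lo l)) →
      ∀ τ : (S.F σ).Tc, u ∈ ZP ((S.F σ).G τ) → ∀ p ∈ (S.F σ).G τ,
        dt (rv p.1) u = p.2 → dt (rv p.1) v = 0 := by
  rw [mem_dirS_box hu]
  refine and_congr_right fun h1 => ⟨fun h σ _ => h σ, fun h σ hσ τ hτ => ?_⟩
  by_cases h3 : σ = 0
  · subst h3
    rw [h0 τ, forall_boxG (Q := fun p => dt (rv p.1) u = p.2 → dt (rv p.1) v = 0)]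
    intro l _
    have h5 := h1 l
    simp only [dt_ez, dt_neg_ez]
    push_cast
    refine ⟨h5.1, fun h6 => ?_⟩
    have h7 := h5.2 (by linarith)
    linarith
  · exact h σ h3 hσ τ hτ

/-- the core of a shell whose core face is `PF.triv` -/
theorem core_triv (S : PS n) (h : S.F 0 = PF.triv S.lt 0) : ∀ τ, (S.F 0).G τ = boxG S.lo S.hi 0 := by
  rw [h]
  exact fun _ => rfl

/-- in the interior of the box the cell is the whole box -/
theorem cell_int (h0 : ∀ τ, (S.F 0).G τ = boxG S.lo S.hi 0) {u : Fin n → ℝ}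
    (hu : ∀ l, (S.lo l : ℝ) < u l ∧ u l < S.hi l) : cell S u = S.B0 ∧ dirS S u = ⊤ := by
  have huB : u ∈ S.B0 := fun l => ⟨(hu l).1.le, (hu l).2.le⟩
  have hσ0 : ∀ σ : Fin n → SignType, (∀ l, (σ l = 1 → u l = S.hi l) ∧ (σ l = -1 → u l = S.lo l)) →
      σ = 0 := by
    intro σ hσ
    funext l
    rcases h : σ l with _ | _ | _
    · rfl
    · exact absurd ((hσ l).2 h) (hu l).1.ne'
    · exact absurd ((hσ l).1 h) (hu l).2.ne
  constructor
  · ext v
    rw [mem_cell_box' h0 huB]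
    exact ⟨fun h => h.2.1, fun h => ⟨fun l => ⟨fun e => absurd e (hu l).2.ne,
      fun e => absurd e (hu l).1.ne'⟩, h, fun σ hσ hσ' => absurd (hσ0 σ hσ') hσ⟩⟩
  · rw [eq_top_iff]
    intro v _
    rw [mem_dirS_box' h0 huB]
    exact ⟨fun l => ⟨fun e => absurd e (hu l).2.ne, fun e => absurd e (hu l).1.ne'⟩,
      fun σ hσ hσ' => absurd (hσ0 σ hσ') hσ⟩

end box

end Crest.Agent.R096.Mcc_715
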