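import Crest.Agent.R096.Mal16_874

/-!
# Row 96, MESH-AL, CORE CELLS (helper733; 874 #10877 (3))

The closed cells of the aligned mesh inside the enlarged box of a core are the cells of the prism
shell (`cell S u`, directions `dirS S u`); on the core they are read off the tilings of the faces.
-/

set_option autoImplicit false
set_option linter.unusedSectionVars false

open Set Filter Topology Metric

namespace Crest.Agent.R096.Mcc_733

open Msh_715 Cut_874 Msh_810 Mal_874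

variable {n : ℕ} {E : Type*} [NormedAddCommGroup E] [NormedSpace ℝ E]

theorem dt_add' (ν u v : Fin n → ℝ) : dt ν (u + v) = dt ν u + dt ν v := by
  unfold dt
  rw [← Finset.sum_add_distrib]
  exact Finset.sum_congr rfl fun m _ => by rw [Pi.add_apply]; ring

theorem dt_smul' (ν u : Fin n → ℝ) (c : ℝ) : dt ν (c • u) = c * dt ν u := by
  unfold dt
  rw [Finset.mul_sum]
  exact Finset.sum_congr rfl fun m _ => by rw [Pi.smul_apply, smul_eq_mul]; ring

theorem dt_zero' (ν : Fin n → ℝ) : dt ν 0 = 0 := by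
  unfold dt
  exact Finset.sum_eq_zero fun m _ => by rw [Pi.zero_apply, mul_zero]

/-- the closed cell at `u` of the prism shell -/
def cell (S : PS n) (u : Fin n → ℝ) : Set (Fin n → ℝ) :=
  {v | ∀ i : S.Ix, u ∈ ZP (S.GG i) → ∀ p ∈ S.GG i, dt (rv p.1) v ≤ p.2 ∧
    (dt (rv p.1) u = p.2 → dt (rv p.1) v = p.2)}

/-- the directions of the cell at `u` of the prism shell -/
def dirS (S : PS n) (u : Fin n → ℝ) : Submodule ℝ (Fin n → ℝ) where
  carrier := {v | ∀ i : S.Ix, u ∈ ZP (S.GG i) → ∀ p ∈ S.GG i, dt (rv p.1) u = p.2 →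
    dt (rv p.1) v = 0}
  zero_mem' := fun _ _ _ _ _ => dt_zero' _
  add_mem' := by
    intro a b ha hb i hi p hp e
    rw [dt_add', ha i hi p hp e, hb i hi p hp e, add_zero]
  smul_mem' := by
    intro c a ha i hi p hp e
    rw [dt_smul', ha i hi p hp e, mul_zero]

theorem mem_dirS {S : PS n} {u v : Fin n → ℝ} : v ∈ dirS S u ↔
    ∀ i : S.Ix, u ∈ ZP (S.GG i) → ∀ p ∈ S.GG i, dt (rv p.1) u = p.2 → dt (rv p.1) v = 0 := Iff.rfl

section iq

variable {ψ : E ≃L[ℝ] (Fin n → ℝ)} {a' : Fin n → ℝ} {k : ℕ}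

theorem iq_fst (p : (Fin n → ℤ) × ℤ) (v : E) : (iq ψ a' k p).1 v = dt (rv p.1) (ψ v) := by
  show (∑ m, (p.1 m : ℝ) • co ψ m) v = _
  rw [sum_apply]
  rfl

theorem fcc_iH {κ : Type*} (G : κ → Finset ((Fin n → ℤ) × ℤ)) (x : E) :
    fcc (fun i => iH ψ a' k (G i)) x = {y | ∀ i, ps a' k (ψ x) ∈ ZP (G i) → ∀ p ∈ G i,
      dt (rv p.1) (ps a' k (ψ y)) ≤ p.2 ∧
      (dt (rv p.1) (ps a' k (ψ x)) = p.2 → dt (rv p.1) (ps a' k (ψ y)) = p.2)} := by
  ext y
  unfold fcc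
  rw [mem_ofPred_eq, mem_ofPred_eq]
  refine forall_congr' fun i => ?_
  rw [mem_P_iH]
  refine imp_congr_right fun _ => ?_
  rw [forall_iH (Q := fun h => h.1 y ≤ h.2 ∧ (h.1 x = h.2 → h.1 y = h.2))]
  refine forall₂_congr fun p _ => ?_
  rw [iq_le, iq_eq', iq_eq']

theorem fV_iH {κ : Type*} (G : κ → Finset ((Fin n → ℤ) × ℤ)) (x : E) :
    fV (fun i => iH ψ a' k (G i)) x = {v | ∀ i, ps a' k (ψ x) ∈ ZP (G i) → ∀ p ∈ G i,
      dt (rv p.1) (ps a' k (ψ x)) = p.2 → dt (rv p.1) (ψ v) = 0} := by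
  ext v
  unfold fV
  rw [mem_ofPred_eq, mem_ofPred_eq]
  refine forall_congr' fun i => ?_
  rw [mem_P_iH]
  refine imp_congr_right fun _ => ?_
  rw [forall_iH (Q := fun h => h.1 x = h.2 → h.1 v = 0)]
  refine forall₂_congr fun p _ => ?_
  rw [iq_eq', iq_fst]

end iq

/-! ### one block -/

section block

variable (Q : CB E n)

/-- the scaled coordinates of a point -/
noncomputable abbrev uc (y : E) : Fin n → ℝ := ps Q.a' Q.kc (Q.ψ y)

/-- `x` lies strictly inside the enlarged box -/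
def SIn (x : E) : Prop := ∀ l, (Q.S.lo l - Q.S.t : ℝ) < uc Q x l ∧ uc Q x l < Q.S.hi l + Q.S.t

theorem mem_interior_bp {x : E} (hx : SIn Q x) :
    x ∈ interior (Q.S.bp Q.ψ Q.a' Q.kc) := by
  have h1 : IsOpen {y : E | SIn Q y} := by
    have : {y : E | SIn Q y} = ⋂ l, {y : E | (Q.S.lo l - Q.S.t : ℝ) < ps Q.a' Q.kc (Q.ψ y) l ∧
        ps Q.a' Q.kc (Q.ψ y) l < Q.S.hi l + Q.S.t} := by
      ext y; simp [SIn]
    rw [this]
    refine isOpen_iInter_of_finite fun l => ?_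
    have hc : Continuous fun y : E => ps Q.a' Q.kc (Q.ψ y) l :=
      (continuous_ps Q.a' Q.kc l).comp Q.ψ.continuous
    exact (isOpen_lt continuous_const hc).inter (isOpen_lt hc continuous_const)
  refine mem_interior.2 ⟨_, ?_, h1, hx⟩
  intro y hy
  rw [PS.mem_bp]
  exact fun l => ⟨(hy l).1.le, (hy l).2.le⟩

theorem sIn_of_core {x : E} (hx : x ∈ Q.Kc) : SIn Q x := by
  intro l
  have h := hx l
  have ht := Q.S.t_pos
  constructor <;> linarith [h.1, h.2]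

variable (k : ℕ) (hk : Q.kc ≤ k)

/-- the cells of the tiling of a block, inside the enlarged box -/
theorem blk_cell {x : E} (hx : SIn Q x) :
    (Q.T k hk).cc x = {y | uc Q y ∈ cell Q.S (uc Q x)} ∧
      ((Q.T k hk).V x : Set E) = {v | Q.ψ v ∈ dirS Q.S (uc Q x)} := by
  have h1 : ∀ i ∈ (Q.T0 k hk).at_ x, i ∈ {i | P ((Q.T0 k hk).H i) ⊆ Q.S.bp Q.ψ Q.a' Q.kc} :=
    fun i hi => (Q.un_bp k hk).at_sub (mem_interior_bp Q hx) hi
  obtain ⟨h2, -, h3⟩ := patch_in (R := Q.S.repl Q.ψ Q.a' Q.kc (Q.un_bp k hk)) h1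
  refine ⟨h2.trans ?_, h3.trans ?_⟩
  · rw [fcc_iH]; rfl
  · rw [fV_iH]; rfl

end block

/-- dimension from the description of the directions -/
theorem finrank_of_coe {V : Submodule ℝ E} {ψ : E ≃L[ℝ] (Fin n → ℝ)}
    {W : Submodule ℝ (Fin n → ℝ)} (h : (V : Set E) = {v | ψ v ∈ W}) :
    Module.finrank ℝ V = Module.finrank ℝ W := by
  have e : V = W.comap (ψ.toLinearEquiv : E →ₗ[ℝ] (Fin n → ℝ)) := by
    ext v
    have := Set.ext_iff.1 h v
    exact this
  rw [e, Submodule.comap_equiv_eq_map_symm]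
  exact LinearEquiv.finrank_map_eq ψ.toLinearEquiv.symm W

/-! ### the aligned mesh -/

section mesh

variable {J : Type*} (M : MD E n J) [NeZero n] {k : J → ℕ} (hk : M.Sc k) (a : Fin n → ℝ)
  {v : J → E} (hv : M.Adm v)

/-- **CORE CELLS (i)**: the cells of the aligned mesh inside the enlarged box of a core -/
theorem mesh_cell {j : J} {x : E} (hx : SIn (M.Bk v j) x) :
    (M.mesh hk a hv).cc x = {y | uc (M.Bk v j) y ∈ cell (M.Bk v j).S (uc (M.Bk v j) x)} ∧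
      ((M.mesh hk a hv).V x : Set E) =
        {w | (M.Bk v j).ψ w ∈ dirS (M.Bk v j).S (uc (M.Bk v j) x)} ∧
      (M.mesh hk a hv).dim x = Module.finrank ℝ (dirS (M.Bk v j).S (uc (M.Bk v j) x)) := by
  have h0 : x ∈ interior ((M.ad hk a hv).N j) :=
    interior_mono (M.Bk v j).bp_sub_N (mem_interior_bp _ hx)
  obtain ⟨h1, -, h2⟩ := blocks_in (T := (M.ad hk a hv).T1) (S := M.S hk (v := v))
    (hT := (M.ad hk a hv).isUn) (hS := (M.inn hk a hv).un) (hc := (M.ad hk a hv).isCompact_N)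
    (hO := (M.inn hk a hv).sub) (hd := (M.ad hk a hv).dis) (hlf := (M.ad hk a hv).lf) h0
  obtain ⟨h3, h4⟩ := blk_cell (M.Bk v j) (k j) (hk.kc j) hx
  have hV : ((M.mesh hk a hv).V x : Set E) =
      {w | (M.Bk v j).ψ w ∈ dirS (M.Bk v j).S (uc (M.Bk v j) x)} := by
    refine Eq.trans ?_ h4
    have := congrArg (fun V : Submodule ℝ E => (V : Set E)) h2
    exact this
  refine ⟨Eq.trans ?_ h3, hV, finrank_of_coe hV⟩
  exact h1

end mesh

/-! ### the core -/

section core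

variable (S : PS n)

/-- the sign patterns of the faces of the core which contain `u` -/
def SgAt (u : Fin n → ℝ) (σ : Fin n → SignType) : Prop :=
  ∀ l, (σ l = 1 → u l = S.hi l) ∧ (σ l = -1 → u l = S.lo l)

variable {S}

theorem mem_GG_of {u : Fin n → ℝ} {σ : Fin n → SignType} (hσ : SgAt S u σ)
    {τ : (S.F σ).Tc} (hτ : u ∈ ZP ((S.F σ).G τ)) : u ∈ ZP (S.GG ⟨σ, τ⟩) := by
  refine S.mem_ZP.2 ⟨hτ, fun l => ⟨fun h => ?_, fun h => ?_⟩⟩
  · have h1 := (hσ l).1 h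
    have ht := S.t_pos
    constructor <;> linarith
  · have h1 := (hσ l).2 h
    have ht := S.t_pos
    constructor <;> linarith

theorem sgAt_of {u : Fin n → ℝ} (hu : u ∈ S.B0) {i : S.Ix} (hi : u ∈ ZP (S.GG i)) :
    SgAt S u i.1 ∧ u ∈ ZP ((S.F i.1).G i.2) := by
  obtain ⟨h1, h2⟩ := S.mem_ZP.1 hi
  refine ⟨fun l => ⟨fun h => ?_, fun h => ?_⟩, h1⟩
  · exact le_antisymm (hu l).2 ((h2 l).1 h).1
  · exact le_antisymm ((h2 l).2 h).2 (hu l).1

/-- the pattern with one sign -/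
theorem exists_single {u : Fin n → ℝ} (hu : u ∈ S.B0) (l : Fin n) (ε : SignType)
    (hε : (ε = 1 → u l = S.hi l) ∧ (ε = -1 → u l = S.lo l)) :
    ∃ i : S.Ix, u ∈ ZP (S.GG i) ∧ i.1 l = ε := by
  classical
  obtain ⟨τ, hτ⟩ := (S.F (Pi.single l ε)).cov u fun m _ => hu m
  refine ⟨⟨Pi.single l ε, τ⟩, mem_GG_of (fun m => ?_) hτ, by simp⟩
  by_cases h : m = l
  · subst h
    rw [Pi.single_eq_same]
    exact hε
  · rw [Pi.single_eq_of_ne h]
    exact ⟨fun h => absurd h (by decide), fun h => absurd h (by decide)⟩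

/-- **CORE CELLS (ii)**: the cells of the core, read off the tilings of the faces -/
theorem mem_cell_iff {u v : Fin n → ℝ} (hu : u ∈ S.B0) : v ∈ cell S u ↔
    (∀ l, (u l = S.hi l → v l = S.hi l) ∧ (u l = S.lo l → v l = S.lo l)) ∧ v ∈ S.B0 ∧
      ∀ σ, SgAt S u σ → ∀ τ : (S.F σ).Tc, u ∈ ZP ((S.F σ).G τ) → ∀ p ∈ (S.F σ).G τ,
        dt (rv p.1) v ≤ p.2 ∧ (dt (rv p.1) u = p.2 → dt (rv p.1) v = p.2) := by
  have ht := S.t_pos
  constructor
  · intro hv
    have hcore : u ∈ ZP (S.GG S.core) := by rw [S.ZP_core]; exact hu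
    refine ⟨fun l => ⟨fun h => ?_, fun h => ?_⟩, ?_, ?_⟩
    · obtain ⟨i, hi, hl⟩ := exists_single hu l 1 ⟨fun _ => h, fun h => absurd h (by decide)⟩
      have h1 := ((S.forall_GG (i := i) (Q := fun p => dt (rv p.1) v ≤ p.2 ∧
        (dt (rv p.1) u = p.2 → dt (rv p.1) v = p.2))).1 (hv i hi)).2 l
      have h2 := (h1.1 hl).1.2
      rw [dt_neg_ez, dt_neg_ez] at h2
      push_cast at h2
      have := h2 (by rw [h])
      linarith
    · obtain ⟨i, hi, hl⟩ := exists_single hu l (-1) ⟨fun h => absurd h (by decide), fun _ => h⟩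
      have h1 := ((S.forall_GG (i := i) (Q := fun p => dt (rv p.1) v ≤ p.2 ∧
        (dt (rv p.1) u = p.2 → dt (rv p.1) v = p.2))).1 (hv i hi)).2 l
      have h2 := (h1.2 hl).2.2
      rw [dt_ez, dt_ez] at h2
      exact h2 h
    · rw [← S.ZP_core]
      exact fun p hp => (hv _ hcore p hp).1
    · intro σ hσ τ hτ p hp
      exact hv _ (mem_GG_of hσ hτ) p (by unfold PS.GG; exact Finset.mem_union_left _ hp)
  · rintro ⟨h1, h2, h3⟩ i hi
    obtain ⟨hσ, hτ⟩ := sgAt_of hu hi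
    refine (S.forall_GG (i := i) (Q := fun p => dt (rv p.1) v ≤ p.2 ∧
        (dt (rv p.1) u = p.2 → dt (rv p.1) v = p.2))).2
      ⟨h3 i.1 hσ i.2 hτ, fun l => ⟨fun h => ?_, fun h => ?_⟩⟩
    · have h4 := (hσ l).1 h
      have h5 := (h1 l).1 h4
      rw [dt_neg_ez, dt_neg_ez, dt_ez, dt_ez]
      push_cast
      refine ⟨⟨by rw [h5], fun _ => by rw [h5]⟩, by linarith, fun h6 => ?_⟩
      linarith
    · have h4 := (hσ l).2 h
      have h5 := (h1 l).2 h4
      rw [dt_neg_ez, dt_neg_ez, dt_ez, dt_ez]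
      push_cast
      refine ⟨⟨by linarith, fun h6 => ?_⟩, by rw [h5], fun _ => h5⟩
      linarith

/-- the directions of the cells of the core -/
theorem mem_dirS_iff {u w : Fin n → ℝ} (hu : u ∈ S.B0) : w ∈ dirS S u ↔
    (∀ l, (u l = S.hi l → w l = 0) ∧ (u l = S.lo l → w l = 0)) ∧
      ∀ σ, SgAt S u σ → ∀ τ : (S.F σ).Tc, u ∈ ZP ((S.F σ).G τ) → ∀ p ∈ (S.F σ).G τ,
        dt (rv p.1) u = p.2 → dt (rv p.1) w = 0 := by
  have ht := S.t_pos
  constructor
  · intro hw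
    refine ⟨fun l => ⟨fun h => ?_, fun h => ?_⟩, ?_⟩
    · obtain ⟨i, hi, hl⟩ := exists_single hu l 1 ⟨fun _ => h, fun h => absurd h (by decide)⟩
      have h1 := ((S.forall_GG (i := i) (Q := fun p => dt (rv p.1) u = p.2 →
        dt (rv p.1) w = 0)).1 (hw i hi)).2 l
      have h2 := (h1.1 hl).1
      rw [dt_neg_ez, dt_neg_ez] at h2
      push_cast at h2
      have := h2 (by rw [h])
      linarith
    · obtain ⟨i, hi, hl⟩ := exists_single hu l (-1) ⟨fun h => absurd h (by decide), fun _ => h⟩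
      have h1 := ((S.forall_GG (i := i) (Q := fun p => dt (rv p.1) u = p.2 →
        dt (rv p.1) w = 0)).1 (hw i hi)).2 l
      have h2 := (h1.2 hl).2
      rw [dt_ez, dt_ez] at h2
      exact h2 h
    · intro σ hσ τ hτ p hp
      exact hw _ (mem_GG_of hσ hτ) p (by unfold PS.GG; exact Finset.mem_union_left _ hp)
  · rintro ⟨h1, h3⟩ i hi
    obtain ⟨hσ, hτ⟩ := sgAt_of hu hi
    refine (S.forall_GG (i := i) (Q := fun p => dt (rv p.1) u = p.2 → dt (rv p.1) w = 0)).2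
      ⟨h3 i.1 hσ i.2 hτ, fun l => ⟨fun h => ?_, fun h => ?_⟩⟩
    · have h5 := (h1 l).1 ((hσ l).1 h)
      rw [dt_neg_ez, dt_neg_ez, dt_ez, dt_ez, h5]
      exact ⟨fun _ => neg_zero, fun _ => rfl⟩
    · have h5 := (h1 l).2 ((hσ l).2 h)
      rw [dt_neg_ez, dt_neg_ez, dt_ez, dt_ez, h5]
      exact ⟨fun _ => neg_zero, fun _ => rfl⟩

end core

/-- **CORE CELLS, together**: the closed cells of the aligned mesh at the points of the core tile -/
theorem core_cc {J : Type*} (M : MD E n J) [NeZero n] {k : J → ℕ} (hk : M.Sc k) (a : Fin n → ℝ)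
    {v : J → E} (hv : M.Adm v) {j : J} {x : E}
    (hx : x ∈ P ((M.mesh hk a hv).H (Sum.inr ⟨j, M.core hk a hv j⟩))) :
    uc (M.Bk v j) x ∈ (M.Bk v j).S.B0 ∧
    (M.mesh hk a hv).cc x = {y | uc (M.Bk v j) y ∈ cell (M.Bk v j).S (uc (M.Bk v j) x)} ∧
      (M.mesh hk a hv).dim x = Module.finrank ℝ (dirS (M.Bk v j).S (uc (M.Bk v j) x)) := by
  rw [M.P_core hk a hv] at hx
  have h := mesh_cell M hk a hv (sIn_of_core _ hx)
  exact ⟨hx, h.1, h.2.2⟩

end Crest.Agent.R096.Mcc_733
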