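import Crest.Agent.R096.Mal16_874

/-!
# Row 96, library (MESH-AL), helper798 for 874 (#10877 (4)): the core tile is good too
-/

set_option autoImplicit false

open Set Filter Topology Metric

namespace Crest.Agent.R096.Mal_874

open Msh_715 Cut_874 Msh_810

variable {n : ℕ} {E : Type*} [NormedAddCommGroup E] [NormedSpace ℝ E]

namespace MD

variable {J : Type*} (M : MD E n J) [NeZero n] {k : J → ℕ} (hk : M.Sc k) (a : Fin n → ℝ)
  {v : J → E} (hv : M.Adm v)

/-- the tiles of the shell and the core do not meet the wall -/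
theorem shell_wall798 {j : J} (s : (M.Bk v j).S.Ix) {y : E}
    (hy : y ∈ P ((M.S hk (v := v) j).H (Sum.inr s))) : y ∉ frontier (M.Bk v j).N := by
  intro hyf
  have hself : (P (((M.Bk v j).T (k j) (hk.kc j)).H (Sum.inr s)) ∩
      P (((M.Bk v j).T (k j) (hk.kc j)).H (Sum.inr s))).Nonempty := ⟨y, hy, hy⟩
  obtain ⟨τ, hτ, -⟩ := (M.Bk v j).wall_tile (k j) (hk.kc j) (t := Sum.inr s) ⟨y, hy, hyf⟩ hself
  exact absurd hτ (by simp)

/-- no outer piece meets a tile of the shell or the core -/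
theorem outer_shell798 (q : M.OIx hk a hv) {j : J} (i : M.IIx hk a hv j)
    {s : (M.Bk v j).S.Ix} (hi : i.1 = Sum.inr s) :
    ¬ (P ((M.mesh hk a hv).H (Sum.inl q)) ∩ P ((M.mesh hk a hv).H (Sum.inr ⟨j, i⟩))).Nonempty := by
  rintro ⟨y, hy1, hy2⟩
  have h1 := M.outer_touch hk a hv q hy1 (i.2 hy2)
  rw [mesh_inr, hi] at hy2
  exact M.shell_wall798 hk s hy2 h1

/-- the inner tiles of different blocks do not meet -/
theorem inner_block798 {l j : J} (m : M.IIx hk a hv l) (i : M.IIx hk a hv j)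
    (h : (P ((M.mesh hk a hv).H (Sum.inr ⟨l, m⟩)) ∩
      P ((M.mesh hk a hv).H (Sum.inr ⟨j, i⟩))).Nonempty) : l = j := by
  obtain ⟨y, hy1, hy2⟩ := h
  by_contra hne
  exact Set.disjoint_left.1 ((M.ad hk a hv).dis l j hne) (m.2 hy1) (i.2 hy2)

/-- **the core tile is good**, `R` = the largest side of the box -/
theorem core_good798 (X : RD M) (j : J) {R : ℝ}
    (hR : ∀ l, ((M.Q j).S.hi l : ℝ) - (M.Q j).S.lo l ≤ R) :
    Good (M.mesh hk a hv) (Sum.inr ⟨j, M.core hk a hv j⟩)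
      (chi (M.Q j).ψ (M.Bk v j).a' (M.Q j).kc) (M.Q j).kc (NB n (X.B j)) 1 R := by
  refine ⟨?_, ?_⟩
  · rintro (q | ⟨l, m⟩) hl
    · exact absurd hl (M.outer_shell798 hk a hv q (M.core hk a hv j) rfl)
    · obtain rfl : l = j := M.inner_block798 hk a hv m _ hl
      have hb : (P ((M.S hk (v := v) l).H (M.core hk a hv l).1) ∩
          (M.Bk v l).S.bp (M.Bk v l).ψ (M.Bk v l).a' (M.Bk v l).kc).Nonempty := by
        obtain ⟨y, hy⟩ := (M.S hk (v := v) l).ne (M.core hk a hv l).1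
        exact ⟨y, I_sub_P _ hy, (M.Bk v l).P_inr_sub (k l) (hk.kc l) _ (I_sub_P _ hy)⟩
      exact (M.Bk v l).near_good (k l) (hk.kc l) (X.B1 l) (X.hB l) hb hl
  · intro x hx y hy l
    rw [chi_eq_ps, chi_eq_ps]
    have hx' : x ∈ (M.Bk v j).Kc := by rw [← M.P_core hk a hv j]; exact hx
    have hy' : y ∈ (M.Bk v j).Kc := by rw [← M.P_core hk a hv j]; exact hy
    have h1 := hx' l
    have h2 := hy' l
    have h3 := hR l
    change ((M.Q j).S.lo l : ℝ) ≤ ps (M.Bk v j).a' (M.Q j).kc ((M.Q j).ψ x) l ∧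
      ps (M.Bk v j).a' (M.Q j).kc ((M.Q j).ψ x) l ≤ (M.Q j).S.hi l at h1
    change ((M.Q j).S.lo l : ℝ) ≤ ps (M.Bk v j).a' (M.Q j).kc ((M.Q j).ψ y) l ∧
      ps (M.Bk v j).a' (M.Q j).kc ((M.Q j).ψ y) l ≤ (M.Q j).S.hi l at h2
    rw [abs_le]
    constructor <;> linarith [h1.1, h1.2, h2.1, h2.2]

/-- the largest side of the box of the block `j` -/
noncomputable def Rb798 (j : J) : ℝ := ∑ l, (((M.Q j).S.hi l : ℝ) - (M.Q j).S.lo l)

/-- **the core tile is good**, with the constant `Rb798` -/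
theorem core_good798' (X : RD M) (j : J) :
    Good (M.mesh hk a hv) (Sum.inr ⟨j, M.core hk a hv j⟩)
      (chi (M.Q j).ψ (M.Bk v j).a' (M.Q j).kc) (M.Q j).kc (NB n (X.B j)) 1 (M.Rb798 j) := by
  refine M.core_good798 hk a hv X j fun l => ?_
  exact Finset.single_le_sum (f := fun l => ((M.Q j).S.hi l : ℝ) - (M.Q j).S.lo l)
    (fun l _ => by have := (M.Q j).S.lo_lt l; linarith) (Finset.mem_univ l)

end MD

end Crest.Agent.R096.Mal_874
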