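import Crest.Agent.R096.Mcg1_798

/-!
# Row 96, library (MESH-AL), helper798 for 874 (#10877 (4)): the tiles of scale `< k0`, the prism shell
and the core do not depend on the fine scale `k ≥ k0` (nor on the outer grid)
-/

set_option autoImplicit false

open Set Filter Topology Metric

namespace Crest.Agent.R096.Mcg_798

open Msh_715 Cut_874 Msh_810 Mal_874

section general

variable {E : Type*} [NormedAddCommGroup E] [NormedSpace ℝ E] {Om Om' : Set E} {ι ι' : Type*}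
  {T : Tiling Om ι} {T' : Tiling Om' ι'} {x : E}

/-- the tiles at `x` are the same -/
def SameAt (T : Tiling Om ι) (T' : Tiling Om' ι') (x : E) : Prop :=
  T.H '' T.at_ x = T'.H '' T'.at_ x

theorem SameAt.symm (h : SameAt T T' x) : SameAt T' T x := Eq.symm h

/-- one inclusion is enough -/
theorem sameAt_of (hx : x ∈ Om) (_hx0 : x ∈ Om') (h : ∀ i ∈ T.at_ x, ∃ i', T'.H i' = T.H i) :
    SameAt T T' x := by
  refine Set.Subset.antisymm ?_ ?_
  · rintro _ ⟨i, hi, rfl⟩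
    obtain ⟨i', hi'⟩ := h i hi
    exact ⟨i', by show x ∈ P (T'.H i'); rw [hi']; exact hi, hi'⟩
  · rintro _ ⟨i', hi', rfl⟩
    obtain ⟨r, hr, hO, hb⟩ := T.exists_ball hx
    -- a point of the open tile near `x`
    obtain ⟨z, hz⟩ := T'.ne i'
    have hc : Tendsto (fun s : ℝ => x + s • (z - x)) (𝓝 0) (𝓝 (x + (0 : ℝ) • (z - x))) := by
      apply Continuous.tendsto
      fun_prop
    rw [zero_smul, add_zero] at hc
    have h1 : ∀ᶠ s in 𝓝[>] (0 : ℝ), x + s • (z - x) ∈ ball x r :=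
      (hc.eventually (ball_mem_nhds x hr)).filter_mono nhdsWithin_le_nhds
    have h2 : ∀ᶠ s in 𝓝[>] (0 : ℝ), s < 1 :=
      (gt_mem_nhds (zero_lt_one' ℝ)).filter_mono nhdsWithin_le_nhds
    obtain ⟨s, ⟨hs1, hs2⟩, hs0⟩ := ((h1.and h2).and self_mem_nhdsWithin).exists
    have hy : x + s • (z - x) ∈ I (T'.H i') := mem_I_of_move hi' hz hs0 hs2.le
    obtain ⟨i, hi⟩ := T.cov _ (hO hs1)
    have hix : i ∈ T.at_ x := hb _ hs1 hi
    obtain ⟨l, hl⟩ := h i hix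
    have hli : l = i' := by
      by_contra hne
      have hd := disjoint_P_I (T'.ne l) (T'.dis l i' hne)
      refine Set.disjoint_left.1 hd ?_ hy
      rw [hl]
      exact hi
    exact ⟨i, hix, by rw [← hl, hli]⟩

theorem SameAt.cc (h : SameAt T T' x) : T.cc x = T'.cc x := by
  have key : ∀ {Om Om' : Set E} {ι ι' : Type _} {T : Tiling Om ι} {T' : Tiling Om' ι'},
      T.H '' T.at_ x = T'.H '' T'.at_ x → T.cc x ⊆ T'.cc x := by
    intro Om Om' ι ι' T T' h y hy i' hi' g hg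
    have h1 : T'.H i' ∈ T.H '' T.at_ x := by rw [h]; exact ⟨i', hi', rfl⟩
    obtain ⟨i, hi, he⟩ := h1
    exact hy i hi g (by rw [he]; exact hg)
  exact Set.Subset.antisymm (key h) (by
    intro y hy i hi g hg
    have h1 : T.H i ∈ T'.H '' T'.at_ x := by
      have h' : T.H '' T.at_ x = T'.H '' T'.at_ x := h
      rw [← h']; exact ⟨i, hi, rfl⟩
    obtain ⟨i', hi', he⟩ := h1
    exact hy i' hi' g (by rw [he]; exact hg))

theorem SameAt.oc (h : SameAt T T' x) : T.oc x = T'.oc x := by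
  have h' : T.H '' T.at_ x = T'.H '' T'.at_ x := h
  refine Set.Subset.antisymm ?_ ?_
  · intro y hy i' hi' g hg
    have h1 : T'.H i' ∈ T.H '' T.at_ x := by rw [h']; exact ⟨i', hi', rfl⟩
    obtain ⟨i, hi, he⟩ := h1
    exact hy i hi g (by rw [he]; exact hg)
  · intro y hy i hi g hg
    have h1 : T.H i ∈ T'.H '' T'.at_ x := by rw [← h']; exact ⟨i, hi, rfl⟩
    obtain ⟨i', hi', he⟩ := h1
    exact hy i' hi' g (by rw [he]; exact hg)

theorem SameAt.V (h : SameAt T T' x) : T.V x = T'.V x := by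
  have h' : T.H '' T.at_ x = T'.H '' T'.at_ x := h
  refine le_antisymm ?_ ?_
  · intro y hy i' hi' g hg
    have h1 : T'.H i' ∈ T.H '' T.at_ x := by rw [h']; exact ⟨i', hi', rfl⟩
    obtain ⟨i, hi, he⟩ := h1
    exact hy i hi g (by rw [he]; exact hg)
  · intro y hy i hi g hg
    have h1 : T.H i ∈ T'.H '' T'.at_ x := by rw [← h']; exact ⟨i, hi, rfl⟩
    obtain ⟨i', hi', he⟩ := h1
    exact hy i' hi' g (by rw [he]; exact hg)

theorem SameAt.dim [FiniteDimensional ℝ E] (h : SameAt T T' x) : T.dim x = T'.dim x := by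
  unfold Tiling.dim
  rw [h.V]

/-- same configuration -/
theorem cfg_same {i : ι} {i' : ι'} (hH : T.H i = T'.H i') (h : ∀ x ∈ P (T.H i), SameAt T T' x) :
    cfg T i = cfg T' i' :=
  cfg_congr (by rw [hH]) fun x hx => (h x hx).cc

end general

/-! ### one block -/

section block

variable {n : ℕ} {E : Type*} [NormedAddCommGroup E] [NormedSpace ℝ E] (Q : CB E n)
  {k k0 : ℕ} (hk : Q.kc ≤ k) (hk0 : Q.kc ≤ k0)

/-- the tiles of the block tiling -/
abbrev TIx (Q : CB E n) (k : ℕ) (hk : Q.kc ≤ k) : Type :=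
  {i // i ∉ {i | P ((Q.T0 k hk).H i) ⊆ Q.S.bp Q.ψ Q.a' Q.kc}} ⊕ Q.S.Ix

/-- the coarse tiles: cubes of scale `≤ m`, the shell and the core -/
def Coarse (Q : CB E n) (m : ℕ) {k : ℕ} {hk : Q.kc ≤ k} (t : TIx Q k hk) : Prop :=
  ∀ τ, t = Sum.inl τ → τ.1.1.1.k ≤ m

theorem coarse_inr {m : ℕ} (s : Q.S.Ix) : Coarse Q m (hk := hk) (Sum.inr s) := by
  intro τ h
  exact absurd h (by simp)

/-- a coarse tile of the mesh `k` is a tile of the mesh `k0` -/
theorem exists_same (hkk : k0 ≤ k) (t : TIx Q k hk) (ht : Coarse Q k0 t) :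
    ∃ t0 : TIx Q k0 hk0, (Q.T k0 hk0).H t0 = (Q.T k hk).H t ∧
      (∀ s, t = Sum.inr s ↔ t0 = Sum.inr s) ∧
      ∀ τ, t = Sum.inl τ → ∃ τ0, t0 = Sum.inl τ0 ∧ τ0.1.1.1 = τ.1.1.1 := by
  rcases t with τ | s
  · obtain ⟨τ', hτ'⟩ := Q.same_coarse k hk hk0 hkk τ.1 (ht τ rfl)
    have hH : (Q.T0 k0 hk0).H τ' = (Q.T0 k hk).H τ.1 := by
      show Hc Q.ψ (Q.D k0 hk0).a τ'.1.1.k τ'.1.1.z = Hc Q.ψ (Q.D k hk).a τ.1.1.1.k τ.1.1.1.z
      rw [hτ']
      rfl
    refine ⟨Sum.inl ⟨τ', ?_⟩, hH, fun s => by simp, ?_⟩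
    · intro h
      apply τ.2
      show P ((Q.T0 k hk).H τ.1) ⊆ _
      rw [← hH]
      exact h
    · rintro τ1 h
      obtain rfl : τ = τ1 := by simpa using h
      exact ⟨_, rfl, hτ'⟩
  · exact ⟨Sum.inr s, rfl, fun s' => by simp, fun τ h => absurd h (by simp)⟩

/-- if a tile of scale `< k0` or of the shell passes through `x` then the tilings `k` and `k0` have
the same tiles at `x` -/
theorem sameAt_block [NeZero n] (hkk : k0 ≤ k) {x : E} {t : TIx Q k hk}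
    (ht : t ∈ (Q.T k hk).at_ x) (hc : ∀ τ, t = Sum.inl τ → τ.1.1.1.k < k0) :
    SameAt (Q.T k hk) (Q.T k0 hk0) x := by
  have hx : x ∈ Q.ψ ⁻¹' (Q.D k hk).Om := (Q.T k hk).mem_Om ht
  have hx0 : x ∈ Q.ψ ⁻¹' (Q.D k0 hk0).Om := by
    rw [CB.D_Om]
    trivial
  refine sameAt_of hx hx0 fun i hi => ?_
  have hcoarse : Coarse Q k0 i := by
    rintro τ rfl
    have hτx : τ.1 ∈ (tiling Q.ψ (Q.D k hk)).at_ x := hi
    rcases t with σ | s
    · have hσx : σ.1 ∈ (tiling Q.ψ (Q.D k hk)).at_ x := ht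
      have h1 := (tile_k_le hτx).trans (K_le_succ (mem_at.1 hσx))
      have h2 := hc σ rfl
      omega
    · have h1 := Q.near_of_bp (Q.P_inr_sub k hk s ht)
      have h2 : Q.near 1 x := by
        intro l
        have h := h1 l
        constructor <;> linarith [h.1, h.2]
      have h3 := Q.near_k k hk (τ := τ.1) hτx h2
      omega
  obtain ⟨t0, h0, -⟩ := exists_same Q hk hk0 hkk i hcoarse
  exact ⟨t0, h0⟩

/-- **same configurations of one block** -/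
theorem same_cfg_block [NeZero n] (hkk : k0 ≤ k) (t : TIx Q k hk)
    (hc : ∀ τ, t = Sum.inl τ → τ.1.1.1.k < k0) :
    ∃ t0 : TIx Q k0 hk0, (Q.T k0 hk0).H t0 = (Q.T k hk).H t ∧
      cfg (Q.T k0 hk0) t0 = cfg (Q.T k hk) t ∧
      (∀ x ∈ P ((Q.T k hk).H t), SameAt (Q.T k hk) (Q.T k0 hk0) x) ∧
      (∀ s, t = Sum.inr s ↔ t0 = Sum.inr s) ∧
      ∀ τ, t = Sum.inl τ → ∃ τ0, t0 = Sum.inl τ0 ∧ τ0.1.1.1 = τ.1.1.1 := by
  obtain ⟨t0, h1, h2, h3⟩ := exists_same Q hk hk0 hkk t fun τ h => (hc τ h).le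
  have h4 : ∀ x ∈ P ((Q.T k hk).H t), SameAt (Q.T k hk) (Q.T k0 hk0) x := fun x hx =>
    sameAt_block Q hk hk0 hkk hx hc
  exact ⟨t0, h1, (cfg_same h1.symm h4).symm, h4, h2, h3⟩

end block

/-! ### the aligned mesh -/

section mesh

variable {n : ℕ} {E : Type*} [NormedAddCommGroup E] [NormedSpace ℝ E] {J : Type*} (M : MD E n J)
  [NeZero n] {k k0 : J → ℕ} (hk : M.Sc k) (hk0 : M.Sc k0) (a a0 : Fin n → ℝ) {v : J → E}
  (hv : M.Adm v)

/-- an inner tile which is not a cube of the scale `k j` does not meet the wall -/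
theorem inner_off_wall {j : J} (i : M.IIx hk a hv j) (hi : ∀ τ, i.1 = Sum.inl τ → τ.1.1.1.k ≠ k j) :
    P ((M.S hk (v := v) j).H i.1) ⊆ interior (M.Bk v j).N := by
  intro x hx
  have h1 : x ∉ frontier (M.Bk v j).N := by
    intro hf
    have hself : (P (((M.Bk v j).T (k j) (hk.kc j)).H i.1) ∩
      P (((M.Bk v j).T (k j) (hk.kc j)).H i.1)).Nonempty := ⟨x, hx, hx⟩
    obtain ⟨τ, hτ, hτk⟩ := (M.Bk v j).wall_tile (k j) (hk.kc j) (t := i.1) ⟨x, hx, hf⟩ hself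
    exact hi τ hτ hτk
  have h2 : x ∈ (M.Bk v j).N := i.2 hx
  by_contra hcon
  exact h1 ⟨subset_closure h2, hcon⟩

/-- the cells of the mesh in the interior of a block are those of the block tiling -/
theorem mesh_in {j : J} {x : E} (hx : x ∈ interior (M.Bk v j).N) :
    (M.mesh hk a hv).cc x = (M.S hk (v := v) j).cc x ∧
      (M.mesh hk a hv).oc x = (M.S hk (v := v) j).oc x ∧
      (M.mesh hk a hv).V x = (M.S hk (v := v) j).V x :=
  blocks_in (T := (M.ad hk a hv).T1) (S := M.S hk (v := v)) (N := (M.ad hk a hv).N)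
    (hT := (M.ad hk a hv).isUn) (hS := (M.inn hk a hv).un) (hc := (M.ad hk a hv).isCompact_N)
    (hO := (M.inn hk a hv).sub) (hd := (M.ad hk a hv).dis) (hlf := (M.ad hk a hv).lf) (j := j) hx

/-- **fine scale `k` versus `k0`**: the inner tiles of scale `< k0 j`, the tiles of the shell and the
core have the same polytope and the same configuration in the mesh `k` (outer grid `a`) and in the
mesh `k0` (outer grid `a0`) -/
theorem same_cfg (hkk : ∀ j, k0 j ≤ k j) {j : J} (i : M.IIx hk a hv j)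
    (hi : ∀ τ, i.1 = Sum.inl τ → τ.1.1.1.k < k0 j) :
    ∃ i0 : M.IIx hk0 a0 hv j,
      (M.mesh hk0 a0 hv).H (Sum.inr ⟨j, i0⟩) = (M.mesh hk a hv).H (Sum.inr ⟨j, i⟩) ∧
      cfg (M.mesh hk0 a0 hv) (Sum.inr ⟨j, i0⟩) = cfg (M.mesh hk a hv) (Sum.inr ⟨j, i⟩) ∧
      (∀ x ∈ P ((M.mesh hk a hv).H (Sum.inr ⟨j, i⟩)),
        (M.mesh hk0 a0 hv).cc x = (M.mesh hk a hv).cc x ∧
        (M.mesh hk0 a0 hv).oc x = (M.mesh hk a hv).oc x ∧
        (M.mesh hk0 a0 hv).V x = (M.mesh hk a hv).V x) ∧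
      (∀ s, i.1 = Sum.inr s ↔ i0.1 = Sum.inr s) ∧
      ∀ τ, i.1 = Sum.inl τ → ∃ τ0, i0.1 = Sum.inl τ0 ∧ τ0.1.1.1 = τ.1.1.1 := by
  obtain ⟨t0, h1, h2, h3, h4, h5⟩ := same_cfg_block (M.Bk v j) (hk.kc j) (hk0.kc j) (hkk j) i.1 hi
  have hin : P ((M.S hk (v := v) j).H i.1) ⊆ interior (M.Bk v j).N :=
    inner_off_wall M hk a hv i fun τ hτ => ((hi τ hτ).trans_le (hkk j)).ne
  have hN : P ((M.S hk0 (v := v) j).H t0) ⊆ (M.ad hk0 a0 hv).N j := by
    show P (((M.Bk v j).T (k0 j) (hk0.kc j)).H t0) ⊆ (M.Bk v j).N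
    rw [h1]
    exact i.2
  have hcell : ∀ x ∈ P ((M.mesh hk a hv).H (Sum.inr ⟨j, i⟩)),
      (M.mesh hk0 a0 hv).cc x = (M.mesh hk a hv).cc x ∧
      (M.mesh hk0 a0 hv).oc x = (M.mesh hk a hv).oc x ∧
      (M.mesh hk0 a0 hv).V x = (M.mesh hk a hv).V x := by
    intro x hx
    have hxi : x ∈ interior (M.Bk v j).N := hin hx
    obtain ⟨c1, c2, c3⟩ := mesh_in M hk a hv hxi
    obtain ⟨d1, d2, d3⟩ := mesh_in M hk0 a0 hv hxi
    have hs := h3 x hx
    exact ⟨by rw [c1, d1]; exact hs.cc.symm, by rw [c2, d2]; exact hs.oc.symm,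
      by rw [c3, d3]; exact hs.V.symm⟩
  refine ⟨⟨t0, hN⟩, h1, ?_, hcell, h4, h5⟩
  have hP : P ((M.mesh hk a hv).H (Sum.inr ⟨j, i⟩)) =
      P ((M.mesh hk0 a0 hv).H (Sum.inr ⟨j, (⟨t0, hN⟩ : M.IIx hk0 a0 hv j)⟩)) := by
    show P ((M.S hk (v := v) j).H i.1) = P ((M.S hk0 (v := v) j).H t0)
    rw [show (M.S hk0 (v := v) j).H t0 = (M.S hk (v := v) j).H i.1 from h1]
  exact (cfg_congr hP fun x hx => (hcell x hx).1.symm).symm

/-- **the core** in the meshes `k` and `k0` -/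
theorem same_core (hkk : ∀ j, k0 j ≤ k j) (j : J) :
    (M.mesh hk0 a0 hv).H (Sum.inr ⟨j, M.core hk0 a0 hv j⟩) =
        (M.mesh hk a hv).H (Sum.inr ⟨j, M.core hk a hv j⟩) ∧
      cfg (M.mesh hk0 a0 hv) (Sum.inr ⟨j, M.core hk0 a0 hv j⟩) =
        cfg (M.mesh hk a hv) (Sum.inr ⟨j, M.core hk a hv j⟩) ∧
      ∀ x ∈ P ((M.mesh hk a hv).H (Sum.inr ⟨j, M.core hk a hv j⟩)),
        (M.mesh hk0 a0 hv).cc x = (M.mesh hk a hv).cc x ∧
        (M.mesh hk0 a0 hv).oc x = (M.mesh hk a hv).oc x ∧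
        (M.mesh hk0 a0 hv).V x = (M.mesh hk a hv).V x := by
  obtain ⟨i0, h1, h2, h3, h4, -⟩ := same_cfg M hk hk0 a a0 hv hkk (M.core hk a hv j)
    (fun τ h => absurd h (by
      show ¬ (Sum.inr (M.Bk v j).S.core = Sum.inl τ)
      simp))
  have h5 : i0 = M.core hk0 a0 hv j := Subtype.ext ((h4 _).1 rfl)
  subst h5
  exact ⟨h1, h2, h3⟩

end mesh

end Crest.Agent.R096.Mcg_798
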