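import Crest.Agent.R096.Mi6_117
import Crest.Agent.R096.Mfr1_487
import Crest.Agent.R096.Ecm8_446
import Crest.Agent.R096.Be9_416

/-!
# R096 (row 96), bottom (helper117): **`mesh_lay`** = the mesh step over 337's `Lp` (337 #11308 (4))

from `Lay`, `Cores`, `Front`, the final state `StO` over `Lp` and 446's `CoresR` over `Lp`:
`Inv`, `MGeo`, the literal clause `tile`, and at every exact core `EqAt (gbR ..) g0`,
`EqAt (sqs g0 b 4) Gf` (clauses (5), (6), (7) of `core` of `fin_stG`).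
-/

set_option autoImplicit false
set_option linter.unusedSectionVars false
set_option linter.unusedVariables false
set_option linter.style.longLine false

open Set Metric Filter Topology Module

namespace Crest.Agent.R096.Mi_117

open Crest.Agent.R096.St_147 Crest.Agent.R096.Seq_213 Crest.Agent.R096.Seq_213.GSt
  Crest.Agent.R096.Bd_416 Crest.Agent.R096.Mg_441 Crest.Agent.R096.Lm_117
  Crest.Agent.R096.Cp_298 Crest.Agent.R096.Gl_422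
  Crest.Agent.R096.On_441 Crest.Agent.R096.SkB_662 Crest.Agent.R096.Ce_537
  Crest.Agent.R096.Arc_778
open Crest.Agent.R096.Msh_715 Crest.Agent.R096.Ecm_446 Crest.Agent.R096.Csub_487
open Crest.Agent.R096.SkC1_961 (E3 FoamD th)
open Crest.Agent.R096.Fl_835 (wk)
open Crest.Agent.R96.Nu1_199 (Wd)
open Crest.Agent.R96.Nu7_199 (WE WE_nonneg)
open Crest.Agent.R096.Nk_955 Crest.Agent.R096.Be_416
open Crest.Agent.R096.Cpo_642 Crest.Agent.R096.Frn_337 Crest.Agent.R096.Agl5_543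
open Crest.Agent.R096.Ori_543
open Crest.Agent.R096.Gm_298
open Crest.Agent.R096.Init_543 (JJ fr3)
open Crest.Agent.R096.Mbf_337 (KJ)
open Crest.Agent.R096.Fin_147 (Xout)
open Crest.Agent.R096.Brk5_582 (Cs)

open scoped Classical

variable {δ κ0 R c0 κ1 κ2 : ℝ} {La Om : Set E3} {ι : Type} {Φ : FoamD δ κ0 R c0 La}
  {T : Tiling Om ι} {X : Set Φ.F} {J0 Jt V : Φ.F → Set ι} {f : E3 → E3} {ct : Φ.F → ι}
  {A : Φ.F → E3 ≃ᵃ[ℝ] E3} {lam : Φ.F → ℝ} {z : Φ.F → E3} {θ : Φ.F → E3 → E3} {φ : Φ.F → E3 → ℝ}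
  {ι3 : Type} {T3 : Tiling Om ι3} {KK : Ti X → Set E3} {c3 : ι → ι3}
variable [Nonempty T3.Cell] {hH : ∀ k, CoreH T3 (KK k)}
    {hdis : ∀ k k', k ≠ k' → Disjoint (KK k) (KK k')} {hne : ∃ c, OutK T3 KK c}
variable {L : Φ.F → Finset ℝ} {Qd : Quads (ι3 ⊕ Ti X) Φ.F (Init_543.QK (Brk3_582.Pc Φ.F))}
    {s₀ : GSt (mK fr3 hH hdis) (fun j : JJ Φ L => j.1)} {far₀ : JJ Φ L → Set E3}
    {Gc : Φ.F → Set E3} {Zc : Φ.F → Set (QK (belK T3 KK))}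
    {lam₀ : JJ Φ L → QK (belK T3 KK) → ZMod 2} {v₀ v₁ : Φ.F → QK (belK T3 KK)}

/-- the constant of the base -/
noncomputable abbrev KbR (δ R : ℝ) : ℝ := 8 * (R * R) * Cs 3 δ R

theorem KbR_nonneg (hδ : 0 < δ) (hR : 0 < R) : 0 ≤ KbR δ R := by
  have h2 := Brk5_582.Cs_nonneg (n := 3) hδ hR
  unfold KbR
  positivity

/-- **THE MESH STEP OVER `Lp`** -/
theorem mesh_lay (hLa : IsOpen La) (hδ : 0 < δ) (hR : 0 < R)
    (hL : Lay Φ T X J0 Jt T3 KK c3)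
    (hC : Mbf_337.Cores Φ T f κ1 κ2 X J0 Jt V ct A lam z θ φ)
    (hF : Front T f J0 Jt V ct c3 hH hdis hne Qd s₀ far₀ Gc Zc lam₀ v₀ v₁)
    {κ : Φ.F → ℕ} (hκ : ∀ m, {c | κ c ≤ m}.Finite)
    {hfin : ∀ a, {j : JJ Φ L | j.1 = a}.Finite} {kap : Φ.F → ℕ}
    {s : GSt (mK fr3 hH hdis) (fam' (fun j : JJ Φ L => j.1) (Rk κ kap))}
    {far : Nm' (fun j : JJ Φ L => j.1) (Rk κ kap) → Set E3} {β : E3 → E3}
    {lm : Nm' (fun j : JJ Φ L => j.1) (Rk κ kap) → {c : QK (belK T3 KK) // pO T3 KK c3 ct c} → ZMod 2}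
    (hO : StO (Lp c3 ct hH hdis hne) (oriK fr3 hH hdis) (fun c => tauK T3 KK c.1) (RelM T3)
      (lmK fr3 hH hdis hne).W1 Qd κ s₀ far₀ (fun c => {v | v.1 ∈ Zc c})
      (fun j v => lam₀ j v.1) (fun c => sv (pO T3 KK c3 ct) (pO_ne hne) (v₀ c))
      (fun c => sv (pO T3 KK c3 ct) (pO_ne hne) (v₁ c)) hfin kap s far β lm)
    (hnp : ∀ c : Φ.F, (Brk3_582.Pc Φ.F c).Nonempty)
    (hm : ∀ a, 0 < mm (fin_copies (Rk κ kap) hfin) a)
    (ht : ∀ j : JJ Φ L, j.2.1 ≤ 1) {κb : ℝ} (hκb : 0 < κb ∧ κb ≤ 1/2)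
    {Mx : Φ.F → ℕ} {n : Φ.F → Φ.F → ℕ → ℝ}
    (HR : CoresR Φ T3 f κ1 κ2 (Lp c3 ct hH hdis hne) (celK T3 KK (tlX X c3 ct)) Qd κ s₀
      (fun c => {v | v.1 ∈ Zc c}) (fun j v => lam₀ j v.1)
      (fun c => sv (pO T3 KK c3 ct) (pO_ne hne) (v₀ c)) kap X (fun c => c3 (ct c)) A lam z Mx
      (fun j => j.2.1) κb n hfin)
    {b : ℕ → ℝ} (hb4 : ∀ n, 1/4 ≤ b n) (hb2 : ∀ n, b n < 1/2) {ε : ℝ} (hε0 : 0 < ε)
    (hε : ε ≤ 1/2) :
    ∃ (Gf : Gd E3 (Nm' (fun j : JJ Φ L => j.1) (Rk κ kap))) (Pp : ∀ q, hO.cmb.I q → Set E3)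
      (cc : ∀ q, hO.cmb.I q → E3 → ℝ) (g0 : Gd E3 (Nm' (fun j : JJ Φ L => j.1) (Rk κ kap))),
      Inv hO.cmb (fun q => setK T3 KK q.1) univ Gf Pp cc ∧
      MGeo hO.lfs (Lf lm) (xlf hO.lab.lab) (fun q => setK T3 KK q.1)
        (⋃ c : X, Dk (c3 (ct c)) (celK T3 KK (tlX X c3 ct))) cc ∧
      (∀ i, (∀ c, i ∉ V c) → ∃ q : {c : QK (belK T3 KK) // pO T3 KK c3 ct c},
        setK T3 KK q.1 = P (T.H i) ∧
        (∀ e, e < q → dimK (belK T3 KK) (fun c => c.1.dim) e.1 = 1 →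
          (Lp c3 ct hH hdis hne).toSk.On1 e ⊆ {y | y ∈ P (T.H i) ∧ T.dim y ≤ 1}) ∧
        ∀ (B : E3 ≃ᵃ[ℝ] E3) (x : hO.cmb.I q), ∀ y ∈ setK T3 KK q.1,
          LB B (2 * CU (KbR δ R) 3 ((fun K => B '' K) '' SkC1_961.Cfg T i) *
            WE (cplx_p hL hC) hO.cmb (wk κ kap (fun j : JJ Φ L => j.1)) q /
              wk κ kap (fun j : JJ Φ L => j.1) (hO.cmb.col q x)) (cc q x)
            (setK T3 KK q.1) y) ∧
      ∀ c : X, ∀ x ∈ frontier (Kcs T KK ct c),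
        EqAt (gbR hLa hnp hm (fun a => .top a) (nr (Lp c3 ct hH hdis hne) s lm hO.fin1) HR c) g0 x ∧
        EqAt (sqs g0 b 4) Gf x ∧
        ∃ q : {c : QK (belK T3 KK) // pO T3 KK c3 ct c}, x ∈ setK T3 KK q.1 ∧
          setK T3 KK q.1 ⊆ frontier (Kcs T KK ct c) ∧ IsClosed (setK T3 KK q.1) := by
  have hK : (fun q : {c : QK (belK T3 KK) // pO T3 KK c3 ct c} => setK T3 KK q.1) =
      fun q => (celK T3 KK (tlX X c3 ct) q).set := funext fun q => celK_set _ q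
  have hI := cellIx_p (T3 := T3) (KK := KK) (c3 := c3) (ct := ct)
  have hXc := cplx_p hL hC
  have hb0 : ∀ n, 0 < b n := fun n => by linarith [hb4 n]
  obtain ⟨g0, P0, c00, hB, hE⟩ := base_R (hF.stI hκ) hO hLa hδ hR onT_p (hK ▸ hXc)
    (fun q => by
      have h1 := hI.bd q
      rw [hK] at h1
      rw [h1]; exact congrArg (fun S : Set E3 => S \ R96.Nu3_199.ri S) (celK_set _ q)) hnp hm ht ⟨hκb.1, by linarith [hκb.2]⟩ (fun a => .top a) HR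
  rw [← hK] at hB
  have hB' := hB.of_Kbase hδ hR hκb.2 (fun j => by positivity)
  obtain ⟨δ', hδ', hδ2, Gf, Pp, cc, H, hG, hT⟩ := mesh_inst_B (ε := ε) hXc Mfr_487.top3_Lp hI.conv
    hI.cpt hI.bd (fun j => by positivity) hb0 hb2 hε0 (by linarith) (KbR_nonneg hδ hR) hB'
  refine ⟨Gf, Pp, cc, g0, H, hG, tile_lay hL hC hO (cplx_p hL hC) hb4 hε (KbR_nonneg hδ hR) hδ'
    hδ2 hT, fun c x hx => ?_⟩
  have hfr : frontier (Kcs T KK ct c) = frontier (P (T3.H (c3 (ct c)))) := by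
    rw [kcs_X c.2, Lay.keepX hL hC c.2]
  rw [hfr] at hx
  obtain ⟨h1, q, hq, h2, h3, h4⟩ := hE c x hx
  have hs : setK T3 KK q.1 = (celK T3 KK (tlX X c3 ct) q).set := celK_set _ q
  refine ⟨h1, (hT q).eqR (mem_iUnion.2 ⟨c, hq⟩) x (by rw [hs]; exact h2), q, ?_, ?_, ?_⟩
  · rw [hs]; exact h2
  · rw [hs, hfr]; exact h3
  · rw [hs]; exact h4

end Crest.Agent.R096.Mi_117
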