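import Crest.Agent.R096.Nod1_714
import Crest.Agent.R096.Crb1_609

/-!
# R096 (row 96), NODES, part 2 (helper714): 609's `NodeOK` for all exact cores from `Mbf_337.Levels`
-/

set_option autoImplicit false
set_option linter.unusedSectionVars false
set_option linter.unusedVariables false

open Set Filter Topology

namespace Crest.Agent.R096.Nod_714

open Crest.Agent.R096.Brk1_582 Crest.Agent.R096.Brk2_582 Crest.Agent.R096.Brk3_582
open Crest.Agent.R096.Brk5_582 Crest.Agent.R096.Bsp_628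
open Crest.Agent.R096.SkC1_961 (E3 FoamD)
open Crest.Agent.R096.Msh_715 Crest.Agent.R096.SkB_662
open Crest.Agent.R096.Fin_147 (fmJ)
open Crest.Agent.R096.Ecm_446 (NN)
open Crest.Agent.R096.Mbf_337 (Levels)
open Crest.Agent.R096.Crb_609 (NodeOK)

variable {δ κ0 R c0 : ℝ} {La Om : Set E3} {ι : Type} {Φ : FoamD δ κ0 R c0 La} {Tl : Tiling Om ι}
  {f : E3 → E3} {κp μ κ3 : ℝ} {Z : Φ.F → Set ℝ} {m0 κw kap : Φ.F → ℕ} {Lv : Φ.F → Finset ℝ}

/-- **`NodeOK` for all exact cores**, with nodes near the numbers of 446 -/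
theorem exists_nodeOK (hL : Levels Φ Tl f κp μ κ3 Z m0 κw Lv) (hμ : 0 < μ) {s κ : ℝ}
    (hκp : 0 ≤ κp) (hs : 0 < s) (hs1 : s < 1) (hκs : κp ≤ s / 4) (hκ : 0 < κ) (hκ1 : κ ≤ 1)
    {X : Set Φ.F} {M : Φ.F → ℕ} (hM : ∀ c ∈ X, 0 < M c)
    (hm0 : ∀ c ∈ X, ∀ a, (Pc Φ.F a ∩ Pc Φ.F c).Nonempty → M c ≤ m0 a ∧ 8 / s ≤ m0 a)
    {m : Φ.F → ℕ} (hm : ∀ a, m a = Rk κw kap a * (Lv a).card) :
    ∃ n : Φ.F → Φ.F → ℕ → ℝ, ∀ c ∈ X, NodeOK Φ m s c (M c) (n c) ∧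
      ∀ a i, i ≤ M c → |n c a i - NN (fmJ Φ Lv) κw kap (hgt Φ Lv (M c)) a i| < κ / 2 := by
  have key : ∀ c ∈ X, ∃ n : Φ.F → ℕ → ℝ, NodeOK Φ m s c (M c) n ∧
      ∀ a i, i ≤ M c → |n a i - NN (fmJ Φ Lv) κw kap (hgt Φ Lv (M c)) a i| < κ / 2 := by
    intro c hc
    obtain ⟨n, h1, h2, h3, h4, h5⟩ := exists_nodes_levels (kap := kap) hL hμ (η := s / 2) (κ := κ)
      hκp (by linarith) (by linarith) (by linarith) hκ hκ1 (hM c hc) (c := c)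
      (fun a ha => by
        obtain ⟨k1, k2⟩ := hm0 c hc a ha
        refine ⟨k1, le_trans (le_of_eq ?_) k2⟩
        field_simp
        norm_num) hm
    exact ⟨n, ⟨hM c hc, h1, h2, h3, h5⟩, h4⟩
  choose! n hn using key
  exact ⟨n, hn⟩

/-- the number of the levels which is needed, in the format of `exists_nodeOK` -/
theorem exists_m0' (hLa : IsOpen La) (Φ : FoamD δ κ0 R c0 La) (M : Φ.F → ℕ) (s : ℝ) :
    ∃ m0 : Φ.F → ℕ, (∀ a, 0 < m0 a) ∧ ∀ c a, (Pc Φ.F a ∩ Pc Φ.F c).Nonempty →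
      M c ≤ m0 a ∧ 8 / s ≤ m0 a := by
  obtain ⟨m0, h⟩ := exists_m0 hLa Φ M (s / 2)
  refine ⟨fun a => m0 a + 1, fun a => Nat.succ_pos _, fun c a hca => ?_⟩
  obtain ⟨h1, h2⟩ := h c a hca
  refine ⟨h1.trans (Nat.le_succ _), ?_⟩
  have e : 8 / s = 4 / (s / 2) := by
    rcases eq_or_ne s 0 with h | h
    · simp [h]
    · field_simp; norm_num
  rw [e]
  push_cast
  linarith

end Crest.Agent.R096.Nod_714
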