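import Crest.Agent.R096.Frn2_337
import Crest.Agent.R096.Frp1_534
import Crest.Agent.R096.Fin7_147
import Crest.Agent.R096.Ecm9_446
import Crest.Agent.R096.Crb2_609
import Crest.Agent.R096.Nod2_714
import Crest.Agent.R096.Onb3_63
import Crest.Agent.R096.Mi6_117
import Crest.Agent.R096.Be9_416
import Crest.Agent.R096.Gia7_537
import Crest.Agent.R096.Shg8_334
import Crest.Agent.R096.At14_241
import Crest.Agent.R096.Mi7_117

/-!
# R096 (row 96), bottom (helper337): THE BACK HALF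

`Lay` + `Front` + `Cores` + `Fine` + `Levels` + `Words` ⟹ `∃ G, GOut`.
-/

set_option autoImplicit false
set_option linter.unusedSectionVars false
set_option linter.unusedVariables false
set_option linter.style.longLine false

open Set Filter Topology Metric Module MeasureTheory Relation
open scoped ENNReal

namespace Crest.Agent.R096.Mch_337

open Crest.Agent.R096.Ce_537 (PLOn PLEquiv cube sph IsBall Cplx)
open Crest.Agent.R096.Bd_416 Crest.Agent.R096.Grd_714 Crest.Agent.R096.Mg_441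
open Crest.Agent.R096.Xp_537 Crest.Agent.R096.Bin_181
open Crest.Agent.R096.Brk1_582 Crest.Agent.R096.Brk2_582 Crest.Agent.R096.Brk3_582
open Crest.Agent.R096.Brk5_582 Crest.Agent.R096.Brk6_582
open Crest.Agent.R096.Bsp_628
open Crest.Agent.R096.SkC1_961 (E3 Hom3 FoamD Cfg th NN)
open Crest.Agent.R096.Msh_715 Crest.Agent.R096.Nr_527 Crest.Agent.R096.Oa_527
open Crest.Agent.R096.Mbf_337 (KJ sb gau Star Cores Fine Levels Words)
open Crest.Agent.R096.St_147 Crest.Agent.R096.Seq_213 Crest.Agent.R096.Seq_213.GSt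
open Crest.Agent.R096.Lm_117 Crest.Agent.R096.Ac_117
  Crest.Agent.R096.Cp_298 Crest.Agent.R096.Gm_298 Crest.Agent.R096.Gl_422 Crest.Agent.R096.SkB_662
  Crest.Agent.R096.Cpo_642 Crest.Agent.R096.Agl5_543 Crest.Agent.R096.Ori_543
open Crest.Agent.R096.Init_543 (JJ fr3)
open Crest.Agent.R096.Fin_147 (gr fmJ Xout XM Ktc)
open Crest.Agent.R096.Frn_337
open Crest.Agent.R096.Ecm_446 (Nod NNt CoresR chR gbR base_R Dk nr)
open Crest.Agent.R096.Crb_609 (NodeOK)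
open Crest.Agent.R096.Onb_63 (kp onT_Lp)

variable {δ κ0 R c0 : ℝ} {La Om : Set E3} {ι : Type}
variable {Φ : FoamD δ κ0 R c0 La} {T : Tiling Om ι} {f : E3 → E3} {κ1 κ2 : ℝ} {X : Set Φ.F}
  {J0 Jt V : Φ.F → Set ι} {ct : Φ.F → ι} {A : Φ.F → E3 ≃ᵃ[ℝ] E3} {lam : Φ.F → ℝ} {z : Φ.F → E3}
  {θ : Φ.F → E3 → E3} {φ : Φ.F → E3 → ℝ}
  {M : Φ.F → ℕ} {L : Φ.F → Finset ℝ} {κp μ κ3 : ℝ} {Zl : Φ.F → Set ℝ} {m0 κw : Φ.F → ℕ}

/-! ### the nodes -/

/-- **nodes of all exact cores**, in the format of 446 and of 609 -/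
theorem exists_nods (hL : Levels Φ T f κp μ κ3 Zl m0 κw L) (hμ : 0 < μ) (hκp : 0 ≤ κp)
    {s κb : ℝ} (hs : 0 < s) (hs1 : s < 1) (hκs : κp ≤ s / 4) (hκb : 0 < κb) (hκb1 : κb ≤ 1)
    (hM : ∀ c ∈ X, 0 < M c)
    (hm0 : ∀ c ∈ X, ∀ a, (Pc Φ.F a ∩ Pc Φ.F c).Nonempty → M c ≤ m0 a ∧ 8 / s ≤ m0 a)
    (hfin : ∀ a, {j : JJ Φ L | j.1 = a}.Finite) (kap : Φ.F → ℕ) :
    ∃ n : Φ.F → Φ.F → ℕ → ℝ, ∀ c ∈ X,
      Nod (M c) (mm (fin_copies (Rk κw kap) hfin))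
        (NNt (fun j : JJ Φ L => j.1) κw kap (fun j => j.2.1) (M c)) κb (n c) ∧
      NodeOK Φ (mm (fin_copies (Rk κw kap) hfin)) s c (M c) (n c) := by
  have hcard : ∀ a, mm (fin_copies (Rk κw kap) hfin) a = Rk κw kap a * (L a).card := fun a => by
    rw [SkB_662.mm_eq (Rk κw kap) hfin a, Fin_147.jj_card hfin]
  have key : ∀ c : Φ.F, ∃ n : Φ.F → ℕ → ℝ, c ∈ X →
      Nod (M c) (mm (fin_copies (Rk κw kap) hfin))
        (NNt (fun j : JJ Φ L => j.1) κw kap (fun j => j.2.1) (M c)) κb n ∧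
      NodeOK Φ (mm (fin_copies (Rk κw kap) hfin)) s c (M c) n := by
    intro c
    by_cases hc : c ∈ X
    · obtain ⟨n, hn⟩ := Onb_63.exists_nodF hL hμ hfin kap hκb (hM c hc)
      refine ⟨n, fun _ => ⟨hn, ⟨hM c hc, hn.mono, hn.zero, hn.top, fun a ha => ?_⟩⟩⟩
      obtain ⟨k1, k2⟩ := hm0 c hc a ha
      have hlarge := hL.large a
      have hcp : 0 < (L a).card := Onb_63.lv_pos hL a
      have hsur : ∀ a, ∀ r ∈ L a, ∃ j : JJ Φ L, j.1 = a ∧ j.2.1 = r := fun a r hr =>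
        ⟨⟨a, r, hr⟩, rfl, rfl⟩
      have ht1 : ∀ j : JJ Φ L, 0 < j.2.1 ∧ j.2.1 ≤ 1 := fun j => Onb_63.lv_mem hL hμ j
      have hcr : (8 / s) ≤ ((L a).card : ℝ) := k2.trans (by exact_mod_cast hlarge)
      have hM0 : (0 : ℝ) < M c := by exact_mod_cast hM c hc
      refine ⟨fun i hi => ?_, fun j hj => ?_, ?_⟩
      · have h1 := Ecm_446.nod_step (κc := κw) (kap := kap) hfin
          (t := fun j : JJ Φ L => j.2.1) (L := L) (fun j => j.2.2) Fin_147.jj_inj hsur hκp a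
          (hL.dens a) (hM c hc) (k1.trans hlarge) hn i
        refine h1.trans ?_
        have h2 : (0 : ℝ) ≤ mm (fin_copies (Rk κw kap) hfin) a := Nat.cast_nonneg _
        have : (2 + κp) ≤ 4 := by linarith
        gcongr
      · have h1 := Ecm_446.nod_close (κc := κw) (kap := kap) hfin
          (t := fun j : JJ Φ L => j.2.1) (L := L) (fun j => j.2.2) ht1 Fin_147.jj_inj hsur hκp a
          hcp (hL.dens a) (hM c hc) (by linarith) hn hj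
        refine h1.trans ?_
        have h2 : (2 : ℝ) / (L a).card ≤ s / 4 := by
          have h3 : (0 : ℝ) < (L a).card := by exact_mod_cast hcp
          rw [div_le_iff₀ h3]
          rw [div_le_iff₀ hs] at hcr
          linarith
        linarith
      · have h3 : ((L a).card : ℝ) ≤ mm (fin_copies (Rk κw kap) hfin) a := by
          rw [hcard a]
          exact_mod_cast Nat.le_mul_of_pos_left _ (Rk_pos κw kap a)
        rw [div_le_iff₀ hs] at hcr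
        nlinarith
    · exact ⟨fun _ _ => 0, fun h => absurd h hc⟩
  choose n hn using key
  exact ⟨n, hn⟩

/-! ### the composition -/

section back

variable {ι3 : Type} {T3 : Tiling Om ι3} {KK : Ti X → Set E3} {c3 : ι → ι3} [Nonempty T3.Cell]
    {hH : ∀ k, CoreH T3 (KK k)} {hdis : ∀ k k', k ≠ k' → Disjoint (KK k) (KK k')}
    {hne : ∃ c, OutK T3 KK c} {Qd : Quads (ι3 ⊕ Ti X) Φ.F (Init_543.QK (Pc Φ.F))}
    {s₀ : GSt (mK fr3 hH hdis) (fun j : JJ Φ L => j.1)} {far₀ : JJ Φ L → Set E3}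
    {Gc : Φ.F → Set E3} {Zc : Φ.F → Set (QK (belK T3 KK))}
    {lam₀ : JJ Φ L → QK (belK T3 KK) → ZMod 2} {v₀ v₁ : Φ.F → QK (belK T3 KK)}

open Classical in
/-- **THE BACK HALF** -/
theorem back (hOm : IsOpen Om) (hLa : IsOpen La) (hf : Hom3 f Om La) (hδ : 0 < δ) (hR : 0 < R)
    (hκ3 : 0 ≤ κ3) (hs : Small δ κ0 R κ1 κ2)
    (hC : Cores Φ T f κ1 κ2 X J0 Jt V ct A lam z θ φ) (hF : Fine Φ T f κ1 J0)
    (hL : Levels Φ T f κp μ κ3 Zl m0 κw L) (hW : Words Φ T f X ct A lam z M L)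
    (hμ : 0 < μ) (hκp : 0 ≤ κp)
    (hLay : Lay Φ T X J0 Jt T3 KK c3)
    (hFr : Front T f J0 Jt V ct c3 hH hdis hne Qd s₀ far₀ Gc Zc lam₀ v₀ v₁)
    {κb β sg κf e C0 : ℝ} {Cs : Set (Set E3) → ℝ}
    (hκb : 0 < κb ∧ κb ≤ 1/2) (hβ : 1/4 ≤ β ∧ β < 1/2) (hsg : 0 < sg ∧ sg ≤ 1/4)
    (h3s : 3 * sg ≤ e) (hκfe : κf = 1 - (1 - κb) * bet (fun _ => β) 4)
    (hκf : 0 < κf ∧ κf < 1) (hκs : 2 * κf ≤ sg) (hκe : κf / (1 - κf) < e)
    (hps : κp ≤ sg / 4)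
    (hm0 : ∀ c ∈ X, ∀ a, (Pc Φ.F a ∩ Pc Φ.F c).Nonempty → M c ≤ m0 a ∧ 8 / sg ≤ m0 a)
    (hSC : Rpk_714.Spk δ κ0 R < C0)
    (hCs : ∀ 𝒦, 2 * R * κ3 * (2 * Csub_487.CU (Mi_117.KbR δ R) 3 𝒦) ≤ Cs 𝒦) :
    ∃ G : E3 → E3, GOut C0 Cs e Φ T f X J0 V ct A lam κw L G := by
  have hlf : ∀ m, {c | κw c ≤ m}.Finite := hL.lf
  obtain ⟨kap, s, far, β', lm, hO⟩ := exists_out (hFr.stI hlf)
  have hfin := (hFr.stI hlf).finJ
  have hm : ∀ a, 0 < mm (fin_copies (Rk κw kap) (hFr.stI hlf).finJ) a := fun a =>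
    Fin_147.mm_pos_final hO hL _ a
  have hnp : ∀ c : Φ.F, (Pc Φ.F c).Nonempty := Fin_147.ne_Pc
  have hM : ∀ c ∈ X, 0 < M c := fun c hc => (hW.grid c hc).1
  obtain ⟨n, hn⟩ := exists_nods (kap := kap) hL hμ hκp hsg.1 (by linarith [hsg.2]) hps hκb.1
    (by linarith [hκb.2]) hM hm0 (hFr.stI hlf).finJ
  have HR := Onb_63.Front.coresR_nod (kap := kap) hLa hLay hC hW hFr (hFr.stI hlf).finJ
    (fun c hc => (hn c hc).1)
  have ht : ∀ j : JJ Φ L, j.2.1 ≤ 1 := fun j => (Onb_63.lv_mem hL hμ j).2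
  obtain ⟨Gf, Pp, cc, g0, H, MG, tile, hcr⟩ := Mi_117.mesh_lay hLa hδ hR hLay hC hFr hlf hO hnp hm ht
    hκb HR (b := fun _ => β) (fun _ => hβ.1) (fun _ => hβ.2) (ε := 1/2) (by norm_num) le_rfl
  have keep : ∀ c ∈ X, P (T3.H (c3 (ct c))) = P (T.H (ct c)) := fun c hc =>
    Mi_117.Lay.keepX hLay hC hc
  have hdisA : ∀ a a', a ≠ a' → Disjoint (Kcs T KK ct a) (Kcs T KK ct a') := fun a a' =>
    Gia_537.Kcs_disj hLa hC hLay
  have hKX3 : ∀ a ∈ X, Kcs T KK ct a = P (T3.H (c3 (ct a))) := fun a ha => by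
    rw [Mi_117.kcs_X ha, keep a ha]
  -- the exact cores
  obtain ⟨Rr, core, hS, hRr⟩ := Crb_609.core_block
    (Q := {c : QK (belK T3 KK) // pO T3 KK c3 ct c}) (f := f) (κ1 := κ1) (κ2 := κ2)
    hLa hδ hR HR.ex hm hnp hsg.1 (by linarith [hsg.2]) hκf.1 hκs
    (fun a ha => (hn a ha).2) hKX3 (fam := fam' (fun j : JJ Φ L => j.1) (Rk κw kap))
    (lv := nr (Lp c3 ct hH hdis hne) s lm hO.fin1) (κb := κb) (bt := fun _ => β) (k := 4)
    (g0 := g0) (Gf := Gf) (K := fun q => setK T3 KK q.1)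
    (D := fun a => {q | setK T3 KK q.1 ⊆ frontier (P (T3.H (c3 (ct a)))) ∧
      IsClosed (setK T3 KK q.1)})
    (fun a ha x hx => by
      rw [← hKX3 a ha] at hx
      obtain ⟨-, -, q, h1, h2, h3⟩ := hcr ⟨a, ha⟩ x hx
      refine ⟨q, ⟨?_, h3⟩, h1⟩
      rw [← hKX3 a ha]; exact h2)
    (fun a ha q hq => hq)
    (fun a ha q hq x hx => by
      have h1 : x ∈ frontier (Kcs T KK ct a) := by rw [hKX3 a ha]; exact hq.1 hx
      exact (hcr ⟨a, ha⟩ x h1).1)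
    (fun a ha q hq x hx => by
      have h1 : x ∈ frontier (Kcs T KK ct a) := by rw [hKX3 a ha]; exact hq.1 hx
      exact (hcr ⟨a, ha⟩ x h1).2.1)
  have Xc := Mi_117.cplx_p hLay hC
  have hR2 : ∀ q ∈ ⋃ c : X, Dk (c3 (ct c)) (celK T3 KK (tlX X c3 ct)),
      dimK (belK T3 KK) (fun c => c.1.dim) q.1 ≤ 2 := by
    intro q hq
    obtain ⟨c, hc⟩ := mem_iUnion.1 hq
    rw [celK_dim (tlX X c3 ct) q]
    exact hc.2
  have : Nonempty {c : QK (belK T3 KK) // pO T3 KK c3 ct c} := by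
    obtain ⟨c, hc⟩ := pO_ne (c3 := c3) (ct := ct) hne
    exact ⟨⟨c, hc⟩⟩
  obtain ⟨a0⟩ : Nonempty Φ.F := by
    obtain ⟨c, -⟩ := hne
    obtain ⟨fi, h1, -⟩ := hf
    obtain ⟨a, -⟩ := (foam Φ.bf hLa).cov _ (h1 c.pt_mem)
    exact ⟨a⟩
  have key := Fin_147.fin_stG (κ1 := κ1) (κ2 := κ2) hOm hLa hf hs hC hF hO rel_p hR.le hκ3
    hL (Mi_117.Front.hlev hFr) (hf1 := fin_copies (Rk κw kap) (hFr.stI hlf).finJ) hm H
    (hFr.meshEx hlf hO) hnp (Kc := Kcs T KK ct) Xc (Mi_117.kcs_sub hLay hC)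
    (Mi_117.kcs_closed hLay) (fun a ha => Mi_117.kcs_X ha) (.top a0)
    (Ck := fun 𝒦 => 2 * Csub_487.CU (Mi_117.KbR δ R) 3 𝒦) (Cs := Cs) (fun 𝒦 => by
      have h1 := Csub_487.CU_nonneg (Mi_117.KbR_nonneg hδ hR) 3 𝒦
      positivity) hCs tile
    ⟨hκb.1, by linarith [hκb.2]⟩ (bt := fun _ => β) (fun _ => by linarith [hβ.1])
    (fun _ => hβ.2) 3 hκfe (lv := nr (Lp c3 ct hH hdis hne) s lm hO.fin1)
    (Ecm_446.sto_inj hO) (Ecm_446.sto_lt hO) (Ecm_446.sto_sur hO) Rr core hSC hS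
    (by linarith) (by linarith [hsg.2]) h3s hκe hRr
    (fun a ha => Gia_537.tiny_front hLa hf hs hC hLay hFr hlf hO hm hnp (.top a0) H
      (fun j => MG.bls j) hκf ha (fun q hq hqa =>
        At_241.front_sq hFr hFr.actO keep hdisA hlf hO H Xc hR2 MG hLa hm hnp a q hq hqa))
    (At_241.front_arcs hFr hFr.actO keep hdisA hlf hO H Xc hR2 MG hLa hm hnp κf)
    (fun G Y hM' hX q hq =>
      Shg_334.front_sheets hFr hLay.ball keep hdisA hOm hO H (fun j => MG.bls j) Xc hLa hm hnp G Y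
        hM' hX q hq)
  obtain ⟨G, -, hG⟩ := key
  exact ⟨G, hG⟩

end back

end Crest.Agent.R096.Mch_337
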