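import Crest.Agent.R096.SkB1b_662
import Crest.Agent.R096.On1_441
import Crest.Agent.R096.SkN2_477

/-!
# R096 (row 96), MachNO, bottom side, block A (helper747): `n0`, `cnt`, `osc`

* `nn Cc K R S c` : number of final points of the family `c` on the 1-cell `S`, copies of one level
  count together as one (`nP / R c`);
* `nn_nonneg`, `nn_eq`;
* `osc` : `|u_c y - u_c y'| m_c ≤ n S c` on `S`;
* `StO.cnt` : the total weight of the final points on a 1-cell is at most the weight of the initial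
  ones (sum over any finite set of families).
-/

set_option autoImplicit false
set_option linter.style.longLine false
set_option linter.unusedSectionVars false

open Set Relation
open scoped ENNReal

namespace Crest.Agent.R096.Mna_747

open Crest.Agent.R096.St_147 Crest.Agent.R096.Seq_213 Crest.Agent.R096.Seq_213.GSt
  Crest.Agent.R096.Bd_416 Crest.Agent.R096.Mg_441 Crest.Agent.R096.Lm_117
  Crest.Agent.R096.Grd_714 Crest.Agent.R096.Cp_298 Crest.Agent.R096.Gl_422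
  Crest.Agent.R096.On_441 Crest.Agent.R096.SkB_662
open Crest.Agent.R96.Nu1_199 (Wd)

section gen

variable {Q : Type} [PartialOrder Q] {dim : Q → ℕ} {J Fam : Type}
variable {E : Type*}
variable {Cc : Cmb Q dim J Fam} {K : Q → Set E}

/-- the number of the final points of the family `a` on the 1-cell `S` (`R a` copies count as one) -/
noncomputable def nn (Cc : Cmb Q dim J Fam) (K : Q → Set E) (R : Fam → ℕ) (S : Set E) (a : Fam) : ℝ :=
  by
  classical
  exact if h : ∃ q, dim q = 1 ∧ K q = S then (nP Cc h.choose a : ℝ) / R a else 0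

theorem nn_nonneg (R : Fam → ℕ) (S : Set E) (a : Fam) : 0 ≤ nn Cc K R S a := by
  classical
  unfold nn
  split_ifs with h
  · positivity
  · exact le_rfl

/-- the cell of the definition -/
theorem nn_spec (Cc : Cmb Q dim J Fam) (K : Q → Set E) {S : Set E} (h : ∃ q, dim q = 1 ∧ K q = S) :
    ∃ q, dim q = 1 ∧ K q = S ∧ ∀ (R : Fam → ℕ) a, nn Cc K R S a = (nP Cc q a : ℝ) / R a := by
  classical
  refine ⟨h.choose, h.choose_spec.1, h.choose_spec.2, fun R a => ?_⟩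
  unfold nn
  rw [dif_pos h]

theorem nn_eq (hinj : ∀ q q', dim q = 1 → dim q' = 1 → K q = K q' → q = q') (R : Fam → ℕ) {q : Q}
    (hq : dim q = 1) (a : Fam) : nn Cc K R (K q) a = (nP Cc q a : ℝ) / R a := by
  obtain ⟨q', h1, h2, h3⟩ := nn_spec Cc K ⟨q, hq, rfl⟩
  rw [h3, hinj q' q h1 hq h2]

variable [NormedAddCommGroup E] [NormedSpace ℝ E] {D : Set Q} {g : Gd E J}
  {P : ∀ q, Cc.I q → Set E} {c : ∀ q, Cc.I q → E → ℝ}

/-- **oscillation of the labels on a 1-cell** -/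
theorem osc (H : Inv Cc K D g P c) (hfin : ∀ a, {j | Cc.fam j = a}.Finite) {R m : Fam → ℕ}
    (hR : ∀ a, 0 < R a) (hm : ∀ a, mm hfin a = R a * m a) {S : Set E}
    (hS : ∃ q, dim q = 1 ∧ K q = S) (hD : ∀ q, dim q = 1 → K q = S → q ∈ D) (a : Fam) {y y' : E}
    (hy : y ∈ S) (hy' : y' ∈ S) :
    |uu hfin g y a - uu hfin g y' a| * m a ≤ nn Cc K R S a := by
  obtain ⟨q, h1, h2, h3⟩ := nn_spec Cc K hS
  have h4 := uu_sub H hfin (hD q h1 h2) a (y := y) (y' := y') (by rw [h2]; exact hy)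
    (by rw [h2]; exact hy')
  rw [h3]
  have hR' : (0 : ℝ) < R a := by exact_mod_cast hR a
  rcases Nat.eq_zero_or_pos (m a) with h0 | h0
  · rw [h0, Nat.cast_zero, mul_zero]
    positivity
  · have hm' : (0 : ℝ) < m a := by exact_mod_cast h0
    have h5 : ((mm hfin a : ℕ) : ℝ) = R a * m a := by rw [hm a]; push_cast; ring
    rw [h5] at h4
    have h6 := mul_le_mul_of_nonneg_right h4 hm'.le
    refine h6.trans (le_of_eq ?_)
    field_simp

end gen

variable {ι Φ W Q J C K : Type} {M : MeshC ι Φ W} [PartialOrder Q] {dim : Q → ℕ}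
variable {L : LM M Q dim} {O : Ori M} {τ : Q → ZMod 2} {Rel : W → W → Prop} {V : Set W}
  {Qd : Quads ι C K} {κ : C → ℕ} {fam : J → C} {s₀ : GSt M fam} {far₀ : J → Set W}
  {G : C → Set W} {Z : C → Set Q} {lam₀ : J → Q → ZMod 2} {v₀ v₁ : C → Q}
  {hfin : ∀ a, {j | fam j = a}.Finite} {kap : C → ℕ} {s : GSt M (fam' fam (Rk κ kap))}
  {far : Nm' fam (Rk κ kap) → Set W} {β : W → W} {lam : Nm' fam (Rk κ kap) → Q → ZMod 2}

/-- `2^(-κ) / R = 2^(-kap)` -/
theorem pow_div_Rk {c : C} (h : κ c ≤ kap c) :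
    (2 : ℝ)⁻¹ ^ κ c / (Rk κ kap c : ℕ) = (2 : ℝ)⁻¹ ^ kap c := by
  unfold Rk
  push_cast
  rw [← Nat.sub_add_cancel h, pow_add, Nat.add_sub_cancel]
  have : (2 : ℝ) ^ (kap c - κ c) ≠ 0 := by positivity
  rw [inv_pow, inv_pow]
  field_simp

/-- pieces of finitely many families weigh at most as much as all pieces -/
theorem sum_nP_le {J' : Type} (Cc : Cmb Q dim J' C) (S : Finset C) (q : Q) (w : C → ℝ)
    (hw : ∀ a, 0 ≤ w a) : ∑ a ∈ S, (nP Cc q a : ℝ) * w a ≤ Wd Cc (fun j => w (Cc.fam j)) q := by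
  classical
  unfold Wd nP
  have h1 : ∀ a ∈ S, ((Finset.univ.filter fun x : Cc.I q => Cc.fam (Cc.col q x) = a).card : ℝ) * w a =
      ∑ x ∈ Finset.univ.filter (fun x : Cc.I q => Cc.fam (Cc.col q x) = a),
        w (Cc.fam (Cc.col q x)) := by
    intro a _
    rw [Finset.sum_congr rfl (fun x hx => by rw [(Finset.mem_filter.1 hx).2] :
      ∀ x ∈ Finset.univ.filter (fun x : Cc.I q => Cc.fam (Cc.col q x) = a),
        w (Cc.fam (Cc.col q x)) = w a), Finset.sum_const, nsmul_eq_mul]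
  rw [Finset.sum_congr rfl h1, ← Finset.sum_biUnion]
  · exact Finset.sum_le_sum_of_subset_of_nonneg (Finset.subset_univ _) fun x _ _ => hw _
  · intro a _ b _ hab
    simp only [Function.onFun]
    rw [Finset.disjoint_left]
    intro x hx hx'
    exact hab ((Finset.mem_filter.1 hx).2.symm.trans (Finset.mem_filter.1 hx').2)

/-- **(cnt)** total weight of the final points on a 1-cell `S` ≤ weight of the initial points -/
theorem cnt {E : Type*}
    (h : StO L O τ Rel V Qd κ s₀ far₀ Z lam₀ v₀ v₁ hfin kap s far β lam)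
    (hrel : ∀ x w, Rel x w → (x ∈ L.W1 ∨ w ∈ L.W1) → x ∈ L.W1 ∧ w ∈ L.W1 ∧ L.ed x = L.ed w)
    {lv : C → W → ℝ} {t : J → ℝ} (hinj : ∀ j j', fam j = fam j' → t j = t j' → j = j')
    {Lv : C → Finset ℝ} (hL : ∀ j, t j ∈ Lv (fam j)) {B : Set W}
    (hlev : ∀ x ∈ s₀.P, x ∈ B → lv (fam (s₀.lab x)) x = t (s₀.lab x))
    (K' : Q → Set E) {S : Set E} (hS : ∃ q, dim q = 1 ∧ K' q = S)
    (hB : ∀ q, dim q = 1 → K' q = S → L.toSk.On1 q ⊆ B) (F : Finset C) :
    ENNReal.ofReal (∑ a ∈ F, nn h.cmb K' (Rk κ kap) S a * (2 : ℝ)⁻¹ ^ κ a) ≤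
      ∑' c, ENNReal.ofReal ((2 : ℝ)⁻¹ ^ κ c) *
        ∑ r ∈ Lv c, (({y ∈ B | lv c y = r}.encard : ℕ∞) : ℝ≥0∞) := by
  obtain ⟨q, h1, h2, h3⟩ := nn_spec h.cmb K' hS
  have h4 := h.wd_le hrel hinj hL hlev {q} (fun e he => by rw [Finset.mem_singleton.1 he]; exact h1)
    (fun e he => by rw [Finset.mem_singleton.1 he]; exact hB q h1 h2)
  rw [Finset.sum_singleton] at h4
  refine le_trans (ENNReal.ofReal_le_ofReal ?_) h4
  have h5 : ∀ a ∈ F, nn h.cmb K' (Rk κ kap) S a * (2 : ℝ)⁻¹ ^ κ a =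
      (nP h.cmb q a : ℝ) * (2 : ℝ)⁻¹ ^ kap a := by
    intro a _
    rw [h3, ← pow_div_Rk (h.le a)]
    ring
  rw [Finset.sum_congr rfl h5]
  exact sum_nP_le h.cmb F q (fun a => (2 : ℝ)⁻¹ ^ kap a) (fun a => by positivity)

/-- `n = nP 2^(-kap) 2^κ` -/
theorem nn_mul (h : StO L O τ Rel V Qd κ s₀ far₀ Z lam₀ v₀ v₁ hfin kap s far β lam)
    {E : Type*} (K' : Q → Set E)
    (hinj : ∀ q q', dim q = 1 → dim q' = 1 → K' q = K' q' → q = q') {q : Q} (hq : dim q = 1)
    (a : C) : nn h.cmb K' (Rk κ kap) (K' q) a * (2 : ℝ)⁻¹ ^ κ a =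
      (nP h.cmb q a : ℝ) * (2 : ℝ)⁻¹ ^ kap a := by
  rw [nn_eq hinj (Rk κ kap) hq a, ← pow_div_Rk (h.le a)]
  ring

/-- **(osc)** for the final state: `m a` = number of the initial sheets of the family -/
theorem osc_out {E : Type*} [NormedAddCommGroup E] [NormedSpace ℝ E]
    (h : StO L O τ Rel V Qd κ s₀ far₀ Z lam₀ v₀ v₁ hfin kap s far β lam)
    {K' : Q → Set E} {D : Set Q} {gd : Gd E (Nm' fam (Rk κ kap))}
    {P : ∀ q, h.cmb.I q → Set E} {c : ∀ q, h.cmb.I q → E → ℝ} (H : Inv h.cmb K' D gd P c)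
    {S : Set E} (hS : ∃ q, dim q = 1 ∧ K' q = S) (hD : ∀ q, dim q = 1 → K' q = S → q ∈ D) (a : C)
    {y y' : E} (hy : y ∈ S) (hy' : y' ∈ S) :
    |uu h.fin1 gd y a - uu h.fin1 gd y' a| * mm hfin a ≤ nn h.cmb K' (Rk κ kap) S a :=
  osc H h.fin1 (fun a => Rk_pos κ kap a) (fun a => h.mm_eq a) hS hD a hy hy'

end Crest.Agent.R096.Mna_747
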