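import Crest.Agent.R096.SkN1_477
import Crest.Agent.R096.Fl4_835
import Crest.Agent.R096.On1_441
import Crest.Agent.R096.Chs1_879
import Crest.Agent.R096.Mna1_747

/-!
Row 96 (S0127), helper534: `OutNO` from the final data, part 1.

* `loc_glob`  : local Lipschitz bound at every point of a convex set ⟹ global bound;
* `gG_eq_T`   : on parallelogram quads 714's map is 582's `T` of the labels;
* `FinNO`     : the final data of the bottom half which `OutNO` reads;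
* `FinNO.outNO` : `OutNO`.
-/

set_option autoImplicit false
set_option linter.style.longLine false
set_option linter.unusedSectionVars false

open MeasureTheory Set Filter Topology Metric
open scoped ENNReal

namespace Crest.Agent.R096.Mno_534

open Crest.Agent.R096.Bsp_628 Crest.Agent.R096.Brk1_582 Crest.Agent.R096.Brk3_582
open Crest.Agent.R096.Bd_416 Crest.Agent.R096.Mg_441 Crest.Agent.R096.Grd_714
open Crest.Agent.R096.On_441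
open Crest.Agent.R096.Xp_537 (gG)
open Crest.Agent.R096.Msh_715 (Tiling I convex_P isOpen_I I_sub_P)
open Crest.Agent.R096.SkC1_961 (E3 Hom3 FoamD Cfg NN)
open Crest.Agent.R096.SkN1_477

section loc

variable {E F : Type*} [NormedAddCommGroup E] [NormedSpace ℝ E] [NormedAddCommGroup F]

/-- local Lipschitz bound at every point of a convex set ⟹ global bound -/
theorem loc_glob {φ : E → F} {S : Set E} (hS : Convex ℝ S) {C : ℝ} (hC : 0 ≤ C)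
    (h : ∀ x ∈ S, ∀ᶠ y in 𝓝[S] x, ‖φ y - φ x‖ ≤ C * ‖y - x‖) {x y : E} (hx : x ∈ S) (hy : y ∈ S) :
    ‖φ y - φ x‖ ≤ C * ‖y - x‖ := by
  have := Chs_879.lip_of_local (L := C) hC (f := φ) hS (fun z hz => by
    filter_upwards [h z hz] with w hw
    rw [dist_eq_norm, dist_eq_norm]; exact hw) x hx y hy
  rwa [dist_eq_norm, dist_eq_norm] at this

end loc

/-- on parallelogram quads 714's map is 582's `T` of the labels -/
theorem gG_eq_T {F : Set (Bx (Fin 3))} {J : Type} {fam : J → F} {E : Type*}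
    [NormedAddCommGroup E] [NormedSpace ℝ E]
    (hfin : ∀ a, {j | fam j = a}.Finite) (g : Gd E J) {x : E} (hp : Par (uu hfin g x)) :
    gG (Tq (bc (F := F)) (mm hfin)) (merge hfin g) x =
      Brk1_582.T (bc (F := F)) (uu hfin g x) := by
  show Bn (bc (F := F)) (Nm (mm hfin)) (uu hfin g x) = _
  by_cases h : ∃ c1 c2 : F, c1 ≠ c2 ∧ av (uu hfin g x) = {c1, c2}
  · obtain ⟨c1, c2, hne, hav⟩ := h
    rw [Bn_eq (sym_Nm _) hne hav]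
    have h2 := hp c1 c2 hne hav
    rw [h2]
    have : bc (F := F) (insert c1 {c | uu hfin g x c = 0}) +
        bc (F := F) (insert c2 {c | uu hfin g x c = 0}) -
        bc (F := F) (insert c1 {c | uu hfin g x c = 0}) -
        bc (F := F) (insert c2 {c | uu hfin g x c = 0}) = 0 := by abel
    rw [this, smul_zero, add_zero]
  · rw [Bn, dif_neg h]

variable {δ κ0 R c0 : ℝ} {La Om : Set E3} {ι : Type}

/-- **`OutNO` for the structure map `G`** (no tolerances) -/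
structure GNO (p : ℝ) (Cu : Set (Set E3) → ℝ) (e η : ℝ) (Φ : FoamD δ κ0 R c0 La) (T : Tiling Om ι)
    (f : E3 → E3) (Ex : Set ι) (κ : Φ.F → ℕ) (L : Φ.F → Finset ℝ)
    (Ds : Set E3) (B : E3 → E3 ≃ᵃ[ℝ] E3) (μ : ℝ) (a : Fin 2 → ℝ) (G : E3 → E3)
    (u : E3 → Φ.F → ℝ) (n : Set E3 → Φ.F → ℝ) : Prop where
  memK : ∀ i, i ∉ Ex → ∀ x ∈ Msh_715.P (T.H i), u x ∈ K (Pc Φ.F)
  eqT : ∀ i, i ∉ Ex → (∀ z ∈ Msh_715.P (T.H i), Par (u z)) → ∀ x ∈ Msh_715.P (T.H i),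
    G x = Brk1_582.T (bc (F := Φ.F)) (u x)
  zero : ∀ i, i ∉ Ex → ∀ x ∈ Msh_715.P (T.H i), ∀ y ∈ Msh_715.P (T.H i), ∀ c,
    Φ.lev c (f x) = 0 → u y c = 0
  one : ∀ i, i ∉ Ex → ∀ x ∈ Msh_715.P (T.H i), ∀ y ∈ Msh_715.P (T.H i), ∀ c,
    Φ.lev c (f x) = 1 → u y c = 1
  n0 : ∀ x c, 0 ≤ n x c
  cnt : ∀ x ∈ Om, T.dim x = 1 → (∀ i, x ∈ Msh_715.P (T.H i) → i ∉ Ex) → ∀ S : Finset Φ.F,
    ENNReal.ofReal (∑ c ∈ S, n (T.cc x) c * (2 : ℝ)⁻¹ ^ κ c) ≤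
      ∑' c : Φ.F, ENNReal.ofReal ((2 : ℝ)⁻¹ ^ κ c) *
        ∑ t ∈ L c, (({y ∈ T.cc x | Φ.lev c (f y) = t}.encard : ℕ∞) : ℝ≥0∞)
  osc : ∀ x ∈ Om, T.dim x = 1 → (∀ i, x ∈ Msh_715.P (T.H i) → i ∉ Ex) → ∀ c,
    ∀ y ∈ T.cc x, ∀ y' ∈ T.cc x, |u y c - u y' c| * (L c).card ≤ n (T.cc x) c
  lipT : ∀ i, i ∉ Ex → (∀ j ∈ Ex, Disjoint (Msh_715.P (T.H i)) (Msh_715.P (T.H j))) →
    ∀ B' : E3 ≃ᵃ[ℝ] E3, ∀ N : ℝ, 0 ≤ N → NN Φ T f κ L i ≤ ENNReal.ofReal N →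
    (TouchD T Ds i → μ ≤ N) →
    ∀ W w : ℝ, 0 ≤ W → 0 < w → ∀ D : Set E3, (∀ y ∈ D, ∀ y' ∈ D, ‖y - y'‖ ≤ W) →
    (∀ x ∈ Msh_715.P (T.H i), ∀ S : Set Φ.F, {c | u x c = 0} ⊆ S → S ⊆ {c | u x c < 1} →
      bc (F := Φ.F) S ∈ D) →
    (∀ x ∈ Msh_715.P (T.H i), ∀ c, 0 < u x c → u x c < 1 → w ≤ (L c).card * (2 : ℝ)⁻¹ ^ κ c) →
    ∀ x ∈ I (T.H i), ∀ᶠ y in 𝓝 x,
      ‖G y - G x‖ ≤ Cu ((fun K => B' '' K) '' Cfg T i) * (W / w) * N * ‖B' y - B' x‖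
  face : ∀ x ∈ Ds, ∀ (c1 c2 : Φ.F) (σ1 σ2 : ℝ), FaceIn Φ κ L u n η μ a (B x) c1 c2 σ1 σ2 →
    FaceOut p Φ κ L u e μ a (B x) c1 c2 σ1 σ2

/-- from the structure map to the homeomorphism -/
theorem GNO.outNO {p : ℝ} {Cu : Set (Set E3) → ℝ} {e η : ℝ} {Φ : FoamD δ κ0 R c0 La}
    {T : Tiling Om ι} {f : E3 → E3} {Ex : Set ι} {κ : Φ.F → ℕ} {L : Φ.F → Finset ℝ}
    {Ds : Set E3} {B : E3 → E3 ≃ᵃ[ℝ] E3} {μ : ℝ} {a : Fin 2 → ℝ} {G g : E3 → E3}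
    {u : E3 → Φ.F → ℝ} {n : Set E3 → Φ.F → ℝ}
    (h : GNO p Cu e η Φ T f Ex κ L Ds B μ a G u n) {tol : ι → ℝ} (htol : ∀ i, 0 < tol i)
    (cl0 : ∀ i, ∀ x ∈ Msh_715.P (T.H i), ‖g x - G x‖ ≤ tol i)
    (cl1 : ∀ i, ∀ x ∈ Msh_715.P (T.H i), ∀ᶠ y in 𝓝 x,
      ‖(g y - g x) - (G y - G x)‖ ≤ tol i * ‖y - x‖) :
    OutNO p Cu e η Φ T f Ex κ L tol Ds B μ a g u n where
  memK := h.memK
  clo := by
    intro i hi hp x hx y hy
    have e := h.eqT i hi hp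
    refine ⟨by rw [← e x hx]; exact cl0 i x hx, ?_⟩
    rw [← e x hx, ← e y hy]
    refine loc_glob (φ := fun z => g z - G z) (convex_P (T.H i)) (htol i).le ?_ hy hx
    intro z hz
    filter_upwards [nhdsWithin_le_nhds (cl1 i z hz)] with w hw
    have : (g w - G w) - (g z - G z) = (g w - g z) - (G w - G z) := by abel
    rw [this]; exact hw
  zero := h.zero
  one := h.one
  n0 := h.n0
  cnt := h.cnt
  osc := h.osc
  lipT := by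
    intro i hi hiE B' N hN hNN hNμ W w hW hw D hD h1 h2 x hx
    filter_upwards [h.lipT i hi hiE B' N hN hNN hNμ W w hW hw D hD h1 h2 x hx,
      cl1 i x (I_sub_P _ hx)] with y k1 k2
    have e : g y - g x = (G y - G x) + ((g y - g x) - (G y - G x)) := by abel
    rw [e]
    exact (norm_add_le _ _).trans (add_le_add k1 k2)
  face := h.face

/-- **the final data of the bottom half which `GNO` reads.**  `C` = 117's discrete data, `K` the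
cells, `gd` the sheets, `r a` = number of copies of a level of the family `a`, `2^(-κ a) / r a`
the weight of one copy, `G` = the structure map. -/
structure FinNO {Q : Type} [PartialOrder Q] {dim : Q → ℕ} {J : Type}
    (Φ : FoamD δ κ0 R c0 La) (C : Cmb Q dim J Φ.F) (K : Q → Set E3) (gd : Gd E3 J)
    (Pp : ∀ q, C.I q → Set E3) (c : ∀ q, C.I q → E3 → ℝ)
    (hfin : ∀ a, {j | C.fam j = a}.Finite) (T : Tiling Om ι) (f : E3 → E3) (Ex : Set ι)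
    (κ r : Φ.F → ℕ) (L : Φ.F → Finset ℝ) (Ds : Set E3) (μ : ℝ) (Cs : Set (Set E3) → ℝ)
    (G : E3 → E3) : Prop where
  inv : Inv C K univ gd Pp c
  foam : Foam La (Pc Φ.F) (bc (F := Φ.F)) 4
  quads : Quads (Pc Φ.F) (bc (F := Φ.F))
  r_pos : ∀ a, 0 < r a
  mm_eq : ∀ a, mm hfin a = r a * (L a).card
  mm_pos : ∀ a, 0 < mm hfin a
  /-- (K4) for the ordinary tiles, for all base points -/
  tile : ∀ i, i ∉ Ex → ∃ q, K q = Msh_715.P (T.H i) ∧ ∀ x0 ∈ Msh_715.P (T.H i),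
    Crest.Agent.R096.Mg_441.Ex C (Pc Φ.F) q (Mbf_337.sb Φ (Φ.Psi (f x0)))
  /-- the ordinary 1-cells: total weight of the final points ≤ total weight of the initial points -/
  edge : ∀ x ∈ Om, T.dim x = 1 → (∀ i, x ∈ Msh_715.P (T.H i) → i ∉ Ex) →
    (∃ q, dim q = 1 ∧ K q = T.cc x) ∧ ∀ S : Finset Φ.F,
      ENNReal.ofReal (∑ a ∈ S, Mna_747.nn C K r (T.cc x) a * (2 : ℝ)⁻¹ ^ κ a) ≤
      ∑' a : Φ.F, ENNReal.ofReal ((2 : ℝ)⁻¹ ^ κ a) *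
        ∑ t ∈ L a, (({y ∈ T.cc x | Φ.lev a (f y) = t}.encard : ℕ∞) : ℝ≥0∞)
  /-- the Lipschitz bounds of the sheets, in all frames -/
  lipB : ∀ i, i ∉ Ex → (∀ j ∈ Ex, Disjoint (Msh_715.P (T.H i)) (Msh_715.P (T.H j))) →
    ∀ B : E3 ≃ᵃ[ℝ] E3, ∀ N : ℝ, 0 ≤ N → NN Φ T f κ L i ≤ ENNReal.ofReal N →
    (TouchD T Ds i → μ ≤ N) →
    ∀ q, K q = Msh_715.P (T.H i) → ∀ z ∈ I (T.H i), ∀ x : C.I q,
      LB B (Cs ((fun K => B '' K) '' Cfg T i) * N /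
        ((2 : ℝ)⁻¹ ^ κ (C.fam (C.col q x)) / r (C.fam (C.col q x)))) (c q x) (K q) z
  Cs_pos : ∀ 𝒦, 0 < Cs 𝒦
  GT : ∀ i, i ∉ Ex → ∀ x ∈ Msh_715.P (T.H i),
    G x = gG (Tq (bc (F := Φ.F)) (mm hfin)) (merge hfin gd) x

namespace FinNO

variable {Q : Type} [PartialOrder Q] {dim : Q → ℕ} {J : Type}
    {Φ : FoamD δ κ0 R c0 La} {C : Cmb Q dim J Φ.F} {K : Q → Set E3} {gd : Gd E3 J}
    {Pp : ∀ q, C.I q → Set E3} {c : ∀ q, C.I q → E3 → ℝ}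
    {hfin : ∀ a, {j | C.fam j = a}.Finite} {T : Tiling Om ι} {f : E3 → E3} {Ex : Set ι}
    {κ r : Φ.F → ℕ} {L : Φ.F → Finset ℝ} {Ds : Set E3} {μ : ℝ} {Cs : Set (Set E3) → ℝ}
    {G : E3 → E3}

variable (h : FinNO Φ C K gd Pp c hfin T f Ex κ r L Ds μ Cs G)

include h

theorem memK {i : ι} (hi : i ∉ Ex) {x : E3} (hx : x ∈ Msh_715.P (T.H i)) :
    uu hfin gd x ∈ Brk1_582.K (Pc Φ.F) := by
  obtain ⟨q, hq, hy⟩ := h.tile i hi
  have hy' := hy x hx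
  rw [← hq] at hx
  exact uu_memK h.inv hfin h.mm_pos (mem_univ q) hx hy'

theorem zero {i : ι} (hi : i ∉ Ex) {x : E3} (hx : x ∈ Msh_715.P (T.H i)) {y : E3}
    (hy : y ∈ Msh_715.P (T.H i)) {a : Φ.F} (ha : Φ.lev a (f x) = 0) : uu hfin gd y a = 0 := by
  obtain ⟨q, hq, hv⟩ := h.tile i hi
  rw [← hq] at hy
  exact On_441.Ex.uu_zero h.inv hfin (mem_univ q) (hv x hx) ha hy

theorem one {i : ι} (hi : i ∉ Ex) {x : E3} (hx : x ∈ Msh_715.P (T.H i)) {y : E3}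
    (hy : y ∈ Msh_715.P (T.H i)) {a : Φ.F} (ha : Φ.lev a (f x) = 1) : uu hfin gd y a = 1 := by
  obtain ⟨q, hq, hv⟩ := h.tile i hi
  rw [← hq] at hy
  exact On_441.Ex.uu_one h.inv hfin (mem_univ q) (hv x hx) ha (h.mm_pos a) hy

theorem osc {x : E3} (hx : x ∈ Om) (hd : T.dim x = 1)
    (hE : ∀ i, x ∈ Msh_715.P (T.H i) → i ∉ Ex) (a : Φ.F) {y y' : E3} (hy : y ∈ T.cc x)
    (hy' : y' ∈ T.cc x) :
    |uu hfin gd y a - uu hfin gd y' a| * (L a).card ≤ Mna_747.nn C K r (T.cc x) a :=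
  Mna_747.osc h.inv hfin (m := fun a => (L a).card) h.r_pos h.mm_eq (h.edge x hx hd hE).1
    (fun q _ _ => mem_univ q) a hy hy'

theorem lipT {i : ι} (hi : i ∉ Ex) (hiE : ∀ j ∈ Ex, Disjoint (Msh_715.P (T.H i)) (Msh_715.P (T.H j)))
    (B' : E3 ≃ᵃ[ℝ] E3) {N : ℝ} (hN : 0 ≤ N) (hNN : NN Φ T f κ L i ≤ ENNReal.ofReal N)
    (hNμ : TouchD T Ds i → μ ≤ N) {W w : ℝ} (hW : 0 ≤ W) (hw : 0 < w) {D : Set E3} (hD : ∀ y ∈ D, ∀ y' ∈ D, ‖y - y'‖ ≤ W)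
    (h1 : ∀ x ∈ Msh_715.P (T.H i), ∀ S : Set Φ.F, {a | uu hfin gd x a = 0} ⊆ S →
      S ⊆ {a | uu hfin gd x a < 1} → bc (F := Φ.F) S ∈ D)
    (h2 : ∀ x ∈ Msh_715.P (T.H i), ∀ a, 0 < uu hfin gd x a → uu hfin gd x a < 1 →
      w ≤ (L a).card * (2 : ℝ)⁻¹ ^ κ a) {x : E3} (hx : x ∈ I (T.H i)) :
    ∀ᶠ y in 𝓝 x, ‖G y - G x‖ ≤
      2 * Cs ((fun K => B' '' K) '' Cfg T i) * (W / w) * N * ‖B' y - B' x‖ := by
  obtain ⟨q, hq, hy0⟩ := h.tile i hi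
  have hxP : x ∈ Msh_715.P (T.H i) := I_sub_P _ hx
  have hn : 𝓝[K q] x = 𝓝 x := by
    refine nhdsWithin_eq_nhds.2 ?_
    rw [hq]
    exact mem_of_superset ((isOpen_I (T.H i)).mem_nhds hx) (I_sub_P _)
  have hCs := h.Cs_pos ((fun K => B' '' K) '' Cfg T i)
  have key := Fl_835.lipT (C := C) (K := K) (D := univ) (g := gd) (P := Pp) (c := c) h.inv
    (q := q) (mem_univ q) (by rw [hq]; exact convex_P _) hfin (z := x) (by rw [hq]; exact hxP)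
    h.foam h.quads h.mm_pos (hy0 x hxP) (B := fun y => B' y)
    (L := Cs ((fun K => B' '' K) '' Cfg T i) * N) (by positivity)
    (wt := fun a => (2 : ℝ)⁻¹ ^ κ a / r a)
    (fun a => div_pos (by positivity) (by exact_mod_cast h.r_pos a))
    (h.lipB i hi hiE B' N hN hNN hNμ q hq x hx) hW hw hD
    (fun z hz S a1 a2 => h1 z (by rw [← hq]; exact hz) S a1 a2)
    (fun z hz a a1 a2 => by
      have h3 := h2 z (by rw [← hq]; exact hz) a a1 a2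
      have hr : (0 : ℝ) < r a := by exact_mod_cast h.r_pos a
      have hme : ((mm hfin a : ℕ) : ℝ) = r a * ((L a).card : ℝ) := by exact_mod_cast h.mm_eq a
      rw [hme]
      have e : (r a * ((L a).card : ℝ)) * ((2 : ℝ)⁻¹ ^ κ a / r a) = (L a).card * (2 : ℝ)⁻¹ ^ κ a := by
        field_simp
      rw [e]; exact h3)
  rw [hn] at key
  filter_upwards [key, (isOpen_I (T.H i)).mem_nhds hx] with y k1 k3
  have hyP : y ∈ Msh_715.P (T.H i) := I_sub_P _ k3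
  rw [← h.GT i hi y hyP, ← h.GT i hi x hxP, dist_eq_norm] at k1
  exact k1.trans (le_of_eq (by ring))

/-- **`GNO`** (`Cu = 2 Cs`), from the final data and the face rule -/
theorem gno {p e η : ℝ} {B : E3 → E3 ≃ᵃ[ℝ] E3} {a : Fin 2 → ℝ}
    (face : ∀ x ∈ Ds, ∀ (c1 c2 : Φ.F) (σ1 σ2 : ℝ),
      FaceIn Φ κ L (uu hfin gd) (Mna_747.nn C K r) η μ a (B x) c1 c2 σ1 σ2 →
      FaceOut p Φ κ L (uu hfin gd) e μ a (B x) c1 c2 σ1 σ2) :
    GNO p (fun 𝒦 => 2 * Cs 𝒦) e η Φ T f Ex κ L Ds B μ a G (uu hfin gd)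
      (Mna_747.nn C K r) where
  memK := fun _ hi _ hx => h.memK hi hx
  eqT := fun i hi hp x hx => by rw [h.GT i hi x hx, gG_eq_T hfin gd (hp x hx)]
  zero := fun _ hi _ hx _ hy _ ha => h.zero hi hx hy ha
  one := fun _ hi _ hx _ hy _ ha => h.one hi hx hy ha
  n0 := fun x a => Mna_747.nn_nonneg r x a
  cnt := fun x hx hd hE S => (h.edge x hx hd hE).2 S
  osc := fun _ hx hd hE a _ hy _ hy' => h.osc hx hd hE a hy hy'
  lipT := fun _ hi hiE B' _ hN hNN hNμ _ _ hW hw _ hD h1 h2 _ hx =>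
    h.lipT hi hiE B' hN hNN hNμ hW hw hD h1 h2 hx
  face := face

end FinNO

end Crest.Agent.R096.Mno_534
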