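import Crest.Agent.R096.Mno1_534
import Crest.Agent.R096.Mno2_534
import Crest.Agent.R096.Oa3_527

/-!
Row 96 (S0127), helper534.  **`MachGN p`** = the common target of the bottom half for the structure
map `G` (no `g`, no tolerances): `machAll_of : MachGN p → MachAll p` (on 527's OUT-ASM).
-/

set_option autoImplicit false
set_option linter.style.longLine false
set_option linter.unusedVariables false

open MeasureTheory Set Filter Topology Metric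
open scoped ENNReal

namespace Crest.Agent.R096.Mno_534

open Crest.Agent.R096.Brk3_582 Crest.Agent.R096.Brk5_582 Crest.Agent.R096.Bsp_628
open Crest.Agent.R096.Msh_715
open Crest.Agent.R096.SkC1_961 (E3 Hom3 FoamD Cfg NN)
open Crest.Agent.R096.SkN1_477
open Crest.Agent.R096.Mbf_337 (Star Cores Fine Levels Words)
open Crest.Agent.R096.Nr_527 Crest.Agent.R096.Oa_527
open Crest.Agent.R096.Xp_537 (CC Expl)

section GF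

variable {δ κ0 R c0 : ℝ} {La Om : Set E3} {ι : Type}

/-- the metric clauses for the structure map; in `lip` the number `N` is at least `μ` on the tiles
which touch a designated face -/
structure OutGF (C0 : ℝ) (C : Set (Set E3) → ℝ) (e : ℝ)
    (Φ : FoamD δ κ0 R c0 La) (T : Tiling Om ι) (f : E3 → E3) (X : Set Φ.F) (V : Φ.F → Set ι)
    (ct : Φ.F → ι) (A : Φ.F → E3 ≃ᵃ[ℝ] E3) (lam : Φ.F → ℝ) (κ : Φ.F → ℕ) (L : Φ.F → Finset ℝ)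
    (Ds : Set E3) (μ : ℝ) (G : E3 → E3) : Prop where
  lip : ∀ i, (∀ c, i ∉ V c) → ∀ B : E3 ≃ᵃ[ℝ] E3, ∀ N : ℝ, 0 ≤ N →
    NN Φ T f κ L i ≤ ENNReal.ofReal N → (TouchD T Ds i → μ ≤ N) → ∀ x ∈ I (T.H i), ∀ᶠ y in 𝓝 x,
      ‖G y - G x‖ ≤ C ((fun K => B '' K) '' Cfg T i) * N * ‖B y - B x‖
  core : ∀ c ∈ X, (∀ x ∈ I (T.H (ct c)), ∀ᶠ y in 𝓝 x,
      ‖G y - G x‖ ≤ C0 * (1 / lam c * ‖A c y - A c x‖)) ∧
    ∃ W : Set E3, volume (W ∩ P (T.H (ct c))) ≤ ENNReal.ofReal e * volume (P (T.H (ct c))) ∧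
      ∀ x ∈ I (T.H (ct c)), x ∉ W → ∀ᶠ y in 𝓝 x,
        ‖(G y - G x) - (1 / lam c) • (A c y - A c x)‖ ≤ e * (1 / lam c * ‖A c y - A c x‖)

/-- the conclusion of the machine for the structure map -/
structure GOutF (C0 : ℝ) (C : Set (Set E3) → ℝ) (e : ℝ)
    (Φ : FoamD δ κ0 R c0 La) (T : Tiling Om ι) (f : E3 → E3) (X : Set Φ.F) (J0 V : Φ.F → Set ι)
    (ct : Φ.F → ι) (A : Φ.F → E3 ≃ᵃ[ℝ] E3) (lam : Φ.F → ℝ) (κ : Φ.F → ℕ) (L : Φ.F → Finset ℝ)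
    (Ds : Set E3) (μ : ℝ) (G : E3 → E3) : Prop where
  expl : ∃ (Q : Type) (_ : PartialOrder Q) (𝒞 : CC La Q), Nonempty (Expl Om 𝒞 G)
  adj : ∀ x ∈ Om, (∃ c : Φ.F, x ∈ Mbf_337.KJ T (V c) ∧ G x ∈ Pc Φ.F c) ∨
    ∃ i, (∀ c, i ∉ J0 c) ∧ x ∈ P (T.H i) ∧ ∃ x0 ∈ P (T.H i), ∀ a : Φ.F,
      Φ.Psi (f x0) ∈ Pc Φ.F a → G x ∈ Pc Φ.F a
  met : OutGF C0 C e Φ T f X V ct A lam κ L Ds μ G

theorem gOutF_of_gOut {C0 : ℝ} {C : Set (Set E3) → ℝ} {e : ℝ}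
    {Φ : FoamD δ κ0 R c0 La} {T : Tiling Om ι} {f : E3 → E3} {X : Set Φ.F} {J0 V : Φ.F → Set ι}
    {ct : Φ.F → ι} {A : Φ.F → E3 ≃ᵃ[ℝ] E3} {lam : Φ.F → ℝ} {κ : Φ.F → ℕ} {L : Φ.F → Finset ℝ}
    {Ds : Set E3} {μ : ℝ} {G : E3 → E3} (h : GOut C0 C e Φ T f X J0 V ct A lam κ L G) :
    GOutF C0 C e Φ T f X J0 V ct A lam κ L Ds μ G :=
  ⟨h.expl, h.adj, fun i hi B N h0 hN _ => h.met.lip i hi B N h0 hN, h.met.core⟩

end GF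

/-- **the machine for the structure map** -/
def MachGN (p : ℝ) : Prop :=
  ∀ Λ e' : ℝ, 1 ≤ Λ → 0 < e' →
  ∃ η : ℝ, 0 < η ∧ ∃ Cu : Set (Set E3) → ℝ, (∀ 𝒦, 0 < Cu 𝒦) ∧
  ∀ δ κ0 R c0 κ2 κ3 : ℝ, 0 < δ → 1 ≤ κ0 → 1 ≤ R → 0 < c0 → 0 < κ2 → 8 ≤ κ3 →
  ∃ (C0 : ℝ) (C : Set (Set E3) → ℝ), 0 < C0 ∧ (∀ 𝒦, 0 < C 𝒦) ∧ ∀ e : ℝ, 0 < e →
  ∃ κp : ℝ, 0 < κp ∧ ∀ μ : ℝ, 0 < μ → μ ≤ κp → ∃ κ1 : ℝ, 0 < κ1 ∧
  ∀ (Om La : Set E3) (f : E3 → E3), IsOpen Om → Bornology.IsBounded Om → IsConnected Om →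
    IsOpen La → Bornology.IsBounded La → IsConnected La → Hom3 f Om La →
  ∀ (Φ : FoamD δ κ0 R c0 La) (ι : Type) (T : Tiling Om ι) (X : Set Φ.F) (J0 J V : Φ.F → Set ι)
    (ct : Φ.F → ι) (A : Φ.F → E3 ≃ᵃ[ℝ] E3) (lam : Φ.F → ℝ) (z : Φ.F → E3) (θ : Φ.F → E3 → E3)
    (φ : Φ.F → E3 → ℝ) (M : Φ.F → ℕ),
    Star Φ → Cores Φ T f κ1 κ2 X J0 J V ct A lam z θ φ → Fine Φ T f κ1 J0 →
  ∀ (Ds : Set E3) (B : E3 → E3 ≃ᵃ[ℝ] E3) (ν : ℝ) (a : Fin 2 → ℝ),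
    FaceD T (⋃ c, V c) Ds B Λ ν a →
  ∃ (Z : Φ.F → Set ℝ) (m0 : Φ.F → ℕ), (∀ c, volume (Z c) = 0) ∧
  ∀ (κ : Φ.F → ℕ) (L : Φ.F → Finset ℝ), Levels Φ T f κp μ κ3 Z m0 κ L →
    Words Φ T f X ct A lam z M L →
  ∃ (G : E3 → E3) (u : E3 → Φ.F → ℝ) (n : Set E3 → Φ.F → ℝ),
    GOutF C0 C e Φ T f X J0 V ct A lam κ L Ds ν G ∧
    GNO p Cu e' η Φ T f (⋃ c, V c) κ L Ds B ν a G u n

variable {δ κ0 R c0 : ℝ} {La Om : Set E3} {ι : Type} {Φ : FoamD δ κ0 R c0 La}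

/-- 527's `out_of` with the closeness of `g` and `G` -/
theorem out_of' {Q : Type*} [PartialOrder Q] (hOm : IsOpen Om) (hLa : IsOpen La)
    (hne : La.Nonempty) {C : CC La Q} {G f : E3 → E3} (E : Expl Om C G) {T : Tiling Om ι}
    (hf : Hom3 f Om La) (hA : Adj Φ.F Om f G) {X : Set Φ.F} {V : Φ.F → Set ι} {ct : Φ.F → ι}
    (hinj : InjOn ct X) {A : Φ.F → E3 ≃ᵃ[ℝ] E3} {lam : Φ.F → ℝ}
    (hlam : ∀ c ∈ X, 0 < lam c) {κ : Φ.F → ℕ} {L : Φ.F → Finset ℝ} {C0 C0' e e' : ℝ}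
    {Cs : Set (Set E3) → ℝ} (he' : e < e') (hC : C0 + (e' - e) ≤ C0')
    (hC' : 2 + R ≤ C0') {Ds : Set E3} {μ : ℝ} (hG : OutGF C0 Cs e Φ T f X V ct A lam κ L Ds μ G)
    {tol : ι → ℝ} (htol : ∀ i, 0 < tol i) :
    ∃ g : E3 → E3, SkN2_477.OutF C0' Cs e' Φ T f X V ct A lam κ L tol Ds μ g ∧
      (∀ i, ∀ x ∈ P (T.H i), ‖g x - G x‖ ≤ tol i) ∧
      ∀ i, ∀ x ∈ P (T.H i), ∀ᶠ y in 𝓝 x,
        ‖(g y - g x) - (G y - G x)‖ ≤ tol i * ‖y - x‖ := by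
  obtain ⟨tol', t1, t2, t3⟩ := exists_tolc' hinj A lam hlam (sub_pos.2 he') tol htol
  obtain ⟨g, g1, g2, -, g3, g4, g5⟩ := exists_g hOm hLa hne E T hf hA tol' t1
  have hl : ∀ c ∈ X, 0 < 1 / lam c := fun c hc => one_div_pos.2 (hlam c hc)
  refine ⟨g, ⟨g1, g2, fun x hx c hc => (g3 x hx c hc).trans
    (mul_le_mul_of_nonneg_right hC' (Bx.sz_pos (Φ.bf.pos _ c.2)).le), ?_, ?_⟩,
    fun i x hx => (g4 i x hx).trans (t2 i), fun i x hx => ?_⟩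
  · intro i hi B N hN hNN hNμ x hx
    filter_upwards [lip_add (hG.lip i hi B N hN hNN hNμ x hx) (g5 i x (I_sub_P _ hx))] with y hy
    exact hy.trans (by gcongr; exact t2 i)
  · intro c hc
    obtain ⟨h1, W, hW, h2⟩ := hG.core c hc
    refine ⟨fun x hx => ?_, W, hW.trans ?_, fun x hx hxW => ?_⟩
    · filter_upwards [core_add (h1 x hx) (g5 (ct c) x (I_sub_P _ hx)) (t3 c hc)] with y hy
      refine hy.trans (mul_le_mul_of_nonneg_right hC ?_)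
      have := hl c hc
      positivity
    · gcongr
    · filter_upwards [core_add' (h2 x hx hxW) (g5 (ct c) x (I_sub_P _ hx)) (t3 c hc)] with y hy
      simpa using hy
  · filter_upwards [g5 i x hx] with y hy
    exact hy.trans (mul_le_mul_of_nonneg_right (t2 i) (norm_nonneg _))

/-- **from the structure map to the homeomorphism** -/
theorem machAll_of {p : ℝ} (h : MachGN p) : MachAll p := by
  intro Λ e' hΛ he'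
  obtain ⟨η, hη, Cu, hCu, h⟩ := h Λ e' hΛ he'
  refine ⟨η, hη, Cu, hCu, ?_⟩
  intro δ κ0 R c0 κ2 κ3 hδ hκ0 hR hc0 hκ2 hκ3
  obtain ⟨C0, Cs, hC0, hCs, h⟩ := h δ κ0 R c0 κ2 κ3 hδ hκ0 hR hc0 hκ2 hκ3
  refine ⟨max (C0 + 1) (2 + R), Cs, lt_max_of_lt_left (by linarith), hCs, fun e he => ?_⟩
  obtain ⟨κp, hκp, h⟩ := h (max (e / 2) (e - 1)) (lt_max_of_lt_left (half_pos he))
  refine ⟨κp, hκp, fun μ hμ hμp => ?_⟩
  obtain ⟨κ1, hκ1, h⟩ := h μ hμ hμp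
  obtain ⟨κs, hκs, hs⟩ := exists_small (κ0 := κ0) hδ (zero_lt_one.trans_le hR)
    (zero_le_one.trans hκ0) hκ2
  refine ⟨min κ1 κs, lt_min hκ1 hκs, ?_⟩
  intro Om La f hOm hOmb hOmc hLa hLab hLac hf Φ ι T X J0 J V ct A lam z θ φ M hst hcr hF
    Ds B ν a hDs
  obtain ⟨Z, m0, hZ, h⟩ := h Om La f hOm hOmb hOmc hLa hLab hLac hf Φ ι T X J0 J V ct A lam z θ φ M
    hst (cores_mono (min_le_left _ _) hcr) (fine_mono (min_le_left _ _) hF) Ds B ν a hDs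
  refine ⟨Z, m0, hZ, fun κ L hL hW tol htol => ?_⟩
  obtain ⟨G, u, n, ⟨⟨Q, hQ, 𝒞, ⟨hE⟩⟩, hadj, hmet⟩, hgn⟩ := h κ L hL hW
  have hs' : Small δ κ0 R (min κ1 κs) κ2 := hs _ (lt_min hκ1 hκs).le (min_le_right _ _)
  have hA : Adj Φ.F Om f G := adj2 hLa hf hs' hcr hF hadj
  obtain ⟨g, hg, cl0, cl1⟩ := out_of' (C0' := max (C0 + 1) (2 + R)) (e' := e) hOm hLa
    hLac.nonempty hE hf hA (ct_inj hcr) (fun c hc => (hcr.exact_ c hc).lam0)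
    (max_lt (half_lt_self he) (by linarith))
    (by
      refine le_trans ?_ (le_max_left _ _)
      have : e - 1 ≤ max (e / 2) (e - 1) := le_max_right _ _
      linarith) (le_max_right _ _) hmet htol
  exact ⟨g, u, n, hg, hgn.outNO htol cl0 cl1⟩

end Crest.Agent.R096.Mno_534
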