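import Crest.Agent.R096.Num1_689
import Crest.Agent.R096.Mno3_534
import Crest.Agent.R096.Frp1_534

/-!
# R096 (row 96), bottom: NUMBERS, part 2 (helper689)

`machGN_of_data` : the order of the constants of `Mno_534.MachGN` is done here.  What is left is the
statement `DataP p Mn` for given data: all constants are given, with their inequalities (`NumK`,
`NumE`), together with the output of the front half (`FrontOut`); `Mn` is any predicate on the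
constants `Λ e' η β0 ε₁ KN` which are fixed first (`mesh_no` of helper522).
-/

set_option autoImplicit false
set_option linter.unusedSectionVars false
set_option linter.unusedVariables false
set_option linter.style.longLine false

open Set Filter Topology Metric MeasureTheory

namespace Crest.Agent.R096.Num_689

open Crest.Agent.R096.Msh_715 Crest.Agent.R096.Brk1_582 Crest.Agent.R096.Brk3_582
open Crest.Agent.R096.SkC1_961 (E3 Hom3 FoamD Cfg NN)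
open Crest.Agent.R096.SkN1_477 (FaceD)
open Crest.Agent.R096.Mbf_337 (Star Cores Fine Levels Words)
open Crest.Agent.R096.Nr_527 Crest.Agent.R096.Oa_527 Crest.Agent.R096.Mno_534

/-- the inequalities for `κp`, `μ`, `κ1` -/
structure NumE (δ κ0 R κ2 sg κp μ κ1 : ℝ) : Prop where
  κp0 : 0 < κp
  κp64 : κp ≤ 1/64
  /-- `κp ≤ η / 2` for `η = sg / 2` (`exists_nodes_levels`) -/
  κps : κp ≤ sg / 2 / 2
  μ0 : 0 < μ
  μκ : μ ≤ κp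
  κ10 : 0 < κ1
  small : Small δ κ0 R κ1 κ2

/-- **what is left for given data.**  Order: `Λ e' η β0 ε₁ KN`, foam constants, `e κb κf sg bt`, `κp μ`,
then (free choice) a bound `κs` of `κ1`, the data, then (free choice) `Z' m0'`, the levels and the
output of the front half. -/
def DataP (p : ℝ) (Mn : ℝ → ℝ → ℝ → ℝ → ℝ → ℝ → Prop) : Prop :=
  ∀ Λ e' η β0 ε₁ KN : ℝ, 1 ≤ Λ → 0 < e' → 0 < η → 1/4 ≤ β0 → β0 < 1/2 → 0 < ε₁ → ε₁ < 1 → 0 ≤ KN →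
    Mn Λ e' η β0 ε₁ KN →
  ∀ δ κ0 R c0 κ2 κ3 : ℝ, 0 < δ → 1 ≤ κ0 → 1 ≤ R → 0 < c0 → 0 < κ2 → 8 ≤ κ3 →
  ∀ (e κb κf sg : ℝ) (bt : ℕ → ℝ), 0 < e → NumK β0 e κb κf sg bt →
  ∀ κp μ : ℝ, 0 < κp → κp ≤ 1/64 → κp ≤ sg / 2 / 2 → 0 < μ → μ ≤ κp →
  ∃ κs : ℝ, 0 < κs ∧ ∀ κ1 : ℝ, 0 < κ1 → κ1 ≤ κs → NumE δ κ0 R κ2 sg κp μ κ1 →
  ∀ (Om La : Set E3) (f : E3 → E3), IsOpen Om → Bornology.IsBounded Om → IsConnected Om →
    IsOpen La → Bornology.IsBounded La → IsConnected La → Hom3 f Om La →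
  ∀ (Φ : FoamD δ κ0 R c0 La) (ι : Type) (T : Tiling Om ι) (X : Set Φ.F) (J0 J V : Φ.F → Set ι)
    (ct : Φ.F → ι) (A : Φ.F → E3 ≃ᵃ[ℝ] E3) (lam : Φ.F → ℝ) (z : Φ.F → E3) (θ : Φ.F → E3 → E3)
    (φ : Φ.F → E3 → ℝ) (M : Φ.F → ℕ),
    Star Φ → Cores Φ T f κ1 κ2 X J0 J V ct A lam z θ φ → Fine Φ T f κ1 J0 →
  ∀ (Ds : Set E3) (B : E3 → E3 ≃ᵃ[ℝ] E3) (ν : ℝ) (a : Fin 2 → ℝ),
    FaceD T (⋃ c, V c) Ds B Λ ν a →
  ∃ (Z' : Φ.F → Set ℝ) (m0' : Φ.F → ℕ), (∀ c, volume (Z' c) = 0) ∧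
  ∀ (Z : Φ.F → Set ℝ) (m0 : Φ.F → ℕ), (∀ c, Z' c ⊆ Z c) → (∀ c, m0' c ≤ m0 c) →
    (∀ c b : Φ.F, (Pc Φ.F b ∩ Pc Φ.F c).Nonempty → M c ≤ m0 b ∧ 4 / (sg / 2) ≤ m0 b) →
  ∀ (κ : Φ.F → ℕ) (L : Φ.F → Finset ℝ), Levels Φ T f κp μ κ3 Z m0 κ L →
    Words Φ T f X ct A lam z M L → FrontOut Φ T f X J0 J V ct L →
  ∃ (G : E3 → E3) (u : E3 → Φ.F → ℝ) (n : Set E3 → Φ.F → ℝ),
    GOutF (C0n δ κ0 R) (Csn KN ε₁ δ R κ3) e Φ T f X J0 V ct A lam κ L Ds ν G ∧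
    GNO p (Cun KN ε₁) e' η Φ T f (⋃ c, V c) κ L Ds B ν a G u n

/-- **THE ORDER OF THE CONSTANTS** -/
theorem machGN_of_data {p : ℝ} (hF : FrontP) {Mn : ℝ → ℝ → ℝ → ℝ → ℝ → ℝ → Prop}
    (hM : ∀ Λ e' : ℝ, 1 ≤ Λ → 0 < e' → ∃ η β0 ε₁ KN : ℝ, 0 < η ∧ 1/4 ≤ β0 ∧ β0 < 1/2 ∧ 0 < ε₁ ∧
      ε₁ < 1 ∧ 0 ≤ KN ∧ Mn Λ e' η β0 ε₁ KN)
    (hD : DataP p Mn) : MachGN p := by
  intro Λ e' hΛ he'
  obtain ⟨η, β0, ε₁, KN, hη, hβ0, hβ0', hε0, hε1, hKN, hMn⟩ := hM Λ e' hΛ he'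
  refine ⟨η, hη, Cun KN ε₁, Cun_pos hKN, ?_⟩
  intro δ κ0 R c0 κ2 κ3 hδ hκ0 hR hc0 hκ2 hκ3
  refine ⟨C0n δ κ0 R, Csn KN ε₁ δ R κ3, C0n_pos δ κ0 R,
    Csn_pos hKN (by linarith) (by linarith), fun e he => ?_⟩
  obtain ⟨κb, κf, sg, bt, hK⟩ := exists_numK (e := e) hβ0' he
  have hsg := hK.sg0
  refine ⟨min (1/64) (sg / 2 / 2), lt_min (by norm_num) (by positivity), fun μ hμ hμp => ?_⟩
  set κp : ℝ := min (1/64) (sg / 2 / 2) with hκp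
  have p0 : 0 < κp := lt_min (by norm_num) (by positivity)
  have p1 : κp ≤ 1/64 := min_le_left _ _
  have p2 : κp ≤ sg / 2 / 2 := min_le_right _ _
  obtain ⟨κa, hκa, hFr⟩ := hF δ κ0 R c0 κ2 κ3 hδ hκ0 hR hc0 hκ2 hκ3 κp p0
    (p1.trans (by norm_num)) μ hμ hμp
  obtain ⟨κs, hκs, hDa⟩ := hD Λ e' η β0 ε₁ KN hΛ he' hη hβ0 hβ0' hε0 hε1 hKN hMn
    δ κ0 R c0 κ2 κ3 hδ hκ0 hR hc0 hκ2 hκ3 e κb κf sg bt he hK κp μ p0 p1 p2 hμ hμp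
  obtain ⟨κc, hκc, hsm⟩ := exists_small (κ0 := κ0) hδ (zero_lt_one.trans_le hR)
    (zero_le_one.trans hκ0) hκ2
  set κ1 : ℝ := min κa (min κs κc) with hκ1
  have q0 : 0 < κ1 := lt_min hκa (lt_min hκs hκc)
  have q1 : κ1 ≤ κa := min_le_left _ _
  have q2 : κ1 ≤ κs := (min_le_right _ _).trans (min_le_left _ _)
  have q3 : κ1 ≤ κc := (min_le_right _ _).trans (min_le_right _ _)
  refine ⟨κ1, q0, ?_⟩
  intro Om La f hOm hOmb hOmc hLa hLab hLac hf Φ ι T X J0 J V ct A lam z θ φ M hst hcr hfi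
    Ds B ν a hDs
  obtain ⟨Z1, m1, hZ1, h1⟩ := hFr Om La f hOm hOmb hOmc hLa hLab hLac hf Φ ι T X J0 J V ct A lam
    z θ φ M hst (cores_mono q1 hcr) (fine_mono q1 hfi)
  obtain ⟨Z2, m2, hZ2, h2⟩ := hDa κ1 q0 q2 ⟨p0, p1, p2, hμ, hμp, q0, hsm κ1 q0.le q3⟩
    Om La f hOm hOmb hOmc hLa hLab hLac hf Φ ι T X J0 J V ct A lam z θ φ M hst hcr hfi
    Ds B ν a hDs
  obtain ⟨m3, hm3⟩ := Nod_714.exists_m0 hLa Φ M (sg / 2)
  refine ⟨fun c => Z1 c ∪ Z2 c, fun c => max (m1 c) (max (m2 c) (m3 c)),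
    fun c => measure_union_null (hZ1 c) (hZ2 c), fun κ L hL hW => ?_⟩
  have hfr : FrontOut Φ T f X J0 J V ct L := h1 κ L
    (levels_mono hL le_rfl le_rfl (fun c => subset_union_left) fun c => le_max_left _ _) hW
  refine h2 (fun c => Z1 c ∪ Z2 c) (fun c => max (m1 c) (max (m2 c) (m3 c)))
    (fun c => subset_union_right) (fun c => (le_max_left _ _).trans (le_max_right _ _))
    (fun c b hcb => ?_) κ L hL hW hfr
  obtain ⟨k1, k2⟩ := hm3 c b hcb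
  have k3 : m3 b ≤ max (m1 b) (max (m2 b) (m3 b)) := (le_max_right _ _).trans (le_max_right _ _)
  exact ⟨k1.trans k3, k2.trans (by exact_mod_cast k3)⟩

end Crest.Agent.R096.Num_689
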