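import Crest.Agent.R096.Mxo3_487
import Crest.Agent.R096.Num2_689
import Crest.Agent.R096.Mi7_117

/-!
# R096 (row 96), MachNO (helper534): the mixed mesh over `Lp` as one literal Prop

`MeshLp p Λ e η β0 ε₁ KN` : the mixed mesh over the cells outside all cores, with the face clause.
-/

set_option autoImplicit false
set_option linter.unusedSectionVars false
set_option linter.unusedVariables false
set_option linter.style.longLine false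

open Set Metric Filter Topology Module

namespace Crest.Agent.R096.Mno_534

open Crest.Agent.R096.Brk1_582 Crest.Agent.R096.Brk2_582 Crest.Agent.R096.Brk3_582
open Crest.Agent.R096.Brk5_582 Crest.Agent.R096.Bsp_628
open Crest.Agent.R096.Bd_416 Crest.Agent.R096.Grd_714 Crest.Agent.R096.Mg_441
open Crest.Agent.R096.St_147 Crest.Agent.R096.Seq_213 Crest.Agent.R096.Seq_213.GSt
open Crest.Agent.R096.Lm_117 Crest.Agent.R096.Ac_117 Crest.Agent.R096.Msh_715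
open Crest.Agent.R096.Cp_298 Crest.Agent.R096.Gm_298 Crest.Agent.R096.Gl_422
open Crest.Agent.R096.SkB_662 Crest.Agent.R096.Cpo_642
open Crest.Agent.R096.Agl5_543 Crest.Agent.R096.Ori_543
open Crest.Agent.R096.Init_543 (JJ fr3)
open Crest.Agent.R096.Ce_537 (PLEquiv IsBall Cplx)
open Crest.Agent.R096.SkC1_961 (E3 Hom3 FoamD Cfg th NN)
open Crest.Agent.R096.SkN1_477
open Crest.Agent.R096.Mbf_337 (KJ sb)
open Crest.Agent.R096.Frn_337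
open Crest.Agent.R096.On_441
open Crest.Agent.R096.Csub_487
open Crest.Agent.R096.Fl_835 (wk)
open Crest.Agent.R96.Nu7_199 (WE)
open Crest.Agent.R096.Mi_117
open Crest.Agent.R096.Be_416 (BaseC Kbase wts)
open Crest.Agent.R096.Fin_147 (Xout)

/-- **the mixed mesh over `Lp`** (what `mesh_no` gives for the seam) -/
def MeshLp (p Λ e η β0 ε₁ KN : ℝ) : Prop :=
  ∀ {δ κ0 R c0 κ1 κ2 : ℝ} {La Om : Set E3} {ι : Type} {Φ : FoamD δ κ0 R c0 La}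
    {T : Tiling Om ι} {f : E3 → E3} {X : Set Φ.F} {J0 Jt V : Φ.F → Set ι} {ct : Φ.F → ι}
    {A : Φ.F → E3 ≃ᵃ[ℝ] E3} {lmc : Φ.F → ℝ} {z : Φ.F → E3} {θ : Φ.F → E3 → E3}
    {φ : Φ.F → E3 → ℝ}
    {ι3 : Type} {T3 : Tiling Om ι3} {KK : Ti X → Set E3} {c3 : ι → ι3} [Nonempty T3.Cell]
    {hH : ∀ k, CoreH T3 (KK k)} {hdis : ∀ k k', k ≠ k' → Disjoint (KK k) (KK k')}
    {hne : ∃ c, OutK T3 KK c}
    {Lv : Φ.F → Finset ℝ} {Qd : Quads (ι3 ⊕ Ti X) Φ.F (Init_543.QK (Pc Φ.F))}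
    {s₀ : GSt (mK fr3 hH hdis) (fun j : JJ Φ Lv => j.1)} {far₀ : JJ Φ Lv → Set E3}
    {Zc : Φ.F → Set (QK (belK T3 KK))}
    {lam₀ : JJ Φ Lv → QK (belK T3 KK) → ZMod 2} {v₀ v₁ : Φ.F → QK (belK T3 KK)}
    {κ : Φ.F → ℕ} {hfin : ∀ a, {j : JJ Φ Lv | j.1 = a}.Finite} {kap : Φ.F → ℕ}
    {s : GSt (mK fr3 hH hdis) (fam' (fun j : JJ Φ Lv => j.1) (Rk κ kap))}
    {far : Nm' (fun j : JJ Φ Lv => j.1) (Rk κ kap) → Set E3} {β : E3 → E3}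
    {lm : Nm' (fun j : JJ Φ Lv => j.1) (Rk κ kap) →
      {c : QK (belK T3 KK) // pO T3 KK c3 ct c} → ZMod 2},
  Mbf_337.Cores Φ T f κ1 κ2 X J0 Jt V ct A lmc z θ φ → Lay Φ T X J0 Jt T3 KK c3 →
  ∀ (h : StO (Lp c3 ct hH hdis hne) (oriK fr3 hH hdis) (fun c => tauK T3 KK c.1) (RelM T3)
      (lmK fr3 hH hdis hne).W1 Qd κ s₀ far₀ (fun c => {v | v.1 ∈ Zc c})
      (fun j v => lam₀ j v.1) (fun c => sv (pO T3 KK c3 ct) (pO_ne hne) (v₀ c))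
      (fun c => sv (pO T3 KK c3 ct) (pO_ne hne) (v₁ c)) hfin kap s far β lm)
    {Ω' : Set E3} (Xc : Cplx Ω' {c : QK (belK T3 KK) // pO T3 KK c3 ct c}
      (fun c => dimK (belK T3 KK) (fun c => c.1.dim) c.1) (fun c => setK T3 KK c.1))
    {b : ℕ → ℝ}, (∀ n, β0 ≤ b n) → (∀ n, b n < 1/2) →
  ∀ {Kb : ℝ}, 0 ≤ Kb → ∀ {Rb : Set {c : QK (belK T3 KK) // pO T3 KK c3 ct c}},
    (∀ q ∈ Rb, ∃ c ∈ X, setK T3 KK q.1 ⊆ P (T.H (ct c))) →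
  ∀ {g0 : Gd E3 (Nm' (fun j : JJ Φ Lv => j.1) (Rk κ kap))} {P0 : ∀ q, h.cmb.I q → Set E3}
    {cc0 : ∀ q, h.cmb.I q → E3 → ℝ},
    BaseC h.cmb (fun c => setK T3 KK c.1) (wts κ kap (fun j : JJ Φ Lv => j.1)) Kb Rb g0 P0 cc0 →
  ∀ (Ds : Set E3) (B : E3 → E3 ≃ᵃ[ℝ] E3) (ν : ℝ) (a : Fin 2 → ℝ),
    FaceD T (⋃ c, V c) Ds B Λ ν a →
  ∃ δt : {c : QK (belK T3 KK) // pO T3 KK c3 ct c} → ℝ, (∀ q, 0 < δt q) ∧
    (∀ q, 0 < WE Xc h.cmb (wk κ kap (fun j : JJ Φ Lv => j.1)) q →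
      ∀ σ ≤ q, δt σ ≤ WE Xc h.cmb (wk κ kap (fun j : JJ Φ Lv => j.1)) q) ∧
    ∃ (Gf : Gd E3 (Nm' (fun j : JJ Φ Lv => j.1) (Rk κ kap))) (Pp : ∀ q, h.cmb.I q → Set E3)
      (cc : ∀ q, h.cmb.I q → E3 → ℝ),
      Inv h.cmb (fun c => setK T3 KK c.1) univ Gf Pp cc ∧
      MGeo h.lfs (Lf lm) (xlf h.lab.lab) (fun c => setK T3 KK c.1) Rb cc ∧
      (∃ (g1 : Gd E3 (Nm' (fun j : JJ Φ Lv => j.1) (Rk κ kap)))
        (P1 : ∀ q, h.cmb.I q → Set E3) (cc1 : ∀ q, h.cmb.I q → E3 → ℝ)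
        (SpecX : ∀ q : {c : QK (belK T3 KK) // pO T3 KK c3 ct c},
          Bd_416.Lam (setK T3 KK q.1) (h.cmb.I q) → Prop),
        ∀ q, TrkX (h := h.lfs) (Lam := Lf lm) (hLam := xlf h.lab.lab) Xc Rb g1 P1 cc1 SpecX
          (K0x Rb Kb KN) δt ε₁ b (wk κ kap (fun j : JJ Φ Lv => j.1)) 4 Gf Pp cc q) ∧
      (∀ q ∈ Rb, ∀ x ∈ setK T3 KK q.1, EqAt (sqs g0 b 4) Gf x) ∧
      ∀ x ∈ Ds, ∀ c1 c2 : Φ.F, ∀ σ1 σ2,
        FaceIn Φ κ Lv (uu h.fin1 Gf)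
          (Mna_747.nn h.cmb (fun c => setK T3 KK c.1) (Rk κ kap)) η ν a (B x) c1 c2 σ1 σ2 →
        FaceOut p Φ κ Lv (uu h.fin1 Gf) e ν a (B x) c1 c2 σ1 σ2

end Crest.Agent.R096.Mno_534
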