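import Crest.Agent.R096.Mch1_337

/-!
# R096 (row 96), bottom (helper337): `FrontP → MachG → MachBF`
-/

set_option autoImplicit false
set_option linter.unusedSectionVars false
set_option linter.unusedVariables false
set_option linter.style.longLine false

open Set Filter Topology Metric Module MeasureTheory

namespace Crest.Agent.R096.Mch_337

open Crest.Agent.R096.Bsp_628 Crest.Agent.R096.Brk1_582 Crest.Agent.R096.Brk3_582
open Crest.Agent.R096.Brk5_582 Crest.Agent.R096.Msh_715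
open Crest.Agent.R096.SkC1_961 (E3 Hom3 FoamD Cfg th NN)
open Crest.Agent.R096.Nr_527 Crest.Agent.R096.Oa_527
open Crest.Agent.R096.Mbf_337 (KJ sb Star Cores Fine Levels Words)
open Crest.Agent.R096.Mno_534 (FrontP FrontOut levels_mono)

/-- **THE STRUCTURE MAP OF THE MACHINE** from the front half -/
theorem machG_of (hFP : FrontP) : MachG := by
  intro δ κ0 R c0 κ2 κ3 hδ hκ0 hR hc0 hκ2 hκ3
  have hR0 : 0 < R := zero_lt_one.trans_le hR
  have hS0 : 1 ≤ Rpk_714.Spk δ κ0 R := by unfold Rpk_714.Spk; exact le_max_left _ _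
  have hCU : ∀ 𝒦, 0 ≤ Csub_487.CU (E := E3) (Mi_117.KbR δ R) 3 𝒦 := fun 𝒦 =>
    Csub_487.CU_nonneg (Mi_117.KbR_nonneg hδ hR0) 3 𝒦
  refine ⟨Rpk_714.Spk δ κ0 R + 1, fun 𝒦 => 2 * R * κ3 * (2 * Csub_487.CU (Mi_117.KbR δ R) 3 𝒦) + 1,
    by linarith, fun 𝒦 => ?_, fun e he => ?_⟩
  · have := hCU 𝒦
    positivity
  obtain ⟨κb, β, sg, hb1, hb2, -, hβ1, hβ2, hs1, hs2, hs3, hκf⟩ :=
    Crb_609.exists_kap (e := e) (β0 := 1/4) he (by norm_num)
  obtain ⟨k1, k2, k3, k4⟩ := hκf _ rfl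
  refine ⟨sg / 4, by positivity, fun μ hμ hμp => ?_⟩
  obtain ⟨κF, hκF, hFr⟩ := hFP δ κ0 R c0 κ2 κ3 hδ hκ0 hR hc0 hκ2 hκ3 (sg / 4) (by positivity)
    (by linarith) μ hμ hμp
  obtain ⟨κs, hκs, hs⟩ := exists_small (κ0 := κ0) hδ hR0 (zero_le_one.trans hκ0) hκ2
  refine ⟨min κF κs, lt_min hκF hκs, ?_⟩
  intro Om La f hOm hOmb hOmc hLa hLab hLac hf Φ ι T X J0 J V ct A lam z θ φ M hst hcr hF
  obtain ⟨Z, m1, hZ, h⟩ := hFr Om La f hOm hOmb hOmc hLa hLab hLac hf Φ ι T X J0 J V ct A lam z θ φ M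
    hst (cores_mono (min_le_left _ _) hcr) (fine_mono (min_le_left _ _) hF)
  obtain ⟨m2, hm2⟩ := Nod_714.exists_m0 hLa Φ M (sg / 2)
  refine ⟨Z, fun a => max (m1 a) (m2 a), hZ, fun κ L hL hW => ?_⟩
  obtain ⟨ι3, T3, KK, c3, hne3, hH, hdis, hne, Qd, s₀, far₀, Gc, Zc, lam₀, v₀, v₁, hLay, hFront⟩ :=
    h κ L (levels_mono hL le_rfl le_rfl (fun _ => subset_rfl) fun _ => le_max_left _ _) hW
  exact back hOm hLa hf hδ hR0 (by linarith) (hs _ (lt_min hκF hκs).le (min_le_right _ _)) hcr hF hL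
    hW hμ (by positivity) hLay hFront ⟨hb1, hb2⟩ ⟨hβ1, hβ2⟩ ⟨hs1, hs2⟩ hs3 rfl ⟨k1, k2⟩ k3 k4 le_rfl
    (fun c hc a ha => by
      obtain ⟨q1, q2⟩ := hm2 c a ha
      refine ⟨q1.trans (le_max_right _ _), ?_⟩
      have e1 : 8 / sg = 4 / (sg / 2) := by field_simp; norm_num
      rw [e1]
      exact q2.trans (by exact_mod_cast le_max_right _ _))
    (by linarith) (fun 𝒦 => by linarith)

/-- **`MachBF` from the front half** -/
theorem machBF_of_front (hFP : FrontP) : Mbf_337.MachBF := machBF_of (machG_of hFP)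

end Crest.Agent.R096.Mch_337
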