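import Crest.Agent.R096.Mch1_534
import Crest.Agent.R096.Fin10_147
import Crest.Agent.R096.Crb4_609

/-!
# R096 (row 96), MachNO (helper534): the composition for given data

`data_out` : `Lay` + `Front` + `MeshLp` (+ numbers) ⟹ `GOutF` and `GNO` for one structure map;
`dataP` : 689's `DataP p (MeshLp p)`.
-/

set_option autoImplicit false
set_option linter.unusedSectionVars false
set_option linter.unusedVariables false
set_option linter.style.longLine false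

open Set Metric Filter Topology Module MeasureTheory

namespace Crest.Agent.R096.Mno_534

open Crest.Agent.R096.Brk1_582 Crest.Agent.R096.Brk2_582 Crest.Agent.R096.Brk3_582
open Crest.Agent.R096.Brk5_582 Crest.Agent.R096.Bsp_628
open Crest.Agent.R096.Bd_416 Crest.Agent.R096.Grd_714 Crest.Agent.R096.Mg_441
open Crest.Agent.R096.St_147 Crest.Agent.R096.Seq_213 Crest.Agent.R096.Seq_213.GSt
open Crest.Agent.R096.Lm_117 Crest.Agent.R096.Ac_117 Crest.Agent.R096.Msh_715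
open Crest.Agent.R096.Cp_298 Crest.Agent.R096.Gm_298 Crest.Agent.R096.Gl_422
open Crest.Agent.R096.SkB_662 Crest.Agent.R096.Cpo_642
open Crest.Agent.R096.Agl5_543 Crest.Agent.R096.Ori_543
open Crest.Agent.R096.Init_543 (JJ fr3)
open Crest.Agent.R096.Ce_537 (PLEquiv IsBall Cplx)
open Crest.Agent.R096.SkC1_961 (E3 Hom3 FoamD Cfg th NN)
open Crest.Agent.R096.SkN1_477
open Crest.Agent.R096.Mbf_337 (KJ sb)
open Crest.Agent.R096.Frn_337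
open Crest.Agent.R096.On_441
open Crest.Agent.R096.Csub_487
open Crest.Agent.R096.Fl_835 (wk)
open Crest.Agent.R96.Nu7_199 (WE)
open Crest.Agent.R096.Mi_117
open Crest.Agent.R096.Be_416 (BaseC Kbase wts)
open Crest.Agent.R096.Fin_147 (Xout)
open Crest.Agent.R096.Ecm_446 (CoresR gbR chR Dk nr Nod NNt exists_dk dk_sub_frontier base_R)
open Crest.Agent.R096.Num_689
open Crest.Agent.R096.Xp_537 (gG)

variable {δ κ0 R c0 : ℝ} {La Om : Set E3} {ι : Type} {Φ : FoamD δ κ0 R c0 La} {T : Tiling Om ι}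
  {f : E3 → E3} {κ1 κ2 : ℝ} {X : Set Φ.F} {J0 J V : Φ.F → Set ι} {ct : Φ.F → ι}
  {A : Φ.F → E3 ≃ᵃ[ℝ] E3} {lam : Φ.F → ℝ} {z : Φ.F → E3} {θ : Φ.F → E3 → E3} {φ : Φ.F → E3 → ℝ}
  {M : Φ.F → ℕ}

open scoped Classical in
set_option maxHeartbeats 2000000 in
/-- **the composition for given data** -/
theorem data_out {p Λ e' η β0 ε₁ KN : ℝ} (hε1 : ε₁ < 1) (hKN : 0 ≤ KN)
    (hMn : MeshLp p Λ e' η β0 ε₁ KN)
    (hδ : 0 < δ) (hR : 1 ≤ R) {κ3 : ℝ} (hκ3 : 8 ≤ κ3)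
    {e κb κf sg : ℝ} {bt : ℕ → ℝ} (hK : NumK β0 e κb κf sg bt)
    {κp μ : ℝ} (hE : NumE δ κ0 R κ2 sg κp μ κ1)
    (hOm : IsOpen Om) (hLa : IsOpen La) (hf : Hom3 f Om La)
    (hC : Mbf_337.Cores Φ T f κ1 κ2 X J0 J V ct A lam z θ φ) (hFi : Mbf_337.Fine Φ T f κ1 J0)
    {Ds : Set E3} {B : E3 → E3 ≃ᵃ[ℝ] E3} {ν : ℝ} {a : Fin 2 → ℝ}
    (hDs : FaceD T (⋃ c, V c) Ds B Λ ν a)
    {Z : Φ.F → Set ℝ} {m0 : Φ.F → ℕ}
    (hm0 : ∀ c b : Φ.F, (Pc Φ.F b ∩ Pc Φ.F c).Nonempty → M c ≤ m0 b ∧ 4 / (sg / 2) ≤ m0 b)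
    {κ : Φ.F → ℕ} {L : Φ.F → Finset ℝ} (hLv : Mbf_337.Levels Φ T f κp μ κ3 Z m0 κ L)
    (hW : Mbf_337.Words Φ T f X ct A lam z M L)
    {ι3 : Type} {T3 : Tiling Om ι3} {KK : Ti X → Set E3} {c3 : ι → ι3} [Nonempty T3.Cell]
    {hH : ∀ k, CoreH T3 (KK k)} {hdis : ∀ k k', k ≠ k' → Disjoint (KK k) (KK k')}
    {hne : ∃ c, OutK T3 KK c}
    {Qd : Quads (ι3 ⊕ Ti X) Φ.F (Init_543.QK (Pc Φ.F))}
    {s₀ : GSt (mK fr3 hH hdis) (fun j : JJ Φ L => j.1)} {far₀ : JJ Φ L → Set E3}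
    {Gc : Φ.F → Set E3} {Zc : Φ.F → Set (QK (belK T3 KK))}
    {lam₀ : JJ Φ L → QK (belK T3 KK) → ZMod 2} {v₀ v₁ : Φ.F → QK (belK T3 KK)}
    (hL : Lay Φ T X J0 J T3 KK c3)
    (hF : Front T f J0 J V ct c3 hH hdis hne Qd s₀ far₀ Gc Zc lam₀ v₀ v₁) :
    ∃ (G : E3 → E3) (u : E3 → Φ.F → ℝ) (n : Set E3 → Φ.F → ℝ),
      GOutF (C0n δ κ0 R) (Csn KN ε₁ δ R κ3) e Φ T f X J0 V ct A lam κ L Ds ν G ∧
      GNO p (Cun KN ε₁) e' η Φ T f (⋃ c, V c) κ L Ds B ν a G u n := by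
  have hR0 : 0 < R := zero_lt_one.trans_le hR
  -- the final state
  obtain ⟨kap, s, far, β, lm, hO⟩ := exists_out (hF.stI hLv.lf)
  have hnp : ∀ c : Φ.F, (Pc Φ.F c).Nonempty := fun c => Fin_147.ne_Pc c
  have hm : ∀ a, 0 < mm (fin_copies (Rk κ kap) (jj_finite L)) a :=
    Fin_147.mm_pos_final hO hLv _
  -- the exact cores
  obtain ⟨nd, HR, hNO⟩ := Onb_63.Front.coresR_nodeOK hLa hL hC hW hLv hE.μ0 hF (jj_finite L) kap
    hK.kb0 (by linarith [hK.kb2]) hE.κp0.le hK.sg0 hK.sglt (by linarith [hE.κps])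
    (fun c hc b hb => ⟨(hm0 c b hb).1, by
      have h1 := (hm0 c b hb).2
      have h2 : 4 / (sg / 2) = 8 / sg := by
        have := hK.sg0.ne'
        field_simp
        norm_num
      rwa [h2] at h1⟩)
  have hKs : (fun q : {c : QK (belK T3 KK) // pO T3 KK c3 ct c} => setK T3 KK q.1) =
      fun q => (celK T3 KK (tlX X c3 ct) q).set := funext fun q => celK_set _ q
  have hI := cellIx_p (T3 := T3) (KK := KK) (c3 := c3) (ct := ct)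
  have hXc := Mfr_487.Xc_Lp hC hL
  obtain ⟨g0, P0, c00, hB, hE0⟩ := base_R (hF.stI hLv.lf) hO hLa hδ hR0 onT_p (hKs ▸ hXc)
    (fun q => by
      have h1 := hI.bd q
      rw [hKs] at h1
      rw [h1]; exact congrArg (fun S : Set E3 => S \ R96.Nu3_199.ri S) (celK_set _ q)) hnp hm
    (fun j => (Onb_63.lv_mem hLv hE.μ0 j).2) ⟨hK.kb0, hK.kb.2⟩ (fun a => .top a) HR
  rw [← hKs] at hB
  have hB' := hB.of_Kbase hδ hR0 hK.kb2 (fun j => by positivity)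
  set Rb : Set {c : QK (belK T3 KK) // pO T3 KK c3 ct c} :=
    ⋃ c : X, Dk (c3 (ct c)) (celK T3 KK (tlX X c3 ct)) with hRbdef
  have hRb : ∀ q ∈ Rb, ∃ c ∈ X, setK T3 KK q.1 ⊆ P (T.H (ct c)) := by
    intro q hq
    obtain ⟨c, hc⟩ := mem_iUnion.1 hq
    refine ⟨c, c.2, ?_⟩
    have h1 : setK T3 KK q.1 = (celK T3 KK (tlX X c3 ct) q).set := celK_set _ q
    rw [h1, ← Lay.keepX hL hC c.2]
    exact hc.1
  have hRb2 : ∀ q ∈ Rb, dimK (belK T3 KK) (fun c => c.1.dim) q.1 ≤ 2 := by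
    intro q hq
    obtain ⟨c, hc⟩ := mem_iUnion.1 hq
    have h1 := hI.dim_eq q
    rw [h1]
    exact hc.2
  -- the mesh
  obtain ⟨δt, hδt, hδt2, Gf, Pp, cc, H, MG, ⟨g1, P1, cc1, SpecX, hT⟩, hEq, hFace⟩ :=
    hMn hC hL hO hXc hK.bβ hK.b2 (K1n_nonneg hδ hR0) hRb hB' Ds B ν a hDs
  have tile := Mxo_487.tile_clauseX (V := V) hO hXc Mfr_487.cellIx_Lp Mfr_487.onT_Lp hK.b4 le_rfl hε1
    (K1n_nonneg hδ hR0) hKN hδt hδt2 hT (Mfr_487.hord_Lp hC hL)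
  -- the cores
  have hfr : ∀ c : X, frontier (P (T3.H (c3 (ct c)))) = frontier (Kcs T KK ct c) := by
    intro c
    rw [Mi_117.kcs_X c.2, Lay.keepX hL hC c.2]
  obtain ⟨Rr, core, hS, hRr⟩ := Crb_609.core_block_R hO hLa hδ hR0 hnp hm HR
    (g0 := g0) (Gf := Gf) (fun c x hx => (hE0 c x hx).1) hK.sg0 hK.sglt hK.kf0
    (by linarith [hK.kf2]) (fun c hc => (hNO c hc).near)
    (Kc := Kcs T KK ct) (fun a ha => by rw [Mi_117.kcs_X ha, Lay.keepX hL hC ha])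
    (bt := bt) (k := 4) (fun c q hq x hx => by
      have h1 : setK T3 KK q.1 = (celK T3 KK (tlX X c3 ct) q).set := celK_set _ q
      exact hEq q (mem_iUnion.2 ⟨c, hq⟩) x (by rw [h1]; exact hx))
  -- the structure map
  obtain ⟨G, hG, hGO⟩ := Fin_147.front_out hOm hLa hf hE.small hC hFi hL hF hR0.le
    (by linarith : (0:ℝ) ≤ κ3) hLv hO hm H hRb2 MG hnp (Ckn_nonneg (ε₁ := ε₁) (δ := δ) (R := R) hKN)
    (Csn_le (KN := KN) (ε₁ := ε₁) (δ := δ) (R := R) (κ3 := κ3)) tile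
    hK.kb hK.b0 hK.b2 hK.kf Rr (by
      intro a ha
      obtain ⟨U, e1, a1, a2, a3, a4, a5, a6, a7⟩ := core a ha
      refine ⟨U, e1, a1, a2, a3, a4, a5, a6, fun x hx => ?_⟩
      obtain ⟨q, h1, h2, h3⟩ := a7 x hx
      have h4 : setK T3 KK q.1 = (celK T3 KK (tlX X c3 ct) q).set := celK_set _ q
      exact ⟨q, by rw [h4]; exact h1, by rw [h4]; exact h2, by rw [h4]; exact h3⟩)
    (lt_C0n δ κ0 R) hS hK.kfs hK.sglt hK.e1 hK.e2 hRr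
  refine ⟨G, uu hO.fin1 Gf, Mna_747.nn hO.cmb (fun c => setK T3 KK c.1) (Rk κ kap),
    gOutF_of_gOut hGO, ?_⟩
  have hFin := Mxo_487.finNO_mesh hLa hC hL hF hLv hO hm hXc hK.b4 le_rfl hε1 hKN hδt hδt2 H hT hRb
    (CuF_pos (ε₁ := ε₁) hKN) (CuF_le (KN := KN) (ε₁ := ε₁)) hG.mesh Ds ν
  exact hFin.gno hFace

/-- **689's `DataP`** -/
theorem dataP (p : ℝ) : DataP p (MeshLp p) := by
  intro Λ e' η β0 ε₁ KN hΛ he' hη hβ0 hβ0' hε0 hε1 hKN hMn δ κ0 R c0 κ2 κ3 hδ hκ0 hR hc0 hκ2 hκ3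
    e κb κf sg bt he hK κp μ hκp hκp1 hκp2 hμ hμp
  refine ⟨1, one_pos, fun κ1 hκ1 _ hE => ?_⟩
  intro Om La f hOm hOmb hOmc hLa hLab hLac hf Φ ι T X J0 J V ct A lam z θ φ M hst hcr hfi
    Ds B ν a hDs
  refine ⟨fun _ => ∅, fun _ => 0, fun _ => measure_empty, fun Z m0 _ _ hm0 κ L hL hW hFr => ?_⟩
  obtain ⟨ι3, T3, KK, c3, hNe, hH, hdis, hne, Qd, s₀, far₀, Gc, Zc, lam₀, v₀, v₁, hLay, hF⟩ := hFr
  exact data_out hε1 hKN hMn hδ hR hκ3 hK hE hOm hLa hf hcr hfi hDs hm0 hL hW hLay hF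

/-- **THE MACHINE** for the structure map, from the front half and the mixed mesh -/
theorem machGN_of {p : ℝ} (hF : FrontP)
    (hM : ∀ Λ e' : ℝ, 1 ≤ Λ → 0 < e' → ∃ η β0 ε₁ KN : ℝ, 0 < η ∧ 1/4 ≤ β0 ∧ β0 < 1/2 ∧ 0 < ε₁ ∧
      ε₁ < 1 ∧ 0 ≤ KN ∧ MeshLp p Λ e' η β0 ε₁ KN) : MachGN p :=
  machGN_of_data hF hM (dataP p)

end Crest.Agent.R096.Mno_534
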