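import Crest.Agent.R096.Mxo4_487
import Crest.Agent.R096.Mno2_534
import Crest.Agent.R096.Fsw36_928

/-!
# R096 (row 96), MachNO, (M2) of 534 #11119: `mesh_no` = the mixed mesh over the final state with the
clause `face` (helper928)
-/

set_option autoImplicit false
set_option linter.unusedSectionVars false
set_option linter.style.longLine false

open Set Metric Filter Topology MeasureTheory
open scoped ENNReal

namespace Crest.Agent.R096.Fsw_928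

open Crest.Agent.R096.St_147 Crest.Agent.R096.Seq_213 Crest.Agent.R096.Seq_213.GSt
  Crest.Agent.R096.Bd_416 Crest.Agent.R096.Mg_441 Crest.Agent.R096.Lm_117
  Crest.Agent.R096.Cp_298 Crest.Agent.R096.Gl_422
  Crest.Agent.R096.On_441 Crest.Agent.R096.SkB_662 Crest.Agent.R096.Ce_537
  Crest.Agent.R096.Arc_778
open Crest.Agent.R096.Msh_715 Crest.Agent.R096.Csub_487
open Crest.Agent.R096.SkC1_961 (E3 FoamD)
open Crest.Agent.R096.SkN1_477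
open Crest.Agent.R096.Mi_117
open Crest.Agent.R096.Fk_522
open Crest.Agent.R96.Nu1_199 Crest.Agent.R96.Nu2_199 Crest.Agent.R96.Nu3_199
  Crest.Agent.R96.Nu4_199 Crest.Agent.R96.Nu5_199 Crest.Agent.R96.Nu6_199
open Crest.Agent.R96.Nu7_199 (WE)
open Crest.Agent.R096.Be_416 Crest.Agent.R096.Mxs_487 Crest.Agent.R096.Mxo_487

open scoped Classical

lemma CellIx_sub {Om : Set E3} {ι : Type} {T : Tiling Om ι} {Q : Type} [PartialOrder Q]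
    {dim : Q → ℕ} {K : Q → Set E3} {cell : Q → T.Cell} (hI : CellIx T dim K cell) {σ τ : Q}
    (h : σ ≤ τ) : K σ ⊆ K τ := by
  rw [hI.set_eq, hI.set_eq]
  exact Tiling.Cell.le_def.1 ((hI.le _ _).1 h)

/-- **THE MESH OF THE MACHINE WITH THE CLAUSE `face`** -/
theorem mesh_no {p : ℝ} (hp : 1 ≤ p) {Λ e : ℝ} (hΛ : 1 ≤ Λ) (he : 0 < e) :
    ∃ η β0 ε₁ KN : ℝ, 0 < η ∧ 1/4 ≤ β0 ∧ β0 < 1/2 ∧ 0 < ε₁ ∧ ε₁ < 1 ∧ 0 ≤ KN ∧
    ∀ {δf κ0 Rf cf : ℝ} {La Om Om' Ω' : Set E3} {ιt ι3 : Type}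
      {ι Φc Q J Kq : Type} {M : MeshC ι Φc E3} [PartialOrder Q] {dim : Q → ℕ}
      {Φ : FoamD δf κ0 Rf cf La} {Tl : Tiling Om ιt} {T3 : Tiling Om' ι3}
      {L : LM M Q dim} {O : Ori M} {τ : Q → ZMod 2} {Rel : E3 → E3 → Prop} {Vc : Set E3}
      {Qd : Quads ι Φ.F Kq} {κ : Φ.F → ℕ} {fam : J → Φ.F} {s₀ : GSt M fam} {far₀ : J → Set E3}
      {Z : Φ.F → Set Q} {lam₀ : J → Q → ZMod 2} {v₀ v₁ : Φ.F → Q}
      {hfin : ∀ a, {j | fam j = a}.Finite} {kap : Φ.F → ℕ} {s : GSt M (fam' fam (Rk κ kap))}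
      {far : Nm' fam (Rk κ kap) → Set E3} {β : E3 → E3} {lam : Nm' fam (Rk κ kap) → Q → ZMod 2}
      {K : Q → Set E3} {cell : Q → T3.Cell}
      (h : StO L O τ Rel Vc Qd κ s₀ far₀ Z lam₀ v₀ v₁ hfin kap s far β lam)
      {Rb : Set Q} {g0 : Gd E3 (Nm' fam (Rk κ kap))}
      {P0 : ∀ q, h.cmb.I q → Set E3} {c0 : ∀ q, h.cmb.I q → E3 → ℝ}
      (X : Cplx Ω' Q dim K) (_ : Top3 L) (_ : CellIx T3 dim K cell)
      {b : ℕ → ℝ} (_ : ∀ n, β0 ≤ b n) (_ : ∀ n, b n < 1/2)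
      {Kb : ℝ} (_ : 0 ≤ Kb) (_ : BaseC h.cmb K (wts κ kap fam) Kb Rb g0 P0 c0)
      {hf1 : ∀ a, {j | h.cmb.fam j = a}.Finite}
      {Lv : Φ.F → Finset ℝ} (_ : ∀ a, mm hfin a = (Lv a).card)
      {Ex : Set ιt} {Ds : Set E3} {Bf : E3 → E3 ≃ᵃ[ℝ] E3} {μ : ℝ} {a : Fin 2 → ℝ}
      (_ : FaceD Tl Ex Ds Bf Λ μ a)
      (_ : ∀ x ∈ Ds, ∀ y ∈ usq (Bf x), T3.cc y = Tl.cc y ∧ T3.dim y = Tl.dim y ∧
        (∃ q, K q = Tl.cc y) ∧ ∀ q, K q = Tl.cc y → q ∉ Rb),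
      ∃ δ : Q → ℝ, (∀ q, 0 < δ q) ∧
        (∀ q, 0 < WE X h.cmb (wts κ kap fam) q →
          ∀ σ ≤ q, δ σ ≤ WE X h.cmb (wts κ kap fam) q) ∧
        ∃ (SpecX : ∀ q, Bd_416.Lam (K q) (h.cmb.I q) → Prop) (g : Gd E3 (Nm' fam (Rk κ kap)))
          (P : ∀ q, h.cmb.I q → Set E3) (c : ∀ q, h.cmb.I q → E3 → ℝ),
          Inv h.cmb K univ g P c ∧ MGeo h.lfs (Lf lam) (xlf h.lab.lab) K Rb c ∧
          (∀ q, TrkX (h := h.lfs) (Lam := Lf lam) (hLam := xlf h.lab.lab) X Rb g0 P0 c0 SpecX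
            (K0x Rb Kb KN) δ ε₁ b (wts κ kap fam) 4 g P c q) ∧
          (∀ q ∈ Rb, ∀ z ∈ K q, EqAt (sqs g0 b 4) g z) ∧
          ∀ x ∈ Ds, ∀ (c1 c2 : Φ.F) (σ1 σ2 : ℝ),
            FaceIn Φ κ Lv (fun x => uu hf1 g x) (Mna_747.nn h.cmb K (Rk κ kap)) η μ a (Bf x)
              c1 c2 σ1 σ2 →
            FaceOut p Φ κ Lv (fun x => uu hf1 g x) e μ a (Bf x) c1 c2 σ1 σ2 := by
  obtain ⟨δm, hδ0, hδ1, P1, P2, η, hη0, hη1, hdep, θ, hθ0, hθη, ε, hε0, hε1, hεη, β0, hβ1, hβ2,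
    hend⟩ := face_end hp hΛ he
  obtain ⟨Λ1, hΛ1, hcr⟩ := exists_crude P1 P2
  have hcr' : Crude P1 P2 Λ1 := @hcr
  have hθ1 : θ ≤ 1 := by linarith
  have h1δ : 0 < 1 - δm := by linarith
  have h1ε : 0 < 1 - ε := by linarith
  obtain ⟨pp, hpp⟩ : ∃ pp, pp = (1 - δm) * (1 - ε) * θ := ⟨_, rfl⟩
  have hpp0 : 0 < pp := by rw [hpp]; positivity
  have hpp1 : pp < 1 := by
    rw [hpp]
    have h1 : (1 - δm) * (1 - ε) ≤ 1 := by nlinarith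
    nlinarith
  have hAs := AAc_pos (E := E3) 2 Sq0
  obtain ⟨KN, hKN⟩ : ∃ KN, KN = Λ1 * 16 * AAc 2 Sq0 / (1/4 * pp) := ⟨_, rfl⟩
  have hKN0 : 0 ≤ KN := by rw [hKN]; positivity
  obtain ⟨η1, k0, k1, k2, k3, hface⟩ := hend (CUe KN (1 - pp) 3 Ksq) (CUe_nonneg hKN0 _ _)
  refine ⟨η1, β0, 1 - pp, KN, k0, hβ1, hβ2, by linarith, by linarith, hKN0, ?_⟩
  intro δf κ0 Rf cf La Om Om' Ω' ιt ι3 ι Φc Q J Kq M _ dim Φ Tl T3 L O τ₀ Rel Vc Qd κ fam s₀ far₀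
    Z lam₀ v₀ v₁ hfin kap s far β lam K cell h Rb g0 P0 c0 X T hI b hb hb2 Kb hKb B hf1 Lv hcard
    Ex Ds Bf μ a FD hfc
  have hμ := FD.mu
  have hb4 : ∀ n, 1/4 ≤ b n := fun n => hβ1.trans (hb n)
  have hb0 : ∀ n, 0 < b n := fun n => by have := hb4 n; linarith
  have hw : ∀ j, 0 < wts κ kap fam j := fun j => by unfold wts; positivity
  obtain ⟨dl, hdl0, hdl1, hmono, hdl2, hmesh⟩ := Mxo_487.StO.meshX1 h (ε := ε) (δm := δm) (ε' := 1 - pp)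
    (KN := KN) X T hI.conv hI.cpt hI.bd hb0 hb2 hε0 (by linarith) hδ0.le (by linarith)
    (by linarith) (by linarith) hKb hKN0 B (fun _ => η1 * μ) (fun _ => mul_pos k0 hμ)
  refine ⟨dl, hdl0, hdl2, ?_⟩
  -- the coordinates
  obtain ⟨χ, hχ⟩ : ∃ χ : Q → E3 → ℝ, EdC K dim χ := by
    obtain ⟨e, he1, -, -, hea⟩ := Mxs_487.exists_eA X hI.conv hI.cpt hI.bd
    exact exists_edC e he1 hea
  -- the designated cells
  have hcell : ∀ x ∈ Ds, ∀ y ∈ usq (Bf x), ∀ q, K q = Tl.cc y → dim q = Tl.dim y ∧ q ∉ Rb := by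
    intro x hx y hy q hq
    obtain ⟨e1, e2, ⟨q', hq'⟩, e4⟩ := hfc x hx y hy
    obtain ⟨y', hy', hq'', hyq⟩ := exists_cc hI q
    have hyO : y ∈ Om' := by
      obtain ⟨i, hi⟩ := T3.cov y' hy'
      have h1 : K q ⊆ P (T3.H i) := by rw [hq'']; exact T3.cc_sub_tile hi
      refine T3.sub i (h1 ?_)
      rw [hq]
      exact Tl.self_mem_cc y
    refine ⟨?_, e4 q hq⟩
    rw [← e2]
    exact dim_of_cc hI hyO (by rw [hq, e1])
  have hxq : ∀ x ∈ Ds, x ∈ usq (Bf x) := fun x hx => by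
    rw [← FD.sq x hx]; exact Tl.self_mem_cc x
  let Fc : Set Q := {q | ∃ x ∈ Ds, K q = usq (Bf x)}
  let Bc : Q → E3 ≃ᵃ[ℝ] E3 := fun q => if h : q ∈ Fc then Bf h.choose else AffineEquiv.refl ℝ E3
  have hBc : ∀ q ∈ Fc, ∃ x ∈ Ds, Bc q = Bf x ∧ K q = usq (Bf x) := by
    intro q hq
    refine ⟨hq.choose, hq.choose_spec.1, dif_pos hq, hq.choose_spec.2⟩
  have hFc2 : ∀ q ∈ Fc, dim q = 2 := by
    rintro q ⟨x, hx, hq⟩
    rw [(hcell x hx x (hxq x hx) q (by rw [hq, FD.sq x hx])).1, FD.dim x hx]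
  have hFK : ∀ q ∈ Fc, K q = usq (Bc q) := by
    intro q hq
    obtain ⟨x, hx, e1, e2⟩ := hBc q hq
    rw [e1, e2]
  have hFR : ∀ q ∈ Fc, ∀ σ ≤ q, σ ∉ Rb := by
    rintro q ⟨x, hx, hq⟩ σ hσ
    obtain ⟨y, hy, e1, e2⟩ := exists_cc hI σ
    have hyq : y ∈ usq (Bf x) := by
      rw [← hq]
      exact (CellIx_sub hI hσ) e2
    exact (hcell x hx y hyq σ (by rw [e1, (hfc x hx y hyq).1])).2
  have hFs : ∀ x ∈ Ds, ∀ (j : Fin 2) (b : ℝ), b = 0 ∨ b = 1 →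
      ∃ q, dim q = 1 ∧ K q = SkN1_477.side (Bf x) j b := by
    intro x hx j b hb'
    obtain ⟨z, hz, hz1, hz2⟩ := FD.sides x hx j b hb'
    have hzu : z ∈ usq (Bf x) := side_sub (Bf x) j hb' (by rw [← hz2]; exact Tl.self_mem_cc z)
    obtain ⟨q, hq⟩ := (hfc x hx z hzu).2.2.1
    exact ⟨q, by rw [(hcell x hx z hzu q hq).1, hz1], by rw [hq, hz2]⟩
  obtain ⟨F⟩ : Nonempty (DesF h.cmb K χ Fc Bc) := by
    refine exists_desF X hχ hI.bd hFc2 hFK ?_ ?_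
    · intro q hq
      obtain ⟨x, hx, e1, -⟩ := hBc q hq
      rw [e1]
      exact hFs x hx
    · intro q hq q' hq'
      obtain ⟨x, hx, e1, -⟩ := hBc q hq
      obtain ⟨x', hx', e1', -⟩ := hBc q' hq'
      rw [e1, e1']
      exact FD.dir x hx x' hx'
  have hends : ∀ {q : Q}, dim q = 2 → ∀ x : h.cmb.I q, ∃ a b, a ≠ b ∧ Blw h.cmb q x = {a, b} :=
    fun hq x => ends_cmb (h := h.lfs) (Lam := Lf lam) (hLam := xlf h.lab.lab) T hq x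
  have hε' : ∀ τ ∉ Rb, dim τ = 1 → 1 - (1 - pp) ≤
      (1 - δm) * (1 - ε) * F.th (wts κ kap fam) a (η1 * μ) θ τ := by
    intro τ _ _
    have h1 := F.le_th (wt := wts κ kap fam) (a := a) (m := η1 * μ) hθ1 τ
    have h2 : 0 ≤ (1 - δm) * (1 - ε) := by positivity
    have h3 := mul_le_mul_of_nonneg_left h1 h2
    rw [← hpp] at h3
    linarith
  have hrule : ∀ D' g P c (H : Inv h.cmb K D' g P c),
      ∀ τ ∈ F.N (wts κ kap fam) a (η1 * μ),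
      (∀ q ∈ D', TrkX (h := h.lfs) (Lam := Lf lam) (hLam := xlf h.lab.lab) X Rb
        g0 P0 c0 (F.SpX (wts κ kap fam) a (η1 * μ) θ δm ε dl P1 P2 (b 2) η) (K0x Rb Kb KN) dl
        (1 - pp) b (wts κ kap fam) (dim τ) g P c q) →
      τ ∉ Rb → ∀ hτ : ∀ σ < τ, σ ∈ D',
      ∃ (e' : PLEquiv (cube (dim τ)) (K τ)) (he' : e'.f '' sph (dim τ) = bdS K τ)
        (κ' : ℝ) (h' ρ : h.cmb.I τ → ℝ) (Dp : Dep (bdLam H X τ hτ) κ' (b (dim τ)) h' ρ),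
        (∀ x x', RlG h.cmb K c τ x x' → ρ x' < ρ x) ∧
        F.SpX (wts κ kap fam) a (η1 * μ) θ δm ε dl P1 P2 (b 2) η τ (Dp.fillBall e' he') ∧
        ∀ B : E3 ≃ᵃ[ℝ] E3, ∀ x, ∀ z ∈ K τ,
          LB B (K0x Rb Kb KN τ * (AAc (dim τ) (B '' K τ) *
            (Wd h.cmb (wts κ kap fam) τ + dl τ)) / wts κ kap fam (h.cmb.col τ x))
            ((Dp.fillBall e' he').c x) (K τ) z := by
    intro D' g P c H τ hN hT hR hτ
    have hN' := hN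
    obtain ⟨hF, hx1, hx2⟩ := hN'
    have hKt : Λ1 * 16 * AAc 2 Sq0 / (b 2 * ((1 - δm) * (1 - ε) * θ)) ≤ K0x Rb Kb KN τ := by
      refine le_trans ?_ (le_K0x τ)
      rw [hKN, ← hpp]
      have h1 := hb4 2
      have h2 : 1/4 * pp ≤ b 2 * pp := mul_le_mul_of_nonneg_right h1 hpp0.le
      exact div_le_div_of_nonneg_left (by positivity) (by positivity) h2
    obtain ⟨e', he', κ', h', ρ, Dp, r1, r2, r3⟩ := F.rule (wt := wts κ kap fam) (a := a)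
      (m := η1 * μ) hw rfl hμ hΛ FD.ab k0 k2 k1 hδ0.le hδ1 hε0.le hε1 k3 hθη hdl0 hdl1 hθ1
      hdep hcr' hΛ1 X hI.conv hI.cpt hI.bd hb0 hb2 hmono
      (Spec := SpecGX h.cmb K (ek h.lfs)
        (F.SpX (wts κ kap fam) a (η1 * μ) θ δm ε dl P1 P2 (b 2) η))
      (fun q M hS => hS.2.1) H hF hN hτ hT (fun s => hFR τ hF _ ((F.des τ hF).S.lt s).le)
      (hends (hFc2 τ hF)) (Kτ := K0x Rb Kb KN τ) hKt
      (fun Dp nest _ _ e he hS => ⟨specG2 H X (hFc2 τ hF).ge hτ Dp nest e he, F.spX_face hF hS⟩)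
    exact ⟨e', he', κ', h', ρ, Dp, r1, r2.2, r3⟩
  obtain ⟨g, P, c, H, hG, hT, hEq⟩ := hmesh (F.N (wts κ kap fam) a (η1 * μ))
    (fun τ hτ => (F.N_dim hτ).ge) (F.th (wts κ kap fam) a (η1 * μ) θ) (F.th_pos hθ0) (F.th_le hθ1)
    (fun τ _ _ h2 => F.th_dim (by omega)) hε'
    (F.SpX (wts κ kap fam) a (η1 * μ) θ δm ε dl P1 P2 (b 2) η)
    (fun τ _ h0 M => F.spX_other (by omega) (fun hN => by have := F.N_dim hN; omega) M)
    (fun τ _ h1 e hea _ _ p hE hm _ => F.spX_edge hχ h1 (X.isClosed τ) hea hE hm)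
    (fun D' g P c H τ h2 _ _ hN hτ κ' ρ Dp _ e he => F.spX_other (by omega) hN _)
    hrule
  refine ⟨_, g, P, c, H, hG, hT, hEq, ?_⟩
  -- the clause `face`
  intro x hx c1 c2 σ1 σ2 hFI
  obtain ⟨τ, hτ⟩ := (hfc x hx x (hxq x hx)).2.2.1
  rw [FD.sq x hx] at hτ
  have hτF : τ ∈ Fc := ⟨x, hx, hτ⟩
  obtain ⟨x1, hx1, hB1, -⟩ := hBc τ hτF
  have hd2 := hFc2 τ hτF
  obtain ⟨ε', G', hFG', -, -⟩ := exists_des (C := h.cmb) X hχ hI.bd hd2 hτ (hFs x hx)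
  obtain ⟨hFG, hA⟩ := FG.transfer X (F.des τ hτF) (F.fg τ hτF) (F.Af τ hτF) G' hFG' (by
    rw [hB1]
    exact FD.dir x1 hx1 x hx)
  have hτR : τ ∉ Rb := hFR τ hτF τ le_rfl
  refine hface Φ κ Lv H (F.des τ hτF) (hends hd2) (Bf x) ε' hFG (fun z _ => hA z) hf1
    (wts κ kap fam) hw (fun a => (Rk κ kap a : ℝ)) ?_ ?_ ?_ (Mna_747.nn h.cmb K (Rk κ kap)) ?_ μ hμ
    a FD.ab (F.wd (wts κ kap fam) a (η1 * μ) θ δm ε dl) (fun s => dl ((F.des τ hτF).S.es s))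
    (fun s => F.th (wts κ kap fam) a (η1 * μ) θ ((F.des τ hτF).S.es s)) (fun _ => hdl0 _)
    (fun _ => hdl1 _) b hb ?_ ?_ c1 c2 σ1 σ2 hFI
  · intro a'
    have h1 : 0 < Rk κ kap a' := Rk_pos κ kap a'
    exact_mod_cast h1
  · intro a'
    have h1 : mm hf1 a' = Rk κ kap a' * mm hfin a' := h.mm_eq a'
    rw [h1, hcard]
    push_cast
    rfl
  · intro j
    have h1 := Mna_747.pow_div_Rk (h.le (h.cmb.fam j))
    have h2 : (0:ℝ) < (Rk κ kap (h.cmb.fam j) : ℕ) := by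
      exact_mod_cast Rk_pos κ kap (h.cmb.fam j)
    rw [div_eq_iff h2.ne'] at h1
    rw [h1, mul_comm]
    rfl
  · intro s a'
    rw [← hFG.side s]
    exact Mna_747.nn_eq (fun q q' _ _ e => le_antisymm (le_of_sub X e.subset)
      (le_of_sub X e.symm.subset)) (Rk κ kap) ((F.des τ hτF).S.d1 s) a'
  · intro hDP ha
    have hN : τ ∈ F.N (wts κ kap fam) a (η1 * μ) := ⟨hτF, hDP, ha⟩
    refine ⟨fun s hs => F.th_main hτF hs, fun s hs => F.th_empty hτF hN hs, fun s => rfl, ?_⟩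
    obtain ⟨β', M', hβ', hS, hM⟩ := (hT τ).new hτR
    refine ⟨M', hS.2.2 hτF hN, ?_⟩
    have e1 : bet b 4 / bet b (dim τ + 1) = 2 * b 3 := by
      rw [hd2, bet_succ b 3]
      exact mul_div_cancel_right₀ _ (bet_pos hb0 3).ne'
    rw [← e1, ← hβ']
    exact hM
  · intro x' z hz
    have h1 := (hT τ).ll (Bf x) ⟨Bf x, rfl⟩ x' z (by rw [hτ]; exact hz)
    refine h1.mono (div_le_div_of_nonneg_right ?_ (hw _).le)
    exact lamK_face X hI.bd hχ (F.des τ hτF) hFG hw hb4 (K0x_nonneg hKN0)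
      (K0x_of_not hKN0 (hFR τ hτF)).le hdl0 hdl1 (by linarith) (hends hd2)

end Crest.Agent.R096.Fsw_928
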