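import Crest.Agent.R096.Mch2_534
import Crest.Agent.R096.Mno9_928
import Crest.Agent.R096.Mno3_534

/-!
# R096 (row 96), MachNO (helper534): MachNO and MachBF from the front half

`exists_meshLp` : the mixed mesh over `Lp` (928's `mesh_no`); `machGN_of_front`, `machAll_of_front`,
`machNO_of_front`, `machBF_of_front`.
-/

set_option autoImplicit false
set_option linter.unusedSectionVars false
set_option linter.unusedVariables false
set_option linter.style.longLine false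

open Set Metric Filter Topology Module MeasureTheory

namespace Crest.Agent.R096.Mno_534

open Crest.Agent.R096.Frn_337

/-- **the mixed mesh over `Lp`** (928's `mesh_no`, 487's `hfc_Lp`) -/
theorem exists_meshLp {p : ℝ} (hp : 1 ≤ p) (Λ e' : ℝ) (hΛ : 1 ≤ Λ) (he' : 0 < e') :
    ∃ η β0 ε₁ KN : ℝ, 0 < η ∧ 1/4 ≤ β0 ∧ β0 < 1/2 ∧ 0 < ε₁ ∧ ε₁ < 1 ∧ 0 ≤ KN ∧
      MeshLp p Λ e' η β0 ε₁ KN := by
  obtain ⟨η, β0, ε₁, KN, h1, h2, h3, h4, h5, h6, h7⟩ := Fsw_928.mesh_no hp hΛ he'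
  refine ⟨η, β0, ε₁, KN, h1, h2, h3, h4, h5, h6, ?_⟩
  intro δ κ0 R c0 κ1 κ2 La Om ι Φ T f X J0 Jt V ct A lmc z θ φ ι3 T3 KK c3 hN hH hdis hne Lv Qd s₀
    far₀ Zc lam₀ v₀ v₁ κ hfin kap s far β lm hC hL h Ω' Xc b hb hb2 Kb hKb Rb hRb g0 P0 cc0 hB
    Ds B ν a FD
  obtain ⟨δt, hδ, hδ2, SpecX, g, P, c, H, MG, hT, hE, hF⟩ :=
    h7 h Xc Mfr_487.top3_Lp Mfr_487.cellIx_Lp hb hb2 hKb hB (hf1 := h.fin1) (jj_mm Lv hfin) FD
      (Mxo_487.hfc_Lp hC hL hRb FD)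
  exact ⟨δt, hδ, hδ2, g, P, c, H, MG, ⟨g0, P0, cc0, SpecX, hT⟩, hE, hF⟩

/-- **THE MACHINE with designated faces, from the front half** -/
theorem machGN_of_front (hF : FrontP) {p : ℝ} (hp : 1 ≤ p) : MachGN p :=
  machGN_of hF (exists_meshLp hp)

theorem machAll_of_front (hF : FrontP) {p : ℝ} (hp : 1 ≤ p) : MachAll p :=
  machAll_of (machGN_of_front hF hp)

/-- **MachNO** -/
theorem machNO_of_front (hF : FrontP) {p : ℝ} (hp : 1 ≤ p) : SkN2_477.MachNO p :=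
  machNO_of (machAll_of_front hF hp)

/-- **MachBF** -/
theorem machBF_of_front (hF : FrontP) : Mbf_337.MachBF :=
  machBF_of (machAll_of_front hF le_rfl)

end Crest.Agent.R096.Mno_534
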