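import Crest.Agent.R096.Mal16_874

/-!
# Row 96, instance of `Pm_199.MF`, inner half, part 1

Rigid translation of the graded cubes of a core block, potential tiles of a block (graded cubes of
ALL wall scales, shell, core), independent of the scale at the wall and of the translation.
-/

set_option autoImplicit false
set_option linter.unusedSectionVars false

open Set Filter Topology Metric

namespace Crest.Agent.R096.Mfi_290

open Msh_715 Cut_874 Msh_810 Mal_874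

variable {n : ℕ}

/-! ### translation of Whitney data -/

theorem ps_shift (a s x : Fin n → ℝ) (k : ℕ) : ps (a + s) k (x + s) = ps a k x := by
  funext i
  unfold ps
  simp only [Pi.add_apply]
  ring

theorem mem_Cu_shift {a s x : Fin n → ℝ} {k : ℕ} {z : Fin n → ℤ} :
    x + s ∈ Cu (a + s) k z ↔ x ∈ Cu a k z := by
  rw [mem_Cu, mem_Cu, ps_shift]

theorem mem_Do_shift {a s x : Fin n → ℝ} {σ : Idx n} : x + s ∈ Do (a + s) σ ↔ x ∈ Do a σ := by
  unfold Do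
  rw [mem_ofPred_eq, mem_ofPred_eq, ps_shift]

section

variable {D D' : Dat n} {s : Fin n → ℝ}

theorem gd_shift (hρ : ∀ x, D'.ρ (x + s) = D.ρ x) (ha : D'.a = D.a + s) (hC : D'.C = D.C)
    (x : Fin n → ℝ) : gd D' (x + s) = gd D x := by
  ext k
  constructor
  · intro h z hz y hy
    have h1 := h z (by rw [ha]; exact mem_Cu_shift.2 hz) (y + s) (by
      rw [ha]; exact mem_Cu_shift.2 hy)
    rwa [hρ, hC] at h1
  · intro h z hz y hy
    rw [ha] at hz hy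
    have hy' : y - s ∈ Cu D.a k z := by
      rw [← mem_Cu_shift (s := s), sub_add_cancel]
      exact hy
    have h1 := h z (mem_Cu_shift.1 hz) (y - s) hy'
    rw [← hρ, sub_add_cancel] at h1
    rw [hC]
    exact h1

theorem K_shift (hρ : ∀ x, D'.ρ (x + s) = D.ρ x) (ha : D'.a = D.a + s) (hC : D'.C = D.C)
    (x : Fin n → ℝ) : K D' (x + s) = K D x := by
  unfold K
  rw [gd_shift hρ ha hC]

theorem isM_shift (hρ : ∀ x, D'.ρ (x + s) = D.ρ x) (ha : D'.a = D.a + s) (hC : D'.C = D.C)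
    {σ : Idx n} : IsM D' σ ↔ IsM D σ := by
  constructor
  · rintro ⟨x, hx, hx0, hK⟩
    rw [ha] at hx
    refine ⟨x - s, ?_, ?_, ?_⟩
    · rw [← mem_Do_shift (s := s), sub_add_cancel]
      exact hx
    · rw [← hρ, sub_add_cancel]
      exact hx0
    · rw [← K_shift hρ ha hC, sub_add_cancel]
      exact hK
  · rintro ⟨x, hx, hx0, hK⟩
    refine ⟨x + s, ?_, ?_, ?_⟩
    · rw [ha]
      exact mem_Do_shift.2 hx
    · rw [hρ]
      exact hx0
    · rw [K_shift hρ ha hC]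
      exact hK

end

variable {E : Type*} [NormedAddCommGroup E] [NormedSpace ℝ E]

/-! ### translation of a block -/

theorem pc_shift (a s : Fin n → ℝ) (k : ℕ) (Z : Set (Fin n → ℤ)) :
    pc (a + s) k Z = (Homeomorph.addRight s) '' pc a k Z := by
  ext x
  rw [mem_pc]
  constructor
  · rintro ⟨z, hz, hx⟩
    refine ⟨x - s, mem_pc.2 ⟨z, hz, ?_⟩, sub_add_cancel x s⟩
    rw [← mem_Cu_shift (s := s), sub_add_cancel]
    exact hx
  · rintro ⟨y, hy, rfl⟩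
    obtain ⟨z, hz, hy⟩ := mem_pc.1 hy
    exact ⟨z, hz, mem_Cu_shift.2 hy⟩

theorem W_tr (Q : CB E n) (v : E) : (Q.tr v).W = (Homeomorph.addRight (Q.ψ v)) '' Q.W := by
  have h : (Q.tr v).W = frontier (pc (Q.a' + Q.ψ v) Q.kc (bx Q.al Q.be)) := rfl
  rw [h, pc_shift, ← Homeomorph.image_frontier]
  rfl

theorem infDist_tr (Q : CB E n) (v : E) (x : Fin n → ℝ) :
    infDist (x + Q.ψ v) (Q.tr v).W = infDist x Q.W := by
  rw [W_tr]
  exact infDist_image (Φ := fun y : Fin n → ℝ => y + Q.ψ v) (isometry_add_right _)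

theorem rho_tr (Q : CB E n) (v : E) (k : ℕ) (hk : Q.kc ≤ k) (x : Fin n → ℝ) :
    ((Q.tr v).D k hk).ρ (x + Q.ψ v) = (Q.D k hk).ρ x := by
  have h1 : ((Q.tr v).D k hk).ρ (x + Q.ψ v) =
      max (6 / 2 ^ k) (min (6 / 2 ^ Q.kc) (infDist (x + Q.ψ v) (Q.tr v).W)) := rfl
  have h2 : (Q.D k hk).ρ x = max (6 / 2 ^ k) (min (6 / 2 ^ Q.kc) (infDist x Q.W)) := rfl
  rw [h1, h2, infDist_tr]

/-- **the mesh cells of the translated block are those of the block** -/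
theorem isM_tr (Q : CB E n) (v : E) (k : ℕ) (hk : Q.kc ≤ k) {σ : Idx n} :
    IsM ((Q.tr v).D k hk) σ ↔ IsM (Q.D k hk) σ :=
  isM_shift (s := Q.ψ v) (rho_tr Q v k hk) rfl rfl

/-! ### the layers -/

/-- **a cube finer than `2 ^ -kc` is near the wall** -/
theorem layer [NeZero n] {Q : CB E n} {k : ℕ} {hk : Q.kc ≤ k} {σ : Idx n}
    (h : IsM (Q.D k hk) σ) (hkc : Q.kc < σ.k) {x : Fin n → ℝ} (hx : x ∈ Dc Q.a' σ) :
    infDist x Q.W ≤ 14 / 2 ^ σ.k := by
  obtain ⟨x', hx', hx0, hK⟩ := h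
  obtain ⟨m, hm⟩ : ∃ m, σ.k = m + 1 := ⟨σ.k - 1, by omega⟩
  have hnot : m ∉ gd (Q.D k hk) x' := pred_notMem hx0 (by omega)
  unfold gd Adm at hnot
  simp only [mem_ofPred_eq, not_forall] at hnot
  obtain ⟨z, hz, y, hy, hlt⟩ := hnot
  push Not at hlt
  have hp : (0 : ℝ) < 2 ^ m := by positivity
  have hC : (Q.D k hk).C = 6 := rfl
  have hρ : (Q.D k hk).ρ y = max (6 / 2 ^ k) (min (6 / 2 ^ Q.kc) (infDist y Q.W)) := rfl
  rw [hC, hρ] at hlt
  have h1 : min (6 / 2 ^ Q.kc) (infDist y Q.W) < 6 / 2 ^ m := by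
    have h2 : max (6 / 2 ^ k) (min (6 / 2 ^ Q.kc) (infDist y Q.W)) < (6 : ℝ) / 2 ^ m := by
      rw [lt_div_iff₀' hp]
      exact hlt
    exact lt_of_le_of_lt (le_max_right _ _) h2
  have h2 : (6 : ℝ) / 2 ^ m ≤ 6 / 2 ^ Q.kc :=
    div_le_div_of_nonneg_left (by norm_num) (by positivity)
      (pow_le_pow_right₀ (by norm_num) (by omega))
  have h3 : infDist y Q.W < 6 / 2 ^ m := by
    rcases min_lt_iff.1 h1 with h | h
    · linarith
    · exact h
  have hxz : x ∈ Cu Q.a' m z :=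
    same_closed (σ := ⟨m, z, Finset.univ⟩) hx' hx (by rw [hm]; exact Nat.le_succ m) hz
  have h4 := dist_le_of_mem_Cu hxz hy
  have h5 : dist x y ≤ 1 / 2 ^ m := by
    rw [le_div_iff₀' hp]
    exact h4
  have h6 := infDist_le_infDist_add_dist (s := Q.W) (x := x) (y := y)
  have e : (14 : ℝ) / 2 ^ σ.k = 6 / 2 ^ m + 1 / 2 ^ m := by
    rw [hm, pow_succ]
    field_simp
    norm_num
  rw [e]
  linarith

/-! ### potential tiles of a block -/

/-- **potential tiles of a block**: cubes (scale, corner), tiles of the shell, core -/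
abbrev Pt (Q : CB E n) : Type := (ℕ × (Fin n → ℤ)) ⊕ Q.S.Ix

/-- the closed cube `(m, z)` of the frame of the block -/
def cube (Q : CB E n) (m : ℕ) (z : Fin n → ℤ) : Set E := {y | Q.ψ y ∈ Cu Q.a' m z}

/-- the polytope of the shell -/
def pol (Q : CB E n) (s : Q.S.Ix) : Set E := {y | ps Q.a' Q.kc (Q.ψ y) ∈ ZP (Q.S.GG s)}

/-- the potential tile as a set -/
def til (Q : CB E n) : Pt Q → Set E
  | Sum.inl p => cube Q p.1 p.2
  | Sum.inr s => pol Q s

/-- the cubes used by some mesh of the block (some scale at the wall, any translation) -/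
def Use (Q : CB E n) (p : ℕ × (Fin n → ℤ)) : Prop :=
  (∃ (k : ℕ) (hk : Q.kc ≤ k), IsM (Q.D k hk) ⟨p.1, p.2, Finset.univ⟩) ∧ cube Q p.1 p.2 ⊆ Q.N ∧
    ¬ cube Q p.1 p.2 ⊆ Q.S.bp Q.ψ Q.a' Q.kc

theorem cube_tr (Q : CB E n) (v : E) (m : ℕ) (z : Fin n → ℤ) :
    cube (Q.tr v) m z = (fun y => y + v) '' cube Q m z := by
  ext y
  unfold cube
  constructor
  · intro hy
    refine ⟨y - v, ?_, sub_add_cancel y v⟩
    rw [mem_ofPred_eq, ← mem_Cu_shift (s := Q.ψ v), ← map_add, sub_add_cancel]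
    exact hy
  · rintro ⟨x, hx, rfl⟩
    rw [mem_ofPred_eq]
    have : (Q.tr v).ψ (x + v) = Q.ψ x + Q.ψ v := map_add Q.ψ x v
    rw [this]
    exact mem_Cu_shift.2 hx

theorem pol_tr (Q : CB E n) (v : E) (s : Q.S.Ix) :
    pol (Q.tr v) s = (fun y => y + v) '' pol Q s := by
  ext y
  constructor
  · intro hy
    refine ⟨y - v, ?_, sub_add_cancel y v⟩
    have h : ps (Q.tr v).a' (Q.tr v).kc ((Q.tr v).ψ y) ∈ ZP (Q.S.GG s) := hy
    rw [CB.ps_tr] at h
    exact h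
  · rintro ⟨x, hx, rfl⟩
    have h : ps (Q.tr v).a' (Q.tr v).kc ((Q.tr v).ψ (x + v)) ∈ ZP (Q.S.GG s) := by
      rw [CB.ps_tr, add_sub_cancel_right]
      exact hx
    exact h

theorem til_tr (Q : CB E n) (v : E) (t : Pt Q) : til (Q.tr v) t = (fun y => y + v) '' til Q t := by
  rcases t with p | s
  · exact cube_tr Q v p.1 p.2
  · exact pol_tr Q v s

/-- index of the tiles of the tiling of the block -/
abbrev TIx (Q : CB E n) (k : ℕ) (hk : Q.kc ≤ k) : Type _ :=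
  {i // i ∉ {i | P ((Q.T0 k hk).H i) ⊆ Q.S.bp Q.ψ Q.a' Q.kc}} ⊕ Q.S.Ix

/-- the name of a tile -/
def nm (Q : CB E n) (k : ℕ) (hk : Q.kc ≤ k) : TIx Q k hk → Pt Q
  | Sum.inl τ => Sum.inl (τ.1.1.1.k, τ.1.1.1.z)
  | Sum.inr s => Sum.inr s

theorem P_nm (Q : CB E n) (k : ℕ) (hk : Q.kc ≤ k) (i : TIx Q k hk) :
    P ((Q.T k hk).H i) = til Q (nm Q k hk i) := by
  rcases i with τ | s
  · ext y
    exact Q.tile_T0 k hk
  · ext y
    rw [CB.T_inr, mem_P_iH]
    rfl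

theorem nm_inj (Q : CB E n) (k : ℕ) (hk : Q.kc ≤ k) : Function.Injective (nm Q k hk) := by
  rintro (⟨⟨⟨⟨k1, z1, J1⟩, h1⟩, hJ1⟩, hb1⟩ | s) (⟨⟨⟨⟨k2, z2, J2⟩, h2⟩, hJ2⟩, hb2⟩ | s') h
  · have h3 := Prod.ext_iff.1 (Sum.inl.inj h)
    obtain ⟨h4, h5⟩ := h3
    change k1 = k2 at h4
    change z1 = z2 at h5
    change J1 = Finset.univ at hJ1
    change J2 = Finset.univ at hJ2
    subst h4 h5 hJ1 hJ2
    rfl
  · cases h
  · cases h
  · exact congrArg Sum.inr (Sum.inr.inj h)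

theorem isM_univ {Q : CB E n} {k : ℕ} {hk : Q.kc ≤ k} (τ : Top (Q.D k hk)) :
    IsM (Q.D k hk) ⟨τ.1.1.k, τ.1.1.z, Finset.univ⟩ := by
  obtain ⟨⟨⟨k, z, J⟩, hτ⟩, hJ⟩ := τ
  change J = Finset.univ at hJ
  subst hJ
  exact hτ

/-- name of a tile of the translated block -/
def nmt (Q : CB E n) (v : E) (k : ℕ) (hk : Q.kc ≤ k) (i : TIx (Q.tr v) k hk) : Pt Q :=
  nm (Q.tr v) k hk i

theorem nmt_inj (Q : CB E n) (v : E) (k : ℕ) (hk : Q.kc ≤ k) :
    Function.Injective (nmt Q v k hk) := nm_inj (Q.tr v) k hk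

/-- **the tiles of the translated block are translates of potential tiles** -/
theorem P_nmt (Q : CB E n) (v : E) (k : ℕ) (hk : Q.kc ≤ k) (i : TIx (Q.tr v) k hk) :
    P (((Q.tr v).T k hk).H i) = (fun y => y + v) '' til Q (nmt Q v k hk i) :=
  (P_nm (Q.tr v) k hk i).trans (til_tr Q v _)

/-- touching: a potential tile and a set of the block -/
theorem inter_tr {v : E} {A B B' : Set E} (hB : ∀ y, y ∈ B' ↔ y - v ∈ B) :
    ((fun y => y + v) '' A ∩ B').Nonempty ↔ (A ∩ B).Nonempty := by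
  constructor
  · rintro ⟨_, ⟨y, hy, rfl⟩, hyB⟩
    refine ⟨y, hy, ?_⟩
    have := (hB (y + v)).1 hyB
    rwa [add_sub_cancel_right] at this
  · rintro ⟨y, hy, hyB⟩
    refine ⟨y + v, ⟨y, hy, rfl⟩, (hB _).2 ?_⟩
    rwa [add_sub_cancel_right]

theorem sub_tr {v : E} {A B B' : Set E} (hB : ∀ y, y ∈ B' ↔ y - v ∈ B) :
    (fun y => y + v) '' A ⊆ B' ↔ A ⊆ B := by
  constructor
  · intro h y hy
    have := (hB (y + v)).1 (h ⟨y, hy, rfl⟩)
    rwa [add_sub_cancel_right] at this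
  · rintro h _ ⟨y, hy, rfl⟩
    rw [hB, add_sub_cancel_right]
    exact h hy

theorem mem_bp_tr (Q : CB E n) (v y : E) :
    y ∈ (Q.tr v).S.bp (Q.tr v).ψ (Q.tr v).a' (Q.tr v).kc ↔ y - v ∈ Q.S.bp Q.ψ Q.a' Q.kc := by
  rw [PS.mem_bp, PS.mem_bp, CB.ps_tr]
  rfl

/-- **the cubes of the mesh are used cubes** -/
theorem use_nmt (Q : CB E n) (v : E) (k : ℕ) (hk : Q.kc ≤ k) {i : TIx (Q.tr v) k hk}
    (hN : P (((Q.tr v).T k hk).H i) ⊆ (Q.tr v).N) {p : ℕ × (Fin n → ℤ)}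
    (hp : nmt Q v k hk i = Sum.inl p) : Use Q p := by
  rcases i with τ | s
  · have hp' : (τ.1.1.1.k, τ.1.1.1.z) = p := Sum.inl.inj hp
    have hP : P (((Q.tr v).T k hk).H (Sum.inl τ)) = (fun y => y + v) '' cube Q p.1 p.2 := by
      rw [P_nmt, hp]
      rfl
    refine ⟨⟨k, hk, ?_⟩, ?_, ?_⟩
    · rw [← isM_tr Q v k hk, ← hp']
      exact isM_univ (Q := Q.tr v) τ.1
    · rw [hP] at hN
      exact (sub_tr (Q.mem_N_tr v)).1 hN
    · intro hb
      apply τ.2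
      change P (((Q.tr v).T k hk).H (Sum.inl τ)) ⊆ _
      rw [hP]
      exact (sub_tr (mem_bp_tr Q v)).2 hb
  · cases hp

end Crest.Agent.R096.Mfi_290
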