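import Crest.Agent.R096.Mdd4_360
import Crest.Agent.R096.Mfi1_290

/-!
Row 96 (S0127), helper360.  CARD of 365 #11531: the number of coarse potential tiles of a block.

* `zp_near` : a polytope of integer inequalities is determined by its tight inequalities;
* **`card_Ix_le`** : a prism shell of size `H` with inequalities bounded by `B` has at most
  `NSh n B H` tiles;
* **`ct_card`** : number of potential tiles of scale `< K` (cubes of scale `kc ≤ k < K` inside the block,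
  tiles of the shell);
* **`blkD_ct`** : uniform bound for the blocks `blkD` of all bricks.
-/

set_option autoImplicit false
set_option linter.style.longLine false
set_option linter.unusedSectionVars false

open MeasureTheory Set Filter Topology Metric

namespace Crest.Agent.R096.Mdd_360

open Crest.Agent.R096.Bsp_628 Crest.Agent.R096.Brk5_582 Crest.Agent.R096.Brk1_582
open Crest.Agent.R096.Brk2_582 Crest.Agent.R096.Brk3_582 Crest.Agent.R096.Grd_714
open Crest.Agent.R096.SkC1_961 (E3 FoamD Hom3)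
open Crest.Agent.R096.Mal_874 Crest.Agent.R096.Msh_810 Crest.Agent.R096.Msh_715
open Crest.Agent.R096.Mfi_290

noncomputable section

/-! ### polytopes of integer inequalities -/

theorem dt_add_smul {n : ℕ} (ν u v : Fin n → ℝ) (r : ℝ) :
    dt ν (u + r • (v - u)) = dt ν u + r * (dt ν v - dt ν u) := by
  unfold dt
  rw [← Finset.sum_sub_distrib, Finset.mul_sum, ← Finset.sum_add_distrib]
  refine Finset.sum_congr rfl fun m _ => ?_
  simp only [Pi.add_apply, Pi.smul_apply, Pi.sub_apply, smul_eq_mul]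
  ring

/-- the tight inequalities -/
def tgt {n : ℕ} (G : Finset ((Fin n → ℤ) × ℤ)) : Set ((Fin n → ℤ) × ℤ) :=
  {p | p ∈ G ∧ ∃ z ∈ ZP G, dt (rv p.1) z = p.2}

/-- **a polytope is determined by its tight inequalities** -/
theorem zp_near {n : ℕ} {G : Finset ((Fin n → ℤ) × ℤ)} (hne : (ZP G).Nonempty) {y : Fin n → ℝ}
    (hy : ∀ p ∈ tgt G, dt (rv p.1) y ≤ p.2) : y ∈ ZP G := by
  classical
  obtain ⟨x, hx⟩ := hne
  by_contra hcon
  have hex : (G.filter fun h => (h.2 : ℝ) < dt (rv h.1) y).Nonempty := by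
    by_contra hne
    rw [Finset.not_nonempty_iff_eq_empty] at hne
    apply hcon
    intro h hh
    by_contra hlt
    have : h ∈ G.filter fun h => (h.2 : ℝ) < dt (rv h.1) y := Finset.mem_filter.2 ⟨hh, not_le.1 hlt⟩
    rw [hne] at this
    exact absurd this (Finset.notMem_empty _)
  obtain ⟨h0, hh0, hmin⟩ := Finset.exists_min_image _
    (fun h : (Fin n → ℤ) × ℤ => ((h.2 : ℝ) - dt (rv h.1) x) / (dt (rv h.1) y - dt (rv h.1) x)) hex
  obtain ⟨h0H, h0y⟩ := Finset.mem_filter.1 hh0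
  have h0x := hx h0 h0H
  have hd0 : 0 < dt (rv h0.1) y - dt (rv h0.1) x := by linarith
  set r := ((h0.2 : ℝ) - dt (rv h0.1) x) / (dt (rv h0.1) y - dt (rv h0.1) x) with hr
  have hr0 : 0 ≤ r := div_nonneg (by linarith) hd0.le
  have hr1 : r ≤ 1 := by rw [hr, div_le_one hd0]; linarith
  have hz : x + r • (y - x) ∈ ZP G := by
    intro h hh
    rw [dt_add_smul]
    have h1 := hx h hh
    by_cases h2 : dt (rv h.1) y ≤ h.2
    · nlinarith
    · push Not at h2
      have hd : 0 < dt (rv h.1) y - dt (rv h.1) x := by linarith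
      have h3 := hmin h (Finset.mem_filter.2 ⟨hh, h2⟩)
      rw [le_div_iff₀ hd] at h3
      linarith
  have he : dt (rv h0.1) (x + r • (y - x)) = h0.2 := by
    rw [dt_add_smul, hr, div_mul_cancel₀ _ hd0.ne']; ring
  exact absurd (hy h0 ⟨h0H, _, hz, he⟩) (not_le.2 h0y)

/-- from a point of the closed polytope to an interior point -/
theorem zi_seg {n : ℕ} {G : Finset ((Fin n → ℤ) × ℤ)} {u v : Fin n → ℝ} (hu : u ∈ ZP G)
    (hv : v ∈ ZI G) {r : ℝ} (hr : 0 < r) (hr1 : r ≤ 1) : u + r • (v - u) ∈ ZI G := by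
  intro p hp
  rw [dt_add_smul]
  have h1 := hu p hp
  have h2 := hv p hp
  nlinarith

/-- polytopes with disjoint interiors are different -/
theorem zp_ne {n : ℕ} {G G' : Finset ((Fin n → ℤ) × ℤ)} (h : Disjoint (ZI G) (ZI G'))
    (h1 : (ZI G).Nonempty) (h2 : (ZI G').Nonempty) : ZP G ≠ ZP G' := by
  intro e
  obtain ⟨u, hu⟩ := h1
  obtain ⟨v, hv⟩ := h2
  have hu' : u ∈ ZP G' := e ▸ ZI_sub_ZP _ hu
  have hc : Tendsto (fun r : ℝ => u + r • (v - u)) (𝓝[>] 0) (𝓝 u) := by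
    have h3 : Continuous fun r : ℝ => u + r • (v - u) := by fun_prop
    have h4 := h3.tendsto 0
    rw [zero_smul, add_zero] at h4
    exact h4.mono_left nhdsWithin_le_nhds
  have h5 : ∀ᶠ r in 𝓝[>] (0:ℝ), u + r • (v - u) ∈ ZI G :=
    hc.eventually ((isOpen_ZI G).mem_nhds hu)
  have h6 : ∀ᶠ r in 𝓝[>] (0:ℝ), r ∈ Ioc (0:ℝ) 1 := Ioc_mem_nhdsGT (by norm_num)
  obtain ⟨r, h7, h8⟩ := (h5.and h6).exists
  exact (disjoint_left.1 h h7) (zi_seg hu' hv h8.1 h8.2)

/-! ### the number of tiles of a prism shell -/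

/-- the list of normalised inequalities -/
def nIq (n B C : ℕ) : Finset ((Fin n → ℤ) × ℤ) :=
  (Fintype.piFinset fun _ : Fin n => Finset.Icc (-(B : ℤ)) B) ×ˢ Finset.Icc (-(C : ℤ)) C

/-- the bound for the number of tiles of a prism shell -/
def NSh (n B H : ℕ) : ℕ := 2 ^ (nIq n B (n * (B * H))).card

/-- normalisation of an inequality: the origin is moved to `lo` -/
def nrz {n : ℕ} (lo : Fin n → ℤ) (p : (Fin n → ℤ) × ℤ) : (Fin n → ℤ) × ℤ :=
  (p.1, p.2 - ∑ l, p.1 l * lo l)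

theorem nrz_inj {n : ℕ} (lo : Fin n → ℤ) : Function.Injective (nrz lo) := by
  rintro ⟨a, b⟩ ⟨a', b'⟩ h
  have h1 : a = a' := congrArg Prod.fst h
  subst h1
  have h2 : b - ∑ l, a l * lo l = b' - ∑ l, a l * lo l := congrArg Prod.snd h
  have h3 : b = b' := by linarith
  rw [h3]

variable {n : ℕ} (S : PS n)

theorem nrz_mem {B H : ℕ} (hB : ∀ i, ∀ p ∈ S.GG i, ∀ l, |p.1 l| ≤ (B : ℤ))
    (hH : ∀ l, S.hi l - S.lo l + S.t ≤ H) {i : S.Ix} {p : (Fin n → ℤ) × ℤ} (hp : p ∈ tgt (S.GG i)) :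
    nrz S.lo p ∈ nIq n B (n * (B * H)) := by
  obtain ⟨h1, z, hz, h2⟩ := hp
  have hz' := S.sub_Bp i hz
  unfold nIq
  rw [Finset.mem_product, Fintype.mem_piFinset]
  refine ⟨fun l => Finset.mem_Icc.2 (abs_le.1 (hB i p h1 l)), ?_⟩
  have hS := S.t0
  have key : |((p.2 - ∑ l, p.1 l * S.lo l : ℤ) : ℝ)| ≤ ((n * (B * H) : ℕ) : ℝ) := by
    have e : ((p.2 - ∑ l, p.1 l * S.lo l : ℤ) : ℝ) = ∑ l, (p.1 l : ℝ) * (z l - S.lo l) := by
      push_cast
      rw [← h2]
      unfold dt rv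
      rw [← Finset.sum_sub_distrib]
      exact Finset.sum_congr rfl fun l _ => by ring
    rw [e]
    refine (Finset.abs_sum_le_sum_abs _ _).trans ?_
    have h3 : ∀ l ∈ (Finset.univ : Finset (Fin n)), |(p.1 l : ℝ) * (z l - S.lo l)| ≤ (B * H : ℕ) := by
      intro l _
      rw [abs_mul]
      have h4 : |(p.1 l : ℝ)| ≤ B := by exact_mod_cast hB i p h1 l
      have h5 : |z l - S.lo l| ≤ (H : ℝ) := by
        have h6 := hz' l
        have h7 : ((S.hi l : ℝ) - S.lo l + S.t) ≤ H := by exact_mod_cast hH l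
        have h8 : (S.lo l : ℝ) < S.hi l := S.lo_lt l
        rw [abs_le]
        constructor <;> linarith [h6.1, h6.2]
      push_cast
      exact mul_le_mul h4 h5 (abs_nonneg _) (by positivity)
    refine (Finset.sum_le_sum h3).trans ?_
    rw [Finset.sum_const, Finset.card_univ, Fintype.card_fin, nsmul_eq_mul]
    push_cast
    exact le_rfl
  rw [Finset.mem_Icc]
  have h9 : |(p.2 - ∑ l, p.1 l * S.lo l : ℤ)| ≤ ((n * (B * H) : ℕ) : ℤ) := by exact_mod_cast key
  exact abs_le.1 h9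

/-- **the number of tiles of a prism shell** -/
theorem card_Ix_le {B H : ℕ} (hB : ∀ i, ∀ p ∈ S.GG i, ∀ l, |p.1 l| ≤ (B : ℤ))
    (hH : ∀ l, S.hi l - S.lo l + S.t ≤ H) : Nat.card S.Ix ≤ NSh n B H := by
  classical
  have hfin : ∀ i : S.Ix, (tgt (S.GG i)).Finite := fun i =>
    (S.GG i).finite_toSet.subset fun p hp => hp.1
  let code : S.Ix → {x // x ∈ (nIq n B (n * (B * H))).powerset} := fun i =>
    ⟨((hfin i).toFinset).image (nrz S.lo), by
      rw [Finset.mem_powerset]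
      intro q hq
      obtain ⟨p, hp, rfl⟩ := Finset.mem_image.1 hq
      exact nrz_mem S hB hH ((hfin i).mem_toFinset.1 hp)⟩
  have hinj : Function.Injective code := by
    intro i j hij
    have h1 : ((hfin i).toFinset).image (nrz S.lo) = ((hfin j).toFinset).image (nrz S.lo) :=
      congrArg Subtype.val hij
    have h2 : (hfin i).toFinset = (hfin j).toFinset := Finset.image_injective (nrz_inj S.lo) h1
    have h3 : tgt (S.GG i) = tgt (S.GG j) := by
      rw [← (hfin i).coe_toFinset, ← (hfin j).coe_toFinset, h2]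
    by_contra hne
    have h4 := zp_ne (S.dis hne) (S.ne i) (S.ne j)
    apply h4
    have hnei : (ZP (S.GG i)).Nonempty := (S.ne i).mono (ZI_sub_ZP _)
    have hnej : (ZP (S.GG j)).Nonempty := (S.ne j).mono (ZI_sub_ZP _)
    ext y
    constructor
    · intro hy
      refine zp_near hnej fun p hp => ?_
      rw [← h3] at hp
      exact hy p hp.1
    · intro hy
      refine zp_near hnei fun p hp => ?_
      rw [h3] at hp
      exact hy p hp.1
  have h5 := Nat.card_le_card_of_injective code hinj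
  refine h5.trans (le_of_eq ?_)
  rw [Nat.card_eq_fintype_card, Fintype.card_coe, Finset.card_powerset]
  rfl

/-! ### the number of cubes -/

variable {E : Type*} [NormedAddCommGroup E] [NormedSpace ℝ E]

theorem mem_cube {Q : CB E n} {m : ℕ} {z : Fin n → ℤ} {y : E} :
    y ∈ cube Q m z ↔ ∀ l, (z l : ℝ) ≤ ps Q.a' m (Q.ψ y) l ∧ ps Q.a' m (Q.ψ y) l ≤ z l + 1 := by
  unfold cube
  rw [mem_ofPred_eq, mem_Cu]

theorem exists_corner (Q : CB E n) (m : ℕ) (z : Fin n → ℤ) :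
    ∃ y ∈ cube Q m z, ∀ l, ps Q.a' m (Q.ψ y) l = z l := by
  obtain ⟨y, hy⟩ := exists_ps Q.ψ Q.a' m (fun l => (z l : ℝ))
  refine ⟨y, ?_, fun l => by rw [hy]⟩
  rw [mem_cube]
  intro l
  rw [hy]
  constructor <;> linarith

/-- the cubes of scale `m ≥ kc` inside the block -/
theorem cubes_sub {Q : CB E n} {H m : ℕ} (hm : Q.kc ≤ m) (hH : ∀ l, Q.S.hi l - Q.S.lo l + 2 * Q.w ≤ H) :
    {z : Fin n → ℤ | cube Q m z ⊆ Q.N} ⊆
      ((Fintype.piFinset fun l : Fin n => Finset.Icc (2 ^ (m - Q.kc) * (Q.S.lo l - Q.w))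
        (2 ^ (m - Q.kc) * (Q.S.lo l - Q.w) + 2 ^ (m - Q.kc) * H) : Finset (Fin n → ℤ)) :
        Set (Fin n → ℤ)) := by
  intro z hz
  obtain ⟨y, hy, hyz⟩ := exists_corner Q m z
  have h1 := (Q.mem_N).1 (hz hy)
  rw [Finset.mem_coe, Fintype.mem_piFinset]
  intro l
  have h2 := h1 l
  have e : ps Q.a' m (Q.ψ y) l = 2 ^ (m - Q.kc) * ps Q.a' Q.kc (Q.ψ y) l := by
    unfold ps
    rw [← mul_assoc, ← pow_add, Nat.sub_add_cancel hm]
  have h3 := hyz l
  rw [e] at h3
  have hp : (0 : ℝ) < 2 ^ (m - Q.kc) := by positivity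
  have h4 : (2 : ℝ) ^ (m - Q.kc) * (Q.S.lo l - Q.w) ≤ z l := by
    rw [← h3]
    exact mul_le_mul_of_nonneg_left h2.1 hp.le
  have h5 : (z l : ℝ) ≤ 2 ^ (m - Q.kc) * (Q.S.lo l - Q.w) + 2 ^ (m - Q.kc) * H := by
    rw [← h3, ← mul_add]
    refine mul_le_mul_of_nonneg_left (h2.2.trans ?_) hp.le
    have h6 : ((Q.S.hi l : ℝ) - Q.S.lo l + 2 * Q.w) ≤ H := by exact_mod_cast hH l
    linarith
  rw [Finset.mem_Icc]
  exact ⟨by exact_mod_cast h4, by exact_mod_cast h5⟩

theorem cubes_finite {Q : CB E n} {m : ℕ} (hm : Q.kc ≤ m) : {z : Fin n → ℤ | cube Q m z ⊆ Q.N}.Finite := by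
  obtain ⟨H, hH⟩ : ∃ H : ℕ, ∀ l, Q.S.hi l - Q.S.lo l + 2 * Q.w ≤ H := by
    refine ⟨∑ l, (Q.S.hi l - Q.S.lo l + 2 * Q.w).toNat, fun l => ?_⟩
    refine (Int.self_le_toNat _).trans ?_
    exact_mod_cast Finset.single_le_sum (f := fun l => (Q.S.hi l - Q.S.lo l + 2 * Q.w).toNat)
      (fun _ _ => Nat.zero_le _) (Finset.mem_univ l)
  exact (Finset.finite_toSet _).subset (cubes_sub hm hH)

theorem cubes_card {Q : CB E n} {H m : ℕ} (hm : Q.kc ≤ m) (hH : ∀ l, Q.S.hi l - Q.S.lo l + 2 * Q.w ≤ H) :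
    {z : Fin n → ℤ | cube Q m z ⊆ Q.N}.ncard ≤ (2 ^ (m - Q.kc) * H + 1) ^ n := by
  refine (ncard_le_ncard (cubes_sub hm hH) (Finset.finite_toSet _)).trans ?_
  rw [ncard_coe_finset, Fintype.card_piFinset]
  have : ∀ l : Fin n, (Finset.Icc ((2 : ℤ) ^ (m - Q.kc) * (Q.S.lo l - Q.w))
      (2 ^ (m - Q.kc) * (Q.S.lo l - Q.w) + 2 ^ (m - Q.kc) * H)).card = 2 ^ (m - Q.kc) * H + 1 := by
    intro l
    rw [Int.card_Icc]
    have e : (2 : ℤ) ^ (m - Q.kc) * (Q.S.lo l - Q.w) + 2 ^ (m - Q.kc) * H + 1 -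
        2 ^ (m - Q.kc) * (Q.S.lo l - Q.w) = ((2 ^ (m - Q.kc) * H + 1 : ℕ) : ℤ) := by
      push_cast; ring
    rw [e, Int.toNat_natCast]
  rw [Finset.prod_congr rfl fun l _ => this l, Finset.prod_const, Finset.card_univ, Fintype.card_fin]

/-! ### the coarse potential tiles -/

/-- the coarse potential tiles: cubes of scale `kc ≤ k < K` inside the block, tiles of the shell -/
def CT (Q : CB E n) (K : ℕ) : Set (Pt Q) :=
  {t | (∃ m z, t = Sum.inl (m, z) ∧ Q.kc ≤ m ∧ m < K ∧ cube Q m z ⊆ Q.N) ∨ ∃ s, t = Sum.inr s}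

/-- the bound for the number of coarse potential tiles (`dk = K - kc`) -/
def NCT (n B H dk : ℕ) : ℕ := dk * (2 ^ dk * H + 1) ^ n + NSh n B H

theorem ct_eq (Q : CB E n) (K : ℕ) : CT Q K =
    (⋃ m ∈ Finset.Ico Q.kc K, (fun z => (Sum.inl (m, z) : Pt Q)) '' {z | cube Q m z ⊆ Q.N}) ∪
      range (Sum.inr : Q.S.Ix → Pt Q) := by
  ext t
  unfold CT
  simp only [mem_ofPred_eq, mem_union, mem_iUnion, Finset.mem_Ico, mem_image, mem_range]
  constructor
  · rintro (⟨m, z, rfl, h1, h2, h3⟩ | ⟨s, rfl⟩)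
    · exact Or.inl ⟨m, ⟨h1, h2⟩, z, h3, rfl⟩
    · exact Or.inr ⟨s, rfl⟩
  · rintro (⟨m, ⟨h1, h2⟩, z, h3, rfl⟩ | ⟨s, rfl⟩)
    · exact Or.inl ⟨m, z, rfl, h1, h2, h3⟩
    · exact Or.inr ⟨s, rfl⟩

theorem ct_finite (Q : CB E n) (K : ℕ) : (CT Q K).Finite := by
  rw [ct_eq]
  refine Finite.union ?_ (finite_range _)
  refine Finite.biUnion (Finset.finite_toSet _) fun m hm => ?_
  exact (cubes_finite (Finset.mem_Ico.1 (Finset.mem_coe.1 hm)).1).image _

/-- **the number of coarse potential tiles** -/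
theorem ct_card {Q : CB E n} {K B H dk : ℕ} (hK : K ≤ Q.kc + dk)
    (hB : ∀ i, ∀ p ∈ Q.S.GG i, ∀ l, |p.1 l| ≤ (B : ℤ))
    (hH : ∀ l, Q.S.hi l - Q.S.lo l + 2 * Q.w ≤ H) : (CT Q K).ncard ≤ NCT n B H dk := by
  rw [ct_eq]
  refine (ncard_union_le _ _).trans (Nat.add_le_add ?_ ?_)
  · have h1 : ∀ I : Finset ℕ, (∀ m ∈ I, Q.kc ≤ m ∧ m < K) →
        (⋃ m ∈ I, (fun z => (Sum.inl (m, z) : Pt Q)) '' {z | cube Q m z ⊆ Q.N}).ncard ≤
          I.card * (2 ^ dk * H + 1) ^ n := by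
      intro I
      induction I using Finset.induction_on with
      | empty => intro _; simp
      | insert m I hm ih =>
        intro hI
        rw [Finset.set_biUnion_insert, Finset.card_insert_of_notMem hm, add_comm I.card, add_mul,
          one_mul]
        refine (ncard_union_le _ _).trans (Nat.add_le_add ?_ (ih fun k hk => hI k (Finset.mem_insert_of_mem hk)))
        obtain ⟨h2, h3⟩ := hI m (Finset.mem_insert_self _ _)
        refine (ncard_image_le (cubes_finite h2)).trans ((cubes_card h2 hH).trans ?_)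
        have h4 : m - Q.kc ≤ dk := by omega
        gcongr
        norm_num
    refine (h1 _ fun m hm => Finset.mem_Ico.1 hm).trans ?_
    rw [Nat.card_Ico]
    gcongr
    omega
  · rw [← image_univ]
    refine (ncard_image_le (toFinite _)).trans ?_
    rw [ncard_univ]
    refine card_Ix_le Q.S hB fun l => ?_
    have h1 := hH l
    have h2 := Q.hw
    have h3 := Q.S.t0
    omega

/-- the used cubes of scale `< K` are coarse potential tiles -/
theorem mem_CT_of_use {Q : CB E n} {K : ℕ} {p : ℕ × (Fin n → ℤ)} (h : Use Q p) (hp : p.1 < K) :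
    Sum.inl p ∈ CT Q K := by
  obtain ⟨⟨k, hk, x, hx, hx0, hxK⟩, h2, -⟩ := h
  have h3 : Q.kc ≤ p.1 := by
    have h4 : Q.kc ≤ Msh_810.K (Q.D k hk) x := blkE_kc_le x
    rw [hxK] at h4
    exact h4
  exact Or.inl ⟨p.1, p.2, rfl, h3, hp, h2⟩

theorem mem_CT_inr {Q : CB E n} {K : ℕ} (s : Q.S.Ix) : (Sum.inr s : Pt Q) ∈ CT Q K :=
  Or.inr ⟨s, rfl⟩

/-! ### the blocks of the bricks -/

section shell

open Crest.Agent.R096.Fbr_628 (Flg hs Fct exists_fct_flag dir_coord)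

variable {La : Set E3} {F : Set (Bx (Fin 3))} {δ κ0 : ℝ} {N : ℕ} {FF : Foam La (Pc F) (bc (F := F)) N}
  {h3 : Module.finrank ℝ (Fin 3 → ℝ) = 3} {c : F} {o : E3} {B : ℝ} (D : Fbr_628.BD FF h3 c o B)
  (hN : N ≤ 4) (BF : BoxFoam La F δ κ0) (hLa : IsOpen La) (hQ : Quads (Pc F) (bc (F := F)))
  {m : ℕ} (hm : 0 < m) {t : ℤ} (ht : 0 < t) (A : E3 ≃ᵃ[ℝ] E3) {lam : ℝ} (hl : 0 < lam)

include D hN BF hLa in
/-- the half sides of a brick in units of `w` are bounded -/
theorem bd_h_le (l : Fin 3) : (D.h l : ℝ) ≤ B := by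
  have h4 : ∀ j, 0 < hs c j := fun j => by
    have h := Bx.side_pos (BF.pos _ c.2) j
    have e : hs c j = c.1.side j / 2 := rfl
    rw [e]; linarith
  obtain ⟨f, -, hfl⟩ := exists_fct_flag FF h3 hN BF hLa (c := c) (l := l)
      (u := hs c l • (Pi.single l 1 : Fin 3 → ℝ)) (ε := 1) (by
        intro j
        rw [Pi.smul_apply, smul_eq_mul]
        by_cases hj : j = l
        · subst hj
          rw [Pi.single_eq_same, mul_one, abs_of_pos (h4 j)]
        · rw [Pi.single_eq_of_ne hj, mul_zero, abs_zero]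
          exact (h4 j).le) (Or.inl rfl) (by simp)
  have h1 := dir_coord FF hfl 0
  have h2 := D.dle f 0 l
  rw [h1, one_mul, D.side, abs_mul, abs_of_pos D.w0] at h2
  have h5 := le_of_mul_le_mul_right h2 D.w0
  exact (le_abs_self _).trans h5

/-- the size of the block in cells of scale `kc` -/
def HD (m Bc t : ℕ) : ℕ := 2 * m * Bc + 2 * (t + 10)

theorem blkD_H {Bc : ℕ} (hB : B ≤ Bc) {t0 : ℕ} (ht0 : t = t0) (l : Fin 3) :
    (blkD D hN BF hLa hQ hm ht A hl).S.hi l - (blkD D hN BF hLa hQ hm ht A hl).S.lo l +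
      2 * (blkD D hN BF hLa hQ hm ht A hl).w ≤ HD m Bc t0 := by
  have h1 : D.h l ≤ (Bc : ℤ) := by
    have := (bd_h_le D hN BF hLa l).trans hB
    exact_mod_cast this
  change D.hi m l - D.lo m l + 2 * (t + 10) ≤ _
  have e1 : D.hi m l = m * (D.z l + D.h l) := rfl
  have e2 : D.lo m l = m * (D.z l - D.h l) := rfl
  rw [e1, e2, ht0]
  unfold HD
  push_cast
  have h2 : (m : ℤ) * D.h l ≤ m * Bc := mul_le_mul_of_nonneg_left h1 (by positivity)
  nlinarith

/-- **the number of coarse potential tiles of the block of a brick, uniformly in the brick** -/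
theorem blkD_ct {Bc Bn : ℕ} (hB : B ≤ Bc) (h1 : 1 ≤ Bn) (hBn : 4 * B ^ 2 ≤ Bn) {t0 : ℕ}
    (ht0 : t = t0) {K dk : ℕ} (hK : K ≤ 3 + dk) :
    (CT (blkD D hN BF hLa hQ hm ht A hl) K).Finite ∧
      (CT (blkD D hN BF hLa hQ hm ht A hl) K).ncard ≤ NCT 3 Bn (HD m Bc t0) dk :=
  ⟨ct_finite _ _, ct_card hK (blkD_bnd D hN BF hLa hQ hm ht A hl h1 hBn)
    fun l => blkD_H D hN BF hLa hQ hm ht A hl hB ht0 l⟩

end shell

end

end Crest.Agent.R096.Mdd_360
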