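import Crest.Agent.R096.Mdd11_360
import Crest.Agent.R096.Wd17_120

/-!
Row 96 (S0127), helper360.  BLOCK DATA for EaX (365 #11531): for all bricks at once.

* `BlkX` : the block `Q` of the brick `c` with map `A` and ratio `lam` (everything uniform in the brick);
* **`exists_blkX`** : the blocks `blkD` of a dyadic box foam, for every subdivision number
  `m ≥ 11 / (2 κ)`.
-/

set_option autoImplicit false
set_option linter.style.longLine false
set_option linter.unusedSectionVars false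

open MeasureTheory Set Filter Topology Metric

namespace Crest.Agent.R096.Mdd_360

open Crest.Agent.R096.Bsp_628 Crest.Agent.R096.Brk5_582 Crest.Agent.R096.Brk1_582
open Crest.Agent.R096.Brk2_582 Crest.Agent.R096.Brk3_582 Crest.Agent.R096.Grd_714
open Crest.Agent.R096.SkC1_961 (E3 FoamD Hom3 th)
open Crest.Agent.R096.EaX_766 (cbx RatA)
open Crest.Agent.R096.Bxs_627 (ctr zz)
open Crest.Agent.R096.Mal_874 Crest.Agent.R096.Msh_810 Crest.Agent.R096.Msh_715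
open Crest.Agent.R096.Mfi_290

noncomputable section

/-- **block data of a brick** (`EaX`): bounds `Bn, R0, H`, subdivision number `m`, thickness `κ` -/
structure BlkX (F : Set (Bx (Fin 3))) (Bn : ℕ) (R0 : ℝ) (m H : ℕ) (κ : ℝ) (c : F)
    (A : E3 ≃ᵃ[ℝ] E3) (lam : ℝ) (Q : CB E3 3) : Prop where
  kc : Q.kc = 3
  Kc : Q.Kc = A ⁻¹' cbx c.1 lam
  N : Q.N ⊆ A ⁻¹' cbx c.1 ((1 + 2 * κ) * lam)
  bnd : ∀ i, ∀ p ∈ Q.S.GG i, ∀ l, |p.1 l| ≤ (Bn : ℤ)
  size : ∀ i, i ≠ Q.S.core → ∀ v ∈ ZP (Q.S.GG i), ∀ w ∈ ZP (Q.S.GG i), ∀ l, |w l - v l| ≤ R0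
  H : ∀ l, Q.S.hi l - Q.S.lo l + 2 * Q.w ≤ H
  unit : ∃ s : ℝ, 0 < s ∧ (∀ y, Q.ψ y = s⁻¹ • A.linear y) ∧ s ≤ 4 / m * (lam * c.1.sz)
  rt : ∃ (Bm : Fin 3 → Fin 3 → ℤ) (d : ℕ), 0 < d ∧
      Rt (ContinuousLinearEquiv.refl ℝ E3) Q.ψ Bm d ∧ ∀ l, ∃ z : ℤ, (d : ℝ) * Q.a' l = z
  grid : ∀ (k : ℕ) (hk : Q.kc ≤ k), ∀ x ∈ Q.Kc, x ∉ I ((Q.T k hk).H (Q.cix k hk)) →
      (Q.T k hk).cc x =
        {y | y ∈ Q.Kc ∧ ∀ a : F,
          (⌊m * sc (Pc F) (bc (F := F)) (th A lam (zz c.1 lam) x) a⌋₊ : ℝ) ≤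
            m * sc (Pc F) (bc (F := F)) (th A lam (zz c.1 lam) y) a ∧
          m * sc (Pc F) (bc (F := F)) (th A lam (zz c.1 lam) y) a ≤
            ⌈m * sc (Pc F) (bc (F := F)) (th A lam (zz c.1 lam) x) a⌉₊} ∧
      (Q.T k hk).dim x =
        {a : F | ⌊m * sc (Pc F) (bc (F := F)) (th A lam (zz c.1 lam) x) a⌋₊ <
          ⌈m * sc (Pc F) (bc (F := F)) (th A lam (zz c.1 lam) x) a⌉₊}.ncard

namespace BlkX

variable {F : Set (Bx (Fin 3))} {Bn : ℕ} {R0 : ℝ} {m H : ℕ} {κ : ℝ} {c : F}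
    {A : E3 ≃ᵃ[ℝ] E3} {lam : ℝ} {Q : CB E3 3}

/-- number of coarse potential tiles -/
theorem card (h : BlkX F Bn R0 m H κ c A lam Q) {K dk : ℕ} (hK : K ≤ 3 + dk) :
    (CT Q K).Finite ∧ (CT Q K).ncard ≤ NCT 3 Bn H dk :=
  ⟨ct_finite _ _, ct_card (by rw [h.kc]; exact hK) h.bnd h.H⟩

/-- the frame is a multiple of the linear part of the map -/
theorem uA {s : ℝ} (hs : 0 < s) (hψ : ∀ y, Q.ψ y = s⁻¹ • A.linear y) (x y : E3) :
    ‖A y - A x‖ ≤ s * dist (Q.ψ x) (Q.ψ y) := by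
  rw [dist_eq_norm, ← map_sub Q.ψ, hψ, norm_smul, Real.norm_of_nonneg (inv_nonneg.2 hs.le), ← mul_assoc,
    mul_inv_cancel₀ hs.ne', one_mul, lin_dif, norm_sub_rev]

end BlkX

/-- the bound of 628's data -/
def BRM (R M : ℝ) : ℝ := 2 * R * M

/-- the bound for the entries of the inequalities -/
def BnX (R M : ℝ) : ℕ := ⌈4 * BRM R M ^ 2⌉₊ + 1

/-- the bound for the size of the tiles of the shell -/
def R0X (R M : ℝ) : ℝ := 8 * BRM R M + 1

/-- the bound for the size of the block -/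
def HX (R M : ℝ) (m : ℕ) : ℕ := HD m ⌈BRM R M⌉₊ 1

/-- **the blocks of the bricks of a dyadic box foam** -/
theorem exists_blkX {δ κ0 R M : ℝ} (hR : 1 ≤ R) (hM : 0 < M) {m : ℕ} (hm : 0 < m) {κ : ℝ}
    (hκ : 11 ≤ 2 * κ * m) {La : Set E3} (hLa : IsOpen La) {F : Set (Bx (Fin 3))}
    (bf : BoxFoam La F δ κ0) (cmp : Cmp F R) {o : E3} {u : ℝ} (hu : 0 < u)
    (hdy : ∀ C ∈ F, Dy o u M C) (X : Set F) (A : F → E3 ≃ᵃ[ℝ] E3) (lam : F → ℝ)
    (hX : ∀ c ∈ X, 0 < lam c ∧ (∃ q : ℚ, lam c = q) ∧ RatA o u (A c)) :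
    ∃ Q : F → CB E3 3, ∀ c ∈ X, BlkX F (BnX R M) (R0X R M) m (HX R M m) κ c (A c) (lam c) (Q c) := by
  classical
  have h3 : Module.finrank ℝ (Fin 3 → ℝ) = 3 := by simp
  have hN : Fintype.card (Fin 3) + 1 ≤ 4 := by simp
  have hQ : Quads (Pc F) (bc (F := F)) := quads_box bf (by simp)
  have hB0 : 0 < BRM R M := by unfold BRM; positivity
  have hBn : 4 * BRM R M ^ 2 ≤ (BnX R M : ℝ) := by
    unfold BnX
    push_cast
    have := Nat.le_ceil (4 * BRM R M ^ 2)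
    linarith
  have hBn1 : 1 ≤ BnX R M := by unfold BnX; omega
  have hm' : (0 : ℝ) < m := by exact_mod_cast hm
  let D : ∀ c : F, Fbr_628.BD (foam bf hLa) h3 c o (BRM R M) := fun c =>
    (Fbr_628.exists_BD bf hLa hR cmp hu hM hdy (foam bf hLa) hN h3 c).some
  let Q : F → CB E3 3 := fun c => if h : 0 < lam c then
    blkD (D c) hN bf hLa hQ hm one_pos (A c) h else
    blkD (D c) hN bf hLa hQ hm one_pos (A c) one_pos
  refine ⟨Q, fun c hc => ?_⟩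
  obtain ⟨hl, hlq, hrat⟩ := hX c hc
  have hQc : Q c = blkD (D c) hN bf hLa hQ hm one_pos (A c) hl := dif_pos hl
  rw [hQc]
  refine
    { kc := rfl
      Kc := blkD_Kc (D c) hN bf hLa hQ hm one_pos (A c) hl
      N := blkD_N (D c) hN bf hLa hQ hm one_pos (A c) hl (by push_cast; linarith)
      bnd := blkD_bnd (D c) hN bf hLa hQ hm one_pos (A c) hl hBn1 hBn
      size := blkD_size (D c) hN bf hLa hQ hm one_pos (A c) hl (by unfold R0X; linarith)
        (by unfold R0X; push_cast; linarith)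
      H := fun l => blkD_H (D c) hN bf hLa hQ hm one_pos (A c) hl (Nat.le_ceil _) (by norm_num) l
      unit := ⟨lam c * uD (D c) m, mul_pos hl (uD_pos (D c) hm), fun y => rfl, ?_⟩
      rt := blkD_rt (D c) hN bf hLa hQ hm one_pos (A c) hl hu hrat (hdy _ c.2) hlq
      grid := fun k hk => Wd_120.grid_blkD (D c) hN bf hLa hQ hm one_pos (A c) hl k hk }
  have h1 := two_w_le (D c) 0
  have h2 := Bx.side_le_sz c.1 0
  have e : lam c * uD (D c) m = 8 / m * (lam c * (D c).w) := by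
    unfold uD
    field_simp
    ring
  rw [e]
  have h4 : lam c * (D c).w ≤ lam c * (c.1.sz / 2) := mul_le_mul_of_nonneg_left (by linarith) hl.le
  have h5 : 8 / m * (lam c * (c.1.sz / 2)) = 4 / m * (lam c * c.1.sz) := by ring
  rw [← h5]
  exact mul_le_mul_of_nonneg_left h4 (by positivity)

end

end Crest.Agent.R096.Mdd_360
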