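import Crest.Agent.R096.Mdd13_360
import Crest.Agent.R096.Exg1_766

/-!
Row 96 (S0127), helper360.  **MD + RD + (B1) OF EaX**, one theorem: the mesh data of the pre-translated
blocks, rooms before the pre-translation.
-/

set_option autoImplicit false
set_option linter.style.longLine false
set_option linter.unusedSectionVars false

open MeasureTheory Set Filter Topology Metric

namespace Crest.Agent.R096.Mdd_360

open Crest.Agent.R096.Bsp_628 Crest.Agent.R096.Brk5_582 Crest.Agent.R096.Brk1_582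
open Crest.Agent.R096.Brk2_582 Crest.Agent.R096.Brk3_582
open Crest.Agent.R096.SkC1_961 (E3 FoamD Hom3)
open Crest.Agent.R096.EaX_766 (cbx RatA lin)
open Crest.Agent.R096.Bxs_627 (ctr CoriE fD zz)
open Crest.Agent.R096.Mal_874 Crest.Agent.R096.Msh_810 Crest.Agent.R096.Msh_715
open Crest.Agent.R096.Fns_360
open Crest.Agent.R96.EaP_899 (fX XD cm)
open Crest.Agent.R96.Eam_466 (OX FineX)
open Crest.Agent.R096.Eau_365 (BkX)
open Crest.Agent.R96.Gj_872 (Dy)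

noncomputable section

variable {La Om : Set E3} {f : E3 → E3} {F : Set (Bx (Fin 3))} {δ κ0 R c0 : ℝ} {X : Set F}

/-- the numbers of `mdX` -/
structure NumX (δ κ0 R c0 κ1 κ2 κ3 κ4 τ1 τ κe κ2' η εf : ℝ) (m : ℕ) (R0 : ℝ) : Prop where
  k1 : 0 ≤ κ1
  t1 : 0 ≤ τ1
  t : 0 < τ
  k43 : κ4 + τ1 < κ3
  ke : κ1 + τ1 + τ ≤ κe
  k8 : κe * κ0 ≤ 1 / 8
  k2a : κ2' + τ + τ1 ≤ κ2
  k2b : κ2' + τ ≤ 1 / 4
  k2c : 0 ≤ κ2'
  m0 : 0 < m
  eta : R0 / (2 * m) ≤ η
  eps : KI δ κ0 R (cm κ0 c0) * (η + 2 * κe) ≤ εf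

/-- **MD + RD + (B1) of EaX.**  `lam` = final ratios `(1 + θ) lam`; the blocks `Q0 c` have their cores at
`A c ⁻¹' cbx`; room `r` before the pre-translation `w0` (dyadic, of size `τ1`). -/
theorem mdX (hOm : IsOpen Om) (hLa : IsOpen La) (hδ : 0 < δ) (hR : 0 < R) (hf : Hom3 f Om La)
    (bf : BoxFoam La F δ κ0) (cmp : Cmp F R) {lam : F → ℝ} {zc : F → E3} (H : XD bf c0 X lam zc)
    {fi : E3 → E3} (hfi : ∀ y ∈ Om, fi (f y) = y)
    {κ1 κ2 κ3 κ4 τ1 τ κe κ2' η εf R0 : ℝ} {m Bn : ℕ}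
    (hn : NumX δ κ0 R c0 κ1 κ2 κ3 κ4 τ1 τ κe κ2' η εf m R0)
    (hBn : 1 ≤ Bn) (hR0 : 1 ≤ R0)
    (hlτ : ∀ c ∈ X, (1 + 2 * (κe * κ0)) * lam c < 1)
    {A : F → E3 ≃ᵃ[ℝ] E3} (hcor : ∀ c ∈ X, CoriE Om f (A c) c.1 (lam c) κ1 κ2)
    (hcor3 : ∀ c ∈ X, CoriE Om f (A c) c.1 (lam c) κ1 κ3)
    (hgap3 : ∀ c ∈ X, (1 / 2 + κ3) * lam c + κ1 * κ0 * lam c < 1 / 2)
    {Q0 : F → CB E3 3} (hQ0 : ∀ c ∈ X, BkX F c (A c) (lam c) κ4 m Bn R0 (Q0 c))
    {D0 : Dat 3} (hD : D0.Om = Om) (hC : 6 ≤ D0.C)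
    {x : {c // c ∉ X} → E3} {Rz : {c // c ∉ X} → ℝ}
    (hF : ∀ y ∈ Om, FineS (fX bf cmp H) f εf
      (closedBall y (D0.ρ y) ∩ (Om ∩ offO f (OX X lam La fi x fun c => Rz c / 2))))
    {ζ : X → ℝ} (hζ : ∀ c, 0 < ζ c) :
    ∃ r : X → ℝ, (∀ c, 0 < r c) ∧ (∀ c, r c ≤ ζ c) ∧
      (∀ (c : X) (v : E3), ‖v‖ ≤ r c → ‖(A c).linear v‖ ≤ τ * (lam c * c.1.1.sz) ∧
        ∀ k, |(A c).linear v k| ≤ τ * (lam c * c.1.1.side k)) ∧
      ∀ w0 : X → E3, (∀ c : X, ‖(A c).linear (w0 c)‖ ≤ τ1 * (lam c * c.1.1.sz) ∧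
          ∀ k, |(A c).linear (w0 c) k| ≤ τ1 * (lam c * c.1.1.side k)) →
        ∀ κw : X → ℕ, (∀ c, w0 c ∈ Dy (ContinuousLinearEquiv.refl ℝ E3) (κw c)) →
        ∃ (M : MD E3 3 X) (Y : RD M), M.φ = ContinuousLinearEquiv.refl ℝ E3 ∧ M.D0 = D0 ∧
          (M.Q = fun c : X => (Q0 c).tr (w0 c)) ∧ M.r = r ∧ M.φ ⁻¹' M.D0.Om = Om ∧
          (Y.B = fun _ => Bn) ∧ (Y.R = fun _ => R0) ∧
          (∀ c j, ∃ z : ℤ, 2 ^ κw c * (Y.d c : ℝ) * (M.Q c).a' j = z) ∧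
          (∀ c : X, cthickening (M.r c) (M.Q c).N ⊆ A c ⁻¹' cbx c.1.1 ((1 + 2 * κ3) * lam c)) ∧
          ∀ {k : X → ℕ} (hk : M.Sc k) (a : Fin 3 → ℝ) {v : X → E3} (hv : M.Adm v)
            {ct0 : F → M.OIx hk a hv ⊕ Σ j, M.IIx hk a hv j},
            (∀ c : X, ct0 c.1 = Sum.inr ⟨c, M.core hk a hv c⟩) →
            (∀ c : X, Mbf_337.Exact (fX bf cmp H) (M.mesh hk a hv) f κe κ2' c.1
              (Sum.inr ⟨c, M.core hk a hv c⟩) (trA (A c) (w0 c + v c)) (lam c)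
              (zz c.1.1 (lam c))) ∧
            FineX (fX bf cmp H) (M.mesh hk a hv) f εf X ct0 x Rz := by
  have hlc : ∀ c ∈ X, 0 < lam c := fun c hc => H.pos hc
  have hκ0 : 1 ≤ κ0 := H.hκ
  have hinj : Function.Injective (fun c : X => c.1) := Subtype.val_injective
  obtain ⟨r, hr0, hr1, hr2, -, hr⟩ := md_genU hOm hf bf hinj (A := fun c : X => A c)
    (lam := fun c : X => lam c) (fun c => hlc c c.2) hn.k43 hn.k1 hn.t (fun c => hgap3 c c.2)
    (fun c => hcor3 c c.2) hD hC hζ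
  refine ⟨r, hr0, hr1, hr2, fun w0 hw0 κw hκw => ?_⟩
  obtain ⟨M, h1, h2, h3, h4, h5, h6⟩ := hr (fun c : X => (Q0 c).tr (w0 c)) fun c =>
    n_tr_cbx (hQ0 c c.2).N fun k => ((hw0 c).2 k).trans (le_of_eq (by ring))
  -- rational data
  choose Bm d hd hrt ha using fun c : X => (hQ0 c c.2).rt
  choose cc hcc hcn using fun c : X => exists_cn (ContinuousLinearEquiv.refl ℝ E3) (Q0 c).ψ
  obtain ⟨Y, -, -, -, hYB, hYR, hYc⟩ := exists_RD_tr M (Q0 := fun c : X => Q0 c) (w0 := w0) h3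
    (κ0 := fun _ => 0) (κ := κw) (fun _ => Nat.zero_le _) hd (by rw [h1]; exact hrt)
    (fun c j => by
      obtain ⟨z, hz⟩ := ha c j
      exact ⟨z, by rw [pow_zero, one_mul]; exact hz⟩)
    (fun c l => by rw [h1]; exact hκw c l) (fun _ => Bn) (fun _ => hBn)
    (fun c i p hp l => (hQ0 c c.2).bnd i p hp l) (fun _ => R0) (fun _ => hR0)
    (fun c i hi u hu v hv l => (hQ0 c c.2).size i hi u hu v hv l) (c := cc) hcc
    (by rw [h1]; exact hcn)
  refine ⟨M, Y, h1, h2, h3, h4, h5, hYB, hYR, hYc, h6, ?_⟩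
  intro k hk a v hv ct0 hct0
  classical
  -- the translated maps
  let A' : F → E3 ≃ᵃ[ℝ] E3 := fun c => if h : c ∈ X then trA (A c) (w0 ⟨c, h⟩) else A c
  have hA' : ∀ c : X, A' c = trA (A c) (w0 c) := fun c => dif_pos c.2
  have hcor' : ∀ c ∈ X, CoriE Om f (A' c) c.1 (lam c) (κe - τ) (κ2' + τ) := by
    intro c hc
    have e := hA' ⟨c, hc⟩
    simp only at e
    rw [e]
    refine cor_tr' (hcor c hc) ((hw0 ⟨c, hc⟩).1.trans ?_) fun j => ((hw0 ⟨c, hc⟩).2 j).trans ?_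
    · have h7 := hlc c hc
      have h8 := Bx.sz_pos (bf.pos _ c.2)
      have h9 := hn.ke
      have h10 : τ1 ≤ κe - τ - κ1 := by linarith
      exact mul_le_mul_of_nonneg_right h10 (by positivity)
    · have h7 := hlc c hc
      have h8 := Bx.side_pos (bf.pos _ c.2) j
      have h9 := hn.k2a
      have h10 : τ1 ≤ κ2 - (κ2' + τ) := by linarith
      exact mul_le_mul_of_nonneg_right h10 (by positivity)
  have himg : Img M Om f A' lam (κe - τ) := by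
    intro c y hy
    obtain ⟨i1, i2, i3⟩ := img_gen bf hlc hn.k1 hgap3 hcor3 h6 c y hy
    refine ⟨i1, i2, ?_⟩
    rw [hA' c]
    have e : f y - trA (A c) (w0 c) y = (f y - A c y) + (A c).linear (w0 c) := by
      rw [← trA_sub (A c) (w0 c) y]; abel
    rw [e]
    refine (norm_add_le _ _).trans ?_
    have h7 := hlc c c.2
    have h8 := Bx.sz_pos (bf.pos _ c.1.2)
    have h9 := hn.ke
    have h10 := (hw0 c).1
    have h11 : (κ1 + τ1) * (lam c * c.1.1.sz) ≤ (κe - τ) * (lam c * c.1.1.sz) :=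
      mul_le_mul_of_nonneg_right (by linarith) (by positivity)
    linarith
  have hsm : Sm M A' lam τ := by
    intro c w hw
    rw [hA' c]
    simp only [trA_linear]
    rw [h4] at hw
    exact hr2 c w hw
  choose uA huA0 huA1 huA using fun c : X => (hQ0 c c.2).exists_uA hn.m0
  have hb := b1_gen (κ1 := κe - τ) (κ2 := κ2' + τ) (τ := τ) (η := η) (ε := εf) hLa hδ hR bf cmp H hfi
    (by have h1 := hn.k1; have h2 := hn.ke; have h3 := hn.t1; linarith) hn.t.le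
    (by have h1 := hn.k2c; linarith) hn.k2b
    (by rw [sub_add_cancel]; exact hn.k8)
    (by rw [sub_add_cancel]; exact hlτ) hcor' M h1 h5
    (fun c => by
      rw [hA' c, h3]
      exact kc_tr (hQ0 c c.2).Kc (w0 c))
    himg hsm Y (uA := uA) huA0
    (fun c x y => by
      rw [hA' c, h3]
      exact uA_tr (huA c) (w0 c) x y)
    (fun c => by
      rw [hYR, h3]
      have e : ((Q0 c).tr (w0 c)).kc = 3 := (hQ0 c c.2).kc
      rw [e]
      have h7 := huA1 c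
      have h8 := Bx.sz_pos (bf.pos _ c.1.2)
      have h9 : lam c < 1 := H.hl1 c.1 c.2
      have h10 := hlc c c.2
      have hm' : (0 : ℝ) < m := by exact_mod_cast hn.m0
      have h11 : uA c ≤ 4 / m * c.1.1.sz := by
        refine h7.trans ?_
        have : lam c * c.1.1.sz ≤ c.1.1.sz := by nlinarith
        exact mul_le_mul_of_nonneg_left this (by positivity)
      calc uA c * (R0 / 2 ^ 3) ≤ (4 / m * c.1.1.sz) * (R0 / 2 ^ 3) := by gcongr
        _ = R0 / (2 * m) * c.1.1.sz := by field_simp; ring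
        _ ≤ η * c.1.1.sz := mul_le_mul_of_nonneg_right hn.eta h8.le)
    (by rw [sub_add_cancel]; exact hn.eps) (x := x) (Rz := Rz) (by rw [h2]; exact hF) hk a hv hct0
  refine ⟨fun c => ?_, hb.2⟩
  have h7 := hb.1 c
  rw [sub_add_cancel, add_sub_cancel_right, hA' c, trA_trA] at h7
  exact h7

end

end Crest.Agent.R096.Mdd_360
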