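import Crest.Agent.R096.Fns4_360

/-!
Row 96 (S0127), helper360.  MD-DATA, part 1: the core block (`CB E3 3` of 874) of an exact affine core.

* `psA A t` = `t⁻¹ • A.linear`;
* **`mkCB Q A lam u kc S w`** : the block of the core `A⁻¹' cbx Q lam` in lattice units: one unit of
  the shell is `u / 2^kc` in the target, `lam u / 2^kc` in the `A`-coordinates;
* `mkCB_ps`, **`mkCB_Kc`**, **`mkCB_N`**, `mkCB_uA`.
-/

set_option autoImplicit false
set_option linter.style.longLine false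
set_option linter.unusedSectionVars false

open MeasureTheory Set Filter Topology Metric

namespace Crest.Agent.R096.Mdd_360

open Crest.Agent.R096.Bsp_628
open Crest.Agent.R096.SkC1_961 (E3)
open Crest.Agent.R096.EaX_766 (cbx RatA)
open Crest.Agent.R096.Bxs_627 (ctr CoriE)
open Crest.Agent.R096.Mal_874 Crest.Agent.R096.Msh_810

noncomputable section

/-- the frame `t⁻¹ • A.linear` -/
def psA (A : E3 ≃ᵃ[ℝ] E3) (t : ℝ) (ht : t ≠ 0) : E3 ≃L[ℝ] (Fin 3 → ℝ) :=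
  (A.linear.trans (LinearEquiv.smulOfNeZero ℝ E3 t⁻¹ (inv_ne_zero ht))).toContinuousLinearEquiv

theorem psA_apply (A : E3 ≃ᵃ[ℝ] E3) (t : ℝ) (ht : t ≠ 0) (x : E3) (l : Fin 3) :
    psA A t ht x l = t⁻¹ * A.linear x l := rfl

theorem lin_val (A : E3 ≃ᵃ[ℝ] E3) (x : E3) (l : Fin 3) : A.linear x l = A x l - A 0 l := by
  have h := A.toAffineMap.linearMap_vsub x 0
  rw [vsub_eq_sub, vsub_eq_sub, sub_zero] at h
  have h2 := congrFun h l
  exact h2

theorem lin_dif (A : E3 ≃ᵃ[ℝ] E3) (x y : E3) : A.linear (x - y) = A x - A y := by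
  have h := A.toAffineMap.linearMap_vsub x y
  rw [vsub_eq_sub, vsub_eq_sub] at h
  exact h

variable (Q : Bx (Fin 3)) (A : E3 ≃ᵃ[ℝ] E3) {lam u : ℝ} (hl : 0 < lam) (hu : 0 < u) (kc : ℕ)
  (hkc : 3 ≤ kc) (S : PS 3) (w : ℤ) (hw : S.t + 10 ≤ w)

/-- **the block of the exact core `A⁻¹' cbx Q lam`** -/
def mkCB : CB E3 3 where
  ψ := psA A (lam * u) (mul_pos hl hu).ne'
  a' := fun l => (ctr Q l - lam * Q.side l / 2 - A 0 l) / (lam * u) - S.lo l / 2 ^ kc
  kc := kc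
  S := S
  w := w
  hkc := hkc
  hw := hw

theorem mkCB_ps (y : E3) (l : Fin 3) :
    ps (mkCB Q A hl hu kc hkc S w hw).a' (mkCB Q A hl hu kc hkc S w hw).kc
      ((mkCB Q A hl hu kc hkc S w hw).ψ y) l =
    S.lo l + 2 ^ kc * (A y l - (ctr Q l - lam * Q.side l / 2)) / (lam * u) := by
  have hp : (2 : ℝ) ^ kc ≠ 0 := by positivity
  have hlu : lam * u ≠ 0 := (mul_pos hl hu).ne'
  change 2 ^ kc * (psA A (lam * u) hlu y l -
    ((ctr Q l - lam * Q.side l / 2 - A 0 l) / (lam * u) - S.lo l / 2 ^ kc)) = _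
  rw [psA_apply, lin_val]
  field_simp
  ring

/-- **the core of the block is the exact core** -/
theorem mkCB_Kc (hS : ∀ l, u * ((S.hi l : ℝ) - S.lo l) = 2 ^ kc * Q.side l) :
    (mkCB Q A hl hu kc hkc S w hw).Kc = A ⁻¹' cbx Q lam := by
  ext y
  have hp : (0 : ℝ) < 2 ^ kc := by positivity
  have hlu : 0 < lam * u := mul_pos hl hu
  change (∀ l, (S.lo l : ℝ) ≤ ps (mkCB Q A hl hu kc hkc S w hw).a' (mkCB Q A hl hu kc hkc S w hw).kc
      ((mkCB Q A hl hu kc hkc S w hw).ψ y) l ∧ ps (mkCB Q A hl hu kc hkc S w hw).a'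
        (mkCB Q A hl hu kc hkc S w hw).kc ((mkCB Q A hl hu kc hkc S w hw).ψ y) l ≤ S.hi l) ↔
    ∀ l, |A y l - ctr Q l| ≤ lam * Q.side l / 2
  refine forall_congr' fun l => ?_
  rw [mkCB_ps, abs_le]
  have e : (S.hi l : ℝ) - S.lo l = 2 ^ kc * Q.side l / u := by
    rw [← hS l]; field_simp
  have h1 : ((S.lo l : ℝ) ≤ S.lo l + 2 ^ kc * (A y l - (ctr Q l - lam * Q.side l / 2)) / (lam * u)) ↔
      0 ≤ A y l - (ctr Q l - lam * Q.side l / 2) := by
    rw [le_add_iff_nonneg_right]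
    constructor
    · intro h
      by_contra hc
      push Not at hc
      exact absurd h (not_le.2 (div_neg_of_neg_of_pos (mul_neg_of_pos_of_neg hp hc) hlu))
    · exact fun h => div_nonneg (mul_nonneg hp.le h) hlu.le
  have h2 : ((S.lo l : ℝ) + 2 ^ kc * (A y l - (ctr Q l - lam * Q.side l / 2)) / (lam * u) ≤ S.hi l) ↔
      A y l - (ctr Q l - lam * Q.side l / 2) ≤ lam * Q.side l := by
    rw [← le_sub_iff_add_le', e, div_le_div_iff₀ hlu hu]
    have e2 : 2 ^ kc * Q.side l * (lam * u) = (2 ^ kc * u) * (lam * Q.side l) := by ring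
    have e3 : 2 ^ kc * (A y l - (ctr Q l - lam * Q.side l / 2)) * u =
      (2 ^ kc * u) * (A y l - (ctr Q l - lam * Q.side l / 2)) := by ring
    rw [e2, e3, mul_le_mul_iff_right₀ (mul_pos hp hu)]
  rw [h1, h2]
  constructor
  · rintro ⟨h3, h4⟩
    constructor <;> linarith
  · rintro ⟨h3, h4⟩
    constructor <;> linarith

/-- **the block in the target coordinates** -/
theorem mkCB_N (hS : ∀ l, u * ((S.hi l : ℝ) - S.lo l) = 2 ^ kc * Q.side l) {κ : ℝ}
    (hκ : ∀ l, w * u ≤ κ * (2 ^ kc * Q.side l)) :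
    (mkCB Q A hl hu kc hkc S w hw).N ⊆ A ⁻¹' cbx Q ((1 + 2 * κ) * lam) := by
  intro y hy
  have hp : (0 : ℝ) < 2 ^ kc := by positivity
  have hlu : 0 < lam * u := mul_pos hl hu
  rw [CB.mem_N] at hy
  intro l
  have h1 := hy l
  rw [mkCB_ps] at h1
  have hw' : (w : ℝ) * u ≤ κ * (2 ^ kc * Q.side l) := hκ l
  change ((S.lo l : ℝ) - w ≤ _) ∧ (_ ≤ (S.hi l : ℝ) + w) at h1
  obtain ⟨h2, h3⟩ := h1
  have h4 : -(w : ℝ) ≤ 2 ^ kc * (A y l - (ctr Q l - lam * Q.side l / 2)) / (lam * u) := by linarith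
  have h5 : 2 ^ kc * (A y l - (ctr Q l - lam * Q.side l / 2)) / (lam * u) ≤
      (S.hi l : ℝ) - S.lo l + w := by linarith
  rw [le_div_iff₀ hlu] at h4
  rw [div_le_iff₀ hlu] at h5
  have h6 : ((S.hi l : ℝ) - S.lo l + w) * (lam * u) ≤ 2 ^ kc * ((1 + κ) * lam * Q.side l) := by
    have e : ((S.hi l : ℝ) - S.lo l + w) * (lam * u) =
        lam * (u * ((S.hi l : ℝ) - S.lo l)) + lam * (w * u) := by ring
    rw [e, hS l]
    have := mul_le_mul_of_nonneg_left hw' hl.le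
    linarith
  have h7 : 2 ^ kc * (-(κ * lam * Q.side l)) ≤ -(w : ℝ) * (lam * u) := by
    have := mul_le_mul_of_nonneg_left hw' hl.le
    linarith
  have h8 := le_of_mul_le_mul_left (h5.trans h6) hp
  have h9 := le_of_mul_le_mul_left (h7.trans h4) hp
  rw [abs_le]
  constructor <;> linarith

theorem mkCB_uA (x y : E3) : ‖A y - A x‖ =
    lam * u * dist ((mkCB Q A hl hu kc hkc S w hw).ψ x) ((mkCB Q A hl hu kc hkc S w hw).ψ y) := by
  have hlu : 0 < lam * u := mul_pos hl hu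
  have e : (mkCB Q A hl hu kc hkc S w hw).ψ y - (mkCB Q A hl hu kc hkc S w hw).ψ x =
      (lam * u)⁻¹ • (A y - A x) := by
    rw [← lin_dif, ← map_sub (mkCB Q A hl hu kc hkc S w hw).ψ]
    rfl
  rw [dist_comm, dist_eq_norm, e, norm_smul, Real.norm_eq_abs, abs_of_pos (inv_pos.2 hlu)]
  field_simp

end

end Crest.Agent.R096.Mdd_360
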