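import Crest.Agent.R096.Mdd1_360

/-!
Row 96 (S0127), helper360.  MD-DATA, part 2: 874's mesh data `MD E3 3 J` (outer frame = identity) from a
homeomorphism which is close to affine maps over the cores.

* `img_open` : the closed box `A⁻¹' cbx ((1 + 2 κ2) lam)` lies in `Om` and is mapped into the open brick;
* **`exists_rooms`** : rooms for the translations of the blocks, as small as we please;
* `mdR` : the mesh data;  `Adm` vectors are small (`adm_lin`), **`cor_tr`** : the core statement for the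
  translated maps;
* **`exists_Dat`** : the outer size function.
-/

set_option autoImplicit false
set_option linter.style.longLine false
set_option linter.unusedSectionVars false

open MeasureTheory Set Filter Topology Metric

namespace Crest.Agent.R096.Mdd_360

open Crest.Agent.R096.Bsp_628 Crest.Agent.R096.Brk5_582
open Crest.Agent.R096.SkC1_961 (E3 FoamD)
open Crest.Agent.R096.EaX_766 (cbx RatA)
open Crest.Agent.R096.Bxs_627 (ctr CoriE)
open Crest.Agent.R096.Mal_874 Crest.Agent.R096.Msh_810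
open Crest.Agent.R096.Fns_360

noncomputable section

/-! ### the boxes over the bricks -/

/-- the enlarged box is mapped into the open brick -/
theorem img_open {Om : Set E3} {f : E3 → E3} {A : E3 ≃ᵃ[ℝ] E3} {Q : Bx (Fin 3)} (hQ : Q.Pos)
    {κ0 : ℝ} (hasp : ∀ i, Q.sz ≤ κ0 * Q.side i) {lam κ1 κ2 : ℝ} (hl : 0 < lam) (hκ1 : 0 ≤ κ1)
    (hlκ : (1 / 2 + κ2) * lam + κ1 * κ0 * lam < 1 / 2) (hcor : CoriE Om f A Q lam κ1 κ2) {x : E3}
    (hx : x ∈ A ⁻¹' cbx Q ((1 + 2 * κ2) * lam)) :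
    x ∈ Om ∧ ∀ k, Q.lo k < f x k ∧ f x k < Q.hi k := by
  have hx' : ∀ k, |A x k - ctr Q k| ≤ (1 + 2 * κ2) * lam * Q.side k / 2 := hx
  obtain ⟨h1, h2⟩ := hcor x (Or.inr fun k => (hx' k).trans (le_of_eq (by ring)))
  refine ⟨h1, fun k => ?_⟩
  have hs := Bx.side_pos hQ k
  have h3 : |f x k - A x k| ≤ κ1 * (lam * (κ0 * Q.side k)) := by
    have h4 : |f x k - A x k| ≤ ‖f x - A x‖ := by
      have := norm_le_pi_norm (f x - A x) k
      rwa [Real.norm_eq_abs] at this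
    refine h4.trans (h2.trans ?_)
    exact mul_le_mul_of_nonneg_left (mul_le_mul_of_nonneg_left (hasp k) hl.le) hκ1
  have h5 := hx' k
  have h6 : ((1 / 2 + κ2) * lam + κ1 * κ0 * lam) * Q.side k < 1 / 2 * Q.side k :=
    mul_lt_mul_of_pos_right hlκ hs
  have e1 : ctr Q k = (Q.lo k + Q.hi k) / 2 := rfl
  have e2 : Q.side k = Q.hi k - Q.lo k := rfl
  rw [abs_le] at h3 h5
  rw [e1] at h5
  constructor <;> nlinarith [h3.1, h3.2, h5.1, h5.2]

theorem cbx_mono {Q : Bx (Fin 3)} (hQ : Q.Pos) {s t : ℝ} (h : s ≤ t) : cbx Q s ⊆ cbx Q t := by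
  intro y hy k
  refine (hy k).trans ?_
  have := Bx.side_pos hQ k
  have := mul_le_mul_of_nonneg_right h this.le
  linarith

/-- a bigger box is a neighbourhood -/
theorem cbx_sub_open {Q : Bx (Fin 3)} (hQ : Q.Pos) {s t : ℝ} (h : s < t) :
    ∃ U : Set E3, IsOpen U ∧ cbx Q s ⊆ U ∧ U ⊆ cbx Q t := by
  refine ⟨{y | ∀ k, |y k - ctr Q k| < t * Q.side k / 2}, ?_, ?_, ?_⟩
  · have : {y : E3 | ∀ k, |y k - ctr Q k| < t * Q.side k / 2} =
        ⋂ k, {y : E3 | |y k - ctr Q k| < t * Q.side k / 2} := by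
      ext y; simp
    rw [this]
    refine isOpen_iInter_of_finite fun k => isOpen_lt ?_ continuous_const
    fun_prop
  · intro y hy k
    refine (hy k).trans_lt ?_
    have h1 := Bx.side_pos hQ k
    have h2 := mul_lt_mul_of_pos_right h h1
    linarith
  · intro y hy k
    exact (hy k).le

/-! ### rooms -/

/-- room for the translations of the blocks -/
structure Rooms {J : Type*} (D0 : Dat 3) (Q : J → CB E3 3) (r : J → ℝ) : Prop where
  pos : ∀ j, 0 < r j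
  dis : ∀ j l, j ≠ l → Disjoint (cthickening (r j) (Q j).N) (cthickening (r l) (Q l).N)
  sub : ∀ j, cthickening (r j) (Q j).N ⊆ D0.Om
  lf : ∀ x ∈ D0.Om, ∃ s > 0, {j | (cthickening (r j) (Q j).N ∩ ball x s).Nonempty}.Finite

theorem refl_image (S : Set E3) : (ContinuousLinearEquiv.refl ℝ E3) '' S = S := by
  ext x
  simp

/-- **mesh data, outer frame = identity** -/
def mdR {J : Type*} (D0 : Dat 3) (hC : 6 ≤ D0.C) (Q : J → CB E3 3) (r : J → ℝ)
    (h : Rooms D0 Q r) : MD E3 3 J where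
  φ := ContinuousLinearEquiv.refl ℝ E3
  D0 := D0
  hC := hC
  Q := Q
  r := r
  r_pos := h.pos
  Vdis j l hjl := by
    rw [refl_image, refl_image]
    exact h.dis j l hjl
  Vsub j := by
    rw [refl_image]
    exact h.sub j
  Vlf x hx := by
    obtain ⟨s, hs, hf⟩ := h.lf x hx
    refine ⟨s, hs, ?_⟩
    simp only [refl_image]
    exact hf

/-- **room for the blocks over the bricks** -/
theorem exists_rooms {La Om : Set E3} {f : E3 → E3} (hOm : IsOpen Om) (hf : ContinuousOn f Om)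
    (hfL : MapsTo f Om La) {F : Set (Bx (Fin 3))} {δ κ0 : ℝ} (bf : BoxFoam La F δ κ0)
    {J : Type*} {b : J → F} (hb : Function.Injective b) {A : J → E3 ≃ᵃ[ℝ] E3} {lam : J → ℝ}
    (hl : ∀ j, 0 < lam j) {κ1 κ2 κ3 : ℝ} (h32 : κ3 < κ2) (hκ1 : 0 ≤ κ1)
    (hlκ : ∀ j, (1 / 2 + κ2) * lam j + κ1 * κ0 * lam j < 1 / 2)
    (hcor : ∀ j, CoriE Om f (A j) (b j).1 (lam j) κ1 κ2)
    {Q : J → CB E3 3} (hN : ∀ j, (Q j).N ⊆ A j ⁻¹' cbx (b j).1 ((1 + 2 * κ3) * lam j))
    {D0 : Dat 3} (hD : D0.Om = Om) {η : J → ℝ} (hη : ∀ j, 0 < η j) :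
    ∃ r : J → ℝ, Rooms D0 Q r ∧ (∀ j, r j ≤ η j) ∧
      ∀ j, cthickening (r j) (Q j).N ⊆ A j ⁻¹' cbx (b j).1 ((1 + 2 * κ2) * lam j) := by
  have h1 : ∀ j, ∃ r, 0 < r ∧ r ≤ η j ∧
      cthickening r (Q j).N ⊆ A j ⁻¹' cbx (b j).1 ((1 + 2 * κ2) * lam j) := by
    intro j
    have hlt : (1 + 2 * κ3) * lam j < (1 + 2 * κ2) * lam j := by
      have := hl j
      nlinarith
    obtain ⟨U, hU, hU1, hU2⟩ := cbx_sub_open (bf.pos _ (b j).2) hlt
    have hA : Continuous (A j) := AffineMap.continuous_of_finiteDimensional (A j).toAffineMap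
    obtain ⟨r, hr, hr'⟩ := (Q j).isCompact_N.exists_cthickening_subset_open (hU.preimage hA)
      (fun y hy => hU1 (hN j hy))
    refine ⟨min r (η j), lt_min hr (hη j), min_le_right _ _, ?_⟩
    exact (cthickening_mono (min_le_left _ _) _).trans (hr'.trans (preimage_mono hU2))
  choose r hr0 hr1 hr2 using h1
  have himg : ∀ j, ∀ x ∈ cthickening (r j) (Q j).N, x ∈ Om ∧
      ∀ k, (b j).1.lo k < f x k ∧ f x k < (b j).1.hi k := fun j x hx =>
    img_open (bf.pos _ (b j).2) (bf.asp _ (b j).2) (hl j) hκ1 (hlκ j) (hcor j) (hr2 j hx)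
  refine ⟨r, ⟨hr0, ?_, ?_, ?_⟩, hr1, hr2⟩
  · intro j l hjl
    rw [Set.disjoint_left]
    intro x hx hx'
    have hne : (b j).1 ≠ (b l).1 := fun h => hjl (hb (Subtype.ext h))
    obtain ⟨k, hk⟩ := bf.inv.disj (b j).2 (b l).2 (bf.pos _ (b j).2) (bf.pos _ (b l).2) hne
    have h2 := (himg j x hx).2 k
    have h3 := (himg l x hx').2 k
    rcases hk with hk | hk
    · linarith [h2.2, h3.1]
    · linarith [h2.1, h3.2]
  · intro j
    rw [hD]
    exact fun x hx => (himg j x hx).1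
  · intro x hx
    rw [hD] at hx
    obtain ⟨s, hs, hfin⟩ := bf.lf _ (hfL hx)
    have h2 : f ⁻¹' ball (f x) s ∈ 𝓝 x := (hf.continuousAt (hOm.mem_nhds hx)) (ball_mem_nhds _ hs)
    obtain ⟨t, ht, ht'⟩ := Metric.mem_nhds_iff.1 h2
    refine ⟨t, ht, ?_⟩
    have h3 : Set.Finite {j | (b j).1 ∈ {C | C ∈ F ∧ (C.set ∩ ball (f x) s).Nonempty}} :=
      hfin.preimage fun j _ l _ h => hb (Subtype.ext h)
    refine h3.subset ?_
    rintro j ⟨y, hy1, hy2⟩
    refine ⟨(b j).2, f y, ?_, ht' hy2⟩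
    rw [Bx.mem_set]
    intro k
    have := (himg j y hy1).2 k
    exact ⟨this.1.le, this.2.le⟩

/-! ### small translations -/

theorem lin_le (A : E3 ≃ᵃ[ℝ] E3) : ∃ L : ℝ, 0 < L ∧ ∀ v : E3, ‖A.linear v‖ ≤ L * ‖v‖ := by
  set T : E3 →L[ℝ] E3 := LinearMap.toContinuousLinearMap (A.linear : E3 →ₗ[ℝ] E3)
  refine ⟨‖T‖ + 1, by positivity, fun v => ?_⟩
  have h := T.le_opNorm v
  have h2 := norm_nonneg v
  have e : T v = A.linear v := rfl
  rw [e] at h
  linarith

/-- a bound for the translations under which the core statement survives -/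
theorem exists_small {Q : Bx (Fin 3)} (hQ : Q.Pos) (A : E3 ≃ᵃ[ℝ] E3) {lam : ℝ} (hl : 0 < lam)
    {τ : ℝ} (hτ : 0 < τ) : ∃ η : ℝ, 0 < η ∧ ∀ v : E3, ‖v‖ ≤ η →
      ‖A.linear v‖ ≤ τ * (lam * Q.sz) ∧ ∀ k, |A.linear v k| ≤ τ * (lam * Q.side k) := by
  obtain ⟨L, hL, hA⟩ := lin_le A
  obtain ⟨i, -, hi⟩ := Finset.exists_min_image (Finset.univ : Finset (Fin 3)) (fun k => Q.side k)
    ⟨0, Finset.mem_univ _⟩
  have hsi := Bx.side_pos hQ i
  have hs := Bx.sz_pos hQ
  refine ⟨min (τ * (lam * Q.sz) / L) (τ * (lam * Q.side i) / L), by positivity, fun v hv => ⟨?_, ?_⟩⟩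
  · refine (hA v).trans ?_
    have h1 := hv.trans (min_le_left _ _)
    rw [le_div_iff₀ hL] at h1
    linarith
  · intro k
    have h0 : |A.linear v k| ≤ ‖A.linear v‖ := by
      have := norm_le_pi_norm (A.linear v) k
      rwa [Real.norm_eq_abs] at this
    refine h0.trans ((hA v).trans ?_)
    have h1 := hv.trans (min_le_right _ _)
    rw [le_div_iff₀ hL] at h1
    have h2 := hi k (Finset.mem_univ _)
    have h3 : τ * (lam * Q.side i) ≤ τ * (lam * Q.side k) := by gcongr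
    linarith

/-- **the core statement for the translated map** -/
theorem cor_tr {Om : Set E3} {f : E3 → E3} {A : E3 ≃ᵃ[ℝ] E3} {Q : Bx (Fin 3)}
    {lam κ1 κ2 τ : ℝ} (h : CoriE Om f A Q lam κ1 κ2) {v : E3}
    (hv : ‖A.linear v‖ ≤ τ * (lam * Q.sz) ∧ ∀ k, |A.linear v k| ≤ τ * (lam * Q.side k)) :
    CoriE Om f (trA A v) Q lam (κ1 + τ) (κ2 - τ) :=
  CoriE.tr h (fun k => (hv.2 k).trans (le_of_eq (by ring)))
    (hv.1.trans (le_of_eq (by ring)))

/-! ### the outer size function -/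

variable {δ κ0 R c0 : ℝ} {La Om : Set E3}

/-- **the outer Whitney data**: fine off the exact cores, below a given size function -/
theorem exists_Dat (Φ : FoamD δ κ0 R c0 La) (hOm : IsOpen Om)
    (hLa : IsOpen La) (hδ : 0 < δ) (hR : 0 < R) {f : E3 → E3} (hfm : MapsTo f Om La)
    (hfc : ContinuousOn f Om) {O : Φ.F → Set E3} (hO : ∀ c, IsOpen (O c))
    (hB : ∀ c, (Φ.B c).S ⊆ O c) {ε : ℝ} (hε : 0 < ε) {σ : E3 → ℝ}
    (hσ : ∀ x y, σ x ≤ σ y + dist x y) (hσ0 : ∀ x, 0 ≤ σ x) (hσ1 : ∀ x ∈ Om, 0 < σ x)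
    {C : ℝ} (hC : 1 < C) (a : Fin 3 → ℝ) :
    ∃ D : Dat 3, D.C = C ∧ D.a = a ∧ D.Om = Om ∧ (∀ x, D.ρ x ≤ σ x) ∧
      ∀ x ∈ Om, closedBall x (D.ρ x) ⊆ Om ∧ FineS Φ f ε (closedBall x (D.ρ x) ∩ (Om ∩ offO f O)) := by
  obtain ⟨ρ, h1, h2, h3, h4, h5⟩ := exists_dat_off (ContinuousLinearEquiv.refl ℝ E3) Φ hOm hLa hδ hR
    hfm hfc hO hB hε
  refine ⟨⟨fun x => min (ρ x) (σ x), C, a, fun x y => ?_, fun x => le_min (h2 x) (hσ0 x),
    fun x => (min_le_left _ _).trans (h3 x), hC⟩, rfl, rfl, ?_, fun x => min_le_right _ _,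
    fun x hx => ?_⟩
  · have h6 := h1 x y
    have h7 := hσ x y
    rcases le_total (ρ y) (σ y) with h | h
    · rw [min_eq_left h]
      exact (min_le_left _ _).trans h6
    · rw [min_eq_right h]
      exact (min_le_right _ _).trans h7
  · ext x
    change 0 < min (ρ x) (σ x) ↔ x ∈ Om
    rw [lt_min_iff]
    have h6 := h4 x
    constructor
    · intro h
      exact h6.1 h.1
    · intro h
      exact ⟨h6.2 h, hσ1 x h⟩
  · obtain ⟨h6, h7⟩ := h5 x hx
    have hsub : closedBall x (min (ρ x) (σ x)) ⊆ closedBall x (ρ x) :=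
      closedBall_subset_closedBall (min_le_left _ _)
    exact ⟨fun y hy => h6 (hsub hy), h7.mono (inter_subset_inter_left _ fun y hy => hsub hy)⟩

end

end Crest.Agent.R096.Mdd_360
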