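import Crest.Agent.R096.Mdd5_360
import Crest.Agent.R96.Eam4_466

/-!
Row 96 (S0127), helper360.  MD-DATA, part 7: `Cores` and `Fine` over 899's `fX` for the decoration
`decoX` of 880's `famMD`, all bricks exact (`X = univ`).

* **`cf_fX`** : literally the fields `cores`, `fine` of 112's `Mok`.
-/

set_option autoImplicit false
set_option linter.style.longLine false
set_option linter.unusedSectionVars false

open MeasureTheory Set Filter Topology Metric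

namespace Crest.Agent.R096.Mdd_360

open Crest.Agent.R096.Bsp_628 Crest.Agent.R096.Brk5_582 Crest.Agent.R096.Brk1_582
open Crest.Agent.R096.Brk2_582 Crest.Agent.R096.Brk3_582
open Crest.Agent.R096.SkC1_961 (E3 FoamD Hom3)
open Crest.Agent.R096.EaX_766 (cbx RatA)
open Crest.Agent.R096.Bxs_627 (ctr CoriE fD)
open Crest.Agent.R096.Mal_874 Crest.Agent.R096.Msh_810 Crest.Agent.R096.Msh_715
open Crest.Agent.R096.Fns_360 Crest.Agent.R096.Mfa_880
open Crest.Agent.R96.EaP_899 (fX XD cm)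
open Crest.Agent.R96.Eam_466 (OX OX_mem fineX_MD exactX_MD fine_of_tiles)

noncomputable section

variable {La Om : Set E3} {f : E3 → E3} {F : Set (Bx (Fin 3))} {δ κ0 R c0 : ℝ} {X : Set F}

/-- **all bricks exact, over `fX`: `Cores` and `Fine` for every admissible mesh.** -/
theorem cf_fX (hX : ∀ c, c ∈ X) (hLa : IsOpen La) (hδ : 0 < δ) (hR : 0 < R) (bf : BoxFoam La F δ κ0)
    (cmp : Cmp F R) {lam : F → ℝ} {zc : F → E3} (H : XD bf c0 X lam zc) (hf : Hom3 f Om La)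
    {κ1 κ2 τ η ε : ℝ} (hκ1 : 0 ≤ κ1) (hτ : 0 < τ) (hτ2 : τ ≤ κ2)
    (h2 : κ2 ≤ 1 / 4) (hκ8 : (κ1 + τ) * κ0 ≤ 1 / 8)
    (hlκ : ∀ c, (1 / 2 + κ2) * lam c + κ1 * κ0 * lam c < 1 / 2)
    (hlτ : ∀ c, (1 + 2 * ((κ1 + τ) * κ0)) * lam c < 1)
    {A : F → E3 ≃ᵃ[ℝ] E3} (hcor : ∀ c, CoriE Om f (A c) c.1 (lam c) κ1 κ2)
    (M : MD E3 3 X) (hφ : M.φ = ContinuousLinearEquiv.refl ℝ E3) (hOmM : M.φ ⁻¹' M.D0.Om = Om)
    (hK : ∀ c : X, (M.Q c).Kc = A c ⁻¹' cbx c.1.1 (lam c))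
    (hroom : ∀ c : X, cthickening (M.r c) (M.Q c).N ⊆ A c ⁻¹' cbx c.1.1 ((1 + 2 * κ2) * lam c))
    (hsm : ∀ (c : X) (v : E3), ‖v‖ ≤ M.r c → ‖(A c).linear v‖ ≤ τ * (lam c * c.1.1.sz) ∧
        ∀ k, |(A c).linear v k| ≤ τ * (lam c * c.1.1.side k)) (Y : RD M)
    {uA : X → ℝ} (huA0 : ∀ c, 0 ≤ uA c)
    (huA : ∀ (c : X), ∀ x y, ‖A c y - A c x‖ ≤ uA c * dist ((M.Q c).ψ x) ((M.Q c).ψ y))
    (hη : ∀ c : X, uA c * (Y.R c / 2 ^ (M.Q c).kc) ≤ η * c.1.1.sz)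
    (hε : KI δ κ0 R (cm κ0 c0) * (η + 2 * (κ1 + τ)) ≤ ε)
    (hF : ∀ x ∈ Om, FineS (fX bf cmp H) f ε
      (closedBall x (M.D0.ρ x) ∩ (Om ∩ offO f (O34 lam))))
    {k : X → ℕ} (hk : M.Sc k) (m : F → ℕ) (a : E3) {w : X → E3} (hv : M.Adm fun j => a + w j)
    (i0 : M.OIx hk (M.φ a) hv ⊕ Σ j, M.IIx hk (M.φ a) hv j) :
    Mbf_337.Cores (fX bf cmp H) (M.mesh hk (M.φ a) hv) f (κ1 + τ) (κ2 - τ) X
      ((decoX A lam m a w).mkX X (M.mesh hk (M.φ a) hv) i0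
        fun c => Sum.inr ⟨c, M.core hk (M.φ a) hv c⟩).J0
      ((decoX A lam m a w).mkX X (M.mesh hk (M.φ a) hv) i0
        fun c => Sum.inr ⟨c, M.core hk (M.φ a) hv c⟩).J
      ((decoX A lam m a w).mkX X (M.mesh hk (M.φ a) hv) i0
        fun c => Sum.inr ⟨c, M.core hk (M.φ a) hv c⟩).V
      ((decoX A lam m a w).mkX X (M.mesh hk (M.φ a) hv) i0
        fun c => Sum.inr ⟨c, M.core hk (M.φ a) hv c⟩).ct
      (decoX A lam m a w).A (decoX A lam m a w).lam (decoX A lam m a w).z (decoX A lam m a w).θ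
      (decoX A lam m a w).φ ∧
    Mbf_337.Fine (fX bf cmp H) (M.mesh hk (M.φ a) hv) f ε
      ((decoX A lam m a w).mkX X (M.mesh hk (M.φ a) hv) i0
        fun c => Sum.inr ⟨c, M.core hk (M.φ a) hv c⟩).J0 := by
  obtain ⟨fi, -, -, hfi, -, -, -⟩ := id hf
  set T := M.mesh hk (M.φ a) hv with hT
  set ct : F → M.OIx hk (M.φ a) hv ⊕ Σ j, M.IIx hk (M.φ a) hv j :=
    fun c => Sum.inr ⟨⟨c, hX c⟩, M.core hk (M.φ a) hv ⟨c, hX c⟩⟩ with hct
  set D := (decoX A lam m a w).mkX X T i0 fun c => Sum.inr ⟨c, M.core hk (M.φ a) hv c⟩ with hD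
  have eJ0 : D.J0 = fun c => {ct c} := by
    funext c
    exact Set.ext fun i => ⟨fun ⟨_, e⟩ => e, fun e => ⟨hX c, e⟩⟩
  have eJ : D.J = fun c => {ct c} := eJ0
  have eV : D.V = fun c => {ct c} := eJ0
  have ect : D.ct = ct := by
    funext c
    exact Deco.mkX_ct (hX c)
  have eA : (decoX A lam m a w).A = fun c => trA (A c) (a + w ⟨c, hX c⟩) := by
    funext c
    exact decoX_A A lam m a w (hX c)
  have hct_inj : Function.Injective ct := by
    intro c c' h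
    have h1 := Sum.inr.inj h
    rw [Sigma.mk.injEq] at h1
    exact congrArg Subtype.val h1.1
  have hct0 : ∀ c : X, ct c.1 = Sum.inr ⟨c, M.core hk (M.φ a) hv c⟩ := fun _ => rfl
  have hlc : ∀ c, 0 < lam c := fun c => H.pos (hX c)
  have hv' : ∀ c : X, ‖a + w c‖ ≤ M.r c := by
    intro c
    have h1 := hv c
    rw [hφ] at h1
    exact h1
  have hcor' : ∀ c : X, CoriE (M.φ ⁻¹' M.D0.Om) f (trA (A c) (a + w c)) c.1.1 (lam c) (κ1 + τ)
      (κ2 - τ) := by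
    intro c
    rw [hOmM]
    exact cor_tr (hcor c) (hsm c _ (hv' c))
  have hex := exactX_MD M hk (M.φ a) hv bf cmp H (f := f) (κ1 := κ1 + τ) (κ2 := κ2 - τ) (by linarith)
    (by linarith) (by linarith) (by linarith) (fun c _ => hlτ c) (A := fun c : X => A c) hK hcor' hct0
    (A' := fun c => trA (A c) (a + w ⟨c, hX c⟩)) fun _ => rfl
  rw [eJ0, eJ, eV, ect, eA]
  refine ⟨⟨fun c c' h => ?_, fun c _ => ⟨rfl, rfl, rfl⟩, hex, fun c h => absurd (hX c) h⟩, ?_⟩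
  · refine Set.disjoint_left.2 fun i (hi : i = ct c) (hi' : i = ct c') => ?_
    exact h (hct_inj (hi.symm.trans hi'))
  have hfin := fineX_MD M hk (M.φ a) hv hLa hδ hR bf cmp H (f := f) (fi := fi)
    (fun y hy => hfi y (by rw [← hOmM]; exact hy)) (κ1 := κ1 + τ) (κ2 := κ2 - τ) (by linarith) hκ8
    (A := fun c : X => A c) hK hcor' Y (x := fun c => absurd (hX c.1) c.2)
    (Rz := fun c => absurd (hX c.1) c.2) (ρ := M.D0.ρ) (fun _ => le_rfl) (ε := ε) ?_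
    (κw := fun _ => κ1 + τ) (η := fun _ => η) (uA := uA) ?_ huA0 huA hη (fun _ => hε) hct0
  · exact fine_of_tiles fun i hi => hfin i (fun c _ e => hi c e) fun c => absurd (hX c.1) c.2
  · intro x hx
    have hxO : x ∈ Om := by
      rw [← hOmM]
      exact hx
    have h1 := hF x hxO
    have e : (OX X lam La fi (fun c => absurd (hX c.1) c.2) fun c => (absurd (hX c.1) c.2 : ℝ) / 2) =
        O34 lam := by
      funext c
      exact OX_mem (hX c)
    rw [hOmM, hφ, e]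
    exact h1
  · intro c x hx
    have hxN : x - (a + w c) ∈ (M.Q c).N := ((M.Q c).mem_N_tr (a + w c) x).1 hx
    have hxt : x ∈ cthickening (M.r c) (M.Q c).N := by
      refine mem_cthickening_of_dist_le x (x - (a + w c)) _ _ hxN ?_
      rw [dist_eq_norm, sub_sub_cancel]
      exact hv' c
    have hxA := hroom c hxt
    have hl1 : lam c < 1 := H.hl1 c.1 c.2
    obtain ⟨hxO, h5⟩ := img_open (bf.pos _ c.1.2) (bf.asp _ c.1.2) (hlc c) hκ1 (hlκ c) (hcor c) hxA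
    refine ⟨Bx.mem_set.2 fun i => ⟨(h5 i).1.le, (h5 i).2.le⟩, ?_⟩
    have h6 := (hcor c x (Or.inr fun i => (hxA i).trans (le_of_eq (by ring)))).2
    have h7 := (hsm c (a + w c) (hv' c)).1
    have e : f x - trA (A c) (a + w c) x = (f x - A c x) + (A c).linear (a + w c) := by
      rw [← trA_sub (A c) (a + w c) x]; abel
    rw [e]
    refine (norm_add_le _ _).trans ?_
    have hs := Bx.sz_pos (bf.pos _ c.1.2)
    have h8 : lam c * c.1.1.sz ≤ c.1.1.sz := by nlinarith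
    have h9 : (κ1 + τ) * (lam c * c.1.1.sz) ≤ (κ1 + τ) * c.1.1.sz :=
      mul_le_mul_of_nonneg_left h8 (by linarith)
    linarith

end

end Crest.Agent.R096.Mdd_360
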