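import Crest.Agent.R096.Cel1_715

/-!
# Cells of a tiling without inequalities; rigidity

* `mem_cc_iff`, `mem_V_iff`: the closed cell and the direction space of a point in terms of the
  tiles through the point only.
* `cc_translate`: if the tiles through `y + a` of `T'` are the `a`-translates of the tiles through
  `y` of `T`, then the cell of `y + a` is the `a`-translate of the cell of `y`.
* `cell_of_rigid`: if this holds at a point of the closed cell of `y`, then the cell of `y` is a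
  translate of a cell of the model.
* `countable_cells`.
-/

set_option autoImplicit false
set_option linter.unusedSectionVars false

open Set Metric Topology Filter

namespace Crest.Agent.R096.Mf_113

open Crest.Agent.R096.Msh_715

variable {E : Type*} [NormedAddCommGroup E] [NormedSpace ℝ E] [FiniteDimensional ℝ E]
variable {Om Om' : Set E} {ι ι' : Type*} {T : Tiling Om ι} {T' : Tiling Om' ι'}

/-- the minimal face of a polytope without inequalities -/
theorem face_iff {H : Finset ((E →L[ℝ] ℝ) × ℝ)} {x y : E} (hx : x ∈ P H) (hy : y ∈ P H) :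
    (∀ h ∈ H, h.1 x = h.2 → h.1 y = h.2) ↔
      ∃ ε : ℝ, 0 < ε ∧ x - ε • (y - x) ∈ P H := by
  constructor
  · intro h
    have h1 := mem_P_small (v := -(y - x)) hx (fun g hg e => by
      rw [map_neg, map_sub, h g hg e, e, sub_self, neg_zero])
    obtain ⟨s, hs, hs0⟩ := (h1.and self_mem_nhdsWithin).exists
    exact ⟨s, hs0, by rw [sub_eq_add_neg, ← smul_neg]; exact hs⟩
  · rintro ⟨ε, hε, h⟩ g hg e
    have h1 := h g hg
    have h2 := hy g hg
    rw [map_sub, map_smul, map_sub, e, smul_eq_mul] at h1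
    have h3 : 0 ≤ ε * (g.1 y - g.2) := by linarith
    have h4 : 0 ≤ g.1 y - g.2 := by
      by_contra hc
      rw [not_le] at hc
      nlinarith
    linarith

theorem mem_cc_iff {x y : E} : y ∈ T.cc x ↔
    ∀ i ∈ T.at_ x, y ∈ P (T.H i) ∧ ∃ ε : ℝ, 0 < ε ∧ x - ε • (y - x) ∈ P (T.H i) := by
  constructor
  · intro hy i hi
    have hyP : y ∈ P (T.H i) := fun h hh => (hy i hi h hh).1
    exact ⟨hyP, (face_iff hi hyP).1 fun h hh => (hy i hi h hh).2⟩
  · intro hy i hi h hh
    obtain ⟨h1, h2⟩ := hy i hi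
    exact ⟨h1 h hh, (face_iff hi h1).2 h2 h hh⟩

theorem mem_V_iff {x v : E} (hx : x ∈ Om) :
    v ∈ T.V x ↔ ∃ ε : ℝ, 0 < ε ∧ x + ε • v ∈ T.cc x ∧ x - ε • v ∈ T.cc x := by
  constructor
  · intro hv
    obtain ⟨r, hr, hb⟩ := T.exists_ball_oc hx
    set t : ℝ := r / (2 * (‖v‖ + 1)) with ht
    have hn : 0 < ‖v‖ + 1 := by positivity
    have ht0 : 0 < t := by positivity
    have hnt : ‖t • v‖ < r := by
      rw [norm_smul, Real.norm_of_nonneg ht0.le, ht]
      calc r / (2 * (‖v‖ + 1)) * ‖v‖ ≤ r / (2 * (‖v‖ + 1)) * (‖v‖ + 1) :=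
            mul_le_mul_of_nonneg_left (by linarith) (by positivity)
        _ = r / 2 := by field_simp
        _ < r := by linarith
    refine ⟨t, ht0, T.oc_sub_cc x (hb _ ((T.V x).smul_mem _ hv) hnt), ?_⟩
    rw [sub_eq_add_neg]
    exact T.oc_sub_cc x (hb _ ((T.V x).neg_mem ((T.V x).smul_mem _ hv)) (by rwa [norm_neg]))
  · rintro ⟨ε, hε, h1, -⟩
    have h2 := T.sub_mem_V h1
    rw [add_sub_cancel_left] at h2
    have h3 := (T.V x).smul_mem ε⁻¹ h2
    rwa [smul_smul, inv_mul_cancel₀ hε.ne', one_smul] at h3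

/-- **translation of cells** -/
theorem cc_translate {y a : E} (hy : y ∈ Om) (hy' : y + a ∈ Om')
    (h : (fun j => P (T'.H j)) '' T'.at_ (y + a) = (fun i => (a + ·) '' P (T.H i)) '' T.at_ y) :
    T'.cc (y + a) = (a + ·) '' T.cc y ∧ T'.V (y + a) = T.V y ∧ T'.dim (y + a) = T.dim y := by
  have hcc : T'.cc (y + a) = (a + ·) '' T.cc y := by
    ext z
    rw [mem_cc_iff]
    constructor
    · intro hz
      refine ⟨z - a, ?_, by simp⟩
      rw [mem_cc_iff]
      intro i hi
      have hm : (a + ·) '' P (T.H i) ∈ (fun j => P (T'.H j)) '' T'.at_ (y + a) := by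
        rw [h]; exact ⟨i, hi, rfl⟩
      obtain ⟨j, hj, e⟩ := hm
      simp only at e
      obtain ⟨h1, ε, hε, h2⟩ := hz j hj
      rw [e] at h1 h2
      obtain ⟨p, hp, e1⟩ := h1
      obtain ⟨q, hq, e2⟩ := h2
      simp only at e1 e2
      refine ⟨by rw [← e1, add_sub_cancel_left]; exact hp, ε, hε, ?_⟩
      have : y - ε • (z - a - y) = q := by
        have : q = y + a - ε • (z - (y + a)) - a := by rw [← e2]; abel
        rw [this, show z - (y + a) = z - a - y by abel]
        abel
      rw [this]; exact hq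
    · rintro ⟨z, hz, rfl⟩ j hj
      rw [mem_cc_iff] at hz
      have hm : P (T'.H j) ∈ (fun i => (a + ·) '' P (T.H i)) '' T.at_ y := by
        rw [← h]; exact ⟨j, hj, rfl⟩
      obtain ⟨i, hi, e⟩ := hm
      simp only at e
      obtain ⟨h1, ε, hε, h2⟩ := hz i hi
      rw [← e]
      refine ⟨⟨z, h1, rfl⟩, ε, hε, y - ε • (z - y), h2, ?_⟩
      simp only
      rw [show a + z - (y + a) = z - y by abel]
      abel
  have hV : T'.V (y + a) = T.V y := by
    ext v
    rw [mem_V_iff hy', mem_V_iff hy, hcc]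
    refine exists_congr fun ε => and_congr_right fun _ => ?_
    have key : ∀ w : E, y + a + w ∈ (a + ·) '' T.cc y ↔ y + w ∈ T.cc y := by
      intro w
      constructor
      · rintro ⟨p, hp, e⟩
        simp only at e
        have : p = y + w := by
          have : a + p = a + (y + w) := by rw [e]; abel
          exact add_left_cancel this
        rw [← this]; exact hp
      · intro hp
        exact ⟨y + w, hp, by simp only; abel⟩
    rw [key, sub_eq_add_neg, key, ← sub_eq_add_neg]
  refine ⟨hcc, hV, ?_⟩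
  unfold Tiling.dim
  rw [hV]

/-- **rigidity**: near a point where the tiles are translates of the tiles of the model, every cell
through the point is a translate of a cell of the model -/
theorem cell_of_rigid {a p : E} (hp : p ∈ Om') (hp0 : p - a ∈ Om)
    (h : (fun j => P (T'.H j)) '' T'.at_ p = (fun i => (a + ·) '' P (T.H i)) '' T.at_ (p - a))
    {y : E} (hy : y ∈ Om') (hpy : p ∈ T'.cc y) :
    ∃ y0 ∈ Om, T'.cc y = (a + ·) '' T.cc y0 ∧ T.dim y0 = T'.dim y ∧ p - a ∈ T.cc y0 := by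
  obtain ⟨r, hr, hO, hb⟩ := T.exists_ball hp0
  obtain ⟨r', hr', hO', hb'⟩ := T'.exists_ball hp
  -- a point of the open cell close to `p`
  have hc : Tendsto (fun s : ℝ => p + s • (y - p)) (𝓝 0) (𝓝 (p + (0 : ℝ) • (y - p))) := by
    apply Continuous.tendsto
    fun_prop
  rw [zero_smul, add_zero] at hc
  have h1 : ∀ᶠ s in 𝓝[>] (0 : ℝ), p + s • (y - p) ∈ ball p (min r r') :=
    (hc.eventually (ball_mem_nhds p (lt_min hr hr'))).filter_mono nhdsWithin_le_nhds
  have h2 : ∀ᶠ s in 𝓝[>] (0 : ℝ), s < 1 :=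
    (gt_mem_nhds (zero_lt_one' ℝ)).filter_mono nhdsWithin_le_nhds
  obtain ⟨s, ⟨hs1, hs2⟩, hs0⟩ := ((h1.and h2).and self_mem_nhdsWithin).exists
  have hs0 : (0 : ℝ) < s := hs0
  set x := p + s • (y - p) with hx
  have hxo : x ∈ T'.oc y := T'.move_mem_oc hpy hs0 hs2.le
  have hxO : x ∈ Om' := T'.cc_sub_Om hy (T'.oc_sub_cc _ hxo)
  have hx1 : x ∈ ball p r := ball_subset_ball (min_le_left _ _) hs1
  have hx2 : x ∈ ball p r' := ball_subset_ball (min_le_right _ _) hs1
  have hx0 : x - a ∈ ball (p - a) r := by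
    rw [mem_ball, dist_eq_norm] at hx1 ⊢
    rwa [sub_sub_sub_cancel_right]
  have hat : (fun j => P (T'.H j)) '' T'.at_ (x - a + a) =
      (fun i => (a + ·) '' P (T.H i)) '' T.at_ (x - a) := by
    rw [sub_add_cancel]
    ext K
    constructor
    · rintro ⟨j, hj, rfl⟩
      have hm : P (T'.H j) ∈ (fun i => (a + ·) '' P (T.H i)) '' T.at_ (p - a) := by
        rw [← h]; exact ⟨j, hb' _ hx2 hj, rfl⟩
      obtain ⟨i, hi, e⟩ := hm
      simp only at e
      refine ⟨i, ?_, e⟩
      have h3 : x ∈ P (T'.H j) := hj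
      rw [← e] at h3
      obtain ⟨q, hq, e1⟩ := h3
      simp only at e1
      show x - a ∈ P (T.H i)
      rw [← e1, add_sub_cancel_left]
      exact hq
    · rintro ⟨i, hi, rfl⟩
      have hm : (a + ·) '' P (T.H i) ∈ (fun j => P (T'.H j)) '' T'.at_ p := by
        rw [h]; exact ⟨i, hb _ hx0 hi, rfl⟩
      obtain ⟨j, hj, e⟩ := hm
      simp only at e
      refine ⟨j, ?_, e⟩
      show x ∈ P (T'.H j)
      rw [e]
      exact ⟨x - a, hi, by simp only; abel⟩
  obtain ⟨h3, -, h4⟩ := cc_translate (T := T) (T' := T') (y := x - a) (a := a) (hO hx0)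
    (by rw [sub_add_cancel]; exact hxO) hat
  rw [sub_add_cancel] at h3 h4
  refine ⟨x - a, hO hx0, ?_, ?_, ?_⟩
  · rw [← h3]; exact (T'.cc_eq_of_mem_oc hy hxo).symm
  · rw [← h4]; exact T'.dim_eq_of_mem_oc hy hxo
  · have h5 : p ∈ T'.cc x := by rw [T'.cc_eq_of_mem_oc hy hxo]; exact hpy
    rw [h3] at h5
    obtain ⟨q, hq, e⟩ := h5
    simp only at e
    rw [← e, add_sub_cancel_left]
    exact hq

/-- the cells are countably many -/
theorem countable_cells (T : Tiling Om ι) : Countable T.Cell := by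
  classical
  have : ProperSpace E := FiniteDimensional.proper ℝ E
  choose! r hr hf using fun (x : E) (hx : x ∈ Om) => T.lf_cells hx
  obtain ⟨s, hsO, hsc, hcov⟩ := TopologicalSpace.countable_cover_nhdsWithin (s := Om)
    (f := fun x => ball x (r x)) fun x hx => mem_nhdsWithin_of_mem_nhds (ball_mem_nhds x (hr x hx))
  have h1 : {c : Set E | ∃ x ∈ Om, c = T.cc x} ⊆
      ⋃ x ∈ s, {c : Set E | (∃ z ∈ Om, c = T.cc z) ∧ (c ∩ ball x (r x)).Nonempty} := by
    rintro _ ⟨z, hz, rfl⟩
    obtain ⟨x, hx, hzx⟩ := mem_iUnion₂.1 (hcov hz)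
    exact mem_iUnion₂.2 ⟨x, hx, ⟨z, hz, rfl⟩, z, T.self_mem_cc z, hzx⟩
  have h2 : ({c : Set E | ∃ x ∈ Om, c = T.cc x}).Countable :=
    (hsc.biUnion fun x hx => (hf x (hsO hx)).countable).mono h1
  exact h2.to_subtype

end Crest.Agent.R096.Mf_113
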