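import Crest.Agent.R096.Mf2a_931
import Crest.Agent.R096.Sk2a_855

/-!
Row 96, p = 2, MF2 (i) of 753 #10588 / 113 #10606 (helper931), part 2: the rim of a closed 2-cell
`pt e x '' P` of a tiling is `pt e x '' (P \ interior P)`.
-/

set_option autoImplicit false
set_option linter.unusedSectionVars false

open Set Metric Module Filter Topology
open scoped RealInnerProductSpace

namespace Crest.Agent.R096.Mf2a_931

open Crest.Agent.R096.Fce_793 Crest.Agent.R096.Msh_715 Crest.Agent.R096.Sk2_855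

noncomputable section

section lin

variable {E : Type*} [NormedAddCommGroup E] [NormedSpace ℝ E]

theorem pt_sub (e : Fin 2 → E) (x : E) (w w' : ℝ × ℝ) :
    pt e x w - pt e x w' = (w.1 - w'.1) • e 0 + (w.2 - w'.2) • e 1 := by
  simp only [pt, sub_smul]; abel

/-- `pt e a` as an affine function of the parameter -/
theorem pt_comb' (e : Fin 2 → E) (a : E) (w w' : ℝ × ℝ) {s t : ℝ} (h : s + t = 1) :
    pt e a (s • w + t • w') = s • pt e a w + t • pt e a w' := by
  have ha : a = s • a + t • a := by rw [← add_smul, h, one_smul]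
  simp only [pt, Prod.fst_add, Prod.smul_fst, Prod.snd_add, Prod.smul_snd, smul_eq_mul, add_smul,
    smul_add, mul_smul]
  conv_lhs => rw [ha]
  abel

theorem pt_inj {e : Fin 2 → E} (he : LinearIndependent ℝ e) (x : E) :
    Function.Injective (pt e x) := by
  intro w w' h
  have h1 : (w.1 - w'.1) • e 0 + (w.2 - w'.2) • e 1 = 0 := by rw [← pt_sub e x, h, sub_self]
  have h2 := Fintype.linearIndependent_iff.1 he ![w.1 - w'.1, w.2 - w'.2] (by
    rw [Fin.sum_univ_two]; simpa using h1)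
  have h3 := h2 0
  have h4 := h2 1
  simp only [Matrix.cons_val_zero, Matrix.cons_val_one] at h3 h4
  exact Prod.ext (by linarith) (by linarith)

theorem pt_continuous (e : Fin 2 → E) (x : E) : Continuous (pt e x) := by unfold pt; fun_prop

theorem pt_translate (e : Fin 2 → E) (a x : E) (P : Set (ℝ × ℝ)) :
    pt e (a + x) '' P = (a + ·) '' (pt e x '' P) := by
  rw [image_image]
  refine image_congr fun w _ => ?_
  simp only [pt, add_assoc]

end lin

variable {E : Type*} [NormedAddCommGroup E] [NormedSpace ℝ E] [FiniteDimensional ℝ E]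
variable {Om : Set E} {ι : Type*} {T : Tiling Om ι} {y x : E} {e : Fin 2 → E} {P : Set (ℝ × ℝ)}

/-- the plane of a closed 2-cell `pt e x '' P` is spanned by `e` -/
theorem span_eq (hy : y ∈ Om) (hd : T.dim y = 2) (he : LinearIndependent ℝ e)
    (hcc : T.cc y = pt e x '' P) : T.V y = Submodule.span ℝ (range e) := by
  have h1 : T.V y ≤ Submodule.span ℝ (range e) := by
    intro v hv
    obtain ⟨r, hr, hb⟩ := T.exists_ball_oc hy
    rcases eq_or_ne v 0 with rfl | hv0
    · exact Submodule.zero_mem _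
    have hn : 0 < ‖v‖ := norm_pos_iff.2 hv0
    have hs : 0 < r / (2 * ‖v‖) := by positivity
    have h2 : y + (r / (2 * ‖v‖)) • v ∈ T.oc y := by
      refine hb _ ((T.V y).smul_mem _ hv) ?_
      rw [norm_smul, Real.norm_of_nonneg hs.le]
      have : r / (2 * ‖v‖) * ‖v‖ = r / 2 := by field_simp
      rw [this]; linarith
    have h3 := T.oc_sub_cc y h2
    have h4 := T.self_mem_cc y
    rw [hcc] at h3 h4
    obtain ⟨w, -, hw⟩ := h3
    obtain ⟨w', -, hw'⟩ := h4
    have h5 : (r / (2 * ‖v‖)) • v = (w.1 - w'.1) • e 0 + (w.2 - w'.2) • e 1 := by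
      rw [← pt_sub e x, hw, hw', add_sub_cancel_left]
    have h6 : (r / (2 * ‖v‖)) • v ∈ Submodule.span ℝ (range e) := by
      rw [h5]
      exact Submodule.add_mem _ (Submodule.smul_mem _ _ (Submodule.subset_span ⟨0, rfl⟩))
        (Submodule.smul_mem _ _ (Submodule.subset_span ⟨1, rfl⟩))
    have h7 := Submodule.smul_mem _ (r / (2 * ‖v‖))⁻¹ h6
    rwa [smul_smul, inv_mul_cancel₀ hs.ne', one_smul] at h7
  refine Submodule.eq_of_le_of_finrank_eq h1 ?_
  rw [finrank_span_eq_card he, Fintype.card_fin]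
  exact hd

/-- the open cell = the interior of the parameter set -/
theorem mem_oc_iff (hy : y ∈ Om) (hd : T.dim y = 2) (he : LinearIndependent ℝ e)
    (hcc : T.cc y = pt e x '' P) {w : ℝ × ℝ} (hw : w ∈ P) :
    pt e x w ∈ T.oc y ↔ w ∈ interior P := by
  have hV := span_eq hy hd he hcc
  have hucc : pt e x w ∈ T.cc y := by rw [hcc]; exact mem_image_of_mem _ hw
  have huOm : pt e x w ∈ Om := T.cc_sub_Om hy hucc
  constructor
  · intro hoc
    obtain ⟨r, hr, hb⟩ := T.exists_ball_oc huOm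
    rw [mem_interior_iff_mem_nhds]
    have hc : Tendsto (fun w' : ℝ × ℝ => pt e x w' - pt e x w) (𝓝 w) (𝓝 0) := by
      have h0 : Continuous fun w' : ℝ × ℝ => pt e x w' - pt e x w := by unfold pt; fun_prop
      have := h0.tendsto w
      rwa [sub_self] at this
    have h1 : ∀ᶠ w' in 𝓝 w, ‖pt e x w' - pt e x w‖ < r := by
      have := hc.eventually (ball_mem_nhds (0 : E) hr)
      simpa [mem_ball_zero_iff] using this
    filter_upwards [h1] with w' hw'
    have h2 : pt e x w' - pt e x w ∈ T.V (pt e x w) := by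
      rw [T.V_eq_of_mem_oc hy hoc, hV, pt_sub]
      exact Submodule.add_mem _ (Submodule.smul_mem _ _ (Submodule.subset_span ⟨0, rfl⟩))
        (Submodule.smul_mem _ _ (Submodule.subset_span ⟨1, rfl⟩))
    have h3 := hb _ h2 hw'
    rw [add_sub_cancel, T.oc_eq_of_mem hy hoc] at h3
    have h4 := T.oc_sub_cc y h3
    rw [hcc] at h4
    obtain ⟨w'', h5, h6⟩ := h4
    rwa [← pt_inj he x h6]
  · intro hint
    obtain ⟨w0, hw0, hyw⟩ : y ∈ pt e x '' P := by rw [← hcc]; exact T.self_mem_cc y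
    rw [mem_interior_iff_mem_nhds] at hint
    have hc : Tendsto (fun s : ℝ => w + s • (w - w0)) (𝓝 0) (𝓝 (w + (0 : ℝ) • (w - w0))) := by
      apply Continuous.tendsto
      fun_prop
    rw [zero_smul, add_zero] at hc
    have h1 : ∀ᶠ s in 𝓝[>] (0 : ℝ), w + s • (w - w0) ∈ P :=
      (hc.eventually hint).filter_mono nhdsWithin_le_nhds
    obtain ⟨s, hs, hs0⟩ := (h1.and self_mem_nhdsWithin).exists
    have hs0 : (0 : ℝ) < s := hs0
    have h2 : pt e x (w + s • (w - w0)) ∈ T.cc y := by rw [hcc]; exact mem_image_of_mem _ hs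
    have h3 := T.move_mem_oc h2 (s := s / (1 + s)) (by positivity) (by rw [div_le_one (by linarith)]; linarith)
    have h4 : pt e x (w + s • (w - w0)) + (s / (1 + s)) • (y - pt e x (w + s • (w - w0))) =
        pt e x w := by
      rw [← hyw]
      have h1s : (1 + s) ≠ 0 := by positivity
      have h5 := pt_comb' e x (w + s • (w - w0)) w0 (s := 1 - s / (1 + s)) (t := s / (1 + s))
        (by ring)
      have h6 : (1 - s / (1 + s)) • (w + s • (w - w0)) + (s / (1 + s)) • w0 = w := by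
        ext
        · simp only [Prod.fst_add, Prod.smul_fst, Prod.fst_sub, smul_eq_mul]
          field_simp
          ring
        · simp only [Prod.snd_add, Prod.smul_snd, Prod.snd_sub, smul_eq_mul]
          field_simp
          ring
      rw [h6] at h5
      rw [h5]
      generalize pt e x (w + s • (w - w0)) = A
      module
    rwa [h4] at h3

/-- **the rim** -/
theorem rim_param (hy : y ∈ Om) (hd : T.dim y = 2) (he : LinearIndependent ℝ e)
    (hcc : T.cc y = pt e x '' P) {w : ℝ × ℝ} (hw : w ∈ P) (hwi : w ∉ interior P) :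
    pt e x w ∈ Om ∧ T.dim (pt e x w) ≤ 1 := by
  have hucc : pt e x w ∈ T.cc y := by rw [hcc]; exact mem_image_of_mem _ hw
  refine ⟨T.cc_sub_Om hy hucc, ?_⟩
  have h1 := T.dim_lt hucc (fun h => hwi ((mem_oc_iff hy hd he hcc hw).1 h))
  omega

/-- `sk1 T ∩ T.cc y` is the image of `P \ interior P` -/
theorem rim_eq (hy : y ∈ Om) (hd : T.dim y = 2) (he : LinearIndependent ℝ e)
    (hcc : T.cc y = pt e x '' P) : sk1 T ∩ T.cc y = pt e x '' (P \ interior P) := by
  ext u
  constructor
  · rintro ⟨⟨-, h1⟩, h2⟩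
    have h2' := h2
    rw [hcc] at h2
    obtain ⟨w, hw, rfl⟩ := h2
    refine ⟨w, ⟨hw, fun hi => ?_⟩, rfl⟩
    have h3 := T.dim_eq_of_mem_oc hy ((mem_oc_iff hy hd he hcc hw).2 hi)
    omega
  · rintro ⟨w, ⟨hw, hwi⟩, rfl⟩
    obtain ⟨h1, h2⟩ := rim_param hy hd he hcc hw hwi
    exact ⟨⟨h1, h2⟩, by rw [hcc]; exact mem_image_of_mem _ hw⟩

/-- **`face_param`** (113's literal form) -/
theorem face_param {E : Type*} [NormedAddCommGroup E] [InnerProductSpace ℝ E]
    [FiniteDimensional ℝ E] {Om : Set E} {ι : Type*} (T : Tiling Om ι) {y : E} (hy : y ∈ Om)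
    (hd : T.dim y = 2) :
    ∃ e : Fin 2 → E, LinearIndependent ℝ e ∧ (∀ i, ‖e i‖ ≤ 4 * diam (T.cc y)) ∧
      ∃ (x : E) (P : Set (ℝ × ℝ)), IsCompact P ∧ Convex ℝ P ∧
        P ⊆ Icc (0 : ℝ) 1 ×ˢ Icc (0 : ℝ) 1 ∧ T.cc y = pt e x '' P ∧
        (∀ w ∈ P, w ∉ interior P → pt e x w ∈ Om ∧ T.dim (pt e x w) ≤ 1) ∧
        sk1 T ∩ T.cc y = pt e x '' (P \ interior P) := by
  obtain ⟨e, x, P, he, h1, -, -, h2, h3, h4, h5⟩ := cc_form T hy hd
  refine ⟨e, he, fun i => ?_, x, P, h2, h3, h4, h5, fun w hw hwi => rim_param hy hd he h5 hw hwi,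
    rim_eq hy hd he h5⟩
  rw [h1]
  have : 0 ≤ diam (T.cc y) := diam_nonneg
  linarith

end

end Crest.Agent.R096.Mf2a_931
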