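import Crest.Agent.R096.Mf2_113
import Crest.Agent.R96.Gdt4_538

/-!
# `MeshG` (538) from rigidity
-/

set_option autoImplicit false

open Set Metric

namespace Crest.Agent.R096.Mf_113

open Crest.Agent.R096.Msh_715
open Crest.Agent.R96.Coarse_538 Crest.Agent.R96.Gdt_538
open Crest.AnalysisR.VecCalc3

variable {Om Om0 : Set R3} {ι0 : Type*} {ι : R3 → Type*}
variable {T0 : Tiling Om0 ι0} {T : ∀ a, Tiling Om (ι a)} {Tr W : Set R3}

/-- **the edges of a rigid family form a `MeshG`** -/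
theorem Rig.meshG (h : Rig T0 T Tr W) : ∃ x v : CK T0 1 → R3, (∀ e, v e ≠ 0) ∧
    (∀ e, ‖v e‖ = diam e.1.set) ∧ (∀ e, e.1.set = segment ℝ (x e) (x e + v e)) ∧
    ∀ a ∈ Tr, MeshG (T a) x v a W := by
  obtain ⟨x, v, h0, h1, h2, h3⟩ := h.edges
  refine ⟨x, v, h0, h1, h2, fun a ha => ⟨?_, ?_⟩⟩
  · intro y hy hyW
    obtain ⟨e, h4, h5⟩ := (h3 a ha).2 y hy hyW
    rw [← seg_eq_segment] at h4 h5
    exact ⟨e, h4, h5⟩
  · intro y hy hd hW
    obtain ⟨e, h4⟩ := (h3 a ha).1 y hy hd ⟨y, (T a).self_mem_cc y, hW ((T a).self_mem_cc y)⟩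
    exact ⟨e, by rw [seg_eq_segment]; exact h4⟩

end Crest.Agent.R096.Mf_113
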