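/-
helper880, row 96, PREMACH, MF-SUM, part 8: **the tiles of one block** (112 #11318: `Qb j` of
`pre_gen`), for the instance `Ins.mf` and for its zone patch (348's `ZIn.mf`).
-/
import Mathlib
import Crest.Agent.R096.Mfa4_880
import Crest.Agent.R096.Pmc7_112
import Crest.Agent.R96.Eac4_348

set_option autoImplicit false
set_option linter.style.longLine false

open MeasureTheory Set Filter Metric
open scoped Topology ENNReal

namespace Crest.Agent.R096.Mfa_880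

open Crest.Agent.R096.Msh_715 Crest.Agent.R096.Msh_810 Crest.Agent.R096.Cut_874
  Crest.Agent.R096.Mal_874
open Crest.Agent.R096.SkC1_961 (E3 Cfg)
open Crest.Agent.R96.Pm_199
open Crest.Agent.R096.Ls_222 (Edg)
open Crest.Agent.R096.Tms_582
open Crest.Agent.R96.EaCore_348 (EE)
open Crest.Agent.R96.Zpatch_348 (ZIn)

noncomputable section

namespace Ins

variable {F : Type} {X : Set F} (I : Ins F X) {a : E3} {w : X → E3} (h : I.mf.Ok a w)

/-- the translated block `j` -/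
abbrev Bl (a : E3) (w : X → E3) (j : X) : CB E3 3 := I.M.Bk (fun j => a + w j) j

/-- **the tiles of the block `j` without the core** -/
def Qb (j : X) : Set (I.mf.md a w h).ι :=
  {i | ∃ i' : I.M.IIx I.hk (I.M.φ a) (adm h) j, i' ≠ I.M.core I.hk (I.M.φ a) (adm h) j ∧
    i = Sum.inr ⟨j, i'⟩}

/-- the classes of the tiles of the block `j` -/
def Sb (j : X) : Set I.mf.κ := {c | (∃ c', c = I.kI j c') ∨ c = I.kIw j}

variable {j : X} {i : (I.mf.md a w h).ι}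

theorem Qb_ord (hi : i ∈ I.Qb h j) : (I.mf.md a w h).Ord i := by
  obtain ⟨i', hi', rfl⟩ := hi
  refine (I.ord_iff h).2 fun c hc => ?_
  obtain ⟨rfl, h2⟩ := Sigma.mk.inj_iff.1 (Sum.inr_injective hc)
  exact hi' (eq_of_heq h2)

theorem Qb_disj {j l : X} (hjl : j ≠ l) : Disjoint (I.Qb h j) (I.Qb h l) := by
  rw [Set.disjoint_left]
  rintro i ⟨i', -, rfl⟩ ⟨i'', -, h2⟩
  exact hjl (Sigma.mk.inj_iff.1 (Sum.inr_injective h2)).1

theorem Qb_sub (hi : i ∈ I.Qb h j) : P ((I.mf.md a w h).T.H i) ⊆ (I.Bl a w j).N := by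
  obtain ⟨i', -, rfl⟩ := hi
  exact i'.2

/-- **the block without the core is covered** -/
theorem Qb_cover (j : X) : (I.Bl a w j).N \ (I.Bl a w j).Kc ⊆
    ⋃ i ∈ I.Qb h j, P ((I.mf.md a w h).T.H i) := by
  rintro x ⟨hx, hxK⟩
  obtain ⟨i', h1, h2⟩ := (I.M.inn I.hk (I.M.φ a) (adm h)).un j x hx
  refine mem_iUnion₂.2 ⟨Sum.inr ⟨j, ⟨i', h2⟩⟩, ⟨⟨i', h2⟩, ?_, rfl⟩, h1⟩
  rintro hc
  apply hxK
  have h3 : x ∈ P ((I.M.mesh I.hk (I.M.φ a) (adm h)).H
      (Sum.inr ⟨j, I.M.core I.hk (I.M.φ a) (adm h) j⟩)) := by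
    rw [← hc]
    exact h1
  rw [I.M.P_core] at h3
  exact h3

/-- **the classes of the tiles of the block** -/
theorem Qb_cl (hi : i ∈ I.Qb h j) : I.mf.cl (I.mf.pot a w h i) ∈ I.Sb j := by
  obtain ⟨i', hi', rfl⟩ := hi
  exact I.cl_inner h hi'

theorem kO_notMem (j : X) : I.kO ∉ I.Sb j := by
  rintro (⟨c', hc⟩ | hc)
  · exact absurd (Option.some_injective _ hc) (by simp)
  · exact absurd (Option.some_injective _ hc) (by simp)

theorem kN_notMem (j : X) : I.kN ∉ I.Sb j := by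
  rintro (⟨c', hc⟩ | hc)
  · exact absurd hc (Option.some_ne_none _).symm
  · exact absurd hc (Option.some_ne_none _).symm

theorem kOw_notMem (j l : X) : I.kOw l ∉ I.Sb j := by
  rintro (⟨c', hc⟩ | hc)
  · exact absurd (Option.some_injective _ hc) (by simp)
  · exact absurd (Option.some_injective _ hc) (by simp)

theorem kI_mem {j l : X} {c : Mfi_290.Pt (I.M.Q l) ⊕ ℕ} (hm : I.kI l c ∈ I.Sb j) : l = j := by
  rcases hm with ⟨c', hc⟩ | hc
  · have h1 := Option.some_injective _ hc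
    have h2 := Sum.inl_injective (Sum.inr_injective h1)
    exact (Sigma.mk.inj_iff.1 h2).1
  · have h1 := Sum.inr_injective (Option.some_injective _ hc)
    exact absurd h1 (by simp)

theorem kIw_mem {j l : X} (hm : I.kIw l ∈ I.Sb j) : l = j := by
  rcases hm with ⟨c', hc⟩ | hc
  · have h1 := Sum.inr_injective (Option.some_injective _ hc)
    exact absurd h1 (by simp)
  · have h1 := Option.some_injective _ hc
    have h2 := Sum.inr_injective (Sum.inr_injective h1)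
    exact (Sigma.mk.inj_iff.1 h2).1

/-- **sum over the classes of the block `j`** -/
theorem tsum_Sb (j : X) (f : I.mf.κ → ℝ≥0∞) :
    ∑' c : I.Sb j, f c = ∑' c, f (I.kI j c) + f (I.kIw j) := by
  classical
  rw [tsum_subtype (I.Sb j) f, I.tsum_class]
  rw [indicator_of_notMem (I.kN_notMem j), indicator_of_notMem (I.kO_notMem j)]
  have h1 : ∑' l, (I.Sb j).indicator f (I.kOw l) = 0 := by
    rw [ENNReal.tsum_eq_zero]
    intro l
    exact indicator_of_notMem (I.kOw_notMem j l) _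
  have h2 : ∑' (l : X) (c : Mfi_290.Pt (I.M.Q l) ⊕ ℕ), (I.Sb j).indicator f (I.kI l c) =
      ∑' c, f (I.kI j c) := by
    rw [tsum_eq_single j]
    · refine tsum_congr fun c => ?_
      exact indicator_of_mem (show I.kI j c ∈ I.Sb j from Or.inl ⟨c, rfl⟩) _
    · intro l hl
      rw [ENNReal.tsum_eq_zero]
      intro c
      exact indicator_of_notMem (fun hm => hl (I.kI_mem hm)) _
  have h3 : ∑' l, (I.Sb j).indicator f (I.kIw l) = f (I.kIw j) := by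
    rw [tsum_eq_single j]
    · exact indicator_of_mem (show I.kIw j ∈ I.Sb j from Or.inr rfl) _
    · intro l hl
      exact indicator_of_notMem (fun hm => hl (I.kIw_mem hm)) _
  rw [h1, h2, h3]
  simp only [add_zero, zero_add]

/-- **the energy of the tiles of the block `j`** -/
theorem EE_Qb {C : Set (Set E3) → ℝ} (hC0 : ∀ 𝒦, 0 ≤ C 𝒦) {Cm : I.mf.κ → ℝ}
    (hC : ∀ k, ∀ 𝒦 ∈ I.mf.Sh k, C 𝒦 ≤ Cm k) (G : E3 → E3 → ℝ≥0∞) (K : ℝ≥0∞) {p : ℝ} (hp : 0 ≤ p)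
    (j : X) :
    EE C (I.mf.md a w h).T (I.mf.md a w h).fr ({i | (I.mf.md a w h).Ord i} ∩ I.Qb h j)
      (fun e => K * le G e) p ≤
      ∑' c, (ENNReal.ofReal (Cm (I.kI j c)) * K) ^ p * I.mf.EnT G p a w h (I.kI j c) +
        (ENNReal.ofReal (Cm (I.kIw j)) * K) ^ p * I.mf.EnT G p a w h (I.kIw j) := by
  refine (Pmc_112.EE_leQ I.mf hC0 hC G K hp h (Q := I.Qb h j) (S := I.Sb j)
    fun i _ hi => I.Qb_cl h hi).trans (le_of_eq ?_)
  exact I.tsum_Sb j fun k => (ENNReal.ofReal (Cm k) * K) ^ p * I.mf.EnT G p a w h k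

/-! ### the zone patch -/

section Z

variable (Zi : ZIn I.mf X)

/-- the tiles of the block `j` in the zone patch -/
def Qz (j : X) : Set (Zi.mf.md a w h).ι :=
  {q | ∃ (i0 : (I.mf.md a w h).ι)
    (hn : i0 ∉ Ar (I.mf.md a w h).T Zi.k (fun c => Zi.wz c a) Zi.Zc),
    i0 ∈ I.Qb h j ∧ q = Sum.inl ⟨i0, hn⟩}

variable {q : (Zi.mf.md a w h).ι}

theorem Qz_disj {j l : X} (hjl : j ≠ l) : Disjoint (I.Qz h Zi j) (I.Qz h Zi l) := by
  rw [Set.disjoint_left]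
  rintro q ⟨i0, hn, h1, rfl⟩ ⟨i1, hn', h2, h3⟩
  have h4 : i0 = i1 := congrArg Subtype.val (Sum.inl_injective h3)
  exact Set.disjoint_left.1 (I.Qb_disj h hjl) h1 (h4 ▸ h2)

theorem Qz_sub (hq : q ∈ I.Qz h Zi j) : P ((Zi.mf.md a w h).T.H q) ⊆ (I.Bl a w j).N := by
  obtain ⟨i0, hn, h1, rfl⟩ := hq
  exact I.Qb_sub h h1

/-- the tiles of the blocks are not replaced if the zones do not meet the blocks -/
theorem Qb_not {j : X}
    (hd : ∀ c, Disjoint (I.Bl a w j).N (closedBall (Zi.x c) (Zi.R c)))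
    {i0 : (I.mf.md a w h).ι} (hi : i0 ∈ I.Qb h j) :
    i0 ∉ Ar (I.mf.md a w h).T Zi.k (fun c => Zi.wz c a) Zi.Zc := by
  rintro ⟨c', z, hz, he⟩
  obtain ⟨y, hy⟩ := (I.mf.md a w h).T.ne i0
  have h1 := I_sub_P _ hy
  have h2 := h1
  rw [he, P_Hc_idE] at h2
  have h3 := cube_in (Zi.Z a w h) Zi.F hz h2
  have h4 := (Zi.Z a w h).R0 c'
  exact Set.disjoint_left.1 (hd c') (I.Qb_sub h hi h1)
    ((ball_subset_closedBall.trans (closedBall_subset_closedBall (by linarith))) h3)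

theorem Qz_ord {j : X} (hX : ∀ c ∈ X, (I.mf.md a w h).V c = {(I.mf.md a w h).ct c})
    (hd : ∀ c, Disjoint (I.Bl a w j).N (closedBall (Zi.x c) (Zi.R c)))
    (hq : q ∈ I.Qz h Zi j) : (Zi.mf.md a w h).Ord q := by
  obtain ⟨i0, hn, h1, rfl⟩ := hq
  intro c hc
  by_cases hcX : c ∈ X
  · have h2 : (Sum.inl ⟨i0, hn⟩ : Zi.Ix h) ∈ (Zi.dec h).V c := hc
    rw [Zi.dec_V_of h hcX] at h2
    have h2' : (Sum.inl ⟨i0, hn⟩ : Zi.Ix h) = Zi.ct h c := h2
    rw [Zi.ct_of h hcX] at h2'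
    have h3 : i0 = (I.mf.md a w h).ct c := congrArg Subtype.val (Sum.inl_injective h2')
    refine I.Qb_ord h h1 c ?_
    rw [hX c hcX]
    exact h3
  · have h2 : (Sum.inl ⟨i0, hn⟩ : Zi.Ix h) ∈ (Zi.dec h).V c := hc
    rw [Zi.dec_V_not h hcX] at h2
    obtain ⟨y, hy, hy2⟩ := h2
    have h4 := (Zi.Z a w h).R0 ⟨c, hcX⟩
    exact Set.disjoint_left.1 (hd ⟨c, hcX⟩) (I.Qb_sub h h1 hy)
      (closedBall_subset_closedBall (by linarith) hy2)

/-- **the block without the core is covered by the tiles of the patched mesh** -/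
theorem Qz_cover {j : X}
    (hd : ∀ c, Disjoint (I.Bl a w j).N (closedBall (Zi.x c) (Zi.R c))) :
    (I.Bl a w j).N \ (I.Bl a w j).Kc ⊆ ⋃ q ∈ I.Qz h Zi j, P ((Zi.mf.md a w h).T.H q) := by
  intro x hx
  obtain ⟨i0, hi, hxi⟩ := mem_iUnion₂.1 (I.Qb_cover h j hx)
  exact mem_iUnion₂.2 ⟨Sum.inl ⟨i0, I.Qb_not h Zi hd hi⟩,
    ⟨i0, I.Qb_not h Zi hd hi, hi, rfl⟩, hxi⟩

theorem Qz_cl (hq : q ∈ I.Qz h Zi j) : Zi.mf.cl (Zi.mf.pot a w h q) ∈ I.Sb j := by
  obtain ⟨i0, hn, h1, rfl⟩ := hq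
  exact I.Qb_cl h h1

/-- **the energy of the tiles of the block `j` in the patched mesh** -/
theorem EE_Qz {C : Set (Set E3) → ℝ} (hC0 : ∀ 𝒦, 0 ≤ C 𝒦) {Cm : I.mf.κ → ℝ}
    (hC : ∀ k, ∀ 𝒦 ∈ I.mf.Sh k, C 𝒦 ≤ Cm k) (G : E3 → E3 → ℝ≥0∞) (K : ℝ≥0∞) {p : ℝ} (hp : 0 ≤ p)
    (j : X) :
    EE C (Zi.mf.md a w h).T (Zi.mf.md a w h).fr ({i | (Zi.mf.md a w h).Ord i} ∩ I.Qz h Zi j)
      (fun e => K * le G e) p ≤
      ∑' c, (ENNReal.ofReal (Cm (I.kI j c)) * K) ^ p * Zi.mf.EnT G p a w h (I.kI j c) +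
        (ENNReal.ofReal (Cm (I.kIw j)) * K) ^ p * Zi.mf.EnT G p a w h (I.kIw j) := by
  refine (Pmc_112.EE_leQ Zi.mf hC0 hC G K hp h (Q := I.Qz h Zi j) (S := I.Sb j)
    fun i _ hi => I.Qz_cl h Zi hi).trans (le_of_eq ?_)
  exact I.tsum_Sb j fun k => (ENNReal.ofReal (Cm k) * K) ^ p * Zi.mf.EnT G p a w h k

end Z

end Ins

end

end Crest.Agent.R096.Mfa_880
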