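import Crest.Agent.R096.Mfi6_290
import Crest.Agent.R096.Cm0_222

/-!
# Row 96, EaX: block mean before the data ([BM] of 365 #11372), part 1: structure and domination

`Us Q` = used potential tiles of a block, `EdA Q B R t` = ALL segments in the tile `t` whose image
in the frame is an integer translate of a shape of the universal lists, `FB Q B R G p` = energy of
the block.  The energy of the classes of `Mfi_290.QI` (any mesh data, any scale `k0`, any lists of
cells) is at most `FB`.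
-/

set_option autoImplicit false
set_option linter.unusedSectionVars false

open MeasureTheory Set Filter Metric
open scoped Topology ENNReal

namespace Crest.Agent.R096.Mfb_290

open Msh_715 Cut_874 Msh_810 Mal_874 Mfi_290
open Crest.Agent.R096.SkC1_961 (E3 Cfg)
open Crest.Agent.R96.Sg1_199 (li sgm)
open Crest.Agent.R96.Sg8_199 (EnA)
open Crest.Agent.R96.Pm_199 (sh li_par)

noncomputable section

/-! ### segments -/

/-- a segment as a set -/
def Seg : Type := {K : Set E3 // ∃ p : E3 × E3, p.2 ≠ 0 ∧ K = sgm p.1 p.2}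

/-- parametrisation of a segment -/
def Seg.p (K : Seg) : E3 × E3 := K.2.choose

theorem Seg.p_ne (K : Seg) : K.p.2 ≠ 0 := K.2.choose_spec.1

theorem Seg.p_eq (K : Seg) : K.1 = sgm K.p.1 K.p.2 := K.2.choose_spec.2

theorem shf_sgm' (s x v : E3) : Mfe_161.shf s (sgm x v) = sgm (x + s) v := Mfe_161.shf_sgm s x v

/-- the translated segment -/
def Seg.tr (s : E3) (K : Seg) : Seg :=
  ⟨Mfe_161.shf s K.1, (K.p.1 + s, K.p.2), K.p_ne, by
    rw [← shf_sgm', ← K.p_eq]⟩

theorem Seg.tr_val (s : E3) (K : Seg) : (K.tr s).1 = Mfe_161.shf s K.1 := rfl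

theorem Seg.tr_tr (s t : E3) (K : Seg) : (K.tr t).tr s = K.tr (s + t) :=
  Subtype.ext (Mfe_161.shf_shf s t K.1)

theorem Seg.tr_zero (K : Seg) : K.tr 0 = K := Subtype.ext (Mfe_161.shf_zero K.1)

theorem Seg.tr_inj (s : E3) : Function.Injective (Seg.tr s) := fun _ _ h =>
  Subtype.ext (Mfe_161.shf_injective s (congrArg Subtype.val h))

/-- line integral along the shifted segment -/
def liS (G : E3 → E3 → ℝ≥0∞) (s : E3) (K : Seg) : ℝ≥0∞ := li (G K.p.2) (K.p.1 + s) K.p.2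

theorem liS_eq {G : E3 → E3 → ℝ≥0∞} (hG : ∀ v y, G (-v) y = G v y) {K : Seg} {x v s : E3}
    (h : Mfe_161.shf s K.1 = sgm x v) : liS G s K = li (G v) x v := by
  unfold liS
  refine li_par hG ?_
  rw [← shf_sgm', ← K.p_eq, h]

theorem liS_tr {G : E3 → E3 → ℝ≥0∞} (hG : ∀ v y, G (-v) y = G v y) (K : Seg) (s t : E3) :
    liS G s (K.tr t) = liS G (s + t) K := by
  refine liS_eq hG ?_
  rw [Seg.tr_val, Mfe_161.shf_shf, K.p_eq, shf_sgm']

/-! ### lists of shapes -/

/-- the universal shapes -/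
def Lsh (B : ℕ) (R : ℝ) : Set (Set E3) := shpT (N0 3) 1 2 ∪ shpT (NB 3 B) 1 R

theorem Lsh_finite (B : ℕ) (R : ℝ) : (Lsh B R).Finite :=
  (shpT_finite _ _ _).union (shpT_finite _ _ _)

/-- translation of a shape by an integer vector -/
def itr (w : Fin 3 → ℤ) (S : Set E3) : Set E3 := {u : E3 | (fun m => u m - (w m : ℝ)) ∈ S}

/-- the translates of the universal shapes in a ball -/
def Lb (B : ℕ) (R D : ℝ) : Set (Set E3) :=
  {S' | S'.Nonempty ∧ S' ⊆ closedBall 0 D ∧ ∃ S ∈ Lsh B R, ∃ w : Fin 3 → ℤ, S' = itr w S}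

theorem Lb_finite (B : ℕ) (R D : ℝ) : (Lb B R D).Finite := by
  have key : ∀ S ∈ Lsh B R,
      {S' : Set E3 | S'.Nonempty ∧ S' ⊆ closedBall 0 D ∧ ∃ w : Fin 3 → ℤ, S' = itr w S}.Finite := by
    intro S _
    rcases S.eq_empty_or_nonempty with hS | ⟨u, hu⟩
    · refine Set.finite_empty.subset ?_
      rintro S' ⟨⟨x, hx⟩, -, w, rfl⟩
      rw [hS] at hx
      exact hx
    · have h1 : {w : Fin 3 → ℤ | ∀ m, |(w m : ℝ)| ≤ D + ‖u‖}.Finite := by
        have h2 : (Set.pi univ fun _ : Fin 3 => {t : ℤ | |(t : ℝ)| ≤ D + ‖u‖}).Finite := by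
          refine Set.Finite.pi fun _ => ?_
          refine (Set.finite_Icc (-⌈D + ‖u‖⌉) ⌈D + ‖u‖⌉).subset ?_
          intro t ht
          have h0 : |(t : ℝ)| ≤ D + ‖u‖ := ht
          have h2 := abs_le.1 h0
          have h3 : (t : ℝ) ≤ (⌈D + ‖u‖⌉ : ℤ) := h2.2.trans (Int.le_ceil _)
          have h4 : (-(⌈D + ‖u‖⌉ : ℤ) : ℝ) ≤ t := by
            have := Int.le_ceil (D + ‖u‖)
            linarith
          exact ⟨by exact_mod_cast h4, by exact_mod_cast h3⟩
        refine h2.subset ?_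
        intro w hw m _
        exact hw m
      refine (h1.image fun w => itr w S).subset ?_
      rintro S' ⟨-, hb, w, rfl⟩
      refine ⟨w, ?_, rfl⟩
      intro m
      have h3 : (fun m => u m + (w m : ℝ)) ∈ itr w S := by
        show (fun m => u m + (w m : ℝ) - (w m : ℝ)) ∈ S
        simp only [add_sub_cancel_right]
        exact hu
      have h4 := hb h3
      rw [mem_closedBall_zero_iff] at h4
      have h5 := (norm_le_pi_norm (fun m => u m + (w m : ℝ)) m).trans h4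
      rw [Real.norm_eq_abs] at h5
      have h6 := norm_le_pi_norm u m
      rw [Real.norm_eq_abs] at h6
      have h7 : (w m : ℝ) = (u m + w m) - u m := by ring
      rw [h7]
      exact (abs_sub _ _).trans (by linarith)
  have h2 : Lb B R D = ⋃ S ∈ Lsh B R,
      {S' : Set E3 | S'.Nonempty ∧ S' ⊆ closedBall 0 D ∧ ∃ w : Fin 3 → ℤ, S' = itr w S} := by
    ext S'
    simp only [Lb, mem_ofPred_eq, mem_iUnion, exists_prop]
    constructor
    · rintro ⟨h1, h2, S, hS, w, hw⟩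
      exact ⟨S, hS, h1, h2, w, hw⟩
    · rintro ⟨S, hS, h1, h2, w, hw⟩
      exact ⟨h1, h2, S, hS, w, hw⟩
  rw [h2]
  exact (Lsh_finite B R).biUnion key

/-! ### the potential tiles of a block -/

variable (Q : CB E3 3)

/-- used potential tiles: cubes of some mesh of the block, tiles of the shell -/
def used : Pt Q → Prop
  | Sum.inl p => Use Q p
  | Sum.inr s => s ≠ Q.S.core

/-- the used potential tiles -/
abbrev Us : Type := {t : Pt Q // used Q t}

/-- scale of a potential tile -/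
def sc : Pt Q → ℕ
  | Sum.inl p => p.1
  | Sum.inr _ => Q.kc

open Classical in
/-- scale of the frame of a potential tile -/
def fk : Pt Q → ℕ
  | Sum.inl p => if (cube Q p.1 p.2 ∩ Q.S.bp Q.ψ Q.a' Q.kc).Nonempty then Q.kc else p.1 + 1
  | Sum.inr _ => Q.kc

/-- frame of a potential tile -/
def fχ (t : Pt Q) : E3 ≃ᵃ[ℝ] E3 := chi Q.ψ Q.a' (fk Q t)

/-- norm of the frame -/
def fβ (t : Pt Q) : ℝ := 2 * 2 ^ sc Q t * ‖(Q.ψ : E3 →L[ℝ] (Fin 3 → ℝ))‖

theorem dist_fχ (t : Pt Q) (x y : E3) :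
    dist (fχ Q t x) (fχ Q t y) = 2 ^ fk Q t * dist (Q.ψ x) (Q.ψ y) := by
  have hp : (0 : ℝ) < 2 ^ fk Q t := by positivity
  have e : (fχ Q t x : E3) - fχ Q t y = (2 : ℝ) ^ fk Q t • (Q.ψ x - Q.ψ y) := by
    funext m
    rw [Pi.sub_apply, Pi.smul_apply, Pi.sub_apply]
    unfold fχ
    rw [chi_apply, chi_apply, smul_eq_mul]
    ring
  rw [dist_eq_norm, e, norm_smul, Real.norm_of_nonneg hp.le, ← dist_eq_norm]

/-- **all potential edges of a potential tile**: segments in the tile which are integer translates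
of universal shapes in the frame -/
def EdS (B : ℕ) (R : ℝ) (t : Pt Q) : Set Seg :=
  {K | K.1 ⊆ til Q t ∧ ∃ S ∈ Lsh B R, ∃ z : Fin 3 → ℤ, fχ Q t '' K.1 = itr z S}

theorem EdS_map {B : ℕ} {R D : ℝ} {t : Pt Q}
    (hD : ∀ x ∈ til Q t, ∀ y ∈ til Q t, dist (fχ Q t x) (fχ Q t y) ≤ D) :
    MapsTo (fun K : Seg => nrm (fχ Q t) (til_ne Q t).some '' K.1) (EdS Q B R t) (Lb B R (D + 1)) := by
  rintro K ⟨hK, S, hS, z, e⟩
  set x0 := (til_ne Q t).some with hx0
  have hx0m : x0 ∈ til Q t := (til_ne Q t).some_mem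
  have hfr : ∀ y, nrm (fχ Q t) x0 y = fun m => fχ Q t y m - (flo (fχ Q t x0) m : ℝ) := by
    intro y
    unfold nrm
    rw [AffineEquiv.trans_apply, trz_apply]
  refine ⟨?_, ?_, S, hS, z - flo (fχ Q t x0), ?_⟩
  · rw [image_nonempty, K.p_eq]
    exact ⟨_, mem_sgm_iff.2 ⟨0, ⟨le_rfl, zero_le_one⟩, rfl⟩⟩
  · rintro _ ⟨y, hy, rfl⟩
    show nrm (fχ Q t) x0 y ∈ _
    rw [mem_closedBall_zero_iff, hfr]
    have h1 := hD y (hK hy) x0 hx0m
    rw [pi_norm_le_iff_of_nonneg (by linarith [dist_nonneg.trans h1])]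
    intro m
    have h2 := (dist_le_pi_dist (fχ Q t y) (fχ Q t x0) m).trans h1
    rw [Real.dist_eq] at h2
    have h3 : |(fχ Q t x0 : E3) m - flo (fχ Q t x0) m| ≤ 1 := by
      have h4 := Int.floor_le ((fχ Q t x0 : E3) m)
      have h5 := Int.lt_floor_add_one ((fχ Q t x0 : E3) m)
      unfold flo
      rw [abs_le]
      constructor <;> linarith
    rw [Real.norm_eq_abs]
    calc |(fχ Q t y : E3) m - flo (fχ Q t x0) m|
        = |((fχ Q t y : E3) m - (fχ Q t x0 : E3) m) + ((fχ Q t x0 : E3) m - flo (fχ Q t x0) m)| := by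
          congr 1; ring
      _ ≤ _ := abs_add_le _ _
      _ ≤ D + 1 := add_le_add h2 h3
  · have h1 : nrm (fχ Q t) x0 '' K.1 = (fun u : E3 => fun m => u m - (flo (fχ Q t x0) m : ℝ)) ''
        (fχ Q t '' K.1) := by
      rw [image_image]
      exact image_congr fun y _ => hfr y
    show nrm (fχ Q t) x0 '' K.1 = _
    rw [h1, e]
    ext u
    unfold itr
    constructor
    · rintro ⟨w, hw, rfl⟩
      have hw' : (fun m => w m - (z m : ℝ)) ∈ S := hw
      show (fun m => w m - (flo (fχ Q t x0) m : ℝ) - ((z - flo (fχ Q t x0)) m : ℤ)) ∈ S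
      have e2 : (fun m => w m - (flo (fχ Q t x0) m : ℝ) - ((z - flo (fχ Q t x0)) m : ℤ)) =
          fun m => w m - (z m : ℝ) := by
        funext m
        rw [Pi.sub_apply]
        push_cast
        ring
      rw [e2]
      exact hw'
    · intro hu
      have hu' : (fun m => u m - ((z - flo (fχ Q t x0)) m : ℤ)) ∈ S := hu
      refine ⟨fun m => u m + flo (fχ Q t x0) m, ?_, ?_⟩
      · show (fun m => u m + (flo (fχ Q t x0) m : ℝ) - (z m : ℝ)) ∈ S
        have e2 : (fun m => u m + (flo (fχ Q t x0) m : ℝ) - (z m : ℝ)) =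
            fun m => u m - ((z - flo (fχ Q t x0)) m : ℤ) := by
          funext m
          rw [Pi.sub_apply]
          push_cast
          ring
        rw [e2]
        exact hu'
      · funext m
        show u m + (flo (fχ Q t x0) m : ℝ) - (flo (fχ Q t x0) m : ℝ) = u m
        ring

theorem EdS_injOn {B : ℕ} {R : ℝ} (t : Pt Q) :
    InjOn (fun K : Seg => nrm (fχ Q t) (til_ne Q t).some '' K.1) (EdS Q B R t) := by
  intro K _ K' _ e
  exact Subtype.ext ((nrm (fχ Q t) (til_ne Q t).some).injective.image_injective e)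

/-- potential tiles are bounded in their frame -/
theorem exists_D (t : Pt Q) :
    ∃ D : ℝ, ∀ x ∈ til Q t, ∀ y ∈ til Q t, dist (fχ Q t x) (fχ Q t y) ≤ D := by
  rcases t with p | s
  · refine ⟨2 ^ fk Q (Sum.inl p) * (1 / 2 ^ p.1), fun x hx y hy => ?_⟩
    rw [dist_fχ]
    exact mul_le_mul_of_nonneg_left (cube_dist hx hy) (by positivity)
  · have h1 : til Q (Sum.inr s) ⊆ Q.N := by
      intro y hy
      have h2 : y ∈ P ((Q.T Q.kc le_rfl).H (Sum.inr s)) := by
        rw [CB.T_inr, mem_P_iH]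
        exact hy
      exact Q.bp_sub_N (Q.P_inr_sub _ le_rfl s h2)
    have h2 : IsCompact (fχ Q (Sum.inr s) '' Q.N) :=
      Q.isCompact_N.image (fχ Q (Sum.inr s)).continuous_of_finiteDimensional
    exact ⟨diam (fχ Q (Sum.inr s) '' Q.N), fun x hx y hy =>
      dist_le_diam_of_mem h2.isBounded (mem_image_of_mem _ (h1 hx)) (mem_image_of_mem _ (h1 hy))⟩

theorem EdS_finite (B : ℕ) (R : ℝ) (t : Pt Q) : (EdS Q B R t).Finite := by
  obtain ⟨D, hD⟩ := exists_D Q t
  exact Set.Finite.of_finite_image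
    ((Lb_finite B R (D + 1)).subset (EdS_map Q hD).image_subset) (EdS_injOn Q t)

/-- all potential edges as a finite set -/
def EdA (B : ℕ) (R : ℝ) (t : Pt Q) : Finset Seg := (EdS_finite Q B R t).toFinset

variable {Q} in
theorem mem_EdA {B : ℕ} {R : ℝ} {t : Pt Q} {K : Seg} : K ∈ EdA Q B R t ↔
    K.1 ⊆ til Q t ∧ ∃ S ∈ Lsh B R, ∃ z : Fin 3 → ℤ, fχ Q t '' K.1 = itr z S :=
  Set.Finite.mem_toFinset _

theorem sub_EdA {B : ℕ} {R : ℝ} {t : Pt Q} {K : Seg} (h : K ∈ EdA Q B R t) :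
    sgm K.p.1 K.p.2 ⊆ til Q t := by
  rw [← K.p_eq]
  exact (mem_EdA.1 h).1

/-- the number of potential edges -/
def nE (B : ℕ) (R : ℝ) : ℕ := (Lb B R (max 2 R + 1)).ncard

theorem used_kc {t : Pt Q} (h : used Q t) : Q.kc ≤ sc Q t := by
  rcases t with p | s
  · obtain ⟨⟨k, hk, hM⟩, -⟩ := h
    exact Q.kc_le k hk (τ := ⟨⟨⟨p.1, p.2, Finset.univ⟩, hM⟩, rfl⟩)
  · exact le_rfl

/-- **size of a used potential tile in the coordinates of the block** -/
theorem used_dist {R : ℝ} (hR1 : 1 ≤ R)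
    (hR : ∀ i, i ≠ Q.S.core → ∀ u ∈ ZP (Q.S.GG i), ∀ v ∈ ZP (Q.S.GG i), ∀ l, |v l - u l| ≤ R)
    {t : Pt Q} (h : used Q t) {x y : E3} (hx : x ∈ til Q t) (hy : y ∈ til Q t) :
    dist (Q.ψ x) (Q.ψ y) ≤ R / 2 ^ sc Q t := by
  rcases t with p | s
  · exact (cube_dist hx hy).trans (div_le_div_of_nonneg_right hR1 (by positivity))
  · have hp : (0 : ℝ) < 2 ^ Q.kc := by positivity
    show _ ≤ R / 2 ^ Q.kc
    rw [dist_pi_le_iff (by positivity)]
    intro l
    have h1 := hR s h _ hy _ hx l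
    have e : ps Q.a' Q.kc (Q.ψ x) l - ps Q.a' Q.kc (Q.ψ y) l =
        2 ^ Q.kc * (Q.ψ x l - Q.ψ y l) := by
      unfold ps
      ring
    rw [e, abs_mul, abs_of_pos hp] at h1
    rw [Real.dist_eq, le_div_iff₀' hp]
    exact h1

theorem used_frame {R : ℝ} (hR1 : 1 ≤ R)
    (hR : ∀ i, i ≠ Q.S.core → ∀ u ∈ ZP (Q.S.GG i), ∀ v ∈ ZP (Q.S.GG i), ∀ l, |v l - u l| ≤ R)
    {t : Pt Q} (h : used Q t) {x y : E3} (hx : x ∈ til Q t) (hy : y ∈ til Q t) :
    dist (fχ Q t x) (fχ Q t y) ≤ max 2 R := by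
  rw [dist_fχ]
  have hkc := used_kc Q h
  rcases t with p | s
  · have h1 : dist (Q.ψ x) (Q.ψ y) ≤ 1 / 2 ^ p.1 := cube_dist hx hy
    have h2 : fk Q (Sum.inl p) ≤ p.1 + 1 := by
      by_cases hb : (cube Q p.1 p.2 ∩ Q.S.bp Q.ψ Q.a' Q.kc).Nonempty
      · have e : fk Q (Sum.inl p) = Q.kc := if_pos hb
        rw [e]
        exact le_trans hkc (Nat.le_succ _)
      · have e : fk Q (Sum.inl p) = p.1 + 1 := if_neg hb
        rw [e]
    have h3 : (2 : ℝ) ^ fk Q (Sum.inl p) ≤ 2 * 2 ^ p.1 := by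
      calc (2 : ℝ) ^ fk Q (Sum.inl p) ≤ 2 ^ (p.1 + 1) := pow_le_pow_right₀ (by norm_num) h2
        _ = _ := by rw [pow_succ, mul_comm]
    calc (2 : ℝ) ^ fk Q (Sum.inl p) * dist (Q.ψ x) (Q.ψ y) ≤ (2 * 2 ^ p.1) * (1 / 2 ^ p.1) :=
          mul_le_mul h3 h1 dist_nonneg (by positivity)
      _ = 2 := by field_simp
      _ ≤ _ := le_max_left _ _
  · have h1 := used_dist Q hR1 hR h hx hy
    have hp : (0 : ℝ) < 2 ^ Q.kc := by positivity
    refine le_trans ?_ (le_max_right 2 R)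
    calc (2 : ℝ) ^ fk Q (Sum.inr s) * dist (Q.ψ x) (Q.ψ y) ≤ 2 ^ Q.kc * (R / 2 ^ Q.kc) :=
          mul_le_mul_of_nonneg_left h1 hp.le
      _ = R := by field_simp

/-- **number of potential edges of a used potential tile: a number of `B`, `R`** -/
theorem card_EdA {B : ℕ} {R : ℝ} (hR1 : 1 ≤ R)
    (hR : ∀ i, i ≠ Q.S.core → ∀ u ∈ ZP (Q.S.GG i), ∀ v ∈ ZP (Q.S.GG i), ∀ l, |v l - u l| ≤ R)
    {t : Pt Q} (h : used Q t) : (EdA Q B R t).card ≤ nE B R := by
  rw [← Set.ncard_coe_finset]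
  show ((EdS_finite Q B R t).toFinset : Set Seg).ncard ≤ _
  rw [Set.Finite.coe_toFinset]
  exact Set.ncard_le_ncard_of_injOn _
    (fun K hK => EdS_map Q (fun x hx y hy => used_frame Q hR1 hR h hx hy) hK)
    (EdS_injOn Q t) (Lb_finite _ _ _)

/-! ### the energy of the block -/

/-- **the energy of the block at the shift `s`** -/
def FB (B : ℕ) (R : ℝ) (G : E3 → E3 → ℝ≥0∞) (p : ℝ) (s : E3) : ℝ≥0∞ :=
  EnA volume (fun t : Us Q => til Q t.1) (fun _ => univ) (fun t => EdA Q B R t.1)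
    (fun t => ENNReal.ofReal (fβ Q t.1)) (fun K : Seg => G K.p.2) (fun K => K.p.1)
    (fun K => K.p.2) p s

theorem FB_eq (B : ℕ) (R : ℝ) (G : E3 → E3 → ℝ≥0∞) (p : ℝ) (s : E3) :
    FB Q B R G p s = ∑' t : Us Q, volume (til Q t.1) *
      (ENNReal.ofReal (fβ Q t.1) * ∑ K ∈ EdA Q B R t.1, liS G s K) ^ p := by
  unfold FB EnA
  refine tsum_congr fun t => ?_
  rw [indicator_of_mem (mem_univ _)]
  rfl

end

end Crest.Agent.R096.Mfb_290
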