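import Crest.Agent.R096.Mfb2_290
import Crest.Agent.R096.Ea1_713

/-!
# Row 96, EaX: block mean before the data, part 3: fine and coarse classes
-/

set_option autoImplicit false
set_option linter.unusedSectionVars false

open MeasureTheory Set Filter Metric
open scoped Topology ENNReal

namespace Crest.Agent.R096.Mfb_290

open Msh_715 Cut_874 Msh_810 Mal_874 Mfi_290
open Crest.Agent.R096.SkC1_961 (E3 Cfg)
open Crest.Agent.R96.Sg1_199 (li sgm)
open Crest.Agent.R96.Sg8_199 (EnA)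
open Crest.Agent.R96.Pm_199 (sh li_par)

noncomputable section

/-- sums over the fibres of some classes -/
theorem tsum_fib {α κ β : Type*} (f : α → ℝ≥0∞) (cl : α → κ) {g : β → κ}
    (hg : Function.Injective g) :
    ∑' b, ∑' t : {t // cl t = g b}, f t.1 = ∑' t, {t | cl t ∈ range g}.indicator f t := by
  have h1 : ∀ b, ∑' t : {t // cl t = g b}, f t.1 = ∑' t, {t | cl t = g b}.indicator f t := fun b =>
    tsum_subtype {t | cl t = g b} f
  rw [tsum_congr h1, ENNReal.tsum_comm]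
  refine tsum_congr fun t => ?_
  by_cases h : cl t ∈ range g
  · obtain ⟨b0, hb0⟩ := h
    have h2 : t ∈ {t | cl t ∈ range g} := ⟨b0, hb0⟩
    have h3 : t ∈ {t | cl t = g b0} := hb0.symm
    rw [indicator_of_mem h2, tsum_eq_single b0, indicator_of_mem h3]
    intro b hb
    refine indicator_of_notMem (s := {t | cl t = g b}) ?_ f
    intro h4
    have h4' : cl t = g b := h4
    exact hb (hg (h4'.symm.trans hb0.symm))
  · have h2 : t ∉ {t | cl t ∈ range g} := h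
    rw [indicator_of_notMem h2]
    refine ENNReal.tsum_eq_zero.2 fun b => ?_
    refine indicator_of_notMem (s := {t | cl t = g b}) ?_ f
    intro h4
    have h4' : cl t = g b := h4
    exact h ⟨b, h4'.symm⟩

variable (Q : CB E3 3)

/-! ### fine tiles -/

/-- the used cubes of scale `≥ k0` -/
def isF (k0 : ℕ) (t : Pt Q) : Prop := ∃ p : ℕ × (Fin 3 → ℤ), t = Sum.inl p ∧ k0 ≤ p.1

/-- the used cubes of scale `≥ k0` -/
abbrev Uf (k0 : ℕ) : Type := {t : Us Q // isF Q k0 t.1}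

/-- **the energy of the fine tiles of the block** -/
def FBf (k0 : ℕ) (B : ℕ) (R : ℝ) (G : E3 → E3 → ℝ≥0∞) (p : ℝ) (s : E3) : ℝ≥0∞ :=
  EnA volume (fun t : Uf Q k0 => til Q t.1.1) (fun _ => univ) (fun t => EdA Q B R t.1.1)
    (fun t => ENNReal.ofReal (fβ Q t.1.1)) (fun K : Seg => G K.p.2) (fun K => K.p.1)
    (fun K => K.p.2) p s

theorem FBf_eq (k0 : ℕ) (B : ℕ) (R : ℝ) (G : E3 → E3 → ℝ≥0∞) (p : ℝ) (s : E3) :
    FBf Q k0 B R G p s = ∑' t : Uf Q k0, term Q B R G p s t.1.1 := by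
  unfold FBf EnA
  refine tsum_congr fun t => ?_
  rw [indicator_of_mem (mem_univ _)]
  rfl

theorem FBf_ind (k0 : ℕ) (B : ℕ) (R : ℝ) (G : E3 → E3 → ℝ≥0∞) (p : ℝ) (s : E3) :
    FBf Q k0 B R G p s = ∑' t : Pt Q, {t | isF Q k0 t}.indicator (termI Q B R G p s) t := by
  rw [FBf_eq]
  have h1 : ∑' t : Uf Q k0, term Q B R G p s t.1.1 =
      ∑' t : Us Q, {t : Us Q | isF Q k0 t.1}.indicator (fun t => term Q B R G p s t.1) t :=
    tsum_subtype {t : Us Q | isF Q k0 t.1} (fun t => term Q B R G p s t.1)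
  have h2 : ∀ t : Us Q, {t : Us Q | isF Q k0 t.1}.indicator (fun t => term Q B R G p s t.1) t =
      {t : Pt Q | isF Q k0 t}.indicator (term Q B R G p s) t.1 := fun t => rfl
  have h3 : ∑' t : Us Q, {t : Pt Q | isF Q k0 t}.indicator (term Q B R G p s) t.1 =
      ∑' t : Pt Q, {t | used Q t}.indicator
        ({t : Pt Q | isF Q k0 t}.indicator (term Q B R G p s)) t :=
    tsum_subtype {t | used Q t} ({t : Pt Q | isF Q k0 t}.indicator (term Q B R G p s))
  rw [h1, tsum_congr h2, h3]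
  refine tsum_congr fun t => ?_
  have h4 : termI Q B R G p s = {t | used Q t}.indicator (term Q B R G p s) := rfl
  rw [h4, indicator_indicator, indicator_indicator, inter_comm]

/-- **the fine energy of the translated block** -/
theorem FBf_tr (w0 : E3) (k0 : ℕ) (B : ℕ) (R : ℝ) {G : E3 → E3 → ℝ≥0∞}
    (hG : ∀ v y, G (-v) y = G v y) (p : ℝ) (s : E3) :
    FBf (Q.tr w0) k0 B R G p s = FBf Q k0 B R G p (w0 + s) := by
  have h2 := FBf_ind (Q.tr w0) k0 B R G p s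
  have h3 := FBf_ind Q k0 B R G p (w0 + s)
  have h4 : ∀ t : Pt Q, {t | isF (Q.tr w0) k0 t}.indicator (termI (Q.tr w0) B R G p s) t =
      {t | isF Q k0 t}.indicator (termI Q B R G p (w0 + s)) t := by
    intro t
    by_cases h : isF Q k0 t
    · have e1 : {t | isF (Q.tr w0) k0 t}.indicator (termI (Q.tr w0) B R G p s) t =
          termI (Q.tr w0) B R G p s t :=
        indicator_of_mem (s := {t | isF (Q.tr w0) k0 t}) h _
      have e2 : {t | isF Q k0 t}.indicator (termI Q B R G p (w0 + s)) t =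
          termI Q B R G p (w0 + s) t := indicator_of_mem (s := {t | isF Q k0 t}) h _
      exact e1.trans ((termI_tr Q w0 B R hG p s t).trans e2.symm)
    · have e1 : {t | isF (Q.tr w0) k0 t}.indicator (termI (Q.tr w0) B R G p s) t = 0 :=
        indicator_of_notMem (s := {t | isF (Q.tr w0) k0 t}) h _
      have e2 : {t | isF Q k0 t}.indicator (termI Q B R G p (w0 + s)) t = 0 :=
        indicator_of_notMem (s := {t | isF Q k0 t}) h _
      exact e1.trans e2.symm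
  exact h2.trans ((tsum_congr (β := Pt Q) h4).trans h3.symm)

/-! ### coarse tiles -/

/-- coarse potential tiles: the shell, cubes at the shell, cubes of scale `< k0` -/
def CoQ (k0 : ℕ) : Pt Q → Prop
  | Sum.inl p => p.1 < k0 ∨ (cube Q p.1 p.2 ∩ Q.S.bp Q.ψ Q.a' Q.kc).Nonempty
  | Sum.inr _ => True

/-- used coarse tiles of the tiling `Q.T k0` -/
def CoT (k0 : ℕ) (hk0 : Q.kc ≤ k0) (t : Pt Q) : Prop :=
  used Q t ∧ CoQ Q k0 t ∧ ∃ i0, P ((Q.T k0 hk0).H i0) = til Q t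

variable {Q}

theorem used_sub {t : Pt Q} (h : used Q t) : til Q t ⊆ Q.N := by
  rcases t with p | s
  · exact h.2.1
  · intro y hy
    have h2 : y ∈ P ((Q.T Q.kc le_rfl).H (Sum.inr s)) := by
      rw [CB.T_inr, mem_P_iH]
      exact hy
    exact Q.bp_sub_N (Q.P_inr_sub _ le_rfl s h2)

theorem pol_sub_bp (s : Q.S.Ix) : pol Q s ⊆ Q.S.bp Q.ψ Q.a' Q.kc := by
  intro y hy
  have h2 : y ∈ P ((Q.T Q.kc le_rfl).H (Sum.inr s)) := by
    rw [CB.T_inr, mem_P_iH]
    exact hy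
  exact Q.P_inr_sub _ le_rfl s h2

theorem cube_inj {p p' : ℕ × (Fin 3 → ℤ)} (h : cube Q p.1 p.2 = cube Q p'.1 p'.2) : p = p' := by
  have key : ∀ p p' : ℕ × (Fin 3 → ℤ), cube Q p.1 p.2 ⊆ cube Q p'.1 p'.2 → ∀ l,
      (p'.2 l : ℝ) / 2 ^ p'.1 ≤ (p.2 l : ℝ) / 2 ^ p.1 ∧
        ((p.2 l : ℝ) + 1) / 2 ^ p.1 ≤ ((p'.2 l : ℝ) + 1) / 2 ^ p'.1 := by
    intro p p' hpp l
    have hp : (0 : ℝ) < 2 ^ p.1 := by positivity
    have hp' : (0 : ℝ) < 2 ^ p'.1 := by positivity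
    have hx : ∀ c : ℝ, 0 ≤ c → c ≤ 1 → (p'.2 l : ℝ) / 2 ^ p'.1 ≤ ((p.2 l : ℝ) + c) / 2 ^ p.1 ∧
        ((p.2 l : ℝ) + c) / 2 ^ p.1 ≤ ((p'.2 l : ℝ) + 1) / 2 ^ p'.1 := by
      intro c hc0 hc1
      set y : E3 := Q.ψ.symm (fun l => Q.a' l + ((p.2 l : ℝ) + c) / 2 ^ p.1) with hy
      have hym : ∀ l, Q.ψ y l = Q.a' l + ((p.2 l : ℝ) + c) / 2 ^ p.1 := by
        intro l
        rw [hy, Q.ψ.apply_symm_apply]
      have h1 : y ∈ cube Q p.1 p.2 := by
        show Q.ψ y ∈ Cu Q.a' p.1 p.2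
        rw [mem_Cu]
        intro i
        have e : ps Q.a' p.1 (Q.ψ y) i = (p.2 i : ℝ) + c := by
          unfold ps
          rw [hym]
          field_simp
          ring
        rw [e]
        constructor <;> linarith
      have h2 : Q.ψ y ∈ Cu Q.a' p'.1 p'.2 := hpp h1
      have h3 := mem_Cu.1 h2 l
      have e : ps Q.a' p'.1 (Q.ψ y) l = 2 ^ p'.1 * (((p.2 l : ℝ) + c) / 2 ^ p.1) := by
        unfold ps
        rw [hym]
        ring
      rw [e] at h3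
      constructor
      · rw [div_le_iff₀' hp']
        exact h3.1
      · rw [le_div_iff₀' hp']
        exact h3.2
    have h0 := hx 0 le_rfl zero_le_one
    have h1 := hx 1 zero_le_one le_rfl
    rw [add_zero] at h0
    exact ⟨h0.1, h1.2⟩
  have h1 := key p p' h.le
  have h2 := key p' p h.ge
  have hp : (0 : ℝ) < 2 ^ p.1 := by positivity
  have hp' : (0 : ℝ) < 2 ^ p'.1 := by positivity
  have e1 : ∀ l, (p.2 l : ℝ) / 2 ^ p.1 = (p'.2 l : ℝ) / 2 ^ p'.1 := fun l =>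
    le_antisymm (h2 l).1 (h1 l).1
  have e2 : ∀ l, ((p.2 l : ℝ) + 1) / 2 ^ p.1 = ((p'.2 l : ℝ) + 1) / 2 ^ p'.1 := fun l =>
    le_antisymm (h1 l).2 (h2 l).2
  have e3 : (2 : ℝ) ^ p.1 = 2 ^ p'.1 := by
    have h3 := e1 0
    have h4 := e2 0
    rw [add_div, add_div, h3] at h4
    have h5 : (1 : ℝ) / 2 ^ p.1 = 1 / 2 ^ p'.1 := by linarith
    rwa [div_eq_div_iff hp.ne' hp'.ne', one_mul, one_mul, eq_comm] at h5
  have e4 : p.1 = p'.1 := by
    have h3 : ((2 : ℕ) : ℝ) ^ p.1 = ((2 : ℕ) : ℝ) ^ p'.1 := by exact_mod_cast e3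
    exact Nat.pow_right_injective le_rfl (by exact_mod_cast h3)
  refine Prod.ext e4 ?_
  funext l
  have h3 := e1 l
  rw [e3] at h3
  have h4 : (p.2 l : ℝ) = p'.2 l := by
    field_simp at h3
    exact h3
  exact_mod_cast h4

/-- the name of a tile which is a used potential tile -/
theorem nm_of {k0 : ℕ} {hk0 : Q.kc ≤ k0} {t : Pt Q} (h : used Q t) {i0 : TIx Q k0 hk0}
    (hi : P ((Q.T k0 hk0).H i0) = til Q t) : nm Q k0 hk0 i0 = t := by
  rcases i0 with τ | s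
  · rcases t with p | s'
    · have h1 : cube Q τ.1.1.1.k τ.1.1.1.z = cube Q p.1 p.2 := by
        have h2 := P_nm Q k0 hk0 (Sum.inl τ)
        exact h2.symm.trans hi
      have h3 : ((τ.1.1.1.k, τ.1.1.1.z) : ℕ × (Fin 3 → ℤ)) = p := cube_inj (Q := Q) h1
      exact congrArg Sum.inl h3
    · exfalso
      apply τ.2
      show P ((Q.T0 k0 hk0).H τ.1) ⊆ _
      have h2 : P ((Q.T0 k0 hk0).H τ.1) = pol Q s' := hi
      rw [h2]
      exact pol_sub_bp s'
  · rcases t with p | s'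
    · exfalso
      apply h.2.2
      have h2 : P ((Q.T k0 hk0).H (Sum.inr s)) = cube Q p.1 p.2 := hi
      rw [← h2]
      exact Q.P_inr_sub k0 hk0 s
    · have h2 : P ((Q.T k0 hk0).H (Sum.inr s)) = P ((Q.T k0 hk0).H (Sum.inr s')) :=
        hi.trans (P_nm Q k0 hk0 (Sum.inr s')).symm
      have h3 := Mfa_880.tile_inj _ h2
      exact congrArg (nm Q k0 hk0) h3

/-- **the coarse tiles are essentially disjoint and lie in the block off the core** -/
theorem vol_coarse (Q : CB E3 3) (k0 : ℕ) (hk0 : Q.kc ≤ k0) :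
    ∑' t : Pt Q, {t | CoT Q k0 hk0 t}.indicator (fun t => volume (til Q t)) t ≤
      volume (Q.N \ Q.Kc) := by
  classical
  have h1 : ∑' t : Pt Q, {t | CoT Q k0 hk0 t}.indicator (fun t => volume (til Q t)) t =
      ∑' t : {t : Pt Q // CoT Q k0 hk0 t}, volume (til Q t.1) :=
    (tsum_subtype {t | CoT Q k0 hk0 t} (fun t => volume (til Q t))).symm
  rw [h1]
  choose i0 hi0 using fun t : {t : Pt Q // CoT Q k0 hk0 t} => t.2.2.2
  have hinj : Function.Injective i0 := by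
    intro t t' e
    apply Subtype.ext
    rw [← nm_of t.2.1 (hi0 t), ← nm_of t'.2.1 (hi0 t'), e]
  have hdis : Pairwise (Function.onFun (AEDisjoint volume) fun t : {t : Pt Q // CoT Q k0 hk0 t} =>
      til Q t.1) := by
    intro t t' htt
    show AEDisjoint volume (til Q t.1) (til Q t'.1)
    rw [← hi0 t, ← hi0 t']
    exact Ea_713.aedisj (T := Q.T k0 hk0) volume (hinj.ne htt)
  rw [← measure_iUnion₀ hdis fun t => (isClosed_til Q t.1).measurableSet.nullMeasurableSet]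
  have hK : ∀ t : {t : Pt Q // CoT Q k0 hk0 t}, volume (til Q t.1 ∩ Q.Kc) = 0 := by
    intro t
    have hne : i0 t ≠ Q.cix k0 hk0 := by
      intro e
      have h2 := nm_of t.2.1 (hi0 t)
      rw [e] at h2
      have h3 : used Q (nm Q k0 hk0 (Q.cix k0 hk0)) := h2 ▸ t.2.1
      exact h3 rfl
    have h2 : AEDisjoint volume (P ((Q.T k0 hk0).H (i0 t)))
        (P ((Q.T k0 hk0).H (Q.cix k0 hk0))) := Ea_713.aedisj (T := Q.T k0 hk0) volume hne
    rw [hi0 t] at h2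
    rw [Q.P_core k0 hk0] at h2
    exact h2
  have h3 : (⋃ t : {t : Pt Q // CoT Q k0 hk0 t}, til Q t.1) ⊆
      (Q.N \ Q.Kc) ∪ ⋃ t : {t : Pt Q // CoT Q k0 hk0 t}, (til Q t.1 ∩ Q.Kc) := by
    intro y hy
    obtain ⟨t, ht⟩ := mem_iUnion.1 hy
    by_cases hyK : y ∈ Q.Kc
    · exact Or.inr (mem_iUnion.2 ⟨t, ht, hyK⟩)
    · exact Or.inl ⟨used_sub t.2.1 ht, hyK⟩
  refine (measure_mono h3).trans ((measure_union_le _ _).trans ?_)
  rw [measure_iUnion_null hK, add_zero]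

/-! ### fine and coarse classes of `QI` -/

section dom

variable {J : Type} (M : MD E3 3 J) (X : RD M) (j : J) (k0 : ℕ) (hk0 : (M.Q j).kc ≤ k0)

theorem qcl_inr {t : Pt (M.Q j)} (h : qcl M k0 j t ∈ range Sum.inr) : isF (M.Q j) k0 t := by
  classical
  by_cases hc : Coarse M k0 j t
  · have e : qcl M k0 j t = Sum.inl t := if_pos hc
    rw [e] at h
    obtain ⟨m, hm⟩ := h
    cases hm
  · rcases t with p | s
    · refine ⟨p, rfl, ?_⟩
      by_contra hlt
      exact hc (Or.inl (not_le.1 hlt))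
    · exact absurd trivial hc

theorem qcl_inl {t : Pt (M.Q j)} (h : qcl M k0 j t ∈ range Sum.inl) : Coarse M k0 j t := by
  classical
  by_contra hc
  have e : qcl M k0 j t = Sum.inr (sca M j t) := if_neg hc
  rw [e] at h
  obtain ⟨m, hm⟩ := h
  cases hm

/-- **the fine classes are dominated before the data** -/
theorem fine_le {B : ℕ} {R : ℝ} (hB : X.B j ≤ B) (hR : X.R j ≤ R) {𝒦 : Set (Set E3)}
    {U : Set E3} (h𝒦 : 𝒦.Countable) (hU : U.Countable) {G : E3 → E3 → ℝ≥0∞}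
    (hG : ∀ v y, G (-v) y = G v y) {p : ℝ} (hp : 0 ≤ p) (s : E3) :
    ∑' m : ℕ, ((QI M X j k0 hk0).toPT 𝒦 U h𝒦 hU).EnC G p (Sum.inr m : Pt (M.Q j) ⊕ ℕ) s ≤
      FBf (M.Q j) k0 B R G p s := by
  classical
  have h1 : ∑' m : ℕ, ((QI M X j k0 hk0).toPT 𝒦 U h𝒦 hU).EnC G p (Sum.inr m : Pt (M.Q j) ⊕ ℕ) s =
      ∑' m : ℕ, ∑' t : {t // qcl M k0 j t = Sum.inr m}, tq M X j k0 hk0 h𝒦 hU G p s t.1 := rfl
  rw [h1, tsum_fib (tq M X j k0 hk0 h𝒦 hU G p s) (qcl M k0 j) Sum.inr_injective, FBf_ind]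
  refine ENNReal.tsum_le_tsum fun t => ?_
  by_cases h : qcl M k0 j t ∈ range Sum.inr
  · have h2 : t ∈ {t | qcl M k0 j t ∈ range Sum.inr} := h
    have h3 : t ∈ {t | isF (M.Q j) k0 t} := qcl_inr M j k0 h
    rw [indicator_of_mem h2, indicator_of_mem h3]
    exact tile_le M X j k0 hk0 hB hR h𝒦 hU hG hp s t
  · have h2 : t ∉ {t | qcl M k0 j t ∈ range Sum.inr} := h
    rw [indicator_of_notMem h2]
    exact bot_le

/-- **the fine classes, at the original place of the block** -/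
theorem fine_tr {Q : CB E3 3} {w0 : E3} (hQ : M.Q j = Q.tr w0) {B : ℕ} {R : ℝ} (hB : X.B j ≤ B)
    (hR : X.R j ≤ R) {𝒦 : Set (Set E3)} {U : Set E3} (h𝒦 : 𝒦.Countable) (hU : U.Countable)
    {G : E3 → E3 → ℝ≥0∞} (hG : ∀ v y, G (-v) y = G v y) {p : ℝ} (hp : 0 ≤ p) (s : E3) :
    ∑' m : ℕ, ((QI M X j k0 hk0).toPT 𝒦 U h𝒦 hU).EnC G p (Sum.inr m : Pt (M.Q j) ⊕ ℕ) s ≤
      FBf Q k0 B R G p (w0 + s) := by
  have h1 := fine_le M X j k0 hk0 hB hR h𝒦 hU hG hp s
  have h2 : FBf (M.Q j) k0 B R G p s = FBf (Q.tr w0) k0 B R G p s := by rw [hQ]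
  rw [h2, FBf_tr Q w0 k0 B R hG p s] at h1
  exact h1

/-- a potential tile of a coarse class with a potential edge is a tile of `(M.Q j).T k0` -/
theorem edQ_empty {𝒦 : Set (Set E3)} {U : Set E3} (h𝒦 : 𝒦.Countable) (hU : U.Countable)
    {t : Pt (M.Q j)} (hc : Coarse M k0 j t)
    (h : ¬ ∃ i0, P (((M.Q j).T k0 hk0).H i0) = til (M.Q j) t) : edQ M X j k0 hk0 h𝒦 hU t = ∅ := by
  rw [Finset.eq_empty_iff_forall_notMem]
  intro K hK
  obtain ⟨i0, h1, -⟩ := edge_coarse M X j k0 hk0 h𝒦 hU hc hK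
  exact h ⟨i0, h1⟩

/-- **the coarse classes are dominated by the coarse tiles of `(M.Q j).T k0`** -/
theorem coarse_le {B : ℕ} {R : ℝ} (hB : X.B j ≤ B) (hR : X.R j ≤ R) {𝒦 : Set (Set E3)}
    {U : Set E3} (h𝒦 : 𝒦.Countable) (hU : U.Countable) {G : E3 → E3 → ℝ≥0∞}
    (hG : ∀ v y, G (-v) y = G v y) {p : ℝ} (hp : 0 < p) (s : E3) :
    ∑' t : Pt (M.Q j), ((QI M X j k0 hk0).toPT 𝒦 U h𝒦 hU).EnC G p (Sum.inl t : Pt (M.Q j) ⊕ ℕ) s ≤
      ∑' t : Pt (M.Q j), {t | CoT (M.Q j) k0 hk0 t}.indicator (term (M.Q j) B R G p s) t := by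
  classical
  have h1 : ∑' t : Pt (M.Q j),
      ((QI M X j k0 hk0).toPT 𝒦 U h𝒦 hU).EnC G p (Sum.inl t : Pt (M.Q j) ⊕ ℕ) s =
      ∑' t' : Pt (M.Q j), ∑' t : {t // qcl M k0 j t = Sum.inl t'},
        tq M X j k0 hk0 h𝒦 hU G p s t.1 := rfl
  rw [h1, tsum_fib (tq M X j k0 hk0 h𝒦 hU G p s) (qcl M k0 j) Sum.inl_injective]
  refine ENNReal.tsum_le_tsum fun t => ?_
  by_cases h : qcl M k0 j t ∈ range Sum.inl
  · have h2 : t ∈ {t | qcl M k0 j t ∈ range Sum.inl} := h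
    have hc := qcl_inl M j k0 h
    rw [indicator_of_mem h2]
    by_cases hu : used (M.Q j) t
    · by_cases hT : ∃ i0, P (((M.Q j).T k0 hk0).H i0) = til (M.Q j) t
      · have h3 : t ∈ {t | CoT (M.Q j) k0 hk0 t} := by
          refine ⟨hu, ?_, hT⟩
          rcases t with q | q
          · exact hc
          · exact trivial
        rw [indicator_of_mem h3]
        refine (tile_le M X j k0 hk0 hB hR h𝒦 hU hG hp.le s t).trans (le_of_eq ?_)
        exact indicator_of_mem (s := {t | used (M.Q j) t}) hu _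
      · have h4 := edQ_empty M X j k0 hk0 h𝒦 hU hc hT
        have h5 : tq M X j k0 hk0 h𝒦 hU G p s t = 0 := by
          unfold tq
          rw [h4]
          by_cases hs : s ∈ qAc M j t
          · rw [indicator_of_mem hs, Finset.sum_empty, mul_zero, ENNReal.zero_rpow_of_pos hp,
              mul_zero]
          · exact indicator_of_notMem hs _
        rw [h5]
        exact bot_le
    · refine (tile_le M X j k0 hk0 hB hR h𝒦 hU hG hp.le s t).trans ?_
      have h5 : termI (M.Q j) B R G p s t = 0 :=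
        indicator_of_notMem (s := {t | used (M.Q j) t}) hu _
      rw [h5]
      exact bot_le
  · have h2 : t ∉ {t | qcl M k0 j t ∈ range Sum.inl} := h
    rw [indicator_of_notMem h2]
    exact bot_le

/-- **coarse classes from a bound of every tile** -/
theorem coarse_of_bound {B : ℕ} {R : ℝ} (hB : X.B j ≤ B) (hR : X.R j ≤ R) {𝒦 : Set (Set E3)}
    {U : Set E3} (h𝒦 : 𝒦.Countable) (hU : U.Countable) {G : E3 → E3 → ℝ≥0∞}
    (hG : ∀ v y, G (-v) y = G v y) {p : ℝ} (hp : 0 < p) {s : E3} {K : ℝ≥0∞}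
    (hK : ∀ t, CoT (M.Q j) k0 hk0 t →
      (ENNReal.ofReal (fβ (M.Q j) t) * ∑ K ∈ EdA (M.Q j) B R t, liS G s K) ^ p ≤ K) :
    ∑' t : Pt (M.Q j), ((QI M X j k0 hk0).toPT 𝒦 U h𝒦 hU).EnC G p (Sum.inl t : Pt (M.Q j) ⊕ ℕ) s ≤
      K * volume ((M.Q j).N \ (M.Q j).Kc) := by
  refine (coarse_le M X j k0 hk0 hB hR h𝒦 hU hG hp s).trans ?_
  have h1 : ∀ t : Pt (M.Q j), {t | CoT (M.Q j) k0 hk0 t}.indicator (term (M.Q j) B R G p s) t ≤
      K * {t | CoT (M.Q j) k0 hk0 t}.indicator (fun t => volume (til (M.Q j) t)) t := by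
    intro t
    by_cases h : CoT (M.Q j) k0 hk0 t
    · have h3 : t ∈ {t | CoT (M.Q j) k0 hk0 t} := h
      rw [indicator_of_mem h3, indicator_of_mem h3, mul_comm K]
      exact mul_le_mul' le_rfl (hK t h)
    · have h3 : t ∉ {t | CoT (M.Q j) k0 hk0 t} := h
      rw [indicator_of_notMem h3]
      exact bot_le
  refine (ENNReal.tsum_le_tsum h1).trans ?_
  rw [ENNReal.tsum_mul_left]
  exact mul_le_mul' le_rfl (vol_coarse (M.Q j) k0 hk0)

/-- **coarse classes from a bound of every tile of the block at its original place** -/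
theorem coarse_of_bound_tr {Q : CB E3 3} {w0 : E3} (hQ : M.Q j = Q.tr w0) {B : ℕ} {R : ℝ}
    (hB : X.B j ≤ B) (hR : X.R j ≤ R) {𝒦 : Set (Set E3)} {U : Set E3} (h𝒦 : 𝒦.Countable)
    (hU : U.Countable) {G : E3 → E3 → ℝ≥0∞} (hG : ∀ v y, G (-v) y = G v y) {p : ℝ} (hp : 0 < p)
    {s : E3} {K : ℝ≥0∞} (hK : ∀ t : Pt Q, used Q t → CoQ Q k0 t →
      (ENNReal.ofReal (fβ Q t) * ∑ K ∈ EdA Q B R t, liS G (w0 + s) K) ^ p ≤ K) :
    ∑' t : Pt (M.Q j), ((QI M X j k0 hk0).toPT 𝒦 U h𝒦 hU).EnC G p (Sum.inl t : Pt (M.Q j) ⊕ ℕ) s ≤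
      K * volume (Q.N \ Q.Kc) := by
  have key : ∀ (Q' : CB E3 3) (hk' : Q'.kc ≤ k0), Q' = Q.tr w0 → (∀ t, CoT Q' k0 hk' t →
      (ENNReal.ofReal (fβ Q' t) * ∑ K ∈ EdA Q' B R t, liS G s K) ^ p ≤ K) ∧
      volume (Q'.N \ Q'.Kc) = volume (Q.N \ Q.Kc) := by
    rintro Q' hk' rfl
    refine ⟨?_, ?_⟩
    · rintro t ⟨hu, hc, -⟩
      have hu' : used Q t := (used_tr Q w0 t).1 hu
      have hc' : CoQ Q k0 t := by
        rcases t with q | q
        · rcases hc with hc | hc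
          · exact Or.inl hc
          · refine Or.inr ?_
            rw [cube_tr] at hc
            exact (inter_tr (mem_bp_tr Q w0)).1 hc
        · exact trivial
      refine le_trans (le_of_eq ?_) (hK t hu' hc')
      exact congrArg (· ^ p) (congrArg₂ (· * ·) (congrArg ENNReal.ofReal (fβ_tr Q w0 t))
        (sum_tr Q w0 B R hG s t))
    · have h1 : (Q.tr w0).N \ (Q.tr w0).Kc = (fun y : E3 => y + -w0) ⁻¹' (Q.N \ Q.Kc) := by
        ext y
        rw [Set.mem_sdiff, mem_preimage, Set.mem_sdiff, Q.mem_N_tr, Q.mem_Kc_tr, sub_eq_add_neg]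
      rw [h1, measure_preimage_add_right]
  obtain ⟨h1, h2⟩ := key (M.Q j) hk0 hQ
  rw [← h2]
  exact coarse_of_bound M X j k0 hk0 hB hR h𝒦 hU hG hp h1

end dom

end

end Crest.Agent.R096.Mfb_290
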