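import Crest.Agent.R096.Gsm1_432
import Crest.Agent.R096.Msh3_715
import Crest.Agent.R96.Sg1_199

/-!
# Row 96 (helper161), MF-EDGE, part 1: closed cells are determined by the tile sets

* `cellS 𝒬 x` : the closed cell of `x` in a family of sets; `cc_eq_cellS`;
* translations; rigid translation of neighbourhoods (any two tilings);
* `ctb` : countably many cells from countably many polytopes.
-/

set_option autoImplicit false
set_option linter.unusedSectionVars false

open Set Filter Topology Metric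

namespace Crest.Agent.R096.Mfe_161

open Crest.Agent.R096.Msh_715

section basic

variable {E : Type*} [NormedAddCommGroup E] [NormedSpace ℝ E]

/-- the intersection of the minimal faces of `x` in the sets of the family `𝒬` -/
def cellS (𝒬 : Set (Set E)) (x : E) : Set E :=
  {y | ∀ Q ∈ 𝒬, y ∈ Q ∧ ∃ ε > (0 : ℝ), x - ε • (y - x) ∈ Q}

/-- the tiles through `x` as sets -/
def tilesAt {Om : Set E} {ι : Type*} (T : Tiling Om ι) (x : E) : Set (Set E) :=
  {Q | ∃ i ∈ T.at_ x, Q = P (T.H i)}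

theorem cc_eq_cellS {Om : Set E} {ι : Type*} (T : Tiling Om ι) (x : E) :
    T.cc x = cellS (tilesAt T x) x := by
  ext y
  rw [Gsm_432.mem_cc_iff]
  constructor
  · rintro h _ ⟨i, hi, rfl⟩
    exact h i hi
  · intro h i hi
    exact h _ ⟨i, hi, rfl⟩

/-- translation of a set -/
def shf (s : E) (K : Set E) : Set E := (fun y => y + s) '' K

theorem mem_shf {s : E} {K : Set E} {y : E} : y ∈ shf s K ↔ y - s ∈ K := by
  unfold shf
  constructor
  · rintro ⟨z, hz, rfl⟩
    simpa using hz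
  · intro h
    exact ⟨_, h, by simp⟩

theorem shf_shf (s t : E) (K : Set E) : shf s (shf t K) = shf (s + t) K := by
  ext y
  rw [mem_shf, mem_shf, mem_shf, sub_sub]

theorem shf_zero (K : Set E) : shf 0 K = K := by
  ext y
  rw [mem_shf, sub_zero]

theorem shf_neg (s : E) (K : Set E) : shf (-s) (shf s K) = K := by
  rw [shf_shf, neg_add_cancel, shf_zero]

theorem shf_neg' (s : E) (K : Set E) : shf s (shf (-s) K) = K := by
  rw [shf_shf, add_neg_cancel, shf_zero]

theorem shf_injective (s : E) : Function.Injective (shf s) := by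
  intro K K' h
  have := congrArg (shf (-s)) h
  rwa [shf_neg, shf_neg] at this

theorem shf_subset {s : E} {K K' : Set E} : shf s K ⊆ shf s K' ↔ K ⊆ K' := by
  constructor
  · intro h y hy
    have h1 : y + s ∈ shf s K := mem_shf.2 (by simpa using hy)
    simpa using mem_shf.1 (h h1)
  · exact fun h => image_mono h

/-- **translation of a cell** -/
theorem cellS_shf (s : E) (𝒬 : Set (Set E)) (x : E) :
    cellS (shf s '' 𝒬) (x + s) = shf s (cellS 𝒬 x) := by
  ext y
  rw [mem_shf]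
  constructor
  · intro h Q hQ
    obtain ⟨h1, ε, hε, h2⟩ := h _ (mem_image_of_mem _ hQ)
    refine ⟨mem_shf.1 h1, ε, hε, ?_⟩
    rw [mem_shf] at h2
    have e : x - ε • (y - s - x) = x + s - ε • (y - (x + s)) - s := by
      rw [show y - s - x = y - (x + s) by abel]
      abel
    rw [e]
    exact h2
  · rintro h _ ⟨Q, hQ, rfl⟩
    obtain ⟨h1, ε, hε, h2⟩ := h Q hQ
    refine ⟨mem_shf.2 h1, ε, hε, ?_⟩
    rw [mem_shf]
    have e : x + s - ε • (y - (x + s)) - s = x - ε • (y - s - x) := by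
      rw [show y - s - x = y - (x + s) by abel]
      abel
    rw [e]
    exact h2

/-- **rigid translation of a neighbourhood**: if the tiles of `T'` at `x + s` are the shifted tiles
of `T` at `x`, then the closed cells are shifted -/
theorem cc_shift {Om Om' : Set E} {ι ι' : Type*} {T : Tiling Om ι} {T' : Tiling Om' ι'} {s x : E}
    (h : tilesAt T' (x + s) = shf s '' tilesAt T x) : T'.cc (x + s) = shf s (T.cc x) := by
  rw [cc_eq_cellS, cc_eq_cellS, h, cellS_shf]

/-- the direction space is the span of the differences in the closed cell -/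
theorem V_eq_span {Om : Set E} {ι : Type*} (T : Tiling Om ι) {x : E} (hx : x ∈ Om) :
    T.V x = Submodule.span ℝ {v | x + v ∈ T.cc x} := by
  apply le_antisymm
  · intro v hv
    obtain ⟨r, hr, hb⟩ := T.exists_ball_oc hx
    have h1 : ∃ c : ℝ, 0 < c ∧ c * ‖v‖ < r := by
      refine ⟨r / (2 * (‖v‖ + 1)), by positivity, ?_⟩
      rw [div_mul_eq_mul_div, div_lt_iff₀ (by positivity)]
      have := norm_nonneg v
      nlinarith
    obtain ⟨c, hc, hcr⟩ := h1
    have h2 : x + c • v ∈ T.cc x := T.oc_sub_cc x (hb (c • v) (Submodule.smul_mem _ _ hv) (by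
      rw [norm_smul, Real.norm_eq_abs, abs_of_pos hc]; exact hcr))
    have h3 : c • v ∈ Submodule.span ℝ {v | x + v ∈ T.cc x} := Submodule.subset_span h2
    have h4 := Submodule.smul_mem _ c⁻¹ h3
    rwa [smul_smul, inv_mul_cancel₀ hc.ne', one_smul] at h4
  · rw [Submodule.span_le]
    intro v hv
    have h1 := T.sub_mem_V (x := x) (y := x + v) hv
    rwa [add_sub_cancel_left] at h1

theorem V_shift {Om Om' : Set E} {ι ι' : Type*} {T : Tiling Om ι} {T' : Tiling Om' ι'} {s x : E}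
    (hx : x ∈ Om) (hx' : x + s ∈ Om') (h : T'.cc (x + s) = shf s (T.cc x)) :
    T'.V (x + s) = T.V x := by
  rw [V_eq_span T hx, V_eq_span T' hx', h]
  congr 1
  ext v
  rw [mem_ofPred_eq, mem_ofPred_eq, mem_shf]
  rw [show x + s + v - s = x + v by abel]

theorem dim_shift {Om Om' : Set E} {ι ι' : Type*} {T : Tiling Om ι} {T' : Tiling Om' ι'} {s x : E}
    (hx : x ∈ Om) (hx' : x + s ∈ Om') (h : T'.cc (x + s) = shf s (T.cc x)) :
    T'.dim (x + s) = T.dim x := by
  unfold Tiling.dim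
  rw [V_shift hx hx' h]

/-! ### countability -/

/-- the cells of a finite family of polytopes are finitely many -/
theorem finite_cellS {𝒮 : Set (Set E)} (hf : 𝒮.Finite) (hP : ∀ Q ∈ 𝒮, ∃ H, Q = P H) :
    {K | ∃ x, (∀ Q ∈ 𝒮, x ∈ Q) ∧ K = cellS 𝒮 x}.Finite := by
  classical
  choose! H hH using hP
  -- all inequalities
  set I0 : Set (Set E × ((E →L[ℝ] ℝ) × ℝ)) :=
    ⋃ Q ∈ 𝒮, (fun h => (Q, h)) '' (H Q : Set ((E →L[ℝ] ℝ) × ℝ)) with hI0
  have hI : I0.Finite := hf.biUnion fun Q _ => (H Q).finite_toSet.image _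
  let g : Set (Set E × ((E →L[ℝ] ℝ) × ℝ)) → Set E := fun C =>
    {y | ∀ Q ∈ 𝒮, ∀ h ∈ H Q, h.1 y ≤ h.2 ∧ ((Q, h) ∈ C → h.1 y = h.2)}
  refine (hI.finite_subsets.image g).subset ?_
  rintro _ ⟨x, hx, rfl⟩
  refine ⟨{p | p ∈ I0 ∧ p.2.1 x = p.2.2}, fun p hp => hp.1, ?_⟩
  ext y
  constructor
  · intro hy Q hQ
    have hxQ : x ∈ P (H Q) := hH Q hQ ▸ hx Q hQ
    have hyQ : y ∈ P (H Q) := fun h hh => (hy Q hQ h hh).1
    rw [hH Q hQ]
    refine ⟨hyQ, ?_⟩
    have h1 : ∀ᶠ s in 𝓝[>] (0 : ℝ), x + s • (x - y) ∈ P (H Q) := by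
      refine mem_P_small hxQ fun h hh e => ?_
      have h2 : h.1 y = h.2 := (hy Q hQ h hh).2 ⟨by
        rw [hI0]
        simp only [mem_iUnion]
        exact ⟨Q, hQ, h, hh, rfl⟩, e⟩
      rw [map_sub, e, h2, sub_self]
    obtain ⟨s, hs, hs0⟩ := (h1.and self_mem_nhdsWithin).exists
    refine ⟨s, hs0, ?_⟩
    have e : x - s • (y - x) = x + s • (x - y) := by rw [smul_sub, smul_sub]; abel
    rw [e]
    exact hs
  · intro hy Q hQ h hh
    obtain ⟨h1, ε, hε, h2⟩ := hy Q hQ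
    rw [hH Q hQ] at h1 h2
    refine ⟨h1 h hh, fun e => le_antisymm (h1 h hh) ?_⟩
    have e' : h.1 x = h.2 := e.2
    have h3 := h2 h hh
    simp only [map_sub, map_smul, smul_eq_mul] at h3
    rw [e'] at h3
    have h4 : 0 ≤ ε * (h.1 y - h.2) := by linarith
    have h5 := nonneg_of_mul_nonneg_right h4 hε
    linarith

/-- the cells of the finite subfamilies of a family of sets (only polytopes are used) -/
def cells (𝒢 : Set (Set E)) : Set (Set E) :=
  {K | ∃ 𝒮 : Set (Set E), 𝒮.Finite ∧ 𝒮 ⊆ 𝒢 ∩ {Q | ∃ H, Q = P H} ∧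
    ∃ x, (∀ Q ∈ 𝒮, x ∈ Q) ∧ K = cellS 𝒮 x}

/-- **countably many cells** -/
theorem cells_countable {𝒢 : Set (Set E)} (h : 𝒢.Countable) : (cells 𝒢).Countable := by
  have h1 : {𝒮 : Set (Set E) | 𝒮.Finite ∧ 𝒮 ⊆ 𝒢 ∩ {Q | ∃ H, Q = P H}}.Countable :=
    Set.countable_ofPred_finite_subset (h.mono inter_subset_left)
  have h2 : cells 𝒢 ⊆ ⋃ 𝒮 ∈ {𝒮 : Set (Set E) | 𝒮.Finite ∧ 𝒮 ⊆ 𝒢 ∩ {Q | ∃ H, Q = P H}},
      {K | ∃ x, (∀ Q ∈ 𝒮, x ∈ Q) ∧ K = cellS 𝒮 x} := by
    rintro K ⟨𝒮, hf, hs, x, hx, rfl⟩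
    simp only [mem_iUnion]
    exact ⟨𝒮, ⟨hf, hs⟩, x, hx, rfl⟩
  refine (h1.biUnion fun 𝒮 h𝒮 => ?_).mono h2
  exact (finite_cellS h𝒮.1 fun Q hQ => (h𝒮.2 hQ).2).countable

/-- a translate of a polytope is a polytope -/
theorem shf_P (s : E) (H : Finset ((E →L[ℝ] ℝ) × ℝ)) : ∃ H', shf s (P H) = P H' := by
  classical
  refine ⟨H.image fun h => (h.1, h.2 + h.1 s), ?_⟩
  ext y
  rw [mem_shf]
  constructor
  · intro hy h hh
    obtain ⟨h', hh', rfl⟩ := Finset.mem_image.1 hh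
    have := hy h' hh'
    rw [map_sub] at this
    show h'.1 y ≤ h'.2 + h'.1 s
    linarith
  · intro hy h hh
    have := hy _ (Finset.mem_image_of_mem (fun h => (h.1, h.2 + h.1 s)) hh)
    rw [map_sub]
    change h.1 y ≤ h.2 + h.1 s at this
    linarith

/-- **the closed cell of `x`, shifted back, is one of the countably many potential cells** -/
theorem shf_cc_mem {Om : Set E} {ι : Type*} {T : Tiling Om ι} {x : E} (hx : x ∈ Om) {s : E}
    {𝒢 : Set (Set E)} (h : ∀ i ∈ T.at_ x, shf (-s) (P (T.H i)) ∈ 𝒢) :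
    shf (-s) (T.cc x) ∈ cells 𝒢 := by
  refine ⟨shf (-s) '' tilesAt T x, ?_, ?_, x + -s, ?_, ?_⟩
  · refine Set.Finite.image _ ?_
    refine ((T.at_finite hx).image fun i => P (T.H i)).subset ?_
    rintro _ ⟨i, hi, rfl⟩
    exact mem_image_of_mem _ hi
  · rintro _ ⟨_, ⟨i, hi, rfl⟩, rfl⟩
    exact ⟨h i hi, shf_P _ _⟩
  · rintro _ ⟨_, ⟨i, hi, rfl⟩, rfl⟩
    rw [mem_shf, add_sub_cancel_right]
    exact hi
  · rw [cellS_shf, cc_eq_cellS]

/-- segments -/
theorem shf_sgm (s x v : E) : shf s (R96.Sg1_199.sgm x v) = R96.Sg1_199.sgm (x + s) v := by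
  unfold shf R96.Sg1_199.sgm
  rw [image_image]
  refine image_congr fun t _ => ?_
  abel

end basic

end Crest.Agent.R096.Mfe_161
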