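import Crest.Agent.R096.Mfe1_161
import Crest.Agent.R096.Cnt1_324
import Crest.Agent.R96.Pm1_199

/-!
# Row 96 (helper161), MF-EDGE, part 2: the edge fields of `Pm_199.MF` for free

`PreMF` = `Pm_199.MF` without potential edges, but with a countable family `𝒦` of potential cells
(`cell_hs`: from 324's `HS`) and rigid frames of the ordinary tiles; `PreMF.toMF : MF Om F J`.
-/

set_option autoImplicit false
set_option linter.unusedSectionVars false

open MeasureTheory Set Filter Metric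
open scoped Topology ENNReal

namespace Crest.Agent.R096.Mfe_161

open Crest.Agent.R096.Msh_715
open Crest.Agent.R096.Cnt_324 (HS Cod pol cell_code')
open Crest.Agent.R096.SkC1_961 (E3 Cfg)
open Crest.Agent.R096.Ls_222 (Edg ea ev eIn mem_eIn sgm_edg ev_ne)
open Crest.Agent.R96.Sg1_199 (li sgm)
open Crest.Agent.R96.Pm_199 (Dec sh MF)

noncomputable section

/-! ### the family of cells from 324's `HS` -/

/-- the potential cells of the inequalities `𝓗` -/
def pols {E : Type*} [NormedAddCommGroup E] [NormedSpace ℝ E] (𝓗 : Set ((E →L[ℝ] ℝ) × ℝ)) :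
    Set (Set E) := range (pol : Cod 𝓗 → Set E)

theorem pols_countable {E : Type*} [NormedAddCommGroup E] [NormedSpace ℝ E]
    {𝓗 : Set ((E →L[ℝ] ℝ) × ℝ)} (h : 𝓗.Countable) : (pols 𝓗).Countable := by
  have : Countable 𝓗 := h.to_subtype
  exact countable_range _

theorem cell_hs {E : Type*} [NormedAddCommGroup E] [NormedSpace ℝ E] {Om : Set E} {ι : Type*}
    {T : Tiling Om ι} {a : E} {𝓗 : Set ((E →L[ℝ] ℝ) × ℝ)} (h : HS T a 𝓗) {z : E} (hz : z ∈ Om) :
    ∃ K ∈ pols 𝓗, T.cc z = Mfe_161.shf a K := by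
  obtain ⟨F, hF⟩ := cell_code' h hz
  exact ⟨pol F, ⟨F, rfl⟩, hF⟩

/-! ### `PreMF` -/

/-- **`Pm_199.MF` without the edges** -/
structure PreMF (Om : Set E3) (F J : Type) where
  /-- range of the common shift -/
  A : Set E3
  Am : MeasurableSet A
  A0 : volume A ≠ 0
  A1 : volume A ≠ ∞
  /-- lists of the relative shifts of the blocks -/
  W : J → Set E3
  Wc : ∀ j, (W j).Countable
  /-- admissible total shifts of the blocks -/
  Bx : J → Set E3
  cJ : Countable J
  /-- the mesh for the shifts `a, w` -/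
  md : ∀ (a : E3) (w : J → E3), (a ∈ A ∧ ∀ j, w j ∈ W j ∧ a + w j ∈ Bx j) → Dec Om F
  /-- classes, potential tiles -/
  κ : Type
  τ : Type
  cκ : Countable κ
  cτ : Countable τ
  cl : τ → κ
  bl : κ → Option J
  Til : τ → Set E3
  Ac : τ → Set E3
  Acm : ∀ t, MeasurableSet (Ac t)
  /-- norms of the frames, lists of shapes, rigid frames -/
  β : τ → ℝ
  Sh : κ → Set (Set (Set E3))
  shf : ∀ k, (Sh k).Finite
  frr : τ → E3 ≃ᵃ[ℝ] E3
  frn : ∀ t, ∀ y : E3, ‖(frr t).linear y‖ ≤ β t * ‖y‖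
  /-- potential cells (`pols 𝓗`, `pols_countable`, `cell_hs`) -/
  𝒦 : Set (Set E3)
  c𝒦 : 𝒦.Countable
  cell : ∀ a w h, ∀ z ∈ Om, ∃ K ∈ 𝒦, (md a w h).T.cc z = Mfe_161.shf a K
  /-- the ordinary tiles are shifted potential tiles -/
  pot : ∀ a w h, (md a w h).ι → τ
  inj : ∀ a w h, InjOn (pot a w h) {i | (md a w h).Ord i}
  act : ∀ a w h i, (md a w h).Ord i → sh (bl (cl (pot a w h i))) a w ∈ Ac (pot a w h i)
  tile : ∀ a w h i, (md a w h).Ord i → P ((md a w h).T.H i) =
    (fun y => y + sh (bl (cl (pot a w h i))) a w) '' Til (pot a w h i)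
  /-- the frames of the ordinary tiles are rigid -/
  frE : ∀ a w h i, (md a w h).Ord i → ∀ y : E3,
    (md a w h).fr i y = frr (pot a w h i) (y - sh (bl (cl (pot a w h i))) a w)
  shp : ∀ a w h i, (md a w h).Ord i →
    (fun K => (md a w h).fr i '' K) '' Cfg (md a w h).T i ∈ Sh (cl (pot a w h i))

variable {Om : Set E3} {F J : Type}

namespace PreMF

variable (M : PreMF Om F J)

/-- the relative shifts of the blocks and `0` -/
def U : Set E3 := {0} ∪ ⋃ j, M.W j

theorem U_countable : M.U.Countable := by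
  have := M.cJ
  exact (countable_singleton 0).union (countable_iUnion M.Wc)

/-- the potential cells with all relative shifts -/
def KK : Set (Set E3) := {Q | ∃ K ∈ M.𝒦, ∃ u ∈ M.U, Q = Mfe_161.shf (-u) K}

theorem KK_countable : M.KK.Countable := by
  have h1 : M.KK = ⋃ K ∈ M.𝒦, ⋃ u ∈ M.U, {Mfe_161.shf (-u) K} := by
    ext Q
    simp only [KK, mem_ofPred_eq, mem_iUnion, mem_singleton_iff, exists_prop]
  rw [h1]
  exact M.c𝒦.biUnion fun K _ => M.U_countable.biUnion fun u _ => countable_singleton _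

theorem sh_mem {a : E3} {w : J → E3} (h : a ∈ M.A ∧ ∀ j, w j ∈ M.W j ∧ a + w j ∈ M.Bx j)
    (o : Option J) : ∃ u ∈ M.U, sh o a w = a + u := by
  rcases o with _ | j
  · exact ⟨0, Or.inl rfl, (add_zero a).symm⟩
  · exact ⟨w j, Or.inr (mem_iUnion.2 ⟨j, (h.2 j).1⟩), rfl⟩

/-- **every closed cell of the mesh, shifted back, is one of the countably many potential cells** -/
theorem cell_mem (a : E3) (w : J → E3) (h : a ∈ M.A ∧ ∀ j, w j ∈ M.W j ∧ a + w j ∈ M.Bx j)
    (o : Option J) {x : E3} (hx : x ∈ Om) :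
    Mfe_161.shf (-(sh o a w)) ((M.md a w h).T.cc x) ∈ M.KK := by
  obtain ⟨u, hu, e⟩ := M.sh_mem h o
  obtain ⟨K, hK, hc⟩ := M.cell a w h x hx
  refine ⟨K, hK, u, hu, ?_⟩
  rw [hc, Mfe_161.shf_shf, e, show -(a + u) + a = -u by abel]

/-- potential segments -/
def Sg : Type := {K : Set E3 // K ∈ M.KK ∧ ∃ p : E3 × E3, p.2 ≠ 0 ∧ K = sgm p.1 p.2}

instance : Countable M.Sg := by
  have h1 : {K : Set E3 | K ∈ M.KK ∧ ∃ p : E3 × E3, p.2 ≠ 0 ∧ K = sgm p.1 p.2}.Countable :=
    M.KK_countable.mono fun K hK => hK.1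
  exact h1.to_subtype

/-- parametrisation of a potential segment -/
def Sg.p {M : PreMF Om F J} (K : M.Sg) : E3 × E3 := K.2.2.choose

theorem Sg.p_ne {M : PreMF Om F J} (K : M.Sg) : K.p.2 ≠ 0 := K.2.2.choose_spec.1

theorem Sg.p_eq {M : PreMF Om F J} (K : M.Sg) : K.1 = sgm K.p.1 K.p.2 := K.2.2.choose_spec.2

/-- the cells of the finite configurations of the list of a class -/
def shs (k : M.κ) : Set (Set E3) := ⋃₀ {c | c ∈ M.Sh k ∧ c.Finite}

theorem shs_finite (k : M.κ) : (M.shs k).Finite :=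
  Set.Finite.sUnion ((M.shf k).subset fun _ hc => hc.1) fun _ hc => hc.2

/-- the potential edges of the potential tile `t` -/
def EdS (t : M.τ) : Set (Option J × M.Sg) :=
  {j | j.1 = M.bl (M.cl t) ∧ j.2.1 ⊆ M.Til t ∧ M.frr t '' j.2.1 ∈ M.shs (M.cl t)}

theorem EdS_injOn (t : M.τ) :
    InjOn (fun j : Option J × M.Sg => M.frr t '' j.2.1) (M.EdS t) := by
  rintro ⟨o, K⟩ hj ⟨o', K'⟩ hj' e
  have e1 : K.1 = K'.1 := (M.frr t).injective.image_injective e
  have e2 : o = o' := hj.1.trans hj'.1.symm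
  exact Prod.ext e2 (Subtype.ext e1)

theorem EdS_finite (t : M.τ) : (M.EdS t).Finite := by
  refine Set.Finite.of_finite_image ?_ (M.EdS_injOn t)
  refine (M.shs_finite (M.cl t)).subset ?_
  rintro _ ⟨j, hj, rfl⟩
  exact hj.2.2

/-- a closed 1-cell of the mesh as a potential segment -/
def seg (a : E3) (w : J → E3) (h : a ∈ M.A ∧ ∀ j, w j ∈ M.W j ∧ a + w j ∈ M.Bx j)
    (e : Edg (M.md a w h).T) (o : Option J) : M.Sg :=
  ⟨Mfe_161.shf (-(sh o a w)) e.1, by
    obtain ⟨x, hx, -, he⟩ := e.2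
    rw [he]
    exact M.cell_mem a w h o hx, by
    refine ⟨(ea e + -(sh o a w), ev e), ev_ne e, ?_⟩
    rw [← sgm_edg e, shf_sgm]⟩

theorem seg_eq (a : E3) (w : J → E3) (h : a ∈ M.A ∧ ∀ j, w j ∈ M.W j ∧ a + w j ∈ M.Bx j)
    (e : Edg (M.md a w h).T) (o : Option J) :
    e.1 = sgm ((M.seg a w h e o).p.1 + sh o a w) (M.seg a w h e o).p.2 := by
  rw [← shf_sgm, ← (M.seg a w h e o).p_eq]
  show e.1 = Mfe_161.shf (sh o a w) (Mfe_161.shf (-(sh o a w)) e.1)
  rw [shf_neg']

/-- **the constructor** -/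
def toMF : MF Om F J where
  A := M.A
  Am := M.Am
  A0 := M.A0
  A1 := M.A1
  W := M.W
  Wc := M.Wc
  Bx := M.Bx
  cJ := M.cJ
  md := M.md
  κ := M.κ
  τ := M.τ
  η := Option J × M.Sg
  cκ := M.cκ
  cτ := M.cτ
  cη := by
    have := M.cJ
    infer_instance
  cl := M.cl
  bl := M.bl
  Til := M.Til
  Ac := M.Ac
  Acm := M.Acm
  eb j := j.1
  x j := j.2.p.1
  v j := j.2.p.2
  Ed t := (M.EdS_finite t).toFinset
  sub t j hj := by
    rw [Set.Finite.mem_toFinset] at hj
    refine ⟨Sg.p_ne j.2, ?_⟩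
    rw [← j.2.p_eq]
    exact hj.2.1
  β := M.β
  Sh := M.Sh
  shf := M.shf
  edge a w h e := ⟨(none, M.seg a w h e none), M.seg_eq a w h e none⟩
  pot := M.pot
  inj := M.inj
  act := M.act
  tile := M.tile
  tedge a w h i hi e he := by
    have hsub := mem_eIn.1 he
    set o := M.bl (M.cl (M.pot a w h i)) with ho
    rw [sgm_edg e, M.seg_eq a w h e o]
    refine subset_iUnion₂_of_subset (o, M.seg a w h e o) ?_ (subset_refl _)
    rw [Set.Finite.mem_toFinset]
    refine ⟨rfl, ?_, ?_⟩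
    · show Mfe_161.shf (-(sh o a w)) e.1 ⊆ M.Til (M.pot a w h i)
      have h1 := M.tile a w h i hi
      change _ = Mfe_161.shf (sh o a w) _ at h1
      rw [h1] at hsub
      have h2 := image_mono (f := fun y => y + -(sh o a w)) hsub
      change Mfe_161.shf _ _ ⊆ Mfe_161.shf _ (Mfe_161.shf _ _) at h2
      rwa [shf_neg] at h2
    · refine mem_sUnion.2 ⟨_, ⟨M.shp a w h i hi, ?_⟩, ?_⟩
      · refine Set.Finite.image _ ?_
        refine ((M.md a w h).T.finite_cells ((M.md a w h).T.cpt i) ((M.md a w h).T.sub i)).subset ?_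
        rintro _ ⟨x, hx, rfl⟩
        exact ⟨⟨x, (M.md a w h).T.sub i hx, rfl⟩, x, (M.md a w h).T.self_mem_cc x, hx⟩
      · obtain ⟨x, hx, -, hex⟩ := e.2
        refine ⟨e.1, ⟨x, hsub ?_, hex⟩, ?_⟩
        · rw [hex]
          exact (M.md a w h).T.self_mem_cc x
        · show (M.md a w h).fr i '' e.1 = M.frr (M.pot a w h i) '' (Mfe_161.shf (-(sh o a w)) e.1)
          unfold Mfe_161.shf
          rw [image_image]
          refine image_congr fun y _ => ?_
          rw [M.frE a w h i hi, sub_eq_add_neg]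
  frn a w h i hi y := by
    have e : ((M.md a w h).fr i).linear y = (M.frr (M.pot a w h i)).linear y := by
      have h1 := ((M.md a w h).fr i).toAffineMap.linearMap_vsub y 0
      have h2 := (M.frr (M.pot a w h i)).toAffineMap.linearMap_vsub
        (y - sh (M.bl (M.cl (M.pot a w h i))) a w) (0 - sh (M.bl (M.cl (M.pot a w h i))) a w)
      simp only [vsub_eq_sub, sub_zero, AffineEquiv.linear_toAffineMap,
        AffineEquiv.coe_toAffineMap] at h1
      simp only [vsub_eq_sub, sub_sub_sub_cancel_right, sub_zero, AffineEquiv.linear_toAffineMap,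
        AffineEquiv.coe_toAffineMap] at h2
      have h1' : ((M.md a w h).fr i).linear y = (M.md a w h).fr i y - (M.md a w h).fr i 0 := h1
      have h2' : (M.frr (M.pot a w h i)).linear y =
        M.frr (M.pot a w h i) (y - sh (M.bl (M.cl (M.pot a w h i))) a w) -
        M.frr (M.pot a w h i) (0 - sh (M.bl (M.cl (M.pot a w h i))) a w) := h2
      rw [h1', h2', M.frE a w h i hi, M.frE a w h i hi]
    rw [e]
    exact M.frn _ y
  shp := M.shp

/-- the number of potential edges of a potential tile -/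
theorem card_Ed_le (t : M.τ) : (M.toMF.Ed t).card ≤ (M.shs (M.cl t)).ncard := by
  rw [← Set.ncard_coe_finset]
  show ((M.EdS_finite t).toFinset : Set (Option J × M.Sg)).ncard ≤ _
  rw [Set.Finite.coe_toFinset]
  exact Set.ncard_le_ncard_of_injOn (fun j : Option J × M.Sg => M.frr t '' j.2.1)
    (fun j hj => hj.2.2) (M.EdS_injOn t) (M.shs_finite _)

/-- the potential edges of a potential tile are cells of the list of the class in the rigid frame -/
theorem mem_Ed {t : M.τ} {j : M.toMF.η} (hj : j ∈ M.toMF.Ed t) :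
    M.toMF.v j ≠ 0 ∧ sgm (M.toMF.x j) (M.toMF.v j) ⊆ M.Til t ∧
      M.frr t '' sgm (M.toMF.x j) (M.toMF.v j) ∈ M.shs (M.cl t) := by
  have h1 : j ∈ M.EdS t := (Set.Finite.mem_toFinset _).1 hj
  refine ⟨Sg.p_ne j.2, (M.toMF.sub t j hj).2, ?_⟩
  have h2 := h1.2.2
  rw [j.2.p_eq] at h2
  exact h2

end PreMF

end

end Crest.Agent.R096.Mfe_161
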