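import Crest.Agent.R096.Mfi1_290

/-!
# Row 96, instance of `Pm_199.MF`, inner half, part 2

Potential tiles, classes, rigid frames, shapes of the inner tiles of 874's `MD.mesh`.
-/

set_option autoImplicit false
set_option linter.unusedSectionVars false

open Set Filter Topology Metric

namespace Crest.Agent.R096.Mfi_290

open Msh_715 Cut_874 Msh_810 Mal_874

variable {n : ℕ} {E : Type*} [NormedAddCommGroup E] [NormedSpace ℝ E]

/-! ### rigid frames -/

/-- translation by `-s` -/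
noncomputable def shE (s : E) : E ≃ᵃ[ℝ] E := AffineEquiv.constVAdd ℝ E (-s)

theorem shE_apply (s y : E) : shE s y = y - s := by
  show -s + y = y - s
  abel

/-- integer parts of the coordinates of a point -/
noncomputable def flo (u : Fin n → ℝ) : Fin n → ℤ := fun m => ⌊u m⌋

/-- the frame `χ`, normalised at the point `x0` -/
noncomputable def nrm (χ : E ≃ᵃ[ℝ] (Fin n → ℝ)) (x0 : E) : E ≃ᵃ[ℝ] (Fin n → ℝ) :=
  χ.trans (trz (flo (χ x0)))

/-- **the shape of a good tile in a rigid frame, normalised at any point of the tile** -/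
theorem good_at {Om : Set E} {ι : Type*} {T : Tiling Om ι} {t : ι} {χ χ0 : E ≃ᵃ[ℝ] (Fin n → ℝ)}
    {k : ℕ} {𝒩 : Finset (Fin n → ℝ)} {d : ℕ} {R : ℝ} (h : Good T t χ k 𝒩 d R) (hd : 0 < d)
    (h𝒩 : ∀ ν ∈ 𝒩, ∀ m, ∃ c : ℤ, ν m = c / d) {s x0 : E} (hχ : ∀ y, χ y = χ0 (y - s))
    (hx0 : x0 + s ∈ P (T.H t)) :
    (fun K => ((shE s).trans (nrm χ0 x0)) '' K) '' cfg T t ∈ simL 𝒩 d R := by
  have e0 : χ (x0 + s) = χ0 x0 := by rw [hχ, add_sub_cancel_right]
  have hfr : ∀ y, ((shE s).trans (nrm χ0 x0)) y = fun m => χ y m - (flo (χ (x0 + s)) m : ℝ) := by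
    intro y
    unfold nrm
    rw [AffineEquiv.trans_apply, AffineEquiv.trans_apply, trz_apply, shE_apply, ← hχ, e0]
  rintro _ ⟨_, ⟨x, hx, rfl⟩, rfl⟩
  obtain ⟨S, hS, e⟩ := h.cc hd h𝒩 hx
  refine ⟨S, hS, fun m => ⌊χ x m⌋ - flo (χ (x0 + s)) m, ?_, ?_⟩
  · intro m
    have h1 := Int.floor_le (χ x m)
    have h2 := Int.lt_floor_add_one (χ x m)
    have h3 := Int.floor_le (χ (x0 + s) m)
    have h4 := Int.lt_floor_add_one (χ (x0 + s) m)
    have h5 := abs_le.1 (h.sz _ hx0 x hx m)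
    have h6 := le_abs_self R
    unfold flo
    push_cast
    rw [abs_le]
    constructor <;> linarith
  · ext u
    simp only [Set.mem_image, Set.mem_ofPred_eq]
    constructor
    · rintro ⟨y, hy, rfl⟩
      rw [e] at hy
      have h1 : (fun m => ((shE s).trans (nrm χ0 x0)) y m -
          ((⌊χ x m⌋ - flo (χ (x0 + s)) m : ℤ) : ℝ)) = fun m => χ y m - (⌊χ x m⌋ : ℝ) := by
        funext m
        rw [hfr]
        push_cast
        ring
      rw [h1]
      exact hy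
    · intro hu
      refine ⟨((shE s).trans (nrm χ0 x0)).symm u, ?_, by simp⟩
      rw [e]
      simp only [Set.mem_ofPred_eq]
      have h1 : (fun m => χ (((shE s).trans (nrm χ0 x0)).symm u) m - (⌊χ x m⌋ : ℝ)) =
          fun m => u m - ((⌊χ x m⌋ - flo (χ (x0 + s)) m : ℤ) : ℝ) := by
        funext m
        have h2 := congrFun (hfr (((shE s).trans (nrm χ0 x0)).symm u)) m
        rw [AffineEquiv.apply_symm_apply] at h2
        rw [h2]
        push_cast
        ring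
      rw [h1]
      exact hu

theorem chi_tr (ψ : E ≃L[ℝ] (Fin n → ℝ)) (a' : Fin n → ℝ) (v : E) (k : ℕ) (y : E) :
    chi ψ (a' + ψ v) k y = chi ψ a' k (y - v) := by
  funext m
  rw [chi_apply, chi_apply, map_sub]
  simp only [Pi.add_apply, Pi.sub_apply]
  ring

theorem chi_linear (ψ : E ≃L[ℝ] (Fin n → ℝ)) (a' : Fin n → ℝ) (k : ℕ) (y : E) :
    (chi ψ a' k).linear y = (2 : ℝ) ^ k • ψ y := by
  have h := (chi ψ a' k).toAffineMap.linearMap_vsub y 0
  have h1 : (chi ψ a' k).linear (y -ᵥ 0) = chi ψ a' k y -ᵥ chi ψ a' k 0 := h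
  rw [vsub_eq_sub, sub_zero, vsub_eq_sub] at h1
  rw [h1]
  funext m
  rw [Pi.sub_apply, chi_apply, chi_apply, map_zero]
  simp only [Pi.zero_apply, Pi.smul_apply, smul_eq_mul]
  ring

theorem shE_trans_linear (s : E) (χ : E ≃ᵃ[ℝ] (Fin n → ℝ)) (y : E) :
    ((shE s).trans χ).linear y = χ.linear y := by
  have h : ((shE s).trans χ).linear (y -ᵥ 0) = ((shE s).trans χ) y -ᵥ ((shE s).trans χ) 0 :=
    ((shE s).trans χ).toAffineMap.linearMap_vsub y 0
  have h' : χ.linear ((y - s) -ᵥ (0 - s)) = χ (y - s) -ᵥ χ (0 - s) :=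
    χ.toAffineMap.linearMap_vsub (y - s) (0 - s)
  rw [AffineEquiv.trans_apply, AffineEquiv.trans_apply, shE_apply, shE_apply, ← h'] at h
  rw [vsub_eq_sub, sub_zero, vsub_eq_sub, sub_sub_sub_cancel_right, sub_zero] at h
  exact h

theorem nrm_linear (χ : E ≃ᵃ[ℝ] (Fin n → ℝ)) (x0 y : E) : (nrm χ x0).linear y = χ.linear y := by
  have h : (nrm χ x0).linear (y -ᵥ 0) = nrm χ x0 y -ᵥ nrm χ x0 0 :=
    (nrm χ x0).toAffineMap.linearMap_vsub y 0
  have h' : χ.linear (y -ᵥ 0) = χ y -ᵥ χ 0 := χ.toAffineMap.linearMap_vsub y 0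
  rw [vsub_eq_sub, sub_zero, vsub_eq_sub] at h h'
  rw [h, h']
  unfold nrm
  rw [AffineEquiv.trans_apply, AffineEquiv.trans_apply, trz_apply, trz_apply]
  funext m
  simp only [Pi.sub_apply]
  ring

theorem chi_norm (ψ : E ≃L[ℝ] (Fin n → ℝ)) (a' : Fin n → ℝ) (k : ℕ) (y : E) :
    ‖(chi ψ a' k).linear y‖ ≤ 2 ^ k * ‖(ψ : E →L[ℝ] (Fin n → ℝ))‖ * ‖y‖ := by
  rw [chi_linear, norm_smul, mul_assoc]
  have e : ‖(2 : ℝ) ^ k‖ = 2 ^ k := by
    rw [Real.norm_eq_abs, abs_of_pos (by positivity)]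
  rw [e]
  exact mul_le_mul_of_nonneg_left ((ψ : E →L[ℝ] (Fin n → ℝ)).le_opNorm y) (by positivity)

/-! ### potential tiles are not empty -/

theorem cube_ne (Q : CB E n) (m : ℕ) (z : Fin n → ℤ) : (cube Q m z).Nonempty := by
  obtain ⟨x, hx⟩ := Dc_nonempty Q.a' ⟨m, z, Finset.univ⟩
  refine ⟨Q.ψ.symm x, ?_⟩
  show Q.ψ (Q.ψ.symm x) ∈ Cu Q.a' m z
  rw [ContinuousLinearEquiv.apply_symm_apply]
  exact Do_subset_Dc _ _ hx

theorem pol_ne (Q : CB E n) (s : Q.S.Ix) : (pol Q s).Nonempty := by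
  obtain ⟨u, hu⟩ := Q.S.ne s
  obtain ⟨y, hy⟩ := exists_ps Q.ψ Q.a' Q.kc u
  refine ⟨y, ?_⟩
  show ps Q.a' Q.kc (Q.ψ y) ∈ ZP (Q.S.GG s)
  rw [hy]
  exact ZI_sub_ZP _ hu

theorem til_ne (Q : CB E n) (t : Pt Q) : (til Q t).Nonempty := by
  rcases t with p | s
  · exact cube_ne Q p.1 p.2
  · exact pol_ne Q s

/-! ### the mesh -/

variable {J : Type*} (M : MD E n J) (k : J → ℕ) (W : J → Set E)

/-- kinds of the inner classes of a block -/
inductive Kd
  | far
  | near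
  | core
  | wall

instance : Finite Kd :=
  Finite.of_injective (fun a : Kd => match a with
    | Kd.far => (0 : Fin 4) | Kd.near => 1 | Kd.core => 2 | Kd.wall => 3) (by
    intro a b h
    cases a <;> cases b <;> first | rfl | (exact absurd h (by decide)))

/-- **potential inner tiles**: tiles of the blocks (away from the wall), cubes at the wall -/
abbrev Ti : Type _ := (Σ j, Pt (M.Q j)) ⊕ (Σ j, W j × (Fin n → ℤ))

/-- kind of a potential tile of a block -/
noncomputable def kd (j : J) : Pt (M.Q j) → Kd := by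
  classical
  exact fun t => match t with
  | Sum.inl p =>
    if (cube (M.Q j) p.1 p.2 ∩ (M.Q j).S.bp (M.Q j).ψ (M.Q j).a' (M.Q j).kc).Nonempty then Kd.near
    else Kd.far
  | Sum.inr s => if s = (M.Q j).S.core then Kd.core else Kd.near

/-- class of a potential inner tile -/
noncomputable def icl : Ti M W → J × Kd
  | Sum.inl t => (t.1, kd M t.1 t.2)
  | Sum.inr t => (t.1, Kd.wall)

/-- the classes at the walls move with `a`, the others with the block -/
def ibl : J × Kd → Option J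
  | (_, Kd.wall) => none
  | (j, _) => some j

/-- the potential inner tiles as sets -/
def iTil : Ti M W → Set E
  | Sum.inl t => til (M.Q t.1) t.2
  | Sum.inr t => (fun y => y + (t.2.1 : E)) '' cube (M.Q t.1) (k t.1) t.2.2

theorem iTil_ne (t : Ti M W) : (iTil M k W t).Nonempty := by
  rcases t with t | t
  · exact til_ne _ _
  · exact (cube_ne _ _ _).image _

/-- the shifts for which a potential inner tile is used -/
def iAc : Ti M W → Set E
  | Sum.inl ⟨j, Sum.inl p⟩ => {s | ‖M.φ s‖ ≤ M.r j ∧ Use (M.Q j) p ∧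
      ¬ (cube (M.Q j) p.1 p.2 ∩ frontier (M.Q j).N).Nonempty}
  | Sum.inl ⟨j, Sum.inr _⟩ => {s | ‖M.φ s‖ ≤ M.r j}
  | Sum.inr ⟨j, w, z⟩ => {s | ‖M.φ (s + w)‖ ≤ M.r j ∧
      (cube (M.Q j) (k j) z ∩ frontier (M.Q j).N).Nonempty ∧ cube (M.Q j) (k j) z ⊆ (M.Q j).N}

theorem iAc_closed (t : Ti M W) : IsClosed (iAc M k W t) := by
  rcases t with ⟨j, p | s⟩ | ⟨j, w, z⟩
  · by_cases h : Use (M.Q j) p ∧ ¬ (cube (M.Q j) p.1 p.2 ∩ frontier (M.Q j).N).Nonempty
    · have e : iAc M k W (Sum.inl ⟨j, Sum.inl p⟩) = {s | ‖M.φ s‖ ≤ M.r j} := by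
        ext s
        exact ⟨fun hs => hs.1, fun hs => ⟨hs, h⟩⟩
      rw [e]
      exact isClosed_le (M.φ.continuous.norm) continuous_const
    · have e : iAc M k W (Sum.inl ⟨j, Sum.inl p⟩) = ∅ := by
        ext s
        simp only [Set.mem_empty_iff_false, iff_false]
        exact fun hs => h hs.2
      rw [e]
      exact isClosed_empty
  · exact isClosed_le (M.φ.continuous.norm) continuous_const
  · by_cases h : (cube (M.Q j) (k j) z ∩ frontier (M.Q j).N).Nonempty ∧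
        cube (M.Q j) (k j) z ⊆ (M.Q j).N
    · have e : iAc M k W (Sum.inr ⟨j, w, z⟩) = {s | ‖M.φ (s + w)‖ ≤ M.r j} := by
        ext s
        exact ⟨fun hs => hs.1, fun hs => ⟨hs, h⟩⟩
      rw [e]
      exact isClosed_le ((M.φ.continuous.comp (continuous_id.add continuous_const)).norm)
        continuous_const
    · have e : iAc M k W (Sum.inr ⟨j, w, z⟩) = ∅ := by
        ext s
        simp only [Set.mem_empty_iff_false, iff_false]
        exact fun hs => h hs.2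
      rw [e]
      exact isClosed_empty

/-- coordinates of a potential inner tile -/
noncomputable def iχ : Ti M W → E ≃ᵃ[ℝ] (Fin n → ℝ) := by
  classical
  exact fun t => match t with
  | Sum.inl ⟨j, Sum.inl p⟩ =>
    if kd M j (Sum.inl p) = Kd.far then chi (M.Q j).ψ (M.Q j).a' (p.1 + 1)
    else chi (M.Q j).ψ (M.Q j).a' (M.Q j).kc
  | Sum.inl ⟨j, Sum.inr _⟩ => chi (M.Q j).ψ (M.Q j).a' (M.Q j).kc
  | Sum.inr ⟨j, _, _⟩ => chi M.φ 0 (k j)

/-- **the rigid frame of a potential inner tile** -/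
noncomputable def ifr (t : Ti M W) : E ≃ᵃ[ℝ] (Fin n → ℝ) :=
  nrm (iχ M k W t) (iTil_ne M k W t).some

/-- norm of the frame of a potential inner tile -/
noncomputable def iβ : Ti M W → ℝ := by
  classical
  exact fun t => match t with
  | Sum.inl ⟨j, Sum.inl p⟩ =>
    if kd M j (Sum.inl p) = Kd.far then 2 ^ (p.1 + 1) * ‖((M.Q j).ψ : E →L[ℝ] (Fin n → ℝ))‖
    else 2 ^ (M.Q j).kc * ‖((M.Q j).ψ : E →L[ℝ] (Fin n → ℝ))‖
  | Sum.inl ⟨j, Sum.inr _⟩ => 2 ^ (M.Q j).kc * ‖((M.Q j).ψ : E →L[ℝ] (Fin n → ℝ))‖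
  | Sum.inr ⟨j, _, _⟩ => 2 ^ k j * ‖(M.φ : E →L[ℝ] (Fin n → ℝ))‖

theorem ifr_norm (t : Ti M W) (y : E) : ‖(ifr M k W t).linear y‖ ≤ iβ M k W t * ‖y‖ := by
  unfold ifr
  rw [nrm_linear]
  rcases t with ⟨j, p | s⟩ | ⟨j, w, z⟩
  · by_cases h : kd M j (Sum.inl p) = Kd.far
    · have e1 : iχ M k W (Sum.inl ⟨j, Sum.inl p⟩) = chi (M.Q j).ψ (M.Q j).a' (p.1 + 1) := if_pos h
      have e2 : iβ M k W (Sum.inl ⟨j, Sum.inl p⟩) =
          2 ^ (p.1 + 1) * ‖((M.Q j).ψ : E →L[ℝ] (Fin n → ℝ))‖ := if_pos h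
      rw [e1, e2]
      exact chi_norm _ _ _ _
    · have e1 : iχ M k W (Sum.inl ⟨j, Sum.inl p⟩) = chi (M.Q j).ψ (M.Q j).a' (M.Q j).kc :=
        if_neg h
      have e2 : iβ M k W (Sum.inl ⟨j, Sum.inl p⟩) =
          2 ^ (M.Q j).kc * ‖((M.Q j).ψ : E →L[ℝ] (Fin n → ℝ))‖ := if_neg h
      rw [e1, e2]
      exact chi_norm _ _ _ _
  · exact chi_norm _ _ _ _
  · exact chi_norm _ _ _ _

/-- the lists of shapes of the inner classes -/
noncomputable def iSh (X : RD M) : J × Kd → Set (Set (Set (Fin n → ℝ)))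
  | (_, Kd.far) => simL (N0 n) 1 2
  | (j, Kd.near) => simL (NB n (X.B j)) 1 (X.R j)
  | (_, Kd.core) => ∅
  | (j, Kd.wall) => simL (NR (X.A j) (X.d j)) (X.d j) (X.c j)

theorem iSh_finite (X : RD M) (c : J × Kd) : (iSh M X c).Finite := by
  rcases c with ⟨j, _ | _ | _ | _⟩
  · exact simL_finite _ _ _
  · exact simL_finite _ _ _
  · exact Set.finite_empty
  · exact simL_finite _ _ _

/-! ### the inner tiles of the mesh -/

/-- the potential tile of a tile with name `t`, at offset `w` -/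
noncomputable def ipt {W : J → Set E} (w : ∀ j, W j) (j : J) : Pt (M.Q j) → Ti M W := by
  classical
  exact fun t => match t with
  | Sum.inl p => if (cube (M.Q j) p.1 p.2 ∩ frontier (M.Q j).N).Nonempty then
      Sum.inr ⟨j, w j, p.2⟩ else Sum.inl ⟨j, Sum.inl p⟩
  | Sum.inr s => Sum.inl ⟨j, Sum.inr s⟩

theorem ipt_wall {W : J → Set E} (w : ∀ j, W j) (j : J) {p : ℕ × (Fin n → ℤ)}
    (h : (cube (M.Q j) p.1 p.2 ∩ frontier (M.Q j).N).Nonempty) :
    ipt M w j (Sum.inl p) = Sum.inr ⟨j, w j, p.2⟩ := if_pos h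

theorem ipt_in {W : J → Set E} (w : ∀ j, W j) (j : J) {p : ℕ × (Fin n → ℤ)}
    (h : ¬ (cube (M.Q j) p.1 p.2 ∩ frontier (M.Q j).N).Nonempty) :
    ipt M w j (Sum.inl p) = Sum.inl ⟨j, Sum.inl p⟩ := if_neg h

theorem ipt_inj {W : J → Set E} (w : ∀ j, W j) {j l : J} {t : Pt (M.Q j)} {t' : Pt (M.Q l)}
    (ht : ∀ p, t = Sum.inl p → (cube (M.Q j) p.1 p.2 ∩ frontier (M.Q j).N).Nonempty → p.1 = k j)
    (ht' : ∀ p, t' = Sum.inl p →
      (cube (M.Q l) p.1 p.2 ∩ frontier (M.Q l).N).Nonempty → p.1 = k l)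
    (h : ipt M w j t = ipt M w l t') : (⟨j, t⟩ : Σ j, Pt (M.Q j)) = ⟨l, t'⟩ := by
  rcases t with p | s
  · rcases t' with p' | s'
    · by_cases h1 : (cube (M.Q j) p.1 p.2 ∩ frontier (M.Q j).N).Nonempty
      · rw [ipt_wall M w j h1] at h
        by_cases h2 : (cube (M.Q l) p'.1 p'.2 ∩ frontier (M.Q l).N).Nonempty
        · rw [ipt_wall M w l h2] at h
          have h3 := Sum.inr.inj h
          have hjl : j = l := congrArg Sigma.fst h3
          subst hjl
          have h4 := eq_of_heq (Sigma.mk.inj h3).2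
          have h5 : p.2 = p'.2 := (Prod.mk.inj h4).2
          have h6 := ht p rfl h1
          have h7 := ht' p' rfl h2
          have h8 : p = p' := Prod.ext (h6.trans h7.symm) h5
          rw [h8]
        · rw [ipt_in M w l h2] at h
          cases h
      · rw [ipt_in M w j h1] at h
        by_cases h2 : (cube (M.Q l) p'.1 p'.2 ∩ frontier (M.Q l).N).Nonempty
        · rw [ipt_wall M w l h2] at h
          cases h
        · rw [ipt_in M w l h2] at h
          exact Sum.inl.inj h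
    · by_cases h1 : (cube (M.Q j) p.1 p.2 ∩ frontier (M.Q j).N).Nonempty
      · rw [ipt_wall M w j h1] at h
        cases h
      · rw [ipt_in M w j h1] at h
        exact Sum.inl.inj h
  · rcases t' with p' | s'
    · by_cases h2 : (cube (M.Q l) p'.1 p'.2 ∩ frontier (M.Q l).N).Nonempty
      · rw [ipt_wall M w l h2] at h
        cases h
      · rw [ipt_in M w l h2] at h
        exact Sum.inl.inj h
    · exact Sum.inl.inj h

end Crest.Agent.R096.Mfi_290
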