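import Crest.Agent.R096.Mfi2_290

/-!
# Row 96, instance of `Pm_199.MF`, inner half, part 3

All fields of `PreMF` / `MF` for the inner tiles of 874's `MD.mesh`: potential tile, class, shift,
translate, injectivity, activity, rigid frame, shape.
-/

set_option autoImplicit false
set_option linter.unusedSectionVars false

open Set Filter Topology Metric

namespace Crest.Agent.R096.Mfi_290

open Msh_715 Cut_874 Msh_810 Mal_874

variable {n : ℕ} {E : Type*} [NormedAddCommGroup E] [NormedSpace ℝ E]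

section good

variable {J : Type*} (M : MD E n J) [NeZero n] {k : J → ℕ} (hk : M.Sc k) (a : Fin n → ℝ)
  {v : J → E} (hv : M.Adm v)

/-- **good tiles, inner** (874's `inner_good`, the three cases are exclusive) -/
theorem inner_good' (X : RD M) (RPx : RP X a v k) {j : J} (i : M.IIx hk a hv j)
    (hi : i ≠ M.core hk a hv j) :
    (∃ τ, i.1 = Sum.inl τ ∧
      Disjoint (P ((M.mesh hk a hv).H (Sum.inr ⟨j, i⟩))) (frontier (M.Bk v j).N) ∧
      Disjoint (P ((M.mesh hk a hv).H (Sum.inr ⟨j, i⟩)))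
        ((M.Bk v j).S.bp (M.Bk v j).ψ (M.Bk v j).a' (M.Bk v j).kc) ∧
      Good (M.mesh hk a hv) (Sum.inr ⟨j, i⟩) (chi (M.Q j).ψ (M.Bk v j).a' (τ.1.1.1.k + 1))
        (τ.1.1.1.k + 1) (N0 n) 1 2) ∨
    (Disjoint (P ((M.mesh hk a hv).H (Sum.inr ⟨j, i⟩))) (frontier (M.Bk v j).N) ∧
      (P ((M.mesh hk a hv).H (Sum.inr ⟨j, i⟩)) ∩
        ((M.Bk v j).S.bp (M.Bk v j).ψ (M.Bk v j).a' (M.Bk v j).kc)).Nonempty ∧
      (∀ x ∈ P ((M.mesh hk a hv).H (Sum.inr ⟨j, i⟩)), (M.Bk v j).near 1 x) ∧
      Good (M.mesh hk a hv) (Sum.inr ⟨j, i⟩) (chi (M.Q j).ψ (M.Bk v j).a' (M.Q j).kc)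
        (M.Q j).kc (NB n (X.B j)) 1 (X.R j)) ∨
    ((∃ τ, i.1 = Sum.inl τ ∧ τ.1.1.1.k = k j) ∧
      (P ((M.mesh hk a hv).H (Sum.inr ⟨j, i⟩)) ∩ frontier (M.Bk v j).N).Nonempty ∧
      Good (M.mesh hk a hv) (Sum.inr ⟨j, i⟩) (chi M.φ a (k j)) (k j) (NR (X.A j) (X.d j)) (X.d j)
        (X.c j)) := by
  have hp : (0 : ℝ) < 1 / 2 ^ k j := by positivity
  have e3 : (3 : ℝ) / 2 ^ k j = 3 * (1 / 2 ^ k j) := by ring
  have e5 : (5 : ℝ) / 2 ^ k j = 5 * (1 / 2 ^ k j) := by ring
  -- inner tiles which meet `i`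
  have hin : ∀ l (m : M.IIx hk a hv l), (P ((M.mesh hk a hv).H (Sum.inr ⟨l, m⟩)) ∩
      P ((M.mesh hk a hv).H (Sum.inr ⟨j, i⟩))).Nonempty → l = j := by
    rintro l m ⟨y, hy1, hy2⟩
    by_contra hne
    exact Set.disjoint_left.1 ((M.ad hk a hv).dis l j hne) (m.2 hy1) (i.2 hy2)
  by_cases hw : (P ((M.S hk (v := v) j).H i.1) ∩ frontier (M.Bk v j).N).Nonempty
  · right; right
    have hF : Fr (chi M.φ a (k j)) (k j) (NR (X.A j) (X.d j)) (X.d j) (M.Q j).ψ (M.Bk v j).a' :=
      fr_rat (X.dpos j) (X.rat j) (RPx.hκ j) (RPx.h0 j) (RPx.hv j)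
    have hself : (P ((M.S hk (v := v) j).H i.1) ∩ P ((M.S hk (v := v) j).H i.1)).Nonempty :=
      ⟨hw.some, hw.some_mem.1, hw.some_mem.1⟩
    obtain ⟨τ, hiτ, hτ⟩ := (M.Bk v j).wall_tile (k j) (hk.kc j) hw hself
    refine ⟨⟨τ, hiτ, hτ⟩, hw, ⟨?_, ?_⟩⟩
    · rintro (q | ⟨l, m⟩) hl
      · obtain ⟨y, hy1, hy2⟩ := hl
        have hyf := M.outer_touch hk a hv q hy1 (i.2 hy2)
        have hy1' : y ∈ P ((M.ad hk a hv).T0.H q.1.par) := cut_tile_sub (hA := AF_ne) q.1 hy1
        have h0 : infDist (M.φ y) (M.W j) = 0 := infDist_zero_of_mem (MD.wall_mem hv j hyf)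
        have hkq : q.1.par.1.1.k = k j :=
          AD.zone_k (M := M.ad hk a hv) (j := j) (by
            show infDist (M.φ y) (M.W j) < 5 / 2 ^ k j
            rw [h0, e5]; linarith) hy1'
        refine gf_outer (φ := M.φ) (D := (M.ad hk a hv).D) (X.dpos j)
          (fr_self M.φ a (k j) (N0_sub_NR _ _) _) (p := q.1) ?_ hkq.le
        intro l hl
        have hlj : l = j := AD.zone_wall (M := M.ad hk a hv) hy1' (by
          show infDist (M.φ y) (M.W j) ≤ 3 / 2 ^ k j
          rw [h0, e3]; linarith) hl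
        subst hlj
        exact ⟨hF, hk.kc l⟩
      · obtain rfl : l = j := hin l m hl
        obtain ⟨σ, hσ1, hσ⟩ := (M.Bk v l).wall_tile (k l) (hk.kc l) hw hl
        rw [MD.mesh_inr, hσ1]
        exact gf_cube (X.dpos l) hF hσ.le _
    · intro x hx y hy m
      refine chi_dist ?_ m
      rw [MD.mesh_inr, hiτ] at hx hy
      have h1 := dist_cube (((M.Bk v j).tile_T0 (k j) (hk.kc j)).1 hy)
        (((M.Bk v j).tile_T0 (k j) (hk.kc j)).1 hx)
      rw [hτ] at h1
      refine (X.cn j y x).trans ?_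
      have h2 := X.c1 j
      calc X.c j * dist ((M.Q j).ψ y) ((M.Q j).ψ x) ≤ X.c j * (1 / 2 ^ k j) :=
            mul_le_mul_of_nonneg_left h1 (by linarith)
        _ = X.c j / 2 ^ k j := by ring
  · -- no outer piece meets the tile
    have hout : ∀ q : M.OIx hk a hv, ¬ (P ((M.mesh hk a hv).H (Sum.inl q)) ∩
        P ((M.mesh hk a hv).H (Sum.inr ⟨j, i⟩))).Nonempty := by
      rintro q ⟨y, hy1, hy2⟩
      exact hw ⟨y, hy2, M.outer_touch hk a hv q hy1 (i.2 hy2)⟩
    by_cases hb : (P ((M.S hk (v := v) j).H i.1) ∩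
        (M.Bk v j).S.bp (M.Bk v j).ψ (M.Bk v j).a' (M.Bk v j).kc).Nonempty
    · right; left
      have hcore : i.1 ≠ (M.Bk v j).cix (k j) (hk.kc j) := fun h => hi (Subtype.ext h)
      refine ⟨?_, hb, ?_, ?_, ?_⟩
      · rw [Set.disjoint_iff_inter_eq_empty, ← Set.not_nonempty_iff_eq_empty, MD.mesh_inr]
        exact hw
      · intro x hx
        rw [MD.mesh_inr] at hx
        rcases hi1 : i.1 with τ | s
        · rw [hi1] at hx hb
          obtain ⟨y, hy1, hy2⟩ := hb
          have := (M.Bk v j).near_tile (k j) (hk.kc j) hy1 hx ((M.Bk v j).near_of_bp hy2)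
          rwa [zero_add] at this
        · rw [hi1] at hx
          have := (M.Bk v j).near_of_bp ((M.Bk v j).P_inr_sub (k j) (hk.kc j) s hx)
          intro l
          have h := this l
          constructor <;> linarith [h.1, h.2]
      · rintro (q | ⟨l, m⟩) hl
        · exact absurd hl (hout q)
        · obtain rfl : l = j := hin l m hl
          exact (M.Bk v l).near_good (k l) (hk.kc l) (X.B1 l) (X.hB l) hb hl
      · intro x hx y hy l
        rw [chi_eq_ps, chi_eq_ps]
        rw [MD.mesh_inr] at hx hy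
        rcases hi1 : i.1 with τ | s
        · rw [hi1] at hx hy
          exact ((M.Bk v j).tile_size (k j) (hk.kc j) hy hx l).trans (X.R1 j)
        · rw [hi1] at hx hy
          change x ∈ P (iH (M.Bk v j).ψ (M.Bk v j).a' (M.Bk v j).kc ((M.Bk v j).S.GG s)) at hx
          change y ∈ P (iH (M.Bk v j).ψ (M.Bk v j).a' (M.Bk v j).kc ((M.Bk v j).S.GG s)) at hy
          rw [mem_P_iH] at hx hy
          refine X.hR j s ?_ _ hx _ hy l
          rintro rfl
          exact hcore hi1
    · left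
      rcases hi1 : i.1 with τ | s
      · have hb' : Disjoint (P ((M.mesh hk a hv).H (Sum.inr ⟨j, i⟩)))
            ((M.Bk v j).S.bp (M.Bk v j).ψ (M.Bk v j).a' (M.Bk v j).kc) := by
          rw [Set.disjoint_iff_inter_eq_empty, ← Set.not_nonempty_iff_eq_empty, MD.mesh_inr]
          exact hb
        refine ⟨τ, rfl, ?_, hb', ⟨?_, ?_⟩⟩
        · rw [Set.disjoint_iff_inter_eq_empty, ← Set.not_nonempty_iff_eq_empty, MD.mesh_inr]
          exact hw
        · rintro (q | ⟨l, m⟩) hl
          · exact absurd hl (hout q)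
          · obtain rfl : l = j := hin l m hl
            obtain ⟨y, hy1, hy2⟩ := hl
            rw [MD.mesh_inr] at hy1
            rcases hm1 : m.1 with σ | s
            · rw [MD.mesh_inr, hm1]
              rw [hm1] at hy1
              rw [MD.mesh_inr, hi1] at hy2
              have hkσ : σ.1.1.1.k ≤ τ.1.1.1.k + 1 :=
                (tile_k_le (φ := (M.Bk v l).ψ) (D := (M.Bk v l).D (k l) (hk.kc l)) hy1).trans
                  (K_le_succ (mem_at.1 (show τ.1 ∈ (tiling (M.Bk v l).ψ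
                    ((M.Bk v l).D (k l) (hk.kc l))).at_ y from hy2)))
              exact gf_cube one_pos (fr_self (M.Q l).ψ (M.Bk v l).a' _ subset_rfl 1) hkσ _
            · rw [hm1] at hy1
              exact absurd ((M.Bk v l).P_inr_sub (k l) (hk.kc l) s hy1)
                (Set.disjoint_left.1 hb' hy2)
        · intro x hx y hy m
          rw [MD.mesh_inr, hi1] at hx hy
          have hx' := ((M.Bk v j).tile_T0 (k j) (hk.kc j)).1 hx
          have hy' := ((M.Bk v j).tile_T0 (k j) (hk.kc j)).1 hy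
          refine (size_tile (k := τ.1.1.1.k + 1) hx' hy' m).trans ?_
          rw [pow_succ, mul_comm, mul_div_assoc, div_self (by positivity), mul_one]
      · exfalso
        apply hb
        rw [hi1]
        obtain ⟨y, hy⟩ := (M.S hk (v := v) j).ne (Sum.inr s)
        exact ⟨y, I_sub_P _ hy, (M.Bk v j).P_inr_sub (k j) (hk.kc j) s (I_sub_P _ hy)⟩


/-- a tile of a block which touches the wall is a cube of scale `k j` -/
theorem touch {j : J} (i : M.IIx hk a hv j)
    (h : (P ((M.S hk (v := v) j).H i.1) ∩ frontier (M.Bk v j).N).Nonempty) :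
    ∃ τ, i.1 = Sum.inl τ ∧ τ.1.1.1.k = k j :=
  (M.Bk v j).wall_tile (k j) (hk.kc j) h ⟨h.some, h.some_mem.1, h.some_mem.1⟩

/-- tiles of different blocks do not meet -/
theorem inner_inner {j l : J} (i : M.IIx hk a hv j) (m : M.IIx hk a hv l)
    (h : (P ((M.mesh hk a hv).H (Sum.inr ⟨j, i⟩)) ∩
      P ((M.mesh hk a hv).H (Sum.inr ⟨l, m⟩))).Nonempty) : j = l := by
  obtain ⟨y, hy1, hy2⟩ := h
  by_contra hne
  exact Set.disjoint_left.1 ((M.ad hk a hv).dis j l hne) (i.2 hy1) (m.2 hy2)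

/-- an inner tile which meets an outer one touches the wall there -/
theorem inner_outer {j : J} (i : M.IIx hk a hv j) (q : M.OIx hk a hv) {y : E}
    (h1 : y ∈ P ((M.mesh hk a hv).H (Sum.inr ⟨j, i⟩)))
    (h2 : y ∈ P ((M.mesh hk a hv).H (Sum.inl q))) : y ∈ frontier (M.Bk v j).N :=
  M.outer_touch hk a hv q h2 (i.2 h1)

end good

/-! ### the fields -/

/-- the shift of a class (`Pm_199.sh` in general form) -/
def ish {J : Type*} : Option J → E → (J → E) → E
  | none, a, _ => a
  | some j, a, w => a + w j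

section fields

variable {J : Type*} (M : MD E n J) [NeZero n] {k : J → ℕ} (hk : M.Sc k) (a : E)
  {W : J → Set E} (w : ∀ j, W j) (hv : M.Adm (fun j => a + (w j : E)))

/-- the name of an inner tile in its block -/
noncomputable def inm (j : J) (i : M.IIx hk (M.φ a) hv j) : Pt (M.Q j) :=
  nmt (M.Q j) (a + (w j : E)) (k j) (hk.kc j) i.1

theorem inm_inj (j : J) : Function.Injective (inm M hk a w hv j) := by
  intro i i' h
  exact Subtype.ext (nmt_inj (M.Q j) (a + (w j : E)) (k j) (hk.kc j) h)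

/-- **the potential tile of an inner tile** -/
noncomputable def ipot (p : Σ j, M.IIx hk (M.φ a) hv j) : Ti M W :=
  ipt M w p.1 (inm M hk a w hv p.1 p.2)

theorem P_inm (j : J) (i : M.IIx hk (M.φ a) hv j) :
    P ((M.mesh hk (M.φ a) hv).H (Sum.inr ⟨j, i⟩)) =
      (fun y => y + (a + (w j : E))) '' til (M.Q j) (inm M hk a w hv j i) :=
  P_nmt (M.Q j) (a + (w j : E)) (k j) (hk.kc j) i.1

theorem touch_iff (j : J) (i : M.IIx hk (M.φ a) hv j) :
    (P ((M.mesh hk (M.φ a) hv).H (Sum.inr ⟨j, i⟩)) ∩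
      frontier (M.Bk (fun j => a + (w j : E)) j).N).Nonempty ↔
      (til (M.Q j) (inm M hk a w hv j i) ∩ frontier (M.Q j).N).Nonempty := by
  rw [P_inm]
  exact inter_tr fun y => CB.frontier_N_tr (M.Q j) (a + (w j : E))

theorem bp_iff (j : J) (i : M.IIx hk (M.φ a) hv j) :
    (P ((M.mesh hk (M.φ a) hv).H (Sum.inr ⟨j, i⟩)) ∩
      (M.Bk (fun j => a + (w j : E)) j).S.bp (M.Bk (fun j => a + (w j : E)) j).ψ
        (M.Bk (fun j => a + (w j : E)) j).a' (M.Bk (fun j => a + (w j : E)) j).kc).Nonempty ↔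
      (til (M.Q j) (inm M hk a w hv j i) ∩
        (M.Q j).S.bp (M.Q j).ψ (M.Q j).a' (M.Q j).kc).Nonempty := by
  rw [P_inm]
  exact inter_tr fun y => mem_bp_tr (M.Q j) (a + (w j : E)) y

/-- the scale of a cube at the wall -/
theorem inm_wall (j : J) (i : M.IIx hk (M.φ a) hv j) (p : ℕ × (Fin n → ℤ))
    (hp : inm M hk a w hv j i = Sum.inl p)
    (h : (cube (M.Q j) p.1 p.2 ∩ frontier (M.Q j).N).Nonempty) : p.1 = k j := by
  have h1 : (til (M.Q j) (inm M hk a w hv j i) ∩ frontier (M.Q j).N).Nonempty := by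
    rw [hp]
    exact h
  obtain ⟨τ, h2, h3⟩ := touch M hk (M.φ a) hv i ((touch_iff M hk a w hv j i).2 h1)
  have h4 : inm M hk a w hv j i = Sum.inl (τ.1.1.1.k, τ.1.1.1.z) := by
    unfold inm
    rw [h2]
    rfl
  rw [h4] at hp
  have h5 := Sum.inl.inj hp
  rw [← h5]
  exact h3

theorem ipot_inj : Function.Injective (ipot M hk a w hv) := by
  rintro ⟨j, i⟩ ⟨l, i'⟩ h
  have h1 := ipt_inj M k w (t := inm M hk a w hv j i) (t' := inm M hk a w hv l i')
    (fun p hp h => inm_wall M hk a w hv j i p hp h)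
    (fun p hp h => inm_wall M hk a w hv l i' p hp h) h
  obtain ⟨h2, h3⟩ := Sigma.mk.inj h1
  subst h2
  rw [inm_inj M hk a w hv j (eq_of_heq h3)]

theorem ibl_inl (j : J) (t : Pt (M.Q j)) : ibl (icl M W (Sum.inl ⟨j, t⟩)) = some j := by
  have h : icl M W (Sum.inl ⟨j, t⟩) = (j, kd M j t) := rfl
  rw [h]
  rcases hkd : kd M j t with _ | _ | _ | _
  · rfl
  · rfl
  · rfl
  · exfalso
    unfold kd at hkd
    rcases t with p | s
    · simp only [] at hkd
      split_ifs at hkd
    · simp only [] at hkd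
      split_ifs at hkd

/-- **the inner tiles are translates of potential inner tiles** -/
theorem itile (p : Σ j, M.IIx hk (M.φ a) hv j) :
    P ((M.mesh hk (M.φ a) hv).H (Sum.inr p)) =
      (fun y => y + ish (ibl (icl M W (ipot M hk a w hv p))) a (fun j => (w j : E))) ''
        iTil M k W (ipot M hk a w hv p) := by
  obtain ⟨j, i⟩ := p
  have h0 := P_inm M hk a w hv j i
  rw [h0]
  unfold ipot
  rcases h1 : inm M hk a w hv j i with p | s
  · by_cases h2 : (cube (M.Q j) p.1 p.2 ∩ frontier (M.Q j).N).Nonempty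
    · have h3 := inm_wall M hk a w hv j i p h1 h2
      simp only []
      rw [ipt_wall M w j h2]
      change _ = (fun y => y + a) '' ((fun y => y + (w j : E)) '' cube (M.Q j) (k j) p.2)
      rw [image_image, ← h3]
      change (fun y => y + (a + (w j : E))) '' cube (M.Q j) p.1 p.2 = _
      refine image_congr fun y _ => ?_
      abel
    · simp only []
      rw [ipt_in M w j h2, ibl_inl]
      rfl
  · simp only []
    change _ = (fun y => y + ish (ibl (icl M W (Sum.inl ⟨j, Sum.inr s⟩))) a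
      (fun j => (w j : E))) '' _
    rw [ibl_inl]
    rfl

/-- **activity** -/
theorem iact (p : Σ j, M.IIx hk (M.φ a) hv j) :
    ish (ibl (icl M W (ipot M hk a w hv p))) a (fun j => (w j : E)) ∈
      iAc M k W (ipot M hk a w hv p) := by
  obtain ⟨j, i⟩ := p
  unfold ipot
  have hN : P (((M.Bk (fun j => a + (w j : E)) j).T (k j) (hk.kc j)).H i.1) ⊆
    (M.Bk (fun j => a + (w j : E)) j).N := i.2
  rcases h1 : inm M hk a w hv j i with p | s
  · have hU := use_nmt (M.Q j) (a + (w j : E)) (k j) (hk.kc j) hN h1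
    by_cases h2 : (cube (M.Q j) p.1 p.2 ∩ frontier (M.Q j).N).Nonempty
    · have h3 := inm_wall M hk a w hv j i p h1 h2
      simp only []
      rw [ipt_wall M w j h2]
      refine ⟨hv j, ?_, ?_⟩
      · rw [← h3]
        exact h2
      · rw [← h3]
        exact hU.2.1
    · simp only []
      rw [ipt_in M w j h2, ibl_inl]
      exact ⟨hv j, hU, h2⟩
  · simp only []
    change ish (ibl (icl M W (Sum.inl ⟨j, Sum.inr s⟩))) a (fun j => (w j : E)) ∈ _
    rw [ibl_inl]
    exact hv j

/-- the name of the core -/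
theorem inm_core (j : J) : inm M hk a w hv j (M.core hk (M.φ a) hv j) =
    Sum.inr (M.Q j).S.core := rfl

/-- the core is the only tile of the core class -/
theorem kd_core_iff (j : J) (i : M.IIx hk (M.φ a) hv j) :
    icl M W (ipot M hk a w hv ⟨j, i⟩) = (j, Kd.core) ↔ i = M.core hk (M.φ a) hv j := by
  constructor
  · intro h
    apply inm_inj M hk a w hv j
    rw [inm_core]
    unfold ipot at h
    rcases h1 : inm M hk a w hv j i with p | s
    · exfalso
      simp only [] at h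
      rw [h1] at h
      by_cases h2 : (cube (M.Q j) p.1 p.2 ∩ frontier (M.Q j).N).Nonempty
      · rw [ipt_wall M w j h2] at h
        have h3 : Kd.wall = Kd.core := congrArg Prod.snd h
        cases h3
      · rw [ipt_in M w j h2] at h
        have h3 : kd M j (Sum.inl p) = Kd.core := congrArg Prod.snd h
        unfold kd at h3
        simp only [] at h3
        split_ifs at h3
    · simp only [] at h
      rw [h1] at h
      have h3 : kd M j (Sum.inr s) = Kd.core := congrArg Prod.snd h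
      unfold kd at h3
      simp only [] at h3
      split_ifs at h3 with h4
      rw [h4]
  · rintro rfl
    unfold ipot
    simp only []
    rw [inm_core]
    change (j, kd M j (Sum.inr (M.Q j).S.core)) = (j, Kd.core)
    have : kd M j (Sum.inr (M.Q j).S.core) = Kd.core := if_pos rfl
    rw [this]

/-- a point of the tile -/
theorem mem_itile (p : Σ j, M.IIx hk (M.φ a) hv j) :
    (iTil_ne M k W (ipot M hk a w hv p)).some +
      ish (ibl (icl M W (ipot M hk a w hv p))) a (fun j => (w j : E)) ∈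
        P ((M.mesh hk (M.φ a) hv).H (Sum.inr p)) := by
  rw [itile]
  exact ⟨_, (iTil_ne M k W (ipot M hk a w hv p)).some_mem, rfl⟩

/-- the frame of an inner tile of the mesh -/
noncomputable def ifm (p : Σ j, M.IIx hk (M.φ a) hv j) : E ≃ᵃ[ℝ] (Fin n → ℝ) :=
  (shE (ish (ibl (icl M W (ipot M hk a w hv p))) a (fun j => (w j : E)))).trans
    (ifr M k W (ipot M hk a w hv p))

theorem ifm_apply (p : Σ j, M.IIx hk (M.φ a) hv j) (y : E) : ifm M hk a w hv p y =
    ifr M k W (ipot M hk a w hv p)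
      (y - ish (ibl (icl M W (ipot M hk a w hv p))) a (fun j => (w j : E))) := by
  unfold ifm
  rw [AffineEquiv.trans_apply, shE_apply]

theorem ifm_norm (p : Σ j, M.IIx hk (M.φ a) hv j) (y : E) :
    ‖(ifm M hk a w hv p).linear y‖ ≤ iβ M k W (ipot M hk a w hv p) * ‖y‖ := by
  unfold ifm
  rw [shE_trans_linear]
  exact ifr_norm M k W _ y

/-- **shapes** -/
theorem ishape (X : RD M) (RPx : RP X (M.φ a) (fun j => a + (w j : E)) k)
    (p : Σ j, M.IIx hk (M.φ a) hv j) (hp : p.2 ≠ M.core hk (M.φ a) hv p.1) :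
    (fun K => (ifm M hk a w hv p) '' K) '' cfg (M.mesh hk (M.φ a) hv) (Sum.inr p) ∈
      iSh M X (icl M W (ipot M hk a w hv p)) := by
  have hmem := mem_itile M hk a w hv p
  obtain ⟨j, i⟩ := p
  have hmem' := hmem
  unfold ifm ifr
  rcases inner_good' M hk (M.φ a) hv X RPx i hp with ⟨τ, h1, h2, h3, h4⟩ | ⟨h2, h3, -, h4⟩ |
    ⟨⟨τ, h1, h1'⟩, h2, h4⟩
  · -- far cube
    have hn : inm M hk a w hv j i = Sum.inl (τ.1.1.1.k, τ.1.1.1.z) := by
      unfold inm
      rw [h1]
      rfl
    have h5 : ¬ (cube (M.Q j) τ.1.1.1.k τ.1.1.1.z ∩ frontier (M.Q j).N).Nonempty := by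
      intro h
      have h6 := (touch_iff M hk a w hv j i).2 (by rw [hn]; exact h)
      rw [Set.disjoint_iff_inter_eq_empty, ← Set.not_nonempty_iff_eq_empty] at h2
      exact h2 h6
    have h6 : ¬ (cube (M.Q j) τ.1.1.1.k τ.1.1.1.z ∩
        (M.Q j).S.bp (M.Q j).ψ (M.Q j).a' (M.Q j).kc).Nonempty := by
      intro h
      have h6 := (bp_iff M hk a w hv j i).2 (by rw [hn]; exact h)
      rw [Set.disjoint_iff_inter_eq_empty, ← Set.not_nonempty_iff_eq_empty] at h3
      exact h3 h6
    have e : ipot M hk a w hv ⟨j, i⟩ = Sum.inl ⟨j, Sum.inl (τ.1.1.1.k, τ.1.1.1.z)⟩ := by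
      unfold ipot
      simp only []
      rw [hn]
      exact ipt_in M w j h5
    have ek : kd M j (Sum.inl (τ.1.1.1.k, τ.1.1.1.z)) = Kd.far := if_neg h6
    rw [e] at hmem ⊢
    rw [ibl_inl] at hmem ⊢
    have eχ : iχ M k W (Sum.inl ⟨j, Sum.inl (τ.1.1.1.k, τ.1.1.1.z)⟩) =
        chi (M.Q j).ψ (M.Q j).a' (τ.1.1.1.k + 1) := if_pos ek
    have ec : iSh M X (icl M W (Sum.inl ⟨j, Sum.inl (τ.1.1.1.k, τ.1.1.1.z)⟩)) =
        simL (N0 n) 1 2 := by
      have : icl M W (Sum.inl ⟨j, Sum.inl (τ.1.1.1.k, τ.1.1.1.z)⟩) = (j, Kd.far) := by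
        show (j, kd M j _) = _
        rw [ek]
      rw [this]
      rfl
    rw [ec, eχ]
    exact good_at h4 one_pos (N0_rat one_pos)
      (fun y => chi_tr (M.Q j).ψ (M.Q j).a' (a + (w j : E)) _ y) hmem
  · -- near the core
    have h5 : ¬ (til (M.Q j) (inm M hk a w hv j i) ∩ frontier (M.Q j).N).Nonempty := by
      intro h
      have h6 := (touch_iff M hk a w hv j i).2 h
      rw [Set.disjoint_iff_inter_eq_empty, ← Set.not_nonempty_iff_eq_empty] at h2
      exact h2 h6
    have h6 := (bp_iff M hk a w hv j i).1 h3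
    have h7 : inm M hk a w hv j i ≠ Sum.inr (M.Q j).S.core := by
      intro h
      rw [← inm_core M hk a w hv j] at h
      exact hp (inm_inj M hk a w hv j h)
    obtain ⟨t, ht⟩ : ∃ t, inm M hk a w hv j i = t := ⟨_, rfl⟩
    have e : ipot M hk a w hv ⟨j, i⟩ = Sum.inl ⟨j, t⟩ := by
      unfold ipot
      simp only []
      rw [ht] at h5 ⊢
      rcases t with p | s
      · exact ipt_in M w j h5
      · rfl
    rw [ht] at h6 h7
    have ek : kd M j t = Kd.near := by
      rcases t with p | s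
      · exact if_pos h6
      · exact if_neg fun h => h7 (by rw [h])
    rw [e] at hmem ⊢
    rw [ibl_inl] at hmem ⊢
    have eχ : iχ M k W (Sum.inl ⟨j, t⟩) = chi (M.Q j).ψ (M.Q j).a' (M.Q j).kc := by
      rcases t with p | s
      · refine if_neg ?_
        rw [ek]
        intro h
        cases h
      · rfl
    have ec : iSh M X (icl M W (Sum.inl ⟨j, t⟩)) = simL (NB n (X.B j)) 1 (X.R j) := by
      have : icl M W (Sum.inl ⟨j, t⟩) = (j, Kd.near) := by
        show (j, kd M j _) = _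
        rw [ek]
      rw [this]
      rfl
    rw [ec, eχ]
    exact good_at h4 one_pos (NB_rat _ one_pos)
      (fun y => chi_tr (M.Q j).ψ (M.Q j).a' (a + (w j : E)) _ y) hmem
  · -- at the wall
    have hn : inm M hk a w hv j i = Sum.inl (τ.1.1.1.k, τ.1.1.1.z) := by
      unfold inm
      rw [h1]
      rfl
    have h5 : (cube (M.Q j) τ.1.1.1.k τ.1.1.1.z ∩ frontier (M.Q j).N).Nonempty := by
      have h6 := (touch_iff M hk a w hv j i).1 h2
      rw [hn] at h6
      exact h6
    have e : ipot M hk a w hv ⟨j, i⟩ = Sum.inr ⟨j, w j, τ.1.1.1.z⟩ := by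
      unfold ipot
      simp only []
      rw [hn]
      exact ipt_wall M w j h5
    rw [e] at hmem ⊢
    exact good_at h4 (X.dpos j) (NR_rat (X.A j) (X.dpos j))
      (fun y => by
        have := chi_tr M.φ 0 a (k j) y
        rw [zero_add] at this
        exact this) hmem

end fields

end Crest.Agent.R096.Mfi_290
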