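import Crest.Agent.R096.Mfa1_880
import Crest.Agent.R096.Mfe2_161
import Crest.Agent.R096.Mfi3_290

/-!
# Row 96, instance of `Pm_199.MF`: the bridge between 161's `PreMF` (edges from the cells) and
880's `PT` (sums of potential tiles)

`RT J` = potential tiles with rigid frames, WITHOUT edges; `RT.toPT` adds 161's potential edges.
-/

set_option autoImplicit false
set_option linter.unusedSectionVars false

open MeasureTheory Set Filter Metric
open scoped Topology ENNReal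

namespace Crest.Agent.R096.Mfi_290

open Crest.Agent.R096.Msh_715
open Crest.Agent.R096.SkC1_961 (E3 Cfg)
open Crest.Agent.R096.Ls_222 (Edg ea ev eIn mem_eIn sgm_edg ev_ne)
open Crest.Agent.R96.Sg1_199 (li sgm)
open Crest.Agent.R96.Pm_199 (sh)
open Crest.Agent.R096.Mfa_880 (PT)

noncomputable section

/-- **potential tiles with rigid frames** (880's `PT` without the edges) -/
structure RT (J : Type) where
  κ : Type
  τ : Type
  cκ : Countable κ
  cτ : Countable τ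
  cl : τ → κ
  bl : κ → Option J
  Til : τ → Set E3
  Ac : τ → Set E3
  Acm : ∀ t, MeasurableSet (Ac t)
  β : τ → ℝ
  Sh : κ → Set (Set (Set E3))
  shf : ∀ k, (Sh k).Finite
  frr : τ → E3 ≃ᵃ[ℝ] E3
  frn : ∀ t, ∀ y : E3, ‖(frr t).linear y‖ ≤ β t * ‖y‖

variable {J : Type}

namespace RT

/-- the tile `i` of `T` is the potential tile `t` at the shifts `a, w` -/
structure Is (R : RT J) (a : E3) (w : J → E3) {Om : Set E3} {ι : Type} (T : Tiling Om ι) (i : ι)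
    (t : R.τ) : Prop where
  act : sh (R.bl (R.cl t)) a w ∈ R.Ac t
  tile : P (T.H i) = (fun y => y + sh (R.bl (R.cl t)) a w) '' R.Til t
  shp : (fun K => ((shE (sh (R.bl (R.cl t)) a w)).trans (R.frr t)) '' K) '' Cfg T i ∈ R.Sh (R.cl t)

/-- the tile `i` of `T` is a potential tile at the shifts `a, w` -/
def Cov (R : RT J) (a : E3) (w : J → E3) {Om : Set E3} {ι : Type} (T : Tiling Om ι) (i : ι) :
    Prop := ∃ t : R.τ, R.Is a w T i t

end RT

/-! ### potential segments -/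

/-- the potential cells with all relative shifts -/
def KK (𝒦 : Set (Set E3)) (U : Set E3) : Set (Set E3) :=
  {Q | ∃ K ∈ 𝒦, ∃ u ∈ U, Q = Mfe_161.shf (-u) K}

theorem KK_countable {𝒦 : Set (Set E3)} {U : Set E3} (h𝒦 : 𝒦.Countable) (hU : U.Countable) :
    (KK 𝒦 U).Countable := by
  have h1 : KK 𝒦 U = ⋃ K ∈ 𝒦, ⋃ u ∈ U, {Mfe_161.shf (-u) K} := by
    ext Q
    simp only [KK, mem_ofPred_eq, mem_iUnion, mem_singleton_iff, exists_prop]
  rw [h1]
  exact h𝒦.biUnion fun K _ => hU.biUnion fun u _ => countable_singleton _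

/-- potential segments -/
def Sgt (𝒦 : Set (Set E3)) (U : Set E3) : Type :=
  {K : Set E3 // K ∈ KK 𝒦 U ∧ ∃ p : E3 × E3, p.2 ≠ 0 ∧ K = sgm p.1 p.2}

theorem Sgt_countable {𝒦 : Set (Set E3)} {U : Set E3} (h𝒦 : 𝒦.Countable) (hU : U.Countable) :
    Countable (Sgt 𝒦 U) := by
  have h1 : {K : Set E3 | K ∈ KK 𝒦 U ∧ ∃ p : E3 × E3, p.2 ≠ 0 ∧ K = sgm p.1 p.2}.Countable :=
    (KK_countable h𝒦 hU).mono fun K hK => hK.1
  exact h1.to_subtype

/-- parametrisation of a potential segment -/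
def Sgt.p {𝒦 : Set (Set E3)} {U : Set E3} (K : Sgt 𝒦 U) : E3 × E3 := K.2.2.choose

theorem Sgt.p_ne {𝒦 : Set (Set E3)} {U : Set E3} (K : Sgt 𝒦 U) : K.p.2 ≠ 0 :=
  K.2.2.choose_spec.1

theorem Sgt.p_eq {𝒦 : Set (Set E3)} {U : Set E3} (K : Sgt 𝒦 U) : K.1 = sgm K.p.1 K.p.2 :=
  K.2.2.choose_spec.2

namespace RT

variable (R : RT J) (𝒦 : Set (Set E3)) (U : Set E3)

/-- the cells of the finite configurations of the list of a class -/
def shs (k : R.κ) : Set (Set E3) := ⋃₀ {c | c ∈ R.Sh k ∧ c.Finite}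

theorem shs_finite (k : R.κ) : (R.shs k).Finite :=
  Set.Finite.sUnion ((R.shf k).subset fun _ hc => hc.1) fun _ hc => hc.2

/-- the potential edges of the potential tile `t` -/
def EdS (t : R.τ) : Set (Sgt 𝒦 U) := {K | K.1 ⊆ R.Til t ∧ R.frr t '' K.1 ∈ R.shs (R.cl t)}

theorem EdS_injOn (t : R.τ) : InjOn (fun K : Sgt 𝒦 U => R.frr t '' K.1) (R.EdS 𝒦 U t) := by
  intro K _ K' _ e
  exact Subtype.ext ((R.frr t).injective.image_injective e)

theorem EdS_finite (t : R.τ) : (R.EdS 𝒦 U t).Finite := by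
  refine Set.Finite.of_finite_image ?_ (R.EdS_injOn 𝒦 U t)
  refine (R.shs_finite (R.cl t)).subset ?_
  rintro _ ⟨j, hj, rfl⟩
  exact hj.2

/-- **880's `PT` with 161's potential edges** -/
def toPT (h𝒦 : 𝒦.Countable) (hU : U.Countable) : PT J where
  κ := R.κ
  τ := R.τ
  η := Sgt 𝒦 U
  cκ := R.cκ
  cτ := R.cτ
  cη := Sgt_countable h𝒦 hU
  cl := R.cl
  bl := R.bl
  Til := R.Til
  Ac := R.Ac
  Acm := R.Acm
  x K := K.p.1
  v K := K.p.2
  Ed t := (R.EdS_finite 𝒦 U t).toFinset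
  sub t K hK := by
    rw [Set.Finite.mem_toFinset] at hK
    refine ⟨K.p_ne, ?_⟩
    rw [← K.p_eq]
    exact hK.1
  β := R.β
  Sh := R.Sh
  shf := R.shf

variable {R 𝒦 U}

/-- a closed 1-cell of the mesh as a potential segment -/
theorem exists_seg {Om : Set E3} {ι : Type} {T : Tiling Om ι} {a s : E3}
    (hcell : ∀ z ∈ Om, ∃ K ∈ 𝒦, T.cc z = Mfe_161.shf a K) (hs : s - a ∈ U) (e : Edg T) :
    ∃ K : Sgt 𝒦 U, K.1 = Mfe_161.shf (-s) e.1 ∧ e.1 = sgm (K.p.1 + s) K.p.2 := by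
  have hK : Mfe_161.shf (-s) e.1 ∈ KK 𝒦 U := by
    obtain ⟨x, hx, -, he⟩ := e.2
    obtain ⟨K, hK, hc⟩ := hcell x hx
    refine ⟨K, hK, s - a, hs, ?_⟩
    rw [he, hc, Mfe_161.shf_shf, show -s + a = -(s - a) by abel]
  refine ⟨⟨Mfe_161.shf (-s) e.1, hK, (ea e + -s, ev e), ev_ne e, ?_⟩, rfl, ?_⟩
  · rw [← sgm_edg e, Mfe_161.shf_sgm]
  · set K : Sgt 𝒦 U := ⟨Mfe_161.shf (-s) e.1, hK, (ea e + -s, ev e), ev_ne e, by
      rw [← sgm_edg e, Mfe_161.shf_sgm]⟩ with hKd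
    rw [← Mfe_161.shf_sgm, ← K.p_eq]
    show e.1 = Mfe_161.shf s (Mfe_161.shf (-s) e.1)
    rw [Mfe_161.shf_neg']

/-- **the bridge** -/
theorem Is.toPT {a : E3} {w : J → E3} {Om : Set E3} {ι : Type} {T : Tiling Om ι} {i : ι} {t : R.τ}
    (h : R.Is a w T i t) (h𝒦 : 𝒦.Countable) (hU : U.Countable)
    (hcell : ∀ z ∈ Om, ∃ K ∈ 𝒦, T.cc z = Mfe_161.shf a K)
    (hs : sh (R.bl (R.cl t)) a w - a ∈ U) : (R.toPT 𝒦 U h𝒦 hU).Is a w T i t where
  act := h.act
  tile := h.tile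
  tedge e he := by
    have hsub := mem_eIn.1 he
    set s := sh (R.bl (R.cl t)) a w with hsd
    obtain ⟨K, hK1, hK2⟩ := exists_seg hcell hs e
    rw [hK2]
    refine subset_iUnion₂_of_subset K ?_ (subset_refl _)
    show K ∈ (R.EdS_finite 𝒦 U t).toFinset
    rw [Set.Finite.mem_toFinset]
    refine ⟨?_, ?_⟩
    · rw [hK1]
      have h1 := h.tile
      change _ = Mfe_161.shf s _ at h1
      rw [h1] at hsub
      have h2 := image_mono (f := fun y => y + -s) hsub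
      change Mfe_161.shf _ _ ⊆ Mfe_161.shf _ (Mfe_161.shf _ _) at h2
      rwa [Mfe_161.shf_neg] at h2
    · refine mem_sUnion.2 ⟨_, ⟨h.shp, ?_⟩, ?_⟩
      · refine Set.Finite.image _ ?_
        refine (T.finite_cells (T.cpt i) (T.sub i)).subset ?_
        rintro _ ⟨x, hx, rfl⟩
        exact ⟨⟨x, T.sub i hx, rfl⟩, x, T.self_mem_cc x, hx⟩
      · obtain ⟨x, hx, -, hex⟩ := e.2
        refine ⟨e.1, ⟨x, hsub ?_, hex⟩, ?_⟩
        · rw [hex]
          exact T.self_mem_cc x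
        · rw [hK1]
          show ((shE s).trans (R.frr t)) '' e.1 = R.frr t '' (Mfe_161.shf (-s) e.1)
          unfold Mfe_161.shf
          rw [image_image]
          refine image_congr fun y _ => ?_
          rw [AffineEquiv.trans_apply, shE_apply, sub_eq_add_neg]
  frm := by
    refine ⟨(shE (sh (R.bl (R.cl t)) a w)).trans (R.frr t), fun y => ?_, h.shp⟩
    rw [shE_trans_linear]
    exact R.frn t y

theorem Cov.toPT {a : E3} {w : J → E3} {Om : Set E3} {ι : Type} {T : Tiling Om ι} {i : ι}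
    (h : R.Cov a w T i) (h𝒦 : 𝒦.Countable) (hU : U.Countable)
    (hcell : ∀ z ∈ Om, ∃ K ∈ 𝒦, T.cc z = Mfe_161.shf a K)
    (h0 : (0 : E3) ∈ U) (hw : ∀ j, w j ∈ U) : (R.toPT 𝒦 U h𝒦 hU).Cov a w T i := by
  obtain ⟨t, ht⟩ := h
  refine ⟨t, ht.toPT h𝒦 hU hcell ?_⟩
  rcases R.bl (R.cl t) with _ | j
  · show a - a ∈ U
    rw [sub_self]
    exact h0
  · show a + w j - a ∈ U
    rw [add_sub_cancel_left]
    exact hw j

variable (R 𝒦 U)

/-- the number of potential edges of a potential tile -/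
theorem card_Ed_le (h𝒦 : 𝒦.Countable) (hU : U.Countable) (t : R.τ) :
    ((R.toPT 𝒦 U h𝒦 hU).Ed t).card ≤ (R.shs (R.cl t)).ncard := by
  rw [← Set.ncard_coe_finset]
  show ((R.EdS_finite 𝒦 U t).toFinset : Set (Sgt 𝒦 U)).ncard ≤ _
  rw [Set.Finite.coe_toFinset]
  exact Set.ncard_le_ncard_of_injOn (fun K : Sgt 𝒦 U => R.frr t '' K.1)
    (fun K hK => hK.2) (R.EdS_injOn 𝒦 U t) (R.shs_finite _)

/-- the potential edges of a potential tile are cells of the list of the class in the rigid frame -/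
theorem mem_Ed (h𝒦 : 𝒦.Countable) (hU : U.Countable) {t : R.τ} {K : Sgt 𝒦 U}
    (hK : K ∈ (R.toPT 𝒦 U h𝒦 hU).Ed t) :
    K.p.2 ≠ 0 ∧ sgm K.p.1 K.p.2 ⊆ R.Til t ∧ R.frr t '' sgm K.p.1 K.p.2 ∈ R.shs (R.cl t) := by
  have h1 : K ∈ R.EdS 𝒦 U t := (Set.Finite.mem_toFinset _).1 hK
  refine ⟨K.p_ne, ?_, ?_⟩
  · rw [← K.p_eq]
    exact h1.1
  · rw [← K.p_eq]
    exact h1.2

/-! ### sums -/

/-- sum of countably many structures -/
def sigma {B : Type} [Countable B] (Q : B → RT J) : RT J where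
  κ := Σ b, (Q b).κ
  τ := Σ b, (Q b).τ
  cκ := by have := fun b => (Q b).cκ; infer_instance
  cτ := by have := fun b => (Q b).cτ; infer_instance
  cl t := ⟨t.1, (Q t.1).cl t.2⟩
  bl k := (Q k.1).bl k.2
  Til t := (Q t.1).Til t.2
  Ac t := (Q t.1).Ac t.2
  Acm t := (Q t.1).Acm t.2
  β t := (Q t.1).β t.2
  Sh k := (Q k.1).Sh k.2
  shf k := (Q k.1).shf k.2
  frr t := (Q t.1).frr t.2
  frn t := (Q t.1).frn t.2

/-- sum of two structures -/
def sum (Q R : RT J) : RT J where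
  κ := Q.κ ⊕ R.κ
  τ := Q.τ ⊕ R.τ
  cκ := by have := Q.cκ; have := R.cκ; infer_instance
  cτ := by have := Q.cτ; have := R.cτ; infer_instance
  cl := Sum.map Q.cl R.cl
  bl := Sum.elim Q.bl R.bl
  Til := Sum.elim Q.Til R.Til
  Ac := Sum.elim Q.Ac R.Ac
  Acm t := by
    rcases t with t | t
    · exact Q.Acm t
    · exact R.Acm t
  β := Sum.elim Q.β R.β
  Sh := Sum.elim Q.Sh R.Sh
  shf k := by
    rcases k with k | k
    · exact Q.shf k
    · exact R.shf k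
  frr := Sum.elim Q.frr R.frr
  frn t := by
    rcases t with t | t
    · exact Q.frn t
    · exact R.frn t

variable {R}

theorem Is.sg {B : Type} [Countable B] {Q : B → RT J} {a : E3} {w : J → E3} {Om : Set E3}
    {ι : Type} {T : Tiling Om ι} {i : ι} {b : B} {t : (Q b).τ} (h : (Q b).Is a w T i t) :
    (sigma Q).Is a w T i ⟨b, t⟩ := ⟨h.act, h.tile, h.shp⟩

theorem Cov.sg {B : Type} [Countable B] {Q : B → RT J} {a : E3} {w : J → E3} {Om : Set E3}
    {ι : Type} {T : Tiling Om ι} {i : ι} {b : B} (h : (Q b).Cov a w T i) :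
    (sigma Q).Cov a w T i := by
  obtain ⟨t, ht⟩ := h
  exact ⟨_, ht.sg⟩

theorem Is.inl {Q R : RT J} {a : E3} {w : J → E3} {Om : Set E3} {ι : Type} {T : Tiling Om ι}
    {i : ι} {t : Q.τ} (h : Q.Is a w T i t) : (Q.sum R).Is a w T i (Sum.inl t) :=
  ⟨h.act, h.tile, h.shp⟩

theorem Is.inr {Q R : RT J} {a : E3} {w : J → E3} {Om : Set E3} {ι : Type} {T : Tiling Om ι}
    {i : ι} {t : R.τ} (h : R.Is a w T i t) : (Q.sum R).Is a w T i (Sum.inr t) :=
  ⟨h.act, h.tile, h.shp⟩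

theorem Cov.inl {Q R : RT J} {a : E3} {w : J → E3} {Om : Set E3} {ι : Type} {T : Tiling Om ι}
    {i : ι} (h : Q.Cov a w T i) : (Q.sum R).Cov a w T i := by
  obtain ⟨t, ht⟩ := h
  exact ⟨_, ht.inl⟩

theorem Cov.inr {Q R : RT J} {a : E3} {w : J → E3} {Om : Set E3} {ι : Type} {T : Tiling Om ι}
    {i : ι} (h : R.Cov a w T i) : (Q.sum R).Cov a w T i := by
  obtain ⟨t, ht⟩ := h
  exact ⟨_, ht.inr⟩

end RT

end

end Crest.Agent.R096.Mfi_290
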