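/-
helper222, row 96, PREMACH (S4) of 199 #10794: mean of the energy of one class of potential tiles of an
`MF` whose tiles come in scales with finite overlap (outer Whitney class).
-/
import Mathlib
import Crest.Agent.R96.Pm2_199

set_option autoImplicit false
set_option linter.unusedSectionVars false

open MeasureTheory Set Filter Metric
open scoped Topology ENNReal

namespace Crest.Agent.R096.Mfo_222

open Crest.Agent.R096.Msh_715
open Crest.Agent.R096.SkC1_961 (E3 Cfg)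
open Crest.Agent.R96.Sg1_199 (li sgm)
open Crest.Agent.R96.Sg8_199 Crest.Agent.R96.Pm_199

noncomputable section

/-- **multiplicity of a family with scales** -/
theorem Mu_fiber {E : Type*} [NormedAddCommGroup E] [NormedSpace ℝ E] [FiniteDimensional ℝ E]
    [MeasurableSpace E] [BorelSpace E] {μ : Measure E} [μ.IsAddHaarMeasure]
    {τ σ : Type*} [Countable τ] {Til Ac : τ → Set E} (sc : τ → σ)
    (hm : ∀ t, MeasurableSet (Til t))
    (hdis : ∀ t t', t ≠ t' → sc t = sc t' → AEDisjoint μ (Til t) (Til t')) {D r : ℝ}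
    (hD : ∀ t, ∀ y ∈ Til t, ∀ y' ∈ Til t, dist y' y ≤ D)
    (hr : ∀ t, ∀ w ∈ Ac t, ‖w‖ ≤ r) {Z : σ → Set E}
    (hZ : ∀ t, ∀ y ∈ Til t, ∀ b ∈ Ac t, y + b ∈ Z (sc t)) {N : ℕ}
    (hN : ∀ z, {s | z ∈ Z s}.encard ≤ N) (z : E) :
    Mu μ Til Ac z ≤ N * μ (closedBall (0:E) (r + D)) := by
  have h1 : Mu μ Til Ac z = Mu μ (fun q : Σ s, {t // sc t = s} => Til q.2.1)
      (fun q => Ac q.2.1) z := by
    unfold Mu
    exact ((Equiv.sigmaFiberEquiv sc).tsum_eq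
      (fun t => {z : E | ∃ y ∈ Til t, z - y ∈ Ac t}.indicator (fun _ => μ (Til t)) z)).symm
  rw [h1]
  exact Mu_scales (μ := μ) (τ := fun s => {t // sc t = s}) (Til := fun _ t => Til t.1)
    (Ac := fun _ t => Ac t.1) (fun _ t => hm t.1)
    (fun s t t' hne => hdis t.1 t'.1 (fun h => hne (Subtype.ext h)) (t.2.trans t'.2.symm))
    (fun _ t => hD t.1) (fun _ t => hr t.1) (fun s t y hy b hb => by
      have := hZ t.1 y hy b hb
      rwa [t.2] at this) hN z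

variable {Om : Set E3} {F J : Type}

/-- **(S4)** mean of the energy of the class `k` over the common shifts -/
theorem mean_le (M : MF Om F J) {k : M.κ} {σ : Type*} (sc : M.τ → σ)
    (hm : ∀ t, M.cl t = k → MeasurableSet (M.Til t))
    (hdis : ∀ t t', M.cl t = k → M.cl t' = k → t ≠ t' → sc t = sc t' →
      AEDisjoint volume (M.Til t) (M.Til t')) {D r : ℝ}
    (hD : ∀ t, M.cl t = k → ∀ y ∈ M.Til t, ∀ y' ∈ M.Til t, dist y' y ≤ D)
    (hr : ∀ a ∈ M.A, ‖a‖ ≤ r) {Z : σ → Set E3} {R : Set E3} (hR : MeasurableSet R)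
    (hZR : ∀ s, Z s ⊆ R)
    (hZ : ∀ t, M.cl t = k → ∀ y ∈ M.Til t, ∀ b ∈ M.Ac t, b ∈ M.A → y + b ∈ Z (sc t)) {N : ℕ}
    (hN : ∀ z, {s | z ∈ Z s}.encard ≤ N)
    {G : E3 → E3 → ℝ≥0∞} (hGm : ∀ v, Measurable (G v)) {H : E3 → ℝ≥0∞}
    (hGH : ∀ᵐ y : E3, ∀ v, G v y ≤ ‖v‖ₑ * H y) {n : ℕ}
    (hn : ∀ t, M.cl t = k → (M.Ed t).card ≤ n) {K : ℝ≥0∞} (hK : K ≠ ∞)
    (hβ : ∀ t, M.cl t = k → ∀ j ∈ M.Ed t, ENNReal.ofReal (M.β t) * ‖M.v j‖ₑ ≤ K)
    {p : ℝ} (hp : 1 ≤ p) :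
    ∫⁻ a in M.A, M.EnC G p k a ≤
      (n * K) ^ p * (N * volume (closedBall (0:E3) (r + D))) * ∫⁻ z in R, H z ^ p := by
  classical
  have := M.cτ
  have e1 : ∫⁻ a in M.A, M.EnC G p k a =
      ∫⁻ a, EnA volume (fun t : {t // M.cl t = k} => M.Til t) (fun t => M.Ac t ∩ M.A)
        (fun t => M.Ed t) (fun t => ENNReal.ofReal (M.β t)) (fun j => G (M.v j)) M.x M.v p a := by
    rw [← lintegral_indicator M.Am]
    refine lintegral_congr fun a => ?_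
    unfold MF.EnC EnA
    by_cases ha : a ∈ M.A
    · rw [indicator_of_mem ha]
      refine tsum_congr fun t => ?_
      by_cases hb : a ∈ M.Ac t
      · rw [indicator_of_mem hb, indicator_of_mem (show a ∈ M.Ac t ∩ M.A from ⟨hb, ha⟩)]
      · rw [indicator_of_notMem hb, indicator_of_notMem (fun h : a ∈ M.Ac t ∩ M.A => hb h.1)]
    · rw [indicator_of_notMem ha]
      symm
      rw [ENNReal.tsum_eq_zero]
      intro t
      exact indicator_of_notMem (fun h : a ∈ M.Ac t ∩ M.A => ha h.2) _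
  rw [e1]
  refine act_avg (μ := (volume : Measure E3)) (τ := {t // M.cl t = k})
    (fun t : {t // M.cl t = k} => (M.Acm t.1).inter M.Am) (fun t : {t // M.cl t = k} => M.Ed t)
    (fun t : {t // M.cl t = k} => hn t.1 t.2) M.x M.v
    (fun (t : {t // M.cl t = k}) j hj => (M.sub t.1 j hj).2) _ (fun j => hGm _)
    (c := fun j => ‖M.v j‖ₑ) ?_ hK (fun t j hj => hβ t.1 t.2 j hj) hR ?_ ?_ ?_ hp
  · filter_upwards [hGH] with y hy t j _
    exact hy _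
  · intro t y hy b hb
    exact hZR _ (hZ t.1 t.2 y hy b hb.1 hb.2)
  · exact ENNReal.mul_ne_top (ENNReal.natCast_ne_top N) measure_closedBall_lt_top.ne
  · intro z _
    exact Mu_fiber (μ := (volume : Measure E3)) (fun t : {t // M.cl t = k} => sc t.1)
      (fun t => hm t.1 t.2) (fun t t' hne h => hdis t.1 t'.1 t.2 t'.2
        (fun h' => hne (Subtype.ext h')) h) (fun t => hD t.1 t.2)
      (fun t w hw => hr w hw.2) (fun t y hy b hb => hZ t.1 t.2 y hy b hb.1 hb.2) hN z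

/-- the form of the hypothesis `hm` of `MF.sel` -/
theorem mean_le' (M : MF Om F J) {k : M.κ} {σ : Type*} (sc : M.τ → σ)
    (hm : ∀ t, M.cl t = k → MeasurableSet (M.Til t))
    (hdis : ∀ t t', M.cl t = k → M.cl t' = k → t ≠ t' → sc t = sc t' →
      AEDisjoint volume (M.Til t) (M.Til t')) {D r : ℝ}
    (hD : ∀ t, M.cl t = k → ∀ y ∈ M.Til t, ∀ y' ∈ M.Til t, dist y' y ≤ D)
    (hr : ∀ a ∈ M.A, ‖a‖ ≤ r) {Z : σ → Set E3} {R : Set E3} (hR : MeasurableSet R)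
    (hZR : ∀ s, Z s ⊆ R)
    (hZ : ∀ t, M.cl t = k → ∀ y ∈ M.Til t, ∀ b ∈ M.Ac t, b ∈ M.A → y + b ∈ Z (sc t)) {N : ℕ}
    (hN : ∀ z, {s | z ∈ Z s}.encard ≤ N)
    {G : E3 → E3 → ℝ≥0∞} (hGm : ∀ v, Measurable (G v)) {H : E3 → ℝ≥0∞}
    (hGH : ∀ᵐ y : E3, ∀ v, G v y ≤ ‖v‖ₑ * H y) {n : ℕ}
    (hn : ∀ t, M.cl t = k → (M.Ed t).card ≤ n) {K : ℝ≥0∞} (hK : K ≠ ∞)
    (hβ : ∀ t, M.cl t = k → ∀ j ∈ M.Ed t, ENNReal.ofReal (M.β t) * ‖M.v j‖ₑ ≤ K)
    {p : ℝ} (hp : 1 ≤ p) {CA : ℝ≥0∞}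
    (hCA : volume (closedBall (0:E3) (r + D)) ≤ CA * volume M.A) :
    ∫⁻ a in M.A, M.EnC G p k a ≤
      ((n * K) ^ p * N * CA * ∫⁻ z in R, H z ^ p) * volume M.A := by
  refine (mean_le M sc hm hdis hD hr hR hZR hZ hN hGm hGH hn hK hβ hp).trans ?_
  calc (n * K) ^ p * (N * volume (closedBall (0:E3) (r + D))) * ∫⁻ z in R, H z ^ p
      ≤ (n * K) ^ p * (N * (CA * volume M.A)) * ∫⁻ z in R, H z ^ p := by gcongr
    _ = _ := by ring

end

end Crest.Agent.R096.Mfo_222
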