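import Crest.Agent.R096.Mfa6_880
import Crest.Agent.R096.Bmd1_798

/-!
# Row 96 (S0127), instance of `MF` (helper324): the covering of the outer tiles BY NATURE (168 #11491)

`Is_of_plain`, `Is_of_wall` : from the potential forms of Mou2 to 880's `Is`;
**`cov_Qr`** : a tile of 798's `Qr` is a potential tile of `QPB`; **`cov_not_Qr`** : the other outer tiles are
potential tiles of `QW` (class `j`, scale `k j`).
-/

set_option autoImplicit false
set_option linter.unusedSectionVars false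

open MeasureTheory Set Filter Topology Metric
open scoped ENNReal

namespace Crest.Agent.R096.Mou_324

open Msh_715 Cut_874 Msh_810 Mal_874
open Crest.Agent.R096.SkC1_961 (E3 Cfg)
open Crest.Agent.R96.Wm_72 (Tw Aw Tw_tr mem_Aw measurableSet_Aw)
open Crest.Agent.R96.Pm_199 (sh)
open Crest.Agent.R096.Mfe_161 (PTn shf kk kk_mem' kk_countable)
open Crest.Agent.R096.Mfa_880 (PT)
open Crest.Agent.R096.Cnt_324 (HS Hfam countable_Hfam hs_mesh)
open Crest.Agent.R096.Bmd_798 (QrP Qr pot_of_Qr pot_of_not_Qr)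

section three

variable {J : Type} (M : MD E3 3 J) (k : J → ℕ) {W : J → Set E3} [Countable J]
  (Wc : ∀ j, (W j).Countable) (X : RD M) {r : ℝ} (hk : M.Sc k) {Bx : J → Set E3} {a : E3}
  {w : J → E3} (hB : ∀ j, a + w j ∈ Bx j) (hv : M.Adm fun j => a + w j) (ha : ‖a‖ ≤ r)
  (hw : ∀ j, w j ∈ W j)

include hw in
theorem hs_aw : HS (M.mesh hk (M.φ a) hv) a (Hfam M (⋃ j, W j)) := by
  have ea : M.φ.symm (M.φ a) = a := M.φ.symm_apply_apply a
  have h := hs_mesh (W := ⋃ j, W j) hk (M.φ a) hv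
    (fun j => ⟨w j, mem_iUnion.2 ⟨j, hw j⟩, by rw [ea]⟩)
  rw [ea] at h
  exact h

include hB ha hw in
/-- from the potential form of a plain cube to 880's `Is` -/
theorem Is_of_plain {i : M.OIx hk (M.φ a) hv ⊕ Σ j, M.IIx hk (M.φ a) hv j} {s : ℕ}
    {z : Fin 3 → ℤ}
    (h1 : P ((M.mesh hk (M.φ a) hv).H i) = (fun y => y + M.φ.symm (M.φ a)) '' Tw M.φ 0 s z)
    (h2 : IsM (outD M.D0 k M.W (M.φ a)) ⟨s, z, Finset.univ⟩)
    (h3 : ∀ j, Disjoint (P ((M.mesh hk (M.φ a) hv).H i)) (M.Bk (fun j => a + w j) j).N)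
    (h4 : (fun K => (frT M.φ (M.φ a) (s + 1) (fun m => 2 * z m)) '' K) ''
      cfg (M.mesh hk (M.φ a) hv) i ∈ simL (N0 3) 1 2) :
    (Mfa_880.QPB M k Wc r Bx).toPT.Is a w (M.mesh hk (M.φ a) hv) i (s, z) := by
  have ea : M.φ.symm (M.φ a) = a := M.φ.symm_apply_apply a
  rw [ea] at h1
  refine Mfe_161.PTn.Is.toPT (Q := Mfa_880.QPB M k Wc r Bx) (t := (s, z)) ⟨?_, h1, ?_, ?_⟩
  · refine ⟨mem_Aw (D' := outD M.D0 k M.W (M.φ a)) rfl rfl (by rw [zero_add]; rfl) ha h2, ?_⟩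
    intro y hy hn
    obtain ⟨j, hj⟩ := Mfa_880.NmB_sub M hB hn
    refine disjoint_left.1 (h3 j) ?_ hj
    rw [h1]
    exact mem_image_of_mem _ hy
  · intro e _
    exact kk_mem' hw (hs_aw M k hk hv hw) none e
  · have e : (fun K => frT M.φ (M.φ a) (s + 1) (fun m => 2 * z m) '' K) =
        fun K => (Mfa_880.QPB M k Wc r Bx).frr (s, z) '' shf (-a) K := by
      funext K
      exact (fr_image M.φ a (s + 1) _ K).symm
    rw [e] at h4
    exact h4

include ha in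
/-- from the potential form of a tile at the wall to 880's `Is` -/
theorem Is_of_wall {i : M.OIx hk (M.φ a) hv ⊕ Σ j, M.IIx hk (M.φ a) hv j} {j : J}
    {z : Fin 3 → ℤ} {S : Set (Fin 3 → ℝ)} (h1 : S ∈ ShW X j) (h2 : BS (X.c j) S)
    (h3 : P ((M.mesh hk (M.φ a) hv).H i) =
      (fun y => y + M.φ.symm (M.φ a)) '' Tq M.φ 0 (k j) z S)
    (h4 : NearW M j (w j) (2 + X.c j) (k j) (Tq M.φ 0 (k j) z S))
    (h5 : (fun K => (frT M.φ (M.φ a) (k j) z) '' K) '' cfg (M.mesh hk (M.φ a) hv) i ∈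
      simL (NR (X.A j) (X.d j)) (X.d j) (X.c j)) :
    (QW k Wc X r).toPT.Is a w (M.mesh hk (M.φ a) hv) i ⟨j, ⟨w j, hw j⟩, z, S, h1, h2⟩ := by
  have ea : M.φ.symm (M.φ a) = a := M.φ.symm_apply_apply a
  rw [ea] at h3
  refine Mfe_161.PTn.Is.toPT (Q := QW k Wc X r) (t := ⟨j, ⟨w j, hw j⟩, z, S, h1, h2⟩)
    ⟨?_, h3, ?_, ?_⟩
  · refine ⟨⟨ha, hv j, h4⟩, ?_⟩
    intro y hy
    have h6 := (M.mesh hk (M.φ a) hv).sub i
    exact h6 (by rw [h3]; exact mem_image_of_mem _ hy)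
  · intro e _
    exact kk_mem' hw (hs_aw M k hk hv hw) none e
  · have e : (fun K => frT M.φ (M.φ a) (k j) z '' K) =
        fun K => (QW k Wc X r).frr ⟨j, ⟨w j, hw j⟩, z, S, h1, h2⟩ '' shf (-a) K := by
      funext K
      exact (fr_image M.φ a (k j) _ K).symm
    rw [e] at h5
    exact h5

include hB ha hw in
/-- **a tile of `Qr` is a potential tile of the plain class** (scale and position of the parent) -/
theorem cov_Qr {p : M.OIx hk (M.φ a) hv} (h : QrP M hk (M.φ a) hv p) :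
    (Mfa_880.QPB M k Wc r Bx).toPT.Is a w (M.mesh hk (M.φ a) hv) (Sum.inl p)
      (p.1.par.1.1.k, p.1.par.1.1.z) := by
  obtain ⟨h1, h2, h3, h4⟩ := pot_of_Qr h
  exact Is_of_plain M k Wc hk hB hv ha hw h1 h2 h3 h4

include ha in
/-- **an outer tile which is not in `Qr` is a potential tile of a wall class** -/
theorem cov_not_Qr (RPx : RP X (M.φ a) (fun j => a + w j) k) {p : M.OIx hk (M.φ a) hv}
    (h : ¬ QrP M hk (M.φ a) hv p) :
    ∃ (j : J) (z : Fin 3 → ℤ) (S : SJ X j), p.1.par.1.1.k = k j ∧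
      (∃ y ∈ frontier (M.Bk (fun j => a + w j) j).N, ∀ x ∈ P ((M.mesh hk (M.φ a) hv).H (Sum.inl p)),
        dist (M.φ x) (M.φ y) ≤ (2 + X.c j) / 2 ^ k j) ∧
      (QW k Wc X r).toPT.Is a w (M.mesh hk (M.φ a) hv) (Sum.inl p) ⟨j, ⟨w j, hw j⟩, z, S⟩ := by
  have ea : M.φ.symm (M.φ a) = a := M.φ.symm_apply_apply a
  obtain ⟨j, z, S, h0, h1, h2, h3, h4, h5⟩ := pot_of_not_Qr X RPx (w := w) (fun j => by rw [ea]) h
  refine ⟨j, z, ⟨S, h1, h2⟩, h0, ?_, Is_of_wall M k Wc X hk hv ha hw h1 h2 h3 h4 h5⟩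
  obtain ⟨y, hy, hyd⟩ := h4
  refine ⟨y + a, ?_, ?_⟩
  · refine ((M.Q j).frontier_N_tr _).2 ?_
    have e : y + a - (a + w j) = y - w j := by abel
    rw [e]
    exact hy
  · intro x hx
    rw [h3, ea] at hx
    obtain ⟨x', hx', rfl⟩ := hx
    have e : dist (M.φ (x' + a)) (M.φ (y + a)) = dist (M.φ x') (M.φ y) := by
      rw [dist_eq_norm, dist_eq_norm, ← map_sub, ← map_sub]
      congr 2
      abel
    show dist (M.φ (x' + a)) (M.φ (y + a)) ≤ _
    rw [e]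
    exact hyd x' hx'

end three

end Crest.Agent.R096.Mou_324
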