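import Crest.Agent.R096.Mfa4_880
import Crest.Agent.R096.Mou6_324
import Crest.Agent.R096.Bls2_168

/-!
# Row 96 (S0127), helper168: the instance of `MF` with classes BY THE NATURE of the tiles
(962 #11558 (M2), 168 #11491)

`Ins.mfs` : as 880's `Ins.mf` (same data, same energies of the classes), but the class of an outer tile
is `kO` iff it is in `Qr` (798), else `kOw j` with 874's `Good` at the wall `j`; the class of an inner
tile is `kIw j` iff it meets the wall, else some `kI j c`.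
-/

set_option autoImplicit false
set_option linter.unusedSectionVars false
set_option linter.style.longLine false

open MeasureTheory Set Filter Metric
open scoped Topology ENNReal

namespace Crest.Agent.R096.Mfs_168

open Crest.Agent.R096.Msh_715 Crest.Agent.R096.Msh_810 Crest.Agent.R096.Cut_874
  Crest.Agent.R096.Mal_874
open Crest.Agent.R096.SkC1_961 (E3 Cfg)
open Crest.Agent.R096.Ls_222 (Edg ea eIn mem_eIn)
open Crest.Agent.R96.Sg1_199 (li sgm)
open Crest.Agent.R96.Pm_199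
open Crest.Agent.R096.Cnt_324 (Hfam Eix Cod ex countable_Hfam)
open Crest.Agent.R096.Mfa_880
open Crest.Agent.R096.Bmd_798 (TI QrP Qr good_of_not_Qr)
open Crest.Agent.R096.Mou_324 (cov_Qr Is_of_wall wall_pot)

noncomputable section

section All

variable {J : Type} (M : MD E3 3 J) (D : RD M) (k : J → ℕ) {W : J → Set E3}
  (Wc : ∀ j, (W j).Countable) (k0 : J → ℕ) (hk0 : ∀ j, (M.Q j).kc ≤ k0 j) (r : ℝ)
  (Bx : J → Set E3) [Countable J]

/-- **the class `c` is the natural class of the tile `i`** -/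
def natc (hk : M.Sc k) {a : Fin 3 → ℝ} {v : J → E3} (hv : M.Adm v) (i : TI M hk a hv)
    (c : (Qall M D k Wc k0 hk0 r Bx).κ) : Prop :=
  match i, c with
  | Sum.inl p, Sum.inl (Sum.inl _) => QrP M hk a hv p
  | Sum.inl p, Sum.inl (Sum.inr j) => ¬ QrP M hk a hv p ∧ p.1.par.1.1.k = k j ∧
      Good (M.mesh hk a hv) (Sum.inl p) (chi M.φ a (k j)) (k j) (NR (D.A j) (D.d j)) (D.d j) (D.c j)
  | Sum.inr q, Sum.inr (Sum.inl c) => c.1 = q.1 ∧
      Disjoint (Msh_715.P ((M.mesh hk a hv).H (Sum.inr q))) (frontier (M.Bk v q.1).N)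
  | Sum.inr q, Sum.inr (Sum.inr c) => c.1 = q.1 ∧
      (Msh_715.P ((M.mesh hk a hv).H (Sum.inr q)) ∩ frontier (M.Bk v q.1).N).Nonempty
  | _, _ => False

variable {M D k k0 r Bx}

/-- **all ordinary tiles of the aligned mesh are potential tiles of their natural class** -/
theorem cov_nat (hk : M.Sc k) (hkk : ∀ j, k0 j ≤ k j) (H : RW D k W) {a : E3} {w : J → E3}
    (hv : M.Adm fun j => a + w j) (hB : ∀ j, a + w j ∈ Bx j) (ha : ‖a‖ ≤ r) (hw : ∀ j, w j ∈ W j)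
    (i : M.OIx hk (M.φ a) hv ⊕ Σ j, M.IIx hk (M.φ a) hv j)
    (hi : ∀ j, i ≠ Sum.inr ⟨j, M.core hk (M.φ a) hv j⟩) :
    ∃ t, (Qall M D k Wc k0 hk0 r Bx).Is a w (M.mesh hk (M.φ a) hv) i t ∧
      natc M D k Wc k0 hk0 r Bx hk hv i ((Qall M D k Wc k0 hk0 r Bx).cl t) := by
  rcases i with p | ⟨j, i⟩
  · by_cases hp : QrP M hk (M.φ a) hv p
    · exact ⟨Sum.inl (Sum.inl _), (cov_Qr M k Wc hk hB hv ha hw hp).inl.inl, hp⟩
    · have ea : M.φ.symm (M.φ a) = a := M.φ.symm_apply_apply a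
      obtain ⟨j, h1, ⟨y, hy, hyd⟩, h3⟩ := good_of_not_Qr D (H.rp a hw) hp
      obtain ⟨z, S, h4, h5, h6, h7, h8⟩ := wall_pot M hk (M.φ a) hv D (w := w j)
        (by rw [ea] : (fun j => a + w j) j = M.φ.symm (M.φ a) + w j) h3
        ⟨y, hy, fun x hx => (hyd x hx).trans (by
          have := D.c1 j
          exact div_le_div_of_nonneg_right (by linarith) (by positivity))⟩
      exact ⟨Sum.inl (Sum.inr _), (Is_of_wall M k Wc D hk hv ha hw h4 h5 h6 h7 h8).inr.inl,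
        hp, h1, h3⟩
  · have hcore : i ≠ M.core hk (M.φ a) hv j := by
      rintro rfl
      exact hi j rfl
    by_cases h : (P ((M.mesh hk (M.φ a) hv).H (Sum.inr ⟨j, i⟩)) ∩
        frontier (M.Bk (fun j => a + w j) j).N).Nonempty
    · have h1 := Mfi_290.cov_QW M hk a (fun j => (⟨w j, hw j⟩ : W j)) hv D (H.rp a hw) Wc h
      obtain ⟨t, ht⟩ := Uni_663.cov_toPT _ h1
      exact ⟨Sum.inr (Sum.inr ⟨j, t⟩), (ht.sg (Q := QUw M D k Wc)).inr.inr, rfl, h⟩
    · have h1 : (Mfi_290.QI M D j (k0 j) (hk0 j)).Cov a w (M.mesh hk (M.φ a) hv)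
          (Sum.inr ⟨j, i⟩) :=
        ⟨_, Mfi_290.is_QI M hk a (fun j => (⟨w j, hw j⟩ : W j)) hv D (H.rp a hw) (hk0 j) (hkk j)
          hcore h⟩
      obtain ⟨t, ht⟩ := Uni_663.cov_toPT _ h1
      exact ⟨Sum.inr (Sum.inl ⟨j, t⟩), (ht.sg (Q := QU M D k0 hk0)).inl.inr, rfl,
        Set.disjoint_iff_inter_eq_empty.2 (Set.not_nonempty_iff_eq_empty.1 h)⟩

end All

/-! ### the record -/

section ins

variable {F : Type} {X : Set F} (I : Ins F X)

/-- **THE INSTANCE OF `MF` WITH CLASSES BY NATURE** (all fields except `pot` and the frames are those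
of `I.mf`) -/
def mfs : MF I.Om F X :=
  letI := I.cX
  toMFG (famB I.M I.hk I.hOm I.A I.Am I.A0 I.A1 I.W I.Wc I.Bx I.hBx I.deco)
    (Qall I.M I.D I.k I.Wc I.k0 I.hk0 I.r I.Bx)
    (fun a w h i t => natc I.M I.D I.k I.Wc I.k0 I.hk0 I.r I.Bx I.hk (a := I.M.φ a)
      (adm_of I.M fun j => I.hBx j (h.2 j).2) i ((Qall I.M I.D I.k I.Wc I.k0 I.hk0 I.r I.Bx).cl t))
    (fun a w h i hi => cov_nat I.Wc I.hk0 I.hk I.hkk I.H (adm_of I.M fun j => I.hBx j (h.2 j).2)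
      (fun j => (h.2 j).2) (I.hAr a h.1) (fun j => (h.2 j).1) i (Deco.ord.1 hi))
    (η₀ := Eix (Hfam I.M (⋃ j, I.W j)))
    (by
      have h1 : (⋃ j, I.W j).Countable := countable_iUnion I.Wc
      have : Countable (Hfam I.M (⋃ j, I.W j)) := (countable_Hfam I.M h1).to_subtype
      infer_instance)
    (fun _ => none) ex Cnt_324.ev
    (fun a w h e => edge_famMD I.M I.hk (adm_of I.M fun j => I.hBx j (h.2 j).2)
      (fun j => (h.2 j).1) e)

theorem mfs_A : (mfs I).A = I.mf.A := rfl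
theorem mfs_W : (mfs I).W = I.mf.W := rfl
theorem mfs_Bx : (mfs I).Bx = I.mf.Bx := rfl
theorem mfs_κ : (mfs I).κ = I.mf.κ := rfl
theorem mfs_Ok {a : E3} {w : X → E3} : (mfs I).Ok a w ↔ I.mf.Ok a w := Iff.rfl
theorem mfs_bl (c : I.mf.κ) : (mfs I).bl c = I.mf.bl c := rfl
theorem mfs_Sh (c : I.mf.κ) : (mfs I).Sh c = I.mf.Sh c := rfl

/-- the potential energies of the classes are those of `I.mf` -/
theorem mfs_EnC (G : E3 → E3 → ℝ≥0∞) (p : ℝ) (c : I.mf.κ) (s : E3) :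
    (mfs I).EnC G p c s = I.mf.EnC G p c s := rfl

/-- the decorated mesh is that of `I.mf` up to the frames of the tiles -/
theorem mfs_md {a : E3} {w : X → E3} (h : I.mf.Ok a w) :
    (mfs I).md a w h = { I.mf.md a w h with fr := ((mfs I).md a w h).fr } := rfl

theorem mfs_T {a : E3} {w : X → E3} (h : I.mf.Ok a w) :
    ((mfs I).md a w h).T = I.M.mesh I.hk (I.M.φ a) (Ins.adm h) := rfl

theorem mfs_ct {a : E3} {w : X → E3} (h : I.mf.Ok a w) {c : F} (hc : c ∈ X) :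
    ((mfs I).md a w h).ct c = I.core h ⟨c, hc⟩ := I.mf_ct h hc

theorem mfs_J0 {a : E3} {w : X → E3} (h : I.mf.Ok a w) {c : F} (hc : c ∈ X) :
    ((mfs I).md a w h).J0 c = {((mfs I).md a w h).ct c} := I.mf_J0 h hc

theorem mfs_J {a : E3} {w : X → E3} (h : I.mf.Ok a w) {c : F} (hc : c ∈ X) :
    ((mfs I).md a w h).J c = {((mfs I).md a w h).ct c} := I.mf_J h hc

theorem mfs_V {a : E3} {w : X → E3} (h : I.mf.Ok a w) {c : F} (hc : c ∈ X) :
    ((mfs I).md a w h).V c = {((mfs I).md a w h).ct c} := I.mf_V h hc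

theorem mfs_P_ct {a : E3} {w : X → E3} (h : I.mf.Ok a w) {c : F} (hc : c ∈ X) :
    P (((mfs I).md a w h).T.H (((mfs I).md a w h).ct c)) =
      (I.M.Bk (fun j => a + w j) ⟨c, hc⟩).Kc := I.P_ct h hc

theorem mfs_deco {a : E3} {w : X → E3} (h : I.mf.Ok a w) :
    ((mfs I).md a w h).A = (I.deco a w).A ∧ ((mfs I).md a w h).lam = (I.deco a w).lam ∧
    ((mfs I).md a w h).z = (I.deco a w).z ∧ ((mfs I).md a w h).θ = (I.deco a w).θ ∧
    ((mfs I).md a w h).φ = (I.deco a w).φ ∧ ((mfs I).md a w h).M = (I.deco a w).M :=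
  I.mf_deco h

theorem mfs_hs {a : E3} {w : X → E3} (h : I.mf.Ok a w) :
    Cnt_324.HS ((mfs I).md a w h).T a (Hfam I.M (⋃ j, I.W j)) := I.mf_hs h

theorem mfs_ord {a : E3} {w : X → E3} (h : I.mf.Ok a w) {i : (I.mf.md a w h).ι} :
    ((mfs I).md a w h).Ord i ↔ ∀ c, i ≠ I.core h c := I.ord_iff h

/-! ### the classes of the tiles -/

/-- the class of an ordinary tile is its natural class -/
theorem cl_nat {a : E3} {w : X → E3} (h : I.mf.Ok a w) {i : (I.mf.md a w h).ι}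
    (hi : ((mfs I).md a w h).Ord i) :
    letI := I.cX
    ∃ c : (Qall I.M I.D I.k I.Wc I.k0 I.hk0 I.r I.Bx).κ,
      (mfs I).cl ((mfs I).pot a w h i) = (some c : I.mf.κ) ∧
      natc I.M I.D I.k I.Wc I.k0 I.hk0 I.r I.Bx I.hk (a := I.M.φ a) (Ins.adm h) i c := by
  have := I.cX
  obtain ⟨t, h1, -, h2, -⟩ := potG_spec
    (M := famB I.M I.hk I.hOm I.A I.Am I.A0 I.A1 I.W I.Wc I.Bx I.hBx I.deco)
    (Q := Qall I.M I.D I.k I.Wc I.k0 I.hk0 I.r I.Bx)
    (G := fun a w h i t => natc I.M I.D I.k I.Wc I.k0 I.hk0 I.r I.Bx I.hk (a := I.M.φ a)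
      (adm_of I.M fun j => I.hBx j (h.2 j).2) i ((Qall I.M I.D I.k I.Wc I.k0 I.hk0 I.r I.Bx).cl t))
    (fun a w h i hi => cov_nat I.Wc I.hk0 I.hk I.hkk I.H (adm_of I.M fun j => I.hBx j (h.2 j).2)
      (fun j => (h.2 j).2) (I.hAr a h.1) (fun j => (h.2 j).1) i (Deco.ord.1 hi))
    (h := h) (i := i) hi
  exact ⟨(Qall I.M I.D I.k I.Wc I.k0 I.hk0 I.r I.Bx).cl t, congrArg (mfs I).cl h1, h2⟩

/-- **the class of a tile of `Qr` is `kO`** -/
theorem cl_Qr {a : E3} {w : X → E3} (h : I.mf.Ok a w) {p : I.M.OIx I.hk (I.M.φ a) (Ins.adm h)}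
    (hp : QrP I.M I.hk (I.M.φ a) (Ins.adm h) p) :
    (mfs I).cl ((mfs I).pot a w h (Sum.inl p)) = I.kO := by
  have := I.cX
  obtain ⟨c, h1, h2⟩ := cl_nat I h (i := Sum.inl p) ((I.ord_iff h).2 fun c hc => by cases hc)
  rw [h1]
  rcases c with (⟨⟩ | j) | (c | c)
  · rfl
  · exact absurd hp h2.1
  · exact h2.elim
  · exact h2.elim

/-- **the class of an outer tile which is not in `Qr` is a class of a wall** -/
theorem cl_not_Qr {a : E3} {w : X → E3} (h : I.mf.Ok a w) {p : I.M.OIx I.hk (I.M.φ a) (Ins.adm h)}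
    (hp : ¬ QrP I.M I.hk (I.M.φ a) (Ins.adm h) p) :
    ∃ j, (mfs I).cl ((mfs I).pot a w h (Sum.inl p)) = I.kOw j ∧ p.1.par.1.1.k = I.k j ∧
      Good (I.M.mesh I.hk (I.M.φ a) (Ins.adm h)) (Sum.inl p) (chi I.M.φ (I.M.φ a) (I.k j)) (I.k j)
        (NR (I.D.A j) (I.D.d j)) (I.D.d j) (I.D.c j) := by
  have := I.cX
  obtain ⟨c, h1, h2⟩ := cl_nat I h (i := Sum.inl p) ((I.ord_iff h).2 fun c hc => by cases hc)
  rw [h1]
  rcases c with (⟨⟩ | j) | (c | c)
  · exact absurd h2 hp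
  · exact ⟨j, rfl, h2.2⟩
  · exact h2.elim
  · exact h2.elim

theorem ord_inner {a : E3} {w : X → E3} (h : I.mf.Ok a w) {j : X}
    {i : I.M.IIx I.hk (I.M.φ a) (Ins.adm h) j} (hij : i ≠ I.M.core I.hk (I.M.φ a) (Ins.adm h) j) :
    (I.mf.md a w h).Ord (Sum.inr ⟨j, i⟩) := (I.ord_iff h).2 fun c hc => by
  obtain ⟨rfl, h2⟩ := Sigma.mk.inj_iff.1 (Sum.inr_injective hc)
  exact hij (eq_of_heq h2)

/-- **the class of an inner tile off the wall** -/
theorem cl_in {a : E3} {w : X → E3} (h : I.mf.Ok a w) {j : X}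
    {i : I.M.IIx I.hk (I.M.φ a) (Ins.adm h) j} (hij : i ≠ I.M.core I.hk (I.M.φ a) (Ins.adm h) j)
    (hd : Disjoint (P ((I.M.mesh I.hk (I.M.φ a) (Ins.adm h)).H (Sum.inr ⟨j, i⟩)))
      (frontier (I.M.Bk (fun j => a + w j) j).N)) :
    ∃ c, (mfs I).cl ((mfs I).pot a w h (Sum.inr ⟨j, i⟩)) = I.kI j c := by
  have := I.cX
  obtain ⟨c, h1, h2⟩ := cl_nat I h (i := Sum.inr ⟨j, i⟩) (ord_inner I h hij)
  rw [h1]
  rcases c with o | (⟨j', c⟩ | ⟨j', ⟨⟩⟩)
  · exact h2.elim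
  · obtain ⟨rfl : j' = j, -⟩ := h2
    exact ⟨c, rfl⟩
  · exact absurd hd (Set.not_disjoint_iff_nonempty_inter.2 h2.2)

/-- **the class of an inner tile at the wall** -/
theorem cl_inw {a : E3} {w : X → E3} (h : I.mf.Ok a w) {j : X}
    {i : I.M.IIx I.hk (I.M.φ a) (Ins.adm h) j} (hij : i ≠ I.M.core I.hk (I.M.φ a) (Ins.adm h) j)
    (hd : (P ((I.M.mesh I.hk (I.M.φ a) (Ins.adm h)).H (Sum.inr ⟨j, i⟩)) ∩
      frontier (I.M.Bk (fun j => a + w j) j).N).Nonempty) :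
    (mfs I).cl ((mfs I).pot a w h (Sum.inr ⟨j, i⟩)) = I.kIw j := by
  have := I.cX
  obtain ⟨c, h1, h2⟩ := cl_nat I h (i := Sum.inr ⟨j, i⟩) (ord_inner I h hij)
  rw [h1]
  rcases c with o | (⟨j', c⟩ | ⟨j', ⟨⟩⟩)
  · exact h2.elim
  · exact absurd h2.2 (Set.not_disjoint_iff_nonempty_inter.2 hd)
  · obtain ⟨rfl : j' = j, -⟩ := h2
    rfl

/-- **the ordinary tiles which are not in `Qr` are not in the class `kO`** -/
theorem cl_ne_kO {a : E3} {w : X → E3} (h : I.mf.Ok a w) {i : (I.mf.md a w h).ι}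
    (hi : ((mfs I).md a w h).Ord i)
    (hQ : i ∉ Qr I.M I.hk (I.M.φ a) (Ins.adm h)) :
    (mfs I).cl ((mfs I).pot a w h i) ≠ I.kO := by
  rcases i with p | ⟨j, i⟩
  · obtain ⟨j, h1, -⟩ := cl_not_Qr I h (p := p) fun hp => hQ ⟨p, rfl, hp⟩
    rw [h1]
    intro h2
    have h3 := Option.some_injective _ h2
    exact absurd (Sum.inl_injective h3) (by simp)
  · have hij : i ≠ I.M.core I.hk (I.M.φ a) (Ins.adm h) j := by
      rintro rfl
      exact (mfs_ord I h).1 hi j rfl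
    by_cases hd : (P ((I.M.mesh I.hk (I.M.φ a) (Ins.adm h)).H (Sum.inr ⟨j, i⟩)) ∩
        frontier (I.M.Bk (fun j => a + w j) j).N).Nonempty
    · rw [cl_inw I h hij hd]
      intro h2
      have h3 := Option.some_injective _ h2
      cases h3
    · obtain ⟨c, hc⟩ := cl_in I h hij
        (Set.disjoint_iff_inter_eq_empty.2 (Set.not_nonempty_iff_eq_empty.1 hd))
      rw [hc]
      intro h2
      have h3 := Option.some_injective _ h2
      cases h3

end ins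

end

end Crest.Agent.R096.Mfs_168
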