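import Crest.Agent.R096.Arc13_778
import Crest.Agent.R096.Arc9_778

/-!
# R096 (row 96), MESH-INST, part 1 (helper117): from the tracked data of the recursion (`Trk` on all
cells) to all inputs of the cell geometry: `Geo`, `GeoR`, order on the edges, `Chords`, `Bls`,
`TileG`, `BG`, `R2`
-/

set_option autoImplicit false
set_option linter.unusedSectionVars false

open Set Metric

namespace Crest.Agent.R096.Mi_117

open Crest.Agent.R096.Ce_537 Crest.Agent.R096.Bd_416 Crest.Agent.R096.Arc_778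

/-! ### signs are enough -/

section congr

variable {E I : Type*} {K S : Set E} {c c' : I → E → ℝ}

lemma zer_congr (hs : ∀ i, ∀ z ∈ K, SignType.sign (c' i z) = SignType.sign (c i z)) (x : I) :
    Zer K c' x = Zer K c x := by
  ext z
  refine and_congr_right fun hz => ?_
  rw [← sign_eq_zero_iff, hs x z hz, sign_eq_zero_iff]

lemma gam_congr (hs : ∀ i, ∀ z ∈ S, SignType.sign (c' i z) = SignType.sign (c i z)) (x : I) :
    Gam S c' x = Gam S c x := zer_congr hs x

lemma _root_.Crest.Agent.R096.Arc_778.EdgeG.congr (h : EdgeG K c)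
    (hs : ∀ i, ∀ z ∈ K, SignType.sign (c' i z) = SignType.sign (c i z)) : EdgeG K c' where
  pt x := by rw [zer_congr hs]; exact h.pt x
  dis x x' hne := by rw [zer_congr hs, zer_congr hs]; exact h.dis x x' hne

lemma edgeO_congr {k : I → ℕ} (h : EdgeO K c k)
    (hs : ∀ i, ∀ z ∈ K, SignType.sign (c' i z) = SignType.sign (c i z)) : EdgeO K c' k := by
  intro u u₀ z hz
  rw [zer_congr hs] at hz
  obtain ⟨h1, h2⟩ := h u u₀ z hz
  refine ⟨fun hk => ?_, fun hk => ?_⟩
  · rw [← sign_eq_one_iff, hs u z hz.1, sign_eq_one_iff]; exact h1 hk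
  · rw [← sign_eq_neg_one_iff, hs u z hz.1, sign_eq_neg_one_iff]; exact h2 hk

end congr

section chords

variable {E I : Type*} [NormedAddCommGroup E] [NormedSpace ℝ E] {K S : Set E} {c c' : I → E → ℝ}

lemma chords_congr (h : Chords K S c) (hSK : S ⊆ K)
    (hs : ∀ i, ∀ z ∈ K, SignType.sign (c' i z) = SignType.sign (c i z)) : Chords K S c' where
  ball x := by
    rw [zer_congr hs, gam_congr fun i z hz => hs i z (hSK hz)]; exact h.ball x
  cross x x' hne h1 h2 := by
    rw [zer_congr hs, zer_congr hs]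
    rw [gam_congr fun i z hz => hs i z (hSK hz)] at h1 h2
    refine h.cross x x' hne ?_ ?_
    · obtain ⟨ω, hω, h3⟩ := h1
      refine ⟨ω, hω, ?_⟩
      rw [← sign_eq_one_iff, ← hs x ω (hSK hω.1), sign_eq_one_iff]; exact h3
    · obtain ⟨ω, hω, h3⟩ := h2
      refine ⟨ω, hω, ?_⟩
      rw [← sign_eq_neg_one_iff, ← hs x ω (hSK hω.1), sign_eq_neg_one_iff]; exact h3
  none x x' hne h1 := by
    rw [zer_congr hs, zer_congr hs]
    rw [gam_congr fun i z hz => hs i z (hSK hz)] at h1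
    refine h.none x x' hne ?_
    rcases h1 with h1 | h1
    · left
      intro ω hω
      rw [← sign_eq_one_iff, ← hs x ω (hSK hω.1), sign_eq_one_iff]; exact h1 ω hω
    · right
      intro ω hω
      rw [← sign_eq_neg_one_iff, ← hs x ω (hSK hω.1), sign_eq_neg_one_iff]; exact h1 ω hω

end chords

/-! ### the given part -/

section trk

open scoped Classical

variable {Q : Type} [PartialOrder Q] {dim : Q → ℕ} {J Fam : Type}
variable {E : Type*} [NormedAddCommGroup E] [NormedSpace ℝ E]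
variable {C : Cmb Q dim J Fam} {K : Q → Set E} {Ω : Set E}
variable {Y : Type*} [PseudoMetricSpace Y] {R : Set Q} {g0 g : Gd E J}
    {P0 P : ∀ q, C.I q → Set E} {c0 c : ∀ q, C.I q → E → ℝ} {b : ℕ → ℝ}
    {Spec : ∀ q, Lam (K q) (C.I q) → Prop} {Fr : Q → Set (E → Y)} {wt : J → ℝ}
    {Λ : ℕ → Q → (E → Y) → ℝ} {n : ℕ}

/-- on the given part the sign of `c` is the sign of `c0` -/
lemma sign_cR (hb0 : ∀ n, 0 < b n) {q : Q} (hq : q ∈ R)
    (hT : Trk C K R g0 P0 c0 b Spec Fr wt Λ n q g (P q) (c q)) (x : C.I q) {z : E} (hz : z ∈ K q) :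
    SignType.sign (c q x z) = SignType.sign (c0 q x z) := by
  rw [hT.cR hq x z hz]
  have h0 := bet_pos hb0 n
  have h1 := sign_cl (b := bet b n / 2) (by linarith) (c0 q x z)
  rwa [show 2 * (bet b n / 2) = bet b n by ring] at h1

/-- `GeoR` for the final structure -/
theorem geoR_of_trk (X : Cplx Ω Q dim K) (hb0 : ∀ n, 0 < b n)
    (hT : ∀ q ∈ R, Trk C K R g0 P0 c0 b Spec Fr wt Λ n q g (P q) (c q))
    (G : GeoR C K c0 R) : GeoR C K c R where
  edge q hq hd := (G.edge q hq hd).congr fun x z hz => sign_cR hb0 hq (hT q hq) x hz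
  face q hq hd := chords_congr (G.face q hq hd) (bdS_sub X)
    fun x z hz => sign_cR hb0 hq (hT q hq) x hz
  cell q hq hd x := by
    rw [zer_congr fun x z hz => sign_cR hb0 hq (hT q hq) x hz,
      gam_congr fun x z hz => sign_cR hb0 hq (hT q hq) x (bdS_sub X hz)]
    exact G.cell q hq hd x

end trk

/-! ### everything for the `cmb` of a labelled mesh -/

section lm

open Crest.Agent.R096.St_147 Crest.Agent.R096.Seq_213 Crest.Agent.R096.Lm_117
open Crest.Agent.R096.Shp_334 (Bls)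
open Crest.Agent.R096.Cb_609 Crest.Agent.R096.Pl

variable {ι Φ W Q J Fm : Type} {M : MeshC ι Φ W} [PartialOrder Q] {dim : Q → ℕ}
variable {L : LM M Q dim} {fam : J → Fm} {s : GSt M fam}
variable {E : Type*} [NormedAddCommGroup E] [NormedSpace ℝ E] [FiniteDimensional ℝ E]
variable {h : LF L s} {Lam : J → Q → ZMod 2} {hLam : ∀ j c, L.toSk.XL (gP s j) (Lam j) c}
variable {K : Q → Set E} {Ω : Set E} {R : Set Q} {g0 g : Gd E J}
  {P0 P : ∀ q, (cmb h Lam hLam).I q → Set E} {c0 c : ∀ q, (cmb h Lam hLam).I q → E → ℝ}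

/-- **all facts of the cell geometry** for the final structure `g, P, c` over a labelled mesh -/
structure MGeo (h : LF L s) (Lam : J → Q → ZMod 2) (hLam : ∀ j c, L.toSk.XL (gP s j) (Lam j) c)
    (K : Q → Set E) (R : Set Q) (c : ∀ q, (cmb h Lam hLam).I q → E → ℝ) : Prop where
  geo : Geo (cmb h Lam hLam) K c R (ek h)
  geoR : GeoR (cmb h Lam hLam) K c R
  cmbG : CmbG (cmb h Lam hLam) R (ek h)
  edge : ∀ e, dim e = 1 → EdgeG (K e) (c e) ∧ EdgeO (K e) (c e) (ek h e)
  chords : ∀ q, dim q = 2 → Chords (K q) (bdS K q) (c q)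
  circle : ∀ q, dim q = 3 → ∀ x, Nonempty (PLEquiv (S1 ℝ) (Gam (bdS K q) (c q) x))
  disc : ∀ q, dim q = 3 → ∀ x, IsBall 2 (Zer (K q) (c q) x) (Gam (bdS K q) (c q) x)
  bls : ∀ j, Bls (cmb h Lam hLam) K c j
  tile : ∀ q, dim q = 3 → q ∉ R → ∃ rk : (cmb h Lam hLam).I q → ℕ, TileG (K q) (bdS K q) (c q) rk

/-- **the facts from the final `Inv` and the given part** -/
theorem mgeo (X : Cplx Ω Q dim K) (T : Top3 L) (H : Inv (cmb h Lam hLam) K univ g P c)
    (G : Geo (cmb h Lam hLam) K c R (ek h)) (GR : GeoR (cmb h Lam hLam) K c R)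
    (GO : ∀ e ∈ R, dim e = 1 → EdgeO (K e) (c e) (ek h e)) : MGeo h Lam hLam K R c := by
  have hC : CmbG (cmb h Lam hLam) R (ek h) :=
    cmbG_lm T h Lam hLam fun q _ hd => ek_inj h q hd
  exact ⟨G, GR, hC, edgeGO G GR hC (fun _ _ _ => rfl) GO,
    fun q hd => Arc_778.chords H X G GR hC q hd,
    fun q hd x => Arc_778.circle H X G GR hC q hd x,
    fun q hd x => Arc_778.disc H X G GR hC q hd x,
    fun j => Arc_778.bls H X G GR hC j,
    fun q hd hR => Arc_778.tileG H X G GR hC q hd hR⟩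

open scoped Classical in
/-- **the facts from the tracked data** -/
theorem mgeo_of_trk {Y : Type*} [PseudoMetricSpace Y] {b : ℕ → ℝ}
    {Spec : ∀ q, Bd_416.Lam (K q) ((cmb h Lam hLam).I q) → Prop} {Fr : Q → Set (E → Y)} {wt : J → ℝ}
    {Λ : ℕ → Q → (E → Y) → ℝ} {n : ℕ} (X : Cplx Ω Q dim K) (T : Top3 L)
    (H : Inv (cmb h Lam hLam) K univ g P c) (hb0 : ∀ n, 0 < b n)
    (hSp : ∀ q M, Spec q M → SpecG (cmb h Lam hLam) K (ek h) q M)
    (hT : ∀ q, Trk (cmb h Lam hLam) K R g0 P0 c0 b Spec Fr wt Λ n q g (P q) (c q))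
    (GR : GeoR (cmb h Lam hLam) K c0 R)
    (GO : ∀ e ∈ R, dim e = 1 → EdgeO (K e) (c0 e) (ek h e)) : MGeo h Lam hLam K R c :=
  mgeo X T H (Geo.of_trk hSp fun q _ => hT q) (geoR_of_trk X hb0 (fun q _ => hT q) GR)
    fun e he hd => edgeO_congr (GO e he hd) fun x _ hz => sign_cR hb0 he (hT e) x hz

end lm

end Crest.Agent.R096.Mi_117
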