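import Mathlib
import Crest.Agent.R096.Mmx2_662
import Crest.Agent.R096.Knm1_955
import Crest.Agent.R096.Lbb1_290
import Crest.Agent.R096.Mxs0_487

/-!
# R096 (row 96), helper487.  `mix_shape`: 662's mixed mesh with 199's numbers of the shapes

`mesh_mixA` with `u τ = uq`, `Λ n q B = Kn (K₀ q) 1 ε' b n * omB X C wt δ B q`, `K₀ : Q → ℝ`
monotone (112 #10580 (A)); the base and the rule of the designated cells `N` in the form of all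
frames (337 / 112), or in one frame (416's `hbaseD`, `LB_D`).
-/

set_option autoImplicit false
set_option linter.unusedSectionVars false

open Set Metric Filter Topology

namespace Crest.Agent.R096.Mxs_487

open Crest.Agent.R096.Ce_537 Crest.Agent.R096.Bd_416 Crest.Agent.R096.Mmx_662
open Crest.Agent.R96.Nu1_199 Crest.Agent.R96.Nu2_199 Crest.Agent.R96.Nu3_199
open Crest.Agent.R96.Nu4_199
open Crest.Agent.R96.Nu5_199 Crest.Agent.R96.Nu6_199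

open scoped Classical

noncomputable section

/-- `Kn` grows with the stage -/
theorem Kn_le_succ {K₀ A ε : ℝ} {b : ℕ → ℝ} (hK : 0 ≤ K₀) (hb0 : ∀ n, 0 < b n)
    (hb2 : ∀ n, b n < 1/2) (n : ℕ) : Kn K₀ A ε b n ≤ Kn K₀ A ε b (n + 1) := by
  rw [Kn_succ]
  refine le_max_of_le_left ?_
  have h1 := Kn_nonneg (A := A) (ε := ε) hK hb0 n
  have h2 := hb0 n
  have h3 := hb2 n
  rw [le_div_iff₀ (by linarith)]
  nlinarith

theorem le_Kn {K₀ A ε : ℝ} {b : ℕ → ℝ} (hK : 0 ≤ K₀) (hb0 : ∀ n, 0 < b n)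
    (hb2 : ∀ n, b n < 1/2) : ∀ n, K₀ ≤ Kn K₀ A ε b n
  | 0 => le_rfl
  | n + 1 => (le_Kn hK hb0 hb2 n).trans (Kn_le_succ hK hb0 hb2 n)

variable {E : Type*} [NormedAddCommGroup E] [NormedSpace ℝ E] [FiniteDimensional ℝ E]
variable {Q : Type} [PartialOrder Q] {dim : Q → ℕ} {J Fam : Type}
variable {C : Cmb Q dim J Fam} {K : Q → Set E} {Ω : Set E}
variable {R : Set Q} {K₀ : Q → ℝ} {ε : ℝ} {b : ℕ → ℝ} {wt : J → ℝ} {δ : Q → ℝ}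
variable {g0 : Gd E J} {P0 : ∀ q, C.I q → Set E} {c0 : ∀ q, C.I q → E → ℝ}

/-- the numbers of the mesh with a constant `K₀ q` of the base: `Kn (K₀ q) n * omB B q` -/
abbrev LamK (X : Cplx Ω Q dim K) (C : Cmb Q dim J Fam) (K₀ : Q → ℝ) (ε : ℝ) (b : ℕ → ℝ)
    (wt : J → ℝ) (δ : Q → ℝ) : ℕ → Q → (E → E) → ℝ :=
  fun n q B => Kn (K₀ q) 1 ε b n * omB X C wt δ B q

/-- **a bound in one frame (diameter `D` of the cell there) gives the bound in every frame**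
(416 #10682, 290) -/
theorem LB_D (X : Cplx Ω Q dim K) (hconv : ∀ τ, Convex ℝ (K τ))
    (hcpt : ∀ τ, IsCompact (K τ)) (hbd : ∀ τ, bdS K τ = K τ \ ri (K τ))
    (hw : ∀ j, 0 < wt j) (hδ : ∀ q, 0 < δ q) {q : Q} {A : E ≃ᵃ[ℝ] E} {L D k : ℝ} (hL : 0 ≤ L)
    (hD : ∀ y ∈ K q, ∀ z ∈ K q, dist (A y) (A z) ≤ D) (hLD : L * D ≤ k) (B : E ≃ᵃ[ℝ] E)
    {w : ℝ} (hwx : 0 < w) {c : E → ℝ} {z : E} (hz : z ∈ K q)
    (hA : LB A (L * (Wd C wt q + δ q) / w) c (K q) z) :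
    LB (B : E → E) (k * (AAc (dim q) (B '' K q) * (Wd C wt q + δ q)) / w) c (K q) z := by
  have hb : IsBall (dim q) (K q) (K q \ ri (K q)) := by
    rw [← hbd]; exact X.isBall q
  have hW : 0 ≤ Wd C wt q + δ q := by
    have h1 := Wd_nonneg (C := C) hw q
    have h2 := hδ q
    linarith
  have h1 := Lbb_290.LB.frame_D (hconv q) (hcpt q) hb.nonempty hb A B hD hz
    (div_nonneg (mul_nonneg hL hW) hwx.le) hA
  refine h1.mono ?_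
  rw [div_mul_eq_mul_div]
  refine div_le_div_of_nonneg_right ?_ hwx.le
  have h3 := AAc_pos (dim q) (B '' K q)
  have hD0 : 0 ≤ D := dist_nonneg.trans (hD z hz z hz)
  have h4 : 0 ≤ AAc (dim q) (B '' K q) * (Wd C wt q + δ q) := mul_nonneg h3.le hW
  have h5 : 0 ≤ L * D := mul_nonneg hL hD0
  calc L * (Wd C wt q + δ q) * (D / 2 * AAc (dim q) (B '' K q))
      = L * D / 2 * (AAc (dim q) (B '' K q) * (Wd C wt q + δ q)) := by ring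
    _ ≤ L * D * (AAc (dim q) (B '' K q) * (Wd C wt q + δ q)) :=
        mul_le_mul_of_nonneg_right (by linarith) h4
    _ ≤ k * (AAc (dim q) (B '' K q) * (Wd C wt q + δ q)) :=
        mul_le_mul_of_nonneg_right hLD h4

/-- **THE MIXED MESH, ALL FRAMES AT ONCE** (`e` from `exists_e` or `exists_eA`): `mesh_shape` with a
margin `δm` on the edges, a set `N` of designated cells, a class `Af` of charts of the edges and
`K₀ : Q → ℝ`.  `ε'` is the `ε` of the numbers, `1 - ε' ≤ (1 - δm) * (1 - ε)`. -/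
theorem mix_shape (X : Cplx Ω Q dim K)
    (hw : ∀ j, 0 < wt j) (hb0 : ∀ n, 0 < b n) (hb2 : ∀ n, b n < 1/2) (hε0 : 0 < ε) (hε1 : ε < 1)
    {δm : ℝ} (hδm : 0 ≤ δm) (hδm1 : δm < 1) {ε' : ℝ} (hε' : 1 - ε' ≤ (1 - δm) * (1 - ε))
    (hε'1 : ε' < 1) (hK : ∀ q, 0 ≤ K₀ q) (hKm : ∀ σ τ : Q, σ < τ → K₀ σ ≤ K₀ τ)
    (hδ : ∀ q, 0 < δ q)
    (hR : ∀ q ∈ R, ∀ p < q, p ∈ R) (H0 : Inv C K R g0 P0 c0)
    (hbase : ∀ q ∈ R, ∀ B : E ≃ᵃ[ℝ] E, ∀ x, ∀ z ∈ K q,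
      LB B (K₀ q * (AAc (dim q) (B '' K q) * (Wd C wt q + δ q)) / wt (C.col q x)) (c0 q x)
        (K q) z)
    (N : Set Q) (hN2 : ∀ τ ∈ N, 2 ≤ dim τ)
    (e : ∀ τ, 1 ≤ dim τ → PLEquiv (cube (dim τ)) (K τ))
    (he : ∀ τ, ∀ hd : 1 ≤ dim τ, (e τ hd).f '' sph (dim τ) = bdS K τ)
    (hef : ∀ τ, ∀ hd : 1 ≤ dim τ, ∀ B ∈ FrA E, ∀ v ∈ cube (dim τ),
      MB id B (AAc (dim τ) (B '' K τ)) (e τ hd).f (cube (dim τ)) v)
    (heg : ∀ τ, ∀ hd : 1 ≤ dim τ, ∀ B ∈ FrA E, ∀ z ∈ K τ,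
      MB B id (AAc (dim τ) (B '' K τ)) (e τ hd).g (K τ) z)
    (k : ∀ τ, C.I τ → ℕ) (hk : ∀ τ ∉ R, dim τ = 1 → Function.Injective (k τ))
    (ord : ∀ τ ∉ R, dim τ = 1 → ∀ x x', x ≠ x' → C.fam (C.col τ x) = C.fam (C.col τ x') →
      (k τ x' < k τ x → C.side τ x x' = 1) ∧ (k τ x < k τ x' → C.side τ x x' = 0))
    (Rl : (∀ q, C.I q → E → ℝ) → ∀ τ, C.I τ → C.I τ → Prop)
    (hRl : ∀ D g P c (_ : Inv C K D g P c), ∀ τ ∉ R, τ ∉ N → 2 ≤ dim τ → (∀ σ < τ, σ ∈ D) →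
      ∃ kk : C.I τ → ℕ, Function.Injective kk ∧ ∀ x x', Rl c τ x x' → kk x' < kk x)
    (hRI : ∀ c τ x x', Ins C K c τ x x' → Rl c τ x x')
    (Spec : ∀ q, Lam (K q) (C.I q) → Prop)
    (hS0 : ∀ τ ∉ R, dim τ = 0 → ∀ M, Spec τ M)
    (Af : ∀ (m : ℕ) (τ : Q), PLEquiv (cube m) (K τ) → Prop)
    (hAe : ∀ τ ∉ R, ∀ hd : dim τ = 1, Af (dim τ) τ (e τ hd.ge))
    (hAn : ∀ τ (e : PLEquiv (cube 1) (K τ)), Af 1 τ e → Af 1 τ (negE.trans e))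
    (hS1 : ∀ τ ∉ R, dim τ = 1 → ∀ (e : PLEquiv (cube 1) (K τ)), Af 1 τ e →
      e.f '' sph 1 = bdS K τ →
      e.f (fun _ => -1) ∈ K (C.o τ) → ∀ (p : C.I τ → ℝ)
      (hE : Ed (fun i => 4 * (1 - δm) * (1 - ε) * uq C wt δ τ * wt (C.col τ i)) p),
      (∀ i, |p i| + 4 * (1 - δm) * (1 - ε) * uq C wt δ τ * wt (C.col τ i) / 2 < 1 - δm) →
      (∀ i j, k τ j < k τ i → p j < p i) → Spec τ ((edgeLam hE).pull e.symm (X.isClosed τ)))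
    (hS2 : ∀ D g P c (H : Inv C K D g P c), ∀ τ, (hd : 2 ≤ dim τ) →
      (∀ q ∈ D, Trk C K R g0 P0 c0 b Spec (fun _ => FrA E) wt (LamK X C K₀ ε' b wt δ) (dim τ) q g
        (P q) (c q)) →
      ∀ (_ : τ ∉ R) (_ : τ ∉ N) (hτ : ∀ σ < τ, σ ∈ D) (κ : ℝ) (ρ : C.I τ → ℝ)
      (Dp : Dep (bdLam H X τ hτ) κ (b (dim τ)) (fun x => uq C wt δ τ * wt (C.col τ x)) ρ),
      (∀ x x', Rl c τ x x' → ρ x' < ρ x) →
      Spec τ (Dp.fillBall (e τ (by omega)) (he τ (by omega))))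
    (ruleN : ∀ D g P c (H : Inv C K D g P c), ∀ τ ∈ N,
      (∀ q ∈ D, Trk C K R g0 P0 c0 b Spec (fun _ => FrA E) wt (LamK X C K₀ ε' b wt δ) (dim τ) q g
        (P q) (c q)) →
      τ ∉ R → ∀ hτ : ∀ σ < τ, σ ∈ D,
      ∃ (e' : PLEquiv (cube (dim τ)) (K τ)) (he' : e'.f '' sph (dim τ) = bdS K τ)
        (κ : ℝ) (h ρ : C.I τ → ℝ) (Dp : Dep (bdLam H X τ hτ) κ (b (dim τ)) h ρ),
        (∀ x x', Rl c τ x x' → ρ x' < ρ x) ∧ Spec τ (Dp.fillBall e' he') ∧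
        ∀ B : E ≃ᵃ[ℝ] E, ∀ x, ∀ z ∈ K τ,
          LB B (K₀ τ * (AAc (dim τ) (B '' K τ) * (Wd C wt τ + δ τ)) / wt (C.col τ x))
            ((Dp.fillBall e' he').c x) (K τ) z)
    (n : ℕ) : ∃ g P c, Inv C K (R ∪ {q | dim q < n}) g P c ∧
      ∀ q ∈ R ∪ {q | dim q < n}, Trk C K R g0 P0 c0 b Spec (fun _ => FrA E) wt
        (LamK X C K₀ ε' b wt δ) n q g (P q) (c q) := by
  have hε'0 : 0 < ε' := by nlinarith
  have num : ∀ (k₀ : ℝ) (_ : 0 ≤ k₀) (B : E → E), Num C R wt k₀ 1 ε' b (omB X C wt δ B) δ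
      (fun τ => AAc (dim τ) (B '' K τ)) (fun τ => AAc (dim τ) (B '' K τ)) := fun k₀ hk₀ B =>
    num_omB X hw hb0 hb2 hε'0 hε'1 hk₀ hδ B
  have N0 := num 0 le_rfl (fun x => x)
  refine mesh_mixA X hR H0 hb0 hb2 hw (Λ := LamK X C K₀ ε' b wt δ) (fun _ => FrA E)
    (fun n q B _ => (num _ (hK q) B).lam0 n q) (fun n q B _ => (num _ (hK q) B).lamS n q)
    (fun _ => Subset.rfl) ?_ hε0 hε1 hδm hδm1 N hN2 (uq C wt δ) (fun τ _ _ => N0.u0 τ)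
    (fun τ _ _ => N0.uS τ) (fun τ B => AAc (dim τ) (B '' K τ)) (fun τ B => AAc (dim τ) (B '' K τ))
    (fun τ _ _ B _ => (AAc_pos _ _).le) e (fun τ _ _ hd => he τ hd)
    (fun τ _ _ hd B hB v hv => ?_) (fun τ _ _ hd B hB z hz => heg τ hd B hB z hz) k hk ord
    (fun τ hτ hd B _ => ?_)
    (fun τ B => Bbq X R (K₀ τ) 1 ε' b (omB X C wt δ B) (fun τ => AAc (dim τ) (B '' K τ))
      (fun τ => AAc (dim τ) (B '' K τ)) τ)
    (fun τ _ _ h2 B _ σ hσ => ?_) (fun τ hτ _ h2 B _ => (num _ (hK τ) B).lam2 X τ hτ h2)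
    Rl hRl hRI Spec hS0 Af hAe hAn hS1 hS2 (fun D g P c H τ hτN hT hτR hτ => ?_) n
  · -- the base
    rintro q hq _ ⟨B, rfl⟩ x z hz
    refine (hbase q hq B x z hz).mono (div_le_div_of_nonneg_right ?_ (hw _).le)
    exact mul_le_mul_of_nonneg_left (omB_ge (C := C) X hw hδ (B : E → E) q) (hK q)
  · exact (hef τ hd B hB v (sph_subset_cube hv)).filter_mono
      (nhdsWithin_mono _ fun _ h => sph_subset_cube h)
  · -- the edges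
    refine le_trans ?_ ((num _ (hK τ) B).lam1 τ hτ hd)
    have h1 : 0 < 1 - ε' := by linarith
    have h2 := N0.u0 τ
    have h3 := AAc_pos (dim τ) (B '' K τ)
    refine div_le_div_of_nonneg_left h3.le (by positivity) ?_
    nlinarith
  · -- the faces
    refine le_trans ?_ ((num _ (hK τ) B).Bb_le X τ h2 σ hσ)
    exact mul_le_mul_of_nonneg_right (Knm_955.Kn_le (hK σ) (hKm σ τ hσ) zero_le_one le_rfl le_rfl
      hε'1 hb0 (fun _ => le_rfl) _) ((num _ (hK σ) B).ω0 σ)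
  · -- the designated cells
    obtain ⟨e', he', κ, h, ρ, Dp, hρ, hS, hA⟩ := ruleN D g P c H τ hτN hT hτR hτ
    refine ⟨e', he', κ, h, ρ, Dp, hρ, hS, ?_⟩
    rintro _ ⟨B, rfl⟩ x z hz
    refine (hA B x z hz).mono (div_le_div_of_nonneg_right ?_ (hw _).le)
    calc K₀ τ * (AAc (dim τ) (B '' K τ) * (Wd C wt τ + δ τ))
        ≤ K₀ τ * omB X C wt δ B τ :=
          mul_le_mul_of_nonneg_left (omB_ge (C := C) X hw hδ (B : E → E) τ) (hK τ)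
      _ ≤ _ := mul_le_mul_of_nonneg_right (le_Kn (hK τ) hb0 hb2 _) ((num _ (hK τ) B).ω0 τ)

/-- **THE CONSTANT OF A TILE IN A FRAME** with `K₀ : Q → ℝ` (199's `lam_tile`) -/
theorem lam_tileK (X : Cplx Ω Q dim K) (hw : ∀ j, 0 < wt j) (hb0 : ∀ n, 0 < b n)
    (hK : ∀ q, 0 ≤ K₀ q) (hδ : ∀ q, 0 < δ q) {m : ℕ} {q : Q} (hq : 2 ≤ dim q) (hm : dim q ≤ m)
    {B : E ≃ᵃ[ℝ] E} {𝒦 : Set (Set E)} (h𝒦 : 𝒦.Finite) (hB : ∀ σ ≤ q, B '' K σ ∈ 𝒦)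
    (hinj : ∀ σ ≤ q, ∀ σ' ≤ q, K σ = K σ' → σ = σ') {d : ℝ} (hd : ∀ σ ≤ q, δ σ ≤ d)
    (hne : ∀ σ ≤ q, 2 ≤ dim σ → ∀ x : C.I σ, ∃ e, ∃ h : e < σ, dim e = 1 ∧
      ∃ y : C.I e, C.up h y = x) :
    LamK X C K₀ ε b wt δ (m + 1) q B ≤
      C𝒦 (K₀ q) ε b m 𝒦 * (∑ e ∈ edg X q, Wd C wt e + d) :=
  lam_tile X hw hb0 (hK q) hδ hq hm h𝒦 hB hinj hd hne

end

end Crest.Agent.R096.Mxs_487
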