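import Crest.Agent.R096.Mi1_117
import Crest.Agent.R096.Mxs1_487
import Crest.Agent.R096.Be6_416

/-!
# R096 (row 96), MESH-INST, part 3 (helper117): **`mesh_instX`** = the mixed mesh (487's `mix_shape`)
over a labelled mesh, base in 416's form `BaseC`: designated cells `N` with a rule, a margin on the
edges (affine charts), one more predicate `SpecX`.  One theorem for MachBF (`N = ∅`, `mesh_inst'`) and
MachNO.
-/

set_option autoImplicit false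
set_option linter.unusedSectionVars false

open Set Metric

namespace Crest.Agent.R096.Mi_117

open Crest.Agent.R096.Ce_537 Crest.Agent.R096.Bd_416 Crest.Agent.R096.Arc_778
open Crest.Agent.R096.St_147 Crest.Agent.R096.Seq_213 Crest.Agent.R096.Lm_117
open Crest.Agent.R096.Cb_609 Crest.Agent.R096.Pl
open Crest.Agent.R96.Nu1_199 Crest.Agent.R96.Nu2_199 Crest.Agent.R96.Nu3_199
open Crest.Agent.R96.Nu4_199 Crest.Agent.R96.Nu5_199 Crest.Agent.R96.Nu6_199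
open Crest.Agent.R096.Mxs_487 Crest.Agent.R096.Be_416

open scoped Classical

section base

variable {V : Type*} [NormedAddCommGroup V] [NormedSpace ℝ V] [FiniteDimensional ℝ V]
  {Q : Type} [PartialOrder Q] {dim : Q → ℕ} {J Fam : Type} {Cm : Cmb Q dim J Fam}
  {K : Q → Set V}

/-- no base -/
theorem baseC_empty (wt : J → ℝ) (K₀ : ℝ) (g : Gd V J) (P : ∀ q, Cm.I q → Set V)
    (c : ∀ q, Cm.I q → V → ℝ) : BaseC Cm K wt K₀ ∅ g P c where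
  down _ h := h.elim
  inv := Inv.empty
  geo := ⟨fun _ h => h.elim, fun _ h => h.elim, fun _ h => h.elim⟩
  fam1 _ h := h.elim
  num _ h := h.elim

end base

/-- `SpecG` and one more predicate -/
def SpecGX {Q : Type} [PartialOrder Q] {dim : Q → ℕ} {J Fam : Type} {E : Type*}
    [NormedAddCommGroup E] [NormedSpace ℝ E] (C : Cmb Q dim J Fam) (K : Q → Set E)
    (k : ∀ q, C.I q → ℕ) (SpecX : ∀ q, Bd_416.Lam (K q) (C.I q) → Prop) (q : Q)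
    (M : Bd_416.Lam (K q) (C.I q)) : Prop := SpecG C K k q M ∧ SpecX q M

variable {ι Φ W Q J Fm : Type} {M : MeshC ι Φ W} [PartialOrder Q] {dim : Q → ℕ}
variable {L : LM M Q dim} {fam : J → Fm} {s : GSt M fam}
variable {E : Type*} [NormedAddCommGroup E] [NormedSpace ℝ E] [FiniteDimensional ℝ E]
variable {h : LF L s} {Lam : J → Q → ZMod 2} {hLam : ∀ j c, L.toSk.XL (gP s j) (Lam j) c}
variable {K : Q → Set E} {Ω : Set E} {R : Set Q} {g0 : Gd E J}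
  {P0 : ∀ q, (cmb h Lam hLam).I q → Set E} {c0 : ∀ q, (cmb h Lam hLam).I q → E → ℝ}
  {K₀ δ : Q → ℝ} {ε : ℝ} {b : ℕ → ℝ} {wt : J → ℝ}

/-- the tracked data of the final structure, mixed mesh -/
abbrev TrkX (X : Cplx Ω Q dim K) (R : Set Q) (g0 : Gd E J)
    (P0 : ∀ q, (cmb h Lam hLam).I q → Set E) (c0 : ∀ q, (cmb h Lam hLam).I q → E → ℝ)
    (SpecX : ∀ q, Bd_416.Lam (K q) ((cmb h Lam hLam).I q) → Prop)
    (K₀ δ : Q → ℝ) (ε : ℝ) (b : ℕ → ℝ) (wt : J → ℝ) (n : ℕ) (g : Gd E J)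
    (P : ∀ q, (cmb h Lam hLam).I q → Set E) (c : ∀ q, (cmb h Lam hLam).I q → E → ℝ) (q : Q) :
    Prop :=
  Trk (cmb h Lam hLam) K R g0 P0 c0 b (SpecGX (cmb h Lam hLam) K (ek h) SpecX) (fun _ => FrA E) wt
    (LamK X (cmb h Lam hLam) K₀ ε b wt δ) n q g (P q) (c q)

/-- **MESH-INST, mixed form** -/
theorem mesh_instX (X : Cplx Ω Q dim K) (T : Top3 L) (hconv : ∀ τ, Convex ℝ (K τ))
    (hcpt : ∀ τ, IsCompact (K τ)) (hbd : ∀ τ, bdS K τ = K τ \ ri (K τ))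
    (hw : ∀ j, 0 < wt j) (hb0 : ∀ n, 0 < b n) (hb2 : ∀ n, b n < 1/2) (hε0 : 0 < ε) (hε1 : ε < 1)
    {δm : ℝ} (hδm : 0 ≤ δm) (hδm1 : δm < 1) {ε' : ℝ} (hε' : 1 - ε' ≤ (1 - δm) * (1 - ε))
    (hε'1 : ε' < 1) (hK : ∀ q, 0 ≤ K₀ q) (hKm : ∀ σ τ : Q, σ < τ → K₀ σ ≤ K₀ τ)
    (hδ : ∀ q, 0 < δ q) {κb : ℝ} (B : BaseC (cmb h Lam hLam) K wt κb R g0 P0 c0)
    (hKR : ∀ q ∈ R, κb ≤ K₀ q)
    (N : Set Q) (hN2 : ∀ τ ∈ N, 2 ≤ dim τ)
    (SpecX : ∀ q, Bd_416.Lam (K q) ((cmb h Lam hLam).I q) → Prop)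
    (hX0 : ∀ τ ∉ R, dim τ = 0 → ∀ M, SpecX τ M)
    (hX1 : ∀ τ ∉ R, dim τ = 1 → ∀ (e : PLEquiv (cube 1) (K τ)), AffC e →
      e.f '' sph 1 = bdS K τ →
      e.f (fun _ => -1) ∈ K ((cmb h Lam hLam).o τ) → ∀ (p : (cmb h Lam hLam).I τ → ℝ)
      (hE : Ed (fun i => 4 * (1 - δm) * (1 - ε) * uq (cmb h Lam hLam) wt δ τ *
        wt ((cmb h Lam hLam).col τ i)) p),
      (∀ i, |p i| + 4 * (1 - δm) * (1 - ε) * uq (cmb h Lam hLam) wt δ τ *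
        wt ((cmb h Lam hLam).col τ i) / 2 < 1 - δm) →
      (∀ i j, ek h τ j < ek h τ i → p j < p i) →
      SpecX τ ((edgeLam hE).pull e.symm (X.isClosed τ)))
    (hX2 : ∀ D g P c (H : Inv (cmb h Lam hLam) K D g P c), ∀ τ, 2 ≤ dim τ →
      (∀ q ∈ D, TrkX X R g0 P0 c0 SpecX K₀ δ ε' b wt (dim τ) g P c q) →
      ∀ (_ : τ ∉ R) (_ : τ ∉ N) (hτ : ∀ σ < τ, σ ∈ D) (κ : ℝ) (ρ : (cmb h Lam hLam).I τ → ℝ)
      (Dp : Dep (bdLam H X τ hτ) κ (b (dim τ)) (fun x => uq (cmb h Lam hLam) wt δ τ *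
        wt ((cmb h Lam hLam).col τ x)) ρ),
      (∀ x x', RlG (cmb h Lam hLam) K c τ x x' → ρ x' < ρ x) →
      ∀ (e : PLEquiv (cube (dim τ)) (K τ)) (he : e.f '' sph (dim τ) = bdS K τ),
      SpecX τ (Dp.fillBall e he))
    (ruleN : ∀ D g P c (H : Inv (cmb h Lam hLam) K D g P c), ∀ τ ∈ N,
      (∀ q ∈ D, TrkX X R g0 P0 c0 SpecX K₀ δ ε' b wt (dim τ) g P c q) →
      τ ∉ R → ∀ hτ : ∀ σ < τ, σ ∈ D,
      ∃ (e' : PLEquiv (cube (dim τ)) (K τ)) (he' : e'.f '' sph (dim τ) = bdS K τ)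
        (κ : ℝ) (h' ρ : (cmb h Lam hLam).I τ → ℝ) (Dp : Dep (bdLam H X τ hτ) κ (b (dim τ)) h' ρ),
        (∀ x x', RlG (cmb h Lam hLam) K c τ x x' → ρ x' < ρ x) ∧ SpecX τ (Dp.fillBall e' he') ∧
        ∀ B : E ≃ᵃ[ℝ] E, ∀ x, ∀ z ∈ K τ,
          LB B (K₀ τ * (AAc (dim τ) (B '' K τ) * (Wd (cmb h Lam hLam) wt τ + δ τ)) /
            wt ((cmb h Lam hLam).col τ x)) ((Dp.fillBall e' he').c x) (K τ) z) :
    ∃ g P c, Inv (cmb h Lam hLam) K univ g P c ∧ MGeo h Lam hLam K R c ∧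
      ∀ q, TrkX X R g0 P0 c0 SpecX K₀ δ ε' b wt 4 g P c q := by
  obtain ⟨e, he, hef, heg, hea⟩ := exists_eA X hconv hcpt hbd
  have hbase : ∀ q ∈ R, ∀ F : E ≃ᵃ[ℝ] E, ∀ x, ∀ z ∈ K q,
      LB F (K₀ q * (AAc (dim q) (F '' K q) * (Wd (cmb h Lam hLam) wt q + δ q)) /
        wt ((cmb h Lam hLam).col q x)) (c0 q x) (K q) z := by
    intro q hq F x z hz
    refine (B.num q hq F (δ q) (hδ q).le x z hz).mono (div_le_div_of_nonneg_right ?_ (hw _).le)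
    refine mul_le_mul_of_nonneg_right (hKR q hq) (mul_nonneg (AAc_pos _ _).le ?_)
    have h1 := Wd_nonneg (C := cmb h Lam hLam) hw q
    have h2 := hδ q
    linarith
  obtain ⟨g, P, c, H, hT⟩ := mix_shape (C := cmb h Lam hLam) X hw hb0 hb2 hε0 hε1 hδm hδm1 hε'
    hε'1 hK hKm hδ B.down B.inv hbase N hN2 e he hef heg (ek h) (fun τ _ hd => ek_inj h τ hd)
    (fun τ _ hd x x' hne _ => cmb_ord h Lam hLam τ hd x x' hne)
    (fun c τ => RlG (cmb h Lam hLam) K c τ)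
    (fun D g P c H τ _ _ hd hτ => rlG_rank X D g P c H τ hd hτ)
    (fun c τ x x' h' => rlG_ins c τ x x' h')
    (SpecGX (cmb h Lam hLam) K (ek h) SpecX) (fun τ hR hd M' => ⟨specG0 hd M', hX0 τ hR hd M'⟩)
    (fun m τ e => AffC e) (fun τ _ hd => hea τ hd.ge hd) (fun τ e he => he.neg)
    (fun τ hR hd e ha he hb p hE hm hord => ⟨specG1 X hd e he hb hE hord,
      hX1 τ hR hd e ha he hb p hE hm hord⟩)
    (fun D g P c H τ hd hT hR hN hτ κ ρ Dp hρ => ⟨specG2 H X hd hτ Dp hρ _ _,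
      hX2 D g P c H τ hd hT hR hN hτ κ ρ Dp hρ _ _⟩)
    (fun D g P c H τ hN hT hR hτ => by
      obtain ⟨e', he', κ, h', ρ, Dp, h1, h2, h3⟩ := ruleN D g P c H τ hN hT hR hτ
      exact ⟨e', he', κ, h', ρ, Dp, h1, ⟨specG2 H X (hN2 τ hN) hτ Dp h1 _ _, h2⟩, h3⟩) 4
  have hall : ∀ q, q ∈ R ∪ {q | dim q < 4} := fun q => Or.inr (by
    have := T.dim_le q
    show dim q < 4
    omega)
  have hU : R ∪ {q | dim q < 4} = univ := eq_univ_of_forall hall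
  rw [hU] at H
  exact ⟨g, P, c, H, mgeo_of_trk X T H hb0 (fun _ _ h' => h'.1) (fun q => hT q (hall q)) B.geo
    (go_of_fam B.inv Subset.rfl B.fam1), fun q => hT q (hall q)⟩

/-- **MESH-INST, plain form** (no designated cells): `K₀` on the cells which touch the base,
`0` elsewhere is allowed -/
theorem mesh_inst' (X : Cplx Ω Q dim K) (T : Top3 L) (hconv : ∀ τ, Convex ℝ (K τ))
    (hcpt : ∀ τ, IsCompact (K τ)) (hbd : ∀ τ, bdS K τ = K τ \ ri (K τ))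
    (hw : ∀ j, 0 < wt j) (hb0 : ∀ n, 0 < b n) (hb2 : ∀ n, b n < 1/2) (hε0 : 0 < ε) (hε1 : ε < 1)
    (hK : ∀ q, 0 ≤ K₀ q) (hKm : ∀ σ τ : Q, σ < τ → K₀ σ ≤ K₀ τ)
    (hδ : ∀ q, 0 < δ q) {κb : ℝ} (B : BaseC (cmb h Lam hLam) K wt κb R g0 P0 c0)
    (hKR : ∀ q ∈ R, κb ≤ K₀ q) :
    ∃ g P c, Inv (cmb h Lam hLam) K univ g P c ∧ MGeo h Lam hLam K R c ∧
      ∀ q, TrkX X R g0 P0 c0 (fun _ _ => True) K₀ δ ε b wt 4 g P c q :=
  mesh_instX X T hconv hcpt hbd hw hb0 hb2 hε0 hε1 le_rfl zero_lt_one (by linarith) hε1 hK hKm hδ B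
    hKR ∅ (fun _ h' => h'.elim) (fun _ _ => True) (fun _ _ _ _ => trivial)
    (fun _ _ _ _ _ _ _ _ _ _ _ => trivial) (fun _ _ _ _ _ _ _ _ _ _ _ _ _ _ _ _ _ => trivial)
    (fun _ _ _ _ _ _ h' => h'.elim)

end Crest.Agent.R096.Mi_117
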