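import Crest.Agent.R096.Mno2_534
import Crest.Agent.R096.Fl6_835

/-!
# R096 (row 96), MachNO, bottom side (helper747): `FinNO` from the final state

`finNO_of_st` : 534's `FinNO` (all that `OutNO` reads) from the final state `StO` (662), the structure
`Inv`, (K4) at all base points of the ordinary tiles, the agreement of the cells with the tiling off
the cores, and the Lipschitz bounds of the tiles which touch no excluded tile.
-/

set_option autoImplicit false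
set_option linter.unusedSectionVars false
set_option linter.unusedVariables false
set_option linter.style.longLine false

open Set Filter Topology Metric Module MeasureTheory
open scoped ENNReal

namespace Crest.Agent.R096.Mnb_747

open Crest.Agent.R096.Ce_537 (PLOn PLEquiv cube sph IsBall Cplx)
open Crest.Agent.R096.Bd_416 Crest.Agent.R096.Grd_714 Crest.Agent.R096.Mg_441
open Crest.Agent.R096.Xp_537 (gG)
open Crest.Agent.R096.On_441
open Crest.Agent.R096.Brk1_582 Crest.Agent.R096.Brk2_582 Crest.Agent.R096.Brk3_582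
open Crest.Agent.R096.Brk5_582 Crest.Agent.R096.Brk6_582
open Crest.Agent.R096.Bsp_628
open Crest.Agent.R096.SkC1_961 (E3 Hom3 FoamD Cfg th NN)
open Crest.Agent.R096.SkN1_477
open Crest.Agent.R096.Msh_715
open Crest.Agent.R096.Mbf_337 (KJ sb gau)
open Crest.Agent.R096.St_147 Crest.Agent.R096.Seq_213 Crest.Agent.R096.Lm_117
  Crest.Agent.R096.Cp_298 Crest.Agent.R096.Gl_422 Crest.Agent.R096.SkB_662
open Crest.Agent.R096.Fl_835 (wk)
open Crest.Agent.R96.Nu7_199 (WE)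
open Crest.Agent.R096.Mno_534

variable {δ κ0 R c0 : ℝ} {La Om : Set E3} {ι : Type} {Φ : FoamD δ κ0 R c0 La} {Tl : Tiling Om ι}
  {f : E3 → E3} {V : Φ.F → Set ι}

/-- in a complex the cell is determined by its set of points -/
theorem K_inj {E' : Type*} [NormedAddCommGroup E'] [NormedSpace ℝ E'] {Q : Type*} [PartialOrder Q]
    {dim : Q → ℕ} {K : Q → Set E'} {Om' : Set E'} (X : Cplx Om' Q dim K) {q q' : Q}
    (h : K q = K q') : q = q' := by
  have key : ∀ e : Q, ∃ z, Ce_537.Opn K e z := by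
    intro e
    obtain ⟨f, hf⟩ := X.isBall e
    have h0 : (0 : Fin (dim e) → ℝ) ∈ cube (dim e) := by simp [cube]
    refine ⟨f.f 0, f.mf h0, fun j hj hx => ?_⟩
    have h1 : f.f 0 ∈ f.f '' sph (dim e) := by
      rw [hf]
      exact mem_biUnion (show j ∈ {j | j < e} from hj) hx
    obtain ⟨w, hw, hwe⟩ := h1
    have h2 := f.injOn (Ce_537.sph_subset_cube hw) h0 hwe
    rw [h2] at hw
    simp [sph] at hw
  obtain ⟨z, hz⟩ := key q
  obtain ⟨z', hz'⟩ := key q'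
  exact le_antisymm (X.opn_le hz (h ▸ hz.1)) (X.opn_le hz' (h ▸ hz'.1))

/-- **`FinNO` from the final state** -/
theorem finNO_of_st (hLa : IsOpen La)
    -- the final state
    {ι' Φc Q J Kq : Type} {M : MeshC ι' Φc E3} [PartialOrder Q] {dim : Q → ℕ}
    {L : LM M Q dim} {O : Ori M} {τ : Q → ZMod 2} {Rel : E3 → E3 → Prop} {Vc : Set E3}
    {Qd : Quads ι' Φ.F Kq} {κw : Φ.F → ℕ} {fam : J → Φ.F} {s₀ : GSt M fam} {far₀ : J → Set E3}
    {Z : Φ.F → Set Q} {lam₀ : J → Q → ZMod 2} {v₀ v₁ : Φ.F → Q}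
    {hfin : ∀ a, {j | fam j = a}.Finite} {kap : Φ.F → ℕ} {s : GSt M (fam' fam (Rk κw kap))}
    {far : Nm' fam (Rk κw kap) → Set E3} {β : E3 → E3}
    {lm : Nm' fam (Rk κw kap) → Q → ZMod 2}
    (h : StO L O τ Rel Vc Qd κw s₀ far₀ Z lam₀ v₀ v₁ hfin kap s far β lm)
    (hrel : ∀ x w, Rel x w → (x ∈ L.W1 ∨ w ∈ L.W1) → x ∈ L.W1 ∧ w ∈ L.W1 ∧ L.ed x = L.ed w)
    -- the levels
    {Lv : Φ.F → Finset ℝ} {t : J → ℝ} (hinj : ∀ j j', fam j = fam j' → t j = t j' → j = j')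
    (hLv : ∀ j, t j ∈ Lv (fam j)) (hcard : ∀ a, mm hfin a = (Lv a).card)
    (hlev : ∀ i, (∀ c, i ∉ V c) → ∀ x ∈ s₀.P, x ∈ P (Tl.H i) → Tl.dim x ≤ 1 →
      Φ.lev (fam (s₀.lab x)) (f x) = t (s₀.lab x))
    {hf1 : ∀ a, {j | h.cmb.fam j = a}.Finite} (hm : ∀ a, 0 < mm hf1 a)
    -- the mesh and its structure
    {K : Q → Set E3} {Gf : Gd E3 (Nm' fam (Rk κw kap))} {Pp : ∀ q, h.cmb.I q → Set E3}
    {cc : ∀ q, h.cmb.I q → E3 → ℝ} (H : Inv h.cmb K univ Gf Pp cc)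
    {Om' : Set E3} (Xc : Cplx Om' Q dim K)
    -- the ordinary tiles: (K4) at all base points, the numbers
    {Cu : Set (Set E3) → ℝ} (hCu : ∀ 𝒦, 0 < Cu 𝒦)
    (tile : ∀ i, (∀ c, i ∉ V c) → ∃ q, K q = P (Tl.H i) ∧
      (∀ e, e < q → dim e = 1 → L.toSk.On1 e ⊆ {y | y ∈ P (Tl.H i) ∧ Tl.dim y ≤ 1}) ∧
      (∀ x0 ∈ P (Tl.H i), Ex h.cmb (Pc Φ.F) q (sb Φ (Φ.Psi (f x0)))) ∧
      ((∀ j ∈ ⋃ c, V c, Disjoint (P (Tl.H i)) (P (Tl.H j))) →
        ∀ (B : E3 ≃ᵃ[ℝ] E3) (x : h.cmb.I q), ∀ y ∈ K q,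
          LB B (Cu ((fun K => B '' K) '' Cfg Tl i) * WE Xc h.cmb (wk κw kap fam) q /
            wk κw kap fam (h.cmb.col q x)) (cc q x) (K q) y))
    -- the ordinary 1-cells
    (edge : ∀ x ∈ Om, Tl.dim x = 1 → (∀ i, x ∈ P (Tl.H i) → ∀ c, i ∉ V c) →
      (∃ q, dim q = 1 ∧ K q = Tl.cc x) ∧
        ∀ q, dim q = 1 → K q = Tl.cc x → L.toSk.On1 q ⊆ Tl.cc x)
    {G : E3 → E3}
    (hG : ∀ q, ∀ x ∈ K q, G x = gG (Tq (bc (F := Φ.F)) (mm hf1)) (merge hf1 Gf) x)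
    (Ds : Set E3) (μ : ℝ) :
    FinNO Φ h.cmb K Gf Pp cc hf1 Tl f (⋃ c, V c) κw (Rk κw kap) Lv Ds μ Cu G := by
  have hEx : ∀ i, i ∉ (⋃ c, V c) → ∀ c, i ∉ V c := by
    intro i hi c hc
    exact hi (mem_iUnion.2 ⟨c, hc⟩)
  have hmm : ∀ a, mm hf1 a = Rk κw kap a * (Lv a).card := fun a => by
    rw [← hcard]; exact h.mm_eq a
  refine
    { inv := H
      foam := foam Φ.bf hLa
      quads := quads_box Φ.bf (by simp)
      r_pos := fun a => Rk_pos κw kap a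
      mm_eq := hmm
      mm_pos := hm
      tile := ?_
      edge := ?_
      lipB := ?_
      Cs_pos := hCu
      GT := ?_ }
  · intro i hi
    obtain ⟨q, hq, -, hE, -⟩ := tile i (hEx i hi)
    exact ⟨q, hq, hE⟩
  · intro x hx hd hE
    have hE' : ∀ i, x ∈ P (Tl.H i) → ∀ c, i ∉ V c := fun i hi => hEx i (hE i hi)
    obtain ⟨hq, hOn⟩ := edge x hx hd hE'
    refine ⟨hq, fun S => ?_⟩
    have hl : ∀ y ∈ s₀.P, y ∈ Tl.cc x → Φ.lev (fam (s₀.lab y)) (f y) = t (s₀.lab y) := by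
      intro y hy hyc
      obtain ⟨i, hi⟩ := Tl.cov x hx
      refine hlev i (hE' i hi) y hy (Tl.cc_sub_tile (i := i) hi hyc) ?_
      rw [← hd]
      exact Tl.dim_le hyc
    exact Mna_747.cnt h hrel (lv := fun c y => Φ.lev c (f y)) hinj hLv (B := Tl.cc x) hl K hq hOn S
  · intro i hi hd B N hN hNN _ q' hq' z hz
    obtain ⟨q, hq, hB, hE, hLB⟩ := tile i (hEx i hi)
    obtain rfl : q = q' := K_inj Xc (hq.trans hq'.symm)
    intro x
    have hz' : z ∈ K q := by rw [hq]; exact I_sub_P _ hz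
    have h1 := Fl_835.we_le_NN (T := Tl) (f := f) (i := i) Xc h hrel hinj hLv
      (hlev i (hEx i hi)) hB
    have h2 : WE Xc h.cmb (wk κw kap fam) q ≤ N :=
      (ENNReal.ofReal_le_ofReal_iff hN).1 (h1.trans hNN)
    have hw : (2 : ℝ)⁻¹ ^ κw (h.cmb.fam (h.cmb.col q x)) /
        (Rk κw kap (h.cmb.fam (h.cmb.col q x)) : ℕ) = wk κw kap fam (h.cmb.col q x) :=
      Mna_747.pow_div_Rk (h.le _)
    rw [hw]
    have hwp := Fl_835.wk_pos κw kap fam (h.cmb.col q x)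
    have h3 := hLB hd B x z hz'
    have h4 := hCu ((fun K => B '' K) '' Cfg Tl i)
    filter_upwards [h3] with y hy
    refine hy.trans ?_
    gcongr
  · intro i hi x hx
    obtain ⟨q, hq, -⟩ := tile i (hEx i hi)
    exact hG q x (hq ▸ hx)

end Crest.Agent.R096.Mnb_747
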