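import Crest.Agent.R096.Mi5_117

/-!
# R096 (row 96), MachNO, bottom side (helper747): the clause `edge` (of `fin_st`, `finNO_of_st`)

`edge_clause` : the clause about the ordinary 1-cells, from the same `hord` as 117's `tile_clause`.
-/

set_option autoImplicit false
set_option linter.unusedSectionVars false
set_option linter.unusedVariables false
set_option linter.style.longLine false

open Set Metric Filter Topology Module

namespace Crest.Agent.R096.Mnb_747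

open Crest.Agent.R096.St_147 Crest.Agent.R096.Lm_117 Crest.Agent.R096.Ce_537
open Crest.Agent.R096.Msh_715 Crest.Agent.R096.Ecm_446 Crest.Agent.R096.Csub_487

variable {E : Type} [NormedAddCommGroup E] [NormedSpace ℝ E] [FiniteDimensional ℝ E]
  {Om Om' : Set E} {ι3 ιt : Type} {T3 : Tiling Om' ι3} {Tl : Tiling Om ιt}
  {ι Φc Q : Type} {M : MeshC ι Φc E} [PartialOrder Q] {dim : Q → ℕ} {K : Q → Set E}
  {L : LM M Q dim} {cell : Q → T3.Cell}

/-- a cell of an ordinary tile is a cell of `Q` -/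
theorem cell_of_hord (hI : CellIx T3 dim K cell) {i : ιt} {i3 : ι3}
    (h0 : P (T3.H i3) = P (Tl.H i)) (hcc : ∀ x ∈ P (Tl.H i), T3.cc x = Tl.cc x)
    (hq : ∃ q, K q = P (T3.H i3)) {x : E} (hx : x ∈ P (Tl.H i)) :
    ∃ q, dim q = Tl.dim x ∧ K q = Tl.cc x := by
  obtain ⟨q, hq⟩ := hq
  have hxO : x ∈ Om := Tl.sub i hx
  have hx3 : x ∈ P (T3.H i3) := by rw [h0]; exact hx
  have hxO' : x ∈ Om' := T3.sub i3 hx3
  have hle : T3.cl hxO' ≤ cell q := by
    rw [Tiling.Cell.le_def, ← hI.set_eq, hq]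
    exact T3.cc_sub_tile hx3
  obtain ⟨σ, hσ⟩ := hI.down q _ hle
  refine ⟨σ, ?_, ?_⟩
  · rw [hI.dim_eq, hσ, Tiling.dim_cl]
    exact (Mf_113.dim_of_cc hxO hxO' (hcc x hx)).2
  · rw [hI.set_eq, hσ]
    exact hcc x hx

/-- the points of a 1-cell -/
theorem on1_sub (hI : CellIx T3 dim K cell) (hO : OnT T3 L.toSk cell) (q : Q) :
    L.toSk.On1 q ⊆ K q := by
  rintro w ⟨hw1, hwe⟩
  have h4 : L.ed w = q := hwe
  have h2 := hO.ed w hw1
  rw [hI.set_eq, ← h4, h2]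
  exact T3.self_mem_cc w

/-- **the clause `edge` of `fin_st` / `finNO_of_st`** -/
theorem edge_clause {Fm : Type} {V : Fm → Set ιt} (hI : CellIx T3 dim K cell)
    (hO : OnT T3 L.toSk cell)
    (hord : ∀ i, (∀ c, i ∉ V c) → ∃ i3 : ι3, P (T3.H i3) = P (Tl.H i) ∧
      (∀ x ∈ P (Tl.H i), T3.cc x = Tl.cc x) ∧ ∃ q, K q = P (T3.H i3)) :
    ∀ x ∈ Om, Tl.dim x = 1 → (∀ i, x ∈ P (Tl.H i) → ∀ c, i ∉ V c) →
      (∃ q, dim q = 1 ∧ K q = Tl.cc x) ∧
        ∀ q, dim q = 1 → K q = Tl.cc x → L.toSk.On1 q ⊆ Tl.cc x := by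
  intro x hx hd hV
  obtain ⟨i, hi⟩ := Tl.cov x hx
  obtain ⟨i3, h0, hcc, hq⟩ := hord i (hV i hi)
  obtain ⟨q, h1, h2⟩ := cell_of_hord hI h0 hcc hq hi
  exact ⟨⟨q, h1.trans hd, h2⟩, fun q' _ hq' => (on1_sub hI hO q').trans hq'.subset⟩

end Crest.Agent.R096.Mnb_747
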