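import Crest.Agent.R096.Mnb2_747
import Crest.Agent.R096.SkN1_477

/-!
# R096 (row 96), MachNO, bottom side (helper747): the hypothesis `hfc` of 534's `mesh_no`

`hfc_of` : on the designated faces the two tilings agree, their cells are in `Q` and not in the
domains of the bases.
-/

set_option autoImplicit false
set_option linter.unusedSectionVars false
set_option linter.unusedVariables false
set_option linter.style.longLine false

open Set Metric Filter Topology Module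

namespace Crest.Agent.R096.Mnb_747

open Crest.Agent.R096.St_147 Crest.Agent.R096.Lm_117 Crest.Agent.R096.Ce_537
open Crest.Agent.R096.Msh_715 Crest.Agent.R096.Ecm_446 Crest.Agent.R096.Csub_487
open Crest.Agent.R096.SkC1_961 (E3)
open Crest.Agent.R096.SkN1_477

variable {Om Om' : Set E3} {ι3 ιt : Type} {T3 : Tiling Om' ι3} {Tl : Tiling Om ιt}
  {Q : Type} [PartialOrder Q] {dim : Q → ℕ} {K : Q → Set E3} {cell : Q → T3.Cell}

/-- **the hypothesis `hfc` of `mesh_no`** -/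
theorem hfc_of {Fm Ic : Type} {V : Fm → Set ιt} {D : Ic → Set Q} {Ds : Set E3}
    {Bf : E3 → E3 ≃ᵃ[ℝ] E3} {Λ μ : ℝ} {a : Fin 2 → ℝ} (FD : FaceD Tl (⋃ c, V c) Ds Bf Λ μ a)
    (hI : CellIx T3 dim K cell)
    (hord : ∀ i, (∀ c, i ∉ V c) → ∃ i3 : ι3, P (T3.H i3) = P (Tl.H i) ∧
      (∀ x ∈ P (Tl.H i), T3.cc x = Tl.cc x) ∧ ∃ q, K q = P (T3.H i3))
    (hD : ∀ i, ∀ q ∈ D i, ∃ c, ∃ j ∈ V c, K q ⊆ P (Tl.H j)) :
    ∀ x ∈ Ds, ∀ y ∈ usq (Bf x), T3.cc y = Tl.cc y ∧ T3.dim y = Tl.dim y ∧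
      (∃ q, K q = Tl.cc y) ∧ ∀ q, K q = Tl.cc y → q ∉ ⋃ i, D i := by
  intro x hx y hy
  have hxO := FD.mem x hx
  rw [← FD.sq x hx] at hy
  have hyO : y ∈ Om := Tl.cc_sub_Om hxO hy
  obtain ⟨i, hi⟩ := Tl.cov y hyO
  have hoff := FD.off x hx y hy
  obtain ⟨i3, h0, hcc, hq⟩ := hord i fun c hc => hoff i hi (mem_iUnion.2 ⟨c, hc⟩)
  have hy3 : y ∈ P (T3.H i3) := by rw [h0]; exact hi
  obtain ⟨q, -, h2⟩ := cell_of_hord hI h0 hcc hq hi
  refine ⟨hcc y hi, (Mf_113.dim_of_cc hyO (T3.sub i3 hy3) (hcc y hi)).2, ⟨q, h2⟩, ?_⟩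
  intro q' hq' hmem
  obtain ⟨k, hk⟩ := mem_iUnion.1 hmem
  obtain ⟨c, j, hj, hsub⟩ := hD k q' hk
  rw [hq'] at hsub
  exact hoff j (hsub (Tl.self_mem_cc y)) (mem_iUnion.2 ⟨c, hj⟩)

end Crest.Agent.R096.Mnb_747
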