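import Crest.Agent.R096.SkN2_477

/-!
Row 96 (S0127), helper534.  **The common target of the bottom half**: `MachAll p` gives both
`Mbf_337.MachBF` and `SkN2_477.MachNO p`.

Order: `Λ`, `e'` (accuracy of the face rule), then `η`, `Cu`, then `δ κ0 R c0 κ2 κ3`, `C0`, `C`, then
`e` (accuracy of the exact cores), `κp`, `μ`, `κ1`, the data, the designated faces, `Z`, `m0`,
the levels, `tol`.
-/

set_option autoImplicit false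
set_option linter.style.longLine false

open MeasureTheory Set Filter Topology Metric
open scoped ENNReal

namespace Crest.Agent.R096.Mno_534

open Crest.Agent.R096.Msh_715
open Crest.Agent.R096.SkC1_961 (E3 Hom3 FoamD)
open Crest.Agent.R096.SkN1_477
open Crest.Agent.R096.Mbf_337

/-- **the machine** (bounded factor + exact cores + designated faces) -/
def MachAll (p : ℝ) : Prop :=
  ∀ Λ e' : ℝ, 1 ≤ Λ → 0 < e' →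
  ∃ η : ℝ, 0 < η ∧ ∃ Cu : Set (Set E3) → ℝ, (∀ 𝒦, 0 < Cu 𝒦) ∧
  ∀ δ κ0 R c0 κ2 κ3 : ℝ, 0 < δ → 1 ≤ κ0 → 1 ≤ R → 0 < c0 → 0 < κ2 → 8 ≤ κ3 →
  ∃ (C0 : ℝ) (C : Set (Set E3) → ℝ), 0 < C0 ∧ (∀ 𝒦, 0 < C 𝒦) ∧ ∀ e : ℝ, 0 < e →
  ∃ κp : ℝ, 0 < κp ∧ ∀ μ : ℝ, 0 < μ → μ ≤ κp → ∃ κ1 : ℝ, 0 < κ1 ∧
  ∀ (Om La : Set E3) (f : E3 → E3), IsOpen Om → Bornology.IsBounded Om → IsConnected Om →
    IsOpen La → Bornology.IsBounded La → IsConnected La → Hom3 f Om La →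
  ∀ (Φ : FoamD δ κ0 R c0 La) (ι : Type) (T : Tiling Om ι) (X : Set Φ.F) (J0 J V : Φ.F → Set ι)
    (ct : Φ.F → ι) (A : Φ.F → E3 ≃ᵃ[ℝ] E3) (lam : Φ.F → ℝ) (z : Φ.F → E3) (θ : Φ.F → E3 → E3)
    (φ : Φ.F → E3 → ℝ) (M : Φ.F → ℕ),
    Star Φ → Cores Φ T f κ1 κ2 X J0 J V ct A lam z θ φ → Fine Φ T f κ1 J0 →
  ∀ (Ds : Set E3) (B : E3 → E3 ≃ᵃ[ℝ] E3) (ν : ℝ) (a : Fin 2 → ℝ),
    FaceD T (⋃ c, V c) Ds B Λ ν a →
  ∃ (Z : Φ.F → Set ℝ) (m0 : Φ.F → ℕ), (∀ c, volume (Z c) = 0) ∧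
  ∀ (κ : Φ.F → ℕ) (L : Φ.F → Finset ℝ), Levels Φ T f κp μ κ3 Z m0 κ L →
    Words Φ T f X ct A lam z M L →
  ∀ tol : ι → ℝ, (∀ i, 0 < tol i) →
  ∃ (g : E3 → E3) (u : E3 → Φ.F → ℝ) (n : Set E3 → Φ.F → ℝ),
    SkN2_477.OutF C0 C e Φ T f X V ct A lam κ L tol Ds ν g ∧
    OutNO p Cu e' η Φ T f (⋃ c, V c) κ L tol Ds B ν a g u n

theorem faceD_empty {Om : Set E3} {ι : Type} (T : Tiling Om ι) (Ex : Set ι)
    (B : E3 → E3 ≃ᵃ[ℝ] E3) : FaceD T Ex ∅ B 1 1 (fun _ => 0) where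
  mem := fun _ hx => hx.elim
  dim := fun _ hx => hx.elim
  sq := fun _ hx => hx.elim
  sides := fun _ hx => hx.elim
  dir := fun _ hx => hx.elim
  off := fun _ hx => hx.elim
  mu := one_pos
  ab := fun _ => Or.inl rfl

/-- the target gives `MachBF` -/
theorem machBF_of {p : ℝ} (h : MachAll p) : MachBF := by
  intro δ κ0 R c0 κ2 κ3 h1 h2 h3 h4 h5 h6
  obtain ⟨η, hη, Cu, hCu, h⟩ := h 1 1 le_rfl one_pos
  obtain ⟨C0, C, hC0, hC, h⟩ := h δ κ0 R c0 κ2 κ3 h1 h2 h3 h4 h5 h6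
  refine ⟨C0, C, hC0, hC, fun e he => ?_⟩
  obtain ⟨κp, hκp, h⟩ := h e he
  refine ⟨κp, hκp, fun μ hμ hμ' => ?_⟩
  obtain ⟨κ1, hκ1, h⟩ := h μ hμ hμ'
  refine ⟨κ1, hκ1, ?_⟩
  intro Om La f o1 o2 o3 o4 o5 o6 o7 Φ ι T X J0 J V ct A lam z θ φ M hS hC hF
  obtain ⟨Z, m0, hZ, h⟩ := h Om La f o1 o2 o3 o4 o5 o6 o7 Φ ι T X J0 J V ct A lam z θ φ M hS hC hF
    ∅ (fun _ => AffineEquiv.refl ℝ E3) 1 (fun _ => 0) (faceD_empty T _ _)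
  refine ⟨Z, m0, hZ, fun κ L hL hW tol htol => ?_⟩
  obtain ⟨g, u, n, hg, -⟩ := h κ L hL hW tol htol
  exact ⟨g, SkN2_477.out_of_outF hg⟩

/-- the target gives `MachNO` (order of record (E1): all constants of the foam first) -/
theorem machNO_of {p : ℝ} (h : MachAll p) : SkN2_477.MachNO p := by
  intro Λ e hΛ he
  obtain ⟨η, hη, Cu, hCu, h⟩ := h Λ e hΛ he
  refine ⟨η, hη, Cu, hCu, ?_⟩
  intro δ κ0 R c0 κ2 κ3 h1 h2 h3 h4 h5 h6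
  obtain ⟨C0, C, hC0, hC, h⟩ := h δ κ0 R c0 κ2 κ3 h1 h2 h3 h4 h5 h6
  obtain ⟨κp, hκp, h⟩ := h e he
  exact ⟨C0, C, hC0, hC, κp, hκp, h⟩

end Crest.Agent.R096.Mno_534
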