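import Mathlib

/-!
# P5-MOLL, part 1 (helper119, row 96): variable radius averages of Lipschitz maps

`avg ν h η x = ∫ h (x - η x • y) dν(y)` for a probability measure `ν ≪ μ` on the unit ball:
derivative formula, distance of the derivative to a convex set containing the a.e. derivatives.
-/

set_option autoImplicit false

open MeasureTheory Metric Set Filter Topology
open scoped ENNReal NNReal ContDiff

namespace Crest.Agent.R096.Mo_119

variable {E : Type*} [NormedAddCommGroup E] [NormedSpace ℝ E] [FiniteDimensional ℝ E]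
  [MeasurableSpace E] [BorelSpace E]

/-- `ν` is a probability measure on the closed unit ball, absolutely continuous w.r.t. `μ`. -/
structure Ker (μ ν : Measure E) : Prop where
  prob : IsProbabilityMeasure ν
  ac : ν ≪ μ
  supp : ∀ᵐ y ∂ν, ‖y‖ ≤ 1

/-- variable radius average -/
noncomputable def avg (ν : Measure E) (h : E → E) (η : E → ℝ) (x : E) : E :=
  ∫ y, h (x - η x • y) ∂ν

/-- the averaged derivative -/
noncomputable def avgD (ν : Measure E) (h : E → E) (c : ℝ) (x : E) : E →L[ℝ] E :=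
  ∫ y, fderiv ℝ h (x - c • y) ∂ν

omit [FiniteDimensional ℝ E] [MeasurableSpace E] [BorelSpace E] in
theorem fderiv_norm_le {h : E → E} {L : ℝ≥0} (hL : LipschitzWith L h) (x : E) :
    ‖fderiv ℝ h x‖ ≤ L := norm_fderiv_le_of_lipschitz ℝ hL

/-- a.e. `z` property pulled back along `y ↦ x - c • y`. -/
theorem ae_comp {μ : Measure E} [μ.IsAddHaarMeasure] {P : E → Prop} (hP : ∀ᵐ z ∂μ, P z)
    (x : E) {c : ℝ} (hc : c ≠ 0) : ∀ᵐ y ∂μ, P (x - c • y) := by
  have h1 : ∀ᵐ y ∂μ, P (x - y) := by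
    have hq : Measure.QuasiMeasurePreserving (fun y : E => x - y) μ μ :=
      (Measure.measurePreserving_sub_left μ x).quasiMeasurePreserving
    exact hq.ae hP
  have hq2 : Measure.QuasiMeasurePreserving (fun y : E => c • y) μ μ := by
    refine ⟨measurable_const_smul c, ?_⟩
    have := Measure.map_addHaar_smul μ hc
    rw [this]
    exact Measure.smul_absolutelyContinuous
  exact hq2.ae h1

theorem ae_comp_on {μ : Measure E} [μ.IsAddHaarMeasure] {P : E → Prop} {S : Set E}
    (hP : ∀ᵐ z ∂μ, z ∈ S → P z)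
    (x : E) {c : ℝ} (hc : c ≠ 0) : ∀ᵐ y ∂μ, x - c • y ∈ S → P (x - c • y) :=
  ae_comp (P := fun z => z ∈ S → P z) hP x hc

section
variable {μ ν : Measure E}

theorem Ker.aesm_fderiv (h : E → E) (x : E) (c : ℝ) (ρ : Measure E) :
    AEStronglyMeasurable (fun y => fderiv ℝ h (x - c • y)) ρ := by
  have h1 : Measurable (fun y : E => fderiv ℝ h (x - c • y)) := by
    refine (measurable_fderiv ℝ h).comp ?_
    fun_prop
  exact h1.aestronglyMeasurable

/-- **Derivative of the variable radius average** (globally Lipschitz `h`). -/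
theorem Ker.hasFDerivAt_avg [μ.IsAddHaarMeasure] (hk : Ker μ ν) {h : E → E} {L : ℝ≥0}
    (hL : LipschitzWith L h) {η : E → ℝ} {x₀ : E} {η' : E →L[ℝ] ℝ} (hη : HasFDerivAt η η' x₀)
    {M : ℝ≥0} {s : Set E} (hs : s ∈ 𝓝 x₀) (hM : LipschitzOnWith M η s) (hpos : 0 < η x₀) :
    Integrable (fun y => (fderiv ℝ h (x₀ - η x₀ • y)).comp
        (ContinuousLinearMap.id ℝ E - η'.smulRight y)) ν ∧
    HasFDerivAt (avg ν h η)
      (∫ y, (fderiv ℝ h (x₀ - η x₀ • y)).comp
        (ContinuousLinearMap.id ℝ E - η'.smulRight y) ∂ν) x₀ := by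
  have := hk.prob
  unfold avg
  refine hasFDerivAt_integral_of_dominated_loc_of_lip (bound := fun _ => (L * (1 + M) : ℝ)) hs
    ?_ ?_ ?_ ?_ (integrable_const _) ?_
  · refine Eventually.of_forall fun x => ?_
    have : Continuous (fun y : E => h (x - η x • y)) := hL.continuous.comp (by fun_prop)
    exact this.aestronglyMeasurable
  · have hc : Continuous (fun y : E => h (x₀ - η x₀ • y)) := hL.continuous.comp (by fun_prop)
    refine Integrable.of_bound hc.aestronglyMeasurable (‖h x₀‖ + L * |η x₀|) ?_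
    filter_upwards [hk.supp] with y hy
    have h1 : ‖h (x₀ - η x₀ • y) - h x₀‖ ≤ L * |η x₀| := by
      have := hL.norm_sub_le (x₀ - η x₀ • y) x₀
      refine this.trans ?_
      have : ‖x₀ - η x₀ • y - x₀‖ ≤ |η x₀| := by
        rw [sub_sub_cancel_left, norm_neg, norm_smul, Real.norm_eq_abs]
        exact mul_le_of_le_one_right (abs_nonneg _) hy
      gcongr
    calc ‖h (x₀ - η x₀ • y)‖ = ‖h x₀ + (h (x₀ - η x₀ • y) - h x₀)‖ := by congr 1; abel
      _ ≤ ‖h x₀‖ + ‖h (x₀ - η x₀ • y) - h x₀‖ := norm_add_le _ _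
      _ ≤ _ := by gcongr
  · have h1 : AEStronglyMeasurable (fun y => fderiv ℝ h (x₀ - η x₀ • y)) ν :=
      Ker.aesm_fderiv h x₀ (η x₀) ν
    have h2 : Continuous (fun y : E => ContinuousLinearMap.id ℝ E - η'.smulRight y) := by
      fun_prop
    have h3 : Continuous (fun p : (E →L[ℝ] E) × (E →L[ℝ] E) => p.1.comp p.2) := by fun_prop
    exact h3.comp_aestronglyMeasurable (h1.prodMk h2.aestronglyMeasurable)
  · filter_upwards [hk.supp] with y hy
    have hb : Real.nnabs (L * (1 + M) : ℝ) = L * (1 + M) := by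
      ext; simp only [Real.coe_nnabs, NNReal.coe_mul, NNReal.coe_add, NNReal.coe_one]
      rw [abs_of_nonneg (by positivity)]
    rw [hb]
    have h1 : LipschitzOnWith (1 + M) (fun x => x - η x • y) s := by
      refine LipschitzOnWith.of_dist_le_mul fun a ha b hb => ?_
      rw [dist_eq_norm, dist_eq_norm]
      have e : a - η a • y - (b - η b • y) = (a - b) - (η a - η b) • y := by
        rw [sub_smul]; abel
      rw [e]
      have h2 : ‖η a - η b‖ ≤ M * ‖a - b‖ := by
        have := hM.dist_le_mul a ha b hb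
        rwa [dist_eq_norm, dist_eq_norm] at this
      calc ‖(a - b) - (η a - η b) • y‖ ≤ ‖a - b‖ + ‖(η a - η b) • y‖ := norm_sub_le _ _
        _ = ‖a - b‖ + ‖η a - η b‖ * ‖y‖ := by rw [norm_smul]
        _ ≤ ‖a - b‖ + (M * ‖a - b‖) * 1 := by gcongr
        _ = ((1 + M : ℝ≥0) : ℝ) * ‖a - b‖ := by push_cast; ring
    exact hL.comp_lipschitzOnWith h1
  · have hd : ∀ᵐ z ∂μ, DifferentiableAt ℝ h z := hL.ae_differentiableAt
    have hd2 := hk.ac.ae_le (ae_comp hd x₀ hpos.ne')
    filter_upwards [hd2] with y hy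
    have h1 : HasFDerivAt (fun x => x - η x • y)
        (ContinuousLinearMap.id ℝ E - η'.smulRight y) x₀ :=
      (hasFDerivAt_id x₀).sub (hη.smul_const y)
    exact (hy.hasFDerivAt).comp x₀ h1

theorem Ker.integrable_fderiv (hk : Ker μ ν) {h : E → E} {L : ℝ≥0}
    (hL : LipschitzWith L h) (x : E) (c : ℝ) :
    Integrable (fun y => fderiv ℝ h (x - c • y)) ν := by
  have := hk.prob
  exact Integrable.of_bound (Ker.aesm_fderiv h x c ν) L
    (Eventually.of_forall fun y => fderiv_norm_le hL _)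

/-- the derivative of the average is close to the averaged derivative -/
theorem Ker.norm_fderiv_avg_sub_le [μ.IsAddHaarMeasure] (hk : Ker μ ν) {h : E → E} {L : ℝ≥0}
    (hL : LipschitzWith L h) {η : E → ℝ} {x₀ : E} {η' : E →L[ℝ] ℝ} (hη : HasFDerivAt η η' x₀)
    {M : ℝ≥0} {s : Set E} (hs : s ∈ 𝓝 x₀) (hM : LipschitzOnWith M η s) (hpos : 0 < η x₀) :
    ‖fderiv ℝ (avg ν h η) x₀ - avgD ν h (η x₀) x₀‖ ≤ L * ‖η'‖ := by
  have := hk.prob
  obtain ⟨hi, hd⟩ := hk.hasFDerivAt_avg hL hη hs hM hpos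
  rw [hd.fderiv, avgD, ← integral_sub hi (hk.integrable_fderiv hL _ _)]
  have hb : ∀ᵐ y ∂ν, ‖(fderiv ℝ h (x₀ - η x₀ • y)).comp
        (ContinuousLinearMap.id ℝ E - η'.smulRight y) - fderiv ℝ h (x₀ - η x₀ • y)‖ ≤ L * ‖η'‖ := by
    filter_upwards [hk.supp] with y hy
    have e : (fderiv ℝ h (x₀ - η x₀ • y)).comp
        (ContinuousLinearMap.id ℝ E - η'.smulRight y) - fderiv ℝ h (x₀ - η x₀ • y)
        = - (fderiv ℝ h (x₀ - η x₀ • y)).comp (η'.smulRight y) := by
      ext v; simp
    rw [e, norm_neg]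
    calc ‖(fderiv ℝ h (x₀ - η x₀ • y)).comp (η'.smulRight y)‖
        ≤ ‖fderiv ℝ h (x₀ - η x₀ • y)‖ * ‖η'.smulRight y‖ :=
          ContinuousLinearMap.opNorm_comp_le _ _
      _ ≤ L * (‖η'‖ * 1) := by
          gcongr
          · exact fderiv_norm_le hL _
          · rw [ContinuousLinearMap.norm_smulRight_apply]; gcongr
      _ = L * ‖η'‖ := by ring
  calc _ ≤ (L * ‖η'‖) * ν.real univ := norm_integral_le_of_norm_le_const hb
    _ = L * ‖η'‖ := by simp

/-- the averaged derivative lies in every closed convex set containing the a.e. derivatives -/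
theorem Ker.avgD_mem [μ.IsAddHaarMeasure] (hk : Ker μ ν) {h : E → E} {L : ℝ≥0}
    (hL : LipschitzWith L h) {K : Set (E →L[ℝ] E)} (hK : Convex ℝ K) (hKc : IsClosed K)
    {x : E} {c R : ℝ} (hc : 0 < c) (hcR : c < R)
    (hae : ∀ᵐ z ∂μ, z ∈ ball x R → fderiv ℝ h z ∈ K) : avgD ν h c x ∈ K := by
  have := hk.prob
  refine hK.integral_mem hKc ?_ (hk.integrable_fderiv hL _ _)
  have h1 := hk.ac.ae_le (ae_comp_on (P := fun z => fderiv ℝ h z ∈ K) hae x hc.ne')
  filter_upwards [h1, hk.supp] with y hy hy1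
  refine hy ?_
  rw [mem_ball, dist_eq_norm, sub_sub_cancel_left, norm_neg, norm_smul, Real.norm_eq_abs,
    abs_of_pos hc]
  calc c * ‖y‖ ≤ c * 1 := by gcongr
    _ < R := by linarith

theorem Ker.norm_avg_sub_le (hk : Ker μ ν) {h : E → E} {L : ℝ≥0}
    (hL : LipschitzWith L h) (η : E → ℝ) (x : E) : ‖avg ν h η x - h x‖ ≤ L * |η x| := by
  have := hk.prob
  have hc : Continuous (fun y : E => h (x - η x • y)) := hL.continuous.comp (by fun_prop)
  have hb : ∀ᵐ y ∂ν, ‖h (x - η x • y) - h x‖ ≤ L * |η x| := by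
    filter_upwards [hk.supp] with y hy
    have := hL.norm_sub_le (x - η x • y) x
    refine this.trans ?_
    have : ‖x - η x • y - x‖ ≤ |η x| := by
      rw [sub_sub_cancel_left, norm_neg, norm_smul, Real.norm_eq_abs]
      exact mul_le_of_le_one_right (abs_nonneg _) hy
    gcongr
  have hi : Integrable (fun y : E => h (x - η x • y)) ν := by
    refine Integrable.of_bound hc.aestronglyMeasurable (‖h x‖ + L * |η x|) ?_
    filter_upwards [hb] with y hy
    calc ‖h (x - η x • y)‖ = ‖h x + (h (x - η x • y) - h x)‖ := by congr 1; abel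
      _ ≤ ‖h x‖ + ‖h (x - η x • y) - h x‖ := norm_add_le _ _
      _ ≤ _ := by gcongr
  have e : avg ν h η x - h x = ∫ y, (h (x - η x • y) - h x) ∂ν := by
    rw [integral_sub hi (integrable_const _)]; simp [avg]
  rw [e]
  calc _ ≤ (L * |η x|) * ν.real univ := norm_integral_le_of_norm_le_const hb
    _ = L * |η x| := by simp

end

end Crest.Agent.R096.Mo_119
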