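import Crest.Agent.R096.Mo1_119

/-!
# P5-MOLL, part 2 (helper119, row 96): smooth kernels, smoothness of `avg`, local versions
-/

set_option autoImplicit false

open MeasureTheory Metric Set Filter Topology
open scoped ENNReal NNReal ContDiff Convolution

namespace Crest.Agent.R096.Mo_119

variable {E : Type*} [NormedAddCommGroup E] [NormedSpace ℝ E] [FiniteDimensional ℝ E]
  [MeasurableSpace E] [BorelSpace E]

/-- smooth density -/
structure Dens (μ : Measure E) (ρ : E → ℝ) : Prop where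
  smooth : ContDiff ℝ ∞ ρ
  nonneg : ∀ y, 0 ≤ ρ y
  supp : ∀ y, 1 ≤ ‖y‖ → ρ y = 0
  one : ∫ y, ρ y ∂μ = 1

/-- the measure of a density -/
noncomputable def kerM (μ : Measure E) (ρ : E → ℝ) : Measure E :=
  μ.withDensity fun y => ((ρ y).toNNReal : ℝ≥0∞)

section
variable {μ : Measure E}

theorem exists_dens (μ : Measure E) [μ.IsAddHaarMeasure] : ∃ ρ, Dens μ ρ := by
  let φ : ContDiffBump (0 : E) := ⟨1/2, 1, by norm_num, by norm_num⟩
  refine ⟨φ.normed μ, φ.contDiff_normed, φ.nonneg_normed, fun y hy => ?_, φ.integral_normed⟩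
  have : y ∉ Function.support (φ.normed μ) := by
    rw [φ.support_normed_eq]
    simp only [mem_ball, dist_zero_right, not_lt]
    exact hy
  simpa [Function.mem_support] using this

omit [FiniteDimensional ℝ E] in
theorem Dens.measurable_nn {ρ : E → ℝ} (hd : Dens μ ρ) : Measurable fun y => (ρ y).toNNReal :=
  hd.smooth.continuous.measurable.real_toNNReal

theorem Dens.ker [μ.IsAddHaarMeasure] {ρ : E → ℝ} (hd : Dens μ ρ) : Ker μ (kerM μ ρ) := by
  have hcs : HasCompactSupport ρ := by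
    refine HasCompactSupport.intro (isCompact_closedBall (0 : E) 1) fun y hy => hd.supp y ?_
    simp only [mem_closedBall, dist_zero_right, not_le] at hy
    exact hy.le
  have hint : Integrable ρ μ := hd.smooth.continuous.integrable_of_hasCompactSupport hcs
  refine ⟨⟨?_⟩, withDensity_absolutelyContinuous _ _, ?_⟩
  · rw [kerM, withDensity_apply _ MeasurableSet.univ, Measure.restrict_univ]
    have := ofReal_integral_eq_lintegral_ofReal hint (Eventually.of_forall hd.nonneg)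
    rw [hd.one] at this
    rw [ENNReal.ofReal_one] at this
    exact this.symm
  · rw [kerM, ae_withDensity_iff hd.measurable_nn.coe_nnreal_ennreal]
    refine Eventually.of_forall fun y hy => ?_
    by_contra hcon
    apply hy
    rw [hd.supp y (not_le.1 hcon).le]; simp

omit [FiniteDimensional ℝ E] in
theorem Dens.integral_kerM {ρ : E → ℝ} (hd : Dens μ ρ) (g : E → E) :
    ∫ y, g y ∂(kerM μ ρ) = ∫ y, ρ y • g y ∂μ := by
  rw [kerM, integral_withDensity_eq_integral_smul hd.measurable_nn]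
  refine integral_congr_ae (Eventually.of_forall fun y => ?_)
  simp only
  rw [NNReal.smul_def, Real.coe_toNNReal _ (hd.nonneg y)]

theorem Dens.avg_eq_conv [μ.IsAddHaarMeasure] {ρ : E → ℝ} (hd : Dens μ ρ) (h : E → E)
    (η : E → ℝ) (x : E) (hη : 0 < η x) :
    avg (kerM μ ρ) h η x =
      (h ⋆[(ContinuousLinearMap.lsmul ℝ ℝ : ℝ →L[ℝ] E →L[ℝ] E).flip, μ]
        (fun z => ((η x) ^ (Module.finrank ℝ E))⁻¹ * ρ ((η x)⁻¹ • z))) x := by
  set n := Module.finrank ℝ E
  set c := η x with hc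
  have hcn : (c ^ n) ≠ 0 := pow_ne_zero _ hη.ne'
  rw [avg, hd.integral_kerM, convolution_def]
  simp only [ContinuousLinearMap.flip_apply, ContinuousLinearMap.lsmul_apply]
  set f : E → E := fun u => ((c ^ n)⁻¹ * ρ (c⁻¹ • u)) • h (x - u) with hf
  have e1 : ∫ t, ((c ^ n)⁻¹ * ρ (c⁻¹ • (x - t))) • h t ∂μ = ∫ t, f (x - t) ∂μ := by
    refine integral_congr_ae (Eventually.of_forall fun t => ?_)
    simp [hf]
  rw [e1, integral_sub_left_eq_self f μ x]
  have e2 := Measure.integral_comp_smul μ f c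
  have e3 : ∫ u, f u ∂μ = (c ^ n) • ∫ y, f (c • y) ∂μ := by
    rw [e2, abs_of_pos (by positivity), smul_smul, mul_inv_cancel₀ hcn, one_smul]
  rw [e3, ← integral_smul]
  refine integral_congr_ae (Eventually.of_forall fun y => ?_)
  simp only [hf, smul_smul]
  rw [inv_mul_cancel₀ hη.ne', one_smul, ← mul_assoc, mul_inv_cancel₀ hcn, one_mul]

/-- **Smoothness of variable radius mollification** (continuous `h`). -/
theorem Dens.contDiffAt_avg [μ.IsAddHaarMeasure] {ρ : E → ℝ} (hd : Dens μ ρ) {h : E → E}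
    (hh : Continuous h) {η : E → ℝ} (hη : ContDiff ℝ ∞ η) {x₀ : E} (hpos : 0 < η x₀) :
    ContDiffAt ℝ ∞ (avg (kerM μ ρ) h η) x₀ := by
  set n := Module.finrank ℝ E
  set B := η x₀ + 1
  set s : Set E := {x | 0 < η x ∧ η x < B} with hs
  have hso : IsOpen s :=
    (isOpen_lt continuous_const hη.continuous).inter (isOpen_lt hη.continuous continuous_const)
  have hx₀ : x₀ ∈ s := ⟨hpos, by simp [B]⟩
  have key := contDiffOn_convolution_right_with_param_comp (𝕜 := ℝ) (μ := μ) (n := (⊤ : ℕ∞))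
    ((ContinuousLinearMap.lsmul ℝ ℝ : ℝ →L[ℝ] E →L[ℝ] E).flip) (s := s) (v := fun x : E => x)
    contDiffOn_id (f := h) (g := fun x z => ((η x) ^ n)⁻¹ * ρ ((η x)⁻¹ • z))
    (k := closedBall 0 B) hso (isCompact_closedBall 0 B) ?_ hh.locallyIntegrable ?_
  · have h1 : ContDiffOn ℝ ∞ (avg (kerM μ ρ) h η) s :=
      key.congr fun x hx => hd.avg_eq_conv h η x hx.1
    exact h1.contDiffAt (hso.mem_nhds hx₀)
  · intro x z hx hz
    have hz' : B < ‖z‖ := by simpa using hz
    have : (1 : ℝ) ≤ ‖(η x)⁻¹ • z‖ := by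
      rw [norm_smul, norm_inv, Real.norm_eq_abs, abs_of_pos hx.1, le_inv_mul_iff₀ hx.1, mul_one]
      exact (hx.2.trans hz').le
    simp [hd.supp _ this]
  · have h1 : ContDiffOn ℝ ∞ (fun p : E × E => (η p.1)⁻¹) (s ×ˢ univ) := by
      refine ContDiffOn.inv ((hη.comp contDiff_fst).contDiffOn) fun p hp => ?_
      exact hp.1.1.ne'
    have h2 : ContDiffOn ℝ ∞ (fun p : E × E => (η p.1)⁻¹ ^ n) (s ×ˢ univ) := h1.pow n
    have h3 : ContDiffOn ℝ ∞ (fun p : E × E => ρ ((η p.1)⁻¹ • p.2)) (s ×ˢ univ) :=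
      hd.smooth.comp_contDiffOn (h1.smul contDiff_snd.contDiffOn)
    have h4 := h2.mul h3
    refine h4.congr fun p hp => ?_
    simp [Function.HasUncurry.uncurry, inv_pow]

end

/-- extension constant -/
noncomputable def κE (E : Type*) [NormedAddCommGroup E] [NormedSpace ℝ E]
    [FiniteDimensional ℝ E] : ℝ≥0 := lipschitzExtensionConstant E + 1

section
variable {μ ν : Measure E}

omit [MeasurableSpace E] [BorelSpace E] in
theorem exists_ext {h : E → E} {L : ℝ≥0} {s : Set E} (hL : LipschitzOnWith L h s) :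
    ∃ g : E → E, LipschitzWith (κE E * L) g ∧ EqOn h g s := by
  obtain ⟨g, hg, he⟩ := hL.extend_finite_dimension
  refine ⟨g, hg.weaken ?_, he⟩
  unfold κE
  gcongr
  exact le_self_add

omit [FiniteDimensional ℝ E] [BorelSpace E] in
theorem avg_congr (hs : ∀ᵐ y ∂ν, ‖y‖ ≤ 1) {h g : E → E} {s : Set E} (he : EqOn h g s)
    {η : E → ℝ} {x : E} (hx : closedBall x |η x| ⊆ s) : avg ν h η x = avg ν g η x := by
  refine integral_congr_ae ?_
  filter_upwards [hs] with y hy
  refine he (hx ?_)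
  rw [mem_closedBall, dist_eq_norm, sub_sub_cancel_left, norm_neg, norm_smul, Real.norm_eq_abs]
  exact mul_le_of_le_one_right (abs_nonneg _) hy

omit [FiniteDimensional ℝ E] [BorelSpace E] in
theorem avgD_congr (hs : ∀ᵐ y ∂ν, ‖y‖ ≤ 1) {h g : E → E} {s : Set E} (hso : IsOpen s)
    (he : EqOn h g s) {c : ℝ} (hc : 0 ≤ c) {x : E} (hx : closedBall x c ⊆ s) :
    avgD ν h c x = avgD ν g c x := by
  refine integral_congr_ae ?_
  filter_upwards [hs] with y hy
  have hm : x - c • y ∈ s := by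
    refine hx ?_
    rw [mem_closedBall, dist_eq_norm, sub_sub_cancel_left, norm_neg, norm_smul, Real.norm_eq_abs,
      abs_of_nonneg hc]
    exact mul_le_of_le_one_right hc hy
  exact Filter.EventuallyEq.fderiv_eq (he.eventuallyEq_of_mem (hso.mem_nhds hm))

omit [FiniteDimensional ℝ E] [BorelSpace E] in
theorem avg_eventuallyEq (hs : ∀ᵐ y ∂ν, ‖y‖ ≤ 1) {h g : E → E} {x₀ : E} {R : ℝ}
    (he : EqOn h g (ball x₀ R)) {η : E → ℝ} (hη : Continuous η) {x : E}
    (hx : ‖x - x₀‖ + |η x| < R) : avg ν h η =ᶠ[𝓝 x] avg ν g η := by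
  have h1 : ∀ᶠ z in 𝓝 x, ‖z - x₀‖ + |η z| < R := by
    have : Continuous fun z => ‖z - x₀‖ + |η z| := by fun_prop
    exact this.continuousAt.eventually_lt continuousAt_const hx
  filter_upwards [h1] with z hz
  refine avg_congr hs he fun w hw => ?_
  rw [mem_closedBall] at hw
  rw [mem_ball]
  calc dist w x₀ ≤ dist w z + dist z x₀ := dist_triangle _ _ _
    _ < R := by rw [dist_eq_norm z x₀]; linarith

/-- local smoothness -/
theorem Dens.contDiffAt_avg_loc [μ.IsAddHaarMeasure] {ρ : E → ℝ} (hd : Dens μ ρ) {h : E → E}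
    {L : ℝ≥0} {x₀ : E} {R : ℝ} (hL : LipschitzOnWith L h (ball x₀ R)) {η : E → ℝ}
    (hη : ContDiff ℝ ∞ η) {x : E} (hpos : 0 < η x) (hx : ‖x - x₀‖ + η x < R) :
    ContDiffAt ℝ ∞ (avg (kerM μ ρ) h η) x := by
  obtain ⟨g, hg, he⟩ := exists_ext hL
  have h1 := hd.contDiffAt_avg hg.continuous hη hpos
  exact h1.congr_of_eventuallyEq
    (avg_eventuallyEq hd.ker.supp he hη.continuous (by rwa [abs_of_pos hpos]))

/-- local derivative estimate -/
theorem Ker.fderiv_avg_loc [μ.IsAddHaarMeasure] (hk : Ker μ ν) {h : E → E}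
    {L : ℝ≥0} {x₀ : E} {R : ℝ} (hL : LipschitzOnWith L h (ball x₀ R)) {η : E → ℝ}
    (hη : ContDiff ℝ ∞ η) {x : E} (hpos : 0 < η x) (hx : ‖x - x₀‖ + η x < R) :
    ‖fderiv ℝ (avg ν h η) x - avgD ν h (η x) x‖ ≤ κE E * L * ‖fderiv ℝ η x‖ := by
  obtain ⟨g, hg, he⟩ := exists_ext hL
  have hsub : closedBall x (η x) ⊆ ball x₀ R := by
    intro w hw
    rw [mem_closedBall] at hw
    rw [mem_ball]
    calc dist w x₀ ≤ dist w x + dist x x₀ := dist_triangle _ _ _
      _ < R := by rw [dist_eq_norm x x₀]; linarith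
  have h1 : fderiv ℝ (avg ν h η) x = fderiv ℝ (avg ν g η) x :=
    (avg_eventuallyEq hk.supp he hη.continuous (by rwa [abs_of_pos hpos])).fderiv_eq
  have h2 := avgD_congr hk.supp isOpen_ball he hpos.le hsub
  rw [h1, h2]
  have h1' : ContDiff ℝ 1 η := hη.of_le (by norm_cast)
  obtain ⟨M, s, hs, hM⟩ : ∃ M, ∃ s ∈ 𝓝 x, LipschitzOnWith M η s :=
    h1'.contDiffAt.exists_lipschitzOnWith
  have h3 := hk.norm_fderiv_avg_sub_le hg
    ((hη.differentiable (by simp)) x).hasFDerivAt hs hM hpos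
  simpa using h3

/-- local membership of the averaged derivative -/
theorem Ker.avgD_mem_loc [μ.IsAddHaarMeasure] (hk : Ker μ ν) {h : E → E}
    {L : ℝ≥0} {x₀ : E} {R : ℝ} (hL : LipschitzOnWith L h (ball x₀ R))
    {K : Set (E →L[ℝ] E)} (hK : Convex ℝ K) (hKc : IsClosed K)
    (hae : ∀ᵐ z ∂μ, z ∈ ball x₀ R → fderiv ℝ h z ∈ K) {x : E} {c : ℝ} (hc : 0 < c)
    (hx : ‖x - x₀‖ + c < R) : avgD ν h c x ∈ K := by
  obtain ⟨g, hg, he⟩ := exists_ext hL
  have hsub : closedBall x c ⊆ ball x₀ R := by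
    intro w hw
    rw [mem_closedBall] at hw
    rw [mem_ball]
    calc dist w x₀ ≤ dist w x + dist x x₀ := dist_triangle _ _ _
      _ < R := by rw [dist_eq_norm x x₀]; linarith
  rw [avgD_congr hk.supp isOpen_ball he hc.le hsub]
  refine hk.avgD_mem hg hK hKc (R := R - ‖x - x₀‖) hc (by linarith) ?_
  filter_upwards [hae] with z hz hz2
  have hzb : z ∈ ball x₀ R := by
    rw [mem_ball] at hz2 ⊢
    calc dist z x₀ ≤ dist z x + dist x x₀ := dist_triangle _ _ _
      _ < R := by rw [dist_eq_norm x x₀]; linarith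
  rw [← Filter.EventuallyEq.fderiv_eq (he.eventuallyEq_of_mem (isOpen_ball.mem_nhds hzb))]
  exact hz hzb

/-- local C^0 estimate -/
theorem Ker.norm_avg_sub_le_loc (hk : Ker μ ν) {h : E → E}
    {L : ℝ≥0} {x₀ : E} {R : ℝ} (hL : LipschitzOnWith L h (ball x₀ R)) {η : E → ℝ}
    {x : E} (hpos : 0 < η x) (hx : ‖x - x₀‖ + η x < R) :
    ‖avg ν h η x - h x‖ ≤ κE E * L * η x := by
  obtain ⟨g, hg, he⟩ := exists_ext hL
  have hsub : closedBall x |η x| ⊆ ball x₀ R := by
    intro w hw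
    rw [mem_closedBall, abs_of_pos hpos] at hw
    rw [mem_ball]
    calc dist w x₀ ≤ dist w x + dist x x₀ := dist_triangle _ _ _
      _ < R := by rw [dist_eq_norm x x₀]; linarith
  rw [avg_congr hk.supp he hsub, he (hsub (mem_closedBall_self (abs_nonneg _)))]
  have := hk.norm_avg_sub_le hg η x
  rw [abs_of_pos hpos] at this
  simpa using this

end

end Crest.Agent.R096.Mo_119
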