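import Mathlib

/-!
# P5-MOLL, part 3 (helper119, row 96): locally bounded below functions, small smooth radii
-/

set_option autoImplicit false

open Metric Set Filter Topology
open scoped ENNReal NNReal ContDiff

namespace Crest.Agent.R096.Mo_119

variable {E : Type*} [NormedAddCommGroup E]

/-- `b` is locally bounded below by positive constants on `Ω` -/
def LBB (Ω : Set E) (b : E → ℝ) : Prop := ∀ x ∈ Ω, ∃ c > 0, ∀ᶠ y in 𝓝 x, y ∈ Ω → c ≤ b y

theorem LBB.pos {Ω : Set E} {b : E → ℝ} (hb : LBB Ω b) {x : E} (hx : x ∈ Ω) : 0 < b x := by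
  obtain ⟨c, hc, h⟩ := hb x hx
  exact hc.trans_le (h.self_of_nhds hx)

theorem LBB.const {Ω : Set E} {c : ℝ} (hc : 0 < c) : LBB Ω (fun _ => c) :=
  fun _ _ => ⟨c, hc, Eventually.of_forall fun _ _ => le_rfl⟩

theorem LBB.mono {Ω : Set E} {b b' : E → ℝ} (hb : LBB Ω b) (h : ∀ x ∈ Ω, b x ≤ b' x) :
    LBB Ω b' := fun x hx => by
  obtain ⟨c, hc, h1⟩ := hb x hx
  exact ⟨c, hc, h1.mono fun y hy hy' => (hy hy').trans (h y hy')⟩

theorem LBB.inf_min {Ω : Set E} {b b' : E → ℝ} (hb : LBB Ω b) (hb' : LBB Ω b') :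
    LBB Ω (fun x => min (b x) (b' x)) := fun x hx => by
  obtain ⟨c, hc, h1⟩ := hb x hx
  obtain ⟨c', hc', h2⟩ := hb' x hx
  refine ⟨_, lt_min hc hc', ?_⟩
  filter_upwards [h1, h2] with y hy hy' hyΩ
  exact min_le_min (hy hyΩ) (hy' hyΩ)

theorem LBB.mul_mul {Ω : Set E} {b b' : E → ℝ} (hb : LBB Ω b) (hb' : LBB Ω b') :
    LBB Ω (fun x => b x * b' x) := fun x hx => by
  obtain ⟨c, hc, h1⟩ := hb x hx
  obtain ⟨c', hc', h2⟩ := hb' x hx
  refine ⟨_, mul_pos hc hc', ?_⟩
  filter_upwards [h1, h2] with y hy hy' hyΩ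
  exact mul_le_mul (hy hyΩ) (hy' hyΩ) hc'.le (hc.le.trans (hy hyΩ))

theorem LBB.of_continuousOn {Ω : Set E} (hΩ : IsOpen Ω) {b : E → ℝ} (hb : ContinuousOn b Ω)
    (hpos : ∀ x ∈ Ω, 0 < b x) : LBB Ω b := fun x hx => by
  refine ⟨b x / 2, by have := hpos x hx; linarith, ?_⟩
  have h1 : ContinuousAt b x := hb.continuousAt (hΩ.mem_nhds hx)
  have h2 : b x / 2 < b x := by have := hpos x hx; linarith
  filter_upwards [h1.eventually_const_lt h2] with y hy _ using hy.le

/-- lower bound on compact subsets -/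
theorem LBB.exists_le {Ω : Set E} {b : E → ℝ} (hb : LBB Ω b) {K : Set E} (hK : IsCompact K)
    (hKΩ : K ⊆ Ω) : ∃ c > 0, ∀ x ∈ K, c ≤ b x := by
  have h1 : ∀ x ∈ K, ∃ U ∈ 𝓝 x, ∃ c > 0, ∀ y ∈ U, y ∈ Ω → c ≤ b y := fun x hx => by
    obtain ⟨c, hc, h⟩ := hb x (hKΩ hx)
    exact ⟨_, h, c, hc, fun y hy => hy⟩
  choose! U hU c hc h using h1
  obtain ⟨t, htK, ht⟩ := hK.elim_nhds_subcover U hU
  by_cases hne : t.Nonempty
  · refine ⟨t.inf' hne c, ?_, fun x hx => ?_⟩
    · rw [gt_iff_lt, Finset.lt_inf'_iff]; exact fun x hx => hc x (htK x hx)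
    · obtain ⟨y, hy, hxy⟩ := mem_iUnion₂.1 (ht hx)
      exact (Finset.inf'_le _ hy).trans (h y (htK y hy) x hxy (hKΩ hx))
  · refine ⟨1, one_pos, fun x hx => ?_⟩
    obtain ⟨y, hy, -⟩ := mem_iUnion₂.1 (ht hx)
    exact absurd ⟨y, hy⟩ hne

/-- the minimal index of a locally stable predicate is locally bounded -/
theorem LBB.of_nat {Ω : Set E} {P : E → ℕ → Prop} (hex : ∀ x ∈ Ω, ∃ m, P x m)
    (hst : ∀ x ∈ Ω, ∀ m, P x m → ∃ m', ∀ᶠ y in 𝓝 x, y ∈ Ω → P y m') :
    ∃ m : E → ℕ, (∀ x ∈ Ω, P x (m x)) ∧ LBB Ω (fun x => 1 / ((m x : ℝ) + 1)) := by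
  classical
  refine ⟨fun x => if hx : x ∈ Ω then Nat.find (hex x hx) else 0, fun x hx => ?_, fun x hx => ?_⟩
  · simp only [hx, dif_pos]; exact Nat.find_spec (hex x hx)
  · obtain ⟨m', hm'⟩ := hst x hx _ (Nat.find_spec (hex x hx))
    refine ⟨1 / ((m' : ℝ) + 1), by positivity, ?_⟩
    filter_upwards [hm'] with y hy hyΩ
    simp only [hyΩ, dif_pos]
    have : Nat.find (hex y hyΩ) ≤ m' := Nat.find_min' _ (hy hyΩ)
    have h2 : ((Nat.find (hex y hyΩ) : ℕ) : ℝ) ≤ m' := by exact_mod_cast this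
    gcongr

variable [NormedSpace ℝ E] [FiniteDimensional ℝ E]

omit [NormedSpace ℝ E] [FiniteDimensional ℝ E] in
theorem isClosed_ball_subset (Ω : Set E) (r : ℝ) : IsClosed {x : E | ball x r ⊆ Ω} := by
  have : {x : E | ball x r ⊆ Ω} = ⋂ z ∈ Ωᶜ, {x | r ≤ dist z x} := by
    ext x
    simp only [mem_ofPred_eq, mem_iInter, mem_compl_iff]
    constructor
    · intro h z hz
      by_contra hcon
      exact hz (h (by rw [mem_ball]; exact not_le.1 hcon))
    · intro h z hz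
      by_contra hcon
      have := h z hcon
      rw [mem_ball] at hz
      linarith
  rw [this]
  refine isClosed_biInter fun z _ => isClosed_le continuous_const (by fun_prop)

/-- **Transport lemma**: constants at `x` hold on the ball of radius `R x / 2`. -/
theorem LBB.transport {Ω : Set E} (hΩ : IsOpen Ω) {R : E → ℝ} (hR1 : ∀ x ∈ Ω, R x ≤ 1)
    (hR0 : ∀ x ∈ Ω, 0 < R x) (hRΩ : ∀ x ∈ Ω, ball x (R x) ⊆ Ω) {c : E → ℝ} (hc : LBB Ω c) :
    ∃ b : E → ℝ, LBB Ω b ∧ ∀ x ∈ Ω, ∀ z ∈ Ω, dist z x < R x / 2 → b z ≤ c x := by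
  have : ProperSpace E := FiniteDimensional.proper_real E
  let S : E → Set ℝ := fun z => {t | ∃ x ∈ Ω, dist z x < R x / 2 ∧ t = c x}
  have hbdd : ∀ z, BddBelow (S z) := fun z => ⟨0, by
    rintro t ⟨x, hx, -, rfl⟩; exact (hc.pos hx).le⟩
  refine ⟨fun z => sInf (S z), fun z₀ hz₀ => ?_, fun x hx z hz hd => csInf_le (hbdd z) ⟨x, hx, hd, rfl⟩⟩
  obtain ⟨d, hd, hdΩ⟩ := Metric.isOpen_iff.1 hΩ z₀ hz₀
  set K : Set E := closedBall z₀ 2 ∩ {x | ball x (min d 1 / 8) ⊆ Ω} with hK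
  have hd1 : 0 < min d 1 := lt_min hd one_pos
  have hKc : IsCompact K := (isCompact_closedBall z₀ 2).inter_right (isClosed_ball_subset _ _)
  have hKΩ : K ⊆ Ω := fun x hx => hx.2 (mem_ball_self (by positivity))
  obtain ⟨m, hm, hmK⟩ := hc.exists_le hKc hKΩ
  refine ⟨m, hm, ?_⟩
  have hball : ball z₀ (min d 1 / 8) ∈ 𝓝 z₀ := ball_mem_nhds _ (by positivity)
  filter_upwards [hball] with z hz hzΩ
  refine le_csInf ⟨c z, z, hzΩ, by simp only [dist_self]; have := hR0 z hzΩ; positivity, rfl⟩ ?_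
  rintro t ⟨x, hx, hzx, rfl⟩
  refine hmK x ⟨?_, ?_⟩
  · rw [mem_ball] at hz
    rw [mem_closedBall]
    have h1 := hR1 x hx
    have h2 : min d 1 ≤ 1 := min_le_right _ _
    calc dist x z₀ ≤ dist x z + dist z z₀ := dist_triangle _ _ _
      _ ≤ 2 := by rw [dist_comm x z]; linarith
  · rw [mem_ball] at hz
    intro w hw
    rw [mem_ball] at hw
    by_cases hcase : dist x z₀ < min d 1 / 2
    · refine hdΩ ?_
      rw [mem_ball]
      have : min d 1 ≤ d := min_le_left _ _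
      calc dist w z₀ ≤ dist w x + dist x z₀ := dist_triangle _ _ _
        _ < d := by linarith
    · refine hRΩ x hx ?_
      rw [mem_ball]
      have h3 : dist x z₀ ≤ dist z x + dist z z₀ := by
        rw [dist_comm z x]; exact dist_triangle _ _ _
      linarith

/-- **Small smooth radius**: positive exactly on `Ω`, value and derivative below `b` on `Ω`,
and derivative at most `1/4` everywhere. -/
theorem exists_radius {Ω : Set E} (hΩ : IsOpen Ω) {b : E → ℝ} (hb : LBB Ω b) :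
    ∃ η : E → ℝ, ContDiff ℝ ∞ η ∧ (∀ x, 0 ≤ η x) ∧ (∀ x ∈ Ω, 0 < η x) ∧
      (∀ x ∈ Ω, η x ≤ b x) ∧ (∀ x ∈ Ω, ‖fderiv ℝ η x‖ ≤ b x) ∧ (∀ x, ‖fderiv ℝ η x‖ ≤ 1/4) := by
  classical
  rcases eq_empty_or_nonempty Ω with (rfl | h's)
  · exact ⟨fun _ => 0, contDiff_const, by simp, by simp, by simp, by simp, by simp⟩
  let ι := { f : E → ℝ // tsupport f ⊆ Ω ∧ HasCompactSupport f ∧ ContDiff ℝ ∞ f ∧
    range f ⊆ Icc 0 1 }
  obtain ⟨T, T_count, hT⟩ : ∃ T : Set ι, T.Countable ∧ ⋃ f ∈ T, Function.support (f : E → ℝ) = Ω := by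
    have : ⋃ f : ι, Function.support (f : E → ℝ) = Ω := by
      refine Subset.antisymm (iUnion_subset fun f => (subset_tsupport _).trans f.2.1) ?_
      intro x hx
      rcases exists_contDiff_tsupport_subset (n := ⊤) (hΩ.mem_nhds hx) with ⟨f, hf⟩
      let g : ι := ⟨f, hf.1, hf.2.1, hf.2.2.1, hf.2.2.2.1⟩
      have : x ∈ Function.support (g : E → ℝ) := by
        simp only [g, hf.2.2.2.2, Function.mem_support, Ne, one_ne_zero, not_false_iff]
      exact mem_iUnion_of_mem _ this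
    simp_rw [← this]
    apply TopologicalSpace.isOpen_iUnion_countable
    rintro ⟨f, hf⟩
    exact hf.2.2.1.continuous.isOpen_support
  obtain ⟨g0, hg⟩ : ∃ g0 : ℕ → ι, T = range g0 := by
    apply Countable.exists_eq_range T_count
    rcases eq_empty_or_nonempty T with (rfl | hT')
    · simp only [← hT, mem_empty_iff_false, iUnion_of_empty, iUnion_empty, Set.not_nonempty_empty]
        at h's
    · exact hT'
  let g : ℕ → E → ℝ := fun n => (g0 n).1
  have g_s : ∀ n, tsupport (g n) ⊆ Ω := fun n => (g0 n).2.1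
  have s_g : ∀ x ∈ Ω, ∃ n, x ∈ Function.support (g n) := fun x hx ↦ by
    rw [← hT] at hx
    obtain ⟨i, iT, hi⟩ : ∃ i ∈ T, x ∈ Function.support (i : E → ℝ) := by
      simpa only [mem_iUnion, exists_prop] using! hx
    rw [hg] at iT
    obtain ⟨n, rfl⟩ := iT
    exact ⟨n, hi⟩
  have g_smooth : ∀ n, ContDiff ℝ ∞ (g n) := fun n => (g0 n).2.2.2.1
  have g_cs : ∀ n, HasCompactSupport (g n) := fun n => (g0 n).2.2.1
  have g_nonneg : ∀ n x, 0 ≤ g n x := fun n x => ((g0 n).2.2.2.2 (mem_range_self x)).1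
  have g_le : ∀ n x, g n x ≤ 1 := fun n x => ((g0 n).2.2.2.2 (mem_range_self x)).2
  -- lower bound of b on supports
  have hm : ∀ n, ∃ m > 0, ∀ x ∈ tsupport (g n), m ≤ b x := fun n =>
    hb.exists_le (g_cs n).isCompact (g_s n)
  choose m hm0 hm using hm
  obtain ⟨δ, δpos, c, δc, c_lt⟩ :
      ∃ δ : ℕ → ℝ≥0, (∀ i : ℕ, 0 < δ i) ∧ ∃ c : NNReal, HasSum δ c ∧ c < 1/4 :=
    NNReal.exists_pos_sum_of_countable (by norm_num) ℕ
  have : ∀ n : ℕ, ∃ r : ℝ, 0 < r ∧ (∀ i ≤ n + 1, ∀ x, ‖iteratedFDeriv ℝ i (r • g n) x‖ ≤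
      δ n * min 1 (m n)) := by
    intro n
    have : ∀ i, ∃ R, ∀ x, ‖iteratedFDeriv ℝ i (fun x => g n x) x‖ ≤ R := by
      intro i
      have : BddAbove (range fun x => ‖iteratedFDeriv ℝ i (fun x : E => g n x) x‖) := by
        apply ((g_smooth n).continuous_iteratedFDeriv
          (mod_cast le_top)).norm.bddAbove_range_of_hasCompactSupport
        apply HasCompactSupport.comp_left _ norm_zero
        apply (g_cs n).iteratedFDeriv
      rcases this with ⟨R, hR⟩
      exact ⟨R, fun x => hR (mem_range_self _)⟩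
    choose R hR using this
    let M := max (((Finset.range (n + 2)).image R).max' (by simp)) 1
    have δnpos : 0 < δ n := δpos n
    have hmn : 0 < min 1 (m n) := lt_min one_pos (hm0 n)
    have IR : ∀ i ≤ n + 1, R i ≤ M := by
      intro i hi
      refine le_trans ?_ (le_max_left _ _)
      apply Finset.le_max'
      apply Finset.mem_image_of_mem
      simp only [Finset.mem_range]
      lia
    have hM : 0 < M := lt_of_lt_of_le one_pos (le_max_right _ _)
    have hδ' : (0:ℝ) < δ n := by exact_mod_cast δnpos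
    refine ⟨M⁻¹ * (δ n * min 1 (m n)), by positivity, fun i hi x => ?_⟩
    calc
      ‖iteratedFDeriv ℝ i ((M⁻¹ * (δ n * min 1 (m n))) • g n) x‖
          = ‖(M⁻¹ * (δ n * min 1 (m n))) • iteratedFDeriv ℝ i (g n) x‖ := by
        rw [iteratedFDeriv_const_smul_apply]
        exact (g_smooth n).contDiffAt.of_le (mod_cast le_top)
      _ = M⁻¹ * (δ n * min 1 (m n)) * ‖iteratedFDeriv ℝ i (g n) x‖ := by
        rw [norm_smul _ (iteratedFDeriv ℝ i (g n) x), Real.norm_of_nonneg]; positivity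
      _ ≤ M⁻¹ * (δ n * min 1 (m n)) * M := by gcongr; exact (hR i x).trans (IR i hi)
      _ = δ n * min 1 (m n) := by field_simp
  choose r rpos hr using this
  have hδs : Summable (fun n => (δ n : ℝ)) := by exact_mod_cast δc.summable
  have hδsum : ∑' n, (δ n : ℝ) ≤ 1/4 := by
    have : ∑' n, (δ n : ℝ) = c := by exact_mod_cast δc.tsum_eq
    rw [this]
    have h4 : (c : ℝ) < ((1/4 : ℝ≥0) : ℝ) := by exact_mod_cast c_lt
    have : ((1/4 : ℝ≥0) : ℝ) = 1/4 := by norm_num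
    linarith
  have hδn : ∀ n, (0:ℝ) ≤ δ n := fun n => (δ n).coe_nonneg
  have hr1 : ∀ n, ∀ i ≤ n + 1, ∀ x, ‖iteratedFDeriv ℝ i (r n • g n) x‖ ≤ δ n := fun n i hi x =>
    (hr n i hi x).trans (mul_le_of_le_one_right (hδn n) (min_le_left _ _))
  set η : E → ℝ := fun x => ∑' n, (r n • g n) x with hη
  have hval : ∀ n x, (r n • g n) x ≤ δ n * min 1 (m n) := fun n x => by
    have := hr n 0 (by omega) x
    rw [norm_iteratedFDeriv_zero] at this
    exact (le_abs_self _).trans this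
  have hval0 : ∀ n x, 0 ≤ (r n • g n) x := fun n x => by
    simp only [Pi.smul_apply, smul_eq_mul]; exact mul_nonneg (rpos n).le (g_nonneg n x)
  have S : ∀ x, Summable fun n => (r n • g n) x := fun x ↦
    Summable.of_nonneg_of_le (fun n => hval0 n x)
      (fun n => (hval n x).trans (mul_le_of_le_one_right (hδn n) (min_le_left _ _))) hδs
  have hsm : ContDiff ℝ ∞ η := by
    refine contDiff_tsum_of_eventually
      (v := fun _ n => (δ n : ℝ))
      (fun n => (contDiff_const_smul (r n) |>.comp (g_smooth n)).of_le le_rfl) (fun k _ => hδs) ?_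
    intro k hk
    refine (eventually_ge_atTop k).filter_mono (Nat.cofinite_eq_atTop.le) |>.mono fun n hn x => ?_
    exact hr1 n k (by omega) x
  have hfd : ∀ n x, ‖fderiv ℝ (r n • g n) x‖ ≤ δ n * min 1 (m n) := fun n x => by
    have := hr n 1 (by omega) x
    rwa [← norm_iteratedFDeriv_one] 
  have hder : ∀ x, fderiv ℝ η x = ∑' n, fderiv ℝ (r n • g n) x := by
    intro x
    have h1 : ∀ n z, HasFDerivAt (r n • g n) (fderiv ℝ (r n • g n) z) z := fun n z =>
      (((g_smooth n).const_smul (r n)).differentiable (by simp) z).hasFDerivAt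
    exact (hasFDerivAt_tsum hδs h1
      (fun n z => (hfd n z).trans (mul_le_of_le_one_right (hδn n) (min_le_left _ _)))
      (S x) x).fderiv
  have hη0 : ∀ x, 0 ≤ η x := fun x => tsum_nonneg fun n => hval0 n x
  have hSd : ∀ x, Summable fun n => fderiv ℝ (r n • g n) x := fun x =>
    Summable.of_norm_bounded hδs
      fun n => (hfd n x).trans (mul_le_of_le_one_right (hδn n) (min_le_left _ _))
  -- pointwise domination by δ n * b x
  have hdomv : ∀ n, ∀ x ∈ Ω, (r n • g n) x ≤ δ n * b x := fun n x hx => by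
    by_cases hxs : x ∈ tsupport (g n)
    · refine (hval n x).trans (mul_le_mul_of_nonneg_left ?_ (hδn n))
      exact (min_le_right _ _).trans (hm n x hxs)
    · have : g n x = 0 := image_eq_zero_of_notMem_tsupport hxs
      simp only [Pi.smul_apply, this, smul_zero]
      exact mul_nonneg (hδn n) (hb.pos hx).le
  have hdomd : ∀ n, ∀ x ∈ Ω, ‖fderiv ℝ (r n • g n) x‖ ≤ δ n * b x := fun n x hx => by
    by_cases hxs : x ∈ tsupport (g n)
    · refine (hfd n x).trans (mul_le_mul_of_nonneg_left ?_ (hδn n))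
      exact (min_le_right _ _).trans (hm n x hxs)
    · have h0 : (r n • g n) =ᶠ[𝓝 x] fun _ => 0 := by
        have : g n =ᶠ[𝓝 x] 0 := notMem_tsupport_iff_eventuallyEq.1 hxs
        filter_upwards [this] with z hz
        simp [hz]
      rw [h0.fderiv_eq]
      simp only [fderiv_fun_const, Pi.zero_apply, norm_zero]
      exact mul_nonneg (hδn n) (hb.pos hx).le
  refine ⟨η, hsm, hη0, fun x hx => ?_, fun x hx => ?_, fun x hx => ?_, fun x => ?_⟩
  · obtain ⟨n, hn⟩ := s_g x hx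
    have hgn : 0 < g n x := lt_of_le_of_ne (g_nonneg n x) (Ne.symm hn)
    have : 0 < (r n • g n) x := by
      simp only [Pi.smul_apply, smul_eq_mul]; exact mul_pos (rpos n) hgn
    exact this.trans_le ((S x).le_tsum n fun k _ => hval0 k x)
  · have hb0 := (hb.pos hx).le
    calc η x ≤ ∑' n, (δ n : ℝ) * b x := (S x).tsum_le_tsum (fun n => hdomv n x hx) (hδs.mul_right _)
      _ = (∑' n, (δ n : ℝ)) * b x := tsum_mul_right
      _ ≤ (1/4) * b x := by gcongr
      _ ≤ b x := by linarith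
  · have hb0 := (hb.pos hx).le
    rw [hder x]
    have hs2 : Summable (fun n => (δ n : ℝ) * b x) := hδs.mul_right _
    calc _ ≤ ∑' n, (δ n : ℝ) * b x := tsum_of_norm_bounded hs2.hasSum (fun n => hdomd n x hx)
      _ = (∑' n, (δ n : ℝ)) * b x := tsum_mul_right
      _ ≤ (1/4) * b x := by gcongr
      _ ≤ b x := by linarith
  · rw [hder x]
    exact (tsum_of_norm_bounded hδs.hasSum
      (fun n => (hfd n x).trans (mul_le_of_le_one_right (hδn n) (min_le_left _ _)))).trans hδsum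

end Crest.Agent.R096.Mo_119
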