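import Crest.Agent.R096.Mo2_119
import Crest.Agent.R096.Mo3_119

/-!
# P5-MOLL, part 4 (helper119, row 96): the mollified map is a diffeomorphism onto `Λ`
-/

set_option autoImplicit false

open MeasureTheory Metric Set Filter Topology
open scoped ENNReal NNReal ContDiff

namespace Crest.Agent.R096.Mo_119

variable {E : Type*} [NormedAddCommGroup E] [NormedSpace ℝ E] [FiniteDimensional ℝ E]
  [MeasurableSpace E] [BorelSpace E]

/-- **The convex class.** -/
def MollAt (μ : Measure E) (h : E → E) (x : E) : Prop :=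
  ∃ r > 0, ∃ K : Set (E →L[ℝ] E), Convex ℝ K ∧ IsCompact K ∧ (∀ A ∈ K, 0 < A.det) ∧
    (∃ L : ℝ≥0, LipschitzOnWith L h (ball x r)) ∧ ∀ᵐ y ∂μ, y ∈ ball x r → fderiv ℝ h y ∈ K

def Moll (μ : Measure E) (h : E → E) (Ω : Set E) : Prop := ∀ x ∈ Ω, MollAt μ h x

/-- quantitative form of `MollAt` used internally -/
def Qt (μ : Measure E) (h : E → E) (Ω Λ : Set E) (x : E) (t : ℝ) (L : ℝ≥0) : Prop :=
  ball x t ⊆ Ω ∧ ball (h x) t ⊆ Λ ∧ LipschitzOnWith L h (ball x t) ∧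
  ∃ K : Set (E →L[ℝ] E), Convex ℝ K ∧ IsClosed K ∧
    (∀ᵐ y ∂μ, y ∈ ball x t → fderiv ℝ h y ∈ K) ∧
    ∀ B ∈ cthickening t K, 0 < B.det ∧ ∀ v, t * ‖v‖ ≤ ‖B v‖

section lin

omit [MeasurableSpace E] [BorelSpace E] [FiniteDimensional ℝ E] in
theorem continuous_det : Continuous fun A : E →L[ℝ] E => A.det := ContinuousLinearMap.continuous_det

omit [MeasurableSpace E] [BorelSpace E] in
/-- compact sets of positive determinant are uniformly invertible -/
theorem exists_tol {K : Set (E →L[ℝ] E)} (hK : IsCompact K) (hdet : ∀ A ∈ K, 0 < A.det) :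
    ∃ t > 0, ∀ B ∈ cthickening t K, 0 < B.det ∧ ∀ v, t * ‖v‖ ≤ ‖B v‖ := by
  have : ProperSpace (E →L[ℝ] E) := FiniteDimensional.proper_real _
  have : ProperSpace E := FiniteDimensional.proper_real _
  have hU : IsOpen {B : E →L[ℝ] E | 0 < B.det} := isOpen_lt continuous_const continuous_det
  obtain ⟨d, hd, hdU⟩ := hK.exists_cthickening_subset_open hU hdet
  set C : Set ((E →L[ℝ] E) × E) := cthickening d K ×ˢ sphere (0 : E) 1 with hC
  have hCc : IsCompact C := (hK.cthickening).prod (isCompact_sphere 0 1)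
  have hcont : Continuous fun p : (E →L[ℝ] E) × E => ‖p.1 p.2‖ := by fun_prop
  have hpos : ∀ p ∈ C, 0 < ‖p.1 p.2‖ := by
    rintro ⟨B, v⟩ ⟨hB, hv⟩
    have hdB : 0 < B.det := hdU hB
    rw [norm_pos_iff]
    intro h0
    have hinj : Function.Injective B := by
      intro a b hab
      apply (B.toContinuousLinearEquivOfDetNeZero hdB.ne').injective
      rw [ContinuousLinearMap.toContinuousLinearEquivOfDetNeZero_apply,
        ContinuousLinearMap.toContinuousLinearEquivOfDetNeZero_apply]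
      exact hab
    have : v = 0 := hinj (by simpa using h0)
    rw [this] at hv
    simp at hv
  obtain ⟨c, hc, hcC⟩ : ∃ c > 0, ∀ p ∈ C, c ≤ ‖p.1 p.2‖ := by
    rcases C.eq_empty_or_nonempty with he | hne
    · exact ⟨1, one_pos, fun p hp => by rw [he] at hp; exact absurd hp (notMem_empty _)⟩
    · obtain ⟨p, hp, hmin⟩ := hCc.exists_isMinOn hne hcont.continuousOn
      exact ⟨_, hpos p hp, fun q hq => hmin hq⟩
  refine ⟨min d c, lt_min hd hc, fun B hB => ?_⟩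
  have hB' : B ∈ cthickening d K := cthickening_mono (min_le_left _ _) _ hB
  refine ⟨hdU hB', fun v => ?_⟩
  by_cases hv : v = 0
  · simp [hv]
  have hv' : 0 < ‖v‖ := norm_pos_iff.2 hv
  have h1 := hcC (B, ‖v‖⁻¹ • v) ⟨hB', by simp [norm_smul, hv'.ne']⟩
  simp only [map_smul, norm_smul, norm_inv, norm_norm] at h1
  have h2 : c * ‖v‖ ≤ ‖B v‖ := by
    have := mul_le_mul_of_nonneg_right h1 hv'.le
    calc c * ‖v‖ ≤ ‖v‖⁻¹ * ‖B v‖ * ‖v‖ := this
      _ = ‖B v‖ := by field_simp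
  calc min d c * ‖v‖ ≤ c * ‖v‖ := by gcongr; exact min_le_right _ _
    _ ≤ _ := h2

omit [FiniteDimensional ℝ E] [MeasurableSpace E] [BorelSpace E] in
/-- averaged derivative along a segment -/
theorem exists_seg [CompleteSpace E] {g : E → E} {B : Set E} (hB : Convex ℝ B) {K : Set (E →L[ℝ] E)}
    (hK : Convex ℝ K) (hKc : IsClosed K) (hd : ∀ z ∈ B, ContDiffAt ℝ 1 g z)
    (hf : ∀ z ∈ B, fderiv ℝ g z ∈ K) {a b : E} (ha : a ∈ B) (hb : b ∈ B) :
    ∃ A ∈ K, g a - g b = A (a - b) := by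
  have hseg : ∀ t ∈ Icc (0:ℝ) 1, b + t • (a - b) ∈ B := fun t ht => by
    have := hB.add_smul_sub_mem hb ha ht
    exact this
  have hc : ContinuousOn (fun t : ℝ => fderiv ℝ g (b + t • (a - b))) (Icc 0 1) := by
    intro t ht
    have h1 : ContinuousAt (fderiv ℝ g) (b + t • (a - b)) :=
      (hd _ (hseg t ht)).continuousAt_fderiv one_ne_zero
    have h2 : ContinuousAt (fun t : ℝ => b + t • (a - b)) t := by fun_prop
    exact (ContinuousAt.comp (f := fun t : ℝ => b + t • (a - b)) h1 h2).continuousWithinAt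
  have hint : IntegrableOn (fun t : ℝ => fderiv ℝ g (b + t • (a - b))) (Icc 0 1) :=
    hc.integrableOn_Icc
  have hprob : IsProbabilityMeasure ((volume : Measure ℝ).restrict (Icc 0 1)) := ⟨by simp⟩
  refine ⟨∫ t in Icc (0:ℝ) 1, fderiv ℝ g (b + t • (a - b)), ?_, ?_⟩
  · refine hK.integral_mem hKc ?_ hint
    filter_upwards [ae_restrict_mem measurableSet_Icc] with t ht using hf _ (hseg t ht)
  · have h1 : (∫ t in Icc (0:ℝ) 1, fderiv ℝ g (b + t • (a - b))) (a - b)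
        = ∫ t in Icc (0:ℝ) 1, (fderiv ℝ g (b + t • (a - b))) (a - b) :=
      ContinuousLinearMap.integral_apply hint (a - b)
    rw [h1, integral_Icc_eq_integral_Ioc, ← intervalIntegral.integral_of_le zero_le_one]
    have h2 : ∀ t ∈ uIcc (0:ℝ) 1, HasDerivAt (fun t : ℝ => g (b + t • (a - b)))
        ((fderiv ℝ g (b + t • (a - b))) (a - b)) t := by
      intro t ht
      rw [uIcc_of_le zero_le_one] at ht
      have hg : HasFDerivAt g (fderiv ℝ g (b + t • (a - b))) (b + t • (a - b)) :=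
        ((hd _ (hseg t ht)).differentiableAt one_ne_zero).hasFDerivAt
      have hl : HasDerivAt (fun t : ℝ => b + t • (a - b)) (a - b) t := by
        have := ((hasDerivAt_id t).smul_const (a - b)).const_add b
        simpa using this
      exact hg.comp_hasDerivAt t hl
    have h3 : IntervalIntegrable (fun t : ℝ => (fderiv ℝ g (b + t • (a - b))) (a - b))
        volume 0 1 := by
      refine ContinuousOn.intervalIntegrable ?_
      rw [uIcc_of_le zero_le_one]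
      exact hc.clm_apply continuousOn_const
    rw [intervalIntegral.integral_eq_sub_of_hasDerivAt h2 h3]
    simp

end lin

section
variable {μ : Measure E}

omit [BorelSpace E] in
theorem Qt.exists_of_mollAt {h : E → E} {Ω Λ : Set E} (hΩ : IsOpen Ω) (hΛ : IsOpen Λ) {x : E}
    (hx : x ∈ Ω) (hxΛ : h x ∈ Λ) (hm : MollAt μ h x) :
    ∃ m : ℕ, Qt μ h Ω Λ x (1 / ((m:ℝ) + 1)) ((m : ℝ≥0) + 1) := by
  obtain ⟨r, hr, K, hK, hKc, hdet, ⟨L, hL⟩, hae⟩ := hm
  obtain ⟨t, ht, htK⟩ := exists_tol hKc hdet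
  obtain ⟨d, hd, hdΩ⟩ := Metric.isOpen_iff.1 hΩ x hx
  obtain ⟨d', hd', hdΛ⟩ := Metric.isOpen_iff.1 hΛ _ hxΛ
  set q := min (min r t) (min d d') with hq
  have hq0 : 0 < q := lt_min (lt_min hr ht) (lt_min hd hd')
  obtain ⟨m1, hm1⟩ := exists_nat_one_div_lt hq0
  obtain ⟨m2, hm2⟩ := exists_nat_ge (L : ℝ≥0)
  set m := max m1 m2
  have hmq : 1 / ((m:ℝ) + 1) ≤ q := by
    refine le_trans ?_ hm1.le
    have : (m1:ℝ) ≤ m := by exact_mod_cast le_max_left _ _
    gcongr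
  have hr' : 1 / ((m:ℝ) + 1) ≤ r := hmq.trans ((min_le_left _ _).trans (min_le_left _ _))
  have ht' : 1 / ((m:ℝ) + 1) ≤ t := hmq.trans ((min_le_left _ _).trans (min_le_right _ _))
  have hd1 : 1 / ((m:ℝ) + 1) ≤ d := hmq.trans ((min_le_right _ _).trans (min_le_left _ _))
  have hd2 : 1 / ((m:ℝ) + 1) ≤ d' := hmq.trans ((min_le_right _ _).trans (min_le_right _ _))
  refine ⟨m, (ball_subset_ball hd1).trans hdΩ, (ball_subset_ball hd2).trans hdΛ,
    (hL.weaken ?_).mono (ball_subset_ball hr'), K, hK, hKc.isClosed, ?_, ?_⟩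
  · have : (m2 : ℝ≥0) ≤ m := by exact_mod_cast le_max_right _ _
    exact hm2.trans (this.trans le_self_add)
  · filter_upwards [hae] with y hy hy2 using hy (ball_subset_ball hr' hy2)
  · intro B hB
    obtain ⟨h1, h2⟩ := htK B (cthickening_mono ht' _ hB)
    refine ⟨h1, fun v => le_trans ?_ (h2 v)⟩
    gcongr

omit [BorelSpace E] [FiniteDimensional ℝ E] in
theorem Qt.stable {h : E → E} {Ω Λ : Set E} {x : E} {m : ℕ}
    (hq : Qt μ h Ω Λ x (1 / ((m:ℝ) + 1)) ((m : ℝ≥0) + 1)) :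
    ∀ᶠ y in 𝓝 x, Qt μ h Ω Λ y (1 / (((2 * m + 1 : ℕ):ℝ) + 1)) (((2 * m + 1 : ℕ) : ℝ≥0) + 1) := by
  obtain ⟨h1, h2, h3, K, hK, hKc, hae, hB⟩ := hq
  set t : ℝ := 1 / ((m:ℝ) + 1) with ht
  have ht0 : 0 < t := by positivity
  have e : 1 / (((2 * m + 1 : ℕ):ℝ) + 1) = t / 2 := by
    rw [ht]; push_cast; field_simp; ring
  have hcont : ContinuousAt h x :=
    h3.continuousOn.continuousAt (ball_mem_nhds x ht0)
  have e1 : ∀ᶠ y in 𝓝 x, dist y x < t / 2 := ball_mem_nhds x (by positivity)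
  have e2 : ∀ᶠ y in 𝓝 x, dist (h y) (h x) < t / 2 :=
    hcont.eventually (ball_mem_nhds (h x) (by positivity))
  filter_upwards [e1, e2] with y hy1 hy2
  rw [e]
  have hb : ball y (t/2) ⊆ ball x t := ball_subset_ball' (by linarith)
  have hb' : ball (h y) (t/2) ⊆ ball (h x) t := ball_subset_ball' (by linarith)
  refine ⟨hb.trans h1, hb'.trans h2, (h3.weaken ?_).mono hb, K, hK, hKc, ?_, ?_⟩
  · have : (m : ℝ≥0) ≤ ((2 * m + 1 : ℕ) : ℝ≥0) := by
      exact_mod_cast (by omega : m ≤ 2 * m + 1)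
    gcongr
  · filter_upwards [hae] with z hz hz2 using hz (hb hz2)
  · intro B hB'
    obtain ⟨h4, h5⟩ := hB B (cthickening_mono (by linarith) _ hB')
    refine ⟨h4, fun v => le_trans ?_ (h5 v)⟩
    have := norm_nonneg v
    nlinarith

omit [BorelSpace E] in
/-- the data of a `Moll` homeomorphism on the whole domain -/
theorem exists_data {h : E → E} {Ω Λ : Set E} (hΩ : IsOpen Ω) (hΛ : IsOpen Λ)
    (hm : Moll μ h Ω) (hmaps : MapsTo h Ω Λ)
    (hsep : ∀ x ∈ Ω, ∀ ρ > 0, ∃ s > 0, ∀ y ∈ Ω, dist (h y) (h x) < s → dist y x < ρ) :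
    ∃ (R s : E → ℝ) (L : E → ℝ≥0), LBB Ω R ∧ LBB Ω s ∧ (∀ x ∈ Ω, R x ≤ 1) ∧
      (∀ x ∈ Ω, (L x : ℝ) = 1 / R x) ∧
      (∀ x ∈ Ω, Qt μ h Ω Λ x (R x) (L x)) ∧
      (∀ x ∈ Ω, ∀ y ∈ Ω, dist (h y) (h x) < s x → dist y x < R x / 2) := by
  obtain ⟨m, hmP, hmL⟩ := LBB.of_nat (Ω := Ω)
    (P := fun x m => Qt μ h Ω Λ x (1 / ((m:ℝ) + 1)) ((m : ℝ≥0) + 1))
    (fun x hx => Qt.exists_of_mollAt hΩ hΛ hx (hmaps hx) (hm x hx))
    (fun x _ k hk => ⟨2 * k + 1, hk.stable.mono fun y hy _ => hy⟩)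
  set R : E → ℝ := fun x => 1 / ((m x : ℝ) + 1) with hR
  have hex : ∀ x ∈ Ω, ∃ k : ℕ, ∀ y ∈ Ω, dist (h y) (h x) < 1 / ((k:ℝ) + 1) →
      dist y x < R x / 2 := by
    intro x hx
    obtain ⟨s, hs, hs2⟩ := hsep x hx (R x / 2) (by positivity)
    obtain ⟨k, hk⟩ := exists_nat_one_div_lt hs
    exact ⟨k, fun y hy hd => hs2 y hy (hd.trans hk)⟩
  have hst : ∀ x ∈ Ω, ∀ k : ℕ, (∀ y ∈ Ω, dist (h y) (h x) < 1 / ((k:ℝ) + 1) →
      dist y x < R x / 2) → ∃ k' : ℕ, ∀ᶠ y in 𝓝 x, y ∈ Ω →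
        ∀ z ∈ Ω, dist (h z) (h y) < 1 / ((k':ℝ) + 1) → dist z y < R y / 2 := by
    intro x hx _ _
    obtain ⟨ρ, hρ, hρR⟩ := hmL x hx
    obtain ⟨s, hs, hs2⟩ := hsep x hx (ρ / 8) (by positivity)
    obtain ⟨k', hk'⟩ := exists_nat_one_div_lt (half_pos hs)
    refine ⟨k', ?_⟩
    have hcont : ContinuousAt h x := by
      obtain ⟨-, -, h3, -⟩ := hmP x hx
      exact h3.continuousOn.continuousAt (ball_mem_nhds x (by positivity))
    have e1 : ∀ᶠ y in 𝓝 x, dist y x < ρ / 8 := ball_mem_nhds x (by positivity)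
    have e2 : ∀ᶠ y in 𝓝 x, dist (h y) (h x) < s / 2 :=
      hcont.eventually (ball_mem_nhds (h x) (by positivity))
    filter_upwards [hρR, e1, e2] with y hy1 hy2 hy3 hyΩ z hz hd
    have h1 : ρ ≤ R y := hy1 hyΩ
    have h2 : dist (h z) (h x) < s := by
      calc dist (h z) (h x) ≤ dist (h z) (h y) + dist (h y) (h x) := dist_triangle _ _ _
        _ < s := by linarith
    have h3 := hs2 z hz h2
    calc dist z y ≤ dist z x + dist x y := dist_triangle _ _ _
      _ < R y / 2 := by rw [dist_comm x y]; linarith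
  obtain ⟨k, hkP, hkL⟩ := LBB.of_nat (Ω := Ω)
    (P := fun x k => ∀ y ∈ Ω, dist (h y) (h x) < 1 / ((k:ℝ) + 1) → dist y x < R x / 2) hex hst
  refine ⟨R, fun x => 1 / ((k x : ℝ) + 1), fun x => (m x : ℝ≥0) + 1, hmL, hkL, fun x hx => ?_,
      fun x hx => ?_, hmP, hkP⟩
  · rw [hR]
    simp only
    rw [div_le_one (by positivity)]
    have : (0:ℝ) ≤ m x := Nat.cast_nonneg _
    linarith
  · simp only [hR]; push_cast; rw [one_div_one_div]

/-- **MOLLIFICATION THEOREM, C^0 part**: all small radii are good. -/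
theorem exists_bound [μ.IsAddHaarMeasure] {ρ : E → ℝ} (hρ : Dens μ ρ) {h : E → E} {Ω Λ : Set E}
    (hΩ : IsOpen Ω) (hΛ : IsOpen Λ) (hΛc : IsPreconnected Λ) (himg : h '' Ω = Λ)
    (hm : Moll μ h Ω)
    (hsep : ∀ x ∈ Ω, ∀ ρ > 0, ∃ s > 0, ∀ y ∈ Ω, dist (h y) (h x) < s → dist y x < ρ)
    {δ : E → ℝ} (hδ : LBB Ω δ) :
    ∃ b : E → ℝ, LBB Ω b ∧ ∀ η : E → ℝ, ContDiff ℝ ∞ η → (∀ x ∈ Ω, 0 < η x) →
      (∀ x ∈ Ω, η x ≤ b x) → (∀ x ∈ Ω, ‖fderiv ℝ η x‖ ≤ b x) →
      ContDiffOn ℝ ∞ (avg (kerM μ ρ) h η) Ω ∧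
      (∀ x ∈ Ω, 0 < (fderiv ℝ (avg (kerM μ ρ) h η) x).det) ∧
      InjOn (avg (kerM μ ρ) h η) Ω ∧ avg (kerM μ ρ) h η '' Ω = Λ ∧
      ∀ x ∈ Ω, ‖avg (kerM μ ρ) h η x - h x‖ ≤ δ x := by
  have hmaps : MapsTo h Ω Λ := by rw [← himg]; exact mapsTo_image _ _
  obtain ⟨R, s, L, hR, hs, hR1, hLR, hQ, hsR⟩ := exists_data hΩ hΛ hm hmaps hsep
  have hκ : (1:ℝ) ≤ κE E := by
    have : (1 : ℝ≥0) ≤ κE E := by unfold κE; exact le_add_self
    exact_mod_cast this
  have hκ0 : (0:ℝ) < κE E := by linarith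
  -- the tolerance
  set τ : E → ℝ := fun x => min (R x * (1/4)) (min (δ x) (s x * (1/4))) with hτ
  have hτL : LBB Ω τ :=
    (hR.mul_mul (LBB.const (by norm_num))).inf_min (hδ.inf_min (hs.mul_mul (LBB.const (by norm_num))))
  set c : E → ℝ := fun x => (κE E : ℝ)⁻¹ * (R x * τ x) with hc
  have hcL : LBB Ω c := (LBB.const (by positivity)).mul_mul (hR.mul_mul hτL)
  obtain ⟨b, hb, hbc⟩ := hcL.transport hΩ hR1 (fun x hx => hR.pos hx) (fun x hx => (hQ x hx).1)
  refine ⟨b, hb, fun η hη hη0 hηb hηd => ?_⟩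
  set g := avg (kerM μ ρ) h η with hg
  have hk := hρ.ker
  -- elementary inequalities
  have hRpos : ∀ x ∈ Ω, 0 < R x := fun x hx => hR.pos hx
  have hτpos : ∀ x ∈ Ω, 0 < τ x := fun x hx => hτL.pos hx
  have hτR : ∀ x, τ x ≤ R x * (1/4) := fun x => min_le_left _ _
  have hτδ : ∀ x, τ x ≤ δ x := fun x => (min_le_right _ _).trans (min_le_left _ _)
  have hτs : ∀ x, τ x ≤ s x * (1/4) := fun x => (min_le_right _ _).trans (min_le_right _ _)
  have hcκ : ∀ x ∈ Ω, κE E * L x * c x = τ x := fun x hx => by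
    have := (hRpos x hx).ne'
    simp only [hc, hLR x hx]
    field_simp
  have hcR : ∀ x ∈ Ω, c x ≤ R x * (1/4) := fun x hx => by
    have h1 := hRpos x hx
    have h2 := hτpos x hx
    have h3 : (κE E : ℝ)⁻¹ ≤ 1 := inv_le_one_of_one_le₀ hκ
    calc c x = (κE E : ℝ)⁻¹ * (R x * τ x) := rfl
      _ ≤ 1 * (R x * τ x) := by gcongr
      _ ≤ 1 * (1 * τ x) := by have := hR1 x hx; gcongr
      _ ≤ R x * (1/4) := by have := hτR x; linarith
  have hηc : ∀ x ∈ Ω, ∀ z ∈ ball x (R x / 2), η z ≤ c x ∧ ‖fderiv ℝ η z‖ ≤ c x ∧ z ∈ Ω := by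
    intro x hx z hz
    have hzΩ : z ∈ Ω := (hQ x hx).1 (ball_subset_ball (by have := hRpos x hx; linarith) hz)
    have h1 := hbc x hx z hzΩ hz
    exact ⟨(hηb z hzΩ).trans h1, (hηd z hzΩ).trans h1, hzΩ⟩
  have hin : ∀ x ∈ Ω, ∀ z ∈ ball x (R x / 2), ‖z - x‖ + η z < R x := by
    intro x hx z hz
    have h1 := (hηc x hx z hz).1
    have h2 := hcR x hx
    have h3 := hRpos x hx
    rw [mem_ball, dist_eq_norm] at hz
    linarith
  have hself : ∀ x ∈ Ω, x ∈ ball x (R x / 2) := fun x hx =>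
    mem_ball_self (by have := hRpos x hx; positivity)
  -- smoothness
  have hsm : ∀ x ∈ Ω, ∀ z ∈ ball x (R x / 2), ContDiffAt ℝ ∞ g z := fun x hx z hz =>
    hρ.contDiffAt_avg_loc (hQ x hx).2.2.1 hη (hη0 z (hηc x hx z hz).2.2) (hin x hx z hz)
  -- C^0
  have hC0 : ∀ x ∈ Ω, ‖g x - h x‖ ≤ τ x := fun x hx => by
    have h1 := hk.norm_avg_sub_le_loc (hQ x hx).2.2.1 (hη0 x hx) (hin x hx x (hself x hx))
    refine h1.trans ?_
    rw [← hcκ x hx]
    have := (hηc x hx x (hself x hx)).1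
    gcongr
  -- derivative
  have hder : ∀ x ∈ Ω, ∃ K' : Set (E →L[ℝ] E), Convex ℝ K' ∧ IsClosed K' ∧
      (∀ B ∈ K', 0 < B.det ∧ ∀ v, R x * ‖v‖ ≤ ‖B v‖) ∧
      ∀ z ∈ ball x (R x / 2), fderiv ℝ g z ∈ K' := by
    intro x hx
    obtain ⟨h1, h2, h3, K, hK, hKc, hae, hB⟩ := hQ x hx
    refine ⟨cthickening (R x) K, hK.cthickening _, isClosed_cthickening, hB, fun z hz => ?_⟩
    have hmem := hk.avgD_mem_loc h3 hK hKc hae (hη0 z (hηc x hx z hz).2.2) (hin x hx z hz)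
    refine mem_cthickening_of_dist_le _ _ _ _ hmem ?_
    rw [dist_eq_norm]
    have h4 := hk.fderiv_avg_loc h3 hη (hη0 z (hηc x hx z hz).2.2) (hin x hx z hz)
    refine h4.trans ?_
    have h5 := (hηc x hx z hz).2.1
    calc κE E * L x * ‖fderiv ℝ η z‖ ≤ κE E * L x * c x := by gcongr
      _ = τ x := hcκ x hx
      _ ≤ R x := by have := hτR x; have := hRpos x hx; linarith
  have hdet : ∀ x ∈ Ω, 0 < (fderiv ℝ g x).det := fun x hx => by
    obtain ⟨K', -, -, h1, h2⟩ := hder x hx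
    exact (h1 _ (h2 x (hself x hx))).1
  -- local injectivity
  have hloc : ∀ x ∈ Ω, ∀ y ∈ ball x (R x / 2), g x = g y → x = y := by
    intro x hx y hy he
    obtain ⟨K', hc1, hc2, h1, h2⟩ := hder x hx
    obtain ⟨A, hA, hAe⟩ := exists_seg (convex_ball x (R x / 2)) hc1 hc2
      (fun z hz => (hsm x hx z hz).of_le (by norm_cast)) h2 (hself x hx) hy
    have h3 := (h1 A hA).2 (x - y)
    rw [← hAe, he, sub_self, norm_zero] at h3
    have h4 := hRpos x hx
    have h5 : ‖x - y‖ ≤ 0 := by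
      by_contra hcon
      push Not at hcon
      nlinarith
    exact sub_eq_zero.1 (norm_le_zero_iff.1 h5)
  have hinj1 : ∀ x ∈ Ω, ∀ y ∈ Ω, τ y ≤ τ x → g x = g y → x = y := by
    intro x hx y hy hle he
    refine hloc x hx y ?_ he
    refine hsR x hx y hy ?_
    rw [dist_eq_norm]
    have h1 := hC0 x hx
    have h2 := hC0 y hy
    have h3 : h y - h x = (g x - h x) - (g y - h y) := by rw [he]; abel
    rw [h3]
    have h4 := hτs x
    have h5 : 0 < s x := hs.pos hx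
    calc ‖(g x - h x) - (g y - h y)‖ ≤ ‖g x - h x‖ + ‖g y - h y‖ := norm_sub_le _ _
      _ < s x := by linarith
  have hinj : InjOn g Ω := by
    intro x hx y hy he
    rcases le_total (τ y) (τ x) with h | h
    · exact hinj1 x hx y hy h he
    · exact (hinj1 y hy x hx h he.symm).symm
  have hmapsg : MapsTo g Ω Λ := fun x hx => by
    refine (hQ x hx).2.1 ?_
    rw [mem_ball, dist_eq_norm]
    have h1 := hC0 x hx
    have h2 := hτR x
    have h3 := hRpos x hx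
    linarith
  -- openness
  have hcd : ∀ x ∈ Ω, ContDiffAt ℝ ∞ g x := fun x hx => hsm x hx x (hself x hx)
  have hopen : IsOpen (g '' Ω) := by
    rw [isOpen_iff_mem_nhds]
    rintro _ ⟨x, hx, rfl⟩
    have h1 : HasStrictFDerivAt g (((fderiv ℝ g x).toContinuousLinearEquivOfDetNeZero
        (hdet x hx).ne' : E ≃L[ℝ] E) : E →L[ℝ] E) x := by
      have := (hcd x hx).hasStrictFDerivAt (by simp)
      simpa using this
    rw [← h1.map_nhds_eq_of_equiv]
    exact image_mem_map (hΩ.mem_nhds hx)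
  have hprop : ProperSpace E := FiniteDimensional.proper_real E
  -- onto
  have hsurj : Λ ⊆ g '' Ω := by
    rcases Ω.eq_empty_or_nonempty with he | ⟨x₀, hx₀⟩
    · rw [← himg, he]; simp
    refine hΛc.subset_of_closure_inter_subset hopen
      ⟨g x₀, hmapsg hx₀, mem_image_of_mem g hx₀⟩ ?_
    rintro y ⟨hycl, hyΛ⟩
    obtain ⟨u, hu, huy⟩ := mem_closure_iff_seq_limit.1 hycl
    choose x hxΩ hxu using hu
    obtain ⟨d, hd, hdΛ⟩ := Metric.isOpen_iff.1 hΛ y hyΛ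
    set q := min d 1 / 4 with hq
    have hq0 : 0 < q := by have : 0 < min d 1 := lt_min hd one_pos; positivity
    have hq1 : q ≤ 1 / 4 := by have : min d 1 ≤ 1 := min_le_right _ _; linarith
    have hqd : 4 * q ≤ d := by have : min d 1 ≤ d := min_le_left _ _; linarith
    set C : Set E := closedBall y 2 ∩ {w | ball w q ⊆ Λ} with hC
    have hCc : IsCompact C := (isCompact_closedBall y 2).inter_right (isClosed_ball_subset _ _)
    have hCΛ : C ⊆ Λ := fun w hw => hw.2 (mem_ball_self hq0)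
    have hev : ∀ᶠ n in atTop, h (x n) ∈ C := by
      have h1 : ∀ᶠ n in atTop, dist (u n) y < q := huy.eventually (ball_mem_nhds y hq0)
      filter_upwards [h1] with n hn
      rw [← hxu n] at hn
      have h2 : dist (h (x n)) (g (x n)) ≤ R (x n) * (1/4) := by
        rw [dist_comm, dist_eq_norm]; exact (hC0 _ (hxΩ n)).trans (hτR _)
      have h3 := hR1 _ (hxΩ n)
      have h4 : dist (h (x n)) y ≤ R (x n) * (1/4) + q := by
        calc dist (h (x n)) y ≤ dist (h (x n)) (g (x n)) + dist (g (x n)) y := dist_triangle _ _ _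
          _ ≤ _ := by linarith
      refine ⟨?_, ?_⟩
      · rw [mem_closedBall]; linarith
      · intro w hw
        rw [mem_ball] at hw
        by_cases hcase : R (x n) * (1/4) < q
        · refine hdΛ ?_
          rw [mem_ball]
          calc dist w y ≤ dist w (h (x n)) + dist (h (x n)) y := dist_triangle _ _ _
            _ < d := by linarith
        · refine (hQ _ (hxΩ n)).2.1 ?_
          rw [mem_ball]
          linarith
    obtain ⟨w, hwC, φ, hφ, hφw⟩ := hCc.tendsto_subseq' hev.frequently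
    have hwΛ : w ∈ Λ := hCΛ hwC
    obtain ⟨z, hz, hzw⟩ : w ∈ h '' Ω := by rw [himg]; exact hwΛ
    have hxz : Tendsto (fun n => x (φ n)) atTop (𝓝 z) := by
      rw [Metric.tendsto_atTop]
      intro ε hε
      obtain ⟨s', hs', hs2⟩ := hsep z hz ε hε
      rw [Metric.tendsto_atTop] at hφw
      obtain ⟨N, hN⟩ := hφw s' hs'
      refine ⟨N, fun n hn => hs2 _ (hxΩ _) ?_⟩
      rw [hzw]; exact hN n hn
    have h5 : Tendsto (fun n => g (x (φ n))) atTop (𝓝 (g z)) :=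
      ((hcd z hz).continuousAt.tendsto).comp hxz
    have h6 : Tendsto (fun n => g (x (φ n))) atTop (𝓝 y) := by
      have : (fun n => g (x (φ n))) = fun n => u (φ n) := by funext n; exact hxu _
      rw [this]; exact huy.comp hφ.tendsto_atTop
    exact ⟨z, hz, tendsto_nhds_unique h5 h6⟩
  refine ⟨fun x hx => (hcd x hx).contDiffWithinAt, hdet, hinj,
    Subset.antisymm hmapsg.image_subset hsurj, fun x hx => (hC0 x hx).trans (hτδ x)⟩

end

end Crest.Agent.R096.Mo_119
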