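import Crest.Agent.R096.Mo4_119

/-!
# P5-MOLL, part 5 (helper119, row 96): `L^p` convergence of the derivatives
-/

set_option autoImplicit false

open MeasureTheory Metric Set Filter Topology
open scoped ENNReal NNReal ContDiff

namespace Crest.Agent.R096.Mo_119

variable {E : Type*} [NormedAddCommGroup E] [NormedSpace ℝ E] [FiniteDimensional ℝ E]
  [MeasurableSpace E] [BorelSpace E]

omit [MeasurableSpace E] [BorelSpace E] in
/-- uniform lower bound of the determinant near the identity -/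
theorem exists_det_lower : ∃ d : ℝ≥0, 0 < d ∧ ∀ B : E →L[ℝ] E,
    ‖B - ContinuousLinearMap.id ℝ E‖ ≤ 1/4 → (d : ℝ) ≤ |B.det| := by
  have : ProperSpace (E →L[ℝ] E) := FiniteDimensional.proper_real _
  have hc : IsCompact (closedBall (ContinuousLinearMap.id ℝ E) (1/4)) := isCompact_closedBall _ _
  have hne : (closedBall (ContinuousLinearMap.id ℝ E) (1/4)).Nonempty :=
    ⟨_, mem_closedBall_self (by norm_num)⟩
  have hcont : Continuous fun B : E →L[ℝ] E => |B.det| := continuous_det.abs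
  obtain ⟨B₀, hB₀, hmin⟩ := hc.exists_isMinOn hne hcont.continuousOn
  have hpos : ∀ B : E →L[ℝ] E, ‖B - ContinuousLinearMap.id ℝ E‖ ≤ 1/4 → 0 < |B.det| := by
    intro B hB
    rw [abs_pos]
    intro h0
    have h1 := LinearMap.bot_lt_ker_of_det_eq_zero (f := (B : E →ₗ[ℝ] E)) h0
    obtain ⟨v, hv, hv0⟩ := (Submodule.ne_bot_iff _).1 h1.ne'
    have hBv : B v = 0 := hv
    have h2 : ‖(B - ContinuousLinearMap.id ℝ E) v‖ ≤ 1/4 * ‖v‖ :=
      (ContinuousLinearMap.le_opNorm _ _).trans (by gcongr)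
    have h3 : (B - ContinuousLinearMap.id ℝ E) v = - v := by simp [hBv]
    rw [h3, norm_neg] at h2
    have h4 : 0 < ‖v‖ := norm_pos_iff.2 hv0
    linarith
  have hB₀' : ‖B₀ - ContinuousLinearMap.id ℝ E‖ ≤ 1/4 := by
    rwa [mem_closedBall, dist_eq_norm] at hB₀
  refine ⟨⟨|B₀.det|, abs_nonneg _⟩, hpos B₀ hB₀', fun B hB => ?_⟩
  exact hmin (by rw [mem_closedBall, dist_eq_norm]; exact hB)

section
variable {μ ν : Measure E}

omit [FiniteDimensional ℝ E] in
/-- change of variables bound for `x ↦ x - η x • y` -/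
theorem lintegral_comp_le [FiniteDimensional ℝ E] [μ.IsAddHaarMeasure] {d : ℝ≥0} (hd : 0 < d)
    (hdet : ∀ B : E →L[ℝ] E, ‖B - ContinuousLinearMap.id ℝ E‖ ≤ 1/4 → (d : ℝ) ≤ |B.det|)
    {η : E → ℝ} (hη : ContDiff ℝ ∞ η) (hη4 : ∀ x, ‖fderiv ℝ η x‖ ≤ 1/4) {y : E} (hy : ‖y‖ ≤ 1)
    {A : Set E} (hA : MeasurableSet A) (G : E → ℝ≥0∞) :
    ∫⁻ x in A, G (x - η x • y) ∂μ ≤ (d : ℝ≥0∞)⁻¹ * ∫⁻ x, G x ∂μ := by
  set Φ : E → E := fun x => x - η x • y with hΦ
  have hder : ∀ x, HasFDerivAt Φ (ContinuousLinearMap.id ℝ E - (fderiv ℝ η x).smulRight y) x :=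
    fun x => (hasFDerivAt_id x).sub
      (((hη.differentiable (by simp)) x).hasFDerivAt.smul_const y)
  have hLip : LipschitzWith (1/4 : ℝ≥0) η := by
    refine lipschitzWith_of_nnnorm_fderiv_le (𝕜 := ℝ) (hη.differentiable (by simp)) fun x => ?_
    rw [← NNReal.coe_le_coe, coe_nnnorm]
    refine (hη4 x).trans ?_
    norm_num
  have hinj : InjOn Φ A := by
    intro a _ b _ hab
    simp only [hΦ] at hab
    have h1 : a - b = (η a - η b) • y := by
      rw [sub_smul]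
      rw [sub_eq_sub_iff_add_eq_add] at hab ⊢
      rw [add_comm (η a • y) b, ← hab]
    have h2 : ‖a - b‖ ≤ 1/4 * ‖a - b‖ := by
      calc ‖a - b‖ = ‖η a - η b‖ * ‖y‖ := by rw [← norm_smul, ← h1]
        _ ≤ ((1/4 : ℝ≥0) * ‖a - b‖) * 1 := by
            gcongr
            exact hLip.norm_sub_le a b
        _ = 1/4 * ‖a - b‖ := by push_cast; ring
    have h3 : ‖a - b‖ ≤ 0 := by linarith
    exact sub_eq_zero.1 (norm_le_zero_iff.1 h3)
  have key := lintegral_image_eq_lintegral_abs_det_fderiv_mul μ hA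
    (fun x _ => (hder x).hasFDerivWithinAt) hinj G
  have hdet' : ∀ x, (d : ℝ≥0∞) ≤
      ENNReal.ofReal |(ContinuousLinearMap.id ℝ E - (fderiv ℝ η x).smulRight y).det| := by
    intro x
    have h1 := hdet (ContinuousLinearMap.id ℝ E - (fderiv ℝ η x).smulRight y) (by
      rw [sub_sub_cancel_left, norm_neg, ContinuousLinearMap.norm_smulRight_apply]
      calc ‖fderiv ℝ η x‖ * ‖y‖ ≤ 1/4 * 1 := by gcongr; exact hη4 x
        _ = 1/4 := by norm_num)
    rw [← ENNReal.ofReal_coe_nnreal]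
    exact ENNReal.ofReal_le_ofReal h1
  have h1 : (d : ℝ≥0∞) * ∫⁻ x in A, G (Φ x) ∂μ ≤ ∫⁻ x, G x ∂μ := by
    rw [← lintegral_const_mul' _ _ ENNReal.coe_ne_top]
    calc ∫⁻ x in A, (d : ℝ≥0∞) * G (Φ x) ∂μ
        ≤ ∫⁻ x in A, ENNReal.ofReal
          |(ContinuousLinearMap.id ℝ E - (fderiv ℝ η x).smulRight y).det| * G (Φ x) ∂μ := by
          refine lintegral_mono fun x => ?_
          gcongr
          exact hdet' x
      _ = ∫⁻ x in Φ '' A, G x ∂μ := key.symm
      _ ≤ ∫⁻ x, G x ∂μ := setLIntegral_le_lintegral _ _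
  have hd0 : (d : ℝ≥0∞) ≠ 0 := by exact_mod_cast hd.ne'
  calc ∫⁻ x in A, G (Φ x) ∂μ = (d : ℝ≥0∞)⁻¹ * ((d : ℝ≥0∞) * ∫⁻ x in A, G (Φ x) ∂μ) := by
        rw [← mul_assoc, ENNReal.inv_mul_cancel hd0 ENNReal.coe_ne_top, one_mul]
    _ ≤ _ := by gcongr

omit [FiniteDimensional ℝ E] in
/-- elementary: `D ≤ C` implies `D ^ p ≤ C ^ (p - 1) * D` -/
theorem enn_rpow_le {D C : ℝ≥0∞} (h : D ≤ C) {p : ℝ} (hp : 1 ≤ p) :
    D ^ p ≤ C ^ (p - 1) * D := by
  have : D ^ p = D ^ (p - 1) * D ^ (1:ℝ) := by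
    rw [← ENNReal.rpow_add_of_nonneg _ _ (by linarith) zero_le_one]
    congr 1; ring
  rw [this, ENNReal.rpow_one]
  gcongr

/-- **Uniform `L^p` estimate on subsets of a compact set.** -/
theorem exists_T [μ.IsAddHaarMeasure] (hk : Ker μ ν) {h : E → E} {K : Set E} (hK : IsCompact K)
    {r : ℝ} (hr : 0 < r) {L : ℝ≥0} (hloc : ∀ x ∈ K, LipschitzOnWith L h (ball x r)) {p : ℝ}
    (hp : 1 ≤ p) {ε : ℝ≥0∞} (hε : ε ≠ 0) :
    ∃ T > 0, ∀ η : E → ℝ, ContDiff ℝ ∞ η → (∀ x, ‖fderiv ℝ η x‖ ≤ 1/4) →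
      ∀ A : Set E, MeasurableSet A → A ⊆ K →
      (∀ x ∈ A, 0 < η x ∧ η x ≤ T ∧ ‖fderiv ℝ η x‖ ≤ T) →
      ∫⁻ x in A, ‖fderiv ℝ (avg ν h η) x - fderiv ℝ h x‖ₑ ^ p ∂μ ≤ ε := by
  have hprob := hk.prob
  have hprop : ProperSpace E := FiniteDimensional.proper_real E
  obtain ⟨d, hd, hdet⟩ := exists_det_lower (E := E)
  -- the truncated derivative
  set U : Set E := thickening r K with hU
  have hUo : IsOpen U := isOpen_thickening
  have hUmem : ∀ z, z ∈ U ↔ ∃ x ∈ K, z ∈ ball x r := fun z => by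
    simp only [hU, mem_thickening_iff, mem_ball]
  set F : E → (E →L[ℝ] E) := U.indicator (fderiv ℝ h) with hF
  have hFm : Measurable F := (measurable_fderiv ℝ h).indicator hUo.measurableSet
  have hDh : ∀ z ∈ U, ‖fderiv ℝ h z‖ ≤ L := fun z hz => by
    obtain ⟨x, hx, hzx⟩ := (hUmem z).1 hz
    exact norm_fderiv_le_of_lipschitzOn ℝ (isOpen_ball.mem_nhds hzx) (hloc x hx)
  have hFL : ∀ z, ‖F z‖ ≤ L := fun z => by
    by_cases hz : z ∈ U
    · rw [hF, indicator_of_mem hz]; exact hDh z hz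
    · rw [hF, indicator_of_notMem hz]; simp
  have hUfin : μ U < (⊤ : ℝ≥0∞) := hK.isBounded.thickening.measure_lt_top
  have hFi : Integrable F μ := by
    have h1 : IntegrableOn (fderiv ℝ h) U μ := by
      refine IntegrableOn.of_bound hUfin (measurable_fderiv ℝ h).aestronglyMeasurable L ?_
      filter_upwards [ae_restrict_mem hUo.measurableSet] with z hz using hDh z hz
    exact h1.integrable_indicator hUo.measurableSet
  -- constants
  set κL : ℝ≥0 := κE E * L with hκL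
  set C0 : ℝ≥0∞ := ((κL + 2 * L : ℝ≥0) : ℝ≥0∞) with hC0
  set MK : ℝ≥0∞ := μ K with hMK
  have hMKf : MK ≠ (⊤ : ℝ≥0∞) := hK.measure_lt_top.ne
  set W : ℝ≥0∞ := C0 ^ (p - 1) * (κL * MK + ((d : ℝ≥0∞)⁻¹ + MK + 1)) with hW
  have hWf : W ≠ (⊤ : ℝ≥0∞) := by
    refine ENNReal.mul_ne_top (ENNReal.rpow_ne_top_of_nonneg (by linarith) ENNReal.coe_ne_top) ?_
    have hd0 : (d : ℝ≥0∞) ≠ 0 := by exact_mod_cast hd.ne'
    refine ENNReal.add_ne_top.2 ⟨ENNReal.mul_ne_top ENNReal.coe_ne_top hMKf,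
      ENNReal.add_ne_top.2 ⟨ENNReal.add_ne_top.2 ⟨ENNReal.inv_ne_top.2 hd0, hMKf⟩,
        ENNReal.one_ne_top⟩⟩
  obtain ⟨t, ht, htW⟩ := ENNReal.exists_nnreal_pos_mul_lt hWf hε
  have ht0 : (t : ℝ≥0∞) ≠ 0 := by exact_mod_cast ht.ne'
  obtain ⟨c, hccs, hcF, hcc, -⟩ := hFi.exists_hasCompactSupport_lintegral_sub_le ht0
  have huc : UniformContinuous c := hccs.uniformContinuous_of_continuous hcc
  obtain ⟨T1, hT1, hT1c⟩ := Metric.uniformContinuous_iff.1 huc t (by exact_mod_cast ht)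
  set T : ℝ := min (min (r / 2) 1) (min (T1 / 2) t) with hT
  have hT0 : 0 < T := by
    refine lt_min (lt_min (by positivity) one_pos) (lt_min (by positivity) (by exact_mod_cast ht))
  refine ⟨T, hT0, fun η hη hη4 A hA hAK hηA => ?_⟩
  have hTr : T < r := lt_of_le_of_lt ((min_le_left _ _).trans (min_le_left _ _)) (by linarith)
  have hT1' : T ≤ 1 := (min_le_left _ _).trans (min_le_right _ _)
  have hTT1 : T < T1 := lt_of_le_of_lt ((min_le_right _ _).trans (min_le_left _ _)) (by linarith)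
  have hTt : T ≤ t := (min_le_right _ _).trans (min_le_right _ _)
  -- pointwise estimate
  have hpt : ∀ x ∈ A, ‖fderiv ℝ (avg ν h η) x - fderiv ℝ h x‖ₑ ≤
      κL * t + ∫⁻ y, ‖F (x - η x • y) - F x‖ₑ ∂ν := by
    intro x hx
    obtain ⟨h1, h2, h3⟩ := hηA x hx
    have hin : ‖x - x‖ + η x < r := by simp only [sub_self, norm_zero]; linarith
    have h4 := hk.fderiv_avg_loc (hloc x (hAK hx)) hη h1 hin
    have hsub : closedBall x (η x) ⊆ U := fun z hz => (hUmem z).2 ⟨x, hAK hx, by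
      rw [mem_closedBall] at hz; rw [mem_ball]; linarith⟩
    have h5 : avgD ν h (η x) x = ∫ y, F (x - η x • y) ∂ν := by
      refine integral_congr_ae ?_
      filter_upwards [hk.supp] with y hy
      rw [hF, indicator_of_mem]
      refine hsub ?_
      rw [mem_closedBall, dist_eq_norm, sub_sub_cancel_left, norm_neg, norm_smul,
        Real.norm_eq_abs, abs_of_pos h1]
      exact mul_le_of_le_one_right h1.le hy
    have hFm2 : Measurable fun y : E => F (x - η x • y) := hFm.comp (by fun_prop)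
    have hFi2 : Integrable (fun y : E => F (x - η x • y)) ν :=
      Integrable.of_bound hFm2.aestronglyMeasurable L (Eventually.of_forall fun y => hFL _)
    have hxU : x ∈ U := hsub (mem_closedBall_self h1.le)
    have h6 : fderiv ℝ h x = F x := by rw [hF, indicator_of_mem hxU]
    have h7 : avgD ν h (η x) x - fderiv ℝ h x = ∫ y, (F (x - η x • y) - F x) ∂ν := by
      rw [h5, h6, integral_sub hFi2 (integrable_const _)]; simp
    have h8 : ‖avgD ν h (η x) x - fderiv ℝ h x‖ₑ ≤ ∫⁻ y, ‖F (x - η x • y) - F x‖ₑ ∂ν := by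
      rw [h7]; exact enorm_integral_le_lintegral_enorm _
    have h9 : ‖fderiv ℝ (avg ν h η) x - avgD ν h (η x) x‖ₑ ≤ κL * t := by
      rw [← ofReal_norm]
      have : (κE E : ℝ) * L * ‖fderiv ℝ η x‖ ≤ ((κL * t : ℝ≥0) : ℝ) := by
        push_cast [hκL]
        have := h3.trans hTt
        gcongr
      calc ENNReal.ofReal _ ≤ ENNReal.ofReal ((κL * t : ℝ≥0) : ℝ) :=
            ENNReal.ofReal_le_ofReal (h4.trans this)
        _ = κL * t := by rw [ENNReal.ofReal_coe_nnreal]; push_cast; rfl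
    calc ‖fderiv ℝ (avg ν h η) x - fderiv ℝ h x‖ₑ
        = ‖(fderiv ℝ (avg ν h η) x - avgD ν h (η x) x) +
            (avgD ν h (η x) x - fderiv ℝ h x)‖ₑ := by congr 1; abel
      _ ≤ _ := (enorm_add_le _ _).trans (add_le_add h9 h8)
  -- crude bound
  have hcr : ∀ x ∈ A, ‖fderiv ℝ (avg ν h η) x - fderiv ℝ h x‖ₑ ≤ C0 := by
    intro x hx
    obtain ⟨h1, h2, h3⟩ := hηA x hx
    have hin : ‖x - x‖ + η x < r := by simp only [sub_self, norm_zero]; linarith
    have h4 := hk.fderiv_avg_loc (hloc x (hAK hx)) hη h1 hin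
    have hsub : closedBall x (η x) ⊆ U := fun z hz => (hUmem z).2 ⟨x, hAK hx, by
      rw [mem_closedBall] at hz; rw [mem_ball]; linarith⟩
    have h5 : ‖avgD ν h (η x) x‖ ≤ L := by
      have : ∀ᵐ y ∂ν, ‖fderiv ℝ h (x - η x • y)‖ ≤ L := by
        filter_upwards [hk.supp] with y hy
        refine hDh _ (hsub ?_)
        rw [mem_closedBall, dist_eq_norm, sub_sub_cancel_left, norm_neg, norm_smul,
          Real.norm_eq_abs, abs_of_pos h1]
        exact mul_le_of_le_one_right h1.le hy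
      have := norm_integral_le_of_norm_le_const this
      simpa [avgD] using this
    have h6 := hDh x (hsub (mem_closedBall_self h1.le))
    have h7 : ‖fderiv ℝ (avg ν h η) x - fderiv ℝ h x‖ ≤ ((κL + 2 * L : ℝ≥0) : ℝ) := by
      calc ‖fderiv ℝ (avg ν h η) x - fderiv ℝ h x‖
          = ‖(fderiv ℝ (avg ν h η) x - avgD ν h (η x) x) +
            avgD ν h (η x) x - fderiv ℝ h x‖ := by congr 1; abel
        _ ≤ ‖fderiv ℝ (avg ν h η) x - avgD ν h (η x) x‖ + ‖avgD ν h (η x) x‖ +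
            ‖fderiv ℝ h x‖ := (norm_sub_le _ _).trans (by gcongr; exact norm_add_le _ _)
        _ ≤ κE E * L * 1 + L + L := by
            gcongr
            refine h4.trans ?_
            have := h3.trans hT1'
            gcongr
        _ = ((κL + 2 * L : ℝ≥0) : ℝ) := by push_cast [hκL]; ring
    rw [← ofReal_norm, hC0, ← ENNReal.ofReal_coe_nnreal]
    exact ENNReal.ofReal_le_ofReal h7
  -- the double integral
  have hη' : Continuous η := hη.continuous
  have hmeas2 : Measurable fun q : E × E => ‖F (q.1 - η q.1 • q.2) - F q.1‖ₑ := by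
    have h1 : Measurable fun q : E × E => q.1 - η q.1 • q.2 := by fun_prop
    exact ((hFm.comp h1).sub (hFm.comp measurable_fst)).enorm
  have hFc : ∫⁻ x, ‖F x - c x‖ₑ ∂μ ≤ t := hcF
  have hy : ∀ᵐ y ∂ν, ∫⁻ x in A, ‖F (x - η x • y) - F x‖ₑ ∂μ ≤
      t * ((d : ℝ≥0∞)⁻¹ + MK + 1) := by
    filter_upwards [hk.supp] with y hy
    have hcm : Measurable c := hcc.measurable
    have e1 : ∀ x ∈ A, ‖F (x - η x • y) - F x‖ₑ ≤
        ‖F (x - η x • y) - c (x - η x • y)‖ₑ + (t + ‖F x - c x‖ₑ) := by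
      intro x hx
      obtain ⟨h1, h2, h3⟩ := hηA x hx
      have e2 : ‖c (x - η x • y) - c x‖ₑ ≤ t := by
        have h4 : dist (x - η x • y) x < T1 := by
          rw [dist_eq_norm, sub_sub_cancel_left, norm_neg, norm_smul,
            Real.norm_eq_abs, abs_of_pos h1]
          calc η x * ‖y‖ ≤ η x * 1 := by gcongr
            _ < T1 := by linarith
        have h5 := (hT1c h4).le
        rw [dist_eq_norm] at h5
        rw [← ofReal_norm, ← ENNReal.ofReal_coe_nnreal]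
        exact ENNReal.ofReal_le_ofReal h5
      calc ‖F (x - η x • y) - F x‖ₑ
          = ‖(F (x - η x • y) - c (x - η x • y)) + ((c (x - η x • y) - c x) - (F x - c x))‖ₑ := by
            congr 1; abel
        _ ≤ ‖F (x - η x • y) - c (x - η x • y)‖ₑ + ‖(c (x - η x • y) - c x) - (F x - c x)‖ₑ := by
            exact enorm_add_le (F (x - η x • y) - c (x - η x • y))
              ((c (x - η x • y) - c x) - (F x - c x))
        _ ≤ ‖F (x - η x • y) - c (x - η x • y)‖ₑ + (‖c (x - η x • y) - c x‖ₑ + ‖F x - c x‖ₑ) := by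
            gcongr; exact enorm_sub_le
        _ ≤ _ := by gcongr
    have hG : Measurable fun x => ‖F x - c x‖ₑ := (hFm.sub hcm).enorm
    calc ∫⁻ x in A, ‖F (x - η x • y) - F x‖ₑ ∂μ
        ≤ ∫⁻ x in A, (‖F (x - η x • y) - c (x - η x • y)‖ₑ + (t + ‖F x - c x‖ₑ)) ∂μ :=
          setLIntegral_mono' hA e1
      _ = ∫⁻ x in A, ‖F (x - η x • y) - c (x - η x • y)‖ₑ ∂μ +
            (∫⁻ x in A, (t : ℝ≥0∞) ∂μ + ∫⁻ x in A, ‖F x - c x‖ₑ ∂μ) := by
          have hG2 : Measurable fun x => (t : ℝ≥0∞) + ‖F x - c x‖ₑ := measurable_const.add hG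
          rw [lintegral_add_right _ hG2, lintegral_add_left measurable_const]
      _ ≤ (d : ℝ≥0∞)⁻¹ * t + (t * MK + t) := by
          refine add_le_add ?_ (add_le_add ?_ ?_)
          · exact (lintegral_comp_le hd hdet hη hη4 hy hA (fun x => ‖F x - c x‖ₑ)).trans (by gcongr)
          · rw [setLIntegral_const]; gcongr; exact measure_mono hAK
          · exact (setLIntegral_le_lintegral _ _).trans hFc
      _ = t * ((d : ℝ≥0∞)⁻¹ + MK + 1) := by ring
  have hdouble : ∫⁻ x in A, ∫⁻ y, ‖F (x - η x • y) - F x‖ₑ ∂ν ∂μ ≤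
      t * ((d : ℝ≥0∞)⁻¹ + MK + 1) := by
    rw [lintegral_lintegral_swap hmeas2.aemeasurable]
    calc _ ≤ ∫⁻ _y, t * ((d : ℝ≥0∞)⁻¹ + MK + 1) ∂ν := lintegral_mono_ae hy
      _ = t * ((d : ℝ≥0∞)⁻¹ + MK + 1) := by simp
  have hmeas3 : Measurable fun x => ∫⁻ y, ‖F (x - η x • y) - F x‖ₑ ∂ν :=
    hmeas2.lintegral_prod_right'
  calc ∫⁻ x in A, ‖fderiv ℝ (avg ν h η) x - fderiv ℝ h x‖ₑ ^ p ∂μ
      ≤ ∫⁻ x in A, C0 ^ (p - 1) * (κL * t + ∫⁻ y, ‖F (x - η x • y) - F x‖ₑ ∂ν) ∂μ := by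
        refine setLIntegral_mono' hA fun x hx => ?_
        refine (enn_rpow_le (hcr x hx) hp).trans ?_
        gcongr
        exact hpt x hx
    _ = C0 ^ (p - 1) * (∫⁻ x in A, (κL * t : ℝ≥0∞) ∂μ +
          ∫⁻ x in A, ∫⁻ y, ‖F (x - η x • y) - F x‖ₑ ∂ν ∂μ) := by
        have h9 : Measurable fun x => (κL * t : ℝ≥0∞) + ∫⁻ y, ‖F (x - η x • y) - F x‖ₑ ∂ν :=
          measurable_const.add hmeas3
        rw [lintegral_const_mul _ h9, lintegral_add_left measurable_const]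
    _ ≤ C0 ^ (p - 1) * (κL * t * MK + t * ((d : ℝ≥0∞)⁻¹ + MK + 1)) := by
        gcongr
        rw [setLIntegral_const]; gcongr; exact measure_mono hAK
    _ = t * W := by rw [hW]; ring
    _ ≤ ε := htW.le

end

end Crest.Agent.R096.Mo_119
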