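import Crest.Agent.R096.Mo5_119

/-!
# P5-MOLL, part 6 (helper119, row 96): the mollification theorem
-/

set_option autoImplicit false

open MeasureTheory Metric Set Filter Topology
open scoped ENNReal NNReal ContDiff

namespace Crest.Agent.R096.Mo_119

variable {E : Type*} [NormedAddCommGroup E] [NormedSpace ℝ E] [FiniteDimensional ℝ E]
  [MeasurableSpace E] [BorelSpace E]

omit [NormedSpace ℝ E] [FiniteDimensional ℝ E] [MeasurableSpace E] [BorelSpace E] in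
/-- locally Lipschitz maps are uniformly Lipschitz on balls centered in a compact set -/
theorem uniform_lip {h : E → E} {Ω K : Set E}
    (hloc : ∀ x ∈ Ω, ∃ r > 0, ∃ L : ℝ≥0, LipschitzOnWith L h (ball x r)) (hK : IsCompact K)
    (hKΩ : K ⊆ Ω) : ∃ r > 0, ∃ L : ℝ≥0, ∀ x ∈ K, LipschitzOnWith L h (ball x r) := by
  classical
  have h1 : ∀ x ∈ K, ∃ r > 0, ∃ L : ℝ≥0, LipschitzOnWith L h (ball x r) :=
    fun x hx => hloc x (hKΩ hx)
  choose! r hr L hL using h1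
  obtain ⟨t, htK, ht⟩ := hK.elim_nhds_subcover (fun x => ball x (r x / 2))
    (fun x hx => ball_mem_nhds x (by have := hr x hx; positivity))
  by_cases hne : t.Nonempty
  · refine ⟨t.inf' hne (fun x => r x / 2), ?_, t.sup L, fun x hx => ?_⟩
    · rw [gt_iff_lt, Finset.lt_inf'_iff]; exact fun x hx => by have := hr x (htK x hx); positivity
    · obtain ⟨y, hy, hxy⟩ := mem_iUnion₂.1 (ht hx)
      have h2 : LipschitzOnWith (t.sup L) h (ball y (r y)) := (hL y (htK y hy)).weaken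
        (Finset.le_sup (f := L) hy)
      refine h2.mono fun z hz => ?_
      rw [mem_ball] at hz hxy ⊢
      have h3 : t.inf' hne (fun x => r x / 2) ≤ r y / 2 := Finset.inf'_le _ hy
      calc dist z y ≤ dist z x + dist x y := dist_triangle _ _ _
        _ < r y := by linarith
  · refine ⟨1, one_pos, 0, fun x hx => ?_⟩
    obtain ⟨y, hy, -⟩ := mem_iUnion₂.1 (ht hx)
    exact absurd ⟨y, hy⟩ hne

omit [NormedSpace ℝ E] [FiniteDimensional ℝ E] [MeasurableSpace E] [BorelSpace E] in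
/-- an exhaustion by compact sets -/
theorem exists_exhaustion [ProperSpace E] {Ω : Set E} (hΩ : IsOpen Ω) :
    ∃ K : ℕ → Set E, (∀ n, IsCompact (K n)) ∧ (∀ n, K n ⊆ Ω) ∧
      ∃ m : E → ℕ, (∀ x ∈ Ω, x ∈ K (m x)) ∧ LBB Ω (fun x => 1 / ((m x : ℝ) + 1)) := by
  set K : ℕ → Set E := fun n => {x | ball x (1 / ((n : ℝ) + 1)) ⊆ Ω} ∩ closedBall 0 n with hK
  refine ⟨K, fun n => (isCompact_closedBall _ _).inter_left (isClosed_ball_subset _ _),
    fun n x hx => hx.1 (mem_ball_self (by positivity)), ?_⟩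
  have key : ∀ x ∈ Ω, ∃ m : ℕ, ∀ᶠ y in 𝓝 x, y ∈ K m := by
    intro x hx
    obtain ⟨r, hr, hrΩ⟩ := Metric.isOpen_iff.1 hΩ x hx
    obtain ⟨n1, hn1⟩ := exists_nat_gt (1 / (r / 2))
    obtain ⟨n2, hn2⟩ := exists_nat_gt (‖x‖ + 1)
    refine ⟨max n1 n2, ?_⟩
    filter_upwards [ball_mem_nhds x (show (0:ℝ) < min (r / 2) 1 by positivity)] with y hy
    rw [mem_ball, lt_min_iff] at hy
    constructor
    · intro z hz
      apply hrΩ
      rw [mem_ball] at hz ⊢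
      have h1 : 1 / (((max n1 n2 : ℕ) : ℝ) + 1) ≤ r / 2 := by
        rw [div_le_iff₀ (by positivity)]
        have h2 : (1 : ℝ) / (r / 2) < ((max n1 n2 : ℕ) : ℝ) + 1 := by
          have : ((n1 : ℕ) : ℝ) ≤ ((max n1 n2 : ℕ) : ℝ) := by exact_mod_cast le_max_left _ _
          linarith
        rw [div_lt_iff₀ (by positivity)] at h2
        linarith
      calc dist z x ≤ dist z y + dist y x := dist_triangle _ _ _
        _ < r := by linarith [hy.1]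
    · rw [mem_closedBall, dist_zero_right]
      have : ((n2 : ℕ) : ℝ) ≤ ((max n1 n2 : ℕ) : ℝ) := by exact_mod_cast le_max_right _ _
      have h3 : ‖y‖ ≤ ‖y - x‖ + ‖x‖ := by
        calc ‖y‖ = ‖(y - x) + x‖ := by rw [sub_add_cancel]
          _ ≤ _ := norm_add_le _ _
      rw [← dist_eq_norm] at h3
      linarith [hy.2]
  exact LBB.of_nat (P := fun x n => x ∈ K n) (fun x hx => by
    obtain ⟨m, hm⟩ := key x hx
    exact ⟨m, hm.self_of_nhds⟩) (fun x hx _ _ => by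
    obtain ⟨m, hm⟩ := key x hx
    exact ⟨m, hm.mono fun y hy _ => hy⟩)

variable {μ ν : Measure E}

/-- **`L^p` bound for all small radii functions.** -/
theorem exists_Lp_bound [μ.IsAddHaarMeasure] (hk : Ker μ ν) {h : E → E} {Ω : Set E}
    (hΩ : IsOpen Ω) (hloc : ∀ x ∈ Ω, ∃ r > 0, ∃ L : ℝ≥0, LipschitzOnWith L h (ball x r))
    {p : ℝ} (hp : 1 ≤ p) {ε : ℝ≥0∞} (hε : ε ≠ 0) :
    ∃ b : E → ℝ, LBB Ω b ∧ ∀ η : E → ℝ, ContDiff ℝ ∞ η → (∀ x, ‖fderiv ℝ η x‖ ≤ 1/4) →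
      (∀ x ∈ Ω, 0 < η x) → (∀ x ∈ Ω, η x ≤ b x) → (∀ x ∈ Ω, ‖fderiv ℝ η x‖ ≤ b x) →
      ∫⁻ x in Ω, ‖fderiv ℝ (avg ν h η) x - fderiv ℝ h x‖ₑ ^ p ∂μ ≤ ε := by
  have hprop : ProperSpace E := FiniteDimensional.proper_real E
  obtain ⟨K, hKc, hKΩ, m, hmK, hmb⟩ := exists_exhaustion hΩ
  obtain ⟨ε', hε', hsum⟩ := ENNReal.exists_pos_sum_of_countable' hε ℕ
  have h1 : ∀ n, ∃ T > 0, ∀ η : E → ℝ, ContDiff ℝ ∞ η → (∀ x, ‖fderiv ℝ η x‖ ≤ 1/4) →
      ∀ A : Set E, MeasurableSet A → A ⊆ K n →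
      (∀ x ∈ A, 0 < η x ∧ η x ≤ T ∧ ‖fderiv ℝ η x‖ ≤ T) →
      ∫⁻ x in A, ‖fderiv ℝ (avg ν h η) x - fderiv ℝ h x‖ₑ ^ p ∂μ ≤ ε' n := fun n => by
    obtain ⟨r, hr, L, hL⟩ := uniform_lip hloc (hKc n) (hKΩ n)
    exact exists_T hk (hKc n) hr hL hp (hε' n).ne'
  choose T hT0 hT using h1
  -- antitone version of `T`
  have hne : ∀ n : ℕ, (Finset.range (n + 1)).Nonempty := fun n => ⟨0, by simp⟩
  set T' : ℕ → ℝ := fun n => (Finset.range (n + 1)).inf' (hne n) T with hT'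
  have hT'0 : ∀ n, 0 < T' n := fun n =>
    (Finset.lt_inf'_iff (hne n)).2 fun k _ => hT0 k
  have hT'le : ∀ n k, n ≤ k → T' k ≤ T n := fun n k hnk =>
    Finset.inf'_le _ (by simp; omega)
  have hT'anti : ∀ n k, n ≤ k → T' k ≤ T' n := fun n k hnk => by
    refine Finset.inf'_mono _ (fun j hj => ?_) _
    simp only [Finset.mem_range] at hj ⊢; omega
  refine ⟨fun x => T' (m x), ?_, fun η hη hη4 hηpos hηb hDη => ?_⟩
  · intro x hx
    obtain ⟨c, hc, hcy⟩ := hmb x hx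
    obtain ⟨M, hM⟩ := exists_nat_gt (1 / c)
    refine ⟨T' M, hT'0 M, hcy.mono fun y hy hyΩ => hT'anti _ _ ?_⟩
    have h2 := hy hyΩ
    rw [le_div_iff₀ (by positivity)] at h2
    rw [div_lt_iff₀ hc] at hM
    have h3 : ((m y : ℕ) : ℝ) + 1 < (M : ℝ) + 1 := by
      by_contra hcon
      push Not at hcon
      nlinarith
    have h4 : ((m y : ℕ) : ℝ) ≤ (M : ℝ) := by linarith
    exact_mod_cast h4
  · set A : ℕ → Set E := fun n => K n \ ⋃ k < n, K k with hA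
    have hAm : ∀ n, MeasurableSet (A n) := fun n =>
      (hKc n).measurableSet.diff (MeasurableSet.biUnion (to_countable _)
        fun k _ => (hKc k).measurableSet)
    have hAK : ∀ n, A n ⊆ K n := fun n => sdiff_subset
    have hAm' : ∀ n, ∀ x ∈ A n, n ≤ m x := fun n x hx => by
      by_contra hcon
      push Not at hcon
      exact hx.2 (mem_biUnion hcon (hmK x (hKΩ n hx.1)))
    have hcov : Ω ⊆ ⋃ n, A n := by
      intro x hx
      classical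
      have hex : ∃ n, x ∈ K n := ⟨m x, hmK x hx⟩
      refine mem_iUnion.2 ⟨Nat.find hex, Nat.find_spec hex, ?_⟩
      simp only [mem_iUnion, not_exists]
      exact fun k hk => Nat.find_min hex hk
    calc ∫⁻ x in Ω, ‖fderiv ℝ (avg ν h η) x - fderiv ℝ h x‖ₑ ^ p ∂μ
        ≤ ∫⁻ x in ⋃ n, A n, ‖fderiv ℝ (avg ν h η) x - fderiv ℝ h x‖ₑ ^ p ∂μ :=
          lintegral_mono_set hcov
      _ ≤ ∑' n, ∫⁻ x in A n, ‖fderiv ℝ (avg ν h η) x - fderiv ℝ h x‖ₑ ^ p ∂μ :=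
          lintegral_iUnion_le _ _
      _ ≤ ∑' n, ε' n := by
          refine ENNReal.tsum_le_tsum fun n => hT n η hη hη4 (A n) (hAm n) (hAK n) fun x hx => ?_
          have hxΩ := hKΩ n (hAK n hx)
          have h5 := hT'le n (m x) (hAm' n x hx)
          exact ⟨hηpos x hxΩ, (hηb x hxΩ).trans h5, (hDη x hxΩ).trans h5⟩
      _ ≤ ε := hsum.le

/-- **The mollification theorem** (P5-MOLL).  A homeomorphism `h : Ω → Λ` which locally is Lipschitz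
with derivative in a compact convex set of positive-determinant matrices is `W^{1,p} ∩ C⁰`-close to
a smooth diffeomorphism `g : Ω → Λ`. -/
theorem moll [μ.IsAddHaarMeasure] {h : E → E} {Ω Λ : Set E}
    (hΩ : IsOpen Ω) (hΛ : IsOpen Λ) (hΛc : IsPreconnected Λ) (himg : h '' Ω = Λ)
    (hm : Moll μ h Ω)
    (hsep : ∀ x ∈ Ω, ∀ ρ > 0, ∃ s > 0, ∀ y ∈ Ω, dist (h y) (h x) < s → dist y x < ρ)
    {δ : E → ℝ} (hδ : LBB Ω δ) {p : ℝ} (hp : 1 ≤ p) {ε : ℝ≥0∞} (hε : ε ≠ 0) :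
    ∃ g : E → E, ContDiffOn ℝ ∞ g Ω ∧ (∀ x ∈ Ω, 0 < (fderiv ℝ g x).det) ∧ InjOn g Ω ∧
      g '' Ω = Λ ∧ (∀ x ∈ Ω, ‖g x - h x‖ ≤ δ x) ∧
      ∫⁻ x in Ω, ‖fderiv ℝ g x - fderiv ℝ h x‖ₑ ^ p ∂μ ≤ ε := by
  obtain ⟨ρ, hρ⟩ := exists_dens (μ := μ)
  obtain ⟨b₁, hb₁, H₁⟩ := exists_bound hρ hΩ hΛ hΛc himg hm hsep hδ
  obtain ⟨b₂, hb₂, H₂⟩ := exists_Lp_bound hρ.ker hΩ (fun x hx => by
    obtain ⟨r, hr, K, -, -, -, ⟨L, hL⟩, -⟩ := hm x hx
    exact ⟨r, hr, L, hL⟩) hp hε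
  obtain ⟨η, hη, hη0, hηpos, hηb, hDηb, hη4⟩ := exists_radius hΩ (hb₁.inf_min hb₂)
  obtain ⟨g1, g2, g3, g4, g5⟩ := H₁ η hη hηpos (fun x hx => (hηb x hx).trans (min_le_left _ _))
    (fun x hx => (hDηb x hx).trans (min_le_left _ _))
  exact ⟨avg (kerM μ ρ) h η, g1, g2, g3, g4, g5, H₂ η hη hη4 hηpos
    (fun x hx => (hηb x hx).trans (min_le_right _ _))
    (fun x hx => (hDηb x hx).trans (min_le_right _ _))⟩

end Crest.Agent.R096.Mo_119
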