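import Crest.Agent.R096.Mo6_119
import Crest.Agent.R096.P5Spec_205

/-!
# P5-MOLL, part 7 (helper119, row 96): adapters
-/

set_option autoImplicit false
set_option linter.unusedSectionVars false

open MeasureTheory Metric Set Filter Topology
open scoped ENNReal NNReal ContDiff

namespace Crest.Agent.R096.Mo_119

open Crest.Agent.R096.P5Spec_205 (HomeoOn)

section sep
variable {E : Type*} [NormedAddCommGroup E]

/-- continuity of the inverse in the form used by `moll` -/
theorem _root_.Crest.Agent.R096.P5Spec_205.HomeoOn.sep {E : Type*} [NormedAddCommGroup E]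
    [InnerProductSpace ℝ E] {h : E → E} {Om La : Set E} (hh : HomeoOn h Om La) :
    ∀ x ∈ Om, ∀ ρ > 0, ∃ s > 0, ∀ y ∈ Om, dist (h y) (h x) < s → dist y x < ρ := by
  obtain ⟨k, hk, hkh⟩ := hh.inv
  intro x hx ρ hρ
  obtain ⟨s, hs, H⟩ := Metric.continuousOn_iff.1 hk (h x) (hh.bij.mapsTo hx) ρ hρ
  refine ⟨s, hs, fun y hy hyx => ?_⟩
  have := H (h y) (hh.bij.mapsTo hy) hyx
  rwa [hkh x hx, hkh y hy] at this

end sep

section
variable {E : Type*} [NormedAddCommGroup E] [InnerProductSpace ℝ E] [FiniteDimensional ℝ E]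
  [MeasureSpace E] [BorelSpace E] [(volume : Measure E).IsAddHaarMeasure]

omit [FiniteDimensional ℝ E] [BorelSpace E] [(volume : Measure E).IsAddHaarMeasure] in
theorem mollAt_iff {h : E → E} {x : E} :
    MollAt volume h x ↔ P5Spec_205.MollAt h x := Iff.rfl

/-- **P5-MOLL in the language of `P5Spec_205`.** -/
theorem moll_homeoOn {h : E → E} {Om La : Set E} (hOm : IsOpen Om) (hLa : IsOpen La)
    (hLc : IsPreconnected La) (hh : HomeoOn h Om La) (hm : ∀ x ∈ Om, P5Spec_205.MollAt h x)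
    {δ : E → ℝ} (hδc : ContinuousOn δ Om) (hδ : ∀ x ∈ Om, 0 < δ x) {p : ℝ} (hp : 1 ≤ p)
    {ε : ℝ≥0∞} (hε : ε ≠ 0) :
    ∃ g : E → E, ContDiffOn ℝ ∞ g Om ∧ (∀ x ∈ Om, 0 < (fderiv ℝ g x).det) ∧ BijOn g Om La ∧
      (∀ x ∈ Om, ‖g x - h x‖ ≤ δ x) ∧
      ∫⁻ x in Om, ‖fderiv ℝ g x - fderiv ℝ h x‖ₑ ^ p ≤ ε := by
  obtain ⟨g, g1, g2, g3, g4, g5, g6⟩ := moll (μ := volume) hOm hLa hLc hh.bij.image_eq
    (fun x hx => mollAt_iff.2 (hm x hx)) hh.sep (LBB.of_continuousOn hOm hδc hδ) hp hε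
  exact ⟨g, g1, g2, ⟨fun x hx => g4 ▸ mem_image_of_mem g hx, g3, g4.ge⟩, g5, g6⟩

omit [MeasureSpace E] [BorelSpace E] [(volume : Measure E).IsAddHaarMeasure] in
/-- the inverse of a smooth bijection between open sets with invertible derivative is smooth -/
theorem contDiffOn_inv {g k : E → E} {Om La : Set E} (hOm : IsOpen Om)
    (hg : ContDiffOn ℝ ∞ g Om) (hdet : ∀ x ∈ Om, (fderiv ℝ g x).det ≠ 0)
    (hmk : MapsTo k La Om) (hinj : InjOn g Om) (hkg : ∀ y ∈ La, g (k y) = y) (hLa : IsOpen La) :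
    ContDiffOn ℝ ∞ k La := by
  have : CompleteSpace E := FiniteDimensional.complete ℝ E
  intro y hy
  have hx : k y ∈ Om := hmk hy
  set x := k y with hxdef
  have hgx : ContDiffAt ℝ ∞ g x := hg.contDiffAt (hOm.mem_nhds hx)
  set A : E ≃L[ℝ] E := (fderiv ℝ g x).toContinuousLinearEquivOfDetNeZero (hdet x hx) with hA
  have hA' : HasFDerivAt g (A : E →L[ℝ] E) x := by
    have h1 := (hgx.differentiableAt (by simp)).hasFDerivAt
    have h2 : (A : E →L[ℝ] E) = fderiv ℝ g x := by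
      ext v
      rfl
    rw [h2]; exact h1
  -- the local inverse
  have hn : (∞ : WithTop ℕ∞) ≠ 0 := by simp
  set e := hgx.toOpenPartialHomeomorph g hA' hn with he
  have hloc : ContDiffAt ℝ ∞ (hgx.localInverse hA' hn) (g x) := hgx.to_localInverse hA' hn
  have hgxy : g x = y := hkg y hy
  -- near `y`, `k` agrees with the local inverse
  have hli : ∀ᶠ z in 𝓝 (g x), g (hgx.localInverse hA' hn z) = z := by
    have := (hgx.hasStrictFDerivAt' hA' hn).eventually_right_inverse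
    exact this
  have hcont : Tendsto (hgx.localInverse hA' hn) (𝓝 (g x)) (𝓝 x) := by
    have h1 : hgx.localInverse hA' hn (g x) = x :=
      (hgx.hasStrictFDerivAt' hA' hn).localInverse_apply_image
    have h2 := hloc.continuousAt
    rw [ContinuousAt, h1] at h2
    exact h2
  have hin : ∀ᶠ z in 𝓝 (g x), hgx.localInverse hA' hn z ∈ Om := hcont (hOm.mem_nhds hx)
  have hLa' : ∀ᶠ z in 𝓝 (g x), z ∈ La := by rw [hgxy]; exact hLa.mem_nhds hy
  have heq : k =ᶠ[𝓝 (g x)] hgx.localInverse hA' hn := by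
    filter_upwards [hli, hin, hLa'] with z h1 h2 h3
    exact hinj (hmk h3) h2 (by rw [hkg z h3, h1])
  have hk : ContDiffAt ℝ ∞ k (g x) := hloc.congr_of_eventuallyEq heq
  rw [hgxy] at hk
  exact hk.contDiffWithinAt

end

/-! ### points of the class `MollAt` -/

section cls
variable {E : Type*} [NormedAddCommGroup E] [NormedSpace ℝ E] [FiniteDimensional ℝ E]
  [MeasurableSpace E] [BorelSpace E] {μ : Measure E}

omit [FiniteDimensional ℝ E] in
/-- the class is open -/
theorem MollAt.eventually {h : E → E} {x : E} (hx : MollAt μ h x) : ∀ᶠ y in 𝓝 x, MollAt μ h y := by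
  obtain ⟨r, hr, K, hKc, hK, hdet, ⟨L, hL⟩, hae⟩ := hx
  filter_upwards [ball_mem_nhds x (half_pos hr)] with y hy
  have hsub : ball y (r / 2) ⊆ ball x r := by
    refine ball_subset_ball' ?_
    rw [mem_ball] at hy
    linarith
  exact ⟨r / 2, half_pos hr, K, hKc, hK, hdet, ⟨L, hL.mono hsub⟩, hae.mono fun z hz hzy =>
    hz (hsub hzy)⟩

omit [FiniteDimensional ℝ E] in
/-- the class only depends on the germ -/
theorem MollAt.congr {h h' : E → E} {x : E} (hx : MollAt μ h x) (he : h' =ᶠ[𝓝 x] h) :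
    MollAt μ h' x := by
  obtain ⟨r, hr, K, hKc, hK, hdet, ⟨L, hL⟩, hae⟩ := hx
  obtain ⟨s, hs, hse⟩ := Metric.eventually_nhds_iff_ball.1 he
  have hsub : ball x (min r s) ⊆ ball x r := ball_subset_ball (min_le_left _ _)
  refine ⟨min r s, lt_min hr hs, K, hKc, hK, hdet, ⟨L, ?_⟩, ?_⟩
  · intro y hy z hz
    rw [hse y (ball_subset_ball (min_le_right _ _) hy), hse z (ball_subset_ball (min_le_right _ _) hz)]
    exact hL (hsub hy) (hsub hz)
  · filter_upwards [hae] with z hz hzx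
    have : fderiv ℝ h' z = fderiv ℝ h z := by
      apply Filter.EventuallyEq.fderiv_eq
      filter_upwards [isOpen_ball.mem_nhds hzx] with w hw
      exact hse w (ball_subset_ball (min_le_right _ _) hw)
    rw [this]
    exact hz (hsub hzx)

/-- a Moll map is differentiable a.e. -/
theorem MollAt.ae_differentiable [μ.IsAddHaarMeasure] {h : E → E} {x : E} (hx : MollAt μ h x) :
    ∃ r > 0, ∀ᵐ y ∂μ, y ∈ ball x r → DifferentiableAt ℝ h y := by
  obtain ⟨r, hr, K, hKc, hK, hdet, ⟨L, hL⟩, hae⟩ := hx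
  refine ⟨r, hr, ?_⟩
  filter_upwards [hL.ae_differentiableWithinAt_of_mem (μ := μ)] with y hy hyx
  exact (hy hyx).differentiableAt (isOpen_ball.mem_nhds hyx)

omit [BorelSpace E] in
/-- `C¹` points with positive determinant -/
theorem mollAt_of_contDiffAt {h : E → E} {x : E} (hx : ContDiffAt ℝ 1 h x)
    (hdet : 0 < (fderiv ℝ h x).det) : MollAt μ h x := by
  have : ProperSpace (E →L[ℝ] E) := FiniteDimensional.proper_real _
  obtain ⟨L, s, hs, hLs⟩ := hx.exists_lipschitzOnWith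
  have hU : IsOpen {B : E →L[ℝ] E | 0 < B.det} :=
    isOpen_lt continuous_const ContinuousLinearMap.continuous_det
  obtain ⟨d, hd, hdU⟩ := Metric.isOpen_iff.1 hU _ (show fderiv ℝ h x ∈ {B : E →L[ℝ] E | 0 < B.det}
    from hdet)
  have hcont : ContinuousAt (fderiv ℝ h) x := hx.continuousAt_fderiv (by simp)
  have h1 : ∀ᶠ y in 𝓝 x, fderiv ℝ h y ∈ ball (fderiv ℝ h x) (d / 2) :=
    hcont (ball_mem_nhds _ (half_pos hd))
  obtain ⟨r, hr, hball⟩ := Metric.eventually_nhds_iff_ball.1 (h1.and hs)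
  refine ⟨r, hr, closedBall (fderiv ℝ h x) (d / 2), convex_closedBall _ _,
    isCompact_closedBall _ _, fun A hA => hdU (closedBall_subset_ball (half_lt_self hd) hA),
    ⟨L, hLs.mono fun y hy => (hball y hy).2⟩, Eventually.of_forall fun y hy =>
    ball_subset_closedBall (hball y hy).1⟩

end cls

end Crest.Agent.R096.Mo_119
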