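import Crest.Agent.R096.Mal16_874

/-!
# Row 96 (S0127), instance of `MF` (helper324): potential tiles of good tiles

`sim_pt` : 874's `sim_tile` with a prescribed integer vector.
`Tq φ a0 κ z S = {y | 2^κ (φ y - a0) - z ∈ S}` : potential tile; **`Good.pot`** : every good tile is a shifted
potential tile `Tq φ a0 κ z S` with `S` in the finite list `shapes 𝒩 d (bnd 𝒩 d R)`, `S ⊆ [-R, R + 1]^n`, and its
configuration in the rigid frame `frT φ a0 κ z` is in the list `simL 𝒩 d R`.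
-/

set_option autoImplicit false

open Set Filter Topology Metric

namespace Crest.Agent.R096.Mou_324

open Msh_715 Cut_874 Msh_810 Mal_874

variable {n : ℕ} {E : Type*} [NormedAddCommGroup E] [NormedSpace ℝ E]
variable {Om : Set E} {ι : Type*}

/-- **configurations, with a prescribed integer vector** -/
theorem sim_pt {T : Tiling Om ι} {χ : E ≃ᵃ[ℝ] (Fin n → ℝ)} {s : ℝ} (hs : 0 < s)
    {𝒩 : Finset (Fin n → ℝ)} {d : ℕ} (hd : 0 < d) (h𝒩 : ∀ ν ∈ 𝒩, ∀ m, ∃ c : ℤ, ν m = c / d)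
    {R : ℝ} {i : ι}
    (hgood : ∀ l, (P (T.H l) ∩ P (T.H i)).Nonempty → ∀ h ∈ T.H l, ∃ ν, ∃ t : ℤ, GF χ s 𝒩 d h ν t)
    (hR : ∀ x ∈ P (T.H i), ∀ y ∈ P (T.H i), ∀ m, |χ y m - χ x m| ≤ R) {x0 : E}
    (hx0' : x0 ∈ P (T.H i)) {z0 : Fin n → ℤ} (hz0 : ∀ m, z0 m = ⌊χ x0 m⌋) :
    (fun K => (χ.trans (trz z0)) '' K) '' cfg T i ∈ simL 𝒩 d R := by
  obtain rfl : z0 = fun m => ⌊χ x0 m⌋ := funext hz0
  rintro _ ⟨_, ⟨x, hx, rfl⟩, rfl⟩
  obtain ⟨S, hS, e⟩ := cc_shape' (x := x) hs hd h𝒩 (R := R) (le_bnd (R := R))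
    (fun l hl h hh => hgood l ⟨x, hl, hx⟩ h hh) (i₀ := i) hx (hR x hx)
  refine ⟨S, hS, fun m => ⌊χ x m⌋ - ⌊χ x0 m⌋, ?_, ?_⟩
  · intro m
    have h1 := Int.floor_le (χ x m)
    have h2 := Int.lt_floor_add_one (χ x m)
    have h3 := Int.floor_le (χ x0 m)
    have h4 := Int.lt_floor_add_one (χ x0 m)
    have h5 := abs_le.1 (hR x0 hx0' x hx m)
    have h6 := le_abs_self R
    push_cast
    rw [abs_le]
    constructor <;> linarith
  · ext u
    simp only [Set.mem_image, Set.mem_ofPred_eq]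
    constructor
    · rintro ⟨y, hy, rfl⟩
      rw [e] at hy
      have h1 : (fun m => (χ.trans (trz fun m => ⌊χ x0 m⌋)) y m - ((⌊χ x m⌋ - ⌊χ x0 m⌋ : ℤ) : ℝ)) =
          fun m => χ y m - (⌊χ x m⌋ : ℝ) := by
        funext m
        rw [AffineEquiv.trans_apply, trz_apply]
        push_cast
        ring
      rw [h1]
      exact hy
    · intro hu
      refine ⟨(χ.trans (trz fun m => ⌊χ x0 m⌋)).symm u, ?_, by simp⟩
      rw [e]
      simp only [Set.mem_ofPred_eq]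
      have h1 : (fun m => χ ((χ.trans (trz fun m => ⌊χ x0 m⌋)).symm u) m - (⌊χ x m⌋ : ℝ)) =
          fun m => u m - ((⌊χ x m⌋ - ⌊χ x0 m⌋ : ℤ) : ℝ) := by
        funext m
        have h2 : (χ.trans (trz fun m => ⌊χ x0 m⌋)) ((χ.trans (trz fun m => ⌊χ x0 m⌋)).symm u) m
            = u m := by simp
        rw [AffineEquiv.trans_apply, trz_apply] at h2
        push_cast
        linarith
      rw [h1]
      exact hu

/-! ### potential tiles -/

/-- the potential tile `(z, S)` in the frame `φ`, base point `a0`, scale `κ` -/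
def Tq (φ : E ≃L[ℝ] (Fin n → ℝ)) (a0 : Fin n → ℝ) (κ : ℕ) (z : Fin n → ℤ) (S : Set (Fin n → ℝ)) : Set E :=
  {y | (fun m => chi φ a0 κ y m - (z m : ℝ)) ∈ S}

/-- the rigid frame of the potential tile -/
noncomputable def frT (φ : E ≃L[ℝ] (Fin n → ℝ)) (a0 : Fin n → ℝ) (κ : ℕ) (z : Fin n → ℤ) :
    E ≃ᵃ[ℝ] (Fin n → ℝ) := (chi φ a0 κ).trans (trz z)

theorem frT_apply (φ : E ≃L[ℝ] (Fin n → ℝ)) (a0 : Fin n → ℝ) (κ : ℕ) (z : Fin n → ℤ) (y : E) :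
    frT φ a0 κ z y = fun m => chi φ a0 κ y m - (z m : ℝ) := by
  unfold frT
  rw [AffineEquiv.trans_apply, trz_apply]

theorem mem_Tq {φ : E ≃L[ℝ] (Fin n → ℝ)} {a0 : Fin n → ℝ} {κ : ℕ} {z : Fin n → ℤ}
    {S : Set (Fin n → ℝ)} {y : E} : y ∈ Tq φ a0 κ z S ↔ frT φ a0 κ z y ∈ S := by
  rw [frT_apply]
  rfl

theorem chi_shift (φ : E ≃L[ℝ] (Fin n → ℝ)) (a0 : Fin n → ℝ) (κ : ℕ) (b y : E) (m : Fin n) :
    chi φ (a0 + φ b) κ y m = chi φ a0 κ (y - b) m := by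
  rw [chi_apply, chi_apply, map_sub, Pi.add_apply, Pi.sub_apply]
  ring

/-- the frames move with the shift -/
theorem frT_shift (φ : E ≃L[ℝ] (Fin n → ℝ)) (a0 : Fin n → ℝ) (κ : ℕ) (z : Fin n → ℤ) (b y : E) :
    frT φ (a0 + φ b) κ z y = frT φ a0 κ z (y - b) := by
  rw [frT_apply, frT_apply]
  funext m
  rw [chi_shift]

/-- the potential tiles move with the shift -/
theorem Tq_shift (φ : E ≃L[ℝ] (Fin n → ℝ)) (a0 : Fin n → ℝ) (κ : ℕ) (z : Fin n → ℤ)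
    (S : Set (Fin n → ℝ)) (b : E) : Tq φ (a0 + φ b) κ z S = (fun y => y + b) '' Tq φ a0 κ z S := by
  ext y
  rw [mem_Tq, frT_shift]
  constructor
  · intro h
    exact ⟨y - b, mem_Tq.2 h, sub_add_cancel y b⟩
  · rintro ⟨y', h, rfl⟩
    show frT φ a0 κ z (y' + b - b) ∈ S
    rw [add_sub_cancel_right]
    exact mem_Tq.1 h

/-- linear part of the frame -/
theorem frT_linear (φ : E ≃L[ℝ] (Fin n → ℝ)) (a0 : Fin n → ℝ) (κ : ℕ) (z : Fin n → ℤ) (y : E) :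
    (frT φ a0 κ z).linear y = fun m => 2 ^ κ * φ y m := by
  have h : (frT φ a0 κ z).linear y = frT φ a0 κ z (y + 0) - frT φ a0 κ z 0 := by
    have := (frT φ a0 κ z).map_vadd 0 y
    rw [vadd_eq_add, vadd_eq_add] at this
    rw [this, add_sub_cancel_right]
  rw [h, add_zero, frT_apply, frT_apply]
  funext m
  simp only [Pi.sub_apply, chi_apply, map_zero, Pi.zero_apply]
  ring

/-- norm of the linear part of the frame -/
theorem frT_norm (φ : E ≃L[ℝ] (Fin n → ℝ)) (a0 : Fin n → ℝ) (κ : ℕ) (z : Fin n → ℤ) (y : E) :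
    ‖(frT φ a0 κ z).linear y‖ ≤ 2 ^ κ * ‖(φ : E →L[ℝ] (Fin n → ℝ))‖ * ‖y‖ := by
  rw [frT_linear]
  have e : (fun m => 2 ^ κ * φ y m) = (2 : ℝ) ^ κ • φ y := rfl
  rw [e, norm_smul, Real.norm_eq_abs, abs_of_pos (by positivity : (0 : ℝ) < 2 ^ κ), mul_assoc]
  exact mul_le_mul_of_nonneg_left ((φ : E →L[ℝ] (Fin n → ℝ)).le_opNorm y) (by positivity)

/-- `S` lies in the box `[-R, R + 1]^n` -/
def BS (R : ℝ) (S : Set (Fin n → ℝ)) : Prop := ∀ u ∈ S, ∀ m, -R ≤ u m ∧ u m ≤ R + 1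

/-- **every good tile is a shifted potential tile, with a rigid frame** -/
theorem good_pot {T : Tiling Om ι} {t : ι} {φ : E ≃L[ℝ] (Fin n → ℝ)} {a a0 : Fin n → ℝ} {b : E}
    (hab : a = a0 + φ b) {k : ℕ} {𝒩 : Finset (Fin n → ℝ)} {d : ℕ} {R : ℝ}
    (h : Good T t (chi φ a k) k 𝒩 d R) (hd : 0 < d) (h𝒩 : ∀ ν ∈ 𝒩, ∀ m, ∃ c : ℤ, ν m = c / d) :
    ∃ (z : Fin n → ℤ) (S : Set (Fin n → ℝ)), S ∈ shapes 𝒩 d (bnd 𝒩 d R) ∧ BS R S ∧
      P (T.H t) = (fun y => y + b) '' Tq φ a0 k z S ∧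
      (fun K => (frT φ a k z) '' K) '' cfg T t ∈ simL 𝒩 d R := by
  obtain ⟨x, hx⟩ := T.ne t
  have hxP := I_sub_P _ hx
  obtain ⟨S, hS, e⟩ := h.cc hd h𝒩 hxP
  rw [T.cc_eq_tile hx] at e
  refine ⟨fun m => ⌊chi φ a k x m⌋, S, hS, ?_, ?_, ?_⟩
  · intro u hu m
    have hy : (frT φ a k (fun m => ⌊chi φ a k x m⌋)).symm u ∈ P (T.H t) := by
      rw [e]
      show (fun m => chi φ a k
        ((frT φ a k (fun m => ⌊chi φ a k x m⌋)).symm u) m -
          (⌊chi φ a k x m⌋ : ℝ)) ∈ S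
      rw [← frT_apply φ a k (fun m => ⌊chi φ a k x m⌋), AffineEquiv.apply_symm_apply]
      exact hu
    have h1 := abs_le.1 (h.sz x hxP _ hy m)
    have h2 : u m = chi φ a k
        ((frT φ a k (fun m => ⌊chi φ a k x m⌋)).symm u) m -
          (⌊chi φ a k x m⌋ : ℝ) := by
      have h3 := congrFun (frT_apply φ a k (fun m => ⌊chi φ a k x m⌋)
        ((frT φ a k (fun m => ⌊chi φ a k x m⌋)).symm u)) m
      rw [AffineEquiv.apply_symm_apply] at h3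
      exact h3
    have h4 := Int.floor_le (chi φ a k x m)
    have h5 := Int.lt_floor_add_one (chi φ a k x m)
    rw [h2]
    constructor <;> linarith [h1.1, h1.2]
  · rw [e, ← Tq_shift, ← hab]
    rfl
  · exact sim_pt (s := 2 ^ k) (by positivity) hd h𝒩 h.gf h.sz hxP fun m => rfl

end Crest.Agent.R096.Mou_324
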