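import Crest.Agent.R096.Mou1_324
import Crest.Agent.R96.Wm1_72

/-!
# Row 96 (S0127), instance of `MF` (helper324): the outer tiles and the wall tiles of 874's mesh

`plain_pot` : an outer tile away from the walls is a shifted cube `Tw φ 0 s z` (72's potential tiles);
`wall_pot_out`, `wall_pot_in` : the tiles at the wall of the block `j` (outer pieces and cubes near the wall, inner
cubes which touch the wall) are shifted potential tiles `Tq φ 0 (k j) z S`, near the wall at the offset `w j`.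
-/

set_option autoImplicit false

open Set Filter Topology Metric

namespace Crest.Agent.R096.Mou_324

open Msh_715 Cut_874 Msh_810 Mal_874
open Crest.Agent.R96.Wm_72 (Tw Aw Tw_tr mem_Aw)

variable {n : ℕ} {E : Type*} [NormedAddCommGroup E] [NormedSpace ℝ E]

variable {J : Type*}

/-- `Q` is near the wall of the block `j` placed at the offset `w` -/
def NearW (M : MD E n J) (j : J) (w : E) (c : ℝ) (κ : ℕ) (Q : Set E) : Prop :=
  ∃ y, y - w ∈ frontier (M.Q j).N ∧ ∀ x ∈ Q, dist (M.φ x) (M.φ y) ≤ c / 2 ^ κ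

variable (M : MD E n J) [NeZero n] {k : J → ℕ} (hk : M.Sc k) (a : Fin n → ℝ) {v : J → E}
  (hv : M.Adm v)

omit [NeZero n] in
theorem symm_shift : a = 0 + M.φ (M.φ.symm a) := by
  rw [zero_add, ContinuousLinearEquiv.apply_symm_apply]

/-- the list of shapes of the wall `j` -/
abbrev ShW {M : MD E n J} (X : RD M) (j : J) : Set (Set (Fin n → ℝ)) :=
  shapes (NR (X.A j) (X.d j)) (X.d j) (bnd (NR (X.A j) (X.d j)) (X.d j) (X.c j))

theorem top_isM {D : Dat n} (τ : Top D) : IsM D ⟨τ.1.1.k, τ.1.1.z, Finset.univ⟩ := by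
  obtain ⟨⟨⟨k', z', J'⟩, hτ⟩, hJ⟩ := τ
  simp only at hJ
  subst hJ
  exact hτ

/-- **outer tiles away from the walls** -/
theorem plain_pot (p : M.OIx hk a hv)
    (h1 : P ((M.mesh hk a hv).H (Sum.inl p)) = P ((M.ad hk a hv).T0.H p.1.par))
    (hG : Good (M.mesh hk a hv) (Sum.inl p) (chi M.φ a (p.1.par.1.1.k + 1)) (p.1.par.1.1.k + 1)
        (N0 n) 1 2) :
    ∃ (s : ℕ) (z : Fin n → ℤ), s = p.1.par.1.1.k ∧ z = p.1.par.1.1.z ∧
      P ((M.mesh hk a hv).H (Sum.inl p)) = (fun y => y + M.φ.symm a) '' Tw M.φ 0 s z ∧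
      IsM (outD M.D0 k M.W a) ⟨s, z, Finset.univ⟩ ∧
      (fun K => (frT M.φ a (s + 1) (fun m => 2 * z m)) '' K) '' cfg (M.mesh hk a hv) (Sum.inl p) ∈
        simL (N0 n) 1 2 := by
  refine ⟨_, _, rfl, rfl, ?_, ?_, ?_⟩
  · rw [h1, ← Tw_tr, ← symm_shift]
    exact P_Hc M.φ a _ _
  · exact top_isM _
  · set s := p.1.par.1.1.k with hs
    set z := p.1.par.1.1.z with hz
    have hx0 : M.φ.symm (fun m => a m + z m / 2 ^ s) ∈ P ((M.mesh hk a hv).H (Sum.inl p)) := by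
      rw [h1]
      have e : P ((M.ad hk a hv).T0.H p.1.par) = M.φ ⁻¹' (Cu a s z) := P_Hc M.φ a _ _
      rw [e, mem_preimage, ContinuousLinearEquiv.apply_symm_apply, mem_Cu]
      intro i
      have hp : (2 : ℝ) ^ s ≠ 0 := by positivity
      have e2 : ps a s (fun m => a m + z m / 2 ^ s) i = z i := by
        unfold ps
        field_simp
        ring
      rw [e2]
      exact ⟨le_rfl, by linarith⟩
    refine sim_pt (s := 2 ^ (s + 1)) (by positivity) one_pos (N0_rat one_pos) hG.gf hG.sz hx0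
      fun m => ?_
    have e : chi M.φ a (s + 1) (M.φ.symm (fun m => a m + z m / 2 ^ s)) m = ((2 * z m : ℤ) : ℝ) := by
      rw [chi_apply, ContinuousLinearEquiv.apply_symm_apply]
      push_cast
      have hp : (2 : ℝ) ^ s ≠ 0 := by positivity
      rw [pow_succ]
      field_simp
      ring
    rw [e, Int.floor_intCast]

omit [NeZero n] in
/-- the wall, translated back -/
theorem near_back {j : J} {w b y : E} (hvj : v j = b + w) (hy : y ∈ frontier (M.Bk v j).N) :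
    y - b - w ∈ frontier (M.Q j).N := by
  have h := ((M.Q j).frontier_N_tr (v j)).1 hy
  rw [hvj] at h
  have e : y - b - w = y - (b + w) := by abel
  rw [e]
  exact h

/-- **good tiles in the wall class** -/
theorem wall_pot (X : RD M) {t : M.OIx hk a hv ⊕ Σ j, M.IIx hk a hv j} {j : J} {w : E}
    (hvj : v j = M.φ.symm a + w)
    (hG : Good (M.mesh hk a hv) t (chi M.φ a (k j)) (k j) (NR (X.A j) (X.d j)) (X.d j) (X.c j))
    (hn : ∃ y ∈ frontier (M.Bk v j).N, ∀ x ∈ P ((M.mesh hk a hv).H t),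
      dist (M.φ x) (M.φ y) ≤ (2 + X.c j) / 2 ^ k j) :
    ∃ (z : Fin n → ℤ) (S : Set (Fin n → ℝ)), S ∈ ShW X j ∧ BS (X.c j) S ∧
      P ((M.mesh hk a hv).H t) = (fun y => y + M.φ.symm a) '' Tq M.φ 0 (k j) z S ∧
      NearW M j w (2 + X.c j) (k j) (Tq M.φ 0 (k j) z S) ∧
      (fun K => (frT M.φ a (k j) z) '' K) '' cfg (M.mesh hk a hv) t ∈
        simL (NR (X.A j) (X.d j)) (X.d j) (X.c j) := by
  obtain ⟨z, S, hS, hB, hP, hsim⟩ := good_pot (symm_shift M a) hG (X.dpos j) (NR_rat (X.A j) (X.dpos j))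
  refine ⟨z, S, hS, hB, hP, ?_, hsim⟩
  obtain ⟨y, hy, hyd⟩ := hn
  refine ⟨y - M.φ.symm a, near_back M hvj hy, fun x hx => ?_⟩
  have h1 := hyd (x + M.φ.symm a) (by rw [hP]; exact mem_image_of_mem _ hx)
  have e : dist (M.φ x) (M.φ (y - M.φ.symm a)) = dist (M.φ (x + M.φ.symm a)) (M.φ y) := by
    rw [dist_eq_norm, dist_eq_norm, ← map_sub, ← map_sub]
    congr 2
    abel
  rw [e]
  exact h1

/-- **OUTER HALF**: every outer tile is a shifted plain cube or a shifted wall tile -/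
theorem outer_pot (X : RD M) (RPx : RP X a v k) {w : J → E} (hvw : ∀ j, v j = M.φ.symm a + w j)
    (p : M.OIx hk a hv) :
    (∃ (s : ℕ) (z : Fin n → ℤ),
      P ((M.mesh hk a hv).H (Sum.inl p)) = (fun y => y + M.φ.symm a) '' Tw M.φ 0 s z ∧
      IsM (outD M.D0 k M.W a) ⟨s, z, Finset.univ⟩ ∧
      (∀ j, Disjoint (P ((M.mesh hk a hv).H (Sum.inl p))) (M.Bk v j).N) ∧
      (fun K => (frT M.φ a (s + 1) (fun m => 2 * z m)) '' K) '' cfg (M.mesh hk a hv) (Sum.inl p) ∈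
        simL (N0 n) 1 2) ∨
    ∃ (j : J) (z : Fin n → ℤ) (S : Set (Fin n → ℝ)), S ∈ ShW X j ∧ BS (X.c j) S ∧
      P ((M.mesh hk a hv).H (Sum.inl p)) = (fun y => y + M.φ.symm a) '' Tq M.φ 0 (k j) z S ∧
      NearW M j (w j) (2 + X.c j) (k j) (Tq M.φ 0 (k j) z S) ∧
      (fun K => (frT M.φ a (k j) z) '' K) '' cfg (M.mesh hk a hv) (Sum.inl p) ∈
        simL (NR (X.A j) (X.d j)) (X.d j) (X.c j) := by
  rcases M.outer_good hk a hv X RPx p with ⟨h1, h2, h3⟩ | ⟨j, h1, ⟨y, hy, hyd⟩, h3⟩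
  · left
    obtain ⟨s, z, -, -, h4, h5, h6⟩ := plain_pot M hk a hv p h1 h3
    exact ⟨s, z, h4, h5, h2, h6⟩
  · right
    obtain ⟨z, S, h4, h5, h6, h7, h8⟩ := wall_pot M hk a hv X (hvw j) h3
      ⟨y, hy, fun x hx => (hyd x hx).trans (by
        have := X.c1 j
        exact div_le_div_of_nonneg_right (by linarith) (by positivity))⟩
    exact ⟨j, z, S, h4, h5, h6, h7, h8⟩

/-- **the inner tiles which touch the wall** (third case of 874's `inner_good`) -/
theorem inner_wall_pot (X : RD M) {j : J} {w : E} (hvj : v j = M.φ.symm a + w)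
    (i : M.IIx hk a hv j)
    (hG : Good (M.mesh hk a hv) (Sum.inr ⟨j, i⟩) (chi M.φ a (k j)) (k j) (NR (X.A j) (X.d j)) (X.d j)
        (X.c j))
    (hf : (P ((M.mesh hk a hv).H (Sum.inr ⟨j, i⟩)) ∩ frontier (M.Bk v j).N).Nonempty) :
    ∃ (z : Fin n → ℤ) (S : Set (Fin n → ℝ)), S ∈ ShW X j ∧ BS (X.c j) S ∧
      P ((M.mesh hk a hv).H (Sum.inr ⟨j, i⟩)) = (fun y => y + M.φ.symm a) '' Tq M.φ 0 (k j) z S ∧
      NearW M j w (2 + X.c j) (k j) (Tq M.φ 0 (k j) z S) ∧
      (fun K => (frT M.φ a (k j) z) '' K) '' cfg (M.mesh hk a hv) (Sum.inr ⟨j, i⟩) ∈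
        simL (NR (X.A j) (X.d j)) (X.d j) (X.c j) := by
  refine wall_pot M hk a hv X hvj hG ?_
  obtain ⟨y, hy1, hy2⟩ := hf
  refine ⟨y, hy2, fun x hx => ?_⟩
  have hp : (0 : ℝ) < 2 ^ k j := by positivity
  have hc := X.c1 j
  rw [dist_pi_le_iff (by positivity)]
  intro m
  have h1 := hG.sz y hy1 x hx m
  rw [chi_apply, chi_apply, ← mul_sub, abs_mul, abs_of_pos hp] at h1
  have e : M.φ x m - a m - (M.φ y m - a m) = M.φ x m - M.φ y m := by ring
  rw [e] at h1
  rw [Real.dist_eq, le_div_iff₀' hp]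
  linarith

end Crest.Agent.R096.Mou_324
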