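import Crest.Agent.R096.Mou3_324

/-!
# Row 96 (S0127), instance of `MF` (helper324): numbers and mean energy of the outer class `QP`

`QP_card`, `QP_beta`; **`mean_QP`** : `∫⁻ a, EnC (outer class) a ≤ C ∫⁻_{φ⁻¹ Om \ Nm} H^p`.
-/

set_option autoImplicit false
set_option linter.unusedSectionVars false

open MeasureTheory Set Filter Topology Metric
open scoped ENNReal

namespace Crest.Agent.R096.Mou_324

open Msh_715 Cut_874 Msh_810 Mal_874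
open Crest.Agent.R096.SkC1_961 (E3 Cfg)
open Crest.Agent.R96.Wm_72 (Tw Aw Tw_tr mem_Aw measurableSet_Aw)
open Crest.Agent.R96.Sg1_199 (li sgm)
open Crest.Agent.R96.Sg8_199 (EnA)

open Crest.Agent.R096.Mfe_161 (PTn shf kk kk_mem' kk_countable)
open Crest.Agent.R096.Mfa_880 (PT)

/-- the ends of a segment -/
theorem sgm_left {E : Type*} [NormedAddCommGroup E] [NormedSpace ℝ E] (x v : E) :
    x ∈ R96.Sg1_199.sgm x v := ⟨0, ⟨le_rfl, zero_le_one⟩, by simp⟩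

theorem sgm_right {E : Type*} [NormedAddCommGroup E] [NormedSpace ℝ E] (x v : E) :
    x + v ∈ R96.Sg1_199.sgm x v := ⟨1, ⟨zero_le_one, le_rfl⟩, by simp⟩

/-- norm in the frame -/
theorem norm_le_frame (φ : E3 ≃L[ℝ] (Fin 3 → ℝ)) (v : E3) :
    ‖v‖ ≤ ‖(φ.symm : (Fin 3 → ℝ) →L[ℝ] E3)‖ * ‖φ v‖ := by
  have h := (φ.symm : (Fin 3 → ℝ) →L[ℝ] E3).le_opNorm (φ v)
  have e : (φ.symm : (Fin 3 → ℝ) →L[ℝ] E3) (φ v) = v := φ.symm_apply_apply _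
  rwa [e] at h

/-- `β ‖v‖ ≤ K` for a segment in a tile which has size `D / 2^κ` in the frame -/
theorem beta_seg_le (φ : E3 ≃L[ℝ] (Fin 3 → ℝ)) {κ : ℕ} {b D : ℝ} (hb : 0 ≤ b) {K : Set E3}
    (hK : ∀ y ∈ K, ∀ y' ∈ K, 2 ^ κ * ‖φ y' - φ y‖ ≤ D) {x v : E3}
    (h : R96.Sg1_199.sgm x v ⊆ K) :
    ENNReal.ofReal (b * 2 ^ κ * ‖(φ : E3 →L[ℝ] (Fin 3 → ℝ))‖) * ‖v‖ₑ ≤
      ENNReal.ofReal (b * D * (‖(φ : E3 →L[ℝ] (Fin 3 → ℝ))‖ *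
        ‖(φ.symm : (Fin 3 → ℝ) →L[ℝ] E3)‖)) := by
  have h1 := hK x (h (sgm_left x v)) (x + v) (h (sgm_right x v))
  have h2 : φ (x + v) - φ x = φ v := by rw [map_add, add_sub_cancel_left]
  rw [h2] at h1
  rw [← ofReal_norm, ← ENNReal.ofReal_mul (by positivity)]
  refine ENNReal.ofReal_le_ofReal ?_
  have h3 := norm_le_frame φ v
  have h4 : (0 : ℝ) < 2 ^ κ := by positivity
  have h5 : 2 ^ κ * ‖v‖ ≤ ‖(φ.symm : (Fin 3 → ℝ) →L[ℝ] E3)‖ * D := by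
    calc 2 ^ κ * ‖v‖ ≤ 2 ^ κ * (‖(φ.symm : (Fin 3 → ℝ) →L[ℝ] E3)‖ * ‖φ v‖) :=
          mul_le_mul_of_nonneg_left h3 h4.le
      _ = ‖(φ.symm : (Fin 3 → ℝ) →L[ℝ] E3)‖ * (2 ^ κ * ‖φ v‖) := by ring
      _ ≤ _ := mul_le_mul_of_nonneg_left h1 (norm_nonneg _)
  calc b * 2 ^ κ * ‖(φ : E3 →L[ℝ] (Fin 3 → ℝ))‖ * ‖v‖ =
        (b * ‖(φ : E3 →L[ℝ] (Fin 3 → ℝ))‖) * (2 ^ κ * ‖v‖) := by ring
    _ ≤ (b * ‖(φ : E3 →L[ℝ] (Fin 3 → ℝ))‖) * (‖(φ.symm : (Fin 3 → ℝ) →L[ℝ] E3)‖ * D) :=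
        mul_le_mul_of_nonneg_left h5 (by positivity)
    _ = _ := by ring

/-- finite configurations of a list `simL` -/
theorem shs_simL (𝒩 : Finset (Fin 3 → ℝ)) (d : ℕ) (R : ℝ) :
    (⋃₀ {c | c ∈ simL 𝒩 d R ∧ c.Finite}).ncard ≤ (shpT 𝒩 d R).ncard := by
  refine Set.ncard_le_ncard ?_ (shpT_finite 𝒩 d R)
  rintro K ⟨c, ⟨hc, -⟩, hK⟩
  exact hc hK

section

variable {J : Type} [Countable J] (M : MD E3 3 J) (k : J → ℕ) {W : J → Set E3}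
  (Wc : ∀ j, (W j).Countable) (r : ℝ)

/-- the number of potential edges of the tiles of the outer class -/
noncomputable def nP : ℕ := (shpT (N0 3) 1 2).ncard

/-- the number of edges of an outer cube -/
theorem QP_card (t : (QP M k Wc r).τ) : ((QP M k Wc r).toPT.Ed t).card ≤ nP :=
  ((QP M k Wc r).card_Ed_le t).trans (shs_simL _ _ _)

/-- the size of the edges of an outer cube -/
theorem QP_beta (t : (QP M k Wc r).τ) (e) (he : e ∈ (QP M k Wc r).toPT.Ed t) :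
    ENNReal.ofReal ((QP M k Wc r).toPT.β t) * ‖(QP M k Wc r).toPT.v e‖ₑ ≤
      ENNReal.ofReal (2 * (‖(M.φ : E3 →L[ℝ] (Fin 3 → ℝ))‖ *
        ‖(M.φ.symm : (Fin 3 → ℝ) →L[ℝ] E3)‖)) := by
  have h := (Mfe_161.PTn.mem_Ed _ he).2.1
  have h2 := beta_seg_le M.φ (κ := t.1) (b := 2) (D := 1) (by norm_num) (K := Tw M.φ 0 t.1 t.2)
    (fun y hy y' hy' => by
      have := dist_le_of_mem_Cu (show M.φ y' ∈ Cu 0 t.1 t.2 from hy')
        (show M.φ y ∈ Cu 0 t.1 t.2 from hy)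
      rwa [dist_eq_norm] at this) h
  have e1 : (QP M k Wc r).toPT.β t = 2 * 2 ^ t.1 * ‖(M.φ : E3 →L[ℝ] (Fin 3 → ℝ))‖ := by
    show (2 : ℝ) ^ (t.1 + 1) * _ = _
    rw [pow_succ]
    ring
  rw [e1]
  refine h2.trans (le_of_eq ?_)
  rw [mul_one]

/-- translates of used outer tiles stay in `Om`, off the shrunk blocks -/
theorem QP_region (t : (QP M k Wc r).τ) {y b : E3} (hy : y ∈ (QP M k Wc r).Til t)
    (hb : b ∈ (QP M k Wc r).Ac t) : y + b ∈ (M.φ ⁻¹' M.D0.Om) \ Nm M := by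
  refine ⟨?_, hb.2 y hy⟩
  have h := R96.Wm_72.Zr_pos (R96.Wm_72.Aw_sub hy hb.1)
  have h2 : M.φ (y + b) ∈ (outD M.D0 k M.W 0).Om := h
  rw [outD_Om M.W_ne M.W_lf] at h2
  exact h2

/-- **MEAN ENERGY OF THE OUTER CLASS**: all `Om` without the shrunk blocks -/
theorem mean_QP {p : ℝ} (hp : 1 ≤ p) {G : E3 → E3 → ℝ≥0∞} (hG : ∀ v, Measurable (G v))
    {H : E3 → ℝ≥0∞} (hGH : ∀ᵐ y : E3, ∀ v, G v y ≤ ‖v‖ₑ * H y) {δ : ℝ}
    (hδ : ∀ x, M.D0.ρ x ≤ δ) :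
    ∫⁻ a, (QP M k Wc r).toPT.EnC G p () a ≤
      (nP * ENNReal.ofReal (2 * (‖(M.φ : E3 →L[ℝ] (Fin 3 → ℝ))‖ *
        ‖(M.φ.symm : (Fin 3 → ℝ) →L[ℝ] E3)‖))) ^ p *
      (3 * volume (closedBall (0 : E3)
        (r + ‖(M.φ.symm : (Fin 3 → ℝ) →L[ℝ] E3)‖ * (δ / M.D0.C)))) *
        ∫⁻ z in (M.φ ⁻¹' M.D0.Om) \ Nm M, H z ^ p := by
  have hR : MeasurableSet ((M.φ ⁻¹' M.D0.Om) \ Nm M) :=
    ((isOpen_lt continuous_const M.D0.continuous_ρ).preimage M.φ.continuous).measurableSet.diff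
      (isOpen_Nm M).measurableSet
  have hcτ := (QP M k Wc r).cτ
  have : Countable {t // (QP M k Wc r).toPT.cl t = ()} := by
    have : Countable (QP M k Wc r).toPT.τ := (QP M k Wc r).toPT.cτ
    infer_instance
  refine R96.Sg8_199.act_avg (τ := {t // (QP M k Wc r).toPT.cl t = ()})
    (fun t => (QP M k Wc r).toPT.Acm t) _ (fun t => QP_card M k Wc r t.1) _ _
    (fun t e he => ((QP M k Wc r).toPT.sub t.1 e he).2) _ (fun j => hG _)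
    (c := fun j => ‖(QP M k Wc r).toPT.v j‖ₑ) ?_ ENNReal.ofReal_ne_top
    (fun t e he => QP_beta M k Wc r t.1 e he) hR (fun t y hy b hb => QP_region M k Wc r t.1 hy hb)
    (ENNReal.mul_ne_top (by norm_num) measure_closedBall_lt_top.ne) ?_ hp
  · filter_upwards [hGH] with y hy t j _
    exact hy _
  · intro z _
    have hinj : ∀ t t' : {t // (QP M k Wc r).toPT.cl t = ()}, (t.1 : ℕ × (Fin 3 → ℤ)).1 =
        (t'.1 : ℕ × (Fin 3 → ℤ)).1 → (t.1 : ℕ × (Fin 3 → ℤ)).2 = (t'.1 : ℕ × (Fin 3 → ℤ)).2 →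
        t = t' := fun t t' h1 h2 => Subtype.ext (Prod.ext h1 h2)
    exact R96.Wm_72.Mu_le (D := outD M.D0 k M.W 0) (φ := M.φ) (a₀ := 0) (r := r)
      (fun t : {t // (QP M k Wc r).toPT.cl t = ()} => (t.1 : ℕ × (Fin 3 → ℤ)).1)
      (fun t => (t.1 : ℕ × (Fin 3 → ℤ)).2)
      hinj (fun t => rfl) (fun t => inter_subset_left)
      (norm_nonneg _) (fun x y => by
        rw [dist_eq_norm, dist_eq_norm, ← map_sub]
        exact norm_le_frame M.φ (x - y))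
      ((outD_le_ρ0 _).trans (hδ _))

/-- the same for the shifts in the ball of radius `r` (`diam ≤ t r`) -/
theorem mean_QP' {p : ℝ} (hp : 1 ≤ p) {G : E3 → E3 → ℝ≥0∞} (hG : ∀ v, Measurable (G v))
    {H : E3 → ℝ≥0∞} (hGH : ∀ᵐ y : E3, ∀ v, G v y ≤ ‖v‖ₑ * H y) {δ : ℝ}
    (hδ : ∀ x, M.D0.ρ x ≤ δ) {t : ℝ} (ht : 0 ≤ t)
    (hr : ‖(M.φ.symm : (Fin 3 → ℝ) →L[ℝ] E3)‖ * (δ / M.D0.C) ≤ t * r) :
    ∫⁻ a, (QP M k Wc r).toPT.EnC G p () a ≤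
      (nP * ENNReal.ofReal (2 * (‖(M.φ : E3 →L[ℝ] (Fin 3 → ℝ))‖ *
        ‖(M.φ.symm : (Fin 3 → ℝ) →L[ℝ] E3)‖))) ^ p *
      (3 * ENNReal.ofReal ((1 + t) ^ 3)) * (∫⁻ z in (M.φ ⁻¹' M.D0.Om) \ Nm M, H z ^ p) *
        volume (closedBall (0 : E3) r) := by
  refine (mean_QP M k Wc r hp hG hGH hδ).trans ?_
  have h := R96.Wm_72.ball_ratio (E := E3) (μ := (volume : Measure E3)) ht hr
  have h3 : Module.finrank ℝ E3 = 3 := by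
    show Module.finrank ℝ (Fin 3 → ℝ) = 3
    rw [Module.finrank_fin_fun]
  rw [h3] at h
  calc _ ≤ (nP * ENNReal.ofReal (2 * (‖(M.φ : E3 →L[ℝ] (Fin 3 → ℝ))‖ *
        ‖(M.φ.symm : (Fin 3 → ℝ) →L[ℝ] E3)‖))) ^ p *
      (3 * (ENNReal.ofReal ((1 + t) ^ 3) * volume (closedBall (0 : E3) r))) *
        ∫⁻ z in (M.φ ⁻¹' M.D0.Om) \ Nm M, H z ^ p := by gcongr
    _ = _ := by ring

end

end Crest.Agent.R096.Mou_324
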