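import Crest.Agent.R096.Mou4_324

/-!
# Row 96 (S0127), instance of `MF` (helper324): the outer half for arbitrary sets `Bx j` of total shifts
(663 #11311 (G2), [BX])

`NmB M Bx`, `QPB`, `QOB`, **`cov_outerB`** (extra hypothesis `a + w j ∈ Bx j`), `QPB_card`, `QPB_beta`, `QPB_region`,
**`mean_QPB`**, `mean_QPB'`.  With `Bx j = Bal M j = {s | ‖φ s‖ ≤ r j}`: `NmB_bal`, the sets of Mou3.
-/

set_option autoImplicit false
set_option linter.unusedSectionVars false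

open MeasureTheory Set Filter Topology Metric
open scoped ENNReal

namespace Crest.Agent.R096.Mou_324

open Msh_715 Cut_874 Msh_810 Mal_874
open Crest.Agent.R096.SkC1_961 (E3 Cfg)
open Crest.Agent.R96.Wm_72 (Tw Aw Tw_tr mem_Aw measurableSet_Aw)
open Crest.Agent.R096.Ls_222 (Edg ea eIn mem_eIn)
open Crest.Agent.R96.Pm_199 (sh)
open Crest.Agent.R96.Sg1_199 (li sgm)
open Crest.Agent.R96.Sg8_199 (EnA)
open Crest.Agent.R096.Mfe_161 (PTn shf kk kk_mem' kk_countable)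
open Crest.Agent.R096.Mfa_880 (PT)
open Crest.Agent.R096.Cnt_324 (HS Hfam countable_Hfam hs_mesh)

section three

variable {J : Type} (M : MD E3 3 J) (k : J → ℕ) {W : J → Set E3}

/-- points of the block `j` for all the shifts in `Bx j` (an open set), all blocks -/
def NmB (Bx : J → Set E3) : Set E3 := ⋃ j, interior {x | ∀ s ∈ Bx j, x - s ∈ (M.Q j).N}

theorem isOpen_NmB (Bx : J → Set E3) : IsOpen (NmB M Bx) := isOpen_iUnion fun _ => isOpen_interior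

theorem NmB_sub {Bx : J → Set E3} {v : J → E3} (hv : ∀ j, v j ∈ Bx j) {x : E3}
    (hx : x ∈ NmB M Bx) : ∃ j, x ∈ (M.Bk v j).N := by
  obtain ⟨j, hj⟩ := mem_iUnion.1 hx
  refine ⟨j, ((M.Q j).mem_N_tr (v j) x).2 ?_⟩
  exact interior_subset hj (v j) (hv j)

/-- all admissible shifts -/
def Bal : J → Set E3 := fun j => {s | ‖M.φ s‖ ≤ M.r j}

theorem NmB_bal : NmB M (Bal M) = Nm M := rfl

theorem NmB_mono {Bx Bx' : J → Set E3} (h : ∀ j, Bx j ⊆ Bx' j) : NmB M Bx' ⊆ NmB M Bx :=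
  iUnion_mono fun j => interior_mono fun _ hx s hs => hx s (h j hs)

/-- **the outer cubes away from the walls**; they do not see the blocks shrunk by all shifts
of `Bx` -/
noncomputable def QPB (Bx : J → Set E3) [Countable J] (Wc : ∀ j, (W j).Countable) (r : ℝ) :
    PTn J where
  κ := Unit
  τ := ℕ × (Fin 3 → ℤ)
  cκ := inferInstance
  cτ := inferInstance
  cl _ := ()
  bl _ := none
  Til t := Tw M.φ 0 t.1 t.2
  Ac t := Aw M.φ (outD M.D0 k M.W 0) 0 r t.1 t.2 ∩ Off (Tw M.φ 0 t.1 t.2) (NmB M Bx)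
  Acm t := measurableSet_Aw.inter (isClosed_Off (isOpen_NmB M Bx)).measurableSet
  β t := 2 ^ (t.1 + 1) * ‖(M.φ : E3 →L[ℝ] (Fin 3 → ℝ))‖
  Sh _ := simL (N0 3) 1 2
  shf _ := simL_finite _ _ _
  frr t := frT M.φ 0 (t.1 + 1) (fun m => 2 * t.2 m)
  frn _ _ := frT_norm _ _ _ _ _
  𝒦 _ := kk (Hfam M (⋃ j, W j)) W none
  c𝒦 _ := kk_countable (countable_Hfam M (countable_iUnion Wc)) Wc _

variable {M}

/-- **the outer half** (with the sets `Bx` of total shifts) -/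
noncomputable def QOB (Bx : J → Set E3) [Countable J] (Wc : ∀ j, (W j).Countable) (X : RD M)
    (r : ℝ) : PT J :=
  (QPB M k Bx Wc r).toPT.sum (QW k Wc X r).toPT

/-- **THE OUTER HALF**: every outer tile of the mesh is a potential tile of `QOB` -/
theorem cov_outerB (Bx : J → Set E3) [Countable J] (Wc : ∀ j, (W j).Countable) (X : RD M) {r : ℝ}
    (hk : M.Sc k) {a : E3} {w : J → E3} (hv : M.Adm fun j => a + w j) (ha : ‖a‖ ≤ r)
    (hw : ∀ j, w j ∈ W j) (hB : ∀ j, a + w j ∈ Bx j)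
    (RPx : RP X (M.φ a) (fun j => a + w j) k) (p : M.OIx hk (M.φ a) hv) :
    (QOB k Bx Wc X r).Cov a w (M.mesh hk (M.φ a) hv) (Sum.inl p) := by
  have ea : M.φ.symm (M.φ a) = a := M.φ.symm_apply_apply a
  have hs : HS (M.mesh hk (M.φ a) hv) a (Hfam M (⋃ j, W j)) := by
    have h := hs_mesh (W := ⋃ j, W j) hk (M.φ a) hv
      (fun j => ⟨w j, mem_iUnion.2 ⟨j, hw j⟩, by rw [ea]⟩)
    rw [ea] at h
    exact h
  rcases outer_pot M hk (M.φ a) hv X RPx (w := w) (fun j => by rw [ea]) p with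
    ⟨s, z, h1, h2, h3, h4⟩ | ⟨j, z, S, h1, h2, h3, h4, h5⟩
  · rw [ea] at h1
    refine PT.Cov.inl (Mfe_161.PTn.Is.cov (Q := QPB M k Bx Wc r) (t := (s, z)) ⟨?_, h1, ?_, ?_⟩)
    · refine ⟨mem_Aw (D' := outD M.D0 k M.W (M.φ a)) rfl rfl (by rw [zero_add]; rfl) ha h2, ?_⟩
      intro y hy hn
      obtain ⟨j, hj⟩ := NmB_sub M hB hn
      refine disjoint_left.1 (h3 j) ?_ hj
      rw [h1]
      exact mem_image_of_mem _ hy
    · intro e _
      exact kk_mem' hw hs none e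
    · have e : (fun K => frT M.φ (M.φ a) (s + 1) (fun m => 2 * z m) '' K) =
          fun K => (QPB M k Bx Wc r).frr (s, z) '' shf (-a) K := by
        funext K
        exact (fr_image M.φ a (s + 1) _ K).symm
      rw [e] at h4
      exact h4
  · rw [ea] at h3
    refine PT.Cov.inr (Mfe_161.PTn.Is.cov (Q := QW k Wc X r) (t := ⟨j, ⟨w j, hw j⟩, z, S, h1, h2⟩)
      ⟨?_, h3, ?_, ?_⟩)
    · refine ⟨⟨ha, hv j, h4⟩, ?_⟩
      intro y hy
      have h6 := (M.mesh hk (M.φ a) hv).sub (Sum.inl p)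
      exact h6 (by rw [h3]; exact mem_image_of_mem _ hy)
    · intro e _
      exact kk_mem' hw hs none e
    · have e : (fun K => frT M.φ (M.φ a) (k j) z '' K) =
          fun K => (QW k Wc X r).frr ⟨j, ⟨w j, hw j⟩, z, S, h1, h2⟩ '' shf (-a) K := by
        funext K
        exact (fr_image M.φ a (k j) _ K).symm
      rw [e] at h5
      exact h5

end three

section

variable {J : Type} [Countable J] (M : MD E3 3 J) (k : J → ℕ) {W : J → Set E3}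
  (Wc : ∀ j, (W j).Countable) (r : ℝ)

section

variable (Bx : J → Set E3)

/-- the number of edges of an outer cube -/
theorem QPB_card (t : (QPB M k Bx Wc r).τ) : ((QPB M k Bx Wc r).toPT.Ed t).card ≤ nP :=
  ((QPB M k Bx Wc r).card_Ed_le t).trans (shs_simL _ _ _)

/-- the size of the edges of an outer cube -/
theorem QPB_beta (t : (QPB M k Bx Wc r).τ) (e) (he : e ∈ (QPB M k Bx Wc r).toPT.Ed t) :
    ENNReal.ofReal ((QPB M k Bx Wc r).toPT.β t) * ‖(QPB M k Bx Wc r).toPT.v e‖ₑ ≤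
      ENNReal.ofReal (2 * (‖(M.φ : E3 →L[ℝ] (Fin 3 → ℝ))‖ *
        ‖(M.φ.symm : (Fin 3 → ℝ) →L[ℝ] E3)‖)) := by
  have h := (Mfe_161.PTn.mem_Ed _ he).2.1
  have h2 := beta_seg_le M.φ (κ := t.1) (b := 2) (D := 1) (by norm_num) (K := Tw M.φ 0 t.1 t.2)
    (fun y hy y' hy' => by
      have := dist_le_of_mem_Cu (show M.φ y' ∈ Cu 0 t.1 t.2 from hy')
        (show M.φ y ∈ Cu 0 t.1 t.2 from hy)
      rwa [dist_eq_norm] at this) h
  have e1 : (QPB M k Bx Wc r).toPT.β t = 2 * 2 ^ t.1 * ‖(M.φ : E3 →L[ℝ] (Fin 3 → ℝ))‖ := by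
    show (2 : ℝ) ^ (t.1 + 1) * _ = _
    rw [pow_succ]
    ring
  rw [e1]
  refine h2.trans (le_of_eq ?_)
  rw [mul_one]

/-- translates of used outer tiles stay in `Om`, off the shrunk blocks -/
theorem QPB_region (t : (QPB M k Bx Wc r).τ) {y b : E3} (hy : y ∈ (QPB M k Bx Wc r).Til t)
    (hb : b ∈ (QPB M k Bx Wc r).Ac t) : y + b ∈ (M.φ ⁻¹' M.D0.Om) \ NmB M Bx := by
  refine ⟨?_, hb.2 y hy⟩
  have h := R96.Wm_72.Zr_pos (R96.Wm_72.Aw_sub hy hb.1)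
  have h2 : M.φ (y + b) ∈ (outD M.D0 k M.W 0).Om := h
  rw [outD_Om M.W_ne M.W_lf] at h2
  exact h2

/-- **MEAN ENERGY OF THE OUTER CLASS**: all `Om` without the shrunk blocks -/
theorem mean_QPB {p : ℝ} (hp : 1 ≤ p) {G : E3 → E3 → ℝ≥0∞} (hG : ∀ v, Measurable (G v))
    {H : E3 → ℝ≥0∞} (hGH : ∀ᵐ y : E3, ∀ v, G v y ≤ ‖v‖ₑ * H y) {δ : ℝ}
    (hδ : ∀ x, M.D0.ρ x ≤ δ) :
    ∫⁻ a, (QPB M k Bx Wc r).toPT.EnC G p () a ≤
      (nP * ENNReal.ofReal (2 * (‖(M.φ : E3 →L[ℝ] (Fin 3 → ℝ))‖ *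
        ‖(M.φ.symm : (Fin 3 → ℝ) →L[ℝ] E3)‖))) ^ p *
      (3 * volume (closedBall (0 : E3)
        (r + ‖(M.φ.symm : (Fin 3 → ℝ) →L[ℝ] E3)‖ * (δ / M.D0.C)))) *
        ∫⁻ z in (M.φ ⁻¹' M.D0.Om) \ NmB M Bx, H z ^ p := by
  have hR : MeasurableSet ((M.φ ⁻¹' M.D0.Om) \ NmB M Bx) :=
    ((isOpen_lt continuous_const M.D0.continuous_ρ).preimage M.φ.continuous).measurableSet.diff
      (isOpen_NmB M Bx).measurableSet
  have hcτ := (QPB M k Bx Wc r).cτ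
  have : Countable {t // (QPB M k Bx Wc r).toPT.cl t = ()} := by
    have : Countable (QPB M k Bx Wc r).toPT.τ := (QPB M k Bx Wc r).toPT.cτ
    infer_instance
  refine R96.Sg8_199.act_avg (τ := {t // (QPB M k Bx Wc r).toPT.cl t = ()})
    (fun t => (QPB M k Bx Wc r).toPT.Acm t) _ (fun t => QPB_card M k Wc r Bx t.1) _ _
    (fun t e he => ((QPB M k Bx Wc r).toPT.sub t.1 e he).2) _ (fun j => hG _)
    (c := fun j => ‖(QPB M k Bx Wc r).toPT.v j‖ₑ) ?_ ENNReal.ofReal_ne_top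
    (fun t e he => QPB_beta M k Wc r Bx t.1 e he) hR (fun t y hy b hb => QPB_region M k Wc r Bx t.1 hy hb)
    (ENNReal.mul_ne_top (by norm_num) measure_closedBall_lt_top.ne) ?_ hp
  · filter_upwards [hGH] with y hy t j _
    exact hy _
  · intro z _
    have hinj : ∀ t t' : {t // (QPB M k Bx Wc r).toPT.cl t = ()}, (t.1 : ℕ × (Fin 3 → ℤ)).1 =
        (t'.1 : ℕ × (Fin 3 → ℤ)).1 → (t.1 : ℕ × (Fin 3 → ℤ)).2 = (t'.1 : ℕ × (Fin 3 → ℤ)).2 →
        t = t' := fun t t' h1 h2 => Subtype.ext (Prod.ext h1 h2)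
    exact R96.Wm_72.Mu_le (D := outD M.D0 k M.W 0) (φ := M.φ) (a₀ := 0) (r := r)
      (fun t : {t // (QPB M k Bx Wc r).toPT.cl t = ()} => (t.1 : ℕ × (Fin 3 → ℤ)).1)
      (fun t => (t.1 : ℕ × (Fin 3 → ℤ)).2)
      hinj (fun t => rfl) (fun t => inter_subset_left)
      (norm_nonneg _) (fun x y => by
        rw [dist_eq_norm, dist_eq_norm, ← map_sub]
        exact norm_le_frame M.φ (x - y))
      ((outD_le_ρ0 _).trans (hδ _))

/-- the same for the shifts in the ball of radius `r` (`diam ≤ t r`) -/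
theorem mean_QPB' {p : ℝ} (hp : 1 ≤ p) {G : E3 → E3 → ℝ≥0∞} (hG : ∀ v, Measurable (G v))
    {H : E3 → ℝ≥0∞} (hGH : ∀ᵐ y : E3, ∀ v, G v y ≤ ‖v‖ₑ * H y) {δ : ℝ}
    (hδ : ∀ x, M.D0.ρ x ≤ δ) {t : ℝ} (ht : 0 ≤ t)
    (hr : ‖(M.φ.symm : (Fin 3 → ℝ) →L[ℝ] E3)‖ * (δ / M.D0.C) ≤ t * r) :
    ∫⁻ a, (QPB M k Bx Wc r).toPT.EnC G p () a ≤
      (nP * ENNReal.ofReal (2 * (‖(M.φ : E3 →L[ℝ] (Fin 3 → ℝ))‖ *
        ‖(M.φ.symm : (Fin 3 → ℝ) →L[ℝ] E3)‖))) ^ p *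
      (3 * ENNReal.ofReal ((1 + t) ^ 3)) * (∫⁻ z in (M.φ ⁻¹' M.D0.Om) \ NmB M Bx, H z ^ p) *
        volume (closedBall (0 : E3) r) := by
  refine (mean_QPB M k Wc r Bx hp hG hGH hδ).trans ?_
  have h := R96.Wm_72.ball_ratio (E := E3) (μ := (volume : Measure E3)) ht hr
  have h3 : Module.finrank ℝ E3 = 3 := by
    show Module.finrank ℝ (Fin 3 → ℝ) = 3
    rw [Module.finrank_fin_fun]
  rw [h3] at h
  calc _ ≤ (nP * ENNReal.ofReal (2 * (‖(M.φ : E3 →L[ℝ] (Fin 3 → ℝ))‖ *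
        ‖(M.φ.symm : (Fin 3 → ℝ) →L[ℝ] E3)‖))) ^ p *
      (3 * (ENNReal.ofReal ((1 + t) ^ 3) * volume (closedBall (0 : E3) r))) *
        ∫⁻ z in (M.φ ⁻¹' M.D0.Om) \ NmB M Bx, H z ^ p := by gcongr
    _ = _ := by ring

end

end

end Crest.Agent.R096.Mou_324
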