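import Crest.Agent.R096.Cel1_715

/-!
# R096 (row 96): the vertices of a two-dimensional cell (helper715)

Every vertex (0-cell) of a 2-cell of a tiling is on exactly two of its 1-cells.
-/

set_option autoImplicit false

open Set Metric Filter Topology Module
open scoped Classical

namespace Crest.Agent.R096.Msh_715

variable {E : Type*} [NormedAddCommGroup E] [NormedSpace ℝ E] [FiniteDimensional ℝ E]

omit [FiniteDimensional ℝ E] in
/-- a plane spanned by a nonzero vector and another one -/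
theorem exists_second {V : Submodule ℝ E} (h2 : finrank ℝ V = 2) {z : E} (hz : z ∈ V)
    (hz0 : z ≠ 0) : ∃ w ∈ V, (∀ u ∈ V, ∃ a b : ℝ, u = a • z + b • w) ∧
      ∀ a b : ℝ, a • z + b • w = 0 → a = 0 ∧ b = 0 := by
  have hfd : FiniteDimensional ℝ V := FiniteDimensional.of_finrank_pos (by omega)
  -- a vector of `V` outside the line of `z`
  obtain ⟨w, hw, hwz⟩ : ∃ w ∈ V, w ∉ Submodule.span ℝ {z} := by
    by_contra hcon
    push Not at hcon
    have h1 : V ≤ Submodule.span ℝ {z} := hcon
    have h3 := Submodule.finrank_mono h1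
    have h4 := finrank_span_le_card (R := ℝ) ({z} : Set E)
    simp only [toFinset_singleton, Finset.card_singleton] at h4
    omega
  have hli : LinearIndependent ℝ ![z, w] := by
    rw [LinearIndependent.pair_iff' hz0]
    intro a ha
    apply hwz
    rw [← ha]
    exact Submodule.smul_mem _ _ (Submodule.mem_span_singleton_self z)
  have hspan : Submodule.span ℝ (Set.range ![z, w]) = V := by
    apply Submodule.eq_of_le_of_finrank_eq
    · rw [Submodule.span_le]
      rintro _ ⟨i, rfl⟩
      fin_cases i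
      · exact hz
      · exact hw
    · rw [finrank_span_eq_card hli, h2]; rfl
  refine ⟨w, hw, fun u hu => ?_, fun a b hab => ?_⟩
  · rw [← hspan] at hu
    have : Set.range ![z, w] = {z, w} := by
      ext y; simp [Matrix.range_cons, Matrix.range_empty, or_comm]
    rw [this, Submodule.mem_span_pair] at hu
    obtain ⟨a, b, hab⟩ := hu
    exact ⟨a, b, hab.symm⟩
  · exact LinearIndependent.pair_iff.1 hli a b hab

omit [FiniteDimensional ℝ E] in
/-- the relative boundary of a plane sector consists of two rays -/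
theorem two_rays {V : Submodule ℝ E} (h2 : finrank ℝ V = 2) {A : Set (E →L[ℝ] ℝ)} (hf : A.Finite)
    (hne : A.Nonempty) {z : E} (hz : z ∈ V) (hneg : ∀ h ∈ A, h z < 0) :
    ∃ u : Bool → E, (∀ i, u i ∈ V) ∧ (∀ i, u i ≠ 0) ∧ (∀ i, ∀ h ∈ A, h (u i) ≤ 0) ∧
      (∀ i, ∃ h ∈ A, h (u i) = 0) ∧
      (∀ v ∈ V, v ≠ 0 → (∀ h ∈ A, h v ≤ 0) → (∃ h ∈ A, h v = 0) → ∃ i, ∃ s : ℝ, 0 < s ∧
        v = s • u i) ∧ ∀ s : ℝ, 0 < s → u true ≠ s • u false := by
  obtain ⟨h0, hh0⟩ := hne
  have hz0 : z ≠ 0 := fun h => by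
    have := hneg h0 hh0; rw [h, map_zero] at this; exact lt_irrefl _ this
  obtain ⟨w, hw, hspan, hind⟩ := exists_second h2 hz hz0
  -- slopes
  set m : (E →L[ℝ] ℝ) → ℝ := fun h => h w / (-h z) with hm
  have key : ∀ h ∈ A, ∀ a b : ℝ, h (a • z + b • w) = (-h z) * (b * m h - a) := by
    intro h hh a b
    have h1 : h z ≠ 0 := (hneg h hh).ne
    rw [map_add, map_smul, map_smul, smul_eq_mul, smul_eq_mul, hm]
    have h2 : -h z * (b * (h w / -h z) - a) = b * (-h z / -h z) * h w + a * h z := by ring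
    rw [h2, div_self (neg_ne_zero.2 h1)]
    ring
  have hle : ∀ h ∈ A, ∀ a b : ℝ, h (a • z + b • w) ≤ 0 ↔ b * m h ≤ a := by
    intro h hh a b
    have h1 : 0 < -h z := by have := hneg h hh; linarith
    rw [key h hh]
    constructor
    · intro h2; by_contra h3; push Not at h3
      have := mul_pos h1 (sub_pos.2 h3); linarith
    · intro h2
      exact mul_nonpos_of_nonneg_of_nonpos h1.le (by linarith)
  have heq : ∀ h ∈ A, ∀ a b : ℝ, h (a • z + b • w) = 0 ↔ a = b * m h := by
    intro h hh a b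
    have h1 : -h z ≠ 0 := by have := hneg h hh; linarith
    rw [key h hh, mul_eq_zero]
    constructor
    · rintro (h2 | h2)
      · exact absurd h2 h1
      · linarith
    · intro h2; right; linarith
  set B : Finset (E →L[ℝ] ℝ) := hf.toFinset with hB
  have hBne : B.Nonempty := ⟨h0, hf.mem_toFinset.2 hh0⟩
  obtain ⟨p, hp, hpm⟩ := B.exists_max_image m hBne
  obtain ⟨q, hq, hqm⟩ := B.exists_max_image (fun h => -m h) hBne
  have hpA := hf.mem_toFinset.1 hp
  have hqA := hf.mem_toFinset.1 hq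
  have hpm' : ∀ h ∈ A, m h ≤ m p := fun h hh => hpm h (hf.mem_toFinset.2 hh)
  have hqm' : ∀ h ∈ A, m q ≤ m h := fun h hh => by
    have := hqm h (hf.mem_toFinset.2 hh); linarith
  let u : Bool → E := fun i => if i then (m p) • z + (1 : ℝ) • w else (-m q) • z + (-1 : ℝ) • w
  have hut : u true = (m p) • z + (1 : ℝ) • w := rfl
  have huf : u false = (-m q) • z + (-1 : ℝ) • w := rfl
  refine ⟨u, ?_, ?_, ?_, ?_, ?_, ?_⟩
  · intro i
    cases i
    · rw [huf]; exact V.add_mem (V.smul_mem _ hz) (V.smul_mem _ hw)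
    · rw [hut]; exact V.add_mem (V.smul_mem _ hz) (V.smul_mem _ hw)
  · intro i hi
    cases i
    · rw [huf] at hi; have := (hind _ _ hi).2; norm_num at this
    · rw [hut] at hi; have := (hind _ _ hi).2; norm_num at this
  · intro i h hh
    cases i
    · rw [huf, hle h hh]; linarith [hqm' h hh]
    · rw [hut, hle h hh]; linarith [hpm' h hh]
  · intro i
    cases i
    · exact ⟨q, hqA, by rw [huf, heq q hqA]; ring⟩
    · exact ⟨p, hpA, by rw [hut, heq p hpA]; ring⟩
  · intro v hv hv0 hvle ⟨h, hh, hv1⟩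
    obtain ⟨a, b, rfl⟩ := hspan v hv
    rw [heq h hh] at hv1
    rcases lt_trichotomy b 0 with hb | hb | hb
    · refine ⟨false, -b, by linarith, ?_⟩
      have h1 : a = b * m q := by
        apply le_antisymm
        · rw [hv1]
          exact mul_le_mul_of_nonpos_left (hqm' h hh) hb.le
        · exact (hle q hqA a b).1 (hvle q hqA)
      rw [huf, h1]
      module
    · exfalso
      rw [hb, zero_mul] at hv1
      apply hv0
      rw [hv1, hb]; simp
    · refine ⟨true, b, hb, ?_⟩
      have h1 : a = b * m p := by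
        apply le_antisymm
        · rw [hv1]
          exact mul_le_mul_of_nonneg_left (hpm' h hh) hb.le
        · exact (hle p hpA a b).1 (hvle p hpA)
      rw [hut, h1]
      module
  · intro s hs h
    rw [hut, huf] at h
    have h1 : (m p + s * m q) • z + (1 + s) • w = 0 := by
      have : (m p) • z + (1 : ℝ) • w - s • ((-m q) • z + (-1 : ℝ) • w) = 0 := by rw [h, sub_self]
      rw [← this]; module
    have := (hind _ _ h1).2
    linarith

namespace Tiling

variable {Om : Set E} {ι : Type*} (T : Tiling Om ι)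

/-- the 1-cells of the closed cell of `x` through `v` -/
def edgesAt (x v : E) : Set T.Cell := {e | e.dim = 1 ∧ e.set ⊆ T.cc x ∧ v ∈ e.set}

theorem finite_edgesAt' {v : E} (hv : v ∈ Om) : {e : T.Cell | e.dim = 1 ∧ v ∈ e.set}.Finite := by
  have h := T.finite_cells (K := {v}) isCompact_singleton (singleton_subset_iff.2 hv)
  refine Set.Finite.of_finite_image (f := Subtype.val) (h.subset ?_) Subtype.val_injective.injOn
  rintro _ ⟨c, ⟨_, hc2⟩, rfl⟩
  exact ⟨c.2, v, hc2, rfl⟩

/-- **every vertex of a 2-cell is on exactly two of its 1-cells** -/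
theorem two_edges {x v : E} (hx : x ∈ Om) (hd : T.dim x = 2) (hv : v ∈ T.cc x)
    (hv0 : T.dim v = 0) : (T.edgesAt x v).ncard = 2 := by
  have hvO := T.cc_sub_Om hx hv
  have hvn : v ∉ T.oc x := fun h => by
    have := T.dim_eq_of_mem_oc hx h; omega
  -- the constraints active at `v` and not at `x`
  set A : Set (E →L[ℝ] ℝ) := {l | ∃ i ∈ T.at_ x, ∃ h ∈ T.H i, h.1 v = h.2 ∧ h.1 x < h.2 ∧
    l = h.1} with hA
  have hAf : A.Finite := by
    have h1 : (⋃ i ∈ T.at_ x, (Prod.fst '' (T.H i : Set ((E →L[ℝ] ℝ) × ℝ)))).Finite :=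
      (T.at_finite hx).biUnion fun i _ => (T.H i).finite_toSet.image _
    refine h1.subset ?_
    rintro l ⟨i, hi, h, hh, _, _, rfl⟩
    exact mem_biUnion hi ⟨h, hh, rfl⟩
  have hAne : A.Nonempty := by
    by_contra hcon
    rw [Set.not_nonempty_iff_eq_empty] at hcon
    apply hvn
    intro i hi h hh
    refine ⟨(hv i hi h hh).1, fun e => ?_, (hv i hi h hh).2⟩
    by_contra hne
    have hlt : h.1 x < h.2 := lt_of_le_of_ne (hi h hh) hne
    have : h.1 ∈ A := ⟨i, hi, h, hh, e, hlt, rfl⟩
    rw [hcon] at this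
    exact this
  have hzV : x - v ∈ T.V x := T.sub_mem_V' (T.self_mem_cc x) hv
  have hneg : ∀ l ∈ A, l (x - v) < 0 := by
    rintro l ⟨i, hi, h, hh, e, hlt, rfl⟩
    rw [map_sub]; linarith
  obtain ⟨u, huV, hu0, hule, hueq, hubd, hune⟩ := two_rays (V := T.V x) hd hAf hAne hzV hneg
  -- membership in the cell near `v`
  have hmem : ∀ y : E, y - v ∈ T.V x → (∀ i ∈ T.at_ x, ∀ h ∈ T.H i, h.1 v < h.2 → h.1 y < h.2) →
      (∀ l ∈ A, l (y - v) ≤ 0) → y ∈ T.cc x := by
    intro y hyV hy1 hy2 i hi h hh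
    by_cases hxe : h.1 x = h.2
    · have h1 := hyV i hi h hh hxe
      have h2 := (hv i hi h hh).2 hxe
      rw [map_sub, h2, sub_eq_zero] at h1
      exact ⟨h1.le, fun _ => h1⟩
    · have hlt : h.1 x < h.2 := lt_of_le_of_ne (hi h hh) hxe
      refine ⟨?_, fun e => absurd e hxe⟩
      by_cases hve : h.1 v = h.2
      · have := hy2 h.1 ⟨i, hi, h, hh, hve, hlt, rfl⟩
        rw [map_sub] at this; linarith
      · exact (hy1 i hi h hh (lt_of_le_of_ne (hv i hi h hh).1 hve)).le
  -- boundary points near `v`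
  have hbd : ∀ y ∈ T.cc x, y ∉ T.oc x →
      (∀ i ∈ T.at_ x, ∀ h ∈ T.H i, h.1 v < h.2 → h.1 y < h.2) → y ≠ v →
      ∃ i, ∃ s : ℝ, 0 < s ∧ y = v + s • u i := by
    intro y hy hyn hy1 hyv
    have h1 : ∀ l ∈ A, l (y - v) ≤ 0 := by
      rintro l ⟨i, hi, h, hh, e, hlt, rfl⟩
      rw [map_sub, e]; linarith [(hy i hi h hh).1]
    have h2 : ∃ l ∈ A, l (y - v) = 0 := by
      by_contra hcon
      push Not at hcon
      apply hyn
      intro i hi h hh
      refine ⟨(hy i hi h hh).1, fun e => ?_, (hy i hi h hh).2⟩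
      by_contra hne
      have hlt : h.1 x < h.2 := lt_of_le_of_ne (hi h hh) hne
      have hve : h.1 v = h.2 := by
        by_contra hve
        exact absurd e (hy1 i hi h hh (lt_of_le_of_ne (hv i hi h hh).1 hve)).ne
      apply hcon h.1 ⟨i, hi, h, hh, hve, hlt, rfl⟩
      rw [map_sub, e, hve, sub_self]
    obtain ⟨i, s, hs, he⟩ := hubd (y - v) (T.sub_mem_V' hy hv) (sub_ne_zero.2 hyv) h1 h2
    exact ⟨i, s, hs, by rw [← he]; abel⟩
  -- good neighbourhood
  have hnear : ∀ᶠ y in 𝓝 v, (y ∈ Om ∧ v ∈ T.cc y) ∧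
      ∀ i ∈ T.at_ x, ∀ h ∈ T.H i, h.1 v < h.2 → h.1 y < h.2 := by
    refine (T.eventually_mem_cc hvO).and ?_
    rw [Filter.eventually_all_finite (T.at_finite hx)]
    intro i _
    rw [Finset.eventually_all]
    intro h _
    by_cases hlt : h.1 v < h.2
    · filter_upwards [(h.1.continuous.tendsto v).eventually (Iio_mem_nhds hlt)] with y hy _
      exact hy
    · exact Eventually.of_forall fun y h' => absurd h' hlt
  have hray : ∀ d : E, ∀ᶠ s in 𝓝[>] (0 : ℝ), ((v + s • d ∈ Om ∧ v ∈ T.cc (v + s • d)) ∧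
      ∀ i ∈ T.at_ x, ∀ h ∈ T.H i, h.1 v < h.2 → h.1 (v + s • d) < h.2) := by
    intro d
    have hc : Tendsto (fun s : ℝ => v + s • d) (𝓝[>] 0) (𝓝 v) := by
      have : Tendsto (fun s : ℝ => v + s • d) (𝓝 0) (𝓝 (v + (0 : ℝ) • d)) := by
        apply Continuous.tendsto; fun_prop
      rw [zero_smul, add_zero] at this
      exact this.mono_left nhdsWithin_le_nhds
    exact hc.eventually hnear
  -- points of the rays are in 1-cells of the boundary
  have hone : ∀ i, ∀ s : ℝ, 0 < s → ((v + s • u i ∈ Om ∧ v ∈ T.cc (v + s • u i)) ∧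
      ∀ j ∈ T.at_ x, ∀ h ∈ T.H j, h.1 v < h.2 → h.1 (v + s • u i) < h.2) →
      v + s • u i ∈ T.cc x ∧ T.dim (v + s • u i) = 1 := by
    intro i s hs ⟨⟨hO, hvy⟩, hy1⟩
    have e1 : v + s • u i - v = s • u i := by abel
    have hin : v + s • u i ∈ T.cc x := by
      refine hmem _ (by rw [e1]; exact (T.V x).smul_mem _ (huV i)) hy1 ?_
      intro l hl
      rw [e1, map_smul, smul_eq_mul]
      exact mul_nonpos_of_nonneg_of_nonpos hs.le (hule i l hl)
    have hnot : v + s • u i ∉ T.oc x := by
      intro hoc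
      obtain ⟨l, ⟨j, hj, h, hh, e, hlt, rfl⟩, hl0⟩ := hueq i
      have h2 := (hoc j hj h hh).2.1 (by rw [map_add, map_smul, hl0, smul_zero, add_zero, e])
      exact absurd h2 hlt.ne
    have hlt := T.dim_lt hin hnot
    refine ⟨hin, ?_⟩
    have hne0 : T.dim (v + s • u i) ≠ 0 := by
      intro h0
      rw [T.cc_eq_singleton (T.dim_eq_zero_iff.1 h0), mem_singleton_iff] at hvy
      have : s • u i = 0 := by
        have := congrArg (fun t => t - v) hvy
        simpa using this.symm
      rcases smul_eq_zero.1 this with h | h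
      · exact hs.ne' h
      · exact hu0 i h
    omega
  -- the two edges
  have hex : ∀ i, ∃ e : T.Cell, e.dim = 1 ∧ e.set ⊆ T.cc x ∧ v ∈ e.set ∧
      ∃ s0 > 0, ∀ s : ℝ, 0 < s → s ≤ s0 → v + s • u i ∈ e.opn := by
    intro i
    obtain ⟨s0, hs0, hpos⟩ := ((hray (u i)).and self_mem_nhdsWithin).exists
    have hpos' : 0 < s0 := hpos
    obtain ⟨hin, hd1⟩ := hone i s0 hpos' hs0
    refine ⟨T.cl hs0.1.1, (T.dim_cl hs0.1.1).trans hd1, ?_, ?_, s0, hpos', ?_⟩
    · rw [T.cl_set]; exact T.cc_sub_of_mem hin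
    · rw [T.cl_set]; exact hs0.1.2
    · intro s hs hle
      rw [T.opn_cl hs0.1.1]
      have h1 : v + s • u i = v + (s / s0) • ((v + s0 • u i) - v) := by
        rw [add_sub_cancel_left, smul_smul, div_mul_cancel₀ _ hpos'.ne']
      rw [h1]
      exact T.move_mem_oc hs0.1.2 (div_pos hs hpos') ((div_le_one hpos').2 hle)
  choose e he1 hesub hev s0 hs0 heopn using hex
  have hne : e true ≠ e false := by
    intro heq
    -- both rays in one open segment with end point `v`
    obtain ⟨a, b, hab, hcc, hoc, ha0, hb0, ha, hb⟩ := T.edge_eq (e true).pt_mem (he1 true)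
    have hvab : v = a ∨ v = b := by
      refine T.vertex_of_edge (e true).pt_mem (he1 true) hcc ?_ hv0
      rw [← (e true).set_eq]; exact hev true
    obtain ⟨c, hc⟩ : ∃ c : E, (e true).opn = openSegment ℝ v c ∧ v ≠ c := by
      rcases hvab with rfl | rfl
      · exact ⟨b, hoc, hab⟩
      · exact ⟨a, hoc.trans (openSegment_symm ℝ _ _), hab.symm⟩
    have h1 := heopn true (s0 true) (hs0 true) le_rfl
    have h2 := heopn false (s0 false) (hs0 false) le_rfl
    rw [← heq, hc.1, openSegment_eq_image'] at h2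
    rw [hc.1, openSegment_eq_image'] at h1
    obtain ⟨t1, ht1, e1⟩ := h1
    obtain ⟨t2, ht2, e2⟩ := h2
    have e1' : t1 • (c - v) = s0 true • u true := by simpa using e1
    have e2' : t2 • (c - v) = s0 false • u false := by simpa using e2
    refine hune ((s0 true)⁻¹ * t1 * (t2⁻¹ * s0 false)) ?_ ?_
    · have := hs0 true; have := hs0 false; have := ht1.1; have := ht2.1; positivity
    · have h3 : c - v = (t2⁻¹ * s0 false) • u false := by
        rw [mul_smul, ← e2', smul_smul, inv_mul_cancel₀ ht2.1.ne', one_smul]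
      have h4 : u true = ((s0 true)⁻¹ * t1) • (c - v) := by
        rw [mul_smul, e1', smul_smul, inv_mul_cancel₀ (hs0 true).ne', one_smul]
      rw [h4, h3, smul_smul]
  have hset : T.edgesAt x v = {e true, e false} := by
    apply Subset.antisymm
    · rintro g ⟨hg1, hg2, hg3⟩
      obtain ⟨a, b, hab, hcc, hoc, ha0, hb0, ha, hb⟩ := T.edge_eq g.pt_mem hg1
      have hvab : v = a ∨ v = b := by
        refine T.vertex_of_edge g.pt_mem hg1 hcc ?_ hv0
        rw [← g.set_eq]; exact hg3
      obtain ⟨c, hc, hvc⟩ : ∃ c : E, g.opn = openSegment ℝ v c ∧ v ≠ c := by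
        rcases hvab with rfl | rfl
        · exact ⟨b, hoc, hab⟩
        · exact ⟨a, hoc.trans (openSegment_symm ℝ _ _), hab.symm⟩
      -- a point of `g` near `v`
      obtain ⟨t, ⟨ht, ht1⟩, ht0⟩ := (((hray (c - v)).and
        ((eventually_nhdsWithin_of_eventually_nhds (Iio_mem_nhds (one_pos : (0 : ℝ) < 1))))).and
          self_mem_nhdsWithin).exists
      have ht0' : (0 : ℝ) < t := ht0
      have hyg : v + t • (c - v) ∈ g.opn := by
        rw [hc, openSegment_eq_image']
        exact ⟨t, ⟨ht0', ht1⟩, rfl⟩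
      have hyx : v + t • (c - v) ∈ T.cc x := hg2 (g.opn_sub hyg)
      have hyd : T.dim (v + t • (c - v)) = 1 := (T.dim_eq_of_mem_oc g.pt_mem hyg).trans hg1
      have hyn : v + t • (c - v) ∉ T.oc x := fun h => by
        have := T.dim_eq_of_mem_oc hx h; omega
      have hyv : v + t • (c - v) ≠ v := by
        intro h
        have h5 : t • (c - v) = 0 := by simpa using h
        rcases smul_eq_zero.1 h5 with h | h
        · exact ht0'.ne' h
        · exact hvc (sub_eq_zero.1 h).symm
      obtain ⟨i, s, hs, hys⟩ := hbd _ hyx hyn ht.2 hyv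
      -- a common point with `e i`
      set r : ℝ := min s (s0 i) with hr
      have hr0 : 0 < r := lt_min hs (hs0 i)
      have h1 : v + r • u i ∈ (e i).opn := heopn i r hr0 (min_le_right _ _)
      have h2 : v + r • u i ∈ g.opn := by
        have e3 : v + r • u i = v + (r / s) • ((v + t • (c - v)) - v) := by
          rw [hys, add_sub_cancel_left, smul_smul, div_mul_cancel₀ _ hs.ne']
        rw [e3]
        have h5 : T.oc (v + t • (c - v)) = g.opn := T.oc_eq_of_mem g.pt_mem hyg
        rw [← h5]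
        have hvy : v ∈ T.cc (v + t • (c - v)) := ht.1.2
        exact T.move_mem_oc hvy (div_pos hr0 hs) ((div_le_one hs).2 (min_le_left _ _))
      have hO : v + r • u i ∈ Om := by
        have := (e i).opn_sub h1
        rw [(e i).set_eq] at this
        exact T.cc_sub_Om (e i).pt_mem this
      have h3 : g = e i := (T.eq_cl hO h2).trans (T.eq_cl hO h1).symm
      rw [h3]
      cases i
      · right; rfl
      · left; rfl
    · rintro g (rfl | hg)
      · exact ⟨he1 true, hesub true, hev true⟩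
      · rw [mem_singleton_iff.1 hg]
        exact ⟨he1 false, hesub false, hev false⟩
  rw [hset]
  exact ncard_pair hne

end Tiling

end Crest.Agent.R096.Msh_715
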