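import Crest.Agent.R096.Mrg2_715
import Crest.Agent.R096.Mrg3_715
import Crest.Agent.R096.Door0_501
import Crest.Agent.R096.Lab1_184

/-!
# R096 (row 96): the shell of a core (helper715)

Instance of 501's `Door_501.Shell` : the boundary sphere of a giant cell `inr c` of the merged mesh
`meshK`.
-/

set_option autoImplicit false

open Set Metric Filter Topology Module
open scoped Classical

namespace Crest.Agent.R096.Msh_715

open St_147 Agl5_543

section Punct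

variable {X Y : Type*} [TopologicalSpace X] [TopologicalSpace Y]

/-- `S` is locally connected after removing a point -/
def PC (S : Set X) : Prop :=
  ∀ x ∈ S, ∀ U ∈ 𝓝 x, ∃ V ∈ 𝓝 x, ∃ R, IsPreconnected R ∧ V ∩ (S \ {x}) ⊆ R ∧ R ⊆ U ∩ (S \ {x})

theorem PC.image {S : Set X} (h : PC S) (g : X ≃ₜ Y) : PC (g '' S) := by
  rintro _ ⟨x, hx, rfl⟩ U hU
  obtain ⟨V, hV, R, hR, h1, h2⟩ := h x hx (g ⁻¹' U) (g.continuous.continuousAt hU)
  have e : g '' S \ {g x} = g '' (S \ {x}) := by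
    rw [image_sdiff g.injective, image_singleton]
  refine ⟨g '' V, g.isOpenMap.image_mem_nhds hV, g '' R, hR.image _ g.continuous.continuousOn,
    ?_, ?_⟩
  · rw [e, ← image_inter g.injective]
    exact image_mono h1
  · rw [e]
    rintro _ ⟨s, hs, rfl⟩
    exact ⟨(h2 hs).1, s, (h2 hs).2, rfl⟩

/-- punctured balls of dimension at least two are connected -/
theorem isPreconnected_annulus {W : Type*} [NormedAddCommGroup W] [NormedSpace ℝ W]
    (h : 1 < Module.rank ℝ W) (δ : ℝ) : IsPreconnected {u : W | 0 < ‖u‖ ∧ ‖u‖ < δ} := by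
  have h1 : {u : W | 0 < ‖u‖ ∧ ‖u‖ < δ} =
      (fun p : ℝ × W => p.1 • p.2) '' (Ioo 0 δ ×ˢ sphere (0 : W) 1) := by
    ext u
    constructor
    · rintro ⟨h1, h2⟩
      refine ⟨(‖u‖, (‖u‖)⁻¹ • u), ⟨⟨h1, h2⟩, ?_⟩, ?_⟩
      · rw [mem_sphere_zero_iff_norm, norm_smul, norm_inv, norm_norm, inv_mul_cancel₀ h1.ne']
      · show ‖u‖ • (‖u‖)⁻¹ • u = u
        rw [smul_smul, mul_inv_cancel₀ h1.ne', one_smul]
    · rintro ⟨⟨r, ω⟩, ⟨hr, hω⟩, rfl⟩
      rw [mem_sphere_zero_iff_norm] at hω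
      have : ‖r • ω‖ = r := by rw [norm_smul, hω, mul_one, Real.norm_eq_abs, abs_of_pos hr.1]
      show 0 < ‖r • ω‖ ∧ ‖r • ω‖ < δ
      rw [this]; exact hr
  rw [h1]
  exact (isPreconnected_Ioo.prod (isPreconnected_sphere h 0 1)).image _ (by fun_prop)

/-- the sphere -/
theorem pc_sphere : PC (sphere (0 : EuclideanSpace ℝ (Fin 3)) 1) := by
  intro x hx U hU
  have hx1 : ‖x‖ = 1 := mem_sphere_zero_iff_norm.1 hx
  have hx0 : x ≠ 0 := fun h => by rw [h, norm_zero] at hx1; norm_num at hx1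
  set W : Submodule ℝ (EuclideanSpace ℝ (Fin 3)) := (Submodule.span ℝ {x})ᗮ with hW
  have hfact : Fact (finrank ℝ (EuclideanSpace ℝ (Fin 3)) = 2 + 1) := ⟨by simp⟩
  have hfin : finrank ℝ W = 2 := Submodule.finrank_orthogonal_span_singleton hx0
  have hrank : 1 < Module.rank ℝ W := by
    rw [← Module.finrank_eq_rank, hfin]; norm_num
  have hperp : ∀ u : W, inner ℝ x (u : EuclideanSpace ℝ (Fin 3)) = 0 := fun u =>
    Submodule.mem_orthogonal_singleton_iff_inner_right.1 u.2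
  let φ : W → EuclideanSpace ℝ (Fin 3) := fun u => Real.sqrt (1 - ‖u‖ ^ 2) • x + (u : _)
  have hφc : Continuous φ := by fun_prop
  have hφ0 : φ 0 = x := by simp [φ]
  have hφn : ∀ u : W, ‖u‖ < 1 → ‖φ u‖ = 1 := by
    intro u hu
    have h0 : 0 ≤ 1 - ‖u‖ ^ 2 := by nlinarith [norm_nonneg u]
    have h1 : ‖φ u‖ ^ 2 = 1 := by
      show ‖Real.sqrt (1 - ‖u‖ ^ 2) • x + (u : EuclideanSpace ℝ (Fin 3))‖ ^ 2 = 1
      rw [norm_add_sq_real, real_inner_smul_left, hperp u, norm_smul, hx1, mul_one,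
        Real.norm_eq_abs, sq_abs, Real.sq_sqrt h0, Submodule.coe_norm]
      ring
    have h2 : 0 ≤ ‖φ u‖ := norm_nonneg _
    nlinarith
  obtain ⟨δ, hδ, hball⟩ : ∃ δ > 0, ∀ u : W, ‖u‖ < δ → φ u ∈ U := by
    have h1 : ∀ᶠ u in 𝓝 (0 : W), φ u ∈ U := by
      have := hφc.continuousAt (x := (0 : W))
      rw [ContinuousAt, hφ0] at this
      exact this hU
    obtain ⟨δ, hδ, h2⟩ := Metric.eventually_nhds_iff.1 h1
    exact ⟨δ, hδ, fun u hu => h2 (by rwa [dist_zero_right])⟩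
  set ε : ℝ := min δ 1 with hε
  have hε0 : 0 < ε := lt_min hδ one_pos
  refine ⟨{y | 0 < inner ℝ x y ∧ ‖y - inner ℝ x y • x‖ < ε}, ?_,
    φ '' {u : W | 0 < ‖u‖ ∧ ‖u‖ < ε}, (isPreconnected_annulus hrank ε).image _ hφc.continuousOn,
    ?_, ?_⟩
  · apply IsOpen.mem_nhds
    · have hc1 : Continuous fun y : EuclideanSpace ℝ (Fin 3) => (inner ℝ x y : ℝ) :=
        continuous_const.inner continuous_id
      have hc2 : Continuous fun y : EuclideanSpace ℝ (Fin 3) => ‖y - (inner ℝ x y : ℝ) • x‖ :=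
        (continuous_id.sub (hc1.smul continuous_const)).norm
      exact (isOpen_lt continuous_const hc1).inter (isOpen_lt hc2 continuous_const)
    · constructor
      · rw [real_inner_self_eq_norm_sq, hx1]; norm_num
      · rw [real_inner_self_eq_norm_sq, hx1]; simpa using hε0
  · rintro y ⟨⟨hy1, hy2⟩, hyS, hyx⟩
    have hyn : ‖y‖ = 1 := mem_sphere_zero_iff_norm.1 hyS
    set c : ℝ := inner ℝ x y with hc
    have huW : y - c • x ∈ W := by
      rw [hW, Submodule.mem_orthogonal_singleton_iff_inner_right, inner_sub_right,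
        real_inner_smul_right, real_inner_self_eq_norm_sq, hx1, ← hc]
      ring
    set u : W := ⟨y - c • x, huW⟩ with hu
    have hun : ‖u‖ = ‖y - c • x‖ := rfl
    have hsq : ‖u‖ ^ 2 = 1 - c ^ 2 := by
      rw [hun, norm_sub_sq_real, hyn, norm_smul, hx1, mul_one, Real.norm_eq_abs, sq_abs,
        real_inner_smul_right, real_inner_comm, ← hc]
      ring
    have hφu : φ u = y := by
      show Real.sqrt (1 - ‖u‖ ^ 2) • x + (y - c • x) = y
      rw [hsq]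
      have : 1 - (1 - c ^ 2) = c ^ 2 := by ring
      rw [this, Real.sqrt_sq hy1.le]
      abel
    refine ⟨u, ⟨?_, ?_⟩, hφu⟩
    · rw [norm_pos_iff]
      intro h0
      rw [h0, hφ0] at hφu
      exact hyx hφu.symm
    · rw [hun]; exact hy2
  · rintro _ ⟨u, ⟨hu0, hu1⟩, rfl⟩
    refine ⟨hball u (hu1.trans_le (min_le_left _ _)), ?_, ?_⟩
    · rw [mem_sphere_zero_iff_norm]
      exact hφn u (hu1.trans_le (min_le_right _ _))
    · intro h
      rw [mem_singleton_iff] at h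
      have h1 : inner ℝ (u : EuclideanSpace ℝ (Fin 3)) (φ u) = ‖u‖ ^ 2 := by
        show inner ℝ (u : EuclideanSpace ℝ (Fin 3)) (Real.sqrt (1 - ‖u‖ ^ 2) • x + (u : _)) = _
        rw [inner_add_right, real_inner_smul_right, real_inner_comm, hperp u, mul_zero, zero_add,
          real_inner_self_eq_norm_sq, Submodule.coe_norm]
      rw [h, real_inner_comm, hperp u] at h1
      have := pow_pos hu0 2
      linarith

/-- frontiers of images of convex bodies -/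
theorem PC.of_homeo {E F : Type*} [NormedAddCommGroup E] [NormedSpace ℝ E] [FiniteDimensional ℝ E]
    [TopologicalSpace F] (h3 : finrank ℝ E = 3) {C : Set E} (hC : IsCompact C)
    (hc : Convex ℝ C) (hne : (interior C).Nonempty) (H : E ≃ₜ F) : PC (frontier (H '' C)) := by
  obtain ⟨g, hg⟩ := Lab_184.exists_homeo_sphere h3 hC hc hne
  rw [← H.image_frontier, ← hg]
  exact (pc_sphere.image g).image H

end Punct

/-! ### the shell -/

section Shell

variable {E : Type} [NormedAddCommGroup E] [NormedSpace ℝ E] [FiniteDimensional ℝ E]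
variable {Om : Set E} {ι : Type} {T : Tiling Om ι} {κ : Type} {Kc : κ → Set E}

/-- first end point of a 1-cell -/
noncomputable def lft (e : T.Cell) : E :=
  if h : e.dim = 1 then (T.edge_eq e.pt_mem h).choose else 0

/-- second end point of a 1-cell -/
noncomputable def rgt (e : T.Cell) : E :=
  if h : e.dim = 1 then (T.edge_eq e.pt_mem h).choose_spec.choose else 0

theorem lft_rgt {e : T.Cell} (h : e.dim = 1) : lft e ≠ rgt e ∧ e.set = segment ℝ (lft e) (rgt e) ∧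
    e.opn = openSegment ℝ (lft e) (rgt e) ∧ T.dim (lft e) = 0 ∧ T.dim (rgt e) = 0 ∧
      lft e ∈ e.set ∧ rgt e ∈ e.set := by
  have h1 := (T.edge_eq e.pt_mem h).choose_spec.choose_spec
  have e1 : lft e = (T.edge_eq e.pt_mem h).choose := dif_pos h
  have e2 : rgt e = (T.edge_eq e.pt_mem h).choose_spec.choose := dif_pos h
  rw [e1, e2, e.set_eq]
  exact h1

/-- the end points of a 1-cell -/
noncomputable def endp (e : T.Cell) (b : Bool) : E := if b then rgt e else lft e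

theorem endp_mem {e : T.Cell} (h : e.dim = 1) (b : Bool) : endp e b ∈ e.set ∧
    T.dim (endp e b) = 0 := by
  obtain ⟨_, _, _, h4, h5, h6, h7⟩ := lft_rgt h
  cases b
  · exact ⟨h6, h4⟩
  · exact ⟨h7, h5⟩

theorem endp_iff {e : T.Cell} (h : e.dim = 1) {v : E} (hv : T.dim v = 0) :
    v ∈ e.set ↔ ∃ b, endp e b = v := by
  constructor
  · intro hve
    obtain ⟨_, h2, _⟩ := lft_rgt h
    rw [e.set_eq] at hve h2
    rcases T.vertex_of_edge e.pt_mem h h2 hve hv with h3 | h3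
    · exact ⟨false, h3.symm⟩
    · exact ⟨true, h3.symm⟩
  · rintro ⟨b, rfl⟩
    exact (endp_mem h b).1

/-- affine parameter on the 1-cells -/
noncomputable def par (T : Tiling Om ι) (w : E) : ℝ :=
  if h : w ∈ Om then dist (lft (T.cl h)) w / dist (lft (T.cl h)) (rgt (T.cl h)) else 0

omit [FiniteDimensional ℝ E] in
theorem opn_sub_Om (e : T.Cell) : e.opn ⊆ Om := by
  intro w hw
  have := e.opn_sub hw
  rw [e.set_eq] at this
  exact T.cc_sub_Om e.pt_mem this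

theorem par_eq {e : T.Cell} (h : e.dim = 1) {s : ℝ} (hs : s ∈ Ioo (0 : ℝ) 1) :
    lft e + s • (rgt e - lft e) ∈ e.opn ∧ par T (lft e + s • (rgt e - lft e)) = s := by
  obtain ⟨h1, h2, h3, _⟩ := lft_rgt h
  have hw : lft e + s • (rgt e - lft e) ∈ e.opn := by
    rw [h3, openSegment_eq_image']; exact ⟨s, hs, rfl⟩
  refine ⟨hw, ?_⟩
  have hO := opn_sub_Om e hw
  have he : T.cl hO = e := (T.eq_cl hO hw).symm
  rw [par, dif_pos hO, he, dist_eq_norm, dist_eq_norm]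
  have e1 : lft e - (lft e + s • (rgt e - lft e)) = s • (lft e - rgt e) := by
    rw [smul_sub, smul_sub]; abel
  rw [e1, norm_smul, Real.norm_eq_abs, abs_of_pos hs.1,
    mul_div_assoc, div_self (norm_ne_zero_iff.2 (sub_ne_zero.2 h1)), mul_one]

theorem exists_par {e : T.Cell} (h : e.dim = 1) {w : E} (hw : w ∈ e.opn) :
    ∃ s ∈ Ioo (0 : ℝ) 1, w = lft e + s • (rgt e - lft e) := by
  obtain ⟨_, _, h3, _⟩ := lft_rgt h
  rw [h3, openSegment_eq_image'] at hw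
  obtain ⟨s, hs, rfl⟩ := hw
  exact ⟨s, hs, rfl⟩

/-- vertices on the frontier of the core -/
abbrev VxK (T : Tiling Om ι) (Kc : κ → Set E) (c : κ) : Type :=
  {v : E // T.dim v = 0 ∧ v ∈ frontier (Kc c)}

/-- 1-cells on the frontier of the core -/
abbrev EdK (T : Tiling Om ι) (Kc : κ → Set E) (c : κ) : Type :=
  {e : T.Cell // e.dim = 1 ∧ e.set ⊆ frontier (Kc c)}

/-- the faces of the giant cell are the 2-cells of the frontier -/
theorem face_iff (h3 : finrank ℝ E = 3) (hK : ∀ c, Core (Kc c)) (hKO : ∀ c, Kc c ⊆ Om)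
    (hs : ∀ c, ∀ x ∈ frontier (Kc c), T.cc x ⊆ frontier (Kc c))
    (hdis : ∀ c c', c ≠ c' → Disjoint (Kc c) (Kc c')) (F : C2 T) (c : κ) :
    F.set ⊆ frontier (Kc c) ↔
      (¬ (((meshC T h3).side F).map (piK T Kc)).IsDiag) ∧
        Sum.inr c ∈ ((meshC T h3).side F).map (piK T Kc) := by
  rw [T.sub_frontier_iff h3 (hK c) (hKO c) (hs c) F]
  constructor
  · rintro ⟨⟨q, hq, hqK⟩, q', hq', hqK'⟩
    refine ⟨fun hd => hqK' ?_, mem_map_iff.2 ⟨q, hq, (piK_inr hdis).2 hqK⟩⟩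
    rw [map_isDiag_iff] at hd
    rw [← piK_inr hdis, ← hd q hq q' hq', piK_inr hdis]
    exact hqK
  · rintro ⟨hd, hm⟩
    obtain ⟨q, hq, hqc⟩ := mem_map_iff.1 hm
    refine ⟨⟨q, hq, (piK_inr hdis).1 hqc⟩, ?_⟩
    by_contra hcon
    push Not at hcon
    apply hd
    rw [map_isDiag_iff]
    intro x hx y hy
    rw [(piK_inr hdis).2 (hcon x hx), (piK_inr hdis).2 (hcon y hy)]

theorem exists_fc (h3 : finrank ℝ E = 3) (hK : ∀ c, Core (Kc c)) (hKO : ∀ c, Kc c ⊆ Om)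
    (hs : ∀ c, ∀ x ∈ frontier (Kc c), T.cc x ⊆ frontier (Kc c)) {c : κ} (e : EdK T Kc c) :
    ∃ F : Bool → C2 T, F false ≠ F true ∧
      ∀ G : C2 T, (G.set ⊆ frontier (Kc c) ∧ e.1.set ⊆ G.set) ↔ ∃ b, F b = G := by
  have hpt : e.1.pt ∈ frontier (Kc c) := e.2.2 (e.1.opn_sub (T.self_mem_oc _))
  have h2 := T.two_faces h3 (hK c) (hKO c) (hs c) hpt e.2.1
  obtain ⟨F1, F2, hne, hset⟩ := ncard_eq_two.1 h2
  refine ⟨fun b => if b then F2 else F1, by simpa using hne, ?_⟩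
  intro G
  have h4 : (G.set ⊆ frontier (Kc c) ∧ e.1.set ⊆ G.set) ↔
      G ∈ {F : C2 T | e.1.pt ∈ F.On ∧ F.set ⊆ frontier (Kc c)} := by
    constructor
    · rintro ⟨hG, h⟩
      exact ⟨⟨h (e.1.opn_sub (T.self_mem_oc _)), e.2.1⟩, hG⟩
    · rintro ⟨⟨h5, _⟩, hG⟩
      refine ⟨hG, ?_⟩
      rw [G.set_eq] at h5 ⊢
      rw [e.1.set_eq]
      exact T.cc_sub_of_mem h5
  rw [h4, hset]
  constructor
  · rintro (h | h)
    · exact ⟨false, h.symm⟩
    · exact ⟨true, (mem_singleton_iff.1 h).symm⟩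
  · rintro ⟨b, hb⟩
    cases b
    · exact Or.inl hb.symm
    · exact Or.inr hb.symm

/-- the two faces of the giant cell at an edge -/
noncomputable def fcK (h3 : finrank ℝ E = 3) (hK : ∀ c, Core (Kc c)) (hKO : ∀ c, Kc c ⊆ Om)
    (hs : ∀ c, ∀ x ∈ frontier (Kc c), T.cc x ⊆ frontier (Kc c)) (c : κ) (e : EdK T Kc c)
    (b : Bool) : C2 T :=
  (exists_fc h3 hK hKO hs e).choose b

section

variable {h3 : finrank ℝ E = 3} {hK : ∀ c, Core (Kc c)} {hKO : ∀ c, Kc c ⊆ Om}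
  {hs : ∀ c, ∀ x ∈ frontier (Kc c), T.cc x ⊆ frontier (Kc c)} {c : κ}

theorem fcK_ne (e : EdK T Kc c) : fcK h3 hK hKO hs c e false ≠ fcK h3 hK hKO hs c e true :=
  (exists_fc h3 hK hKO hs e).choose_spec.1

theorem fcK_iff (e : EdK T Kc c) (G : C2 T) :
    (G.set ⊆ frontier (Kc c) ∧ e.1.set ⊆ G.set) ↔ ∃ b, fcK h3 hK hKO hs c e b = G :=
  (exists_fc h3 hK hKO hs e).choose_spec.2 G

theorem fcK_sub (e : EdK T Kc c) (b : Bool) :
    (fcK h3 hK hKO hs c e b).set ⊆ frontier (Kc c) ∧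
      e.1.set ⊆ (fcK h3 hK hKO hs c e b).set :=
  (fcK_iff e _).2 ⟨b, rfl⟩

end

theorem exists_near {e : T.Cell} (h : e.dim = 1) {v : E} (hv : v ∈ e.set) {V : Set E}
    (hV : V ∈ 𝓝 v) : ∃ y ∈ V, y ∈ e.set ∧ y ≠ v := by
  obtain ⟨h1, h2, _, _, _, h6, h7⟩ := lft_rgt h
  obtain ⟨c, hc, hcv⟩ : ∃ c ∈ e.set, c ≠ v := by
    by_cases h8 : lft e = v
    · exact ⟨rgt e, h7, fun h9 => h1 (h8.trans h9.symm)⟩
    · exact ⟨lft e, h6, h8⟩
  have hconv : Convex ℝ e.set := by rw [h2]; exact convex_segment _ _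
  have ht : Tendsto (fun s : ℝ => v + s • (c - v)) (𝓝[>] 0) (𝓝 v) := by
    have : Tendsto (fun s : ℝ => v + s • (c - v)) (𝓝 0) (𝓝 (v + (0 : ℝ) • (c - v))) := by
      apply Continuous.tendsto; fun_prop
    rw [zero_smul, add_zero] at this
    exact this.mono_left nhdsWithin_le_nhds
  obtain ⟨s, ⟨hs, hs1⟩, hs0⟩ := (((ht.eventually hV).and
    ((eventually_nhdsWithin_of_eventually_nhds (Iio_mem_nhds (one_pos : (0 : ℝ) < 1))))).and
      self_mem_nhdsWithin).exists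
  have hs0' : (0 : ℝ) < s := hs0
  have hs1' : s < 1 := hs1
  refine ⟨v + s • (c - v), hs, ?_, ?_⟩
  · exact hconv.add_smul_sub_mem hv hc ⟨hs0'.le, hs1'.le⟩
  · intro h9
    have h5 : s • (c - v) = 0 := by simpa using h9
    rcases smul_eq_zero.1 h5 with h | h
    · exact hs0'.ne' h
    · exact hcv (sub_eq_zero.1 h)

/-- dimension of the points of the frontier -/
theorem dim_le_two (h3 : finrank ℝ E = 3) {K : Set E} (hK : Core K) (hKO : K ⊆ Om)
    (hs : ∀ x ∈ frontier K, T.cc x ⊆ frontier K) {y : E} (hy : y ∈ frontier K) :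
    T.dim y ≤ 2 := by
  have hyO : y ∈ Om := hKO (hK.closed.frontier_subset hy)
  have hle := T.dim_le_finrank y
  rw [h3] at hle
  have hd3 : T.dim y ≠ 3 := by
    intro h
    have hV : T.V y = ⊤ := by
      apply Submodule.eq_top_of_finrank_eq
      rw [h3]; exact h
    obtain ⟨i, hi⟩ := (T.V_eq_top_iff hyO).1 hV
    exact Set.disjoint_left.1 (T.disjoint_I_frontier hK.closed hs i) hi hy
  omega

/-- the 1-cell of a point -/
def edK (T : Tiling Om ι) (Kc : κ → Set E) {c : κ}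
    (hs : ∀ c, ∀ x ∈ frontier (Kc c), T.cc x ⊆ frontier (Kc c)) {y : E} (hyO : y ∈ Om)
    (hy : y ∈ frontier (Kc c)) (hd : T.dim y = 1) : EdK T Kc c :=
  ⟨T.cl hyO, (T.dim_cl hyO).trans hd, by rw [T.cl_set]; exact hs c y hy⟩

/-- **the faces of a core at a vertex are connected through the edges at the vertex** -/
theorem link_aux (h3 : finrank ℝ E = 3) (hK : ∀ c, Core (Kc c)) (hKO : ∀ c, Kc c ⊆ Om)
    (hs : ∀ c, ∀ x ∈ frontier (Kc c), T.cc x ⊆ frontier (Kc c)) {c : κ}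
    (hL : PC (frontier (Kc c))) {v : E} (hvF : v ∈ frontier (Kc c))
    (A : Set (C2 T))
    (hA : ∀ e : EdK T Kc c, v ∈ e.1.set → ∀ b, fcK h3 hK hKO hs c e b ∈ A →
      fcK h3 hK hKO hs c e (!b) ∈ A)
    (e : EdK T Kc c) (he : v ∈ e.1.set) (b : Bool) (hb : fcK h3 hK hKO hs c e b ∈ A)
    (e' : EdK T Kc c) (he' : v ∈ e'.1.set) (b' : Bool) : fcK h3 hK hKO hs c e' b' ∈ A := by
  by_contra hb'
  have hvO : v ∈ Om := hKO c ((hK c).closed.frontier_subset hvF)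
  obtain ⟨V, hV, R, hR, hVR, hRU⟩ := hL v hvF _ (T.good_nhds hvO)
  set A1 : Set (C2 T) := {F | F.set ⊆ frontier (Kc c) ∧ v ∈ F.set ∧ F ∈ A} with hA1
  set A2 : Set (C2 T) := {F | F.set ⊆ frontier (Kc c) ∧ v ∈ F.set ∧ F ∉ A} with hA2
  have hfin : {F : C2 T | v ∈ F.set}.Finite := by
    have h := T.finite_cells (K := {v}) isCompact_singleton (singleton_subset_iff.2 hvO)
    refine Set.Finite.of_finite_image (f := fun F : C2 T => F.set) (h.subset ?_)
      (fun F _ G _ h => C2.ext h)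
    rintro _ ⟨F, hF, rfl⟩
    exact ⟨F.1.2, v, hF, rfl⟩
  have hcl : ∀ F : C2 T, IsClosed F.set := fun F => by rw [F.set_eq]; exact T.isClosed_cc _
  have hU1 : IsClosed (⋃ F ∈ A1, F.set) :=
    (hfin.subset fun F hF => hF.2.1).isClosed_biUnion fun F _ => hcl F
  have hU2 : IsClosed (⋃ F ∈ A2, F.set) :=
    (hfin.subset fun F hF => hF.2.1).isClosed_biUnion fun F _ => hcl F
  have hdim : ∀ y ∈ R, y ∈ Om ∧ y ∈ frontier (Kc c) ∧ v ∈ T.cc y ∧ T.dim y ≠ 0 ∧ T.dim y ≤ 2 := by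
    intro y hy
    obtain ⟨⟨h1, _, h2⟩, h4, h5⟩ := hRU hy
    refine ⟨h1, h4, h2, fun h0 => ?_, dim_le_two h3 (hK c) (hKO c) (hs c) h4⟩
    rw [T.cc_eq_singleton (T.dim_eq_zero_iff.1 h0), mem_singleton_iff] at h2
    exact h5 h2.symm
  have hface : ∀ y ∈ R, ∃ F : C2 T, F.set ⊆ frontier (Kc c) ∧ v ∈ F.set ∧ y ∈ F.set := by
    intro y hy
    obtain ⟨hyO, hyF, hvy, hd0, hd2⟩ := hdim y hy
    have hd : T.dim y = 2 ∨ T.dim y = 1 := by omega
    rcases hd with hd | hd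
    · refine ⟨mk2 T hyO hd, hs c y hyF, hvy, T.self_mem_cc y⟩
    · have h1 := fcK_sub (h3 := h3) (hK := hK) (hKO := hKO) (hs := hs) (edK T Kc hs hyO hyF hd) true
      exact ⟨_, h1.1, h1.2 (by show v ∈ (T.cl hyO).set; rw [T.cl_set]; exact hvy),
        h1.2 (by show y ∈ (T.cl hyO).set; rw [T.cl_set]; exact T.self_mem_cc y)⟩
  have hcov : R ⊆ (⋃ F ∈ A1, F.set) ∪ ⋃ F ∈ A2, F.set := by
    intro y hy
    obtain ⟨F, h1, h2, h4⟩ := hface y hy
    by_cases hFA : F ∈ A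
    · exact Or.inl (mem_biUnion (show F ∈ A1 from ⟨h1, h2, hFA⟩) h4)
    · exact Or.inr (mem_biUnion (show F ∈ A2 from ⟨h1, h2, hFA⟩) h4)
  have hn1 : (R ∩ ⋃ F ∈ A1, F.set).Nonempty := by
    obtain ⟨y, hyV, hye, hyv⟩ := exists_near e.2.1 he hV
    have h1 := fcK_sub (h3 := h3) (hK := hK) (hKO := hKO) (hs := hs) e b
    exact ⟨y, hVR ⟨hyV, e.2.2 hye, hyv⟩,
      mem_biUnion (show fcK h3 hK hKO hs c e b ∈ A1 from ⟨h1.1, h1.2 he, hb⟩) (h1.2 hye)⟩
  have hn2 : (R ∩ ⋃ F ∈ A2, F.set).Nonempty := by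
    obtain ⟨y, hyV, hye, hyv⟩ := exists_near e'.2.1 he' hV
    have h1 := fcK_sub (h3 := h3) (hK := hK) (hKO := hKO) (hs := hs) e' b'
    exact ⟨y, hVR ⟨hyV, e'.2.2 hye, hyv⟩,
      mem_biUnion (show fcK h3 hK hKO hs c e' b' ∈ A2 from ⟨h1.1, h1.2 he', hb'⟩) (h1.2 hye)⟩
  obtain ⟨y, hyR, hy1, hy2⟩ := (isPreconnected_closed_iff.1 hR) _ _ hU1 hU2 hcov hn1 hn2
  rw [mem_iUnion₂] at hy1 hy2
  obtain ⟨F, ⟨hF1, hF2, hF3⟩, hyF⟩ := hy1
  obtain ⟨G, ⟨hG1, hG2, hG3⟩, hyG⟩ := hy2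
  obtain ⟨hyO, hyF', hvy, hd0, hd2⟩ := hdim y hyR
  have hFG : F ≠ G := fun h => hG3 (h ▸ hF3)
  have hopn : ∀ G : C2 T, y ∈ G.set → T.dim y = 2 → G.1 = T.cl hyO := by
    intro G hG hd
    apply T.eq_cl hyO
    show y ∈ T.oc G.pt
    by_contra hn
    rw [G.set_eq] at hG
    have := T.dim_lt hG hn
    rw [G.dim_pt] at this
    omega
  have hd1 : T.dim y = 1 := by
    by_contra hne
    have hd : T.dim y = 2 := by omega
    exact hFG (Subtype.ext ((hopn F hyF hd).trans (hopn G hyG hd).symm))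
  have hsub : ∀ G : C2 T, y ∈ G.set → (edK T Kc hs hyO hyF' hd1).1.set ⊆ G.set := by
    intro G hG
    show (T.cl hyO).set ⊆ _
    rw [T.cl_set]
    rw [G.set_eq] at hG ⊢
    exact T.cc_sub_of_mem hG
  obtain ⟨b1, hb1⟩ := (fcK_iff (h3 := h3) (hK := hK) (hKO := hKO) (hs := hs) (edK T Kc hs hyO hyF' hd1) F).1 ⟨hF1, hsub F hyF⟩
  obtain ⟨b2, hb2⟩ := (fcK_iff (h3 := h3) (hK := hK) (hKO := hKO) (hs := hs) (edK T Kc hs hyO hyF' hd1) G).1 ⟨hG1, hsub G hyG⟩
  have hbb : b2 = !b1 := by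
    have hne : b1 ≠ b2 := fun h => hFG (by rw [← hb1, ← hb2, h])
    revert hne
    cases b1 <;> cases b2 <;> simp
  apply hG3
  rw [← hb2, hbb]
  refine hA (edK T Kc hs hyO hyF' hd1) ?_ b1 ?_
  · show v ∈ (T.cl hyO).set
    rw [T.cl_set]; exact hvy
  · rw [hb1]; exact hF3

/-- **the shell of the giant cell `inr c`** -/
noncomputable def shellK (T : Tiling Om ι) (h3 : finrank ℝ E = 3) (Kc : κ → Set E)
    (hK : ∀ c, Core (Kc c)) (hKO : ∀ c, Kc c ⊆ Om)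
    (hs : ∀ c, ∀ x ∈ frontier (Kc c), T.cc x ⊆ frontier (Kc c))
    (hdis : ∀ c c', c ≠ c' → Disjoint (Kc c) (Kc c')) (c : κ) (hL : PC (frontier (Kc c))) :
    Door_501.Shell (meshK T h3 Kc hK hs hdis) (Sum.inr c) (VxK T Kc c) (EdK T Kc c) where
  en e b := ⟨endp e.1 b, (endp_mem e.2.1 b).2, e.2.2 (endp_mem e.2.1 b).1⟩
  en_ne e h := (lft_rgt e.2.1).1 (congrArg Subtype.val h)
  fc e b := ⟨fcK h3 hK hKO hs c e b,
    ((face_iff h3 hK hKO hs hdis _ c).1 (fcK_sub e b).1).1⟩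
  fc_ne e h := fcK_ne (h3 := h3) (hK := hK) (hKO := hKO) (hs := hs) e (congrArg Subtype.val h)
  fc_side e b := ((face_iff h3 hK hKO hs hdis (fcK h3 hK hKO hs c e b) c).1
    (fcK_sub (h3 := h3) (hK := hK) (hKO := hKO) (hs := hs) e b).1).2
  OnE e := e.1.opn
  onE := by
    rintro ⟨F, hF⟩ w hk
    have hFs : F.set ⊆ frontier (Kc c) := (face_iff h3 hK hKO hs hdis F c).2 ⟨hF, hk⟩
    constructor
    · rintro ⟨h1, h2⟩
      have hwO : w ∈ Om := F.set_sub h1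
      set e : EdK T Kc c := edK T Kc hs hwO (hFs h1) h2 with he
      have hsub : e.1.set ⊆ F.set := by
        show (T.cl hwO).set ⊆ _
        rw [T.cl_set]
        rw [F.set_eq] at h1 ⊢
        exact T.cc_sub_of_mem h1
      obtain ⟨b, hb⟩ := (fcK_iff (h3 := h3) (hK := hK) (hKO := hKO) (hs := hs) e F).1 ⟨hFs, hsub⟩
      exact ⟨e, b, Subtype.ext hb, by
        show w ∈ (T.cl hwO).opn
        rw [T.opn_cl hwO]; exact T.self_mem_oc w⟩
    · rintro ⟨e, b, hb, hw⟩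
      have h1 : fcK h3 hK hKO hs c e b = F := congrArg Subtype.val hb
      have h2 := (fcK_sub (h3 := h3) (hK := hK) (hKO := hKO) (hs := hs) e b).2
      rw [h1] at h2
      exact ⟨h2 (e.1.opn_sub hw), (T.dim_eq_of_mem_oc e.1.pt_mem hw).trans e.2.1⟩
  onE_disj := by
    intro e e' w hw hw'
    have hO := opn_sub_Om e.1 hw
    exact Subtype.ext ((T.eq_cl hO hw).trans (T.eq_cl hO hw').symm)
  t := par T
  t_inj := by
    intro e w hw w' hw' h
    obtain ⟨s, hs1, rfl⟩ := exists_par e.2.1 hw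
    obtain ⟨s', hs1', rfl⟩ := exists_par e.2.1 hw'
    rw [(par_eq e.2.1 hs1).2, (par_eq e.2.1 hs1').2] at h
    rw [h]
  t_pos := by
    intro e w hw
    obtain ⟨s, hs1, rfl⟩ := exists_par e.2.1 hw
    rw [(par_eq e.2.1 hs1).2]; exact hs1.1
  t_lt := by
    intro e w hw
    obtain ⟨s, hs1, rfl⟩ := exists_par e.2.1 hw
    rw [(par_eq e.2.1 hs1).2]; exact hs1.2
  vdeg := by
    rintro ⟨F, hF⟩ v
    have hev : ∀ e : EdK T Kc c, (∃ b, (⟨endp e.1 b, (endp_mem e.2.1 b).2,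
        e.2.2 (endp_mem e.2.1 b).1⟩ : VxK T Kc c) = v) ↔ v.1 ∈ e.1.set := by
      intro e
      rw [endp_iff e.2.1 v.2.1]
      exact ⟨fun ⟨b, hb⟩ => ⟨b, congrArg Subtype.val hb⟩, fun ⟨b, hb⟩ => ⟨b, Subtype.ext hb⟩⟩
    have hfe : ∀ e : EdK T Kc c, (∃ b, (⟨fcK h3 hK hKO hs c e b,
        ((face_iff h3 hK hKO hs hdis _ c).1 (fcK_sub e b).1).1⟩ :
          {F : C2 T // ¬ (((meshC T h3).side F).map (piK T Kc)).IsDiag}) = ⟨F, hF⟩) ↔
        F.set ⊆ frontier (Kc c) ∧ e.1.set ⊆ F.set := by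
      intro e
      rw [fcK_iff (h3 := h3) (hK := hK) (hKO := hKO) (hs := hs) e F]
      exact ⟨fun ⟨b, hb⟩ => ⟨b, congrArg Subtype.val hb⟩, fun ⟨b, hb⟩ => ⟨b, Subtype.ext hb⟩⟩
    simp only [hev, hfe]
    by_cases hcase : F.set ⊆ frontier (Kc c) ∧ v.1 ∈ F.set
    · right
      have h1 : ((fun e : EdK T Kc c => e.1) '' {e | (F.set ⊆ frontier (Kc c) ∧
          e.1.set ⊆ F.set) ∧ v.1 ∈ e.1.set}) = T.edgesAt F.pt v.1 := by
        ext g
        constructor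
        · rintro ⟨e, ⟨⟨_, h4⟩, h5⟩, rfl⟩
          exact ⟨e.2.1, by rw [← F.set_eq]; exact h4, h5⟩
        · rintro ⟨h4, h5, h6⟩
          rw [← F.set_eq] at h5
          exact ⟨⟨g, h4, h5.trans hcase.1⟩, ⟨⟨hcase.1, h5⟩, h6⟩, rfl⟩
      rw [← ncard_image_of_injective _ Subtype.val_injective]
      erw [h1]
      refine T.two_edges F.pt_mem F.dim_pt ?_ v.2.1
      rw [← F.set_eq]; exact hcase.2
    · left
      have h1 : {e : EdK T Kc c | (F.set ⊆ frontier (Kc c) ∧ e.1.set ⊆ F.set) ∧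
          v.1 ∈ e.1.set} = ∅ := by
        rw [Set.eq_empty_iff_forall_notMem]
        rintro e ⟨⟨h4, h5⟩, h6⟩
        exact hcase ⟨h4, h5 h6⟩
      rw [h1, ncard_empty]
  vfin := by
    intro v
    have hvO : v.1 ∈ Om := hKO c ((hK c).closed.frontier_subset v.2.2)
    refine Set.Finite.of_finite_image (f := fun e : EdK T Kc c => e.1)
      ((T.finite_edgesAt' hvO).subset ?_) Subtype.val_injective.injOn
    rintro _ ⟨e, ⟨b, hb⟩, rfl⟩
    refine ⟨e.2.1, ?_⟩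
    rw [← congrArg Subtype.val hb]
    exact (endp_mem e.2.1 b).1
  vlink := by
    intro v A hA e he b hb e' he' b'
    have hev : ∀ e : EdK T Kc c, (∃ b, (⟨endp e.1 b, (endp_mem e.2.1 b).2,
        e.2.2 (endp_mem e.2.1 b).1⟩ : VxK T Kc c) = v) ↔ v.1 ∈ e.1.set := by
      intro e
      rw [endp_iff e.2.1 v.2.1]
      exact ⟨fun ⟨b, hb⟩ => ⟨b, congrArg Subtype.val hb⟩, fun ⟨b, hb⟩ => ⟨b, Subtype.ext hb⟩⟩
    have hAi : ∀ (e : EdK T Kc c) b, (⟨fcK h3 hK hKO hs c e b,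
        ((face_iff h3 hK hKO hs hdis _ c).1 (fcK_sub e b).1).1⟩ :
          {F : C2 T // ¬ (((meshC T h3).side F).map (piK T Kc)).IsDiag}) ∈ A ↔
        fcK h3 hK hKO hs c e b ∈ Subtype.val '' A := by
      intro e b
      constructor
      · exact fun h => ⟨_, h, rfl⟩
      · rintro ⟨G, hG, h⟩
        have h2 : G = ⟨fcK h3 hK hKO hs c e b,
            ((face_iff h3 hK hKO hs hdis _ c).1 (fcK_sub e b).1).1⟩ := Subtype.ext h
        rw [← h2]; exact hG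
    rw [hAi]
    refine link_aux h3 hK hKO hs hL v.2.2 (Subtype.val '' A) ?_ e ((hev e).1 he) b
      ((hAi e b).1 hb) e' ((hev e').1 he') b'
    intro g hg b1 hb1
    rw [← hAi] at hb1 ⊢
    exact hA g ((hev g).2 hg) b1 hb1

end Shell

end Crest.Agent.R096.Msh_715
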