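import Crest.Agent.R096.Gsm1_432
import Crest.Agent.R096.Mal1_874

/-!
# Row 96, p ≤ 2 (helper432), CORE-SUB, part 1: subdivided tiles

`patch T A H R` (helper874) replaces the tiles `i ∈ A`.  If every replaced tile is SUBDIVIDED
(`Sub`), the closed cells become smaller, the 1-skeleton becomes larger.
-/

set_option autoImplicit false
set_option linter.unusedSectionVars false

open Set Metric Topology Filter

namespace Crest.Agent.R096.Msb_432

open Crest.Agent.R096.Msh_715 Crest.Agent.R096.Msh_715.Tiling Crest.Agent.R096.Mal_874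
open Crest.Agent.R096.Gsm_432

variable {E : Type*} [NormedAddCommGroup E] [NormedSpace ℝ E]
variable {Om Om' : Set E} {ι ι' κ : Type*}

/-! ### tilings with smaller closed cells -/

theorem V_le_of_cc_sub {T : Tiling Om ι} {T' : Tiling Om' ι'} {x : E} (hx : x ∈ Om')
    (h : T'.cc x ⊆ T.cc x) : T'.V x ≤ T.V x := by
  obtain ⟨r, hr, hb⟩ := T'.exists_ball_oc hx
  intro v hv
  by_cases h0 : v = 0
  · rw [h0]; exact Submodule.zero_mem _
  have hn : 0 < ‖v‖ := norm_pos_iff.2 h0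
  have h1 : x + (r / 2 / ‖v‖) • v ∈ T'.oc x := by
    refine hb _ (Submodule.smul_mem _ _ hv) ?_
    rw [norm_smul, Real.norm_of_nonneg (by positivity), div_mul_cancel₀ _ hn.ne']
    linarith
  have h2 := T.sub_mem_V (h (T'.oc_sub_cc x h1))
  rw [add_sub_cancel_left] at h2
  have h3 := Submodule.smul_mem _ (‖v‖ / (r / 2)) h2
  rwa [smul_smul, div_mul_div_comm, mul_comm ‖v‖, div_self (by positivity), one_smul] at h3

theorem dim_le_of_cc_sub [FiniteDimensional ℝ E] {T : Tiling Om ι} {T' : Tiling Om' ι'} {x : E}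
    (hx : x ∈ Om') (h : T'.cc x ⊆ T.cc x) : T'.dim x ≤ T.dim x :=
  Submodule.finrank_mono (V_le_of_cc_sub hx h)

/-! ### subdivided tiles -/

/-- every replaced tile is the union of the new tiles contained in it -/
def SubD (T : Tiling Om ι) (A : Set ι) (H : κ → Finset ((E →L[ℝ] ℝ) × ℝ)) : Prop :=
  ∀ i ∈ A, ∀ x ∈ P (T.H i), ∃ k, x ∈ P (H k) ∧ P (H k) ⊆ P (T.H i)

variable {T : Tiling Om ι} {A : Set ι} {H : κ → Finset ((E →L[ℝ] ℝ) × ℝ)} {R : Repl T A H}

/-- **the closed cells of the subdivided tiling are smaller** -/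
theorem patch_cc_sub (h : SubD T A H) (x : E) : (patch T A H R).cc x ⊆ T.cc x := by
  intro y hy
  rw [mem_cc_iff] at hy ⊢
  intro i hi
  by_cases hA : i ∈ A
  · obtain ⟨k, hk, hks⟩ := h i hA x hi
    obtain ⟨h1, ε, hε, h2⟩ := hy (Sum.inr k) hk
    exact ⟨hks h1, ε, hε, hks h2⟩
  · exact hy (Sum.inl ⟨i, hA⟩) hi

/-- **the dimension decreases: the 1-skeleton increases** -/
theorem patch_dim_le [FiniteDimensional ℝ E] (h : SubD T A H) {x : E} (hx : x ∈ Om) :
    (patch T A H R).dim x ≤ T.dim x :=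
  dim_le_of_cc_sub hx (patch_cc_sub h x)

theorem patch_dim_off {x : E} (hx : ∀ i ∈ T.at_ x, i ∉ A) :
    (patch T A H R).dim x = T.dim x := by
  unfold Tiling.dim
  rw [(patch_off hx).2.2]

/-- the tiles (as sets) at a point -/
def TS (T : Tiling Om ι) (p : E) : Set (Set E) := (fun i => P (T.H i)) '' T.at_ p

theorem P_inj {i j : ι} (h : P (T.H i) = P (T.H j)) : i = j := by
  by_contra hne
  obtain ⟨x, hx⟩ := T.ne i
  have h1 := disjoint_P_I (T.ne j) (T.dis j i fun e => hne e.symm)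
  exact Set.disjoint_left.1 h1 (h ▸ I_sub_P _ hx) hx

/-- **the tiles at a point of the subdivided tiling** -/
theorem TS_patch (p : E) : TS (patch T A H R) p =
    {Q ∈ TS T p | ∀ i ∈ A, Q ≠ P (T.H i)} ∪ {Q | ∃ k, p ∈ P (H k) ∧ Q = P (H k)} := by
  ext Q
  constructor
  · rintro ⟨i | k, hi, rfl⟩
    · exact Or.inl ⟨⟨i.1, hi, rfl⟩, fun j hj e => i.2 ((P_inj e : i.1 = j) ▸ hj)⟩
    · exact Or.inr ⟨k, hi, rfl⟩
  · rintro (⟨⟨i, hi, rfl⟩, hA⟩ | ⟨k, hk, rfl⟩)
    · exact ⟨Sum.inl ⟨i, fun h => hA i h rfl⟩, hi, rfl⟩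
    · exact ⟨Sum.inr k, hk, rfl⟩

end Crest.Agent.R096.Msb_432
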