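import Crest.Agent.R096.Msb3_432

/-!
# Row 96, p ≤ 2 (helper432), CORE-SUB, part 4: `TileG` (helper855) for EVERY tile of the mesh with
subdivided cores
-/

set_option autoImplicit false
set_option linter.unusedSectionVars false

open Set Metric Topology Filter

namespace Crest.Agent.R096.Msb_432

open Crest.Agent.R096.Msh_715 Crest.Agent.R096.Msh_715.Tiling Crest.Agent.R096.Mal_874
open Crest.Agent.R096.Gsm_432 Crest.Agent.R096.Msh_810 Crest.Agent.R096.Cut_874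

universe w

variable {n : ℕ}

/-- good tiles in a frame of bounded distortion have the shape constants at their scale -/
theorem tg_goods (E : Type) [NormedAddCommGroup E] [NormedSpace ℝ E] [FiniteDimensional ℝ E]
    {Ls : Set (Finset (Fin n → ℝ) × ℕ)} (hLs : Ls.Finite) (hpos : ∀ p ∈ Ls, 0 < p.2)
    (hrat : ∀ p ∈ Ls, ∀ ν ∈ p.1, ∀ m, ∃ c : ℤ, ν m = c / p.2) (R : ℝ) {L1 L2 : ℝ} (hL1 : 0 < L1)
    (hL2 : 0 ≤ L2) :
    ∃ β > 0, ∃ ρ > 0, ∃ D, ∃ nc : ℕ, ∀ {Om : Set E} {ι : Type w} (T : Tiling Om ι) (t : ι)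
      (φ : E ≃L[ℝ] (Fin n → ℝ)) (a : Fin n → ℝ) (κ : ℕ), ∀ p ∈ Ls,
      Good T t (chi φ a κ) κ p.1 p.2 R → (∀ v, ‖φ v‖ ≤ L1 * ‖v‖) → (∀ v, ‖v‖ ≤ L2 * ‖φ v‖) →
      TG T t β ρ D nc κ := by
  obtain ⟨β, hβ, ρ, hρ, D, nc, h⟩ := gap_goods.{0, w} E hLs hpos hrat R
  refine ⟨β, hβ, ρ / L1, by positivity, L2 * (2 * D), nc, fun T t φ a κ p hp hg h1 h2 => ?_⟩
  obtain ⟨c, hc⟩ := h T t (chi φ a κ) κ p hp hg
  exact TG.of hc hβ.le hρ hL1 hL2 h1 h2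

/-- the scale of a tile of `meshS` -/
def Scl {E : Type*} [NormedAddCommGroup E] [NormedSpace ℝ E] [NeZero n] {J : Type*} (M : MD E n J)
    {k : J → ℕ} (hk : M.Sc k) (a : Fin n → ℝ) {v : J → E} (hv : M.Adm v) :
    {t // t ∉ cores M hk a hv} ⊕ CIx M → ℕ → Prop
  | Sum.inl ⟨Sum.inl p, _⟩, κ => κ = p.1.par.1.1.k + 1 ∨ ∃ j, κ = k j ∧ p.1.par.1.1.k = k j
  | Sum.inl ⟨Sum.inr ⟨j, _⟩, _⟩, κ => (M.Q j).kc ≤ κ ∧ κ ≤ k j + 1
  | Sum.inr c, κ => κ = (M.Q c.1).kc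

/-- **`TileG` for every tile of the mesh with subdivided cores** -/
theorem tileG_meshS (E : Type) [NormedAddCommGroup E] [NormedSpace ℝ E] [FiniteDimensional ℝ E]
    [NeZero n] {Ps : Set ((Fin n → Fin n → ℤ) × ℕ)} (hPs : Ps.Finite) (c0 R0 Lo : ℝ) {B0 : ℕ} :
    ∃ β > 0, ∃ ρ > 0, ∃ D, ∃ nc : ℕ, ∀ {J : Type w} (M : MD E n J) {k : J → ℕ} (hk : M.Sc k)
      (a : Fin n → ℝ) {v : J → E} (hv : M.Adm v) (X : RD M), RP X a v k →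
      (∀ j, (X.A j, X.d j) ∈ Ps) → (∀ j, X.c j ≤ c0) → (∀ j, X.B j ≤ B0) → (∀ j, X.R j ≤ R0) →
      (∀ v, ‖M.φ v‖ ≤ Lo * ‖v‖) → (∀ v, ‖v‖ ≤ Lo * ‖M.φ v‖) →
      ∀ t, ∃ κ, Scl M hk a hv t κ ∧ TG (meshS M hk a hv) t β ρ D nc κ := by
  classical
  obtain ⟨a0, ha0⟩ := (hPs.image fun p : (Fin n → Fin n → ℤ) × ℕ =>
    ∑ m, ∑ l, |(p.1 m l : ℝ)|).bddAbove
  set L1 : ℝ := (|a0| + 1) * (|Lo| + 1) with hL1d
  set L2 : ℝ := (|Lo| + 1) * (|c0| + 1) with hL2d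
  have hL1 : 0 < L1 := by positivity
  have hL2 : 0 ≤ L2 := by positivity
  set Ls : Set (Finset (Fin n → ℝ) × ℕ) := {(N0 n, 1)} ∪ {(NB n B0, 1)} ∪
    (fun p : (Fin n → Fin n → ℤ) × ℕ => (NR p.1 p.2, p.2)) '' {p ∈ Ps | 0 < p.2} with hLs
  have hfin : Ls.Finite := ((finite_singleton _).union (finite_singleton _)).union
    ((hPs.subset (sep_subset _ _)).image _)
  have hpos : ∀ p ∈ Ls, 0 < p.2 := by
    rintro p ((rfl | rfl) | ⟨q, hq, rfl⟩)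
    · exact one_pos
    · exact one_pos
    · exact hq.2
  have hrat : ∀ p ∈ Ls, ∀ ν ∈ p.1, ∀ m, ∃ c : ℤ, ν m = c / p.2 := by
    rintro p ((rfl | rfl) | ⟨q, hq, rfl⟩)
    · exact N0_rat one_pos
    · exact NB_rat B0 one_pos
    · exact NR_rat q.1 hq.2
  obtain ⟨β, hβ, ρ, hρ, D, nc, h⟩ := tg_goods E hfin hpos hrat (max 2 (max R0 c0)) hL1 hL2
  refine ⟨β, hβ, ρ, hρ, D, nc,
    fun {J} M {k} hk a {v} hv X RPx hA hc hB hR hLo hLo' => ?_⟩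
  have hLL : Lo ≤ |Lo| + 1 := (le_abs_self Lo).trans (by linarith)
  have hφ1 : ∀ v, ‖M.φ v‖ ≤ L1 * ‖v‖ := by
    intro v
    have h1 := hLo v
    have h2 : Lo * ‖v‖ ≤ (|Lo| + 1) * ‖v‖ := mul_le_mul_of_nonneg_right hLL (norm_nonneg _)
    have h3 : 0 ≤ |a0| * ((|Lo| + 1) * ‖v‖) := by positivity
    rw [hL1d]
    nlinarith
  have hφ2 : ∀ v, ‖v‖ ≤ L2 * ‖M.φ v‖ := by
    intro v
    have h1 := hLo' v
    have h2 : Lo * ‖M.φ v‖ ≤ (|Lo| + 1) * ‖M.φ v‖ :=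
      mul_le_mul_of_nonneg_right hLL (norm_nonneg _)
    have h3 : 0 ≤ |c0| * ((|Lo| + 1) * ‖M.φ v‖) := by positivity
    rw [hL2d]
    nlinarith
  have hψ1 : ∀ j v, ‖(M.Q j).ψ v‖ ≤ L1 * ‖v‖ := by
    intro j v
    have h1 := norm_rat (X.dpos j) (X.rat j) v
    have h2 : ∑ m, ∑ l, |(X.A j m l : ℝ)| ≤ |a0| + 1 :=
      (ha0 (mem_image_of_mem _ (hA j))).trans ((le_abs_self a0).trans (by linarith))
    have h3 : ‖M.φ v‖ ≤ (|Lo| + 1) * ‖v‖ :=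
      (hLo v).trans (mul_le_mul_of_nonneg_right hLL (norm_nonneg _))
    calc ‖(M.Q j).ψ v‖ ≤ (∑ m, ∑ l, |(X.A j m l : ℝ)|) * ‖M.φ v‖ := h1
      _ ≤ (|a0| + 1) * ((|Lo| + 1) * ‖v‖) :=
        mul_le_mul h2 h3 (norm_nonneg _) (by positivity)
      _ = L1 * ‖v‖ := by rw [hL1d]; ring
  have hψ2 : ∀ j v, ‖v‖ ≤ L2 * ‖(M.Q j).ψ v‖ := by
    intro j v
    have h1 := X.cn j v 0
    rw [map_zero, map_zero, dist_zero_right, dist_zero_right] at h1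
    have h2 : X.c j ≤ |c0| + 1 := (hc j).trans ((le_abs_self c0).trans (by linarith))
    have h3 : ‖M.φ v‖ ≤ (|c0| + 1) * ‖(M.Q j).ψ v‖ :=
      h1.trans (mul_le_mul_of_nonneg_right h2 (norm_nonneg _))
    calc ‖v‖ ≤ Lo * ‖M.φ v‖ := hLo' v
      _ ≤ (|Lo| + 1) * ‖M.φ v‖ := mul_le_mul_of_nonneg_right hLL (norm_nonneg _)
      _ ≤ (|Lo| + 1) * ((|c0| + 1) * ‖(M.Q j).ψ v‖) :=
        mul_le_mul_of_nonneg_left h3 (by positivity)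
      _ = L2 * ‖(M.Q j).ψ v‖ := by rw [hL2d]; ring
  have m0 : (N0 n, 1) ∈ Ls := Or.inl (Or.inl rfl)
  have mB : (NB n B0, 1) ∈ Ls := Or.inl (Or.inr rfl)
  have mR : ∀ j, (NR (X.A j) (X.d j), X.d j) ∈ Ls := fun j =>
    Or.inr ⟨_, ⟨hA j, X.dpos j⟩, rfl⟩
  have r1 : (1 : ℝ) ≤ max 2 (max R0 c0) := le_trans (by norm_num) (le_max_left _ _)
  have r2 : ∀ j, X.c j ≤ max 2 (max R0 c0) := fun j =>
    (hc j).trans ((le_max_right _ _).trans (le_max_right _ _))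
  have r3 : ∀ j, X.R j ≤ max 2 (max R0 c0) := fun j =>
    (hR j).trans ((le_max_left _ _).trans (le_max_right _ _))
  rintro (⟨t, ht⟩ | c)
  · rcases t with p | ⟨j, i⟩
    · rcases outer_goodS M hk a hv X RPx p with hg | ⟨j, hj, hg⟩
      · exact ⟨_, Or.inl rfl, h _ _ _ _ _ _ m0 (good_mono hg subset_rfl (le_max_left _ _))
          hφ1 hφ2⟩
      · exact ⟨_, Or.inr ⟨j, rfl, hj⟩, h _ _ _ _ _ _ (mR j) (good_mono hg subset_rfl (r2 j))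
          hφ1 hφ2⟩
    · have hi : i ≠ M.core hk a hv j := by
        rintro rfl
        exact ht ⟨j, rfl⟩
      rcases inner_goodS M hk a hv X RPx i hi with ⟨τ, hτ, hg⟩ | hg | ⟨-, hg⟩
      · refine ⟨_, ⟨?_, ?_⟩, h _ _ _ _ _ _ m0 (good_mono hg subset_rfl (le_max_left _ _))
          (hψ1 j) (hψ2 j)⟩
        · have := (M.Bk v j).kc_le (k j) (hk.kc j) (τ := τ.1)
          exact this.trans (Nat.le_succ _)
        · exact Nat.succ_le_succ ((M.Bk v j).le_k (k j) (hk.kc j) (τ := τ.1))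
      · exact ⟨_, ⟨le_rfl, (hk.kc j).trans (Nat.le_succ _)⟩,
          h _ _ _ _ _ _ mB (good_mono hg (NB_mono (hB j)) (r3 j)) (hψ1 j) (hψ2 j)⟩
      · exact ⟨_, ⟨hk.kc j, Nat.le_succ _⟩,
          h _ _ _ _ _ _ (mR j) (good_mono hg subset_rfl (r2 j)) hφ1 hφ2⟩
  · exact ⟨_, rfl, h _ _ _ _ _ _ mB (good_mono (cube_goodS M hk a hv X c) (NB_mono (hB _)) r1)
      (hψ1 _) (hψ2 _)⟩

end Crest.Agent.R096.Msb_432
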