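import Crest.Agent.R096.Msb5_432

/-!
# Row 96: the aligned mesh with subdivided cores, part 6: the closed cells of `meshS` at the points
of a block (walls included) are contained in the closed cells of the block tiling
-/

set_option autoImplicit false
set_option linter.unusedSectionVars false

open Set Filter Topology Metric

namespace Crest.Agent.R096.Msb_432

open Msh_715 Cut_874 Msh_810 Mal_874

variable {n : ℕ} {E : Type*} [NormedAddCommGroup E] [NormedSpace ℝ E]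

/-! ### cubes of one grid -/

/-- the conditions of the closed cell of `x` in one cube of a grid through `x` imply those in every
cube of the grid through `x` -/
theorem grid_le {φ : E ≃L[ℝ] (Fin n → ℝ)} {a : Fin n → ℝ} {k : ℕ} {z z' : Fin n → ℤ} {x y : E}
    (hx : φ x ∈ Cu a k z) (hx' : φ x ∈ Cu a k z')
    (h : ∀ g ∈ Hc φ a k z, g.1 y ≤ g.2 ∧ (g.1 x = g.2 → g.1 y = g.2)) :
    ∀ g ∈ Hc φ a k z', g.1 y ≤ g.2 ∧ (g.1 x = g.2 → g.1 y = g.2) := by
  rw [forall_Hc] at h ⊢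
  rw [mem_Cu] at hx hx'
  intro i
  have h1 := h i
  obtain ⟨h2, h3⟩ := hx i
  obtain ⟨h4, h5⟩ := hx' i
  rw [hc_true_le.1, hc_false_le.1, hc_true_le.2.2, hc_false_le.2.2, hc_true_le.2.2,
    hc_false_le.2.2] at h1 ⊢
  obtain ⟨⟨h6, h7⟩, h8, h9⟩ := h1
  have h10 : z' i ≤ z i + 1 := by
    have : (z' i : ℝ) ≤ z i + 1 := by linarith
    exact_mod_cast this
  have h11 : z i ≤ z' i + 1 := by
    have : (z i : ℝ) ≤ z' i + 1 := by linarith
    exact_mod_cast this
  have h12 : z' i = z i ∨ z' i = z i + 1 ∨ z' i = z i - 1 := by omega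
  rcases h12 with e | e | e
  · rw [e]
    exact ⟨⟨h6, h7⟩, h8, h9⟩
  · have e' : (z' i : ℝ) = z i + 1 := by rw [e]; push_cast; ring
    have h13 : ps a k (φ x) i = z i + 1 := le_antisymm h3 (by rw [← e']; exact h4)
    have h14 := h7 h13
    rw [e']
    refine ⟨⟨by linarith, fun h => by linarith⟩, by linarith, fun _ => h14⟩
  · have e' : (z' i : ℝ) = z i - 1 := by rw [e]; push_cast; ring
    have h13 : ps a k (φ x) i = z i := le_antisymm (by rw [e'] at h5; linarith) h2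
    have h14 := h9 h13
    rw [e']
    refine ⟨⟨by linarith, fun _ => by linarith⟩, by linarith, fun h => by linarith⟩

/-! ### the block tiling at the wall -/

section block

variable (Q : CB E n) (k : ℕ) (hk : Q.kc ≤ k)

/-- a tile of the block tiling at a point of the wall is a cube of scale `k` -/
theorem wall_tile [NeZero n] {q : E} (hq : q ∈ frontier Q.N)
    {i : {i // i ∉ {i | P ((Q.T0 k hk).H i) ⊆ Q.S.bp Q.ψ Q.a' Q.kc}} ⊕ Q.S.Ix}
    (hi : i ∈ (Q.T k hk).at_ q) :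
    ∃ z, (Q.T k hk).H i = Hc Q.ψ Q.a' k z ∧ Q.ψ q ∈ Cu Q.a' k z := by
  rcases i with i | i
  · have h1 : q ∈ P ((Q.T0 k hk).H i.1) := hi
    have h2 : i.1.1.1.k = k := by
      refine Q.wall_k k hk h1 ?_
      rw [Q.frontier_N] at hq
      rw [infDist_zero_of_mem (show Q.ψ q ∈ Q.W from hq)]
      positivity
    refine ⟨i.1.1.1.z, ?_, ?_⟩
    · show Hc Q.ψ Q.a' i.1.1.1.k i.1.1.1.z = _
      rw [h2]
    · have h3 : q ∈ P (Hc Q.ψ Q.a' i.1.1.1.k i.1.1.1.z) := h1
      rw [h2, P_Hc] at h3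
      exact h3
  · exact absurd hq (bp_wall Q (Q.P_inr_sub k hk i hi))

/-- at the wall the closed cell is determined by one tile -/
theorem cc_wall [NeZero n] {q y : E} (hq : q ∈ frontier Q.N)
    {i : {i // i ∉ {i | P ((Q.T0 k hk).H i) ⊆ Q.S.bp Q.ψ Q.a' Q.kc}} ⊕ Q.S.Ix}
    (hi : i ∈ (Q.T k hk).at_ q)
    (hy : ∀ g ∈ (Q.T k hk).H i, g.1 y ≤ g.2 ∧ (g.1 q = g.2 → g.1 y = g.2)) :
    y ∈ (Q.T k hk).cc q := by
  intro j hj
  obtain ⟨z, hz, hqz⟩ := wall_tile Q k hk hq hi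
  obtain ⟨z', hz', hqz'⟩ := wall_tile Q k hk hq hj
  rw [hz] at hy
  rw [hz']
  exact grid_le hqz hqz' hy

end block

/-! ### the mesh at the points of a block -/

section mesh

variable [NeZero n] {J : Type*} (M : MD E n J) {k : J → ℕ} (hk : M.Sc k) (a : Fin n → ℝ)
  {v : J → E} (hv : M.Adm v) {j : J}

/-- at the points of a block the closed cells of the mesh are contained in those of the block
tiling -/
theorem mesh_cc_T {q : E} (hq : q ∈ (M.Bk v j).N) :
    (M.mesh hk a hv).cc q ⊆ ((M.Bk v j).T (k j) (hk.kc j)).cc q := by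
  by_cases hi : q ∈ interior (M.Bk v j).N
  · rw [(M.rg_block hk a hv hi).eq0.1]
  · intro y hy
    have hf : q ∈ frontier (M.Bk v j).N := ⟨subset_closure hq, hi⟩
    obtain ⟨i, hi1, hi2⟩ := (M.Bk v j).un_N (k j) (hk.kc j) q hq
    refine cc_wall (M.Bk v j) (k j) (hk.kc j) hf hi1 ?_
    have h1 : (Sum.inr ⟨j, ⟨i, hi2⟩⟩ : M.OIx hk a hv ⊕ Σ j, M.IIx hk a hv j) ∈
      (M.mesh hk a hv).at_ q := hi1
    exact hy _ h1

/-- **at the points of a block the closed cells of `meshS` are contained in those of the block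
tiling** -/
theorem meshS_cc_T {q : E} (hq : q ∈ (M.Bk v j).N) :
    (meshS M hk a hv).cc q ⊆ ((M.Bk v j).T (k j) (hk.kc j)).cc q :=
  (meshS_cc_sub M hk a hv q).trans (mesh_cc_T M hk a hv hq)

include hk a hv in
theorem N_sub_Om {q : E} (hq : q ∈ (M.Bk v j).N) : q ∈ M.φ ⁻¹' M.D0.Om := by
  obtain ⟨i, hi1, hi2⟩ := (M.Bk v j).un_N (k j) (hk.kc j) q hq
  exact (M.mesh hk a hv).sub (Sum.inr ⟨j, ⟨i, hi2⟩⟩) hi1

theorem meshS_V_T {q : E} (hq : q ∈ (M.Bk v j).N) :
    (meshS M hk a hv).V q ≤ ((M.Bk v j).T (k j) (hk.kc j)).V q :=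
  V_le_of_cc_sub (N_sub_Om M hk a hv hq) (meshS_cc_T M hk a hv hq)

theorem meshS_dim_T [FiniteDimensional ℝ E] {q : E} (hq : q ∈ (M.Bk v j).N) :
    (meshS M hk a hv).dim q ≤ ((M.Bk v j).T (k j) (hk.kc j)).dim q :=
  dim_le_of_cc_sub (N_sub_Om M hk a hv hq) (meshS_cc_T M hk a hv hq)

/-- in the coordinates of the block at rest: closed cells -/
theorem meshS_cc_Q {p y : E} (hp : p ∈ (M.Q j).N) (hy : y + v j ∈ (meshS M hk a hv).cc (p + v j)) :
    y ∈ ((M.Q j).T (k j) (hk.kc j)).cc p := by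
  have h1 : p + v j ∈ (M.Bk v j).N := by
    show p + v j ∈ ((M.Q j).tr (v j)).N
    rw [CB.mem_N_tr, add_sub_cancel_right]
    exact hp
  exact ((M.Q j).rg_tr (v j) (k j) (hk.kc j) p).cc.1 (meshS_cc_T M hk a hv h1 hy)

/-- **in the coordinates of the block at rest: dimensions** -/
theorem meshS_dim_Q [FiniteDimensional ℝ E] {p : E} (hp : p ∈ (M.Q j).N) :
    (meshS M hk a hv).dim (p + v j) ≤ ((M.Q j).T (k j) (hk.kc j)).dim p := by
  have h1 : p + v j ∈ (M.Bk v j).N := by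
    show p + v j ∈ ((M.Q j).tr (v j)).N
    rw [CB.mem_N_tr, add_sub_cancel_right]
    exact hp
  rw [← ((M.Q j).rg_tr (v j) (k j) (hk.kc j) p).dim]
  exact meshS_dim_T M hk a hv h1

/-- **(ED)**: the points of a closed 1-cell of the block tiling, translated, are in the 1-skeleton
of `meshS` -/
theorem ed_dim [FiniteDimensional ℝ E] {x : E} (h1 : ((M.Q j).T (k j) (hk.kc j)).dim x ≤ 1)
    {y : E} (hy : y ∈ ((M.Q j).T (k j) (hk.kc j)).cc x) (hyN : y ∈ (M.Q j).N) :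
    y + v j ∈ M.φ ⁻¹' M.D0.Om ∧ (meshS M hk a hv).dim (y + v j) ≤ 1 := by
  have h2 : y + v j ∈ (M.Bk v j).N := by
    show y + v j ∈ ((M.Q j).tr (v j)).N
    rw [CB.mem_N_tr, add_sub_cancel_right]
    exact hyN
  refine ⟨N_sub_Om M hk a hv h2, (meshS_dim_Q M hk a hv hyN).trans (le_trans ?_ h1)⟩
  exact ((M.Q j).T (k j) (hk.kc j)).dim_le hy

end mesh

end Crest.Agent.R096.Msb_432
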