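import Crest.Agent.R096.Vb11_965
import Crest.Agent.R096.Lsc1_965
import Crest.Agent.R096.Init3_543

/-! Row 96 (helper965), MESH0: thresholds `e c` and 543's `Mesh0` from `Fine` + 'the non core tiles
miss the holes' -/

set_option autoImplicit false
set_option linter.unusedSectionVars false
set_option linter.style.haveILetI false

open Set Topology Filter

namespace Crest.Agent.R096.Vb_965

open Crest.Agent.R096.Coh_184 Crest.Agent.R096.Brk1_582 Crest.Agent.R096.Brk2_582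
open Crest.Agent.R096.Bsp_628 Crest.Agent.R096.Brk3_582 Crest.Agent.R096.Brk5_582
open Crest.Agent.R096.Init_543 Crest.Agent.R096.Msh_715
open Crest.Agent.R96.Push_899 Crest.Agent.R096.SkC1_961

variable {δ κ0 R c0 : ℝ} {La Om : Set E3} (Φ : FoamD δ κ0 R c0 La) {f : E3 → E3} {ι : Type}
  {T : Tiling Om ι} {Kor : Set ι}

theorem isCompact_brick (c : Φ.F) : IsCompact c.1.set := isCompact_Icc

/-- **thresholds**: off the core tiles `muD (f x) ≥ e c` -/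
theorem exists_threshold (hLa : IsOpen La) (hf : Hom3 f Om La)
    (hmiss : ∀ q, q ∉ Kor → ∀ x ∈ P (T.H q), ∀ c : Φ.F, f x ∉ (Φ.B c).S) :
    ∃ e : Φ.F → ℝ, (∀ c, 0 < e c) ∧ (∀ c, e c < 1) ∧
      ∀ q, q ∉ Kor → ∀ x ∈ P (T.H q), ∀ c : Φ.F, f x ∈ c.1.set → e c ≤ muD Φ (f x) := by
  have key : ∀ c : Φ.F, ∃ e : ℝ, 0 < e ∧ e < 1 ∧
      ∀ q, q ∉ Kor → ∀ x ∈ P (T.H q), f x ∈ c.1.set → e ≤ muD Φ (f x) := by
    intro c
    have hcL : c.1.set ⊆ La := Φ.bf.sub c.1 c.2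
    have hK0 : IsCompact {x ∈ Om | f x ∈ c.1.set} := isCompact_hom hf (isCompact_brick Φ c) hcL
    have hfin := T.finite_tiles hK0 (fun _ h => h.1)
    set X : Set E3 := ⋃ q ∈ {q | q ∉ Kor ∧ (P (T.H q) ∩ {x ∈ Om | f x ∈ c.1.set}).Nonempty},
      (P (T.H q) ∩ {x ∈ Om | f x ∈ c.1.set}) with hX
    have hfin2 : {q | q ∉ Kor ∧ (P (T.H q) ∩ {x ∈ Om | f x ∈ c.1.set}).Nonempty}.Finite :=
      hfin.subset fun q hq => hq.2
    have hXc : IsCompact X := hfin2.isCompact_biUnion fun q _ => hK0.inter_left (isClosed_P _)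
    have hXs : ∀ x ∈ X, x ∈ Om ∧ f x ∈ c.1.set ∧ 0 < muD Φ (f x) := by
      intro x hx
      obtain ⟨q, hq, hxq, hxO, hxc⟩ := mem_iUnion₂.1 hx
      exact ⟨hxO, hxc, (muD_pos Φ hLa hxc).2 (hmiss q hq.1 x hxq c)⟩
    have hcont : ContinuousOn (fun x => muD Φ (f x)) X := by
      obtain ⟨g, a1, a2, a3, a4, a5, a6⟩ := id hf
      exact (pushD Φ hLa).mu_cont.comp (a5.mono fun x hx => (hXs x hx).1)
        fun x hx => hcL (hXs x hx).2.1
    rcases X.eq_empty_or_nonempty with hemp | hne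
    · refine ⟨1 / 2, by norm_num, by norm_num, fun q hq x hx hxc => ?_⟩
      exfalso
      have : x ∈ X := mem_biUnion (show q ∈ {q | q ∉ Kor ∧
        (P (T.H q) ∩ {x ∈ Om | f x ∈ c.1.set}).Nonempty} from ⟨hq, x, hx, T.sub q hx, hxc⟩)
        ⟨hx, T.sub q hx, hxc⟩
      rw [hemp] at this
      exact this
    · obtain ⟨x0, hx0, hmin⟩ := hXc.exists_isMinOn hne hcont
      refine ⟨min (1 / 2) (muD Φ (f x0)), lt_min (by norm_num) (hXs x0 hx0).2.2,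
        lt_of_le_of_lt (min_le_left _ _) (by norm_num), fun q hq x hx hxc => ?_⟩
      refine (min_le_right _ _).trans (hmin ?_)
      exact mem_biUnion (show q ∈ {q | q ∉ Kor ∧
        (P (T.H q) ∩ {x ∈ Om | f x ∈ c.1.set}).Nonempty} from ⟨hq, x, hx, T.sub q hx, hxc⟩)
        ⟨hx, T.sub q hx, hxc⟩
  choose e he using key
  exact ⟨e, fun c => (he c).1, fun c => (he c).2.1, fun q hq x hx c hxc => (he c).2.2 q hq x hx hxc⟩

/-- **MESH0**: off the core tiles the retracted map is on the walls (and equal to `Psi ∘ f`) and all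
coordinates oscillate by at most `Cs R κ1` -/
theorem mesh0_of_fine (hLa : IsOpen La) (hδ : 0 < δ) (hR : 0 < R) (hf : Hom3 f Om La)
    {e : Φ.F → ℝ} (he : ∀ c, 0 < e c) (he1 : ∀ c, e c < 1)
    (hth : ∀ q, q ∉ Kor → ∀ x ∈ P (T.H q), ∀ c : Φ.F, f x ∈ c.1.set → e c ≤ muD Φ (f x))
    {κ1 : ℝ} (hκ1 : Cs 3 δ R * R * κ1 < 1)
    (hfine : ∀ i, i ∉ Kor → ∀ x ∈ P (T.H i), ∀ y ∈ P (T.H i), ∀ c : Φ.F, Φ.Psi (f x) ∈ c.1.set →
      ‖Φ.Psi (f y) - Φ.Psi (f x)‖ ≤ κ1 * c.1.sz) :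
    Mesh0 T (Pc Φ.F) (bc (F := Φ.F)) (RE Φ e) f Kor (Cs 3 δ R * R * κ1) ∧
      ∀ q, q ∉ Kor → ∀ x ∈ P (T.H q), RE Φ e (f x) = Φ.Psi (f x) := by
  have FF := Brk3_582.foam Φ.bf hLa
  have hp := pushD Φ hLa
  have hfm : ∀ x ∈ Om, f x ∈ La := by
    obtain ⟨g, a1, -⟩ := id hf
    exact a1
  have heq : ∀ q, q ∉ Kor → ∀ x ∈ P (T.H q), RE Φ e (f x) = Φ.Psi (f x) := by
    intro q hq x hx
    obtain ⟨c, hc⟩ := FF.cov (f x) (hfm x (T.sub q hx))
    exact RE_eq_Psi Φ hLa he he1 (c := c) hc (hth q hq x hx c hc)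
  have hwall : ∀ q, q ∉ Kor → ∀ x ∈ P (T.H q), ∃ c c', c ≠ c' ∧ Φ.Psi (f x) ∈ Pc Φ.F c ∧
      Φ.Psi (f x) ∈ Pc Φ.F c' := by
    intro q hq x hx
    obtain ⟨c, hc⟩ := FF.cov (f x) (hfm x (T.sub q hx))
    obtain ⟨h1, c', h2, h3⟩ := hp.mem c (f x) hc ((he c).trans_le (hth q hq x hx c hc))
    exact ⟨c, c', h2.symm, h1, h3⟩
  refine ⟨⟨?_, ?_⟩, heq⟩
  · intro q hq x hx
    obtain ⟨c, c', h1, h2, h3⟩ := hwall q hq x hx
    refine ⟨c, c', h1, ?_, ?_⟩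
    · rw [heq q hq x hx]; exact h2
    · rw [heq q hq x hx]; exact h3
  · intro q hq x hx x' hx' a
    obtain ⟨c, c', -, h2, -⟩ := hwall q hq x hx
    unfold va
    rw [heq q hq x hx, heq q hq x' hx']
    have hcard : Fintype.card (Fin 3) = 3 := by simp
    have h := Lsc_965.osc_le Φ.bf hLa hδ hR Φ.cmp (c0 := c) (y := Φ.Psi (f x))
      (y' := Φ.Psi (f x')) h2 (ε := κ1) (by rw [hcard]; exact hκ1)
      (hfine q hq x hx x' hx' c h2) a
    rw [hcard] at h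
    exact h

end Crest.Agent.R096.Vb_965
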