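import Mathlib

/-!
# Dyadic cells of `Fin n → ℝ` with a shift

`Idx n` = (scale `k`, corner `z`, directions `J`); `Dc a σ` closed cell, `Do a σ` open cell.
-/

set_option autoImplicit false
open MeasureTheory Set
open scoped ENNReal

namespace Crest.Agent.R096.Msh_810

variable {n : ℕ}

/-- dyadic position of the coordinate `i` at scale `k`. -/
noncomputable def ps (a : Fin n → ℝ) (k : ℕ) (x : Fin n → ℝ) (i : Fin n) : ℝ :=
  2 ^ k * (x i - a i)

/-- index of a dyadic cell. -/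
@[ext] structure Idx (n : ℕ) where
  /-- scale: side `2^-k`. -/
  k : ℕ
  /-- lower corner. -/
  z : Fin n → ℤ
  /-- directions of the cell. -/
  J : Finset (Fin n)
  deriving DecidableEq

/-- closed dyadic cell. -/
def Dc (a : Fin n → ℝ) (σ : Idx n) : Set (Fin n → ℝ) :=
  {x | ∀ i, (i ∈ σ.J → (σ.z i : ℝ) ≤ ps a σ.k x i ∧ ps a σ.k x i ≤ σ.z i + 1) ∧
    (i ∉ σ.J → ps a σ.k x i = σ.z i)}

/-- open dyadic cell. -/
def Do (a : Fin n → ℝ) (σ : Idx n) : Set (Fin n → ℝ) :=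
  {x | ∀ i, (i ∈ σ.J → (σ.z i : ℝ) < ps a σ.k x i ∧ ps a σ.k x i < σ.z i + 1) ∧
    (i ∉ σ.J → ps a σ.k x i = σ.z i)}

/-- the open dyadic cell of scale `k` through `x`. -/
noncomputable def cellOf (a : Fin n → ℝ) (k : ℕ) (x : Fin n → ℝ) : Idx n :=
  ⟨k, fun i => ⌊ps a k x i⌋, Finset.univ.filter fun i => ps a k x i ≠ ⌊ps a k x i⌋⟩

@[simp] lemma cellOf_k (a : Fin n → ℝ) (k : ℕ) (x : Fin n → ℝ) : (cellOf a k x).k = k := rfl

lemma mem_J_cellOf {a : Fin n → ℝ} {k : ℕ} {x : Fin n → ℝ} {i : Fin n} :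
    i ∈ (cellOf a k x).J ↔ ps a k x i ≠ ⌊ps a k x i⌋ := by
  simp [cellOf]

lemma Do_subset_Dc (a : Fin n → ℝ) (σ : Idx n) : Do a σ ⊆ Dc a σ := fun _ hx i =>
  ⟨fun hi => ⟨((hx i).1 hi).1.le, ((hx i).1 hi).2.le⟩, (hx i).2⟩

lemma mem_Do_cellOf (a : Fin n → ℝ) (k : ℕ) (x : Fin n → ℝ) : x ∈ Do a (cellOf a k x) := by
  intro i
  refine ⟨fun hi => ?_, fun hi => ?_⟩
  · rw [mem_J_cellOf] at hi
    exact ⟨lt_of_le_of_ne (Int.floor_le _) (Ne.symm hi), Int.lt_floor_add_one _⟩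
  · rw [mem_J_cellOf, not_not] at hi
    exact hi

lemma mem_Dc_cellOf (a : Fin n → ℝ) (k : ℕ) (x : Fin n → ℝ) : x ∈ Dc a (cellOf a k x) :=
  Do_subset_Dc _ _ (mem_Do_cellOf a k x)

lemma mem_Do_iff {a : Fin n → ℝ} {σ : Idx n} {x : Fin n → ℝ} :
    x ∈ Do a σ ↔ cellOf a σ.k x = σ := by
  constructor
  · intro hx
    have hz : ∀ i, ⌊ps a σ.k x i⌋ = σ.z i := by
      intro i
      by_cases hi : i ∈ σ.J
      · exact Int.floor_eq_iff.2 ⟨((hx i).1 hi).1.le, ((hx i).1 hi).2⟩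
      · rw [(hx i).2 hi]; exact Int.floor_intCast _
    ext i
    · rfl
    · exact hz i
    · rw [mem_J_cellOf, hz]
      constructor
      · intro h
        by_contra hi
        exact h ((hx i).2 hi)
      · intro hi
        exact ((hx i).1 hi).1.ne'
  · intro h
    have := mem_Do_cellOf a σ.k x
    rwa [h] at this

lemma ps_mul (a : Fin n → ℝ) {k k' : ℕ} (h : k ≤ k') (x : Fin n → ℝ) (i : Fin n) :
    ps a k' x i = ((2 ^ (k' - k) : ℤ) : ℝ) * ps a k x i := by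
  have h1 : k' = (k' - k) + k := (Nat.sub_add_cancel h).symm
  unfold ps
  conv_lhs => rw [h1]
  rw [pow_add]
  push_cast
  ring

/-- a finer open cell meeting a coarser closed cell is contained in it. -/
lemma nest {a : Fin n → ℝ} {σ τ : Idx n} (h : σ.k ≤ τ.k) {x : Fin n → ℝ} (hx : x ∈ Do a τ)
    (hx' : x ∈ Dc a σ) : Dc a τ ⊆ Dc a σ := by
  intro y hy i
  obtain ⟨hx1, hx2⟩ := hx i
  obtain ⟨hs1, hs2⟩ := hx' i
  obtain ⟨hy1, hy2⟩ := hy i
  have hN : (0 : ℤ) < 2 ^ (τ.k - σ.k) := by positivity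
  have hNr : (0 : ℝ) < ((2 ^ (τ.k - σ.k) : ℤ) : ℝ) := by exact_mod_cast hN
  have ex := ps_mul a h x i
  have ey := ps_mul a h y i
  set N : ℤ := 2 ^ (τ.k - σ.k) with hNdef
  by_cases hj : i ∈ τ.J
  · obtain ⟨u1, u2⟩ := hx1 hj
    obtain ⟨v1, v2⟩ := hy1 hj
    by_cases hi : i ∈ σ.J
    · obtain ⟨w1, w2⟩ := hs1 hi
      refine ⟨fun _ => ?_, fun hh => absurd hi hh⟩
      have k1 : N * σ.z i ≤ τ.z i := by
        have : ((N * σ.z i : ℤ) : ℝ) < ((τ.z i + 1 : ℤ) : ℝ) := by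
          push_cast
          calc (N : ℝ) * (σ.z i : ℝ) ≤ N * ps a σ.k x i := by
                exact mul_le_mul_of_nonneg_left w1 hNr.le
            _ = ps a τ.k x i := ex.symm
            _ < τ.z i + 1 := u2
        have := Int.cast_lt.1 this
        omega
      have k2 : τ.z i + 1 ≤ N * (σ.z i + 1) := by
        have : ((τ.z i : ℤ) : ℝ) < ((N * (σ.z i + 1) : ℤ) : ℝ) := by
          push_cast
          calc (τ.z i : ℝ) < ps a τ.k x i := u1
            _ = N * ps a σ.k x i := ex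
            _ ≤ (N : ℝ) * ((σ.z i : ℝ) + 1) := mul_le_mul_of_nonneg_left w2 hNr.le
        have := Int.cast_lt.1 this
        omega
      have k1r : (N : ℝ) * (σ.z i : ℝ) ≤ τ.z i := by exact_mod_cast k1
      have k2r : (τ.z i : ℝ) + 1 ≤ (N : ℝ) * ((σ.z i : ℝ) + 1) := by exact_mod_cast k2
      rw [ey] at v1 v2
      constructor
      · exact le_of_mul_le_mul_left (k1r.trans v1) hNr
      · exact le_of_mul_le_mul_left (v2.trans k2r) hNr
    · exfalso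
      have hs := hs2 hi
      rw [hs] at ex
      rw [ex] at u1 u2
      have a1 : (τ.z i : ℝ) < ((N * σ.z i : ℤ) : ℝ) := by push_cast; exact u1
      have a2 : ((N * σ.z i : ℤ) : ℝ) < ((τ.z i + 1 : ℤ) : ℝ) := by push_cast; exact u2
      have b1 := Int.cast_lt.1 a1
      have b2 := Int.cast_lt.1 a2
      omega
  · have hxy : ps a σ.k y i = ps a σ.k x i := by
      have e1 := hx2 hj
      have e2 := hy2 hj
      rw [ex] at e1
      rw [ey] at e2
      exact mul_left_cancel₀ hNr.ne' (e2.trans e1.symm)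
    rw [hxy]
    exact hx' i

lemma J_anti (a : Fin n → ℝ) {k k' : ℕ} (h : k ≤ k') (x : Fin n → ℝ) :
    (cellOf a k' x).J ⊆ (cellOf a k x).J := by
  intro i hi
  rw [mem_J_cellOf] at hi ⊢
  intro h0
  apply hi
  rw [ps_mul a h x i, h0, ← Int.cast_mul, Int.floor_intCast]

/-- a point of a closed cell: its own open cell of the same scale is a face. -/
lemma J_subset_of_mem {a : Fin n → ℝ} {σ : Idx n} {x : Fin n → ℝ} (hx : x ∈ Dc a σ) :
    (cellOf a σ.k x).J ⊆ σ.J := by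
  intro i hi
  rw [mem_J_cellOf] at hi
  by_contra h
  apply hi
  rw [(hx i).2 h, Int.floor_intCast]

lemma mem_Do_of_J_eq {a : Fin n → ℝ} {σ : Idx n} {x : Fin n → ℝ} (hx : x ∈ Dc a σ)
    (hJ : (cellOf a σ.k x).J = σ.J) : x ∈ Do a σ := by
  intro i
  refine ⟨fun hi => ?_, (hx i).2⟩
  obtain ⟨h1, h2⟩ := (hx i).1 hi
  have h3 : ps a σ.k x i ≠ ⌊ps a σ.k x i⌋ := by
    rw [← hJ, mem_J_cellOf] at hi
    exact hi
  refine ⟨lt_of_le_of_ne h1 ?_, lt_of_le_of_ne h2 ?_⟩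
  · intro h
    apply h3
    rw [← h, Int.floor_intCast]
  · intro h
    apply h3
    rw [h]
    have : ((σ.z i : ℝ) + 1) = ((σ.z i + 1 : ℤ) : ℝ) := by push_cast; rfl
    rw [this, Int.floor_intCast]

lemma J_ssubset_of_mem {a : Fin n → ℝ} {σ : Idx n} {x : Fin n → ℝ} (hx : x ∈ Dc a σ)
    (hx' : x ∉ Do a σ) : (cellOf a σ.k x).J ⊂ σ.J := by
  refine Finset.ssubset_iff_subset_ne.2 ⟨J_subset_of_mem hx, fun h => hx' (mem_Do_of_J_eq hx h)⟩

/-- two points of an open cell lie in the same closed cells of coarser scales. -/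
lemma same_closed {a : Fin n → ℝ} {τ : Idx n} {x y : Fin n → ℝ} (hx : x ∈ Do a τ)
    (hy : y ∈ Dc a τ) {σ : Idx n} (h : σ.k ≤ τ.k) (hσ : x ∈ Dc a σ) : y ∈ Dc a σ :=
  nest h hx hσ hy

/-- the closed dyadic cube. -/
def Cu (a : Fin n → ℝ) (k : ℕ) (z : Fin n → ℤ) : Set (Fin n → ℝ) := Dc a ⟨k, z, Finset.univ⟩

lemma mem_Cu {a : Fin n → ℝ} {k : ℕ} {z : Fin n → ℤ} {x : Fin n → ℝ} :
    x ∈ Cu a k z ↔ ∀ i, (z i : ℝ) ≤ ps a k x i ∧ ps a k x i ≤ z i + 1 := by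
  simp [Cu, Dc]

lemma mem_Cu_floor (a : Fin n → ℝ) (k : ℕ) (x : Fin n → ℝ) :
    x ∈ Cu a k (fun i => ⌊ps a k x i⌋) :=
  mem_Cu.2 fun i => ⟨Int.floor_le _, (Int.lt_floor_add_one _).le⟩

lemma Cu_parent (a : Fin n → ℝ) (k : ℕ) (z : Fin n → ℤ) :
    Cu a (k + 1) z ⊆ Cu a k (fun i => z i / 2) := by
  intro x hx
  rw [mem_Cu] at hx ⊢
  intro i
  obtain ⟨h1, h2⟩ := hx i
  have e : ps a (k + 1) x i = 2 * ps a k x i := by unfold ps; rw [pow_succ]; ring
  rw [e] at h1 h2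
  have e1 : (2 * (z i / 2) : ℤ) ≤ z i := by omega
  have e2 : z i + 1 ≤ 2 * (z i / 2) + 2 := by omega
  have e1r : (2 : ℝ) * ((z i / 2 : ℤ) : ℝ) ≤ z i := by exact_mod_cast e1
  have e2r : (z i : ℝ) + 1 ≤ 2 * ((z i / 2 : ℤ) : ℝ) + 2 := by exact_mod_cast e2
  constructor
  · linarith
  · linarith

/-- every point of a cube of scale `k` lies in a cube of scale `k+1` inside it. -/
lemma exists_child {a : Fin n → ℝ} {k : ℕ} {z : Fin n → ℤ} {x : Fin n → ℝ}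
    (hx : x ∈ Cu a k z) : ∃ z' : Fin n → ℤ, x ∈ Cu a (k + 1) z' ∧ (fun i => z' i / 2) = z := by
  rw [mem_Cu] at hx
  have e : ∀ i, ps a (k + 1) x i = 2 * ps a k x i := by
    intro i; unfold ps; rw [pow_succ]; ring
  refine ⟨fun i => if ps a k x i ≤ z i + 1 / 2 then 2 * z i else 2 * z i + 1, ?_, ?_⟩
  · rw [mem_Cu]
    intro i
    obtain ⟨h1, h2⟩ := hx i
    rw [e i]
    by_cases h : ps a k x i ≤ z i + 1 / 2
    · simp only [h, if_true]
      push_cast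
      constructor <;> linarith
    · simp only [h, if_false]
      push_cast
      push Not at h
      constructor <;> linarith
  · funext i
    by_cases h : ps a k x i ≤ z i + 1 / 2
    · simp only [h, if_true]; omega
    · simp only [h, if_false]; omega

lemma dist_le_of_mem_Cu {a : Fin n → ℝ} {k : ℕ} {z : Fin n → ℤ} {x y : Fin n → ℝ}
    (hx : x ∈ Cu a k z) (hy : y ∈ Cu a k z) : (2 : ℝ) ^ k * dist x y ≤ 1 := by
  rw [mem_Cu] at hx hy
  have h2 : (0 : ℝ) < 2 ^ k := by positivity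
  have : dist x y ≤ (2 ^ k)⁻¹ := by
    rw [dist_pi_le_iff (by positivity)]
    intro i
    obtain ⟨h1, h3⟩ := hx i
    obtain ⟨h4, h5⟩ := hy i
    unfold ps at h1 h3 h4 h5
    have e1 : (2 : ℝ) ^ k * (x i - y i) ≤ 1 := by
      have : (2 : ℝ) ^ k * (x i - y i) = 2 ^ k * (x i - a i) - 2 ^ k * (y i - a i) := by ring
      linarith
    have e2 : (2 : ℝ) ^ k * (y i - x i) ≤ 1 := by
      have : (2 : ℝ) ^ k * (y i - x i) = 2 ^ k * (y i - a i) - 2 ^ k * (x i - a i) := by ring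
      linarith
    rw [Real.dist_eq, abs_le, inv_eq_one_div]
    constructor
    · have := (le_div_iff₀' h2).2 e2
      linarith
    · exact (le_div_iff₀' h2).2 e1
  calc (2 : ℝ) ^ k * dist x y ≤ 2 ^ k * (2 ^ k)⁻¹ := mul_le_mul_of_nonneg_left this h2.le
    _ = 1 := mul_inv_cancel₀ h2.ne'

end Crest.Agent.R096.Msh_810
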