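import Crest.Agent.R096.Msh2_810

/-!
# The Whitney mesh: local finiteness, top cells, size functions
-/

set_option autoImplicit false
open MeasureTheory Set
open scoped ENNReal

namespace Crest.Agent.R096.Msh_810

variable {n : ℕ}

lemma Idx.finite_bounded (k0 m : ℕ) :
    {σ : Idx n | σ.k ≤ k0 ∧ ∀ i, |σ.z i| ≤ (m : ℤ)}.Finite := by
  let f : Idx n → ℕ × (Fin n → ℤ) × Finset (Fin n) := fun σ => (σ.k, σ.z, σ.J)
  have hf : Function.Injective f := by
    intro σ τ h
    simp only [f, Prod.mk.injEq] at h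
    exact Idx.ext h.1 h.2.1 h.2.2
  have hS : ((Set.Iic k0) ×ˢ ((Set.Icc (fun _ => -(m : ℤ)) (fun _ => (m : ℤ)) :
      Set (Fin n → ℤ)) ×ˢ (Set.univ : Set (Finset (Fin n))))).Finite :=
    (Set.finite_Iic k0).prod ((Set.finite_Icc _ _).prod Set.finite_univ)
  refine (hS.preimage hf.injOn).subset ?_
  rintro σ ⟨h1, h2⟩
  simp only [f, mem_preimage, mem_prod, mem_Iic, mem_Icc, mem_univ, and_true]
  refine ⟨h1, fun i => ?_, fun i => ?_⟩
  · exact (abs_le.1 (h2 i)).1
  · exact (abs_le.1 (h2 i)).2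

/-- finitely many dyadic cells of bounded scale meet a bounded set. -/
lemma finite_meet (a x : Fin n → ℝ) (r : ℝ) (k0 : ℕ) :
    {σ : Idx n | σ.k ≤ k0 ∧ (Dc a σ ∩ Metric.ball x r).Nonempty}.Finite := by
  obtain ⟨m, hm⟩ := exists_nat_ge ((2 : ℝ) ^ k0 * (dist x a + r) + 1)
  refine (Idx.finite_bounded k0 m).subset ?_
  rintro σ ⟨h1, y, hy, hy'⟩
  refine ⟨h1, fun i => ?_⟩
  have hr : dist y x < r := hy'
  have h2 : |y i - a i| ≤ dist x a + r := by
    calc |y i - a i| = dist (y i) (a i) := (Real.dist_eq _ _).symm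
      _ ≤ dist y a := dist_le_pi_dist y a i
      _ ≤ dist y x + dist x a := dist_triangle _ _ _
      _ ≤ dist x a + r := by linarith
  have h3 : |ps a σ.k y i| ≤ 2 ^ k0 * (dist x a + r) := by
    unfold ps
    rw [abs_mul, abs_of_pos (by positivity : (0 : ℝ) < 2 ^ σ.k)]
    have h4 : (2 : ℝ) ^ σ.k ≤ 2 ^ k0 := pow_le_pow_right₀ one_le_two h1
    exact mul_le_mul h4 h2 (abs_nonneg _) (by positivity)
  have h5 : |(σ.z i : ℝ) - ps a σ.k y i| ≤ 1 := by
    by_cases hi : i ∈ σ.J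
    · obtain ⟨u, v⟩ := (hy i).1 hi
      rw [abs_le]
      constructor <;> linarith
    · rw [(hy i).2 hi, sub_self, abs_zero]
      exact zero_le_one
  have h6 : |(σ.z i : ℝ)| ≤ m := by
    have : |(σ.z i : ℝ)| ≤ |(σ.z i : ℝ) - ps a σ.k y i| + |ps a σ.k y i| := by
      have := abs_add_le ((σ.z i : ℝ) - ps a σ.k y i) (ps a σ.k y i)
      rwa [sub_add_cancel] at this
    linarith
  exact_mod_cast h6

variable {D : Dat n}

lemma Cel.k_lt_of {σ : Cel D} {y : Fin n → ℝ} (hy : y ∈ σ.c) {c : ℝ} (hc : 0 < c)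
    (hcy : c ≤ D.ρ y) {k0 : ℕ} (hk : (2 * D.C + 2) / c ≤ 2 ^ k0) : σ.1.k < k0 := by
  have h1 := (σ.size hy).2
  by_contra h
  push Not at h
  have h2 : (2 : ℝ) ^ k0 ≤ 2 ^ σ.1.k := pow_le_pow_right₀ one_le_two h
  rw [div_le_iff₀ hc] at hk
  have h3 : (2 : ℝ) ^ k0 * c ≤ 2 ^ σ.1.k * D.ρ y :=
    mul_le_mul h2 hcy hc.le (by positivity)
  linarith

/-- (M4) the mesh is locally finite in `Om`. -/
theorem Cel.locallyFinite (x : Fin n → ℝ) (hx : x ∈ D.Om) :
    ∃ r > 0, {σ : Cel D | (σ.c ∩ Metric.ball x r).Nonempty}.Finite := by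
  have hx0 : 0 < D.ρ x := hx
  refine ⟨D.ρ x / 2, by positivity, ?_⟩
  obtain ⟨k0, hk0⟩ := pow_unbounded_of_one_lt ((2 * D.C + 2) / (D.ρ x / 2))
    (one_lt_two : (1 : ℝ) < 2)
  have hfin := finite_meet D.a x (D.ρ x / 2) k0
  refine ((hfin.preimage (f := Subtype.val) Subtype.val_injective.injOn)).subset ?_
  rintro σ ⟨y, hy, hy'⟩
  refine ⟨(Cel.k_lt_of hy (c := D.ρ x / 2) (by positivity) ?_ hk0.le).le, y, hy, hy'⟩
  have h1 := D.lip x y
  have h2 : dist x y < D.ρ x / 2 := by rw [dist_comm]; exact hy'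
  linarith

/-- only finitely many cells meet a compact subset of `Om`. -/
theorem Cel.finite_of_compact {S : Set (Fin n → ℝ)} (hS : IsCompact S) (hSO : S ⊆ D.Om) :
    {σ : Cel D | (σ.c ∩ S).Nonempty}.Finite := by
  choose! r hr hfin using fun x (hx : x ∈ D.Om) => Cel.locallyFinite (D := D) x hx
  obtain ⟨t, ht, hcov⟩ := hS.elim_nhds_subcover (fun x => Metric.ball x (r x))
    (fun x hx => Metric.ball_mem_nhds x (hr x (hSO hx)))
  refine (t.finite_toSet.biUnion (t := fun x => {σ : Cel D | (σ.c ∩ Metric.ball x (r x)).Nonempty})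
    fun x hx => hfin x (hSO (ht x hx))).subset ?_
  rintro σ ⟨y, hy, hyS⟩
  obtain ⟨x, hx, hy'⟩ := mem_iUnion₂.1 (hcov hyS)
  exact mem_iUnion₂.2 ⟨x, hx, y, hy, hy'⟩

lemma isClosed_Dc (a : Fin n → ℝ) (σ : Idx n) : IsClosed (Dc a σ) := by
  have hc : ∀ i, Continuous fun x => ps a σ.k x i := fun i => by unfold ps; fun_prop
  have : Dc a σ = ⋂ i, {x | (i ∈ σ.J → (σ.z i : ℝ) ≤ ps a σ.k x i ∧ ps a σ.k x i ≤ σ.z i + 1) ∧
      (i ∉ σ.J → ps a σ.k x i = σ.z i)} := by
    ext x; simp [Dc]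
  rw [this]
  refine isClosed_iInter fun i => ?_
  by_cases hi : i ∈ σ.J
  · simp only [hi, forall_true_left, not_true_eq_false, IsEmpty.forall_iff, and_true]
    exact (isClosed_le continuous_const (hc i)).inter (isClosed_le (hc i) continuous_const)
  · simp only [hi, IsEmpty.forall_iff, not_false_eq_true, forall_true_left, true_and]
    exact isClosed_eq (hc i) continuous_const

lemma isCompact_Dc (a : Fin n → ℝ) (σ : Idx n) : IsCompact (Dc a σ) := by
  refine Metric.isCompact_of_isClosed_isBounded (isClosed_Dc a σ) ?_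
  obtain ⟨x0, hx0⟩ := Dc_nonempty a σ
  rw [Metric.isBounded_iff]
  refine ⟨1, fun x hx y hy => ?_⟩
  have hsub : Dc a σ ⊆ Cu a σ.k σ.z := by
    intro x hx
    rw [mem_Cu]
    intro i
    by_cases hi : i ∈ σ.J
    · exact (hx i).1 hi
    · rw [(hx i).2 hi]; constructor <;> linarith
  have h1 := dist_le_of_mem_Cu (hsub hx) (hsub hy)
  have h2 : (1 : ℝ) ≤ 2 ^ σ.k := one_le_pow₀ one_le_two
  nlinarith [dist_nonneg (x := x) (y := y)]

lemma Cel.isClosed_c (σ : Cel D) : IsClosed σ.c := isClosed_Dc _ _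

lemma Cel.isCompact_c (σ : Cel D) : IsCompact σ.c := isCompact_Dc _ _

theorem Cel.finite_below (τ : Cel D) : {σ : Cel D | σ ≤ τ}.Finite := by
  refine (Cel.finite_of_compact (D := D) τ.isCompact_c τ.c_subset_Om).subset ?_
  intro σ (h : σ ≤ τ)
  obtain ⟨x, hx⟩ := σ.o_nonempty
  exact ⟨x, σ.o_subset_c hx, h (σ.o_subset_c hx)⟩

/-- the closed cells that touch a given closed cell. -/
theorem Cel.finite_touch (τ : Cel D) : {σ : Cel D | (σ.c ∩ τ.c).Nonempty}.Finite :=
  Cel.finite_of_compact (D := D) τ.isCompact_c τ.c_subset_Om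

lemma Dc_subset_Cu (a : Fin n → ℝ) (σ : Idx n) : Dc a σ ⊆ Cu a σ.k σ.z := by
  intro x hx
  rw [mem_Cu]
  intro i
  by_cases hi : i ∈ σ.J
  · exact (hx i).1 hi
  · rw [(hx i).2 hi]; constructor <;> linarith

/-- the diameter of a cell is at most `2^-k ≤ ρ / C`. -/
lemma Cel.dist_le (σ : Cel D) {x y : Fin n → ℝ} (hx : x ∈ σ.c) (hy : y ∈ σ.c) :
    2 ^ σ.1.k * dist x y ≤ 1 :=
  dist_le_of_mem_Cu (Dc_subset_Cu _ _ hx) (Dc_subset_Cu _ _ hy)

lemma Cel.dist_le' (σ : Cel D) {x y : Fin n → ℝ} (hx : x ∈ σ.c) (hy : y ∈ σ.c) :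
    D.C * dist x y ≤ D.ρ x := by
  have h1 := σ.dist_le hx hy
  have h2 := (σ.size hx).1
  have h3 : (0 : ℝ) < 2 ^ σ.1.k := by positivity
  have h4 : D.C * dist x y ≤ (2 ^ σ.1.k * D.ρ x) * dist x y :=
    mul_le_mul_of_nonneg_right h2 dist_nonneg
  have h5 : (2 ^ σ.1.k * D.ρ x) * dist x y = D.ρ x * (2 ^ σ.1.k * dist x y) := by ring
  rw [h5] at h4
  exact h4.trans (mul_le_of_le_one_right (D.nonneg x) h1)

/-- every mesh cell is a face of a mesh cube (dimension `n`) of the same scale. -/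
theorem Cel.exists_top (σ : Cel D) :
    ∃ τ : Cel D, τ.1.J = Finset.univ ∧ τ.1.k = σ.1.k ∧ σ ≤ τ := by
  obtain ⟨x, hx⟩ := σ.o_nonempty
  have hx0 : 0 < D.ρ x := σ.c_subset_Om (σ.o_subset_c hx)
  have hK : K D x = σ.1.k := σ.2.K_eq hx
  obtain ⟨m, hm⟩ : ∃ m, K D x = m + 1 := ⟨K D x - 1, by have := K_pos hx0; omega⟩
  have h1 : m ∉ gd D x := pred_notMem hx0 (by omega)
  have h2 : ∃ z, x ∈ Cu D.a m z ∧ ¬ Adm D m z := by
    by_contra hcon
    push Not at hcon
    exact h1 hcon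
  obtain ⟨z, hz, hAdm⟩ := h2
  obtain ⟨z', hz', hzz⟩ := exists_child hz
  obtain ⟨y, hy⟩ := Dc_nonempty D.a ⟨m + 1, z', Finset.univ⟩
  have hAdm' : Adm D (m + 1) z' := by
    have := K_mem hx0
    rw [hm] at this
    exact this z' hz'
  have hy' : y ∈ Cu D.a (m + 1) z' := Do_subset_Dc _ _ hy
  have hy0 : 0 < D.ρ y := by
    have h3 := hAdm' y hy'
    have h4 := D.C_pos
    by_contra h5
    rw [le_antisymm (not_lt.1 h5) (D.nonneg y), mul_zero] at h3
    linarith
  have hKy : K D y = m + 1 := by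
    refine le_antisymm ?_ ?_
    · rw [K_le_iff hy0]
      intro w hw
      have hyo := mem_Do_iff.1 hy
      have : w = z' := by
        funext i
        have e1 := (mem_Cu.1 hw) i
        have e2 := (hy i).1 (Finset.mem_univ i)
        simp only at e2
        have e3 : (w i : ℝ) < z' i + 1 := lt_of_le_of_lt e1.1 e2.2
        have e4 : (z' i : ℝ) < w i + 1 := lt_of_lt_of_le e2.1 e1.2
        have e5 : w i < z' i + 1 := by exact_mod_cast e3
        have e6 : z' i < w i + 1 := by exact_mod_cast e4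
        omega
      rw [this]
      exact hAdm'
    · by_contra hlt
      have h3 : m ∈ gd D y := gd_mono (K_mem hy0) (by omega)
      apply hAdm
      apply h3
      have := Cu_parent D.a m z' hy'
      rwa [hzz] at this
  refine ⟨⟨⟨m + 1, z', Finset.univ⟩, y, hy, hy0, hKy⟩, rfl, ?_, ?_⟩
  · change m + 1 = σ.1.k
    omega
  · exact Cel.le_of_mem hx hz'

/-- **size functions**: below every positive continuous function there is a 1-Lipschitz one
with positivity set exactly `Ω`. -/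
theorem exists_size {Ω : Set (Fin n → ℝ)} (hΩ : IsOpen Ω) (δ : (Fin n → ℝ) → ℝ)
    (hδ : ∀ x ∈ Ω, 0 < δ x) (hc : ContinuousOn δ Ω) :
    ∃ ρ : (Fin n → ℝ) → ℝ, (∀ x y, ρ x ≤ ρ y + dist x y) ∧ (∀ x, 0 ≤ ρ x) ∧ (∀ x, ρ x ≤ 1) ∧
      (∀ x, 0 < ρ x ↔ x ∈ Ω) ∧ (∀ x ∈ Ω, ρ x ≤ δ x) ∧ (∀ x, ∀ y ∉ Ω, ρ x ≤ dist x y) := by
  classical
  set m : (Fin n → ℝ) → ℝ := fun y => if y ∈ Ω then min 1 (δ y) else 0 with hm
  have hm0 : ∀ y, 0 ≤ m y := by
    intro y
    by_cases hy : y ∈ Ω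
    · simp only [hm, hy, if_true]
      exact le_min zero_le_one (hδ y hy).le
    · simp [hm, hy]
  have hm1 : ∀ y, m y ≤ 1 := by
    intro y
    by_cases hy : y ∈ Ω
    · simp only [hm, hy, if_true]
      exact min_le_left _ _
    · simp [hm, hy]
  set ρ : (Fin n → ℝ) → ℝ := fun x => ⨅ y, (m y + dist x y) with hρ
  have hbdd : ∀ x, BddBelow (Set.range fun y => m y + dist x y) := by
    intro x
    refine ⟨0, ?_⟩
    rintro _ ⟨y, rfl⟩
    exact add_nonneg (hm0 y) dist_nonneg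
  have hle : ∀ x y, ρ x ≤ m y + dist x y := fun x y => ciInf_le (hbdd x) y
  have hlem : ∀ x, ρ x ≤ m x := fun x => by simpa using hle x x
  have hpos : ∀ x ∈ Ω, 0 < ρ x := by
    intro x hx
    have hcx : ContinuousAt δ x := (hc x hx).continuousAt (hΩ.mem_nhds hx)
    have h1 : ∀ᶠ y in nhds x, δ x / 2 < δ y :=
      hcx.eventually (lt_mem_nhds (by linarith [hδ x hx]))
    have h2 := h1.and (hΩ.mem_nhds hx)
    obtain ⟨r, hr, hball⟩ := Metric.eventually_nhds_iff.1 h2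
    have hmin : 0 < min (min 1 (δ x / 2)) r := by
      have := hδ x hx
      positivity
    refine lt_of_lt_of_le hmin (le_ciInf fun y => ?_)
    by_cases hy : dist y x < r
    · obtain ⟨h3, h4⟩ := hball hy
      have h4' : y ∈ Ω := h4
      have : m y = min 1 (δ y) := by simp [hm, h4']
      rw [this]
      have h5 : min 1 (δ x / 2) ≤ min 1 (δ y) := min_le_min le_rfl h3.le
      have := dist_nonneg (x := x) (y := y)
      have h6 : min (min 1 (δ x / 2)) r ≤ min 1 (δ x / 2) := min_le_left _ _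
      linarith
    · push Not at hy
      have h6 : min (min 1 (δ x / 2)) r ≤ r := min_le_right _ _
      have := hm0 y
      rw [dist_comm] at hy
      linarith
  refine ⟨ρ, ?_, ?_, ?_, ?_, ?_, ?_⟩
  · intro x y
    have : ∀ w, ρ x - dist x y ≤ m w + dist y w := by
      intro w
      have h1 := hle x w
      have h2 := dist_triangle x y w
      linarith
    have := le_ciInf this
    have h3 : ρ y = ⨅ w, (m w + dist y w) := rfl
    linarith
  · exact fun x => le_ciInf fun y => add_nonneg (hm0 y) dist_nonneg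
  · exact fun x => (hlem x).trans (hm1 x)
  · intro x
    refine ⟨fun h => ?_, hpos x⟩
    by_contra hx
    have : m x = 0 := by simp [hm, hx]
    have := hlem x
    linarith
  · intro x hx
    refine (hlem x).trans ?_
    simp only [hm, hx, if_true]
    exact min_le_right _ _
  · intro x y hy
    have h1 := hle x y
    have : m y = 0 := by simp [hm, hy]
    linarith

end Crest.Agent.R096.Msh_810
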