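import Crest.Agent.R096.Msh3_810
import Crest.Agent.R096.Ce2_537

/-!
# The Whitney mesh is a complex of PL balls (`Cplx` of 537)
-/

set_option autoImplicit false
open MeasureTheory Set
open scoped ENNReal

namespace Crest.Agent.R096.Msh_810

open Crest.Agent.R096.Ce_537

variable {n : ℕ}

section Box

variable (a : Fin n → ℝ) (σ : Idx n)

/-- the index of a direction. -/
noncomputable def ix : Fin σ.J.card ≃ σ.J := (σ.J.orderIsoOfFin rfl).toEquiv

/-- linear part of the chart. -/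
noncomputable def chL : (Fin σ.J.card → ℝ) →ₗ[ℝ] (Fin n → ℝ) :=
  LinearMap.pi fun i =>
    if h : i ∈ σ.J then (1 / 2 ^ (σ.k + 1) : ℝ) • LinearMap.proj ((ix σ).symm ⟨i, h⟩) else 0

/-- centre of the cell. -/
noncomputable def ctr : Fin n → ℝ := fun i =>
  a i + (σ.z i + if i ∈ σ.J then 1 / 2 else 0) / 2 ^ σ.k

/-- chart. -/
noncomputable def ch (u : Fin σ.J.card → ℝ) : Fin n → ℝ := chL σ u + ctr a σ

/-- linear part of the inverse chart. -/
noncomputable def chM : (Fin n → ℝ) →ₗ[ℝ] (Fin σ.J.card → ℝ) :=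
  LinearMap.pi fun j => (2 ^ (σ.k + 1) : ℝ) • LinearMap.proj ((ix σ j : Fin n))

/-- inverse chart. -/
noncomputable def chInv (x : Fin n → ℝ) : Fin σ.J.card → ℝ := chM σ x + (- chM σ (ctr a σ))

lemma chL_apply_mem (u : Fin σ.J.card → ℝ) {i : Fin n} (h : i ∈ σ.J) :
    chL σ u i = (1 / 2 ^ (σ.k + 1)) * u ((ix σ).symm ⟨i, h⟩) := by
  simp [chL, h]

lemma chL_apply_notMem (u : Fin σ.J.card → ℝ) {i : Fin n} (h : i ∉ σ.J) :
    chL σ u i = 0 := by
  simp [chL, h]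

lemma chM_apply (x : Fin n → ℝ) (j : Fin σ.J.card) :
    chM σ x j = 2 ^ (σ.k + 1) * x (ix σ j) := by
  simp [chM]

lemma ch_ps_mem (u : Fin σ.J.card → ℝ) {i : Fin n} (h : i ∈ σ.J) :
    ps a σ.k (ch a σ u) i = σ.z i + (u ((ix σ).symm ⟨i, h⟩) + 1) / 2 := by
  have h2 : (2 : ℝ) ^ σ.k ≠ 0 := by positivity
  unfold ps ch ctr
  simp only [Pi.add_apply]
  rw [chL_apply_mem σ u h, pow_succ, if_pos h]
  field_simp
  ring

lemma ch_ps_notMem (u : Fin σ.J.card → ℝ) {i : Fin n} (h : i ∉ σ.J) :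
    ps a σ.k (ch a σ u) i = σ.z i := by
  have h2 : (2 : ℝ) ^ σ.k ≠ 0 := by positivity
  unfold ps ch ctr
  simp only [Pi.add_apply]
  rw [chL_apply_notMem σ u h, if_neg h]
  field_simp
  ring

lemma chInv_apply (x : Fin n → ℝ) (j : Fin σ.J.card) :
    chInv a σ x j = 2 * (ps a σ.k x (ix σ j) - σ.z (ix σ j)) - 1 := by
  have h2 : (2 : ℝ) ^ σ.k ≠ 0 := by positivity
  have hm : ((ix σ j : Fin n)) ∈ σ.J := (ix σ j).2
  unfold chInv
  simp only [Pi.add_apply, Pi.neg_apply]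
  rw [chM_apply, chM_apply]
  unfold ctr ps
  rw [if_pos hm, pow_succ]
  field_simp
  ring

lemma ch_mem_Dc {u : Fin σ.J.card → ℝ} (hu : ‖u‖ ≤ 1) : ch a σ u ∈ Dc a σ := by
  intro i
  refine ⟨fun h => ?_, fun h => ch_ps_notMem a σ u h⟩
  rw [ch_ps_mem a σ u h]
  have h1 : |u ((ix σ).symm ⟨i, h⟩)| ≤ 1 := (norm_le_pi_norm u _).trans hu
  obtain ⟨h3, h4⟩ := abs_le.1 h1
  constructor <;> linarith

lemma ch_mem_Do_iff {u : Fin σ.J.card → ℝ} : ch a σ u ∈ Do a σ ↔ ‖u‖ < 1 := by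
  rw [pi_norm_lt_iff zero_lt_one]
  constructor
  · intro h j
    have h1 := (h (ix σ j)).1 (ix σ j).2
    rw [ch_ps_mem a σ u (ix σ j).2] at h1
    simp only [Subtype.coe_eta, Equiv.symm_apply_apply] at h1
    rw [Real.norm_eq_abs, abs_lt]
    constructor <;> linarith [h1.1, h1.2]
  · intro h i
    refine ⟨fun hi => ?_, fun hi => ch_ps_notMem a σ u hi⟩
    rw [ch_ps_mem a σ u hi]
    have h1 := h ((ix σ).symm ⟨i, hi⟩)
    rw [Real.norm_eq_abs, abs_lt] at h1
    constructor <;> linarith [h1.1, h1.2]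

lemma chInv_ch (u : Fin σ.J.card → ℝ) : chInv a σ (ch a σ u) = u := by
  funext j
  rw [chInv_apply, ch_ps_mem a σ u (ix σ j).2]
  simp only [Subtype.coe_eta, Equiv.symm_apply_apply]
  ring

lemma norm_chInv_le {x : Fin n → ℝ} (hx : x ∈ Dc a σ) : ‖chInv a σ x‖ ≤ 1 := by
  rw [pi_norm_le_iff_of_nonneg zero_le_one]
  intro j
  rw [chInv_apply, Real.norm_eq_abs, abs_le]
  obtain ⟨h1, h2⟩ := (hx (ix σ j)).1 (ix σ j).2
  constructor <;> linarith

lemma ch_chInv {x : Fin n → ℝ} (hx : x ∈ Dc a σ) : ch a σ (chInv a σ x) = x := by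
  have h2 : (2 : ℝ) ^ σ.k ≠ 0 := by positivity
  funext i
  have key : ps a σ.k (ch a σ (chInv a σ x)) i = ps a σ.k x i := by
    by_cases hi : i ∈ σ.J
    · rw [ch_ps_mem a σ _ hi, chInv_apply]
      simp only [Equiv.apply_symm_apply]
      ring
    · rw [ch_ps_notMem a σ _ hi, (hx i).2 hi]
  unfold ps at key
  have := mul_left_cancel₀ h2 key
  linarith

/-- closed dyadic cells are PL balls. -/
theorem isBall_Dc : IsBall σ.J.card (Dc a σ) (Dc a σ \ Do a σ) := by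
  refine ⟨⟨ch a σ, chInv a σ, ?_, ?_, ?_, ?_, ?_, ?_⟩, ?_⟩
  · have := plOn_affine ((chL σ).toAffineMap + AffineMap.const ℝ _ (ctr a σ)) (cube σ.J.card)
    exact this
  · have := plOn_affine ((chM σ).toAffineMap + AffineMap.const ℝ _ (- chM σ (ctr a σ))) (Dc a σ)
    exact this
  · intro u hu
    exact ch_mem_Dc a σ (by simpa using hu)
  · intro x hx
    simpa using norm_chInv_le a σ hx
  · intro u _
    exact chInv_ch a σ u
  · intro x hx
    exact ch_chInv a σ hx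
  · ext x
    simp only [mem_image, mem_sdiff]
    constructor
    · rintro ⟨u, hu, rfl⟩
      have hu' : ‖u‖ = 1 := by simpa using hu
      exact ⟨ch_mem_Dc a σ hu'.le, fun h => absurd ((ch_mem_Do_iff a σ).1 h) (by linarith)⟩
    · rintro ⟨hx, hx'⟩
      refine ⟨chInv a σ x, ?_, ch_chInv a σ hx⟩
      have h1 := norm_chInv_le a σ hx
      have h2 : ¬ ‖chInv a σ x‖ < 1 := by
        rw [← ch_mem_Do_iff a σ, ch_chInv a σ hx]
        exact hx'
      have h3 : ‖chInv a σ x‖ = 1 := le_antisymm h1 (not_lt.1 h2)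
      simpa using h3

end Box

variable {D : Dat n}

/-- **(M5)** the mesh is a locally finite complex of PL balls. -/
theorem Cel.cplx : Cplx D.Om (Cel D) Cel.d Cel.c where
  isBall σ := by
    rw [← Cel.boundary σ]
    exact isBall_Dc D.a σ.1
  mono i j h := Cel.d_lt h
  disj i j x hi hj := by
    have key : ∀ σ : Cel D, Opn Cel.c σ x → x ∈ σ.o := by
      rintro σ ⟨h1, h2⟩
      by_contra h3
      have h4 : x ∈ σ.c \ σ.o := ⟨h1, h3⟩
      rw [Cel.boundary] at h4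
      simp only [mem_iUnion, mem_ofPred_eq, exists_prop] at h4
      obtain ⟨τ, hτ, hx⟩ := h4
      exact h2 τ hτ hx
    exact Cel.eq_of_mem_o (key i hi) (key j hj)
  sub i := i.c_subset_Om
  cover x hx := ⟨Cel.of x hx, Cel.o_subset_c _ (Cel.mem_of x hx)⟩
  lf x hx := Cel.locallyFinite x hx

end Crest.Agent.R096.Msh_810
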