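import Crest.Agent.R096.Mxo2_487
import Crest.Agent.R096.Fin9_147

/-!
# R096 (row 96), MachNO (helper741, QA leaf of 534): `GNO` from the seam and the mixed mesh

* `gno_mesh` : `GNO` from 487's `finNO_mesh` (the seam `Cores` + `Lay` + `Front` + `StO` over `Lp` +
  the output of the mixed mesh) and the face clause;
* `g_gno` : 147's `front_out0` and `gno_mesh` together: one structure map `G` with `GOut` and `GNO`.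
-/

set_option autoImplicit false
set_option linter.unusedSectionVars false
set_option linter.unusedVariables false
set_option linter.style.longLine false

open Set Filter Topology Metric Module MeasureTheory Relation
open scoped ENNReal

namespace Crest.Agent.R096.Mtst_741

open Crest.Agent.R096.Ce_537 (PLOn PLEquiv cube sph IsBall Cplx)
open Crest.Agent.R096.Bd_416 Crest.Agent.R096.Grd_714 Crest.Agent.R096.Mg_441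
open Crest.Agent.R096.Xp_537 Crest.Agent.R096.Bin_181
open Crest.Agent.R096.Ar_241 (Tr0 TopC Exact cod SheetData)
open Crest.Agent.R096.Shp_334 (OnMesh Bls)
open Crest.Agent.R096.Brk1_582 Crest.Agent.R096.Brk2_582 Crest.Agent.R096.Brk3_582
open Crest.Agent.R096.Brk5_582 Crest.Agent.R096.Brk6_582
open Crest.Agent.R096.Bsp_628
open Crest.Agent.R096.SkC1_961 (E3 Hom3 FoamD Cfg th NN)
open Crest.Agent.R096.SkN1_477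
open Crest.Agent.R096.Msh_715 Crest.Agent.R096.Nr_527 Crest.Agent.R096.Oa_527
open Crest.Agent.R096.Mbf_337 (KJ sb gau)
open Crest.Agent.R096.St_147 Crest.Agent.R096.Seq_213 Crest.Agent.R096.Seq_213.GSt
  Crest.Agent.R096.Lm_117 Crest.Agent.R096.Ac_117 Crest.Agent.R096.Agl5_543
  Crest.Agent.R096.Ori_543 Crest.Agent.R096.Gm_298
  Crest.Agent.R096.Cp_298 Crest.Agent.R096.Gl_422 Crest.Agent.R096.SkB_662
open Crest.Agent.R096.On_441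
open Crest.Agent.R096.Fl_835 (wk)
open Crest.Agent.R96.Nu7_199 (WE)
open Crest.Agent.R96.Nu1_199 Crest.Agent.R96.Nu2_199 Crest.Agent.R96.Nu3_199
  Crest.Agent.R96.Nu4_199 Crest.Agent.R96.Nu5_199 Crest.Agent.R96.Nu6_199
open Crest.Agent.R096.Mno_534
open Crest.Agent.R096.Init_543 (JJ fr3)
open Crest.Agent.R096.Frn_337 (Ti Lay Front Kcs pO Lp pO_ne cti rel_p)
open Crest.Agent.R096.Ecm_446 (nr sto_inj sto_lt sto_sur)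
open Crest.Agent.R096.Mfr_487 (Xc_Lp hKJ_Lp hKc_Lp hKX_Lp cellIx_Lp onT_Lp hord_Lp)
open Crest.Agent.R096.Fin_147
open Crest.Agent.R096.Csub_487 Crest.Agent.R096.Mxs_487 Crest.Agent.R096.Mi_117

variable {δ κ0 R c0 : ℝ} {La Om : Set E3} {ι : Type} {Φ : FoamD δ κ0 R c0 La} {T : Tiling Om ι}
  {f : E3 → E3} {κ1 κ2 : ℝ} {X : Set Φ.F} {J0 Jt V : Φ.F → Set ι} {ct : Φ.F → ι}
  {A : Φ.F → E3 ≃ᵃ[ℝ] E3} {lam : Φ.F → ℝ} {z : Φ.F → E3} {θ : Φ.F → E3 → E3} {φ : Φ.F → E3 → ℝ}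
  {ι3 : Type} {T3 : Tiling Om ι3} {KK : Ti X → Set E3} {c3 : ι → ι3}
  [Nonempty T3.Cell] {hH : ∀ k, CoreH T3 (KK k)}
  {hdis : ∀ k k', k ≠ k' → Disjoint (KK k) (KK k')} {hne : ∃ c, OutK T3 KK c}
  {Lv : Φ.F → Finset ℝ} {Qd : Quads (ι3 ⊕ Ti X) Φ.F (Init_543.QK (Pc Φ.F))}
  {s₀ : GSt (mK fr3 hH hdis) (fun j : JJ Φ Lv => j.1)} {far₀ : JJ Φ Lv → Set E3}
  {Gc : Φ.F → Set E3} {Zc : Φ.F → Set (QK (belK T3 KK))}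
  {lam₀ : JJ Φ Lv → QK (belK T3 KK) → ZMod 2} {v₀ v₁ : Φ.F → QK (belK T3 KK)}
  {κw : Φ.F → ℕ} {hfin : ∀ a, {j : JJ Φ Lv | j.1 = a}.Finite} {kap : Φ.F → ℕ}
  {s : GSt (mK fr3 hH hdis) (fam' (fun j : JJ Φ Lv => j.1) (Rk κw kap))}
  {far : Nm' (fun j : JJ Φ Lv => j.1) (Rk κw kap) → Set E3} {β : E3 → E3}
  {lmf : Nm' (fun j : JJ Φ Lv => j.1) (Rk κw kap) →
    {c : QK (belK T3 KK) // pO T3 KK c3 ct c} → ZMod 2}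

set_option maxHeartbeats 1000000 in
open scoped Classical in
/-- **`GNO` from the seam, the mixed mesh and the face clause** -/
theorem gno_mesh (hLa : IsOpen La)
    (hC : Mbf_337.Cores Φ T f κ1 κ2 X J0 Jt V ct A lam z θ φ) (hL : Lay Φ T X J0 Jt T3 KK c3)
    (hF : Front T f J0 Jt V ct c3 hH hdis hne Qd s₀ far₀ Gc Zc lam₀ v₀ v₁)
    {κp μ κ3 : ℝ} {Zx : Φ.F → Set ℝ} {m0 : Φ.F → ℕ}
    (hLv : Mbf_337.Levels Φ T f κp μ κ3 Zx m0 κw Lv)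
    (h : StO (Lp c3 ct hH hdis hne) (oriK fr3 hH hdis) (fun c => tauK T3 KK c.1) (RelM T3)
      (lmK fr3 hH hdis hne).W1 Qd κw s₀ far₀ (fun c => {v | v.1 ∈ Zc c})
      (fun j v => lam₀ j v.1) (fun c => sv (pO T3 KK c3 ct) (pO_ne hne) (v₀ c))
      (fun c => sv (pO T3 KK c3 ct) (pO_ne hne) (v₁ c)) hfin kap s far β lmf)
    {hf1 : ∀ a, {j | h.cmb.fam j = a}.Finite} (hm : ∀ a, 0 < mm hf1 a)
    -- the output of the mesh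
    {Ω' : Set E3} (Xc : Cplx Ω' {c : QK (belK T3 KK) // pO T3 KK c3 ct c}
      (fun c => dimK (belK T3 KK) (fun c => c.1.dim) c.1) (fun c => setK T3 KK c.1))
    {b : ℕ → ℝ} (hb4 : ∀ n, 1/4 ≤ b n) {ε ε₁ Kb KN : ℝ} (hε : ε ≤ ε₁) (hε1 : ε₁ < 1) (hKN : 0 ≤ KN)
    {δt : {c : QK (belK T3 KK) // pO T3 KK c3 ct c} → ℝ} (hδ : ∀ q, 0 < δt q)
    (hδ2 : ∀ q, 0 < WE Xc h.cmb (wk κw kap (fun j : JJ Φ Lv => j.1)) q →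
      ∀ σ ≤ q, δt σ ≤ WE Xc h.cmb (wk κw kap (fun j : JJ Φ Lv => j.1)) q)
    {SpecX : ∀ q : {c : QK (belK T3 KK) // pO T3 KK c3 ct c},
      Bd_416.Lam (setK T3 KK q.1) (h.cmb.I q) → Prop}
    {g0 Gf : Gd E3 (Nm' (fun j : JJ Φ Lv => j.1) (Rk κw kap))}
    {Pp0 Pp : ∀ q, h.cmb.I q → Set E3} {cc0 cc : ∀ q, h.cmb.I q → E3 → ℝ}
    (H : Inv h.cmb (fun c => setK T3 KK c.1) univ Gf Pp cc)
    {Rb : Set {c : QK (belK T3 KK) // pO T3 KK c3 ct c}}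
    (hT : ∀ q, TrkX (h := h.lfs) (Lam := Lf lmf) (hLam := xlf h.lab.lab) Xc Rb g0 Pp0 cc0 SpecX
      (K0x Rb Kb KN) δt ε b (wk κw kap (fun j : JJ Φ Lv => j.1)) 4 Gf Pp cc q)
    (hRb : ∀ q ∈ Rb, ∃ c ∈ X, setK T3 KK q.1 ⊆ P (T.H (ct c)))
    {Cu : Set (Set E3) → ℝ} (hCu0 : ∀ 𝒦, 0 < Cu 𝒦) (hCu : ∀ 𝒦, 2 * CUe KN ε₁ 3 𝒦 ≤ Cu 𝒦)
    {G : E3 → E3}
    (hG : ∀ q : {c : QK (belK T3 KK) // pO T3 KK c3 ct c}, ∀ x ∈ setK T3 KK q.1,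
      G x = gG (Tq (bc (F := Φ.F)) (mm hf1)) (merge hf1 Gf) x)
    -- the faces
    {p e η ν : ℝ} {Ds : Set E3} {B : E3 → E3 ≃ᵃ[ℝ] E3} {a : Fin 2 → ℝ}
    (face : ∀ x ∈ Ds, ∀ (c1 c2 : Φ.F) (σ1 σ2 : ℝ),
      FaceIn Φ κw Lv (uu hf1 Gf) (Mna_747.nn h.cmb (fun c => setK T3 KK c.1) (Rk κw kap)) η ν a (B x)
          c1 c2 σ1 σ2 →
        FaceOut p Φ κw Lv (uu hf1 Gf) e ν a (B x) c1 c2 σ1 σ2) :
    GNO p (fun 𝒦 => 2 * Cu 𝒦) e η Φ T f (⋃ c, V c) κw Lv Ds B ν a G (uu hf1 Gf)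
      (Mna_747.nn h.cmb (fun c => setK T3 KK c.1) (Rk κw kap)) :=
  (Mxo_487.finNO_mesh hLa hC hL hF hLv h hm Xc hb4 hε hε1 hKN hδ hδ2 H hT hRb hCu0 hCu hG Ds ν).gno
    face

set_option maxHeartbeats 2000000 in
open scoped Classical in
/-- **the structure map with `GOut` and `GNO`** from the seam, the mixed mesh (one base `Rb g0 Pp0 cc0`)
and the blocks `core`, `sq`, `arcs` of 147's `front_out0` -/
theorem g_gno (hOm : IsOpen Om) (hLa : IsOpen La) (hf : Hom3 f Om La)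
    (hs : Small δ κ0 R κ1 κ2)
    (hC : Mbf_337.Cores Φ T f κ1 κ2 X J0 Jt V ct A lam z θ φ)
    (hF : Mbf_337.Fine Φ T f κ1 J0) (hL : Lay Φ T X J0 Jt T3 KK c3)
    (hFr : Front T f J0 Jt V ct c3 hH hdis hne Qd s₀ far₀ Gc Zc lam₀ v₀ v₁)
    -- the levels
    {κp μ κ3 : ℝ} {Zx : Φ.F → Set ℝ} {m0 : Φ.F → ℕ} (hR : 0 ≤ R) (h3 : 0 ≤ κ3)
    (hLv : Mbf_337.Levels Φ T f κp μ κ3 Zx m0 κw Lv)
    -- the final state
    (h : StO (Lp c3 ct hH hdis hne) (oriK fr3 hH hdis) (fun c => tauK T3 KK c.1) (RelM T3)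
      (lmK fr3 hH hdis hne).W1 Qd κw s₀ far₀ (fun c => {v | v.1 ∈ Zc c})
      (fun j v => lam₀ j v.1) (fun c => sv (pO T3 KK c3 ct) (pO_ne hne) (v₀ c))
      (fun c => sv (pO T3 KK c3 ct) (pO_ne hne) (v₁ c)) hfin kap s far β lmf)
    {hf1 : ∀ a, {j | h.cmb.fam j = a}.Finite} (hm : ∀ a, 0 < mm hf1 a)
    -- the mesh
    {bt : ℕ → ℝ} (hb4 : ∀ n, 1/4 ≤ bt n) (hb2 : ∀ n, bt n < 1/2)
    {ε ε₁ Kb KN : ℝ} (hε : ε ≤ ε₁) (hε1 : ε₁ < 1) (hKb : 0 ≤ Kb) (hKN : 0 ≤ KN)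
    {δt : {c : QK (belK T3 KK) // pO T3 KK c3 ct c} → ℝ} (hδ : ∀ q, 0 < δt q)
    (hδ2 : ∀ q, 0 < WE (Xc_Lp hC hL) h.cmb (wk κw kap (fun j : JJ Φ Lv => j.1)) q →
      ∀ σ ≤ q, δt σ ≤ WE (Xc_Lp hC hL) h.cmb (wk κw kap (fun j : JJ Φ Lv => j.1)) q)
    {SpecX : ∀ q : {c : QK (belK T3 KK) // pO T3 KK c3 ct c},
      Bd_416.Lam (setK T3 KK q.1) (h.cmb.I q) → Prop}
    {g0 Gf : Gd E3 (Nm' (fun j : JJ Φ Lv => j.1) (Rk κw kap))}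
    {Pp0 Pp : ∀ q, h.cmb.I q → Set E3} {cc0 cc : ∀ q, h.cmb.I q → E3 → ℝ}
    (H : Inv h.cmb (fun q => setK T3 KK q.1) univ Gf Pp cc)
    {Rb : Set {c : QK (belK T3 KK) // pO T3 KK c3 ct c}}
    (hT : ∀ q, TrkX (h := h.lfs) (Lam := Lf lmf) (hLam := xlf h.lab.lab) (Xc_Lp hC hL) Rb g0 Pp0 cc0
      SpecX (K0x Rb Kb KN) δt ε bt (wk κw kap (fun j : JJ Φ Lv => j.1)) 4 Gf Pp cc q)
    (hRb : ∀ q ∈ Rb, ∃ c ∈ X, setK T3 KK q.1 ⊆ P (T.H (ct c)))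
    (hB : ∀ j, Bls h.cmb (fun q => setK T3 KK q.1) cc j)
    (hnp : ∀ c : Φ.F, (Pc Φ.F c).Nonempty)
    -- the constants
    {Cs Cu : Set (Set E3) → ℝ} (hCs : ∀ 𝒦, 2 * R * κ3 * (2 * CUe (max KN Kb) ε₁ 3 𝒦) ≤ Cs 𝒦)
    (hCu0 : ∀ 𝒦, 0 < Cu 𝒦) (hCu : ∀ 𝒦, 2 * CUe KN ε₁ 3 𝒦 ≤ Cu 𝒦)
    -- the exact cores
    {κb : ℝ} (hκb : 0 < κb ∧ κb < 1)
    {κf : ℝ} (hκf : κf = 1 - (1 - κb) * bet bt 4) (Rr : Φ.F → E3 → E3)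
    (core : ∀ a ∈ X, ∃ (U : PLEquiv (Kcs T KK ct a) (Pc Φ.F a))
      (e : PLEquiv (frontier (Kcs T KK ct a)) (bdP (Pc Φ.F) (bc (F := Φ.F)) (mm hf1) a)),
      (∀ x ∈ Kcs T KK ct a, U.f x = Rr a (th (A a) (lam a) (z a) x)) ∧
      (∀ x ∈ Kcs T KK ct a, x ∈ frontier (Kcs T KK ct a) ↔
        U.f x ∈ bdP (Pc Φ.F) (bc (F := Φ.F)) (mm hf1) a) ∧
      (∀ x ∈ frontier (Kcs T KK ct a), e.f x = U.f x) ∧
      (∀ y ∈ bdP (Pc Φ.F) (bc (F := Φ.F)) (mm hf1) a, e.g y = U.g y) ∧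
      (∀ x ∈ frontier (Kcs T KK ct a),
        EqAt (ekS (gr Φ hLa hnp hm) (bc (F := Φ.F)) κb (.top a) h.cmb.fam
          (nr (Lp c3 ct hH hdis hne) s lmf h.fin1) e) g0 x) ∧
      (∀ x ∈ frontier (Kcs T KK ct a), EqAt (sqs g0 bt 4) Gf x) ∧
      ∀ x ∈ frontier (Kcs T KK ct a), ∃ q : {c : QK (belK T3 KK) // pO T3 KK c3 ct c},
        x ∈ setK T3 KK q.1 ∧ setK T3 KK q.1 ⊆ frontier (Kcs T KK ct a) ∧
          IsClosed (setK T3 KK q.1))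
    {C0 e S sg : ℝ} (hSC : S < C0)
    (hS : ∀ a ∈ X, ∀ y ∈ a.1.set, ∀ y' ∈ a.1.set,
      ‖st (gr Φ hLa hnp hm) κf (Rr a y) - st (gr Φ hLa hnp hm) κf (Rr a y')‖ ≤ S * ‖y - y'‖)
    (hs0 : κf ≤ sg) (hs1 : sg < 1) (he1 : 3 * sg ≤ e) (he2 : κf / (1 - κf) < e)
    (hRr : ∀ a ∈ X, ∀ u ∈ interior a.1.set,
      Rr a ((1 - sg) • u + sg • (gr Φ hLa hnp hm).b (.top a)) =
        (1 - sg) • u + sg • (gr Φ hLa hnp hm).b (.top a))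
    -- the squares on the tiny cores
    (sq : ∀ a, a ∉ X → ∀ q : Gx (Pc Φ.F) (mm hf1), q.free.ncard = 2 → q.hi a = 0 →
      ∃ x, {w | w ∈ At_241.Sc (Lp c3 ct hH hdis hne) (cti X c3 ct) (fun q => setK T3 KK q.1) a ∧
        gG (Tq (bc (F := Φ.F)) (mm hf1)) (merge hf1 Gf) w = (gr Φ hLa hnp hm).b (.gr q)} = {x})
    -- arcs
    (arcs : ∀ (G : E3 → E3) (Y : Tr0 Om (gr Φ hLa hnp hm) G),
      OnMesh Y (fun q : {c : QK (belK T3 KK) // pO T3 KK c3 ct c} => setK T3 KK q.1) Gf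
        (Tq (bc (F := Φ.F)) (mm hf1))
        (XM Om (fun q : {c : QK (belK T3 KK) // pO T3 KK c3 ct c} => setK T3 KK q.1)) →
      Nonempty (Exact Y (fun _ => κf) (fun _ => 0)
        (Ktc (hfin := hf1) (Pf := Pc Φ.F) (Kcs T KK ct))
        (XM Om (fun q : {c : QK (belK T3 KK) // pO T3 KK c3 ct c} => setK T3 KK q.1))) →
      ∀ q, cod (gr Φ hLa hnp hm) q = 1 →
      IsBall 1 (Y.F q ∩ XM Om (fun q : {c : QK (belK T3 KK) // pO T3 KK c3 ct c} => setK T3 KK q.1))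
        (Y.F q ∩ XM Om (fun q : {c : QK (belK T3 KK) // pO T3 KK c3 ct c} => setK T3 KK q.1) ∩
          ⋃ c : TopC (Cel (Pc Φ.F) (mm hf1)),
            Ktc (hfin := hf1) (Pf := Pc Φ.F) (Kcs T KK ct) c))
    -- the faces
    {p e' η ν : ℝ} {Ds : Set E3} {B : E3 → E3 ≃ᵃ[ℝ] E3} {a : Fin 2 → ℝ}
    (face : ∀ x ∈ Ds, ∀ (c1 c2 : Φ.F) (σ1 σ2 : ℝ),
      FaceIn Φ κw Lv (uu hf1 Gf) (Mna_747.nn h.cmb (fun c => setK T3 KK c.1) (Rk κw kap)) η ν a (B x)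
          c1 c2 σ1 σ2 →
        FaceOut p Φ κw Lv (uu hf1 Gf) e' ν a (B x) c1 c2 σ1 σ2) :
    ∃ (G : E3 → E3) (u : E3 → Φ.F → ℝ) (n : Set E3 → Φ.F → ℝ),
      GOut C0 Cs e Φ T f X J0 V ct A lam κw Lv G ∧
      GNO p (fun 𝒦 => 2 * Cu 𝒦) e' η Φ T f (⋃ c, V c) κw Lv Ds B ν a G u n := by
  have hm0 : 0 ≤ max KN Kb := le_max_of_le_left hKN
  have hCk : ∀ 𝒦 : Set (Set E3), 0 ≤ 2 * CUe (max KN Kb) ε₁ 3 𝒦 := fun 𝒦 =>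
    mul_nonneg zero_le_two (CUe_nonneg hm0 3 𝒦)
  obtain ⟨G, hG, hO⟩ := front_out0 (C0 := C0) (e := e) (S := S) (sg := sg)
    (Ck := fun 𝒦 => 2 * CUe (max KN Kb) ε₁ 3 𝒦) (Cs := Cs)
    hOm hLa hf hs hC hF hL hFr hR h3 hLv h hm H hB hnp hCk hCs
    (Mxo_487.tile_clauseX h (Xc_Lp hC hL) cellIx_Lp onT_Lp hb4 hε hε1 hKb hKN hδ hδ2 hT
      (hord_Lp hC hL)) hκb (fun n => lt_of_lt_of_le (by norm_num) (hb4 n)) hb2 hκf (g0 := g0) Rr core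
      hSC hS hs0 hs1 he1 he2 hRr sq arcs
  exact ⟨G, _, _, hO, gno_mesh hLa hC hL hFr hLv h hm (Xc_Lp hC hL) hb4 hε hε1 hKN hδ hδ2 H hT hRb
    hCu0 hCu hG.mesh face⟩

end Crest.Agent.R096.Mtst_741
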