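import Crest.Agent.R096.Clo5_441
import Crest.Agent.R096.Main1_4
import Crest.Agent.R096.Agl5_543

/-!
# Row 96 (helper441): the cyclic order `pos F` of 543's `meshC` and the 1-cells of `F`

* `lace_iff`   : on a 1-cell of `F` the cyclic order is the linear order of the segment.
* `btw_parity` : parity of the number of points of an even set between two points of a 1-cell.
* `sgn_label`  : a label of `Q` on `∂F` is the counting function of `Q` in the cyclic order.
-/

set_option autoImplicit false
set_option linter.unusedSectionVars false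

open Set Metric Relation

namespace Crest.Agent.R096.Mv_441

open Crest.Agent.R096.Msh_715 Crest.Agent.R096.Main_4 Crest.Agent.R096.Agl5_543
  Crest.Agent.R096.St_147 Crest.Agent.R096.Clo_441

variable {E : Type} [NormedAddCommGroup E] [NormedSpace ℝ E] [FiniteDimensional ℝ E]
variable {Om : Set E} {ι : Type} {T : Tiling Om ι}

/-- `x` is between `u` and `v` in the cut open cyclic order of `∂F` -/
def Btw (F : C2 T) (u v x : E) : Prop :=
  (F.pos u < F.pos x ∧ F.pos x < F.pos v) ∨ (F.pos v < F.pos x ∧ F.pos x < F.pos u)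

/-- the open segment from a point of a closed cell to a point of the open cell is in the open cell -/
theorem openSegment_sub_oc {x u p : E} (hu : u ∈ T.cc x) (hp : p ∈ T.oc x) :
    openSegment ℝ u p ⊆ T.oc x := by
  rintro y ⟨s, t, hs, ht, hst, rfl⟩ i hi h hh
  obtain ⟨h1, h2⟩ := hu i hi h hh
  obtain ⟨h3, h4⟩ := hp i hi h hh
  have e : h.1 (s • u + t • p) = s * h.1 u + t * h.1 p := by
    rw [map_add, map_smul, map_smul]; rfl
  have hs' : s = 1 - t := by linarith
  by_cases hx : h.1 x = h.2
  · have e1 := h2 hx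
    have e2 := h4.2 hx
    rw [e, e1, e2, hs']
    refine ⟨by linarith, ⟨fun _ => hx, fun _ => by ring⟩⟩
  · have e2 : h.1 p < h.2 := lt_of_le_of_ne h3 fun h => hx (h4.1 h)
    have e3 : s * h.1 u + t * h.1 p < h.2 := by
      rw [hs'] at hs ⊢
      nlinarith
    rw [e]
    exact ⟨e3.le, ⟨fun h => absurd h e3.ne, fun h => absurd h hx⟩⟩

namespace C2

/-- the broken line through the centre -/
def star (F : C2 T) (u v : E) : Set E := segment ℝ u F.pt ∪ segment ℝ v F.pt

theorem star_sub (F : C2 T) {u v : E} (hu : u ∈ F.set) (hv : v ∈ F.set) : star F u v ⊆ F.set := by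
  have hc : Convex ℝ F.set := by rw [F.set_eq]; exact T.convex_cc _
  have hp : F.pt ∈ F.set := by rw [F.set_eq]; exact T.self_mem_cc _
  exact union_subset (hc.segment_subset hu hp) (hc.segment_subset hv hp)

theorem star_compact (F : C2 T) (u v : E) : IsCompact (star F u v) := by
  have h : ∀ a b : E, IsCompact (segment ℝ a b) := by
    intro a b
    rw [segment_eq_image_lineMap]
    exact isCompact_Icc.image (AffineMap.lineMap_continuous)
  exact (h _ _).union (h _ _)

theorem star_preconnected (F : C2 T) (u v : E) : IsPreconnected (star F u v) :=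
  IsPreconnected.union F.pt (right_mem_segment ℝ _ _) (right_mem_segment ℝ _ _)
    (convex_segment _ _).isPreconnected (convex_segment _ _).isPreconnected

theorem star_bd (F : C2 T) {u v z : E} (hu : u ∈ F.set) (hv : v ∈ F.set) (hz : z ∈ star F u v)
    (hzb : z ∈ F.bd) : z = u ∨ z = v := by
  rw [F.set_eq] at hu hv
  rw [F.bd_eq] at hzb
  have hp : F.pt ∈ T.oc F.pt := T.self_mem_oc _
  have key : ∀ {a : E}, a ∈ T.cc F.pt → z ∈ segment ℝ a F.pt → z = a := by
    intro a ha hz
    by_contra hne
    rw [← insert_endpoints_openSegment] at hz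
    rcases hz with h | h | h
    · exact hne h
    · exact hzb.2 (by rw [h]; exact hp)
    · exact hzb.2 (openSegment_sub_oc ha hp h)
  rcases hz with h | h
  · exact Or.inl (key hu h)
  · exact Or.inr (key hv h)

end C2

/-- order lemma: of the three pairings of four distinct reals exactly one is interlaced -/
theorem pairing {X Y Z U : ℝ} (h1 : X ≠ Y) (h2 : X ≠ Z) (h3 : X ≠ U) (h4 : Y ≠ Z) (h5 : Y ≠ U)
    (h6 : Z ≠ U)
    (ha : (X < Y ∧ Y < Z ∨ Z < Y ∧ Y < X) ↔ (X < U ∧ U < Z ∨ Z < U ∧ U < X))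
    (hb : (X < Z ∧ Z < U ∨ U < Z ∧ Z < X) ↔ (X < Y ∧ Y < U ∨ U < Y ∧ Y < X)) :
    ¬ ((X < Z ∧ Z < Y ∨ Y < Z ∧ Z < X) ↔ (X < U ∧ U < Y ∨ Y < U ∧ U < X)) := by
  rcases lt_or_gt_of_ne h1 with a1 | a1 <;> rcases lt_or_gt_of_ne h2 with a2 | a2 <;>
    rcases lt_or_gt_of_ne h3 with a3 | a3 <;> rcases lt_or_gt_of_ne h4 with a4 | a4 <;>
    rcases lt_or_gt_of_ne h5 with a5 | a5 <;> rcases lt_or_gt_of_ne h6 with a6 | a6 <;>
    first
    | (exfalso; linarith)
    | (simp_all [lt_asymm])

section edge

variable {F : C2 T} {w₀ a b : E}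

/-- a 1-cell of `F` lies in the boundary -/
theorem edge_sub_bd (hw : w₀ ∈ F.set) (hd : T.dim w₀ = 1) : T.cc w₀ ⊆ F.bd := by
  intro y hy
  have hw' := hw
  rw [F.set_eq] at hw'
  have hyF : y ∈ F.set := by rw [F.set_eq]; exact T.cc_sub_of_mem hw' hy
  have hwO : w₀ ∈ Om := F.set_sub hw
  refine (F.mem_bd_iff hyF).2 ?_
  by_cases h : y ∈ T.oc w₀
  · rw [T.dim_eq_of_mem_oc hwO h]; omega
  · have := T.dim_lt hy h
    omega

theorem not_lace_of_disj {u v x y : E} {K K' : Set E} (hK : IsPreconnected K)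
    (hK' : IsPreconnected K') (hKc : IsCompact K) (hKc' : IsCompact K') (hKF : K ⊆ F.set)
    (hKF' : K' ⊆ F.set) (hu : u ∈ F.bd) (hv : v ∈ F.bd) (hx : x ∈ F.bd) (hy : y ∈ F.bd)
    (hux : u ≠ x) (huy : u ≠ y) (hvx : v ≠ x) (hvy : v ≠ y) (mu : u ∈ K) (mv : v ∈ K)
    (mx : x ∈ K') (my : y ∈ K') (hd : Disjoint K K') : Btw F u v x ↔ Btw F u v y := by
  by_contra h
  obtain ⟨z, h1, h2⟩ := F.meet_of_lace hK hK' hKc hKc' hKF hKF' hu hv hx hy hux huy hvx hvy mu mv
    mx my h
  exact Set.disjoint_left.1 hd h1 h2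

theorem isCompact_segment (x y : E) : IsCompact (segment ℝ x y) := by
  rw [segment_eq_image_lineMap]
  exact isCompact_Icc.image (AffineMap.lineMap_continuous)

/-- **(MV1)** on a 1-cell of `F` -/
theorem lace_iff (hw : w₀ ∈ F.set) (hd : T.dim w₀ = 1) {x y z u : E} (hx : x ∈ T.cc w₀)
    (hy : y ∈ T.cc w₀) (hxy : x ≠ y) (hz : z ∈ F.bd) (hu : u ∈ F.bd) (hzx : z ≠ x) (hzy : z ≠ y)
    (hux : u ≠ x) (huy : u ≠ y) :
    (Btw F x y z ↔ Btw F x y u) ↔ (z ∈ openSegment ℝ x y ↔ u ∈ openSegment ℝ x y) := by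
  have hsub := edge_sub_bd hw hd
  have hconv : Convex ℝ (T.cc w₀) := T.convex_cc _
  have hseg : segment ℝ x y ⊆ T.cc w₀ := hconv.segment_subset hx hy
  have hosub : openSegment ℝ x y ⊆ segment ℝ x y := openSegment_subset_segment ℝ x y
  have hxb := hsub hx
  have hyb := hsub hy
  have hcase : ∀ {t : E}, t ≠ x → t ≠ y → (t ∈ segment ℝ x y ↔ t ∈ openSegment ℝ x y) := by
    intro t h1 h2
    rw [← insert_endpoints_openSegment]
    constructor
    · rintro (h | h | h)
      · exact absurd h h1
      · exact absurd h h2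
      · exact h
    · intro h; exact Or.inr (Or.inr h)
  -- both inside
  have hin : ∀ {z u : E}, z ∈ openSegment ℝ x y → u ∈ openSegment ℝ x y → z ≠ x → z ≠ y → u ≠ x →
      u ≠ y → (Btw F x y z ↔ Btw F x y u) := by
    intro z u hz hu hzx hzy hux huy
    have hzu : segment ℝ z u ⊆ openSegment ℝ x y := (convex_openSegment x y).segment_subset hz hu
    refine not_lace_of_disj (K := C2.star F x y) (K' := segment ℝ z u)
      (C2.star_preconnected F x y) (convex_segment _ _).isPreconnected (C2.star_compact F x y)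
      (isCompact_segment z u) (C2.star_sub F (F.bd_sub hxb) (F.bd_sub hyb))
      (hzu.trans (hosub.trans (hseg.trans (hsub.trans F.bd_sub)))) hxb hyb
      (hsub (hseg (hosub hz))) (hsub (hseg (hosub hu))) hzx.symm hux.symm hzy.symm huy.symm
      (Or.inl (left_mem_segment ℝ _ _)) (Or.inr (left_mem_segment ℝ _ _))
      (left_mem_segment ℝ _ _) (right_mem_segment ℝ _ _) ?_
    rw [Set.disjoint_left]
    intro p hp1 hp2
    have hp3 := hzu hp2
    rcases C2.star_bd F (F.bd_sub hxb) (F.bd_sub hyb) hp1 (hsub (hseg (hosub hp3))) with h | h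
    · rw [h] at hp3
      exact hxy (left_mem_openSegment_iff.1 hp3)
    · rw [h] at hp3
      exact hxy (right_mem_openSegment_iff.1 hp3)
  -- both outside
  have hout : ∀ {z u : E}, z ∈ F.bd → u ∈ F.bd → z ∉ segment ℝ x y → u ∉ segment ℝ x y →
      (Btw F x y z ↔ Btw F x y u) := by
    intro z u hz hu hzs hus
    refine not_lace_of_disj (K := segment ℝ x y) (K' := C2.star F z u)
      (convex_segment _ _).isPreconnected (C2.star_preconnected F z u) (isCompact_segment x y)
      (C2.star_compact F z u) (hseg.trans (hsub.trans F.bd_sub))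
      (C2.star_sub F (F.bd_sub hz) (F.bd_sub hu)) hxb hyb hz hu ?_ ?_ ?_ ?_
      (left_mem_segment ℝ _ _) (right_mem_segment ℝ _ _) (Or.inl (left_mem_segment ℝ _ _))
      (Or.inr (left_mem_segment ℝ _ _)) ?_
    · rintro rfl; exact hzs (left_mem_segment ℝ _ _)
    · rintro rfl; exact hus (left_mem_segment ℝ _ _)
    · rintro rfl; exact hzs (right_mem_segment ℝ _ _)
    · rintro rfl; exact hus (right_mem_segment ℝ _ _)
    · rw [Set.disjoint_left]
      intro p hp1 hp2
      rcases C2.star_bd F (F.bd_sub hz) (F.bd_sub hu) hp2 (hsub (hseg hp1)) with h | h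
      · exact hzs (h ▸ hp1)
      · exact hus (h ▸ hp1)
  -- one inside, one outside
  have hmix : ∀ {z u : E}, z ∈ openSegment ℝ x y → u ∈ F.bd → u ∉ segment ℝ x y → z ≠ x → z ≠ y →
      ¬ (Btw F x y z ↔ Btw F x y u) := by
    intro z u hz hu hus hzx hzy
    have hzb : z ∈ F.bd := hsub (hseg (hosub hz))
    have hux : u ≠ x := by rintro rfl; exact hus (left_mem_segment ℝ _ _)
    have huy : u ≠ y := by rintro rfl; exact hus (right_mem_segment ℝ _ _)
    have huz : u ≠ z := by rintro rfl; exact hus (hosub hz)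
    have hinj := F.pos_injOn
    have h1 : segment ℝ x z ⊆ segment ℝ x y :=
      (convex_segment x y).segment_subset (left_mem_segment ℝ _ _) (hosub hz)
    have h2 : segment ℝ z y ⊆ segment ℝ x y :=
      (convex_segment x y).segment_subset (hosub hz) (right_mem_segment ℝ _ _)
    have hy1 : y ∉ segment ℝ x z := by
      intro h
      obtain ⟨s, t, hs, ht, hst, rfl⟩ := hz
      obtain ⟨s', t', hs', ht', hst', h3⟩ := h
      have h4 : (1 - t' * t) • (y - x) = 0 := by
        have e1 : s' • x + t' • (s • x + t • y) = y := h3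
        have e2 : s = 1 - t := by linarith
        have e3 : s' = 1 - t' := by linarith
        rw [e2, e3] at e1
        have e4 : (1 - t' * t) • (y - x) = y - ((1 - t') • x + t' • ((1 - t) • x + t • y)) := by
          module
        rw [e4, e1, sub_self]
      rcases smul_eq_zero.1 h4 with h5 | h5
      · nlinarith
      · exact hxy (sub_eq_zero.1 h5).symm
    have hx1 : x ∉ segment ℝ z y := by
      intro h
      obtain ⟨s, t, hs, ht, hst, rfl⟩ := hz
      obtain ⟨s', t', hs', ht', hst', h3⟩ := h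
      have h4 : (1 - s' * s) • (x - y) = 0 := by
        have e1 : s' • (s • x + t • y) + t' • y = x := h3
        have e2 : t = 1 - s := by linarith
        have e3 : t' = 1 - s' := by linarith
        rw [e2, e3] at e1
        have e4 : (1 - s' * s) • (x - y) = x - (s' • (s • x + (1 - s) • y) + (1 - s') • y) := by
          module
        rw [e4, e1, sub_self]
      rcases smul_eq_zero.1 h4 with h5 | h5
      · nlinarith
      · exact hxy (sub_eq_zero.1 h5)
    refine pairing (fun h => hxy (hinj hxb hyb h)) (fun h => hzx.symm (hinj hxb hzb h))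
      (fun h => hux.symm (hinj hxb hu h)) (fun h => hzy.symm (hinj hyb hzb h))
      (fun h => huy.symm (hinj hyb hu h)) (fun h => huz.symm (hinj hzb hu h)) ?_ ?_
    · -- pairs {x, z} and {y, u}
      refine not_lace_of_disj (K := segment ℝ x z) (K' := C2.star F y u)
        (convex_segment _ _).isPreconnected (C2.star_preconnected F y u) (isCompact_segment x z)
        (C2.star_compact F y u) (h1.trans (hseg.trans (hsub.trans F.bd_sub)))
        (C2.star_sub F (F.bd_sub hyb) (F.bd_sub hu)) hxb hzb hyb hu hxy hux.symm hzy huz.symm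
        (left_mem_segment ℝ _ _) (right_mem_segment ℝ _ _) (Or.inl (left_mem_segment ℝ _ _))
        (Or.inr (left_mem_segment ℝ _ _)) ?_
      rw [Set.disjoint_left]
      intro p hp1 hp2
      rcases C2.star_bd F (F.bd_sub hyb) (F.bd_sub hu) hp2 (hsub (hseg (h1 hp1))) with h | h
      · exact hy1 (h ▸ hp1)
      · exact hus (h ▸ h1 hp1)
    · -- pairs {x, u} and {z, y}
      refine not_lace_of_disj (K := C2.star F x u) (K' := segment ℝ z y)
        (C2.star_preconnected F x u) (convex_segment _ _).isPreconnected (C2.star_compact F x u)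
        (isCompact_segment z y) (C2.star_sub F (F.bd_sub hxb) (F.bd_sub hu))
        (h2.trans (hseg.trans (hsub.trans F.bd_sub))) hxb hu hzb hyb hzx.symm hxy huz huy
        (Or.inl (left_mem_segment ℝ _ _)) (Or.inr (left_mem_segment ℝ _ _))
        (left_mem_segment ℝ _ _) (right_mem_segment ℝ _ _) ?_
      rw [Set.disjoint_left]
      intro p hp1 hp2
      rcases C2.star_bd F (F.bd_sub hxb) (F.bd_sub hu) hp1 (hsub (hseg (h2 hp2))) with h | h
      · exact hx1 (h ▸ hp2)
      · exact hus (h ▸ h2 hp2)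
  by_cases h1 : z ∈ openSegment ℝ x y <;> by_cases h2 : u ∈ openSegment ℝ x y
  · exact ⟨fun _ => ⟨fun _ => h2, fun _ => h1⟩, fun _ => hin h1 h2 hzx hzy hux huy⟩
  · have hus : u ∉ segment ℝ x y := fun h => h2 ((hcase hux huy).1 h)
    exact ⟨fun h => absurd h (hmix h1 hu hus hzx hzy), fun h => absurd (h.1 h1) h2⟩
  · have hzs : z ∉ segment ℝ x y := fun h => h1 ((hcase hzx hzy).1 h)
    exact ⟨fun h => absurd (Iff.symm h) (hmix h2 hz hzs hux huy), fun h => absurd (h.2 h2) h1⟩
  · have hus : u ∉ segment ℝ x y := fun h => h2 ((hcase hux huy).1 h)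
    have hzs : z ∉ segment ℝ x y := fun h => h1 ((hcase hzx hzy).1 h)
    exact ⟨fun _ => ⟨fun h => absurd h h1, fun h => absurd h h2⟩, fun _ => hout hz hu hzs hus⟩

end edge

end Crest.Agent.R096.Mv_441
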