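import Mathlib
import Crest.Agent.R096.Mfr1_487
import Crest.Agent.R096.Mnb1_747
import Crest.Agent.R096.Mnb2_747

/-!
# R096 (row 96), helper487.  `FinNO` from the seam.

* `tile_no` : the hypothesis `tile` of 747's `finNO_of_st` from the tracked data of the mixed mesh, the
  agreement of the tilings (`hord`) and (K4) at all base points (337's `Front.exAll` = 527's
  `MeshExA`);
* `finNO_mesh` : `Cores` + `Lay` + `Front` + `StO` over `Lp` + the output of the mesh ⟹ 534's `FinNO`.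
-/

set_option autoImplicit false
set_option linter.unusedSectionVars false
set_option linter.unusedVariables false
set_option linter.style.longLine false

open Set Metric Filter Topology Module

namespace Crest.Agent.R096.Mxo_487

section tile

open Crest.Agent.R096.St_147 Crest.Agent.R096.Seq_213 Crest.Agent.R096.Seq_213.GSt
  Crest.Agent.R096.Bd_416 Crest.Agent.R096.Mg_441 Crest.Agent.R096.Lm_117
  Crest.Agent.R096.Cp_298 Crest.Agent.R096.Gl_422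
  Crest.Agent.R096.On_441 Crest.Agent.R096.SkB_662 Crest.Agent.R096.Ce_537
  Crest.Agent.R096.Arc_778
open Crest.Agent.R096.Msh_715 Crest.Agent.R096.Ecm_446 Crest.Agent.R096.Csub_487
open Crest.Agent.R096.SkC1_961 (E3 FoamD)
open Crest.Agent.R096.Fl_835 (wk)
open Crest.Agent.R096.Mi_117
open Crest.Agent.R96.Nu7_199 (WE WE_nonneg)
open Crest.Agent.R096.Mbf_337 (sb)
open Crest.Agent.R096.Brk3_582

variable {δf κ0 Rf cf : ℝ} {La Om Om' Ω' : Set E3} {ιt ι3 : Type}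
variable {ι Φc Q J Kq : Type} {M : MeshC ι Φc E3} [PartialOrder Q] {dim : Q → ℕ}
  {Φ : FoamD δf κ0 Rf cf La} {Tl : Tiling Om ιt} {T3 : Tiling Om' ι3}
  {L : LM M Q dim} {O : Ori M} {τ : Q → ZMod 2} {Rel : E3 → E3 → Prop} {Vc : Set E3}
  {Qd : Quads ι Φ.F Kq} {κ : Φ.F → ℕ} {fam : J → Φ.F} {s₀ : GSt M fam} {far₀ : J → Set E3}
  {Z : Φ.F → Set Q} {lam₀ : J → Q → ZMod 2} {v₀ v₁ : Φ.F → Q}
  {hfin : ∀ a, {j | fam j = a}.Finite} {kap : Φ.F → ℕ} {s : GSt M (fam' fam (Rk κ kap))}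
  {far : Nm' fam (Rk κ kap) → Set E3} {β : E3 → E3} {lam : Nm' fam (Rk κ kap) → Q → ZMod 2}
  {K : Q → Set E3} {ε Kb KN : ℝ} {b : ℕ → ℝ} {δ : Q → ℝ} {R : Set Q} {cell : Q → T3.Cell}
  {V J0 : Φ.F → Set ιt} {f : E3 → E3}

/-- a tile contained in a tile is this tile -/
theorem eq_of_tile_sub {Om : Set E3} {ι : Type} {T : Tiling Om ι} {i j : ι}
    (h : P (T.H i) ⊆ P (T.H j)) : i = j := by
  obtain ⟨x, hx⟩ := T.ne i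
  have h1 : j ∈ T.at_ x := h (I_sub_P _ hx)
  rw [T.at_eq_singleton hx, mem_singleton_iff] at h1
  exact h1.symm

/-- **the hypothesis `tile` of 747's `finNO_of_st`** -/
theorem tile_no (h : StO L O τ Rel Vc Qd κ s₀ far₀ Z lam₀ v₀ v₁ hfin kap s far β lam)
    (X : Cplx Ω' Q dim K) (hI : CellIx T3 dim K cell) (hO : OnT T3 L.toSk cell)
    (hb4 : ∀ n, 1/4 ≤ b n) {ε₁ : ℝ} (hε : ε ≤ ε₁) (hε1 : ε₁ < 1) (hKN : 0 ≤ KN)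
    (hδ : ∀ q, 0 < δ q)
    (hδ2 : ∀ q, 0 < WE X h.cmb (wk κ kap fam) q → ∀ σ ≤ q, δ σ ≤ WE X h.cmb (wk κ kap fam) q)
    {SpecX : ∀ q, Bd_416.Lam (K q) (h.cmb.I q) → Prop}
    {g0 g : Gd E3 (Nm' fam (Rk κ kap))} {Pp0 Pp : ∀ q, h.cmb.I q → Set E3}
    {c0 c : ∀ q, h.cmb.I q → E3 → ℝ}
    (hT : ∀ q, TrkX (h := h.lfs) (Lam := Lf lam) (hLam := xlf h.lab.lab) X R g0 Pp0 c0 SpecX
      (K0x R Kb KN) δ ε b (wk κ kap fam) 4 g Pp c q)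
    (hord : ∀ i, (∀ c, i ∉ V c) → ∃ i3 : ι3, P (T3.H i3) = P (Tl.H i) ∧
      (∀ x ∈ P (Tl.H i), T3.cc x = Tl.cc x) ∧ ∃ q, K q = P (T3.H i3))
    (hRV : ∀ q ∈ R, ∃ j ∈ ⋃ c, V c, K q ⊆ P (Tl.H j))
    (hEx : ∀ q, ∃ i, (∀ c, i ∉ J0 c) ∧ K q ⊆ P (Tl.H i) ∧ ∀ x ∈ P (Tl.H i),
      Ex h.cmb (Pc Φ.F) q (sb Φ (Φ.Psi (f x))))
    {Cu : Set (Set E3) → ℝ} (hCu : ∀ 𝒦, 2 * CUe KN ε₁ 3 𝒦 ≤ Cu 𝒦) :
    ∀ i, (∀ c, i ∉ V c) → ∃ q, K q = P (Tl.H i) ∧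
      (∀ e, e < q → dim e = 1 → L.toSk.On1 e ⊆ {y | y ∈ P (Tl.H i) ∧ Tl.dim y ≤ 1}) ∧
      (∀ x0 ∈ P (Tl.H i), Ex h.cmb (Pc Φ.F) q (sb Φ (Φ.Psi (f x0)))) ∧
      ((∀ j ∈ ⋃ c, V c, Disjoint (P (Tl.H i)) (P (Tl.H j))) →
        ∀ (B : E3 ≃ᵃ[ℝ] E3) (x : h.cmb.I q), ∀ y ∈ K q,
          LB B (Cu ((fun K => B '' K) '' SkC1_961.Cfg Tl i) * WE X h.cmb (wk κ kap fam) q /
            wk κ kap fam (h.cmb.col q x)) (c q x) (K q) y) := by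
  intro i hi
  obtain ⟨i3, h0, hcc, q, hq⟩ := hord i hi
  have hqi : K q = P (Tl.H i) := by rw [hq, h0]
  refine ⟨q, hqi, fun e he _ => on1_lm hI hO h0 hcc hq he, ?_, fun hd B x y hy => ?_⟩
  · obtain ⟨i', -, h2, h3⟩ := hEx q
    rw [hqi] at h2
    obtain rfl := eq_of_tile_sub h2
    exact h3
  · have hqR : ∀ σ ≤ q, σ ∉ R := by
      intro σ hσ hR
      obtain ⟨j, hj, hj'⟩ := hRV σ hR
      obtain ⟨y, hy⟩ := (X.isBall σ).nonempty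
      refine Set.disjoint_left.1 (hd j hj) ?_ (hj' hy)
      rw [← hqi]
      exact X.subset hσ hy
    refine (tile_clauseN (R := R) h X hI hb4 hε hε1 hKN hδ hδ2 hT h0 hcc hq hqR B x hy).mono
      (div_le_div_of_nonneg_right ?_ (Fl_835.wk_pos κ kap fam _).le)
    exact mul_le_mul_of_nonneg_right (hCu _) (WE_nonneg (C := h.cmb) X (Fl_835.wk_pos κ kap fam) q)

end tile

section seam

open Crest.Agent.R096.Brk1_582 Crest.Agent.R096.Brk2_582 Crest.Agent.R096.Brk3_582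
open Crest.Agent.R096.Brk5_582 Crest.Agent.R096.Bsp_628
open Crest.Agent.R096.Bd_416 Crest.Agent.R096.Grd_714 Crest.Agent.R096.Mg_441
open Crest.Agent.R096.Xp_537 (gG)
open Crest.Agent.R096.On_441
open Crest.Agent.R096.St_147 Crest.Agent.R096.Seq_213 Crest.Agent.R096.Seq_213.GSt
open Crest.Agent.R096.Lm_117 Crest.Agent.R096.Ac_117 Crest.Agent.R096.Msh_715
open Crest.Agent.R096.Cp_298 Crest.Agent.R096.Gm_298 Crest.Agent.R096.Gl_422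
open Crest.Agent.R096.SkB_662 Crest.Agent.R096.Cpo_642
open Crest.Agent.R096.Agl5_543 Crest.Agent.R096.Ori_543
open Crest.Agent.R096.Init_543 (JJ fr3)
open Crest.Agent.R096.Ce_537 (PLEquiv IsBall Cplx)
open Crest.Agent.R096.SkC1_961 (E3 Hom3 FoamD Cfg th NN)
open Crest.Agent.R096.Mbf_337 (KJ sb)
open Crest.Agent.R096.Frn_337 Crest.Agent.R096.Ecm_446 Crest.Agent.R096.Onb_63
open Crest.Agent.R096.Csub_487 Crest.Agent.R096.Mfr_487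
open Crest.Agent.R096.Fl_835 (wk)
open Crest.Agent.R96.Nu7_199 (WE)
open Crest.Agent.R096.Mi_117
open Crest.Agent.R096.Mno_534

variable {δ κ0 R c0 : ℝ} {La Om : Set E3} {ι : Type} {Φ : FoamD δ κ0 R c0 La} {T : Tiling Om ι}
  {f : E3 → E3} {κ1 κ2 : ℝ} {X : Set Φ.F} {J0 Jt V : Φ.F → Set ι} {ct : Φ.F → ι}
  {A : Φ.F → E3 ≃ᵃ[ℝ] E3} {lmc : Φ.F → ℝ} {z : Φ.F → E3} {θ : Φ.F → E3 → E3} {φ : Φ.F → E3 → ℝ}
  {ι3 : Type} {T3 : Tiling Om ι3} {KK : Ti X → Set E3} {c3 : ι → ι3} [Nonempty T3.Cell]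
  {hH : ∀ k, CoreH T3 (KK k)} {hdis : ∀ k k', k ≠ k' → Disjoint (KK k) (KK k')}
  {hne : ∃ c, OutK T3 KK c}
  {Lv : Φ.F → Finset ℝ} {Qd : Quads (ι3 ⊕ Ti X) Φ.F (Init_543.QK (Pc Φ.F))}
  {s₀ : GSt (mK fr3 hH hdis) (fun j : JJ Φ Lv => j.1)} {far₀ : JJ Φ Lv → Set E3}
  {Gc : Φ.F → Set E3} {Zc : Φ.F → Set (QK (belK T3 KK))}
  {lam₀ : JJ Φ Lv → QK (belK T3 KK) → ZMod 2} {v₀ v₁ : Φ.F → QK (belK T3 KK)}
  {κ : Φ.F → ℕ} {hfin : ∀ a, {j : JJ Φ Lv | j.1 = a}.Finite} {kap : Φ.F → ℕ}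
  {s : GSt (mK fr3 hH hdis) (fam' (fun j : JJ Φ Lv => j.1) (Rk κ kap))}
  {far : Nm' (fun j : JJ Φ Lv => j.1) (Rk κ kap) → Set E3} {β : E3 → E3}
  {lm : Nm' (fun j : JJ Φ Lv => j.1) (Rk κ kap) →
    {c : QK (belK T3 KK) // pO T3 KK c3 ct c} → ZMod 2}

set_option maxHeartbeats 1000000 in
open scoped Classical in
/-- **`FinNO` from the seam and the output of the mesh** -/
theorem finNO_mesh (hLa : IsOpen La)
    (hC : Mbf_337.Cores Φ T f κ1 κ2 X J0 Jt V ct A lmc z θ φ) (hL : Lay Φ T X J0 Jt T3 KK c3)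
    (hF : Front T f J0 Jt V ct c3 hH hdis hne Qd s₀ far₀ Gc Zc lam₀ v₀ v₁)
    {κp μ κ3 : ℝ} {Zx : Φ.F → Set ℝ} {m0 : Φ.F → ℕ}
    (hLv : Mbf_337.Levels Φ T f κp μ κ3 Zx m0 κ Lv)
    (h : StO (Lp c3 ct hH hdis hne) (oriK fr3 hH hdis) (fun c => tauK T3 KK c.1) (RelM T3)
      (lmK fr3 hH hdis hne).W1 Qd κ s₀ far₀ (fun c => {v | v.1 ∈ Zc c})
      (fun j v => lam₀ j v.1) (fun c => sv (pO T3 KK c3 ct) (pO_ne hne) (v₀ c))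
      (fun c => sv (pO T3 KK c3 ct) (pO_ne hne) (v₁ c)) hfin kap s far β lm)
    {hf1 : ∀ a, {j | h.cmb.fam j = a}.Finite} (hm : ∀ a, 0 < mm hf1 a)
    -- the output of the mesh
    {Ω' : Set E3} (Xc : Cplx Ω' {c : QK (belK T3 KK) // pO T3 KK c3 ct c}
      (fun c => dimK (belK T3 KK) (fun c => c.1.dim) c.1) (fun c => setK T3 KK c.1))
    {b : ℕ → ℝ} (hb4 : ∀ n, 1/4 ≤ b n) {ε ε₁ Kb KN : ℝ} (hε : ε ≤ ε₁) (hε1 : ε₁ < 1) (hKN : 0 ≤ KN)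
    {δt : {c : QK (belK T3 KK) // pO T3 KK c3 ct c} → ℝ} (hδ : ∀ q, 0 < δt q)
    (hδ2 : ∀ q, 0 < WE Xc h.cmb (wk κ kap (fun j : JJ Φ Lv => j.1)) q →
      ∀ σ ≤ q, δt σ ≤ WE Xc h.cmb (wk κ kap (fun j : JJ Φ Lv => j.1)) q)
    {SpecX : ∀ q : {c : QK (belK T3 KK) // pO T3 KK c3 ct c},
      Bd_416.Lam (setK T3 KK q.1) (h.cmb.I q) → Prop}
    {g0 Gf : Gd E3 (Nm' (fun j : JJ Φ Lv => j.1) (Rk κ kap))}
    {Pp0 Pp : ∀ q, h.cmb.I q → Set E3} {cc0 cc : ∀ q, h.cmb.I q → E3 → ℝ}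
    (H : Inv h.cmb (fun c => setK T3 KK c.1) univ Gf Pp cc)
    {Rb : Set {c : QK (belK T3 KK) // pO T3 KK c3 ct c}}
    (hT : ∀ q, TrkX (h := h.lfs) (Lam := Lf lm) (hLam := xlf h.lab.lab) Xc Rb g0 Pp0 cc0 SpecX
      (K0x Rb Kb KN) δt ε b (wk κ kap (fun j : JJ Φ Lv => j.1)) 4 Gf Pp cc q)
    (hRb : ∀ q ∈ Rb, ∃ c ∈ X, setK T3 KK q.1 ⊆ P (T.H (ct c)))
    {Cu : Set (Set E3) → ℝ} (hCu0 : ∀ 𝒦, 0 < Cu 𝒦) (hCu : ∀ 𝒦, 2 * CUe KN ε₁ 3 𝒦 ≤ Cu 𝒦)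
    {G : E3 → E3}
    (hG : ∀ q : {c : QK (belK T3 KK) // pO T3 KK c3 ct c}, ∀ x ∈ setK T3 KK q.1,
      G x = gG (Tq (bc (F := Φ.F)) (mm hf1)) (merge hf1 Gf) x)
    (Ds : Set E3) (μ' : ℝ) :
    FinNO Φ h.cmb (fun c => setK T3 KK c.1) Gf Pp cc hf1 T f (⋃ c, V c) κ (Rk κ kap) Lv Ds μ' Cu
      G := by
  have hRV : ∀ q ∈ Rb, ∃ j ∈ ⋃ c, V c, setK T3 KK q.1 ⊆ P (T.H j) := by
    intro q hq
    obtain ⟨c, hc, h1⟩ := hRb q hq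
    exact ⟨ct c, mem_iUnion.2 ⟨c, by rw [(hC.one c hc).2.2]; exact mem_singleton _⟩, h1⟩
  exact Mnb_747.finNO_of_st (t := fun j : JJ Φ Lv => j.2.1) hLa h rel_p (Frn_337.jj_inj)
    (fun j => j.2.2) (jj_mm Lv hfin)
    (fun i hi x hx hxi _ => hF.lev x hx i (fun k => hi k.1) hxi) hm H Xc hCu0
    (tile_no h Xc cellIx_Lp onT_Lp hb4 hε hε1 hKN hδ hδ2 hT (hord_Lp hC hL) hRV
      (hF.exAll hLv.lf h) hCu)
    (Mnb_747.edge_clause cellIx_Lp onT_Lp (hord_Lp hC hL)) hG Ds μ'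

end seam

end Crest.Agent.R096.Mxo_487
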