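import Mathlib
import Crest.Agent.R096.Mxo2_487

/-!
# R096 (row 96), helper487.  The designated squares over `Lp` (the hypothesis `hfc` of `mesh_no`).
-/

set_option autoImplicit false
set_option linter.unusedSectionVars false
set_option linter.unusedVariables false
set_option linter.style.longLine false

open Set Metric Filter Topology Module

namespace Crest.Agent.R096.Mxo_487

open Crest.Agent.R096.Brk1_582 Crest.Agent.R096.Brk2_582 Crest.Agent.R096.Brk3_582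
open Crest.Agent.R096.Brk5_582 Crest.Agent.R096.Bsp_628
open Crest.Agent.R096.St_147 Crest.Agent.R096.Seq_213 Crest.Agent.R096.Seq_213.GSt
open Crest.Agent.R096.Lm_117 Crest.Agent.R096.Ac_117 Crest.Agent.R096.Msh_715
open Crest.Agent.R096.Cp_298 Crest.Agent.R096.Gm_298 Crest.Agent.R096.Gl_422
open Crest.Agent.R096.SkB_662 Crest.Agent.R096.Cpo_642
open Crest.Agent.R096.Agl5_543 Crest.Agent.R096.Ori_543
open Crest.Agent.R096.Init_543 (JJ fr3)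
open Crest.Agent.R096.Ce_537 (PLEquiv IsBall Cplx)
open Crest.Agent.R096.SkC1_961 (E3 Hom3 FoamD Cfg th NN)
open Crest.Agent.R096.Mbf_337 (KJ sb)
open Crest.Agent.R096.Frn_337 Crest.Agent.R096.Ecm_446 Crest.Agent.R096.Onb_63
open Crest.Agent.R096.Csub_487 Crest.Agent.R096.Mfr_487
open Crest.Agent.R096.SkN1_477

variable {δ κ0 R c0 : ℝ} {La Om : Set E3} {ι : Type} {Φ : FoamD δ κ0 R c0 La} {T : Tiling Om ι}
  {f : E3 → E3} {κ1 κ2 : ℝ} {X : Set Φ.F} {J0 Jt V : Φ.F → Set ι} {ct : Φ.F → ι}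
  {A : Φ.F → E3 ≃ᵃ[ℝ] E3} {lmc : Φ.F → ℝ} {z : Φ.F → E3} {θ : Φ.F → E3 → E3} {φ : Φ.F → E3 → ℝ}
  {ι3 : Type} {T3 : Tiling Om ι3} {KK : Ti X → Set E3} {c3 : ι → ι3} [Nonempty T3.Cell]

/-- **at the tiles off the `V c` the cells of `Q'` are the cells of `T`** -/
theorem cell_ord (hC : Mbf_337.Cores Φ T f κ1 κ2 X J0 Jt V ct A lmc z θ φ)
    (hL : Lay Φ T X J0 Jt T3 KK c3)
    {Rb : Set {c : QK (belK T3 KK) // pO T3 KK c3 ct c}}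
    (hRb : ∀ q ∈ Rb, ∃ c ∈ X, setK T3 KK q.1 ⊆ P (T.H (ct c)))
    {y : E3} (hy : y ∈ Om) (hoff : ∀ i, y ∈ P (T.H i) → ∀ c, i ∉ V c) :
    T3.cc y = T.cc y ∧ T3.dim y = T.dim y ∧
      (∃ q : {c : QK (belK T3 KK) // pO T3 KK c3 ct c},
        dimK (belK T3 KK) (fun c => c.1.dim) q.1 = T.dim y ∧ setK T3 KK q.1 = T.cc y) ∧
      ∀ q : {c : QK (belK T3 KK) // pO T3 KK c3 ct c}, setK T3 KK q.1 = T.cc y → q ∉ Rb := by
  obtain ⟨i, hi⟩ := T.at_nonempty hy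
  have hiV := hoff i hi
  obtain ⟨h1, h2⟩ := dim_ord hC hL hiV hi
  refine ⟨h1, h2, ?_, fun q hq hR => ?_⟩
  · obtain ⟨i3, a1, a2, a3⟩ := hord_Lp hC hL i hiV
    exact Mnb_747.cell_of_hord
      (K := fun c : {c : QK (belK T3 KK) // pO T3 KK c3 ct c} => setK T3 KK c.1)
      cellIx_Lp a1 a2 a3 hi
  · obtain ⟨c, hc, hs⟩ := hRb q hR
    have h3 : y ∈ P (T.H (ct c)) := by
      apply hs
      rw [hq]; exact T.self_mem_cc y
    refine hoff _ h3 c ?_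
    rw [(hC.one c hc).2.2]; exact mem_singleton _

/-- **`hfc`**: the designated squares -/
theorem hfc_Lp (hC : Mbf_337.Cores Φ T f κ1 κ2 X J0 Jt V ct A lmc z θ φ)
    (hL : Lay Φ T X J0 Jt T3 KK c3)
    {Rb : Set {c : QK (belK T3 KK) // pO T3 KK c3 ct c}}
    (hRb : ∀ q ∈ Rb, ∃ c ∈ X, setK T3 KK q.1 ⊆ P (T.H (ct c)))
    {Ds : Set E3} {B : E3 → E3 ≃ᵃ[ℝ] E3} {Λ μ : ℝ} {a : Fin 2 → ℝ}
    (FD : FaceD T (⋃ c, V c) Ds B Λ μ a) :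
    ∀ x ∈ Ds, ∀ y ∈ usq (B x), T3.cc y = T.cc y ∧ T3.dim y = T.dim y ∧
      (∃ q : {c : QK (belK T3 KK) // pO T3 KK c3 ct c}, setK T3 KK q.1 = T.cc y) ∧
      ∀ q : {c : QK (belK T3 KK) // pO T3 KK c3 ct c}, setK T3 KK q.1 = T.cc y → q ∉ Rb := by
  intro x hx y hy
  rw [← FD.sq x hx] at hy
  have hyO : y ∈ Om := T.cc_sub_Om (FD.mem x hx) hy
  obtain ⟨h1, h2, ⟨q, -, h3⟩, h4⟩ := cell_ord hC hL hRb hyO fun i hi c hc =>
    FD.off x hx y hy i hi (mem_iUnion.2 ⟨c, hc⟩)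
  exact ⟨h1, h2, ⟨q, h3⟩, h4⟩

/-- the same with the dimensions of the cells -/
theorem hfc_Lp' (hC : Mbf_337.Cores Φ T f κ1 κ2 X J0 Jt V ct A lmc z θ φ)
    (hL : Lay Φ T X J0 Jt T3 KK c3)
    {Rb : Set {c : QK (belK T3 KK) // pO T3 KK c3 ct c}}
    (hRb : ∀ q ∈ Rb, ∃ c ∈ X, setK T3 KK q.1 ⊆ P (T.H (ct c)))
    {Ds : Set E3} {B : E3 → E3 ≃ᵃ[ℝ] E3} {Λ μ : ℝ} {a : Fin 2 → ℝ}
    (FD : FaceD T (⋃ c, V c) Ds B Λ μ a) :
    ∀ x ∈ Ds, ∀ y ∈ usq (B x), T3.cc y = T.cc y ∧ T3.dim y = T.dim y ∧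
      (∃ q : {c : QK (belK T3 KK) // pO T3 KK c3 ct c},
        dimK (belK T3 KK) (fun c => c.1.dim) q.1 = T.dim y ∧ setK T3 KK q.1 = T.cc y) ∧
      ∀ q : {c : QK (belK T3 KK) // pO T3 KK c3 ct c}, setK T3 KK q.1 = T.cc y → q ∉ Rb := by
  intro x hx y hy
  rw [← FD.sq x hx] at hy
  exact cell_ord hC hL hRb (T.cc_sub_Om (FD.mem x hx) hy) fun i hi c hc =>
    FD.off x hx y hy i hi (mem_iUnion.2 ⟨c, hc⟩)

end Crest.Agent.R096.Mxo_487
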