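import Mathlib
import Crest.Agent.R096.Mxo1_487

/-!
# R096 (row 96), helper487.  `StO.meshX1` : the mixed mesh over the final state with ONE given base
(446's `base_R`).
-/

set_option autoImplicit false
set_option linter.unusedSectionVars false
set_option linter.style.longLine false

open Set Metric Filter Topology Module

namespace Crest.Agent.R096.Mxo_487

open Crest.Agent.R096.St_147 Crest.Agent.R096.Seq_213 Crest.Agent.R096.Seq_213.GSt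
  Crest.Agent.R096.Bd_416 Crest.Agent.R096.Mg_441 Crest.Agent.R096.Lm_117
  Crest.Agent.R096.Cp_298 Crest.Agent.R096.Gl_422
  Crest.Agent.R096.On_441 Crest.Agent.R096.SkB_662 Crest.Agent.R096.Ce_537
  Crest.Agent.R096.Arc_778
open Crest.Agent.R096.Msh_715 Crest.Agent.R096.Ecm_446 Crest.Agent.R096.Csub_487
open Crest.Agent.R096.SkC1_961 (E3 FoamD)
open Crest.Agent.R096.Fl_835 (wk)
open Crest.Agent.R096.Mi_117
open Crest.Agent.R96.Nu1_199 Crest.Agent.R96.Nu2_199 Crest.Agent.R96.Nu3_199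
  Crest.Agent.R96.Nu4_199 Crest.Agent.R96.Nu5_199 Crest.Agent.R96.Nu6_199
open Crest.Agent.R96.Nu7_199 (WE WE_nonneg finite_above)
open Crest.Agent.R096.Nk_955 Crest.Agent.R096.Be_416 Crest.Agent.R096.Mxs_487

open scoped Classical

/-! ### the final state -/

section sto

variable {ι Φc Q J Kq C : Type} {W : Type} {M : MeshC ι Φc W} [PartialOrder Q] {dim : Q → ℕ}
  {L : LM M Q dim} {O : Ori M} {τ : Q → ZMod 2} {Rel : W → W → Prop} {Vc : Set W}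
  {Qd : Quads ι C Kq} {κ : C → ℕ} {fam : J → C} {s₀ : GSt M fam} {far₀ : J → Set W}
  {Z : C → Set Q} {lam₀ : J → Q → ZMod 2} {v₀ v₁ : C → Q}
  {hfin : ∀ a, {j | fam j = a}.Finite} {kap : C → ℕ} {s : GSt M (fam' fam (Rk κ kap))}
  {far : Nm' fam (Rk κ kap) → Set W} {β : W → W} {lam : Nm' fam (Rk κ kap) → Q → ZMod 2}
variable {E : Type*} [NormedAddCommGroup E] [NormedSpace ℝ E] [FiniteDimensional ℝ E]
variable {K : Q → Set E} {Ω : Set E} {ε Kb KN : ℝ} {b : ℕ → ℝ}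

/-- **THE MIXED MESH OVER THE FINAL STATE** (534 #11119 (M1)); the tolerances come first, they are
monotone and below a given positive function -/
theorem StO.meshX1 (h : StO L O τ Rel Vc Qd κ s₀ far₀ Z lam₀ v₀ v₁ hfin kap s far β lam)
    {Rb : Set Q} {g0 : Gd E (Nm' fam (Rk κ kap))}
    {P0 : ∀ q, h.cmb.I q → Set E} {c0 : ∀ q, h.cmb.I q → E → ℝ}
    (X : Cplx Ω Q dim K) (T : Top3 L) (hconv : ∀ τ, Convex ℝ (K τ))
    (hcpt : ∀ τ, IsCompact (K τ)) (hbd : ∀ τ, bdS K τ = K τ \ ri (K τ))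
    (hb0 : ∀ n, 0 < b n) (hb2 : ∀ n, b n < 1/2) (hε0 : 0 < ε) (hε1 : ε < 1)
    {δm : ℝ} (hδm : 0 ≤ δm) (hδm1 : δm < 1) {ε' : ℝ} (hε'0 : 0 < ε') (hε'1 : ε' < 1)
    (hKb : 0 ≤ Kb) (hKN : 0 ≤ KN) (B : BaseC h.cmb K (wts κ kap fam) Kb Rb g0 P0 c0)
    (d0 : Q → ℝ) (hd0 : ∀ q, 0 < d0 q) :
    ∃ δ : Q → ℝ, (∀ q, 0 < δ q) ∧ (∀ q, δ q ≤ d0 q) ∧ (∀ σ τ : Q, σ ≤ τ → δ σ ≤ δ τ) ∧
      (∀ q, 0 < WE X h.cmb (wts κ kap fam) q → ∀ σ ≤ q, δ σ ≤ WE X h.cmb (wts κ kap fam) q) ∧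
      ∀ (N : Set Q) (_ : ∀ τ ∈ N, 2 ≤ dim τ)
      (th : Q → ℝ) (_ : ∀ τ, 0 < th τ) (_ : ∀ τ, th τ ≤ 1)
      (_ : ∀ τ ∉ Rb, τ ∉ N → 2 ≤ dim τ → th τ = 1)
      (_ : ∀ τ ∉ Rb, dim τ = 1 → 1 - ε' ≤ (1 - δm) * (1 - ε) * th τ)
      (SpecX : ∀ q, Bd_416.Lam (K q) (h.cmb.I q) → Prop)
      (_ : ∀ τ ∉ Rb, dim τ = 0 → ∀ M, SpecX τ M)
      (_ : ∀ τ ∉ Rb, dim τ = 1 → ∀ (e : PLEquiv (cube 1) (K τ)), AffC e →
        e.f '' sph 1 = bdS K τ →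
        e.f (fun _ => -1) ∈ K (h.cmb.o τ) → ∀ (p : h.cmb.I τ → ℝ)
        (hE : Ed (fun i => 4 * (1 - δm) * (1 - ε) * (th τ * uq h.cmb (wts κ kap fam) δ τ) *
          wts κ kap fam (h.cmb.col τ i)) p),
        (∀ i, |p i| + 4 * (1 - δm) * (1 - ε) * (th τ * uq h.cmb (wts κ kap fam) δ τ) *
          wts κ kap fam (h.cmb.col τ i) / 2 < 1 - δm) →
        (∀ i j, ek h.lfs τ j < ek h.lfs τ i → p j < p i) →
        SpecX τ ((edgeLam hE).pull e.symm (X.isClosed τ)))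
      (_ : ∀ D' g P c (H : Inv h.cmb K D' g P c), ∀ τ, 2 ≤ dim τ →
        (∀ q ∈ D', TrkX (h := h.lfs) (Lam := Lf lam) (hLam := xlf h.lab.lab) X Rb
          g0 P0 c0 SpecX (K0x Rb Kb KN) δ ε' b (wts κ kap fam)
          (dim τ) g P c q) →
        ∀ (_ : τ ∉ Rb) (_ : τ ∉ N) (hτ : ∀ σ < τ, σ ∈ D') (κ' : ℝ)
        (ρ : h.cmb.I τ → ℝ)
        (Dp : Dep (bdLam H X τ hτ) κ' (b (dim τ)) (fun x =>
          (th τ * uq h.cmb (wts κ kap fam) δ τ) * wts κ kap fam (h.cmb.col τ x)) ρ),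
        (∀ x x', RlG h.cmb K c τ x x' → ρ x' < ρ x) →
        ∀ (e : PLEquiv (cube (dim τ)) (K τ)) (he : e.f '' sph (dim τ) = bdS K τ),
        SpecX τ (Dp.fillBall e he))
      (_ : ∀ D' g P c (H : Inv h.cmb K D' g P c), ∀ τ ∈ N,
        (∀ q ∈ D', TrkX (h := h.lfs) (Lam := Lf lam) (hLam := xlf h.lab.lab) X Rb
          g0 P0 c0 SpecX (K0x Rb Kb KN) δ ε' b (wts κ kap fam)
          (dim τ) g P c q) →
        τ ∉ Rb → ∀ hτ : ∀ σ < τ, σ ∈ D',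
        ∃ (e' : PLEquiv (cube (dim τ)) (K τ)) (he' : e'.f '' sph (dim τ) = bdS K τ)
          (κ' : ℝ) (h' ρ : h.cmb.I τ → ℝ) (Dp : Dep (bdLam H X τ hτ) κ' (b (dim τ)) h' ρ),
          (∀ x x', RlG h.cmb K c τ x x' → ρ x' < ρ x) ∧ SpecX τ (Dp.fillBall e' he') ∧
          ∀ B : E ≃ᵃ[ℝ] E, ∀ x, ∀ z ∈ K τ,
            LB B (K0x Rb Kb KN τ * (AAc (dim τ) (B '' K τ) *
              (Wd h.cmb (wts κ kap fam) τ + δ τ)) / wts κ kap fam (h.cmb.col τ x))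
              ((Dp.fillBall e' he').c x) (K τ) z),
      ∃ g P c, Inv h.cmb K univ g P c ∧ MGeo h.lfs (Lf lam) (xlf h.lab.lab) K Rb c ∧
        (∀ q, TrkX (h := h.lfs) (Lam := Lf lam) (hLam := xlf h.lab.lab) X Rb g0
          P0 c0 SpecX (K0x Rb Kb KN) δ ε' b (wts κ kap fam) 4 g P c q) ∧
        ∀ q ∈ Rb, ∀ z ∈ K q, EqAt (sqs g0 b 4) g z := by
  obtain ⟨δ, h1, h2, h3, h4⟩ := exists_deltaM X h.cmb (wts κ kap fam) d0 hd0
  refine ⟨δ, h1, h2, h3, h4, fun N hN2 th hth0 hth1 hth hε' SpecX hX0 hX1 hX2 ruleN => ?_⟩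
  obtain ⟨g, P, c, H, G, hT⟩ := mesh_instT (h := h.lfs) (Lam := Lf lam) (hLam := xlf h.lab.lab) X T
    hconv hcpt hbd (fun j => by positivity) hb0 hb2 hε0 hε1 hδm hδm1 hε'0 hε'1 N hN2 hth0 hth1 hth
    hε' (K0x_nonneg hKN) (fun σ τ hστ => K0x_mono hKb hστ.le) h1 B (fun q hq => le_K0x_of_mem hq)
    SpecX hX0 hX1 hX2 ruleN
  exact ⟨g, P, c, H, G, hT, fun q hq z hz => (hT q).eqR hq z hz⟩

end sto

end Crest.Agent.R096.Mxo_487
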