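import Crest.Agent.R096.Csub9_487
import Crest.Agent.R096.Be9_416
import Crest.Agent.R096.Nod1_714

/-!
# R096 (row 96), bottom: NUMBERS, part 1 (helper689)

The constants of the machine in the order of `Mno_534.MachGN`.

* before `e`: `K1n` (base constant), `Ckn`, `Csn` (mesh constant and Lipschitz constant of a shape),
  `CuF`, `Cun` (shape constants off the exact cores), `C0n` (constant of the exact cores);
* `NumK β0 e κb κf sg bt` : all inequalities between the numbers which are chosen after `e`;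
  `exists_numK`.
-/

set_option autoImplicit false
set_option linter.unusedSectionVars false
set_option linter.unusedVariables false
set_option linter.style.longLine false

open Set Filter Topology Metric

namespace Crest.Agent.R096.Num_689

open Crest.Agent.R096.Bd_416 Crest.Agent.R096.Brk5_582 Crest.Agent.R096.Csub_487
open Crest.Agent.R096.SkC1_961 (E3)

/-! ### before `e` -/

/-- the constant of the base at the exact cores (`BaseC.of_Kbase`) -/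
noncomputable def K1n (δ R : ℝ) : ℝ := 8 * (R * R) * Cs (Fintype.card (Fin 3)) δ R

theorem K1n_nonneg {δ R : ℝ} (hδ : 0 < δ) (hR : 0 < R) : 0 ≤ K1n δ R :=
  mul_nonneg (by positivity) (Cs_nonneg hδ hR)

theorem K1n_eq (δ R : ℝ) : K1n δ R = 8 * (R * R) * Cs 3 δ R := rfl

/-- the number of a shape, all ordinary tiles (`tile_clauseX`) -/
noncomputable def Ckn (KN ε₁ δ R : ℝ) (𝒦 : Set (Set E3)) : ℝ :=
  2 * CUe (max KN (K1n δ R)) ε₁ 3 𝒦

theorem Ckn_nonneg {KN ε₁ δ R : ℝ} (hKN : 0 ≤ KN) (𝒦 : Set (Set E3)) : 0 ≤ Ckn KN ε₁ δ R 𝒦 :=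
  mul_nonneg (by norm_num) (CUe_nonneg (hKN.trans (le_max_left _ _)) _ _)

/-- the Lipschitz constant of a shape -/
noncomputable def Csn (KN ε₁ δ R κ3 : ℝ) (𝒦 : Set (Set E3)) : ℝ :=
  2 * R * κ3 * Ckn KN ε₁ δ R 𝒦 + 1

theorem Csn_pos {KN ε₁ δ R κ3 : ℝ} (hKN : 0 ≤ KN) (hR : 0 ≤ R) (hκ3 : 0 ≤ κ3)
    (𝒦 : Set (Set E3)) : 0 < Csn KN ε₁ δ R κ3 𝒦 := by
  have := mul_nonneg (mul_nonneg (mul_nonneg (by norm_num : (0:ℝ) ≤ 2) hR) hκ3)
    (Ckn_nonneg (ε₁ := ε₁) (δ := δ) (R := R) hKN 𝒦)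
  unfold Csn
  linarith

theorem Csn_le {KN ε₁ δ R κ3 : ℝ} (𝒦 : Set (Set E3)) :
    2 * R * κ3 * Ckn KN ε₁ δ R 𝒦 ≤ Csn KN ε₁ δ R κ3 𝒦 := by
  unfold Csn
  linarith

/-- the number of a shape, tiles which touch no exact core (`tile_clauseN`) -/
noncomputable def CuF (KN ε₁ : ℝ) (𝒦 : Set (Set E3)) : ℝ := 2 * CUe KN ε₁ 3 𝒦 + 1

theorem CuF_pos {KN ε₁ : ℝ} (hKN : 0 ≤ KN) (𝒦 : Set (Set E3)) : 0 < CuF KN ε₁ 𝒦 := by
  have := CUe_nonneg (ε := ε₁) hKN 3 𝒦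
  unfold CuF
  linarith

theorem CuF_le {KN ε₁ : ℝ} (𝒦 : Set (Set E3)) : 2 * CUe KN ε₁ 3 𝒦 ≤ CuF KN ε₁ 𝒦 := by
  unfold CuF
  linarith

/-- `Cu` of `GNO` (`FinNO.gno`) -/
noncomputable def Cun (KN ε₁ : ℝ) : Set (Set E3) → ℝ := fun 𝒦 => 2 * CuF KN ε₁ 𝒦

theorem Cun_pos {KN ε₁ : ℝ} (hKN : 0 ≤ KN) (𝒦 : Set (Set E3)) : 0 < Cun KN ε₁ 𝒦 :=
  mul_pos (by norm_num) (CuF_pos hKN 𝒦)

/-- the constant of the exact cores -/
noncomputable def C0n (δ κ0 R : ℝ) : ℝ := Rpk_714.Spk δ κ0 R + 1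

theorem lt_C0n (δ κ0 R : ℝ) : Rpk_714.Spk δ κ0 R < C0n δ κ0 R := lt_add_one _

theorem C0n_pos (δ κ0 R : ℝ) : 0 < C0n δ κ0 R := (Rpk_714.Spk_pos δ κ0 R).trans (lt_C0n δ κ0 R)

/-! ### after `e` -/

/-- **the numbers after `e`**: `κb` = size of the base bands, `bt` = squeezes (4 steps), `κf` = size of
the final bands, `sg` = clamp size `s` of `rel_pack'`; `sg / 2` = closeness `η` of the nodes. -/
structure NumK (β0 e κb κf sg : ℝ) (bt : ℕ → ℝ) : Prop where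
  kb0 : 0 < κb
  kb2 : κb ≤ 1/2
  b0 : ∀ n, 0 < bt n
  b2 : ∀ n, bt n < 1/2
  bβ : ∀ n, β0 ≤ bt n
  b4 : ∀ n, 1/4 ≤ bt n
  kf : κf = 1 - (1 - κb) * bet bt (3 + 1)
  kf0 : 0 < κf
  kf2 : κf ≤ sg / 2
  sg0 : 0 < sg
  sg1 : sg ≤ 1/4
  e1 : 3 * sg ≤ e
  e2 : κf / (1 - κf) < e

namespace NumK

variable {β0 e κb κf sg : ℝ} {bt : ℕ → ℝ} (h : NumK β0 e κb κf sg bt)

include h

theorem kb : 0 < κb ∧ κb < 1 := ⟨h.kb0, h.kb2.trans_lt (by norm_num)⟩
theorem kb1 : κb ≤ 1 := h.kb.2.le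
theorem kfs : κf ≤ sg := h.kf2.trans (by linarith [h.sg0])
theorem sglt : sg < 1 := h.sg1.trans_lt (by norm_num)
theorem kf8 : κf ≤ 1/8 := by linarith [h.kf2, h.sg1]
theorem kflt : κf < 1 := h.kf8.trans_lt (by norm_num)
theorem η0 : 0 < sg / 2 := half_pos h.sg0
theorem η1 : sg / 2 ≤ 1 := by linarith [h.sg1]

end NumK

/-- **the numbers exist** -/
theorem exists_numK {β0 e : ℝ} (hβ : β0 < 1/2) (he : 0 < e) :
    ∃ (κb κf sg : ℝ) (bt : ℕ → ℝ), NumK β0 e κb κf sg bt := by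
  set sg : ℝ := min (1/4) (e / 3) with hsg
  have s0 : 0 < sg := lt_min (by norm_num) (by positivity)
  have s1 : sg ≤ 1/4 := min_le_left _ _
  have s2 : sg ≤ e / 3 := min_le_right _ _
  set t : ℝ := sg / 2 with ht
  have t0 : 0 < t := half_pos s0
  have t1 : t ≤ 1/8 := by rw [ht]; linarith
  set b : ℝ := max (max β0 (1/4)) (1/2 - t/16) with hb
  have b2 : b < 1/2 := max_lt (max_lt hβ (by norm_num)) (by linarith)
  have b4 : 1/4 ≤ b := (le_max_right β0 (1/4)).trans (le_max_left _ _)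
  have bβ : β0 ≤ b := (le_max_left β0 (1/4)).trans (le_max_left _ _)
  have b1 : 1/2 - t/16 ≤ b := le_max_right _ _
  have hbet : bet (fun _ => b) (3 + 1) = (2 * b) ^ 4 := by
    unfold bet
    rw [Finset.prod_const, Finset.card_range]
  have h5 : 1 - t / 2 ≤ (2 * b) ^ 4 := by
    set u : ℝ := 2 * b with hu
    have u1 : 1 - t / 8 ≤ u := by rw [hu]; linarith
    have u0 : 0 < u := by rw [hu]; linarith
    have u2 : u ≤ 1 := by rw [hu]; linarith
    have k1 : (1 - t / 8) ^ 4 ≤ u ^ 4 := pow_le_pow_left₀ (by linarith) u1 4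
    have k2 : 1 - t / 2 ≤ (1 - t / 8) ^ 4 := by
      have := one_add_mul_le_pow (a := -(t / 8)) (by linarith) 4
      push_cast at this
      have e1 : 1 + 4 * -(t / 8) = 1 - t / 2 := by ring
      have e2 : 1 + -(t / 8) = 1 - t / 8 := by ring
      rw [e1, e2] at this
      exact this
    exact k2.trans k1
  have h6 : (2 * b) ^ 4 ≤ 1 := pow_le_one₀ (by linarith) (by linarith)
  set κf : ℝ := 1 - (1 - t / 2) * bet (fun _ => b) (3 + 1) with hκf
  have kf0 : 0 < κf := by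
    rw [hκf, hbet]
    nlinarith
  have kf2 : κf ≤ sg / 2 := by
    rw [hκf, hbet]
    nlinarith
  refine ⟨t / 2, κf, sg, fun _ => b, ⟨by positivity, by linarith, fun _ => by linarith, fun _ => b2,
    fun _ => bβ, fun _ => b4, hκf, kf0, kf2, s0, s1, by linarith, ?_⟩⟩
  have k8 : κf ≤ 1/8 := by linarith
  rw [div_lt_iff₀ (by linarith)]
  nlinarith

end Crest.Agent.R096.Num_689
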