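import Crest.Agent.R096.Mi7_117
import Crest.Agent.R096.Mxo3_487
import Crest.Agent.R096.Mxo4_487
import Crest.Agent.R096.Num1_689
import Crest.Agent.R096.Mno3_534

/-!
# R096 (row 96), helper487.  The mixed mesh over 337's `Lp`: base, outputs, `GNO`.

* `RbL`, `hRb_lay` : the cells of the boundaries of the exact cores;
* `base_lay` : ONE base of all exact cores over `Lp`, `K q = setK T3 KK q.1`, constant `K1n δ R`;
* `mesh_layX0` : from the output of `StO.meshX1` / `mesh_no` (`TrkX`, `EqAt (sqs g0 b 4) Gf` on `RbL`)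
  to the literal clause `tile` of `fin_stG` (constant `Ckn KN ε₁ δ R`) and the clauses at the
  boundaries of the exact cores;
* `gno_lay` : `GNO p (Cun KN ε₁)`.
-/

set_option autoImplicit false
set_option linter.unusedSectionVars false
set_option linter.unusedVariables false
set_option linter.style.longLine false

open Set Metric Filter Topology Module

namespace Crest.Agent.R096.Mxo_487

open Crest.Agent.R096.Brk1_582 Crest.Agent.R096.Brk2_582 Crest.Agent.R096.Brk3_582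
open Crest.Agent.R096.Bsp_628 Crest.Agent.R096.Grd_714
open Crest.Agent.R096.St_147 Crest.Agent.R096.Seq_213 Crest.Agent.R096.Seq_213.GSt
  Crest.Agent.R096.Bd_416 Crest.Agent.R096.Mg_441 Crest.Agent.R096.Lm_117
  Crest.Agent.R096.Cp_298 Crest.Agent.R096.Gl_422
  Crest.Agent.R096.On_441 Crest.Agent.R096.SkB_662 Crest.Agent.R096.Ce_537
  Crest.Agent.R096.Arc_778
open Crest.Agent.R096.Msh_715 Crest.Agent.R096.Ecm_446 Crest.Agent.R096.Csub_487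
open Crest.Agent.R096.Xp_537 (gG)
open Crest.Agent.R096.SkC1_961 (E3 FoamD th NN)
open Crest.Agent.R096.Fl_835 (wk)
open Crest.Agent.R96.Nu1_199 (Wd)
open Crest.Agent.R96.Nu7_199 (WE WE_nonneg)
open Crest.Agent.R096.Nk_955 Crest.Agent.R096.Be_416 Crest.Agent.R096.Mxs_487
open Crest.Agent.R096.Cpo_642 Crest.Agent.R096.Frn_337 Crest.Agent.R096.Agl5_543
open Crest.Agent.R096.Ori_543
open Crest.Agent.R096.Gm_298
open Crest.Agent.R096.Init_543 (JJ fr3)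
open Crest.Agent.R096.Mbf_337 (KJ)
open Crest.Agent.R096.Fin_147 (Xout)
open Crest.Agent.R096.Num_689
open Crest.Agent.R096.SkN1_477
open Crest.Agent.R096.Mno_534
open Crest.Agent.R096.Mi_117

open scoped Classical

variable {δ κ0 R c0 κ1 κ2 : ℝ} {La Om : Set E3} {ι : Type} {Φ : FoamD δ κ0 R c0 La}
  {T : Tiling Om ι} {X : Set Φ.F} {J0 Jt V : Φ.F → Set ι} {f : E3 → E3} {ct : Φ.F → ι}
  {A : Φ.F → E3 ≃ᵃ[ℝ] E3} {lam : Φ.F → ℝ} {z : Φ.F → E3} {θ : Φ.F → E3 → E3} {φ : Φ.F → E3 → ℝ}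
  {ι3 : Type} {T3 : Tiling Om ι3} {KK : Ti X → Set E3} {c3 : ι → ι3}
variable [Nonempty T3.Cell] {hH : ∀ k, CoreH T3 (KK k)}
    {hdis : ∀ k k', k ≠ k' → Disjoint (KK k) (KK k')} {hne : ∃ c, OutK T3 KK c}
variable {L : Φ.F → Finset ℝ} {Qd : Quads (ι3 ⊕ Ti X) Φ.F (Init_543.QK (Brk3_582.Pc Φ.F))}
    {s₀ : GSt (mK fr3 hH hdis) (fun j : JJ Φ L => j.1)} {far₀ : JJ Φ L → Set E3}
    {Gc : Φ.F → Set E3} {Zc : Φ.F → Set (QK (belK T3 KK))}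
    {lam₀ : JJ Φ L → QK (belK T3 KK) → ZMod 2} {v₀ v₁ : Φ.F → QK (belK T3 KK)}

variable (T3 KK c3 ct X) in
/-- the cells of the boundaries of the exact cores -/
def RbL : Set {c : QK (belK T3 KK) // pO T3 KK c3 ct c} :=
  ⋃ c : X, Dk (c3 (ct c)) (celK T3 KK (tlX X c3 ct))

theorem hRb_lay (hL : Lay Φ T X J0 Jt T3 KK c3)
    (hC : Mbf_337.Cores Φ T f κ1 κ2 X J0 Jt V ct A lam z θ φ) :
    ∀ q ∈ RbL X ct T3 KK c3, ∃ c ∈ X, setK T3 KK q.1 ⊆ P (T.H (ct c)) := by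
  intro q hq
  obtain ⟨c, hc⟩ := mem_iUnion.1 hq
  refine ⟨c, c.2, ?_⟩
  have h1 : (celK T3 KK (tlX X c3 ct) q).set ⊆ P (T3.H (c3 (ct c))) := hc.1
  have hs : setK T3 KK q.1 = (celK T3 KK (tlX X c3 ct) q).set := celK_set _ q
  rw [hs, ← Lay.keepX hL hC c.2]
  exact h1

section fin

variable {κ : Φ.F → ℕ}
    {hfin : ∀ a, {j : JJ Φ L | j.1 = a}.Finite} {kap : Φ.F → ℕ}
    {s : GSt (mK fr3 hH hdis) (fam' (fun j : JJ Φ L => j.1) (Rk κ kap))}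
    {far : Nm' (fun j : JJ Φ L => j.1) (Rk κ kap) → Set E3} {β : E3 → E3}
    {lm : Nm' (fun j : JJ Φ L => j.1) (Rk κ kap) → {c : QK (belK T3 KK) // pO T3 KK c3 ct c} → ZMod 2}

/-- **THE BASE OVER `Lp`** -/
theorem base_lay (hLa : IsOpen La) (hδ : 0 < δ) (hR : 0 < R)
    (hL : Lay Φ T X J0 Jt T3 KK c3)
    (hC : Mbf_337.Cores Φ T f κ1 κ2 X J0 Jt V ct A lam z θ φ)
    (hF : Front T f J0 Jt V ct c3 hH hdis hne Qd s₀ far₀ Gc Zc lam₀ v₀ v₁)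
    (hκ : ∀ m, {c | κ c ≤ m}.Finite)
    (hO : StO (Lp c3 ct hH hdis hne) (oriK fr3 hH hdis) (fun c => tauK T3 KK c.1) (RelM T3)
      (lmK fr3 hH hdis hne).W1 Qd κ s₀ far₀ (fun c => {v | v.1 ∈ Zc c})
      (fun j v => lam₀ j v.1) (fun c => sv (pO T3 KK c3 ct) (pO_ne hne) (v₀ c))
      (fun c => sv (pO T3 KK c3 ct) (pO_ne hne) (v₁ c)) hfin kap s far β lm)
    (hnp : ∀ c : Φ.F, (Brk3_582.Pc Φ.F c).Nonempty)
    (hm : ∀ a, 0 < mm (fin_copies (Rk κ kap) hfin) a)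
    (ht : ∀ j : JJ Φ L, j.2.1 ≤ 1) {κb : ℝ} (hκb : 0 < κb ∧ κb ≤ 1/2)
    {Mx : Φ.F → ℕ} {n : Φ.F → Φ.F → ℕ → ℝ}
    (HR : CoresR Φ T3 f κ1 κ2 (Lp c3 ct hH hdis hne) (celK T3 KK (tlX X c3 ct)) Qd κ s₀
      (fun c => {v | v.1 ∈ Zc c}) (fun j v => lam₀ j v.1)
      (fun c => sv (pO T3 KK c3 ct) (pO_ne hne) (v₀ c)) kap X (fun c => c3 (ct c)) A lam z Mx
      (fun j => j.2.1) κb n hfin) :
    ∃ (g0 : Gd E3 (Nm' (fun j : JJ Φ L => j.1) (Rk κ kap))) (P0 : ∀ q, hO.cmb.I q → Set E3)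
      (c00 : ∀ q, hO.cmb.I q → E3 → ℝ),
      BaseC hO.cmb (fun q => setK T3 KK q.1) (wts κ kap (fun j : JJ Φ L => j.1)) (K1n δ R)
        (RbL X ct T3 KK c3) g0 P0 c00 ∧
      ∀ c : X, ∀ x ∈ frontier (Kcs T KK ct c),
        EqAt (gbR hLa hnp hm (fun a => .top a) (nr (Lp c3 ct hH hdis hne) s lm hO.fin1) HR c) g0 x ∧
        ∃ q : {c : QK (belK T3 KK) // pO T3 KK c3 ct c}, q ∈ RbL X ct T3 KK c3 ∧
          x ∈ setK T3 KK q.1 ∧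
          setK T3 KK q.1 ⊆ frontier (Kcs T KK ct c) ∧ IsClosed (setK T3 KK q.1) := by
  have hK : (fun q : {c : QK (belK T3 KK) // pO T3 KK c3 ct c} => setK T3 KK q.1) =
      fun q => (celK T3 KK (tlX X c3 ct) q).set := funext fun q => celK_set _ q
  have hI := cellIx_p (T3 := T3) (KK := KK) (c3 := c3) (ct := ct)
  have hXc := cplx_p hL hC
  obtain ⟨g0, P0, c00, hB, hE⟩ := base_R (hF.stI hκ) hO hLa hδ hR onT_p (hK ▸ hXc)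
    (fun q => by
      have h1 := hI.bd q
      rw [hK] at h1
      rw [h1]; exact congrArg (fun S : Set E3 => S \ R96.Nu3_199.ri S) (celK_set _ q)) hnp hm ht
    ⟨hκb.1, by linarith [hκb.2]⟩ (fun a => .top a) HR
  rw [← hK] at hB
  have hB' := hB.of_Kbase hδ hR hκb.2 (fun j => by positivity)
  refine ⟨g0, P0, c00, hB', fun c x hx => ?_⟩
  have hfr : frontier (Kcs T KK ct c) = frontier (P (T3.H (c3 (ct c)))) := by
    rw [kcs_X c.2, Lay.keepX hL hC c.2]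
  rw [hfr] at hx
  obtain ⟨h1, q, hq, h2, h3, h4⟩ := hE c x hx
  have hs : setK T3 KK q.1 = (celK T3 KK (tlX X c3 ct) q).set := celK_set _ q
  refine ⟨h1, q, mem_iUnion.2 ⟨c, hq⟩, ?_, ?_, ?_⟩
  · rw [hs]; exact h2
  · rw [hs, hfr]; exact h3
  · rw [hs]; exact h4

/-- **FROM THE MIXED MESH TO THE INPUTS OF `fin_stG`**; `Fc` = any clause on the mesh (face rule).
`hM` = `mesh_no` / `StO.meshX1` over `Lp` for one given base on `RbL` -/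
theorem mesh_layX0 (hLa : IsOpen La) (hδ : 0 < δ) (hR : 0 < R)
    (hL : Lay Φ T X J0 Jt T3 KK c3)
    (hC : Mbf_337.Cores Φ T f κ1 κ2 X J0 Jt V ct A lam z θ φ)
    (hF : Front T f J0 Jt V ct c3 hH hdis hne Qd s₀ far₀ Gc Zc lam₀ v₀ v₁)
    (hκ : ∀ m, {c | κ c ≤ m}.Finite)
    (hO : StO (Lp c3 ct hH hdis hne) (oriK fr3 hH hdis) (fun c => tauK T3 KK c.1) (RelM T3)
      (lmK fr3 hH hdis hne).W1 Qd κ s₀ far₀ (fun c => {v | v.1 ∈ Zc c})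
      (fun j v => lam₀ j v.1) (fun c => sv (pO T3 KK c3 ct) (pO_ne hne) (v₀ c))
      (fun c => sv (pO T3 KK c3 ct) (pO_ne hne) (v₁ c)) hfin kap s far β lm)
    (hnp : ∀ c : Φ.F, (Brk3_582.Pc Φ.F c).Nonempty)
    (hm : ∀ a, 0 < mm (fin_copies (Rk κ kap) hfin) a)
    (ht : ∀ j : JJ Φ L, j.2.1 ≤ 1) {κb : ℝ} (hκb : 0 < κb ∧ κb ≤ 1/2)
    {Mx : Φ.F → ℕ} {n : Φ.F → Φ.F → ℕ → ℝ}
    (HR : CoresR Φ T3 f κ1 κ2 (Lp c3 ct hH hdis hne) (celK T3 KK (tlX X c3 ct)) Qd κ s₀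
      (fun c => {v | v.1 ∈ Zc c}) (fun j v => lam₀ j v.1)
      (fun c => sv (pO T3 KK c3 ct) (pO_ne hne) (v₀ c)) kap X (fun c => c3 (ct c)) A lam z Mx
      (fun j => j.2.1) κb n hfin)
    {b : ℕ → ℝ} (hb4 : ∀ n, 1/4 ≤ b n) {ε ε₁ KN : ℝ} (hε : ε ≤ ε₁) (hε1 : ε₁ < 1) (hKN : 0 ≤ KN)
    (Fc : Gd E3 (Nm' (fun j : JJ Φ L => j.1) (Rk κ kap)) → (∀ q, hO.cmb.I q → Set E3) →
      (∀ q, hO.cmb.I q → E3 → ℝ) → Prop)
    (hM : ∀ (g0 : Gd E3 (Nm' (fun j : JJ Φ L => j.1) (Rk κ kap)))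
      (P0 : ∀ q, hO.cmb.I q → Set E3) (c00 : ∀ q, hO.cmb.I q → E3 → ℝ),
      BaseC hO.cmb (fun q => setK T3 KK q.1) (wts κ kap (fun j : JJ Φ L => j.1)) (K1n δ R)
        (RbL X ct T3 KK c3) g0 P0 c00 →
      ∃ δt : {c : QK (belK T3 KK) // pO T3 KK c3 ct c} → ℝ, (∀ q, 0 < δt q) ∧
        (∀ q, 0 < WE (cplx_p hL hC) hO.cmb (wk κ kap (fun j : JJ Φ L => j.1)) q →
          ∀ σ ≤ q, δt σ ≤ WE (cplx_p hL hC) hO.cmb (wk κ kap (fun j : JJ Φ L => j.1)) q) ∧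
        ∃ Gf Pp cc, Inv hO.cmb (fun q => setK T3 KK q.1) univ Gf Pp cc ∧
          MGeo hO.lfs (Lf lm) (xlf hO.lab.lab) (fun q => setK T3 KK q.1) (RbL X ct T3 KK c3) cc ∧
          (∃ SpecX, ∀ q, TrkX (h := hO.lfs) (Lam := Lf lm) (hLam := xlf hO.lab.lab)
            (cplx_p hL hC) (RbL X ct T3 KK c3) g0 P0 c00 SpecX
            (K0x (RbL X ct T3 KK c3) (K1n δ R) KN) δt ε b (wk κ kap (fun j : JJ Φ L => j.1)) 4
            Gf Pp cc q) ∧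
          (∀ q ∈ RbL X ct T3 KK c3, ∀ z ∈ setK T3 KK q.1, EqAt (sqs g0 b 4) Gf z) ∧
          Fc Gf Pp cc) :
    ∃ (Gf : Gd E3 (Nm' (fun j : JJ Φ L => j.1) (Rk κ kap))) (Pp : ∀ q, hO.cmb.I q → Set E3)
      (cc : ∀ q, hO.cmb.I q → E3 → ℝ) (g0 : Gd E3 (Nm' (fun j : JJ Φ L => j.1) (Rk κ kap))),
      Inv hO.cmb (fun q => setK T3 KK q.1) univ Gf Pp cc ∧
      MGeo hO.lfs (Lf lm) (xlf hO.lab.lab) (fun q => setK T3 KK q.1) (RbL X ct T3 KK c3) cc ∧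
      (∀ i, (∀ c, i ∉ V c) → ∃ q : {c : QK (belK T3 KK) // pO T3 KK c3 ct c},
        setK T3 KK q.1 = P (T.H i) ∧
        (∀ e, e < q → dimK (belK T3 KK) (fun c => c.1.dim) e.1 = 1 →
          (Lp c3 ct hH hdis hne).toSk.On1 e ⊆ {y | y ∈ P (T.H i) ∧ T.dim y ≤ 1}) ∧
        ∀ (B : E3 ≃ᵃ[ℝ] E3) (x : hO.cmb.I q), ∀ y ∈ setK T3 KK q.1,
          LB B (Ckn KN ε₁ δ R ((fun K => B '' K) '' SkC1_961.Cfg T i) *
            WE (cplx_p hL hC) hO.cmb (wk κ kap (fun j : JJ Φ L => j.1)) q /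
              wk κ kap (fun j : JJ Φ L => j.1) (hO.cmb.col q x)) (cc q x)
            (setK T3 KK q.1) y) ∧
      (∀ c : X, ∀ x ∈ frontier (Kcs T KK ct c),
        EqAt (gbR hLa hnp hm (fun a => .top a) (nr (Lp c3 ct hH hdis hne) s lm hO.fin1) HR c) g0 x ∧
        EqAt (sqs g0 b 4) Gf x ∧
        ∃ q : {c : QK (belK T3 KK) // pO T3 KK c3 ct c}, x ∈ setK T3 KK q.1 ∧
          setK T3 KK q.1 ⊆ frontier (Kcs T KK ct c) ∧ IsClosed (setK T3 KK q.1)) ∧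
      Fc Gf Pp cc ∧
      ∃ δt : {c : QK (belK T3 KK) // pO T3 KK c3 ct c} → ℝ, (∀ q, 0 < δt q) ∧
        (∀ q, 0 < WE (cplx_p hL hC) hO.cmb (wk κ kap (fun j : JJ Φ L => j.1)) q →
          ∀ σ ≤ q, δt σ ≤ WE (cplx_p hL hC) hO.cmb (wk κ kap (fun j : JJ Φ L => j.1)) q) ∧
        ∃ P0 c00 SpecX, ∀ q, TrkX (h := hO.lfs) (Lam := Lf lm) (hLam := xlf hO.lab.lab)
            (cplx_p hL hC) (RbL X ct T3 KK c3) g0 P0 c00 SpecX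
            (K0x (RbL X ct T3 KK c3) (K1n δ R) KN) δt ε b (wk κ kap (fun j : JJ Φ L => j.1)) 4
            Gf Pp cc q := by
  obtain ⟨g0, P0, c00, hB, hE⟩ := base_lay hLa hδ hR hL hC hF hκ hO hnp hm ht hκb HR
  obtain ⟨δt, d1, d2, Gf, Pp, cc, H, G, ⟨SpecX, hT⟩, hS, hf⟩ := hM g0 P0 c00 hB
  refine ⟨Gf, Pp, cc, g0, H, G, ?_, fun c x hx => ?_, hf, δt, d1, d2, P0, c00, SpecX, hT⟩
  · exact tile_clauseX hO (cplx_p hL hC) cellIx_p onT_p hb4 hε hε1 (K1n_nonneg hδ hR) hKN d1 d2 hT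
      (ord_lay hL hC)
  · obtain ⟨h1, q, hq, h2, h3, h4⟩ := hE c x hx
    exact ⟨h1, hS q hq x h2, q, h2, h3, h4⟩

set_option maxHeartbeats 1000000 in
/-- **`GNO` OVER `Lp`** from the output of `mesh_layX0`, the values of the structure map on the cells
(`FinG.mesh`) and the face rule -/
theorem gno_lay (hLa : IsOpen La)
    (hL : Lay Φ T X J0 Jt T3 KK c3)
    (hC : Mbf_337.Cores Φ T f κ1 κ2 X J0 Jt V ct A lam z θ φ)
    (hF : Front T f J0 Jt V ct c3 hH hdis hne Qd s₀ far₀ Gc Zc lam₀ v₀ v₁)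
    {κp μ κ3 : ℝ} {Zx : Φ.F → Set ℝ} {m0 : Φ.F → ℕ}
    (hLv : Mbf_337.Levels Φ T f κp μ κ3 Zx m0 κ L)
    (hO : StO (Lp c3 ct hH hdis hne) (oriK fr3 hH hdis) (fun c => tauK T3 KK c.1) (RelM T3)
      (lmK fr3 hH hdis hne).W1 Qd κ s₀ far₀ (fun c => {v | v.1 ∈ Zc c})
      (fun j v => lam₀ j v.1) (fun c => sv (pO T3 KK c3 ct) (pO_ne hne) (v₀ c))
      (fun c => sv (pO T3 KK c3 ct) (pO_ne hne) (v₁ c)) hfin kap s far β lm)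
    {hf1 : ∀ a, {j | hO.cmb.fam j = a}.Finite} (hm : ∀ a, 0 < mm hf1 a)
    {b : ℕ → ℝ} (hb4 : ∀ n, 1/4 ≤ b n) {ε ε₁ Kb KN : ℝ} (hε : ε ≤ ε₁) (hε1 : ε₁ < 1)
    (hKN : 0 ≤ KN)
    {δt : {c : QK (belK T3 KK) // pO T3 KK c3 ct c} → ℝ} (hδ : ∀ q, 0 < δt q)
    (hδ2 : ∀ q, 0 < WE (cplx_p hL hC) hO.cmb (wk κ kap (fun j : JJ Φ L => j.1)) q →
      ∀ σ ≤ q, δt σ ≤ WE (cplx_p hL hC) hO.cmb (wk κ kap (fun j : JJ Φ L => j.1)) q)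
    {SpecX : ∀ q : {c : QK (belK T3 KK) // pO T3 KK c3 ct c},
      Bd_416.Lam (setK T3 KK q.1) (hO.cmb.I q) → Prop}
    {g0 Gf : Gd E3 (Nm' (fun j : JJ Φ L => j.1) (Rk κ kap))}
    {P0 Pp : ∀ q, hO.cmb.I q → Set E3} {c00 cc : ∀ q, hO.cmb.I q → E3 → ℝ}
    (H : Inv hO.cmb (fun q => setK T3 KK q.1) univ Gf Pp cc)
    (hT : ∀ q, TrkX (h := hO.lfs) (Lam := Lf lm) (hLam := xlf hO.lab.lab) (cplx_p hL hC)
      (RbL X ct T3 KK c3) g0 P0 c00 SpecX (K0x (RbL X ct T3 KK c3) Kb KN) δt ε b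
      (wk κ kap (fun j : JJ Φ L => j.1)) 4 Gf Pp cc q)
    {G : E3 → E3}
    (hG : ∀ q : {c : QK (belK T3 KK) // pO T3 KK c3 ct c}, ∀ x ∈ setK T3 KK q.1,
      G x = gG (Tq (bc (F := Φ.F)) (mm hf1)) (merge hf1 Gf) x)
    {p e' η ν : ℝ} {Ds : Set E3} {B : E3 → E3 ≃ᵃ[ℝ] E3} {a : Fin 2 → ℝ}
    (face : ∀ x ∈ Ds, ∀ (c1 c2 : Φ.F) (σ1 σ2 : ℝ),
      FaceIn Φ κ L (uu hf1 Gf) (Mna_747.nn hO.cmb (fun q => setK T3 KK q.1) (Rk κ kap)) η ν a (B x)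
        c1 c2 σ1 σ2 →
      FaceOut p Φ κ L (uu hf1 Gf) e' ν a (B x) c1 c2 σ1 σ2) :
    GNO p (Cun KN ε₁) e' η Φ T f (⋃ c, V c) κ L Ds B ν a G (uu hf1 Gf)
      (Mna_747.nn hO.cmb (fun q => setK T3 KK q.1) (Rk κ kap)) :=
  (finNO_mesh hLa hC hL hF hLv hO hm (cplx_p hL hC) hb4 hε hε1 hKN hδ hδ2 H hT (hRb_lay hL hC)
    (CuF_pos hKN) CuF_le hG Ds ν).gno face

end fin

end Crest.Agent.R096.Mxo_487
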