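import Crest.Agent.R096.Mch1_534
import Crest.Agent.R096.Mxo5_487

/-!
# R096 (row 96), helper487.  `mesh_layX` : the mixed mesh step over 337's `Lp` from 534's `MeshLp`:
all inputs of 147's `front_out0` which come from the mesh, and `GNO`.
-/

set_option autoImplicit false
set_option linter.unusedSectionVars false
set_option linter.unusedVariables false
set_option linter.style.longLine false

open Set Metric Filter Topology Module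

namespace Crest.Agent.R096.Mxo_487

open Crest.Agent.R096.Msh_715 Crest.Agent.R096.Csub_487
open Crest.Agent.R096.Mfr_487
open Crest.Agent.R096.Mno_534

section seam

open Crest.Agent.R096.Brk1_582 Crest.Agent.R096.Brk2_582 Crest.Agent.R096.Brk3_582
open Crest.Agent.R096.Bsp_628 Crest.Agent.R096.Grd_714
open Crest.Agent.R096.St_147 Crest.Agent.R096.Seq_213 Crest.Agent.R096.Seq_213.GSt
  Crest.Agent.R096.Bd_416 Crest.Agent.R096.Mg_441 Crest.Agent.R096.Lm_117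
  Crest.Agent.R096.Cp_298 Crest.Agent.R096.Gl_422
  Crest.Agent.R096.On_441 Crest.Agent.R096.SkB_662 Crest.Agent.R096.Ce_537
  Crest.Agent.R096.Arc_778
open Crest.Agent.R096.Ecm_446
open Crest.Agent.R096.Xp_537 (gG)
open Crest.Agent.R096.SkC1_961 (E3 FoamD th NN)
open Crest.Agent.R096.Fl_835 (wk)
open Crest.Agent.R96.Nu1_199 (Wd)
open Crest.Agent.R96.Nu7_199 (WE WE_nonneg)
open Crest.Agent.R096.Nk_955 Crest.Agent.R096.Be_416 Crest.Agent.R096.Mxs_487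
open Crest.Agent.R096.Cpo_642 Crest.Agent.R096.Frn_337 Crest.Agent.R096.Agl5_543
open Crest.Agent.R096.Ori_543
open Crest.Agent.R096.Gm_298
open Crest.Agent.R096.Init_543 (JJ fr3)
open Crest.Agent.R096.Mbf_337 (KJ)
open Crest.Agent.R096.Fin_147 (Xout)
open Crest.Agent.R096.Num_689
open Crest.Agent.R096.SkN1_477
open Crest.Agent.R096.Mi_117

open scoped Classical

variable {δ κ0 R c0 κ1 κ2 : ℝ} {La Om : Set E3} {ι : Type} {Φ : FoamD δ κ0 R c0 La}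
  {T : Tiling Om ι} {X : Set Φ.F} {J0 Jt V : Φ.F → Set ι} {f : E3 → E3} {ct : Φ.F → ι}
  {A : Φ.F → E3 ≃ᵃ[ℝ] E3} {lam : Φ.F → ℝ} {z : Φ.F → E3} {θ : Φ.F → E3 → E3} {φ : Φ.F → E3 → ℝ}
  {ι3 : Type} {T3 : Tiling Om ι3} {KK : Ti X → Set E3} {c3 : ι → ι3}
variable [Nonempty T3.Cell] {hH : ∀ k, CoreH T3 (KK k)}
    {hdis : ∀ k k', k ≠ k' → Disjoint (KK k) (KK k')} {hne : ∃ c, OutK T3 KK c}
variable {L : Φ.F → Finset ℝ} {Qd : Quads (ι3 ⊕ Ti X) Φ.F (Init_543.QK (Brk3_582.Pc Φ.F))}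
    {s₀ : GSt (mK fr3 hH hdis) (fun j : JJ Φ L => j.1)} {far₀ : JJ Φ L → Set E3}
    {Gc : Φ.F → Set E3} {Zc : Φ.F → Set (QK (belK T3 KK))}
    {lam₀ : JJ Φ L → QK (belK T3 KK) → ZMod 2} {v₀ v₁ : Φ.F → QK (belK T3 KK)}
    {κ : Φ.F → ℕ}
    {hfin : ∀ a, {j : JJ Φ L | j.1 = a}.Finite} {kap : Φ.F → ℕ}
    {s : GSt (mK fr3 hH hdis) (fam' (fun j : JJ Φ L => j.1) (Rk κ kap))}
    {far : Nm' (fun j : JJ Φ L => j.1) (Rk κ kap) → Set E3} {β : E3 → E3}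
    {lm : Nm' (fun j : JJ Φ L => j.1) (Rk κ kap) → {c : QK (belK T3 KK) // pO T3 KK c3 ct c} → ZMod 2}

/-- **THE MIXED MESH STEP OVER `Lp`** (337 #11308 (4)): all inputs of 147's `front_out0` which come
from the mesh, and `GNO` for every structure map with the given values on the cells -/
theorem mesh_layX {p Λ e' η β0 ε₁ KN : ℝ} (hMn : MeshLp p Λ e' η β0 ε₁ KN) (hβ0 : 1/4 ≤ β0)
    (hε1 : ε₁ < 1) (hKN : 0 ≤ KN)
    (hLa : IsOpen La) (hδ : 0 < δ) (hR : 0 < R)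
    (hL : Lay Φ T X J0 Jt T3 KK c3)
    (hC : Mbf_337.Cores Φ T f κ1 κ2 X J0 Jt V ct A lam z θ φ)
    (hF : Front T f J0 Jt V ct c3 hH hdis hne Qd s₀ far₀ Gc Zc lam₀ v₀ v₁)
    {κp μ κ3 : ℝ} {Zx : Φ.F → Set ℝ} {m0 : Φ.F → ℕ}
    (hLv : Mbf_337.Levels Φ T f κp μ κ3 Zx m0 κ L)
    (hO : StO (Lp c3 ct hH hdis hne) (oriK fr3 hH hdis) (fun c => tauK T3 KK c.1) (RelM T3)
      (lmK fr3 hH hdis hne).W1 Qd κ s₀ far₀ (fun c => {v | v.1 ∈ Zc c})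
      (fun j v => lam₀ j v.1) (fun c => sv (pO T3 KK c3 ct) (pO_ne hne) (v₀ c))
      (fun c => sv (pO T3 KK c3 ct) (pO_ne hne) (v₁ c)) hfin kap s far β lm)
    (hnp : ∀ c : Φ.F, (Brk3_582.Pc Φ.F c).Nonempty)
    (hm : ∀ a, 0 < mm (fin_copies (Rk κ kap) hfin) a)
    (ht : ∀ j : JJ Φ L, j.2.1 ≤ 1) {κb : ℝ} (hκb : 0 < κb ∧ κb ≤ 1/2)
    {Mx : Φ.F → ℕ} {n : Φ.F → Φ.F → ℕ → ℝ}
    (HR : CoresR Φ T3 f κ1 κ2 (Lp c3 ct hH hdis hne) (celK T3 KK (tlX X c3 ct)) Qd κ s₀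
      (fun c => {v | v.1 ∈ Zc c}) (fun j v => lam₀ j v.1)
      (fun c => sv (pO T3 KK c3 ct) (pO_ne hne) (v₀ c)) kap X (fun c => c3 (ct c)) A lam z Mx
      (fun j => j.2.1) κb n hfin)
    {b : ℕ → ℝ} (hb : ∀ n, β0 ≤ b n) (hb2 : ∀ n, b n < 1/2)
    {Ds : Set E3} {B : E3 → E3 ≃ᵃ[ℝ] E3} {ν : ℝ} {a : Fin 2 → ℝ}
    (FD : FaceD T (⋃ c, V c) Ds B Λ ν a) :
    ∃ (Gf : Gd E3 (Nm' (fun j : JJ Φ L => j.1) (Rk κ kap))) (Pp : ∀ q, hO.cmb.I q → Set E3)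
      (cc : ∀ q, hO.cmb.I q → E3 → ℝ) (g0 : Gd E3 (Nm' (fun j : JJ Φ L => j.1) (Rk κ kap))),
      Inv hO.cmb (fun q => setK T3 KK q.1) univ Gf Pp cc ∧
      MGeo hO.lfs (Lf lm) (xlf hO.lab.lab) (fun q => setK T3 KK q.1) (RbL X ct T3 KK c3) cc ∧
      (∀ i, (∀ c, i ∉ V c) → ∃ q : {c : QK (belK T3 KK) // pO T3 KK c3 ct c},
        setK T3 KK q.1 = P (T.H i) ∧
        (∀ e, e < q → dimK (belK T3 KK) (fun c => c.1.dim) e.1 = 1 →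
          (Lp c3 ct hH hdis hne).toSk.On1 e ⊆ {y | y ∈ P (T.H i) ∧ T.dim y ≤ 1}) ∧
        ∀ (B : E3 ≃ᵃ[ℝ] E3) (x : hO.cmb.I q), ∀ y ∈ setK T3 KK q.1,
          LB B (Ckn KN ε₁ δ R ((fun K => B '' K) '' SkC1_961.Cfg T i) *
            WE (cplx_p hL hC) hO.cmb (wk κ kap (fun j : JJ Φ L => j.1)) q /
              wk κ kap (fun j : JJ Φ L => j.1) (hO.cmb.col q x)) (cc q x)
            (setK T3 KK q.1) y) ∧
      (∀ c : X, ∀ x ∈ frontier (Kcs T KK ct c),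
        EqAt (gbR hLa hnp hm (fun a => .top a) (nr (Lp c3 ct hH hdis hne) s lm hO.fin1) HR c) g0 x ∧
        EqAt (sqs g0 b 4) Gf x ∧
        ∃ q : {c : QK (belK T3 KK) // pO T3 KK c3 ct c}, x ∈ setK T3 KK q.1 ∧
          setK T3 KK q.1 ⊆ frontier (Kcs T KK ct c) ∧ IsClosed (setK T3 KK q.1)) ∧
      ∀ G : E3 → E3,
        (∀ q : {c : QK (belK T3 KK) // pO T3 KK c3 ct c}, ∀ x ∈ setK T3 KK q.1,
          G x = gG (Tq (bc (F := Φ.F)) (mm hO.fin1)) (merge hO.fin1 Gf) x) →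
        GNO p (Cun KN ε₁) e' η Φ T f (⋃ c, V c) κ L Ds B ν a G (uu hO.fin1 Gf)
          (Mna_747.nn hO.cmb (fun q => setK T3 KK q.1) (Rk κ kap)) := by
  obtain ⟨g0, P0, c00, hB, hE⟩ := base_lay hLa hδ hR hL hC hF hLv.lf hO hnp hm ht hκb HR
  have hb4 : ∀ n, 1/4 ≤ b n := fun n => hβ0.trans (hb n)
  obtain ⟨δt, d1, d2, Gf, Pp, cc, H, GG, ⟨g1, P1, cc1, SpecX, hT⟩, hS, hf⟩ := hMn hC hL hO
    (cplx_p hL hC) hb hb2 (K1n_nonneg hδ hR) (hRb_lay hL hC) hB Ds B ν a FD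
  refine ⟨Gf, Pp, cc, g0, H, GG, ?_, fun c x hx => ?_, fun G hG => ?_⟩
  · exact tile_clauseX hO (cplx_p hL hC) cellIx_p onT_p hb4 le_rfl hε1 (K1n_nonneg hδ hR) hKN d1 d2
      hT (ord_lay hL hC)
  · obtain ⟨h1, q, hq, h2, h3, h4⟩ := hE c x hx
    exact ⟨h1, hS q hq x h2, q, h2, h3, h4⟩
  · exact gno_lay hLa hL hC hF hLv hO hm hb4 le_rfl hε1 hKN d1 d2 H hT hG hf

end seam

end Crest.Agent.R096.Mxo_487
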