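import Crest.Agent.R096.Mno9_928
import Crest.Agent.R096.Mch1_534

/-!
# R096 (row 96), helper487.  `meshLp_of` : 928's `mesh_no` over 337's `Lp` (534's `MeshLp`).
-/

set_option autoImplicit false
set_option linter.unusedSectionVars false
set_option linter.unusedVariables false
set_option linter.style.longLine false

open Set Metric Filter Topology Module

namespace Crest.Agent.R096.Mxo_487

open Crest.Agent.R096.Msh_715 Crest.Agent.R096.Csub_487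
open Crest.Agent.R096.Mfr_487
open Crest.Agent.R096.Mno_534

/-- **the mixed mesh over `Lp`, with the face clause** -/
theorem meshLp_of {p : ℝ} (hp : 1 ≤ p) {Λ e : ℝ} (hΛ : 1 ≤ Λ) (he : 0 < e) :
    ∃ η β0 ε₁ KN : ℝ, 0 < η ∧ 1/4 ≤ β0 ∧ β0 < 1/2 ∧ 0 < ε₁ ∧ ε₁ < 1 ∧ 0 ≤ KN ∧
      MeshLp p Λ e η β0 ε₁ KN := by
  obtain ⟨η, β0, ε₁, KN, h1, h2, h3, h4, h5, h6, hM⟩ := Fsw_928.mesh_no hp hΛ he
  refine ⟨η, β0, ε₁, KN, h1, h2, h3, h4, h5, h6, ?_⟩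
  intro δ κ0 R c0 κ1 κ2 La Om ι Φ T f X J0 Jt V ct A lmc z θ φ ι3 T3 KK c3 _ hH hdis hne Lv Qd s₀
    far₀ Zc lam₀ v₀ v₁ κ hfin kap s far β lm hC hL h Ω' Xc b hb hb2 Kb hKb Rb hRb g0 P0 cc0 hB Ds B
    ν a FD
  obtain ⟨δt, d1, d2, SpecX, Gf, Pp, cc, k1, k2, k3, k4, k5⟩ := hM (hf1 := h.fin1) (Ex := ⋃ c, V c)
    h Xc top3_Lp cellIx_Lp hb hb2 hKb hB (Frn_337.jj_mm Lv hfin) FD (hfc_Lp hC hL hRb FD)
  exact ⟨δt, d1, d2, Gf, Pp, cc, k1, k2, ⟨g0, P0, cc0, SpecX, k3⟩, k4, k5⟩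

end Crest.Agent.R096.Mxo_487
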