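import Crest.Agent.R096.Mxo7_487
import Crest.Agent.R096.Mch2_534
import Crest.Agent.R096.Mch3_337

/-!
# R096 (row 96), helper487.  `MachNO p` from the front half alone.

* `machNO_of_front` : `1 ≤ p → FrontP → MachNO p`;
* `machNO_of_b` : the same with 337's `FrontPb b` (`κp ≤ b`).
-/

set_option autoImplicit false
set_option linter.unusedSectionVars false
set_option linter.unusedVariables false
set_option linter.style.longLine false

open Set Filter Topology Metric MeasureTheory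

namespace Crest.Agent.R096.Mxo_487

open Crest.Agent.R096.Msh_715 Crest.Agent.R096.Brk1_582 Crest.Agent.R096.Brk3_582
open Crest.Agent.R096.SkC1_961 (E3 Hom3 FoamD Cfg NN)
open Crest.Agent.R096.SkN1_477 (FaceD)
open Crest.Agent.R096.Mbf_337 (Star Cores Fine Levels Words)
open Crest.Agent.R096.Nr_527 Crest.Agent.R096.Oa_527 Crest.Agent.R096.Mno_534
open Crest.Agent.R096.Num_689
open Crest.Agent.R096.Mch_337 (FrontPb)

/-- **the structure map of the machine with the face clause**, from the front half -/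
theorem machGN_of_front {p : ℝ} (hp : 1 ≤ p) (hF : FrontP) : MachGN p :=
  machGN_of hF fun _ _ hΛ he' => meshLp_of hp hΛ he'

/-- **`MachAll p` FROM THE FRONT HALF** -/
theorem machAll_of_front {p : ℝ} (hp : 1 ≤ p) (hF : FrontP) : MachAll p :=
  machAll_of (machGN_of_front hp hF)

/-- **`MachNO p` FROM THE FRONT HALF** -/
theorem machNO_of_front {p : ℝ} (hp : 1 ≤ p) (hF : FrontP) : SkN2_477.MachNO p :=
  machNO_of (machAll_of_front hp hF)

/-- `MachBF` from the front half (second way) -/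
theorem machBF_of_front' (hF : FrontP) : Mbf_337.MachBF :=
  Mno_534.machBF_of (machAll_of_front le_rfl hF)

/-! ### with a bound on `κp` -/

/-- 689's order of the constants with `κp ≤ b` -/
theorem machGN_of_data_b {p b : ℝ} (hb0 : 0 < b) (hF : FrontPb b)
    {Mn : ℝ → ℝ → ℝ → ℝ → ℝ → ℝ → Prop}
    (hM : ∀ Λ e' : ℝ, 1 ≤ Λ → 0 < e' → ∃ η β0 ε₁ KN : ℝ, 0 < η ∧ 1/4 ≤ β0 ∧ β0 < 1/2 ∧ 0 < ε₁ ∧
      ε₁ < 1 ∧ 0 ≤ KN ∧ Mn Λ e' η β0 ε₁ KN)
    (hD : DataP p Mn) : MachGN p := by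
  intro Λ e' hΛ he'
  obtain ⟨η, β0, ε₁, KN, hη, hβ0, hβ0', hε0, hε1, hKN, hMn⟩ := hM Λ e' hΛ he'
  refine ⟨η, hη, Cun KN ε₁, Cun_pos hKN, ?_⟩
  intro δ κ0 R c0 κ2 κ3 hδ hκ0 hR hc0 hκ2 hκ3
  refine ⟨C0n δ κ0 R, Csn KN ε₁ δ R κ3, C0n_pos δ κ0 R,
    Csn_pos hKN (by linarith) (by linarith), fun e he => ?_⟩
  obtain ⟨κb, κf, sg, bt, hK⟩ := exists_numK (e := e) hβ0' he
  have hsg := hK.sg0
  have hp0 : 0 < min b (min (1/64) (sg / 2 / 2)) :=
    lt_min hb0 (lt_min (by norm_num) (by positivity))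
  refine ⟨min b (min (1/64) (sg / 2 / 2)), hp0, fun μ hμ hμp => ?_⟩
  set κp : ℝ := min b (min (1/64) (sg / 2 / 2)) with hκp
  have p0 : 0 < κp := hp0
  have p1 : κp ≤ 1/64 := (min_le_right _ _).trans (min_le_left _ _)
  have p2 : κp ≤ sg / 2 / 2 := (min_le_right _ _).trans (min_le_right _ _)
  obtain ⟨κa, hκa, hFr⟩ := hF δ κ0 R c0 κ2 κ3 hδ hκ0 hR hc0 hκ2 hκ3 κp p0
    (min_le_left _ _) μ hμ hμp
  obtain ⟨κs, hκs, hDa⟩ := hD Λ e' η β0 ε₁ KN hΛ he' hη hβ0 hβ0' hε0 hε1 hKN hMn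
    δ κ0 R c0 κ2 κ3 hδ hκ0 hR hc0 hκ2 hκ3 e κb κf sg bt he hK κp μ p0 p1 p2 hμ hμp
  obtain ⟨κc, hκc, hsm⟩ := exists_small (κ0 := κ0) hδ (zero_lt_one.trans_le hR)
    (zero_le_one.trans hκ0) hκ2
  set κ1 : ℝ := min κa (min κs κc) with hκ1
  have q0 : 0 < κ1 := lt_min hκa (lt_min hκs hκc)
  have q1 : κ1 ≤ κa := min_le_left _ _
  have q2 : κ1 ≤ κs := (min_le_right _ _).trans (min_le_left _ _)
  have q3 : κ1 ≤ κc := (min_le_right _ _).trans (min_le_right _ _)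
  refine ⟨κ1, q0, ?_⟩
  intro Om La f hOm hOmb hOmc hLa hLab hLac hf Φ ι T X J0 J V ct A lam z θ φ M hst hcr hfi
    Ds B ν a hDs
  obtain ⟨Z1, m1, hZ1, h1⟩ := hFr Om La f hOm hOmb hOmc hLa hLab hLac hf Φ ι T X J0 J V ct A lam
    z θ φ M hst (cores_mono q1 hcr) (fine_mono q1 hfi)
  obtain ⟨Z2, m2, hZ2, h2⟩ := hDa κ1 q0 q2 ⟨p0, p1, p2, hμ, hμp, q0, hsm κ1 q0.le q3⟩
    Om La f hOm hOmb hOmc hLa hLab hLac hf Φ ι T X J0 J V ct A lam z θ φ M hst hcr hfi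
    Ds B ν a hDs
  obtain ⟨m3, hm3⟩ := Nod_714.exists_m0 hLa Φ M (sg / 2)
  refine ⟨fun c => Z1 c ∪ Z2 c, fun c => max (m1 c) (max (m2 c) (m3 c)),
    fun c => measure_union_null (hZ1 c) (hZ2 c), fun κ L hL hW => ?_⟩
  have hfr : FrontOut Φ T f X J0 J V ct L := h1 κ L
    (levels_mono hL le_rfl le_rfl (fun c => subset_union_left) fun c => le_max_left _ _) hW
  refine h2 (fun c => Z1 c ∪ Z2 c) (fun c => max (m1 c) (max (m2 c) (m3 c)))
    (fun c => subset_union_right) (fun c => (le_max_left _ _).trans (le_max_right _ _))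
    (fun c b hcb => ?_) κ L hL hW hfr
  obtain ⟨k1, k2⟩ := hm3 c b hcb
  have k3 : m3 b ≤ max (m1 b) (max (m2 b) (m3 b)) := (le_max_right _ _).trans (le_max_right _ _)
  exact ⟨k1.trans k3, k2.trans (by exact_mod_cast k3)⟩

/-- **`MachAll p` from `FrontPb b`** -/
theorem machAll_of_b {p b : ℝ} (hp : 1 ≤ p) (hb0 : 0 < b) (hF : FrontPb b) : MachAll p :=
  machAll_of (machGN_of_data_b hb0 hF (fun _ _ hΛ he' => meshLp_of hp hΛ he') (dataP p))

/-- **`MachNO p` from `FrontPb b`** -/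
theorem machNO_of_b {p b : ℝ} (hp : 1 ≤ p) (hb0 : 0 < b) (hF : FrontPb b) : SkN2_477.MachNO p :=
  machNO_of (machAll_of_b hp hb0 hF)

end Crest.Agent.R096.Mxo_487
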