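import Crest.Agent.R096.Mxo8_487
import Crest.Agent.R096.Frs2_662

/-!
# R096 (row 96), helper487.  Both machines from 662's `DoorsPb b` (any `0 < b`).
-/

set_option autoImplicit false

namespace Crest.Agent.R096.Mxo_487

open Crest.Agent.R096.Mno_534 Crest.Agent.R096.Frs_662

/-- **`MachAll p` from `DoorsPb b`** -/
theorem machAll_of_doors {p b : ℝ} (hp : 1 ≤ p) (hb : 0 < b) (hD : DoorsPb b) : MachAll p :=
  machAll_of_b hp hb (frontPb_of hD)

/-- **`MachNO p` from `DoorsPb b`** -/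
theorem machNO_of_doors {p b : ℝ} (hp : 1 ≤ p) (hb : 0 < b) (hD : DoorsPb b) :
    SkN2_477.MachNO p :=
  machNO_of_b hp hb (frontPb_of hD)

/-- **both machines from `DoorsPb b`** -/
theorem mach_of_doors {b : ℝ} (hb : 0 < b) (hD : DoorsPb b) :
    Mbf_337.MachBF ∧ ∀ p : ℝ, 1 ≤ p → SkN2_477.MachNO p :=
  ⟨machBF_of_doors hb hD, fun _ hp => machNO_of_doors hp hb hD⟩

end Crest.Agent.R096.Mxo_487
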