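import Mathlib
import Crest.Agent.R096.PlDefs_296
import Crest.Agent.R096.Cx3_609

/-!
# Row 96, P4-SQUEEZE (helper477), part 1: the squeezing homeomorphism

`chi η ρ c j : (Fin n → ℝ) → (Fin n → ℝ)` moves only the coordinate `j`; it is a PL homeomorphism,
`= id` off `‖x‖ < 1 - η`, and `x_j - c ↦ ρ (x_j - c)` on `‖x‖ ≤ 1 - 2 η`.
-/

set_option autoImplicit false

open Set Function

namespace Crest.Agent.R096.Sq_477

open Crest.Agent.R096.Pl

noncomputable section

/-- clamped scaling -/
def sq (ρ τ w : ℝ) : ℝ := max (min (ρ * τ) (τ + w)) (τ - w)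

theorem sq_nonneg {ρ τ w : ℝ} (h1 : ρ ≤ 1) (hτ : 0 ≤ τ) (hw : 0 ≤ w) :
    sq ρ τ w = max (ρ * τ) (τ - w) := by
  unfold sq
  rw [min_eq_left]
  nlinarith

theorem sq_nonpos {ρ τ w : ℝ} (h1 : ρ ≤ 1) (hτ : τ ≤ 0) (hw : 0 ≤ w) :
    sq ρ τ w = min (ρ * τ) (τ + w) := by
  unfold sq
  rw [max_eq_left]
  refine le_min ?_ ?_ <;> nlinarith

theorem sq_zero {ρ τ : ℝ} : sq ρ τ 0 = τ := by
  unfold sq
  rcases le_total (ρ * τ) τ with h | h
  · rw [add_zero, sub_zero, min_eq_left h, max_eq_right h]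
  · rw [add_zero, sub_zero, min_eq_right h, max_self]

theorem sq_zero_left {ρ w : ℝ} (hw : 0 ≤ w) : sq ρ 0 w = 0 := by
  unfold sq
  rw [mul_zero, zero_add, zero_sub, min_eq_left hw, max_eq_left (by linarith)]

variable {n : ℕ}

/-- the cut off -/
def W (η : ℝ) (x : Fin n → ℝ) : ℝ := min 2 (max 0 (2 / η * (1 - η - ‖x‖)))

theorem W_nonneg (η : ℝ) (x : Fin n → ℝ) : 0 ≤ W η x := by
  unfold W; exact le_min (by norm_num) (le_max_left _ _)

theorem W_le (η : ℝ) (x : Fin n → ℝ) : W η x ≤ 2 := min_le_left _ _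

theorem W_eq_two {η : ℝ} (hη : 0 < η) {x : Fin n → ℝ} (hx : ‖x‖ ≤ 1 - 2 * η) : W η x = 2 := by
  unfold W
  apply min_eq_left
  apply le_max_of_le_right
  rw [div_mul_eq_mul_div, le_div_iff₀ hη]
  nlinarith

theorem W_eq_zero {η : ℝ} (hη : 0 < η) {x : Fin n → ℝ} (hx : 1 - η ≤ ‖x‖) : W η x = 0 := by
  unfold W
  rw [max_eq_left, min_eq_right (by norm_num)]
  have : 0 < 2 / η := by positivity
  nlinarith

theorem W_eq_mid {η : ℝ} (hη : 0 < η) {x : Fin n → ℝ} (h1 : 1 - 2 * η ≤ ‖x‖) (h2 : ‖x‖ ≤ 1 - η) :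
    W η x = 2 / η * (1 - η - ‖x‖) := by
  unfold W
  have : 0 < 2 / η := by positivity
  rw [max_eq_right (by nlinarith), min_eq_right]
  rw [div_mul_eq_mul_div, div_le_iff₀ hη]
  nlinarith

theorem W_anti {η : ℝ} (hη : 0 < η) {x y : Fin n → ℝ} (h : ‖x‖ ≤ ‖y‖) : W η y ≤ W η x := by
  unfold W
  have : 0 < 2 / η := by positivity
  gcongr

/-- norm along a line -/
theorem norm_update (x : Fin n → ℝ) (j : Fin n) (t : ℝ) :
    ‖update x j t‖ = max ‖update x j 0‖ |t| := by
  apply le_antisymm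
  · rw [pi_norm_le_iff_of_nonneg (le_max_of_le_left (norm_nonneg _))]
    intro i
    by_cases hi : i = j
    · subst hi; simp
    · apply le_max_of_le_left
      have := norm_le_pi_norm (update x j 0) i
      simpa [hi] using this
  · apply max_le
    · rw [pi_norm_le_iff_of_nonneg (norm_nonneg _)]
      intro i
      by_cases hi : i = j
      · subst hi; simp
      · have := norm_le_pi_norm (update x j t) i
        simpa [hi] using this
    · have := norm_le_pi_norm (update x j t) j
      simpa using this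

theorem W_line {η : ℝ} (hη : 0 < η) (hη' : η ≤ 1 / 8) (x : Fin n → ℝ) (j : Fin n) {t t' : ℝ}
    (h : |t| ≤ |t'| ∨ |t| ≤ 1 / 2) : W η (update x j t') ≤ W η (update x j t) := by
  rcases h with h | h
  · apply W_anti hη
    rw [norm_update x j t, norm_update x j t']
    exact max_le_max le_rfl h
  · rcases le_total ‖update x j 0‖ (1 / 2) with h1 | h1
    · rw [W_eq_two hη (x := update x j t)]
      · exact W_le _ _
      · rw [norm_update x j t]
        exact (max_le h1 h).trans (by linarith)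
    · apply W_anti hη
      rw [norm_update x j t, norm_update x j t', max_eq_left (h.trans h1)]
      exact le_max_left _ _

/-- the new coordinate along a line -/
def fl (η ρ c : ℝ) (j : Fin n) (x : Fin n → ℝ) (t : ℝ) : ℝ :=
  c + sq ρ (t - c) (W η (update x j t))

theorem sq_anti {ρ τ w w' : ℝ} (h1 : ρ ≤ 1) (hτ : 0 ≤ τ) (hw : 0 ≤ w) (h : w ≤ w') :
    sq ρ τ w' ≤ sq ρ τ w := by
  rw [sq_nonneg h1 hτ hw, sq_nonneg h1 hτ (hw.trans h)]
  exact max_le_max le_rfl (by linarith)

theorem sq_mono {ρ τ w w' : ℝ} (h1 : ρ ≤ 1) (hτ : τ ≤ 0) (hw : 0 ≤ w) (h : w ≤ w') :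
    sq ρ τ w ≤ sq ρ τ w' := by
  rw [sq_nonpos h1 hτ hw, sq_nonpos h1 hτ (hw.trans h)]
  exact min_le_min le_rfl (by linarith)

theorem sq_slope {ρ τ τ' w : ℝ} (h1 : ρ ≤ 1) (h : τ ≤ τ') :
    sq ρ τ w + ρ * (τ' - τ) ≤ sq ρ τ' w := by
  unfold sq
  have a1 : ρ * τ + ρ * (τ' - τ) = ρ * τ' := by ring
  have a2 : τ + w + ρ * (τ' - τ) ≤ τ' + w := by nlinarith
  have a3 : τ - w + ρ * (τ' - τ) ≤ τ' - w := by nlinarith
  rw [max_add, min_add]
  exact max_le_max (min_le_min a1.le a2) a3

theorem fl_slope {η ρ c : ℝ} (hη : 0 < η) (hη' : η ≤ 1 / 8) (hρ : 0 < ρ) (hρ' : ρ ≤ 1)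
    (hc : |c| ≤ 1 / 2) (j : Fin n) (x : Fin n → ℝ) {t t' : ℝ} (h : t ≤ t') :
    fl η ρ c j x t + ρ * (t' - t) ≤ fl η ρ c j x t' := by
  have hc' := abs_le.1 hc
  -- above `c`
  have up : ∀ t t', c ≤ t → t ≤ t' → fl η ρ c j x t + ρ * (t' - t) ≤ fl η ρ c j x t' := by
    intro t t' h0 h
    unfold fl
    have hW : W η (update x j t') ≤ W η (update x j t) := by
      apply W_line hη hη'
      by_cases h2 : |t| ≤ 1 / 2
      · exact Or.inr h2
      · left
        have h3 : 0 ≤ t := by
          by_contra h4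
          push Not at h4
          apply h2
          rw [abs_le]; constructor <;> linarith
        rw [abs_of_nonneg h3, abs_of_nonneg (h3.trans h)]
        exact h
    have e1 := sq_slope (w := W η (update x j t)) hρ' (show t - c ≤ t' - c by linarith)
    have e2 := sq_anti hρ' (show 0 ≤ t' - c by linarith) (W_nonneg η (update x j t')) hW
    have e3 : t' - c - (t - c) = t' - t := by ring
    rw [e3] at e1
    linarith
  have dn : ∀ t t', t' ≤ c → t ≤ t' → fl η ρ c j x t + ρ * (t' - t) ≤ fl η ρ c j x t' := by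
    intro t t' h0 h
    unfold fl
    have hW : W η (update x j t) ≤ W η (update x j t') := by
      apply W_line hη hη'
      by_cases h2 : |t'| ≤ 1 / 2
      · exact Or.inr h2
      · left
        have h3 : t' ≤ 0 := by
          by_contra h4
          push Not at h4
          apply h2
          rw [abs_le]; constructor <;> linarith
        rw [abs_of_nonpos h3, abs_of_nonpos (h.trans h3)]
        linarith
    have e1 := sq_slope (w := W η (update x j t')) hρ' (show t - c ≤ t' - c by linarith)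
    have e2 := sq_mono hρ' (show t - c ≤ 0 by linarith) (W_nonneg η (update x j t)) hW
    have e3 : t' - c - (t - c) = t' - t := by ring
    rw [e3] at e1
    linarith
  rcases le_total c t with h1 | h1
  · exact up t t' h1 h
  · rcases le_total t' c with h2 | h2
    · exact dn t t' h2 h
    · have e1 := dn t c le_rfl h1
      have e2 := up c t' le_rfl h2
      have e3 : ρ * (t' - t) = ρ * (c - t) + ρ * (t' - c) := by ring
      linarith

theorem continuous_W (η : ℝ) : Continuous (W (n := n) η) := by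
  unfold W; fun_prop

theorem continuous_fl (η ρ c : ℝ) (j : Fin n) (x : Fin n → ℝ) : Continuous (fl η ρ c j x) := by
  unfold fl sq
  have h : Continuous fun t : ℝ => W η (update x j t) :=
    (continuous_W η).comp (continuous_const.update j continuous_id)
  fun_prop

theorem fl_eq {η ρ c : ℝ} (hη : 0 < η) (j : Fin n) (x : Fin n → ℝ) {t : ℝ} (h : 1 - η ≤ |t|) :
    fl η ρ c j x t = t := by
  unfold fl
  rw [W_eq_zero hη, sq_zero]
  · ring
  · rw [norm_update x j t]; exact h.trans (le_max_right _ _)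

theorem fl_bijective {η ρ c : ℝ} (hη : 0 < η) (hη' : η ≤ 1 / 8) (hρ : 0 < ρ) (hρ' : ρ ≤ 1)
    (hc : |c| ≤ 1 / 2) (j : Fin n) (x : Fin n → ℝ) : Bijective (fl η ρ c j x) := by
  constructor
  · intro t t' h
    rcases le_total t t' with h1 | h1
    · have := fl_slope hη hη' hρ hρ' hc j x h1
      have h3 : ρ * (t' - t) ≤ 0 := by linarith
      have h4 : t' - t ≤ 0 := by
        by_contra h5
        push Not at h5
        have := mul_pos hρ h5
        linarith
      linarith
    · have := fl_slope hη hη' hρ hρ' hc j x h1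
      have h3 : ρ * (t - t') ≤ 0 := by linarith
      have h4 : t - t' ≤ 0 := by
        by_contra h5
        push Not at h5
        have := mul_pos hρ h5
        linarith
      linarith
  · intro s
    have hcont := continuous_fl η ρ c j x
    have h1 : fl η ρ c j x (-(|s| + 1)) = -(|s| + 1) := fl_eq hη j x (by
      rw [abs_neg, abs_of_nonneg (by positivity)]; have := abs_nonneg s; linarith)
    have h2 : fl η ρ c j x (|s| + 1) = |s| + 1 := fl_eq hη j x (by
      rw [abs_of_nonneg (by positivity)]; have := abs_nonneg s; linarith)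
    have h3 := abs_le.1 (le_refl |s|)
    obtain ⟨t, -, ht⟩ := intermediate_value_Icc (show -(|s| + 1) ≤ |s| + 1 by
      have := abs_nonneg s; linarith) hcont.continuousOn (show s ∈ Icc _ _ by
        rw [h1, h2]; constructor <;> linarith)
    exact ⟨t, ht⟩

/-- the squeezing map -/
def chi (η ρ c : ℝ) (j : Fin n) (x : Fin n → ℝ) : Fin n → ℝ :=
  update x j (c + sq ρ (x j - c) (W η x))

theorem chi_update (η ρ c : ℝ) (j : Fin n) (x : Fin n → ℝ) (t : ℝ) :
    chi η ρ c j (update x j t) = update x j (fl η ρ c j x t) := by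
  unfold chi fl
  rw [update_idem, update_self]

theorem chi_eq (η ρ c : ℝ) (j : Fin n) (x : Fin n → ℝ) :
    chi η ρ c j x = update x j (fl η ρ c j x (x j)) := by
  have := chi_update η ρ c j x (x j)
  rwa [update_eq_self] at this

theorem chi_bijective {η ρ c : ℝ} (hη : 0 < η) (hη' : η ≤ 1 / 8) (hρ : 0 < ρ) (hρ' : ρ ≤ 1)
    (hc : |c| ≤ 1 / 2) (j : Fin n) : Bijective (chi (n := n) η ρ c j) := by
  constructor
  · intro x y h
    rw [chi_eq, chi_eq] at h
    have h1 : ∀ i, i ≠ j → x i = y i := by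
      intro i hi
      have := congrFun h i
      simpa [hi] using this
    have h2 : y = update x j (y j) := by
      ext i
      by_cases hi : i = j
      · subst hi; simp
      · simp [hi, h1 i hi]
    have h3 : fl η ρ c j y = fl η ρ c j x := by
      ext t
      unfold fl
      rw [h2, update_idem]
    have h4 := congrFun h j
    rw [update_self, update_self, h3] at h4
    have h5 := (fl_bijective hη hη' hρ hρ' hc j x).1 h4
    rw [h2, ← h5, update_eq_self]
  · intro y
    obtain ⟨t, ht⟩ := (fl_bijective hη hη' hρ hρ' hc j y).2 (y j)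
    refine ⟨update y j t, ?_⟩
    rw [chi_update, ht, update_eq_self]

theorem chi_off {η ρ c : ℝ} (hη : 0 < η) (j : Fin n) {x : Fin n → ℝ} (hx : 1 - η ≤ ‖x‖) :
    chi η ρ c j x = x := by
  unfold chi
  rw [W_eq_zero hη hx, sq_zero]
  have : c + (x j - c) = x j := by ring
  rw [this, update_eq_self]

/-- `chi` maps the ball of radius `r ≥ 1 - η` onto itself -/
theorem chi_norm {η ρ c : ℝ} (hη : 0 < η) (hη' : η ≤ 1 / 8) (hρ : 0 < ρ) (hρ' : ρ ≤ 1)
    (hc : |c| ≤ 1 / 2) (j : Fin n) {x : Fin n → ℝ} (hx : ‖x‖ < 1 - η) :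
    ‖chi η ρ c j x‖ < 1 - η := by
  by_contra h
  push Not at h
  have h1 : chi η ρ c j (chi η ρ c j x) = chi η ρ c j x := chi_off hη j h
  have h2 := (chi_bijective hη hη' hρ hρ' hc j).1 h1
  rw [h2] at h
  linarith

/-! ### piecewise linearity -/

theorem plMap_norm : PLMap (fun x : Fin n → ℝ => ‖x‖) := by
  have h : ∀ i : Fin n, PLMap (fun x : Fin n → ℝ => |x i|) := fun i =>
    PLMap.abs (PLMap.of_affine (LinearMap.proj (R := ℝ) (φ := fun _ : Fin n => ℝ) i).toAffineMap)
  rcases isEmpty_or_nonempty (Fin n) with h0 | h0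
  · have : (fun x : Fin n → ℝ => ‖x‖) = fun _ => 0 := by
      ext x
      have : x = 0 := Subsingleton.elim _ _
      simp [this]
    rw [this]; exact PLMap.const 0
  · have := PLMap.finset_sup' (s := (Finset.univ : Finset (Fin n))) Finset.univ_nonempty
      (f := fun i (x : Fin n → ℝ) => |x i|) (fun i _ => h i)
    convert this using 2 with x
    apply le_antisymm
    · rw [pi_norm_le_iff_of_nonneg]
      · intro i
        exact Finset.le_sup' (fun i => |x i|) (Finset.mem_univ i)
      · obtain ⟨i⟩ := h0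
        exact (abs_nonneg (x i)).trans (Finset.le_sup' (fun i => |x i|) (Finset.mem_univ i))
    · apply Finset.sup'_le
      intro i _
      exact norm_le_pi_norm x i

theorem plMap_W (η : ℝ) : PLMap (W (n := n) η) := by
  unfold W
  exact PLMap.min (PLMap.const 2) (PLMap.max (PLMap.const 0)
    (PLMap.const_mul _ (PLMap.sub (PLMap.const _) plMap_norm)))

theorem plMap_coord (j : Fin n) : PLMap (fun x : Fin n → ℝ => x j) :=
  PLMap.of_affine (LinearMap.proj (R := ℝ) (φ := fun _ : Fin n => ℝ) j).toAffineMap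

theorem plMap_chi (η ρ c : ℝ) (j : Fin n) : PLMap (chi (n := n) η ρ c j) := by
  have h1 : PLMap (fun x : Fin n → ℝ => c + sq ρ (x j - c) (W η x) - x j) := by
    unfold sq
    have a := (plMap_coord (n := n) j).sub_const c
    exact ((PLMap.const c).add ((PLMap.max (PLMap.min (PLMap.const_mul ρ a)
      (PLMap.add a (plMap_W η)))) (PLMap.sub a (plMap_W η)))).sub (plMap_coord j)
  have h2 := PLMap.add PLMap.id (h1.smul_const (Pi.single j (1 : ℝ) : Fin n → ℝ))
  convert h2 using 2 with x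
  unfold chi
  ext i
  by_cases hi : i = j
  · subst hi; simp
  · simp [hi]

/-- **the squeezing homeomorphism** -/
theorem exists_chi {η ρ c : ℝ} (hη : 0 < η) (hη' : η ≤ 1 / 8) (hρ : 0 < ρ) (hρ' : ρ ≤ 1)
    (hc : |c| ≤ 1 / 2) (j : Fin n) :
    ∃ H : (Fin n → ℝ) ≃ₜ (Fin n → ℝ), PLH H ∧ ⇑H = chi η ρ c j := by
  have hb := chi_bijective hη hη' hρ hρ' hc j
  let e := Equiv.ofBijective _ hb
  have h1 : Cx_609.PLOn univ (chi (n := n) η ρ c j) := by
    obtain ⟨a, G, hG, b⟩ := plMap_chi (n := n) η ρ c j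
    exact ⟨a.continuousOn, G, hG, fun x _ => b x⟩
  have h2 := Cx_609.PLOn.inv_univ h1 (r := e.symm) (fun x => e.symm_apply_apply x)
    (fun x => e.apply_symm_apply x)
  have h3 : PLMap e.symm := by
    obtain ⟨a, G, hG, b⟩ := h2
    exact ⟨continuousOn_univ.1 a, G, hG, fun x => b x (mem_univ x)⟩
  exact ⟨mkH (chi η ρ c j) e.symm (plMap_chi η ρ c j) h3 (fun x => e.symm_apply_apply x)
    (fun x => e.apply_symm_apply x), PLH_mkH .., rfl⟩

end

end Crest.Agent.R096.Sq_477
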