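import Mathlib
import Crest.Agent.R096.Sq1_477
import Crest.Agent.R096.Str1_696

/-!
# Row 96, P4-SQUEEZE (helper477), part 2: a.e. derivatives of PL maps and of the squeeze
-/

set_option autoImplicit false
set_option linter.unusedSectionVars false

open Set Function MeasureTheory Filter Topology Metric
open scoped ENNReal

namespace Crest.Agent.R096.Sq_477

open Crest.Agent.R096.Pl
open Crest.Agent.R096.Str_696 (LocPL)

noncomputable section

/-! ### general facts on PL maps -/

section general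

variable {E F : Type*} [NormedAddCommGroup E] [NormedSpace ℝ E] [FiniteDimensional ℝ E]
  [NormedAddCommGroup F] [NormedSpace ℝ F] [FiniteDimensional ℝ F]
  [MeasurableSpace E] [BorelSpace E]
  {μ : Measure E} [μ.IsAddHaarMeasure]

theorem hasFDerivAt_affine (g : E →ᵃ[ℝ] F) (x : E) :
    HasFDerivAt (g : E → F) (LinearMap.toContinuousLinearMap g.linear) x := by
  have h : (g : E → F) = fun y => LinearMap.toContinuousLinearMap g.linear y + g 0 := by
    ext y
    have := congrFun (AffineMap.decomp g) y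
    simpa using this
  rw [h]
  exact (LinearMap.toContinuousLinearMap g.linear).hasFDerivAt.add_const _

theorem ae_differentiableAt_of_plOn {f : E → F} {K : Set E} (hK : Convex ℝ K) (hKc : IsClosed K)
    (hf : Cx_609.PLOn K f) : ∀ᵐ x ∂μ, x ∈ K → DifferentiableAt ℝ f x := by
  obtain ⟨𝒞, hfin, h1, h2⟩ := hf.closed_pieces hK.finConv hKc
  have h3 : ∀ᵐ x ∂μ, ∀ C ∈ 𝒞, x ∉ frontier C := by
    rw [ae_ball_iff hfin.countable]
    intro C hC
    exact measure_eq_zero_iff_ae_notMem.1 ((h1 C hC).1.addHaar_frontier μ)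
  filter_upwards [h3] with x hx hxK
  rw [← h2] at hxK
  obtain ⟨C, hC, hxC⟩ := hxK
  obtain ⟨hc, hcl, g, hg⟩ := h1 C hC
  have h4 : x ∈ interior C := by
    by_contra h5
    exact hx C hC ⟨subset_closure hxC, h5⟩
  have h5 : f =ᶠ[𝓝 x] g := by
    filter_upwards [mem_interior_iff_mem_nhds.1 h4] with y hy using hg hy
  exact h5.differentiableAt_iff.2 (hasFDerivAt_affine g x).differentiableAt

omit [FiniteDimensional ℝ E] [FiniteDimensional ℝ F] [MeasurableSpace E] [BorelSpace E] in
theorem plOn_univ_of_plMap {f : E → F} (hf : PLMap f) : Cx_609.PLOn univ f := by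
  obtain ⟨a, G, hG, b⟩ := hf
  exact ⟨a.continuousOn, G, hG, fun x _ => b x⟩

theorem ae_differentiableAt_of_plMap {f : E → F} (hf : PLMap f) :
    ∀ᵐ x ∂μ, DifferentiableAt ℝ f x := by
  filter_upwards [ae_differentiableAt_of_plOn (μ := μ) convex_univ isClosed_univ
    (plOn_univ_of_plMap hf)] with x hx using hx (mem_univ x)

theorem ae_differentiableAt_of_locPL {f : E → F} {Ω : Set E} (hf : LocPL f Ω) :
    ∀ᵐ x ∂μ, x ∈ Ω → DifferentiableAt ℝ f x := by
  have h : μ {x | x ∈ Ω ∧ ¬ DifferentiableAt ℝ f x} = 0 := by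
    apply measure_null_of_locally_null
    rintro x ⟨hx, -⟩
    obtain ⟨r, hr, S, hc, hS⟩ := hf x hx
    have h1 : closedBall x (r / 2) ⊆ ball x r := closedBall_subset_ball (by linarith)
    have h2 : Cx_609.PLOn (closedBall x (r / 2)) f :=
      ⟨hc.mono h1, S, S.finite_toSet, fun y hy => hS y (h1 hy)⟩
    have h3 := ae_differentiableAt_of_plOn (μ := μ) (convex_closedBall x (r / 2))
      isClosed_closedBall h2
    refine ⟨closedBall x (r / 2) ∩ {x | x ∈ Ω ∧ ¬ DifferentiableAt ℝ f x}, ?_, ?_⟩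
    · rw [inter_comm]
      exact inter_mem self_mem_nhdsWithin
        (mem_nhdsWithin_of_mem_nhds (closedBall_mem_nhds x (by linarith)))
    · refine measure_mono_null ?_ h3
      rintro y ⟨hy1, -, hy2⟩ hy3
      exact hy2 (hy3 hy1)
  rw [measure_eq_zero_iff_ae_notMem] at h
  filter_upwards [h] with x hx hxΩ
  by_contra h1
  exact hx ⟨hxΩ, h1⟩

/-- PL maps send null sets to null sets -/
theorem null_image_of_plMap {f : E → E} (hf : PLMap f) {N : Set E} (hN : μ N = 0) :
    μ (f '' N) = 0 := by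
  obtain ⟨hc, G, hG, hsel⟩ := hf
  have h1 : f '' N ⊆ ⋃ g ∈ G, g '' N := by
    rintro _ ⟨x, hx, rfl⟩
    obtain ⟨g, hg, e⟩ := hsel x
    exact mem_biUnion hg ⟨x, hx, e.symm⟩
  refine measure_mono_null h1 ?_
  rw [measure_biUnion_null_iff hG.countable]
  intro g _
  exact addHaar_image_eq_zero_of_differentiableOn_of_addHaar_eq_zero μ
    (fun x _ => (hasFDerivAt_affine g x).differentiableAt.differentiableWithinAt) hN

end general

/-! ### the determinant of a map moving one coordinate -/

variable {n : ℕ}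

theorem det_coord (L : (Fin n → ℝ) →L[ℝ] (Fin n → ℝ)) (j : Fin n)
    (h : ∀ v k, k ≠ j → L v k = v k) : L.det = L (Pi.single j 1) j := by
  have h0 : L.det = LinearMap.det (L : (Fin n → ℝ) →ₗ[ℝ] (Fin n → ℝ)) := rfl
  rw [h0, ← LinearMap.det_toMatrix']
  have h1 : LinearMap.toMatrix' (L : (Fin n → ℝ) →ₗ[ℝ] (Fin n → ℝ)) =
      (1 : Matrix (Fin n) (Fin n) ℝ).updateRow j (fun i => L (Pi.single i 1) j) := by
    ext k i
    rw [LinearMap.toMatrix'_apply]
    by_cases hk : k = j
    · subst hk
      simp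
    · rw [Matrix.updateRow_ne hk]
      show L (Pi.single i 1) k = _
      rw [h _ _ hk, Matrix.one_apply, Pi.single_apply]
  rw [h1, ← Matrix.cramer_transpose_apply, Matrix.transpose_one, Matrix.cramer_one]
  rfl

end

end Crest.Agent.R096.Sq_477
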