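import Mathlib
import Crest.Agent.R096.Sq2_477

/-!
# Row 96, P4-SQUEEZE (helper477), part 3: derivative of the squeeze, the shell
-/

set_option autoImplicit false
set_option linter.unusedSectionVars false

open Set Function MeasureTheory Filter Topology Metric
open scoped ENNReal

namespace Crest.Agent.R096.Sq_477

open Crest.Agent.R096.Pl
open Crest.Agent.R096.Str_696 (LocPL)

noncomputable section

variable {n : ℕ}

/-! ### more on `sq`, `W` -/

theorem sq_of_abs_le {ρ τ w : ℝ} (h1 : ρ ≤ 1) (h : (1 - ρ) * |τ| ≤ w) : sq ρ τ w = ρ * τ := by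
  have hw : 0 ≤ w := le_trans (mul_nonneg (by linarith) (abs_nonneg τ)) h
  rcases le_total 0 τ with h2 | h2
  · rw [sq_nonneg h1 h2 hw, max_eq_left]
    rw [abs_of_nonneg h2] at h; nlinarith
  · rw [sq_nonpos h1 h2 hw, min_eq_left]
    rw [abs_of_nonpos h2] at h; nlinarith

theorem sq_of_le_pos {ρ τ w : ℝ} (h1 : ρ ≤ 1) (hw : 0 ≤ w) (hτ : 0 ≤ τ) (h : w ≤ (1 - ρ) * τ) :
    sq ρ τ w = τ - w := by
  rw [sq_nonneg h1 hτ hw, max_eq_right]
  nlinarith

theorem sq_of_le_neg {ρ τ w : ℝ} (h1 : ρ ≤ 1) (hw : 0 ≤ w) (hτ : τ ≤ 0) (h : w ≤ (1 - ρ) * (-τ)) :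
    sq ρ τ w = τ + w := by
  rw [sq_nonpos h1 hτ hw, min_eq_right]
  nlinarith

theorem abs_sq_sub_le (ρ τ w w' : ℝ) : |sq ρ τ w - sq ρ τ w'| ≤ |w - w'| := by
  unfold sq
  have h1 : |min (ρ * τ) (τ + w) - min (ρ * τ) (τ + w')| ≤ |w - w'| := by
    refine (abs_min_sub_min_le_max _ _ _ _).trans ?_
    rw [sub_self, abs_zero]
    refine max_le (abs_nonneg _) (le_of_eq ?_)
    congr 1; ring
  have h2 : |(τ - w) - (τ - w')| ≤ |w - w'| := by
    rw [← abs_neg]; apply le_of_eq; congr 1; ring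
  exact (abs_max_sub_max_le_max _ _ _ _).trans (max_le h1 h2)

theorem abs_W_sub_le {η : ℝ} (hη : 0 < η) (x y : Fin n → ℝ) :
    |W η x - W η y| ≤ 2 / η * ‖x - y‖ := by
  unfold W
  have h1 : |2 / η * (1 - η - ‖x‖) - 2 / η * (1 - η - ‖y‖)| ≤ 2 / η * ‖x - y‖ := by
    have : 2 / η * (1 - η - ‖x‖) - 2 / η * (1 - η - ‖y‖) = - (2 / η * (‖x‖ - ‖y‖)) := by ring
    rw [this, abs_neg, abs_mul, abs_of_pos (show (0 : ℝ) < 2 / η by positivity)]
    exact mul_le_mul_of_nonneg_left (abs_norm_sub_norm_le x y) (by positivity)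
  have h0 : 0 ≤ 2 / η * ‖x - y‖ := by positivity
  refine (abs_min_sub_min_le_max _ _ _ _).trans ?_
  rw [sub_self, abs_zero]
  refine max_le h0 ((abs_max_sub_max_le_max _ _ _ _).trans ?_)
  rw [sub_self, abs_zero]
  exact max_le h0 h1

/-! ### the derivative of `chi` -/

theorem chi_apply_self (η ρ c : ℝ) (j : Fin n) (x : Fin n → ℝ) :
    chi η ρ c j x j = c + sq ρ (x j - c) (W η x) := by simp [chi]

theorem chi_apply_ne (η ρ c : ℝ) (j : Fin n) (x : Fin n → ℝ) {k : Fin n} (hk : k ≠ j) :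
    chi η ρ c j x k = x k := by simp [chi, hk]

theorem fderiv_chi_ne {η ρ c : ℝ} {j : Fin n} {x : Fin n → ℝ}
    (h : DifferentiableAt ℝ (chi η ρ c j) x) (v : Fin n → ℝ) {k : Fin n} (hk : k ≠ j) :
    fderiv ℝ (chi η ρ c j) x v k = v k := by
  have h1 := hasFDerivAt_pi'.1 h.hasFDerivAt k
  have h2 : HasFDerivAt (fun y : Fin n → ℝ => chi η ρ c j y k)
      (ContinuousLinearMap.proj (R := ℝ) (φ := fun _ : Fin n => ℝ) k) x := by
    have h3 : (fun y : Fin n → ℝ => chi η ρ c j y k) = fun y => y k := by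
      ext y; exact chi_apply_ne η ρ c j y hk
    rw [h3]
    exact (ContinuousLinearMap.proj (R := ℝ) (φ := fun _ : Fin n => ℝ) k).hasFDerivAt
  have h4 := congrArg (fun L => L v) (h1.unique h2)
  simpa using h4

/-- the derivative of the moved coordinate along a coordinate line -/
theorem hasDerivAt_line {η ρ c : ℝ} {j : Fin n} {x : Fin n → ℝ}
    (h : DifferentiableAt ℝ (chi η ρ c j) x) (i : Fin n) :
    HasDerivAt (fun t : ℝ => chi η ρ c j (x + t • Pi.single i (1 : ℝ)) j)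
      (fderiv ℝ (chi η ρ c j) x (Pi.single i 1) j) 0 := by
  have h0 : HasDerivAt (fun t : ℝ => x + t • (Pi.single i (1 : ℝ) : Fin n → ℝ))
      (Pi.single i (1 : ℝ)) 0 := by
    have := ((hasDerivAt_id (0 : ℝ)).smul_const (Pi.single i (1 : ℝ) : Fin n → ℝ)).const_add x
    simpa using this
  have h1 : HasFDerivAt (chi η ρ c j) (fderiv ℝ (chi η ρ c j) x)
      (x + (0 : ℝ) • (Pi.single i (1 : ℝ) : Fin n → ℝ)) := by
    rw [zero_smul, add_zero]; exact h.hasFDerivAt
  have h2 := h1.comp_hasDerivAt (0 : ℝ) h0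
  exact (hasDerivAt_pi.1 h2) j

theorem abs_fderiv_chi_le {η ρ c : ℝ} (hη : 0 < η) {j : Fin n} {x : Fin n → ℝ}
    (h : DifferentiableAt ℝ (chi η ρ c j) x) {i : Fin n} (hi : i ≠ j) :
    |fderiv ℝ (chi η ρ c j) x (Pi.single i 1) j| ≤ 2 / η := by
  have h1 := hasDerivAt_line h i
  have h2 := h1.le_of_lip' (C := 2 / η) (by positivity) (Eventually.of_forall fun t => by
    simp only [chi_apply_self]
    have e1 : (x + t • (Pi.single i (1 : ℝ) : Fin n → ℝ)) j = x j := by
      simp [Pi.single_apply, hi.symm]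
    have e2 : (x + (0 : ℝ) • (Pi.single i (1 : ℝ) : Fin n → ℝ)) = x := by simp
    rw [e1, e2, add_sub_add_left_eq_sub, Real.norm_eq_abs, sub_zero]
    refine (abs_sq_sub_le _ _ _ _).trans ((abs_W_sub_le hη _ _).trans ?_)
    rw [add_sub_cancel_left, norm_smul, Pi.norm_single, norm_one, mul_one])
  simpa using h2

theorem norm_add_single (x : Fin n → ℝ) (j : Fin n) (t : ℝ) :
    x + t • (Pi.single j (1 : ℝ) : Fin n → ℝ) = update x j (x j + t) := by
  ext k
  by_cases hk : k = j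
  · subst hk; simp
  · simp [hk]

theorem fderiv_chi_out {η ρ c : ℝ} (hη : 0 < η) {j : Fin n} {x : Fin n → ℝ} (hx : 1 - η < ‖x‖) :
    HasFDerivAt (chi η ρ c j) (ContinuousLinearMap.id ℝ (Fin n → ℝ)) x := by
  have h1 : chi η ρ c j =ᶠ[𝓝 x] id := by
    filter_upwards [continuous_norm.continuousAt.eventually_const_lt hx] with y hy
    exact chi_off hη j hy.le
  exact (hasFDerivAt_id x).congr_of_eventuallyEq h1

/-- one-sided computation of a derivative -/
theorem deriv_of_right {f : ℝ → ℝ} {d m : ℝ} (h : HasDerivAt f d 0)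
    (h' : ∀ᶠ t in 𝓝[>] (0 : ℝ), f t = f 0 + m * t) : d = m := by
  have h1 : HasDerivWithinAt f d (Ioi 0) 0 := h.hasDerivWithinAt
  have h2 : HasDerivWithinAt (fun t => f 0 + m * t) m (Ioi 0) 0 := by
    have := ((hasDerivAt_id (0 : ℝ)).const_mul m).const_add (f 0)
    simpa using this.hasDerivWithinAt
  have h3 : HasDerivWithinAt f m (Ioi 0) 0 := by
    refine h2.congr_of_eventuallyEq h' ?_
    simp
  exact (uniqueDiffWithinAt_Ioi 0).eq_deriv _ h1 h3

/-- one-sided computation of a derivative -/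
theorem deriv_of_left {f : ℝ → ℝ} {d m : ℝ} (h : HasDerivAt f d 0)
    (h' : ∀ᶠ t in 𝓝[<] (0 : ℝ), f t = f 0 + m * t) : d = m := by
  have h1 : HasDerivWithinAt f d (Iio 0) 0 := h.hasDerivWithinAt
  have h2 : HasDerivWithinAt (fun t => f 0 + m * t) m (Iio 0) 0 := by
    have := ((hasDerivAt_id (0 : ℝ)).const_mul m).const_add (f 0)
    simpa using this.hasDerivWithinAt
  have h3 : HasDerivWithinAt f m (Iio 0) 0 := by
    refine h2.congr_of_eventuallyEq h' ?_
    simp
  exact (uniqueDiffWithinAt_Iio 0).eq_deriv _ h1 h3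

/-- eventually along a line we stay in the shell region -/
theorem eventually_lt {η ρ c : ℝ} {j : Fin n} {x : Fin n → ℝ}
    (hx : W η x < (1 - ρ) * |x j - c|) :
    ∀ᶠ y in 𝓝 x, W η y < (1 - ρ) * |y j - c| := by
  have h1 : ContinuousAt (fun y : Fin n → ℝ => W η y) x := (continuous_W η).continuousAt
  have h2 : ContinuousAt (fun y : Fin n → ℝ => (1 - ρ) * |y j - c|) x :=
    (continuous_const.mul ((continuous_apply j).sub continuous_const).abs).continuousAt
  exact h1.eventually_lt h2 hx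

theorem tendsto_line (x : Fin n → ℝ) (j : Fin n) :
    Tendsto (fun t : ℝ => x + t • (Pi.single j (1 : ℝ) : Fin n → ℝ)) (𝓝 0) (𝓝 x) := by
  have : Continuous (fun t : ℝ => x + t • (Pi.single j (1 : ℝ) : Fin n → ℝ)) := by fun_prop
  simpa using this.tendsto 0

/-- the moved coordinate in the shell region -/
theorem chi_shell {η ρ c : ℝ} (hρ' : ρ ≤ 1) {j : Fin n} {y : Fin n → ℝ}
    (hy : W η y < (1 - ρ) * |y j - c|) :
    (c ≤ y j → chi η ρ c j y j = y j - W η y) ∧ (y j ≤ c → chi η ρ c j y j = y j + W η y) := by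
  constructor
  · intro h
    rw [chi_apply_self, sq_of_le_pos hρ' (W_nonneg _ _) (by linarith)]
    · ring
    · rw [abs_of_nonneg (by linarith)] at hy; exact hy.le
  · intro h
    rw [chi_apply_self, sq_of_le_neg hρ' (W_nonneg _ _) (by linarith)]
    · ring
    · rw [abs_of_nonpos (by linarith)] at hy; linarith

theorem ne_of_shell {η ρ c : ℝ} (_hρ' : ρ ≤ 1) {j : Fin n} {y : Fin n → ℝ}
    (hy : W η y < (1 - ρ) * |y j - c|) : y j ≠ c := by
  intro h
  rw [h, sub_self, abs_zero, mul_zero] at hy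
  exact absurd hy (not_lt.2 (W_nonneg _ _))

/-- in the lateral part of the shell the moved coordinate has slope one -/
theorem fderiv_chi_lat {η ρ c : ℝ} (hρ' : ρ ≤ 1) {j : Fin n} {x : Fin n → ℝ}
    (h : DifferentiableAt ℝ (chi η ρ c j) x) (hx : W η x < (1 - ρ) * |x j - c|)
    (hlat : |x j| < ‖x‖) : fderiv ℝ (chi η ρ c j) x (Pi.single j 1) j = 1 := by
  have hne := ne_of_shell hρ' hx
  have hT := tendsto_line x j
  have e1 : ∀ᶠ t in 𝓝 (0 : ℝ), W η (x + t • (Pi.single j (1 : ℝ) : Fin n → ℝ)) = W η x := by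
    have h1 : ∀ᶠ t in 𝓝 (0 : ℝ), |x j + t| < ‖x‖ := by
      have : ContinuousAt (fun t : ℝ => |x j + t|) 0 := by fun_prop
      exact this.eventually_lt_const (by simpa using hlat)
    filter_upwards [h1] with t ht
    have h2 : ‖update x j 0‖ = ‖x‖ := by
      have h3 := norm_update x j (x j)
      rw [update_eq_self] at h3
      rcases max_choice ‖update x j 0‖ |x j| with h4 | h4
      · rw [h3, h4]
      · rw [h4] at h3; exact absurd h3 hlat.ne'
    have h5 : ‖update x j (x j + t)‖ = ‖x‖ := by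
      rw [norm_update, h2, max_eq_left ht.le]
    rw [norm_add_single]
    unfold W
    rw [h5]
  apply deriv_of_right (hasDerivAt_line h j)
  refine eventually_nhdsWithin_of_eventually_nhds ?_
  have e2 := hT.eventually (eventually_lt hx)
  rcases lt_or_gt_of_ne hne with h1 | h1
  · have e3 : ∀ᶠ t in 𝓝 (0 : ℝ), x j + t < c := by
      have : ContinuousAt (fun t : ℝ => x j + t) 0 := by fun_prop
      exact this.eventually_lt_const (by simpa using h1)
    filter_upwards [e1, e2, e3] with t t1 t2 t3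
    have t4 : (x + t • (Pi.single j (1 : ℝ) : Fin n → ℝ)) j = x j + t := by simp
    rw [(chi_shell hρ' t2).2 (by rw [t4]; exact t3.le), t1, t4]
    have t5 : (x + (0 : ℝ) • (Pi.single j (1 : ℝ) : Fin n → ℝ)) = x := by simp
    rw [t5, (chi_shell hρ' hx).2 h1.le]
    ring
  · have e3 : ∀ᶠ t in 𝓝 (0 : ℝ), c < x j + t := by
      have : ContinuousAt (fun t : ℝ => x j + t) 0 := by fun_prop
      exact this.eventually_const_lt (by simpa using h1)
    filter_upwards [e1, e2, e3] with t t1 t2 t3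
    have t4 : (x + t • (Pi.single j (1 : ℝ) : Fin n → ℝ)) j = x j + t := by simp
    rw [(chi_shell hρ' t2).1 (by rw [t4]; exact t3.le), t1, t4]
    have t5 : (x + (0 : ℝ) • (Pi.single j (1 : ℝ) : Fin n → ℝ)) = x := by simp
    rw [t5, (chi_shell hρ' hx).1 h1.le]
    ring

/-- in the top part of the shell the moved coordinate has slope `1 + 2 / η` -/
theorem fderiv_chi_top {η ρ c : ℝ} (hη : 0 < η) (hη' : η ≤ 1 / 8) (hc : |c| ≤ 1 / 2)
    (hρ' : ρ ≤ 1) {j : Fin n} {x : Fin n → ℝ}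
    (h : DifferentiableAt ℝ (chi η ρ c j) x) (hx : W η x < (1 - ρ) * |x j - c|)
    (htop : |x j| = ‖x‖) (h1 : 1 - 2 * η < ‖x‖) (h2 : ‖x‖ < 1 - η) :
    fderiv ℝ (chi η ρ c j) x (Pi.single j 1) j = 1 + 2 / η := by
  have hc' := abs_le.1 hc
  have hT := tendsto_line x j
  have e2 := hT.eventually (eventually_lt hx)
  have hn : ∀ᶠ t in 𝓝 (0 : ℝ), ‖x + t • (Pi.single j (1 : ℝ) : Fin n → ℝ)‖ < 1 - η :=
    (hT.norm).eventually_lt_const h2
  have hn' : ∀ᶠ t in 𝓝 (0 : ℝ), 1 - 2 * η < ‖x + t • (Pi.single j (1 : ℝ) : Fin n → ℝ)‖ :=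
    (hT.norm).eventually_const_lt h1
  have t5 : (x + (0 : ℝ) • (Pi.single j (1 : ℝ) : Fin n → ℝ)) = x := by simp
  have hW0 : W η x = 2 / η * (1 - η - ‖x‖) := W_eq_mid hη h1.le h2.le
  rcases le_total 0 (x j) with h0 | h0
  · have hxj : x j = ‖x‖ := by rwa [abs_of_nonneg h0] at htop
    have hcx : c < x j := by rw [hxj]; linarith
    apply deriv_of_right (hasDerivAt_line h j)
    have e4 : ∀ᶠ t in 𝓝[>] (0 : ℝ), 0 < t := self_mem_nhdsWithin
    filter_upwards [e4, eventually_nhdsWithin_of_eventually_nhds e2,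
      eventually_nhdsWithin_of_eventually_nhds hn, eventually_nhdsWithin_of_eventually_nhds hn']
      with t t1 t2 t3 t3'
    have t4 : (x + t • (Pi.single j (1 : ℝ) : Fin n → ℝ)) j = x j + t := by simp
    have t6 : ‖x + t • (Pi.single j (1 : ℝ) : Fin n → ℝ)‖ = x j + t := by
      rw [norm_add_single, norm_update, abs_of_nonneg (by linarith), max_eq_right]
      have := norm_update x j (x j)
      rw [update_eq_self] at this
      have h9 : ‖update x j 0‖ ≤ ‖x‖ := by rw [this]; exact le_max_left _ _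
      linarith
    rw [(chi_shell hρ' t2).1 (by rw [t4]; linarith), W_eq_mid hη t3'.le t3.le, t6, t4, t5,
      (chi_shell hρ' hx).1 hcx.le, hW0, ← hxj]
    ring
  · have hxj : -x j = ‖x‖ := by rwa [abs_of_nonpos h0] at htop
    have hcx : x j < c := by linarith
    apply deriv_of_left (hasDerivAt_line h j)
    have e4 : ∀ᶠ t in 𝓝[<] (0 : ℝ), t < 0 := self_mem_nhdsWithin
    filter_upwards [e4, eventually_nhdsWithin_of_eventually_nhds e2,
      eventually_nhdsWithin_of_eventually_nhds hn, eventually_nhdsWithin_of_eventually_nhds hn']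
      with t t1 t2 t3 t3'
    have t4 : (x + t • (Pi.single j (1 : ℝ) : Fin n → ℝ)) j = x j + t := by simp
    have t6 : ‖x + t • (Pi.single j (1 : ℝ) : Fin n → ℝ)‖ = -(x j + t) := by
      rw [norm_add_single, norm_update, abs_of_nonpos (by linarith), max_eq_right]
      have := norm_update x j (x j)
      rw [update_eq_self] at this
      have h9 : ‖update x j 0‖ ≤ ‖x‖ := by rw [this]; exact le_max_left _ _
      linarith
    rw [(chi_shell hρ' t2).2 (by rw [t4]; linarith), W_eq_mid hη t3'.le t3.le, t6, t4, t5,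
      (chi_shell hρ' hx).2 hcx.le, hW0, ← hxj]
    ring

/-- the shell region -/
def SS (η ρ c : ℝ) (j : Fin n) : Set (Fin n → ℝ) :=
  {x | ‖x‖ < 1 ∧ W η x < (1 - ρ) * |x j - c|}

theorem SS_norm {η ρ c : ℝ} (hη : 0 < η) (hρ : 0 < ρ) (hc : |c| ≤ 1 / 2) {j : Fin n}
    {x : Fin n → ℝ} (hx : x ∈ SS η ρ c j) : 1 - 2 * η < ‖x‖ := by
  by_contra h
  push Not at h
  obtain ⟨h1, h2⟩ := hx
  rw [W_eq_two hη h] at h2
  have h3 : |x j - c| ≤ 3 / 2 := by
    have a1 := (norm_le_pi_norm x j).trans h1.le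
    rw [Real.norm_eq_abs] at a1
    calc |x j - c| ≤ |x j| + |c| := abs_sub _ _
      _ ≤ 1 + 1 / 2 := by linarith
      _ = 3 / 2 := by norm_num
  have h4 : (1 - ρ) * |x j - c| ≤ 1 * (3 / 2) := by
    have := abs_nonneg (x j - c)
    nlinarith
  linarith

end

end Crest.Agent.R096.Sq_477
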