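import Mathlib
import Crest.Agent.R096.Sq3_477

/-!
# Row 96, P4-SQUEEZE (helper477), part 4: integrals over the shell
-/

set_option autoImplicit false
set_option linter.unusedSectionVars false

open Set Function MeasureTheory Filter Topology Metric
open scoped ENNReal

namespace Crest.Agent.R096.Sq_477

open Crest.Agent.R096.Pl
open Crest.Agent.R096.Str_696 (LocPL)

noncomputable section

variable {n : ℕ}

theorem measurable_W (η : ℝ) : Measurable (W (n := n) η) := (continuous_W η).measurable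

theorem measurableSet_SS (η ρ c : ℝ) (j : Fin n) : MeasurableSet (SS η ρ c j) := by
  unfold SS
  refine (measurableSet_lt measurable_norm measurable_const).inter ?_
  exact measurableSet_lt (measurable_W η)
    ((continuous_const.mul ((continuous_apply j).sub continuous_const).abs).measurable)

/-- the outer shell -/
def Sh (η : ℝ) : Set (Fin n → ℝ) := {x | 1 - 2 * η < ‖x‖ ∧ ‖x‖ < 1}

theorem measurableSet_Sh (η : ℝ) : MeasurableSet (Sh (n := n) η) :=
  (measurableSet_lt measurable_const measurable_norm).inter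
    (measurableSet_lt measurable_norm measurable_const)

theorem chi_mem_ball {η ρ c : ℝ} (hη : 0 < η) (hη' : η ≤ 1 / 8) (hρ : 0 < ρ) (hρ' : ρ ≤ 1)
    (hc : |c| ≤ 1 / 2) (j : Fin n) {x : Fin n → ℝ} (hx : ‖x‖ < 1) : ‖chi η ρ c j x‖ < 1 := by
  rcases lt_or_ge ‖x‖ (1 - η) with h | h
  · exact (chi_norm hη hη' hρ hρ' hc j h).trans (by linarith)
  · rwa [chi_off hη j h]

theorem exists_coord {x : Fin n → ℝ} (hx : 0 < ‖x‖) : ∃ k, |x k| = ‖x‖ := by
  by_contra h
  push Not at h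
  have h1 : ∀ k, |x k| < ‖x‖ := fun k => lt_of_le_of_ne (norm_le_pi_norm x k) (h k)
  rcases isEmpty_or_nonempty (Fin n) with h0 | h0
  · have : x = 0 := Subsingleton.elim _ _
    rw [this, norm_zero] at hx; exact lt_irrefl _ hx
  · have : ‖x‖ < ‖x‖ := (pi_norm_lt_iff hx).2 (fun k => by rw [Real.norm_eq_abs]; exact h1 k)
    exact lt_irrefl _ this

theorem det_lat {η ρ c : ℝ} (hη : 0 < η) (hρ' : ρ ≤ 1)
    {j : Fin n} {x : Fin n → ℝ}
    (h : DifferentiableAt ℝ (chi η ρ c j) x) (hx : W η x < (1 - ρ) * |x j - c|)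
    (hlat : |x j| < ‖x‖ ∨ 1 - η < ‖x‖) : (fderiv ℝ (chi η ρ c j) x).det = 1 := by
  rw [det_coord _ j (fun v k hk => fderiv_chi_ne h v hk)]
  rcases hlat with h1 | h1
  · exact fderiv_chi_lat hρ' h hx h1
  · rw [(fderiv_chi_out hη h1).fderiv]
    simp

theorem shell_lintegral {η ρ c : ℝ} (hη : 0 < η) (hη' : η ≤ 1 / 8) (hρ : 0 < ρ) (hρ' : ρ ≤ 1)
    (hc : |c| ≤ 1 / 2) (j : Fin n) (F : (Fin n → ℝ) → ℝ≥0∞) :
    ∫⁻ x in SS η ρ c j, F (chi η ρ c j x) ≤
      (∫⁻ x in Sh η, F x) + ENNReal.ofReal (η / 2) * ∫⁻ x in ball 0 1, F x := by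
  set χ := chi (n := n) η ρ c j with hχ
  have hinj : Injective χ := (chi_bijective hη hη' hρ hρ' hc j).1
  let Lat : Set (Fin n → ℝ) := {x | |x j| < ‖x‖ ∨ 1 - η < ‖x‖}
  have hLat : MeasurableSet Lat :=
    (measurableSet_lt ((continuous_apply j).abs.measurable) measurable_norm).union
      (measurableSet_lt measurable_const measurable_norm)
  let A : Set (Fin n → ℝ) := {x | x ∈ SS η ρ c j ∧ DifferentiableAt ℝ χ x ∧ ‖x‖ ≠ 1 - η}
  have hA : MeasurableSet A := by
    refine (measurableSet_SS η ρ c j).inter ((measurableSet_of_differentiableAt ℝ χ).inter ?_)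
    exact (measurableSet_eq_fun measurable_norm measurable_const).compl
  have hAS : SS η ρ c j ≤ᵐ[volume] A := by
    have h1 := ae_differentiableAt_of_plMap (μ := (volume : Measure (Fin n → ℝ)))
      (plMap_chi (n := n) η ρ c j)
    have h2 : ∀ᵐ x : Fin n → ℝ, x ∉ sphere (0 : Fin n → ℝ) (1 - η) := by
      rw [← measure_eq_zero_iff_ae_notMem]
      exact Measure.addHaar_sphere_of_ne_zero volume 0 (by linarith : (1 - η) ≠ 0)
    filter_upwards [h1, h2] with x hx1 hx2 hx3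
    exact ⟨hx3, hx1, fun h => hx2 (mem_sphere_zero_iff_norm.2 h)⟩
  have e1 : ∫⁻ x in SS η ρ c j, F (χ x) ≤ ∫⁻ x in A, F (χ x) :=
    lintegral_mono_set' hAS
  refine e1.trans ?_
  rw [← lintegral_inter_add_sdiff (fun x => F (χ x)) A hLat]
  refine add_le_add ?_ ?_
  · -- lateral part
    have h1 : ∫⁻ x in A ∩ Lat, F (χ x) =
        ∫⁻ x in A ∩ Lat, ENNReal.ofReal |(fderiv ℝ χ x).det| * F (χ x) := by
      apply setLIntegral_congr_fun (hA.inter hLat)
      intro x hx
      simp only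
      rw [det_lat hη hρ' hx.1.2.1 hx.1.1.2 hx.2]
      simp
    rw [h1, ← lintegral_image_eq_lintegral_abs_det_fderiv_mul volume (hA.inter hLat)
      (fun x hx => hx.1.2.1.hasFDerivAt.hasFDerivWithinAt) hinj.injOn]
    apply lintegral_mono_set
    rintro _ ⟨x, ⟨hxA, hxL⟩, rfl⟩
    have hx2 := SS_norm hη hρ hc hxA.1
    refine ⟨?_, chi_mem_ball hη hη' hρ hρ' hc j hxA.1.1⟩
    rcases hxL with h3 | h3
    · obtain ⟨k, hk⟩ := exists_coord (x := x) (by linarith)
      have hkj : k ≠ j := by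
        rintro rfl
        rw [hk] at h3; exact lt_irrefl _ h3
      have h4 := norm_le_pi_norm (χ x) k
      rw [hχ, chi_apply_ne η ρ c j x hkj, Real.norm_eq_abs, hk] at h4
      exact hx2.trans_le h4
    · rw [hχ, chi_off hη j h3.le]; exact hx2
  · -- top part
    have h0 : ∀ x ∈ A \ Lat, 1 ≤ η / 2 * |(fderiv ℝ χ x).det| := by
      rintro x ⟨hxA, hxL⟩
      have h5 : ¬ (|x j| < ‖x‖ ∨ 1 - η < ‖x‖) := hxL
      push Not at h5
      have h6 : |x j| = ‖x‖ := le_antisymm (norm_le_pi_norm x j) h5.1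
      have h7 : ‖x‖ < 1 - η := lt_of_le_of_ne h5.2 hxA.2.2
      have h8 := fderiv_chi_top hη hη' hc hρ' hxA.2.1 hxA.1.2 h6 (SS_norm hη hρ hc hxA.1) h7
      rw [det_coord _ j (fun v k hk => fderiv_chi_ne hxA.2.1 v hk), h8,
        abs_of_pos (by positivity)]
      have : η / 2 * (1 + 2 / η) = η / 2 + 1 := by field_simp
      rw [this]; linarith
    calc ∫⁻ x in A \ Lat, F (χ x)
        ≤ ∫⁻ x in A \ Lat, ENNReal.ofReal (η / 2) *
            (ENNReal.ofReal |(fderiv ℝ χ x).det| * F (χ x)) := by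
          apply setLIntegral_mono' (hA.diff hLat)
          intro x hx
          rw [← mul_assoc, ← ENNReal.ofReal_mul (by positivity)]
          calc F (χ x) = 1 * F (χ x) := (one_mul _).symm
            _ ≤ _ := by
              gcongr
              rw [ENNReal.one_le_ofReal]
              exact h0 x hx
      _ = ENNReal.ofReal (η / 2) * ∫⁻ x in A \ Lat,
            (ENNReal.ofReal |(fderiv ℝ χ x).det| * F (χ x)) := by
          rw [lintegral_const_mul' _ _ ENNReal.ofReal_ne_top]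
      _ = ENNReal.ofReal (η / 2) * ∫⁻ x in χ '' (A \ Lat), F x := by
          rw [lintegral_image_eq_lintegral_abs_det_fderiv_mul volume (hA.diff hLat)
            (fun x hx => hx.1.2.1.hasFDerivAt.hasFDerivWithinAt) hinj.injOn]
      _ ≤ ENNReal.ofReal (η / 2) * ∫⁻ x in ball 0 1, F x := by
          gcongr
          rintro _ ⟨x, hx, rfl⟩
          rw [mem_ball_zero_iff]
          exact chi_mem_ball hη hη' hρ hρ' hc j hx.1.1.1

/-- with the Jacobian as a weight -/
theorem shell_lintegral_det {η ρ c : ℝ} (hη : 0 < η) (hη' : η ≤ 1 / 8) (hρ : 0 < ρ) (hρ' : ρ ≤ 1)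
    (hc : |c| ≤ 1 / 2) (j : Fin n) (F : (Fin n → ℝ) → ℝ≥0∞) :
    ∫⁻ x in {x | x ∈ SS η ρ c j ∧ DifferentiableAt ℝ (chi η ρ c j) x},
      ENNReal.ofReal |(fderiv ℝ (chi η ρ c j) x).det| * F (chi η ρ c j x) ≤
      ∫⁻ x in ball 0 1, F x := by
  have hA : MeasurableSet {x | x ∈ SS η ρ c j ∧ DifferentiableAt ℝ (chi η ρ c j) x} :=
    (measurableSet_SS η ρ c j).inter (measurableSet_of_differentiableAt ℝ _)
  rw [← lintegral_image_eq_lintegral_abs_det_fderiv_mul volume hA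
    (fun x hx => hx.2.hasFDerivAt.hasFDerivWithinAt)
    (chi_bijective hη hη' hρ hρ' hc j).1.injOn]
  apply lintegral_mono_set
  rintro _ ⟨x, hx, rfl⟩
  rw [mem_ball_zero_iff]
  exact chi_mem_ball hη hη' hρ hρ' hc j hx.1.1

/-- bounds of the derivative of `chi` in the shell, almost everywhere -/
theorem abs_det_le {η ρ c : ℝ} (hη : 0 < η) (hη' : η ≤ 1 / 8) (hρ : 0 < ρ) (hρ' : ρ ≤ 1)
    (hc : |c| ≤ 1 / 2) {j : Fin n} {x : Fin n → ℝ} (hx : x ∈ SS η ρ c j)
    (h : DifferentiableAt ℝ (chi η ρ c j) x) (hne : ‖x‖ ≠ 1 - η) :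
    fderiv ℝ (chi η ρ c j) x (Pi.single j 1) j = (fderiv ℝ (chi η ρ c j) x).det ∧
    1 ≤ (fderiv ℝ (chi η ρ c j) x).det ∧ (fderiv ℝ (chi η ρ c j) x).det ≤ 3 / η := by
  have h0 : fderiv ℝ (chi η ρ c j) x (Pi.single j 1) j = (fderiv ℝ (chi η ρ c j) x).det :=
    (det_coord _ j (fun v k hk => fderiv_chi_ne h v hk)).symm
  refine ⟨h0, ?_⟩
  have h3 : 1 + 2 / η ≤ 3 / η := by
    rw [add_div' _ _ _ hη.ne', div_le_div_iff_of_pos_right hη]; linarith
  have h4 : 0 < 2 / η := by positivity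
  by_cases h1 : |x j| < ‖x‖ ∨ 1 - η < ‖x‖
  · rw [det_lat hη hρ' h hx.2 h1]
    constructor <;> linarith
  · push Not at h1
    have h6 : |x j| = ‖x‖ := le_antisymm (norm_le_pi_norm x j) h1.1
    have h7 : ‖x‖ < 1 - η := lt_of_le_of_ne h1.2 hne
    rw [← h0, fderiv_chi_top hη hη' hc hρ' h hx.2 h6 (SS_norm hη hρ hc hx) h7]
    constructor <;> linarith

end

end Crest.Agent.R096.Sq_477
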