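import Mathlib
import Crest.Agent.R096.Sq4_477

/-!
# Row 96, P4-SQUEEZE (helper477), part 5: the limit onto the slice
-/

set_option autoImplicit false
set_option linter.unusedSectionVars false

open Set Function MeasureTheory Filter Topology Metric
open scoped ENNReal

namespace Crest.Agent.R096.Sq_477

open Crest.Agent.R096.Pl
open Crest.Agent.R096.Str_696 (LocPL)

noncomputable section

/-- a locally PL map is PL on compact sets -/
theorem plOn_of_locPL {E F : Type*} [NormedAddCommGroup E] [NormedSpace ℝ E]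
    [NormedAddCommGroup F] [NormedSpace ℝ F] {g : E → F} {Ω K : Set E} (hg : LocPL g Ω)
    (hK : IsCompact K) (hKΩ : K ⊆ Ω) : Cx_609.PLOn K g := by
  classical
  have h : ∀ x : E, ∃ r : ℝ, 0 < r ∧ (x ∈ K → ∃ S : Finset (E →ᵃ[ℝ] F),
      ContinuousOn g (ball x r) ∧ ∀ y ∈ ball x r, ∃ a ∈ S, g y = a y) := by
    intro x
    by_cases hx : x ∈ K
    · obtain ⟨r, hr, S, h1, h2⟩ := hg x (hKΩ hx)
      exact ⟨r, hr, fun _ => ⟨S, h1, h2⟩⟩
    · exact ⟨1, one_pos, fun h => absurd h hx⟩
  choose r hr h using h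
  obtain ⟨t, ht, hcov⟩ := hK.elim_nhds_subcover (fun x => ball x (r x))
    (fun x _ => ball_mem_nhds x (hr x))
  have h' : ∀ x : E, ∃ S : Finset (E →ᵃ[ℝ] F), x ∈ K →
      ContinuousOn g (ball x (r x)) ∧ ∀ y ∈ ball x (r x), ∃ a ∈ S, g y = a y := by
    intro x
    by_cases hx : x ∈ K
    · obtain ⟨S, hS⟩ := h x hx
      exact ⟨S, fun _ => hS⟩
    · exact ⟨∅, fun h => absurd h hx⟩
  choose S hS using h'
  refine ⟨?_, t.biUnion S, Finset.finite_toSet _, ?_⟩
  · intro y hy
    obtain ⟨x, hx, hyx⟩ := mem_iUnion₂.1 (hcov hy)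
    exact (((hS x (ht x hx)).1.continuousAt (isOpen_ball.mem_nhds hyx))).continuousWithinAt
  · intro y hy
    obtain ⟨x, hx, hyx⟩ := mem_iUnion₂.1 (hcov hy)
    obtain ⟨a, ha, e⟩ := (hS x (ht x hx)).2 y hyx
    exact ⟨a, by simpa using ⟨x, hx, ha⟩, e⟩

variable {n : ℕ}

/-- put the `j`-th coordinate equal to `c` -/
def prj (c : ℝ) (j : Fin n) (x : Fin n → ℝ) : Fin n → ℝ := update x j c

theorem hasFDerivAt_prj (c : ℝ) (j : Fin n) (x : Fin n → ℝ) :
    HasFDerivAt (prj c j) (ContinuousLinearMap.id ℝ (Fin n → ℝ) -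
      (ContinuousLinearMap.proj (R := ℝ) (φ := fun _ : Fin n => ℝ) j).smulRight
        (Pi.single j (1 : ℝ))) x := by
  have h : prj c j = fun y : Fin n → ℝ =>
      y - (y j) • (Pi.single j (1 : ℝ) : Fin n → ℝ) + c • (Pi.single j (1 : ℝ) : Fin n → ℝ) := by
    ext y k
    unfold prj
    by_cases hk : k = j
    · subst hk; simp
    · simp [hk]
  rw [h]
  refine HasFDerivAt.add_const _ ((hasFDerivAt_id x).sub ?_)
  exact ((ContinuousLinearMap.proj (R := ℝ) (φ := fun _ : Fin n => ℝ) j).hasFDerivAt).smul_const _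

theorem continuous_prj (c : ℝ) (j : Fin n) : Continuous (prj (n := n) c j) :=
  continuous_iff_continuousAt.2 fun x => (hasFDerivAt_prj c j x).continuousAt

/-- scale the `j`-th coordinate towards `c` -/
def lin (ρ c : ℝ) (j : Fin n) (x : Fin n → ℝ) : Fin n → ℝ := update x j (c + ρ * (x j - c))

theorem lin_lin {ρ ρ' : ℝ} (h : ρ * ρ' = 1) (c : ℝ) (j : Fin n) (x : Fin n → ℝ) :
    lin ρ c j (lin ρ' c j x) = x := by
  unfold lin
  rw [update_idem, update_self]
  have : c + ρ * (c + ρ' * (x j - c) - c) = x j := by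
    have : ρ * (c + ρ' * (x j - c) - c) = (ρ * ρ') * (x j - c) := by ring
    rw [this, h]; ring
  rw [this, update_eq_self]

theorem lin_eq (ρ c : ℝ) (j : Fin n) (x : Fin n → ℝ) :
    lin ρ c j x = x + ((ρ - 1) * (x j - c)) • (Pi.single j (1 : ℝ) : Fin n → ℝ) := by
  ext k
  unfold lin
  by_cases hk : k = j
  · subst hk; simp; ring
  · simp [hk]

theorem plMap_lin (ρ c : ℝ) (j : Fin n) : PLMap (lin (n := n) ρ c j) := by
  have : lin (n := n) ρ c j = fun x => x + ((ρ - 1) * (x j - c)) • (Pi.single j (1 : ℝ) : Fin n → ℝ) := by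
    ext1 x; exact lin_eq ρ c j x
  rw [this]
  exact PLMap.add PLMap.id ((PLMap.const_mul _ ((plMap_coord j).sub_const c)).smul_const _)

theorem norm_lin_lt {ρ c η : ℝ} (hρ : 0 < ρ) (hρ' : ρ ≤ 1) (hc : |c| ≤ 1 / 2) (hη' : η ≤ 1 / 8)
    (j : Fin n) {x : Fin n → ℝ} (hx : ‖x‖ < 1 - η) : ‖lin ρ c j x‖ < 1 - η := by
  rw [pi_norm_lt_iff (by linarith)]
  intro k
  by_cases hk : k = j
  · subst hk
    unfold lin
    rw [update_self, Real.norm_eq_abs]
    have h1 := (norm_le_pi_norm x k).trans_lt hx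
    rw [Real.norm_eq_abs, abs_lt] at h1
    rw [abs_le] at hc
    rw [abs_lt]
    constructor <;> nlinarith
  · unfold lin
    rw [update_of_ne hk]
    exact (norm_le_pi_norm x k).trans_lt hx

variable {F : Type*} [NormedAddCommGroup F] [NormedSpace ℝ F] [FiniteDimensional ℝ F]

/-- the trace from one side of a convex set on the slice, as a cylinder -/
def Tr (σ c : ℝ) (j : Fin n) (C : Set (Fin n → ℝ)) : Set (Fin n → ℝ) :=
  prj c j ⁻¹' closure (C ∩ {x | 0 < σ * (x j - c)})

theorem convex_Tr (σ c : ℝ) (j : Fin n) {C : Set (Fin n → ℝ)} (hC : Convex ℝ C) :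
    Convex ℝ (Tr σ c j C) := by
  have h1 : Convex ℝ {x : Fin n → ℝ | 0 < σ * (x j - c)} := by
    intro x hx y hy a b ha hb hab
    simp only [mem_ofPred_eq, Pi.add_apply, Pi.smul_apply, smul_eq_mul] at hx hy ⊢
    have : σ * (a * x j + b * y j - c) = a * (σ * (x j - c)) + b * (σ * (y j - c)) := by
      have : c = (a + b) * c := by rw [hab, one_mul]
      nth_rewrite 1 [this]; ring
    rw [this]
    rcases eq_or_lt_of_le ha with h | h
    · rw [← h, zero_add] at hab
      rw [← h, hab]; linarith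
    · have := mul_pos h hx
      have := mul_nonneg hb hy.le
      linarith
  have h2 := (hC.inter h1).closure
  intro x hx y hy a b ha hb hab
  have h3 : prj c j (a • x + b • y) = a • prj c j x + b • prj c j y := by
    ext k
    unfold prj
    by_cases hk : k = j
    · subst hk
      simp only [update_self, Pi.add_apply, Pi.smul_apply, smul_eq_mul]
      rw [← add_mul, hab, one_mul]
    · simp [hk]
  rw [Tr, mem_preimage, h3]
  exact h2 hx hy ha hb hab

/-- the key geometric lemma: near a generic point of the slice the map is affine on each side -/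
theorem slice_key {g : (Fin n → ℝ) → F} {η c : ℝ} (hc : |c| ≤ 1 / 2)
    (hη' : η ≤ 1 / 8) (j : Fin n) {𝒞 : Set (Set (Fin n → ℝ))} (hfin : 𝒞.Finite)
    (hC : ∀ C ∈ 𝒞, Convex ℝ C ∧ IsClosed C ∧ ∃ a : (Fin n → ℝ) →ᵃ[ℝ] F, EqOn g a C)
    (hcov : closedBall (0 : Fin n → ℝ) (1 - η) ⊆ ⋃₀ 𝒞) {x : Fin n → ℝ} (hx : ‖x‖ < 1 - η)
    (hxj : x j ≠ c) (hgen : ∀ C ∈ 𝒞, x ∉ frontier (Tr (x j - c) c j C)) :
    ∃ a : (Fin n → ℝ) →ᵃ[ℝ] F, (∀ᶠ ρ in 𝓝[>] (0 : ℝ), g =ᶠ[𝓝 (lin ρ c j x)] a) ∧
      (fun y => g (prj c j y)) =ᶠ[𝓝 x] fun y => a (prj c j y) := by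
  set σ := x j - c with hσ
  have hσ0 : σ ≠ 0 := sub_ne_zero.2 hxj
  have hσσ : 0 < σ * σ := mul_self_pos.2 hσ0
  set z := prj c j x with hz
  have hlim : Tendsto (fun ρ : ℝ => lin ρ c j x) (𝓝[>] 0) (𝓝 z) := by
    have h1 : Continuous (fun ρ : ℝ => lin ρ c j x) := by
      have : (fun ρ : ℝ => lin ρ c j x) =
          fun ρ => x + ((ρ - 1) * (x j - c)) • (Pi.single j (1 : ℝ) : Fin n → ℝ) := by
        ext1 ρ; exact lin_eq ρ c j x
      rw [this]; fun_prop
    have h2 := h1.tendsto 0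
    have h3 : lin 0 c j x = z := by
      unfold lin; rw [zero_mul, add_zero]; rfl
    rw [h3] at h2
    exact h2.mono_left nhdsWithin_le_nhds
  have hlinj : ∀ ρ : ℝ, (lin ρ c j x) j = c + ρ * σ := by
    intro ρ; unfold lin; rw [update_self]
  -- a piece seen from the slice
  obtain ⟨C, hC𝒞, hxC⟩ : ∃ C ∈ 𝒞, x ∈ Tr σ c j C := by
    by_contra hcon
    push Not at hcon
    have h1 : ∀ᶠ y in 𝓝 z, ∀ C ∈ 𝒞, y ∉ C ∩ {x | 0 < σ * (x j - c)} := by
      rw [eventually_all_finite hfin]
      intro C hC'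
      have h2 : z ∉ closure (C ∩ {x | 0 < σ * (x j - c)}) := hcon C hC'
      filter_upwards [(isClosed_closure.isOpen_compl.mem_nhds h2)] with y hy hy'
      exact hy (subset_closure hy')
    have h2 := hlim.eventually h1
    have h3 : ∀ᶠ ρ in 𝓝[>] (0 : ℝ), 0 < ρ := self_mem_nhdsWithin
    have h4 : ∀ᶠ ρ in 𝓝[>] (0 : ℝ), ρ < 1 := by
      exact eventually_nhdsWithin_of_eventually_nhds (gt_mem_nhds one_pos)
    obtain ⟨ρ, h5, h6, h7⟩ := (h2.and (h3.and h4)).exists
    have h8 : lin ρ c j x ∈ closedBall (0 : Fin n → ℝ) (1 - η) := by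
      rw [mem_closedBall_zero_iff]
      exact (norm_lin_lt h6 h7.le hc hη' j hx).le
    obtain ⟨C, hC', h9⟩ := hcov h8
    refine h5 C hC' ⟨h9, ?_⟩
    show 0 < σ * ((lin ρ c j x) j - c)
    rw [hlinj]
    have : σ * (c + ρ * σ - c) = ρ * (σ * σ) := by ring
    rw [this]; exact mul_pos h6 hσσ
  obtain ⟨hconv, hcl, a, ha⟩ := hC C hC𝒞
  have hxU : x ∈ interior (Tr σ c j C) := by
    by_contra h1
    exact hgen C hC𝒞 ⟨subset_closure hxC, h1⟩
  have hTC : ∀ y ∈ Tr σ c j C, prj c j y ∈ C := fun y hy =>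
    closure_minimal inter_subset_left hcl hy
  refine ⟨a, ?_, ?_⟩
  · -- `z` is interior as well
    have hzU : z ∈ interior (Tr σ c j C) := by
      rw [mem_interior_iff_mem_nhds] at hxU ⊢
      have h1 : Continuous (fun y : Fin n → ℝ => y + σ • (Pi.single j (1 : ℝ) : Fin n → ℝ)) := by
        fun_prop
      have h2 : z + σ • (Pi.single j (1 : ℝ) : Fin n → ℝ) = x := by
        ext k
        by_cases hk : k = j
        · subst hk; simp [hz, prj, hσ]
        · simp [hz, prj, hk]
      have h3 : Tendsto (fun y : Fin n → ℝ => y + σ • (Pi.single j (1 : ℝ) : Fin n → ℝ)) (𝓝 z)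
          (𝓝 x) := by
        have := h1.tendsto z
        rwa [h2] at this
      filter_upwards [h3 hxU] with y hy
      have h4 : prj c j (y + σ • (Pi.single j (1 : ℝ) : Fin n → ℝ)) = prj c j y := by
        ext k
        by_cases hk : k = j
        · subst hk; simp [prj]
        · simp [prj, hk]
      have h5 : prj c j (y + σ • (Pi.single j (1 : ℝ) : Fin n → ℝ)) ∈
        closure (C ∩ {x | 0 < σ * (x j - c)}) := hy
      rw [h4] at h5
      exact h5
    obtain ⟨p, hpC, hpj⟩ : (C ∩ {x | 0 < σ * (x j - c)}).Nonempty := by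
      rw [← closure_nonempty_iff]
      exact ⟨_, hxC⟩
    have hpj' : p j - c ≠ 0 := by
      intro h
      simp only [mem_ofPred_eq, h, mul_zero, lt_irrefl] at hpj
    let S : (Fin n → ℝ) → ℝ := fun q => (q j - c) / (p j - c)
    have hS : Continuous S := by
      show Continuous fun q : Fin n → ℝ => (q j - c) / (p j - c)
      exact ((continuous_apply j).sub continuous_const).div_const _
    let Θ : (Fin n → ℝ) → (Fin n → ℝ) := fun q => (1 - S q)⁻¹ • (q - S q • p)
    have hΘ : ∀ q, S q ≠ 1 → ContinuousAt Θ q := by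
      intro q hq
      have h1 : 1 - S q ≠ 0 := fun h => hq (by linarith)
      exact ((continuousAt_const.sub hS.continuousAt).inv₀ h1).smul
        (continuousAt_id.sub (hS.continuousAt.smul continuousAt_const))
    have hSz : S z = 0 := by
      show (z j - c) / (p j - c) = 0
      have : z j = c := by simp [hz, prj]
      rw [this, sub_self, zero_div]
    have hΘz : Θ z = z := by
      show (1 - S z)⁻¹ • (z - S z • p) = z
      rw [hSz]; simp
    have e1 : ∀ᶠ ρ in 𝓝[>] (0 : ℝ), Θ (lin ρ c j x) ∈ interior (Tr σ c j C) := by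
      have h1 : ContinuousAt Θ z := hΘ z (by rw [hSz]; norm_num)
      have h2 : ∀ᶠ y in 𝓝 z, Θ y ∈ interior (Tr σ c j C) :=
        h1.eventually (by rw [hΘz]; exact isOpen_interior.mem_nhds hzU)
      exact hlim.eventually h2
    have e2 : ∀ᶠ ρ in 𝓝[>] (0 : ℝ), S (lin ρ c j x) < 1 := by
      have h1 : ∀ᶠ y in 𝓝 z, S y < 1 := hS.continuousAt.eventually_lt_const (by
        rw [hSz]; norm_num)
      exact hlim.eventually h1
    have e3 : ∀ᶠ ρ in 𝓝[>] (0 : ℝ), 0 < S (lin ρ c j x) := by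
      filter_upwards [self_mem_nhdsWithin] with ρ (hρ : 0 < ρ)
      show 0 < ((lin ρ c j x) j - c) / (p j - c)
      rw [hlinj]
      have h1 : 0 < σ * (p j - c) := hpj
      have h2 : (c + ρ * σ - c) / (p j - c) = ρ * (σ * (p j - c)) / ((p j - c) * (p j - c)) := by
        field_simp; ring
      rw [h2]
      exact div_pos (mul_pos hρ h1) (mul_self_pos.2 hpj')
    filter_upwards [e1, e2, e3] with ρ r1 r2 r3
    have r4 := (hΘ (lin ρ c j x) r2.ne).eventually (isOpen_interior.mem_nhds r1)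
    have r5 := hS.continuousAt.eventually_lt_const r2
    have r6 := hS.continuousAt.eventually_const_lt r3
    filter_upwards [r4, r5, r6] with q q1 q2 q3
    apply ha
    have q4 : 1 - S q ≠ 0 := by linarith
    have q5 : (Θ q) j = c := by
      show ((1 - S q)⁻¹ • (q - S q • p)) j = c
      simp only [Pi.smul_apply, Pi.sub_apply, smul_eq_mul]
      have q6 : q j = c + S q * (p j - c) := by
        show q j = c + (q j - c) / (p j - c) * (p j - c)
        field_simp; ring
      rw [inv_mul_eq_iff_eq_mul₀ q4]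
      nth_rewrite 1 [q6]; ring
    have q7 : Θ q ∈ C := by
      have := hTC _ (interior_subset q1)
      unfold prj at this
      rw [← q5, update_eq_self] at this
      exact this
    have q8 : q = (1 - S q) • Θ q + S q • p := by
      show q = (1 - S q) • ((1 - S q)⁻¹ • (q - S q • p)) + S q • p
      rw [smul_inv_smul₀ q4]; simp
    rw [q8]
    exact hconv q7 hpC (by linarith) q3.le (by ring)
  · filter_upwards [mem_interior_iff_mem_nhds.1 hxU] with y hy
    exact ha (hTC y hy)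

end

end Crest.Agent.R096.Sq_477
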