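import Mathlib
import Crest.Agent.R096.Sq5_477

/-!
# Row 96, P4-SQUEEZE (helper477), part 6: the inner region and the theorem
-/

set_option autoImplicit false
set_option linter.unusedSectionVars false

open Set Function MeasureTheory Filter Topology Metric
open scoped ENNReal

namespace Crest.Agent.R096.Sq_477

open Crest.Agent.R096.Pl
open Crest.Agent.R096.Str_696 (LocPL)

noncomputable section

variable {n : ℕ}

/-- the inner region -/
def RR (η ρ c : ℝ) (j : Fin n) : Set (Fin n → ℝ) :=
  {x | (1 - ρ) * |x j - c| < W η x}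

theorem measurableSet_RR (η ρ c : ℝ) (j : Fin n) : MeasurableSet (RR η ρ c j) := by
  unfold RR
  exact measurableSet_lt
    ((continuous_const.mul ((continuous_apply j).sub continuous_const).abs).measurable)
    (measurable_W η)

theorem RR_norm {η ρ c : ℝ} (hη : 0 < η) (hρ' : ρ ≤ 1) {j : Fin n} {x : Fin n → ℝ}
    (hx : x ∈ RR η ρ c j) : ‖x‖ < 1 - η := by
  by_contra h
  push Not at h
  have h1 : (1 - ρ) * |x j - c| < W η x := hx
  rw [W_eq_zero hη h] at h1
  exact absurd h1 (not_lt.2 (mul_nonneg (by linarith) (abs_nonneg _)))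

theorem chi_eq_lin {η ρ c : ℝ} (hρ' : ρ ≤ 1) {j : Fin n} {x : Fin n → ℝ}
    (hx : x ∈ RR η ρ c j) : chi η ρ c j x = lin ρ c j x := by
  unfold chi lin
  rw [sq_of_abs_le hρ' (le_of_lt hx)]

theorem chi_eventuallyEq_lin {η ρ c : ℝ} (hρ' : ρ ≤ 1) {j : Fin n} {x : Fin n → ℝ}
    (hx : x ∈ RR η ρ c j) : chi η ρ c j =ᶠ[𝓝 x] lin ρ c j := by
  have h1 : ContinuousAt (fun y : Fin n → ℝ => W η y) x := (continuous_W η).continuousAt
  have h2 : ContinuousAt (fun y : Fin n → ℝ => (1 - ρ) * |y j - c|) x :=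
    (continuous_const.mul ((continuous_apply j).sub continuous_const).abs).continuousAt
  filter_upwards [h2.eventually_lt h1 hx] with y hy
  exact chi_eq_lin hρ' hy

theorem hasFDerivAt_lin (ρ c : ℝ) (j : Fin n) (x : Fin n → ℝ) :
    HasFDerivAt (lin ρ c j) (ContinuousLinearMap.id ℝ (Fin n → ℝ) +
      ((ρ - 1) • (ContinuousLinearMap.proj (R := ℝ) (φ := fun _ : Fin n => ℝ) j)).smulRight
        (Pi.single j (1 : ℝ))) x := by
  have h : lin ρ c j = fun y : Fin n → ℝ =>
      y + ((ρ - 1) * (y j - c)) • (Pi.single j (1 : ℝ) : Fin n → ℝ) := by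
    ext1 y; exact lin_eq ρ c j y
  rw [h]
  refine (hasFDerivAt_id x).add (HasFDerivAt.smul_const ?_ _)
  exact ((((ContinuousLinearMap.proj (R := ℝ) (φ := fun _ : Fin n => ℝ) j).hasFDerivAt).sub_const
    c).const_mul (ρ - 1))

theorem line_apply (x : Fin n → ℝ) (j : Fin n) (t : ℝ) :
    (x + t • (Pi.single j (1 : ℝ) : Fin n → ℝ)) j = x j + t := by simp

theorem line_zero (x : Fin n → ℝ) (j : Fin n) :
    (x + (0 : ℝ) • (Pi.single j (1 : ℝ) : Fin n → ℝ)) = x := by simp

/-- `W` decreases away from `c`, upwards -/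
theorem W_up {η c : ℝ} (hη : 0 < η) (hη' : η ≤ 1 / 8) (hc : |c| ≤ 1 / 2) {j : Fin n}
    {x : Fin n → ℝ} {s t : ℝ} (h1 : c ≤ x j + s) (hst : s ≤ t) :
    W η (x + t • (Pi.single j (1 : ℝ) : Fin n → ℝ)) ≤
      W η (x + s • (Pi.single j (1 : ℝ) : Fin n → ℝ)) := by
  have hc' := abs_le.1 hc
  rw [norm_add_single, norm_add_single]
  apply W_line hη hη'
  by_cases h6 : |x j + s| ≤ 1 / 2
  · exact Or.inr h6
  · left
    have h7 : 0 < x j + s := by
      by_contra h8
      push Not at h8
      exact h6 (abs_le.2 ⟨by linarith, by linarith⟩)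
    rw [abs_of_pos h7, abs_of_pos (by linarith)]
    linarith

/-- `W` decreases away from `c`, downwards -/
theorem W_dn {η c : ℝ} (hη : 0 < η) (hη' : η ≤ 1 / 8) (hc : |c| ≤ 1 / 2) {j : Fin n}
    {x : Fin n → ℝ} {s t : ℝ} (h1 : x j + s ≤ c) (hst : t ≤ s) :
    W η (x + t • (Pi.single j (1 : ℝ) : Fin n → ℝ)) ≤
      W η (x + s • (Pi.single j (1 : ℝ) : Fin n → ℝ)) := by
  have hc' := abs_le.1 hc
  rw [norm_add_single, norm_add_single]
  apply W_line hη hη'
  by_cases h6 : |x j + s| ≤ 1 / 2
  · exact Or.inr h6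
  · left
    have h7 : x j + s < 0 := by
      by_contra h8
      push Not at h8
      exact h6 (abs_le.2 ⟨by linarith, by linarith⟩)
    rw [abs_of_neg h7, abs_of_neg (by linarith)]
    linarith

/-- comparison of one-sided slopes -/
theorem le_deriv_right {f : ℝ → ℝ} {d m : ℝ} (h : HasDerivAt f d 0)
    (h' : ∀ t, 0 < t → f 0 + m * t ≤ f t) : m ≤ d := by
  have h1 : Tendsto (slope f 0) (𝓝[>] (0 : ℝ)) (𝓝 d) :=
    (hasDerivAt_iff_tendsto_slope.1 h).mono_left
      (nhdsWithin_mono _ (fun t (ht : 0 < t) => ht.ne'))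
  refine ge_of_tendsto h1 ?_
  filter_upwards [self_mem_nhdsWithin] with t ht
  have ht' : 0 < t := ht
  rw [slope_def_field, sub_zero, le_div_iff₀ ht']
  have := h' t ht'
  linarith

theorem le_deriv_left {f : ℝ → ℝ} {d m : ℝ} (h : HasDerivAt f d 0)
    (h' : ∀ t, t < 0 → f t ≤ f 0 + m * t) : m ≤ d := by
  have h1 : Tendsto (slope f 0) (𝓝[<] (0 : ℝ)) (𝓝 d) :=
    (hasDerivAt_iff_tendsto_slope.1 h).mono_left
      (nhdsWithin_mono _ (fun t (ht : t < 0) => ht.ne))
  refine ge_of_tendsto h1 ?_
  filter_upwards [self_mem_nhdsWithin] with t ht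
  have ht' : t < 0 := ht
  rw [slope_def_field, sub_zero, le_div_iff_of_neg ht']
  have := h' t ht'
  linarith

/-- at a point of differentiability one is either in the shell or in the inner region -/
theorem mem_SS_or_RR {η ρ c : ℝ} (hη : 0 < η) (hη' : η ≤ 1 / 8) (hρ' : ρ < 1)
    (hc : |c| ≤ 1 / 2) {j : Fin n} {x : Fin n → ℝ} (hx : ‖x‖ < 1)
    (h : DifferentiableAt ℝ (chi η ρ c j) x) (hxj : x j ≠ c) :
    x ∈ SS η ρ c j ∨ x ∈ RR η ρ c j := by
  by_contra hcon
  push Not at hcon
  have heq : W η x = (1 - ρ) * |x j - c| := by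
    apply le_antisymm
    · have h2 : ¬ ((1 - ρ) * |x j - c| < W η x) := hcon.2
      exact not_lt.1 h2
    · by_contra h1
      push Not at h1
      exact hcon.1 ⟨hx, h1⟩
  have hd := hasDerivAt_line h j
  have hr : 0 < 1 - ρ := by linarith
  have h0 : chi η ρ c j x j = c + ρ * (x j - c) := by
    rw [chi_apply_self, sq_of_abs_le hρ'.le heq.ge]
  rcases lt_or_gt_of_ne hxj with h1 | h1
  · -- below `c`
    have hab : |x j - c| = -(x j - c) := abs_of_neg (by linarith)
    rw [hab] at heq
    have e1 : fderiv ℝ (chi η ρ c j) x (Pi.single j 1) j = ρ := by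
      apply deriv_of_right hd
      have e4 : ∀ᶠ t in 𝓝[>] (0 : ℝ), 0 < t := self_mem_nhdsWithin
      have e5 : ∀ᶠ t in 𝓝[>] (0 : ℝ), t < c - x j :=
        eventually_nhdsWithin_of_eventually_nhds (gt_mem_nhds (by linarith))
      filter_upwards [e4, e5] with t t1 t2
      have hW := W_dn hη hη' hc (j := j) (x := x) (s := t) (t := 0) (by linarith) t1.le
      rw [line_zero] at hW
      have h8 : (1 - ρ) * |(x + t • (Pi.single j (1 : ℝ) : Fin n → ℝ)) j - c| ≤
          W η (x + t • (Pi.single j (1 : ℝ) : Fin n → ℝ)) := by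
        rw [line_apply]
        refine le_trans ?_ hW
        rw [heq, abs_of_neg (by linarith)]
        exact mul_le_mul_of_nonneg_left (by linarith) hr.le
      rw [line_zero, h0, chi_apply_self, sq_of_abs_le hρ'.le h8, line_apply]
      ring
    have e2 : 1 ≤ fderiv ℝ (chi η ρ c j) x (Pi.single j 1) j := by
      apply le_deriv_left hd
      intro t ht
      have hW := W_dn hη hη' hc (j := j) (x := x) (s := 0) (t := t) (by linarith) ht.le
      rw [line_zero] at hW
      have h9 : chi η ρ c j (x + t • (Pi.single j (1 : ℝ) : Fin n → ℝ)) j =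
          x j + t + W η (x + t • (Pi.single j (1 : ℝ) : Fin n → ℝ)) := by
        rw [chi_apply_self, line_apply, sq_of_le_neg hρ'.le (W_nonneg _ _) (by linarith)]
        · ring
        · refine hW.trans ?_
          rw [heq]
          exact mul_le_mul_of_nonneg_left (by linarith) hr.le
      have h10 : chi η ρ c j x j = x j + W η x := by
        rw [chi_apply_self, sq_of_le_neg hρ'.le (W_nonneg _ _) (by linarith)]
        · ring
        · exact heq.le
      rw [line_zero, h9, h10]
      linarith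
    linarith
  · -- above `c`
    have hab : |x j - c| = x j - c := abs_of_pos (by linarith)
    rw [hab] at heq
    have e1 : fderiv ℝ (chi η ρ c j) x (Pi.single j 1) j = ρ := by
      apply deriv_of_left hd
      have e4 : ∀ᶠ t in 𝓝[<] (0 : ℝ), t < 0 := self_mem_nhdsWithin
      have e5 : ∀ᶠ t in 𝓝[<] (0 : ℝ), c - x j < t :=
        eventually_nhdsWithin_of_eventually_nhds (lt_mem_nhds (by linarith))
      filter_upwards [e4, e5] with t t1 t2
      have hW := W_up hη hη' hc (j := j) (x := x) (s := t) (t := 0) (by linarith) t1.le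
      rw [line_zero] at hW
      have h8 : (1 - ρ) * |(x + t • (Pi.single j (1 : ℝ) : Fin n → ℝ)) j - c| ≤
          W η (x + t • (Pi.single j (1 : ℝ) : Fin n → ℝ)) := by
        rw [line_apply]
        refine le_trans ?_ hW
        rw [heq, abs_of_pos (by linarith)]
        exact mul_le_mul_of_nonneg_left (by linarith) hr.le
      rw [line_zero, h0, chi_apply_self, sq_of_abs_le hρ'.le h8, line_apply]
      ring
    have e2 : 1 ≤ fderiv ℝ (chi η ρ c j) x (Pi.single j 1) j := by
      apply le_deriv_right hd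
      intro t ht
      have hW := W_up hη hη' hc (j := j) (x := x) (s := 0) (t := t) (by linarith) ht.le
      rw [line_zero] at hW
      have h9 : chi η ρ c j (x + t • (Pi.single j (1 : ℝ) : Fin n → ℝ)) j =
          x j + t - W η (x + t • (Pi.single j (1 : ℝ) : Fin n → ℝ)) := by
        rw [chi_apply_self, line_apply, sq_of_le_pos hρ'.le (W_nonneg _ _) (by linarith)]
        · ring
        · refine hW.trans ?_
          rw [heq]
          exact mul_le_mul_of_nonneg_left (by linarith) hr.le
      have h10 : chi η ρ c j x j = x j - W η x := by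
        rw [chi_apply_self, sq_of_le_pos hρ'.le (W_nonneg _ _) (by linarith)]
        · ring
        · exact heq.le
      rw [line_zero, h9, h10]
      linarith
    linarith

end

end Crest.Agent.R096.Sq_477
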