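import Mathlib
import Crest.Agent.R096.Sq6_477

/-!
# Row 96, P4-SQUEEZE (helper477), part 7: chain rule a.e.
-/

set_option autoImplicit false
set_option linter.unusedSectionVars false

open Set Function MeasureTheory Filter Topology Metric
open scoped ENNReal

namespace Crest.Agent.R096.Sq_477

open Crest.Agent.R096.Pl
open Crest.Agent.R096.Str_696 (LocPL)

noncomputable section

variable {n : ℕ}

variable {F : Type*} [NormedAddCommGroup F] [NormedSpace ℝ F] [FiniteDimensional ℝ F]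

/-- partial derivatives -/
def Dp (g : (Fin n → ℝ) → F) (i : Fin n) (x : Fin n → ℝ) : F := fderiv ℝ g x (Pi.single i 1)

theorem measurable_Dp (g : (Fin n → ℝ) → F) (i : Fin n) (a : F) (p : ℝ) :
    Measurable fun x => ‖Dp g i x - a‖ₑ ^ p := by
  haveI : CompleteSpace F := FiniteDimensional.complete ℝ F
  have h1 : Measurable (fderiv ℝ g) := measurable_fderiv ℝ g
  have h2 : Continuous fun L : (Fin n → ℝ) →L[ℝ] F => ‖L (Pi.single i 1) - a‖ₑ := by fun_prop
  exact (h2.measurable.comp h1).pow_const p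

/-- almost everywhere chain rule -/
theorem ae_chain {g : (Fin n → ℝ) → F} (hg : LocPL g (ball (0 : Fin n → ℝ) 1)) {η ρ c : ℝ}
    (hη : 0 < η) (hη' : η ≤ 1 / 8) (hρ : 0 < ρ) (hρ' : ρ ≤ 1) (hc : |c| ≤ 1 / 2) (j : Fin n) :
    ∀ᵐ x : Fin n → ℝ, ‖x‖ < 1 → DifferentiableAt ℝ (chi η ρ c j) x ∧
      DifferentiableAt ℝ g (chi η ρ c j x) ∧ x j ≠ c ∧ ‖x‖ ≠ 1 - η := by
  have h1 := ae_differentiableAt_of_plMap (μ := (volume : Measure (Fin n → ℝ)))
    (plMap_chi (n := n) η ρ c j)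
  have h2 : ∀ᵐ x : Fin n → ℝ, x ∉ sphere (0 : Fin n → ℝ) (1 - η) := by
    rw [← measure_eq_zero_iff_ae_notMem]
    exact Measure.addHaar_sphere_of_ne_zero volume 0 (by linarith : (1 - η) ≠ 0)
  have h3 : ∀ᵐ x : Fin n → ℝ, x j ≠ c := by
    have h := Measure.pi_hyperplane (fun _ : Fin n => (volume : Measure ℝ)) j c
    rw [← volume_pi] at h
    rw [ae_iff]
    simpa using h
  have h4 := ae_differentiableAt_of_locPL (μ := (volume : Measure (Fin n → ℝ))) hg
  obtain ⟨H, hH, hHc⟩ := exists_chi hη hη' hρ hρ' hc j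
  have h5 : ∀ᵐ x : Fin n → ℝ, chi η ρ c j x ∈ ball (0 : Fin n → ℝ) 1 →
      DifferentiableAt ℝ g (chi η ρ c j x) := by
    rw [ae_iff] at h4 ⊢
    refine measure_mono_null ?_ (null_image_of_plMap hH.2 h4)
    intro x hx
    refine ⟨chi η ρ c j x, hx, ?_⟩
    rw [← hHc]; exact H.symm_apply_apply x
  filter_upwards [h1, h2, h3, h5] with x x1 x2 x3 x4 x5
  exact ⟨x1, x4 (mem_ball_zero_iff.2 (chi_mem_ball hη hη' hρ hρ' hc j x5)), x3,
    fun h => x2 (mem_sphere_zero_iff_norm.2 h)⟩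

theorem Dp_comp {g : (Fin n → ℝ) → F} {η ρ c : ℝ} {j : Fin n} {x : Fin n → ℝ}
    (h1 : DifferentiableAt ℝ (chi η ρ c j) x) (h2 : DifferentiableAt ℝ g (chi η ρ c j x))
    {i : Fin n} (hi : i ≠ j) :
    Dp (fun y => g (chi η ρ c j y)) i x = Dp g i (chi η ρ c j x) +
      (fderiv ℝ (chi η ρ c j) x (Pi.single i 1) j) • Dp g j (chi η ρ c j x) := by
  have h3 := (h2.hasFDerivAt.comp x h1.hasFDerivAt).fderiv
  unfold Dp
  have h4 : (fun y => g (chi η ρ c j y)) = g ∘ chi η ρ c j := rfl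
  rw [h4, h3]
  simp only [ContinuousLinearMap.comp_apply]
  have h5 : fderiv ℝ (chi η ρ c j) x (Pi.single i 1) = Pi.single i 1 +
      (fderiv ℝ (chi η ρ c j) x (Pi.single i 1) j) • (Pi.single j (1 : ℝ) : Fin n → ℝ) := by
    ext k
    by_cases hk : k = j
    · subst hk; simp [Pi.single_apply, hi.symm]
    · rw [fderiv_chi_ne h1 _ hk]; simp [hk]
  nth_rewrite 1 [h5]
  rw [map_add, map_smul]

theorem Dp_comp_self {g : (Fin n → ℝ) → F} {η ρ c : ℝ} {j : Fin n} {x : Fin n → ℝ}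
    (h1 : DifferentiableAt ℝ (chi η ρ c j) x) (h2 : DifferentiableAt ℝ g (chi η ρ c j x)) :
    Dp (fun y => g (chi η ρ c j y)) j x =
      (fderiv ℝ (chi η ρ c j) x (Pi.single j 1) j) • Dp g j (chi η ρ c j x) := by
  have h3 := (h2.hasFDerivAt.comp x h1.hasFDerivAt).fderiv
  unfold Dp
  have h4 : (fun y => g (chi η ρ c j y)) = g ∘ chi η ρ c j := rfl
  rw [h4, h3]
  simp only [ContinuousLinearMap.comp_apply]
  have h5 : fderiv ℝ (chi η ρ c j) x (Pi.single j 1) =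
      (fderiv ℝ (chi η ρ c j) x (Pi.single j 1) j) • (Pi.single j (1 : ℝ) : Fin n → ℝ) := by
    ext k
    by_cases hk : k = j
    · subst hk; simp
    · rw [fderiv_chi_ne h1 _ hk]; simp [hk]
  nth_rewrite 1 [h5]
  rw [map_smul]

end

end Crest.Agent.R096.Sq_477
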