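import Mathlib
import Crest.Agent.R096.Sq7_477

/-!
# Row 96, P4-SQUEEZE (helper477), part 8: the derivative of `g ∘ lin ρ` as `ρ → 0`
-/

set_option autoImplicit false
set_option linter.unusedSectionVars false

open Set Function MeasureTheory Filter Topology Metric
open scoped ENNReal

namespace Crest.Agent.R096.Sq_477

open Crest.Agent.R096.Pl
open Crest.Agent.R096.Str_696 (LocPL)

noncomputable section

variable {n : ℕ}

variable {F : Type*} [NormedAddCommGroup F] [NormedSpace ℝ F] [FiniteDimensional ℝ F]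

/-- the trace set depends only on the sign of `σ` -/
theorem Tr_sign {σ c : ℝ} (hσ : σ ≠ 0) (j : Fin n) (C : Set (Fin n → ℝ)) :
    Tr σ c j C = Tr 1 c j C ∨ Tr σ c j C = Tr (-1) c j C := by
  unfold Tr
  rcases lt_or_gt_of_ne hσ with h | h
  · right
    have : {x : Fin n → ℝ | 0 < σ * (x j - c)} = {x | 0 < -1 * (x j - c)} := by
      ext x
      simp only [mem_ofPred_eq]
      constructor
      · intro hx
        by_contra h1
        have h2 : 0 ≤ x j - c := by linarith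
        nlinarith [mul_nonneg (neg_nonneg.2 h.le) h2]
      · intro hx
        have h2 : 0 < -(x j - c) := by linarith
        have h3 := mul_pos (neg_pos.2 h) h2
        linarith [h3]
    rw [this]
  · left
    have : {x : Fin n → ℝ | 0 < σ * (x j - c)} = {x | 0 < 1 * (x j - c)} := by
      ext x
      simp only [mem_ofPred_eq, one_mul]
      exact mul_pos_iff_of_pos_left h
    rw [this]

/-- finitely many closed convex pieces on the cube `‖x‖ ≤ 1 - η` -/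
theorem exists_cover {g : (Fin n → ℝ) → F} (hg : LocPL g (ball (0 : Fin n → ℝ) 1)) {η : ℝ}
    (hη : 0 < η) : ∃ 𝒞 : Set (Set (Fin n → ℝ)), 𝒞.Finite ∧
      (∀ C ∈ 𝒞, Convex ℝ C ∧ IsClosed C ∧ ∃ a : (Fin n → ℝ) →ᵃ[ℝ] F, EqOn g a C) ∧
      ⋃₀ 𝒞 = closedBall (0 : Fin n → ℝ) (1 - η) := by
  have h1 : Cx_609.PLOn (closedBall (0 : Fin n → ℝ) (1 - η)) g :=
    plOn_of_locPL hg (isCompact_closedBall _ _) (closedBall_subset_ball (by linarith))
  exact h1.closed_pieces (convex_closedBall _ _).finConv isClosed_closedBall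

/-- near almost every point the map is affine, with finitely many affine maps -/
theorem exists_bound {g : (Fin n → ℝ) → F} (hg : LocPL g (ball (0 : Fin n → ℝ) 1)) {η : ℝ}
    (hη : 0 < η) : ∃ M : ℝ, 0 ≤ M ∧ ∀ᵐ x : Fin n → ℝ, ‖x‖ < 1 - η → ∀ i, ‖Dp g i x‖ ≤ M := by
  obtain ⟨𝒞, hfin, hC, hcov⟩ := exists_cover hg hη
  choose! hc1 hc2 a ha using hC
  have hb : BddAbove ((fun C => ∑ i, ‖(a C).linear (Pi.single i 1)‖) '' 𝒞) :=
    (hfin.image _).bddAbove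
  obtain ⟨M, hM⟩ := hb
  refine ⟨max M 0, le_max_right _ _, ?_⟩
  have h3 : ∀ᵐ x : Fin n → ℝ, ∀ C ∈ 𝒞, x ∉ frontier C := by
    rw [ae_ball_iff hfin.countable]
    intro C hC
    exact measure_eq_zero_iff_ae_notMem.1 ((hc1 C hC).addHaar_frontier volume)
  filter_upwards [h3] with x hx hxn i
  have h4 : x ∈ ⋃₀ 𝒞 := by rw [hcov]; exact mem_closedBall_zero_iff.2 hxn.le
  obtain ⟨C, hC𝒞, hxC⟩ := h4
  have h5 : x ∈ interior C := by
    by_contra h6
    exact hx C hC𝒞 ⟨subset_closure hxC, h6⟩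
  have h6 : g =ᶠ[𝓝 x] a C := by
    filter_upwards [mem_interior_iff_mem_nhds.1 h5] with y hy using ha C hC𝒞 hy
  have h7 : Dp g i x = (a C).linear (Pi.single i 1) := by
    unfold Dp
    rw [h6.fderiv_eq, (hasFDerivAt_affine (a C) x).fderiv]
    rfl
  rw [h7]
  refine le_trans ?_ ((hM (mem_image_of_mem _ hC𝒞)).trans (le_max_left _ _))
  exact Finset.single_le_sum (f := fun i => ‖(a C).linear (Pi.single i 1)‖)
    (fun _ _ => norm_nonneg _) (Finset.mem_univ i)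

theorem Dp_eq_of_eventuallyEq {g : (Fin n → ℝ) → F} {a : (Fin n → ℝ) →ᵃ[ℝ] F} {x : Fin n → ℝ}
    (h : g =ᶠ[𝓝 x] a) (i : Fin n) : Dp g i x = a.linear (Pi.single i 1) := by
  unfold Dp
  rw [h.fderiv_eq, (hasFDerivAt_affine a x).fderiv]
  rfl

theorem Dp_prj_of_eventuallyEq {g : (Fin n → ℝ) → F} {a : (Fin n → ℝ) →ᵃ[ℝ] F} {c : ℝ}
    {j : Fin n} {x : Fin n → ℝ}
    (h : (fun y => g (prj c j y)) =ᶠ[𝓝 x] fun y => a (prj c j y)) {i : Fin n} (hi : i ≠ j) :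
    Dp (fun y => g (prj c j y)) i x = a.linear (Pi.single i 1) := by
  unfold Dp
  rw [h.fderiv_eq]
  have h1 : (fun y => a (prj c j y)) = a ∘ prj c j := rfl
  rw [h1, ((hasFDerivAt_affine a _).comp x (hasFDerivAt_prj c j x)).fderiv]
  simp [hi.symm]

/-- a.e. convergence of the derivative to the one of the slice -/
theorem slice_ae {g : (Fin n → ℝ) → F} (hg : LocPL g (ball (0 : Fin n → ℝ) 1)) {η c : ℝ}
    (hη : 0 < η) (hη' : η ≤ 1 / 8) (hc : |c| ≤ 1 / 2) (j : Fin n) :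
    ∀ᵐ x : Fin n → ℝ, ‖x‖ < 1 - η → ∀ i, i ≠ j →
      ∀ᶠ ρ in 𝓝[>] (0 : ℝ), Dp g i (lin ρ c j x) = Dp (fun y => g (prj c j y)) i x := by
  obtain ⟨𝒞, hfin, hC, hcov⟩ := exists_cover hg hη
  have h1 : ∀ σ : ℝ, ∀ᵐ x : Fin n → ℝ, ∀ C ∈ 𝒞, x ∉ frontier (Tr σ c j C) := by
    intro σ
    rw [ae_ball_iff hfin.countable]
    intro C hC'
    exact measure_eq_zero_iff_ae_notMem.1 ((convex_Tr σ c j (hC C hC').1).addHaar_frontier volume)
  have h3 : ∀ᵐ x : Fin n → ℝ, x j ≠ c := by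
    have h := Measure.pi_hyperplane (fun _ : Fin n => (volume : Measure ℝ)) j c
    rw [← volume_pi] at h
    rw [ae_iff]
    simpa using h
  filter_upwards [h1 1, h1 (-1), h3] with x x1 x2 x3 hx i hi
  obtain ⟨a, e1, e2⟩ := slice_key hc hη' j hfin hC (hcov.symm.subset) hx x3 (by
    intro C hC'
    rcases Tr_sign (sub_ne_zero.2 x3) j C with h | h
    · rw [h]; exact x1 C hC'
    · rw [h]; exact x2 C hC')
  filter_upwards [e1] with ρ hρ
  rw [Dp_eq_of_eventuallyEq hρ, Dp_prj_of_eventuallyEq e2 hi]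

/-- the bound along `lin ρ` -/
theorem bound_lin {g : (Fin n → ℝ) → F} {η c M : ℝ}
    (hη' : η ≤ 1 / 8) (hc : |c| ≤ 1 / 2)
    (hM : ∀ᵐ x : Fin n → ℝ, ‖x‖ < 1 - η → ∀ i, ‖Dp g i x‖ ≤ M) {ρ : ℝ} (hρ : 0 < ρ)
    (hρ' : ρ ≤ 1) (j : Fin n) :
    ∀ᵐ x : Fin n → ℝ, ‖x‖ < 1 - η → ∀ i, ‖Dp g i (lin ρ c j x)‖ ≤ M := by
  rw [ae_iff] at hM ⊢
  refine measure_mono_null ?_ (null_image_of_plMap (plMap_lin (n := n) ρ⁻¹ c j) hM)
  intro x hx
  simp only [mem_ofPred_eq, not_forall] at hx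
  obtain ⟨hx1, i, hx2⟩ := hx
  refine ⟨lin ρ c j x, ?_, lin_lin (inv_mul_cancel₀ hρ.ne') c j x⟩
  simp only [mem_ofPred_eq, not_forall]
  exact ⟨norm_lin_lt hρ hρ' hc hη' j hx1, i, hx2⟩

theorem measurable_Dp_lin (g : (Fin n → ℝ) → F) (i : Fin n) (a : F) (p ρ c : ℝ) (j : Fin n) :
    Measurable fun x => ‖Dp g i (lin ρ c j x) - a‖ₑ ^ p :=
  (measurable_Dp g i a p).comp (plMap_lin ρ c j).1.measurable

/-- the `L^p` limit onto the slice -/
theorem slice_lim {g : (Fin n → ℝ) → F} (hg : LocPL g (ball (0 : Fin n → ℝ) 1)) {η c : ℝ}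
    (hη : 0 < η) (hη' : η ≤ 1 / 8) (hc : |c| ≤ 1 / 2) (j : Fin n) {i : Fin n} (hi : i ≠ j)
    (a : F) {p : ℝ} (hp : 0 ≤ p) {ε : ℝ≥0∞} (hε : 0 < ε) :
    ∀ᶠ ρ in 𝓝[>] (0 : ℝ), ∫⁻ x in ball (0 : Fin n → ℝ) (1 - η),
      (‖Dp g i (lin ρ c j x) - a‖ₑ ^ p - ‖Dp (fun y => g (prj c j y)) i x - a‖ₑ ^ p) ≤ ε := by
  obtain ⟨M, hM0, hM⟩ := exists_bound hg hη
  have hlim : Tendsto (fun ρ : ℝ => ∫⁻ x in ball (0 : Fin n → ℝ) (1 - η),
      (‖Dp g i (lin ρ c j x) - a‖ₑ ^ p - ‖Dp (fun y => g (prj c j y)) i x - a‖ₑ ^ p))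
      (𝓝[>] 0) (𝓝 (∫⁻ x in ball (0 : Fin n → ℝ) (1 - η), 0)) := by
    apply tendsto_lintegral_filter_of_dominated_convergence
      (fun _ => (ENNReal.ofReal (M + ‖a‖)) ^ p)
    · exact Eventually.of_forall fun ρ =>
        (measurable_Dp_lin g i a p ρ c j).sub (measurable_Dp (fun y => g (prj c j y)) i a p)
    · have h1 : ∀ᶠ ρ in 𝓝[>] (0 : ℝ), 0 < ρ := self_mem_nhdsWithin
      have h2 : ∀ᶠ ρ in 𝓝[>] (0 : ℝ), ρ < 1 :=
        eventually_nhdsWithin_of_eventually_nhds (gt_mem_nhds one_pos)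
      filter_upwards [h1, h2] with ρ r1 r2
      rw [ae_restrict_iff' measurableSet_ball]
      filter_upwards [bound_lin hη' hc hM r1 r2.le j] with x hx hxb
      refine tsub_le_self.trans ?_
      refine ENNReal.rpow_le_rpow ?_ hp
      rw [← ofReal_norm]
      apply ENNReal.ofReal_le_ofReal
      exact (norm_sub_le _ _).trans (add_le_add (hx (mem_ball_zero_iff.1 hxb) i) le_rfl)
    · rw [setLIntegral_const]
      exact ENNReal.mul_ne_top (ENNReal.rpow_ne_top_of_nonneg hp ENNReal.ofReal_ne_top)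
        measure_ball_lt_top.ne
    · rw [ae_restrict_iff' measurableSet_ball]
      filter_upwards [slice_ae hg hη hη' hc j] with x hx hxb
      have h1 := hx (mem_ball_zero_iff.1 hxb) i hi
      refine tendsto_const_nhds.congr' ?_
      filter_upwards [h1] with ρ hρ
      rw [hρ, tsub_self]
  rw [lintegral_zero] at hlim
  exact hlim.eventually (ge_mem_nhds hε)

end

end Crest.Agent.R096.Sq_477
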