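import Mathlib
import Crest.Agent.R096.Sq8_477

/-!
# Row 96, P4-SQUEEZE (helper477), part 9: the SLICE SQUEEZE
-/

set_option autoImplicit false
set_option linter.unusedSectionVars false

open Set Function MeasureTheory Filter Topology Metric
open scoped ENNReal

namespace Crest.Agent.R096.Sq_477

open Crest.Agent.R096.Pl
open Crest.Agent.R096.Str_696 (LocPL)

noncomputable section

variable {n : ℕ}

variable {F : Type*} [NormedAddCommGroup F] [NormedSpace ℝ F] [FiniteDimensional ℝ F]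

/-- `(u + v + w)^p ≤ 3^p (u^p + v^p + w^p)` -/
theorem rpow_add3_le {p : ℝ} (hp : 0 ≤ p) (u v w : ℝ≥0∞) :
    (u + v + w) ^ p ≤ 3 ^ p * (u ^ p + v ^ p + w ^ p) := by
  have h1 : u + v + w ≤ 3 * max (max u v) w := by
    have a1 : u ≤ max (max u v) w := (le_max_left _ _).trans (le_max_left _ _)
    have a2 : v ≤ max (max u v) w := (le_max_right _ _).trans (le_max_left _ _)
    have a3 : w ≤ max (max u v) w := le_max_right _ _
    calc u + v + w ≤ max (max u v) w + max (max u v) w + max (max u v) w :=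
          add_le_add (add_le_add a1 a2) a3
      _ = 3 * max (max u v) w := by ring
  refine (ENNReal.rpow_le_rpow h1 hp).trans ?_
  rw [ENNReal.mul_rpow_of_nonneg _ _ hp]
  gcongr
  rcases le_total (max u v) w with h | h
  · rw [max_eq_right h]; exact le_add_self
  · rw [max_eq_left h]
    rcases le_total u v with h' | h'
    · rw [max_eq_right h']; exact (le_add_self).trans le_self_add
    · rw [max_eq_left h']; exact (le_self_add).trans le_self_add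

/-- pointwise formula in the region `RR`, directions `i ≠ j` -/
theorem Dp_comp_RR {g : (Fin n → ℝ) → F} {η ρ c : ℝ} (hρ' : ρ ≤ 1) {j : Fin n} {x : Fin n → ℝ}
    (h1 : DifferentiableAt ℝ (chi η ρ c j) x) (h2 : DifferentiableAt ℝ g (chi η ρ c j x))
    (hx : x ∈ RR η ρ c j) {i : Fin n} (hi : i ≠ j) :
    Dp (fun y => g (chi η ρ c j y)) i x = Dp g i (lin ρ c j x) := by
  have h3 := Dp_comp h1 h2 hi
  have h4 : fderiv ℝ (chi η ρ c j) x (Pi.single i 1) j = 0 := by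
    rw [(chi_eventuallyEq_lin hρ' hx).fderiv_eq, (hasFDerivAt_lin ρ c j x).fderiv]
    simp [hi.symm]
  rw [h3, h4, zero_smul, add_zero, chi_eq_lin hρ' hx]

/-- pointwise formula in the region `RR`, direction `j` -/
theorem Dp_comp_RR_self {g : (Fin n → ℝ) → F} {η ρ c : ℝ} (hρ' : ρ ≤ 1) {j : Fin n}
    {x : Fin n → ℝ}
    (h1 : DifferentiableAt ℝ (chi η ρ c j) x) (h2 : DifferentiableAt ℝ g (chi η ρ c j x))
    (hx : x ∈ RR η ρ c j) :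
    Dp (fun y => g (chi η ρ c j y)) j x = ρ • Dp g j (lin ρ c j x) := by
  have h3 := Dp_comp_self h1 h2
  have h4 : fderiv ℝ (chi η ρ c j) x (Pi.single j 1) j = ρ := by
    rw [(chi_eventuallyEq_lin hρ' hx).fderiv_eq, (hasFDerivAt_lin ρ c j x).fderiv]
    simp
  rw [h3, h4, chi_eq_lin hρ' hx]

/-- pointwise bound in the shell, directions `i ≠ j` -/
theorem Dp_comp_SS {g : (Fin n → ℝ) → F} {η ρ c : ℝ} (hη : 0 < η) {j : Fin n} {x : Fin n → ℝ}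
    (h1 : DifferentiableAt ℝ (chi η ρ c j) x) (h2 : DifferentiableAt ℝ g (chi η ρ c j x))
    {i : Fin n} (hi : i ≠ j) (a : F) {p : ℝ} (hp : 0 ≤ p) :
    ‖Dp (fun y => g (chi η ρ c j y)) i x - a‖ₑ ^ p ≤
      3 ^ p * (‖Dp g i (chi η ρ c j x)‖ₑ ^ p +
        ENNReal.ofReal (2 / η) ^ p * ‖Dp g j (chi η ρ c j x)‖ₑ ^ p + ‖a‖ₑ ^ p) := by
  have h3 : ‖Dp (fun y => g (chi η ρ c j y)) i x - a‖ₑ ≤ ‖Dp g i (chi η ρ c j x)‖ₑ +
      ENNReal.ofReal (2 / η) * ‖Dp g j (chi η ρ c j x)‖ₑ + ‖a‖ₑ := by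
    rw [Dp_comp h1 h2 hi]
    refine (enorm_sub_le).trans ?_
    refine add_le_add ((enorm_add_le _ _).trans (add_le_add le_rfl ?_)) le_rfl
    rw [enorm_smul]
    gcongr
    rw [← ofReal_norm]
    exact ENNReal.ofReal_le_ofReal (abs_fderiv_chi_le hη h1 hi)
  refine (ENNReal.rpow_le_rpow h3 hp).trans ?_
  refine (rpow_add3_le hp _ _ _).trans ?_
  rw [ENNReal.mul_rpow_of_nonneg _ _ hp]

/-- pointwise bound in the shell, direction `j` -/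
theorem Dp_comp_SS_self {g : (Fin n → ℝ) → F} {η ρ c : ℝ} (hη : 0 < η) (hη' : η ≤ 1 / 8)
    (hρ : 0 < ρ) (hρ' : ρ ≤ 1) (hc : |c| ≤ 1 / 2) {j : Fin n} {x : Fin n → ℝ}
    (h1 : DifferentiableAt ℝ (chi η ρ c j) x) (h2 : DifferentiableAt ℝ g (chi η ρ c j x))
    (hx : x ∈ SS η ρ c j) (hne : ‖x‖ ≠ 1 - η) {p : ℝ} (hp : 0 ≤ p) :
    ‖Dp (fun y => g (chi η ρ c j y)) j x‖ₑ ^ p ≤
      ENNReal.ofReal (3 / η) ^ p * ‖Dp g j (chi η ρ c j x)‖ₑ ^ p := by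
  obtain ⟨d1, d2, d3⟩ := abs_det_le hη hη' hρ hρ' hc hx h1 hne
  rw [Dp_comp_self h1 h2, enorm_smul, ENNReal.mul_rpow_of_nonneg _ _ hp]
  gcongr
  rw [← ofReal_norm, Real.norm_eq_abs, d1, abs_of_nonneg (by linarith)]
  exact ENNReal.ofReal_le_ofReal d3

theorem measurable_chi (η ρ c : ℝ) (j : Fin n) : Measurable (chi (n := n) η ρ c j) :=
  (plMap_chi η ρ c j).1.measurable

theorem measurable_Dp_chi (g : (Fin n → ℝ) → F) (k : Fin n) (p η ρ c : ℝ) (j : Fin n) :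
    Measurable fun x => ‖Dp g k (chi η ρ c j x)‖ₑ ^ p := by
  have h1 : Measurable fun x => ‖Dp g k x‖ₑ ^ p := by
    have := measurable_Dp g k 0 p
    simpa only [sub_zero] using this
  exact h1.comp (measurable_chi (n := n) η ρ c j)

/-- the shell integral of a power of the norm of the derivative -/
theorem shell_pow {g : (Fin n → ℝ) → F} {η ρ c : ℝ} (hη : 0 < η) (hη' : η ≤ 1 / 8) (hρ : 0 < ρ)
    (hρ' : ρ ≤ 1) (hc : |c| ≤ 1 / 2) (j i : Fin n) (p : ℝ) :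
    ∫⁻ x in SS η ρ c j, ‖Dp g i (chi η ρ c j x)‖ₑ ^ p ≤
      (∫⁻ x in Sh η, ‖Dp g i x‖ₑ ^ p) +
        ENNReal.ofReal (η / 2) * ∫⁻ x in ball 0 1, ‖Dp g i x‖ₑ ^ p :=
  shell_lintegral hη hη' hρ hρ' hc j fun x => ‖Dp g i x‖ₑ ^ p

theorem Sh_subset (η : ℝ) : Sh (n := n) η ⊆ ball 0 1 := fun _ hx => mem_ball_zero_iff.2 hx.2

theorem SS_subset_Sh {η ρ c : ℝ} (hη : 0 < η) (hρ : 0 < ρ) (hc : |c| ≤ 1 / 2) (j : Fin n) :
    SS η ρ c j ⊆ Sh (n := n) η := fun _ hx => ⟨SS_norm hη hρ hc hx, hx.1⟩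

theorem shell_pow' {g : (Fin n → ℝ) → F} {η ρ c : ℝ} (hη : 0 < η) (hη' : η ≤ 1 / 8) (hρ : 0 < ρ)
    (hρ' : ρ ≤ 1) (hc : |c| ≤ 1 / 2) (j i : Fin n) (p : ℝ) :
    ∫⁻ x in SS η ρ c j, ‖Dp g i (chi η ρ c j x)‖ₑ ^ p ≤
      2 * ∫⁻ x in ball 0 1, ‖Dp g i x‖ₑ ^ p := by
  refine (shell_pow hη hη' hρ hρ' hc j i p).trans ?_
  rw [two_mul]
  refine add_le_add (lintegral_mono_set (Sh_subset η)) ?_
  refine mul_le_of_le_one_left zero_le ?_
  rw [ENNReal.ofReal_le_one]; linarith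

/-- the total shell term -/
def shellTerm (g : (Fin n → ℝ) → F) (η p : ℝ) (j i : Fin n) (a : F) : ℝ≥0∞ :=
  3 ^ p * (((∫⁻ x in Sh η, ‖Dp g i x‖ₑ ^ p) +
    ENNReal.ofReal (η / 2) * ∫⁻ x in ball 0 1, ‖Dp g i x‖ₑ ^ p) +
    ENNReal.ofReal (2 / η) ^ p * (2 * ∫⁻ x in ball 0 1, ‖Dp g j x‖ₑ ^ p) +
    ‖a‖ₑ ^ p * volume (Sh (n := n) η))

theorem shell_total {g : (Fin n → ℝ) → F} (hg : LocPL g (ball (0 : Fin n → ℝ) 1)) {η ρ c : ℝ}
    (hη : 0 < η) (hη' : η ≤ 1 / 8) (hρ : 0 < ρ)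
    (hρ' : ρ ≤ 1) (hc : |c| ≤ 1 / 2) {j i : Fin n} (hi : i ≠ j) {p : ℝ} (hp : 0 ≤ p) (a : F) :
    ∫⁻ x in SS η ρ c j, ‖Dp (fun y => g (chi η ρ c j y)) i x - a‖ₑ ^ p ≤
      shellTerm g η p j i a := by
  have h0 : ∫⁻ x in SS η ρ c j, ‖Dp (fun y => g (chi η ρ c j y)) i x - a‖ₑ ^ p ≤
      ∫⁻ x in SS η ρ c j, 3 ^ p * (‖Dp g i (chi η ρ c j x)‖ₑ ^ p +
        ENNReal.ofReal (2 / η) ^ p * ‖Dp g j (chi η ρ c j x)‖ₑ ^ p + ‖a‖ₑ ^ p) := by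
    apply lintegral_mono_ae
    rw [ae_restrict_iff' (measurableSet_SS η ρ c j)]
    filter_upwards [ae_chain hg hη hη' hρ hρ' hc j] with x hx hxS
    obtain ⟨h1, h2, -, -⟩ := hx hxS.1
    exact Dp_comp_SS hη h1 h2 hi a hp
  refine h0.trans ?_
  have m1 : ∀ k, Measurable fun x => ‖Dp g k (chi η ρ c j x)‖ₑ ^ p :=
    fun k => measurable_Dp_chi g k p η ρ c j
  have m2 : Measurable fun x => ENNReal.ofReal (2 / η) ^ p * ‖Dp g j (chi η ρ c j x)‖ₑ ^ p :=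
    (m1 j).const_mul _
  have m3 : Measurable fun x => ‖Dp g i (chi η ρ c j x)‖ₑ ^ p +
      ENNReal.ofReal (2 / η) ^ p * ‖Dp g j (chi η ρ c j x)‖ₑ ^ p + ‖a‖ₑ ^ p :=
    ((m1 i).add m2).add_const _
  rw [lintegral_const_mul _ m3, shellTerm]
  gcongr
  rw [lintegral_add_right _ measurable_const, lintegral_add_left (m1 i),
    lintegral_const_mul _ (m1 j), setLIntegral_const]
  gcongr
  · exact shell_pow hη hη' hρ hρ' hc j i p
  · exact shell_pow' hη hη' hρ hρ' hc j j p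
  · exact SS_subset_Sh hη hρ hc j

theorem shell_total_self {g : (Fin n → ℝ) → F} (hg : LocPL g (ball (0 : Fin n → ℝ) 1)) {η ρ c : ℝ}
    (hη : 0 < η) (hη' : η ≤ 1 / 8) (hρ : 0 < ρ)
    (hρ' : ρ ≤ 1) (hc : |c| ≤ 1 / 2) (j : Fin n) {p : ℝ} (hp : 0 ≤ p) :
    ∫⁻ x in SS η ρ c j, ‖Dp (fun y => g (chi η ρ c j y)) j x‖ₑ ^ p ≤
      ENNReal.ofReal (3 / η) ^ p * (2 * ∫⁻ x in ball 0 1, ‖Dp g j x‖ₑ ^ p) := by
  have h0 : ∫⁻ x in SS η ρ c j, ‖Dp (fun y => g (chi η ρ c j y)) j x‖ₑ ^ p ≤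
      ∫⁻ x in SS η ρ c j, ENNReal.ofReal (3 / η) ^ p * ‖Dp g j (chi η ρ c j x)‖ₑ ^ p := by
    apply lintegral_mono_ae
    rw [ae_restrict_iff' (measurableSet_SS η ρ c j)]
    filter_upwards [ae_chain hg hη hη' hρ hρ' hc j] with x hx hxS
    obtain ⟨h1, h2, -, h4⟩ := hx hxS.1
    exact Dp_comp_SS_self hη hη' hρ hρ' hc h1 h2 hxS h4 hp
  refine h0.trans ?_
  rw [lintegral_const_mul _ (measurable_Dp_chi g j p η ρ c j)]
  gcongr
  exact shell_pow' hη hη' hρ hρ' hc j j p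

/-- a.e. point of the ball is in the shell or in the squeezed region -/
theorem ae_mem {g : (Fin n → ℝ) → F} (hg : LocPL g (ball (0 : Fin n → ℝ) 1)) {η ρ c : ℝ}
    (hη : 0 < η) (hη' : η ≤ 1 / 8) (hρ : 0 < ρ) (hρ' : ρ < 1) (hc : |c| ≤ 1 / 2) (j : Fin n) :
    ∀ᵐ x : Fin n → ℝ, x ∈ ball (0 : Fin n → ℝ) 1 → x ∈ SS η ρ c j ∨ x ∈ RR η ρ c j := by
  filter_upwards [ae_chain hg hη hη' hρ hρ'.le hc j] with x hx hxb
  obtain ⟨h1, -, h3, -⟩ := hx (mem_ball_zero_iff.1 hxb)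
  exact mem_SS_or_RR hη hη' hρ' hc (mem_ball_zero_iff.1 hxb) h1 h3

theorem split_ball {g : (Fin n → ℝ) → F} (hg : LocPL g (ball (0 : Fin n → ℝ) 1)) {η ρ c : ℝ}
    (hη : 0 < η) (hη' : η ≤ 1 / 8) (hρ : 0 < ρ) (hρ' : ρ < 1) (hc : |c| ≤ 1 / 2) (j : Fin n)
    {B : Set (Fin n → ℝ)} (hB : B ⊆ ball 0 1) (H : (Fin n → ℝ) → ℝ≥0∞) :
    ∫⁻ x in B, H x ≤ (∫⁻ x in B ∩ RR η ρ c j, H x) + ∫⁻ x in SS η ρ c j, H x := by
  have h1 : ∫⁻ x in B, H x = ∫⁻ x in B ∩ (RR η ρ c j ∪ SS η ρ c j), H x := by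
    apply setLIntegral_congr
    have h2 := ae_mem hg hη hη' hρ hρ' hc j
    filter_upwards [h2] with x hx
    apply propext
    constructor
    · intro hxB; exact ⟨hxB, (hx (hB hxB)).symm⟩
    · intro hxB; exact hxB.1
  rw [h1, inter_union_distrib_left]
  refine (lintegral_union_le _ _ _).trans ?_
  exact add_le_add le_rfl (lintegral_mono_set inter_subset_right)

end

end Crest.Agent.R096.Sq_477
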