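import Mathlib
import Crest.Agent.R096.Sq9_477

/-!
# Row 96, P4-SQUEEZE (helper477), part 10: the SLICE SQUEEZE in `Fin n → ℝ`
-/

set_option autoImplicit false
set_option linter.unusedSectionVars false

open Set Function MeasureTheory Filter Topology Metric
open scoped ENNReal

namespace Crest.Agent.R096.Sq_477

open Crest.Agent.R096.Pl
open Crest.Agent.R096.Str_696 (LocPL)

noncomputable section

variable {n : ℕ}

variable {F : Type*} [NormedAddCommGroup F] [NormedSpace ℝ F] [FiniteDimensional ℝ F]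

theorem RR_subset_ball {η ρ c : ℝ} (hη : 0 < η) (hρ' : ρ ≤ 1) (j : Fin n) :
    RR η ρ c j ⊆ ball (0 : Fin n → ℝ) (1 - η) := fun _ hx =>
  mem_ball_zero_iff.2 (RR_norm hη hρ' hx)

/-- the squeezed region: directions different from `j` -/
theorem RR_total {g : (Fin n → ℝ) → F} (hg : LocPL g (ball (0 : Fin n → ℝ) 1)) {η ρ c : ℝ}
    (hη : 0 < η) (hη' : η ≤ 1 / 8) (hρ : 0 < ρ) (hρ' : ρ ≤ 1) (hc : |c| ≤ 1 / 2)
    {j i : Fin n} (hi : i ≠ j) (a : F) (p : ℝ) {B : Set (Fin n → ℝ)} (hB : MeasurableSet B) :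
    ∫⁻ x in B ∩ RR η ρ c j, ‖Dp (fun y => g (chi η ρ c j y)) i x - a‖ₑ ^ p ≤
      (∫⁻ x in B ∩ ball 0 (1 - η), ‖Dp (fun y => g (prj c j y)) i x - a‖ₑ ^ p) +
      ∫⁻ x in ball 0 (1 - η), (‖Dp g i (lin ρ c j x) - a‖ₑ ^ p -
        ‖Dp (fun y => g (prj c j y)) i x - a‖ₑ ^ p) := by
  have hRm := measurableSet_RR (n := n) η ρ c j
  have hBR : B ∩ RR η ρ c j ⊆ B ∩ ball 0 (1 - η) :=
    inter_subset_inter_right _ (RR_subset_ball hη hρ' j)
  calc ∫⁻ x in B ∩ RR η ρ c j, ‖Dp (fun y => g (chi η ρ c j y)) i x - a‖ₑ ^ p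
      = ∫⁻ x in B ∩ RR η ρ c j, ‖Dp g i (lin ρ c j x) - a‖ₑ ^ p := by
        apply lintegral_congr_ae
        rw [EventuallyEq, ae_restrict_iff' (hB.inter hRm)]
        filter_upwards [ae_chain hg hη hη' hρ hρ' hc j] with x hx hxB
        have hxn : ‖x‖ < 1 := (RR_norm hη hρ' hxB.2).trans (by linarith)
        obtain ⟨h1, h2, -, -⟩ := hx hxn
        rw [Dp_comp_RR hρ' h1 h2 hxB.2 hi]
    _ ≤ ∫⁻ x in B ∩ RR η ρ c j, (‖Dp (fun y => g (prj c j y)) i x - a‖ₑ ^ p +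
          (‖Dp g i (lin ρ c j x) - a‖ₑ ^ p - ‖Dp (fun y => g (prj c j y)) i x - a‖ₑ ^ p)) :=
        lintegral_mono fun x => le_add_tsub
    _ = (∫⁻ x in B ∩ RR η ρ c j, ‖Dp (fun y => g (prj c j y)) i x - a‖ₑ ^ p) +
          ∫⁻ x in B ∩ RR η ρ c j,
          (‖Dp g i (lin ρ c j x) - a‖ₑ ^ p - ‖Dp (fun y => g (prj c j y)) i x - a‖ₑ ^ p) :=
        lintegral_add_left (measurable_Dp (fun y => g (prj c j y)) i a p) _
    _ ≤ _ := add_le_add (lintegral_mono_set hBR)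
        (lintegral_mono_set (hBR.trans inter_subset_right))

/-- the squeezed region: direction `j` -/
theorem RR_total_self {g : (Fin n → ℝ) → F} (hg : LocPL g (ball (0 : Fin n → ℝ) 1)) {η c : ℝ}
    (hη : 0 < η) (hη' : η ≤ 1 / 8) (hc : |c| ≤ 1 / 2)
    (j : Fin n) {p : ℝ} (hp : 0 < p) {ε : ℝ≥0∞} (hε : 0 < ε) :
    ∀ᶠ ρ in 𝓝[>] (0 : ℝ),
    ∫⁻ x in ball 0 1 ∩ RR η ρ c j, ‖Dp (fun y => g (chi η ρ c j y)) j x‖ₑ ^ p ≤ ε := by
  obtain ⟨M, hM0, hM⟩ := exists_bound hg hη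
  have h1 : ∀ᶠ ρ in 𝓝[>] (0 : ℝ), 0 < ρ := self_mem_nhdsWithin
  have h2 : ∀ᶠ ρ in 𝓝[>] (0 : ℝ), ρ < 1 :=
    eventually_nhdsWithin_of_eventually_nhds (gt_mem_nhds one_pos)
  have hV : volume (ball (0 : Fin n → ℝ) (1 - η)) ≠ ∞ := measure_ball_lt_top.ne
  have h3 : Tendsto (fun ρ : ℝ => ENNReal.ofReal (ρ * M) ^ p *
      volume (ball (0 : Fin n → ℝ) (1 - η))) (𝓝[>] 0) (𝓝 0) := by
    have h4 : Tendsto (fun ρ : ℝ => ENNReal.ofReal (ρ * M)) (𝓝[>] 0) (𝓝 0) := by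
      have h5 : Tendsto (fun ρ : ℝ => ENNReal.ofReal (ρ * M)) (𝓝 0) (𝓝 (ENNReal.ofReal (0 * M))) :=
        ((ENNReal.continuous_ofReal.comp (continuous_id.mul continuous_const)).tendsto 0)
      rw [zero_mul, ENNReal.ofReal_zero] at h5
      exact h5.mono_left nhdsWithin_le_nhds
    have h6 := ENNReal.Tendsto.mul_const (b := volume (ball (0 : Fin n → ℝ) (1 - η)))
      (((ENNReal.continuous_rpow_const (y := p)).tendsto 0).comp h4) (Or.inr hV)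
    rw [ENNReal.zero_rpow_of_pos hp, zero_mul] at h6
    exact h6
  filter_upwards [h1, h2, h3.eventually (ge_mem_nhds hε)] with ρ r1 r2 r3
  refine le_trans ?_ r3
  have hRm := measurableSet_RR (n := n) η ρ c j
  calc ∫⁻ x in ball 0 1 ∩ RR η ρ c j, ‖Dp (fun y => g (chi η ρ c j y)) j x‖ₑ ^ p
      ≤ ∫⁻ _x in ball 0 1 ∩ RR η ρ c j, ENNReal.ofReal (ρ * M) ^ p := by
        apply lintegral_mono_ae
        rw [ae_restrict_iff' (measurableSet_ball.inter hRm)]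
        filter_upwards [ae_chain hg hη hη' r1 r2.le hc j, bound_lin hη' hc hM r1 r2.le j]
          with x hx hxM hxB
        obtain ⟨h1, h2, -, -⟩ := hx (mem_ball_zero_iff.1 hxB.1)
        rw [Dp_comp_RR_self r2.le h1 h2 hxB.2]
        refine ENNReal.rpow_le_rpow ?_ hp.le
        rw [← ofReal_norm, norm_smul, Real.norm_eq_abs, abs_of_pos r1]
        exact ENNReal.ofReal_le_ofReal
          (mul_le_mul_of_nonneg_left (hxM (RR_norm hη r2.le hxB.2) j) r1.le)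
    _ = ENNReal.ofReal (ρ * M) ^ p * volume (ball 0 1 ∩ RR η ρ c j) := by
        rw [setLIntegral_const]
    _ ≤ _ := by
        gcongr
        exact inter_subset_right.trans (RR_subset_ball hη r2.le j)

/-- **SLICE SQUEEZE**.  For `ρ → 0` the derivative of `g ∘ χ_ρ` in the directions `i ≠ j` is that
of `g` on the slice `x_j = c`, up to the shell, and the derivative in the direction `j` is
controlled by that of `g`. -/
theorem squeeze {g : (Fin n → ℝ) → F} (hg : LocPL g (ball (0 : Fin n → ℝ) 1)) {η c : ℝ}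
    (hη : 0 < η) (hη' : η ≤ 1 / 8) (hc : |c| ≤ 1 / 2) (j : Fin n) {p : ℝ} (hp : 0 < p)
    (a : Fin n → F) {ε : ℝ≥0∞} (hε : 0 < ε) :
    ∀ᶠ ρ in 𝓝[>] (0 : ℝ), 0 < ρ ∧ ρ < 1 ∧
      (∀ i, i ≠ j → ∀ B ⊆ ball (0 : Fin n → ℝ) 1, MeasurableSet B →
        ∫⁻ x in B, ‖Dp (fun y => g (chi η ρ c j y)) i x - a i‖ₑ ^ p ≤
          (∫⁻ x in B ∩ ball 0 (1 - η), ‖Dp (fun y => g (prj c j y)) i x - a i‖ₑ ^ p) +
          shellTerm g η p j i (a i) + ε) ∧
      (∫⁻ x in ball 0 1, ‖Dp (fun y => g (chi η ρ c j y)) j x‖ₑ ^ p ≤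
          ENNReal.ofReal (3 / η) ^ p * (2 * ∫⁻ x in ball 0 1, ‖Dp g j x‖ₑ ^ p) + ε) := by
  have h1 : ∀ᶠ ρ in 𝓝[>] (0 : ℝ), 0 < ρ := self_mem_nhdsWithin
  have h2 : ∀ᶠ ρ in 𝓝[>] (0 : ℝ), ρ < 1 :=
    eventually_nhdsWithin_of_eventually_nhds (gt_mem_nhds one_pos)
  have h3 : ∀ᶠ ρ in 𝓝[>] (0 : ℝ), ∀ i, i ≠ j → ∫⁻ x in ball (0 : Fin n → ℝ) (1 - η),
      (‖Dp g i (lin ρ c j x) - a i‖ₑ ^ p -
        ‖Dp (fun y => g (prj c j y)) i x - a i‖ₑ ^ p) ≤ ε := by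
    rw [eventually_all]
    intro i
    by_cases hi : i = j
    · exact Eventually.of_forall fun _ h => absurd hi h
    · filter_upwards [slice_lim hg hη hη' hc j hi (a i) hp.le hε] with ρ hρ _ using hρ
  filter_upwards [h1, h2, h3, RR_total_self hg hη hη' hc j hp hε] with ρ r1 r2 r3 r4
  refine ⟨r1, r2, ?_, ?_⟩
  · intro i hi B hB hBm
    refine (split_ball hg hη hη' r1 r2 hc j hB _).trans ?_
    refine (add_le_add (RR_total hg hη hη' r1 r2.le hc hi (a i) p hBm)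
      (shell_total hg hη hη' r1 r2.le hc hi hp.le (a i))).trans ?_
    rw [add_assoc, add_assoc]
    refine add_le_add le_rfl ?_
    rw [add_comm]
    exact add_le_add le_rfl (r3 i hi)
  · refine (split_ball hg hη hη' r1 r2 hc j subset_rfl _).trans ?_
    rw [add_comm]
    exact add_le_add (shell_total_self hg hη hη' r1 r2.le hc j hp.le) r4

end

end Crest.Agent.R096.Sq_477
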