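import Mathlib
import Crest.Agent.R096.Sq10_477
import Crest.Agent.R096.Sk0_962

/-!
# Row 96, P4-SQUEEZE (helper477), part 11: the SLICE SQUEEZE in `R3`
-/

set_option autoImplicit false
set_option linter.unusedSectionVars false

open Set Function MeasureTheory Filter Topology Metric
open scoped ENNReal Gradient
open Crest.AnalysisR.VecCalc3 Crest.AnalysisR.Sobolev

namespace Crest.Agent.R096.Sq_477

open Crest.Agent.R096.Pl
open Crest.Agent.R096.Str_696 (LocPL)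
open Crest.Agent.R096.Sk_962 (Gr Q0 dg)

noncomputable section

/-- composition of a locally PL map with a PL map -/
theorem locPL_comp {E F G : Type*} [NormedAddCommGroup E] [NormedSpace ℝ E]
    [NormedAddCommGroup F] [NormedSpace ℝ F] [NormedAddCommGroup G] [NormedSpace ℝ G]
    {g : F → G} {Ω : Set F} (hg : LocPL g Ω) {H : E → F} (hH : PLMap H) {D : Set E}
    (hD : MapsTo H D Ω) : LocPL (fun x => g (H x)) D := by
  classical
  intro x hx
  obtain ⟨r, hr, S, hc, hS⟩ := hg (H x) (hD hx)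
  obtain ⟨hHc, A, hA, hsel⟩ := hH
  obtain ⟨r', hr', hb⟩ := Metric.mem_nhds_iff.1 (hHc.continuousAt.preimage_mem_nhds
    (ball_mem_nhds (H x) hr))
  refine ⟨r', hr', (hA.toFinset ×ˢ S).image (fun q => q.2.comp q.1), ?_, ?_⟩
  · exact hc.comp hHc.continuousOn hb
  · intro y hy
    obtain ⟨b, hbA, hby⟩ := hsel y
    obtain ⟨a, haS, hay⟩ := hS (H y) (hb hy)
    refine ⟨a.comp b, ?_, ?_⟩
    · rw [Finset.mem_image]
      exact ⟨(b, a), Finset.mem_product.2 ⟨hA.mem_toFinset.2 hbA, haS⟩, rfl⟩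
    · show g (H y) = a (b y)
      rw [hay, hby]

/-- the coordinates of `R3` -/
def e3 : R3 ≃L[ℝ] (Fin 3 → ℝ) := PiLp.continuousLinearEquiv 2 ℝ (fun _ : Fin 3 => ℝ)

theorem e3_apply (x : R3) (i : Fin 3) : e3 x i = x i := rfl

theorem e3_symm_apply (x : Fin 3 → ℝ) (i : Fin 3) : (e3.symm x) i = x i := rfl

theorem e3_symm_single (i : Fin 3) :
    e3.symm (Pi.single i (1 : ℝ)) = EuclideanSpace.single i (1 : ℝ) := by
  ext k
  rw [e3_symm_apply]
  simp [Pi.single_apply]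

/-- the `i`-th column of the derivative -/
def Dc (g : R3 → R3) (i : Fin 3) (x : R3) : R3 := fderiv ℝ g x (EuclideanSpace.single i (1 : ℝ))

theorem Dp_e3 (g : R3 → R3) (i : Fin 3) (x : R3) :
    Dp (fun y => g (e3.symm y)) i (e3 x) = Dc g i x := by
  unfold Dp Dc
  have h1 : (fun y => g (e3.symm y)) = g ∘ e3.symm := rfl
  rw [h1, ContinuousLinearEquiv.comp_right_fderiv]
  show fderiv ℝ g (e3.symm (e3 x)) (e3.symm (Pi.single i 1)) = _
  rw [e3_symm_single, ContinuousLinearEquiv.symm_apply_apply]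

theorem mem_ball_e3 {x : R3} {r : ℝ} (hr : 0 < r) :
    e3 x ∈ ball (0 : Fin 3 → ℝ) r ↔ ∀ i, |x i| < r := by
  rw [mem_ball_zero_iff, pi_norm_lt_iff hr]
  rfl

/-- the open cube of half side `r` -/
def Qr (r : ℝ) : Set R3 := {x | ∀ i, |x i| < r}

theorem Qr_eq {r : ℝ} (hr : 0 < r) : Qr r = e3 ⁻¹' ball (0 : Fin 3 → ℝ) r := by
  ext x; exact (mem_ball_e3 hr).symm

theorem Qr_one : Qr 1 = Q0 := rfl

theorem lint_e3 (H : (Fin 3 → ℝ) → ℝ≥0∞) (S : Set (Fin 3 → ℝ)) :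
    ∫⁻ x in e3 ⁻¹' S, H (e3 x) = ∫⁻ y in S, H y := by
  have h := PiLp.volume_preserving_ofLp (Fin 3)
  have h1 : MeasurableEmbedding (@WithLp.ofLp 2 (Fin 3 → ℝ)) :=
    (MeasurableEquiv.toLp 2 (Fin 3 → ℝ)).symm.measurableEmbedding
  exact h.setLIntegral_comp_preimage_emb h1 H S

/-- rows against columns -/
theorem row_le_col {g : R3 → R3} {x : R3} (hd : DifferentiableAt ℝ g x) (s : Fin 3 → ℝ)
    (j : Fin 3) :
    ‖Gr g j x - dg s j‖ₑ ≤ ‖Dc g 0 x - dg s 0‖ₑ + ‖Dc g 1 x - dg s 1‖ₑ + ‖Dc g 2 x - dg s 2‖ₑ := by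
  have h1 : DifferentiableAt ℝ (fun y => g y j) x := by
    have := (EuclideanSpace.proj (𝕜 := ℝ) (ι := Fin 3) j).differentiableAt (x := g x)
    exact this.comp x hd
  have h2 : ∀ w, fderiv ℝ (fun y => g y j) x w = fderiv ℝ g x w j := by
    intro w
    have h3 : HasFDerivAt (fun y => g y j)
        ((EuclideanSpace.proj (𝕜 := ℝ) (ι := Fin 3) j).comp (fderiv ℝ g x)) x :=
      (EuclideanSpace.proj (𝕜 := ℝ) (ι := Fin 3) j).hasFDerivAt.comp x hd.hasFDerivAt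
    rw [h3.fderiv]
    rfl
  have h4 : ∀ i, (Gr g j x) i = (Dc g i x) j := by
    intro i
    unfold Dc
    rw [← h2]
    unfold Gr gradient
    have h5 : inner ℝ ((InnerProductSpace.toDual ℝ R3).symm (fderiv ℝ (fun y => g y j) x))
      (EuclideanSpace.single i (1 : ℝ)) = fderiv ℝ (fun y => g y j) x
        (EuclideanSpace.single i (1 : ℝ)) := InnerProductSpace.toDual_symm_apply
    rw [← h5, EuclideanSpace.inner_single_right]
    simp
  have h6 : ∀ i, |(Gr g j x - dg s j) i| ≤ ‖Dc g i x - dg s i‖ := by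
    intro i
    have h7 : (Gr g j x - dg s j) i = (Dc g i x - dg s i) j := by
      show (Gr g j x) i - (dg s j) i = (Dc g i x) j - (dg s i) j
      rw [h4]
      congr 1
      unfold dg
      by_cases hij : i = j
      · subst hij; rfl
      · simp [hij, Ne.symm hij]
    rw [h7]
    exact PiLp.norm_apply_le (Dc g i x - dg s i) j
  have h8 : ‖Gr g j x - dg s j‖ ≤ ∑ i, |(Gr g j x - dg s j) i| := by
    rw [EuclideanSpace.norm_eq]
    apply Real.sqrt_le_iff.2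
    refine ⟨Finset.sum_nonneg fun _ _ => abs_nonneg _, ?_⟩
    simp only [Fin.sum_univ_three, Real.norm_eq_abs]
    have a0 := abs_nonneg ((Gr g j x - dg s j) 0)
    have a1 := abs_nonneg ((Gr g j x - dg s j) 1)
    have a2 := abs_nonneg ((Gr g j x - dg s j) 2)
    nlinarith [mul_nonneg a0 a1, mul_nonneg a0 a2, mul_nonneg a1 a2]
  have h9 : ‖Gr g j x - dg s j‖ ≤ ‖Dc g 0 x - dg s 0‖ + ‖Dc g 1 x - dg s 1‖ +
      ‖Dc g 2 x - dg s 2‖ := by
    refine h8.trans ?_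
    rw [Fin.sum_univ_three]
    exact add_le_add (add_le_add (h6 0) (h6 1)) (h6 2)
  rw [← ofReal_norm, ← ofReal_norm, ← ofReal_norm, ← ofReal_norm,
    ← ENNReal.ofReal_add (norm_nonneg _) (norm_nonneg _),
    ← ENNReal.ofReal_add (by positivity) (norm_nonneg _)]
  exact ENNReal.ofReal_le_ofReal h9

theorem rows_le_cols {g : R3 → R3} {x : R3} (hd : DifferentiableAt ℝ g x) (s : Fin 3 → ℝ)
    {p : ℝ} (hp : 0 ≤ p) :
    ∑ j, ‖Gr g j x - dg s j‖ₑ ^ p ≤ 3 * 3 ^ p * ∑ i, ‖Dc g i x - dg s i‖ₑ ^ p := by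
  have h1 : ∀ j, ‖Gr g j x - dg s j‖ₑ ^ p ≤ 3 ^ p * ∑ i, ‖Dc g i x - dg s i‖ₑ ^ p := by
    intro j
    refine (ENNReal.rpow_le_rpow (row_le_col hd s j) hp).trans ?_
    rw [Fin.sum_univ_three]
    exact rpow_add3_le hp _ _ _
  calc ∑ j, ‖Gr g j x - dg s j‖ₑ ^ p ≤ ∑ _j : Fin 3, 3 ^ p * ∑ i, ‖Dc g i x - dg s i‖ₑ ^ p :=
        Finset.sum_le_sum fun j _ => h1 j
    _ = 3 * 3 ^ p * ∑ i, ‖Dc g i x - dg s i‖ₑ ^ p := by
        rw [Finset.sum_const, Finset.card_univ, Fintype.card_fin, nsmul_eq_mul]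
        push_cast; ring

end

end Crest.Agent.R096.Sq_477
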