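import Mathlib
import Crest.Agent.R096.Sq11_477

/-!
# Row 96, P4-SQUEEZE (helper477), part 12: the SLICE SQUEEZE in `R3`, final form
-/

set_option autoImplicit false
set_option linter.unusedSectionVars false

open Set Function MeasureTheory Filter Topology Metric
open scoped ENNReal Gradient
open Crest.AnalysisR.VecCalc3 Crest.AnalysisR.Sobolev

namespace Crest.Agent.R096.Sq_477

open Crest.Agent.R096.Pl
open Crest.Agent.R096.Str_696 (LocPL)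
open Crest.Agent.R096.Sk_962 (Gr Q0 dg)

noncomputable section

/-- the projection onto the slice `x₃ = c` -/
def prj3 (c : ℝ) (x : R3) : R3 := e3.symm (prj c 2 (e3 x))

/-- the shell `1 - 2η < |x| < 1` (maximum norm) -/
def Sh3 (η : ℝ) : Set R3 := Q0 ∩ {x | ∃ i, 1 - 2 * η < |x i|}

theorem Sh3_eq {η : ℝ} (hη : η < 1 / 2) : Sh3 η = e3 ⁻¹' Sh η := by
  ext x
  constructor
  · rintro ⟨h1, i, h2⟩
    refine ⟨lt_of_lt_of_le h2 ?_, ?_⟩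
    · exact norm_le_pi_norm (e3 x) i
    · have : e3 x ∈ ball (0 : Fin 3 → ℝ) 1 := (mem_ball_e3 one_pos).2 h1
      exact mem_ball_zero_iff.1 this
  · rintro ⟨h1, h2⟩
    have h3 : e3 x ∈ ball (0 : Fin 3 → ℝ) 1 := mem_ball_zero_iff.2 h2
    refine ⟨(mem_ball_e3 one_pos).1 h3, ?_⟩
    obtain ⟨i, hi⟩ := exists_coord (x := e3 x) (by linarith)
    refine ⟨i, ?_⟩
    show 1 - 2 * η < |e3 x i|
    rw [hi]; exact h1

/-- the shell term in `R3` -/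
def shellTerm3 (g : R3 → R3) (η p : ℝ) (i : Fin 3) (s : Fin 3 → ℝ) : ℝ≥0∞ :=
  3 ^ p * (((∫⁻ x in Sh3 η, ‖Dc g i x‖ₑ ^ p) +
    ENNReal.ofReal (η / 2) * ∫⁻ x in Q0, ‖Dc g i x‖ₑ ^ p) +
    ENNReal.ofReal (2 / η) ^ p * (2 * ∫⁻ x in Q0, ‖Dc g 2 x‖ₑ ^ p) +
    ‖dg s i‖ₑ ^ p * volume (Sh3 η))

theorem vol_Sh3 {η : ℝ} (hη : η < 1 / 2) : volume (Sh3 η) = volume (Sh (n := 3) η) := by
  have h := lint_e3 (fun _ => 1) (Sh (n := 3) η)
  rw [← Sh3_eq hη] at h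
  simpa using h

theorem lint_Dc (g : R3 → R3) (i : Fin 3) (p : ℝ) (a : R3) (S : Set (Fin 3 → ℝ)) :
    ∫⁻ x in e3 ⁻¹' S, ‖Dc g i x - a‖ₑ ^ p =
      ∫⁻ y in S, ‖Dp (fun z => g (e3.symm z)) i y - a‖ₑ ^ p := by
  rw [← lint_e3]
  simp only [Dp_e3]

theorem lint_Dc' (g : R3 → R3) (i : Fin 3) (p : ℝ) (S : Set (Fin 3 → ℝ)) :
    ∫⁻ x in e3 ⁻¹' S, ‖Dc g i x‖ₑ ^ p =
      ∫⁻ y in S, ‖Dp (fun z => g (e3.symm z)) i y‖ₑ ^ p := by
  have := lint_Dc g i p 0 S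
  simpa only [sub_zero] using this

theorem Q0_eq : Q0 = e3 ⁻¹' ball (0 : Fin 3 → ℝ) 1 := by rw [← Qr_one, Qr_eq one_pos]

theorem shellTerm3_eq {g : R3 → R3} {η p : ℝ} (hη : η < 1 / 2) (i : Fin 3) (s : Fin 3 → ℝ) :
    shellTerm3 g η p i s = shellTerm (fun z => g (e3.symm z)) η p 2 i (dg s i) := by
  unfold shellTerm3 shellTerm
  rw [vol_Sh3 hη, Sh3_eq hη, Q0_eq, lint_Dc', lint_Dc', lint_Dc']

/-- `g ∘ χ` in `R3` -/
def sqz (g : R3 → R3) (η ρ c : ℝ) (x : R3) : R3 := g (e3.symm (chi η ρ c 2 (e3 x)))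

theorem Dc_sqz (g : R3 → R3) (η ρ c : ℝ) (i : Fin 3) (x : R3) :
    Dc (sqz g η ρ c) i x = Dp (fun y => g (e3.symm (chi η ρ c 2 y))) i (e3 x) := by
  rw [← Dp_e3]
  rfl

theorem plMap_e3 : PLMap (e3 : R3 → Fin 3 → ℝ) :=
  PLMap.of_affine (e3 : R3 →ₗ[ℝ] (Fin 3 → ℝ)).toAffineMap

theorem plMap_e3_symm : PLMap (e3.symm : (Fin 3 → ℝ) → R3) :=
  PLMap.of_affine (e3.symm : (Fin 3 → ℝ) →ₗ[ℝ] R3).toAffineMap

theorem locPL_e3 {g : R3 → R3} (hg : LocPL g Q0) :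
    LocPL (fun z => g (e3.symm z)) (ball (0 : Fin 3 → ℝ) 1) := by
  apply locPL_comp hg plMap_e3_symm
  intro x hx
  rw [Q0_eq, mem_preimage, ContinuousLinearEquiv.apply_symm_apply]
  exact hx

theorem sqz_mem {η ρ c : ℝ} (hη : 0 < η) (hη' : η ≤ 1 / 8) (hρ : 0 < ρ) (hρ' : ρ ≤ 1)
    (hc : |c| ≤ 1 / 2) {x : R3} (hx : x ∈ Q0) : e3.symm (chi η ρ c 2 (e3 x)) ∈ Q0 := by
  rw [Q0_eq] at hx ⊢
  rw [mem_preimage, ContinuousLinearEquiv.apply_symm_apply]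
  exact mem_ball_zero_iff.2 (chi_mem_ball hη hη' hρ hρ' hc 2 (mem_ball_zero_iff.1 hx))

theorem locPL_sqz {g : R3 → R3} (hg : LocPL g Q0) {η ρ c : ℝ} (hη : 0 < η) (hη' : η ≤ 1 / 8)
    (hρ : 0 < ρ) (hρ' : ρ ≤ 1) (hc : |c| ≤ 1 / 2) : LocPL (sqz g η ρ c) Q0 := by
  have h1 : PLMap (fun x : R3 => e3.symm (chi η ρ c 2 (e3 x))) :=
    plMap_e3_symm.comp ((plMap_chi η ρ c 2).comp plMap_e3)
  exact locPL_comp hg h1 fun x hx => sqz_mem hη hη' hρ hρ' hc hx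

theorem homeo_sqz {g : R3 → R3} {V : Set R3} (hg : IsHomeomorphOn g Q0 V) {η ρ c : ℝ}
    (hη : 0 < η) (hη' : η ≤ 1 / 8) (hρ : 0 < ρ) (hρ' : ρ ≤ 1) (hc : |c| ≤ 1 / 2) :
    IsHomeomorphOn (sqz g η ρ c) Q0 V := by
  obtain ⟨finv, h1, h2, h3, h4, h5, h6⟩ := hg
  obtain ⟨H, hH, hHc⟩ := exists_chi hη hη' hρ hρ' hc (2 : Fin 3)
  have hmem : ∀ y ∈ Q0, e3.symm (H.symm (e3 y)) ∈ Q0 := by
    intro y hy
    by_contra hcon
    have h7 : 1 ≤ ‖H.symm (e3 y)‖ := by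
      by_contra h8
      push Not at h8
      apply hcon
      rw [Q0_eq, mem_preimage, ContinuousLinearEquiv.apply_symm_apply]
      exact mem_ball_zero_iff.2 h8
    have h9 : H (H.symm (e3 y)) = H.symm (e3 y) := by
      have := chi_off (ρ := ρ) (c := c) hη (2 : Fin 3) (x := H.symm (e3 y)) (by linarith)
      rw [hHc]; exact this
    rw [H.apply_symm_apply] at h9
    rw [← h9, ContinuousLinearEquiv.symm_apply_apply] at hcon
    exact hcon hy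
  have hcont1 : Continuous fun x : R3 => e3.symm (chi η ρ c 2 (e3 x)) :=
    e3.symm.continuous.comp ((plMap_chi η ρ c 2).1.comp e3.continuous)
  have hcont2 : Continuous fun x : R3 => e3.symm (H.symm (e3 x)) :=
    e3.symm.continuous.comp (H.symm.continuous.comp e3.continuous)
  refine ⟨fun y => e3.symm (H.symm (e3 (finv y))), ?_, ?_, ?_, ?_, ?_, ?_⟩
  · intro x hx
    exact h1 (sqz_mem hη hη' hρ hρ' hc hx)
  · intro y hy
    exact hmem _ (h2 hy)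
  · intro x hx
    show e3.symm (H.symm (e3 (finv (g (e3.symm (chi η ρ c 2 (e3 x))))))) = x
    rw [h3 _ (sqz_mem hη hη' hρ hρ' hc hx), ContinuousLinearEquiv.apply_symm_apply, ← hHc,
      H.symm_apply_apply, ContinuousLinearEquiv.symm_apply_apply]
  · intro y hy
    show g (e3.symm (chi η ρ c 2 (e3 (e3.symm (H.symm (e3 (finv y))))))) = y
    rw [ContinuousLinearEquiv.apply_symm_apply, ← hHc, H.apply_symm_apply,
      ContinuousLinearEquiv.symm_apply_apply, h4 y hy]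
  · exact h5.comp hcont1.continuousOn fun x hx => sqz_mem hη hη' hρ hρ' hc hx
  · exact hcont2.comp_continuousOn h6

theorem sqz_off {g : R3 → R3} {η ρ c : ℝ} (hη : 0 < η) {x : R3} (hx : ∃ i, 1 - η ≤ |x i|) :
    sqz g η ρ c x = g x := by
  obtain ⟨i, hi⟩ := hx
  unfold sqz
  rw [chi_off hη (2 : Fin 3) (hi.trans (norm_le_pi_norm (e3 x) i)),
    ContinuousLinearEquiv.symm_apply_apply]

theorem prj_e3 (g : R3 → R3) (c : ℝ) :
    (fun y => g (prj3 c (e3.symm y))) = fun y => g (e3.symm (prj c 2 y)) := by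
  ext1 y
  unfold prj3
  rw [ContinuousLinearEquiv.apply_symm_apply]

/-- **THE SLICE SQUEEZE IN `R3`.**  `g` a locally PL homeomorphism of the open cube `Q0`; the
squeezed map `g ∘ χ_ρ` is a locally PL homeomorphism of `Q0` onto the same image, equal to `g`
where `max |x i| ≥ 1 - η`, and its distance to `diag (s₁, s₂, 0)` is controlled by that of the
restriction of `g` to the slice `x₃ = c` (for `max |x i| < 1 - η`), and by the shell terms. -/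
theorem squeeze_R3 {g : R3 → R3} {V : Set R3} (hh : IsHomeomorphOn g Q0 V) (hg : LocPL g Q0)
    {η c : ℝ} (hη : 0 < η) (hη' : η ≤ 1 / 8) (hc : |c| ≤ 1 / 2) {p : ℝ} (hp : 0 < p)
    {s : Fin 3 → ℝ} (hs : s 2 = 0) {ε : ℝ≥0∞} (hε : 0 < ε) :
    ∃ g' : R3 → R3, IsHomeomorphOn g' Q0 V ∧ LocPL g' Q0 ∧
      (∀ x, (∃ i, 1 - η ≤ |x i|) → g' x = g x) ∧
      ∫⁻ x in Q0, ∑ j, ‖Gr g' j x - dg s j‖ₑ ^ p ≤ 3 * 3 ^ p *
        (((∫⁻ x in Qr (1 - η), ‖Dc (fun y => g (prj3 c y)) 0 x - dg s 0‖ₑ ^ p) +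
            shellTerm3 g η p 0 s) +
         ((∫⁻ x in Qr (1 - η), ‖Dc (fun y => g (prj3 c y)) 1 x - dg s 1‖ₑ ^ p) +
            shellTerm3 g η p 1 s) +
         ENNReal.ofReal (3 / η) ^ p * (2 * ∫⁻ x in Q0, ‖Dc g 2 x‖ₑ ^ p)) + ε := by
  set C : ℝ≥0∞ := 3 * 3 ^ p with hC
  have hCtop : C ≠ ⊤ := ENNReal.mul_ne_top (by norm_num)
    (ENNReal.rpow_ne_top_of_nonneg hp.le (by norm_num))
  have hC0 : C ≠ 0 := by
    have : (3 : ℝ≥0∞) ^ p ≠ 0 := by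
      rw [Ne, ENNReal.rpow_eq_zero_iff]; norm_num
    exact mul_ne_zero (by norm_num) this
  -- the error
  obtain ⟨ε', hε', hε3⟩ : ∃ ε' : ℝ≥0∞, 0 < ε' ∧ C * (ε' + ε' + ε') ≤ ε := by
    refine ⟨min 1 (ε / (C * 3)), ?_, ?_⟩
    · apply lt_min one_pos
      exact ENNReal.div_pos hε.ne' (ENNReal.mul_ne_top hCtop (by norm_num))
    · have h1 : min 1 (ε / (C * 3)) ≤ ε / (C * 3) := min_le_right _ _
      calc C * (min 1 (ε / (C * 3)) + min 1 (ε / (C * 3)) + min 1 (ε / (C * 3)))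
          ≤ C * (ε / (C * 3) + ε / (C * 3) + ε / (C * 3)) := by gcongr
        _ = (ε / (C * 3)) * (C * 3) := by ring
        _ ≤ ε := (ENNReal.div_mul_cancel (mul_ne_zero hC0 (by norm_num))
            (ENNReal.mul_ne_top hCtop (by norm_num))).le
  have h0 := squeeze (locPL_e3 hg) hη hη' hc (2 : Fin 3) hp (fun i => dg s i) hε'
  obtain ⟨ρ, hρ, hρ', h1, h2⟩ := h0.exists
  refine ⟨sqz g η ρ c, homeo_sqz hh hη hη' hρ hρ'.le hc, locPL_sqz hg hη hη' hρ hρ'.le hc,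
    fun x hx => sqz_off hη hx, ?_⟩
  have hη2 : η < 1 / 2 := by linarith
  have hηp : 0 < 1 - η := by linarith
  -- the columns
  have hcol : ∀ i : Fin 3, i ≠ 2 → ∫⁻ x in Q0, ‖Dc (sqz g η ρ c) i x - dg s i‖ₑ ^ p ≤
      (∫⁻ x in Qr (1 - η), ‖Dc (fun y => g (prj3 c y)) i x - dg s i‖ₑ ^ p) +
            shellTerm3 g η p i s + ε' := by
    intro i hi
    have h3 := h1 i hi (ball 0 1) subset_rfl measurableSet_ball
    have h4 : ball (0 : Fin 3 → ℝ) 1 ∩ ball 0 (1 - η) = ball 0 (1 - η) :=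
      inter_eq_right.2 (ball_subset_ball (by linarith))
    rw [h4] at h3
    have h5 : ∫⁻ x in Q0, ‖Dc (sqz g η ρ c) i x - dg s i‖ₑ ^ p =
        ∫⁻ x in ball 0 1, ‖Dp (fun y => g (e3.symm (chi η ρ c 2 y))) i x - dg s i‖ₑ ^ p := by
      rw [Q0_eq, lint_Dc]
      rfl
    have h6 : ∫⁻ x in Qr (1 - η), ‖Dc (fun y => g (prj3 c y)) i x - dg s i‖ₑ ^ p =
        ∫⁻ x in ball 0 (1 - η), ‖Dp (fun y => g (e3.symm (prj c 2 y))) i x - dg s i‖ₑ ^ p := by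
      rw [Qr_eq hηp, lint_Dc, prj_e3]
    rw [h5, h6, shellTerm3_eq hη2]
    exact h3
  have hcol2 : ∫⁻ x in Q0, ‖Dc (sqz g η ρ c) 2 x - dg s 2‖ₑ ^ p ≤
      ENNReal.ofReal (3 / η) ^ p * (2 * ∫⁻ x in Q0, ‖Dc g 2 x‖ₑ ^ p) + ε' := by
    have h5 : ∫⁻ x in Q0, ‖Dc (sqz g η ρ c) 2 x - dg s 2‖ₑ ^ p =
        ∫⁻ x in ball 0 1, ‖Dp (fun y => g (e3.symm (chi η ρ c 2 y))) 2 x‖ₑ ^ p := by
      have h7 : dg s 2 = 0 := by
        unfold dg; rw [hs]; simp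
      rw [h7]
      simp only [sub_zero]
      rw [Q0_eq, lint_Dc']
      rfl
    rw [h5, Q0_eq, lint_Dc']
    exact h2
  have hdiff : ∀ᵐ x ∂(volume.restrict Q0), DifferentiableAt ℝ (sqz g η ρ c) x := by
    have hQm : MeasurableSet Q0 := by
      rw [Q0_eq]; exact measurableSet_ball.preimage e3.continuous.measurable
    rw [ae_restrict_iff' hQm]
    exact ae_differentiableAt_of_locPL (locPL_sqz hg hη hη' hρ hρ'.le hc)
  have hm : ∀ i, Measurable fun x => ‖Dc (sqz g η ρ c) i x - dg s i‖ₑ ^ p := by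
    intro i
    have h7 := (measurable_Dp (fun y => g (e3.symm (chi η ρ c 2 y))) i (dg s i) p).comp
      e3.continuous.measurable
    have h8 : (fun x => ‖Dc (sqz g η ρ c) i x - dg s i‖ₑ ^ p) = (fun x =>
      ‖Dp (fun y => g (e3.symm (chi η ρ c 2 y))) i x - dg s i‖ₑ ^ p) ∘ e3 := by
      ext1 x
      rw [Dc_sqz]; rfl
    rw [h8]; exact h7
  calc ∫⁻ x in Q0, ∑ j, ‖Gr (sqz g η ρ c) j x - dg s j‖ₑ ^ p
      ≤ ∫⁻ x in Q0, C * ∑ i, ‖Dc (sqz g η ρ c) i x - dg s i‖ₑ ^ p := by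
        apply lintegral_mono_ae
        filter_upwards [hdiff] with x hx
        exact rows_le_cols hx s hp.le
    _ = C * ((∫⁻ x in Q0, ‖Dc (sqz g η ρ c) 0 x - dg s 0‖ₑ ^ p) +
          (∫⁻ x in Q0, ‖Dc (sqz g η ρ c) 1 x - dg s 1‖ₑ ^ p) +
          ∫⁻ x in Q0, ‖Dc (sqz g η ρ c) 2 x - dg s 2‖ₑ ^ p) := by
        have hsum : ∀ x, ∑ i, ‖Dc (sqz g η ρ c) i x - dg s i‖ₑ ^ p =
            ‖Dc (sqz g η ρ c) 0 x - dg s 0‖ₑ ^ p + ‖Dc (sqz g η ρ c) 1 x - dg s 1‖ₑ ^ p +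
            ‖Dc (sqz g η ρ c) 2 x - dg s 2‖ₑ ^ p := fun x => Fin.sum_univ_three _
        simp only [hsum]
        have m01 : Measurable fun x => ‖Dc (sqz g η ρ c) 0 x - dg s 0‖ₑ ^ p +
            ‖Dc (sqz g η ρ c) 1 x - dg s 1‖ₑ ^ p := (hm 0).add (hm 1)
        have m012 : Measurable fun x => ‖Dc (sqz g η ρ c) 0 x - dg s 0‖ₑ ^ p +
            ‖Dc (sqz g η ρ c) 1 x - dg s 1‖ₑ ^ p + ‖Dc (sqz g η ρ c) 2 x - dg s 2‖ₑ ^ p :=
          m01.add (hm 2)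
        rw [lintegral_const_mul _ m012, lintegral_add_left m01, lintegral_add_left (hm 0)]
    _ ≤ C * (((∫⁻ x in Qr (1 - η), ‖Dc (fun y => g (prj3 c y)) 0 x - dg s 0‖ₑ ^ p) +
            shellTerm3 g η p 0 s + ε') +
         ((∫⁻ x in Qr (1 - η), ‖Dc (fun y => g (prj3 c y)) 1 x - dg s 1‖ₑ ^ p) +
            shellTerm3 g η p 1 s + ε') +
         (ENNReal.ofReal (3 / η) ^ p * (2 * ∫⁻ x in Q0, ‖Dc g 2 x‖ₑ ^ p) + ε')) := by
        gcongr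
        · exact hcol 0 (by decide)
        · exact hcol 1 (by decide)
    _ = C * (((∫⁻ x in Qr (1 - η), ‖Dc (fun y => g (prj3 c y)) 0 x - dg s 0‖ₑ ^ p) +
            shellTerm3 g η p 0 s) +
         ((∫⁻ x in Qr (1 - η), ‖Dc (fun y => g (prj3 c y)) 1 x - dg s 1‖ₑ ^ p) +
            shellTerm3 g η p 1 s) +
         ENNReal.ofReal (3 / η) ^ p * (2 * ∫⁻ x in Q0, ‖Dc g 2 x‖ₑ ^ p)) +
          C * (ε' + ε' + ε') := by ring
    _ ≤ _ := add_le_add le_rfl hε3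

end

end Crest.Agent.R096.Sq_477
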