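import Mathlib
import Crest.Agent.R096.Sq12_477
import Crest.Agent.R096.Sk4b_663

/-!
# Row 96, NO0-ASM (helper477), part 1: slices and layers
-/

set_option autoImplicit false
set_option linter.unusedSectionVars false

open Set Function MeasureTheory Filter Topology Metric
open scoped ENNReal Gradient
open Crest.AnalysisR.VecCalc3 Crest.AnalysisR.Sobolev

namespace Crest.Agent.R096.Sq_477

open Crest.Agent.R096.Pl
open Crest.Agent.R096.Str_696 (LocPL)
open Crest.Agent.R096.Sk_962 (Gr Q0 Qc0 dg SH)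
open Crest.Agent.R096.Sk4_663 (Zd NO0)

noncomputable section

section slice

variable {n : ℕ} {F : Type*} [NormedAddCommGroup F] [NormedSpace ℝ F] [FiniteDimensional ℝ F]

/-- the restriction of `g` to the slice `x_j = c` as a function of the other coordinates -/
def sl (g : (Fin (n + 1) → ℝ) → F) (c : ℝ) (j : Fin (n + 1)) (y : Fin n → ℝ) : F :=
  g (j.insertNth (α := fun _ => ℝ) c y)

theorem prj_eq_insert (c : ℝ) (j : Fin (n + 1)) (x : Fin (n + 1) → ℝ) :
    prj c j x = j.insertNth (α := fun _ => ℝ) c (j.removeNth x) := by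
  rw [Fin.insertNth_removeNth]; rfl

theorem sl_removeNth (g : (Fin (n + 1) → ℝ) → F) (c : ℝ) (j : Fin (n + 1))
    (x : Fin (n + 1) → ℝ) : sl g c j (j.removeNth x) = g (prj c j x) := by
  unfold sl
  rw [prj_eq_insert]

/-- the linear map `removeNth` -/
def rmv (j : Fin (n + 1)) : (Fin (n + 1) → ℝ) →L[ℝ] (Fin n → ℝ) :=
  ContinuousLinearMap.pi fun k => ContinuousLinearMap.proj (R := ℝ) (φ := fun _ => ℝ) (j.succAbove k)

theorem rmv_apply (j : Fin (n + 1)) (x : Fin (n + 1) → ℝ) : rmv j x = j.removeNth x := rfl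

/-- the linear map `insertNth 0` -/
def ins (j : Fin (n + 1)) : (Fin n → ℝ) →L[ℝ] (Fin (n + 1) → ℝ) :=
  LinearMap.toContinuousLinearMap
    { toFun := fun y => j.insertNth (α := fun _ => ℝ) 0 y
      map_add' := by
        intro y z
        ext k
        refine j.succAboveCases ?_ (fun i => ?_) k
        · simp
        · simp
      map_smul' := by
        intro t y
        ext k
        refine j.succAboveCases ?_ (fun i => ?_) k
        · simp
        · simp }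

theorem ins_apply (j : Fin (n + 1)) (y : Fin n → ℝ) :
    ins j y = j.insertNth (α := fun _ => ℝ) 0 y := rfl

theorem insert_eq (j : Fin (n + 1)) (c : ℝ) (y : Fin n → ℝ) :
    (j.insertNth c y : Fin (n + 1) → ℝ) = ins j y + c • Pi.single j (1 : ℝ) := by
  ext k
  rw [ins_apply]
  refine j.succAboveCases ?_ (fun i => ?_) k
  · simp
  · simp [Fin.succAbove_ne j i]

theorem rmv_single (j : Fin (n + 1)) (i : Fin n) :
    rmv j (Pi.single (j.succAbove i) (1 : ℝ)) = Pi.single i 1 := by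
  ext k
  rw [rmv_apply]
  show (Pi.single (j.succAbove i) (1 : ℝ) : Fin (n + 1) → ℝ) (j.succAbove k) = _
  by_cases h : k = i
  · subst h; simp
  · have : j.succAbove k ≠ j.succAbove i := fun h' => h (Fin.succAbove_right_injective h')
    simp [h, this]

theorem ins_single (j : Fin (n + 1)) (i : Fin n) :
    ins j (Pi.single i (1 : ℝ)) = Pi.single (j.succAbove i) (1 : ℝ) := by
  ext k
  rw [ins_apply]
  refine j.succAboveCases ?_ (fun l => ?_) k
  · simp [(Fin.succAbove_ne j i).symm]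
  · rw [Fin.insertNth_apply_succAbove]
    by_cases h : l = i
    · subst h; simp
    · have : j.succAbove l ≠ j.succAbove i := fun h' => h (Fin.succAbove_right_injective h')
      simp [h, this]

/-- the derivative of `g ∘ prj` is the derivative on the slice -/
theorem Dp_prj_eq (g : (Fin (n + 1) → ℝ) → F) (c : ℝ) (j : Fin (n + 1)) (i : Fin n)
    (x : Fin (n + 1) → ℝ) :
    Dp (fun y => g (prj c j y)) (j.succAbove i) x = Dp (sl g c j) i (j.removeNth x) := by
  have e1 : (fun y => g (prj c j y)) = (sl g c j) ∘ rmv j := by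
    ext1 y
    exact (sl_removeNth g c j y).symm
  by_cases hd : DifferentiableAt ℝ (sl g c j) (j.removeNth x)
  · unfold Dp
    rw [e1]
    have h1 : HasFDerivAt (sl g c j) (fderiv ℝ (sl g c j) (rmv j x)) (rmv j x) :=
      hd.hasFDerivAt
    rw [(h1.comp x (rmv j).hasFDerivAt).fderiv]
    show fderiv ℝ (sl g c j) (rmv j x) (rmv j (Pi.single (j.succAbove i) 1)) = _
    rw [rmv_single]; rfl
  · have hd' : ¬ DifferentiableAt ℝ (fun y => g (prj c j y)) x := by
      intro h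
      apply hd
      have e2 : sl g c j = (fun y => g (prj c j y)) ∘ (fun y => ins j y + x j • Pi.single j (1:ℝ)) := by
        ext1 y
        have : (ins j y + x j • Pi.single j (1:ℝ) : Fin (n + 1) → ℝ) =
          j.insertNth (α := fun _ => ℝ) (x j) y := (insert_eq j (x j) y).symm
        show sl g c j y = g (prj c j (ins j y + x j • Pi.single j (1:ℝ)))
        rw [this, ← sl_removeNth g c j]
        simp
      have e3 : (ins j (j.removeNth x) + x j • Pi.single j (1:ℝ) : Fin (n + 1) → ℝ) = x := by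
        rw [← insert_eq]; simp
      rw [e2]
      have h4 : DifferentiableAt ℝ (fun y => ins j y + x j • (Pi.single j (1:ℝ) : Fin (n+1) → ℝ))
          (j.removeNth x) := by fun_prop
      apply DifferentiableAt.comp _ _ h4
      rw [e3]; exact h
    unfold Dp
    rw [fderiv_zero_of_not_differentiableAt hd, fderiv_zero_of_not_differentiableAt hd']
    rfl

theorem norm_insert (j : Fin (n + 1)) (x : Fin (n + 1) → ℝ) {r : ℝ} (hr : 0 < r) :
    ‖x‖ < r ↔ |x j| < r ∧ ‖j.removeNth x‖ < r := by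
  rw [pi_norm_lt_iff hr, pi_norm_lt_iff hr, Fin.forall_iff_succAbove j]
  rfl

/-- Fubini for functions which do not depend on the coordinate `j` -/
theorem lint_slice (j : Fin (n + 1)) {H : (Fin n → ℝ) → ℝ≥0∞} (hH : Measurable H) {r : ℝ}
    (hr : 0 < r) :
    ∫⁻ x in ball (0 : Fin (n + 1) → ℝ) r, H (j.removeNth x) =
      ENNReal.ofReal (2 * r) * ∫⁻ y in ball (0 : Fin n → ℝ) r, H y := by
  have hmp := volume_preserving_piFinSuccAbove (fun _ : Fin (n + 1) => ℝ) j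
  have h1 : ball (0 : Fin (n + 1) → ℝ) r =
      (MeasurableEquiv.piFinSuccAbove (fun _ => ℝ) j) ⁻¹' (ball (0 : ℝ) r ×ˢ ball (0 : Fin n → ℝ) r) := by
    ext x
    rw [mem_preimage, mem_ball_zero_iff, norm_insert j x hr, mem_prod, mem_ball_zero_iff,
      mem_ball_zero_iff]
    rfl
  have h2 : ∫⁻ x in ball (0 : Fin (n + 1) → ℝ) r, H (j.removeNth x) =
      ∫⁻ q in ball (0 : ℝ) r ×ˢ ball (0 : Fin n → ℝ) r, H q.2 := by
    rw [h1]
    exact hmp.setLIntegral_comp_preimage_emb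
      (MeasurableEquiv.piFinSuccAbove (fun _ => ℝ) j).measurableEmbedding (fun q => H q.2) _
  rw [h2, Measure.volume_eq_prod, ← Measure.prod_restrict, lintegral_prod _ (by fun_prop)]
  simp only [lintegral_const, MeasurableSet.univ, Measure.restrict_apply, univ_inter]
  rw [Real.volume_ball, mul_comm]

end slice

/-- the slice of `g : R3 → R3` -/
def sl3 (g : R3 → R3) (c : ℝ) (y : Fin 2 → ℝ) : R3 :=
  sl (fun z => g (e3.symm z)) c 2 y

/-- the slice term as an integral over a square -/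
theorem lint_Dc_prj (g : R3 → R3) (c : ℝ) (i : Fin 2) (p : ℝ) (a : R3) {r : ℝ} (hr : 0 < r) :
    ∫⁻ x in Qr r, ‖Dc (fun y => g (prj3 c y)) ((2 : Fin 3).succAbove i) x - a‖ₑ ^ p =
      ENNReal.ofReal (2 * r) * ∫⁻ y in ball (0 : Fin 2 → ℝ) r, ‖Dp (sl3 g c) i y - a‖ₑ ^ p := by
  rw [Qr_eq hr, lint_Dc, prj_e3]
  have h1 : ∀ y, Dp (fun z => g (e3.symm (prj c 2 z))) ((2 : Fin 3).succAbove i) y =
      Dp (sl3 g c) i ((2 : Fin 3).removeNth y) := fun y =>
    Dp_prj_eq (fun z => g (e3.symm z)) c 2 i y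
  simp only [h1]
  exact lint_slice (2 : Fin 3) (measurable_Dp (sl3 g c) i a p) hr

/-- **NOL**: the output of the machine on the cube, with layers.  `E` small multiple of `e`. -/
def NOL (p : ℝ) : Prop :=
  ∀ s : Fin 3 → ℝ, (∀ i, 0 ≤ s i) → s 2 = 0 → ∀ e : ℝ, 0 < e →
    ∃ η : ℝ, 0 < η ∧ η ≤ 1 / 8 ∧ ∃ d : ℝ, 0 < d ∧
    ∀ (U W : Set R3) (f : R3 → R3) (G : Fin 3 → R3 → R3),
      IsOpen U → Bornology.IsBounded U → IsConnected U →
      IsOpen W → Bornology.IsBounded W → IsConnected W → Qc0 ⊆ U →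
      SH p U W f G →
      ∫⁻ x in Q0, ∑ j : Fin 3, ‖G j x - dg s j‖ₑ ^ p ≤ ENNReal.ofReal d →
      volume (Q0 \ Zd G) ≤ ENNReal.ofReal d →
      ∃ g : R3 → R3, IsHomeomorphOn g Q0 (f '' Q0) ∧ LocPL g Q0 ∧
        (∀ z ∈ frontier Q0, Tendsto (fun x => g x - f x) (𝓝[Q0] z) (𝓝 0)) ∧
        -- the shell terms
        (∀ i : Fin 3, i ≠ 2 → (∫⁻ x in Sh3 η, ‖Dc g i x‖ₑ ^ p) +
          ENNReal.ofReal (η / 2) * (∫⁻ x in Q0, ‖Dc g i x‖ₑ ^ p) +
          ‖dg s i‖ₑ ^ p * volume (Sh3 η) ≤ ENNReal.ofReal e) ∧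
        -- the long direction
        ENNReal.ofReal (3 / η) ^ p * (∫⁻ x in Q0, ‖Dc g 2 x‖ₑ ^ p) ≤ ENNReal.ofReal e ∧
        -- the layers
        ∃ (N : ℕ) (z : Fin N → ℝ), 0 < N ∧ (∀ k, |z k| ≤ 1 / 2) ∧
          ∑ k, ∑ i : Fin 2, (∫⁻ y in ball (0 : Fin 2 → ℝ) (1 - η),
            ‖Dp (sl3 g (z k)) i y - dg s ((2 : Fin 3).succAbove i)‖ₑ ^ p) ≤
            N * ENNReal.ofReal e

theorem no0_of_nol {p : ℝ} (hp : 0 < p) (h : NOL p) : NO0 p := by
  intro s hs hs2 e he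
  -- the constant
  set C : ℝ≥0∞ := 3 * 3 ^ p with hC
  have hCtop : C ≠ ⊤ := ENNReal.mul_ne_top (by norm_num)
    (ENNReal.rpow_ne_top_of_nonneg hp.le (by norm_num))
  obtain ⟨e', he', hee⟩ : ∃ e' : ℝ, 0 < e' ∧
      C * ((2 + 4 * 3 ^ p) + (2 + 4 * 3 ^ p) + 2) * ENNReal.ofReal e' + ENNReal.ofReal (e / 2) ≤
        ENNReal.ofReal e := by
    set K : ℝ≥0∞ := C * ((2 + 4 * 3 ^ p) + (2 + 4 * 3 ^ p) + 2) with hK
    have h3p : (3 : ℝ≥0∞) ^ p ≠ ⊤ := ENNReal.rpow_ne_top_of_nonneg hp.le (by norm_num)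
    have h4 : (2 + 4 * 3 ^ p : ℝ≥0∞) ≠ ⊤ :=
      ENNReal.add_ne_top.2 ⟨by norm_num, ENNReal.mul_ne_top (by norm_num) h3p⟩
    have hKtop : K ≠ ⊤ := ENNReal.mul_ne_top hCtop
      (ENNReal.add_ne_top.2 ⟨ENNReal.add_ne_top.2 ⟨h4, h4⟩, by norm_num⟩)
    refine ⟨e / 2 / (K.toReal + 1), by positivity, ?_⟩
    have h5 : K * ENNReal.ofReal (e / 2 / (K.toReal + 1)) ≤ ENNReal.ofReal (e / 2) := by
      rw [← ENNReal.ofReal_toReal hKtop, ← ENNReal.ofReal_mul ENNReal.toReal_nonneg]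
      apply ENNReal.ofReal_le_ofReal
      rw [ENNReal.toReal_ofReal ENNReal.toReal_nonneg]
      have h6 : 0 ≤ K.toReal := ENNReal.toReal_nonneg
      rw [mul_div_assoc']
      rw [div_le_iff₀ (by linarith)]
      nlinarith
    calc K * ENNReal.ofReal (e / 2 / (K.toReal + 1)) + ENNReal.ofReal (e / 2)
        ≤ ENNReal.ofReal (e / 2) + ENNReal.ofReal (e / 2) := add_le_add h5 le_rfl
      _ = ENNReal.ofReal e := by
        rw [← ENNReal.ofReal_add (by positivity) (by positivity)]; congr 1; ring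
  obtain ⟨η, hη, hη', d, hd, H⟩ := h s hs hs2 e' he'
  refine ⟨d, hd, ?_⟩
  intro U W f G hU1 hU2 hU3 hW1 hW2 hW3 hQ hSH hG hvol
  obtain ⟨g, g1, g2, g3, g4, g5, N, z, hN, hz, hsum⟩ :=
    H U W f G hU1 hU2 hU3 hW1 hW2 hW3 hQ hSH hG hvol
  -- choose the layer
  obtain ⟨k, hk⟩ : ∃ k, ∑ i : Fin 2, (∫⁻ y in ball (0 : Fin 2 → ℝ) (1 - η),
            ‖Dp (sl3 g (z k)) i y - dg s ((2 : Fin 3).succAbove i)‖ₑ ^ p) ≤
            ENNReal.ofReal e' := by
    by_contra hcon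
    push Not at hcon
    have : Nonempty (Fin N) := ⟨⟨0, hN⟩⟩
    have h6 : ∑ _k : Fin N, ENNReal.ofReal e' < ∑ k, ∑ i : Fin 2,
        (∫⁻ y in ball (0 : Fin 2 → ℝ) (1 - η),
            ‖Dp (sl3 g (z k)) i y - dg s ((2 : Fin 3).succAbove i)‖ₑ ^ p) :=
      ENNReal.sum_lt_sum_of_nonempty Finset.univ_nonempty fun k _ => hcon k
    rw [Finset.sum_const, Finset.card_univ, Fintype.card_fin, nsmul_eq_mul] at h6
    exact absurd hsum (not_le.2 h6)
  obtain ⟨g', q1, q2, q3, q4⟩ := squeeze_R3 g1 g2 hη hη' (hz k) hp hs2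
    (ε := ENNReal.ofReal (e / 2)) (by rw [ENNReal.ofReal_pos]; positivity)
  refine ⟨g', q1, q2, ?_, ?_⟩
  · intro x hx
    refine (g3 x hx).congr' ?_
    have hxf : ∃ i, 1 - η < |x i| := by
      by_contra hcon
      push Not at hcon
      have h7 : x ∈ interior Q0 := by
        have hop : IsOpen Q0 := by
          rw [Q0_eq]; exact isOpen_ball.preimage e3.continuous
        rw [hop.interior_eq]
        intro i
        have := hcon i
        linarith
      exact hx.2 h7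
    obtain ⟨i, hi⟩ := hxf
    have h8 : ∀ᶠ y in 𝓝 x, 1 - η < |y i| := by
      have h9 : Continuous fun y : R3 => |y i| := by fun_prop
      exact h9.continuousAt.eventually_const_lt hi
    filter_upwards [nhdsWithin_le_nhds h8] with y hy
    rw [q3 y ⟨i, hy.le⟩]
  · refine q4.trans (le_trans ?_ hee)
    refine add_le_add ?_ le_rfl
    rw [mul_assoc C]
    refine mul_le_mul_right ?_ C
    have hηp : (0 : ℝ) < 1 - η := by linarith
    have hsl : ∀ i : Fin 2, (∫⁻ x in Qr (1 - η),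
        ‖Dc (fun y => g (prj3 (z k) y)) ((2 : Fin 3).succAbove i) x -
          dg s ((2 : Fin 3).succAbove i)‖ₑ ^ p) ≤ 2 * ENNReal.ofReal e' := by
      intro i
      rw [lint_Dc_prj g (z k) i p _ hηp]
      have h10 : ENNReal.ofReal (2 * (1 - η)) ≤ 2 := by
        rw [← ENNReal.ofReal_ofNat]
        exact ENNReal.ofReal_le_ofReal (by linarith)
      refine mul_le_mul' h10 (le_trans ?_ hk)
      exact Finset.single_le_sum (f := fun i : Fin 2 => ∫⁻ y in ball (0 : Fin 2 → ℝ) (1 - η),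
            ‖Dp (sl3 g (z k)) i y - dg s ((2 : Fin 3).succAbove i)‖ₑ ^ p)
        (fun _ _ => zero_le) (Finset.mem_univ i)
    have hs0 := hsl 0
    have hs1 := hsl 1
    have e0 : (2 : Fin 3).succAbove (0 : Fin 2) = 0 := by decide
    have e1 : (2 : Fin 3).succAbove (1 : Fin 2) = 1 := by decide
    rw [e0] at hs0
    rw [e1] at hs1
    have hη3 : ENNReal.ofReal (2 / η) ≤ ENNReal.ofReal (3 / η) :=
      ENNReal.ofReal_le_ofReal (by gcongr; norm_num)
    have hsh : ∀ i : Fin 3, i ≠ 2 → shellTerm3 g η p i s ≤ 3 ^ p * (3 * ENNReal.ofReal e') := by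
      intro i hi
      unfold shellTerm3
      refine mul_le_mul_right ?_ _
      have h11 := g4 i hi
      have h12 : ENNReal.ofReal (2 / η) ^ p * (2 * ∫⁻ x in Q0, ‖Dc g 2 x‖ₑ ^ p) ≤
          2 * ENNReal.ofReal e' := by
        calc ENNReal.ofReal (2 / η) ^ p * (2 * ∫⁻ x in Q0, ‖Dc g 2 x‖ₑ ^ p)
            ≤ ENNReal.ofReal (3 / η) ^ p * (2 * ∫⁻ x in Q0, ‖Dc g 2 x‖ₑ ^ p) :=
              mul_le_mul_left (ENNReal.rpow_le_rpow hη3 hp.le) _
          _ = 2 * (ENNReal.ofReal (3 / η) ^ p * ∫⁻ x in Q0, ‖Dc g 2 x‖ₑ ^ p) := by ring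
          _ ≤ 2 * ENNReal.ofReal e' := mul_le_mul_right g5 _
      calc _ = ((∫⁻ x in Sh3 η, ‖Dc g i x‖ₑ ^ p) +
          ENNReal.ofReal (η / 2) * (∫⁻ x in Q0, ‖Dc g i x‖ₑ ^ p) +
          ‖dg s i‖ₑ ^ p * volume (Sh3 η)) +
          ENNReal.ofReal (2 / η) ^ p * (2 * ∫⁻ x in Q0, ‖Dc g 2 x‖ₑ ^ p) := by ring
        _ ≤ ENNReal.ofReal e' + 2 * ENNReal.ofReal e' := add_le_add h11 h12
        _ = 3 * ENNReal.ofReal e' := by ring
    have h13 : ENNReal.ofReal (3 / η) ^ p * (2 * ∫⁻ x in Q0, ‖Dc g 2 x‖ₑ ^ p) ≤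
        2 * ENNReal.ofReal e' := by
      calc _ = 2 * (ENNReal.ofReal (3 / η) ^ p * ∫⁻ x in Q0, ‖Dc g 2 x‖ₑ ^ p) := by ring
        _ ≤ 2 * ENNReal.ofReal e' := mul_le_mul_right g5 _
    have h14 : (3 : ℝ≥0∞) ^ p * (3 * ENNReal.ofReal e') ≤ 4 * 3 ^ p * ENNReal.ofReal e' := by
      calc (3 : ℝ≥0∞) ^ p * (3 * ENNReal.ofReal e') ≤ 3 ^ p * (4 * ENNReal.ofReal e') := by
            gcongr; norm_num
        _ = 4 * 3 ^ p * ENNReal.ofReal e' := by ring
    calc _ ≤ ((2 * ENNReal.ofReal e' + 4 * 3 ^ p * ENNReal.ofReal e') +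
          (2 * ENNReal.ofReal e' + 4 * 3 ^ p * ENNReal.ofReal e') + 2 * ENNReal.ofReal e') :=
          add_le_add (add_le_add (add_le_add hs0 ((hsh 0 (by decide)).trans h14))
            (add_le_add hs1 ((hsh 1 (by decide)).trans h14))) h13
      _ = ((2 + 4 * 3 ^ p) + (2 + 4 * 3 ^ p) + 2) * ENNReal.ofReal e' := by ring

end

end Crest.Agent.R096.Sq_477
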