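import Crest.Agent.R096.Nbr1_896

/-!
# Row 96, p ≤ 2 (helper896), leaf NBR, part 2: outer pieces and cubes at the walls
-/

set_option autoImplicit false
set_option linter.unusedSectionVars false

open Set Metric Topology Filter

namespace Crest.Agent.R096.Nbr_896

open Crest.Agent.R096.Msh_715 Crest.Agent.R096.Msh_715.Tiling Crest.Agent.R096.Mal_874
open Crest.Agent.R096.Msh_810 Crest.Agent.R096.Cut_874 Crest.Agent.R096.Msb_432

variable {n : ℕ} {E : Type*} [NormedAddCommGroup E] [NormedSpace ℝ E]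
variable [NeZero n] {J : Type*} (M : MD E n J) {k : J → ℕ} (hk : M.Sc k) (a : Fin n → ℝ)
  {v : J → E} (hv : M.Adm v)

include hv in
/-- a tile of the outer mesh at a wall has the scale of the wall -/
theorem zone_par {j : J} {y : E} (hy : y ∈ frontier (M.Bk v j).N) {τ : Top (M.ad hk a hv).D}
    (hτ : y ∈ P ((M.ad hk a hv).T0.H τ)) : τ.1.1.k = k j := by
  have hp : (0 : ℝ) < 5 / 2 ^ k j := by positivity
  refine AD.zone_k (M := M.ad hk a hv) (j := j) ?_ hτ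
  show infDist (M.φ y) (M.W j) < 5 / 2 ^ k j
  rw [infDist_zero_of_mem (MD.wall_mem hv j hy)]
  exact hp

/-- a tile of the outer mesh meets at most one wall -/
theorem zone_one {j l : J} {y : E} (hy : y ∈ frontier (M.Bk v j).N) {τ : Top (M.ad hk a hv).D}
    (hτ : y ∈ P ((M.ad hk a hv).T0.H τ))
    (hl : (P ((M.ad hk a hv).T0.H τ) ∩ frontier (M.Bk v l).N).Nonempty) : l = j := by
  have hp : (0 : ℝ) ≤ 3 / 2 ^ k j := by positivity
  refine AD.zone_wall (M := M.ad hk a hv) hτ ?_ hl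
  show infDist (M.φ y) (M.W j) ≤ 3 / 2 ^ k j
  rw [infDist_zero_of_mem (MD.wall_mem hv j hy)]
  exact hp

/-- the number of planes which cut a tile -/
theorem AF_card {c1 : ℕ} (hc1 : ∀ j, Cn (M.Q j).ψ M.φ c1) (τ : Top (M.ad hk a hv).D) :
    (AF (M.ad hk a hv).T0 (M.ad hk a hv).ψ (M.ad hk a hv).a' (M.ad hk a hv).κ
      (M.ad hk a hv).Z τ).card ≤ n * (2 * c1 + 2) := by
  classical
  by_cases hne : (AF (M.ad hk a hv).T0 (M.ad hk a hv).ψ (M.ad hk a hv).a' (M.ad hk a hv).κ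
      (M.ad hk a hv).Z τ).Nonempty
  swap
  · rw [Finset.not_nonempty_iff_eq_empty] at hne
    rw [hne, Finset.card_empty]
    exact Nat.zero_le _
  obtain ⟨h0, hh0⟩ := hne
  obtain ⟨j, ⟨y0, hy0, hy0f⟩, -⟩ := of_mem_AF hh0
  have hy0f' : y0 ∈ frontier (M.Bk v j).N := hy0f
  have hkj : τ.1.1.k = k j := zone_par M hk a hv hy0f' hy0
  set Q := M.Bk v j with hQ
  set pm : Fin n → ℝ := fun m => ps Q.a' Q.kc (Q.ψ y0) m with hpm
  set S : Finset (Σ _ : Fin n, ℤ) :=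
    Finset.univ.sigma (fun m : Fin n => Finset.Icc (⌊pm m⌋ - c1) (⌊pm m⌋ + c1 + 1)) with hS
  have hsub : AF (M.ad hk a hv).T0 (M.ad hk a hv).ψ (M.ad hk a hv).a' (M.ad hk a hv).κ
      (M.ad hk a hv).Z τ ⊆ S.image (fun q : (Σ _ : Fin n, ℤ) =>
        ((co Q.ψ q.1, Q.a' q.1 + (q.2 : ℝ) / 2 ^ Q.kc) : (E →L[ℝ] ℝ) × ℝ)) := by
    intro h hh
    obtain ⟨l, ⟨y1, hy1, hy1f⟩, m, t, rfl, y, hy, e⟩ := of_mem_AF hh
    have hlj : l = j := zone_one M hk a hv hy0f' hy0 ⟨y1, hy1, hy1f⟩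
    subst hlj
    refine Finset.mem_image.2 ⟨⟨m, t⟩, ?_, rfl⟩
    rw [hS, Finset.mem_sigma]
    refine ⟨Finset.mem_univ _, ?_⟩
    have e' : ps Q.a' Q.kc (Q.ψ y) m = t := by
      have e2 : Q.ψ y m = Q.a' m + t / 2 ^ Q.kc := e
      unfold ps
      rw [e2]
      field_simp
      ring
    have h1 : |ps Q.a' Q.kc (Q.ψ y) m - ps Q.a' Q.kc (Q.ψ y0) m| ≤
        2 ^ Q.kc * dist (Q.ψ y) (Q.ψ y0) := ps_dist m
    have h2 : dist (Q.ψ y) (Q.ψ y0) ≤ c1 * dist (M.φ y) (M.φ y0) := hc1 l y y0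
    have h3 : dist (M.φ y) (M.φ y0) ≤ 1 / 2 ^ k l := by
      have h4 := dist_cube ((AD.tile_T0 (M := M.ad hk a hv) τ).1 hy)
        ((AD.tile_T0 (M := M.ad hk a hv) τ).1 hy0)
      rwa [hkj] at h4
    have h5 : (1 : ℝ) / 2 ^ k l ≤ 1 / 2 ^ Q.kc :=
      one_div_le_one_div_of_le (by positivity) (pow_le_pow_right₀ (by norm_num) (hk.kc l))
    have h6 : 2 ^ Q.kc * dist (Q.ψ y) (Q.ψ y0) ≤ c1 := by
      calc (2 : ℝ) ^ Q.kc * dist (Q.ψ y) (Q.ψ y0) ≤ 2 ^ Q.kc * (c1 * (1 / 2 ^ Q.kc)) := by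
            refine mul_le_mul_of_nonneg_left (h2.trans ?_) (by positivity)
            exact mul_le_mul_of_nonneg_left (h3.trans h5) (Nat.cast_nonneg _)
        _ = c1 := by field_simp
    rw [e'] at h1
    have h7 := abs_le.1 (h1.trans h6)
    have h8 := Int.floor_le (pm m)
    have h9 := Int.lt_floor_add_one (pm m)
    have h10 : pm m = ps Q.a' Q.kc (Q.ψ y0) m := rfl
    rw [← h10] at h7
    rw [Finset.mem_Icc]
    constructor
    · have : ((⌊pm m⌋ - c1 : ℤ) : ℝ) ≤ t := by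
        push_cast
        linarith [h7.1]
      exact_mod_cast this
    · have : (t : ℝ) ≤ ((⌊pm m⌋ + c1 + 1 : ℤ) : ℝ) := by
        push_cast
        linarith [h7.2]
      exact_mod_cast this
  refine (Finset.card_le_card hsub).trans (Finset.card_image_le.trans ?_)
  rw [hS, Finset.card_sigma]
  have h2 : ∀ m : Fin n, (Finset.Icc (⌊pm m⌋ - c1) (⌊pm m⌋ + c1 + 1)).card = 2 * c1 + 2 := by
    intro m
    rw [Int.card_Icc]
    omega
  rw [Finset.sum_congr rfl fun m _ => h2 m, Finset.sum_const, Finset.card_univ, Fintype.card_fin,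
    smul_eq_mul]

/-- outer pieces near `x` of scale about `κ` -/
def OS (x : E) (κ r : ℕ) : Set (M.OIx hk a hv) :=
  {q | κ ≤ q.1.par.1.1.k + 1 ∧ q.1.par.1.1.k ≤ κ + 1 ∧
    ∃ y ∈ P ((M.mesh hk a hv).H (Sum.inl q)), dist (M.φ y) (M.φ x) ≤ r / 2 ^ κ}

/-- bound for the number of outer pieces -/
def nO (n c1 r : ℕ) : ℕ := 3 * (4 * r + 3) ^ n * 2 ^ (n * (2 * c1 + 2))

theorem OS_card {c1 : ℕ} (hc1 : ∀ j, Cn (M.Q j).ψ M.φ c1) (x : E) (κ r : ℕ) :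
    (OS M hk a hv x κ r).Finite ∧ (OS M hk a hv x κ r).ncard ≤ nO n c1 r := by
  obtain ⟨h1, h2⟩ := tile_card (M.ad hk a hv).D (M.φ x) κ r
  set S := {τ : Top (M.ad hk a hv).D | κ ≤ τ.1.1.k + 1 ∧ τ.1.1.k ≤ κ + 1 ∧
      ∃ y ∈ Cu (M.ad hk a hv).D.a τ.1.1.k τ.1.1.z, dist y (M.φ x) ≤ r / 2 ^ κ} with hS
  have hfin : (⋃ τ ∈ S, {p : CutIx (M.ad hk a hv).T0 (AF (M.ad hk a hv).T0 (M.ad hk a hv).ψ
      (M.ad hk a hv).a' (M.ad hk a hv).κ (M.ad hk a hv).Z) | p.par = τ}).Finite :=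
    h1.biUnion fun τ _ => (pieces_card τ).1
  have hmaps : ∀ q ∈ OS M hk a hv x κ r, q.1 ∈ (⋃ τ ∈ S, {p : CutIx (M.ad hk a hv).T0
      (AF (M.ad hk a hv).T0 (M.ad hk a hv).ψ (M.ad hk a hv).a' (M.ad hk a hv).κ
        (M.ad hk a hv).Z) | p.par = τ}) := by
    rintro q ⟨hq1, hq2, y, hy, hyx⟩
    refine mem_iUnion₂.2 ⟨q.1.par, ⟨hq1, hq2, M.φ y, ?_, hyx⟩, rfl⟩
    exact (AD.tile_T0 (M := M.ad hk a hv) _).1 (cut_tile_sub (hA := AF_ne) q.1 hy)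
  have hinj : InjOn (fun q : M.OIx hk a hv => q.1) (OS M hk a hv x κ r) :=
    Subtype.val_injective.injOn
  refine ⟨Set.Finite.of_injOn (fun q hq => hmaps q hq) hinj hfin, ?_⟩
  refine (Set.ncard_le_ncard_of_injOn _ hmaps hinj hfin).trans ?_
  refine (Ca_855.Regs.ncard_biUnion_le h1 (n := 2 ^ (n * (2 * c1 + 2))) fun τ _ => ?_).trans
    (Nat.mul_le_mul_right _ h2)
  exact (pieces_card τ).2.trans (Nat.pow_le_pow_right (by norm_num) (AF_card M hk a hv hc1 τ))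

/-- inner cubes of the scale of the wall near `x` -/
def IS (j : J) (x : E) (r : ℕ) : Set (M.IIx hk a hv j) :=
  {i | ∃ τ, i.1 = Sum.inl τ ∧ τ.1.1.1.k = k j ∧
    ∃ y ∈ P ((M.mesh hk a hv).H (Sum.inr ⟨j, i⟩)), dist ((M.Q j).ψ y) ((M.Q j).ψ x) ≤ r / 2 ^ k j}

/-- bound for the number of inner cubes -/
def nI (n r : ℕ) : ℕ := 3 * (4 * r + 3) ^ n

theorem IS_card (j : J) (x : E) (r : ℕ) :
    (IS M hk a hv j x r).Finite ∧ (IS M hk a hv j x r).ncard ≤ nI n r := by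
  obtain ⟨h1, h2⟩ := tile_card ((M.Bk v j).D (k j) (hk.kc j)) ((M.Q j).ψ x) (k j) r
  set S := {τ : Top ((M.Bk v j).D (k j) (hk.kc j)) | k j ≤ τ.1.1.k + 1 ∧ τ.1.1.k ≤ k j + 1 ∧
      ∃ y ∈ Cu ((M.Bk v j).D (k j) (hk.kc j)).a τ.1.1.k τ.1.1.z,
        dist y ((M.Q j).ψ x) ≤ r / 2 ^ k j} with hS
  have key : ∀ i ∈ IS M hk a hv j x r, ∃ σ ∈ S, ∃ h, i.1 = Sum.inl ⟨σ, h⟩ := by
    rintro i ⟨τ, hτ, hτk, y, hy, hyx⟩
    refine ⟨τ.1, ⟨by omega, by omega, (M.Q j).ψ y, ?_, hyx⟩, τ.2, hτ⟩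
    have hy' : y ∈ P ((M.S hk (v := v) j).H i.1) := hy
    rw [hτ] at hy'
    exact ((M.Bk v j).tile_T0 (k j) (hk.kc j)).1 hy'
  classical
  let g : M.IIx hk a hv j → Top ((M.Bk v j).D (k j) (hk.kc j)) ⊕ Unit := fun i =>
    if h : i ∈ IS M hk a hv j x r then Sum.inl (key i h).choose else Sum.inr ()
  have hg : ∀ i (h : i ∈ IS M hk a hv j x r), g i = Sum.inl (key i h).choose := fun i h => dif_pos h
  have hmaps : ∀ i ∈ IS M hk a hv j x r, g i ∈ Sum.inl '' S := by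
    intro i hi
    rw [hg i hi]
    exact mem_image_of_mem _ (key i hi).choose_spec.1
  have hinj : InjOn g (IS M hk a hv j x r) := by
    intro i hi i' hi' e
    rw [hg i hi, hg i' hi'] at e
    have e' := Sum.inl.inj e
    obtain ⟨h3, h4⟩ := (key i hi).choose_spec.2
    obtain ⟨h5, h6⟩ := (key i' hi').choose_spec.2
    apply Subtype.ext
    rw [h4, h6]
    congr 1
    exact Subtype.ext e'
  have hfin : ((Sum.inl '' S : Set (Top ((M.Bk v j).D (k j) (hk.kc j)) ⊕ Unit))).Finite :=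
    h1.image _
  refine ⟨Set.Finite.of_injOn (fun i hi => hmaps i hi) hinj hfin, ?_⟩
  refine (Set.ncard_le_ncard_of_injOn _ hmaps hinj hfin).trans ?_
  rw [Set.ncard_image_of_injective _ Sum.inl_injective]
  exact h2

end Crest.Agent.R096.Nbr_896
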