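import Crest.Agent.R096.Nbr2_896

/-!
# Row 96, p ≤ 2 (helper896), leaf NBR, part 3: the number of tiles which touch a tile of `meshS`
-/

set_option autoImplicit false
set_option linter.unusedSectionVars false

open Set Metric Topology Filter

namespace Crest.Agent.R096.Nbr_896

open Crest.Agent.R096.Msh_715 Crest.Agent.R096.Msh_715.Tiling Crest.Agent.R096.Mal_874
open Crest.Agent.R096.Msh_810 Crest.Agent.R096.Cut_874 Crest.Agent.R096.Msb_432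
open Crest.Agent.R096.Gsm_432 (star)

section

variable {n : ℕ} {E : Type*} [NormedAddCommGroup E] [NormedSpace ℝ E]
variable [NeZero n] {J : Type*} (M : MD E n J) {k : J → ℕ} (hk : M.Sc k) (a : Fin n → ℝ)
  {v : J → E} (hv : M.Adm v)

/-- a bound for the star of a tile which touches no unit cube of a core -/
theorem star_le {t : {t // t ∉ cores M hk a hv} ⊕ CIx M}
    {A0 : Set (M.OIx hk a hv ⊕ Σ j, M.IIx hk a hv j)} (hA : A0.Finite)
    (h : ∀ s ∈ star (meshS M hk a hv) t, ∃ s0 : {t // t ∉ cores M hk a hv},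
      s = Sum.inl s0 ∧ s0.1 ∈ A0) : (star (meshS M hk a hv) t).ncard ≤ A0.ncard := by
  classical
  let f : {t // t ∉ cores M hk a hv} ⊕ CIx M → Option (M.OIx hk a hv ⊕ Σ j, M.IIx hk a hv j) :=
    Sum.elim (fun s0 => some s0.1) (fun _ => none)
  have hmaps : ∀ s ∈ star (meshS M hk a hv) t, f s ∈ some '' A0 := by
    intro s hs
    obtain ⟨s0, rfl, hs0⟩ := h s hs
    exact ⟨s0.1, hs0, rfl⟩
  have hinj : InjOn f (star (meshS M hk a hv) t) := by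
    intro s hs s' hs' e
    obtain ⟨s0, rfl, -⟩ := h s hs
    obtain ⟨s0', rfl, -⟩ := h s' hs'
    have e' : some s0.1 = some s0'.1 := e
    rw [Subtype.ext (Option.some.inj e')]
  have h1 := Set.ncard_le_ncard_of_injOn f hmaps hinj (hA.image _)
  rwa [Set.ncard_image_of_injective _ (Option.some_injective _)] at h1

/-- **outer tiles** -/
theorem star_outer {c1 : ℕ} (hc1 : ∀ j, Cn (M.Q j).ψ M.φ c1) (p : M.OIx hk a hv)
    (ht : Sum.inl p ∉ cores M hk a hv) :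
    (star (meshS M hk a hv) (Sum.inl ⟨Sum.inl p, ht⟩)).ncard ≤ nO n c1 1 + nI n c1 := by
  obtain ⟨x, hx⟩ := (M.mesh hk a hv).ne (Sum.inl p)
  have hxP : x ∈ P ((M.mesh hk a hv).H (Sum.inl p)) := I_sub_P _ hx
  have hsub : ∀ q : M.OIx hk a hv, P ((M.mesh hk a hv).H (Sum.inl q)) ⊆
      P ((M.ad hk a hv).T0.H q.1.par) := fun q => cut_tile_sub (hA := AF_ne) q.1
  have hdist : ∀ y ∈ P ((M.mesh hk a hv).H (Sum.inl p)),
      dist (M.φ y) (M.φ x) ≤ 1 / 2 ^ p.1.par.1.1.k := fun y hy =>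
    dist_cube ((AD.tile_T0 (M := M.ad hk a hv) _).1 (hsub p hy))
      ((AD.tile_T0 (M := M.ad hk a hv) _).1 (hsub p hxP))
  have hout : ∀ q : M.OIx hk a hv, (P ((M.mesh hk a hv).H (Sum.inl q)) ∩
      P ((M.mesh hk a hv).H (Sum.inl p))).Nonempty → q ∈ OS M hk a hv x p.1.par.1.1.k 1 := by
    rintro q ⟨y, hyq, hyp⟩
    have h1 : q.1.par ∈ (tiling M.φ (outD M.D0 k M.W a)).at_ y := hsub q hyq
    have h2 : p.1.par ∈ (tiling M.φ (outD M.D0 k M.W a)).at_ y := hsub p hyp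
    refine ⟨(tile_k_le h2).trans (K_le_succ (mem_at.1 h1)),
      (tile_k_le h1).trans (K_le_succ (mem_at.1 h2)), y, hyq, ?_⟩
    rw [Nat.cast_one]
    exact hdist y hyp
  by_cases hin : ∃ (l : J) (i : M.IIx hk a hv l) (y : E),
      y ∈ P ((M.mesh hk a hv).H (Sum.inr ⟨l, i⟩)) ∧ y ∈ P ((M.mesh hk a hv).H (Sum.inl p))
  · obtain ⟨l, i0, y0, hy0i, hy0p⟩ := hin
    have hf0 : y0 ∈ frontier (M.Bk v l).N := M.outer_touch hk a hv p hy0p (i0.2 hy0i)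
    have hkl : p.1.par.1.1.k = k l := zone_par M hk a hv hf0 (hsub p hy0p)
    obtain ⟨f1, g1⟩ := OS_card M hk a hv hc1 x p.1.par.1.1.k 1
    obtain ⟨f2, g2⟩ := IS_card M hk a hv l x c1
    refine (star_le M hk a hv (A0 := Sum.inl '' OS M hk a hv x p.1.par.1.1.k 1 ∪
      (fun i => Sum.inr ⟨l, i⟩) '' IS M hk a hv l x c1) ((f1.image _).union (f2.image _)) ?_).trans
      ((Set.ncard_union_le _ _).trans (add_le_add ?_ ?_))
    · rintro (⟨q | ⟨l', i⟩, hq⟩ | c) hs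
      · exact ⟨_, rfl, Or.inl ⟨q, hout q hs, rfl⟩⟩
      · obtain ⟨y, hyi, hyp⟩ := hs
        have hyi' : y ∈ P ((M.mesh hk a hv).H (Sum.inr ⟨l', i⟩)) := hyi
        have hyp' : y ∈ P ((M.mesh hk a hv).H (Sum.inl p)) := hyp
        have hf : y ∈ frontier (M.Bk v l').N := M.outer_touch hk a hv p hyp' (i.2 hyi')
        obtain rfl : l' = l := zone_one M hk a hv hf0 (hsub p hy0p) ⟨y, hsub p hyp', hf⟩
        refine ⟨_, rfl, Or.inr ⟨i, ?_, rfl⟩⟩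
        obtain ⟨τ, hτ, hτk⟩ := (M.Bk v l').wall_tile (k l') (hk.kc l') (t := i.1) (s := i.1)
          ⟨y, hyi', hf⟩ ⟨y, hyi', hyi'⟩
        refine ⟨τ, hτ, hτk, y, hyi', ?_⟩
        refine (hc1 l' y x).trans ?_
        have h3 := hdist y hyp'
        rw [hkl] at h3
        calc (c1 : ℝ) * dist (M.φ y) (M.φ x) ≤ c1 * (1 / 2 ^ k l') :=
              mul_le_mul_of_nonneg_left h3 (Nat.cast_nonneg _)
          _ = c1 / 2 ^ k l' := by ring
      · refine absurd (show (P (cubH M v c) ∩ P ((M.mesh hk a hv).H (Sum.inl p))).Nonempty from hs)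
          (outer_off M hk a hv p c)
    · exact (Set.ncard_image_le f1).trans g1
    · exact (Set.ncard_image_le f2).trans g2
  · obtain ⟨f1, g1⟩ := OS_card M hk a hv hc1 x p.1.par.1.1.k 1
    refine (star_le M hk a hv (A0 := Sum.inl '' OS M hk a hv x p.1.par.1.1.k 1)
      (f1.image _) ?_).trans (((Set.ncard_image_le f1).trans g1).trans (Nat.le_add_right _ _))
    rintro (⟨q | ⟨l', i⟩, hq⟩ | c) hs
    · exact ⟨_, rfl, ⟨q, hout q hs, rfl⟩⟩
    · obtain ⟨y, hyi, hyp⟩ := hs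
      exact absurd ⟨l', i, y, hyi, hyp⟩ hin
    · refine absurd (show (P (cubH M v c) ∩ P ((M.mesh hk a hv).H (Sum.inl p))).Nonempty from hs)
        (outer_off M hk a hv p c)

/-- **inner tiles at the wall** -/
theorem star_wall {c0 c1 : ℕ} (hc0 : ∀ j, Cn M.φ (M.Q j).ψ c0) (hc1 : ∀ j, Cn (M.Q j).ψ M.φ c1)
    {j : J} (i : M.IIx hk a hv j) (ht : Sum.inr ⟨j, i⟩ ∉ cores M hk a hv)
    (hw : (P ((M.mesh hk a hv).H (Sum.inr ⟨j, i⟩)) ∩ frontier (M.Bk v j).N).Nonempty) :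
    (star (meshS M hk a hv) (Sum.inl ⟨Sum.inr ⟨j, i⟩, ht⟩)).ncard ≤ nO n c1 c0 + nI n 1 := by
  have hw' : (P (((M.Bk v j).T (k j) (hk.kc j)).H i.1) ∩ frontier (M.Bk v j).N).Nonempty := hw
  obtain ⟨x, hx, hxf⟩ := id hw
  have hx' : x ∈ P (((M.Bk v j).T (k j) (hk.kc j)).H i.1) := hx
  obtain ⟨σ, hσ, hσk⟩ := (M.Bk v j).wall_tile (k j) (hk.kc j) (t := i.1) (s := i.1)
    hw' ⟨x, hx', hx'⟩
  have hdist : ∀ y ∈ P ((M.mesh hk a hv).H (Sum.inr ⟨j, i⟩)),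
      dist ((M.Q j).ψ y) ((M.Q j).ψ x) ≤ 1 / 2 ^ k j := by
    intro y hy
    have hy' : y ∈ P (((M.Bk v j).T (k j) (hk.kc j)).H i.1) := hy
    rw [hσ] at hy' hx'
    have h1 := dist_cube (((M.Bk v j).tile_T0 (k j) (hk.kc j)).1 hy')
      (((M.Bk v j).tile_T0 (k j) (hk.kc j)).1 hx')
    rwa [hσk] at h1
  obtain ⟨f1, g1⟩ := OS_card M hk a hv hc1 x (k j) c0
  obtain ⟨f2, g2⟩ := IS_card M hk a hv j x 1
  refine (star_le M hk a hv (A0 := Sum.inl '' OS M hk a hv x (k j) c0 ∪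
    (fun i => Sum.inr ⟨j, i⟩) '' IS M hk a hv j x 1) ((f1.image _).union (f2.image _)) ?_).trans
    ((Set.ncard_union_le _ _).trans (add_le_add ?_ ?_))
  · rintro (⟨q | ⟨l, i'⟩, hq⟩ | c) hs
    · obtain ⟨y, hyq, hyi⟩ := hs
      have hyq' : y ∈ P ((M.mesh hk a hv).H (Sum.inl q)) := hyq
      have hyi' : y ∈ P ((M.mesh hk a hv).H (Sum.inr ⟨j, i⟩)) := hyi
      have hf : y ∈ frontier (M.Bk v j).N := M.outer_touch hk a hv q hyq' (i.2 hyi')
      have hqk : q.1.par.1.1.k = k j :=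
        zone_par M hk a hv hf (cut_tile_sub (hA := AF_ne) q.1 hyq')
      refine ⟨_, rfl, Or.inl ⟨q, ⟨by omega, by omega, y, hyq', ?_⟩, rfl⟩⟩
      refine (hc0 j y x).trans ?_
      calc (c0 : ℝ) * dist ((M.Q j).ψ y) ((M.Q j).ψ x) ≤ c0 * (1 / 2 ^ k j) :=
            mul_le_mul_of_nonneg_left (hdist y hyi') (Nat.cast_nonneg _)
        _ = c0 / 2 ^ k j := by ring
    · obtain ⟨y, hyl, hyi⟩ := hs
      have hyl' : y ∈ P ((M.mesh hk a hv).H (Sum.inr ⟨l, i'⟩)) := hyl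
      have hyi' : y ∈ P ((M.mesh hk a hv).H (Sum.inr ⟨j, i⟩)) := hyi
      have hlj : l = j := by
        by_contra hne
        exact Set.disjoint_left.1 ((M.ad hk a hv).dis l j hne) (i'.2 hyl') (i.2 hyi')
      subst hlj
      refine ⟨_, rfl, Or.inr ⟨i', ?_, rfl⟩⟩
      obtain ⟨τ, hτ, hτk⟩ := (M.Bk v l).wall_tile (k l) (hk.kc l) (t := i.1) (s := i'.1)
        hw' ⟨y, hyl', hyi'⟩
      refine ⟨τ, hτ, hτk, y, hyl', ?_⟩
      rw [Nat.cast_one]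
      exact hdist y hyi'
    · exfalso
      have hs' : (P (cubH M v c) ∩ P ((M.mesh hk a hv).H (Sum.inr ⟨j, i⟩))).Nonempty := hs
      obtain rfl := inner_same M hk a hv hs'
      obtain ⟨y, hy1, hy2⟩ := hs'
      have hx3 := bp_dist (M.Bk v c.1) (Kc_sub_bp _ (cubH_sub c hy1))
      have h1 := hdist y hy2
      rw [(M.Bk v c.1).frontier_N] at hxf
      have h2 : infDist ((M.Bk v c.1).ψ y) (M.Bk v c.1).W ≤
          infDist ((M.Bk v c.1).ψ x) (M.Bk v c.1).W + dist ((M.Bk v c.1).ψ y) ((M.Bk v c.1).ψ x) :=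
        infDist_le_infDist_add_dist
      rw [infDist_zero_of_mem (show (M.Bk v c.1).ψ x ∈ (M.Bk v c.1).W from hxf), zero_add] at h2
      have h3 : (1 : ℝ) / 2 ^ k c.1 ≤ 1 / 2 ^ (M.Bk v c.1).kc :=
        one_div_le_one_div_of_le (by positivity)
          (pow_le_pow_right₀ (by norm_num) (hk.kc c.1))
      have h4 : (0 : ℝ) < 1 / 2 ^ (M.Bk v c.1).kc := by positivity
      have h5 : (7 : ℝ) / 2 ^ (M.Bk v c.1).kc = 7 * (1 / 2 ^ (M.Bk v c.1).kc) := by ring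
      rw [h5] at hx3
      have h6 : dist ((M.Bk v c.1).ψ y) ((M.Bk v c.1).ψ x) ≤ 1 / 2 ^ k c.1 := h1
      linarith
  · exact (Set.ncard_image_le f1).trans g1
  · exact (Set.ncard_image_le f2).trans g2

/-- **inner tiles**: good with a structural list, or at the wall -/
theorem inner_goodW (X : RD M) (RPx : RP X a v k) {j : J} (i : M.IIx hk a hv j)
    (hi : i ≠ M.core hk a hv j) :
    (∃ τ, i.1 = Sum.inl τ ∧
      Good (meshS M hk a hv) (Sum.inl ⟨Sum.inr ⟨j, i⟩, inr_not_core M hk a hv hi⟩)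
        (chi (M.Q j).ψ (M.Bk v j).a' (τ.1.1.1.k + 1)) (τ.1.1.1.k + 1) (N0 n) 1 2) ∨
    Good (meshS M hk a hv) (Sum.inl ⟨Sum.inr ⟨j, i⟩, inr_not_core M hk a hv hi⟩)
      (chi (M.Q j).ψ (M.Bk v j).a' (M.Q j).kc) (M.Q j).kc (NB n (X.B j)) 1 (X.R j) ∨
    ((∃ τ, i.1 = Sum.inl τ ∧ τ.1.1.1.k = k j) ∧
      (P ((M.mesh hk a hv).H (Sum.inr ⟨j, i⟩)) ∩ frontier (M.Bk v j).N).Nonempty ∧
      Good (meshS M hk a hv) (Sum.inl ⟨Sum.inr ⟨j, i⟩, inr_not_core M hk a hv hi⟩)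
        (chi M.φ a (k j)) (k j) (NR (X.A j) (X.d j)) (X.d j) (X.c j)) := by
  rcases M.inner_good hk a hv X RPx i hi with ⟨τ, hτ, -, hd, hg⟩ | ⟨-, hg⟩ | ⟨⟨τ, hτ, hτk⟩, hw, hg⟩
  · refine Or.inl ⟨τ, hτ, good_old M hk a hv _ hg fun c hc => ?_⟩
    exfalso
    obtain rfl := inner_same M hk a hv hc
    obtain ⟨x, hx1, hx2⟩ := hc
    exact Set.disjoint_left.1 hd hx2 (Kc_sub_bp _ (cubH_sub c hx1))
  · refine Or.inr (Or.inl (good_old M hk a hv _ hg fun c hc => ?_))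
    obtain rfl := inner_same M hk a hv hc
    exact gf_cube one_pos (fr_self _ _ _ (N0_sub_NB (X.B1 _)) 1) le_rfl _
  · refine Or.inr (Or.inr ⟨⟨τ, hτ, hτk⟩, hw, good_old M hk a hv _ hg fun c hc => ?_⟩)
    exfalso
    obtain rfl := inner_same M hk a hv hc
    obtain ⟨x, hx1, hx2⟩ := hc
    obtain ⟨y, hy1, hy2⟩ := hw
    have hx3 := bp_dist (M.Bk v c.1) (Kc_sub_bp _ (cubH_sub c hx1))
    rw [MD.mesh_inr, hτ] at hx2 hy1
    have h1 := dist_cube (((M.Bk v c.1).tile_T0 (k c.1) (hk.kc c.1)).1 hx2)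
      (((M.Bk v c.1).tile_T0 (k c.1) (hk.kc c.1)).1 hy1)
    rw [hτk] at h1
    rw [(M.Bk v c.1).frontier_N] at hy2
    have h2 : infDist ((M.Bk v c.1).ψ x) (M.Bk v c.1).W ≤
        infDist ((M.Bk v c.1).ψ y) (M.Bk v c.1).W + dist ((M.Bk v c.1).ψ x) ((M.Bk v c.1).ψ y) :=
      infDist_le_infDist_add_dist
    rw [infDist_zero_of_mem (show (M.Bk v c.1).ψ y ∈ (M.Bk v c.1).W from hy2), zero_add] at h2
    have h3 : (1 : ℝ) / 2 ^ k c.1 ≤ 1 / 2 ^ (M.Bk v c.1).kc :=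
      one_div_le_one_div_of_le (by positivity)
        (pow_le_pow_right₀ (by norm_num) (hk.kc c.1))
    have h4 : (0 : ℝ) < 1 / 2 ^ (M.Bk v c.1).kc := by positivity
    have h5 : (7 : ℝ) / 2 ^ (M.Bk v c.1).kc = 7 * (1 / 2 ^ (M.Bk v c.1).kc) := by ring
    rw [h5] at hx3
    linarith

end

end Crest.Agent.R096.Nbr_896
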