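import Crest.Agent.R096.Wy1_664
import Crest.Agent.R096.Coh6_184
import Crest.Agent.R096.Dib5_438

/-!
# Row 96, DOORS (helper12): the chart of a transversal strip at a moat

`chart` : `(s, w) ↦` the point with gauge `s` over the point `gam (t0, w)` of the patch.
-/

set_option autoImplicit false
set_option linter.unusedSectionVars false

open Set Topology Filter Metric Module
open scoped Classical

namespace Crest.Agent.R096.Ncf_12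

open Crest.Agent.R096.Msh_715 Crest.Agent.R096.Coh_184 Crest.Agent.R096.Bsp_628
  Crest.Agent.R096.Brk1_582 Crest.Agent.R096.Brk2_582 Crest.Agent.R096.Brk3_582
  Crest.Agent.R096.Brk5_582 Crest.Agent.R096.Init_543 Crest.Agent.R096.Mbf_337
  Crest.Agent.R96.Push_899 Crest.Agent.R096.Ess1_95 Crest.Agent.R096.Ess4_95
  Crest.Agent.R096.Ess5_95 Crest.Agent.R096.Ess6_95 Crest.Agent.R096.Ess7_95
  Crest.Agent.R096.Lab_184 Crest.Agent.R096.Seq_213 Crest.Agent.R096.Seq_213.GSt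
  Crest.Agent.R096.Main_4 Crest.Agent.R096.Exa_560 Crest.Agent.R096.Agl4_543
  Crest.Agent.R096.Agl5_543 Crest.Agent.R096.Agl6_543 Crest.Agent.R096.Agl8_543
  Crest.Agent.R096.Ebr1_95 Crest.Agent.R096.Ebr2_95
  Crest.Agent.R096.Ebr3_95 Crest.Agent.R096.Ebr4_95 Crest.Agent.R096.Ebr5_95
  Crest.Agent.R096.Ebr6_95 Crest.Agent.R096.Bar_106
  Crest.Agent.R096.Bgf_4 Crest.Agent.R096.Dib_438 Crest.Agent.R096.Sphg_316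

open Crest.Agent.R096.SkC1_961 (E3 Hom3 IsPush FoamD)

variable {δ κ0 R c0 : ℝ} {La Om : Set E3} {Φ : FoamD δ κ0 R c0 La} {f g : E3 → E3}

/-- **the chart of a transversal strip** -/
theorem chart (hLa : IsOpen La) (H : Hm f g Om La) {c a p q : Φ.F} {Z : Set Φ.F}
    (hM : Mo (Pc Φ.F) c a Z p q) (hpt : (Φ.B c).lo = (Φ.B c).hi) {ρ4 : ℝ} (h4 : 0 < ρ4)
    (h4' : ρ4 < 1) (hray : RayTo Φ c ρ4) {s0 s1 : ℝ} (hs0 : 0 < s0) (hs1 : s1 ≤ ρ4) {t0 : ℝ}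
    (ht0 : t0 ∈ Icc (0 : ℝ) 1) {w1 : ℝ} (hw1 : w1 ≤ 1) (l0 mm ra : ℝ) :
    ∃ Wz : ℝ × ℝ → E3, ContinuousOn Wz (Icc s0 s1 ×ˢ Icc 0 w1) ∧
      InjOn Wz (Icc s0 s1 ×ˢ Icc 0 w1) ∧
      (∀ z ∈ Icc s0 s1 ×ˢ Icc (0 : ℝ) w1, Wz z ∈ Om ∧ ga Φ c (f (Wz z)) = z.1 ∧
        Φ.Psi (f (Wz z)) = gam (bc (F := Φ.F)) a Z p q (t0, z.2) ∧ Φ.lev a (f (Wz z)) = t0 ∧
        gmf Φ l0 mm ra a Z (Φ.Psi (f (Wz z))) = max (|z.2| / l0) (|t0 - mm| / ra)) ∧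
      IsCompact (Wz '' (Icc s0 s1 ×ˢ Icc 0 w1)) ∧
      TrivF (ZMod 2) (Wz '' (Icc s0 s1 ×ˢ Icc 0 w1)) := by
  have FF := foam Φ.bf hLa
  obtain ⟨pl, hP⟩ := exists_pol hLa hpt h4 h4' hray
  have hcL : c.1.set ⊆ La := Φ.bf.sub c.1 c.2
  have hgc : ∀ y, ga Φ c y ≤ ρ4 → y ∈ La := by
    intro y hy
    have hb : Bod (Φ.B c).lo (Pc Φ.F c) := Pse_316.bod_brick Φ c hpt
    have hgf : ga Φ c = Ng (Φ.B c).lo (Pc Φ.F c) := funext (Etg_163.gg_eq Φ c)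
    exact hcL (hb.le_sub h4'.le (show y ∈ {y | Ng _ _ y ≤ ρ4} by rw [← hgf]; exact hy))
  have hrc : ∀ w ∈ Icc (0 : ℝ) w1, ((t0, w) : ℝ × ℝ) ∈ Rct := fun w hw =>
    ⟨ht0, ⟨by linarith [hw.1], hw.2.trans hw1⟩⟩
  set Kz : Set (ℝ × ℝ) := Icc s0 s1 ×ˢ Icc 0 w1 with hKz
  have hKc : IsCompact Kz := isCompact_Icc.prod isCompact_Icc
  have hKv : Convex ℝ Kz := (convex_Icc _ _).prod (convex_Icc _ _)
  -- the map into the cylinder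
  set G : ℝ × ℝ → ℝ × E3 := fun z => (z.1, gam (bc (F := Φ.F)) a Z p q (t0, z.2)) with hGd
  have hGm : ∀ z ∈ Kz, G z ∈ Ioc 0 ρ4 ×ˢ frontier c.1.set := fun z hz =>
    ⟨⟨hs0.trans_le hz.1.1, hz.1.2.trans hs1⟩, gam_fr hLa hM (hrc z.2 hz.2)⟩
  have hGc : ContinuousOn G Kz := by
    refine continuousOn_fst.prodMk ?_
    refine (hM.continuousOn_gam FF).comp (Continuous.continuousOn (by fun_prop)) ?_
    intro z hz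
    exact hrc z.2 hz.2
  have hGi : InjOn G Kz := by
    intro z hz z' hz' h
    obtain ⟨h1, h2⟩ := Prod.mk.inj (show (z.1, gam (bc (F := Φ.F)) a Z p q (t0, z.2)) =
      (z'.1, gam (bc (F := Φ.F)) a Z p q (t0, z'.2)) from h)
    have h3 := hM.gam_injOn FF (hrc z.2 hz.2) (hrc z'.2 hz'.2) h2
    exact Prod.ext h1 (Prod.mk.inj h3).2
  have hpc : ContinuousOn (fun z => pl (G z)) Kz :=
    (hP.contOn (A := Ioc 0 ρ4 ×ˢ frontier c.1.set) Subset.rfl).comp hGc hGm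
  have hpi : InjOn (fun z => pl (G z)) Kz :=
    (hP.injOn (A := Ioc 0 ρ4 ×ˢ frontier c.1.set) Subset.rfl).comp hGi hGm
  have hga : ∀ z ∈ Kz, ga Φ c (pl (G z)) = z.1 := fun z hz =>
    hP.gau z.1 (hGm z hz).1 _ (hGm z hz).2
  have hpsi : ∀ z ∈ Kz, Φ.Psi (pl (G z)) = gam (bc (F := Φ.F)) a Z p q (t0, z.2) := fun z hz =>
    hP.psi z.1 (hGm z hz).1 _ (hGm z hz).2
  have hpL : ∀ z ∈ Kz, pl (G z) ∈ La := fun z hz =>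
    hgc _ ((hga z hz).le.trans (hGm z hz).1.2)
  have hWc : ContinuousOn (fun z => g (pl (G z))) Kz := H.gc.comp hpc hpL
  have hWi : InjOn (fun z => g (pl (G z))) Kz := by
    intro z hz z' hz' h
    have h1 : f (g (pl (G z))) = f (g (pl (G z'))) := congrArg f h
    rw [H.fg _ (hpL z hz), H.fg _ (hpL z' hz')] at h1
    exact hpi hz hz' h1
  refine ⟨fun z => g (pl (G z)), hWc, hWi, ?_, hKc.image_of_continuousOn hWc,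
    trivF_convex hKc hKv hWc hWi⟩
  intro z hz
  have e1 : f (g (pl (G z))) = pl (G z) := H.fg _ (hpL z hz)
  refine ⟨H.gm (hpL z hz), ?_, ?_, ?_, ?_⟩
  · show ga Φ c (f (g (pl (G z)))) = z.1
    rw [e1, hga z hz]
  · show Φ.Psi (f (g (pl (G z)))) = _
    rw [e1, hpsi z hz]
  · show sc (Pc Φ.F) (bc (F := Φ.F)) (Φ.Psi (f (g (pl (G z))))) a = t0
    rw [e1, hpsi z hz, hM.sc_gam FF (hrc z.2 hz.2), uu_a]
  · show gmf Φ l0 mm ra a Z (Φ.Psi (f (g (pl (G z))))) = _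
    rw [e1, hpsi z hz, gmf_gam hLa hM (hrc z.2 hz.2)]
    rfl

section mach

open Crest.Agent.R096.Frn_337 (Ti)
open Crest.Agent.R096.Ess7_95 (KT)

variable {ι : Type} {T : Tiling Om ι} {κ1 κ2 μ : ℝ} {X : Set Φ.F} {J0 J V : Φ.F → Set ι}
  {ct : Φ.F → ι} {A : Φ.F → E3 ≃ᵃ[ℝ] E3} {lam : Φ.F → ℝ} {z : Φ.F → E3}
  {θ : Φ.F → E3 → E3} {φ : Φ.F → E3 → ℝ} {r₀ : Φ.F → ℝ}
  {L : Φ.F → Finset ℝ} [Nonempty (JJ Φ L)] {hG : GF Φ r₀ T f L} {bp : JJ Φ L → E3}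
  {N' : BM Φ X → Set ℝ} {ρ1 ρ2 ρ3 ρ4 d : Φ.F → ℝ} {q₀ : BM Φ X → E3} {ε : BM Φ X → ℝ}
  {bm : BM Φ X → E3} {hGB : GFB Φ r₀ T f L (lRc Φ X μ ρ1 ρ3 d) ε}
  {v0B v1B : ∀ c, BM Φ X → VxK T (KT T J X) c}

/-- **the chart of a transversal strip**, in the letters of `BarOut` -/
theorem chart_bar (hLa : IsOpen La) (H : Hm f g Om La)
    (bar : BarOut Φ T f κ1 μ X J0 J V θ hG bp N' ρ1 ρ2 ρ3 ρ4 d q₀ ε bm hGB v0B v1B)
    (m : BM Φ X) {p q : Φ.F} (hM : Mo (Pc Φ.F) m.co m.am m.Zm p q) {s0 s1 : ℝ} (hs0 : 0 < s0)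
    (hs1 : s1 ≤ ρ4 m.co) {t0 : ℝ} (ht0 : t0 ∈ Icc (0 : ℝ) 1) {w1 : ℝ} (hw1 : w1 ≤ 1)
    (l0 mm ra : ℝ) :
    ∃ Wz : ℝ × ℝ → E3, ContinuousOn Wz (Icc s0 s1 ×ˢ Icc 0 w1) ∧
      InjOn Wz (Icc s0 s1 ×ˢ Icc 0 w1) ∧
      (∀ z ∈ Icc s0 s1 ×ˢ Icc (0 : ℝ) w1, Wz z ∈ Om ∧ ga Φ m.co (f (Wz z)) = z.1 ∧
        Φ.Psi (f (Wz z)) = gam (bc (F := Φ.F)) m.am m.Zm p q (t0, z.2) ∧
        Φ.lev m.am (f (Wz z)) = t0 ∧
        gmf Φ l0 mm ra m.am m.Zm (Φ.Psi (f (Wz z))) = max (|z.2| / l0) (|t0 - mm| / ra)) ∧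
      IsCompact (Wz '' (Icc s0 s1 ×ˢ Icc 0 w1)) ∧
      TrivF (ZMod 2) (Wz '' (Icc s0 s1 ×ˢ Icc 0 w1)) := by
  have hr := (bar.rm m.co m.co_notMem).2
  exact chart hLa H hM (bar.barF.pt m) (by linarith [hr.r1, hr.r12, hr.r23, hr.r34, hr.d0]) hr.r4
    hr.ray hs0 hs1 ht0 hw1 l0 mm ra

end mach

end Crest.Agent.R096.Ncf_12
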