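import Crest.Agent.R096.Ebr6_95

/-!
# Row 96, DOORS, leaf G1 of 778's NE1 (helper82): the chart of the transversal strip

`exists_chart` : the strip `{ga = s, Psi = gam (t0, w)}`, `s ∈ [s0, s1]`, `w ∈ [0, w1]`, pulled back by
`f`, is the injective continuous image of a rectangle.
-/

set_option autoImplicit false
set_option linter.unusedSectionVars false

open Set Topology Filter Metric Module
open scoped Classical

namespace Crest.Agent.R096.Nch_82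

open Crest.Agent.R096.Msh_715 Crest.Agent.R096.Coh_184 Crest.Agent.R096.Bsp_628
  Crest.Agent.R096.Brk1_582 Crest.Agent.R096.Brk2_582 Crest.Agent.R096.Brk3_582
  Crest.Agent.R096.Brk5_582 Crest.Agent.R096.Init_543 Crest.Agent.R096.Mbf_337
  Crest.Agent.R96.Push_899 Crest.Agent.R096.Ess1_95 Crest.Agent.R096.Ess4_95
  Crest.Agent.R096.Ess5_95 Crest.Agent.R096.Ess6_95 Crest.Agent.R096.Ess7_95
  Crest.Agent.R096.Lab_184 Crest.Agent.R096.Seq_213 Crest.Agent.R096.Seq_213.GSt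
  Crest.Agent.R096.Main_4 Crest.Agent.R096.Exa_560 Crest.Agent.R096.Agl4_543
  Crest.Agent.R096.Agl5_543 Crest.Agent.R096.Agl6_543 Crest.Agent.R096.Agl8_543
  Crest.Agent.R096.Ebr1_95 Crest.Agent.R096.Ebr2_95
  Crest.Agent.R096.Ebr3_95 Crest.Agent.R096.Ebr4_95 Crest.Agent.R096.Ebr5_95
  Crest.Agent.R096.Ebr6_95 Crest.Agent.R096.Bar_106
  Crest.Agent.R096.Bgf_4 Crest.Agent.R096.Dib_438 Crest.Agent.R096.Sphg_316

open Crest.Agent.R096.SkC1_961 (E3 Hom3 IsPush FoamD)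

variable {δ κ0 R c0 : ℝ} {La Om : Set E3} {Φ : FoamD δ κ0 R c0 La} {f g : E3 → E3}

/-- **the chart of the transversal strip** -/
theorem exists_chart (hLa : IsOpen La) (H : Hm f g Om La) {c a p q : Φ.F} {Z : Set Φ.F}
    (hM : Mo (Pc Φ.F) c a Z p q) (hpt : (Φ.B c).lo = (Φ.B c).hi) {ρ4 : ℝ} (hρ1 : ρ4 < 1)
    (hray : RayTo Φ c ρ4) {s0 s1 t0 w1 : ℝ} (hs0 : 0 < s0) (hs : s0 ≤ s1) (hs1 : s1 ≤ ρ4)
    (ht : t0 ∈ Icc (0 : ℝ) 1) (_hw0 : 0 ≤ w1) (hw1 : w1 ≤ 1) (l0 mm ra : ℝ) :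
    ∃ Wz : ℝ × ℝ → E3, ContinuousOn Wz (Icc s0 s1 ×ˢ Icc 0 w1) ∧
      InjOn Wz (Icc s0 s1 ×ˢ Icc 0 w1) ∧
      (∀ z ∈ Icc s0 s1 ×ˢ Icc 0 w1, Wz z ∈ Om ∧ ga Φ c (f (Wz z)) = z.1 ∧
        Φ.Psi (f (Wz z)) = gam (bc (F := Φ.F)) a Z p q (t0, z.2) ∧ Φ.lev a (f (Wz z)) = t0 ∧
        gmf Φ l0 mm ra a Z (Φ.Psi (f (Wz z))) = max (z.2 / l0) (|t0 - mm| / ra)) ∧
      IsCompact (Wz '' (Icc s0 s1 ×ˢ Icc 0 w1)) ∧
      TrivF (ZMod 2) (Wz '' (Icc s0 s1 ×ˢ Icc 0 w1)) := by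
  have FF := foam Φ.bf hLa
  have hρ0 : 0 < ρ4 := hs0.trans_le (hs.trans hs1)
  obtain ⟨P0, hPol⟩ := exists_pol hLa hpt hρ0 hρ1 hray
  have hcL : c.1.set ⊆ La := Φ.bf.sub c.1 c.2
  have hgc : ∀ y, ga Φ c y ≤ ρ4 → y ∈ La := by
    intro y hy
    have hb : Bod (Φ.B c).lo (Pc Φ.F c) := Pse_316.bod_brick Φ c hpt
    have hgf : ga Φ c = Ng (Φ.B c).lo (Pc Φ.F c) := funext (Etg_163.gg_eq Φ c)
    exact hcL (hb.le_sub hρ1.le (show y ∈ {y | Ng _ _ y ≤ ρ4} by rw [← hgf]; exact hy))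
  set D : Set (ℝ × ℝ) := Icc s0 s1 ×ˢ Icc 0 w1 with hD
  have hRct : ∀ z ∈ D, ((t0, z.2) : ℝ × ℝ) ∈ Rct := fun z hz =>
    ⟨ht, ⟨by linarith [hz.2.1], hz.2.2.trans hw1⟩⟩
  have hfr : ∀ z ∈ D, gam (bc (F := Φ.F)) a Z p q (t0, z.2) ∈ frontier c.1.set := fun z hz =>
    gam_fr hLa hM (hRct z hz)
  have hI : ∀ z ∈ D, z.1 ∈ Ioc 0 ρ4 := fun z hz =>
    ⟨hs0.trans_le hz.1.1, hz.1.2.trans hs1⟩
  set Y : ℝ × ℝ → E3 := fun z => P0 (z.1, gam (bc (F := Φ.F)) a Z p q (t0, z.2)) with hY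
  have hg1 : ∀ z ∈ D, ga Φ c (Y z) = z.1 := fun z hz => hPol.gau _ (hI z hz) _ (hfr z hz)
  have hp1 : ∀ z ∈ D, Φ.Psi (Y z) = gam (bc (F := Φ.F)) a Z p q (t0, z.2) := fun z hz =>
    hPol.psi _ (hI z hz) _ (hfr z hz)
  have hYL : ∀ z ∈ D, Y z ∈ La := fun z hz => hgc _ (by rw [hg1 z hz]; exact (hI z hz).2)
  have hYc : ContinuousOn Y D := by
    refine hPol.cont.comp (continuousOn_fst.prodMk ((hM.continuousOn_gam FF).comp
      (Continuous.continuousOn (by fun_prop)) fun z hz => hRct z hz)) fun z hz =>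
        ⟨mem_univ _, hfr z hz⟩
  have hYi : InjOn Y D := by
    intro z hz z' hz' h
    have h1 : z.1 = z'.1 := by rw [← hg1 z hz, ← hg1 z' hz', h]
    have h2 : gam (bc (F := Φ.F)) a Z p q (t0, z.2) = gam (bc (F := Φ.F)) a Z p q (t0, z'.2) := by
      rw [← hp1 z hz, ← hp1 z' hz', h]
    have h3 := hM.gam_injOn FF (hRct z hz) (hRct z' hz') h2
    have h4 : z.2 = z'.2 := by simpa using h3
    exact Prod.ext h1 h4
  have hfg : ∀ z ∈ D, f (g (Y z)) = Y z := fun z hz => H.fg _ (hYL z hz)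
  have hWc : ContinuousOn (fun z => g (Y z)) D := H.gc.comp hYc fun z hz => hYL z hz
  have hWi : InjOn (fun z => g (Y z)) D := by
    intro z hz z' hz' h
    refine hYi hz hz' ?_
    rw [← hfg z hz, ← hfg z' hz']
    exact congrArg f h
  have hDc : IsCompact D := isCompact_Icc.prod isCompact_Icc
  refine ⟨fun z => g (Y z), hWc, hWi, fun z hz => ?_, hDc.image_of_continuousOn hWc,
    Lab_184.trivF_convex hDc ((convex_Icc _ _).prod (convex_Icc _ _)) hWc hWi⟩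
  have e1 := hfg z hz
  refine ⟨H.gm (hYL z hz), ?_, ?_, ?_, ?_⟩
  · show ga Φ c (f (g (Y z))) = z.1
    rw [e1]; exact hg1 z hz
  · show Φ.Psi (f (g (Y z))) = _
    rw [e1]; exact hp1 z hz
  · show Φ.lev a (f (g (Y z))) = t0
    rw [e1]
    show sc (Pc Φ.F) (bc (F := Φ.F)) (Φ.Psi (Y z)) a = _
    rw [hp1 z hz, hM.sc_gam FF (hRct z hz), uu_a]
  · show gmf Φ l0 mm ra a Z (Φ.Psi (f (g (Y z)))) = _
    rw [e1, hp1 z hz, gmf_gam hLa hM (hRct z hz)]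
    show max (|z.2| / l0) (|t0 - mm| / ra) = _
    rw [abs_of_nonneg hz.2.1]

end Crest.Agent.R096.Nch_82
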