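import Crest.Agent.R096.Ncl1_914

/-!
# R096 (row 96), REL (helper914 for helper150): sup-closeness of the relabelling, part 2

`T_eq` : `T` = the grid map with one level; `T_close` : `T` is Lipschitz on a face;
`Tq_T` : `‖Tq b m g - T b (lv m g)‖ ≤ 2 M`; `Tq_close`; `rc_close` : the relabelling of the boundary
of a cell is close to the identity; `rcR_close_box` for box foams.
-/

set_option autoImplicit false
set_option linter.unusedVariables false
set_option linter.unusedSectionVars false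

open Set

namespace Crest.Agent.R096.Ncl_914

open Crest.Agent.R096.Brk1_582 Crest.Agent.R096.Brk2_582 Crest.Agent.R096.Brk6_582
open Crest.Agent.R096.Grd_714 Crest.Agent.R096.Bin_181 Crest.Agent.R096.Fl_835
open Crest.Agent.R096.Bsp_628 Crest.Agent.R096.Brk3_582 Crest.Agent.R096.Brk5_582

variable {E : Type*} [NormedAddCommGroup E] [NormedSpace ℝ E] {I : Type*}
variable {La : Set E} {P : I → Set E} {b : Set I → E} {m m' : I → ℕ} [CompleteSpace E]

/-- equal heights give the base map -/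
lemma Bn_eq_T {N : I → I → ℝ × ℝ → ℝ} (hN : Sym N) {u : I → ℝ}
    (h : ∀ c1 c2, c1 ≠ c2 → av u = {c1, c2} →
      N c1 c2 (1 - u c1, 1 - u c2) = min (1 - u c1) (1 - u c2)) : Bn b N u = T b u := by
  by_cases hx : ∃ c1 c2 : I, c1 ≠ c2 ∧ av u = {c1, c2}
  · obtain ⟨c1, c2, hne, hav⟩ := hx
    rw [Bn_eq hN hne hav, h c1 c2 hne hav, sub_self, zero_smul, add_zero]
  · rw [Bn, dif_neg hx]

lemma Nf_one {w : ℝ × ℝ} (hw : w ∈ Sc) : Nf 1 1 w = min w.1 w.2 := by
  obtain ⟨⟨h1, h2⟩, h3, h4⟩ := hw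
  simp only [Nf, Nat.cast_one, one_mul]
  rw [itp_box (Grd_714.nu 1 1) (i' := 0) (i := 1) (j' := 0) (j := 1) (by omega) (by omega)
    (by omega) (by omega) (by simp; linarith) (by simp; linarith) (by simp; linarith)
    (by simp; linarith)]
  simp [itc, Grd_714.nu]

lemma lv_one' (u : I → ℝ) : lv (fun _ => 1) u = u := by
  funext c; simp [lv]

/-- `T` is the grid map with one level -/
lemma Tq_one (u : I → ℝ) : Tq b (fun _ => 1) u = T b u := by
  rw [Tq, lv_one']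
  refine Bn_eq_T (sym_Nm _) fun c1 c2 hne hav => ?_
  have m1 : c1 ∈ av u := by rw [hav]; simp
  have m2 : c2 ∈ av u := by rw [hav]; simp
  exact Nf_one ⟨⟨by simp only; linarith [m1.2], by simp only; linarith [m1.1]⟩,
    ⟨by simp only; linarith [m2.2], by simp only; linarith [m2.1]⟩⟩

variable (F : Foam La P b 4) (hQ : Quads P b) {D : I → ℝ} (hD : StepLe P b D)
include F hQ hD

/-- **`T` is Lipschitz on a face of the cube complex** -/
theorem T_close {u u' : I → ℝ} (hu : u ∈ K2 P) (hu' : u' ∈ K2 P) (h0 : ∀ a, u a = 0 ↔ u' a = 0)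
    (h1 : ∀ a, u a = 1 ↔ u' a = 1) {M : ℝ} (hM0 : 0 ≤ M)
    (hM : ∀ a, 0 < u a → u a < 1 → D a * |u a - u' a| ≤ M) : ‖T b u - T b u'‖ ≤ 2 * M := by
  have hm1 : ∀ c : I, 0 < (fun _ => 1 : I → ℕ) c := fun _ => one_pos
  have hg : u ∈ G2 P (fun _ => 1) := by show lv _ u ∈ K2 P; rwa [lv_one']
  have r0 : ∀ a, 0 ≤ u a := fun a => G2_nonneg hm1 hg a
  have r1 : ∀ a, u a ≤ 1 := fun a => by simpa using G2_le hm1 hg a
  have hg' : u' ∈ G2 P (fun _ => 1) := by show lv _ u' ∈ K2 P; rwa [lv_one']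
  have r0' : ∀ a, 0 ≤ u' a := fun a => G2_nonneg hm1 hg' a
  have r1' : ∀ a, u' a ≤ 1 := fun a => by simpa using G2_le hm1 hg' a
  have cases : ∀ a, u a = 0 ∨ u a = 1 ∨ (0 < u a ∧ u a < 1) := fun a => by
    rcases (r0 a).eq_or_lt with h | h
    · exact Or.inl h.symm
    · rcases (r1 a).eq_or_lt with h' | h'
      · exact Or.inr (Or.inl h')
      · exact Or.inr (Or.inr ⟨h, h'⟩)
  have hb' : u' ∈ (flb hm1 u hg).bx := by
    intro a
    show ((⌊u a⌋₊ : ℕ) : ℝ) ≤ u' a ∧ u' a ≤ ((⌈u a⌉₊ : ℕ) : ℝ)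
    rcases cases a with h | h | ⟨h, h'⟩
    · rw [(h0 a).1 h, h]; simp
    · rw [(h1 a).1 h, h]; simp
    · have e1 : ⌊u a⌋₊ = 0 := Nat.floor_eq_zero.2 h'
      have e2 : ⌈u a⌉₊ = 1 := by
        rw [Nat.ceil_eq_iff one_ne_zero]
        exact ⟨by simpa using h, by simpa using h'.le⟩
      rw [e1, e2]
      exact ⟨by simpa using r0' a, by simpa using r1' a⟩
  rw [← Tq_one u, ← Tq_one u']
  refine Tq_lip F hQ hD hm1 (mem_flb hm1 hg) hb' hM0 fun a ha => ?_
  have h5 : 0 < u a ∧ u a < 1 := by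
    have ha' : ⌊u a⌋₊ < ⌈u a⌉₊ := ha
    rcases cases a with h | h | h
    · rw [h] at ha'; simp at ha'
    · rw [h] at ha'; simp at ha'
    · exact h
  simpa using hM a h5.1 h5.2

/-- **the grid map is close to `T`** -/
theorem Tq_T (hm : ∀ c, 0 < m c) {g : I → ℝ} (hg : g ∈ G2 P m) {M : ℝ} (hM0 : 0 ≤ M)
    (hM : ∀ a, 0 < g a → g a < m a → D a ≤ M * m a) :
    ‖Tq b m g - T b (lv m g)‖ ≤ 2 * M := by
  have hu : lv m g ∈ K2 P := hg
  rcases K2_cases F hu with h | ⟨c1, c2, hne, hav, hZ, hL, n1, n2, hin⟩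
  · rw [Tq, Bn_of_ncard (by omega), sub_self, norm_zero]; linarith
  rw [Tq, Bn_eq (sym_Nm m) hne hav, add_sub_cancel_left, norm_smul, Real.norm_eq_abs]
  have m1 : c1 ∈ av (lv m g) := by rw [hav]; simp
  have m2 : c2 ∈ av (lv m g) := by rw [hav]; simp
  have hw : ((1 - lv m g c1, 1 - lv m g c2) : ℝ × ℝ) ∈ Sc :=
    ⟨⟨by simp only; linarith [m1.2], by simp only; linarith [m1.1]⟩,
    ⟨by simp only; linarith [m2.2], by simp only; linarith [m2.1]⟩⟩
  have hnf := nf_close (hm c1) (hm c2) hw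
  have p1 : (0 : ℝ) < m c1 := by exact_mod_cast hm c1
  have p2 : (0 : ℝ) < m c2 := by exact_mod_cast hm c2
  have act : ∀ c, c ∈ av (lv m g) → D c ≤ M * m c := by
    intro c hc
    have pc : (0 : ℝ) < m c := by exact_mod_cast hm c
    refine hM c ?_ ?_
    · have : 0 < g c / m c := hc.1
      by_contra hn
      exact absurd this (not_lt.2 (div_nonpos_of_nonpos_of_nonneg (not_lt.1 hn) pc.le))
    · exact (lv_lt_one hm).1 hc.2
  have k1 := act c1 m1
  have k2 := act c2 m2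
  set Z : Set I := {c | lv m g c = 0} with hZdef
  have hZne : Z.Nonempty := F.K_zero_nonempty hu.1
  have hfc : (fc P (insert c2 (insert c1 Z))).Nonempty := by rw [← hL]; exact hu.1.2.2
  have hfc' : (fc P (insert c1 (insert c2 Z))).Nonempty := by rwa [insert_comm]
  have q1 : c1 ∉ insert c2 Z := by
    rw [mem_insert_iff, not_or]; exact ⟨hne, n1⟩
  have q2 : c2 ∉ insert c1 Z := by
    rw [mem_insert_iff, not_or]; exact ⟨hne.symm, n2⟩
  have s1 : ‖b (insert c1 Z) - b Z‖ ≤ D c1 := hD Z c1 hZne n1 (hfc.mono (fc_anti (subset_insert _ _)))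
  have s2 : ‖b (insert c2 Z) - b Z‖ ≤ D c2 := hD Z c2 hZne n2 (hfc'.mono (fc_anti (subset_insert _ _)))
  have s3 : ‖b (insert c2 (insert c1 Z)) - b (insert c1 Z)‖ ≤ D c2 :=
    hD _ c2 (insert_nonempty _ _) q2 hfc
  have s4 : ‖b (insert c1 (insert c2 Z)) - b (insert c2 Z)‖ ≤ D c1 :=
    hD _ c1 (insert_nonempty _ _) q1 hfc'
  have x2 : ‖b {c | lv m g c < 1} + b Z - b (insert c1 Z) - b (insert c2 Z)‖ ≤ 2 * D c2 := by
    have e : b {c | lv m g c < 1} + b Z - b (insert c1 Z) - b (insert c2 Z) =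
        (b (insert c2 (insert c1 Z)) - b (insert c1 Z)) - (b (insert c2 Z) - b Z) := by
      rw [hL]; abel
    rw [e]
    exact (norm_sub_le _ _).trans (by linarith)
  have x1 : ‖b {c | lv m g c < 1} + b Z - b (insert c1 Z) - b (insert c2 Z)‖ ≤ 2 * D c1 := by
    have e : b {c | lv m g c < 1} + b Z - b (insert c1 Z) - b (insert c2 Z) =
        (b (insert c1 (insert c2 Z)) - b (insert c2 Z)) - (b (insert c1 Z) - b Z) := by
      rw [hL, insert_comm]; abel
    rw [e]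
    exact (norm_sub_le _ _).trans (by linarith)
  set X := ‖b {c | lv m g c < 1} + b Z - b (insert c1 Z) - b (insert c2 Z)‖ with hX
  have hX0 : 0 ≤ X := norm_nonneg _
  have y1 : 1 / (m c1 : ℝ) * X ≤ 2 * M := by
    rw [one_div, inv_mul_le_iff₀ p1]; nlinarith
  have y2 : 1 / (m c2 : ℝ) * X ≤ 2 * M := by
    rw [one_div, inv_mul_le_iff₀ p2]; nlinarith
  refine (mul_le_mul_of_nonneg_right hnf hX0).trans ?_
  rcases max_cases (1 / (m c1 : ℝ)) (1 / m c2) with ⟨h, -⟩ | ⟨h, -⟩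
  · rw [h]; exact y1
  · rw [h]; exact y2

/-- **the grid map at a point close to a given one** -/
theorem Tq_close (hm : ∀ c, 0 < m c) {g u : I → ℝ} (hg : g ∈ G2 P m) (hu : u ∈ K2 P)
    (h0 : ∀ a, g a = 0 ↔ u a = 0) (h1 : ∀ a, g a = m a ↔ u a = 1) {M : ℝ} (hM0 : 0 ≤ M)
    (hM : ∀ a, 0 < u a → u a < 1 → D a * |g a / m a - u a| ≤ M ∧ D a ≤ M * m a) :
    ‖Tq b m g - T b u‖ ≤ 4 * M := by
  have hpos : ∀ a, (0 : ℝ) < m a := fun a => by exact_mod_cast hm a
  have hm1 : ∀ c : I, 0 < (fun _ => 1 : I → ℕ) c := fun _ => one_pos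
  have hgu : u ∈ G2 P (fun _ => 1) := by show lv _ u ∈ K2 P; rwa [lv_one']
  have r0 : ∀ a, 0 ≤ u a := fun a => G2_nonneg hm1 hgu a
  have r1 : ∀ a, u a ≤ 1 := fun a => by simpa using G2_le hm1 hgu a
  have i0 : ∀ a, lv m g a = 0 ↔ u a = 0 := fun a => by rw [lv_eq_zero hm]; exact h0 a
  have i1 : ∀ a, lv m g a = 1 ↔ u a = 1 := fun a => by
    rw [← h1 a, lv, div_eq_one_iff_eq (hpos a).ne']
  have act : ∀ a, 0 < lv m g a → lv m g a < 1 → 0 < u a ∧ u a < 1 := by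
    intro a ha ha'
    refine ⟨lt_of_le_of_ne (r0 a) fun h => ?_, lt_of_le_of_ne (r1 a) fun h => ?_⟩
    · exact ha.ne' ((i0 a).2 h.symm)
    · exact ha'.ne ((i1 a).2 h)
  have k1 := Tq_T F hQ hD hm hg hM0 (fun a ha ha' => by
    have := act a (div_pos ha (hpos a)) ((div_lt_one (hpos a)).2 ha')
    exact (hM a this.1 this.2).2)
  have k2 := T_close F hQ hD (u := lv m g) (u' := u) hg hu i0 i1 hM0 (fun a ha ha' => by
    have := act a ha ha'
    exact (hM a this.1 this.2).1)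
  have := norm_sub_le_norm_sub_add_norm_sub (Tq b m g) (T b (lv m g)) (T b u)
  linarith

/-- **the relabelling is close to the identity** (grid map `m'` = `T` on `z`, for example `m'`
constant) -/
theorem rc_close (hm' : ∀ c, 0 < m' c) (hm : ∀ c, 0 < m c) {ν : I → ℝ → ℝ} (h : Nu ν m' m)
    (h1 : ∀ a, ν a (m' a) = m a) (hi : ∀ a, InjOn (ν a) (Icc (0 : ℝ) (m' a)))
    {g : I → ℝ} (hg : g ∈ G2 P m') (hT : Tq b m' g = T b (lv m' g)) {M : ℝ} (hM0 : 0 ≤ M)
    (hM : ∀ a, 0 < g a → g a < m' a → D a * |ν a (g a) / m a - g a / m' a| ≤ M ∧ D a ≤ M * m a) :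
    ‖Tq b m (fun a => ν a (g a)) - Tq b m' g‖ ≤ 4 * M := by
  have hpos : ∀ a, (0 : ℝ) < m' a := fun a => by exact_mod_cast hm' a
  rw [hT]
  have hmem := fun a => G2_mem hm' hg a
  refine Tq_close F hQ hD hm (G2_nu h hm' hm hg) hg (fun a => ?_) (fun a => ?_) hM0
    (fun a ha ha' => hM a ((div_pos_iff_of_pos_right (hpos a)).1 ha) ((div_lt_one (hpos a)).1 ha'))
  · rw [lv_eq_zero hm']
    constructor
    · intro he
      exact hi a (hmem a) (left_mem_Icc.2 (hpos a).le) (by rw [h.zero]; exact he)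
    · intro he
      show ν a (g a) = 0
      rw [he, h.zero]
  · show ν a (g a) = m a ↔ g a / m' a = 1
    rw [div_eq_one_iff_eq (hpos a).ne']
    constructor
    · intro he
      exact hi a (hmem a) (right_mem_Icc.2 (hpos a).le) (by rw [h1]; exact he)
    · intro he
      rw [he, h1]

omit [CompleteSpace E] F hQ hD in
lemma nuR_injOn {n : ℕ → ℝ} (hN : StrictMono n) (h0 : n 0 = 0) {M : ℕ} (hM : 0 < M) :
    InjOn (nuR n M) (Icc (0 : ℝ) M) := fun x hx y hy he => by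
  rw [← niR_nuR hN h0 hM hx, he, niR_nuR hN h0 hM hy]

section N

variable {n : I → ℕ → ℝ} (hN : ∀ a, StrictMono (n a)) (hN0 : ∀ a, n a 0 = 0)
  (hNm : ∀ a, n a (m' a) = m a)

include hN hN0 hNm in
/-- **`R_c` is close to the identity on the boundary of the cell `c0`** -/
theorem rcR_close (hm' : ∀ c, 0 < m' c) (hm : ∀ c, 0 < m c)
    (hT : ∀ g ∈ G2 P m', Tq b m' g = T b (lv m' g)) {c0 : I} {z : E} (hz : z ∈ bdP P b m' c0)
    {ε : I → ℝ} (hε : ∀ a, ∀ j ≤ m' a, |n a j / m a - (j : ℝ) / m' a| ≤ ε a) {M : ℝ}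
    (hM0 : 0 ≤ M)
    (hM : ∀ a, 0 < co P b m' z a → co P b m' z a < m' a → 0 ≤ D a → D a * ε a ≤ M ∧
      D a ≤ M * m a) :
    ‖(rcR hN hN0 hNm F hQ hm' hm c0).f z - z‖ ≤ 4 * M := by
  obtain ⟨hg, -, hz'⟩ := co_bxS F hQ hm' hz
  have hmr : ∀ a, (0 : ℝ) < m a := fun a => by exact_mod_cast hm a
  rw [rcR_f]
  have key := rc_close F hQ hD hm' hm (nuR_Nu hN hN0 hNm)
    (fun a => by rw [nuR_nat (hN a) (hN0 a) le_rfl, hNm])
    (fun a => nuR_injOn (hN a) (hN0 a) (hm' a)) hg (hT _ hg) hM0 (fun a ha ha' => ?_)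
  · rwa [hz'] at key
  · have hmem := G2_mem hm' hg a
    have k := nuR_close (hN a) (hN0 a) (hm' a) (hmr a) (hε a) hmem
    by_cases hD0 : 0 ≤ D a
    · obtain ⟨k1, k2⟩ := hM a ha ha' hD0
      exact ⟨(mul_le_mul_of_nonneg_left k hD0).trans k1, k2⟩
    · push Not at hD0
      refine ⟨?_, ?_⟩
      · have := mul_nonpos_of_nonpos_of_nonneg hD0.le
          (abs_nonneg (nuR (n a) (m' a) (co P b m' z a) / m a - co P b m' z a / m' a))
        linarith
      · have := mul_nonneg hM0 (hmr a).le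
        linarith

end N

end Crest.Agent.R096.Ncl_914

namespace Crest.Agent.R096.Ncl_914

open Crest.Agent.R096.Brk1_582 Crest.Agent.R096.Brk2_582 Crest.Agent.R096.Brk6_582
open Crest.Agent.R096.Grd_714 Crest.Agent.R096.Bin_181 Crest.Agent.R096.Fl_835
open Crest.Agent.R096.Bsp_628 Crest.Agent.R096.Brk3_582 Crest.Agent.R096.Brk5_582

section box

variable {κ : Type*} [Fintype κ] [Nonempty κ] {La : Set (κ → ℝ)} {F : Set (Bx κ)} {δ κ0 : ℝ}

/-- two cells of a foam with a common point of the boundary of `c0`, active colours -/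
theorem sz_active (BF : BoxFoam La F δ κ0) (hLa : IsOpen La) (h3 : Fintype.card κ = 3) {R : ℝ}
    (hcmp : Cmp F R) {m' : F → ℕ} (hm' : ∀ c, 0 < m' c) {g : F → ℝ} (hg : g ∈ G2 (Pc F) m')
    {c0 a : F} (h0 : g c0 = 0) (ha : g a < m' a) : a.1.sz ≤ R * c0.1.sz := by
  obtain ⟨y, hy⟩ := hg.1.2.2
  have h1 : a ∈ {c | lv m' g c < 1} := by
    show lv m' g a < 1
    rwa [lv_lt_one hm']
  have h2 : c0 ∈ {c | lv m' g c < 1} := by
    show lv m' g c0 < 1
    rw [lv_lt_one hm', h0]; exact_mod_cast hm' c0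
  exact hcmp a c0 ⟨y, mem_fc.1 hy a h1, mem_fc.1 hy c0 h2⟩

/-- **`R_c` is close to the identity on the boundary of the brick `c0`, box foams in dimension 3**:
`‖R z - z‖ ≤ 4 R² η sz` if all nodes are `η`-close and `1 / m a ≤ η` -/
theorem rcR_close_box (BF : BoxFoam La F δ κ0) (hLa : IsOpen La) (h3 : Fintype.card κ = 3) {R : ℝ}
    (hR : 0 ≤ R) (hcmp : Cmp F R) (FF : Foam La (Pc F) (bc (F := F)) 4)
    (hQ : Quads (Pc F) (bc (F := F))) {m' m : F → ℕ}
    (hm' : ∀ c, 0 < m' c) (hm : ∀ c, 0 < m c)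
    (hT : ∀ g ∈ G2 (Pc F) m', Tq (bc (F := F)) m' g = T (bc (F := F)) (lv m' g))
    {n : F → ℕ → ℝ} (hN : ∀ a, StrictMono (n a)) (hN0 : ∀ a, n a 0 = 0)
    (hNm : ∀ a, n a (m' a) = m a) {c0 : F} {η : ℝ} (hη : 0 ≤ η)
    (hε : ∀ a, (Pc F a ∩ Pc F c0).Nonempty → ∀ j ≤ m' a, |n a j / m a - (j : ℝ) / m' a| ≤ η)
    (hmη : ∀ a, (Pc F a ∩ Pc F c0).Nonempty → 1 ≤ η * m a) {z : κ → ℝ}
    (hz : z ∈ bdP (Pc F) (bc (F := F)) m' c0) :
    ‖(rcR hN hN0 hNm FF hQ hm' hm c0).f z - z‖ ≤ 4 * (R * (R * c0.1.sz) * η) := by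
  classical
  have hD := step_box BF hLa hcmp
  have hs0 : 0 < c0.1.sz := Bx.sz_pos (BF.pos _ c0.2)
  have hmr : ∀ a, (0 : ℝ) < m a := fun a => by exact_mod_cast hm a
  have hmr' : ∀ a, (0 : ℝ) < m' a := fun a => by exact_mod_cast hm' a
  obtain ⟨hg, hb, -⟩ := co_bxS FF hQ hm' hz
  have hg0 : co (Pc F) (bc (F := F)) m' z c0 = 0 := by
    have := (hb c0).2
    rw [Hc_self] at this
    exact le_antisymm (by simpa using this) (G2_nonneg hm' hg c0)
  refine rcR_close FF hQ hD hN hN0 hNm hm' hm hT hz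
    (ε := fun a => if (Pc F a ∩ Pc F c0).Nonempty then η else 1) (fun a j hj => ?_) (by positivity)
    (fun a ha ha' _ => ?_)
  · split_ifs with ht
    · exact hε a ht j hj
    · have h1 : 0 ≤ n a j := by rw [← hN0 a]; exact (hN a).monotone (Nat.zero_le j)
      have h2 : n a j ≤ m a := by rw [← hNm a]; exact (hN a).monotone hj
      have h3 : 0 ≤ n a j / m a := div_nonneg h1 (hmr a).le
      have h4 : n a j / m a ≤ 1 := (div_le_one (hmr a)).2 h2
      have h5 : 0 ≤ (j : ℝ) / m' a := by positivity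
      have h6 : (j : ℝ) / m' a ≤ 1 := by
        rw [div_le_one (hmr' a)]; exact_mod_cast hj
      rw [abs_le]; constructor <;> linarith
  · have hsz := sz_active BF hLa h3 hcmp hm' hg hg0 ha'
    have ht : (Pc F a ∩ Pc F c0).Nonempty := by
      obtain ⟨y, hy⟩ := hg.1.2.2
      have h1 : a ∈ {c | lv m' (co (Pc F) (bc (F := F)) m' z) c < 1} := by
        show lv m' _ a < 1
        rwa [lv_lt_one hm']
      have h2 : c0 ∈ {c | lv m' (co (Pc F) (bc (F := F)) m' z) c < 1} := by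
        show lv m' _ c0 < 1
        rw [lv_lt_one hm', hg0]; exact_mod_cast hm' c0
      exact ⟨y, mem_fc.1 hy a h1, mem_fc.1 hy c0 h2⟩
    rw [if_pos ht]
    have k1 : R * a.1.sz ≤ R * (R * c0.1.sz) := mul_le_mul_of_nonneg_left hsz hR
    refine ⟨mul_le_mul_of_nonneg_right k1 hη, k1.trans ?_⟩
    have k2 := hmη a ht
    have k3 : 0 ≤ R * (R * c0.1.sz) := by positivity
    calc R * (R * c0.1.sz) = R * (R * c0.1.sz) * 1 := (mul_one _).symm
      _ ≤ R * (R * c0.1.sz) * (η * m a) := mul_le_mul_of_nonneg_left k2 k3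
      _ = R * (R * c0.1.sz) * η * m a := by ring

end box

end Crest.Agent.R096.Ncl_914
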