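import Crest.Agent.R096.Yl1_471
import Crest.Agent.R096.Dff1_539

/-!
# Row 96, DOORS, (NE) in the layers (helper892)

* `up`    : a trace point `hp j w` over `B` is joined straight up with `w` (MON2);
* `walk3` : a vertex point `vc v j` is joined with a giant point or with a trace point;
* `odd`   : (Y2) if `X` contains all trace points over `B` and the trace has different labels at two
            vertices which never move, then `X` has a point on the giant.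
-/

set_option autoImplicit false
set_option linter.unusedSectionVars false
set_option linter.style.longLine false

open Set Module
open scoped Classical

namespace Crest.Agent.R096.Ne_892

open Crest.Agent.R096.Msh_715 Crest.Agent.R096.Agl5_543 Crest.Agent.R096.St_147
  Crest.Agent.R096.Seq_213 Crest.Agent.R096.Door_501 Crest.Agent.R096.Sla_184
  Crest.Agent.R096.Twr_438 Crest.Agent.R096.Exa_560 Crest.Agent.R096.Ess3_95
  Crest.Agent.R096.Ess4_95 Crest.Agent.R096.Dfi_539 Crest.Agent.R096.Dfi_471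
  Crest.Agent.R096.Yl_471 Crest.Agent.R096.Qp_106
open Crest.Agent.R096.Sla_184.Sla (hf vf old tg F0 Fn Out OnS InL In)

theorem ite_iff {p q : Prop} (dp : Decidable p) (dq : Decidable q) (h : p ↔ q) :
    (@ite (ZMod 2) p dp 1 0) = @ite (ZMod 2) q dq 1 0 := by
  by_cases hp : p
  · rw [if_pos hp, if_pos (h.1 hp)]
  · rw [if_neg hp, if_neg fun hq => hp (h.2 hq)]

/-- a sum over the points of a move -/
theorem sum_P' {ι Φ W Vx Ed I : Type} {M : MeshC ι Φ W} {k : ι} {S : Shell M k Vx Ed}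
    {col : I → Bool} {s : St M col} (m : Move S s) (f : S.Pnt → ZMod 2) :
    ∑ x ∈ m.P', f x = ∑ w ∈ s.P, f (S.top w) + (∑ w ∈ m.B, f (S.bot w) +
      ∑ v ∈ m.Qv, f (S.vert v)) := by
  unfold Move.P'
  rw [Finset.sum_union, Finset.sum_union, Finset.sum_image, Finset.sum_image, Finset.sum_image]
  · intro x _ y _ h
    exact Sum.inr.inj (Sum.inr.inj h)
  · intro x _ y _ h
    exact Sum.inl.inj (Sum.inr.inj h)
  · intro x _ y _ h
    exact Sum.inl.inj h
  · rw [Finset.disjoint_left]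
    intro x hx hy
    obtain ⟨u, -, rfl⟩ := Finset.mem_image.1 hx
    obtain ⟨u', -, h⟩ := Finset.mem_image.1 hy
    cases h
  · rw [Finset.disjoint_left]
    intro x hx hy
    obtain ⟨u, -, rfl⟩ := Finset.mem_image.1 hx
    rcases Finset.mem_union.1 hy with hy | hy
    · obtain ⟨u', -, h⟩ := Finset.mem_image.1 hy
      cases h
    · obtain ⟨u', -, h⟩ := Finset.mem_image.1 hy
      cases h

/-- the points of a face with a property: an even number -/
theorem sum_vert {ι Φ W Vx Ed I : Type} {M : MeshC ι Φ W} {k : ι} {S : Shell M k Vx Ed}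
    {col : I → Bool} {s : St M col} (m : Move S s) (hp : m.Par) (e : Ed) (p : S.Pnt → Prop)
    (h : ∀ x ∈ m.P', x ∈ S.On (Sum.inr (Sum.inr e)) → p x → p (m.mu' hp (Sum.inr (Sum.inr e)) x)) :
    ∑ w ∈ s.P, (if w ∈ S.OnE e ∧ p (S.top w) then (1 : ZMod 2) else 0) +
      (∑ w ∈ m.B, (if w ∈ S.OnE e ∧ p (S.bot w) then (1 : ZMod 2) else 0) +
      ((if S.en e false ∈ m.Qv ∧ p (S.vert (S.en e false)) then (1 : ZMod 2) else 0) +
        if S.en e true ∈ m.Qv ∧ p (S.vert (S.en e true)) then (1 : ZMod 2) else 0)) = 0 := by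
  have h0 := sum_inv (m.P'.filter fun x => x ∈ S.On (Sum.inr (Sum.inr e)) ∧ p x)
    (fun _ => (1 : ZMod 2)) (m.mu' hp (Sum.inr (Sum.inr e)))
    (fun x hx => by
      obtain ⟨h1, h2, h4⟩ := Finset.mem_filter.1 hx
      obtain ⟨g1, g2⟩ := m.mu'_mem hp (F := Sum.inr (Sum.inr e)) h1 h2
      exact Finset.mem_filter.2 ⟨g1, g2, h x h1 h2 h4⟩)
    (fun x hx => m.mu'_ne hp (Finset.mem_filter.1 hx).1 (Finset.mem_filter.1 hx).2.1)
    (fun x hx => m.mu'_mu' hp (Finset.mem_filter.1 hx).1 (Finset.mem_filter.1 hx).2.1)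
    (fun _ _ => rfl)
  rw [Finset.sum_filter, sum_P'] at h0
  have e3 : ∑ v ∈ m.Qv, (if S.vert v ∈ S.On (Sum.inr (Sum.inr e)) ∧ p (S.vert v) then
      (1 : ZMod 2) else 0) =
      (if S.en e false ∈ m.Qv ∧ p (S.vert (S.en e false)) then (1 : ZMod 2) else 0) +
        if S.en e true ∈ m.Qv ∧ p (S.vert (S.en e true)) then (1 : ZMod 2) else 0 := by
    rw [← Finset.sum_pair (f := fun v => if v ∈ m.Qv ∧ p (S.vert v) then (1 : ZMod 2) else 0)
      (S.en_ne e), Finset.sum_boole, Finset.sum_boole]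
    congr 2
    ext v
    simp only [Finset.mem_filter, Finset.mem_insert, Finset.mem_singleton]
    constructor
    · rintro ⟨h2, h4, h5⟩
      obtain ⟨b, hb⟩ := S.vert_mem_vert.1 h4
      refine ⟨?_, h2, h5⟩
      cases b
      · exact Or.inl hb.symm
      · exact Or.inr hb.symm
    · rintro ⟨h2, h4, h5⟩
      refine ⟨h4, S.vert_mem_vert.2 ?_, h5⟩
      rcases h2 with rfl | rfl
      · exact ⟨false, rfl⟩
      · exact ⟨true, rfl⟩
  rw [e3] at h0
  refine Eq.trans ?_ h0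
  congr 1
  · exact Finset.sum_congr rfl fun w _ => if_congr (and_congr S.top_mem_vert.symm Iff.rfl) rfl rfl
  · congr 1
    exact Finset.sum_congr rfl fun w _ => if_congr (and_congr S.bot_mem_vert.symm Iff.rfl) rfl rfl

variable {E : Type} [NormedAddCommGroup E] [NormedSpace ℝ E] [FiniteDimensional ℝ E]
variable {Om : Set E} {ι : Type} {T : Tiling Om ι} {κ : Type} {S : Sla T κ}
  {h3 : finrank ℝ E = 3} {J C : Type} {fam : J → C}

section core

variable {s : GSt (S.m0 h3) fam} {Tw : Twrs (S.sh h3) S.n s} {l0 : E → J}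
  {c : κ} {a : C} {j : ℕ} {i : J} {w x : E} {B : Set (S.Ed c)} {D D0 X : Set E}

/-- the points of `D0` are not added again -/
def Mon0 (Tw : Twrs (S.sh h3) S.n s) (c : κ) (a : C) (D0 : Set E) : Prop :=
  ∀ j, ∀ w ∈ ((Tw.tw c a).pat (j + 1)).P, w ∈ D0 → w ∈ ((Tw.tw c a).pat j).P

/-- **straight up** -/
theorem up (hmon : Mon0 Tw c a D0) (hX : Vcl Tw l0 c B i X) {e : S.Ed c} (he : e ∈ B)
    (hw : w ∈ e.1.opn) (hwD : w ∈ D0) : ∀ {j : ℕ}, j ≤ S.n c → w ∈ ((Tw.tw c a).pat j).P →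
      S.hp c j w ∈ X → (s2 S h3 Tw l0).lab (S.hp c j w) = i →
      w ∈ ((Tw.tw c a).pat 0).P ∧ w ∈ X ∧ (s2 S h3 Tw l0).lab w = i := by
  intro j
  induction j with
  | zero =>
    intro _ h1 h2 h4
    rw [Sla.hp_zero] at h2 h4
    exact ⟨h1, h2, h4⟩
  | succ j ih =>
    intro hj h1 h2 h4
    have hj' : j < S.n c := hj
    have g1 := hmon j w h1 hwD
    have hF : S.hp c (j + 1) w ∈ (S.mn h3).On (vf h3 e j) :=
      (Sla.on_vf_hp hj hj' hw).2 ⟨rfl, Or.inr rfl⟩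
    have hx : (Sum.inr (Sum.inl w) : (S.sh h3 c).Pnt) ∈ ((Tw.tw c a).mv j).P' :=
      ((Tw.tw c a).mv j).bot_mem_P'.2 (Twrs.mem_B.2 h1)
    have hxF : (Sum.inr (Sum.inl w) : (S.sh h3 c).Pnt) ∈ (S.sh h3 c).On (Sum.inr (Sum.inr e)) :=
      (S.sh h3 c).bot_mem_vert.2 hw
    have hmu : (s2 S h3 Tw l0).mu (vf h3 e j) (S.hp c (j + 1) w) = S.hp c j w := by
      have h5 := mu_vf (l0 := l0) hj' hx hxF
      rw [Move.mu'_vert_nqe _ _ (((Tw.tw c a).mv j).bot_not_qe g1)] at h5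
      exact h5
    have hP := mem_hp (l0 := l0) hj h1
    have h6 := hX e he j hj' _ h2 hP h4 hF
    rw [hmu] at h6
    have h7 := (s2 S h3 Tw l0).mu_lab hP hF
    rw [hmu, h4] at h7
    exact ih hj'.le g1 h6 h7

/-- **the walk**: a vertex point of the layer `j` is joined with an exact point of the giant or with a
trace point -/
theorem walk3 (hmon : Mon Tw c a D) (hmon0 : Mon0 Tw c a D0) (hX : Vcl Tw l0 c B i X)
    (hB : ∀ e ∈ B, ∀ j, ∀ w ∈ ((Tw.tw c a).pat j).P, w ∈ e.1.opn → w ∈ D ∨ w ∈ D0)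
    (hj : j < S.n c) {v v' : S.Vx c} (hw : Relation.ReflTransGen (Stp S h3 c B) v v')
    (hv' : v' ∉ ((Tw.tw c a).mv j).Qv) (hv : v ∈ ((Tw.tw c a).mv j).Qv)
    (hvX : S.vc c v.1 j ∈ X) (hl : (s2 S h3 Tw l0).lab (S.vc c v.1 j) = i) :
    ∃ e ∈ B, ∃ w, w ∈ e.1.opn ∧ ((w ∈ D ∧ w ∈ ((Tw.tw c a).pat (S.n c)).P ∧
      S.hp c (S.n c) w ∈ X ∧ (s2 S h3 Tw l0).lab (S.hp c (S.n c) w) = i) ∨
      (w ∈ D0 ∧ w ∈ ((Tw.tw c a).pat 0).P ∧ w ∈ X ∧ (s2 S h3 Tw l0).lab w = i)) := by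
  induction hw using Relation.ReflTransGen.head_induction_on with
  | refl => exact absurd hv hv'
  | @head v v1 h1 _ ih =>
    obtain ⟨e, he, b, hb, hb'⟩ := h1
    have hF : S.vc c v.1 j ∈ (S.mn h3).On (vf h3 e j) := (Sla.on_vf_vp hj hj).2 ⟨rfl, b, hb⟩
    have hx : (Sum.inr (Sum.inr v) : (S.sh h3 c).Pnt) ∈ ((Tw.tw c a).mv j).P' :=
      ((Tw.tw c a).mv j).vert_mem_P'.2 hv
    have hq : (Sum.inr (Sum.inr v) : (S.sh h3 c).Pnt) ∈ ((Tw.tw c a).mv j).qe :=
      ((Tw.tw c a).mv j).vert_mem_qe.2 hv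
    have hxF : (Sum.inr (Sum.inr v) : (S.sh h3 c).Pnt) ∈ (S.sh h3 c).On (Sum.inr (Sum.inr e)) :=
      Or.inr (Or.inr ⟨b, by rw [hb]⟩)
    have hpr := ((Tw.tw c a).mv j).pr_spec ((Tw.tw c a).par j) e _
      (((Tw.tw c a).mv j).mem_qon.2 ⟨hq, hxF⟩)
    have hmu := mu_vf (l0 := l0) hj hx hxF
    rw [Move.mu'_vert_qe _ _ hq] at hmu
    have hP := mem_vp (l0 := l0) hj hv
    have h6 := hX e he j hj _ hvX hP hl hF
    have h7 := (s2 S h3 Tw l0).mu_lab hP hF
    have e1 : Twrs.emb (S.cols h3) c j (Sum.inr (Sum.inr v)) = S.vc c v.1 j := rfl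
    rw [e1] at hmu
    rw [hmu] at h6 h7
    rw [hl] at h7
    obtain ⟨g1, g2, -, -, -⟩ := hpr
    obtain ⟨y, hy⟩ : ∃ y, y = ((Tw.tw c a).mv j).pr ((Tw.tw c a).par j) e
      (Sum.inr (Sum.inr v)) := ⟨_, rfl⟩
    rw [← hy] at g1 g2 h6 h7
    obtain ⟨g3, g4⟩ := ((Tw.tw c a).mv j).mem_qon.1 g1
    rcases y with w | w | v''
    · -- a top point
      obtain ⟨p1, p2, -⟩ := ((Tw.tw c a).mv j).top_mem_qe.1 g3
      have p4 : w ∈ e.1.opn := (S.sh h3 c).top_mem_vert.1 g4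
      rcases hB e he j w p1 p4 with p5 | p5
      · exact absurd (Twrs.mem_B.2 (hmon j w p1 p5)) p2
      · obtain ⟨q1, q2, q4⟩ := up hmon0 hX he p4 p5 hj.le p1 h6 h7
        exact ⟨e, he, w, p4, Or.inr ⟨p5, q1, q2, q4⟩⟩
    · -- a bottom point
      obtain ⟨p1, p1'⟩ := ((Tw.tw c a).mv j).bot_mem_qe.1 g3
      have p4 : w ∈ e.1.opn := (S.sh h3 c).bot_mem_vert.1 g4
      have p5 := Twrs.mem_B.1 p1
      rcases hB e he (j + 1) w p5 p4 with p6 | p6
      · obtain ⟨q1, q2, q4⟩ := down hmon hX he p4 p6 (show j + 1 ≤ S.n c by omega) p5 h6 h7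
        exact ⟨e, he, w, p4, Or.inl ⟨p6, q1, q2, q4⟩⟩
      · exact absurd (hmon0 j w p5 p6) p1'
    · -- the other end of the edge
      have p1 := ((Tw.tw c a).mv j).vert_mem_qe.1 g3
      have p2 : v'' = v1 := by
        rcases g4 with ⟨_, _, h⟩ | ⟨_, _, h⟩ | ⟨b', h⟩
        · cases h
        · cases h
        · have h8 : v'' = (S.sh h3 c).en e b' := Sum.inr.inj (Sum.inr.inj h)
          have h9 : b' = !b := by
            by_contra hne
            have h10 : b' = b := by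
              cases b <;> cases b' <;> simp_all
            rw [h10, hb] at h8
            exact g2 (by rw [h8])
          rw [h8, h9, hb']
      rw [p2] at p1 h6 h7
      exact ih p1 h6 h7

/-! ### parity -/

/-- number mod 2 of the points of `X` (name `i`) on the edge `e` at the level `j` -/
noncomputable def ft (Tw : Twrs (S.sh h3) S.n s) (c : κ) (a : C) (i : J) (X : Set E) (j : ℕ)
    (e : S.Ed c) : ZMod 2 :=
  ((((Tw.tw c a).pat j).P.filter fun w => w ∈ e.1.opn ∧ ((Tw.tw c a).pat j).lab w = i ∧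
    S.hp c j w ∈ X).card : ZMod 2)

/-- the vertex points of `X` -/
noncomputable def gv (Tw : Twrs (S.sh h3) S.n s) (c : κ) (a : C) (i : J) (X : Set E) (j : ℕ)
    (v : S.Vx c) : ZMod 2 :=
  if v ∈ ((Tw.tw c a).mv j).Qv ∧ ((Tw.tw c a).mv j).i0 = i ∧ S.vc c v.1 j ∈ X then 1 else 0

/-- **a vertical face** -/
theorem face_par (hX : Vcl Tw l0 c B i X) {e : S.Ed c} (he : e ∈ B) (hj : j < S.n c) :
    ft Tw c a i X j e + ft Tw c a i X (j + 1) e +
      (gv Tw c a i X j ((S.sh h3 c).en e false) + gv Tw c a i X j ((S.sh h3 c).en e true)) = 0 := by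
  set m := (Tw.tw c a).mv j with hm
  have hmemP : ∀ x ∈ m.P', (Twrs.emb (S.cols h3) c j x ∈ (s2 S h3 Tw l0).P) ∧
      (s2 S h3 Tw l0).lab (Twrs.emb (S.cols h3) c j x) = m.lab' x := by
    intro x hx
    rcases x with w | w | v
    · have h1 : w ∈ ((Tw.tw c a).pat j).P := m.top_mem_P'.1 hx
      exact ⟨mem_hp hj.le h1, lab_hp hj.le h1⟩
    · have h1 := Twrs.mem_B.1 (m.bot_mem_P'.1 hx)
      refine ⟨mem_hp (show j + 1 ≤ S.n c from hj) h1, (lab_hp (show j + 1 ≤ S.n c from hj) h1).trans ?_⟩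
      exact (Twrs.lab0_eq w).symm
    · have h1 := m.vert_mem_P'.1 hx
      exact ⟨mem_vp hj h1, lab_vp hj h1⟩
  have h0 := sum_vert m ((Tw.tw c a).par j) e (fun x => m.lab' x = i ∧
    Twrs.emb (S.cols h3) c j x ∈ X) (by
    rintro x h1 h2 ⟨h4, h5⟩
    obtain ⟨g3, g4⟩ := hmemP x h1
    have g5 := hX e he j hj _ h5 g3 (g4.trans h4) (Twrs.emb_on (Z := S.cols h3) hj h2)
    rw [mu_vf hj h1 h2] at g5
    exact ⟨(m.mu'_lab ((Tw.tw c a).par j) (F := Sum.inr (Sum.inr e)) h1 h2).trans h4, g5⟩)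
  have e1 : ft Tw c a i X j e = ∑ w ∈ ((Tw.tw c a).pat j).P,
      (if w ∈ (S.sh h3 c).sphSh.OnE e ∧ (m.lab' ((S.sh h3 c).sphSh.top w) = i ∧
        Twrs.emb (S.cols h3) c j ((S.sh h3 c).sphSh.top w) ∈ X) then (1 : ZMod 2) else 0) := by
    unfold ft
    rw [Finset.sum_boole]
    rfl
  have e2 : ft Tw c a i X (j + 1) e = ∑ w ∈ m.B,
      (if w ∈ (S.sh h3 c).sphSh.OnE e ∧ (m.lab' ((S.sh h3 c).sphSh.bot w) = i ∧
        Twrs.emb (S.cols h3) c j ((S.sh h3 c).sphSh.bot w) ∈ X) then (1 : ZMod 2) else 0) := by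
    unfold ft
    rw [Finset.sum_boole]
    congr 2
    ext w
    simp only [Finset.mem_filter]
    refine and_congr (Twrs.mem_B (T := Tw)).symm (and_congr Iff.rfl (and_congr ?_ Iff.rfl))
    show _ ↔ ((Tw.tw c a).mv j).lab0 w = i
    rw [Twrs.lab0_eq]
  rw [e1, e2, add_assoc]
  refine Eq.trans ?_ h0
  congr 1
  · exact Finset.sum_congr rfl fun w _ => ite_iff _ _ Iff.rfl
  · congr 1
    · exact Finset.sum_congr rfl fun w _ => ite_iff _ _ Iff.rfl
    · unfold gv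
      congr 1
      · exact ite_iff _ _ Iff.rfl
      · exact ite_iff _ _ Iff.rfl

/-- **(Y2)** -/
theorem odd (hX : Vcl Tw l0 c B i X) {u0 u1 : S.Vx c}
    (hw : Relation.ReflTransGen (Stp S h3 c B) u0 u1)
    (h0 : ∀ j, j < S.n c → u0 ∉ ((Tw.tw c a).mv j).Qv)
    (h1 : ∀ j, j < S.n c → u1 ∉ ((Tw.tw c a).mv j).Qv)
    (htr : ∀ e ∈ B, ∀ w ∈ ((Tw.tw c a).pat 0).P, w ∈ e.1.opn → ((Tw.tw c a).pat 0).lab w = i →
      w ∈ X)
    {lm : S.Vx c → ZMod 2}
    (hlm : ∀ e ∈ B, lm ((S.sh h3 c).en e false) + lm ((S.sh h3 c).en e true) =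
      ((((Tw.tw c a).pat 0).P.filter fun w => w ∈ e.1.opn ∧
        ((Tw.tw c a).pat 0).lab w = i).card : ZMod 2)) (hne : lm u0 ≠ lm u1) :
    ∃ e ∈ B, ∃ w ∈ ((Tw.tw c a).pat (S.n c)).P, w ∈ e.1.opn ∧
      ((Tw.tw c a).pat (S.n c)).lab w = i ∧ S.hp c (S.n c) w ∈ X := by
  by_contra hcon
  push Not at hcon
  -- potentials
  have key : ∀ d, d ≤ S.n c → ∃ l : S.Vx c → ZMod 2, (∀ e ∈ B,
      ft Tw c a i X (S.n c - d) e = l ((S.sh h3 c).en e false) + l ((S.sh h3 c).en e true)) ∧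
      l u0 = 0 ∧ l u1 = 0 := by
    intro d
    induction d with
    | zero =>
      intro _
      refine ⟨fun _ => 0, fun e he => ?_, rfl, rfl⟩
      rw [add_zero, Nat.sub_zero]
      unfold ft
      rw [Finset.filter_false_of_mem, Finset.card_empty, Nat.cast_zero]
      rintro w hw ⟨h2, h4, h5⟩
      exact hcon e he w hw h2 h4 h5
    | succ d ih =>
      intro hd
      obtain ⟨l, g1, g2, g3⟩ := ih (by omega)
      have hj : S.n c - (d + 1) < S.n c := by omega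
      have hj1 : S.n c - (d + 1) + 1 = S.n c - d := by omega
      refine ⟨fun v => l v + gv Tw c a i X (S.n c - (d + 1)) v, fun e he => ?_, ?_, ?_⟩
      · have g4 := face_par (a := a) hX he hj
        rw [hj1, g1 e he] at g4
        have z : ∀ p q r s t : ZMod 2, p + (q + r) + (s + t) = 0 → p = q + s + (r + t) := by decide
        exact z _ _ _ _ _ g4
      · show l u0 + gv Tw c a i X _ u0 = 0
        rw [g2, zero_add]
        exact if_neg fun h => h0 _ hj h.1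
      · show l u1 + gv Tw c a i X _ u1 = 0
        rw [g3, zero_add]
        exact if_neg fun h => h1 _ hj h.1
  obtain ⟨l, g1, g2, g3⟩ := key (S.n c) le_rfl
  rw [Nat.sub_self] at g1
  have hf0 : ∀ e ∈ B, ft Tw c a i X 0 e =
      lm ((S.sh h3 c).en e false) + lm ((S.sh h3 c).en e true) := by
    intro e he
    rw [hlm e he]
    unfold ft
    congr 2
    ext w
    simp only [Finset.mem_filter]
    refine and_congr_right fun hw => ?_
    constructor
    · rintro ⟨h2, h4, -⟩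
      exact ⟨h2, h4⟩
    · rintro ⟨h2, h4⟩
      refine ⟨h2, h4, ?_⟩
      rw [Sla.hp_zero]
      exact htr e he w hw h2 h4
  have hconst : l u0 + lm u0 = l u1 + lm u1 := by
    clear hne h1 h0 key g3
    induction hw with
    | refl => rfl
    | @tail v v1 _ hs ih =>
      obtain ⟨e, he, b, hb, hb'⟩ := hs
      have h2 := (g1 e he).symm.trans (hf0 e he)
      have z : ∀ p q r s : ZMod 2, p + q = r + s → p + r = q + s := by decide
      have h4 := z _ _ _ _ h2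
      rw [ih]
      cases b
      · rw [← hb, ← hb']
        exact h4
      · rw [← hb, ← hb']
        exact h4.symm
  rw [g2, g3, zero_add, zero_add] at hconst
  exact hne hconst

end core

/-! ### over a region -/

section y

variable [Nonempty J] {s : GSt (meshC T h3) fam} {r : J → E}
  {v0 v1 : ∀ c, C → VxK T S.K c} {L : ∀ c, C → Lev T (frontier (S.K c)) J}
  {Tw : Twrs (S.sh h3) S.n (outK S.hH S.dis s r)} {l0 : E → J}
  {c : κ} {a : C} {i : J} {A X : Set E} {h : E}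

/-- a vertex of `A` is in `VA` -/
theorem mem_VA {v : S.Vx c} (hv : v.1 ∈ A) : v ∈ VA S c A := by
  have hO : v.1 ∈ Om := (S.hH c).sub ((S.hH c).cpt.isClosed.frontier_subset v.2.2)
  refine ⟨T.cl hO, ?_, ?_, v.1, ?_, hv⟩
  · rw [T.cl_set]; exact (S.hH c).cc _ v.2.2
  · rw [T.cl_set]; exact T.self_mem_cc _
  · rw [T.cl_set]; exact T.self_mem_cc _

/-- **(Y1)**: every point of the layers over `A` is joined by chords on the vertical faces over the
cells which meet `A` with a point of the boundary of the shrunk core or with a point of the trace -/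
theorem y_three (tt : TwOut S h3 s r v0 v1 L Tw)
    (hmon : Mon Tw c a {w | w ∈ (exa h3 S.hH S.dis (L c a)).P})
    (hmon0 : Mon0 Tw c a {w | w ∈ (trc S.hH S.dis s r c a).P})
    (hA : IsCompact A) (hAc : IsPreconnected A) (hAf : A ⊆ frontier (S.K c))
    {v' : S.Vx c} (hv' : v'.1 ∈ A)
    (hR : ∀ i, ¬ Rgn (S.sh h3 c) (v0 c a) (v1 c a) (trc S.hH S.dis s r c a)
      (exa h3 S.hH S.dis (L c a)) i v')
    (hX : Vcl Tw l0 c (EA S c A) i X) (hhX : h ∈ X) (hl : (s2 S h3 Tw l0).lab h = i)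
    (hh : (∃ j w, j ≤ S.n c ∧ w ∈ ((Tw.tw c a).pat j).P ∧ w ∈ A ∧ h = S.hp c j w) ∨
      ∃ j, ∃ v : S.Vx c, j < S.n c ∧ v ∈ ((Tw.tw c a).mv j).Qv ∧ v.1 ∈ A ∧ h = S.vc c v.1 j) :
    ∃ e ∈ EA S c A, ∃ w, w ∈ e.1.opn ∧ ((w ∈ (exa h3 S.hH S.dis (L c a)).P ∧
      S.hp c (S.n c) w ∈ X ∧ S.hp c (S.n c) w ∈ (s2 S h3 Tw l0).P ∧
      (s2 S h3 Tw l0).lab (S.hp c (S.n c) w) = i) ∨
      (w ∈ (trc S.hH S.dis s r c a).P ∧ w ∈ X ∧ (s2 S h3 Tw l0).lab w = i)) := by
  have hB : ∀ e ∈ EA S c A, ∀ j, ∀ w ∈ ((Tw.tw c a).pat j).P, w ∈ e.1.opn →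
      w ∈ {w | w ∈ (exa h3 S.hH S.dis (L c a)).P} ∨
        w ∈ {w | w ∈ (trc S.hH S.dis s r c a).P} := by
    intro e _ j w hw _
    rcases tt.fits c a j w hw with h1 | h1
    · exact Or.inr h1.1
    · exact Or.inl h1.1
  rcases hh with ⟨j, w, hj, hw, hwA, rfl⟩ | ⟨j, v, hj, hv, hvA, rfl⟩
  · obtain ⟨e, he⟩ := pat_onE hw
    have heB : e ∈ EA S c A := ⟨e.1, e.2.2, Subset.rfl, w, e.1.opn_sub he, hwA⟩
    rcases hB e heB j w hw he with h1 | h1
    · obtain ⟨g1, g2, g3⟩ := down hmon hX heB he h1 hj hw hhX hl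
      exact ⟨e, heB, w, he, Or.inl ⟨h1, g2, mem_hp le_rfl g1, g3⟩⟩
    · obtain ⟨g1, g2, g3⟩ := up hmon0 hX heB he h1 hj hw hhX hl
      exact ⟨e, heB, w, he, Or.inr ⟨h1, g2, g3⟩⟩
  · obtain ⟨e, he, w, g1, g2⟩ := walk3 hmon hmon0 hX hB hj
      (join (h3 := h3) hA hAc hAf (mem_VA hvA) (mem_VA hv'))
      (fun h1 => hR _ (tt.rgn c a j v' h1)) hv hhX hl
    rcases g2 with ⟨k1, k2, k4, k5⟩ | ⟨k1, k2, k4, k5⟩
    · exact ⟨e, he, w, g1, Or.inl ⟨k1, k4, mem_hp le_rfl k2, k5⟩⟩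
    · exact ⟨e, he, w, g1, Or.inr ⟨k1, k4, k5⟩⟩

/-- **(Y2)**: if `X` contains all points of the trace (name `i`) on the edges over `A`, and the trace has
different labels at two vertices of `A` which never move, then `X` has a point on the boundary of the
shrunk core -/
theorem y_odd (tt : TwOut S h3 s r v0 v1 L Tw)
    (hA : IsCompact A) (hAc : IsPreconnected A) (hAf : A ⊆ frontier (S.K c))
    {v v' : S.Vx c} (hv : v.1 ∈ A) (hv' : v'.1 ∈ A)
    (hR : ∀ i, ¬ Rgn (S.sh h3 c) (v0 c a) (v1 c a) (trc S.hH S.dis s r c a)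
      (exa h3 S.hH S.dis (L c a)) i v)
    (hR' : ∀ i, ¬ Rgn (S.sh h3 c) (v0 c a) (v1 c a) (trc S.hH S.dis s r c a)
      (exa h3 S.hH S.dis (L c a)) i v')
    (hX : Vcl Tw l0 c (EA S c A) i X)
    (htr : ∀ e ∈ EA S c A, ∀ w ∈ (trc S.hH S.dis s r c a).P, w ∈ e.1.opn → s.lab w = i → w ∈ X)
    {lm : S.Vx c → ZMod 2}
    (hlm : ∀ e ∈ EA S c A, lm ((S.sh h3 c).en e false) + lm ((S.sh h3 c).en e true) =
      (((trc S.hH S.dis s r c a).P.filter fun w => w ∈ e.1.opn ∧ s.lab w = i).card : ZMod 2))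
    (hne : lm v ≠ lm v') :
    ∃ e ∈ EA S c A, ∃ w, w ∈ e.1.opn ∧ w ∈ (exa h3 S.hH S.dis (L c a)).P ∧
      S.hp c (S.n c) w ∈ X ∧ S.hp c (S.n c) w ∈ (s2 S h3 Tw l0).P ∧
      (s2 S h3 Tw l0).lab (S.hp c (S.n c) w) = i := by
  obtain ⟨e, he, w, g1, g2, g4, g5⟩ := odd (a := a) (i := i) hX
    (join (h3 := h3) hA hAc hAf (mem_VA hv) (mem_VA hv'))
    (fun j _ h1 => hR _ (tt.rgn c a j v h1)) (fun j _ h1 => hR' _ (tt.rgn c a j v' h1))
    (by
      rw [tt.top c a]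
      exact fun e he w hw hwe hwl => htr e he w hw hwe hwl) (lm := lm)
    (by
      intro e he
      rw [hlm e he, tt.top c a]
      rfl) hne
  refine ⟨e, he, w, g2, ?_, g5, mem_hp le_rfl g1, (lab_hp le_rfl g1).trans g4⟩
  rw [← (tt.bot c a).1]
  exact g1

end y

end Crest.Agent.R096.Ne_892
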