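import Crest.Agent.R096.Yl1_471

/-!
# Row 96, DOORS, (Y2) of 892 #12098 (helper713): parity along a path of edges of the sphere

`chain_bd`  : a walk of edges is a list with boundary `v + v'`.
`face_par`  : on a vertical face the number of points (name `i`, in `X`) is even.
`lay_par`   : the parity of the number of points over a walk is the same in all layers.
`y2`        : **(Y2)**.
-/

set_option autoImplicit false
set_option linter.unusedSectionVars false
set_option linter.style.longLine false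

open Set Module
open scoped Classical

namespace Crest.Agent.R096.Ne_713

open Crest.Agent.R096.Msh_715 Crest.Agent.R096.Agl5_543 Crest.Agent.R096.St_147
  Crest.Agent.R096.Seq_213 Crest.Agent.R096.Door_501 Crest.Agent.R096.Sla_184
  Crest.Agent.R096.Twr_438 Crest.Agent.R096.Exa_560 Crest.Agent.R096.Ess3_95
  Crest.Agent.R096.Ess4_95 Crest.Agent.R096.Dfi_539 Crest.Agent.R096.Dfi_471
  Crest.Agent.R096.Yl_471
open Crest.Agent.R096.Sla_184.Sla (hf vf old tg F0 Fn Out OnS InL In)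

variable {E : Type} [NormedAddCommGroup E] [NormedSpace ℝ E] [FiniteDimensional ℝ E]
variable {Om : Set E} {ι : Type} {T : Tiling Om ι} {κ : Type} {S : Sla T κ}
  {h3 : finrank ℝ E = 3} {J C : Type} {fam : J → C}

variable {s : GSt (S.m0 h3) fam} {Tw : Twrs (S.sh h3) S.n s} {l0 : E → J}
  {c : κ} {a : C} {j : ℕ} {i : J} {w x : E} {B : Set (S.Ed c)} {D X : Set E}

/-- a walk as a list of edges -/
theorem chain_bd {v v' : S.Vx c} (hw : Relation.ReflTransGen (Stp S h3 c B) v v') :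
    ∃ l : List (S.Ed c), (∀ e ∈ l, e ∈ B) ∧ ∀ g : S.Vx c → ZMod 2,
      (l.map fun e => g ((S.sh h3 c).en e false) + g ((S.sh h3 c).en e true)).sum = g v + g v' := by
  induction hw with
  | refl =>
    refine ⟨[], by simp, fun g => ?_⟩
    simp only [List.map_nil, List.sum_nil]
    exact (CharTwo.add_self_eq_zero _).symm
  | @tail v1 v2 _ h1 ih =>
    obtain ⟨l, hl, hg⟩ := ih
    obtain ⟨e, he, b, hb, hb'⟩ := h1
    refine ⟨e :: l, ?_, fun g => ?_⟩
    · intro e' he'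
      rcases List.mem_cons.1 he' with rfl | h
      · exact he
      · exact hl _ h
    · rw [List.map_cons, List.sum_cons, hg]
      have h2 : g ((S.sh h3 c).en e false) + g ((S.sh h3 c).en e true) = g v1 + g v2 := by
        cases b
        · rw [← hb, ← hb']; rfl
        · rw [← hb, ← hb', add_comm]; rfl
      rw [h2]
      have h4 : g v1 + g v1 = 0 := CharTwo.add_self_eq_zero _
      linear_combination h4

/-- the points of the name `i` in `X` over the edge `e` in the layer `j` -/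
noncomputable def nT (X : Set E) (Tw : Twrs (S.sh h3) S.n s) (l0 : E → J) (c : κ) (a : C) (i : J)
    (j : ℕ) (e : S.Ed c) : ZMod 2 :=
  ∑ _w ∈ ((Tw.tw c a).pat j).P.filter (fun w => w ∈ e.1.opn ∧
    (s2 S h3 Tw l0).lab (S.hp c j w) = i ∧ S.hp c j w ∈ X), 1

/-- the points over a vertex -/
noncomputable def nV (X : Set E) (Tw : Twrs (S.sh h3) S.n s) (l0 : E → J) (c : κ) (a : C) (i : J)
    (j : ℕ) (v : S.Vx c) : ZMod 2 :=
  if v ∈ ((Tw.tw c a).mv j).Qv ∧ (s2 S h3 Tw l0).lab (S.vc c v.1 j) = i ∧ S.vc c v.1 j ∈ X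
    then 1 else 0

/-- **the number of the points on a vertical face is even** -/
theorem face_par (hX : Vcl Tw l0 c B i X) {e : S.Ed c} (he : e ∈ B) (hj : j < S.n c) :
    nT X Tw l0 c a i j e + nT X Tw l0 c a i (j + 1) e +
      (nV X Tw l0 c a i j ((S.sh h3 c).en e false) +
        nV X Tw l0 c a i j ((S.sh h3 c).en e true)) = 0 := by
  have hen : (S.sh h3 c).en e false ≠ (S.sh h3 c).en e true := (S.sh h3 c).en_ne e
  -- the points on the face
  obtain ⟨G, hG⟩ : ∃ G : Finset (S.sh h3 c).Pnt, G = (((Tw.tw c a).mv j).P').filter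
      (fun x0 => x0 ∈ (S.sh h3 c).On (Sum.inr (Sum.inr e)) ∧
        (s2 S h3 Tw l0).lab (Twrs.emb (S.cols h3) c j x0) = i ∧
          Twrs.emb (S.cols h3) c j x0 ∈ X) := ⟨_, rfl⟩
  have hmem : ∀ x0, x0 ∈ G ↔ x0 ∈ ((Tw.tw c a).mv j).P' ∧
      x0 ∈ (S.sh h3 c).On (Sum.inr (Sum.inr e)) ∧
        (s2 S h3 Tw l0).lab (Twrs.emb (S.cols h3) c j x0) = i ∧
          Twrs.emb (S.cols h3) c j x0 ∈ X := by
    intro x0; rw [hG, Finset.mem_filter]
  have hOn : ∀ x0 ∈ ((Tw.tw c a).mv j).P', x0 ∈ (S.sh h3 c).On (Sum.inr (Sum.inr e)) →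
      Twrs.emb (S.cols h3) c j x0 ∈ (s2 S h3 Tw l0).P ∧
        Twrs.emb (S.cols h3) c j x0 ∈ (S.mn h3).On (vf h3 e j) := by
    intro x0 h1 h2
    rcases x0 with w | w | v
    · have h4 : w ∈ e.1.opn := (S.sh h3 c).top_mem_vert.1 h2
      exact ⟨mem_hp hj.le (((Tw.tw c a).mv j).top_mem_P'.1 h1),
        (Sla.on_vf_hp hj.le hj h4).2 ⟨rfl, Or.inl rfl⟩⟩
    · have h4 : w ∈ e.1.opn := (S.sh h3 c).bot_mem_vert.1 h2
      exact ⟨mem_hp (show j + 1 ≤ S.n c by omega)
        (Twrs.mem_B.1 (((Tw.tw c a).mv j).bot_mem_P'.1 h1)),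
        (Sla.on_vf_hp (show j + 1 ≤ S.n c by omega) hj h4).2 ⟨rfl, Or.inr rfl⟩⟩
    · have h4 := ((Tw.tw c a).mv j).vert_mem_P'.1 h1
      refine ⟨mem_vp hj h4, (Sla.on_vf_vp hj hj).2 ⟨rfl, ?_⟩⟩
      rcases h2 with ⟨_, _, h⟩ | ⟨_, _, h⟩ | ⟨b', h⟩
      · cases h
      · cases h
      · exact ⟨b', (Sum.inr.inj (Sum.inr.inj h)).symm⟩
  -- the involution
  have hev : ∑ _x ∈ G, (1 : ZMod 2) = 0 := by
    refine Finset.sum_involution
      (fun x0 _ => ((Tw.tw c a).mv j).mu' ((Tw.tw c a).par j) (Sum.inr (Sum.inr e)) x0)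
      ?_ ?_ ?_ ?_
    · intro x0 _
      exact CharTwo.add_self_eq_zero _
    · intro x0 hx0 _
      obtain ⟨g1, g2, -⟩ := (hmem x0).1 hx0
      exact ((Tw.tw c a).mv j).mu'_ne _ g1 g2
    · intro x0 hx0
      obtain ⟨g1, g2, g3, g4⟩ := (hmem x0).1 hx0
      obtain ⟨k1, k2⟩ := hOn x0 g1 g2
      have h5 := mu_vf (l0 := l0) hj g1 g2
      have h6 := hX e he j hj _ g4 k1 g3 k2
      have h7 := (s2 S h3 Tw l0).mu_lab k1 k2
      rw [h5] at h6 h7
      obtain ⟨m1, m2⟩ := ((Tw.tw c a).mv j).mu'_mem ((Tw.tw c a).par j)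
        (F := Sum.inr (Sum.inr e)) g1 g2
      exact (hmem _).2 ⟨m1, m2, h7.trans g3, h6⟩
    · intro x0 hx0
      obtain ⟨g1, g2, -⟩ := (hmem x0).1 hx0
      exact ((Tw.tw c a).mv j).mu'_mu' _ g1 g2
  -- the three classes
  let Gt : Finset E := ((Tw.tw c a).pat j).P.filter (fun w => w ∈ e.1.opn ∧
    (s2 S h3 Tw l0).lab (S.hp c j w) = i ∧ S.hp c j w ∈ X)
  let Gb : Finset E := ((Tw.tw c a).pat (j + 1)).P.filter (fun w => w ∈ e.1.opn ∧
    (s2 S h3 Tw l0).lab (S.hp c (j + 1) w) = i ∧ S.hp c (j + 1) w ∈ X)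
  let Gv : Finset (S.Vx c) := (({(S.sh h3 c).en e false, (S.sh h3 c).en e true} :
    Finset (S.Vx c))).filter (fun v => v ∈ ((Tw.tw c a).mv j).Qv ∧
      (s2 S h3 Tw l0).lab (S.vc c v.1 j) = i ∧ S.vc c v.1 j ∈ X)
  have hsplit : ∑ _x ∈ G, (1 : ZMod 2) = ∑ _x ∈ Gt, (1 : ZMod 2) + (∑ _x ∈ Gb, (1 : ZMod 2) +
      ∑ _x ∈ Gv, (1 : ZMod 2)) := by
    have h1 : G = Gt.disjSum (Gb.disjSum Gv) := by
      ext x0
      rw [hmem]
      rcases x0 with w | w | v
      · rw [Finset.inl_mem_disjSum, Finset.mem_filter]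
        constructor
        · rintro ⟨g1, g2, g3, g4⟩
          exact ⟨((Tw.tw c a).mv j).top_mem_P'.1 g1, (S.sh h3 c).top_mem_vert.1 g2, g3, g4⟩
        · rintro ⟨g1, g2, g3, g4⟩
          exact ⟨((Tw.tw c a).mv j).top_mem_P'.2 g1, (S.sh h3 c).top_mem_vert.2 g2, g3, g4⟩
      · rw [Finset.inr_mem_disjSum, Finset.inl_mem_disjSum, Finset.mem_filter]
        constructor
        · rintro ⟨g1, g2, g3, g4⟩
          exact ⟨Twrs.mem_B.1 (((Tw.tw c a).mv j).bot_mem_P'.1 g1),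
            (S.sh h3 c).bot_mem_vert.1 g2, g3, g4⟩
        · rintro ⟨g1, g2, g3, g4⟩
          exact ⟨((Tw.tw c a).mv j).bot_mem_P'.2 (Twrs.mem_B.2 g1),
            (S.sh h3 c).bot_mem_vert.2 g2, g3, g4⟩
      · rw [Finset.inr_mem_disjSum, Finset.inr_mem_disjSum, Finset.mem_filter,
          Finset.mem_insert, Finset.mem_singleton]
        constructor
        · rintro ⟨g1, g2, g3, g4⟩
          refine ⟨?_, ((Tw.tw c a).mv j).vert_mem_P'.1 g1, g3, g4⟩
          rcases g2 with ⟨_, _, h⟩ | ⟨_, _, h⟩ | ⟨b', h⟩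
          · cases h
          · cases h
          · have h8 : v = (S.sh h3 c).en e b' := Sum.inr.inj (Sum.inr.inj h)
            cases b'
            · exact Or.inl h8
            · exact Or.inr h8
        · rintro ⟨g2, g1, g3, g4⟩
          refine ⟨((Tw.tw c a).mv j).vert_mem_P'.2 g1, ?_, g3, g4⟩
          rcases g2 with h | h
          · exact Or.inr (Or.inr ⟨false, by rw [h]⟩)
          · exact Or.inr (Or.inr ⟨true, by rw [h]⟩)
    rw [h1, Finset.sum_disjSum, Finset.sum_disjSum]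
  have hv : ∑ _x ∈ Gv, (1 : ZMod 2) = nV X Tw l0 c a i j ((S.sh h3 c).en e false) +
      nV X Tw l0 c a i j ((S.sh h3 c).en e true) := by
    show ∑ _x ∈ Finset.filter _ _, (1 : ZMod 2) = _
    rw [Finset.sum_filter, Finset.sum_pair hen]
    rfl
  rw [hsplit, hv] at hev
  have h9 : ∑ _x ∈ Gt, (1 : ZMod 2) = nT X Tw l0 c a i j e := rfl
  have h10 : ∑ _x ∈ Gb, (1 : ZMod 2) = nT X Tw l0 c a i (j + 1) e := rfl
  rw [h9, h10, ← add_assoc] at hev
  exact hev

/-- **the parity over a walk is the same in all layers** -/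
theorem lay_par (hX : Vcl Tw l0 c B i X) {v v' : S.Vx c} {l : List (S.Ed c)}
    (hl : ∀ e ∈ l, e ∈ B) (hg : ∀ g : S.Vx c → ZMod 2,
      (l.map fun e => g ((S.sh h3 c).en e false) + g ((S.sh h3 c).en e true)).sum = g v + g v')
    (hv : ∀ j, v ∉ ((Tw.tw c a).mv j).Qv) (hv' : ∀ j, v' ∉ ((Tw.tw c a).mv j).Qv) :
    ∀ j, j ≤ S.n c → (l.map fun e => nT X Tw l0 c a i j e).sum =
      (l.map fun e => nT X Tw l0 c a i 0 e).sum := by
  intro j
  induction j with
  | zero => intro _; rfl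
  | succ j ih =>
    intro hj
    rw [← ih (by omega)]
    have h1 : (l.map fun e => nT X Tw l0 c a i j e + nT X Tw l0 c a i (j + 1) e +
      (nV X Tw l0 c a i j ((S.sh h3 c).en e false) +
        nV X Tw l0 c a i j ((S.sh h3 c).en e true))).sum = 0 := by
      apply List.sum_eq_zero
      intro x hx
      obtain ⟨e, he, rfl⟩ := List.mem_map.1 hx
      exact face_par hX (hl e he) (by omega)
    rw [List.sum_map_add, List.sum_map_add, hg (nV X Tw l0 c a i j)] at h1
    have h2 : nV X Tw l0 c a i j v = 0 := if_neg fun h => hv j h.1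
    have h4 : nV X Tw l0 c a i j v' = 0 := if_neg fun h => hv' j h.1
    rw [h2, h4, add_zero, add_zero] at h1
    have h5 := CharTwo.add_self_eq_zero (l.map fun e => nT X Tw l0 c a i j e).sum
    linear_combination h1 - h5

/-- **(Y2)**: `X` is closed under the chords of the name `i` on the vertical faces over `B` and
contains the points of the name `i` of the trace over `B`; `v`, `v'` are joined over `B`, never
move and have different labels.  Then `X` contains a point of the name `i` on the boundary of the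
shrunk core over `B`. -/
theorem y2 (hX : Vcl Tw l0 c B i X) {v v' : S.Vx c}
    (hw : Relation.ReflTransGen (Stp S h3 c B) v v')
    (hv : ∀ j, v ∉ ((Tw.tw c a).mv j).Qv) (hv' : ∀ j, v' ∉ ((Tw.tw c a).mv j).Qv)
    (lm : S.Vx c → ZMod 2)
    (hlm : ∀ e ∈ B, (∑ _w ∈ ((Tw.tw c a).pat 0).P.filter (fun w => w ∈ e.1.opn ∧
      ((Tw.tw c a).pat 0).lab w = i), (1 : ZMod 2)) =
        lm ((S.sh h3 c).en e false) + lm ((S.sh h3 c).en e true))
    (hX0 : ∀ e ∈ B, ∀ w ∈ ((Tw.tw c a).pat 0).P, w ∈ e.1.opn →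
      ((Tw.tw c a).pat 0).lab w = i → w ∈ X)
    (h1 : lm v + lm v' = 1) :
    ∃ e ∈ B, ∃ w ∈ ((Tw.tw c a).pat (S.n c)).P, w ∈ e.1.opn ∧
      ((Tw.tw c a).pat (S.n c)).lab w = i ∧ (s2 S h3 Tw l0).lab (S.hp c (S.n c) w) = i ∧
      S.hp c (S.n c) w ∈ (s2 S h3 Tw l0).P ∧ S.hp c (S.n c) w ∈ X := by
  obtain ⟨l, hl, hg⟩ := chain_bd hw
  have h2 := lay_par (l0 := l0) (a := a) hX hl hg hv hv' (S.n c) le_rfl
  have h4 : (l.map fun e => nT X Tw l0 c a i 0 e).sum = 1 := by
    rw [← h1, ← hg lm]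
    congr 1
    refine List.map_congr_left fun e he => ?_
    rw [← hlm e (hl e he)]
    unfold nT
    refine Finset.sum_congr (Finset.filter_congr fun w hw => ?_) fun _ _ => rfl
    rw [lab_hp (Nat.zero_le _) hw, Sla.hp_zero]
    constructor
    · rintro ⟨g1, g2, -⟩
      exact ⟨g1, g2⟩
    · rintro ⟨g1, g2⟩
      exact ⟨g1, g2, hX0 e (hl e he) w hw g1 g2⟩
  rw [h4] at h2
  by_contra hcon
  have h5 : (l.map fun e => nT X Tw l0 c a i (S.n c) e).sum = 0 := by
    apply List.sum_eq_zero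
    intro x hx
    obtain ⟨e, he, rfl⟩ := List.mem_map.1 hx
    unfold nT
    rw [Finset.filter_false_of_mem, Finset.sum_empty]
    rintro w hw ⟨g1, g2, g3⟩
    exact hcon ⟨e, hl e he, w, hw, g1, (lab_hp le_rfl hw).symm.trans g2, g2, mem_hp le_rfl hw, g3⟩
  rw [h5] at h2
  exact absurd h2 (by decide)

end Crest.Agent.R096.Ne_713
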