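import Crest.Agent.R096.Lab5_184

/-!
# R096 (row 96), DOORS, NE1 (helper778), part 1: potentials over a strip

`strip` : `D` compact with trivial torsors, local potentials of `κ` on the tiles which meet `D`; then
there is one function `u` on `D` such that for every connected `K ⊆ D` and every potential `lm` of `κ`
on the tiles which meet `K`, `u - lm` is constant on `K`.
`strip_loop` : two potentials `0` along `K`, `lm` along `K'`, `K ∩ K' ∋ x, y` : `lm` has the same value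
at the vertices near `x` and near `y`.
-/

set_option autoImplicit false
set_option linter.unusedSectionVars false

open Set Topology Filter Metric Module

namespace Crest.Agent.R096.Nef_778

open Crest.Agent.R096.Msh_715 Crest.Agent.R096.Coh_184 Crest.Agent.R096.Lab_184

variable {E : Type*} [NormedAddCommGroup E] [NormedSpace ℝ E] [FiniteDimensional ℝ E]
variable {Om : Set E} {ι : Type*} {T : Tiling Om ι} {A : Type*} [AddCommGroup A]

/-- two potentials on a tile differ by a constant -/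
theorem pot_const {κ : E → E → E → A} {ψ ψ' : E → A} {q : ι} (h : T.Exact κ ψ (P (T.H q)))
    (h' : T.Exact κ ψ' (P (T.H q))) {v w : E} (hv : v ∈ P (T.H q)) (hw : w ∈ P (T.H q))
    (hv0 : T.dim v = 0) (hw0 : T.dim w = 0) : ψ v - ψ' v = ψ w - ψ' w :=
  T.const_of_preconnected (φ := fun z => ψ z - ψ' z) (convex_P (T.H q)).isPreconnected (T.sub q)
    (fun _ hx => T.cc_sub_tile hx) (Tiling.Exact.edgeConst T h h') v hv w hw hv0 hw0

/-- **potentials over a compact set with trivial torsors** -/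
theorem strip {D : Set E} (hD : IsCompact D) (hDO : D ⊆ Om) (ht : TrivF A D)
    {κ : E → E → E → A}
    (hψ : ∀ q, (P (T.H q) ∩ D).Nonempty → ∃ ψ : E → A, T.Exact κ ψ (P (T.H q))) :
    ∃ (g : E → E) (u : E → A), (∀ x ∈ Om, g x ∈ T.cc x ∧ T.dim (g x) = 0) ∧
      ∀ K ⊆ D, IsPreconnected K → ∀ lm : E → A,
        (∀ q, (P (T.H q) ∩ K).Nonempty → T.Exact κ lm (P (T.H q))) →
        ∀ x ∈ K, ∀ y ∈ K, u x - lm (g x) = u y - lm (g y) := by
  classical
  have hvert : ∀ x ∈ Om, ∃ v ∈ T.cc x, T.dim v = 0 := fun x hx => T.exists_vertex hx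
  choose! g hg hg0 using hvert
  have hfin := T.finite_tiles hD hDO
  have : Finite {q // (P (T.H q) ∩ D).Nonempty} := hfin
  choose ψ hψe using fun q : {q // (P (T.H q) ∩ D).Nonempty} => hψ q.1 q.2
  have hcoc : Coc (fun q : {q // (P (T.H q) ∩ D).Nonempty} => P (T.H q.1))
      (fun i j x => ψ i (g x) - ψ j (g x)) D := by
    refine ⟨fun q => isClosed_P _, ?_, fun i j => ?_, fun i j k x _ _ _ _ => by abel⟩
    · intro x hx
      obtain ⟨q, hq⟩ := T.cov x (hDO hx)
      exact mem_iUnion.2 ⟨⟨q, x, hq, hx⟩, hq⟩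
    · rintro x ⟨⟨hxi, hxj⟩, hxS⟩
      have hxO := T.sub i.1 hxi
      have h1 : ∀ᶠ y in 𝓝[P (T.H i.1) ∩ P (T.H j.1) ∩ D] x, y ∈ Om ∧ x ∈ T.cc y :=
        (T.eventually_mem_cc hxO).filter_mono nhdsWithin_le_nhds
      filter_upwards [h1, self_mem_nhdsWithin] with y hy hyC
      have h2 : T.EdgeConst (fun v => ψ i v - ψ j v) (T.cc y) :=
        Tiling.Exact.edgeConst T ((hψe i).mono T (T.cc_sub_tile hyC.1.1))
          ((hψe j).mono T (T.cc_sub_tile hyC.1.2))
      exact T.const_cell hy.1 h2 (g y) (hg y hy.1) (g x) (T.cc_sub_of_mem hy.2 (hg x hxO))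
        (hg0 y hy.1) (hg0 x hxO)
  obtain ⟨χ, hχ, hχd⟩ := (ht.all {q // (P (T.H q) ∩ D).Nonempty}) _ _ hcoc
  let u : E → A := fun x => if h : ∃ q : {q // (P (T.H q) ∩ D).Nonempty}, x ∈ P (T.H q.1) then
    ψ h.choose (g x) - χ h.choose x else 0
  have hu : ∀ (q : {q // (P (T.H q) ∩ D).Nonempty}) x, x ∈ P (T.H q.1) → x ∈ D →
      u x = ψ q (g x) - χ q x := by
    intro q x hq hx
    have h : ∃ q : {q // (P (T.H q) ∩ D).Nonempty}, x ∈ P (T.H q.1) := ⟨q, hq⟩
    have e1 : u x = ψ h.choose (g x) - χ h.choose x := dif_pos h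
    have h1 : χ h.choose x - χ q x = ψ h.choose (g x) - ψ q (g x) :=
      hχd h.choose q x h.choose_spec hq hx
    rw [e1]
    rw [sub_eq_sub_iff_add_eq_add] at h1 ⊢
    exact h1.symm.trans (add_comm _ _)
  refine ⟨g, u, fun x hx => ⟨hg x hx, hg0 x hx⟩, fun K hKD hK lm hlm x hx y hy => ?_⟩
  have hLC : LC (fun x => u x - lm (g x)) K := by
    have hEq : K = ⋃ q : {q // (P (T.H q) ∩ D).Nonempty}, (P (T.H q.1) ∩ K) := by
      rw [← iUnion_inter]
      apply (inter_eq_self_of_subset_right _).symm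
      intro x hx
      obtain ⟨q, hq⟩ := T.cov x (hDO (hKD hx))
      exact mem_iUnion.2 ⟨⟨q, x, hq, hKD hx⟩, hq⟩
    -- locally constant on every tile
    have key : ∀ q : {q // (P (T.H q) ∩ D).Nonempty},
        LC (fun x => u x - lm (g x)) (P (T.H q.1) ∩ K) := by
      rintro q z ⟨hzq, hzK⟩
      have h1 := hχ q z ⟨hzq, hKD hzK⟩
      have h2 : ∀ᶠ y in 𝓝[P (T.H q.1) ∩ K] z, χ q y = χ q z :=
        h1.filter_mono (nhdsWithin_mono z (inter_subset_inter_right _ hKD))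
      filter_upwards [h2, self_mem_nhdsWithin] with y hy hyC
      have h3 := pot_const (hψe q) (hlm q.1 ⟨z, hzq, hzK⟩)
        (T.cc_sub_tile hyC.1 (hg y (T.sub _ hyC.1))) (T.cc_sub_tile hzq (hg z (T.sub _ hzq)))
        (hg0 y (T.sub _ hyC.1)) (hg0 z (T.sub _ hzq))
      show u y - lm (g y) = u z - lm (g z)
      rw [hu q y hyC.1 (hKD hyC.2), hu q z hzq (hKD hzK), hy]
      rw [sub_right_comm, h3, sub_right_comm]
    -- near a point of `K` only finitely many tiles, all of them contain the point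
    intro z hzK
    have hall : ∀ q : {q // (P (T.H q) ∩ D).Nonempty}, ∀ᶠ y in 𝓝[K] z, y ∈ P (T.H q.1) →
        u y - lm (g y) = u z - lm (g z) := by
      intro q
      by_cases hzq : z ∈ P (T.H q.1)
      · have h1 := key q z ⟨hzq, hzK⟩
        rw [eventually_nhdsWithin_iff] at h1 ⊢
        filter_upwards [h1] with y hy h2 h3
        exact hy ⟨h3, h2⟩
      · have h1 : ∀ᶠ y in 𝓝 z, y ∉ P (T.H q.1) := (isClosed_P _).isOpen_compl.mem_nhds hzq
        filter_upwards [nhdsWithin_le_nhds h1] with y hy h3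
        exact (hy h3).elim
    have h4 : ∀ᶠ y in 𝓝[K] z, ∀ q : {q // (P (T.H q) ∩ D).Nonempty}, y ∈ P (T.H q.1) →
        u y - lm (g y) = u z - lm (g z) := eventually_all.2 hall
    filter_upwards [h4, self_mem_nhdsWithin] with y hy hyK
    obtain ⟨q, hq⟩ := T.cov y (hDO (hKD hyK))
    exact hy ⟨q, y, hq, hKD hyK⟩ hq
  exact hLC.eq_of_preconnected hK hx hy

/-- **the loop** -/
theorem strip_loop {D : Set E} (hD : IsCompact D) (hDO : D ⊆ Om) (ht : TrivF A D)
    {κ : E → E → E → A}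
    (hψ : ∀ q, (P (T.H q) ∩ D).Nonempty → ∃ ψ : E → A, T.Exact κ ψ (P (T.H q)))
    {K K' : Set E} (hKD : K ⊆ D) (hK : IsPreconnected K) (hKD' : K' ⊆ D) (hK' : IsPreconnected K')
    (h0 : ∀ q, (P (T.H q) ∩ K).Nonempty → T.Exact κ (fun _ => 0) (P (T.H q)))
    {lm : E → A} (hlm : ∀ q, (P (T.H q) ∩ K').Nonempty → T.Exact κ lm (P (T.H q)))
    {x y : E} (hx : x ∈ K) (hx' : x ∈ K') (hy : y ∈ K) (hy' : y ∈ K') {v w : E}
    (hv : ∃ q, v ∈ P (T.H q) ∧ x ∈ P (T.H q)) (hw : ∃ q, w ∈ P (T.H q) ∧ y ∈ P (T.H q))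
    (hv0 : T.dim v = 0) (hw0 : T.dim w = 0) : lm v = lm w := by
  obtain ⟨g, u, hg, hu⟩ := strip hD hDO ht hψ
  have h1 := hu K hKD hK _ h0 x hx y hy
  have h2 := hu K' hKD' hK' _ hlm x hx' y hy'
  have h3 : ∀ z ∈ K', z ∈ K → ∀ v q, v ∈ P (T.H q) → z ∈ P (T.H q) → T.dim v = 0 →
      lm v = lm (g z) := by
    intro z hz hzK v q hv hzq hv0
    obtain ⟨g1, g2⟩ := hg z (T.sub q hzq)
    have e := pot_const (hlm q ⟨z, hzq, hz⟩) (h0 q ⟨z, hzq, hzK⟩) hv (T.cc_sub_tile hzq g1) hv0 g2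
    simpa using e
  obtain ⟨q, hvq, hxq⟩ := hv
  obtain ⟨q', hwq, hyq⟩ := hw
  rw [h3 x hx' hx v q hvq hxq hv0, h3 y hy' hy w q' hwq hyq hw0]
  simp only [sub_zero] at h1
  rw [h1] at h2
  exact sub_right_injective h2

end Crest.Agent.R096.Nef_778
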