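import Crest.Agent.R096.Nef1_778
import Crest.Agent.R096.Ent1_527
import Crest.Agent.R096.Cns1_778
import Crest.Agent.R096.Lab6_184

/-!
# R096 (row 96), DOORS, NE1 (helper778), part 2: the core

`core` : `X` = a set of points of the name `i` of `s2`, closed under the chords on the outer faces and
on the vertical faces over `D` (2-dimensional, `TrivF`), without points at the bottom.  Column `K`
without moved vertices and without points of `X`; `K'` outside the cores, `lm` = label of `X` along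
`K'`.  Then `lm` has the same value at the two ends.
-/

set_option autoImplicit false
set_option linter.unusedSectionVars false
set_option linter.unusedVariables false
set_option linter.style.longLine false

open Set Module
open scoped Classical

namespace Crest.Agent.R096.Nef_778

open Crest.Agent.R096.Msh_715 Crest.Agent.R096.Agl5_543 Crest.Agent.R096.St_147
  Crest.Agent.R096.Seq_213 Crest.Agent.R096.Door_501 Crest.Agent.R096.Sla_184
  Crest.Agent.R096.Twr_438 Crest.Agent.R096.Exa_560 Crest.Agent.R096.Ess3_95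
  Crest.Agent.R096.Ess4_95 Crest.Agent.R096.Dfi_539 Crest.Agent.R096.Dfi_471
  Crest.Agent.R096.Yl_471 Crest.Agent.R096.Ent_527 Crest.Agent.R096.Coh_184
  Crest.Agent.R096.Lab_184
open Crest.Agent.R096.Sla_184.Sla (hf vf old tg F0 Fn Out OnS InL In)
open Crest.Agent.R096.Cns_778 (nd_of)

variable {E : Type} [NormedAddCommGroup E] [NormedSpace ℝ E] [FiniteDimensional ℝ E]
variable {Om : Set E} {ι : Type} {T : Tiling Om ι} {κ : Type} {S : Sla T κ}
  {h3 : finrank ℝ E = 3} {J C : Type} {fam : J → C}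

variable {s : GSt (S.m0 h3) fam} {Tw : Twrs (S.sh h3) S.n s} {l0 : E → J}
  {a : C} {i : J} {X D : Set E}

/-- parity of the vertical points over `v` -/
noncomputable def LamE (Tw : Twrs (S.sh h3) S.n s) (l0 : E → J) (a : C) (i : J) (X : Set E)
    (v : E) : ZMod 2 :=
  if h : ∃ c, T.dim v = 0 ∧ v ∈ frontier (S.K c) then Lam Tw l0 h.choose a i X ⟨v, h.choose_spec⟩
  else 0

theorem lamE_eq {c : κ} (v : S.Vx c) : LamE Tw l0 a i X v.1 = Lam Tw l0 c a i X v := by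
  have h : ∃ c, T.dim v.1 = 0 ∧ v.1 ∈ frontier (S.K c) := ⟨c, v.2⟩
  have e : LamE Tw l0 a i X v.1 = Lam Tw l0 h.choose a i X ⟨v.1, h.choose_spec⟩ := dif_pos h
  rw [e]
  have h1 : h.choose = c := S.core_unique (S.fr_sub _ h.choose_spec.2) (S.fr_sub c v.2.2)
  have key : ∀ c' (h' : T.dim v.1 = 0 ∧ v.1 ∈ frontier (S.K c')), c' = c →
      Lam Tw l0 c' a i X ⟨v.1, h'⟩ = Lam Tw l0 c a i X v := by
    intro c' h' e'
    subst e'
    rfl
  exact key _ _ h1

theorem lamE_zero {v : E} (h : ∀ c, v ∉ frontier (S.K c)) : LamE Tw l0 a i X v = 0 :=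
  dif_neg fun ⟨c, hc⟩ => h c hc.2

theorem QX_fin (s : GSt (S.m0 h3) fam) (i : J) (X : Set E) :
    {w | w ∈ s.P ∧ s.lab w = i ∧ w ∈ X}.Finite :=
  (s.fin (fam i)).subset fun w hw => ⟨hw.1, by rw [hw.2.1]⟩

/-- the points of `X` in the outer state -/
noncomputable def QX (s : GSt (S.m0 h3) fam) (i : J) (X : Set E) : Finset E :=
  (QX_fin s i X).toFinset

theorem mem_QX {w : E} : w ∈ QX s i X ↔ w ∈ s.P ∧ s.lab w = i ∧ w ∈ X := by
  unfold QX; rw [Set.Finite.mem_toFinset]; rfl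

theorem QX_dim (Tw : Twrs (S.sh h3) S.n s) {w : E} (hw : w ∈ QX s i X) : T.dim w = 1 :=
  (s_out (mem_QX.1 hw).1 Tw).2

/-- closed under the chords on the outer faces of the tiles which meet `D` -/
def Ocl (S : Sla T κ) (h3 : finrank ℝ E = 3) {s : GSt (S.m0 h3) fam} (Tw : Twrs (S.sh h3) S.n s)
    (l0 : E → J) (D : Set E) (i : J) (X : Set E) : Prop :=
  ∀ q, (P (T.H q) ∩ D).Nonempty → (∀ c, ¬ P (T.H q) ⊆ S.K c) → ∀ F0 : S.F0 h3,
    q ∈ F0.1.side h3 → ∀ x ∈ X, x ∈ (s2 S h3 Tw l0).P → (s2 S h3 Tw l0).lab x = i →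
      x ∈ (S.mn h3).On (old F0) → (s2 S h3 Tw l0).mu (old F0) x ∈ X

/-- the edges of the core `c` which are on tiles which meet `D` -/
def BD (S : Sla T κ) (D : Set E) (c : κ) : Set (S.Ed c) :=
  {e | ∃ q, e.1.set ⊆ P (T.H q) ∧ (P (T.H q) ∩ D).Nonempty}

/-- **the outer tiles** -/
theorem even_out (hO : Ocl S h3 Tw l0 D i X) {q : ι} (hqD : (P (T.H q) ∩ D).Nonempty)
    (hqK : ∀ c, ¬ P (T.H q) ⊆ S.K c) {x : E} (hx : x ∈ P (T.H q)) (hd : T.dim x = 2) :
    _root_.Even ((QX s i X : Set E) ∩ T.cc x).ncard := by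
  have hxO := T.sub q hx
  have hside : q ∈ (mk2 T hxO hd).side h3 := by
    refine C2.mem_side.2 ?_
    have h1 : (mk2 T hxO hd).pt ∈ P (T.H q) :=
      T.cc_sub_tile hx (T.oc_sub_cc _ (Slc_184.mk2_pt hxO hd))
    exact h1
  set F0 : S.F0 h3 := ⟨mk2 T hxO hd, nd_of hside hqK⟩ with hF0
  have hon : ∀ w ∈ (QX s i X).filter (fun w => w ∈ T.cc x), (w ∈ s.P ∧ s.lab w = i ∧ w ∈ X) ∧
      w ∈ (S.m0 h3).On F0 ∧ w ∈ (S.mn h3).On (old F0) := by
    intro w hw
    obtain ⟨h1, h2⟩ := Finset.mem_filter.1 hw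
    have h4 : w ∈ (S.m0 h3).On F0 := ⟨h2, QX_dim Tw h1⟩
    exact ⟨mem_QX.1 h1, h4, by rw [Sla.on_old F0]; exact h4⟩
  have h1 : ∑ _p ∈ (QX s i X).filter (fun w => w ∈ T.cc x), (1 : ZMod 2) = 0 := by
    refine Finset.sum_involution (fun p _ => s.mu F0 p) (fun p hp => by decide)
      (fun p hp _ => ?_) (fun p hp => ?_) (fun p hp => ?_)
    · exact s.mu_ne (hon p hp).1.1 (hon p hp).2.1
    · obtain ⟨⟨g1, g2, g3⟩, g4, g5⟩ := hon p hp
      obtain ⟨k1, k2⟩ := s.mu_mem g1 g4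
      have k3 := hO q hqD hqK F0 hside p g3 (mem_old g1) ((lab_old g1).trans g2) g5
      rw [mu_old g1 g4] at k3
      have k4 : s.mu F0 p ∈ T.cc x := k2.1
      exact Finset.mem_filter.2 ⟨mem_QX.2 ⟨k1, (s.mu_lab g1 g4).trans g2, k3⟩, k4⟩
    · exact s.mu_mu (hon p hp).1.1 (hon p hp).2.1
  rw [Finset.sum_const, nsmul_eq_mul, mul_one] at h1
  have h2 := (ZMod.natCast_eq_zero_iff_even).1 h1
  convert h2
  rw [← Set.ncard_coe_finset]
  congr 1
  ext w
  simp

/-- **the edges of the sphere** : the sum of the parities at the two ends is the parity of the number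
of points of `X` -/
theorem lam_edge {c : κ} (hV : Vcl Tw l0 c (BD S D c) i X) (hi : fam i = a)
    (hbot : ∀ e ∈ BD S D c, ∀ w ∈ ((Tw.tw c a).pat (S.n c)).P, w ∈ e.1.opn → S.hp c (S.n c) w ∉ X)
    {e : S.Ed c} (he : e ∈ BD S D c) :
    LamE Tw l0 a i X ((S.sh h3 c).en e false).1 + LamE Tw l0 a i X ((S.sh h3 c).en e true).1 =
      (((QX s i X : Set E) ∩ e.1.set).ncard : ZMod 2) := by
  have h1 := par_edge (a := a) hV he (S.n c) le_rfl
  have h2 : nA Tw l0 c a i X (S.n c) e = 0 := by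
    unfold nA
    refine Finset.sum_eq_zero fun w hw => if_neg ?_
    rintro ⟨g1, g2, -⟩
    exact hbot e he w hw g1 g2
  have h4 : nA Tw l0 c a i X 0 e = (((QX s i X : Set E) ∩ e.1.set).ncard : ZMod 2) := by
    unfold nA
    rw [← Finset.sum_filter, Finset.sum_const, nsmul_eq_mul, mul_one]
    congr 1
    rw [← Set.ncard_coe_finset]
    congr 1
    ext w
    rw [Finset.mem_coe, Finset.mem_filter, mem_inter_iff, Finset.mem_coe, mem_QX, Sla.hp_zero]
    constructor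
    · rintro ⟨g1, g2, g3, g4⟩
      obtain ⟨k1, k2, k3⟩ := (Tw.P0 c a w).1 g1
      exact ⟨⟨k1, by rw [← lab_old (Tw := Tw) (l0 := l0) k1]; exact g4, g3⟩, e.1.opn_sub g2⟩
    · rintro ⟨⟨k1, k2, k3⟩, g2⟩
      have hdim : T.dim w = 1 := (s_out k1 Tw).2
      have hopn : w ∈ e.1.opn := by
        by_contra hno
        have hw' : w ∈ T.cc e.1.pt := by rw [← e.1.set_eq]; exact g2
        have h5 := T.dim_lt hw' hno
        have h6 : T.dim e.1.pt = 1 := e.2.1
        omega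
      refine ⟨(Tw.P0 c a w).2 ⟨k1, by rw [k2]; exact hi, e, hopn⟩, hopn, k3, ?_⟩
      rw [lab_old k1]; exact k2
  rw [lamE_eq, lamE_eq, ← h4]
  rw [h2, add_zero] at h1
  unfold Lam
  have e1 : ∀ x y z : ZMod 2, x + y + z = 0 → y + z = x := by decide
  exact e1 _ _ _ h1

/-- the cochain -/
noncomputable def kapX (Tw : Twrs (S.sh h3) S.n s) (l0 : E → J) (a : C) (i : J) (X : Set E) :
    E → E → E → ZMod 2 := fun e u v =>
  if ∃ c, e ∈ S.K c then LamE Tw l0 a i X u - LamE Tw l0 a i X v else kap T (QX s i X) e u v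

/-- tiles inside the cores -/
theorem exact_in {q : ι} {c : κ} (hq : P (T.H q) ⊆ S.K c) :
    T.Exact (kapX Tw l0 a i X) (LamE Tw l0 a i X) (P (T.H q)) := by
  intro e he h1 u v huv
  unfold kapX
  rw [if_pos ⟨c, hq he⟩]

/-- outside the cores the two cochains are equal -/
theorem kapX_out (hV : ∀ c, Vcl Tw l0 c (BD S D c) i X) (hi : fam i = a)
    (hbot : ∀ c, ∀ e ∈ BD S D c, ∀ w ∈ ((Tw.tw c a).pat (S.n c)).P, w ∈ e.1.opn →
      S.hp c (S.n c) w ∉ X)
    {q : ι} (hqD : (P (T.H q) ∩ D).Nonempty) (hqK : ∀ c, ¬ P (T.H q) ⊆ S.K c)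
    {e : E} (he : e ∈ P (T.H q)) (h1 : T.dim e = 1) {u v : E} (huv : T.cc e = segment ℝ u v) :
    kapX Tw l0 a i X e u v = kap T (QX s i X) e u v := by
  have heO := T.sub q he
  unfold kapX
  split_ifs with h
  · obtain ⟨c, hc⟩ := h
    have hfr : e ∈ frontier (S.K c) := by
      by_contra hno
      exact (Sla.out_of_tile hqK he).2 c ⟨hc, hno⟩
    have hccf : T.cc e ⊆ frontier (S.K c) := (S.hH c).cc e hfr
    have hset : (T.cl heO).set = T.cc e := T.cl_set heO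
    let e' : S.Ed c := ⟨T.cl heO, (T.dim_cl _).trans h1, by rw [hset]; exact hccf⟩
    have he' : e' ∈ BD S D c := ⟨q, by show (T.cl heO).set ⊆ _; rw [hset]; exact T.cc_sub_tile he, hqD⟩
    have h2 := lam_edge (hV c) hi (hbot c) he'
    have h4 : (((QX s i X : Set E) ∩ e'.1.set).ncard : ZMod 2) = kap T (QX s i X) e u v := by
      show (((QX s i X : Set E) ∩ (T.cl heO).set).ncard : ZMod 2) = _
      rw [hset]; rfl
    rw [h4] at h2
    rw [← h2, CharTwo.sub_eq_add]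
    obtain ⟨d1, d2, d3, d4, d5⟩ := T.dim_ends heO h1 huv
    obtain ⟨b, hb⟩ := (endK_iff e' ⟨u, d1, hccf d3⟩).2 (by
      show u ∈ (T.cl heO).set
      rw [hset]; exact d3)
    obtain ⟨b', hb'⟩ := (endK_iff e' ⟨v, d2, hccf d4⟩).2 (by
      show v ∈ (T.cl heO).set
      rw [hset]; exact d4)
    have hbu : ((S.sh h3 c).en e' b).1 = u := congrArg Subtype.val hb
    have hbv : ((S.sh h3 c).en e' b').1 = v := congrArg Subtype.val hb'
    have hne : b ≠ b' := by
      rintro rfl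
      exact d5 (hbu.symm.trans hbv)
    rw [← hbu, ← hbv]
    cases b <;> cases b'
    · exact absurd rfl hne
    · rfl
    · exact add_comm _ _
    · exact absurd rfl hne
  · rfl

/-- **THE CORE** -/
theorem core (hD : IsCompact D) (hDO : D ⊆ Om) (ht : TrivF (ZMod 2) D)
    (hO : Ocl S h3 Tw l0 D i X) (hV : ∀ c, Vcl Tw l0 c (BD S D c) i X) (hi : fam i = a)
    (hbot : ∀ c, ∀ e ∈ BD S D c, ∀ w ∈ ((Tw.tw c a).pat (S.n c)).P, w ∈ e.1.opn →
      S.hp c (S.n c) w ∉ X)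
    {K K' : Set E} (hKD : K ⊆ D) (hK : IsPreconnected K) (hKD' : K' ⊆ D) (hK' : IsPreconnected K')
    (h0 : ∀ q, (P (T.H q) ∩ K).Nonempty → (∀ c, ¬ P (T.H q) ⊆ S.K c) → ∀ w ∈ X, w ∈ s.P →
      s.lab w = i → w ∉ P (T.H q))
    (h0' : ∀ q, (P (T.H q) ∩ K).Nonempty → ∀ c, P (T.H q) ⊆ S.K c → ∀ v : S.Vx c,
      v.1 ∈ P (T.H q) → ∀ j < S.n c, v ∉ ((Tw.tw c a).mv j).Qv)
    {lm : E → ZMod 2} (hout : ∀ q, (P (T.H q) ∩ K').Nonempty → ∀ c, ¬ P (T.H q) ⊆ S.K c)
    (hlm : ∀ q, (P (T.H q) ∩ K').Nonempty → T.Exact (kap T (QX s i X)) lm (P (T.H q)))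
    {x y : E} (hx : x ∈ K) (hx' : x ∈ K') (hy : y ∈ K) (hy' : y ∈ K') {v w : E}
    (hv : ∃ q, v ∈ P (T.H q) ∧ x ∈ P (T.H q)) (hw : ∃ q, w ∈ P (T.H q) ∧ y ∈ P (T.H q))
    (hv0 : T.dim v = 0) (hw0 : T.dim w = 0) : lm v = lm w := by
  have hex : ∀ q, (P (T.H q) ∩ D).Nonempty → (∀ c, ¬ P (T.H q) ⊆ S.K c) → ∀ ψ : E → ZMod 2,
      T.Exact (kap T (QX s i X)) ψ (P (T.H q)) → T.Exact (kapX Tw l0 a i X) ψ (P (T.H q)) := by
    intro q hqD hqK ψ hψ e he h1 u v huv
    rw [kapX_out hV hi hbot hqD hqK he h1 huv]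
    exact hψ e he h1 u v huv
  refine strip_loop (κ := kapX Tw l0 a i X) hD hDO ht ?_ hKD hK hKD' hK' ?_ ?_ hx hx' hy hy' hv hw
    hv0 hw0
  · intro q hqD
    rcases Sla.tile_or S q with hqK | ⟨c, hc⟩
    · obtain ⟨ψ, hψ⟩ := exact_tile2 (T := T) h3 (Q := QX s i X) (fun w hw => QX_dim Tw hw) q
        (fun x hx hd => even_out hO hqD hqK hx hd)
      exact ⟨ψ, hex q hqD hqK ψ hψ⟩
    · exact ⟨_, exact_in hc⟩
  · intro q hqK'
    have hqD : (P (T.H q) ∩ D).Nonempty := hqK'.mono (inter_subset_inter_right _ hKD)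
    rcases Sla.tile_or S q with hqK | ⟨c, hc⟩
    · refine hex q hqD hqK _ ?_
      refine exact_kap_iff.2 fun e he _ u v _ => ?_
      have : (QX s i X : Set E) ∩ T.cc e = ∅ := by
        rw [Set.eq_empty_iff_forall_notMem]
        rintro w ⟨hw1, hw2⟩
        obtain ⟨g1, g2, g3⟩ := mem_QX.1 (Finset.mem_coe.1 hw1)
        exact h0 q hqK' hqK w g3 g1 g2 (T.cc_sub_tile he hw2)
      rw [this]; simp
    · intro e he h1 u v huv
      have h2 := exact_in (Tw := Tw) (l0 := l0) (a := a) (i := i) (X := X) hc e he h1 u v huv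
      obtain ⟨d1, d2, d3, d4, d5⟩ := T.dim_ends (T.sub q he) h1 huv
      have hz : ∀ v, T.dim v = 0 → v ∈ P (T.H q) → LamE Tw l0 a i X v = 0 := by
        intro v hv0 hvq
        by_cases hfr : v ∈ frontier (S.K c)
        · have e1 := lamE_eq (Tw := Tw) (l0 := l0) (a := a) (i := i) (X := X) (c := c)
            ⟨v, hv0, hfr⟩
          rw [show LamE Tw l0 a i X v = _ from e1]
          unfold Lam
          refine Finset.sum_eq_zero fun j hj => ?_
          unfold nV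
          exact if_neg fun h' => h0' q hqK' c hc ⟨v, hv0, hfr⟩ hvq j (Finset.mem_range.1 hj) h'.1
        · refine lamE_zero fun c' hc' => ?_
          have := S.core_unique (S.fr_sub c' hc') (hc hvq)
          subst this
          exact hfr hc'
      rw [hz u d1 (T.cc_sub_tile he d3), hz v d2 (T.cc_sub_tile he d4)] at h2
      exact h2
  · intro q hqK'
    exact hex q (hqK'.mono (inter_subset_inter_right _ hKD')) (hout q hqK') _ (hlm q hqK')

end Crest.Agent.R096.Nef_778
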