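import Crest.Agent.R096.Ebr6_95
import Crest.Agent.R096.Bgf9_4

/-!
# Row 96, DOORS, NE1, leaf G1 (helper628): the chart of the transversal strip

`chart` : polar coordinates over the transversal segment `w ↦ gam (t0, w)` of a moat: the strip
`{s0 ≤ ga ≤ s1, Psi ∈ gam (t0, [0, w1])}` is the injective image of a rectangle and has trivial torsors.
-/

set_option autoImplicit false
set_option linter.unusedSectionVars false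

open Set Topology Filter Metric Module
open scoped Classical

namespace Crest.Agent.R096.Nefg_628

open Crest.Agent.R096.Msh_715 Crest.Agent.R096.Coh_184 Crest.Agent.R096.Bsp_628
  Crest.Agent.R096.Brk1_582 Crest.Agent.R096.Brk2_582 Crest.Agent.R096.Brk3_582
  Crest.Agent.R096.Brk5_582 Crest.Agent.R096.Init_543 Crest.Agent.R096.Mbf_337
  Crest.Agent.R96.Push_899 Crest.Agent.R096.Ess1_95 Crest.Agent.R096.Ess4_95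
  Crest.Agent.R096.Ess5_95 Crest.Agent.R096.Ess6_95 Crest.Agent.R096.Ess7_95
  Crest.Agent.R096.Lab_184 Crest.Agent.R096.Seq_213 Crest.Agent.R096.Seq_213.GSt
  Crest.Agent.R096.Main_4 Crest.Agent.R096.Exa_560 Crest.Agent.R096.Agl4_543
  Crest.Agent.R096.Agl5_543 Crest.Agent.R096.Agl6_543 Crest.Agent.R096.Agl8_543
  Crest.Agent.R096.Ebr1_95 Crest.Agent.R096.Ebr2_95
  Crest.Agent.R096.Ebr3_95 Crest.Agent.R096.Ebr4_95 Crest.Agent.R096.Ebr5_95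
  Crest.Agent.R096.Ebr6_95 Crest.Agent.R096.Bar_106
  Crest.Agent.R096.Bgf_4 Crest.Agent.R096.Sphg_316

open Crest.Agent.R096.SkC1_961 (E3 Hom3 IsPush FoamD)

variable {δ κ0 R c0 : ℝ} {La Om : Set E3} {Φ : FoamD δ κ0 R c0 La} {f g : E3 → E3}

/-- **the chart of the transversal strip** -/
theorem chart (hLa : IsOpen La) (H : Hm f g Om La) {c a p q : Φ.F} {Z : Set Φ.F}
    (hM : Mo (Pc Φ.F) c a Z p q) {ρ : ℝ} (hρ : ρ < 1) {pl : ℝ × E3 → E3} (hPol : Pol Φ c ρ pl)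
    (hpt : (Φ.B c).lo = (Φ.B c).hi)
    {l0 mm ra : ℝ} {s0 s1 t0 w1 : ℝ} (h0 : 0 < s0) (h01 : s0 ≤ s1) (h1 : s1 ≤ ρ)
    (ht : t0 ∈ Icc (0 : ℝ) 1) (hw0 : 0 ≤ w1) (hw1 : w1 ≤ 1) :
    ∃ Wz : ℝ × ℝ → E3, ContinuousOn Wz (Icc s0 s1 ×ˢ Icc 0 w1) ∧
      InjOn Wz (Icc s0 s1 ×ˢ Icc 0 w1) ∧
      (∀ z ∈ Icc s0 s1 ×ˢ Icc 0 w1, Wz z ∈ Om ∧ ga Φ c (f (Wz z)) = z.1 ∧
        Φ.Psi (f (Wz z)) = gam (bc (F := Φ.F)) a Z p q (t0, z.2) ∧ Φ.lev a (f (Wz z)) = t0 ∧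
        gmf Φ l0 mm ra a Z (Φ.Psi (f (Wz z))) = max (z.2 / l0) (|t0 - mm| / ra)) ∧
      IsCompact (Wz '' (Icc s0 s1 ×ˢ Icc 0 w1)) ∧
      TrivF (ZMod 2) (Wz '' (Icc s0 s1 ×ˢ Icc 0 w1)) ∧
      Wz '' (Icc s0 s1 ×ˢ Icc 0 w1) = Om ∩ f ⁻¹' {y | (s0 ≤ ga Φ c y ∧ ga Φ c y ≤ s1) ∧
        Φ.Psi y ∈ (fun w => gam (bc (F := Φ.F)) a Z p q (t0, w)) '' Icc 0 w1} := by
  have FF := foam Φ.bf hLa
  have hR : ∀ w ∈ Icc (0 : ℝ) w1, ((t0, w) : ℝ × ℝ) ∈ Rct := fun w hw =>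
    ⟨ht, ⟨by linarith [hw.1], hw.2.trans hw1⟩⟩
  have hcL : c.1.set ⊆ La := Φ.bf.sub c.1 c.2
  have hgc : ∀ y, ga Φ c y ≤ ρ → y ∈ La := by
    intro y hy
    have hb : Bod (Φ.B c).lo (Pc Φ.F c) := Pse_316.bod_brick Φ c hpt
    have hgf : ga Φ c = Ng (Φ.B c).lo (Pc Φ.F c) :=
      funext (Etg_163.gg_eq Φ c)
    exact hcL (hb.le_sub hρ.le (show y ∈ {y | Ng _ _ y ≤ ρ} by rw [← hgf]; exact hy))
  set γ : ℝ → E3 := fun w => gam (bc (F := Φ.F)) a Z p q (t0, w) with hγ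
  have hfr : ∀ w ∈ Icc (0 : ℝ) w1, γ w ∈ frontier c.1.set := fun w hw => gam_fr hLa hM (hR w hw)
  set D : Set (ℝ × ℝ) := Icc s0 s1 ×ˢ Icc 0 w1 with hD
  have hs : ∀ z ∈ D, z.1 ∈ Ioc (0 : ℝ) ρ := fun z hz =>
    ⟨h0.trans_le hz.1.1, hz.1.2.trans h1⟩
  set U : ℝ × ℝ → E3 := fun z => pl (z.1, γ z.2) with hU
  have hUg : ∀ z ∈ D, ga Φ c (U z) = z.1 := fun z hz =>
    hPol.gau z.1 (hs z hz) _ (hfr _ hz.2)
  have hUp : ∀ z ∈ D, Φ.Psi (U z) = γ z.2 := fun z hz =>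
    hPol.psi z.1 (hs z hz) _ (hfr _ hz.2)
  have hUL : ∀ z ∈ D, U z ∈ La := fun z hz => hgc _ (by rw [hUg z hz]; exact (hs z hz).2)
  have hUc : ContinuousOn U D := by
    refine hPol.cont.comp ?_ fun z hz => ⟨mem_univ _, hfr _ hz.2⟩
    refine ContinuousOn.prodMk continuousOn_fst ?_
    refine (hM.continuousOn_gam FF).comp (Continuous.continuousOn (by fun_prop)) ?_
    intro z hz
    exact hR _ hz.2
  have hUi : InjOn U D := by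
    intro z hz z' hz' he
    have e1 : z.1 = z'.1 := by rw [← hUg z hz, he, hUg z' hz']
    have e2 : γ z.2 = γ z'.2 := by rw [← hUp z hz, he, hUp z' hz']
    have e3 := hM.gam_injOn FF (hR _ hz.2) (hR _ hz'.2) e2
    have e4 : z.2 = z'.2 := (Prod.ext_iff.1 e3).2
    exact Prod.ext e1 e4
  have hfU : ∀ z ∈ D, f (g (U z)) = U z := fun z hz => H.fg _ (hUL z hz)
  have hWc : ContinuousOn (fun z => g (U z)) D := H.gc.comp hUc hUL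
  have hWi : InjOn (fun z => g (U z)) D := by
    intro z hz z' hz' he
    exact hUi hz hz' (H.injOn (hUL z hz) (hUL z' hz') he)
  have hDc : IsCompact D := isCompact_Icc.prod isCompact_Icc
  refine ⟨fun z => g (U z), hWc, hWi, ?_, hDc.image_of_continuousOn hWc,
    trivF_convex hDc ((convex_Icc _ _).prod (convex_Icc _ _)) hWc hWi, ?_⟩
  · intro z hz
    show g (U z) ∈ Om ∧ ga Φ c (f (g (U z))) = z.1 ∧ Φ.Psi (f (g (U z))) = γ z.2 ∧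
      Φ.lev a (f (g (U z))) = t0 ∧
      gmf Φ l0 mm ra a Z (Φ.Psi (f (g (U z)))) = max (z.2 / l0) (|t0 - mm| / ra)
    rw [hfU z hz]
    refine ⟨H.gm (hUL z hz), hUg z hz, hUp z hz, ?_, ?_⟩
    · show sc (Pc Φ.F) (bc (F := Φ.F)) (Φ.Psi (U z)) a = t0
      rw [hUp z hz, hM.sc_gam FF (hR _ hz.2), uu_a]
    · rw [hUp z hz, gmf_gam hLa hM (hR _ hz.2)]
      show max (|z.2| / l0) (|t0 - mm| / ra) = _
      rw [abs_of_nonneg hz.2.1]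
  · ext x
    constructor
    · rintro ⟨z, hz, rfl⟩
      refine ⟨H.gm (hUL z hz), ?_⟩
      show (s0 ≤ ga Φ c (f (g (U z))) ∧ ga Φ c (f (g (U z))) ≤ s1) ∧
        Φ.Psi (f (g (U z))) ∈ γ '' Icc 0 w1
      rw [hfU z hz, hUg z hz, hUp z hz]
      exact ⟨hz.1, mem_image_of_mem _ hz.2⟩
    · rintro ⟨hx, ⟨hx0, hx1⟩, w, hw, hxw⟩
      refine ⟨(ga Φ c (f x), w), ⟨⟨hx0, hx1⟩, hw⟩, ?_⟩
      show g (pl (ga Φ c (f x), γ w)) = x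
      have h2 : pl (ga Φ c (f x), Φ.Psi (f x)) = f x :=
        (hPol.inv (f x) (h0.trans_le hx0) (hx1.trans h1)).2
      have h3 : γ w = Φ.Psi (f x) := hxw
      rw [h3, h2, H.gf x hx]

/-- **the chart over the radii of record** -/
theorem chart_rm {ι : Type} {T : Tiling Om ι} (hLa : IsOpen La) (H : Hm f g Om La)
    {c a p q : Φ.F} {Z : Set Φ.F} (hM : Mo (Pc Φ.F) c a Z p q) {J0 J V : Set ι} {θ : E3 → E3}
    {ρ1 ρ2 ρ3 ρ4 d : ℝ} (hr : Ess5_95.Rm Φ T f c J0 J V θ ρ1 ρ2 ρ3 ρ4 d)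
    (hpt : (Φ.B c).lo = (Φ.B c).hi)
    {l0 mm ra : ℝ} {s0 s1 t0 w1 : ℝ} (h0 : 0 < s0) (h01 : s0 ≤ s1) (h1 : s1 ≤ ρ4)
    (ht : t0 ∈ Icc (0 : ℝ) 1) (hw0 : 0 ≤ w1) (hw1 : w1 ≤ 1) :
    ∃ Wz : ℝ × ℝ → E3, ContinuousOn Wz (Icc s0 s1 ×ˢ Icc 0 w1) ∧
      InjOn Wz (Icc s0 s1 ×ˢ Icc 0 w1) ∧
      (∀ z ∈ Icc s0 s1 ×ˢ Icc 0 w1, Wz z ∈ Om ∧ ga Φ c (f (Wz z)) = z.1 ∧
        Φ.Psi (f (Wz z)) = gam (bc (F := Φ.F)) a Z p q (t0, z.2) ∧ Φ.lev a (f (Wz z)) = t0 ∧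
        gmf Φ l0 mm ra a Z (Φ.Psi (f (Wz z))) = max (z.2 / l0) (|t0 - mm| / ra)) ∧
      IsCompact (Wz '' (Icc s0 s1 ×ˢ Icc 0 w1)) ∧
      TrivF (ZMod 2) (Wz '' (Icc s0 s1 ×ˢ Icc 0 w1)) ∧
      Wz '' (Icc s0 s1 ×ˢ Icc 0 w1) = Om ∩ f ⁻¹' {y | (s0 ≤ ga Φ c y ∧ ga Φ c y ≤ s1) ∧
        Φ.Psi y ∈ (fun w => gam (bc (F := Φ.F)) a Z p q (t0, w)) '' Icc 0 w1} := by
  obtain ⟨pl, hPol⟩ := exists_pol hLa hpt
    (by linarith [hr.r1, hr.r12, hr.r23, hr.r34, hr.d0]) hr.r4 hr.ray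
  exact chart hLa H hM hr.r4 hPol hpt h0 h01 h1 ht hw0 hw1

end Crest.Agent.R096.Nefg_628
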