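import Crest.Agent.R096.Hop1_895
import Crest.Agent.R096.Nef3_778
import Crest.Agent.R096.Nefg1_628
import Crest.Agent.R096.Nvm1_985
import Crest.Agent.R096.Afr1_543
import Crest.Agent.R096.Gt1_664
import Crest.Agent.R096.Dch4_847

/-!
# R096 (row 96), DOORS (helper381): `NE1M` from the pieces of 778's board (#12223)

`ne1M : Hop_895.NE1M` over 778's `encl_core` (Nef3), 628's chart, 985's `never_m`, 543's `afree`,
664's `exists_Gn` / `exists_wall`.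
-/

set_option autoImplicit false
set_option linter.unusedSectionVars false
set_option linter.unusedVariables false
set_option linter.style.longLine false

open Set Topology Filter Metric Module Relation MeasureTheory
open scoped Classical

namespace Crest.Agent.R096.Nef_381

open Crest.Agent.R096.Msh_715 Crest.Agent.R096.Coh_184 Crest.Agent.R096.Lab_184
  Crest.Agent.R096.Main_4 Crest.Agent.R096.Agl5_543
  Crest.Agent.R096.Seq_213 Crest.Agent.R096.St_147 Crest.Agent.R096.Door_501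
  Crest.Agent.R096.Twr_438 Crest.Agent.R096.Exa_560
  Crest.Agent.R096.Ess3_95 Crest.Agent.R096.Ess4_95 Crest.Agent.R096.Ac_117 Crest.Agent.R096.Lm_117
  Crest.Agent.R096.Dfi_539 Crest.Agent.R096.Dfi_471 Crest.Agent.R096.Dfo_539
  Crest.Agent.R096.Sla_184 Crest.Agent.R096.Gm_298
  Crest.Agent.R096.Brk1_582 Crest.Agent.R096.Brk2_582 Crest.Agent.R096.Brk3_582
  Crest.Agent.R096.Brk5_582 Crest.Agent.R096.Bsp_628 Crest.Agent.R096.Init_543
  Crest.Agent.R096.Lv3_471 Crest.Agent.R096.Lv4_471 Crest.Agent.R096.Slt_471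
  Crest.Agent.R096.Dib_438 Crest.Agent.R096.Rop_441 Crest.Agent.R096.Frk_441
  Crest.Agent.R096.Dff_539 Crest.Agent.R096.Frs_662 Crest.Agent.R096.Qdl_662
  Crest.Agent.R096.Cg_501 Crest.Agent.R096.SecW_892 Crest.Agent.R096.Sgd_298
  Crest.Agent.R096.Dfg_539 Crest.Agent.R096.Nmd1_698 Crest.Agent.R096.Civ_662
  Crest.Agent.R096.Lbc_334 Crest.Agent.R096.Bar_106 Crest.Agent.R096.Bgf_4
open Crest.Agent.R096.Sgo_298 (RmA rout ActR)
open Crest.Agent.R096.Mbf_337 (KJ Tiny Cores Fine sb gau Star Levels Words)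
open Crest.Agent.R096.SkC1_961 (E3 FoamD Hom3)
open Crest.Agent.R096.Frn_337 (Ti)
open Crest.Agent.R096.Ess7_95 (KT Sh)
open Crest.Agent.R096.Dia_316 (nbT)
open Crest.Agent.R096.Dfn_416 (BarS)
open Crest.Agent.R096.Bmf_416 (coT coT_fin)
open Crest.Agent.R096.Sde_422 (gR)
open Crest.Agent.R096.Ess5_95 (ga Rm)
open Crest.Agent.R096.Ebr4_95 (gmf gm_moat)
open Crest.Agent.R096.Ebr6_95 (nm_rec)
open Crest.Agent.R096.Cns_778 (rmA_of upp_m caps conn_sub cl_of cl_mono gmT_sub GmB)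
open Crest.Agent.R096.Nef_778 (encl_core nox_old FreeT FreeL)
open Crest.Agent.R096.Sla_184.Sla (hf vf old tg F0 Fn Out OnS InL In)

set_option maxHeartbeats 2000000 in
/-- **778's `NE1`** -/
theorem ne1M : Hop_895.NE1M := by
  intro δ κ0 R c0 κ2 κ3 κp μ κ1 Om La f g hLa Φ ι T X J0 J V ct A lam z θ φ M hC ct' r₀ hR hM h1 h2
    L _ hG D bp lam₀ v₀ v₁ r v0 v1 ρ1 ρ2 ρ3 ρ4 d q₀ ε bm hGB v0B v1B n hn Lv Tw MM _ hnC l0' m
  have N := MM.N
  have B := MM.bar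
  have H : Hm f g Om La := hR.hm
  obtain ⟨n1, n2, n3, n4, n5, n6⟩ := N.base
  have hRm := rmA_of B
  have hr := (B.rm m.co m.co_notMem).2
  have hdκ := (B.rm m.co m.co_notMem).1
  have hd := hr.d0
  obtain ⟨c1, c2, c3, c4, c5, c6, c7⟩ := caps B.barF B.lv m
  obtain ⟨b1, b2, b3, b4⟩ := Rop_441.rad_bar (fun c hc => (B.rm c hc).2) m (B.lv m)
  have U := upp_m (hLa := hLa) (hC := hC) (n := n) (hn := hn) (r := r) hR n4 MM.lev B
  obtain ⟨lm, hlm, LOW, HIGH⟩ := B.lab m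
  have hdm : d m.co ≤ μ ^ 2 / 512 := by nlinarith
  obtain ⟨w, w1, w2, w3, w4, w5, w6, w7, q, hqV, hwq, x, hx, hxg, hxl, -⟩ :=
    Wy_664.exists_wall hLa N.hδ N.hR H N.hμ (by linarith) le_rfl B.barF hGB B.lv m hdm hlm
      LOW HIGH
  refine ⟨w, w1, w2, by linarith, ?_⟩
  rintro ⟨Y, hwY, hY1, hY2, hY3⟩
  -- numbers
  have hra : 0 < 1 / 2 - 5 * μ / 16 := by linarith
  have hω1 : max (d m.co / (μ / 8)) (d m.co / (1 / 2 - 5 * μ / 16)) ≤ μ / 64 := by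
    refine max_le ?_ ?_
    · rw [div_le_iff₀ (by positivity)]
      nlinarith
    · rw [div_le_iff₀ hra]
      nlinarith
  have hω : 0 < max (d m.co / (μ / 8)) (d m.co / (1 / 2 - 5 * μ / 16)) :=
    lt_max_of_lt_left (by positivity)
  have hε1 : 1 < ε m := (B.lv m).1
  have hε2 : ε m ≤ 1 + μ / 16 := (B.lv m).2.le.trans (hiB_le _ _)
  -- tiles near the core of a barrier of the family, over the zone
  have free : ∀ m' : BM Φ X, m'.am = m.am → ∀ q, ∀ x ∈ P (T.H q), ρ1 m'.co ≤ ga Φ m'.co (f x) →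
      ga Φ m'.co (f x) ≤ ρ4 m'.co → Φ.lev m.am (f x) ≤ 15 * μ / 32 →
      FreeT (h3 := fr3) (stB hGB bp bm) m.am q := by
    intro m' hm' q x hx g1 g2 g3 F hF y hy hyF i hl
    rw [← hm'] at g3 ⊢
    exact Afr_543.afree_out' N B hR hLa MM.barS MM.lev hx g1 g2 le_rfl (Or.inl g3) F hF hy hyF hl
  -- the top part is in `Y`
  obtain ⟨Gn, g1, g2, g3, g4⟩ := Gt_664.exists_Gn n4 n5 (by linarith) hLa H B
  have hGs : ∀ m, Gn m ⊆ GmB Om Φ f X ρ1 ρ3 d (μ / 16) (μ / 8) (1 / 2) (1 / 2 - 5 * μ / 16) ε m :=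
    fun m => (g2 m).trans (gmT_sub hRm m)
  have hwG : w ∈ Gn m := g4 m w w1 w2 ⟨q, hwq, x, hx, hxg, hxl⟩
  have htop : Cns_778.Cl (stB hGB bp bm) (Sum.inr m) (Gn m) ⊆ Y := by
    refine conn_sub (S := slC hLa hC n hn) (h3 := fr3) (Tw := Tw) (l0 := l0') (am := BM.am)
      (a := m.am) U g1 hGs rfl (hY1 w hwY).1 (hY1 w hwY).2 hwG hwY ?_
    rintro F ⟨m', ha', F0, rfl, q', hqF, y', hyq, hyG⟩ y hyY hAt hly
    have hd' := (B.rm m'.co m'.co_notMem).2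
    obtain ⟨e1, e2, e3, e4, e5, e6, e7⟩ := caps B.barF B.lv m'
    have k1 := (g2 m' hyG).2.2
    have k1' : ρ3 m'.co + 7 * d m'.co ≤ ga Φ m'.co (f y') := k1
    have k2 := (B.barF.pos (B.lv m').2 (g2 m' hyG).2.1).2.1
    have k2' : ga Φ m'.co (f y') ≤ rB ρ1 ρ3 d m'.co + Bgf_4.hB ρ1 ρ3 d m'.co * ε m' := k2
    have k3 := g3 m' y' hyG
    have k4 := (B.rm m'.co m'.co_notMem).1
    have k3' : Φ.lev m.am (f y') ≤ 15 * μ / 32 := by
      rw [← ha']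
      linarith
    refine hY2 (old F0) y hyY hAt (nox_old ?_ y)
    exact free m' ha' q' y' hyq (by linarith) (by linarith) k3' F0.1 hqF
  -- the chart
  obtain ⟨pc, qc, hMo⟩ := m.mo
  have hG0 : |3 * μ / 8 - 1 / 2| / (1 / 2 - 5 * μ / 16) ≤ 1 - μ / 8 := by
    rw [div_le_iff₀ hra, abs_of_nonpos (by linarith)]
    nlinarith
  obtain ⟨Wz, W1, W2, W3, W4, W5, -⟩ := Nefg_628.chart_rm (l0 := μ / 8) (mm := 1 / 2)
    (ra := 1 / 2 - 5 * μ / 16) (s0 := ρ1 m.co + 8 * d m.co) (s1 := ρ3 m.co + 9 * d m.co)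
    (t0 := 3 * μ / 8) (w1 := μ / 4) hLa H hMo hr (B.barF.pt m) (by linarith [hr.r1])
    (by linarith [hr.r12, hr.r23]) (by linarith [hr.r34]) ⟨by linarith, by linarith⟩
    (by linarith) (by linarith)
  set s0 := ρ1 m.co + 8 * d m.co with hs0
  set s1 := ρ3 m.co + 9 * d m.co with hs1
  have hs01 : s0 ≤ s1 := by rw [hs0, hs1]; linarith [hr.r12, hr.r23]
  set Dz : Set (ℝ × ℝ) := Icc s0 s1 ×ˢ Icc 0 (μ / 4) with hDz
  have pD : ∀ z ∈ Dz, Wz z ∈ Om ∧ ga Φ m.co (f (Wz z)) = z.1 ∧ Φ.lev m.am (f (Wz z)) = 3 * μ / 8 ∧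
      gmf Φ (μ / 8) (1 / 2) (1 / 2 - 5 * μ / 16) m.am m.Zm (Φ.Psi (f (Wz z))) =
        max (z.2 / (μ / 8)) (|3 * μ / 8 - 1 / 2| / (1 / 2 - 5 * μ / 16)) := by
    intro z hz
    obtain ⟨k1, k2, k3, k4, k5⟩ := W3 z hz
    exact ⟨k1, k2, k4, k5⟩
  have pga : ∀ z ∈ Dz, ρ1 m.co ≤ ga Φ m.co (f (Wz z)) ∧ ga Φ m.co (f (Wz z)) ≤ ρ4 m.co := by
    intro z hz
    rw [(pD z hz).2.1]
    have := hz.1
    exact ⟨by linarith [this.1], by linarith [this.2, hr.r34]⟩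
  have hDO : Wz '' Dz ⊆ Om := by
    rintro _ ⟨z, hz, rfl⟩
    exact (pD z hz).1
  -- the paths
  set Za : Set (ℝ × ℝ) := Icc s0 s1 ×ˢ {0} with hZa
  set Zb : Set (ℝ × ℝ) := {s0} ×ˢ Icc 0 (μ / 4) with hZb
  set Zc : Set (ℝ × ℝ) := Icc s0 s1 ×ˢ {μ / 4} with hZc
  set Zt : Set (ℝ × ℝ) := {s1} ×ˢ Icc 0 (μ / 4) with hZt
  have hμ4 : (0 : ℝ) ≤ μ / 4 := by linarith
  have ia : Za ⊆ Dz := prod_mono subset_rfl (by
    rintro _ rfl
    exact ⟨le_rfl, hμ4⟩)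
  have ib : Zb ⊆ Dz := prod_mono (by
    rintro _ rfl
    exact ⟨le_rfl, hs01⟩) subset_rfl
  have ic : Zc ⊆ Dz := prod_mono subset_rfl (by
    rintro _ rfl
    exact ⟨hμ4, le_rfl⟩)
  have it : Zt ⊆ Dz := prod_mono (by
    rintro _ rfl
    exact ⟨hs01, le_rfl⟩) subset_rfl
  have ja : IsPreconnected Za := isPreconnected_Icc.prod isPreconnected_singleton
  have jb : IsPreconnected Zb := isPreconnected_singleton.prod isPreconnected_Icc
  have jc : IsPreconnected Zc := isPreconnected_Icc.prod isPreconnected_singleton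
  have jt : IsPreconnected Zt := isPreconnected_singleton.prod isPreconnected_Icc
  have jab : IsPreconnected (Za ∪ Zb) := ja.union (s0, 0) ⟨⟨le_rfl, hs01⟩, rfl⟩
    ⟨rfl, ⟨le_rfl, hμ4⟩⟩ jb
  have jK : IsPreconnected (Za ∪ Zb ∪ Zc) := jab.union (s0, μ / 4)
    (Or.inr ⟨rfl, ⟨hμ4, le_rfl⟩⟩) ⟨⟨le_rfl, hs01⟩, rfl⟩ jc
  have iK : Za ∪ Zb ∪ Zc ⊆ Dz := union_subset (union_subset ia ib) ic
  -- the tiles at the bottom
  have hbotq : ∀ q, ∀ z ∈ Zb, Wz z ∈ P (T.H q) → ∀ y ∈ P (T.H q),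
      (slC hLa hC n hn).In ⟨m.co, m.co_notMem⟩ y := by
    intro q z hz hzq y hy
    have k1 := pga z (ib hz)
    have k2 := abs_le.1 (hr.tile_osc hzq k1.1 k1.2 hy).1
    rw [(pD z (ib hz)).2.1] at k2
    have k3 : z.1 = s0 := hz.1
    refine Dch_847.low_in hLa hC n hn H (fun c hc => (B.rm c hc).2) m.co_notMem (T.sub q hy) ?_
    rw [k3] at k2
    linarith [k2.1, hr.r12]
  -- the label at the ends
  have hGM : GM Φ m.co (gmf Φ (μ / 8) (1 / 2) (1 / 2 - 5 * μ / 16) m.am m.Zm) 0 (1 + μ / 2) :=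
    gm_moat hLa N.hδ N.hR hMo (nm_rec n4 (by linarith))
  obtain ⟨pl, hPol⟩ := B.barF.pol hLa m
  have hend : ∀ z ∈ Dz, ∃ i v, Wz z ∈ P (T.H i) ∧ v ∈ P (T.H i) ∧ T.dim v = 0 := by
    intro z hz
    obtain ⟨i, hi⟩ := T.cov _ (pD z hz).1
    obtain ⟨v, hv, hv0⟩ := exists_vertex_tile hi
    exact ⟨i, v, hi, hv, hv0⟩
  have za : ((s1, 0) : ℝ × ℝ) ∈ Dz := ⟨⟨hs01, le_rfl⟩, ⟨le_rfl, hμ4⟩⟩
  have zb : ((s1, μ / 4) : ℝ × ℝ) ∈ Dz := ⟨⟨hs01, le_rfl⟩, ⟨hμ4, le_rfl⟩⟩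
  obtain ⟨i1, u1, p1, p2, p3⟩ := hend _ za
  obtain ⟨i2, u2, p4, p5, p6⟩ := hend _ zb
  have a1 := pga _ za
  have a2 := pga _ zb
  have o1 := abs_le.1 (hr.tile_osc p1 a1.1 a1.2 p2).1
  have o2 := abs_le.1 (B.barF.osc m i1 _ p1 a1.1 a1.2 u1 p2)
  have o4 := abs_le.1 (B.barF.osc m i2 _ p4 a2.1 a2.2 u2 p5)
  have G1 : gmf Φ (μ / 8) (1 / 2) (1 / 2 - 5 * μ / 16) m.am m.Zm (Φ.Psi (f (Wz (s1, 0)))) ≤
      1 - μ / 8 := by
    rw [(pD _ za).2.2.2]
    refine max_le ?_ hG0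
    show (0 : ℝ) / (μ / 8) ≤ _
    rw [zero_div]; linarith
  have G2 : 2 ≤ gmf Φ (μ / 8) (1 / 2) (1 / 2 - 5 * μ / 16) m.am m.Zm
      (Φ.Psi (f (Wz (s1, μ / 4)))) := by
    rw [(pD _ zb).2.2.2]
    refine le_max_of_le_left ?_
    show 2 ≤ (μ / 4) / (μ / 8)
    rw [le_div_iff₀ (by positivity)]; linarith
  rw [(pD _ za).2.1] at o1
  have l1 : lm u1 = 1 := by
    refine LOW (1 - μ / 16) (by linarith) (hGM.le_conn hPol ⟨by linarith, by linarith⟩) (by linarith)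
      u1 (T.sub _ p2) p3 ?_ ?_ ?_
    · have : (s1 : ℝ) - ga Φ m.co (f u1) ≤ d m.co := o1.2
      linarith [hr.r12, hr.r23]
    · have : -(d m.co) ≤ (s1 : ℝ) - ga Φ m.co (f u1) := o1.1
      linarith
    · linarith [o2.1]
  have l2 : lm u2 = 0 := by
    refine HIGH (1 + μ / 4) (by linarith) (hGM.ge_conn hPol ⟨by linarith, by linarith⟩) ?_
      u2 (T.sub _ p5) p6 (Or.inr (Or.inr (by linarith [o4.2])))
    obtain ⟨q1, h5, h6⟩ := hGM.high
    exact ⟨q1, h5, by linarith⟩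
  have key : lm u1 = lm u2 := by
    refine encl_core (S := slC hLa hC n hn) (h3 := fr3) (s := stB hGB bp bm) (r := Sum.elim r bm)
      (Tw := Tw) (l0 := l0') (am := BM.am) (m := m) (K := Wz '' (Za ∪ Zb ∪ Zc)) (K' := Wz '' Zt)
      (x := Wz (s1, 0)) (y := Wz (s1, μ / 4)) MM.tt hY1 hY2 hY3 W4 hDO W5 ?_ ?_
      (image_mono iK) (jK.image _ (W1.mono iK)) (image_mono it) (jt.image _ (W1.mono it)) ?_ ?_ ?_ ?_
      hlm.lab (mem_image_of_mem _ (Or.inl (Or.inl ⟨⟨hs01, le_rfl⟩, rfl⟩)))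
      (mem_image_of_mem _ ⟨rfl, ⟨le_rfl, hμ4⟩⟩)
      (mem_image_of_mem _ (Or.inr ⟨⟨hs01, le_rfl⟩, rfl⟩))
      (mem_image_of_mem _ ⟨rfl, ⟨hμ4, le_rfl⟩⟩) ⟨i1, p2, p1⟩ ⟨i2, p5, p4⟩ p3 p6
    · rintro q ⟨_, hq, z, hz, rfl⟩
      obtain ⟨k1, k2⟩ := pga z hz
      exact free m rfl q _ hq k1 k2 (by rw [(pD z hz).2.2.1]; linarith)
    · rintro q ⟨_, hq, z, hz, rfl⟩ k e he j hj
      obtain ⟨k1, k2⟩ := pga z hz
      exact Afr_543.afree_in N B MM.din MM.lo MM.tt hR MM.barS MM.lev MM.v0l MM.v1l hq k1 k2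
        (by rw [(pD z hz).2.2.1]) k e he j hj
    · -- outer tiles on the columns carry no point of `m`
      rintro q ⟨_, hq, z, hz, rfl⟩ hout u hu hul huq
      have hzD := iK hz
      obtain ⟨k1, k2⟩ := pga z hzD
      have o5 := abs_le.1 (hr.tile_osc hq k1 k2 huq).1
      have o6 := abs_le.1 (B.barF.osc m q _ hq k1 k2 u huq)
      rw [(pD z hzD).2.1] at o5
      have z1 := hzD.1
      obtain ⟨-, -, -, -, -, -, -, e4⟩ := B.pos m u hu hul
      rcases hz with (hz | hz) | hz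
      · have e5 := (pD z hzD).2.2.2
        have e6 : z.2 = 0 := hz.2
        rw [e6, zero_div] at e5
        have e7 : gmf Φ (μ / 8) (1 / 2) (1 / 2 - 5 * μ / 16) m.am m.Zm (Φ.Psi (f (Wz z))) ≤
            1 - μ / 8 := by
          rw [e5]; exact max_le (by linarith) hG0
        rcases e4 with e4 | e4 | e4
        · rw [e4] at o5
          linarith [o5.2, z1.1]
        · rw [e4] at o5
          linarith [o5.1, z1.2]
        · have e4' : gmf Φ (μ / 8) (1 / 2) (1 / 2 - 5 * μ / 16) m.am m.Zm (Φ.Psi (f u)) = ε m := e4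
          linarith [o6.1]
      · exact hout (coT m) fun y hy => (hbotq q z hz hq y hy).1
      · have e5 := (pD z hzD).2.2.2
        have e6 : z.2 = μ / 4 := hz.2
        have e7 : 2 ≤ gmf Φ (μ / 8) (1 / 2) (1 / 2 - 5 * μ / 16) m.am m.Zm
            (Φ.Psi (f (Wz z))) := by
          rw [e5, e6]
          refine le_max_of_le_left ?_
          rw [le_div_iff₀ (by positivity)]; linarith
        rcases e4 with e4 | e4 | e4
        · rw [e4] at o5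
          linarith [o5.2, z1.1]
        · rw [e4] at o5
          linarith [o5.1, z1.2]
        · have e4' : gmf Φ (μ / 8) (1 / 2) (1 / 2 - 5 * μ / 16) m.am m.Zm (Φ.Psi (f u)) = ε m := e4
          linarith [o6.2]
    · -- no moved vertex on the columns
      rintro q ⟨_, hq, z, hz, rfl⟩ c hc v hv j hj
      have hzD := iK hz
      obtain ⟨k1, k2⟩ := pga z hzD
      rcases hz with (hz | hz) | hz
      · refine Nvm1_985.never_m N H B MM.din MM.lo MM.tt m hq k1 k2 (Or.inl ?_) c v hv j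
        have e5 := (pD z hzD).2.2.2
        have e6 : z.2 = 0 := hz.2
        rw [e6, zero_div] at e5
        show gmf Φ (μ / 8) (1 / 2) (1 / 2 - 5 * μ / 16) m.am m.Zm (Φ.Psi (f (Wz z))) ≤ _
        rw [e5]; exact max_le (by linarith) hG0
      · exfalso
        have k3 := hbotq q z hz hq v.1 hv
        have k4 : v.1 ∈ (slC hLa hC n hn).K c := (slC hLa hC n hn).fr_sub c v.2.2
        have k5 := (slC hLa hC n hn).core_unique k3.1 k4
        subst k5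
        exact k3.2 v.2.2
      · refine Nvm1_985.never_m N H B MM.din MM.lo MM.tt m hq k1 k2 (Or.inr ?_) c v hv j
        have e5 := (pD z hzD).2.2.2
        have e6 : z.2 = μ / 4 := hz.2
        show 2 ≤ gmf Φ (μ / 8) (1 / 2) (1 / 2 - 5 * μ / 16) m.am m.Zm (Φ.Psi (f (Wz z)))
        rw [e5, e6]
        refine le_max_of_le_left ?_
        rw [le_div_iff₀ (by positivity)]; linarith
    · -- the top edge is outside
      rintro q ⟨_, hq, z, hz, rfl⟩ c' hc'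
      have hzD := it hz
      obtain ⟨k1, k2⟩ := pga z hzD
      have hV : q ∈ V m.co := hr.v q ⟨_, hq, k2⟩
      have hJ' : q ∈ J c'.1 := Slt_471.sub_KJ_iff.1 hc'
      by_cases hcc : c'.1 = m.co
      · have k3 : Wz z ∈ KJ T (J m.co) := by rw [← hcc]; exact hc' hq
        have k4 := Sgo_298.ga_core hLa H hC hRm m.co_notMem k3
        rw [(pD z hzD).2.1] at k4
        have k5 : z.1 = s1 := hz.1
        rw [k5] at k4
        linarith
      · exact Set.disjoint_left.1 (hC.disj c'.1 m.co hcc) ((hC.tiny c'.1 c'.2).sub hJ') hV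
    · -- the points on the top edge
      rintro q ⟨_, hq, z, hz, rfl⟩ u hu hul huq
      have hzD := it hz
      have k5 : z.1 = s1 := hz.1
      have huG : u ∈ Gn m := g4 m u hu hul ⟨q, huq, Wz z, hq, by rw [(pD z hzD).2.1, k5],
        by rw [(pD z hzD).2.2.1]⟩
      exact ⟨(U.mem_out (cl_of hu hul (hGs m huG))).1, htop (cl_of hu hul huG)⟩
  rw [l1, l2] at key
  exact one_ne_zero key

end Crest.Agent.R096.Nef_381
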