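import Crest.Agent.R096.Nef3_778
import Crest.Agent.R096.Gt1_664
import Crest.Agent.R096.Gt2_664
import Crest.Agent.R096.Nvm1_985
import Crest.Agent.R096.Afr1_112
import Crest.Agent.R096.Cht_244
import Crest.Agent.R096.Cns4_778

/-!
# R096 (row 96), DOORS, NE1 (helper778), part 4: **NE1, machine**

`ne_end` : the points of a barrier on the top part at one end wall (`t0 = 3 μ / 8` or `1 - 3 μ / 8`)
are not enclosed.  `ne_low`, `ne_high`, `ne1`.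
-/

set_option autoImplicit false
set_option linter.unusedSectionVars false
set_option linter.unusedVariables false
set_option linter.style.longLine false

open Set Topology Filter Metric Module Relation
open scoped Classical

namespace Crest.Agent.R096.Nef_778

open Crest.Agent.R096.Msh_715 Crest.Agent.R096.Coh_184 Crest.Agent.R096.Lab_184
  Crest.Agent.R096.Main_4 Crest.Agent.R096.Agl5_543
  Crest.Agent.R096.Seq_213 Crest.Agent.R096.St_147 Crest.Agent.R096.Door_501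
  Crest.Agent.R096.Twr_438 Crest.Agent.R096.Exa_560
  Crest.Agent.R096.Ess3_95 Crest.Agent.R096.Ess4_95
  Crest.Agent.R096.Dfi_539 Crest.Agent.R096.Dfi_471 Crest.Agent.R096.Sla_184
  Crest.Agent.R096.Brk1_582 Crest.Agent.R096.Brk2_582 Crest.Agent.R096.Brk3_582
  Crest.Agent.R096.Brk5_582 Crest.Agent.R096.Bsp_628 Crest.Agent.R096.Init_543
  Crest.Agent.R096.Dib_438 Crest.Agent.R096.Rop_441
  Crest.Agent.R096.Cg_501 Crest.Agent.R096.SecW_892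
  Crest.Agent.R096.Nmd1_698 Crest.Agent.R096.Bar_106
  Crest.Agent.R096.Ebr4_95 Crest.Agent.R096.Bgf_4 Crest.Agent.R096.Ess5_95
  Crest.Agent.R096.Cns_778 Crest.Agent.R096.Sde_422 Crest.Agent.R096.Lv4_471
open Crest.Agent.R096.Sgo_298 (RmA rout ActR)
open Crest.Agent.R096.Mbf_337 (KJ Tiny Cores Fine Words sb gau)
open Crest.Agent.R096.SkC1_961 (E3 FoamD Hom3)
open Crest.Agent.R096.Frn_337 (Ti)
open Crest.Agent.R096.Ess7_95 (KT)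
open Crest.Agent.R096.Bmf_416 (coT coT_fin)
open Crest.Agent.R096.Dff_539 (vS)
open Crest.Agent.R096.Frs_662 (slC)
open Crest.Agent.R096.Lbc_334
open Crest.Agent.R096.Sla_184.Sla (hf vf old Fn Out F0)

variable {δ κ0 R c0 : ℝ} {La Om : Set E3} {ι : Type} {Φ : FoamD δ κ0 R c0 La} {T : Tiling Om ι}
  {f g : E3 → E3} {κ1 κ2 μ : ℝ} {X : Set Φ.F} {J0 J V : Φ.F → Set ι}
  {ct ct' : Φ.F → ι} {A : Φ.F → E3 ≃ᵃ[ℝ] E3} {lam : Φ.F → ℝ} {z : Φ.F → E3}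
  {θ : Φ.F → E3 → E3} {φ : Φ.F → E3 → ℝ} {r₀ : Φ.F → ℝ}
  {L : Φ.F → Finset ℝ} [Nonempty (JJ Φ L)] {hG : GF Φ r₀ T f L} {bp : JJ Φ L → E3}
  {N' : BM Φ X → Set ℝ} {ρ1 ρ2 ρ3 ρ4 d : Φ.F → ℝ} {q₀ : BM Φ X → E3} {ε : BM Φ X → ℝ}
  {bm : BM Φ X → E3} {hGB : GFB Φ r₀ T f L (lRc Φ X μ ρ1 ρ3 d) ε}
  {v0F v1F : ∀ c, Φ.F → VxK T (KT T J X) c} {v0B v1B : ∀ c, BM Φ X → VxK T (KT T J X) c}
  {hLa : IsOpen La} {hC : Cores Φ T f κ1 κ2 X J0 J V ct A lam z θ φ}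
  {n : Ti X → ℕ} {hn : ∀ c, 0 < n c} {r : JJ Φ L → E3}
  {Sf : JJ Φ L ⊕ BM Φ X → Set E3}
  {Lv : ∀ c, Φ.F ⊕ BM Φ X → Lev T (frontier ((slC hLa hC n hn).K c)) (JJ Φ L ⊕ BM Φ X)}
  {Tw : Twrs ((slC hLa hC n hn).sh fr3) (slC hLa hC n hn).n
    (outK (slC hLa hC n hn).hH (slC hLa hC n hn).dis (stB hGB bp bm) (Sum.elim r bm))}
  {l0' : E3 → JJ Φ L ⊕ BM Φ X}

/-- the U-shaped path in the rectangle -/
def Uz (s0 s1 w1 : ℝ) : Set (ℝ × ℝ) :=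
  (Icc s0 s1 ×ˢ {0}) ∪ (({s0} ×ˢ Icc 0 w1) ∪ (Icc s0 s1 ×ˢ {w1}))

theorem Uz_conn {s0 s1 w1 : ℝ} (h : s0 ≤ s1) (hw : 0 ≤ w1) : IsPreconnected (Uz s0 s1 w1) := by
  have c1 : IsPreconnected (Icc s0 s1 ×ˢ ({0} : Set ℝ)) :=
    isPreconnected_Icc.prod isPreconnected_singleton
  have c2 : IsPreconnected (({s0} : Set ℝ) ×ˢ Icc 0 w1) :=
    isPreconnected_singleton.prod isPreconnected_Icc
  have c3 : IsPreconnected (Icc s0 s1 ×ˢ ({w1} : Set ℝ)) :=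
    isPreconnected_Icc.prod isPreconnected_singleton
  refine c1.union (s0, 0) ⟨⟨le_rfl, h⟩, rfl⟩ (Or.inl ⟨rfl, ⟨le_rfl, hw⟩⟩) ?_
  exact c2.union (s0, w1) ⟨rfl, ⟨hw, le_rfl⟩⟩ ⟨⟨le_rfl, h⟩, rfl⟩ c3

theorem Uz_sub {s0 s1 w1 : ℝ} (h : s0 ≤ s1) (hw : 0 ≤ w1) :
    Uz s0 s1 w1 ⊆ Icc s0 s1 ×ˢ Icc 0 w1 := by
  rintro ⟨x, y⟩ (⟨h1, h2⟩ | ⟨h1, h2⟩ | ⟨h1, h2⟩)
  · obtain rfl : y = 0 := h2
    exact ⟨h1, le_rfl, hw⟩
  · obtain rfl : x = s0 := h1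
    exact ⟨⟨le_rfl, h⟩, h2⟩
  · obtain rfl : y = w1 := h2
    exact ⟨h1, hw, le_rfl⟩

set_option maxHeartbeats 1600000 in
/-- **NOT ENCLOSED**, one end wall -/
theorem ne_end (N : NumD δ κ0 R c0 κ2 μ κ1) (hI : InitR Φ T f g J0 ct' r₀)
    (hLm : ∀ c, ∀ t ∈ L c, μ ≤ t ∧ t ≤ 1 - μ)
    (bar : BarOut Φ T f κ1 μ X J0 J V θ hG bp N' ρ1 ρ2 ρ3 ρ4 d q₀ ε bm hGB v0B v1B)
    (D : DIn (slC hLa hC n hn).hH (stB hGB bp bm) (Sum.elim r bm) Sf (nbA Φ X) (vS v0F v0B)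
      (vS v1F v1B) (uA Φ hLa X θ) (AA Φ X μ κ1) (BA Φ X μ))
    (lo : LevOut (Kc := (slC hLa hC n hn).K) (stB hGB bp bm) (nbA Φ X) (uA Φ hLa X θ)
      (AA Φ X μ κ1) (BA Φ X μ) Lv)
    (tt : TwOut (slC hLa hC n hn) fr3 (stB hGB bp bm) (Sum.elim r bm) (vS v0F v0B) (vS v1F v1B)
      Lv Tw)
    (rec : BR hLa (stB hGB bp bm) f X J θ coT BM.am BM.Zm (nbA Φ X) (vS v0F v0B) (vS v1F v1B)
      (uA Φ hLa X θ) (AA Φ X μ κ1) (BA Φ X μ) μ κ1)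
    {t0 : ℝ} (ht : t0 = 3 * μ / 8 ∨ t0 = 1 - 3 * μ / 8)
    {Gn : BM Φ X → Set E3} (hGc : ∀ m, IsPreconnected (Gn m))
    (hGT : ∀ m, Gn m ⊆ GmT Om Φ f X μ ρ1 ρ3 d ε m)
    (hGl : ∀ m, ∀ x ∈ Gn m, Φ.lev m.am (f x) ≤ 7 * μ / 16 ∨ 1 - 7 * μ / 16 ≤ Φ.lev m.am (f x))
    (m : BM Φ X)
    (hGe : ∀ w ∈ (stB hGB bp bm).P, (stB hGB bp bm).lab w = Sum.inr m →
      (∃ q, w ∈ P (T.H q) ∧ ∃ x ∈ P (T.H q), ga Φ m.co (f x) = ρ3 m.co + 9 * d m.co ∧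
        Φ.lev m.am (f x) = t0) → w ∈ Gn m)
    {w : E3} (hw : w ∈ (stB hGB bp bm).P) (hl : (stB hGB bp bm).lab w = Sum.inr m)
    (hwG : w ∈ Gn m) {Rs : Set ι} :
    ¬ Dfo_539.Encl (s2 (slC hLa hC n hn) fr3 Tw l0') BM.am (fun _ => ActR (slC hLa hC n hn) Rs)
      m w := by
  rintro ⟨Y, hwY, hY1, hY2, hY3⟩
  obtain ⟨n1, n2, n3, n4, n5, n6⟩ := N.base
  have H := hI.hm
  have hRm := rmA_of bar
  have hZ := bz_rec N H hLa hC bar m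
  have hr := hZ.hr
  have hd := hr.d0
  have hr1 := hr.r1
  have hr12 := hr.r12
  have hr23 := hr.r23
  have hr34 := hr.r34
  obtain ⟨hdκ, -⟩ := bar.rm m.co m.co_notMem
  have U := upp_m (hLa := hLa) (hC := hC) (n := n) (hn := hn) (r := r) hI n4 hLm bar
  have hcap : ∀ m' : BM Φ X, ∀ x ∈ GmT Om Φ f X μ ρ1 ρ3 d ε m',
      ρ1 m'.co ≤ ga Φ m'.co (f x) ∧ ga Φ m'.co (f x) ≤ ρ4 m'.co := by
    intro m' x hx
    obtain ⟨c1, c2, c3, c4, c5, c6, c7⟩ := caps bar.barF bar.lv m'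
    obtain ⟨k1, k2, -⟩ := bar.barF.pos (bar.lv m').2 hx.2.1
    have k1' : rB ρ1 ρ3 d m'.co - Bgf_4.hB ρ1 ρ3 d m'.co * ε m' ≤ ga Φ m'.co (f x) := k1
    have k2' : ga Φ m'.co (f x) ≤ rB ρ1 ρ3 d m'.co + Bgf_4.hB ρ1 ρ3 d m'.co * ε m' := k2
    exact ⟨by linarith, by linarith⟩
  -- the caps of `m`
  have hεm := bar.lv m
  have hε1 : 1 < ε m := hεm.1
  have hhi := hiB_le (ρ1 := ρ1) (ρ3 := ρ3) (d := d) (c := m.co) (μ / 16)
  have hε2 : ε m ≤ 1 + μ / 16 := hεm.2.le.trans hhi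
  have hh : 0 < Bgf_4.hB ρ1 ρ3 d m.co := bar.barF.h0 m
  have hhε : Bgf_4.hB ρ1 ρ3 d m.co * 1 ≤ Bgf_4.hB ρ1 ρ3 d m.co * ε m :=
    mul_le_mul_of_nonneg_left hε1.le hh.le
  have e1 := rB_sub (ρ1 := ρ1) (ρ3 := ρ3) (d := d) m.co
  have e2 := rB_add (ρ1 := ρ1) (ρ3 := ρ3) (d := d) m.co
  -- all points of `m` on `Gn m` are in `Y`
  have hGB' : ∀ m', Gn m' ⊆
      GmB Om Φ f X ρ1 ρ3 d (μ / 16) (μ / 8) (1 / 2) (1 / 2 - 5 * μ / 16) ε m' :=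
    fun m' => (hGT m').trans (gmT_sub hRm m')
  have hall0 : Cl (stB hGB bp bm) (Sum.inr m) (Gn m) ⊆ Y := by
    obtain ⟨g1, g2⟩ := U.mem_s2' (Tw := Tw) (l0 := l0') (cl_of hw hl (hGB' m hwG))
    refine conn_sub (am := BM.am) (a := m.am) U hGc hGB' rfl g1 g2 hwG hwY ?_
    rintro F ⟨m', hm', F0, rfl, q, hq, x, hxq, hxG⟩ y hyY hA hly
    refine hY2 (old F0) y hyY hA (nox_old ?_ y)
    obtain ⟨k1, k2⟩ := hcap m' x (hGT m' hxG)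
    intro y' hy' hyF i hi hia
    exact Afr_112.afree_out N bar rec m' hxq k1 k2 (hGl m' x hxG) F0.1 hq y' hy' hyF i hi
      (hia.trans hm'.symm)
  -- the chart
  obtain ⟨p', q', hM⟩ := m.mo
  have hR14 : ρ3 m.co + 9 * d m.co ≤ ρ4 m.co := by linarith
  have ht01 : t0 ∈ Icc (0 : ℝ) 1 := by
    rcases ht with h | h <;> rw [h] <;> constructor <;> linarith
  obtain ⟨Wz, hWc, hWi, hWz, hWk, hWt⟩ := Cht_244.chart_bar hLa H bar.barF (m := m) hM (μ / 8)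
    (1 / 2) (1 / 2 - 5 * μ / 16) (s0 := ρ1 m.co + 5 * d m.co) (s1 := ρ3 m.co + 9 * d m.co)
    (t0 := t0) (w1 := μ / 4) (by linarith) hR14 ht01 (by linarith)
  have hs01 : ρ1 m.co + 5 * d m.co ≤ ρ3 m.co + 9 * d m.co := by linarith
  have hw1 : (0 : ℝ) ≤ μ / 4 := by linarith
  have hgam : |t0 - 1 / 2| / (1 / 2 - 5 * μ / 16) ≤ 1 - μ / 8 := by
    rw [div_le_iff₀ (by linarith)]
    rcases ht with h | h
    · rw [h, abs_of_nonpos (by linarith)]; nlinarith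
    · rw [h, abs_of_nonneg (by linarith)]; nlinarith
  -- facts about the points of the chart
  have hpt : ∀ z ∈ Icc (ρ1 m.co + 5 * d m.co) (ρ3 m.co + 9 * d m.co) ×ˢ Icc 0 (μ / 4),
      Wz z ∈ Om ∧ ga Φ m.co (f (Wz z)) = z.1 ∧ Φ.lev m.am (f (Wz z)) = t0 ∧
        gR Φ X μ m (Φ.Psi (f (Wz z))) = max (z.2 / (μ / 8)) (|t0 - 1 / 2| / (1 / 2 - 5 * μ / 16)) :=
    fun z hz => ⟨(hWz z hz).1, (hWz z hz).2.1, (hWz z hz).2.2.2.1, (hWz z hz).2.2.2.2⟩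
  have hafr : ∀ z ∈ Icc (ρ1 m.co + 5 * d m.co) (ρ3 m.co + 9 * d m.co) ×ˢ Icc 0 (μ / 4),
      ρ1 m.co ≤ ga Φ m.co (f (Wz z)) ∧ ga Φ m.co (f (Wz z)) ≤ ρ4 m.co ∧
      (Φ.lev m.am (f (Wz z)) ≤ 7 * μ / 16 ∨ 1 - 7 * μ / 16 ≤ Φ.lev m.am (f (Wz z))) := by
    intro z hz
    obtain ⟨-, g2, g3, -⟩ := hpt z hz
    refine ⟨by rw [g2]; linarith [hz.1.1], by rw [g2]; linarith [hz.1.2], ?_⟩
    rcases ht with h | h
    · left; rw [g3, h]; linarith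
    · right; rw [g3, h]; linarith
  -- outer points have gauge `≥ ρ2`
  have hge : ∀ x, (slC hLa hC n hn).Out x → ρ2 m.co ≤ ga Φ m.co (f x) := by
    intro x hx
    refine ga_ge hLa H hC m.co_notMem hZ hx.1 fun hint => ?_
    exact hx.2 (coT m) ⟨interior_subset hint, fun hfr => hfr.2 hint⟩
  -- the label
  obtain ⟨lm, hlm, LOW, HIGH⟩ := bar.lab m
  obtain ⟨pp', hPol⟩ := bar.barF.pol hLa m
  have hGM := hZ.gm
  have hω : max (d m.co / (μ / 8)) (d m.co / (1 / 2 - 5 * μ / 16)) ≤ μ / 64 := by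
    refine max_le ?_ ?_
    · rw [div_le_iff₀ (by linarith)]; nlinarith
    · rw [div_le_iff₀ (by linarith)]; nlinarith
  -- the two ends
  have hz0 : ((ρ3 m.co + 9 * d m.co, 0) : ℝ × ℝ) ∈
      Icc (ρ1 m.co + 5 * d m.co) (ρ3 m.co + 9 * d m.co) ×ˢ Icc 0 (μ / 4) :=
    ⟨⟨hs01, le_rfl⟩, le_rfl, hw1⟩
  have hz1 : ((ρ3 m.co + 9 * d m.co, μ / 4) : ℝ × ℝ) ∈
      Icc (ρ1 m.co + 5 * d m.co) (ρ3 m.co + 9 * d m.co) ×ˢ Icc 0 (μ / 4) :=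
    ⟨⟨hs01, le_rfl⟩, hw1, le_rfl⟩
  have hvx : ∀ z ∈ Icc (ρ1 m.co + 5 * d m.co) (ρ3 m.co + 9 * d m.co) ×ˢ Icc 0 (μ / 4),
      ∃ v, T.dim v = 0 ∧ v ∈ Om ∧ (∃ q, v ∈ P (T.H q) ∧ Wz z ∈ P (T.H q)) ∧
        |ga Φ m.co (f (Wz z)) - ga Φ m.co (f v)| ≤ d m.co ∧
        |gR Φ X μ m (Φ.Psi (f (Wz z))) - gR Φ X μ m (Φ.Psi (f v))| ≤ μ / 1024 := by
    intro z hz
    obtain ⟨q, hq⟩ := T.cov _ (hpt z hz).1
    obtain ⟨v, hv, hv0⟩ := exists_vertex_tile hq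
    obtain ⟨k1, k2, -⟩ := hafr z hz
    exact ⟨v, hv0, T.sub q hv, ⟨q, hv, hq⟩, (hr.tile_osc hq k1 k2 hv).1, hZ.osc q _ hq k1 k2 v hv⟩
  obtain ⟨v, hv0, hvO, hvq, hvg, hvR⟩ := hvx _ hz0
  obtain ⟨v', hv0', hvO', hvq', hvg', hvR'⟩ := hvx _ hz1
  obtain ⟨-, a2, -, a4⟩ := hpt _ hz0
  obtain ⟨-, b2, -, b4⟩ := hpt _ hz1
  have a4' : gR Φ X μ m (Φ.Psi (f (Wz (ρ3 m.co + 9 * d m.co, 0)))) ≤ 1 - μ / 8 := by
    rw [a4]
    refine max_le ?_ hgam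
    show (0 : ℝ) / (μ / 8) ≤ _
    rw [zero_div]; linarith
  have b4' : 2 ≤ gR Φ X μ m (Φ.Psi (f (Wz (ρ3 m.co + 9 * d m.co, μ / 4)))) := by
    rw [b4]
    refine le_trans (le_of_eq ?_) (le_max_left _ _)
    show (2 : ℝ) = μ / 4 / (μ / 8)
    rw [div_div_eq_mul_div, eq_div_iff n4.ne']; ring
  have hv1 : lm v = 1 := by
    have o1 := abs_le.1 hvg
    have o2 := abs_le.1 hvR
    have a2' : ga Φ m.co (f (Wz (ρ3 m.co + 9 * d m.co, 0))) = ρ3 m.co + 9 * d m.co := a2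
    refine LOW (1 - μ / 16) (by linarith) (hGM.le_conn hPol ⟨by linarith, by linarith⟩)
      (by linarith) v hvO hv0 (by linarith [o1.2]) (by linarith [o1.1]) ?_
    show gR Φ X μ m (Φ.Psi (f v)) ≤ _
    linarith [o2.1]
  have hv1' : lm v' = 0 := by
    have o2 := abs_le.1 hvR'
    refine HIGH (1 + μ / 4) (by linarith) (hGM.ge_conn hPol ⟨by linarith, by linarith⟩) ?_ v' hvO'
      hv0' (Or.inr (Or.inr ?_))
    · obtain ⟨q1, h5, h6⟩ := hGM.high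
      exact ⟨q1, h5, show 1 + μ / 4 ≤ gR Φ X μ m q1 by linarith⟩
    · show 1 + μ / 4 ≤ gR Φ X μ m (Φ.Psi (f v'))
      linarith [o2.2]
  -- the core
  set D0 : Set E3 := Wz '' (Icc (ρ1 m.co + 5 * d m.co) (ρ3 m.co + 9 * d m.co) ×ˢ Icc 0 (μ / 4))
    with hD0
  set K0 : Set E3 := Wz '' Uz (ρ1 m.co + 5 * d m.co) (ρ3 m.co + 9 * d m.co) (μ / 4) with hK0
  set K1 : Set E3 := Wz '' ({ρ3 m.co + 9 * d m.co} ×ˢ Icc 0 (μ / 4)) with hK1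
  have hU := Uz_sub hs01 hw1
  have hUc := Uz_conn hs01 hw1
  have hS1 : ({ρ3 m.co + 9 * d m.co} ×ˢ Icc 0 (μ / 4) : Set (ℝ × ℝ)) ⊆
      Icc (ρ1 m.co + 5 * d m.co) (ρ3 m.co + 9 * d m.co) ×ˢ Icc 0 (μ / 4) := by
    rintro ⟨x, y⟩ ⟨h1, h2⟩
    obtain rfl : x = _ := h1
    exact ⟨⟨hs01, le_rfl⟩, h2⟩
  have key : lm v = lm v' := by
    refine encl_core (am := BM.am) (S := slC hLa hC n hn) (h3 := fr3) (l0 := l0') (R := Rs) (m := m) (Y := Y)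
      (D := D0) (K := K0) (K' := K1) (x := Wz (ρ3 m.co + 9 * d m.co, 0))
      (y := Wz (ρ3 m.co + 9 * d m.co, μ / 4)) tt hY1 hY2 hY3 hWk ?_ hWt ?_ ?_
      (image_mono hU) (hUc.image _ (hWc.mono hU)) (image_mono hS1)
      ((isPreconnected_singleton.prod isPreconnected_Icc).image _ (hWc.mono hS1)) ?_ ?_ ?_ ?_
      hlm.lab (mem_image_of_mem _ (Or.inl ⟨⟨hs01, le_rfl⟩, rfl⟩))
      (mem_image_of_mem _ ⟨rfl, le_rfl, hw1⟩)
      (mem_image_of_mem _ (Or.inr (Or.inr ⟨⟨hs01, le_rfl⟩, rfl⟩)))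
      (mem_image_of_mem _ ⟨rfl, hw1, le_rfl⟩) hvq hvq' hv0 hv0'
    · rintro _ ⟨z, hz, rfl⟩
      exact (hpt z hz).1
    · rintro q ⟨_, hxq, z, hz, rfl⟩
      obtain ⟨k1, k2, k3⟩ := hafr z hz
      exact Afr_112.afree_out N bar rec m hxq k1 k2 k3
    · rintro q ⟨_, hxq, z, hz, rfl⟩ k e he j hj
      obtain ⟨k1, k2, k3⟩ := hafr z hz
      obtain ⟨g1, g2⟩ := Afr_112.afree_in N bar D lo tt rec m hxq k1 k2 k3 k e he j
      exact ⟨fun j' _ => g1 j', g2⟩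
    · -- outer tiles on the columns
      rintro q ⟨_, hxq, z, hz, rfl⟩ hqK u hu hlu huq
      have hzR := hU hz
      obtain ⟨g1, g2, g3, g4⟩ := hpt z hzR
      obtain ⟨k1, k2, -⟩ := hafr z hzR
      have hgx := hge _ (Sla.out_of_tile hqK hxq)
      rw [g2] at hgx
      have o1 := abs_le.1 (hr.tile_osc hxq k1 k2 huq).1
      rw [g2] at o1
      have o2 := abs_le.1 (hZ.osc q _ hxq k1 k2 u huq)
      obtain ⟨-, -, -, -, p1, p2, p3, p4⟩ := bar.pos m u hu hlu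
      have p3' : gR Φ X μ m (Φ.Psi (f u)) ≤ ε m := p3
      rcases hz with ⟨hz1', hz2⟩ | ⟨hz1', hz2⟩ | ⟨hz1', hz2⟩
      · have hz2' : z.2 = 0 := hz2
        have g5 : gR Φ X μ m (Φ.Psi (f (Wz z))) ≤ 1 - μ / 8 := by
          rw [g4, hz2', zero_div]
          exact max_le (by linarith) hgam
        rcases p4 with p4 | p4 | p4
        · linarith [o1.1, o1.2]
        · linarith [o1.1, o1.2, hz1'.2]
        · have p4' : gR Φ X μ m (Φ.Psi (f u)) = ε m := p4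
          linarith [o2.1, o2.2]
      · have : z.1 = ρ1 m.co + 5 * d m.co := hz1'
        linarith
      · have hz2' : z.2 = μ / 4 := hz2
        have g5 : 2 ≤ gR Φ X μ m (Φ.Psi (f (Wz z))) := by
          rw [g4, hz2']
          refine le_trans (le_of_eq ?_) (le_max_left _ _)
          rw [div_div_eq_mul_div, eq_div_iff n4.ne']; ring
        linarith [o2.1, o2.2]
    · -- inner tiles on the columns
      rintro q ⟨_, hxq, z, hz, rfl⟩ k hqk u huq j hj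
      have hzR := hU hz
      obtain ⟨g1, g2, g3, g4⟩ := hpt z hzR
      obtain ⟨k1, k2, -⟩ := hafr z hzR
      rcases hz with ⟨hz1', hz2⟩ | ⟨hz1', hz2⟩ | ⟨hz1', hz2⟩
      · have hz2' : z.2 = 0 := hz2
        refine Nvm1_985.never_m N H bar D lo tt m hxq k1 k2 (Or.inl ?_) k u huq j
        rw [g4, hz2', zero_div]
        exact max_le (by linarith) hgam
      · intro hQ
        have hk0 : nbA Φ X k (Sum.inr m) := qv_nb D tt hQ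
        have hk : coT m = k := hk0
        subst hk
        have hz1'' : z.1 = ρ1 m.co + 5 * d m.co := hz1'
        have o1 := abs_le.1 (hr.tile_osc hxq k1 k2 huq).1
        rw [g2] at o1
        have hfr := (hr.fr u.1 u.2.2).1
        linarith [o1.1]
      · have hz2' : z.2 = μ / 4 := hz2
        refine Nvm1_985.never_m N H bar D lo tt m hxq k1 k2 (Or.inr ?_) k u huq j
        rw [g4, hz2']
        refine le_trans (le_of_eq ?_) (le_max_left _ _)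
        rw [div_div_eq_mul_div, eq_div_iff n4.ne']; ring
    · -- the top tiles are outside
      rintro q ⟨_, hxq, z, hz, rfl⟩ k hsub
      have hzR := hS1 hz
      obtain ⟨g1, g2, g3, g4⟩ := hpt z hzR
      obtain ⟨k1, k2, -⟩ := hafr z hzR
      have hz1' : z.1 = ρ3 m.co + 9 * d m.co := hz.1
      refine out_core hLa H hC hRm m.co_notMem (x := Wz z) (fun i hi => (hr.tile hi k1 k2).1) ?_ k.1
        (hsub hxq)
      rw [g2, hz1']; linarith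
    · -- all points on the top tiles are in `Y`
      rintro q ⟨_, hxq, z, hz, rfl⟩ u hu hlu huq
      have hzR := hS1 hz
      obtain ⟨g1, g2, g3, g4⟩ := hpt z hzR
      have hz1' : z.1 = ρ3 m.co + 9 * d m.co := hz.1
      have huG := hGe u hu hlu ⟨q, huq, Wz z, hxq, by rw [g2, hz1'], g3⟩
      exact ⟨(U.mem_out (cl_of hu hlu (hGB' m huG))).1, hall0 (cl_of hu hlu huG)⟩
  rw [hv1, hv1'] at key
  exact one_ne_zero key

end Crest.Agent.R096.Nef_778
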