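import Crest.Agent.R096.Nef3_778
import Crest.Agent.R096.Nefg1_628
import Crest.Agent.R096.Nvm1_985
import Crest.Agent.R096.Afr1_543
import Crest.Agent.R096.Gtp1_395
import Crest.Agent.R096.Hop1_895

/-!
# R096 (row 96), DOORS, NE1 (helper543): the composition

`ne1_m` : every barrier has a point above the gauge `ρ3 + 7 d` which is not enclosed (778's plan:
transversal strip, `encl_core`).
`ne1M` : 895's closed literal `NE1M`.
-/

set_option autoImplicit false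
set_option linter.unusedSectionVars false
set_option linter.unusedVariables false
set_option linter.style.longLine false

open Set Topology Filter Metric Module Relation
open scoped Classical

namespace Crest.Agent.R096.Nef_543

open Crest.Agent.R096.Msh_715 Crest.Agent.R096.Agl5_543 Crest.Agent.R096.St_147
  Crest.Agent.R096.Seq_213 Crest.Agent.R096.Door_501 Crest.Agent.R096.Sla_184
  Crest.Agent.R096.Twr_438 Crest.Agent.R096.Exa_560 Crest.Agent.R096.Ess3_95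
  Crest.Agent.R096.Ess4_95 Crest.Agent.R096.Dfi_539 Crest.Agent.R096.Dfi_471
  Crest.Agent.R096.Lv4_471 Crest.Agent.R096.Coh_184 Crest.Agent.R096.Lab_184
  Crest.Agent.R096.Main_4 Crest.Agent.R096.Sphg_316
open Crest.Agent.R096.Brk1_582 Crest.Agent.R096.Brk2_582 Crest.Agent.R096.Brk3_582
  Crest.Agent.R096.Brk5_582 Crest.Agent.R096.Bsp_628 Crest.Agent.R096.Init_543
  Crest.Agent.R096.Bar_106 Crest.Agent.R096.Dib_438
  Crest.Agent.R096.Ess5_95 Crest.Agent.R096.Bgf_4 Crest.Agent.R096.Ebr1_95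
  Crest.Agent.R096.Ebr4_95 Crest.Agent.R096.Rop_441 Crest.Agent.R096.Nmd1_698
  Crest.Agent.R096.Sde_422 Crest.Agent.R096.Cns_778 Crest.Agent.R096.Nef_778
open Crest.Agent.R096.Mbf_337 (sb KJ Tiny gau Cores Fine)
open Crest.Agent.R096.SkC1_961 (E3 FoamD Hom3)
open Crest.Agent.R096.Frn_337 (Ti)
open Crest.Agent.R096.Frs_662 (slC)
open Crest.Agent.R096.Ess7_95 (KT Sh)
open Crest.Agent.R096.Dff_539 (vS)
open Crest.Agent.R096.Bmf_416 (coT)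
open Crest.Agent.R096.Dfn_416 (BarS)
open Crest.Agent.R096.Dia_316 (nbT)
open Crest.Agent.R096.Sgo_298 (RmA rout ActR)
open Crest.Agent.R096.Sla_184.Sla (hf vf old tg F0 Fn Out OnS InL In)

variable {δ κ0 R c0 : ℝ} {La Om : Set E3} {ι : Type} {Φ : FoamD δ κ0 R c0 La} {T : Tiling Om ι}
  {f g : E3 → E3} {κ1 κ2 μ : ℝ} {X : Set Φ.F} {J0 J V : Φ.F → Set ι}
  {ct ct' : Φ.F → ι} {A : Φ.F → E3 ≃ᵃ[ℝ] E3} {lam : Φ.F → ℝ} {z : Φ.F → E3}
  {θ : Φ.F → E3 → E3} {φ : Φ.F → E3 → ℝ} {r₀ : Φ.F → ℝ}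
  {L : Φ.F → Finset ℝ} [Nonempty (JJ Φ L)] {hG : GF Φ r₀ T f L} {bp : JJ Φ L → E3}
  {N' : BM Φ X → Set ℝ} {ρ1 ρ2 ρ3 ρ4 d : Φ.F → ℝ} {q₀ : BM Φ X → E3} {ε : BM Φ X → ℝ}
  {bm : BM Φ X → E3} {hGB : GFB Φ r₀ T f L (lRc Φ X μ ρ1 ρ3 d) ε}
  {v0F v1F : ∀ c, Φ.F → VxK T (KT T J X) c} {v0B v1B : ∀ c, BM Φ X → VxK T (KT T J X) c}
  {hLa : IsOpen La} {hC : Cores Φ T f κ1 κ2 X J0 J V ct A lam z θ φ}
  {n : Ti X → ℕ} {hn : ∀ c, 0 < n c} {r : JJ Φ L → E3}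
  {Sf : JJ Φ L ⊕ BM Φ X → Set E3}
  {Lv : ∀ c, Φ.F ⊕ BM Φ X → Lev T (frontier ((slC hLa hC n hn).K c)) (JJ Φ L ⊕ BM Φ X)}
  {Tw : Twrs ((slC hLa hC n hn).sh fr3) (slC hLa hC n hn).n
    (outK (slC hLa hC n hn).hH (slC hLa hC n hn).dis (stB hGB bp bm) (Sum.elim r bm))}
  {l0' : E3 → JJ Φ L ⊕ BM Φ X}

set_option maxHeartbeats 2000000 in
/-- **NE1** for the machine -/
theorem ne1_m (N : NumD δ κ0 R c0 κ2 μ κ1)
    (bar : BarOut Φ T f κ1 μ X J0 J V θ hG bp N' ρ1 ρ2 ρ3 ρ4 d q₀ ε bm hGB v0B v1B)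
    (D : DIn (slC hLa hC n hn).hH (stB hGB bp bm) (Sum.elim r bm) Sf (nbA Φ X) (vS v0F v0B)
      (vS v1F v1B) (uA Φ hLa X θ) (AA Φ X μ κ1) (BA Φ X μ))
    (lo : LevOut (Kc := (slC hLa hC n hn).K) (stB hGB bp bm) (nbA Φ X) (uA Φ hLa X θ)
      (AA Φ X μ κ1) (BA Φ X μ) Lv)
    (tt : TwOut (slC hLa hC n hn) fr3 (stB hGB bp bm) (Sum.elim r bm) (vS v0F v0B) (vS v1F v1B)
      Lv Tw)
    (hI : InitR Φ T f g J0 ct' r₀) (barS : BarS hG bp V coT (stB hGB bp bm))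
    (hm : ∀ c, ∀ t ∈ L c, μ ≤ t ∧ t ≤ 1 - μ)
    (hv0 : ∀ (c : Ti X) a, nbT Φ X c a →
      sb Φ (θ c.1 (v0F c a).1) a ≤ (2 * Cn δ R + 1) * κ1)
    (hv1 : ∀ (c : Ti X) a, nbT Φ X c a →
      1 - (2 * Cn δ R + 1) * κ1 ≤ sb Φ (θ c.1 (v1F c a).1) a) (m : BM Φ X) :
    ∃ w ∈ (stB hGB bp bm).P, (stB hGB bp bm).lab w = Sum.inr m ∧
      ρ3 m.co + 7 * d m.co ≤ Ess5_95.ga Φ m.co (f w) ∧
      ¬ Dfo_539.Encl (s2 (slC hLa hC n hn) fr3 Tw l0') BM.am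
        (fun _ => ActR (slC hLa hC n hn) (Rdc T f Xᶜ (rout ρ3 d))) m w := by
  have H := hI.hm
  have hμ := N.hμ
  have hμb := N.hμb
  have hsm := N.sm
  have hκ := N.hκ
  have hcn := N.cn0
  have hRm := rmA_of bar
  have U := upp_m (hLa := hLa) (hC := hC) (n := n) (hn := hn) (r := r) hI N.hμ hm bar
  obtain ⟨lm, hlm, LOW, HIGH⟩ := bar.lab m
  obtain ⟨hdκ, hr⟩ := bar.rm m.co m.co_notMem
  have hκs : κ1 ≤ μ ^ 2 / 65536 := by nlinarith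
  have hμ2 : μ ^ 2 ≤ μ / 64 := by nlinarith
  have hκμ : κ1 ≤ μ / 4194304 := by linarith
  have hd0 := hr.d0
  have hdm : d m.co ≤ μ ^ 2 / 512 := by nlinarith
  obtain ⟨c1, c2, c3, c4, c5, c6, c7⟩ := caps bar.barF bar.lv m
  have e1 := rB_sub (ρ1 := ρ1) (ρ3 := ρ3) (d := d) m.co
  have e2 := rB_add (ρ1 := ρ1) (ρ3 := ρ3) (d := d) m.co
  have hh := bar.barF.h0 m
  have hεm := bar.lv m
  have hhi := hiB_le (ρ1 := ρ1) (ρ3 := ρ3) (d := d) (c := m.co) (μ / 16)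
  have hm1 : Bgf_4.hB ρ1 ρ3 d m.co * 1 ≤ Bgf_4.hB ρ1 ρ3 d m.co * ε m :=
    mul_le_mul_of_nonneg_left hεm.1.le hh.le
  have h12 := hr.r12
  have h23 := hr.r23
  have h34 := hr.r34
  have hρ1 := hr.r1
  -- the wall point and the set
  obtain ⟨w0, hw1, hw2, hw3, hw4, hw5, hw6, hw7, q0, hqV, hwq, x0, hx0, hxg, hxl, -⟩ :=
    Wy_664.exists_wall hLa N.hδ N.hR H hμ (by linarith) le_rfl bar.barF hGB bar.lv m hdm hlm LOW
      HIGH
  obtain ⟨Gn, G1, G2, G3, G4⟩ := Gtp_395.exists_top_le (J := J) (Nn := N') hLa H bar hμ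
    (by linarith) (by linarith)
  refine ⟨w0, hw1, hw2, by linarith, fun hE => ?_⟩
  obtain ⟨Y, hY0, hY1, hY2, hY3⟩ := hE
  have hw0G : w0 ∈ Gn m := G4 m w0 hw1 hw2 ⟨q0, hwq, x0, hx0, hxg, hxl⟩
  have hCl : Cl (stB hGB bp bm) (Sum.inr m) (Gn m) ⊆ Y := by
    refine conn_sub (Tw := Tw) (l0 := l0') (am := BM.am) U G1
      (fun m => (G2 m).trans (gmT_sub hRm m)) rfl (hY1 w0 hY0).1
      (hY1 w0 hY0).2 hw0G hY0 ?_
    rintro F ⟨m', h1, F0, rfl, q, h3, x, hxq, hx⟩ y hy hA hl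
    refine hY2 _ y hy hA (nox_old (fun y hy hyF i hl => ?_) y)
    have hd' := (bar.rm m'.co m'.co_notMem).1
    obtain ⟨c1', c2', c3', c4', c5', c6', c7'⟩ := caps bar.barF bar.lv m'
    have hx' := G2 m' hx
    have hx3 : ρ3 m'.co + 7 * d m'.co ≤ ga Φ m'.co (f x) := hx'.2.2
    have h4 := (bar.barF.pos (bar.lv m').2 hx'.2.1).2.1
    have h5 : ga Φ m'.co (f x) ≤ rB ρ1 ρ3 d m'.co + Bgf_4.hB ρ1 ρ3 d m'.co * ε m' := h4
    have h6 := Afr_543.afree_out' N bar hI hLa barS hm (m := m') hxq (by linarith) (by linarith)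
      (α := 15 * μ / 32) le_rfl (Or.inl (by linarith [G3 m' x hx])) F0.1 h3 hy hyF hl
    exact fun he => h6 (he.trans h1.symm)
  -- the chart
  obtain ⟨p, q, hM⟩ := m.mo
  obtain ⟨Wz, Wc, Wi, Wv, Dc, Dt, -⟩ := Nefg_628.chart_rm (l0 := μ / 8) (mm := 1 / 2)
    (ra := 1 / 2 - 5 * μ / 16) (s0 := ρ1 m.co + 8 * d m.co) (s1 := ρ3 m.co + 9 * d m.co)
    (t0 := 3 * μ / 8) (w1 := μ / 4) hLa H hM hr (bar.barF.pt m) (by linarith) (by linarith)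
    (by linarith) ⟨by linarith, by linarith⟩ (by linarith) (by linarith)
  have hRa : (0 : ℝ) < 1 / 2 - 5 * μ / 16 := by linarith
  have hω1 : max (d m.co / (μ / 8)) (d m.co / (1 / 2 - 5 * μ / 16)) ≤ μ / 64 := by
    refine max_le ?_ ?_
    · rw [div_le_iff₀ (by positivity)]
      nlinarith
    · rw [div_le_iff₀ hRa]
      nlinarith
  set s0 := ρ1 m.co + 8 * d m.co with hs0
  set s1 := ρ3 m.co + 9 * d m.co with hs1
  have h01 : s0 ≤ s1 := by rw [hs0, hs1]; linarith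
  have hw0 : (0 : ℝ) ≤ μ / 4 := by linarith
  set Rc : Set (ℝ × ℝ) := Icc s0 s1 ×ˢ Icc 0 (μ / 4) with hRc
  have hgR : ∀ z ∈ Rc, ρ1 m.co ≤ ga Φ m.co (f (Wz z)) ∧ ga Φ m.co (f (Wz z)) ≤ ρ4 m.co := by
    intro z hz
    rw [(Wv z hz).2.1]
    have h1 := hz.1.1
    have h2 := hz.1.2
    rw [hs0] at h1
    rw [hs1] at h2
    exact ⟨by linarith, by linarith⟩
  have hlev : ∀ z ∈ Rc, Φ.lev m.am (f (Wz z)) ≤ 15 * μ / 32 ∨
      1 - 15 * μ / 32 ≤ Φ.lev m.am (f (Wz z)) := by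
    intro z hz
    rw [(Wv z hz).2.2.2.1]
    left; linarith
  -- the values of `gR` on the two columns
  have hlow : ∀ z ∈ Rc, z.2 = 0 → gR Φ X μ m (Φ.Psi (f (Wz z))) ≤ 1 - μ / 8 := by
    intro z hz h
    show gmf Φ (μ / 8) (1 / 2) (1 / 2 - 5 * μ / 16) m.am m.Zm (Φ.Psi (f (Wz z))) ≤ _
    rw [(Wv z hz).2.2.2.2, h, zero_div]
    refine max_le (by linarith) ?_
    rw [abs_of_nonpos (by linarith), div_le_iff₀ hRa]
    nlinarith
  have hhigh : ∀ z ∈ Rc, z.2 = μ / 4 → 2 ≤ gR Φ X μ m (Φ.Psi (f (Wz z))) := by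
    intro z hz h
    show 2 ≤ gmf Φ (μ / 8) (1 / 2) (1 / 2 - 5 * μ / 16) m.am m.Zm (Φ.Psi (f (Wz z)))
    rw [(Wv z hz).2.2.2.2, h]
    refine le_trans ?_ (le_max_left _ _)
    rw [le_div_iff₀ (by positivity)]
    linarith
  have hosc : ∀ z ∈ Rc, ∀ q', Wz z ∈ P (T.H q') → ∀ y ∈ P (T.H q'),
      |z.1 - ga Φ m.co (f y)| ≤ d m.co ∧
      |gR Φ X μ m (Φ.Psi (f (Wz z))) - gR Φ X μ m (Φ.Psi (f y))| ≤ μ / 64 := by
    intro z hz q' hq y hy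
    have h1 := hr.tile_osc hq (hgR z hz).1 (hgR z hz).2 hy
    have h2 := bar.barF.osc m q' (Wz z) hq (hgR z hz).1 (hgR z hz).2 y hy
    rw [(Wv z hz).2.1] at h1
    exact ⟨h1.1, h2.trans hω1⟩
  -- the sets
  set A0 : Set (ℝ × ℝ) := (Icc s0 s1 ×ˢ {0}) ∪ (({s0} ×ˢ Icc 0 (μ / 4)) ∪ (Icc s0 s1 ×ˢ {μ / 4}))
    with hA0
  set A1 : Set (ℝ × ℝ) := {s1} ×ˢ Icc 0 (μ / 4) with hA1
  have hsub0 : A0 ⊆ Rc := by
    rintro ⟨a, b⟩ (⟨h1, h2⟩ | ⟨h1, h2⟩ | ⟨h1, h2⟩)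
    · simp only [mem_singleton_iff] at h2
      exact ⟨h1, by simp only [h2]; exact ⟨le_rfl, hw0⟩⟩
    · simp only [mem_singleton_iff] at h1
      exact ⟨by simp only [h1]; exact ⟨le_rfl, h01⟩, h2⟩
    · simp only [mem_singleton_iff] at h2
      exact ⟨h1, by simp only [h2]; exact ⟨hw0, le_rfl⟩⟩
  have hsub1 : A1 ⊆ Rc := by
    rintro ⟨a, b⟩ ⟨h1, h2⟩
    simp only [mem_singleton_iff] at h1
    exact ⟨by simp only [h1]; exact ⟨h01, le_rfl⟩, h2⟩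
  have hA0c : IsPreconnected A0 := by
    refine IsPreconnected.union (s0, (0 : ℝ)) ⟨⟨le_rfl, h01⟩, rfl⟩ (Or.inl ⟨rfl, le_rfl, hw0⟩)
      (isPreconnected_Icc.prod isPreconnected_singleton) ?_
    exact IsPreconnected.union (s0, μ / 4) ⟨rfl, hw0, le_rfl⟩ ⟨⟨le_rfl, h01⟩, rfl⟩
      (isPreconnected_singleton.prod isPreconnected_Icc)
      (isPreconnected_Icc.prod isPreconnected_singleton)
  have hA1c : IsPreconnected A1 := isPreconnected_singleton.prod isPreconnected_Icc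
  have z0m : ((s1, (0 : ℝ)) : ℝ × ℝ) ∈ A1 := ⟨rfl, le_rfl, hw0⟩
  have z1m : ((s1, μ / 4) : ℝ × ℝ) ∈ A1 := ⟨rfl, hw0, le_rfl⟩
  have z0m' : ((s1, (0 : ℝ)) : ℝ × ℝ) ∈ A0 := Or.inl ⟨⟨h01, le_rfl⟩, rfl⟩
  have z1m' : ((s1, μ / 4) : ℝ × ℝ) ∈ A0 := Or.inr (Or.inr ⟨⟨h01, le_rfl⟩, rfl⟩)
  -- the tiles of the bottom side
  have hT := hC.tiny m.co m.co_notMem
  have hga := Ess8_95.ga_of_ray hLa hT.pt (by linarith) hr.r4 hr.ray
  have hcl : IsClosed (KJ T (J m.co)) :=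
    (hT.finV.subset hT.sub).isClosed_biUnion fun i _ => isClosed_P _
  have hbot : ∀ z ∈ Rc, z.1 = s0 → ∀ q', Wz z ∈ P (T.H q') → P (T.H q') ⊆ KJ T (J m.co) := by
    intro z hz h q' hq y hy
    have h1 := abs_le.1 (hosc z hz q' hq y hy).1
    rw [h] at h1
    exact interior_subset (K_int H (Φ.bf.sub m.co.1 m.co.2) hga hr hT.sub0 hcl hT.mem
      (T.sub q' hy) (by linarith [h1.1]))
  -- the ends
  obtain ⟨qa, hqa⟩ := T.cov _ (Wv _ (hsub1 z0m)).1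
  obtain ⟨qb, hqb⟩ := T.cov _ (Wv _ (hsub1 z1m)).1
  obtain ⟨va, hva, hva0⟩ := exists_vertex_tile hqa
  obtain ⟨vb, hvb, hvb0⟩ := exists_vertex_tile hqb
  obtain ⟨pl, hPol⟩ := bar.barF.pol hLa m
  have hGM : GM Φ m.co (gmf Φ (μ / 8) (1 / 2) (1 / 2 - 5 * μ / 16) m.am m.Zm) 0 (1 + μ / 2) :=
    gm_moat hLa N.hδ N.hR hM (nm_rec hμ (by linarith) (by linarith) le_rfl)
  have hla : lm va = 1 := by
    obtain ⟨o1, o2⟩ := hosc _ (hsub1 z0m) qa hqa va hva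
    have o1' := abs_le.1 o1
    have o2' := abs_le.1 o2
    have h1 := hlow _ (hsub1 z0m) rfl
    refine LOW (1 - μ / 16) (by linarith [hεm.1]) (hGM.le_conn hPol ⟨by linarith, by linarith⟩)
      (by linarith) va (T.sub qa hva) hva0 ?_ ?_ ?_
    · have : s1 - ga Φ m.co (f va) ≤ d m.co := o1'.2
      linarith
    · have : -d m.co ≤ s1 - ga Φ m.co (f va) := o1'.1
      linarith
    · have : gmf Φ (μ / 8) (1 / 2) (1 / 2 - 5 * μ / 16) m.am m.Zm (Φ.Psi (f va)) =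
        gR Φ X μ m (Φ.Psi (f va)) := rfl
      rw [this]
      linarith [o2'.1]
  have hlb : lm vb = 0 := by
    obtain ⟨o1, o2⟩ := hosc _ (hsub1 z1m) qb hqb vb hvb
    have o2' := abs_le.1 o2
    have h1 := hhigh _ (hsub1 z1m) rfl
    refine HIGH (1 + μ / 4) (by linarith [hεm.2]) (hGM.ge_conn hPol ⟨by linarith, by linarith⟩) ?_
      vb (T.sub qb hvb) hvb0 (Or.inr (Or.inr ?_))
    · obtain ⟨q1, h5, h6⟩ := hGM.high
      exact ⟨q1, h5, by linarith⟩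
    · have : gmf Φ (μ / 8) (1 / 2) (1 / 2 - 5 * μ / 16) m.am m.Zm (Φ.Psi (f vb)) =
        gR Φ X μ m (Φ.Psi (f vb)) := rfl
      rw [this]
      linarith [o2'.2]
  have key : lm va = lm vb := by
    refine encl_core (K := Wz '' A0) (K' := Wz '' A1) tt hY1 hY2 hY3 Dc ?_ Dt ?_ ?_
      (image_mono hsub0) (hA0c.image _ (Wc.mono hsub0)) (image_mono hsub1)
      (hA1c.image _ (Wc.mono hsub1)) ?_ ?_ ?_ ?_ hlm.lab
      (mem_image_of_mem Wz z0m') (mem_image_of_mem Wz z0m) (mem_image_of_mem Wz z1m')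
      (mem_image_of_mem Wz z1m) ⟨qa, hva, hqa⟩ ⟨qb, hvb, hqb⟩ hva0 hvb0
    · rintro _ ⟨z, hz, rfl⟩
      exact (Wv z hz).1
    · rintro q' ⟨_, hxq, z, hz, rfl⟩ F hF y hy hyF i hl
      exact Afr_543.afree_out' N bar hI hLa barS hm hxq (hgR z hz).1 (hgR z hz).2 le_rfl
        (hlev z hz) F hF hy hyF hl
    · rintro q' ⟨_, hxq, z, hz, rfl⟩ k e he j hj
      obtain ⟨g1, g2⟩ := Afr_543.afree_in' N bar D lo tt hI barS hm hv0 hv1 hxq (hgR z hz).1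
        (hgR z hz).2 le_rfl (hlev z hz) k e he j
      exact ⟨fun j' _ => g1 j', g2⟩
    · rintro q' ⟨_, hxq, z, hz, rfl⟩ hqK w hw hl hwq
      have hzR := hsub0 hz
      obtain ⟨o1, o2⟩ := hosc z hzR q' hxq w hwq
      have o1' := abs_le.1 o1
      have o2' := abs_le.1 o2
      obtain ⟨-, -, -, -, -, -, p6, p7⟩ := bar.pos m w hw hl
      have p6' : gR Φ X μ m (Φ.Psi (f w)) ≤ ε m := p6
      have g1 : s0 ≤ z.1 := hzR.1.1
      have g2 : z.1 ≤ s1 := hzR.1.2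
      rcases hz with ⟨h1, h2⟩ | ⟨h1, h2⟩ | ⟨h1, h2⟩
      · have h4 := hlow z hzR h2
        rcases p7 with p7 | p7 | p7
        · linarith
        · linarith
        · have p7' : gR Φ X μ m (Φ.Psi (f w)) = ε m := p7
          linarith [hεm.1]
      · exact hqK (coT m) (hbot z hzR h1 q' hxq)
      · have h4 := hhigh z hzR h2
        linarith [hεm.2]
    · rintro q' ⟨_, hxq, z, hz, rfl⟩ c hqc v hv j hj
      have hzR := hsub0 hz
      rcases hz with ⟨h1, h2⟩ | ⟨h1, h2⟩ | ⟨h1, h2⟩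
      · exact Nvm1_985.never_m N H bar D lo tt m hxq (hgR z hzR).1 (hgR z hzR).2
          (Or.inl (hlow z hzR h2)) c v hv j
      · intro hQ
        have hk : coT m = c := qv_nb (c := c) (a := Sum.inr m) (j := j) D tt hQ
        subst hk
        have h4 := (hr.fr v.1 v.2.2).1
        have h5 := abs_le.1 (hosc z hzR q' hxq v.1 hv).1
        have h6 : z.1 = s0 := h1
        linarith [h5.1]
      · exact Nvm1_985.never_m N H bar D lo tt m hxq (hgR z hzR).1 (hgR z hzR).2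
          (Or.inr (hhigh z hzR h2)) c v hv j
    · rintro q' ⟨_, hxq, z, hz, rfl⟩ c hqc
      have hzR := hsub1 hz
      have h6 : z.1 = s1 := hz.1
      refine out_core hLa H hC hRm m.co_notMem (x := Wz z) (fun i hi => ?_) ?_ c.1 (hqc hxq)
      · exact (hr.tile hi (hgR z hzR).1 (hgR z hzR).2).1
      · rw [(Wv z hzR).2.1, h6]
        linarith
    · rintro q' ⟨_, hxq, z, hz, rfl⟩ w hw hl hwq
      have hzR := hsub1 hz
      have h6 : z.1 = s1 := hz.1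
      have hwG : w ∈ Gn m := G4 m w hw hl ⟨q', hwq, Wz z, hxq, by rw [(Wv z hzR).2.1, h6], by
        rw [(Wv z hzR).2.2.2.1]⟩
      have h7 := cl_of hw hl hwG
      exact ⟨(U.mem_out (cl_mono ((G2 m).trans (gmT_sub hRm m)) h7)).1, hCl h7⟩
  rw [hla, hlb] at key
  exact one_ne_zero key

/-- **`NE1M`** -/
theorem ne1M : Hop_895.NE1M := by
  intro δ κ0 R c0 κ2 κ3 κp μ κ1 Om La f g hLa Φ ι T X J0 J V ct A lam z θ φ M hC ct' r₀ hR hM h1 h2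
    L _ hG D bp lam₀ v₀ v₁ r v0 v1 ρ1 ρ2 ρ3 ρ4 d q₀ ε bm hGB v0B v1B n hn Lv Tw MM _ hnC l0' m
  exact ne1_m (l0' := l0') MM.N MM.bar MM.din MM.lo MM.tt hR MM.barS MM.lev MM.v0l MM.v1l m

end Crest.Agent.R096.Nef_543

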