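import Crest.Agent.R096.Nef5_778

/-!
# R096 (row 96), DOORS, NEWIN (helper778): `top_m`, both end walls

688's `top_m` (#12277): at either end wall one point of the barrier `m` of the outer state which is
not enclosed.
-/

set_option autoImplicit false
set_option linter.unusedSectionVars false
set_option linter.unusedVariables false
set_option linter.style.longLine false

open Set Topology Filter Metric Module Relation
open scoped Classical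

namespace Crest.Agent.R096.Nef_778

open Crest.Agent.R096.Msh_715 Crest.Agent.R096.Coh_184 Crest.Agent.R096.Lab_184
  Crest.Agent.R096.Main_4 Crest.Agent.R096.Agl5_543
  Crest.Agent.R096.Seq_213 Crest.Agent.R096.St_147 Crest.Agent.R096.Door_501
  Crest.Agent.R096.Twr_438 Crest.Agent.R096.Exa_560
  Crest.Agent.R096.Ess3_95 Crest.Agent.R096.Ess4_95
  Crest.Agent.R096.Dfi_539 Crest.Agent.R096.Dfi_471 Crest.Agent.R096.Sla_184
  Crest.Agent.R096.Brk1_582 Crest.Agent.R096.Brk2_582 Crest.Agent.R096.Brk3_582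
  Crest.Agent.R096.Brk5_582 Crest.Agent.R096.Bsp_628 Crest.Agent.R096.Init_543
  Crest.Agent.R096.Dib_438 Crest.Agent.R096.Rop_441
  Crest.Agent.R096.Cg_501 Crest.Agent.R096.SecW_892
  Crest.Agent.R096.Nmd1_698 Crest.Agent.R096.Bar_106
  Crest.Agent.R096.Ebr4_95 Crest.Agent.R096.Bgf_4 Crest.Agent.R096.Ess5_95
  Crest.Agent.R096.Cns_778 Crest.Agent.R096.Sde_422 Crest.Agent.R096.Lv4_471
open Crest.Agent.R096.Sgo_298 (RmA rout ActR)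
open Crest.Agent.R096.Mbf_337 (KJ Tiny Cores Fine Words sb gau)
open Crest.Agent.R096.SkC1_961 (E3 FoamD Hom3)
open Crest.Agent.R096.Frn_337 (Ti)
open Crest.Agent.R096.Ess7_95 (KT)
open Crest.Agent.R096.Bmf_416 (coT coT_fin)
open Crest.Agent.R096.Dff_539 (vS)
open Crest.Agent.R096.Frs_662 (slC)
open Crest.Agent.R096.Lbc_334
open Crest.Agent.R096.Sla_184.Sla (hf vf old Fn Out F0)

variable {δ κ0 R c0 : ℝ} {La Om : Set E3} {ι : Type} {Φ : FoamD δ κ0 R c0 La} {T : Tiling Om ι}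
  {f g : E3 → E3} {κ1 κ2 μ : ℝ} {X : Set Φ.F} {J0 J V : Φ.F → Set ι}
  {ct ct' : Φ.F → ι} {A : Φ.F → E3 ≃ᵃ[ℝ] E3} {lam : Φ.F → ℝ} {z : Φ.F → E3}
  {θ : Φ.F → E3 → E3} {φ : Φ.F → E3 → ℝ} {r₀ : Φ.F → ℝ}
  {L : Φ.F → Finset ℝ} [Nonempty (JJ Φ L)] {hG : GF Φ r₀ T f L} {bp : JJ Φ L → E3}
  {N' : BM Φ X → Set ℝ} {ρ1 ρ2 ρ3 ρ4 d : Φ.F → ℝ} {q₀ : BM Φ X → E3} {ε : BM Φ X → ℝ}
  {bm : BM Φ X → E3} {hGB : GFB Φ r₀ T f L (lRc Φ X μ ρ1 ρ3 d) ε}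
  {v0F v1F : ∀ c, Φ.F → VxK T (KT T J X) c} {v0B v1B : ∀ c, BM Φ X → VxK T (KT T J X) c}
  {hLa : IsOpen La} {hC : Cores Φ T f κ1 κ2 X J0 J V ct A lam z θ φ}
  {n : Ti X → ℕ} {hn : ∀ c, 0 < n c} {r : JJ Φ L → E3}
  {Sf : JJ Φ L ⊕ BM Φ X → Set E3}
  {Lv : ∀ c, Φ.F ⊕ BM Φ X → Lev T (frontier ((slC hLa hC n hn).K c)) (JJ Φ L ⊕ BM Φ X)}
  {Tw : Twrs ((slC hLa hC n hn).sh fr3) (slC hLa hC n hn).n
    (outK (slC hLa hC n hn).hH (slC hLa hC n hn).dis (stB hGB bp bm) (Sum.elim r bm))}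
  {l0' : E3 → JJ Φ L ⊕ BM Φ X}

/-- **688's `top_m`**, both end walls (`b = false` : low, `b = true` : high) -/
theorem top_m (N : NumD δ κ0 R c0 κ2 μ κ1) (hI : InitR Φ T f g J0 ct' r₀)
    (hLm : ∀ c, ∀ t ∈ L c, μ ≤ t ∧ t ≤ 1 - μ)
    (bar : BarOut Φ T f κ1 μ X J0 J V θ hG bp N' ρ1 ρ2 ρ3 ρ4 d q₀ ε bm hGB v0B v1B)
    (D : DIn (slC hLa hC n hn).hH (stB hGB bp bm) (Sum.elim r bm) Sf (nbA Φ X) (vS v0F v0B)
      (vS v1F v1B) (uA Φ hLa X θ) (AA Φ X μ κ1) (BA Φ X μ))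
    (lo : LevOut (Kc := (slC hLa hC n hn).K) (stB hGB bp bm) (nbA Φ X) (uA Φ hLa X θ)
      (AA Φ X μ κ1) (BA Φ X μ) Lv)
    (tt : TwOut (slC hLa hC n hn) fr3 (stB hGB bp bm) (Sum.elim r bm) (vS v0F v0B) (vS v1F v1B)
      Lv Tw)
    (rec : BR hLa (stB hGB bp bm) f X J θ coT BM.am BM.Zm (nbA Φ X) (vS v0F v0B) (vS v1F v1B)
      (uA Φ hLa X θ) (AA Φ X μ κ1) (BA Φ X μ) μ κ1) (m : BM Φ X) (b : Bool) {Rs : Set ι} :
    ∃ y ∈ (outK (slC hLa hC n hn).hH (slC hLa hC n hn).dis (stB hGB bp bm) (Sum.elim r bm)).P,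
      (stB hGB bp bm).lab y = Sum.inr m ∧
      (b = false → Φ.lev m.am (f y) ≤ 3 * μ / 8) ∧ (b = true → 1 - 3 * μ / 8 ≤ Φ.lev m.am (f y)) ∧
      ρ3 m.co + 7 * d m.co ≤ ga Φ m.co (f y) ∧
      ¬ Dfo_539.Encl (s2 (slC hLa hC n hn) fr3 Tw l0') BM.am
        (fun _ => ActR (slC hLa hC n hn) Rs) m y := by
  obtain ⟨n1, n2, n3, n4, n5, n6⟩ := N.base
  have hRm := rmA_of bar
  have hd := (hRm m.co m.co_notMem).d0
  have U := upp_m (hLa := hLa) (hC := hC) (n := n) (hn := hn) (r := r) hI n4 hLm bar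
  have hout : ∀ w ∈ (stB hGB bp bm).P, (stB hGB bp bm).lab w = Sum.inr m →
      ρ3 m.co + 7 * d m.co ≤ ga Φ m.co (f w) →
      w ∈ (outK (slC hLa hC n hn).hH (slC hLa hC n hn).dis (stB hGB bp bm) (Sum.elim r bm)).P :=
    fun w hw hl hg => (U.mem_out (cl_of hw hl (gmT_sub hRm m (mem_gmT hLa bar hw hl hg)))).1
  have hκ : κ1 ≤ μ ^ 2 / 512 := by nlinarith
  cases b
  · obtain ⟨lm, hlm, LOW, HIGH⟩ := bar.lab m
    obtain ⟨w, h1, h2, h3, h4, h5, h6, h7, q, hqV, hwq, x, hx, hxg, hxl, -⟩ :=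
      Wy_664.exists_wall hLa N.hδ N.hR hI.hm N.hμ (by linarith) le_rfl bar.barF hGB bar.lv m
        ((bar.rm m.co m.co_notMem).1.trans hκ) hlm LOW HIGH
    exact ⟨w, hout w h1 h2 (by linarith), h2, fun _ => h7, fun h => absurd h (by decide),
      by linarith, ne_low N hI hLm bar D lo tt rec m h1 h2 ⟨q, hwq, x, hx, hxg, hxl⟩⟩
  · obtain ⟨w, h1, h2, h3, h4, h5, h6, h7, q, hqV, hwq, x, hx, hxg, hxl, -⟩ :=
      Gt_664.exists_wall_hi hLa N.hδ N.hR hI.hm N.hμ (by linarith) hκ bar m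
    exact ⟨w, hout w h1 h2 (by linarith), h2, fun h => absurd h (by decide), fun _ => h7,
      by linarith, ne_high N hI hLm bar D lo tt rec m h1 h2 ⟨q, hwq, x, hx, hxg, hxl⟩⟩

end Crest.Agent.R096.Nef_778
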