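import Crest.Agent.R096.Wy1_664

/-!
# Row 96, DOORS, NE1, leaf G1 of 778 #12223 (helper608): the chart of the strip over a transversal
segment of a moat

`Wz (s, w)` = the point of `Om` over the ray through `gam (t0, w)` at the gauge `s`.
-/

set_option autoImplicit false
set_option linter.unusedSectionVars false

open Set Topology Filter Metric Module
open scoped Classical

namespace Crest.Agent.R096.Nefg1_608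

open Crest.Agent.R096.Msh_715 Crest.Agent.R096.Coh_184 Crest.Agent.R096.Bsp_628
  Crest.Agent.R096.Brk1_582 Crest.Agent.R096.Brk2_582 Crest.Agent.R096.Brk3_582
  Crest.Agent.R096.Brk5_582 Crest.Agent.R096.Init_543 Crest.Agent.R096.Mbf_337
  Crest.Agent.R096.Ess1_95 Crest.Agent.R096.Ess4_95
  Crest.Agent.R096.Ess5_95 Crest.Agent.R096.Ess6_95 Crest.Agent.R096.Ess7_95
  Crest.Agent.R096.Lab_184 Crest.Agent.R096.Seq_213 Crest.Agent.R096.Seq_213.GSt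
  Crest.Agent.R096.Main_4 Crest.Agent.R096.Exa_560 Crest.Agent.R096.Agl4_543
  Crest.Agent.R096.Agl5_543 Crest.Agent.R096.Agl6_543 Crest.Agent.R096.Agl8_543
  Crest.Agent.R096.Ebr1_95 Crest.Agent.R096.Ebr2_95
  Crest.Agent.R096.Ebr3_95 Crest.Agent.R096.Ebr4_95 Crest.Agent.R096.Ebr5_95
  Crest.Agent.R096.Ebr6_95 Crest.Agent.R096.Bar_106
  Crest.Agent.R096.Bgf_4 Crest.Agent.R096.Dib_438 Crest.Agent.R096.Sphg_316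

open Crest.Agent.R096.SkC1_961 (E3 Hom3 IsPush FoamD)

variable {δ κ0 R c0 : ℝ} {La Om : Set E3} {ι : Type} {Φ : FoamD δ κ0 R c0 La}
  {T : Tiling Om ι} {f g : E3 → E3} {c a p q : Φ.F} {Z : Set Φ.F}

/-- **G1**: the chart of a strip -/
theorem chart_pol (hLa : IsOpen La) (H : Hm f g Om La) (hM : Mo (Pc Φ.F) c a Z p q)
    {ρ : ℝ} {pol : ℝ × E3 → E3} (hPol : Pol Φ c ρ pol) (hρ : ∀ y, ga Φ c y ≤ ρ → y ∈ La)
    {l0 mm ra s0 s1 t0 w1 : ℝ} (h0 : 0 < s0) (h1 : s1 ≤ ρ) (ht : t0 ∈ Icc (0 : ℝ) 1)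
    (hw1 : w1 ≤ 1) :
    ∃ Wz : ℝ × ℝ → E3, ContinuousOn Wz (Icc s0 s1 ×ˢ Icc 0 w1) ∧
      InjOn Wz (Icc s0 s1 ×ˢ Icc 0 w1) ∧
      (∀ z ∈ Icc s0 s1 ×ˢ Icc 0 w1, Wz z ∈ Om ∧ ga Φ c (f (Wz z)) = z.1 ∧
        Φ.Psi (f (Wz z)) = gam (bc (F := Φ.F)) a Z p q (t0, z.2) ∧ Φ.lev a (f (Wz z)) = t0 ∧
        gmf Φ l0 mm ra a Z (Φ.Psi (f (Wz z))) = max (z.2 / l0) (|t0 - mm| / ra)) ∧
      IsCompact (Wz '' (Icc s0 s1 ×ˢ Icc 0 w1)) ∧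
      TrivF (ZMod 2) (Wz '' (Icc s0 s1 ×ˢ Icc 0 w1)) := by
  have FF := foam Φ.bf hLa
  have hRct : ∀ w ∈ Icc (0 : ℝ) w1, ((t0, w) : ℝ × ℝ) ∈ Rct := fun w hw =>
    ⟨ht, ⟨by linarith [hw.1], by linarith [hw.2]⟩⟩
  set γ : ℝ → E3 := fun w => gam (bc (F := Φ.F)) a Z p q (t0, w) with hγ
  have hγf : ∀ w ∈ Icc (0 : ℝ) w1, γ w ∈ frontier c.1.set := fun w hw => gam_fr hLa hM (hRct w hw)
  have hγc : ContinuousOn γ (Icc 0 w1) :=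
    (hM.continuousOn_gam FF).comp (Continuous.continuousOn (by fun_prop)) fun w hw => hRct w hw
  have hga : ∀ z ∈ Icc s0 s1 ×ˢ Icc (0 : ℝ) w1, ga Φ c (pol (z.1, γ z.2)) = z.1 := fun z hz =>
    hPol.gau z.1 ⟨h0.trans_le hz.1.1, hz.1.2.trans h1⟩ _ (hγf _ hz.2)
  have hpsi : ∀ z ∈ Icc s0 s1 ×ˢ Icc (0 : ℝ) w1, Φ.Psi (pol (z.1, γ z.2)) = γ z.2 := fun z hz =>
    hPol.psi z.1 ⟨h0.trans_le hz.1.1, hz.1.2.trans h1⟩ _ (hγf _ hz.2)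
  have hL : ∀ z ∈ Icc s0 s1 ×ˢ Icc (0 : ℝ) w1, pol (z.1, γ z.2) ∈ La := fun z hz =>
    hρ _ (by rw [hga z hz]; exact hz.1.2.trans h1)
  have hfg : ∀ z ∈ Icc s0 s1 ×ˢ Icc (0 : ℝ) w1,
      f (g (pol (z.1, γ z.2))) = pol (z.1, γ z.2) := fun z hz => H.fg _ (hL z hz)
  have hcont : ContinuousOn (fun z : ℝ × ℝ => g (pol (z.1, γ z.2))) (Icc s0 s1 ×ˢ Icc 0 w1) := by
    have h3 : ContinuousOn (fun z : ℝ × ℝ => ((z.1, γ z.2) : ℝ × E3))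
        (Icc s0 s1 ×ˢ Icc 0 w1) :=
      continuousOn_fst.prodMk (hγc.comp continuousOn_snd fun z hz => hz.2)
    exact H.gc.comp (hPol.cont.comp h3 fun z hz => ⟨mem_univ _, hγf _ hz.2⟩) fun z hz => hL z hz
  have hinj : InjOn (fun z : ℝ × ℝ => g (pol (z.1, γ z.2))) (Icc s0 s1 ×ˢ Icc 0 w1) := by
    intro x hx y hy hxy
    have e1 : pol (x.1, γ x.2) = pol (y.1, γ y.2) := by
      rw [← hfg x hx, ← hfg y hy]
      exact congrArg f hxy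
    have e2 : x.1 = y.1 := by rw [← hga x hx, ← hga y hy, e1]
    have e3 : γ x.2 = γ y.2 := by rw [← hpsi x hx, ← hpsi y hy, e1]
    have e4 := hM.gam_injOn FF (hRct _ hx.2) (hRct _ hy.2) e3
    exact Prod.ext e2 (Prod.ext_iff.1 e4).2
  have hcpt : IsCompact (Icc s0 s1 ×ˢ Icc (0 : ℝ) w1) := isCompact_Icc.prod isCompact_Icc
  refine ⟨fun z => g (pol (z.1, γ z.2)), hcont, hinj, fun z hz => ?_, hcpt.image_of_continuousOn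
    hcont, Lab_184.trivF_convex hcpt ((convex_Icc _ _).prod (convex_Icc _ _)) hcont hinj⟩
  have e1 : Φ.Psi (f (g (pol (z.1, γ z.2)))) = gam (bc (F := Φ.F)) a Z p q (t0, z.2) := by
    rw [hfg z hz]; exact hpsi z hz
  refine ⟨H.gm (hL z hz), by show ga Φ c (f (g _)) = _; rw [hfg z hz]; exact hga z hz, e1, ?_, ?_⟩
  · show sc (Pc Φ.F) (bc (F := Φ.F)) (Φ.Psi (f (g (pol (z.1, γ z.2))))) a = t0
    rw [e1, hM.sc_gam FF (hRct _ hz.2), uu_a]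
  · show gmf Φ l0 mm ra a Z (Φ.Psi (f (g (pol (z.1, γ z.2))))) = _
    rw [e1, gmf_gam hLa hM (hRct _ hz.2)]
    show max (|z.2| / l0) (|t0 - mm| / ra) = _
    rw [abs_of_nonneg hz.2.1]

variable {J0 J V : Φ.F → Set ι} {θ : Φ.F → E3 → E3}
variable {Mo' : Type} {co : Mo' → Φ.F} {ρ1 ρ2 ρ3 ρ4 d : Mo' → ℝ} {G : Mo' → E3 → ℝ}
  {rm h lo hi ω : Mo' → ℝ} {q₀ : Mo' → E3} {g0 : Mo' → ℝ}

/-- points of gauge at most `ρ4` lie in `La` -/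
theorem mem_La (hB : BarF Φ T f J0 J V θ co ρ1 ρ2 ρ3 ρ4 d G rm h lo hi ω q₀ g0) (m : Mo')
    {y : E3} (hy : ga Φ (co m) y ≤ ρ4 m) : y ∈ La := by
  have hr := hB.room m
  have hcL : (co m).1.set ⊆ La := Φ.bf.sub (co m).1 (co m).2
  have hb : Bod (Φ.B (co m)).lo (Pc Φ.F (co m)) := Pse_316.bod_brick Φ (co m) (hB.pt m)
  have hgf : ga Φ (co m) = Ng (Φ.B (co m)).lo (Pc Φ.F (co m)) :=
    funext (Etg_163.gg_eq Φ (co m))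
  exact hcL (hb.le_sub hr.r4.le (show y ∈ {y | Ng _ _ y ≤ ρ4 m} by rw [← hgf]; exact hy))

/-- **G1** over the barrier record -/
theorem chart (hLa : IsOpen La) (H : Hm f g Om La)
    (hB : BarF Φ T f J0 J V θ co ρ1 ρ2 ρ3 ρ4 d G rm h lo hi ω q₀ g0) {m : Mo'}
    (hM : Mo (Pc Φ.F) (co m) a Z p q) {l0 mm ra s0 s1 t0 w1 : ℝ} (h0 : 0 < s0) (h1 : s1 ≤ ρ4 m)
    (ht : t0 ∈ Icc (0 : ℝ) 1) (hw1 : w1 ≤ 1) :
    ∃ Wz : ℝ × ℝ → E3, ContinuousOn Wz (Icc s0 s1 ×ˢ Icc 0 w1) ∧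
      InjOn Wz (Icc s0 s1 ×ˢ Icc 0 w1) ∧
      (∀ z ∈ Icc s0 s1 ×ˢ Icc 0 w1, Wz z ∈ Om ∧ ga Φ (co m) (f (Wz z)) = z.1 ∧
        Φ.Psi (f (Wz z)) = gam (bc (F := Φ.F)) a Z p q (t0, z.2) ∧ Φ.lev a (f (Wz z)) = t0 ∧
        gmf Φ l0 mm ra a Z (Φ.Psi (f (Wz z))) = max (z.2 / l0) (|t0 - mm| / ra)) ∧
      IsCompact (Wz '' (Icc s0 s1 ×ˢ Icc 0 w1)) ∧
      TrivF (ZMod 2) (Wz '' (Icc s0 s1 ×ˢ Icc 0 w1)) := by
  obtain ⟨pol, hPol⟩ := hB.pol hLa m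
  exact chart_pol hLa H hM hPol (fun y hy => mem_La hB m hy) h0 h1 ht hw1

end Crest.Agent.R096.Nefg1_608
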