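import Crest.Agent.R096.Wy1_664

/-!
# Row 96, DOORS, NE1 (helper853): leaf G1 of helper778, the chart of a transversal strip

`exists_chart` : the strip `{ga = s ∈ [s0, s1], Psi ∘ f = gam (t0, w), w ∈ [0, w1]}` is a continuous
injective image of the rectangle; it is compact and has trivial torsors.
-/

set_option autoImplicit false
set_option linter.unusedSectionVars false

open Set Topology Filter Metric Module
open scoped Classical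

namespace Crest.Agent.R096.Nefg_853

open Crest.Agent.R096.Msh_715 Crest.Agent.R096.Coh_184 Crest.Agent.R096.Bsp_628
  Crest.Agent.R096.Brk1_582 Crest.Agent.R096.Brk2_582 Crest.Agent.R096.Brk3_582
  Crest.Agent.R096.Brk5_582 Crest.Agent.R096.Init_543 Crest.Agent.R096.Mbf_337
  Crest.Agent.R96.Push_899 Crest.Agent.R096.Ess1_95 Crest.Agent.R096.Ess4_95
  Crest.Agent.R096.Ess5_95 Crest.Agent.R096.Ess6_95 Crest.Agent.R096.Ess7_95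
  Crest.Agent.R096.Lab_184 Crest.Agent.R096.Seq_213 Crest.Agent.R096.Seq_213.GSt
  Crest.Agent.R096.Main_4 Crest.Agent.R096.Exa_560 Crest.Agent.R096.Agl4_543
  Crest.Agent.R096.Agl5_543 Crest.Agent.R096.Agl6_543 Crest.Agent.R096.Agl8_543
  Crest.Agent.R096.Ebr1_95 Crest.Agent.R096.Ebr2_95
  Crest.Agent.R096.Ebr3_95 Crest.Agent.R096.Ebr4_95 Crest.Agent.R096.Ebr5_95
  Crest.Agent.R096.Ebr6_95 Crest.Agent.R096.Bar_106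
  Crest.Agent.R096.Bgf_4 Crest.Agent.R096.Dib_438 Crest.Agent.R096.Sphg_316

open Crest.Agent.R096.SkC1_961 (E3 Hom3 IsPush FoamD)
open Crest.Agent.R096.Ce_537 (PLEquiv IsBall)

variable {δ κ0 R c0 : ℝ} {La Om : Set E3} {ι : Type} {Φ : FoamD δ κ0 R c0 La}
  {T : Tiling Om ι} {f g : E3 → E3}

/-- **the chart of a transversal strip** over polar coordinates -/
theorem exists_chart_pol (hLa : IsOpen La) (H : Hm f g Om La) {c : Φ.F} {ρ : ℝ}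
    {pl : ℝ × E3 → E3} (hPol : Pol Φ c ρ pl) (hsub : ∀ y, ga Φ c y ≤ ρ → y ∈ La)
    {a p q : Φ.F} {Z : Set Φ.F} (hM : Mo (Pc Φ.F) c a Z p q)
    {s0 s1 t0 w1 : ℝ} (h0 : 0 < s0) (h1 : s1 ≤ ρ) (ht : t0 ∈ Icc (0 : ℝ) 1)
    (hw1 : w1 ≤ 1) :
    ∃ Wz : ℝ × ℝ → E3, ContinuousOn Wz (Icc s0 s1 ×ˢ Icc 0 w1) ∧
      InjOn Wz (Icc s0 s1 ×ˢ Icc 0 w1) ∧
      (∀ z ∈ Icc s0 s1 ×ˢ Icc 0 w1, Wz z ∈ Om ∧ ga Φ c (f (Wz z)) = z.1 ∧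
        Φ.Psi (f (Wz z)) = gam (bc (F := Φ.F)) a Z p q (t0, z.2) ∧
        Φ.lev a (f (Wz z)) = t0 ∧
        (∀ e, dv a Z (fun e => Φ.lev e (f (Wz z))) e = if e = a then 0 else
          if e = p then z.2 else 0) ∧
        ∀ l0 mm ra : ℝ, gmf Φ l0 mm ra a Z (Φ.Psi (f (Wz z))) =
          max (z.2 / l0) (|t0 - mm| / ra)) ∧
      IsCompact (Wz '' (Icc s0 s1 ×ˢ Icc 0 w1)) ∧
      TrivF (ZMod 2) (Wz '' (Icc s0 s1 ×ˢ Icc 0 w1)) := by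
  have FF := foam Φ.bf hLa
  have hRct : ∀ z : ℝ × ℝ, z ∈ Icc s0 s1 ×ˢ Icc 0 w1 → ((t0, z.2) : ℝ × ℝ) ∈ Rct := fun z hz =>
    ⟨ht, ⟨by linarith [hz.2.1], hz.2.2.trans hw1⟩⟩
  have hfr : ∀ z : ℝ × ℝ, z ∈ Icc s0 s1 ×ˢ Icc 0 w1 →
      gam (bc (F := Φ.F)) a Z p q (t0, z.2) ∈ frontier c.1.set := fun z hz =>
    gam_fr hLa hM (hRct z hz)
  have hz1 : ∀ z : ℝ × ℝ, z ∈ Icc s0 s1 ×ˢ Icc 0 w1 → z.1 ∈ Ioc 0 ρ := fun z hz =>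
    ⟨lt_of_lt_of_le h0 hz.1.1, hz.1.2.trans h1⟩
  have e1 : ∀ z : ℝ × ℝ, z ∈ Icc s0 s1 ×ˢ Icc 0 w1 →
      ga Φ c (pl (z.1, gam (bc (F := Φ.F)) a Z p q (t0, z.2))) = z.1 := fun z hz =>
    hPol.gau _ (hz1 z hz) _ (hfr z hz)
  have e2 : ∀ z : ℝ × ℝ, z ∈ Icc s0 s1 ×ˢ Icc 0 w1 →
      Φ.Psi (pl (z.1, gam (bc (F := Φ.F)) a Z p q (t0, z.2))) =
        gam (bc (F := Φ.F)) a Z p q (t0, z.2) := fun z hz =>
    hPol.psi _ (hz1 z hz) _ (hfr z hz)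
  have e3 : ∀ z : ℝ × ℝ, z ∈ Icc s0 s1 ×ˢ Icc 0 w1 →
      pl (z.1, gam (bc (F := Φ.F)) a Z p q (t0, z.2)) ∈ La := fun z hz =>
    hsub _ (by rw [e1 z hz]; exact (hz1 z hz).2)
  set Wz : ℝ × ℝ → E3 := fun z => g (pl (z.1, gam (bc (F := Φ.F)) a Z p q (t0, z.2))) with hWz
  have e4 : ∀ z : ℝ × ℝ, z ∈ Icc s0 s1 ×ˢ Icc 0 w1 →
      f (Wz z) = pl (z.1, gam (bc (F := Φ.F)) a Z p q (t0, z.2)) := fun z hz =>
    H.fg _ (e3 z hz)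
  have hc : ContinuousOn Wz (Icc s0 s1 ×ˢ Icc 0 w1) := by
    have c1 : ContinuousOn (fun z : ℝ × ℝ => gam (bc (F := Φ.F)) a Z p q (t0, z.2))
        (Icc s0 s1 ×ˢ Icc 0 w1) :=
      (hM.continuousOn_gam FF).comp (Continuous.continuousOn (by fun_prop)) hRct
    have c2 : ContinuousOn
        (fun z : ℝ × ℝ => ((z.1, gam (bc (F := Φ.F)) a Z p q (t0, z.2)) : ℝ × E3))
        (Icc s0 s1 ×ˢ Icc 0 w1) := continuousOn_fst.prodMk c1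
    have c3 : ContinuousOn
        (fun z : ℝ × ℝ => pl (z.1, gam (bc (F := Φ.F)) a Z p q (t0, z.2)))
        (Icc s0 s1 ×ˢ Icc 0 w1) :=
      hPol.cont.comp c2 fun z hz => ⟨mem_univ _, hfr z hz⟩
    exact H.gc.comp c3 e3
  have hinj : InjOn Wz (Icc s0 s1 ×ˢ Icc 0 w1) := by
    intro z hz z' hz' he
    have h2 : f (Wz z) = f (Wz z') := by rw [he]
    rw [e4 z hz, e4 z' hz'] at h2
    have h3 : z.1 = z'.1 := by rw [← e1 z hz, h2, e1 z' hz']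
    have h4 : gam (bc (F := Φ.F)) a Z p q (t0, z.2) = gam (bc (F := Φ.F)) a Z p q (t0, z'.2) := by
      rw [← e2 z hz, h2, e2 z' hz']
    have h5 := hM.gam_injOn FF (hRct z hz) (hRct z' hz') h4
    exact Prod.ext h3 (Prod.mk.inj h5).2
  have hK : IsCompact (Icc s0 s1 ×ˢ Icc (0 : ℝ) w1) := isCompact_Icc.prod isCompact_Icc
  have hKc : Convex ℝ (Icc s0 s1 ×ˢ Icc (0 : ℝ) w1) := (convex_Icc _ _).prod (convex_Icc _ _)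
  refine ⟨Wz, hc, hinj, fun z hz => ?_, hK.image_of_continuousOn hc,
    trivF_convex hK hKc hc hinj⟩
  have hsb : ∀ e, Φ.lev e (f (Wz z)) = uu a Z p q t0 z.2 e := by
    intro e
    show sc (Pc Φ.F) (bc (F := Φ.F)) (Φ.Psi (f (Wz z))) e = _
    rw [e4 z hz, e2 z hz, hM.sc_gam FF (hRct z hz)]
  refine ⟨H.gm (e3 z hz), by rw [e4 z hz, e1 z hz], by rw [e4 z hz, e2 z hz], by
    rw [hsb a, uu_a], fun e => ?_, fun l0 mm ra => ?_⟩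
  · have h6 : (fun e => Φ.lev e (f (Wz z))) = uu a Z p q t0 z.2 := funext hsb
    rw [h6, dv_uu]
    have hz0 : 0 ≤ z.2 := hz.2.1
    rw [max_eq_left hz0, max_eq_right (by linarith : -z.2 ≤ 0)]
    simp
  · rw [e4 z hz, e2 z hz, gmf_gam hLa hM (hRct z hz)]
    show max (|z.2| / l0) (|t0 - mm| / ra) = _
    rw [abs_of_nonneg hz.2.1]

/-- **G1** : the chart over the barrier data -/
theorem exists_chart {Mo' : Type} {co : Mo' → Φ.F} {ρ1 ρ2 ρ3 ρ4 d : Mo' → ℝ}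
    {G : Mo' → E3 → ℝ} {rm h lo hi ω : Mo' → ℝ} {q₀ : Mo' → E3} {g0 : Mo' → ℝ}
    {J0 J V : Φ.F → Set ι} {θ : Φ.F → E3 → E3} (hLa : IsOpen La) (H : Hm f g Om La)
    (hB : BarF Φ T f J0 J V θ co ρ1 ρ2 ρ3 ρ4 d G rm h lo hi ω q₀ g0) (m : Mo')
    {a p q : Φ.F} {Z : Set Φ.F} (hM : Mo (Pc Φ.F) (co m) a Z p q)
    {s0 s1 t0 w1 : ℝ} (h0 : 0 < s0) (h1 : s1 ≤ ρ4 m) (ht : t0 ∈ Icc (0 : ℝ) 1)
    (hw1 : w1 ≤ 1) :
    ∃ Wz : ℝ × ℝ → E3, ContinuousOn Wz (Icc s0 s1 ×ˢ Icc 0 w1) ∧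
      InjOn Wz (Icc s0 s1 ×ˢ Icc 0 w1) ∧
      (∀ z ∈ Icc s0 s1 ×ˢ Icc 0 w1, Wz z ∈ Om ∧ ga Φ (co m) (f (Wz z)) = z.1 ∧
        Φ.Psi (f (Wz z)) = gam (bc (F := Φ.F)) a Z p q (t0, z.2) ∧
        Φ.lev a (f (Wz z)) = t0 ∧
        (∀ e, dv a Z (fun e => Φ.lev e (f (Wz z))) e = if e = a then 0 else
          if e = p then z.2 else 0) ∧
        ∀ l0 mm ra : ℝ, gmf Φ l0 mm ra a Z (Φ.Psi (f (Wz z))) =
          max (z.2 / l0) (|t0 - mm| / ra)) ∧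
      IsCompact (Wz '' (Icc s0 s1 ×ˢ Icc 0 w1)) ∧
      TrivF (ZMod 2) (Wz '' (Icc s0 s1 ×ˢ Icc 0 w1)) := by
  have hr := hB.room m
  obtain ⟨pl, hPol⟩ := hB.pol hLa m
  have hcL : (co m).1.set ⊆ La := Φ.bf.sub (co m).1 (co m).2
  refine exists_chart_pol hLa H hPol (fun y hy => ?_) hM h0 h1 ht hw1
  have hb : Bod (Φ.B (co m)).lo (Pc Φ.F (co m)) := Pse_316.bod_brick Φ (co m) (hB.pt m)
  have hgf : ga Φ (co m) = Ng (Φ.B (co m)).lo (Pc Φ.F (co m)) :=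
    funext (Etg_163.gg_eq Φ (co m))
  exact hcL (hb.le_sub hr.r4.le (show y ∈ {y | Ng _ _ y ≤ ρ4 m} by rw [← hgf]; exact hy))

end Crest.Agent.R096.Nefg_853
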