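import Crest.Agent.R096.Nef3_778
import Crest.Agent.R096.Nvm1_985
import Crest.Agent.R096.Afr1_112
import Crest.Agent.R096.Gt1_664
import Crest.Agent.R096.G1c1_962
import Crest.Agent.R096.Dch4_847

/-!
# R096 (row 96), DOORS, NE1 (helper962): the machine instance of 778's `encl_core`

`ne1_m` : every barrier has a point above the gauge `ρ3 + 7 d` which is not enclosed.
-/

set_option autoImplicit false
set_option linter.unusedSectionVars false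
set_option linter.unusedVariables false
set_option linter.style.longLine false

open Set Topology Filter Metric Module Relation
open scoped Classical

namespace Crest.Agent.R096.Nem_962

open Crest.Agent.R096.Msh_715 Crest.Agent.R096.Agl5_543 Crest.Agent.R096.St_147
  Crest.Agent.R096.Seq_213 Crest.Agent.R096.Door_501 Crest.Agent.R096.Sla_184
  Crest.Agent.R096.Twr_438 Crest.Agent.R096.Exa_560 Crest.Agent.R096.Ess3_95
  Crest.Agent.R096.Ess4_95 Crest.Agent.R096.Dfi_539 Crest.Agent.R096.Dfi_471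
  Crest.Agent.R096.Ac_117 Crest.Agent.R096.Lm_117 Crest.Agent.R096.Cp_298
  Crest.Agent.R096.Coh_184 Crest.Agent.R096.Gm_298 Crest.Agent.R096.Cpo_642
  Crest.Agent.R096.Gl_422 Crest.Agent.R096.Flb_422 Crest.Agent.R096.Sid_422
  Crest.Agent.R096.Vrt_422 Crest.Agent.R096.Dfo_539
open Crest.Agent.R096.Brk1_582 Crest.Agent.R096.Brk2_582 Crest.Agent.R096.Brk3_582
  Crest.Agent.R096.Brk5_582 Crest.Agent.R096.Bsp_628 Crest.Agent.R096.Init_543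
  Crest.Agent.R096.Bar_106 Crest.Agent.R096.Dib_438 Crest.Agent.R096.Lam_847
  Crest.Agent.R096.Ess5_95 Crest.Agent.R096.Bgf_4 Crest.Agent.R096.Ebr1_95
  Crest.Agent.R096.Ebr4_95 Crest.Agent.R096.Rop_441 Crest.Agent.R096.Nmd1_698
  Crest.Agent.R096.Sde_422 Crest.Agent.R096.Cns_778
open Crest.Agent.R096.Mbf_337 (sb KJ Tiny gau Cores Fine)
open Crest.Agent.R096.SkC1_961 (E3 FoamD Hom3)
open Crest.Agent.R096.Frn_337 (Ti)
open Crest.Agent.R096.Frs_662 (slC)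
open Crest.Agent.R096.Ess7_95 (KT Sh)
open Crest.Agent.R096.Dff_539 (vS)
open Crest.Agent.R096.Lbc_334 (BR)
open Crest.Agent.R096.Bmf_416 (coT)
open Crest.Agent.R096.Sgo_298 (RmA rout ActR)

variable {δ κ0 R c0 : ℝ} {La Om : Set E3} {ι : Type} {Φ : FoamD δ κ0 R c0 La} {T : Tiling Om ι}
  {f g : E3 → E3} {κ1 κ2 μ : ℝ} {X : Set Φ.F} {J0 J V : Φ.F → Set ι}
  {ct ct' : Φ.F → ι} {A : Φ.F → E3 ≃ᵃ[ℝ] E3} {lam : Φ.F → ℝ} {z : Φ.F → E3}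
  {θ : Φ.F → E3 → E3} {φ : Φ.F → E3 → ℝ} {r₀ : Φ.F → ℝ}
  {L : Φ.F → Finset ℝ} [Nonempty (JJ Φ L)] {hG : GF Φ r₀ T f L} {bp : JJ Φ L → E3}
  {N' : BM Φ X → Set ℝ} {ρ1 ρ2 ρ3 ρ4 d : Φ.F → ℝ} {q₀ : BM Φ X → E3} {ε : BM Φ X → ℝ}
  {bm : BM Φ X → E3} {hGB : GFB Φ r₀ T f L (lRc Φ X μ ρ1 ρ3 d) ε}
  {v0F v1F : ∀ c, Φ.F → VxK T (KT T J X) c} {v0B v1B : ∀ c, BM Φ X → VxK T (KT T J X) c}
  {hLa : IsOpen La} {hC : Cores Φ T f κ1 κ2 X J0 J V ct A lam z θ φ}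
  {n : Ti X → ℕ} {hn : ∀ c, 0 < n c} {r : JJ Φ L → E3}
  {Sf : JJ Φ L ⊕ BM Φ X → Set E3}
  {Lv : ∀ c, Φ.F ⊕ BM Φ X → Lev T (frontier ((slC hLa hC n hn).K c)) (JJ Φ L ⊕ BM Φ X)}
  {Tw : Twrs ((slC hLa hC n hn).sh fr3) (slC hLa hC n hn).n
    (outK (slC hLa hC n hn).hH (slC hLa hC n hn).dis (stB hGB bp bm) (Sum.elim r bm))}
  {l0' : E3 → JJ Φ L ⊕ BM Φ X}

/-- a tile at gauge `≥ ρ3 + d` is outside all cores -/
theorem tile_out (hLa : IsOpen La) (H : Hm f g Om La)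
    (hC : Cores Φ T f κ1 κ2 X J0 J V ct A lam z θ φ) (hRm : RmA Φ T f X J0 J V θ ρ1 ρ2 ρ3 ρ4 d)
    {c : Φ.F} (hc : c ∉ X) {q : ι} {x : E3} (hx : x ∈ P (T.H q))
    (h1 : ρ3 c < ga Φ c (f x)) (h2 : ga Φ c (f x) ≤ ρ4 c) (k : Ti X) :
    ¬ P (T.H q) ⊆ (slC hLa hC n hn).K k := by
  intro hq
  have hV : q ∈ V c := (hRm c hc).v q ⟨x, hx, h2⟩
  have hJ' : q ∈ J k.1 := Slt_471.sub_KJ_iff.1 hq
  have hcc : k.1 = c := by
    by_contra hne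
    exact Set.disjoint_left.1 (hC.disj k.1 c hne) ((hC.tiny k.1 k.2).sub hJ') hV
  have h3 := Sgo_298.ga_core hLa H hC hRm hc (x := x) (by rw [← hcc]; exact hq hx)
  linarith

section s2

variable (N : NumD δ κ0 R c0 κ2 μ κ1) (H : Hm f g Om La)
  (bar : BarOut Φ T f κ1 μ X J0 J V θ hG bp N' ρ1 ρ2 ρ3 ρ4 d q₀ ε bm hGB v0B v1B)
include N H bar

/-- **no point of the barrier near the columns, outside the cores** -/
theorem no_pt (hC : Cores Φ T f κ1 κ2 X J0 J V ct A lam z θ φ) (n : Ti X → ℕ) (hn : ∀ c, 0 < n c)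
    (m : BM Φ X) {q : ι} (hq : ∀ k, ¬ P (T.H q) ⊆ (slC hLa hC n hn).K k) {x : E3}
    (hx : x ∈ P (T.H q)) (h1 : ρ1 m.co ≤ ga Φ m.co (f x))
    (h2 : ga Φ m.co (f x) ≤ ρ3 m.co + 9 * d m.co)
    (hg : gR Φ X μ m (Φ.Psi (f x)) ≤ 1 - μ / 8 ∨ 2 ≤ gR Φ X μ m (Φ.Psi (f x))) :
    ∀ w ∈ (stB hGB bp bm).P, (stB hGB bp bm).lab w = Sum.inr m → w ∉ P (T.H q) := by
  intro w hw hl hwq
  have hμ := N.hμ
  have hμb := N.hμb
  have hr := (bar.rm m.co m.co_notMem).2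
  have hd := hr.d0
  have h2' : ga Φ m.co (f x) ≤ ρ4 m.co := by linarith [hr.r34]
  obtain ⟨b1, b2, b3, b4⟩ := rad_bar (fun c hc => (bar.rm c hc).2) m (bar.lv m)
  have hε1 : 1 < ε m := (bar.lv m).1
  have hε2 : ε m ≤ 1 + μ / 16 := (bar.lv m).2.le.trans (hiB_le _ _)
  have hZ := bz_rec N H hLa hC bar m
  have o1 := abs_le.1 (hZ.osc q x hx h1 h2' w hwq)
  have o2 := abs_le.1 (hr.tile_osc hx h1 h2' hwq).1
  obtain ⟨p1, -, -, -, -, -, -, e⟩ := bar.pos m w hw hl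
  rcases e with e | e | e
  · refine (Sla.out_of_tile hq hwq).2 ⟨m.co, m.co_notMem⟩ ?_
    exact Dch_847.low_in hLa hC n hn H (fun c hc => (bar.rm c hc).2) m.co_notMem p1
      (by linarith [hr.r12])
  · linarith [o2.1, o2.2]
  · have e' : gR Φ X μ m (Φ.Psi (f w)) = ε m := e
    rcases hg with hg | hg
    · linarith [o1.1, o1.2]
    · linarith [o1.1, o1.2]

/-- the label near the low column -/
theorem lab_lo (hLa : IsOpen La) (hC : Cores Φ T f κ1 κ2 X J0 J V ct A lam z θ φ) (m : BM Φ X)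
    {lm : E3 → ZMod 2}
    (LOW : ∀ b, b + max (d m.co / (μ / 8)) (d m.co / (1 / 2 - 5 * μ / 16)) < ε m →
          IsPreconnected {q | q ∈ frontier m.co.1.set ∧
            gmf Φ (μ / 8) (1 / 2) (1 / 2 - 5 * μ / 16) m.am m.Zm q ≤ b} →
          0 ≤ b → ∀ v ∈ Om, T.dim v = 0 →
          rB ρ1 ρ3 d m.co - Bgf_4.hB ρ1 ρ3 d m.co * ε m + 2 * d m.co ≤ ga Φ m.co (f v) →
          ga Φ m.co (f v) ≤ rB ρ1 ρ3 d m.co + Bgf_4.hB ρ1 ρ3 d m.co * ε m - 2 * d m.co →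
          gmf Φ (μ / 8) (1 / 2) (1 / 2 - 5 * μ / 16) m.am m.Zm (Φ.Psi (f v)) ≤ b → lm v = 1)
    {q : ι} {x v : E3} (hx : x ∈ P (T.H q)) (hv : v ∈ P (T.H q)) (hv0 : T.dim v = 0)
    (h : ga Φ m.co (f x) = ρ3 m.co + 9 * d m.co)
    (hg : gR Φ X μ m (Φ.Psi (f x)) ≤ 1 - μ / 8) : lm v = 1 := by
  have hμ := N.hμ
  have hμb := N.hμb
  have hr := (bar.rm m.co m.co_notMem).2
  have hd := hr.d0
  have h1 : ρ1 m.co ≤ ga Φ m.co (f x) := by linarith [hr.r12, hr.r23]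
  have h2 : ga Φ m.co (f x) ≤ ρ4 m.co := by linarith [hr.r34]
  obtain ⟨b1, b2, b3, b4⟩ := rad_bar (fun c hc => (bar.rm c hc).2) m (bar.lv m)
  have hε1 : 1 < ε m := (bar.lv m).1
  have hZ := bz_rec N H hLa hC bar m
  obtain ⟨p, hP⟩ := bz_pol hLa H hC m.co_notMem hZ
  have o1 := abs_le.1 (hZ.osc q x hx h1 h2 v hv)
  have o2 := abs_le.1 (hr.tile_osc hx h1 h2 hv).1
  have hω := N.om (bar.rm m.co m.co_notMem).1
  refine LOW (1 - μ / 16) (by linarith) (hZ.gm.le_conn hP ⟨by linarith, by linarith⟩)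
    (by linarith) v (T.sub q hv) hv0 (by linarith [o2.1, o2.2, hr.r12, hr.r23])
    (by linarith [o2.1, o2.2]) ?_
  have e' : gR Φ X μ m (Φ.Psi (f v)) ≤ 1 - μ / 16 := by linarith [o1.1, o1.2]
  exact e'

/-- the label near the high column -/
theorem lab_hi (hLa : IsOpen La) (hC : Cores Φ T f κ1 κ2 X J0 J V ct A lam z θ φ) (m : BM Φ X)
    {lm : E3 → ZMod 2}
    (HIGH : ∀ b, ε m + max (d m.co / (μ / 8)) (d m.co / (1 / 2 - 5 * μ / 16)) < b →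
          IsPreconnected {q | q ∈ frontier m.co.1.set ∧
            b ≤ gmf Φ (μ / 8) (1 / 2) (1 / 2 - 5 * μ / 16) m.am m.Zm q} →
          {q | q ∈ frontier m.co.1.set ∧
            b ≤ gmf Φ (μ / 8) (1 / 2) (1 / 2 - 5 * μ / 16) m.am m.Zm q}.Nonempty →
          ∀ v ∈ Om, T.dim v = 0 →
            (ga Φ m.co (f v) ≤ rB ρ1 ρ3 d m.co - Bgf_4.hB ρ1 ρ3 d m.co * ε m - 2 * d m.co ∨
              rB ρ1 ρ3 d m.co + Bgf_4.hB ρ1 ρ3 d m.co * ε m + 2 * d m.co ≤ ga Φ m.co (f v) ∨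
              b ≤ gmf Φ (μ / 8) (1 / 2) (1 / 2 - 5 * μ / 16) m.am m.Zm (Φ.Psi (f v))) →
            lm v = 0)
    {q : ι} {x v : E3} (hx : x ∈ P (T.H q)) (hv : v ∈ P (T.H q)) (hv0 : T.dim v = 0)
    (h : ga Φ m.co (f x) = ρ3 m.co + 9 * d m.co)
    (hg : 2 ≤ gR Φ X μ m (Φ.Psi (f x))) : lm v = 0 := by
  have hμ := N.hμ
  have hμb := N.hμb
  have hr := (bar.rm m.co m.co_notMem).2
  have hd := hr.d0
  have h1 : ρ1 m.co ≤ ga Φ m.co (f x) := by linarith [hr.r12, hr.r23]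
  have h2 : ga Φ m.co (f x) ≤ ρ4 m.co := by linarith [hr.r34]
  have hε2 : ε m ≤ 1 + μ / 16 := (bar.lv m).2.le.trans (hiB_le _ _)
  have hZ := bz_rec N H hLa hC bar m
  obtain ⟨p, hP⟩ := bz_pol hLa H hC m.co_notMem hZ
  have o1 := abs_le.1 (hZ.osc q x hx h1 h2 v hv)
  have hω := N.om (bar.rm m.co m.co_notMem).1
  obtain ⟨q1, h5, h6⟩ := hZ.gm.high
  refine HIGH (1 + μ / 4) (by linarith) (hZ.gm.ge_conn hP ⟨by linarith, by linarith⟩)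
    ⟨q1, h5, by linarith⟩ v (T.sub q hv) hv0 (Or.inr (Or.inr ?_))
  have e' : 1 + μ / 4 ≤ gR Φ X μ m (Φ.Psi (f v)) := by linarith [o1.1, o1.2]
  exact e'

variable (D : DIn (slC hLa hC n hn).hH (stB hGB bp bm) (Sum.elim r bm) Sf (nbA Φ X) (vS v0F v0B)
    (vS v1F v1B) (uA Φ hLa X θ) (AA Φ X μ κ1) (BA Φ X μ))
  (lo : LevOut (Kc := (slC hLa hC n hn).K) (stB hGB bp bm) (nbA Φ X) (uA Φ hLa X θ)
    (AA Φ X μ κ1) (BA Φ X μ) Lv)
  (tt : TwOut (slC hLa hC n hn) fr3 (stB hGB bp bm) (Sum.elim r bm) (vS v0F v0B) (vS v1F v1B) Lv Tw)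
  (rec : BR hLa (stB hGB bp bm) f X J θ coT BM.am BM.Zm (nbA Φ X) (vS v0F v0B) (vS v1F v1B)
    (uA Φ hLa X θ) (AA Φ X μ κ1) (BA Φ X μ) μ κ1)
include D lo tt rec

/-- **`NE1` FOR THE MACHINE** -/
theorem ne1_m (hI : InitR Φ T f g J0 ct' r₀) (hLm : ∀ c, ∀ t ∈ L c, μ ≤ t ∧ t ≤ 1 - μ)
    (m : BM Φ X) :
    ∃ w ∈ (stB hGB bp bm).P, (stB hGB bp bm).lab w = Sum.inr m ∧
      ρ3 m.co + 7 * d m.co ≤ ga Φ m.co (f w) ∧
      ¬ Dfo_539.Encl (s2 (slC hLa hC n hn) fr3 Tw l0') BM.am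
        (fun _ => ActR (slC hLa hC n hn) (Rdc T f Xᶜ (rout ρ3 d))) m w := by
  have hμ := N.hμ
  have hμb := N.hμb
  obtain ⟨n1, n2, n3, n4, n5, n6⟩ := N.base
  have hRm := rmA_of bar
  have hr := (bar.rm m.co m.co_notMem).2
  have hd := hr.d0
  obtain ⟨lm, hlm, LOW, HIGH⟩ := bar.lab m
  have hdm : d m.co ≤ μ ^ 2 / 512 := by
    have := (bar.rm m.co m.co_notMem).1
    nlinarith
  obtain ⟨Gn, gc, gs, gl, gw⟩ := Gt_664.exists_Gn hμ hμb (by linarith) hLa H bar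
  obtain ⟨w, w1, w2, w3, w4, w5, w6, w7, qw, hqV, hwq, xw, hxw, hxg, hxl, -⟩ :=
    Wy_664.exists_wall hLa N.hδ N.hR H N.hμ (by linarith) le_rfl bar.barF hGB bar.lv m hdm hlm
      LOW HIGH
  have hwG : w ∈ Gn m := gw m w w1 w2 ⟨qw, hwq, xw, hxw, hxg, hxl⟩
  refine ⟨w, w1, w2, by linarith, ?_⟩
  rintro ⟨Y, y1, y2, y3, y4⟩
  have U := upp_m (hLa := hLa) (hC := hC) (n := n) (hn := hn) (r := r) hI hμ hLm bar
  -- the chart
  obtain ⟨p, q, hM⟩ := m.mo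
  obtain ⟨pol, hPol⟩ := bar.barF.pol hLa m
  have hs1 : ρ3 m.co + 9 * d m.co ≤ ρ4 m.co := by linarith [hr.r34]
  have hs01 : ρ1 m.co ≤ ρ3 m.co + 9 * d m.co := by linarith [hr.r12, hr.r23]
  have hw1 : (0 : ℝ) ≤ μ / 4 := by linarith
  obtain ⟨Wz, c1, c2, c3, c4, c5⟩ := Gc_962.chart hLa H hM hPol
    (Gc_962.ga_sub (bar.barF.pt m) hr.r4.le) (s0 := ρ1 m.co) (s1 := ρ3 m.co + 9 * d m.co)
    (t0 := 3 * μ / 8) (w1 := μ / 4) hr.r1 hs1 ⟨by linarith, by linarith⟩ (by linarith)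
  set Rr : Set (ℝ × ℝ) := Icc (ρ1 m.co) (ρ3 m.co + 9 * d m.co) ×ˢ Icc 0 (μ / 4) with hRr
  have hga : ∀ z ∈ Rr, ga Φ m.co (f (Wz z)) = z.1 := fun z hz => (c3 z hz).2.1
  have hlev : ∀ z ∈ Rr, Φ.lev m.am (f (Wz z)) = 3 * μ / 8 := fun z hz => (c3 z hz).2.2.2.1
  have hg : ∀ z ∈ Rr, gR Φ X μ m (Φ.Psi (f (Wz z))) =
      max (z.2 / (μ / 8)) (|3 * μ / 8 - 1 / 2| / (1 / 2 - 5 * μ / 16)) := fun z hz =>
    (c3 z hz).2.2.2.2 _ _ _
  have hra : (0 : ℝ) < 1 / 2 - 5 * μ / 16 := by linarith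
  have hab : |3 * μ / 8 - 1 / 2| = 1 / 2 - 3 * μ / 8 := by
    rw [abs_of_nonpos (by linarith)]; ring
  have hax : |3 * μ / 8 - 1 / 2| / (1 / 2 - 5 * μ / 16) ≤ 1 - μ / 8 := by
    rw [hab, div_le_iff₀ hra]; nlinarith
  have hgl : ∀ z ∈ Rr, z.2 = 0 → gR Φ X μ m (Φ.Psi (f (Wz z))) ≤ 1 - μ / 8 := by
    intro z hz h0
    rw [hg z hz, h0, zero_div]
    exact max_le (by linarith) hax
  have hgh : ∀ z ∈ Rr, z.2 = μ / 4 → 2 ≤ gR Φ X μ m (Φ.Psi (f (Wz z))) := by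
    intro z hz h0
    rw [hg z hz, h0]
    refine le_max_of_le_left ?_
    rw [le_div_iff₀ (by linarith)]; linarith
  -- the sets
  set Kr : Set (ℝ × ℝ) := (Icc (ρ1 m.co) (ρ3 m.co + 9 * d m.co) ×ˢ ({0} : Set ℝ)) ∪
    (({ρ1 m.co} : Set ℝ) ×ˢ Icc 0 (μ / 4)) ∪
    (Icc (ρ1 m.co) (ρ3 m.co + 9 * d m.co) ×ˢ ({μ / 4} : Set ℝ)) with hKr
  set Kt : Set (ℝ × ℝ) := ({ρ3 m.co + 9 * d m.co} : Set ℝ) ×ˢ Icc 0 (μ / 4) with hKt
  have hKrR : Kr ⊆ Rr := by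
    rintro z ((⟨h1, h2⟩ | ⟨h1, h2⟩) | ⟨h1, h2⟩)
    · exact ⟨h1, by rw [show z.2 = 0 from h2]; exact ⟨le_rfl, hw1⟩⟩
    · exact ⟨by rw [show z.1 = ρ1 m.co from h1]; exact ⟨le_rfl, hs01⟩, h2⟩
    · exact ⟨h1, by rw [show z.2 = μ / 4 from h2]; exact ⟨hw1, le_rfl⟩⟩
  have hKtR : Kt ⊆ Rr := by
    rintro z ⟨h1, h2⟩
    exact ⟨by rw [show z.1 = _ from h1]; exact ⟨hs01, le_rfl⟩, h2⟩
  have hKrc : IsPreconnected Kr := by
    have k1 : IsPreconnected (Icc (ρ1 m.co) (ρ3 m.co + 9 * d m.co) ×ˢ ({0} : Set ℝ)) :=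
      isPreconnected_Icc.prod isPreconnected_singleton
    have k2 : IsPreconnected (({ρ1 m.co} : Set ℝ) ×ˢ Icc 0 (μ / 4)) :=
      isPreconnected_singleton.prod isPreconnected_Icc
    have k3 : IsPreconnected (Icc (ρ1 m.co) (ρ3 m.co + 9 * d m.co) ×ˢ ({μ / 4} : Set ℝ)) :=
      isPreconnected_Icc.prod isPreconnected_singleton
    refine IsPreconnected.union (ρ1 m.co, μ / 4) (Or.inr ⟨rfl, ⟨hw1, le_rfl⟩⟩)
      ⟨⟨le_rfl, hs01⟩, rfl⟩ ?_ k3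
    exact IsPreconnected.union (ρ1 m.co, 0) ⟨⟨le_rfl, hs01⟩, rfl⟩ ⟨rfl, ⟨le_rfl, hw1⟩⟩ k1 k2
  have hKtc : IsPreconnected Kt := isPreconnected_singleton.prod isPreconnected_Icc
  have hx0 : ((ρ3 m.co + 9 * d m.co, 0) : ℝ × ℝ) ∈ Kr := Or.inl (Or.inl ⟨⟨hs01, le_rfl⟩, rfl⟩)
  have hy0 : ((ρ3 m.co + 9 * d m.co, μ / 4) : ℝ × ℝ) ∈ Kr := Or.inr ⟨⟨hs01, le_rfl⟩, rfl⟩
  have hx1 : ((ρ3 m.co + 9 * d m.co, 0) : ℝ × ℝ) ∈ Kt := ⟨rfl, ⟨le_rfl, hw1⟩⟩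
  have hy1 : ((ρ3 m.co + 9 * d m.co, μ / 4) : ℝ × ℝ) ∈ Kt := ⟨rfl, ⟨hw1, le_rfl⟩⟩
  -- vertices near the ends
  obtain ⟨qx, hqx⟩ := T.cov _ (c3 _ (hKrR hx0)).1
  obtain ⟨vx, hvx, hvx0⟩ := Main_4.exists_vertex_tile hqx
  obtain ⟨qy, hqy⟩ := T.cov _ (c3 _ (hKrR hy0)).1
  obtain ⟨vy, hvy, hvy0⟩ := Main_4.exists_vertex_tile hqy
  have hlx : lm vx = 1 := lab_lo N H bar hLa hC m LOW hqx hvx hvx0 (hga _ (hKrR hx0))
    (hgl _ (hKrR hx0) rfl)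
  have hly : lm vy = 0 := lab_hi N H bar hLa hC m HIGH hqy hvy hvy0 (hga _ (hKrR hy0))
    (hgh _ (hKrR hy0) rfl)
  -- a-free
  have hfree : ∀ m' : BM Φ X, m'.am = m.am → ∀ q x, x ∈ P (T.H q) → x ∈ Gn m' →
      ∀ F : C2 T, q ∈ F.side fr3 → ∀ y ∈ (stB hGB bp bm).P, y ∈ F.On → ∀ i,
        (stB hGB bp bm).lab y = Sum.inl i → i.1 ≠ m.am := by
    intro m' hm' q x hx hxG F hF y hy hyF i hi
    obtain ⟨e1, e2, e3⟩ := gs m' hxG
    obtain ⟨d1, d2, d3, d4, d5, d6, d7⟩ := caps bar.barF bar.lv m'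
    have e3' : ρ3 m'.co + 7 * d m'.co ≤ ga Φ m'.co (f x) := e3
    have h5 : ga Φ m'.co (f x) ≤ rB ρ1 ρ3 d m'.co + Bgf_4.hB ρ1 ρ3 d m'.co * ε m' :=
      (bar.barF.pos (bar.lv m').2 e2).2.1
    have hdm' := (bar.rm m'.co m'.co_notMem).1
    have h6 := gl m' x hxG
    rw [← hm']
    exact Afr_112.afree_out N bar rec m' hx (by linarith) (by linarith)
      (Or.inl (by nlinarith)) F hF y hy hyF i hi
  have hcon : lm vx = lm vy := by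
    refine Nef_778.encl_core (S := slC hLa hC n hn) (h3 := fr3) (am := BM.am)
      (fam := fun j : JJ Φ L => j.1) (l0 := l0') (R := Rdc T f Xᶜ (rout ρ3 d)) (m := m) (Y := Y)
      tt y2 y3 y4 (D := Wz '' Rr) c4 ?_ c5 ?_ ?_ (K := Wz '' Kr) (K' := Wz '' Kt)
      (image_mono hKrR) (hKrc.image _ (c1.mono hKrR)) (image_mono hKtR)
      (hKtc.image _ (c1.mono hKtR)) ?_ ?_ ?_ ?_ hlm.lab (mem_image_of_mem _ hx0)
      (mem_image_of_mem _ hx1) (mem_image_of_mem _ hy0) (mem_image_of_mem _ hy1)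
      ⟨qx, hvx, hqx⟩ ⟨qy, hvy, hqy⟩ hvx0 hvy0
    · rintro _ ⟨z, hz, rfl⟩
      exact (c3 z hz).1
    · rintro q ⟨_, hxq, z, hz, rfl⟩
      exact Afr_112.afree_out N bar rec m hxq (by rw [hga z hz]; exact hz.1.1)
        (by rw [hga z hz]; exact hz.1.2.trans hs1) (Or.inl (by rw [hlev z hz]; linarith))
    · rintro q ⟨_, hxq, z, hz, rfl⟩ k e he j hj
      obtain ⟨a1, a2⟩ := Afr_112.afree_in N bar D lo tt rec m hxq (by rw [hga z hz]; exact hz.1.1)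
        (by rw [hga z hz]; exact hz.1.2.trans hs1) (Or.inl (by rw [hlev z hz]; linarith)) k e he j
      exact ⟨fun j' _ => a1 j', a2⟩
    · -- no points outside over the columns
      rintro q ⟨_, hxq, z, hz, rfl⟩ hqK
      have hzR := hKrR hz
      have hIn : z.1 = ρ1 m.co → False := by
        intro h0
        refine (Sla.out_of_tile hqK hxq).2 ⟨m.co, m.co_notMem⟩ ?_
        exact Dch_847.low_in hLa hC n hn H (fun c hc => (bar.rm c hc).2) m.co_notMem (c3 z hzR).1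
          (by rw [hga z hzR, h0]; linarith [hr.r12])
      refine no_pt N H bar hC n hn m hqK hxq (by rw [hga z hzR]; exact hzR.1.1)
        (by rw [hga z hzR]; exact hzR.1.2) ?_
      rcases hz with (⟨h1, h2⟩ | ⟨h1, h2⟩) | ⟨h1, h2⟩
      · exact Or.inl (hgl z hzR h2)
      · exact (hIn h1).elim
      · exact Or.inr (hgh z hzR h2)
    · -- never moved
      rintro q ⟨_, hxq, z, hz, rfl⟩ k hqK v hv j hj
      have hzR := hKrR hz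
      have key : (gR Φ X μ m (Φ.Psi (f (Wz z))) ≤ 1 - μ / 8 ∨
          2 ≤ gR Φ X μ m (Φ.Psi (f (Wz z)))) → v ∉ ((Tw.tw k (Sum.inr m)).mv j).Qv := fun h =>
        Nvm1_985.never_m N H bar D lo tt m hxq (by rw [hga z hzR]; exact hzR.1.1)
          (by rw [hga z hzR]; exact hzR.1.2.trans hs1) h k v hv j
      rcases hz with (⟨h1, h2⟩ | ⟨h1, h2⟩) | ⟨h1, h2⟩
      · exact key (Or.inl (hgl z hzR h2))
      · exfalso
        have hin : (slC hLa hC n hn).In ⟨m.co, m.co_notMem⟩ (Wz z) :=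
          Dch_847.low_in hLa hC n hn H (fun c hc => (bar.rm c hc).2) m.co_notMem (c3 z hzR).1
            (by rw [hga z hzR, show z.1 = ρ1 m.co from h1]; linarith [hr.r12])
        have hkc : k = ⟨m.co, m.co_notMem⟩ := Sla.core_unique (S := slC hLa hC n hn)
          (hqK hxq) hin.1
        subst hkc
        have hfr : v.1 ∈ frontier (KJ T (J m.co)) := v.2.2
        have h5 := (hr.fr v.1 hfr).1
        have h6 := abs_le.1 (hr.tile_osc hxq (by rw [hga z hzR]; exact hzR.1.1)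
          (by rw [hga z hzR]; exact hzR.1.2.trans hs1) hv).1
        rw [hga z hzR, show z.1 = ρ1 m.co from h1] at h6
        linarith [h6.1, h6.2, hr.r12]
      · exact key (Or.inr (hgh z hzR h2))
    · -- the top row is outside
      rintro q ⟨_, hxq, z, hz, rfl⟩ k
      have hzR := hKtR hz
      refine tile_out hLa H hC hRm m.co_notMem hxq ?_ ?_ k
      · rw [hga z hzR, show z.1 = _ from hz.1]; linarith
      · rw [hga z hzR]; exact hzR.1.2.trans hs1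
    · -- all points on the top row
      rintro q ⟨_, hxq, z, hz, rfl⟩ w' hw' hl' hwq'
      have hzR := hKtR hz
      have hG' : w' ∈ Gn m := gw m w' hw' hl' ⟨q, hwq', Wz z, hxq,
        by rw [hga z hzR]; exact hz.1, (hlev z hzR).le⟩
      have hcl := cl_of (s := stB hGB bp bm) hw' hl' hG'
      have hs : ∀ m, Gn m ⊆ GmB Om Φ f X ρ1 ρ3 d (μ / 16) (μ / 8) (1 / 2)
          (1 / 2 - 5 * μ / 16) ε m := fun m => (gs m).trans (gmT_sub hRm m)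
      refine ⟨U.mem_out (cl_mono (hs m) hcl) |>.1, ?_⟩
      obtain ⟨k1, k2⟩ := U.mem_s2' (Tw := Tw) (l0 := l0') (cl_mono (hs m) (cl_of w1 w2 hwG))
      refine conn_sub U gc hs (am := BM.am) (a := m.am) rfl k1 k2 hwG y1 ?_ hcl
      rintro F ⟨m', hm', F0, rfl, q', hq', x', hx', hxG'⟩ y hyY hA hly
      exact y3 _ y hyY hA (Nef_778.nox_old (hfree m' hm' q' x' hx' hxG' F0.1 hq') y)
  rw [hlx, hly] at hcon
  exact one_ne_zero hcon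

end s2

end Crest.Agent.R096.Nem_962
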