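import Crest.Agent.R096.Nem1_962
import Crest.Agent.R096.Hop1_895

/-!
# R096 (row 96), DOORS (helper962): **895's closed literal `NE1M`**
-/

set_option autoImplicit false
set_option linter.unusedVariables false
set_option linter.style.longLine false

open Set Topology Filter Metric Module Relation
open scoped Classical

namespace Crest.Agent.R096.Nem_962

/-- **`NE1M`** -/
theorem ne1M : Hop_895.NE1M := by
  intro δ κ0 R c0 κ2 κ3 κp μ κ1 Om La f g hLa Φ ι T X J0 J V ct A lam z θ φ M hC ct' r₀ hR hM h1 h2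
    L _ hG D bp lam₀ v₀ v₁ r v0 v1 ρ1 ρ2 ρ3 ρ4 d q₀ ε bm hGB v0B v1B n hn Lv Tw MM _ hnC l0' m
  exact ne1_m MM.N hR.hm MM.bar MM.din MM.lo MM.tt MM.brec hR MM.lev m

end Crest.Agent.R096.Nem_962
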