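import Crest.Agent.R096.SkC1_961
import Crest.Agent.R096.No0_477
import Crest.Agent.R96.En10_199
import Crest.Agent.R96.Sg2_199

/-!
Row 96 (S0127), helper458.  **[P-C]: clause `ends` of `NONum`** (ends of the lines of the slices).

* `LS j r H a` = sum over ALL lines of direction `j` of the lattice `a + r ℤ³` of the integral of
  `H` along the whole line; exact Tonelli formula `lintegral_LS`.
* part 2 = `Nend2_458` (`exists_endS`, `ends_of`).
-/

set_option autoImplicit false
set_option linter.unusedSectionVars false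
set_option linter.unusedVariables false

open MeasureTheory Set Filter Topology
open scoped ENNReal

noncomputable section

namespace Crest.Agent.R096.Nend_458

open Crest.Agent.R96.Acl_392 Crest.Agent.R96.Sob2_199 Crest.Agent.R96.Sob3_199
  Crest.Agent.R96.Sob4_199 Crest.Agent.R96.En10_199
open Crest.Agent.R096.SkC1_961 (E3 Hom3)

open Crest.Agent.R096.No0_477 (vx)

/-- the other horizontal direction -/
def ot (j : Fin 2) : Fin 2 := 1 - j

/-- the lattice translate: `r * q.1` in the other horizontal direction, `r * q.2` vertically -/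
def cq (j : Fin 2) (r : ℝ) (q : ℤ × ℤ) : E3 := fun i =>
  if i = 2 then r * q.2 else if i = j.castSucc then 0 else r * q.1

/-- unit vector of direction `j` -/
def ej (j : Fin 2) : E3 := Pi.single j.castSucc (1:ℝ)

/-- half open box with lowest corner `b` and side `r` -/
def bx (b : E3) (r : ℝ) : Set E3 := {a | ∀ i, a i ∈ Ico (b i) (b i + r)}

theorem measurableSet_bx (b : E3) (r : ℝ) : MeasurableSet (bx b r) := by
  have : bx b r = ⋂ i : Fin 3, (fun a : E3 => a i) ⁻¹' Ico (b i) (b i + r) := by
    ext a; simp [bx]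
  rw [this]
  exact MeasurableSet.iInter fun i => (measurable_pi_apply i) measurableSet_Ico

theorem volume_bx (b : E3) (r : ℝ) : volume (bx b r) = ENNReal.ofReal r ^ 3 := by
  have : bx b r = Set.pi univ fun i => Ico (b i) (b i + r) := by
    ext a; simp [bx]
  rw [this, Real.volume_pi_Ico]
  simp

/-- sum over all lines of direction `j` of the lattice `a + r ℤ³` -/
def LS (j : Fin 2) (r : ℝ) (H : E3 → ℝ≥0∞) (a : E3) : ℝ≥0∞ :=
  ∑' q : ℤ × ℤ, ∫⁻ τ : ℝ, H (a + cq j r q + τ • ej j)

theorem measurable_line {H : E3 → ℝ≥0∞} (hH : Measurable H) (c e : E3) :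
    Measurable fun a : E3 => ∫⁻ τ : ℝ, H (a + c + τ • e) := by
  apply Measurable.lintegral_prod_right' (f := fun q : E3 × ℝ => H (q.1 + c + q.2 • e))
  apply hH.comp
  have : Continuous fun q : E3 × ℝ => q.1 + c + q.2 • e := by fun_prop
  exact this.measurable

theorem measurable_LS {H : E3 → ℝ≥0∞} (hH : Measurable H) (j : Fin 2) (r : ℝ) :
    Measurable (LS j r H) := by
  unfold LS
  exact Measurable.tsum fun q => measurable_line hH _ _

/-- one line, exact formula -/
theorem lintegral_line {H : E3 → ℝ≥0∞} (hH : Measurable H) {B : Set E3} (hB : MeasurableSet B)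
    (c e : E3) : ∫⁻ a in B, ∫⁻ τ : ℝ, H (a + c + τ • e) =
      ∫⁻ z, H z * volume {τ : ℝ | z - (c + τ • e) ∈ B} := by
  have hc1 : Continuous fun q : E3 × ℝ => q.1 + c + q.2 • e := by fun_prop
  have hc2 : Continuous fun q : ℝ × E3 => q.2 - (c + q.1 • e) := by fun_prop
  rw [lintegral_lintegral_swap (by exact (hH.comp hc1.measurable).aemeasurable)]
  have h1 : ∀ τ : ℝ, ∫⁻ a in B, H (a + c + τ • e) =
      ∫⁻ z, H z * B.indicator 1 (z - (c + τ • e)) := by
    intro τ
    rw [← lintegral_indicator hB,
      ← lintegral_sub_right_eq_self (μ := volume) (B.indicator fun a => H (a + c + τ • e))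
        (c + τ • e)]
    apply lintegral_congr
    intro z
    by_cases hz : z - (c + τ • e) ∈ B
    · rw [indicator_of_mem hz, indicator_of_mem hz, Pi.one_apply, mul_one]
      congr 1
      abel
    · rw [indicator_of_notMem hz, indicator_of_notMem hz, mul_zero]
  simp only [h1]
  rw [lintegral_lintegral_swap]
  · apply lintegral_congr
    intro z
    rw [lintegral_const_mul]
    · congr 1
      have h2 : (fun τ : ℝ => B.indicator (1 : E3 → ℝ≥0∞) (z - (c + τ • e))) =
          {τ : ℝ | z - (c + τ • e) ∈ B}.indicator 1 := by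
        funext τ
        by_cases hz : z - (c + τ • e) ∈ B
        · rw [indicator_of_mem hz, indicator_of_mem (by exact hz)]
          rfl
        · rw [indicator_of_notMem hz, indicator_of_notMem (by exact hz)]
      have hm : MeasurableSet {τ : ℝ | z - (c + τ • e) ∈ B} := by
        have hc : Continuous fun τ : ℝ => z - (c + τ • e) := by fun_prop
        exact hc.measurable hB
      rw [h2, lintegral_indicator_one hm]
    · have hc : Continuous fun τ : ℝ => z - (c + τ • e) := by fun_prop
      exact (measurable_one.indicator hB).comp hc.measurable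
  · have h3 : Measurable fun q : ℝ × E3 => H q.2 * B.indicator 1 (q.2 - (c + q.1 • e)) :=
      (hH.comp measurable_snd).mul ((measurable_one.indicator hB).comp hc2.measurable)
    exact h3.aemeasurable

theorem mem_Ico_iff_floor {x b r : ℝ} (hr : 0 < r) (n : ℤ) :
    x - r * n ∈ Ico b (b + r) ↔ n = ⌊(x - b) / r⌋ := by
  rw [eq_comm, Int.floor_eq_iff, mem_Ico, le_div_iff₀ hr, div_lt_iff₀ hr]
  constructor
  · rintro ⟨h1, h2⟩; constructor <;> nlinarith
  · rintro ⟨h1, h2⟩; constructor <;> nlinarith

theorem dens {r : ℝ} (hr : 0 < r) (j : Fin 2) (b z : E3) :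
    ∑' q : ℤ × ℤ, volume {τ : ℝ | z - (cq j r q + τ • ej j) ∈ bx b r} = ENNReal.ofReal r := by
  have key : ∀ q : ℤ × ℤ, ∀ τ : ℝ, z - (cq j r q + τ • ej j) ∈ bx b r ↔
      (z j.castSucc - τ ∈ Ico (b j.castSucc) (b j.castSucc + r) ∧
        q.1 = ⌊(z (ot j).castSucc - b (ot j).castSucc) / r⌋ ∧ q.2 = ⌊(z 2 - b 2) / r⌋) := by
    intro q τ
    rw [← mem_Ico_iff_floor hr, ← mem_Ico_iff_floor hr]
    unfold bx
    rw [mem_ofPred_eq, Fin.forall_fin_succ, Fin.forall_fin_two]
    fin_cases j
    · simp [cq, ej, ot]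
    · simp [cq, ej, ot]
      tauto
  set q0 : ℤ × ℤ := (⌊(z (ot j).castSucc - b (ot j).castSucc) / r⌋, ⌊(z 2 - b 2) / r⌋) with hq0
  rw [tsum_eq_single q0]
  · have : {τ : ℝ | z - (cq j r q0 + τ • ej j) ∈ bx b r} =
        Ioc (z j.castSucc - b j.castSucc - r) (z j.castSucc - b j.castSucc) := by
      ext τ
      rw [mem_ofPred_eq, key]
      simp only [hq0, and_self, and_true, mem_Ico, mem_Ioc]
      constructor
      · rintro ⟨h1, h2⟩; constructor <;> linarith
      · rintro ⟨h1, h2⟩; constructor <;> linarith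
    rw [this, Real.volume_Ioc]
    congr 1
    ring
  · intro q hq
    have : {τ : ℝ | z - (cq j r q + τ • ej j) ∈ bx b r} = ∅ := by
      rw [eq_empty_iff_forall_notMem]
      intro τ hτ
      rw [mem_ofPred_eq, key] at hτ
      exact hq (Prod.ext hτ.2.1 hτ.2.2)
    rw [this, measure_empty]

/-- **exact Tonelli formula for all lines of one direction** -/
theorem lintegral_LS {H : E3 → ℝ≥0∞} (hH : Measurable H) {r : ℝ} (hr : 0 < r) (j : Fin 2)
    (b : E3) : ∫⁻ a in bx b r, LS j r H a = ENNReal.ofReal r * ∫⁻ x, H x := by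
  unfold LS
  rw [lintegral_tsum fun q => (measurable_line hH _ _).aemeasurable]
  simp only [lintegral_line hH (measurableSet_bx b r)]
  have hm : ∀ q : ℤ × ℤ, Measurable fun z : E3 =>
      volume {τ : ℝ | z - (cq j r q + τ • ej j) ∈ bx b r} := by
    intro q
    have hc : Continuous fun p : E3 × ℝ => p.1 - (cq j r q + p.2 • ej j) := by fun_prop
    have hS : MeasurableSet {p : E3 × ℝ | p.1 - (cq j r q + p.2 • ej j) ∈ bx b r} :=
      hc.measurable (measurableSet_bx b r)
    exact measurable_measure_prodMk_left hS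
  have hm2 : ∀ q : ℤ × ℤ, Measurable fun z : E3 =>
      H z * volume {τ : ℝ | z - (cq j r q + τ • ej j) ∈ bx b r} := fun q => hH.mul (hm q)
  rw [← lintegral_tsum fun q => (hm2 q).aemeasurable]
  simp only [ENNReal.tsum_mul_left, dens hr j b]
  rw [lintegral_mul_const _ hH, mul_comm]

end Crest.Agent.R096.Nend_458
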