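import Crest.Agent.R096.Er3_594
import Crest.Agent.R096.No0_477
import Crest.Agent.R096.No1_276
import Crest.Agent.R096.Nend1_458

/-!
Row 96 (S0127), helper458.  **[P-C]: clause `ends` of `NONum`** (ends of the lines of the slices).

* `exists_endS`: one measurable function `S` of the translate `a` with
  `∫⁻_{a ∈ box of side r} S a ≤ r ∫_Om ‖∂_j f_j - s_j‖`, which bounds, for a.e. `a`, the sum of the
  errors of the increments over ALL choices of `o`, `M`, `Zs` with lines inside `Om`.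
* `ends_of`: the literal clause.
-/

set_option autoImplicit false
set_option linter.unusedSectionVars false
set_option linter.unusedVariables false

open MeasureTheory Set Filter Topology
open scoped ENNReal

noncomputable section

namespace Crest.Agent.R096.Nend_458

open Crest.Agent.R96.Acl_392 Crest.Agent.R96.Sob2_199 Crest.Agent.R96.Sob3_199
  Crest.Agent.R96.Sob4_199 Crest.Agent.R96.En10_199
open Crest.Agent.R096.SkC1_961 (E3 Hom3)
open Crest.Agent.R096.Er_594 (SH3)
open Crest.Agent.R096.No0_477 (vx)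

/-- the error density -/
def er (D : E3 → E3 →L[ℝ] E3) (s : Fin 3 → ℝ) (j : Fin 2) (x : E3) : ℝ :=
  D x (ej j) j.castSucc - s j.castSucc

theorem wd_comp {p : ℝ} {Om La : Set E3} {f : E3 → E3} {D : E3 → E3 →L[ℝ] E3}
    (h : SH3 p Om La f D) (j : Fin 2) :
    WD Om volume (fun x => f x j.castSucc) (fun x => D x (ej j) j.castSucc) (ej j) :=
  h.vwd j.castSucc j.castSucc

theorem cont_comp {p : ℝ} {Om La : Set E3} {f : E3 → E3} {D : E3 → E3 →L[ℝ] E3}
    (h : SH3 p Om La f D) (j : Fin 2) : ContinuousOn (fun x => f x j.castSucc) Om := by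
  obtain ⟨fi, hf1, hf2, hf3, hf4, hf5, hf6⟩ := h.homeo
  exact (continuous_apply _).comp_continuousOn hf5

/-- the point of the slice -/
theorem vx_eq (a : E3) (r : ℝ) (o : Fin 2 → ℤ) (m : ℤ) (j : Fin 2) (t k : ℕ) :
    vx a r o m (fun i => if i = j then k else t) =
      a + cq j r (o (ot j) + t, m) + (r * (o j + k)) • ej j := by
  funext i
  fin_cases j <;> fin_cases i <;> simp [vx, cq, ej, ot]

/-- increments on one line against the full line integral -/
theorem incr_le {Om : Set E3} {u g : E3 → ℝ} {e x : E3} {c : ℝ} {H : E3 → ℝ≥0∞}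
    (h : ACLat Om u g e x) (hH : ∀ᵐ τ : ℝ, x + τ • e ∈ Om → ‖g (x + τ • e) - c‖ₑ ≤ H (x + τ • e))
    {σ σ' : ℝ} (hσ : σ ≤ σ') (hx : x ∈ segIn Om e σ σ') :
    ‖u (x + σ' • e) - u (x + σ • e) - c * (σ' - σ)‖ₑ ≤ ∫⁻ τ : ℝ, H (x + τ • e) := by
  obtain ⟨h1, h2⟩ := h σ σ' hσ hx
  have h3 : IntervalIntegrable (fun τ : ℝ => g (x + τ • e)) volume σ σ' :=
    (intervalIntegrable_iff_integrableOn_Icc_of_le hσ).2 h1
  have h4 : u (x + σ' • e) - u (x + σ • e) - c * (σ' - σ) =
      ∫ τ in σ..σ', (g (x + τ • e) - c) := by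
    rw [intervalIntegral.integral_sub h3 intervalIntegrable_const, ← h2,
      intervalIntegral.integral_const, smul_eq_mul, mul_comm]
  rw [h4, intervalIntegral.integral_of_le hσ]
  refine (enorm_integral_le_lintegral_enorm _).trans ?_
  calc ∫⁻ τ in Ioc σ σ', ‖g (x + τ • e) - c‖ₑ ≤ ∫⁻ τ in Ioc σ σ', H (x + τ • e) := by
        refine setLIntegral_mono_ae' measurableSet_Ioc ?_
        filter_upwards [hH] with τ h5 h6
        exact h5 (hx τ (Ioc_subset_Icc_self h6))
    _ ≤ ∫⁻ τ : ℝ, H (x + τ • e) := setLIntegral_le_lintegral _ _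

/-- the inside condition for the lines of direction `j` of the slices -/
def Ins (Om : Set E3) (j : Fin 2) (r : ℝ) (a : E3) (o : Fin 2 → ℤ) (M : ℕ) (Zs : Finset ℤ) : Prop :=
  ∀ m ∈ Zs, ∀ t : ℕ, t ≤ M → ∀ τ ∈ Icc (0:ℝ) (r * M),
    vx a r o m (fun i => if i = j then 0 else t) + τ • ej j ∈ Om

/-- **bound for the translate `a`**: all choices of `o`, `M`, `Zs` at once -/
def EndB (Om : Set E3) (f : E3 → E3) (s : Fin 3 → ℝ) (j : Fin 2) (r : ℝ) (S : E3 → ℝ≥0∞) (a : E3) :
    Prop :=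
  ∀ (o : Fin 2 → ℤ) (M : ℕ) (Zs : Finset ℤ), Ins Om j r a o M Zs →
    ∑ m ∈ Zs, ∑ t ∈ Finset.range (M + 1),
      ‖(f (vx a r o m (fun i => if i = j then M else t)) -
        f (vx a r o m (fun i => if i = j then 0 else t))) j.castSucc -
          s j.castSucc * (M * r)‖ₑ ≤ S a

/-- **[P-C], averaged form** -/
theorem exists_endS {p : ℝ} {Om La : Set E3} {f : E3 → E3} {D : E3 → E3 →L[ℝ] E3}
    (hOm : IsOpen Om) (hSH : SH3 p Om La f D) (s : Fin 3 → ℝ) (j : Fin 2) {r : ℝ} (hr : 0 < r) :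
    ∃ S : E3 → ℝ≥0∞, Measurable S ∧
      (∀ b : E3, ∫⁻ a in bx b r, S a ≤ ENNReal.ofReal r * ∫⁻ x in Om, ‖er D s j x‖ₑ) ∧
      ∀ᵐ a : E3, EndB Om f s j r S a := by
  have hwd := wd_comp hSH j
  have hu := cont_comp hSH j
  have hgm : AEMeasurable (fun x => ‖er D s j x‖ₑ) (volume.restrict Om) :=
    (((aemeas_of_loc hwd.lg).aemeasurable).sub_const _).enorm
  obtain ⟨G, hG, hGe⟩ := hgm
  set H : E3 → ℝ≥0∞ := Om.indicator G with hHd
  have hH : Measurable H := hG.indicator hOm.measurableSet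
  refine ⟨LS j r H, measurable_LS hH j r, fun b => ?_, ?_⟩
  · rw [lintegral_LS hH hr j b, hHd, lintegral_indicator hOm.measurableSet, lintegral_congr_ae hGe]
  · have h1 : ∀ᵐ x : E3, ACLat Om (fun x => f x j.castSucc) (fun x => D x (ej j) j.castSucc)
        (ej j) x := acl hOm hwd hu
    have h2 : ∀ᵐ x : E3, x ∈ Om → ‖er D s j x‖ₑ = G x :=
      (ae_restrict_iff' hOm.measurableSet).1 hGe
    have h3 := ae_line_of_ae (μ := (volume : Measure E3)) h2 (ej j)
    have h4 : ∀ᵐ a : E3, ∀ q : ℤ × ℤ,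
        ACLat Om (fun x => f x j.castSucc) (fun x => D x (ej j) j.castSucc) (ej j)
          (a + cq j r q) ∧
        ∀ᵐ τ : ℝ, a + cq j r q + τ • ej j ∈ Om →
          ‖er D s j (a + cq j r q + τ • ej j)‖ₑ = G (a + cq j r q + τ • ej j) := by
      rw [ae_all_iff]
      intro q
      exact (measurePreserving_add_right volume (cq j r q)).quasiMeasurePreserving.ae (h1.and h3)
    filter_upwards [h4] with a ha o M Zs hin
    set φ : ℤ × ℕ → ℤ × ℤ := fun q => (o (ot j) + q.2, q.1) with hφ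
    have hφi : Function.Injective φ := by
      rintro ⟨x1, x2⟩ ⟨y1, y2⟩ h
      simp only [hφ, Prod.mk.injEq] at h
      obtain ⟨h5, h6⟩ := h
      have : (x2 : ℤ) = y2 := by linarith
      exact Prod.ext h6 (by exact_mod_cast this)
    have key : ∀ m ∈ Zs, ∀ t ∈ Finset.range (M + 1),
        ‖(f (vx a r o m (fun i => if i = j then M else t)) -
          f (vx a r o m (fun i => if i = j then 0 else t))) j.castSucc -
            s j.castSucc * (M * r)‖ₑ ≤ ∫⁻ τ : ℝ, H (a + cq j r (φ (m, t)) + τ • ej j) := by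
      intro m hm t ht
      have ht' : t ≤ M := Nat.lt_succ_iff.1 (Finset.mem_range.1 ht)
      obtain ⟨h5, h6⟩ := ha (φ (m, t))
      have h7 : a + cq j r (φ (m, t)) ∈ segIn Om (ej j) (r * (o j + (0:ℕ))) (r * (o j + M)) := by
        intro τ hτ
        have h8 := hin m hm t ht' (τ - r * (o j + (0:ℕ))) ⟨by linarith [hτ.1], by
          have := hτ.2
          push_cast
          nlinarith⟩
        rw [vx_eq, add_assoc, ← add_smul] at h8
        simpa [hφ] using h8
      have h8 := incr_le (H := H) (c := s j.castSucc) h5 (by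
        filter_upwards [h6] with τ h9 h10
        rw [hHd, indicator_of_mem h10, ← h9 h10]
        exact le_rfl) (σ := r * (o j + (0:ℕ))) (σ' := r * (o j + M)) (by
          push_cast
          nlinarith [Nat.cast_nonneg (α := ℝ) M]) h7
      rw [vx_eq, vx_eq]
      refine le_trans (le_of_eq ?_) h8
      congr 1
      simp only [hφ, Pi.sub_apply]
      push_cast
      ring
    calc ∑ m ∈ Zs, ∑ t ∈ Finset.range (M + 1),
          ‖(f (vx a r o m (fun i => if i = j then M else t)) -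
            f (vx a r o m (fun i => if i = j then 0 else t))) j.castSucc -
              s j.castSucc * (M * r)‖ₑ
        ≤ ∑ m ∈ Zs, ∑ t ∈ Finset.range (M + 1),
            ∫⁻ τ : ℝ, H (a + cq j r (φ (m, t)) + τ • ej j) :=
          Finset.sum_le_sum fun m hm => Finset.sum_le_sum fun t ht => key m hm t ht
      _ = ∑ q ∈ Zs ×ˢ Finset.range (M + 1), ∫⁻ τ : ℝ, H (a + cq j r (φ q) + τ • ej j) := by
          rw [Finset.sum_product]
      _ ≤ ∑' q : ℤ × ℕ, ∫⁻ τ : ℝ, H (a + cq j r (φ q) + τ • ej j) := ENNReal.sum_le_tsum _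
      _ ≤ LS j r H a :=
          ENNReal.tsum_comp_le_tsum_of_injective hφi
            (fun q : ℤ × ℤ => ∫⁻ τ : ℝ, H (a + cq j r q + τ • ej j))

end Crest.Agent.R096.Nend_458
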