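import Crest.Agent.R096.Nend2_458

/-!
Row 96 (S0127), helper458.  **[P-C]**, part 3: inside condition in `QL L`, the average in terms of
the hypothesis of the front, and the literal clause `ends` of `NONum`.
-/

set_option autoImplicit false
set_option linter.unusedSectionVars false
set_option linter.unusedVariables false

open MeasureTheory Set Filter Topology
open scoped ENNReal

noncomputable section

namespace Crest.Agent.R096.Nend_458

open Crest.Agent.R96.Acl_392 Crest.Agent.R96.Sob2_199 Crest.Agent.R96.Sob3_199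
  Crest.Agent.R96.Sob4_199 Crest.Agent.R96.En10_199
open Crest.Agent.R096.SkC1_961 (E3 Hom3)
open Crest.Agent.R096.Er_594 (SH3)
open Crest.Agent.R096.No0_477 (vx)
open Crest.Agent.R096.No_276 (QL)

/-- the lines of the slices are inside `QL L` -/
theorem ins_of {L : ℝ} {r : ℝ} (hr : 0 < r) {a : E3} {o : Fin 2 → ℤ} {M : ℕ} {Zs : Finset ℤ}
    (lo : ∀ j : Fin 2, -1 < a j.castSucc + r * o j)
    (hi : ∀ j : Fin 2, a j.castSucc + r * (o j + M) < 1)
    (zs : ∀ m ∈ Zs, |L * (a 2 + r * m)| < 1) (j : Fin 2) : Ins (QL L) j r a o M Zs := by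
  intro m hm t ht τ hτ
  have h2 := zs m hm
  have ht' : (t : ℝ) ≤ M := by exact_mod_cast ht
  have ht0 : (0 : ℝ) ≤ t := Nat.cast_nonneg t
  have hrt : r * t ≤ r * M := mul_le_mul_of_nonneg_left ht' hr.le
  have hrt0 : 0 ≤ r * t := mul_nonneg hr.le ht0
  have lo0 := lo 0
  have lo1 := lo 1
  have hi0 := hi 0
  have hi1 := hi 1
  have hτ1 := hτ.1
  have hτ2 := hτ.2
  simp only [Fin.castSucc_zero, Fin.castSucc_one, mul_add] at lo0 lo1 hi0 hi1
  fin_cases j
  · refine ⟨?_, ?_, ?_⟩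
    · simp only [vx, ej, Pi.add_apply, Pi.smul_apply]
      simp
      rw [abs_lt]
      constructor <;> nlinarith
    · simp only [vx, ej, Pi.add_apply, Pi.smul_apply]
      simp
      rw [abs_lt]
      constructor <;> nlinarith
    · simp only [vx, ej, Pi.add_apply, Pi.smul_apply]
      simpa using h2
  · refine ⟨?_, ?_, ?_⟩
    · simp only [vx, ej, Pi.add_apply, Pi.smul_apply]
      simp
      rw [abs_lt]
      constructor <;> nlinarith
    · simp only [vx, ej, Pi.add_apply, Pi.smul_apply]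
      simp
      rw [abs_lt]
      constructor <;> nlinarith
    · simp only [vx, ej, Pi.add_apply, Pi.smul_apply]
      simpa using h2

/-- the error density against the hypothesis of the front -/
theorem er_le (D : E3 → E3 →L[ℝ] E3) (s : Fin 3 → ℝ) (j : Fin 2) (x : E3) :
    ‖er D s j x‖ₑ ≤ ‖P3 (D x (Pi.single j.castSucc 1)) -
      EuclideanSpace.single j.castSucc (s j.castSucc)‖ₑ := by
  have h := PiLp.norm_apply_le (P3 (D x (Pi.single j.castSucc 1)) -
      EuclideanSpace.single j.castSucc (s j.castSucc)) j.castSucc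
  rw [← ofReal_norm, ← ofReal_norm]
  apply ENNReal.ofReal_le_ofReal
  refine le_trans (le_of_eq ?_) h
  simp [er, ej]

/-- **the average in terms of the hypothesis of the front** -/
theorem lintegral_er_le {p : ℝ} (hp : 1 ≤ p) {Om La : Set E3} {f : E3 → E3}
    {D : E3 → E3 →L[ℝ] E3} (hOmf : volume Om ≠ ⊤) (hSH : SH3 p Om La f D) (s : Fin 3 → ℝ)
    {δ : ℝ≥0∞}
    (hE : ∫⁻ x in Om, ∑ l, ‖P3 (D x (Pi.single l 1)) - EuclideanSpace.single l (s l)‖ₑ ^ p ≤
      δ * volume Om) (j : Fin 2) :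
    ∫⁻ x in Om, ‖er D s j x‖ₑ ≤ δ ^ p⁻¹ * volume Om := by
  have hp0 : 0 < p := by linarith
  have hgm : AEMeasurable (fun x => ‖er D s j x‖ₑ) (volume.restrict Om) :=
    (((aemeas_of_loc (wd_comp hSH j).lg).aemeasurable).sub_const _).enorm
  have hfin : IsFiniteMeasure (volume.restrict Om) :=
    ⟨by rw [Measure.restrict_apply_univ]; exact hOmf.lt_top⟩
  have h1 := Crest.Agent.R96.En3_199.lintegral_rpow_le hgm hp
  rw [Measure.restrict_apply_univ] at h1
  have h2 : ∫⁻ x in Om, ‖er D s j x‖ₑ ^ p ≤ δ * volume Om := by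
    refine le_trans (lintegral_mono fun x => ?_) hE
    refine le_trans (ENNReal.rpow_le_rpow (er_le D s j x) hp0.le) ?_
    exact Finset.single_le_sum (f := fun l : Fin 3 =>
      ‖P3 (D x (Pi.single l 1)) - EuclideanSpace.single l (s l)‖ₑ ^ p) (fun _ _ => zero_le)
      (Finset.mem_univ j.castSucc)
  have h3 : (∫⁻ x in Om, ‖er D s j x‖ₑ) ^ p ≤ (δ ^ p⁻¹ * volume Om) ^ p := by
    refine h1.trans ?_
    rw [ENNReal.mul_rpow_of_nonneg _ _ hp0.le, ← ENNReal.rpow_mul, inv_mul_cancel₀ hp0.ne',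
      ENNReal.rpow_one]
    calc volume Om ^ (p - 1) * ∫⁻ x in Om, ‖er D s j x‖ₑ ^ p
        ≤ volume Om ^ (p - 1) * (δ * volume Om) := by gcongr
      _ = δ * (volume Om ^ (p - 1) * volume Om ^ (1:ℝ)) := by rw [ENNReal.rpow_one]; ring
      _ = δ * volume Om ^ p := by
          rw [← ENNReal.rpow_add_of_nonneg _ _ (by linarith) zero_le_one, sub_add_cancel]
  exact (ENNReal.rpow_le_rpow_iff hp0).1 h3

/-- average over a cube of side `r` of the function of `exists_endS` -/
theorem avg_le {S : E3 → ℝ≥0∞} {r : ℝ} (hr : 0 < r) {b : E3} {I : ℝ≥0∞}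
    (h : ∫⁻ a in bx b r, S a ≤ ENNReal.ofReal r * I) :
    (volume (bx b r))⁻¹ * ∫⁻ a in bx b r, S a ≤ ENNReal.ofReal (r⁻¹ ^ 2) * I := by
  have h0 : ENNReal.ofReal r ≠ 0 := by simpa using hr
  have h1 : ENNReal.ofReal r ≠ ⊤ := ENNReal.ofReal_ne_top
  rw [volume_bx]
  calc (ENNReal.ofReal r ^ 3)⁻¹ * ∫⁻ a in bx b r, S a
      ≤ (ENNReal.ofReal r ^ 3)⁻¹ * (ENNReal.ofReal r * I) := by gcongr
    _ = ENNReal.ofReal (r⁻¹ ^ 2) * I := by
        rw [← mul_assoc]
        congr 1
        rw [← ENNReal.ofReal_pow hr.le, ← ENNReal.ofReal_inv_of_pos (by positivity),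
          ← ENNReal.ofReal_mul (by positivity)]
        congr 1
        field_simp

/-- **the literal clause `ends` of `NONum`** -/
theorem ends_of {Om : Set E3} {f f1 g : E3 → E3} {s : Fin 3 → ℝ} {r ε h C0 : ℝ} {a : E3}
    {o : Fin 2 → ℤ} {M : ℕ} {Zs : Finset ℤ} {S : Fin 2 → E3 → ℝ≥0∞}
    (hS : ∀ j, EndB Om f s j r (S j) a) (hin : ∀ j, Ins Om j r a o M Zs) (hε : 0 ≤ ε)
    (hSa : ∀ j, S j a ≤ ENNReal.ofReal (ε / 2 * ((Zs.card : ℝ) * M)))
    (hf1 : ∀ m ∈ Zs, ∀ v : Fin 2 → ℕ, (∀ i, v i ≤ M) →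
      ‖f1 (vx a r o m v) - f (vx a r o m v)‖ ≤ h)
    (hg : ∀ m ∈ Zs, ∀ v : Fin 2 → ℕ, (∀ i, v i ≤ M) →
      ‖g (vx a r o m v) - f1 (vx a r o m v)‖ ≤ C0 * h)
    (hh : 2 * ((C0 + 1) * h) * (M + 1) ≤ ε / 2 * M) :
    ∀ j : Fin 2, ∑ m ∈ Zs, ∑ t ∈ Finset.range (M + 1),
      |(g (vx a r o m (fun i => if i = j then M else t)) -
        g (vx a r o m (fun i => if i = j then 0 else t))) j.castSucc - s j.castSucc * (M * r)| ≤
        ε * ((Zs.card : ℝ) * M) := by
  intro j
  have hgf : ∀ m ∈ Zs, ∀ v : Fin 2 → ℕ, (∀ i, v i ≤ M) →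
      |g (vx a r o m v) j.castSucc - f (vx a r o m v) j.castSucc| ≤ (C0 + 1) * h := by
    intro m hm v hv
    have h1 := norm_le_pi_norm (g (vx a r o m v) - f (vx a r o m v)) j.castSucc
    rw [Pi.sub_apply, Real.norm_eq_abs] at h1
    refine h1.trans ?_
    have h2 : g (vx a r o m v) - f (vx a r o m v) =
        (g (vx a r o m v) - f1 (vx a r o m v)) + (f1 (vx a r o m v) - f (vx a r o m v)) := by abel
    rw [h2]
    refine (norm_add_le _ _).trans ?_
    linarith [hf1 m hm v hv, hg m hm v hv]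
  -- the real sum for `f`
  set F : ℤ → ℕ → ℝ := fun m t => (f (vx a r o m (fun i => if i = j then M else t)) -
    f (vx a r o m (fun i => if i = j then 0 else t))) j.castSucc - s j.castSucc * (M * r) with hF
  have h1 : ∑ m ∈ Zs, ∑ t ∈ Finset.range (M + 1), |F m t| ≤ ε / 2 * ((Zs.card : ℝ) * M) := by
    have h2 := (hS j o M Zs (hin j)).trans (hSa j)
    have h3 : ∑ m ∈ Zs, ∑ t ∈ Finset.range (M + 1), ‖F m t‖ₑ =
        ENNReal.ofReal (∑ m ∈ Zs, ∑ t ∈ Finset.range (M + 1), |F m t|) := by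
      rw [ENNReal.ofReal_sum_of_nonneg fun m _ => Finset.sum_nonneg fun t _ => abs_nonneg _]
      refine Finset.sum_congr rfl fun m _ => ?_
      rw [ENNReal.ofReal_sum_of_nonneg fun t _ => abs_nonneg _]
      refine Finset.sum_congr rfl fun t _ => ?_
      rw [← Real.norm_eq_abs, ofReal_norm]
    change ∑ m ∈ Zs, ∑ t ∈ Finset.range (M + 1), ‖F m t‖ₑ ≤ _ at h2
    rw [h3] at h2
    exact (ENNReal.ofReal_le_ofReal_iff (by positivity)).1 h2
  calc ∑ m ∈ Zs, ∑ t ∈ Finset.range (M + 1),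
        |(g (vx a r o m (fun i => if i = j then M else t)) -
          g (vx a r o m (fun i => if i = j then 0 else t))) j.castSucc - s j.castSucc * (M * r)|
      ≤ ∑ m ∈ Zs, ∑ t ∈ Finset.range (M + 1), (|F m t| + 2 * ((C0 + 1) * h)) := by
        refine Finset.sum_le_sum fun m hm => Finset.sum_le_sum fun t ht => ?_
        have ht' : t ≤ M := Nat.lt_succ_iff.1 (Finset.mem_range.1 ht)
        have h4 := hgf m hm (fun i => if i = j then M else t) (fun i => by
          split_ifs <;> omega)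
        have h5 := hgf m hm (fun i => if i = j then 0 else t) (fun i => by
          split_ifs <;> omega)
        have h6 := abs_le.1 h4
        have h7 := abs_le.1 h5
        have h8 := abs_le.1 (le_refl |F m t|)
        simp only [hF, Pi.sub_apply] at h8 ⊢
        rw [abs_le]
        constructor <;> linarith [h6.1, h6.2, h7.1, h7.2, h8.1, h8.2]
    _ = ∑ m ∈ Zs, ∑ t ∈ Finset.range (M + 1), |F m t| +
          (Zs.card : ℝ) * (2 * ((C0 + 1) * h) * (M + 1)) := by
        simp only [Finset.sum_add_distrib, Finset.sum_const, Finset.card_range, nsmul_eq_mul]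
        push_cast
        ring
    _ ≤ ε / 2 * ((Zs.card : ℝ) * M) + (Zs.card : ℝ) * (ε / 2 * M) := by gcongr
    _ = ε * ((Zs.card : ℝ) * M) := by ring

end Crest.Agent.R096.Nend_458
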