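import Mathlib

/-!
Row 96 (S0127), helper98.  **Finite net of rational linear isomorphisms** (R3a of 695 #10261) and
rounding of translations to a lattice.  Abstract version for a normed space with coordinates
`φ : E ≃L[ℝ] (Fin n → ℝ)` such that `|φ v j| ≤ ‖v‖ ≤ ∑ |φ v j|`; instances: `Fin n → ℝ` (sup norm)
and `EuclideanSpace ℝ (Fin n)`.
-/

set_option autoImplicit false
set_option linter.unusedSectionVars false
set_option linter.style.longLine false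

open Set Metric Finset

namespace Crest.Agent.R096.Net_98

noncomputable section

/-- coordinates of a normed space: `|φ v j| ≤ ‖v‖ ≤ ∑ |φ v j|` -/
structure Co (n : ℕ) (E : Type) [NormedAddCommGroup E] [NormedSpace ℝ E] where
  φ : E ≃L[ℝ] (Fin n → ℝ)
  le : ∀ v j, |φ v j| ≤ ‖v‖
  ge : ∀ v, ‖v‖ ≤ ∑ j, |φ v j|

variable {n : ℕ} {E : Type} [NormedAddCommGroup E] [NormedSpace ℝ E]

/-- the sup norm -/
def Co.pi (n : ℕ) : Co n (Fin n → ℝ) where
  φ := ContinuousLinearEquiv.refl ℝ _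
  le v j := by
    have := norm_le_pi_norm v j
    simpa using this
  ge v := by
    refine (pi_norm_le_iff_of_nonneg (by positivity)).2 fun j => ?_
    have : |v j| ≤ ∑ j, |v j| :=
      Finset.single_le_sum (f := fun j => |v j|) (fun _ _ => abs_nonneg _) (Finset.mem_univ j)
    simpa using this

/-- the Euclidean norm -/
def Co.eu (n : ℕ) : Co n (EuclideanSpace ℝ (Fin n)) where
  φ := EuclideanSpace.equiv (Fin n) ℝ
  le v j := by
    have := PiLp.norm_apply_le v j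
    simpa using this
  ge v := by
    have h := EuclideanSpace.norm_eq v
    rw [h]
    refine Real.sqrt_le_iff.2 ⟨by positivity, ?_⟩
    have : ∑ i, ‖v i‖ ^ 2 ≤ (∑ i, ‖v i‖) ^ 2 := by
      refine Finset.sum_sq_le_sq_sum_of_nonneg ?_
      intro i _
      positivity
    simpa using this

namespace Co

variable (C : Co n E)

/-- the linear map with matrix `m` -/
def mp (m : Fin n → Fin n → ℝ) : E →L[ℝ] E :=
  C.φ.symm.toContinuousLinearMap.comp
    ((LinearMap.toContinuousLinearMap (Matrix.mulVecLin (Matrix.of m))).comp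
      C.φ.toContinuousLinearMap)

theorem φ_mp (m : Fin n → Fin n → ℝ) (v : E) (i : Fin n) :
    C.φ (C.mp m v) i = ∑ j, m i j * C.φ v j := by
  simp [mp, Matrix.mulVec, dotProduct]

/-- entries of a linear map -/
def en (L : E →L[ℝ] E) (i j : Fin n) : ℝ := C.φ (L (C.φ.symm (Pi.single j 1))) i

theorem norm_symm_single (j : Fin n) : ‖C.φ.symm (Pi.single j 1)‖ ≤ 1 := by
  refine (C.ge _).trans ?_
  rw [Finset.sum_eq_single j]
  · simp
  · intro i _ hi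
    simp [Pi.single_eq_of_ne hi]
  · intro h
    exact absurd (Finset.mem_univ j) h

theorem φ_apply (L : E →L[ℝ] E) (v : E) (i : Fin n) :
    C.φ (L v) i = ∑ j, C.en L i j * C.φ v j := by
  have h1 : v = ∑ j, C.φ v j • C.φ.symm (Pi.single j 1) := by
    apply C.φ.injective
    rw [map_sum]
    funext i
    simp only [map_smul, ContinuousLinearEquiv.apply_symm_apply, Finset.sum_apply, Pi.smul_apply,
      smul_eq_mul]
    rw [Finset.sum_eq_single i]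
    · simp
    · intro j _ hj
      simp [Pi.single_eq_of_ne hj.symm]
    · intro h
      exact absurd (Finset.mem_univ i) h
  conv_lhs => rw [h1]
  rw [map_sum, map_sum, Finset.sum_apply]
  refine Finset.sum_congr rfl fun j _ => ?_
  rw [map_smul, map_smul, Pi.smul_apply, smul_eq_mul, mul_comm]
  rfl

theorem abs_en_le (L : E →L[ℝ] E) (i j : Fin n) : |C.en L i j| ≤ ‖L‖ := by
  refine (C.le _ i).trans ?_
  refine (L.le_opNorm _).trans ?_
  have := C.norm_symm_single j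
  nlinarith [norm_nonneg L]

theorem norm_le_of_en {L : E →L[ℝ] E} {δ : ℝ} (h0 : 0 ≤ δ) (h : ∀ i j, |C.en L i j| ≤ δ) :
    ‖L‖ ≤ n * n * δ := by
  refine L.opNorm_le_bound (by positivity) fun v => ?_
  refine (C.ge _).trans ?_
  calc ∑ i, |C.φ (L v) i| ≤ ∑ _i : Fin n, n * δ * ‖v‖ := by
        refine Finset.sum_le_sum fun i _ => ?_
        rw [φ_apply]
        refine (Finset.abs_sum_le_sum_abs _ _).trans ?_
        calc ∑ j, |C.en L i j * C.φ v j| ≤ ∑ _j : Fin n, δ * ‖v‖ := by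
              refine Finset.sum_le_sum fun j _ => ?_
              rw [abs_mul]
              exact mul_le_mul (h i j) (C.le v j) (abs_nonneg _) h0
          _ = n * δ * ‖v‖ := by
              rw [Finset.sum_const, Finset.card_univ, Fintype.card_fin, nsmul_eq_mul]
              ring
    _ = n * n * δ * ‖v‖ := by
        rw [Finset.sum_const, Finset.card_univ, Fintype.card_fin, nsmul_eq_mul]
        ring

theorem en_mp (m : Fin n → Fin n → ℝ) (i j : Fin n) : C.en (C.mp m) i j = m i j := by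
  unfold en
  rw [φ_mp, Finset.sum_eq_single j]
  · simp
  · intro k _ hk
    simp [Pi.single_eq_of_ne hk]
  · intro h
    exact absurd (Finset.mem_univ j) h

theorem en_sub (L M : E →L[ℝ] E) (i j : Fin n) : C.en (L - M) i j = C.en L i j - C.en M i j := by
  simp [en]

/-- the rational linear map with matrix `c / d` -/
def ra (c : Fin n → Fin n → ℤ) (d : ℕ) : E →L[ℝ] E := C.mp fun i j => (c i j : ℝ) / d

theorem φ_ra (c : Fin n → Fin n → ℤ) (d : ℕ) (v : E) (i : Fin n) :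
    C.φ (C.ra c d v) i = ∑ j, ((c i j : ℝ) / d) * C.φ v j := C.φ_mp _ v i

/-- rounding the matrix -/
theorem exists_ra (L : E →L[ℝ] E) {d : ℕ} (hd : 0 < d) : ∃ c : Fin n → Fin n → ℤ,
    ‖C.ra c d - L‖ ≤ n * n / d ∧ ∀ i j, |c i j| ≤ ⌈d * ‖L‖⌉ + 1 := by
  have hd' : (0:ℝ) < d := by exact_mod_cast hd
  refine ⟨fun i j => round (d * C.en L i j), ?_, fun i j => ?_⟩
  · have := C.norm_le_of_en (L := C.ra (fun i j => round (d * C.en L i j)) d - L) (δ := 1 / d)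
      (by positivity) (fun i j => ?_)
    · calc _ ≤ _ := this
        _ = _ := by ring
    · rw [en_sub]
      unfold ra
      rw [en_mp]
      have h1 := abs_sub_round (d * C.en L i j)
      have h2 : (round (d * C.en L i j) : ℝ) / d - C.en L i j
          = -((d * C.en L i j) - round (d * C.en L i j)) / d := by
        field_simp
        ring
      rw [h2, abs_div, abs_neg, abs_of_pos hd']
      gcongr
      linarith
  · have h1 := abs_sub_round (d * C.en L i j)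
    have h2 : |(round (d * C.en L i j) : ℝ)| ≤ |d * C.en L i j| + 1 / 2 := by
      have := abs_sub_abs_le_abs_sub ((round (d * C.en L i j) : ℝ)) (d * C.en L i j)
      rw [abs_sub_comm] at this
      linarith
    have h3 : |d * C.en L i j| ≤ d * ‖L‖ := by
      rw [abs_mul, abs_of_pos hd']
      have := C.abs_en_le L i j
      gcongr
    have h4 := Int.le_ceil (d * ‖L‖)
    have h5 : ((|round (d * C.en L i j)| : ℤ) : ℝ) ≤ ((⌈d * ‖L‖⌉ + 1 : ℤ) : ℝ) := by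
      push_cast
      linarith
    exact_mod_cast h5

end Co

/-- a linear map bounded below (finite dimension) is an isomorphism -/
theorem exists_equiv [FiniteDimensional ℝ E] {M : E →L[ℝ] E} {κ : ℝ} (hκ : 0 < κ)
    (h : ∀ v, κ * ‖v‖ ≤ ‖M v‖) : ∃ e : E ≃L[ℝ] E, (e : E →L[ℝ] E) = M ∧
      (∀ v, e v = M v) ∧ (∀ v, ‖e.symm v‖ ≤ κ⁻¹ * ‖v‖) ∧ ‖(e.symm : E →L[ℝ] E)‖ ≤ κ⁻¹ := by
  have hinj : Function.Injective (M : E →ₗ[ℝ] E) := by
    rw [← LinearMap.ker_eq_bot, LinearMap.ker_eq_bot']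
    intro v hv
    have hv' : M v = 0 := hv
    have h1 := h v
    rw [hv', norm_zero] at h1
    have : ‖v‖ ≤ 0 := by
      by_contra hc
      push Not at hc
      have := mul_pos hκ hc
      linarith
    exact norm_le_zero_iff.1 this
  let e0 : E ≃ₗ[ℝ] E := LinearEquiv.ofInjectiveEndo (M : E →ₗ[ℝ] E) hinj
  let e : E ≃L[ℝ] E := e0.toContinuousLinearEquiv
  have hev : ∀ v, e v = M v := fun v => rfl
  have hs : ∀ v, ‖e.symm v‖ ≤ κ⁻¹ * ‖v‖ := by
    intro v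
    have h1 := h (e.symm v)
    rw [← hev, ContinuousLinearEquiv.apply_symm_apply] at h1
    rw [← div_eq_inv_mul, le_div_iff₀ hκ]
    linarith
  refine ⟨e, ?_, hev, hs, ?_⟩
  · ext v
    exact hev v
  · refine ContinuousLinearMap.opNorm_le_bound _ (by positivity) fun v => ?_
    exact hs v

/-- **finite net of rational linear isomorphisms** with a common denominator -/
theorem net [FiniteDimensional ℝ E] (C : Co n E) {κ ρ : ℝ} (hκ : 0 < κ) (hρ : 0 < ρ) :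
    ∃ d : ℕ, 0 < d ∧ ∃ 𝒜 : Set (E →L[ℝ] E), 𝒜.Finite ∧
      (∀ M ∈ 𝒜, (∃ c : Fin n → Fin n → ℤ, M = C.ra c d) ∧ (∀ v, κ / 2 * ‖v‖ ≤ ‖M v‖) ∧
        ‖M‖ ≤ 2 * κ⁻¹) ∧
      ∀ L : E →L[ℝ] E, (∀ v, κ * ‖v‖ ≤ ‖L v‖) → ‖L‖ ≤ κ⁻¹ → ∃ M ∈ 𝒜, ‖M - L‖ ≤ ρ := by
  set δ : ℝ := min ρ (min (κ / 2) κ⁻¹) with hδ
  have hδ0 : 0 < δ := lt_min hρ (lt_min (by positivity) (by positivity))
  obtain ⟨d0, hd0⟩ := exists_nat_gt (n * n / δ)
  set d : ℕ := d0 + 1
  have hd : 0 < d := Nat.succ_pos _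
  have hd' : (0:ℝ) < d := by exact_mod_cast hd
  have hnd : (n * n : ℝ) / d ≤ δ := by
    rw [div_le_iff₀ hd']
    rw [div_lt_iff₀ hδ0] at hd0
    have : (d : ℝ) = d0 + 1 := by simp [d]
    rw [this]
    nlinarith
  set B : ℤ := ⌈d * κ⁻¹⌉ + 1
  let F : Set (Fin n → Fin n → ℤ) := Set.Icc (fun _ _ => -B) (fun _ _ => B)
  refine ⟨d, hd, {M | M ∈ (fun c => C.ra c d) '' F ∧ (∀ v, κ / 2 * ‖v‖ ≤ ‖M v‖) ∧
      ‖M‖ ≤ 2 * κ⁻¹}, ?_, ?_, ?_⟩
  · exact ((Set.finite_Icc _ _).image _).subset fun M hM => hM.1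
  · rintro M ⟨⟨c, _, rfl⟩, h2, h3⟩
    exact ⟨⟨c, rfl⟩, h2, h3⟩
  · intro L h1 h2
    obtain ⟨c, hc, hb⟩ := C.exists_ra L hd
    have hc' : ‖C.ra c d - L‖ ≤ δ := hc.trans hnd
    have hc1 : ‖C.ra c d - L‖ ≤ ρ := hc'.trans (min_le_left _ _)
    have hc2 : ‖C.ra c d - L‖ ≤ κ / 2 := hc'.trans ((min_le_right _ _).trans (min_le_left _ _))
    have hc3 : ‖C.ra c d - L‖ ≤ κ⁻¹ := hc'.trans ((min_le_right _ _).trans (min_le_right _ _))
    refine ⟨C.ra c d, ⟨⟨c, ?_, rfl⟩, fun v => ?_, ?_⟩, hc1⟩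
    · have hB : ∀ i j, |c i j| ≤ B := by
        intro i j
        refine (hb i j).trans ?_
        have : ⌈(d:ℝ) * ‖L‖⌉ ≤ ⌈(d:ℝ) * κ⁻¹⌉ := Int.ceil_le_ceil (by gcongr)
        simpa [B] using this
      exact ⟨fun i j => (abs_le.1 (hB i j)).1, fun i j => (abs_le.1 (hB i j)).2⟩
    · have h4 : ‖L v‖ ≤ ‖C.ra c d v‖ + κ / 2 * ‖v‖ := by
        have h5 : L v = C.ra c d v - (C.ra c d - L) v := by simp
        rw [h5]
        refine (norm_sub_le _ _).trans ?_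
        have := (C.ra c d - L).le_of_opNorm_le hc2 v
        linarith
      have h6 := h1 v
      linarith
    · have h4 : C.ra c d = (C.ra c d - L) + L := by simp
      rw [h4]
      refine (norm_add_le _ _).trans ?_
      linarith

/-- rounding of a vector to the lattice `t ℤⁿ` (in the coordinates) -/
theorem exists_lattice (C : Co n E) {t : ℝ} (ht : 0 < t) (b : E) : ∃ z : Fin n → ℤ,
    (∀ i, |C.φ b i - t * z i| ≤ t / 2) ∧ ‖b - C.φ.symm (fun i => t * z i)‖ ≤ n * (t / 2) := by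
  refine ⟨fun i => round (C.φ b i / t), ?_, ?_⟩
  · intro i
    have h := abs_sub_round (C.φ b i / t)
    have h2 : C.φ b i - t * round (C.φ b i / t) = t * (C.φ b i / t - round (C.φ b i / t)) := by
      field_simp
    rw [h2, abs_mul, abs_of_pos ht]
    nlinarith
  · refine (C.ge _).trans ?_
    calc ∑ i, |C.φ (b - C.φ.symm (fun i => t * (round (C.φ b i / t) : ℤ))) i|
        ≤ ∑ _i : Fin n, t / 2 := by
          refine Finset.sum_le_sum fun i _ => ?_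
          rw [map_sub, ContinuousLinearEquiv.apply_symm_apply, Pi.sub_apply]
          have h := abs_sub_round (C.φ b i / t)
          have h2 : C.φ b i - t * round (C.φ b i / t)
              = t * (C.φ b i / t - round (C.φ b i / t)) := by
            field_simp
          rw [h2, abs_mul, abs_of_pos ht]
          nlinarith
      _ = n * (t / 2) := by
          rw [Finset.sum_const, Finset.card_univ, Fintype.card_fin, nsmul_eq_mul]

/-- the affine maps are close on a cube: `‖(b' + M (x - z)) - (b + L (x - z))‖ ≤ ‖b' - b‖ + ρ R` -/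
theorem aff_close {M L : E →L[ℝ] E} {ρ R : ℝ} (h : ‖M - L‖ ≤ ρ) (b b' z : E) {x : E}
    (hx : ‖x - z‖ ≤ R) : ‖(b' + M (x - z)) - (b + L (x - z))‖ ≤ ‖b' - b‖ + ρ * R := by
  have h1 : (b' + M (x - z)) - (b + L (x - z)) = (b' - b) + (M - L) (x - z) := by
    rw [sub_apply]
    abel
  rw [h1]
  refine (norm_add_le _ _).trans ?_
  have h2 := (M - L).le_of_opNorm_le h (x - z)
  have h3 : 0 ≤ ρ := (norm_nonneg _).trans h
  have : ρ * ‖x - z‖ ≤ ρ * R := mul_le_mul_of_nonneg_left hx h3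
  linarith

/-- the two coordinate systems give the same matrices -/
theorem equiv_ra (c : Fin n → Fin n → ℤ) (d : ℕ) (v : EuclideanSpace ℝ (Fin n)) :
    (fun i => ((Co.eu n).ra c d v) i) = (Co.pi n).ra c d (fun i => v i) := by
  funext i
  have h1 := (Co.eu n).φ_ra c d v i
  have h2 := (Co.pi n).φ_ra c d (fun i => v i) i
  exact h1.trans h2.symm

/-- the affine isomorphism `x ↦ b + M (x - z)` -/
theorem exists_aff (e : E ≃L[ℝ] E) (b z : E) : ∃ A : E ≃ᵃ[ℝ] E, (∀ x, A x = b + e (x - z)) ∧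
    A.linear = e.toLinearEquiv := by
  refine ⟨((AffineEquiv.constVAdd ℝ E (-z)).trans e.toLinearEquiv.toAffineEquiv).trans
    (AffineEquiv.constVAdd ℝ E b), fun x => ?_, ?_⟩
  · simp [sub_eq_neg_add]
  · ext v
    rfl

/-- **net in `EuclideanSpace ℝ (Fin 3)`** -/
theorem net_R3 {κ ρ : ℝ} (hκ : 0 < κ) (hρ : 0 < ρ) :
    ∃ d : ℕ, 0 < d ∧ ∃ 𝒜 : Set (EuclideanSpace ℝ (Fin 3) →L[ℝ] EuclideanSpace ℝ (Fin 3)), 𝒜.Finite ∧
      (∀ M ∈ 𝒜, (∃ c : Fin 3 → Fin 3 → ℤ, M = (Co.eu 3).ra c d ∧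
          ∀ v i, M v i = ∑ j, ((c i j : ℝ) / d) * v j) ∧ (∀ v, κ / 2 * ‖v‖ ≤ ‖M v‖) ∧
        ‖M‖ ≤ 2 * κ⁻¹) ∧
      ∀ L : EuclideanSpace ℝ (Fin 3) →L[ℝ] EuclideanSpace ℝ (Fin 3), (∀ v, κ * ‖v‖ ≤ ‖L v‖) →
        ‖L‖ ≤ κ⁻¹ → ∃ M ∈ 𝒜, ‖M - L‖ ≤ ρ := by
  obtain ⟨d, hd, 𝒜, h1, h2, h3⟩ := net (Co.eu 3) hκ hρ
  refine ⟨d, hd, 𝒜, h1, fun M hM => ?_, h3⟩
  obtain ⟨⟨c, hc⟩, h4, h5⟩ := h2 M hM
  refine ⟨⟨c, hc, fun v i => ?_⟩, h4, h5⟩
  rw [hc]
  exact (Co.eu 3).φ_ra c d v i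

/-- **net in `Fin 3 → ℝ`** (sup norm) -/
theorem net_E3 {κ ρ : ℝ} (hκ : 0 < κ) (hρ : 0 < ρ) :
    ∃ d : ℕ, 0 < d ∧ ∃ 𝒜 : Set ((Fin 3 → ℝ) →L[ℝ] (Fin 3 → ℝ)), 𝒜.Finite ∧
      (∀ M ∈ 𝒜, (∃ c : Fin 3 → Fin 3 → ℤ, M = (Co.pi 3).ra c d ∧
          ∀ v i, M v i = ∑ j, ((c i j : ℝ) / d) * v j) ∧ (∀ v, κ / 2 * ‖v‖ ≤ ‖M v‖) ∧
        ‖M‖ ≤ 2 * κ⁻¹) ∧
      ∀ L : (Fin 3 → ℝ) →L[ℝ] (Fin 3 → ℝ), (∀ v, κ * ‖v‖ ≤ ‖L v‖) →
        ‖L‖ ≤ κ⁻¹ → ∃ M ∈ 𝒜, ‖M - L‖ ≤ ρ := by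
  obtain ⟨d, hd, 𝒜, h1, h2, h3⟩ := net (Co.pi 3) hκ hρ
  refine ⟨d, hd, 𝒜, h1, fun M hM => ?_, h3⟩
  obtain ⟨⟨c, hc⟩, h4, h5⟩ := h2 M hM
  refine ⟨⟨c, hc, fun v i => ?_⟩, h4, h5⟩
  rw [hc]
  exact (Co.pi 3).φ_ra c d v i

/-- rounding to the lattice `t ℤ³`, Euclidean norm -/
theorem lattice_R3 {t : ℝ} (ht : 0 < t) (b : EuclideanSpace ℝ (Fin 3)) : ∃ z : Fin 3 → ℤ,
    (∀ i, |b i - t * z i| ≤ t / 2) ∧ ∃ b' : EuclideanSpace ℝ (Fin 3), (∀ i, b' i = t * z i) ∧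
      ‖b' - b‖ ≤ 3 / 2 * t := by
  obtain ⟨z, h1, h2⟩ := exists_lattice (Co.eu 3) ht b
  refine ⟨z, h1, (Co.eu 3).φ.symm fun i => t * z i, fun i => ?_, ?_⟩
  · have := congrFun ((Co.eu 3).φ.apply_symm_apply (fun i => t * (z i : ℝ))) i
    exact this
  · rw [norm_sub_rev]
    refine h2.trans (le_of_eq ?_)
    push_cast
    ring

/-- rounding to the lattice `t ℤ³`, sup norm -/
theorem lattice_E3 {t : ℝ} (ht : 0 < t) (b : Fin 3 → ℝ) : ∃ z : Fin 3 → ℤ,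
    (∀ i, |b i - t * z i| ≤ t / 2) ∧ ‖(fun i => t * (z i : ℝ)) - b‖ ≤ t / 2 := by
  obtain ⟨z, h1, _⟩ := exists_lattice (Co.pi 3) ht b
  refine ⟨z, h1, ?_⟩
  refine (pi_norm_le_iff_of_nonneg (by positivity)).2 fun i => ?_
  have := h1 i
  rw [Real.norm_eq_abs, Pi.sub_apply, abs_sub_comm]
  exact this

end

end Crest.Agent.R096.Net_98
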