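import Crest.Agent.R096.Seq2_213

/-!
Row 96 (S0127), helper150.  DOORS, step (N5) of helper18's NEX (post 12226): `H1` of a real sheet and the
trace curves `C` on the frontier of the cores.

`K` = cells inside the cores, `O` = the outer part of the sheet `i` (closed under and connected by the chords
on the faces which are not inside `K`), `C` = a union of trace curves, `B` = any set of points.
-/

set_option autoImplicit false

namespace Crest.Agent.R096.Nex_150

open Crest.Agent.R096.St_147 Crest.Agent.R096.Seq_213 Crest.Agent.R096.Seq_213.GSt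

variable {ι Φ W J Cc : Type} {M : MeshC ι Φ W} {fam : J → Cc}

theorem z2 (a : ZMod 2) : a = 0 ∨ a = 1 := by
  revert a; decide

theorem z2_add_eq {a b c : ZMod 2} (h : a = b + c) : c = a + b := by
  subst h
  revert b c; decide

open Classical in
/-- **(N5a)** : the two-colouring of the sheet by the trace curves `C`: constant on the outer part `O`,
constant along the outer chords, changed by the inner chords exactly at the points of `C` -/
theorem exists_psi {s : GSt M fam} {i : J} (h1 : s.H1 i) {K : Set ι} {O C : Set W}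
    (hOc : ∀ Y : Set W, (∀ F w, w ∈ Y → s.At F w → s.lab w = i → ¬ Inner M K F → s.mu F w ∈ Y) →
      ∀ x ∈ O, x ∈ Y → O ⊆ Y)
    (hC : ∀ F w, w ∈ C → s.At F w → s.lab w = i → ¬ Inner M K F → (∃ q ∈ M.side F, q ∈ K) →
      s.mu F w ∈ C) :
    ∃ (Ψ : W → ZMod 2) (c0 : ZMod 2), (∀ x ∈ O, Ψ x = c0) ∧
      (∀ F w, s.At F w → s.lab w = i → ¬ Inner M K F → Ψ (s.mu F w) = Ψ w) ∧
      ∀ F w, s.At F w → s.lab w = i → Inner M K F →
        Ψ (s.mu F w) = Ψ w + ((if w ∈ C then 1 else 0) + if s.mu F w ∈ C then 1 else 0) := by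
  let χ : W → ZMod 2 := fun w => if w ∈ C then 1 else 0
  let κ : Φ → W → ZMod 2 := fun F w => if Inner M K F then χ w + χ (s.mu F w) else 0
  have hsym : ∀ F w, s.At F w → s.lab w = i → ¬ Inner M K F → (∃ q ∈ M.side F, q ∈ K) →
      χ w = χ (s.mu F w) := by
    intro F w hA hl hn hq
    have h : w ∈ C ↔ s.mu F w ∈ C := by
      refine ⟨fun h => hC F w h hA hl hn hq, fun h => ?_⟩
      have h2 := hC F (s.mu F w) h (s.mu_mem hA.1 hA.2) ((s.mu_lab hA.1 hA.2).trans hl) hn hq
      rwa [s.mu_mu hA.1 hA.2] at h2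
    show (if w ∈ C then (1 : ZMod 2) else 0) = if s.mu F w ∈ C then 1 else 0
    by_cases h3 : w ∈ C
    · rw [if_pos h3, if_pos (h.1 h3)]
    · rw [if_neg h3, if_neg fun h4 => h3 (h.2 h4)]
  have hz : ∀ a : ZMod 2, a + a = 0 := by decide
  obtain ⟨Ψ, hΨ⟩ := h1 κ (by
    intro q
    by_cases hq : q ∈ K
    · refine ⟨χ, fun F w hF hA hl => ?_⟩
      show (if Inner M K F then χ w + χ (s.mu F w) else 0) = _
      by_cases hI : Inner M K F
      · rw [if_pos hI]
      · rw [if_neg hI, ← hsym F w hA hl hI ⟨q, hF, hq⟩, hz]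
    · refine ⟨fun _ => 0, fun F w hF hA hl => ?_⟩
      show (if Inner M K F then χ w + χ (s.mu F w) else 0) = _
      rw [if_neg fun hI => hq (hI q hF)]
      simp)
  have hout : ∀ F w, s.At F w → s.lab w = i → ¬ Inner M K F → Ψ (s.mu F w) = Ψ w := by
    intro F w hA hl hn
    have h := hΨ F w hA hl
    change (if Inner M K F then χ w + χ (s.mu F w) else 0) = _ at h
    rw [if_neg hn] at h
    have h2 := z2_add_eq h
    rw [h2, zero_add]
  have hin : ∀ F w, s.At F w → s.lab w = i → Inner M K F →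
      Ψ (s.mu F w) = Ψ w + (χ w + χ (s.mu F w)) := by
    intro F w hA hl hI
    have h := hΨ F w hA hl
    change (if Inner M K F then χ w + χ (s.mu F w) else 0) = _ at h
    rw [if_pos hI] at h
    have h2 := z2_add_eq h
    rw [h2, add_comm]
  by_cases hO : O.Nonempty
  · obtain ⟨x0, hx0⟩ := hO
    refine ⟨Ψ, Ψ x0, ?_, hout, hin⟩
    have := hOc {y | Ψ y = Ψ x0} (fun F w hw hA hl hn => (hout F w hA hl hn).trans hw) x0 hx0 rfl
    exact fun x hx => this hx
  · exact ⟨Ψ, 0, fun x hx => absurd ⟨x, hx⟩ hO, hout, hin⟩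

/-- **(N5)** : the set `G` = the points of `B` on the outer part together with the pieces of the sheet which
hang at the trace curves of `C`; it is closed under ALL chords on the faces of the zone `Z` -/
theorem exists_G {s : GSt M fam} {i : J} (h1 : s.H1 i) {K : Set ι} {O C B : Set W} {Z : Set Φ}
    (hO : ∀ F w, w ∈ O → s.At F w → s.lab w = i → ¬ Inner M K F → s.mu F w ∈ O)
    (hOc : ∀ Y : Set W, (∀ F w, w ∈ Y → s.At F w → s.lab w = i → ¬ Inner M K F → s.mu F w ∈ Y) →
      ∀ x ∈ O, x ∈ Y → O ⊆ Y)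
    (hCO : C ⊆ O)
    (hC : ∀ F w, w ∈ C → s.At F w → s.lab w = i → ¬ Inner M K F → (∃ q ∈ M.side F, q ∈ K) →
      s.mu F w ∈ C)
    (hB : ∀ F ∈ Z, ∀ w ∈ O, w ∈ B → s.At F w → s.lab w = i → ¬ Inner M K F → s.mu F w ∈ B)
    (hBC : ∀ F ∈ Z, Inner M K F → ∀ w ∈ O, s.At F w → s.lab w = i → (w ∈ B ↔ w ∈ C)) :
    ∃ G : Set W, (∀ x ∈ O, x ∈ G ↔ x ∈ B) ∧
      ∀ F ∈ Z, ∀ w ∈ G, s.At F w → s.lab w = i → s.mu F w ∈ G := by
  classical
  obtain ⟨Ψ, c0, p1, p2, p3⟩ := exists_psi h1 hOc hC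
  refine ⟨{x | (x ∈ O ∧ x ∈ B) ∨ (x ∉ O ∧ Ψ x = c0 + 1)}, fun x hx => ?_, ?_⟩
  · constructor
    · rintro (h | h)
      · exact h.2
      · exact absurd hx h.1
    · exact fun h => Or.inl ⟨hx, h⟩
  intro F hF w hw hA hl
  have hA' := s.mu_mem hA.1 hA.2
  have hl' : s.lab (s.mu F w) = i := (s.mu_lab hA.1 hA.2).trans hl
  have hmm := s.mu_mu hA.1 hA.2
  have hne : ∀ a : ZMod 2, a ≠ a + 1 := by decide
  by_cases hI : Inner M K F
  · have key := p3 F w hA hl hI
    rcases hw with ⟨hwO, hwB⟩ | ⟨hwO, hwΨ⟩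
    · have hwC : w ∈ C := (hBC F hF hI w hwO hA hl).1 hwB
      rw [if_pos hwC, p1 w hwO] at key
      by_cases hy : s.mu F w ∈ O
      · refine Or.inl ⟨hy, (hBC F hF hI _ hy hA' hl').2 ?_⟩
        by_contra h
        rw [if_neg h, p1 _ hy, add_zero] at key
        exact hne c0 key
      · refine Or.inr ⟨hy, ?_⟩
        rw [if_neg fun h => hy (hCO h), add_zero] at key
        exact key
    · rw [if_neg fun h => hwO (hCO h), zero_add, hwΨ] at key
      by_cases hy : s.mu F w ∈ O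
      · refine Or.inl ⟨hy, (hBC F hF hI _ hy hA' hl').2 ?_⟩
        by_contra h
        rw [if_neg h, p1 _ hy, add_zero] at key
        exact hne c0 key
      · refine Or.inr ⟨hy, ?_⟩
        rw [if_neg fun h => hy (hCO h), add_zero] at key
        exact key
  · rcases hw with ⟨hwO, hwB⟩ | ⟨hwO, hwΨ⟩
    · exact Or.inl ⟨hO F w hwO hA hl hI, hB F hF w hwO hwB hA hl hI⟩
    · refine Or.inr ⟨fun h => hwO ?_, (p2 F w hA hl hI).trans hwΨ⟩
      have := hO F _ h hA' hl' hI
      rwa [hmm] at this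

end Crest.Agent.R096.Nex_150
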