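import Crest.Agent.R096.Nef3_778
import Crest.Agent.R096.Nefg1_628
import Crest.Agent.R096.Nvm1_985
import Crest.Agent.R096.Afr1_112
import Crest.Agent.R096.Hop1_895

/-!
# R096 (row 96), DOORS, NE1 (helper602): `NE1M` from the leaves of 778 #12223
-/

set_option autoImplicit false
set_option linter.unusedSectionVars false
set_option linter.unusedVariables false
set_option linter.style.longLine false

open Set Topology Filter Metric Module Relation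
open scoped Classical

namespace Crest.Agent.R096.Nez_602

open Crest.Agent.R096.Msh_715 Crest.Agent.R096.Agl5_543 Crest.Agent.R096.St_147
  Crest.Agent.R096.Seq_213 Crest.Agent.R096.Door_501 Crest.Agent.R096.Sla_184
  Crest.Agent.R096.Twr_438 Crest.Agent.R096.Exa_560 Crest.Agent.R096.Ess3_95
  Crest.Agent.R096.Ess4_95 Crest.Agent.R096.Dfi_539 Crest.Agent.R096.Dfi_471
  Crest.Agent.R096.Coh_184 Crest.Agent.R096.Lab_184
  Crest.Agent.R096.Cns_778 Crest.Agent.R096.Hop_895 Crest.Agent.R096.Nef_778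
open Crest.Agent.R096.Brk1_582 Crest.Agent.R096.Brk2_582 Crest.Agent.R096.Brk3_582
  Crest.Agent.R096.Brk5_582 Crest.Agent.R096.Bsp_628 Crest.Agent.R096.Init_543
  Crest.Agent.R096.Bar_106 Crest.Agent.R096.Dib_438
  Crest.Agent.R096.Ess5_95 Crest.Agent.R096.Bgf_4 Crest.Agent.R096.Ebr1_95
  Crest.Agent.R096.Ebr4_95 Crest.Agent.R096.Rop_441 Crest.Agent.R096.Nmd1_698
open Crest.Agent.R096.Sgo_298 (RmA rout ActR)
open Crest.Agent.R096.Mbf_337 (sb KJ Tiny gau Cores Fine)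
open Crest.Agent.R096.SkC1_961 (E3 FoamD Hom3)
open Crest.Agent.R096.Frn_337 (Ti)
open Crest.Agent.R096.Frs_662 (slC)
open Crest.Agent.R096.Ess7_95 (KT Sh)
open Crest.Agent.R096.Bmf_416 (coT)
open Crest.Agent.R096.Sde_422 (gR)

theorem ne1M : NE1M := by
  intro δ κ0 R c0 κ2 κ3 κp μ κ1 Om La f g hLa Φ ι T X J0 J V ct A lam z θ φ M hC ct' r₀ hR hM h1 h2 L
    _ hG D bp lam₀ v₀ v₁ r v0 v1 ρ1 ρ2 ρ3 ρ4 d q₀ ε bm hGB v0B v1B n hn Lv Tw MM _ hnC l0' m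
  have N := MM.N
  have H := hR.hm
  have bar := MM.bar
  have hμ := N.hμ
  have hμb := N.hμb
  have hRm := rmA_of bar
  have hr := hRm m.co m.co_notMem
  have hd := hr.d0
  have hr1 := hr.r1
  have hr12 := hr.r12
  have hr23 := hr.r23
  have hr34 := hr.r34
  have hT := hC.tiny m.co m.co_notMem
  have hZ := Sde_422.bz_rec N H hLa hC bar m
  obtain ⟨pl, hP⟩ := bz_pol hLa H hC m.co_notMem hZ
  have U := upp_m (hLa := hLa) (hC := hC) (n := n) (hn := hn) (r := r) hR hμ MM.lev bar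
  obtain ⟨c1, c2, c3, c4, c5, c6, c7⟩ := caps bar.barF bar.lv m
  by_contra hcon
  push Not at hcon
  -- the set of the enclosed points
  set Y : Set E3 := {x | Dfo_539.Encl (s2 (slC hLa hC n hn) fr3 Tw l0') BM.am
    (fun _ => ActR (slC hLa hC n hn) (Rdc T f Xᶜ (rout ρ3 d))) m x} with hYdef
  have hY1 : ∀ x ∈ Y, x ∈ (s2 (slC hLa hC n hn) fr3 Tw l0').P ∧
      (s2 (slC hLa hC n hn) fr3 Tw l0').lab x = Sum.inr m := by
    rintro x ⟨Z, hx, g1, g2, g3⟩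
    exact g1 x hx
  have hY2 : ∀ F x, x ∈ Y → (s2 (slC hLa hC n hn) fr3 Tw l0').At F x →
      Dfo_539.NoX (s2 (slC hLa hC n hn) fr3 Tw l0') (BM.am m) F x →
      (s2 (slC hLa hC n hn) fr3 Tw l0').mu F x ∈ Y := by
    rintro F x ⟨Z, hx, g1, g2, g3⟩ hA hn
    exact ⟨Z, g2 F x hx hA hn, g1, g2, g3⟩
  have hY3 : ∀ F x, x ∈ Y → (s2 (slC hLa hC n hn) fr3 Tw l0').At F x →
      ¬ St.Frozen ((slC hLa hC n hn).mn fr3)
        (ActR (slC hLa hC n hn) (Rdc T f Xᶜ (rout ρ3 d))) F := by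
    rintro F x ⟨Z, hx, g1, g2, g3⟩ hA
    exact g3 F x hx hA
  -- numbers
  have hεm := bar.lv m
  have hhi := hiB_le (ρ1 := ρ1) (ρ3 := ρ3) (d := d) (c := m.co) (μ / 16)
  have hε1 : 1 < ε m := hεm.1
  have hε2 : ε m ≤ 1 + μ / 16 := hεm.2.le.trans hhi
  have hra : 0 < 1 / 2 - 5 * μ / 16 := by linarith
  have hom : max (d m.co / (μ / 8)) (d m.co / (1 / 2 - 5 * μ / 16)) ≤ μ / 1024 :=
    (N.om (bar.rm m.co m.co_notMem).1).trans (by linarith)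
  have e1 := rB_sub (ρ1 := ρ1) (ρ3 := ρ3) (d := d) m.co
  have e2 := rB_add (ρ1 := ρ1) (ρ3 := ρ3) (d := d) m.co
  have hh := bar.barF.h0 m
  have hhε : Bgf_4.hB ρ1 ρ3 d m.co * 1 ≤ Bgf_4.hB ρ1 ρ3 d m.co * ε m :=
    mul_le_mul_of_nonneg_left hε1.le hh.le
  -- the strip
  obtain ⟨pp, qq, hMo⟩ := m.mo
  obtain ⟨Wz, hWc, hWi, hWz, hWk, hWt, -⟩ := Nefg_628.chart_rm (l0 := μ / 8) (mm := 1 / 2)
    (ra := 1 / 2 - 5 * μ / 16) (s0 := ρ1 m.co + 8 * d m.co) (s1 := ρ3 m.co + 9 * d m.co)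
    (t0 := 3 * μ / 8) (w1 := μ / 4) hLa H hMo hr hT.pt (by linarith) (by linarith)
    (by linarith) ⟨by linarith, by linarith⟩ (by linarith) (by linarith)
  set s0 : ℝ := ρ1 m.co + 8 * d m.co with hs0
  set s1 : ℝ := ρ3 m.co + 9 * d m.co with hs1
  set D' : Set (ℝ × ℝ) := Icc s0 s1 ×ˢ Icc 0 (μ / 4) with hD'
  have hs01 : s0 ≤ s1 := by linarith
  have hm0 : (0 : ℝ) ∈ Icc (0 : ℝ) (μ / 4) := ⟨le_rfl, by linarith⟩
  have hm1 : μ / 4 ∈ Icc (0 : ℝ) (μ / 4) := ⟨by linarith, le_rfl⟩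
  -- the values of `gR`
  have hlow : ∀ z ∈ D', z.2 = 0 → gR Φ X μ m (Φ.Psi (f (Wz z))) ≤ 1 - μ / 8 := by
    intro z hz hz2
    have g := (hWz z hz).2.2.2.2
    show gmf Φ (μ / 8) (1 / 2) (1 / 2 - 5 * μ / 16) m.am m.Zm (Φ.Psi (f (Wz z))) ≤ 1 - μ / 8
    rw [g, hz2, zero_div]
    refine max_le (by linarith) ?_
    rw [div_le_iff₀ hra, abs_le]
    constructor <;> nlinarith
  have hhigh : ∀ z ∈ D', z.2 = μ / 4 → 2 ≤ gR Φ X μ m (Φ.Psi (f (Wz z))) := by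
    intro z hz hz2
    have g := (hWz z hz).2.2.2.2
    show 2 ≤ gmf Φ (μ / 8) (1 / 2) (1 / 2 - 5 * μ / 16) m.am m.Zm (Φ.Psi (f (Wz z)))
    rw [g, hz2]
    refine le_trans (le_of_eq ?_) (le_max_left _ _)
    field_simp
    norm_num
  -- the two parts of the boundary of the strip
  set K : Set E3 := Wz '' ({z | z ∈ D' ∧ z.2 = 0} ∪ {z | z ∈ D' ∧ z.1 = s0} ∪
    {z | z ∈ D' ∧ z.2 = μ / 4}) with hK
  set K' : Set E3 := Wz '' {z | z ∈ D' ∧ z.1 = s1} with hK'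
  have hKD : K ⊆ Wz '' D' := by
    refine image_mono ?_
    rintro z ((hz | hz) | hz) <;> exact hz.1
  have hKD' : K' ⊆ Wz '' D' := image_mono fun z hz => hz.1
  have hKc : IsPreconnected K := by
    have a1 : IsPreconnected {z : ℝ × ℝ | z ∈ D' ∧ z.2 = 0} := by
      have : {z : ℝ × ℝ | z ∈ D' ∧ z.2 = 0} = Icc s0 s1 ×ˢ {(0 : ℝ)} := by
        ext z
        constructor
        · rintro ⟨hz, hz2⟩; exact ⟨hz.1, hz2⟩
        · rintro ⟨hz, hz2⟩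
          have hz2' : z.2 = 0 := hz2
          exact ⟨⟨hz, by rw [hz2']; exact hm0⟩, hz2'⟩
      rw [this]
      exact isPreconnected_Icc.prod isPreconnected_singleton
    have a2 : IsPreconnected {z : ℝ × ℝ | z ∈ D' ∧ z.1 = s0} := by
      have : {z : ℝ × ℝ | z ∈ D' ∧ z.1 = s0} = {s0} ×ˢ Icc (0 : ℝ) (μ / 4) := by
        ext z
        constructor
        · rintro ⟨hz, hz2⟩; exact ⟨hz2, hz.2⟩
        · rintro ⟨hz, hz2⟩
          have hz' : z.1 = s0 := hz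
          exact ⟨⟨by rw [hz']; exact ⟨le_rfl, hs01⟩, hz2⟩, hz'⟩
      rw [this]
      exact isPreconnected_singleton.prod isPreconnected_Icc
    have a3 : IsPreconnected {z : ℝ × ℝ | z ∈ D' ∧ z.2 = μ / 4} := by
      have : {z : ℝ × ℝ | z ∈ D' ∧ z.2 = μ / 4} = Icc s0 s1 ×ˢ {(μ / 4 : ℝ)} := by
        ext z
        constructor
        · rintro ⟨hz, hz2⟩; exact ⟨hz.1, hz2⟩
        · rintro ⟨hz, hz2⟩
          have hz2' : z.2 = μ / 4 := hz2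
          exact ⟨⟨hz, by rw [hz2']; exact hm1⟩, hz2'⟩
      rw [this]
      exact isPreconnected_Icc.prod isPreconnected_singleton
    have b1 : ((s0, 0) : ℝ × ℝ) ∈ D' := ⟨⟨le_rfl, hs01⟩, hm0⟩
    have b2 : ((s0, μ / 4) : ℝ × ℝ) ∈ D' := ⟨⟨le_rfl, hs01⟩, hm1⟩
    have b3 : ((s0, 0) : ℝ × ℝ) ∈ {z : ℝ × ℝ | z ∈ D' ∧ z.2 = 0} := ⟨b1, rfl⟩
    have b4 : ((s0, 0) : ℝ × ℝ) ∈ {z : ℝ × ℝ | z ∈ D' ∧ z.1 = s0} := ⟨b1, rfl⟩
    have b5 : ((s0, μ / 4) : ℝ × ℝ) ∈ {z : ℝ × ℝ | z ∈ D' ∧ z.2 = 0} ∪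
        {z : ℝ × ℝ | z ∈ D' ∧ z.1 = s0} := Or.inr ⟨b2, rfl⟩
    have b6 : ((s0, μ / 4) : ℝ × ℝ) ∈ {z : ℝ × ℝ | z ∈ D' ∧ z.2 = μ / 4} := ⟨b2, rfl⟩
    have a4 := IsPreconnected.union _ b3 b4 a1 a2
    have a5 := IsPreconnected.union _ b5 b6 a4 a3
    refine a5.image _ (hWc.mono ?_)
    rintro z ((hz | hz) | hz) <;> exact hz.1
  have hKc' : IsPreconnected K' := by
    have a2 : IsPreconnected {z : ℝ × ℝ | z ∈ D' ∧ z.1 = s1} := by
      have : {z : ℝ × ℝ | z ∈ D' ∧ z.1 = s1} = {s1} ×ˢ Icc (0 : ℝ) (μ / 4) := by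
        ext z
        constructor
        · rintro ⟨hz, hz2⟩; exact ⟨hz2, hz.2⟩
        · rintro ⟨hz, hz2⟩
          have hz' : z.1 = s1 := hz
          exact ⟨⟨by rw [hz']; exact ⟨hs01, le_rfl⟩, hz2⟩, hz'⟩
      rw [this]
      exact isPreconnected_singleton.prod isPreconnected_Icc
    exact a2.image _ (hWc.mono fun z hz => hz.1)
  -- the gauge over the strip
  have hgaD : ∀ z ∈ D', ρ1 m.co ≤ ga Φ m.co (f (Wz z)) ∧ ga Φ m.co (f (Wz z)) ≤ ρ4 m.co := by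
    intro z hz
    rw [(hWz z hz).2.1]
    have k1 : s0 ≤ z.1 := hz.1.1
    have k2 : z.1 ≤ s1 := hz.1.2
    constructor <;> linarith
  -- no barrier points over the columns
  have hno : ∀ q, ∀ z ∈ D', Wz z ∈ P (T.H q) → (gR Φ X μ m (Φ.Psi (f (Wz z))) ≤ 1 - μ / 8 ∨
      2 ≤ gR Φ X μ m (Φ.Psi (f (Wz z)))) → ∀ w ∈ (stB hGB bp bm).P,
      (stB hGB bp bm).lab w = Sum.inr m → w ∉ P (T.H q) := by
    intro q z hz hzq hg w hw hl hwq
    obtain ⟨k1, k2⟩ := hgaD z hz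
    have o1 := abs_le.1 (hr.tile_osc hzq k1 k2 hwq).1
    have o2 := abs_le.1 (hZ.osc q _ hzq k1 k2 w hwq)
    have k3 : s0 ≤ ga Φ m.co (f (Wz z)) := by rw [(hWz z hz).2.1]; exact hz.1.1
    have k4 : ga Φ m.co (f (Wz z)) ≤ s1 := by rw [(hWz z hz).2.1]; exact hz.1.2
    obtain ⟨-, -, -, -, -, -, p7, p8⟩ := bar.pos m w hw hl
    rcases p8 with p8 | p8 | p8
    · linarith [o1.1, o1.2]
    · linarith [o1.1, o1.2]
    · have p8' : gR Φ X μ m (Φ.Psi (f w)) = ε m := p8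
      rcases hg with hg | hg
      · linarith [o2.1, o2.2]
      · linarith [o2.1, o2.2]
  -- the bottom is in the core
  have hcore : CoreH T (KJ T (J m.co)) := coreH_tiny hT
  have hKint : ∀ x ∈ Om, ga Φ m.co (f x) < ρ2 m.co → x ∈ interior (KJ T (J m.co)) := fun x hx h =>
    K_int H (Φ.bf.sub m.co.1 m.co.2) (bz_ga hLa H hC m.co_notMem hZ) hr hT.sub0 hcore.cpt.isClosed
      hT.mem hx h
  have hbot : ∀ q, ∀ z ∈ D', z.1 = s0 → Wz z ∈ P (T.H q) → P (T.H q) ⊆ interior (KJ T (J m.co)) := by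
    intro q z hz hz1 hzq y hy
    obtain ⟨k1, k2⟩ := hgaD z hz
    have o1 := abs_le.1 (hr.tile_osc hzq k1 k2 hy).1
    have k3 : ga Φ m.co (f (Wz z)) = s0 := by rw [(hWz z hz).2.1]; exact hz1
    exact hKint y (T.sub q hy) (by linarith [o1.1])
  have hKeq : (slC hLa hC n hn).K (coT m) = KJ T (J m.co) := rfl
  -- outside the cores over the top
  have htop : ∀ q, ∀ z ∈ D', z.1 = s1 → Wz z ∈ P (T.H q) → ∀ c, ¬ P (T.H q) ⊆ (slC hLa hC n hn).K c := by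
    intro q z hz hz1 hzq c hsub
    obtain ⟨k1, k2⟩ := hgaD z hz
    have k3 : ga Φ m.co (f (Wz z)) = s1 := by rw [(hWz z hz).2.1]; exact hz1
    refine out_core hLa H hC hRm m.co_notMem (x := Wz z) (fun i hi => (hr.tile hi k1 k2).1) ?_ c.1
      (hsub hzq)
    rw [k3]; linarith
  -- the labels
  obtain ⟨lm, hlm, LOW, HIGH⟩ := bar.lab m
  have hv1 : ((s1, 0) : ℝ × ℝ) ∈ D' := ⟨⟨hs01, le_rfl⟩, hm0⟩
  have hv2 : ((s1, μ / 4) : ℝ × ℝ) ∈ D' := ⟨⟨hs01, le_rfl⟩, hm1⟩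
  obtain ⟨v, hvc, hv0⟩ := exists_vertex T (hWz _ hv1).1
  obtain ⟨w, hwc, hw0⟩ := exists_vertex T (hWz _ hv2).1
  obtain ⟨qv, hqv⟩ := T.cov _ (hWz _ hv1).1
  obtain ⟨qw, hqw⟩ := T.cov _ (hWz _ hv2).1
  have hvq : v ∈ P (T.H qv) := T.cc_sub_tile hqv hvc
  have hwq : w ∈ P (T.H qw) := T.cc_sub_tile hqw hwc
  have hlv : lm v = 1 := by
    obtain ⟨k1, k2⟩ := hgaD _ hv1
    have o1 := abs_le.1 (hr.tile_osc hqv k1 k2 hvq).1
    have o2 := abs_le.1 (hZ.osc qv _ hqv k1 k2 v hvq)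
    have k3 : ga Φ m.co (f (Wz (s1, 0))) = s1 := (hWz _ hv1).2.1
    have k4 := hlow _ hv1 rfl
    refine LOW (1 - μ / 16) (by linarith) (hZ.gm.le_conn hP ⟨by linarith, by linarith⟩)
      (by linarith) v (T.sub _ hvq) hv0 (by linarith [o1.1, o1.2]) (by linarith [o1.1, o1.2]) ?_
    show gR Φ X μ m (Φ.Psi (f v)) ≤ _
    linarith [o2.1, o2.2]
  have hlw : lm w = 0 := by
    obtain ⟨k1, k2⟩ := hgaD _ hv2
    have o2 := abs_le.1 (hZ.osc qw _ hqw k1 k2 w hwq)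
    have k4 := hhigh _ hv2 rfl
    obtain ⟨q9, q91, q92⟩ := hZ.gm.high
    refine HIGH (1 + μ / 4) (by linarith) (hZ.gm.ge_conn hP ⟨by linarith, by linarith⟩)
      ⟨q9, q91, by
        show _ ≤ gR Φ X μ m q9
        linarith⟩ w (T.sub _ hwq) hw0 (Or.inr (Or.inr ?_))
    show _ ≤ gR Φ X μ m (Φ.Psi (f w))
    linarith [o2.1, o2.2]
  have hfin : lm v = lm w := by
    refine encl_core (S := slC hLa hC n hn) (h3 := fr3) (am := BM.am) (L := Lv) MM.tt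
      (R := Rdc T f Xᶜ (rout ρ3 d)) (m := m) (Y := Y) hY1 hY2 hY3 (D := Wz '' D') hWk ?_ hWt ?_ ?_
      hKD hKc hKD' hKc' ?_ ?_ ?_ ?_ hlm.lab (x := Wz (s1, 0)) (y := Wz (s1, μ / 4))
      ⟨_, Or.inl (Or.inl ⟨hv1, rfl⟩), rfl⟩ ⟨_, ⟨hv1, rfl⟩, rfl⟩ ⟨_, Or.inr ⟨hv2, rfl⟩, rfl⟩
      ⟨_, ⟨hv2, rfl⟩, rfl⟩ ⟨qv, hvq, hqv⟩ ⟨qw, hwq, hqw⟩ hv0 hw0
    · rintro _ ⟨z, hz, rfl⟩
      exact (hWz z hz).1
    · rintro q ⟨_, hq, z, hz, rfl⟩
      obtain ⟨k1, k2⟩ := hgaD z hz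
      exact Afr_112.afree_out N bar MM.brec m hq k1 k2 (Or.inl (by
        rw [(hWz z hz).2.2.2.1]; linarith))
    · rintro q ⟨_, hq, z, hz, rfl⟩ k e he j hj
      obtain ⟨k1, k2⟩ := hgaD z hz
      obtain ⟨g1, g2⟩ := Afr_112.afree_in N bar MM.din MM.lo MM.tt MM.brec m hq k1 k2 (Or.inl (by
        rw [(hWz z hz).2.2.2.1]; linarith)) k e he j
      exact ⟨fun j' _ => g1 j', g2⟩
    · rintro q ⟨_, hq, z, hzK, rfl⟩ hqo u hu hul
      rcases hzK with (hz | hz) | hz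
      · exact hno q z hz.1 hq (Or.inl (hlow z hz.1 hz.2)) u hu hul
      · exact absurd ((hbot q z hz.1 hz.2 hq).trans interior_subset) (hqo (coT m))
      · exact hno q z hz.1 hq (Or.inr (hhigh z hz.1 hz.2)) u hu hul
    · rintro q ⟨_, hq, z, hzK, rfl⟩ c hqc u hu j hj
      have hzD : z ∈ D' := by rcases hzK with (hz | hz) | hz <;> exact hz.1
      obtain ⟨k1, k2⟩ := hgaD z hzD
      rcases hzK with (hz | hz) | hz
      · exact Nvm1_985.never_m N H bar MM.din MM.lo MM.tt m hq k1 k2 (Or.inl (hlow z hz.1 hz.2)) c u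
          hu j
      · exfalso
        have g1 := hbot q z hz.1 hz.2 hq hu
        have g2 : u.1 ∈ (slC hLa hC n hn).K (coT m) := interior_subset g1
        have g3 : c = coT m := (slC hLa hC n hn).core_unique (hqc hu) g2
        subst g3
        exact u.2.2.2 g1
      · exact Nvm1_985.never_m N H bar MM.din MM.lo MM.tt m hq k1 k2 (Or.inr (hhigh z hz.1 hz.2)) c u
          hu j
    · rintro q ⟨_, hq, z, hz, rfl⟩
      exact htop q z hz.1 hz.2 hq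
    · rintro q ⟨_, hq, z, hz, rfl⟩ u hu hul huq
      obtain ⟨k1, k2⟩ := hgaD z hz.1
      have k3 : ga Φ m.co (f (Wz z)) = s1 := by rw [(hWz z hz.1).2.1]; exact hz.2
      have o1 := abs_le.1 (hr.tile_osc hq k1 k2 huq).1
      have k4 : ρ3 m.co + 7 * d m.co ≤ ga Φ m.co (f u) := by linarith [o1.1, o1.2]
      have k5 := gmT_sub hRm m (mem_gmT hLa bar hu hul k4)
      exact ⟨(U.mem_out (cl_of hu hul k5)).1, hcon u hu hul k4⟩
  rw [hlv, hlw] at hfin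
  exact one_ne_zero hfin

end Crest.Agent.R096.Nez_602
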