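import Crest.Agent.R096.Ebr6_95

/-!
# Row 96, DOORS, NE1 (helper49): the transversal strip over the boundary of a brick (778's G1)

`exists_chart` : the rectangle `gauge ∈ [s0, s1]`, `w ∈ [0, w1]` at the level `t0` of the moat
`(c, a, Z)` in the domain; compact, injective, trivial torsors.
-/

set_option autoImplicit false
set_option linter.unusedSectionVars false

open Set Topology Filter Metric Module
open scoped Classical

namespace Crest.Agent.R096.Nfc_49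

open Crest.Agent.R096.Msh_715 Crest.Agent.R096.Coh_184 Crest.Agent.R096.Bsp_628
  Crest.Agent.R096.Brk1_582 Crest.Agent.R096.Brk2_582 Crest.Agent.R096.Brk3_582
  Crest.Agent.R096.Brk5_582 Crest.Agent.R096.Init_543 Crest.Agent.R096.Mbf_337
  Crest.Agent.R096.Ess4_95 Crest.Agent.R096.Ess5_95 Crest.Agent.R096.Ess6_95
  Crest.Agent.R096.Ebr4_95 Crest.Agent.R096.Bar_106 Crest.Agent.R096.Bgf_4
open Crest.Agent.R096.SkC1_961 (E3 Hom3 IsPush FoamD)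

variable {δ κ0 R c0 : ℝ} {La Om : Set E3} {Φ : FoamD δ κ0 R c0 La} {f g : E3 → E3}

/-- **the transversal strip** -/
theorem exists_chart (hLa : IsOpen La) (H : Hm f g Om La) {c : Φ.F} {ρ : ℝ} {pp : ℝ × E3 → E3}
    (hP : Pol Φ c ρ pp) (hL : ∀ y, ga Φ c y ≤ ρ → y ∈ La) {a p q : Φ.F} {Z : Set Φ.F}
    (hM : Mo (Pc Φ.F) c a Z p q) {s0 s1 t0 w1 : ℝ} (h0 : 0 < s0) (h1 : s1 ≤ ρ)
    (ht : t0 ∈ Icc (0 : ℝ) 1) (hw : w1 ≤ 1) :
    ∃ Wz : ℝ × ℝ → E3, ContinuousOn Wz (Icc s0 s1 ×ˢ Icc 0 w1) ∧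
      InjOn Wz (Icc s0 s1 ×ˢ Icc 0 w1) ∧
      (∀ z ∈ Icc s0 s1 ×ˢ Icc (0 : ℝ) w1, Wz z ∈ Om ∧ ga Φ c (f (Wz z)) = z.1 ∧
        Φ.Psi (f (Wz z)) = gam (bc (F := Φ.F)) a Z p q (t0, z.2) ∧ Φ.lev a (f (Wz z)) = t0 ∧
        ∀ l0 mm ra : ℝ, gmf Φ l0 mm ra a Z (Φ.Psi (f (Wz z))) =
          max (z.2 / l0) (|t0 - mm| / ra)) ∧
      IsCompact (Wz '' (Icc s0 s1 ×ˢ Icc 0 w1)) ∧
      TrivF (ZMod 2) (Wz '' (Icc s0 s1 ×ˢ Icc 0 w1)) := by
  have FF := foam Φ.bf hLa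
  have hR : ∀ w ∈ Icc (0 : ℝ) w1, ((t0, w) : ℝ × ℝ) ∈ Rct := fun w hw' =>
    ⟨ht, by linarith [hw'.1], hw'.2.trans hw⟩
  have hfr : ∀ w ∈ Icc (0 : ℝ) w1, gam (bc (F := Φ.F)) a Z p q (t0, w) ∈ frontier c.1.set :=
    fun w hw' => gam_fr hLa hM (hR w hw')
  have hs : ∀ s ∈ Icc s0 s1, s ∈ Ioc 0 ρ := fun s hs => ⟨h0.trans_le hs.1, hs.2.trans h1⟩
  set Q : ℝ × ℝ → E3 := fun z => pp (z.1, gam (bc (F := Φ.F)) a Z p q (t0, z.2)) with hQ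
  have hQg : ∀ z ∈ Icc s0 s1 ×ˢ Icc (0 : ℝ) w1, ga Φ c (Q z) = z.1 := fun z hz =>
    hP.gau z.1 (hs _ hz.1) _ (hfr _ hz.2)
  have hQp : ∀ z ∈ Icc s0 s1 ×ˢ Icc (0 : ℝ) w1,
      Φ.Psi (Q z) = gam (bc (F := Φ.F)) a Z p q (t0, z.2) := fun z hz =>
    hP.psi z.1 (hs _ hz.1) _ (hfr _ hz.2)
  have hQL : ∀ z ∈ Icc s0 s1 ×ˢ Icc (0 : ℝ) w1, Q z ∈ La := fun z hz =>
    hL _ (by rw [hQg z hz]; exact hz.1.2.trans h1)
  have hQc : ContinuousOn Q (Icc s0 s1 ×ˢ Icc 0 w1) := by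
    refine hP.cont.comp (continuousOn_fst.prodMk ?_) fun z hz => ⟨trivial, hfr _ hz.2⟩
    exact (hM.continuousOn_gam FF).comp
      (Continuous.continuousOn (f := fun z : ℝ × ℝ => (t0, z.2)) (by fun_prop))
      fun z hz => hR _ hz.2
  have hfW : ∀ z ∈ Icc s0 s1 ×ˢ Icc (0 : ℝ) w1, f (g (Q z)) = Q z := fun z hz =>
    H.fg _ (hQL z hz)
  have hWc : ContinuousOn (fun z => g (Q z)) (Icc s0 s1 ×ˢ Icc 0 w1) :=
    H.gc.comp hQc fun z hz => hQL z hz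
  have hWi : InjOn (fun z => g (Q z)) (Icc s0 s1 ×ˢ Icc 0 w1) := by
    intro z hz z' hz' he
    have e1 : Q z = Q z' := by rw [← hfW z hz, ← hfW z' hz']; exact congrArg f he
    have e2 : z.1 = z'.1 := by rw [← hQg z hz, ← hQg z' hz', e1]
    have e3 : gam (bc (F := Φ.F)) a Z p q (t0, z.2) = gam (bc (F := Φ.F)) a Z p q (t0, z'.2) := by
      rw [← hQp z hz, ← hQp z' hz', e1]
    have e4 := hM.gam_injOn FF (hR _ hz.2) (hR _ hz'.2) e3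
    exact Prod.ext e2 (Prod.mk.inj e4).2
  refine ⟨fun z => g (Q z), hWc, hWi, ?_, (isCompact_Icc.prod isCompact_Icc).image_of_continuousOn hWc,
    ?_⟩
  · intro z hz
    have e1 := hfW z hz
    refine ⟨H.gm (hQL z hz), by rw [e1]; exact hQg z hz, by rw [e1]; exact hQp z hz, ?_, ?_⟩
    · show sb Φ (Φ.Psi (f (g (Q z)))) a = t0
      rw [e1, hQp z hz]
      have := hM.sc_gam FF (hR _ hz.2)
      show sc (Pc Φ.F) (bc (F := Φ.F)) _ a = t0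
      rw [this, uu_a]
    · intro l0 mm ra
      rw [e1, hQp z hz, gmf_gam hLa hM (hR _ hz.2)]
      show max (|z.2| / l0) (|t0 - mm| / ra) = _
      rw [abs_of_nonneg hz.2.1]
  · have e : (fun z => g (Q z)) '' (Icc s0 s1 ×ˢ Icc 0 w1) =
        (fun v : Fin 2 → ℝ => g (Q (v 0, v 1))) ''
          (Icc (![s0, 0] : Fin 2 → ℝ) (![s1, w1] : Fin 2 → ℝ)) := by
      ext x
      constructor
      · rintro ⟨z, hz, rfl⟩
        refine ⟨![z.1, z.2], ⟨?_, ?_⟩, rfl⟩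
        · intro i
          fin_cases i
          · exact hz.1.1
          · exact hz.2.1
        · intro i
          fin_cases i
          · exact hz.1.2
          · exact hz.2.2
      · rintro ⟨v, hv, rfl⟩
        exact ⟨(v 0, v 1), ⟨⟨hv.1 0, hv.2 0⟩, hv.1 1, hv.2 1⟩, rfl⟩
    rw [e]
    have hm : ∀ v ∈ Icc (![s0, 0] : Fin 2 → ℝ) (![s1, w1] : Fin 2 → ℝ),
        ((v 0, v 1) : ℝ × ℝ) ∈ Icc s0 s1 ×ˢ Icc (0 : ℝ) w1 := fun v hv =>
      ⟨⟨hv.1 0, hv.2 0⟩, hv.1 1, hv.2 1⟩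
    refine trivF_convex_image isCompact_Icc (convex_Icc _ _) ?_ ?_
    · exact hWc.comp (Continuous.continuousOn (f := fun v : Fin 2 → ℝ => ((v 0, v 1) : ℝ × ℝ))
        (by fun_prop)) fun v hv => hm v hv
    · intro v hv v' hv' he
      have h2 := hWi (hm v hv) (hm v' hv') he
      have h3 := Prod.mk.inj h2
      funext i
      fin_cases i
      · exact h3.1
      · exact h3.2

end Crest.Agent.R096.Nfc_49
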