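import Crest.Agent.R096.Npl2_477

/-!
Row 96 (S0127), helper764, NO0 `p ≥ 3`, leaf [X10] of 962 #11402: the hypotheses of `Np_962.ExFront3`
from those of `No_276.NOPre` (780's `stretch`, 477's `front_input` plus the clause `det`).
-/

set_option autoImplicit false
set_option linter.unusedSectionVars false
set_option linter.unusedVariables false

open Set Filter Topology Metric MeasureTheory
open scoped ENNReal NNReal
open Crest.AnalysisR.VecCalc3 Crest.AnalysisR.Sobolev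

namespace Crest.Agent.R096.Xdt_764

open Crest.Agent.R096.SkC1_961 (E3 Hom3 FoamD)
open Crest.Agent.R096.Sk_962 (Q0 Qc0 dg SH)
open Crest.Agent.R096.Sq_477 (e3)
open Crest.Agent.R096.Er_594 (SH3)
open Crest.Agent.R096.Sk4_663 (Zd)
open Crest.Agent.R096.No_276 (QL fL)
open Crest.Agent.R96.En10_199 (P3)

/-- **[X10] the input of `ExFront3` from the data of `NOPre`** (`dd` before the data). -/
theorem data_front3 {p : ℝ} (hp : 1 ≤ p) {s : Fin 3 → ℝ} (hs2 : s 2 = 0) {L : ℕ} (hL1 : 1 ≤ L)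
    (hL : (L : ℝ) ≠ 0) {δ : ℝ≥0∞} (hδ : 0 < δ) : ∃ dd : ℝ, 0 < dd ∧
    ∀ (U₀ W₀ : Set R3) (f : R3 → R3) (G : Fin 3 → R3 → R3),
      IsOpen U₀ → Bornology.IsBounded U₀ → IsConnected U₀ →
      IsOpen W₀ → Bornology.IsBounded W₀ → IsConnected W₀ → Qc0 ⊆ U₀ →
      SH p U₀ W₀ f G →
      ∫⁻ x in Q0, ∑ j : Fin 3, ‖G j x - dg s j‖ₑ ^ p ≤ ENNReal.ofReal dd →
      volume (Q0 \ Zd G) ≤ ENNReal.ofReal dd →
      IsOpen (QL L) ∧ (QL L).Nonempty ∧ Bornology.IsBounded (QL L) ∧ IsConnected (QL L) ∧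
      IsOpen (e3 '' (f '' Q0)) ∧ Bornology.IsBounded (e3 '' (f '' Q0)) ∧
      IsConnected (e3 '' (f '' Q0)) ∧ (e3 '' (f '' Q0))ᶜ.Nonempty ∧
      ∃ Df : E3 → E3 →L[ℝ] E3, SH3 p (QL L) (e3 '' (f '' Q0)) (fL f L hL) Df ∧
        ∫⁻ x in QL L, ∑ l, ‖P3 (Df x (Pi.single l 1)) - EuclideanSpace.single l (s l)‖ₑ ^ p ≤
          δ * volume (QL L) ∧
        volume (QL L \ {x | (Df x).det = 0}) ≤ δ * volume (QL L) := by
  have hL' : (1 : ℝ) ≤ L := by exact_mod_cast hL1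
  have hL0 : (0 : ℝ) < L := by linarith
  obtain ⟨d, hd, H⟩ := Crest.Agent.R096.Nst_780.stretch hp hs2 hL' hL hδ
  have hvol : volume (QL L) = ENNReal.ofReal (8 / L) := Crest.Agent.R096.Npl_477.vol_QL hL0
  have hv0 : 0 < δ * volume (QL L) := by
    rw [hvol]
    exact ENNReal.mul_pos hδ.ne' (ENNReal.ofReal_pos.2 (by positivity)).ne'
  obtain ⟨d', hd', hd'1⟩ : ∃ d' : ℝ, 0 < d' ∧ ENNReal.ofReal d' ≤ δ * volume (QL L) := by
    obtain ⟨e, he0, he⟩ := exists_between hv0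
    refine ⟨e.toReal, ENNReal.toReal_pos he0.ne' (he.trans_le le_top).ne, ?_⟩
    rw [ENNReal.ofReal_toReal (he.trans_le le_top).ne]
    exact he.le
  refine ⟨min d d', lt_min hd hd', fun U₀ W₀ f G h1 h2 h3 h4 h5 h6 h7 h8 h9 h10 => ?_⟩
  obtain ⟨D, hE, hdet⟩ := H U₀ W₀ f G h1 h4 h5 h7 h8
    (h9.trans (ENNReal.ofReal_le_ofReal (min_le_left _ _)))
  refine ⟨D.oO, D.cO.nonempty, D.bO, D.cO, D.oL, D.bL, D.cL, ?_, _, D.sh, hE, ?_⟩
  · by_contra hn
    rw [Set.not_nonempty_iff_eq_empty, compl_empty_iff] at hn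
    have h := D.bL
    rw [hn] at h
    exact (NoncompactSpace.noncompact_univ (X := E3)) (by
      have := Metric.isCompact_of_isClosed_isBounded isClosed_univ h
      exact this)
  · refine (hdet d' (h10.trans (ENNReal.ofReal_le_ofReal (min_le_right _ _)))).trans ?_
    have h11 : ENNReal.ofReal (1 / L) ≤ 1 := by
      rw [← ENNReal.ofReal_one]
      apply ENNReal.ofReal_le_ofReal
      rw [div_le_one hL0]
      exact hL'
    calc ENNReal.ofReal (1 / L) * ENNReal.ofReal d' ≤ 1 * ENNReal.ofReal d' := by gcongr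
      _ = ENNReal.ofReal d' := one_mul _
      _ ≤ _ := hd'1

end Crest.Agent.R096.Xdt_764
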