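import Crest.Agent.R096.Np7_962
import Crest.Agent.R096.Xdt1_764

/-!
Row 96 (S0127), helper423, node NO0-PRE3: **literal interface `ExPreN p`** (what the
top composition of `NOPre p`, `3 ≤ p`, consumes besides `ExFront3 p`, `ExMeshN p` and 276's `preG_meshN`).
Definitions only.
-/

set_option autoImplicit false
set_option linter.unusedSectionVars false
set_option linter.unusedVariables false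
open Set Filter Topology MeasureTheory Metric
open scoped NNReal ENNReal

noncomputable section

namespace Crest.Agent.R096.Nge_423

open Crest.Agent.R096.Msh_715 hiding P I
open Crest.Agent.R096.SkC1_961 (E3 Cfg FoamD Hom3)
open Crest.Agent.R096.Brk5_582 Crest.Agent.R096.Bsp_628
open Crest.Agent.R096.Dic6_582 (dF kF)
open Crest.Agent.R096.Er_594 (SH3)
open Crest.Agent.R96.En10_199 (P3)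
open Crest.Agent.R096.Nl_234 (HWq)
open Crest.Agent.R096.Msh_810
open Crest.Agent.R096.No_276
open Crest.Agent.R096.Np_962
open Crest.Agent.R096.Gno_324 (Ug 𝒬0)

/-- **PreN from MeshN, literal Prop** (two tolerances: `t1` before `C`, `ε'`; `t2` after).
`e1 ≤ t1`: excess; `e2, e3, e5, r, κ' ≤ t2`. -/
def ExPreN (p : ℝ) : Prop :=
  ∀ (𝒮0 : Set (Set (Set E3))), 𝒮0.Finite → ∀ Ku : ℝ≥0∞, Ku ≠ ⊤ →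
  ∀ s : Fin 3 → ℝ, (∀ i, 0 ≤ s i) → ∀ S1 : ℝ, 0 < S1 → ∃ S KS : ℝ, S1 ≤ S ∧ 0 ≤ KS ∧
  ∀ (ε η : ℝ) (L : ℕ) (e₂ : ℝ), 0 < ε → 0 < η → η ≤ 1 / 8 → 1 ≤ L → 0 < e₂ → ∃ t1 : ℝ, 0 < t1 ∧
  ∀ (C : Set (Set E3) → ℝ) (ε' : ℝ), (∀ 𝒦, 0 < C 𝒦) → 0 < ε' → ∃ t2 : ℝ, 0 < t2 ∧ t2 ≤ 1 ∧
  ∀ (δ κ0 R c0 : ℝ) (La : Set E3) (ι : Type) (q : ℕ) (al : Fin 3 → ℝ) (h : ℝ)
    (Φ : FoamD δ κ0 R c0 La) (f1 : E3 → E3) (g : Φ.F → Fin 3 → E3 → ℝ) (W : Φ.F → ℝ)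
    (κ' μ κ1 κ2 κ3 : ℝ) (HH R' : Set E3) (e1 e2 e3 e4 : ℝ≥0∞) (e5 : ℝ) (D : Dat 3) (K0 : ℕ)
    (r : ℝ) (hr : r ≠ 0) (o : Fin 2 → ℤ) (M : ℕ) (Zs : Finset ℤ) (T : Tiling (QL L) ι) (Q : Set ι)
    (τ : ι → Top D) (J0 J V : Φ.F → Set ι) (ct : Φ.F → ι) (A : Φ.F → E3 ≃ᵃ[ℝ] E3) (lam : Φ.F → ℝ)
    (z : Φ.F → E3) (θ : Φ.F → E3 → E3) (φ : Φ.F → E3 → ℝ) (Mg : Φ.F → ℕ) (B : ι → E3 ≃ᵃ[ℝ] E3)
    (cw : ι → ℝ≥0∞),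
    MeshN p q al h s L η Φ f1 g W κ' μ κ1 κ2 κ3 C 𝒮0 HH R' e1 e2 e3 e4 e5 Ku D K0 r hr o M Zs T Q τ
      J0 J V ct A lam z θ φ Mg B cw →
    (∀ x ∈ HH, HWq Φ f1 q al h {x}) →
    0 ≤ κ' → κ' ≤ t2 → e1 ≤ ENNReal.ofReal t1 → e2 ≤ ENNReal.ofReal t2 → e3 ≤ ENNReal.ofReal t2 →
    e5 ≤ t2 → r ≤ t2 →
  ∀ (κp : ℝ), κ' ≤ κp → ∀ (𝒮 : Set (Set (Set E3))), 𝒮0 ⊆ 𝒮 →
  ∀ (b : Empty → E3) (R1 : Empty → ℝ) (Sc : Empty → Finset ι) (cnt : ι → ℝ),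
    (∀ i, 0 ≤ cnt i) → (∀ i, cnt i ≤ cntA T r hr D.a o M Zs i) →
  ∀ (Z : Φ.F → Set ℝ) (m0 : Φ.F → ℕ), (∀ c, volume (Z c) = 0) →
    ∃ (κ : Φ.F → ℕ) (Lv : Φ.F → Finset ℝ),
      PreN p s L η ε ε' e₂ S1 S KS κp μ κ3 C 𝒮 f1 q al h Φ T univ V ct A lam z Mg r hr D.a o M Zs
        (Ug T Qᶜ D.a r o) b R1 Sc cnt Z m0 κ Lv

end Crest.Agent.R096.Nge_423
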