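import Mathlib

/-!
# Row 96, NO0-PRE (helper691): the clause `nb` of `PreG` from a stretch with compact support
-/

set_option autoImplicit false

open Set Metric

namespace Crest.Agent.R096.Npn_691

/-- **the clause `nb`**: a map which is near `f` and equal to `f` where `f` is outside a compact subset
of `La` is close to `f` relative to the distance from the complement of `La`. -/
theorem nb_of_supp {A E : Type*} [NormedAddCommGroup E] {f f1 : A → E} {La : Set E}
    (hLa : IsOpen La) (hne : Laᶜ.Nonempty) {h : ℝ} (near : ∀ x, ‖f1 x - f x‖ ≤ h)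
    (supp : ∃ K : Set E, IsCompact K ∧ K ⊆ La ∧ ∀ x, f x ∉ K → f1 x = f x) :
    ∃ Cn : ℝ, 0 ≤ Cn ∧ ∀ y, ‖f1 y - f y‖ ≤ Cn * infDist (f y) Laᶜ := by
  obtain ⟨K, hK, hKL, hs⟩ := supp
  rcases K.eq_empty_or_nonempty with rfl | hKne
  · refine ⟨0, le_rfl, fun y => ?_⟩
    rw [hs y (notMem_empty _)]
    simp
  · obtain ⟨y0, hy0, hmin⟩ := hK.exists_isMinOn hKne
      (continuous_infDist_pt Laᶜ).continuousOn
    set m := infDist y0 Laᶜ with hm
    have hm0 : 0 < m := by
      have h1 : y0 ∉ closure Laᶜ := by
        rw [hLa.isClosed_compl.closure_eq]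
        exact fun h => h (hKL hy0)
      exact (infDist_pos_iff_notMem_closure hne).1 h1
    refine ⟨|h| / m, by positivity, fun y => ?_⟩
    by_cases hy : f y ∈ K
    · have h2 : m ≤ infDist (f y) Laᶜ := hmin hy
      calc ‖f1 y - f y‖ ≤ |h| := (near y).trans (le_abs_self h)
        _ = |h| / m * m := by field_simp
        _ ≤ _ := mul_le_mul_of_nonneg_left h2 (by positivity)
    · rw [hs y hy, sub_self, norm_zero]
      exact mul_nonneg (by positivity) infDist_nonneg

end Crest.Agent.R096.Npn_691
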