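import Crest.Agent.R096.Pg1_691
import Crest.Agent.R096.Npn1_691
import Crest.Agent.R096.Npr1_582
import Crest.Agent.R096.Sta1_161

/-!
# Row 96, NO0-PRE, [PREG] (helper691), part 2: the clauses of `PreG` which depend on `Front` only
-/

set_option autoImplicit false
set_option linter.unusedSectionVars false
set_option linter.style.longLine false

open Set Filter Topology Metric MeasureTheory
open scoped ENNReal

namespace Crest.Agent.R096.Pg_691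

open Crest.Agent.R096.Bsp_628 Crest.Agent.R096.Brk1_582 Crest.Agent.R096.Brk5_582
open Crest.Agent.R096.Dic1_582 Crest.Agent.R096.Log2_582
open Crest.Agent.R096.Dic6_582 Crest.Agent.R096.Npr_582
open Crest.Agent.R096.SkC1_961 (E3 Hom3 FoamD)
open Crest.Agent.R96.Push_899 (Box Mid toBox EE co LaE continuous_co)
open Crest.Agent.R96.En10_199 (P3)
open Crest.Agent.R096.Mbf_337

noncomputable section

variable {p : ℝ} {q : ℕ} {s : Fin 3 → ℝ} {e1 e2 : ℝ≥0∞} {Om La : Set E3} {f f1 : E3 → E3}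
  {M h : ℝ} {al : Fin 3 → ℝ} {Φ : FoamD (dF q) (kF q) 6 (cN q) La} {z : Φ.F → E3}
  {X HH : Set E3} {g : Φ.F → Fin 3 → E3 → ℝ}

/-- the stretch moves only a compact subset of `La` -/
theorem supp_of_front (H : Front p q s e1 e2 Om La f M h al Φ z f1 X HH g) :
    ∃ K : Set E3, IsCompact K ∧ K ⊆ La ∧ ∀ x, f x ∉ K → f1 x = f x := by
  obtain ⟨S, hS, hf⟩ := H.st
  obtain ⟨K, hKc, hKs, hKS⟩ := hS.supp
  refine ⟨co '' K, hKc.image continuous_co, ?_, fun x hx => ?_⟩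
  · rintro _ ⟨y, hy, rfl⟩
    exact hKs hy
  · have h1 : S (P3 (f x)) = P3 (f x) := hKS _ fun hy => hx ⟨P3 (f x), hy, rfl⟩
    rw [hf x, h1]
    rfl

/-- clause `nb` -/
theorem nb_of_front (hLa : IsOpen La) (hne : Laᶜ.Nonempty)
    (H : Front p q s e1 e2 Om La f M h al Φ z f1 X HH g) :
    ∃ Cn : ℝ, 0 ≤ Cn ∧ ∀ y ∈ Om, ‖f1 y - f y‖ ≤ Cn * infDist (f y) Laᶜ := by
  obtain ⟨Cn, h0, h1⟩ := Crest.Agent.R096.Npn_691.nb_of_supp hLa hne H.near (supp_of_front H)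
  exact ⟨Cn, h0, fun y _ => h1 y⟩

theorem sz_pos (c : Φ.F) : 0 < c.1.sz := by
  have h1 := Φ.bf.pos c.1 c.2 0
  have h2 : c.1.hi 0 - c.1.lo 0 ≤ c.1.sz := Bx.side_le_sz c.1 0
  linarith

/-- clause `star` -/
theorem star_of_front (H : Front p q s e1 e2 Om La f M h al Φ z f1 X HH g) : Star Φ := by
  refine Crest.Agent.R096.Sta_161.star_of_infDist Φ fun C hC => ?_
  have hx : C.lo ∈ C.set := ⟨le_rfl, fun i => (Φ.bf.pos C hC i).le⟩
  refine ⟨C.lo, hx, ?_⟩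
  have h1 := H.rho ⟨C, hC⟩ _ hx
  have h2 := sz_pos (Φ := Φ) ⟨C, hC⟩
  simp only at h1 h2
  linarith

/-- clause `rho` -/
theorem rho_of_front (H : Front p q s e1 e2 Om La f M h al Φ z f1 X HH g) :
    ∀ c : Φ.F, ∀ y ∈ c.1.set, c.1.sz ≤ infDist y Laᶜ := fun c y hy => by
  have h1 := H.rho c y hy
  have h2 := sz_pos c
  linarith

/-- clause `size` -/
theorem size_of_front (H : Front p q s e1 e2 Om La f M h al Φ z f1 X HH g) {C0 ε : ℝ}
    (hC0 : 0 ≤ C0) (hε : C0 * (2 * q * h) ≤ ε) : ∀ c : Φ.F, C0 * c.1.sz ≤ ε := fun c =>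
  (mul_le_mul_of_nonneg_left (H.size c) hC0).trans hε

/-- clause `gvol` -/
theorem gvol_of_front (H : Front p q s e1 e2 Om La f M h al Φ z f1 X HH g) {B : ℝ≥0∞}
    (hB : (e1 + e2) * volume Om ≤ B) :
    volume {x | x ∈ Om ∧ ¬ ∃ e o' i j : ℤ, GSq Φ.F q al h e o' i j ∧
      Φ.Psi (f1 x) ∈ sqr al h e o' i j} ≤ B := by
  refine le_trans (measure_mono ?_) (H.Qv.trans hB)
  rintro x ⟨hx, hn⟩
  exact ⟨hx, fun hq => hn hq.2⟩

/-- the centres of the tiny cores -/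
theorem centres_of_front (H : Front p q s e1 e2 Om La f M h al Φ z f1 X HH g) :
    ∃ x : Φ.F → E3, ∀ c, x c ∈ Om ∧ f1 (x c) = z c ∧
      (∀ k, c.1.lo k < f1 (x c) k ∧ f1 (x c) k < c.1.hi k) ∧
      ∀ y ∈ Om, f1 y ∈ (Φ.B c).S → y = x c :=
  exists_centres H.pt H.mid H.homeo

/-- the domain without the centres -/
theorem op_eq (H : Front p q s e1 e2 Om La f M h al Φ z f1 X HH g) {x : Φ.F → E3}
    (hx : ∀ c, x c ∈ Om ∧ f1 (x c) = z c ∧
      (∀ k, c.1.lo k < f1 (x c) k ∧ f1 (x c) k < c.1.hi k) ∧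
      ∀ y ∈ Om, f1 y ∈ (Φ.B c).S → y = x c) : Op Φ Om f1 = Om \ range x := by
  ext y
  constructor
  · rintro ⟨h1, h2⟩
    refine ⟨h1, ?_⟩
    rintro ⟨c, rfl⟩
    refine h2 c ?_
    rw [H.pt c, (hx c).2.1]
    exact fun k => ⟨le_rfl, le_rfl⟩
  · rintro ⟨h1, h2⟩
    exact ⟨h1, fun c hc => h2 ⟨c, ((hx c).2.2.2 y h1 hc).symm⟩⟩

end

end Crest.Agent.R096.Pg_691
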