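import Crest.Agent.R096.Pg3_691
import Crest.Agent.R096.Nend3_458

/-!
# Row 96, NO0-PRE, [PREG] (helper691), part 4: the clause `ends` (458) with averages over the box of
shifts
-/

set_option autoImplicit false
set_option linter.unusedSectionVars false
set_option linter.style.longLine false

open Set Filter Topology Metric MeasureTheory
open scoped ENNReal

namespace Crest.Agent.R096.Pg_691

open Crest.Agent.R096.Msh_810 (box)
open Crest.Agent.R096.SkC1_961 (E3 Hom3)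
open Crest.Agent.R096.Er_594 (SH3)
open Crest.Agent.R096.No0_477 (vx cub)
open Crest.Agent.R096.No_276 (QL)
open Crest.Agent.R096.Nend_458
open Crest.Agent.R96.En10_199 (P3)

noncomputable section

/-- from the averages over cubes of side `2^-k` to the average over the box of shifts -/
theorem lintegral_box_le {S : E3 → ℝ≥0∞} {k : ℕ} {r : ℝ} (hr : r = 1 / 2 ^ k) {I : ℝ≥0∞}
    (h : ∀ b : E3, ∫⁻ a in bx b r, S a ≤ ENNReal.ofReal r * I) :
    ∫⁻ a in box 3, S a ≤ ((2 : ℝ≥0∞) ^ k) ^ 2 * I := by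
  have hp : (0 : ℝ) < 2 ^ k := by positivity
  have hr0 : 0 < r := by rw [hr]; positivity
  have hcov : box 3 ⊆ ⋃ z : Fin 3 → Fin (2 ^ k), bx (fun i => r * (z i : ℕ)) r := by
    intro a ha
    have ha' : ∀ i, 0 ≤ a i ∧ a i < 1 := fun i => ha i (mem_univ i)
    have hlt : ∀ i, ⌊2 ^ k * a i⌋₊ < 2 ^ k := by
      intro i
      have h1 : (2 : ℝ) ^ k * a i < ((2 ^ k : ℕ) : ℝ) := by
        push_cast
        have := (ha' i).2
        nlinarith
      exact (Nat.floor_lt (mul_nonneg hp.le (ha' i).1)).2 h1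
    refine mem_iUnion.2 ⟨fun i => ⟨⌊2 ^ k * a i⌋₊, hlt i⟩, fun i => ?_⟩
    have h1 := Nat.floor_le (mul_nonneg hp.le (ha' i).1)
    have h2 := Nat.lt_floor_add_one ((2 : ℝ) ^ k * a i)
    have e : r * (2 ^ k * a i) = a i := by rw [hr]; field_simp
    constructor
    · show r * ((⌊2 ^ k * a i⌋₊ : ℕ) : ℝ) ≤ a i
      have := mul_le_mul_of_nonneg_left h1 hr0.le
      rwa [e] at this
    · show a i < r * ((⌊2 ^ k * a i⌋₊ : ℕ) : ℝ) + r
      have := mul_lt_mul_of_pos_left h2 hr0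
      rw [e] at this
      linarith
  calc ∫⁻ a in box 3, S a ≤ ∫⁻ a in ⋃ z : Fin 3 → Fin (2 ^ k), bx (fun i => r * (z i : ℕ)) r, S a :=
        lintegral_mono_set hcov
    _ ≤ ∑' z : Fin 3 → Fin (2 ^ k), ∫⁻ a in bx (fun i => r * (z i : ℕ)) r, S a :=
        lintegral_iUnion_le _ _
    _ ≤ ∑' _z : Fin 3 → Fin (2 ^ k), ENNReal.ofReal r * I := ENNReal.tsum_le_tsum fun z => h _
    _ = ((2 : ℝ≥0∞) ^ k) ^ 3 * (ENNReal.ofReal r * I) := by
        rw [tsum_fintype, Finset.sum_const, Finset.card_univ, Fintype.card_fun, Fintype.card_fin,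
          Fintype.card_fin, nsmul_eq_mul]
        push_cast
        rfl
    _ = ((2 : ℝ≥0∞) ^ k) ^ 2 * I := by
        have h2 : (2 : ℝ≥0∞) ^ k ≠ 0 := by positivity
        have h3 : (2 : ℝ≥0∞) ^ k ≠ ⊤ := ENNReal.pow_ne_top (by norm_num)
        have h4 : ENNReal.ofReal r = ((2 : ℝ≥0∞) ^ k)⁻¹ := by
          rw [hr, one_div, ENNReal.ofReal_inv_of_pos hp, ENNReal.ofReal_pow (by norm_num)]
          norm_num
        rw [h4, ← mul_assoc, pow_succ, mul_assoc (((2 : ℝ≥0∞) ^ k) ^ 2),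
          ENNReal.mul_inv_cancel h2 h3, mul_one]

/-- the measurable functions `H k` for 273's `exists_shift4` -/
theorem exists_ends {p : ℝ} (hp : 1 ≤ p) {Om La : Set E3} {f : E3 → E3} {D : E3 → E3 →L[ℝ] E3}
    (hOm : IsOpen Om) (hOmf : volume Om ≠ ⊤) (hSH : SH3 p Om La f D) (s : Fin 3 → ℝ) {δ : ℝ≥0∞}
    (hE : ∫⁻ x in Om, ∑ l, ‖P3 (D x (Pi.single l 1)) - EuclideanSpace.single l (s l)‖ₑ ^ p ≤
      δ * volume Om) {k : ℕ} {r : ℝ} (hr : r = 1 / 2 ^ k) :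
    ∃ S : Fin 2 → E3 → ℝ≥0∞, (∀ j, Measurable (S j)) ∧
      (∀ j, ∫⁻ a in box 3, S j a ≤ ((2 : ℝ≥0∞) ^ k) ^ 2 * (δ ^ p⁻¹ * volume Om)) ∧
      ∀ᵐ a : E3, ∀ j, EndB Om f s j r (S j) a := by
  have hr0 : 0 < r := by rw [hr]; positivity
  choose S h1 h2 h3 using fun j => exists_endS hOm hSH s j hr0
  refine ⟨S, h1, fun j => ?_, ae_all_iff.2 h3⟩
  refine (lintegral_box_le hr (h2 j)).trans ?_
  gcongr
  exact lintegral_er_le hp hOmf hSH s hE j

/-- the volume of the stretched cube -/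
theorem volume_QL {L : ℕ} (hL : 1 ≤ L) : volume (QL (L : ℝ)) = ENNReal.ofReal (8 / L) := by
  have hL0 : (0 : ℝ) < L := by exact_mod_cast hL
  have h1 : QL (L : ℝ) = Set.pi univ fun i : Fin 3 =>
      Ioo (if i = 2 then -(1 / (L : ℝ)) else -1) (if i = 2 then 1 / (L : ℝ) else 1) := by
    ext y
    have h3 : (|(L : ℝ) * y 2| < 1) ↔ -(1 / (L : ℝ)) < y 2 ∧ y 2 < 1 / L := by
      rw [abs_lt, ← neg_div, div_lt_iff₀ hL0, lt_div_iff₀ hL0, mul_comm (L : ℝ) (y 2)]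
    constructor
    · rintro ⟨h0, h1, h2⟩ i -
      rw [abs_lt] at h0 h1
      rw [h3] at h2
      fin_cases i
      · exact h0
      · exact h1
      · exact h2
    · intro h
      have h0 := h 0 (mem_univ _)
      have h1 := h 1 (mem_univ _)
      have h2 := h 2 (mem_univ _)
      refine ⟨?_, ?_, h3.2 h2⟩
      · rw [abs_lt]; exact h0
      · rw [abs_lt]; exact h1
  rw [h1, Real.volume_pi_Ioo, Fin.prod_univ_three]
  simp only [Fin.isValue, Fin.reduceEq, if_false, if_true]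
  rw [← ENNReal.ofReal_mul (by norm_num), ← ENNReal.ofReal_mul (by norm_num)]
  congr 1
  ring

/-- **the clause `ends`** -/
theorem ends_final {L : ℕ} (hL : 1 ≤ L) {f f1 : E3 → E3} {s : Fin 3 → ℝ} {r ε h : ℝ} {k : ℕ}
    (hr : r = 1 / 2 ^ k) {a : E3} {o : Fin 2 → ℤ} {M : ℕ} {Zs : Finset ℤ} (hM : 0 < M)
    (lo : ∀ j : Fin 2, -1 < a j.castSucc + r * o j)
    (hi : ∀ j : Fin 2, a j.castSucc + r * (o j + M) < 1)
    (zs : ∀ m ∈ Zs, |(L : ℝ) * (a 2 + r * m)| ≤ 1 / 2)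
    (hN : 1 / L ≤ ((Zs.card : ℝ) * M ^ 2) * r ^ 3)
    {S : Fin 2 → E3 → ℝ≥0∞} (hS : ∀ j, EndB (QL L) f s j r (S j) a) {m δ' : ℝ≥0∞}
    (hSa : ∀ j, S j a ≤ m * (((2 : ℝ≥0∞) ^ k) ^ 2 * (δ' * volume (QL (L : ℝ)))))
    (hδ : 16 * (m * δ') ≤ ENNReal.ofReal (ε / 2)) (hε : 0 < ε)
    (hf : ∀ x, ‖f1 x - f x‖ ≤ h) (hh : 8 * h ≤ ε) :
    ∀ j : Fin 2, ∑ m ∈ Zs, ∑ t ∈ Finset.range (M + 1),
      |(f1 (vx a r o m (fun i => if i = j then M else t)) -
        f1 (vx a r o m (fun i => if i = j then 0 else t))) j.castSucc - s j.castSucc * (M * r)| ≤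
        ε * ((Zs.card : ℝ) * M) := by
  have hr0 : 0 < r := by rw [hr]; positivity
  have hL0 : (0 : ℝ) < L := by exact_mod_cast hL
  have hMR : (1 : ℝ) ≤ M := by exact_mod_cast hM
  have hMr : (M : ℝ) * r ≤ 2 := by
    have h1 := lo 0
    have h2 := hi 0
    rw [mul_add] at h2
    linarith
  refine ends_of (f1 := f1) (g := f1) (C0 := 0) (h := h) hS
    (fun j => ins_of hr0 lo hi (fun m hm => (zs m hm).trans_lt (by norm_num)) j) hε.le ?_
    (fun m _ v _ => hf _) (fun m _ v _ => by simp) ?_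
  · intro j
    refine (hSa j).trans ?_
    have h2k : ((2 : ℝ≥0∞) ^ k) ^ 2 = ENNReal.ofReal (r⁻¹ ^ 2) := by
      rw [hr, one_div, inv_inv, ENNReal.ofReal_pow (by positivity),
        ENNReal.ofReal_pow (by norm_num)]
      norm_num
    rw [volume_QL hL, h2k]
    have hZ : (0 : ℝ) ≤ (Zs.card : ℝ) := Nat.cast_nonneg _
    have h8 : r⁻¹ ^ 2 * (8 / L) ≤ 16 * ((Zs.card : ℝ) * M) := by
      have h3 : (8 : ℝ) / L ≤ 8 * (((Zs.card : ℝ) * M ^ 2) * r ^ 3) := by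
        have : (8 : ℝ) / L = 8 * (1 / L) := by ring
        rw [this]
        linarith
      calc r⁻¹ ^ 2 * (8 / L) ≤ r⁻¹ ^ 2 * (8 * (((Zs.card : ℝ) * M ^ 2) * r ^ 3)) :=
            mul_le_mul_of_nonneg_left h3 (by positivity)
        _ = 8 * ((Zs.card : ℝ) * M) * (M * r) := by field_simp
        _ ≤ 8 * ((Zs.card : ℝ) * M) * 2 :=
            mul_le_mul_of_nonneg_left hMr (by positivity)
        _ = 16 * ((Zs.card : ℝ) * M) := by ring
    calc m * (ENNReal.ofReal (r⁻¹ ^ 2) * (δ' * ENNReal.ofReal (8 / L)))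
        = (m * δ') * ENNReal.ofReal (r⁻¹ ^ 2 * (8 / L)) := by
          rw [ENNReal.ofReal_mul (by positivity)]; ring
      _ ≤ (m * δ') * ENNReal.ofReal (16 * ((Zs.card : ℝ) * M)) := by
          gcongr
      _ = (16 * (m * δ')) * ENNReal.ofReal ((Zs.card : ℝ) * M) := by
          rw [ENNReal.ofReal_mul (by norm_num)]
          have : ENNReal.ofReal 16 = 16 := by norm_num
          rw [this]; ring
      _ ≤ ENNReal.ofReal (ε / 2) * ENNReal.ofReal ((Zs.card : ℝ) * M) := by gcongr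
      _ = _ := (ENNReal.ofReal_mul (by positivity)).symm
  · have h0 : 0 ≤ h := (norm_nonneg _).trans (hf 0)
    nlinarith

end

end Crest.Agent.R096.Pg_691
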