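import Crest.Agent.R096.Np4_962
import Crest.Agent.R096.Pg2_691
import Crest.Agent.R096.Pg4_691

/-!
# Row 96, NO0-PRE3 (helper276): `PreG` for `p ≥ 3` from `MeshN` (962) and the front
-/

set_option autoImplicit false
set_option linter.unusedSectionVars false
set_option linter.style.longLine false

open Set Filter Topology Metric MeasureTheory
open scoped ENNReal

namespace Crest.Agent.R096.Pgn_276

open Crest.Agent.R096.Bsp_628 Crest.Agent.R096.Brk1_582 Crest.Agent.R096.Brk5_582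
open Crest.Agent.R096.Log2_582 Crest.Agent.R096.Dic1_582 Crest.Agent.R096.Dic6_582
open Crest.Agent.R096.Npr_582
open Crest.Agent.R096.Msh_715
open Crest.Agent.R096.Msh_810 (Dat Top)
open Crest.Agent.R096.SkC1_961 (E3 Hom3 FoamD Cfg)
open Crest.Agent.R096.Gno_324 Crest.Agent.R096.No0_477
open Crest.Agent.R096.SkN1_477 (usq)
open Crest.Agent.R096.No_276 (QL Macro PreG Vti MJ)
open Crest.Agent.R096.Mbf_337
open Crest.Agent.R096.Np_962
open Crest.Agent.R96.Push_899 (EE co LaE co_image_LaE)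
open Crest.Agent.R096.Ea_713 (lin)

noncomputable section

/-! ### the clauses which depend on the front only -/

section front

variable {p : ℝ} {q : ℕ} {s : Fin 3 → ℝ} {e1 e2 : ℝ≥0∞} {Om La : Set E3} {f1 : E3 → E3}
  {M h : ℝ} {al : Fin 3 → ℝ} {Φ : FoamD (dF q) (kF q) 6 (cN q) La}
  {X HH : Set E3} {g : Φ.F → Fin 3 → E3 → ℝ}

theorem rho32 (H : FrontC p q s e1 e2 Om La M h al Φ f1 X HH g) :
    ∀ c : Φ.F, ∀ y ∈ c.1.set, 32 * c.1.sz ≤ infDist y Laᶜ := by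
  obtain ⟨K₀, -, -, F⟩ := H.fr
  intro c y hy
  have := F.rho c.1 c.2 y hy
  rwa [co_image_LaE] at this

theorem rho1 (H : FrontC p q s e1 e2 Om La M h al Φ f1 X HH g) :
    ∀ c : Φ.F, ∀ y ∈ c.1.set, c.1.sz ≤ infDist y Laᶜ := fun c y hy => by
  have h1 := rho32 H c y hy
  have h2 := Pg_691.sz_pos c
  linarith

theorem star1 (H : FrontC p q s e1 e2 Om La M h al Φ f1 X HH g) : Star Φ := by
  refine Crest.Agent.R096.Sta_161.star_of_infDist Φ fun C hC => ?_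
  have hx : C.lo ∈ C.set := ⟨le_rfl, fun i => (Φ.bf.pos C hC i).le⟩
  refine ⟨C.lo, hx, ?_⟩
  have h1 := rho32 H ⟨C, hC⟩ _ hx
  have h2 := Pg_691.sz_pos (Φ := Φ) ⟨C, hC⟩
  simp only at h1 h2
  linarith

theorem size1 (H : FrontC p q s e1 e2 Om La M h al Φ f1 X HH g) {C0 ε : ℝ}
    (hC0 : 0 ≤ C0) (hε : C0 * (2 * q * h) ≤ ε) : ∀ c : Φ.F, C0 * c.1.sz ≤ ε := fun c => by
  obtain ⟨K₀, -, -, F⟩ := H.fr
  exact (mul_le_mul_of_nonneg_left (F.size c.1 c.2) hC0).trans hε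

theorem gvol1 (H : FrontC p q s e1 e2 Om La M h al Φ f1 X HH g) {B : ℝ≥0∞}
    (hB : (e1 + e2) * volume Om ≤ B) :
    volume {x | x ∈ Om ∧ ¬ ∃ e o' i j : ℤ, GSq Φ.F q al h e o' i j ∧
      Φ.Psi (f1 x) ∈ sqr al h e o' i j} ≤ B := by
  refine le_trans (measure_mono ?_) (H.Qv.trans hB)
  rintro x ⟨hx, hn⟩
  exact ⟨hx, fun hq => hn hq.2⟩

end front

/-- no macro balls -/
theorem macro_empty {Om : Set E3} {ι : Type} (T : Tiling Om ι) (t : ℝ) (Cf : ℝ≥0∞)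
    {b : Empty → E3} {R0 R1 : Empty → ℝ} {Sc : Empty → Finset ι} {d : ι → ℝ} :
    Macro T ∅ b R0 R1 Sc d t Cf where
  fam := ⟨fun c => c.elim, fun c => c.elim, fun c => c.elim, fun c => c.elim,
    fun _ _ => ⟨univ, univ_mem, Set.toFinite _⟩⟩
  rat c := c.elim
  ex _ hi := hi.elim
  ring c := c.elim
  nex c := c.elim
  dS c := c.elim
  d0 c := c.elim
  dd c := c.elim
  fat c := c.elim

/-- fewer excluded tiles -/
theorem nogeo_mono {Om : Set E3} {ι : Type} {T : Tiling Om ι} {Ex Ex' : Set ι} {𝒬 : Set (Set E3)}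
    {L : ℕ} {η r : ℝ} {hr : r ≠ 0} {a : E3} {o : Fin 2 → ℤ} {M : ℕ} {Zs : Finset ℤ}
    {U : ℤ → (Fin 2 → ℕ) → Prop} (G : NOGeo T Ex 𝒬 L η r hr a o M Zs U) (h : Ex' ⊆ Ex) :
    NOGeo T Ex' 𝒬 L η r hr a o M Zs U where
  r0 := G.r0
  M0 := G.M0
  lo := G.lo
  hi := G.hi
  zne := G.zne
  zs := G.zs
  tile m hm v hv hU := by
    obtain ⟨i, h1, h2, h3⟩ := G.tile m hm v hv hU
    exact ⟨i, h1, h2, fun j hj => h3 j (h hj)⟩
  face := G.face
  edge := G.edge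
  off m hm v hv hU x hx i hi hE := G.off m hm v hv hU x hx i hi (h hE)

section main

open Classical in
/-- energy constant of the core tiles -/
def Kcr {F ι : Type*} (ct : F → ι) (K : F → ℝ) (i : ι) : ℝ :=
  if h : ∃ c, i = ct c then K h.choose else 0

theorem Kcr_ct {F ι : Type*} {ct : F → ι} (hinj : Function.Injective ct) (K : F → ℝ) (c : F) :
    Kcr ct K (ct c) = K c := by
  have h : ∃ c', ct c = ct c' := ⟨c, rfl⟩
  unfold Kcr
  rw [dif_pos h]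
  rw [← hinj h.choose_spec]

theorem Kcr_nonneg {F ι : Type*} {ct : F → ι} {K : F → ℝ} (hK : ∀ c, 0 ≤ K c) (i : ι) :
    0 ≤ Kcr ct K i := by
  unfold Kcr
  split_ifs with h
  · exact hK _
  · exact le_rfl

theorem sum_core {F ι : Type*} {ct : F → ι} {P : ι → Prop}
    (hP : ∀ i, P i → ∃ c, i = ct c) (u : ι → ℝ≥0∞) :
    ∑' i : {i // P i}, u i ≤ ∑' c, u (ct c) := by
  have hP' : ∀ i : {i // P i}, ∃ c, i.1 = ct c := fun i => hP i.1 i.2
  choose k hk using hP'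
  have hf : Function.Injective k := by
    intro i j hij
    exact Subtype.ext (by rw [hk i, hk j, hij])
  calc ∑' i : {i // P i}, u i = ∑' i : {i // P i}, (fun c => u (ct c)) (k i) := by
        refine tsum_congr fun i => ?_
        show u i = u (ct (k i))
        rw [← hk i]
    _ ≤ _ := ENNReal.tsum_comp_le_tsum_of_injective hf _

/-- **`PreG` for `p ≥ 3`** -/
theorem preG_meshN {p : ℝ} {q : ℕ} {s : Fin 3 → ℝ} {L : ℕ} (hL : 1 ≤ L) {η : ℝ}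
    {La : Set E3} {f f1 : E3 → E3} {ε1 ε1' : ℝ≥0∞} {M3 h : ℝ} {al : Fin 3 → ℝ}
    {Φ : FoamD (dF q) (kF q) 6 (cN q) La} {Xf HH : Set E3} {g : Φ.F → Fin 3 → E3 → ℝ}
    (Hf : FrontC p q s ε1 ε1' (QL L) La M3 h al Φ f1 Xf HH g)
    (hnb : ∃ Cn : ℝ, 0 ≤ Cn ∧ ∀ y ∈ QL (L : ℝ), ‖f1 y - f y‖ ≤ Cn * infDist (f y) Laᶜ)
    {g' : Φ.F → Fin 3 → E3 → ℝ} {W : Φ.F → ℝ} {κ' μ κ1 κ2 κ3 : ℝ} {Cs : Set (Set E3) → ℝ}
    {𝒮0 : Set (Set (Set E3))}
    {HH' R' : Set E3} {e1 e2 e3 e4 : ℝ≥0∞} {e5 : ℝ} {Ku : ℝ≥0∞} {D : Dat 3} {K0 : ℕ} {r : ℝ}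
    {hr : r ≠ 0} {o : Fin 2 → ℤ} {M : ℕ} {Zs : Finset ℤ} {ι : Type} {T : Tiling (QL L) ι}
    {Q : Set ι} {τ : ι → Top D} {J0 J V : Φ.F → Set ι} {ct : Φ.F → ι} {A : Φ.F → E3 ≃ᵃ[ℝ] E3}
    {lam : Φ.F → ℝ} {z : Φ.F → E3} {θ : Φ.F → E3 → E3} {φ : Φ.F → E3 → ℝ} {Mg : Φ.F → ℕ}
    {B : ι → E3 ≃ᵃ[ℝ] E3} {cw : ι → ℝ≥0∞}
    (H : MeshN p q al h s L η Φ f1 g' W κ' μ κ1 κ2 κ3 Cs 𝒮0 HH' R' e1 e2 e3 e4 e5 Ku D K0 r hr o M Zs
      T Q τ J0 J V ct A lam z θ φ Mg B cw)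
    {ε ε' C0 t : ℝ} {Cf : ℝ≥0∞} {𝒮 : Set (Set (Set E3))} (hC0 : 0 ≤ C0)
    (hsz : C0 * (2 * q * h) ≤ ε) (h𝒬 : 𝒬0 ∈ 𝒮) (he5 : e5 ≤ ε)
    (hev : (ε1 + ε1') * 4 ≤ ENNReal.ofReal ε) (he4 : e4 ≤ ENNReal.ofReal ε')
    (he4' : Ku * e4 ≤ ENNReal.ofReal (ε' * (2 / L))) (hε : 0 ≤ ε) (hε' : 0 ≤ ε')
    (b : Empty → E3) (R0 R1 : Empty → ℝ) (Sc : Empty → Finset ι) (d : ι → ℝ) :
    PreG p s L η ε ε' C0 κ1 κ2 𝒮 t Cf f f1 q al h Φ T univ J0 J V ct A lam z θ φ 𝒬0 r hr D.a o M Zs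
      (Ug T Qᶜ D.a r o) b R0 R1 Sc d (Kcr ct fun c => 1 / lam c * ‖lin (A c)‖)
      (fun i => (({k : ℤ × (Fin 2 → ℕ) | k ∈ Fc M Zs ∧ ¬ Ug T Qᶜ D.a r o k.1 k.2 ∧
        (P (T.H i) ∩ usq (fr (vx D.a r o k.1 k.2) r hr)).Nonempty}).ncard : ℝ) * r ^ 3) := by
  have hr0 : 0 < r := by rw [H.rK]; positivity
  have hL0 : (0 : ℝ) < L := by exact_mod_cast hL
  have hV : Vti (univ : Set Φ.F) V = ∅ := by
    ext i
    simp [Vti]
  have hVex : ∀ i, (∃ c, i ∈ V c) → ∃ c, i = ct c := by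
    rintro i ⟨c, hc⟩
    rw [H.Vct c] at hc
    exact ⟨c, hc⟩
  have hlam : ∀ c, 0 < lam c := fun c => (H.cores.exact_ c (mem_univ c)).lam0
  have hK0 : ∀ c, 0 ≤ 1 / lam c * ‖lin (A c)‖ := fun c => by
    have := hlam c
    positivity
  have hgeo : NOGeo T (⋃ c, V c) 𝒬0 L η r hr D.a o M Zs (Ug T Qᶜ D.a r o) := by
    refine nogeo_mono (nogeo_of T Qᶜ hr0 hr D.a o H.M0 H.lo H.hi H.zne H.zs) ?_
    intro i hi
    rw [mem_iUnion] at hi
    obtain ⟨c, rfl⟩ := hVex i hi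
    intro hQ
    have h1 := H.dis _ hQ c
    obtain ⟨x, hx⟩ := T.ne (ct c)
    have hx' := I_sub_P _ hx
    exact Set.disjoint_left.1 h1 hx' hx'
  have hN0 : 0 ≤ (Zs.card : ℝ) * M ^ 2 := by positivity
  refine
    { hom := Hf.homeo
      nb := hnb
      star := star1 Hf
      rho := rho1 Hf
      size := size1 Hf hC0 hsz
      q1 := Hf.q1
      h0 := Hf.h0
      cores := H.cores
      fine := H.fine
      shape := h𝒬
      geo := hgeo
      nU := H.junk.trans (mul_le_mul_of_nonneg_right he5 hN0)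
      gvol := ?_
      ends := fun j => (H.ends j).trans (mul_le_mul_of_nonneg_right he5 (by positivity))
      mac := by rw [hV]; exact macro_empty T t Cf
      osc := fun c => c.elim
      av := fun m _ c => c.elim
      kc0 := Kcr_nonneg hK0
      kc := fun c _ => (Kcr_ct H.inj (fun c => 1 / lam c * ‖lin (A c)‖) c).ge
      kcs := ?_
      cnt0 := fun i => by positivity
      cn := fun i => le_rfl
      jV := by rw [hV]; exact fun i hi => hi.elim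
      jc := ?_ }
  · refine gvol1 Hf ?_
    rw [Pg_691.volume_QL hL]
    have h8 : ENNReal.ofReal (8 / L) ≤ 4 * ENNReal.ofReal (((Zs.card : ℝ) * M ^ 2) * r ^ 3) := by
      have h1 := H.N1
      have h2 : (8 : ℝ) / L ≤ 4 * (((Zs.card : ℝ) * M ^ 2) * r ^ 3) := by
        have : (8 : ℝ) / L = 4 * (2 / L) := by ring
        rw [this]; linarith
      refine (ENNReal.ofReal_le_ofReal h2).trans (le_of_eq ?_)
      rw [ENNReal.ofReal_mul (by norm_num)]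
      norm_num
    calc (ε1 + ε1') * ENNReal.ofReal (8 / L)
        ≤ (ε1 + ε1') * (4 * ENNReal.ofReal (((Zs.card : ℝ) * M ^ 2) * r ^ 3)) := by gcongr
      _ = ((ε1 + ε1') * 4) * ENNReal.ofReal (((Zs.card : ℝ) * M ^ 2) * r ^ 3) := by ring
      _ ≤ ENNReal.ofReal ε * ENNReal.ofReal (((Zs.card : ℝ) * M ^ 2) * r ^ 3) := by gcongr
      _ = ENNReal.ofReal (ε * ((Zs.card : ℝ) * M ^ 2) * r ^ 3) := by
          rw [← ENNReal.ofReal_mul hε]; congr 1; ring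
  · refine (sum_core (ct := ct) (fun i hi => hVex i hi.1)
      (fun i => ENNReal.ofReal ((Kcr ct fun c => 1 / lam c * ‖lin (A c)‖) i ^ p) *
        volume (P (T.H i)))).trans ?_
    simp only [Kcr_ct H.inj]
    exact H.cs.trans he4
  · refine (sum_core (ct := ct) (fun i hi => hVex i hi.1.1)
      (fun i => ENNReal.ofReal ((Kcr ct fun c => 1 / lam c * ‖lin (A c)‖) i ^ p) *
        ENNReal.ofReal ((({k : ℤ × (Fin 2 → ℕ) | k ∈ Fc M Zs ∧ ¬ Ug T Qᶜ D.a r o k.1 k.2 ∧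
        (P (T.H i) ∩ usq (fr (vx D.a r o k.1 k.2) r hr)).Nonempty}).ncard : ℝ) * r ^ 3))).trans ?_
    simp only [Kcr_ct H.inj]
    have h1 : ∀ c, ENNReal.ofReal ((({k : ℤ × (Fin 2 → ℕ) | k ∈ Fc M Zs ∧
        ¬ Ug T Qᶜ D.a r o k.1 k.2 ∧
        (P (T.H (ct c)) ∩ usq (fr (vx D.a r o k.1 k.2) r hr)).Nonempty}).ncard : ℝ) * r ^ 3) ≤
        Ku * volume (P (T.H (ct c))) := by
      intro c
      have h2 : ((({k : ℤ × (Fin 2 → ℕ) | k ∈ Fc M Zs ∧ ¬ Ug T Qᶜ D.a r o k.1 k.2 ∧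
          (P (T.H (ct c)) ∩ usq (fr (vx D.a r o k.1 k.2) r hr)).Nonempty}).ncard : ℝ)) * r ^ 3 ≤
          cntA T r hr D.a o M Zs (ct c) := by
        unfold cntA
        refine mul_le_mul_of_nonneg_right ?_ (by positivity)
        have hfin : {k : ℤ × (Fin 2 → ℕ) | k ∈ Fc M Zs ∧
            (P (T.H (ct c)) ∩ usq (fr (vx D.a r o k.1 k.2) r hr)).Nonempty}.Finite :=
          (Fc M Zs).finite_toSet.subset fun k hk => hk.1
        have hsub : {k : ℤ × (Fin 2 → ℕ) | k ∈ Fc M Zs ∧ ¬ Ug T Qᶜ D.a r o k.1 k.2 ∧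
            (P (T.H (ct c)) ∩ usq (fr (vx D.a r o k.1 k.2) r hr)).Nonempty} ⊆
            {k : ℤ × (Fin 2 → ℕ) | k ∈ Fc M Zs ∧
            (P (T.H (ct c)) ∩ usq (fr (vx D.a r o k.1 k.2) r hr)).Nonempty} :=
          fun k hk => ⟨hk.1, hk.2.2⟩
        exact_mod_cast Set.ncard_le_ncard hsub hfin
      exact (ENNReal.ofReal_le_ofReal h2).trans ((H.cnt (ct c)).trans (by gcongr; exact H.cwc c))
    calc _ ≤ ∑' c : Φ.F, ENNReal.ofReal ((1 / lam c * ‖lin (A c)‖) ^ p) *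
          (Ku * volume (P (T.H (ct c)))) := ENNReal.tsum_le_tsum fun c => by gcongr; exact h1 c
      _ = Ku * ∑' c : Φ.F, ENNReal.ofReal ((1 / lam c * ‖lin (A c)‖) ^ p) *
          volume (P (T.H (ct c))) := by
          rw [← ENNReal.tsum_mul_left]
          refine tsum_congr fun c => ?_
          ring
      _ ≤ Ku * e4 := by gcongr; exact H.cs
      _ ≤ ENNReal.ofReal (ε' * (2 / L)) := he4'
      _ ≤ _ := by
          refine ENNReal.ofReal_le_ofReal ?_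
          have := mul_le_mul_of_nonneg_left H.N1 hε'
          linarith

end main

end

end Crest.Agent.R096.Pgn_276
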