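import Crest.Agent.R096.Nge1_423
import Crest.Agent.R096.Pgn1_276

/-!
Row 96 (S0127), helper423, node NO0-PRE3: **the top composition**
`noPre_of : 3 ≤ p → ExFront3 p → ExMeshN p → ExPreN p → NOPre p`.
-/

set_option autoImplicit false
set_option linter.unusedSectionVars false
set_option linter.unusedVariables false
open Set Filter Topology MeasureTheory Metric
open scoped NNReal ENNReal

noncomputable section

namespace Crest.Agent.R096.Nge_423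

open Crest.Agent.R096.Msh_715 hiding P I
open Crest.Agent.R096.SkC1_961 (E3 Cfg FoamD Hom3)
open Crest.Agent.R096.Brk5_582 Crest.Agent.R096.Bsp_628
open Crest.Agent.R096.Dic6_582 (dF kF)
open Crest.Agent.R096.Npr_582 (cN)
open Crest.Agent.R096.Er_594 (SH3)
open Crest.Agent.R96.En10_199 (P3)
open Crest.Agent.R096.Nl_234 (HWq)
open Crest.Agent.R096.Msh_810
open Crest.Agent.R096.No_276
open Crest.Agent.R096.Np_962
open Crest.Agent.R096.Gno_324 (Ug 𝒬0)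
open Crest.Agent.R096.Npl_477 (vol_QL)
open Crest.Agent.R096.No0_477 (cub fr Fc vx)
open Crest.Agent.R096.SkN1_477 (usq)

/-- a positive number `y ≤ 1` with `y * A ≤ b` -/
theorem exists_small {A b : ℝ≥0∞} (hA : A ≠ ⊤) (hb : 0 < b) :
    ∃ y : ℝ≥0∞, 0 < y ∧ y ≤ 1 ∧ y * A ≤ b := by
  by_cases hbt : b = ⊤
  · exact ⟨1, one_pos, le_rfl, hbt ▸ le_top⟩
  refine ⟨min 1 (b / (A + 1)), lt_min one_pos (ENNReal.div_pos hb.ne' ?_), min_le_left _ _, ?_⟩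
  · exact ENNReal.add_ne_top.2 ⟨hA, ENNReal.one_ne_top⟩
  · calc min 1 (b / (A + 1)) * A ≤ b / (A + 1) * (A + 1) :=
          mul_le_mul' (min_le_right _ _) le_self_add
      _ = b := ENNReal.div_mul_cancel (by simp) (ENNReal.add_ne_top.2 ⟨hA, ENNReal.one_ne_top⟩)

/-- a small `ε ≠ 0` with `A * (ε + ε ^ p⁻¹) * V ≤ a` and `ε * V' ≤ b` -/
theorem exists_eps {p : ℝ} (hp : 1 ≤ p) {A V V' a b : ℝ≥0∞} (hA : A ≠ ⊤) (hV : V ≠ ⊤)
    (hV' : V' ≠ ⊤) (ha : 0 < a) (hb : 0 < b) :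
    ∃ ε : ℝ≥0∞, 0 < ε ∧ ε ≠ ⊤ ∧ A * (ε + ε ^ p⁻¹) * V ≤ a ∧ ε * V' ≤ b := by
  have hp0 : 0 < p := by linarith
  obtain ⟨y, hy0, hy1, hy⟩ := exists_small (A := 2 * A * V + V') (b := min a b)
    (ENNReal.add_ne_top.2 ⟨ENNReal.mul_ne_top (ENNReal.mul_ne_top (by simp) hA) hV, hV'⟩)
    (lt_min ha hb)
  have hyt : y ≠ ⊤ := (hy1.trans_lt ENNReal.one_lt_top).ne
  have h1 : y ^ p ≤ y := by
    calc y ^ p ≤ y ^ (1:ℝ) := ENNReal.rpow_le_rpow_of_exponent_ge hy1 hp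
      _ = y := ENNReal.rpow_one y
  have h2 : (y ^ p) ^ p⁻¹ = y := by
    rw [← ENNReal.rpow_mul, mul_inv_cancel₀ hp0.ne', ENNReal.rpow_one]
  refine ⟨y ^ p, ENNReal.rpow_pos hy0 hyt, ENNReal.rpow_ne_top_of_nonneg hp0.le hyt, ?_, ?_⟩
  · rw [h2]
    calc A * (y ^ p + y) * V ≤ A * (y + y) * V := by gcongr
      _ = y * (2 * A * V) := by ring
      _ ≤ y * (2 * A * V + V') := mul_le_mul' le_rfl le_self_add
      _ ≤ a := hy.trans (min_le_left _ _)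
  · calc y ^ p * V' ≤ y * V' := by gcongr
      _ ≤ y * (2 * A * V + V') := mul_le_mul' le_rfl le_add_self
      _ ≤ b := hy.trans (min_le_right _ _)

/-- a small `δ' ≤ δ` with `A * δ' ^ p⁻¹ ≤ a` -/
theorem exists_del {p : ℝ} (hp : 1 ≤ p) {A a δ : ℝ≥0∞} (hA : A ≠ ⊤) (ha : 0 < a) (hδ : 0 < δ) :
    ∃ δ' : ℝ≥0∞, 0 < δ' ∧ δ' ≤ δ ∧ A * δ' ^ p⁻¹ ≤ a := by
  have hp0 : 0 < p := by linarith
  obtain ⟨y, hy0, hy1, hy⟩ := exists_small (A := A) (b := a) hA ha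
  have hyt : y ≠ ⊤ := (hy1.trans_lt ENNReal.one_lt_top).ne
  have h2 : (y ^ p) ^ p⁻¹ = y := by
    rw [← ENNReal.rpow_mul, mul_inv_cancel₀ hp0.ne', ENNReal.rpow_one]
  refine ⟨min δ (y ^ p), lt_min hδ (ENNReal.rpow_pos hy0 hyt), min_le_left _ _, ?_⟩
  calc A * min δ (y ^ p) ^ p⁻¹ ≤ A * (y ^ p) ^ p⁻¹ := by
        gcongr
        exact min_le_right _ _
    _ = y * A := by rw [h2, mul_comm]
    _ ≤ a := hy

/-- a dyadic number below two bounds -/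
theorem exists_dyadic {h₀ a : ℝ} (h0 : 0 < h₀) (ha : 0 < a) :
    ∃ h : ℝ, 0 < h ∧ h < h₀ ∧ h < a ∧ ∃ k N : ℕ, h / 2 * 2 ^ k = N := by
  obtain ⟨n, hn⟩ := exists_pow_lt_of_lt_one (lt_min h0 ha) (by norm_num : (1/2 : ℝ) < 1)
  refine ⟨(1/2) ^ n, by positivity, hn.trans_le (min_le_left _ _), hn.trans_le (min_le_right _ _),
    n + 1, 1, ?_⟩
  rw [pow_succ]
  have : ((1:ℝ)/2) ^ n * 2 ^ n = 1 := by rw [← mul_pow]; norm_num
  push_cast
  linarith [this]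

/-- **the top composition of `NOPre p`, `3 ≤ p`** -/
theorem noPre_of {p : ℝ} (hp : 3 ≤ p) (hF : ExFront3 p) (hM : ExMeshN p) (hN : ExPreN p) : NOPre p := by
  have hp1 : 1 ≤ p := by linarith
  obtain ⟨𝒮0, Ku, K, h𝒮0, hKu, hK, hM⟩ := hM
  refine ⟨insert 𝒬0 𝒮0, 1, 1, h𝒮0.insert _, ENNReal.one_ne_top, fun s hs hs2 S1 hS1 => ?_⟩
  obtain ⟨S, KS, hS, hKS, hN⟩ := hN 𝒮0 h𝒮0 Ku hKu s hs S1 hS1
  refine ⟨S, KS, hS, hKS, fun ε η L hL e₂ hε hη hη8 hL1 he₂ => ?_⟩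
  obtain ⟨t1, ht1, hN⟩ := hN ε η L e₂ hε hη hη8 hL1 he₂
  have hL0 : (0:ℝ) < L := by exact_mod_cast hL1
  have hV : volume (QL L) ≠ ⊤ := by rw [vol_QL hL0]; exact ENNReal.ofReal_ne_top
  obtain ⟨εf, hεf, hεft, hεf1, hεf2⟩ := exists_eps (p := p) hp1 (A := K) (V := volume (QL L))
    (V' := 4) (a := ENNReal.ofReal t1) (b := ENNReal.ofReal (ε / 2)) hK hV (by simp)
    (ENNReal.ofReal_pos.2 ht1)
    (ENNReal.ofReal_pos.2 (by positivity))
  obtain ⟨q, hq, hF⟩ := hF s hs hs2 εf hεf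
  have hq0 : (1:ℝ) ≤ q := by exact_mod_cast hq
  obtain ⟨κ2, hκ2, hM⟩ := hM q hq
  refine ⟨q, dF q, kF q, 6, cN q, κ2, max 8 (4 * q), Dic6_582.dF_pos hq, kF_one q, by norm_num, cN_pos q, hκ2,
    le_max_left _ _, fun C0 C κp ε' hC0 hC hκp hε' => ?_⟩
  obtain ⟨KC, hKC, hM⟩ := hM (max 8 (4 * q)) (le_max_left _ _) (le_max_right _ _) C hC
  obtain ⟨t2, ht2, ht21, hN⟩ := hN C ε' hC hε'
  set κ' : ℝ := min κp t2 with hκ'
  have hκ'0 : 0 < κ' := lt_min hκp ht2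
  have hκ'1 : κ' ≤ 1 := (min_le_right _ _).trans ht21
  set e5 : ℝ := min ε t2 with he5
  have he50 : 0 < e5 := lt_min hε ht2
  set V : ℝ≥0∞ := volume (QL L) with hVdef
  obtain ⟨εf', hεf', hεf'1, hεf'2⟩ := exists_small
    (A := K + K * V + KC * V + V + Ku * V + 4)
    (b := min (ENNReal.ofReal e5) (min (ENNReal.ofReal (t2 / 2)) (min (ENNReal.ofReal ε')
      (min (ENNReal.ofReal (ε' * (2 / L))) (ENNReal.ofReal (ε / 2))))))
    (by
      refine ENNReal.add_ne_top.2 ⟨ENNReal.add_ne_top.2 ⟨ENNReal.add_ne_top.2 ⟨ENNReal.add_ne_top.2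
        ⟨ENNReal.add_ne_top.2 ⟨hK, ENNReal.mul_ne_top hK hV⟩, ENNReal.mul_ne_top hKC hV⟩, hV⟩,
        ENNReal.mul_ne_top hKu hV⟩, by simp⟩)
    (by
      refine lt_min (ENNReal.ofReal_pos.2 he50) (lt_min (ENNReal.ofReal_pos.2 (by positivity))
        (lt_min (ENNReal.ofReal_pos.2 hε') (lt_min (ENNReal.ofReal_pos.2 (by positivity))
        (ENNReal.ofReal_pos.2 (by positivity))))))
  have hsum : εf' * (K + K * V + KC * V + V + Ku * V + 4) =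
      K * εf' + K * εf' * V + KC * εf' * V + εf' * V + Ku * (εf' * V) + εf' * 4 := by ring
  rw [hsum] at hεf'2
  simp only [le_min_iff] at hεf'2
  obtain ⟨hb1, hb2, hb3, hb4, hb5⟩ := hεf'2
  have hc1 : K * εf' ≤ ENNReal.ofReal e5 := le_trans (by
    exact le_trans (le_trans (le_trans (le_trans le_self_add le_self_add) le_self_add) le_self_add)
      le_self_add) hb1
  have hc2 : K * εf' * V ≤ ENNReal.ofReal (t2 / 2) := le_trans (by
    exact le_trans (le_trans (le_trans (le_trans le_add_self le_self_add) le_self_add) le_self_add)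
      le_self_add) hb2
  have hc3 : KC * εf' * V ≤ ENNReal.ofReal (t2 / 2) := le_trans (by
    exact le_trans (le_trans (le_trans le_add_self le_self_add) le_self_add) le_self_add) hb2
  have hc4 : εf' * V ≤ ENNReal.ofReal ε' := le_trans (by
    exact le_trans (le_trans le_add_self le_self_add) le_self_add) hb3
  have hc5 : Ku * (εf' * V) ≤ ENNReal.ofReal (ε' * (2 / L)) := le_trans (by
    exact le_trans le_add_self le_self_add) hb4
  have hc6 : εf' * 4 ≤ ENNReal.ofReal (ε / 2) := le_trans le_add_self hb5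
  have hc7 : (εf + εf') * 4 ≤ ENNReal.ofReal ε := by
    rw [add_mul]
    refine (add_le_add hεf2 hc6).trans ?_
    rw [← ENNReal.ofReal_add (by positivity) (by positivity), add_halves]
  have hsplit : ENNReal.ofReal (t2 / 2) + ENNReal.ofReal (t2 / 2) = ENNReal.ofReal t2 := by
    rw [← ENNReal.ofReal_add (by positivity) (by positivity)]; congr 1; ring
  obtain ⟨lam0, hlam0, hF⟩ := hF (1 / 8) (by norm_num) le_rfl εf' hεf'
  refine ⟨κ' / 64, by positivity, ?_, fun κ1 hκ1 => ?_⟩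
  · have : κ' ≤ κp := min_le_left _ _
    linarith
  obtain ⟨κ1f, hκ1f, hM⟩ := hM κ' hκ'0 hκ'1 lam0 hlam0 κ1 hκ1
  obtain ⟨δ, hδ, hF⟩ := hF κ1f hκ1f
  obtain ⟨δf, hδf, hδfδ, hδfK⟩ := exists_del (p := p) hp1 (A := K) (a := ENNReal.ofReal e5) (δ := δ)
    hK (ENNReal.ofReal_pos.2 he50) hδ
  obtain ⟨dd, hdd, hdata⟩ := Crest.Agent.R096.Xdt_764.data_front3 (p := p) hp1 hs2 hL1 hL hδf
  refine ⟨dd, hdd, fun U₀ W₀ f G h1 h2 h3 h4 h5 h6 h7 h8 hE hZ => ?_⟩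
  obtain ⟨hO, hne, hb, hcO, hoL, hbL, hcL, hnL, Df, hsh, hE', hdet⟩ :=
    hdata U₀ W₀ f G h1 h2 h3 h4 h5 h6 h7 h8 hE hZ
  obtain ⟨h₀, hh₀, hF⟩ := hF (QL L) _ (fL f L hL) Df hO hne hb hoL hbL hsh
    (hE'.trans (mul_le_mul' hδfδ le_rfl)) (hdet.trans (mul_le_mul' hδfδ le_rfl)) 3 (e5 / 16) le_rfl
    (by positivity)
  obtain ⟨h, hh, hhlt, hhε, hdy⟩ := exists_dyadic hh₀ (a := ε / (C0 * (2 * q))) (by positivity)
  obtain ⟨al, F, bf, cmp, lam, hl, hl4, A, f1, D1, X, HH, g, hfr⟩ := hF h hh hhlt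
  obtain ⟨W, R', D, K0, r, hr, o, M, Zs, ι, T, Q, τ, J0, J, Vc, ct, A', z, θ, φ, Mg, B, cw, hrρ, H⟩ :=
    hM L η hL1 hη hη8 s hs εf εf' δf e5 he50 hεft hc1 hδfK _ (fL f L hL) Df hoL hbL hsh hE' 3
      (e5 / 16) h le_rfl (by positivity) le_rfl hdy al F bf cmp lam hl hl4 A f1 D1 X HH g hfr
      (ENNReal.ofReal (t2 / 2)) t2 (ENNReal.ofReal_pos.2 (by positivity)).ne' ht2
  have hsz : C0 * (2 * q * h) ≤ ε := by
    have hden : 0 < C0 * (2 * q) := by positivity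
    have := (lt_div_iff₀ hden).1 hhε
    nlinarith
  have hPG := Pgn_276.preG_meshN (t := 1) (Cf := 1) hL1 hfr.c hfr.nb H hC0.le hsz
    (mem_insert 𝒬0 𝒮0) (min_le_left _ _) hc7 hc4 hc5 hε.le hε'.le (fun b => b.elim)
    (fun b => b.elim) (fun b => b.elim) (fun b => b.elim) (fun _ => 0)
  refine ⟨f1, al, h, ΦN bf cmp lam hl hl4, ι, T, univ, J0, J, Vc, ct, A', lam, z, θ, φ, Mg, 𝒬0, r, hr,
    D.a, o, M, Zs, Ug T Qᶜ D.a r o, Empty, fun b => b.elim, fun b => b.elim, fun b => b.elim,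
    fun b => b.elim, fun _ => 0, _, _, Or.inr rfl, hPG, fun Z m0 hZ0 => ?_⟩
  refine hN (dF q) (kF q) 6 (cN q) _ ι q al h (ΦN bf cmp lam hl hl4) f1 _ W κ' (κ' / 64) κ1 κ2
    (max 8 (4 * q)) HH R' _ _ _ _ e5 D K0 r hr o M Zs T Q τ J0 J Vc ct A' lam z θ φ Mg B cw H
    (fun x hx => by
      obtain ⟨C', O', a1, a2⟩ := hfr.c.HHw x hx
      exact ⟨C', O', a1, x, rfl, a2⟩) hκ'0.le (min_le_right _ _) hεf1
    ((add_le_add hc2 le_rfl).trans hsplit.le) ((add_le_add hc3 le_rfl).trans hsplit.le)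
    (min_le_right _ _) hrρ κp (min_le_left _ _) (insert 𝒬0 𝒮0) (subset_insert _ _)
    (fun b => b.elim) (fun b => b.elim) (fun b => b.elim) _ (fun i => ?_) (fun i => ?_) Z m0 hZ0
  · have hr0 : 0 < r := by rw [H.rK]; positivity
    positivity
  · have hr0 : 0 < r := by rw [H.rK]; positivity
    unfold cntA
    refine mul_le_mul_of_nonneg_right ?_ (by positivity)
    have hfin : {k : ℤ × (Fin 2 → ℕ) | k ∈ Fc M Zs ∧
        (Msh_715.P (T.H i) ∩ usq (fr (vx D.a r o k.1 k.2) r hr)).Nonempty}.Finite :=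
      (Fc M Zs).finite_toSet.subset fun k hk => hk.1
    have hsub : {k : ℤ × (Fin 2 → ℕ) | k ∈ Fc M Zs ∧ ¬ Ug T Qᶜ D.a r o k.1 k.2 ∧
        (Msh_715.P (T.H i) ∩ usq (fr (vx D.a r o k.1 k.2) r hr)).Nonempty} ⊆
        {k : ℤ × (Fin 2 → ℕ) | k ∈ Fc M Zs ∧
        (Msh_715.P (T.H i) ∩ usq (fr (vx D.a r o k.1 k.2) r hr)).Nonempty} :=
      fun k hk => ⟨hk.1, hk.2.2⟩
    exact_mod_cast Set.ncard_le_ncard hsub hfin

end Crest.Agent.R096.Nge_423
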