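import Crest.Agent.R096.Np6_962

/-!
Row 96 (S0127), helper962, node NO0-PRE3, mesh part: **clause `tl` of `PreN`** from `MeshN`.
-/

set_option autoImplicit false
set_option linter.unusedSectionVars false
set_option linter.unusedVariables false
open Set Filter Topology MeasureTheory Metric
open scoped NNReal ENNReal

noncomputable section

namespace Crest.Agent.R096.Np_962

open Crest.Agent.R096.Msh_715 hiding P I
open Crest.Agent.R096.SkC1_961 (E3 Cfg FoamD Hom3 NN)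
open Crest.Agent.R096.Ls_222
open Crest.Agent.R096.Mbf_337
open Crest.Agent.R96.Pm_199 (le)
open Crest.Agent.R96.Sg1_199 (li sgm)
open Crest.Agent.R096.Msh_810 Crest.Agent.R96.En2_199 Crest.Agent.R96.En4_199
  Crest.Agent.R96.En9_199 Crest.Agent.R96.En11_199
open Crest.Agent.R096.Ps_273
open Crest.Agent.R96.En3_199 (M1)
open Crest.Agent.R096.No0_477 (cub fr Fc vx)
open Crest.Agent.R096.SkN1_477 (usq)
open Crest.Agent.R096.No_276 (QL ShL IZ MU MJ)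
open Crest.Agent.R096.Gno_324 (Ug)
open Crest.Agent.R096.Ea_713 (lin)
open Crest.Agent.R096.Log2_582 (IsLog)
open Crest.Agent.R096.Nl_234 (HWq)

variable {δ κ0 R c0 : ℝ} {La : Set E3} {ι : Type}

/-- constant in front of the volume -/
def KA (p sm S1 : ℝ) : ℝ≥0∞ :=
  2 ^ (p - 1) * 2 ^ p * (2 ^ (p - 1) * (M1 3 * (2 * ENNReal.ofReal sm)) ^ p + ENNReal.ofReal S1 ^ p)

/-- constant in front of the excess -/
def KB (p : ℝ) : ℝ≥0∞ :=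
  2 ^ (p - 1) * 2 ^ p * (2 ^ (p - 1) * (KC 3 p * (2 ^ (p - 1) * (2 ^ p * 3))))

/-- constant in front of the errors -/
def KB0 (p : ℝ) : ℝ≥0∞ :=
  2 ^ (p - 1) * 2 ^ p * (2 ^ (p - 1) * (KC 3 p * (2 ^ (p - 1) * 3 + 3)))

/-- constant in front of the numbers of the bad set -/
def KD (p S1 : ℝ) : ℝ≥0∞ := 2 ^ (p - 1) * 2 ^ p * (2 ^ (p - 1) * 2 ^ p + ENNReal.ofReal S1 ^ p)

/-- constant in front of the numbers of the other tiles -/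
def KE (p : ℝ) : ℝ≥0∞ := 2 ^ (p - 1) * 2 ^ (p - 1) * 2 ^ p

section

variable {p : ℝ} {q : ℕ} {al : Fin 3 → ℝ} {h : ℝ} {s : Fin 3 → ℝ} {L : ℕ} {η : ℝ}
  {Φ : FoamD δ κ0 R c0 La} {f1 : E3 → E3} {g : Φ.F → Fin 3 → E3 → ℝ} {W : Φ.F → ℝ}
  {κ' μ κ1 κ2 κ3 : ℝ} {Cs : Set (Set E3) → ℝ} {𝒮0 : Set (Set (Set E3))} {HH R' : Set E3}
  {e1 e2 e3 e4 : ℝ≥0∞} {e5 : ℝ} {Ku : ℝ≥0∞} {D : Dat 3} {K0 : ℕ} {r : ℝ} {hr : r ≠ 0}
  {o : Fin 2 → ℤ} {M : ℕ} {Zs : Finset ℤ} {T : Tiling (QL L) ι} {Q : Set ι} {τ : ι → Top D}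
  {J0 J V : Φ.F → Set ι} {ct : Φ.F → ι} {A : Φ.F → E3 ≃ᵃ[ℝ] E3} {lam : Φ.F → ℝ} {z : Φ.F → E3}
  {θ : Φ.F → E3 → E3} {φ : Φ.F → E3 → ℝ} {Mg : Φ.F → ℕ} {B : ι → E3 ≃ᵃ[ℝ] E3} {cw : ι → ℝ≥0∞}

theorem ofReal_one_add_le {κ' : ℝ} (h0 : κ' ≤ 1) : ENNReal.ofReal (1 + κ') ≤ 2 := by
  rw [show (2:ℝ≥0∞) = ENNReal.ofReal 2 by norm_num]
  exact ENNReal.ofReal_le_ofReal (by linarith)

namespace MeshN

/-- `en_sharp` with constants -/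
theorem en_sharp' {err : Edg T → ℝ≥0∞} {er : Cel D → ℝ≥0∞} (H : MeshN p q al h s L η Φ f1 g W κ' μ κ1 κ2 κ3 Cs 𝒮0 HH R' e1 e2 e3 e4 e5 Ku D K0 r hr o
    M Zs T Q τ J0 J V ct A lam z θ φ Mg B cw) (hp : 1 ≤ p) (hκ : κ' ≤ 1) (herr : ∀ e, err e ≠ ⊤)
    {S1 : ℝ} (hS1 : 0 ≤ S1) (her : ∀ (e : Edg T) (σ : Cel D), e.1 = σ.c → err e ≤ er σ)
    {e0 : ℝ≥0∞} (hYe : ∀ l, Ye D l p er ≤ e0) {sm : ℝ} (hsm : ∀ l, s l ≤ sm) {A' : Set ι} (hA : A' ⊆ Q)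
    {v : ι → ℝ≥0∞} {K : ℝ≥0∞} (hv : ∀ i ∈ A', v i ≤ K * volume (Msh_715.P (T.H i)))
    {c : ι → ℝ} {c' : ℝ} (hc : ∀ i ∈ A', 0 ≤ c i) (hcc : ∀ i ∈ A', c i ≤ c') :
    ∑' i : A', ENNReal.ofReal ((c i * Nw T r hr D.a o M Zs (Ug T Qᶜ D.a r o) S1 (Fw κ' W g err) i *
      ‖lin (B i)‖) ^ p) * v i ≤ K * ENNReal.ofReal c' ^ p *
        (KA p sm S1 * volume (⋃ i ∈ A', Msh_715.P (T.H i)) + KB p * e1 + KB0 p * e0) := by
  have hp0 : 0 ≤ p := by linarith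
  refine (H.en_sharp hp herr hS1 her hYe hsm hA hv hc hcc).trans ?_
  have h2 := ofReal_one_add_le hκ
  have h2p : ENNReal.ofReal (1 + κ') ^ p ≤ 2 ^ p := ENNReal.rpow_le_rpow h2 hp0
  have h3 : (M1 3 * (ENNReal.ofReal (1 + κ') * ENNReal.ofReal sm)) ^ p ≤
      (M1 3 * (2 * ENNReal.ofReal sm)) ^ p := ENNReal.rpow_le_rpow (by gcongr) hp0
  set v' := volume (⋃ i ∈ A', Msh_715.P (T.H i))
  calc _ ≤ K * (2 ^ (p - 1) * ENNReal.ofReal c' ^ p * 2 ^ p *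
        (2 ^ (p - 1) * ((M1 3 * (2 * ENNReal.ofReal sm)) ^ p * v' +
          KC 3 p * (2 ^ (p - 1) * (2 ^ p * (3 * e1) + 3 * e0))) +
          ENNReal.ofReal S1 ^ p * v')) := by gcongr
    _ ≤ K * ENNReal.ofReal c' ^ p *
        (KA p sm S1 * v' + KB p * e1 + 2 ^ (p - 1) * 2 ^ p * (2 ^ (p - 1) * (KC 3 p *
          (2 ^ (p - 1) * 3))) * e0) := by
        unfold KA KB
        refine le_of_eq ?_
        ring
    _ ≤ _ := by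
        unfold KB0
        gcongr
        exact le_self_add

/-- `en_inside` with constants -/
theorem en_inside' {err : Edg T → ℝ≥0∞} {er : Cel D → ℝ≥0∞} (H : MeshN p q al h s L η Φ f1 g W κ' μ κ1 κ2 κ3 Cs 𝒮0 HH R' e1 e2 e3 e4 e5 Ku D K0 r hr o
    M Zs T Q τ J0 J V ct A lam z θ φ Mg B cw) (hp : 1 ≤ p) (hκ : κ' ≤ 1) (herr : ∀ e, err e ≠ ⊤)
    {S1 : ℝ} (hS1 : 0 ≤ S1) (her : ∀ (e : Edg T) (σ : Cel D), e.1 = σ.c → err e ≤ er σ)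
    {e0 : ℝ≥0∞} (hYe : ∀ l, Ye D l p er ≤ e0) {A' : Set ι} (hA : A' ⊆ Q)
    (hR : ∀ i ∈ A', Msh_715.P (T.H i) ⊆ R')
    {v : ι → ℝ≥0∞} {K : ℝ≥0∞} (hv : ∀ i ∈ A', v i ≤ K * volume (Msh_715.P (T.H i)))
    {c : ι → ℝ} {c' : ℝ} (hc : ∀ i ∈ A', 0 ≤ c i) (hcc : ∀ i ∈ A', c i ≤ c') :
    ∑' i : A', ENNReal.ofReal ((c i * Nw T r hr D.a o M Zs (Ug T Qᶜ D.a r o) S1 (Fw κ' W g err) i *
      ‖lin (B i)‖) ^ p) * v i ≤ K * ENNReal.ofReal c' ^ p * (KD p S1 * e2 + KB0 p * e0) := by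
  have hp0 : 0 ≤ p := by linarith
  refine (H.en_inside hp herr hS1 her hYe hA hR hv hc hcc).trans ?_
  have h2p : ENNReal.ofReal (1 + κ') ^ p ≤ 2 ^ p :=
    ENNReal.rpow_le_rpow (ofReal_one_add_le hκ) hp0
  calc _ ≤ K * (2 ^ (p - 1) * ENNReal.ofReal c' ^ p * 2 ^ p *
        (2 ^ (p - 1) * (2 ^ p * e2 + KC 3 p * (3 * e0)) + ENNReal.ofReal S1 ^ p * e2)) := by gcongr
    _ = K * ENNReal.ofReal c' ^ p *
        (KD p S1 * e2 + 2 ^ (p - 1) * 2 ^ p * (2 ^ (p - 1) * (KC 3 p * 3)) * e0) := by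
        unfold KD
        ring
    _ ≤ _ := by
        unfold KB0
        gcongr
        exact le_add_self

/-- `en_nonQ` with constants -/
theorem en_nonQ' {err : Edg T → ℝ≥0∞} (H : MeshN p q al h s L η Φ f1 g W κ' μ κ1 κ2 κ3 Cs 𝒮0 HH R' e1 e2 e3 e4 e5 Ku D K0 r hr o
    M Zs T Q τ J0 J V ct A lam z θ φ Mg B cw) (hp : 1 ≤ p) (hκ : κ' ≤ 1) (hC : ∀ 𝒦, 0 ≤ Cs 𝒦)
    (herr : ∀ e, err e ≠ ⊤) (S1 : ℝ) {e0 : ℝ≥0∞}
    (hnE : ∑' i : {i // i ∉ Q ∧ ∀ c, i ≠ ct c},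
      (ENNReal.ofReal (Cs ((fun K => B i.1 '' K) '' Cfg T i.1) * ‖lin (B i.1)‖) *
        ∑ e ∈ eIn T i.1, err e) ^ p * ((1 + cw i.1) * volume (Msh_715.P (T.H i.1))) ≤ e0) :
    ∑' i : {i // i ∉ Q ∧ ∀ c, i ≠ ct c},
      ENNReal.ofReal ((Cs ((fun K => B i.1 '' K) '' Cfg T i.1) *
        Nw T r hr D.a o M Zs (Ug T Qᶜ D.a r o) S1 (Fw κ' W g err) i.1 * ‖lin (B i.1)‖) ^ p) *
        ((1 + cw i.1) * volume (Msh_715.P (T.H i.1))) ≤ KE p * (e3 + e0) := by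
  have hp0 : 0 ≤ p := by linarith
  refine (H.en_nonQ hp hC herr S1 hnE).trans ?_
  have h2p : ENNReal.ofReal (1 + κ') ^ p ≤ 2 ^ p :=
    ENNReal.rpow_le_rpow (ofReal_one_add_le hκ) hp0
  have h1 : (1:ℝ≥0∞) ≤ 2 ^ p := ENNReal.one_le_rpow (by norm_num) (by linarith)
  unfold KE
  calc _ ≤ 2 ^ (p - 1) * 2 ^ (p - 1) * (2 ^ p * e3 + 2 ^ p * e0) := by
        gcongr
        calc e0 = 1 * e0 := (one_mul _).symm
          _ ≤ _ := by gcongr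
    _ = _ := by ring


/-- the tiles over the horizontal log walls -/
def HTs {Om : Set E3} (T : Tiling Om ι) (Q : Set ι) (HH : Set E3) : Set ι :=
  {i | i ∈ Q ∧ Msh_715.P (T.H i) ⊆ HH}

theorem HTs_sub {Om : Set E3} {T : Tiling Om ι} : HTs T Q HH ⊆ Q := fun _ hi => hi.1

/-- **clause `tl` of `PreN`** -/
theorem tl_of {err : Edg T → ℝ≥0∞} {er : Cel D → ℝ≥0∞} (H : MeshN p q al h s L η Φ f1 g W κ' μ κ1 κ2 κ3 Cs 𝒮0 HH R' e1 e2 e3 e4 e5 Ku D K0 r hr o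
    M Zs T Q τ J0 J V ct A lam z θ φ Mg B cw)
    (HHw : ∀ x ∈ HH, HWq Φ f1 q al h {x})
    (hp : 1 ≤ p) (hκ : κ' ≤ 1) (hC : ∀ 𝒦, 0 ≤ Cs 𝒦) (herr : ∀ e, err e ≠ ⊤)
    {S1 : ℝ} (hS1 : 0 ≤ S1) (her : ∀ (e : Edg T) (σ : Cel D), e.1 = σ.c → err e ≤ er σ)
    {e0 : ℝ≥0∞} (hYe : ∀ l, Ye D l p er ≤ e0) {sm : ℝ} (hsm : ∀ l, s l ≤ sm)
    (hnE : ∑' i : {i // i ∉ Q ∧ ∀ c, i ≠ ct c},
      (ENNReal.ofReal (Cs ((fun K => B i.1 '' K) '' Cfg T i.1) * ‖lin (B i.1)‖) *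
        ∑ e ∈ eIn T i.1, err e) ^ p * ((1 + cw i.1) * volume (Msh_715.P (T.H i.1))) ≤ e0)
    {κ : Φ.F → ℕ} {Lv : Φ.F → Finset ℝ}
    (hNN : ∀ i, NN Φ T f1 κ Lv i ≤ ∑ e ∈ eIn T i, Fw κ' W g err e)
    {𝒮 : Set (Set (Set E3))} (hS : 𝒮0 ⊆ 𝒮) {CQ : ℝ} (hCQ : ∀ 𝒦 ∈ 𝒮0, Cs 𝒦 ≤ CQ)
    {β : Type} {b : β → E3} {R1 : β → ℝ} {Sc : β → Finset ι} {cnt : ι → ℝ}
    (hcnt : ∀ i, cnt i ≤ cntA T r hr D.a o M Zs i) {V1 V2 : ℝ≥0∞}
    (hV1 : volume (⋃ i ∈ {i | i ∈ HTs T Q HH ∧ i ∈ IZ T (ShL L η) b R1 Sc},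
      Msh_715.P (T.H i)) ≤ V1)
    (hV2 : volume (⋃ i ∈ {i | i ∈ HTs T Q HH ∧ MJ T r hr D.a o M Zs (Ug T Qᶜ D.a r o) i},
      Msh_715.P (T.H i)) ≤ V2) {ε ε' e₂ KS : ℝ}
    (s1 : KA p sm S1 * volume (QL L) + KB p * e1 + KB0 p * e0 ≤ ENNReal.ofReal (KS / L))
    (s2 : KA p sm S1 * V1 + KB p * e1 + KB0 p * e0 ≤ ENNReal.ofReal ((KS * η + e₂) / L))
    (s3 : ENNReal.ofReal CQ ^ p * (KD p S1 * e2 + KB0 p * e0) + KE p * (e3 + e0) ≤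
      ENNReal.ofReal ε')
    (s4 : Ku * (KA p sm S1 * V2 + KB p * e1 + KB0 p * e0) ≤
      ENNReal.ofReal (ε * ((Zs.card : ℝ) * M ^ 2) * r ^ 3))
    (s5 : Ku * ENNReal.ofReal CQ ^ p * (KD p S1 * e2 + KB0 p * e0) + KE p * (e3 + e0) ≤
      ENNReal.ofReal (ε' * ((Zs.card : ℝ) * M ^ 2) * r ^ 3)) :
    ∃ (B : ι → E3 ≃ᵃ[ℝ] E3) (N : ι → ℝ) (HT : Set ι), (∀ i, 0 ≤ N i) ∧
    (∀ i, (∀ c, i ∉ V c) → NN Φ T f1 κ Lv i ≤ ENNReal.ofReal (N i)) ∧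
    (∀ i, (∀ c, i ∉ V c) → MU T r hr D.a o M Zs (Ug T Qᶜ D.a r o) i → S1 * r ≤ N i) ∧
    (∀ i ∈ HT, (∀ c, i ∉ V c) ∧ (∀ c, ∀ j ∈ V c, Disjoint (Msh_715.P (T.H i)) (Msh_715.P (T.H j))) ∧
      HWq Φ f1 q al h (Msh_715.P (T.H i)) ∧ (fun K => B i '' K) '' Cfg T i ∈ 𝒮) ∧
    ∑' i : {i // i ∈ HT}, ENNReal.ofReal ((N i * ‖lin (B i)‖) ^ p) * volume (Msh_715.P (T.H i)) ≤
      ENNReal.ofReal (KS / L) ∧
    ∑' i : {i // i ∈ HT ∧ i ∈ IZ T (ShL L η) b R1 Sc},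
      ENNReal.ofReal ((N i * ‖lin (B i)‖) ^ p) * volume (Msh_715.P (T.H i)) ≤
        ENNReal.ofReal ((KS * η + e₂) / L) ∧
    ∑' i : {i // (∀ c, i ∉ V c) ∧ i ∉ HT},
      ENNReal.ofReal ((Cs ((fun K => B i '' K) '' Cfg T i) * N i * ‖lin (B i)‖) ^ p) *
        volume (Msh_715.P (T.H i)) ≤ ENNReal.ofReal ε' ∧
    ∑' i : {i // i ∈ HT ∧ MJ T r hr D.a o M Zs (Ug T Qᶜ D.a r o) i},
      ENNReal.ofReal ((N i * ‖lin (B i)‖) ^ p) * ENNReal.ofReal (cnt i) ≤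
        ENNReal.ofReal (ε * ((Zs.card : ℝ) * M ^ 2) * r ^ 3) ∧
    ∑' i : {i // ((∀ c, i ∉ V c) ∧ i ∉ HT) ∧ MJ T r hr D.a o M Zs (Ug T Qᶜ D.a r o) i},
      ENNReal.ofReal ((Cs ((fun K => B i '' K) '' Cfg T i) * N i * ‖lin (B i)‖) ^ p) *
        ENNReal.ofReal (cnt i) ≤ ENNReal.ofReal (ε' * ((Zs.card : ℝ) * M ^ 2) * r ^ 3) := by
  classical
  have hr0 := H.r0
  set N : ι → ℝ := fun i => Nw T r hr D.a o M Zs (Ug T Qᶜ D.a r o) S1 (Fw κ' W g err) i with hNd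
  have hN0 : ∀ i, 0 ≤ N i := fun i => by
    simp only [hNd, Nw]
    refine add_nonneg ENNReal.toReal_nonneg ?_
    split_ifs
    · positivity
    · exact le_rfl
  have hQV : ∀ i ∈ Q, ∀ c, i ∉ V c := by
    intro i hi c hic
    rw [H.Vct c, mem_singleton_iff] at hic
    have h1 := H.dis i hi c
    rw [← hic, disjoint_self] at h1
    obtain ⟨x, hx⟩ := T.ne i
    exact (Set.bot_eq_empty ▸ h1 ▸ I_sub_P _ hx : x ∈ (∅ : Set E3))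
  have hVne : ∀ i, (∀ c, i ∉ V c) → ∀ c, i ≠ ct c := by
    intro i hi c hic
    exact hi c (by rw [H.Vct c, hic]; exact mem_singleton _)
  have hcw : ∀ i, ENNReal.ofReal (cnt i) ≤ cw i * volume (Msh_715.P (T.H i)) := fun i =>
    (ENNReal.ofReal_le_ofReal (hcnt i)).trans (H.cnt i)
  have hcwQ : ∀ i ∈ Q, ENNReal.ofReal (cnt i) ≤ Ku * volume (Msh_715.P (T.H i)) := fun i hi =>
    (hcw i).trans (mul_le_mul' (H.cwQ i hi) le_rfl)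
  have hvQ : volume (⋃ i ∈ HTs T Q HH, Msh_715.P (T.H i)) ≤ volume (QL L) :=
    measure_mono (iUnion₂_subset fun i _ => T.sub i)
  -- tiles which are not in `HT`
  set CC : ι → ℝ := fun i => Cs ((fun K => B i '' K) '' Cfg T i) with hCC
  have hsplit : {i | (∀ c, i ∉ V c) ∧ i ∉ HTs T Q HH} ⊆
      {i | i ∈ Q ∧ Msh_715.P (T.H i) ⊆ R'} ∪ {i | i ∉ Q ∧ ∀ c, i ≠ ct c} := by
    rintro i ⟨h1, h2⟩
    by_cases hi : i ∈ Q
    · left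
      refine ⟨hi, ?_⟩
      rcases H.HR i hi with h3 | h3
      · exact absurd ⟨hi, h3⟩ h2
      · exact h3
    · right
      exact ⟨hi, hVne i h1⟩
  have g3 : ∀ (v : ι → ℝ≥0∞) (K : ℝ≥0∞), (∀ i ∈ Q, v i ≤ K * volume (Msh_715.P (T.H i))) →
      (∀ i, v i ≤ (1 + cw i) * volume (Msh_715.P (T.H i))) →
      ∑' i : {i | (∀ c, i ∉ V c) ∧ i ∉ HTs T Q HH},
        ENNReal.ofReal ((CC i * N i * ‖lin (B i)‖) ^ p) * v i ≤
      K * ENNReal.ofReal CQ ^ p * (KD p S1 * e2 + KB0 p * e0) + KE p * (e3 + e0) := by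
    intro v K hv1 hv2
    refine (tsum_le_add (fun i => ENNReal.ofReal ((CC i * N i * ‖lin (B i)‖) ^ p) * v i)
      hsplit).trans (add_le_add ?_ ?_)
    · exact H.en_inside' hp hκ herr hS1 her hYe (A' := {i | i ∈ Q ∧ Msh_715.P (T.H i) ⊆ R'})
        (fun i hi => hi.1) (fun i hi => hi.2) (v := v) (K := K) (fun i hi => hv1 i hi.1)
        (c := CC) (c' := CQ) (fun i _ => hC _) (fun i hi => hCQ _ (H.shQ i hi.1))
    · refine le_trans (ENNReal.tsum_le_tsum fun i => ?_) (H.en_nonQ' hp hκ hC herr S1 hnE)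
      exact mul_le_mul' le_rfl (hv2 i.1)
  refine ⟨B, N, HTs T Q HH, hN0, ?_, ?_, ?_, ?_, ?_, ?_, ?_, ?_⟩
  · intro i _
    refine (hNN i).trans ?_
    rw [← ENNReal.ofReal_toReal (H.fin_sum herr i)]
    apply ENNReal.ofReal_le_ofReal
    simp only [hNd, Nw]
    have h1 : (0:ℝ) ≤ if MU T r hr D.a o M Zs (Ug T Qᶜ D.a r o) i then S1 * r else 0 := by
      split_ifs
      · positivity
      · exact le_rfl
    linarith
  · intro i _ hMU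
    simp only [hNd, Nw]
    rw [if_pos hMU]
    have := ENNReal.toReal_nonneg (a := ∑ e ∈ eIn T i, Fw κ' W g err e)
    linarith
  · intro i hi
    refine ⟨hQV i hi.1, fun c j hj => ?_, ?_, hS (H.shQ i hi.1)⟩
    · rw [H.Vct c, mem_singleton_iff] at hj
      rw [hj]
      exact H.dis i hi.1 c
    · obtain ⟨x, hx⟩ := T.ne i
      have hxP : x ∈ Msh_715.P (T.H i) := I_sub_P _ hx
      obtain ⟨C, O, hCO, y, hy, hyP⟩ := HHw x (hi.2 hxP)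
      rw [mem_singleton_iff] at hy
      subst hy
      exact ⟨C, O, hCO, y, hxP, hyP⟩
  · refine le_trans ?_ s1
    have h1 := H.en_sharp' hp hκ herr hS1 her hYe hsm (A' := HTs T Q HH) HTs_sub
      (v := fun i => volume (Msh_715.P (T.H i))) (K := 1) (fun i _ => by rw [one_mul])
      (c := fun _ => 1) (c' := 1) (fun _ _ => zero_le_one) (fun _ _ => le_rfl)
    simp only [one_mul, ENNReal.ofReal_one, ENNReal.one_rpow] at h1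
    refine h1.trans ?_
    gcongr
  · refine le_trans ?_ s2
    have h1 := H.en_sharp' hp hκ herr hS1 her hYe hsm
      (A' := {i | i ∈ HTs T Q HH ∧ i ∈ IZ T (ShL L η) b R1 Sc}) (fun i hi => hi.1.1)
      (v := fun i => volume (Msh_715.P (T.H i))) (K := 1) (fun i _ => by rw [one_mul])
      (c := fun _ => 1) (c' := 1) (fun _ _ => zero_le_one) (fun _ _ => le_rfl)
    simp only [one_mul, ENNReal.ofReal_one, ENNReal.one_rpow] at h1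
    refine h1.trans ?_
    gcongr
  · refine le_trans ?_ s3
    have h1 := g3 (fun i => volume (Msh_715.P (T.H i))) 1 (fun i _ => by rw [one_mul])
      (fun i => by
        calc volume (Msh_715.P (T.H i)) = 1 * volume (Msh_715.P (T.H i)) := (one_mul _).symm
          _ ≤ _ := by gcongr; exact le_self_add)
    rw [one_mul] at h1
    exact h1
  · refine le_trans ?_ s4
    have h1 := H.en_sharp' hp hκ herr hS1 her hYe hsm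
      (A' := {i | i ∈ HTs T Q HH ∧ MJ T r hr D.a o M Zs (Ug T Qᶜ D.a r o) i}) (fun i hi => hi.1.1)
      (v := fun i => ENNReal.ofReal (cnt i)) (K := Ku) (fun i hi => hcwQ i hi.1.1)
      (c := fun _ => 1) (c' := 1) (fun _ _ => zero_le_one) (fun _ _ => le_rfl)
    simp only [one_mul, mul_one, ENNReal.ofReal_one, ENNReal.one_rpow] at h1
    refine h1.trans ?_
    gcongr
  · refine le_trans ?_ s5
    refine le_trans ?_ (g3 (fun i => ENNReal.ofReal (cnt i)) Ku hcwQ (fun i => by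
      refine (hcw i).trans ?_
      gcongr
      exact le_add_self))
    exact ENNReal.tsum_mono_subtype (fun i => ENNReal.ofReal ((CC i * N i * ‖lin (B i)‖) ^ p) *
      ENNReal.ofReal (cnt i)) (s := {i | ((∀ c, i ∉ V c) ∧ i ∉ HTs T Q HH) ∧
        MJ T r hr D.a o M Zs (Ug T Qᶜ D.a r o) i})
      (t := {i | (∀ c, i ∉ V c) ∧ i ∉ HTs T Q HH}) (fun i hi => hi.1)

end MeshN

end

end Crest.Agent.R096.Np_962
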