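/-
helper273, row 96, NO0-PRE [SHV] (552 #10991 (I6)): the volume of the tiles which meet the shell.
-/
import Crest.Agent.R096.No6_276

set_option autoImplicit false

open Set MeasureTheory Filter Topology Metric
open scoped ENNReal

namespace Crest.Agent.R096.Shv_273

open Crest.Agent.R096.Msh_715 Crest.Agent.R096.SkC1_961 Crest.Agent.R096.No_276

noncomputable section

/-- box with the sides `[c - w, c + w]` -/
theorem vol_box (lo hi : E3) (u L : ℝ) (h : (∏ i, ENNReal.ofReal (hi i - lo i)) =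
    ENNReal.ofReal (4 * u / L)) : volume (Icc lo hi) = ENNReal.ofReal (4 * u / L) := by
  rw [Real.volume_Icc_pi, h]

/-- the shell of width `u` in the box -/
def Sv (L u : ℝ) : Set E3 := {x | x ∈ QL L ∧ (1 - u < |x 0| ∨ 1 - u < |x 1| ∨ 1 - u < |L * x 2|)}

theorem vol_Sv {L u : ℝ} (hL : 0 < L) (hu : 0 ≤ u) :
    volume (Sv L u) ≤ ENNReal.ofReal (24 * u / L) := by
  have hu' : 0 ≤ 4 * u / L := by positivity
  have hLi : 0 < 1 / L := by positivity
  have key : ∀ lo hi : E3, hi 0 - lo 0 = u → hi 1 - lo 1 = 2 → hi 2 - lo 2 = 2 / L →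
      volume (Icc lo hi) ≤ ENNReal.ofReal (4 * u / L) := by
    intro lo hi h0 h1 h2
    rw [Real.volume_Icc_pi, Fin.prod_univ_three, h0, h1, h2, ← ENNReal.ofReal_mul hu,
      ← ENNReal.ofReal_mul (by positivity)]
    exact le_of_eq (congrArg _ (by ring))
  have key1 : ∀ lo hi : E3, hi 0 - lo 0 = 2 → hi 1 - lo 1 = u → hi 2 - lo 2 = 2 / L →
      volume (Icc lo hi) ≤ ENNReal.ofReal (4 * u / L) := by
    intro lo hi h0 h1 h2
    rw [Real.volume_Icc_pi, Fin.prod_univ_three, h0, h1, h2, ← ENNReal.ofReal_mul (by norm_num),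
      ← ENNReal.ofReal_mul (by positivity)]
    exact le_of_eq (congrArg _ (by ring))
  have key2 : ∀ lo hi : E3, hi 0 - lo 0 = 2 → hi 1 - lo 1 = 2 → hi 2 - lo 2 = u / L →
      volume (Icc lo hi) ≤ ENNReal.ofReal (4 * u / L) := by
    intro lo hi h0 h1 h2
    rw [Real.volume_Icc_pi, Fin.prod_univ_three, h0, h1, h2, ← ENNReal.ofReal_mul (by norm_num),
      ← ENNReal.ofReal_mul (by positivity)]
    exact le_of_eq (congrArg _ (by ring))
  have hmem : ∀ (x lo hi : E3), lo 0 ≤ x 0 → lo 1 ≤ x 1 → lo 2 ≤ x 2 → x 0 ≤ hi 0 → x 1 ≤ hi 1 →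
      x 2 ≤ hi 2 → x ∈ Icc lo hi := by
    intro x lo hi a1 a2 a3 a4 a5 a6
    constructor
    · intro i; fin_cases i <;> assumption
    · intro i; fin_cases i <;> assumption
  have hsub : Sv L u ⊆ ((Icc (![-1, -1, -(1 / L)] : E3) ![-1 + u, 1, 1 / L] ∪
      Icc (![1 - u, -1, -(1 / L)] : E3) ![1, 1, 1 / L]) ∪
      (Icc (![-1, -1, -(1 / L)] : E3) ![1, -1 + u, 1 / L] ∪
      Icc (![-1, 1 - u, -(1 / L)] : E3) ![1, 1, 1 / L])) ∪
      (Icc (![-1, -1, -(1 / L)] : E3) ![1, 1, -(1 / L) + u / L] ∪
      Icc (![-1, -1, 1 / L - u / L] : E3) ![1, 1, 1 / L]) := by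
    rintro x ⟨⟨h0, h1, h2⟩, hx⟩
    rw [abs_lt] at h0 h1
    have h2' : -(1 / L) ≤ x 2 ∧ x 2 ≤ 1 / L := by
      rw [abs_lt] at h2
      constructor
      · rw [← neg_div, div_le_iff₀ hL]; linarith [h2.1]
      · rw [le_div_iff₀ hL]; linarith [h2.2]
    rcases hx with hx | hx | hx
    · left; left
      rcases lt_abs.1 hx with h | h
      · right
        exact hmem x _ _ (by simp; linarith) (by simp; linarith) (by simpa using h2'.1)
          (by simp; linarith) (by simp; linarith) (by simpa using h2'.2)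
      · left
        exact hmem x _ _ (by simp; linarith) (by simp; linarith) (by simpa using h2'.1)
          (by simp; linarith) (by simp; linarith) (by simpa using h2'.2)
    · left; right
      rcases lt_abs.1 hx with h | h
      · right
        exact hmem x _ _ (by simp; linarith) (by simp; linarith) (by simpa using h2'.1)
          (by simp; linarith) (by simp; linarith) (by simpa using h2'.2)
      · left
        exact hmem x _ _ (by simp; linarith) (by simp; linarith) (by simpa using h2'.1)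
          (by simp; linarith) (by simp; linarith) (by simpa using h2'.2)
    · right
      rcases lt_abs.1 hx with h | h
      · right
        have h5 : 1 / L - u / L ≤ x 2 := by
          rw [← sub_div, div_le_iff₀ hL]; linarith
        exact hmem x _ _ (by simp; linarith) (by simp; linarith) (by simpa using h5)
          (by simp; linarith) (by simp; linarith) (by simpa using h2'.2)
      · left
        have h5 : x 2 ≤ -(1 / L) + u / L := by
          rw [← neg_div, ← add_div, le_div_iff₀ hL]; linarith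
        exact hmem x _ _ (by simp; linarith) (by simp; linarith) (by simpa using h2'.1)
          (by simp; linarith) (by simp; linarith) (by simpa using h5)
  have h24 : ENNReal.ofReal (24 * u / L) = ((ENNReal.ofReal (4 * u / L) +
      ENNReal.ofReal (4 * u / L)) + (ENNReal.ofReal (4 * u / L) + ENNReal.ofReal (4 * u / L))) +
      (ENNReal.ofReal (4 * u / L) + ENNReal.ofReal (4 * u / L)) := by
    rw [← ENNReal.ofReal_add hu' hu', ← ENNReal.ofReal_add (by positivity) (by positivity),
      ← ENNReal.ofReal_add (by positivity) (by positivity)]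
    congr 1
    ring
  rw [h24]
  refine (measure_mono hsub).trans ((measure_union_le _ _).trans (add_le_add
    ((measure_union_le _ _).trans (add_le_add ((measure_union_le _ _).trans (add_le_add ?_ ?_))
      ((measure_union_le _ _).trans (add_le_add ?_ ?_)))) ((measure_union_le _ _).trans
        (add_le_add ?_ ?_))))
  · exact key _ _ (by simp) (by simp; norm_num) (by simp; ring)
  · exact key _ _ (by simp) (by simp; norm_num) (by simp; ring)
  · exact key1 _ _ (by simp; norm_num) (by simp) (by simp; ring)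
  · exact key1 _ _ (by simp; norm_num) (by simp) (by simp; ring)
  · exact key2 _ _ (by simp; norm_num) (by simp; norm_num) (by simp)
  · exact key2 _ _ (by simp; norm_num) (by simp; norm_num) (by simp)

/-- **[SHV]: the volume of the tiles which count for the shell** -/
theorem shell_vol {L : ℕ} (hL : 1 ≤ L) {η t : ℝ} (hη : 0 < η) (ht : 0 ≤ t) {ι β : Type}
    {T : Tiling (QL L) ι} {b : β → E3} {R1 : β → ℝ} {Sc : β → Finset ι}
    (hT : ∀ i, ∀ x ∈ P (T.H i), ∀ y ∈ P (T.H i), ‖x - y‖ ≤ t) (hR : ∀ c, R1 c ≤ t)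
    (hS : ∀ c, ∀ i ∈ Sc c, (P (T.H i) ∩ closedBall (b c) (R1 c)).Nonempty) :
    volume (⋃ i ∈ {i | i ∈ IZ T (ShL L η) b R1 Sc}, P (T.H i)) ≤
      ENNReal.ofReal ((48 * η + 72 * L * t) / L) := by
  have hL0 : (0:ℝ) < L := by exact_mod_cast hL
  have hL1 : (1:ℝ) ≤ L := by exact_mod_cast hL
  have hu : 0 ≤ 2 * η + 3 * L * t := by positivity
  refine (measure_mono ?_).trans ((vol_Sv hL0 hu).trans (ENNReal.ofReal_le_ofReal (le_of_eq ?_)))
  swap
  · ring
  intro x hx
  simp only [mem_iUnion, exists_prop] at hx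
  obtain ⟨i, hi, hxi⟩ := hx
  have hy : ∃ y ∈ ShL L η, ‖x - y‖ ≤ 3 * t := by
    rcases hi with ⟨y, hy1, hy2⟩ | ⟨c, ⟨y, hy1, hy2⟩, hc⟩
    · exact ⟨y, hy2, (hT i x hxi y hy1).trans (by linarith)⟩
    · obtain ⟨z, hz1, hz2⟩ := hS c i hc
      refine ⟨y, hy2, ?_⟩
      rw [mem_closedBall, dist_eq_norm] at hy1 hz2
      have h1 := hT i x hxi z hz1
      have h2 := hR c
      calc ‖x - y‖ = ‖(x - z) + ((z - b c) - (y - b c))‖ := by congr 1; abel
        _ ≤ ‖x - z‖ + (‖z - b c‖ + ‖y - b c‖) :=
          (norm_add_le _ _).trans (add_le_add le_rfl (norm_sub_le _ _))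
        _ ≤ t + (t + t) := by gcongr <;> linarith
        _ = 3 * t := by ring
  obtain ⟨y, ⟨hyQ, hy2⟩, hxy⟩ := hy
  have hco : ∀ j, |x j - y j| ≤ 3 * t := fun j => (norm_le_pi_norm (x - y) j).trans hxy
  have hab : ∀ j, |y j| - 3 * t ≤ |x j| := by
    intro j
    have h1 : |y j| ≤ |x j| + |x j - y j| := by
      have h2 : y j = x j - (x j - y j) := by ring
      calc |y j| = |x j - (x j - y j)| := by rw [← h2]
        _ ≤ _ := abs_sub _ _
    linarith [hco j]
  refine ⟨T.sub i hxi, ?_⟩
  have hLt : 3 * t ≤ 3 * L * t := by nlinarith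
  simp only [mem_ofPred_eq] at hy2
  rcases hy2 with h | h | h
  · left
    linarith [hab 0]
  · right; left
    linarith [hab 1]
  · right; right
    rw [abs_mul, abs_of_pos hL0] at h ⊢
    have h3 := mul_le_mul_of_nonneg_left (hab 2) hL0.le
    nlinarith

end

end Crest.Agent.R096.Shv_273
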