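import Crest.Agent.R096.Np4_962
import Crest.Agent.R096.Shv1_273
import Crest.Agent.R096.Cnt2_197

/-!
Row 96 (S0127), helper57, node NO0-PRE3, leaf **[P-V]** of 962 #11402: the volume of base tiles which
meet the shell / the junk squares.
-/

set_option autoImplicit false
open Set Filter Topology MeasureTheory Metric
open scoped NNReal ENNReal

noncomputable section

namespace Crest.Agent.R096.Npv_57

open Crest.Agent.R096.Msh_715 hiding P I
open Crest.Agent.R096.SkC1_961 (E3)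
open Crest.Agent.R096.Msh_810
open Crest.Agent.R096.Ps_273
open Crest.Agent.R096.No0_477 (cub fr Fc vx)
open Crest.Agent.R096.SkN1_477 (usq)
open Crest.Agent.R096.No_276 (QL ShL IZ MJ)

section Gen
variable {Om : Set E3} {ι : Type} {T : Tiling Om ι}

/-- the tiles of `A` meet the junk squares and have sup-diameter `≤ r`: volume of the union -/
theorem junk_vol {r : ℝ} (hr : 0 < r) {a : E3} {o : Fin 2 → ℤ} {M : ℕ} {Zs : Finset ℤ}
    {U : ℤ → (Fin 2 → ℕ) → Prop} {A : Set ι}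
    (hT : ∀ i ∈ A, ∀ x ∈ Msh_715.P (T.H i), ∀ y ∈ Msh_715.P (T.H i), ‖x - y‖ ≤ r)
    (hm : ∀ i ∈ A, MJ T r hr.ne' a o M Zs U i) :
    volume (⋃ i ∈ A, Msh_715.P (T.H i)) ≤
      ENNReal.ofReal (27 * r ^ 3 *
        (({k : ℤ × (Fin 2 → ℕ) | k ∈ Fc M Zs ∧ ¬ U k.1 k.2}.ncard : ℕ) : ℝ)) := by
  classical
  set J : Set (ℤ × (Fin 2 → ℕ)) := {k | k ∈ Fc M Zs ∧ ¬ U k.1 k.2} with hJ
  have hfin : J.Finite := (Fc M Zs).finite_toSet.subset fun k hk => hk.1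
  set B : ℤ × (Fin 2 → ℕ) → Set E3 := fun k =>
    Icc (fun i => vx a r o k.1 k.2 i - r) (fun i => vx a r o k.1 k.2 i + 2 * r) with hB
  have hvol : ∀ k, volume (B k) = ENNReal.ofReal (27 * r ^ 3) := by
    intro k
    rw [hB]
    simp only
    rw [Real.volume_Icc_pi, Fin.prod_univ_three]
    have e : ∀ i : Fin 3, vx a r o k.1 k.2 i + 2 * r - (vx a r o k.1 k.2 i - r) = 3 * r := by
      intro i; ring
    rw [e, e, e, ← ENNReal.ofReal_mul (by positivity), ← ENNReal.ofReal_mul (by positivity)]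
    congr 1; ring
  have hsub : (⋃ i ∈ A, Msh_715.P (T.H i)) ⊆ ⋃ k ∈ hfin.toFinset, B k := by
    intro x hx
    simp only [mem_iUnion, exists_prop] at hx ⊢
    obtain ⟨i, hi, hxi⟩ := hx
    obtain ⟨k, hk, hkU, y, hy1, hy2⟩ := hm i hi
    refine ⟨k, hfin.mem_toFinset.2 ⟨hk, hkU⟩, ?_⟩
    have hy3 := Cnt2_197.usq_sub_cub (vx a r o k.1 k.2) hr hy2
    have hxy := hT i hi x hxi y hy1
    have hco : ∀ j, |x j - y j| ≤ r := fun j => (norm_le_pi_norm (x - y) j).trans hxy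
    constructor
    · intro j
      have h1 := abs_le.1 (hco j)
      have h2 := hy3 j
      show vx a r o k.1 k.2 j - r ≤ x j
      linarith [h1.1, h2.1]
    · intro j
      have h1 := abs_le.1 (hco j)
      have h2 := hy3 j
      show x j ≤ vx a r o k.1 k.2 j + 2 * r
      linarith [h1.2, h2.2]
  refine (measure_mono hsub).trans ((measure_biUnion_finset_le _ _).trans ?_)
  simp only [hvol]
  rw [Finset.sum_const, nsmul_eq_mul, ncard_eq_toFinset_card J hfin,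
    ENNReal.ofReal_mul (p := 27 * r ^ 3) (by positivity), ENNReal.ofReal_natCast, mul_comm]

/-- the tiles of `A` meet the shell and have sup-diameter `≤ t`: volume of the union -/
theorem shell_vol_on {L : ℕ} (hL : 1 ≤ L) {η t : ℝ} (hη : 0 ≤ η) (ht : 0 ≤ t) {ι : Type}
    {T : Tiling (QL L) ι} {A : Set ι}
    (hT : ∀ i ∈ A, ∀ x ∈ Msh_715.P (T.H i), ∀ y ∈ Msh_715.P (T.H i), ‖x - y‖ ≤ t)
    (hS : ∀ i ∈ A, (Msh_715.P (T.H i) ∩ ShL L η).Nonempty) :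
    volume (⋃ i ∈ A, Msh_715.P (T.H i)) ≤ ENNReal.ofReal ((48 * η + 24 * L * t) / L) := by
  have hL0 : (0:ℝ) < L := by exact_mod_cast hL
  have hL1 : (1:ℝ) ≤ L := by exact_mod_cast hL
  have hu : 0 ≤ 2 * η + L * t := by positivity
  refine (measure_mono ?_).trans ((Shv_273.vol_Sv hL0 hu).trans
    (ENNReal.ofReal_le_ofReal (le_of_eq ?_)))
  swap
  · ring
  intro x hx
  simp only [mem_iUnion, exists_prop] at hx
  obtain ⟨i, hi, hxi⟩ := hx
  obtain ⟨y, hyi, hyQ, hy2⟩ := hS i hi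
  have hxy : ‖x - y‖ ≤ t := hT i hi x hxi y hyi
  have hco : ∀ j, |x j - y j| ≤ t := fun j => (norm_le_pi_norm (x - y) j).trans hxy
  have hab : ∀ j, |y j| - t ≤ |x j| := by
    intro j
    have h1 : |y j| ≤ |x j| + |x j - y j| := by
      have h2 : y j = x j - (x j - y j) := by ring
      calc |y j| = |x j - (x j - y j)| := by rw [← h2]
        _ ≤ _ := abs_sub _ _
    linarith [hco j]
  refine ⟨T.sub i hxi, ?_⟩
  have hLt : t ≤ L * t := by nlinarith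
  simp only [mem_ofPred_eq] at hy2
  rcases hy2 with h | h | h
  · left
    linarith [hab 0]
  · right; left
    linarith [hab 1]
  · right; right
    rw [abs_mul, abs_of_pos hL0] at h ⊢
    have h3 := mul_le_mul_of_nonneg_left (hab 2) hL0.le
    nlinarith

end Gen

section Base
variable {Om : Set E3} {ι : Type} {T : Tiling Om ι} {D : Dat 3} {Q : Set ι} {τ : ι → Top D}
  {K0 : ℕ} {r : ℝ}

/-- base tiles of scale `≥ K0` have sup-diameter at most `2 ^ -K0` -/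
theorem diam_Q (H : BaseOn T D Q τ) (rK : r = ((2:ℝ) ^ K0)⁻¹) (scQ : ∀ i ∈ Q, K0 ≤ (τ i).1.1.k)
    {i : ι} (hi : i ∈ Q) {x y : E3} (hx : x ∈ Msh_715.P (T.H i)) (hy : y ∈ Msh_715.P (T.H i)) :
    ‖x - y‖ ≤ r := by
  rw [H.P_eq hi, Top.c_eq] at hx hy
  have hr0 : 0 ≤ r := by rw [rK]; positivity
  have hk : ((2:ℝ) ^ (τ i).1.1.k)⁻¹ ≤ r := by
    rw [rK]
    exact inv_anti₀ (by positivity) (pow_le_pow_right₀ (by norm_num) (scQ i hi))
  refine (pi_norm_le_iff_of_nonneg hr0).2 fun j => le_trans ?_ hk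
  have h1 := mem_Cu.1 hx j
  have h2 := mem_Cu.1 hy j
  unfold ps at h1 h2
  have h2k : (0:ℝ) < 2 ^ (τ i).1.1.k := by positivity
  have h3 : (2:ℝ) ^ (τ i).1.1.k * |x j - y j| ≤ 1 := by
    rw [← abs_of_pos h2k, ← abs_mul, abs_le]
    constructor <;> linarith [h1.1, h1.2, h2.1, h2.2]
  rw [Pi.sub_apply, Real.norm_eq_abs, ← one_div, le_div_iff₀ h2k, mul_comm]
  exact h3

/-- the sum of the volumes is the volume of the union -/
theorem tsum_vol (T : Tiling Om ι) (A : Set ι) :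
    ∑' i : A, volume (Msh_715.P (T.H i)) = volume (⋃ i ∈ A, Msh_715.P (T.H i)) := by
  have hcount : Countable ι := Crest.Agent.R096.Ea_713.countable_ix T
  rw [biUnion_eq_iUnion, measure_iUnion₀]
  · intro i j hij
    exact Crest.Agent.R096.Ea_713.aedisj volume T (fun hh => hij (Subtype.ext hh))
  · intro i
    exact (Msh_715.isClosed_P _).measurableSet.nullMeasurableSet

/-- **[P-V], junk**: base tiles which meet junk squares -/
theorem vol_MJ (H : BaseOn T D Q τ) (rK : r = ((2:ℝ) ^ K0)⁻¹) (scQ : ∀ i ∈ Q, K0 ≤ (τ i).1.1.k)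
    {A : Set ι} (hA : A ⊆ Q) {hr : r ≠ 0} {a : E3} {o : Fin 2 → ℤ} {M : ℕ} {Zs : Finset ℤ}
    {U : ℤ → (Fin 2 → ℕ) → Prop} (hm : ∀ i ∈ A, MJ T r hr a o M Zs U i) :
    ∑' i : A, volume (Msh_715.P (T.H i)) ≤ ENNReal.ofReal (27 * r ^ 3 *
        (({k : ℤ × (Fin 2 → ℕ) | k ∈ Fc M Zs ∧ ¬ U k.1 k.2}.ncard : ℕ) : ℝ)) := by
  have hr0 : 0 < r := by rw [rK]; positivity
  rw [tsum_vol T A]
  exact junk_vol hr0 (fun i hi x hx y hy => diam_Q H rK scQ (hA hi) hx hy) hm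

/-- the same with the field `junk` of `MeshN` -/
theorem vol_MJ_le (H : BaseOn T D Q τ) (rK : r = ((2:ℝ) ^ K0)⁻¹)
    (scQ : ∀ i ∈ Q, K0 ≤ (τ i).1.1.k) {A : Set ι} (hA : A ⊆ Q) {hr : r ≠ 0} {a : E3}
    {o : Fin 2 → ℤ} {M : ℕ} {Zs : Finset ℤ} {U : ℤ → (Fin 2 → ℕ) → Prop}
    (hm : ∀ i ∈ A, MJ T r hr a o M Zs U i) {e5 : ℝ}
    (junk : ((({k : ℤ × (Fin 2 → ℕ) | k ∈ Fc M Zs ∧ ¬ U k.1 k.2}).ncard : ℕ) : ℝ) ≤
      e5 * ((Zs.card : ℝ) * M ^ 2)) :
    ∑' i : A, volume (Msh_715.P (T.H i)) ≤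
      ENNReal.ofReal (27 * e5 * (((Zs.card : ℝ) * M ^ 2) * r ^ 3)) := by
  have hr0 : 0 < r := by rw [rK]; positivity
  refine (vol_MJ H rK scQ hA hm).trans (ENNReal.ofReal_le_ofReal ?_)
  have h1 := mul_le_mul_of_nonneg_left junk (show 0 ≤ 27 * r ^ 3 by positivity)
  calc _ ≤ 27 * r ^ 3 * (e5 * ((Zs.card : ℝ) * M ^ 2)) := h1
    _ = _ := by ring

end Base

section Shell
variable {L : ℕ} {ι : Type} {T : Tiling (QL L) ι} {D : Dat 3} {Q : Set ι} {τ : ι → Top D}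
  {K0 : ℕ} {r : ℝ}

/-- **[P-V], shell**: base tiles which meet the shell -/
theorem vol_ShL (hL : 1 ≤ L) {η : ℝ} (hη : 0 ≤ η) (H : BaseOn T D Q τ)
    (rK : r = ((2:ℝ) ^ K0)⁻¹) (scQ : ∀ i ∈ Q, K0 ≤ (τ i).1.1.k) {A : Set ι} (hA : A ⊆ Q)
    (hS : ∀ i ∈ A, (Msh_715.P (T.H i) ∩ ShL L η).Nonempty) :
    ∑' i : A, volume (Msh_715.P (T.H i)) ≤ ENNReal.ofReal ((48 * η + 24 * L * r) / L) := by
  have hr0 : 0 < r := by rw [rK]; positivity
  rw [tsum_vol T A]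
  exact shell_vol_on hL hη hr0.le (fun i hi x hx y hy => diam_Q H rK scQ (hA hi) hx hy) hS

/-- the same for the set `IZ` of `PreN` without macro balls -/
theorem vol_IZ (hL : 1 ≤ L) {η : ℝ} (hη : 0 ≤ η) (H : BaseOn T D Q τ)
    (rK : r = ((2:ℝ) ^ K0)⁻¹) (scQ : ∀ i ∈ Q, K0 ≤ (τ i).1.1.k) {A : Set ι} (hA : A ⊆ Q)
    {β : Type} [IsEmpty β] {b : β → E3} {R1 : β → ℝ} {Sc : β → Finset ι}
    (hS : ∀ i ∈ A, i ∈ IZ T (ShL L η) b R1 Sc) :
    ∑' i : A, volume (Msh_715.P (T.H i)) ≤ ENNReal.ofReal ((48 * η + 24 * L * r) / L) := by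
  refine vol_ShL hL hη H rK scQ hA fun i hi => ?_
  rcases hS i hi with h | ⟨c, -⟩
  · exact h
  · exact isEmptyElim c

end Shell

end Crest.Agent.R096.Npv_57
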