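import Crest.Agent.R096.Np5_962

/-!
Row 96 (S0127), helper962, node NO0-PRE3, mesh part: **the energies of the tiles** (clause `tl` of
`PreN`) from `MeshN`.
-/

set_option autoImplicit false
set_option linter.unusedSectionVars false
set_option linter.unusedVariables false
open Set Filter Topology MeasureTheory Metric
open scoped NNReal ENNReal

noncomputable section

namespace Crest.Agent.R096.Np_962

open Crest.Agent.R096.Msh_715 hiding P I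
open Crest.Agent.R096.SkC1_961 (E3 Cfg FoamD Hom3 NN)
open Crest.Agent.R096.Ls_222
open Crest.Agent.R096.Mbf_337
open Crest.Agent.R96.Pm_199 (le)
open Crest.Agent.R96.Sg1_199 (li sgm)
open Crest.Agent.R096.Msh_810 Crest.Agent.R96.En2_199 Crest.Agent.R96.En4_199
  Crest.Agent.R96.En9_199 Crest.Agent.R96.En11_199
open Crest.Agent.R096.Ps_273
open Crest.Agent.R96.En3_199 (M1)
open Crest.Agent.R96.En5_199 Crest.Agent.R96.En6_199 Crest.Agent.R96.En7_199 Crest.Agent.R96.En8_199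
open Crest.Agent.R096.No0_477 (cub fr Fc vx)
open Crest.Agent.R096.SkN1_477 (usq)
open Crest.Agent.R096.No_276 (QL ShL IZ MU MJ)
open Crest.Agent.R096.Gno_324 (Ug)
open Crest.Agent.R096.Ea_713 (lin)
open Crest.Agent.R096.Log2_582 (IsLog)

/-! ### sums over subsets -/

theorem tsum_le_add {ι : Type*} (f : ι → ℝ≥0∞) {A B C : Set ι} (h : A ⊆ B ∪ C) :
    ∑' i : A, f i ≤ ∑' i : B, f i + ∑' i : C, f i :=
  (ENNReal.tsum_mono_subtype f h).trans (ENNReal.tsum_union_le f B C)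

/-- the `p`-th power of `c (X + t) b` -/
theorem ofReal_pow_le {p : ℝ} (hp : 1 ≤ p) {X : ℝ≥0∞} (hX : X ≠ ⊤) {c b t : ℝ} (hc : 0 ≤ c)
    (hb : 0 ≤ b) (ht : 0 ≤ t) :
    ENNReal.ofReal ((c * (X.toReal + t) * b) ^ p) ≤
      2 ^ (p - 1) * ((ENNReal.ofReal (c * b) * X) ^ p + ENNReal.ofReal (c * b * t) ^ p) := by
  have h0 : 0 ≤ p := by linarith
  have h1 : c * (X.toReal + t) * b = c * b * X.toReal + c * b * t := by ring
  have h2 : 0 ≤ c * b * X.toReal + c * b * t := by positivity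
  rw [h1, ← ENNReal.ofReal_rpow_of_nonneg h2 h0, ENNReal.ofReal_add (by positivity) (by positivity),
    ENNReal.ofReal_mul (by positivity), ENNReal.ofReal_toReal hX]
  exact ENNReal.rpow_add_le_mul_rpow_add_rpow _ _ hp

variable {δ κ0 R c0 : ℝ} {La : Set E3} {ι : Type}

/-- the weights of the edges -/
def Fw {Om : Set E3} {T : Tiling Om ι} {𝒞 : Type*} (κ' : ℝ) (W : 𝒞 → ℝ) (g : 𝒞 → Fin 3 → E3 → ℝ)
    (err : Edg T → ℝ≥0∞) (e : Edg T) : ℝ≥0∞ :=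
  ENNReal.ofReal (1 + κ') * le (GV (fun c => ENNReal.ofReal (W c)) g) e + err e

open Classical in
/-- the weights of the tiles -/
def Nw {Om : Set E3} (T : Tiling Om ι) (r : ℝ) (hr : r ≠ 0) (a : E3) (o : Fin 2 → ℤ) (M : ℕ)
    (Zs : Finset ℤ) (U : ℤ → (Fin 2 → ℕ) → Prop) (S1 : ℝ) (F : Edg T → ℝ≥0∞) (i : ι) : ℝ :=
  (∑ e ∈ eIn T i, F e).toReal + if MU T r hr a o M Zs U i then S1 * r else 0

section

variable {p : ℝ} {q : ℕ} {al : Fin 3 → ℝ} {h : ℝ} {s : Fin 3 → ℝ} {L : ℕ} {η : ℝ}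
  {Φ : FoamD δ κ0 R c0 La} {f1 : E3 → E3} {g : Φ.F → Fin 3 → E3 → ℝ} {W : Φ.F → ℝ}
  {κ' μ κ1 κ2 κ3 : ℝ} {Cs : Set (Set E3) → ℝ} {𝒮0 : Set (Set (Set E3))} {HH R' : Set E3}
  {e1 e2 e3 e4 : ℝ≥0∞} {e5 : ℝ} {Ku : ℝ≥0∞} {D : Dat 3} {K0 : ℕ} {r : ℝ} {hr : r ≠ 0}
  {o : Fin 2 → ℤ} {M : ℕ} {Zs : Finset ℤ} {T : Tiling (QL L) ι} {Q : Set ι} {τ : ι → Top D}
  {J0 J V : Φ.F → Set ι} {ct : Φ.F → ι} {A : Φ.F → E3 ≃ᵃ[ℝ] E3} {lam : Φ.F → ℝ} {z : Φ.F → E3}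
  {θ : Φ.F → E3 → E3} {φ : Φ.F → E3 → ℝ} {Mg : Φ.F → ℕ} {B : ι → E3 ≃ᵃ[ℝ] E3} {cw : ι → ℝ≥0∞}

namespace MeshN

theorem r0 (H : MeshN p q al h s L η Φ f1 g W κ' μ κ1 κ2 κ3 Cs 𝒮0 HH R' e1 e2 e3 e4 e5 Ku D K0 r hr o
    M Zs T Q τ J0 J V ct A lam z θ φ Mg B cw) : 0 < r := by rw [H.rK]; positivity

theorem usq_sub (hr0 : 0 < r) {w : E3} : usq (fr w r hr) ⊆ cub w r := by
  intro x hx
  have h2 := (Gno_324.mem_usq_fr hr0 hr).1 hx
  obtain ⟨a1, a2, a3, a4, a5⟩ := h2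
  intro i
  fin_cases i
  · exact ⟨a1, a2⟩
  · exact ⟨a3, a4⟩
  · show w 2 ≤ x 2 ∧ x 2 ≤ w 2 + r
    rw [a5]
    exact ⟨le_rfl, by linarith⟩

/-- a tile which meets a uniform square is in `Q` -/
theorem MU_Q (H : MeshN p q al h s L η Φ f1 g W κ' μ κ1 κ2 κ3 Cs 𝒮0 HH R' e1 e2 e3 e4 e5 Ku D K0 r hr o
    M Zs T Q τ J0 J V ct A lam z θ φ Mg B cw) {i : ι}
    (hi : MU T r hr D.a o M Zs (Ug T Qᶜ D.a r o) i) : i ∈ Q := by
  obtain ⟨k, hk, hU, x, hx1, hx2⟩ := hi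
  have h1 : x ∈ cub (vx D.a r o k.1 k.2) r := usq_sub H.r0 hx2
  by_contra hcon
  exact (hU.2 x h1 i hx1).1 hcon

/-- the scale of a tile of `Q` which meets a square -/
theorem sc_of (H : MeshN p q al h s L η Φ f1 g W κ' μ κ1 κ2 κ3 Cs 𝒮0 HH R' e1 e2 e3 e4 e5 Ku D K0 r hr o
    M Zs T Q τ J0 J V ct A lam z θ φ Mg B cw) {i : ι} (hi : i ∈ Q) {k : ℤ × (Fin 2 → ℕ)}
    (hk : k ∈ Fc M Zs) (hn : (Msh_715.P (T.H i) ∩ usq (fr (vx D.a r o k.1 k.2) r hr)).Nonempty) :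
    (τ i).1.1.k = K0 := by
  obtain ⟨x, hx1, hx2⟩ := hn
  exact H.scl i hi ⟨k, hk, x, hx1, usq_sub H.r0 hx2⟩

theorem fin_sum {err : Edg T → ℝ≥0∞} (H : MeshN p q al h s L η Φ f1 g W κ' μ κ1 κ2 κ3 Cs 𝒮0 HH R' e1 e2 e3 e4 e5 Ku D K0 r hr o
    M Zs T Q τ J0 J V ct A lam z θ φ Mg B cw) (herr : ∀ e, err e ≠ ⊤) (i : ι) :
    ∑ e ∈ eIn T i, Fw κ' W g err e ≠ ⊤ := by
  refine ENNReal.sum_ne_top.2 fun e _ => ?_
  exact ENNReal.add_ne_top.2 ⟨ENNReal.mul_ne_top ENNReal.ofReal_ne_top (H.fin e), herr e⟩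

open Classical in
/-- **one tile of `Q`** -/
theorem tile_Q {err : Edg T → ℝ≥0∞} (H : MeshN p q al h s L η Φ f1 g W κ' μ κ1 κ2 κ3 Cs 𝒮0 HH R' e1 e2 e3 e4 e5 Ku D K0 r hr o
    M Zs T Q τ J0 J V ct A lam z θ φ Mg B cw) (hp : 1 ≤ p) (herr : ∀ e, err e ≠ ⊤) {S1 : ℝ}
    (hS1 : 0 ≤ S1) {i : ι} (hi : i ∈ Q) {c c' : ℝ} (hc : 0 ≤ c) (hcc : c ≤ c') :
    ENNReal.ofReal ((c * Nw T r hr D.a o M Zs (Ug T Qᶜ D.a r o) S1 (Fw κ' W g err) i *
      ‖lin (B i)‖) ^ p) ≤ 2 ^ (p - 1) * ENNReal.ofReal c' ^ p * 2 ^ p *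
        (((2:ℝ≥0∞) ^ (τ i).1.1.k * ∑ e ∈ eIn T i, Fw κ' W g err e) ^ p + ENNReal.ofReal S1 ^ p) := by
  have hp0 : 0 ≤ p := by linarith
  have hr0 := H.r0
  unfold Nw
  refine (ofReal_pow_le hp (H.fin_sum herr i) hc (norm_nonneg _) (by
    split_ifs
    · positivity
    · exact le_rfl)).trans ?_
  refine le_trans (mul_le_mul' le_rfl ?_) (le_of_eq (show (2:ℝ≥0∞) ^ (p - 1) *
    (ENNReal.ofReal c' ^ p * 2 ^ p * (((2:ℝ≥0∞) ^ (τ i).1.1.k *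
      ∑ e ∈ eIn T i, Fw κ' W g err e) ^ p + ENNReal.ofReal S1 ^ p)) = _ by ring))
  have hB := H.frQ i hi
  have hc' : 0 ≤ c' := hc.trans hcc
  have k1 : ENNReal.ofReal (c * ‖lin (B i)‖) ≤ ENNReal.ofReal c' * (2 * (2:ℝ≥0∞) ^ (τ i).1.1.k) := by
    have e : (2:ℝ≥0∞) * 2 ^ (τ i).1.1.k = ENNReal.ofReal (2 * 2 ^ (τ i).1.1.k) := by
      rw [ENNReal.ofReal_mul (by norm_num), ENNReal.ofReal_pow (by norm_num)]
      norm_num
    rw [e, ← ENNReal.ofReal_mul hc']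
    exact ENNReal.ofReal_le_ofReal (mul_le_mul hcc hB (norm_nonneg _) hc')
  rw [mul_add]
  refine add_le_add ?_ ?_
  · rw [← ENNReal.mul_rpow_of_nonneg _ _ hp0, ← ENNReal.mul_rpow_of_nonneg _ _ hp0]
    refine ENNReal.rpow_le_rpow ?_ hp0
    calc ENNReal.ofReal (c * ‖lin (B i)‖) * ∑ e ∈ eIn T i, Fw κ' W g err e
        ≤ ENNReal.ofReal c' * (2 * (2:ℝ≥0∞) ^ (τ i).1.1.k) * ∑ e ∈ eIn T i, Fw κ' W g err e :=
          mul_le_mul' k1 le_rfl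
      _ = _ := by ring
  · split_ifs with hMU
    · obtain ⟨k, hk, hU, hn⟩ := hMU
      have hsc := H.sc_of hi hk hn
      rw [← ENNReal.mul_rpow_of_nonneg _ _ hp0, ← ENNReal.mul_rpow_of_nonneg _ _ hp0]
      refine ENNReal.rpow_le_rpow ?_ hp0
      rw [show (2:ℝ≥0∞) = ENNReal.ofReal 2 by norm_num, ← ENNReal.ofReal_mul hc',
        ← ENNReal.ofReal_mul (by positivity)]
      apply ENNReal.ofReal_le_ofReal
      have h2 : ‖lin (B i)‖ * r ≤ 2 := by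
        rw [hsc] at hB
        have h3 : (2:ℝ) * 2 ^ K0 * r = 2 := by
          rw [H.rK, mul_assoc, mul_inv_cancel₀ (by positivity), mul_one]
        calc ‖lin (B i)‖ * r ≤ 2 * 2 ^ K0 * r := mul_le_mul_of_nonneg_right hB hr0.le
          _ = 2 := h3
      calc c * ‖lin (B i)‖ * (S1 * r) = c * (‖lin (B i)‖ * r) * S1 := by ring
        _ ≤ c' * 2 * S1 := by
          refine mul_le_mul_of_nonneg_right ?_ hS1
          exact mul_le_mul hcc h2 (by positivity) hc'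
    · rw [mul_zero, ENNReal.ofReal_zero, ENNReal.zero_rpow_of_pos (by linarith)]
      exact zero_le

/-- **tiles of `Q`, sharp form** -/
theorem en_sharp {err : Edg T → ℝ≥0∞} {er : Cel D → ℝ≥0∞} (H : MeshN p q al h s L η Φ f1 g W κ' μ κ1 κ2 κ3 Cs 𝒮0 HH R' e1 e2 e3 e4 e5 Ku D K0 r hr o
    M Zs T Q τ J0 J V ct A lam z θ φ Mg B cw) (hp : 1 ≤ p) (herr : ∀ e, err e ≠ ⊤) {S1 : ℝ}
    (hS1 : 0 ≤ S1) (her : ∀ (e : Edg T) (σ : Cel D), e.1 = σ.c → err e ≤ er σ)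
    {e0 : ℝ≥0∞} (hYe : ∀ l, Ye D l p er ≤ e0) {sm : ℝ} (hsm : ∀ l, s l ≤ sm) {A' : Set ι} (hA : A' ⊆ Q)
    {v : ι → ℝ≥0∞} {K : ℝ≥0∞} (hv : ∀ i ∈ A', v i ≤ K * volume (Msh_715.P (T.H i)))
    {c : ι → ℝ} {c' : ℝ} (hc : ∀ i ∈ A', 0 ≤ c i) (hcc : ∀ i ∈ A', c i ≤ c') :
    ∑' i : A', ENNReal.ofReal ((c i * Nw T r hr D.a o M Zs (Ug T Qᶜ D.a r o) S1 (Fw κ' W g err) i *
      ‖lin (B i)‖) ^ p) * v i ≤ K * (2 ^ (p - 1) * ENNReal.ofReal c' ^ p * 2 ^ p *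
        (2 ^ (p - 1) * ((M1 3 * (ENNReal.ofReal (1 + κ') * ENNReal.ofReal sm)) ^ p *
          volume (⋃ i ∈ A', Msh_715.P (T.H i)) +
          KC 3 p * (2 ^ (p - 1) * (ENNReal.ofReal (1 + κ') ^ p * (3 * e1) + 3 * e0))) +
          ENNReal.ofReal S1 ^ p * volume (⋃ i ∈ A', Msh_715.P (T.H i)))) := by
  have hb := H.base.mono hA
  have hcΦ : Countable Φ.F := countable_F Φ
  have hF := hF_of (T := T) (D := D) (K := ENNReal.ofReal (1 + κ'))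
    (w := fun c => ENNReal.ofReal (W c)) H.gm her
  have h1 := hb.tiles_sharp (p := p) hp (s := fun l => ENNReal.ofReal (s l))
    (sm := ENNReal.ofReal sm) (fun l => ENNReal.ofReal_le_ofReal (hsm l))
    (c := ENNReal.ofReal (1 + κ')) (er := er) (F := Fw κ' W g err) hF
    (N := fun i => ∑ e ∈ eIn T i, Fw κ' W g err e) (fun i _ => le_rfl)
  have hvol : ∑' i : A', volume (Msh_715.P (T.H i)) = volume (⋃ i ∈ A', Msh_715.P (T.H i)) := by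
    have hcount : Countable ι := Crest.Agent.R096.Ea_713.countable_ix T
    rw [biUnion_eq_iUnion, measure_iUnion₀]
    · intro i j hij
      exact Crest.Agent.R096.Ea_713.aedisj volume T (fun hh => hij (Subtype.ext hh))
    · intro i
      exact (Msh_715.isClosed_P _).measurableSet.nullMeasurableSet
  calc ∑' i : A', ENNReal.ofReal ((c i * Nw T r hr D.a o M Zs (Ug T Qᶜ D.a r o) S1 (Fw κ' W g err) i *
      ‖lin (B i)‖) ^ p) * v i
      ≤ ∑' i : A', K * (2 ^ (p - 1) * ENNReal.ofReal c' ^ p * 2 ^ p *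
        (((2:ℝ≥0∞) ^ (τ i).1.1.k * ∑ e ∈ eIn T i.1, Fw κ' W g err e) ^ p *
          volume (Msh_715.P (T.H i)) + ENNReal.ofReal S1 ^ p * volume (Msh_715.P (T.H i)))) := by
        refine ENNReal.tsum_le_tsum fun i => ?_
        refine (mul_le_mul' (H.tile_Q hp herr hS1 (hA i.2) (hc i i.2) (hcc i i.2))
          (hv i i.2)).trans (le_of_eq ?_)
        ring
    _ = K * (2 ^ (p - 1) * ENNReal.ofReal c' ^ p * 2 ^ p *
        (∑' i : A', ((2:ℝ≥0∞) ^ (τ i).1.1.k * ∑ e ∈ eIn T i.1, Fw κ' W g err e) ^ p *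
          volume (Msh_715.P (T.H i)) + ENNReal.ofReal S1 ^ p *
            ∑' i : A', volume (Msh_715.P (T.H i)))) := by
        rw [ENNReal.tsum_mul_left, ENNReal.tsum_mul_left, ENNReal.tsum_add, ENNReal.tsum_mul_left]
    _ ≤ _ := by
        rw [hvol]
        gcongr
        refine h1.trans ?_
        gcongr
        · exact (Finset.sum_le_sum fun l _ => H.ed l).trans (by simp)
        · exact (Finset.sum_le_sum fun l _ => hYe l).trans (by simp)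

/-- **tiles of `Q` in the bad set** -/
theorem en_inside {err : Edg T → ℝ≥0∞} {er : Cel D → ℝ≥0∞} (H : MeshN p q al h s L η Φ f1 g W κ' μ κ1 κ2 κ3 Cs 𝒮0 HH R' e1 e2 e3 e4 e5 Ku D K0 r hr o
    M Zs T Q τ J0 J V ct A lam z θ φ Mg B cw) (hp : 1 ≤ p) (herr : ∀ e, err e ≠ ⊤) {S1 : ℝ}
    (hS1 : 0 ≤ S1) (her : ∀ (e : Edg T) (σ : Cel D), e.1 = σ.c → err e ≤ er σ)
    {e0 : ℝ≥0∞} (hYe : ∀ l, Ye D l p er ≤ e0) {A' : Set ι} (hA : A' ⊆ Q)
    (hR : ∀ i ∈ A', Msh_715.P (T.H i) ⊆ R')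
    {v : ι → ℝ≥0∞} {K : ℝ≥0∞} (hv : ∀ i ∈ A', v i ≤ K * volume (Msh_715.P (T.H i)))
    {c : ι → ℝ} {c' : ℝ} (hc : ∀ i ∈ A', 0 ≤ c i) (hcc : ∀ i ∈ A', c i ≤ c') :
    ∑' i : A', ENNReal.ofReal ((c i * Nw T r hr D.a o M Zs (Ug T Qᶜ D.a r o) S1 (Fw κ' W g err) i *
      ‖lin (B i)‖) ^ p) * v i ≤ K * (2 ^ (p - 1) * ENNReal.ofReal c' ^ p * 2 ^ p *
        (2 ^ (p - 1) * (ENNReal.ofReal (1 + κ') ^ p * e2 + KC 3 p * (3 * e0)) +
          ENNReal.ofReal S1 ^ p * e2)) := by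
  have hb := H.base.mono hA
  have hcΦ : Countable Φ.F := countable_F Φ
  have hF := hF_of (T := T) (D := D) (K := ENNReal.ofReal (1 + κ'))
    (w := fun c => ENNReal.ofReal (W c)) H.gm her
  have h1 := hb.tiles_inside (p := p) hp
    (c := ENNReal.ofReal (1 + κ')) (er := er) (F := Fw κ' W g err) hF
    (N := fun i => ∑ e ∈ eIn T i, Fw κ' W g err e) (fun i _ => le_rfl) hR
  have hvol : ∑' i : A', volume (Msh_715.P (T.H i)) ≤ e2 := by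
    have hcount : Countable ι := Crest.Agent.R096.Ea_713.countable_ix T
    refine le_trans (le_of_eq ?_) ((measure_mono (iUnion₂_subset hR)).trans H.vR)
    rw [biUnion_eq_iUnion, measure_iUnion₀]
    · intro i j hij
      exact Crest.Agent.R096.Ea_713.aedisj volume T (fun hh => hij (Subtype.ext hh))
    · intro i
      exact (Msh_715.isClosed_P _).measurableSet.nullMeasurableSet
  calc ∑' i : A', ENNReal.ofReal ((c i * Nw T r hr D.a o M Zs (Ug T Qᶜ D.a r o) S1 (Fw κ' W g err) i *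
      ‖lin (B i)‖) ^ p) * v i
      ≤ ∑' i : A', K * (2 ^ (p - 1) * ENNReal.ofReal c' ^ p * 2 ^ p *
        (((2:ℝ≥0∞) ^ (τ i).1.1.k * ∑ e ∈ eIn T i.1, Fw κ' W g err e) ^ p *
          volume (Msh_715.P (T.H i)) + ENNReal.ofReal S1 ^ p * volume (Msh_715.P (T.H i)))) := by
        refine ENNReal.tsum_le_tsum fun i => ?_
        refine (mul_le_mul' (H.tile_Q hp herr hS1 (hA i.2) (hc i i.2) (hcc i i.2))
          (hv i i.2)).trans (le_of_eq ?_)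
        ring
    _ = K * (2 ^ (p - 1) * ENNReal.ofReal c' ^ p * 2 ^ p *
        (∑' i : A', ((2:ℝ≥0∞) ^ (τ i).1.1.k * ∑ e ∈ eIn T i.1, Fw κ' W g err e) ^ p *
          volume (Msh_715.P (T.H i)) + ENNReal.ofReal S1 ^ p *
            ∑' i : A', volume (Msh_715.P (T.H i)))) := by
        rw [ENNReal.tsum_mul_left, ENNReal.tsum_mul_left, ENNReal.tsum_add, ENNReal.tsum_mul_left]
    _ ≤ _ := by
        gcongr
        refine h1.trans ?_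
        gcongr
        · exact H.sR
        · exact (Finset.sum_le_sum fun l _ => hYe l).trans (by simp)

/-- **all other tiles** -/
theorem en_nonQ {err : Edg T → ℝ≥0∞} (H : MeshN p q al h s L η Φ f1 g W κ' μ κ1 κ2 κ3 Cs 𝒮0 HH R' e1 e2 e3 e4 e5 Ku D K0 r hr o
    M Zs T Q τ J0 J V ct A lam z θ φ Mg B cw) (hp : 1 ≤ p) (hC : ∀ 𝒦, 0 ≤ Cs 𝒦)
    (herr : ∀ e, err e ≠ ⊤) (S1 : ℝ) {e0 : ℝ≥0∞}
    (hnE : ∑' i : {i // i ∉ Q ∧ ∀ c, i ≠ ct c},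
      (ENNReal.ofReal (Cs ((fun K => B i.1 '' K) '' Cfg T i.1) * ‖lin (B i.1)‖) *
        ∑ e ∈ eIn T i.1, err e) ^ p * ((1 + cw i.1) * volume (Msh_715.P (T.H i.1))) ≤ e0) :
    ∑' i : {i // i ∉ Q ∧ ∀ c, i ≠ ct c},
      ENNReal.ofReal ((Cs ((fun K => B i.1 '' K) '' Cfg T i.1) *
        Nw T r hr D.a o M Zs (Ug T Qᶜ D.a r o) S1 (Fw κ' W g err) i.1 * ‖lin (B i.1)‖) ^ p) *
        ((1 + cw i.1) * volume (Msh_715.P (T.H i.1))) ≤
      2 ^ (p - 1) * 2 ^ (p - 1) * (ENNReal.ofReal (1 + κ') ^ p * e3 + e0) := by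
  have hp0 : 0 ≤ p := by linarith
  calc _ ≤ ∑' i : {i // i ∉ Q ∧ ∀ c, i ≠ ct c}, 2 ^ (p - 1) * 2 ^ (p - 1) *
      (ENNReal.ofReal (1 + κ') ^ p * ((ENNReal.ofReal (Cs ((fun K => B i.1 '' K) '' Cfg T i.1) * ‖lin (B i.1)‖) *
      ∑ e ∈ eIn T i.1, le (GV (fun c => ENNReal.ofReal (W c)) g) e) ^ p *
      ((1 + cw i.1) * volume (Msh_715.P (T.H i.1)))) +
      (ENNReal.ofReal (Cs ((fun K => B i.1 '' K) '' Cfg T i.1) * ‖lin (B i.1)‖) *
        ∑ e ∈ eIn T i.1, err e) ^ p * ((1 + cw i.1) * volume (Msh_715.P (T.H i.1)))) := by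
        refine ENNReal.tsum_le_tsum fun i => ?_
        have hN : Nw T r hr D.a o M Zs (Ug T Qᶜ D.a r o) S1 (Fw κ' W g err) i.1 =
            (∑ e ∈ eIn T i.1, Fw κ' W g err e).toReal + 0 := by
          unfold Nw
          rw [if_neg fun hMU => i.2.1 (H.MU_Q hMU)]
        rw [hN]
        refine (mul_le_mul' (ofReal_pow_le hp (H.fin_sum herr i.1) (hC _) (norm_nonneg _) le_rfl)
          le_rfl).trans ?_
        rw [mul_zero, ENNReal.ofReal_zero, ENNReal.zero_rpow_of_pos (by linarith), add_zero]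
        have e1 : ∑ e ∈ eIn T i.1, Fw κ' W g err e = ENNReal.ofReal (1 + κ') *
            ∑ e ∈ eIn T i.1, le (GV (fun c => ENNReal.ofReal (W c)) g) e +
            ∑ e ∈ eIn T i.1, err e := by
          unfold Fw
          rw [Finset.sum_add_distrib, Finset.mul_sum]
        rw [e1, mul_add]
        set X1 := ENNReal.ofReal (Cs ((fun K => B i.1 '' K) '' Cfg T i.1) * ‖lin (B i.1)‖)
        set X2 := ∑ e ∈ eIn T i.1, le (GV (fun c => ENNReal.ofReal (W c)) g) e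
        set X3 := ∑ e ∈ eIn T i.1, err e
        set X4 := (1 + cw i.1) * volume (Msh_715.P (T.H i.1))
        have h2 : (X1 * (ENNReal.ofReal (1 + κ') * X2) + X1 * X3) ^ p ≤
            2 ^ (p - 1) * (ENNReal.ofReal (1 + κ') ^ p * (X1 * X2) ^ p + (X1 * X3) ^ p) := by
          refine (ENNReal.rpow_add_le_mul_rpow_add_rpow _ _ hp).trans (le_of_eq ?_)
          rw [← ENNReal.mul_rpow_of_nonneg (ENNReal.ofReal (1 + κ')) _ hp0]
          congr 3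
          ring
        calc _ ≤ 2 ^ (p - 1) * (2 ^ (p - 1) * (ENNReal.ofReal (1 + κ') ^ p * (X1 * X2) ^ p +
              (X1 * X3) ^ p)) * X4 := mul_le_mul' (mul_le_mul' le_rfl h2) le_rfl
          _ = _ := by ring
    _ ≤ _ := by
        rw [ENNReal.tsum_mul_left, ENNReal.tsum_add, ENNReal.tsum_mul_left]
        gcongr
        exact H.nonQ

end MeshN

end

end Crest.Agent.R096.Np_962
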