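/-
helper273, row 96, NO0-PRE [P3] (582 #10220, #10709, 276 No6), part 10: the choice of the slices `Zs`:
all sums of the slices at once, from the numbers of the shift.
-/
import Mathlib
import Crest.Agent.R096.Ps9_273

set_option autoImplicit false
set_option linter.unusedVariables false

open MeasureTheory Set Filter Metric
open scoped Topology ENNReal

namespace Crest.Agent.R096.Ps_273

open Crest.Agent.R096.Msh_810 Crest.Agent.R96.En3_199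
  Crest.Agent.R96.En4_199 Crest.Agent.R96.En5_199 Crest.Agent.R96.En6_199
  Crest.Agent.R96.En7_199 Crest.Agent.R96.En8_199 Crest.Agent.R96.En9_199
  Crest.Agent.R96.En11_199 Crest.Agent.R96.Sg1_199
open Crest.Agent.R096.Msh_715 hiding P I
open Crest.Agent.R096.Ls_222
open Crest.Agent.R096.No0_477 (cub fr Vw Fc)
open Crest.Agent.R096.SkC1_961 (E3)
open Crest.Agent.R096.Nsl_552 (exists_slices_block_e slice_card sqs)

noncomputable section

/-- the number of the cubes of scale `k` in terms of the number of the squares of the block -/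
theorem mass_block {k L M : ℕ} {A : Finset ℤ} {r : ℝ} (hrk : r = ((2:ℝ) ^ k)⁻¹) (hL : 1 ≤ L)
    (h : 2 / L ≤ ((A.card : ℝ) * M ^ 2) * r ^ 3) :
    ((2:ℝ≥0∞) ^ k) ^ 3 ≤ L * (A.card * (M:ℝ≥0∞) ^ 2) := by
  have hL0 : (0:ℝ) < L := by exact_mod_cast hL
  have h2 : (0:ℝ) < 2 ^ k := by positivity
  have h1 : ((2:ℝ) ^ k) ^ 3 ≤ L * (A.card * (M:ℝ) ^ 2) := by
    rw [hrk] at h
    have h3 : 2 ≤ L * (((A.card : ℝ) * M ^ 2) * (((2:ℝ) ^ k)⁻¹) ^ 3) := by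
      rw [div_le_iff₀ hL0] at h
      linarith
    have h4 : (((2:ℝ) ^ k)⁻¹) ^ 3 * ((2:ℝ) ^ k) ^ 3 = 1 := by
      rw [← mul_pow, inv_mul_cancel₀ h2.ne', one_pow]
    have h5 : (0:ℝ) < ((2:ℝ) ^ k) ^ 3 := by positivity
    calc ((2:ℝ) ^ k) ^ 3 ≤ 2 * ((2:ℝ) ^ k) ^ 3 := by linarith
      _ ≤ L * (((A.card : ℝ) * M ^ 2) * (((2:ℝ) ^ k)⁻¹) ^ 3) * ((2:ℝ) ^ k) ^ 3 := by gcongr
      _ = L * ((A.card : ℝ) * M ^ 2) * ((((2:ℝ) ^ k)⁻¹) ^ 3 * ((2:ℝ) ^ k) ^ 3) := by ring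
      _ = _ := by rw [h4, mul_one]
  have h3 : ENNReal.ofReal (((2:ℝ) ^ k) ^ 3) ≤ ENNReal.ofReal (L * (A.card * (M:ℝ) ^ 2)) :=
    ENNReal.ofReal_le_ofReal h1
  rw [ENNReal.ofReal_pow (by positivity), ENNReal.ofReal_pow (by norm_num),
    ENNReal.ofReal_mul (by positivity), ENNReal.ofReal_mul (by positivity),
    ENNReal.ofReal_pow (by positivity), ENNReal.ofReal_natCast, ENNReal.ofReal_natCast,
    ENNReal.ofReal_natCast] at h3
  simpa using h3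

theorem card_sq_succ {M : ℕ} (hM : 0 < M) :
    (((Fintype.piFinset fun _ : Fin 2 => Finset.range (M + 1)).card : ℕ) : ℝ≥0∞) ≤
      4 * (M:ℝ≥0∞) ^ 2 := by
  rw [Fintype.card_piFinset]
  simp only [Finset.card_range, Finset.prod_const, Finset.card_univ, Fintype.card_fin]
  have h1 : (M + 1) ^ 2 ≤ 4 * M ^ 2 := by nlinarith
  exact_mod_cast h1

theorem fin2_cases {j : Fin 2} : j = 0 ∨ j = 1 := by
  fin_cases j <;> simp

open Classical in
/-- **THE CHOICE OF THE SLICES** -/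
theorem exists_Zs {p : ℝ} (hp : 1 ≤ p) {D : Dat 3} {k M L : ℕ} {o : Fin 2 → ℤ} {A : Finset ℤ} {r : ℝ}
    (hL : 1 ≤ L) (hrk : r = ((2:ℝ) ^ k)⁻¹) (hrL : 4 * L * r ≤ 1) (hM : 0 < M)
    (hA : ∀ m, m ∈ A ↔ |(L : ℝ) * (D.a 2 + r * m)| ≤ 1 / 2)
    (hN : 2 / L ≤ ((A.card : ℝ) * M ^ 2) * r ^ 3)
    {I : Type*} (B : Finset I) (x : I → E3) (ρ : I → ℝ) (hρ : ∀ c ∈ B, 0 ≤ ρ c)
    (hB : ∑ c ∈ B, (ρ c + r) ≤ 1 / (32 * L))
    {𝒞 : Type*} {w : 𝒞 → ℝ≥0∞} {g : 𝒞 → Fin 3 → (Fin 3 → ℝ) → ℝ} {s : Fin 3 → ℝ≥0∞}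
    {κp c : ℝ≥0∞} {er : Cel D → ℝ≥0∞} {Rx : Set E3} {εx εq εH εR : ℝ} (hx0 : 0 ≤ εx)
    (hq0 : 0 ≤ εq) (hH0 : 0 ≤ εH) (hR0 : 0 ≤ εR)
    (hx : ∀ j : Fin 2, 20 * (4 * (κp * s j.castSucc) + L * ((1 + κp) *
      Ed D j.castSucc 1 (Xs w g s j.castSucc) + Ye D j.castSucc 1 er)) ≤ ENNReal.ofReal εx)
    (hq : 20 * (L * (KC 3 p * (2 ^ (p - 1) * (c ^ p * ∑ l : Fin 3, Ed D l p (Xs w g s l) +
      ∑ l : Fin 3, Ye D l p er)))) ≤ ENNReal.ofReal εq)
    (hH : 20 * (L * (2 ^ (p - 1) * (c ^ p * S D p (Rx.indicator (GGw w g)) +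
      KC 3 p * ∑ l : Fin 3, Ye D l p er))) ≤ ENNReal.ofReal εH)
    (hR : volume Rx ≤ ENNReal.ofReal (εR / 20 / L)) :
    ∃ Zs : Finset ℤ, Zs ⊆ A ∧ Zs.Nonempty ∧ (A.card : ℝ) ≤ 2 * Zs.card ∧
      (∀ m ∈ Zs, |(L : ℝ) * (D.a 2 + r * m)| ≤ 1 / 2) ∧
      (∀ m ∈ Zs, ∀ c ∈ B, ρ c + r < |D.a 2 + r * m - x c 2|) ∧
      (∀ m ∈ Zs, ∀ c ∈ B, ∀ (o : Fin 2 → ℤ) (v : Fin 2 → ℕ),
        Disjoint (cub (No0_477.vx D.a r o m v) r) (closedBall (x c) (ρ c))) ∧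
      (∀ j, ∑ m ∈ Zs, ∑ v ∈ Fintype.piFinset fun _ : Fin 2 => Finset.range (M + 1),
        xE D k o w g s κp er j m v ≤ ENNReal.ofReal (εx * ((Zs.card : ℝ) * M ^ 2))) ∧
      (∑ m ∈ Zs, ∑ v ∈ Fintype.piFinset fun _ : Fin 2 => Finset.range M,
        qE D k o w g s c er m v ^ p ≤ ENNReal.ofReal (εq * ((Zs.card : ℝ) * M ^ 2))) ∧
      (∑ m ∈ Zs, ∑ v ∈ Fintype.piFinset fun _ : Fin 2 => Finset.range M,
        (if cub (No0_477.vx D.a r o m v) r ⊆ Rx then qH D k o w g c er m v ^ p else 0) ≤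
          ENNReal.ofReal (εH * ((Zs.card : ℝ) * M ^ 2))) ∧
      (((Fc M Zs).filter fun k => cub (No0_477.vx D.a r o k.1 k.2) r ⊆ Rx).card : ℝ) ≤
        εR * ((Zs.card : ℝ) * M ^ 2) := by
  have hr : 0 < r := by rw [hrk]; positivity
  have hmass := mass_block hrk hL hN
  have hL0 : (0:ℝ) < L := by exact_mod_cast hL
  -- the five functions
  set F : Fin 5 → ℤ → ℝ≥0∞ := ![
    fun m => ∑ v ∈ Fintype.piFinset fun _ : Fin 2 => Finset.range (M + 1),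
      xE D k o w g s κp er 0 m v,
    fun m => ∑ v ∈ Fintype.piFinset fun _ : Fin 2 => Finset.range (M + 1),
      xE D k o w g s κp er 1 m v,
    fun m => ∑ v ∈ Fintype.piFinset fun _ : Fin 2 => Finset.range M,
      qE D k o w g s c er m v ^ p,
    fun m => ∑ v ∈ Fintype.piFinset fun _ : Fin 2 => Finset.range M,
      (if cub (No0_477.vx D.a r o m v) r ⊆ Rx then qH D k o w g c er m v ^ p else 0),
    fun m => ENNReal.ofReal
      ((sqs M).filter fun v => cub (No0_477.vx D.a r o m v) r ⊆ Rx).card] with hF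
  set ε' : Fin 5 → ℝ≥0∞ := ![ENNReal.ofReal (εx / 20 * M ^ 2), ENNReal.ofReal (εx / 20 * M ^ 2),
    ENNReal.ofReal (εq / 20 * M ^ 2), ENNReal.ofReal (εH / 20 * M ^ 2),
    ENNReal.ofReal (εR / 20 * M ^ 2)] with hε'
  have key : ∀ {t : ℝ} {X : ℝ≥0∞}, 0 ≤ t → 20 * X ≤ ENNReal.ofReal t →
      X * ((A.card : ℝ≥0∞) * (M:ℝ≥0∞) ^ 2) ≤ ENNReal.ofReal (t / 20 * M ^ 2) * A.card := by
    intro t X ht h
    have h1 : X ≤ ENNReal.ofReal (t / 20) := by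
      rw [ENNReal.ofReal_div_of_pos (by norm_num)]
      rw [ENNReal.le_div_iff_mul_le (Or.inl (by norm_num)) (Or.inl (by norm_num))]
      rw [mul_comm]
      simpa using h
    rw [ENNReal.ofReal_mul (by positivity), ENNReal.ofReal_pow (by positivity),
      ENNReal.ofReal_natCast]
    calc X * ((A.card : ℝ≥0∞) * (M:ℝ≥0∞) ^ 2) ≤
        ENNReal.ofReal (t / 20) * ((A.card : ℝ≥0∞) * (M:ℝ≥0∞) ^ 2) := by gcongr
      _ = _ := by ring
  have hxj : ∀ j : Fin 2, ∑ m ∈ A, ∑ v ∈ Fintype.piFinset fun _ : Fin 2 => Finset.range (M + 1),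
      xE D k o w g s κp er j m v ≤ ENNReal.ofReal (εx / 20 * M ^ 2) * A.card := by
    intro j
    refine le_trans ?_ (key hx0 (hx j))
    refine (sum_xE κp er j A _).trans ?_
    calc _ ≤ (A.card * (4 * (M:ℝ≥0∞) ^ 2)) * (κp * s j.castSucc) +
        (L * (A.card * (M:ℝ≥0∞) ^ 2)) * ((1 + κp) * Ed D j.castSucc 1 (Xs w g s j.castSucc) +
        Ye D j.castSucc 1 er) := by
          gcongr
          exact card_sq_succ hM
      _ = _ := by ring
  have hsum : ∀ i, ∑ m ∈ A, F i m ≤ ε' i * A.card := by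
    intro i
    fin_cases i
    · exact hxj 0
    · exact hxj 1
    · refine le_trans ((sum_qE (k := k) (o := o) hp c er A _).trans ?_) (key hq0 hq)
      calc _ ≤ (L * (A.card * (M:ℝ≥0∞) ^ 2)) * (KC 3 p * (2 ^ (p - 1) *
          (c ^ p * ∑ l : Fin 3, Ed D l p (Xs w g s l) + ∑ l : Fin 3, Ye D l p er))) := by gcongr
        _ = _ := by ring
    · have h1 := sum_qH (D := D) (k := k) (o := o) (w := w) (g := g) hp c er Rx A
        (Fintype.piFinset fun _ : Fin 2 => Finset.range M)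
      rw [← hrk] at h1
      refine le_trans (h1.trans ?_) (key hH0 hH)
      calc _ ≤ (L * (A.card * (M:ℝ≥0∞) ^ 2)) * (2 ^ (p - 1) *
          (c ^ p * S D p (Rx.indicator (GGw w g)) + KC 3 p * ∑ l : Fin 3, Ye D l p er)) := by gcongr
        _ = _ := by ring
    · have h1 := slice_card (a := D.a) hL hr o hN Rx (β := εR / 20) (by positivity) hR
        (fun m v => cub (No0_477.vx D.a r o m v) r ⊆ Rx) (fun m _ v _ h => h)
      show ∑ m ∈ A, ENNReal.ofReal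
        ((sqs M).filter fun v => cub (No0_477.vx D.a r o m v) r ⊆ Rx).card ≤
        ENNReal.ofReal (εR / 20 * M ^ 2) * A.card
      rw [← ENNReal.ofReal_sum_of_nonneg (fun _ _ => Nat.cast_nonneg _),
        ← ENNReal.ofReal_natCast, ← ENNReal.ofReal_mul (by positivity)]
      exact ENNReal.ofReal_le_ofReal h1
  obtain ⟨Zs, h1, h2, h3, h4, h5, h6, h7, h8⟩ := exists_slices_block_e (a := D.a) hL hr hrL hA B x ρ
    hρ hB F ε' (by
      intro i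
      fin_cases i <;> exact ENNReal.ofReal_ne_top) hsum
  have hmul : ∀ t : ℝ, 0 ≤ t → 4 * ((5:ℕ):ℝ≥0∞) * ENNReal.ofReal (t / 20 * M ^ 2) * Zs.card =
      ENNReal.ofReal (t * ((Zs.card : ℝ) * M ^ 2)) := by
    intro t ht
    have e1 : (4 * ((5:ℕ):ℝ≥0∞)) = ENNReal.ofReal 20 := by
      rw [show (20:ℝ) = ((20:ℕ):ℝ) by norm_num, ENNReal.ofReal_natCast]
      norm_num
    rw [e1, ← ENNReal.ofReal_mul (by norm_num), ← ENNReal.ofReal_natCast (n := Zs.card),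
      ← ENNReal.ofReal_mul (by positivity)]
    congr 1
    ring
  refine ⟨Zs, h1, h2, h3, h4, h5, h6, ?_, ?_, ?_, ?_⟩
  · intro j
    rw [← hmul _ hx0]
    rcases fin2_cases (j := j) with rfl | rfl
    · exact h8 0
    · exact h8 1
  · rw [← hmul _ hq0]
    exact h8 2
  · rw [← hmul _ hH0]
    exact h8 3
  · have h9 := h8 4
    have h10 : ENNReal.ofReal
        (((Fc M Zs).filter fun k => cub (No0_477.vx D.a r o k.1 k.2) r ⊆ Rx).card : ℝ) ≤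
        ENNReal.ofReal (εR * ((Zs.card : ℝ) * M ^ 2)) := by
      rw [← hmul _ hR0]
      refine le_trans (le_of_eq ?_) h9
      show _ = ∑ m ∈ Zs, ENNReal.ofReal
        ((sqs M).filter fun v => cub (No0_477.vx D.a r o m v) r ⊆ Rx).card
      rw [← ENNReal.ofReal_sum_of_nonneg (fun _ _ => Nat.cast_nonneg _)]
      congr 1
      rw [← Nat.cast_sum]
      congr 1
      rw [Finset.card_filter, Nsl_552.sum_Fc]
      refine Finset.sum_congr rfl fun m _ => ?_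
      rw [Finset.card_filter]
    exact (ENNReal.ofReal_le_ofReal_iff (by positivity)).1 h10

end

end Crest.Agent.R096.Ps_273
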