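/-
helper273, row 96, NO0-PRE3 [P-W] (962 #11402): the clauses `wt` and `sq` of `PreN` from `MeshN`.
-/
import Crest.Agent.R096.Np4_962
import Crest.Agent.R096.Ps10_273

set_option autoImplicit false
set_option linter.unusedVariables false
set_option linter.unusedSectionVars false

open MeasureTheory Set Filter Metric
open scoped Topology ENNReal

noncomputable section

namespace Crest.Agent.R096.Npw_273

open Crest.Agent.R096.Msh_715 hiding P I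
open Crest.Agent.R096.SkC1_961 (E3 Cfg FoamD Hom3 NN)
open Crest.Agent.R096.Ls_222
open Crest.Agent.R096.Mbf_337
open Crest.Agent.R96.Pm_199 (le)
open Crest.Agent.R096.Msh_810 Crest.Agent.R96.En2_199 Crest.Agent.R96.En4_199
  Crest.Agent.R96.En9_199 Crest.Agent.R96.En11_199 Crest.Agent.R96.En3_199
open Crest.Agent.R096.Ps_273
open Crest.Agent.R096.No0_477 (cub fr Fc vx Vw)
open Crest.Agent.R096.SkN1_477 (usq side)
open Crest.Agent.R096.No_276 (QL)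
open Crest.Agent.R096.Gno_324 (Ug)
open Crest.Agent.R096.Ea_713 (lin)
open Crest.Agent.R096.Log2_582 (IsLog)
open Crest.Agent.R096.Nl_234 (HWq)
open Crest.Agent.R096.Np_962

variable {δ κ0 R c0 : ℝ} {La : Set E3} {ι : Type}

/-- a uniform square touches only tiles of `Q` -/
theorem mem_of_Ug {Om : Set E3} {T : Tiling Om ι} {Q : Set ι} {a : E3} {r : ℝ} {o : Fin 2 → ℤ}
    {m : ℤ} {v : Fin 2 → ℕ} (h : Ug T Qᶜ a r o m v) {i : ι}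
    (hi : Msh_715.P (T.H i) = cub (vx a r o m v) r) : i ∈ Q := by
  obtain ⟨x, hx⟩ := T.ne i
  have hx' := I_sub_P _ hx
  by_contra hn
  exact (h.2 x (hi ▸ hx') i hx').1 hn

theorem sum_le_of {k L M : ℕ} {Zs : Finset ℤ} {r : ℝ} (hrk : r = ((2:ℝ) ^ k)⁻¹) (hL : 1 ≤ L)
    (hN : 2 / L ≤ ((Zs.card : ℝ) * M ^ 2) * r ^ 3) {X : ℝ≥0∞} {t : ℝ} (ht : 0 ≤ t)
    (h : L * X ≤ ENNReal.ofReal t) :
    ((2:ℝ≥0∞) ^ k) ^ 3 * X ≤ ENNReal.ofReal (t * ((Zs.card : ℝ) * M ^ 2)) := by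
  have hm := mass_block hrk hL hN
  calc ((2:ℝ≥0∞) ^ k) ^ 3 * X ≤ (L * (Zs.card * (M:ℝ≥0∞) ^ 2)) * X := by gcongr
    _ = (L * X) * (Zs.card * (M:ℝ≥0∞) ^ 2) := by ring
    _ ≤ ENNReal.ofReal t * (Zs.card * (M:ℝ≥0∞) ^ 2) := by gcongr
    _ = _ := by
      rw [ENNReal.ofReal_mul ht, ENNReal.ofReal_mul (by positivity),
        ENNReal.ofReal_pow (by positivity), ENNReal.ofReal_natCast, ENNReal.ofReal_natCast]

section main

variable {p : ℝ} {q : ℕ} {al : Fin 3 → ℝ} {h : ℝ} {s : Fin 3 → ℝ} {L : ℕ} {η : ℝ}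
  {Φ : FoamD δ κ0 R c0 La} {f1 : E3 → E3} {g : Φ.F → Fin 3 → E3 → ℝ} {W : Φ.F → ℝ}
  {κ' μ κ1 κ2 κ3 : ℝ} {Cs : Set (Set E3) → ℝ} {𝒮0 : Set (Set (Set E3))} {HH R' : Set E3}
  {e1 e2 e3 e4 : ℝ≥0∞} {e5 : ℝ} {Ku : ℝ≥0∞} {D : Dat 3} {K0 : ℕ} {r : ℝ} {hr : r ≠ 0}
  {o : Fin 2 → ℤ} {M : ℕ} {Zs : Finset ℤ} {T : Tiling (QL L) ι} {Q : Set ι} {τ : ι → Top D}
  {J0 J V : Φ.F → Set ι} {ct : Φ.F → ι} {A : Φ.F → E3 ≃ᵃ[ℝ] E3} {lam : Φ.F → ℝ} {z : Φ.F → E3}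
  {θ : Φ.F → E3 → E3} {φ : Φ.F → E3 → ℝ} {Mg : Φ.F → ℕ} {B : ι → E3 ≃ᵃ[ℝ] E3} {cw : ι → ℝ≥0∞}

open Classical in
/-- **[P-W]: the clauses `wt` and `sq` of `PreN` from `MeshN`**, explicit numbers -/
theorem wtsq_of (H : MeshN p q al h s L η Φ f1 g W κ' μ κ1 κ2 κ3 Cs 𝒮0 HH R' e1 e2 e3 e4 e5 Ku D K0
      r hr o M Zs T Q τ J0 J V ct A lam z θ φ Mg B cw)
    (hp : 1 ≤ p) (hL : 1 ≤ L) (hs : ∀ i, 0 ≤ s i) {sm : ℝ} (hsm : ∀ i, s i ≤ sm)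
    {κ : Φ.F → ℕ} {Lv : Φ.F → Finset ℝ} {κp : ℝ} (hκ : 0 ≤ κp) {er : Cel D → ℝ≥0∞}
    (hF : ∀ (e : Edg T) (σ : Cel D) (l : Fin 3), σ.1.J = {l} → e.1 = σ.c →
      EN (us Φ f1) κ Lv e ≤ (1 + ENNReal.ofReal κp) *
        ic (Hw (fun c => ENNReal.ofReal (W c)) g l) D.a σ.1 + er σ)
    (hN : ∀ i, NN Φ T f1 κ Lv i ≤ ∑ e ∈ eIn T i, EN (us Φ f1) κ Lv e)
    (hHW : ∀ x ∈ HH, HWq Φ f1 q al h {x}) {e0 : ℝ≥0∞} (her : ∀ l, Ye D l p er ≤ e0)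
    (her1 : ∀ l, Ye D l 1 er ≤ e0) {ε εq ε' εR εH S : ℝ} (hε : 0 ≤ ε) (hεq : 0 ≤ εq)
    (hεR : 0 ≤ εR) (hεH : 0 ≤ εH) (hS0 : 0 ≤ S)
    (hS : M1 3 * ((1 + ENNReal.ofReal κp) * ENNReal.ofReal sm) ≤ ENNReal.ofReal S)
    (hx : 4 * (ENNReal.ofReal κp * ENNReal.ofReal sm) +
      L * ((1 + ENNReal.ofReal κp) * e1 + e0) ≤ ENNReal.ofReal ε)
    (hq : L * (KC 3 p * (2 ^ (p - 1) * ((1 + ENNReal.ofReal κp) ^ p * (3 * e1) + 3 * e0))) ≤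
      ENNReal.ofReal εq)
    (hH : L * (2 ^ (p - 1) * ((1 + ENNReal.ofReal κp) ^ p * e2 + KC 3 p * (3 * e0))) ≤
      ENNReal.ofReal εH)
    (hR : e2 ≤ ENNReal.ofReal (2 * εR / L))
    (h4 : 2 ^ (p - 1) * (S ^ p * εR + εH) ≤ ε') :
    (∃ x : Fin 2 → ℤ → (Fin 2 → ℕ) → ℝ, (∀ j m v, 0 ≤ x j m v) ∧
      (∀ m ∈ Zs, ∀ v, (∀ j, v j < M) → Ug T Qᶜ D.a r o m v → ∀ (j : Fin 2) (b : ℕ),
        b = 0 ∨ b = 1 →
        Vw Φ f1 κ Lv (side (fr (vx D.a r o m v) r hr) j b) ≤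
          ENNReal.ofReal (r * (s j.castSucc +
            x j m (fun i => v i + if i = j then 0 else b)))) ∧
      ∀ j, ∑ m ∈ Zs, ∑ v ∈ Fintype.piFinset fun _ : Fin 2 => Finset.range (M + 1), x j m v ≤
        ε * ((Zs.card : ℝ) * M ^ 2)) ∧
    ∃ Xq : ℤ → (Fin 2 → ℕ) → ℝ, (∀ m v, 0 ≤ Xq m v) ∧
      (∀ m ∈ Zs, ∀ v, (∀ j, v j < M) → Ug T Qᶜ D.a r o m v → ∀ i,
        Msh_715.P (T.H i) = cub (vx D.a r o m v) r →
        NN Φ T f1 κ Lv i ≤ ENNReal.ofReal (r * (S + Xq m v))) ∧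
      (∀ D' : Finset (ℤ × (Fin 2 → ℕ)), D' ⊆ Fc M Zs →
        (∀ k ∈ D', Ug T Qᶜ D.a r o k.1 k.2 ∧ HWq Φ f1 q al h (cub (vx D.a r o k.1 k.2) r)) →
        ∑ k ∈ D', Xq k.1 k.2 ^ p ≤ εq * ((Zs.card : ℝ) * M ^ 2)) ∧
      (∀ D' : Finset (ℤ × (Fin 2 → ℕ)), D' ⊆ Fc M Zs →
        (∀ k ∈ D', Ug T Qᶜ D.a r o k.1 k.2 ∧ ¬ HWq Φ f1 q al h (cub (vx D.a r o k.1 k.2) r)) →
        ∑ k ∈ D', (S + Xq k.1 k.2) ^ p ≤ ε' * ((Zs.card : ℝ) * M ^ 2)) := by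
  have hr0 : 0 < r := by rw [H.rK]; positivity
  have hL0 : (0:ℝ) < L := by exact_mod_cast hL
  have hgeo := Gno_324.nogeo_of T Qᶜ hr0 hr D.a o H.M0 H.lo H.hi H.zne H.zs
  have hZ0 : (0:ℝ) ≤ (Zs.card : ℝ) * M ^ 2 := by positivity
  have hsm' : ∀ l, ENNReal.ofReal (s l) ≤ ENNReal.ofReal sm := fun l =>
    ENNReal.ofReal_le_ofReal (hsm l)
  have hS3 : ∑ l : Fin 3, Ed D l p (Xs (fun c => ENNReal.ofReal (W c)) g
      (fun l => ENNReal.ofReal (s l)) l) ≤ 3 * e1 := by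
    calc _ ≤ ∑ _l : Fin 3, e1 := Finset.sum_le_sum fun l _ => H.ed l
      _ = _ := by simp
  have hY3 : ∑ l : Fin 3, Ye D l p er ≤ 3 * e0 := by
    calc _ ≤ ∑ _l : Fin 3, e0 := Finset.sum_le_sum fun l _ => her l
      _ = _ := by simp
  constructor
  · refine wt_clause (A := Zs) (Zs := Zs) hr H.rK H.blk Finset.Subset.rfl hs
      (κp := ENNReal.ofReal κp) (er := er) hF
      (U := fun m v => Ug T Qᶜ D.a r o m v) (fun m hm v hv hU j b hb =>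
        hgeo.edge m hm v hv hU j b hb) (N0 := ε * ((Zs.card : ℝ) * M ^ 2)) (by positivity) ?_
    intro j
    refine (sum_xE _ er j Zs _).trans ?_
    have hc := card_sq_succ H.M0
    have hm := mass_block H.rK hL H.N1
    calc _ ≤ (Zs.card * (4 * (M:ℝ≥0∞) ^ 2)) * (ENNReal.ofReal κp * ENNReal.ofReal sm) +
        (L * (Zs.card * (M:ℝ≥0∞) ^ 2)) * ((1 + ENNReal.ofReal κp) * e1 + e0) := by
          gcongr
          · exact hsm _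
          · exact H.ed1 _
          · exact her1 _
      _ = (4 * (ENNReal.ofReal κp * ENNReal.ofReal sm) +
        L * ((1 + ENNReal.ofReal κp) * e1 + e0)) * (Zs.card * (M:ℝ≥0∞) ^ 2) := by ring
      _ ≤ ENNReal.ofReal ε * (Zs.card * (M:ℝ≥0∞) ^ 2) := by gcongr
      _ = _ := by
        rw [ENNReal.ofReal_mul hε, ENNReal.ofReal_mul (by positivity),
          ENNReal.ofReal_pow (by positivity), ENNReal.ofReal_natCast, ENNReal.ofReal_natCast]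
  · refine sq_clause hp H.base H.rK H.blk Finset.Subset.rfl (s := fun l => ENNReal.ofReal (s l))
      (sm := ENNReal.ofReal sm) hsm' (c := 1 + ENNReal.ofReal κp) (er := er) hS0 hS hF hN
      (U := fun m v => Ug T Qᶜ D.a r o m v) (fun m _ v _ hU i hi => mem_of_Ug hU hi) (Rx := R')
      (fun x hx hxR => hHW x ((H.cov hx).resolve_right hxR)) (fun m _ v _ hU => hU.1)
      (N1 := εq * ((Zs.card : ℝ) * M ^ 2)) (N2 := εH * ((Zs.card : ℝ) * M ^ 2))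
      (N3 := εR * ((Zs.card : ℝ) * M ^ 2)) (N4 := ε' * ((Zs.card : ℝ) * M ^ 2)) (by positivity)
      (by positivity) (by positivity) ?_ ?_ ?_ ?_
    · refine (sum_qE hp _ er Zs _).trans ?_
      refine sum_le_of H.rK hL H.N1 hεq (le_trans ?_ hq)
      gcongr
    · have h1 := sum_qH (D := D) (k := K0) (o := o) (w := fun c => ENNReal.ofReal (W c)) (g := g) hp
        (1 + ENNReal.ofReal κp) er R' Zs (Fintype.piFinset fun _ : Fin 2 => Finset.range M)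
      rw [← H.rK] at h1
      refine h1.trans (sum_le_of H.rK hL H.N1 hεH (le_trans ?_ hH))
      gcongr
      exact H.sR
    · exact Gno_324.count_real D.a hr0 o _ R' (fun k hk => (Finset.mem_filter.1 hk).2) hL H.N1 hεR
        (H.vR.trans hR)
    · calc 2 ^ (p - 1) * (S ^ p * (εR * ((Zs.card : ℝ) * M ^ 2)) +
          εH * ((Zs.card : ℝ) * M ^ 2)) =
          (2 ^ (p - 1) * (S ^ p * εR + εH)) * ((Zs.card : ℝ) * M ^ 2) := by ring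
        _ ≤ _ := mul_le_mul_of_nonneg_right h4 hZ0

end main

theorem exists_five {a1 a2 a3 a4 a5 A1 A2 A3 A4 A5 : ℝ} (h1 : 0 < a1) (h2 : 0 < a2) (h3 : 0 < a3)
    (h4 : 0 < a4) (h5 : 0 < a5) (g1 : 0 ≤ A1) (g2 : 0 ≤ A2) (g3 : 0 ≤ A3) (g4 : 0 ≤ A4)
    (g5 : 0 ≤ A5) : ∃ t : ℝ, 0 < t ∧ t ≤ 1 ∧ t * A1 ≤ a1 ∧ t * A2 ≤ a2 ∧ t * A3 ≤ a3 ∧
      t * A4 ≤ a4 ∧ t * A5 ≤ a5 := by
  have key : ∀ {t a A : ℝ}, 0 < t → 0 ≤ A → 0 < a → t ≤ a / (A + 1) → t * A ≤ a := by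
    intro t a A ht hA ha h
    rw [le_div_iff₀ (by linarith)] at h
    nlinarith
  refine ⟨min 1 (min (a1 / (A1 + 1)) (min (a2 / (A2 + 1)) (min (a3 / (A3 + 1))
    (min (a4 / (A4 + 1)) (a5 / (A5 + 1)))))), ?_, min_le_left _ _, ?_, ?_, ?_, ?_, ?_⟩
  · refine lt_min one_pos (lt_min (by positivity) (lt_min (by positivity) (lt_min (by positivity)
      (lt_min (by positivity) (by positivity)))))
  all_goals
    refine key (lt_min one_pos (lt_min (by positivity) (lt_min (by positivity)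
      (lt_min (by positivity) (lt_min (by positivity) (by positivity)))))) (by assumption)
      (by assumption) ?_
  · exact (min_le_right _ _).trans (min_le_left _ _)
  · exact (min_le_right _ _).trans ((min_le_right _ _).trans (min_le_left _ _))
  · exact (min_le_right _ _).trans ((min_le_right _ _).trans ((min_le_right _ _).trans
      (min_le_left _ _)))
  · exact (min_le_right _ _).trans ((min_le_right _ _).trans ((min_le_right _ _).trans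
      ((min_le_right _ _).trans (min_le_left _ _))))
  · exact (min_le_right _ _).trans ((min_le_right _ _).trans ((min_le_right _ _).trans
      ((min_le_right _ _).trans (min_le_right _ _))))

open Classical in
/-- **[P-W], with one tolerance `t`**: all the numbers of `MeshN` at most `t` -/
theorem exists_wtsq {p : ℝ} (hp : 1 ≤ p) {L : ℕ} (hL : 1 ≤ L) {sm S : ℝ} (hsm0 : 0 ≤ sm)
    (hS : (M1 3 : ℝ) * (2 * sm) ≤ S) {ε ε' : ℝ} (hε : 0 < ε) (hε' : 0 < ε') :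
    ∃ t : ℝ, 0 < t ∧ t ≤ 1 ∧ ∀ {δ κ0 R c0 : ℝ} {La : Set E3} {ι : Type}
    {q : ℕ} {al : Fin 3 → ℝ} {h : ℝ} {s : Fin 3 → ℝ} {η : ℝ}
    {Φ : FoamD δ κ0 R c0 La} {f1 : E3 → E3} {g : Φ.F → Fin 3 → E3 → ℝ} {W : Φ.F → ℝ}
    {κ' μ κ1 κ2 κ3 : ℝ} {Cs : Set (Set E3) → ℝ} {𝒮0 : Set (Set (Set E3))} {HH R' : Set E3}
    {e1 e2 e3 e4 : ℝ≥0∞} {e5 : ℝ} {Ku : ℝ≥0∞} {D : Dat 3} {K0 : ℕ} {r : ℝ} {hr : r ≠ 0}
    {o : Fin 2 → ℤ} {M : ℕ} {Zs : Finset ℤ} {T : Tiling (QL L) ι} {Q : Set ι} {τ : ι → Top D}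
    {J0 J V : Φ.F → Set ι} {ct : Φ.F → ι} {A : Φ.F → E3 ≃ᵃ[ℝ] E3} {lam : Φ.F → ℝ} {z : Φ.F → E3}
    {θ : Φ.F → E3 → E3} {φ : Φ.F → E3 → ℝ} {Mg : Φ.F → ℕ} {B : ι → E3 ≃ᵃ[ℝ] E3}
    {cw : ι → ℝ≥0∞},
    MeshN p q al h s L η Φ f1 g W κ' μ κ1 κ2 κ3 Cs 𝒮0 HH R' e1 e2 e3 e4 e5 Ku D K0
      r hr o M Zs T Q τ J0 J V ct A lam z θ φ Mg B cw →
    (∀ i, 0 ≤ s i) → (∀ i, s i ≤ sm) → e1 ≤ ENNReal.ofReal t → e2 ≤ ENNReal.ofReal t →
    (∀ x ∈ HH, HWq Φ f1 q al h {x}) →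
    ∀ {κ : Φ.F → ℕ} {Lv : Φ.F → Finset ℝ} {κp : ℝ} {er : Cel D → ℝ≥0∞}, 0 ≤ κp → κp ≤ t →
    (∀ (e : Edg T) (σ : Cel D) (l : Fin 3), σ.1.J = {l} → e.1 = σ.c →
      EN (us Φ f1) κ Lv e ≤ (1 + ENNReal.ofReal κp) *
        ic (Hw (fun c => ENNReal.ofReal (W c)) g l) D.a σ.1 + er σ) →
    (∀ i, NN Φ T f1 κ Lv i ≤ ∑ e ∈ eIn T i, EN (us Φ f1) κ Lv e) →
    (∀ l, Ye D l p er ≤ ENNReal.ofReal t) → (∀ l, Ye D l 1 er ≤ ENNReal.ofReal t) →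
    (∃ x : Fin 2 → ℤ → (Fin 2 → ℕ) → ℝ, (∀ j m v, 0 ≤ x j m v) ∧
      (∀ m ∈ Zs, ∀ v, (∀ j, v j < M) → Ug T Qᶜ D.a r o m v → ∀ (j : Fin 2) (b : ℕ),
        b = 0 ∨ b = 1 →
        Vw Φ f1 κ Lv (side (fr (vx D.a r o m v) r hr) j b) ≤
          ENNReal.ofReal (r * (s j.castSucc +
            x j m (fun i => v i + if i = j then 0 else b)))) ∧
      ∀ j, ∑ m ∈ Zs, ∑ v ∈ Fintype.piFinset fun _ : Fin 2 => Finset.range (M + 1), x j m v ≤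
        ε * ((Zs.card : ℝ) * M ^ 2)) ∧
    ∃ Xq : ℤ → (Fin 2 → ℕ) → ℝ, (∀ m v, 0 ≤ Xq m v) ∧
      (∀ m ∈ Zs, ∀ v, (∀ j, v j < M) → Ug T Qᶜ D.a r o m v → ∀ i,
        Msh_715.P (T.H i) = cub (vx D.a r o m v) r →
        NN Φ T f1 κ Lv i ≤ ENNReal.ofReal (r * (S + Xq m v))) ∧
      (∀ D' : Finset (ℤ × (Fin 2 → ℕ)), D' ⊆ Fc M Zs →
        (∀ k ∈ D', Ug T Qᶜ D.a r o k.1 k.2 ∧ HWq Φ f1 q al h (cub (vx D.a r o k.1 k.2) r)) →
        ∑ k ∈ D', Xq k.1 k.2 ^ p ≤ ε * ((Zs.card : ℝ) * M ^ 2)) ∧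
      (∀ D' : Finset (ℤ × (Fin 2 → ℕ)), D' ⊆ Fc M Zs →
        (∀ k ∈ D', Ug T Qᶜ D.a r o k.1 k.2 ∧ ¬ HWq Φ f1 q al h (cub (vx D.a r o k.1 k.2) r)) →
        ∑ k ∈ D', (S + Xq k.1 k.2) ^ p ≤ ε' * ((Zs.card : ℝ) * M ^ 2)) := by
  have hL0 : (0:ℝ) < L := by exact_mod_cast hL
  have hM1 : (0:ℝ) ≤ M1 3 := Nat.cast_nonneg _
  have hS0 : 0 ≤ S := le_trans (by positivity) hS
  set K : ℝ := (KC 3 p).toReal with hK
  have hK0 : 0 ≤ K := ENNReal.toReal_nonneg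
  have hKC : KC 3 p = ENNReal.ofReal K := (ENNReal.ofReal_toReal (KC_ne_top hp)).symm
  have hSp : 0 ≤ S ^ p := Real.rpow_nonneg hS0 p
  have h2p : (0:ℝ) < 2 ^ p := by positivity
  have h2q : (0:ℝ) < 2 ^ (p - 1) := by positivity
  set εR : ℝ := ε' / (2 * 2 ^ (p - 1) * (S ^ p + 1)) with hεR
  set εH : ℝ := ε' / (2 * 2 ^ (p - 1)) with hεH
  have hεR0 : 0 < εR := by rw [hεR]; positivity
  have hεH0 : 0 < εH := by rw [hεH]; positivity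
  have h4 : 2 ^ (p - 1) * (S ^ p * εR + εH) ≤ ε' := by
    have e1 : 2 ^ (p - 1) * εH = ε' / 2 := by
      rw [hεH]; field_simp
    have e2 : 2 ^ (p - 1) * (S ^ p * εR) ≤ ε' / 2 := by
      rw [hεR]
      have e3 : 2 ^ (p - 1) * (S ^ p * (ε' / (2 * 2 ^ (p - 1) * (S ^ p + 1)))) =
          (ε' / 2) * (S ^ p / (S ^ p + 1)) := by
        field_simp
      rw [e3]
      have e4 : S ^ p / (S ^ p + 1) ≤ 1 := by
        rw [div_le_one (by positivity)]; linarith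
      nlinarith
    rw [mul_add]; linarith
  obtain ⟨t, ht, ht1, t1, t2, t3, t4, -⟩ := exists_five (a1 := ε) (a2 := ε) (a3 := εH)
    (a4 := 2 * εR / L) (a5 := 1) hε hε hεH0 (by positivity) one_pos
    (A1 := 4 * sm + 3 * L) (A2 := L * (K * (2 ^ (p - 1) * (2 ^ p * 3 + 3))))
    (A3 := L * (2 ^ (p - 1) * (2 ^ p + K * 3))) (A4 := 1) (A5 := 1) (by positivity)
    (by positivity) (by positivity) zero_le_one zero_le_one
  refine ⟨t, ht, ht1, ?_⟩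
  intro δ κ0 R c0 La ι q al h s η Φ f1 g W κ' μ κ1 κ2 κ3 Cs 𝒮0 HH R' e1 e2 e3 e4 e5 Ku D K0 r hr o M
    Zs T Q τ J0 J V ct A lam z θ φ Mg B cw H hs hsm he1 he2 hHW κ Lv κp er hκ hκt hF hN her her1
  have h1κ : 1 + ENNReal.ofReal κp ≤ 2 := by
    have h := ENNReal.ofReal_le_ofReal (hκt.trans ht1)
    rw [ENNReal.ofReal_one] at h
    calc 1 + ENNReal.ofReal κp ≤ 1 + 1 := by gcongr
      _ = 2 := by norm_num
  have h1κp : (1 + ENNReal.ofReal κp) ^ p ≤ ENNReal.ofReal (2 ^ p) := by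
    rw [← ENNReal.ofReal_rpow_of_pos (by norm_num)]
    refine (ENNReal.rpow_le_rpow h1κ (by linarith)).trans (le_of_eq ?_)
    norm_num
  have h2q' : (2:ℝ≥0∞) ^ (p - 1) = ENNReal.ofReal (2 ^ (p - 1)) := by
    rw [← ENNReal.ofReal_rpow_of_pos (by norm_num)]
    norm_num
  have e3' : (3:ℝ≥0∞) = ENNReal.ofReal 3 := by norm_num
  have e2' : (2:ℝ≥0∞) = ENNReal.ofReal 2 := by norm_num
  have e4' : (4:ℝ≥0∞) = ENNReal.ofReal 4 := by norm_num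
  have eL : (L:ℝ≥0∞) = ENNReal.ofReal L := (ENNReal.ofReal_natCast L).symm
  refine wtsq_of H hp hL hs hsm (κp := κp) hκ hF hN hHW (e0 := ENNReal.ofReal t) her her1 hε.le
    hε.le hεR0.le hεH0.le hS0 ?_ ?_ ?_ ?_ ?_ h4
  · calc (M1 3 : ℝ≥0∞) * ((1 + ENNReal.ofReal κp) * ENNReal.ofReal sm) ≤
        M1 3 * (2 * ENNReal.ofReal sm) := by gcongr
      _ = ENNReal.ofReal ((M1 3 : ℝ) * (2 * sm)) := by
        rw [ENNReal.ofReal_mul hM1, ENNReal.ofReal_mul (by norm_num), ENNReal.ofReal_natCast, ← e2']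
      _ ≤ _ := ENNReal.ofReal_le_ofReal hS
  · calc 4 * (ENNReal.ofReal κp * ENNReal.ofReal sm) +
        L * ((1 + ENNReal.ofReal κp) * e1 + ENNReal.ofReal t) ≤
        ENNReal.ofReal 4 * (ENNReal.ofReal t * ENNReal.ofReal sm) +
          ENNReal.ofReal L * (ENNReal.ofReal 2 * ENNReal.ofReal t + ENNReal.ofReal t) := by
          rw [← e4', ← eL, ← e2']
          gcongr
      _ = ENNReal.ofReal (t * (4 * sm + 3 * L)) := by
        rw [← ENNReal.ofReal_mul ht.le, ← ENNReal.ofReal_mul (by norm_num),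
          ← ENNReal.ofReal_mul (by norm_num), ← ENNReal.ofReal_add (by positivity) ht.le,
          ← ENNReal.ofReal_mul hL0.le, ← ENNReal.ofReal_add (by positivity) (by positivity)]
        congr 1; ring
      _ ≤ _ := ENNReal.ofReal_le_ofReal t1
  · calc L * (KC 3 p * (2 ^ (p - 1) * ((1 + ENNReal.ofReal κp) ^ p * (3 * e1) +
        3 * ENNReal.ofReal t))) ≤
        ENNReal.ofReal L * (ENNReal.ofReal K * (ENNReal.ofReal (2 ^ (p - 1)) *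
          (ENNReal.ofReal (2 ^ p) * (ENNReal.ofReal 3 * ENNReal.ofReal t) +
            ENNReal.ofReal 3 * ENNReal.ofReal t))) := by
          rw [← eL, ← hKC, ← h2q', ← e3']
          gcongr
      _ = ENNReal.ofReal (t * (L * (K * (2 ^ (p - 1) * (2 ^ p * 3 + 3))))) := by
        rw [← ENNReal.ofReal_mul (by norm_num), ← ENNReal.ofReal_mul h2p.le,
          ← ENNReal.ofReal_add (by positivity) (by positivity), ← ENNReal.ofReal_mul h2q.le,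
          ← ENNReal.ofReal_mul hK0, ← ENNReal.ofReal_mul hL0.le]
        congr 1; ring
      _ ≤ _ := ENNReal.ofReal_le_ofReal t2
  · calc L * (2 ^ (p - 1) * ((1 + ENNReal.ofReal κp) ^ p * e2 +
        KC 3 p * (3 * ENNReal.ofReal t))) ≤
        ENNReal.ofReal L * (ENNReal.ofReal (2 ^ (p - 1)) *
          (ENNReal.ofReal (2 ^ p) * ENNReal.ofReal t +
            ENNReal.ofReal K * (ENNReal.ofReal 3 * ENNReal.ofReal t))) := by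
          rw [← eL, ← hKC, ← h2q', ← e3']
          gcongr
      _ = ENNReal.ofReal (t * (L * (2 ^ (p - 1) * (2 ^ p + K * 3)))) := by
        rw [← ENNReal.ofReal_mul h2p.le, ← ENNReal.ofReal_mul (by norm_num),
          ← ENNReal.ofReal_mul hK0,
          ← ENNReal.ofReal_add (by positivity) (by positivity), ← ENNReal.ofReal_mul h2q.le,
          ← ENNReal.ofReal_mul hL0.le]
        congr 1; ring
      _ ≤ _ := ENNReal.ofReal_le_ofReal t3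
  · refine he2.trans (ENNReal.ofReal_le_ofReal ?_)
    linarith

end Crest.Agent.R096.Npw_273
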