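/-
helper273, row 96, NO0-PRE3 [P-W] (962 #11402, #11558), part 2: the clauses `wt` and `sq` of `PreN` from
`MeshN`, with the order of the constants: `e1 ≤ t1(ε)`, then `ε'`, then `e2, e0, κ' ≤ t2`.
-/
import Crest.Agent.R096.Np6_962
import Crest.Agent.R096.Npw1_273

set_option autoImplicit false
set_option linter.unusedVariables false
set_option linter.unusedSectionVars false

open MeasureTheory Set Filter Metric
open scoped Topology ENNReal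

noncomputable section

namespace Crest.Agent.R096.Npw_273

open Crest.Agent.R096.Msh_715 hiding P I
open Crest.Agent.R096.SkC1_961 (E3 Cfg FoamD Hom3 NN)
open Crest.Agent.R096.Ls_222
open Crest.Agent.R096.Mbf_337
open Crest.Agent.R96.Pm_199 (le)
open Crest.Agent.R096.Msh_810 Crest.Agent.R96.En2_199 Crest.Agent.R96.En4_199
  Crest.Agent.R96.En9_199 Crest.Agent.R96.En11_199 Crest.Agent.R96.En3_199
open Crest.Agent.R096.Ps_273
open Crest.Agent.R096.No0_477 (cub fr Fc vx Vw)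
open Crest.Agent.R096.SkN1_477 (usq side)
open Crest.Agent.R096.No_276 (QL)
open Crest.Agent.R096.Gno_324 (Ug)
open Crest.Agent.R096.Ea_713 (lin)
open Crest.Agent.R096.Log2_582 (IsLog)
open Crest.Agent.R096.Nl_234 (HWq)
open Crest.Agent.R096.Np_962

open Classical in
/-- **[P-W], two tolerances**: `e1 ≤ t1`, then `ε'`, then `e2, e0, κ' ≤ t2` -/
theorem exists_wtsq2 {p : ℝ} (hp : 1 ≤ p) {L : ℕ} (hL : 1 ≤ L) {sm S : ℝ} (hsm0 : 0 ≤ sm)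
    (hS : (M1 3 : ℝ) * (2 * sm) ≤ S) {ε : ℝ} (hε : 0 < ε) :
    ∃ t1 : ℝ, 0 < t1 ∧ t1 ≤ 1 ∧ ∀ ε' : ℝ, 0 < ε' → ∃ t2 : ℝ, 0 < t2 ∧ t2 ≤ t1 ∧ ∀ {δ κ0 R c0 : ℝ} {La : Set E3} {ι : Type}
    {q : ℕ} {al : Fin 3 → ℝ} {h : ℝ} {s : Fin 3 → ℝ} {η : ℝ}
    {Φ : FoamD δ κ0 R c0 La} {f1 : E3 → E3} {g : Φ.F → Fin 3 → E3 → ℝ} {W : Φ.F → ℝ}
    {κ' μ κ1 κ2 κ3 : ℝ} {Cs : Set (Set E3) → ℝ} {𝒮0 : Set (Set (Set E3))} {HH R' : Set E3}
    {e1 e2 e3 e4 : ℝ≥0∞} {e5 : ℝ} {Ku : ℝ≥0∞} {D : Dat 3} {K0 : ℕ} {r : ℝ} {hr : r ≠ 0}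
    {o : Fin 2 → ℤ} {M : ℕ} {Zs : Finset ℤ} {T : Tiling (QL L) ι} {Q : Set ι} {τ : ι → Top D}
    {J0 J V : Φ.F → Set ι} {ct : Φ.F → ι} {A : Φ.F → E3 ≃ᵃ[ℝ] E3} {lam : Φ.F → ℝ} {z : Φ.F → E3}
    {θ : Φ.F → E3 → E3} {φ : Φ.F → E3 → ℝ} {Mg : Φ.F → ℕ} {B : ι → E3 ≃ᵃ[ℝ] E3}
    {cw : ι → ℝ≥0∞},
    MeshN p q al h s L η Φ f1 g W κ' μ κ1 κ2 κ3 Cs 𝒮0 HH R' e1 e2 e3 e4 e5 Ku D K0
      r hr o M Zs T Q τ J0 J V ct A lam z θ φ Mg B cw →
    (∀ i, 0 ≤ s i) → (∀ i, s i ≤ sm) → 0 ≤ κ' → κ' ≤ t2 → e1 ≤ ENNReal.ofReal t1 →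
    e2 ≤ ENNReal.ofReal t2 → (∀ x ∈ HH, HWq Φ f1 q al h {x}) →
    ∀ {κ : Φ.F → ℕ} {Lv : Φ.F → Finset ℝ} {err : Edg T → ℝ≥0∞} {er : Cel D → ℝ≥0∞},
    (∀ e, EN (us Φ f1) κ Lv e ≤ ENNReal.ofReal (1 + κ') *
      le (GV (fun c => ENNReal.ofReal (W c)) g) e + err e) →
    (∀ i, NN Φ T f1 κ Lv i ≤ ∑ e ∈ eIn T i, EN (us Φ f1) κ Lv e) →
    (∀ (e : Edg T) (σ : Cel D), e.1 = σ.c → err e ≤ er σ) →
    (∀ l, Ye D l p er ≤ ENNReal.ofReal t2) → (∀ l, Ye D l 1 er ≤ ENNReal.ofReal t2) →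
    (∃ x : Fin 2 → ℤ → (Fin 2 → ℕ) → ℝ, (∀ j m v, 0 ≤ x j m v) ∧
      (∀ m ∈ Zs, ∀ v, (∀ j, v j < M) → Ug T Qᶜ D.a r o m v → ∀ (j : Fin 2) (b : ℕ),
        b = 0 ∨ b = 1 →
        Vw Φ f1 κ Lv (side (fr (vx D.a r o m v) r hr) j b) ≤
          ENNReal.ofReal (r * (s j.castSucc +
            x j m (fun i => v i + if i = j then 0 else b)))) ∧
      ∀ j, ∑ m ∈ Zs, ∑ v ∈ Fintype.piFinset fun _ : Fin 2 => Finset.range (M + 1), x j m v ≤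
        ε * ((Zs.card : ℝ) * M ^ 2)) ∧
    ∃ Xq : ℤ → (Fin 2 → ℕ) → ℝ, (∀ m v, 0 ≤ Xq m v) ∧
      (∀ m ∈ Zs, ∀ v, (∀ j, v j < M) → Ug T Qᶜ D.a r o m v → ∀ i,
        Msh_715.P (T.H i) = cub (vx D.a r o m v) r →
        NN Φ T f1 κ Lv i ≤ ENNReal.ofReal (r * (S + Xq m v))) ∧
      (∀ D' : Finset (ℤ × (Fin 2 → ℕ)), D' ⊆ Fc M Zs →
        (∀ k ∈ D', Ug T Qᶜ D.a r o k.1 k.2 ∧ HWq Φ f1 q al h (cub (vx D.a r o k.1 k.2) r)) →
        ∑ k ∈ D', Xq k.1 k.2 ^ p ≤ ε * ((Zs.card : ℝ) * M ^ 2)) ∧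
      (∀ D' : Finset (ℤ × (Fin 2 → ℕ)), D' ⊆ Fc M Zs →
        (∀ k ∈ D', Ug T Qᶜ D.a r o k.1 k.2 ∧ ¬ HWq Φ f1 q al h (cub (vx D.a r o k.1 k.2) r)) →
        ∑ k ∈ D', (S + Xq k.1 k.2) ^ p ≤ ε' * ((Zs.card : ℝ) * M ^ 2)) := by
  have hL0 : (0:ℝ) < L := by exact_mod_cast hL
  have hM1 : (0:ℝ) ≤ M1 3 := Nat.cast_nonneg _
  have hS0 : 0 ≤ S := le_trans (by positivity) hS
  set K : ℝ := (KC 3 p).toReal with hK
  have hK0 : 0 ≤ K := ENNReal.toReal_nonneg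
  have hKC : KC 3 p = ENNReal.ofReal K := (ENNReal.ofReal_toReal (KC_ne_top hp)).symm
  have hSp : 0 ≤ S ^ p := Real.rpow_nonneg hS0 p
  have h2p : (0:ℝ) < 2 ^ p := by positivity
  have h2q : (0:ℝ) < 2 ^ (p - 1) := by positivity
  obtain ⟨t, ht, ht1, t1, t2, -, -, -⟩ := exists_five (a1 := ε) (a2 := ε) (a3 := 1)
    (a4 := 1) (a5 := 1) hε hε one_pos one_pos one_pos
    (A1 := 4 * sm + 3 * L) (A2 := L * (K * (2 ^ (p - 1) * (2 ^ p * 3 + 3))))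
    (A3 := 1) (A4 := 1) (A5 := 1) (by positivity)
    (by positivity) zero_le_one zero_le_one zero_le_one
  refine ⟨t, ht, ht1, fun ε' hε' => ?_⟩
  set εR : ℝ := ε' / (2 * 2 ^ (p - 1) * (S ^ p + 1)) with hεR
  set εH : ℝ := ε' / (2 * 2 ^ (p - 1)) with hεH
  have hεR0 : 0 < εR := by rw [hεR]; positivity
  have hεH0 : 0 < εH := by rw [hεH]; positivity
  have h4 : 2 ^ (p - 1) * (S ^ p * εR + εH) ≤ ε' := by
    have e1 : 2 ^ (p - 1) * εH = ε' / 2 := by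
      rw [hεH]; field_simp
    have e2 : 2 ^ (p - 1) * (S ^ p * εR) ≤ ε' / 2 := by
      rw [hεR]
      have e3 : 2 ^ (p - 1) * (S ^ p * (ε' / (2 * 2 ^ (p - 1) * (S ^ p + 1)))) =
          (ε' / 2) * (S ^ p / (S ^ p + 1)) := by
        field_simp
      rw [e3]
      have e4 : S ^ p / (S ^ p + 1) ≤ 1 := by
        rw [div_le_one (by positivity)]; linarith
      nlinarith
    rw [mul_add]; linarith
  obtain ⟨u, hu, hu1, -, t3, t4, t5, -⟩ := exists_five (a1 := 1) (a2 := εH)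
    (a3 := 2 * εR / L) (a4 := t) (a5 := 1) one_pos hεH0 (by positivity) ht one_pos
    (A1 := 1)
    (A2 := L * (2 ^ (p - 1) * (2 ^ p + K * 3))) (A3 := 1) (A4 := 1) (A5 := 1) zero_le_one
    (by positivity) zero_le_one zero_le_one zero_le_one
  have hut : u ≤ t := by linarith
  refine ⟨u, hu, hut, ?_⟩
  intro δ κ0 R c0 La ι q al h s η Φ f1 g W κp μ κ1 κ2 κ3 Cs 𝒮0 HH R' e1 e2 e3 e4 e5 Ku D K0 r hr o M
    Zs T Q τ J0 J V ct A lam z θ φ Mg B cw H hs hsm hκ hκu he1 he2 hHW κ Lv err er hEN hN herr her her1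
  have hκt : κp ≤ t := hκu.trans hut
  have hutE : ENNReal.ofReal u ≤ ENNReal.ofReal t := ENNReal.ofReal_le_ofReal hut
  have hcΦ : Countable Φ.F := countable_F Φ
  have h1e : ENNReal.ofReal (1 + κp) = 1 + ENNReal.ofReal κp := by
    rw [ENNReal.ofReal_add zero_le_one hκ, ENNReal.ofReal_one]
  have hF : ∀ (e : Edg T) (σ : Cel D) (l : Fin 3), σ.1.J = {l} → e.1 = σ.c →
      EN (us Φ f1) κ Lv e ≤ (1 + ENNReal.ofReal κp) *
        ic (Hw (fun c => ENNReal.ofReal (W c)) g l) D.a σ.1 + er σ := by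
    intro e σ l hσ he
    refine (hEN e).trans ?_
    rw [← h1e]
    exact hF_of H.gm herr e σ l hσ he
  have h1κ : 1 + ENNReal.ofReal κp ≤ 2 := by
    have h := ENNReal.ofReal_le_ofReal (hκt.trans ht1)
    rw [ENNReal.ofReal_one] at h
    calc 1 + ENNReal.ofReal κp ≤ 1 + 1 := by gcongr
      _ = 2 := by norm_num
  have h1κp : (1 + ENNReal.ofReal κp) ^ p ≤ ENNReal.ofReal (2 ^ p) := by
    rw [← ENNReal.ofReal_rpow_of_pos (by norm_num)]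
    refine (ENNReal.rpow_le_rpow h1κ (by linarith)).trans (le_of_eq ?_)
    norm_num
  have h2q' : (2:ℝ≥0∞) ^ (p - 1) = ENNReal.ofReal (2 ^ (p - 1)) := by
    rw [← ENNReal.ofReal_rpow_of_pos (by norm_num)]
    norm_num
  have e3' : (3:ℝ≥0∞) = ENNReal.ofReal 3 := by norm_num
  have e2' : (2:ℝ≥0∞) = ENNReal.ofReal 2 := by norm_num
  have e4' : (4:ℝ≥0∞) = ENNReal.ofReal 4 := by norm_num
  have eL : (L:ℝ≥0∞) = ENNReal.ofReal L := (ENNReal.ofReal_natCast L).symm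
  refine wtsq_of H hp hL hs hsm (κp := κp) hκ hF hN hHW (e0 := ENNReal.ofReal u) her her1 hε.le
    hε.le hεR0.le hεH0.le hS0 ?_ ?_ ?_ ?_ ?_ h4
  · calc (M1 3 : ℝ≥0∞) * ((1 + ENNReal.ofReal κp) * ENNReal.ofReal sm) ≤
        M1 3 * (2 * ENNReal.ofReal sm) := by gcongr
      _ = ENNReal.ofReal ((M1 3 : ℝ) * (2 * sm)) := by
        rw [ENNReal.ofReal_mul hM1, ENNReal.ofReal_mul (by norm_num), ENNReal.ofReal_natCast, ← e2']
      _ ≤ _ := ENNReal.ofReal_le_ofReal hS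
  · calc 4 * (ENNReal.ofReal κp * ENNReal.ofReal sm) +
        L * ((1 + ENNReal.ofReal κp) * e1 + ENNReal.ofReal u) ≤
        ENNReal.ofReal 4 * (ENNReal.ofReal t * ENNReal.ofReal sm) +
          ENNReal.ofReal L * (ENNReal.ofReal 2 * ENNReal.ofReal t + ENNReal.ofReal t) := by
          rw [← e4', ← eL, ← e2']
          gcongr
      _ = ENNReal.ofReal (t * (4 * sm + 3 * L)) := by
        rw [← ENNReal.ofReal_mul ht.le, ← ENNReal.ofReal_mul (by norm_num),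
          ← ENNReal.ofReal_mul (by norm_num), ← ENNReal.ofReal_add (by positivity) ht.le,
          ← ENNReal.ofReal_mul hL0.le, ← ENNReal.ofReal_add (by positivity) (by positivity)]
        congr 1; ring
      _ ≤ _ := ENNReal.ofReal_le_ofReal t1
  · calc L * (KC 3 p * (2 ^ (p - 1) * ((1 + ENNReal.ofReal κp) ^ p * (3 * e1) +
        3 * ENNReal.ofReal u))) ≤
        ENNReal.ofReal L * (ENNReal.ofReal K * (ENNReal.ofReal (2 ^ (p - 1)) *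
          (ENNReal.ofReal (2 ^ p) * (ENNReal.ofReal 3 * ENNReal.ofReal t) +
            ENNReal.ofReal 3 * ENNReal.ofReal t))) := by
          rw [← eL, ← hKC, ← h2q', ← e3']
          gcongr
      _ = ENNReal.ofReal (t * (L * (K * (2 ^ (p - 1) * (2 ^ p * 3 + 3))))) := by
        rw [← ENNReal.ofReal_mul (by norm_num), ← ENNReal.ofReal_mul h2p.le,
          ← ENNReal.ofReal_add (by positivity) (by positivity), ← ENNReal.ofReal_mul h2q.le,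
          ← ENNReal.ofReal_mul hK0, ← ENNReal.ofReal_mul hL0.le]
        congr 1; ring
      _ ≤ _ := ENNReal.ofReal_le_ofReal t2
  · calc L * (2 ^ (p - 1) * ((1 + ENNReal.ofReal κp) ^ p * e2 +
        KC 3 p * (3 * ENNReal.ofReal u))) ≤
        ENNReal.ofReal L * (ENNReal.ofReal (2 ^ (p - 1)) *
          (ENNReal.ofReal (2 ^ p) * ENNReal.ofReal u +
            ENNReal.ofReal K * (ENNReal.ofReal 3 * ENNReal.ofReal u))) := by
          rw [← eL, ← hKC, ← h2q', ← e3']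
          gcongr
      _ = ENNReal.ofReal (u * (L * (2 ^ (p - 1) * (2 ^ p + K * 3)))) := by
        rw [← ENNReal.ofReal_mul h2p.le, ← ENNReal.ofReal_mul (by norm_num),
          ← ENNReal.ofReal_mul hK0,
          ← ENNReal.ofReal_add (by positivity) (by positivity), ← ENNReal.ofReal_mul h2q.le,
          ← ENNReal.ofReal_mul hL0.le]
        congr 1; ring
      _ ≤ _ := ENNReal.ofReal_le_ofReal t3
  · refine he2.trans (ENNReal.ofReal_le_ofReal ?_)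
    linarith

end Crest.Agent.R096.Npw_273
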