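import Crest.Agent.R096.Np6_962
import Crest.Agent.R096.Err1_479
import Crest.Agent.R096.Mon1_664

/-!
Row 96 (S0127), helper552, node NO0-PRE3 (962 #11679 (3)): errors and levels from `MeshN` alone.

* `exists_errs` : ONE function `err` of the edges (positive, finite) and `er` of the cells with small
  `Ye` (exponents `p` and `1`) and small sum over the tiles outside `Q` (weights `Cs`, `cw`);
* `exists_lv` : levels, words, exact weights, `EN ≤ Fw`, `NN ≤ Σ EN`, `NN ≤ Σ Fw`.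
-/

set_option autoImplicit false
set_option linter.unusedSectionVars false
set_option linter.unusedVariables false
set_option linter.style.longLine false
open Set Filter Topology MeasureTheory Metric
open scoped NNReal ENNReal

noncomputable section

namespace Crest.Agent.R096.Prn_552

open Crest.Agent.R096.Msh_715 hiding P I
open Crest.Agent.R096.SkC1_961 (E3 Cfg FoamD Hom3 NN)
open Crest.Agent.R096.Ls_222
open Crest.Agent.R096.Mbf_337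
open Crest.Agent.R96.Pm_199 (le)
open Crest.Agent.R096.Msh_810 Crest.Agent.R96.En2_199 Crest.Agent.R96.En4_199
  Crest.Agent.R96.En9_199 Crest.Agent.R96.En11_199
open Crest.Agent.R096.Ps_273
open Crest.Agent.R096.No0_477 (cub fr Fc vx)
open Crest.Agent.R096.No_276 (QL)
open Crest.Agent.R096.Gno_324 (Ug)
open Crest.Agent.R096.Ea_713 (lin)
open Crest.Agent.R096.Log2_582 (IsLog)
open Crest.Agent.R096.Np_962

variable {δ κ0 R c0 : ℝ} {La : Set E3} {ι : Type}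

variable {p : ℝ} {q : ℕ} {al : Fin 3 → ℝ} {h : ℝ} {s : Fin 3 → ℝ} {L : ℕ} {η : ℝ}
  {Φ : FoamD δ κ0 R c0 La} {f1 : E3 → E3} {g : Φ.F → Fin 3 → E3 → ℝ} {W : Φ.F → ℝ}
  {κ' μ κ1 κ2 κ3 : ℝ} {Cs : Set (Set E3) → ℝ} {𝒮0 : Set (Set (Set E3))} {HH R' : Set E3}
  {e1 e2 e3 e4 : ℝ≥0∞} {e5 : ℝ} {Ku : ℝ≥0∞} {D : Dat 3} {K0 : ℕ} {r : ℝ} {hr : r ≠ 0}
  {o : Fin 2 → ℤ} {M : ℕ} {Zs : Finset ℤ} {T : Tiling (QL L) ι} {Q : Set ι} {τ : ι → Top D}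
  {J0 J V : Φ.F → Set ι} {ct : Φ.F → ι} {A : Φ.F → E3 ≃ᵃ[ℝ] E3} {lam : Φ.F → ℝ} {z : Φ.F → E3}
  {θ : Φ.F → E3 → E3} {φ : Φ.F → E3 → ℝ} {Mg : Φ.F → ℕ} {B : ι → E3 ≃ᵃ[ℝ] E3} {cw : ι → ℝ≥0∞}

/-- **ERRORS** -/
theorem exists_errs (H : MeshN p q al h s L η Φ f1 g W κ' μ κ1 κ2 κ3 Cs 𝒮0 HH R' e1 e2 e3 e4 e5 Ku D K0
    r hr o M Zs T Q τ J0 J V ct A lam z θ φ Mg B cw) (hp : 1 ≤ p) {e0 : ℝ≥0∞} (he0 : e0 ≠ 0) :
    ∃ (err : Edg T → ℝ≥0∞) (er : Cel D → ℝ≥0∞), (∀ e, err e ≠ 0) ∧ (∀ e, err e ≠ ⊤) ∧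
      (∀ (e : Edg T) (σ : Cel D), e.1 = σ.c → err e ≤ er σ) ∧
      (∀ l, Ye D l p er ≤ e0) ∧ (∀ l, Ye D l 1 er ≤ e0) ∧
      ∑' i : {i // i ∉ Q ∧ ∀ c, i ≠ ct c},
        (ENNReal.ofReal (Cs ((fun K => B i.1 '' K) '' Cfg T i.1) * ‖lin (B i.1)‖) *
          ∑ e ∈ eIn T i.1, err e) ^ p * ((1 + cw i.1) * volume (Msh_715.P (T.H i.1))) ≤ e0 := by
  classical
  have hp0 : 0 ≤ p := by linarith
  obtain ⟨er1, er, h1, h2, h3, h4, h5⟩ := exists_err_T T D hp he0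
  set U : ι → ℝ≥0∞ := fun i => if i ∉ Q ∧ ∀ c, i ≠ ct c then
    ENNReal.ofReal (Cs ((fun K => B i '' K) '' Cfg T i) * ‖lin (B i)‖) ^ p *
      ((1 + cw i) * volume (Msh_715.P (T.H i))) else 0 with hU
  have hUt : ∀ i, U i ≠ ⊤ := by
    intro i
    simp only [hU]
    split_ifs with hi
    · refine ENNReal.mul_ne_top (ENNReal.rpow_ne_top_of_nonneg hp0 ENNReal.ofReal_ne_top)
        (ENNReal.mul_ne_top (ENNReal.add_ne_top.2 ⟨ENNReal.one_ne_top, H.wfin i hi.1 hi.2⟩) ?_)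
      exact (T.cpt i).measure_lt_top.ne
    · exact ENNReal.zero_ne_top
  obtain ⟨err, g1, g2, g3, g4⟩ := Crest.Agent.R096.Err_479.exists_err T
    {i | i ∉ Q ∧ ∀ c, i ≠ ct c} hp hUt he0 (b := fun e => ENNReal.ofReal (er1 e))
    (fun e => (ENNReal.ofReal_pos.2 (h1 e)).ne')
  refine ⟨err, fun σ => ENNReal.ofReal (er σ), g1, g3, fun e σ he => (g2 e).trans
    (ENNReal.ofReal_le_ofReal (h3 e σ he)), h4, h5, le_trans (ENNReal.tsum_le_tsum fun i => ?_) g4⟩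
  refine le_of_eq ?_
  have hi : i.1 ∉ Q ∧ ∀ c, i.1 ≠ ct c := i.2
  simp only [hU]
  rw [if_pos hi, ENNReal.mul_rpow_of_nonneg _ _ hp0]
  ring

/-- **LEVELS** -/
theorem exists_lv (H : MeshN p q al h s L η Φ f1 g W κ' μ κ1 κ2 κ3 Cs 𝒮0 HH R' e1 e2 e3 e4 e5 Ku D K0
    r hr o M Zs T Q τ J0 J V ct A lam z θ φ Mg B cw) {err : Edg T → ℝ≥0∞} (herr : ∀ e, err e ≠ 0)
    {κp : ℝ} (hκ : κ' ≤ κp) (Z : Φ.F → Set ℝ) (m0 : Φ.F → ℕ) (hZ : ∀ c, volume (Z c) = 0) :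
    ∃ (κ : Φ.F → ℕ) (Lv : Φ.F → Finset ℝ),
      Levels Φ T f1 κp μ κ3 Z m0 κ Lv ∧ Words Φ T f1 univ ct A lam z Mg Lv ∧
      (∀ c : Φ.F, IsLog q al h c.1 → ((Lv c).card : ℝ) * (2 : ℝ)⁻¹ ^ κ c = h / 2) ∧
      (∀ e, EN (us Φ f1) κ Lv e ≤ Fw κ' W g err e) ∧
      (∀ i, NN Φ T f1 κ Lv i ≤ ∑ e ∈ eIn T i, EN (us Φ f1) κ Lv e) ∧
      ∀ i, NN Φ T f1 κ Lv i ≤ ∑ e ∈ eIn T i, Fw κ' W g err e := by
  obtain ⟨κ, Lv, h1, h2, h3, h4, h5⟩ := H.choice err herr Z m0 hZ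
  refine ⟨κ, Lv, Crest.Agent.R096.Mon_664.levels_mono h1 hκ le_rfl le_rfl (fun _ => Subset.rfl)
    (fun _ => le_rfl), h2, fun c hc => by rw [h3 c, H.W0 c hc], h4, h5, fun i => (h5 i).trans
    (Finset.sum_le_sum fun e _ => h4 e)⟩

end Crest.Agent.R096.Prn_552
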