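import Crest.Agent.R096.Nge1_423
import Crest.Agent.R096.Np8_962
import Crest.Agent.R096.Npw2_273
import Crest.Agent.R096.Npv1_57
import Crest.Agent.R096.Prn2_552
import Crest.Agent.R096.Nst1_780

/-!
Row 96 (S0127), helper552, node NO0-PRE3: **`exPreN : 1 ≤ p → ExPreN p`** (423's literal Prop:
`PreN` from `MeshN`).
-/

set_option autoImplicit false
set_option linter.unusedSectionVars false
set_option linter.unusedVariables false
set_option linter.style.longLine false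
open Set Filter Topology MeasureTheory Metric
open scoped NNReal ENNReal

noncomputable section

namespace Crest.Agent.R096.Prn_552

open Crest.Agent.R096.Msh_715 hiding P I
open Crest.Agent.R096.SkC1_961 (E3 Cfg FoamD Hom3 NN)
open Crest.Agent.R096.Ls_222
open Crest.Agent.R096.Mbf_337
open Crest.Agent.R96.Pm_199 (le)
open Crest.Agent.R096.Msh_810 Crest.Agent.R96.En2_199 Crest.Agent.R96.En4_199
  Crest.Agent.R96.En9_199 Crest.Agent.R96.En11_199
open Crest.Agent.R096.Ps_273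
open Crest.Agent.R96.En3_199 (M1)
open Crest.Agent.R096.No0_477 (cub fr Fc vx)
open Crest.Agent.R096.No_276
open Crest.Agent.R096.Gno_324 (Ug)
open Crest.Agent.R096.Ea_713 (lin)
open Crest.Agent.R096.Log2_582 (IsLog)
open Crest.Agent.R096.Nl_234 (HWq)
open Crest.Agent.R096.Np_962

/-! ### the constants are finite -/

theorem two_ne_top {x : ℝ} (hx : 0 ≤ x) : (2:ℝ≥0∞) ^ x ≠ ⊤ :=
  ENNReal.rpow_ne_top_of_nonneg hx (by norm_num)

theorem KA_ne {p : ℝ} (hp : 1 ≤ p) (sm S1 : ℝ) : KA p sm S1 ≠ ⊤ := by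
  have hp0 : 0 ≤ p := by linarith
  have hp1 : 0 ≤ p - 1 := by linarith
  unfold KA
  refine ENNReal.mul_ne_top (ENNReal.mul_ne_top (two_ne_top hp1) (two_ne_top hp0)) ?_
  refine ENNReal.add_ne_top.2 ⟨ENNReal.mul_ne_top (two_ne_top hp1)
    (ENNReal.rpow_ne_top_of_nonneg hp0 ?_), ENNReal.rpow_ne_top_of_nonneg hp0 ENNReal.ofReal_ne_top⟩
  exact ENNReal.mul_ne_top (ENNReal.natCast_ne_top _) (ENNReal.mul_ne_top (by norm_num)
    ENNReal.ofReal_ne_top)

theorem KB_ne {p : ℝ} (hp : 1 ≤ p) : Np_962.KB p ≠ ⊤ := by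
  have hp0 : 0 ≤ p := by linarith
  have hp1 : 0 ≤ p - 1 := by linarith
  unfold Np_962.KB
  exact ENNReal.mul_ne_top (ENNReal.mul_ne_top (two_ne_top hp1) (two_ne_top hp0))
    (ENNReal.mul_ne_top (two_ne_top hp1) (ENNReal.mul_ne_top (KC_ne_top hp)
      (ENNReal.mul_ne_top (two_ne_top hp1) (ENNReal.mul_ne_top (two_ne_top hp0) (by norm_num)))))

theorem KB0_ne {p : ℝ} (hp : 1 ≤ p) : KB0 p ≠ ⊤ := by
  have hp0 : 0 ≤ p := by linarith
  have hp1 : 0 ≤ p - 1 := by linarith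
  unfold KB0
  exact ENNReal.mul_ne_top (ENNReal.mul_ne_top (two_ne_top hp1) (two_ne_top hp0))
    (ENNReal.mul_ne_top (two_ne_top hp1) (ENNReal.mul_ne_top (KC_ne_top hp)
      (ENNReal.add_ne_top.2 ⟨ENNReal.mul_ne_top (two_ne_top hp1) (by norm_num), by norm_num⟩)))

theorem KD_ne {p : ℝ} (hp : 1 ≤ p) (S1 : ℝ) : KD p S1 ≠ ⊤ := by
  have hp0 : 0 ≤ p := by linarith
  have hp1 : 0 ≤ p - 1 := by linarith
  unfold KD
  exact ENNReal.mul_ne_top (ENNReal.mul_ne_top (two_ne_top hp1) (two_ne_top hp0))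
    (ENNReal.add_ne_top.2 ⟨ENNReal.mul_ne_top (two_ne_top hp1) (two_ne_top hp0),
      ENNReal.rpow_ne_top_of_nonneg hp0 ENNReal.ofReal_ne_top⟩)

theorem KE_ne {p : ℝ} (hp : 1 ≤ p) : Np_962.KE p ≠ ⊤ := by
  have hp0 : 0 ≤ p := by linarith
  have hp1 : 0 ≤ p - 1 := by linarith
  unfold Np_962.KE
  exact ENNReal.mul_ne_top (ENNReal.mul_ne_top (two_ne_top hp1) (two_ne_top hp1)) (two_ne_top hp0)

theorem exists_real {x : ℝ≥0∞} (hx : x ≠ ⊤) : ∃ k : ℝ, 0 ≤ k ∧ x = ENNReal.ofReal k :=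
  ⟨x.toReal, ENNReal.toReal_nonneg, (ENNReal.ofReal_toReal hx).symm⟩

/-- one tolerance -/
theorem exists_tol {A a b : ℝ} (hA : 0 ≤ A) (ha : 0 < a) (hb : 0 < b) :
    ∃ t : ℝ, 0 < t ∧ t ≤ b ∧ t * A ≤ a := by
  refine ⟨min b (a / (A + 1)), lt_min hb (by positivity), min_le_left _ _, ?_⟩
  calc min b (a / (A + 1)) * A ≤ a / (A + 1) * A := mul_le_mul_of_nonneg_right (min_le_right _ _) hA
    _ ≤ a / (A + 1) * (A + 1) := mul_le_mul_of_nonneg_left (by linarith) (by positivity)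
    _ = a := by field_simp

/-- `a x + b y + c z` in `ℝ≥0∞` -/
theorem of3 {a b c x y z : ℝ} (ha : 0 ≤ a) (hb : 0 ≤ b) (hc : 0 ≤ c) (hx : 0 ≤ x) (hy : 0 ≤ y)
    (hz : 0 ≤ z) : ENNReal.ofReal a * ENNReal.ofReal x + ENNReal.ofReal b * ENNReal.ofReal y +
      ENNReal.ofReal c * ENNReal.ofReal z = ENNReal.ofReal (a * x + b * y + c * z) := by
  rw [← ENNReal.ofReal_mul ha, ← ENNReal.ofReal_mul hb, ← ENNReal.ofReal_mul hc,
    ← ENNReal.ofReal_add (by positivity) (by positivity),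
    ← ENNReal.ofReal_add (by positivity) (by positivity)]

theorem of2 {a b x y : ℝ} (ha : 0 ≤ a) (hb : 0 ≤ b) (hx : 0 ≤ x) (hy : 0 ≤ y) :
    ENNReal.ofReal a * ENNReal.ofReal x + ENNReal.ofReal b * ENNReal.ofReal y =
      ENNReal.ofReal (a * x + b * y) := by
  rw [← ENNReal.ofReal_mul ha, ← ENNReal.ofReal_mul hb,
    ← ENNReal.ofReal_add (by positivity) (by positivity)]

/-- a bound of a function on a finite set -/
theorem exists_bd {α : Type*} {S : Set α} (hS : S.Finite) (C : α → ℝ) :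
    ∃ c : ℝ, 0 ≤ c ∧ ∀ x ∈ S, C x ≤ c := by
  obtain ⟨c, hc⟩ := (hS.image C).bddAbove
  exact ⟨max c 0, le_max_right _ _, fun x hx => (hc ⟨x, hx, rfl⟩).trans (le_max_left _ _)⟩

set_option maxHeartbeats 1000000 in
/-- **PreN from MeshN** -/
theorem exPreN {p : ℝ} (hp : 1 ≤ p) : Nge_423.ExPreN p := by
  intro 𝒮0 h𝒮0 Ku hKu s hs S1 hS1
  have hp0 : 0 ≤ p := by linarith
  set sm : ℝ := s 0 + s 1 + s 2 with hsm
  have hsm0 : 0 ≤ sm := by have := hs 0; have := hs 1; have := hs 2; positivity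
  have hsle : ∀ l, s l ≤ sm := by
    intro l
    have h0 := hs 0
    have h1 := hs 1
    have h2 := hs 2
    fin_cases l
    · show s 0 ≤ sm; linarith
    · show s 1 ≤ sm; linarith
    · show s 2 ≤ sm; linarith
  have hM1 : (0:ℝ) ≤ (M1 3 : ℝ) := Nat.cast_nonneg _
  obtain ⟨kA, hkA, eA⟩ := exists_real (KA_ne hp sm S1)
  obtain ⟨kB, hkB, eB⟩ := exists_real (KB_ne hp)
  obtain ⟨kB0, hkB0, eB0⟩ := exists_real (KB0_ne hp)
  obtain ⟨kD, hkD, eD⟩ := exists_real (KD_ne hp S1)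
  obtain ⟨kE, hkE, eE⟩ := exists_real (KE_ne hp)
  obtain ⟨ku, hku, eu⟩ := exists_real hKu
  refine ⟨S1 + (M1 3 : ℝ) * (2 * sm), 56 * kA + 1, by linarith [mul_nonneg hM1 (mul_nonneg zero_le_two hsm0)],
    by positivity, fun ε η L e₂ hε hη hη8 hL he₂ => ?_⟩
  have hL0 : (0:ℝ) < L := by exact_mod_cast hL
  obtain ⟨t1w, ht1w, -, HW⟩ := Npw_273.exists_wtsq2 hp hL hsm0
    (S := S1 + (M1 3 : ℝ) * (2 * sm)) (by linarith) hε
  -- first tolerance
  obtain ⟨t1, ht1, ht1w', ht1a⟩ := exists_tol (A := kB + ku * kB)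
    (a := min (min (1 / 2) (e₂ / 4)) (ε / 2) / L) (b := t1w) (by positivity) (by positivity) ht1w
  refine ⟨t1, ht1, fun C ε' hC hε' => ?_⟩
  obtain ⟨t2w, ht2w, -, HW⟩ := HW ε' hε'
  obtain ⟨CQ, hCQ0, hCQ⟩ := exists_bd h𝒮0 C
  set cq : ℝ := CQ ^ p with hcq
  have hcq0 : 0 ≤ cq := Real.rpow_nonneg hCQ0 p
  -- second tolerance
  obtain ⟨t2, ht2, ht2b, ht2a⟩ := exists_tol (A := kB0 + ku * kB0 + 24 * kA * L + 27 * ku * kA +
      (1 + ku) * cq * (kD + kB0) + 2 * kE)
    (a := min (min (min (1 / 2) (e₂ / 4)) (ε / 2) / L) (min (min (e₂ / 4) (ε / 2)) (min ε' (ε' * (2 / L)))))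
    (b := min 1 t2w) (by positivity) (by positivity) (by positivity)
  refine ⟨t2, ht2, ht2b.trans (min_le_left _ _), ?_⟩
  intro δ κ0 R c0 La ι q al h Φ f1 g W κ' μ κ1 κ2 κ3 HH R' e1 e2 e3 e4 e5 D K0 r hr o M Zs T Q τ J0 J V
    ct A lam z θ φ Mg B cw H hHW hκ0 hκt he1 he2 he3 he5 hrt κp hκp 𝒮 hS b R1 Sc cnt hcnt0 hcnt Z m0 hZ
  have ht2w' : t2 ≤ t2w := ht2b.trans (min_le_right _ _)
  have ht21 : t2 ≤ 1 := ht2b.trans (min_le_left _ _)
  have hr0 : 0 < r := H.r0
  obtain ⟨err, er, g1, g2, g3, g4, g5, g6⟩ := exists_errs H hp (e0 := ENNReal.ofReal t2)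
    (ENNReal.ofReal_pos.2 ht2).ne'
  obtain ⟨κ, Lv, l1, l2, l3, l4, l5, l6⟩ := exists_lv H g1 hκp Z m0 hZ
  refine ⟨κ, Lv, ?_⟩
  have hw := HW H hs hsle hκ0 (hκt.trans ht2w') (he1.trans (ENNReal.ofReal_le_ofReal ht1w'))
    (he2.trans (ENNReal.ofReal_le_ofReal ht2w')) hHW l4 l5 g3
    (fun l => (g4 l).trans (ENNReal.ofReal_le_ofReal ht2w'))
    (fun l => (g5 l).trans (ENNReal.ofReal_le_ofReal ht2w'))
  -- numbers
  set N : ℝ := ((Zs.card : ℝ) * M ^ 2) * r ^ 3 with hN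
  have hN1 : 2 / L ≤ N := H.N1
  have hN0 : 0 ≤ N := le_trans (by positivity) hN1
  -- consequences of the tolerances
  have hkt : ∀ {x : ℝ}, 0 ≤ x → 0 ≤ t2 * x := fun hx => mul_nonneg ht2.le hx
  have A1 : kB * t1 ≤ min (min (1 / 2) (e₂ / 4)) (ε / 2) / L := by
    refine le_trans ?_ ht1a
    nlinarith [mul_nonneg hku hkB]
  have A1' : ku * kB * t1 ≤ min (min (1 / 2) (e₂ / 4)) (ε / 2) / L := by
    refine le_trans ?_ ht1a
    nlinarith [mul_nonneg hku hkB]
  have p1 : 0 ≤ ku * kB0 := mul_nonneg hku hkB0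
  have p2 : 0 ≤ 24 * kA * L := by positivity
  have p3 : 0 ≤ 27 * ku * kA := by positivity
  have p4 : 0 ≤ cq * (kD + kB0) := by positivity
  have p5 : 0 ≤ ku * cq * (kD + kB0) := by positivity
  have p6 : (1 + ku) * cq * (kD + kB0) = cq * (kD + kB0) + ku * cq * (kD + kB0) := by ring
  rw [p6] at ht2a
  have B0 : ∀ x : ℝ, x ≤ kB0 + ku * kB0 + 24 * kA * L + 27 * ku * kA +
      (cq * (kD + kB0) + ku * cq * (kD + kB0)) + 2 * kE →
      t2 * x ≤ min (min (min (1 / 2) (e₂ / 4)) (ε / 2) / L) (min (min (e₂ / 4) (ε / 2))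
        (min ε' (ε' * (2 / L)))) := fun x hx =>
    (mul_le_mul_of_nonneg_left hx ht2.le).trans ht2a
  have B1 : t2 * kB0 ≤ min (min (1 / 2) (e₂ / 4)) (ε / 2) / L :=
    (B0 _ (by linarith)).trans (min_le_left _ _)
  have B2 : t2 * (ku * kB0) ≤ min (min (1 / 2) (e₂ / 4)) (ε / 2) / L :=
    (B0 _ (by linarith)).trans (min_le_left _ _)
  have B3 : t2 * (24 * kA * L) ≤ e₂ / 4 :=
    (B0 _ (by linarith)).trans ((min_le_right _ _).trans ((min_le_left _ _).trans (min_le_left _ _)))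
  have B4 : t2 * (27 * ku * kA) ≤ ε / 2 :=
    (B0 _ (by linarith)).trans ((min_le_right _ _).trans ((min_le_left _ _).trans (min_le_right _ _)))
  have B5 : t2 * (cq * (kD + kB0) + 2 * kE) ≤ ε' :=
    (B0 _ (by linarith)).trans ((min_le_right _ _).trans ((min_le_right _ _).trans (min_le_left _ _)))
  have B6 : t2 * (ku * cq * (kD + kB0) + 2 * kE) ≤ ε' * (2 / L) :=
    (B0 _ (by linarith)).trans ((min_le_right _ _).trans ((min_le_right _ _).trans (min_le_right _ _)))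
  have m1 : min (min (1 / 2) (e₂ / 4)) (ε / 2) / L ≤ 1 / 2 / L := by
    gcongr; exact (min_le_left _ _).trans (min_le_left _ _)
  have m2 : min (min (1 / 2) (e₂ / 4)) (ε / 2) / L ≤ e₂ / 4 / L := by
    gcongr; exact (min_le_left _ _).trans (min_le_right _ _)
  have m3 : min (min (1 / 2) (e₂ / 4)) (ε / 2) / L ≤ ε / 2 / L := by
    gcongr; exact min_le_right _ _
  have hεN : ε * (2 / L) ≤ ε * N := mul_le_mul_of_nonneg_left hN1 hε.le
  have hε'N : ε' * (2 / L) ≤ ε' * N := mul_le_mul_of_nonneg_left hN1 hε'.le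
  -- the volumes
  have hV1 : volume (⋃ i ∈ {i | i ∈ MeshN.HTs T Q HH ∧ i ∈ IZ T (ShL L η) b R1 Sc},
      Msh_715.P (T.H i)) ≤ ENNReal.ofReal ((48 * η + 24 * L * r) / L) := by
    rw [← Npv_57.tsum_vol]
    exact Npv_57.vol_IZ hL hη.le H.base H.rK H.scQ (fun i hi => hi.1.1) (fun i hi => hi.2)
  have hV2 : volume (⋃ i ∈ {i | i ∈ MeshN.HTs T Q HH ∧ MJ T r hr D.a o M Zs (Ug T Qᶜ D.a r o) i},
      Msh_715.P (T.H i)) ≤ ENNReal.ofReal (27 * t2 * N) := by
    rw [← Npv_57.tsum_vol]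
    refine (Npv_57.vol_MJ_le H.base H.rK H.scQ (fun i hi => hi.1.1) (fun i hi => hi.2) H.junk).trans
      (ENNReal.ofReal_le_ofReal ?_)
    exact mul_le_mul_of_nonneg_right (mul_le_mul_of_nonneg_left he5 (by norm_num)) hN0
  have hvol : volume (QL (L:ℝ)) = ENNReal.ofReal (8 / L) := by
    rw [Nst_780.volume_QL hL0, Real.volume_pi_ball _ one_pos, ← ENNReal.ofReal_mul (by positivity)]
    congr 1
    simp only [Fintype.card_fin]
    field_simp
    norm_num
  have eCQ : ENNReal.ofReal CQ ^ p = ENNReal.ofReal cq := by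
    rw [hcq, ENNReal.ofReal_rpow_of_nonneg hCQ0 hp0]
  have htl := MeshN.tl_of H hHW hp (hκt.trans ht21) (fun 𝒦 => (hC 𝒦).le) g2 hS1.le g3
    (e0 := ENNReal.ofReal t2) g4 hsle g6 l6 hS hCQ (b := b) (R1 := R1) (Sc := Sc) hcnt hV1 hV2
    (ε := ε) (ε' := ε') (e₂ := e₂) (KS := 56 * kA + 1) ?_ ?_ ?_ ?_ ?_
  · exact
      { lev := l1
        words := l2
        wlog := l3
        wt := hw.1
        sq := hw.2
        tl := htl }
  · -- s1
    rw [hvol, eA, eB, eB0]
    calc ENNReal.ofReal kA * ENNReal.ofReal (8 / L) + ENNReal.ofReal kB * e1 +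
        ENNReal.ofReal kB0 * ENNReal.ofReal t2 ≤
        ENNReal.ofReal kA * ENNReal.ofReal (8 / L) + ENNReal.ofReal kB * ENNReal.ofReal t1 +
          ENNReal.ofReal kB0 * ENNReal.ofReal t2 := by gcongr
      _ = ENNReal.ofReal (kA * (8 / L) + kB * t1 + kB0 * t2) :=
          of3 hkA hkB hkB0 (by positivity) ht1.le ht2.le
      _ ≤ _ := by
          apply ENNReal.ofReal_le_ofReal
          have h1 : kA * (8 / L) + 1 / L ≤ (56 * kA + 1) / L := by
            have : kA * (8 / L) + 1 / L = (8 * kA + 1) / L := by ring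
            rw [this]
            gcongr
            linarith
          have h2 : (1:ℝ) / 2 / L + 1 / 2 / L = 1 / L := by ring
          linarith [A1.trans m1, B1.trans m1, mul_comm t2 kB0]
  · -- s2
    rw [eA, eB, eB0]
    calc ENNReal.ofReal kA * ENNReal.ofReal ((48 * η + 24 * L * r) / L) + ENNReal.ofReal kB * e1 +
        ENNReal.ofReal kB0 * ENNReal.ofReal t2 ≤
        ENNReal.ofReal kA * ENNReal.ofReal ((48 * η + 24 * L * r) / L) +
          ENNReal.ofReal kB * ENNReal.ofReal t1 + ENNReal.ofReal kB0 * ENNReal.ofReal t2 := by gcongr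
      _ = ENNReal.ofReal (kA * ((48 * η + 24 * L * r) / L) + kB * t1 + kB0 * t2) :=
          of3 hkA hkB hkB0 (by positivity) ht1.le ht2.le
      _ ≤ _ := by
          apply ENNReal.ofReal_le_ofReal
          have h1 : kA * (24 * L * r) ≤ e₂ / 4 := by
            refine le_trans ?_ B3
            have : kA * (24 * L * r) = r * (24 * kA * L) := by ring
            rw [this]
            exact mul_le_mul_of_nonneg_right hrt p2
          have h2 : kA * ((48 * η + 24 * L * r) / L) ≤ (48 * kA * η + e₂ / 4) / L := by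
            have : kA * ((48 * η + 24 * L * r) / L) = (48 * kA * η + kA * (24 * L * r)) / L := by ring
            rw [this]
            gcongr
          have h3 : (48 * kA * η + e₂ / 4) / L + e₂ / 4 / L + e₂ / 4 / L ≤
              ((56 * kA + 1) * η + e₂) / L := by
            have : (48 * kA * η + e₂ / 4) / L + e₂ / 4 / L + e₂ / 4 / L =
              (48 * kA * η + 3 * (e₂ / 4)) / L := by ring
            rw [this]
            refine div_le_div_of_nonneg_right ?_ hL0.le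
            have := mul_nonneg hkA hη.le
            nlinarith
          linarith [A1.trans m2, B1.trans m2, mul_comm t2 kB0]
  · -- s3
    rw [eCQ, eD, eB0, eE]
    calc ENNReal.ofReal cq * (ENNReal.ofReal kD * e2 + ENNReal.ofReal kB0 * ENNReal.ofReal t2) +
        ENNReal.ofReal kE * (e3 + ENNReal.ofReal t2) ≤
        ENNReal.ofReal cq * (ENNReal.ofReal kD * ENNReal.ofReal t2 +
          ENNReal.ofReal kB0 * ENNReal.ofReal t2) +
          ENNReal.ofReal kE * (ENNReal.ofReal t2 + ENNReal.ofReal t2) := by gcongr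
      _ = ENNReal.ofReal (cq * (kD * t2 + kB0 * t2) + kE * (t2 + t2)) := by
          rw [of2 hkD hkB0 ht2.le ht2.le, ← ENNReal.ofReal_add ht2.le ht2.le,
            of2 hcq0 hkE (by positivity) (by positivity)]
      _ ≤ _ := by
          apply ENNReal.ofReal_le_ofReal
          refine le_trans (le_of_eq ?_) B5
          ring
  · -- s4
    rw [eu, eA, eB, eB0]
    calc ENNReal.ofReal ku * (ENNReal.ofReal kA * ENNReal.ofReal (27 * t2 * N) +
        ENNReal.ofReal kB * e1 + ENNReal.ofReal kB0 * ENNReal.ofReal t2) ≤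
        ENNReal.ofReal ku * (ENNReal.ofReal kA * ENNReal.ofReal (27 * t2 * N) +
          ENNReal.ofReal kB * ENNReal.ofReal t1 + ENNReal.ofReal kB0 * ENNReal.ofReal t2) := by
          gcongr
      _ = ENNReal.ofReal (ku * (kA * (27 * t2 * N) + kB * t1 + kB0 * t2)) := by
          rw [of3 hkA hkB hkB0 (by positivity) ht1.le ht2.le, ← ENNReal.ofReal_mul hku]
      _ ≤ _ := by
          apply ENNReal.ofReal_le_ofReal
          have h1 : ku * (kA * (27 * t2 * N)) ≤ ε / 2 * N := by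
            have : ku * (kA * (27 * t2 * N)) = t2 * (27 * ku * kA) * N := by ring
            rw [this]
            exact mul_le_mul_of_nonneg_right B4 hN0
          have h2 : ku * (kA * (27 * t2 * N) + kB * t1 + kB0 * t2) =
              ku * (kA * (27 * t2 * N)) + ku * kB * t1 + t2 * (ku * kB0) := by ring
          rw [h2]
          have h3 : ε / 2 / L + ε / 2 / L = (ε * (2 / L)) / 2 := by ring
          have h4 : ε * ((Zs.card : ℝ) * M ^ 2) * r ^ 3 = ε * N := by rw [hN]; ring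
          rw [h4]
          linarith [A1'.trans m3, B2.trans m3]
  · -- s5
    rw [eu, eCQ, eD, eB0, eE]
    calc ENNReal.ofReal ku * ENNReal.ofReal cq * (ENNReal.ofReal kD * e2 +
        ENNReal.ofReal kB0 * ENNReal.ofReal t2) + ENNReal.ofReal kE * (e3 + ENNReal.ofReal t2) ≤
        ENNReal.ofReal ku * ENNReal.ofReal cq * (ENNReal.ofReal kD * ENNReal.ofReal t2 +
          ENNReal.ofReal kB0 * ENNReal.ofReal t2) +
          ENNReal.ofReal kE * (ENNReal.ofReal t2 + ENNReal.ofReal t2) := by gcongr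
      _ = ENNReal.ofReal (ku * cq * (kD * t2 + kB0 * t2) + kE * (t2 + t2)) := by
          rw [of2 hkD hkB0 ht2.le ht2.le, ← ENNReal.ofReal_add ht2.le ht2.le,
            ← ENNReal.ofReal_mul hku, of2 (by positivity) hkE (by positivity) (by positivity)]
      _ ≤ _ := by
          apply ENNReal.ofReal_le_ofReal
          have h4 : ε' * ((Zs.card : ℝ) * M ^ 2) * r ^ 3 = ε' * N := by rw [hN]; ring
          rw [h4]
          refine le_trans (le_trans (le_of_eq ?_) B6) hε'N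
          ring

end Crest.Agent.R096.Prn_552
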