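import Crest.Agent.R096.Pmc2_112
import Crest.Agent.R096.Ls10_222
import Crest.Agent.R096.Der1_764

/-!
# Row 96 (S0127), helper112.  PREMACH, part 3: the theorem

`premach`: for most shifts `a` of a shiftable mesh (199's `MF`) there are shifts of the blocks such
that the mesh has everything the machine needs: `Cores`, `Fine`, the choice of the levels with words
and numbers (348's `Choice`), and the energies of the classes.
-/

set_option autoImplicit false
set_option linter.style.longLine false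

open MeasureTheory Set Filter Metric
open scoped Topology ENNReal

namespace Crest.Agent.R096.Pmc_112

open Crest.Agent.R096.Msh_715
open Crest.Agent.R096.SkC1_961 (E3 Cfg FoamD Hom3 NN)
open Crest.Agent.R096.Ls_222
open Crest.Agent.R096.Ea_713 (lin)
open Crest.Agent.R096.Der_764 (OmH isOpen_OmH continuousOn_Psif)
open Crest.Agent.R096.Mbf_337
open Crest.Agent.R96.Pm_199
open Crest.Agent.R96.Acl_392 (ACLat WD)
open Crest.Agent.R96.Sob4_199 (VWD)
open Crest.Agent.R96.En10_199 (P3)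
open Crest.Agent.R96.Sg5_199 (gdir wd_dir)
open Crest.Agent.R96.Sg1_199 (li sgm)
open Crest.Agent.R96.Sg3_199 (EnF)
open Crest.Agent.R96.EaCore_348 (bt EE Choice)

noncomputable section

variable {δ κ0 R c0 : ℝ} {La Om : Set E3} {Φ : FoamD δ κ0 R c0 La} {f : E3 → E3}

/-- monotonicity of the levels in the density -/
theorem levels_mono {ι : Type} {T : Tiling Om ι} {κp κp' μ κ3 : ℝ} (h : κp ≤ κp')
    {Z : Φ.F → Set ℝ} {m0 κ : Φ.F → ℕ} {L : Φ.F → Finset ℝ}
    (hL : Mbf_337.Levels Φ T f κp μ κ3 Z m0 κ L) : Mbf_337.Levels Φ T f κp' μ κ3 Z m0 κ L :=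
  { hL with
    dens := fun c u v huv => by
      refine (hL.dens c u v huv).trans ?_
      have h1 : (0:ℝ) ≤ (L c).card := Nat.cast_nonneg _
      have h2 : 0 ≤ v - u := by linarith
      have h3 : 0 ≤ (v - u) * (L c).card := mul_nonneg h2 h1
      nlinarith }

/-- the points over the point holes are in no closed cell of dimension `≤ 1` -/
theorem dim_of_cores {ι : Type} {T : Tiling Om ι} (hf : Hom3 f Om La) {κ1 κ2 : ℝ} {X : Set Φ.F}
    {J0 J V : Φ.F → Set ι} {ct : Φ.F → ι} {A : Φ.F → E3 ≃ᵃ[ℝ] E3} {lam : Φ.F → ℝ}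
    {z : Φ.F → E3} {θ : Φ.F → E3 → E3} {φ : Φ.F → E3 → ℝ}
    (hC : Cores Φ T f κ1 κ2 X J0 J V ct A lam z θ φ) :
    ∀ c ∉ X, ∀ x ∈ Om, f x = (Φ.B c).lo → 2 ≤ T.dim x := by
  intro c hc x hx hfx
  obtain ⟨i, hi, y, hy, hfy⟩ := (hC.tiny c hc).mem
  have hyO : y ∈ Om := T.sub i (I_sub_P _ hy)
  obtain ⟨fi, -, -, hfi, -⟩ := hf
  have hxy : x = y := by rw [← hfi x hx, hfx, ← hfy, hfi y hyO]
  have h1 := (T.V_eq_top_iff hyO).2 ⟨i, hy⟩
  rw [hxy]
  unfold Tiling.dim
  rw [h1, finrank_top]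
  simp

/-- the good segments: `Psi ∘ f` has the upper gradient `‖D' y v‖` along the segment -/
def Qs (Φ : FoamD δ κ0 R c0 La) (f : E3 → E3) (Om : Set E3) (D' : E3 → E3 →L[ℝ] E3)
    (x v : E3) : Prop :=
  sgm x v ⊆ OmH Φ f Om → UGv (fun y => Φ.Psi (f y)) (fun y => ‖D' y v‖ₑ) x v ∧
    li (fun y => ‖D' y v‖ₑ) x v ≠ ∞


theorem Qs_rev {D' : E3 → E3 →L[ℝ] E3} {x v : E3} (h : Qs Φ f Om D' x v) :
    Qs Φ f Om D' (x + v) (-v) := by
  intro hs
  have e1 : sgm (x + v) (-v) = sgm x v := by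
    ext y
    constructor
    · rintro ⟨τ, hτ, rfl⟩
      refine ⟨1 - τ, ⟨by linarith [hτ.2], by linarith [hτ.1]⟩, ?_⟩
      show x + (1 - τ) • v = x + v + τ • -v
      rw [sub_smul, one_smul, smul_neg]; abel
    · rintro ⟨τ, hτ, rfl⟩
      refine ⟨1 - τ, ⟨by linarith [hτ.2], by linarith [hτ.1]⟩, ?_⟩
      show x + v + (1 - τ) • -v = x + τ • v
      rw [sub_smul, one_smul, smul_neg]; abel
  rw [e1] at hs
  obtain ⟨h1, h2⟩ := h hs
  have e2 : (fun y => ‖D' y (-v)‖ₑ) = fun y => ‖D' y v‖ₑ := by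
    funext y; rw [map_neg, enorm_neg]
  rw [e2]
  refine ⟨ugv_rev h1, ?_⟩
  rw [Ls_222.li_rev]
  exact h2

/-- almost every translate of a segment is good -/
theorem ae_Qs (hO : IsOpen Om) (hLa : IsOpen La) (hf : Hom3 f Om La)
    {D' : E3 → E3 →L[ℝ] E3}
    (hD : ∀ l, VWD (OmH Φ f Om) volume (fun x => P3 (Φ.Psi (f x)))
      (fun x => P3 (D' x (Pi.single l 1))) (Pi.single l (1:ℝ))) (x v : E3) :
    ∀ᵐ a : E3, Qs Φ f Om D' (x + a) v := by
  have hOH : IsOpen (OmH Φ f Om) := isOpen_OmH hO hLa hf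
  have hc := continuousOn_Psif (Φ := Φ) hLa hf
  have hu : ∀ k : Fin 3, ContinuousOn (fun y => Φ.Psi (f y) k) (OmH Φ f Om) := fun k =>
    (continuous_apply k).comp_continuousOn hc
  have hg : ∀ k : Fin 3, WD (OmH Φ f Om) volume (fun y => Φ.Psi (f y) k)
      (gdir (fun l y => D' y (Pi.single l 1) k) v) v := fun k =>
    wd_dir (fun l => hD l k) v
  have h1 := Crest.Agent.R96.Sg2_199.ae_shift (μ := (volume : Measure E3)) hOH
    (ι := Unit) (fun _ => x) (fun _ => v) (u := fun (k : Fin 3) y => Φ.Psi (f y) k)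
    (g := fun k _ => gdir (fun l y => D' y (Pi.single l 1) k) v) hu (fun k _ => hg k)
  have e : ∀ k : Fin 3, gdir (fun l y => D' y (Pi.single l 1) k) v = fun y => D' y v k := by
    intro k
    funext y
    show ∑ l, v l * D' y (Pi.single l 1) k = D' y v k
    have hv : v = ∑ l, v l • (Pi.single l (1:ℝ) : E3) := by
      funext j
      simp [Finset.sum_apply, Pi.single_apply]
    conv_rhs => rw [hv, map_sum]
    rw [Finset.sum_apply]
    refine Finset.sum_congr rfl fun l _ => ?_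
    rw [map_smul, Pi.smul_apply, smul_eq_mul]
  filter_upwards [h1] with a ha hs
  have h2 : ∀ k : Fin 3, ACLat (OmH Φ f Om) (fun y => Φ.Psi (f y) k) (fun y => D' y v k) v
      (x + a) := by
    intro k
    have h3 := ha k ()
    simp only [e k] at h3
    exact h3
  exact ⟨ugv_of_acl hs h2, li_ne_top_of_aclv hs h2⟩

end

end Crest.Agent.R096.Pmc_112
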