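import Crest.Agent.R096.Np7_962
import Crest.Agent.R096.Np8_962
import Crest.Agent.R096.Npw2_273
import Crest.Agent.R096.Npv1_57
import Crest.Agent.R096.Err1_479
import Crest.Agent.R096.Npl2_477
import Crest.Agent.R096.Pmc3_112

/-!
Row 96 (S0127), helper962, node NO0-PRE3, mesh part: **`PreN` from `MeshN`** with the order of the
constants of `NOPre` / `ExMeshN`.
-/

set_option autoImplicit false
set_option linter.unusedSectionVars false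
set_option linter.unusedVariables false
open Set Filter Topology MeasureTheory Metric
open scoped NNReal ENNReal

noncomputable section

namespace Crest.Agent.R096.Np_962

open Crest.Agent.R096.Msh_715 hiding P I
open Crest.Agent.R096.SkC1_961 (E3 Cfg FoamD Hom3 NN)
open Crest.Agent.R096.Ls_222
open Crest.Agent.R096.Mbf_337
open Crest.Agent.R96.Pm_199 (le)
open Crest.Agent.R96.Sg1_199 (li sgm)
open Crest.Agent.R096.Msh_810 Crest.Agent.R96.En2_199 Crest.Agent.R96.En4_199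
  Crest.Agent.R96.En9_199 Crest.Agent.R96.En11_199
open Crest.Agent.R096.Ps_273
open Crest.Agent.R96.En3_199 (M1)
open Crest.Agent.R096.No0_477 (cub fr Fc vx)
open Crest.Agent.R096.SkN1_477 (usq)
open Crest.Agent.R096.No_276 (QL ShL IZ MU MJ PreN)
open Crest.Agent.R096.Gno_324 (Ug)
open Crest.Agent.R096.Ea_713 (lin)
open Crest.Agent.R096.Log2_582 (IsLog)
open Crest.Agent.R096.Nl_234 (HWq)

variable {δ κ0 R c0 : ℝ} {La : Set E3} {ι : Type}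

section

variable {p : ℝ} {q : ℕ} {al : Fin 3 → ℝ} {h : ℝ} {s : Fin 3 → ℝ} {L : ℕ} {η : ℝ}
  {Φ : FoamD δ κ0 R c0 La} {f1 : E3 → E3} {g : Φ.F → Fin 3 → E3 → ℝ} {W : Φ.F → ℝ}
  {κ' μ κ1 κ2 κ3 : ℝ} {Cs : Set (Set E3) → ℝ} {𝒮0 : Set (Set (Set E3))} {HH R' : Set E3}
  {e1 e2 e3 e4 : ℝ≥0∞} {e5 : ℝ} {Ku : ℝ≥0∞} {D : Dat 3} {K0 : ℕ} {r : ℝ} {hr : r ≠ 0}
  {o : Fin 2 → ℤ} {M : ℕ} {Zs : Finset ℤ} {T : Tiling (QL L) ι} {Q : Set ι} {τ : ι → Top D}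
  {J0 J V : Φ.F → Set ι} {ct : Φ.F → ι} {A : Φ.F → E3 ≃ᵃ[ℝ] E3} {lam : Φ.F → ℝ} {z : Φ.F → E3}
  {θ : Φ.F → E3 → E3} {φ : Φ.F → E3 → ℝ} {Mg : Φ.F → ℕ} {B : ι → E3 ≃ᵃ[ℝ] E3} {cw : ι → ℝ≥0∞}

open Classical in
/-- errors of the edges -/
theorem MeshN.errs (H : MeshN p q al h s L η Φ f1 g W κ' μ κ1 κ2 κ3 Cs 𝒮0 HH R' e1 e2 e3 e4 e5 Ku D K0 r hr o
    M Zs T Q τ J0 J V ct A lam z θ φ Mg B cw) (hp : 1 ≤ p) {e0 : ℝ≥0∞} (he0 : e0 ≠ 0) :
    ∃ (err : Edg T → ℝ≥0∞) (er : Cel D → ℝ≥0∞), (∀ e, err e ≠ 0) ∧ (∀ e, err e ≠ ⊤) ∧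
      (∀ (e : Edg T) (σ : Cel D), e.1 = σ.c → err e ≤ er σ) ∧
      (∀ l, Ye D l p er ≤ e0) ∧ (∀ l, Ye D l 1 er ≤ e0) ∧
      ∑' i : {i // i ∉ Q ∧ ∀ c, i ≠ ct c},
        (ENNReal.ofReal (Cs ((fun K => B i.1 '' K) '' Cfg T i.1) * ‖lin (B i.1)‖) *
          ∑ e ∈ eIn T i.1, err e) ^ p * ((1 + cw i.1) * volume (Msh_715.P (T.H i.1))) ≤ e0 := by
  have hp0 : 0 ≤ p := by linarith
  obtain ⟨b, er, hb, her, hbe, h1, h2⟩ := exists_err_T T D hp he0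
  obtain ⟨err, g1, g2, g3, g4⟩ := Err_479.exists_err T {i | i ∉ Q ∧ ∀ c, i ≠ ct c} hp
    (u := fun i => if i ∉ Q ∧ ∀ c, i ≠ ct c then
      ENNReal.ofReal (Cs ((fun K => B i '' K) '' Cfg T i) * ‖lin (B i)‖) ^ p *
        ((1 + cw i) * volume (Msh_715.P (T.H i))) else 0)
    (fun i => by
      split_ifs with hi
      · refine ENNReal.mul_ne_top (ENNReal.rpow_ne_top_of_nonneg hp0 ENNReal.ofReal_ne_top)
          (ENNReal.mul_ne_top ?_ (T.cpt i).measure_lt_top.ne)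
        exact ENNReal.add_ne_top.2 ⟨ENNReal.one_ne_top, H.wfin i hi.1 hi.2⟩
      · exact ENNReal.zero_ne_top) he0 (b := fun e => ENNReal.ofReal (b e))
    (fun e => by simpa using hb e)
  refine ⟨err, fun σ => ENNReal.ofReal (er σ), g1, g3, fun e σ he =>
    (g2 e).trans (ENNReal.ofReal_le_ofReal (hbe e σ he)), h1, h2, ?_⟩
  refine le_trans (le_of_eq ?_) g4
  refine tsum_congr fun i => ?_
  rw [if_pos i.2, ENNReal.mul_rpow_of_nonneg _ _ hp0]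
  ring

end

theorem KA_ne_top {p sm S1 : ℝ} (hp : 1 ≤ p) : KA p sm S1 ≠ ⊤ := by
  have hp0 : 0 ≤ p := by linarith
  have h1 : (2:ℝ≥0∞) ^ (p - 1) ≠ ⊤ := ENNReal.rpow_ne_top_of_nonneg (by linarith) (by norm_num)
  have h2 : (2:ℝ≥0∞) ^ p ≠ ⊤ := ENNReal.rpow_ne_top_of_nonneg (by linarith) (by norm_num)
  unfold KA
  refine ENNReal.mul_ne_top (ENNReal.mul_ne_top h1 h2) (ENNReal.add_ne_top.2
    ⟨ENNReal.mul_ne_top h1 (ENNReal.rpow_ne_top_of_nonneg hp0 ?_),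
      ENNReal.rpow_ne_top_of_nonneg hp0 ENNReal.ofReal_ne_top⟩)
  exact ENNReal.mul_ne_top (ENNReal.natCast_ne_top _)
    (ENNReal.mul_ne_top (by norm_num) ENNReal.ofReal_ne_top)

theorem KB_ne_top {p : ℝ} (hp : 1 ≤ p) : KB p ≠ ⊤ := by
  have h1 : (2:ℝ≥0∞) ^ (p - 1) ≠ ⊤ := ENNReal.rpow_ne_top_of_nonneg (by linarith) (by norm_num)
  have h2 : (2:ℝ≥0∞) ^ p ≠ ⊤ := ENNReal.rpow_ne_top_of_nonneg (by linarith) (by norm_num)
  unfold KB
  exact ENNReal.mul_ne_top (ENNReal.mul_ne_top h1 h2) (ENNReal.mul_ne_top h1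
    (ENNReal.mul_ne_top (KC_ne_top hp) (ENNReal.mul_ne_top h1 (ENNReal.mul_ne_top h2 (by norm_num)))))

theorem KB0_ne_top {p : ℝ} (hp : 1 ≤ p) : KB0 p ≠ ⊤ := by
  have h1 : (2:ℝ≥0∞) ^ (p - 1) ≠ ⊤ := ENNReal.rpow_ne_top_of_nonneg (by linarith) (by norm_num)
  have h2 : (2:ℝ≥0∞) ^ p ≠ ⊤ := ENNReal.rpow_ne_top_of_nonneg (by linarith) (by norm_num)
  unfold KB0
  exact ENNReal.mul_ne_top (ENNReal.mul_ne_top h1 h2) (ENNReal.mul_ne_top h1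
    (ENNReal.mul_ne_top (KC_ne_top hp) (ENNReal.add_ne_top.2
      ⟨ENNReal.mul_ne_top h1 (by norm_num), by norm_num⟩)))

theorem KD_ne_top {p S1 : ℝ} (hp : 1 ≤ p) : KD p S1 ≠ ⊤ := by
  have h1 : (2:ℝ≥0∞) ^ (p - 1) ≠ ⊤ := ENNReal.rpow_ne_top_of_nonneg (by linarith) (by norm_num)
  have h2 : (2:ℝ≥0∞) ^ p ≠ ⊤ := ENNReal.rpow_ne_top_of_nonneg (by linarith) (by norm_num)
  unfold KD
  exact ENNReal.mul_ne_top (ENNReal.mul_ne_top h1 h2) (ENNReal.add_ne_top.2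
    ⟨ENNReal.mul_ne_top h1 h2, ENNReal.rpow_ne_top_of_nonneg (by linarith) ENNReal.ofReal_ne_top⟩)

theorem KE_ne_top {p : ℝ} (hp : 1 ≤ p) : KE p ≠ ⊤ := by
  have h1 : (2:ℝ≥0∞) ^ (p - 1) ≠ ⊤ := ENNReal.rpow_ne_top_of_nonneg (by linarith) (by norm_num)
  have h2 : (2:ℝ≥0∞) ^ p ≠ ⊤ := ENNReal.rpow_ne_top_of_nonneg (by linarith) (by norm_num)
  unfold KE
  exact ENNReal.mul_ne_top (ENNReal.mul_ne_top h1 h1) h2

/-- one `t` for finitely many products -/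
theorem exists_t {n : ℕ} (a : Fin n → ℝ) (A : Fin n → ℝ) (ha : ∀ i, 0 < a i) (hA : ∀ i, 0 ≤ A i)
    {t0 : ℝ} (ht0 : 0 < t0) : ∃ t : ℝ, 0 < t ∧ t ≤ t0 ∧ ∀ i, t * A i ≤ a i := by
  have h1 : ∀ᶠ t : ℝ in 𝓝[>] (0:ℝ), ∀ i, t * A i ≤ a i := by
    rw [eventually_all]
    intro i
    have h2 : Tendsto (fun t : ℝ => t * A i) (𝓝[>] 0) (𝓝 (0 * A i)) :=
      (tendsto_nhdsWithin_of_tendsto_nhds tendsto_id).mul_const _
    rw [zero_mul] at h2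
    exact (h2.eventually (gt_mem_nhds (ha i))).mono fun t ht => le_of_lt ht
  have h3 : ∀ᶠ t : ℝ in 𝓝[>] (0:ℝ), 0 < t ∧ t ≤ t0 := by
    filter_upwards [self_mem_nhdsWithin, mem_nhdsWithin_of_mem_nhds (Iic_mem_nhds ht0)] with t h4 h5
    exact ⟨h4, h5⟩
  obtain ⟨t, h4, h5⟩ := (h1.and h3).exists
  exact ⟨t, h5.1, h5.2, h4⟩

theorem num3 {A B C x y : ℝ} (hA : 0 ≤ A) (hB : 0 ≤ B) (hC : 0 ≤ C) (hx : 0 ≤ x) (hy : 0 ≤ y) :
    ENNReal.ofReal A * ENNReal.ofReal x + ENNReal.ofReal B * ENNReal.ofReal y +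
      ENNReal.ofReal C * ENNReal.ofReal y = ENNReal.ofReal (A * x + B * y + C * y) := by
  rw [← ENNReal.ofReal_mul hA, ← ENNReal.ofReal_mul hB, ← ENNReal.ofReal_mul hC,
    ← ENNReal.ofReal_add (by positivity) (by positivity),
    ← ENNReal.ofReal_add (by positivity) (by positivity)]

theorem num5 {X D B E t : ℝ} (hX : 0 ≤ X) (hD : 0 ≤ D) (hB : 0 ≤ B) (hE : 0 ≤ E) (ht : 0 ≤ t) :
    ENNReal.ofReal X * (ENNReal.ofReal D * ENNReal.ofReal t + ENNReal.ofReal B * ENNReal.ofReal t) +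
      ENNReal.ofReal E * (ENNReal.ofReal t + ENNReal.ofReal t) =
      ENNReal.ofReal (X * (D * t + B * t) + E * (t + t)) := by
  rw [← ENNReal.ofReal_mul hD, ← ENNReal.ofReal_mul hB,
    ← ENNReal.ofReal_add (by positivity) (by positivity),
    ← ENNReal.ofReal_add (by positivity) (by positivity),
    ← ENNReal.ofReal_mul hX, ← ENNReal.ofReal_mul hE,
    ← ENNReal.ofReal_add (by positivity) (by positivity)]

set_option maxHeartbeats 2000000 in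
open Classical in
/-- **`PreN` from `MeshN`.**  Order: `S, KS` (from `p, sm, S1`); then `t1` (from `Ku, L, ε, η, e₂`);
then `t2` (from `C, ε'`). -/
theorem exists_preN {p : ℝ} (hp : 1 ≤ p) {sm S1 : ℝ} (hsm0 : 0 ≤ sm) (hS1 : 0 < S1) :
    ∃ S KS : ℝ, S1 ≤ S ∧ 0 ≤ KS ∧
    ∀ (Ku : ℝ≥0∞), Ku ≠ ⊤ → ∀ (ε η : ℝ) (L : ℕ) (e₂ : ℝ), 1 ≤ L → 0 < ε → 0 < η → 0 < e₂ →
    ∃ t1 : ℝ, 0 < t1 ∧ t1 ≤ 1 ∧
    ∀ (𝒮0 : Set (Set (Set E3))), 𝒮0.Finite → ∀ C : Set (Set E3) → ℝ, (∀ 𝒦, 0 < C 𝒦) →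
    ∀ ε' : ℝ, 0 < ε' → ∃ t2 : ℝ, 0 < t2 ∧ t2 ≤ t1 ∧
    ∀ {δ κ0 R c0 : ℝ} {La : Set E3} {ι : Type} {q : ℕ} {al : Fin 3 → ℝ} {h : ℝ} {s : Fin 3 → ℝ}
      {Φ : FoamD δ κ0 R c0 La} {f1 : E3 → E3} {g : Φ.F → Fin 3 → E3 → ℝ} {W : Φ.F → ℝ}
      {κ' μ κ1 κ2 κ3 : ℝ} {HH R' : Set E3}
      {e1 e2 e3 e4 : ℝ≥0∞} {e5 : ℝ} {D : Dat 3} {K0 : ℕ} {r : ℝ} {hr : r ≠ 0}
      {o : Fin 2 → ℤ} {M : ℕ} {Zs : Finset ℤ} {T : Tiling (QL L) ι} {Q : Set ι} {τ : ι → Top D}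
      {J0 J V : Φ.F → Set ι} {ct : Φ.F → ι} {A : Φ.F → E3 ≃ᵃ[ℝ] E3} {lam : Φ.F → ℝ}
      {z : Φ.F → E3} {θ : Φ.F → E3 → E3} {φ : Φ.F → E3 → ℝ} {Mg : Φ.F → ℕ}
      {B : ι → E3 ≃ᵃ[ℝ] E3} {cw : ι → ℝ≥0∞},
      MeshN p q al h s L η Φ f1 g W κ' μ κ1 κ2 κ3 C 𝒮0 HH R' e1 e2 e3 e4 e5 Ku D K0
        r hr o M Zs T Q τ J0 J V ct A lam z θ φ Mg B cw →
      (∀ i, 0 ≤ s i) → (∀ i, s i ≤ sm) → (∀ x ∈ HH, HWq Φ f1 q al h {x}) →
      0 ≤ κ' → κ' ≤ t2 → e1 ≤ ENNReal.ofReal t1 → e2 ≤ ENNReal.ofReal t2 →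
      e3 ≤ ENNReal.ofReal t2 → 0 ≤ e5 → e5 ≤ t1 → r ≤ t1 →
      ∀ κp : ℝ, κ' ≤ κp → ∀ 𝒮 : Set (Set (Set E3)), 𝒮0 ⊆ 𝒮 →
      ∀ (b : Empty → E3) (R1 : Empty → ℝ) (Sc : Empty → Finset ι) (cnt : ι → ℝ),
      (∀ i, cnt i ≤ cntA T r hr D.a o M Zs i) →
      ∀ (Z : Φ.F → Set ℝ) (m0 : Φ.F → ℕ), (∀ c, volume (Z c) = 0) →
      ∃ (κ : Φ.F → ℕ) (Lv : Φ.F → Finset ℝ),
        PreN p s L η ε ε' e₂ S1 S KS κp μ κ3 C 𝒮 f1 q al h Φ T univ V ct A lam z Mg r hr D.a o M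
          Zs (Ug T Qᶜ D.a r o) b R1 Sc cnt Z m0 κ Lv := by
  have hp0 : 0 ≤ p := by linarith
  set A0 : ℝ := (KA p sm S1).toReal with hA0
  set B1 : ℝ := (KB p).toReal with hB1
  set B0 : ℝ := (KB0 p).toReal with hB0
  set D1 : ℝ := (KD p S1).toReal with hD1
  set E1 : ℝ := (KE p).toReal with hE1
  have eA : KA p sm S1 = ENNReal.ofReal A0 := (ENNReal.ofReal_toReal (KA_ne_top hp)).symm
  have eB : KB p = ENNReal.ofReal B1 := (ENNReal.ofReal_toReal (KB_ne_top hp)).symm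
  have eB0 : KB0 p = ENNReal.ofReal B0 := (ENNReal.ofReal_toReal (KB0_ne_top hp)).symm
  have eD : KD p S1 = ENNReal.ofReal D1 := (ENNReal.ofReal_toReal (KD_ne_top hp)).symm
  have eE : KE p = ENNReal.ofReal E1 := (ENNReal.ofReal_toReal (KE_ne_top hp)).symm
  have nA : 0 ≤ A0 := ENNReal.toReal_nonneg
  have nB : 0 ≤ B1 := ENNReal.toReal_nonneg
  have nB0 : 0 ≤ B0 := ENNReal.toReal_nonneg
  have nD : 0 ≤ D1 := ENNReal.toReal_nonneg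
  have nE : 0 ≤ E1 := ENNReal.toReal_nonneg
  clear_value A0 B1 B0 D1 E1
  have hM1 : (0:ℝ) ≤ M1 3 := Nat.cast_nonneg _
  refine ⟨S1 + (M1 3 : ℝ) * (2 * sm), 48 * A0 + 1, by nlinarith, by positivity, ?_⟩
  intro Ku hKu ε η L e₂ hL hε hη he₂
  have hL0 : (0:ℝ) < L := by exact_mod_cast hL
  set S : ℝ := S1 + (M1 3 : ℝ) * (2 * sm) with hS
  set k : ℝ := Ku.toReal with hk
  have ek : Ku = ENNReal.ofReal k := (ENNReal.ofReal_toReal hKu).symm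
  have nk : 0 ≤ k := ENNReal.toReal_nonneg
  clear_value k
  obtain ⟨t0, ht0, ht01, hw⟩ := Npw_273.exists_wtsq2 hp hL hsm0 (S := S) (by rw [hS]; linarith) hε
  obtain ⟨t1, h1, h1t, hf⟩ := exists_t (n := 3) ![1 / L, e₂ / L, 2 * ε / L]
    ![B1 + B0, 24 * A0 + (B1 + B0), k * (135 * A0 / L + (B1 + B0))]
    (by intro i; fin_cases i <;> simp <;> positivity)
    (by intro i; fin_cases i <;> simp <;> positivity) ht0
  have f1' : t1 * (B1 + B0) ≤ 1 / L := by simpa using hf 0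
  have f2' : t1 * (24 * A0 + (B1 + B0)) ≤ e₂ / L := by simpa using hf 1
  have f3' : t1 * (k * (135 * A0 / L + (B1 + B0))) ≤ 2 * ε / L := by simpa using hf 2
  refine ⟨t1, h1, h1t.trans ht01, ?_⟩
  intro 𝒮0 hfin C hC ε' hε'
  obtain ⟨u0, hu0, hu0t, hw⟩ := hw ε' hε'
  -- bound of the machine's function on the universal shapes
  obtain ⟨CQ, hCQ⟩ : ∃ CQ : ℝ, ∀ 𝒦 ∈ 𝒮0, C 𝒦 ≤ CQ := by
    obtain ⟨c, hc⟩ := (hfin.image C).bddAbove
    exact ⟨c, fun 𝒦 h𝒦 => hc (mem_image_of_mem _ h𝒦)⟩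
  set X : ℝ := (ENNReal.ofReal CQ ^ p).toReal with hX
  have eX : ENNReal.ofReal CQ ^ p = ENNReal.ofReal X := (ENNReal.ofReal_toReal
    (ENNReal.rpow_ne_top_of_nonneg hp0 ENNReal.ofReal_ne_top)).symm
  have nX : 0 ≤ X := ENNReal.toReal_nonneg
  clear_value X
  obtain ⟨t2, h2, h2t, hg⟩ := exists_t (n := 2) ![ε', 2 * ε' / L]
    ![X * (D1 + B0) + 2 * E1, k * X * (D1 + B0) + 2 * E1]
    (by intro i; fin_cases i <;> simp <;> positivity)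
    (by intro i; fin_cases i <;> simp <;> positivity) (lt_min h1 hu0)
  have g1 : t2 * (X * (D1 + B0) + 2 * E1) ≤ ε' := by simpa using hg 0
  have g2 : t2 * (k * X * (D1 + B0) + 2 * E1) ≤ 2 * ε' / L := by simpa using hg 1
  have h2t1 : t2 ≤ t1 := h2t.trans (min_le_left _ _)
  have h2u : t2 ≤ u0 := h2t.trans (min_le_right _ _)
  refine ⟨t2, h2, h2t1, ?_⟩
  intro δ κ0 R c0 La ι q al h s Φ f1 g W κ' μ κ1 κ2 κ3 HH R' e1 e2 e3 e4 e5 D K0 r hr o M Zs T Q τ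
    J0 J V ct A lam z θ φ Mg B cw H hs hsm hHW hκ0 hκt he1 he2 he3 he50 he5 hrt κp hκp 𝒮 h𝒮 b R1 Sc
    cnt hcnt Z m0 hZ
  have hκ1 : κ' ≤ 1 := hκt.trans (h2t1.trans (h1t.trans ht01))
  have hr0 := H.r0
  have he0 : ENNReal.ofReal t2 ≠ 0 := (ENNReal.ofReal_pos.2 h2).ne'
  obtain ⟨err, er, herr0, herr, her, hYe, hYe1, hnE⟩ := H.errs hp he0
  obtain ⟨κ, Lv, hLev, hWo, hcard, hEN, hNN⟩ := H.choice err herr0 Z m0 hZ
  have hNN' : ∀ i, NN Φ T f1 κ Lv i ≤ ∑ e ∈ eIn T i, Fw κ' W g err e := fun i =>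
    (hNN i).trans (Finset.sum_le_sum fun e _ => hEN e)
  have hmono2 : ENNReal.ofReal t2 ≤ ENNReal.ofReal t1 := ENNReal.ofReal_le_ofReal h2t1
  obtain ⟨hwt, hsq⟩ := hw H hs hsm hκ0 (hκt.trans h2u)
    (he1.trans (ENNReal.ofReal_le_ofReal h1t)) (he2.trans (ENNReal.ofReal_le_ofReal h2u)) hHW
    (κ := κ) (Lv := Lv) (err := err) (er := er) hEN hNN her
    (fun l => (hYe l).trans (ENNReal.ofReal_le_ofReal h2u))
    (fun l => (hYe1 l).trans (ENNReal.ofReal_le_ofReal h2u))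
  set N0 : ℝ := ((Zs.card : ℝ) * M ^ 2) * r ^ 3 with hN0
  have nN0 : 0 ≤ N0 :=
    mul_nonneg (mul_nonneg (Nat.cast_nonneg _) (sq_nonneg _)) (pow_nonneg hr0.le _)
  have hN1 : 2 / L ≤ N0 := H.N1
  have hN2 : N0 ≤ 5 / L := H.N2
  have h27 : (0:ℝ) ≤ 27 * t1 := by linarith
  have hv2 : ENNReal.ofReal (27 * e5 * N0) ≤ ENNReal.ofReal (27 * t1 * (5 / L)) :=
    ENNReal.ofReal_le_ofReal (mul_le_mul (mul_le_mul_of_nonneg_left he5 (by norm_num)) hN2 nN0 h27)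
  refine ⟨κ, Lv, Pmc_112.levels_mono hκp hLev, hWo, ?_, hwt, hsq, ?_⟩
  · intro c hc
    rw [hcard c, H.W0 c hc]
  · refine H.tl_of hHW hp hκ1 (fun 𝒦 => (hC 𝒦).le) herr hS1.le her (e0 := ENNReal.ofReal t2) hYe hsm
      hnE hNN' h𝒮 hCQ hcnt
      (V1 := ENNReal.ofReal ((48 * η + 24 * L * r) / L))
      (V2 := ENNReal.ofReal (27 * e5 * N0)) ?_ ?_ ?_ ?_ ?_ ?_ ?_
    · have h3 := Npv_57.vol_IZ hL hη.le H.base H.rK H.scQ
        (A := {i | i ∈ MeshN.HTs T Q HH ∧ i ∈ IZ T (ShL L η) b R1 Sc}) (fun i hi => hi.1.1)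
        (b := b) (R1 := R1) (Sc := Sc) (fun i hi => hi.2)
      rwa [Npv_57.tsum_vol] at h3
    · have h3 := Npv_57.vol_MJ_le H.base H.rK H.scQ
        (A := {i | i ∈ MeshN.HTs T Q HH ∧ MJ T r hr D.a o M Zs (Ug T Qᶜ D.a r o) i})
        (fun i hi => hi.1.1) (hr := hr) (a := D.a) (o := o) (M := M) (Zs := Zs)
        (U := Ug T Qᶜ D.a r o) (fun i hi => hi.2) H.junk
      rwa [Npv_57.tsum_vol] at h3
    · rw [Npl_477.vol_QL hL0, eA, eB, eB0]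
      calc _ ≤ ENNReal.ofReal A0 * ENNReal.ofReal (8 / L) + ENNReal.ofReal B1 * ENNReal.ofReal t1 +
            ENNReal.ofReal B0 * ENNReal.ofReal t1 := by gcongr
        _ = ENNReal.ofReal (A0 * (8 / L) + B1 * t1 + B0 * t1) :=
            num3 nA nB nB0 (by positivity) h1.le
        _ ≤ _ := by
            apply ENNReal.ofReal_le_ofReal
            have h4 : (48 * A0 + 1) / L = A0 * (8 / L) + 1 / L + 40 * A0 / L := by
              field_simp; ring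
            have h5 : 0 ≤ 40 * A0 / L := by positivity
            nlinarith
    · rw [eA, eB, eB0]
      calc _ ≤ ENNReal.ofReal A0 * ENNReal.ofReal ((48 * η + 24 * L * r) / L) +
            ENNReal.ofReal B1 * ENNReal.ofReal t1 + ENNReal.ofReal B0 * ENNReal.ofReal t1 := by gcongr
        _ = ENNReal.ofReal (A0 * ((48 * η + 24 * L * r) / L) + B1 * t1 + B0 * t1) :=
            num3 nA nB nB0 (by positivity) h1.le
        _ ≤ _ := by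
            apply ENNReal.ofReal_le_ofReal
            have h4 : A0 * ((48 * η + 24 * L * r) / L) = 48 * A0 * η / L + 24 * A0 * r := by
              field_simp
            have h5 : ((48 * A0 + 1) * η + e₂) / L = 48 * A0 * η / L + η / L + e₂ / L := by
              field_simp
            have h6 : 0 ≤ η / L := by positivity
            have h7 : 24 * A0 * r ≤ 24 * A0 * t1 := by
              apply mul_le_mul_of_nonneg_left hrt (by positivity)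
            rw [h4, h5]
            nlinarith
    · rw [eX, eD, eB0, eE]
      calc _ ≤ ENNReal.ofReal X * (ENNReal.ofReal D1 * ENNReal.ofReal t2 +
            ENNReal.ofReal B0 * ENNReal.ofReal t2) +
            ENNReal.ofReal E1 * (ENNReal.ofReal t2 + ENNReal.ofReal t2) := by gcongr
        _ = ENNReal.ofReal (X * (D1 * t2 + B0 * t2) + E1 * (t2 + t2)) :=
            num5 nX nD nB0 nE h2.le
        _ ≤ _ := by
            apply ENNReal.ofReal_le_ofReal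
            nlinarith
    · rw [ek, eA, eB, eB0]
      calc _ ≤ ENNReal.ofReal k * (ENNReal.ofReal A0 * ENNReal.ofReal (27 * t1 * (5 / L)) +
            ENNReal.ofReal B1 * ENNReal.ofReal t1 + ENNReal.ofReal B0 * ENNReal.ofReal t1) :=
            mul_le_mul' le_rfl (add_le_add (add_le_add (mul_le_mul' le_rfl hv2)
              (mul_le_mul' le_rfl he1)) (mul_le_mul' le_rfl hmono2))
        _ = ENNReal.ofReal (k * (A0 * (27 * t1 * (5 / L)) + B1 * t1 + B0 * t1)) := by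
            rw [num3 nA nB nB0 (by positivity) h1.le, ← ENNReal.ofReal_mul nk]
        _ ≤ _ := by
            apply ENNReal.ofReal_le_ofReal
            have h4 : k * (A0 * (27 * t1 * (5 / L)) + B1 * t1 + B0 * t1) =
                t1 * (k * (135 * A0 / L + (B1 + B0))) := by field_simp; ring
            have h5 : ε * (2 / L) ≤ ε * N0 := mul_le_mul_of_nonneg_left hN1 hε.le
            have h6 : ε * (2 / L) = 2 * ε / L := by ring
            have h7 : ε * ((Zs.card : ℝ) * M ^ 2) * r ^ 3 = ε * N0 := by rw [hN0]; ring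
            rw [h4, h7]
            linarith
    · rw [ek, eX, eD, eB0, eE]
      calc _ ≤ ENNReal.ofReal k * ENNReal.ofReal X * (ENNReal.ofReal D1 * ENNReal.ofReal t2 +
            ENNReal.ofReal B0 * ENNReal.ofReal t2) +
            ENNReal.ofReal E1 * (ENNReal.ofReal t2 + ENNReal.ofReal t2) := by gcongr
        _ = ENNReal.ofReal (k * X * (D1 * t2 + B0 * t2) + E1 * (t2 + t2)) := by
            rw [← ENNReal.ofReal_mul nk, num5 (mul_nonneg nk nX) nD nB0 nE h2.le]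
        _ ≤ _ := by
            apply ENNReal.ofReal_le_ofReal
            have h4 : k * X * (D1 * t2 + B0 * t2) + E1 * (t2 + t2) =
                t2 * (k * X * (D1 + B0) + 2 * E1) := by ring
            have h5 : ε' * (2 / L) ≤ ε' * N0 := mul_le_mul_of_nonneg_left hN1 hε'.le
            have h6 : ε' * (2 / L) = 2 * ε' / L := by ring
            have h7 : ε' * ((Zs.card : ℝ) * M ^ 2) * r ^ 3 = ε' * N0 := by rw [hN0]; ring
            rw [h4, h7]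
            linarith

end Crest.Agent.R096.Np_962
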