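import Crest.Agent.R096.Nge2_423
import Crest.Agent.R096.Np9_962
import Crest.Agent.R096.Frt5_899

/-!
Row 96 (S0127), helper423, node NO0-PRE3: **`noPre_ge3 : 3 ≤ p → ExMeshN p → NOPre p`**.
-/

set_option autoImplicit false
set_option linter.unusedSectionVars false
set_option linter.unusedVariables false
open Set Filter Topology MeasureTheory Metric
open scoped NNReal ENNReal

noncomputable section

namespace Crest.Agent.R096.Nge_423

open Crest.Agent.R096.Np_962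
open Crest.Agent.R096.No_276

theorem exPreN {p : ℝ} (hp : 1 ≤ p) : ExPreN p := by
  intro 𝒮0 h𝒮0 Ku hKu s hs S1 hS1
  have hsm0 : 0 ≤ s 0 + s 1 + s 2 := add_nonneg (add_nonneg (hs 0) (hs 1)) (hs 2)
  have hsm : ∀ i, s i ≤ s 0 + s 1 + s 2 := by
    intro i
    have h0 := hs 0
    have h1 := hs 1
    have h2 := hs 2
    fin_cases i
    · show s 0 ≤ s 0 + s 1 + s 2; linarith
    · show s 1 ≤ s 0 + s 1 + s 2; linarith
    · show s 2 ≤ s 0 + s 1 + s 2; linarith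
  obtain ⟨S, KS, hS, hKS, H⟩ := exists_preN hp hsm0 hS1
  refine ⟨S, KS, hS, hKS, fun ε η L e₂ hε hη hη8 hL he₂ => ?_⟩
  obtain ⟨t1, ht1, ht11, H⟩ := H Ku hKu ε η L e₂ hL hε hη he₂
  refine ⟨t1, ht1, fun C ε' hC hε' => ?_⟩
  obtain ⟨t2, ht2, ht21, H⟩ := H 𝒮0 h𝒮0 C hC ε' hε'
  refine ⟨t2, ht2, ht21.trans ht11, ?_⟩
  intro δ κ0 R c0 La ι q al h Φ f1 g W κ' μ κ1 κ2 κ3 HH R' e1 e2 e3 e4 e5 D K0 r hr o M Zs T Q τ J0 J
    V ct A lam z θ φ Mg B cw hM hHW hκ0 hκ h1 h2 h3 h5 hr' κp hκp 𝒮 h𝒮 b R1 Sc cnt hc0 hc Z m0 hZ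
  have he5 : 0 ≤ e5 := by
    have hN : (0:ℝ) < (Zs.card : ℝ) * M ^ 2 := by
      have h1 : 0 < M := hM.M0
      have h2 : 0 < Zs.card := Finset.card_pos.2 hM.zne
      positivity
    have hj := hM.junk
    have h3 : (0:ℝ) ≤ e5 * ((Zs.card : ℝ) * M ^ 2) := le_trans (Nat.cast_nonneg _) hj
    exact nonneg_of_mul_nonneg_left h3 hN
  exact H hM hs hsm hHW hκ0 hκ h1 h2 h3 he5 (h5.trans ht21) (hr'.trans ht21) κp hκp 𝒮 h𝒮 b R1 Sc cnt
    hc Z m0 hZ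

/-- **NO0 before the machine, `3 ≤ p`, from the mesh part alone** -/
theorem noPre_ge3 {p : ℝ} (hp : 3 ≤ p) (hM : ExMeshN p) : NOPre p :=
  noPre_of hp (Frt_899.exists_front3 hp) hM (exPreN (by linarith))

end Crest.Agent.R096.Nge_423
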