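import Crest.Agent.R96.Hole9_348

/-!
Row 96 (S0127), helper273.  NO0-N6 (477 #10028), part 2: the hole squeeze (348) in a ball
(= cube, sup norm) of `E3 = Fin 3 → ℝ`; finite cover of the sphere by closed sets on which `g` is
Lipschitz.
-/

set_option autoImplicit false
set_option linter.unusedSectionVars false
set_option linter.style.longLine false

open Set Metric Topology Filter MeasureTheory
open scoped ENNReal NNReal

namespace Crest.Agent.R096.Nh_273

open Crest.Agent.R096.Ce_537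
open Crest.Agent.R96.Hole_348

abbrev E3 : Type := Fin 3 → ℝ

section scale

/-- from the unit cube -/
noncomputable def sup_ (a : E3) (R : ℝ) (u : E3) : E3 := a + R • u

/-- back -/
noncomputable def sdn (a : E3) (R : ℝ) (y : E3) : E3 := R⁻¹ • (y - a)

variable {a : E3} {R : ℝ}

lemma sdn_sup (hR : R ≠ 0) (u : E3) : sdn a R (sup_ a R u) = u := by
  simp [sdn, sup_, smul_smul, inv_mul_cancel₀ hR]

lemma sup_sdn (hR : R ≠ 0) (y : E3) : sup_ a R (sdn a R y) = y := by
  simp [sdn, sup_, smul_smul, mul_inv_cancel₀ hR]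

lemma cont_sup : Continuous (sup_ a R) := by unfold sup_; fun_prop

lemma cont_sdn : Continuous (sdn a R) := by unfold sdn; fun_prop

lemma sup_sub (hR : 0 < R) (u u' : E3) : ‖sup_ a R u - sup_ a R u'‖ = R * ‖u - u'‖ := by
  have : sup_ a R u - sup_ a R u' = R • (u - u') := by
    simp [sup_, smul_sub]
  rw [this, norm_smul, Real.norm_eq_abs, abs_of_pos hR]

lemma sdn_sub (hR : 0 < R) (y y' : E3) : ‖sdn a R y - sdn a R y'‖ = R⁻¹ * ‖y - y'‖ := by
  have : sdn a R y - sdn a R y' = R⁻¹ • (y - y') := by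
    simp only [sdn, ← smul_sub]
    congr 1
    abel
  rw [this, norm_smul, norm_inv, Real.norm_eq_abs, abs_of_pos hR]

lemma norm_sdn (hR : 0 < R) (y : E3) : ‖sdn a R y‖ = R⁻¹ * ‖y - a‖ := by
  unfold sdn
  rw [norm_smul, norm_inv, Real.norm_eq_abs, abs_of_pos hR]

lemma mem_ball_iff' (hR : 0 < R) {y : E3} : y ∈ ball a R ↔ ‖sdn a R y‖ < 1 := by
  rw [norm_sdn hR, mem_ball_iff_norm, inv_mul_lt_iff₀ hR, mul_one]

lemma mem_cball_iff' (hR : 0 < R) {y : E3} : y ∈ closedBall a R ↔ ‖sdn a R y‖ ≤ 1 := by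
  rw [norm_sdn hR, mem_closedBall_iff_norm, inv_mul_le_iff₀ hR, mul_one]

lemma mem_sph_iff' (hR : 0 < R) {y : E3} : y ∈ sphere a R ↔ ‖sdn a R y‖ = 1 := by
  rw [norm_sdn hR, mem_sphere_iff_norm, inv_mul_eq_iff_eq_mul₀ hR.ne', mul_one]

/-- as affine maps -/
noncomputable def supA (a : E3) (R : ℝ) : E3 →ᵃ[ℝ] E3 where
  toFun := sup_ a R
  linear := R • LinearMap.id
  map_vadd' p v := by
    simp only [sup_, vadd_eq_add, smul_add, LinearMap.smul_apply, LinearMap.id_apply]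
    abel

noncomputable def sdnA (a : E3) (R : ℝ) : E3 →ᵃ[ℝ] E3 where
  toFun := sdn a R
  linear := R⁻¹ • LinearMap.id
  map_vadd' p v := by
    simp only [sdn, vadd_eq_add, LinearMap.smul_apply, LinearMap.id_apply]
    rw [← smul_add]
    congr 1
    abel

lemma vol_sdn (hR : 0 < R) (S : Set E3) :
    volume (sdn a R ⁻¹' S) ≤ ENNReal.ofReal (R^3) * volume S := by
  have e : sdn a R ⁻¹' S = (fun y : E3 => y + (-a)) ⁻¹' ((fun y : E3 => R⁻¹ • y) ⁻¹' S) := by
    ext y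
    simp [sdn, sub_eq_add_neg]
  rw [e, measure_preimage_add_right, Measure.addHaar_preimage_smul _ (inv_ne_zero hR.ne')]
  refine mul_le_mul' ?_ le_rfl
  apply ENNReal.ofReal_le_ofReal
  rw [Module.finrank_fin_fun, inv_pow, inv_inv, abs_of_pos (by positivity)]

variable {G : Type*} [NormedAddCommGroup G] [NormedSpace ℝ G]

lemma tb_scale (hR : 0 < R) {μ : ℝ} (_hμ : 0 ≤ μ) {g : E3 → G} {u : E3}
    (h : sup_ a R u ∈ closure (TB μ g (sphere a R))) :
    u ∈ closure (TB (μ * R) (fun u => g (sup_ a R u)) (sphere 0 1)) := by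
  have hR0 := hR.ne'
  rw [mem_closure_iff_nhds] at h ⊢
  intro T hT
  have h1 : sdn a R ⁻¹' T ∈ 𝓝 (sup_ a R u) := by
    have : ContinuousAt (sdn a R) (sup_ a R u) := cont_sdn.continuousAt
    refine this ?_
    rw [sdn_sup hR0]
    exact hT
  obtain ⟨z, hz1, hz2, hz3⟩ := h _ h1
  have hzu : sup_ a R (sdn a R z) = z := sup_sdn hR0 z
  refine ⟨sdn a R z, hz1, ?_, ?_⟩
  · rw [mem_sphere_zero_iff_norm, ← mem_sph_iff' hR]
    exact hz2
  · have h2 : Tendsto (sup_ a R) (𝓝[sphere 0 1] (sdn a R z)) (𝓝[sphere a R] z) := by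
      refine tendsto_nhdsWithin_iff.2 ⟨?_, ?_⟩
      · have h3 : Tendsto (sup_ a R) (𝓝 (sdn a R z)) (𝓝 (sup_ a R (sdn a R z))) :=
          cont_sup.continuousAt
        rw [hzu] at h3
        exact h3.mono_left nhdsWithin_le_nhds
      · filter_upwards [self_mem_nhdsWithin] with y hy
        rw [mem_sph_iff' hR, sdn_sup hR0]
        simpa using hy
    filter_upwards [h2.eventually hz3] with y hy
    show ‖g (sup_ a R y) - g (sup_ a R (sdn a R z))‖ ≤ _
    rw [hzu]
    refine hy.trans ?_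
    have h4 := sup_sub (a := a) hR y (sdn a R z)
    rw [hzu] at h4
    rw [h4, mul_assoc]

/-- **HOLE SQUEEZE, TRACE FORM, in a ball of `E3`** (sup norm). -/
theorem hole_ball {p : ℝ} (hp0 : 0 < p) (hp3 : p < 3) (a : E3) {R r : ℝ}
    (hr0 : 0 < r) (hrR : r ≤ R) {ι : Type} [Fintype ι] (F : ι → Set E3)
    (hFc : ∀ i, IsClosed (F i)) (hd : ∀ i, ∀ x ∈ F i, ∀ y ∈ F i, ‖x - y‖ ≤ r)
    (hcov : sphere a R ⊆ ⋃ i, F i) {μ : ι → ℝ} (hμ : ∀ i, 0 ≤ μ i) {g : E3 → G}
    (hg : PLOn g (closedBall a R))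
    (htr : ∀ i, ∀ ω ∈ F i, ω ∈ sphere a R → ω ∈ closure (TB (μ i) g (sphere a R)))
    {ε : ℝ} (hε : 0 < ε) :
    ∃ χ : E3 ≃ₜ E3, PLOn χ univ ∧ PLOn χ.symm univ ∧
      (∀ x, x ∉ ball a R → χ x = x) ∧ (∀ x ∈ ball a R, χ x ∈ ball a R) ∧
      EnCov volume p (fun x => g (χ x)) (closedBall a R)
        (ENNReal.ofReal (Chole 3 p * (R * r^2) * ∑ i, μ i ^ p + ε)) := by
  have hR : 0 < R := hr0.trans_le hrR
  have hR0 := hR.ne'
  have hRp : (0:ℝ) < R^(p - 3) := Real.rpow_pos_of_pos hR _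
  set g' : E3 → G := fun u => g (sup_ a R u) with hg'
  have hε' : 0 < R^(p - 3) * ε := mul_pos hRp hε
  have hup : PLOn (sup_ a R) univ := plOn_affineMap (supA a R) cont_sup univ
  have hdn : PLOn (sdn a R) univ := plOn_affineMap (sdnA a R) cont_sdn univ
  obtain ⟨χ', h1, h2, h3, h4, h5⟩ := hole_unit_trace (n := 3) (p := p) hp0
    (by exact_mod_cast hp3)
    (fun i => sup_ a R ⁻¹' F i) (fun i => (hFc i).preimage cont_sup)
    (r := r / R) (by positivity) (by rw [div_le_one hR]; exact hrR) (by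
      intro i x hx y hy
      have h6 := hd i _ hx _ hy
      have h7 := sup_sub (a := a) hR x y
      rw [h7] at h6
      rw [le_div_iff₀ hR]
      linarith) (by
      intro u hu
      have hu1 : ‖u‖ = 1 := by simpa using hu
      have hu2 : sup_ a R u ∈ sphere a R := by rw [mem_sph_iff' hR, sdn_sup hR0]; exact hu1
      obtain ⟨i, hi⟩ := mem_iUnion.1 (hcov hu2)
      exact mem_iUnion.2 ⟨i, hi⟩)
    (μ := fun i => μ i * R) (fun i => mul_nonneg (hμ i) hR.le) (g := g')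
    (hg.comp (hup.mono (subset_univ _)) (by
      intro u hu
      rw [mem_cball_iff' hR, sdn_sup hR0]
      simpa using hu)) (by
      intro i ω hω hω1
      refine tb_scale hR (hμ i) (htr i _ hω ?_)
      rw [mem_sph_iff' hR, sdn_sup hR0]; exact hω1) hε'
  -- the homeomorphism
  let χ : E3 ≃ₜ E3 :=
    { toFun := fun y => sup_ a R (χ' (sdn a R y))
      invFun := fun y => sup_ a R (χ'.symm (sdn a R y))
      left_inv := fun y => by
        show sup_ a R (χ'.symm (sdn a R (sup_ a R (χ' (sdn a R y))))) = y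
        rw [sdn_sup hR0, χ'.symm_apply_apply, sup_sdn hR0]
      right_inv := fun y => by
        show sup_ a R (χ' (sdn a R (sup_ a R (χ'.symm (sdn a R y))))) = y
        rw [sdn_sup hR0, χ'.apply_symm_apply, sup_sdn hR0]
      continuous_toFun := cont_sup.comp (χ'.continuous.comp cont_sdn)
      continuous_invFun := cont_sup.comp (χ'.symm.continuous.comp cont_sdn) }
  refine ⟨χ, ?_, ?_, ?_, ?_, ?_⟩
  · exact hup.comp (h1.comp hdn (mapsTo_univ _ _)) (mapsTo_univ _ _)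
  · exact hup.comp (h2.comp hdn (mapsTo_univ _ _)) (mapsTo_univ _ _)
  · intro x hx
    show sup_ a R (χ' (sdn a R x)) = x
    rw [mem_ball_iff' hR, not_lt] at hx
    rw [h3 _ hx, sup_sdn hR0]
  · intro x hx
    rw [mem_ball_iff' hR] at hx ⊢
    show ‖sdn a R (sup_ a R (χ' (sdn a R x)))‖ < 1
    rw [sdn_sup hR0]
    exact h4 _ hx
  · have h6 := h5.transport (m' := (volume : Measure E3)) (sdn a R) cont_sdn
      (l := R⁻¹) (κ := R^3) (by positivity) (fun y y' => (sdn_sub hR y y').le) (vol_sdn hR)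
    have hK : sdn a R ⁻¹' closedBall 0 1 = closedBall a R := by
      ext y
      rw [mem_preimage, mem_closedBall_zero_iff, mem_cball_iff' hR]
    rw [hK] at h6
    refine h6.mono ?_
    rw [← ENNReal.ofReal_mul (by positivity), ← ENNReal.ofReal_mul (by positivity)]
    apply ENNReal.ofReal_le_ofReal
    have e1 : ∀ i, (μ i * R)^p = R^p * μ i ^ p := by
      intro i
      rw [Real.mul_rpow (hμ i) hR.le]
      ring
    have e2 : (R⁻¹)^p * R^p = 1 := by
      rw [← Real.mul_rpow (by positivity) hR.le, inv_mul_cancel₀ hR0, Real.one_rpow]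
    have e3 : (R⁻¹)^p * R^3 * R^(p - 3) = 1 := by
      rw [Real.rpow_sub hR, show (R:ℝ)^(3:ℝ) = R^(3:ℕ) by
        rw [← Real.rpow_natCast]; norm_num]
      have h7 : R^(3:ℕ) ≠ 0 := by positivity
      calc (R⁻¹)^p * R^3 * (R^p / R^3) = (R⁻¹)^p * R^p * (R^3 / R^3) := by ring
        _ = 1 := by rw [div_self h7, mul_one, e2]
    have e4 : ∑ i, (μ i * R)^p = R^p * ∑ i, μ i ^ p := by
      rw [Finset.mul_sum]
      exact Finset.sum_congr rfl fun i _ => e1 i
    show (R⁻¹)^p * R^3 * (Chole 3 p * ((r / R)^3 / (r / R)) * ∑ i, (μ i * R)^p +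
      R^(p - 3) * ε) ≤ _
    rw [e4, mul_add]
    have e5 : (R⁻¹)^p * R^3 * (R^(p - 3) * ε) = ε := by
      rw [← mul_assoc, e3, one_mul]
    rw [e5]
    apply le_of_eq
    congr 1
    have e6 : R^3 * ((r / R)^3 / (r / R)) = R * r^2 := by
      field_simp
    calc (R⁻¹)^p * R^3 * (Chole 3 p * ((r / R)^3 / (r / R)) * (R^p * ∑ i, μ i ^ p))
        = ((R⁻¹)^p * R^p) * (Chole 3 p * (R^3 * ((r / R)^3 / (r / R))) *
            ∑ i, μ i ^ p) := by ring
      _ = _ := by rw [e2, e6, one_mul]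

end scale

section cover

variable {X : Type*} [TopologicalSpace X]

/-- a finite closed cover of a space: the closures of the interiors cover as well -/
theorem finite_cover {J : Type*} [Finite J] (F : J → Set X) (hF : ∀ j, IsClosed (F j))
    (hc : ∀ x, ∃ j, x ∈ F j) (x : X) : ∃ j, x ∈ closure (interior (F j)) := by
  by_contra hcon
  push Not at hcon
  set U : Set X := ⋂ j, (closure (interior (F j)))ᶜ with hU
  have hUo : IsOpen U := isOpen_iInter_of_finite fun j => isClosed_closure.isOpen_compl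
  have hxU : x ∈ U := mem_iInter.2 hcon
  -- every nonempty open subset of `U` leaves each `F j`
  have key : ∀ (S : Set J), S.Finite → ∀ V : Set X, IsOpen V → V.Nonempty → V ⊆ U →
      ∃ W : Set X, IsOpen W ∧ W.Nonempty ∧ W ⊆ V ∧ ∀ j ∈ S, Disjoint W (F j) := by
    intro S hS
    induction S, hS using Set.Finite.induction_on with
    | empty => exact fun V hV hne _ => ⟨V, hV, hne, subset_rfl, fun j hj => absurd hj (notMem_empty j)⟩
    | @insert j S hj hS ih =>
      intro V hV hne hVU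
      obtain ⟨W, hW, hWne, hWV, hWd⟩ := ih V hV hne hVU
      have h1 : ¬ W ⊆ F j := by
        intro h
        obtain ⟨w, hw⟩ := hWne
        have h2 : w ∈ interior (F j) := interior_maximal h hW hw
        have h3 := mem_iInter.1 (hVU (hWV hw)) j
        exact h3 (subset_closure h2)
      obtain ⟨w, hw, hwj⟩ := not_subset.1 h1
      refine ⟨W \ F j, hW.sdiff (hF j), ⟨w, hw, hwj⟩, sdiff_subset.trans hWV, ?_⟩
      intro k hk
      rcases mem_insert_iff.1 hk with rfl | hk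
      · exact disjoint_sdiff_left
      · exact (hWd k hk).mono_left sdiff_subset
  obtain ⟨W, -, ⟨w, hw⟩, -, hWd⟩ := key univ finite_univ U hUo ⟨x, hxU⟩ subset_rfl
  obtain ⟨j, hj⟩ := hc w
  exact disjoint_left.1 (hWd j (mem_univ j)) hw hj

end cover

/-- the trace condition from a Lipschitz constant on closed pieces which cover the sphere -/
theorem tb_of_lip {E G' : Type*} [NormedAddCommGroup E] [NormedAddCommGroup G'] {S : Set E}
    {J : Type*} [Finite J] {P : J → Set E} (hP : ∀ j, IsClosed (P j)) (hcov : S ⊆ ⋃ j, P j)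
    {μ : J → ℝ} {g : E → G'} (hL : ∀ j, ∀ x ∈ P j, ∀ y ∈ P j, ‖g y - g x‖ ≤ μ j * ‖y - x‖) :
    ∃ F : J → Set E, (∀ j, IsClosed (F j)) ∧ (∀ j, F j ⊆ P j) ∧ S ⊆ ⋃ j, F j ∧
      ∀ j, ∀ ω ∈ F j, ω ∈ closure (TB (μ j) g S) := by
  set Q : J → Set S := fun j => Subtype.val ⁻¹' P j with hQ
  have hQc : ∀ j, IsClosed (Q j) := fun j => (hP j).preimage continuous_subtype_val
  have hcov' : ∀ x : S, ∃ j, x ∈ Q j := fun x => by
    obtain ⟨j, hj⟩ := mem_iUnion.1 (hcov x.2)
    exact ⟨j, hj⟩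
  have h1 : ∀ j, Subtype.val '' interior (Q j) ⊆ P j ∩ TB (μ j) g S := by
    rintro j _ ⟨z, hz, rfl⟩
    have hzQ : z ∈ Q j := interior_subset hz
    have hzP : (z : E) ∈ P j := hzQ
    refine ⟨hzP, z.2, ?_⟩
    have h2 : Q j ∈ 𝓝 z := mem_interior_iff_mem_nhds.1 hz
    rw [nhds_subtype_eq_comap, mem_comap] at h2
    obtain ⟨t, ht, htQ⟩ := h2
    rw [eventually_nhdsWithin_iff]
    filter_upwards [ht] with y hy hyS
    have h3 : (⟨y, hyS⟩ : S) ∈ Q j := htQ hy
    exact hL j _ hzP _ h3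
  refine ⟨fun j => closure (Subtype.val '' interior (Q j)), fun j => isClosed_closure, ?_, ?_, ?_⟩
  · intro j
    exact closure_minimal (fun x hx => (h1 j hx).1) (hP j)
  · intro x hx
    obtain ⟨j, hj⟩ := finite_cover Q hQc hcov' ⟨x, hx⟩
    refine mem_iUnion.2 ⟨j, ?_⟩
    have h2 := image_closure_subset_closure_image (f := (Subtype.val : S → E))
      continuous_subtype_val (s := interior (Q j))
    exact h2 ⟨_, hj, rfl⟩
  · intro j ω hω
    exact closure_mono (fun x hx => (h1 j hx).2) hω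

/-- **hole squeeze with closed Lipschitz pieces** -/
theorem hole_ball_lip {p : ℝ} (hp0 : 0 < p) (hp3 : p < 3) (a : E3) {R r : ℝ}
    (hr0 : 0 < r) (hrR : r ≤ R) {ι : Type} [Fintype ι] (P : ι → Set E3)
    (hPc : ∀ i, IsClosed (P i)) (hd : ∀ i, ∀ x ∈ P i, ∀ y ∈ P i, ‖x - y‖ ≤ r)
    (hcov : sphere a R ⊆ ⋃ i, P i) {μ : ι → ℝ} (hμ : ∀ i, 0 ≤ μ i)
    {G : Type*} [NormedAddCommGroup G] [NormedSpace ℝ G] {g : E3 → G}
    (hg : PLOn g (closedBall a R))
    (hL : ∀ i, ∀ x ∈ P i, ∀ y ∈ P i, ‖g y - g x‖ ≤ μ i * ‖y - x‖)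
    {ε : ℝ} (hε : 0 < ε) :
    ∃ χ : E3 ≃ₜ E3, PLOn χ univ ∧ PLOn χ.symm univ ∧
      (∀ x, x ∉ ball a R → χ x = x) ∧ (∀ x ∈ ball a R, χ x ∈ ball a R) ∧
      EnCov volume p (fun x => g (χ x)) (closedBall a R)
        (ENNReal.ofReal (Chole 3 p * (R * r^2) * ∑ i, μ i ^ p + ε)) := by
  obtain ⟨F, h1, h2, h3, h4⟩ := tb_of_lip hPc hcov hL
  exact hole_ball hp0 hp3 a hr0 hrR F h1 (fun i x hx y hy => hd i x (h2 i hx) y (h2 i hy)) h3 hμ hg
    (fun i ω hω _ => h4 i ω hω) hε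

end Crest.Agent.R096.Nh_273
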