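import Crest.Agent.R096.Nh2_273
import Crest.Agent.R096.Ea1_713
import Crest.Agent.R096.Ea4_273
import Crest.Agent.R096.Msh5_715

/-!
Row 96 (S0127), helper273.  NO0-N6 (477 #10028), part 3: hole squeeze + ring average for the tiles of
an ARBITRARY tiling in `E3`; locally finite family of macro cubes.
-/

set_option autoImplicit false
set_option linter.unusedSectionVars false
set_option linter.style.longLine false

open Set Metric Topology Filter MeasureTheory
open scoped ENNReal NNReal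

namespace Crest.Agent.R096.Nh_273

open Crest.Agent.R096.Ce_537
open Crest.Agent.R096.Msh_715
open Crest.Agent.R96.Hole_348
open Crest.Agent.R096.Ea_273 (LFam prodH)

/-- the ring `J h ≤ |x - a| ≤ 2 J h` -/
def ring (a : E3) (h : ℝ) (J : ℕ) : Set E3 := {x | J * h ≤ ‖x - a‖ ∧ ‖x - a‖ ≤ 2 * J * h}

/-- **HOLE SQUEEZE + RING AVERAGE**: closed pieces of diameter `≤ h` covering the ring, `g`
`μ k`-Lipschitz on them. -/
theorem hole_ring {p : ℝ} (hp0 : 0 < p) (hp3 : p < 3) (a : E3) {h : ℝ} (hh : 0 < h) {J : ℕ}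
    (hJ : 1 ≤ J) {κ : Type} [Fintype κ] (P : κ → Set E3) (hPc : ∀ k, IsClosed (P k))
    (hd : ∀ k, ∀ x ∈ P k, ∀ y ∈ P k, ‖x - y‖ ≤ h) (hcov : ring a h J ⊆ ⋃ k, P k)
    {μ : κ → ℝ} (hμ : ∀ k, 0 ≤ μ k) {G : Type*} [NormedAddCommGroup G] [NormedSpace ℝ G]
    {g : E3 → G} (hg : PLOn g (closedBall a (2 * J * h)))
    (hL : ∀ k, ∀ x ∈ P k, ∀ y ∈ P k, ‖g y - g x‖ ≤ μ k * ‖y - x‖) {ε : ℝ} (hε : 0 < ε) :
    ∃ R : ℝ, J * h ≤ R ∧ R ≤ 2 * J * h ∧ ∃ χ : E3 ≃ₜ E3, PLOn χ univ ∧ PLOn χ.symm univ ∧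
      (∀ x, x ∉ ball a R → χ x = x) ∧ (∀ x ∈ ball a R, χ x ∈ ball a R) ∧
      EnCov volume p (fun x => g (χ x)) (closedBall a R)
        (ENNReal.ofReal (4 * Chole 3 p * (h^3 * ∑ k, μ k ^ p) + ε)) := by
  classical
  have hJ0 : (0:ℝ) < J := by exact_mod_cast hJ
  -- the pieces meeting the sphere of radius `j h`
  set K : ℕ → Finset κ := fun j => Finset.univ.filter fun k => (P k ∩ sphere a (j * h)).Nonempty
    with hK
  have hw : ∀ k, 0 ≤ μ k ^ p := fun k => Real.rpow_nonneg (hμ k) p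
  -- every piece meets at most two spheres
  have htwo : ∀ k : κ, (((Finset.Icc J (2 * J)).filter fun j => k ∈ K j).card : ℝ) ≤ 2 := by
    intro k
    by_cases he : ((Finset.Icc J (2 * J)).filter fun j => k ∈ K j).Nonempty
    · obtain ⟨j0, hj0, hmin⟩ := Finset.exists_min_image _ (fun j => j) he
      have hsub : (Finset.Icc J (2 * J)).filter (fun j => k ∈ K j) ⊆ {j0, j0 + 1} := by
        intro j hj
        have h1 := hmin j hj
        have h2 := (Finset.mem_filter.1 ((Finset.mem_filter.1 hj).2)).2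
        have h3 := (Finset.mem_filter.1 ((Finset.mem_filter.1 hj0).2)).2
        obtain ⟨x, hx, hxs⟩ := h2
        obtain ⟨y, hy, hys⟩ := h3
        rw [mem_sphere_iff_norm] at hxs hys
        have h4 := hd k x hx y hy
        have h5 : ‖x - a‖ - ‖y - a‖ ≤ ‖x - y‖ := by
          have := norm_sub_norm_le (x - a) (y - a)
          rwa [sub_sub_sub_cancel_right] at this
        rw [hxs, hys] at h5
        have h6 : ((j : ℝ) - j0) * h ≤ 1 * h := by linarith
        have h7 : (j : ℝ) - j0 ≤ 1 := le_of_mul_le_mul_right h6 hh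
        have h8 : j ≤ j0 + 1 := by
          have : (j : ℝ) ≤ ((j0 + 1 : ℕ) : ℝ) := by push_cast; linarith
          exact_mod_cast this
        rw [Finset.mem_insert, Finset.mem_singleton]
        have h9 : j0 ≤ j := h1
        omega
      have := (Finset.card_le_card hsub).trans Finset.card_le_two
      exact_mod_cast this
    · rw [Finset.not_nonempty_iff_eq_empty] at he
      rw [he]; norm_num
  have hsum : ∑ j ∈ Finset.Icc J (2 * J), ∑ k ∈ K j, μ k ^ p ≤ 2 * ∑ k, μ k ^ p := by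
    calc ∑ j ∈ Finset.Icc J (2 * J), ∑ k ∈ K j, μ k ^ p
        = ∑ j ∈ Finset.Icc J (2 * J), ∑ k, if k ∈ K j then μ k ^ p else 0 := by
          refine Finset.sum_congr rfl fun j _ => ?_
          rw [← Finset.sum_filter]
          congr 1
          ext k
          simp
      _ = ∑ k, ∑ j ∈ Finset.Icc J (2 * J), if k ∈ K j then μ k ^ p else 0 := Finset.sum_comm
      _ = ∑ k, (((Finset.Icc J (2 * J)).filter fun j => k ∈ K j).card : ℝ) * μ k ^ p := by
          refine Finset.sum_congr rfl fun k _ => ?_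
          rw [← Finset.sum_filter, Finset.sum_const, nsmul_eq_mul]
      _ ≤ ∑ k, 2 * μ k ^ p := Finset.sum_le_sum fun k _ =>
          mul_le_mul_of_nonneg_right (htwo k) (hw k)
      _ = 2 * ∑ k, μ k ^ p := by rw [Finset.mul_sum]
  obtain ⟨j, hj, hjs⟩ : ∃ j ∈ Finset.Icc J (2 * J),
      (J + 1 : ℝ) * ∑ k ∈ K j, μ k ^ p ≤ 2 * ∑ k, μ k ^ p := by
    by_contra hcon
    push Not at hcon
    have h1 : ∑ _j ∈ Finset.Icc J (2 * J), (2 * ∑ k, μ k ^ p) <
        ∑ j ∈ Finset.Icc J (2 * J), (J + 1 : ℝ) * ∑ k ∈ K j, μ k ^ p :=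
      Finset.sum_lt_sum_of_nonempty ⟨J, Finset.mem_Icc.2 ⟨le_rfl, by omega⟩⟩ hcon
    rw [Finset.sum_const, Nat.card_Icc, nsmul_eq_mul, ← Finset.mul_sum] at h1
    have h2 : ((2 * J + 1 - J : ℕ) : ℝ) = J + 1 := by
      have : 2 * J + 1 - J = J + 1 := by omega
      rw [this]; push_cast; ring
    rw [h2] at h1
    have h3 := lt_of_mul_lt_mul_left h1 (by positivity)
    linarith
  obtain ⟨hj1, hj2⟩ := Finset.mem_Icc.1 hj
  have hj1' : (J : ℝ) ≤ j := by exact_mod_cast hj1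
  have hj2' : (j : ℝ) ≤ 2 * J := by exact_mod_cast hj2
  have hR1 : (J : ℝ) * h ≤ j * h := mul_le_mul_of_nonneg_right hj1' hh.le
  have hR2 : (j : ℝ) * h ≤ 2 * J * h := mul_le_mul_of_nonneg_right hj2' hh.le
  have hrR : h ≤ j * h := by
    have : (1:ℝ) ≤ j := by exact_mod_cast hJ.trans hj1
    nlinarith
  obtain ⟨χ, h1, h2, h3, h4, h5⟩ := hole_ball_lip hp0 hp3 a (R := j * h) (r := h) hh hrR
    (ι := {k // k ∈ K j}) (fun k => P k.1) (fun k => hPc k.1) (fun k => hd k.1) (by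
      intro x hx
      have hx' : ‖x - a‖ = j * h := by rwa [mem_sphere_iff_norm] at hx
      obtain ⟨k, hk⟩ := mem_iUnion.1 (hcov (show x ∈ ring a h J from ⟨by rw [hx']; exact hR1,
        by rw [hx']; exact hR2⟩))
      exact mem_iUnion.2 ⟨⟨k, Finset.mem_filter.2 ⟨Finset.mem_univ k, x, hk, hx⟩⟩, hk⟩)
    (μ := fun k => μ k.1) (fun k => hμ k.1) (g := g)
    (hg.mono (closedBall_subset_closedBall hR2)) (fun k => hL k.1) hε
  refine ⟨j * h, hR1, hR2, χ, h1, h2, h3, h4, h5.mono ?_⟩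
  apply ENNReal.ofReal_le_ofReal
  have h6 : ∑ k : {k // k ∈ K j}, μ k.1 ^ p = ∑ k ∈ K j, μ k ^ p :=
    Finset.sum_coe_sort (K j) (fun k => μ k ^ p)
  rw [h6]
  have hC := Chole_nonneg (n := 3) (p := p) (by exact_mod_cast hp3)
  set s := ∑ k ∈ K j, μ k ^ p with hs
  have hs0 : 0 ≤ s := Finset.sum_nonneg fun k _ => hw k
  set t := ∑ k, μ k ^ p with ht
  have h7 : (j : ℝ) * s ≤ 4 * t := by
    calc (j : ℝ) * s ≤ 2 * J * s := mul_le_mul_of_nonneg_right hj2' hs0
      _ ≤ 2 * ((J + 1) * s) := by nlinarith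
      _ ≤ 2 * (2 * t) := by linarith
      _ = 4 * t := by ring
  have h8 : Chole 3 p * (j * h * h^2) * s ≤ 4 * Chole 3 p * (h^3 * t) := by
    calc Chole 3 p * (j * h * h^2) * s = Chole 3 p * h^3 * (j * s) := by ring
      _ ≤ Chole 3 p * h^3 * (4 * t) := mul_le_mul_of_nonneg_left h7 (by positivity)
      _ = _ := by ring
  linarith

section tiling

variable {Om : Set E3} {ι : Type}

/-- the tiles which meet the ring -/
def Rg (T : Tiling Om ι) (a : E3) (h : ℝ) (J : ℕ) : Set ι := {i | (P (T.H i) ∩ ring a h J).Nonempty}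

/-- a macro ring of the tiling: the tiles which meet it have diameter `≤ h` and volume `≥ κ h³` -/
structure RingOK (T : Tiling Om ι) (κv : ℝ) (a : E3) (h : ℝ) (J : ℕ) : Prop where
  hh : 0 < h
  hJ : 1 ≤ J
  sub : closedBall a (2 * J * h) ⊆ Om
  diam : ∀ i ∈ Rg T a h J, ∀ x ∈ P (T.H i), ∀ y ∈ P (T.H i), ‖x - y‖ ≤ h
  vol : ∀ i ∈ Rg T a h J, ENNReal.ofReal (κv * h^3) ≤ volume (P (T.H i))

theorem ring_closed (a : E3) (h : ℝ) (J : ℕ) : IsClosed (ring a h J) := by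
  have h1 : Continuous fun x : E3 => ‖x - a‖ := by fun_prop
  exact (isClosed_le continuous_const h1).inter (isClosed_le h1 continuous_const)

theorem ring_sub (a : E3) (h : ℝ) (J : ℕ) : ring a h J ⊆ closedBall a (2 * J * h) := by
  intro x hx
  rw [mem_closedBall_iff_norm]
  exact hx.2

theorem ring_compact (a : E3) (h : ℝ) (J : ℕ) : IsCompact (ring a h J) :=
  (isCompact_closedBall a (2 * J * h)).of_isClosed_subset (ring_closed a h J) (ring_sub a h J)

theorem Rg_finite (T : Tiling Om ι) {a : E3} {h : ℝ} {J : ℕ}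
    (hsub : closedBall a (2 * J * h) ⊆ Om) : (Rg T a h J).Finite :=
  T.finite_tiles (ring_compact a h J) ((ring_sub a h J).trans hsub)

theorem locPL_conv {F : Type*} [NormedAddCommGroup F] [NormedSpace ℝ F] {g : E3 → F}
    (hg : Str_696.LocPL g Om) : Ce_537.LocPL g Om := by
  intro x hx
  obtain ⟨r, hr, S, hc, hs⟩ := hg x hx
  exact ⟨r, hr, hc, S, hs⟩

theorem locPL_cont {F : Type*} [NormedAddCommGroup F] [NormedSpace ℝ F] {g : E3 → F}
    (hg : Str_696.LocPL g Om) : ContinuousOn g Om := by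
  intro x hx
  obtain ⟨r, hr, S, hc, hs⟩ := hg x hx
  exact (hc.continuousAt (ball_mem_nhds x hr)).continuousWithinAt

/-- **one macro ring**: squeeze and energy on the whole ball `|x - a| ≤ 2 J h`. -/
theorem tiny_one {p : ℝ} (hp0 : 0 < p) (hp3 : p < 3) (T : Tiling Om ι) {κv : ℝ} (hκ : 0 < κv)
    {a : E3} {h : ℝ} {J : ℕ} (H : RingOK T κv a h J) {F : Type*} [NormedAddCommGroup F]
    [NormedSpace ℝ F] {g : E3 → F} (hg : Str_696.LocPL g Om) {M : ι → ℝ}
    (hM0 : ∀ i ∈ Rg T a h J, 0 ≤ M i)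
    (hM : ∀ i ∈ Rg T a h J, ∀ x ∈ I (T.H i), LLV (M i) g x) {ε : ℝ≥0∞} (hε : ε ≠ 0) :
    ∃ χ : E3 ≃ₜ E3, PLOn χ univ ∧ PLOn χ.symm univ ∧
      (∀ x, x ∉ closedBall a (2 * J * h) → χ x = x) ∧
      (∀ x ∈ closedBall a (2 * J * h), χ x ∈ closedBall a (2 * J * h)) ∧
      ∫⁻ x in closedBall a (2 * J * h), ‖fderiv ℝ (fun y => g (χ y)) x‖ₑ ^ p ≤
        ENNReal.ofReal (4 * Chole 3 p / κv + 1) *
          (∑' i : Rg T a h J, ENNReal.ofReal (M i ^ p) * volume (P (T.H i.1))) + ε := by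
  classical
  obtain ⟨ε', hε'0, hε'⟩ : ∃ ε' : ℝ, 0 < ε' ∧ ENNReal.ofReal ε' ≤ ε := by
    rcases eq_or_ne ε ∞ with rfl | hne
    · exact ⟨1, one_pos, le_top⟩
    · exact ⟨ε.toReal, ENNReal.toReal_pos hε hne, ENNReal.ofReal_toReal_le⟩
  have hfin := Rg_finite T H.sub
  have : Fintype (Rg T a h J) := hfin.fintype
  have hcont := locPL_cont hg
  obtain ⟨R, hR1, hR2, χ, h1, h2, h3, h4, h5⟩ := hole_ring hp0 hp3 a H.hh H.hJ
    (κ := Rg T a h J) (fun i => P (T.H i.1)) (fun i => isClosed_P _)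
    (fun i => H.diam i.1 i.2) (by
      intro x hx
      obtain ⟨i, hi⟩ := T.cov x (H.sub (ring_sub a h J hx))
      exact mem_iUnion.2 ⟨⟨i, x, hi, hx⟩, hi⟩)
    (μ := fun i => M i.1) (fun i => hM0 i.1 i.2) (g := g)
    (Msh_715.LocPL.plOn (locPL_conv hg) (isCompact_closedBall a _) H.sub)
    (fun i x hx y hy => Ea_713.lip_tile (T.ne i.1) (hM i.1 i.2)
      (hcont.mono (T.sub i.1)) hx hy) hε'0
  have hRpos : 0 < R := by
    have : (0:ℝ) < J := by exact_mod_cast H.hJ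
    have := H.hh
    exact lt_of_lt_of_le (by positivity) hR1
  have hbR : ball a R ⊆ closedBall a (2 * J * h) :=
    ball_subset_closedBall.trans (closedBall_subset_closedBall hR2)
  refine ⟨χ, h1, h2, fun x hx => h3 x fun h => hx (hbR h), ?_, ?_⟩
  · intro x hx
    by_cases hxR : x ∈ ball a R
    · exact hbR (h4 x hxR)
    · rw [h3 x hxR]; exact hx
  -- the sum
  set A : ℝ≥0∞ := ∑' i : Rg T a h J, ENNReal.ofReal (M i ^ p) * volume (P (T.H i.1)) with hA
  have hC := Chole_nonneg (n := 3) (p := p) (by exact_mod_cast hp3)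
  have hin : ∫⁻ x in closedBall a R, ‖fderiv ℝ (fun y => g (χ y)) x‖ₑ ^ p ≤
      ENNReal.ofReal (4 * Chole 3 p / κv) * A + ε := by
    refine (EnCov.fderiv_le hp0 h5).trans ?_
    have hs0 : 0 ≤ ∑ k : Rg T a h J, M k.1 ^ p :=
      Finset.sum_nonneg fun k _ => Real.rpow_nonneg (hM0 k.1 k.2) p
    have hh := H.hh
    rw [ENNReal.ofReal_add (by positivity) hε'0.le]
    refine add_le_add ?_ hε'
    have e1 : ENNReal.ofReal (4 * Chole 3 p * (h^3 * ∑ k : Rg T a h J, M k.1 ^ p)) =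
        ENNReal.ofReal (4 * Chole 3 p / κv) *
          ∑ k : Rg T a h J, ENNReal.ofReal (M k.1 ^ p) * ENNReal.ofReal (κv * h^3) := by
      rw [← Finset.sum_mul, ← ENNReal.ofReal_sum_of_nonneg
        (fun k _ => Real.rpow_nonneg (hM0 k.1 k.2) p), ← ENNReal.ofReal_mul hs0,
        ← ENNReal.ofReal_mul (by positivity)]
      congr 1
      field_simp
    rw [e1, hA, tsum_fintype]
    refine mul_le_mul' le_rfl (Finset.sum_le_sum fun k _ => mul_le_mul' le_rfl ?_)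
    exact H.vol k.1 k.2
  have hout : ∫⁻ x in closedBall a (2 * J * h) \ closedBall a R,
      ‖fderiv ℝ (fun y => g (χ y)) x‖ₑ ^ p ≤ A := by
    have e0 : ∀ x ∈ closedBall a (2 * J * h) \ closedBall a R,
        ‖fderiv ℝ (fun y => g (χ y)) x‖ₑ ^ p = ‖fderiv ℝ g x‖ₑ ^ p := by
      rintro x ⟨-, hx⟩
      have h6 : (fun y => g (χ y)) =ᶠ[𝓝 x] g := by
        filter_upwards [isClosed_closedBall.isOpen_compl.mem_nhds hx] with y hy
        rw [h3 y fun h => hy (ball_subset_closedBall h)]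
      rw [h6.fderiv_eq]
    have hmeas : MeasurableSet (closedBall a (2 * J * h) \ closedBall a R) :=
      isClosed_closedBall.measurableSet.diff isClosed_closedBall.measurableSet
    rw [setLIntegral_congr_fun hmeas e0]
    have hsub : closedBall a (2 * J * h) \ closedBall a R ⊆ ⋃ i ∈ Rg T a h J, P (T.H i) := by
      rintro x ⟨hx1, hx2⟩
      obtain ⟨i, hi⟩ := T.cov x (H.sub hx1)
      refine mem_iUnion₂.2 ⟨i, ⟨x, hi, ?_, ?_⟩, hi⟩
      · rw [mem_closedBall_iff_norm, not_le] at hx2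
        exact hR1.trans hx2.le
      · rwa [mem_closedBall_iff_norm] at hx1
    refine (lintegral_mono_set hsub).trans ?_
    exact Ea_713.lint_tiles volume T (Rg T a h J) (w := fun x => ‖fderiv ℝ g x‖ₑ ^ p)
      (c := fun i => ENNReal.ofReal (M i ^ p))
      fun i hi x hx => Ea_713.enorm_fderiv_rpow_le (hM0 i hi) hp0.le (hM i hi x hx)
  calc ∫⁻ x in closedBall a (2 * J * h), ‖fderiv ℝ (fun y => g (χ y)) x‖ₑ ^ p
      ≤ ∫⁻ x in closedBall a R ∪ (closedBall a (2 * J * h) \ closedBall a R),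
          ‖fderiv ℝ (fun y => g (χ y)) x‖ₑ ^ p := by
        refine lintegral_mono_set ?_
        intro x hx
        by_cases hxR : x ∈ closedBall a R
        · exact Or.inl hxR
        · exact Or.inr ⟨hx, hxR⟩
    _ ≤ (ENNReal.ofReal (4 * Chole 3 p / κv) * A + ε) + A :=
        (lintegral_union_le _ _ _).trans (add_le_add hin hout)
    _ = ENNReal.ofReal (4 * Chole 3 p / κv + 1) * A + ε := by
        rw [ENNReal.ofReal_add (by positivity) zero_le_one, ENNReal.ofReal_one, add_mul, one_mul]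
        ring

/-- **(N6) locally finite family of macro cubes**: `g` is replaced by `g' = g ∘ χ`; everything off
the cubes is unchanged, the energy on the cube `c` is bounded by the tile bounds in its ring. -/
theorem tiny_family {p : ℝ} (hp0 : 0 < p) (hp3 : p < 3) (T : Tiling Om ι) {κv : ℝ} (hκ : 0 < κv)
    {C : Type*} [Countable C] {a : C → E3} {h : C → ℝ} {J : C → ℕ}
    (H : ∀ c, RingOK T κv (a c) (h c) (J c))
    (hK : LFam Om fun c => closedBall (a c) (2 * J c * h c)) {F : Type*} [NormedAddCommGroup F]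
    [NormedSpace ℝ F] {La : Set F} {g : E3 → F} (hg : Str_696.LocPL g Om)
    (hh : ∃ gi : F → E3, MapsTo g Om La ∧ MapsTo gi La Om ∧ (∀ x ∈ Om, gi (g x) = x) ∧
      (∀ y ∈ La, g (gi y) = y) ∧ ContinuousOn g Om ∧ ContinuousOn gi La) {M : ι → ℝ}
    (hM0 : ∀ c, ∀ i ∈ Rg T (a c) (h c) (J c), 0 ≤ M i)
    (hM : ∀ c, ∀ i ∈ Rg T (a c) (h c) (J c), ∀ x ∈ I (T.H i), LLV (M i) g x)
    {ε : C → ℝ≥0∞} (hε : ∀ c, ε c ≠ 0) :
    ∃ g' : E3 → F, Str_696.LocPL g' Om ∧
      (∃ gi : F → E3, MapsTo g' Om La ∧ MapsTo gi La Om ∧ (∀ x ∈ Om, gi (g' x) = x) ∧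
        (∀ y ∈ La, g' (gi y) = y) ∧ ContinuousOn g' Om ∧ ContinuousOn gi La) ∧
      (∀ x, (∀ c, x ∉ closedBall (a c) (2 * J c * h c)) → g' x = g x) ∧
      (∀ x ∈ Om, (∀ c, x ∉ closedBall (a c) (2 * J c * h c)) → g' =ᶠ[𝓝 x] g) ∧
      (∀ c, ∀ x ∈ closedBall (a c) (2 * J c * h c),
        ∃ x' ∈ closedBall (a c) (2 * J c * h c), g' x = g x') ∧
      (∀ c, ∫⁻ x in closedBall (a c) (2 * J c * h c), ‖fderiv ℝ g' x‖ₑ ^ p ≤
        ENNReal.ofReal (4 * Chole 3 p / κv + 1) *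
          (∑' i : Rg T (a c) (h c) (J c), ENNReal.ofReal (M i ^ p) * volume (P (T.H i.1)))
            + ε c) ∧
      ∀ S : Set E3, MeasurableSet S → S ⊆ Om → ∫⁻ x in S, ‖fderiv ℝ g' x‖ₑ ^ p ≤
        (∫⁻ x in S \ ⋃ c, closedBall (a c) (2 * J c * h c), ‖fderiv ℝ g x‖ₑ ^ p) +
          ∑' c : {c // (closedBall (a c) (2 * J c * h c) ∩ S).Nonempty},
            ∫⁻ x in closedBall (a c.1) (2 * J c.1 * h c.1), ‖fderiv ℝ g' x‖ₑ ^ p := by
  have h1 := fun c => tiny_one hp0 hp3 T hκ (H c) hg (hM0 c) (hM c) (hε c)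
  choose χ hp1 hp2 hoff hmap hen using h1
  set K : C → Set E3 := fun c => closedBall (a c) (2 * J c * h c) with hKdef
  refine ⟨fun x => g (prodH K χ x), hK.locPL_comp hoff hp1 hg, hK.homeo hoff hh, ?_, ?_, ?_, ?_, ?_⟩
  · intro x hx
    show g (prodH K χ x) = g x
    rw [Ea_273.prodH_off hx]
  · intro x hx hx'
    exact hK.comp_near_off g hx hx'
  · intro c x hx
    refine ⟨χ c x, hmap c x hx, ?_⟩
    show g (prodH K χ x) = g (χ c x)
    rw [hK.prodH_on hx]
  · intro c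
    have e : ∫⁻ x in K c, ‖fderiv ℝ (fun y => g (prodH K χ y)) x‖ₑ ^ p =
        ∫⁻ x in K c, ‖fderiv ℝ (fun y => g (χ c y)) x‖ₑ ^ p := by
      refine setLIntegral_congr_fun isClosed_closedBall.measurableSet fun x hx => ?_
      show ‖fderiv ℝ (fun y => g (prodH K χ y)) x‖ₑ ^ p = _
      rw [(hK.comp_near_on hoff g hx).fderiv_eq]
    show ∫⁻ x in K c, ‖fderiv ℝ (fun y => g (prodH K χ y)) x‖ₑ ^ p ≤ _
    rw [e]
    exact hen c
  · intro S hS hSO
    have hsub : S ⊆ (S \ ⋃ c, K c) ∪ ⋃ c : {c // (K c ∩ S).Nonempty}, K c.1 := by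
      intro x hx
      by_cases hx' : x ∈ ⋃ c, K c
      · obtain ⟨c, hc⟩ := mem_iUnion.1 hx'
        exact Or.inr (mem_iUnion.2 ⟨⟨c, x, hc, hx⟩, hc⟩)
      · exact Or.inl ⟨hx, hx'⟩
    refine (lintegral_mono_set hsub).trans ((lintegral_union_le _ _ _).trans ?_)
    refine add_le_add ?_ (lintegral_iUnion_le _ _)
    have hU : MeasurableSet (⋃ c, K c) :=
      MeasurableSet.iUnion fun c => isClosed_closedBall.measurableSet
    refine le_of_eq (setLIntegral_congr_fun (hS.diff hU) fun x hx => ?_)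
    show ‖fderiv ℝ (fun y => g (prodH K χ y)) x‖ₑ ^ p = _
    rw [(hK.comp_near_off g (hSO hx.1) fun c hc => hx.2 (mem_iUnion.2 ⟨c, hc⟩)).fderiv_eq]

end tiling

end Crest.Agent.R096.Nh_273
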