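import Crest.Agent.R096.Acc1_365
import Crest.Agent.R096.Br5_695

/-!
Row 96 (S0127), helper29.  R3 (`EA0 p → PreIN p → BFk p`), leaves [VNK] and [NEAR-G] of 695 #11696.
-/

set_option autoImplicit false
set_option linter.unusedSectionVars false
set_option linter.style.longLine false

open MeasureTheory Set Filter Metric Module
open scoped ENNReal NNReal Topology

namespace Crest.Agent.R096.Nkg_29

open Crest.AnalysisR.VecCalc3 Crest.AnalysisR.Sobolev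
open Crest.Agent.R96.Lu_538 Crest.Agent.R96.Intr_538
open Crest.Agent.R96.Coarse_538 hiding E3
open Crest.Agent.R096.Bsp_628
open Crest.Agent.R096.Bxs_627 hiding E3
open Crest.Agent.R96.En10_199
open Crest.Agent.R096.SkC1_961 (E3 Hom3)
open Crest.Agent.R096.Er_594 (e3 D3 lint_P3 vol_P3)
open Crest.Agent.R096.EaX_766 (cbx lin Kor)
open Crest.Agent.R096.Fil_313 (cel_preimage)
open Crest.Agent.R096.Br_695 (tsum_cells sum_cel_le cbx_mono)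
open Crest.Agent.R096.Acc_365 (K1 volume_K1 measurableSet_K1)

noncomputable section

/-- **[VNK]** -/
theorem vol_NK {c : Bx (Fin 3)} (hc : c.Pos) (A : E3 ≃ᵃ[ℝ] E3) {lam : ℝ} (h0 : 1 / 4 ≤ lam)
    (h1 : lam ≤ 1) {T : Set E3} (hT : T ⊆ A ⁻¹' cbx c ((1 + lam) / 2)) :
    volume (T \ A ⁻¹' cbx c lam) ≤ ENNReal.ofReal (96 * (1 - lam)) * volume (A ⁻¹' cbx c lam) := by
  have hl0 : 0 ≤ lam := by linarith
  have hl' : 0 ≤ (1 + lam) / 2 := by linarith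
  have hsub : K1 A c lam ⊆ K1 A c ((1 + lam) / 2) :=
    preimage_mono (cbx_mono hc (by linarith))
  have hP : 0 ≤ ∏ k, c.side k := Finset.prod_nonneg fun k _ => (Bx.side_pos hc k).le
  have hprod : ∀ l : ℝ, ∏ k, (l * c.side k) = l ^ 3 * ∏ k, c.side k := by
    intro l; rw [Finset.prod_mul_distrib]; simp
  have hd : 0 ≤ |(lin A).det|⁻¹ := by positivity
  calc volume (T \ A ⁻¹' cbx c lam) ≤ volume (K1 A c ((1 + lam) / 2) \ K1 A c lam) :=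
        measure_mono (sdiff_subset_sdiff_left hT)
    _ = volume (K1 A c ((1 + lam) / 2)) - volume (K1 A c lam) :=
        measure_sdiff hsub (measurableSet_K1 A c lam).nullMeasurableSet
          (by rw [volume_K1 hc hl0]; exact ENNReal.ofReal_ne_top)
    _ ≤ ENNReal.ofReal (96 * (1 - lam)) * volume (K1 A c lam) := by
        rw [volume_K1 hc hl0, volume_K1 hc hl', ← ENNReal.ofReal_sub _ (by
          apply mul_nonneg hd
          rw [hprod]; positivity), ← ENNReal.ofReal_mul (by linarith)]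
        apply ENNReal.ofReal_le_ofReal
        rw [hprod, hprod]
        have h2 : ((1 + lam) / 2) ^ 3 - lam ^ 3 ≤ 96 * (1 - lam) * lam ^ 3 := by
          have h3 : (1 / 4 : ℝ) ^ 3 ≤ lam ^ 3 := pow_le_pow_left₀ (by norm_num) h0 3
          have h4 : ((1 + lam) / 2) ^ 3 - lam ^ 3 =
              (1 - lam) / 2 * (((1 + lam) / 2) ^ 2 + (1 + lam) / 2 * lam + lam ^ 2) := by ring
          have h5 : ((1 + lam) / 2) ^ 2 + (1 + lam) / 2 * lam + lam ^ 2 ≤ 3 := by nlinarith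
          rw [h4]
          have h6 : (1 - lam) / 2 * (((1 + lam) / 2) ^ 2 + (1 + lam) / 2 * lam + lam ^ 2) ≤
              (1 - lam) / 2 * 3 := mul_le_mul_of_nonneg_left h5 (by linarith)
          have h7 : 96 * (1 - lam) * (1 / 4 : ℝ) ^ 3 ≤ 96 * (1 - lam) * lam ^ 3 :=
            mul_le_mul_of_nonneg_left h3 (by linarith)
          norm_num at h7
          linarith
        have h8 : |(lin A).det|⁻¹ * (∏ k, c.side k) * (((1 + lam) / 2) ^ 3 - lam ^ 3) ≤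
            |(lin A).det|⁻¹ * (∏ k, c.side k) * (96 * (1 - lam) * lam ^ 3) :=
          mul_le_mul_of_nonneg_left h2 (mul_nonneg hd hP)
        calc _ = |(lin A).det|⁻¹ * (∏ k, c.side k) * (((1 + lam) / 2) ^ 3 - lam ^ 3) := by ring
          _ ≤ _ := h8
          _ = _ := by ring

/-- pointwise: the matrix of the weak gradients against a nearby affine map -/
theorem pt_le {p : ℝ} (hp : 1 ≤ p) (G : Fin 3 → R3 → R3) {L : R3 →L[ℝ] R3} {A : E3 ≃ᵃ[ℝ] E3}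
    {kl : ℝ} (hkl : 0 ≤ kl) (h : ∀ v, ‖lin A v - P3.symm (L (P3 v))‖ ≤ kl * ‖v‖) (x : E3) :
    ‖D3 G x - lin A‖ₑ ^ p ≤
      2 ^ (p - 1) * (2 ^ p * ‖Gmat G (P3 x) - L‖ₑ ^ p + ENNReal.ofReal (kl ^ p)) := by
  have hp0 : 0 ≤ p := by linarith
  set B : E3 →L[ℝ] E3 := (P3.symm : R3 →L[ℝ] E3).comp (L.comp (P3 : E3 →L[ℝ] R3)) with hB
  have hBa : ∀ w, B w = P3.symm (L (P3 w)) := fun w => rfl
  have h1 : ‖D3 G x - B‖ ≤ 2 * ‖Gmat G (P3 x) - L‖ := by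
    refine ContinuousLinearMap.opNorm_le_bound _ (by positivity) fun w => ?_
    have h2 : (D3 G x - B) w = P3.symm ((Gmat G (P3 x) - L) (P3 w)) := by
      rw [sub_apply, hBa, sub_apply, map_sub]
      rfl
    rw [h2]
    calc _ ≤ ‖(Gmat G (P3 x) - L) (P3 w)‖ := Crest.Agent.R096.Er_594.norm_P3_symm_le _
      _ ≤ ‖Gmat G (P3 x) - L‖ * ‖P3 w‖ := ContinuousLinearMap.le_opNorm _ _
      _ ≤ ‖Gmat G (P3 x) - L‖ * (2 * ‖w‖) := by
          gcongr; exact Crest.Agent.R096.Er_594.norm_P3_le w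
      _ = 2 * ‖Gmat G (P3 x) - L‖ * ‖w‖ := by ring
  have h1' : ‖lin A - B‖ ≤ kl :=
    ContinuousLinearMap.opNorm_le_bound _ hkl fun w => by rw [sub_apply, hBa]; exact h w
  have h3 : ‖D3 G x - lin A‖ₑ ≤ ‖D3 G x - B‖ₑ + ‖lin A - B‖ₑ := by
    have : D3 G x - lin A = (D3 G x - B) - (lin A - B) := by abel
    rw [this]
    exact enorm_sub_le
  have h4 : ‖D3 G x - B‖ₑ ≤ 2 * ‖Gmat G (P3 x) - L‖ₑ := by
    rw [← ofReal_norm, ← ofReal_norm]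
    refine (ENNReal.ofReal_le_ofReal h1).trans (le_of_eq ?_)
    rw [ENNReal.ofReal_mul (by norm_num)]
    norm_num
  have h5 : ‖lin A - B‖ₑ ^ p ≤ ENNReal.ofReal (kl ^ p) := by
    rw [← ofReal_norm, ENNReal.ofReal_rpow_of_nonneg (norm_nonneg _) hp0]
    exact ENNReal.ofReal_le_ofReal (Real.rpow_le_rpow (norm_nonneg _) h1' hp0)
  calc ‖D3 G x - lin A‖ₑ ^ p ≤ (‖D3 G x - B‖ₑ + ‖lin A - B‖ₑ) ^ p := ENNReal.rpow_le_rpow h3 hp0
    _ ≤ 2 ^ (p - 1) * (‖D3 G x - B‖ₑ ^ p + ‖lin A - B‖ₑ ^ p) :=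
        ENNReal.rpow_add_le_mul_rpow_add_rpow _ _ hp
    _ ≤ 2 ^ (p - 1) * ((2 * ‖Gmat G (P3 x) - L‖ₑ) ^ p + ENNReal.ofReal (kl ^ p)) := by gcongr
    _ = _ := by rw [ENNReal.mul_rpow_of_nonneg _ _ hp0]

/-- **[NEAR-G]**, for a countable family -/
theorem near_G' {p : ℝ} (hp : 1 ≤ p) {ι : Type*} [Countable ι] {K : ι → Set E3}
    {A : ι → E3 ≃ᵃ[ℝ] E3} {kk : ι → Fin 3 → ℤ} {Q₀ : Finset (Fin 3 → ℤ)}
    {L : (Fin 3 → ℤ) → R3 →L[ℝ] R3} {Om : Set R3} {G : Fin 3 → R3 → R3} {s : ℝ} (hs : 0 < s)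
    {a₀ : R3} {kl e1 V : ℝ} (hkl : 0 ≤ kl) (he1 : 0 ≤ e1) (hV0 : 0 ≤ V)
    (hKm : ∀ c, MeasurableSet (K c)) (hKd : Pairwise (Function.onFun Disjoint K))
    (hKs : ∀ c, K c ⊆ closedBall (P3.symm (vt (2 * s) a₀ (kk c))) s) (hkQ : ∀ c, kk c ∈ Q₀)
    (hlin : ∀ c, ∀ v, ‖lin (A c) v - P3.symm (L (kk c) (P3 v))‖ ≤ kl * ‖v‖)
    (hE : (∑ k ∈ Q₀, ∫⁻ x in cel Cb (vt (2 * s) a₀ k) s, ‖Gmat G x - L k‖ₑ ^ p) ≤
      ENNReal.ofReal e1)
    (hOm : ∀ k ∈ Q₀, cel Cb (vt (2 * s) a₀ k) s ⊆ Om) (hV : volume Om ≤ ENNReal.ofReal V) :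
    ∑' c, ∫⁻ x in K c, ‖D3 G x - lin (A c)‖ₑ ^ p ≤
      ENNReal.ofReal (2 ^ (p - 1) * (2 ^ p * e1 + kl ^ p * V)) := by
  have hp0 : 0 ≤ p := by linarith
  have h2p : (2:ℝ≥0∞) ^ p ≠ ∞ := ENNReal.rpow_ne_top_of_nonneg hp0 (by norm_num)
  have h2p1 : (2:ℝ≥0∞) ^ (p - 1) ≠ ∞ :=
    ENNReal.rpow_ne_top_of_nonneg (by linarith) (by norm_num)
  have hI : ∑' c, ∫⁻ x in K c, ‖Gmat G (P3 x) - L (kk c)‖ₑ ^ p ≤ ENNReal.ofReal e1 := by
    refine (tsum_cells hKm hKd (B := fun k => closedBall (P3.symm (vt (2 * s) a₀ k)) s)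
      (fun k => isClosed_closedBall.measurableSet) kk Q₀ hkQ hKs
      (fun k x => ‖Gmat G (P3 x) - L k‖ₑ ^ p)).trans ?_
    refine le_trans (le_of_eq (Finset.sum_congr rfl fun k _ => ?_)) hE
    rw [lint_P3, cel_preimage _ hs]
  have hvolK : ∑' c, volume (K c) ≤ ENNReal.ofReal V := by
    have h1 := tsum_cells (μ := volume) hKm hKd
      (B := fun k => closedBall (P3.symm (vt (2 * s) a₀ k)) s)
      (fun k => isClosed_closedBall.measurableSet) kk Q₀ hkQ hKs (fun _ _ => 1)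
    simp only [lintegral_const, MeasurableSet.univ, Measure.restrict_apply, univ_inter,
      one_mul] at h1
    refine h1.trans (le_trans (le_of_eq (Finset.sum_congr rfl fun k _ => ?_))
      ((sum_cel_le hs a₀ Q₀ hOm).trans hV))
    rw [← cel_preimage _ hs, vol_P3]
  calc ∑' c, ∫⁻ x in K c, ‖D3 G x - lin (A c)‖ₑ ^ p
      ≤ ∑' c, ∫⁻ x in K c,
          2 ^ (p - 1) * (2 ^ p * ‖Gmat G (P3 x) - L (kk c)‖ₑ ^ p + ENNReal.ofReal (kl ^ p)) :=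
        ENNReal.tsum_le_tsum fun c => lintegral_mono fun x => pt_le hp G hkl (hlin c) x
    _ = ∑' c, 2 ^ (p - 1) * (2 ^ p * (∫⁻ x in K c, ‖Gmat G (P3 x) - L (kk c)‖ₑ ^ p) +
          ENNReal.ofReal (kl ^ p) * volume (K c)) := by
        refine tsum_congr fun c => ?_
        rw [lintegral_const_mul' _ _ h2p1, lintegral_add_right _ measurable_const,
          lintegral_const_mul' _ _ h2p, setLIntegral_const]
    _ = 2 ^ (p - 1) * (2 ^ p * (∑' c, ∫⁻ x in K c, ‖Gmat G (P3 x) - L (kk c)‖ₑ ^ p) +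
          ENNReal.ofReal (kl ^ p) * ∑' c, volume (K c)) := by
        rw [ENNReal.tsum_mul_left, ENNReal.tsum_add, ENNReal.tsum_mul_left, ENNReal.tsum_mul_left]
    _ ≤ 2 ^ (p - 1) * (2 ^ p * ENNReal.ofReal e1 + ENNReal.ofReal (kl ^ p) * ENNReal.ofReal V) := by
        gcongr
    _ = ENNReal.ofReal (2 ^ (p - 1) * (2 ^ p * e1 + kl ^ p * V)) := by
        have e1' : (2:ℝ≥0∞) ^ (p - 1) = ENNReal.ofReal (2 ^ (p - 1)) := by
          rw [← ENNReal.ofReal_rpow_of_pos (by norm_num)]; norm_num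
        have e2' : (2:ℝ≥0∞) ^ p = ENNReal.ofReal (2 ^ p) := by
          rw [← ENNReal.ofReal_rpow_of_pos (by norm_num)]; norm_num
        have h0 : 0 ≤ kl ^ p := Real.rpow_nonneg hkl p
        rw [e1', e2', ← ENNReal.ofReal_mul (by positivity), ← ENNReal.ofReal_mul h0,
          ← ENNReal.ofReal_add (by positivity) (by positivity), ← ENNReal.ofReal_mul (by positivity)]

/-- **[NEAR-G]** -/
theorem near_G {p : ℝ} (hp : 1 ≤ p) {F : Set (Bx (Fin 3))} {X : Set F} (hX : X.Countable)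
    {K : F → Set E3} {A : F → E3 ≃ᵃ[ℝ] E3} {kk : F → Fin 3 → ℤ} {Q₀ : Finset (Fin 3 → ℤ)}
    {L : (Fin 3 → ℤ) → R3 →L[ℝ] R3} {Om : Set R3} {G : Fin 3 → R3 → R3} {s : ℝ} (hs : 0 < s)
    {a₀ : R3} {kl e1 V : ℝ} (hkl : 0 ≤ kl) (he1 : 0 ≤ e1) (hV0 : 0 ≤ V)
    (hKm : ∀ c ∈ X, MeasurableSet (K c))
    (hKd : ∀ c ∈ X, ∀ c' ∈ X, c ≠ c' → Disjoint (K c) (K c'))
    (hKs : ∀ c ∈ X, K c ⊆ closedBall (P3.symm (vt (2 * s) a₀ (kk c))) s)
    (hkQ : ∀ c ∈ X, kk c ∈ Q₀)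
    (hlin : ∀ c ∈ X, ∀ v, ‖lin (A c) v - P3.symm (L (kk c) (P3 v))‖ ≤ kl * ‖v‖)
    (hE : (∑ k ∈ Q₀, ∫⁻ x in cel Cb (vt (2 * s) a₀ k) s, ‖Gmat G x - L k‖ₑ ^ p) ≤
      ENNReal.ofReal e1)
    (hOm : ∀ k ∈ Q₀, cel Cb (vt (2 * s) a₀ k) s ⊆ Om) (hV : volume Om ≤ ENNReal.ofReal V) :
    ∑' c : X, ∫⁻ x in K c, ‖D3 G x - lin (A c)‖ₑ ^ p ≤
      ENNReal.ofReal (2 ^ (p - 1) * (2 ^ p * e1 + kl ^ p * V)) := by
  have : Countable X := hX.to_subtype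
  exact near_G' hp (ι := X) (K := fun c => K c) (A := fun c => A c) (kk := fun c => kk c) hs hkl he1
    hV0 (fun c => hKm c c.2)
    (fun c c' hne => hKd c c.2 c' c'.2 (fun h => hne (Subtype.ext h)))
    (fun c => hKs c c.2) (fun c => hkQ c c.2) (fun c => hlin c c.2) hE hOm hV

end

end Crest.Agent.R096.Nkg_29
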