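import Crest.Agent.R096.Bsp4_628

/-!
Row 96 (S0127), helper29.  R3 (`EA0 p → PreIN p → BFk p`): `finX` (finitely many big bricks in a bounded
set), `exists_num` (one number `θ` for the numeric hypotheses `hn1`, `hn2` of `Br_695.fin_bfk`).
-/

set_option autoImplicit false
set_option linter.style.longLine false
set_option linter.unusedSectionVars false

open MeasureTheory Set

namespace Crest.Agent.R096.Nkg_29

open Crest.Agent.R096.Bsp_628

section Fin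

variable {κ : Type*} [Fintype κ] [Nonempty κ]

/-- the open box -/
def ob (Q : Bx κ) : Set (κ → ℝ) := pi univ fun i => Ioo (Q.lo i) (Q.hi i)

theorem ob_sub (Q : Bx κ) : ob Q ⊆ Q.set := by
  intro x hx
  rw [Bx.mem_set]
  intro i
  have := hx i (mem_univ i)
  exact ⟨this.1.le, this.2.le⟩

theorem measurableSet_ob (Q : Bx κ) : MeasurableSet (ob Q) :=
  MeasurableSet.univ_pi fun _ => measurableSet_Ioo

theorem volume_ob (Q : Bx κ) : volume (ob Q) = ∏ i, ENNReal.ofReal (Q.side i) := by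
  rw [ob, Real.volume_pi_Ioo]; rfl

/-- **`finX`**: only finitely many bricks of size `≥ t / 6` lie in a bounded set -/
theorem finX {La : Set (κ → ℝ)} {F : Set (Bx κ)} {δ κ0 : ℝ} (BF : BoxFoam La F δ κ0)
    (hκ : 0 < κ0) {S : Set (κ → ℝ)} (hS : Bornology.IsBounded S) {t : ℝ} (ht : 0 < t) :
    {c : F | c.1.set ⊆ S ∧ t ≤ 6 * c.1.sz}.Finite := by
  set ι : Type _ := {c : F // c.1.set ⊆ S ∧ t ≤ 6 * c.1.sz} with hι
  have hd : Pairwise (Function.onFun Disjoint fun i : ι => ob i.1.1) := by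
    intro i j hij
    have hne : i.1.1 ≠ j.1.1 := fun h => hij (Subtype.ext (Subtype.ext h))
    obtain ⟨k, hk⟩ := BF.inv.disj i.1.2 j.1.2 (BF.pos _ i.1.2) (BF.pos _ j.1.2) hne
    refine Set.disjoint_left.2 fun x hx hy => ?_
    have h1 := hx k (mem_univ k)
    have h2 := hy k (mem_univ k)
    rcases hk with hk | hk
    · exact absurd (h1.2.trans_le (hk.trans h2.1.le)) (lt_irrefl _)
    · exact absurd (h2.2.trans_le (hk.trans h1.1.le)) (lt_irrefl _)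
  have hfin : volume (⋃ i : ι, ob i.1.1) ≠ ⊤ := by
    refine ne_top_of_le_ne_top hS.measure_lt_top.ne (measure_mono (iUnion_subset fun i => ?_))
    exact (ob_sub _).trans i.2.1
  set ε : ENNReal := ∏ _i : κ, ENNReal.ofReal (t / (6 * κ0)) with hε
  have hε0 : 0 < ε := by
    rw [hε, pos_iff_ne_zero, Finset.prod_ne_zero_iff]
    intro i _
    exact (ENNReal.ofReal_pos.2 (by positivity)).ne'
  have h1 := Measure.finite_const_le_meas_of_disjoint_iUnion volume hε0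
    (fun i : ι => measurableSet_ob i.1.1) hd hfin
  have h2 : {i : ι | ε ≤ volume (ob i.1.1)} = univ := by
    refine eq_univ_of_forall fun i => ?_
    show ε ≤ volume (ob i.1.1)
    rw [volume_ob, hε]
    refine Finset.prod_le_prod' fun k _ => ENNReal.ofReal_le_ofReal ?_
    have h3 := BF.asp _ i.1.2 k
    rw [div_le_iff₀ (by positivity)]
    nlinarith [i.2.2]
  rw [h2] at h1
  have h3 : Finite ι := Set.finite_univ_iff.1 h1
  exact h3

end Fin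

/-- `(lam⁻¹ - 1) ^ p ≤ 2 θ` -/
theorem lam_pow_le {p θ lam : ℝ} (hp : 1 ≤ p) (hθ : θ ≤ 1 / 4) (h1 : 1 - θ ≤ lam) (h2 : lam ≤ 1) :
    0 ≤ lam⁻¹ - 1 ∧ (lam⁻¹ - 1) ^ p ≤ 2 * θ := by
  have hl : 0 < lam := by linarith
  have h3 : 1 ≤ lam⁻¹ := (one_le_inv₀ hl).2 h2
  have h4 : lam⁻¹ - 1 ≤ 2 * θ := by
    rw [sub_le_iff_le_add, inv_le_comm₀ hl (by linarith)]
    rw [inv_le_comm₀ (by linarith) hl]
    rw [inv_le_iff_one_le_mul₀ hl]
    nlinarith
  refine ⟨by linarith, ?_⟩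
  have h5 : (lam⁻¹ - 1) ^ p ≤ (lam⁻¹ - 1) ^ (1 : ℝ) := by
    by_cases h0 : lam⁻¹ - 1 = 0
    · rw [h0, Real.zero_rpow (by linarith), Real.zero_rpow one_ne_zero]
    · exact Real.rpow_le_rpow_of_exponent_ge (lt_of_le_of_ne (by linarith) (Ne.symm h0))
        (by linarith) hp
  rw [Real.rpow_one] at h5
  linarith

/-- **one number for `hn1`, `hn2` of `fin_bfk`**: everything `≤ θ` and `1 - θ ≤ lam ≤ 1` is enough. -/
theorem exists_num {p C N V e : ℝ} (hp : 1 ≤ p) (hC : 0 ≤ C) (hN : 0 ≤ N) (hV : 0 ≤ V)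
    (he : 0 < e) :
    ∃ θ : ℝ, 0 < θ ∧ θ ≤ 1 / 4 ∧ ∀ lam m e1 s2 s3 h e2 e3 : ℝ, 1 - θ ≤ lam → lam ≤ 1 →
      0 ≤ m → m ≤ θ → 0 ≤ e1 → e1 ≤ θ → 0 ≤ s2 → s2 ≤ θ → 0 ≤ s3 → s3 ≤ θ → 0 ≤ h → h ≤ θ →
      0 ≤ e2 → e2 ≤ θ → 0 ≤ e3 → e3 ≤ θ →
      3 * (2 ^ (p - 1) * (2 ^ (p - 1) * ((e1 * (N ^ p * V) + C * ((1 + N ^ p) * (m * V)) +
        C * s3 + s2) + (lam⁻¹ - 1) ^ p * N ^ p * V) + h)) ≤ e ∧
      3 * (C * e2 + C * ((1 + N ^ p) * (m * V)) + s2 + C * s3 + e1 * ((1 + N ^ p) * V) + e3) ≤ e := by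
  have hNp : 0 ≤ N ^ p := Real.rpow_nonneg hN p
  set a : ℝ := 2 ^ (p - 1) with ha
  have ha0 : 0 < a := by positivity
  set B1 : ℝ := 3 * (a * (a * ((N ^ p * V + C * ((1 + N ^ p) * V) + C + 1) + 2 * N ^ p * V) + 1))
    with hB1
  set B2 : ℝ := 3 * (C + C * ((1 + N ^ p) * V) + 1 + C + (1 + N ^ p) * V + 1) with hB2
  have hB10 : 0 ≤ B1 := by positivity
  have hB20 : 0 ≤ B2 := by positivity
  set θ : ℝ := min (1 / 4) (e / (B1 + B2 + 1)) with hθ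
  have hθ0 : 0 < θ := by positivity
  have hθ4 : θ ≤ 1 / 4 := min_le_left _ _
  have hθe : θ * (B1 + B2 + 1) ≤ e := by
    have : θ ≤ e / (B1 + B2 + 1) := min_le_right _ _
    rwa [le_div_iff₀ (by positivity)] at this
  refine ⟨θ, hθ0, hθ4, ?_⟩
  intro lam m e1 s2 s3 h e2 e3 hl1 hl2 m0 m1 e10 e11 s20 s21 s30 s31 h0 h1 e20 e21 e30 e31
  obtain ⟨-, hlam⟩ := lam_pow_le hp hθ4 hl1 hl2
  constructor
  · calc 3 * (a * (a * ((e1 * (N ^ p * V) + C * ((1 + N ^ p) * (m * V)) + C * s3 + s2) +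
          (lam⁻¹ - 1) ^ p * N ^ p * V) + h))
        ≤ 3 * (a * (a * ((θ * (N ^ p * V) + C * ((1 + N ^ p) * (θ * V)) + C * θ + θ) +
          2 * θ * N ^ p * V) + θ)) := by gcongr
      _ = θ * B1 := by rw [hB1]; ring
      _ ≤ e := by nlinarith
  · calc 3 * (C * e2 + C * ((1 + N ^ p) * (m * V)) + s2 + C * s3 + e1 * ((1 + N ^ p) * V) + e3)
        ≤ 3 * (C * θ + C * ((1 + N ^ p) * (θ * V)) + θ + C * θ + θ * ((1 + N ^ p) * V) + θ) := by
          gcongr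
      _ = θ * B2 := by rw [hB2]; ring
      _ ≤ e := by nlinarith

end Crest.Agent.R096.Nkg_29
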