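import Crest.Agent.R096.No6_276
import Crest.Agent.R096.SkN2_477

/-!
# Row 96, NO0-ASM (helper780): tile constants and energies after the machine (the energy half of
`NOS ⇐ MachNO + NOPre`, 276 #10871)
-/

set_option autoImplicit false
set_option linter.unusedSectionVars false
set_option linter.style.longLine false

open Set Function MeasureTheory Filter Topology Metric
open scoped ENNReal

namespace Crest.Agent.R096.Nkt_780

open Crest.Agent.R096.Bsp_628 Crest.Agent.R096.Brk1_582 Crest.Agent.R096.Brk3_582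
open Crest.Agent.R096.Brk5_582 Crest.Agent.R096.Log2_582 Crest.Agent.R096.Dic1_582
open Crest.Agent.R096.Msh_715 Crest.Agent.R096.Ea_713
open Crest.Agent.R96.Hole_348 (LLV LLV.mono)
open Crest.Agent.R096.SkC1_961 (E3 Hom3 FoamD Cfg NN)
open Crest.Agent.R096.SkN1_477 Crest.Agent.R096.No0_477 Crest.Agent.R096.Nl_234
open Crest.Agent.R096.Mbf_337 Crest.Agent.R096.No_276
open Crest.Agent.R096.SkN2_477 (OutF)

noncomputable section

/-! ### splitting of the sums -/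

theorem tsum_sub' {ι : Type*} (q : ι → Prop) (F : ι → ℝ≥0∞) :
    ∑' i : {i // q i}, F i = ∑' i, ({i | q i} : Set ι).indicator F i :=
  tsum_subtype {i | q i} F

theorem tsum_sub_le {ι : Type*} {q q' : ι → Prop} (h : ∀ i, q i → q' i) (F : ι → ℝ≥0∞) :
    ∑' i : {i // q i}, F i ≤ ∑' i : {i // q' i}, F i := by
  rw [tsum_sub', tsum_sub']
  exact ENNReal.tsum_le_tsum fun i => indicator_le_indicator_of_subset (fun j hj => h j hj)
    (fun _ => zero_le) i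

theorem tsum_sub_le_all {ι : Type*} (q : ι → Prop) (F : ι → ℝ≥0∞) :
    ∑' i : {i // q i}, F i ≤ ∑' i, F i := by
  rw [tsum_sub']
  exact ENNReal.tsum_le_tsum fun i => indicator_le_self _ _ i

theorem add_rpow_le {x y p : ℝ} (hx : 0 ≤ x) (hy : 0 ≤ y) (hp : 0 < p) :
    (x + y) ^ p ≤ 2 ^ p * (x ^ p + y ^ p) := by
  have h1 : (x + y) ^ p ≤ (2 * max x y) ^ p := by
    apply Real.rpow_le_rpow (by positivity) _ hp.le
    linarith [le_max_left x y, le_max_right x y]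
  refine h1.trans ?_
  rw [Real.mul_rpow (by norm_num) (le_max_of_le_left hx)]
  apply mul_le_mul_of_nonneg_left _ (by positivity)
  rcases max_choice x y with h | h <;> rw [h]
  · have := Real.rpow_nonneg hy p; linarith
  · have := Real.rpow_nonneg hx p; linarith

/-- **splitting**: `H` = tiles with constant `c2 * n i + tol i`, `O` = tiles with `m i + tol i`, `V` =
tiles with `C0 * kc i` -/
theorem tsum_split {ι : Type*} {p : ℝ} (hp : 0 < p) (wt : ι → ℝ≥0∞) {c2 C0 : ℝ} (h2 : 0 ≤ c2)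
    (hC0 : 0 ≤ C0) {n m tol kc Kt : ι → ℝ} (hn : ∀ i, 0 ≤ n i) (hm : ∀ i, 0 ≤ m i)
    (htol : ∀ i, 0 ≤ tol i) (hkc : ∀ i, 0 ≤ kc i) (hK0 : ∀ i, 0 ≤ Kt i) {S H O V : ι → Prop}
    (hS : ∀ i, S i → H i ∨ O i ∨ V i) (hH : ∀ i, H i → Kt i ≤ c2 * n i + tol i)
    (hO : ∀ i, O i → Kt i ≤ m i + tol i) (hV : ∀ i, V i → Kt i ≤ C0 * kc i) :
    ∑' i : {i // S i}, ENNReal.ofReal (Kt i ^ p) * wt i ≤
      ENNReal.ofReal (2 ^ p) * (ENNReal.ofReal (c2 ^ p) *
        (∑' i : {i // H i ∧ S i}, ENNReal.ofReal (n i ^ p) * wt i) +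
        (∑' i : {i // O i ∧ S i}, ENNReal.ofReal (m i ^ p) * wt i) +
        ∑' i, ENNReal.ofReal (tol i ^ p) * wt i) +
      ENNReal.ofReal (C0 ^ p) * ∑' i : {i // V i ∧ S i}, ENNReal.ofReal (kc i ^ p) * wt i := by
  rw [tsum_sub' S (fun i => ENNReal.ofReal (Kt i ^ p) * wt i),
    tsum_sub' (fun i => H i ∧ S i) (fun i => ENNReal.ofReal (n i ^ p) * wt i),
    tsum_sub' (fun i => O i ∧ S i) (fun i => ENNReal.ofReal (m i ^ p) * wt i),
    tsum_sub' (fun i => V i ∧ S i) (fun i => ENNReal.ofReal (kc i ^ p) * wt i),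
    ← ENNReal.tsum_mul_left, ← ENNReal.tsum_add, ← ENNReal.tsum_add, ← ENNReal.tsum_mul_left,
    ← ENNReal.tsum_mul_left, ← ENNReal.tsum_add]
  refine ENNReal.tsum_le_tsum fun i => ?_
  by_cases hi : S i
  swap
  · rw [indicator_of_notMem (by exact hi)]; exact zero_le
  rw [indicator_of_mem (by exact hi)]
  have hp2 : (0 : ℝ) ≤ 2 ^ p := by positivity
  rcases hS i hi with h | h | h
  · have e1 : ({i | H i ∧ S i} : Set ι).indicator (fun i => ENNReal.ofReal (n i ^ p) * wt i) i =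
        ENNReal.ofReal (n i ^ p) * wt i := indicator_of_mem (show i ∈ {i | H i ∧ S i} from ⟨h, hi⟩) _
    rw [e1]
    have h3 : Kt i ^ p ≤ 2 ^ p * (c2 ^ p * n i ^ p + tol i ^ p) := by
      refine (Real.rpow_le_rpow (hK0 i) (hH i h) hp.le).trans ?_
      have := add_rpow_le (mul_nonneg h2 (hn i)) (htol i) hp
      rwa [Real.mul_rpow h2 (hn i)] at this
    have hnp := Real.rpow_nonneg (hn i) p
    have htp := Real.rpow_nonneg (htol i) p
    have hcp := Real.rpow_nonneg h2 p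
    calc ENNReal.ofReal (Kt i ^ p) * wt i
        ≤ ENNReal.ofReal (2 ^ p * (c2 ^ p * n i ^ p + tol i ^ p)) * wt i := by gcongr
      _ = ENNReal.ofReal (2 ^ p) * (ENNReal.ofReal (c2 ^ p) * (ENNReal.ofReal (n i ^ p) * wt i) +
          ENNReal.ofReal (tol i ^ p) * wt i) := by
          rw [ENNReal.ofReal_mul hp2, ENNReal.ofReal_add (by positivity) htp,
            ENNReal.ofReal_mul hcp]
          ring
      _ ≤ _ := by
          refine le_trans ?_ le_self_add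
          gcongr
          exact le_self_add
  · have e1 : ({i | O i ∧ S i} : Set ι).indicator (fun i => ENNReal.ofReal (m i ^ p) * wt i) i =
        ENNReal.ofReal (m i ^ p) * wt i := indicator_of_mem (show i ∈ {i | O i ∧ S i} from ⟨h, hi⟩) _
    rw [e1]
    have h3 : Kt i ^ p ≤ 2 ^ p * (m i ^ p + tol i ^ p) :=
      (Real.rpow_le_rpow (hK0 i) (hO i h) hp.le).trans (add_rpow_le (hm i) (htol i) hp)
    have hmp := Real.rpow_nonneg (hm i) p
    have htp := Real.rpow_nonneg (htol i) p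
    calc ENNReal.ofReal (Kt i ^ p) * wt i
        ≤ ENNReal.ofReal (2 ^ p * (m i ^ p + tol i ^ p)) * wt i := by gcongr
      _ = ENNReal.ofReal (2 ^ p) * (ENNReal.ofReal (m i ^ p) * wt i +
          ENNReal.ofReal (tol i ^ p) * wt i) := by
          rw [ENNReal.ofReal_mul hp2, ENNReal.ofReal_add hmp htp]
          ring
      _ ≤ _ := by
          refine le_trans ?_ le_self_add
          gcongr
          exact le_add_self
  · have e1 : ({i | V i ∧ S i} : Set ι).indicator (fun i => ENNReal.ofReal (kc i ^ p) * wt i) i =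
        ENNReal.ofReal (kc i ^ p) * wt i := indicator_of_mem (show i ∈ {i | V i ∧ S i} from ⟨h, hi⟩) _
    rw [e1]
    have h3 : Kt i ^ p ≤ C0 ^ p * kc i ^ p := by
      refine (Real.rpow_le_rpow (hK0 i) (hV i h) hp.le).trans (le_of_eq ?_)
      rw [Real.mul_rpow hC0 (hkc i)]
    have hcp := Real.rpow_nonneg hC0 p
    calc ENNReal.ofReal (Kt i ^ p) * wt i ≤ ENNReal.ofReal (C0 ^ p * kc i ^ p) * wt i := by gcongr
      _ = ENNReal.ofReal (C0 ^ p) * (ENNReal.ofReal (kc i ^ p) * wt i) := by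
          rw [ENNReal.ofReal_mul hcp, mul_assoc]
      _ ≤ _ := le_add_self

/-! ### the tile constants -/

section Tile

variable {δ κ0 R c0 : ℝ} {La Om : Set E3} {ι : Type} {Φ : FoamD δ κ0 R c0 La}

/-- Lipschitz on the closed tile ⟹ local constants in the open tile -/
theorem LLV_of_lip {H : Finset ((E3 →L[ℝ] ℝ) × ℝ)} {g : E3 → E3} {K : ℝ}
    (h : ∀ x ∈ P H, ∀ y ∈ P H, ‖g x - g y‖ ≤ K * ‖x - y‖) {x : E3} (hx : x ∈ I H) :
    LLV K g x := by
  filter_upwards [(isOpen_I H).mem_nhds hx] with y hy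
  exact h y (I_sub_P H hy) x (I_sub_P H hx)

open Classical in
/-- the constant of the tile `i` -/
def Kt (V : Φ.F → Set ι) (X : Set Φ.F) (HT : Set ι) (CuM C0 : ℝ) (n m tol Kc : ι → ℝ) (i : ι) : ℝ :=
  if i ∈ HT then 2 * CuM * n i + tol i
  else if ∀ c, i ∉ V c then m i + tol i
  else if i ∈ Vti X V then 0 else C0 * Kc i

variable {V : Φ.F → Set ι} {X : Set Φ.F} {HT : Set ι} {CuM C0 : ℝ} {n m tol Kc : ι → ℝ}

theorem Kt_nonneg (h1 : 0 ≤ CuM) (h2 : 0 ≤ C0) (hn : ∀ i, 0 ≤ n i) (hm : ∀ i, 0 ≤ m i)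
    (ht : ∀ i, 0 ≤ tol i) (hk : ∀ i, 0 ≤ Kc i) (i : ι) :
    0 ≤ Kt V X HT CuM C0 n m tol Kc i := by
  have := hn i; have := hm i; have := ht i; have := hk i
  unfold Kt
  split_ifs <;> positivity

theorem Kt_HT {i : ι} (hi : i ∈ HT) : Kt V X HT CuM C0 n m tol Kc i = 2 * CuM * n i + tol i := by
  unfold Kt; rw [if_pos hi]

theorem Kt_ord {i : ι} (hi : i ∉ HT) (ho : ∀ c, i ∉ V c) :
    Kt V X HT CuM C0 n m tol Kc i = m i + tol i := by
  unfold Kt; rw [if_neg hi, if_pos ho]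

theorem Kt_core {i : ι} (hi : i ∉ HT) (ho : ∃ c, i ∈ V c) (hv : i ∉ Vti X V) :
    Kt V X HT CuM C0 n m tol Kc i = C0 * Kc i := by
  unfold Kt; rw [if_neg hi, if_neg (by push Not; exact ho), if_neg hv]

end Tile

section main

variable {δ κ0 R c0 : ℝ} {La : Set E3} {ι : Type}

/-- a tile which touches a designated face meets a uniform square -/
theorem mu_of_touch {Om : Set E3} {T : Tiling Om ι} {Ex : Set ι} {𝒬 : Set (Set E3)} {L : ℕ}
    {η r : ℝ} {hr : r ≠ 0} {a : E3} {o : Fin 2 → ℤ} {M : ℕ} {Zs : Finset ℤ}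
    {U : ℤ → (Fin 2 → ℕ) → Prop} (G : NOGeo T Ex 𝒬 L η r hr a o M Zs U) {i : ι}
    (h : TouchD T (DsN a r o M Zs U) i) : MU T r hr a o M Zs U i := by
  obtain ⟨x, ⟨m, hm, v, hv, hU, rfl⟩, y, hy1, hy2⟩ := h
  rw [(G.face m hm v hv hU).2] at hy1
  refine ⟨(m, v), ?_, hU, y, hy2, hy1⟩
  unfold Fc
  rw [Finset.mem_product]
  exact ⟨hm, by rw [Fintype.mem_piFinset]; exact fun j => Finset.mem_range.2 (hv j)⟩

/-- **tile constants and energies after the machine** (276 #10871) -/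
theorem kt_of {p : ℝ} (hp : 1 ≤ p) (hLa : IsOpen La)
    {s : Fin 3 → ℝ} {L : ℕ} {η ε ε' e₂ S1 S KS κp μ κ3 C0 κ1 κ2 : ℝ} {C : Set (Set E3) → ℝ}
    {𝒮 : Set (Set (Set E3))} {t : ℝ} {Cf : ℝ≥0∞} {f0 f1 : E3 → E3} {q : ℕ} {al : Fin 3 → ℝ} {h : ℝ}
    {Φ : FoamD δ κ0 R c0 La} {T : Tiling (QL L) ι} {X : Set Φ.F} {J0 J V : Φ.F → Set ι}
    {ct : Φ.F → ι} {A : Φ.F → E3 ≃ᵃ[ℝ] E3} {lam : Φ.F → ℝ} {z : Φ.F → E3} {θ : Φ.F → E3 → E3}
    {φ : Φ.F → E3 → ℝ} {Mg : Φ.F → ℕ} {𝒬 : Set (Set E3)} {r : ℝ} {hr : r ≠ 0} {a : E3}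
    {o : Fin 2 → ℤ} {M : ℕ} {Zs : Finset ℤ} {U : ℤ → (Fin 2 → ℕ) → Prop} {β : Type} {b : β → E3}
    {R0 R1 : β → ℝ} {Sc : β → Finset ι} {d Kc cnt : ι → ℝ} {Z : Φ.F → Set ℝ} {m0 : Φ.F → ℕ}
    {κ : Φ.F → ℕ} {Lv : Φ.F → Finset ℝ} {em em' ηm : ℝ} {tol : ι → ℝ} {g : E3 → E3}
    {Cu : Set (Set E3) → ℝ} {B' : E3 → E3 ≃ᵃ[ℝ] E3} {a' : Fin 2 → ℝ}
    {u : E3 → Φ.F → ℝ} {n : Set E3 → Φ.F → ℝ}
    (hout : OutF C0 C em Φ T f1 X V ct A lam κ Lv tol (DsN a r o M Zs U) (S1 * r) g)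
    (hNO : OutNO p Cu em' ηm Φ T f1 (⋃ c, V c) κ Lv tol (DsN a r o M Zs U) B' (S1 * r) a' g u n)
    (hCu : ∀ 𝒦, 0 < Cu 𝒦) (hC0 : 0 < C0) (hC : ∀ 𝒦, 0 < C 𝒦)
    (G : PreG p s L η ε ε' C0 κ1 κ2 𝒮 t Cf f0 f1 q al h Φ T X J0 J V ct A lam z θ φ 𝒬 r hr a o
      M Zs U b R0 R1 Sc d Kc cnt)
    (N : PreN p s L η ε ε' e₂ S1 S KS κp μ κ3 C 𝒮 f1 q al h Φ T X V ct A lam z Mg r hr a o M Zs U b R1
      Sc cnt Z m0 κ Lv)
    {CuM : ℝ} (hCM0 : 0 ≤ CuM) (hCM : ∀ 𝒦 ∈ 𝒮, Cu 𝒦 ≤ CuM) (htol0 : ∀ i, 0 < tol i)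
    {εt : ℝ} (hεt : 0 ≤ εt) (htol : ∑' i, ENNReal.ofReal (tol i ^ p) *
      (volume (P (T.H i)) + ENNReal.ofReal (cnt i)) ≤ ENNReal.ofReal εt)
    (hε : 0 ≤ ε) (hε' : 0 ≤ ε') (hη : 0 ≤ η) (he₂ : 0 ≤ e₂) (hKS : 0 ≤ KS) (hr0 : 0 ≤ r) :
    ∃ Kt : ι → ℝ, (∀ i, 0 ≤ Kt i) ∧ (∀ i, i ∉ Vti X V → ∀ x ∈ I (T.H i), LLV (Kt i) g x) ∧
      ∑' i : {i // i ∉ Vti X V}, ENNReal.ofReal (Kt i ^ p) * volume (P (T.H i)) ≤
        ENNReal.ofReal (2 ^ p * ((2 * CuM) ^ p * (KS / L) + ε' + εt) + C0 ^ p * ε') ∧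
      ∑' i : {i // i ∈ IZ T (ShL L η) b R1 Sc ∧ i ∉ Vti X V},
        ENNReal.ofReal (Kt i ^ p) * volume (P (T.H i)) ≤
        ENNReal.ofReal (2 ^ p * ((2 * CuM) ^ p * ((KS * η + e₂) / L) + ε' + εt) + C0 ^ p * ε') ∧
      ∑' i : {i // i ∉ Vti X V ∧ MJ T r hr a o M Zs U i},
        ENNReal.ofReal (Kt i ^ p) * ENNReal.ofReal (cnt i) ≤
        ENNReal.ofReal (2 ^ p * ((2 * CuM) ^ p * (ε * ((Zs.card : ℝ) * M ^ 2) * r ^ 3) +
          ε' * ((Zs.card : ℝ) * M ^ 2) * r ^ 3 + εt) +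
          C0 ^ p * (ε' * ((Zs.card : ℝ) * M ^ 2) * r ^ 3)) := by
  have hp0 : 0 < p := by linarith
  obtain ⟨B, Nt, HT, hN0, hNN, hMU, hHT, e1, e2, e3, e4, e5⟩ := N.tl
  set nn : ι → ℝ := fun i => Nt i * ‖lin (B i)‖ with hnn
  set mm : ι → ℝ := fun i => C ((fun K => B i '' K) '' Cfg T i) * Nt i * ‖lin (B i)‖ with hmm
  have hnn0 : ∀ i, 0 ≤ nn i := fun i => mul_nonneg (hN0 i) (norm_nonneg _)
  have hmm0 : ∀ i, 0 ≤ mm i := fun i =>
    mul_nonneg (mul_nonneg (hC _).le (hN0 i)) (norm_nonneg _)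
  have hgc : ∀ i, ContinuousOn g (P (T.H i)) := by
    intro i
    obtain ⟨_, -, -, -, -, h5, -⟩ := hout.homeo
    exact h5.mono (T.sub i)
  have hnot : ∀ i, i ∈ HT → ∀ c, i ∉ V c := fun i hi => (hHT i hi).1
  refine ⟨Kt V X HT CuM C0 nn mm tol Kc,
    Kt_nonneg hCM0 hC0.le hnn0 hmm0 (fun i => (htol0 i).le) G.kc0, ?_, ?_, ?_, ?_⟩
  · intro i hi x hx
    by_cases h1 : i ∈ HT
    · rw [Kt_HT h1]
      obtain ⟨g1, g2, ⟨Cc, O, hHor, x0, hx0, hx1⟩, g4⟩ := hHT i h1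
      have hEx : i ∉ ⋃ c, V c := by
        rw [mem_iUnion]; rintro ⟨c, hc⟩; exact g1 c hc
      have hdis : ∀ j ∈ ⋃ c, V c, Disjoint (P (T.H i)) (P (T.H j)) := by
        intro j hj
        rw [mem_iUnion] at hj
        obtain ⟨c, hc⟩ := hj
        exact g2 c j hc
      have hw : ∀ c : Φ.F, IsLog q al h c.1 → h ≤ 2 * wf Φ κ Lv c := by
        intro c hc
        have := N.wlog c hc
        unfold wf
        linarith
      have hlip := lip_hor hLa hNO hCu hEx hdis G.h0 hHor hx0 hx1 hw (B i) (hN0 i)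
        (hNN i g1) (fun ht => hMU i g1 (mu_of_touch G.geo ht)) (hgc i)
      refine (LLV_of_lip hlip hx).mono ?_
      have h3 := hCM _ g4
      have h4 : Cu ((fun K => B i '' K) '' Cfg T i) * (Nt i * ‖lin (B i)‖) ≤
          CuM * (Nt i * ‖lin (B i)‖) := mul_le_mul_of_nonneg_right h3 (hnn0 i)
      simp only [hnn]
      nlinarith
    · by_cases h2 : ∀ c, i ∉ V c
      · rw [Kt_ord h1 h2]
        exact LLV_of_affine (mul_nonneg (hC _).le (hN0 i))
          (hout.lip i h2 (B i) (Nt i) (hN0 i) (hNN i h2)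
            (fun ht => hMU i h2 (mu_of_touch G.geo ht)) x hx)
      · push Not at h2
        rw [Kt_core h1 h2 hi]
        obtain ⟨c, hc⟩ := h2
        have hcX : c ∈ X := by
          by_contra hcX
          exact hi ⟨c, hcX, hc⟩
        have hic : i = ct c := by
          have := (G.cores.one c hcX).2.2
          rw [this] at hc
          exact hc
        subst hic
        have hlam := (G.cores.exact_ c hcX).lam0
        have h3 := (hout.core c hcX).1 x hx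
        have h4 : LLV (C0 * (1 / lam c) * ‖lin (A c)‖ + 0) g x := by
          apply LLV_of_affine (by positivity)
          filter_upwards [h3] with y hy
          rw [zero_mul, add_zero, mul_assoc]
          exact hy
        refine h4.mono ?_
        have h5 := G.kc c hcX
        rw [add_zero, mul_assoc]
        exact mul_le_mul_of_nonneg_left h5 hC0.le
  all_goals
    have hcore : ∀ i, ((∃ c, i ∈ V c) ∧ i ∉ Vti X V) →
        Kt V X HT CuM C0 nn mm tol Kc i ≤ C0 * Kc i := fun i hi =>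
      (Kt_core (fun h => by obtain ⟨c, hc⟩ := hi.1; exact hnot i h c hc) hi.1 hi.2).le
    have htolv : ∑' i, ENNReal.ofReal (tol i ^ p) * volume (P (T.H i)) ≤ ENNReal.ofReal εt :=
      (ENNReal.tsum_le_tsum fun i => by gcongr; exact le_self_add).trans htol
    have htolc : ∑' i, ENNReal.ofReal (tol i ^ p) * ENNReal.ofReal (cnt i) ≤ ENNReal.ofReal εt :=
      (ENNReal.tsum_le_tsum fun i => by gcongr; exact le_add_self).trans htol
    have hcov : ∀ i, i ∉ Vti X V → i ∈ HT ∨ ((∀ c, i ∉ V c) ∧ i ∉ HT) ∨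
        ((∃ c, i ∈ V c) ∧ i ∉ Vti X V) := by
      intro i hi
      by_cases h1 : i ∈ HT
      · exact Or.inl h1
      · by_cases h2 : ∀ c, i ∉ V c
        · exact Or.inr (Or.inl ⟨h2, h1⟩)
        · push Not at h2
          exact Or.inr (Or.inr ⟨h2, hi⟩)
    have h2C : 0 ≤ 2 * CuM := by positivity
    have hKp : 0 ≤ (2 * CuM) ^ p := Real.rpow_nonneg h2C p
    have hC0p : 0 ≤ C0 ^ p := Real.rpow_nonneg hC0.le p
    have h2p : (0 : ℝ) ≤ 2 ^ p := by positivity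
    have hN00 : 0 ≤ (Zs.card : ℝ) * M ^ 2 := by positivity
    have hfin : ∀ {x1 x2 x3 x4 : ℝ≥0∞} {y1 y2 y3 y4 : ℝ}, 0 ≤ y1 → 0 ≤ y2 → 0 ≤ y3 → 0 ≤ y4 →
        x1 ≤ ENNReal.ofReal y1 → x2 ≤ ENNReal.ofReal y2 → x3 ≤ ENNReal.ofReal y3 →
        x4 ≤ ENNReal.ofReal y4 →
        ENNReal.ofReal (2 ^ p) * (ENNReal.ofReal ((2 * CuM) ^ p) * x1 + x2 + x3) +
          ENNReal.ofReal (C0 ^ p) * x4 ≤
        ENNReal.ofReal (2 ^ p * ((2 * CuM) ^ p * y1 + y2 + y3) + C0 ^ p * y4) := by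
      intro x1 x2 x3 x4 y1 y2 y3 y4 k1 k2 k3 k4 l1 l2 l3 l4
      rw [ENNReal.ofReal_add (by positivity) (by positivity), ENNReal.ofReal_mul h2p,
        ENNReal.ofReal_add (by positivity) k3, ENNReal.ofReal_add (by positivity) k2,
        ENNReal.ofReal_mul hKp, ENNReal.ofReal_mul hC0p]
      gcongr
  · refine (tsum_split hp0 (fun i => volume (P (T.H i))) h2C hC0.le hnn0 hmm0
      (fun i => (htol0 i).le) G.kc0
      (Kt_nonneg hCM0 hC0.le hnn0 hmm0 (fun i => (htol0 i).le) G.kc0)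
      (S := fun i => i ∉ Vti X V) (H := fun i => i ∈ HT) (O := fun i => (∀ c, i ∉ V c) ∧ i ∉ HT)
      (V := fun i => (∃ c, i ∈ V c) ∧ i ∉ Vti X V) hcov
      (fun i hi => (Kt_HT hi).le) (fun i hi => (Kt_ord hi.2 hi.1).le) hcore).trans
      (hfin (by positivity) hε' hεt hε' ?_ ?_ htolv ?_)
    · exact le_trans (tsum_sub_le (fun i hi => hi.1)
        (fun i => ENNReal.ofReal (nn i ^ p) * volume (P (T.H i)))) e1
    · exact le_trans (tsum_sub_le (fun i hi => hi.1)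
        (fun i => ENNReal.ofReal (mm i ^ p) * volume (P (T.H i)))) e3
    · exact le_trans (tsum_sub_le (fun i hi => hi.1)
        (fun i => ENNReal.ofReal (Kc i ^ p) * volume (P (T.H i)))) G.kcs
  · refine (tsum_split hp0 (fun i => volume (P (T.H i))) h2C hC0.le hnn0 hmm0
      (fun i => (htol0 i).le) G.kc0
      (Kt_nonneg hCM0 hC0.le hnn0 hmm0 (fun i => (htol0 i).le) G.kc0)
      (S := fun i => i ∈ IZ T (ShL L η) b R1 Sc ∧ i ∉ Vti X V) (H := fun i => i ∈ HT)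
      (O := fun i => (∀ c, i ∉ V c) ∧ i ∉ HT)
      (V := fun i => (∃ c, i ∈ V c) ∧ i ∉ Vti X V) (fun i hi => hcov i hi.2)
      (fun i hi => (Kt_HT hi).le) (fun i hi => (Kt_ord hi.2 hi.1).le) hcore).trans
      (hfin (by positivity) hε' hεt hε' ?_ ?_ htolv ?_)
    · exact le_trans (tsum_sub_le (fun i hi => ⟨hi.1, hi.2.1⟩)
        (fun i => ENNReal.ofReal (nn i ^ p) * volume (P (T.H i)))) e2
    · exact le_trans (tsum_sub_le (fun i hi => hi.1)
        (fun i => ENNReal.ofReal (mm i ^ p) * volume (P (T.H i)))) e3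
    · exact le_trans (tsum_sub_le (fun i hi => hi.1)
        (fun i => ENNReal.ofReal (Kc i ^ p) * volume (P (T.H i)))) G.kcs
  · refine (tsum_split hp0 (fun i => ENNReal.ofReal (cnt i)) h2C hC0.le hnn0 hmm0
      (fun i => (htol0 i).le) G.kc0
      (Kt_nonneg hCM0 hC0.le hnn0 hmm0 (fun i => (htol0 i).le) G.kc0)
      (S := fun i => i ∉ Vti X V ∧ MJ T r hr a o M Zs U i) (H := fun i => i ∈ HT)
      (O := fun i => (∀ c, i ∉ V c) ∧ i ∉ HT)
      (V := fun i => (∃ c, i ∈ V c) ∧ i ∉ Vti X V) (fun i hi => hcov i hi.1)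
      (fun i hi => (Kt_HT hi).le) (fun i hi => (Kt_ord hi.2 hi.1).le) hcore).trans
      (hfin (by positivity) (by positivity) hεt (by positivity) ?_ ?_ htolc ?_)
    · exact le_trans (tsum_sub_le (fun i hi => ⟨hi.1, hi.2.2⟩)
        (fun i => ENNReal.ofReal (nn i ^ p) * ENNReal.ofReal (cnt i))) e4
    · exact le_trans (tsum_sub_le (fun i hi => ⟨hi.1, hi.2.2⟩)
        (fun i => ENNReal.ofReal (mm i ^ p) * ENNReal.ofReal (cnt i))) e5
    · exact le_trans (tsum_sub_le (fun i hi => ⟨hi.1, hi.2.2⟩)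
        (fun i => ENNReal.ofReal (Kc i ^ p) * ENNReal.ofReal (cnt i))) G.jc

end main

end

end Crest.Agent.R096.Nkt_780
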