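import Crest.Agent.R096.No0_477
import Crest.Agent.R096.Dic5_582
import Crest.Agent.R096.Ea1_713

/-!
Row 96 (S0127), helper234.  NO0 leaf (L5) of 477 #10235, on SkN1_477 v4: **Lipschitz constants of the
machine map on one closed tile** (`OutNO.lipT`, `OutNO.zero`, `OutNO.memK`), with the constant
`2 * Cu (shape) * N * ‖lin B‖ + tol` on a tile which meets the preimage of a horizontal wall between
two logs (no dependence on the foam), and `M * Cu (shape) * N * ‖lin B‖ + tol` in general.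
-/

set_option autoImplicit false
set_option linter.style.longLine false
set_option linter.unusedSectionVars false

open MeasureTheory Set Filter Topology Metric
open scoped ENNReal

namespace Crest.Agent.R096.Nl_234

open Crest.Agent.R096.Bsp_628 Crest.Agent.R096.Brk1_582 Crest.Agent.R096.Brk2_582
open Crest.Agent.R096.Brk3_582
open Crest.Agent.R096.Brk5_582
open Crest.Agent.R096.Log1_582 Crest.Agent.R096.Log2_582 Crest.Agent.R096.Dic5_582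
open Crest.Agent.R096.Msh_715
open Crest.Agent.R096.Ea_713
open Crest.Agent.R96.Hole_348 (LLV)
open Crest.Agent.R096.SkC1_961 Crest.Agent.R096.SkN1_477 Crest.Agent.R096.No0_477

noncomputable section

section Tile

variable {δ κ0 R c0 : ℝ} {La Om : Set E3} {ι : Type} {Φ : FoamD δ κ0 R c0 La}
variable {T : Tiling Om ι} {f : E3 → E3} {Ex : Set ι} {κ : Φ.F → ℕ} {L : Φ.F → Finset ℝ}
variable {tol : ι → ℝ} {Ds : Set E3} {B : E3 → E3 ≃ᵃ[ℝ] E3} {μ : ℝ} {a : Fin 2 → ℝ}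
variable {g : E3 → E3} {u : E3 → Φ.F → ℝ} {n : Set E3 → Φ.F → ℝ}
variable {p e η : ℝ} {Cu : Set (Set E3) → ℝ}

/-- the weight of the family `c` -/
def wf (Φ : FoamD δ κ0 R c0 La) (κ : Φ.F → ℕ) (L : Φ.F → Finset ℝ) (c : Φ.F) : ℝ :=
  (L c).card * (2 : ℝ)⁻¹ ^ κ c

theorem wf_nonneg (c : Φ.F) : 0 ≤ wf Φ κ L c := by unfold wf; positivity

/-- **abstract form**: one tile `i` on which the labels of the cells in `A ≠ ∅` vanish; the common
face of the cells of `A` has diameter `≤ W`, and `w ≤ weight` for the cells which meet it. -/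
theorem ev_tile (hLa : IsOpen La) (h : OutNO p Cu e η Φ T f Ex κ L tol Ds B μ a g u n)
    {i : ι} (hi : i ∉ Ex) (hdis : ∀ j ∈ Ex, Disjoint (P (T.H i)) (P (T.H j)))
    {A : Set Φ.F} (hne : A.Nonempty) (hA : ∀ c ∈ A, ∀ y ∈ P (T.H i), u y c = 0)
    {W w : ℝ} (hW : 0 ≤ W) (hw0 : 0 < w)
    (hD : ∀ y ∈ fc (Pc Φ.F) A, ∀ y' ∈ fc (Pc Φ.F) A, ‖y - y'‖ ≤ W)
    (hw : ∀ c : Φ.F, (∃ y ∈ Pc Φ.F c, y ∈ fc (Pc Φ.F) A) → w ≤ wf Φ κ L c)
    (B' : E3 ≃ᵃ[ℝ] E3) {N : ℝ} (hN : 0 ≤ N) (hNN : NN Φ T f κ L i ≤ ENNReal.ofReal N)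
    (hNμ : TouchD T Ds i → μ ≤ N) :
    ∀ x ∈ I (T.H i), ∀ᶠ y in 𝓝 x,
      ‖g y - g x‖ ≤ Cu ((fun K => B' '' K) '' Cfg T i) * (W / w) * N * ‖B' y - B' x‖
        + tol i * ‖y - x‖ := by
  have FF := foam Φ.bf hLa
  refine h.lipT i hi hdis B' N hN hNN hNμ W w hW hw0 (fc (Pc Φ.F) A) hD ?_ ?_
  · intro x hx S h1 h2
    have hu := h.memK i hi x hx
    have h3 : (fc (Pc Φ.F) S).Nonempty := hu.2.2.mono (fc_anti h2)
    have hAS : A ⊆ S := fun c hc => h1 (hA c hc x hx)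
    exact fc_anti hAS (FF.mem S (hne.mono hAS) h3)
  · intro x hx c _ hc1
    have hu := h.memK i hi x hx
    obtain ⟨y, hy⟩ := hu.2.2
    rw [mem_fc] at hy
    refine hw c ⟨y, hy c hc1, ?_⟩
    rw [mem_fc]
    intro c' hc'
    refine hy c' ?_
    change u x c' < 1
    rw [hA c' hc' x hx]; exact one_pos

/-- the abstract form on the closed tile -/
theorem lip_tile' (hLa : IsOpen La) (h : OutNO p Cu e η Φ T f Ex κ L tol Ds B μ a g u n)
    (hCu : ∀ 𝒦, 0 < Cu 𝒦)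
    {i : ι} (hi : i ∉ Ex) (hdis : ∀ j ∈ Ex, Disjoint (P (T.H i)) (P (T.H j)))
    {A : Set Φ.F} (hne : A.Nonempty) (hA : ∀ c ∈ A, ∀ y ∈ P (T.H i), u y c = 0)
    {W w : ℝ} (hW : 0 ≤ W) (hw0 : 0 < w)
    (hD : ∀ y ∈ fc (Pc Φ.F) A, ∀ y' ∈ fc (Pc Φ.F) A, ‖y - y'‖ ≤ W)
    (hw : ∀ c : Φ.F, (∃ y ∈ Pc Φ.F c, y ∈ fc (Pc Φ.F) A) → w ≤ wf Φ κ L c)
    (B' : E3 ≃ᵃ[ℝ] E3) {N : ℝ} (hN : 0 ≤ N) (hNN : NN Φ T f κ L i ≤ ENNReal.ofReal N)
    (hNμ : TouchD T Ds i → μ ≤ N) (hg : ContinuousOn g (P (T.H i))) :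
    ∀ x ∈ P (T.H i), ∀ y ∈ P (T.H i), ‖g x - g y‖ ≤
      (Cu ((fun K => B' '' K) '' Cfg T i) * (W / w) * N * ‖lin B'‖ + tol i) * ‖x - y‖ := by
  have h1 := ev_tile hLa h hi hdis hne hA hW hw0 hD hw B' hN hNN hNμ
  have h2 := hCu ((fun K => B' '' K) '' Cfg T i)
  have hK : 0 ≤ Cu ((fun K => B' '' K) '' Cfg T i) * (W / w) * N := by positivity
  intro x hx y hy
  exact lip_tile (T.ne i) (fun z hz => LLV_of_affine hK (h1 z hz)) hg hy hx

/-- one point of the image in the cell `c` kills the label `c` on the whole tile -/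
theorem label_zero (hLa : IsOpen La) (h : OutNO p Cu e η Φ T f Ex κ L tol Ds B μ a g u n)
    {i : ι} (hi : i ∉ Ex) {x0 : E3} (hx0 : x0 ∈ P (T.H i)) {c : Φ.F}
    (hc : Φ.Psi (f x0) ∈ Pc Φ.F c) : ∀ y ∈ P (T.H i), u y c = 0 := fun y hy =>
  h.zero i hi x0 hx0 y hy c
    (((foam Φ.bf hLa).sc_eq_zero ((foam Φ.bf hLa).sub c hc)).2 hc)

theorem mem_fc_pair {F : Set (Bx (Fin 3))} {C O : F} {y : E3} :
    y ∈ fc (Pc F) ({C, O} : Set F) ↔ y ∈ Pc F C ∩ Pc F O := by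
  rw [mem_fc]
  constructor
  · exact fun h => ⟨h C (by simp), h O (by simp)⟩
  · rintro ⟨h1, h2⟩ c (rfl | hc)
    · exact h1
    · rw [mem_singleton_iff] at hc
      subst hc
      exact h2

theorem mem_fc_single {F : Set (Bx (Fin 3))} {C : F} {y : E3} :
    y ∈ fc (Pc F) ({C} : Set F) ↔ y ∈ Pc F C := by
  rw [mem_fc]
  constructor
  · exact fun h => h C (by simp)
  · intro h1 c hc
    rw [mem_singleton_iff] at hc
    subst hc
    exact h1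

/-- **(L5) horizontal walls between two logs**: `2 * Cu * N`, no dependence on the foam -/
theorem lip_hor (hLa : IsOpen La) (h : OutNO p Cu e η Φ T f Ex κ L tol Ds B μ a g u n)
    (hCu : ∀ 𝒦, 0 < Cu 𝒦)
    {i : ι} (hi : i ∉ Ex) (hdis : ∀ j ∈ Ex, Disjoint (P (T.H i)) (P (T.H j)))
    {q : ℕ} {al : Fin 3 → ℝ} {s : ℝ} (hs : 0 < s) {C O : Φ.F} (HH : Hor Φ.F q al s C O)
    {x0 : E3} (hx0 : x0 ∈ P (T.H i)) (hx1 : Φ.Psi (f x0) ∈ Pc Φ.F C ∩ Pc Φ.F O)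
    (hw : ∀ c : Φ.F, IsLog q al s c.1 → s ≤ 2 * wf Φ κ L c)
    (B' : E3 ≃ᵃ[ℝ] E3) {N : ℝ} (hN : 0 ≤ N) (hNN : NN Φ T f κ L i ≤ ENNReal.ofReal N)
    (hNμ : TouchD T Ds i → μ ≤ N) (hg : ContinuousOn g (P (T.H i))) :
    ∀ x ∈ P (T.H i), ∀ y ∈ P (T.H i), ‖g x - g y‖ ≤
      (2 * (Cu ((fun K => B' '' K) '' Cfg T i) * N) * ‖lin B'‖ + tol i) * ‖x - y‖ := by
  have hA : ∀ c ∈ ({C, O} : Set Φ.F), ∀ y ∈ P (T.H i), u y c = 0 := by
    rintro c (rfl | hc)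
    · exact label_zero hLa h hi hx0 hx1.1
    · rw [mem_singleton_iff] at hc
      subst hc
      exact label_zero hLa h hi hx0 hx1.2
  have key := lip_tile' hLa h hCu hi hdis ⟨C, by simp⟩ hA hs.le (w := s / 2) (by positivity)
    (fun y hy y' hy' => hor_diam HH hs (mem_fc_pair.1 hy) (mem_fc_pair.1 hy'))
    (fun c hc => by
      obtain ⟨y, hy, hy'⟩ := hc
      have := hw c (HH.log c ⟨y, hy, mem_fc_pair.1 hy'⟩)
      linarith) B' hN hNN hNμ hg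
  intro x hx y hy
  refine (key x hx y hy).trans (le_of_eq ?_)
  have e1 : s / (s / 2) = 2 := by field_simp
  rw [e1]
  ring

/-- **(L5) the other tiles**: `M * Cu * N` if `size C ≤ M * weight c` for the cells `c`
touching a cell `C` which contains a point of the image of the tile -/
theorem lip_gen (hLa : IsOpen La) (h : OutNO p Cu e η Φ T f Ex κ L tol Ds B μ a g u n)
    (hCu : ∀ 𝒦, 0 < Cu 𝒦)
    {i : ι} (hi : i ∉ Ex) (hdis : ∀ j ∈ Ex, Disjoint (P (T.H i)) (P (T.H j)))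
    {C : Φ.F} {x0 : E3} (hx0 : x0 ∈ P (T.H i)) (hx1 : Φ.Psi (f x0) ∈ Pc Φ.F C)
    {M : ℝ} (hM : 0 < M)
    (hw : ∀ c : Φ.F, (Pc Φ.F C ∩ Pc Φ.F c).Nonempty → C.1.sz ≤ M * wf Φ κ L c)
    (B' : E3 ≃ᵃ[ℝ] E3) {N : ℝ} (hN : 0 ≤ N) (hNN : NN Φ T f κ L i ≤ ENNReal.ofReal N)
    (hNμ : TouchD T Ds i → μ ≤ N) (hg : ContinuousOn g (P (T.H i))) :
    ∀ x ∈ P (T.H i), ∀ y ∈ P (T.H i), ‖g x - g y‖ ≤
      (M * (Cu ((fun K => B' '' K) '' Cfg T i) * N) * ‖lin B'‖ + tol i) * ‖x - y‖ := by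
  have hA : ∀ c ∈ ({C} : Set Φ.F), ∀ y ∈ P (T.H i), u y c = 0 := by
    intro c hc
    rw [mem_singleton_iff] at hc
    subst hc
    exact label_zero hLa h hi hx0 hx1
  have hsz : 0 < C.1.sz := Bx.sz_pos (Φ.bf.pos _ C.2)
  have key := lip_tile' hLa h hCu hi hdis (singleton_nonempty C) hA hsz.le (w := C.1.sz / M)
    (by positivity)
    (fun y hy y' hy' => norm_sub_le_sz (Φ.bf.pos _ C.2) (mem_fc_single.1 hy) (mem_fc_single.1 hy'))
    (fun c hc => by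
      obtain ⟨y, hy, hy'⟩ := hc
      have := hw c ⟨y, mem_fc_single.1 hy', hy⟩
      rw [div_le_iff₀ hM]
      linarith) B' hN hNN hNμ hg
  intro x hx y hy
  refine (key x hx y hy).trans (le_of_eq ?_)
  have e1 : C.1.sz / (C.1.sz / M) = M := by field_simp
  rw [e1]
  ring

end Tile

end

end Crest.Agent.R096.Nl_234
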