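import Crest.Agent.R096.No2_276
import Crest.Agent.R096.No5_477

/-!
Row 96 (S0127), helper780.  NO0-ASM leaf (L3) of 477 #10235: the bound on ANY square of a slice, and the
sum over all squares and slices = the layer clause of `NOS`.
-/

set_option autoImplicit false
set_option linter.style.longLine false
set_option linter.unusedSectionVars false

open MeasureTheory Set Filter Topology Metric
open scoped ENNReal

namespace Crest.Agent.R096.Nly_780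

open Crest.Agent.R096.Sq_477 (Dp sl measurable_Dp)
open Crest.Agent.R096.SkC1_961 (E3 Hom3)
open Crest.Agent.R096.SkN1_477 (usq)
open Crest.Agent.R096.No0_477 Crest.Agent.R096.No3_477 Crest.Agent.R096.No5_477
open Crest.Agent.R096.No_276 (sq osq fl face_bad layer_of_faces sq_ae mem_sq_fl isOpen_osq
  measurableSet_osq)

noncomputable section

/-! ### one square -/

/-- partial derivatives of a Lipschitz map (junk value `0` included) -/
theorem Dp_le {h : (Fin 2 → ℝ) → E3} {U : Set (Fin 2 → ℝ)} (hU : IsOpen U) {K : ℝ} (hK : 0 ≤ K)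
    (hL : ∀ y ∈ U, ∀ y' ∈ U, ‖h y - h y'‖ ≤ K * ‖y - y'‖) {y : Fin 2 → ℝ} (hy : y ∈ U) (i : Fin 2) :
    ‖Dp h i y‖ ≤ K := by
  have h1 : ‖fderiv ℝ h y‖ ≤ K := by
    apply norm_fderiv_le_of_lip' ℝ hK
    filter_upwards [hU.mem_nhds hy] with z hz using hL z hz y hy
  unfold Dp
  refine (ContinuousLinearMap.le_opNorm _ _).trans ?_
  rw [Pi.norm_single, norm_one, mul_one]
  exact h1

/-- corner in the plane -/
def pl (a : E3) : Fin 2 → ℝ := fun j => a j.castSucc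

/-- integer corner -/
def qv (o : Fin 2 → ℤ) (v : Fin 2 → ℕ) : Fin 2 → ℤ := fun j => o j + v j

theorem qv_injective (o : Fin 2 → ℤ) : Function.Injective (qv o) := by
  intro v v' h
  funext k
  have := congrFun h k
  simpa [qv] using this

theorem vx_cast (a : E3) (r : ℝ) (o : Fin 2 → ℤ) (m : ℤ) (v : Fin 2 → ℕ) (j : Fin 2) :
    vx a r o m v j.castSucc = pl a j + r * (qv o v j : ℤ) := by
  fin_cases j <;> simp [vx, pl, qv]

theorem vx_two (a : E3) (r : ℝ) (o : Fin 2 → ℤ) (m : ℤ) (v : Fin 2 → ℕ) :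
    vx a r o m v 2 = a 2 + r * m := by simp [vx]

/-- the open square of the plane -/
theorem osq_vx (a : E3) (r : ℝ) (o : Fin 2 → ℤ) (m : ℤ) (v : Fin 2 → ℕ) :
    osq (pl a) r (qv o v) = {y : Fin 2 → ℝ | ∀ j : Fin 2, vx a r o m v j.castSucc < y j ∧
      y j < vx a r o m v j.castSucc + r} := by
  ext y
  simp only [osq, Set.mem_ofPred_eq]
  refine forall_congr' fun j => ?_
  rw [vx_cast]
  have : pl a j + r * ((qv o v j : ℤ) : ℝ) + r = pl a j + r * ((qv o v j : ℤ) + 1) := by ring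
  rw [this]

theorem ins_cast (c : ℝ) (y : Fin 2 → ℝ) (j : Fin 2) :
    (2 : Fin 3).insertNth (α := fun _ => ℝ) c y j.castSucc = y j := by
  have : j.castSucc = (2 : Fin 3).succAbove j := by fin_cases j <;> rfl
  rw [this, Fin.insertNth_apply_succAbove]

theorem ins_two (c : ℝ) (y : Fin 2 → ℝ) :
    (2 : Fin 3).insertNth (α := fun _ => ℝ) c y 2 = c := Fin.insertNth_apply_same _ _ _

theorem norm_ins_sub (c : ℝ) (y y' : Fin 2 → ℝ) :
    ‖((2 : Fin 3).insertNth (α := fun _ => ℝ) c y : E3) -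
      (2 : Fin 3).insertNth (α := fun _ => ℝ) c y'‖ ≤ ‖y - y'‖ := by
  rw [pi_norm_le_iff_of_nonneg (norm_nonneg _)]
  intro k
  rw [Pi.sub_apply]
  rcases Fin.eq_castSucc_or_eq_last k with ⟨j, rfl⟩ | rfl
  · rw [ins_cast, ins_cast]
    exact norm_le_pi_norm (y - y') j
  · have : (Fin.last 2 : Fin 3) = 2 := rfl
    rw [this, ins_two, ins_two, sub_self, norm_zero]
    exact norm_nonneg _

theorem ins_mem {a : E3} {r : ℝ} (hr : 0 < r) {o : Fin 2 → ℤ} {m : ℤ} {v : Fin 2 → ℕ}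
    {y : Fin 2 → ℝ} (hy : y ∈ osq (pl a) r (qv o v)) :
    (2 : Fin 3).insertNth (α := fun _ => ℝ) (a 2 + r * m) y ∈
      usq (fr (vx a r o m v) r hr.ne') := by
  rw [mem_usq_fr hr, ins_two, vx_two]
  refine ⟨rfl, fun j => ?_⟩
  rw [osq_vx a r o m v] at hy
  rw [ins_cast]
  exact ⟨(hy j).1.le, (hy j).2.le⟩

/-- the slice of a Lipschitz map on an open square -/
theorem Dp_sl_le {a : E3} {r : ℝ} (hr : 0 < r) {o : Fin 2 → ℤ} {m : ℤ} {v : Fin 2 → ℕ}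
    {g : E3 → E3} {K : ℝ} (hK : 0 ≤ K)
    (hL : ∀ y ∈ usq (fr (vx a r o m v) r hr.ne'), ∀ y' ∈ usq (fr (vx a r o m v) r hr.ne'),
      ‖g y - g y'‖ ≤ K * ‖y - y'‖) {y : Fin 2 → ℝ} (hy : y ∈ osq (pl a) r (qv o v)) (i : Fin 2) :
    ‖Dp (sl g (a 2 + r * m) 2) i y‖ ≤ K := by
  refine Dp_le (isOpen_osq _ _ _) hK (fun z hz z' hz' => ?_) hy i
  exact (hL _ (ins_mem hr hz) _ (ins_mem hr hz')).trans
    (mul_le_mul_of_nonneg_left (norm_ins_sub _ _ _) hK)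

/-- the differential which is expected -/
def tg (s : Fin 3 → ℝ) (i : Fin 2) : E3 :=
  Pi.single ((2 : Fin 3).succAbove i) (s ((2 : Fin 3).succAbove i))

theorem norm_tg (s : Fin 3 → ℝ) (i : Fin 2) : ‖tg s i‖ ≤ ‖s‖ := by
  unfold tg
  rw [Pi.norm_single]
  exact norm_le_pi_norm s _

/-- **(L3), any square** -/
theorem any_square {p : ℝ} (hp : 0 < p) (s : Fin 3 → ℝ) {a : E3} {r : ℝ} (hr : 0 < r)
    {o : Fin 2 → ℤ} {m : ℤ} {v : Fin 2 → ℕ} {g : E3 → E3} {K : ℝ} (hK : 0 ≤ K)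
    (hL : ∀ y ∈ usq (fr (vx a r o m v) r hr.ne'), ∀ y' ∈ usq (fr (vx a r o m v) r hr.ne'),
      ‖g y - g y'‖ ≤ K * ‖y - y'‖) (i : Fin 2) :
    ∫⁻ y in sq (pl a) r (qv o v), ‖Dp (sl g (a 2 + r * m) 2) i y - tg s i‖ₑ ^ p ≤
      ENNReal.ofReal ((K + ‖s‖) ^ p * r ^ 2) := by
  refine (face_bad hr.le hp hK (fun y hy => Dp_sl_le hr hK hL hy i)).trans ?_
  apply ENNReal.ofReal_le_ofReal
  apply mul_le_mul_of_nonneg_right _ (by positivity)
  exact Real.rpow_le_rpow (by positivity) (by linarith [norm_tg s i]) hp.le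

/-- the sum over the two directions on the closed square = the integral of the sum on the open one -/
theorem sum_sq_eq (p : ℝ) (s : Fin 3 → ℝ) {a : E3} {r : ℝ} (hr : 0 < r) (o : Fin 2 → ℤ) (m : ℤ)
    (v : Fin 2 → ℕ) (g : E3 → E3) :
    ∑ i : Fin 2, ∫⁻ y in sq (pl a) r (qv o v), ‖Dp (sl g (a 2 + r * m) 2) i y - tg s i‖ₑ ^ p =
      ∫⁻ y in {y : Fin 2 → ℝ | ∀ j : Fin 2, vx a r o m v j.castSucc < y j ∧
        y j < vx a r o m v j.castSucc + r}, ∑ i : Fin 2,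
          ‖Dp (sl g (vx a r o m v 2) 2) i y - tg s i‖ₑ ^ p := by
  rw [← osq_vx a r o m v, lintegral_finsetSum _ (fun i _ => measurable_Dp _ _ _ _)]
  refine Finset.sum_congr rfl fun i _ => ?_
  rw [vx_two]
  exact (setLIntegral_congr (sq_ae (pl a) hr.le (qv o v))).symm

theorem any_square_sum {p : ℝ} (hp : 0 < p) (s : Fin 3 → ℝ) {a : E3} {r : ℝ} (hr : 0 < r)
    {o : Fin 2 → ℤ} {m : ℤ} {v : Fin 2 → ℕ} {g : E3 → E3} {K : ℝ} (hK : 0 ≤ K)
    (hL : ∀ y ∈ usq (fr (vx a r o m v) r hr.ne'), ∀ y' ∈ usq (fr (vx a r o m v) r hr.ne'),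
      ‖g y - g y'‖ ≤ K * ‖y - y'‖) :
    ∫⁻ y in {y : Fin 2 → ℝ | ∀ j : Fin 2, vx a r o m v j.castSucc < y j ∧
        y j < vx a r o m v j.castSucc + r}, ∑ i : Fin 2,
          ‖Dp (sl g (vx a r o m v 2) 2) i y - tg s i‖ₑ ^ p ≤
      ENNReal.ofReal (2 * (K + ‖s‖) ^ p * r ^ 2) := by
  rw [← sum_sq_eq p s hr o m v g]
  refine (Finset.sum_le_sum fun i _ => any_square hp s hr hK hL i).trans ?_
  rw [Finset.sum_const, Finset.card_univ, Fintype.card_fin, nsmul_eq_mul]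
  have : ((2 : ℕ) : ℝ≥0∞) = ENNReal.ofReal 2 := by simp
  rw [this, ← ENNReal.ofReal_mul (by norm_num)]
  apply ENNReal.ofReal_le_ofReal
  rw [mul_assoc]

/-! ### the sum -/

theorem add_rpow_le {x y p : ℝ} (hx : 0 ≤ x) (hy : 0 ≤ y) (hp : 0 < p) :
    (x + y) ^ p ≤ 2 ^ p * (x ^ p + y ^ p) := by
  have h1 : (x + y) ^ p ≤ (2 * max x y) ^ p := by
    apply Real.rpow_le_rpow (by positivity) _ hp.le
    linarith [le_max_left x y, le_max_right x y]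
  refine h1.trans ?_
  rw [Real.mul_rpow (by norm_num) (le_max_of_le_left hx)]
  apply mul_le_mul_of_nonneg_left _ (by positivity)
  rcases max_choice x y with h | h <;> rw [h]
  · have := Real.rpow_nonneg hy p; linarith
  · have := Real.rpow_nonneg hx p; linarith

/-- the ball is covered by the squares -/
theorem fl_mem {η r : ℝ} (hr : 0 < r) {a : E3} {o : Fin 2 → ℤ} {M : ℕ}
    (lo : ∀ j : Fin 2, a j.castSucc + r * o j ≤ -(1 - η))
    (hi : ∀ j : Fin 2, 1 - η ≤ a j.castSucc + r * (o j + M)) {y : Fin 2 → ℝ}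
    (hy : y ∈ ball (0 : Fin 2 → ℝ) (1 - η)) :
    fl (pl a) r y ∈ (Fintype.piFinset fun _ : Fin 2 => Finset.range M).image (qv o) := by
  have hn : ∀ j, |y j| < 1 - η := fun j =>
    lt_of_le_of_lt (norm_le_pi_norm y j) (mem_ball_zero_iff.1 hy)
  have h0 : ∀ j, o j ≤ fl (pl a) r y j := by
    intro j
    unfold fl
    rw [Int.le_floor, le_div_iff₀ hr]
    have := (abs_lt.1 (hn j)).1
    have := lo j
    unfold pl
    nlinarith
  have h1 : ∀ j, fl (pl a) r y j < o j + M := by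
    intro j
    unfold fl
    rw [Int.floor_lt, div_lt_iff₀ hr]
    have := (abs_lt.1 (hn j)).2
    have := hi j
    unfold pl
    push_cast
    nlinarith
  refine Finset.mem_image.2 ⟨fun j => (fl (pl a) r y j - o j).toNat, ?_, ?_⟩
  · rw [Fintype.mem_piFinset]
    intro j
    rw [Finset.mem_range]
    have := h0 j
    have := h1 j
    omega
  · funext j
    have := h0 j
    simp only [qv]
    omega

theorem rM_le {r : ℝ} {a : E3} {o : Fin 2 → ℤ} {M : ℕ}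
    (lo : ∀ j : Fin 2, -1 < a j.castSucc + r * o j)
    (hi : ∀ j : Fin 2, a j.castSucc + r * (o j + M) < 1) : r * M < 2 := by
  have h0 := lo 0
  have h1 := hi 0
  have : r * ((o 0 : ℝ) + M) = r * o 0 + r * M := by ring
  linarith

open Classical in
/-- **(L3), the sum over all squares and slices** -/
theorem layers_le {p : ℝ} (hp : 0 < p) {s : Fin 3 → ℝ} {η r : ℝ} (hr : 0 < r) {a : E3}
    {o : Fin 2 → ℤ} {M : ℕ}
    (lo : ∀ j : Fin 2, a j.castSucc + r * o j ≤ -(1 - η) ∧ -1 < a j.castSucc + r * o j)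
    (hi : ∀ j : Fin 2, 1 - η ≤ a j.castSucc + r * (o j + M) ∧ a j.castSucc + r * (o j + M) < 1)
    {Zs : Finset ℤ} {g : E3 → E3} {K1 E1 ω ε : ℝ} (hK : 0 ≤ K1) (hE : 0 ≤ E1) (hω : 0 ≤ ω)
    (hε : 0 ≤ ε) {X : ℤ → (Fin 2 → ℕ) → ℝ} (hX : ∀ m v, 0 ≤ X m v)
    (hlip : ∀ m ∈ Zs, ∀ v, (∀ j, v j < M) → ∀ y ∈ usq (fr (vx a r o m v) r hr.ne'),
      ∀ y' ∈ usq (fr (vx a r o m v) r hr.ne'), ‖g y - g y'‖ ≤ (K1 + X m v) * ‖y - y'‖)
    (hXs : ∑ q ∈ Fc M Zs, X q.1 q.2 ^ p ≤ ε * ((Zs.card : ℝ) * M ^ 2))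
    (Pu : ℤ × (Fin 2 → ℕ) → Prop)
    (hcard : (((Fc M Zs).filter fun q => ¬ Pu q).card : ℝ) ≤ ω * ((Zs.card : ℝ) * M ^ 2))
    (hpure : ∀ q ∈ Fc M Zs, Pu q →
      ∫⁻ y in {y : Fin 2 → ℝ | ∀ j : Fin 2, vx a r o q.1 q.2 j.castSucc < y j ∧
        y j < vx a r o q.1 q.2 j.castSucc + r}, ∑ i : Fin 2,
          ‖Dp (sl g (vx a r o q.1 q.2 2) 2) i y - Pi.single ((2 : Fin 3).succAbove i)
            (s ((2 : Fin 3).succAbove i))‖ₑ ^ p ≤ ENNReal.ofReal (E1 * r ^ 2)) :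
    ∑ m ∈ Zs, ∑ i : Fin 2, (∫⁻ y in ball (0 : Fin 2 → ℝ) (1 - η),
        ‖Dp (sl g (a 2 + r * m) 2) i y - Pi.single ((2 : Fin 3).succAbove i)
          (s ((2 : Fin 3).succAbove i))‖ₑ ^ p) ≤
      Zs.card * ENNReal.ofReal (4 * (E1 + 2 ^ (p + 1) * ((K1 + ‖s‖) ^ p * ω + ε))) := by
  set W : ℤ × (Fin 2 → ℕ) → ℝ≥0∞ := fun q =>
    ∫⁻ y in {y : Fin 2 → ℝ | ∀ j : Fin 2, vx a r o q.1 q.2 j.castSucc < y j ∧
        y j < vx a r o q.1 q.2 j.castSucc + r}, ∑ i : Fin 2,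
          ‖Dp (sl g (vx a r o q.1 q.2 2) 2) i y - tg s i‖ₑ ^ p with hW
  set Sq := Fintype.piFinset (fun _ : Fin 2 => Finset.range M) with hSq
  have hKs : 0 ≤ K1 + ‖s‖ := by positivity
  -- one layer
  have step : ∀ m ∈ Zs, ∑ i : Fin 2, (∫⁻ y in ball (0 : Fin 2 → ℝ) (1 - η),
      ‖Dp (sl g (a 2 + r * m) 2) i y - tg s i‖ₑ ^ p) ≤ ∑ v ∈ Sq, W (m, v) := by
    intro m _
    have h1 : ∀ i : Fin 2, (∫⁻ y in ball (0 : Fin 2 → ℝ) (1 - η),
        ‖Dp (sl g (a 2 + r * m) 2) i y - tg s i‖ₑ ^ p) ≤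
        ∑ v ∈ Sq, ∫⁻ y in sq (pl a) r (qv o v), ‖Dp (sl g (a 2 + r * m) 2) i y - tg s i‖ₑ ^ p := by
      intro i
      have h := layer_of_faces (H := Dp (sl g (a 2 + r * m) 2) i) (A := tg s i) (a := pl a)
        (p := p) (η := η) hr (Sq.image (qv o))
        (fun y hy => fl_mem hr (fun j => (lo j).1) (fun j => (hi j).1) hy)
        (fun q => ∫⁻ y in sq (pl a) r q, ‖Dp (sl g (a 2 + r * m) 2) i y - tg s i‖ₑ ^ p)
        (fun q _ => le_rfl)
      rwa [Finset.sum_image (fun v _ v' _ h => qv_injective o h)] at h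
    refine (Finset.sum_le_sum fun i _ => h1 i).trans ?_
    rw [Finset.sum_comm]
    refine Finset.sum_le_sum fun v _ => ?_
    rw [sum_sq_eq p s hr o m v g]
  -- one square
  set C2 : ℝ := 2 ^ (p + 1) with hC2
  have hC20 : 0 < C2 := by positivity
  set ind : ℤ × (Fin 2 → ℕ) → ℝ := fun q => if Pu q then 0 else 1 with hind
  have hind0 : ∀ q, 0 ≤ ind q := fun q => by simp only [hind]; split_ifs <;> norm_num
  have one : ∀ q ∈ Fc M Zs, W q ≤ ENNReal.ofReal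
      (r ^ 2 * (E1 + (C2 * (K1 + ‖s‖) ^ p) * ind q + C2 * X q.1 q.2 ^ p)) := by
    intro q hq
    have hXq := hX q.1 q.2
    have hXp := Real.rpow_nonneg hXq p
    have hKp := Real.rpow_nonneg hKs p
    by_cases hPq : Pu q
    · refine (hpure q hq hPq).trans (ENNReal.ofReal_le_ofReal ?_)
      have h1 : ind q = 0 := by simp [hind, hPq]
      rw [h1, mul_zero, add_zero, mul_comm E1]
      apply mul_le_mul_of_nonneg_left _ (by positivity)
      have : 0 ≤ C2 * X q.1 q.2 ^ p := by positivity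
      linarith
    · have hm : q.1 ∈ Zs := (Finset.mem_product.1 hq).1
      have hv : ∀ j, q.2 j < M := mem_pi.1 (Finset.mem_product.1 hq).2
      refine (any_square_sum hp s hr (add_nonneg hK hXq) (hlip q.1 hm q.2 hv)).trans
        (ENNReal.ofReal_le_ofReal ?_)
      have h1 : ind q = 1 := by simp [hind, hPq]
      rw [h1, mul_one]
      have h2 : (K1 + X q.1 q.2 + ‖s‖) ^ p ≤ 2 ^ p * ((K1 + ‖s‖) ^ p + X q.1 q.2 ^ p) := by
        have := add_rpow_le hKs hXq hp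
        have h3 : K1 + X q.1 q.2 + ‖s‖ = K1 + ‖s‖ + X q.1 q.2 := by ring
        rw [h3]; exact this
      have h4 : C2 = 2 * 2 ^ p := by
        rw [hC2, Real.rpow_add_one (by norm_num)]; ring
      have h5 : 2 * (K1 + X q.1 q.2 + ‖s‖) ^ p ≤ C2 * (K1 + ‖s‖) ^ p + C2 * X q.1 q.2 ^ p := by
        rw [h4]; linarith
      rw [mul_comm (2 * (K1 + X q.1 q.2 + ‖s‖) ^ p)]
      apply mul_le_mul_of_nonneg_left _ (by positivity)
      linarith
  have hsum : ∑ q ∈ Fc M Zs, (r ^ 2 * (E1 + (C2 * (K1 + ‖s‖) ^ p) * ind q + C2 * X q.1 q.2 ^ p)) ≤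
      Zs.card * (4 * (E1 + C2 * ((K1 + ‖s‖) ^ p * ω + ε))) := by
    have hKp := Real.rpow_nonneg hKs p
    have h1 : ∑ q ∈ Fc M Zs, ind q = (((Fc M Zs).filter fun q => ¬ Pu q).card : ℝ) := by
      rw [Finset.card_filter]
      push_cast
      refine Finset.sum_congr rfl fun q _ => ?_
      simp only [hind]
      by_cases h : Pu q <;> simp [h]
    set N0 : ℝ := (Zs.card : ℝ) * M ^ 2 with hN0
    have hN00 : 0 ≤ N0 := by positivity
    rw [← Finset.mul_sum, Finset.sum_add_distrib, Finset.sum_add_distrib, Finset.sum_const,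
      nsmul_eq_mul, card_Fc, ← Finset.mul_sum, ← Finset.mul_sum, h1]
    have h2 : N0 * E1 + C2 * (K1 + ‖s‖) ^ p * (((Fc M Zs).filter fun q => ¬ Pu q).card : ℝ) +
        C2 * ∑ q ∈ Fc M Zs, X q.1 q.2 ^ p ≤ N0 * (E1 + C2 * ((K1 + ‖s‖) ^ p * ω + ε)) := by
      have h3 := mul_le_mul_of_nonneg_left hcard (show 0 ≤ C2 * (K1 + ‖s‖) ^ p by positivity)
      have h4 := mul_le_mul_of_nonneg_left hXs hC20.le
      calc _ ≤ N0 * E1 + C2 * (K1 + ‖s‖) ^ p * (ω * N0) + C2 * (ε * N0) := by linarith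
        _ = _ := by ring
    have h5 : r * M < 2 := rM_le (fun j => (lo j).2) (fun j => (hi j).2)
    have h6 : r ^ 2 * (M : ℝ) ^ 2 ≤ 4 := by
      have : 0 ≤ r * M := by positivity
      nlinarith
    have hB : 0 ≤ E1 + C2 * ((K1 + ‖s‖) ^ p * ω + ε) := by positivity
    calc _ ≤ r ^ 2 * (N0 * (E1 + C2 * ((K1 + ‖s‖) ^ p * ω + ε))) :=
          mul_le_mul_of_nonneg_left h2 (by positivity)
      _ = (Zs.card : ℝ) * ((r ^ 2 * (M : ℝ) ^ 2) * (E1 + C2 * ((K1 + ‖s‖) ^ p * ω + ε))) := by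
          rw [hN0]; ring
      _ ≤ _ := mul_le_mul_of_nonneg_left (mul_le_mul_of_nonneg_right h6 hB) (by positivity)
  calc _ ≤ ∑ m ∈ Zs, ∑ v ∈ Sq, W (m, v) := Finset.sum_le_sum step
    _ = ∑ q ∈ Fc M Zs, W q := by
        unfold Fc
        rw [Finset.sum_product]
    _ ≤ ∑ q ∈ Fc M Zs, ENNReal.ofReal
        (r ^ 2 * (E1 + (C2 * (K1 + ‖s‖) ^ p) * ind q + C2 * X q.1 q.2 ^ p)) :=
        Finset.sum_le_sum one
    _ = ENNReal.ofReal (∑ q ∈ Fc M Zs,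
        (r ^ 2 * (E1 + (C2 * (K1 + ‖s‖) ^ p) * ind q + C2 * X q.1 q.2 ^ p))) := by
        rw [ENNReal.ofReal_sum_of_nonneg]
        intro q _
        have := hind0 q
        have := Real.rpow_nonneg (hX q.1 q.2) p
        have := Real.rpow_nonneg hKs p
        positivity
    _ ≤ ENNReal.ofReal (Zs.card * (4 * (E1 + C2 * ((K1 + ‖s‖) ^ p * ω + ε)))) :=
        ENNReal.ofReal_le_ofReal hsum
    _ = _ := by
        rw [ENNReal.ofReal_mul (by positivity), ENNReal.ofReal_natCast]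

/-- from the slices `m ∈ Zs` to a family -/
theorem fin_form {Zs : Finset ℤ} (hne : Zs.Nonempty) (z : ℤ → ℝ) {L : ℝ}
    (hz : ∀ m ∈ Zs, |L * z m| ≤ 1 / 2) {F : ℝ → ℝ≥0∞} {B : ℝ≥0∞}
    (h : ∑ m ∈ Zs, F (z m) ≤ Zs.card * B) :
    ∃ (N : ℕ) (z' : Fin N → ℝ), 0 < N ∧ (∀ k, |L * z' k| ≤ 1 / 2) ∧ ∑ k, F (z' k) ≤ N * B := by
  refine ⟨Zs.card, fun k => z (Zs.equivFin.symm k), Finset.card_pos.2 hne,
    fun k => hz _ (Zs.equivFin.symm k).2, ?_⟩
  refine le_trans (le_of_eq ?_) h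
  rw [← Finset.sum_coe_sort Zs]
  exact Equiv.sum_comp Zs.equivFin.symm (fun m : Zs => F (z m))

section main

open Crest.Agent.R096.Bsp_628 Crest.Agent.R096.Brk1_582 Crest.Agent.R096.Brk3_582
open Crest.Agent.R096.Brk5_582
open Crest.Agent.R096.Msh_715
open Crest.Agent.R096.SkC1_961

variable {δ κ0 R c0 : ℝ} {La Om : Set E3} {ι : Type}

open Classical in
/-- **(L3), final form: the layer clause of `NOS`** -/
theorem nos_layers {p : ℝ} (hp : 0 < p) {Φ : FoamD δ κ0 R c0 La} {f : E3 → E3} {κ : Φ.F → ℕ}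
    {Lv : Φ.F → Finset ℝ} {s : Fin 3 → ℝ} {ε K1 E1 ω η r e : ℝ} {hr : r ≠ 0} {a : E3}
    {o : Fin 2 → ℤ} {M : ℕ} {Zs : Finset ℤ} {U : ℤ → (Fin 2 → ℕ) → Prop} {g : E3 → E3}
    {u : E3 → Φ.F → ℝ} {T : Tiling Om ι} {Ex : Set ι} {𝒬 : Set (Set E3)} {L : ℕ}
    (G : NOGeo T Ex 𝒬 L η r hr a o M Zs U) (H : NONum p Φ f κ Lv s ε K1 r hr a o M Zs U g u)
    (hK : 0 ≤ K1) (hE : 0 ≤ E1) (hω : 0 ≤ ω) (hε : 0 ≤ ε) (Pu : ℤ × (Fin 2 → ℕ) → Prop)
    (hcard : (((Fc M Zs).filter fun q => ¬ Pu q).card : ℝ) ≤ ω * ((Zs.card : ℝ) * M ^ 2))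
    (hpure : ∀ q ∈ Fc M Zs, Pu q →
      ∫⁻ y in {y : Fin 2 → ℝ | ∀ j : Fin 2, vx a r o q.1 q.2 j.castSucc < y j ∧
        y j < vx a r o q.1 q.2 j.castSucc + r}, ∑ i : Fin 2,
          ‖Dp (sl g (vx a r o q.1 q.2 2) 2) i y - Pi.single ((2 : Fin 3).succAbove i)
            (s ((2 : Fin 3).succAbove i))‖ₑ ^ p ≤ ENNReal.ofReal (E1 * r ^ 2))
    (he : 4 * (E1 + 2 ^ (p + 1) * ((K1 + ‖s‖) ^ p * ω + ε)) ≤ e) :
    ∃ (N : ℕ) (z : Fin N → ℝ), 0 < N ∧ (∀ k, |L * z k| ≤ 1 / 2) ∧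
      ∑ k, ∑ i : Fin 2, (∫⁻ y in ball (0 : Fin 2 → ℝ) (1 - η),
        ‖Dp (sl g (z k) 2) i y - Pi.single ((2 : Fin 3).succAbove i)
          (s ((2 : Fin 3).succAbove i))‖ₑ ^ p) ≤ N * ENNReal.ofReal e := by
  obtain ⟨X, hX0, hXlip, hXs⟩ := H.lip
  have h1 := layers_le hp G.r0 G.lo G.hi hK hE hω hε hX0 hXlip hXs Pu hcard hpure
  have h2 := h1.trans (mul_le_mul_right (ENNReal.ofReal_le_ofReal he) _)
  set F : ℝ → ℝ≥0∞ := fun c => ∑ i : Fin 2, (∫⁻ y in ball (0 : Fin 2 → ℝ) (1 - η),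
        ‖Dp (sl g c 2) i y - Pi.single ((2 : Fin 3).succAbove i)
          (s ((2 : Fin 3).succAbove i))‖ₑ ^ p) with hF
  have h3 : ∑ m ∈ Zs, F ((fun m : ℤ => a 2 + r * m) m) ≤ Zs.card * ENNReal.ofReal e := h2
  clear h1 h2 hpure
  obtain ⟨N, z, hN, hz, hs⟩ := fin_form (L := (L : ℝ)) G.zne (fun m : ℤ => a 2 + r * m) G.zs h3
  exact ⟨N, z, hN, hz, hs⟩

end main

/-! ### change of the map away from the layers -/

/-- the layers see only the germ of `g` -/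
theorem Dp_sl_congr {g g' : E3 → E3} {c : ℝ} {y : Fin 2 → ℝ}
    (h : g' =ᶠ[𝓝 ((2 : Fin 3).insertNth (α := fun _ => ℝ) c y : E3)] g) (i : Fin 2) :
    Dp (sl g' c 2) i y = Dp (sl g c 2) i y := by
  unfold Dp
  have hc : Continuous fun z : Fin 2 → ℝ => ((2 : Fin 3).insertNth (α := fun _ => ℝ) c z : E3) := by
    refine continuous_pi fun k => ?_
    rcases Fin.eq_castSucc_or_eq_last k with ⟨j, rfl⟩ | rfl
    · simp only [ins_cast]; exact continuous_apply j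
    · have : (Fin.last 2 : Fin 3) = 2 := rfl
      simp only [this, ins_two]; exact continuous_const
  have h1 : sl g' c 2 =ᶠ[𝓝 y] sl g c 2 := (hc.tendsto y).eventually h
  rw [h1.fderiv_eq]

end

end Crest.Agent.R096.Nly_780
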