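import Crest.Agent.R096.No6_477

/-!
Row 96 (S0127), helper477.  Node **NO0-ASM**: the designated faces of the slices are admissible
(`FaceD`) for the machine.
-/

set_option autoImplicit false
set_option linter.style.longLine false
set_option linter.unusedSectionVars false

open MeasureTheory Set Filter Topology Metric
open scoped ENNReal

namespace Crest.Agent.R096.No7_477

open Crest.Agent.R096.Bsp_628 Crest.Agent.R096.Brk1_582 Crest.Agent.R096.Brk3_582
open Crest.Agent.R096.Brk5_582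
open Crest.Agent.R096.Msh_715
open Crest.Agent.R096.SkC1_961 Crest.Agent.R096.SkN1_477 Crest.Agent.R096.No0_477
open Crest.Agent.R096.No5_477 Crest.Agent.R096.No6_477

noncomputable section

theorem frN_mf (a : E3) (r : ℝ) (hr : r ≠ 0) (o : Fin 2 → ℤ) (m : ℤ) (v : Fin 2 → ℕ) :
    frN r hr (mf (vx a r o m v) r) = fr (vx a r o m v) r hr := by
  unfold frN
  congr 1
  ext i
  fin_cases i <;> simp [mf, vx]

/-- the side of a square with a given direction -/
theorem side_dir {w w' : E3} {r : ℝ} (hr : 0 < r) {j j' : Fin 2} {b b' : ℝ}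
    (h : side (fr w r hr.ne') j b = side (fr w' r hr.ne') j' b') : j = j' := by
  by_contra hne
  have hj' : j = 1 - j' := by
    revert hne; revert j j'; intro j j' _
    fin_cases j <;> fin_cases j' <;> simp
  have hj1 : (1 - j : Fin 2) ≠ j := by fin_cases j <;> simp
  -- two points of the first side which differ in coordinate `j`
  have hx : ∀ t : ℝ, 0 ≤ t → t ≤ 1 → ∃ x ∈ side (fr w r hr.ne') j b,
      x j.castSucc = w j.castSucc + r * t := by
    intro t h0 h1
    refine ⟨(fun k => if k = 2 then w 2 else if k = j.castSucc then w k + r * t else w k + r * b),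
      ?_, ?_⟩
    · rw [mem_side_fr hr]
      have e1 : j.castSucc ≠ (2 : Fin 3) := by fin_cases j <;> decide
      have e2 : (1 - j).castSucc ≠ (2 : Fin 3) := by fin_cases j <;> decide
      have e3 : (1 - j).castSucc ≠ j.castSucc := by fin_cases j <;> decide
      simp only [if_neg e1, if_neg e2, if_neg e3, if_true, true_and, and_true]
      constructor <;> nlinarith
    · have e1 : j.castSucc ≠ (2 : Fin 3) := by fin_cases j <;> decide
      simp only [if_neg e1, if_true]
  obtain ⟨x0, hx0, e0⟩ := hx 0 le_rfl zero_le_one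
  obtain ⟨x1, hx1, e1⟩ := hx 1 zero_le_one le_rfl
  rw [h, mem_side_fr hr, ← hj'] at hx0 hx1
  have c0 := hx0.2.2.2
  have c1 := hx1.2.2.2
  rw [e0] at c0
  rw [e1] at c1
  nlinarith

variable {δ κ0 R c0 : ℝ} {La Om : Set E3} {ι : Type}

/-- **the designated faces of the slices are admissible** -/
theorem faceD_of {T : Tiling Om ι} {Ex : Set ι} {𝒬 : Set (Set E3)} {L : ℕ} {η r : ℝ}
    {hr : r ≠ 0} {a : E3} {o : Fin 2 → ℤ} {M : ℕ} {Zs : Finset ℤ} {U : ℤ → (Fin 2 → ℕ) → Prop}
    (G : NOGeo T Ex 𝒬 L η r hr a o M Zs U) {Λ ν : ℝ} {b : Fin 2 → ℝ} (hν : 0 < ν)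
    (hb : ∀ j, b j = 0 ∨ (ν / Λ ≤ b j ∧ b j ≤ ν)) :
    FaceD T Ex (DsN a r o M Zs U) (frN r hr) Λ ν b := by
  have h0 : 0 < r := G.r0
  refine ⟨?_, ?_, ?_, ?_, ?_, ?_, hν, hb⟩
  · rintro x ⟨m, hm, v, hv, hU, rfl⟩
    by_contra hx
    have := (G.face m hm v hv hU).1
    obtain ⟨i, hi, -, -⟩ := G.tile m hm v hv hU
    apply hx
    refine T.sub i ?_
    rw [hi]
    intro k
    fin_cases k
    · exact ⟨by simp [mf]; linarith, by simp [mf]; linarith⟩
    · exact ⟨by simp [mf]; linarith, by simp [mf]; linarith⟩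
    · exact ⟨by simp [mf], by simp [mf]; linarith⟩
  · rintro x ⟨m, hm, v, hv, hU, rfl⟩
    exact (G.face m hm v hv hU).1
  · rintro x ⟨m, hm, v, hv, hU, rfl⟩
    rw [frN_mf]
    exact (G.face m hm v hv hU).2
  · rintro x ⟨m, hm, v, hv, hU, rfl⟩ j b hb
    rw [frN_mf]
    rcases hb with rfl | rfl
    · simpa using G.edge m hm v hv hU j 0 (Or.inl rfl)
    · simpa using G.edge m hm v hv hU j 1 (Or.inr rfl)
  · rintro x ⟨m, hm, v, hv, hU, rfl⟩ x' ⟨m', hm', v', hv', hU', rfl⟩ j j' b b' h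
    rw [frN_mf, frN_mf] at h
    exact side_dir h0 h
  · rintro x ⟨m, hm, v, hv, hU, rfl⟩ y hy i hi
    rw [(G.face m hm v hv hU).2] at hy
    exact G.off m hm v hv hU y (usq_sub_cub h0 hy) i hi

end

end Crest.Agent.R096.No7_477
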