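import Crest.Agent.R096.Nly1_780
import Crest.Agent.R096.No7_477
import Crest.Agent.R096.Fs3_168

/-!
Row 96 (S0127), helper780.  NO0-ASM, composition of the leaves (L1) (477: `pure_most`, `hD_pure`),
(L2) (168: `L2_out`), (L3) (`nos_layers`) and the choice of the constants.
-/

set_option autoImplicit false
set_option linter.style.longLine false
set_option linter.unusedSectionVars false

open MeasureTheory Set Filter Topology Metric
open scoped ENNReal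

namespace Crest.Agent.R096.Nly_780

open Crest.Agent.R096.Sq_477 (Dp sl)
open Crest.Agent.R096.Bsp_628 Crest.Agent.R096.Brk1_582 Crest.Agent.R096.Brk3_582
open Crest.Agent.R096.Brk5_582
open Crest.Agent.R096.Msh_715
open Crest.Agent.R096.SkC1_961 Crest.Agent.R096.SkN1_477 Crest.Agent.R096.No0_477
open Crest.Agent.R096.No3_477 Crest.Agent.R096.No5_477 Crest.Agent.R096.No6_477

noncomputable section

/-- scale of the two weights -/
theorem exists_scale (s : Fin 3 → ℝ) (hs : ∀ i, 0 ≤ s i) : ∃ S1 Λ : ℝ, 0 < S1 ∧ 1 ≤ Λ ∧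
    ∀ j : Fin 2, s j.castSucc = 0 ∨ (S1 / Λ ≤ s j.castSucc ∧ s j.castSucc ≤ S1) := by
  set A := s (0 : Fin 2).castSucc with hA
  set B := s (1 : Fin 2).castSucc with hB
  have hA0 : 0 ≤ A := hs _
  have hB0 : 0 ≤ B := hs _
  rcases hA0.eq_or_lt with hA1 | hA1
  · rcases hB0.eq_or_lt with hB1 | hB1
    · refine ⟨1, 1, one_pos, le_rfl, fun j => Or.inl ?_⟩
      fin_cases j
      · exact hA1.symm
      · exact hB1.symm
    · refine ⟨B, 1, hB1, le_rfl, fun j => ?_⟩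
      fin_cases j
      · exact Or.inl hA1.symm
      · exact Or.inr ⟨(div_one _).le, le_rfl⟩
  · rcases hB0.eq_or_lt with hB1 | hB1
    · refine ⟨A, 1, hA1, le_rfl, fun j => ?_⟩
      fin_cases j
      · exact Or.inr ⟨(div_one _).le, le_rfl⟩
      · exact Or.inl hB1.symm
    · have hM : 0 < max A B := lt_max_of_lt_left hA1
      have hm : 0 < min A B := lt_min hA1 hB1
      have hmm : min A B ≤ max A B := (min_le_left _ _).trans (le_max_left _ _)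
      have e1 : max A B / (max A B / min A B) = min A B := by field_simp
      refine ⟨max A B, max A B / min A B, hM, (one_le_div hm).2 hmm, fun j => Or.inr ?_⟩
      rw [e1]
      fin_cases j
      · exact ⟨min_le_left _ _, le_max_left _ _⟩
      · exact ⟨min_le_right _ _, le_max_right _ _⟩

/-- **choice of the constants** -/
theorem exists_consts {p : ℝ} (hp : 1 ≤ p) (s : Fin 3 → ℝ) (hs : ∀ i, 0 ≤ s i) {S1 : ℝ}
    (hS1 : 0 < S1) {e : ℝ} (he : 0 < e) : ∃ ef : ℝ, 0 < ef ∧ ∀ η K1 : ℝ, 0 < η → 0 ≤ K1 →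
    ∃ τ ε : ℝ, 0 < τ ∧ 0 < ε ∧ ε ≤ 1 ∧ 2 * τ + ε ≤ η * S1 ∧ ε ≤ η * S1 ∧
      4 * (4 * 3 ^ p * (ef * S1 ^ p + ε ^ p) + 2 ^ (p + 1) * ((K1 + ‖s‖) ^ p *
        (ε + 4 * ((ε * (s 0 + s 1 + 1) + (6 + K1) * ε) / τ)) + ε)) ≤ e := by
  have hSp : 0 < S1 ^ p := Real.rpow_pos_of_pos hS1 p
  have h3p : (0 : ℝ) < 3 ^ p := by positivity
  have h2p : (0 : ℝ) < 2 ^ (p + 1) := by positivity
  refine ⟨e / (32 * 3 ^ p * S1 ^ p), by positivity, fun η K1 hη hK => ?_⟩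
  set τ : ℝ := η * S1 / 4 with hτ
  have hτ0 : 0 < τ := by positivity
  have hsum : 0 ≤ s 0 + s 1 + 1 := by have := hs 0; have := hs 1; positivity
  have hKs : 0 ≤ (K1 + ‖s‖) ^ p := Real.rpow_nonneg (by positivity) p
  set D : ℝ := 16 * 3 ^ p + 4 * 2 ^ (p + 1) * ((K1 + ‖s‖) ^ p *
    (1 + 4 * ((s 0 + s 1 + 1 + (6 + K1)) / τ)) + 1) with hD
  have hD0 : 0 < D := by positivity
  set ε : ℝ := min (min 1 (η * S1 / 4)) (e / (2 * D)) with hε
  have hε0 : 0 < ε := lt_min (lt_min one_pos (by positivity)) (by positivity)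
  have hε1 : ε ≤ 1 := (min_le_left _ _).trans (min_le_left _ _)
  have hε2 : ε ≤ η * S1 / 4 := (min_le_left _ _).trans (min_le_right _ _)
  have hε3 : ε ≤ e / (2 * D) := min_le_right _ _
  have hηS : 0 < η * S1 := by positivity
  refine ⟨τ, ε, hτ0, hε0, hε1, ?_, ?_, ?_⟩
  · rw [hτ]; linarith
  · linarith
  · have hεp : ε ^ p ≤ ε := by
      calc ε ^ p ≤ ε ^ (1 : ℝ) := Real.rpow_le_rpow_of_exponent_ge hε0 hε1 hp
        _ = ε := Real.rpow_one ε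
    have e1 : 4 * (4 * 3 ^ p * (e / (32 * 3 ^ p * S1 ^ p) * S1 ^ p)) = e / 2 := by
      field_simp
      ring
    have e2 : (ε * (s 0 + s 1 + 1) + (6 + K1) * ε) / τ =
        ε * ((s 0 + s 1 + 1 + (6 + K1)) / τ) := by ring
    have e3 : ε * D ≤ e / 2 := by
      calc ε * D ≤ e / (2 * D) * D := mul_le_mul_of_nonneg_right hε3 hD0.le
        _ = e / 2 := by field_simp
    rw [e2]
    calc 4 * (4 * 3 ^ p * (e / (32 * 3 ^ p * S1 ^ p) * S1 ^ p + ε ^ p) +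
          2 ^ (p + 1) * ((K1 + ‖s‖) ^ p *
          (ε + 4 * (ε * ((s 0 + s 1 + 1 + (6 + K1)) / τ))) + ε))
        = 4 * (4 * 3 ^ p * (e / (32 * 3 ^ p * S1 ^ p) * S1 ^ p)) + 16 * 3 ^ p * ε ^ p +
          ε * (4 * 2 ^ (p + 1) * ((K1 + ‖s‖) ^ p *
            (1 + 4 * ((s 0 + s 1 + 1 + (6 + K1)) / τ)) + 1)) := by ring
      _ ≤ e / 2 + 16 * 3 ^ p * ε + ε * (4 * 2 ^ (p + 1) * ((K1 + ‖s‖) ^ p *
            (1 + 4 * ((s 0 + s 1 + 1 + (6 + K1)) / τ)) + 1)) := by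
          rw [e1]
          have := mul_le_mul_of_nonneg_left hεp (show (0 : ℝ) ≤ 16 * 3 ^ p by positivity)
          linarith
      _ = e / 2 + ε * D := by rw [hD]; ring
      _ ≤ e := by linarith

open Classical in
/-- **the layers after the machine**: one theorem for (L1), (L2), (L3).  `S1`, `Λ` = scale of the
designated faces (`ν = S1 * r`, `a j = s j * r`), `ef` = accuracy of the face rule; then `η` (and `K1`
= the Lipschitz bound on pure squares), then `ε` = accuracy of the numbers and of `tol`. -/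
theorem layers_out {p : ℝ} (hp : 1 ≤ p) (s : Fin 3 → ℝ) (hs : ∀ i, 0 ≤ s i) {e : ℝ} (he : 0 < e) :
    ∃ S1 Λ ef : ℝ, 0 < S1 ∧ 1 ≤ Λ ∧ 0 < ef ∧
      (∀ j : Fin 2, s j.castSucc = 0 ∨ (S1 / Λ ≤ s j.castSucc ∧ s j.castSucc ≤ S1)) ∧
      ∀ η K1 : ℝ, 0 < η → 0 ≤ K1 → ∃ ε : ℝ, 0 < ε ∧
      ∀ {δ κ0 R c0 : ℝ} {La Om : Set E3} {ι : Type} {Cu : Set (Set E3) → ℝ}
        {Φ : FoamD δ κ0 R c0 La} {T : Tiling Om ι} {f : E3 → E3} {Ex : Set ι} {κ : Φ.F → ℕ}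
        {Lv : Φ.F → Finset ℝ} {tol : ι → ℝ} {r : ℝ} (hr : r ≠ 0) {a : E3} {o : Fin 2 → ℤ} {M : ℕ}
        {Zs : Finset ℤ} {U : ℤ → (Fin 2 → ℕ) → Prop} {𝒬 : Set (Set E3)} {L : ℕ} {ηg : ℝ}
        {g : E3 → E3} {u : E3 → Φ.F → ℝ} {n : Set E3 → Φ.F → ℝ}, ηg ≤ 1 / 2 →
        NOGeo T Ex 𝒬 L ηg r hr a o M Zs U →
        NONum p Φ f κ Lv s ε K1 r hr a o M Zs U g u →
        OutNO p Cu ef η Φ T f Ex κ Lv tol (DsN a r o M Zs U) (frN r hr) (S1 * r)
          (fun j => s j.castSucc * r) g u n →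
        Str_696.LocPL g Om → (∀ i, tol i ≤ ε) →
        ∃ (N : ℕ) (z : Fin N → ℝ), 0 < N ∧ (∀ k, |L * z k| ≤ 1 / 2) ∧
          ∑ k, ∑ i : Fin 2, (∫⁻ y in ball (0 : Fin 2 → ℝ) (1 - ηg),
            ‖Dp (sl g (z k) 2) i y - Pi.single ((2 : Fin 3).succAbove i)
              (s ((2 : Fin 3).succAbove i))‖ₑ ^ p) ≤ N * ENNReal.ofReal e := by
  obtain ⟨S1, Λ, hS1, hΛ, hsc⟩ := exists_scale s hs
  obtain ⟨ef, hef, hc⟩ := exists_consts hp s hs hS1 he
  refine ⟨S1, Λ, ef, hS1, hΛ, hef, hsc, fun η K1 hη hK => ?_⟩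
  obtain ⟨τ, ε, hτ, hε, hε1, h1, h2, h3⟩ := hc η K1 hη hK
  refine ⟨ε, hε, ?_⟩
  intro δ κ0 R c0 La Om ι Cu Φ T f Ex κ Lv tol r hr a o M Zs U 𝒬 L ηg g u n hηg G H hO hpl htol
  have hr0 : 0 < r := G.r0
  have hM : 1 ≤ M * r := by
    have l0 := (G.lo 0).1
    have l1 := (G.hi 0).1
    have : r * ((o 0 : ℝ) + M) = r * o 0 + M * r := by ring
    linarith
  have hcard := pure_most (θ := ε) hp hs hr0 hε.le hε.le hε1 hτ hK hM H
    (hD_pure hO hr0 G hε.le htol)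
  have hp0 : 0 < p := lt_of_lt_of_le one_pos hp
  refine nos_layers (E1 := 4 * 3 ^ p * (ef * S1 ^ p + ε ^ p)) hp0 G H hK ?_ ?_ hε.le _ hcard ?_ h3
  · have := Real.rpow_nonneg hS1.le p
    have := Real.rpow_nonneg hε.le p
    positivity
  · have h0 := hs 0
    have h1 := hs 1
    positivity
  · rintro ⟨m, v⟩ hq hP
    have hqq := Finset.mem_product.1 hq
    exact Fs_168.L2_out hp hef.le hr0 G hs hS1.le hO hpl hτ.le hε.le htol h1 h2 hqq.1
      (mem_pi.1 hqq.2) hP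

end

end Crest.Agent.R096.Nly_780
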