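/-
helper867, row 96, NO0-PRE3, leaf [X3] of 962 #11402: the NUMBERS of one good shift `a ∈ A'`,
`volume (box 3 \ A') ≤ 1/4`, from 273's `bad_shift`.
-/
import Crest.Agent.R096.Ps11_273

set_option autoImplicit false

open MeasureTheory Set Filter
open scoped Topology ENNReal

namespace Crest.Agent.R096.Nm_867

open Crest.Agent.R096.Msh_810 Crest.Agent.R096.Bas_731 Crest.Agent.R96.En3_199
  Crest.Agent.R96.En4_199 Crest.Agent.R96.En5_199 Crest.Agent.R96.En2_199 Crest.Agent.R96.En6_199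
  Crest.Agent.R96.En7_199 Crest.Agent.R96.En8_199 Crest.Agent.R96.En9_199
  Crest.Agent.R96.En11_199
  Crest.Agent.R96.Acl_392 Crest.Agent.R96.Sob2_199 Crest.Agent.R96.Sob3_199
  Crest.Agent.R096.Ps_273

noncomputable section

theorem sum_num : ((3 : ℕ) * (∑' _j : Unit, (24 : ℝ≥0∞)⁻¹) + 2 * (3 : ℕ) * (48 : ℝ≥0∞)⁻¹) +
    1 / 4 = 1 / 2 := by
  have h1 : (∑' _j : Unit, (24 : ℝ≥0∞)⁻¹) = (24 : ℝ≥0∞)⁻¹ := by simp
  have e1 : (24 : ℝ≥0∞)⁻¹ = ENNReal.ofReal (1 / 24) := by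
    rw [one_div, ENNReal.ofReal_inv_of_pos (by norm_num)]; norm_num
  have e2 : (48 : ℝ≥0∞)⁻¹ = ENNReal.ofReal (1 / 48) := by
    rw [one_div, ENNReal.ofReal_inv_of_pos (by norm_num)]; norm_num
  have e3 : (1 / 4 : ℝ≥0∞) = ENNReal.ofReal (1 / 4) := by
    rw [one_div, one_div, ENNReal.ofReal_inv_of_pos (by norm_num)]; norm_num
  have e4 : (1 / 2 : ℝ≥0∞) = ENNReal.ofReal (1 / 2) := by
    rw [one_div, one_div, ENNReal.ofReal_inv_of_pos (by norm_num)]; norm_num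
  have e5 : ((3 : ℕ) : ℝ≥0∞) = ENNReal.ofReal 3 := by norm_num
  have e6 : (2 : ℝ≥0∞) = ENNReal.ofReal 2 := by norm_num
  rw [h1, e1, e2, e3, e4, e5, e6, ← ENNReal.ofReal_mul (by norm_num), ← ENNReal.ofReal_mul (by norm_num),
    ← ENNReal.ofReal_mul (by norm_num), ← ENNReal.ofReal_add (by norm_num) (by norm_num),
    ← ENNReal.ofReal_add (by norm_num) (by norm_num)]
  norm_num

/-- **[X3] NUMBERS.**  One shift `a ∈ A'` with the sharp energies of the edges (exponents `p`, `1`),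
the energy of the cubes on `R'`, and countably many functions of the shift. -/
theorem exists_num (D : Dat 3) {Ω : Set (Fin 3 → ℝ)} (hΩ : IsOpen Ω)
    (hsub : Ω ⊆ D.Om) {𝒞 : Type*} [Countable 𝒞]
    {v : 𝒞 → (Fin 3 → ℝ) → ℝ}
    {g : 𝒞 → Fin 3 → (Fin 3 → ℝ) → ℝ} (hg : ∀ c i, Measurable (g c i))
    (hg0 : ∀ c i, ∀ x, x ∉ Ω → g c i x = 0)
    (hwd : ∀ c i, WD Ω volume (v c) (g c i) (Pi.single i (1:ℝ))) (hv : ∀ c, ContinuousOn (v c) Ω)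
    (w : 𝒞 → ℝ≥0∞)
    (s : Fin 3 → ℝ≥0∞) {p : ℝ} (hp : 1 ≤ p)
    {R' : Set (Fin 3 → ℝ)} (hR : MeasurableSet R')
    {η : Type*} [Countable η] {H : η → (Fin 3 → ℝ) → ℝ≥0∞} (hH : ∀ k, Measurable (H k))
    {θ : η → ℝ≥0∞} (hθ : ∀ k, ∫⁻ a in box 3, H k a ≤ θ k) {m : η → ℝ≥0∞} (hm : ∀ k, m k ≠ 0)
    (hms : ∑' k, (m k)⁻¹ ≤ 1 / 4)
    {Q : (Fin 3 → ℝ) → Prop} (hQ : ∀ᵐ a, Q a)
    {A' : Set (Fin 3 → ℝ)} (hA : volume (box 3 \ A') ≤ 1 / 4) :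
    ∃ a ∈ A', a ∈ box 3 ∧ Q a ∧ (∀ (k : ℕ) (z : Fin 3 → ℤ), Good Ω v g (vx a k z)) ∧
      (∀ l, Ed (D.sh a) l p (Xs w g s l) ≤ 96 * ∫⁻ x in Ω, Xs w g s l x ^ p) ∧
      (∀ l, Ed (D.sh a) l 1 (Xs w g s l) ≤ 96 * ∫⁻ x in Ω, Xs w g s l x) ∧
      S (D.sh a) p (R'.indicator (GGw w g)) ≤
        24 * KE 3 p * ∫⁻ x in Ω ∩ R', GGw w g x ^ p ∧
      ∀ k, H k a ≤ m k * θ k := by
  by_contra hcon
  have hbad := bad_shift D hΩ hsub hg hg0 hwd hv w s hp (ι := Unit) (R := fun _ => R')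
    (fun _ => hR) (κ := fun _ => 24) (fun _ => by norm_num) hH hθ hm (c0 := 48) (by norm_num) hQ
  set Bd : Set (Fin 3 → ℝ) := {a ∈ box 3 | ¬ (Q a ∧
    (∀ (k : ℕ) (z : Fin 3 → ℤ), Good Ω v g (vx a k z)) ∧
      (∀ i, Ed (D.sh a) i p (Xs w g s i) ≤ 48 * (2 * ∫⁻ x in Ω, Xs w g s i x ^ p)) ∧
      (∀ i, Ed (D.sh a) i 1 (Xs w g s i) ≤ 48 * (2 * ∫⁻ x in Ω, Xs w g s i x)) ∧
      (∀ _j : Unit, S (D.sh a) p (R'.indicator (GGw w g)) ≤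
        24 * (KE 3 p * ∫⁻ x in Ω ∩ R', GGw w g x ^ p)) ∧
      ∀ k, H k a ≤ m k * θ k)} with hBd
  have hsub' : box 3 ⊆ Bd ∪ (box 3 \ A') := by
    intro a ha
    by_cases haA : a ∈ A'
    swap
    · exact Or.inr ⟨ha, haA⟩
    refine Or.inl ⟨ha, fun hgood => hcon ?_⟩
    obtain ⟨g1, g2, g3, g4, g5, g6⟩ := hgood
    refine ⟨a, haA, ha, g1, g2, fun l => ?_, fun l => ?_, ?_, g6⟩
    · refine (g3 l).trans (le_of_eq ?_)
      rw [← mul_assoc]; norm_num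
    · refine (g4 l).trans (le_of_eq ?_)
      rw [← mul_assoc]; norm_num
    · refine (g5 ()).trans (le_of_eq ?_)
      rw [← mul_assoc]
  have h1 := (measure_mono (μ := (volume : Measure (Fin 3 → ℝ))) hsub').trans
    (measure_union_le _ _)
  rw [volume_box] at h1
  have h2 : volume Bd ≤ 1 / 2 := by
    refine hbad.trans ?_
    refine (add_le_add le_rfl hms).trans (le_of_eq ?_)
    exact sum_num
  have h3 : (1 : ℝ≥0∞) ≤ 1 / 2 + 1 / 4 := h1.trans (add_le_add h2 hA)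
  have e3 : (1 / 4 : ℝ≥0∞) = ENNReal.ofReal (1 / 4) := by
    rw [one_div, one_div, ENNReal.ofReal_inv_of_pos (by norm_num)]; norm_num
  have e4 : (1 / 2 : ℝ≥0∞) = ENNReal.ofReal (1 / 2) := by
    rw [one_div, one_div, ENNReal.ofReal_inv_of_pos (by norm_num)]; norm_num
  rw [e3, e4, ← ENNReal.ofReal_add (by norm_num) (by norm_num), ← ENNReal.ofReal_one,
    ENNReal.ofReal_le_ofReal_iff (by norm_num)] at h3
  norm_num at h3

end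

end Crest.Agent.R096.Nm_867
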