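import Crest.Agent.R096.Gno2_324
import Crest.Agent.R096.Ls5_222

/-!
# Row 96 (S0127), NO0 (helper205), NONUM part 1: the edges of a uniform cube

`led a r z l` = closed edge of the lattice `a + r ℤ³` with lowest vertex `z` in direction `l`.
`edge_uniform` : every closed 1-cell in the tile above a uniform square is one of 12 lattice edges.
`NN_uniform` : `NN` of the tile is at most the sum over the 12 edges.
`Vw_eq_EN` : weight of the initial points on a closed 1-cell (477's `Vw` = 222's `EN`).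
-/

set_option autoImplicit false
set_option linter.style.longLine false
set_option linter.unusedSectionVars false

open MeasureTheory Set Filter Topology Metric
open scoped ENNReal

namespace Crest.Agent.R096.Nnm_205

open Crest.Agent.R96.Sg1_199
open Crest.Agent.R096.Msh_715 Crest.Agent.R096.SkC1_961 Crest.Agent.R096.SkN1_477
open Crest.Agent.R096.No0_477 Crest.Agent.R096.Gno_324
open Crest.Agent.R096.Ls_222 (Edg ea ev sgm_edg eIn mem_eIn EN us NN_le)

noncomputable section

/-- closed lattice edge with lowest vertex `z` in direction `l` -/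
def led (a : E3) (r : ℝ) (z : Fin 3 → ℤ) (l : Fin 3) : Set E3 :=
  {y | ∀ i, a i + r * z i ≤ y i ∧ y i ≤ a i + r * (z i + if i = l then 1 else 0)}

/-- the 12 edges of a cube: direction and position of the lowest vertex -/
def I12 : Finset (Fin 3 × (Fin 3 → Fin 2)) := Finset.univ.filter fun k => k.2 k.1 = 0

theorem card_I12 : I12.card = 12 := by decide

/-- lowest vertex of the edge `k` of the cube `z0` -/
def ez (z0 : Fin 3 → ℤ) (k : Fin 3 × (Fin 3 → Fin 2)) : Fin 3 → ℤ := fun i => z0 i + (k.2 i : ℕ)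

theorem led_of_lc {a : E3} {r : ℝ} (hr : 0 < r) {x : E3} {z0 : Fin 3 → ℤ} (hx : x ∈ lcub a r z0)
    {l : Fin 3} (hl : ¬ onp a r x l) (hi : ∀ i, i ≠ l → onp a r x i) :
    ∃ k ∈ I12, lc a r x = led a r (ez z0 k) k.1 := by
  classical
  set b : Fin 3 → Fin 2 := fun i => if i = l then 0 else if x i = a i + r * z0 i then 0 else 1
    with hb
  have hbl : b l = 0 := by simp [hb]
  have hxb : ∀ i, i ≠ l → x i = a i + r * ((z0 i : ℝ) + ((b i : ℕ) : ℝ)) := by
    intro i hil
    by_cases h : x i = a i + r * z0 i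
    · have : b i = 0 := by simp [hb, h]
      rw [this, h]; simp
    · have h1 : b i = 1 := by simp [hb, hil, h]
      obtain ⟨t, ht⟩ := hi i hil
      obtain ⟨h2, h3⟩ := hx i
      rw [ht] at h2 h3
      have h4 : (z0 i : ℝ) ≤ t := le_of_mul_le_mul_left (by linarith) hr
      have h5 : (t : ℝ) ≤ z0 i + 1 := le_of_mul_le_mul_left (by linarith) hr
      have h6 : z0 i ≤ t := by exact_mod_cast h4
      have h7 : t ≤ z0 i + 1 := by exact_mod_cast h5
      have h8 : t ≠ z0 i := fun e => h (by rw [ht, e])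
      have h9 : t = z0 i + 1 := by omega
      rw [h1, ht, h9]; push_cast; simp
  have hl1 : a l + r * z0 l < x l := lt_of_le_of_ne (hx l).1 fun h => hl ⟨z0 l, h.symm⟩
  have hl2 : x l < a l + r * (z0 l + 1) :=
    lt_of_le_of_ne (hx l).2 fun h => hl ⟨z0 l + 1, by rw [h]; push_cast; ring⟩
  refine ⟨(l, b), by simp [I12, hbl], ?_⟩
  ext y
  constructor
  · intro hy i
    by_cases h : i = l
    · subst h
      have e : ((ez z0 (i, b) i : ℤ) : ℝ) = z0 i := by simp [ez, hbl]
      rw [e, if_pos rfl]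
      have h1 := (hy i (z0 i)).1 hl1.le
      have h2 := (hy i (z0 i + 1)).2 (by push_cast; exact hl2.le)
      push_cast at h2
      exact ⟨h1, h2⟩
    · have e : ((ez z0 (l, b) i : ℤ) : ℝ) = (z0 i : ℝ) + ((b i : ℕ) : ℝ) := by simp [ez]
      have h1 := lc_eq_of_onp hy (hi i h)
      have h2 := hxb i h
      rw [e, if_neg h, add_zero]
      rw [h1, h2]
      exact ⟨le_rfl, le_rfl⟩
  · intro hy i t
    by_cases h : i = l
    · subst h
      obtain ⟨h1, h2⟩ := hy i
      have e : ((ez z0 (i, b) i : ℤ) : ℝ) = z0 i := by simp [ez, hbl]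
      rw [e] at h1 h2
      rw [if_pos rfl] at h2
      constructor
      · intro h3
        have h4 : a i + r * t ≤ a i + r * z0 i := lcub_le hr (p := x i) (lt_of_le_of_ne h3
          fun h => hl ⟨t, h.symm⟩) hl2.le
        linarith
      · intro h3
        have h4 : a i + r * (z0 i + 1) ≤ a i + r * t := le_lcub hr (p := x i) (lt_of_le_of_ne h3
          fun h => hl ⟨t, h⟩) hl1.le
        linarith
    · obtain ⟨h1, h2⟩ := hy i
      have e : ((ez z0 (l, b) i : ℤ) : ℝ) = (z0 i : ℝ) + ((b i : ℕ) : ℝ) := by simp [ez]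
      rw [e] at h1 h2
      rw [if_neg h, add_zero] at h2
      have h3 := hxb i h
      have h4 : y i = x i := by rw [h3]; exact le_antisymm h2 h1
      rw [h4]
      exact ⟨id, id⟩

section tiling

variable {Om : Set E3} {ι : Type} {T : Tiling Om ι} {Ex : Set ι} {a : E3} {r : ℝ} {o : Fin 2 → ℤ}
  {m : ℤ} {v : Fin 2 → ℕ}

/-- **the closed 1-cells of the tile above a uniform square** -/
theorem edge_uniform (hr : 0 < r) (hU : Ug T Ex a r o m v) {i : ι}
    (hi : P (T.H i) = cub (vx a r o m v) r) {e : Edg T} (he : e ∈ eIn T i) :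
    ∃ k ∈ I12, e.1 = led a r (ez (vz o m v) k) k.1 := by
  classical
  rw [mem_eIn, hi] at he
  obtain ⟨e, x, hx, hd, rfl⟩ := e
  have hxc : x ∈ cub (vx a r o m v) r := he (T.self_mem_cc x)
  have hL := hU.lat hxc
  rw [dim_lat hr hx hL, Fintype.card_eq_one_iff] at hd
  obtain ⟨⟨l, hl⟩, hu⟩ := hd
  have hxl : x ∈ lcub a r (vz o m v) := by rw [← cub_vx]; exact hxc
  obtain ⟨k, hk, h1⟩ := led_of_lc hr hxl hl (fun i hil => by
    by_contra h
    exact hil (congrArg Subtype.val (hu ⟨i, h⟩)))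
  exact ⟨k, hk, (cc_lat hr hx hL).trans h1⟩

/-- **sums over the edges of the tile above a uniform square** -/
theorem sum_eIn_le (hr : 0 < r) (hU : Ug T Ex a r o m v) {i : ι}
    (hi : P (T.H i) = cub (vx a r o m v) r) {N : Edg T → ℝ≥0∞}
    {F : Fin 3 × (Fin 3 → Fin 2) → ℝ≥0∞}
    (hF : ∀ k ∈ I12, ∀ e : Edg T, e.1 = led a r (ez (vz o m v) k) k.1 → N e ≤ F k) :
    ∑ e ∈ eIn T i, N e ≤ ∑ k ∈ I12, F k := by
  classical
  have key : ∀ e : Edg T, ∃ k, e ∈ eIn T i → k ∈ I12 ∧ e.1 = led a r (ez (vz o m v) k) k.1 := by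
    intro e
    by_cases he : e ∈ eIn T i
    · obtain ⟨k, hk, h⟩ := edge_uniform hr hU hi he
      exact ⟨k, fun _ => ⟨hk, h⟩⟩
    · exact ⟨(0, 0), fun h => absurd h he⟩
  choose φ hφ using key
  have hinj : Set.InjOn φ (eIn T i : Set (Edg T)) := by
    intro e he e' he' h
    have h1 := (hφ e he).2
    have h2 := (hφ e' he').2
    rw [h, ← h2] at h1
    exact Subtype.ext h1
  calc ∑ e ∈ eIn T i, N e ≤ ∑ e ∈ eIn T i, F (φ e) :=
        Finset.sum_le_sum fun e he => hF _ (hφ e he).1 e (hφ e he).2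
    _ = ∑ k ∈ (eIn T i).image φ, F k := (Finset.sum_image hinj).symm
    _ ≤ ∑ k ∈ I12, F k := Finset.sum_le_sum_of_subset fun k hk => by
        obtain ⟨e, he, rfl⟩ := Finset.mem_image.1 hk
        exact (hφ e he).1

/-- position of the side `(j, b)` of the square -/
def kS (j b : Fin 2) : Fin 3 × (Fin 3 → Fin 2) :=
  (j.castSucc, fun i => if i = (1 - j).castSucc then b else 0)

theorem kS_mem (j b : Fin 2) : kS j b ∈ I12 := by revert j b; decide

theorem side_eq_led (hr : 0 < r) (hr' : r ≠ 0) (j b : Fin 2) :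
    side (fr (vx a r o m v) r hr') j ((b : ℕ) : ℝ) = led a r (ez (vz o m v) (kS j b)) j.castSucc := by
  ext y
  rw [mem_side_fr hr hr' j]
  have e0 : ∀ i, vx a r o m v i = a i + r * vz o m v i := vx_eq a r o m v
  constructor
  · rintro ⟨h1, h2, h3, h4⟩ i
    rw [e0] at h1 h2 h3 h4
    by_cases hi : i = j.castSucc
    · subst hi
      have e : ((ez (vz o m v) (kS j b) j.castSucc : ℤ) : ℝ) = vz o m v j.castSucc := by
        have : j.castSucc ≠ (1 - j).castSucc := fin_a j
        simp [ez, kS, this]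
      rw [e, if_pos rfl]
      exact ⟨h1, by linarith⟩
    · rcases fin_d j i hi with h | h
      · subst h
        have e : ((ez (vz o m v) (kS j b) (1 - j).castSucc : ℤ) : ℝ) =
            vz o m v (1 - j).castSucc + ((b : ℕ) : ℝ) := by
          simp [ez, kS]
        rw [e, if_neg (Ne.symm (fin_a j)), add_zero, h3]
        constructor <;> linarith
      · subst h
        have e : ((ez (vz o m v) (kS j b) 2 : ℤ) : ℝ) = vz o m v 2 := by
          have : (2 : Fin 3) ≠ (1 - j).castSucc := fin_b j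
          simp [ez, kS, this]
        rw [e, if_neg (fin_c j), add_zero, h4]
        exact ⟨le_rfl, le_rfl⟩
  · intro h
    have hj := h j.castSucc
    have hk := h (1 - j).castSucc
    have h2 := h 2
    have e : ((ez (vz o m v) (kS j b) j.castSucc : ℤ) : ℝ) = vz o m v j.castSucc := by
      have : j.castSucc ≠ (1 - j).castSucc := fin_a j
      simp [ez, kS, this]
    have e' : ((ez (vz o m v) (kS j b) (1 - j).castSucc : ℤ) : ℝ) =
        vz o m v (1 - j).castSucc + ((b : ℕ) : ℝ) := by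
      simp [ez, kS]
    have e'' : ((ez (vz o m v) (kS j b) 2 : ℤ) : ℝ) = vz o m v 2 := by
      have : (2 : Fin 3) ≠ (1 - j).castSucc := fin_b j
      simp [ez, kS, this]
    rw [e, if_pos rfl] at hj
    rw [e', if_neg (Ne.symm (fin_a j)), add_zero] at hk
    rw [e'', if_neg (fin_c j), add_zero] at h2
    rw [e0, e0, e0]
    refine ⟨hj.1, by linarith [hj.2], ?_, le_antisymm h2.2 h2.1⟩
    have := le_antisymm hk.2 hk.1
    linarith

end tiling

section foam

variable {δ κ0 R c0 : ℝ} {La Om : Set E3} {ι : Type} {Φ : FoamD δ κ0 R c0 La} {T : Tiling Om ι}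
  {f : E3 → E3} {κ : Φ.F → ℕ} {L : Φ.F → Finset ℝ}

theorem Vw_eq_EN (e : Edg T) : Vw Φ f κ L e.1 = EN (us Φ f) κ L e := by
  unfold Vw EN cr
  rw [sgm_edg]
  rfl

variable {Ex : Set ι} {a : E3} {r : ℝ} {o : Fin 2 → ℤ} {m : ℤ} {v : Fin 2 → ℕ}

/-- the sum of the tangents over the 12 edges -/
theorem sum_I12 (s : Fin 3 → ℝ) : ∑ k ∈ I12, s k.1 = 4 * (s 0 + s 1 + s 2) := by
  have h : ∑ k ∈ I12, s k.1 = ∑ l : Fin 3, ∑ k ∈ I12 with k.1 = l, s k.1 :=
    (Finset.sum_fiberwise _ _ _).symm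
  rw [h, Fin.sum_univ_three]
  have hc : ∀ l : Fin 3, ∑ k ∈ I12 with k.1 = l, s k.1 = 4 * s l := by
    intro l
    rw [Finset.sum_congr rfl (g := fun _ => s l) (fun k hk => by rw [(Finset.mem_filter.1 hk).2]),
      Finset.sum_const, nsmul_eq_mul]
    have : (I12.filter fun k => k.1 = l).card = 4 := by revert l; decide
    rw [this]; norm_num
  rw [hc, hc, hc]
  ring

/-- **`NN` of the tile above a uniform square** -/
theorem NN_uniform (hr : 0 < r) (hU : Ug T Ex a r o m v) {i : ι}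
    (hi : P (T.H i) = cub (vx a r o m v) r)
    (hv : ∀ c, ∀ t ∈ L c, ∀ x ∈ Om, T.dim x = 0 → Φ.lev c (f x) ≠ t)
    {s : Fin 3 → ℝ} (hs : ∀ l, 0 ≤ s l) {x : Fin 3 → (Fin 3 → ℤ) → ℝ} (hx : ∀ l z, 0 ≤ x l z)
    (hEN : ∀ k ∈ I12, ∀ e : Edg T, e.1 = led a r (ez (vz o m v) k) k.1 →
      EN (us Φ f) κ L e ≤ ENNReal.ofReal (r * (s k.1 + x k.1 (ez (vz o m v) k)))) :
    NN Φ T f κ L i ≤ ENNReal.ofReal (r * (4 * (s 0 + s 1 + s 2) +
      ∑ k ∈ I12, x k.1 (ez (vz o m v) k))) := by
  refine (NN_le hv i).trans ((sum_eIn_le hr hU hi hEN).trans (le_of_eq ?_))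
  rw [← ENNReal.ofReal_sum_of_nonneg fun k _ => mul_nonneg hr.le (add_nonneg (hs _) (hx _ _)),
    ← Finset.mul_sum, Finset.sum_add_distrib, sum_I12]

end foam

end

end Crest.Agent.R096.Nnm_205
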