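import Crest.Agent.R096.Qd2_205

/-!
# Row 96, NO0, QUAD (helper205), part 3: the clause `good` of `NONum` by counting volumes

The cubes over the squares of the slices have disjoint half-open interiors of volume `r ^ 3`; a cube
without a point over a closed good square of the log foam lies in the exceptional set.
-/

set_option autoImplicit false
set_option linter.style.longLine false
set_option linter.unusedSectionVars false

open MeasureTheory Set Filter Topology Metric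
open scoped ENNReal

namespace Crest.Agent.R096.Qd_205

open Crest.Agent.R096.Bsp_628 Crest.Agent.R096.Brk1_582 Crest.Agent.R096.Brk3_582
open Crest.Agent.R096.Brk5_582
open Crest.Agent.R096.Log1_582 Crest.Agent.R096.Log2_582 Crest.Agent.R096.Dic1_582
open Crest.Agent.R096.Dic5_582
open Crest.Agent.R096.Msh_715
open Crest.Agent.R096.SkC1_961 Crest.Agent.R096.SkN1_477 Crest.Agent.R096.No0_477

noncomputable section

/-- half-open cube -/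
def hcub (w : E3) (r : ℝ) : Set E3 := Set.pi univ fun i => Ico (w i) (w i + r)

theorem mem_hcub {w : E3} {r : ℝ} {x : E3} : x ∈ hcub w r ↔ ∀ i, w i ≤ x i ∧ x i < w i + r := by
  simp [hcub]

theorem hcub_sub (w : E3) (r : ℝ) : hcub w r ⊆ cub w r := fun _ hx i =>
  ⟨(mem_hcub.1 hx i).1, (mem_hcub.1 hx i).2.le⟩

theorem measurable_hcub (w : E3) (r : ℝ) : MeasurableSet (hcub w r) :=
  MeasurableSet.univ_pi fun _ => measurableSet_Ico

theorem volume_hcub (w : E3) {r : ℝ} (hr : 0 ≤ r) : volume (hcub w r) = ENNReal.ofReal (r ^ 3) := by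
  rw [hcub, volume_pi_pi]
  simp only [Real.volume_Ico, add_sub_cancel_left, Finset.prod_const, Finset.card_univ,
    Fintype.card_fin]
  rw [ENNReal.ofReal_pow hr]

theorem cub_nonempty (w : E3) {r : ℝ} (hr : 0 ≤ r) : (cub w r).Nonempty :=
  ⟨w, fun i => ⟨le_rfl, by linarith⟩⟩

/-- the half-open cubes of different indices are disjoint -/
theorem hcub_disjoint {a : E3} {r : ℝ} (hr : 0 < r) {o : Fin 2 → ℤ} {q q' : ℤ × (Fin 2 → ℕ)}
    (hne : q ≠ q') : Disjoint (hcub (vx a r o q.1 q.2) r) (hcub (vx a r o q'.1 q'.2) r) := by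
  rw [Set.disjoint_left]
  intro x hx hx'
  rw [mem_hcub] at hx hx'
  have key : ∀ b : ℝ, ∀ n n' : ℤ, ∀ y : ℝ, b + r * n ≤ y → y < b + r * n + r →
      b + r * n' ≤ y → y < b + r * n' + r → n = n' := by
    intro b n n' y h1 h2 h3 h4
    have e1 : r * ((n : ℝ) - n') < r * 1 := by nlinarith
    have e2 : r * ((n' : ℝ) - n) < r * 1 := by nlinarith
    have e3 := lt_of_mul_lt_mul_left e1 hr.le
    have e4 := lt_of_mul_lt_mul_left e2 hr.le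
    have e5 : n - n' < 1 := by exact_mod_cast e3
    have e6 : n' - n < 1 := by exact_mod_cast e4
    omega
  apply hne
  have h0 : o 0 + q.2 0 = o 0 + q'.2 0 := by
    have k := hx 0
    have k' := hx' 0
    simp only [vx, Matrix.cons_val_zero] at k k'
    refine key (a 0) _ _ (x 0) ?_ ?_ ?_ ?_ <;> push_cast
    · exact k.1
    · exact k.2
    · exact k'.1
    · exact k'.2
  have h1 : o 1 + q.2 1 = o 1 + q'.2 1 := by
    have k := hx 1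
    have k' := hx' 1
    simp only [vx, Matrix.cons_val_one, Matrix.cons_val_zero] at k k'
    refine key (a 1) _ _ (x 1) ?_ ?_ ?_ ?_ <;> push_cast
    · exact k.1
    · exact k.2
    · exact k'.1
    · exact k'.2
  have h2 : q.1 = q'.1 := by
    have k := hx 2
    have k' := hx' 2
    simp only [vx, Matrix.cons_val] at k k'
    exact key (a 2) _ _ (x 2) k.1 k.2 k'.1 k'.2
  refine Prod.ext h2 ?_
  funext k
  fin_cases k
  · simpa using h0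
  · simpa using h1

/-- **the number of cubes contained in a set is at most its volume / r³** -/
theorem card_cub_le {a : E3} {r : ℝ} (hr : 0 < r) {o : Fin 2 → ℤ} (S : Set E3)
    (B : Finset (ℤ × (Fin 2 → ℕ))) (hB : ∀ q ∈ B, hcub (vx a r o q.1 q.2) r ⊆ S) :
    ENNReal.ofReal ((B.card : ℝ) * r ^ 3) ≤ volume S := by
  calc ENNReal.ofReal ((B.card : ℝ) * r ^ 3) = ∑ q ∈ B, volume (hcub (vx a r o q.1 q.2) r) := by
        simp_rw [volume_hcub _ hr.le]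
        rw [Finset.sum_const, nsmul_eq_mul, ENNReal.ofReal_mul (by positivity),
          ENNReal.ofReal_natCast]
    _ = volume (⋃ q ∈ B, hcub (vx a r o q.1 q.2) r) := by
        rw [measure_biUnion_finset]
        · intro q _ q' _ hne
          exact hcub_disjoint hr hne
        · intro q _
          exact measurable_hcub _ _
    _ ≤ volume S := measure_mono (iUnion₂_subset hB)

variable {δ κ0 R c0 : ℝ} {La Om : Set E3} {ι : Type} {Φ : FoamD δ κ0 R c0 La}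
variable {q : ℕ} {a' : Fin 3 → ℝ} {h : ℝ} {f : E3 → E3}
  {u : E3 → Φ.F → ℝ} {κ : Φ.F → ℕ} {L : Φ.F → Finset ℝ}

theorem mem_Fc {M : ℕ} {Zs : Finset ℤ} {k : ℤ × (Fin 2 → ℕ)} :
    k ∈ Fc M Zs ↔ k.1 ∈ Zs ∧ ∀ j, k.2 j < M := by
  rw [Fc, Finset.mem_product, Fintype.mem_piFinset]
  simp

/-- **the clause `good` of `NONum`** -/
theorem good_clause {T : Tiling Om ι} {p : ℝ} {Cu : Set (Set E3) → ℝ} {e' η' : ℝ} {Ex : Set ι}
    {tol : ι → ℝ} {Ds : Set E3} {B : E3 → E3 ≃ᵃ[ℝ] E3} {μ : ℝ} {al : Fin 2 → ℝ} {g : E3 → E3}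
    {n : Set E3 → Φ.F → ℝ} (hO : OutNO p Cu e' η' Φ T f Ex κ L tol Ds B μ al g u n)
    {𝒬 : Set (Set E3)} {Ls : ℕ} {η r : ℝ} {hr : r ≠ 0} {a : E3} {o : Fin 2 → ℤ} {M : ℕ}
    {Zs : Finset ℤ} {U : ℤ → (Fin 2 → ℕ) → Prop} (hG : NOGeo T Ex 𝒬 Ls η r hr a o M Zs U)
    (hLa : IsOpen La) (hq : 1 ≤ q) (hh : 0 < h)
    (hw : ∀ c : Φ.F, IsLog q a' h c.1 → (L c).card * (2 : ℝ)⁻¹ ^ κ c = h / 2)
    {ε : ℝ} (hκ : ∀ c : Φ.F, IsLog q a' h c.1 → (2 : ℝ)⁻¹ ^ κ c ≤ ε * r)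
    {QQ : Set E3} (hQ : ∀ x ∈ QQ, ∃ (e o' i j : ℤ) (_ : GSq Φ.F q a' h e o' i j),
      Φ.Psi (f x) ∈ sqr a' h e o' i j) {S : Set E3}
    (hS : ∀ m ∈ Zs, ∀ v : Fin 2 → ℕ, (∀ j, v j < M) → cub (vx a r o m v) r ⊆ S)
    {ε1 ε2 : ℝ} (hvol : volume (S \ QQ) ≤ ENNReal.ofReal (ε1 * ((Zs.card : ℝ) * M ^ 2) * r ^ 3))
    (hU : (({k : ℤ × (Fin 2 → ℕ) | k ∈ Fc M Zs ∧ ¬ U k.1 k.2}).ncard : ℝ) ≤
      ε2 * ((Zs.card : ℝ) * M ^ 2)) (hε1 : 0 ≤ ε1) (hε : ε1 + ε2 ≤ ε) :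
    (({k : ℤ × (Fin 2 → ℕ) | k ∈ Fc M Zs ∧ ¬ (U k.1 k.2 ∧ ∃ c1 c2 σ1 σ2 w b,
      QF Φ κ L u (cub (vx a r o k.1 k.2) r) c1 c2 σ1 σ2 w b ∧
      (2 : ℝ)⁻¹ ^ κ c1 ≤ ε * r ∧ (2 : ℝ)⁻¹ ^ κ c2 ≤ ε * r)}).ncard : ℝ) ≤
      ε * ((Zs.card : ℝ) * M ^ 2) := by
  classical
  set N0 : ℝ := (Zs.card : ℝ) * M ^ 2 with hN0
  have hN0' : 0 ≤ N0 := by positivity
  have hr3 : 0 < r ^ 3 := by have := hG.r0; positivity
  set Bd : Finset (ℤ × (Fin 2 → ℕ)) := (Fc M Zs).filter fun k =>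
    hcub (vx a r o k.1 k.2) r ⊆ S \ QQ with hBd
  have h1 : (Bd.card : ℝ) ≤ ε1 * N0 := by
    have h2 := (card_cub_le hG.r0 (S \ QQ) Bd fun k hk => (Finset.mem_filter.1 hk).2).trans hvol
    rw [ENNReal.ofReal_le_ofReal_iff (by positivity)] at h2
    exact le_of_mul_le_mul_right h2 hr3
  have hsub : {k : ℤ × (Fin 2 → ℕ) | k ∈ Fc M Zs ∧ ¬ (U k.1 k.2 ∧ ∃ c1 c2 σ1 σ2 w b,
      QF Φ κ L u (cub (vx a r o k.1 k.2) r) c1 c2 σ1 σ2 w b ∧
      (2 : ℝ)⁻¹ ^ κ c1 ≤ ε * r ∧ (2 : ℝ)⁻¹ ^ κ c2 ≤ ε * r)} ⊆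
      {k : ℤ × (Fin 2 → ℕ) | k ∈ Fc M Zs ∧ ¬ U k.1 k.2} ∪ ↑Bd := by
    rintro k ⟨hk, hnot⟩
    obtain ⟨hm, hv⟩ := mem_Fc.1 hk
    by_cases hUk : U k.1 k.2
    · right
      rw [hBd, Finset.coe_filter]
      refine ⟨hk, ?_⟩
      intro x hx
      have hxc := hcub_sub _ _ hx
      refine ⟨hS _ hm _ hv hxc, ?_⟩
      intro hxQ
      apply hnot
      refine ⟨hUk, ?_⟩
      obtain ⟨i, hi, -, hdis⟩ := hG.tile _ hm _ hv hUk
      have hiE : i ∉ Ex := by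
        intro hiE
        have := hdis i hiE
        have h6 : P (T.H i) = ∅ := disjoint_self.1 this
        rw [hi] at h6
        exact (cub_nonempty _ hG.r0.le).ne_empty h6
      obtain ⟨e, o', i', j', G, hGx⟩ := hQ x hxQ
      obtain ⟨c1, c2, σ1, σ2, b, hqf, l1, l2⟩ := qf_of_outNO hO hiE G hLa hq hh hw
        (x := x) (by rw [hi]; exact hxc) hGx
      rw [hi] at hqf
      exact ⟨c1, c2, σ1, σ2, h / 2, b, hqf, hκ _ l1, hκ _ l2⟩
    · left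
      exact ⟨hk, hUk⟩
  have hfin : ({k : ℤ × (Fin 2 → ℕ) | k ∈ Fc M Zs ∧ ¬ U k.1 k.2} ∪ (↑Bd : Set _)).Finite :=
    ((Fc M Zs).finite_toSet.subset fun k hk => hk.1).union Bd.finite_toSet
  have h3 := (Set.ncard_le_ncard hsub hfin).trans (Set.ncard_union_le _ _)
  rw [Set.ncard_coe_finset] at h3
  have h4 : (({k : ℤ × (Fin 2 → ℕ) | k ∈ Fc M Zs ∧ ¬ (U k.1 k.2 ∧ ∃ c1 c2 σ1 σ2 w b,
      QF Φ κ L u (cub (vx a r o k.1 k.2) r) c1 c2 σ1 σ2 w b ∧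
      (2 : ℝ)⁻¹ ^ κ c1 ≤ ε * r ∧ (2 : ℝ)⁻¹ ^ κ c2 ≤ ε * r)}).ncard : ℝ) ≤
      (({k : ℤ × (Fin 2 → ℕ) | k ∈ Fc M Zs ∧ ¬ U k.1 k.2}).ncard : ℝ) + Bd.card := by
    exact_mod_cast h3
  have h5 : (ε1 + ε2) * N0 ≤ ε * N0 := mul_le_mul_of_nonneg_right hε hN0'
  linarith

end

end Crest.Agent.R096.Qd_205
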