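import Crest.Agent.R096.Nnm1_205
import Crest.Agent.R096.Qd3_205
import Crest.Agent.R096.Nl2_234

/-!
# Row 96 (S0127), NO0 (helper205), NONUM part 2: the clauses `wt`, `ends`, `lip` of `NONum` from the
numbers on the lattice edges; assembly `nonum_of`
-/

set_option autoImplicit false
set_option linter.style.longLine false
set_option linter.unusedSectionVars false

open MeasureTheory Set Filter Topology Metric
open scoped ENNReal

namespace Crest.Agent.R096.Nnm_205

open Crest.Agent.R096.Bsp_628 Crest.Agent.R096.Brk1_582 Crest.Agent.R096.Brk3_582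
open Crest.Agent.R096.Brk5_582
open Crest.Agent.R096.Log1_582 Crest.Agent.R096.Log2_582 Crest.Agent.R096.Dic1_582
open Crest.Agent.R096.Dic5_582
open Crest.Agent.R096.Msh_715 Crest.Agent.R096.SkC1_961 Crest.Agent.R096.SkN1_477
open Crest.Agent.R096.No0_477 Crest.Agent.R096.Gno_324
open Crest.Agent.R096.Ls_222 (Edg ea ev sgm_edg eIn mem_eIn EN us NN_le Psi_mem_La)
open Crest.Agent.R096.Qd_205 (mem_Fc good_clause)
open Crest.Agent.R096.Nl_234 (num_lip wf HWq)

noncomputable section

/-! ### real numbers -/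

theorem le_add_rpow {p θ t : ℝ} (hp : 1 ≤ p) (hθ : 0 < θ) (ht : 0 ≤ t) :
    t ≤ θ + θ ^ (1 - p) * t ^ p := by
  rcases le_or_gt t θ with h | h
  · have : 0 ≤ θ ^ (1 - p) * t ^ p := by positivity
    linarith
  · have ht0 : 0 < t := hθ.trans h
    have h1 : t = t ^ (1 - p) * t ^ p := by
      rw [← Real.rpow_add ht0]; norm_num
    have h2 : t ^ (1 - p) ≤ θ ^ (1 - p) :=
      Real.rpow_le_rpow_of_nonpos hθ h.le (by linarith)
    have h3 : t ^ (1 - p) * t ^ p ≤ θ ^ (1 - p) * t ^ p :=
      mul_le_mul_of_nonneg_right h2 (by positivity)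
    linarith

theorem pow_sum_I12 {p : ℝ} (hp : 1 ≤ p) {x : Fin 3 × (Fin 3 → Fin 2) → ℝ}
    (hx : ∀ k ∈ I12, 0 ≤ x k) : (∑ k ∈ I12, x k) ^ p ≤ 12 ^ (p - 1) * ∑ k ∈ I12, x k ^ p := by
  have h := Real.rpow_sum_le_const_mul_sum_rpow_of_nonneg I12 hp hx
  rw [card_I12] at h
  exact_mod_cast h

/-! ### the weights on the sides -/

/-- vertex -/
def stt (j : Fin 2) (b : Fin 2) (v : Fin 2 → ℕ) : Fin 2 → ℕ :=
  fun i => v i + if i = j then 0 else (b : ℕ)

theorem ez_kS (o : Fin 2 → ℤ) (m : ℤ) (v : Fin 2 → ℕ) (j b : Fin 2) :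
    ez (vz o m v) (kS j b) = vz o m (stt j b v) := by
  funext i
  fin_cases j <;> fin_cases b <;> fin_cases i <;> simp [ez, kS, vz, stt, add_assoc]

theorem kS_inj (j : Fin 2) : Function.Injective (kS j) := by
  intro b b' h
  have := congrFun (congrArg Prod.snd h) (1 - j).castSucc
  simpa [kS] using this

theorem card_Fc' (M : ℕ) (Zs : Finset ℤ) : ((Fc M Zs).card : ℝ) = (Zs.card : ℝ) * M ^ 2 := by
  rw [Fc, Finset.card_product, Fintype.card_piFinset]
  simp [Fin.prod_univ_two, sq]

open Classical in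
/-- **the clause `wt`** -/
theorem wt_clause {δ κ0 R c0 : ℝ} {La Om : Set E3} {ι : Type} {Φ : FoamD δ κ0 R c0 La}
    {T : Tiling Om ι} {f : E3 → E3} {κ : Φ.F → ℕ} {L : Φ.F → Finset ℝ} {Ex : Set ι}
    {𝒬 : Set (Set E3)} {Ls : ℕ} {η r : ℝ} {hr : r ≠ 0} {a : E3} {o : Fin 2 → ℤ} {M : ℕ}
    {Zs : Finset ℤ} {U : ℤ → (Fin 2 → ℕ) → Prop} (hG : NOGeo T Ex 𝒬 Ls η r hr a o M Zs U)
    {p : ℝ} (hp : 1 ≤ p) {s : Fin 3 → ℝ} {x : Fin 3 → (Fin 3 → ℤ) → ℝ} (hx : ∀ l z, 0 ≤ x l z)
    (hEN : ∀ m ∈ Zs, ∀ v, (∀ j, v j < M) → U m v → ∀ k ∈ I12, ∀ e : Edg T,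
      e.1 = led a r (ez (vz o m v) k) k.1 →
      EN (us Φ f) κ L e ≤ ENNReal.ofReal (r * (s k.1 + x k.1 (ez (vz o m v) k))))
    {ex : ℝ} (hxs : ∑ q ∈ (Fc M Zs).filter (fun q => U q.1 q.2), ∑ k ∈ I12,
      x k.1 (ez (vz o q.1 q.2) k) ^ p ≤ ex * ((Zs.card : ℝ) * M ^ 2))
    {θ ε : ℝ} (hθ : 0 < θ) (hε : 12 * θ + θ ^ (1 - p) * ex ≤ ε) :
    ∃ x : Fin 2 → ℤ → (Fin 2 → ℕ) → ℝ, (∀ j m v, 0 ≤ x j m v) ∧
    (∀ m ∈ Zs, ∀ v, (∀ j, v j < M) → U m v → ∀ (j : Fin 2) (b : ℕ), b = 0 ∨ b = 1 →
      Vw Φ f κ L (side (fr (vx a r o m v) r hr) j b) ≤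
        ENNReal.ofReal (r * (s j.castSucc +
          x j m (fun i => v i + if i = j then 0 else b)))) ∧
    ∀ j, ∑ m ∈ Zs, ∑ v ∈ Fintype.piFinset fun _ : Fin 2 => Finset.range (M + 1), x j m v ≤
      ε * ((Zs.card : ℝ) * M ^ 2) := by
  have h0 := hG.r0
  set A : Finset (Fin 2 → ℕ) := Fintype.piFinset fun _ : Fin 2 => Finset.range M with hA
  have hAm : ∀ v, v ∈ A ↔ ∀ j, v j < M := fun v => by
    rw [hA, Fintype.mem_piFinset]; simp
  refine ⟨fun j m w => if ∃ v ∈ A, U m v ∧ ∃ b : Fin 2, w = stt j b v then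
    x j.castSucc (vz o m w) else 0, ?_, ?_, ?_⟩
  · intro j m w
    dsimp only
    split_ifs
    · exact hx _ _
    · exact le_rfl
  · intro m hm v hv hU j b hb
    obtain ⟨b', rfl⟩ : ∃ b' : Fin 2, b = (b' : ℕ) := by
      rcases hb with rfl | rfl
      · exact ⟨0, rfl⟩
      · exact ⟨1, rfl⟩
    obtain ⟨z, hz, hd, hzc⟩ := hG.edge m hm v hv hU j (b' : ℕ) hb
    let e : Edg T := ⟨T.cc z, z, hz, hd, rfl⟩
    have he : e.1 = T.cc z := rfl
    have h1 : Vw Φ f κ L (side (fr (vx a r o m v) r hr) j ((b' : ℕ) : ℝ)) =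
        EN (us Φ f) κ L e := by
      rw [← Vw_eq_EN, he, hzc]
    rw [h1]
    have h2 := hEN m hm v hv hU (kS j b') (kS_mem j b') e
      (by rw [he, hzc, side_eq_led h0 hr]; rfl)
    rw [ez_kS] at h2
    have h3 : (if ∃ v' ∈ A, U m v' ∧ ∃ b, stt j b' v = stt j b v' then
        x j.castSucc (vz o m (stt j b' v)) else 0) = x j.castSucc (vz o m (stt j b' v)) :=
      if_pos ⟨v, (hAm v).2 hv, hU, b', rfl⟩
    refine h2.trans (le_of_eq ?_)
    show _ = ENNReal.ofReal (r * (s j.castSucc + (if ∃ v' ∈ A, U m v' ∧ ∃ b, stt j b' v = stt j b v'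
      then x j.castSucc (vz o m (stt j b' v)) else 0)))
    rw [h3]
    rfl
  · intro j
    have h1 : ∀ m ∈ Zs, ∑ w ∈ Fintype.piFinset fun _ : Fin 2 => Finset.range (M + 1),
        (if ∃ v ∈ A, U m v ∧ ∃ b : Fin 2, w = stt j b v then x j.castSucc (vz o m w) else 0) ≤
        ∑ v ∈ A.filter fun v => U m v, ∑ k ∈ I12, x k.1 (ez (vz o m v) k) := by
      intro m hm
      calc ∑ w ∈ Fintype.piFinset fun _ : Fin 2 => Finset.range (M + 1),
          (if ∃ v ∈ A, U m v ∧ ∃ b : Fin 2, w = stt j b v then x j.castSucc (vz o m w) else 0)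
          ≤ ∑ w ∈ Fintype.piFinset fun _ : Fin 2 => Finset.range (M + 1),
            ∑ v ∈ A.filter (fun v => U m v), ∑ b : Fin 2,
              (if w = stt j b v then x j.castSucc (vz o m w) else 0) := by
            refine Finset.sum_le_sum fun w _ => ?_
            split_ifs with h
            · obtain ⟨v, hv, hU, b, hb⟩ := h
              have hn : ∀ v b, 0 ≤ (if w = stt j b v then x j.castSucc (vz o m w) else 0 : ℝ) := by
                intro v b
                split_ifs
                · exact hx _ _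
                · exact le_rfl
              calc x j.castSucc (vz o m w) =
                  (if w = stt j b v then x j.castSucc (vz o m w) else 0) := by rw [if_pos hb]
                _ ≤ ∑ b : Fin 2, (if w = stt j b v then x j.castSucc (vz o m w) else 0) :=
                  Finset.single_le_sum (f := fun b : Fin 2 =>
                    (if w = stt j b v then x j.castSucc (vz o m w) else 0 : ℝ))
                    (fun b _ => hn v b) (Finset.mem_univ b)
                _ ≤ _ := Finset.single_le_sum (f := fun v => ∑ b : Fin 2,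
                    (if w = stt j b v then x j.castSucc (vz o m w) else 0 : ℝ))
                    (fun v _ => Finset.sum_nonneg fun b _ => hn v b)
                    (Finset.mem_filter.2 ⟨hv, hU⟩)
            · refine Finset.sum_nonneg fun v _ => Finset.sum_nonneg fun b _ => ?_
              split_ifs
              · exact hx _ _
              · exact le_rfl
        _ = ∑ v ∈ A.filter (fun v => U m v), ∑ b : Fin 2,
            ∑ w ∈ Fintype.piFinset fun _ : Fin 2 => Finset.range (M + 1),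
              (if w = stt j b v then x j.castSucc (vz o m w) else 0) := by
            rw [Finset.sum_comm]
            refine Finset.sum_congr rfl fun v _ => ?_
            rw [Finset.sum_comm]
        _ ≤ ∑ v ∈ A.filter (fun v => U m v), ∑ b : Fin 2, x j.castSucc (vz o m (stt j b v)) := by
            refine Finset.sum_le_sum fun v _ => Finset.sum_le_sum fun b _ => ?_
            rw [Finset.sum_ite_eq']
            split_ifs
            · exact le_rfl
            · exact hx _ _
        _ ≤ _ := by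
            refine Finset.sum_le_sum fun v _ => ?_
            calc ∑ b : Fin 2, x j.castSucc (vz o m (stt j b v)) =
                ∑ b : Fin 2, x (kS j b).1 (ez (vz o m v) (kS j b)) := by
                  refine Finset.sum_congr rfl fun b _ => ?_
                  rw [ez_kS]; rfl
              _ = ∑ k ∈ (Finset.univ : Finset (Fin 2)).image (kS j), x k.1 (ez (vz o m v) k) :=
                  (Finset.sum_image (f := fun k => x k.1 (ez (vz o m v) k))
                    fun b _ b' _ h => kS_inj j h).symm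
              _ ≤ _ := Finset.sum_le_sum_of_subset_of_nonneg (fun k hk => by
                  obtain ⟨b, -, rfl⟩ := Finset.mem_image.1 hk
                  exact kS_mem j b) fun k _ _ => hx _ _
    have h2 : ∑ m ∈ Zs, ∑ v ∈ A.filter (fun v => U m v), ∑ k ∈ I12, x k.1 (ez (vz o m v) k) =
        ∑ q ∈ (Fc M Zs).filter (fun q => U q.1 q.2), ∑ k ∈ I12, x k.1 (ez (vz o q.1 q.2) k) := by
      rw [Finset.sum_filter, Fc, Finset.sum_product]
      refine Finset.sum_congr rfl fun m _ => ?_
      rw [Finset.sum_filter]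
    have h3 : ∑ q ∈ (Fc M Zs).filter (fun q => U q.1 q.2), ∑ k ∈ I12,
        x k.1 (ez (vz o q.1 q.2) k) ≤ 12 * θ * ((Zs.card : ℝ) * M ^ 2) +
          θ ^ (1 - p) * (ex * ((Zs.card : ℝ) * M ^ 2)) := by
      calc ∑ q ∈ (Fc M Zs).filter (fun q => U q.1 q.2), ∑ k ∈ I12, x k.1 (ez (vz o q.1 q.2) k)
          ≤ ∑ q ∈ (Fc M Zs).filter (fun q => U q.1 q.2), ∑ k ∈ I12,
            (θ + θ ^ (1 - p) * x k.1 (ez (vz o q.1 q.2) k) ^ p) :=
            Finset.sum_le_sum fun q _ => Finset.sum_le_sum fun k _ => le_add_rpow hp hθ (hx _ _)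
        _ = ∑ q ∈ (Fc M Zs).filter (fun q => U q.1 q.2), (12 * θ +
            θ ^ (1 - p) * ∑ k ∈ I12, x k.1 (ez (vz o q.1 q.2) k) ^ p) := by
            refine Finset.sum_congr rfl fun q _ => ?_
            rw [Finset.sum_add_distrib, Finset.sum_const, card_I12, nsmul_eq_mul, Finset.mul_sum]
            norm_num
        _ = ((Fc M Zs).filter (fun q => U q.1 q.2)).card * (12 * θ) + θ ^ (1 - p) *
            ∑ q ∈ (Fc M Zs).filter (fun q => U q.1 q.2), ∑ k ∈ I12,
              x k.1 (ez (vz o q.1 q.2) k) ^ p := by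
            rw [Finset.sum_add_distrib, Finset.sum_const, nsmul_eq_mul, Finset.mul_sum]
        _ ≤ (Fc M Zs).card * (12 * θ) + θ ^ (1 - p) * (ex * ((Zs.card : ℝ) * M ^ 2)) := by
            gcongr
            exact Finset.filter_subset _ _
        _ = _ := by rw [card_Fc']; ring
    have hN : 0 ≤ (Zs.card : ℝ) * M ^ 2 := by positivity
    calc _ ≤ ∑ m ∈ Zs, ∑ v ∈ A.filter (fun v => U m v), ∑ k ∈ I12, x k.1 (ez (vz o m v) k) :=
          Finset.sum_le_sum h1
      _ ≤ _ := h2.le.trans h3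
      _ = (12 * θ + θ ^ (1 - p) * ex) * ((Zs.card : ℝ) * M ^ 2) := by ring
      _ ≤ _ := mul_le_mul_of_nonneg_right hε hN

/-- **the clause `ends`** -/
theorem ends_clause {g F : E3 → E3} {a : E3} {r : ℝ} {o : Fin 2 → ℤ} {M : ℕ} {Zs : Finset ℤ}
    {s : Fin 3 → ℝ} {ee θ ε : ℝ} (hM : 0 < M) (hθ : 0 ≤ θ)
    (hF : ∀ j : Fin 2, ∑ m ∈ Zs, ∑ t ∈ Finset.range (M + 1),
      |(F (vx a r o m (fun i => if i = j then M else t)) -
        F (vx a r o m (fun i => if i = j then 0 else t))) j.castSucc - s j.castSucc * (M * r)| ≤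
        ee * ((Zs.card : ℝ) * M))
    (hnear : ∀ m ∈ Zs, ∀ v : Fin 2 → ℕ, (∀ j, v j ≤ M) →
      ‖g (vx a r o m v) - F (vx a r o m v)‖ ≤ θ) (hε : ee + 4 * θ ≤ ε) (j : Fin 2) :
    ∑ m ∈ Zs, ∑ t ∈ Finset.range (M + 1),
      |(g (vx a r o m (fun i => if i = j then M else t)) -
        g (vx a r o m (fun i => if i = j then 0 else t))) j.castSucc - s j.castSucc * (M * r)| ≤
      ε * ((Zs.card : ℝ) * M) := by
  have h1 : ∀ m ∈ Zs, ∀ t ∈ Finset.range (M + 1),
      |(g (vx a r o m (fun i => if i = j then M else t)) -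
        g (vx a r o m (fun i => if i = j then 0 else t))) j.castSucc - s j.castSucc * (M * r)| ≤
      |(F (vx a r o m (fun i => if i = j then M else t)) -
        F (vx a r o m (fun i => if i = j then 0 else t))) j.castSucc - s j.castSucc * (M * r)| +
        2 * θ := by
    intro m hm t ht
    have ht' : t ≤ M := by
      have := Finset.mem_range.1 ht
      omega
    have e1 := (norm_le_pi_norm (g (vx a r o m (fun i => if i = j then M else t)) -
      F (vx a r o m (fun i => if i = j then M else t))) j.castSucc).trans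
      (hnear m hm (fun i => if i = j then M else t) (fun i => by split_ifs <;> omega))
    have e2 := (norm_le_pi_norm (g (vx a r o m (fun i => if i = j then 0 else t)) -
      F (vx a r o m (fun i => if i = j then 0 else t))) j.castSucc).trans
      (hnear m hm (fun i => if i = j then 0 else t) (fun i => by split_ifs <;> omega))
    rw [Real.norm_eq_abs, abs_le] at e1 e2
    simp only [Pi.sub_apply] at e1 e2 ⊢
    set G1 := g (vx a r o m (fun i => if i = j then M else t)) j.castSucc
    set G0 := g (vx a r o m (fun i => if i = j then 0 else t)) j.castSucc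
    set F1 := F (vx a r o m (fun i => if i = j then M else t)) j.castSucc
    set F0 := F (vx a r o m (fun i => if i = j then 0 else t)) j.castSucc
    have e3 : G1 - G0 - s j.castSucc * (M * r) = (F1 - F0 - s j.castSucc * (M * r)) +
        ((G1 - F1) - (G0 - F0)) := by ring
    rw [e3]
    refine (abs_add_le _ _).trans (add_le_add le_rfl ?_)
    rw [abs_le]
    constructor <;> linarith [e1.1, e1.2, e2.1, e2.2]
  have hMr : (1 : ℝ) ≤ M := by exact_mod_cast hM
  calc _ ≤ ∑ m ∈ Zs, ∑ t ∈ Finset.range (M + 1),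
      (|(F (vx a r o m (fun i => if i = j then M else t)) -
        F (vx a r o m (fun i => if i = j then 0 else t))) j.castSucc - s j.castSucc * (M * r)| +
        2 * θ) := Finset.sum_le_sum fun m hm => Finset.sum_le_sum fun t ht => h1 m hm t ht
    _ = ∑ m ∈ Zs, ∑ t ∈ Finset.range (M + 1),
      |(F (vx a r o m (fun i => if i = j then M else t)) -
        F (vx a r o m (fun i => if i = j then 0 else t))) j.castSucc - s j.castSucc * (M * r)| +
        (Zs.card : ℝ) * ((M + 1 : ℕ) * (2 * θ)) := by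
        simp only [Finset.sum_add_distrib, Finset.sum_const, nsmul_eq_mul, Finset.card_range]
    _ ≤ ee * ((Zs.card : ℝ) * M) + (Zs.card : ℝ) * ((M + 1 : ℕ) * (2 * θ)) := by
        gcongr
        exact hF j
    _ ≤ ee * ((Zs.card : ℝ) * M) + 4 * θ * ((Zs.card : ℝ) * M) := by
        have h2 : ((M + 1 : ℕ) : ℝ) * (2 * θ) ≤ 4 * θ * M := by
          push_cast
          nlinarith
        have h3 := mul_le_mul_of_nonneg_left h2 (Nat.cast_nonneg (α := ℝ) Zs.card)
        linarith
    _ = (ee + 4 * θ) * ((Zs.card : ℝ) * M) := by ring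
    _ ≤ _ := mul_le_mul_of_nonneg_right hε (by positivity)

end

end Crest.Agent.R096.Nnm_205
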