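import Crest.Agent.R096.Nnm2_205
import Crest.Agent.R096.No6_276

/-!
# Row 96 (S0127), NO0 (helper205), NONUM part 3: `nonum_of`

`OutNO + Out + PreG + PreN ⟹ NONum` (276 #10742): the output of the machine and the numbers before the
machine give 477's structure `NONum`.
-/

set_option autoImplicit false
set_option linter.style.longLine false
set_option linter.unusedSectionVars false

open MeasureTheory Set Filter Topology Metric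
open scoped ENNReal

namespace Crest.Agent.R096.Nnm_205

open Crest.Agent.R096.Bsp_628 Crest.Agent.R096.Brk1_582 Crest.Agent.R096.Brk3_582
open Crest.Agent.R096.Brk5_582
open Crest.Agent.R096.Log1_582 Crest.Agent.R096.Log2_582 Crest.Agent.R096.Dic1_582
open Crest.Agent.R096.Dic5_582
open Crest.Agent.R096.Msh_715 Crest.Agent.R096.SkN1_477
open Crest.Agent.R096.SkC1_961 (E3 Hom3 FoamD Cfg NN)
open Crest.Agent.R096.No0_477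
open Crest.Agent.R096.Qd_205 (mem_Fc card_cub_le hcub hcub_sub cub_nonempty qf_of_outNO)
open Crest.Agent.R096.Nl_234 (num_lip wf HWq)
open Crest.Agent.R096.No_276 (QL PreG PreN)
open Crest.Agent.R096.Mbf_337

noncomputable section

section hole

variable {δ κ0 R c0 κ1 κ2 : ℝ} {La Om : Set E3} {ι : Type} {Φ : FoamD δ κ0 R c0 La}
  {T : Tiling Om ι} {f : E3 → E3} {X : Set Φ.F} {J0 J V : Φ.F → Set ι} {ct : Φ.F → ι}
  {A : Φ.F → E3 ≃ᵃ[ℝ] E3} {lam : Φ.F → ℝ} {z : Φ.F → E3} {θ : Φ.F → E3 → E3} {φ : Φ.F → E3 → ℝ}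

/-- the points which are mapped into a hole lie in the tiles of `V` -/
theorem hole_tile (hom : Hom3 f Om La) (hC : Cores Φ T f κ1 κ2 X J0 J V ct A lam z θ φ) {x : E3}
    (hx : x ∈ Om) {c : Φ.F} (hc : f x ∈ (Φ.B c).S) : ∃ i ∈ V c, x ∈ P (T.H i) := by
  by_cases hcX : c ∈ X
  · have h1 := (hC.exact_ c hcX).miss x hx
    refine ⟨ct c, by rw [(hC.one c hcX).2.2]; exact mem_singleton _, ?_⟩
    by_contra h
    exact h1 h hc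
  · have ht := hC.tiny c hcX
    obtain ⟨i, hi, y, hy, hfy⟩ := ht.mem
    have e : f x = (Φ.B c).lo := by
      funext k
      have h1 := hc k
      rw [← ht.pt] at h1
      exact le_antisymm h1.2 h1.1
    obtain ⟨fi, h1, h2, h3, h4, h5, h6⟩ := hom
    have hyO : y ∈ Om := T.sub i (I_sub_P _ hy)
    have : x = y := by
      rw [← h3 x hx, ← h3 y hyO, e, hfy]
    exact ⟨i, ht.sub (ht.sub0 hi), this ▸ I_sub_P _ hy⟩

end hole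

/-- a vertex of the slices is in `QL L` -/
theorem vx_mem_QL {Om : Set E3} {ι : Type} {T : Tiling Om ι} {Ex : Set ι} {𝒬 : Set (Set E3)}
    {L : ℕ} {η r : ℝ} {hr : r ≠ 0} {a : E3} {o : Fin 2 → ℤ} {M : ℕ} {Zs : Finset ℤ}
    {U : ℤ → (Fin 2 → ℕ) → Prop} (hG : NOGeo T Ex 𝒬 L η r hr a o M Zs U) {m : ℤ} (hm : m ∈ Zs)
    {v : Fin 2 → ℕ} (hv : ∀ j, v j ≤ M) : vx a r o m v ∈ QL L := by
  have h0 := hG.r0
  have key : ∀ j : Fin 2, |a j.castSucc + r * (o j + v j)| < 1 := by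
    intro j
    have h1 := (hG.lo j).2
    have h2 := (hG.hi j).2
    have h3 : (0 : ℝ) ≤ v j := Nat.cast_nonneg _
    have h4 : (v j : ℝ) ≤ M := by exact_mod_cast hv j
    rw [abs_lt]
    constructor <;> nlinarith
  refine ⟨?_, ?_, ?_⟩
  · exact key 0
  · exact key 1
  · have h1 := hG.zs m hm
    have : vx a r o m v 2 = a 2 + r * m := rfl
    rw [this]
    linarith

variable {δ κ0 R c0 : ℝ} {La : Set E3} {ι : Type}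

/-- **`nonum_of`** (276 #10742) -/
theorem nonum_of {p : ℝ} (hLa : IsOpen La) {s : Fin 3 → ℝ} {L : ℕ}
    {η ε ε' e₂ C0 κ1 κ2 κ3 κp μ S1 S KS : ℝ} {Cs : Set (Set E3) → ℝ} {𝒮 : Set (Set (Set E3))} {t : ℝ} {Cf : ℝ≥0∞}
    {f0 f1 : E3 → E3} {q : ℕ} {al : Fin 3 → ℝ} {h : ℝ} {Φ : FoamD δ κ0 R c0 La}
    {T : Tiling (QL L) ι} {X : Set Φ.F} {J0 J V : Φ.F → Set ι} {ct : Φ.F → ι}
    {A : Φ.F → E3 ≃ᵃ[ℝ] E3} {lam : Φ.F → ℝ} {z : Φ.F → E3} {θ : Φ.F → E3 → E3}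
    {φ : Φ.F → E3 → ℝ} {Mg : Φ.F → ℕ} {𝒬 : Set (Set E3)} {r : ℝ} {hr : r ≠ 0} {a : E3}
    {o : Fin 2 → ℤ} {M : ℕ} {Zs : Finset ℤ} {U : ℤ → (Fin 2 → ℕ) → Prop} {β : Type} {b : β → E3}
    {R0 R1 : β → ℝ} {Sc : β → Finset ι} {d Kc cnt : ι → ℝ}
    (G : PreG p s L η ε ε' C0 κ1 κ2 𝒮 t Cf f0 f1 q al h Φ T X J0 J V ct A lam z θ φ 𝒬 r hr a o
      M Zs U b R0 R1 Sc d Kc cnt)
    {Z : Φ.F → Set ℝ} {m0 : Φ.F → ℕ} {κ : Φ.F → ℕ} {Lv : Φ.F → Finset ℝ}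
    (N : PreN p s L η ε ε' e₂ S1 S KS κp μ κ3 Cs 𝒮 f1 q al h Φ T X V ct A lam z Mg r hr a o M Zs U b R1
      Sc cnt Z m0 κ Lv)
    {Cu C : Set (Set E3) → ℝ} {e' eo η' : ℝ} {tol : ι → ℝ} {Ds : Set E3} {B : E3 → E3 ≃ᵃ[ℝ] E3}
    {μ' : ℝ} {al' : Fin 2 → ℝ} {g : E3 → E3} {u : E3 → Φ.F → ℝ} {n : Set E3 → Φ.F → ℝ}
    (hOut : SkN2_477.OutF C0 C eo Φ T f1 X V ct A lam κ Lv tol Ds μ' g)
    (hO : OutNO p Cu e' η' Φ T f1 (⋃ c, V c) κ Lv tol Ds B μ' al' g u n)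
    (hCu : ∀ 𝒦, 0 < Cu 𝒦) {Cq : ℝ} (hCq : Cu 𝒬 ≤ Cq) (hR : 0 < R) (hκ3 : 0 < κ3)
    (hε : 0 ≤ ε) (hS : 0 ≤ S) (hμ : μ' ≤ r * S) (htol : ∀ i, tol i ≤ 1) {εn : ℝ}
    (hκ : ∀ c : Φ.F, IsLog q al h c.1 → (2 : ℝ)⁻¹ ^ κ c ≤ εn * r)
    {Kj : ℤ → (Fin 2 → ℕ) → ℝ} (hKj : ∀ m v, 0 ≤ Kj m v)
    (hj : ∀ m ∈ Zs, ∀ v, (∀ j, v j < M) → ¬ U m v → ∀ y ∈ usq (fr (vx a r o m v) r hr),
      ∀ y' ∈ usq (fr (vx a r o m v) r hr), ‖g y - g y'‖ ≤ Kj m v * ‖y - y'‖)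
    {ε3 : ℝ} (hKs : ∀ D : Finset (ℤ × (Fin 2 → ℕ)), D ⊆ Fc M Zs → (∀ k ∈ D, ¬ U k.1 k.2) →
      ∑ k ∈ D, Kj k.1 k.2 ^ p ≤ ε3 * ((Zs.card : ℝ) * M ^ 2))
    (h5 : 5 * ε ≤ εn)
    (hn : (2 * Cq) ^ p * ε + (R * κ3 * Cq) ^ p * ε' + ε3 ≤ εn) :
    NONum p Φ f1 κ Lv s εn (2 * Cq * S + 1) r hr a o M Zs U g u := by
  classical
  have h0 := G.geo.r0
  have hM := G.geo.M0
  have hN0 : 0 ≤ (Zs.card : ℝ) * M ^ 2 := by positivity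
  have hCq0 : 0 ≤ Cq := (hCu 𝒬).le.trans hCq
  have hcov : ∀ m ∈ Zs, ∀ v, (∀ j, v j < M) → U m v → ∃ x ∈ cub (vx a r o m v) r, ∃ c : Φ.F,
      Φ.Psi (f1 x) ∈ Pc Φ.F c := by
    intro m hm v hv hU
    obtain ⟨x, hx⟩ := cub_nonempty (vx a r o m v) h0.le
    obtain ⟨i, hi, -, -⟩ := G.geo.tile m hm v hv hU
    have hxO : x ∈ QL L := T.sub i (hi ▸ hx)
    have hxL : f1 x ∈ La := by
      obtain ⟨fi, h1, -⟩ := G.hom
      exact h1 hxO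
    have hh : ∀ c, f1 x ∉ (Φ.B c).S := by
      intro c hc
      obtain ⟨i', hi', hx'⟩ := hole_tile G.hom G.cores hxO hc
      exact G.geo.off m hm v hv hU x hx i' hx' (mem_iUnion.2 ⟨c, hi'⟩)
    obtain ⟨c, hc⟩ := (Brk3_582.foam Φ.bf hLa).cov _ (Ls_222.Psi_mem_La hLa hxL hh)
    exact ⟨x, hx, c, hc⟩
  refine ⟨?_, ?_, ?_, ?_⟩
  · -- good
    have hr3 : 0 < r ^ 3 := by positivity
    set QQ : Set E3 := {x | ∃ e o' i j : ℤ, GSq Φ.F q al h e o' i j ∧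
      Φ.Psi (f1 x) ∈ sqr al h e o' i j} with hQQ
    set Bd : Finset (ℤ × (Fin 2 → ℕ)) := (Fc M Zs).filter fun k =>
      hcub (vx a r o k.1 k.2) r ⊆ {x | x ∈ QL L ∧ ¬ ∃ e o' i j : ℤ, GSq Φ.F q al h e o' i j ∧
        Φ.Psi (f1 x) ∈ sqr al h e o' i j} with hBd
    have h1 : (Bd.card : ℝ) ≤ ε * ((Zs.card : ℝ) * M ^ 2) := by
      have h2 := (card_cub_le h0 _ Bd fun k hk => (Finset.mem_filter.1 hk).2).trans G.gvol
      rw [ENNReal.ofReal_le_ofReal_iff (by positivity)] at h2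
      exact le_of_mul_le_mul_right h2 hr3
    have hsub : {k : ℤ × (Fin 2 → ℕ) | k ∈ Fc M Zs ∧ ¬ (U k.1 k.2 ∧ ∃ c1 c2 σ1 σ2 w b,
        QF Φ κ Lv u (cub (vx a r o k.1 k.2) r) c1 c2 σ1 σ2 w b ∧
        (2 : ℝ)⁻¹ ^ κ c1 ≤ εn * r ∧ (2 : ℝ)⁻¹ ^ κ c2 ≤ εn * r)} ⊆
        {k : ℤ × (Fin 2 → ℕ) | k ∈ Fc M Zs ∧ ¬ U k.1 k.2} ∪ ↑Bd := by
      rintro k ⟨hk, hnot⟩
      obtain ⟨hm, hv⟩ := mem_Fc.1 hk
      by_cases hUk : U k.1 k.2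
      · right
        rw [hBd, Finset.coe_filter]
        refine ⟨hk, ?_⟩
        obtain ⟨i, hi, -, hdis⟩ := G.geo.tile _ hm _ hv hUk
        intro x hx
        have hxc := hcub_sub _ _ hx
        refine ⟨T.sub i (hi ▸ hxc), ?_⟩
        intro hxQ
        apply hnot
        refine ⟨hUk, ?_⟩
        have hiE : i ∉ ⋃ c, V c := G.geo.off _ hm _ hv hUk x hxc i (hi ▸ hxc)
        obtain ⟨e, o', i', j', Gs, hGx⟩ := hxQ
        obtain ⟨c1, c2, σ1, σ2, b, hqf, l1, l2⟩ := qf_of_outNO hO hiE Gs hLa G.q1 G.h0 N.wlog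
          (x := x) (by rw [hi]; exact hxc) hGx
        rw [hi] at hqf
        exact ⟨c1, c2, σ1, σ2, h / 2, b, hqf, hκ _ l1, hκ _ l2⟩
      · left
        exact ⟨hk, hUk⟩
    have hfin : ({k : ℤ × (Fin 2 → ℕ) | k ∈ Fc M Zs ∧ ¬ U k.1 k.2} ∪ (↑Bd : Set _)).Finite :=
      ((Fc M Zs).finite_toSet.subset fun k hk => hk.1).union Bd.finite_toSet
    have h3 := (Set.ncard_le_ncard hsub hfin).trans (Set.ncard_union_le _ _)
    rw [Set.ncard_coe_finset] at h3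
    have h4 : (({k : ℤ × (Fin 2 → ℕ) | k ∈ Fc M Zs ∧ ¬ (U k.1 k.2 ∧ ∃ c1 c2 σ1 σ2 w b,
        QF Φ κ Lv u (cub (vx a r o k.1 k.2) r) c1 c2 σ1 σ2 w b ∧
        (2 : ℝ)⁻¹ ^ κ c1 ≤ εn * r ∧ (2 : ℝ)⁻¹ ^ κ c2 ≤ εn * r)}).ncard : ℝ) ≤
        (({k : ℤ × (Fin 2 → ℕ) | k ∈ Fc M Zs ∧ ¬ U k.1 k.2}).ncard : ℝ) + Bd.card := by
      exact_mod_cast h3
    have h6 := G.nU
    have h7 : 2 * ε * ((Zs.card : ℝ) * M ^ 2) ≤ εn * ((Zs.card : ℝ) * M ^ 2) :=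
      mul_le_mul_of_nonneg_right (by linarith) hN0
    linarith
  · -- wt
    obtain ⟨x, hx0, hx1, hx2⟩ := N.wt
    exact ⟨x, hx0, hx1, fun j => (hx2 j).trans (mul_le_mul_of_nonneg_right (by linarith) hN0)⟩
  · -- ends
    intro j
    refine ends_clause (F := f1) (θ := ε) hM hε G.ends ?_ (by linarith) j
    intro m hm v hv
    have hxO := vx_mem_QL G.geo hm hv
    have hxL : f1 (vx a r o m v) ∈ La := by
      obtain ⟨fi, h1, -⟩ := G.hom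
      exact h1 hxO
    obtain ⟨c, hc, hc'⟩ := Φ.bf.cov _ hxL
    exact (hOut.near _ hxO ⟨c, hc⟩ hc').trans (G.size ⟨c, hc⟩)
  · -- lip
    obtain ⟨Xq, hX0, hXN, hX1, hX2⟩ := N.sq
    have hmany : ∀ c c' : Φ.F, (Pc Φ.F c ∩ Pc Φ.F c').Nonempty →
        c.1.sz ≤ (R * κ3) * wf Φ κ Lv c' := by
      intro c c' hcc
      have h1 := Φ.cmp c c' hcc
      have h2 := N.lev.many c'
      have h3 : R * c'.1.sz ≤ R * (κ3 * wf Φ κ Lv c') := mul_le_mul_of_nonneg_left h2 hR.le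
      calc c.1.sz ≤ R * c'.1.sz := h1
        _ ≤ R * (κ3 * wf Φ κ Lv c') := h3
        _ = _ := by ring
    have hgc : ContinuousOn g (QL L) := by
      obtain ⟨fi, -, -, -, -, h5, -⟩ := hOut.homeo
      exact h5
    obtain ⟨X', hX'0, hX'1, hX'2⟩ := num_lip hLa hO hCu G.geo (q := q) (al := al) (s := h) G.h0
      (fun c hc => by unfold wf; rw [N.wlog c hc]; linarith) (Mw := R * κ3) (by positivity) hmany hS hμ
      (X := Xq) hX0 (fun m hm v hv hU i hi => ⟨hXN m hm v hv hU i hi, htol i⟩) hcov hgc hKj hj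
      hCq0 hCq
    refine ⟨X', hX'0, hX'1, (hX'2 _ _ _ hX1 hX2 hKs).trans ?_⟩
    calc (2 * Cq) ^ p * (ε * ((Zs.card : ℝ) * M ^ 2)) +
        (R * κ3 * Cq) ^ p * (ε' * ((Zs.card : ℝ) * M ^ 2)) + ε3 * ((Zs.card : ℝ) * M ^ 2) =
        ((2 * Cq) ^ p * ε + (R * κ3 * Cq) ^ p * ε' + ε3) * ((Zs.card : ℝ) * M ^ 2) := by ring
      _ ≤ _ := mul_le_mul_of_nonneg_right hn hN0

end

end Crest.Agent.R096.Nnm_205
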