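import Crest.Agent.R096.No9_276
import Crest.Agent.R096.Nkt1_780
import Crest.Agent.R096.Nnm3_205

/-!
# Row 96, NO0 (helper276), part 10: the composition `NOS p ⇐ MachNO p + NOPre p` (all `p ≥ 1`)
-/

set_option autoImplicit false
set_option linter.unusedSectionVars false
set_option linter.style.longLine false

open Set Function MeasureTheory Filter Topology Metric
open scoped ENNReal
open Crest.AnalysisR.VecCalc3 Crest.AnalysisR.Sobolev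

namespace Crest.Agent.R096.No_276

open Crest.Agent.R096.Bsp_628 Crest.Agent.R096.Brk1_582 Crest.Agent.R096.Brk3_582
open Crest.Agent.R096.Brk5_582 Crest.Agent.R096.Log2_582 Crest.Agent.R096.Dic1_582
open Crest.Agent.R096.Msh_715 Crest.Agent.R096.Ea_713 Crest.Agent.R96.Hole_348
open Crest.Agent.R096.Sk_962 (Q0 Qc0 dg SH)
open Crest.Agent.R096.Sk4_663 (Zd)
open Crest.Agent.R096.Sq_477
open Crest.Agent.R096.SkC1_961 (E3 Hom3 FoamD Cfg NN)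
open Crest.Agent.R096.SkN1_477 Crest.Agent.R096.SkN2_477 Crest.Agent.R096.No0_477
open Crest.Agent.R096.Nl_234 Crest.Agent.R096.No7_477
open Crest.Agent.R096.Mbf_337 Crest.Agent.R096.Nkt_780 Crest.Agent.R096.Nnm_205

noncomputable section

section numbers

/-- total energy -/
theorem num1 {Cs T2 Pc KS L ε' εt Cp v : ℝ} (hL : 1 ≤ L)
    (h1 : Cs * (T2 + Cp) * ε' ≤ v) (h2 : Cs * T2 * εt ≤ v) (hv : v ≤ 1 / (8 * L)) :
    Cs * (T2 * (Pc * (KS / L) + ε' + εt) + Cp * ε') + v ≤ (Cs * T2 * Pc * KS + 4) / L := by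
  have hL0 : 0 < L := by linarith
  have e1 : Cs * (T2 * (Pc * (KS / L) + ε' + εt) + Cp * ε') + v =
      Cs * T2 * Pc * KS / L + Cs * (T2 + Cp) * ε' + Cs * T2 * εt + v := by ring
  rw [e1, add_div]
  have e2 : 1 / (8 * L) = (1 / 8) * (1 / L) := by field_simp
  have e3 : 4 / L = 4 * (1 / L) := by ring
  have e4 : 0 < 1 / L := by positivity
  rw [e2] at hv
  rw [e3]
  linarith

/-- energy of the shell -/
theorem num2 {Cs T2 Pc KS L ε' εt Cp v e₂ e2' η : ℝ} (hL : 1 ≤ L) (hη : 0 ≤ η) (he : 0 ≤ e₂)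
    (h1 : Cs * (T2 + Cp) * ε' ≤ v) (h2 : Cs * T2 * εt ≤ v) (hv : v ≤ e₂ / (8 * L))
    (h3 : Cs * T2 * Pc * e2' ≤ e₂ / 4) :
    Cs * (T2 * (Pc * ((KS * η + e2') / L) + ε' + εt) + Cp * ε') + v ≤
      ((Cs * T2 * Pc * KS + 4) * η + e₂) / L := by
  have hL0 : 0 < L := by linarith
  have e4 : 0 < 1 / L := by positivity
  have e1 : Cs * (T2 * (Pc * ((KS * η + e2') / L) + ε' + εt) + Cp * ε') + v =
      Cs * T2 * Pc * KS * η * (1 / L) + (Cs * T2 * Pc * e2') * (1 / L) + Cs * (T2 + Cp) * ε' +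
        Cs * T2 * εt + v := by ring
  have e5 : ((Cs * T2 * Pc * KS + 4) * η + e₂) / L =
      Cs * T2 * Pc * KS * η * (1 / L) + 4 * η * (1 / L) + e₂ * (1 / L) := by ring
  rw [e1, e5]
  have e2 : e₂ / (8 * L) = e₂ / 8 * (1 / L) := by field_simp
  rw [e2] at hv
  have e6 := mul_le_mul_of_nonneg_right h3 e4.le
  have e7 : 0 ≤ 4 * η * (1 / L) := by positivity
  have e8 : 0 ≤ e₂ * (1 / L) := by positivity
  have e9 : e₂ / 4 * (1 / L) = 1 / 4 * (e₂ * (1 / L)) := by ring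
  have e10 : e₂ / 8 * (1 / L) = 1 / 8 * (e₂ * (1 / L)) := by ring
  linarith

theorem energy_le {D1 A B : ℝ≥0∞} {Cs x v y : ℝ} (hD : D1 = ENNReal.ofReal Cs) (hCs : 0 ≤ Cs)
    (hx : 0 ≤ x) (hv : 0 ≤ v) (hA : A ≤ ENNReal.ofReal x) (h : Cs * x + v ≤ y)
    (hB : B = ENNReal.ofReal v) : D1 * A + B ≤ ENNReal.ofReal y := by
  rw [hD, hB]
  calc ENNReal.ofReal Cs * A + ENNReal.ofReal v
      ≤ ENNReal.ofReal Cs * ENNReal.ofReal x + ENNReal.ofReal v := by gcongr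
    _ = ENNReal.ofReal (Cs * x + v) := by
        rw [← ENNReal.ofReal_mul hCs, ← ENNReal.ofReal_add (by positivity) hv]
    _ ≤ _ := ENNReal.ofReal_le_ofReal h

theorem num3 {T2 Pc Cp ε ε' εt z M r : ℝ} (hz : 0 < z) (hM : 0 < M) (hr : 0 < r) :
    (T2 * (Pc * (ε * (z * M ^ 2) * r ^ 3) + ε' * (z * M ^ 2) * r ^ 3 + εt) +
      Cp * (ε' * (z * M ^ 2) * r ^ 3)) / r ^ 3 =
    (T2 * (Pc * ε + ε') + Cp * ε' + T2 * εt / (z * M ^ 2 * r ^ 3)) * (z * M ^ 2) := by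
  field_simp
  ring

/-- the size of the levels of the logs -/
theorem kap_le {h y x : ℝ} {k m1 : ℕ} (hy : 0 < y) (hm : ⌈h / (2 * y)⌉₊ + 1 ≤ m1) (hk : m1 ≤ k)
    (h1 : (k : ℝ) * x = h / 2) : x ≤ y := by
  have h2 : (m1 : ℝ) ≤ k := by exact_mod_cast hk
  have h3 : h / (2 * y) ≤ m1 := by
    refine (Nat.le_ceil _).trans ?_
    exact_mod_cast (Nat.le_succ _).trans hm
  have h8 : (0 : ℝ) < k := by
    have : (1 : ℕ) ≤ k := le_trans (Nat.le_add_left 1 _) (hm.trans hk)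
    exact_mod_cast this
  have h6 := mul_le_mul_of_nonneg_right (h3.trans h2) hy.le
  have h7 : h / (2 * y) * y = h / 2 := by field_simp
  rw [h7, ← h1] at h6
  exact le_of_mul_le_mul_left h6 h8

end numbers

theorem N0_pos {Om : Set E3} {ι : Type} {T : Tiling Om ι} {Ex : Set ι} {𝒬 : Set (Set E3)} {L : ℕ}
    {η r : ℝ} {hr : r ≠ 0} {a : E3} {o : Fin 2 → ℤ} {M : ℕ} {Zs : Finset ℤ}
    {U : ℤ → (Fin 2 → ℕ) → Prop} (G : NOGeo T Ex 𝒬 L η r hr a o M Zs U) :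
    0 < (Zs.card : ℝ) * M ^ 2 * r ^ 3 := by
  have h1 : (0 : ℝ) < Zs.card := by exact_mod_cast Finset.card_pos.2 G.zne
  have h2 : (0 : ℝ) < M := by exact_mod_cast G.M0
  have h3 := G.r0
  positivity

section Comp

variable {δ κ0 R c0 : ℝ} {ι : Type}

/-- after the machine -/
theorem nog_of_out {p : ℝ} (hp : 1 ≤ p) {f : R3 → R3} {U₀ W₀ : Set R3} (a1 : IsOpen U₀)
    (a4 : IsOpen W₀) (a8 : IsHomeomorphOn f U₀ W₀) (a7 : Qc0 ⊆ U₀)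
    {s : Fin 3 → ℝ} {L : ℕ} (hL : (L : ℝ) ≠ 0)
    {η ε ε' e₂ S1 S KS κp μ κ3 C0 κ1 κ2 : ℝ} {C : Set (Set E3) → ℝ}
    {𝒮 : Set (Set (Set E3))} {t : ℝ} {Cf : ℝ≥0∞} {f1 : E3 → E3} {q : ℕ} {al : Fin 3 → ℝ} {h : ℝ}
    {Φ : FoamD δ κ0 R c0 (e3 '' (f '' Q0))} {T : Tiling (QL L) ι} {X : Set Φ.F}
    {J0 J V : Φ.F → Set ι}
    {ct : Φ.F → ι} {A : Φ.F → E3 ≃ᵃ[ℝ] E3} {lam : Φ.F → ℝ} {z : Φ.F → E3} {θ : Φ.F → E3 → E3}
    {φ : Φ.F → E3 → ℝ} {Mg : Φ.F → ℕ} {𝒬 : Set (Set E3)} {r : ℝ} {hr : r ≠ 0} {a : E3}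
    {o : Fin 2 → ℤ} {M : ℕ} {Zs : Finset ℤ} {U : ℤ → (Fin 2 → ℕ) → Prop} {β : Type} {b : β → E3}
    {R0 R1 : β → ℝ} {Sc : β → Finset ι} {d Kc cnt : ι → ℝ} {Z : Φ.F → Set ℝ} {m0 : Φ.F → ℕ}
    {κ : Φ.F → ℕ} {Lv : Φ.F → Finset ℝ} {em em' ηm : ℝ} {tol : ι → ℝ} {g : E3 → E3}
    {Cu : Set (Set E3) → ℝ} {B' : E3 → E3 ≃ᵃ[ℝ] E3} {a' : Fin 2 → ℝ}
    {u : E3 → Φ.F → ℝ} {n : Set E3 → Φ.F → ℝ}
    (hout : OutF C0 C em Φ T f1 X V ct A lam κ Lv tol (DsN a r o M Zs U) (S1 * r) g)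
    (hNO : OutNO p Cu em' ηm Φ T f1 (⋃ c, V c) κ Lv tol (DsN a r o M Zs U) B' (S1 * r) a' g u n)
    (hCu : ∀ 𝒦, 0 < Cu 𝒦) (hC0 : 0 < C0) (hC : ∀ 𝒦, 0 < C 𝒦)
    (G : PreG p s L η ε ε' C0 κ1 κ2 𝒮 t Cf (fL f L hL) f1 q al h Φ T X J0 J V ct A lam z θ φ 𝒬 r hr
      a o M Zs U b R0 R1 Sc d Kc cnt)
    (N : PreN p s L η ε ε' e₂ S1 S KS κp μ κ3 C 𝒮 f1 q al h Φ T X V ct A lam z Mg r hr a o M Zs U b R1
      Sc cnt Z m0 κ Lv) (hX : p < 3 ∨ X = univ)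
    {CuM : ℝ} (hCM0 : 0 ≤ CuM) (hCM : ∀ 𝒦 ∈ 𝒮, Cu 𝒦 ≤ CuM) (htol0 : ∀ i, 0 < tol i)
    {εt : ℝ} (hεt : 0 ≤ εt) (htol : ∑' i, ENNReal.ofReal (tol i ^ p) *
      (volume (P (T.H i)) + ENNReal.ofReal (cnt i)) ≤ ENNReal.ofReal εt)
    (hε : 0 ≤ ε) (hε' : 0 ≤ ε') (hη : 0 < η) (he₂ : 0 ≤ e₂) (hKS : 0 ≤ KS)
    (hR : 0 < R) (hκ3 : 0 < κ3) (hS : 0 ≤ S) (hS1 : S1 ≤ S) (htol1 : ∀ i, tol i ≤ 1) {εn : ℝ}
    (hκ : ∀ c : Φ.F, IsLog q al h c.1 → (2 : ℝ)⁻¹ ^ κ c ≤ εn * r)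
    (h5 : 5 * ε ≤ εn)
    (hn : (2 * CuM) ^ p * ε + (R * κ3 * CuM) ^ p * ε' + (2 ^ p * ((2 * CuM) ^ p * ε + ε') +
      C0 ^ p * ε' + 2 ^ p * εt / ((Zs.card : ℝ) * M ^ 2 * r ^ 3)) ≤ εn)
    {v e : ℝ} (hv : 0 < v)
    (hlay : NONum p Φ f1 κ Lv s εn (2 * CuM * S + 1) r hr a o M Zs U g u →
      ∃ (N : ℕ) (z : Fin N → ℝ), 0 < N ∧ (∀ k, |L * z k| ≤ 1 / 2) ∧
          (∀ k, ∃ m ∈ Zs, z k = a 2 + r * m) ∧
          ∑ k, ∑ i : Fin 2, (∫⁻ y in ball (0 : Fin 2 → ℝ) (1 - η),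
            ‖Dp (sl g (z k) 2) i y - Pi.single ((2 : Fin 3).succAbove i)
              (s ((2 : Fin 3).succAbove i))‖ₑ ^ p) ≤ N * ENNReal.ofReal e) :
    ∃ E1 E2 : ℝ≥0∞,
      E1 ≤ ENNReal.ofReal (2 ^ p * ((2 * CuM) ^ p * (KS / L) + ε' + εt) + C0 ^ p * ε') ∧
      E2 ≤ ENNReal.ofReal (2 ^ p * ((2 * CuM) ^ p * ((KS * η + e₂) / L) + ε' + εt) + C0 ^ p * ε') ∧
      NOG p s f L η ((1 + ENNReal.ofReal (Chr 3 p t) * Cf) * E1 + ENNReal.ofReal v)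
        ((1 + ENNReal.ofReal (Chr 3 p t) * Cf) * E2 + ENNReal.ofReal v) e := by
  have hp0 : 0 < p := by linarith
  have hLaO : IsOpen (e3 '' (f '' Q0)) := La_open a4 a8 a7
  have hr0 : 0 < r := G.geo.r0
  obtain ⟨Kt, hKt0, hKtl, hs1, hs2', hs3⟩ := kt_of hp hLaO hout hNO hCu hC0 hC G N hCM0 hCM htol0
    hεt htol hε hε' hη.le he₂ hKS hr0.le
  refine ⟨_, _, hs1, hs2', ?_⟩
  -- junk squares
  have hgc : ContinuousOn g (QL L) := by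
    obtain ⟨_, -, -, -, -, h5, -⟩ := hout.homeo
    exact h5
  have h1 : (0 : ℝ) < Zs.card := by exact_mod_cast Finset.card_pos.2 G.geo.zne
  have h2 : (0 : ℝ) < M := by exact_mod_cast G.geo.M0
  have hC0p : 0 ≤ C0 ^ p := Real.rpow_nonneg hC0.le p
  have hB0 : 0 ≤ 2 ^ p * ((2 * CuM) ^ p * (ε * ((Zs.card : ℝ) * M ^ 2) * r ^ 3) +
          ε' * ((Zs.card : ℝ) * M ^ 2) * r ^ 3 + εt) +
          C0 ^ p * (ε' * ((Zs.card : ℝ) * M ^ 2) * r ^ 3) := by positivity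
  obtain ⟨Kj, hKj0, hKjl, hKjs⟩ := junk_of hp0 (hr := hr) hr0 G.geo.lo G.geo.hi G.geo.zs G.jV G.cn hgc
    hKt0 hKtl hB0 hs3
  have hnum := nonum_of hLaO G N hout hNO hCu (hCM _ G.shape) hR hκ3 hε hS
    (by rw [mul_comm]; exact mul_le_mul_of_nonneg_left hS1 hr0.le) htol1 hκ hKj0 hKjl
    (ε3 := 2 ^ p * ((2 * CuM) ^ p * ε + ε') + C0 ^ p * ε' +
      2 ^ p * εt / ((Zs.card : ℝ) * M ^ 2 * r ^ 3))
    (fun D hD hDU => (hKjs D hD hDU).trans (le_of_eq (num3 h1 h2 hr0))) h5 hn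
  obtain ⟨Nl, zl, hNl, hzl, hzm, hlays⟩ := hlay hnum
  obtain ⟨Cn, hCn, hnb⟩ := G.nb
  have hp3 : p < 3 ∨ Vti X V = ∅ := by
    rcases hX with h | h
    · exact Or.inl h
    · right
      ext i
      simp [Vti, h]
  have hnear : ∀ y ∈ QL L, ‖g y - f1 y‖ ≤ C0 * infDist (f1 y) (e3 '' (f '' Q0))ᶜ := by
    intro y hy
    have hy1 : f1 y ∈ e3 '' (f '' Q0) := by
      obtain ⟨_, h1, -⟩ := G.hom
      exact h1 hy
    obtain ⟨c, hc, hyc⟩ := Φ.bf.cov _ hy1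
    exact (hout.near y hy ⟨c, hc⟩ hyc).trans
      (mul_le_mul_of_nonneg_left (G.rho ⟨c, hc⟩ _ hyc) hC0.le)
  refine nog_end hp0 (s := s) a1 a8 a7 hL hη G.mac hp3 hout.homeo hout.pl
    (fun i _ => hKt0 i) hKtl hC0.le hCn hnear G.osc hnb hv hNl hzl
    (fun k y hy c hyc => ?_) hlays
  obtain ⟨m, hm, hzk⟩ := hzm k
  have hy' : ∀ i, |y i| < 1 - η := fun i => by
    have h2 : ‖y‖ < 1 - η := by simpa using hy
    have h3 := norm_le_pi_norm y i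
    rw [Real.norm_eq_abs] at h3
    linarith
  refine G.av m hm c _ hyc ?_ ?_ ?_
  · have e0 : (2 : Fin 3).insertNth (α := fun _ => ℝ) (zl k) y 0 = y 0 := by
      have := Fin.insertNth_apply_succAbove (α := fun _ => ℝ) (2 : Fin 3) (zl k) y 0
      exact this
    rw [e0]; exact hy' 0
  · have e1 : (2 : Fin 3).insertNth (α := fun _ => ℝ) (zl k) y 1 = y 1 := by
      have := Fin.insertNth_apply_succAbove (α := fun _ => ℝ) (2 : Fin 3) (zl k) y 1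
      exact this
    rw [e1]; exact hy' 1
  · rw [Fin.insertNth_apply_same]; exact hzk

end Comp

/-- the constants before the foam -/
theorem cst1 {Pc T2 εn : ℝ} (hPc : 0 ≤ Pc) (hT2 : 0 ≤ T2) (hεn : 0 < εn) :
    ∃ ε : ℝ, 0 < ε ∧ 5 * ε ≤ εn ∧ Pc * ε + T2 * (Pc * ε) ≤ εn / 10 := by
  refine ⟨εn / (10 * (1 + Pc * (1 + T2))), by positivity, ?_, ?_⟩
  · have h : εn / (10 * (1 + Pc * (1 + T2))) ≤ εn / 10 := by
      apply div_le_div_of_nonneg_left hεn.le (by norm_num)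
      have : 0 ≤ Pc * (1 + T2) := by positivity
      linarith
    linarith
  · have h0 : 0 < 1 + Pc * (1 + T2) := by positivity
    have h1 : Pc * (εn / (10 * (1 + Pc * (1 + T2)))) + T2 * (Pc * (εn / (10 * (1 + Pc * (1 + T2))))) =
        εn / 10 * (Pc * (1 + T2) / (1 + Pc * (1 + T2))) := by
      field_simp
    rw [h1]
    have h2 : Pc * (1 + T2) / (1 + Pc * (1 + T2)) ≤ 1 := by
      rw [div_le_one h0]; linarith
    have h3 : (0 : ℝ) ≤ εn / 10 := by positivity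
    nlinarith

/-- the constants after the foam -/
theorem cst2 {Rp Cs T2 Cp εn v : ℝ} (hRp : 0 ≤ Rp) (hCs : 0 ≤ Cs) (hT2 : 0 ≤ T2) (hCp : 0 ≤ Cp)
    (hεn : 0 < εn) (hv : 0 < v) :
    ∃ ε' : ℝ, 0 < ε' ∧ Rp * ε' + T2 * ε' + Cp * ε' ≤ εn / 4 ∧ Cs * (T2 + Cp) * ε' ≤ v := by
  have hW : 0 < 1 + Rp + (Cs + 1) * (T2 + Cp) := by positivity
  have hm : 0 < min (εn / 4) v := lt_min (by positivity) hv
  obtain ⟨y, h0, hx⟩ : ∃ y : ℝ, 0 < y ∧ y * (1 + Rp + (Cs + 1) * (T2 + Cp)) = min (εn / 4) v :=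
    ⟨min (εn / 4) v / (1 + Rp + (Cs + 1) * (T2 + Cp)), by positivity, div_mul_cancel₀ _ hW.ne'⟩
  refine ⟨y, h0, ?_, ?_⟩
  · refine le_trans ?_ (min_le_left (εn / 4) v)
    rw [← hx]
    have : 0 ≤ y * (Cs * (T2 + Cp)) := by positivity
    nlinarith
  · refine le_trans ?_ (min_le_right (εn / 4) v)
    rw [← hx]
    have : 0 ≤ y * (1 + Rp + (T2 + Cp)) := by positivity
    nlinarith

/-- the tolerance -/
theorem cst3 {Cs T2 εn v N0 : ℝ} (hCs : 0 ≤ Cs) (hT2 : 0 < T2) (hεn : 0 < εn) (hv : 0 < v)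
    (hN0 : 0 < N0) : ∃ εt : ℝ, 0 < εt ∧ Cs * T2 * εt ≤ v ∧ T2 * εt / N0 ≤ εn / 8 := by
  refine ⟨min (v / (Cs * T2 + 1)) (εn / 8 * N0 / T2), lt_min (by positivity) (by positivity),
    ?_, ?_⟩
  · have h1 : Cs * T2 * min (v / (Cs * T2 + 1)) (εn / 8 * N0 / T2) ≤ Cs * T2 * (v / (Cs * T2 + 1)) :=
      mul_le_mul_of_nonneg_left (min_le_left _ _) (by positivity)
    refine h1.trans ?_
    have h2 : Cs * T2 * (v / (Cs * T2 + 1)) = v * (Cs * T2 / (Cs * T2 + 1)) := by ring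
    rw [h2]
    have h3 : Cs * T2 / (Cs * T2 + 1) ≤ 1 := by
      rw [div_le_one (by positivity)]; linarith
    nlinarith
  · rw [div_le_iff₀ hN0]
    have h3 := mul_le_mul_of_nonneg_left (min_le_right (v / (Cs * T2 + 1)) (εn / 8 * N0 / T2)) hT2.le
    rwa [mul_div_cancel₀ _ hT2.ne'] at h3

set_option maxHeartbeats 1000000 in
/-- **COMPOSITION**: `NOS p` from the machine and everything before the machine. -/
theorem nos_of {p : ℝ} (hp : 1 ≤ p) (hM : MachNO p) (hP : NOPre p) : NOS p := by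
  have hp0 : 0 < p := by linarith
  obtain ⟨𝒮, t, Cf, hSf, hCf, hP⟩ := hP
  refine nos_of_nog fun s hs hs2 e he => ?_
  obtain ⟨S1, Λ, ef, hS1, hΛ, hef, hsc, hlay⟩ := layers_out' hp s hs he
  obtain ⟨ηm, hηm, Cu, hCu, hM⟩ := hM Λ ef hΛ hef
  obtain ⟨CuM, hCuM0, hCuM⟩ : ∃ CuM : ℝ, 0 ≤ CuM ∧ ∀ 𝒦 ∈ 𝒮, Cu 𝒦 ≤ CuM := by
    obtain ⟨c, hc⟩ := (hSf.image Cu).bddAbove
    exact ⟨max c 0, le_max_right _ _,
      fun 𝒦 h𝒦 => (hc (mem_image_of_mem Cu h𝒦)).trans (le_max_left _ _)⟩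
  obtain ⟨S, KS, hS1S, hKS, hP⟩ := hP s hs hs2 S1 hS1
  have hS : 0 ≤ S := hS1.le.trans hS1S
  obtain ⟨εn, hεn, hεn1, hlay⟩ := hlay ηm (2 * CuM * S + 1) hηm (by positivity)
  have hD1t : (1 + ENNReal.ofReal (Chr 3 p t) * Cf) ≠ ⊤ := ENNReal.add_ne_top.2
    ⟨ENNReal.one_ne_top, ENNReal.mul_ne_top ENNReal.ofReal_ne_top hCf⟩
  obtain ⟨Cs, hCs0, hDC⟩ : ∃ Cs : ℝ, 0 ≤ Cs ∧
      (1 + ENNReal.ofReal (Chr 3 p t) * Cf) = ENNReal.ofReal Cs :=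
    ⟨_, ENNReal.toReal_nonneg, (ENNReal.ofReal_toReal hD1t).symm⟩
  have hPc0 : 0 ≤ (2 * CuM) ^ p := Real.rpow_nonneg (by positivity) p
  have hT20 : (0 : ℝ) < 2 ^ p := by positivity
  have hA0 : 0 ≤ Cs * 2 ^ p * (2 * CuM) ^ p := by positivity
  refine ⟨Cs * 2 ^ p * (2 * CuM) ^ p * KS + 4, by positivity, fun η L e₂ hη hη8 hL1 he₂ => ?_⟩
  have hLr : (1 : ℝ) ≤ L := by exact_mod_cast hL1
  have hL0 : (0 : ℝ) < L := by linarith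
  have hL : (L : ℝ) ≠ 0 := hL0.ne'
  obtain ⟨v, hv0, hv1, hv2⟩ : ∃ v : ℝ, 0 < v ∧ v ≤ 1 / (8 * L) ∧ v ≤ e₂ / (8 * L) :=
    ⟨min (1 / (8 * L)) (e₂ / (8 * L)), lt_min (by positivity) (by positivity), min_le_left _ _,
      min_le_right _ _⟩
  obtain ⟨ε, hε0, hε5, hεP⟩ := cst1 hPc0 hT20.le hεn
  obtain ⟨e2', he2'0, he2'⟩ : ∃ e2' : ℝ, 0 < e2' ∧ Cs * 2 ^ p * (2 * CuM) ^ p * e2' ≤ e₂ / 4 := by
    refine ⟨e₂ / 4 / (Cs * 2 ^ p * (2 * CuM) ^ p + 1), by positivity, ?_⟩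
    rw [mul_div_assoc', div_le_iff₀ (by positivity)]
    nlinarith
  obtain ⟨q, δ, κ0, R, c0, κ2, κ3, hδ, hκ0, hR, hc0, hκ2, hκ3, hP⟩ :=
    hP ε η L hL e2' hε0 hη hη8 hL1 he2'0
  obtain ⟨C0, C, hC0, hC, κp, hκp, hM⟩ := hM δ κ0 R c0 κ2 κ3 hδ hκ0 hR hc0 hκ2 hκ3
  have hCp0 : 0 ≤ C0 ^ p := Real.rpow_nonneg hC0.le p
  have hRp0 : 0 ≤ (R * κ3 * CuM) ^ p := Real.rpow_nonneg (by positivity) p
  obtain ⟨ε', hε'0, hε1, hε2⟩ := cst2 hRp0 hCs0 hT20.le hCp0 hεn hv0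
  obtain ⟨μ, hμ, hμκ, hP⟩ := hP C0 C κp ε' hC0 hC hκp hε'0
  obtain ⟨κ1, hκ1, hM⟩ := hM μ hμ hμκ
  obtain ⟨dd, hdd, hP⟩ := hP κ1 hκ1
  refine ⟨dd, hdd, fun U₀ W₀ f G₀ a1 a2 a3 a4 a5 a6 a7 a8 a9 a10 => ?_⟩
  obtain ⟨f1, al, h, Φ, ι, T, X, J0, J, V, ct, A', lam, z, θ, φ, Mg, 𝒬, r, hr, a, o, M, Zs, U, β, b,
    R0, R1, Sc, d, Kc, cnt, hX, G, hP⟩ := hP U₀ W₀ f G₀ a1 a2 a3 a4 a5 a6 a7 a8 a9 a10
  have hr0 : 0 < r := G.geo.r0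
  have hN0 : 0 < (Zs.card : ℝ) * M ^ 2 * r ^ 3 := N0_pos G.geo
  -- the machine
  obtain ⟨Z, m0, hZ, hM⟩ := hM (QL L) (e3 '' (f '' Q0)) f1 (QL_open L) (QL_bdd hL) (QL_conn hL)
    (La_open a4 a8.homeo a7) (La_bdd a5 a8.homeo a7) (La_conn a8.homeo a7) G.hom Φ ι T X J0 J V ct
    A' lam z θ φ Mg G.star G.cores G.fine (DsN a r o M Zs U) (frN r hr) (S1 * r)
    (fun j => s j.castSucc * r)
    (faceD_of G.geo (mul_pos hS1 hr0) fun j => by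
      rcases hsc j with h0 | ⟨h1, h2⟩
      · left; rw [h0, zero_mul]
      · right
        refine ⟨?_, mul_le_mul_of_nonneg_right h2 hr0.le⟩
        rw [mul_div_right_comm]
        exact mul_le_mul_of_nonneg_right h1 hr0.le)
  obtain ⟨κ, Lv, N⟩ := hP Z (fun c => max (m0 c) (⌈h / (2 * (εn * r))⌉₊ + 1)) hZ
  have hκl : ∀ c : Φ.F, IsLog q al h c.1 → (2 : ℝ)⁻¹ ^ κ c ≤ εn * r := fun c hc =>
    kap_le (mul_pos hεn hr0) le_rfl ((le_max_right (m0 c) _).trans (N.lev.large c)) (N.wlog c hc)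
  -- tolerances
  have hcount : Countable ι := countable_ix T
  obtain ⟨εt, hεt0, hεt1, hεt2⟩ := cst3 hCs0 hT20 hεn hv0 hN0
  obtain ⟨tol, htol0, htol1, htols⟩ := exists_tol2 (ι := ι) hp0
    (w := fun i => volume (P (T.H i)) + ENNReal.ofReal (cnt i))
    (fun i => ENNReal.add_ne_top.2 ⟨(T.cpt i).measure_lt_top.ne, ENNReal.ofReal_ne_top⟩)
    (t0 := εn) hεn hεt0
  obtain ⟨g, u, n, hout, hNO⟩ := hM κ Lv (levels_mono N.lev fun c => le_max_left _ _) N.words tol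
    htol0
  obtain ⟨E1, E2, hE1, hE2, hend⟩ := nog_of_out hp a1 a4 a8.homeo a7 hL hout hNO hCu hC0 hC G N hX
    hCuM0 hCuM htol0 hεt0.le htols hε0.le hε'0.le hη he2'0.le hKS (by linarith) (by linarith) hS hS1S
    (fun i => (htol1 i).trans hεn1) hκl hε5 (by linarith) hv0
    (fun hnum => hlay hr (by linarith) G.geo hnum hNO hout.pl htol1)
  refine hend.mono ?_ ?_ le_rfl
  · exact energy_le hDC hCs0 (by positivity) hv0.le hE1 (num1 hLr hε2 hεt1 hv1) rfl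
  · exact energy_le hDC hCs0 (by positivity) hv0.le hE2
      (num2 hLr hη.le he₂.le hε2 hεt1 hv2 he2') rfl

end

end Crest.Agent.R096.No_276
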