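import Crest.Agent.R096.No1_276

/-!
# Row 96, NO0 (helper276), part 2: the layer clause of `NOS` from the faces of a grid

`sq a r q` = closed square with corner `a + r q` and side `r` in the plane.
`face_energy` : Chebyshev form (good off a small set, bounded everywhere) ⟹ `L^p` bound on the face.
`layer_of_faces` : a cover of `ball 0 (1 - η)` by squares.
-/

set_option autoImplicit false
set_option linter.unusedSectionVars false

open Set Function MeasureTheory Filter Topology Metric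
open scoped ENNReal

namespace Crest.Agent.R096.No_276

open Crest.Agent.R096.Sq_477
open Crest.Agent.R096.SkC1_961 (E3 Hom3)

noncomputable section

abbrev E2 : Type := Fin 2 → ℝ

/-- closed square with lower corner `a + r q` and side `r` -/
def sq (a : E2) (r : ℝ) (q : Fin 2 → ℤ) : Set E2 :=
  {y | ∀ i, a i + r * q i ≤ y i ∧ y i ≤ a i + r * (q i + 1)}

/-- open square -/
def osq (a : E2) (r : ℝ) (q : Fin 2 → ℤ) : Set E2 :=
  {y | ∀ i, a i + r * q i < y i ∧ y i < a i + r * (q i + 1)}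

theorem sq_eq (a : E2) (r : ℝ) (q : Fin 2 → ℤ) :
    sq a r q = univ.pi fun i => Icc (a i + r * q i) (a i + r * (q i + 1)) := by
  ext y; simp only [sq, mem_ofPred_eq, mem_univ_pi, Set.mem_Icc]

theorem osq_eq (a : E2) (r : ℝ) (q : Fin 2 → ℤ) :
    osq a r q = univ.pi fun i => Ioo (a i + r * q i) (a i + r * (q i + 1)) := by
  ext y; simp only [osq, mem_ofPred_eq, mem_univ_pi, Set.mem_Ioo]

theorem osq_subset (a : E2) (r : ℝ) (q : Fin 2 → ℤ) : osq a r q ⊆ sq a r q :=
  fun _ hy i => ⟨(hy i).1.le, (hy i).2.le⟩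

theorem measurableSet_sq (a : E2) (r : ℝ) (q : Fin 2 → ℤ) : MeasurableSet (sq a r q) := by
  rw [sq_eq]; exact MeasurableSet.univ_pi fun _ => measurableSet_Icc

theorem measurableSet_osq (a : E2) (r : ℝ) (q : Fin 2 → ℤ) : MeasurableSet (osq a r q) := by
  rw [osq_eq]; exact MeasurableSet.univ_pi fun _ => measurableSet_Ioo

theorem isOpen_osq (a : E2) (r : ℝ) (q : Fin 2 → ℤ) : IsOpen (osq a r q) := by
  rw [osq_eq]; exact isOpen_set_pi finite_univ fun _ _ => isOpen_Ioo

theorem volume_sq (a : E2) {r : ℝ} (hr : 0 ≤ r) (q : Fin 2 → ℤ) :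
    volume (sq a r q) = ENNReal.ofReal (r ^ 2) := by
  rw [sq_eq, volume_pi_pi]
  simp only [Real.volume_Icc]
  have : ∀ i : Fin 2, a i + r * (q i + 1) - (a i + r * q i) = r := fun i => by ring
  simp only [this, Finset.prod_const, Finset.card_univ, Fintype.card_fin]
  rw [ENNReal.ofReal_pow hr]

theorem volume_osq (a : E2) {r : ℝ} (hr : 0 ≤ r) (q : Fin 2 → ℤ) :
    volume (osq a r q) = ENNReal.ofReal (r ^ 2) := by
  rw [osq_eq, volume_pi_pi]
  simp only [Real.volume_Ioo]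
  have : ∀ i : Fin 2, a i + r * (q i + 1) - (a i + r * q i) = r := fun i => by ring
  simp only [this, Finset.prod_const, Finset.card_univ, Fintype.card_fin]
  rw [ENNReal.ofReal_pow hr]

theorem sq_ae (a : E2) {r : ℝ} (hr : 0 ≤ r) (q : Fin 2 → ℤ) :
    osq a r q =ᵐ[volume] sq a r q := by
  apply ae_eq_of_subset_of_measure_ge (osq_subset a r q)
  · rw [volume_sq a hr, volume_osq a hr]
  · exact (measurableSet_osq a r q).nullMeasurableSet
  · rw [volume_sq a hr]; exact ENNReal.ofReal_ne_top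

/-- the square of a point -/
def fl (a : E2) (r : ℝ) (y : E2) : Fin 2 → ℤ := fun i => ⌊(y i - a i) / r⌋

theorem mem_sq_fl (a : E2) {r : ℝ} (hr : 0 < r) (y : E2) : y ∈ sq a r (fl a r y) := by
  intro i
  unfold fl
  have h1 := Int.floor_le ((y i - a i) / r)
  have h2 := Int.lt_floor_add_one ((y i - a i) / r)
  rw [le_div_iff₀ hr] at h1
  rw [div_lt_iff₀ hr] at h2
  constructor <;> nlinarith

/-- **face energy** -/
theorem face_energy {F : Type*} [NormedAddCommGroup F] {H : E2 → F} {A : F} {a : E2} {r ω ω₁ K p : ℝ}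
    {q : Fin 2 → ℤ} {W : Set E2} (hr : 0 ≤ r) (hp : 0 < p) (hω : 0 ≤ ω) (hω₁ : 0 ≤ ω₁) (hK : 0 ≤ K)
    (hW : volume W ≤ ENNReal.ofReal (ω * r ^ 2))
    (h1 : ∀ y ∈ osq a r q, y ∉ W → ‖H y - A‖ ≤ ω₁) (h2 : ∀ y ∈ osq a r q, ‖H y‖ ≤ K) :
    ∫⁻ y in sq a r q, ‖H y - A‖ₑ ^ p ≤
      ENNReal.ofReal ((ω₁ ^ p + ω * (K + ‖A‖) ^ p) * r ^ 2) := by
  have hae := sq_ae a hr q
  rw [← setLIntegral_congr hae]
  have hpt : ∀ y ∈ osq a r q, ‖H y - A‖ₑ ^ p ≤ ENNReal.ofReal (ω₁ ^ p) +
      (toMeasurable volume W).indicator (fun _ => ENNReal.ofReal ((K + ‖A‖) ^ p)) y := by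
    intro y hy
    rw [← ofReal_norm, ENNReal.ofReal_rpow_of_nonneg (norm_nonneg _) hp.le]
    by_cases hyW : y ∈ W
    · rw [indicator_of_mem (subset_toMeasurable _ _ hyW)]
      refine le_trans ?_ le_add_self
      apply ENNReal.ofReal_le_ofReal
      apply Real.rpow_le_rpow (norm_nonneg _) _ hp.le
      exact (norm_sub_le _ _).trans (by linarith [h2 y hy])
    · refine le_trans ?_ le_self_add
      apply ENNReal.ofReal_le_ofReal
      exact Real.rpow_le_rpow (norm_nonneg _) (h1 y hy hyW) hp.le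
  calc ∫⁻ y in osq a r q, ‖H y - A‖ₑ ^ p
      ≤ ∫⁻ y in osq a r q, (ENNReal.ofReal (ω₁ ^ p) +
      (toMeasurable volume W).indicator (fun _ => ENNReal.ofReal ((K + ‖A‖) ^ p)) y) :=
        setLIntegral_mono' (measurableSet_osq a r q) hpt
    _ = ENNReal.ofReal (ω₁ ^ p) * volume (osq a r q) +
        ∫⁻ y in osq a r q, (toMeasurable volume W).indicator
          (fun _ => ENNReal.ofReal ((K + ‖A‖) ^ p)) y := by
        rw [lintegral_add_left measurable_const]
        simp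
    _ ≤ ENNReal.ofReal (ω₁ ^ p) * ENNReal.ofReal (r ^ 2) +
        ENNReal.ofReal ((K + ‖A‖) ^ p) * ENNReal.ofReal (ω * r ^ 2) := by
        rw [volume_osq a hr]
        gcongr
        refine (setLIntegral_le_lintegral _ _).trans ?_
        rw [lintegral_indicator (measurableSet_toMeasurable _ _)]
        simp only [lintegral_const, Measure.restrict_apply, MeasurableSet.univ, univ_inter,
          measure_toMeasurable]
        gcongr
    _ = ENNReal.ofReal ((ω₁ ^ p + ω * (K + ‖A‖) ^ p) * r ^ 2) := by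
        have : 0 ≤ K + ‖A‖ := by positivity
        rw [← ENNReal.ofReal_mul (by positivity), ← ENNReal.ofReal_mul (by positivity),
          ← ENNReal.ofReal_add (by positivity) (by positivity)]
        congr 1
        ring

/-- every face -/
theorem face_bad {F : Type*} [NormedAddCommGroup F] {H : E2 → F} {A : F} {a : E2} {r K p : ℝ}
    {q : Fin 2 → ℤ} (hr : 0 ≤ r) (hp : 0 < p) (hK : 0 ≤ K)
    (h2 : ∀ y ∈ osq a r q, ‖H y‖ ≤ K) :
    ∫⁻ y in sq a r q, ‖H y - A‖ₑ ^ p ≤ ENNReal.ofReal ((K + ‖A‖) ^ p * r ^ 2) := by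
  have h := face_energy (W := (∅ : Set E2)) (ω := 0) (A := A) hr hp le_rfl
    (add_nonneg hK (norm_nonneg A)) hK (by simp)
    (fun y hy _ => (norm_sub_le (H y) A).trans (by linarith [h2 y hy])) h2
  simpa using h

/-- **cover of a layer by squares** -/
theorem layer_of_faces {F : Type*} [NormedAddCommGroup F] {H : E2 → F} {A : F} {a : E2} {r p η : ℝ}
    (hr : 0 < r) (I : Finset (Fin 2 → ℤ))
    (hI : ∀ y ∈ ball (0 : E2) (1 - η), fl a r y ∈ I) (E : (Fin 2 → ℤ) → ℝ≥0∞)
    (hE : ∀ q ∈ I, ∫⁻ y in sq a r q, ‖H y - A‖ₑ ^ p ≤ E q) :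
    ∫⁻ y in ball (0 : E2) (1 - η), ‖H y - A‖ₑ ^ p ≤ ∑ q ∈ I, E q := by
  calc ∫⁻ y in ball (0 : E2) (1 - η), ‖H y - A‖ₑ ^ p
      ≤ ∫⁻ y in ⋃ q ∈ I, sq a r q, ‖H y - A‖ₑ ^ p := by
        apply lintegral_mono_set
        intro y hy
        simp only [mem_iUnion]
        exact ⟨_, hI y hy, mem_sq_fl a hr y⟩
    _ ≤ ∑ q ∈ I, ∫⁻ y in sq a r q, ‖H y - A‖ₑ ^ p := by
        rw [← Finset.sum_coe_sort]
        have h1 : (⋃ q ∈ I, sq a r q) = ⋃ q : I, sq a r q := by
          ext y; simp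
        rw [h1]
        refine (lintegral_iUnion_le _ _).trans ?_
        rw [tsum_fintype]
    _ ≤ ∑ q ∈ I, E q := Finset.sum_le_sum hE

end

end Crest.Agent.R096.No_276
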