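import Crest.Agent.R096.No0_477

/-!
Row 96 (S0127), helper477.  NO0-ASM leaf (L1) COUNT: purity of most squares by telescoping and
Markov's inequality.
-/

set_option autoImplicit false
set_option linter.style.longLine false
set_option linter.unusedSectionVars false

open MeasureTheory Set Filter Topology Metric
open scoped ENNReal

namespace Crest.Agent.R096.No3_477

section abstract

variable {Q : Type*}

open Classical in
/-- Markov -/
theorem card_markov (F : Finset Q) (y : Q → ℝ) (hy : ∀ q ∈ F, 0 ≤ y q) {τ B : ℝ} (hτ : 0 < τ)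
    (hB : ∑ q ∈ F, y q ≤ B) : ((F.filter fun q => τ < y q).card : ℝ) ≤ B / τ := by
  rw [le_div_iff₀ hτ]
  calc ((F.filter fun q => τ < y q).card : ℝ) * τ = ∑ q ∈ F.filter fun q => τ < y q, τ := by
        rw [Finset.sum_const, nsmul_eq_mul]
    _ ≤ ∑ q ∈ F.filter fun q => τ < y q, y q :=
        Finset.sum_le_sum fun q hq => (Finset.mem_filter.1 hq).2.le
    _ ≤ ∑ q ∈ F, y q := Finset.sum_le_sum_of_subset_of_nonneg (Finset.filter_subset _ _)
        fun q hq _ => hy q hq
    _ ≤ B := hB

open Classical in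
/-- **deficit**: one direction, one kind of side. -/
theorem count1 (F : Finset Q) (good : Q → Prop) (D x X : Q → ℝ) {s r θ K1 ε p N : ℝ} (hr : 0 < r)
    (hs : 0 ≤ s) (hθ : 0 ≤ θ) (hθ1 : θ ≤ 1) (hK : 0 ≤ K1) (hp : 1 ≤ p) (hε : 0 ≤ ε)
    (hN : (F.card : ℝ) = N)
    (hbad : ((F.filter fun q => ¬ good q).card : ℝ) ≤ ε * N)
    (hx : ∀ q ∈ F, 0 ≤ x q) (hxs : ∑ q ∈ F, x q ≤ ε * N)
    (hX : ∀ q ∈ F, 0 ≤ X q) (hXs : ∑ q ∈ F, X q ^ p ≤ ε * N)
    (hD : ∀ q ∈ F, good q → D q ≤ (1 + θ) * (r * (s + x q)) + θ * r)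
    (hB : ∀ q ∈ F, |D q| ≤ r * (K1 + X q))
    (hsum : |∑ q ∈ F, D q - s * r * N| ≤ ε * r * N) {τ : ℝ} (hτ : 0 < τ) :
    ((F.filter fun q => good q ∧ (τ < x q ∨ D q < r * (s - τ))).card : ℝ) ≤
      (θ * (s + 1) + (6 + K1) * ε) / τ * N := by
  have hN0 : 0 ≤ N := by rw [← hN]; positivity
  -- the deficits
  set d : Q → ℝ := fun q => (1 + θ) * (r * (s + x q)) + θ * r - D q with hd
  set G := F.filter fun q => good q with hG
  set B := F.filter fun q => ¬ good q with hB'
  have hd0 : ∀ q ∈ G, 0 ≤ d q := fun q hq => by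
    have := hD q (Finset.mem_filter.1 hq).1 (Finset.mem_filter.1 hq).2
    simp only [hd]; linarith
  have hsplit : ∀ h : Q → ℝ, ∑ q ∈ F, h q = ∑ q ∈ G, h q + ∑ q ∈ B, h q := fun h =>
    (Finset.sum_filter_add_sum_filter_not F good h).symm
  have hBD : ∑ q ∈ B, D q ≤ r * ((K1 + 2) * ε * N) := by
    calc ∑ q ∈ B, D q ≤ ∑ q ∈ B, r * (K1 + (1 + X q ^ p)) := by
          refine Finset.sum_le_sum fun q hq => ?_
          have hqF := (Finset.mem_filter.1 hq).1
          refine (le_abs_self _).trans ((hB q hqF).trans ?_)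
          refine mul_le_mul_of_nonneg_left (add_le_add le_rfl ?_) hr.le
          rcases le_total (X q) 1 with h1 | h1
          · have := Real.rpow_nonneg (hX q hqF) p
            linarith
          · have := Real.self_le_rpow_of_one_le h1 hp
            linarith
      _ = r * (K1 + 1) * B.card + r * ∑ q ∈ B, X q ^ p := by
          rw [← Finset.mul_sum, Finset.sum_add_distrib, Finset.sum_add_distrib, Finset.sum_const,
            Finset.sum_const]
          simp only [nsmul_eq_mul]
          ring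
      _ ≤ r * (K1 + 1) * (ε * N) + r * (ε * N) := by
          refine add_le_add (mul_le_mul_of_nonneg_left hbad (by positivity))
            (mul_le_mul_of_nonneg_left ?_ hr.le)
          refine le_trans (Finset.sum_le_sum_of_subset_of_nonneg (Finset.filter_subset _ _)
            fun q hq _ => Real.rpow_nonneg (hX q hq) p) hXs
      _ = _ := by ring
  have hdsum : ∑ q ∈ G, d q ≤ r * ((θ * (s + 1) + (5 + K1) * ε) * N) := by
    have h1 : ∑ q ∈ G, ((1 + θ) * (r * (s + x q)) + θ * r) ≤
        ∑ q ∈ F, ((1 + θ) * (r * (s + x q)) + θ * r) :=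
      Finset.sum_le_sum_of_subset_of_nonneg (Finset.filter_subset _ _) fun q hq _ => by
        have := hx q hq
        positivity
    have h2 : ∑ q ∈ F, ((1 + θ) * (r * (s + x q)) + θ * r) =
        ((1 + θ) * r * s + θ * r) * N + (1 + θ) * r * ∑ q ∈ F, x q := by
      rw [Finset.sum_add_distrib, ← Finset.mul_sum, ← Finset.mul_sum, Finset.sum_add_distrib,
        Finset.sum_const, Finset.sum_const]
      simp only [nsmul_eq_mul]
      rw [hN]; ring
    have h3 : s * r * N - ε * r * N ≤ ∑ q ∈ F, D q := by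
      have := (abs_le.1 hsum).1
      linarith
    have h4 := hsplit D
    have h5 : (1 + θ) * r * ∑ q ∈ F, x q ≤ 2 * r * (ε * N) := by
      have h6 : 0 ≤ ∑ q ∈ F, x q := Finset.sum_nonneg hx
      calc (1 + θ) * r * ∑ q ∈ F, x q ≤ 2 * r * ∑ q ∈ F, x q := by
            apply mul_le_mul_of_nonneg_right _ h6
            nlinarith
        _ ≤ _ := mul_le_mul_of_nonneg_left hxs (by positivity)
    simp only [hd, Finset.sum_sub_distrib]
    nlinarith
  -- the two Markov estimates
  have m1 := card_markov F x hx hτ hxs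
  have m2 := card_markov G d hd0 (mul_pos hτ hr) hdsum
  have hsub : (F.filter fun q => good q ∧ (τ < x q ∨ D q < r * (s - τ))) ⊆
      (F.filter fun q => τ < x q) ∪ (G.filter fun q => τ * r < d q) := by
    intro q hq
    obtain ⟨hqF, hgood, h⟩ := Finset.mem_filter.1 hq
    rw [Finset.mem_union]
    rcases h with h | h
    · exact Or.inl (Finset.mem_filter.2 ⟨hqF, h⟩)
    · refine Or.inr (Finset.mem_filter.2 ⟨Finset.mem_filter.2 ⟨hqF, hgood⟩, ?_⟩)
      have h0 := hx q hqF
      simp only [hd]
      have h1 : r * s ≤ (1 + θ) * (r * (s + x q)) := by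
        have e1 : 0 ≤ θ * (r * (s + x q)) := by positivity
        nlinarith
      have h2 : 0 ≤ θ * r := by positivity
      nlinarith
  calc ((F.filter fun q => good q ∧ (τ < x q ∨ D q < r * (s - τ))).card : ℝ)
      ≤ ((F.filter fun q => τ < x q) ∪ (G.filter fun q => τ * r < d q)).card := by
        exact_mod_cast Finset.card_le_card hsub
    _ ≤ (F.filter fun q => τ < x q).card + (G.filter fun q => τ * r < d q).card := by
        exact_mod_cast Finset.card_union_le _ _
    _ ≤ ε * N / τ + r * ((θ * (s + 1) + (5 + K1) * ε) * N) / (τ * r) := add_le_add m1 m2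
    _ = _ := by field_simp; ring

end abstract

end Crest.Agent.R096.No3_477
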