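import Crest.Agent.R096.No4_276

/-!
# Row 96, NO0 (helper276), part 5 = end of leaf (L6): from the machine map to the conclusion of `NOS`

* `NOG` : the conclusion of `NOS` (with energy bounds `A1`, `A2`).
* `nog_of_macro` (`p < 3`, macro balls) and `nog_of_tiles` (no macro ball; all `p > 0`).
-/

set_option autoImplicit false
set_option linter.unusedSectionVars false

open Set Function MeasureTheory Filter Topology Metric
open scoped ENNReal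
open Crest.AnalysisR.VecCalc3 Crest.AnalysisR.Sobolev

namespace Crest.Agent.R096.No_276

open Crest.Agent.R096.Msh_715 Crest.Agent.R096.Ea_713 Crest.Agent.R96.Hole_348
open Crest.Agent.R096.Sk_962 (Q0 Qc0)
open Crest.Agent.R096.Sq_477
open Crest.Agent.R096.SkC1_961 (E3 Hom3)

noncomputable section

/-- the conclusion of `NOS` -/
def NOG (p : ℝ) (s : Fin 3 → ℝ) (f : R3 → R3) (L : ℕ) (η : ℝ) (A1 A2 : ℝ≥0∞) (e : ℝ) : Prop :=
  ∃ g : E3 → E3, Hom3 g (QL L) (e3 '' (f '' Q0)) ∧ Crest.Agent.R096.Str_696.LocPL g (QL L) ∧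
    (∀ z ∈ frontier Q0, ∀ ε > 0, ∀ᶠ x in 𝓝[Q0] z, ∀ y ∈ QL L,
      y 0 = x 0 → y 1 = x 1 → L * y 2 = x 2 → ‖g y - e3 (f x)‖ ≤ ε) ∧
    (∫⁻ x in QL L, ‖fderiv ℝ g x‖ₑ ^ p) ≤ A1 ∧
    (∫⁻ x in ShL L η, ‖fderiv ℝ g x‖ₑ ^ p) ≤ A2 ∧
    ∃ (N : ℕ) (z : Fin N → ℝ), 0 < N ∧ (∀ k, |L * z k| ≤ 1 / 2) ∧
      ∑ k, ∑ i : Fin 2, (∫⁻ y in ball (0 : Fin 2 → ℝ) (1 - η),
        ‖Dp (sl g (z k) 2) i y - Pi.single ((2 : Fin 3).succAbove i)
          (s ((2 : Fin 3).succAbove i))‖ₑ ^ p) ≤ N * ENNReal.ofReal e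

theorem NOG.mono {p : ℝ} {s : Fin 3 → ℝ} {f : R3 → R3} {L : ℕ} {η : ℝ} {A1 A2 A1' A2' : ℝ≥0∞}
    {e e' : ℝ} (h : NOG p s f L η A1 A2 e) (h1 : A1 ≤ A1') (h2 : A2 ≤ A2') (he : e ≤ e') :
    NOG p s f L η A1' A2' e' := by
  obtain ⟨g, a1, a2, a3, a4, a5, N, z, a6, a7, a8⟩ := h
  exact ⟨g, a1, a2, a3, a4.trans h1, a5.trans h2, N, z, a6, a7,
    a8.trans (by gcongr)⟩

/-- the conclusion of `NOS p` literally -/
theorem nos_of_nog {p : ℝ} (h : ∀ s : Fin 3 → ℝ, (∀ i, 0 ≤ s i) → s 2 = 0 → ∀ e : ℝ, 0 < e →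
    ∃ K : ℝ, 0 < K ∧
    ∀ (η : ℝ) (L : ℕ) (e₂ : ℝ), 0 < η → η ≤ 1 / 8 → 1 ≤ L → 0 < e₂ → ∃ d : ℝ, 0 < d ∧
    ∀ (U W : Set R3) (f : R3 → R3) (G : Fin 3 → R3 → R3),
      IsOpen U → Bornology.IsBounded U → IsConnected U →
      IsOpen W → Bornology.IsBounded W → IsConnected W → Qc0 ⊆ U →
      Crest.Agent.R096.Sk_962.SH p U W f G →
      ∫⁻ x in Q0, ∑ j : Fin 3, ‖G j x - Crest.Agent.R096.Sk_962.dg s j‖ₑ ^ p ≤ ENNReal.ofReal d →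
      volume (Q0 \ Crest.Agent.R096.Sk4_663.Zd G) ≤ ENNReal.ofReal d →
      NOG p s f L η (ENNReal.ofReal (K / L)) (ENNReal.ofReal ((K * η + e₂) / L)) e) : NOS p := h

theorem insert_mem_QL {L : ℕ} {η : ℝ} (hη : 0 < η) {c : ℝ} (hc : |(L : ℝ) * c| ≤ 1 / 2)
    {y : Fin 2 → ℝ} (hy : y ∈ ball (0 : Fin 2 → ℝ) (1 - η)) :
    (2 : Fin 3).insertNth (α := fun _ => ℝ) c y ∈ QL L := by
  have h1 : ∀ i, |y i| < 1 := by
    intro i
    have h2 : ‖y‖ < 1 - η := by simpa using hy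
    have h3 := norm_le_pi_norm y i
    rw [Real.norm_eq_abs] at h3
    linarith
  have e0 : (2 : Fin 3).insertNth (α := fun _ => ℝ) c y 0 = y 0 := by
    have := Fin.insertNth_apply_succAbove (α := fun _ => ℝ) (2 : Fin 3) c y 0
    exact this
  have e1 : (2 : Fin 3).insertNth (α := fun _ => ℝ) c y 1 = y 1 := by
    have := Fin.insertNth_apply_succAbove (α := fun _ => ℝ) (2 : Fin 3) c y 1
    exact this
  have e2 : (2 : Fin 3).insertNth (α := fun _ => ℝ) c y 2 = c := by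
    rw [Fin.insertNth_apply_same]
  refine ⟨?_, ?_, ?_⟩
  · rw [e0]; exact h1 0
  · rw [e1]; exact h1 1
  · rw [e2]; linarith

theorem Dp_sl_congr {g g' : E3 → E3} {c : ℝ} {y : Fin 2 → ℝ}
    (h : g' =ᶠ[𝓝 ((2 : Fin 3).insertNth (α := fun _ => ℝ) c y)] g) (i : Fin 2) :
    Dp (sl g' c 2) i y = Dp (sl g c 2) i y := by
  unfold Dp
  have hc : Continuous fun y : Fin 2 → ℝ => (2 : Fin 3).insertNth (α := fun _ => ℝ) c y :=
    Continuous.finInsertNth (2 : Fin 3) continuous_const continuous_id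
  have h1 : sl g' c 2 =ᶠ[𝓝 y] sl g c 2 := hc.continuousAt.eventually h
  rw [h1.fderiv_eq]

theorem Macro.cov {Om : Set E3} {ι : Type} {κ : Type*} {T : Tiling Om ι} {Ex : Set ι} {a : κ → E3}
    {R0 R1 : κ → ℝ} {S : κ → Finset ι} {d : ι → ℝ} {t : ℝ} {Cf : ℝ≥0∞}
    (M : Macro T Ex a R0 R1 S d t Cf) {Z : Set E3} (hZ : Z ⊆ Om) {IZ : Set ι}
    (h : ∀ i, i ∉ Ex → (P (T.H i) ∩ Z).Nonempty → i ∈ IZ) :
    ∀ x ∈ Z, (∀ c, x ∉ closedBall (a c) (R1 c)) → ∃ i ∈ IZ, i ∉ Ex ∧ x ∈ P (T.H i) := by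
  intro x hx hxc
  obtain ⟨i, hi⟩ := T.cov x (hZ hx)
  have hiE : i ∉ Ex := by
    intro hE
    obtain ⟨c, hc⟩ := M.ex i hE
    exact hxc c (closedBall_subset_closedBall (M.fam.lt c).le (hc hi))
  exact ⟨i, h i hiE ⟨x, hi, hx⟩, hiE, hi⟩

theorem QL_open (L : ℝ) : IsOpen (QL L) := by
  have h1 : QL L = {x : E3 | |x 0| < 1} ∩ ({x | |x 1| < 1} ∩ {x | |L * x 2| < 1}) := by
    ext x; rfl
  rw [h1]
  refine IsOpen.inter ?_ (IsOpen.inter ?_ ?_)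
  · exact isOpen_lt (by fun_prop) continuous_const
  · exact isOpen_lt (by fun_prop) continuous_const
  · exact isOpen_lt (by fun_prop) continuous_const

theorem ShL_open (L η : ℝ) : IsOpen (ShL L η) := by
  refine (QL_open L).inter ?_
  have h1 : {x : E3 | 1 - 2 * η < |x 0| ∨ 1 - 2 * η < |x 1| ∨ 1 - 2 * η < |L * x 2|} =
      {x : E3 | 1 - 2 * η < |x 0|} ∪ ({x | 1 - 2 * η < |x 1|} ∪ {x | 1 - 2 * η < |L * x 2|}) := by
    ext x; rfl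
  rw [h1]
  refine IsOpen.union ?_ (IsOpen.union ?_ ?_)
  · exact isOpen_lt continuous_const (by fun_prop)
  · exact isOpen_lt continuous_const (by fun_prop)
  · exact isOpen_lt continuous_const (by fun_prop)

/-- near bound after the squeeze -/
theorem near_squeeze {Om La : Set E3} {κ : Type*} {a : κ → E3} {R1 : κ → ℝ} {f1 g g' : E3 → E3}
    (hsub : ∀ c, closedBall (a c) (R1 c) ⊆ Om) {C C' : ℝ} (hC : 0 ≤ C) (hC' : 0 ≤ C')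
    (hnear : ∀ y ∈ Om, ‖g y - f1 y‖ ≤ C * infDist (f1 y) Laᶜ)
    (hball : ∀ c, ∀ x ∈ closedBall (a c) (R1 c), ∀ y ∈ closedBall (a c) (R1 c),
      ‖f1 x - f1 y‖ ≤ C' * infDist (f1 y) Laᶜ)
    (h3 : ∀ x, (∀ c, x ∉ closedBall (a c) (R1 c)) → g' x = g x)
    (h5 : ∀ c, ∀ x ∈ closedBall (a c) (R1 c), ∃ x' ∈ closedBall (a c) (R1 c), g' x = g x') :
    ∀ y ∈ Om, ‖g' y - f1 y‖ ≤ (C * (1 + C') + C') * infDist (f1 y) Laᶜ := by
  intro y hy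
  have hd0 : 0 ≤ infDist (f1 y) Laᶜ := infDist_nonneg
  by_cases hyc : ∀ c, y ∉ closedBall (a c) (R1 c)
  · rw [h3 y hyc]
    refine (hnear y hy).trans ?_
    have : 0 ≤ (C * C' + C') * infDist (f1 y) Laᶜ := by positivity
    linarith [this]
  · push Not at hyc
    obtain ⟨c, hc⟩ := hyc
    obtain ⟨x', hx', hgx⟩ := h5 c y hc
    rw [hgx]
    have e1 := hnear x' (hsub c hx')
    have e2 := hball c x' hx' y hc
    have e3' : infDist (f1 x') Laᶜ ≤ infDist (f1 y) Laᶜ + dist (f1 x') (f1 y) :=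
      infDist_le_infDist_add_dist
    rw [dist_eq_norm] at e3'
    have e4 : ‖g x' - f1 y‖ ≤ ‖g x' - f1 x'‖ + ‖f1 x' - f1 y‖ := norm_sub_le_norm_sub_add_norm_sub _ _ _
    have e5 : C * infDist (f1 x') Laᶜ ≤ C * (infDist (f1 y) Laᶜ + C' * infDist (f1 y) Laᶜ) :=
      mul_le_mul_of_nonneg_left (by linarith) hC
    calc ‖g x' - f1 y‖ ≤ C * (infDist (f1 y) Laᶜ + C' * infDist (f1 y) Laᶜ) +
          C' * infDist (f1 y) Laᶜ := by linarith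
      _ = _ := by ring

/-- **END OF NO0, `p < 3`.**  `f1 = S ∘ e3 ∘ f ∘ e3.symm ∘ RL`. -/
theorem nog_of_macro {p : ℝ} (hp0 : 0 < p) (hp3 : p < 3) {s : Fin 3 → ℝ} {f : R3 → R3}
    {U W : Set R3} (hU : IsOpen U) (hf : IsHomeomorphOn f U W) (hQ : Qc0 ⊆ U) {K : Set E3}
    (hK : IsCompact K) (hKL : K ⊆ e3 '' (f '' Q0)) {Sp : E3 → E3} (hS : ∀ y, y ∉ K → Sp y = y)
    {L : ℕ} (hL : (L : ℝ) ≠ 0) {η : ℝ} (hη : 0 < η) {ι : Type} {κ : Type*} {T : Tiling (QL L) ι}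
    {Ex : Set ι} {a : κ → E3} {R0 R1 : κ → ℝ} {Sc : κ → Finset ι} {d : ι → ℝ} {t : ℝ} {Cf : ℝ≥0∞}
    (M : Macro T Ex a R0 R1 Sc d t Cf) {g : E3 → E3} (hg : Hom3 g (QL L) (e3 '' (f '' Q0)))
    (hgp : Crest.Agent.R096.Str_696.LocPL g (QL L)) {Kt : ι → ℝ} (hK0 : ∀ i, i ∉ Ex → 0 ≤ Kt i)
    (hKt : ∀ i, i ∉ Ex → ∀ x ∈ I (T.H i), LLV (Kt i) g x) {C C' : ℝ} (hC : 0 ≤ C) (hC' : 0 ≤ C')
    (hnear : ∀ y ∈ QL L, ‖g y - Sp (e3 (f (e3.symm (RL L hL y))))‖ ≤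
      C * infDist (Sp (e3 (f (e3.symm (RL L hL y))))) (e3 '' (f '' Q0))ᶜ)
    (hball : ∀ c, ∀ x ∈ closedBall (a c) (R1 c), ∀ y ∈ closedBall (a c) (R1 c),
      ‖Sp (e3 (f (e3.symm (RL L hL x)))) - Sp (e3 (f (e3.symm (RL L hL y))))‖ ≤
        C' * infDist (Sp (e3 (f (e3.symm (RL L hL y))))) (e3 '' (f '' Q0))ᶜ)
    {ε : ℝ} (hε : 0 < ε) {IZ : Set ι}
    (hIZ : ∀ i, i ∉ Ex → (P (T.H i) ∩ ShL L η).Nonempty → i ∈ IZ)
    (hIZ2 : ∀ c, (closedBall (a c) (R1 c) ∩ ShL L η).Nonempty → ∀ i ∈ Sc c, i ∈ IZ)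
    {N : ℕ} (hN : 0 < N) {z : Fin N → ℝ} (hz : ∀ k, |(L : ℝ) * z k| ≤ 1 / 2)
    (hav : ∀ k, ∀ y ∈ ball (0 : Fin 2 → ℝ) (1 - η), ∀ c,
      (2 : Fin 3).insertNth (α := fun _ => ℝ) (z k) y ∉ closedBall (a c) (R1 c)) {e : ℝ}
    (hlay : ∑ k, ∑ i : Fin 2, (∫⁻ y in ball (0 : Fin 2 → ℝ) (1 - η),
        ‖Dp (sl g (z k) 2) i y - Pi.single ((2 : Fin 3).succAbove i)
          (s ((2 : Fin 3).succAbove i))‖ₑ ^ p) ≤ N * ENNReal.ofReal e) :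
    NOG p s f L η
      ((1 + ENNReal.ofReal (Chr 3 p t) * Cf) *
        (∑' i : {i // i ∉ Ex}, ENNReal.ofReal (Kt i ^ p) * volume (P (T.H i))) + ENNReal.ofReal ε)
      ((1 + ENNReal.ofReal (Chr 3 p t) * Cf) *
        (∑' i : {i // i ∈ IZ ∧ i ∉ Ex}, ENNReal.ofReal (Kt i ^ p) * volume (P (T.H i))) +
          ENNReal.ofReal ε) e := by
  obtain ⟨g', h1, h2, h3, h4, h5, h6⟩ := M.squeeze hp0 hp3 hg hgp ∅ (fun _ _ _ => notMem_empty _)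
    (Kt := Kt) (fun i h _ => hK0 i h) (fun i h _ => hKt i h) hε
  have hsub : ∀ c, closedBall (a c) (R1 c) ⊆ QL L := M.fam.sub
  refine ⟨g', h1, h2, ?_, ?_, ?_, N, z, hN, hz, ?_⟩
  · exact bdry_clause hU hf hQ hK hKL hS hL (C := C * (1 + C') + C') (by positivity)
      (near_squeeze (f1 := fun y => Sp (e3 (f (e3.symm (RL L hL y))))) hsub hC hC' hnear hball h3 h5)
  · have h7 := h6 (QL L) (QL_open L).measurableSet Subset.rfl univ (fun _ _ => notMem_empty _)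
      (M.cov Subset.rfl fun i _ _ => mem_univ i) (fun _ _ _ _ => mem_univ _)
    refine h7.trans (le_of_eq ?_)
    congr 2
    let eqv : {i // i ∈ (univ : Set ι) ∧ i ∉ Ex} ≃ {i // i ∉ Ex} :=
      Equiv.subtypeEquivRight fun i => by simp
    exact eqv.tsum_eq (fun i : {i // i ∉ Ex} => ENNReal.ofReal (Kt i ^ p) * volume (P (T.H i)))
  · exact h6 (ShL L η) (ShL_open L η).measurableSet (fun x hx => hx.1) IZ
      (fun _ _ => notMem_empty _) (M.cov (fun x hx => hx.1) hIZ) hIZ2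
  · refine le_trans (le_of_eq ?_) hlay
    refine Finset.sum_congr rfl fun k _ => Finset.sum_congr rfl fun i _ => ?_
    refine setLIntegral_congr_fun measurableSet_ball fun y hy => ?_
    simp only [Dp_sl_congr (h4 _ (insert_mem_QL hη (hz k) hy) (hav k y hy)) i]

/-- **END OF NO0 without macro balls** (used for `p ≥ 3`). -/
theorem nog_of_tiles {p : ℝ} (hp0 : 0 < p) {s : Fin 3 → ℝ} {f : R3 → R3}
    {U W : Set R3} (hU : IsOpen U) (hf : IsHomeomorphOn f U W) (hQ : Qc0 ⊆ U) {K : Set E3}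
    (hK : IsCompact K) (hKL : K ⊆ e3 '' (f '' Q0)) {Sp : E3 → E3} (hS : ∀ y, y ∉ K → Sp y = y)
    {L : ℕ} (hL : (L : ℝ) ≠ 0) {η : ℝ} {ι : Type} {T : Tiling (QL L) ι}
    {g : E3 → E3} (hg : Hom3 g (QL L) (e3 '' (f '' Q0)))
    (hgp : Crest.Agent.R096.Str_696.LocPL g (QL L)) {Kt : ι → ℝ} (hK0 : ∀ i, 0 ≤ Kt i)
    (hKt : ∀ i, ∀ x ∈ I (T.H i), LLV (Kt i) g x) {C : ℝ} (hC : 0 ≤ C)
    (hnear : ∀ y ∈ QL L, ‖g y - Sp (e3 (f (e3.symm (RL L hL y))))‖ ≤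
      C * infDist (Sp (e3 (f (e3.symm (RL L hL y))))) (e3 '' (f '' Q0))ᶜ)
    {IZ : Set ι} (hIZ : ∀ i, (P (T.H i) ∩ ShL L η).Nonempty → i ∈ IZ)
    {N : ℕ} (hN : 0 < N) {z : Fin N → ℝ} (hz : ∀ k, |(L : ℝ) * z k| ≤ 1 / 2) {e : ℝ}
    (hlay : ∑ k, ∑ i : Fin 2, (∫⁻ y in ball (0 : Fin 2 → ℝ) (1 - η),
        ‖Dp (sl g (z k) 2) i y - Pi.single ((2 : Fin 3).succAbove i)
          (s ((2 : Fin 3).succAbove i))‖ₑ ^ p) ≤ N * ENNReal.ofReal e) :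
    NOG p s f L η (∑' i : ι, ENNReal.ofReal (Kt i ^ p) * volume (P (T.H i)))
      (∑' i : IZ, ENNReal.ofReal (Kt i ^ p) * volume (P (T.H i))) e := by
  refine ⟨g, hg, hgp, bdry_clause hU hf hQ hK hKL hS hL hC hnear, ?_, ?_, N, z, hN, hz, hlay⟩
  · have h1 : QL L ⊆ ⋃ i ∈ (univ : Set ι), P (T.H i) := by
      intro x hx
      obtain ⟨i, hi⟩ := T.cov x hx
      simp only [mem_iUnion]
      exact ⟨i, mem_univ i, hi⟩
    refine (lintegral_mono_set h1).trans ?_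
    refine (lint_tiles volume T univ (w := fun x => ‖fderiv ℝ g x‖ₑ ^ p)
      (c := fun i => ENNReal.ofReal (Kt i ^ p)) fun i _ x hx =>
        enorm_fderiv_rpow_le (hK0 i) hp0.le (hKt i x hx)).trans (le_of_eq ?_)
    exact tsum_univ (fun i : ι => ENNReal.ofReal (Kt i ^ p) * volume (P (T.H i)))
  · have h1 : ShL L η ⊆ ⋃ i ∈ IZ, P (T.H i) := by
      intro x hx
      obtain ⟨i, hi⟩ := T.cov x hx.1
      simp only [mem_iUnion]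
      exact ⟨i, hIZ i ⟨x, hi, hx⟩, hi⟩
    refine (lintegral_mono_set h1).trans ?_
    exact lint_tiles volume T IZ (w := fun x => ‖fderiv ℝ g x‖ₑ ^ p)
      (c := fun i => ENNReal.ofReal (Kt i ^ p)) fun i _ x hx =>
        enorm_fderiv_rpow_le (hK0 i) hp0.le (hKt i x hx)

end

end Crest.Agent.R096.No_276
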