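import Crest.Agent.R096.No5_477

/-!
Row 96 (S0127), helper477.  NO0-ASM leaf (L1) COUNT, part 3: the displacement bound.
-/

set_option autoImplicit false
set_option linter.style.longLine false
set_option linter.unusedSectionVars false
set_option linter.unusedVariables false

open MeasureTheory Set Filter Topology Metric
open scoped ENNReal

namespace Crest.Agent.R096.No6_477

open Crest.Agent.R096.Bsp_628 Crest.Agent.R096.Brk1_582 Crest.Agent.R096.Brk3_582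
open Crest.Agent.R096.Brk5_582
open Crest.Agent.R096.Msh_715
open Crest.Agent.R096.SkC1_961 Crest.Agent.R096.SkN1_477 Crest.Agent.R096.No0_477
open Crest.Agent.R096.No3_477 Crest.Agent.R096.No5_477

noncomputable section

variable {δ κ0 R c0 : ℝ} {La Om : Set E3} {ι : Type}

/-- points of a side of the square -/
theorem mem_side_fr {w : E3} {r : ℝ} (hr : 0 < r) {x : E3} {j : Fin 2} {b : ℝ} :
    x ∈ side (fr w r hr.ne') j b ↔ x 2 = w 2 ∧ w j.castSucc ≤ x j.castSucc ∧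
      x j.castSucc ≤ w j.castSucc + r ∧
      x (1 - j).castSucc = w (1 - j).castSucc + r * b := by
  unfold side
  rw [mem_preimage, fr_apply]
  have hinv : 0 < r⁻¹ := inv_pos.2 hr
  have hrr : r⁻¹ * r = 1 := inv_mul_cancel₀ hr.ne'
  have hc : ∀ (y : E2) (k : Fin 2), emb y k.castSucc = y k := by
    intro y k; fin_cases k <;> simp [emb]
  have hc2 : ∀ y : E2, emb y 2 = 0 := fun y => by simp [emb]
  constructor
  · rintro ⟨y, ⟨h1, h2, h3⟩, hyx⟩
    have e : ∀ k, emb y k = r⁻¹ * (x k - w k) := fun k => congrFun hyx k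
    have e2 := e 2
    rw [hc2] at e2
    have ej := e j.castSucc
    rw [hc] at ej
    have ek := e (1 - j).castSucc
    rw [hc, h3] at ek
    have inv : ∀ A B c : ℝ, c = r⁻¹ * (A - B) → A = B + r * c := by
      intro A B c h
      rw [h, ← mul_assoc, mul_inv_cancel₀ hr.ne', one_mul]; ring
    have f2 := inv _ _ _ e2
    have fj := inv _ _ _ ej
    have fk := inv _ _ _ ek
    refine ⟨by rw [f2]; ring, ?_, ?_, fk⟩
    · rw [fj]; nlinarith
    · rw [fj]; nlinarith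
  · rintro ⟨h1, h2, h3, h4⟩
    refine ⟨fun k => r⁻¹ * (x k.castSucc - w k.castSucc), ⟨?_, ?_, ?_⟩, ?_⟩
    · exact mul_nonneg hinv.le (by linarith)
    · rw [← hrr]
      exact mul_le_mul_of_nonneg_left (by linarith) hinv.le
    · show r⁻¹ * (x (1 - j).castSucc - w (1 - j).castSucc) = b
      rw [h4, add_sub_cancel_left, ← mul_assoc, hrr, one_mul]
    · funext k
      fin_cases k
      · simp [emb]
      · simp [emb]
      · simp [emb, h1]

/-- the two ends of a side -/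
theorem ends_mem_side {a : E3} {r : ℝ} (hr : 0 < r) {o : Fin 2 → ℤ} {m : ℤ} {v : Fin 2 → ℕ}
    (j : Fin 2) (b : ℕ) :
    vx a r o m (st j b v) ∈ side (fr (vx a r o m v) r hr.ne') j b ∧
      vx a r o m (nx (st j b v) j) ∈ side (fr (vx a r o m v) r hr.ne') j b := by
  rw [mem_side_fr hr, mem_side_fr hr, vx_nx, vx_st]
  fin_cases j <;> simp [hr.le]

theorem usq_sub_cub {w : E3} {r : ℝ} (hr : 0 < r) : usq (fr w r hr.ne') ⊆ cub w r := by
  intro x hx
  rw [mem_usq_fr hr] at hx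
  intro k
  fin_cases k
  · exact hx.2 0
  · exact hx.2 1
  · have := hx.1
    constructor
    · exact this.ge
    · show x 2 ≤ w 2 + r
      rw [this]; linarith

/-- one family alone counts at most the weight of all initial points -/
theorem weight_le {Φ : FoamD δ κ0 R c0 La} {f : E3 → E3} {κ : Φ.F → ℕ} {L : Φ.F → Finset ℝ}
    {A : Set E3} {V : ℝ} (hV : 0 ≤ V) (h : Vw Φ f κ L A ≤ ENNReal.ofReal V) {c : Φ.F} {n : Φ.F → ℝ}
    (hn : ∀ S : Finset Φ.F, ENNReal.ofReal (∑ c ∈ S, n c * (2 : ℝ)⁻¹ ^ κ c) ≤ Vw Φ f κ L A) :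
    n c * (2 : ℝ)⁻¹ ^ κ c ≤ V := by
  have h1 := (hn {c}).trans h
  rw [Finset.sum_singleton] at h1
  exact (ENNReal.ofReal_le_ofReal_iff hV).1 h1

/-- **displacement bound** (hypothesis `hD` of `pure_most`) -/
theorem hD_of {p : ℝ} {Cu : Set (Set E3) → ℝ} {e η : ℝ} {Φ : FoamD δ κ0 R c0 La} {T : Tiling Om ι}
    {f : E3 → E3} {Ex : Set ι} {κ : Φ.F → ℕ} {L : Φ.F → Finset ℝ} {tol : ι → ℝ} {Ds : Set E3}
    {B : E3 → E3 ≃ᵃ[ℝ] E3} {μ : ℝ} {al : Fin 2 → ℝ} {g : E3 → E3} {u : E3 → Φ.F → ℝ}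
    {n : Set E3 → Φ.F → ℝ} (out : OutNO p Cu e η Φ T f Ex κ L tol Ds B μ al g u n)
    {𝒬 : Set (Set E3)} {Ln : ℕ} {η' r : ℝ} (hr : 0 < r) {a : E3} {o : Fin 2 → ℤ} {M : ℕ}
    {Zs : Finset ℤ} {U : ℤ → (Fin 2 → ℕ) → Prop}
    (geo : NOGeo T Ex 𝒬 Ln η' r hr.ne' a o M Zs U) {θ : ℝ} (htol : ∀ i, tol i ≤ θ)
    {q : ℤ × (Fin 2 → ℕ)} (hq : q ∈ Fc M Zs) (hU : U q.1 q.2)
    {c1 c2 : Φ.F} {σ1 σ2 w : ℝ} {b0 : E3}
    (Q : QF Φ κ L u (cub (vx a r o q.1 q.2) r) c1 c2 σ1 σ2 w b0) (j : Fin 2) {b : ℕ}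
    (hb : b = 0 ∨ b = 1) :
    ∃ c, (c = c1 ∨ c = c2) ∧ (j = 0 → c = c1) ∧ (j = 1 → c = c2) ∧
      |dsp g a r o j b q| ≤ n (side (fr (vx a r o q.1 q.2) r hr.ne') j b) c * (2 : ℝ)⁻¹ ^ κ c
        + θ * r ∧
      |dsp g a r o j b q - (if j = 0 then σ1 else σ2) * w *
        (u (vx a r o q.1 (nx (st j b q.2) j)) c - u (vx a r o q.1 (st j b q.2)) c)| ≤ θ * r := by
  have hqq := Finset.mem_product.1 hq
  have hv : ∀ j, q.2 j < M := mem_pi.1 hqq.2
  obtain ⟨i, hP, -, -⟩ := geo.tile q.1 hqq.1 q.2 hv hU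
  obtain ⟨z, hz, hzd, hzc⟩ := geo.edge q.1 hqq.1 q.2 hv hU j b hb
  have hm := st_mem (a := a) (o := o) (m := q.1) (v := q.2) hr j hb
  have hx := usq_sub_cub hr hm.2
  have hy := usq_sub_cub hr hm.1
  set x := vx a r o q.1 (nx (st j b q.2) j) with hxdef
  set y := vx a r o q.1 (st j b q.2) with hydef
  have hiEx : i ∉ Ex := geo.off q.1 hqq.1 q.2 hv hU x hx i (by rw [hP]; exact hx)
  have hclo := (out.clo i hiEx (fun z' hz' => Q.par z' (by rw [hP] at hz'; exact hz')) x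
    (by rw [hP]; exact hx) y (by rw [hP]; exact hy)).2
  have hxy : ‖x - y‖ = r := norm_side hr _ j
  rw [hxy] at hclo
  have hθ : tol i * r ≤ θ * r := mul_le_mul_of_nonneg_right (htol i) hr.le
  -- the coordinate `j`
  set c : Φ.F := if j = 0 then c1 else c2 with hc
  set σ : ℝ := if j = 0 then σ1 else σ2 with hσ
  have hform : (Brk1_582.T (bc (F := Φ.F)) (u x) - Brk1_582.T (bc (F := Φ.F)) (u y)) j.castSucc =
      σ * w * (u x c - u y c) := by
    rw [Q.form x hx, Q.form y hy]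
    fin_cases j
    · simp [hc, hσ]; ring
    · simp [hc, hσ]; ring
  have hcoord : |dsp g a r o j b q - σ * w * (u x c - u y c)| ≤ θ * r := by
    rw [← hform]
    have h1 := norm_le_pi_norm ((g x - Brk1_582.T (bc (F := Φ.F)) (u x)) -
      (g y - Brk1_582.T (bc (F := Φ.F)) (u y))) j.castSucc
    rw [Real.norm_eq_abs] at h1
    refine le_trans (le_of_eq ?_) ((h1.trans hclo).trans hθ)
    congr 1
    simp only [dsp, Pi.sub_apply]
    ring
  -- number of points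
  have hS : x ∈ side (fr (vx a r o q.1 q.2) r hr.ne') j b ∧
      y ∈ side (fr (vx a r o q.1 q.2) r hr.ne') j b :=
    ⟨(ends_mem_side hr j b).2, (ends_mem_side hr j b).1⟩
  have hzx : z ∈ cub (vx a r o q.1 q.2) r := by
    have h1 : z ∈ T.cc z := T.self_mem_cc z
    rw [hzc, mem_side_fr hr] at h1
    apply usq_sub_cub hr
    rw [mem_usq_fr hr]
    refine ⟨h1.1, fun k => ?_⟩
    rcases eq_or_ne k j with rfl | hk
    · exact ⟨h1.2.1, h1.2.2.1⟩
    · have hk' : k = 1 - j := by fin_cases j <;> fin_cases k <;> simp at hk ⊢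
      subst hk'
      rw [h1.2.2.2]
      rcases hb with rfl | rfl <;> constructor <;> simp [hr.le]
  have hosc := out.osc z hz hzd (fun i' hi' => geo.off q.1 hqq.1 q.2 hv hU z hzx i' hi') c
    x (by rw [hzc]; exact hS.1) y (by rw [hzc]; exact hS.2)
  rw [hzc] at hosc
  have hwc : (L c).card * (2 : ℝ)⁻¹ ^ κ c = w := by
    fin_cases j
    · simpa [hc] using Q.w1
    · simpa [hc] using Q.w2
  have hσ1 : |σ| = 1 := by
    have : σ = 1 ∨ σ = -1 := by
      fin_cases j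
      · simpa [hσ] using Q.sg1
      · simpa [hσ] using Q.sg2
    rcases this with h | h <;> rw [h] <;> simp
  have hmain : |σ * w * (u x c - u y c)| ≤
      n (side (fr (vx a r o q.1 q.2) r hr.ne') j b) c * (2 : ℝ)⁻¹ ^ κ c := by
    rw [abs_mul, abs_mul, hσ1, one_mul, abs_of_pos Q.w0, ← hwc]
    calc (L c).card * (2 : ℝ)⁻¹ ^ κ c * |u x c - u y c| =
        (|u x c - u y c| * (L c).card) * (2 : ℝ)⁻¹ ^ κ c := by ring
      _ ≤ _ := mul_le_mul_of_nonneg_right hosc (by positivity)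
  refine ⟨c, ?_, ?_, ?_, ?_, hcoord⟩
  · simp only [hc]; split_ifs <;> simp
  · intro h; simp [hc, h]
  · intro h; simp [hc, h]
  · calc |dsp g a r o j b q| = |(dsp g a r o j b q - σ * w * (u x c - u y c)) +
          σ * w * (u x c - u y c)| := by ring_nf
      _ ≤ |dsp g a r o j b q - σ * w * (u x c - u y c)| + |σ * w * (u x c - u y c)| :=
          abs_add_le _ _
      _ ≤ θ * r + _ := add_le_add hcoord hmain
      _ = _ := add_comm _ _

/-- the form used by `pure_most` -/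
theorem hD_pure {p : ℝ} {Cu : Set (Set E3) → ℝ} {e η : ℝ} {Φ : FoamD δ κ0 R c0 La}
    {T : Tiling Om ι} {f : E3 → E3} {Ex : Set ι} {κ : Φ.F → ℕ} {L : Φ.F → Finset ℝ} {tol : ι → ℝ}
    {Ds : Set E3} {B : E3 → E3 ≃ᵃ[ℝ] E3} {μ : ℝ} {al : Fin 2 → ℝ} {g : E3 → E3}
    {u : E3 → Φ.F → ℝ} {n : Set E3 → Φ.F → ℝ}
    (out : OutNO p Cu e η Φ T f Ex κ L tol Ds B μ al g u n)
    {𝒬 : Set (Set E3)} {Ln : ℕ} {η' r : ℝ} (hr : 0 < r) {a : E3} {o : Fin 2 → ℤ} {M : ℕ}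
    {Zs : Finset ℤ} {U : ℤ → (Fin 2 → ℕ) → Prop}
    (geo : NOGeo T Ex 𝒬 Ln η' r hr.ne' a o M Zs U) {θ : ℝ} (hθ : 0 ≤ θ) (htol : ∀ i, tol i ≤ θ) :
    ∀ q ∈ Fc M Zs, U q.1 q.2 → (∃ c1 c2 σ1 σ2 w b,
      QF Φ κ L u (cub (vx a r o q.1 q.2) r) c1 c2 σ1 σ2 w b) →
      ∀ (j : Fin 2) (b : ℕ), b = 0 ∨ b = 1 → ∀ V : ℝ, 0 ≤ V →
      Vw Φ f κ L (side (fr (vx a r o q.1 q.2) r hr.ne') j b) ≤ ENNReal.ofReal V →
      dsp g a r o j b q ≤ (1 + θ) * V + θ * r := by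
  rintro q hq hU ⟨c1, c2, σ1, σ2, w, b0, Q⟩ j b hb V hV hVw
  obtain ⟨c, -, -, -, h1, -⟩ := hD_of out hr geo htol hq hU Q j hb
  have hqq := Finset.mem_product.1 hq
  have hv : ∀ j, q.2 j < M := mem_pi.1 hqq.2
  obtain ⟨z, hz, hzd, hzc⟩ := geo.edge q.1 hqq.1 q.2 hv hU j b hb
  have hzx : z ∈ cub (vx a r o q.1 q.2) r := by
    have h1 : z ∈ T.cc z := T.self_mem_cc z
    rw [hzc, mem_side_fr hr] at h1
    apply usq_sub_cub hr
    rw [mem_usq_fr hr]
    refine ⟨h1.1, fun k => ?_⟩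
    rcases eq_or_ne k j with rfl | hk
    · exact ⟨h1.2.1, h1.2.2.1⟩
    · have hk' : k = 1 - j := by fin_cases j <;> fin_cases k <;> simp at hk ⊢
      subst hk'
      rw [h1.2.2.2]
      rcases hb with rfl | rfl <;> constructor <;> simp [hr.le]
  have h2 := weight_le hV hVw (c := c) (n := n (side (fr (vx a r o q.1 q.2) r hr.ne') j b))
    (by
      have h3 := out.cnt z hz hzd (fun i' hi' => geo.off q.1 hqq.1 q.2 hv hU z hzx i' hi')
      rwa [hzc] at h3)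
  have h3 := le_abs_self (dsp g a r o j b q)
  have h4 : 0 ≤ θ * V := mul_nonneg hθ hV
  linarith

end

end Crest.Agent.R096.No6_477
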