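import Crest.Agent.R096.No6_276

/-!
# Row 96, NO0 (helper276), part 7: topology of `QL L` and of the target, small lemmas
-/

set_option autoImplicit false
set_option linter.unusedSectionVars false

open Set Function MeasureTheory Filter Topology Metric
open scoped ENNReal
open Crest.AnalysisR.VecCalc3 Crest.AnalysisR.Sobolev

namespace Crest.Agent.R096.No_276

open Crest.Agent.R096.Msh_715 Crest.Agent.R096.Ea_713 Crest.Agent.R96.Hole_348
open Crest.Agent.R096.Sk_962 (Q0 Qc0)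
open Crest.Agent.R096.Sq_477
open Crest.Agent.R096.SkC1_961 (E3 Hom3 FoamD Cfg NN)
open Crest.Agent.R096.Mbf_337

noncomputable section

theorem QL_bdd {L : ℝ} (hL : L ≠ 0) : Bornology.IsBounded (QL L) := by
  rw [QL_eq hL]
  have h1 : (RL L hL) ⁻¹' ball 0 1 = (RL L hL).symm '' ball 0 1 := by
    ext x
    constructor
    · intro hx
      exact ⟨RL L hL x, hx, ContinuousLinearEquiv.symm_apply_apply _ _⟩
    · rintro ⟨y, hy, rfl⟩
      rw [mem_preimage, ContinuousLinearEquiv.apply_symm_apply]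
      exact hy
  rw [h1]
  exact ((RL L hL).symm : E3 →L[ℝ] E3).lipschitz.isBounded_image isBounded_ball

theorem QL_conn {L : ℝ} (hL : L ≠ 0) : IsConnected (QL L) := by
  rw [QL_eq hL]
  have hc : Convex ℝ ((RL L hL) ⁻¹' ball 0 1) :=
    (convex_ball (0 : E3) 1).linear_preimage (RL L hL).toLinearMap
  refine ⟨⟨0, ?_⟩, hc.isPreconnected⟩
  simp

theorem La_open {f : R3 → R3} {U W : Set R3} (hW : IsOpen W)
    (hf : IsHomeomorphOn f U W) (hQ : Qc0 ⊆ U) : IsOpen (e3 '' (f '' Q0)) := by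
  obtain ⟨fi, h1, h2, h3, h4, h5, h6⟩ := hf
  have hQU : Q0 ⊆ U := fun x hx => hQ (closure_Q0_subset (subset_closure hx))
  have h7 : f '' Q0 = W ∩ fi ⁻¹' Q0 := by
    ext y
    constructor
    · rintro ⟨x, hx, rfl⟩
      refine ⟨h1 (hQU hx), ?_⟩
      rw [mem_preimage, h3 x (hQU hx)]
      exact hx
    · rintro ⟨hy, hy2⟩
      exact ⟨fi y, hy2, h4 y hy⟩
  have h8 : IsOpen (f '' Q0) := by
    rw [h7]
    exact h6.isOpen_inter_preimage hW Q0_open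
  exact e3.toHomeomorph.isOpenMap _ h8

theorem La_bdd {f : R3 → R3} {U W : Set R3} (hWb : Bornology.IsBounded W)
    (hf : IsHomeomorphOn f U W) (hQ : Qc0 ⊆ U) : Bornology.IsBounded (e3 '' (f '' Q0)) := by
  obtain ⟨fi, h1, h2, h3, h4, h5, h6⟩ := hf
  have hQU : Q0 ⊆ U := fun x hx => hQ (closure_Q0_subset (subset_closure hx))
  have h7 : f '' Q0 ⊆ W := by
    rintro y ⟨x, hx, rfl⟩
    exact h1 (hQU hx)
  exact (e3 : R3 →L[ℝ] E3).lipschitz.isBounded_image (hWb.subset h7)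

theorem La_conn {f : R3 → R3} {U W : Set R3} (hf : IsHomeomorphOn f U W) (hQ : Qc0 ⊆ U) :
    IsConnected (e3 '' (f '' Q0)) := by
  obtain ⟨fi, h1, h2, h3, h4, h5, h6⟩ := hf
  have hQU : Q0 ⊆ U := fun x hx => hQ (closure_Q0_subset (subset_closure hx))
  have hc : IsConnected Q0 := by
    rw [Q0_eq]
    have hc : Convex ℝ (e3 ⁻¹' ball 0 1) :=
      (convex_ball (0 : E3) 1).linear_preimage e3.toLinearMap
    refine ⟨⟨0, ?_⟩, hc.isPreconnected⟩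
    simp
  exact (hc.image f (h5.mono hQU)).image e3 e3.continuous.continuousOn

/-- a larger `m0` is harmless -/
theorem levels_mono {δ κ0 R c0 : ℝ} {La Om : Set E3} {ι : Type} {Φ : FoamD δ κ0 R c0 La}
    {T : Tiling Om ι} {f : E3 → E3} {κp μ κ3 : ℝ} {Z : Φ.F → Set ℝ} {m0 m0' : Φ.F → ℕ}
    {κ : Φ.F → ℕ} {L : Φ.F → Finset ℝ} (h : Levels Φ T f κp μ κ3 Z m0' κ L)
    (hm : ∀ c, m0 c ≤ m0' c) : Levels Φ T f κp μ κ3 Z m0 κ L :=
  { h with large := fun c => (hm c).trans (h.large c) }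

/-- tolerances -/
theorem exists_tol2 {ι : Type*} [Countable ι] {p : ℝ} (hp : 0 < p) {w : ι → ℝ≥0∞}
    (hw : ∀ i, w i ≠ ⊤) {t0 ε : ℝ} (ht : 0 < t0) (hε : 0 < ε) :
    ∃ tol : ι → ℝ, (∀ i, 0 < tol i) ∧ (∀ i, tol i ≤ t0) ∧
      ∑' i, ENNReal.ofReal (tol i ^ p) * w i ≤ ENNReal.ofReal ε := by
  obtain ⟨ε', hε'0, hε'⟩ := ENNReal.exists_pos_sum_of_countable
    (ε := ENNReal.ofReal ε) (by simpa using hε) ι
  have h1 : ∀ i, ∃ t : ℝ, 0 < t ∧ t ≤ t0 ∧ ENNReal.ofReal (t ^ p) * w i ≤ ε' i := by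
    intro i
    set v : ℝ := (w i).toReal + 1 with hv
    have hv0 : 0 < v := by positivity
    set u : ℝ := (ε' i : ℝ) / v with hu
    have hu0 : 0 < u := div_pos (by exact_mod_cast hε'0 i) hv0
    refine ⟨min t0 (u ^ (1 / p)), lt_min ht (Real.rpow_pos_of_pos hu0 _), min_le_left _ _, ?_⟩
    have h2 : (min t0 (u ^ (1 / p))) ^ p ≤ u := by
      calc (min t0 (u ^ (1 / p))) ^ p ≤ (u ^ (1 / p)) ^ p :=
            Real.rpow_le_rpow (le_min ht.le (Real.rpow_nonneg hu0.le _)) (min_le_right _ _) hp.le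
        _ = u := by rw [← Real.rpow_mul hu0.le, one_div, inv_mul_cancel₀ hp.ne', Real.rpow_one]
    calc ENNReal.ofReal ((min t0 (u ^ (1 / p))) ^ p) * w i
        ≤ ENNReal.ofReal u * ENNReal.ofReal v := by
          refine mul_le_mul' (ENNReal.ofReal_le_ofReal h2) ?_
          rw [← ENNReal.ofReal_toReal (hw i)]
          exact ENNReal.ofReal_le_ofReal (by rw [hv]; simp [ENNReal.toReal_ofReal])
      _ = ENNReal.ofReal (ε' i : ℝ) := by
          rw [← ENNReal.ofReal_mul hu0.le, hu, div_mul_cancel₀ _ hv0.ne']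
      _ = ε' i := ENNReal.ofReal_coe_nnreal
  choose tol h2 h3 h4 using h1
  exact ⟨tol, h2, h3, (ENNReal.tsum_le_tsum h4).trans hε'.le⟩

/-- **boundary clause**, general form -/
theorem bdry_clause' {f : R3 → R3} {U W : Set R3} (hU : IsOpen U) (hf : IsHomeomorphOn f U W)
    (hQ : Qc0 ⊆ U) {L : ℕ} (hL : (L : ℝ) ≠ 0) {C : ℝ} (hC : 0 ≤ C) {g : E3 → E3}
    (hg : ∀ y ∈ QL L, ‖g y - fL f L hL y‖ ≤ C * infDist (fL f L hL y) (e3 '' (f '' Q0))ᶜ) :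
    ∀ z ∈ frontier Q0, ∀ ε > 0, ∀ᶠ x in 𝓝[Q0] z, ∀ y ∈ QL L,
      y 0 = x 0 → y 1 = x 1 → L * y 2 = x 2 → ‖g y - e3 (f x)‖ ≤ ε :=
  bdry_clause hU hf hQ isCompact_empty (empty_subset _) (S := id) (fun _ _ => rfl) hL hC hg

/-- **END OF NO0**: from the map of the machine to the conclusion of `NOS`. -/
theorem nog_end {p : ℝ} (hp0 : 0 < p) {s : Fin 3 → ℝ} {f : R3 → R3}
    {U W : Set R3} (hU : IsOpen U) (hf : IsHomeomorphOn f U W) (hQ : Qc0 ⊆ U)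
    {L : ℕ} (hL : (L : ℝ) ≠ 0) {η : ℝ} (hη : 0 < η) {ι β : Type} {T : Tiling (QL L) ι}
    {Vt : Set ι} {b : β → E3} {R0 R1 : β → ℝ} {Sc : β → Finset ι} {d : ι → ℝ} {t : ℝ} {Cf : ℝ≥0∞}
    (M : Macro T Vt b R0 R1 Sc d t Cf) (hp3 : p < 3 ∨ Vt = ∅) {g : E3 → E3}
    (hg : Hom3 g (QL L) (e3 '' (f '' Q0)))
    (hgp : Crest.Agent.R096.Str_696.LocPL g (QL L)) {Kt : ι → ℝ} (hK0 : ∀ i, i ∉ Vt → 0 ≤ Kt i)
    (hKt : ∀ i, i ∉ Vt → ∀ x ∈ I (T.H i), LLV (Kt i) g x) {f1 : E3 → E3} {C Cn : ℝ} (hC : 0 ≤ C)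
    (hCn : 0 ≤ Cn)
    (hnear : ∀ y ∈ QL L, ‖g y - f1 y‖ ≤ C * infDist (f1 y) (e3 '' (f '' Q0))ᶜ)
    (hball : ∀ c, ∀ x ∈ closedBall (b c) (R1 c), ∀ y ∈ closedBall (b c) (R1 c),
      ‖f1 x - f1 y‖ ≤ infDist (f1 y) (e3 '' (f '' Q0))ᶜ)
    (hnb : ∀ y ∈ QL L, ‖f1 y - fL f L hL y‖ ≤ Cn * infDist (fL f L hL y) (e3 '' (f '' Q0))ᶜ)
    {ε : ℝ} (hε : 0 < ε)
    {N : ℕ} (hN : 0 < N) {z : Fin N → ℝ} (hz : ∀ k, |(L : ℝ) * z k| ≤ 1 / 2)
    (hav : ∀ k, ∀ y ∈ ball (0 : Fin 2 → ℝ) (1 - η), ∀ c,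
      (2 : Fin 3).insertNth (α := fun _ => ℝ) (z k) y ∉ closedBall (b c) (R1 c)) {e : ℝ}
    (hlay : ∑ k, ∑ i : Fin 2, (∫⁻ y in ball (0 : Fin 2 → ℝ) (1 - η),
        ‖Dp (sl g (z k) 2) i y - Pi.single ((2 : Fin 3).succAbove i)
          (s ((2 : Fin 3).succAbove i))‖ₑ ^ p) ≤ N * ENNReal.ofReal e) :
    NOG p s f L η
      ((1 + ENNReal.ofReal (Chr 3 p t) * Cf) *
        (∑' i : {i // i ∉ Vt}, ENNReal.ofReal (Kt i ^ p) * volume (P (T.H i))) + ENNReal.ofReal ε)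
      ((1 + ENNReal.ofReal (Chr 3 p t) * Cf) *
        (∑' i : {i // i ∈ IZ T (ShL L η) b R1 Sc ∧ i ∉ Vt},
          ENNReal.ofReal (Kt i ^ p) * volume (P (T.H i))) + ENNReal.ofReal ε) e := by
  -- the boundary
  have hbd : ∀ g' : E3 → E3, (∃ C' : ℝ, 0 ≤ C' ∧
      ∀ y ∈ QL L, ‖g' y - f1 y‖ ≤ C' * infDist (f1 y) (e3 '' (f '' Q0))ᶜ) →
      ∀ z ∈ frontier Q0, ∀ ε > 0, ∀ᶠ x in 𝓝[Q0] z, ∀ y ∈ QL L,
        y 0 = x 0 → y 1 = x 1 → L * y 2 = x 2 → ‖g' y - e3 (f x)‖ ≤ ε := by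
    rintro g' ⟨C', hC', h⟩
    refine bdry_clause' hU hf hQ hL (C := C' * (1 + Cn) + Cn) (by positivity) fun y hy => ?_
    have e1 := h y hy
    have e2 := hnb y hy
    have e3' : infDist (f1 y) (e3 '' (f '' Q0))ᶜ ≤
        infDist (fL f L hL y) (e3 '' (f '' Q0))ᶜ + dist (f1 y) (fL f L hL y) :=
      infDist_le_infDist_add_dist
    rw [dist_eq_norm] at e3'
    have e4 : ‖g' y - fL f L hL y‖ ≤ ‖g' y - f1 y‖ + ‖f1 y - fL f L hL y‖ :=
      norm_sub_le_norm_sub_add_norm_sub _ _ _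
    have e5 := mul_le_mul_of_nonneg_left (e3'.trans (add_le_add le_rfl e2)) hC'
    calc ‖g' y - fL f L hL y‖ ≤ C' * (infDist (fL f L hL y) (e3 '' (f '' Q0))ᶜ +
          Cn * infDist (fL f L hL y) (e3 '' (f '' Q0))ᶜ) +
          Cn * infDist (fL f L hL y) (e3 '' (f '' Q0))ᶜ := by linarith
      _ = _ := by ring
  rcases hp3 with hp3 | hVt
  · -- `p < 3`
    obtain ⟨g', h1, h2, h3, h4, h5, h6⟩ := M.squeeze hp0 hp3 hg hgp ∅ (fun _ _ _ => notMem_empty _)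
      (Kt := Kt) (fun i h _ => hK0 i h) (fun i h _ => hKt i h) hε
    have hsub : ∀ c, closedBall (b c) (R1 c) ⊆ QL L := M.fam.sub
    refine ⟨g', h1, h2, ?_, ?_, ?_, N, z, hN, hz, ?_⟩
    · refine hbd g' ⟨C * (1 + 1) + 1, by positivity, ?_⟩
      exact near_squeeze (f1 := f1) hsub hC zero_le_one hnear
        (fun c x hx y hy => by rw [one_mul]; exact hball c x hx y hy) h3 h5
    · have h7 := h6 (QL L) (QL_open L).measurableSet Subset.rfl univ (fun _ _ => notMem_empty _)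
        (M.cov Subset.rfl fun i _ _ => mem_univ i) (fun _ _ _ _ => mem_univ _)
      refine h7.trans (le_of_eq ?_)
      congr 2
      let eqv : {i // i ∈ (univ : Set ι) ∧ i ∉ Vt} ≃ {i // i ∉ Vt} :=
        Equiv.subtypeEquivRight fun i => by simp
      exact eqv.tsum_eq (fun i : {i // i ∉ Vt} => ENNReal.ofReal (Kt i ^ p) * volume (P (T.H i)))
    · exact h6 (ShL L η) (ShL_open L η).measurableSet (fun x hx => hx.1)
        (IZ T (ShL L η) b R1 Sc) (fun _ _ => notMem_empty _)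
        (M.cov (fun x hx => hx.1) fun i _ hi => Or.inl hi) fun c hc i hi => Or.inr ⟨c, hc, hi⟩
    · refine le_trans (le_of_eq ?_) hlay
      refine Finset.sum_congr rfl fun k _ => Finset.sum_congr rfl fun i _ => ?_
      refine setLIntegral_congr_fun measurableSet_ball fun y hy => ?_
      simp only [Dp_sl_congr (h4 _ (insert_mem_QL hη (hz k) hy) (hav k y hy)) i]
  · -- no tiny core
    have hone : ∀ A : ℝ≥0∞, A ≤ (1 + ENNReal.ofReal (Chr 3 p t) * Cf) * A + ENNReal.ofReal ε := by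
      intro A
      calc A = 1 * A := (one_mul A).symm
        _ ≤ (1 + ENNReal.ofReal (Chr 3 p t) * Cf) * A := by gcongr; exact le_self_add
        _ ≤ _ := le_self_add
    have key : ∀ (Z : Set E3) (IZ : Set ι), Z ⊆ QL L → (∀ i, (P (T.H i) ∩ Z).Nonempty → i ∈ IZ) →
        ∫⁻ x in Z, ‖fderiv ℝ g x‖ₑ ^ p ≤
          ∑' i : {i // i ∈ IZ ∧ i ∉ Vt}, ENNReal.ofReal (Kt i ^ p) * volume (P (T.H i)) := by
      intro Z J hZ hJ
      have h1 : Z ⊆ ⋃ i ∈ {i | i ∈ J ∧ i ∉ Vt}, P (T.H i) := by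
        intro x hx
        obtain ⟨i, hi⟩ := T.cov x (hZ hx)
        simp only [mem_iUnion]
        exact ⟨i, ⟨hJ i ⟨x, hi, hx⟩, by rw [hVt]; exact notMem_empty i⟩, hi⟩
      refine (lintegral_mono_set h1).trans ?_
      exact lint_tiles volume T {i | i ∈ J ∧ i ∉ Vt} (w := fun x => ‖fderiv ℝ g x‖ₑ ^ p)
        (c := fun i => ENNReal.ofReal (Kt i ^ p)) fun i hi x hx =>
          enorm_fderiv_rpow_le (hK0 i hi.2) hp0.le (hKt i hi.2 x hx)
    refine ⟨g, hg, hgp, hbd g ⟨C, hC, hnear⟩, ?_, ?_, N, z, hN, hz, hlay⟩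
    · refine le_trans ?_ (hone _)
      refine (key (QL L) univ Subset.rfl fun i _ => mem_univ i).trans (le_of_eq ?_)
      let eqv : {i // i ∈ (univ : Set ι) ∧ i ∉ Vt} ≃ {i // i ∉ Vt} :=
        Equiv.subtypeEquivRight fun i => by simp
      exact eqv.tsum_eq (fun i : {i // i ∉ Vt} => ENNReal.ofReal (Kt i ^ p) * volume (P (T.H i)))
    · refine le_trans ?_ (hone _)
      exact key (ShL L η) _ (fun x hx => hx.1) fun i hi => Or.inl hi

end

end Crest.Agent.R096.No_276
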