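import Crest.Agent.R096.Ea1_713
import Crest.Agent.R096.No0_477

/-!
Row 96 (S0127), helper962.  **PRE3 (NO0, `p ≥ 3`), part 1: the junk squares.**

* `lip_convex` : Lipschitz constant on a convex set from the constants of the tiles which meet it;
* `finite_meet` : a compact set meets finitely many tiles;
* `junk` : the numbers `X q` of the junk squares and the sum `∑ X q ^ p`;
* `card_near` : number of the disjoint cubes near a compact set.
-/

set_option autoImplicit false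
set_option linter.style.longLine false
set_option linter.unusedSectionVars false

open MeasureTheory Set Filter Topology Metric
open scoped ENNReal

namespace Crest.Agent.R096.Np_962

open Crest.Agent.R096.Msh_715 Crest.Agent.R096.Ea_713
open Crest.Agent.R96.Hole_348 (LLV)

noncomputable section

section Junk

variable {E : Type*} [NormedAddCommGroup E] [NormedSpace ℝ E]
variable {F : Type*} [NormedAddCommGroup F] [NormedSpace ℝ F]
variable {Om : Set E} {ι : Type*}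

/-- Lipschitz constant on a convex set from the constants of the tiles which meet it -/
theorem lip_convex (T : Tiling Om ι) {c : ι → ℝ} {g : E → F}
    (h : ∀ i, ∀ x ∈ P (T.H i), ∀ y ∈ P (T.H i), ‖g y - g x‖ ≤ c i * ‖y - x‖)
    {S : Set E} (hS : Convex ℝ S) (hSO : S ⊆ Om) {M : ℝ}
    (hM : ∀ i, (P (T.H i) ∩ S).Nonempty → c i ≤ M) {x y : E} (hx : x ∈ S) (hy : y ∈ S) :
    ‖g y - g x‖ ≤ M * ‖y - x‖ :=
  lip_of_LLV hS (fun z hz => LLV_of_tiles T h (hSO hz) fun i hi => hM i ⟨z, hi, hz⟩) hx hy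

/-- a compact set meets finitely many tiles -/
theorem finite_meet (T : Tiling Om ι) {K : Set E} (hK : IsCompact K) (hKO : K ⊆ Om) :
    {i | (P (T.H i) ∩ K).Nonempty}.Finite := by
  choose! r hr hf using T.lf
  obtain ⟨t, htK, ht⟩ := hK.elim_nhds_subcover (fun x => ball x (r x))
    (fun x hx => ball_mem_nhds x (hr x (hKO hx)))
  refine (t.finite_toSet.biUnion fun x hx => hf x (hKO (htK x hx))).subset ?_
  rintro i ⟨z, hzi, hzK⟩
  obtain ⟨x, hx, hzx⟩ := mem_iUnion₂.1 (ht hzK)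
  exact mem_iUnion₂.2 ⟨x, hx, z, hzi, hzx⟩

/-- **junk squares**: `g` is `ℓ i`-Lipschitz on the tile `i`; `cnt i` bounds the number of the
squares which meet the tile `i`, times the volume `v` of a cube. -/
theorem junk {p : ℝ} (hp : 0 < p) (T : Tiling Om ι) {ℓ : ι → ℝ} (hℓ : ∀ i, 0 ≤ ℓ i) {g : E → F}
    (h : ∀ i, ∀ x ∈ P (T.H i), ∀ y ∈ P (T.H i), ‖g y - g x‖ ≤ ℓ i * ‖y - x‖)
    {β : Type*} (Q : Finset β) (S : β → Set E) (hSc : ∀ q ∈ Q, Convex ℝ (S q))
    (hSk : ∀ q ∈ Q, IsCompact (S q)) (hSO : ∀ q ∈ Q, S q ⊆ Om) {v : ℝ≥0∞} {cnt : ι → ℝ≥0∞}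
    (hcnt : ∀ i, ({q | q ∈ Q ∧ (P (T.H i) ∩ S q).Nonempty}.ncard : ℝ≥0∞) * v ≤ cnt i) :
    ∃ X : β → ℝ, (∀ q, 0 ≤ X q) ∧
      (∀ q ∈ Q, ∀ x ∈ S q, ∀ y ∈ S q, ‖g y - g x‖ ≤ X q * ‖y - x‖) ∧
      (∑ q ∈ Q, ENNReal.ofReal (X q ^ p)) * v ≤
        ∑' i : {i // ∃ q ∈ Q, (P (T.H i) ∩ S q).Nonempty}, ENNReal.ofReal (ℓ i ^ p) * cnt i := by
  classical
  set K : Set E := ⋃ q ∈ Q, S q with hK
  have hKc : IsCompact K := Q.isCompact_biUnion fun q hq => hSk q hq
  have hKO : K ⊆ Om := by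
    intro x hx
    obtain ⟨q, hq, hxq⟩ := mem_iUnion₂.1 hx
    exact hSO q hq hxq
  have hfin := finite_meet T hKc hKO
  set J : Finset ι := hfin.toFinset with hJ
  have hmem : ∀ i q, q ∈ Q → (P (T.H i) ∩ S q).Nonempty → i ∈ J := by
    rintro i q hq ⟨z, hz, hzq⟩
    rw [hJ, Set.Finite.mem_toFinset]
    exact ⟨z, hz, mem_iUnion₂.2 ⟨q, hq, hzq⟩⟩
  set W : β → ℝ := fun q => ∑ i ∈ J, if (P (T.H i) ∩ S q).Nonempty then ℓ i ^ p else 0 with hW
  have hW0 : ∀ q, 0 ≤ W q := fun q => Finset.sum_nonneg fun i _ => by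
    split_ifs
    · exact Real.rpow_nonneg (hℓ i) p
    · exact le_rfl
  have hXp : ∀ q, (W q ^ p⁻¹) ^ p = W q := fun q => Real.rpow_inv_rpow (hW0 q) hp.ne'
  refine ⟨fun q => W q ^ p⁻¹, fun q => Real.rpow_nonneg (hW0 q) _, fun q hq x hx y hy => ?_, ?_⟩
  · refine lip_convex T h (hSc q hq) (hSO q hq) (fun i hi => ?_) hx hy
    have h1 : ℓ i ^ p ≤ W q := by
      have := Finset.single_le_sum (f := fun i => if (P (T.H i) ∩ S q).Nonempty then ℓ i ^ p else 0)
        (fun i _ => by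
          split_ifs
          · exact Real.rpow_nonneg (hℓ i) p
          · exact le_rfl) (hmem i q hq hi)
      simpa only [if_pos hi] using this
    calc ℓ i = (ℓ i ^ p) ^ p⁻¹ := (Real.rpow_rpow_inv (hℓ i) hp.ne').symm
      _ ≤ W q ^ p⁻¹ := Real.rpow_le_rpow (Real.rpow_nonneg (hℓ i) p) h1 (inv_nonneg.2 hp.le)
  · simp only [hXp]
    have e1 : ∀ q, ENNReal.ofReal (W q) =
        ∑ i ∈ J, if (P (T.H i) ∩ S q).Nonempty then ENNReal.ofReal (ℓ i ^ p) else 0 := by
      intro q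
      rw [hW]
      simp only
      rw [ENNReal.ofReal_sum_of_nonneg fun i _ => by
          split_ifs
          · exact Real.rpow_nonneg (hℓ i) p
          · exact le_rfl]
      refine Finset.sum_congr rfl fun i _ => ?_
      split_ifs
      · rfl
      · exact ENNReal.ofReal_zero
    simp only [e1]
    rw [Finset.sum_comm]
    have e2 : ∀ i ∈ J, ∑ q ∈ Q, (if (P (T.H i) ∩ S q).Nonempty then ENNReal.ofReal (ℓ i ^ p) else 0) =
        ENNReal.ofReal (ℓ i ^ p) * ({q | q ∈ Q ∧ (P (T.H i) ∩ S q).Nonempty}.ncard : ℝ≥0∞) := by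
      intro i _
      have e3 : {q | q ∈ Q ∧ (P (T.H i) ∩ S q).Nonempty} =
          ((Q.filter fun q => (P (T.H i) ∩ S q).Nonempty : Finset β) : Set β) := by
        ext q; simp
      rw [e3, Set.ncard_coe_finset, Finset.sum_ite, Finset.sum_const_zero, add_zero,
        Finset.sum_const, nsmul_eq_mul, mul_comm]
    rw [Finset.sum_congr rfl e2, Finset.sum_mul]
    have e4 : ∀ i ∈ J, ENNReal.ofReal (ℓ i ^ p) *
        ({q | q ∈ Q ∧ (P (T.H i) ∩ S q).Nonempty}.ncard : ℝ≥0∞) * v ≤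
        ENNReal.ofReal (ℓ i ^ p) * cnt i := fun i _ => by
      rw [mul_assoc]
      exact mul_le_mul' le_rfl (hcnt i)
    refine (Finset.sum_le_sum e4).trans ?_
    have e5 : ∀ i ∈ J, ∃ q ∈ Q, (P (T.H i) ∩ S q).Nonempty := by
      intro i hi
      rw [hJ, Set.Finite.mem_toFinset] at hi
      obtain ⟨z, hz, hzK⟩ := hi
      obtain ⟨q, hq, hzq⟩ := mem_iUnion₂.1 hzK
      exact ⟨q, hq, z, hz, hzq⟩
    rw [← Finset.sum_attach]
    let e : {x // x ∈ J} → {i // ∃ q ∈ Q, (P (T.H i) ∩ S q).Nonempty} := fun i => ⟨i.1, e5 i.1 i.2⟩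
    have he : Function.Injective e := fun i j hij => Subtype.ext (by
      have := congrArg Subtype.val hij
      exact this)
    calc ∑ i ∈ J.attach, ENNReal.ofReal (ℓ i.1 ^ p) * cnt i.1
        = ∑' i : {x // x ∈ J}, ENNReal.ofReal (ℓ i.1 ^ p) * cnt i.1 := by
          rw [tsum_fintype]; rfl
      _ = ∑' i : {x // x ∈ J}, (fun i : {i // ∃ q ∈ Q, (P (T.H i) ∩ S q).Nonempty} =>
            ENNReal.ofReal (ℓ i ^ p) * cnt i) (e i) := rfl
      _ ≤ _ := ENNReal.tsum_comp_le_tsum_of_injective he _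

end Junk

/-! ### number of cubes near a compact set -/

section Near

variable {E : Type*} [NormedAddCommGroup E] [NormedSpace ℝ E] [MeasurableSpace E] [BorelSpace E]

/-- number of disjoint cells of volume `v` and size `≤ ρ` which meet the `ρ`-neighbourhood of `V` -/
theorem card_near (μ : Measure E) {β : Type*} (Q : Finset β) (S : β → Set E) {v : ℝ≥0∞}
    (hv : ∀ q ∈ Q, v ≤ μ (S q)) (hm : ∀ q ∈ Q, MeasurableSet (S q))
    (hd : (Q : Set β).PairwiseDisjoint S) {V : Set E} {ρ : ℝ}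
    (hS : ∀ q ∈ Q, S q ⊆ cthickening ρ V) :
    (Q.card : ℝ≥0∞) * v ≤ μ (cthickening ρ V) := by
  calc (Q.card : ℝ≥0∞) * v = ∑ q ∈ Q, v := by rw [Finset.sum_const, nsmul_eq_mul]
    _ ≤ ∑ q ∈ Q, μ (S q) := Finset.sum_le_sum hv
    _ = μ (⋃ q ∈ Q, S q) := (measure_biUnion_finset hd hm).symm
    _ ≤ μ (cthickening ρ V) := measure_mono (iUnion₂_subset hS)

/-- the neighbourhoods of a compact set have nearly its volume -/
theorem exists_rad (μ : Measure E) [IsFiniteMeasureOnCompacts μ] [ProperSpace E] {V : Set E}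
    (hV : IsCompact V) {c : ℝ≥0∞} (hc : μ V < c) :
    ∃ ρ : ℝ, 0 < ρ ∧ ∀ ρ' : ℝ, ρ' ≤ ρ → μ (cthickening ρ' V) < c := by
  have h1 : Tendsto (fun r => μ (cthickening r V)) (𝓝 0) (𝓝 (μ V)) :=
    tendsto_measure_cthickening_of_isCompact hV
  have h2 := h1.eventually (gt_mem_nhds hc)
  obtain ⟨ρ, hρ, hh⟩ := Metric.eventually_nhds_iff.1 h2
  refine ⟨ρ / 2, by positivity, fun ρ' hρ' => ?_⟩
  have h3 : μ (cthickening (ρ / 2) V) < c := hh (by
    rw [Real.dist_eq, sub_zero, abs_of_pos (by positivity)]; linarith)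
  exact (measure_mono (cthickening_mono hρ' V)).trans_lt h3

end Near

end

end Crest.Agent.R096.Np_962
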