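import Crest.Agent.R096.No7_276
import Crest.Agent.R096.Nly2_780
import Crest.Agent.R096.Np1_962

/-!
# Row 96, NO0 (helper276), part 8: junk squares and layers (variants used by the composition)
-/

set_option autoImplicit false
set_option linter.unusedSectionVars false

open Set Function MeasureTheory Filter Topology Metric
open scoped ENNReal
open Crest.AnalysisR.VecCalc3 Crest.AnalysisR.Sobolev

namespace Crest.Agent.R096.No_276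

open Crest.Agent.R096.Bsp_628 Crest.Agent.R096.Brk1_582 Crest.Agent.R096.Brk3_582
open Crest.Agent.R096.Brk5_582
open Crest.Agent.R096.Msh_715 Crest.Agent.R096.Ea_713 Crest.Agent.R96.Hole_348
open Crest.Agent.R096.Sq_477
open Crest.Agent.R096.SkC1_961 (E3 Hom3 FoamD Cfg NN)
open Crest.Agent.R096.SkN1_477 Crest.Agent.R096.No0_477
open Crest.Agent.R096.No3_477 Crest.Agent.R096.No5_477 Crest.Agent.R096.No6_477
open Crest.Agent.R096.Nly_780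

noncomputable section

section Junk

variable {E : Type*} [NormedAddCommGroup E] [NormedSpace ℝ E]
variable {F : Type*} [NormedAddCommGroup F] [NormedSpace ℝ F]
variable {Om : Set E} {ι : Type*}

/-- Lipschitz constant on a convex set from the constants of the tiles which meet it -/
theorem lip_convex' (T : Tiling Om ι) {c : ι → ℝ} {g : E → F} {S : Set E}
    (h : ∀ i, (P (T.H i) ∩ S).Nonempty →
      ∀ x ∈ P (T.H i), ∀ y ∈ P (T.H i), ‖g y - g x‖ ≤ c i * ‖y - x‖)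
    (hS : Convex ℝ S) (hSO : S ⊆ Om) {M : ℝ}
    (hM : ∀ i, (P (T.H i) ∩ S).Nonempty → c i ≤ M) {x y : E} (hx : x ∈ S) (hy : y ∈ S) :
    ‖g y - g x‖ ≤ M * ‖y - x‖ := by
  refine lip_of_LLV hS (fun z hz => ?_) hx hy
  obtain ⟨r, hr, hrO, hra⟩ := T.exists_ball (hSO hz)
  filter_upwards [ball_mem_nhds z hr] with y hy
  obtain ⟨i, hi⟩ := T.cov y (hrO hy)
  have hiz : i ∈ T.at_ z := hra y hy hi
  have hne : (P (T.H i) ∩ S).Nonempty := ⟨z, hiz, hz⟩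
  exact (h i hne z hiz y hi).trans (mul_le_mul_of_nonneg_right (hM i hne) (norm_nonneg _))

/-- **junk squares** (962's `junk`, Lipschitz bounds only on the tiles which meet a square) -/
theorem junk' {p : ℝ} (hp : 0 < p) (T : Tiling Om ι) {ℓ : ι → ℝ} (hℓ : ∀ i, 0 ≤ ℓ i) {g : E → F}
    {β : Type*} (Q : Finset β) (S : β → Set E)
    (h : ∀ i, (∃ q ∈ Q, (P (T.H i) ∩ S q).Nonempty) →
      ∀ x ∈ P (T.H i), ∀ y ∈ P (T.H i), ‖g y - g x‖ ≤ ℓ i * ‖y - x‖)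
    (hSc : ∀ q ∈ Q, Convex ℝ (S q))
    (hSk : ∀ q ∈ Q, IsCompact (S q)) (hSO : ∀ q ∈ Q, S q ⊆ Om) {v : ℝ≥0∞} {cnt : ι → ℝ≥0∞}
    (hcnt : ∀ i, ({q | q ∈ Q ∧ (P (T.H i) ∩ S q).Nonempty}.ncard : ℝ≥0∞) * v ≤ cnt i) :
    ∃ X : β → ℝ, (∀ q, 0 ≤ X q) ∧
      (∀ q ∈ Q, ∀ x ∈ S q, ∀ y ∈ S q, ‖g y - g x‖ ≤ X q * ‖y - x‖) ∧
      (∑ q ∈ Q, ENNReal.ofReal (X q ^ p)) * v ≤
        ∑' i : {i // ∃ q ∈ Q, (P (T.H i) ∩ S q).Nonempty}, ENNReal.ofReal (ℓ i ^ p) * cnt i := by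
  classical
  set K : Set E := ⋃ q ∈ Q, S q with hK
  have hKc : IsCompact K := Q.isCompact_biUnion fun q hq => hSk q hq
  have hKO : K ⊆ Om := by
    intro x hx
    obtain ⟨q, hq, hxq⟩ := mem_iUnion₂.1 hx
    exact hSO q hq hxq
  have hfin := Np_962.finite_meet T hKc hKO
  set J : Finset ι := hfin.toFinset with hJ
  have hmem : ∀ i q, q ∈ Q → (P (T.H i) ∩ S q).Nonempty → i ∈ J := by
    rintro i q hq ⟨z, hz, hzq⟩
    rw [hJ, Set.Finite.mem_toFinset]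
    exact ⟨z, hz, mem_iUnion₂.2 ⟨q, hq, hzq⟩⟩
  set W : β → ℝ := fun q => ∑ i ∈ J, if (P (T.H i) ∩ S q).Nonempty then ℓ i ^ p else 0 with hW
  have hW0 : ∀ q, 0 ≤ W q := fun q => Finset.sum_nonneg fun i _ => by
    split_ifs
    · exact Real.rpow_nonneg (hℓ i) p
    · exact le_rfl
  have hXp : ∀ q, (W q ^ p⁻¹) ^ p = W q := fun q => Real.rpow_inv_rpow (hW0 q) hp.ne'
  refine ⟨fun q => W q ^ p⁻¹, fun q => Real.rpow_nonneg (hW0 q) _, fun q hq x hx y hy => ?_, ?_⟩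
  · refine lip_convex' T (fun i hi => h i ⟨q, hq, hi⟩) (hSc q hq) (hSO q hq) (fun i hi => ?_) hx hy
    have h1 : ℓ i ^ p ≤ W q := by
      have := Finset.single_le_sum (f := fun i => if (P (T.H i) ∩ S q).Nonempty then ℓ i ^ p else 0)
        (fun i _ => by
          split_ifs
          · exact Real.rpow_nonneg (hℓ i) p
          · exact le_rfl) (hmem i q hq hi)
      simpa only [if_pos hi] using this
    calc ℓ i = (ℓ i ^ p) ^ p⁻¹ := (Real.rpow_rpow_inv (hℓ i) hp.ne').symm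
      _ ≤ W q ^ p⁻¹ := Real.rpow_le_rpow (Real.rpow_nonneg (hℓ i) p) h1 (inv_nonneg.2 hp.le)
  · simp only [hXp]
    have e1 : ∀ q, ENNReal.ofReal (W q) =
        ∑ i ∈ J, if (P (T.H i) ∩ S q).Nonempty then ENNReal.ofReal (ℓ i ^ p) else 0 := by
      intro q
      rw [hW]
      simp only
      rw [ENNReal.ofReal_sum_of_nonneg fun i _ => by
          split_ifs
          · exact Real.rpow_nonneg (hℓ i) p
          · exact le_rfl]
      refine Finset.sum_congr rfl fun i _ => ?_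
      split_ifs
      · rfl
      · exact ENNReal.ofReal_zero
    simp only [e1]
    rw [Finset.sum_comm]
    have e2 : ∀ i ∈ J, ∑ q ∈ Q, (if (P (T.H i) ∩ S q).Nonempty then ENNReal.ofReal (ℓ i ^ p) else 0) =
        ENNReal.ofReal (ℓ i ^ p) * ({q | q ∈ Q ∧ (P (T.H i) ∩ S q).Nonempty}.ncard : ℝ≥0∞) := by
      intro i _
      have e3 : {q | q ∈ Q ∧ (P (T.H i) ∩ S q).Nonempty} =
          ((Q.filter fun q => (P (T.H i) ∩ S q).Nonempty : Finset β) : Set β) := by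
        ext q; simp
      rw [e3, Set.ncard_coe_finset, Finset.sum_ite, Finset.sum_const_zero, add_zero,
        Finset.sum_const, nsmul_eq_mul, mul_comm]
    rw [Finset.sum_congr rfl e2, Finset.sum_mul]
    have e4 : ∀ i ∈ J, ENNReal.ofReal (ℓ i ^ p) *
        ({q | q ∈ Q ∧ (P (T.H i) ∩ S q).Nonempty}.ncard : ℝ≥0∞) * v ≤
        ENNReal.ofReal (ℓ i ^ p) * cnt i := fun i _ => by
      rw [mul_assoc]
      exact mul_le_mul' le_rfl (hcnt i)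
    refine (Finset.sum_le_sum e4).trans ?_
    have e5 : ∀ i ∈ J, ∃ q ∈ Q, (P (T.H i) ∩ S q).Nonempty := by
      intro i hi
      rw [hJ, Set.Finite.mem_toFinset] at hi
      obtain ⟨z, hz, hzK⟩ := hi
      obtain ⟨q, hq, hzq⟩ := mem_iUnion₂.1 hzK
      exact ⟨q, hq, z, hz, hzq⟩
    rw [← Finset.sum_attach]
    let e : {x // x ∈ J} → {i // ∃ q ∈ Q, (P (T.H i) ∩ S q).Nonempty} := fun i => ⟨i.1, e5 i.1 i.2⟩
    have he : Function.Injective e := fun i j hij => Subtype.ext (by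
      have := congrArg Subtype.val hij
      exact this)
    calc ∑ i ∈ J.attach, ENNReal.ofReal (ℓ i.1 ^ p) * cnt i.1
        = ∑' i : {x // x ∈ J}, ENNReal.ofReal (ℓ i.1 ^ p) * cnt i.1 := by
          rw [tsum_fintype]; rfl
      _ = ∑' i : {x // x ∈ J}, (fun i : {i // ∃ q ∈ Q, (P (T.H i) ∩ S q).Nonempty} =>
            ENNReal.ofReal (ℓ i ^ p) * cnt i) (e i) := rfl
      _ ≤ _ := ENNReal.tsum_comp_le_tsum_of_injective he _

end Junk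

section Lay

variable {δ κ0 R c0 : ℝ} {La Om : Set E3} {ι : Type}

open Classical in
/-- 780's `nos_layers`, with the heights of the layers -/
theorem nos_layers' {p : ℝ} (hp : 0 < p) {Φ : FoamD δ κ0 R c0 La} {f : E3 → E3} {κ : Φ.F → ℕ}
    {Lv : Φ.F → Finset ℝ} {s : Fin 3 → ℝ} {ε K1 E1 ω η r e : ℝ} {hr : r ≠ 0} {a : E3}
    {o : Fin 2 → ℤ} {M : ℕ} {Zs : Finset ℤ} {U : ℤ → (Fin 2 → ℕ) → Prop} {g : E3 → E3}
    {u : E3 → Φ.F → ℝ} {T : Tiling Om ι} {Ex : Set ι} {𝒬 : Set (Set E3)} {L : ℕ}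
    (G : NOGeo T Ex 𝒬 L η r hr a o M Zs U) (H : NONum p Φ f κ Lv s ε K1 r hr a o M Zs U g u)
    (hK : 0 ≤ K1) (hE : 0 ≤ E1) (hω : 0 ≤ ω) (hε : 0 ≤ ε) (Pu : ℤ × (Fin 2 → ℕ) → Prop)
    (hcard : (((Fc M Zs).filter fun q => ¬ Pu q).card : ℝ) ≤ ω * ((Zs.card : ℝ) * M ^ 2))
    (hpure : ∀ q ∈ Fc M Zs, Pu q →
      ∫⁻ y in {y : Fin 2 → ℝ | ∀ j : Fin 2, vx a r o q.1 q.2 j.castSucc < y j ∧
        y j < vx a r o q.1 q.2 j.castSucc + r}, ∑ i : Fin 2,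
          ‖Dp (sl g (vx a r o q.1 q.2 2) 2) i y - Pi.single ((2 : Fin 3).succAbove i)
            (s ((2 : Fin 3).succAbove i))‖ₑ ^ p ≤ ENNReal.ofReal (E1 * r ^ 2))
    (he : 4 * (E1 + 2 ^ (p + 1) * ((K1 + ‖s‖) ^ p * ω + ε)) ≤ e) :
    ∃ (N : ℕ) (z : Fin N → ℝ), 0 < N ∧ (∀ k, |L * z k| ≤ 1 / 2) ∧
      (∀ k, ∃ m ∈ Zs, z k = a 2 + r * m) ∧
      ∑ k, ∑ i : Fin 2, (∫⁻ y in ball (0 : Fin 2 → ℝ) (1 - η),
        ‖Dp (sl g (z k) 2) i y - Pi.single ((2 : Fin 3).succAbove i)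
          (s ((2 : Fin 3).succAbove i))‖ₑ ^ p) ≤ N * ENNReal.ofReal e := by
  obtain ⟨X, hX0, hXlip, hXs⟩ := H.lip
  have h1 := layers_le hp G.r0 G.lo G.hi hK hE hω hε hX0 hXlip hXs Pu hcard hpure
  have h2 := h1.trans (mul_le_mul_right (ENNReal.ofReal_le_ofReal he) _)
  set F : ℝ → ℝ≥0∞ := fun c => ∑ i : Fin 2, (∫⁻ y in ball (0 : Fin 2 → ℝ) (1 - η),
        ‖Dp (sl g c 2) i y - Pi.single ((2 : Fin 3).succAbove i)
          (s ((2 : Fin 3).succAbove i))‖ₑ ^ p) with hF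
  have h3 : ∑ m ∈ Zs, F ((fun m : ℤ => a 2 + r * m) m) ≤ Zs.card * ENNReal.ofReal e := h2
  clear h1 h2 hpure
  refine ⟨Zs.card, fun k => a 2 + r * ((Zs.equivFin.symm k : ℤ) : ℝ), Finset.card_pos.2 G.zne,
    fun k => G.zs _ (Zs.equivFin.symm k).2, fun k => ⟨_, (Zs.equivFin.symm k).2, rfl⟩, ?_⟩
  refine le_trans (le_of_eq ?_) h3
  rw [← Finset.sum_coe_sort Zs]
  exact Equiv.sum_comp Zs.equivFin.symm (fun m : Zs => F (a 2 + r * ((m : ℤ) : ℝ)))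

open Classical in
/-- 780's `layers_out`, with the heights of the layers -/
theorem layers_out' {p : ℝ} (hp : 1 ≤ p) (s : Fin 3 → ℝ) (hs : ∀ i, 0 ≤ s i) {e : ℝ} (he : 0 < e) :
    ∃ S1 Λ ef : ℝ, 0 < S1 ∧ 1 ≤ Λ ∧ 0 < ef ∧
      (∀ j : Fin 2, s j.castSucc = 0 ∨ (S1 / Λ ≤ s j.castSucc ∧ s j.castSucc ≤ S1)) ∧
      ∀ η K1 : ℝ, 0 < η → 0 ≤ K1 → ∃ ε : ℝ, 0 < ε ∧ ε ≤ 1 ∧
      ∀ {δ κ0 R c0 : ℝ} {La Om : Set E3} {ι : Type} {Cu : Set (Set E3) → ℝ}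
        {Φ : FoamD δ κ0 R c0 La} {T : Tiling Om ι} {f : E3 → E3} {Ex : Set ι} {κ : Φ.F → ℕ}
        {Lv : Φ.F → Finset ℝ} {tol : ι → ℝ} {r : ℝ} (hr : r ≠ 0) {a : E3} {o : Fin 2 → ℤ} {M : ℕ}
        {Zs : Finset ℤ} {U : ℤ → (Fin 2 → ℕ) → Prop} {𝒬 : Set (Set E3)} {L : ℕ} {ηg : ℝ}
        {g : E3 → E3} {u : E3 → Φ.F → ℝ} {n : Set E3 → Φ.F → ℝ}, ηg ≤ 1 / 2 →
        NOGeo T Ex 𝒬 L ηg r hr a o M Zs U →
        NONum p Φ f κ Lv s ε K1 r hr a o M Zs U g u →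
        OutNO p Cu ef η Φ T f Ex κ Lv tol (DsN a r o M Zs U) (frN r hr) (S1 * r)
          (fun j => s j.castSucc * r) g u n →
        Str_696.LocPL g Om → (∀ i, tol i ≤ ε) →
        ∃ (N : ℕ) (z : Fin N → ℝ), 0 < N ∧ (∀ k, |L * z k| ≤ 1 / 2) ∧
          (∀ k, ∃ m ∈ Zs, z k = a 2 + r * m) ∧
          ∑ k, ∑ i : Fin 2, (∫⁻ y in ball (0 : Fin 2 → ℝ) (1 - ηg),
            ‖Dp (sl g (z k) 2) i y - Pi.single ((2 : Fin 3).succAbove i)
              (s ((2 : Fin 3).succAbove i))‖ₑ ^ p) ≤ N * ENNReal.ofReal e := by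
  obtain ⟨S1, Λ, hS1, hΛ, hsc⟩ := exists_scale s hs
  obtain ⟨ef, hef, hc⟩ := exists_consts hp s hs hS1 he
  refine ⟨S1, Λ, ef, hS1, hΛ, hef, hsc, fun η K1 hη hK => ?_⟩
  obtain ⟨τ, ε, hτ, hε, hε1, h1, h2, h3⟩ := hc η K1 hη hK
  refine ⟨ε, hε, hε1, ?_⟩
  intro δ κ0 R c0 La Om ι Cu Φ T f Ex κ Lv tol r hr a o M Zs U 𝒬 L ηg g u n hηg G H hO hpl htol
  have hr0 : 0 < r := G.r0
  have hM : 1 ≤ M * r := by
    have l0 := (G.lo 0).1
    have l1 := (G.hi 0).1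
    have : r * ((o 0 : ℝ) + M) = r * o 0 + M * r := by ring
    linarith
  have hcard := pure_most (θ := ε) hp hs hr0 hε.le hε.le hε1 hτ hK hM H
    (hD_pure hO hr0 G hε.le htol)
  have hp0 : 0 < p := lt_of_lt_of_le one_pos hp
  refine nos_layers' (E1 := 4 * 3 ^ p * (ef * S1 ^ p + ε ^ p)) hp0 G H hK ?_ ?_ hε.le _ hcard ?_ h3
  · have := Real.rpow_nonneg hS1.le p
    have := Real.rpow_nonneg hε.le p
    positivity
  · have h0 := hs 0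
    have h1 := hs 1
    positivity
  · rintro ⟨m, v⟩ hq hP
    have hqq := Finset.mem_product.1 hq
    exact Fs_168.L2_out hp hef.le hr0 G hs hS1.le hO hpl hτ.le hε.le htol h1 h2 hqq.1
      (mem_pi.1 hqq.2) hP

end Lay

end

end Crest.Agent.R096.No_276
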