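import Crest.Agent.R096.No8_276

/-!
# Row 96, NO0 (helper276), part 9: junk squares from the tile constants
-/

set_option autoImplicit false
set_option linter.unusedSectionVars false

open Set Function MeasureTheory Filter Topology Metric
open scoped ENNReal
open Crest.AnalysisR.VecCalc3 Crest.AnalysisR.Sobolev

namespace Crest.Agent.R096.No_276

open Crest.Agent.R096.Msh_715 Crest.Agent.R096.Ea_713 Crest.Agent.R96.Hole_348
open Crest.Agent.R096.SkC1_961 (E3 Hom3 FoamD Cfg NN)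
open Crest.Agent.R096.SkN1_477 Crest.Agent.R096.No0_477
open Crest.Agent.R096.No5_477

noncomputable section

/-- the square is an order interval -/
theorem usq_eq_Icc {w : E3} {r : ℝ} (hr : 0 < r) :
    usq (fr w r hr.ne') = Icc w ![w 0 + r, w 1 + r, w 2] := by
  ext x
  rw [mem_usq_fr hr, mem_Icc, Pi.le_def, Pi.le_def]
  constructor
  · rintro ⟨h1, h2⟩
    have h3 := h2 0
    have h4 := h2 1
    refine ⟨fun i => ?_, fun i => ?_⟩
    · fin_cases i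
      · exact h3.1
      · exact h4.1
      · exact h1.ge
    · fin_cases i
      · exact h3.2
      · exact h4.2
      · exact h1.le
  · rintro ⟨h1, h2⟩
    refine ⟨le_antisymm (h2 2) (h1 2), fun j => ?_⟩
    fin_cases j
    · exact ⟨h1 0, h2 0⟩
    · exact ⟨h1 1, h2 1⟩

variable {ι : Type}

/-- the squares of the block lie in the domain -/
theorem usq_sub_QL {L : ℕ} {η r : ℝ} {hr : r ≠ 0} {a : E3} {o : Fin 2 → ℤ} {M : ℕ}
    {Zs : Finset ℤ} (r0 : 0 < r)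
    (lo : ∀ j : Fin 2, a j.castSucc + r * o j ≤ -(1 - η) ∧ -1 < a j.castSucc + r * o j)
    (hi : ∀ j : Fin 2, 1 - η ≤ a j.castSucc + r * (o j + M) ∧ a j.castSucc + r * (o j + M) < 1)
    (zs : ∀ m ∈ Zs, |(L : ℝ) * (a 2 + r * m)| ≤ 1 / 2) {k : ℤ × (Fin 2 → ℕ)} (hk : k ∈ Fc M Zs) :
    usq (fr (vx a r o k.1 k.2) r hr) ⊆ QL L := by
  intro x hx
  obtain ⟨hk1, hk2⟩ := Finset.mem_product.1 hk
  have hv := mem_pi.1 hk2
  have h1 : x ∈ usq (fr (vx a r o k.1 k.2) r r0.ne') := hx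
  rw [mem_usq_fr r0] at h1
  obtain ⟨h2, h3⟩ := h1
  have key : ∀ j : Fin 2, |x j.castSucc| < 1 := by
    intro j
    have e1 := h3 j
    have e2 : vx a r o k.1 k.2 j.castSucc = a j.castSucc + r * (o j + k.2 j) := by
      fin_cases j <;> rfl
    rw [e2] at e1
    have e3 : (0 : ℝ) ≤ k.2 j := Nat.cast_nonneg _
    have e4 : (k.2 j : ℝ) + 1 ≤ M := by exact_mod_cast hv j
    have e5 := (lo j).2
    have e6 := (hi j).2
    rw [abs_lt]
    constructor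
    · have : 0 ≤ r * (k.2 j : ℝ) := by positivity
      nlinarith [e1.1]
    · have : r * ((k.2 j : ℝ) + 1) ≤ r * M := mul_le_mul_of_nonneg_left e4 r0.le
      nlinarith [e1.2]
  have h4 : vx a r o k.1 k.2 2 = a 2 + r * k.1 := rfl
  refine ⟨key 0, key 1, ?_⟩
  rw [h2, h4]
  have := zs k.1 hk1
  linarith

open Classical in
/-- **the junk squares after the machine** -/
theorem junk_of {p : ℝ} (hp : 0 < p) {L : ℕ} {η r : ℝ} {hr : r ≠ 0} {a : E3} {o : Fin 2 → ℤ}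
    {M : ℕ} {Zs : Finset ℤ} {U : ℤ → (Fin 2 → ℕ) → Prop} (r0 : 0 < r)
    (lo : ∀ j : Fin 2, a j.castSucc + r * o j ≤ -(1 - η) ∧ -1 < a j.castSucc + r * o j)
    (hi : ∀ j : Fin 2, 1 - η ≤ a j.castSucc + r * (o j + M) ∧ a j.castSucc + r * (o j + M) < 1)
    (zs : ∀ m ∈ Zs, |(L : ℝ) * (a 2 + r * m)| ≤ 1 / 2) {T : Tiling (QL L) ι} {Vt : Set ι}
    (hV : ∀ i ∈ Vt, ¬ MJ T r hr a o M Zs U i) {cnt : ι → ℝ}
    (cn : ∀ i, (({k : ℤ × (Fin 2 → ℕ) | k ∈ Fc M Zs ∧ ¬ U k.1 k.2 ∧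
      (P (T.H i) ∩ usq (fr (vx a r o k.1 k.2) r hr)).Nonempty}).ncard : ℝ) * r ^ 3 ≤ cnt i)
    {g : E3 → E3} (hg : ContinuousOn g (QL L)) {Kt : ι → ℝ} (hK0 : ∀ i, 0 ≤ Kt i)
    (hKt : ∀ i, i ∉ Vt → ∀ x ∈ I (T.H i), LLV (Kt i) g x) {B : ℝ} (hB : 0 ≤ B)
    (hsum : ∑' i : {i // i ∉ Vt ∧ MJ T r hr a o M Zs U i},
      ENNReal.ofReal (Kt i ^ p) * ENNReal.ofReal (cnt i) ≤ ENNReal.ofReal B) :
    ∃ Kj : ℤ → (Fin 2 → ℕ) → ℝ, (∀ m v, 0 ≤ Kj m v) ∧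
      (∀ m ∈ Zs, ∀ v, (∀ j, v j < M) → ¬ U m v → ∀ y ∈ usq (fr (vx a r o m v) r hr),
        ∀ y' ∈ usq (fr (vx a r o m v) r hr), ‖g y - g y'‖ ≤ Kj m v * ‖y - y'‖) ∧
      ∀ D : Finset (ℤ × (Fin 2 → ℕ)), D ⊆ Fc M Zs → (∀ k ∈ D, ¬ U k.1 k.2) →
        ∑ k ∈ D, Kj k.1 k.2 ^ p ≤ B / r ^ 3 := by
  set Q : Finset (ℤ × (Fin 2 → ℕ)) := (Fc M Zs).filter fun k => ¬ U k.1 k.2 with hQ
  set S : ℤ × (Fin 2 → ℕ) → Set E3 := fun k => usq (fr (vx a r o k.1 k.2) r hr) with hS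
  have hmem : ∀ {k}, k ∈ Q ↔ k ∈ Fc M Zs ∧ ¬ U k.1 k.2 := by
    intro k; rw [hQ, Finset.mem_filter]
  have hMJ : ∀ i, (∃ k ∈ Q, (P (T.H i) ∩ S k).Nonempty) ↔ MJ T r hr a o M Zs U i := by
    intro i
    constructor
    · rintro ⟨k, hk, h⟩
      exact ⟨k, (hmem.1 hk).1, (hmem.1 hk).2, h⟩
    · rintro ⟨k, hk, h1, h2⟩
      exact ⟨k, hmem.2 ⟨hk, h1⟩, h2⟩
  have hSi : ∀ k, S k = Icc (vx a r o k.1 k.2) ![vx a r o k.1 k.2 0 + r, vx a r o k.1 k.2 1 + r,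
      vx a r o k.1 k.2 2] := fun k => usq_eq_Icc r0
  have hr3 : 0 < r ^ 3 := by positivity
  obtain ⟨X, hX0, hXl, hXs⟩ := junk' hp T (ℓ := Kt) hK0 (g := g) Q S
    (fun i hi x hx y hy => lip_tile (T.ne i)
      (hKt i fun h => hV i h ((hMJ i).1 hi)) (hg.mono (T.sub i)) hx hy)
    (fun k _ => by rw [hSi k]; exact convex_Icc _ _)
    (fun k _ => by rw [hSi k]; exact isCompact_Icc)
    (fun k hk => usq_sub_QL r0 lo hi zs (hmem.1 hk).1) (v := ENNReal.ofReal (r ^ 3))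
    (cnt := fun i => ENNReal.ofReal (cnt i)) (fun i => by
      have h1 := cn i
      have h2 : {k | k ∈ Q ∧ (P (T.H i) ∩ S k).Nonempty} = {k : ℤ × (Fin 2 → ℕ) | k ∈ Fc M Zs ∧
          ¬ U k.1 k.2 ∧ (P (T.H i) ∩ usq (fr (vx a r o k.1 k.2) r hr)).Nonempty} := by
        ext k
        constructor
        · rintro ⟨hk, h⟩
          exact ⟨(hmem.1 hk).1, (hmem.1 hk).2, h⟩
        · rintro ⟨hk, h, h'⟩
          exact ⟨hmem.2 ⟨hk, h⟩, h'⟩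
      rw [h2]
      calc _ = ENNReal.ofReal ((({k : ℤ × (Fin 2 → ℕ) | k ∈ Fc M Zs ∧ ¬ U k.1 k.2 ∧
          (P (T.H i) ∩ usq (fr (vx a r o k.1 k.2) r hr)).Nonempty}).ncard : ℝ) * r ^ 3) := by
            rw [ENNReal.ofReal_mul (Nat.cast_nonneg _), ENNReal.ofReal_natCast]
        _ ≤ _ := ENNReal.ofReal_le_ofReal h1)
  refine ⟨fun m v => X (m, v), fun m v => hX0 _, ?_, ?_⟩
  · intro m hm v hv hU y hy y' hy'
    have hk : (m, v) ∈ Q := hmem.2 ⟨Finset.mem_product.2 ⟨hm, mem_pi.2 hv⟩, hU⟩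
    exact hXl (m, v) hk y' hy' y hy
  · intro D hD hDU
    have h1 : ∑ k ∈ D, X (k.1, k.2) ^ p ≤ ∑ k ∈ Q, X k ^ p :=
      Finset.sum_le_sum_of_subset_of_nonneg (fun k hk => hmem.2 ⟨hD hk, hDU k hk⟩)
        fun k _ _ => Real.rpow_nonneg (hX0 k) p
    refine h1.trans ?_
    rw [le_div_iff₀ hr3]
    have h2 : (∑ k ∈ Q, ENNReal.ofReal (X k ^ p)) * ENNReal.ofReal (r ^ 3) ≤ ENNReal.ofReal B := by
      refine hXs.trans (le_trans ?_ hsum)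
      let e : {i // ∃ k ∈ Q, (P (T.H i) ∩ S k).Nonempty} → {i // i ∉ Vt ∧ MJ T r hr a o M Zs U i} :=
        fun i => ⟨i.1, fun h => hV i.1 h ((hMJ i.1).1 i.2), (hMJ i.1).1 i.2⟩
      have he : Function.Injective e := fun i j hij => Subtype.ext (by
        have := congrArg Subtype.val hij
        exact this)
      exact ENNReal.tsum_comp_le_tsum_of_injective he
        (fun i : {i // i ∉ Vt ∧ MJ T r hr a o M Zs U i} =>
          ENNReal.ofReal (Kt i ^ p) * ENNReal.ofReal (cnt i))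
    rw [← ENNReal.ofReal_sum_of_nonneg fun k _ => Real.rpow_nonneg (hX0 k) p,
      ← ENNReal.ofReal_mul (Finset.sum_nonneg fun k _ => Real.rpow_nonneg (hX0 k) p)] at h2
    exact (ENNReal.ofReal_le_ofReal_iff hB).1 h2

end

end Crest.Agent.R096.No_276
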