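import Crest.Agent.R096.Np10_962
import Crest.Agent.R096.Exb2_766

/-!
Row 96 (S0127), helper962, node NO0-PRE3 (T4 of 961's Top5): **`NOPre p` for all `p ≥ 3`**.
-/

set_option autoImplicit false

namespace Crest.Agent.R096.Np_962

/-- **node T4 (`pre3`)**: `NOPre p` for `p ≥ 3` -/
theorem pre3 (p : ℝ) (hp : 3 ≤ p) : No_276.NOPre p :=
  noPre_of_blkN hp (Exb_766.exBlkN (by linarith))

end Crest.Agent.R096.Np_962
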