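import Crest.Agent.R096.Pmc4_112
import Crest.Agent.R096.Np2_962

/-!
Row 96 (S0127), helper962, node NO0-PRE3, mesh part.  **Literal targets of PREMACH-N**: the sharp form
of 112's `PreOut` (exact weights `W`, two bounds for the weights of the edges).
Definitions only.
-/

set_option autoImplicit false
set_option linter.unusedSectionVars false
set_option linter.unusedVariables false
open Set Filter Topology MeasureTheory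
open scoped NNReal ENNReal

noncomputable section

namespace Crest.Agent.R096.Np_962

open Crest.Agent.R096.Msh_715
open Crest.Agent.R096.SkC1_961 (E3 Cfg FoamD Hom3 NN)
open Crest.Agent.R096.Ls_222
open Crest.Agent.R096.Mbf_337
open Crest.Agent.R96.Pm_199
open Crest.Agent.R96.Sg1_199 (li sgm)
open Crest.Agent.R096.Pmc_112 (Gd')

/-- the size of the derivatives of the level functions in the direction `v`, weights `w` -/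
def GV {𝒞 : Type*} (w : 𝒞 → ℝ≥0∞) (g : 𝒞 → Fin 3 → E3 → ℝ) (v y : E3) : ℝ≥0∞ :=
  ∑' c, w c * ‖∑ l, v l * g c l y‖ₑ

variable {δ κ0 R c0 : ℝ} {La Om : Set E3} {ι : Type}

/-- **levels with exact weights** `W` and a bound `l` for the weights of the edges -/
def ChoiceN (Φ : FoamD δ κ0 R c0 La) (T : Tiling Om ι) (f : E3 → E3) (κp μ κ3 : ℝ) (W : Φ.F → ℝ)
    (X : Set Φ.F) (ct : Φ.F → ι) (A : Φ.F → E3 ≃ᵃ[ℝ] E3) (lam : Φ.F → ℝ) (z : Φ.F → E3)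
    (M : Φ.F → ℕ) (l : Edg T → ℝ≥0∞) : Prop :=
  ∀ (err : Edg T → ℝ≥0∞), (∀ e, err e ≠ 0) →
  ∀ (Z : Φ.F → Set ℝ) (m0 : Φ.F → ℕ), (∀ c, volume (Z c) = 0) →
  ∃ (κ : Φ.F → ℕ) (L : Φ.F → Finset ℝ),
    Levels Φ T f κp μ κ3 Z m0 κ L ∧ Words Φ T f X ct A lam z M L ∧
    (∀ c, ((L c).card : ℝ) * (2 : ℝ)⁻¹ ^ κ c = W c) ∧
    (∀ e, EN (us Φ f) κ L e ≤ l e + err e) ∧
    ∀ i, NN Φ T f κ L i ≤ ∑ e ∈ eIn T i, EN (us Φ f) κ L e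

/-- **the output of PREMACH-N for one mesh**; `cmp`: on the edges the derivatives `g` of the level
functions are controlled by the derivative `D'` of `Psi ∘ f` -/
structure PreOutN (Φ : FoamD δ κ0 R c0 La) (f : E3 → E3) (κp μ κ1 κ2 κ3 : ℝ) (W : Φ.F → ℝ)
    (X : Set Φ.F) (g : Φ.F → Fin 3 → E3 → ℝ) (D' : E3 → E3 →L[ℝ] E3) (D : Dec Om Φ.F) : Prop where
  cores : Cores Φ D.T f κ1 κ2 X D.J0 D.J D.V D.ct D.A D.lam D.z D.θ D.φ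
  fine : Fine Φ D.T f κ1 D.J0
  fin : ∀ e : Edg D.T, le (Gd' D') e ≠ ⊤
  cmp : ∀ e : Edg D.T, le (GV (fun c => ENNReal.ofReal (W c)) g) e ≤
    ENNReal.ofReal (8 * Cl δ R) * le (Gd' D') e
  choice : ChoiceN Φ D.T f κp μ κ3 W X D.ct D.A D.lam D.z D.M
    (fun e => ENNReal.ofReal (1 + κp) * le (GV (fun c => ENNReal.ofReal (W c)) g) e)

/-- **PREMACH-N** (target; word for word `Pmc_112.premach` with sharp weights) -/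
def PremachN : Prop :=
  ∀ (δ κ0 R c0 : ℝ) (La Om : Set E3) (Φ : FoamD δ κ0 R c0 La) (f : E3 → E3) (J : Type),
  IsOpen Om → IsOpen La → 0 < δ → 0 < R → Hom3 f Om La →
  ∀ (M : MF Om Φ.F J) (D' : E3 → E3 →L[ℝ] E3), (∀ v, Measurable fun y => D' y v) →
  (∀ l, Crest.Agent.R96.Sob4_199.VWD (Crest.Agent.R096.Der_764.OmH Φ f Om) volume
      (fun x => Crest.Agent.R96.En10_199.P3 (Φ.Psi (f x)))
      (fun x => Crest.Agent.R96.En10_199.P3 (D' x (Pi.single l 1))) (Pi.single l (1:ℝ))) →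
  ∀ (g : Φ.F → Fin 3 → E3 → ℝ), (∀ c l, Measurable (g c l)) →
  (∀ c l, Crest.Agent.R96.Acl_392.WD (Crest.Agent.R096.Der_764.OmH Φ f Om) volume
    (fun x => Φ.lev c (f x)) (g c l) (Pi.single l 1)) →
  ∀ (W : Φ.F → ℝ) (κp μ κ1 κ2 κ3 : ℝ), (∀ c, 0 < W c) → (∀ c, ∃ k N : ℕ, W c * 2 ^ k = N) →
  (∀ c, c.1.sz ≤ κ3 * W c) → (∀ c, W c ≤ κ3 * c.1.sz) → (∀ c, W c ≤ c.1.sz) →
  0 < κp → κp ≤ 1 → μ ≤ κp / 64 → 8 ≤ κ3 → 0 ≤ κ2 → κ1 * κ0 < κ2 →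
  ∀ (X : Set Φ.F) (p : ℝ), 0 ≤ p → ∀ (Gd : J → Set E3), (∀ j, Gd j ⊆ M.Bx j) →
  ∀ θ₁ θ₂ : ℝ≥0∞, volume (⋃ j, {a | a ∈ M.A ∧ ∀ w ∈ M.W j, a + w ∉ Gd j}) ≤ θ₁ * volume M.A →
  ∀ (m lam : M.κ → ℝ≥0∞), (∀ k, m k ≠ 0) →
  (∀ k, M.bl k = none → ∫⁻ a in M.A,
    M.EnC (GV (fun c => ENNReal.ofReal (W c)) g) p k a ≤ m k * volume M.A) →
  (∀ k, lam k ≠ 0) → (∀ k, lam k ≠ ⊤) → ∑' k, (lam k)⁻¹ ≤ θ₂ →
  ∀ P' : E3 → Prop, (∀ᵐ a : E3, a ∈ M.A → P' a) →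
  (∀ᵐ a : E3, a ∈ M.A → ∀ w (h : M.Ok a w), (∀ j, a + w j ∈ Gd j) →
      Crest.Agent.R096.Pmc_112.Mok Φ f κp μ κ1 κ2 X (M.md a w h)) →
  ∃ A' ⊆ M.A, MeasurableSet A' ∧ volume (M.A \ A') ≤ (θ₁ + θ₂) * volume M.A ∧
    ∀ a ∈ A', P' a ∧ ∃ (w : J → E3) (h : M.Ok a w), (∀ j, a + w j ∈ Gd j) ∧
      PreOutN Φ f κp μ κ1 κ2 κ3 W X g D' (M.md a w h) ∧
      (∀ k, M.bl k = none → M.EnT (GV (fun c => ENNReal.ofReal (W c)) g) p a w h k ≤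
        lam k * m k) ∧
      ∀ k j, M.bl k = some j → M.EnT (Gd' D') p a w h k ≤ M.EnC (Gd' D') p k (a + w j)

end Crest.Agent.R096.Np_962
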