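import Crest.Agent.R096.Pg2_691
import Crest.Agent.R96.En11_199
import Crest.Agent.R096.Ls5_222
import Crest.Agent.R096.Ps1_273

/-!
# Row 96, NO0-PRE (helper477), part 1: energies near the centres and off the horizontal walls

`exists_small` : from `Front` : centres `x c`, radii `R c` and an open set `W ⊇ Om \ HH` such that the
volume and the energy of `W ∪ ⋃ closedBall (x c) (2 R c)` are small.
-/

set_option autoImplicit false
set_option linter.unusedSectionVars false
set_option linter.unusedVariables false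

open Set Filter Topology Metric MeasureTheory
open scoped ENNReal NNReal

namespace Crest.Agent.R096.Npl_477

open Crest.Agent.R096.Bsp_628 Crest.Agent.R096.Brk1_582 Crest.Agent.R096.Brk5_582
open Crest.Agent.R096.Dic1_582 Crest.Agent.R096.Log2_582
open Crest.Agent.R096.Dic6_582 Crest.Agent.R096.Npr_582
open Crest.Agent.R096.SkC1_961 (E3 Hom3 FoamD)
open Crest.Agent.R096.Pg_691
open Crest.Agent.R96.En11_199 (Hw GGw_eq measurable_Hw)
open Crest.Agent.R96.En9_199 (GGw)
open Crest.Agent.R096.Ps_273 (Xs measurable_Xs)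

noncomputable section

/-- `(H₀ + H₁ + H₂)^p ≤ 3^(p-1) Σ H_l^p` -/
theorem sum3_rpow_le {p : ℝ} (hp : 1 ≤ p) (H : Fin 3 → ℝ≥0∞) :
    (∑ l, H l) ^ p ≤ 3 ^ (p - 1) * ∑ l, H l ^ p := by
  have h := ENNReal.rpow_sum_le_const_mul_sum_rpow Finset.univ H hp
  simpa using h

section meas

/-- a finite measure without atoms: small balls have small measure -/
theorem exists_ball_small {ν : Measure E3} [IsFiniteMeasure ν] {x : E3} (hx : ν {x} = 0)
    {t : ℝ≥0∞} (ht : 0 < t) : ∃ r : ℝ, 0 < r ∧ ∀ s, s ≤ r → ν (closedBall x s) ≤ t := by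
  have h1 : Tendsto (fun n : ℕ => ν (closedBall x (1 / ((n : ℝ) + 1)))) atTop
      (𝓝 (ν (⋂ n : ℕ, closedBall x (1 / ((n : ℝ) + 1))))) := by
    apply tendsto_measure_iInter_atTop
    · intro n
      exact measurableSet_closedBall.nullMeasurableSet
    · intro m n hmn
      apply closedBall_subset_closedBall
      apply one_div_le_one_div_of_le
      · positivity
      · have : (m : ℝ) ≤ n := by exact_mod_cast hmn
        linarith
    · exact ⟨0, measure_ne_top _ _⟩
  have h2 : (⋂ n : ℕ, closedBall x (1 / ((n : ℝ) + 1))) = {x} := by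
    ext y
    simp only [mem_iInter, mem_closedBall, mem_singleton_iff]
    constructor
    · intro h
      have h3 : dist y x ≤ 0 := by
        refine ge_of_tendsto' (tendsto_one_div_add_atTop_nhds_zero_nat (𝕜 := ℝ)) ?_
        intro n
        exact h n
      exact dist_le_zero.1 h3
    · rintro rfl n
      rw [dist_self]
      positivity
  rw [h2, hx] at h1
  obtain ⟨n, hn⟩ := ((tendsto_order.1 h1).2 t ht).exists
  refine ⟨1 / ((n : ℝ) + 1), by positivity, fun s hs => ?_⟩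
  exact (measure_mono (closedBall_subset_closedBall hs)).trans hn.le

end meas

section front

variable {p : ℝ} {q : ℕ} {s : Fin 3 → ℝ} {e1 e2 : ℝ≥0∞} {Om La : Set E3} {f f1 : E3 → E3}
  {M h : ℝ} {al : Fin 3 → ℝ} {Φ : FoamD (dF q) (kF q) 6 (cN q) La} {z : Φ.F → E3}
  {X HH : Set E3} {g : Φ.F → Fin 3 → E3 → ℝ}

/-- `Hw ≤ (Hw - s) + s` -/
theorem rpow_le_sub_add {p : ℝ} (hp : 1 ≤ p) (a b : ℝ≥0∞) :
    a ^ p ≤ 2 ^ (p - 1) * ((a - b) ^ p + b ^ p) := by
  refine (ENNReal.rpow_le_rpow (le_tsub_add (a := b) (b := a)) (by linarith)).trans ?_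
  exact ENNReal.rpow_add_le_mul_rpow_add_rpow _ _ hp

/-- **the energy of one direction on any part of the domain** -/
theorem Hw_energy (hp : 1 ≤ p) (H : Front p q s e1 e2 Om La f M h al Φ z f1 X HH g)
    {w : Φ.F → ℝ≥0∞} (hw : ∀ c : Φ.F, IsLog q al h c.1 → w c = ENNReal.ofReal (h / 2))
    (hw' : ∀ c : Φ.F, w c ≤ ENNReal.ofReal c.1.sz) (l : Fin 3) (A : Set E3)
    (hA : A ⊆ Op Φ Om f1) :
    ∫⁻ x in A, Hw w g l x ^ p ≤
      2 ^ (p - 1) * (e1 * volume Om + ENNReal.ofReal (s l) ^ p * volume A) := by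
  have : Countable Φ.F := Crest.Agent.R096.Ls_222.countable_F Φ
  calc ∫⁻ x in A, Hw w g l x ^ p ≤
      ∫⁻ x in A, 2 ^ (p - 1) * ((Hw w g l x - ENNReal.ofReal (s l)) ^ p +
        ENNReal.ofReal (s l) ^ p) :=
        lintegral_mono fun x => rpow_le_sub_add hp _ _
    _ = 2 ^ (p - 1) * ((∫⁻ x in A, (Hw w g l x - ENNReal.ofReal (s l)) ^ p) +
        ENNReal.ofReal (s l) ^ p * volume A) := by
        have hm : Measurable fun x => (Hw w g l x - ENNReal.ofReal (s l)) ^ p :=
          ((measurable_Hw H.gm w l).sub_const _).pow_const _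
        rw [lintegral_const_mul _ (hm.add_const _), lintegral_add_left hm, lintegral_const,
          Measure.restrict_apply_univ]
    _ ≤ _ := by
        gcongr
        exact (lintegral_mono_set hA).trans (H.eW l w hw hw')

/-- the total energy on any part of the domain -/
theorem GGw_energy (hp : 1 ≤ p) (H : Front p q s e1 e2 Om La f M h al Φ z f1 X HH g)
    {w : Φ.F → ℝ≥0∞} (hw : ∀ c : Φ.F, IsLog q al h c.1 → w c = ENNReal.ofReal (h / 2))
    (hw' : ∀ c : Φ.F, w c ≤ ENNReal.ofReal c.1.sz) (A : Set E3) (hA : A ⊆ Op Φ Om f1) :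
    ∫⁻ x in A, GGw w g x ^ p ≤ 3 ^ (p - 1) * ∑ l,
      (2 ^ (p - 1) * (e1 * volume Om + ENNReal.ofReal (s l) ^ p * volume A)) := by
  have : Countable Φ.F := Crest.Agent.R096.Ls_222.countable_F Φ
  calc ∫⁻ x in A, GGw w g x ^ p ≤ ∫⁻ x in A, 3 ^ (p - 1) * ∑ l, Hw w g l x ^ p :=
        lintegral_mono fun x => by
          show GGw w g x ^ p ≤ _
          rw [GGw_eq]
          exact sum3_rpow_le hp _
    _ = 3 ^ (p - 1) * ∑ l, ∫⁻ x in A, Hw w g l x ^ p := by
        have hm : ∀ l, Measurable fun x => Hw w g l x ^ p := fun l =>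
          (measurable_Hw H.gm w l).pow_const _
        rw [lintegral_const_mul _ (Finset.measurable_sum _ fun l _ => hm l),
          lintegral_finsetSum _ fun l _ => hm l]
    _ ≤ _ := by
        gcongr with l
        exact Hw_energy hp H hw hw' l A hA

/-- the energy on the bad set -/
theorem GGw_energy_X (hp : 1 ≤ p) (H : Front p q s e1 e2 Om La f M h al Φ z f1 X HH g)
    {w : Φ.F → ℝ≥0∞} (hw : ∀ c : Φ.F, IsLog q al h c.1 → w c = ENNReal.ofReal (h / 2))
    (hw' : ∀ c : Φ.F, w c ≤ ENNReal.ofReal c.1.sz) :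
    ∫⁻ x in Op Φ Om f1 ∩ X, GGw w g x ^ p ≤ 3 ^ p * (e2 * volume Om) := by
  have : Countable Φ.F := Crest.Agent.R096.Ls_222.countable_F Φ
  calc ∫⁻ x in Op Φ Om f1 ∩ X, GGw w g x ^ p ≤
      ∫⁻ x in Op Φ Om f1 ∩ X, 3 ^ (p - 1) * ∑ l, Hw w g l x ^ p :=
        lintegral_mono fun x => by
          show GGw w g x ^ p ≤ _
          rw [GGw_eq]
          exact sum3_rpow_le hp _
    _ = 3 ^ (p - 1) * ∑ l, ∫⁻ x in Op Φ Om f1 ∩ X, Hw w g l x ^ p := by
        have hm : ∀ l, Measurable fun x => Hw w g l x ^ p := fun l =>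
          (measurable_Hw H.gm w l).pow_const _
        rw [lintegral_const_mul _ (Finset.measurable_sum _ fun l _ => hm l),
          lintegral_finsetSum _ fun l _ => hm l]
    _ ≤ 3 ^ (p - 1) * ∑ l : Fin 3, e2 * volume Om := by
        gcongr with l
        exact H.eX l w hw hw'
    _ = _ := by
        rw [Finset.sum_const, Finset.card_univ, Fintype.card_fin, nsmul_eq_mul, ← mul_assoc]
        congr 1
        have : (3 : ℝ≥0∞) ^ p = 3 ^ (p - 1) * 3 ^ (1 : ℝ) := by
          rw [← ENNReal.rpow_add _ _ (by norm_num) (by norm_num)]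
          congr 1
          ring
        rw [this, ENNReal.rpow_one]
        norm_num

/-- (a) the total energy is finite -/
theorem GGw_energy_ne_top (hp : 1 ≤ p) (hOf : volume Om ≠ ⊤) (he1 : e1 ≠ ⊤)
    (H : Front p q s e1 e2 Om La f M h al Φ z f1 X HH g)
    {w : Φ.F → ℝ≥0∞} (hw : ∀ c : Φ.F, IsLog q al h c.1 → w c = ENNReal.ofReal (h / 2))
    (hw' : ∀ c : Φ.F, w c ≤ ENNReal.ofReal c.1.sz) :
    ∫⁻ x in Op Φ Om f1, GGw w g x ^ p ≠ ⊤ := by
  refine ne_top_of_le_ne_top ?_ (GGw_energy hp H hw hw' _ (Subset.refl _))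
  have h1 : volume (Op Φ Om f1) ≠ ⊤ := ne_top_of_le_ne_top hOf (measure_mono fun y hy => hy.1)
  refine ENNReal.mul_ne_top (ENNReal.rpow_ne_top_of_nonneg (by linarith) (by norm_num)) ?_
  refine (ENNReal.sum_lt_top.2 fun l _ => lt_top_iff_ne_top.2 ?_).ne
  refine ENNReal.mul_ne_top (ENNReal.rpow_ne_top_of_nonneg (by linarith) (by norm_num)) ?_
  refine ENNReal.add_ne_top.2 ⟨ENNReal.mul_ne_top he1 hOf, ENNReal.mul_ne_top ?_ h1⟩
  exact ENNReal.rpow_ne_top_of_nonneg (by linarith) ENNReal.ofReal_ne_top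

/-- (c) the excess over `s`, exponent `p` -/
theorem Xs_energy (H : Front p q s e1 e2 Om La f M h al Φ z f1 X HH g)
    {w : Φ.F → ℝ≥0∞} (hw : ∀ c : Φ.F, IsLog q al h c.1 → w c = ENNReal.ofReal (h / 2))
    (hw' : ∀ c : Φ.F, w c ≤ ENNReal.ofReal c.1.sz) (l : Fin 3) :
    ∫⁻ x in Op Φ Om f1, Xs w g (fun i => ENNReal.ofReal (s i)) l x ^ p ≤ e1 * volume Om :=
  H.eW l w hw hw'

/-- (c) the excess over `s`, exponent `1` (Hölder) -/
theorem Xs_int (hp : 1 ≤ p) (hOf : volume Om ≠ ⊤)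
    (H : Front p q s e1 e2 Om La f M h al Φ z f1 X HH g)
    {w : Φ.F → ℝ≥0∞} (hw : ∀ c : Φ.F, IsLog q al h c.1 → w c = ENNReal.ofReal (h / 2))
    (hw' : ∀ c : Φ.F, w c ≤ ENNReal.ofReal c.1.sz) (l : Fin 3) :
    ∫⁻ x in Op Φ Om f1, Xs w g (fun i => ENNReal.ofReal (s i)) l x ≤ e1 ^ p⁻¹ * volume Om := by
  have : Countable Φ.F := Crest.Agent.R096.Ls_222.countable_F Φ
  have hp0 : 0 < p := by linarith
  have hm : Measurable (Xs w g (fun i => ENNReal.ofReal (s i)) l) := measurable_Xs H.gm w _ l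
  have hvO : volume (Op Φ Om f1) ≤ volume Om := measure_mono fun y hy => hy.1
  have hfin : IsFiniteMeasure (volume.restrict (Op Φ Om f1)) :=
    ⟨by rw [Measure.restrict_apply_univ]; exact lt_of_le_of_lt hvO hOf.lt_top⟩
  have h1 := Crest.Agent.R96.En3_199.lintegral_rpow_le
    (ν := volume.restrict (Op Φ Om f1)) hm.aemeasurable hp
  rw [Measure.restrict_apply_univ] at h1
  have h2 := Xs_energy H hw hw' l
  have h3 : (∫⁻ x in Op Φ Om f1, Xs w g (fun i => ENNReal.ofReal (s i)) l x) ^ p ≤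
      (e1 ^ p⁻¹ * volume Om) ^ p := by
    refine h1.trans ?_
    rw [ENNReal.mul_rpow_of_nonneg _ _ hp0.le, ← ENNReal.rpow_mul, inv_mul_cancel₀ hp0.ne',
      ENNReal.rpow_one]
    calc volume (Op Φ Om f1) ^ (p - 1) *
          ∫⁻ x in Op Φ Om f1, Xs w g (fun i => ENNReal.ofReal (s i)) l x ^ p
        ≤ volume Om ^ (p - 1) * (e1 * volume Om) := by
          gcongr
      _ = e1 * (volume Om ^ (p - 1) * volume Om ^ (1:ℝ)) := by rw [ENNReal.rpow_one]; ring
      _ = e1 * volume Om ^ p := by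
          rw [← ENNReal.rpow_add_of_nonneg _ _ (by linarith) zero_le_one, sub_add_cancel]
  exact (ENNReal.rpow_le_rpow_iff hp0).1 h3

/-- **centres, radii and the open set `W`**: the energy and the volume of
`W ∪ ⋃ closedBall (x c) (2 R c)` are small -/
theorem exists_small (hp : 1 ≤ p) (hO : IsOpen Om) (hOf : volume Om ≠ ⊤) (hLa : IsOpen La)
    (hne : Laᶜ.Nonempty) (he1 : e1 ≠ ⊤) (he2 : e2 ≠ ⊤)
    (H : Front p q s e1 e2 Om La f M h al Φ z f1 X HH g)
    {w : Φ.F → ℝ≥0∞} (hw : ∀ c : Φ.F, IsLog q al h c.1 → w c = ENNReal.ofReal (h / 2))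
    (hw' : ∀ c : Φ.F, w c ≤ ENNReal.ofReal c.1.sz) {θ : ℝ≥0∞} (hθ : 0 < θ) {ρ : ℝ} (hρ : 0 < ρ) :
    ∃ (x : Φ.F → E3) (R : Φ.F → ℝ) (W : Set E3), Rad Φ Om f1 z x R ∧ (∀ c, R c ≤ ρ) ∧
      ∑' c, ENNReal.ofReal (R c) ≤ θ ∧ IsOpen W ∧ Om \ HH ⊆ W ∧ W ⊆ Om ∧
      volume (W ∪ ⋃ c, closedBall (x c) (2 * R c)) ≤ e2 * volume Om + θ ∧
      ∫⁻ y in Op Φ Om f1 ∩ (W ∪ ⋃ c, closedBall (x c) (2 * R c)), GGw w g y ^ p ≤
        3 ^ p * (e2 * volume Om) + θ := by
  have : Countable Φ.F := Crest.Agent.R096.Ls_222.countable_F Φ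
  obtain ⟨x, hx⟩ := centres_of_front H
  -- the finite measure
  have hGm : Measurable fun y => GGw w g y ^ p := by
    have : (fun y => GGw w g y ^ p) = fun y => (∑ l, Hw w g l y) ^ p := by
      funext y; rw [GGw_eq]
    rw [this]
    exact (Finset.measurable_sum _ fun l _ => measurable_Hw H.gm w l).pow_const _
  have hOm : MeasurableSet (Op Φ Om f1) := H.op.measurableSet
  set ν : Measure E3 := (volume.restrict (Op Φ Om f1)).withDensity fun y => GGw w g y ^ p with hν
  have hνA : ∀ A : Set E3, MeasurableSet A →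
      ν A = ∫⁻ y in Op Φ Om f1 ∩ A, GGw w g y ^ p := by
    intro A hA
    rw [hν, withDensity_apply _ hA, Measure.restrict_restrict hA, inter_comm]
  have hfin : ∫⁻ y in Op Φ Om f1, GGw w g y ^ p ≠ ⊤ := GGw_energy_ne_top hp hOf he1 H hw hw'
  have hνf : IsFiniteMeasure ν := by
    refine ⟨?_⟩
    rw [hνA _ MeasurableSet.univ, inter_univ]
    exact lt_top_iff_ne_top.2 hfin
  have hvf : IsFiniteMeasure (volume.restrict Om) := by
    refine ⟨?_⟩
    rw [Measure.restrict_apply_univ]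
    exact lt_top_iff_ne_top.2 hOf
  set μ : Measure E3 := volume.restrict Om + ν with hμ
  have hat : ∀ y, μ {y} = 0 := by
    intro y
    rw [hμ, Measure.add_apply, hνA _ (measurableSet_singleton y)]
    have h1 : (volume.restrict Om) {y} = 0 :=
      le_antisymm ((Measure.restrict_apply_le _ _).trans (by simp)) zero_le
    have h2 : volume (Op Φ Om f1 ∩ {y}) = 0 :=
      le_antisymm ((measure_mono inter_subset_right).trans (by simp)) zero_le
    rw [h1, setLIntegral_measure_zero _ _ h2, add_zero]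
  -- the open set
  have hθ4 : θ / 4 ≠ 0 := by
    simp [ENNReal.div_eq_zero_iff, hθ.ne']
  obtain ⟨W, hW1, hWo, hW2, hW3⟩ : ∃ W : Set E3, Om \ HH ⊆ W ∧ IsOpen W ∧ W ⊆ Om ∧
      volume W ≤ e2 * volume Om + θ / 2 ∧ ν W ≤ 3 ^ p * (e2 * volume Om) + θ / 2 := by
    have hA : MeasurableSet (Om \ HH) := hO.measurableSet.diff H.HHo.measurableSet
    have hAX : Om \ HH ⊆ X := by
      intro y hy
      by_contra hn
      exact hy.2 (H.HHX ⟨hy.1, hn⟩)
    have hv1 : (volume.restrict Om) (Om \ HH) ≤ e2 * volume Om :=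
      (Measure.restrict_apply_le _ _).trans ((measure_mono hAX).trans H.Xv)
    have hv2 : ν (Om \ HH) ≤ 3 ^ p * (e2 * volume Om) := by
      rw [hνA _ hA]
      exact (lintegral_mono_set (inter_subset_inter_right _ hAX)).trans (GGw_energy_X hp H hw hw')
    have hθ2 : θ / 2 ≠ 0 := by simp [ENNReal.div_eq_zero_iff, hθ.ne']
    obtain ⟨U1, a1, a2, a3⟩ := Set.exists_isOpen_le_add (Om \ HH) (volume.restrict Om) hθ2
    obtain ⟨U2, b1, b2, b3⟩ := Set.exists_isOpen_le_add (Om \ HH) ν hθ2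
    refine ⟨(U1 ∩ U2) ∩ Om, fun y hy => ⟨⟨a1 hy, b1 hy⟩, hy.1⟩, (a2.inter b2).inter hO,
      inter_subset_right, ?_, ?_⟩
    · calc volume ((U1 ∩ U2) ∩ Om) = (volume.restrict Om) (U1 ∩ U2) := by
            rw [Measure.restrict_apply (a2.inter b2).measurableSet]
        _ ≤ (volume.restrict Om) U1 := measure_mono inter_subset_left
        _ ≤ _ := a3.trans (by gcongr)
    · calc ν ((U1 ∩ U2) ∩ Om) ≤ ν U2 := measure_mono fun y hy => hy.1.2
        _ ≤ _ := b3.trans (by gcongr)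
  -- the radii
  have hθ2 : θ / 2 ≠ 0 := by simp [ENNReal.div_eq_zero_iff, hθ.ne']
  obtain ⟨δ, hδ0, hδ⟩ := ENNReal.exists_pos_sum_of_countable (ε := θ / 2) hθ2 Φ.F
  have hball : ∀ c, ∃ r : ℝ, 0 < r ∧ ∀ t, t ≤ r → μ (closedBall (x c) t) ≤ (δ c : ℝ≥0∞) := by
    intro c
    exact exists_ball_small (hat (x c)) (by exact_mod_cast hδ0 c)
  choose r hr0 hr using hball
  set η : Φ.F → ℝ := fun c => min (r c / 2) (min ρ (δ c)) with hη
  have hη0 : ∀ c, 0 < η c := fun c => by
    have h1 := hr0 c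
    have h2 : (0 : ℝ) < δ c := by exact_mod_cast hδ0 c
    simp only [hη]
    refine lt_min (by linarith) (lt_min hρ h2)
  obtain ⟨R, hR, hRη, -⟩ := exists_rad hO hLa hne H.homeo hx (W := fun _ => univ)
    (fun c => univ_mem) hη0
  have hballs : ∀ c, μ (closedBall (x c) (2 * R c)) ≤ (δ c : ℝ≥0∞) := by
    intro c
    apply hr c
    have h1 := hRη c
    have h2 : η c ≤ r c / 2 := min_le_left _ _
    linarith
  have hUn : μ (⋃ c, closedBall (x c) (2 * R c)) ≤ θ / 2 := by
    refine (measure_iUnion_le _).trans ((ENNReal.tsum_le_tsum hballs).trans hδ.le)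
  have hmU : MeasurableSet (⋃ c, closedBall (x c) (2 * R c)) :=
    MeasurableSet.iUnion fun c => measurableSet_closedBall
  have hUO : (⋃ c, closedBall (x c) (2 * R c)) ⊆ Om := iUnion_subset hR.sub
  refine ⟨x, R, W, hR, fun c => ?_, ?_, hWo, hW1, hW2, ?_, ?_⟩
  · exact (hRη c).trans ((min_le_right _ _).trans (min_le_left _ _))
  · calc ∑' c, ENNReal.ofReal (R c) ≤ ∑' c, (δ c : ℝ≥0∞) := by
          refine ENNReal.tsum_le_tsum fun c => ?_
          have h1 : R c ≤ δ c := (hRη c).trans ((min_le_right _ _).trans (min_le_right _ _))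
          calc ENNReal.ofReal (R c) ≤ ENNReal.ofReal (δ c) := ENNReal.ofReal_le_ofReal h1
            _ = δ c := ENNReal.ofReal_coe_nnreal
      _ ≤ θ / 2 := hδ.le
      _ ≤ θ := ENNReal.half_le_self
  · calc volume (W ∪ ⋃ c, closedBall (x c) (2 * R c)) ≤
        volume W + volume (⋃ c, closedBall (x c) (2 * R c)) := measure_union_le _ _
      _ ≤ (e2 * volume Om + θ / 2) + θ / 2 := by
          refine add_le_add hW3.1 ?_
          refine le_trans ?_ hUn
          have h1 : volume (⋃ c, closedBall (x c) (2 * R c)) =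
              (volume.restrict Om) (⋃ c, closedBall (x c) (2 * R c)) := by
            rw [Measure.restrict_apply hmU, inter_eq_left.2 hUO]
          rw [h1, hμ, Measure.add_apply]
          exact le_self_add
      _ = _ := by rw [add_assoc, ENNReal.add_halves]
  · have hmW : MeasurableSet (W ∪ ⋃ c, closedBall (x c) (2 * R c)) := hWo.measurableSet.union hmU
    rw [← hνA _ hmW]
    calc ν (W ∪ ⋃ c, closedBall (x c) (2 * R c)) ≤ ν W + ν (⋃ c, closedBall (x c) (2 * R c)) :=
          measure_union_le _ _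
      _ ≤ (3 ^ p * (e2 * volume Om) + θ / 2) + θ / 2 := by
          refine add_le_add hW3.2 ?_
          refine le_trans ?_ hUn
          rw [hμ, Measure.add_apply]
          exact le_add_self
      _ = _ := by rw [add_assoc, ENNReal.add_halves]

end front

end

end Crest.Agent.R096.Npl_477
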