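import Crest.Agent.R096.Nsl4_552
import Crest.Agent.R096.Nst1_780

/-!
Row 96 (S0127), helper552.  NO0-PRE [P4b] (276 `PreN`, `p < 3`), part 3: `preN_of`.

`ND` = the data (front, tiling, shift, block); **`preN_of`**: constants in the order of `NOPre`
(582 #11112 (4)) and `PreN` for every `Z`, `m0`.
-/

set_option autoImplicit false
set_option linter.style.longLine false
set_option linter.unusedSectionVars false

open MeasureTheory Set Filter Metric
open scoped Topology ENNReal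

namespace Crest.Agent.R096.Nsl_552

open Crest.Agent.R096.Msh_810 Crest.Agent.R96.En3_199
  Crest.Agent.R96.En4_199 Crest.Agent.R96.En5_199 Crest.Agent.R96.En6_199
  Crest.Agent.R96.En7_199 Crest.Agent.R96.En8_199 Crest.Agent.R96.En9_199
  Crest.Agent.R96.En11_199 Crest.Agent.R96.Sg1_199
open Crest.Agent.R096.Msh_715 hiding P I
open Crest.Agent.R096.Ea_713 (lin)
open Crest.Agent.R096.SkC1_961 (E3 Hom3 FoamD NN Cfg)
open Crest.Agent.R096.Nl_234 (HWq)
open Crest.Agent.R096.No_276 (QL ShL IZ MJ MU PreN)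
open Crest.Agent.R096.No0_477 (cub fr Fc NOGeo)
open Crest.Agent.R096.SkN1_477 (usq)
open Crest.Agent.R096.Log2_582 (IsLog)
open Crest.Agent.R096.Frm_234 (Sg Sg_finite frm)
open Crest.Agent.R096.Ls_222 Crest.Agent.R096.Ps_273

noncomputable section

/-- the volume of the stretched cube -/
theorem vol_QL {L : ℝ} (hL : 0 < L) : volume (QL L) = ENNReal.ofReal (8 / L) := by
  rw [Nst_780.volume_QL hL, Real.volume_pi_ball _ one_pos, ← ENNReal.ofReal_mul (by positivity)]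
  congr 1
  simp only [Fintype.card_fin]
  field_simp
  norm_num

/-- **the data of `preN_of`** -/
structure ND (p : ℝ) (s : Fin 3 → ℝ) (L : ℕ) (η κ3 : ℝ) {δ κ0 R c0 : ℝ} {La : Set E3}
    (Φ : FoamD δ κ0 R c0 La) (q : ℕ) (al : Fin 3 → ℝ) (h : ℝ) (f1 : E3 → E3) {ι : Type}
    (T : Tiling (QL L) ι) (V : Φ.F → Set ι) (D : Dat 3) (τ : ι → Top D) (Ω : Set E3)
    (g : Φ.F → Fin 3 → E3 → ℝ) (W : Φ.F → ℝ) (Wt : Set E3) (εf θ : ℝ≥0∞) (r₁ : ℝ) (k : ℕ)
    (r : ℝ) (hr : r ≠ 0) (o : Fin 2 → ℤ) (M : ℕ) (A Zs : Finset ℤ) {β : Type} (b : β → E3)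
    (R1 : β → ℝ) (Sc : β → Finset ι) : Prop where
  oLa : IsOpen La
  hom : Hom3 f1 (QL L) La
  /-- the edges miss the preimages of the holes -/
  hh : ∀ e : Edg T, ∀ y ∈ sgm (ea e) (ev e), ∀ c, f1 y ∉ (Φ.B c).S
  edge : ∀ e : Edg T, e.1 ⊆ Ω
  sub : Ω ⊆ QL L
  gm : ∀ c l, Measurable (g c l)
  good : ∀ (k : ℕ) (z : Fin 3 → ℤ), Good Ω (us Φ f1) g (vx D.a k z)
  patch : ∀ e : Edg T, (¬ ∃ (σ : Cel D) (l : Fin 3), σ.1.J = {l} ∧ e.1 = σ.c) → ∀ c,
    ∃ G : E3 → ℝ≥0∞, UGs (us Φ f1 c) G (ea e) (ev e) ∧ li G (ea e) (ev e) ≠ ∞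
  W0 : ∀ c, 0 < W c
  Wd : ∀ c, ∃ k N : ℕ, W c * 2 ^ k = N
  W1 : ∀ c, c.1.sz ≤ κ3 * W c
  W2 : ∀ c, W c ≤ κ3 * c.1.sz
  Wl : ∀ c : Φ.F, IsLog q al h c.1 → W c = h / 2
  base : BaseOn T D {i | ∀ c, i ∉ V c} τ
  eW : ∀ l, ∫⁻ x in Ω, Xs (fun c => ENNReal.ofReal (W c)) g (fun l => ENNReal.ofReal (s l)) l x ^ p ≤
    εf * volume (QL L)
  Ep : ∀ l, Ed D l p (Xs (fun c => ENNReal.ofReal (W c)) g (fun l => ENNReal.ofReal (s l)) l) ≤
    24 * ∫⁻ x in Ω, Xs (fun c => ENNReal.ofReal (W c)) g (fun l => ENNReal.ofReal (s l)) l x ^ p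
  E1 : ∀ l, Ed D l 1 (Xs (fun c => ENNReal.ofReal (W c)) g (fun l => ENNReal.ofReal (s l)) l) ≤
    24 * ∫⁻ x in Ω, Xs (fun c => ENNReal.ofReal (W c)) g (fun l => ENNReal.ofReal (s l)) l x
  ES : S D p (Wt.indicator (GGw (fun c => ENNReal.ofReal (W c)) g)) ≤ 100 * (KE 3 p * θ)
  vW : volume Wt ≤ θ
  /-- off `Wt` the map is over the horizontal log walls -/
  hw : ∀ x ∈ QL L, x ∉ Wt → HWq Φ f1 q al h {x}
  /-- ordinary tiles which touch the excluded tiles -/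
  tW : ∀ i, (∀ c, i ∉ V c) → ∀ c, ∀ j ∈ V c,
    ¬ Disjoint (Msh_715.P (T.H i)) (Msh_715.P (T.H j)) → Msh_715.P (T.H i) ⊆ Wt
  shv : volume (⋃ i ∈ {i | (∀ c, i ∉ V c) ∧ i ∈ IZ T (ShL L η) b R1 Sc}, Msh_715.P (T.H i)) ≤
    ENNReal.ofReal ((48 * η + 72 * L * r₁) / L)
  geo : NOGeo T (⋃ c, V c) Gno_324.𝒬0 L η r hr D.a o M Zs (fun _ _ => True)
  rk : r = ((2:ℝ) ^ k)⁻¹
  blk : Blk D k o M Zs
  N0 : 2 / L ≤ ((A.card : ℝ) * M ^ 2) * r ^ 3
  AZ : (A.card : ℝ) ≤ 2 * Zs.card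

theorem two_rpow_ne_top {x : ℝ} (hx : 0 ≤ x) : (2:ℝ≥0∞) ^ x ≠ ∞ :=
  ENNReal.rpow_ne_top_of_nonneg hx (by norm_num)

set_option maxHeartbeats 1000000 in
/-- **`PreN` FROM THE DATA**, order of the constants of `NOPre` -/
theorem preN_of {p : ℝ} (hp : 1 ≤ p) {s : Fin 3 → ℝ} (hs : ∀ i, 0 ≤ s i) {S1 : ℝ} (hS1 : 0 < S1) :
    ∃ S KS : ℝ, S1 ≤ S ∧ 0 ≤ KS ∧
    ∀ (ε η : ℝ) (L : ℕ) (e₂ : ℝ), 0 < ε → 0 < η → 1 ≤ L → 0 < e₂ →
    ∃ εf : ℝ≥0∞, 0 < εf ∧
    ∀ (q : ℕ) (κ3 : ℝ) (C : Set (Set E3) → ℝ) (κp ε' : ℝ), (∀ 𝒦, 0 < C 𝒦) → 0 < κp → 0 < ε' →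
    ∃ μ : ℝ, 0 < μ ∧ μ ≤ κp ∧ ∃ θ : ℝ≥0∞, 0 < θ ∧ ∃ r₁ : ℝ, 0 < r₁ ∧
    ∀ {δ κ0 R c0 : ℝ} {La : Set E3} {Φ : FoamD δ κ0 R c0 La} {al : Fin 3 → ℝ} {h : ℝ}
      {f1 : E3 → E3} {ι : Type} {T : Tiling (QL L) ι} {V : Φ.F → Set ι} {D : Dat 3} {τ : ι → Top D}
      {Ω : Set E3} {g : Φ.F → Fin 3 → E3 → ℝ} {W : Φ.F → ℝ} {Wt : Set E3} {k : ℕ}
      {r : ℝ} {hr : r ≠ 0} {o : Fin 2 → ℤ} {M : ℕ} {A Zs : Finset ℤ} {β : Type} {b : β → E3}
      {R1 : β → ℝ} {Sc : β → Finset ι},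
      ND p s L η κ3 Φ q al h f1 T V D τ Ω g W Wt εf θ r₁ k r hr o M A Zs b R1 Sc →
    ∀ (ct : Φ.F → ι) (Aa : Φ.F → E3 ≃ᵃ[ℝ] E3) (lam : Φ.F → ℝ) (z : Φ.F → E3) (Mg : Φ.F → ℕ)
      (cnt : ι → ℝ) (Z : Φ.F → Set ℝ) (m0 : Φ.F → ℕ), (∀ c, volume (Z c) = 0) →
      ∃ (κ : Φ.F → ℕ) (Lv : Φ.F → Finset ℝ),
        PreN p s L η ε ε' e₂ S1 S KS κp μ κ3 C Sg f1 q al h Φ T ∅ V ct Aa lam z Mg r hr D.a o M Zs
          (fun _ _ => True) b R1 Sc cnt Z m0 κ Lv := by
  classical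
  have hp0 : 0 ≤ p := by linarith
  have hp1 : 0 ≤ p - 1 := by linarith
  have h2p := two_rpow_ne_top hp0
  have h2p1 := two_rpow_ne_top hp1
  set smr : ℝ := s 0 + s 1 + s 2 with hsmr
  have hsmr0 : 0 ≤ smr := by have := hs 0; have := hs 1; have := hs 2; positivity
  set sm : ℝ≥0∞ := ENNReal.ofReal smr with hsm
  have hsle : ∀ l, s l ≤ smr := by
    intro l
    have h0 := hs 0
    have h1 := hs 1
    have h2 := hs 2
    fin_cases l
    · show s 0 ≤ smr; linarith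
    · show s 1 ≤ smr; linarith
    · show s 2 ≤ smr; linarith
  have hsl : ∀ l, ENNReal.ofReal (s l) ≤ sm := fun l => ENNReal.ofReal_le_ofReal (hsle l)
  have hMs : (M1 3 * (2 * sm) : ℝ≥0∞) ≠ ∞ :=
    ENNReal.mul_ne_top (ENNReal.natCast_ne_top _) (ENNReal.mul_ne_top (by norm_num)
      ENNReal.ofReal_ne_top)
  set S : ℝ := S1 + (M1 3 * (2 * sm) : ℝ≥0∞).toReal with hS
  have hSS : S1 ≤ S := le_add_of_nonneg_right ENNReal.toReal_nonneg
  have hS0 : 0 ≤ S := by linarith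
  have hSM : (M1 3 * (2 * sm) : ℝ≥0∞) ≤ ENNReal.ofReal S := by
    calc (M1 3 * (2 * sm) : ℝ≥0∞) = ENNReal.ofReal (M1 3 * (2 * sm) : ℝ≥0∞).toReal :=
          (ENNReal.ofReal_toReal hMs).symm
      _ ≤ _ := ENNReal.ofReal_le_ofReal (by rw [hS]; linarith)
  set KT : ℝ≥0∞ := 2 ^ (p - 1) * (KTc p sm + ENNReal.ofReal S1 ^ p) with hKT
  have hKTt : KT ≠ ∞ := ENNReal.mul_ne_top h2p1 (ENNReal.add_ne_top.2
    ⟨KTc_ne_top hp ENNReal.ofReal_ne_top, ENNReal.rpow_ne_top_of_nonneg hp0 ENNReal.ofReal_ne_top⟩)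
  set KTr : ℝ := KT.toReal with hKTr
  have hKT0 : 0 ≤ KTr := ENNReal.toReal_nonneg
  have hKTe : KT = ENNReal.ofReal KTr := (ENNReal.ofReal_toReal hKTt).symm
  refine ⟨S, 48 * KTr + 1, hSS, by positivity, fun ε η L e₂ hε hη hL he₂ => ?_⟩
  have hL0 : (0 : ℝ) < L := by exact_mod_cast hL
  set vq : ℝ≥0∞ := volume (QL (L : ℝ)) with hvq
  have hvq' : vq = ENNReal.ofReal (8 / L) := vol_QL hL0
  have hvqt : vq ≠ ∞ := by rw [hvq']; exact ENNReal.ofReal_ne_top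
  -- `t1` : energies
  obtain ⟨t1, ht10, ht1t, ht1⟩ := exists_small (J := Fin 2)
    ![2 ^ (p - 1) * (KEc p * 6), ENNReal.ofReal L * (KEc p * 6)]
    ![ENNReal.ofReal (min 1 (e₂ / 2) / L), ENNReal.ofReal ε]
    (by
      intro j
      have h6 : KEc p * 6 ≠ ∞ := ENNReal.mul_ne_top (KEc_ne_top hp) (by norm_num)
      fin_cases j
      · exact ENNReal.mul_ne_top h2p1 h6
      · exact ENNReal.mul_ne_top ENNReal.ofReal_ne_top h6)
    (by
      intro j
      fin_cases j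
      · show ENNReal.ofReal _ ≠ 0
        rw [Ne, ENNReal.ofReal_eq_zero, not_le]
        have : 0 < min 1 (e₂ / 2) := lt_min one_pos (by linarith)
        positivity
      · show ENNReal.ofReal _ ≠ 0
        rw [Ne, ENNReal.ofReal_eq_zero, not_le]
        exact hε)
  have ht1a : 2 ^ (p - 1) * (KEc p * 6) * t1 ≤ ENNReal.ofReal (min 1 (e₂ / 2) / L) := ht1 0
  have ht1b : ENNReal.ofReal L * (KEc p * 6) * t1 ≤ ENNReal.ofReal ε := ht1 1
  -- `δ1` : from `p` to `1`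
  obtain ⟨δ1, hδ10, hδ1t, hδ1⟩ := exists_small (J := Fin 1) ![24 * vq] ![ENNReal.ofReal (ε / (16 * L))]
    (by intro j; fin_cases j; exact ENNReal.mul_ne_top (by norm_num) hvqt)
    (by
      intro j
      fin_cases j
      show ENNReal.ofReal _ ≠ 0
      rw [Ne, ENNReal.ofReal_eq_zero, not_le]
      positivity)
  have hδ1a : 24 * vq * δ1 ≤ ENNReal.ofReal (ε / (16 * L)) := hδ1 0
  have hδ1p : δ1 ^ (1 - p) ≠ ∞ := ENNReal.rpow_ne_top_of_ne_zero hδ10 hδ1t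
  -- `εf`
  obtain ⟨εf, hεf0, hεft, hεf⟩ := exists_small (J := Fin 2) ![24 * vq, 24 * (δ1 ^ (1 - p) * vq)]
    ![t1, ENNReal.ofReal (ε / (16 * L))]
    (by
      intro j
      fin_cases j
      · exact ENNReal.mul_ne_top (by norm_num) hvqt
      · exact ENNReal.mul_ne_top (by norm_num) (ENNReal.mul_ne_top hδ1p hvqt))
    (by
      intro j
      fin_cases j
      · exact ht10
      · show ENNReal.ofReal _ ≠ 0
        rw [Ne, ENNReal.ofReal_eq_zero, not_le]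
        positivity)
  have hεfa : 24 * vq * εf ≤ t1 := hεf 0
  have hεfb : 24 * (δ1 ^ (1 - p) * vq) * εf ≤ ENNReal.ofReal (ε / (16 * L)) := hεf 1
  refine ⟨εf, pos_iff_ne_zero.2 hεf0, fun q κ3 C κp ε' hC hκp hε' => ?_⟩
  -- `κ'`, `μ`
  set κ' : ℝ := min (min κp 1) (ε / (8 * (smr + 1))) with hκ'
  have hκ'0 : 0 < κ' := lt_min (lt_min hκp one_pos) (by positivity)
  have hκ'p : κ' ≤ κp := (min_le_left _ _).trans (min_le_left _ _)
  have hκ'1 : κ' ≤ 1 := (min_le_left _ _).trans (min_le_right _ _)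
  have hκ's : κ' * smr ≤ ε / 8 := by
    have h1 : κ' ≤ ε / (8 * (smr + 1)) := min_le_right _ _
    rw [le_div_iff₀ (by positivity)] at h1
    nlinarith
  refine ⟨κ' / 64, by positivity, by linarith, ?_⟩
  -- bound of `C`
  obtain ⟨CM, hCM⟩ : ∃ CM : ℝ, ∀ 𝒦 ∈ Sg, 0 ≤ C 𝒦 ∧ C 𝒦 ≤ CM := by
    obtain ⟨CM, hCM⟩ := (Sg_finite.image C).bddAbove
    exact ⟨CM, fun 𝒦 h𝒦 => ⟨(hC 𝒦).le, hCM (mem_image_of_mem C h𝒦)⟩⟩
  set CP : ℝ≥0∞ := ENNReal.ofReal CM ^ p with hCP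
  have hCPt : CP ≠ ∞ := ENNReal.rpow_ne_top_of_nonneg hp0 ENNReal.ofReal_ne_top
  set SP : ℝ≥0∞ := ENNReal.ofReal S1 ^ p with hSP
  have hSPt : SP ≠ ∞ := ENNReal.rpow_ne_top_of_nonneg hp0 ENNReal.ofReal_ne_top
  have hKEt : KE 3 p ≠ ∞ := KE_ne_top hp
  have hKCt : KC 3 p ≠ ∞ := KC_ne_top hp
  set tp : ℝ := 2 ^ (p - 1) with htp
  have htp0 : 0 < tp := by rw [htp]; positivity
  set e5 : ℝ := ε' / (4 * tp) with he5
  have he50 : 0 < e5 := by rw [he5]; positivity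
  set e6 : ℝ := ε' / (2 * tp * (S ^ p + 1)) with he6
  have hSp0 : 0 ≤ S ^ p := Real.rpow_nonneg hS0 p
  have he60 : 0 < e6 := by rw [he6]; positivity
  -- `θ`
  obtain ⟨θ, hθ0, hθt, hθ⟩ := exists_small (J := Fin 4)
    ![CP * (2 ^ (p - 1) * (2 ^ (p - 1) * (2 ^ p * (100 * KE 3 p)))), CP * (2 ^ (p - 1) * SP),
      ENNReal.ofReal L * (2 ^ (p - 1) * (2 ^ p * (100 * KE 3 p))), ENNReal.ofReal L]
    ![ENNReal.ofReal (ε' / 3), ENNReal.ofReal (ε' / 3), ENNReal.ofReal e5, ENNReal.ofReal e6]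
    (by
      intro j
      have h1 : (2:ℝ≥0∞) ^ p * (100 * KE 3 p) ≠ ∞ :=
        ENNReal.mul_ne_top h2p (ENNReal.mul_ne_top (by norm_num) hKEt)
      fin_cases j
      · exact ENNReal.mul_ne_top hCPt (ENNReal.mul_ne_top h2p1 (ENNReal.mul_ne_top h2p1 h1))
      · exact ENNReal.mul_ne_top hCPt (ENNReal.mul_ne_top h2p1 hSPt)
      · exact ENNReal.mul_ne_top ENNReal.ofReal_ne_top (ENNReal.mul_ne_top h2p1 h1)
      · exact ENNReal.ofReal_ne_top)
    (by
      intro j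
      fin_cases j
      · show ENNReal.ofReal _ ≠ 0
        rw [Ne, ENNReal.ofReal_eq_zero, not_le]; positivity
      · show ENNReal.ofReal _ ≠ 0
        rw [Ne, ENNReal.ofReal_eq_zero, not_le]; positivity
      · show ENNReal.ofReal _ ≠ 0
        rw [Ne, ENNReal.ofReal_eq_zero, not_le]; positivity
      · show ENNReal.ofReal _ ≠ 0
        rw [Ne, ENNReal.ofReal_eq_zero, not_le]; positivity)
  have hθa : CP * (2 ^ (p - 1) * (2 ^ (p - 1) * (2 ^ p * (100 * KE 3 p)))) * θ ≤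
      ENNReal.ofReal (ε' / 3) := hθ 0
  have hθb : CP * (2 ^ (p - 1) * SP) * θ ≤ ENNReal.ofReal (ε' / 3) := hθ 1
  have hθc : ENNReal.ofReal L * (2 ^ (p - 1) * (2 ^ p * (100 * KE 3 p))) * θ ≤
      ENNReal.ofReal e5 := hθ 2
  have hθd : ENNReal.ofReal L * θ ≤ ENNReal.ofReal e6 := hθ 3
  -- `r₁`
  set r₁ : ℝ := e₂ / (144 * L * (KTr + 1)) with hr₁
  have hr₁0 : 0 < r₁ := by rw [hr₁]; positivity
  have hr₁' : KTr * (72 * L * r₁) ≤ e₂ / 2 := by
    have e : 72 * L * r₁ = e₂ / (2 * (KTr + 1)) := by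
      rw [hr₁]; field_simp; ring
    rw [e, mul_div_assoc', div_le_div_iff₀ (by positivity) (by norm_num)]
    nlinarith
  refine ⟨θ, pos_iff_ne_zero.2 hθ0, r₁, hr₁0, ?_⟩
  intro δ κ0 R c0 La Φ al h f1 ι T V D τ Ω g W Wt k r hr o M A Zs β b R1 Sc d ct Aa lam z Mg cnt Z m0 hZ
  set w : Φ.F → ℝ≥0∞ := fun c => ENNReal.ofReal (W c) with hw
  set s' : Fin 3 → ℝ≥0∞ := fun l => ENNReal.ofReal (s l) with hs'
  -- the energies of the shift
  have hEp : ∀ l, Ed D l p (Xs w g s' l) ≤ t1 := fun l =>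
    (d.Ep l).trans ((mul_le_mul' le_rfl (d.eW l)).trans (by
      rw [← mul_assoc, mul_right_comm]; exact hεfa))
  have hE1 : ∀ l, Ed D l 1 (Xs w g s' l) ≤ ENNReal.ofReal (ε / (8 * L)) := by
    intro l
    have h1 := lint_le_rpow hp hδ10 hδ1t Ω (Xs w g s' l)
    have h3 : volume Ω ≤ vq := measure_mono d.sub
    calc Ed D l 1 (Xs w g s' l) ≤ 24 * (δ1 * vq + δ1 ^ (1 - p) * (εf * vq)) := by
          refine (d.E1 l).trans ?_
          gcongr
          refine h1.trans ?_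
          gcongr
          exact d.eW l
      _ = 24 * vq * δ1 + 24 * (δ1 ^ (1 - p) * vq) * εf := by ring
      _ ≤ ENNReal.ofReal (ε / (16 * L)) + ENNReal.ofReal (ε / (16 * L)) := add_le_add hδ1a hεfb
      _ = ENNReal.ofReal (ε / (8 * L)) := by
          rw [← ENNReal.ofReal_add (by positivity) (by positivity)]
          congr 1
          field_simp
          ring
  -- the errors
  obtain ⟨δ2, hδ20, hδ2t, hδ2⟩ := exists_small (J := Fin 4)
    ![1, 1, CP * (2 ^ (p - 1) * (2 ^ (p - 1) * (KC 3 p * 3))),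
      ENNReal.ofReal L * (2 ^ (p - 1) * (KC 3 p * 3))]
    ![t1, ENNReal.ofReal (ε / (4 * L)), ENNReal.ofReal (ε' / 3), ENNReal.ofReal e5]
    (by
      intro j
      have h1 : KC 3 p * 3 ≠ ∞ := ENNReal.mul_ne_top hKCt (by norm_num)
      fin_cases j
      · exact ENNReal.one_ne_top
      · exact ENNReal.one_ne_top
      · exact ENNReal.mul_ne_top hCPt (ENNReal.mul_ne_top h2p1 (ENNReal.mul_ne_top h2p1 h1))
      · exact ENNReal.mul_ne_top ENNReal.ofReal_ne_top (ENNReal.mul_ne_top h2p1 h1))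
    (by
      intro j
      fin_cases j
      · exact ht10
      · show ENNReal.ofReal _ ≠ 0
        rw [Ne, ENNReal.ofReal_eq_zero, not_le]; positivity
      · show ENNReal.ofReal _ ≠ 0
        rw [Ne, ENNReal.ofReal_eq_zero, not_le]; positivity
      · show ENNReal.ofReal _ ≠ 0
        rw [Ne, ENNReal.ofReal_eq_zero, not_le]; positivity)
  have hδ2a : δ2 ≤ t1 := by have := hδ2 0; rwa [show (![(1:ℝ≥0∞), 1, CP * (2 ^ (p - 1) * (2 ^ (p - 1) * (KC 3 p * 3))),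
      ENNReal.ofReal L * (2 ^ (p - 1) * (KC 3 p * 3))] : Fin 4 → ℝ≥0∞) 0 = 1 from rfl, one_mul] at this
  have hδ2b : δ2 ≤ ENNReal.ofReal (ε / (4 * L)) := by
    have := hδ2 1
    rwa [show (![(1:ℝ≥0∞), 1, CP * (2 ^ (p - 1) * (2 ^ (p - 1) * (KC 3 p * 3))),
      ENNReal.ofReal L * (2 ^ (p - 1) * (KC 3 p * 3))] : Fin 4 → ℝ≥0∞) 1 = 1 from rfl, one_mul] at this
  have hδ2c : CP * (2 ^ (p - 1) * (2 ^ (p - 1) * (KC 3 p * 3))) * δ2 ≤ ENNReal.ofReal (ε' / 3) :=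
    hδ2 2
  have hδ2d : ENNReal.ofReal L * (2 ^ (p - 1) * (KC 3 p * 3)) * δ2 ≤ ENNReal.ofReal e5 := hδ2 3
  obtain ⟨err, er, herr0, her0, herr, hYp, hY1⟩ := exists_err_T T D hp hδ20
  set er' : Cel D → ℝ≥0∞ := fun σ => ENNReal.ofReal (er σ) with her'
  have hYs : ∑ l : Fin 3, Ye D l p er' ≤ 3 * δ2 := by
    refine (Finset.sum_le_sum fun l _ => hYp l).trans (le_of_eq ?_)
    rw [Finset.sum_const, Finset.card_univ, Fintype.card_fin, nsmul_eq_mul]; norm_num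
  -- the levels
  obtain ⟨κ, Lv, hlev, hcard, hEN, hNN⟩ := levels_inst d.oLa d.hom T D d.hh d.edge d.gm d.good
    d.patch (err := fun e => ENNReal.ofReal (err e)) (fun e => by
      rw [Ne, ENNReal.ofReal_eq_zero, not_le]; exact herr0 e) hκ'0 hκ'1 hκ'p (μ := κ' / 64) le_rfl
    d.W0 d.Wd d.W1 d.W2 hZ m0
  have hF : ∀ (e : Edg T) (σ : Cel D) (l : Fin 3), σ.1.J = {l} → e.1 = σ.c →
      EN (us Φ f1) κ Lv e ≤ (1 + ENNReal.ofReal κ') * ic (Hw w g l) D.a σ.1 + er' σ := by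
    intro e σ l hl he
    refine (hEN e σ l hl he).trans ?_
    rw [ENNReal.ofReal_add zero_le_one hκ'0.le, ENNReal.ofReal_one]
    gcongr
    exact ENNReal.ofReal_le_ofReal (herr e σ he)
  have hc2 : (1 + ENNReal.ofReal κ' : ℝ≥0∞) ≤ 2 := by
    calc (1 + ENNReal.ofReal κ' : ℝ≥0∞) ≤ 1 + ENNReal.ofReal 1 := by gcongr
      _ = 2 := by rw [ENNReal.ofReal_one]; norm_num
  set c : ℝ≥0∞ := 1 + ENNReal.ofReal κ' with hc
  -- weights in the bad set
  have hSx : c ^ p * Crest.Agent.R96.En4_199.S D p (Wt.indicator (GGw w g)) + KC 3 p * ∑ l : Fin 3, Ye D l p er' ≤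
      2 ^ p * (100 * KE 3 p) * θ + KC 3 p * 3 * δ2 := by
    calc _ ≤ 2 ^ p * (100 * (KE 3 p * θ)) + KC 3 p * (3 * δ2) := by
          gcongr
          exact d.ES
      _ = _ := by ring
  have hM0 : 0 < M := d.geo.M0
  have hr0 : 0 < r := d.geo.r0
  set N0 : ℝ := (Zs.card : ℝ) * M ^ 2 with hN0
  have hN00 : 0 ≤ N0 := mul_nonneg (Nat.cast_nonneg _) (sq_nonneg _)
  refine ⟨κ, Lv, ?_⟩
  exact
    { lev := hlev
      words :=
        { grid := fun c hc => absurd hc (notMem_empty c)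
          word := fun c hc => absurd hc (notMem_empty c)
          sign := fun c hc => absurd hc (notMem_empty c) }
      wlog := fun c hc => (hcard c).trans (d.Wl c hc)
      wt := by
        exact Ps_273.wt_clause (T := T) (f := f1) (w := w) (g := g) hr d.rk d.blk subset_rfl hs
          (κp := ENNReal.ofReal κ') (er := er') hF (U := fun _ _ => True) d.geo.edge
          (N0 := ε * N0) (mul_nonneg hε.le hN00) (fun j => wt_num hL hM0 d.rk d.N0 d.AZ hε.le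
            hκ'0.le hκ'1 ((mul_le_mul_of_nonneg_left (hsle _) hκ'0.le).trans hκ's) (hE1 _)
            ((hY1 _).trans hδ2b))
      sq := by
        have h4 : tp * (S ^ p * (e6 * N0) + 2 * e5 * N0) ≤ ε' * N0 := by
          have h5 : tp * (S ^ p * e6) ≤ ε' / 2 := by
            rw [he6]
            have : tp * (S ^ p * (ε' / (2 * tp * (S ^ p + 1)))) =
                (S ^ p / (S ^ p + 1)) * (ε' / 2) := by field_simp
            rw [this]
            have h6 : S ^ p / (S ^ p + 1) ≤ 1 := by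
              rw [div_le_one (by positivity)]; linarith
            nlinarith
          have h7 : tp * (2 * e5) = ε' / 2 := by rw [he5]; field_simp; norm_num
          calc _ = (tp * (S ^ p * e6)) * N0 + (tp * (2 * e5)) * N0 := by ring
            _ ≤ ε' / 2 * N0 + ε' / 2 * N0 := by
                rw [h7]
                exact add_le_add (mul_le_mul_of_nonneg_right h5 hN00) le_rfl
            _ = _ := by ring
        have h2 : ENNReal.ofReal L * (2 ^ (p - 1) * (c ^ p *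
            Crest.Agent.R96.En4_199.S D p (Wt.indicator (GGw w g)) +
            KC 3 p * ∑ l : Fin 3, Ye D l p er')) ≤ ENNReal.ofReal (2 * e5) := by
          calc _ ≤ ENNReal.ofReal L * (2 ^ (p - 1) * (2 ^ p * (100 * KE 3 p) * θ +
                KC 3 p * 3 * δ2)) := by gcongr
            _ = ENNReal.ofReal L * (2 ^ (p - 1) * (2 ^ p * (100 * KE 3 p))) * θ +
                ENNReal.ofReal L * (2 ^ (p - 1) * (KC 3 p * 3)) * δ2 := by ring
            _ ≤ ENNReal.ofReal e5 + ENNReal.ofReal e5 := add_le_add hθc hδ2d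
            _ = _ := by
                rw [← ENNReal.ofReal_add he50.le he50.le, two_mul]
        exact Ps_273.sq_clause hp d.base d.rk d.blk subset_rfl (s := s') (sm := sm) hsl (c := c)
          (er := er') (S := S) hS0 ((mul_le_mul' le_rfl (mul_le_mul' hc2 le_rfl)).trans hSM) hF hNN
          (U := fun _ _ => True)
          (fun m hm v hv _ i hi => by
            obtain ⟨x, hx⟩ := T.ne i
            have hx' := I_sub_P _ hx
            have h1 := d.geo.off m hm v hv trivial x (hi ▸ hx') i hx'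
            intro c hc
            exact h1 (mem_iUnion.2 ⟨c, hc⟩))
          (Rx := Wt) d.hw
          (fun m hm v hv _ => by
            obtain ⟨i, hi, -⟩ := d.geo.tile m hm v hv trivial
            rw [← hi]
            exact T.sub i)
          (N1 := ε * N0) (N2 := 2 * e5 * N0) (N3 := e6 * N0) (N4 := ε' * N0)
          (mul_nonneg hε.le hN00) (mul_nonneg (by linarith) hN00) (mul_nonneg he60.le hN00)
          (sq_num1 hL d.rk d.N0 d.AZ hp hc2 hEp (fun l => (hYp l).trans hδ2a) (by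
            rw [← mul_assoc (KEc p), ← mul_assoc]; exact ht1b))
          (sq_num2 hL d.rk d.N0 d.AZ hp h2)
          (sq_num3 hL hr0 D.a d.N0 d.AZ he60.le ((mul_le_mul' le_rfl d.vW).trans hθd))
          h4
      tl := by
        have hKE6 : 2 ^ (p - 1) * (KEc p * (6 * t1)) ≤ ENNReal.ofReal (min 1 (e₂ / 2) / L) := by
          refine le_trans (le_of_eq ?_) ht1a
          ring
        have hKTm : ∀ v : ℝ≥0∞, 2 ^ (p - 1) * ((KTc p sm + SP) * v + KEc p * (6 * t1)) =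
            KT * v + 2 ^ (p - 1) * (KEc p * (6 * t1)) := fun v => by rw [hKT]; ring
        refine tl_clause (h := h) (q := q) (al := al) hp hsl hS1.le d.base (B := fun i => frm D.a (τ i).1.1.k (τ i).1.1.z)
          (fun i hi => (frames_of d.base (i := i) hi).2) (𝒮 := Sg)
          (fun i hi => (frames_of d.base (i := i) hi).1) hCM hc2
          (er := er') (fun σ => ENNReal.ofReal_ne_top) hF hNN ht1t hEp
          (fun l => (hYp l).trans hδ2a) (Rb := Wt) ?_ d.tW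
          (fun i hi hm => scale_MU d.base d.rk d.blk hi hm) ?_ ?_ ?_ cnt
        · intro i hi hn x hx
          by_contra hxW
          obtain ⟨C', O, hCO, y, hy, hyP⟩ := d.hw x (T.sub i hx) hxW
          rw [mem_singleton_iff] at hy
          subst hy
          exact hn ⟨C', O, hCO, y, hx, hyP⟩
        · rw [hKTm, vol_QL hL0, hKTe, ← ENNReal.ofReal_mul hKT0]
          refine (add_le_add le_rfl hKE6).trans ?_
          rw [← ENNReal.ofReal_add (by positivity) (by positivity)]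
          refine ENNReal.ofReal_le_ofReal ?_
          have h1 : min 1 (e₂ / 2) ≤ (1:ℝ) := min_le_left _ _
          rw [mul_div_assoc', ← add_div]
          exact div_le_div_of_nonneg_right (by linarith) hL0.le
        · rw [hKTm]
          refine (add_le_add (mul_le_mul' le_rfl d.shv) hKE6).trans ?_
          rw [hKTe, ← ENNReal.ofReal_mul hKT0, ← ENNReal.ofReal_add (by positivity) (by positivity)]
          refine ENNReal.ofReal_le_ofReal ?_
          have h1 : min 1 (e₂ / 2) ≤ e₂ / 2 := min_le_right _ _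
          rw [mul_div_assoc', ← add_div]
          have e : KTr * (48 * η + 72 * L * r₁) = 48 * KTr * η + KTr * (72 * L * r₁) := by ring
          have e' : (48 * KTr + 1) * η = 48 * KTr * η + η := by ring
          refine div_le_div_of_nonneg_right ?_ hL0.le
          rw [e, e']
          linarith
        · calc _ ≤ CP * (2 ^ (p - 1) * (2 ^ (p - 1) * (2 ^ p * (100 * KE 3 p) * θ +
                KC 3 p * 3 * δ2) + SP * θ)) := by
                gcongr
                exact d.vW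
            _ = CP * (2 ^ (p - 1) * (2 ^ (p - 1) * (2 ^ p * (100 * KE 3 p)))) * θ +
                CP * (2 ^ (p - 1) * (2 ^ (p - 1) * (KC 3 p * 3))) * δ2 +
                CP * (2 ^ (p - 1) * SP) * θ := by ring
            _ ≤ ENNReal.ofReal (ε' / 3) + ENNReal.ofReal (ε' / 3) + ENNReal.ofReal (ε' / 3) :=
                add_le_add (add_le_add hθa hδ2c) hθb
            _ = ENNReal.ofReal ε' := by
                rw [← ENNReal.ofReal_add (by positivity) (by positivity),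
                  ← ENNReal.ofReal_add (by positivity) (by positivity)]
                congr 1
                ring }

end

end Crest.Agent.R096.Nsl_552
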