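import Crest.Agent.R096.Pg3_691
import Crest.Agent.R096.No4_276

/-!
# Row 96, NO0-PRE, [PREG] (helper691), part 5: the macro balls of the patched tiling

`Macro (tmesh Z F) Ex x (5/8 R) (5/4 R) Sc d 4 1` for every `Ex ⊆ ⋃ Vc`.
-/

set_option autoImplicit false
set_option linter.unusedSectionVars false
set_option linter.style.longLine false

open Set Filter Topology Metric MeasureTheory
open scoped ENNReal

namespace Crest.Agent.R096.Pg_691

open Crest.Agent.R096.Msh_715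
open Crest.Agent.R096.Msh_810 (Cu Hc)
open Crest.Agent.R096.SkC1_961 (E3 Hom3 FoamD Cfg)
open Crest.Agent.R096.Tms_582 Crest.Agent.R096.Gno_324 Crest.Agent.R096.No0_477
open Crest.Agent.R096.No_276 (Macro)
open Crest.Agent.R096.Tme_234 (norm_sub_Cu)

noncomputable section

variable {ι0 : Type} {𝒞 : Type} {Om : Set E3} {T0 : Tiling Om ι0}
  {x : 𝒞 → E3} {R : 𝒞 → ℝ} {k : 𝒞 → ℕ} {w : 𝒞 → E3} {Zc : 𝒞 → Finset (Fin 3 → ℤ)} {κ : 𝒞 → Type}
  {H : ∀ c, κ c → Finset ((E3 →L[ℝ] ℝ) × ℝ)}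

/-- the volume of a lattice cube -/
theorem vol_Cu (a : E3) (m : ℕ) (z : Fin 3 → ℤ) :
    ENNReal.ofReal (((2 : ℝ)⁻¹ ^ m) ^ 3) ≤ volume (Cu a m z) := by
  have hr : (0 : ℝ) < 1 / 2 ^ m := by positivity
  rw [Cu_eq_lcub (r := 1 / 2 ^ m) rfl, lcub_eq_cub, inv_pow, ← one_div, ← vol_ocub _ hr]
  exact measure_mono (ocub_sub _ _)

/-- a tile which meets the large zone is new (in the half ball) or a lattice cube -/
theorem tile_zone (Z : Zones T0 x R k w) (F : LocF x R k Zc H) (c : 𝒞)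
    {i : {i // i ∉ Ar T0 k w Zc} ⊕ Σ c, κ c}
    (hi : (P ((tmesh Z F).H i) ∩ closedBall (x c) (2 * R c)).Nonempty) :
    P ((tmesh Z F).H i) ⊆ ball (x c) (R c / 2) ∨
      ∃ z, P ((tmesh Z F).H i) = Cu (w c) (k c) z := by
  by_cases hie : i ∈ range (en T0 k w Zc c)
  · obtain ⟨j, rfl⟩ := hie
    left
    exact new_in Z F ⟨c, j⟩
  · right
    obtain ⟨z, -, hz⟩ := (tmesh_zone Z F c (ρ := 2 * R c) le_rfl).lat i hi hie
    exact ⟨z, by rw [hz, P_Hc_idE]⟩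

/-- the tiles of `Vc` are in the ball of radius `5/8 R` -/
theorem Vc_sub (Z : Zones T0 x R k w) (F : LocF x R k Zc H) (c : 𝒞)
    {i : {i // i ∉ Ar T0 k w Zc} ⊕ Σ c, κ c} (hi : i ∈ Vc (tmesh Z F) x R c) :
    P ((tmesh Z F).H i) ⊆ closedBall (x c) (5 / 8 * R c) := by
  obtain ⟨y, hy, hyb⟩ := hi
  have hR := Z.R0 c
  rcases tile_zone Z F c ⟨y, hy, closedBall_subset_closedBall (by linarith) hyb⟩ with h | ⟨z, hz⟩
  · intro u hu
    have := h hu
    rw [mem_ball] at this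
    rw [mem_closedBall]
    linarith
  · rw [hz] at hy ⊢
    intro u hu
    have h1 := norm_sub_Cu hu hy
    have h2 := Z.sm c
    rw [mem_closedBall_iff_norm] at hyb ⊢
    calc ‖u - x c‖ = ‖(u - y) + (y - x c)‖ := by congr 1; abel
      _ ≤ ‖u - y‖ + ‖y - x c‖ := norm_add_le _ _
      _ ≤ 5 / 8 * R c := by linarith

/-- the tiles of the ring -/
def rg (T : Tiling Om ({i // i ∉ Ar T0 k w Zc} ⊕ Σ c, κ c)) (x : 𝒞 → E3) (R : 𝒞 → ℝ) (c : 𝒞) :
    Set ({i // i ∉ Ar T0 k w Zc} ⊕ Σ c, κ c) :=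
  {i | (P (T.H i) ∩ (ball (x c) (5 / 4 * R c) \ closedBall (x c) (5 / 8 * R c))).Nonempty}

theorem rg_cube (Z : Zones T0 x R k w) (F : LocF x R k Zc H) (c : 𝒞)
    {i : {i // i ∉ Ar T0 k w Zc} ⊕ Σ c, κ c} (hi : i ∈ rg (tmesh Z F) x R c) :
    ∃ z, P ((tmesh Z F).H i) = Cu (w c) (k c) z := by
  obtain ⟨y, hy, hyb, hyn⟩ := hi
  have hR := Z.R0 c
  rcases tile_zone Z F c ⟨y, hy, (ball_subset_closedBall.trans
    (closedBall_subset_closedBall (by linarith))) hyb⟩ with h | h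
  · exact absurd ((ball_subset_closedBall.trans
      (closedBall_subset_closedBall (by linarith))) (h hy)) hyn
  · exact h

/-- the tiles of the ring of `c` are in the large zone of `c` -/
theorem rg_sub (Z : Zones T0 x R k w) (F : LocF x R k Zc H) (c : 𝒞)
    {i : {i // i ∉ Ar T0 k w Zc} ⊕ Σ c, κ c} (hi : i ∈ rg (tmesh Z F) x R c) :
    P ((tmesh Z F).H i) ⊆ closedBall (x c) (2 * R c) := by
  obtain ⟨z, hz⟩ := rg_cube Z F c hi
  obtain ⟨y, hy, hyb, -⟩ := hi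
  rw [hz] at hy ⊢
  intro u hu
  have h1 := norm_sub_Cu hu hy
  have h2 := Z.sm c
  have hR := Z.R0 c
  rw [mem_ball_iff_norm] at hyb
  rw [mem_closedBall_iff_norm]
  calc ‖u - x c‖ = ‖(u - y) + (y - x c)‖ := by congr 1; abel
    _ ≤ ‖u - y‖ + ‖y - x c‖ := norm_add_le _ _
    _ ≤ 2 * R c := by linarith

theorem rg_ne (Z : Zones T0 x R k w) (F : LocF x R k Zc H) {c c' : 𝒞}
    {i : {i // i ∉ Ar T0 k w Zc} ⊕ Σ c, κ c} (hi : i ∈ rg (tmesh Z F) x R c)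
    (hi' : i ∈ rg (tmesh Z F) x R c') : c = c' := by
  by_contra hcc
  obtain ⟨y, hy⟩ := (tmesh Z F).ne i
  have hy' := I_sub_P _ hy
  exact Set.disjoint_left.1 (Z.dis c c' hcc) (rg_sub Z F c hi hy') (rg_sub Z F c' hi' hy')

theorem rg_nex (Z : Zones T0 x R k w) (F : LocF x R k Zc H) {c c' : 𝒞}
    {i : {i // i ∉ Ar T0 k w Zc} ⊕ Σ c, κ c} (hi : i ∈ rg (tmesh Z F) x R c) :
    i ∉ Vc (tmesh Z F) x R c' := by
  intro hi'
  have h1 := Vc_sub Z F c' hi'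
  by_cases hcc : c = c'
  · subst hcc
    obtain ⟨y, hy, -, hyn⟩ := hi
    exact hyn (h1 hy)
  · obtain ⟨y, hy⟩ := (tmesh Z F).ne i
    have hy' := I_sub_P _ hy
    have hR := Z.R0 c'
    exact Set.disjoint_left.1 (Z.dis c c' hcc) (rg_sub Z F c hi hy')
      (closedBall_subset_closedBall (by linarith) (h1 hy'))

/-- **the macro balls of the patched tiling** -/
theorem macro_tmesh (Z : Zones T0 x R k w) (F : LocF x R k Zc H)
    {Ex : Set ({i // i ∉ Ar T0 k w Zc} ⊕ Σ c, κ c)}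
    (hEx : ∀ i ∈ Ex, ∃ c, i ∈ Vc (tmesh Z F) x R c) :
    ∃ (Sc : 𝒞 → Finset ({i // i ∉ Ar T0 k w Zc} ⊕ Σ c, κ c))
      (d : ({i // i ∉ Ar T0 k w Zc} ⊕ Σ c, κ c) → ℝ),
      Macro (tmesh Z F) Ex x (fun c => 5 / 8 * R c) (fun c => 5 / 4 * R c) Sc d 4 1 ∧
      ∀ c i, i ∈ Sc c ↔ i ∈ rg (tmesh Z F) x R c := by
  classical
  have hR := Z.R0
  have hfin : ∀ c, (rg (tmesh Z F) x R c).Finite := by
    intro c
    refine ((tmesh Z F).finite_tiles (isCompact_closedBall (x c) (2 * R c)) (Z.sub c)).subset ?_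
    rintro i ⟨y, hy, hyb, -⟩
    exact ⟨y, hy, (ball_subset_closedBall.trans
      (closedBall_subset_closedBall (by have := hR c; linarith))) hyb⟩
  let Sc : 𝒞 → Finset ({i // i ∉ Ar T0 k w Zc} ⊕ Σ c, κ c) := fun c => (hfin c).toFinset
  have hSc : ∀ c i, i ∈ Sc c ↔ i ∈ rg (tmesh Z F) x R c := fun c i => (hfin c).mem_toFinset
  let d : ({i // i ∉ Ar T0 k w Zc} ⊕ Σ c, κ c) → ℝ := fun i =>
    if h : ∃ c, i ∈ Sc c then (2 : ℝ)⁻¹ ^ k h.choose else 1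
  have hd : ∀ c, ∀ i ∈ Sc c, d i = (2 : ℝ)⁻¹ ^ k c := by
    intro c i hi
    have h : ∃ c, i ∈ Sc c := ⟨c, hi⟩
    simp only [d, dif_pos h]
    rw [rg_ne Z F ((hSc _ _).1 h.choose_spec) ((hSc _ _).1 hi)]
  refine ⟨Sc, d, ⟨⟨fun c => ?_, fun c => ?_, fun c => ?_, fun c c' hcc => ?_, fun y hy => ?_⟩,
    fun c => ?_, fun i hi => ?_, fun c i hi => (hSc c i).2 hi, fun c i hi hiE => ?_,
    fun c c' hcc => ?_, fun c i hi => ?_, fun c i hi y hy y' hy' => ?_, fun c i hi => ?_⟩, hSc⟩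
  · have := hR c; positivity
  · have := hR c
    show 5 / 8 * R c < 5 / 4 * R c
    linarith
  · exact (closedBall_subset_closedBall (by have := hR c; linarith)).trans (Z.sub c)
  · exact (Z.dis c c' hcc).mono (closedBall_subset_closedBall (by have := hR c; linarith))
      (closedBall_subset_closedBall (by have := hR c'; linarith))
  · obtain ⟨t, ht, hf⟩ := Z.lf y hy
    refine ⟨ball y t, ball_mem_nhds y ht, hf.subset ?_⟩
    rintro c ⟨u, hu, hut⟩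
    exact ⟨u, closedBall_subset_closedBall (by have := hR c; linarith) hu, hut⟩
  · show 2 * (5 / 4 * R c) ≤ 4 * (5 / 4 * R c - 5 / 8 * R c)
    linarith
  · obtain ⟨c, hc⟩ := hEx i hi
    exact ⟨c, Vc_sub Z F c hc⟩
  · obtain ⟨c', hc'⟩ := hEx i hiE
    exact rg_nex Z F ((hSc c i).1 hi) hc'
  · show Disjoint (Sc c) (Sc c')
    rw [Finset.disjoint_left]
    intro i hi hi'
    exact hcc (rg_ne Z F ((hSc c i).1 hi) ((hSc c' i).1 hi'))
  · rw [hd c i hi]; positivity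
  · rw [hd c i hi]
    obtain ⟨z, hz⟩ := rg_cube Z F c ((hSc c i).1 hi)
    rw [hz] at hy hy'
    exact norm_sub_Cu hy hy'
  · rw [hd c i hi, one_mul]
    obtain ⟨z, hz⟩ := rg_cube Z F c ((hSc c i).1 hi)
    rw [hz]
    exact vol_Cu _ _ _

end

end Crest.Agent.R096.Pg_691
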