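import Crest.Agent.R096.Pg2_691
import Crest.Agent.R096.Pg4_691
import Crest.Agent.R096.Pg5_691
import Crest.Agent.R096.Nsl1_552
import Crest.Agent.R096.No6_276
import Crest.Agent.R096.Ps7_273
import Crest.Agent.R096.Frm1_234

/-!
# Row 96, NO0-PRE, [PREG] (helper691), part 6: the block with the chosen slices (`Slc`), `preG_of`
-/

set_option autoImplicit false
set_option linter.unusedSectionVars false
set_option linter.style.longLine false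

open Set Filter Topology Metric MeasureTheory
open scoped ENNReal

namespace Crest.Agent.R096.Pg_691

open Crest.Agent.R096.Bsp_628 Crest.Agent.R096.Brk1_582 Crest.Agent.R096.Brk5_582
open Crest.Agent.R096.Log2_582 Crest.Agent.R096.Dic1_582 Crest.Agent.R096.Dic6_582
open Crest.Agent.R096.Npr_582
open Crest.Agent.R096.Msh_715
open Crest.Agent.R096.Msh_810 (Cu Hc Dat)
open Crest.Agent.R096.SkC1_961 (E3 Hom3 FoamD Cfg)
open Crest.Agent.R096.Tms_582 Crest.Agent.R096.Gno_324 Crest.Agent.R096.No0_477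
open Crest.Agent.R096.No_276 (QL Macro PreG Vti MJ)
open Crest.Agent.R096.Nend_458 (EndB)
open Crest.Agent.R096.Mbf_337
open Crest.Agent.R096.Frm_234 (Sg)
open Crest.Agent.R096.Tme_234 (ExactOn)

noncomputable section

/-! ### the block and the slices -/

/-- **the block (all slices `A`) and the chosen slices `Zs`** -/
structure Slc (L : ℕ) (η r : ℝ) (a : E3) (o : Fin 2 → ℤ) (M : ℕ) (A Zs : Finset ℤ) {𝒞 : Type*}
    (x : 𝒞 → E3) (R : 𝒞 → ℝ) : Prop where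
  r0 : 0 < r
  rη : 4 * r ≤ η
  rL : 4 * L * r ≤ 1
  M0 : 0 < M
  lo : ∀ j : Fin 2, a j.castSucc + r * o j ≤ -(1 - η) ∧ -(1 - η) - r < a j.castSucc + r * o j ∧
    -1 < a j.castSucc + r * o j
  hi : ∀ j : Fin 2, 1 - η ≤ a j.castSucc + r * (o j + M) ∧
    a j.castSucc + r * (o j + M) ≤ 1 - η + 2 * r ∧ a j.castSucc + r * (o j + M) < 1
  mA : ∀ m, m ∈ A ↔ |(L : ℝ) * (a 2 + r * m)| ≤ 1 / 2
  sub : Zs ⊆ A
  zne : Zs.Nonempty
  half : (A.card : ℝ) ≤ 2 * Zs.card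
  cub : ∀ m ∈ A, ∀ v : Fin 2 → ℕ, (∀ j, v j < M) → cub (vx a r o m v) r ⊆ KB L η
  NA1 : 2 / L ≤ ((A.card : ℝ) * M ^ 2) * r ^ 3
  NA2 : ((A.card : ℝ) * M ^ 2) * r ^ 3 ≤ 5 / L
  far : ∀ m ∈ Zs, ∀ c, (closedBall (x c) (2 * R c) ∩ KB L η).Nonempty →
    2 * R c + r < |a 2 + r * m - x c 2|

section slc

variable {L : ℕ} {η r : ℝ} {a : E3} {o : Fin 2 → ℤ} {M : ℕ} {A Zs : Finset ℤ} {𝒞 : Type*}
  {x : 𝒞 → E3} {R : 𝒞 → ℝ}

theorem Slc.zs (B : Slc L η r a o M A Zs x R) : ∀ m ∈ Zs, |(L : ℝ) * (a 2 + r * m)| ≤ 1 / 2 :=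
  fun m hm => (B.mA m).1 (B.sub hm)

/-- the number of the squares of the chosen slices -/
theorem Slc.N (B : Slc L η r a o M A Zs x R) : 1 / L ≤ ((Zs.card : ℝ) * M ^ 2) * r ^ 3 := by
  have h1 := B.NA1
  have h2 : ((A.card : ℝ) * M ^ 2) * r ^ 3 ≤ 2 * (((Zs.card : ℝ) * M ^ 2) * r ^ 3) := by
    have h3 : (0 : ℝ) ≤ (M : ℝ) ^ 2 * r ^ 3 := by have := B.r0; positivity
    nlinarith [mul_le_mul_of_nonneg_right B.half h3]
  have h3 : (2 : ℝ) / L = 2 * (1 / L) := by ring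
  rw [h3] at h1
  linarith

/-- the cubes of the chosen slices miss the large zones -/
theorem Slc.dis (B : Slc L η r a o M A Zs x R) : ∀ m ∈ Zs, ∀ v : Fin 2 → ℕ, (∀ j, v j < M) →
    ∀ c, Disjoint (Crest.Agent.R096.No0_477.cub (vx a r o m v) r) (closedBall (x c) (2 * R c)) := by
  intro m hm v hv c
  rw [Set.disjoint_left]
  intro y hy hyc
  have h := B.far m hm c ⟨y, hyc, B.cub m (B.sub hm) v hv hy⟩
  exact Set.disjoint_left.1 (Crest.Agent.R096.Nsl_552.cub_disj_ball o v h) hy hyc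

/-- the block in 273's form -/
theorem Slc.blk (B : Slc L η r a o M A Zs x R) {D : Dat 3} (ha : D.a = a) {kb : ℕ}
    (hr : r = ((2 : ℝ) ^ kb)⁻¹) (hD : ExactOn D (KB L η) kb) :
    Crest.Agent.R096.Ps_273.Blk D kb o M A := by
  intro m hm v hv y hy
  rw [ha, ← hr] at hy
  have hy' := B.cub m hm v hv hy
  refine ⟨?_, hD.K_eq hy'⟩
  have h1 := (hD y hy').2 y (by rw [dist_self]; positivity)
  have h2 := D.C_pos
  have h3 : (0 : ℝ) < D.C / 2 ^ kb := by positivity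
  linarith

/-- **existence of the block and of the slices for every shift and every small `r`** -/
theorem exists_slc (hL : 1 ≤ L) (hη : η ≤ 1 / 8) (hη0 : 0 < η) (hR : ∀ c, 0 < R c)
    (hfin : {c | (closedBall (x c) (2 * R c) ∩ KB L η).Nonempty}.Finite)
    (hsum : ∀ S : Finset 𝒞, ∑ c ∈ S, 2 * R c ≤ 1 / (64 * L)) :
    ∃ r₁ > 0, ∀ r, 0 < r → r ≤ r₁ → ∀ a : E3,
      ∃ (o : Fin 2 → ℤ) (M : ℕ) (A Zs : Finset ℤ), Slc L η r a o M A Zs x R := by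
  have hL0 : (0 : ℝ) < L := by exact_mod_cast hL
  set S := hfin.toFinset with hS
  set c0 : ℝ := 1 / (64 * L * (S.card + 1)) with hc0
  have hc0p : 0 < c0 := by positivity
  refine ⟨min (min (η / 4) (1 / (4 * L))) c0, by positivity, fun r hr hrr a => ?_⟩
  have h1 : r ≤ η / 4 := hrr.trans ((min_le_left _ _).trans (min_le_left _ _))
  have h2 : r ≤ 1 / (4 * L) := hrr.trans ((min_le_left _ _).trans (min_le_right _ _))
  have h3 : r ≤ c0 := hrr.trans (min_le_right _ _)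
  have hrη : 4 * r ≤ η := by linarith
  have hrL : 4 * L * r ≤ 1 := by
    rw [le_div_iff₀ (by positivity)] at h2
    linarith
  obtain ⟨o, M, A, hM, lo, hi, hAne, hA, hcub, hN1, hN2⟩ := exists_block hL hη hr hrη hrL a
  have hScard : (S.card : ℝ) * r ≤ 1 / (64 * L) := by
    have e : (S.card : ℝ) * r ≤ (S.card + 1) * c0 :=
      mul_le_mul (by linarith) h3 hr.le (by positivity)
    refine e.trans (le_of_eq ?_)
    rw [hc0]
    field_simp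
  obtain ⟨Zs, h4, h5, h6, h7, h8, -, -, -⟩ := Crest.Agent.R096.Nsl_552.exists_slices_block hL hr hrL
    hA S x (fun c => 2 * R c) (fun c _ => by have := hR c; positivity) (by
      rw [Finset.sum_add_distrib, Finset.sum_const, nsmul_eq_mul]
      have h9 := hsum S
      have e : (1 : ℝ) / (32 * L) = 1 / (64 * L) + 1 / (64 * L) := by field_simp; norm_num
      rw [e]
      linarith) (k := 0) (fun i => i.elim0) (fun i => i.elim0) (fun i => i.elim0)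
    (fun i => i.elim0)
  exact ⟨o, M, A, Zs, hr, hrη, hrL, hM, lo, hi, hA, h4, h5, h6,
    fun m hm v hv y hy => cub_sub_KB hrη hrL (hcub m hm v hv y hy).1 (hcub m hm v hv y hy).2, hN1,
    hN2, fun m hm c hc => h8 m hm c (hfin.mem_toFinset.2 hc)⟩

end slc

/-! ### PreG -/

variable {p : ℝ} {q : ℕ} {s : Fin 3 → ℝ} {e1 e2 : ℝ≥0∞} {La : Set E3} {f f1 : E3 → E3}
  {M3 h : ℝ} {al : Fin 3 → ℝ} {Φ : FoamD (dF q) (kF q) 6 (cN q) La} {z0 : Φ.F → E3}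
  {X HH : Set E3} {g : Φ.F → Fin 3 → E3 → ℝ}

theorem Vti_empty {F ι : Type*} (V : F → Set ι) : Vti (∅ : Set F) V = {i | ∃ c, i ∈ V c} := by
  ext i
  constructor
  · rintro ⟨c, -, hc⟩; exact ⟨c, hc⟩
  · rintro ⟨c, hc⟩; exact ⟨c, notMem_empty c, hc⟩

/-- **`PreG`, any tiling** (`X = ∅`, `U = True`, `Kc = cnt = 0`) -/
theorem preG_gen {L : ℕ} (hL : 1 ≤ L) (hLa : IsOpen La) (hne : Laᶜ.Nonempty)
    (H : Front p q s e1 e2 (QL L) La f M3 h al Φ z0 f1 X HH g)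
    {x : Φ.F → E3} {R : Φ.F → ℝ} (hRad : Rad Φ (QL L) f1 z0 x R)
    {ε ε' C0 κ1 κ2 η t : ℝ} {Cf : ℝ≥0∞} (hε : 0 < ε) (hC0 : 0 ≤ C0)
    (hsz : C0 * (2 * q * h) ≤ ε) (hh : 8 * h ≤ ε) (hev : (e1 + e2) * 8 ≤ ENNReal.ofReal ε)
    {ι : Type} {T : Tiling (QL L) ι} {J0 J V : Φ.F → Set ι} {ct : Φ.F → ι}
    {A : Φ.F → E3 ≃ᵃ[ℝ] E3} {lam : Φ.F → ℝ} {z : Φ.F → E3} {θ : Φ.F → E3 → E3} {φ : Φ.F → E3 → ℝ}
    (hcores : Cores Φ T f1 κ1 κ2 ∅ J0 J V ct A lam z θ φ) (hfine : Fine Φ T f1 κ1 J0)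
    {𝒮 : Set (Set (Set E3))} {𝒬 : Set (Set E3)} (hshape : 𝒬 ∈ 𝒮)
    {r : ℝ} (hr : r ≠ 0) {a : E3} {o : Fin 2 → ℤ} {M : ℕ} {Ab Zs : Finset ℤ}
    (B : Slc L η r a o M Ab Zs x R)
    (hgeo : NOGeo T (⋃ c, V c) 𝒬 L η r hr a o M Zs (fun _ _ => True))
    {R0 R1 : Φ.F → ℝ} {Sc : Φ.F → Finset ι} {d : ι → ℝ}
    (hmac : Macro T {i | ∃ c, i ∈ V c} x R0 R1 Sc d t Cf) (hR1 : ∀ c, R1 c ≤ 2 * R c)
    {kb : ℕ} (hrk : r = 1 / 2 ^ kb) {Se : Fin 2 → E3 → ℝ≥0∞}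
    (hS : ∀ j, EndB (QL L) f s j r (Se j) a) {m δ' : ℝ≥0∞}
    (hSa : ∀ j, Se j a ≤ m * (((2 : ℝ≥0∞) ^ kb) ^ 2 * (δ' * volume (QL (L : ℝ)))))
    (hδ : 16 * (m * δ') ≤ ENNReal.ofReal (ε / 2)) :
    PreG p s L η ε ε' C0 κ1 κ2 𝒮 t Cf f f1 q al h Φ T ∅ J0 J V ct A lam z θ φ 𝒬 r hr a o M Zs
      (fun _ _ => True) x R0 R1 Sc d (fun _ => 0) (fun _ => 0) := by
  have hL0 : (0 : ℝ) < L := by exact_mod_cast hL
  have hr0 := B.r0
  have hZ : (0 : ℝ) ≤ (Zs.card : ℝ) * M ^ 2 := by positivity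
  have hnoU : ∀ P : Prop, ¬ (P ∧ ¬ True) := fun P hP => hP.2 trivial
  refine
    { hom := H.homeo
      nb := nb_of_front hLa hne H
      star := star_of_front H
      rho := rho_of_front H
      size := size_of_front H hC0 hsz
      q1 := H.q1
      h0 := H.h0
      cores := hcores
      fine := hfine
      shape := hshape
      geo := hgeo
      nU := ?_
      gvol := ?_
      ends := ?_
      mac := by rw [Vti_empty]; exact hmac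
      osc := fun c y hy y' hy' => hRad.osc c y (closedBall_subset_closedBall (hR1 c) hy) y'
        (closedBall_subset_closedBall (hR1 c) hy')
      av := ?_
      kc0 := fun _ => le_rfl
      kc := fun c hc => absurd hc (notMem_empty c)
      kcs := ?_
      cnt0 := fun _ => le_rfl
      cn := ?_
      jV := ?_
      jc := ?_ }
  · have e : {k : ℤ × (Fin 2 → ℕ) | k ∈ Fc M Zs ∧ ¬ True} = ∅ := by
      ext k; simp
    rw [e, Set.ncard_empty, Nat.cast_zero]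
    positivity
  · refine gvol_of_front H ?_
    rw [volume_QL hL]
    have h8 : ENNReal.ofReal (8 / L) ≤ 8 * ENNReal.ofReal (((Zs.card : ℝ) * M ^ 2) * r ^ 3) := by
      have h1 := B.N
      have h2 : (8 : ℝ) / L ≤ 8 * (((Zs.card : ℝ) * M ^ 2) * r ^ 3) := by
        have : (8 : ℝ) / L = 8 * (1 / L) := by ring
        rw [this]; linarith
      refine (ENNReal.ofReal_le_ofReal h2).trans (le_of_eq ?_)
      rw [ENNReal.ofReal_mul (by norm_num)]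
      norm_num
    calc (e1 + e2) * ENNReal.ofReal (8 / L)
        ≤ (e1 + e2) * (8 * ENNReal.ofReal (((Zs.card : ℝ) * M ^ 2) * r ^ 3)) := by gcongr
      _ = ((e1 + e2) * 8) * ENNReal.ofReal (((Zs.card : ℝ) * M ^ 2) * r ^ 3) := by ring
      _ ≤ ENNReal.ofReal ε * ENNReal.ofReal (((Zs.card : ℝ) * M ^ 2) * r ^ 3) := by gcongr
      _ = ENNReal.ofReal (ε * ((Zs.card : ℝ) * M ^ 2) * r ^ 3) := by
          rw [← ENNReal.ofReal_mul hε.le]; congr 1; ring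
  · exact ends_final hL hrk B.M0 (fun j => (B.lo j).2.2) (fun j => (B.hi j).2.2) B.zs B.N hS hSa hδ
      hε H.near hh
  · exact av_of (by linarith [B.rη]) hr0.le B.zs hR1 B.far
  · have : IsEmpty {i // (∃ c, i ∈ V c) ∧ i ∉ Vti (∅ : Set Φ.F) V} := by
      refine ⟨fun i => ?_⟩
      obtain ⟨c, hc⟩ := i.2.1
      exact i.2.2 ⟨c, notMem_empty c, hc⟩
    rw [tsum_empty]
    exact bot_le
  · intro i
    have e : {k : ℤ × (Fin 2 → ℕ) | k ∈ Fc M Zs ∧ ¬ True ∧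
        (P (T.H i) ∩ Crest.Agent.R096.SkN1_477.usq (fr (vx a r o k.1 k.2) r hr)).Nonempty} = ∅ := by
      ext k; simp
    rw [e, Set.ncard_empty]
    simp
  · rintro i - ⟨k, -, hk, -⟩
    exact hk trivial
  · have : IsEmpty {i // ((∃ c, i ∈ V c) ∧ i ∉ Vti (∅ : Set Φ.F) V) ∧
        MJ T r hr a o M Zs (fun _ _ => True) i} := by
      refine ⟨fun i => ?_⟩
      obtain ⟨c, hc⟩ := i.2.1.1
      exact i.2.1.2 ⟨c, notMem_empty c, hc⟩
    rw [tsum_empty]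
    exact bot_le

/-- **`PreG` for the patched mesh `tmesh Z F` (582 / 234)** -/
theorem preG_of {L : ℕ} (hL : 1 ≤ L) (hLa : IsOpen La) (hne : Laᶜ.Nonempty)
    (H : Front p q s e1 e2 (QL L) La f M3 h al Φ z0 f1 X HH g)
    {x : Φ.F → E3} {R : Φ.F → ℝ} (hRad : Rad Φ (QL L) f1 z0 x R)
    {ε ε' C0 κ1 κ2 η : ℝ} (hε : 0 < ε) (hC0 : 0 ≤ C0)
    (hsz : C0 * (2 * q * h) ≤ ε) (hh : 8 * h ≤ ε) (hev : (e1 + e2) * 8 ≤ ENNReal.ofReal ε)
    {ι0 : Type} {T0 : Tiling (QL L) ι0} {k : Φ.F → ℕ} {w : Φ.F → E3}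
    {Zc : Φ.F → Finset (Fin 3 → ℤ)} {κ : Φ.F → Type} {Hf : ∀ c, κ c → Finset ((E3 →L[ℝ] ℝ) × ℝ)}
    (Z : Zones T0 x R k w) (F : LocF x R k Zc Hf)
    {J0 J : Φ.F → Set ({i // i ∉ Ar T0 k w Zc} ⊕ Σ c, κ c)}
    {ct : Φ.F → {i // i ∉ Ar T0 k w Zc} ⊕ Σ c, κ c}
    {A : Φ.F → E3 ≃ᵃ[ℝ] E3} {lam : Φ.F → ℝ} {z : Φ.F → E3} {θ : Φ.F → E3 → E3} {φ : Φ.F → E3 → ℝ}
    (hcores : Cores Φ (tmesh Z F) f1 κ1 κ2 ∅ J0 J (Vc (tmesh Z F) x R) ct A lam z θ φ)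
    (hfine : Fine Φ (tmesh Z F) f1 κ1 J0)
    {r : ℝ} (hr : r ≠ 0) {a : E3} {o : Fin 2 → ℤ} {M : ℕ} {Ab Zs : Finset ℤ}
    (B : Slc L η r a o M Ab Zs x R) {kb : ℕ} (hrk : r = 1 / 2 ^ kb)
    (hbase : ∀ τ, (P (T0.H τ) ∩ KB L η).Nonempty → ∃ z, T0.H τ = Hc idE a kb z)
    {Se : Fin 2 → E3 → ℝ≥0∞} (hS : ∀ j, EndB (QL L) f s j r (Se j) a) {m δ' : ℝ≥0∞}
    (hSa : ∀ j, Se j a ≤ m * (((2 : ℝ≥0∞) ^ kb) ^ 2 * (δ' * volume (QL (L : ℝ)))))
    (hδ : 16 * (m * δ') ≤ ENNReal.ofReal (ε / 2)) :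
    ∃ (Sc : Φ.F → Finset ({i // i ∉ Ar T0 k w Zc} ⊕ Σ c, κ c))
      (d : ({i // i ∉ Ar T0 k w Zc} ⊕ Σ c, κ c) → ℝ),
      (∀ c i, i ∈ Sc c ↔ i ∈ rg (tmesh Z F) x R c) ∧
      PreG p s L η ε ε' C0 κ1 κ2 Sg 4 1 f f1 q al h Φ (tmesh Z F) ∅ J0 J (Vc (tmesh Z F) x R) ct A
        lam z θ φ 𝒬0 r hr a o M Zs (fun _ _ => True) x (fun c => 5 / 8 * R c)
        (fun c => 5 / 4 * R c) Sc d (fun _ => 0) (fun _ => 0) := by
  obtain ⟨Sc, d, hM, hSc⟩ := macro_tmesh Z F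
    (Ex := {i | ∃ c, i ∈ Vc (tmesh Z F) x R c}) (fun i hi => hi)
  refine ⟨Sc, d, hSc, preG_gen hL hLa hne H hRad hε hC0 hsz hh hev hcores hfine
    Crest.Agent.R096.Frm_234.Q0_mem hr B ?_ hM (fun c => by have := hRad.r0 c; linarith) hrk hS hSa
      hδ⟩
  exact geo_tmesh Z F B.r0 hr hrk B.M0 (KB_sub (by linarith [B.rη, B.r0])) hbase
    (fun j => ⟨(B.lo j).1, (B.lo j).2.2⟩) (fun j => ⟨(B.hi j).1, (B.hi j).2.2⟩) B.zne B.zs
    (fun m hm => B.cub m (B.sub hm)) fun m hm v hv c => (B.dis m hm v hv c).mono_right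
      (closedBall_subset_closedBall (by have := hRad.r0 c; linarith))

end

end Crest.Agent.R096.Pg_691
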