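import Crest.Agent.R096.Frm1_234
import Crest.Agent.R096.Tms2_582
import Crest.Agent.R096.Tl4_4
import Crest.Agent.R096.Aclt2_608
import Crest.Agent.R096.Aclt3_608
import Crest.Agent.R096.Aclt4_608
import Crest.Agent.R096.Eaa1_748

/-!
Row 96 (S0127), helper234.  TMESH-ALL: the mesh with tiny cores for every brick, `p < 3`.

* `exists_base_sh` : the base mesh as `baseT (D.sh a)`, one `D` for all shifts `a`;
* `balls_dis`, `balls_lf` : disjointness and local finiteness of the balls from `f (ball) ⊆ open brick`;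
* **`exists_tm`** : for all `kb ≥ kb0` there are `k Zc H D` (independent of the shift) such that for almost
  every shift `a` the tiling `tmesh` has the clauses `Cores` (`X = ∅`) and `Fine`;
* `sh_tmesh` : all inequalities of `tmesh` are translates by `a` of members of a countable set.
-/

set_option autoImplicit false
set_option linter.style.longLine false
set_option linter.unusedSectionVars false

open MeasureTheory Set Filter Topology Metric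
open scoped ENNReal

namespace Crest.Agent.R096.Tme_234

open Crest.Agent.R096.Bsp_628 Crest.Agent.R096.Brk1_582
open Crest.Agent.R096.Msh_715
open Crest.Agent.R096.Msh_810 (Cu Hc hc ps mem_Cu P_Hc Dat Top Cel tiling cf)
open Crest.Agent.R096.SkC1_961 (E3 Hom3 FoamD Cfg)
open Crest.Agent.R096.Mbf_337 Crest.Agent.R096.Tms_582 Crest.Agent.R096.Fns_360
open Crest.Agent.R096.Aclt_608 (Sh Ineq Fz countable_Ineq countable_Fz zl ae_av ae_regV Av)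
open Crest.Agent.R096.Er_594 (SH3)
open Crest.Agent.R096.Frm_234 (frm Sg frame_base)

noncomputable section

variable {δ κ0 R0 c0 : ℝ} {La Om : Set E3}

/-! ### the shift -/

theorem dat_eq {D D' : Dat 3} (h1 : D'.ρ = D.ρ) (h2 : D'.C = D.C) : D' = D.sh D'.a := by
  obtain ⟨ρ, C, a, _, _, _, _⟩ := D
  obtain ⟨ρ', C', a', _, _, _, _⟩ := D'
  simp only at h1 h2
  subst h1 h2
  rfl

theorem sh_Om {D : Dat 3} {a : E3} (h : D.Om = Om) : (D.sh a).Om = Om := h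

theorem ExactOn.sh {D : Dat 3} {S : Set E3} {k : ℕ} (h : ExactOn D S k) (a : E3) :
    ExactOn (D.sh a) S k := h

/-- **T3-ρ, one size function for all shifts** -/
theorem exists_base_sh (Φ : FoamD δ κ0 R0 c0 La) (hOm : IsOpen Om) (hLa : IsOpen La) (hδ : 0 < δ)
    (hR0 : 0 < R0) {f : E3 → E3} (hf : Hom3 f Om La) {κ1 : ℝ} (hκ1 : 0 < κ1) (x : Φ.F → E3)
    (R : Φ.F → ℝ) (hR : ∀ c, 0 < R c) (hsub : ∀ c, closedBall (x c) (2 * R c) ⊆ Om)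
    (hdis : ∀ c c', c ≠ c' → Disjoint (closedBall (x c) (2 * R c)) (closedBall (x c') (2 * R c')))
    (hlf : ∀ y ∈ Om, ∃ r > 0, {c | (closedBall (x c) (2 * R c) ∩ ball y r).Nonempty}.Finite)
    (hhole : ∀ p ∈ Om, ∀ c, f p ∈ (Φ.B c).S → p ∈ ball (x c) (R c / 2)) (k0 : Φ.F → ℕ) {C : ℝ}
    (hC : 1 < C) (ρ0 : E3 → ℝ) (hρ0 : ∀ y z, ρ0 y ≤ ρ0 z + dist y z) (hρ0n : ∀ y, 0 ≤ ρ0 y)
    (hρ0p : ∀ y ∈ Om, 0 < ρ0 y) {Kb : Set E3} (hKb : IsCompact Kb) (hKbO : Kb ⊆ Om) :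
    ∃ kb0 : ℕ, ∀ kb, kb0 ≤ kb → ∃ k : Φ.F → ℕ, (∀ c, k0 c ≤ k c) ∧ (∀ c, kb ≤ k c) ∧
      (∀ c, (closedBall (x c) (2 * R c) ∩ Kb).Nonempty → k c = kb) ∧
      ∃ (D : Dat 3) (hD : D.Om = Om), D.C = C ∧ (∀ y, D.ρ y ≤ ρ0 y) ∧ (∀ y, D.ρ y ≤ C / 2 ^ kb) ∧
        (∀ c, ExactOn D (closedBall (x c) (2 * R c)) (k c)) ∧ ExactOn D Kb kb ∧
        ∀ a : E3, Zones (baseT (D.sh a) hD) x R k (fun c => wmod a (k c)) ∧
          (∀ τ, (P ((baseT (D.sh a) hD).H τ) ∩ Kb).Nonempty →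
            ∃ z, (baseT (D.sh a) hD).H τ = Hc idE a kb z) ∧
          ∀ τ, (∀ c, Disjoint (P ((baseT (D.sh a) hD).H τ)) (closedBall (x c) (R c / 2))) →
            FineAt Φ (baseT (D.sh a) hD) f κ1 τ := by
  obtain ⟨kb0, H⟩ := exists_base Φ hOm hLa hδ hR0 hf hκ1 x R hR hsub hdis hlf hhole k0 hC ρ0 hρ0
    hρ0n hρ0p hKb hKbO
  refine ⟨kb0, fun kb hkb => ?_⟩
  obtain ⟨k, hk0, hkk, hk16, hkJ, ρ, hρ1, hρ2, H⟩ := H kb hkb
  obtain ⟨D, hD, d1, d2, d3, d4, d5, -, -, -⟩ := H 0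
  refine ⟨k, hk0, hkk, hkJ, D, hD, d2, fun y => by rw [d1]; exact hρ1 y,
    fun y => by rw [d1]; exact hρ2 y, d4, d5, fun a => ?_⟩
  obtain ⟨D', hD', e1, e2, e3, e4, e5, e6, e7, e8⟩ := H a
  have he : D' = D.sh a := by
    have := dat_eq (D := D) (D' := D') (by rw [e1, d1]) (by rw [e2, d2])
    rw [this, e3]
  subst he
  refine ⟨⟨hR, hsub, hdis, hlf, hk16, fun c i => ⟨wmod_nonneg _ _ _, (wmod_lt _ _ _).le⟩, e6⟩,
    e7, e8⟩

/-! ### the balls -/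

/-- the balls mapped into different open bricks are disjoint -/
theorem balls_dis (Φ : FoamD δ κ0 R0 c0 La) {f : E3 → E3} {x : Φ.F → E3} {ρ : Φ.F → ℝ}
    (hin : ∀ c, ∀ y ∈ closedBall (x c) (ρ c), ∀ k, c.1.lo k < f y k ∧ f y k < c.1.hi k) :
    ∀ c c', c ≠ c' → Disjoint (closedBall (x c) (ρ c)) (closedBall (x c') (ρ c')) := by
  intro c c' hne
  rw [Set.disjoint_left]
  intro y hy hy'
  exact Eaa_748.brick_disj Φ.bf hne (hin c y hy) (hin c' y hy')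

/-- .. and locally finite -/
theorem balls_lf (Φ : FoamD δ κ0 R0 c0 La) (hO : IsOpen Om) {f : E3 → E3} (hf : Hom3 f Om La)
    {x : Φ.F → E3} {ρ : Φ.F → ℝ}
    (hin : ∀ c, ∀ y ∈ closedBall (x c) (ρ c), ∀ k, c.1.lo k < f y k ∧ f y k < c.1.hi k) :
    ∀ y ∈ Om, ∃ r > 0, {c | (closedBall (x c) (ρ c) ∩ ball y r).Nonempty}.Finite := by
  obtain ⟨fi, hfm, hfim, hl, hri, hfc, hfic⟩ := hf
  intro y hy
  obtain ⟨r, hr, hfin⟩ := Φ.bf.lf (f y) (hfm hy)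
  have hpre : f ⁻¹' (ball (f y) r) ∈ 𝓝 y :=
    (hfc.continuousAt (hO.mem_nhds hy)).preimage_mem_nhds (ball_mem_nhds _ hr)
  obtain ⟨s, hs, hsub⟩ := Metric.mem_nhds_iff.1 hpre
  refine ⟨s, hs, Set.Finite.of_finite_image (f := Subtype.val) (hfin.subset ?_)
    Subtype.val_injective.injOn⟩
  rintro _ ⟨c, ⟨z, hz, hzU⟩, rfl⟩
  refine ⟨c.2, f z, ?_, hsub hzU⟩
  rw [Bx.mem_set]
  intro k
  have h := hin c z hz k
  exact ⟨h.1.le, h.2.le⟩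

/-! ### the inequalities of the patched tiling -/

/-- **all inequalities are translates by `a` of members of a countable set** -/
theorem sh_tmesh {D : Dat 3} {hD : D.Om = Om} {𝒞 : Type} {x : 𝒞 → E3} {R : 𝒞 → ℝ} {k : 𝒞 → ℕ}
    {Zc : 𝒞 → Finset (Fin 3 → ℤ)} {κ : 𝒞 → Type} {H : ∀ c, κ c → Finset ((E3 →L[ℝ] ℝ) × ℝ)} {a : E3}
    (Z : Zones (baseT (D.sh a) hD) x R k (fun c => wmod a (k c))) (F : LocF x R k Zc H) :
    Sh (Ineq (Fz k H)) a (tmesh Z F) univ := by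
  refine Sh.of_zones (w := fun c => wmod a (k c)) ?_
  rintro (i | ⟨c, j⟩) -
  · exact Or.inl ⟨i.1.1.1.k, i.1.1.1.z, rfl⟩
  · refine Or.inr ⟨c, ⟨fun i => -flr a (k c) i, ?_⟩, Or.inr ⟨j, rfl⟩⟩
    funext i
    unfold wmod
    simp only [Pi.sub_apply, Int.cast_neg]
    ring

theorem countable_sh {𝒞 : Type} [Countable 𝒞] {x : 𝒞 → E3} {R : 𝒞 → ℝ} {k : 𝒞 → ℕ}
    {Zc : 𝒞 → Finset (Fin 3 → ℤ)} {κ : 𝒞 → Type} {H : ∀ c, κ c → Finset ((E3 →L[ℝ] ℝ) × ℝ)}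
    (F : LocF x R k Zc H) : (Ineq (Fz k H)).Countable := by
  have : ∀ c, Countable (κ c) := fun c => by
    have := (F.rep c).fin
    infer_instance
  exact countable_Ineq (countable_Fz k H)

/-- regular on the 1-cells near the cores and the centres in open tiles, for a.e. shift -/
theorem ae_tmesh {p : ℝ} (hOm : IsOpen Om) {f : E3 → E3} {Df : E3 → E3 →L[ℝ] E3}
    (hS : SH3 p Om La f Df) {D : Dat 3} {hD : D.Om = Om} {𝒞 : Type} [Countable 𝒞] {x : 𝒞 → E3}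
    {R : 𝒞 → ℝ} {k : 𝒞 → ℕ} {Zc : 𝒞 → Finset (Fin 3 → ℤ)} {κ : 𝒞 → Type}
    {H : ∀ c, κ c → Finset ((E3 →L[ℝ] ℝ) × ℝ)} (F : LocF x R k Zc H) :
    ∀ᵐ a : E3, ∀ Z : Zones (baseT (D.sh a) hD) x R k (fun c => wmod a (k c)),
      (∀ V, RegV (tmesh Z F) f V) ∧ (∀ c, ∃ i, x c ∈ I ((tmesh Z F).H i)) ∧
        ∀ c, (tmesh Z F).dim (x c) = 3 := by
  have hc := countable_sh F
  filter_upwards [ae_regV hc hOm hS, ae_av (μ := volume) hc x] with a h1 h2 Z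
  have hsh := sh_tmesh Z F
  have hx : ∀ c, x c ∈ Om := fun c =>
    Z.sub c (mem_closedBall_self (by have := Z.R0 c; linarith))
  refine ⟨fun V => h1 Om _ _ V (Subset.refl _) (hsh.mono (subset_univ _)), fun c =>
    (h2 c).exists_I (hsh.mono (subset_univ _)) (hx c), fun c => ?_⟩
  rw [(h2 c).dim (hsh.mono (subset_univ _))]
  simp

/-! ### the theorem -/

/-- **TMESH**: cores and fineness for almost every shift -/
theorem exists_tm {p : ℝ} (hp : 1 ≤ p) (Φ : FoamD δ κ0 R0 c0 La) (hOm : IsOpen Om) (hLa : IsOpen La)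
    (hδ : 0 < δ) (hR0 : 0 < R0) {f : E3 → E3} {Df : E3 → E3 →L[ℝ] E3} (hS : SH3 p Om La f Df)
    {κ1 : ℝ} (hκ1 : 0 < κ1) (κ2 : ℝ) (hpt : ∀ c, (Φ.B c).lo = (Φ.B c).hi) (x : Φ.F → E3)
    (hfx : ∀ c, f (x c) = (Φ.B c).lo)
    (R : Φ.F → ℝ) (hR : ∀ c, 0 < R c) (hsub : ∀ c, closedBall (x c) (2 * R c) ⊆ Om)
    (hin : ∀ c, ∀ y ∈ closedBall (x c) (2 * R c), ∀ k, c.1.lo k < f y k ∧ f y k < c.1.hi k)
    {C : ℝ} (hC : 1 < C) (ρ0 : E3 → ℝ) (hρ0 : ∀ y z, ρ0 y ≤ ρ0 z + dist y z) (hρ0n : ∀ y, 0 ≤ ρ0 y)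
    (hρ0p : ∀ y ∈ Om, 0 < ρ0 y) {Kb : Set E3} (hKb : IsCompact Kb) (hKbO : Kb ⊆ Om) :
    ∃ kb0 : ℕ, ∀ kb, kb0 ≤ kb → ∃ (k : Φ.F → ℕ) (Zc : Φ.F → Finset (Fin 3 → ℤ)) (κ : Φ.F → Type)
      (H : ∀ c, κ c → Finset ((E3 →L[ℝ] ℝ) × ℝ)) (F : LocF x R k Zc H) (D : Dat 3) (hD : D.Om = Om),
      (∀ c, kb ≤ k c) ∧ (∀ c, (closedBall (x c) (2 * R c) ∩ Kb).Nonempty → k c = kb) ∧
      D.C = C ∧ (∀ y, D.ρ y ≤ ρ0 y) ∧ (∀ y, D.ρ y ≤ C / 2 ^ kb) ∧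
      (∀ c, ExactOn D (closedBall (x c) (2 * R c)) (k c)) ∧ ExactOn D Kb kb ∧
      ∀ᵐ a : E3, ∃ Z : Zones (baseT (D.sh a) hD) x R k (fun c => wmod a (k c)),
        (∀ V, RegV (tmesh Z F) f V) ∧ (∀ c, ∃ i, x c ∈ I ((tmesh Z F).H i)) ∧
        (∀ c, (tmesh Z F).dim (x c) = 3) ∧
        ∃ (J0 J : Φ.F → Set ({i // i ∉ Ar (baseT (D.sh a) hD) k (fun c => wmod a (k c)) Zc} ⊕
            Σ c, κ c)) (θ : Φ.F → E3 → E3) (φ : Φ.F → E3 → ℝ),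
          (∀ ct A lam z, Cores Φ (tmesh Z F) f κ1 κ2 ∅ J0 J (Vc (tmesh Z F) x R) ct A lam z θ φ) ∧
          Fine Φ (tmesh Z F) f κ1 J0 := by
  have hf : Hom3 f Om La := hS.homeo
  have hdis := balls_dis Φ hin
  have hlf := balls_lf Φ hOm hf hin
  have hxO : ∀ c, x c ∈ Om := fun c => hsub c (mem_closedBall_self (by have := hR c; linarith))
  have hhole : ∀ y ∈ Om, ∀ c, f y ∈ (Φ.B c).S → y ∈ ball (x c) (R c / 2) := by
    obtain ⟨fi, -, -, hl, -⟩ := id hf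
    intro y hy c hyc
    have h1 : f y = f (x c) := by
      rw [hfx c]
      funext k
      have h2 := hyc k
      have h3 := congrFun (hpt c) k
      exact le_antisymm (by rw [h3]; exact h2.2) h2.1
    have h2 : y = x c := by
      rw [← hl y hy, h1, hl _ (hxO c)]
    rw [h2]
    exact mem_ball_self (by have := hR c; linarith)
  have hle : ∀ c, closedBall (x c) (R c) ⊆ closedBall (x c) (2 * R c) := fun c =>
    closedBall_subset_closedBall (by linarith [hR c])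
  obtain ⟨k0, H0⟩ := cores_fine Φ f κ2 x R hR (fun c c' h => (hdis c c' h).mono (hle c) (hle c'))
    (κ1 := κ1) fun c => Tl_4.tiny_loc hp hOm hLa hS Φ (hpt c) (hfx c) (hR c) ((hle c).trans (hsub c))
      (fun y hy => hin c y (hle c hy)) hκ1
  obtain ⟨kb0, H1⟩ := exists_base_sh Φ hOm hLa hδ hR0 hf hκ1 x R hR hsub hdis hlf hhole k0 hC ρ0 hρ0
    hρ0n hρ0p hKb hKbO
  refine ⟨kb0, fun kb hkb => ?_⟩
  obtain ⟨k, hk0, hkk, hkJ, D, hD, d1, d2, d3, d4, d5, H1⟩ := H1 kb hkb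
  obtain ⟨Zc, κ, H, hL, hZ, H0⟩ := H0 k hk0
  have F : LocF x R k Zc H := ⟨hL, hZ⟩
  refine ⟨k, Zc, κ, H, F, D, hD, hkk, hkJ, d1, d2, d3, d4, d5, ?_⟩
  have : Countable Φ.F := Crest.Agent.R096.Ls_222.countable_F Φ
  filter_upwards [ae_tmesh hOm hS (D := D) (hD := hD) F] with a ha
  obtain ⟨Z, -, hfine⟩ := H1 a
  obtain ⟨h1, h2, h3⟩ := ha Z
  refine ⟨Z, h1, h2, h3, ?_⟩
  have hfa : ∀ i, (∀ c, i ∉ Vz (tmesh Z F) x R c) → FineAt Φ (tmesh Z F) f κ1 i := by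
    intro i hi
    obtain ⟨i0, rfl, hi0⟩ := off_zones Z F hi
    exact hfine i0.1 hi0
  obtain ⟨J0, J, θ, φ, hc, hfi, -, -⟩ := H0 (fun c => wmod a (k c)) Z.w01 _ (tmesh Z F)
    (fun c => en (baseT (D.sh a) hD) k (fun c => wmod a (k c)) Zc c)
    (fun c => tmesh_zone Z F c (by linarith [hR c])) hfa (fun c => h1 _) h2
  exact ⟨J0, J, θ, φ, hc, hfi⟩

end

end Crest.Agent.R096.Tme_234
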