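import Crest.Agent.R096.Npl2_477
import Crest.Agent.R096.Nsl5_552
import Crest.Agent.R096.Pg6_691
import Crest.Agent.R096.Tme4_234
import Crest.Agent.R096.Ps6_273
import Crest.Agent.R096.Shv1_273
import Crest.Agent.R096.Aclt4_608

/-!
# Row 96, NO0-PRE (helper477), part 3: the patched mesh as data of `preN_of` (`ND`)
-/

set_option autoImplicit false
set_option linter.unusedSectionVars false
set_option linter.unusedVariables false

open Set Filter Topology Metric MeasureTheory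
open scoped ENNReal NNReal

namespace Crest.Agent.R096.Npl_477

open Crest.Agent.R096.Bsp_628 Crest.Agent.R096.Brk1_582 Crest.Agent.R096.Brk5_582
open Crest.Agent.R096.Dic1_582 Crest.Agent.R096.Log2_582
open Crest.Agent.R096.Dic6_582 Crest.Agent.R096.Npr_582
open Crest.Agent.R096.SkC1_961 (E3 Hom3 FoamD)
open Crest.Agent.R096.Msh_715
open Crest.Agent.R096.Msh_810 (Cu Hc hc ps mem_Cu P_Hc Dat Top Cel tiling cf)
open Crest.Agent.R096.Tms_582 Crest.Agent.R096.Tme_234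
open Crest.Agent.R096.Pg_691 Crest.Agent.R096.Ps_273
open Crest.Agent.R096.Ls_222 (Edg ea ev us sgm_edg)
open Crest.Agent.R96.Sg1_199 (sgm li)
open Crest.Agent.R096.Aclt_608 (Sh Ineq Fz countable_Ineq)

noncomputable section

section mesh

variable {Om : Set E3} {D : Dat 3} {hD : D.Om = Om} {𝒞 : Type} {x : 𝒞 → E3}
  {R : 𝒞 → ℝ} {k : 𝒞 → ℕ} {w : 𝒞 → E3} {Zc : 𝒞 → Finset (Fin 3 → ℤ)} {κ : 𝒞 → Type}
  {H : ∀ c, κ c → Finset ((E3 →L[ℝ] ℝ) × ℝ)}

/-- a base tile is small -/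
theorem base_side {kb : ℕ} (hρ : ∀ y, D.ρ y ≤ D.C / 2 ^ kb) (τ : Top D) {y y' : E3}
    (hy : y ∈ P ((baseT D hD).H τ)) (hy' : y' ∈ P ((baseT D hD).H τ)) :
    ‖y - y'‖ ≤ 1 / 2 ^ kb := by
  have h1 : P ((baseT D hD).H τ) = Cu D.a τ.1.1.k τ.1.1.z := by
    rw [baseT_H, P_Hc_idE]
  rw [h1] at hy hy'
  have h2 := norm_sub_Cu hy hy'
  have h3 : y ∈ Msh_810.Dc D.a τ.1.1 := by
    have : P ((baseT D hD).H τ) = τ.1.c := P_baseT D hD τ
    rw [h1] at this
    rw [this] at hy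
    exact hy
  have h4 := τ.1.2.lower h3
  have h5 := hρ y
  have hC : 0 < D.C := Msh_810.Dat.C_pos
  have h6 : (2 : ℝ) ^ kb ≤ 2 ^ τ.1.1.k := by
    have h7 : D.C ≤ 2 ^ τ.1.1.k * (D.C / 2 ^ kb) :=
      h4.trans (mul_le_mul_of_nonneg_left h5 (by positivity))
    have h8 : (0 : ℝ) < 2 ^ kb := by positivity
    rw [mul_div_assoc', le_div_iff₀ h8] at h7
    nlinarith
  calc ‖y - y'‖ ≤ (2 : ℝ)⁻¹ ^ τ.1.1.k := h2
    _ = 1 / 2 ^ τ.1.1.k := by rw [inv_pow, one_div]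
    _ ≤ 1 / 2 ^ kb := one_div_le_one_div_of_le (by positivity) h6

/-- the tiles of the patched mesh are small -/
theorem diam_tmesh (Z : Zones (baseT D hD) x R k w) (F : LocF x R k Zc H) {kb : ℕ}
    (hρ : ∀ y, D.ρ y ≤ D.C / 2 ^ kb) {t : ℝ} (ht : 1 / 2 ^ kb ≤ t) (hR : ∀ c, R c ≤ t) :
    ∀ i, ∀ y ∈ P ((tmesh Z F).H i), ∀ y' ∈ P ((tmesh Z F).H i), ‖y - y'‖ ≤ t := by
  rintro (i0 | ⟨c, j⟩) y hy y' hy'
  · exact (base_side (hD := hD) hρ i0.1 hy hy').trans ht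
  · have h1 := new_in Z F ⟨c, j⟩ hy
    have h2 := new_in Z F ⟨c, j⟩ hy'
    rw [mem_ball_iff_norm] at h1 h2
    have h3 : ‖y - y'‖ ≤ ‖y - x c‖ + ‖y' - x c‖ := by
      have : y - y' = (y - x c) - (y' - x c) := by abel
      rw [this]
      exact norm_sub_le _ _
    have h4 := hR c
    linarith

/-- **the ordinary tiles are base tiles** -/
theorem base_tmesh (Z : Zones (baseT D hD) x R k w) (F : LocF x R k Zc H) (τ0 : Top D) :
    BaseOn (tmesh Z F) D {i | ∀ c, i ∉ Vc (tmesh Z F) x R c}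
      (Sum.elim (fun i0 => i0.1) fun _ => τ0) where
  Om_eq := hD.symm
  tile := by
    intro i hi
    obtain ⟨i0, rfl, -⟩ := off_zones Z F hi
    rfl
  nb := by
    intro i hi j hij
    obtain ⟨i0, rfl, hi0⟩ := off_zones Z F hi
    rcases j with j0 | ⟨c, j⟩
    · exact ⟨j0.1, rfl⟩
    · exfalso
      obtain ⟨y, hy, hy'⟩ := hij
      have h1 := new_in Z F ⟨c, j⟩ hy'
      exact Set.disjoint_left.1 (hi0 c) hy (ball_subset_closedBall h1)

/-- an ordinary tile which touches a tile of `Vc` lies in the large zone -/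
theorem touch_tmesh (Z : Zones (baseT D hD) x R k w) (F : LocF x R k Zc H)
    {i : {i // i ∉ Ar (baseT D hD) k w Zc} ⊕ Σ c, κ c} {c : 𝒞}
    {j : {i // i ∉ Ar (baseT D hD) k w Zc} ⊕ Σ c, κ c} (hj : j ∈ Vc (tmesh Z F) x R c)
    (hij : ¬ Disjoint (P ((tmesh Z F).H i)) (P ((tmesh Z F).H j))) :
    P ((tmesh Z F).H i) ⊆ closedBall (x c) (2 * R c) := by
  have hR := Z.R0 c
  obtain ⟨y, hy, hy'⟩ := not_disjoint_iff.1 hij
  have h1 := Vc_sub Z F c hj hy'
  have h2 : (P ((tmesh Z F).H i) ∩ closedBall (x c) (2 * R c)).Nonempty :=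
    ⟨y, hy, closedBall_subset_closedBall (by linarith) h1⟩
  rcases tile_zone Z F c h2 with h | ⟨z, hz⟩
  · exact h.trans (ball_subset_closedBall.trans (closedBall_subset_closedBall (by linarith)))
  · intro v hv
    rw [hz] at hv hy
    have h3 := norm_sub_Cu hv hy
    have h4 := Z.sm c
    rw [mem_closedBall_iff_norm] at h1 ⊢
    calc ‖v - x c‖ = ‖(v - y) + (y - x c)‖ := by congr 1; abel
      _ ≤ ‖v - y‖ + ‖y - x c‖ := norm_add_le _ _
      _ ≤ 2 * R c := by linarith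

end mesh

end

end Crest.Agent.R096.Npl_477
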