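import Crest.Agent.R096.Npr1_582
import Crest.Agent.R096.Eaa1_748
import Crest.Agent.R096.Gno3_324
import Crest.Agent.R096.Nst1_780

/-!
# Row 96, NO0-PRE (helper582), part 2: zones of the tiny cores, the open set round the bad points,
the size function
-/

set_option autoImplicit false
set_option linter.unusedSectionVars false
set_option linter.unusedVariables false
open Set Filter Topology MeasureTheory
open scoped NNReal ENNReal

noncomputable section

namespace Crest.Agent.R096.Npr_582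

open Crest.Agent.R096.SkC1_961 (E3 Hom3 FoamD)
open Crest.Agent.R096.Bsp_628 Crest.Agent.R096.Brk1_582 Crest.Agent.R096.Brk3_582
open Crest.Agent.R096.Dic6_582
open Crest.Agent.R096.No0_477 Crest.Agent.R096.Gno_324
open Crest.Agent.R096.Msh_715

/-! ### zones -/

/-- small balls have small integrals -/
theorem exists_rad {G : E3 → ℝ≥0∞} {Om : Set E3} (hG : ∫⁻ y in Om, G y ≠ ⊤) (x : E3) {ε : ℝ≥0∞}
    (hε : ε ≠ 0) : ∃ r > 0, ∫⁻ y in Metric.closedBall x r ∩ Om, G y ≤ ε := by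
  obtain ⟨δ, hδ, H⟩ := exists_pos_setLIntegral_lt_of_measure_lt hG hε
  have hv : Tendsto (fun r : ℝ => volume (Metric.closedBall x r)) (𝓝[>] 0) (𝓝 0) := by
    have h1 : Tendsto (fun r : ℝ => volume (Metric.closedBall x r)) (𝓝[>] 0)
        (𝓝 (volume (⋂ r > (0 : ℝ), Metric.closedBall x r))) := by
      refine tendsto_measure_biInter_gt (fun i _ => Metric.isClosed_closedBall.nullMeasurableSet)
        (fun i j _ hij => Metric.closedBall_subset_closedBall hij) ⟨1, one_pos, ?_⟩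
      exact (isCompact_closedBall x 1).measure_lt_top.ne
    have h2 : (⋂ r > (0 : ℝ), Metric.closedBall x r) = {x} := by
      ext y
      simp only [mem_iInter, Metric.mem_closedBall, mem_singleton_iff]
      constructor
      · intro h
        rw [← dist_le_zero]
        exact le_of_forall_pos_le_add fun r hr => by simpa using h r hr
      · rintro rfl r hr
        simpa using hr.le
    rw [h2] at h1
    simpa using h1
  obtain ⟨r, hr, hr0⟩ := ((hv.eventually (gt_mem_nhds hδ)).and self_mem_nhdsWithin).exists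
  refine ⟨r, hr0, ?_⟩
  have h3 : (volume.restrict Om) (Metric.closedBall x r) < δ :=
    (Measure.restrict_apply_le _ _).trans_lt hr
  have h4 := (H _ h3).le
  rwa [Measure.restrict_restrict Metric.isClosed_closedBall.measurableSet] at h4

/-- **the zones of the point holes** -/
theorem exists_zones {δ κ0 R0 c0 : ℝ} {La Om : Set E3} (Φ : FoamD δ κ0 R0 c0 La) (hO : IsOpen Om)
    (hLa : IsOpen La) {f : E3 → E3} (hf : Hom3 f Om La) {z : Φ.F → E3}
    (hz : ∀ c : Φ.F, ∀ k, c.1.lo k < z c k ∧ z c k < c.1.hi k)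
    {G : E3 → ℝ≥0∞} (hG : ∫⁻ y in Om, G y ≠ ⊤) {ε : ℝ≥0∞} (hε : ε ≠ 0) {ρ : ℝ} (hρ : 0 < ρ) :
    ∃ (x : Φ.F → E3) (R : Φ.F → ℝ), (∀ c, x c ∈ Om ∧ f (x c) = z c) ∧
      (∀ c, 0 < R c) ∧ (∀ c, R c ≤ ρ) ∧
      (∀ (S : Finset Φ.F), ∑ c ∈ S, R c ≤ ρ) ∧
      (∀ c, Metric.closedBall (x c) (2 * R c) ⊆ Om) ∧
      (∀ c, ∀ y ∈ Metric.closedBall (x c) (2 * R c), ∀ k, c.1.lo k < f y k ∧ f y k < c.1.hi k) ∧
      (∀ c c', c ≠ c' →
        Disjoint (Metric.closedBall (x c) (2 * R c)) (Metric.closedBall (x c') (2 * R c'))) ∧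
      (∀ y ∈ Om, ∃ r > 0, {c | (Metric.closedBall (x c) (2 * R c) ∩ Metric.ball y r).Nonempty}.Finite) ∧
      ∑' c, ∫⁻ y in Metric.closedBall (x c) (2 * R c), G y ≤ ε := by
  classical
  have hcount : Countable Φ.F := Φ.bf.countable.to_subtype
  obtain ⟨fi, hfm, hfim, hl, hri, hfc, hfic⟩ := hf
  have hzL : ∀ c, z c ∈ La := fun c => Φ.bf.sub c.1 c.2 ⟨fun k => (hz c k).1.le, fun k => (hz c k).2.le⟩
  set x : Φ.F → E3 := fun c => fi (z c) with hx
  have hxO : ∀ c, x c ∈ Om := fun c => hfim (hzL c)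
  have hfx : ∀ c, f (x c) = z c := fun c => hri _ (hzL c)
  obtain ⟨e1, he1, he1s⟩ := ENNReal.exists_pos_sum_of_countable (ε := ε) hε Φ.F
  obtain ⟨e2, he2, he2s⟩ := ENNReal.exists_pos_sum_of_countable (ε := ENNReal.ofReal ρ)
    (by simpa using hρ) Φ.F
  have hr0 : ∀ c, ∃ r > 0, ∫⁻ y in Metric.closedBall (x c) r ∩ Om, G y ≤ (e1 c : ℝ≥0∞) := fun c =>
    exists_rad hG (x c) (by exact_mod_cast (he1 c).ne')
  choose r0 hr00 hr01 using hr0
  obtain ⟨r, h1, h2, h3⟩ := Eaa_748.exists_macro hO hLa ⟨fi, hfm, hfim, hl, hri, hfc, hfic⟩ Φ.bf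
    univ (x := x) (fun c _ => ⟨hxO c, fun k => by rw [hfx]; exact hz c k⟩) (W := fun _ => univ)
    (fun c _ => univ_mem) (η := fun c => min (r0 c) (min (e2 c : ℝ) ρ))
    (fun c => lt_min (hr00 c) (lt_min (by exact_mod_cast he2 c) hρ))
  have h2r : ∀ c, 2 * (r c / 2) = r c := fun c => by ring
  refine ⟨x, fun c => r c / 2, fun c => ⟨hxO c, hfx c⟩, fun c => half_pos (h1 c trivial).1,
    fun c => ?_, fun S => ?_, fun c => ?_, fun c => ?_, fun c c' hcc => ?_, fun y hy => ?_, ?_⟩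
  · have := (h1 c trivial).1
    have h5 : r c ≤ ρ := (h1 c trivial).2.1.trans ((min_le_right _ _).trans (min_le_right _ _))
    linarith
  · have h5 : ∀ c, r c / 2 ≤ e2 c := fun c => by
      have h6 : r c ≤ e2 c := (h1 c trivial).2.1.trans ((min_le_right _ _).trans (min_le_left _ _))
      have := (h1 c trivial).1
      linarith
    have h6 : ((∑ c ∈ S, e2 c : ℝ≥0) : ℝ≥0∞) ≤ ENNReal.ofReal ρ := by
      push_cast
      exact (ENNReal.sum_le_tsum S).trans he2s.le
    have h7 : ∑ c ∈ S, (e2 c : ℝ) ≤ ρ := by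
      have h8 : ((∑ c ∈ S, e2 c : ℝ≥0) : ℝ) ≤ ρ := by
        have h9 := ENNReal.toReal_mono ENNReal.ofReal_ne_top h6
        rwa [ENNReal.toReal_ofReal hρ.le, ENNReal.coe_toReal] at h9
      push_cast at h8
      exact h8
    exact (Finset.sum_le_sum fun c _ => h5 c).trans h7
  · rw [h2r]; exact fun y hy => ((h1 c trivial).2.2.1 hy).1
  · rw [h2r]; exact (h1 c trivial).2.2.2
  · rw [h2r, h2r]; exact h2 c trivial c' trivial hcc
  · obtain ⟨U, hU, hfin⟩ := h3 y hy
    obtain ⟨ρ', hρ', hsub⟩ := Metric.mem_nhds_iff.1 hU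
    refine ⟨ρ', hρ', hfin.subset ?_⟩
    rintro c ⟨w, hw, hw'⟩
    simp only [h2r] at hw
    exact ⟨trivial, w, hw, hsub hw'⟩
  · refine (ENNReal.tsum_le_tsum fun c => ?_).trans he1s.le
    simp only [h2r]
    have h5 : Metric.closedBall (x c) (r c) ⊆ Metric.closedBall (x c) (r0 c) ∩ Om := fun y hy =>
      ⟨Metric.closedBall_subset_closedBall ((h1 c trivial).2.1.trans (min_le_left _ _)) hy,
        ((h1 c trivial).2.2.1 hy).1⟩
    exact (lintegral_mono_set h5).trans (hr01 c)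

/-! ### the open set round the bad points -/

/-- outer regularity for an integral -/
theorem exists_open_int {Om F : Set E3} (hO : IsOpen Om) (hF : F ⊆ Om) (hFm : MeasurableSet F)
    {G : E3 → ℝ≥0∞} (hGm : Measurable G) (hG : ∫⁻ y in Om, G y ≠ ⊤) (hv : volume Om ≠ ⊤)
    {ε : ℝ≥0∞} (hε : ε ≠ 0) :
    ∃ W : Set E3, IsOpen W ∧ F ⊆ W ∧ W ⊆ Om ∧ ∫⁻ y in W, G y ≤ (∫⁻ y in F, G y) + ε ∧
      volume W ≤ volume F + ε := by
  set ν : Measure E3 := (volume.restrict Om).withDensity (fun y => G y + 1) with hν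
  have hval : ∀ S : Set E3, MeasurableSet S → S ⊆ Om → ν S = (∫⁻ y in S, G y) + volume S := by
    intro S hS hSO
    rw [hν, withDensity_apply _ hS, lintegral_add_right _ measurable_const, setLIntegral_one,
      Measure.restrict_restrict hS, inter_eq_left.2 hSO, Measure.restrict_apply hS,
      inter_eq_left.2 hSO]
  have hνO : ν univ = ν Om := by
    rw [hν, withDensity_apply _ MeasurableSet.univ, withDensity_apply _ hO.measurableSet,
      Measure.restrict_univ, Measure.restrict_restrict hO.measurableSet, inter_self]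
  have hfin : IsFiniteMeasure ν := by
    refine ⟨?_⟩
    rw [hνO, hval Om hO.measurableSet Subset.rfl]
    exact (ENNReal.add_ne_top.2 ⟨hG, hv⟩).lt_top
  obtain ⟨U, hFU, hU, hUε⟩ := F.exists_isOpen_le_add ν hε
  have h1 : ν (U ∩ Om) ≤ ν F + ε := (measure_mono inter_subset_left).trans hUε
  rw [hval _ (hU.inter hO).measurableSet inter_subset_right, hval _ hFm hF] at h1
  have hFW : F ⊆ U ∩ Om := fun y hy => ⟨hFU hy, hF hy⟩
  have i1 : ∫⁻ y in F, G y ≤ ∫⁻ y in U ∩ Om, G y := lintegral_mono_set hFW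
  have i2 : volume F ≤ volume (U ∩ Om) := measure_mono hFW
  have f1 : ∫⁻ y in F, G y ≠ ⊤ := ne_top_of_le_ne_top hG (lintegral_mono_set hF)
  have f2 : volume F ≠ ⊤ := ne_top_of_le_ne_top hv (measure_mono hF)
  refine ⟨U ∩ Om, hU.inter hO, hFW, inter_subset_right, ?_, ?_⟩
  · refine ENNReal.le_of_add_le_add_right f2 ?_
    calc (∫⁻ y in U ∩ Om, G y) + volume F ≤ (∫⁻ y in U ∩ Om, G y) + volume (U ∩ Om) := by gcongr
      _ ≤ _ := h1
      _ = _ := by ring
  · refine ENNReal.le_of_add_le_add_left f1 ?_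
    calc (∫⁻ y in F, G y) + volume (U ∩ Om) ≤ (∫⁻ y in U ∩ Om, G y) + volume (U ∩ Om) := by gcongr
      _ ≤ _ := h1
      _ = _ := by ring

/-- the size function: near a point outside `HH` the ball stays in `W` -/
def rW (W HH : Set E3) (y : E3) : ℝ := max (Metric.infDist y Wᶜ) (Metric.infDist y HHᶜ)

theorem rW_lip (W HH : Set E3) (y z : E3) : rW W HH y ≤ rW W HH z + dist y z := by
  unfold rW
  refine max_le ?_ ?_
  · exact (Metric.infDist_le_infDist_add_dist).trans (by gcongr; exact le_max_left _ _)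
  · exact (Metric.infDist_le_infDist_add_dist).trans (by gcongr; exact le_max_right _ _)

theorem rW_nonneg (W HH : Set E3) (y : E3) : 0 ≤ rW W HH y :=
  le_max_of_le_left Metric.infDist_nonneg

theorem rW_pos {Om W HH : Set E3} (hOm : Omᶜ.Nonempty) (hW : IsOpen W) (hWO : W ⊆ Om)
    (hH : IsOpen HH) (hHO : HH ⊆ Om) (hF : Om \ HH ⊆ W) {y : E3} (hy : y ∈ Om) :
    0 < rW W HH y := by
  obtain ⟨w, hw⟩ := hOm
  by_cases h : y ∈ HH
  · refine lt_max_of_lt_right ?_
    rw [← hH.isClosed_compl.notMem_iff_infDist_pos ⟨w, fun h' => hw (hHO h')⟩]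
    simpa using h
  · refine lt_max_of_lt_left ?_
    rw [← hW.isClosed_compl.notMem_iff_infDist_pos ⟨w, fun h' => hw (hWO h')⟩]
    simpa using hF ⟨hy, h⟩

/-- a set of diameter `< rW` at one of its points outside `HH` is contained in `W` -/
theorem sub_of_rW {W HH S : Set E3} {y : E3} (hy : y ∉ HH) (hS : ∀ w ∈ S, dist y w < rW W HH y) :
    S ⊆ W := by
  intro w hw
  by_contra hn
  have h1 : Metric.infDist y HHᶜ = 0 := Metric.infDist_zero_of_mem hy
  have h2 : Metric.infDist y Wᶜ ≤ dist y w := Metric.infDist_le_dist_of_mem hn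
  have h3 := hS w hw
  unfold rW at h3
  rw [h1, max_eq_left Metric.infDist_nonneg] at h3
  linarith

/-! ### `NOGeo` and the clauses on squares -/

theorem nogeo_mono {Om : Set E3} {ι : Type} {T : Tiling Om ι} {Ex : Set ι} {𝒬 : Set (Set E3)} {L : ℕ}
    {η r : ℝ} {hr : r ≠ 0} {a : E3} {o : Fin 2 → ℤ} {M : ℕ} {Zs : Finset ℤ}
    {U U' : ℤ → (Fin 2 → ℕ) → Prop} (h : NOGeo T Ex 𝒬 L η r hr a o M Zs U)
    (hU : ∀ m ∈ Zs, ∀ v, (∀ j, v j < M) → U' m v → U m v) :
    NOGeo T Ex 𝒬 L η r hr a o M Zs U' where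
  r0 := h.r0
  M0 := h.M0
  lo := h.lo
  hi := h.hi
  zne := h.zne
  zs := h.zs
  tile m hm v hv hu := h.tile m hm v hv (hU m hm v hv hu)
  face m hm v hv hu := h.face m hm v hv (hU m hm v hv hu)
  edge m hm v hv hu := h.edge m hm v hv (hU m hm v hv hu)
  off m hm v hv hu := h.off m hm v hv (hU m hm v hv hu)

end Crest.Agent.R096.Npr_582
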