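import Crest.Agent.R096.Tme4_234
import Crest.Agent.R096.Gno2_324
import Crest.Agent.R096.Eab1_747

/-!
Row 96 (S0127), helper234.  TMESH-GEO: geometry of the patched tiling `tmesh` over `baseT (D.sh a)`.

* `vc_sub` : the tiles of `Vc c` lie in `closedBall (x c) (5/8 R c)`;
* **`frame_ord`** : frames of the ordinary tiles (list `Sg`);
* **`nogeo_tm`** : `NOGeo` with `U = True` from slices whose cubes lie in the bulk and miss the zones;
* **`macro_tm`** : `Macro` with radii `5/8 R`, `5/4 R`, ratio 4, fatness 1.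
-/

set_option autoImplicit false
set_option linter.style.longLine false
set_option linter.unusedSectionVars false

open MeasureTheory Set Filter Topology Metric
open scoped ENNReal

namespace Crest.Agent.R096.Tme_234

open Crest.Agent.R096.Bsp_628 Crest.Agent.R096.Brk1_582
open Crest.Agent.R096.Msh_715
open Crest.Agent.R096.Msh_810 (Cu Hc hc ps mem_Cu P_Hc Dat Top Cel tiling cf)
open Crest.Agent.R096.SkC1_961 (E3 Hom3 FoamD Cfg)
open Crest.Agent.R096.Mbf_337 Crest.Agent.R096.Tms_582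
open Crest.Agent.R096.Frm_234 (frm Sg frame_base rk)
open Crest.Agent.R096.Ea_713 (lin)
open Crest.Agent.R096.No0_477 (NOGeo cub vx)
open Crest.Agent.R096.Gno_324 (𝒬0 Ug lcub nogeo_of)
open Crest.Agent.R096.No_276 (Macro)
open Crest.Agent.R96.Hole_348 (RingFam)

noncomputable section

section gen

variable {Om : Set E3} {ι0 : Type} {T0 : Tiling Om ι0} {𝒞 : Type} {x : 𝒞 → E3} {R : 𝒞 → ℝ}
  {k : 𝒞 → ℕ} {w : 𝒞 → E3} {Zc : 𝒞 → Finset (Fin 3 → ℤ)} {κ : 𝒞 → Type}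
  {H : ∀ c, κ c → Finset ((E3 →L[ℝ] ℝ) × ℝ)}

/-- a base tile which meets the ball of radius `ρ ≤ 2 R` lies in the ball of radius `ρ + R / 16` -/
theorem base_sub (Z : Zones T0 x R k w) {c : 𝒞} {ρ : ℝ} (hρ : ρ ≤ 2 * R c) {i : ι0}
    (hi : (P (T0.H i) ∩ closedBall (x c) ρ).Nonempty) :
    P (T0.H i) ⊆ closedBall (x c) (ρ + R c / 16) := by
  obtain ⟨z, hz⟩ := Z.lat c i (hi.mono (inter_subset_inter_right _ (closedBall_subset_closedBall hρ)))
  obtain ⟨y, hy, hyb⟩ := hi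
  intro u hu
  rw [hz, P_Hc_idE] at hy hu
  have h1 := norm_sub_Cu hu hy
  have h2 := Z.sm c
  rw [mem_closedBall_iff_norm] at hyb ⊢
  calc ‖u - x c‖ = ‖(u - y) + (y - x c)‖ := by congr 1; abel
    _ ≤ ‖u - y‖ + ‖y - x c‖ := norm_add_le _ _
    _ ≤ ρ + R c / 16 := by linarith

/-- a tile of the patched tiling which meets the ball of radius `ρ`, `R / 2 ≤ ρ ≤ 2 R`, lies in the
ball of radius `ρ + R / 16` -/
theorem tile_sub (Z : Zones T0 x R k w) (F : LocF x R k Zc H) {c : 𝒞} {ρ : ℝ} (hρ1 : R c / 2 ≤ ρ)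
    (hρ : ρ ≤ 2 * R c) {i : {i // i ∉ Ar T0 k w Zc} ⊕ Σ c, κ c}
    (hi : (P ((tmesh Z F).H i) ∩ closedBall (x c) ρ).Nonempty) :
    P ((tmesh Z F).H i) ⊆ closedBall (x c) (ρ + R c / 16) := by
  have hR := Z.R0 c
  rcases i with i0 | ⟨c', j⟩
  · exact base_sub Z hρ hi
  · have h1 : P ((tmesh Z F).H (Sum.inr ⟨c', j⟩)) ⊆ ball (x c') (R c' / 2) := new_in Z F ⟨c', j⟩
    have hR' := Z.R0 c'
    by_cases h : c' = c
    · subst h
      exact (h1.trans ball_subset_closedBall).trans (closedBall_subset_closedBall (by linarith))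
    · exfalso
      obtain ⟨y, hy, hyb⟩ := hi
      exact Set.disjoint_left.1 (Z.dis c' c h)
        ((ball_subset_closedBall.trans (closedBall_subset_closedBall (by linarith))) (h1 hy))
        (closedBall_subset_closedBall hρ hyb)

/-- the tiles of `Vc c` lie in the ball of radius `5/8 R` -/
theorem vc_sub (Z : Zones T0 x R k w) (F : LocF x R k Zc H) {c : 𝒞}
    {i : {i // i ∉ Ar T0 k w Zc} ⊕ Σ c, κ c} (hi : i ∈ Vc (tmesh Z F) x R c) :
    P ((tmesh Z F).H i) ⊆ closedBall (x c) (5 / 8 * R c) := by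
  have hR := Z.R0 c
  exact (tile_sub Z F le_rfl (by linarith) hi).trans (closedBall_subset_closedBall (by linarith))

/-- a tile with a point which is in no ball `closedBall (x c) (5/8 R c)` is ordinary -/
theorem ord_of (Z : Zones T0 x R k w) (F : LocF x R k Zc H)
    {i : {i // i ∉ Ar T0 k w Zc} ⊕ Σ c, κ c} {y : E3} (hy : y ∈ P ((tmesh Z F).H i))
    (h : ∀ c, y ∉ closedBall (x c) (5 / 8 * R c)) : ∀ c, i ∉ Vc (tmesh Z F) x R c := fun c hc =>
  h c (vc_sub Z F hc hy)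

end gen

section base

variable {Om : Set E3} {D : Dat 3} {hD : D.Om = Om} {𝒞 : Type} {x : 𝒞 → E3} {R : 𝒞 → ℝ}
  {k : 𝒞 → ℕ} {w : 𝒞 → E3} {Zc : 𝒞 → Finset (Fin 3 → ℤ)} {κ : 𝒞 → Type}
  {H : ∀ c, κ c → Finset ((E3 →L[ℝ] ℝ) × ℝ)} {a : E3}

/-- **frames of the ordinary tiles** -/
theorem frame_ord (Z : Zones (baseT (D.sh a) hD) x R k w) (F : LocF x R k Zc H)
    {i : {i // i ∉ Ar (baseT (D.sh a) hD) k w Zc} ⊕ Σ c, κ c}
    (hi : ∀ c, i ∉ Vc (tmesh Z F) x R c) :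
    ∃ τ : {i // i ∉ Ar (baseT (D.sh a) hD) k w Zc}, i = Sum.inl τ ∧
      (tmesh Z F).H i = Hc idE a τ.1.1.1.k τ.1.1.1.z ∧ P ((tmesh Z F).H i) = τ.1.1.c ∧
      (fun K => frm a τ.1.1.1.k τ.1.1.1.z '' K) '' Cfg (tmesh Z F) i ∈ Sg ∧
      ‖lin (frm a τ.1.1.1.k τ.1.1.1.z)‖ ≤ 2 ^ τ.1.1.1.k := by
  obtain ⟨τ, rfl, hτ⟩ := off_zones Z F hi
  have h1 := frame_base (T := baseT (D.sh a) hD) (D := D.sh a) (h := hD) (i := τ.1) (τ := τ.1) rfl
    (fun l _ => ⟨l, rfl⟩)
  refine ⟨τ, rfl, rfl, P_baseT (D.sh a) hD τ.1, ?_, h1.2⟩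
  rw [cfg_off Z F hτ]
  exact h1.1

theorem P_Hc_lcub (a : E3) (m : ℕ) (z : Fin 3 → ℤ) : P (Hc idE a m z) = lcub a (rk m) z := by
  rw [P_Hc_idE]
  ext y
  rw [mem_Cu]
  unfold lcub ps rk
  have hp : (0 : ℝ) < 2 ^ m := by positivity
  refine forall_congr' fun i => and_congr ?_ ?_
  · rw [inv_mul_eq_div, ← le_sub_iff_add_le', div_le_iff₀' hp]
  · rw [inv_mul_eq_div]
    constructor
    · intro h
      have h2 := (le_div_iff₀' hp (a := y i - a i)).2 h
      linarith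
    · intro h
      exact (le_div_iff₀' hp (a := y i - a i)).1 (by linarith)

/-- **NOGeo for `tmesh`, all squares uniform** -/
theorem nogeo_tm (Z : Zones (baseT (D.sh a) hD) x R k w) (F : LocF x R k Zc H) {kb : ℕ} {Kb : Set E3}
    (hE : ExactOn D Kb kb) (hKbO : Kb ⊆ Om) {L : ℕ} {η : ℝ} (hr : rk kb ≠ 0) (o : Fin 2 → ℤ) {M : ℕ}
    (hM : 0 < M) {Zs : Finset ℤ}
    (lo : ∀ j : Fin 2, a j.castSucc + rk kb * o j ≤ -(1 - η) ∧ -1 < a j.castSucc + rk kb * o j)
    (hi : ∀ j : Fin 2, 1 - η ≤ a j.castSucc + rk kb * (o j + M) ∧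
      a j.castSucc + rk kb * (o j + M) < 1)
    (zne : Zs.Nonempty) (zs : ∀ m ∈ Zs, |(L : ℝ) * (a 2 + rk kb * m)| ≤ 1 / 2)
    (hin : ∀ m ∈ Zs, ∀ v : Fin 2 → ℕ, (∀ j, v j < M) → cub (vx a (rk kb) o m v) (rk kb) ⊆ Kb)
    (hd : ∀ m ∈ Zs, ∀ v : Fin 2 → ℕ, (∀ j, v j < M) → ∀ c,
      Disjoint (cub (vx a (rk kb) o m v) (rk kb)) (closedBall (x c) (5 / 8 * R c))) :
    NOGeo (tmesh Z F) (⋃ c, Vc (tmesh Z F) x R c) 𝒬0 L η (rk kb) hr a o M Zs (fun _ _ => True) := by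
  have h0 := nogeo_of (tmesh Z F) (⋃ c, Vc (tmesh Z F) x R c) (L := L) (η := η)
    (Frm_234.rk_pos kb) hr a o hM lo hi zne zs
  have hU : ∀ m ∈ Zs, ∀ v : Fin 2 → ℕ, (∀ j, v j < M) →
      Ug (tmesh Z F) (⋃ c, Vc (tmesh Z F) x R c) a (rk kb) o m v := by
    intro m hm v hv
    refine ⟨(hin m hm v hv).trans hKbO, fun y hy i hyi => ?_⟩
    have hord : ∀ c, i ∉ Vc (tmesh Z F) x R c := ord_of Z F hyi fun c hyc =>
      Set.disjoint_left.1 (hd m hm v hv c) hy hyc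
    refine ⟨fun h => ?_, ?_⟩
    · obtain ⟨c, hc⟩ := mem_iUnion.1 h
      exact hord c hc
    · obtain ⟨τ, rfl, hτ⟩ := off_zones Z F hord
      obtain ⟨z, hz⟩ := ExactOn.baseT (D := D.sh a) (h := hD) (hE.sh a) (τ := τ.1)
        ⟨y, hyi, hin m hm v hv hy⟩
      refine ⟨z, ?_⟩
      have h2 : (tmesh Z F).H (Sum.inl τ) = Hc idE a kb z := hz
      rw [h2]
      exact P_Hc_lcub a kb z
  exact
    { r0 := h0.r0
      M0 := h0.M0
      lo := h0.lo
      hi := h0.hi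
      zne := h0.zne
      zs := h0.zs
      tile := fun m hm v hv _ => h0.tile m hm v hv (hU m hm v hv)
      face := fun m hm v hv _ => h0.face m hm v hv (hU m hm v hv)
      edge := fun m hm v hv _ => h0.edge m hm v hv (hU m hm v hv)
      off := fun m hm v hv _ => h0.off m hm v hv (hU m hm v hv) }

/-- the size of a tile of `tmesh` (only used for base tiles) -/
def dT (T0 : Tiling Om (Top D)) (k : 𝒞 → ℕ) (w : 𝒞 → E3) (Zc : 𝒞 → Finset (Fin 3 → ℤ))
    (κ : 𝒞 → Type) : ({i // i ∉ Ar T0 k w Zc} ⊕ Σ c, κ c) → ℝ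
  | Sum.inl τ => (2 : ℝ)⁻¹ ^ τ.1.1.1.k
  | Sum.inr _ => 1

/-- the ordinary tiles which meet the ring -/
theorem ring_finite (Z : Zones (baseT (D.sh a) hD) x R k w) (F : LocF x R k Zc H) (c : 𝒞) :
    {i | (P ((tmesh Z F).H i) ∩ (ball (x c) (5 / 4 * R c) \ closedBall (x c) (5 / 8 * R c))).Nonempty}.Finite := by
  have hR := Z.R0 c
  refine ((tmesh Z F).finite_tiles (isCompact_closedBall (x c) (2 * R c)) (Z.sub c)).subset ?_
  rintro i ⟨y, hy, hyb, -⟩
  exact ⟨y, hy, (ball_subset_closedBall.trans (closedBall_subset_closedBall (by linarith))) hyb⟩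

/-- **MACRO for `tmesh`** -/
theorem macro_tm (Z : Zones (baseT (D.sh a) hD) x R k w) (F : LocF x R k Zc H) {Ex : Set _}
    (hEx : Ex = ⋃ c, Vc (tmesh Z F) x R c) :
    Macro (tmesh Z F) Ex x (fun c => 5 / 8 * R c) (fun c => 5 / 4 * R c)
      (fun c => (ring_finite Z F c).toFinset) (dT (baseT (D.sh a) hD) k w Zc κ) 4 1 := by
  have hnV : ∀ c i, (P ((tmesh Z F).H i) ∩
      (ball (x c) (5 / 4 * R c) \ closedBall (x c) (5 / 8 * R c))).Nonempty →
      ∀ c', i ∉ Vc (tmesh Z F) x R c' := by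
    rintro c i ⟨y, hy, hyb, hyn⟩ c' hc'
    have h1 := vc_sub Z F hc' hy
    have hR := Z.R0 c
    have hR' := Z.R0 c'
    by_cases h : c' = c
    · subst h; exact hyn h1
    · exact Set.disjoint_left.1 (Z.dis c' c h)
        (closedBall_subset_closedBall (by linarith) h1)
        ((ball_subset_closedBall.trans (closedBall_subset_closedBall (by linarith))) hyb)
  refine
    { fam := ⟨fun c => by have := Z.R0 c; positivity, fun c => by have := Z.R0 c; linarith,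
        fun c => (closedBall_subset_closedBall (by have := Z.R0 c; linarith)).trans (Z.sub c),
        fun c c' h => (Z.dis c c' h).mono
          (closedBall_subset_closedBall (by have := Z.R0 c; linarith))
          (closedBall_subset_closedBall (by have := Z.R0 c'; linarith)), fun y hy => ?_⟩
      rat := fun c => by have := Z.R0 c; linarith
      ex := fun i hi => ?_
      ring := fun c i hi => (ring_finite Z F c).mem_toFinset.2 hi
      nex := fun c i hi hie => ?_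
      dS := fun c c' h => ?_
      d0 := fun c i _ => ?_
      dd := fun c i hi y hy u hu => ?_
      fat := fun c i hi => ?_ }
  · obtain ⟨r, hr, hfin⟩ := Z.lf y hy
    refine ⟨ball y r, ball_mem_nhds y hr, hfin.subset ?_⟩
    rintro c ⟨u, hu, hub⟩
    exact ⟨u, closedBall_subset_closedBall (by have := Z.R0 c; linarith) hu, hub⟩
  · rw [hEx] at hi
    obtain ⟨c, hc⟩ := mem_iUnion.1 hi
    exact ⟨c, vc_sub Z F hc⟩
  · rw [hEx] at hie
    obtain ⟨c', hc'⟩ := mem_iUnion.1 hie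
    exact hnV c i ((ring_finite Z F c).mem_toFinset.1 hi) c' hc'
  · refine Finset.disjoint_left.2 ?_
    intro i hi hi'
    obtain ⟨y, hy, hyb, -⟩ := (ring_finite Z F c).mem_toFinset.1 hi
    obtain ⟨u, hu, hub, -⟩ := (ring_finite Z F c').mem_toFinset.1 hi'
    have hR := Z.R0 c
    have hR' := Z.R0 c'
    have h1 := tile_sub Z F (c := c) (ρ := 5 / 4 * R c) (by linarith) (by linarith)
      ⟨y, hy, ball_subset_closedBall hyb⟩
    have h2 := tile_sub Z F (c := c') (ρ := 5 / 4 * R c') (by linarith) (by linarith)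
      ⟨u, hu, ball_subset_closedBall hub⟩
    exact Set.disjoint_left.1 (Z.dis c c' h)
      (closedBall_subset_closedBall (by linarith) (h1 hy))
      (closedBall_subset_closedBall (by linarith) (h2 hy))
  · rcases i with τ | p
    · show (0 : ℝ) < (2 : ℝ)⁻¹ ^ _
      positivity
    · exact one_pos
  · obtain ⟨τ, rfl, hτ⟩ := off_zones Z F (hnV c i ((ring_finite Z F c).mem_toFinset.1 hi))
    have h1 : P ((tmesh Z F).H (Sum.inl τ)) = Cu a τ.1.1.1.k τ.1.1.1.z := P_Hc_idE _ _ _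
    rw [h1] at hy hu
    exact norm_sub_Cu hy hu
  · obtain ⟨τ, rfl, hτ⟩ := off_zones Z F (hnV c i ((ring_finite Z F c).mem_toFinset.1 hi))
    have h1 : P ((tmesh Z F).H (Sum.inl τ)) = Cu a τ.1.1.1.k τ.1.1.1.z := P_Hc_idE _ _ _
    rw [h1, Eab_747.volume_Cu, one_mul]
    exact le_rfl

end base

end

end Crest.Agent.R096.Tme_234
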