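import Crest.Agent.R096.Pg6_691
import Crest.Agent.R096.Tme5_234

/-!
# Row 96, NO0-PRE, [PREG] (helper691), part 7: `preG_of` over `baseT (D.sh a)` (output of 234's
`exists_tm`)
-/

set_option autoImplicit false
set_option linter.unusedSectionVars false
set_option linter.style.longLine false

open Set Filter Topology Metric MeasureTheory
open scoped ENNReal

namespace Crest.Agent.R096.Pg_691

open Crest.Agent.R096.Bsp_628 Crest.Agent.R096.Brk1_582 Crest.Agent.R096.Brk5_582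
open Crest.Agent.R096.Log2_582 Crest.Agent.R096.Dic1_582 Crest.Agent.R096.Dic6_582
open Crest.Agent.R096.Npr_582
open Crest.Agent.R096.Msh_715
open Crest.Agent.R096.Msh_810 (Cu Hc Dat)
open Crest.Agent.R096.SkC1_961 (E3 Hom3 FoamD Cfg)
open Crest.Agent.R096.Tms_582 Crest.Agent.R096.Gno_324 Crest.Agent.R096.No0_477
open Crest.Agent.R096.No_276 (QL Macro PreG Vti MJ)
open Crest.Agent.R096.Nend_458 (EndB)
open Crest.Agent.R096.Mbf_337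
open Crest.Agent.R096.Frm_234 (Sg)
open Crest.Agent.R096.Tme_234 (ExactOn baseT wmod)

noncomputable section

variable {p : ℝ} {q : ℕ} {s : Fin 3 → ℝ} {e1 e2 : ℝ≥0∞} {La : Set E3} {f f1 : E3 → E3}
  {M3 h : ℝ} {al : Fin 3 → ℝ} {Φ : FoamD (dF q) (kF q) 6 (cN q) La} {z0 : Φ.F → E3}
  {X HH : Set E3} {g : Φ.F → Fin 3 → E3 → ℝ}

/-- **`PreG` from the output of `exists_tm`** -/
theorem preG_tm {L : ℕ} (hL : 1 ≤ L) (hLa : IsOpen La) (hne : Laᶜ.Nonempty)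
    (H : Front p q s e1 e2 (QL L) La f M3 h al Φ z0 f1 X HH g)
    {x : Φ.F → E3} {R : Φ.F → ℝ} (hRad : Rad Φ (QL L) f1 z0 x R)
    {ε C0 κ1 κ2 η : ℝ} (ε' : ℝ) (hε : 0 < ε) (hC0 : 0 ≤ C0)
    (hsz : C0 * (2 * q * h) ≤ ε) (hh : 8 * h ≤ ε) (hev : (e1 + e2) * 8 ≤ ENNReal.ofReal ε)
    {D : Dat 3} {hD : D.Om = QL L} {k : Φ.F → ℕ} {a : E3}
    {Zc : Φ.F → Finset (Fin 3 → ℤ)} {κ : Φ.F → Type} {Hf : ∀ c, κ c → Finset ((E3 →L[ℝ] ℝ) × ℝ)}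
    (Z : Zones (baseT (D.sh a) hD) x R k (fun c => wmod a (k c))) (F : LocF x R k Zc Hf)
    {J0 J : Φ.F → Set ({i // i ∉ Ar (baseT (D.sh a) hD) k (fun c => wmod a (k c)) Zc} ⊕ Σ c, κ c)}
    {θ : Φ.F → E3 → E3} {φ : Φ.F → E3 → ℝ}
    (hcores : ∀ ct A lam z, Cores Φ (tmesh Z F) f1 κ1 κ2 ∅ J0 J (Vc (tmesh Z F) x R) ct A lam z θ φ)
    (hfine : Fine Φ (tmesh Z F) f1 κ1 J0)
    (ct : Φ.F → {i // i ∉ Ar (baseT (D.sh a) hD) k (fun c => wmod a (k c)) Zc} ⊕ Σ c, κ c)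
    (A : Φ.F → E3 ≃ᵃ[ℝ] E3) (lam : Φ.F → ℝ) (z : Φ.F → E3)
    {kb : ℕ} (hE : ExactOn D (KB L η) kb)
    {r : ℝ} (hrk : r = 1 / 2 ^ kb) (hr : r ≠ 0) {o : Fin 2 → ℤ} {M : ℕ} {Ab Zs : Finset ℤ}
    (B : Slc L η r a o M Ab Zs x R)
    {Se : Fin 2 → E3 → ℝ≥0∞} (hS : ∀ j, EndB (QL L) f s j r (Se j) a) {m δ' : ℝ≥0∞}
    (hSa : ∀ j, Se j a ≤ m * (((2 : ℝ≥0∞) ^ kb) ^ 2 * (δ' * volume (QL (L : ℝ)))))
    (hδ : 16 * (m * δ') ≤ ENNReal.ofReal (ε / 2)) :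
    ∃ (Sc : Φ.F → Finset ({i // i ∉ Ar (baseT (D.sh a) hD) k (fun c => wmod a (k c)) Zc} ⊕
        Σ c, κ c))
      (d : ({i // i ∉ Ar (baseT (D.sh a) hD) k (fun c => wmod a (k c)) Zc} ⊕ Σ c, κ c) → ℝ),
      (∀ c i, i ∈ Sc c ↔ i ∈ rg (tmesh Z F) x R c) ∧
      PreG p s L η ε ε' C0 κ1 κ2 Sg 4 1 f f1 q al h Φ (tmesh Z F) ∅ J0 J (Vc (tmesh Z F) x R) ct A
        lam z θ φ 𝒬0 r hr a o M Zs (fun _ _ => True) x (fun c => 5 / 8 * R c)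
        (fun c => 5 / 4 * R c) Sc d (fun _ => 0) (fun _ => 0) :=
  preG_of hL hLa hne H hRad hε hC0 hsz hh hev Z F (hcores ct A lam z) hfine hr B hrk
    (fun _ hτ => ExactOn.baseT (D := D.sh a) (h := hD) (hE.sh a) hτ) hS hSa hδ

end

end Crest.Agent.R096.Pg_691
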