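import Crest.Agent.R096.Tme5_234
import Crest.Agent.R096.Ps7_273

/-!
Row 96 (S0127), helper234.  TMESH, inputs of the composition of NOPre (582 #11112).

* `baseOn_tm` : 273's `BaseOn` for the ordinary tiles of `tmesh`;
* `blk_tm` : 273's `Blk` from `ExactOn`;
* `touch_sub` : ordinary tiles which touch a tile near a core lie in the zone;
* `rho_lip`, `rho_pos`, `tile_W` : the size function `max (infDist y Wᶜ) (infDist y HHᶜ)`;
* `ord_diam`, `diam_tm` : diameters.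
-/

set_option autoImplicit false
set_option linter.style.longLine false
set_option linter.unusedSectionVars false

open MeasureTheory Set Filter Topology Metric
open scoped ENNReal

namespace Crest.Agent.R096.Tme_234

open Crest.Agent.R096.Msh_715
open Crest.Agent.R096.Msh_810 (Cu Hc hc ps mem_Cu P_Hc Dat Top Cel tiling cf)
open Crest.Agent.R096.SkC1_961 (E3 Hom3 FoamD Cfg)
open Crest.Agent.R096.Tms_582
open Crest.Agent.R096.Ps_273 (BaseOn Blk idn)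
open Crest.Agent.R096.No0_477 (cub vx)
open Crest.Agent.R096.Frm_234 (rk)

noncomputable section

variable {Om : Set E3} {D : Dat 3} {hD : D.Om = Om} {𝒞 : Type} {x : 𝒞 → E3} {R : 𝒞 → ℝ}
  {k : 𝒞 → ℕ} {w : 𝒞 → E3} {Zc : 𝒞 → Finset (Fin 3 → ℤ)} {κ : 𝒞 → Type}
  {H : ∀ c, κ c → Finset ((E3 →L[ℝ] ℝ) × ℝ)} {a : E3}

/-- the base tile of an ordinary tile (junk on the others) -/
def tau (Z : Zones (baseT (D.sh a) hD) x R k w) :
    ({i // i ∉ Ar (baseT (D.sh a) hD) k w Zc} ⊕ Σ c, κ c) → Top (D.sh a)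
  | Sum.inl τ => τ.1
  | Sum.inr p => ((baseT (D.sh a) hD).cov (x p.1)
      (Z.sub p.1 (mem_closedBall_self (by have := Z.R0 p.1; linarith)))).choose

theorem tau_inl (Z : Zones (baseT (D.sh a) hD) x R k w)
    (τ : {i // i ∉ Ar (baseT (D.sh a) hD) k w Zc}) :
    tau (κ := κ) Z (Sum.inl τ) = τ.1 := rfl

/-- a tile of `tmesh` which meets an ordinary tile is a base tile -/
theorem nb_base (Z : Zones (baseT (D.sh a) hD) x R k w) (F : LocF x R k Zc H)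
    {i j : {i // i ∉ Ar (baseT (D.sh a) hD) k w Zc} ⊕ Σ c, κ c}
    (hi : ∀ c, i ∉ Vc (tmesh Z F) x R c)
    (h : (P ((tmesh Z F).H i) ∩ P ((tmesh Z F).H j)).Nonempty) : ∃ τ, j = Sum.inl τ := by
  rcases j with τ | p
  · exact ⟨τ, rfl⟩
  · exfalso
    obtain ⟨y, hy, hy'⟩ := h
    exact hi p.1 ⟨y, hy, ball_subset_closedBall (new_in Z F p hy')⟩

/-- **273's `BaseOn`** -/
theorem baseOn_tm (Z : Zones (baseT (D.sh a) hD) x R k w) (F : LocF x R k Zc H) :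
    BaseOn (tmesh Z F) (D.sh a) {i | ∀ c, i ∉ Vc (tmesh Z F) x R c} (tau Z) where
  Om_eq := hD.symm
  tile i hi := by
    obtain ⟨τ, rfl, -⟩ := off_zones Z F hi
    rfl
  nb i hi j hj := by
    obtain ⟨τ, rfl⟩ := nb_base Z F hi hj
    exact ⟨τ.1, rfl⟩

/-- **273's `Blk`** -/
theorem blk_tm {kb : ℕ} {Kb : Set E3} (hE : ExactOn D Kb kb) (hKbO : Kb ⊆ D.Om) {o : Fin 2 → ℤ}
    {M : ℕ} {A : Finset ℤ}
    (hin : ∀ m ∈ A, ∀ v : Fin 2 → ℕ, (∀ j, v j < M) →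
      cub (vx a ((2 : ℝ) ^ kb)⁻¹ o m v) ((2 : ℝ) ^ kb)⁻¹ ⊆ Kb) : Blk (D.sh a) kb o M A := by
  intro m hm v hv y hy
  have h1 := hin m hm v hv hy
  exact ⟨hKbO h1, (hE.sh a).K_eq h1⟩

/-- an ordinary tile which touches a tile near a core lies in the zone -/
theorem touch_sub (Z : Zones (baseT (D.sh a) hD) x R k w) (F : LocF x R k Zc H)
    {i j : {i // i ∉ Ar (baseT (D.sh a) hD) k w Zc} ⊕ Σ c, κ c} {c : 𝒞}
    (hj : j ∈ Vc (tmesh Z F) x R c)
    (h : (P ((tmesh Z F).H i) ∩ P ((tmesh Z F).H j)).Nonempty) :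
    P ((tmesh Z F).H i) ⊆ closedBall (x c) (3 / 4 * R c) := by
  obtain ⟨y, hy, hy'⟩ := h
  have hR := Z.R0 c
  exact (tile_sub Z F (c := c) (ρ := 5 / 8 * R c) (by linarith) (by linarith)
    ⟨y, hy, vc_sub Z F hj hy'⟩).trans (closedBall_subset_closedBall (by linarith))

/-! ### diameters -/

/-- the scale of a base tile is at least `kb` -/
theorem scale_ge {kb : ℕ} (hρ : ∀ y, D.ρ y ≤ D.C / 2 ^ kb) (τ : Top (D.sh a)) : kb ≤ τ.1.1.k := by
  obtain ⟨y, hy⟩ := τ.1.o_nonempty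
  have hyc := τ.1.o_subset_c hy
  have h1 : D.C ≤ 2 ^ τ.1.1.k * D.ρ y := τ.1.2.lower hyc
  have hC := D.C_pos
  have h2 : D.C ≤ 2 ^ τ.1.1.k * (D.C / 2 ^ kb) :=
    h1.trans (mul_le_mul_of_nonneg_left (hρ y) (by positivity))
  by_contra hcon
  push Not at hcon
  have h5 : (2 : ℝ) ^ τ.1.1.k < 2 ^ kb := pow_lt_pow_right₀ (by norm_num) hcon
  have h6 : (2 : ℝ) ^ τ.1.1.k * (D.C / 2 ^ kb) < 2 ^ kb * (D.C / 2 ^ kb) :=
    mul_lt_mul_of_pos_right h5 (by positivity)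
  have h7 : (2 : ℝ) ^ kb * (D.C / 2 ^ kb) = D.C := by field_simp
  linarith

/-- diameter of the base tiles -/
theorem base_diam {kb : ℕ} (hρ : ∀ y, D.ρ y ≤ D.C / 2 ^ kb) (τ : Top (D.sh a)) {y u : E3}
    (hy : y ∈ P ((baseT (D.sh a) hD).H τ)) (hu : u ∈ P ((baseT (D.sh a) hD).H τ)) :
    ‖y - u‖ ≤ (2 : ℝ)⁻¹ ^ kb := by
  have h1 : P ((baseT (D.sh a) hD).H τ) = Cu a τ.1.1.k τ.1.1.z := P_Hc_idE _ _ _
  rw [h1] at hy hu
  exact (norm_sub_Cu hy hu).trans (pow_le_pow_of_le_one (by norm_num) (by norm_num)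
    (scale_ge hρ τ))

/-- **diameters of all tiles of `tmesh`** -/
theorem diam_tm (Z : Zones (baseT (D.sh a) hD) x R k w) (F : LocF x R k Zc H) {kb : ℕ}
    (hρ : ∀ y, D.ρ y ≤ D.C / 2 ^ kb) {r : ℝ} (hr : (2 : ℝ)⁻¹ ^ kb ≤ r) (hR : ∀ c, 2 * R c ≤ r)
    (i : {i // i ∉ Ar (baseT (D.sh a) hD) k w Zc} ⊕ Σ c, κ c) :
    ∀ y ∈ P ((tmesh Z F).H i), ∀ u ∈ P ((tmesh Z F).H i), ‖y - u‖ ≤ r := by
  intro y hy u hu
  rcases i with τ | p
  · exact (base_diam (hD := hD) hρ τ.1 hy hu).trans hr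
  · have h1 := new_in Z F p hy
    have h2 := new_in Z F p hu
    rw [mem_ball_iff_norm] at h1 h2
    have hR1 := Z.R0 p.1
    have hR2 := hR p.1
    calc ‖y - u‖ = ‖(y - x p.1) - (u - x p.1)‖ := by congr 1; abel
      _ ≤ ‖y - x p.1‖ + ‖u - x p.1‖ := norm_sub_le _ _
      _ ≤ r := by linarith

/-! ### the size function -/

/-- the size function `max (infDist y Wᶜ) (infDist y HHᶜ)` -/
def rW (W HH : Set E3) (y : E3) : ℝ := max (infDist y Wᶜ) (infDist y HHᶜ)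

theorem rW_lip (W HH : Set E3) (y z : E3) : rW W HH y ≤ rW W HH z + dist y z := by
  refine max_le ?_ ?_
  · exact infDist_le_infDist_add_dist.trans (add_le_add (le_max_left _ _) le_rfl)
  · exact infDist_le_infDist_add_dist.trans (add_le_add (le_max_right _ _) le_rfl)

theorem rW_nonneg (W HH : Set E3) (y : E3) : 0 ≤ rW W HH y := le_max_of_le_left infDist_nonneg

theorem rW_pos {W HH : Set E3} (hW : IsOpen W) (hHH : IsOpen HH) (hWc : Wᶜ.Nonempty)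
    (hHc : HHᶜ.Nonempty) {y : E3} (hy : y ∈ W ∪ HH) : 0 < rW W HH y := by
  rcases hy with hy | hy
  · refine lt_max_of_lt_left ?_
    rw [← hW.isClosed_compl.notMem_iff_infDist_pos hWc]
    exact fun h => h hy
  · refine lt_max_of_lt_right ?_
    rw [← hHH.isClosed_compl.notMem_iff_infDist_pos hHc]
    exact fun h => h hy

/-- **a base tile which leaves `HH` lies in `W`** -/
theorem tile_W {W HH : Set E3} (hρ : ∀ y, D.ρ y ≤ rW W HH y) (τ : Top (D.sh a))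
    {y : E3} (hy : y ∈ P ((baseT (D.sh a) hD).H τ)) (hyH : y ∉ HH) :
    P ((baseT (D.sh a) hD).H τ) ⊆ W := by
  have hP : P ((baseT (D.sh a) hD).H τ) = τ.1.c := P_baseT (D.sh a) hD τ
  have hyc : y ∈ τ.1.c := by rw [← hP]; exact hy
  have h1 : D.C ≤ 2 ^ τ.1.1.k * D.ρ y := τ.1.2.lower hyc
  have hC := D.hC
  have hp : (0 : ℝ) < 2 ^ τ.1.1.k := by positivity
  have h0 : infDist y HHᶜ = 0 := infDist_zero_of_mem hyH
  have h2 : D.ρ y ≤ infDist y Wᶜ := by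
    have h3 := hρ y
    unfold rW at h3
    rw [h0, max_eq_left infDist_nonneg] at h3
    exact h3
  have h4 : (2 : ℝ)⁻¹ ^ τ.1.1.k < infDist y Wᶜ := by
    refine lt_of_lt_of_le ?_ h2
    rw [inv_pow, inv_lt_iff_one_lt_mul₀' hp]
    linarith
  intro u hu
  by_contra hcon
  have h5 : P ((baseT (D.sh a) hD).H τ) = Cu a τ.1.1.k τ.1.1.z := P_Hc_idE _ _ _
  rw [h5] at hy hu
  have h6 := norm_sub_Cu hy hu
  rw [← dist_eq_norm] at h6
  have h7 := infDist_le_dist_of_mem (x := y) (s := Wᶜ) hcon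
  linarith

end

end Crest.Agent.R096.Tme_234
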