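import Crest.Agent.R096.Nsl5_552
import Crest.Agent.R096.Pg7_691
import Crest.Agent.R096.Tme6_234
import Crest.Agent.R096.Shv1_273
import Crest.Agent.R096.Npl2_477

/-!
Row 96 (S0127), helper552.  NO0-PRE [P4b] (276 `PreN`, `p < 3`), part 4: `nd_of`, the data `ND` of
`preN_of` for the patched mesh `tmesh` (front, radii, `exists_tm`, `exists_shift4`, `Slc`).
-/

set_option autoImplicit false
set_option linter.style.longLine false
set_option linter.unusedSectionVars false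

open MeasureTheory Set Filter Metric
open scoped Topology ENNReal

namespace Crest.Agent.R096.Nsl_552

open Crest.Agent.R096.Bsp_628 Crest.Agent.R096.Brk1_582 Crest.Agent.R096.Brk5_582
open Crest.Agent.R096.Log2_582 (IsLog)
open Crest.Agent.R096.Dic6_582 Crest.Agent.R096.Dic7_582
open Crest.Agent.R096.Npr_582
open Crest.Agent.R096.Msh_810 Crest.Agent.R96.En3_199
  Crest.Agent.R96.En4_199 Crest.Agent.R96.En5_199 Crest.Agent.R96.En6_199
  Crest.Agent.R96.En7_199 Crest.Agent.R96.En8_199 Crest.Agent.R96.En9_199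
  Crest.Agent.R96.En11_199 Crest.Agent.R96.Sg1_199
open Crest.Agent.R096.Msh_715 hiding P I
open Crest.Agent.R096.SkC1_961 (E3 Hom3 FoamD NN Cfg)
open Crest.Agent.R096.Nl_234 (HWq)
open Crest.Agent.R096.No_276 (QL ShL IZ MJ MU PreN)
open Crest.Agent.R096.No0_477 (cub fr Fc NOGeo)
open Crest.Agent.R096.Ls_222 Crest.Agent.R096.Ps_273
open Crest.Agent.R096.Tms_582
open Crest.Agent.R096.Tme_234 (ExactOn baseT wmod tau baseOn_tm touch_sub diam_tm)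
open Crest.Agent.R096.Pg_691 (Rad Slc rg KB KB_sub geo_tmesh)

noncomputable section

variable {p : ℝ} {q : ℕ} {s : Fin 3 → ℝ} {e1 e2 : ℝ≥0∞} {La : Set E3} {f f1 : E3 → E3}
  {M3 h : ℝ} {al : Fin 3 → ℝ} {Φ : FoamD (dF q) (kF q) 6 (cN q) La} {z0 : Φ.F → E3}
  {X HH : Set E3} {g : Φ.F → Fin 3 → E3 → ℝ}

/-- points of dimension 3 are not on the edges -/
theorem edge_off {Om : Set E3} {ι : Type} {T : Tiling Om ι} (e : Edg T) {x : E3}
    (hx : T.dim x = 3) : x ∉ e.1 := by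
  intro h
  obtain ⟨y, hy, hd, he⟩ := e.2
  rw [he] at h
  have := T.dim_le h
  omega

/-- the edges miss the preimages of the holes -/
theorem edge_hh {L : ℝ} {x : Φ.F → E3} {R : Φ.F → ℝ} (hRad : Rad Φ (QL L) f1 z0 x R) {ι : Type}
    {T : Tiling (QL L) ι} (hdim : ∀ c, T.dim (x c) = 3) (e : Edg T) :
    ∀ y ∈ e.1, ∀ c, f1 y ∉ (Φ.B c).S := by
  intro y hy c hc
  have h1 := hRad.hole y (edg_sub_Om e hy) c hc
  exact edge_off e (hdim c) (h1 ▸ hy)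

/-- the ball of the ring -/
theorem rg_ball {Om : Set E3} {ι0 : Type} {T0 : Tiling Om ι0} {𝒞 : Type} {x : 𝒞 → E3} {R : 𝒞 → ℝ}
    {k : 𝒞 → ℕ} {w : 𝒞 → E3} {Zc : 𝒞 → Finset (Fin 3 → ℤ)} {κ : 𝒞 → Type}
    {T : Tiling Om ({i // i ∉ Ar T0 k w Zc} ⊕ Σ c, κ c)} {c : 𝒞} {i}
    (hi : i ∈ rg T x R c) :
    (Msh_715.P (T.H i) ∩ closedBall (x c) (5 / 4 * R c)).Nonempty := by
  obtain ⟨y, hy, hyb, -⟩ := hi
  exact ⟨y, hy, ball_subset_closedBall hyb⟩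

/-- **`ND` FOR THE PATCHED MESH** -/
theorem nd_of {L : ℕ} (hL : 1 ≤ L) (hLa : IsOpen La)
    (H : Front p q s e1 e2 (QL L) La f M3 h al Φ z0 f1 X HH g)
    {x : Φ.F → E3} {R : Φ.F → ℝ} (hRad : Rad Φ (QL L) f1 z0 x R)
    {η κ3 : ℝ} (hη : 0 < η)
    -- weights (`exists_W`)
    {W : Φ.F → ℝ} (hW : (∀ c, 0 < W c) ∧ (∀ c, ∃ k N : ℕ, W c * 2 ^ k = N) ∧
      (∀ c, c.1.sz ≤ κ3 * W c) ∧ (∀ c, W c ≤ κ3 * c.1.sz) ∧ (∀ c, W c ≤ c.1.sz) ∧
      ∀ c : Φ.F, IsLog q al h c.1 → W c = h / 2)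
    {εf θ : ℝ≥0∞} (he1 : e1 ≤ εf)
    -- the bad set (`exists_small`)
    {W0 Wt : Set E3} (hW0 : QL L \ HH ⊆ W0) (hWt : Wt = W0 ∪ ⋃ c, closedBall (x c) (2 * R c))
    (hvW : volume Wt ≤ θ)
    (hint : ∫⁻ y in Op Φ (QL L) f1 ∩ Wt, GGw (fun c => ENNReal.ofReal (W c)) g y ^ p ≤ θ)
    -- the mesh (`exists_tm`)
    {D : Dat 3} {hD : D.Om = QL L} {k : Φ.F → ℕ} {a : E3}
    {Zc : Φ.F → Finset (Fin 3 → ℤ)} {κ : Φ.F → Type} {Hf : ∀ c, κ c → Finset ((E3 →L[ℝ] ℝ) × ℝ)}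
    (Z : Zones (baseT (D.sh a) hD) x R k (fun c => wmod a (k c))) (F : LocF x R k Zc Hf)
    (hdim : ∀ c, (tmesh Z F).dim (x c) = 3)
    {kb : ℕ} (hρ : ∀ y, D.ρ y ≤ D.C / 2 ^ kb) (hE : ExactOn D (KB L η) kb)
    -- the edges (`ae_front`)
    (hac : ∀ e : Edg (tmesh Z F), e.1 ⊆ Op Φ (QL L) f1 → ∀ c,
      ∃ G : E3 → ℝ≥0∞, UGs (us Φ f1 c) G (ea e) (ev e) ∧ li G (ea e) (ev e) ≠ ∞)
    -- the shift (`exists_shift4`)
    (hgood : ∀ (k : ℕ) (z : Fin 3 → ℤ), Good (Op Φ (QL L) f1) (us Φ f1) g (vx a k z))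
    (hEp : ∀ l, Ed (D.sh a) l p (Xs (fun c => ENNReal.ofReal (W c)) g
        (fun l => ENNReal.ofReal (s l)) l) ≤ (8 * (3 : ℕ)) * ∫⁻ x in Op Φ (QL L) f1,
      Xs (fun c => ENNReal.ofReal (W c)) g (fun l => ENNReal.ofReal (s l)) l x ^ p)
    (hE1 : ∀ l, Ed (D.sh a) l 1 (Xs (fun c => ENNReal.ofReal (W c)) g
        (fun l => ENNReal.ofReal (s l)) l) ≤ (8 * (3 : ℕ)) * ∫⁻ x in Op Φ (QL L) f1,
      Xs (fun c => ENNReal.ofReal (W c)) g (fun l => ENNReal.ofReal (s l)) l x)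
    (hES : S (D.sh a) p (Wt.indicator
        (GGw (fun c => ENNReal.ofReal (W c)) g)) ≤ 100 * (KE 3 p *
      ∫⁻ y in Op Φ (QL L) f1 ∩ Wt, GGw (fun c => ENNReal.ofReal (W c)) g y ^ p))
    -- the block
    {r : ℝ} (hrk : r = ((2:ℝ) ^ kb)⁻¹) (hr : r ≠ 0) {o : Fin 2 → ℤ} {M : ℕ} {Ab Zs : Finset ℤ}
    (B : Slc L η r a o M Ab Zs x R)
    {r₁ : ℝ} (hr1 : r ≤ r₁) (hR1 : ∀ c, 2 * R c ≤ r₁)
    {Sc : Φ.F → Finset ({i // i ∉ Ar (baseT (D.sh a) hD) k (fun c => wmod a (k c)) Zc} ⊕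
      Σ c, κ c)}
    (hSc : ∀ c i, i ∈ Sc c ↔ i ∈ rg (tmesh Z F) x R c) :
    ND p s L η κ3 Φ q al h f1 (tmesh Z F) (Vc (tmesh Z F) x R) (D.sh a) (tau Z) (Op Φ (QL L) f1) g W
      Wt εf θ r₁ kb r hr o M Ab Zs x (fun c => 5 / 4 * R c) Sc := by
  have hL0 : (0:ℝ) < L := by exact_mod_cast hL
  have hr0 : 0 < r := B.r0
  have hr10 : 0 ≤ r₁ := hr0.le.trans hr1
  have hhh := edge_hh hRad hdim
  have hlog : ∀ c : Φ.F, IsLog q al h c.1 → ENNReal.ofReal (W c) = ENNReal.ofReal (h / 2) :=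
    fun c hc => by rw [hW.2.2.2.2.2 c hc]
  have hle : ∀ c : Φ.F, ENNReal.ofReal (W c) ≤ ENNReal.ofReal c.1.sz := fun c =>
    ENNReal.ofReal_le_ofReal (hW.2.2.2.2.1 c)
  have hdi : ∀ i, ∀ y ∈ Msh_715.P ((tmesh Z F).H i), ∀ u ∈ Msh_715.P ((tmesh Z F).H i),
      ‖y - u‖ ≤ r₁ := diam_tm Z F hρ (by rw [inv_pow, ← hrk]; exact hr1) hR1
  have h24 : ((8 * (3 : ℕ) : ℝ≥0∞)) = 24 := by norm_num
  have hedge : ∀ e : Edg (tmesh Z F), e.1 ⊆ Op Φ (QL L) f1 := fun e y hy =>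
    ⟨edg_sub_Om e hy, hhh e y hy⟩
  have hblk := B.blk (D := D.sh a) rfl hrk (hE.sh a)
  refine
    { oLa := hLa
      hom := H.homeo
      hh := fun e y hy c => hhh e y (by rw [← sgm_edg e]; exact hy) c
      edge := hedge
      sub := fun y hy => hy.1
      gm := H.gm
      good := hgood
      patch := fun e _ c => hac e (hedge e) c
      W0 := hW.1
      Wd := hW.2.1
      W1 := hW.2.2.1
      W2 := hW.2.2.2.1
      Wl := hW.2.2.2.2.2
      base := baseOn_tm Z F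
      eW := fun l => (H.eW l _ hlog hle).trans (by gcongr)
      Ep := fun l => (hEp l).trans (le_of_eq (by rw [h24]))
      E1 := fun l => (hE1 l).trans (le_of_eq (by rw [h24]))
      ES := hES.trans (by gcongr)
      vW := hvW
      hw := ?_
      tW := ?_
      shv := ?_
      geo := ?_
      rk := hrk
      blk := fun m hm => hblk m (B.sub hm)
      N0 := B.NA1
      AZ := B.half }
  · intro y hy hyW
    have hyH : y ∈ HH := by
      by_contra hn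
      exact hyW (by rw [hWt]; exact Or.inl (hW0 ⟨hy, hn⟩))
    obtain ⟨C, O, h1, h2⟩ := H.HHw y hyH
    exact ⟨C, O, h1, y, rfl, h2⟩
  · intro i hi c j hj hd
    rw [Set.not_disjoint_iff_nonempty_inter] at hd
    refine (touch_sub Z F hj hd).trans ?_
    rw [hWt]
    refine Subset.trans ?_ (subset_union_right.trans Subset.rfl)
    refine Subset.trans ?_ (subset_iUnion (fun c => closedBall (x c) (2 * R c)) c)
    exact closedBall_subset_closedBall (by have := hRad.r0 c; linarith)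
  · refine (measure_mono ?_).trans (Crest.Agent.R096.Shv_273.shell_vol (T := tmesh Z F) hL hη hr10
      hdi (fun c => ?_) (fun c i hi => rg_ball ((hSc c i).1 hi)))
    · exact biUnion_mono (fun i hi => hi.2) fun _ _ => Subset.rfl
    · have h1 := hR1 c
      have h2 := hRad.r0 c
      show 5 / 4 * R c ≤ r₁
      linarith
  · exact geo_tmesh Z F B.r0 hr (by rw [hrk, one_div]) B.M0 (KB_sub (by linarith [B.rη, B.r0]))
      (fun _ hτ => ExactOn.baseT (D := D.sh a) (h := hD) (hE.sh a) hτ)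
      (fun j => ⟨(B.lo j).1, (B.lo j).2.2⟩) (fun j => ⟨(B.hi j).1, (B.hi j).2.2⟩) B.zne B.zs
      (fun m hm => B.cub m (B.sub hm)) fun m hm v hv c => (B.dis m hm v hv c).mono_right
        (closedBall_subset_closedBall (by have := hRad.r0 c; linarith))

end

end Crest.Agent.R096.Nsl_552
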