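import Crest.Agent.R096.Npr1_582
import Crest.Agent.R096.Pg7_691
import Crest.Agent.R096.Nsl6_552
import Crest.Agent.R096.Npl2_477
import Crest.Agent.R096.Tme6_234
import Crest.Agent.R096.Shv1_273
import Crest.Agent.R096.Ps6_273
import Crest.Agent.R096.Aclt4_608

/-!
# Row 96, NO0 (helper582): the composition `NOPre p` for `p < 3`
-/

set_option autoImplicit false
set_option linter.unusedSectionVars false
set_option linter.unusedVariables false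
open Set Filter Topology MeasureTheory
open scoped NNReal ENNReal

noncomputable section

namespace Crest.Agent.R096.Npr_582

open Crest.AnalysisR.VecCalc3 Crest.AnalysisR.Sobolev
open Crest.Agent.R096.SkC1_961 (E3 Hom3 FoamD Cfg)
open Crest.Agent.R096.Bsp_628 Crest.Agent.R096.Brk1_582 Crest.Agent.R096.Brk3_582
open Crest.Agent.R096.Brk5_582 Crest.Agent.R096.Log2_582 Crest.Agent.R096.Dic1_582
open Crest.Agent.R096.Dic6_582
open Crest.Agent.R096.Msh_715 hiding P I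
open Crest.Agent.R096.Msh_810 (Dat Top Cel box)
open Crest.Agent.R096.Sk_962 (Q0 Qc0 dg SH)
open Crest.Agent.R096.Sk4_663 (Zd)
open Crest.Agent.R096.Sq_477
open Crest.Agent.R096.No_276 (QL NOPre PreG PreN fL)
open Crest.Agent.R096.Tms_582 Crest.Agent.R096.Tme_234 Crest.Agent.R096.Pg_691
open Crest.Agent.R096.Npl_477 (front_input exists_small)
open Crest.Agent.R096.Nsl_552 (ND preN_of exists_W nd_of)
open Crest.Agent.R096.Frm_234 (Sg Sg_finite)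
open Crest.Agent.R096.Ls_222 (us continuousOn_us)
open Crest.Agent.R096.Ps_273 (exists_shift4 Xs)
open Crest.Agent.R96.En9_199 (GGw)
open Crest.Agent.R096.Er_594 (SH3)
open Crest.Agent.R096.Mbf_337

theorem cN_pos (q : ℕ) : 0 < cN q := by
  unfold cN
  have := one_le_kF q
  positivity

/-- finitely many smallness conditions on a real number -/
theorem exists_pow_small {a b c : ℝ} (ha : 0 < a) (hb : 0 < b) (hc : 0 < c) :
    ∃ j : ℕ, (2 : ℝ)⁻¹ ^ j < a ∧ (2 : ℝ)⁻¹ ^ j < b ∧ (2 : ℝ)⁻¹ ^ j < c := by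
  obtain ⟨j, hj⟩ := exists_pow_lt_of_lt_one (lt_min ha (lt_min hb hc))
    (by norm_num : (2 : ℝ)⁻¹ < 1)
  exact ⟨j, hj.trans_le (min_le_left _ _),
    hj.trans_le ((min_le_right _ _).trans (min_le_left _ _)),
    hj.trans_le ((min_le_right _ _).trans (min_le_right _ _))⟩

theorem exists_pos_mul_le (C : ℝ≥0∞) (hC : C ≠ ⊤) {ε : ℝ≥0∞} (hε : 0 < ε) :
    ∃ d, 0 < d ∧ d ≠ ⊤ ∧ C * d ≤ ε := by
  obtain ⟨d, hd, hd'⟩ := exists_mul_le C hC hε
  exact ⟨min d 1, lt_min hd one_pos, (lt_of_le_of_lt (min_le_right _ _) ENNReal.one_lt_top).ne,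
    (mul_le_mul' le_rfl (min_le_left _ _)).trans hd'⟩

/-- **`NOPre p`, `p < 3`** -/
theorem noPre_lt {p : ℝ} (hp : 1 ≤ p) (hp3 : p < 3) : NOPre p := by
  refine ⟨Sg, 4, 1, Sg_finite, ENNReal.one_ne_top, fun s hs hs2 S1 hS1 => ?_⟩
  obtain ⟨S, KS, hSS, hKS, HN⟩ := preN_of (s := s) hp hs hS1
  refine ⟨S, KS, hSS, hKS, fun ε η L hL e₂ hε hη hη8 hL1 he₂ => ?_⟩
  have hLp : (0 : ℝ) < L := by exact_mod_cast hL1
  obtain ⟨εf, hεf, HN⟩ := HN ε η L e₂ hε hη hL1 he₂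
  -- accuracy of the front
  obtain ⟨e1, he1, he1t, he1f, he1ε⟩ : ∃ e1 : ℝ≥0∞, 0 < e1 ∧ e1 ≠ ⊤ ∧ e1 ≤ εf ∧
      e1 ≤ ENNReal.ofReal (ε / 16) :=
    ⟨min εf (ENNReal.ofReal (ε / 16)), lt_min hεf (by simpa using hε),
      (lt_of_le_of_lt (min_le_right _ _) ENNReal.ofReal_lt_top).ne, min_le_left _ _,
      min_le_right _ _⟩
  obtain ⟨q, hq, HF⟩ := exists_front hp hp3 s hs hs2 he1
  refine ⟨q, dF q, kF q, 6, cN q, 1, max 8 (4 * q), dF_pos hq, one_le_kF q, by norm_num, cN_pos q,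
    one_pos, le_max_left _ _, ?_⟩
  intro C0 C κp ε' hC0 hC hκp hε'
  obtain ⟨μ, hμ, hμκ, θ, hθ, r₁, hr₁, HN⟩ := HN q (max 8 (4 * q)) C κp ε' hC hκp hε'
  refine ⟨μ, hμ, hμκ, fun κ1 hκ1 => ?_⟩
  have hVt : volume (QL (L : ℝ)) ≠ ⊤ := by
    rw [Npl_477.vol_QL hLp]; exact ENNReal.ofReal_ne_top
  have h3p : (3 : ℝ≥0∞) ^ p ≠ ⊤ := ENNReal.rpow_ne_top_of_nonneg (by linarith) (by norm_num)
  have hθ2 : 0 < θ / 2 := ENNReal.div_pos hθ.ne' (by norm_num)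
  -- accuracy of the bad set
  obtain ⟨e2, he2, he2t, he2ε, he2v, he2E⟩ : ∃ e2 : ℝ≥0∞, 0 < e2 ∧ e2 ≠ ⊤ ∧
      e2 ≤ ENNReal.ofReal (ε / 16) ∧ e2 * volume (QL (L : ℝ)) ≤ θ / 2 ∧
      3 ^ p * (e2 * volume (QL (L : ℝ))) ≤ θ / 2 := by
    obtain ⟨d1, hd1, hd1t, hd1'⟩ := exists_pos_mul_le (volume (QL (L : ℝ))) hVt hθ2
    obtain ⟨d2, hd2, hd2t, hd2'⟩ := exists_pos_mul_le (3 ^ p * volume (QL (L : ℝ)))
      (ENNReal.mul_ne_top h3p hVt) hθ2
    refine ⟨min (ENNReal.ofReal (ε / 16)) (min d1 d2),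
      lt_min (by simpa using hε) (lt_min hd1 hd2),
      (lt_of_le_of_lt (min_le_left _ _) ENNReal.ofReal_lt_top).ne, min_le_left _ _, ?_, ?_⟩
    · calc _ ≤ d1 * volume (QL (L : ℝ)) :=
            mul_le_mul' ((min_le_right _ _).trans (min_le_left _ _)) le_rfl
        _ ≤ θ / 2 := by rw [mul_comm]; exact hd1'
    · calc _ ≤ 3 ^ p * (d2 * volume (QL (L : ℝ))) :=
            mul_le_mul' le_rfl (mul_le_mul' ((min_le_right _ _).trans (min_le_right _ _)) le_rfl)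
        _ = 3 ^ p * volume (QL (L : ℝ)) * d2 := by ring
        _ ≤ θ / 2 := hd2'
  obtain ⟨δ1, hδ1, HF⟩ := HF e2 he2
  -- accuracy for the ends of the lines
  obtain ⟨δ2, hδ2, hδ2'⟩ : ∃ δ2 : ℝ≥0∞, 0 < δ2 ∧
      16 * (16 * δ2 ^ p⁻¹) ≤ ENNReal.ofReal (ε / 2) := by
    obtain ⟨d, hd, hdt, hd'⟩ := exists_pos_mul_le (16 * 16) (by norm_num)
      (ε := ENNReal.ofReal (ε / 2)) (by simpa using hε)
    refine ⟨d ^ p, ENNReal.rpow_pos hd hdt, ?_⟩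
    rw [← ENNReal.rpow_mul, mul_inv_cancel₀ (by linarith), ENNReal.rpow_one, ← mul_assoc]
    exact hd'
  obtain ⟨dd, hdd, HI⟩ := front_input (s := s) hp hs2 hL1 hL (lt_min hδ1 hδ2)
  refine ⟨dd, hdd, fun U₀ W₀ f G hU hUb hUc hW₀ hW₀b hW₀c hQ hSH hE hZd => ?_⟩
  obtain ⟨hOm, hOmne, hOmf, hLa, hLab, hLac, Df, hSH3, hE3⟩ :=
    HI U₀ W₀ f G hU hUb hUc hW₀ hW₀b hW₀c hQ hSH hE
  obtain ⟨h₀, hh₀, HF⟩ := HF (QL L) _ (fL f L hL) Df hOm hOmne hOmf hLa hLab hSH3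
    (hE3.trans (mul_le_mul' (min_le_left _ _) le_rfl)) 3 le_rfl
  -- the size of the logs
  have hq' : (1 : ℝ) ≤ q := by exact_mod_cast hq
  obtain ⟨j, hj1, hj2, hj3⟩ := exists_pow_small hh₀ (b := ε / (C0 * (2 * q)))
    (by positivity) (c := ε / 8) (by positivity)
  set h : ℝ := (2 : ℝ)⁻¹ ^ j with hhd
  have hh : 0 < h := by positivity
  obtain ⟨al, Φ, z0, f1, X, HH, g, Fr⟩ := HF h hh hj1
  have hsz : C0 * (2 * q * h) ≤ ε := by
    rw [lt_div_iff₀ (by positivity)] at hj2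
    nlinarith
  have hh8 : 8 * h ≤ ε := by linarith
  have hd : ∃ k N : ℕ, h / 2 * 2 ^ k = N := by
    refine ⟨j + 1, 1, ?_⟩
    rw [hhd, inv_pow, pow_succ]
    field_simp
    norm_num
  obtain ⟨W, hW0, hWd, hW1, hW2, hW3, hWl⟩ := exists_W Φ hq hh hd al (κ3 := max 8 (4 * q))
    (le_max_left _ _) (le_max_right _ _)
  -- zones and the open set
  have hw : ∀ c : Φ.F, IsLog q al h c.1 → ENNReal.ofReal (W c) = ENNReal.ofReal (h / 2) :=
    fun c hc => by rw [hWl c hc]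
  have hw' : ∀ c : Φ.F, ENNReal.ofReal (W c) ≤ ENNReal.ofReal c.1.sz :=
    fun c => ENNReal.ofReal_le_ofReal (hW3 c)
  obtain ⟨θ', hθ', hθ'1, hθ'2⟩ : ∃ θ' : ℝ≥0∞, 0 < θ' ∧ θ' ≤ θ / 2 ∧
      θ' ≤ ENNReal.ofReal (1 / (128 * L)) :=
    ⟨min (θ / 2) (ENNReal.ofReal (1 / (128 * L))), lt_min hθ2
      (by rw [ENNReal.ofReal_pos]; positivity), min_le_left _ _, min_le_right _ _⟩
  obtain ⟨x, R, W', hRad, hRρ, hRs, hW'o, hHW, hW'Om, hWtv, hWtE⟩ :=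
    exists_small hp hOm hOmf hLa hLac he1t he2t Fr hw hw' hθ' (half_pos hr₁)
  have hθθ : θ / 2 + θ / 2 = θ := ENNReal.add_halves θ
  have hsum : ∀ S : Finset Φ.F, ∑ c ∈ S, 2 * R c ≤ 1 / (64 * L) := by
    intro S
    have h1 : ENNReal.ofReal (∑ c ∈ S, R c) ≤ ENNReal.ofReal (1 / (128 * L)) := by
      rw [ENNReal.ofReal_sum_of_nonneg fun c _ => (hRad.r0 c).le]
      exact ((ENNReal.sum_le_tsum S).trans hRs).trans hθ'2
    have h2 : ∑ c ∈ S, R c ≤ 1 / (128 * L) := by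
      rwa [ENNReal.ofReal_le_ofReal_iff (by positivity)] at h1
    rw [← Finset.mul_sum]
    calc 2 * ∑ c ∈ S, R c ≤ 2 * (1 / (128 * L)) := by linarith
      _ = 1 / (64 * L) := by field_simp; norm_num
  have hKBc := KB_compact hL1 η
  have hKBs : KB L η ⊆ QL L := KB_sub hη
  obtain ⟨rs, hrs, HS⟩ := exists_slc hL1 hη8 hη hRad.r0 (hRad.fin hKBc hKBs) hsum
  -- the mesh
  obtain ⟨Df1, hSf1⟩ := Fr.sh
  have hlo : ∀ c, (Φ.B c).lo = z0 c := fun c => by rw [Fr.pt c]; rfl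
  have hhi : ∀ c, (Φ.B c).hi = z0 c := fun c => by rw [Fr.pt c]; rfl
  obtain ⟨kb0, HT⟩ := exists_tm hp Φ hOm hLa (dF_pos hq) (by norm_num) hSf1 hκ1 1
    (fun c => by rw [hlo, hhi]) x (fun c => by rw [hlo]; exact hRad.fx c) R hRad.r0 hRad.sub
    hRad.inb (C := 6) (by norm_num) (fun _ => 1) (fun _ _ => le_add_of_nonneg_right dist_nonneg)
    (fun _ => zero_le_one) (fun _ _ => one_pos) hKBc hKBs
  obtain ⟨kb', hkb1, hkb2, -⟩ := exists_pow_small hrs hr₁ hr₁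
  set kb : ℕ := max kb0 kb' with hkbd
  have hpow : (2 : ℝ)⁻¹ ^ kb ≤ (2 : ℝ)⁻¹ ^ kb' :=
    pow_le_pow_of_le_one (by norm_num) (by norm_num) (le_max_right _ _)
  obtain ⟨k, Zc, κ, H, F, D, hD, hkk, hkKb, hDC, -, hDρ, hDE, hDKb, hae⟩ :=
    HT kb (le_max_left _ _)
  set r : ℝ := ((2 : ℝ) ^ kb)⁻¹ with hrd
  have hr0 : 0 < r := by positivity
  have hrk : r = 1 / 2 ^ kb := by rw [hrd, one_div]
  have hrs' : r ≤ rs := by rw [hrd, ← inv_pow]; exact hpow.trans hkb1.le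
  have hr₁' : (2 : ℝ)⁻¹ ^ kb ≤ r₁ := hpow.trans hkb2.le
  -- the ends of the lines
  obtain ⟨Se, hSem, hSeI, hSea⟩ := exists_ends hp hOm hOmf hSH3 s hE3 hrk
  -- the shift
  have hcF : Countable Φ.F := Ls_222.countable_F Φ
  obtain ⟨x', hx'⟩ := centres_of_front Fr
  have hcount : (D.Om \ Op Φ (QL L) f1).Countable := by
    rw [op_eq Fr hx', hD]
    exact (countable_range x').mono fun y hy => by
      by_contra hn
      exact hy.2 ⟨hy.1, hn⟩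
  have hsubO : Op Φ (QL L) f1 ⊆ D.Om := by rw [hD]; exact fun y hy => hy.1
  set Wt : Set E3 := W' ∪ ⋃ c, Metric.closedBall (x c) (2 * R c) with hWt
  have hWtm : MeasurableSet Wt :=
    hW'o.measurableSet.union (MeasurableSet.iUnion fun c => Metric.isClosed_closedBall.measurableSet)
  have hae2 := Aclt_608.ae_front Fr hLa (countable_sh (k := k) F)
  obtain ⟨a, -, ⟨⟨Z, hreg, hxI, hdim, J0, J, th, ph, hcores, hfine⟩, hEnd, hAF⟩, hgood, hav, hEp,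
    hE1, hES, hSe⟩ := exists_shift4 D (by norm_num) Fr.op hsubO hcount (v := us Φ f1)
    (fun c => continuousOn_us hLa Fr.homeo (fun x hx => hx.1) (fun x hx c => hx.2 c) c)
    (g := g) Fr.gm Fr.wd (fun c => ENNReal.ofReal (W c)) (fun l => ENNReal.ofReal (s l)) hp
    (R := fun _ : Unit => Wt) (fun _ => hWtm) (κ := fun _ => 100) (fun _ => by norm_num)
    (H := Se) hSem (θ := fun _ => ((2 : ℝ≥0∞) ^ kb) ^ 2 * (min δ1 δ2 ^ p⁻¹ * volume (QL (L : ℝ))))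
    hSeI (m := fun _ => 16) (fun _ => by norm_num) (by
      rw [tsum_fintype, tsum_fintype]
      simp only [Finset.univ_unique, Finset.sum_const, Finset.card_singleton, Finset.card_univ,
        Fintype.card_fin, one_smul, nsmul_eq_mul]
      have h1 : ((3 : ℕ) : ℝ≥0∞) * 100⁻¹ + ((2 : ℕ) : ℝ≥0∞) * 16⁻¹ =
          ENNReal.ofReal (3 * (100)⁻¹ + 2 * 16⁻¹) := by
        rw [ENNReal.ofReal_add (by norm_num) (by norm_num), ENNReal.ofReal_mul (by norm_num),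
          ENNReal.ofReal_mul (by norm_num), ENNReal.ofReal_inv_of_pos (by norm_num),
          ENNReal.ofReal_inv_of_pos (by norm_num)]
        norm_num
      have h2 : (1 / 2 : ℝ≥0∞) = ENNReal.ofReal (1 / 2) := by
        rw [ENNReal.ofReal_div_of_pos (by norm_num)]
        norm_num
      rw [h1, h2]
      exact (ENNReal.ofReal_lt_ofReal_iff (by norm_num)).2 (by norm_num))
    (Q := fun a => (∃ Z : Zones (baseT (D.sh a) hD) x R k (fun c => wmod a (k c)),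
        (∀ V, RegV (tmesh Z F) f1 V) ∧ (∀ c, ∃ i, x c ∈ Msh_715.I ((tmesh Z F).H i)) ∧
        (∀ c, (tmesh Z F).dim (x c) = 3) ∧
        ∃ (J0 J : Φ.F → Set ({i // i ∉ Ar (baseT (D.sh a) hD) k (fun c => wmod a (k c)) Zc} ⊕
            Σ c, κ c)) (θ : Φ.F → E3 → E3) (φ : Φ.F → E3 → ℝ),
          (∀ ct A lam z, Cores Φ (tmesh Z F) f1 κ1 1 ∅ J0 J (Vc (tmesh Z F) x R) ct A lam z θ φ) ∧
          Fine Φ (tmesh Z F) f1 κ1 J0) ∧
      (∀ j, Nend_458.EndB (QL (L : ℝ)) (fL f L hL) s j r (Se j) a) ∧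
      ∀ (Om' : Set E3) (ι : Type) (T : Tiling Om' ι) (e : Ls_222.Edg T),
        Aclt_608.Sh (Aclt_608.Ineq (Aclt_608.Fz k H)) a T {i | (Msh_715.P (T.H i) ∩ e.1).Nonempty} →
        e.1 ⊆ Op Φ (QL L) f1 → ∀ c,
        Crest.Agent.R96.Sg1_199.UGs (us Φ f1 c)
            (fun y => ‖Crest.Agent.R96.Sg5_199.gdir (g c) (Ls_222.ev e) y‖ₑ) (Ls_222.ea e)
            (Ls_222.ev e) ∧
          Crest.Agent.R96.Sg1_199.li (fun y => ‖Crest.Agent.R96.Sg5_199.gdir (g c) (Ls_222.ev e) y‖ₑ)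
            (Ls_222.ea e) (Ls_222.ev e) ≠ ∞)
    (hae.and (hSea.and hae2))
  -- the slices
  obtain ⟨o, M, A, Zs, B⟩ := HS r hr0 hrs' a
  have hev : (e1 + e2) * 8 ≤ ENNReal.ofReal ε := by
    calc (e1 + e2) * 8 ≤ (ENNReal.ofReal (ε / 16) + ENNReal.ofReal (ε / 16)) * 8 := by gcongr
      _ = ENNReal.ofReal ε := by
        rw [← ENNReal.ofReal_add (by positivity) (by positivity)]
        have : (8 : ℝ≥0∞) = ENNReal.ofReal 8 := by norm_num
        rw [this, ← ENNReal.ofReal_mul (by positivity)]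
        congr 1; ring
  have hp0 : 0 ≤ p⁻¹ := by positivity
  obtain ⟨Sc, d, hSc, hG⟩ := preG_tm (x := x) hL1 hLa hLac Fr hRad (κ1 := κ1) (κ2 := 1) ε' hε hC0.le hsz hh8 hev
    Z F hcores hfine (fun c => (hxI c).choose) (fun _ => AffineEquiv.refl ℝ E3) (fun _ => 1)
    (fun _ => 0) hDKb hrk hr0.ne' B hEnd (m := 16) (δ' := min δ1 δ2 ^ p⁻¹) hSe
    ((mul_le_mul' le_rfl (mul_le_mul' le_rfl
      (ENNReal.rpow_le_rpow (min_le_right _ _) hp0))).trans hδ2')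
  have hND : ND p s L η (max 8 (4 * q)) Φ q al h f1 (tmesh Z F) (Vc (tmesh Z F) x R) (D.sh a)
      (tau Z) (Op Φ (QL L) f1) g W Wt εf θ r₁ kb r hr0.ne' o M A Zs x (fun c => 5 / 4 * R c) Sc :=
    nd_of hL1 hLa Fr hRad hη ⟨hW0, hWd, hW1, hW2, hW3, hWl⟩ he1f hHW hWt
      (hWtv.trans ((add_le_add he2v hθ'1).trans hθθ.le))
      (hWtE.trans ((add_le_add he2E hθ'1).trans hθθ.le)) Z F hdim (by rw [hDC]; exact hDρ) hDKb
      (fun e he c => ⟨_, hAF _ _ (tmesh Z F) e ((sh_tmesh Z F).mono (subset_univ _)) he c⟩)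
      hgood hEp hE1 (hES ()) rfl hr0.ne' B (by rw [inv_pow] at hr₁'; exact hr₁')
      (fun c => by linarith [hRρ c]) hSc
  exact ⟨f1, al, h, Φ, _, tmesh Z F, ∅, J0, J, Vc (tmesh Z F) x R, fun c => (hxI c).choose,
    fun _ => AffineEquiv.refl ℝ E3, fun _ => 1, fun _ => 0, th, ph, fun _ => 0, Gno_324.𝒬0, r,
    hr0.ne', a, o, M, Zs, fun _ _ => True, Φ.F, x, fun c => 5 / 8 * R c, fun c => 5 / 4 * R c, Sc, d,
    fun _ => 0, fun _ => 0, Or.inl hp3, hG, fun ZZ m0 hZZ =>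
      HN hND (fun c => (hxI c).choose) (fun _ => AffineEquiv.refl ℝ E3) (fun _ => 1) (fun _ => 0)
        (fun _ => 0) (fun _ => 0) ZZ m0 hZZ⟩

end Crest.Agent.R096.Npr_582
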