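import Crest.Agent.R096.Nef3_778
import Crest.Agent.R096.Gt1_664
import Crest.Agent.R096.Nvm1_985
import Crest.Agent.R096.Afr1_112
import Crest.Agent.R096.Nefg1_628

/-!
# R096 (row 96), DOORS, NE1 (helper664): the machine instance of 778's `NE1`

`ne1` : every barrier has a point above the gauge `ρ3 + 7 d` which is not enclosed in `s₂`.
Over 778's `encl_core` (Nef3), 985's `never_m`, 112's `afree_out/in`, 628's `chart_rm`.
-/

set_option autoImplicit false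
set_option linter.unusedSectionVars false
set_option linter.unusedVariables false
set_option linter.style.longLine false

open Set Topology Filter Metric Module Relation
open scoped Classical

namespace Crest.Agent.R096.Nq_664

open Crest.Agent.R096.Msh_715 Crest.Agent.R096.Agl5_543 Crest.Agent.R096.St_147
  Crest.Agent.R096.Seq_213 Crest.Agent.R096.Door_501 Crest.Agent.R096.Sla_184
  Crest.Agent.R096.Twr_438 Crest.Agent.R096.Exa_560 Crest.Agent.R096.Ess3_95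
  Crest.Agent.R096.Ess4_95 Crest.Agent.R096.Dfi_539 Crest.Agent.R096.Dfi_471
  Crest.Agent.R096.Coh_184 Crest.Agent.R096.Lab_184 Crest.Agent.R096.Main_4
  Crest.Agent.R096.Cns_778 Crest.Agent.R096.Nef_778 Crest.Agent.R096.Gt_664
  Crest.Agent.R096.Sgo_298
open Crest.Agent.R096.Brk1_582 Crest.Agent.R096.Brk2_582 Crest.Agent.R096.Brk3_582
  Crest.Agent.R096.Brk5_582 Crest.Agent.R096.Bsp_628 Crest.Agent.R096.Init_543
  Crest.Agent.R096.Bar_106 Crest.Agent.R096.Dib_438 Crest.Agent.R096.Lam_847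
  Crest.Agent.R096.Ess5_95 Crest.Agent.R096.Bgf_4 Crest.Agent.R096.Ebr1_95
  Crest.Agent.R096.Ebr4_95 Crest.Agent.R096.Rop_441 Crest.Agent.R096.Nmd1_698
  Crest.Agent.R096.Lbc_334 Crest.Agent.R096.Lv4_471
open Crest.Agent.R096.Mbf_337 (sb KJ Tiny gau Cores Fine)
open Crest.Agent.R096.SkC1_961 (E3 FoamD Hom3)
open Crest.Agent.R096.Frn_337 (Ti)
open Crest.Agent.R096.Frs_662 (slC)
open Crest.Agent.R096.Ess7_95 (KT Sh)
open Crest.Agent.R096.Dff_539 (vS)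
open Crest.Agent.R096.Bmf_416 (coT)
open Crest.Agent.R096.Sde_422 (gR ga_ge bz_rec)

variable {δ κ0 R c0 : ℝ} {La Om : Set E3} {ι : Type} {Φ : FoamD δ κ0 R c0 La} {T : Tiling Om ι}
  {f g : E3 → E3} {κ1 κ2 μ : ℝ} {X : Set Φ.F} {J0 J V : Φ.F → Set ι}
  {ct ct' : Φ.F → ι} {A : Φ.F → E3 ≃ᵃ[ℝ] E3} {lam : Φ.F → ℝ} {z : Φ.F → E3}
  {θ : Φ.F → E3 → E3} {φ : Φ.F → E3 → ℝ} {r₀ : Φ.F → ℝ}
  {L : Φ.F → Finset ℝ} [Nonempty (JJ Φ L)] {hG : GF Φ r₀ T f L} {bp : JJ Φ L → E3}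
  {N' : BM Φ X → Set ℝ} {ρ1 ρ2 ρ3 ρ4 d : Φ.F → ℝ} {q₀ : BM Φ X → E3} {ε : BM Φ X → ℝ}
  {bm : BM Φ X → E3} {hGB : GFB Φ r₀ T f L (lRc Φ X μ ρ1 ρ3 d) ε}
  {v0F v1F : ∀ c, Φ.F → VxK T (KT T J X) c} {v0B v1B : ∀ c, BM Φ X → VxK T (KT T J X) c}
  {hLa : IsOpen La} {hC : Cores Φ T f κ1 κ2 X J0 J V ct A lam z θ φ}
  {n : Ti X → ℕ} {hn : ∀ c, 0 < n c} {r : JJ Φ L → E3}
  {Sf : JJ Φ L ⊕ BM Φ X → Set E3}
  {Lv : ∀ c, Φ.F ⊕ BM Φ X → Lev T (frontier ((slC hLa hC n hn).K c)) (JJ Φ L ⊕ BM Φ X)}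
  {Tw : Twrs ((slC hLa hC n hn).sh fr3) (slC hLa hC n hn).n
    (outK (slC hLa hC n hn).hH (slC hLa hC n hn).dis (stB hGB bp bm) (Sum.elim r bm))}
  {l0' : E3 → JJ Φ L ⊕ BM Φ X}

section s2

variable (N : NumD δ κ0 R c0 κ2 μ κ1) (hI : InitR Φ T f g J0 ct' r₀)
  (hLm : ∀ c, ∀ t ∈ L c, μ ≤ t ∧ t ≤ 1 - μ)
  (bar : BarOut Φ T f κ1 μ X J0 J V θ hG bp N' ρ1 ρ2 ρ3 ρ4 d q₀ ε bm hGB v0B v1B)
  (D : DIn (slC hLa hC n hn).hH (stB hGB bp bm) (Sum.elim r bm) Sf (nbA Φ X) (vS v0F v0B)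
    (vS v1F v1B) (uA Φ hLa X θ) (AA Φ X μ κ1) (BA Φ X μ))
  (lo : LevOut (Kc := (slC hLa hC n hn).K) (stB hGB bp bm) (nbA Φ X) (uA Φ hLa X θ)
    (AA Φ X μ κ1) (BA Φ X μ) Lv)
  (tt : TwOut (slC hLa hC n hn) fr3 (stB hGB bp bm) (Sum.elim r bm) (vS v0F v0B) (vS v1F v1B) Lv
    Tw)
  (rec : BR hLa (stB hGB bp bm) f X J θ coT BM.am BM.Zm (nbA Φ X) (vS v0F v0B) (vS v1F v1B)
    (uA Φ hLa X θ) (AA Φ X μ κ1) (BA Φ X μ) μ κ1)

/-- **the top part of an enclosed set** -/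
theorem top_sub (hLa : IsOpen La) (N : NumD δ κ0 R c0 κ2 μ κ1) (hI : InitR Φ T f g J0 ct' r₀)
    (hLm : ∀ c, ∀ t ∈ L c, μ ≤ t ∧ t ≤ 1 - μ)
    (bar : BarOut Φ T f κ1 μ X J0 J V θ hG bp N' ρ1 ρ2 ρ3 ρ4 d q₀ ε bm hGB v0B v1B)
    (rec : BR hLa (stB hGB bp bm) f X J θ coT BM.am BM.Zm (nbA Φ X) (vS v0F v0B) (vS v1F v1B)
      (uA Φ hLa X θ) (AA Φ X μ κ1) (BA Φ X μ) μ κ1)
    {Gn : BM Φ X → Set E3} (g1 : ∀ m, IsPreconnected (Gn m))
    (g2 : ∀ m, Gn m ⊆ GmT Om Φ f X μ ρ1 ρ3 d ε m)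
    (g3 : ∀ m, ∀ x ∈ Gn m, Φ.lev m.am (f x) ≤ 3 * μ / 8 + 2 * d m.co) {m : BM Φ X} {Y : Set E3}
    (hY2 : ∀ F x, x ∈ Y → (s2 (slC hLa hC n hn) fr3 Tw l0').At F x →
      Dfo_539.NoX (s2 (slC hLa hC n hn) fr3 Tw l0') m.am F x →
        (s2 (slC hLa hC n hn) fr3 Tw l0').mu F x ∈ Y)
    {w : E3} (hw : w ∈ (s2 (slC hLa hC n hn) fr3 Tw l0').P)
    (hl : (s2 (slC hLa hC n hn) fr3 Tw l0').lab w = Sum.inr m) (hwG : w ∈ Gn m) (hwY : w ∈ Y)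
    {u : E3} (hu : u ∈ (stB hGB bp bm).P) (hul : (stB hGB bp bm).lab u = Sum.inr m)
    (huG : u ∈ Gn m) :
    u ∈ (outK (slC hLa hC n hn).hH (slC hLa hC n hn).dis (stB hGB bp bm) (Sum.elim r bm)).P ∧
      u ∈ Y := by
  obtain ⟨n1, n2, n3, n4, n5, n6⟩ := N.base
  have hRm := rmA_of bar
  have U := upp_m (hLa := hLa) (hC := hC) (n := n) (hn := hn) (r := r) hI n4 hLm bar
  have hs : ∀ m, Gn m ⊆ GmB Om Φ f X ρ1 ρ3 d (μ / 16) (μ / 8) (1 / 2) (1 / 2 - 5 * μ / 16) ε m :=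
    fun m => (g2 m).trans (gmT_sub hRm m)
  have : Nonempty (JJ Φ L ⊕ BM Φ X) := ⟨Sum.inr m⟩
  refine ⟨(U.mem_out (cl_of hu hul (hs m huG))).1, ?_⟩
  refine conn_sub (am := BM.am) U g1 hs (m := m) (a := m.am) rfl hw hl hwG hwY ?_
    (cl_of hu hul huG)
  rintro F ⟨m', ha', F0, rfl, q, hqF, x', hx'q, hx'G⟩ y hy hA hly
  refine hY2 _ y hy hA (nox_old ?_ y)
  have hT := g2 m' hx'G
  obtain ⟨c1, c2, c3, c4, c5, c6, c7⟩ := caps bar.barF bar.lv m'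
  have k1 : ρ3 m'.co + 7 * d m'.co ≤ ga Φ m'.co (f x') := hT.2.2
  have k2 : ga Φ m'.co (f x') ≤ rB ρ1 ρ3 d m'.co + Bgf_4.hB ρ1 ρ3 d m'.co * ε m' :=
    (bar.barF.pos (bar.lv m').2 hT.2.1).2.1
  have k3 := g3 m' x' hx'G
  have k4 := (bar.rm m'.co m'.co_notMem).1
  have h := Afr_112.afree_out N bar rec m' hx'q (by linarith) (by linarith)
    (Or.inl (by linarith)) F0.1 hqF
  intro y' h1 h2 i h3 h4
  exact h y' h1 h2 i h3 (h4.trans ha'.symm)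

include N hI hLm bar D lo tt rec

set_option maxHeartbeats 4000000 in
/-- **NE1** : the wall point is not enclosed -/
theorem ne1 {Rr : Set ι} (m : BM Φ X) :
    ∃ w ∈ (stB hGB bp bm).P, (stB hGB bp bm).lab w = Sum.inr m ∧
      ρ3 m.co + 7 * d m.co ≤ ga Φ m.co (f w) ∧
      ¬ Dfo_539.Encl (s2 (slC hLa hC n hn) fr3 Tw l0') BM.am
        (fun _ => ActR (slC hLa hC n hn) Rr) m w := by
  obtain ⟨n1, n2, n3, n4, n5, n6⟩ := N.base
  have H := hI.hm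
  have hRm := rmA_of bar
  have U := upp_m (hLa := hLa) (hC := hC) (n := n) (hn := hn) (r := r) hI n4 hLm bar
  obtain ⟨hd1, hr⟩ := bar.rm m.co m.co_notMem
  have hd0 := hr.d0
  obtain ⟨lm, hlm, LOW, HIGH⟩ := bar.lab m
  obtain ⟨Gn, g1, g2, g3, g4⟩ := exists_Gn n4 n5 (by linarith) hLa H bar
  obtain ⟨w, h1, h2, h3, h4, h5, h6, h7, q0, hqV, hwq, x0, hx0, hxg, hxl, -⟩ :=
    Wy_664.exists_wall hLa N.hδ N.hR H N.hμ (by linarith) le_rfl bar.barF hGB bar.lv m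
      (by linarith) hlm LOW HIGH
  have hwT : w ∈ GmT Om Φ f X μ ρ1 ρ3 d ε m := mem_gmT hLa bar h1 h2 (by linarith)
  have hwG : w ∈ Gn m := g4 m w h1 h2 ⟨q0, hwq, x0, hx0, hxg, hxl⟩
  obtain ⟨h8, h9⟩ := U.mem_s2' (Tw := Tw) (l0 := l0') (cl_of h1 h2 (gmT_sub hRm m hwT))
  refine ⟨w, h1, h2, by linarith, ?_⟩
  rintro ⟨Y, hwY, hY1, hY2, hY3⟩
  -- the numbers
  obtain ⟨b1, b2, b3, b4⟩ := rad_bar (fun c hc => (bar.rm c hc).2) m (bar.lv m)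
  have hε1 : 1 < ε m := (bar.lv m).1
  have hε2 : ε m ≤ 1 + μ / 16 := (bar.lv m).2.le.trans (hiB_le _ _)
  have hra : 0 < 1 / 2 - 5 * μ / 16 := by linarith
  have hω0 : 0 < max (d m.co / (μ / 8)) (d m.co / (1 / 2 - 5 * μ / 16)) :=
    lt_max_of_lt_left (by positivity)
  have hω1 : max (d m.co / (μ / 8)) (d m.co / (1 / 2 - 5 * μ / 16)) ≤ μ / 64 := by
    refine max_le ?_ ?_
    · rw [div_le_iff₀ (by positivity)]
      nlinarith
    · rw [div_le_iff₀ hra]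
      nlinarith
  -- the strip
  obtain ⟨p, q, hM⟩ := m.mo
  have hpt := bar.barF.pt m
  obtain ⟨Wz, hWc, hWi, hW, hDc, hDt, -⟩ := Nefg_628.chart_rm (l0 := μ / 8) (mm := 1 / 2)
    (ra := 1 / 2 - 5 * μ / 16) (s0 := ρ1 m.co + 6 * d m.co) (s1 := ρ3 m.co + 9 * d m.co)
    (t0 := 3 * μ / 8) (w1 := μ / 4) hLa H hM hr hpt (by linarith [hr.r1])
    (by linarith [hr.r12, hr.r23]) (by linarith [hr.r34]) ⟨by linarith, by linarith⟩
    (by linarith) (by linarith)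
  set s0 : ℝ := ρ1 m.co + 6 * d m.co with hs0
  set s1 : ℝ := ρ3 m.co + 9 * d m.co with hs1
  have hs01 : s0 ≤ s1 := by linarith [hr.r12, hr.r23]
  set Rt : Set (ℝ × ℝ) := Icc s0 s1 ×ˢ Icc 0 (μ / 4) with hRt
  have m0 : (0 : ℝ) ∈ Icc (0 : ℝ) (μ / 4) := ⟨le_rfl, by linarith⟩
  have m1 : (μ / 4 : ℝ) ∈ Icc (0 : ℝ) (μ / 4) := ⟨by linarith, le_rfl⟩
  have mt : |3 * μ / 8 - 1 / 2| / (1 / 2 - 5 * μ / 16) ≤ 1 - μ / 8 := by
    rw [div_le_iff₀ hra, abs_of_nonpos (by linarith)]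
    nlinarith
  -- a tile which meets the strip
  have htile : ∀ {q : ι} {zz : ℝ × ℝ}, zz ∈ Rt → Wz zz ∈ P (T.H q) →
      ρ1 m.co ≤ ga Φ m.co (f (Wz zz)) ∧ ga Φ m.co (f (Wz zz)) ≤ ρ4 m.co ∧
      Φ.lev m.am (f (Wz zz)) ≤ 7 * μ / 16 := by
    intro q zz hz _
    obtain ⟨k1, k2, k3, k4, k5⟩ := hW zz hz
    rw [k2, k4]
    refine ⟨by linarith [hz.1.1], by linarith [hz.1.2, hr.r34], by linarith⟩
  -- the three sides
  set A1 : Set (ℝ × ℝ) := Icc s0 s1 ×ˢ {0} with hA1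
  set A2 : Set (ℝ × ℝ) := {s0} ×ˢ Icc 0 (μ / 4) with hA2
  set A3 : Set (ℝ × ℝ) := Icc s0 s1 ×ˢ {μ / 4} with hA3
  have s1R : A1 ⊆ Rt := by
    rintro ⟨a, b⟩ ⟨ha, hb⟩
    have hb' : b = 0 := hb
    subst hb'
    exact ⟨ha, m0⟩
  have s2R : A2 ⊆ Rt := by
    rintro ⟨a, b⟩ ⟨ha, hb⟩
    have ha' : a = s0 := ha
    subst ha'
    exact ⟨⟨le_rfl, hs01⟩, hb⟩
  have s3R : A3 ⊆ Rt := by
    rintro ⟨a, b⟩ ⟨ha, hb⟩
    have hb' : b = μ / 4 := hb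
    subst hb'
    exact ⟨ha, m1⟩
  have hKR : A1 ∪ A2 ∪ A3 ⊆ Rt := union_subset (union_subset s1R s2R) s3R
  have hKc : IsPreconnected (A1 ∪ A2 ∪ A3) := by
    have c1 : IsPreconnected A1 := isPreconnected_Icc.prod isPreconnected_singleton
    have c2 : IsPreconnected A2 := isPreconnected_singleton.prod isPreconnected_Icc
    have c3 : IsPreconnected A3 := isPreconnected_Icc.prod isPreconnected_singleton
    refine IsPreconnected.union (s0, μ / 4) (Or.inr ⟨rfl, m1⟩) ⟨⟨le_rfl, hs01⟩, rfl⟩ ?_ c3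
    exact IsPreconnected.union (s0, 0) ⟨⟨le_rfl, hs01⟩, rfl⟩ ⟨rfl, m0⟩ c1 c2
  set A4 : Set (ℝ × ℝ) := {s1} ×ˢ Icc 0 (μ / 4) with hA4
  have s4R : A4 ⊆ Rt := by
    rintro ⟨a, b⟩ ⟨ha, hb⟩
    have ha' : a = s1 := ha
    subst ha'
    exact ⟨⟨hs01, le_rfl⟩, hb⟩
  have hKc' : IsPreconnected A4 := isPreconnected_singleton.prod isPreconnected_Icc
  have hpos : ∀ {u : E3}, u ∈ (stB hGB bp bm).P → (stB hGB bp bm).lab u = Sum.inr m →
      gR Φ X μ m (Φ.Psi (f u)) ≤ ε m ∧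
      (ga Φ m.co (f u) = rB ρ1 ρ3 d m.co - Bgf_4.hB ρ1 ρ3 d m.co * ε m ∨
        ga Φ m.co (f u) = rB ρ1 ρ3 d m.co + Bgf_4.hB ρ1 ρ3 d m.co * ε m ∨
        gR Φ X μ m (Φ.Psi (f u)) = ε m) := by
    intro u hu hul
    obtain ⟨-, -, -, -, -, -, k3, k4⟩ := bar.pos m u hu hul
    exact ⟨k3, k4⟩
  -- a vertex of a tile at a point
  have hvx : ∀ x ∈ Om, ∃ q v, x ∈ P (T.H q) ∧ v ∈ P (T.H q) ∧ T.dim v = 0 := by
    intro x hx
    obtain ⟨i, hi⟩ := T.cov x hx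
    obtain ⟨v, hv, hv0⟩ := exists_vertex_tile hi
    exact ⟨i, v, hi, hv, hv0⟩
  have e0R : ((s1, 0) : ℝ × ℝ) ∈ Rt := ⟨⟨hs01, le_rfl⟩, m0⟩
  have e1R : ((s1, μ / 4) : ℝ × ℝ) ∈ Rt := ⟨⟨hs01, le_rfl⟩, m1⟩
  obtain ⟨qa, va, hqa, hva, hva0⟩ := hvx _ (hW _ e0R).1
  obtain ⟨qb, vb, hqb, hvb, hvb0⟩ := hvx _ (hW _ e1R).1
  have hfin := encl_core (S := slC hLa hC n hn) (h3 := fr3) (am := BM.am) (l0 := l0') tt
    (R := Rr) (m := m) (Y := Y) hY1 hY2 hY3 (D := Wz '' Rt) hDc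
    (by rintro _ ⟨zz, hz, rfl⟩; exact (hW zz hz).1) hDt
    (by
      rintro q ⟨_, hxq, zz, hz, rfl⟩ F hq y hy hyF i hl
      obtain ⟨k1, k2, k3⟩ := htile hz hxq
      exact Afr_112.afree_out N bar rec m hxq k1 k2 (Or.inl k3) F hq y hy hyF i hl)
    (by
      rintro q ⟨_, hxq, zz, hz, rfl⟩ k e he j hj
      obtain ⟨k1, k2, k3⟩ := htile hz hxq
      obtain ⟨k4, k5⟩ := Afr_112.afree_in N bar D lo tt rec m hxq k1 k2 (Or.inl k3) k e he j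
      exact ⟨fun j' _ => k4 j', k5⟩)
    (K := Wz '' (A1 ∪ A2 ∪ A3)) (K' := Wz '' A4) (image_mono hKR)
    (hKc.image _ (hWc.mono hKR)) (image_mono s4R) (hKc'.image _ (hWc.mono s4R))
    (by
      -- no points on the three sides
      rintro q ⟨_, hxq, zz, hz, rfl⟩ hqo u hu hul huq
      obtain ⟨k1, k2, k3⟩ := htile (hKR hz) hxq
      obtain ⟨l1, l2, l3, l4, l5⟩ := hW zz (hKR hz)
      have o1 := abs_le.1 (hr.tile_osc hxq k1 k2 huq).1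
      have o2 := abs_le.1 (bar.barF.osc m q (Wz zz) hxq k1 k2 u huq)
      obtain ⟨p1, p2⟩ := hpos hu hul
      have o2' : |gR Φ X μ m (Φ.Psi (f (Wz zz))) - gR Φ X μ m (Φ.Psi (f u))| ≤
        max (d m.co / (μ / 8)) (d m.co / (1 / 2 - 5 * μ / 16)) := abs_le.2 o2
      have o3 := abs_le.1 o2'
      have l5' : gR Φ X μ m (Φ.Psi (f (Wz zz))) =
        max (zz.2 / (μ / 8)) (|3 * μ / 8 - 1 / 2| / (1 / 2 - 5 * μ / 16)) := l5
      rw [l5'] at o3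
      rw [l2] at o1
      rcases hz with (hz | hz) | hz
      · have e1 : zz.2 = 0 := hz.2
        rw [e1, zero_div] at o3
        have e2 : max (0 : ℝ) (|3 * μ / 8 - 1 / 2| / (1 / 2 - 5 * μ / 16)) ≤ 1 - μ / 8 :=
          max_le (by linarith) mt
        have z1 := hz.1.1
        have z2 := hz.1.2
        rcases p2 with p2 | p2 | p2
        · linarith [o1.1, o1.2]
        · linarith [o1.1, o1.2]
        · linarith [o3.1, o3.2]
      · have e1 : zz.1 = s0 := hz.1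
        have h11 := Sla.out_of_tile hqo hxq
        have h12 : ρ2 m.co ≤ ga Φ m.co (f (Wz zz)) := by
          refine ga_ge hLa H hC m.co_notMem (bz_rec N H hLa hC bar m) l1 ?_
          intro h13
          refine h11.2 (coT m) ⟨interior_subset h13, fun h14 => h14.2 h13⟩
        rw [l2, e1] at h12
        linarith [hr.r12]
      · have e1 : zz.2 = μ / 4 := hz.2
        rw [e1] at o3
        have e2 : (2 : ℝ) ≤ max (μ / 4 / (μ / 8)) (|3 * μ / 8 - 1 / 2| / (1 / 2 - 5 * μ / 16)) := by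
          refine le_max_of_le_left ?_
          rw [le_div_iff₀ (by positivity)]
          linarith
        linarith [o3.1, o3.2])
    (by
      -- no moved vertices
      rintro q ⟨_, hxq, zz, hz, rfl⟩ c hqc v hv j hj
      obtain ⟨k1, k2, k3⟩ := htile (hKR hz) hxq
      obtain ⟨l1, l2, l3, l4, l5⟩ := hW zz (hKR hz)
      have l5' : gR Φ X μ m (Φ.Psi (f (Wz zz))) =
        max (zz.2 / (μ / 8)) (|3 * μ / 8 - 1 / 2| / (1 / 2 - 5 * μ / 16)) := l5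
      rcases hz with (hz | hz) | hz
      · have e1 : zz.2 = 0 := hz.2
        refine Nvm1_985.never_m N H bar D lo tt m hxq k1 k2 (Or.inl ?_) c v hv j
        rw [l5', e1, zero_div]
        exact max_le (by linarith) mt
      · intro hQ
        have e1 : zz.1 = s0 := hz.1
        have hk0 : nbA Φ X c (Sum.inr m) := qv_nb D tt hQ
        have hk : coT m = c := hk0
        subst hk
        have h12 := (hr.fr v.1 v.2.2).1
        have o1 := abs_le.1 (hr.tile_osc hxq k1 k2 hv).1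
        rw [l2, e1] at o1
        linarith [hr.r12, o1.1, o1.2]
      · have e1 : zz.2 = μ / 4 := hz.2
        refine Nvm1_985.never_m N H bar D lo tt m hxq k1 k2 (Or.inr ?_) c v hv j
        rw [l5', e1]
        refine le_max_of_le_left ?_
        rw [le_div_iff₀ (by positivity)]
        linarith)
    (by
      -- the top side is outside the cores
      rintro q ⟨_, hxq, zz, hz, rfl⟩ c hqc
      obtain ⟨l1, l2, l3, l4, l5⟩ := hW zz (s4R hz)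
      have e1 : zz.1 = s1 := hz.1
      refine out_core hLa H hC (fun c hc => (bar.rm c hc).2) m.co_notMem (x := Wz zz) ?_ ?_ c.1
        (hqc hxq)
      · intro i hi
        obtain ⟨k1, k2, -⟩ := htile (s4R hz) hi
        exact (hr.tile hi k1 k2).1
      · rw [l2, e1]
        linarith)
    (by
      -- the points on the top side
      rintro q ⟨_, hxq, zz, hz, rfl⟩ u hu hul huq
      obtain ⟨l1, l2, l3, l4, l5⟩ := hW zz (s4R hz)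
      have e1 : zz.1 = s1 := hz.1
      have huG : u ∈ Gn m := g4 m u hu hul ⟨q, huq, Wz zz, hxq, by rw [l2, e1], l4.le⟩
      exact top_sub hLa N hI hLm bar rec g1 g2 g3 (m := m) hY2 h8 h9 hwG hwY hu hul huG)
    (lm := lm) hlm.lab (x := Wz (s1, 0)) (y := Wz (s1, μ / 4)) (v := va) (w := vb)
    (mem_image_of_mem _ (Or.inl (Or.inl ⟨⟨hs01, le_rfl⟩, rfl⟩)))
    (mem_image_of_mem _ ⟨rfl, m0⟩)
    (mem_image_of_mem _ (Or.inr ⟨⟨hs01, le_rfl⟩, rfl⟩))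
    (mem_image_of_mem _ ⟨rfl, m1⟩) ⟨qa, hva, hqa⟩ ⟨qb, hvb, hqb⟩ hva0 hvb0
  -- the labels at the two ends
  obtain ⟨pl, hPol⟩ := bar.barF.pol hLa m
  have hGM : GM Φ m.co (gR Φ X μ m) 0 (1 + μ / 2) :=
    gm_moat hLa N.hδ N.hR hM (Ebr6_95.nm_rec n4 (by linarith))
  obtain ⟨ka1, ka2, -⟩ := htile e0R hqa
  obtain ⟨kb1, kb2, -⟩ := htile e1R hqb
  obtain ⟨la1, la2, -, -, la5⟩ := hW _ e0R
  obtain ⟨lb1, lb2, -, -, lb5⟩ := hW _ e1R
  have oa := abs_le.1 (hr.tile_osc hqa ka1 ka2 hva).1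
  have oa' := abs_le.1 (bar.barF.osc m qa _ hqa ka1 ka2 va hva)
  have ob' := abs_le.1 (bar.barF.osc m qb _ hqb kb1 kb2 vb hvb)
  rw [la2] at oa
  have l5a : gR Φ X μ m (Φ.Psi (f (Wz (s1, 0)))) ≤ 1 - μ / 8 := by
    rw [show gR Φ X μ m (Φ.Psi (f (Wz (s1, 0)))) =
      max (0 / (μ / 8)) (|3 * μ / 8 - 1 / 2| / (1 / 2 - 5 * μ / 16)) from la5, zero_div]
    exact max_le (by linarith) mt
  have l5b : 2 ≤ gR Φ X μ m (Φ.Psi (f (Wz (s1, μ / 4)))) := by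
    rw [show gR Φ X μ m (Φ.Psi (f (Wz (s1, μ / 4)))) =
      max (μ / 4 / (μ / 8)) (|3 * μ / 8 - 1 / 2| / (1 / 2 - 5 * μ / 16)) from lb5]
    refine le_max_of_le_left ?_
    rw [le_div_iff₀ (by positivity)]
    linarith
  have oa2 : |gR Φ X μ m (Φ.Psi (f (Wz (s1, 0)))) - gR Φ X μ m (Φ.Psi (f va))| ≤
    max (d m.co / (μ / 8)) (d m.co / (1 / 2 - 5 * μ / 16)) := abs_le.2 oa'
  have ob2 : |gR Φ X μ m (Φ.Psi (f (Wz (s1, μ / 4)))) - gR Φ X μ m (Φ.Psi (f vb))| ≤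
    max (d m.co / (μ / 8)) (d m.co / (1 / 2 - 5 * μ / 16)) := abs_le.2 ob'
  have oa3 := abs_le.1 oa2
  have ob3 := abs_le.1 ob2
  have r1 : lm va = 1 := by
    refine LOW (1 - μ / 16) (by linarith) (hGM.le_conn hPol ⟨by linarith, by linarith⟩)
      (by linarith) va (T.sub qa hva) hva0 ?_ ?_ ?_
    · linarith [oa.1, oa.2, hr.r12, hr.r23]
    · linarith [oa.1, oa.2]
    · show gR Φ X μ m (Φ.Psi (f va)) ≤ _
      linarith [oa3.1, oa3.2]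
  have r2 : lm vb = 0 := by
    refine HIGH (1 + μ / 4) (by linarith) (hGM.ge_conn hPol ⟨by linarith, by linarith⟩) ?_ vb
      (T.sub qb hvb) hvb0 (Or.inr (Or.inr ?_))
    · obtain ⟨q1, h13, h14⟩ := hGM.high
      exact ⟨q1, h13, by
        have h15 : 1 + μ / 2 ≤ gR Φ X μ m q1 := h14
        show 1 + μ / 4 ≤ gR Φ X μ m q1
        linarith⟩
    · show _ ≤ gR Φ X μ m (Φ.Psi (f vb))
      linarith [ob3.1, ob3.2]
  rw [r1, r2] at hfin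
  exact one_ne_zero hfin

end s2

end Crest.Agent.R096.Nq_664
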