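import Crest.Agent.R096.Np3_962

/-!
# Row 96 (S0127), helper645, node NO0-PRE3, [X9] of 962 #11402: "nonQ <- classes"

The weighted energy of a set `R` of ordinary tiles of a shiftable mesh (`MF`, helper199) is at most the
sum over its classes of the energies of the classes.

* `wEE_le`: general form, the integrand `Gk k` and the factor `K k` depend on the class;
* `Gkc`, `Kc`: `GV` on the classes which move with `a`, `8 Cl * Gd' D'` on the classes of a block;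
* `nonQ_le`: the form for the field `nonQ` of `Np_962.MeshN` (core tiles `V c = {ct c}`);
* `nonQ_le_EnC`: the classes bounded by `lam k * m k` (`bl k = none`) and by `EnC` at the total shift of
  the block (`bl k = some j`), the output of `Np_962.PremachN`.
-/

set_option autoImplicit false
set_option linter.style.longLine false
set_option linter.unusedSectionVars false

open MeasureTheory Set Filter Metric
open scoped Topology ENNReal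

namespace Crest.Agent.R096.Nqc_645

open Crest.Agent.R096.Msh_715
open Crest.Agent.R096.SkC1_961 (E3 Cfg FoamD Hom3)
open Crest.Agent.R096.Ls_222
open Crest.Agent.R096.Ea_713 (lin)
open Crest.Agent.R96.Pm_199
open Crest.Agent.R96.Sg1_199 (li sgm)
open Crest.Agent.R96.Sg3_199 (EnF)
open Crest.Agent.R096.Pmc_112 (norm_lin_le Gd')
open Crest.Agent.R096.Np_962 (GV PreOutN)

noncomputable section

variable {Om : Set E3} {F J : Type}

/-- **weighted energy of a set of ordinary tiles <= energies of the classes** -/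
theorem wEE_le (M : MF Om F J) {Cs : Set (Set E3) → ℝ} (hC0 : ∀ 𝒦, 0 ≤ Cs 𝒦) {Cm : M.κ → ℝ}
    (hC : ∀ k, ∀ 𝒦 ∈ M.Sh k, Cs 𝒦 ≤ Cm k) (G : E3 → E3 → ℝ≥0∞) (Gk : M.κ → E3 → E3 → ℝ≥0∞)
    (K : M.κ → ℝ≥0∞) {p : ℝ} (hp : 0 ≤ p) {a : E3} {w : J → E3} (h : M.Ok a w)
    {R : Set (M.md a w h).ι} (hR : ∀ i ∈ R, (M.md a w h).Ord i) {S : Set M.κ}
    (hRS : ∀ i ∈ R, M.cl (M.pot a w h i) ∈ S)
    {cw : (M.md a w h).ι → ℝ≥0∞} {cwm : M.κ → ℝ≥0∞}
    (hcw : ∀ i ∈ R, cw i ≤ cwm (M.cl (M.pot a w h i)))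
    (hG : ∀ i ∈ R, ∀ e ∈ eIn (M.md a w h).T i,
      le G e ≤ K (M.cl (M.pot a w h i)) * le (Gk (M.cl (M.pot a w h i))) e) :
    ∑' i : R, (ENNReal.ofReal (Cs ((fun S => (M.md a w h).fr i.1 '' S) '' Cfg (M.md a w h).T i.1) *
        ‖lin ((M.md a w h).fr i.1)‖) * ∑ e ∈ eIn (M.md a w h).T i.1, le G e) ^ p *
        ((1 + cw i.1) * volume (P ((M.md a w h).T.H i.1))) ≤
      ∑' k : S, (ENNReal.ofReal (Cm k) * K k) ^ p * (1 + cwm k) * M.EnT (Gk k) p a w h k := by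
  classical
  set T := (M.md a w h).T with hT
  set fr := (M.md a w h).fr with hfr
  have key : ∀ i : R, ENNReal.ofReal (Cs ((fun S => fr i.1 '' S) '' Cfg T i.1) * ‖lin (fr i.1)‖) *
        ∑ e ∈ eIn T i.1, le G e ≤
      (ENNReal.ofReal (Cm (M.cl (M.pot a w h i.1))) * K (M.cl (M.pot a w h i.1))) *
        (ENNReal.ofReal (M.β (M.pot a w h i.1)) *
          ∑ e ∈ eIn T i.1, le (Gk (M.cl (M.pot a w h i.1))) e) := by
    intro i
    have h1 := M.shp a w h i.1 (hR i.1 i.2)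
    obtain ⟨h2, h3⟩ := norm_lin_le (M.frn a w h i.1 (hR i.1 i.2))
    have h4 : ENNReal.ofReal (Cs ((fun S => fr i.1 '' S) '' Cfg T i.1) * ‖lin (fr i.1)‖) ≤
        ENNReal.ofReal (Cm (M.cl (M.pot a w h i.1))) * ENNReal.ofReal (M.β (M.pot a w h i.1)) := by
      rw [← ENNReal.ofReal_mul ((hC0 _).trans (hC _ _ h1))]
      exact ENNReal.ofReal_le_ofReal (mul_le_mul (hC _ _ h1) h3 (norm_nonneg _)
        ((hC0 _).trans (hC _ _ h1)))
    have h5 : ∑ e ∈ eIn T i.1, le G e ≤ K (M.cl (M.pot a w h i.1)) *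
        ∑ e ∈ eIn T i.1, le (Gk (M.cl (M.pot a w h i.1))) e := by
      rw [Finset.mul_sum]
      exact Finset.sum_le_sum fun e he => hG i.1 i.2 e he
    refine (mul_le_mul' h4 h5).trans (le_of_eq ?_)
    ring
  set f : R → ℝ≥0∞ := fun i =>
      ((ENNReal.ofReal (Cm (M.cl (M.pot a w h i.1))) * K (M.cl (M.pot a w h i.1))) *
        (ENNReal.ofReal (M.β (M.pot a w h i.1)) *
          ∑ e ∈ eIn T i.1, le (Gk (M.cl (M.pot a w h i.1))) e)) ^ p *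
      ((1 + cwm (M.cl (M.pot a w h i.1))) * volume (P (T.H i.1))) with hf
  set cs : R → S := fun i => ⟨M.cl (M.pot a w h i.1), hRS i.1 i.2⟩ with hcs
  have e1 : ∑' i : R, f i = ∑' (k : S) (i : {i : R // cs i = k}), f i.1 := by
    rw [← ENNReal.tsum_sigma' (f := fun q : Σ k : S, {i : R // cs i = k} => f q.2.1)]
    exact ((Equiv.sigmaFiberEquiv cs).tsum_eq f).symm
  refine le_trans (ENNReal.tsum_le_tsum fun i => mul_le_mul' (ENNReal.rpow_le_rpow (key i) hp)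
    (mul_le_mul' (add_le_add le_rfl (hcw i.1 i.2)) le_rfl)) ?_
  change ∑' i : R, f i ≤ _
  rw [e1]
  refine ENNReal.tsum_le_tsum fun k => ?_
  unfold MF.EnT EnF
  rw [← ENNReal.tsum_mul_left]
  refine le_trans (le_of_eq ?_) (ENNReal.tsum_comp_le_tsum_of_injective
    (f := fun i : {i : R // cs i = k} =>
      (⟨i.1.1, hR i.1.1 i.1.2, congrArg Subtype.val i.2⟩ :
        {i // (M.md a w h).Ord i ∧ M.cl (M.pot a w h i) = k}))
    (fun i j hij => by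
      have h5 := congrArg Subtype.val hij
      exact Subtype.ext (Subtype.ext h5)) _)
  refine tsum_congr fun i => ?_
  obtain ⟨⟨i, hi⟩, hk⟩ := i
  have hk' : M.cl (M.pot a w h i) = k := congrArg Subtype.val hk
  simp only [hf]
  rw [hk', ENNReal.mul_rpow_of_nonneg _ _ hp]
  ring

/-- the same with the same integrand on all classes -/
theorem wEE_le' (M : MF Om F J) {Cs : Set (Set E3) → ℝ} (hC0 : ∀ 𝒦, 0 ≤ Cs 𝒦) {Cm : M.κ → ℝ}
    (hC : ∀ k, ∀ 𝒦 ∈ M.Sh k, Cs 𝒦 ≤ Cm k) (G : E3 → E3 → ℝ≥0∞) {p : ℝ} (hp : 0 ≤ p)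
    {a : E3} {w : J → E3} (h : M.Ok a w)
    {R : Set (M.md a w h).ι} (hR : ∀ i ∈ R, (M.md a w h).Ord i) {S : Set M.κ}
    (hRS : ∀ i ∈ R, M.cl (M.pot a w h i) ∈ S)
    {cw : (M.md a w h).ι → ℝ≥0∞} {cwm : M.κ → ℝ≥0∞}
    (hcw : ∀ i ∈ R, cw i ≤ cwm (M.cl (M.pot a w h i))) :
    ∑' i : R, (ENNReal.ofReal (Cs ((fun S => (M.md a w h).fr i.1 '' S) '' Cfg (M.md a w h).T i.1) *
        ‖lin ((M.md a w h).fr i.1)‖) * ∑ e ∈ eIn (M.md a w h).T i.1, le G e) ^ p *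
        ((1 + cw i.1) * volume (P ((M.md a w h).T.H i.1))) ≤
      ∑' k : S, ENNReal.ofReal (Cm k) ^ p * (1 + cwm k) * M.EnT G p a w h k := by
  have := wEE_le M hC0 hC G (fun _ => G) (fun _ => 1) hp h hR hRS hcw
    (fun i _ e _ => by rw [one_mul])
  simpa only [mul_one] using this

/-! ### the integrand by class -/

variable {δ κ0 R c0 : ℝ} {La : Set E3} {Φ : FoamD δ κ0 R c0 La}

/-- the integrand of the class `k`: `GV` if `k` moves with `a`, `Gd' D'` if `k` moves with a block -/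
def Gkc (M : MF Om Φ.F J) (W : Φ.F → ℝ) (g : Φ.F → Fin 3 → E3 → ℝ) (D' : E3 → E3 →L[ℝ] E3)
    (k : M.κ) : E3 → E3 → ℝ≥0∞ :=
  match M.bl k with
  | none => GV (fun c => ENNReal.ofReal (W c)) g
  | some _ => Gd' D'

/-- the factor of the class `k` -/
def Kc (δ R : ℝ) (M : MF Om F J) (k : M.κ) : ℝ≥0∞ :=
  match M.bl k with
  | none => 1
  | some _ => ENNReal.ofReal (8 * Cl δ R)

theorem Gkc_none {M : MF Om Φ.F J} {W : Φ.F → ℝ} {g : Φ.F → Fin 3 → E3 → ℝ}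
    {D' : E3 → E3 →L[ℝ] E3} {k : M.κ} (hk : M.bl k = none) :
    Gkc M W g D' k = GV (fun c => ENNReal.ofReal (W c)) g := by
  unfold Gkc; rw [hk]

theorem Gkc_some {M : MF Om Φ.F J} {W : Φ.F → ℝ} {g : Φ.F → Fin 3 → E3 → ℝ}
    {D' : E3 → E3 →L[ℝ] E3} {k : M.κ} {j : J} (hk : M.bl k = some j) :
    Gkc M W g D' k = Gd' D' := by
  unfold Gkc; rw [hk]

theorem Kc_none {M : MF Om F J} {k : M.κ} (hk : M.bl k = none) : Kc δ R M k = 1 := by
  unfold Kc; rw [hk]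

theorem Kc_some {M : MF Om F J} {k : M.κ} {j : J} (hk : M.bl k = some j) :
    Kc δ R M k = ENNReal.ofReal (8 * Cl δ R) := by
  unfold Kc; rw [hk]

/-- the comparison of the integrands edge by edge -/
theorem le_Gkc {M : MF Om Φ.F J} {W : Φ.F → ℝ} {g : Φ.F → Fin 3 → E3 → ℝ}
    {D' : E3 → E3 →L[ℝ] E3} {ι : Type} {T : Tiling Om ι} {e : Edg T}
    (hcmp : le (GV (fun c => ENNReal.ofReal (W c)) g) e ≤
      ENNReal.ofReal (8 * Cl δ R) * le (Gd' D') e) (k : M.κ) :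
    le (GV (fun c => ENNReal.ofReal (W c)) g) e ≤ Kc δ R M k * le (Gkc M W g D' k) e := by
  rcases hk : M.bl k with _ | j
  · rw [Kc_none hk, Gkc_none hk, one_mul]
  · rw [Kc_some hk, Gkc_some hk]; exact hcmp

/-- **field `nonQ` of `MeshN` from the classes.**  `V c = {ct c}`; the tiles outside `Q` which are not
core tiles have their classes in `S`. -/
theorem nonQ_le (M : MF Om Φ.F J) {Cs : Set (Set E3) → ℝ} (hC0 : ∀ 𝒦, 0 ≤ Cs 𝒦) {Cm : M.κ → ℝ}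
    (hC : ∀ k, ∀ 𝒦 ∈ M.Sh k, Cs 𝒦 ≤ Cm k) (W : Φ.F → ℝ) (g : Φ.F → Fin 3 → E3 → ℝ)
    (D' : E3 → E3 →L[ℝ] E3) {p : ℝ} (hp : 0 ≤ p) {a : E3} {w : J → E3} (h : M.Ok a w)
    (hV : ∀ c, (M.md a w h).V c = {(M.md a w h).ct c})
    (hcmp : ∀ e : Edg (M.md a w h).T, le (GV (fun c => ENNReal.ofReal (W c)) g) e ≤
      ENNReal.ofReal (8 * Cl δ R) * le (Gd' D') e)
    {Q : Set (M.md a w h).ι} {S : Set M.κ}
    (hQS : ∀ i, (M.md a w h).Ord i → i ∉ Q → M.cl (M.pot a w h i) ∈ S)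
    {cw : (M.md a w h).ι → ℝ≥0∞} {cwm : M.κ → ℝ≥0∞}
    (hcw : ∀ i, (M.md a w h).Ord i → i ∉ Q → cw i ≤ cwm (M.cl (M.pot a w h i))) :
    ∑' i : {i // i ∉ Q ∧ ∀ c, i ≠ (M.md a w h).ct c},
      (ENNReal.ofReal (Cs ((fun K => (M.md a w h).fr i.1 '' K) '' Cfg (M.md a w h).T i.1) *
        ‖lin ((M.md a w h).fr i.1)‖) *
        ∑ e ∈ eIn (M.md a w h).T i.1, le (GV (fun c => ENNReal.ofReal (W c)) g) e) ^ p *
        ((1 + cw i.1) * volume (Msh_715.P ((M.md a w h).T.H i.1))) ≤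
      ∑' k : S, (ENNReal.ofReal (Cm k) * Kc δ R M k) ^ p * (1 + cwm k) *
        M.EnT (Gkc M W g D' k) p a w h k := by
  have hO : ∀ i, (∀ c, i ≠ (M.md a w h).ct c) → (M.md a w h).Ord i := by
    intro i hi c
    rw [hV c]
    exact hi c
  exact wEE_le M hC0 hC _ (Gkc M W g D') (Kc δ R M) hp h
    (R := {i | i ∉ Q ∧ ∀ c, i ≠ (M.md a w h).ct c}) (fun i hi => hO i hi.2)
    (fun i hi => hQS i (hO i hi.2) hi.1) (fun i hi => hcw i (hO i hi.2) hi.1)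
    (fun i _ e _ => le_Gkc (hcmp e) _)

/-- the bound of the class `k`: `lam k * m k` if `k` moves with `a`, the energy of the potential tiles
at the total shift of the block otherwise -/
def Bkc (M : MF Om F J) (D' : E3 → E3 →L[ℝ] E3) (p : ℝ) (lam m : M.κ → ℝ≥0∞) (a : E3)
    (w : J → E3) (k : M.κ) : ℝ≥0∞ :=
  match M.bl k with
  | none => lam k * m k
  | some j => M.EnC (Gd' D') p k (a + w j)

theorem Bkc_none {M : MF Om F J} {D' : E3 → E3 →L[ℝ] E3} {p : ℝ} {lam m : M.κ → ℝ≥0∞} {a : E3}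
    {w : J → E3} {k : M.κ} (hk : M.bl k = none) : Bkc M D' p lam m a w k = lam k * m k := by
  unfold Bkc; rw [hk]

theorem Bkc_some {M : MF Om F J} {D' : E3 → E3 →L[ℝ] E3} {p : ℝ} {lam m : M.κ → ℝ≥0∞} {a : E3}
    {w : J → E3} {k : M.κ} {j : J} (hk : M.bl k = some j) :
    Bkc M D' p lam m a w k = M.EnC (Gd' D') p k (a + w j) := by
  unfold Bkc; rw [hk]

/-- **field `nonQ` of `MeshN` from the output of `PremachN`** (`h1`, `h2`: its two last clauses) -/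
theorem nonQ_le_EnC (M : MF Om Φ.F J) {Cs : Set (Set E3) → ℝ} (hC0 : ∀ 𝒦, 0 ≤ Cs 𝒦)
    {Cm : M.κ → ℝ} (hC : ∀ k, ∀ 𝒦 ∈ M.Sh k, Cs 𝒦 ≤ Cm k) (W : Φ.F → ℝ)
    (g : Φ.F → Fin 3 → E3 → ℝ) (D' : E3 → E3 →L[ℝ] E3) {p : ℝ} (hp : 0 ≤ p) {a : E3} {w : J → E3}
    (h : M.Ok a w) (hV : ∀ c, (M.md a w h).V c = {(M.md a w h).ct c})
    (hcmp : ∀ e : Edg (M.md a w h).T, le (GV (fun c => ENNReal.ofReal (W c)) g) e ≤
      ENNReal.ofReal (8 * Cl δ R) * le (Gd' D') e)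
    {lam m : M.κ → ℝ≥0∞}
    (h1 : ∀ k, M.bl k = none → M.EnT (GV (fun c => ENNReal.ofReal (W c)) g) p a w h k ≤
      lam k * m k)
    (h2 : ∀ k j, M.bl k = some j → M.EnT (Gd' D') p a w h k ≤ M.EnC (Gd' D') p k (a + w j))
    {Q : Set (M.md a w h).ι} {S : Set M.κ}
    (hQS : ∀ i, (M.md a w h).Ord i → i ∉ Q → M.cl (M.pot a w h i) ∈ S)
    {cw : (M.md a w h).ι → ℝ≥0∞} {cwm : M.κ → ℝ≥0∞}
    (hcw : ∀ i, (M.md a w h).Ord i → i ∉ Q → cw i ≤ cwm (M.cl (M.pot a w h i))) :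
    ∑' i : {i // i ∉ Q ∧ ∀ c, i ≠ (M.md a w h).ct c},
      (ENNReal.ofReal (Cs ((fun K => (M.md a w h).fr i.1 '' K) '' Cfg (M.md a w h).T i.1) *
        ‖lin ((M.md a w h).fr i.1)‖) *
        ∑ e ∈ eIn (M.md a w h).T i.1, le (GV (fun c => ENNReal.ofReal (W c)) g) e) ^ p *
        ((1 + cw i.1) * volume (Msh_715.P ((M.md a w h).T.H i.1))) ≤
      ∑' k : S, (ENNReal.ofReal (Cm k) * Kc δ R M k) ^ p * (1 + cwm k) *
        Bkc M D' p lam m a w k := by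
  refine (nonQ_le M hC0 hC W g D' hp h hV hcmp hQS hcw).trans ?_
  refine ENNReal.tsum_le_tsum fun k => mul_le_mul' le_rfl ?_
  rcases hk : M.bl (k : M.κ) with _ | j
  · rw [Gkc_none hk, Bkc_none hk]; exact h1 k hk
  · rw [Gkc_some hk, Bkc_some hk]; exact h2 k j hk

/-- the same from `PreOutN` -/
theorem nonQ_le_pre (M : MF Om Φ.F J) {Cs : Set (Set E3) → ℝ} (hC0 : ∀ 𝒦, 0 ≤ Cs 𝒦)
    {Cm : M.κ → ℝ} (hC : ∀ k, ∀ 𝒦 ∈ M.Sh k, Cs 𝒦 ≤ Cm k) {f : E3 → E3} {κp μ κ1 κ2 κ3 : ℝ}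
    {W : Φ.F → ℝ} {X : Set Φ.F} {g : Φ.F → Fin 3 → E3 → ℝ} {D' : E3 → E3 →L[ℝ] E3} {p : ℝ}
    (hp : 0 ≤ p) {a : E3} {w : J → E3} (h : M.Ok a w)
    (hpre : PreOutN Φ f κp μ κ1 κ2 κ3 W X g D' (M.md a w h))
    (hV : ∀ c, (M.md a w h).V c = {(M.md a w h).ct c})
    {lam m : M.κ → ℝ≥0∞}
    (h1 : ∀ k, M.bl k = none → M.EnT (GV (fun c => ENNReal.ofReal (W c)) g) p a w h k ≤
      lam k * m k)
    (h2 : ∀ k j, M.bl k = some j → M.EnT (Gd' D') p a w h k ≤ M.EnC (Gd' D') p k (a + w j))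
    {Q : Set (M.md a w h).ι} {S : Set M.κ}
    (hQS : ∀ i, (M.md a w h).Ord i → i ∉ Q → M.cl (M.pot a w h i) ∈ S)
    {cw : (M.md a w h).ι → ℝ≥0∞} {cwm : M.κ → ℝ≥0∞}
    (hcw : ∀ i, (M.md a w h).Ord i → i ∉ Q → cw i ≤ cwm (M.cl (M.pot a w h i))) :
    ∑' i : {i // i ∉ Q ∧ ∀ c, i ≠ (M.md a w h).ct c},
      (ENNReal.ofReal (Cs ((fun K => (M.md a w h).fr i.1 '' K) '' Cfg (M.md a w h).T i.1) *
        ‖lin ((M.md a w h).fr i.1)‖) *
        ∑ e ∈ eIn (M.md a w h).T i.1, le (GV (fun c => ENNReal.ofReal (W c)) g) e) ^ p *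
        ((1 + cw i.1) * volume (Msh_715.P ((M.md a w h).T.H i.1))) ≤
      ∑' k : S, (ENNReal.ofReal (Cm k) * Kc δ R M k) ^ p * (1 + cwm k) *
        Bkc M D' p lam m a w k :=
  nonQ_le_EnC M hC0 hC W g D' hp h hV hpre.cmp h1 h2 hQS hcw

/-- the sum over the classes from numbers: `Bkc k <= θ k` and `Σ (Cm k Kc k)^p (1 + cwm k) θ k <= e` -/
theorem sum_Bkc_le (M : MF Om F J) {D' : E3 → E3 →L[ℝ] E3} {p : ℝ} {lam m : M.κ → ℝ≥0∞} {a : E3}
    {w : J → E3} {S : Set M.κ} {Cm : M.κ → ℝ} {cwm θ : M.κ → ℝ≥0∞} {e : ℝ≥0∞}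
    (h1 : ∀ k ∈ S, M.bl k = none → lam k * m k ≤ θ k)
    (h2 : ∀ k ∈ S, ∀ j, M.bl k = some j → M.EnC (Gd' D') p k (a + w j) ≤ θ k)
    (he : ∑' k : M.κ, (ENNReal.ofReal (Cm k) * Kc δ R M k) ^ p * (1 + cwm k) * θ k ≤ e) :
    ∑' k : S, (ENNReal.ofReal (Cm k) * Kc δ R M k) ^ p * (1 + cwm k) *
      Bkc M D' p lam m a w k ≤ e := by
  refine le_trans ?_ he
  have hk : ∀ k : S, (ENNReal.ofReal (Cm k) * Kc δ R M k) ^ p * (1 + cwm k) *
      Bkc M D' p lam m a w k ≤ (ENNReal.ofReal (Cm k) * Kc δ R M k) ^ p * (1 + cwm k) * θ k := by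
    intro k
    refine mul_le_mul' le_rfl ?_
    rcases hk : M.bl (k : M.κ) with _ | j
    · rw [Bkc_none hk]; exact h1 k k.2 hk
    · rw [Bkc_some hk]; exact h2 k k.2 j hk
  exact (ENNReal.tsum_le_tsum hk).trans (ENNReal.tsum_comp_le_tsum_of_injective
    Subtype.val_injective
    (fun k : M.κ => (ENNReal.ofReal (Cm k) * Kc δ R M k) ^ p * (1 + cwm k) * θ k))

end

end Crest.Agent.R096.Nqc_645
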