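import Crest.Agent.R096.Nqc2_645
import Crest.Agent.R096.Bmd5_798

/-!
# Row 96 (S0127), helper645, node NO0-PRE3, (M3b): the clause `nonQ` of `Bmd_798.PreGenN`

`nonQ_gen`: for an instance `I : Ins Φ.F univ` (168's `mfs I`) with bounds `B0, R0` and the two last
clauses of `PremachN`, the clause `nonQ` of `PreGenN` holds at `a := I.M.φ a`, `v := fun j => a + w j`,
`fr := ((mfs I).md a w h).fr`; `KG` depends on `p, B0, R0, δ, R, Cs` only.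
-/

set_option autoImplicit false
set_option linter.style.longLine false
set_option linter.unusedSectionVars false

open MeasureTheory Set Filter Metric
open scoped Topology ENNReal

namespace Crest.Agent.R096.Nqc_645

open Crest.Agent.R096.Msh_715
open Crest.Agent.R096.SkC1_961 (E3 Cfg FoamD Hom3)
open Crest.Agent.R096.Ls_222
open Crest.Agent.R096.Ea_713 (lin)
open Crest.Agent.R96.Pm_199
open Crest.Agent.R096.Pmc_112 (Gd')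
open Crest.Agent.R096.Np_962 (GV PreOutN)
open Crest.Agent.R096.Mfa_880 (Ins QU)
open Crest.Agent.R096.Mfs_168 (mfs)
open Crest.Agent.R096.Mal_874
open Crest.Agent.R096.Bmd_798 (Qr ctu UX TI)
open Crest.Agent.R096.Bls_168 (cwR Bulk Kw cw_num cw_in)

noncomputable section

/-- the factor of the energies of the blocks is finite -/
theorem KG_ne_top {Ci cl p : ℝ} (hp : 0 ≤ p) {Ki : ℝ≥0∞} (hKi : Ki ≠ ⊤) :
    (ENNReal.ofReal Ci * ENNReal.ofReal cl) ^ p * (1 + Ki) ≠ ⊤ := by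
  refine ENNReal.mul_ne_top (ENNReal.rpow_ne_top_of_nonneg hp
    (ENNReal.mul_ne_top ENNReal.ofReal_ne_top ENNReal.ofReal_ne_top)) ?_
  exact ENNReal.add_ne_top.2 ⟨ENNReal.one_ne_top, hKi⟩

/-- **the clause `nonQ` of `PreGenN`** -/
theorem nonQ_gen {p : ℝ} (hp : 0 ≤ p) (B0 : ℕ) (R0 δ Rc : ℝ) (Cs : Set (Set E3) → ℝ)
    (hCs : ∀ 𝒦, 0 ≤ Cs 𝒦) : ∃ KG : ℝ≥0∞, KG ≠ ⊤ ∧
    ∀ {κ0 c0 : ℝ} {La : Set E3} {Φ : FoamD δ κ0 Rc c0 La} (W : Φ.F → ℝ)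
      (g : Φ.F → Fin 3 → E3 → ℝ) (D' : E3 → E3 →L[ℝ] E3) (I : Ins Φ.F (Set.univ : Set Φ.F)),
      (∀ x, I.M.φ x = x) → (∀ j x, ‖(I.M.Q j).ψ x‖ ≤ ‖x‖) → (∀ j, I.D.B j ≤ B0) →
      (∀ j, I.D.R j ≤ R0) →
    ∀ {Cw : UX Φ.F → ℝ},
      (∀ j, ∀ 𝒦 ∈ simL (NR (I.D.A j) (I.D.d j)) (I.D.d j) (I.D.c j), Cs 𝒦 ≤ Cw j) →
    ∀ {a : E3} {w : UX Φ.F → E3} (h : I.mf.Ok a w),
      (∀ e : Edg ((mfs I).md a w h).T, le (GV (fun c => ENNReal.ofReal (W c)) g) e ≤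
        ENNReal.ofReal (8 * Cl δ Rc) * le (Gd' D') e) →
    ∀ {lam m : I.mf.κ → ℝ≥0∞},
      (∀ k, (mfs I).bl k = none → (mfs I).EnT (GV (fun c => ENNReal.ofReal (W c)) g) p a w h k ≤
        lam k * m k) →
      (∀ k j, (mfs I).bl k = some j → (mfs I).EnT (Gd' D') p a w h k ≤
        (mfs I).EnC (Gd' D') p k (a + w j)) →
    ∀ {B εb : UX Φ.F → ℝ≥0∞},
      (∀ j, ∑' c, (QU I.M I.D I.k0 I.hk0 j).EnC (Gd' D') p c (a + w j) ≤ B j) →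
      (∀ j, ENNReal.ofReal (Cw j) ^ p * (1 + Kw (I.D.A j) (I.D.d j) (I.D.c j)) *
        (lam (I.kOw j) * m (I.kOw j)) ≤ εb j) →
      (∀ j, ENNReal.ofReal (Cw j) ^ p * (1 + Kw (I.D.A j) (I.D.d j) (I.D.c j)) *
        (lam (I.kIw j) * m (I.kIw j)) ≤ εb j) →
    ∀ {ε : ℝ≥0∞}, 2 * ∑' j, εb j ≤ ε →
    ∀ (K0 : ℕ) (r : ℝ) (hr : r ≠ 0) (o : Fin 2 → ℤ) (Mm : ℕ) (Zs : Finset ℤ) (Bb : Set E3),
      Bulk I.M I.k (I.M.φ a) (fun j => a + w j) K0 r o Mm Zs Bb →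
      ∑' i : {i // i ∉ Qr I.M I.hk (I.M.φ a) (Ins.adm h) ∧
          ∀ b, i ≠ ctu I.M I.hk (I.M.φ a) (Ins.adm h) b},
        (ENNReal.ofReal (Cs ((fun K => ((mfs I).md a w h).fr i.1 '' K) ''
            Cfg (I.M.mesh I.hk (I.M.φ a) (Ins.adm h)) i.1) *
          ‖lin (((mfs I).md a w h).fr i.1)‖) *
          ∑ e ∈ eIn (I.M.mesh I.hk (I.M.φ a) (Ins.adm h)) i.1,
            le (GV (fun c => ENNReal.ofReal (W c)) g) e) ^ p *
          ((1 + cwR (I.M.mesh I.hk (I.M.φ a) (Ins.adm h)) r hr (I.M.φ a) o Mm Zs i.1) *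
            volume (Msh_715.P ((I.M.mesh I.hk (I.M.φ a) (Ins.adm h)).H i.1))) ≤
        KG * ∑' j, B j + ε := by
  obtain ⟨Ci, -, hCi⟩ := exists_Ci Cs B0 R0
  obtain ⟨Ku, -, hKu⟩ := cw_num
  obtain ⟨Ki, hKi, hKi'⟩ := cw_in B0 R0
  refine ⟨(ENNReal.ofReal Ci * ENNReal.ofReal (8 * Cl δ Rc)) ^ p * (1 + Ki), KG_ne_top hp hKi, ?_⟩
  intro κ0 c0 La Φ W g D' I hφ hψ hB hR Cw hCw a w h hcmp lam m h1 h2 B εb hBj hw1 hw2 ε hε K0 r hr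
    o Mm Zs Bb hb
  have hct : ∀ b, ((mfs I).md a w h).ct b = ctu I.M I.hk (I.M.φ a) (Ins.adm h) b := fun b =>
    Mfs_168.mfs_ct I h (mem_univ b)
  have e0 : ∀ i : ((mfs I).md a w h).ι, ((mfs I).md a w h).Ord i →
      cwR (I.M.mesh I.hk (I.M.φ a) (Ins.adm h)) r hr (I.M.φ a) o Mm Zs i ≤
        Mfs_168.cwm I Ku Ki ((mfs I).cl ((mfs I).pot a w h i)) := fun i hi =>
    Mfs_168.cw_class I hφ h hr hb
      (hKu I.M hφ hψ I.hk (I.M.φ a) (Ins.adm h) hr hb).1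
      (hKi' I.M hφ hψ I.hk (I.M.φ a) (Ins.adm h) I.D (I.H.rp a fun j => (h.2 j).1) hB hR hr hb) hi
  have key := nonQ_mfs_le I (fun c => mem_univ c) hCs (Ci := Ci) (Cw := Cw) (hCi I hB hR) hCw W g D'
    hp h hcmp (cw := cwR (I.M.mesh I.hk (I.M.φ a) (Ins.adm h)) r hr (I.M.φ a) o Mm Zs)
    (cwm := Mfs_168.cwm I Ku Ki) e0 (εb := εb) (B := B) (Ki := Ki)
    (fun j => (mul_le_mul' le_rfl (h1 (I.kOw j) (I.bl_kOw j))).trans (hw1 j))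
    (fun j => (mul_le_mul' le_rfl (h1 (I.kIw j) (I.bl_kIw j))).trans (hw2 j))
    (fun j => by
      refine le_trans (ENNReal.tsum_le_tsum fun c => ?_) (hBj j)
      refine (h2 (I.kI j c) j (I.bl_kI j c)).trans (le_of_eq ?_)
      exact (Mfs_168.mfs_EnC I (Gd' D') p (I.kI j c) (a + w j)).trans
        (I.EnC_kI (Gd' D') p (a + w j) j c))
    (fun _ _ => le_rfl)
  have hset : ∀ i : ((mfs I).md a w h).ι,
      (i ∉ Qr I.M I.hk (I.M.φ a) (Ins.adm h) ∧ ∀ c, i ≠ ((mfs I).md a w h).ct c) ↔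
      (i ∉ Qr I.M I.hk (I.M.φ a) (Ins.adm h) ∧
        ∀ b, i ≠ ctu I.M I.hk (I.M.φ a) (Ins.adm h) b) := fun i =>
    and_congr_right fun _ => forall_congr' fun b => by rw [hct b]
  refine le_trans (le_of_eq ?_) (key.trans (add_le_add le_rfl hε))
  exact ((Equiv.subtypeEquivRight hset).tsum_eq (fun i : {i : ((mfs I).md a w h).ι //
      i ∉ Qr I.M I.hk (I.M.φ a) (Ins.adm h) ∧
        ∀ b, i ≠ ctu I.M I.hk (I.M.φ a) (Ins.adm h) b} =>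
    (ENNReal.ofReal (Cs ((fun K => ((mfs I).md a w h).fr i.1 '' K) ''
            Cfg (I.M.mesh I.hk (I.M.φ a) (Ins.adm h)) i.1) *
          ‖lin (((mfs I).md a w h).fr i.1)‖) *
          ∑ e ∈ eIn (I.M.mesh I.hk (I.M.φ a) (Ins.adm h)) i.1,
            le (GV (fun c => ENNReal.ofReal (W c)) g) e) ^ p *
          ((1 + cwR (I.M.mesh I.hk (I.M.φ a) (Ins.adm h)) r hr (I.M.φ a) o Mm Zs i.1) *
            volume (Msh_715.P ((I.M.mesh I.hk (I.M.φ a) (Ins.adm h)).H i.1))))).symm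

end

end Crest.Agent.R096.Nqc_645
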