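import Crest.Agent.R096.Nr2_527
import Crest.Agent.R096.Mg4_441
import Crest.Agent.R096.Xq3_537
import Crest.Agent.R096.Ar9_241

/-!
# Row 96 (S0127), NEAR + PROPER, part 3 (helper527): the mesh cells

On a mesh cell `q` with 441's (K4) `Ex C (Pc F) q y`, `y = sc p` the coordinates of a point `p`, the
structure map `gG T (merge g)` lies in every brick which contains `p`.
-/

set_option autoImplicit false
set_option linter.unusedSectionVars false
set_option linter.style.haveILetI false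

open Set Filter Topology Metric

namespace Crest.Agent.R096.Nr_527

open Crest.Agent.R096.Brk1_582 (sc act)
open Crest.Agent.R096.Ce_537 Crest.Agent.R096.Bd_416 Crest.Agent.R096.Grd_714
open Crest.Agent.R096.Mg_441

section ex

variable {Q : Type} [PartialOrder Q] {dim : Q → ℕ} {J Fam : Type}
variable {E : Type*} [NormedAddCommGroup E] [NormedSpace ℝ E]
variable {C : Cmb Q dim J Fam} {K : Q → Set E} {D : Set Q} {g : Gd E J}
  {P : ∀ q, C.I q → Set E} {c : ∀ q, C.I q → E → ℝ}
variable {E' : Type*} [NormedAddCommGroup E'] [NormedSpace ℝ E'] {Pf : Fam → Set E'}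

/-- the merged level vector lies in `G2` -/
theorem merge_mem_G2 (H : Inv C K D g P c) (hfin : ∀ a, {j | C.fam j = a}.Finite)
    (hm : ∀ a, 0 < mm hfin a) {q : Q} (hq : q ∈ D) {z : E} (hz : z ∈ K q) {y : Fam → ℝ}
    (hy : Ex C Pf q y) : (fun a => (merge hfin g).G a z) ∈ G2 Pf (mm hfin) := by
  obtain ⟨b, -, -, hb⟩ := exists_box H hfin hq hz hy
  exact b.bx_sub hm hb

/-- a family which vanishes at `y` has level `0` -/
theorem merge_zero (H : Inv C K D g P c) (hfin : ∀ a, {j | C.fam j = a}.Finite) {q : Q}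
    (hq : q ∈ D) {z : E} (hz : z ∈ K q) {y : Fam → ℝ} (hy : Ex C Pf q y) {a : Fam}
    (ha : y a = 0) : (merge hfin g).G a z = 0 := by
  obtain ⟨h1, h2⟩ := hy.zero a ha
  obtain ⟨h3, h4⟩ := box_zero H hfin hq hz h1 h2
  have h5 := G_mem_box H hfin hq hz a
  rw [h3, h4] at h5
  exact le_antisymm (by simpa using h5.2) (by simpa using h5.1)

/-- **(K4) ⟹ the structure map lies in every cell of the point `p` with coordinates `y`** -/
theorem gG_mem [CompleteSpace E'] {La : Set E'} {b : Set Fam → E'} {N : ℕ}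
    (FF : Brk1_582.Foam La Pf b N) (H : Inv C K D g P c)
    (hfin : ∀ a, {j | C.fam j = a}.Finite) (hm : ∀ a, 0 < mm hfin a) {q : Q} (hq : q ∈ D) {z : E}
    (hz : z ∈ K q) {p : E'} (hp : p ∈ La) (hy : Ex C Pf q (sc Pf b p)) {T : (Fam → ℝ) → E'}
    (hT : ∀ v ∈ G2 Pf (mm hfin), ∀ a, v a = 0 → T v ∈ Pf a) {a : Fam} (ha : p ∈ Pf a) :
    Xp_537.gG T (merge hfin g) z ∈ Pf a :=
  hT _ (merge_mem_G2 H hfin hm hq hz hy) a (merge_zero H hfin hq hz hy ((FF.sc_eq_zero hp).2 ha))

end ex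

open Crest.Agent.R096.Brk3_582 Crest.Agent.R096.SkC1_961 Crest.Agent.R096.Msh_715

variable {δ κ0 R c0 : ℝ} {La Om : Set E3} {ι : Type} {Φ : FoamD δ κ0 R c0 La} {f : E3 → E3}

/-- **hc of `Ar9_241`**: all fibres are compact -/
theorem hc_of_adj {Q : Type*} [PartialOrder Q] (hLa : IsOpen La) (hf : Hom3 f Om La)
    {C : Xp_537.CC La Q} {G : E3 → E3} (hG : ContinuousOn G Om) (X : Ar_241.Tr0 Om C G)
    (hA : Adj Φ.F Om f G) (q : Q) : IsCompact (X.F q) := by
  have h := proper_of_adj hLa hf hA hG (Y := {C.b q}) isCompact_singleton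
    (singleton_subset_iff.2 (C.sub q (C.bmem q)))
  exact h

end Crest.Agent.R096.Nr_527
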