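import Crest.Agent.R096.Nsl2_552
import Crest.Agent.R096.Ps9_273
import Crest.Agent.R096.No6_276

/-!
Row 96 (S0127), helper552.  NO0-PRE [P4b] (276 `PreN`, `p < 3`), part 1: the clause `tl`.

* `KTc`, `KEc` : the two constants (bulk, errors) of 273's `tiles_sharp`
* `tiles_gen`  : energy of the tiles of `Q ⊆` ordinary tiles
* `tl_clause`  : the clause `tl` of `PreN` (`U = True`)
-/

set_option autoImplicit false
set_option linter.style.longLine false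
set_option linter.unusedSectionVars false

open MeasureTheory Set Filter
open scoped Topology ENNReal

namespace Crest.Agent.R096.Nsl_552

open Crest.Agent.R096.Msh_810 Crest.Agent.R96.En3_199
  Crest.Agent.R96.En4_199 Crest.Agent.R96.En5_199 Crest.Agent.R96.En6_199
  Crest.Agent.R96.En7_199 Crest.Agent.R96.En8_199 Crest.Agent.R96.En9_199
  Crest.Agent.R96.En11_199 Crest.Agent.R96.Sg1_199
open Crest.Agent.R096.Msh_715 hiding P I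
open Crest.Agent.R096.Ea_713 (lin)
open Crest.Agent.R096.SkC1_961 (E3 Hom3 FoamD NN Cfg)
open Crest.Agent.R096.Nl_234 (HWq)
open Crest.Agent.R096.No_276 (QL ShL IZ MJ MU)
open Crest.Agent.R096.Ls_222 Crest.Agent.R096.Ps_273

noncomputable section

/-! ### constants -/

/-- the constant of the bulk -/
def KTc (p : ℝ) (sm : ℝ≥0∞) : ℝ≥0∞ := 2 ^ (p - 1) * (M1 3 * (2 * sm)) ^ p

/-- the constant of the errors -/
def KEc (p : ℝ) : ℝ≥0∞ := 2 ^ (p - 1) * (KC 3 p * (2 ^ (p - 1) * 2 ^ p))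

theorem KTc_ne_top {p : ℝ} (hp : 1 ≤ p) {sm : ℝ≥0∞} (h : sm ≠ ∞) : KTc p sm ≠ ∞ := by
  unfold KTc
  have h1 : (2:ℝ≥0∞) ^ (p - 1) ≠ ∞ := ENNReal.rpow_ne_top_of_nonneg (by linarith) (by norm_num)
  have h2 : (M1 3 * (2 * sm) : ℝ≥0∞) ^ p ≠ ∞ :=
    ENNReal.rpow_ne_top_of_nonneg (by linarith)
      (ENNReal.mul_ne_top (ENNReal.natCast_ne_top _) (ENNReal.mul_ne_top (by norm_num) h))
  exact ENNReal.mul_ne_top h1 h2

theorem KEc_ne_top {p : ℝ} (hp : 1 ≤ p) : KEc p ≠ ∞ := by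
  unfold KEc
  have h1 : (2:ℝ≥0∞) ^ (p - 1) ≠ ∞ := ENNReal.rpow_ne_top_of_nonneg (by linarith) (by norm_num)
  have h2 : (2:ℝ≥0∞) ^ p ≠ ∞ := ENNReal.rpow_ne_top_of_nonneg (by linarith) (by norm_num)
  exact ENNReal.mul_ne_top h1 (ENNReal.mul_ne_top (KC_ne_top hp) (ENNReal.mul_ne_top h1 h2))

/-- finitely many smallness conditions on one number -/
theorem exists_small {J : Type*} [Fintype J] (A B : J → ℝ≥0∞) (hA : ∀ j, A j ≠ ∞)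
    (hB : ∀ j, B j ≠ 0) : ∃ δ : ℝ≥0∞, δ ≠ 0 ∧ δ ≠ ∞ ∧ ∀ j, A j * δ ≤ B j := by
  classical
  have h1 : ∀ j, ∃ δ : ℝ≥0∞, δ ≠ 0 ∧ A j * δ ≤ B j := by
    intro j
    refine ⟨B j / A j, ENNReal.div_ne_zero.2 ⟨hB j, hA j⟩, ENNReal.mul_div_le⟩
  choose d hd0 hd using h1
  refine ⟨min 1 (Finset.univ.inf d), ?_, ?_, fun j => ?_⟩
  · have h2 : 0 < Finset.univ.inf d := by
      rw [Finset.lt_inf_iff (by simp)]
      exact fun j _ => pos_iff_ne_zero.2 (hd0 j)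
    exact (lt_min one_pos h2).ne'
  · exact ((min_le_left _ _).trans_lt ENNReal.one_lt_top).ne
  · refine (mul_le_mul' le_rfl ((min_le_right _ _).trans (Finset.inf_le (Finset.mem_univ j)))).trans
      (hd j)

section tiles

variable {Om : Set E3} {ι : Type} {T : Tiling Om ι} {D : Dat 3} {Q : Set ι} {τ : ι → Top D}
  {𝒞 : Type*} {w : 𝒞 → ℝ≥0∞} {g : 𝒞 → Fin 3 → E3 → ℝ} {s : Fin 3 → ℝ≥0∞}

/-- the line integrals over the base edges are finite -/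
theorem ic_Hw_fin {p : ℝ} (hp : 1 ≤ p) {l : Fin 3} (hs : s l ≠ ∞)
    (hE : Ed D l p (Xs w g s l) ≠ ∞) {σ : Cel D} (hσ : σ.1.J = {l}) :
    ic (Hw w g l) D.a σ.1 ≠ ∞ := by
  have hcard : σ.1.J.card = 1 := by rw [hσ]; simp
  have h1 := ic_le_const (H := Hw w g l) (s l) D.a hcard
  have h2 : ic (fun x => Hw w g l x - s l) D.a σ.1 ≠ ∞ := by
    intro h
    apply hE
    rw [eq_top_iff]
    have h3 : vol D σ * ((2:ℝ≥0∞) ^ σ.1.k * ic (Xs w g s l) D.a σ.1) ^ p ≤ Ed D l p (Xs w g s l) := by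
      unfold Ed
      exact ENNReal.le_tsum (f := fun σ : {σ : Cel D // σ.1.J = {l}} =>
        vol D σ.1 * ((2:ℝ≥0∞) ^ σ.1.1.k * ic (Xs w g s l) D.a σ.1.1) ^ p) ⟨σ, hσ⟩
    refine le_trans (le_of_eq ?_) h3
    have h4 : ic (Xs w g s l) D.a σ.1 = ∞ := h
    rw [h4, ENNReal.mul_top (by positivity), ENNReal.top_rpow_of_pos (by linarith),
      ENNReal.mul_top]
    unfold vol
    have : ((2:ℝ≥0∞) ^ σ.1.k)⁻¹ ≠ 0 := ENNReal.inv_ne_zero.2 (ENNReal.pow_ne_top (by norm_num))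
    exact pow_ne_zero _ this
  refine ((h1.trans_lt ?_).ne)
  refine ENNReal.add_lt_top.2 ⟨?_, h2.lt_top⟩
  refine ENNReal.mul_lt_top hs.lt_top ?_
  rw [ENNReal.inv_lt_top]
  positivity

/-- the total of the edges of an ordinary tile is finite -/
theorem sum_ne_top (h : BaseOn T D Q τ) {p : ℝ} (hp : 1 ≤ p) (hs : ∀ l, s l ≠ ∞)
    (hE : ∀ l, Ed D l p (Xs w g s l) ≠ ∞) {c : ℝ≥0∞} (hc : c ≠ ∞) {er : Cel D → ℝ≥0∞}
    (her : ∀ σ, er σ ≠ ∞) {F : Edg T → ℝ≥0∞}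
    (hF : ∀ (e : Edg T) (σ : Cel D) (l : Fin 3), σ.1.J = {l} → e.1 = σ.c →
      F e ≤ c * ic (Hw w g l) D.a σ.1 + er σ) {i : ι} (hi : i ∈ Q) :
    ∑ e ∈ eIn T i, F e ≠ ∞ := by
  refine (ENNReal.sum_lt_top.2 fun e he => ?_).ne
  obtain ⟨σ, hσ, hec⟩ := h.edge hi he
  obtain ⟨l, hl⟩ := Finset.card_eq_one.1 hσ.2
  refine (hF e σ l hl hec).trans_lt ?_
  exact ENNReal.add_lt_top.2 ⟨ENNReal.mul_lt_top hc.lt_top (ic_Hw_fin hp (hs l) (hE l) hl).lt_top,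
    (her σ).lt_top⟩

/-- **energy of the tiles of `Q`** -/
theorem tiles_gen (h : BaseOn T D Q τ) {p : ℝ} (hp : 1 ≤ p) {sm : ℝ≥0∞} (hs : ∀ l, s l ≤ sm)
    {c : ℝ≥0∞} (hc : c ≤ 2) {er : Cel D → ℝ≥0∞} {F : Edg T → ℝ≥0∞}
    (hF : ∀ (e : Edg T) (σ : Cel D) (l : Fin 3), σ.1.J = {l} → e.1 = σ.c →
      F e ≤ c * ic (Hw w g l) D.a σ.1 + er σ) {e1 : ℝ≥0∞}
    (hE : ∀ l, Ed D l p (Xs w g s l) ≤ e1) (hY : ∀ l, Ye D l p er ≤ e1) :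
    ∑' i : Q, ((2:ℝ≥0∞) ^ (τ i).1.1.k * ∑ e ∈ eIn T i, F e) ^ p * volume (Msh_715.P (T.H i)) ≤
      KTc p sm * volume (⋃ i ∈ Q, Msh_715.P (T.H i)) + KEc p * (6 * e1) := by
  have h1 := h.tiles_sharp hp hs hF (N := fun i => ∑ e ∈ eIn T i, F e) (fun i _ => le_rfl)
  refine h1.trans ?_
  have hp0 : 0 ≤ p := by linarith
  have hE' : ∑ l : Fin 3, Ed D l p (Xs w g s l) ≤ 3 * e1 := by
    refine (Finset.sum_le_sum fun l _ => hE l).trans (le_of_eq ?_)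
    rw [Finset.sum_const, Finset.card_univ, Fintype.card_fin, nsmul_eq_mul]; norm_num
  have hY' : ∑ l : Fin 3, Ye D l p er ≤ 3 * e1 := by
    refine (Finset.sum_le_sum fun l _ => hY l).trans (le_of_eq ?_)
    rw [Finset.sum_const, Finset.card_univ, Fintype.card_fin, nsmul_eq_mul]; norm_num
  have h2p : (1:ℝ≥0∞) ≤ 2 ^ p := by
    rw [← ENNReal.one_rpow p]
    exact ENNReal.rpow_le_rpow (by norm_num) hp0
  calc _ ≤ 2 ^ (p - 1) * ((M1 3 * (2 * sm)) ^ p * volume (⋃ i ∈ Q, Msh_715.P (T.H i)) +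
        KC 3 p * (2 ^ (p - 1) * (2 ^ p * (3 * e1) + 2 ^ p * (3 * e1)))) := by
        gcongr
        calc ∑ l : Fin 3, Ye D l p er ≤ 1 * (3 * e1) := by rw [one_mul]; exact hY'
          _ ≤ 2 ^ p * (3 * e1) := by gcongr
    _ = _ := by
        unfold KTc KEc
        ring

end tiles

theorem ofReal_two_pow (k : ℕ) : ENNReal.ofReal ((2:ℝ) ^ k) = (2:ℝ≥0∞) ^ k := by
  rw [ENNReal.ofReal_pow (by norm_num)]; norm_num

/-- the number of a tile: `Nk N S k = N + S 2^-k` -/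
def Nk (N : ℝ≥0∞) (S : ℝ) (k : ℕ) : ℝ := N.toReal + S * ((2:ℝ) ^ k)⁻¹

theorem Nk_nonneg (N : ℝ≥0∞) {S : ℝ} (hS : 0 ≤ S) (k : ℕ) : 0 ≤ Nk N S k :=
  add_nonneg ENNReal.toReal_nonneg (mul_nonneg hS (by positivity))

theorem ofReal_Nk_mul {N : ℝ≥0∞} (hN : N ≠ ∞) {S : ℝ} (hS : 0 ≤ S) {b : ℝ} {k : ℕ}
    (hb : b ≤ 2 ^ k) : ENNReal.ofReal (Nk N S k * b) ≤ (2:ℝ≥0∞) ^ k * N + ENNReal.ofReal S := by
  have h2 : (0:ℝ) < 2 ^ k := by positivity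
  have h1 : Nk N S k * b ≤ 2 ^ k * N.toReal + S := by
    calc Nk N S k * b ≤ Nk N S k * 2 ^ k := mul_le_mul_of_nonneg_left hb (Nk_nonneg N hS k)
      _ = 2 ^ k * N.toReal + S := by
        unfold Nk
        rw [add_mul, mul_assoc S, inv_mul_cancel₀ h2.ne']; ring
  refine (ENNReal.ofReal_le_ofReal h1).trans (le_of_eq ?_)
  rw [ENNReal.ofReal_add (by positivity) hS, ENNReal.ofReal_mul h2.le, ofReal_two_pow,
    ENNReal.ofReal_toReal hN]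

theorem rpow_NB {N : ℝ≥0∞} (hN : N ≠ ∞) {S : ℝ} (hS : 0 ≤ S) {b : ℝ} {k : ℕ} (hb0 : 0 ≤ b)
    (hb : b ≤ 2 ^ k) {p : ℝ} (hp : 1 ≤ p) : ENNReal.ofReal ((Nk N S k * b) ^ p) ≤
      2 ^ (p - 1) * (((2:ℝ≥0∞) ^ k * N) ^ p + ENNReal.ofReal S ^ p) := by
  have hp0 : 0 ≤ p := by linarith
  rw [← ENNReal.ofReal_rpow_of_nonneg (mul_nonneg (Nk_nonneg N hS k) hb0) hp0]
  exact (ENNReal.rpow_le_rpow (ofReal_Nk_mul hN hS hb) hp0).trans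
    (ENNReal.rpow_add_le_mul_rpow_add_rpow _ _ hp)

theorem rpow_CNB {N : ℝ≥0∞} (hN : N ≠ ∞) {S : ℝ} (hS : 0 ≤ S) {b C CM : ℝ} {k : ℕ} (hC : 0 ≤ C)
    (hCM : C ≤ CM) (hb0 : 0 ≤ b) (hb : b ≤ 2 ^ k) {p : ℝ} (hp : 1 ≤ p) :
    ENNReal.ofReal ((C * Nk N S k * b) ^ p) ≤ ENNReal.ofReal CM ^ p *
      (2 ^ (p - 1) * (((2:ℝ≥0∞) ^ k * N) ^ p + ENNReal.ofReal S ^ p)) := by
  have hp0 : 0 ≤ p := by linarith
  have e : C * Nk N S k * b = C * (Nk N S k * b) := by ring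
  rw [e, Real.mul_rpow hC (mul_nonneg (Nk_nonneg N hS k) hb0),
    ENNReal.ofReal_mul (Real.rpow_nonneg hC p)]
  refine mul_le_mul' ?_ (rpow_NB hN hS hb0 hb hp)
  rw [← ENNReal.ofReal_rpow_of_nonneg hC hp0]
  exact ENNReal.rpow_le_rpow (ENNReal.ofReal_le_ofReal hCM) hp0

/-- the volumes of the tiles of a set -/
theorem tsum_vol_le {Om : Set E3} {ι : Type} (T : Tiling Om ι) (Q : Set ι) :
    ∑' i : Q, volume (Msh_715.P (T.H i)) = volume (⋃ i ∈ Q, Msh_715.P (T.H i)) := by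
  have hcount : Countable ι := Crest.Agent.R096.Ea_713.countable_ix T
  rw [biUnion_eq_iUnion, measure_iUnion₀]
  · intro i j hij
    exact Crest.Agent.R096.Ea_713.aedisj volume T (fun hh => hij (Subtype.ext hh))
  · intro i
    exact (Msh_715.isClosed_P _).measurableSet.nullMeasurableSet

section tl

variable {δ κ0 R c0 : ℝ} {La : Set E3} {ι : Type} {Φ : FoamD δ κ0 R c0 La} {Ln : ℕ}
  {T : Tiling (QL Ln) ι} {f : E3 → E3} {D : Dat 3} {κ : Φ.F → ℕ} {Lv : Φ.F → Finset ℝ}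
  {V : Φ.F → Set ι} {τ : ι → Top D} {w : Φ.F → ℝ≥0∞} {g : Φ.F → Fin 3 → E3 → ℝ}

/-- **THE CLAUSE `tl`** -/
theorem tl_clause {p : ℝ} (hp : 1 ≤ p) {s : Fin 3 → ℝ} {sm : ℝ≥0∞}
    (hs : ∀ l, ENNReal.ofReal (s l) ≤ sm) {S1 : ℝ} (hS1 : 0 ≤ S1)
    (hb : BaseOn T D {i | ∀ c, i ∉ V c} τ)
    {B : ι → E3 ≃ᵃ[ℝ] E3} (hB : ∀ i, (∀ c, i ∉ V c) → ‖lin (B i)‖ ≤ 2 ^ (τ i).1.1.k)
    {𝒮 : Set (Set (Set E3))} (hsh : ∀ i, (∀ c, i ∉ V c) → (fun K => B i '' K) '' Cfg T i ∈ 𝒮)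
    {C : Set (Set E3) → ℝ} {CM : ℝ} (hC : ∀ 𝒦 ∈ 𝒮, 0 ≤ C 𝒦 ∧ C 𝒦 ≤ CM)
    {c : ℝ≥0∞} (hc : c ≤ 2) {er : Cel D → ℝ≥0∞} (her : ∀ σ, er σ ≠ ∞)
    (hEN : ∀ (e : Edg T) (σ : Cel D) (l : Fin 3), σ.1.J = {l} → e.1 = σ.c →
      EN (us Φ f) κ Lv e ≤ c * ic (Hw w g l) D.a σ.1 + er σ)
    (hNN : ∀ i, NN Φ T f κ Lv i ≤ ∑ e ∈ eIn T i, EN (us Φ f) κ Lv e)
    {e1 : ℝ≥0∞} (he1 : e1 ≠ ∞)
    (hE : ∀ l, Ed D l p (Xs w g (fun l => ENNReal.ofReal (s l)) l) ≤ e1)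
    (hY : ∀ l, Ye D l p er ≤ e1) {q : ℕ} {al : Fin 3 → ℝ} {h : ℝ}
    {Rb : Set E3} (hR1 : ∀ i, (∀ c, i ∉ V c) → ¬ HWq Φ f q al h (Msh_715.P (T.H i)) →
      Msh_715.P (T.H i) ⊆ Rb)
    (hR2 : ∀ i, (∀ c, i ∉ V c) → ∀ c, ∀ j ∈ V c,
      ¬ Disjoint (Msh_715.P (T.H i)) (Msh_715.P (T.H j)) → Msh_715.P (T.H i) ⊆ Rb)
    {r : ℝ} {hr : r ≠ 0} {a : E3} {o : Fin 2 → ℤ} {M : ℕ} {Zs : Finset ℤ}
    (hMU : ∀ i, (∀ c, i ∉ V c) → MU T r hr a o M Zs (fun _ _ => True) i →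
      r ≤ ((2:ℝ) ^ (τ i).1.1.k)⁻¹)
    {β : Type} {b : β → E3} {R1 : β → ℝ} {Sc : β → Finset ι} {η e₂ ε ε' KS : ℝ}
    (n1 : 2 ^ (p - 1) * ((KTc p sm + ENNReal.ofReal S1 ^ p) * volume (QL Ln) +
      KEc p * (6 * e1)) ≤ ENNReal.ofReal (KS / Ln))
    (n2 : 2 ^ (p - 1) * ((KTc p sm + ENNReal.ofReal S1 ^ p) *
      volume (⋃ i ∈ {i | (∀ c, i ∉ V c) ∧ i ∈ IZ T (ShL Ln η) b R1 Sc}, Msh_715.P (T.H i)) +
      KEc p * (6 * e1)) ≤ ENNReal.ofReal ((KS * η + e₂) / Ln))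
    (n3 : ENNReal.ofReal CM ^ p * (2 ^ (p - 1) * (2 ^ (p - 1) *
      (c ^ p * S D p (Rb.indicator (GGw w g)) + KC 3 p * ∑ l : Fin 3, Ye D l p er) +
        ENNReal.ofReal S1 ^ p * volume Rb)) ≤ ENNReal.ofReal ε')
    (cnt : ι → ℝ) :
    ∃ (B : ι → E3 ≃ᵃ[ℝ] E3) (N : ι → ℝ) (HT : Set ι), (∀ i, 0 ≤ N i) ∧
    (∀ i, (∀ c, i ∉ V c) → NN Φ T f κ Lv i ≤ ENNReal.ofReal (N i)) ∧
    (∀ i, (∀ c, i ∉ V c) → MU T r hr a o M Zs (fun _ _ => True) i → S1 * r ≤ N i) ∧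
    (∀ i ∈ HT, (∀ c, i ∉ V c) ∧
      (∀ c, ∀ j ∈ V c, Disjoint (Msh_715.P (T.H i)) (Msh_715.P (T.H j))) ∧
      HWq Φ f q al h (Msh_715.P (T.H i)) ∧ (fun K => B i '' K) '' Cfg T i ∈ 𝒮) ∧
    ∑' i : {i // i ∈ HT}, ENNReal.ofReal ((N i * ‖lin (B i)‖) ^ p) *
      volume (Msh_715.P (T.H i)) ≤ ENNReal.ofReal (KS / Ln) ∧
    ∑' i : {i // i ∈ HT ∧ i ∈ IZ T (ShL Ln η) b R1 Sc},
      ENNReal.ofReal ((N i * ‖lin (B i)‖) ^ p) * volume (Msh_715.P (T.H i)) ≤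
        ENNReal.ofReal ((KS * η + e₂) / Ln) ∧
    ∑' i : {i // (∀ c, i ∉ V c) ∧ i ∉ HT},
      ENNReal.ofReal ((C ((fun K => B i '' K) '' Cfg T i) * N i * ‖lin (B i)‖) ^ p) *
        volume (Msh_715.P (T.H i)) ≤ ENNReal.ofReal ε' ∧
    ∑' i : {i // i ∈ HT ∧ MJ T r hr a o M Zs (fun _ _ => True) i},
      ENNReal.ofReal ((N i * ‖lin (B i)‖) ^ p) * ENNReal.ofReal (cnt i) ≤
        ENNReal.ofReal (ε * ((Zs.card : ℝ) * M ^ 2) * r ^ 3) ∧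
    ∑' i : {i // ((∀ c, i ∉ V c) ∧ i ∉ HT) ∧ MJ T r hr a o M Zs (fun _ _ => True) i},
      ENNReal.ofReal ((C ((fun K => B i '' K) '' Cfg T i) * N i * ‖lin (B i)‖) ^ p) *
        ENNReal.ofReal (cnt i) ≤ ENNReal.ofReal (ε' * ((Zs.card : ℝ) * M ^ 2) * r ^ 3) := by
  classical
  have hp0 : 0 ≤ p := by linarith
  set NE : ι → ℝ≥0∞ := fun i => ∑ e ∈ eIn T i, EN (us Φ f) κ Lv e with hNE
  set N : ι → ℝ := fun i => Nk (NE i) S1 (τ i).1.1.k with hN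
  set HT : Set ι := {i | (∀ c, i ∉ V c) ∧
      (∀ c, ∀ j ∈ V c, Disjoint (Msh_715.P (T.H i)) (Msh_715.P (T.H j))) ∧
      HWq Φ f q al h (Msh_715.P (T.H i))} with hHT
  have hct : c ≠ ∞ := (hc.trans_lt (by norm_num)).ne
  have hfin : ∀ i, (∀ c, i ∉ V c) → NE i ≠ ∞ := fun i hi =>
    sum_ne_top hb hp (fun l => ENNReal.ofReal_ne_top) (fun l => ((hE l).trans_lt he1.lt_top).ne)
      hct her hEN (i := i) hi
  have hterm : ∀ i, (∀ c, i ∉ V c) → ENNReal.ofReal ((N i * ‖lin (B i)‖) ^ p) ≤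
      2 ^ (p - 1) * (((2:ℝ≥0∞) ^ (τ i).1.1.k * NE i) ^ p + ENNReal.ofReal S1 ^ p) := fun i hi =>
    rpow_NB (hfin i hi) hS1 (norm_nonneg _) (hB i hi) hp
  have hempty : ∀ i, ¬ MJ T r hr a o M Zs (fun _ _ => True) i := by
    rintro i ⟨k, -, h, -⟩
    exact h trivial
  -- the energy of a set of tiles
  have hset : ∀ Q : Set ι, (∀ i ∈ Q, ∀ c, i ∉ V c) →
      ∑' i : Q, ENNReal.ofReal ((N i * ‖lin (B i)‖) ^ p) * volume (Msh_715.P (T.H i)) ≤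
      2 ^ (p - 1) * ((KTc p sm + ENNReal.ofReal S1 ^ p) * volume (⋃ i ∈ Q, Msh_715.P (T.H i)) +
      KEc p * (6 * e1)) := by
    intro Q hQ
    calc ∑' i : Q, ENNReal.ofReal ((N i * ‖lin (B i)‖) ^ p) * volume (Msh_715.P (T.H i))
        ≤ ∑' i : Q, 2 ^ (p - 1) * (((2:ℝ≥0∞) ^ (τ i).1.1.k * NE i) ^ p *
            volume (Msh_715.P (T.H i)) + ENNReal.ofReal S1 ^ p * volume (Msh_715.P (T.H i))) := by
          refine ENNReal.tsum_le_tsum fun i => ?_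
          rw [← add_mul, ← mul_assoc]
          exact mul_le_mul' (hterm i.1 (hQ i.1 i.2)) le_rfl
      _ = 2 ^ (p - 1) * (∑' i : Q, ((2:ℝ≥0∞) ^ (τ i).1.1.k * NE i) ^ p *
            volume (Msh_715.P (T.H i)) + ENNReal.ofReal S1 ^ p *
            volume (⋃ i ∈ Q, Msh_715.P (T.H i))) := by
          rw [ENNReal.tsum_mul_left, ENNReal.tsum_add, ENNReal.tsum_mul_left, tsum_vol_le]
      _ ≤ 2 ^ (p - 1) * ((KTc p sm * volume (⋃ i ∈ Q, Msh_715.P (T.H i)) +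
            KEc p * (6 * e1)) + ENNReal.ofReal S1 ^ p *
            volume (⋃ i ∈ Q, Msh_715.P (T.H i))) := by
          gcongr
          exact tiles_gen (hb.mono (Q' := Q) fun i hi => hQ i hi) hp hs hc hEN hE hY
      _ = _ := by ring
  refine ⟨B, N, HT, fun i => Nk_nonneg _ hS1 _, ?_, ?_, ?_, ?_, ?_, ?_, ?_, ?_⟩
  · intro i hi
    refine (hNN i).trans ?_
    rw [hN]
    unfold Nk
    rw [ENNReal.ofReal_add ENNReal.toReal_nonneg (mul_nonneg hS1 (by positivity)),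
      ENNReal.ofReal_toReal (hfin i hi)]
    exact le_self_add
  · intro i hi hm
    have h1 := hMU i hi hm
    rw [hN]
    unfold Nk
    have h2 := mul_le_mul_of_nonneg_left h1 hS1
    have h3 : 0 ≤ (NE i).toReal := ENNReal.toReal_nonneg
    linarith
  · rintro i ⟨h1, h2, h3⟩
    exact ⟨h1, h2, h3, hsh i h1⟩
  · refine le_trans ?_ n1
    refine (hset HT fun i hi => hi.1).trans ?_
    gcongr
    exact iUnion₂_subset fun i _ => T.sub i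
  · refine le_trans ?_ n2
    set Q2 : Set ι := {i | i ∈ HT ∧ i ∈ IZ T (ShL Ln η) b R1 Sc} with hQ2
    refine (hset Q2 fun i hi => hi.1.1).trans ?_
    gcongr 2 ^ (p - 1) * ((KTc p sm + ENNReal.ofReal S1 ^ p) * ?_ + _)
    refine measure_mono (iUnion₂_subset fun i hi => ?_)
    exact subset_biUnion_of_mem (u := fun i => Msh_715.P (T.H i))
      (show i ∈ {i | (∀ c, i ∉ V c) ∧ i ∈ IZ T (ShL Ln η) b R1 Sc} from ⟨hi.1.1, hi.2⟩)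
  · refine le_trans ?_ n3
    set Q3 : Set ι := {i | (∀ c, i ∉ V c) ∧ i ∉ HT} with hQ3
    have hin : ∀ i ∈ Q3, Msh_715.P (T.H i) ⊆ Rb := by
      rintro i ⟨h1, h2⟩
      by_cases h3 : HWq Φ f q al h (Msh_715.P (T.H i))
      · by_cases h4 : ∀ c, ∀ j ∈ V c, Disjoint (Msh_715.P (T.H i)) (Msh_715.P (T.H j))
        · exact absurd ⟨h1, h4, h3⟩ h2
        · push Not at h4
          obtain ⟨c, j, hj, hd⟩ := h4
          exact hR2 i h1 c j hj hd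
      · exact hR1 i h1 h3
    have e1' : ∑' i : {i // (∀ c, i ∉ V c) ∧ i ∉ HT},
        ENNReal.ofReal ((C ((fun K => B i '' K) '' Cfg T i) * N i * ‖lin (B i)‖) ^ p) *
          volume (Msh_715.P (T.H i)) ≤
        ∑' i : Q3, ENNReal.ofReal CM ^ p * (2 ^ (p - 1) * (((2:ℝ≥0∞) ^ (τ i).1.1.k *
          NE i) ^ p * volume (Msh_715.P (T.H i)) +
            ENNReal.ofReal S1 ^ p * volume (Msh_715.P (T.H i)))) := by
      refine ENNReal.tsum_le_tsum fun i => ?_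
      obtain ⟨h1, h2⟩ := hC _ (hsh i.1 i.2.1)
      refine (mul_le_mul' (rpow_CNB (hfin i.1 i.2.1) hS1 h1 h2 (norm_nonneg _) (hB i.1 i.2.1) hp)
        le_rfl).trans (le_of_eq ?_)
      ring
    refine e1'.trans ?_
    rw [ENNReal.tsum_mul_left, ENNReal.tsum_mul_left, ENNReal.tsum_add, ENNReal.tsum_mul_left,
      tsum_vol_le]
    gcongr
    · exact (hb.mono (Q' := Q3) fun i hi => hi.1).tiles_inside hp hEN (N := NE) (fun i _ => le_rfl) hin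
    · exact iUnion₂_subset hin
  · have : IsEmpty {i // i ∈ HT ∧ MJ T r hr a o M Zs (fun _ _ => True) i} :=
      ⟨fun i => hempty _ i.2.2⟩
    rw [tsum_empty]; exact zero_le
  · have : IsEmpty {i // ((∀ c, i ∉ V c) ∧ i ∉ HT) ∧ MJ T r hr a o M Zs (fun _ _ => True) i} :=
      ⟨fun i => hempty _ i.2.2⟩
    rw [tsum_empty]; exact zero_le

end tl

end

end Crest.Agent.R096.Nsl_552
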