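import Crest.Agent.R096.Nsl3_552
import Crest.Agent.R096.Frm1_234

/-!
Row 96 (S0127), helper552.  NO0-PRE [P4b] (276 `PreN`, `p < 3`), part 2: numbers.
-/

set_option autoImplicit false
set_option linter.style.longLine false
set_option linter.unusedSectionVars false

open MeasureTheory Set Filter
open scoped Topology ENNReal

namespace Crest.Agent.R096.Nsl_552

open Crest.Agent.R096.Msh_810 Crest.Agent.R96.En3_199
  Crest.Agent.R96.En4_199 Crest.Agent.R96.En5_199 Crest.Agent.R96.En6_199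
  Crest.Agent.R96.En7_199 Crest.Agent.R96.En8_199 Crest.Agent.R96.En9_199
  Crest.Agent.R96.En11_199 Crest.Agent.R96.Sg1_199
open Crest.Agent.R096.Msh_715 hiding P I
open Crest.Agent.R096.Ea_713 (lin)
open Crest.Agent.R096.SkC1_961 (E3 Hom3 FoamD NN Cfg)
open Crest.Agent.R096.Nl_234 (HWq)
open Crest.Agent.R096.No_276 (QL ShL IZ MJ MU)
open Crest.Agent.R096.No0_477 (cub fr Fc vx)
open Crest.Agent.R096.SkN1_477 (usq)
open Crest.Agent.R096.Ls_222 Crest.Agent.R096.Ps_273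

noncomputable section

/-! ### exponents -/

/-- from the exponent `p` to the exponent `1` -/
theorem le_add_rpow_e {p : ℝ} (hp : 1 ≤ p) {δ : ℝ≥0∞} (h0 : δ ≠ 0) (ht : δ ≠ ∞) (t : ℝ≥0∞) :
    t ≤ δ + δ ^ (1 - p) * t ^ p := by
  rcases le_or_gt t δ with h | h
  · exact h.trans le_self_add
  · refine le_trans ?_ le_add_self
    have h1 : t ^ p = t ^ (p - 1) * t := by
      conv_lhs => rw [show p = (p - 1) + 1 by ring]
      rw [ENNReal.rpow_add_of_nonneg _ _ (by linarith) zero_le_one, ENNReal.rpow_one]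
    have h2 : δ ^ (1 - p) * δ ^ (p - 1) = 1 := by
      rw [← ENNReal.rpow_add _ _ h0 ht, show (1 - p) + (p - 1) = 0 by ring, ENNReal.rpow_zero]
    calc t = δ ^ (1 - p) * δ ^ (p - 1) * t := by rw [h2, one_mul]
      _ = δ ^ (1 - p) * (δ ^ (p - 1) * t) := mul_assoc _ _ _
      _ ≤ δ ^ (1 - p) * (t ^ (p - 1) * t) := by
          gcongr
      _ = _ := by rw [h1]

theorem lint_le_rpow {p : ℝ} (hp : 1 ≤ p) {δ : ℝ≥0∞} (h0 : δ ≠ 0) (ht : δ ≠ ∞) (Ω : Set E3)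
    (X : E3 → ℝ≥0∞) : ∫⁻ x in Ω, X x ≤ δ * volume Ω + δ ^ (1 - p) * ∫⁻ x in Ω, X x ^ p := by
  calc ∫⁻ x in Ω, X x ≤ ∫⁻ x in Ω, (δ + δ ^ (1 - p) * X x ^ p) :=
        lintegral_mono fun x => le_add_rpow_e hp h0 ht _
    _ = δ * volume Ω + δ ^ (1 - p) * ∫⁻ x in Ω, X x ^ p := by
        rw [lintegral_add_left measurable_const, lintegral_const, Measure.restrict_apply_univ,
          lintegral_const_mul' _ _ (ENNReal.rpow_ne_top_of_ne_zero h0 ht)]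

/-! ### the block -/

section block

variable {L : ℕ} {k M : ℕ} {r : ℝ} {A Zs : Finset ℤ}

theorem two_pow_le (hL : 1 ≤ L) (hrk : r = ((2:ℝ) ^ k)⁻¹)
    (hN : 2 / L ≤ ((A.card : ℝ) * M ^ 2) * r ^ 3) (hAZ : (A.card : ℝ) ≤ 2 * Zs.card) :
    ((2:ℝ) ^ k) ^ 3 ≤ L * ((Zs.card : ℝ) * M ^ 2) := by
  have hL0 : (0 : ℝ) < L := by exact_mod_cast hL
  have h2 : (0:ℝ) < 2 ^ k := by positivity
  have hr0 : 0 < r := by rw [hrk]; positivity
  have h1 : (2:ℝ) ≤ L * (((A.card : ℝ) * M ^ 2) * r ^ 3) := by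
    rw [div_le_iff₀ hL0] at hN
    linarith
  have h3 : (1:ℝ) ≤ L * (((Zs.card : ℝ) * M ^ 2) * r ^ 3) := by
    have h4 : ((A.card : ℝ) * M ^ 2) * r ^ 3 ≤ ((2 * Zs.card : ℝ) * M ^ 2) * r ^ 3 := by gcongr
    have h5 := mul_le_mul_of_nonneg_left h4 hL0.le
    have h6 : (L:ℝ) * (((2 * Zs.card : ℝ) * M ^ 2) * r ^ 3) =
        2 * (L * (((Zs.card : ℝ) * M ^ 2) * r ^ 3)) := by ring
    linarith
  have h7 : ((2:ℝ) ^ k) ^ 3 * r ^ 3 = 1 := by
    rw [← mul_pow, hrk, mul_inv_cancel₀ h2.ne', one_pow]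
  calc ((2:ℝ) ^ k) ^ 3 = ((2:ℝ) ^ k) ^ 3 * 1 := (mul_one _).symm
    _ ≤ ((2:ℝ) ^ k) ^ 3 * (L * (((Zs.card : ℝ) * M ^ 2) * r ^ 3)) := by gcongr
    _ = (((2:ℝ) ^ k) ^ 3 * r ^ 3) * (L * ((Zs.card : ℝ) * M ^ 2)) := by ring
    _ = _ := by rw [h7, one_mul]

theorem two_pow_le_e (hL : 1 ≤ L) (hrk : r = ((2:ℝ) ^ k)⁻¹)
    (hN : 2 / L ≤ ((A.card : ℝ) * M ^ 2) * r ^ 3) (hAZ : (A.card : ℝ) ≤ 2 * Zs.card) :
    ((2:ℝ≥0∞) ^ k) ^ 3 ≤ ENNReal.ofReal (L * ((Zs.card : ℝ) * M ^ 2)) := by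
  refine le_trans (le_of_eq ?_) (ENNReal.ofReal_le_ofReal (two_pow_le hL hrk hN hAZ))
  rw [ENNReal.ofReal_pow (by positivity), ofReal_two_pow]

variable {D : Dat 3} {o : Fin 2 → ℤ} {𝒞 : Type*} {w : 𝒞 → ℝ≥0∞} {g : 𝒞 → Fin 3 → (Fin 3 → ℝ) → ℝ}

/-- **numbers of the clause `wt`** -/
theorem wt_num (hL : 1 ≤ L) (hM : 0 < M) (hrk : r = ((2:ℝ) ^ k)⁻¹)
    (hN : 2 / L ≤ ((A.card : ℝ) * M ^ 2) * r ^ 3) (hAZ : (A.card : ℝ) ≤ 2 * Zs.card)
    {s : Fin 3 → ℝ} {ε κ' : ℝ} (hε : 0 ≤ ε) (h0 : 0 ≤ κ') (h1 : κ' ≤ 1) {j : Fin 2}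
    (hκ : κ' * s j.castSucc ≤ ε / 8) {er : Cel D → ℝ≥0∞}
    (hE : Ed D j.castSucc 1 (Xs w g (fun l => ENNReal.ofReal (s l)) j.castSucc) ≤
      ENNReal.ofReal (ε / (8 * L)))
    (hY : Ye D j.castSucc 1 er ≤ ENNReal.ofReal (ε / (4 * L))) :
    ∑ m ∈ Zs, ∑ v ∈ Fintype.piFinset fun _ : Fin 2 => Finset.range (M + 1),
      xE D k o w g (fun l => ENNReal.ofReal (s l)) (ENNReal.ofReal κ') er j m v ≤
        ENNReal.ofReal (ε * ((Zs.card : ℝ) * M ^ 2)) := by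
  have hL0 : (0 : ℝ) < L := by exact_mod_cast hL
  have hM1 : (1 : ℝ) ≤ M := by exact_mod_cast hM
  have h2 := sum_xE (D := D) (k := k) (o := o) (w := w) (g := g)
    (s := fun l => ENNReal.ofReal (s l)) (ENNReal.ofReal κ') er j Zs
    (Fintype.piFinset fun _ : Fin 2 => Finset.range (M + 1))
  refine h2.trans ?_
  have hcard : ((Fintype.piFinset fun _ : Fin 2 => Finset.range (M + 1)).card : ℝ) ≤ 4 * M ^ 2 := by
    rw [Fintype.card_piFinset]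
    simp only [Finset.card_range, Finset.prod_const, Finset.card_univ, Fintype.card_fin]
    push_cast
    nlinarith
  have e1 : ((Zs.card : ℝ≥0∞) * ((Fintype.piFinset fun _ : Fin 2 => Finset.range (M + 1)).card :
      ℝ≥0∞)) * (ENNReal.ofReal κ' * ENNReal.ofReal (s j.castSucc)) ≤
      ENNReal.ofReal (ε / 2 * ((Zs.card : ℝ) * M ^ 2)) := by
    rw [← ENNReal.ofReal_mul h0, ← ENNReal.ofReal_natCast, ← ENNReal.ofReal_natCast,
      ← ENNReal.ofReal_mul (Nat.cast_nonneg _), ← ENNReal.ofReal_mul (by positivity)]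
    refine ENNReal.ofReal_le_ofReal ?_
    calc (Zs.card : ℝ) * ((Fintype.piFinset fun _ : Fin 2 => Finset.range (M + 1)).card : ℝ) *
          (κ' * s j.castSucc) ≤ (Zs.card : ℝ) * (4 * M ^ 2) * (ε / 8) := by
          apply mul_le_mul_of_nonneg (by gcongr) hκ (by positivity) (by positivity)
      _ = _ := by ring
  have e2 : ((2:ℝ≥0∞) ^ k) ^ 3 * ((1 + ENNReal.ofReal κ') * Ed D j.castSucc 1
      (Xs w g (fun l => ENNReal.ofReal (s l)) j.castSucc) + Ye D j.castSucc 1 er) ≤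
      ENNReal.ofReal (ε / 2 * ((Zs.card : ℝ) * M ^ 2)) := by
    calc _ ≤ ENNReal.ofReal (L * ((Zs.card : ℝ) * M ^ 2)) * ((1 + ENNReal.ofReal 1) *
          ENNReal.ofReal (ε / (8 * L)) + ENNReal.ofReal (ε / (4 * L))) := by
          gcongr
          exact two_pow_le_e hL hrk hN hAZ
      _ = ENNReal.ofReal (L * ((Zs.card : ℝ) * M ^ 2)) * ENNReal.ofReal (ε / (2 * L)) := by
          congr 1
          rw [ENNReal.ofReal_one, show (1 + 1 : ℝ≥0∞) = ENNReal.ofReal 2 by norm_num,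
            ← ENNReal.ofReal_mul (by norm_num), ← ENNReal.ofReal_add (by positivity) (by positivity)]
          congr 1
          field_simp
          ring
      _ = _ := by
          rw [← ENNReal.ofReal_mul (by positivity)]
          congr 1
          field_simp
  refine (add_le_add e1 e2).trans (le_of_eq ?_)
  rw [← ENNReal.ofReal_add (by positivity) (by positivity)]
  congr 1
  ring

/-- **numbers of the clause `sq`**, all cubes -/
theorem sq_num1 (hL : 1 ≤ L) (hrk : r = ((2:ℝ) ^ k)⁻¹)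
    (hN : 2 / L ≤ ((A.card : ℝ) * M ^ 2) * r ^ 3) (hAZ : (A.card : ℝ) ≤ 2 * Zs.card)
    {s : Fin 3 → ℝ≥0∞} {p : ℝ} (hp : 1 ≤ p) {c : ℝ≥0∞} (hc : c ≤ 2) {er : Cel D → ℝ≥0∞} {e1 : ℝ≥0∞}
    (hE : ∀ l, Ed D l p (Xs w g s l) ≤ e1) (hY : ∀ l, Ye D l p er ≤ e1) {ε : ℝ}
    (hn : ENNReal.ofReal L * (KEc p * (6 * e1)) ≤ ENNReal.ofReal ε) :
    ∑ m ∈ Zs, ∑ v ∈ Fintype.piFinset fun _ : Fin 2 => Finset.range M,
      qE D k o w g s c er m v ^ p ≤ ENNReal.ofReal (ε * ((Zs.card : ℝ) * M ^ 2)) := by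
  have hp0 : 0 ≤ p := by linarith
  have hE' : ∑ l : Fin 3, Ed D l p (Xs w g s l) ≤ 3 * e1 := by
    refine (Finset.sum_le_sum fun l _ => hE l).trans (le_of_eq ?_)
    rw [Finset.sum_const, Finset.card_univ, Fintype.card_fin, nsmul_eq_mul]; norm_num
  have hY' : ∑ l : Fin 3, Ye D l p er ≤ 3 * e1 := by
    refine (Finset.sum_le_sum fun l _ => hY l).trans (le_of_eq ?_)
    rw [Finset.sum_const, Finset.card_univ, Fintype.card_fin, nsmul_eq_mul]; norm_num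
  have h2p : (1:ℝ≥0∞) ≤ 2 ^ p := by
    rw [← ENNReal.one_rpow p]
    exact ENNReal.rpow_le_rpow (by norm_num) hp0
  have h21 : (1:ℝ≥0∞) ≤ 2 ^ (p - 1) := by
    rw [← ENNReal.one_rpow (p - 1)]
    exact ENNReal.rpow_le_rpow (by norm_num) (by linarith)
  refine (sum_qE (D := D) (k := k) (o := o) (w := w) (g := g) (s := s) hp c er Zs
    (Fintype.piFinset fun _ : Fin 2 => Finset.range M)).trans ?_
  calc _ ≤ ENNReal.ofReal (L * ((Zs.card : ℝ) * M ^ 2)) * (1 * (KC 3 p * (2 ^ (p - 1) *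
        (2 ^ p * (3 * e1) + 2 ^ p * (3 * e1))))) := by
        rw [one_mul]
        gcongr
        · exact two_pow_le_e hL hrk hN hAZ
        · calc ∑ l : Fin 3, Ye D l p er ≤ 1 * (3 * e1) := by rw [one_mul]; exact hY'
            _ ≤ 2 ^ p * (3 * e1) := by gcongr
    _ ≤ ENNReal.ofReal (L * ((Zs.card : ℝ) * M ^ 2)) * (2 ^ (p - 1) * (KC 3 p * (2 ^ (p - 1) *
        (2 ^ p * (3 * e1) + 2 ^ p * (3 * e1))))) := by gcongr
    _ = (ENNReal.ofReal L * (KEc p * (6 * e1))) * ENNReal.ofReal ((Zs.card : ℝ) * M ^ 2) := by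
        rw [ENNReal.ofReal_mul (Nat.cast_nonneg _)]
        unfold KEc
        ring
    _ ≤ ENNReal.ofReal ε * ENNReal.ofReal ((Zs.card : ℝ) * M ^ 2) := by gcongr
    _ = _ := (ENNReal.ofReal_mul' (by positivity)).symm

open Classical in
/-- **numbers of the clause `sq`**, cubes in `Rx` -/
theorem sq_num2 (hL : 1 ≤ L) (hrk : r = ((2:ℝ) ^ k)⁻¹)
    (hN : 2 / L ≤ ((A.card : ℝ) * M ^ 2) * r ^ 3) (hAZ : (A.card : ℝ) ≤ 2 * Zs.card)
    {p : ℝ} (hp : 1 ≤ p) {c : ℝ≥0∞} {er : Cel D → ℝ≥0∞} {Rx : Set E3} {ε : ℝ}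
    (hn : ENNReal.ofReal L * (2 ^ (p - 1) * (c ^ p * S D p (Rx.indicator (GGw w g)) +
        KC 3 p * ∑ l : Fin 3, Ye D l p er)) ≤ ENNReal.ofReal ε) :
    ∑ m ∈ Zs, ∑ v ∈ Fintype.piFinset fun _ : Fin 2 => Finset.range M,
      (if cub (vx D.a r o m v) r ⊆ Rx then qH D k o w g c er m v ^ p else 0) ≤
        ENNReal.ofReal (ε * ((Zs.card : ℝ) * M ^ 2)) := by
  have h1 := sum_qH (D := D) (k := k) (o := o) (w := w) (g := g) hp c er Rx Zs
    (Fintype.piFinset fun _ : Fin 2 => Finset.range M)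
  rw [← hrk] at h1
  refine h1.trans ?_
  calc _ ≤ ENNReal.ofReal (L * ((Zs.card : ℝ) * M ^ 2)) * (2 ^ (p - 1) * (c ^ p *
        S D p (Rx.indicator (GGw w g)) + KC 3 p * ∑ l : Fin 3, Ye D l p er)) := by
        gcongr
        exact two_pow_le_e hL hrk hN hAZ
    _ = (ENNReal.ofReal L * (2 ^ (p - 1) * (c ^ p * S D p (Rx.indicator (GGw w g)) +
        KC 3 p * ∑ l : Fin 3, Ye D l p er))) * ENNReal.ofReal ((Zs.card : ℝ) * M ^ 2) := by
        rw [ENNReal.ofReal_mul (Nat.cast_nonneg _)]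
        ring
    _ ≤ ENNReal.ofReal ε * ENNReal.ofReal ((Zs.card : ℝ) * M ^ 2) := by gcongr
    _ = _ := (ENNReal.ofReal_mul' (by positivity)).symm

open Classical in
/-- **numbers of the clause `sq`**, number of the cubes in `Rx` -/
theorem sq_num3 (hL : 1 ≤ L) (hr : 0 < r) (a : E3)
    (hN : 2 / L ≤ ((A.card : ℝ) * M ^ 2) * r ^ 3) (hAZ : (A.card : ℝ) ≤ 2 * Zs.card)
    {Rx : Set E3} {e : ℝ} (he : 0 ≤ e) (hv : ENNReal.ofReal L * volume Rx ≤ ENNReal.ofReal e) :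
    (((Fc M Zs).filter fun k => cub (vx a r o k.1 k.2) r ⊆ Rx).card : ℝ) ≤
      e * ((Zs.card : ℝ) * M ^ 2) := by
  have hL0 : (0 : ℝ) < L := by exact_mod_cast hL
  have h1 : (1:ℝ) / L ≤ ((Zs.card : ℝ) * M ^ 2) * r ^ 3 := by
    have h4 : ((A.card : ℝ) * M ^ 2) * r ^ 3 ≤ ((2 * Zs.card : ℝ) * M ^ 2) * r ^ 3 := by gcongr
    have h5 : (1:ℝ) / L = (2 / L) / 2 := by ring
    rw [h5]
    linarith
  have h2 : (2:ℝ) / L ≤ (2 * ((Zs.card : ℝ) * M ^ 2)) * r ^ 3 := by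
    have h5 : (2:ℝ) / L = 2 * (1 / L) := by ring
    rw [h5]
    linarith
  have h3 := Gno_324.count_real a hr o ((Fc M Zs).filter fun k => cub (vx a r o k.1 k.2) r ⊆ Rx) Rx
    (fun q hq => (Finset.mem_filter.1 hq).2) hL (N0 := 2 * ((Zs.card : ℝ) * M ^ 2)) (ε := e / 2)
    h2 (by positivity) (by
      have h6 : volume Rx ≤ ENNReal.ofReal e / ENNReal.ofReal L := by
        rw [ENNReal.le_div_iff_mul_le (Or.inl (by
          rw [Ne, ENNReal.ofReal_eq_zero, not_le]; exact hL0)) (Or.inl ENNReal.ofReal_ne_top),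
          mul_comm]
        exact hv
      refine h6.trans (le_of_eq ?_)
      rw [← ENNReal.ofReal_div_of_pos hL0]
      congr 1
      ring)
  linarith

/-- a tile which meets the block has scale at most `k` -/
theorem scale_MU {Om : Set E3} {ι : Type} {T : Tiling Om ι} {Q : Set ι} {τ : ι → Top D}
    (hb : BaseOn T D Q τ) (hrk : r = ((2:ℝ) ^ k)⁻¹) {hr : r ≠ 0} (hB : Blk D k o M Zs) {i : ι}
    (hi : i ∈ Q) {U : ℤ → (Fin 2 → ℕ) → Prop} (h : MU T r hr D.a o M Zs U i) :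
    r ≤ ((2:ℝ) ^ (τ i).1.1.k)⁻¹ := by
  obtain ⟨⟨m, v⟩, hk, -, y, hy, hyu⟩ := h
  have hr0 : 0 < r := by rw [hrk]; positivity
  obtain ⟨e1, e2⟩ := Finset.mem_product.1 hk
  have hv : ∀ j, v j < M := fun j => Finset.mem_range.1 (Fintype.mem_piFinset.1 e2 j)
  have hyc : y ∈ cub (vx D.a r o m v) r := by
    rw [Gno_324.mem_usq_fr hr0 hr] at hyu
    obtain ⟨h0, h0', h1, h1', h2⟩ := hyu
    intro l
    fin_cases l
    · exact ⟨h0, h0'⟩
    · exact ⟨h1, h1'⟩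
    · exact ⟨h2.symm.le, by
        show y 2 ≤ vx D.a r o m v 2 + r
        rw [h2]; linarith⟩
  have hK : Msh_810.K D y = k := by
    have := (hB m e1 v hv y (by rw [← hrk]; exact hyc)).2
    exact this
  have hy2 : y ∈ (τ i).1.c := by rw [← hb.P_eq hi]; exact hy
  have h3 : (τ i).1.1.k ≤ k := by
    rw [← hK]
    exact (τ i).1.2.le_K hy2
  rw [hrk]
  exact inv_anti₀ (by positivity) (pow_le_pow_right₀ (by norm_num) h3)

end block

/-- the frames of the ordinary tiles -/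
theorem frames_of {Om : Set E3} {ι : Type} {T : Tiling Om ι} {D : Dat 3} {Q : Set ι} {τ : ι → Top D}
    (hb : BaseOn T D Q τ) {i : ι} (hi : i ∈ Q) :
    (fun K => Frm_234.frm D.a (τ i).1.1.k (τ i).1.1.z '' K) '' Cfg T i ∈ Frm_234.Sg ∧
      ‖lin (Frm_234.frm D.a (τ i).1.1.k (τ i).1.1.z)‖ ≤ 2 ^ (τ i).1.1.k := by
  refine Frm_234.frame_base (T := T) (D := D) hb.Om_eq.symm (τ := τ i) ?_ ?_
  · exact hb.tile i hi
  · intro l hl
    obtain ⟨τ', h⟩ := hb.nb i hi l (by rwa [inter_comm])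
    exact ⟨τ', h⟩

end

end Crest.Agent.R096.Nsl_552
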