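import Crest.Agent.R096.Nsl6_552
import Crest.Agent.R096.Ps6_273

/-!
Row 96 (S0127), helper552.  NO0-PRE, `p < 3`: the composition `noPre_lt`.
-/

set_option autoImplicit false
set_option linter.style.longLine false
set_option linter.unusedSectionVars false
set_option linter.unusedVariables false

open MeasureTheory Set Filter Metric
open scoped Topology ENNReal

namespace Crest.Agent.R096.Nsl_552

open Crest.AnalysisR.VecCalc3 Crest.AnalysisR.Sobolev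
open Crest.Agent.R096.Bsp_628 Crest.Agent.R096.Brk1_582 Crest.Agent.R096.Brk5_582
open Crest.Agent.R096.Log2_582 (IsLog)
open Crest.Agent.R096.Dic6_582 Crest.Agent.R096.Dic7_582
open Crest.Agent.R096.Npr_582
open Crest.Agent.R096.Msh_810 Crest.Agent.R96.En3_199
  Crest.Agent.R96.En4_199 Crest.Agent.R96.En5_199 Crest.Agent.R96.En6_199
  Crest.Agent.R96.En7_199 Crest.Agent.R96.En8_199 Crest.Agent.R96.En9_199
  Crest.Agent.R96.En10_199 Crest.Agent.R96.En11_199 Crest.Agent.R96.Sg1_199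
open Crest.Agent.R96.Acl_392
open Crest.Agent.R096.Msh_715 hiding P I
open Crest.Agent.R096.SkC1_961 (E3 Hom3 FoamD NN Cfg)
open Crest.Agent.R096.Nl_234 (HWq)
open Crest.Agent.R096.No_276 (QL fL ShL IZ MJ MU PreG PreN NOPre)
open Crest.Agent.R096.No0_477 (cub fr Fc NOGeo)
open Crest.Agent.R096.Ls_222 Crest.Agent.R096.Ps_273
open Crest.Agent.R096.Tms_582
open Crest.Agent.R096.Tme_234 (ExactOn baseT wmod tau baseOn_tm touch_sub diam_tm exists_tm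
  sh_tmesh countable_sh)
open Crest.Agent.R096.Pg_691 (Rad Slc rg KB KB_sub KB_compact geo_tmesh exists_slc exists_ends
  preG_tm)
open Crest.Agent.R096.Frm_234 (Sg Sg_finite)
open Crest.Agent.R096.Gno_324 (𝒬0)
open Crest.Agent.R096.Npl_477 (front_input)
open Crest.Agent.R096.Sk_962 (Q0 Qc0 dg SH)
open Crest.Agent.R096.Sq_477 (e3)
open Crest.Agent.R096.Er_594 (SH3)
open Crest.Agent.R096.Nend_458 (EndB)
open Crest.Agent.R096.Mbf_337 (Cores Fine)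
open Crest.Agent.R096.Aclt_608 (Sh Ineq Fz ae_front)

noncomputable section

/-! ### constants -/

theorem exists_theta {θ : ℝ≥0∞} (hθ : 0 < θ) {a : ℝ} (ha : 0 < a) :
    ∃ θ1 : ℝ≥0∞, 0 < θ1 ∧ θ1 + θ1 ≤ θ ∧ θ1 ≠ ⊤ ∧ θ1 ≤ ENNReal.ofReal a := by
  refine ⟨min (θ / 2) (ENNReal.ofReal a), lt_min (ENNReal.half_pos hθ.ne') (ENNReal.ofReal_pos.2 ha),
    ?_, ne_top_of_le_ne_top ENNReal.ofReal_ne_top (min_le_right _ _), min_le_right _ _⟩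
  calc min (θ / 2) (ENNReal.ofReal a) + min (θ / 2) (ENNReal.ofReal a) ≤ θ / 2 + θ / 2 :=
        add_le_add (min_le_left _ _) (min_le_left _ _)
    _ = θ := ENNReal.add_halves θ

theorem exists_e2 {θ1 V : ℝ≥0∞} (hθ : 0 < θ1) (hV : V ≠ ⊤) {p : ℝ} (hp : 0 ≤ p) {ε : ℝ}
    (hε : 0 < ε) :
    ∃ e2 : ℝ≥0∞, 0 < e2 ∧ e2 ≠ ⊤ ∧ 3 ^ p * (e2 * V) ≤ θ1 ∧ e2 * V ≤ θ1 ∧
      e2 ≤ ENNReal.ofReal (ε / 16) := by
  have h3 : (3:ℝ≥0∞) ^ p ≠ ⊤ := ENNReal.rpow_ne_top_of_nonneg hp (by norm_num)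
  have h31 : (1:ℝ≥0∞) ≤ 3 ^ p := by
    calc (1:ℝ≥0∞) = 1 ^ p := (ENNReal.one_rpow p).symm
      _ ≤ 3 ^ p := ENNReal.rpow_le_rpow (by norm_num) hp
  set K : ℝ≥0∞ := 3 ^ p * V with hK
  have hKt : K ≠ ⊤ := ENNReal.mul_ne_top h3 hV
  have key : θ1 / (K + 1) * K ≤ θ1 := by
    calc θ1 / (K + 1) * K ≤ θ1 / (K + 1) * (K + 1) := by gcongr; exact le_self_add
      _ ≤ θ1 := (ENNReal.div_mul_cancel (by simp) (ENNReal.add_ne_top.2
          ⟨hKt, ENNReal.one_ne_top⟩)).le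
  have h1 : 3 ^ p * (min (θ1 / (K + 1)) (ENNReal.ofReal (ε / 16)) * V) ≤ θ1 := by
    calc 3 ^ p * (min (θ1 / (K + 1)) (ENNReal.ofReal (ε / 16)) * V) ≤
        3 ^ p * (θ1 / (K + 1) * V) := by gcongr; exact min_le_left _ _
      _ = θ1 / (K + 1) * K := by rw [hK]; ring
      _ ≤ θ1 := key
  refine ⟨min (θ1 / (K + 1)) (ENNReal.ofReal (ε / 16)), lt_min (ENNReal.div_pos hθ.ne'
    (ENNReal.add_ne_top.2 ⟨hKt, ENNReal.one_ne_top⟩)) (ENNReal.ofReal_pos.2 (by positivity)),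
    ne_top_of_le_ne_top ENNReal.ofReal_ne_top (min_le_right _ _), h1, ?_, min_le_right _ _⟩
  refine le_trans ?_ h1
  calc min (θ1 / (K + 1)) (ENNReal.ofReal (ε / 16)) * V = 1 * (min (θ1 / (K + 1))
        (ENNReal.ofReal (ε / 16)) * V) := (one_mul _).symm
    _ ≤ _ := by gcongr

theorem exists_delta {δF : ℝ≥0∞} (hδ : 0 < δF) {p : ℝ} (hp : 1 ≤ p) {ε : ℝ} (hε : 0 < ε) :
    ∃ δ : ℝ≥0∞, 0 < δ ∧ δ ≤ δF ∧ 16 * (100 * δ ^ p⁻¹) ≤ ENNReal.ofReal (ε / 2) := by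
  have hp0 : 0 < p := by linarith
  have h1 : (0:ℝ) < ε / 3200 := by positivity
  refine ⟨min δF (ENNReal.ofReal (ε / 3200) ^ p), lt_min hδ (ENNReal.rpow_pos
    (ENNReal.ofReal_pos.2 h1) ENNReal.ofReal_ne_top), min_le_left _ _, ?_⟩
  have h2 : min δF (ENNReal.ofReal (ε / 3200) ^ p) ^ p⁻¹ ≤ ENNReal.ofReal (ε / 3200) := by
    calc min δF (ENNReal.ofReal (ε / 3200) ^ p) ^ p⁻¹ ≤ (ENNReal.ofReal (ε / 3200) ^ p) ^ p⁻¹ :=
          ENNReal.rpow_le_rpow (min_le_right _ _) (by positivity)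
      _ = ENNReal.ofReal (ε / 3200) := ENNReal.rpow_rpow_inv hp0.ne' _
  calc 16 * (100 * min δF (ENNReal.ofReal (ε / 3200) ^ p) ^ p⁻¹) ≤
        16 * (100 * ENNReal.ofReal (ε / 3200)) := by gcongr
    _ = ENNReal.ofReal (ε / 2) := by
        rw [show (16:ℝ≥0∞) = ENNReal.ofReal 16 by simp, show (100:ℝ≥0∞) = ENNReal.ofReal 100 by simp,
          ← ENNReal.ofReal_mul (by norm_num), ← ENNReal.ofReal_mul (by norm_num)]
        congr 1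
        ring

/-- a dyadic size -/
theorem exists_h {h₀ : ℝ} (hh : 0 < h₀) {C0 : ℝ} (hC0 : 0 < C0) (q : ℕ) {ε : ℝ} (hε : 0 < ε) :
    ∃ h : ℝ, 0 < h ∧ h < h₀ ∧ (∃ k N : ℕ, h / 2 * 2 ^ k = N) ∧ C0 * (2 * q * h) ≤ ε ∧
      8 * h ≤ ε := by
  have hm : 0 < min (min h₀ (ε / (C0 * (2 * q) + 1))) (ε / 8) := by positivity
  obtain ⟨n, hn⟩ := exists_pow_lt_of_lt_one hm (show (1/2:ℝ) < 1 by norm_num)
  have h1 : ((1/2:ℝ)) ^ n < h₀ := hn.trans_le ((min_le_left _ _).trans (min_le_left _ _))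
  have h2 : ((1/2:ℝ)) ^ n ≤ ε / (C0 * (2 * q) + 1) :=
    hn.le.trans ((min_le_left _ _).trans (min_le_right _ _))
  have h3 : ((1/2:ℝ)) ^ n ≤ ε / 8 := hn.le.trans (min_le_right _ _)
  have h0 : 0 < ((1/2:ℝ)) ^ n := by positivity
  refine ⟨(1/2) ^ n, h0, h1, ⟨n + 1, 1, ?_⟩, ?_, by linarith⟩
  · rw [pow_succ, one_div, inv_pow]
    field_simp
    norm_num
  · rw [le_div_iff₀ (by positivity)] at h2
    nlinarith

theorem kap_lt : ((3 : ℕ) : ℝ≥0∞) * ∑' _ : Unit, ((100 : ℝ≥0∞))⁻¹ +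
    ∑' _ : Fin 2, ((100 : ℝ≥0∞))⁻¹ < 1 / 2 := by
  rw [tsum_fintype, tsum_fintype, Finset.sum_const, Finset.sum_const, Finset.card_univ,
    Finset.card_univ, Fintype.card_unit, Fintype.card_fin, one_smul, nsmul_eq_mul, ← add_mul]
  have h1 : ((3 : ℕ) : ℝ≥0∞) + ((2 : ℕ) : ℝ≥0∞) = ENNReal.ofReal 5 := by
    rw [← Nat.cast_add]; norm_num
  have h2 : ((100 : ℝ≥0∞))⁻¹ = ENNReal.ofReal (1 / 100) := by
    rw [ENNReal.ofReal_div_of_pos (by norm_num)]; norm_num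
  have h3 : (1 / 2 : ℝ≥0∞) = ENNReal.ofReal (1 / 2) := by
    rw [ENNReal.ofReal_div_of_pos (by norm_num)]; norm_num
  rw [h1, h2, h3, ← ENNReal.ofReal_mul (by norm_num)]
  exact (ENNReal.ofReal_lt_ofReal_iff (by norm_num)).2 (by norm_num)

theorem e12_le {e1 e2 : ℝ≥0∞} {ε : ℝ} (h1 : e1 ≤ ENNReal.ofReal (ε / 16))
    (h2 : e2 ≤ ENNReal.ofReal (ε / 16)) (hε : 0 < ε) : (e1 + e2) * 8 ≤ ENNReal.ofReal ε := by
  calc (e1 + e2) * 8 ≤ (ENNReal.ofReal (ε / 16) + ENNReal.ofReal (ε / 16)) * ENNReal.ofReal 8 := by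
        gcongr
        norm_num
    _ = ENNReal.ofReal ε := by
        rw [← ENNReal.ofReal_add (by positivity) (by positivity), ← ENNReal.ofReal_mul (by positivity)]
        congr 1
        ring

set_option maxHeartbeats 1000000 in
/-- **`NOPre p` FOR `p < 3`** -/
theorem noPre_lt {p : ℝ} (hp : 1 ≤ p) (hp3 : p < 3) : NOPre p := by
  classical
  have hp0 : 0 ≤ p := by linarith
  refine ⟨Sg, 4, 1, Sg_finite, ENNReal.one_ne_top, fun s hs hs2 S1 hS1 => ?_⟩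
  obtain ⟨S, KS, hSS, hKS, HN⟩ := preN_of hp hs hS1
  refine ⟨S, KS, hSS, hKS, fun ε η L hL e₂ hε hη hη8 hL1 he₂ => ?_⟩
  have hL0 : (0:ℝ) < L := by exact_mod_cast hL1
  obtain ⟨εf, hεf, HN⟩ := HN ε η L e₂ hε hη hL1 he₂
  obtain ⟨e1, he1, he1f, he1e⟩ : ∃ e1 : ℝ≥0∞, 0 < e1 ∧ e1 ≤ εf ∧ e1 ≤ ENNReal.ofReal (ε / 16) :=
    ⟨min εf (ENNReal.ofReal (ε / 16)), lt_min hεf (ENNReal.ofReal_pos.2 (by positivity)),
      min_le_left _ _, min_le_right _ _⟩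
  have he1t : e1 ≠ ⊤ := ne_top_of_le_ne_top ENNReal.ofReal_ne_top he1e
  obtain ⟨q, hq, HF⟩ := exists_front hp hp3 s hs hs2 he1
  have hkF := one_le_kF q
  refine ⟨q, dF q, kF q, 6, cN q, 1, max 8 (4 * q), dF_pos hq, hkF, by norm_num, ?_, one_pos,
    le_max_left _ _, fun C0 C κp ε' hC0 hC hκp hε' => ?_⟩
  · unfold cN
    positivity
  obtain ⟨μ, hμ, hμκ, θ, hθ, r₁, hr₁, HN⟩ := HN q (max 8 (4 * q)) C κp ε' hC hκp hε'
  refine ⟨μ, hμ, hμκ, fun κ1 hκ1 => ?_⟩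
  have hVt : volume (QL (L:ℝ)) ≠ ⊤ := by
    rw [vol_QL hL0]; exact ENNReal.ofReal_ne_top
  obtain ⟨θ1, hθ1, hθ1θ, hθ1t, hθ1L⟩ := exists_theta hθ (a := 1 / (128 * L)) (by positivity)
  obtain ⟨e2, he2, he2t, he2a, he2b, he2e⟩ := exists_e2 hθ1 hVt hp0 hε
  obtain ⟨δF, hδF, HF⟩ := HF e2 he2
  obtain ⟨δ, hδ, hδF', hδE⟩ := exists_delta hδF hp hε
  obtain ⟨dd, hdd, HI⟩ := front_input hp hs2 hL1 hL hδ
  refine ⟨dd, hdd, fun U₀ W₀ f G hU1 hU2 hU3 hW1 hW2 hW3 hQ hSH hE hZd => ?_⟩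
  obtain ⟨hO, hOne, hOf, hLa, hLab, hne, Df, hS, hEn⟩ := HI U₀ W₀ f G hU1 hU2 hU3 hW1 hW2 hW3 hQ hSH hE
  obtain ⟨h₀, hh₀, HF⟩ := HF (QL L) _ (fL f L hL) Df hO hOne hOf hLa hLab hS
    (hEn.trans (by gcongr)) 3 le_rfl
  obtain ⟨h, hh, hh0, hhd, hsz, hh8⟩ := exists_h hh₀ hC0 q hε
  obtain ⟨al, Φ, z0, f1, X, HH, g, H⟩ := HF h hh hh0
  have hcF : Countable Φ.F := countable_F Φ
  -- weights
  obtain ⟨W, hW⟩ := exists_W Φ hq hh hhd al (κ3 := max 8 (4 * (q:ℝ))) (le_max_left _ _) (le_max_right _ _)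
  have hlog : ∀ c : Φ.F, IsLog q al h c.1 → ENNReal.ofReal (W c) = ENNReal.ofReal (h / 2) :=
    fun c hc => by rw [hW.2.2.2.2.2 c hc]
  have hle : ∀ c : Φ.F, ENNReal.ofReal (W c) ≤ ENNReal.ofReal c.1.sz := fun c =>
    ENNReal.ofReal_le_ofReal (hW.2.2.2.2.1 c)
  -- radii and the bad set
  obtain ⟨x, R, W0, hRad, hRr, hRs, hW0o, hW0, hW0O, hvW, hint⟩ := Crest.Agent.R096.Npl_477.exists_small hp hO hOf hLa hne he1t
    he2t H hlog hle hθ1 (ρ := r₁ / 2) (by positivity)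
  obtain ⟨Wt, hWt⟩ : ∃ Wt : Set E3, Wt = W0 ∪ ⋃ c, closedBall (x c) (2 * R c) := ⟨_, rfl⟩
  rw [← hWt] at hvW hint
  have hvW' : volume Wt ≤ θ := hvW.trans ((add_le_add he2b le_rfl).trans hθ1θ)
  have hint' : ∫⁻ y in Op Φ (QL L) f1 ∩ Wt, GGw (fun c => ENNReal.ofReal (W c)) g y ^ p ≤ θ :=
    hint.trans ((add_le_add he2a le_rfl).trans hθ1θ)
  have hWtm : MeasurableSet Wt := by
    rw [hWt]
    exact hW0o.measurableSet.union (MeasurableSet.iUnion fun c => measurableSet_closedBall)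
  -- slices
  have hKb : IsCompact (KB L η) := KB_compact hL1 η
  have hKbO : KB L η ⊆ QL L := KB_sub hη
  obtain ⟨r₂, hr₂, HS⟩ := exists_slc hL1 hη8 hη hRad.r0 (hRad.fin hKb hKbO) (fun S => by
    have h1 : ENNReal.ofReal (∑ c ∈ S, R c) ≤ ENNReal.ofReal (1 / (128 * L)) := by
      rw [ENNReal.ofReal_sum_of_nonneg fun c _ => (hRad.r0 c).le]
      exact (ENNReal.sum_le_tsum S).trans (hRs.trans hθ1L)
    rw [ENNReal.ofReal_le_ofReal_iff (by positivity)] at h1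
    rw [← Finset.mul_sum]
    calc 2 * ∑ c ∈ S, R c ≤ 2 * (1 / (128 * L)) := by linarith
      _ = 1 / (64 * L) := by field_simp; norm_num)
  -- the mesh
  obtain ⟨Dh, hSf⟩ := H.sh
  obtain ⟨kb0, HT⟩ := exists_tm hp Φ hO hLa (dF_pos hq) (by norm_num) hSf hκ1 1
    (fun c => by rw [H.pt c]; rfl) x (fun c => by rw [H.pt c]; exact hRad.fx c) R hRad.r0 hRad.sub
    hRad.inb (C := 2) (by norm_num) (fun _ => 1) (fun y z => by have := dist_nonneg (x := y) (y := z); linarith)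
    (fun _ => zero_le_one) (fun _ _ => one_pos) hKb hKbO
  obtain ⟨kb, hkb0, hkr⟩ : ∃ kb : ℕ, kb0 ≤ kb ∧ ((2:ℝ) ^ kb)⁻¹ ≤ min r₁ r₂ := by
    obtain ⟨n, hn⟩ := exists_pow_lt_of_lt_one (lt_min hr₁ hr₂) (show (1/2:ℝ) < 1 by norm_num)
    refine ⟨max kb0 n, le_max_left _ _, ?_⟩
    rw [← inv_pow]
    refine le_trans (pow_le_pow_of_le_one (by norm_num) (by norm_num) (le_max_right kb0 n)) ?_
    rw [inv_eq_one_div]
    exact hn.le
  obtain ⟨k, Zc, κf, Hf, F, D, hD, -, -, hDC, -, hDρ, -, hEx, HT⟩ := HT kb hkb0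
  obtain ⟨r, hr⟩ : ∃ r : ℝ, r = ((2:ℝ) ^ kb)⁻¹ := ⟨_, rfl⟩
  have hr0 : 0 < r := by rw [hr]; positivity
  have hr1 : r = 1 / 2 ^ kb := by rw [hr, one_div]
  rw [← hr] at hkr
  -- the ends
  obtain ⟨Se, hSe1, hSe2, hSe3⟩ := exists_ends hp hO hOf hS s hEn hr1
  -- the shift
  have hL608 := countable_sh F
  have hcount : (D.Om \ Op Φ (QL L) f1).Countable := by
    refine (countable_range x).mono ?_
    rintro y ⟨hy, hy2⟩
    rw [hD] at hy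
    have : ∃ c, f1 y ∈ (Φ.B c).S := by
      by_contra hcon
      push Not at hcon
      exact hy2 ⟨hy, hcon⟩
    obtain ⟨c, hc⟩ := this
    exact ⟨c, (hRad.hole y hy c hc).symm⟩
  have hus : ∀ c, ContinuousOn (us Φ f1 c) (Op Φ (QL L) f1) := fun c =>
    continuousOn_us hLa H.homeo (fun x hx => hx.1) (fun x hx c => hx.2 c) c
  obtain ⟨a, -, ⟨⟨Z, -, hctr, hdim, J0, J, θc, φc, hcores, hfine⟩, hac, hEB⟩, hgood, -, hEp, hE1, hES, hSa⟩ :=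
    exists_shift4 D (by norm_num) H.op (by rw [hD]; exact fun y hy => hy.1) hcount hus H.gm H.wd
      (fun c => ENNReal.ofReal (W c)) (fun l => ENNReal.ofReal (s l)) hp (ι := Unit)
      (R := fun _ => Wt) (fun _ => hWtm) (κ := fun _ => 100) (fun _ => by norm_num) hSe1 hSe2
      (m := fun _ => 100) (fun _ => by norm_num) kap_lt (HT.and ((ae_front H hLa hL608).and hSe3))
  obtain ⟨o, M, Ab, Zs, B⟩ := HS r hr0 (hkr.trans (min_le_right _ _)) a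
  obtain ⟨Sc, d, hSc, hG⟩ := preG_tm hL1 hLa hne H hRad ε' hε hC0.le hsz hh8 (e12_le he1e he2e hε) Z F hcores
    hfine (fun c => (hctr c).choose) (fun _ => AffineEquiv.refl ℝ E3) (fun _ => 1) z0 hEx hr1 hr0.ne' B
    hEB hSa hδE
  refine ⟨f1, al, h, Φ, _, tmesh Z F, ∅, J0, J, Vc (tmesh Z F) x R, (fun c => (hctr c).choose),
    (fun _ => AffineEquiv.refl ℝ E3), (fun _ => 1), z0, θc, φc, (fun _ => 0), 𝒬0, r, hr0.ne', a, o, M,
    Zs, (fun _ _ => True), Φ.F, x, (fun c => 5 / 8 * R c), (fun c => 5 / 4 * R c), Sc, d,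
    (fun _ => 0), (fun _ => 0), Or.inl hp3, hG, ?_⟩
  have hND := nd_of hL1 hLa H hRad (κ3 := max 8 (4 * (q:ℝ))) hη hW he1f hW0 hWt hvW' hint' Z F hdim
    (by rw [hDC]; exact hDρ) hEx
    (fun e he c => ⟨_, hac _ _ (tmesh Z F) e ((sh_tmesh Z F).mono (subset_univ _)) he c⟩) hgood hEp
    hE1 (hES ()) hr hr0.ne' B (hkr.trans (min_le_left _ _)) (fun c => by linarith [hRr c]) hSc
  exact HN hND _ _ _ _ _ _

end

end Crest.Agent.R096.Nsl_552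

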