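import Crest.Agent.R096.Ne1_892

/-!
# Row 96, DOORS, telescoping over an edge of the boundary of the shrunk core (helper892)

`ft Tw c a i X j e` = number mod 2 of the points of `X` of name `i` on the edge `e` at the level `j`,
`Lam Tw c a i X v` = number mod 2 of the vertex points of `X` of name `i` over `v` (all levels).
* `Lam_zero` : `Lam = 0` at a vertex which never moves;
* `tele`     : `ft 0 e + ft (n c) e = Lam (en e false) + Lam (en e true)`;
* `tele0`    : `ft 0 e = Lam .. + Lam ..` if no point of `X` on `e` at the level `n c`;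
* `ft_zero`  : `ft 0 e` = number mod 2 of the points of the trace (name `i`) on `e` in `X`.
-/

set_option autoImplicit false
set_option linter.unusedSectionVars false
set_option linter.style.longLine false

open Set Module
open scoped Classical

namespace Crest.Agent.R096.Ne_892

open Crest.Agent.R096.Msh_715 Crest.Agent.R096.Agl5_543 Crest.Agent.R096.St_147
  Crest.Agent.R096.Seq_213 Crest.Agent.R096.Door_501 Crest.Agent.R096.Sla_184
  Crest.Agent.R096.Twr_438 Crest.Agent.R096.Exa_560 Crest.Agent.R096.Ess3_95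
  Crest.Agent.R096.Ess4_95 Crest.Agent.R096.Dfi_539 Crest.Agent.R096.Dfi_471
  Crest.Agent.R096.Yl_471 Crest.Agent.R096.Qp_106
open Crest.Agent.R096.Sla_184.Sla (hf vf old tg F0 Fn Out OnS InL In)

variable {E : Type} [NormedAddCommGroup E] [NormedSpace ℝ E] [FiniteDimensional ℝ E]
variable {Om : Set E} {ι : Type} {T : Tiling Om ι} {κ : Type} {S : Sla T κ}
  {h3 : finrank ℝ E = 3} {J C : Type} {fam : J → C}

section core

variable {s : GSt (S.m0 h3) fam} {Tw : Twrs (S.sh h3) S.n s} {l0 : E → J}
  {c : κ} {a : C} {i : J} {B : Set (S.Ed c)} {X : Set E}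

/-- number mod 2 of the vertex points of `X` (name `i`) over `v` -/
noncomputable def Lam (Tw : Twrs (S.sh h3) S.n s) (c : κ) (a : C) (i : J) (X : Set E)
    (v : S.Vx c) : ZMod 2 :=
  ∑ j ∈ Finset.range (S.n c), gv Tw c a i X j v

theorem Lam_zero {v : S.Vx c} (h : ∀ j, j < S.n c → v ∉ ((Tw.tw c a).mv j).Qv) :
    Lam Tw c a i X v = 0 := by
  unfold Lam
  refine Finset.sum_eq_zero fun j hj => ?_
  exact if_neg fun hv => h j (Finset.mem_range.1 hj) hv.1

/-- **telescoping** -/
theorem tele (hX : Vcl Tw l0 c B i X) {e : S.Ed c} (he : e ∈ B) :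
    ft Tw c a i X 0 e + ft Tw c a i X (S.n c) e =
      Lam Tw c a i X ((S.sh h3 c).en e false) + Lam Tw c a i X ((S.sh h3 c).en e true) := by
  have key : ∀ k, k ≤ S.n c → ft Tw c a i X 0 e + ft Tw c a i X k e =
      ∑ j ∈ Finset.range k, gv Tw c a i X j ((S.sh h3 c).en e false) +
        ∑ j ∈ Finset.range k, gv Tw c a i X j ((S.sh h3 c).en e true) := by
    intro k
    induction k with
    | zero =>
      intro _
      rw [Finset.sum_range_zero, Finset.sum_range_zero, add_zero]
      exact CharTwo.add_self_eq_zero _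
    | succ k ih =>
      intro hk
      have h1 := ih (by omega)
      have h2 := face_par (a := a) hX he (show k < S.n c by omega)
      rw [Finset.sum_range_succ, Finset.sum_range_succ]
      have z : ∀ p q r s t u v : ZMod 2, p + q = s + t → q + r + (u + v) = 0 →
          p + r = s + u + (t + v) := by decide
      exact z _ _ _ _ _ _ _ h1 h2
  exact key _ le_rfl

/-- **telescoping**, no point of `X` at the bottom -/
theorem tele0 (hX : Vcl Tw l0 c B i X) {e : S.Ed c} (he : e ∈ B)
    (hb : ∀ w ∈ ((Tw.tw c a).pat (S.n c)).P, w ∈ e.1.opn →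
      ((Tw.tw c a).pat (S.n c)).lab w = i → S.hp c (S.n c) w ∉ X) :
    ft Tw c a i X 0 e =
      Lam Tw c a i X ((S.sh h3 c).en e false) + Lam Tw c a i X ((S.sh h3 c).en e true) := by
  rw [← tele hX he]
  have h0 : ft Tw c a i X (S.n c) e = 0 := by
    unfold ft
    rw [Finset.filter_false_of_mem, Finset.card_empty, Nat.cast_zero]
    rintro w hw ⟨h2, h4, h5⟩
    exact hb w hw h2 h4 h5
  rw [h0, add_zero]

end core

section y

variable [Nonempty J] {s : GSt (meshC T h3) fam} {r : J → E}
  {v0 v1 : ∀ c, C → VxK T S.K c} {L : ∀ c, C → Lev T (frontier (S.K c)) J}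
  {Tw : Twrs (S.sh h3) S.n (outK S.hH S.dis s r)} {l0 : E → J}
  {c : κ} {a : C} {i : J} {B : Set (S.Ed c)} {X : Set E}

/-- the level `0`: the points of the trace -/
theorem ft_zero (tt : TwOut S h3 s r v0 v1 L Tw) (e : S.Ed c) : ft Tw c a i X 0 e =
    (((trc S.hH S.dis s r c a).P.filter fun w => w ∈ e.1.opn ∧ s.lab w = i ∧ w ∈ X).card :
      ZMod 2) := by
  unfold ft
  congr 2
  rw [tt.top c a]
  ext w
  simp only [Finset.mem_filter, Sla.hp_zero]
  exact Iff.rfl

/-- the points of the trace of the name `i` on an edge are the points of the outer state -/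
theorem mem_trc_edge (ha : fam i = a) {e : S.Ed c} {w : E} (hw : w ∈ e.1.opn)
    (hl : s.lab w = i) : w ∈ (trc S.hH S.dis s r c a).P ↔ w ∈ (outK S.hH S.dis s r).P := by
  constructor
  · intro h1
    exact (mem_trc.1 h1).1
  · intro h1
    exact mem_trc.2 ⟨h1, by rw [hl, ha], e, hw⟩

/-- the level `n c`: points of the boundary of the shrunk core -/
theorem ft_bot (tt : TwOut S h3 s r v0 v1 L Tw) (e : S.Ed c)
    (h : ∀ w ∈ (exa h3 S.hH S.dis (L c a)).P, w ∈ e.1.opn →
      (s2 S h3 Tw l0).lab (S.hp c (S.n c) w) = i → S.hp c (S.n c) w ∉ X) :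
    ft Tw c a i X (S.n c) e = 0 := by
  unfold ft
  rw [Finset.filter_false_of_mem, Finset.card_empty, Nat.cast_zero]
  rintro w hw ⟨h2, h4, h5⟩
  refine h w ?_ h2 ((lab_hp le_rfl hw).trans h4) h5
  rw [← (tt.bot c a).1]
  exact hw

/-- a vertex in no region: no vertex point -/
theorem Lam_rgn (tt : TwOut S h3 s r v0 v1 L Tw) {v : S.Vx c}
    (hR : ∀ i, ¬ Rgn (S.sh h3 c) (v0 c a) (v1 c a) (trc S.hH S.dis s r c a)
      (exa h3 S.hH S.dis (L c a)) i v) : Lam Tw c a i X v = 0 :=
  Lam_zero fun j _ h1 => hR _ (tt.rgn c a j v h1)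

end y

end Crest.Agent.R096.Ne_892
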