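import Mathlib
import Crest.Agent.R96.Nu6_199
import Crest.Agent.R096.Ea1_713
import Crest.Agent.Lib.BorsukUlam

/-!
Row 96 (S0127), helper713.  NUMBERS, (B) of 112 #10580: a lower bound of the shape constant `AAc`.

If `S` is a convex body which is a PL `n`-ball, then in EVERY direction `u` of its span `S` contains
two points `y, z` with `y - z ∈ ℝ u` and `2 ≤ AAc n (B '' S) * dist (B y) (B z)` (Borsuk-Ulam for the
chart).  Hence an affine function whose oscillation on a `ρ`-copy of `S` is at most 1 is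
`AAc n (B '' S) / (2 ρ)`-Lipschitz in the frame `B`.
-/

set_option autoImplicit false
set_option linter.style.longLine false
set_option linter.unusedSectionVars false

open Set Metric Filter Topology MeasureTheory

namespace Crest.Agent.R096.Nub_713

open Crest.Agent.R096.Ce_537 Crest.Agent.R096.Bd_416 Crest.Agent.R96.Nu3_199
open Crest.Agent.R96.Nu4_199 Crest.Agent.R96.Nu5_199 Crest.Agent.R096.Ea_713

noncomputable section

variable {E : Type*} [NormedAddCommGroup E] [NormedSpace ℝ E] [FiniteDimensional ℝ E]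

/-! ### local to global -/

/-- local Lipschitz bounds in a frame on a convex set are global -/
theorem MB.global {X : Type*} [NormedAddCommGroup X] [NormedSpace ℝ X] {S : Set E}
    (hS : Convex ℝ S) (B : E ≃ᵃ[ℝ] E) {a : ℝ} {g : E → X} (hg : ContinuousOn g S)
    (h : ∀ z ∈ S, MB B (fun x => x) a g S z) {y z : E} (hy : y ∈ S) (hz : z ∈ S) :
    dist (g y) (g z) ≤ a * dist (B y) (B z) := by
  set cl : ℝ → ℝ := fun t => max 0 (min 1 t) with hcl
  have hclc : Continuous cl := by fun_prop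
  have hcl0 : ∀ t, 0 ≤ cl t := fun t => le_max_left _ _
  have hcl1 : ∀ t, cl t ≤ 1 := fun t => max_le zero_le_one (min_le_left _ _)
  have hclt : ∀ t ∈ Icc (0:ℝ) 1, cl t = t := by
    intro t ht
    simp only [hcl]
    rw [min_eq_right ht.2, max_eq_right ht.1]
  set p : ℝ → E := fun t => z + cl t • (y - z) with hp
  have hpc : Continuous p := by fun_prop
  have hpS : ∀ t, p t ∈ S := fun t => hS.add_smul_sub_mem hz hy ⟨hcl0 t, hcl1 t⟩
  have hφc : Continuous fun t => g (p t) := hg.comp_continuous hpc hpS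
  have hB : ∀ s t : ℝ, dist (B (p s)) (B (p t)) = |cl s - cl t| * dist (B y) (B z) := by
    intro s t
    rw [dist_eq_norm, dist_eq_norm, lin_sub, lin_sub]
    have e1 : p s - p t = (cl s - cl t) • (y - z) := by
      simp only [hp]
      rw [sub_smul]
      abel
    rw [e1, map_smul, norm_smul, Real.norm_eq_abs]
  have h1 := seg_lip (φ := fun t => g (p t)) (c := a * dist (B y) (B z))
    (fun t _ => hφc.continuousAt) (fun t ht => by
      have h2 := h (p t) (hpS t)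
      have h3 : Tendsto p (𝓝[>] t) (𝓝[S] (p t)) :=
        tendsto_nhdsWithin_iff.2 ⟨hpc.continuousAt.mono_left nhdsWithin_le_nhds,
          Eventually.of_forall hpS⟩
      have h4 : ∀ᶠ s in 𝓝[>] t, s < 1 := (eventually_lt_nhds ht.2).filter_mono nhdsWithin_le_nhds
      filter_upwards [h3.eventually h2, h4, self_mem_nhdsWithin] with s hs hs1 hts
      rw [← dist_eq_norm]
      refine (show dist (g (p s)) (g (p t)) ≤ _ from hs).trans (le_of_eq ?_)
      have hts' : t < s := hts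
      rw [hB, hclt s ⟨by linarith [ht.1], hs1.le⟩, hclt t ⟨ht.1, ht.2.le⟩,
        abs_of_pos (by linarith)]
      ring)
  have e0 : p 0 = z := by simp [hp, hclt 0 (by norm_num)]
  have e1 : p 1 = y := by simp [hp, hclt 1 (by norm_num)]
  simp only [e0, e1] at h1
  rwa [dist_eq_norm]

/-! ### the dimension of a PL ball -/

/-- a convex set which is a PL image of a set of `ℝ^n` has dimension at most `n` -/
theorem finrank_le {X : Type*} [NormedAddCommGroup X] [NormedSpace ℝ X] [FiniteDimensional ℝ X]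
    {S : Set E} (hS : Convex ℝ S) (hne : S.Nonempty) {f : X → E} {K : Set X} (hf : PLOn f K)
    (hfK : S ⊆ f '' K) :
    Module.finrank ℝ (affineSpan ℝ S).direction ≤ Module.finrank ℝ X := by
  classical
  obtain ⟨c, hcS, r, hr, hball⟩ := exists_rad hS hne
  obtain ⟨-, A, hA⟩ := hf
  set V := (affineSpan ℝ S).direction with hV
  by_contra hlt
  rw [not_le] at hlt
  let _ : MeasurableSpace V := borel V
  have _ : BorelSpace V := ⟨rfl⟩
  set μ : Measure V := Measure.addHaar with hμ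
  -- the affine map `v ↦ c + v`
  set j : V →ᵃ[ℝ] E := (AffineMap.const ℝ V c) + (V.subtype.toAffineMap) with hj
  have hjv : ∀ v : V, j v = c + v := fun v => rfl
  have h1 : ball (0 : V) r ⊆ ⋃ a ∈ A, ((((⊤ : AffineSubspace ℝ X).map a).comap j : AffineSubspace ℝ V) : Set V) := by
    intro v hv
    have hvr : ‖(v : E)‖ ≤ r := by
      have := mem_ball_zero_iff.1 hv
      exact this.le
    have h2 := hball v v.2 hvr
    obtain ⟨x, hx, hxe⟩ := hfK h2
    obtain ⟨a, ha, hxa⟩ := hA x hx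
    refine mem_iUnion₂.2 ⟨a, ha, ?_⟩
    change j v ∈ (⊤ : AffineSubspace ℝ X).map a
    rw [hjv, ← hxe, hxa]
    exact ⟨x, trivial, rfl⟩
  have h2 : ∀ a ∈ A, μ ((((⊤ : AffineSubspace ℝ X).map a).comap j : AffineSubspace ℝ V) : Set V) = 0 := by
    intro a _
    refine Measure.addHaar_affineSubspace μ _ fun htop => ?_
    have h3 : ∀ v : V, (c + (v : E)) ∈ (⊤ : AffineSubspace ℝ X).map a := by
      intro v
      have : v ∈ ((⊤ : AffineSubspace ℝ X).map a).comap j := by rw [htop]; trivial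
      exact this
    have h4 : V ≤ LinearMap.range a.linear := by
      intro v hv
      obtain ⟨x, -, hx⟩ := h3 ⟨v, hv⟩
      obtain ⟨x', -, hx'⟩ := h3 0
      refine ⟨x - x', ?_⟩
      rw [← vsub_eq_sub, AffineMap.linearMap_vsub, hx, hx', vsub_eq_sub]
      simp
    have h5 := Submodule.finrank_mono h4
    have h6 := LinearMap.finrank_range_le a.linear
    omega
  have h3 : μ (ball (0 : V) r) = 0 :=
    measure_mono_null h1 ((measure_biUnion_null_iff A.countable_toSet).2 h2)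
  exact (measure_ball_pos μ (0 : V) hr).ne' h3

/-! ### chords in all directions -/

/-- killing one direction -/
theorem exists_quot (V : Submodule ℝ E) {u : V} (hu : u ≠ 0) :
    ∃ (m : ℕ) (q : V →ₗ[ℝ] (Fin m → ℝ)), m + 1 = Module.finrank ℝ V ∧
      ∀ v, q v = 0 → ∃ t : ℝ, t • u = v := by
  have h5 := Submodule.finrank_quotient_add_finrank (ℝ ∙ u : Submodule ℝ V)
  have h6 : Module.finrank ℝ (ℝ ∙ u : Submodule ℝ V) = 1 := finrank_span_singleton hu
  have h7 : Module.finrank ℝ (V ⧸ (ℝ ∙ u : Submodule ℝ V)) =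
      Module.finrank ℝ (Fin (Module.finrank ℝ (V ⧸ (ℝ ∙ u : Submodule ℝ V))) → ℝ) := by simp
  refine ⟨Module.finrank ℝ (V ⧸ (ℝ ∙ u : Submodule ℝ V)),
    (LinearEquiv.ofFinrankEq _ _ h7).toLinearMap ∘ₗ (ℝ ∙ u : Submodule ℝ V).mkQ, by omega,
    fun v hv => ?_⟩
  have h8 : (LinearEquiv.ofFinrankEq _ _ h7) ((ℝ ∙ u : Submodule ℝ V).mkQ v) = 0 := hv
  rw [LinearEquiv.map_eq_zero_iff, Submodule.mkQ_apply, Submodule.Quotient.mk_eq_zero,
    Submodule.mem_span_singleton] at h8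
  exact h8

/-- **CHORDS**: in every direction of its span, a convex PL `n`-ball `S` has a chord of `B`-length at
least `2 / AAc n (B '' S)`. -/
theorem exists_chord {n : ℕ} {S : Set E} (h1 : Convex ℝ S) (h2 : IsCompact S) (h3 : S.Nonempty)
    (h4 : IsBall n S (S \ ri S)) (B : E ≃ᵃ[ℝ] E) {u : E} (hu : u ∈ (affineSpan ℝ S).direction)
    (hu0 : u ≠ 0) :
    ∃ y ∈ S, ∃ z ∈ S, ∃ t : ℝ, y - z = t • u ∧ 2 ≤ AAc n (B '' S) * dist (B y) (B z) := by
  obtain ⟨e, he, heB⟩ := AAc_spec h1 h2 h3 h4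
  set V := (affineSpan ℝ S).direction with hV
  have hn : Module.finrank ℝ V ≤ n := by
    have := finrank_le (X := Fin n → ℝ) h1 h3 e.pf (fun y hy => ⟨e.g y, e.mg hy, e.ri y hy⟩)
    simpa using this
  set u' : V := ⟨u, hu⟩ with hu'
  have hu'0 : u' ≠ 0 := fun h => hu0 (congrArg Subtype.val h)
  obtain ⟨m, q, hm, hq0⟩ := exists_quot V hu'0
  have hWf : Module.finrank ℝ (Fin m → ℝ) < Module.finrank ℝ (Fin n → ℝ) := by
    simp only [Module.finrank_fin_fun]
    omega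
  have hdir : ∀ y ∈ S, ∀ z ∈ S, y - z ∈ V := by
    intro y hy z hz
    rw [← vsub_eq_sub]
    exact AffineSubspace.vsub_mem_direction (subset_affineSpan ℝ S hy) (subset_affineSpan ℝ S hz)
  -- the normalised point
  set ν : (Fin n → ℝ) → (Fin n → ℝ) := fun x => ‖x‖⁻¹ • x with hν
  have hνn : ∀ x, x ≠ 0 → ‖ν x‖ = 1 := by
    intro x hx
    have : ‖x‖ ≠ 0 := norm_ne_zero_iff.2 hx
    simp [hν, norm_smul, this]
  have hνc : ∀ x, x ≠ 0 → ν x ∈ cube n := by
    intro x hx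
    rw [mem_closedBall_zero_iff, hνn x hx]
  have hνneg : ∀ x, ν (-x) = -ν x := by
    intro x
    simp [hν]
  have hνnc : ∀ x, x ≠ 0 → -ν x ∈ cube n := by
    intro x hx
    rw [mem_closedBall_zero_iff, norm_neg, hνn x hx]
  have hfS : ∀ x ∈ cube n, e.f x ∈ S := fun x hx => e.mf hx
  -- the odd map
  obtain ⟨q', hq'⟩ := q.exists_extend
  have hqq : ∀ w (hw : w ∈ V), q' w = q ⟨w, hw⟩ := fun w hw =>
    LinearMap.congr_fun hq' (⟨w, hw⟩ : V)
  have hFc : ContinuousOn (fun x => q' (e.f (ν x) - e.f (-ν x))) {x | x ≠ 0} := by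
    have hνcont : ContinuousOn ν {x | x ≠ 0} := by
      have h5 : ContinuousOn (fun x : Fin n → ℝ => ‖x‖⁻¹) {x | x ≠ 0} :=
        ContinuousOn.inv₀ (continuous_norm.continuousOn) fun x hx => norm_ne_zero_iff.2 hx
      exact h5.smul continuousOn_id
    have hq : Continuous q' := LinearMap.continuous_of_finiteDimensional _
    refine hq.comp_continuousOn ?_
    exact (e.pf.1.comp hνcont fun x hx => hνc x hx).sub
      (e.pf.1.comp hνcont.neg fun x hx => hνnc x hx)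
  have hFodd : ∀ x, x ≠ 0 → (fun x => q' (e.f (ν x) - e.f (-ν x))) (-x) =
      -(fun x => q' (e.f (ν x) - e.f (-ν x))) x := by
    intro x hx
    simp only [hνneg, neg_neg]
    rw [← map_neg, neg_sub]
  obtain ⟨x, hx, hFx⟩ := Crest.Agent.Lib.BorsukUlam.exists_zero_of_odd hWf _ hFc hFodd
  have hwV := hdir _ (hfS _ (hνc x hx)) _ (hfS _ (hνnc x hx))
  have hFx' : q ⟨_, hwV⟩ = 0 := by rw [← hqq]; exact hFx
  obtain ⟨t, ht⟩ := hq0 _ hFx'
  have ht' : e.f (ν x) - e.f (-ν x) = t • u := (congrArg Subtype.val ht).symm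
  refine ⟨e.f (ν x), hfS _ (hνc x hx), e.f (-ν x), hfS _ (hνnc x hx), t, ht', ?_⟩
  have h5 := MB.global h1 B e.pg.1 (fun z hz => (heB B).2 z hz) (hfS _ (hνc x hx))
    (hfS _ (hνnc x hx))
  rw [e.li _ (hνc x hx), e.li _ (hνnc x hx)] at h5
  refine le_trans (le_of_eq ?_) h5
  rw [dist_eq_norm, sub_neg_eq_add, ← two_smul ℝ (ν x), norm_smul, hνn x hx]
  norm_num

/-! ### affine functions of bounded oscillation on a fat piece -/

/-- **(B1) OF #10580.** `S` a convex PL `n`-ball, `τ ⊆ S` contains a `ρ`-copy of `S`, `ℓ` affine with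
oscillation at most `ω` on `τ`: then `ℓ` is `ω * AAc n (B '' S) / (2 ρ)`-Lipschitz on `S` in the
frame `B`. -/
theorem fat_lip {n : ℕ} {S : Set E} (h1 : Convex ℝ S) (h2 : IsCompact S) (h3 : S.Nonempty)
    (h4 : IsBall n S (S \ ri S)) (B : E ≃ᵃ[ℝ] E) {τ : Set E} {ρ ω : ℝ} (hρ : 0 < ρ) {v : E}
    (hv : ∀ x ∈ S, v + ρ • x ∈ τ) {ℓ : E →ᵃ[ℝ] ℝ} (hℓ : ∀ x ∈ τ, ∀ y ∈ τ, |ℓ x - ℓ y| ≤ ω)
    {y z : E} (hy : y ∈ S) (hz : z ∈ S) :
    |ℓ y - ℓ z| ≤ ω * AAc n (B '' S) / (2 * ρ) * dist (B y) (B z) := by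
  have hlin : ∀ a b : E, ℓ a - ℓ b = ℓ.linear (a - b) := by
    intro a b
    rw [← vsub_eq_sub (ℓ a), ← AffineMap.linearMap_vsub, vsub_eq_sub]
  have hω : 0 ≤ ω := (abs_nonneg _).trans (hℓ _ (hv y hy) _ (hv y hy))
  have hA := AAc_pos n (B '' S)
  rcases eq_or_ne y z with rfl | hyz
  · simp
  have hu : y - z ∈ (affineSpan ℝ S).direction := by
    rw [← vsub_eq_sub]
    exact AffineSubspace.vsub_mem_direction (subset_affineSpan ℝ S hy) (subset_affineSpan ℝ S hz)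
  obtain ⟨y', hy', z', hz', t, ht, hd⟩ := exists_chord h1 h2 h3 h4 B hu (sub_ne_zero.2 hyz)
  have e1 : dist (B y') (B z') = |t| * dist (B y) (B z) := by
    rw [dist_eq_norm, dist_eq_norm, lin_sub, lin_sub, ht, map_smul, norm_smul, Real.norm_eq_abs]
  have h5 := hℓ _ (hv y' hy') _ (hv z' hz')
  have e2 : ℓ (v + ρ • y') - ℓ (v + ρ • z') = ρ * t * ℓ.linear (y - z) := by
    rw [hlin]
    have : v + ρ • y' - (v + ρ • z') = (ρ * t) • (y - z) := by
      rw [mul_smul, ← ht, smul_sub]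
      abel
    rw [this, map_smul, smul_eq_mul]
  rw [e2, abs_mul, abs_mul, abs_of_pos hρ] at h5
  rw [hlin]
  have hD : 0 ≤ dist (B y) (B z) := dist_nonneg
  rw [e1] at hd
  have ht0 : 0 ≤ |t| := abs_nonneg t
  have htp : 0 < |t| := by
    rcases ht0.eq_or_lt with h | h
    · rw [← h] at hd
      norm_num at hd
    · exact h
  set m := |ℓ.linear (y - z)| with hm
  have hm0 : 0 ≤ m := abs_nonneg _
  have h6 : m ≤ ω / (ρ * |t|) := by
    rw [le_div_iff₀ (by positivity)]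
    linarith
  refine h6.trans ?_
  rw [div_mul_eq_mul_div, div_le_div_iff₀ (by positivity) (by positivity)]
  have h7 : ω * ρ * 2 ≤ ω * ρ * (AAc n (B '' S) * (|t| * dist (B y) (B z))) :=
    mul_le_mul_of_nonneg_left hd (by positivity)
  nlinarith [h7]

/-- **(B1), functions which are `L`-Lipschitz functions of such an affine function on each of finitely
many closed fat pieces of `S`** -/
theorem LB_of_fat {n : ℕ} {S : Set E} (h1 : Convex ℝ S) (h2 : IsCompact S) (h3 : S.Nonempty)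
    (h4 : IsBall n S (S \ ri S)) (B : E ≃ᵃ[ℝ] E) {ι : Type*} [Finite ι] {τ : ι → Set E} {ρ ω L : ℝ}
    (hρ : 0 < ρ) (hL : 0 ≤ L) (hτc : ∀ i, IsClosed (τ i)) (hcov : S ⊆ ⋃ i, τ i)
    (hv : ∀ i, ∃ v : E, ∀ x ∈ S, v + ρ • x ∈ τ i) {c : E → ℝ}
    (hℓ : ∀ i, ∃ (ℓ : E →ᵃ[ℝ] ℝ) (ψ : ℝ → ℝ), (∀ x ∈ τ i, ∀ y ∈ τ i, |ℓ x - ℓ y| ≤ ω) ∧
      (∀ x ∈ τ i ∩ S, c x = ψ (ℓ x)) ∧
      ∀ x ∈ τ i ∩ S, ∀ y ∈ τ i ∩ S, |ψ (ℓ x) - ψ (ℓ y)| ≤ L * |ℓ x - ℓ y|) {z : E} (hz : z ∈ S) :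
    LB B (L * ω / (2 * ρ) * AAc n (B '' S)) c S z := by
  have hfin : ∀ᶠ y in 𝓝[S] z, ∀ i, z ∉ τ i → y ∉ τ i := by
    rw [eventually_all]
    intro i
    by_cases hi : z ∈ τ i
    · exact Eventually.of_forall fun y h => absurd hi h
    · filter_upwards [((hτc i).isOpen_compl.mem_nhds hi : (τ i)ᶜ ∈ 𝓝 z) |> mem_nhdsWithin_of_mem_nhds]
        with y hy _ using hy
  filter_upwards [hfin, self_mem_nhdsWithin] with y hy hyS
  obtain ⟨i, hyi⟩ := mem_iUnion.1 (hcov hyS)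
  have hzi : z ∈ τ i := by
    by_contra h
    exact hy i h hyi
  obtain ⟨v, hv⟩ := hv i
  obtain ⟨ℓ, ψ, hℓ1, hℓ2, hℓ3⟩ := hℓ i
  rw [hℓ2 y ⟨hyi, hyS⟩, hℓ2 z ⟨hzi, hz⟩]
  have h5 := fat_lip h1 h2 h3 h4 B hρ hv hℓ1 hyS hz
  calc |ψ (ℓ y) - ψ (ℓ z)| ≤ L * |ℓ y - ℓ z| := hℓ3 y ⟨hyi, hyS⟩ z ⟨hzi, hz⟩
    _ ≤ L * (ω * AAc n (B '' S) / (2 * ρ) * dist (B y) (B z)) :=
        mul_le_mul_of_nonneg_left h5 hL
    _ = _ := by ring

end

end Crest.Agent.R096.Nub_713
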