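import Mathlib
import Crest.Agent.R096.Nub1_713

/-!
Row 96 (S0127), helper713.  NUMBERS, (B) of 112 #10580, part 2: `mesh_shape` of Nu6_199 with the base
given directly in every frame (no representative frame, no upper bound of `AAc`).
-/

set_option autoImplicit false
set_option linter.style.longLine false
set_option linter.unusedSectionVars false

open Set Metric Filter Topology

namespace Crest.Agent.R096.Nub_713

open Crest.Agent.R096.Ce_537 Crest.Agent.R096.Bd_416 Crest.Agent.R96.Nu1_199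
open Crest.Agent.R96.Nu2_199 Crest.Agent.R96.Nu3_199 Crest.Agent.R96.Nu4_199
open Crest.Agent.R96.Nu5_199 Crest.Agent.R96.Nu6_199

open scoped Classical

noncomputable section

variable {E : Type*} [NormedAddCommGroup E] [NormedSpace ℝ E] [FiniteDimensional ℝ E]
variable {Q : Type} [PartialOrder Q] {dim : Q → ℕ} {J Fam : Type}
variable {C : Cmb Q dim J Fam} {K : Q → Set E} {Ω : Set E}
variable {R : Set Q} {K₀ ε : ℝ} {b : ℕ → ℝ} {wt : J → ℝ} {δ : Q → ℝ}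
variable {g0 : Gd E J} {P0 : ∀ q, C.I q → Set E} {c0 : ∀ q, C.I q → E → ℝ}

/-- **charts of all cells; constants in all frames for the convex cells off `R`** (`R` may contain
giant non-convex cells) -/
theorem exists_e' (X : Cplx Ω Q dim K) (hconv : ∀ τ ∉ R, Convex ℝ (K τ))
    (hcpt : ∀ τ ∉ R, IsCompact (K τ)) (hbd : ∀ τ ∉ R, bdS K τ = K τ \ ri (K τ)) :
    ∃ e : ∀ τ, 1 ≤ dim τ → PLEquiv (cube (dim τ)) (K τ),
      (∀ τ, ∀ hd : 1 ≤ dim τ, (e τ hd).f '' sph (dim τ) = bdS K τ) ∧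
      (∀ τ ∉ R, ∀ hd : 1 ≤ dim τ, ∀ B ∈ FrA E, ∀ v ∈ cube (dim τ),
        MB id B (AAc (dim τ) (B '' K τ)) (e τ hd).f (cube (dim τ)) v) ∧
      (∀ τ ∉ R, ∀ hd : 1 ≤ dim τ, ∀ B ∈ FrA E, ∀ z ∈ K τ,
        MB B id (AAc (dim τ) (B '' K τ)) (e τ hd).g (K τ) z) := by
  have h1 : ∀ τ, ∃ e : PLEquiv (cube (dim τ)) (K τ), e.f '' sph (dim τ) = bdS K τ ∧
      (τ ∉ R → ∀ B : E ≃ᵃ[ℝ] E, (∀ x ∈ cube (dim τ),
        MB (fun x => x) B (AAc (dim τ) (B '' K τ)) e.f (cube (dim τ)) x) ∧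
        ∀ z ∈ K τ, MB B (fun x => x) (AAc (dim τ) (B '' K τ)) e.g (K τ) z) := by
    intro τ
    by_cases hτ : τ ∈ R
    · obtain ⟨e, he⟩ := X.isBall τ
      exact ⟨e, he, fun h => absurd hτ h⟩
    · have hb : IsBall (dim τ) (K τ) (K τ \ ri (K τ)) := by
        rw [← hbd τ hτ]; exact X.isBall τ
      obtain ⟨e, he, hB⟩ := AAc_spec (hconv τ hτ) (hcpt τ hτ) hb.nonempty hb
      exact ⟨e, by rw [he, hbd τ hτ], fun _ => hB⟩
  choose e he hB using h1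
  refine ⟨fun τ _ => e τ, fun τ _ => he τ, ?_, ?_⟩
  · rintro τ hτ _ _ ⟨B, rfl⟩ v hv
    exact (hB τ hτ B).1 v hv
  · rintro τ hτ _ _ ⟨B, rfl⟩ z hz
    exact (hB τ hτ B).2 z hz

/-- **THE MESH, ALL FRAMES AT ONCE** (`e` from `exists_e`), the base given directly in every frame
((B2) of 112 #10580); no convexity, charts only off the base `R` (so giant cells may lie in `R`). -/
theorem mesh_shape' (X : Cplx Ω Q dim K)
    (hw : ∀ j, 0 < wt j) (hb0 : ∀ n, 0 < b n) (hb2 : ∀ n, b n < 1/2) (hε0 : 0 < ε) (hε1 : ε < 1)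
    (hK : 0 ≤ K₀) (hδ : ∀ q, 0 < δ q)
    (hR : ∀ q ∈ R, ∀ p < q, p ∈ R) (H0 : Inv C K R g0 P0 c0)
    (hbase : ∀ q ∈ R, ∀ (B : E ≃ᵃ[ℝ] E) (x) (z), z ∈ K q →
      LB B (K₀ * (AAc (dim q) (B '' K q) * (Wd C wt q + δ q)) / wt (C.col q x)) (c0 q x) (K q) z)
    (e : ∀ τ, 1 ≤ dim τ → PLEquiv (cube (dim τ)) (K τ))
    (he : ∀ τ ∉ R, ∀ hd : 1 ≤ dim τ, (e τ hd).f '' sph (dim τ) = bdS K τ)
    (hef : ∀ τ ∉ R, ∀ hd : 1 ≤ dim τ, ∀ B ∈ FrA E, ∀ v ∈ cube (dim τ),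
      MB id B (AAc (dim τ) (B '' K τ)) (e τ hd).f (cube (dim τ)) v)
    (heg : ∀ τ ∉ R, ∀ hd : 1 ≤ dim τ, ∀ B ∈ FrA E, ∀ z ∈ K τ,
      MB B id (AAc (dim τ) (B '' K τ)) (e τ hd).g (K τ) z)
    (k : ∀ τ, C.I τ → ℕ) (hk : ∀ τ ∉ R, dim τ = 1 → Function.Injective (k τ))
    (ord : ∀ τ ∉ R, dim τ = 1 → ∀ x x', x ≠ x' → C.fam (C.col τ x) = C.fam (C.col τ x') →
      (k τ x' < k τ x → C.side τ x x' = 1) ∧ (k τ x < k τ x' → C.side τ x x' = 0))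
    (Rl : (∀ q, C.I q → E → ℝ) → ∀ τ, C.I τ → C.I τ → Prop)
    (hRl : ∀ D g P c (_ : Inv C K D g P c) τ, 2 ≤ dim τ → (∀ σ < τ, σ ∈ D) →
      ∃ kk : C.I τ → ℕ, Function.Injective kk ∧ ∀ x x', Rl c τ x x' → kk x' < kk x)
    (hRI : ∀ c τ x x', Ins C K c τ x x' → Rl c τ x x')
    (Spec : ∀ q, Lam (K q) (C.I q) → Prop)
    (hS0 : ∀ τ ∉ R, dim τ = 0 → ∀ M, Spec τ M)
    (hS1 : ∀ τ ∉ R, dim τ = 1 → ∀ (e : PLEquiv (cube 1) (K τ)), e.f '' sph 1 = bdS K τ →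
      e.f (fun _ => -1) ∈ K (C.o τ) → ∀ (p : C.I τ → ℝ)
      (hE : Ed (fun i => 4 * (1 - ε) * uq C wt δ τ * wt (C.col τ i)) p),
      (∀ i j, k τ j < k τ i → p j < p i) → Spec τ ((edgeLam hE).pull e.symm (X.isClosed τ)))
    (hS2 : ∀ D g P c (H : Inv C K D g P c), ∀ τ, (hd : 2 ≤ dim τ) →
      (∀ q ∈ D, Trk C K R g0 P0 c0 b Spec (fun _ => FrA E) wt (LamS X C K₀ ε b wt δ) (dim τ) q g
        (P q) (c q)) →
      ∀ hτR : τ ∉ R, ∀ (hτ : ∀ σ < τ, σ ∈ D) (κ : ℝ) (ρ : C.I τ → ℝ)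
      (Dp : Dep (bdLam H X τ hτ) κ (b (dim τ)) (fun x => uq C wt δ τ * wt (C.col τ x)) ρ),
      (∀ x x', Rl c τ x x' → ρ x' < ρ x) →
      Spec τ (Dp.fillBall (e τ (by omega)) (he τ hτR (by omega))))
    (n : ℕ) : ∃ g P c, Inv C K (R ∪ {q | dim q < n}) g P c ∧
      ∀ q ∈ R ∪ {q | dim q < n}, Trk C K R g0 P0 c0 b Spec (fun _ => FrA E) wt
        (LamS X C K₀ ε b wt δ) n q g (P q) (c q) := by
  refine mesh_num (fun x => x) X (ω := fun B q => omB X C wt δ B q)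
    (Lf := fun B τ => AAc (dim τ) (B '' K τ)) (Lg := fun B τ => AAc (dim τ) (B '' K τ))
    (fun B => num_omB X hw hb0 hb2 hε0 hε1 hK hδ B) hR H0 (fun _ => FrA E)
    (fun _ => Subset.rfl) ?_ e he
    (fun τ hτ hd B hB v hv => ?_) (fun τ hτ hd B hB z hz => heg τ hτ hd B hB z hz) k hk ord Rl hRl hRI
    Spec hS0 hS1 hS2 n
  · -- the base
    rintro q hq _ ⟨B, rfl⟩ x z hz
    have hwx := hw (C.col q x)
    refine (hbase q hq B x z hz).mono ?_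
    refine div_le_div_of_nonneg_right ?_ hwx.le
    exact mul_le_mul_of_nonneg_left (omB_ge (C := C) X hw hδ (B : E → E) q) hK
  · exact (hef τ hτ hd B hB v (sph_subset_cube hv)).filter_mono
      (nhdsWithin_mono _ fun _ h => sph_subset_cube h)

/-- **the hypothesis of `mesh_shape'` at one cell of the base, from fat pieces**: `K q` is covered by
finitely many closed pieces `τ i` containing `ρ`-copies of `K q`; on `τ i` every piece `c0 q x` is an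
`L x`-Lipschitz function of an affine function of oscillation at most `ω` there, and
`L x * ω / (2 ρ) ≤ K₀ (Wd + δ) / wt`. -/
theorem base_of_fat {q : Q} (hc : Convex ℝ (K q)) (hcpt : IsCompact (K q))
    (hb : IsBall (dim q) (K q) (K q \ ri (K q))) {ι : Type*} [Finite ι] {τ : ι → Set E} {ρ ω : ℝ}
    (hρ : 0 < ρ) (hτc : ∀ i, IsClosed (τ i)) (hcov : K q ⊆ ⋃ i, τ i)
    (hv : ∀ i, ∃ v : E, ∀ x ∈ K q, v + ρ • x ∈ τ i) (x : C.I q) {L : ℝ} (hL : 0 ≤ L)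
    (hLK : L * ω / (2 * ρ) ≤ K₀ * (Wd C wt q + δ q) / wt (C.col q x))
    (hℓ : ∀ i, ∃ (ℓ : E →ᵃ[ℝ] ℝ) (ψ : ℝ → ℝ), (∀ x ∈ τ i, ∀ y ∈ τ i, |ℓ x - ℓ y| ≤ ω) ∧
      (∀ z ∈ τ i ∩ K q, c0 q x z = ψ (ℓ z)) ∧
      ∀ z ∈ τ i ∩ K q, ∀ y ∈ τ i ∩ K q, |ψ (ℓ z) - ψ (ℓ y)| ≤ L * |ℓ z - ℓ y|)
    (B : E ≃ᵃ[ℝ] E) {z : E} (hz : z ∈ K q) :
    LB B (K₀ * (AAc (dim q) (B '' K q) * (Wd C wt q + δ q)) / wt (C.col q x)) (c0 q x) (K q) z := by
  have h1 := LB_of_fat hc hcpt hb.nonempty hb B hρ hL hτc hcov hv hℓ hz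
  refine h1.mono ?_
  have hA := (AAc_pos (dim q) (B '' K q)).le
  calc L * ω / (2 * ρ) * AAc (dim q) (B '' K q)
      ≤ K₀ * (Wd C wt q + δ q) / wt (C.col q x) * AAc (dim q) (B '' K q) :=
        mul_le_mul_of_nonneg_right hLK hA
    _ = _ := by ring

end

end Crest.Agent.R096.Nub_713
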