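import Crest.Agent.R096.Sde4_422
import Crest.Agent.R096.Lv4_471
import Crest.Agent.R096.Bar4_543

/-!
# R096 (row 96), DOORS, NE1M (helper792): **G2 of 778 #12223 = the never moved columns of a barrier**

`never_m` : the towers of the barrier `m` do not move a vertex over a tile which carries a point with
`gR ≤ 1 - μ/8` (inner side) or `2 ≤ gR` (outer side).
-/

set_option autoImplicit false
set_option linter.unusedSectionVars false
set_option linter.unusedVariables false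
set_option linter.style.longLine false

open Set Topology Filter Metric Module Relation
open scoped Classical

namespace Crest.Agent.R096.Nvm_792

open Crest.Agent.R096.Msh_715 Crest.Agent.R096.Agl5_543 Crest.Agent.R096.St_147
  Crest.Agent.R096.Seq_213 Crest.Agent.R096.Door_501 Crest.Agent.R096.Sla_184
  Crest.Agent.R096.Twr_438 Crest.Agent.R096.Exa_560 Crest.Agent.R096.Ess3_95
  Crest.Agent.R096.Ess4_95 Crest.Agent.R096.Dfi_539 Crest.Agent.R096.Dfi_471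
  Crest.Agent.R096.Ac_117 Crest.Agent.R096.Lm_117 Crest.Agent.R096.Cp_298
  Crest.Agent.R096.Coh_184 Crest.Agent.R096.Gm_298 Crest.Agent.R096.Cpo_642
  Crest.Agent.R096.Gl_422 Crest.Agent.R096.Flb_422 Crest.Agent.R096.Sid_422
  Crest.Agent.R096.Vrt_422 Crest.Agent.R096.Dfo_539
open Crest.Agent.R096.Brk1_582 Crest.Agent.R096.Brk2_582 Crest.Agent.R096.Brk3_582
  Crest.Agent.R096.Brk5_582 Crest.Agent.R096.Bsp_628 Crest.Agent.R096.Init_543
  Crest.Agent.R096.Bar_106 Crest.Agent.R096.Dib_438 Crest.Agent.R096.Lam_847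
  Crest.Agent.R096.Ess5_95 Crest.Agent.R096.Bgf_4 Crest.Agent.R096.Ebr1_95
  Crest.Agent.R096.Ebr4_95 Crest.Agent.R096.Rop_441 Crest.Agent.R096.Nmd1_698
open Crest.Agent.R096.Mbf_337 (sb KJ Tiny gau Cores Fine)
open Crest.Agent.R096.SkC1_961 (E3 FoamD Hom3)
open Crest.Agent.R096.Frn_337 (Ti)
open Crest.Agent.R096.Frs_662 (slC)
open Crest.Agent.R096.Ess7_95 (KT Sh)
open Crest.Agent.R096.Dff_539 (vS)
open Crest.Agent.R096.Bmf_416 (coT)
open Crest.Agent.R096.Sde_422 (gR bz_rec g_v0 g_v1 g_exact)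

variable {δ κ0 R c0 : ℝ} {La Om : Set E3} {ι : Type} {Φ : FoamD δ κ0 R c0 La} {T : Tiling Om ι}
  {f g : E3 → E3} {κ1 κ2 μ : ℝ} {X : Set Φ.F} {J0 J V : Φ.F → Set ι}
  {ct ct' : Φ.F → ι} {A : Φ.F → E3 ≃ᵃ[ℝ] E3} {lam : Φ.F → ℝ} {z : Φ.F → E3}
  {θ : Φ.F → E3 → E3} {φ : Φ.F → E3 → ℝ} {r₀ : Φ.F → ℝ}
  {L : Φ.F → Finset ℝ} [Nonempty (JJ Φ L)] {hG : GF Φ r₀ T f L} {bp : JJ Φ L → E3}
  {N' : BM Φ X → Set ℝ} {ρ1 ρ2 ρ3 ρ4 d : Φ.F → ℝ} {q₀ : BM Φ X → E3} {ε : BM Φ X → ℝ}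
  {bm : BM Φ X → E3} {hGB : GFB Φ r₀ T f L (lRc Φ X μ ρ1 ρ3 d) ε}
  {v0F v1F : ∀ c, Φ.F → VxK T (KT T J X) c} {v0B v1B : ∀ c, BM Φ X → VxK T (KT T J X) c}
  {hLa : IsOpen La} {hC : Cores Φ T f κ1 κ2 X J0 J V ct A lam z θ φ}
  {n : Ti X → ℕ} {hn : ∀ c, 0 < n c} {r : JJ Φ L ⊕ BM Φ X → E3}
  {Sf : JJ Φ L ⊕ BM Φ X → Set E3}
  {Lv : ∀ c, Φ.F ⊕ BM Φ X → Lev T (frontier ((slC hLa hC n hn).K c)) (JJ Φ L ⊕ BM Φ X)}
  {Tw : Twrs ((slC hLa hC n hn).sh fr3) (slC hLa hC n hn).n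
    (outK (slC hLa hC n hn).hH (slC hLa hC n hn).dis (stB hGB bp bm) r)}

section s2

variable (N : NumD δ κ0 R c0 κ2 μ κ1) (H : Hm f g Om La)
  (bar : BarOut Φ T f κ1 μ X J0 J V θ hG bp N' ρ1 ρ2 ρ3 ρ4 d q₀ ε bm hGB v0B v1B)
  (D : DIn (slC hLa hC n hn).hH (stB hGB bp bm) r Sf (nbA Φ X) (vS v0F v0B) (vS v1F v1B)
    (uA Φ hLa X θ) (AA Φ X μ κ1) (BA Φ X μ))
  (lo : LevOut (Kc := (slC hLa hC n hn).K) (stB hGB bp bm) (nbA Φ X) (uA Φ hLa X θ)
    (AA Φ X μ κ1) (BA Φ X μ) Lv)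
  (tt : TwOut (slC hLa hC n hn) fr3 (stB hGB bp bm) r (vS v0F v0B) (vS v1F v1B) Lv Tw)
include N H bar D lo

/-- the moved vertices of `m` are not near the axis (any name in `Rgn`) -/
theorem rgn_lo (m : BM Φ X) (i : JJ Φ L ⊕ BM Φ X) (v : (slC hLa hC n hn).Vx (coT m))
    (hv : Rgn ((slC hLa hC n hn).sh fr3 (coT m)) (vS v0F v0B (coT m) (Sum.inr m))
      (vS v1F v1B (coT m) (Sum.inr m))
      (trc (slC hLa hC n hn).hH (slC hLa hC n hn).dis (stB hGB bp bm) r (coT m) (Sum.inr m))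
      (exa fr3 (slC hLa hC n hn).hH (slC hLa hC n hn).dis (Lv (coT m) (Sum.inr m))) i v) :
    1 - μ / 64 < gR Φ X μ m (θ m.co v.1) := by
  have hμ := N.hμ
  have hr := (bar.rm m.co m.co_notMem).2
  by_contra hno
  push Not at hno
  refine not_rgn_axis (κ := Ti X) (cf := fun k => k.1) (J0 := fun k => J0 k.1)
    (J := fun k => J k.1) (V := fun k => V k.1) (θ := fun k => θ k.1) (φ := fun k => φ k.1)
    (h3 := fr3) (hH := (slC hLa hC n hn).hH) (hdis := (slC hLa hC n hn).dis) (k := coT m)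
    (b' := Sum.inr m) (N := Nb Φ hLa m.co) (a := m.am) (Z := m.Zm) (p := pp m) (m := qq m)
    (z0 := 1 - μ / 64) (zb := 1) hLa N.hδ N.hR N.hκ N.cn1
    (fun k => hC.tiny k.1 k.2) lo (v0 := vS v0F v0B) (v1 := vS v1F v1B) (fun x => rfl) (mo_pq m)
    (mo_p (mo_pq m)) (mo_m (mo_pq m)) N.nm (by linarith)
    (show μ / 8 * (1 - μ / 64) ≤ 5 * μ / 32 by nlinarith) ?_ ?_ ?_ (v := v) hno i hv
  · have h1 := N.om2 (r := (3 * Cn δ R + 1) * κ1) (by nlinarith [N.cn0, N.hκ])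
    linarith
  · exact (g_v0 N hLa hC bar m).trans (by linarith [N.hμb])
  · intro w hw hl hwf
    have hl' : (stB hGB bp bm).lab w = Sum.inr m := by
      rcases hj : (stB hGB bp bm).lab w with j | m'
      · rw [hj] at hl; cases hl
      · rw [hj] at hl
        exact congrArg Sum.inr (Sum.inr_injective hl)
    have hε := bar.lv m
    obtain ⟨b1, b2, b3, b4⟩ := rad_bar (fun c hc => (bar.rm c hc).2) m hε
    obtain ⟨-, -, -, -, -, -, -, e4⟩ := bar.pos m w hw hl'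
    obtain ⟨g1, g2⟩ := bar.lev m w hw hl'
    have hfr := hr.fr w hwf
    refine ⟨g1, ?_⟩
    rcases e4 with e4 | e4 | e4
    · linarith [hr.r12, hr.d0, hfr.1]
    · linarith [hr.d0, hfr.2]
    · exact hε.1.le.trans e4.ge

/-- the moved vertices of `m` are not far from the axis -/
theorem rgn_hi (m : BM Φ X) (i : JJ Φ L ⊕ BM Φ X) (v : (slC hLa hC n hn).Vx (coT m))
    (hv : Rgn ((slC hLa hC n hn).sh fr3 (coT m)) (vS v0F v0B (coT m) (Sum.inr m))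
      (vS v1F v1B (coT m) (Sum.inr m))
      (trc (slC hLa hC n hn).hH (slC hLa hC n hn).dis (stB hGB bp bm) r (coT m) (Sum.inr m))
      (exa fr3 (slC hLa hC n hn).hH (slC hLa hC n hn).dis (Lv (coT m) (Sum.inr m))) i v) :
    Fs (Nb Φ hLa m.co) m.am m.Zm (sb Φ (θ m.co v.1)) < 3 * μ / 16 := by
  have hμ := N.hμ
  have hb1 : (1 : ℝ) + μ / 16 ≤ 1 + μ / 16 := le_rfl
  have hnb : nbA Φ X (coT m) (Sum.inr m) := rfl
  by_contra hno
  push Not at hno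
  have hN : ∀ e, (Pc Φ.F m.co ∩ Pc Φ.F e).Nonempty → e ∈ Nb Φ hLa m.co := fun e he => mem_Nb.2 he
  refine Lv4_471.not_rgn_bar (κ := Ti X) (cf := fun k => k.1) (J0 := fun k => J0 k.1)
    (J := fun k => J k.1) (V := fun k => V k.1) (θ := fun k => θ k.1) (φ := fun k => φ k.1)
    (h3 := fr3) (hH := (slC hLa hC n hn).hH) (hdis := (slC hLa hC n hn).dis) (k := coT m)
    (b' := Sum.inr m) (N := Nb Φ hLa m.co) (a := m.am) (Z := m.Zm) (p := pp m) (m := qq m)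
    hLa N.hδ N.hR N.hκ N.cn1
    (fun k => hC.tiny k.1 k.2) lo (v0 := vS v0F v0B) (v1 := vS v1F v1B) (fun x => rfl) (mo_pq m)
    (mo_p (mo_pq m)) (mo_m (mo_pq m)) ?_ (D.v0_lt (coT m) (Sum.inr m) hnb)
    (D.v1_gt (coT m) (Sum.inr m) hnb) N.l0 N.ra0 (hi := 1 + μ / 16) (mm := 1 / 2)
    (N.bB hb1) N.bB1 (N.m0 hb1) (N.m1 hb1) ?_ hno i hv
  · exact (Bar_543.fs_ge_c hLa (mo_pq m) hN (t := 3 * μ / 16) (by linarith)
      (by linarith [N.hμb])).1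
  · intro w hw hl _
    have hl' : (stB hGB bp bm).lab w = Sum.inr m := by
      rcases hj : (stB hGB bp bm).lab w with j | m'
      · rw [hj] at hl; cases hl
      · rw [hj] at hl
        exact congrArg Sum.inr (Sum.inr_injective hl)
    exact bar.lev m w hw hl'

/-- far from the axis `Fs` is large -/
theorem fs_far (m : BM Φ X) {x : E3} (hx : x ∈ frontier (KJ T (J m.co)))
    (h : 2 - μ / 512 ≤ gR Φ X μ m (θ m.co x)) :
    3 * μ / 16 ≤ Fs (Nb Φ hLa m.co) m.am m.Zm (sb Φ (θ m.co x)) := by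
  have hμ := N.hμ
  have hμb := N.hμb
  have hθ := th_mem (hC.tiny m.co m.co_notMem) hx
  have hsb := sb_mem hLa hθ
  have h4 := Fm_le_Fs (a := m.am) (Z := m.Zm) (N := Nb Φ hLa m.co) (u := sb Φ (θ m.co x))
    (fun e he => dv_off hLa (mo_pq m) hθ fun h => he (mem_Nb.2 h)) hsb
  have hmax : gR Φ X μ m (θ m.co x) = max (Fm m.am m.Zm (sb Φ (θ m.co x)) / (μ / 8))
      (|sb Φ (θ m.co x) m.am - 1 / 2| / (1 / 2 - 5 * μ / 16)) := rfl
  rw [hmax] at h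
  rcases le_max_iff.1 h with h | h
  · rw [le_div_iff₀ N.l0] at h
    nlinarith
  · exfalso
    have h5 : |sb Φ (θ m.co x) m.am - 1 / 2| ≤ 1 / 2 := by
      obtain ⟨a1, a2⟩ := hsb m.am
      rw [abs_le]; constructor <;> linarith
    rw [le_div_iff₀ N.ra0] at h
    nlinarith

include tt

/-- **G2 (778 #12223): THE NEVER MOVED COLUMNS** -/
theorem never_m (m : BM Φ X) {q : ι} {x : E3} (hx : x ∈ P (T.H q))
    (h1 : ρ1 m.co ≤ ga Φ m.co (f x)) (h2 : ga Φ m.co (f x) ≤ ρ4 m.co)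
    (hg : gR Φ X μ m (Φ.Psi (f x)) ≤ 1 - μ / 8 ∨ 2 ≤ gR Φ X μ m (Φ.Psi (f x)))
    (k : Ti X) (v : (slC hLa hC n hn).Vx k) (hv : v.1 ∈ P (T.H q)) (j : ℕ) :
    v ∉ ((Tw.tw k (Sum.inr m)).mv j).Qv := by
  intro hQ
  have hnb : nbA Φ X k (Sum.inr m) := qv_nb (c := k) (a := Sum.inr m) (j := j) D tt hQ
  have hk : coT m = k := hnb
  subst hk
  have hR := tt.rgn (coT m) (Sum.inr m) j v hQ
  have hμ := N.hμ
  have hZ := bz_rec N H hLa hC bar m
  have hvf : v.1 ∈ frontier (KJ T (J m.co)) := v.2.2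
  have o1 := abs_le.1 (hZ.osc q x hx h1 h2 v.1 hv)
  have o2 := abs_le.1 (hZ.near v.1 hvf)
  rcases hg with hg | hg
  · have h3 := rgn_lo N H bar D lo m _ v hR
    linarith [o1.1, o2.2]
  · have h3 := rgn_hi N H bar D lo m _ v hR
    have h4 := fs_far (hLa := hLa) (hC := hC) N H bar D lo m hvf (by linarith [o1.2, o2.1])
    linarith

end s2

end Crest.Agent.R096.Nvm_792
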