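import Crest.Agent.R096.Sec10_892

/-!
# R096 / DOORS-SEC, part 11 (helper892): CUT with the clause (ENC)

New points lie only next to ENCLOSED barrier points: barrier points which are not joined by free
barrier chords with a point on a frozen face.
-/

set_option autoImplicit false

namespace Crest.Agent.R096.SecW_892

open Crest.Agent.R096.St_147 Crest.Agent.R096.Wk_689 Crest.Agent.R096.F_422
open Crest.Agent.R096.Sec_892

variable {ι Φ W I : Type} {M : MeshC ι Φ W} {col : I → Bool} {s : St M col}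
variable {Act : Set ι} {far : I → Set W}

/-- the barrier point `h` is not joined, by barrier chords which are free in `s`, with a point on a
frozen face (or a marked point) -/
def Encl (Act : Set ι) (far : I → Set W) (s : St M col) (h : W) : Prop :=
  ∃ X : Set W, h ∈ X ∧ (∀ x ∈ X, HP s x ∧ s.lab x = s.lab h) ∧
    (∀ F x, x ∈ X → s.At F x → s.Free F x → s.mu F x ∈ X) ∧
    ∀ x ∈ X, x ∉ far (s.lab h) ∧ ∀ F, s.At F x → ¬ St.Frozen M Act F

/-- new points only next to enclosed barrier points (on some face) -/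
def Enc (Act : Set ι) (far : I → Set W) (Ph : Finset W) (s' s : St M col) : Prop :=
  ∀ w ∈ s'.P, w ∉ s.P → ∃ h, HP s h ∧ (∃ F, h ∈ M.On F) ∧ Nb M Ph h w ∧ Encl Act far s h

theorem Encl.not {h : W} (he : Encl Act far s h)
    (hj : ∀ X : Set W, h ∈ X → (∀ F x, x ∈ X → s.At F x → s.lab x = s.lab h → s.Free F x →
      s.mu F x ∈ X) → ∃ x ∈ X, ∃ F, s.At F x ∧ St.Frozen M Act F) : False := by
  obtain ⟨X, h1, h2, h3, h4⟩ := he
  obtain ⟨x, hx, F, hA, hF⟩ := hj X h1 (fun F x hx hA _ hf => h3 F x hx hA hf)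
  exact (h4 x hx).2 F hA hF

/-- barrier chords which are free stay free -/
theorem free_hp {Ph : Finset W} {s' s : St M col} (hc : CLe Act far Ph s' s) {F : Φ} {x : W}
    (hx : HP s x) (hA : s.At F x) (hf : s.Free F x) : s'.Free F x := by
  intro z' hF y he
  have hlo : s'.lo F x = s.lo F x := by
    unfold St.lo
    rw [hc.hmu x F hx]
  rw [hlo] at he
  have h1 : HP s (s.lo F x) := by
    unfold St.lo
    split_ifs
    · exact hx
    · exact hp_mu hx hA.2
  cases y
  · obtain ⟨z, h2, h3⟩ := hc.dbl z'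
    exact hf z (h2.trans hF) false (h3.trans he)
  · have h2 := (hc.hp (s.lo F x)).2 h1
    have h3 := z'.colr true
    rw [he, h2.2] at h3
    exact Bool.false_ne_true h3

theorem Encl.of_cle {Ph : Finset W} {s' s : St M col} (hc : CLe Act far Ph s' s) {h : W}
    (he : Encl Act far s' h) : Encl Act far s h := by
  obtain ⟨X, h1, h2, h3, h4⟩ := he
  have hh := (hc.hp h).1 (h2 h h1).1
  have hl : s'.lab h = s.lab h := hc.hlab h hh
  refine ⟨X, h1, ?_, ?_, ?_⟩
  · intro x hx
    obtain ⟨h5, h6⟩ := h2 x hx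
    have h7 := (hc.hp x).1 h5
    exact ⟨h7, by rw [← hc.hlab x h7, h6, hl]⟩
  · intro F x hx hA hf
    obtain ⟨h5, -⟩ := h2 x hx
    have h7 := (hc.hp x).1 h5
    rw [← hc.hmu x F h7]
    exact h3 F x hx ⟨h5.1, hA.2⟩ (free_hp hc h7 hA hf)
  · intro x hx
    obtain ⟨h5, -⟩ := h2 x hx
    obtain ⟨h6, h7⟩ := h4 x hx
    rw [hl] at h6
    exact ⟨h6, fun F hA => h7 F ⟨h5.1, hA.2⟩⟩

theorem Enc.refl (Act : Set ι) (far : I → Set W) (Ph : Finset W) (s : St M col) :
    Enc Act far Ph s s := fun _ h h' => absurd h h'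

theorem Enc.trans {Ph Ph' : Finset W} {s'' s' s : St M col} (hPh : Ph ⊆ Ph')
    (h1 : CLe Act far Ph s' s) (e2 : Enc Act far Ph' s'' s') (e1 : Enc Act far Ph s' s) :
    Enc Act far Ph s'' s := by
  intro w hw hws
  by_cases h : w ∈ s'.P
  · exact e1 w h hws
  · obtain ⟨v, h3, h3', h4, h5⟩ := e2 w hw h
    exact ⟨v, (h1.hp v).1 h3, h3', ⟨h4.1, fun F u h6 h7 h8 h9 => h4.2 F u h6 (hPh h7) h8 h9⟩,
      h5.of_cle h1⟩

/-! ### one curve -/

section enc

variable {G : Set s.Dbl} {inn : s.Dbl → Bool → Bool} {nm : Dart s → Option I}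
variable {up : Φ → W → Bool} {Ph : Finset W} {b : Bool} {c : W → W}

/-- the two end darts of a free chord -/
theorem flip_ed {F : Φ} {w : W} (hA : s.At F w) (hf : s.Free F w) :
    flip (ed hA) = ed (At.mu s hA) := by
  have hn : node (flip (ed hA)) = none := by
    rcases h : node (flip (ed hA)) with _ | z
    · rfl
    · exfalso
      have h1 := eq_dz h
      have h2 := chd_dz z (flip (ed hA)).x (flip (ed hA)).b
      rw [← h1] at h2
      have h3 : chd (flip (ed hA)).p = (F, s.lo F w) := Wk_689.chd_ed hA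
      rw [h3] at h2
      exact hf z (Prod.mk.inj h2).1.symm _ (Prod.mk.inj h2).2.symm
  refine eq_ed hn (fc_ed hA) ?_ _
  have h1 : fc (ed hA) = F := fc_ed hA
  have h2 : pt (ed hA) = w := pt_ed hA
  rcases hd : ed hA with ⟨x, p, b⟩
  rw [hd] at h1 h2
  have h3 : (chd p).1 = F := h1
  cases b
  · have h4 : (chd p).2 = w := h2
    show s.mu (chd p).1 (chd p).2 = s.mu F w
    rw [h3, h4]
  · have h4 : s.mu (chd p).1 (chd p).2 = w := h2
    show (chd p).2 = s.mu F w
    rw [← h4, h3]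
    have h5 := chd_at p
    rw [h3] at h5
    exact (s.mu_mu h5.1 h5.2).symm

/-- pushed points lie next to enclosed barrier points -/
theorem pst_enc {A : s.Arcs Act} {τ : Bool → ι → s.Dbl → ZMod 2}
    {D : s.Dbl → Bool → Dart s → ZMod 2} {z₀ : s.Dbl} (hD : DD A τ A.mx far D) (hz₀ : z₀ ∈ A.mx)
    (hg : s.Good Act far) (N : NmsT s (A.cv z₀) far (innD D) (nm1 D z₀))
    (hp : Push s up Ph b c) (hP : s.P ⊆ Ph) :
    Enc Act far Ph (pst hp hP (nst_sub hg N)) s := by
  intro w hw hws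
  rcases pst_cases hw with ⟨v, hv, rfl⟩ | h
  · have hvP := nst_sub hg N (mem_kA.1 hv).1
    cases hc : col (s.lab v)
    · have hm := (mem_nmd (hg := hg) (N := N)).1 (mem_kA.1 hv).1
      have hface : ∃ F, s.At F v := by
        by_contra hcon
        have h1 : lab' s (nm1 D z₀) v = s.lab v := by
          classical
          unfold lab'
          rw [dif_neg hcon]
        rw [h1, hc] at hm
        exact Bool.false_ne_true hm.2.1
      have hin : ∀ F (hA : s.At F v), D z₀ false (ed hA) = 1 := by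
        intro F hA
        have h1 := joined_nm N hm.2.1 hm.2.2 hA
        rcases z2 (D z₀ false (ed hA)) with h2 | h2
        · rw [nm1_f' (by rw [x_ed, hc]) h2] at h1
          exact absurd h1 (by simp)
        · exact h2
      rw [ph_pos hc] at hws ⊢
      refine ⟨v, ⟨hvP, hc⟩, ⟨_, hface.choose_spec.2⟩, ⟨fun F => hp.on F ⟨hvP, hc⟩,
          fun F u h3 h4 h5 h6 => hp.adj ⟨hvP, hc⟩ h3 h4 h5 h6⟩,
        {x | s.lab x = s.lab v ∧ (∃ F, s.At F x) ∧ ∀ F (hA : s.At F x), D z₀ false (ed hA) = 1},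
        ⟨rfl, hface, hin⟩, ?_, ?_, ?_⟩
      · rintro x ⟨h1, ⟨F, hA⟩, -⟩
        exact ⟨⟨hA.1, by rw [h1]; exact hc⟩, h1⟩
      · rintro F x ⟨h1, -, h2⟩ hA hf
        have hA' := At.mu s hA
        refine ⟨(s.mu_lab hA.1 hA.2).trans h1, ⟨F, hA'⟩, fun F' hA'' => ?_⟩
        rw [hD.cont z₀ hz₀ false F' F _ hA'' hA', ← flip_ed hA hf, hD.fl z₀ hz₀]
        exact h2 F hA
      · rintro x ⟨h1, ⟨F, hA⟩, h2⟩
        constructor
        · intro hx
          have h3 := hD.far0 z₀ hz₀ false _ F x hA hx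
          rw [h2 F hA] at h3
          exact one_ne_zero h3
        · intro F' hA' hF'
          have h3 := hD.far0 z₀ hz₀ false _ F' x hA' (hg.far_frozen hA' hF')
          rw [h2 F' hA'] at h3
          exact one_ne_zero h3
    · rw [ph_neg hc] at hws
      exact absurd hvP hws
  · exact absurd h.1 hws

/-- **one step, with (ENC)** -/
theorem stepE (hg : s.Good Act far) (h2 : Two s up) (hP : s.P ⊆ Ph)
    (hroom : ∀ b, ∃ c, Push s up Ph b c) (A : s.Arcs Act) {G : Set s.Dbl} (hG : A.Closed G)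
    (hne : G.Nonempty) :
    ∃ s' : St M col, s'.Good Act far ∧ CL2 Act far Ph s' s ∧ Enc Act far Ph s' s ∧
      Nat.card s'.Dbl < Nat.card s.Dbl := by
  classical
  have hR := refStmt A (fun i => B_422.sep_of_h1 s i (hg.h1 i))
  obtain ⟨D, hD⟩ := Sd1_161.exists_DD hg A _ hR
  have hmx := A.mx_closed
  obtain ⟨z₀, hz₀, hin⟩ := exists_inner hD (hne.mono (A.sub_mx hG))
  have N := exists_nms1 hD hR (fun _ _ h => (hg.far_mem h).2) hz₀ hin
  have hG' : A.Closed (A.cv z₀) := by
    intro u hu q hq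
    exact ⟨(hmx u (cv_sub hmx hz₀ hu) q hq).1, cv_trans hu (cv_arc hq)⟩
  have hDw : DDw A _ (A.cv z₀) far D := DDw.of hD fun u hu => cv_sub hmx hz₀ hu
  have hn : nm1 D z₀ (dz z₀ true (!innD D z₀ true)) = none := by
    have h1 := SecW_892.D_in hDw (cv_refl A z₀) true
    exact nm1_t' (dz_x _ _ _) h1
  have hx : HP s (z₀.e false) := ⟨(z₀.at_ false).1, z₀.colr false⟩
  have hfin : ∀ {b : Bool} {c : W → W} (hp : Push s up Ph b c),
      (¬ (M.Btw z₀.F (z₀.e false) (s.mu z₀.F (z₀.e false))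
        (pt (flip (dz z₀ true (!innD D z₀ true)))) ↔
        M.pos z₀.F (z₀.e false) < M.pos z₀.F (c (z₀.e false)))) →
      ∃ s' : St M col, s'.Good Act far ∧ CL2 Act far Ph s' s ∧ Enc Act far Ph s' s ∧
        Nat.card s'.Dbl < Nat.card s.Dbl := by
    intro b c hp hanti
    have hgood := pst_good hG' hg N hp hP h2
    refine ⟨pst hp hP (nst_sub hg N), hgood,
      ⟨pst_cle hG' hg N hp hP h2, ?_, ?_, pst_pb hz₀ hg N hp hP hgood⟩,
      pst_enc hD hz₀ hg N hp hP,
      pst_card hg N hp hP h2 (z₀ := z₀) (β₀ := !innD D z₀ true) hanti hn⟩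
    · exact fun w hw hws => (pst_common hg N hp hP hw hws).2
    · exact fun F w hw hw' hf => pst_off hg N hp hP h2 hw hw' hf
  by_cases hQ : M.Btw z₀.F (z₀.e false) (s.mu z₀.F (z₀.e false))
      (pt (flip (dz z₀ true (!innD D z₀ true))))
  · obtain ⟨c, hp⟩ := hroom (!up z₀.F (z₀.e false))
    refine hfin hp ?_
    intro h
    have h3 := (hp.side hx (z₀.at_ false).2).1 (h.1 hQ)
    cases up z₀.F (z₀.e false) <;> simp at h3
  · obtain ⟨c, hp⟩ := hroom (up z₀.F (z₀.e false))
    refine hfin hp ?_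
    intro h
    exact hQ (h.2 ((hp.side hx (z₀.at_ false).2).2 rfl))

/-- **CUT with (ENC)**: one-sided removal of all closed double curves, with pull back of closed
sets; new points only next to enclosed barrier points -/
theorem cutE (up : Φ → W → Bool) (s : St M col) (hg : s.Good Act far) (h2 : Two s up)
    (hroom : Room s up) (Ph : Finset W) (hP : s.P ⊆ Ph) :
    ∃ s' : St M col, s'.Good Act far ∧ CL2 Act far Ph s' s ∧ Enc Act far Ph s' s ∧
      ∀ (A : s'.Arcs Act) (G : Set s'.Dbl), A.Closed G → G = ∅ := by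
  classical
  induction hn : Nat.card s.Dbl using Nat.strong_induction_on generalizing s Ph with
  | _ n ih =>
    by_cases h : ∀ (A : s.Arcs Act) (G : Set s.Dbl), A.Closed G → G = ∅
    · exact ⟨s, hg, CL2.refl _ _ _ _, Enc.refl _ _ _ _, h⟩
    · push Not at h
      obtain ⟨A, G, hG, hne⟩ := h
      obtain ⟨s₁, hg₁, hl₁, he₁, hc₁⟩ := stepE hg h2 hP (fun b => hroom Ph b) A hG hne
      have h2' : Two s₁ up := by
        intro F w hw hF
        have hw' := (hl₁.cle.hp w).1 hw
        rw [hl₁.cle.hmu w F hw']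
        exact h2 hw' hF
      have hroom' : Room s₁ up := by
        intro Ph' b
        obtain ⟨c, hp⟩ := hroom Ph' b
        exact ⟨c, hp.congr hl₁.cle.hp⟩
      obtain ⟨s₂, hg₂, hl₂, he₂, hc₂⟩ := ih _ (hn ▸ hc₁) s₁ hg₁ h2' hroom' (Ph ∪ s₁.P)
        Finset.subset_union_right rfl
      exact ⟨s₂, hg₂, CL2.trans Finset.subset_union_left (hP.trans Finset.subset_union_left)
        hl₂ hl₁ hg₁, Enc.trans Finset.subset_union_left hl₁.cle he₂ he₁, hc₂⟩

end enc

end Crest.Agent.R096.SecW_892
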