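import Crest.Agent.R096.Sec6_892
import Crest.Agent.R096.Sec11_892
import Crest.Agent.R096.Dfo1_539

/-!
# R096 (row 96), DOORS, [NW] of helper241 #11878 (helper423)

The combinatorial half: a sheet `i` (a barrier), a set `X` of points of it which is closed under the
chords `Fr` (free chords) and contains the points on the cell `Gi` (the giant), a set `Low` of points
all of whose chords are `Fr` ("`s_a < t_L`"), jump chords `Low w`, `¬ Low (mu F w)` of two kinds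
(`Front`), never both on one cell (below the top), exactly one front jump on the giant.  Then `X` has a
point in `High`.
-/

set_option autoImplicit false

namespace Crest.Agent.R096.Nw_423

open Crest.Agent.R096.St_147 Crest.Agent.R096.Wk_689 Crest.Agent.R096.F_422
open Crest.Agent.R096.Sec_892 Crest.Agent.R096.SecW_892

section core

variable {ι Φ W I : Type} {M : MeshC ι Φ W} {col : I → Bool} {s : St M col}

open Classical in
/-- indicator in `ZMod 2` -/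
noncomputable def ind (p : Prop) : ZMod 2 := if p then 1 else 0

theorem ind_pos {p : Prop} (h : p) : ind p = 1 := if_pos h
theorem ind_neg {p : Prop} (h : ¬ p) : ind p = 0 := if_neg h
theorem ind_ne {p : Prop} : ind p ≠ 0 ↔ p :=
  ⟨fun h => by by_contra hp; exact h (ind_neg hp), fun h => by rw [ind_pos h]; exact one_ne_zero⟩
theorem ind_congr {p q : Prop} (h : p ↔ q) : ind p = ind q := by rw [propext h]
theorem ind_xor {p q : Prop} : ind ((p ∧ ¬ q) ∨ (q ∧ ¬ p)) = ind p + ind q := by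
  by_cases hp : p <;> by_cases hq : q
  · rw [ind_pos hp, ind_pos hq, ind_neg (by tauto)]; decide
  · rw [ind_pos hp, ind_neg hq, ind_pos (by tauto)]; decide
  · rw [ind_neg hp, ind_pos hq, ind_pos (by tauto)]; decide
  · rw [ind_neg hp, ind_neg hq, ind_neg (by tauto)]; decide

/-- **(NW), core** -/
theorem nw_core {i : I} (Fr : Φ → W → Prop) (Gi : ι) (High Low : W → Prop) (Front : Φ → W → Prop)
    (hfree : ∀ F w, s.At F w → s.lab w = i → Low w → Fr F w)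
    {X : Set W} (hX : ∀ F w, w ∈ X → s.At F w → s.lab w = i → Fr F w → s.mu F w ∈ X)
    (hG : ∀ F w, Gi ∈ M.side F → s.At F w → s.lab w = i → w ∈ X)
    (hq : ∀ q, q ≠ Gi → ∀ F w F' w', q ∈ M.side F → q ∈ M.side F' →
      s.At F w → s.lab w = i → Low w → ¬ Low (s.mu F w) → ¬ High w → ¬ High (s.mu F w) →
      s.At F' w' → s.lab w' = i → Low w' → ¬ Low (s.mu F' w') → ¬ High w' → ¬ High (s.mu F' w') →
      Front F w → Front F' w')
    {F₀ : Φ} {w₀ : W} (h0 : Gi ∈ M.side F₀) (hA0 : s.At F₀ w₀) (hi0 : s.lab w₀ = i)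
    (hL0 : Low w₀) (hL1 : ¬ Low (s.mu F₀ w₀)) (hF0 : Front F₀ w₀)
    (huniq : ∀ F w, Gi ∈ M.side F → s.At F w → s.lab w = i → Low w → ¬ Low (s.mu F w) →
      ¬ High w → ¬ High (s.mu F w) → Front F w → F = F₀ ∧ w = w₀) :
    ∃ x ∈ X, High x := by
  classical
  by_contra hcon
  push Not at hcon
  -- the jump chords
  let Jp : Φ → W → Prop := fun F w => w ∈ X ∧ Low w ∧ ¬ Low (s.mu F w)
  have hJ : ∀ F w, s.At F w → s.lab w = i → Jp F w →
      s.mu F w ∈ X ∧ ¬ High w ∧ ¬ High (s.mu F w) := by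
    intro F w hA hi hj
    have h1 := hX F w hj.1 hA hi (hfree F w hA hi hj.2.1)
    exact ⟨h1, hcon _ hj.1, hcon _ h1⟩
  let ω : Φ → W → ZMod 2 := fun F w =>
    ind ((Jp F w ∧ Front F w) ∨ (Jp F (s.mu F w) ∧ Front F (s.mu F w)))
  have hω : ∀ F w, ω F w ≠ 0 ↔ (Jp F w ∧ Front F w) ∨ (Jp F (s.mu F w) ∧ Front F (s.mu F w)) :=
    fun F w => ind_ne
  have hsym : ∀ F w, s.At F w → s.lab w = i → ω F (s.mu F w) = ω F w := by
    intro F w hA hi
    refine ind_congr ?_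
    rw [s.mu_mu hA.1 hA.2]
    exact or_comm
  refine no_single (s := s) (i := i) (ω := ω) Gi hsym ?_ h0 hA0 hi0 ?_ ?_
  · intro q hqG
    by_cases hex : ∃ F w, q ∈ M.side F ∧ s.At F w ∧ s.lab w = i ∧ Jp F w ∧ Front F w
    · -- a cell with a front jump: all jumps are front, `ω` = jump of the indicator of `X_L`
      obtain ⟨F, w, hF, hA, hi, hj, hfr⟩ := hex
      obtain ⟨-, a1, a2⟩ := hJ F w hA hi hj
      have hall : ∀ F' w', q ∈ M.side F' → s.At F' w' → s.lab w' = i → Jp F' w' → Front F' w' := by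
        intro F' w' hF' hA' hi' hj'
        obtain ⟨-, b1, b2⟩ := hJ F' w' hA' hi' hj'
        exact hq q hqG F w F' w' hF hF' hA hi hj.2.1 hj.2.2 a1 a2 hA' hi' hj'.2.1 hj'.2.2 b1 b2 hfr
      refine ⟨fun w => ind (w ∈ X ∧ Low w), fun F' w' hF' hA' hi' => ?_⟩
      have hAm := At.mu s hA'
      have him : s.lab (s.mu F' w') = i := by rw [s.mu_lab hA'.1 hA'.2]; exact hi'
      have c1 : (Jp F' w' ∧ Front F' w') ↔ (w' ∈ X ∧ Low w') ∧ ¬ (s.mu F' w' ∈ X ∧ Low (s.mu F' w')) := by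
        constructor
        · rintro ⟨h1, -⟩
          exact ⟨⟨h1.1, h1.2.1⟩, fun h2 => h1.2.2 h2.2⟩
        · rintro ⟨h1, h2⟩
          have h3 : s.mu F' w' ∈ X := hX F' w' h1.1 hA' hi' (hfree F' w' hA' hi' h1.2)
          have h4 : Jp F' w' := ⟨h1.1, h1.2, fun h => h2 ⟨h3, h⟩⟩
          exact ⟨h4, hall F' w' hF' hA' hi' h4⟩
      have c2 : (Jp F' (s.mu F' w') ∧ Front F' (s.mu F' w')) ↔
          (s.mu F' w' ∈ X ∧ Low (s.mu F' w')) ∧ ¬ (w' ∈ X ∧ Low w') := by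
        constructor
        · rintro ⟨h1, -⟩
          refine ⟨⟨h1.1, h1.2.1⟩, fun h2 => h1.2.2 ?_⟩
          rw [s.mu_mu hA'.1 hA'.2]; exact h2.2
        · rintro ⟨h1, h2⟩
          have h3 : s.mu F' (s.mu F' w') ∈ X :=
            hX F' _ h1.1 hAm him (hfree F' _ hAm him h1.2)
          have h4 : Jp F' (s.mu F' w') := by
            refine ⟨h1.1, h1.2, fun h => h2 ?_⟩
            rw [s.mu_mu hA'.1 hA'.2] at h h3
            exact ⟨h3, h⟩
          exact ⟨h4, hall F' _ hF' hAm him h4⟩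
      exact (ind_congr (or_congr c1 c2)).trans ind_xor
    · -- no front jump: `ω = 0`
      refine ⟨fun _ => 0, fun F' w' hF' hA' hi' => ?_⟩
      rw [add_zero]
      by_contra hne
      rcases (hω F' w').1 hne with h | h
      · exact hex ⟨F', w', hF', hA', hi', h.1, h.2⟩
      · exact hex ⟨F', _, hF', At.mu s hA', by rw [s.mu_lab hA'.1 hA'.2]; exact hi', h.1, h.2⟩
  · have h1 : Jp F₀ w₀ := ⟨hG F₀ w₀ h0 hA0 hi0, hL0, hL1⟩
    exact ind_pos (Or.inl ⟨h1, hF0⟩)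
  · intro F w hF hA hi hne
    rcases (hω F w).1 hne with h | h
    · obtain ⟨-, a1, a2⟩ := hJ F w hA hi h.1
      obtain ⟨h1, h2⟩ := huniq F w hF hA hi h.1.2.1 h.1.2.2 a1 a2 h.2
      exact ⟨h1, Or.inl h2⟩
    · have hAm := At.mu s hA
      have him : s.lab (s.mu F w) = i := by rw [s.mu_lab hA.1 hA.2]; exact hi
      obtain ⟨-, a1, a2⟩ := hJ F _ hAm him h.1
      obtain ⟨h1, h2⟩ := huniq F _ hF hAm him h.1.2.1 h.1.2.2 a1 a2 h.2
      subst h1
      refine ⟨rfl, Or.inr ?_⟩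
      rw [← h2, s.mu_mu hA.1 hA.2]

/-- closed sets and connected points -/
theorem dual {Q : Φ → W → Prop} {mu : Φ → W → W}
    (hinv : ∀ F w, Q F w → mu F (mu F w) = w ∧ Q F (mu F w)) {A B : Set W}
    (h : ∀ X : Set W, (∀ F w, w ∈ X → Q F w → mu F w ∈ X) → A ⊆ X → ∃ x ∈ X, x ∈ B) :
    ∃ g ∈ B, ∀ X : Set W, g ∈ X → (∀ F w, w ∈ X → Q F w → mu F w ∈ X) → ∃ a ∈ A, a ∈ X := by
  obtain ⟨g, hg, hgB⟩ := h {x | ∀ X : Set W, (∀ F w, w ∈ X → Q F w → mu F w ∈ X) → A ⊆ X → x ∈ X}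
    (fun F w hw hQ X hX hA => hX F w (hw X hX hA) hQ) (fun a ha X _ hA => hA ha)
  refine ⟨g, hgB, fun X hgX hX => ?_⟩
  by_contra hcon
  push Not at hcon
  refine hg {x | x ∉ X} (fun F w hw hQ h1 => hw ?_) (fun a ha => hcon a ha) hgX
  obtain ⟨h2, h3⟩ := hinv F w hQ
  rw [← h2]
  exact hX F _ h1 h3

/-- **(NW), state form** -/
theorem nw {i : I} (Fr : Φ → W → Prop) (Gi : ι) (High Low : W → Prop) (Front : Φ → W → Prop)
    (hfmu : ∀ F w, s.At F w → s.lab w = i → Fr F w → Fr F (s.mu F w))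
    (hfree : ∀ F w, s.At F w → s.lab w = i → Low w → Fr F w)
    (hq : ∀ q, q ≠ Gi → ∀ F w F' w', q ∈ M.side F → q ∈ M.side F' →
      s.At F w → s.lab w = i → Low w → ¬ Low (s.mu F w) → ¬ High w → ¬ High (s.mu F w) →
      s.At F' w' → s.lab w' = i → Low w' → ¬ Low (s.mu F' w') → ¬ High w' → ¬ High (s.mu F' w') →
      Front F w → Front F' w')
    {F₀ : Φ} {w₀ : W} (h0 : Gi ∈ M.side F₀) (hA0 : s.At F₀ w₀) (hi0 : s.lab w₀ = i)
    (hL0 : Low w₀) (hL1 : ¬ Low (s.mu F₀ w₀)) (hF0 : Front F₀ w₀)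
    (huniq : ∀ F w, Gi ∈ M.side F → s.At F w → s.lab w = i → Low w → ¬ Low (s.mu F w) →
      ¬ High w → ¬ High (s.mu F w) → Front F w → F = F₀ ∧ w = w₀) :
    ∃ g, g ∈ s.P ∧ s.lab g = i ∧ High g ∧ ∀ X : Set W, g ∈ X →
      (∀ F w, w ∈ X → s.At F w → s.lab w = i → Fr F w → s.mu F w ∈ X) →
      ∃ F x, Gi ∈ M.side F ∧ s.At F x ∧ s.lab x = i ∧ x ∈ X := by
  obtain ⟨g, ⟨h1, h2, h3⟩, h4⟩ := dual (Q := fun F w => s.At F w ∧ s.lab w = i ∧ Fr F w)
    (mu := s.mu) (A := {x | ∃ F, Gi ∈ M.side F ∧ s.At F x ∧ s.lab x = i})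
    (B := {x | x ∈ s.P ∧ s.lab x = i ∧ High x})
    (fun F w hw => ⟨s.mu_mu hw.1.1 hw.1.2, At.mu s hw.1,
      (s.mu_lab hw.1.1 hw.1.2).trans hw.2.1, hfmu F w hw.1 hw.2.1 hw.2.2⟩)
    (fun X hX hA => by
      obtain ⟨x, hx, hxH⟩ := nw_core (s := s) (i := i) Fr Gi High Low Front hfree
        (X := X ∩ {x | x ∈ s.P ∧ s.lab x = i})
        (fun F w hw hAt hi hf => ⟨hX F w hw.1 ⟨hAt, hi, hf⟩, (At.mu s hAt).1,
          (s.mu_lab hAt.1 hAt.2).trans hi⟩)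
        (fun F w hG hAt hi => ⟨hA ⟨F, hG, hAt, hi⟩, hAt.1, hi⟩) hq h0 hA0 hi0 hL0 hL1 hF0 huniq
      exact ⟨x, hx.1, hx.2.1, hx.2.2, hxH⟩)
  refine ⟨g, h1, h2, h3, fun X hgX hX => ?_⟩
  obtain ⟨a, ⟨F, b1, b2, b3⟩, b4⟩ := h4 X hgX fun F w hw hQ => hX F w hw hQ.1 hQ.2.1 hQ.2.2
  exact ⟨F, a, b1, b2, b3, b4⟩

end core

/-! ### global states -/

section gst

variable {ι Φ W J C : Type} {M : MeshC ι Φ W} {fam : J → C}

open Crest.Agent.R096.Seq_213 Crest.Agent.R096.Seq_213.GSt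

theorem fin_one (s : GSt M fam) (i : J) : {w | w ∈ s.P ∧ s.lab w = i}.Finite :=
  (s.fin (fam i)).subset fun w hw => ⟨hw.1, by rw [hw.2]⟩

/-- one sheet of a global state as a state -/
noncomputable def oneS (s : GSt M fam) (i : J) : St M (fun _ : Unit => true) where
  P := (fin_one s i).toFinset
  lab := fun _ => ()
  mu := s.mu
  mu_mem := fun {F w} hw hF => by
    rw [Set.Finite.mem_toFinset] at hw ⊢
    exact ⟨⟨(s.mu_mem hw.1 hF).1, by rw [s.mu_lab hw.1 hF]; exact hw.2⟩, (s.mu_mem hw.1 hF).2⟩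
  mu_ne := fun {F w} hw hF => by
    rw [Set.Finite.mem_toFinset] at hw
    exact s.mu_ne hw.1 hF
  mu_mu := fun {F w} hw hF => by
    rw [Set.Finite.mem_toFinset] at hw
    exact s.mu_mu hw.1 hF
  mu_lab := fun _ _ => rfl
  nc := fun {F w x} hw hF hx hF' _ hne hne' => by
    rw [Set.Finite.mem_toFinset] at hw hx
    exact s.nc hw.1 hF hx.1 hF' (by rw [hw.2, hx.2]) hne hne'

theorem oneS_at {s : GSt M fam} {i : J} {F : Φ} {w : W} :
    (oneS s i).At F w ↔ s.At F w ∧ s.lab w = i := by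
  show w ∈ (fin_one s i).toFinset ∧ w ∈ M.On F ↔ _
  rw [Set.Finite.mem_toFinset]
  exact ⟨fun h => ⟨⟨h.1.1, h.2⟩, h.1.2⟩, fun h => ⟨⟨h.1.1, h.2⟩, h.1.2⟩⟩

/-- **(NW), global form**: `Fr` = the free chords, `Gi` = the giant, `Low` = `s_a < t_L`, `High` =
above the top wall, `Front` = kind of a jump chord (read at its low end) -/
theorem nw_gst {s : GSt M fam} {i : J} (Fr : Φ → W → Prop) (Gi : ι) (High Low : W → Prop)
    (Front : Φ → W → Prop)
    (hfmu : ∀ F w, s.At F w → s.lab w = i → Fr F w → Fr F (s.mu F w))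
    (hfree : ∀ F w, s.At F w → s.lab w = i → Low w → Fr F w)
    (hq : ∀ q, q ≠ Gi → ∀ F w F' w', q ∈ M.side F → q ∈ M.side F' →
      s.At F w → s.lab w = i → Low w → ¬ Low (s.mu F w) → ¬ High w → ¬ High (s.mu F w) →
      s.At F' w' → s.lab w' = i → Low w' → ¬ Low (s.mu F' w') → ¬ High w' → ¬ High (s.mu F' w') →
      Front F w → Front F' w')
    {F₀ : Φ} {w₀ : W} (h0 : Gi ∈ M.side F₀) (hA0 : s.At F₀ w₀) (hi0 : s.lab w₀ = i)
    (hL0 : Low w₀) (hL1 : ¬ Low (s.mu F₀ w₀)) (hF0 : Front F₀ w₀)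
    (huniq : ∀ F w, Gi ∈ M.side F → s.At F w → s.lab w = i → Low w → ¬ Low (s.mu F w) →
      ¬ High w → ¬ High (s.mu F w) → Front F w → F = F₀ ∧ w = w₀) :
    ∃ g, g ∈ s.P ∧ s.lab g = i ∧ High g ∧ ∀ X : Set W, g ∈ X →
      (∀ F w, w ∈ X → s.At F w → s.lab w = i → Fr F w → s.mu F w ∈ X) →
      ∃ F x, Gi ∈ M.side F ∧ s.At F x ∧ s.lab x = i ∧ x ∈ X := by
  obtain ⟨g, h1, -, h3, h4⟩ := nw (s := oneS s i) (i := ()) Fr Gi High Low Front
    (fun F w hA _ hf => hfmu F w (oneS_at.1 hA).1 (oneS_at.1 hA).2 hf)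
    (fun F w hA _ hl => hfree F w (oneS_at.1 hA).1 (oneS_at.1 hA).2 hl)
    (fun q hqG F w F' w' hF hF' hA _ c1 c2 c3 c4 hA' _ d1 d2 d3 d4 hfr =>
      hq q hqG F w F' w' hF hF' (oneS_at.1 hA).1 (oneS_at.1 hA).2 c1 c2 c3 c4
        (oneS_at.1 hA').1 (oneS_at.1 hA').2 d1 d2 d3 d4 hfr)
    h0 (oneS_at.2 ⟨hA0, hi0⟩) rfl hL0 hL1 hF0
    (fun F w hF hA _ c1 c2 c3 c4 hfr =>
      huniq F w hF (oneS_at.1 hA).1 (oneS_at.1 hA).2 c1 c2 c3 c4 hfr)
  have h1' : g ∈ s.P ∧ s.lab g = i := by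
    have h5 : g ∈ (fin_one s i).toFinset := h1
    rwa [Set.Finite.mem_toFinset] at h5
  refine ⟨g, h1'.1, h1'.2, h3, fun X hgX hX => ?_⟩
  obtain ⟨F, x, b1, b2, -, b4⟩ := h4 X hgX fun F w hw hA _ hf =>
    hX F w hw (oneS_at.1 hA).1 (oneS_at.1 hA).2 hf
  exact ⟨F, x, b1, (oneS_at.1 b2).1, (oneS_at.1 b2).2, b4⟩

end gst

/-! ### not enclosed barrier points -/

section encl

variable {ι Φ W J C Mo : Type} {M : MeshC ι Φ W} {fam : J → C}

open Crest.Agent.R096.Seq_213 Crest.Agent.R096.Seq_213.GSt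

theorem noX_mu {s : GSt M (Sum.map fam (id : Mo → Mo))} {a : C} {F : Φ} {x : W} (hA : s.At F x)
    (h : Dfo_539.NoX s a F x) : Dfo_539.NoX s a F (s.mu F x) := by
  intro y hy hl hlace
  refine h y hy hl ?_
  rw [s.mu_mu hA.1 hA.2] at hlace
  exact (lace_swap_left M F _ _ _ _).1 hlace

/-- **(NW)**: there is a point of the barrier `m` in `High` which is not enclosed -/
theorem exists_not_encl {s : GSt M (Sum.map fam (id : Mo → Mo))} {am : Mo → C} {Act : C → Set ι}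
    {m : Mo} (Gi : ι) (hGi : Gi ∉ Act (am m)) (High Low : W → Prop) (Front : Φ → W → Prop)
    (hfree : ∀ F w, s.At F w → s.lab w = Sum.inr m → Low w → Dfo_539.NoX s (am m) F w)
    (hq : ∀ q, q ≠ Gi → ∀ F w F' w', q ∈ M.side F → q ∈ M.side F' →
      s.At F w → s.lab w = Sum.inr m → Low w → ¬ Low (s.mu F w) → ¬ High w → ¬ High (s.mu F w) →
      s.At F' w' → s.lab w' = Sum.inr m → Low w' → ¬ Low (s.mu F' w') → ¬ High w' →
      ¬ High (s.mu F' w') → Front F w → Front F' w')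
    {F₀ : Φ} {w₀ : W} (h0 : Gi ∈ M.side F₀) (hA0 : s.At F₀ w₀) (hi0 : s.lab w₀ = Sum.inr m)
    (hL0 : Low w₀) (hL1 : ¬ Low (s.mu F₀ w₀)) (hF0 : Front F₀ w₀)
    (huniq : ∀ F w, Gi ∈ M.side F → s.At F w → s.lab w = Sum.inr m → Low w → ¬ Low (s.mu F w) →
      ¬ High w → ¬ High (s.mu F w) → Front F w → F = F₀ ∧ w = w₀) :
    ∃ g, g ∈ s.P ∧ s.lab g = Sum.inr m ∧ High g ∧ ¬ Dfo_539.Encl s am Act m g := by
  obtain ⟨g, h1, h2, h3, h4⟩ := nw_gst (s := s) (i := Sum.inr m) (Dfo_539.NoX s (am m)) Gi High Low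
    Front (fun F w hA _ hf => noX_mu hA hf) hfree hq h0 hA0 hi0 hL0 hL1 hF0 huniq
  refine ⟨g, h1, h2, h3, fun he => he.not fun X hg hX => ?_⟩
  obtain ⟨F, x, b1, b2, -, b4⟩ := h4 X hg hX
  exact ⟨x, b4, F, b2, Gi, b1, hGi⟩

end encl

end Crest.Agent.R096.Nw_423
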