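import Crest.Agent.R096.Pbn2_147
import Crest.Agent.R096.Sec13_892
import Crest.Agent.R096.Dinv5_106

/-!
# R096 (row 96), DOORS (helper147): CUT for all families at once, with `PBN` for every family

`cutP` : 892's `cutN` and `PBN`; `cutAllG` : 892's `cutAll` and `PBN` for every family.
-/

set_option autoImplicit false

namespace Crest.Agent.R096.Pbn_147

open Crest.Agent.R096.St_147 Crest.Agent.R096.Wk_689 Crest.Agent.R096.F_422
open Crest.Agent.R096.Seq_213 Crest.Agent.R096.Cg_501 Crest.Agent.R096.Sgd_298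
open Crest.Agent.R096.Sec_892 Crest.Agent.R096.SecW_892

section one

variable {ι Φ W I : Type} {M : MeshC ι Φ W} {col : I → Bool} {s : St M col}
variable {Act : Set ι} {far : I → Set W}
variable {up : Φ → W → Bool} {Ph : Finset W}

/-- **one step, with (ENC) for one sheet** -/
theorem stepP (hg : s.Good Act far) (h2 : Two s up) (hP : s.P ⊆ Ph)
    (hroom : ∀ b, ∃ c, Push s up Ph b c) (A : s.Arcs Act) {G : Set s.Dbl} (hG : A.Closed G)
    (hne : G.Nonempty) :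
    ∃ s' : St M col, s'.Good Act far ∧ CL2 Act far Ph s' s ∧ DblN s' s ∧ EncN Act far Ph s' s ∧
      PBN Act far Ph s' s ∧
      Nat.card s'.Dbl < Nat.card s.Dbl := by
  classical
  have hR := refStmt A (fun i => B_422.sep_of_h1 s i (hg.h1 i))
  obtain ⟨D, hD⟩ := Sd1_161.exists_DD hg A _ hR
  have hmx := A.mx_closed
  obtain ⟨z₀, hz₀, hin⟩ := exists_inner hD (hne.mono (A.sub_mx hG))
  have N := exists_nms1 hD hR (fun _ _ h => (hg.far_mem h).2) hz₀ hin
  have hG' : A.Closed (A.cv z₀) := by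
    intro u hu q hq
    exact ⟨(hmx u (cv_sub hmx hz₀ hu) q hq).1, cv_trans hu (cv_arc hq)⟩
  have hDw : DDw A _ (A.cv z₀) far D := DDw.of hD fun u hu => cv_sub hmx hz₀ hu
  have hn : nm1 D z₀ (dz z₀ true (!innD D z₀ true)) = none := by
    have h1 := SecW_892.D_in hDw (cv_refl A z₀) true
    exact nm1_t' (dz_x _ _ _) h1
  have hx : HP s (z₀.e false) := ⟨(z₀.at_ false).1, z₀.colr false⟩
  have hfin : ∀ {b : Bool} {c : W → W} (hp : Push s up Ph b c),
      (¬ (M.Btw z₀.F (z₀.e false) (s.mu z₀.F (z₀.e false))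
        (pt (flip (dz z₀ true (!innD D z₀ true)))) ↔
        M.pos z₀.F (z₀.e false) < M.pos z₀.F (c (z₀.e false)))) →
      ∃ s' : St M col, s'.Good Act far ∧ CL2 Act far Ph s' s ∧ DblN s' s ∧
        EncN Act far Ph s' s ∧ PBN Act far Ph s' s ∧ Nat.card s'.Dbl < Nat.card s.Dbl := by
    intro b c hp hanti
    have hgood := pst_good hG' hg N hp hP h2
    refine ⟨pst hp hP (nst_sub hg N), hgood,
      ⟨pst_cle hG' hg N hp hP h2, ?_, ?_, pst_pb hz₀ hg N hp hP hgood⟩,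
      pst_dblN hg N hp hP h2, pst_encN hD hz₀ hg N hp hP, pst_pbn hD hz₀ hg N hp hP h2 hgood,
      pst_card hg N hp hP h2 (z₀ := z₀) (β₀ := !innD D z₀ true) hanti hn⟩
    · exact fun w hw hws => (pst_common hg N hp hP hw hws).2
    · exact fun F w hw hw' hf => pst_off hg N hp hP h2 hw hw' hf
  by_cases hQ : M.Btw z₀.F (z₀.e false) (s.mu z₀.F (z₀.e false))
      (pt (flip (dz z₀ true (!innD D z₀ true))))
  · obtain ⟨c, hp⟩ := hroom (!up z₀.F (z₀.e false))
    refine hfin hp ?_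
    intro h
    have h3 := (hp.side hx (z₀.at_ false).2).1 (h.1 hQ)
    cases up z₀.F (z₀.e false) <;> simp at h3
  · obtain ⟨c, hp⟩ := hroom (up z₀.F (z₀.e false))
    refine hfin hp ?_
    intro h
    exact hQ (h.2 ((hp.side hx (z₀.at_ false).2).2 rfl))

/-- **CUT with (ENC) for one sheet** -/
theorem cutP (up : Φ → W → Bool) (s : St M col) (hg : s.Good Act far) (h2 : Two s up)
    (hroom : Room s up) (Ph : Finset W) (hP : s.P ⊆ Ph) :
    ∃ s' : St M col, s'.Good Act far ∧ CL2 Act far Ph s' s ∧ DblN s' s ∧ EncN Act far Ph s' s ∧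
      PBN Act far Ph s' s ∧
      ∀ (A : s'.Arcs Act) (G : Set s'.Dbl), A.Closed G → G = ∅ := by
  classical
  induction hn : Nat.card s.Dbl using Nat.strong_induction_on generalizing s Ph with
  | _ n ih =>
    by_cases h : ∀ (A : s.Arcs Act) (G : Set s.Dbl), A.Closed G → G = ∅
    · exact ⟨s, hg, CL2.refl _ _ _ _, DblN.refl _, EncN.refl _ _ _ _, PBN.refl _ _ _ _, h⟩
    · push Not at h
      obtain ⟨A, G, hG, hne⟩ := h
      obtain ⟨s₁, hg₁, hl₁, hd₁, he₁, hb₁, hc₁⟩ := stepP hg h2 hP (fun b => hroom Ph b) A hG hne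
      have h2' : Two s₁ up := by
        intro F w hw hF
        have hw' := (hl₁.cle.hp w).1 hw
        rw [hl₁.cle.hmu w F hw']
        exact h2 hw' hF
      have hroom' : Room s₁ up := by
        intro Ph' b
        obtain ⟨c, hp⟩ := hroom Ph' b
        exact ⟨c, hp.congr hl₁.cle.hp⟩
      obtain ⟨s₂, hg₂, hl₂, hd₂, he₂, hb₂, hc₂⟩ := ih _ (hn ▸ hc₁) s₁ hg₁ h2' hroom' (Ph ∪ s₁.P)
        Finset.subset_union_right rfl
      exact ⟨s₂, hg₂, CL2.trans Finset.subset_union_left (hP.trans Finset.subset_union_left)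
        hl₂ hl₁ hg₁, hd₂.trans hd₁,
        EncN.trans Finset.subset_union_left hl₂ hl₁.cle hd₁ he₂ he₁,
        PBN.trans Finset.subset_union_left (hP.trans Finset.subset_union_left) hl₂ hl₁ hb₂ hb₁,
        hc₂⟩


end one

section all

variable {ι Φ W J C Mo : Type} {M : MeshC ι Φ W} {fam : J → C} {am : Mo → C}
variable {s : GSt M (Sum.map fam (id : Mo → Mo))} {hs : BSep s am}
  {hm : ∀ a, {m | am m = a}.Finite} {j0 : C → J} {hj0 : ∀ a, fam (j0 a) = a}
  {Act : C → Set ι} {far : ∀ a, PN fam am a → Set W}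

/-- **CUT for all families at once** -/
theorem cutAllG [Countable C] [Nonempty C]
    (hg : ∀ a, (prS s hs hm j0 hj0 a).Good (Act a) (far a))
    (hu : ∀ a, ∃ up, Two (prS s hs hm j0 hj0 a) up ∧ Room (prS s hs hm j0 hj0 a) up)
    (hfin : ∀ F, (s.P ∩ M.On F).Finite) :
    ∃ (t : ∀ a, St M (pcol fam am a)) (Ph : C → Finset W) (s₃ : GSt M fam),
      CutR s hs hm j0 hj0 Act far t Ph s₃ ∧
        ∀ a, PBN (Act a) (far a) (Ph a) (t a) (prS s hs hm j0 hj0 a) := by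
  obtain ⟨t, Ph, s₃, D⟩ := cutAll hg hu hfin
  exact ⟨t, Ph, s₃, D, D.pbn⟩

end all

/-- 778's clause, with the position of the base point as hypothesis -/
theorem trQ_of {ι Φ W I : Type} {M : MeshC ι Φ W} {col : I → Bool} {Act : Set ι}
    {far : I → Set W} {Ph : Finset W} {s' s : St M col} (hc : CLe Act far Ph s' s)
    (hN : PBN Act far Ph s' s) {i : I} (hi : col i = true) {K : Φ → W → Prop} (hK : KBar s K)
    {b : W} (hb : b ∈ s.P ∧ s.lab b = i) (hb' : b ∈ s'.P ∧ s'.lab b = i) {R : Set Φ} {S : Set W}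
    (hR : ConnT Act far s R S) (hD : TrD s i K b R) : TrQ s' i K b R S s.P Ph := by
  constructor
  · intro X' hbX' hX' z' hzR hzl
    obtain ⟨X, hX, hcom, hd, -⟩ := hN i hi K hK X' hX'
    have hbX : b ∈ X := (hcom b hb.1 hb.2 hb'.1 hb'.2).2 hbX'
    obtain ⟨z, e1, e2, e3, e4⟩ := hd z' hzl
    exact e4.1 (hD X hbX hX z (by rw [e1]; exact hzR) e3)
  · intro X' hbX' hX' w hw hws hwl hall
    by_contra hwX
    obtain ⟨X, hX, hcom, hd, hn⟩ := hN i hi K hK X' hX'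
    have hbX : b ∈ X := (hcom b hb.1 hb.2 hb'.1 hb'.2).2 hbX'
    obtain ⟨h, hh, hnb, B, h1, h2, h3, h4⟩ := hn w hw hws hwl
    obtain ⟨y, hyB, hy, hyl, hne⟩ := hR h (hall h ((hc.hp h).2 hh) hnb) hh B h1 (by
      intro F hF y hyB hA _
      exact h3 F y hyB hA fun z hzF _ hzl hiff =>
        hwX (hiff.1 (hD X hbX hX z (by rw [hzF]; exact hF) hzl)))
    apply hne
    refine ⟨B, hyB, fun x hx => ⟨(h2 x hx).1, (h2 x hx).2.trans hyl.symm⟩, ?_, ?_⟩
    · intro F x hx hA hf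
      exact h3 F x hx hA fun z hzF hze _ _ => hf z hzF false hze
    · intro x hx
      rw [hyl]
      exact h4 x hx

section tr

variable {ι Φ W J C Mo : Type} {M : MeshC ι Φ W} {fam : J → C} {am : Mo → C}
variable {s : GSt M (Sum.map fam (id : Mo → Mo))} {hs : BSep s am}
  {hm : ∀ a, {m | am m = a}.Finite} {j0 : C → J} {hj0 : ∀ a, fam (j0 a) = a}
  {Act : C → Set ι} {far : ∀ a, PN fam am a → Set W}
variable {t : ∀ a, St M (pcol fam am a)} {Ph : C → Finset W} {s₃ : GSt M fam}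

/-- the chords of `j` which are not crossed in the quad `k` after CUT (no condition at the points
which CUT removed) -/
def K3 {K : Type} (s₃ : GSt M fam) (Q : Quads ι C K) (j : J) (k : K) (F : Φ) (w : W) : Prop :=
  s₃.At F w → s₃.lab w = j → Dinv_106.KFree s₃ Q k F w

/-- **the field `tr` of `DoorInv` after CUT** (824's `tr_cut`, over `PBN` and 778's `ConnT`), for the
sheet `j` and the quad `k` -/
theorem tr_cutG {K : Type} {Q : Quads ι C K} (D : CutR s hs hm j0 hj0 Act far t Ph s₃)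
    (hN : ∀ a, PBN (Act a) (far a) (Ph a) (t a) (prS s hs hm j0 hj0 a)) {j : J} {k : K}
    -- the chords of `j` on the cells with barrier points of the family are free in `k`
    (hK : ∀ q F F' h m, q ∈ M.side F → q ∈ M.side F' → s.At F' h → s.lab h = Sum.inr m →
      am m = fam j → ∀ w, s₃.At F w → s₃.lab w = j → Dinv_106.KFree s₃ Q k F w)
    {b : W} (hb : b ∈ far (fam j) (nL am j)) (hbs : b ∈ s.P) {R : Set Φ} {S : Set W}
    (hR : ConnT (Act (fam j)) (far (fam j)) (prS s hs hm j0 hj0 (fam j)) R S) {U : Set W}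
    -- (T1) : the truthful part of the state before CUT
    (hT : ∀ X : Set W, b ∈ X →
      (∀ F w, s.At F w → s.lab w = Sum.inl j → K3 s₃ Q j k F w → (w ∈ X ↔ s.mu F w ∈ X)) →
      ∀ w ∈ s.P, s.lab w = Sum.inl j → ((w ∉ U ∧ ¬ Int M (Q.Act k) w) ∨ ∃ F ∈ R, w ∈ M.On F ∧
        ∃ x m, s.At F x ∧ s.lab x = Sum.inr m ∧ am m = fam j ∧
          M.Lace F w (s.mu F w) x (s.mu F x)) → w ∈ X)
    -- new points are in `U`, inside `k`, or next to barrier points of `S`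
    (hnew : ∀ w ∈ s₃.P, s₃.lab w = j → w ∉ s.P → w ∉ U → ¬ Int M (Q.Act k) w →
      ∀ h ∈ s.P, ∀ m, s.lab h = Sum.inr m → am m = fam j → (∀ F, w ∈ M.On F ↔ h ∈ M.On F) →
        h ∈ S) :
    ∀ X : Set W, b ∈ X → Dinv_106.KCl s₃ Q j k X →
      ∀ w ∈ s₃.P, s₃.lab w = j → w ∉ U → ¬ Int M (Q.Act k) w → w ∈ X := by
  intro X hbX hX w hw hl hU hI
  have hK' : ∀ q F F' h m, q ∈ M.side F → q ∈ M.side F' → s.At F' h → s.lab h = Sum.inr m →
      am m = fam j → ∀ w, K3 s₃ Q j k F w := fun q F F' h m h1 h2 h3 h4 h5 w h6 h7 =>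
    hK q F F' h m h1 h2 h3 h4 h5 w h6 h7
  have hX' : ∀ F w, s₃.At F w → s₃.lab w = j → K3 s₃ Q j k F w → (w ∈ X ↔ s₃.mu F w ∈ X) :=
    fun F w hA hl hk => (Dinv_106.KCl.iff hX hA hl (hk hA hl)).symm
  have hbm := (D.good (fam j)).far_mem hb
  obtain ⟨hb3, hbl3⟩ := D.mem.2 ⟨hbm.1, hbm.2⟩
  have hbls : s.lab b = Sum.inl j := by rw [D.old hb3 hbs, hbl3]
  by_cases hws : w ∈ s.P
  · obtain ⟨Y, h1, h2⟩ := D.pb (j := j) (K := K3 s₃ Q j k) hK' hX'
    have hls : s.lab w = Sum.inl j := by rw [D.old hw hws, hl]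
    have hbY : b ∈ Y := (h2 b hbs hbls hb3).2 hbX
    exact (h2 w hws hls hw).1 (hT Y hbY h1 w hws hls (Or.inl ⟨hU, hI⟩))
  · have hKB : KBar (prS s hs hm j0 hj0 (fam j)) (K3 s₃ Q j k) := by
      intro q F F' h hq hq' hh hF' w
      obtain ⟨h3, m, h4, h5⟩ := pr_hp.1 hh
      exact hK' q F F' h m hq hq' ⟨h3, hF'⟩ h5 h4 w
    have hTD : TrD (prS s hs hm j0 hj0 (fam j)) (nL am j) (K3 s₃ Q j k) b R := by
      intro Y hbY hY z hzR hzl
      have hzt := z.at_ true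
      have hzf := z.at_ false
      obtain ⟨e1, e2⟩ := D.pr_of' hzt.1 hzl
      obtain ⟨g1, m, g2, g3⟩ := pr_hp.1 ⟨hzf.1, z.colr false⟩
      refine hT Y hbY (fun F' w' hw' hl' hk => ?_) _ e1 e2
        (Or.inr ⟨z.F, hzR, hzt.2, z.e false, m, ⟨g1, hzf.2⟩, g3, g2, z.lace⟩)
      obtain ⟨e3, e4⟩ := D.pr_of hw'.1 hl'
      exact hY F' w' ⟨e3, hw'.2⟩ e4 hk
    have hq := trQ_of (D.cl2 (fam j)).cle (hN (fam j)) (i := nL am j) rfl hKB
      (D.pr_of hbs hbls) ⟨hbm.1, hbm.2⟩ hR hTD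
    obtain ⟨e1, e2⟩ := D.mem.1 ⟨hw, hl⟩
    refine hq.2 X hbX (fun F' w' hw' hl' hk => ?_) w e1 (fun h => hws (mem_pr.1 h).1) e2 ?_
    · obtain ⟨e3, e4⟩ := D.at_iff.2 ⟨hw', hl'⟩
      rw [← D.mu' e3.1 e4]
      exact hX' F' w' e3 e4 hk
    · intro h hh hnb
      have hh' := ((D.cl2 (fam j)).cle.hp h).1 hh
      obtain ⟨g1, m, g2, g3⟩ := pr_hp.1 hh'
      exact hnew w hw hl hws hU hI h g1 m g3 g2 hnb.1

end tr

end Crest.Agent.R096.Pbn_147
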