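import Crest.Agent.R096.Tro1_914
import Crest.Agent.R096.Pbn3_147
import Crest.Agent.R096.Sgo3_298
import Crest.Agent.R096.Rte1_543

/-!
# R096 (row 96), DOORS (helper914): (T1), the truthful points outside, part 2

The hypotheses `hK`, `hT`, `hnew` of 147's `tr_cutG` for the machine (`s := s2 S fr3 Tw l0`,
`Q := qdT` over the slices), radii from 95's `Rm`:
* `UT` = the wild zone `{w | w ∈ Om ∧ ∃ c, ga (f w) ≤ ρ3 c + 8 d c}`;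
* `tile_out`, `tile_bar`, `far_tile`, `root_out` : the tiles outside `Rtl`;
* `hK_m`, `hT_m`, `hnew_m`.
-/

set_option autoImplicit false
set_option linter.unusedSectionVars false
set_option linter.unusedVariables false
set_option linter.style.longLine false

open Set Relation Module Topology Filter Metric

namespace Crest.Agent.R096.Tro_914

open Crest.Agent.R096.Brk1_582 Crest.Agent.R096.Brk2_582 Crest.Agent.R096.Brk3_582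
open Crest.Agent.R096.Brk5_582 Crest.Agent.R096.Bsp_628
open Crest.Agent.R096.St_147 Crest.Agent.R096.Seq_213 Crest.Agent.R096.Seq_213.GSt
open Crest.Agent.R096.Lm_117 Crest.Agent.R096.Msh_715 Crest.Agent.R096.Ginv_543
open Crest.Agent.R096.Agl5_543 Crest.Agent.R096.Init_543
open Crest.Agent.R096.SkC1_961 (E3 Hom3 FoamD)
open Crest.Agent.R096.Mbf_337 (KJ sb gau Cores Tiny Words)
open Crest.Agent.R096.Frn_337 (Ti cti Lay)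
open Crest.Agent.R096.SkB_662 Crest.Agent.R096.Qdl_662 Crest.Agent.R096.Dinv_106
open Crest.Agent.R096.Sla_184 Crest.Agent.R096.Dfi_471 Crest.Agent.R096.Twr_438
open Crest.Agent.R096.Ess3_95 Crest.Agent.R096.Dis_184
open Crest.Agent.R096.Frk_441 Crest.Agent.R096.Door_501
open Crest.Agent.R096.Ess5_95 Crest.Agent.R096.Dfo_539
open Crest.Agent.R096.Sgo_298 (RmA ga_core)
open Crest.Agent.R096.Sla_184.Sla (hf vf old tg F0 Fn Out OnS InL In)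

variable {δ κ0 R c0 : ℝ} {La Om : Set E3} {ι : Type} {Φ : FoamD δ κ0 R c0 La}
  {T : Tiling Om ι} {f g : E3 → E3} {κ1 κ2 s₁ σ' tb ε lm : ℝ} {X : Set Φ.F}
  {J0 J V : Φ.F → Set ι} {ct : Φ.F → ι}
  {A : Φ.F → E3 ≃ᵃ[ℝ] E3} {lam : Φ.F → ℝ} {z : Φ.F → E3} {θ : Φ.F → E3 → E3} {φ : Φ.F → E3 → ℝ}
  {ct' : Φ.F → ι} {r₀ : Φ.F → ℝ} {S : Sla T (Ti X)} {ρ1 ρ2 ρ3 ρ4 d : Φ.F → ℝ}
  {L : Φ.F → Finset ℝ} [Nonempty (JJ Φ L)]
  {hLa : IsOpen La} {hR : InitR Φ T f g J0 ct' r₀}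
  {hM : Mesh0 T (Pc Φ.F) (bc (F := Φ.F)) (RF Φ r₀) f (KorJ Φ J0) ε} {hε : ε < s₁} {hε1 : ε < 1}

/-- the radius of the small discs -/
def rtr {F : Type} (ρ3 d : F → ℝ) (c : F) : ℝ := ρ3 c + 4 * d c

/-- **the wild zone** -/
abbrev UT (Om : Set E3) (Φ : FoamD δ κ0 R c0 La) (f : E3 → E3) (X : Set Φ.F) (ρ3 d : Φ.F → ℝ) :
    Set E3 := {w | w ∈ Om ∧ ∃ c : Ti X, ga Φ c.1 (f w) ≤ ρ3 c.1 + 8 * d c.1}

theorem tlr_tr (hC : Cores Φ T f κ1 κ2 X J0 J V ct A lam z θ φ)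
    (hRm : RmA Φ T f X J0 J V θ ρ1 ρ2 ρ3 ρ4 d) : Tlr Φ T f J0 Xᶜ (rtr ρ3 d) d :=
  tlr_of_room hC (fun e he => (hRm e he).r1) (fun e he => (hRm e he).r4) (fun e he => (hRm e he).d0)
    (fun e he => (hRm e he).ray) (fun e he => (hRm e he).j0) (fun e he => (hRm e he).v)
    (fun e he i hi hi0 x hx y hy => ((hRm e he).osc i hi hi0 x hx y hy).1)
    (fun e he => by
      have hr := hRm e he
      unfold rtr
      linarith [hr.r12, hr.r23, hr.d0])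
    fun e he => by
      have hr := hRm e he
      unfold rtr
      linarith [hr.r34, hr.d0]

/-- **the gauge on a tile** -/
theorem ga_tile (hRm : RmA Φ T f X J0 J V θ ρ1 ρ2 ρ3 ρ4 d) {c : Φ.F} (hc : c ∉ X) {q : ι}
    {x y : E3} (hx : x ∈ P (T.H q)) (hy : y ∈ P (T.H q)) {ρ : ℝ} (h1 : ρ1 c ≤ ρ)
    (h4 : ρ ≤ ρ4 c) (h : ρ + d c < ga Φ c (f x)) : ρ < ga Φ c (f y) := by
  have hr := hRm c hc
  by_contra hcon
  rw [not_lt] at hcon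
  have hV : q ∈ V c := hr.v q ⟨y, hy, hcon.trans h4⟩
  by_cases h0 : q ∈ J0 c
  · have h5 := hr.j0 x (mem_biUnion (x := q) h0 hx)
    linarith [hr.d0]
  · have h5 := abs_le.1 (hr.osc q hV h0 x hx y hy).1
    linarith [h5.2]

/-- **a tile with a point of the gauge `> ρ3 + 5 d` at one core, in the door zone of this core, misses
all small discs** -/
theorem far_tile (hC : Cores Φ T f κ1 κ2 X J0 J V ct A lam z θ φ)
    (hRm : RmA Φ T f X J0 J V θ ρ1 ρ2 ρ3 ρ4 d) {m : Φ.F} (hm : m ∉ X) {q : ι} {x : E3}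
    (hx : x ∈ P (T.H q)) (h1 : ρ3 m + 5 * d m < ga Φ m (f x)) (h4 : ga Φ m (f x) ≤ ρ4 m) :
    ∀ c ∉ X, ∀ y ∈ P (T.H q), rtr ρ3 d c < ga Φ c (f y) := by
  intro c hc y hy
  have hr := hRm c hc
  by_cases he : c = m
  · subst he
    refine ga_tile hRm hc hx hy ?_ ?_ ?_
    · unfold rtr
      linarith [hr.r12, hr.r23, hr.d0]
    · unfold rtr
      linarith [hr.r34, hr.d0]
    · unfold rtr
      linarith
  · by_contra hcon
    rw [not_lt] at hcon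
    unfold rtr at hcon
    have h5 : q ∈ V c := hr.v q ⟨y, hy, by linarith [hr.r34, hr.d0]⟩
    have h6 : q ∈ V m := (hRm m hm).v q ⟨x, hx, h4⟩
    exact Set.disjoint_left.1 (hC.disj c m he) h5 h6

/-- the points outside the wild zone: their tiles miss the small discs -/
theorem out_tile (hRm : RmA Φ T f X J0 J V θ ρ1 ρ2 ρ3 ρ4 d) {w : E3} (hw : w ∉ UT Om Φ f X ρ3 d)
    {q : ι} (hq : w ∈ P (T.H q)) : ∀ c ∉ X, ∀ y ∈ P (T.H q), rtr ρ3 d c < ga Φ c (f y) := by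
  intro c hc y hy
  have hr := hRm c hc
  have h1 : ρ3 c + 8 * d c < ga Φ c (f w) := by
    by_contra hcon
    rw [not_lt] at hcon
    exact hw ⟨T.sub _ hq, ⟨c, hc⟩, hcon⟩
  refine ga_tile hRm hc hq hy ?_ ?_ ?_
  · unfold rtr
    linarith [hr.r12, hr.r23, hr.d0]
  · unfold rtr
    linarith [hr.r34, hr.d0]
  · unfold rtr
    linarith [hr.d0]

/-- **not in `Rtl`** -/
theorem notRtl {k : Init_543.QK (Pc Φ.F)} {q : ι}
    (h1 : q ∉ Act0 T (Pc Φ.F) (bc (F := Φ.F)) (RF Φ r₀) f (KorJ Φ J0) tb k)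
    (h2 : ∀ c ∉ X, ∀ y ∈ P (T.H q), rtr ρ3 d c < ga Φ c (f y)) :
    q ∉ Rtl r₀ T f J0 Xᶜ (rtr ρ3 d) tb k := by
  rintro (h | ⟨e, he, x, hx, h⟩)
  · exact h1 h
  · exact absurd (h2 e he x hx) (not_lt.2 h)

/-- **the root** (543's `exists_rootE`) -/
theorem root_out (hRm : RmA Φ T f X J0 J V θ ρ1 ρ2 ρ3 ρ4 d) {k : Init_543.QK (Pc Φ.F)} {q : ι}
    (h1 : q ∉ Act0 T (Pc Φ.F) (bc (F := Φ.F)) (RF Φ r₀) f (KorJ Φ J0) tb k)
    (h2 : ∀ c ∉ X, q ∉ V c) : q ∉ Rtl r₀ T f J0 Xᶜ (rtr ρ3 d) tb k := by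
  refine notRtl h1 fun c hc y hy => ?_
  have hr := hRm c hc
  by_contra hcon
  rw [not_lt] at hcon
  unfold rtr at hcon
  exact h2 c hc (hr.v q ⟨y, hy, by linarith [hr.r34, hr.d0]⟩)

/-- a quad of the family `a` has another family -/
theorem exists_other {k : Init_543.QK (Pc Φ.F)} {a : Φ.F} (ha : a ∈ k.B) : ∃ b ∈ k.B, b ≠ a := by
  have h2 : 1 < k.B.ncard := by rw [k.cB]; norm_num
  obtain ⟨b, hb, hne⟩ := Set.exists_ne_of_one_lt_ncard h2 a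
  exact ⟨b, hb, hne⟩

theorem act0_anti {k : Init_543.QK (Pc Φ.F)} (h : s₁ ≤ tb) {q : ι}
    (hq : q ∈ Act0 T (Pc Φ.F) (bc (F := Φ.F)) (RF Φ r₀) f (KorJ Φ J0) tb k) :
    q ∈ Act0 T (Pc Φ.F) (bc (F := Φ.F)) (RF Φ r₀) f (KorJ Φ J0) s₁ k := by
  obtain ⟨h1, x, hx, h2, h3⟩ := hq
  exact ⟨h1, x, hx, fun a ha => ⟨h.trans (h2 a ha).1, (h2 a ha).2.trans (by linarith)⟩, h3⟩

section mach

variable {Mo : Type}
  {s : GSt (meshC T fr3) (Sum.map (fun j : JJ Φ L => j.1) (id : Mo → Mo))}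
  {r : JJ Φ L ⊕ Mo → E3} {Tw : Twrs (S.sh fr3) S.n (outK S.hH S.dis s r)}
  {l0 : E3 → JJ Φ L ⊕ Mo} {am : Mo → Φ.F}
  {s₃ : GSt (S.mn fr3) (fun j : JJ Φ L => j.1)}

/-- **the barriers** (334's `PosM` for all barriers, 344) -/
def BarP (f : E3 → E3) (J0 : Φ.F → Set ι) (am : Mo → Φ.F) (lm : ℝ)
    (s' : GSt (S.mn fr3) (Sum.map (fun j : JJ Φ L => j.1) (id : Mo → Mo))) : Prop :=
  ∀ m, ∀ w ∈ s'.P, s'.lab w = Sum.inr m → ∀ p : T.RIdx S.HH,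
    (∀ k, ¬ P (S.T3.H p) ⊆ S.KK k) → w ∈ P (S.T3.H p) → p.tile ∉ KorJ Φ J0 → ∀ e, e ≠ am m →
      ∃ x ∈ P (T.H p.tile), Φ.lev e (f x) ≤ lm ∨ 1 - lm ≤ Φ.lev e (f x)

/-- **no active tiles at the barriers of the own family** -/
theorem tile_bar (hM : Mesh0 T (Pc Φ.F) (bc (F := Φ.F)) (RF Φ r₀) f (KorJ Φ J0) ε)
    (hLa : IsOpen La) (hR : InitR Φ T f g J0 ct' r₀)
    (hbar : BarP f J0 am lm (s2 S fr3 Tw l0)) (hlm : lm + ε < tb)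
    {k : Init_543.QK (Pc Φ.F)} {m : Mo} (hk : am m ∈ k.B) {h : E3}
    (hh : h ∈ (s2 S fr3 Tw l0).P) (hl : (s2 S fr3 Tw l0).lab h = Sum.inr m) {p : T.RIdx S.HH}
    (hpK : ∀ k, ¬ P (S.T3.H p) ⊆ S.KK k) (hp : h ∈ P (S.T3.H p)) :
    p.tile ∉ Act0 T (Pc Φ.F) (bc (F := Φ.F)) (RF Φ r₀) f (KorJ Φ J0) tb k := by
  rintro ⟨hK, x₀, hx₀, h1, h2⟩
  obtain ⟨b, hb, hne⟩ := exists_other hk
  obtain ⟨y, hy, h3⟩ := hbar m h hh hl p hpK hp hK b hne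
  rw [← At_241.va_lev hLa hR hK hy] at h3
  have h4 := abs_le.1 (hM.osc p.tile hK x₀ hx₀ y hy b)
  have h5 := h1 b hb
  rcases h3 with h3 | h3
  · linarith [h5.1, h4.2]
  · linarith [h5.2, h4.1]

/-- **`hK`** -/
theorem hK_m (hbar : BarP f J0 am lm (s2 S fr3 Tw l0)) (hlm : lm + ε < tb) (hσ : tb + ε ≤ σ')
    (posσ : PosT T f J0 S s₃ σ') {k : Init_543.QK (Pc Φ.F)} {j : JJ Φ L} (hk : j.1 ∈ k.B) :
    ∀ q F F' h m, q ∈ (S.mn fr3).side F → q ∈ (S.mn fr3).side F' →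
      (s2 S fr3 Tw l0).At F' h → (s2 S fr3 Tw l0).lab h = Sum.inr m → am m = j.1 →
        ∀ w, s₃.At F w → s₃.lab w = j → KFree s₃ (qS S hLa hR hM hε hε1) k F w := by
  intro q F F' h m hq hq' hA' hl' ham w hA hl
  rcases q with p | c
  · refine kfree_side hσ posσ hq (tile_bar hM hLa hR hbar hlm (by rw [ham]; exact hk) hA'.1 hl'
      (sideN_tile hA'.2 hq').2.1 (sideN_tile hA'.2 hq').1) hA ?_
    rw [hl]
    exact (qin k _).2 hk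
  · intro hin
    exact absurd (hin _ hq) inr_act

/-- **(i) : the points outside the wild zone which are not inner** -/
theorem tile_out (hKK : ∀ k, CoreH S.T3 (S.KK k))
    (hC : Cores Φ T f κ1 κ2 X J0 J V ct A lam z θ φ)
    (hRm : RmA Φ T f X J0 J V θ ρ1 ρ2 ρ3 ρ4 d) (hK : ∀ k, S.K k = KJ T (J k.1)) (hsb : s₁ ≤ tb)
    {k : Init_543.QK (Pc Φ.F)} {w : E3} (hw : w ∈ (s2 S fr3 Tw l0).P)
    (hU : w ∉ UT Om Φ f X ρ3 d)
    (hI : ¬ Int (S.mn fr3) ((qS S hLa hR hM hε hε1).Act k) w) :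
    ∃ q, w ∈ P (T.H q) ∧ q ∉ Rtl r₀ T f J0 Xᶜ (rtr ρ3 d) tb k := by
  obtain ⟨q3, g1, g2⟩ := s2_tile hw
  obtain ⟨F0', g3, -, -⟩ := exists_faceK (h3 := fr3) (hH := hKK) (hdis := S.dis_KK)
    (s2_dim hw).1 (s2_dim hw).2 g1 g2
  have h1 : ∃ F, w ∈ (S.mn fr3).On F ∧ ∃ q ∈ (S.mn fr3).side F,
      q ∉ (qS S hLa hR hM hε hε1).Act k := by
    by_contra hcon
    push Not at hcon
    exact hI ⟨⟨F0', g3⟩, fun F hF q hq => hcon F hF q hq⟩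
  obtain ⟨F, hF, q, hq, hqA⟩ := h1
  rcases q with p | c
  · obtain ⟨h2, h3, h4⟩ := sideN_tile hF hq
    exact ⟨p.tile, h4, notRtl (fun h => hqA (inl_act.2 ⟨act0_anti hsb h, h3⟩))
      (out_tile hRm hU h4)⟩
  · exfalso
    have h2 := sideN_core hF hq
    rw [hK c] at h2
    have h3 := ga_core hLa hR.hm hC hRm c.2 h2
    exact hU ⟨(s2_dim hw).1, c, by linarith [(hRm c.1 c.2).d0]⟩

/-- the points next to a barrier point, outside the wild zone: the barrier point has the gauge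
`> ρ3 + 7 d` at all cores (`hnew`) -/
theorem hnew_m (hKK : ∀ k, CoreH S.T3 (S.KK k)) (hRm : RmA Φ T f X J0 J V θ ρ1 ρ2 ρ3 ρ4 d)
    {w h : E3} (hh : h ∈ (s2 S fr3 Tw l0).P) (hU : w ∉ UT Om Φ f X ρ3 d)
    (hs : ∀ F, w ∈ (S.mn fr3).On F ↔ h ∈ (S.mn fr3).On F) :
    ∀ c ∉ X, ρ3 c + 7 * d c < ga Φ c (f h) := by
  obtain ⟨q3, g1, g2⟩ := s2_tile hh
  obtain ⟨F, g3, g4, g5⟩ := exists_faceK (h3 := fr3) (hH := hKK) (hdis := S.dis_KK)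
    (s2_dim hh).1 (s2_dim hh).2 g1 g2
  have h1 := (sideN_tile g3 g4).2.2
  have h2 := (sideN_tile ((hs F).2 g3) g4).2.2
  intro c hc
  have hr := hRm c hc
  have h3 : ρ3 c + 8 * d c < ga Φ c (f w) := by
    by_contra hcon
    rw [not_lt] at hcon
    exact hU ⟨T.sub _ h2, ⟨c, hc⟩, hcon⟩
  exact ga_tile hRm hc h2 h1 (by linarith [hr.r12, hr.r23, hr.d0])
    (by linarith [hr.r34, hr.d0]) (by linarith)

/-- **`hT` of 147's `tr_cutG`** : `R` = faces with a side whose `T`-tile misses the small discs -/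
theorem hT_m (hKK : ∀ k, CoreH S.T3 (S.KK k)) (hδ : 0 < δ) (hR0 : 0 < R) (hκ1 : 0 ≤ κ1)
    (hκ2 : 0 < κ2) (h12 : 2 * κ0 * κ1 ≤ κ2) (h0 : 0 ≤ ε)
    (hC : Cores Φ T f κ1 κ2 X J0 J V ct A lam z θ φ) {M : Φ.F → ℕ}
    (hW : Words Φ T f X ct A lam z M L) (hRm : RmA Φ T f X J0 J V θ ρ1 ρ2 ρ3 ρ4 d)
    (hK : ∀ k, S.K k = KJ T (J k.1)) {hG : GF Φ r₀ T f L} {bp : JJ Φ L → E3}
    (hp : Part (st0 hG bp) s Sum.inl) {j : JJ Φ L} (hconn : (st0 hG bp).Conn j)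
    (htb : 0 < tb) (hsb : s₁ ≤ tb) (hσ : tb + 2 * ε ≤ σ')
    (hη : Leaf_965.Chl δ κ0 R c0 κ2 * κ1 < tb) {k : Init_543.QK (Pc Φ.F)} (hk : j.1 ∈ k.B)
    (ht : j.2.1 ∈ Icc tb (1 - tb)) (posσ : PosT T f J0 S s₃ σ')
    (hbar : BarP f J0 am lm (s2 S fr3 Tw l0)) (hlm : lm + ε < tb)
    (hr : r (Sum.inl j) ∈ s.P ∧ s.lab (r (Sum.inl j)) = Sum.inl j)
    {q₀ : ι} (hrq : r (Sum.inl j) ∈ P (T.H q₀))
    (hq₀ : q₀ ∉ Act0 T (Pc Φ.F) (bc (F := Φ.F)) (RF Φ r₀) f (KorJ Φ J0) tb k)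
    (hq₁ : ∀ c ∉ X, q₀ ∉ V c) {Rg : Set (S.Fn fr3)}
    (hRg : ∀ F ∈ Rg, ∃ p, Sum.inl p ∈ (S.mn fr3).side F ∧
      ∀ c ∉ X, ∀ y ∈ P (T.H p.tile), rtr ρ3 d c < ga Φ c (f y)) :
    ∀ Y : Set E3, r (Sum.inl j) ∈ Y →
      (∀ F w, (s2 S fr3 Tw l0).At F w → (s2 S fr3 Tw l0).lab w = Sum.inl j →
        Pbn_147.K3 s₃ (qS S hLa hR hM hε hε1) j k F w →
          (w ∈ Y ↔ (s2 S fr3 Tw l0).mu F w ∈ Y)) →
      ∀ w ∈ (s2 S fr3 Tw l0).P, (s2 S fr3 Tw l0).lab w = Sum.inl j →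
        ((w ∉ UT Om Φ f X ρ3 d ∧ ¬ Int (S.mn fr3) ((qS S hLa hR hM hε hε1).Act k) w) ∨
          ∃ F ∈ Rg, w ∈ (S.mn fr3).On F ∧ ∃ x m, (s2 S fr3 Tw l0).At F x ∧
            (s2 S fr3 Tw l0).lab x = Sum.inr m ∧ am m = j.1 ∧
              (S.mn fr3).Lace F w ((s2 S fr3 Tw l0).mu F w) x ((s2 S fr3 Tw l0).mu F x)) →
          w ∈ Y := by
  intro Y hbY hY w hw hl hor
  refine hT_tile hδ hR0 hκ1 hκ2 h12 h0 hC hW hK hp hconn (tlr_tr hC hRm) ?_ htb (by linarith) hσ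
    hη hk ht posσ hr hrq (root_out hRm hq₀ hq₁) Y hbY hY w hw hl ?_
  · intro e he i hi
    obtain ⟨x, hx⟩ := T.ne i
    have hxP := I_sub_P _ hx
    refine ⟨x, hxP, ?_⟩
    have h1 := ga_core hLa hR.hm hC hRm he (mem_biUnion (x := i) hi hxP)
    have h2 := (hRm e he).d0
    show ga Φ e (f x) ≤ ρ3 e + 4 * d e - d e
    linarith
  · rcases hor with ⟨hU, hI⟩ | ⟨F, hF, hwF, x, m, hA, hlx, ham, -⟩
    · exact tile_out hKK hC hRm hK hsb hw hU hI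
    · obtain ⟨p, hpF, hpd⟩ := hRg F hF
      refine ⟨p.tile, (sideN_tile hwF hpF).2.2, notRtl ?_ hpd⟩
      exact tile_bar hM hLa hR hbar hlm (by rw [ham]; exact hk) hA.1 hlx
        (sideN_tile hA.2 hpF).2.1 (sideN_tile hA.2 hpF).1

end mach

end Crest.Agent.R096.Tro_914
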