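import Crest.Agent.R096.Cns4_778
import Crest.Agent.R096.Ebr8_95
import Crest.Agent.R096.Nwi1_688

/-!
# R096 (row 96), DOORS, NEWIN (helper143): the end zone of the FULL sheet of a barrier is connected

* `sheet_on_conn` : the part of a barrier sheet (all gauges, also inside the core) over a part `D` of
  the frontier of the brick;
* `ends_conn`     : both end walls `{lev a ≤ t0}`, `{t0 ≤ lev a}` of the full sheet;
* `gst1_zone`, `zstep_zone` : the points of the name `m` in an end zone are joined by chords on faces of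
  tiles which meet the end zone of the sheet.
-/

set_option autoImplicit false
set_option linter.unusedSectionVars false
set_option linter.unusedVariables false
set_option linter.style.longLine false

open Set Topology Filter Metric Module Relation
open scoped Classical

namespace Crest.Agent.R096.Zcn_143

open Crest.Agent.R096.Msh_715 Crest.Agent.R096.Coh_184 Crest.Agent.R096.Bsp_628
  Crest.Agent.R096.Brk1_582 Crest.Agent.R096.Brk2_582 Crest.Agent.R096.Brk3_582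
  Crest.Agent.R096.Brk5_582 Crest.Agent.R096.Init_543 Crest.Agent.R096.Mbf_337
  Crest.Agent.R096.Main_4 Crest.Agent.R096.Lab_184
  Crest.Agent.R096.Seq_213 Crest.Agent.R096.Seq_213.GSt Crest.Agent.R096.Ginv_543
  Crest.Agent.R096.Agl5_543
  Crest.Agent.R96.Push_899 Crest.Agent.R096.Ess5_95 Crest.Agent.R096.Ess8_95
  Crest.Agent.R096.Ebr1_95 Crest.Agent.R096.Ebr4_95 Crest.Agent.R096.Bar_106
  Crest.Agent.R096.Exa_560 Crest.Agent.R096.Sphg_316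
  Crest.Agent.R096.Bgf_4 Crest.Agent.R096.Ess3_95 Crest.Agent.R096.Sla_184
  Crest.Agent.R096.Twr_438 Crest.Agent.R096.Dfi_471 Crest.Agent.R096.Pbn_147
  Crest.Agent.R096.Sec_892 Crest.Agent.R096.St_147 Crest.Agent.R096.Door_501
  Crest.Agent.R096.Cg_501 Crest.Agent.R096.Cns_778 Crest.Agent.R096.Dib_438
  Crest.Agent.R096.Ebr8_95
open Crest.Agent.R096.Frn_337 (Ti)
open Crest.Agent.R096.Ess7_95 (KT)
open Crest.Agent.R096.Sla_184.Sla (old Fn Out F0)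
open Crest.Agent.R096.SkC1_961 (E3 Hom3 IsPush FoamD)

section gen

variable {δ κ0 R c0 : ℝ} {La Om : Set E3} {ι : Type} {Φ : FoamD δ κ0 R c0 La}
  {T : Tiling Om ι} {f g : E3 → E3}
  {J0 J V : Φ.F → Set ι} {θ : Φ.F → E3 → E3} {Mo : Type} {co : Mo → Φ.F}
  {ρ1 ρ2 ρ3 ρ4 d : Mo → ℝ} {G : Mo → E3 → ℝ} {rm h lo hi ω : Mo → ℝ} {q₀ : Mo → E3}
  {g0 ε : Mo → ℝ}

/-- the part of the sheet of the barrier `m` (all gauges) over the part `D` of the frontier -/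
def Gsh (Om : Set E3) (Φ : FoamD δ κ0 R c0 La) (f : E3 → E3) (ℓ : Mo → E3 → ℝ) (ε : Mo → ℝ)
    (m : Mo) (D : Set E3) : Set E3 :=
  {x | x ∈ Om ∧ ℓ m (f x) = ε m ∧ Φ.Psi (f x) ∈ D}

/-- **the part of the full sheet over `D` is connected** -/
theorem sheet_on_conn (hB : BarF Φ T f J0 J V θ co ρ1 ρ2 ρ3 ρ4 d G rm h lo hi ω q₀ g0)
    (hLa : IsOpen La) (H : Hm f g Om La) (hε : ∀ m, ε m ∈ Ioo (lo m) (hi m)) {m : Mo} {D : Set E3}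
    (hA : IsPreconnected {q | q ∈ frontier (co m).1.set ∧ G m q = ε m ∧ q ∈ D})
    (hBc : IsPreconnected {q | q ∈ frontier (co m).1.set ∧ G m q ≤ ε m ∧ q ∈ D})
    (hne : {q | q ∈ frontier (co m).1.set ∧ G m q = ε m ∧ q ∈ D}.Nonempty) :
    IsPreconnected (Gsh Om Φ f (lM Φ co rm h hi G) ε m D) := by
  obtain ⟨p, hP⟩ := hB.pol hLa m
  have hr := hB.room m
  have hG := hB.gm m
  have hh := hB.h0 m
  have hεm := hε m
  have hεhi : h m * ε m < h m * hi m := mul_lt_mul_of_pos_left hεm.2 hh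
  have hd := hr.d0
  have hρ1 := hr.r1
  have ha1 : rm m + h m * ε m ≤ ρ4 m := by linarith [hB.a1' m]
  have hε0 : 0 < ε m := lt_of_le_of_lt hG.lo0 hεm.1
  have hhε : 0 < h m * ε m := mul_pos hh hε0
  set a1 : ℝ := rm m + h m * ε m with ha1d
  set a0 : ℝ := rm m - h m * ε m with ha0d
  have ha0 : 0 < a0 := by linarith [hB.a0 m]
  have ha01 : a0 ≤ a1 := by linarith
  set A : Set E3 := {q | q ∈ frontier (co m).1.set ∧ G m q = ε m ∧ q ∈ D} with hAd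
  set B : Set E3 := {q | q ∈ frontier (co m).1.set ∧ G m q ≤ ε m ∧ q ∈ D} with hBd
  have c1 := hP.prod_conn (A := A) (fun q hq => hq.1) hA ha0 ha1
  have c2 := hP.prod_conn (A := B) (fun q hq => hq.1) hBc (ha0.trans_le ha01) ha1
  have c0' := hP.prod_conn (A := B) (fun q hq => hq.1) hBc ha0 (ha01.trans ha1)
  obtain ⟨q, hq, hqe, hqD⟩ := hne
  have hmem : a1 ∈ Ioc 0 (ρ4 m) := ⟨ha0.trans_le ha01, ha1⟩
  have hmem0 : a0 ∈ Ioc 0 (ρ4 m) := ⟨ha0, ha01.trans ha1⟩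
  have e1 := hP.gau a1 hmem q hq
  have e2 := hP.psi a1 hmem q hq
  have e3 := hP.gau a0 hmem0 q hq
  have e4 := hP.psi a0 hmem0 q hq
  have m1 : p (a1, q) ∈ {y | (a0 ≤ ga Φ (co m) y ∧ ga Φ (co m) y ≤ a1) ∧ Φ.Psi y ∈ A} :=
    ⟨⟨by rw [e1]; exact ha01, e1.le⟩, by rw [e2]; exact ⟨hq, hqe, hqD⟩⟩
  have m2 : p (a1, q) ∈ {y | (a1 ≤ ga Φ (co m) y ∧ ga Φ (co m) y ≤ a1) ∧ Φ.Psi y ∈ B} :=
    ⟨⟨e1.ge, e1.le⟩, by rw [e2]; exact ⟨hq, hqe.le, hqD⟩⟩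
  have m3 : p (a0, q) ∈ {y | (a0 ≤ ga Φ (co m) y ∧ ga Φ (co m) y ≤ a1) ∧ Φ.Psi y ∈ A} :=
    ⟨⟨e3.ge, by rw [e3]; exact ha01⟩, by rw [e4]; exact ⟨hq, hqe, hqD⟩⟩
  have m4 : p (a0, q) ∈ {y | (a0 ≤ ga Φ (co m) y ∧ ga Φ (co m) y ≤ a0) ∧ Φ.Psi y ∈ B} :=
    ⟨⟨e3.ge, e3.le⟩, by rw [e4]; exact ⟨hq, hqe.le, hqD⟩⟩
  have c3 := c1.union (p (a1, q)) m1 m2 c2
  have c3' := c3.union (p (a0, q)) (Or.inl m3) m4 c0'
  have hb : Bod (Φ.B (co m)).lo (Pc Φ.F (co m)) := Pse_316.bod_brick Φ (co m) (hB.pt m)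
  have hgf : ga Φ (co m) = Ng (Φ.B (co m)).lo (Pc Φ.F (co m)) :=
    funext (Etg_163.gg_eq Φ (co m))
  have hDL : {y | ga Φ (co m) y ≤ ρ4 m} ⊆ La := by
    rw [hgf]
    exact (hb.le_sub hr.r4.le).trans (Φ.bf.sub (co m).1 (co m).2)
  have c4 := H.preconn_pre (D := _) (fun y hy => hDL (show ga Φ (co m) y ≤ ρ4 m by
    rcases hy with (hy | hy) | hy
    · exact hy.1.2.trans ha1
    · exact hy.1.2.trans ha1
    · exact hy.1.2.trans (ha01.trans ha1))) c3'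
  have e : Gsh Om Φ f (lM Φ co rm h hi G) ε m D = Om ∩ f ⁻¹'
      (({y | (a0 ≤ ga Φ (co m) y ∧ ga Φ (co m) y ≤ a1) ∧ Φ.Psi y ∈ A} ∪
        {y | (a1 ≤ ga Φ (co m) y ∧ ga Φ (co m) y ≤ a1) ∧ Φ.Psi y ∈ B}) ∪
        {y | (a0 ≤ ga Φ (co m) y ∧ ga Φ (co m) y ≤ a0) ∧ Φ.Psi y ∈ B}) := by
    ext x
    constructor
    · rintro ⟨k1, k2, k3⟩
      obtain ⟨n1, n2, n3, n4⟩ := hB.pos hεm.2 k2
      have hfr := (hP.inv (f x) (ha0.trans_le n1) (n2.trans ha1)).1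
      refine ⟨k1, ?_⟩
      rcases n4 with n | n | n
      · exact Or.inr ⟨⟨n.ge, n.le⟩, hfr, n3, k3⟩
      · exact Or.inl (Or.inr ⟨⟨n.ge, n.le⟩, hfr, n3, k3⟩)
      · exact Or.inl (Or.inl ⟨⟨n1, n2⟩, hfr, n, k3⟩)
    · rintro ⟨k1, k2⟩
      have key : a0 ≤ ga Φ (co m) (f x) ∧ ga Φ (co m) (f x) ≤ a1 ∧ G m (Φ.Psi (f x)) ≤ ε m ∧
          (ga Φ (co m) (f x) = a0 ∨ ga Φ (co m) (f x) = a1 ∨ G m (Φ.Psi (f x)) = ε m) ∧
          Φ.Psi (f x) ∈ D := by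
        rcases k2 with (⟨⟨n1, n2⟩, n3⟩ | ⟨⟨n1, n2⟩, n3⟩) | ⟨⟨n1, n2⟩, n3⟩
        · exact ⟨n1, n2, n3.2.1.le, Or.inr (Or.inr n3.2.1), n3.2.2⟩
        · exact ⟨ha01.trans n1, n2, n3.2.1, Or.inr (Or.inl (le_antisymm n2 n1)), n3.2.2⟩
        · exact ⟨n1, n2.trans ha01, n3.2.1, Or.inl (le_antisymm n2 n1), n3.2.2⟩
      obtain ⟨n1, n2, n3, n4, n5⟩ := key
      refine ⟨k1, (bl_eq_iff hεm.2).2 ?_, n5⟩
      have u1 : |ga Φ (co m) (f x) - rm m| / h m ≤ ε m := by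
        rw [div_le_iff₀ hh, abs_le]
        constructor <;> linarith
      rcases n4 with n | n | n
      · rw [n]
        have u2 : |a0 - rm m| / h m = ε m := by
          rw [ha0d, show rm m - h m * ε m - rm m = -(h m * ε m) by ring, abs_neg,
            abs_of_pos hhε, mul_div_cancel_left₀ _ hh.ne']
        rw [u2]
        exact max_eq_left n3
      · rw [n]
        have u2 : |a1 - rm m| / h m = ε m := by
          rw [ha1d, add_sub_cancel_left, abs_of_pos hhε, mul_div_cancel_left₀ _ hh.ne']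
        rw [u2]
        exact max_eq_left n3
      · rw [n]
        exact max_eq_right u1
  rw [e]
  exact c4

end gen

section mach

variable {δ κ0 R c0 : ℝ} {La Om : Set E3} {ι : Type} {Φ : FoamD δ κ0 R c0 La} {T : Tiling Om ι}
  {f g : E3 → E3} {κ1 κ2 μ : ℝ} {X : Set Φ.F} {J0 J V : Φ.F → Set ι}
  {ct' : Φ.F → ι} {θ : Φ.F → E3 → E3} {r₀ : Φ.F → ℝ} {ρ1 ρ2 ρ3 ρ4 d : Φ.F → ℝ}
  {L : Φ.F → Finset ℝ} [Nonempty (JJ Φ L)] {hG : GF Φ r₀ T f L} {bp : JJ Φ L → E3}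
  {Nn : BM Φ X → Set ℝ} {q₀ : BM Φ X → E3} {ε : BM Φ X → ℝ} {bm : BM Φ X → E3}
  {hGB : GFB Φ r₀ T f L (lRc Φ X μ ρ1 ρ3 d) ε}
  {v0B v1B : ∀ c, BM Φ X → VxK T (KT T J X) c}

/-- the part of the barrier of record over the part `D` of the frontier of its brick -/
abbrev GsD (Om : Set E3) (Φ : FoamD δ κ0 R c0 La) (f : E3 → E3) (X : Set Φ.F) (μ : ℝ)
    (ρ1 ρ3 d : Φ.F → ℝ) (ε : BM Φ X → ℝ) (m : BM Φ X) (D : Set E3) : Set E3 :=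
  Gsh Om Φ f (lRc Φ X μ ρ1 ρ3 d) ε m D

/-- the end zones: `b = false` : `lev a ≤ t0`; `b = true` : `1 - t0 ≤ lev a` -/
def EZ (Φ : FoamD δ κ0 R c0 La) (a : Φ.F) (t0 : ℝ) (b : Bool) : Set E3 :=
  {q | (b = false → sb Φ q a ≤ t0) ∧ (b = true → 1 - t0 ≤ sb Φ q a)}

theorem mem_EZ_false {a : Φ.F} {t0 : ℝ} {q : E3} : q ∈ EZ Φ a t0 false ↔ sb Φ q a ≤ t0 :=
  ⟨fun h => h.1 rfl, fun h => ⟨fun _ => h, fun h' => absurd h' (by simp)⟩⟩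

theorem mem_EZ_true {a : Φ.F} {t0 : ℝ} {q : E3} : q ∈ EZ Φ a t0 true ↔ 1 - t0 ≤ sb Φ q a :=
  ⟨fun h => h.2 rfl, fun h => ⟨fun h' => absurd h' (by simp), fun _ => h⟩⟩

/-- **both end walls of the full sheet are connected** (`5 μ / 16 ≤ t0`) -/
theorem ends_conn (hLa : IsOpen La) (H : Hm f g Om La) (hμ : 0 < μ) (hμ1 : μ ≤ 1 / 2)
    (B : BarOut Φ T f κ1 μ X J0 J V θ hG bp Nn ρ1 ρ2 ρ3 ρ4 d q₀ ε bm hGB v0B v1B) {t0 : ℝ}
    (h1 : 5 * μ / 16 ≤ t0) (h2 : t0 < 1 - 5 * μ / 16) (m : BM Φ X) (b : Bool) :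
    IsPreconnected (GsD Om Φ f X μ ρ1 ρ3 d ε m (EZ Φ m.am t0 b)) := by
  have hN : Nm (μ / 8) (1 / 2) (1 / 2 - 5 * μ / 16) (1 + μ / 2) := Ebr6_95.nm_rec hμ hμ1
  have hε := B.lv m
  have hε1 : ε m ≤ 1 + μ / 16 := hε.2.le.trans (hiB_le _ _)
  have hra : 0 < 1 / 2 - 5 * μ / 16 := by linarith
  have e1 : (1 / 2 - 5 * μ / 16) * 1 < (1 / 2 - 5 * μ / 16) * ε m :=
    mul_lt_mul_of_pos_left hε.1 hra
  obtain ⟨p, q, hM⟩ := m.mo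
  have hτ : ε m ≤ 1 + μ / 2 := by linarith
  have hτ0 : 0 ≤ ε m := by linarith [hε.1]
  cases b
  · have hE : EZ Φ m.am t0 false = {q | sb Φ q m.am ≤ t0} := by
      ext q; exact mem_EZ_false
    obtain ⟨k1, k2, k3⟩ := moat_le (t0 := t0) hLa hM hN hτ0 hτ (by linarith) (by linarith)
    rw [hE]
    exact sheet_on_conn B.barF hLa H B.lv k1 k2 k3
  · have hE : EZ Φ m.am t0 true = {q | 1 - t0 ≤ sb Φ q m.am} := by
      ext q; exact mem_EZ_true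
    obtain ⟨k1, k2, k3⟩ := moat_ge (t0 := 1 - t0) hLa hM hN hτ0 hτ (by linarith) (by linarith)
    rw [hE]
    exact sheet_on_conn B.barF hLa H B.lv k1 k2 k3

/-- a point of the name `m` over `D` -/
theorem mem_GsD
    (B : BarOut Φ T f κ1 μ X J0 J V θ hG bp Nn ρ1 ρ2 ρ3 ρ4 d q₀ ε bm hGB v0B v1B) {m : BM Φ X}
    {w : E3} (hw : w ∈ (stB hGB bp bm).P) (hl : (stB hGB bp bm).lab w = Sum.inr m) {D : Set E3}
    (hD : Φ.Psi (f w) ∈ D) : w ∈ GsD Om Φ f X μ ρ1 ρ3 d ε m D := by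
  obtain ⟨h1, -, h2, -⟩ := B.pos m w hw hl
  exact ⟨h1, h2, hD⟩

/-- **two points of the name `m` over a part `D` with connected sheet are joined by chords on faces
of tiles which meet this part of the sheet** -/
theorem gst1_on (hLa : IsOpen La) (hI : InitR Φ T f g J0 ct' r₀)
    (B : BarOut Φ T f κ1 μ X J0 J V θ hG bp Nn ρ1 ρ2 ρ3 ρ4 d q₀ ε bm hGB v0B v1B) {m : BM Φ X}
    {D : Set E3} (hc : IsPreconnected (GsD Om Φ f X μ ρ1 ρ3 d ε m D)) {x y : E3}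
    (hx : x ∈ (stB hGB bp bm).P) (hxl : (stB hGB bp bm).lab x = Sum.inr m)
    (hxD : Φ.Psi (f x) ∈ D) (hy : y ∈ (stB hGB bp bm).P)
    (hyl : (stB hGB bp bm).lab y = Sum.inr m) (hyD : Φ.Psi (f y) ∈ D) :
    ReflTransGen (GSt1 (stB hGB bp bm) (GsD Om Φ f X μ ρ1 ρ3 d ε m D)) x y := by
  have hcar := car_gmain (h3 := fr3) hGB (fun j => B.base.mem hLa hI j) (Sum.inr m)
    (B.triv (Sum.inr m))
  exact hcar _ hc (fun z hz => ⟨hz.1, hz.2.1⟩) x (mem_GsD B hx hxl hxD) y (mem_GsD B hy hyl hyD)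
    hx hxl hy hyl

/-- **THE END ZONES OF THE FULL SHEET** : two points of the name `m` in the same end zone are joined by
chords of `stB` on faces of tiles which meet this end zone of the sheet -/
theorem gst1_zone (hLa : IsOpen La) (hI : InitR Φ T f g J0 ct' r₀) (hμ : 0 < μ) (hμ1 : μ ≤ 1 / 2)
    (B : BarOut Φ T f κ1 μ X J0 J V θ hG bp Nn ρ1 ρ2 ρ3 ρ4 d q₀ ε bm hGB v0B v1B) {t0 : ℝ}
    (h1 : 5 * μ / 16 ≤ t0) (h2 : t0 < 1 - 5 * μ / 16) {m : BM Φ X} (b : Bool) {x y : E3}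
    (hx : x ∈ (stB hGB bp bm).P) (hxl : (stB hGB bp bm).lab x = Sum.inr m)
    (hxD : Φ.Psi (f x) ∈ EZ Φ m.am t0 b) (hy : y ∈ (stB hGB bp bm).P)
    (hyl : (stB hGB bp bm).lab y = Sum.inr m) (hyD : Φ.Psi (f y) ∈ EZ Φ m.am t0 b) :
    ReflTransGen (GSt1 (stB hGB bp bm) (GsD Om Φ f X μ ρ1 ρ3 d ε m (EZ Φ m.am t0 b))) x y :=
  gst1_on hLa hI B (ends_conn hLa hI.hm hμ hμ1 B h1 h2 m b) hx hxl hxD hy hyl hyD

/-- steps of the zone -/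
theorem zstep_of_gst1 {J' C' : Type} {fam' : J' → C'} {s : GSt (meshC T fr3) fam'} {G : Set E3}
    {Zf : Set (C2 T)} (hZ : ∀ F : C2 T, (∃ q ∈ F.side fr3, (P (T.H q) ∩ G).Nonempty) → F ∈ Zf)
    {x y : E3} (h : ReflTransGen (GSt1 s G) x y) : ReflTransGen (Nwi_688.ZStep s Zf) x y := by
  induction h with
  | refl => exact .refl
  | tail _ h2 ih =>
    obtain ⟨F, hF, hA, e⟩ := h2
    exact ih.tail ⟨F, hZ F hF, hA, e⟩

/-- **the tiles which meet the sheet over `D`** : near the core of `m`, outside the inner core -/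
theorem gsD_tile
    (B : BarOut Φ T f κ1 μ X J0 J V θ hG bp Nn ρ1 ρ2 ρ3 ρ4 d q₀ ε bm hGB v0B v1B) {m : BM Φ X}
    {D : Set E3} {x : E3} (hx : x ∈ GsD Om Φ f X μ ρ1 ρ3 d ε m D) {q : ι} (hq : x ∈ P (T.H q)) :
    (ρ1 m.co + 2 * d m.co ≤ ga Φ m.co (f x) ∧ ga Φ m.co (f x) + 2 * d m.co ≤ ρ4 m.co) ∧
    q ∈ V m.co ∧ q ∉ J0 m.co ∧ ∀ y ∈ P (T.H q),
      ρ1 m.co + d m.co ≤ ga Φ m.co (f y) ∧ ga Φ m.co (f y) + d m.co ≤ ρ4 m.co ∧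
      ∀ e, |Φ.lev e (f x) - Φ.lev e (f y)| ≤ d m.co := by
  obtain ⟨h1, h2, -⟩ := hx
  obtain ⟨n1, n2, -, -⟩ := B.barF.pos (B.lv m).2 h2
  have hr := B.barF.room m
  have hh := B.barF.h0 m
  have e1 := B.barF.a0 m
  have e2 := B.barF.a1' m
  have e3 : Bgf_4.hB ρ1 ρ3 d m.co * ε m ≤ Bgf_4.hB ρ1 ρ3 d m.co * hiB ρ1 ρ3 d (μ / 16) m.co :=
    mul_le_mul_of_nonneg_left (B.lv m).2.le hh.le
  have hd : 0 < d m.co := hr.d0
  have n1' : rB ρ1 ρ3 d m.co - Bgf_4.hB ρ1 ρ3 d m.co * ε m ≤ ga Φ m.co (f x) := n1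
  have n2' : ga Φ m.co (f x) ≤ rB ρ1 ρ3 d m.co + Bgf_4.hB ρ1 ρ3 d m.co * ε m := n2
  have e1' : ρ1 m.co + 2 * d m.co ≤
    rB ρ1 ρ3 d m.co - Bgf_4.hB ρ1 ρ3 d m.co * hiB ρ1 ρ3 d (μ / 16) m.co := e1
  have e2' : rB ρ1 ρ3 d m.co + Bgf_4.hB ρ1 ρ3 d m.co * hiB ρ1 ρ3 d (μ / 16) m.co +
    2 * d m.co ≤ ρ4 m.co := e2
  have g1 : ρ1 m.co + 2 * d m.co ≤ ga Φ m.co (f x) := by linarith
  have g2 : ga Φ m.co (f x) + 2 * d m.co ≤ ρ4 m.co := by linarith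
  have g1' : ρ1 m.co ≤ ga Φ m.co (f x) := by linarith
  have g2' : ga Φ m.co (f x) ≤ ρ4 m.co := by linarith
  obtain ⟨t1, t2⟩ := hr.tile hq g1' g2'
  refine ⟨⟨g1, g2⟩, t1, t2, fun y hy => ?_⟩
  have o := hr.tile_osc hq g1' g2' hy
  have o1 := abs_le.1 o.1
  exact ⟨by linarith [o1.2], by linarith [o1.1], o.2.2⟩

/-- the zone of faces: a side has a point of the end zone `t1` (`t0 + d ≤ t1` is not needed: the
meeting point itself is in the zone `t0`) -/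
def ZF (Φ : FoamD δ κ0 R c0 La) (T : Tiling Om ι) (f : E3 → E3) (V J0 : Φ.F → Set ι) (c a : Φ.F)
    (t0 : ℝ) (b : Bool) : Set (C2 T) :=
  {F | ∃ q ∈ F.side fr3, q ∈ V c ∧ q ∉ J0 c ∧ ∃ x ∈ P (T.H q), Φ.Psi (f x) ∈ EZ Φ a t0 b}

/-- **688's piece (3)** -/
theorem zstep_zone (hLa : IsOpen La) (hI : InitR Φ T f g J0 ct' r₀) (hμ : 0 < μ) (hμ1 : μ ≤ 1 / 2)
    (B : BarOut Φ T f κ1 μ X J0 J V θ hG bp Nn ρ1 ρ2 ρ3 ρ4 d q₀ ε bm hGB v0B v1B) {t0 : ℝ}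
    (h1 : 5 * μ / 16 ≤ t0) (h2 : t0 < 1 - 5 * μ / 16) {m : BM Φ X} (b : Bool) {x y : E3}
    (hx : x ∈ (stB hGB bp bm).P) (hxl : (stB hGB bp bm).lab x = Sum.inr m)
    (hxD : Φ.Psi (f x) ∈ EZ Φ m.am t0 b) (hy : y ∈ (stB hGB bp bm).P)
    (hyl : (stB hGB bp bm).lab y = Sum.inr m) (hyD : Φ.Psi (f y) ∈ EZ Φ m.am t0 b) :
    ReflTransGen (Nwi_688.ZStep (stB hGB bp bm) (ZF Φ T f V J0 m.co m.am t0 b)) x y := by
  refine zstep_of_gst1 ?_ (gst1_zone hLa hI hμ hμ1 B h1 h2 b hx hxl hxD hy hyl hyD)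
  rintro F ⟨q, hq, z, hz, hzG⟩
  obtain ⟨-, k1, k2, -⟩ := gsD_tile B hzG hz
  exact ⟨q, hq, k1, k2, z, hz, hzG.2.2⟩

/-- the same for points on tiles of the zone `t` (`t + d ≤ t0`) -/
theorem zstep_tiles (hLa : IsOpen La) (hI : InitR Φ T f g J0 ct' r₀) (hμ : 0 < μ)
    (hμ1 : μ ≤ 1 / 2)
    (B : BarOut Φ T f κ1 μ X J0 J V θ hG bp Nn ρ1 ρ2 ρ3 ρ4 d q₀ ε bm hGB v0B v1B) {t t0 : ℝ}
    (h1 : 5 * μ / 16 ≤ t0) (h2 : t0 < 1 - 5 * μ / 16) {m : BM Φ X} (ht : t + d m.co ≤ t0)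
    (b : Bool) {x y : E3}
    (hx : x ∈ (stB hGB bp bm).P) (hxl : (stB hGB bp bm).lab x = Sum.inr m)
    (hxD : ∃ q, x ∈ P (T.H q) ∧ ∃ z ∈ P (T.H q), Φ.Psi (f z) ∈ EZ Φ m.am t b)
    (hy : y ∈ (stB hGB bp bm).P) (hyl : (stB hGB bp bm).lab y = Sum.inr m)
    (hyD : ∃ q, y ∈ P (T.H q) ∧ ∃ z ∈ P (T.H q), Φ.Psi (f z) ∈ EZ Φ m.am t b) :
    ReflTransGen (Nwi_688.ZStep (stB hGB bp bm) (ZF Φ T f V J0 m.co m.am t0 b)) x y := by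
  have key : ∀ u, u ∈ (stB hGB bp bm).P → (stB hGB bp bm).lab u = Sum.inr m →
      (∃ q, u ∈ P (T.H q) ∧ ∃ z ∈ P (T.H q), Φ.Psi (f z) ∈ EZ Φ m.am t b) →
      Φ.Psi (f u) ∈ EZ Φ m.am t0 b := by
    rintro u hu hul ⟨q, hq, z, hz, hzD⟩
    obtain ⟨-, -, -, k⟩ := gsD_tile B (mem_GsD B hu hul (mem_univ _)) hq
    have o := abs_le.1 ((k z hz).2.2 m.am)
    have o1 : sb Φ (Φ.Psi (f u)) m.am - sb Φ (Φ.Psi (f z)) m.am ≤ d m.co := o.2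
    have o2 : -d m.co ≤ sb Φ (Φ.Psi (f u)) m.am - sb Φ (Φ.Psi (f z)) m.am := o.1
    cases b
    · rw [mem_EZ_false] at hzD ⊢
      linarith
    · rw [mem_EZ_true] at hzD ⊢
      linarith
  exact zstep_zone hLa hI hμ hμ1 B h1 h2 b hx hxl (key x hx hxl hxD) hy hyl (key y hy hyl hyD)

end mach

end Crest.Agent.R096.Zcn_143
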