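import Crest.Agent.R096.Cns4_778
import Crest.Agent.R096.Ebr8_95
import Crest.Agent.R096.Ebr7_95
import Crest.Agent.R096.Nwi1_688

/-!
# R096 (row 96), DOORS, NEWIN (helper560): **the full sheet of a barrier over the end zone is
connected by its own chords** (board leaf B3)

* `part_conn` : the part of the sheet of a barrier over a part `B` of the frontier of the brick;
* `zone_conn` : the parts `{lev (am m) ≤ t0}`, `{t0 ≤ lev (am m)}` of the sheet of the barrier `m`;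
* **`zwalk`** : two points of the name `m` of `stB` in the same zone are joined by chords of the full
  sheet on faces of tiles which meet the sheet in the zone (both ends).
-/

set_option autoImplicit false
set_option linter.unusedSectionVars false
set_option linter.unusedVariables false
set_option linter.style.longLine false

open Set Topology Filter Metric Module Relation
open scoped Classical

namespace Crest.Agent.R096.Zwk_560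

open Crest.Agent.R096.Msh_715 Crest.Agent.R096.Coh_184 Crest.Agent.R096.Lab_184
  Crest.Agent.R096.Main_4 Crest.Agent.R096.Agl5_543
  Crest.Agent.R096.Seq_213 Crest.Agent.R096.St_147 Crest.Agent.R096.Door_501
  Crest.Agent.R096.Twr_438 Crest.Agent.R096.Exa_560
  Crest.Agent.R096.Ess3_95 Crest.Agent.R096.Ess4_95
  Crest.Agent.R096.Dfi_471 Crest.Agent.R096.Sla_184
  Crest.Agent.R096.Brk1_582 Crest.Agent.R096.Brk2_582 Crest.Agent.R096.Brk3_582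
  Crest.Agent.R096.Brk5_582 Crest.Agent.R096.Bsp_628 Crest.Agent.R096.Init_543
  Crest.Agent.R096.Dib_438 Crest.Agent.R096.Rop_441
  Crest.Agent.R096.Frs_662 Crest.Agent.R096.Cg_501 Crest.Agent.R096.SecW_892
  Crest.Agent.R096.Nmd1_698 Crest.Agent.R096.Pbn_147 Crest.Agent.R096.Bar_106
  Crest.Agent.R096.Ebr1_95 Crest.Agent.R096.Ebr3_95 Crest.Agent.R096.Ebr5_95
  Crest.Agent.R096.Ebr6_95 Crest.Agent.R096.Ebr8_95
  Crest.Agent.R096.Ebr4_95 Crest.Agent.R096.Bgf_4 Crest.Agent.R096.Ess5_95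
  Crest.Agent.R096.Cns_778 Crest.Agent.R096.Nwi_688 Crest.Agent.R096.Sphg_316
open Crest.Agent.R096.Sgo_298 (RmA rout ActR)
open Crest.Agent.R096.Mbf_337 (KJ Tiny Cores Fine Words sb gau)
open Crest.Agent.R096.SkC1_961 (E3 FoamD Hom3)
open Crest.Agent.R096.Frn_337 (Ti)
open Crest.Agent.R096.Ess7_95 (KT)

section gen

variable {δ κ0 R c0 : ℝ} {La Om : Set E3} {ι : Type} {Φ : FoamD δ κ0 R c0 La}
  {T : Tiling Om ι} {f g : E3 → E3}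
  {J0 J V : Φ.F → Set ι} {θ : Φ.F → E3 → E3} {Mo : Type} {co : Mo → Φ.F}
  {ρ1 ρ2 ρ3 ρ4 d : Mo → ℝ} {G : Mo → E3 → ℝ} {rm h lo hi ω : Mo → ℝ} {q₀ : Mo → E3}
  {g0 ε rr : Mo → ℝ}

/-- the part of the sheet of a barrier over a part `B` of the frontier of the brick -/
theorem part_conn (hB : BarF Φ T f J0 J V θ co ρ1 ρ2 ρ3 ρ4 d G rm h lo hi ω q₀ g0)
    (hLa : IsOpen La) (H : Hm f g Om La) (hε : ∀ m, ε m ∈ Ioo (lo m) (hi m)) {m : Mo}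
    {B : Set E3}
    (hE : IsPreconnected {q | q ∈ frontier (co m).1.set ∧ G m q = ε m ∧ q ∈ B})
    (hL : IsPreconnected {q | q ∈ frontier (co m).1.set ∧ G m q ≤ ε m ∧ q ∈ B})
    (hn : {q | q ∈ frontier (co m).1.set ∧ G m q = ε m ∧ q ∈ B}.Nonempty) :
    IsPreconnected {x | x ∈ Om ∧ lM Φ co rm h hi G m (f x) = ε m ∧ Φ.Psi (f x) ∈ B} := by
  have hr := hB.room m
  have hd := hr.d0
  have hh := hB.h0 m
  have hG1 : GA Φ (co m) (ρ4 m) := Etg_163.ga_gau Φ hLa (hB.pt m)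
    (by linarith [hr.r1, hr.r12, hr.r23, hr.r34]) hr.r4 hr.ray
  have hlo0 := (hB.gm m).lo0
  have hε0 : 0 ≤ ε m := hlo0.trans (hε m).1.le
  have m2 : h m * ε m ≤ h m * hi m := mul_le_mul_of_nonneg_left (hε m).2.le hh.le
  have m0 : 0 ≤ h m * ε m := mul_nonneg hh.le hε0
  have b1 := hB.a0 m
  have b2 := hB.a1' m
  have b3 := hr.r1
  have b4 := hr.r4
  have c1 := preconn_SB1_on hG1 hE hL hn hLa (hB.pt m) (a0 := rm m - h m * ε m)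
    (a1 := rm m + h m * ε m) (by linarith) (by linarith) (by linarith)
  have c2 := H.preconn_pre (D := SB1 Φ (co m) (G m) (rm m - h m * ε m) (rm m + h m * ε m) (ε m) ∩
    {y | Φ.Psi y ∈ B}) (fun y hy => Φ.bf.sub (co m).1 (co m).2 hy.1.1) c1
  have e : {x | x ∈ Om ∧ lM Φ co rm h hi G m (f x) = ε m ∧ Φ.Psi (f x) ∈ B} =
      Om ∩ f ⁻¹' (SB1 Φ (co m) (G m) (rm m - h m * ε m) (rm m + h m * ε m) (ε m) ∩
        {y | Φ.Psi y ∈ B}) := by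
    ext x
    have h6 : rm m + h m * ε m ≤ 1 := by linarith
    have h5 := bl_eq_iff_SB1 (y := f x) (G := G m) hG1 hh hε0 (hε m).2 (rm := rm m) h6
    constructor
    · rintro ⟨k1, k2, k3⟩
      exact ⟨k1, h5.1 k2, k3⟩
    · rintro ⟨k1, k2, k3⟩
      exact ⟨k1, h5.2 k2, k3⟩
  rw [e]
  exact c2

end gen

section bars

variable {δ κ0 R c0 : ℝ} {La Om : Set E3} {ι : Type} {Φ : FoamD δ κ0 R c0 La}
  {T : Tiling Om ι} {f g : E3 → E3}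
variable {X : Set Φ.F} {J0 J V : Φ.F → Set ι} {θ : Φ.F → E3 → E3}
  {ρ1 ρ2 ρ3 ρ4 d : Φ.F → ℝ} {sg l0 mm ra : ℝ}
variable {r₀ : Φ.F → ℝ} {L : Φ.F → Finset ℝ} [Nonempty (JJ Φ L)] {ct' : Φ.F → ι}
  {bp : JJ Φ L → E3} {bm : BM Φ X → E3} {ε : BM Φ X → ℝ} {q₀ : BM Φ X → E3}
  {hGB : GFB Φ r₀ T f L (lBM Φ X ρ1 ρ3 d sg l0 mm ra) ε} {κ1 : ℝ}

/-- the part of the sheet of the barrier `m` in the zone `D` of the levels of its family -/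
def ZnS (Om : Set E3) (Φ : FoamD δ κ0 R c0 La) (f : E3 → E3) (X : Set Φ.F)
    (ℓ : BM Φ X → E3 → ℝ) (ε : BM Φ X → ℝ) (D : ℝ → Prop) (m : BM Φ X) : Set E3 :=
  {x | x ∈ Om ∧ ℓ m (f x) = ε m ∧ D (Φ.lev m.am (f x))}

theorem zone_conn_le (hLa : IsOpen La) (H : Hm f g Om La)
    (hBM : BarM Φ T f X J0 J V θ ρ1 ρ2 ρ3 ρ4 d sg l0 mm ra q₀)
    (hε : ∀ m, ε m ∈ Ioo 1 (hiB ρ1 ρ3 d sg m.co)) (m : BM Φ X) {hi t0 : ℝ}
    (hN : Nm l0 mm ra hi) (hi1 : ε m ≤ hi) (h1 : mm - ε m * ra ≤ t0) (h2 : t0 < mm + ε m * ra) :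
    IsPreconnected (ZnS Om Φ f X (lBM Φ X ρ1 ρ3 d sg l0 mm ra) ε (fun t => t ≤ t0) m) := by
  obtain ⟨p, q, hM⟩ := m.2
  have e0 : (0 : ℝ) ≤ ε m := by linarith [(hε m).1]
  obtain ⟨c1, c2, c3⟩ := moat_le hLa hM hN e0 hi1 h1 h2
  exact part_conn hBM hLa H hε (m := m) (B := {q | sb Φ q m.am ≤ t0}) c1 c2 c3

theorem zone_conn_ge (hLa : IsOpen La) (H : Hm f g Om La)
    (hBM : BarM Φ T f X J0 J V θ ρ1 ρ2 ρ3 ρ4 d sg l0 mm ra q₀)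
    (hε : ∀ m, ε m ∈ Ioo 1 (hiB ρ1 ρ3 d sg m.co)) (m : BM Φ X) {hi t0 : ℝ}
    (hN : Nm l0 mm ra hi) (hi1 : ε m ≤ hi) (h1 : mm - ε m * ra < t0) (h2 : t0 ≤ mm + ε m * ra) :
    IsPreconnected (ZnS Om Φ f X (lBM Φ X ρ1 ρ3 d sg l0 mm ra) ε (fun t => t0 ≤ t) m) := by
  obtain ⟨p, q, hM⟩ := m.2
  have e0 : (0 : ℝ) ≤ ε m := by linarith [(hε m).1]
  obtain ⟨c1, c2, c3⟩ := moat_ge hLa hM hN e0 hi1 h1 h2
  exact part_conn hBM hLa H hε (m := m) (B := {q | t0 ≤ sb Φ q m.am}) c1 c2 c3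

end bars

section mach

variable {δ κ0 R c0 : ℝ} {La Om : Set E3} {ι : Type} {Φ : FoamD δ κ0 R c0 La} {T : Tiling Om ι}
  {f g : E3 → E3} {κ1 κ2 μ : ℝ} {X : Set Φ.F} {J0 J V : Φ.F → Set ι}
  {ct ct' : Φ.F → ι} {θ : Φ.F → E3 → E3} {r₀ : Φ.F → ℝ} {ρ1 ρ2 ρ3 ρ4 d : Φ.F → ℝ}
  {L : Φ.F → Finset ℝ} [Nonempty (JJ Φ L)] {hG : GF Φ r₀ T f L} {bp : JJ Φ L → E3}
  {Nn : BM Φ X → Set ℝ} {q₀ : BM Φ X → E3} {ε : BM Φ X → ℝ} {bm : BM Φ X → E3}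
  {hGB : GFB Φ r₀ T f L (lRc Φ X μ ρ1 ρ3 d) ε}
  {v0B v1B : ∀ c, BM Φ X → VxK T (KT T J X) c} {m : BM Φ X} {x y : E3} {t0 : ℝ}

/-- the faces of the tiles which meet the sheet of `m` in the zone `D` -/
def ZnF (T : Tiling Om ι) (Φ : FoamD δ κ0 R c0 La) (f : E3 → E3) (X : Set Φ.F)
    (ℓ : BM Φ X → E3 → ℝ) (ε : BM Φ X → ℝ) (D : ℝ → Prop) (m : BM Φ X) : Set (C2 T) :=
  {F | ∃ q ∈ F.side fr3, ∃ x ∈ P (T.H q), ℓ m (f x) = ε m ∧ D (Φ.lev m.am (f x))}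

/-- the carrier of the sheet of `m` -/
theorem car_m (hLa : IsOpen La) (hI : InitR Φ T f g J0 ct' r₀) (hμ : 0 < μ)
    (hLm : ∀ c, ∀ t ∈ L c, μ ≤ t ∧ t ≤ 1 - μ)
    (B : BarOut Φ T f κ1 μ X J0 J V θ hG bp Nn ρ1 ρ2 ρ3 ρ4 d q₀ ε bm hGB v0B v1B) (m : BM Φ X) :
    Car (stB hGB bp bm) (Sum.inr m)
      (Bgf_4.SB Om Φ r₀ f L (lRc Φ X μ ρ1 ρ3 d) ε (Sum.inr m)) :=
  car_gmain hGB (fun j => B.base.mem hLa hI j) (Sum.inr m) (B.triv (Sum.inr m))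

theorem zwalk_gen (hLa : IsOpen La) (hI : InitR Φ T f g J0 ct' r₀) (hμ : 0 < μ)
    (hLm : ∀ c, ∀ t ∈ L c, μ ≤ t ∧ t ≤ 1 - μ)
    (B : BarOut Φ T f κ1 μ X J0 J V θ hG bp Nn ρ1 ρ2 ρ3 ρ4 d q₀ ε bm hGB v0B v1B) {D : ℝ → Prop}
    (hc : IsPreconnected (ZnS Om Φ f X (lRc Φ X μ ρ1 ρ3 d) ε D m))
    (hx : x ∈ (stB hGB bp bm).P) (hxl : (stB hGB bp bm).lab x = Sum.inr m)
    (hxt : D (Φ.lev m.am (f x)))
    (hy : y ∈ (stB hGB bp bm).P) (hyl : (stB hGB bp bm).lab y = Sum.inr m)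
    (hyt : D (Φ.lev m.am (f y))) :
    ReflTransGen (ZStep (stB hGB bp bm) (ZnF T Φ f X (lRc Φ X μ ρ1 ρ3 d) ε D m)) x y := by
  have hx' : x ∈ ZnS Om Φ f X (lRc Φ X μ ρ1 ρ3 d) ε D m := by
    obtain ⟨h1, -, h2, -⟩ := B.pos m x hx hxl
    exact ⟨h1, h2, hxt⟩
  have hy' : y ∈ ZnS Om Φ f X (lRc Φ X μ ρ1 ρ3 d) ε D m := by
    obtain ⟨h1, -, h2, -⟩ := B.pos m y hy hyl
    exact ⟨h1, h2, hyt⟩
  have h1 := cl_path (car_m hLa hI hμ hLm B m) hc (fun z hz => ⟨hz.1, hz.2.1⟩)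
    (cl_of hx hxl hx') (cl_of hy hyl hy')
  refine Relation.ReflTransGen.mono ?_ _ _ h1
  rintro u v ⟨F, ⟨q, hq, z, hz, hz'⟩, hA, e⟩
  exact ⟨F, ⟨q, hq, z, hz, hz'.2.1, hz'.2.2⟩, hA, e⟩

/-- **THE WALK OVER THE LOW END ZONE** -/
theorem zwalk_le (hLa : IsOpen La) (hI : InitR Φ T f g J0 ct' r₀) (hμ : 0 < μ) (hμ1 : μ ≤ 1 / 2)
    (hLm : ∀ c, ∀ t ∈ L c, μ ≤ t ∧ t ≤ 1 - μ)
    (B : BarOut Φ T f κ1 μ X J0 J V θ hG bp Nn ρ1 ρ2 ρ3 ρ4 d q₀ ε bm hGB v0B v1B)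
    (ht0 : 5 * μ / 16 ≤ t0) (ht1 : t0 ≤ 1 / 2)
    (hx : x ∈ (stB hGB bp bm).P) (hxl : (stB hGB bp bm).lab x = Sum.inr m)
    (hxt : Φ.lev m.am (f x) ≤ t0)
    (hy : y ∈ (stB hGB bp bm).P) (hyl : (stB hGB bp bm).lab y = Sum.inr m)
    (hyt : Φ.lev m.am (f y) ≤ t0) :
    ReflTransGen (ZStep (stB hGB bp bm) {F | ∃ q ∈ F.side fr3, ∃ x ∈ P (T.H q),
      lRc Φ X μ ρ1 ρ3 d m (f x) = ε m ∧ Φ.lev m.am (f x) ≤ t0}) x y := by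
  have h3 := (B.lv m).1
  have hra : 0 < 1 / 2 - 5 * μ / 16 := by linarith
  have h4 : hiB ρ1 ρ3 d (μ / 16) m.co ≤ 1 + μ / 2 := by
    have := hiB_le (ρ1 := ρ1) (ρ3 := ρ3) (d := d) (μ / 16) m.co
    linarith
  have hc := zone_conn_le hLa hI.hm B.barF B.lv m (nm_rec hμ hμ1) ((B.lv m).2.le.trans h4)
    (t0 := t0) (by nlinarith) (by nlinarith)
  exact zwalk_gen (D := fun t => t ≤ t0) hLa hI hμ hLm B hc hx hxl hxt hy hyl hyt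

/-- **THE WALK OVER THE HIGH END ZONE** -/
theorem zwalk_ge (hLa : IsOpen La) (hI : InitR Φ T f g J0 ct' r₀) (hμ : 0 < μ) (hμ1 : μ ≤ 1 / 2)
    (hLm : ∀ c, ∀ t ∈ L c, μ ≤ t ∧ t ≤ 1 - μ)
    (B : BarOut Φ T f κ1 μ X J0 J V θ hG bp Nn ρ1 ρ2 ρ3 ρ4 d q₀ ε bm hGB v0B v1B)
    (ht0 : 1 / 2 ≤ t0) (ht1 : t0 ≤ 1 - 5 * μ / 16)
    (hx : x ∈ (stB hGB bp bm).P) (hxl : (stB hGB bp bm).lab x = Sum.inr m)
    (hxt : t0 ≤ Φ.lev m.am (f x))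
    (hy : y ∈ (stB hGB bp bm).P) (hyl : (stB hGB bp bm).lab y = Sum.inr m)
    (hyt : t0 ≤ Φ.lev m.am (f y)) :
    ReflTransGen (ZStep (stB hGB bp bm) {F | ∃ q ∈ F.side fr3, ∃ x ∈ P (T.H q),
      lRc Φ X μ ρ1 ρ3 d m (f x) = ε m ∧ t0 ≤ Φ.lev m.am (f x)}) x y := by
  have h3 := (B.lv m).1
  have hra : 0 < 1 / 2 - 5 * μ / 16 := by linarith
  have h4 : hiB ρ1 ρ3 d (μ / 16) m.co ≤ 1 + μ / 2 := by
    have := hiB_le (ρ1 := ρ1) (ρ3 := ρ3) (d := d) (μ / 16) m.co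
    linarith
  have hc := zone_conn_ge hLa hI.hm B.barF B.lv m (nm_rec hμ hμ1) ((B.lv m).2.le.trans h4)
    (t0 := t0) (by nlinarith) (by nlinarith)
  exact zwalk_gen (D := fun t => t0 ≤ t) hLa hI hμ hLm B hc hx hxl hxt hy hyl hyt

end mach

end Crest.Agent.R096.Zwk_560
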