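import Crest.Agent.R096.Nwi4_688
import Crest.Agent.R096.Afr1_224
import Crest.Agent.R096.Lat1_498
import Crest.Agent.R096.Zwk1_560
import Crest.Agent.R096.Zcn1_143
import Crest.Agent.R096.Tro4_147
import Crest.Agent.R096.Tro2_914

/-!
# R096 (row 96), DOORS, NEWIN (helper688), part 5: the machine instance

`newIn_m` : the new points of `j` on the tiles which meet the end zones of the levels of the family are
in every closed set which contains the points of `j` on the giants. Open inputs: `start` (walk in the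
layers) and `top` (one not enclosed outer point of every barrier over every end).
-/

set_option autoImplicit false
set_option linter.unusedSectionVars false
set_option linter.unusedVariables false
set_option linter.style.longLine false

open Set Topology Filter Metric Module Relation
open scoped Classical

namespace Crest.Agent.R096.Nwi_688

open Crest.Agent.R096.Msh_715 Crest.Agent.R096.Agl5_543 Crest.Agent.R096.St_147
  Crest.Agent.R096.Seq_213 Crest.Agent.R096.Door_501 Crest.Agent.R096.Sla_184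
  Crest.Agent.R096.Twr_438 Crest.Agent.R096.Exa_560 Crest.Agent.R096.Ess3_95
  Crest.Agent.R096.Ess4_95 Crest.Agent.R096.Dfi_539 Crest.Agent.R096.Dfi_471
  Crest.Agent.R096.Ac_117 Crest.Agent.R096.Lm_117 Crest.Agent.R096.Cp_298
  Crest.Agent.R096.Coh_184 Crest.Agent.R096.Gm_298 Crest.Agent.R096.Cpo_642
  Crest.Agent.R096.Dfo_539
open Crest.Agent.R096.Brk1_582 Crest.Agent.R096.Brk2_582 Crest.Agent.R096.Brk3_582
  Crest.Agent.R096.Brk5_582 Crest.Agent.R096.Bsp_628 Crest.Agent.R096.Init_543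
  Crest.Agent.R096.Bar_106 Crest.Agent.R096.Dib_438
  Crest.Agent.R096.Ess5_95 Crest.Agent.R096.Bgf_4 Crest.Agent.R096.Ebr1_95
  Crest.Agent.R096.Ebr4_95 Crest.Agent.R096.Rop_441 Crest.Agent.R096.Nmd1_698
open Crest.Agent.R096.Mbf_337 (sb KJ Tiny gau Cores Fine)
open Crest.Agent.R096.SkC1_961 (E3 FoamD Hom3)
open Crest.Agent.R096.Frn_337 (Ti)
open Crest.Agent.R096.Frs_662 (slC)
open Crest.Agent.R096.Ess7_95 (KT Sh)
open Crest.Agent.R096.Dia_316 (nbT)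
open Crest.Agent.R096.Dff_539 (vS)
open Crest.Agent.R096.Bmf_416 (coT)
open Crest.Agent.R096.SecW_892 Crest.Agent.R096.Cg_501 Crest.Agent.R096.Sgd_298
open Crest.Agent.R096.Sgo_298 (RmA rout ActR)
open Crest.Agent.R096.Qdl_662
open Crest.Agent.R096.Sla_184.Sla (hf vf old tg F0 Fn Out OnS InL In)
open Crest.Agent.R096.Pbn_147 (K3)
open Crest.Agent.R096.Zwk_560 (ZnF zwalk_le zwalk_ge)
open Crest.Agent.R096.Zcn_143 (GsD gsD_tile)
open Crest.Agent.R096.Tro_914 (PosT qS hK_m BarP)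

variable {δ κ0 R c0 : ℝ} {La Om : Set E3} {ι : Type} {Φ : FoamD δ κ0 R c0 La} {T : Tiling Om ι}
  {f g : E3 → E3} {κ1 κ2 μ : ℝ} {X : Set Φ.F} {J0 J V : Φ.F → Set ι}
  {ct ct' : Φ.F → ι} {A : Φ.F → E3 ≃ᵃ[ℝ] E3} {lam : Φ.F → ℝ} {z : Φ.F → E3}
  {θ : Φ.F → E3 → E3} {φ : Φ.F → E3 → ℝ} {r₀ : Φ.F → ℝ}
  {L : Φ.F → Finset ℝ} [Nonempty (JJ Φ L)] {hG : GF Φ r₀ T f L} {bp : JJ Φ L → E3}
  {N' : BM Φ X → Set ℝ} {ρ1 ρ2 ρ3 ρ4 d : Φ.F → ℝ} {q₀ : BM Φ X → E3} {ε : BM Φ X → ℝ}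
  {bm : BM Φ X → E3} {hGB : GFB Φ r₀ T f L (lRc Φ X μ ρ1 ρ3 d) ε}
  {v0F v1F : ∀ c, Φ.F → VxK T (KT T J X) c} {v0B v1B : ∀ c, BM Φ X → VxK T (KT T J X) c}
  {hLa : IsOpen La} {hC : Cores Φ T f κ1 κ2 X J0 J V ct A lam z θ φ}
  {n : Ti X → ℕ} {hn : ∀ c, 0 < n c} {r : JJ Φ L ⊕ BM Φ X → E3}
  {Sf : JJ Φ L ⊕ BM Φ X → Set E3}
  {Lv : ∀ c, Φ.F ⊕ BM Φ X → Lev T (frontier ((slC hLa hC n hn).K c)) (JJ Φ L ⊕ BM Φ X)}
  {Tw : Twrs ((slC hLa hC n hn).sh fr3) (slC hLa hC n hn).n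
    (outK (slC hLa hC n hn).hH (slC hLa hC n hn).dis (stB hGB bp bm) r)}
  {l0' : E3 → JJ Φ L ⊕ BM Φ X}

/-- the two end zones of the levels -/
def Dz (μ : ℝ) (σ : Bool) (t : ℝ) : Prop := if σ then 1 - 7 * μ / 16 ≤ t else t ≤ 7 * μ / 16

theorem Dz.or {μ : ℝ} {σ : Bool} {t : ℝ} (h : Dz μ σ t) :
    t ≤ 7 * μ / 16 ∨ 1 - 7 * μ / 16 ≤ t := by
  cases σ
  · exact Or.inl h
  · exact Or.inr h

section s2

variable (N : NumD δ κ0 R c0 κ2 μ κ1)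
  (bar : BarOut Φ T f κ1 μ X J0 J V θ hG bp N' ρ1 ρ2 ρ3 ρ4 d q₀ ε bm hGB v0B v1B)
  (D : DIn (slC hLa hC n hn).hH (stB hGB bp bm) r Sf (nbA Φ X) (vS v0F v0B) (vS v1F v1B)
    (uA Φ hLa X θ) (AA Φ X μ κ1) (BA Φ X μ))
  (lo : LevOut (Kc := (slC hLa hC n hn).K) (stB hGB bp bm) (nbA Φ X) (uA Φ hLa X θ)
    (AA Φ X μ κ1) (BA Φ X μ) Lv)
  (tt : TwOut (slC hLa hC n hn) fr3 (stB hGB bp bm) r (vS v0F v0B) (vS v1F v1B) Lv Tw)
  (htl : ∀ w ∈ (stB hGB bp bm).P, ∀ j, (stB hGB bp bm).lab w = Sum.inl j →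
    μ ≤ Φ.lev j.1 (f w) ∧ Φ.lev j.1 (f w) ≤ 1 - μ)
  (hv0 : ∀ (c : Ti X) a, nbT Φ X c a → sb Φ (θ c.1 (v0F c a).1) a ≤ (2 * Cn δ R + 1) * κ1)
  (hv1 : ∀ (c : Ti X) a, nbT Φ X c a → 1 - (2 * Cn δ R + 1) * κ1 ≤ sb Φ (θ c.1 (v1F c a).1) a)

include bar in
/-- the gauge at the zone points of the sheet of `m` -/
theorem zn_ga {m : BM Φ X} {x : E3} (hx : x ∈ Om) (hl : lRc Φ X μ ρ1 ρ3 d m (f x) = ε m) :
    ρ1 m.co ≤ ga Φ m.co (f x) ∧ ga Φ m.co (f x) ≤ ρ4 m.co := by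
  obtain ⟨q, hq⟩ := T.cov x hx
  obtain ⟨⟨h1, h2⟩, -⟩ := gsD_tile bar (m := m) (D := Set.univ) (x := x) ⟨hx, hl, trivial⟩ hq
  have hd := (bar.barF.room m).d0
  have hd' : 0 < d m.co := hd
  constructor <;> linarith

include N bar htl in
/-- no points of the family on the old faces of the zone -/
theorem no1_m {m : BM Φ X} {σ : Bool} {j : JJ Φ L} (hj : m.am = j.1) {F : C2 T}
    (hF : F ∈ ZnF T Φ f X (lRc Φ X μ ρ1 ρ3 d) ε (Dz μ σ) m)
    (hd : ¬ (((meshC T fr3).side F).map (piK T (slC hLa hC n hn).K)).IsDiag) {y : E3}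
    (hy : (s2 (slC hLa hC n hn) fr3 Tw l0').At (old ⟨F, hd⟩) y) :
    (s2 (slC hLa hC n hn) fr3 Tw l0').lab y ≠ Sum.inl j := by
  intro hl
  obtain ⟨q, hq, x, hx, hxl, hxD⟩ := hF
  obtain ⟨h1, h2⟩ := zn_ga bar (T.sub _ hx) hxl
  obtain ⟨g1, g2⟩ := on_old' (F := (⟨F, hd⟩ : (slC hLa hC n hn).F0 fr3)) hy.1 hy.2
  rw [lab_old g1] at hl
  exact Afr_224.afree_outF N bar htl m hx h1 h2 hxD.or F hq y g1.1 g2 j hl hj.symm

include N bar D lo tt htl hv0 hv1 in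
/-- no points of the family on the vertical faces over the zone -/
theorem no2_m {m : BM Φ X} {σ : Bool} {j : JJ Φ L} (hj : m.am = j.1) {c : Ti X}
    {e : (slC hLa hC n hn).Ed c} {F : C2 T}
    (hF : F ∈ ZnF T Φ f X (lRc Φ X μ ρ1 ρ3 d) ε (Dz μ σ) m) {w : E3} (hwe : w ∈ e.1.opn)
    (hwF : w ∈ (meshC T fr3).On F) {i : ℕ} (hi : i < (slC hLa hC n hn).n c) {y : E3}
    (hy : (s2 (slC hLa hC n hn) fr3 Tw l0').At (vf fr3 e i) y) :
    (s2 (slC hLa hC n hn) fr3 Tw l0').lab y ≠ Sum.inl j := by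
  intro hl
  obtain ⟨q, hq, x, hx, hxl, hxD⟩ := hF
  obtain ⟨h1, h2⟩ := zn_ga bar (T.sub _ hx) hxl
  have hwq : w ∈ P (T.H q) := C2.sub_tile (h3 := fr3) hq hwF.1
  have he : e.1.set ⊆ P (T.H q) := by
    intro u hu
    have h4 : T.cc w = e.1.set := by
      rw [e.1.set_eq]
      exact T.cc_eq_of_mem_oc e.1.pt_mem hwe
    rw [← h4] at hu
    exact T.cc_sub_tile hwq hu
  have key := Afr_224.afree_in N bar D lo tt htl hv0 hv1 m hx h1 h2 hxD.or c e he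
  have hfl : Sum.map (fun j : JJ Φ L => j.1) (id : BM Φ X → BM Φ X)
      ((s2 (slC hLa hC n hn) fr3 Tw l0').lab y) = Sum.inl m.am := by
    rw [hl, hj]; rfl
  obtain ⟨a', x0, g1, g2, g3, -⟩ := on_vf (l0 := l0') hi hy.1 hy.2
  rcases x0 with w1 | w1 | v
  · have hw1 : w1 ∈ e.1.opn := ((slC hLa hC n hn).sh fr3 c).top_mem_vert.1 g2
    have hp := ((Tw.tw c a').mv i).top_mem_P'.1 g1
    have g3' : y = (slC hLa hC n hn).hp c i w1 := g3
    have h5 := lab_hp (l0 := l0') hi.le hp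
    rw [← g3'] at h5
    have h6 := Tw.labj hp
    rw [← h5] at h6
    have h7 : (Sum.inl m.am : Φ.F ⊕ BM Φ X) = a' := hfl.symm.trans h6
    subst h7
    exact (key i).1 w1 hp hw1
  · have hw1 : w1 ∈ e.1.opn := ((slC hLa hC n hn).sh fr3 c).bot_mem_vert.1 g2
    have hp := Twrs.mem_B.1 (((Tw.tw c a').mv i).bot_mem_P'.1 g1)
    have g3' : y = (slC hLa hC n hn).hp c (i + 1) w1 := g3
    have h5 := lab_hp (l0 := l0') (show i + 1 ≤ (slC hLa hC n hn).n c from hi) hp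
    rw [← g3'] at h5
    have h6 := Tw.labj hp
    rw [← h5] at h6
    have h7 : (Sum.inl m.am : Φ.F ⊕ BM Φ X) = a' := hfl.symm.trans h6
    subst h7
    exact (key (i + 1)).1 w1 hp hw1
  · obtain ⟨b, hb⟩ := ((slC hLa hC n hn).sh fr3 c).vert_mem_vert.1 g2
    have hv := ((Tw.tw c a').mv i).vert_mem_P'.1 g1
    have g3' : y = (slC hLa hC n hn).vc c v.1 i := g3
    have h5 := lab_vp (l0 := l0') hi hv
    rw [← g3'] at h5
    have h6 := Tw.labv hv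
    rw [← h5] at h6
    have h7 : (Sum.inl m.am : Φ.F ⊕ BM Φ X) = a' := hfl.symm.trans h6
    subst h7
    rw [← hb] at hv
    exact (key i).2 b hv

end s2

end Crest.Agent.R096.Nwi_688
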