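import Crest.Agent.R096.Cns4_778
import Crest.Agent.R096.Tro4_147

/-!
# R096 (row 96), DOORS, NEWIN (helper72): no top point of a barrier is in 688's set `B`

* `top_notin`   : over `s2`: `B` closed under the chords of `m` which are laced with no point of the
                  family and under all chords of `m` on the faces of `RB`, without frozen points;
* `top_Y`       : machine: the points of `j` on the faces of `RB` laced with a chord of `m` are in `Y`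
                  (`Y` contains the root of `j`, closed under the free chords);
* `top_notin_m` : machine: a point of `B` is not in `GmT` (BOTH end walls).
-/

set_option autoImplicit false
set_option linter.unusedSectionVars false
set_option linter.unusedVariables false
set_option linter.style.longLine false

open Set Topology Filter Metric Module Relation
open scoped Classical

namespace Crest.Agent.R096.Tpn_72

open Crest.Agent.R096.Msh_715 Crest.Agent.R096.Coh_184 Crest.Agent.R096.Lab_184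
  Crest.Agent.R096.Main_4 Crest.Agent.R096.Agl5_543
  Crest.Agent.R096.Seq_213 Crest.Agent.R096.St_147 Crest.Agent.R096.Door_501
  Crest.Agent.R096.Twr_438 Crest.Agent.R096.Exa_560
  Crest.Agent.R096.Ess3_95 Crest.Agent.R096.Ess4_95 Crest.Agent.R096.Ac_117 Crest.Agent.R096.Lm_117
  Crest.Agent.R096.Dfi_539 Crest.Agent.R096.Dfi_471 Crest.Agent.R096.Dfo_539
  Crest.Agent.R096.Sla_184 Crest.Agent.R096.Gm_298
  Crest.Agent.R096.Brk1_582 Crest.Agent.R096.Brk2_582 Crest.Agent.R096.Brk3_582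
  Crest.Agent.R096.Brk5_582 Crest.Agent.R096.Bsp_628 Crest.Agent.R096.Init_543
  Crest.Agent.R096.Lv3_471 Crest.Agent.R096.Lv4_471 Crest.Agent.R096.Slt_471
  Crest.Agent.R096.Dib_438 Crest.Agent.R096.Rop_441 Crest.Agent.R096.Frk_441
  Crest.Agent.R096.Dff_539 Crest.Agent.R096.Frs_662 Crest.Agent.R096.Qdl_662
  Crest.Agent.R096.Cg_501 Crest.Agent.R096.SecW_892 Crest.Agent.R096.Sgd_298
  Crest.Agent.R096.Dfg_539 Crest.Agent.R096.Nmd1_698 Crest.Agent.R096.Civ_662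
  Crest.Agent.R096.Lbc_334 Crest.Agent.R096.Pbn_147 Crest.Agent.R096.Tro_147
  Crest.Agent.R096.Tro_914 Crest.Agent.R096.Cns_778 Crest.Agent.R096.Bar_106
open Crest.Agent.R096.Sgo_298 (RmA rout ActR)
open Crest.Agent.R096.Mbf_337 (KJ Tiny Cores Fine Words sb gau)
open Crest.Agent.R096.SkC1_961 (E3 FoamD Hom3)
open Crest.Agent.R096.Frn_337 (Ti)
open Crest.Agent.R096.Ess7_95 (KT)
open Crest.Agent.R096.Dia_316 (nbT)
open Crest.Agent.R096.Bgf_4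
open Crest.Agent.R096.Bmf_416 (coT coT_fin)
open Crest.Agent.R096.Sla_184.Sla (old Fn Out F0)

section small

variable {E : Type} [NormedAddCommGroup E] [NormedSpace ℝ E] [FiniteDimensional ℝ E]
variable {Om : Set E} {ι : Type} {T : Tiling Om ι} {κ : Type} {S : Sla T κ}
  {h3 : finrank ℝ E = 3} {J C Mo : Type} {fam : J → C} {am : Mo → C}
  {s : GSt (meshC T h3) (Sum.map fam (id : Mo → Mo))} {r : J ⊕ Mo → E}
  {Tw : Twrs (S.sh h3) S.n (outK S.hH S.dis s r)} {l0 : E → J ⊕ Mo}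
  {Sj Gm Gn : Mo → Set E} {a : C}

/-- **no point of the connected top part is in `B`** -/
theorem top_notin (U : Upp S s r Sj Gm) (hc : ∀ m, IsPreconnected (Gn m))
    (hs : ∀ m, Gn m ⊆ Gm m) {m : Mo} (ha : am m = a) {Act : C → Set (T.RIdx S.HH ⊕ κ)}
    (hy : ∃ y ∈ s.P, s.lab y = Sum.inr m ∧ y ∈ Gn m ∧
      ¬ Dfo_539.Encl (s2 S h3 Tw l0) am Act m y)
    {B : Set E} (hB : ∀ x ∈ B, x ∈ (s2 S h3 Tw l0).P ∧ (s2 S h3 Tw l0).lab x = Sum.inr m)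
    (hBc : ∀ F x, x ∈ B → (s2 S h3 Tw l0).At F x →
      Dfo_539.NoX (s2 S h3 Tw l0) (am m) F x → (s2 S h3 Tw l0).mu F x ∈ B)
    (hBR : ∀ F ∈ RB S h3 am Gn a, ∀ x ∈ B, (s2 S h3 Tw l0).At F x →
      (s2 S h3 Tw l0).mu F x ∈ B)
    (hBf : ∀ x ∈ B, ∀ F, (s2 S h3 Tw l0).At F x →
      ¬ St.Frozen (S.mn h3) (Act (am m)) F) {h : E} (hh : h ∈ B) : h ∉ Gn m := by
  intro hG
  obtain ⟨y, y1, y2, y4, y5⟩ := hy
  have h1 := conn_sub U hc hs ha (hB h hh).1 (hB h hh).2 hG hh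
    (fun F hF x hx hA _ => hBR F hF x hx hA) (cl_of y1 y2 y4)
  exact y5 ⟨B, h1, hB, fun F x hx hA hn => hBc F x hx hA hn, fun F x hx hA => hBf x hx F hA⟩

end small

section mach

variable {δ κ0 R c0 : ℝ} {La Om : Set E3} {ι : Type} {Φ : FoamD δ κ0 R c0 La} {T : Tiling Om ι}
  {f g : E3 → E3} {κ1 κ2 μ : ℝ} {X : Set Φ.F} {J0 J V : Φ.F → Set ι}
  {ct ct' : Φ.F → ι} {Aj : Φ.F → E3 ≃ᵃ[ℝ] E3} {lam : Φ.F → ℝ} {z : Φ.F → E3}
  {θ : Φ.F → E3 → E3} {φ : Φ.F → E3 → ℝ} {r₀ : Φ.F → ℝ} {ρ1 ρ2 ρ3 ρ4 d : Φ.F → ℝ}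
  {L : Φ.F → Finset ℝ} [Nonempty (JJ Φ L)] {hG : GF Φ r₀ T f L} {bp : JJ Φ L → E3}
  {Nn : BM Φ X → Set ℝ} {q₀ : BM Φ X → E3} {ε : BM Φ X → ℝ} {bm : BM Φ X → E3}
  {hGB : GFB Φ r₀ T f L (lRc Φ X μ ρ1 ρ3 d) ε}
  {v0B v1B : ∀ c, BM Φ X → VxK T (KT T J X) c} {r : JJ Φ L → E3}
  {hLa : IsOpen La} {hC : Cores Φ T f κ1 κ2 X J0 J V ct Aj lam z θ φ}
  {n : Ti X → ℕ} {hn : ∀ c, 0 < n c}
  {Sf : JJ Φ L ⊕ BM Φ X → Set E3} {nb : Ti X → Φ.F ⊕ BM Φ X → Prop}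
  {v0 v1 : ∀ c, Φ.F ⊕ BM Φ X → VxK T (slC hLa hC n hn).K c} {u : Ti X → Φ.F ⊕ BM Φ X → E3 → ℝ}
  {A B' : Ti X → Φ.F ⊕ BM Φ X → ℝ}
  {Lx : ∀ c, Φ.F ⊕ BM Φ X → Lev T (frontier ((slC hLa hC n hn).K c)) (JJ Φ L ⊕ BM Φ X)}
  {Tw : Twrs ((slC hLa hC n hn).sh fr3) (slC hLa hC n hn).n
    (outK (slC hLa hC n hn).hH (slC hLa hC n hn).dis (stB hGB bp bm) (Sum.elim r bm))}
  {l0' : E3 → JJ Φ L ⊕ BM Φ X}

/-- **the points of `j` which are laced with a chord of `m` on a top face are in `Y`** -/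
theorem top_Y (N : NumD δ κ0 R c0 κ2 μ κ1) (hκ2 : 0 < κ2)
    (hRm : RmA Φ T f X J0 J V θ ρ1 ρ2 ρ3 ρ4 d)
    {hI : InitR Φ T f g J0 ct' r₀}
    {hM : Mesh0 T (Pc Φ.F) (bc (F := Φ.F)) (RF Φ r₀) f (KorJ Φ J0) κ1} {h1 : κ1 < μ / 32}
    {h2 : κ1 < 1} {M : Φ.F → ℕ} (hW : Words Φ T f X ct Aj lam z M L)
    (hLm : ∀ c, ∀ t ∈ L c, μ ≤ t ∧ t ≤ 1 - μ) (hconn : ∀ j, (st0 hG bp).Conn j)
    (hext : Ext (st0 hG bp) (stB hGB bp bm))
    (D : DIn (slC hLa hC n hn).hH (stB hGB bp bm) (Sum.elim r bm) Sf nb v0 v1 u A B')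
    (lo : LevOut (Kc := (slC hLa hC n hn).K) (stB hGB bp bm) nb u A B' Lx)
    (tt : TwOut (slC hLa hC n hn) fr3 (stB hGB bp bm) (Sum.elim r bm) v0 v1 Lx Tw)
    (rec : BR hLa (stB hGB bp bm) f X J θ coT BM.am BM.Zm nb v0 v1 u A B' μ κ1)
    (hga : ∀ w ∈ (stB hGB bp bm).P, ∀ m, (stB hGB bp bm).lab w = Sum.inr m →
      Ess5_95.ga Φ (coT m).1 (f w) ≤ ρ3 (coT m).1 + 15 * d (coT m).1)
    (hrE : ∀ j : JJ Φ L, ∃ q, r j ∈ P (T.H q) ∧ (∀ c ∉ X, q ∉ V c) ∧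
      ∀ (k : QK (Pc Φ.F)) (s : ℝ), j.1 ∈ k.B → κ1 < s →
        q ∉ Act0 T (Pc Φ.F) (bc (F := Φ.F)) (RF Φ r₀) f (KorJ Φ J0) s k)
    {s₃ : GSt ((slC hLa hC n hn).mn fr3) (fun j : JJ Φ L => j.1)}
    (posB : PosS (hH := (Lay_316.lay_sla hLa hC n hn).core) Φ T f (μ / 4) J0 (slC hLa hC n hn) s₃)
    {j : JJ Φ L} {k : Init_543.QK (Pc Φ.F)} (hkB : j.1 ∈ k.B) {Y : Set E3} (hbY : r j ∈ Y)
    (hY : ∀ F w, (s2 (slC hLa hC n hn) fr3 Tw l0').At F w →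
      (s2 (slC hLa hC n hn) fr3 Tw l0').lab w = Sum.inl j →
      K3 s₃ (qdT (fun p : T.RIdx (slC hLa hC n hn).HH => p.tile) (sla_sub (slC hLa hC n hn))
        (slC hLa hC n hn).KK hLa hI hM h1 h2) j k F w →
      (w ∈ Y ↔ (s2 (slC hLa hC n hn) fr3 Tw l0').mu F w ∈ Y))
    {F : (slC hLa hC n hn).Fn fr3}
    (hF : ∃ p, Sum.inl p ∈ ((slC hLa hC n hn).mn fr3).side F ∧
      ∃ e ∉ X, ∃ y ∈ P (T.H p.tile), ρ3 e + 7 * d e ≤ Ess5_95.ga Φ e (f y) ∧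
        Ess5_95.ga Φ e (f y) ≤ ρ4 e)
    {v x : E3} {m : BM Φ X} (hv : (s2 (slC hLa hC n hn) fr3 Tw l0').At F v)
    (hvl : (s2 (slC hLa hC n hn) fr3 Tw l0').lab v = Sum.inl j)
    (hx : (s2 (slC hLa hC n hn) fr3 Tw l0').At F x)
    (hxl : (s2 (slC hLa hC n hn) fr3 Tw l0').lab x = Sum.inr m) (hxa : m.am = j.1) : v ∈ Y := by
  obtain ⟨n1, n2, n3, n4, n5, -⟩ := N.base
  have hd : ∀ e ∉ X, 0 < d e := fun e he => (hRm e he).d0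
  have h12 : ∀ e ∉ X, ρ1 e + 16 * d e ≤ ρ3 e := fun e he =>
    (hRm e he).r12.trans (hRm e he).r23
  have hT : Tlr Φ T f J0 Xᶜ (fun e => ρ3 e + 5 * d e) d :=
    tlr_of_room hC (fun e he => (hRm e he).r1) (fun e he => (hRm e he).r4)
      (fun e he => (hRm e he).d0) (fun e he => (hRm e he).ray) (fun e he => (hRm e he).j0)
      (fun e he => (hRm e he).v)
      (fun e he i hi hi0 x hx y hy => ((hRm e he).osc i hi hi0 x hx y hy).1)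
      (fun e he => by have := hd e he; have := h12 e he; linarith)
      fun e he => by have := hd e he; have := (hRm e he).r34; linarith
  have hJ : ∀ e ∉ X, ∀ i ∈ J e, ∃ x ∈ P (T.H i),
      gau e.1 (Φ.B e).lo (f x) ≤ (ρ3 e + 5 * d e) - d e := by
    intro e he i hi
    obtain ⟨x, hx⟩ := T.ne i
    have hxP := I_sub_P _ hx
    have h3 := Sgo_298.ga_core hLa hI.hm hC hRm he (mem_biUnion (x := i) hi hxP)
    refine ⟨x, hxP, ?_⟩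
    have h4 := hd e he
    show Ess5_95.ga Φ e (f x) ≤ ρ3 e + 5 * d e - d e
    linarith
  obtain ⟨q, hrq, hq2, hq3⟩ := hrE j
  have hq₀ : q ∉ Rtl r₀ T f J0 Xᶜ (fun e => ρ3 e + 5 * d e) (7 * μ / 32) k := by
    rintro (hA | ⟨e, he, x, hx, hxr⟩)
    · exact hq3 k (7 * μ / 32) hkB (by linarith) hA
    · refine hq2 e he ((hRm e he).v q ⟨x, hx, ?_⟩)
      have h3 : gau e.1 (Φ.B e).lo (f x) ≤ ρ3 e + 5 * d e := hxr
      have h4 := hd e he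
      have h5 := (hRm e he).r34
      show gau e.1 (Φ.B e).lo (f x) ≤ ρ4 e
      linarith
  refine hT_tile (S := slC hLa hC n hn) (hLa := hLa) (hR := hI) (hM := hM) (hε := h1)
    (hε1 := h2) (hG := hG) (bp := bp) (s := stB hGB bp bm) (r := Sum.elim r bm) (Tw := Tw)
    (l0 := l0') (tb := 7 * μ / 32) (σ' := μ / 4) (rt := fun e => ρ3 e + 5 * d e) (d := d)
    N.hδ N.hR n1.le hκ2 N.h12 n1.le hC hW (fun _ => rfl)
    (Sgo_298.part_ext hext) (hconn j) hT hJ (by linarith) (by have := N.strip.1; linarith)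
    N.strip.2.2.2 N.chl_tb hkB
    ((N.lv (hLm j.1 _ j.2.2)).1) posB (D.root (Sum.inl j)) hrq hq₀ Y hbY hY v hv.1 hvl ?_
  obtain ⟨p, hp1, e, he, y, hy, hy1, hy4⟩ := hF
  obtain ⟨-, hpK, hvp⟩ := sideN_tile hv.2 hp1
  obtain ⟨hxp, -, -⟩ := sideN_tile hx.2 hp1
  refine ⟨p.tile, hvp, bar_rtl (rS := fun e => ρ3 e + 7 * d e) (rt := fun e => ρ3 e + 5 * d e)
    (lb := 3 * μ / 16 + Cn δ R * κ1) (rmO_of hRm) hC.disj ?_ ?_ ?_ hLa hI hM ?_ hkB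
    (fun hkor e' he' => ?_) he hy hy1 hy4⟩
  · intro e he; have := hd e he; have := h12 e he; show ρ1 e ≤ ρ3 e + 7 * d e; linarith
  · intro e he; have := hd e he; have := (hRm e he).r34; show ρ3 e + 5 * d e ≤ ρ4 e; linarith
  · intro e he; have := hd e he; show ρ3 e + 5 * d e + d e < ρ3 e + 7 * d e; linarith
  · linarith
  · rw [← hxa] at he'
    exact posM_m N hRm D lo tt rec hga m x hx.1 hxl p hpK hxp hkor e' he'

/-- **NO TOP POINT OF `m` IS IN `B`** (both end walls): `B` = 688's set (`new_cutG`) for the sheet `j`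
and the quad `k`, `Y ∋ r j` -/
theorem top_notin_m (N : NumD δ κ0 R c0 κ2 μ κ1) (hκ2 : 0 < κ2)
    {hI : InitR Φ T f g J0 ct' r₀}
    {hM : Mesh0 T (Pc Φ.F) (bc (F := Φ.F)) (RF Φ r₀) f (KorJ Φ J0) κ1} {h1 : κ1 < μ / 32}
    {h2 : κ1 < 1} {M : Φ.F → ℕ} (hW : Words Φ T f X ct Aj lam z M L)
    (hLm : ∀ c, ∀ t ∈ L c, μ ≤ t ∧ t ≤ 1 - μ) (hconn : ∀ j, (st0 hG bp).Conn j)
    (Ba : BarOut Φ T f κ1 μ X J0 J V θ hG bp Nn ρ1 ρ2 ρ3 ρ4 d q₀ ε bm hGB v0B v1B)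
    (D : DIn (slC hLa hC n hn).hH (stB hGB bp bm) (Sum.elim r bm) Sf nb v0 v1 u A B')
    (lo : LevOut (Kc := (slC hLa hC n hn).K) (stB hGB bp bm) nb u A B' Lx)
    (tt : TwOut (slC hLa hC n hn) fr3 (stB hGB bp bm) (Sum.elim r bm) v0 v1 Lx Tw)
    (rec : BR hLa (stB hGB bp bm) f X J θ coT BM.am BM.Zm nb v0 v1 u A B' μ κ1)
    (hrE : ∀ j : JJ Φ L, ∃ q, r j ∈ P (T.H q) ∧ (∀ c ∉ X, q ∉ V c) ∧
      ∀ (k : QK (Pc Φ.F)) (s : ℝ), j.1 ∈ k.B → κ1 < s →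
        q ∉ Act0 T (Pc Φ.F) (bc (F := Φ.F)) (RF Φ r₀) f (KorJ Φ J0) s k)
    {s₃ : GSt ((slC hLa hC n hn).mn fr3) (fun j : JJ Φ L => j.1)}
    (posB : PosS (hH := (Lay_316.lay_sla hLa hC n hn).core) Φ T f (μ / 4) J0 (slC hLa hC n hn) s₃)
    {m : BM Φ X}
    -- 778's `NE1`
    (ne : ∃ w ∈ (stB hGB bp bm).P, (stB hGB bp bm).lab w = Sum.inr m ∧
      ρ3 m.co + 7 * d m.co ≤ Ess5_95.ga Φ m.co (f w) ∧
      ¬ Dfo_539.Encl (s2 (slC hLa hC n hn) fr3 Tw l0') BM.am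
        (fun _ => ActR (slC hLa hC n hn) (Rdc T f Xᶜ (rout ρ3 d))) m w)
    {j : JJ Φ L} {k : Init_543.QK (Pc Φ.F)} (hkB : j.1 ∈ k.B) (ham : m.am = j.1)
    {Y : Set E3} (hbY : r j ∈ Y)
    (hY : ∀ F w, (s2 (slC hLa hC n hn) fr3 Tw l0').At F w →
      (s2 (slC hLa hC n hn) fr3 Tw l0').lab w = Sum.inl j →
      K3 s₃ (qdT (fun p : T.RIdx (slC hLa hC n hn).HH => p.tile) (sla_sub (slC hLa hC n hn))
        (slC hLa hC n hn).KK hLa hI hM h1 h2) j k F w →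
      (w ∈ Y ↔ (s2 (slC hLa hC n hn) fr3 Tw l0').mu F w ∈ Y))
    {B : Set E3}
    (hB : ∀ x ∈ B, x ∈ (s2 (slC hLa hC n hn) fr3 Tw l0').P ∧
      (s2 (slC hLa hC n hn) fr3 Tw l0').lab x = Sum.inr m)
    (hBc : ∀ F x, x ∈ B → (s2 (slC hLa hC n hn) fr3 Tw l0').At F x →
      (∀ y, (s2 (slC hLa hC n hn) fr3 Tw l0').At F y →
        (s2 (slC hLa hC n hn) fr3 Tw l0').lab y = Sum.inl j →
        ((slC hLa hC n hn).mn fr3).Lace F x ((s2 (slC hLa hC n hn) fr3 Tw l0').mu F x) y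
          ((s2 (slC hLa hC n hn) fr3 Tw l0').mu F y) → y ∈ Y) →
      (s2 (slC hLa hC n hn) fr3 Tw l0').mu F x ∈ B)
    (hBf : ∀ x ∈ B, ∀ F, (s2 (slC hLa hC n hn) fr3 Tw l0').At F x →
      ¬ St.Frozen ((slC hLa hC n hn).mn fr3)
        (ActR (slC hLa hC n hn) (Rdc T f Xᶜ (rout ρ3 d))) F) {h : E3} (hh : h ∈ B) :
    h ∉ GmT Om Φ f X μ ρ1 ρ3 d ε m := by
  obtain ⟨n1, n2, n3, n4, n5, -⟩ := N.base
  have hRm := rmA_of Ba
  have hga : ∀ w ∈ (stB hGB bp bm).P, ∀ m, (stB hGB bp bm).lab w = Sum.inr m →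
      Ess5_95.ga Φ (coT m).1 (f w) ≤ ρ3 (coT m).1 + 15 * d (coT m).1 := fun w hw m hl => by
    have h3 := (Ba.gau m w hw hl).2
    have h4 := (hRm m.co m.co_notMem).d0
    show Ess5_95.ga Φ m.co (f w) ≤ ρ3 m.co + 15 * d m.co
    linarith
  have U := upp_m (hLa := hLa) (hC := hC) (n := n) (hn := hn) (r := r) hI n4 hLm Ba
  refine top_notin (a := m.am) (Act := fun _ => ActR (slC hLa hC n hn) (Rdc T f Xᶜ (rout ρ3 d))) U
    (fun m' => ?_) (fun m' => gmT_sub hRm m') rfl ?_ hB ?_ ?_ hBf hh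
  · obtain ⟨c1, c2, c3, c4, c5, c6, c7⟩ := caps Ba.barF Ba.lv m'
    exact gma_conn Ba.barF hLa hI.hm Ba.lv (m := m') (by linarith)
      (by show _ < ρ3 m'.co + 7 * d m'.co; linarith)
      (by show ρ3 m'.co + 7 * d m'.co ≤ _; linarith)
  · obtain ⟨w, e1, e2, e3, e4⟩ := ne
    exact ⟨w, e1, e2, mem_gmT hLa Ba e1 e2 e3, e4⟩
  · intro F x hx hA hno
    refine hBc F x hx hA fun y hy hyl hl => ?_
    exact absurd hl (hno y hy ⟨j, hyl, ham.symm⟩)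
  · intro F hF x hx hA
    refine hBc F x hx hA fun y hy hyl hl => ?_
    exact top_Y N hκ2 hRm hW hLm hconn Ba.ext D lo tt rec hga hrE posB hkB hbY hY
      (hRR_m hI Ba m.am F hF) hy hyl hA (hB x hx).2 ham

/-- **the same, for a point outside the cores** -/
theorem top_lt_m (N : NumD δ κ0 R c0 κ2 μ κ1) (hκ2 : 0 < κ2)
    {hI : InitR Φ T f g J0 ct' r₀}
    {hM : Mesh0 T (Pc Φ.F) (bc (F := Φ.F)) (RF Φ r₀) f (KorJ Φ J0) κ1} {h1 : κ1 < μ / 32}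
    {h2 : κ1 < 1} {M : Φ.F → ℕ} (hW : Words Φ T f X ct Aj lam z M L)
    (hLm : ∀ c, ∀ t ∈ L c, μ ≤ t ∧ t ≤ 1 - μ) (hconn : ∀ j, (st0 hG bp).Conn j)
    (Ba : BarOut Φ T f κ1 μ X J0 J V θ hG bp Nn ρ1 ρ2 ρ3 ρ4 d q₀ ε bm hGB v0B v1B)
    (D : DIn (slC hLa hC n hn).hH (stB hGB bp bm) (Sum.elim r bm) Sf nb v0 v1 u A B')
    (lo : LevOut (Kc := (slC hLa hC n hn).K) (stB hGB bp bm) nb u A B' Lx)
    (tt : TwOut (slC hLa hC n hn) fr3 (stB hGB bp bm) (Sum.elim r bm) v0 v1 Lx Tw)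
    (rec : BR hLa (stB hGB bp bm) f X J θ coT BM.am BM.Zm nb v0 v1 u A B' μ κ1)
    (hrE : ∀ j : JJ Φ L, ∃ q, r j ∈ P (T.H q) ∧ (∀ c ∉ X, q ∉ V c) ∧
      ∀ (k : QK (Pc Φ.F)) (s : ℝ), j.1 ∈ k.B → κ1 < s →
        q ∉ Act0 T (Pc Φ.F) (bc (F := Φ.F)) (RF Φ r₀) f (KorJ Φ J0) s k)
    {s₃ : GSt ((slC hLa hC n hn).mn fr3) (fun j : JJ Φ L => j.1)}
    (posB : PosS (hH := (Lay_316.lay_sla hLa hC n hn).core) Φ T f (μ / 4) J0 (slC hLa hC n hn) s₃)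
    {m : BM Φ X}
    (ne : ∃ w ∈ (stB hGB bp bm).P, (stB hGB bp bm).lab w = Sum.inr m ∧
      ρ3 m.co + 7 * d m.co ≤ Ess5_95.ga Φ m.co (f w) ∧
      ¬ Dfo_539.Encl (s2 (slC hLa hC n hn) fr3 Tw l0') BM.am
        (fun _ => ActR (slC hLa hC n hn) (Rdc T f Xᶜ (rout ρ3 d))) m w)
    {j : JJ Φ L} {k : Init_543.QK (Pc Φ.F)} (hkB : j.1 ∈ k.B) (ham : m.am = j.1)
    {Y : Set E3} (hbY : r j ∈ Y)
    (hY : ∀ F w, (s2 (slC hLa hC n hn) fr3 Tw l0').At F w →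
      (s2 (slC hLa hC n hn) fr3 Tw l0').lab w = Sum.inl j →
      K3 s₃ (qdT (fun p : T.RIdx (slC hLa hC n hn).HH => p.tile) (sla_sub (slC hLa hC n hn))
        (slC hLa hC n hn).KK hLa hI hM h1 h2) j k F w →
      (w ∈ Y ↔ (s2 (slC hLa hC n hn) fr3 Tw l0').mu F w ∈ Y))
    {B : Set E3}
    (hB : ∀ x ∈ B, x ∈ (s2 (slC hLa hC n hn) fr3 Tw l0').P ∧
      (s2 (slC hLa hC n hn) fr3 Tw l0').lab x = Sum.inr m)
    (hBc : ∀ F x, x ∈ B → (s2 (slC hLa hC n hn) fr3 Tw l0').At F x →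
      (∀ y, (s2 (slC hLa hC n hn) fr3 Tw l0').At F y →
        (s2 (slC hLa hC n hn) fr3 Tw l0').lab y = Sum.inl j →
        ((slC hLa hC n hn).mn fr3).Lace F x ((s2 (slC hLa hC n hn) fr3 Tw l0').mu F x) y
          ((s2 (slC hLa hC n hn) fr3 Tw l0').mu F y) → y ∈ Y) →
      (s2 (slC hLa hC n hn) fr3 Tw l0').mu F x ∈ B)
    (hBf : ∀ x ∈ B, ∀ F, (s2 (slC hLa hC n hn) fr3 Tw l0').At F x →
      ¬ St.Frozen ((slC hLa hC n hn).mn fr3)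
        (ActR (slC hLa hC n hn) (Rdc T f Xᶜ (rout ρ3 d))) F) {h : E3} (hh : h ∈ B)
    (ho : (slC hLa hC n hn).Out h) :
    Ess5_95.ga Φ m.co (f h) < ρ3 m.co + 7 * d m.co := by
  by_contra hcon
  obtain ⟨k1, k2⟩ := s2_out (hB h hh).1 ho
  exact top_notin_m N hκ2 hW hLm hconn Ba D lo tt rec hrE posB ne hkB ham hbY hY hB hBc hBf hh
    (mem_gmT hLa Ba k1.1 (k2.symm.trans (hB h hh).2) (not_lt.1 hcon))

end mach

end Crest.Agent.R096.Tpn_72
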