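import Crest.Agent.R096.Nwi1_688
import Crest.Agent.R096.Ent1_527

/-!
# R096 (row 96), DOORS, NEWIN (helper688), part 3: the columns and the slice `jm`

`B` = a set of points of the name `i` in the state with layers `s2`, closed under the chords on the
faces of a set `Gd` of faces; the pattern of the family of `i` is the trace on the levels `≤ jm`.

* `Bcl`, `step_iff`, `col_iff` : a trace point `w` and its copies `hp c j w`, `j ≤ jm`;
* `slice`  : `B` on the slice `jm` consists of full curves of the trace;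
* `crv_B`  : a curve of the trace with a point of `B` over the zone has all its points over the zone
             in `B`;
* `outer_B`: all outer points over the zone which are joined in the full sheet over the zone.
-/

set_option autoImplicit false
set_option linter.unusedSectionVars false
set_option linter.style.longLine false

open Set Module
open scoped Classical

namespace Crest.Agent.R096.Nwi_688

open Crest.Agent.R096.Msh_715 Crest.Agent.R096.Agl5_543 Crest.Agent.R096.St_147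
  Crest.Agent.R096.Seq_213 Crest.Agent.R096.Door_501 Crest.Agent.R096.Sla_184
  Crest.Agent.R096.Twr_438 Crest.Agent.R096.Exa_560 Crest.Agent.R096.Ess3_95
  Crest.Agent.R096.Ess4_95 Crest.Agent.R096.Dfi_539 Crest.Agent.R096.Dfi_471
  Crest.Agent.R096.Yl_471
open Crest.Agent.R096.Sla_184.Sla (hf vf old tg F0 Fn Out OnS InL In)

variable {E : Type} [NormedAddCommGroup E] [NormedSpace ℝ E] [FiniteDimensional ℝ E]
variable {Om : Set E} {ι : Type} {T : Tiling Om ι} {κ : Type} {S : Sla T κ}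
  {h3 : finrank ℝ E = 3} {J C : Type} {fam : J → C}

section lay

variable {s : GSt (S.m0 h3) fam} {Tw : Twrs (S.sh h3) S.n s} {l0 : E → J}
  {c : κ} {a : C} {j : ℕ} {i : J} {w x : E} {B : Set E} {Gd : Set (S.Fn h3)}

/-- `B` consists of points of the name `i` and is closed under the chords on the faces of `Gd` -/
def Bcl (Tw : Twrs (S.sh h3) S.n s) (l0 : E → J) (i : J) (Gd : Set (S.Fn h3)) (B : Set E) : Prop :=
  (∀ x ∈ B, x ∈ (s2 S h3 Tw l0).P ∧ (s2 S h3 Tw l0).lab x = i) ∧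
  ∀ F ∈ Gd, ∀ x ∈ B, x ∈ (S.mn h3).On F → (s2 S h3 Tw l0).mu F x ∈ B

/-- one step in a column -/
theorem step_iff (hB : Bcl Tw l0 i Gd B) {e : S.Ed c} (hw : w ∈ e.1.opn) (hj : j < S.n c)
    (h1 : w ∈ ((Tw.tw c a).pat j).P) (h2 : w ∈ ((Tw.tw c a).pat (j + 1)).P)
    (hF : vf h3 e j ∈ Gd) : S.hp c j w ∈ B ↔ S.hp c (j + 1) w ∈ B := by
  have hF1 : S.hp c j w ∈ (S.mn h3).On (vf h3 e j) :=
    (Sla.on_vf_hp hj.le hj hw).2 ⟨rfl, Or.inl rfl⟩
  have hF2 : S.hp c (j + 1) w ∈ (S.mn h3).On (vf h3 e j) :=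
    (Sla.on_vf_hp hj hj hw).2 ⟨rfl, Or.inr rfl⟩
  have hx : (Sum.inl w : (S.sh h3 c).Pnt) ∈ ((Tw.tw c a).mv j).P' :=
    ((Tw.tw c a).mv j).top_mem_P'.2 h1
  have hxF : (Sum.inl w : (S.sh h3 c).Pnt) ∈ (S.sh h3 c).On (Sum.inr (Sum.inr e)) :=
    (S.sh h3 c).top_mem_vert.2 hw
  have hmu : (s2 S h3 Tw l0).mu (vf h3 e j) (S.hp c j w) = S.hp c (j + 1) w := by
    have h5 := mu_vf (l0 := l0) hj hx hxF
    rw [Move.mu'_vert_nqe _ _ (((Tw.tw c a).mv j).top_not_qe (Twrs.mem_B.2 h2))] at h5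
    exact h5
  have hP := mem_hp (l0 := l0) hj.le h1
  have hmu' : (s2 S h3 Tw l0).mu (vf h3 e j) (S.hp c (j + 1) w) = S.hp c j w := by
    rw [← hmu]
    exact (s2 S h3 Tw l0).mu_mu hP hF1
  constructor
  · intro h
    rw [← hmu]; exact hB.2 _ hF _ h hF1
  · intro h
    rw [← hmu']; exact hB.2 _ hF _ h hF2

/-- a column of a point which does not move up to the level `m` -/
theorem col_iff (hB : Bcl Tw l0 i Gd B) {e : S.Ed c} (hw : w ∈ e.1.opn) {m : ℕ} (hm : m ≤ S.n c)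
    (h1 : ∀ j, j ≤ m → w ∈ ((Tw.tw c a).pat j).P) (hF : ∀ j, j < m → vf h3 e j ∈ Gd) :
    w ∈ B ↔ S.hp c m w ∈ B := by
  induction m with
  | zero => rw [Sla.hp_zero]
  | succ m ih =>
    rw [ih (by omega) (fun j hj => h1 j (by omega)) (fun j hj => hF j (by omega))]
    exact step_iff hB hw (by omega) (h1 m (by omega)) (h1 (m + 1) le_rfl) (hF m (by omega))

end lay

section slice

variable {s : GSt (meshC T h3) fam} {r : J → E}
  {Tw : Twrs (S.sh h3) S.n (outK S.hH S.dis s r)} {l0 : E → J}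
  {c : κ} {i : J} {w w' : E} {B : Set E} {Gd : Set (S.Fn h3)} {m : ℕ}

theorem piK_inl_eq {K : κ → Set E} {q p : ι} (h : piK T K q = Sum.inl p) : q = p := by
  unfold piK at h
  split_ifs at h
  exact Sum.inl.inj h

/-- **the slice `m`**: `B` contains, with a copy of a trace point, the copies of its curve -/
theorem slice (hB : Bcl Tw l0 i Gd B) (hm : m ≤ S.n c)
    (hpat : (Tw.tw c (fam i)).pat m = trc S.hH S.dis s r c (fam i))
    (hG : ∀ G : (S.sh h3 c).Fk, hf G m ∈ Gd)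
    (hw : w ∈ (trc S.hH S.dis s r c (fam i)).P) (hwB : S.hp c m w ∈ B)
    (hcr : w' ∈ crv s (piK T S.K) (Sum.inr c) w) :
    w' ∈ (trc S.hH S.dis s r c (fam i)).P ∧ S.hp c m w' ∈ B := by
  have h1 : Relation.ReflTransGen (FStep s (piK T S.K) (Sum.inr c)) w w' := hcr
  clear hcr
  induction h1 with
  | refl => exact ⟨hw, hwB⟩
  | @tail y z _ hs ih =>
    obtain ⟨i1, i2⟩ := ih
    obtain ⟨F, hF, hy, hyF, rfl⟩ := hs
    let F' : S.F0 h3 := ⟨F, hF.1⟩
    let G : (S.sh h3 c).Fk := ⟨F', mem_map_iff.2 hF.2⟩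
    have h2 := (trc S.hH S.dis s r c (fam i)).mu_mem (F := G) i1 hyF
    refine ⟨h2.1, ?_⟩
    have hyp : y ∈ ((Tw.tw c (fam i)).pat m).P := by rw [hpat]; exact i1
    have hmu : (s2 S h3 Tw l0).mu (hf G m) (S.hp c m y) = S.hp c m (s.mu F y) := by
      by_cases h0 : m = 0
      · subst h0
        have h4 := (S.cols h3).hf_zero c G
        have h5 : (hf G 0 : S.Fn h3) = old G.1 := h4
        rw [h5, Sla.hp_zero, Sla.hp_zero]
        exact mu_old (l0 := l0) ((mem_trc.1 i1).1) hyF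
      · have h4 := mu_hf (l0 := l0) (Nat.pos_of_ne_zero h0) hm hyp (G := G) hyF
        rw [h4, hpat]
        rfl
    rw [← hmu]
    refine hB.2 _ (hG G) _ i2 ?_
    rw [Sla.on_hf hm]
    exact ⟨y, hyF, rfl⟩

/-- **one curve of the trace** -/
theorem crv_B (hB : Bcl Tw l0 i Gd B) {jm : κ → ℕ} (hjm : ∀ c, jm c ≤ S.n c)
    (hord : ∀ c j, j ≤ jm c → (Tw.tw c (fam i)).pat j = trc S.hH S.dis s r c (fam i))
    (hG : ∀ c, ∀ G : (S.sh h3 c).Fk, hf G (jm c) ∈ Gd)
    (hw : w ∈ (trc S.hH S.dis s r c (fam i)).P) {e e' : S.Ed c} (he : w ∈ e.1.opn)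
    (he' : w' ∈ e'.1.opn) (hv : ∀ j, j < jm c → vf h3 e j ∈ Gd)
    (hv' : ∀ j, j < jm c → vf h3 e' j ∈ Gd) (hwB : w ∈ B)
    (hcr : w' ∈ crv s (piK T S.K) (Sum.inr c) w) : w' ∈ B := by
  have h1 := (col_iff (a := fam i) hB he (hjm c) (fun j hj => by rw [hord c j hj]; exact hw) hv).1 hwB
  obtain ⟨h2, h4⟩ := slice hB (hjm c) (hord c _ le_rfl) (hG c) hw h1 hcr
  exact (col_iff (a := fam i) hB he' (hjm c) (fun j hj => by rw [hord c j hj]; exact h2) hv').2 h4

/-- **all outer points over the zone** -/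
theorem outer_B (h1 : s.H1 i) (hr : s.lab (r i) = i) (hB : Bcl Tw l0 i Gd B) {jm : κ → ℕ}
    (hjm : ∀ c, jm c ≤ S.n c)
    (hord : ∀ c j, j ≤ jm c → (Tw.tw c (fam i)).pat j = trc S.hH S.dis s r c (fam i))
    (hG : ∀ c, ∀ G : (S.sh h3 c).Fk, hf G (jm c) ∈ Gd) {Zf : Set (C2 T)}
    (hzo : ∀ F ∈ Zf, ∀ hd : ¬ (((meshC T h3).side F).map (piK T S.K)).IsDiag,
      (old ⟨F, hd⟩ : S.Fn h3) ∈ Gd)
    (hzv : ∀ c, ∀ e : S.Ed c, (∃ F ∈ Zf, InF (meshC T h3) (piK T S.K) (Sum.inr c) F ∧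
      ∃ w ∈ e.1.opn, w ∈ (meshC T h3).On F) → ∀ j, j < jm c → vf h3 e j ∈ Gd) {x y : E}
    (hx : x ∈ B) (hxo : x ∈ (outK S.hH S.dis s r).P) (hyo : y ∈ (outK S.hH S.dis s r).P)
    (hyl : s.lab y = i) (hxy : Relation.ReflTransGen (ZStep s Zf) x y) : y ∈ B := by
  have hlab : ∀ {z : E}, z ∈ B → z ∈ (outK S.hH S.dis s r).P → s.lab z = i := by
    intro z hz hzo
    have h2 := (hB.1 z hz).2
    rw [lab_old hzo] at h2
    exact h2
  have hPo : ∀ {z : E}, z ∈ B → Relation.ReflTransGen (OStep s (piK T S.K)) (r i) z → z ∈ s.P →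
      z ∈ (outK S.hH S.dis s r).P := by
    intro z hz hrz hzP
    refine ⟨hzP, ?_⟩
    rw [show s.lab z = i from (oreach_lab hrz).trans hr]
    exact hrz
  have htr : ∀ {c : κ} {z : E} {F : C2 T}, z ∈ B →
      Relation.ReflTransGen (OStep s (piK T S.K)) (r i) z → s.At F z →
      InF (meshC T h3) (piK T S.K) (Sum.inr c) F → F ∈ Zf →
      z ∈ (trc S.hH S.dis s r c (fam i)).P ∧ ∃ e : S.Ed c, z ∈ e.1.opn ∧
        ∀ j, j < jm c → vf h3 e j ∈ Gd := by
    intro c z F hz hrz hA hin hF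
    have h2 := hPo hz hrz hA.1
    obtain ⟨F0, hF0⟩ := Tw.on z h2
    obtain ⟨G, hG1, hG2⟩ := exists_frF (M := meshC T h3) (π := piK T S.K) hA.2 hin hF0
      (not_inF F0.2 _)
    let F' : S.F0 h3 := ⟨G, hG1.1⟩
    obtain ⟨e, -, -, he⟩ := ((S.sh h3 c).onE (F := F') (mem_map_iff.2 hG1.2)).1 hG2
    refine ⟨mem_trc.2 ⟨h2, ?_, e, he⟩, e, he, hzv c e ⟨F, hF, hin, z, he, hA.2⟩⟩
    rw [hlab hz h2]
  refine reenter (s := s) (π := piK T S.K) (i := i) h1 hr (Zf := Zf) (B := B) ?_ ?_ hx ?_ ?_ hxy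
  · intro F hF hd w hw hrw hA
    have h2 := hPo hw hrw hA.1
    have h4 := hB.2 _ (hzo F hF hd) w hw (by rw [Sla.on_old]; exact hA.2)
    have h5 := mu_old (Tw := Tw) (l0 := l0) (F := (⟨F, hd⟩ : S.F0 h3)) h2 hA.2
    rw [h5] at h4
    exact h4
  · intro k F hF hin F' hF' hin' w hw w' hrw hA hA' hcr
    rcases k with p | c
    · exfalso
      have h2 := (meshC T h3).side_nd F
      apply h2
      have h4 : ∀ q ∈ (meshC T h3).side F, q = p := by
        intro q hq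
        exact piK_inl_eq (hin q hq)
      revert h4
      induction (meshC T h3).side F using Sym2.ind with
      | _ a b =>
        intro h4
        rw [Sym2.mk_isDiag_iff, h4 a (Sym2.mem_mk_left _ _), h4 b (Sym2.mem_mk_right _ _)]
    · obtain ⟨g1, e, g2, g3⟩ := htr hw hrw hA hin hF
      by_cases hw'' : ∃ e' : S.Ed c, w' ∈ e'.1.opn ∧ ∀ j, j < jm c → vf h3 e' j ∈ Gd
      · obtain ⟨e', g4, g5⟩ := hw''
        exact crv_B hB hjm hord hG g1 g2 g4 g3 g5 hw hcr
      · exfalso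
        apply hw''
        have hrw' := hrw.trans (crv_ostep hcr)
        have h2 : w' ∈ (outK S.hH S.dis s r).P := by
          refine ⟨hA'.1, ?_⟩
          rw [show s.lab w' = i from (oreach_lab hrw').trans hr]
          exact hrw'
        obtain ⟨F0, hF0⟩ := Tw.on w' h2
        obtain ⟨G, hG1, hG2⟩ := exists_frF (M := meshC T h3) (π := piK T S.K) hA'.2 hin' hF0
          (not_inF F0.2 _)
        let F'' : S.F0 h3 := ⟨G, hG1.1⟩
        obtain ⟨e', -, -, he'⟩ := ((S.sh h3 c).onE (F := F'') (mem_map_iff.2 hG1.2)).1 hG2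
        exact ⟨e', he', hzv c e' ⟨F', hF', hin', w', he', hA'.2⟩⟩
  · have h2 := hxo.2
    rw [show s.lab x = i from hlab hx hxo] at h2
    exact h2
  · have h2 := hyo.2
    rw [hyl] at h2
    exact h2

end slice

end Crest.Agent.R096.Nwi_688
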