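import Crest.Agent.R096.Nwi2_688
import Crest.Agent.R096.Nwi3_688
import Crest.Agent.R096.Dfo1_539

/-!
# R096 (row 96), DOORS, NEWIN (helper688), part 4: the composition over `Sla`

`newin` : a new point `w` of `j` near the zone is in every closed set `X` which contains the points of
`j` on the giants. Inputs: `hord` (Ord), `late` (the points of `j` in the slice `jm`, on a face with a
barrier point), `no1`, `no2` (no points of `j` over the zone), `start` (walk in the layers),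
`conn` (the full sheet over the zone leads to a point which is not enclosed).
-/

set_option autoImplicit false
set_option linter.unusedSectionVars false
set_option linter.style.longLine false

open Set Module
open scoped Classical

namespace Crest.Agent.R096.Nwi_688

open Crest.Agent.R096.Msh_715 Crest.Agent.R096.Agl5_543 Crest.Agent.R096.St_147
  Crest.Agent.R096.Seq_213 Crest.Agent.R096.Door_501 Crest.Agent.R096.Sla_184
  Crest.Agent.R096.Twr_438 Crest.Agent.R096.Exa_560 Crest.Agent.R096.Ess3_95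
  Crest.Agent.R096.Ess4_95 Crest.Agent.R096.Dfi_539 Crest.Agent.R096.Dfi_471
  Crest.Agent.R096.Yl_471 Crest.Agent.R096.Dfo_539 Crest.Agent.R096.SecW_892
  Crest.Agent.R096.Cg_501 Crest.Agent.R096.Sgd_298
open Crest.Agent.R096.Sla_184.Sla (hf vf old tg F0 Fn Out OnS InL In)
open Crest.Agent.R096.Pbn_147 (K3)

variable {E : Type} [NormedAddCommGroup E] [NormedSpace ℝ E] [FiniteDimensional ℝ E]
variable {Om : Set E} {ι : Type} {T : Tiling Om ι} {κ : Type} {S : Sla T κ}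
  {h3 : finrank ℝ E = 3} {J C Mo : Type} {fam : J → C} {am : Mo → C}
  {s : GSt (meshC T h3) (Sum.map fam (id : Mo → Mo))} {r : J ⊕ Mo → E}
  {Tw : Twrs (S.sh h3) S.n (outK S.hH S.dis s r)} {l0 : E → J ⊕ Mo}
  {hs : BSep (s2 S h3 Tw l0) am} {hm : ∀ a, {m | am m = a}.Finite} {j0 : C → J}
  {hj0 : ∀ a, fam (j0 a) = a} {Act : C → Set (T.RIdx S.HH ⊕ κ)}
  {far : ∀ a, PN fam am a → Set E}
  {t : ∀ a, St (S.mn h3) (pcol fam am a)} {Ph : C → Finset E} {s₃ : GSt (S.mn h3) fam}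

/-- `F` is a face of a giant -/
def GiF (F : S.Fn h3) : Prop := ∃ c : κ, Sum.inr c ∈ (S.mn h3).side F

/-- **NEWIN** over `Sla` -/
theorem newin {K : Type} {Q : Quads (T.RIdx S.HH ⊕ κ) C K}
    (D : CutR (s2 S h3 Tw l0) hs hm j0 hj0 Act far t Ph s₃) {j : J} {k : K}
    (hK : ∀ q F F' h m, q ∈ (S.mn h3).side F → q ∈ (S.mn h3).side F' →
      (s2 S h3 Tw l0).At F' h → (s2 S h3 Tw l0).lab h = Sum.inr m → am m = fam j →
      ∀ w, s₃.At F w → s₃.lab w = j → Dinv_106.KFree s₃ Q k F w)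
    {X : Set E} (hX : Dinv_106.KCl s₃ Q j k X)
    -- the giants are not in `Act`
    (hAct : ∀ a c, Sum.inr c ∉ Act a)
    (hgi : ∀ F v, GiF F → s₃.At F v → s₃.lab v = j → v ∈ X)
    -- Ord
    {jm : κ → ℕ} (hjm : ∀ c, jm c ≤ S.n c)
    (hord : ∀ m, am m = fam j → ∀ c i, i ≤ jm c →
      (Tw.tw c (Sum.inr m)).pat i = trc S.hH S.dis s r c (Sum.inr m))
    (h1 : ∀ m, am m = fam j → s.H1 (Sum.inr m))
    (hr : ∀ m, am m = fam j → s.lab (r (Sum.inr m)) = Sum.inr m)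
    -- (L) the slice `jm`
    (late : ∀ Y : Set E,
      (∀ F v, (s2 S h3 Tw l0).At F v → (s2 S h3 Tw l0).lab v = Sum.inl j →
        K3 s₃ Q j k F v → (v ∈ Y ↔ (s2 S h3 Tw l0).mu F v ∈ Y)) →
      (∀ F v, GiF F → (s2 S h3 Tw l0).At F v → (s2 S h3 Tw l0).lab v = Sum.inl j → v ∈ Y) →
      ∀ c, ∀ G : (S.sh h3 c).Fk, ∀ m, am m = fam j → ∀ x y, (s2 S h3 Tw l0).At (hf G (jm c)) x →
        (s2 S h3 Tw l0).lab x = Sum.inr m → (s2 S h3 Tw l0).At (hf G (jm c)) y →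
        (s2 S h3 Tw l0).lab y = Sum.inl j → y ∈ Y)
    -- the zone of the barrier `m`
    (Zf : Mo → Set (C2 T)) (Zs : Mo → Set E)
    (no1 : ∀ m, am m = fam j → ∀ F ∈ Zf m, ∀ hd : ¬ (((meshC T h3).side F).map (piK T S.K)).IsDiag,
      ∀ y, (s2 S h3 Tw l0).At (old ⟨F, hd⟩) y → (s2 S h3 Tw l0).lab y ≠ Sum.inl j)
    (no2 : ∀ m, am m = fam j → ∀ c, ∀ e : S.Ed c, (∃ F ∈ Zf m,
      InF (meshC T h3) (piK T S.K) (Sum.inr c) F ∧ ∃ w ∈ e.1.opn, w ∈ (meshC T h3).On F) →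
      ∀ i, i < jm c → ∀ y, (s2 S h3 Tw l0).At (vf h3 e i) y → (s2 S h3 Tw l0).lab y ≠ Sum.inl j)
    {w : E} (hw : w ∈ s₃.P) (hl : s₃.lab w = j) (hws : w ∉ (s2 S h3 Tw l0).P)
    -- (U) from the new point to an outer point over the zone
    (start : ∀ m, am m = fam j → ∀ h, (s2 S h3 Tw l0).lab h = Sum.inr m → h ∈ (s2 S h3 Tw l0).P →
      (∀ F, w ∈ (S.mn h3).On F ↔ h ∈ (S.mn h3).On F) → ∀ B : Set E, h ∈ B →
      (∀ x ∈ B, x ∈ (s2 S h3 Tw l0).P ∧ (s2 S h3 Tw l0).lab x = Sum.inr m) →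
      (∀ F x, x ∈ B → (s2 S h3 Tw l0).At F x → (∀ y, (s2 S h3 Tw l0).At F y →
        (s2 S h3 Tw l0).lab y ≠ Sum.inl j) → (s2 S h3 Tw l0).mu F x ∈ B) →
      (∃ x ∈ B, x ∈ (outK S.hH S.dis s r).P ∧ x ∈ Zs m) ∨ ∃ x ∈ B, ∃ F, GiF F ∧
        (s2 S h3 Tw l0).At F x)
    -- (C) the full sheet over the zone, and a point which is not enclosed
    (conn : ∀ m, am m = fam j → ∀ x ∈ (outK S.hH S.dis s r).P, s.lab x = Sum.inr m → x ∈ Zs m →
      ∃ y ∈ (outK S.hH S.dis s r).P, s.lab y = Sum.inr m ∧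
        Relation.ReflTransGen (ZStep s (Zf m)) x y ∧ ¬ Encl (s2 S h3 Tw l0) am Act m y) :
    w ∈ X := by
  by_contra hwX
  obtain ⟨Y, hY, hcom, h, hh, m, hhl, ham, hnb, B, hhB, hB1, hB2, hB3⟩ :=
    new_cutG D hK hX hw hl hws hwX
  have hfz : ∀ {a F}, GiF F → St.Frozen (S.mn h3) (Act a) F := by
    rintro a F ⟨c, hc⟩
    exact ⟨_, hc, hAct a c⟩
  have hgY : ∀ F v, GiF F → (s2 S h3 Tw l0).At F v → (s2 S h3 Tw l0).lab v = Sum.inl j →
      v ∈ Y := by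
    intro F v hF hA hlv
    obtain ⟨e1, e2⟩ := (D.frozen (j := j) (w := v) (hfz hF)).2 ⟨hA, hlv⟩
    exact (hcom v hA.1 hlv e1.1).2 (hgi F v hF e1 e2)
  -- the good faces
  let Gd : Set (S.Fn h3) := {F | ∀ x, (s2 S h3 Tw l0).At F x → (s2 S h3 Tw l0).lab x = Sum.inr m →
    ∀ y, (s2 S h3 Tw l0).At F y → (s2 S h3 Tw l0).lab y = Sum.inl j → y ∈ Y}
  have hBc : Bcl Tw l0 (Sum.inr m) Gd B := by
    refine ⟨hB1, fun F hF x hx hxF => ?_⟩
    have hx1 := hB1 x hx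
    exact hB2 F x hx ⟨hx1.1, hxF⟩ fun y hyA hyl _ => hF x ⟨hx1.1, hxF⟩ hx1.2 y hyA hyl
  obtain ⟨x, hx, hxo, hxz⟩ : ∃ x ∈ B, x ∈ (outK S.hH S.dis s r).P ∧ x ∈ Zs m := by
    rcases start m ham h hhl hh hnb B hhB hB1 (fun F x hx hA hno => hB2 F x hx hA
      fun y hyA hyl _ => absurd hyl (hno y hyA)) with h2 | ⟨x, hx, F, hF, hA⟩
    · exact h2
    · exact absurd (hfz hF) (hB3 x hx F hA)
  have hxl : s.lab x = Sum.inr m := by
    have h2 := (hB1 x hx).2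
    rw [lab_old hxo] at h2
    exact h2
  obtain ⟨y, hyo, hyl, hxy, hne⟩ := conn m ham x hxo hxl hxz
  have hyB : y ∈ B := by
    refine outer_B (i := Sum.inr m) (h1 m ham) (hr m ham) hBc hjm
      (fun c i hi => hord m ham c i hi) ?_ (Zf := Zf m) ?_ ?_ hx hxo hyo hyl hxy
    · intro c G x' hx' hxl' y' hy' hyl'
      exact late Y hY hgY c G m ham x' y' hx' hxl' hy' hyl'
    · intro F hF hd x' _ _ y' hy' hyl'
      exact absurd hyl' (no1 m ham F hF hd y' hy')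
    · intro c e he i hi x' _ _ y' hy' hyl'
      exact absurd hyl' (no2 m ham c e he i hi y' hy')
  refine hne ⟨B, hyB, hB1, ?_, fun F x hx hA => hB3 x hx F hA⟩
  intro F x hx hA hno
  refine hB2 F x hx hA fun y hyA hyl hla => ?_
  exact absurd hla (hno y hyA ⟨j, hyl, ham.symm⟩)

end Crest.Agent.R096.Nwi_688
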