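import Crest.Agent.R096.Upd2_645
import Crest.Agent.R096.Nwi4_688
import Crest.Agent.R096.Zcn1_143
import Crest.Agent.R096.Dib6_438
import Crest.Agent.R096.Dff5_539

/-!
# R096 (row 96), DOORS, NEWIN (helper645): **688's input `start` of `Nwi_688.newin`, MACHINE**

`start_m` : letters of 895's `Mach` (`N bar D lo tt mon monT rec`), both ends (`b = false` : low).
-/

set_option autoImplicit false
set_option linter.unusedSectionVars false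
set_option linter.unusedVariables false
set_option linter.style.longLine false

open Set Topology Filter Metric Module Relation
open scoped Classical

namespace Crest.Agent.R096.Upd_645

open Crest.Agent.R096.Msh_715 Crest.Agent.R096.Coh_184 Crest.Agent.R096.Lab_184
  Crest.Agent.R096.Main_4 Crest.Agent.R096.Agl5_543
  Crest.Agent.R096.Seq_213 Crest.Agent.R096.St_147 Crest.Agent.R096.Door_501
  Crest.Agent.R096.Twr_438 Crest.Agent.R096.Exa_560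
  Crest.Agent.R096.Ess3_95 Crest.Agent.R096.Ess4_95 Crest.Agent.R096.Ac_117 Crest.Agent.R096.Lm_117
  Crest.Agent.R096.Dfi_539 Crest.Agent.R096.Dfi_471 Crest.Agent.R096.Dfo_539
  Crest.Agent.R096.Sla_184 Crest.Agent.R096.Gm_298
  Crest.Agent.R096.Brk1_582 Crest.Agent.R096.Brk2_582 Crest.Agent.R096.Brk3_582
  Crest.Agent.R096.Brk5_582 Crest.Agent.R096.Bsp_628 Crest.Agent.R096.Init_543
  Crest.Agent.R096.Lv3_471 Crest.Agent.R096.Lv4_471 Crest.Agent.R096.Slt_471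
  Crest.Agent.R096.Dib_438 Crest.Agent.R096.Rop_441 Crest.Agent.R096.Frk_441
  Crest.Agent.R096.Dff_539 Crest.Agent.R096.Frs_662 Crest.Agent.R096.Qdl_662
  Crest.Agent.R096.Dfg_539 Crest.Agent.R096.Nmd1_698 Crest.Agent.R096.Lbc_334
  Crest.Agent.R096.Nwi_688 Crest.Agent.R096.Bar_106 Crest.Agent.R096.Bgf_4
open Crest.Agent.R096.Mbf_337 (KJ Tiny Cores Fine sb gau)
open Crest.Agent.R096.SkC1_961 (E3 FoamD Hom3)
open Crest.Agent.R096.Frn_337 (Ti)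
open Crest.Agent.R096.Ess7_95 (KT Sh)
open Crest.Agent.R096.Dff_539 (vS)
open Crest.Agent.R096.Bmf_416 (coT)
open Crest.Agent.R096.St_147.St (Frozen)

variable {δ κ0 R c0 : ℝ} {La Om : Set E3} {ι : Type} {Φ : FoamD δ κ0 R c0 La} {T : Tiling Om ι}
  {f g : E3 → E3} {κ1 κ2 μ : ℝ} {X : Set Φ.F} {J0 J V : Φ.F → Set ι}
  {ct ct' : Φ.F → ι} {A : Φ.F → E3 ≃ᵃ[ℝ] E3} {lam : Φ.F → ℝ} {z : Φ.F → E3}
  {θ : Φ.F → E3 → E3} {φ : Φ.F → E3 → ℝ} {r₀ : Φ.F → ℝ}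
  {L : Φ.F → Finset ℝ} [Nonempty (JJ Φ L)] {hG : GF Φ r₀ T f L} {bp : JJ Φ L → E3}
  {N' : BM Φ X → Set ℝ} {ρ1 ρ2 ρ3 ρ4 d : Φ.F → ℝ} {q₀ : BM Φ X → E3} {ε : BM Φ X → ℝ}
  {bm : BM Φ X → E3} {hGB : GFB Φ r₀ T f L (lRc Φ X μ ρ1 ρ3 d) ε}
  {v0F v1F : ∀ c, Φ.F → VxK T (KT T J X) c} {v0B v1B : ∀ c, BM Φ X → VxK T (KT T J X) c}
  {hLa : IsOpen La} {hC : Cores Φ T f κ1 κ2 X J0 J V ct A lam z θ φ}
  {n : Ti X → ℕ} {hn : ∀ c, 0 < n c} {r : JJ Φ L ⊕ BM Φ X → E3}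
  {Sf : JJ Φ L ⊕ BM Φ X → Set E3}
  {Lv : ∀ c, Φ.F ⊕ BM Φ X → Lev T (frontier ((slC hLa hC n hn).K c)) (JJ Φ L ⊕ BM Φ X)}
  {Tw : Twrs ((slC hLa hC n hn).sh fr3) (slC hLa hC n hn).n
    (outK (slC hLa hC n hn).hH (slC hLa hC n hn).dis (stB hGB bp bm) r)}
  {l0' : E3 → JJ Φ L ⊕ BM Φ X}

/-- the levels on a tile with a barrier point -/
theorem osc_bar
    (bar : BarOut Φ T f κ1 μ X J0 J V θ hG bp N' ρ1 ρ2 ρ3 ρ4 d q₀ ε bm hGB v0B v1B)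
    {m : BM Φ X} {w : E3} (hw : w ∈ (stB hGB bp bm).P)
    (hl : (stB hGB bp bm).lab w = Sum.inr m) {q : ι} (hq : w ∈ P (T.H q)) {y : E3}
    (hy : y ∈ P (T.H q)) (e : Φ.F) : |Φ.lev e (f w) - Φ.lev e (f y)| ≤ κ1 := by
  have h1 := (Zcn_143.gsD_tile bar (Zcn_143.mem_GsD bar hw hl (D := Set.univ) trivial) hq).2.2.2
    y hy
  exact (h1.2.2 e).trans (bar.rm m.co m.co_notMem).1

/-- **688's `start`, MACHINE** -/
theorem start_m (N : NumD δ κ0 R c0 κ2 μ κ1)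
    (bar : BarOut Φ T f κ1 μ X J0 J V θ hG bp N' ρ1 ρ2 ρ3 ρ4 d q₀ ε bm hGB v0B v1B)
    (D : DIn (slC hLa hC n hn).hH (stB hGB bp bm) r Sf (nbA Φ X) (vS v0F v0B) (vS v1F v1B)
      (uA Φ hLa X θ) (AA Φ X μ κ1) (BA Φ X μ))
    (lo : LevOut (Kc := (slC hLa hC n hn).K) (stB hGB bp bm) (nbA Φ X) (uA Φ hLa X θ)
      (AA Φ X μ κ1) (BA Φ X μ) Lv)
    (tt : TwOut (slC hLa hC n hn) fr3 (stB hGB bp bm) r (vS v0F v0B) (vS v1F v1B) Lv Tw)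
    (mon : Mon (slC hLa hC n hn) fr3 Lv Tw)
    (monT : ∀ c a j, ∀ w ∈ (trc (slC hLa hC n hn).hH (slC hLa hC n hn).dis (stB hGB bp bm)
      r c a).P, w ∈ ((Tw.tw c a).pat (j + 1)).P → w ∈ ((Tw.tw c a).pat j).P)
    (rec : BR hLa (stB hGB bp bm) f X J θ coT BM.am BM.Zm (nbA Φ X) (vS v0F v0B) (vS v1F v1B)
      (uA Φ hLa X θ) (AA Φ X μ κ1) (BA Φ X μ) μ κ1)
    {j : JJ Φ L} {w : E3} {p : T.RIdx (slC hLa hC n hn).HH}
    (hpK : ∀ k, ¬ P ((slC hLa hC n hn).T3.H p) ⊆ (slC hLa hC n hn).KK k)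
    (hwp : w ∈ P ((slC hLa hC n hn).T3.H p)) {m : BM Φ X} (ham : m.am = j.1) (b : Bool)
    (hz : ∃ x ∈ P (T.H p.tile), (b = false → Φ.lev m.am (f x) ≤ 3 * μ / 8) ∧
      (b = true → 1 - 3 * μ / 8 ≤ Φ.lev m.am (f x)))
    {h : E3} (hhl : (s2 (slC hLa hC n hn) fr3 Tw l0').lab h = Sum.inr m)
    (hh : h ∈ (s2 (slC hLa hC n hn) fr3 Tw l0').P)
    (hF : ∀ F, w ∈ ((slC hLa hC n hn).mn fr3).On F ↔ h ∈ ((slC hLa hC n hn).mn fr3).On F)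
    {B : Set E3} (hhB : h ∈ B)
    (hB1 : ∀ x ∈ B, x ∈ (s2 (slC hLa hC n hn) fr3 Tw l0').P ∧
      (s2 (slC hLa hC n hn) fr3 Tw l0').lab x = Sum.inr m)
    (hB2 : ∀ F x, x ∈ B → (s2 (slC hLa hC n hn) fr3 Tw l0').At F x →
      (∀ y, (s2 (slC hLa hC n hn) fr3 Tw l0').At F y →
        (s2 (slC hLa hC n hn) fr3 Tw l0').lab y ≠ Sum.inl j) →
      (s2 (slC hLa hC n hn) fr3 Tw l0').mu F x ∈ B) :
    (∃ x ∈ B, x ∈ (outK (slC hLa hC n hn).hH (slC hLa hC n hn).dis (stB hGB bp bm) r).P ∧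
      (b = false → Φ.lev m.am (f x) ≤ 7 * μ / 16) ∧
      (b = true → 1 - 7 * μ / 16 ≤ Φ.lev m.am (f x))) ∨
    ∃ x ∈ B, ∃ F, GiF (S := slC hLa hC n hn) (h3 := fr3) F ∧
      (s2 (slC hLa hC n hn) fr3 Tw l0').At F x := by
  obtain ⟨n1, n2, n3, n4, n5, n6⟩ := N.base
  -- the tile of `h`
  have hKK := (Lay_316.lay_sla hLa hC n hn).core
  have hhp : h ∈ P ((slC hLa hC n hn).T3.H p) := by
    have hw' : w ∈ Om ∧ (slC hLa hC n hn).T3.dim w = 1 := by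
      obtain ⟨q, hq, hqK⟩ := s2_tile hh
      obtain ⟨F, hF1, -, -⟩ := exists_faceK (h3 := fr3) (hH := hKK)
        (hdis := (slC hLa hC n hn).dis_KK) (s2_dim hh).1 (s2_dim hh).2 hq hqK
      have h1 := on_not_int (hH := hKK) (hdis := (slC hLa hC n hn).dis_KK) ((hF F).2 hF1)
      exact ⟨h1.1, h1.2.1⟩
    exact same_tile (h3 := fr3) (hH := hKK) (hdis := (slC hLa hC n hn).dis_KK) hw'.1 hw'.2 hF
      hwp hpK
  by_cases hg : ∃ x ∈ B, ∃ F, GiF (S := slC hLa hC n hn) (h3 := fr3) F ∧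
      (s2 (slC hLa hC n hn) fr3 Tw l0').At F x
  · exact Or.inr hg
  left
  rcases Sla.out_or (S := slC hLa hC n hn) (s2_dim hh).1 with ho | ⟨c, hc⟩
  · obtain ⟨g1, g2, g3⟩ := out2 hh ho
    rw [hhl] at g2
    obtain ⟨x0, hx0, hx1, hx2⟩ := hz
    have h1 := abs_le.1 (osc_bar bar g1 g2.symm (Sla.P3_sub p hhp) hx0 m.am)
    refine ⟨h, hhB, g3, fun hb => ?_, fun hb => ?_⟩
    · linarith [hx1 hb, h1.2]
    · linarith [hx2 hb, h1.1]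
  · -- a giant is frozen for `Act = ∅`
    obtain ⟨e', w', g1, g2, g3, g4, g5⟩ := updown_m (Act := {q | ∃ p, q = Sum.inl p}) N D lo tt mon
      monT rec hh hhl hc (by rintro ⟨q, hq⟩; cases hq) hhB
      (fun F x hx hA hxl hno => hB2 F x hx hA fun y hy hyl => hno y hy j hyl ham.symm)
      (fun F x hx hA hxl hfr => by
        obtain ⟨q, hq, hqA⟩ := hfr
        rcases q with q | c'
        · exact hqA ⟨q, rfl⟩
        · exact hg ⟨x, hx, F, ⟨c', hq⟩, hA⟩) hhp b hz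
    exact ⟨w', g3, (mem_trc.1 g2).1, g5⟩

end Crest.Agent.R096.Upd_645
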