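import Crest.Agent.R096.Wy2_664
import Crest.Agent.R096.Cns4_778

/-!
# Row 96, DOORS (helper72): barrier points on the HIGH end wall of a box, outside the core

* `exists_wall_gen_hi`, `exists_wall_hi` : 664's `exists_wall_gen`, `exists_wall` at the other end wall;
* `wall_both` : over 438's `BarOut`, both ends: the top point at which the walks of NEWIN end.
-/

set_option autoImplicit false
set_option linter.unusedSectionVars false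
set_option linter.unusedVariables false
set_option linter.style.longLine false

open Set Topology Filter Metric Module MeasureTheory
open scoped Classical

namespace Crest.Agent.R096.Whi_72

open Crest.Agent.R096.Msh_715 Crest.Agent.R096.Coh_184 Crest.Agent.R096.Bsp_628
  Crest.Agent.R096.Brk1_582 Crest.Agent.R096.Brk2_582 Crest.Agent.R096.Brk3_582
  Crest.Agent.R096.Brk5_582 Crest.Agent.R096.Init_543 Crest.Agent.R096.Mbf_337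
  Crest.Agent.R96.Push_899 Crest.Agent.R096.Ess1_95 Crest.Agent.R096.Ess4_95
  Crest.Agent.R096.Ess5_95 Crest.Agent.R096.Ess6_95 Crest.Agent.R096.Ess7_95
  Crest.Agent.R096.Lab_184 Crest.Agent.R096.Seq_213 Crest.Agent.R096.Seq_213.GSt
  Crest.Agent.R096.Main_4 Crest.Agent.R096.Exa_560 Crest.Agent.R096.Agl4_543
  Crest.Agent.R096.Agl5_543 Crest.Agent.R096.Agl6_543 Crest.Agent.R096.Agl8_543
  Crest.Agent.R096.Ebr1_95 Crest.Agent.R096.Ebr2_95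
  Crest.Agent.R096.Ebr3_95 Crest.Agent.R096.Ebr4_95 Crest.Agent.R096.Ebr5_95
  Crest.Agent.R096.Ebr6_95 Crest.Agent.R096.Bar_106 Crest.Agent.R096.Wy_664
  Crest.Agent.R096.Bgf_4 Crest.Agent.R096.Dib_438 Crest.Agent.R096.Sphg_316

open Crest.Agent.R096.SkC1_961 (E3 Hom3 IsPush FoamD)

section gen

variable {δ κ0 R c0 : ℝ} {La Om : Set E3} {ι : Type} {Φ : FoamD δ κ0 R c0 La}
  {T : Tiling Om ι} {f g : E3 → E3} {J0 J V : Φ.F → Set ι} {θ : Φ.F → E3 → E3}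

variable {Mo' : Type} {co : Mo' → Φ.F} {ρ1 ρ2 ρ3 ρ4 d : Mo' → ℝ} {G : Mo' → E3 → ℝ}
  {rm h lo hi ω : Mo' → ℝ} {q₀ : Mo' → E3} {g0 : Mo' → ℝ}
  {r₀ : Φ.F → ℝ} {L : Φ.F → Finset ℝ} [Nonempty (JJ Φ L)] {ε : Mo' → ℝ}
  {bp : JJ Φ L → E3} {bm : Mo' → E3}

/-- **barrier points on the HIGH end wall** of the box at the gauge `t` -/
theorem exists_wall_gen_hi (hLa : IsOpen La) (hδ : 0 < δ) (hR : 0 < R) (H : Hm f g Om La)
    (hB : BarF Φ T f J0 J V θ co ρ1 ρ2 ρ3 ρ4 d G rm h lo hi ω q₀ g0)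
    (hGB : GFB Φ r₀ T f L (lM Φ co rm h hi G) ε) {m : Mo'} (hε : ε m ∈ Ioo (lo m) (hi m))
    {l0 mm ra hN' : ℝ} (hN : Nm l0 mm ra hN') {a p q : Φ.F} {Z : Set Φ.F}
    (hM : Mo (Pc Φ.F) (co m) a Z p q) (hGm : G m = gmf Φ l0 mm ra a Z)
    (hω : 0 < ω m) {b0 : ℝ} (n1 : g0 m ≤ b0) (n2 : ω m ≤ b0) (n3 : b0 + ω m < ε m)
    (n4 : ε m + 2 * ω m < hN')
    {t : ℝ} (ht0 : rm m - h m * ε m + 3 * d m ≤ t) (ht1 : t ≤ rm m + h m * ε m - 3 * d m)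
    {lm : E3 → ZMod 2} (hlam : IsLab T (gPts (stB hGB bp bm) (Sum.inr m)) lm)
    (LOW : ∀ b, b + ω m < ε m → IsPreconnected {q | q ∈ frontier (co m).1.set ∧ G m q ≤ b} →
      G m (q₀ m) ≤ b → ∀ v ∈ Om, T.dim v = 0 → rm m - h m * ε m + 2 * d m ≤ ga Φ (co m) (f v) →
        ga Φ (co m) (f v) ≤ rm m + h m * ε m - 2 * d m → G m (Φ.Psi (f v)) ≤ b → lm v = 1)
    (HIGH : ∀ b, ε m + ω m < b → IsPreconnected {q | q ∈ frontier (co m).1.set ∧ b ≤ G m q} →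
      {q | q ∈ frontier (co m).1.set ∧ b ≤ G m q}.Nonempty → ∀ v ∈ Om, T.dim v = 0 →
        (ga Φ (co m) (f v) ≤ rm m - h m * ε m - 2 * d m ∨
          rm m + h m * ε m + 2 * d m ≤ ga Φ (co m) (f v) ∨ b ≤ G m (Φ.Psi (f v))) → lm v = 0) :
    ∃ u ∈ (stB hGB bp bm).P, (stB hGB bp bm).lab u = Sum.inr m ∧
      u ∈ Om ∧ t - d m ≤ ga Φ (co m) (f u) ∧ ga Φ (co m) (f u) ≤ t + d m ∧
      G m (Φ.Psi (f u)) = ε m ∧
      ∃ i ∈ V (co m), u ∈ P (T.H i) ∧ ∃ x ∈ P (T.H i), ga Φ (co m) (f x) = t ∧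
        mm + ra * (ε m - ω m) ≤ Φ.lev a (f x) ∧ mm + ra * (ε m - ω m) - d m ≤ Φ.lev a (f u) ∧
        ∀ e, dv a Z (fun e => Φ.lev e (f x)) e = 0 := by
  have hr := hB.room m
  have hd := hr.d0
  have hh := hB.h0 m
  have FF := foam Φ.bf hLa
  have hGM : GM Φ (co m) (G m) 0 hN' := by
    rw [hGm]; exact gm_moat hLa hδ hR hM hN
  have hNp := hN.hhi
  have hra := hN.hra
  have hN0 := hN.m0
  have hN1 := hN.m1
  have hrN : 0 < ra * hN' := mul_pos hra hNp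
  have hRct : ∀ s ∈ Icc mm (mm + ra * hN'), ((s, 0) : ℝ × ℝ) ∈ Rct := fun s hs =>
    ⟨⟨by linarith [hs.1], by linarith [hs.2]⟩, ⟨by norm_num, by norm_num⟩⟩
  have hGs : ∀ s ∈ Icc mm (mm + ra * hN'), G m (gam (bc (F := Φ.F)) a Z p q (s, 0)) =
      (s - mm) / ra := by
    intro s hs
    rw [hGm, gmf_gam hLa hM (hRct s hs)]
    show max (|(0 : ℝ)| / l0) (|s - mm| / ra) = _
    rw [abs_zero, zero_div, abs_of_nonneg (by linarith [hs.1])]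
    exact max_eq_right (div_nonneg (by linarith [hs.1]) hra.le)
  set A : Set E3 := (fun s : ℝ => gam (bc (F := Φ.F)) a Z p q (s, 0)) ''
    Icc mm (mm + ra * hN') with hA
  have hAf : A ⊆ frontier (co m).1.set := by
    rintro _ ⟨s, hs, rfl⟩
    exact gam_fr hLa hM (hRct s hs)
  have hAc : IsPreconnected A := by
    refine isPreconnected_Icc.image _ ?_
    refine (hM.continuousOn_gam FF).comp (Continuous.continuousOn (by fun_prop)) ?_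
    intro s hs
    exact hRct s hs
  have hma : mm ∈ Icc mm (mm + ra * hN') := ⟨le_rfl, by linarith⟩
  have hmb : mm + ra * hN' ∈ Icc mm (mm + ra * hN') := ⟨by linarith, le_rfl⟩
  obtain ⟨i, ⟨x, hxi, hxt, hxA⟩, u, hu, hul, hui⟩ := reach_wall hLa H hB hGB hε hGM
    (b0 := b0) (b1 := hN' - ω m) (by linarith) n1 n3 (by linarith) (by linarith) ht0 ht1 hAf hAc
    (mem_image_of_mem _ hma) (mem_image_of_mem _ hmb)
    (by
      show G m (gam (bc (F := Φ.F)) a Z p q (mm, 0)) + ω m ≤ b0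
      rw [hGs mm hma, sub_self, zero_div, zero_add]; exact n2)
    (by
      show hN' - ω m + ω m ≤ G m (gam (bc (F := Φ.F)) a Z p q (mm + ra * hN', 0))
      rw [hGs _ hmb, add_sub_cancel_left, mul_div_cancel_left₀ _ hra.ne', sub_add_cancel])
    hlam LOW HIGH
  have hSB := (hGB.mem_pts_iff (w := u) (i := Sum.inr m)).1 ⟨hu.1, hul⟩
  have hS : u ∈ Om ∧ lM Φ co rm h hi G m (f u) = ε m := hSB.1
  have m1 : h m * lo m ≤ h m * ε m := mul_le_mul_of_nonneg_left hε.1.le hh.le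
  have m2 : h m * ε m ≤ h m * hi m := mul_le_mul_of_nonneg_left hε.2.le hh.le
  have ht0' : ρ1 m ≤ ga Φ (co m) (f x) := by rw [hxt]; linarith [hB.a0 m]
  have htρ : ga Φ (co m) (f x) ≤ ρ4 m := by rw [hxt]; linarith [hB.a1' m]
  have hosc := hr.tile_osc hxi ht0' htρ hui
  have hGo := hB.osc m i x hxi ht0' htρ u hui
  have o1 := abs_le.1 hosc.1
  have o2 := abs_le.1 hGo
  have o3 := abs_le.1 (hosc.2.2 a)
  rw [hxt] at o1
  obtain ⟨-, -, -, h4⟩ := hB.pos hε.2 hS.2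
  have hGu : G m (Φ.Psi (f u)) = ε m := by
    rcases h4 with h4 | h4 | h4
    · exfalso; linarith [o1.2]
    · exfalso; linarith [o1.1]
    · exact h4
  obtain ⟨s, hs, hsx⟩ := hxA
  have hsx' : Φ.Psi (f x) = gam (bc (F := Φ.F)) a Z p q (s, 0) := hsx.symm
  have hsb : ∀ e, Φ.lev e (f x) = uu a Z p q s 0 e := by
    intro e
    show sc (Pc Φ.F) (bc (F := Φ.F)) (Φ.Psi (f x)) e = _
    rw [hsx', hM.sc_gam FF (hRct s hs)]
  rw [hsx', hGs s hs, hGu] at o2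
  have hsle : mm + ra * (ε m - ω m) ≤ s := by
    have h5 : ε m - ω m ≤ (s - mm) / ra := by linarith [o2.1]
    rw [le_div_iff₀ hra] at h5
    linarith
  have hla : Φ.lev a (f x) = s := by rw [hsb a, uu_a]
  refine ⟨u, hu, hul, hS.1, by linarith [o1.2], by linarith [o1.1], hGu, i,
    (hr.tile hxi ht0' htρ).1, hui, x, hxi, hxt, by rw [hla]; exact hsle,
    by rw [hla] at o3; linarith [o3.2], fun e => ?_⟩
  have h6 : (fun e => Φ.lev e (f x)) = uu a Z p q s 0 := funext hsb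
  rw [h6, dv_uu]
  simp

end gen

section rec

variable {δ κ0 R c0 : ℝ} {La Om : Set E3} {ι : Type} {Φ : FoamD δ κ0 R c0 La}
  {T : Tiling Om ι} {f g : E3 → E3}
variable {X : Set Φ.F} {J0 J V : Φ.F → Set ι} {θ : Φ.F → E3 → E3} {κ1 : ℝ}
  {ρ1 ρ2 ρ3 ρ4 d : Φ.F → ℝ} {r₀ : Φ.F → ℝ} {L : Φ.F → Finset ℝ} [Nonempty (JJ Φ L)]
  {bp : JJ Φ L → E3} {bm : BM Φ X → E3} {ε : BM Φ X → ℝ} {q₀ : BM Φ X → E3}

/-- **THE HIGH WALL POINT** of the moat `m` (numbers of record: `l0 = μ / 8`, `mm = 1/2`,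
`ra = 1/2 - 5 μ / 16`, `sg ≤ μ / 16`, `d ≤ κ1`) -/
theorem exists_wall_hi (hLa : IsOpen La) (hδ : 0 < δ) (hR : 0 < R) (H : Hm f g Om La)
    {μ : ℝ} (hμ : 0 < μ) (hμ1 : μ ≤ 1 / 2) {sg : ℝ} (hsg : sg ≤ μ / 16)
    (hBF : BarF Φ T f J0 J V θ (fun m : BM Φ X => m.co) (fun m => ρ1 m.co)
        (fun m => ρ2 m.co) (fun m => ρ3 m.co) (fun m => ρ4 m.co) (fun m => d m.co)
        (fun m => gmf Φ (μ / 8) (1 / 2) (1 / 2 - 5 * μ / 16) m.am m.Zm) (fun m => rB ρ1 ρ3 d m.co)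
        (fun m => hB ρ1 ρ3 d m.co) (fun _ => 1) (fun m => hiB ρ1 ρ3 d sg m.co)
        (fun m => max (d m.co / (μ / 8)) (d m.co / (1 / 2 - 5 * μ / 16))) q₀ (fun _ => 0))
    (hGB : GFB Φ r₀ T f L (lBM Φ X ρ1 ρ3 d sg (μ / 8) (1 / 2) (1 / 2 - 5 * μ / 16)) ε)
    (hε : ∀ m, ε m ∈ Ioo 1 (hiB ρ1 ρ3 d sg m.co)) (m : BM Φ X)
    (hdm : d m.co ≤ μ ^ 2 / 512) {lm : E3 → ZMod 2}
    (hlm : FarL T (Om ∩ f ⁻¹' {y | ga Φ m.co y ≤ ρ4 m.co}) (gPts (stB hGB bp bm) (Sum.inr m)) lm)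
    (LOW : ∀ b, b + max (d m.co / (μ / 8)) (d m.co / (1 / 2 - 5 * μ / 16)) < ε m →
          IsPreconnected {q | q ∈ frontier m.co.1.set ∧
            gmf Φ (μ / 8) (1 / 2) (1 / 2 - 5 * μ / 16) m.am m.Zm q ≤ b} →
          0 ≤ b → ∀ v ∈ Om, T.dim v = 0 →
          rB ρ1 ρ3 d m.co - hB ρ1 ρ3 d m.co * ε m + 2 * d m.co ≤ ga Φ m.co (f v) →
          ga Φ m.co (f v) ≤ rB ρ1 ρ3 d m.co + hB ρ1 ρ3 d m.co * ε m - 2 * d m.co →
          gmf Φ (μ / 8) (1 / 2) (1 / 2 - 5 * μ / 16) m.am m.Zm (Φ.Psi (f v)) ≤ b → lm v = 1)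
    (HIGH : ∀ b, ε m + max (d m.co / (μ / 8)) (d m.co / (1 / 2 - 5 * μ / 16)) < b →
          IsPreconnected {q | q ∈ frontier m.co.1.set ∧
            b ≤ gmf Φ (μ / 8) (1 / 2) (1 / 2 - 5 * μ / 16) m.am m.Zm q} →
          {q | q ∈ frontier m.co.1.set ∧
            b ≤ gmf Φ (μ / 8) (1 / 2) (1 / 2 - 5 * μ / 16) m.am m.Zm q}.Nonempty →
          ∀ v ∈ Om, T.dim v = 0 →
            (ga Φ m.co (f v) ≤ rB ρ1 ρ3 d m.co - hB ρ1 ρ3 d m.co * ε m - 2 * d m.co ∨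
              rB ρ1 ρ3 d m.co + hB ρ1 ρ3 d m.co * ε m + 2 * d m.co ≤ ga Φ m.co (f v) ∨
              b ≤ gmf Φ (μ / 8) (1 / 2) (1 / 2 - 5 * μ / 16) m.am m.Zm (Φ.Psi (f v))) → lm v = 0) :
    ∃ w ∈ (stB hGB bp bm).P, (stB hGB bp bm).lab w = Sum.inr m ∧ w ∈ Om ∧
      ρ3 m.co + 8 * d m.co ≤ ga Φ m.co (f w) ∧ ga Φ m.co (f w) ≤ ρ3 m.co + 10 * d m.co ∧
      gmf Φ (μ / 8) (1 / 2) (1 / 2 - 5 * μ / 16) m.am m.Zm (Φ.Psi (f w)) = ε m ∧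
      1 - 3 * μ / 8 ≤ Φ.lev m.am (f w) ∧
      ∃ q ∈ V m.co, w ∈ P (T.H q) ∧ ∃ x ∈ P (T.H q), ga Φ m.co (f x) = ρ3 m.co + 9 * d m.co ∧
        1 - 3 * μ / 8 ≤ Φ.lev m.am (f x) ∧
        ∀ e, dv m.am m.Zm (fun e => Φ.lev e (f x)) e = 0 := by
  obtain ⟨p, q, hM⟩ := m.mo
  have hr := hBF.room m
  have hd := hr.d0
  have h12 := hr.r12
  have h23 := hr.r23
  have hh := hBF.h0 m
  have hra : 0 < 1 / 2 - 5 * μ / 16 := by linarith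
  have hω : 0 < max (d m.co / (μ / 8)) (d m.co / (1 / 2 - 5 * μ / 16)) :=
    lt_max_of_lt_left (by positivity)
  have hω1 : max (d m.co / (μ / 8)) (d m.co / (1 / 2 - 5 * μ / 16)) ≤ μ / 64 := by
    refine max_le ?_ ?_
    · rw [div_le_iff₀ (by positivity)]
      nlinarith
    · rw [div_le_iff₀ hra]
      nlinarith
  have hεm := hε m
  have h1 : hB ρ1 ρ3 d m.co * 1 ≤ hB ρ1 ρ3 d m.co * ε m :=
    mul_le_mul_of_nonneg_left hεm.1.le hh.le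
  have e1 := rB_sub (ρ1 := ρ1) (ρ3 := ρ3) (d := d) m.co
  have e2 := rB_add (ρ1 := ρ1) (ρ3 := ρ3) (d := d) m.co
  have hhi := hiB_le (ρ1 := ρ1) (ρ3 := ρ3) (d := d) (c := m.co) sg
  obtain ⟨u, hu, hul, huO, g1, g2, g3, i, hi, hui, x, hx, hxt, hl1, hl2, hdv⟩ :=
    exists_wall_gen_hi (m := m) (t := ρ3 m.co + 9 * d m.co) (b0 := 1 / 8) (hN' := 1 + μ / 2)
      (p := p) (q := q) hLa hδ hR H hBF hGB hεm (nm_rec hμ hμ1) hM rfl hω (by norm_num)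
      (by linarith) (by linarith [hεm.1]) (by linarith [hεm.2])
      (by show rB ρ1 ρ3 d m.co - hB ρ1 ρ3 d m.co * ε m + 3 * d m.co ≤ _; linarith)
      (by show _ ≤ rB ρ1 ρ3 d m.co + hB ρ1 ρ3 d m.co * ε m - 3 * d m.co; linarith)
      hlm.lab (fun b h1 h2 h3 => LOW b h1 h2 (le_trans
        (div_nonneg (abs_nonneg _) hra.le) ((le_max_right _ _).trans h3))) HIGH
  have hl3 : 1 - (5 * μ / 16 + μ / 128) ≤ (1 / 2 : ℝ) + (1 / 2 - 5 * μ / 16) *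
      (ε m - max (d m.co / (μ / 8)) (d m.co / (1 / 2 - 5 * μ / 16))) := by
    have h6 : (1 / 2 - 5 * μ / 16) * (1 - μ / 64) ≤ (1 / 2 - 5 * μ / 16) *
        (ε m - max (d m.co / (μ / 8)) (d m.co / (1 / 2 - 5 * μ / 16))) :=
      mul_le_mul_of_nonneg_left (by linarith [hεm.1]) hra.le
    nlinarith
  have hd2 : d m.co ≤ μ / 64 := by nlinarith
  refine ⟨u, hu, hul, huO, by
    have g1' : ρ3 m.co + 9 * d m.co - d m.co ≤ ga Φ m.co (f u) := g1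
    linarith, by
    have g2' : ga Φ m.co (f u) ≤ ρ3 m.co + 9 * d m.co + d m.co := g2
    linarith, g3, ?_, i, hi, hui, x, hx, hxt, ?_, hdv⟩
  · refine le_trans ?_ hl2
    show _ ≤ (1 / 2 : ℝ) + (1 / 2 - 5 * μ / 16) *
      (ε m - max (d m.co / (μ / 8)) (d m.co / (1 / 2 - 5 * μ / 16))) - d m.co
    linarith
  · exact le_trans (by linarith) hl1

end rec

section both

open Crest.Agent.R096.St_147 Crest.Agent.R096.Door_501 Crest.Agent.R096.Twr_438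
  Crest.Agent.R096.Ess3_95 Crest.Agent.R096.Dfi_471 Crest.Agent.R096.Sla_184
  Crest.Agent.R096.Rop_441 Crest.Agent.R096.Frs_662 Crest.Agent.R096.Nmd1_698
  Crest.Agent.R096.Cns_778
open Crest.Agent.R096.Sgo_298 (RmA rout ActR)
open Crest.Agent.R096.SkC1_961 (Hom3)
open Crest.Agent.R096.Frn_337 (Ti)
open Crest.Agent.R096.Ess7_95 (KT)

variable {δ κ0 R c0 : ℝ} {La Om : Set E3} {ι : Type} {Φ : FoamD δ κ0 R c0 La} {T : Tiling Om ι}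
  {f g : E3 → E3} {κ1 κ2 μ : ℝ} {X : Set Φ.F} {J0 J V : Φ.F → Set ι}
  {ct ct' : Φ.F → ι} {Aj : Φ.F → E3 ≃ᵃ[ℝ] E3} {lam : Φ.F → ℝ} {z : Φ.F → E3}
  {θ : Φ.F → E3 → E3} {φ : Φ.F → E3 → ℝ} {r₀ : Φ.F → ℝ} {ρ1 ρ2 ρ3 ρ4 d : Φ.F → ℝ}
  {L : Φ.F → Finset ℝ} [Nonempty (JJ Φ L)] {hG : GF Φ r₀ T f L} {bp : JJ Φ L → E3}
  {Nn : BM Φ X → Set ℝ} {q₀ : BM Φ X → E3} {ε : BM Φ X → ℝ} {bm : BM Φ X → E3}
  {hGB : GFB Φ r₀ T f L (lRc Φ X μ ρ1 ρ3 d) ε}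
  {v0B v1B : ∀ c, BM Φ X → VxK T (KT T J X) c} {r : JJ Φ L → E3}
  {hLa : IsOpen La} {hC : Cores Φ T f κ1 κ2 X J0 J V ct Aj lam z θ φ}
  {n : Ti X → ℕ} {hn : ∀ c, 0 < n c}

/-- **THE TOP POINTS OF BOTH END WALLS** (`b = false` : low, `b = true` : high), in the outer state -/
theorem wall_both (N : NumD δ κ0 R c0 κ2 μ κ1) (hI : InitR Φ T f g J0 ct' r₀)
    (hLm : ∀ c, ∀ t ∈ L c, μ ≤ t ∧ t ≤ 1 - μ)
    (B : BarOut Φ T f κ1 μ X J0 J V θ hG bp Nn ρ1 ρ2 ρ3 ρ4 d q₀ ε bm hGB v0B v1B) (m : BM Φ X)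
    (b : Bool) :
    ∃ w ∈ (stB hGB bp bm).P, (stB hGB bp bm).lab w = Sum.inr m ∧ w ∈ Om ∧
      ρ3 m.co + 8 * d m.co ≤ ga Φ m.co (f w) ∧ ga Φ m.co (f w) ≤ ρ3 m.co + 10 * d m.co ∧
      (b = false → Φ.lev m.am (f w) ≤ 3 * μ / 8) ∧ (b = true → 1 - 3 * μ / 8 ≤ Φ.lev m.am (f w)) ∧
      w ∈ GmT Om Φ f X μ ρ1 ρ3 d ε m ∧
      (∀ q, w ∈ P (T.H q) → q ∈ V m.co ∧ ∀ c, ¬ P (T.H q) ⊆ KJ T (J c)) ∧
      (slC hLa hC n hn).Out w ∧
      w ∈ (outK (slC hLa hC n hn).hH (slC hLa hC n hn).dis (stB hGB bp bm) (Sum.elim r bm)).P := by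
  obtain ⟨n1, n2, n3, n4, n5, n6⟩ := N.base
  have hRm := rmA_of B
  have U := upp_m (hLa := hLa) (hC := hC) (n := n) (hn := hn) (r := r) hI n4 hLm B
  obtain ⟨lm, hlm, LOW, HIGH⟩ := B.lab m
  have hdm : d m.co ≤ μ ^ 2 / 512 := by
    have := (B.rm m.co m.co_notMem).1
    nlinarith
  have hd := (hRm m.co m.co_notMem).d0
  have key : ∃ w ∈ (stB hGB bp bm).P, (stB hGB bp bm).lab w = Sum.inr m ∧ w ∈ Om ∧
      ρ3 m.co + 8 * d m.co ≤ ga Φ m.co (f w) ∧ ga Φ m.co (f w) ≤ ρ3 m.co + 10 * d m.co ∧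
      (b = false → Φ.lev m.am (f w) ≤ 3 * μ / 8) ∧
      (b = true → 1 - 3 * μ / 8 ≤ Φ.lev m.am (f w)) := by
    cases b
    · obtain ⟨w, h1, h2, h3, h4, h5, h6, h7, -⟩ :=
        Wy_664.exists_wall hLa N.hδ N.hR hI.hm N.hμ (by linarith) le_rfl B.barF hGB B.lv m hdm hlm
          LOW HIGH
      exact ⟨w, h1, h2, h3, h4, h5, fun _ => h7, fun h => absurd h (by decide)⟩
    · obtain ⟨w, h1, h2, h3, h4, h5, h6, h7, -⟩ :=
        exists_wall_hi hLa N.hδ N.hR hI.hm N.hμ (by linarith) le_rfl B.barF hGB B.lv m hdm hlm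
          LOW HIGH
      exact ⟨w, h1, h2, h3, h4, h5, fun h => absurd h (by decide), fun _ => h7⟩
  obtain ⟨w, h1, h2, h3, h4, h5, h6, h7⟩ := key
  have hwT : w ∈ GmT Om Φ f X μ ρ1 ρ3 d ε m := mem_gmT hLa B h1 h2 (by linarith)
  have hwB := gmT_sub hRm m hwT
  have htile : ∀ q, w ∈ P (T.H q) → q ∈ V m.co ∧ ∀ c, ¬ P (T.H q) ⊆ KJ T (J c) := fun q hq =>
    ⟨(gmB_tile B.barF B.lv hwB hq).1,
      gmB_out hLa hI.hm hC hRm B.barF B.lv ⟨w, hq, hwB⟩⟩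
  obtain ⟨q, hq⟩ := T.cov w h3
  exact ⟨w, h1, h2, h3, h4, h5, h6, h7, hwT, htile,
    Sla.out_of_tile (fun c => (htile q hq).2 c.1) hq, (U.mem_out (cl_of h1 h2 hwB)).1⟩

end both

end Crest.Agent.R096.Whi_72
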