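import Crest.Agent.R096.NwT1_662
import Crest.Agent.R096.Nwi5_688
import Crest.Agent.R096.Upd3_645
import Crest.Agent.R096.Whi1_72
import Crest.Agent.R096.Tpn1_72
import Crest.Agent.R096.Lat1_498
import Crest.Agent.R096.Afr1_543
import Crest.Agent.R096.Hop1_895

/-!
# R096 (row 96), DOORS, NEWIN (helper662), part 2: `NEWINM` from `NE1M`

`newinm_of : NE1M → NEWINM` : 688's NEWIN (ending in 72's `top_notin_m`) over 895's record `Mach`.
-/

set_option autoImplicit false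
set_option linter.unusedSectionVars false
set_option linter.unusedVariables false
set_option linter.style.longLine false

open Set Topology Filter Metric Module Relation MeasureTheory
open scoped Classical

namespace Crest.Agent.R096.NwT_662

open Crest.Agent.R096.Msh_715 Crest.Agent.R096.Coh_184 Crest.Agent.R096.Lab_184
  Crest.Agent.R096.Main_4 Crest.Agent.R096.Agl5_543
  Crest.Agent.R096.Seq_213 Crest.Agent.R096.St_147 Crest.Agent.R096.Door_501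
  Crest.Agent.R096.Twr_438 Crest.Agent.R096.Exa_560
  Crest.Agent.R096.Ess3_95 Crest.Agent.R096.Ess4_95 Crest.Agent.R096.Ac_117 Crest.Agent.R096.Lm_117
  Crest.Agent.R096.Dfi_539 Crest.Agent.R096.Dfi_471 Crest.Agent.R096.Dfo_539
  Crest.Agent.R096.Sla_184 Crest.Agent.R096.Gm_298
  Crest.Agent.R096.Brk1_582 Crest.Agent.R096.Brk2_582 Crest.Agent.R096.Brk3_582
  Crest.Agent.R096.Brk5_582 Crest.Agent.R096.Bsp_628 Crest.Agent.R096.Init_543
  Crest.Agent.R096.Dib_438 Crest.Agent.R096.Rop_441 Crest.Agent.R096.Frk_441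
  Crest.Agent.R096.Dff_539 Crest.Agent.R096.Frs_662 Crest.Agent.R096.Qdl_662
  Crest.Agent.R096.Cg_501 Crest.Agent.R096.SecW_892 Crest.Agent.R096.Sgd_298
  Crest.Agent.R096.Dfg_539 Crest.Agent.R096.Nmd1_698 Crest.Agent.R096.Civ_662
  Crest.Agent.R096.Lbc_334 Crest.Agent.R096.Bar_106 Crest.Agent.R096.Bgf_4
  Crest.Agent.R096.Nwi_688 Crest.Agent.R096.Hop_895
open Crest.Agent.R096.Sgo_298 (RmA rout ActR)
open Crest.Agent.R096.Mbf_337 (KJ Tiny Cores Fine sb gau Star Levels Words)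
open Crest.Agent.R096.SkC1_961 (E3 FoamD Hom3)
open Crest.Agent.R096.Frn_337 (Ti)
open Crest.Agent.R096.Ess7_95 (KT Sh)
open Crest.Agent.R096.Dia_316 (nbT)
open Crest.Agent.R096.Dfn_416 (BarS)
open Crest.Agent.R096.Bmf_416 (coT coT_fin)
open Crest.Agent.R096.Cns_778 (GmT rmA_of)
open Crest.Agent.R096.Zwk_560 (ZnF zwalk_le zwalk_ge)
open Crest.Agent.R096.Tro_914 (PosT qS hK_m BarP)
open Crest.Agent.R096.Pbn_147 (K3)
open Crest.Agent.R096.Sla_184.Sla (hf vf old tg F0 Fn Out OnS InL In)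

/-- **688's NEWIN FOR THE MACHINE, from one NE1 point of every barrier** -/
theorem newinm_of (HN : NE1M) : NEWINM := by
  intro δ κ0 R c0 κ2 κ3 κp μ κ1 Om La f g hLa Φ ι T X J0 J V ct A lam z θ φ M hC ct' r₀ hR
    hM h1 h2 L _ hG D bp lam₀ v₀ v₁ r v0 v1 ρ1 ρ2 ρ3 ρ4 d q₀ ε bm hGB v0B v1B n hn Lv Tw MM _ hnC
    l0' hmf j0 hj0 hs far t Ph s₃ g1 g2 g3 DR pB j m₀ k hmj hk Y hbY hY hgi w hw hl hE
  obtain ⟨hws, p, hpK, hwp, x0, hx0, hz⟩ := hE
  have N := MM.N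
  obtain ⟨n1, n2, n3, n4, n5, n6⟩ := N.base
  have bar := MM.bar
  have hRm := rma_bo bar
  have hga := ga_bo bar
  have hkB : j.1 ∈ k.B := (qin k _).1 hk
  have hbar : ∀ m : BM Φ X, ∀ w ∈ (s2 (slC hLa hC n hn) fr3 Tw l0').P,
      (s2 (slC hLa hC n hn) fr3 Tw l0').lab w = Sum.inr m → ∀ p : T.RIdx (slC hLa hC n hn).HH,
      (∀ k, ¬ P ((slC hLa hC n hn).T3.H p) ⊆ (slC hLa hC n hn).KK k) →
      w ∈ P ((slC hLa hC n hn).T3.H p) → p.tile ∉ KorJ Φ J0 → ∀ e, e ≠ m.am →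
      ∃ x ∈ P (T.H p.tile), Φ.lev e (f x) ≤ 3 * μ / 16 + Cn δ R * κ1 ∨
        1 - (3 * μ / 16 + Cn δ R * κ1) ≤ Φ.lev e (f x) := fun m =>
    posM_m N hRm MM.din MM.lo MM.tt MM.brec hga m
  have htl : ∀ w ∈ (stB hGB bp bm).P, ∀ j : JJ Φ L, (stB hGB bp bm).lab w = Sum.inl j →
      μ ≤ Φ.lev j.1 (f w) ∧ Φ.lev j.1 (f w) ≤ 1 - μ := fun w hw j hl =>
    Afr_543.stB_lev hR hLa MM.barS MM.lev hw hl
  have hrE : ∀ j : JJ Φ L, ∃ q, r j ∈ P (T.H q) ∧ (∀ c ∉ X, q ∉ V c) ∧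
      ∀ (k : Init_543.QK (Pc Φ.F)) (s : ℝ), j.1 ∈ k.B → κ1 < s →
        q ∉ Act0 T (Pc Φ.F) (bc (F := Φ.F)) (RF Φ r₀) f (KorJ Φ J0) s k := by
    intro j
    obtain ⟨-, q, a1, -, a2, a3⟩ := MM.root j
    exact ⟨q, a1, fun c _ => a2 c, a3⟩
  have hconn : ∀ j, (st0 hG bp).Conn j := fun j =>
    st0_conn hLa hR (fun i => ⟨(MM.init.base i).1, (MM.init.base i).2.1, (MM.init.base i).2.2.1⟩) j
  choose jm hjm hord using MM.ord
  -- the end of the new point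
  obtain ⟨σ, hσ⟩ : ∃ σ : Bool, (σ = false → Φ.lev m₀.am (f x0) ≤ 3 * μ / 8) ∧
      (σ = true → 1 - 3 * μ / 8 ≤ Φ.lev m₀.am (f x0)) := by
    rcases hz with hz | hz
    · exact ⟨false, fun _ => hz, fun h => absurd h (by decide)⟩
    · exact ⟨true, fun h => absurd h (by decide), fun _ => hz⟩
  have hbase := base_S3 DR g2 j
  have hroot := MM.din.root (Sum.inl j)
  have hro : (Sum.elim r bm) (Sum.inl j) ∈ (outK (slC hLa hC n hn).hH (slC hLa hC n hn).dis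
      (stB hGB bp bm) (Sum.elim r bm)).P := by
    refine ⟨hroot.1, ?_⟩
    rw [hroot.2]
  refine newinT (Top := GmT Om Φ f X μ ρ1 ρ3 d ε)
    (Zf := fun m => ZnF T Φ f X (lRc Φ X μ ρ1 ρ3 d) ε (Dz μ σ) m)
    (Zs := fun m => {x | Dz μ σ (Φ.lev m.am (f x))}) (jm := jm) DR
    (hK_m (S := slC hLa hC n hn) (hLa := hLa) (hR := hR) (hM := hM) (hε := h1) (hε1 := h2)
      (tb := 7 * μ / 32) (σ' := μ / 4) (lm := 3 * μ / 16 + Cn δ R * κ1) hbar (by linarith)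
      (by linarith) pB hkB) hY
    (fun _ _ => Sgo_298.inr_ActR) ?_ hjm (fun m _ c i hi => ((hord c).2 m).1 i hi)
    (fun m _ => bar.h1 _) (fun m _ => (bar.root m).2) ?_ ?_ ?_ hw hl hws ?_ ?_ ?_
  · rintro F v ⟨c, hc⟩ hv hvl
    exact hgi v hv.1 hvl ⟨c, F, hc, hv.2⟩
  · intro Y' hY' hgY c G m ham x y hx hxl hy hyl
    refine Lat_498.late_in (S := slC hLa hC n hn) (hLa := hLa) (hR := hR) (hM := hM) (hε := h1)
      (hε1 := h2) (tb := 7 * μ / 32) (σ' := μ / 4) (lb := 3 * μ / 16 + Cn δ R * κ1)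
      (by linarith) pB (by linarith) hkB (c := c) (jm := jm c) ?_ ?_ hY'
      (fun F w hF hA hl => hgY F w ⟨c, hF⟩ hA hl) (F := hf G (jm c))
      (Or.inl ⟨G, jm c, le_rfl, hjm c, rfl⟩) hy hyl hx ?_
    · intro i hi hi'
      rw [((hord c).1 j.1 i hi).1, ((hord c).1 j.1 (i + 1) (by omega)).1]
    · intro i hi hi'
      exact ((hord c).1 j.1 i hi).2
    · intro p hpK hp hkor e he
      exact hbar m x hx.1 hxl p hpK hp hkor e (by rw [ham]; exact he)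
  · intro m ham F hF hd y hy
    exact no1_m N bar htl ham hF hd hy
  · rintro m ham c e ⟨F, hF, -, u, hu, huF⟩ i hi y hy
    exact no2_m N bar MM.din MM.lo MM.tt htl MM.v0l MM.v1l ham hF hu huF
      (lt_of_lt_of_le hi (hjm c)) hy
  · intro m ham h hhl hh hF B hhB hB1 hB2
    have hma : m.am = m₀.am := ham.trans hmj.symm
    rcases Upd_645.start_m N bar MM.din MM.lo MM.tt MM.mon MM.monT MM.brec hpK hwp ham σ
      ⟨x0, hx0, by rw [hma]; exact hσ⟩ hhl hh hF hhB hB1 hB2 with ⟨x, a1, a2, a3, a4⟩ | h3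
    · refine Or.inl ⟨x, a1, a2, ?_⟩
      cases σ
      · exact a3 rfl
      · exact a4 rfl
    · exact Or.inr h3
  · intro m ham x hx hxl hxz
    obtain ⟨y, b1, b2, -, -, -, b3, b4, b5, -, -, b6⟩ :=
      Whi_72.wall_both (hLa := hLa) (hC := hC) (n := n) (hn := hn) (r := r) N hR MM.lev bar m σ
    refine ⟨y, b6, b2, ?_, b5⟩
    cases σ
    · exact zwalk_le (t0 := 7 * μ / 16) hLa hR N.hμ (by linarith) MM.lev bar (by linarith)
        (by linarith) hx.1 hxl hxz b1 b2 (by linarith [b3 rfl])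
    · exact zwalk_ge (t0 := 1 - 7 * μ / 16) hLa hR N.hμ (by linarith) MM.lev bar (by linarith)
        (by linarith) hx.1 hxl hxz b1 b2 (by linarith [b4 rfl])
  · intro m ham Y' B hY' hcom hB1 hB2 hB3 h hh
    refine Tpn_72.top_notin_m N MM.k2 MM.words MM.lev hconn bar MM.din MM.lo MM.tt MM.brec hrE pB
      (HN δ κ0 R c0 κ2 κ3 κp μ κ1 Om La f g hLa Φ ι T X J0 J V ct A lam z θ φ M hC ct' r₀ hR
        hM h1 h2 L hG D bp lam₀ v₀ v₁ r v0 v1 ρ1 ρ2 ρ3 ρ4 d q₀ ε bm hGB v0B v1B n hn Lv Tw MM hnC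
        l0' m) hkB ham ?_ hY' hB1 hB2 hB3 hh
    exact (hcom _ (mem_old hro) ((lab_old hro).trans hroot.2) hbase.1).2 hbY

end Crest.Agent.R096.NwT_662
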