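import Crest.Agent.R096.Zwk1_560
import Crest.Agent.R096.Gt2_664
import Crest.Agent.R096.Tpn1_72
import Crest.Agent.R096.Nwt1_560

/-!
# R096 (row 96), DOORS, NEWIN (helper560): the machine forms of `conn` and `topn` of `newinT`

* `Lo σ μ x`  : `x ≤ 7 μ / 16` (σ = false) / `1 - 7 μ / 16 ≤ x` (σ = true);
* `conn_m`    : an m-point of the full sheet over the zone is joined, by chords of the full sheet over
                the zone, with an outer point in `GmT` (both ends);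
* `topn_m`    : 72's `top_notin_m` in the form of `newinT`.
-/

set_option autoImplicit false
set_option linter.unusedSectionVars false
set_option linter.unusedVariables false
set_option linter.style.longLine false

open Set Topology Filter Metric Module Relation
open scoped Classical

namespace Crest.Agent.R096.Nwm_560

open Crest.Agent.R096.Msh_715 Crest.Agent.R096.Coh_184 Crest.Agent.R096.Lab_184
  Crest.Agent.R096.Main_4 Crest.Agent.R096.Agl5_543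
  Crest.Agent.R096.Seq_213 Crest.Agent.R096.St_147 Crest.Agent.R096.Door_501
  Crest.Agent.R096.Twr_438 Crest.Agent.R096.Exa_560
  Crest.Agent.R096.Ess3_95 Crest.Agent.R096.Ess4_95
  Crest.Agent.R096.Dfi_471 Crest.Agent.R096.Sla_184
  Crest.Agent.R096.Brk1_582 Crest.Agent.R096.Brk2_582 Crest.Agent.R096.Brk3_582
  Crest.Agent.R096.Brk5_582 Crest.Agent.R096.Bsp_628 Crest.Agent.R096.Init_543
  Crest.Agent.R096.Dib_438 Crest.Agent.R096.Rop_441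
  Crest.Agent.R096.Frs_662 Crest.Agent.R096.Cg_501 Crest.Agent.R096.SecW_892
  Crest.Agent.R096.Nmd1_698 Crest.Agent.R096.Pbn_147 Crest.Agent.R096.Bar_106
  Crest.Agent.R096.Ebr4_95 Crest.Agent.R096.Bgf_4 Crest.Agent.R096.Ess5_95
  Crest.Agent.R096.Cns_778 Crest.Agent.R096.Nwi_688 Crest.Agent.R096.Zwk_560
open Crest.Agent.R096.Sgo_298 (RmA rout ActR)
open Crest.Agent.R096.Mbf_337 (KJ Tiny Cores Fine Words sb gau)
open Crest.Agent.R096.SkC1_961 (E3 FoamD Hom3)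
open Crest.Agent.R096.Frn_337 (Ti)
open Crest.Agent.R096.Ess7_95 (KT)

/-- the levels of the zone: low end, high end -/
def Lo (σ : Bool) (μ x : ℝ) : Prop :=
  (σ = false → x ≤ 7 * μ / 16) ∧ (σ = true → 1 - 7 * μ / 16 ≤ x)

theorem lo_false {μ x : ℝ} : Lo false μ x ↔ x ≤ 7 * μ / 16 :=
  ⟨fun h => h.1 rfl, fun h => ⟨fun _ => h, fun e => by cases e⟩⟩

theorem lo_true {μ x : ℝ} : Lo true μ x ↔ 1 - 7 * μ / 16 ≤ x :=
  ⟨fun h => h.2 rfl, fun h => ⟨fun e => (by cases e), fun _ => h⟩⟩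

variable {δ κ0 R c0 : ℝ} {La Om : Set E3} {ι : Type} {Φ : FoamD δ κ0 R c0 La} {T : Tiling Om ι}
  {f g : E3 → E3} {κ1 κ2 μ : ℝ} {X : Set Φ.F} {J0 J V : Φ.F → Set ι}
  {ct ct' : Φ.F → ι} {Aj : Φ.F → E3 ≃ᵃ[ℝ] E3} {lam : Φ.F → ℝ} {z : Φ.F → E3}
  {θ : Φ.F → E3 → E3} {φ : Φ.F → E3 → ℝ} {r₀ : Φ.F → ℝ} {ρ1 ρ2 ρ3 ρ4 d : Φ.F → ℝ}
  {L : Φ.F → Finset ℝ} [Nonempty (JJ Φ L)] {hG : GF Φ r₀ T f L} {bp : JJ Φ L → E3}
  {Nn : BM Φ X → Set ℝ} {q₀ : BM Φ X → E3} {ε : BM Φ X → ℝ} {bm : BM Φ X → E3}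
  {hGB : GFB Φ r₀ T f L (lRc Φ X μ ρ1 ρ3 d) ε}
  {v0B v1B : ∀ c, BM Φ X → VxK T (KT T J X) c} {r : JJ Φ L → E3}
  {hLa : IsOpen La} {hC : Cores Φ T f κ1 κ2 X J0 J V ct Aj lam z θ φ}
  {n : Ti X → ℕ} {hn : ∀ c, 0 < n c}

/-- **`conn` OF `newinT`**, both end walls -/
theorem conn_m (N : NumD δ κ0 R c0 κ2 μ κ1) (hI : InitR Φ T f g J0 ct' r₀)
    (hLm : ∀ c, ∀ t ∈ L c, μ ≤ t ∧ t ≤ 1 - μ)
    (B : BarOut Φ T f κ1 μ X J0 J V θ hG bp Nn ρ1 ρ2 ρ3 ρ4 d q₀ ε bm hGB v0B v1B) (σ : Bool)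
    (m : BM Φ X) {x : E3} (hx : x ∈ (stB hGB bp bm).P) (hl : (stB hGB bp bm).lab x = Sum.inr m)
    (hz : Lo σ μ (Φ.lev m.am (f x))) :
    ∃ y ∈ (outK (slC hLa hC n hn).hH (slC hLa hC n hn).dis (stB hGB bp bm) (Sum.elim r bm)).P,
      (stB hGB bp bm).lab y = Sum.inr m ∧
      ReflTransGen (ZStep (stB hGB bp bm) (ZnF T Φ f X (lRc Φ X μ ρ1 ρ3 d) ε (Lo σ μ) m)) x y ∧
      y ∈ GmT Om Φ f X μ ρ1 ρ3 d ε m := by
  obtain ⟨n1, n2, n3, n4, n5, n6⟩ := N.base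
  have hμ := N.hμ
  have hμb := N.hμb
  have hRm := rmA_of B
  have U := upp_m (hLa := hLa) (hC := hC) (n := n) (hn := hn) (r := r) hI n4 hLm B
  have hd := (hRm m.co m.co_notMem).d0
  have hκ : κ1 ≤ μ ^ 2 / 512 := by nlinarith
  have hdm : d m.co ≤ μ ^ 2 / 512 := ((B.rm m.co m.co_notMem).1).trans hκ
  have fin : ∀ {w : E3}, w ∈ (stB hGB bp bm).P → (stB hGB bp bm).lab w = Sum.inr m →
      ρ3 m.co + 8 * d m.co ≤ ga Φ m.co (f w) →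
      w ∈ (outK (slC hLa hC n hn).hH (slC hLa hC n hn).dis (stB hGB bp bm)
        (Sum.elim r bm)).P ∧ w ∈ GmT Om Φ f X μ ρ1 ρ3 d ε m := by
    intro w h1 h2 h3
    have h4 : w ∈ GmT Om Φ f X μ ρ1 ρ3 d ε m := mem_gmT hLa B h1 h2 (by linarith)
    exact ⟨(U.mem_out (cl_of h1 h2 (gmT_sub hRm m h4))).1, h4⟩
  cases σ
  · obtain ⟨lm, hlm, LOW, HIGH⟩ := B.lab m
    obtain ⟨w, h1, h2, -, h3, -, -, h5, -⟩ :=
      Wy_664.exists_wall hLa N.hδ N.hR hI.hm hμ (by linarith) le_rfl B.barF hGB B.lv m hdm hlm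
        LOW HIGH
    obtain ⟨g1, g2⟩ := fin h1 h2 h3
    refine ⟨w, g1, h2, ?_, g2⟩
    have h6 := zwalk_le (m := m) (t0 := 7 * μ / 16) hLa hI hμ (by linarith) hLm B (by linarith)
      (by linarith) hx hl (lo_false.1 hz) h1 h2 (by linarith)
    refine Relation.ReflTransGen.mono ?_ _ _ h6
    rintro u v ⟨F, ⟨q, hq, y, hy, hy1, hy2⟩, hA, e⟩
    exact ⟨F, ⟨q, hq, y, hy, hy1, lo_false.2 hy2⟩, hA, e⟩
  · obtain ⟨w, h1, h2, -, h3, -, -, h5, -⟩ :=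
      Gt_664.exists_wall_hi hLa N.hδ N.hR hI.hm hμ (by linarith) hκ B m
    obtain ⟨g1, g2⟩ := fin h1 h2 h3
    refine ⟨w, g1, h2, ?_, g2⟩
    have h6 := zwalk_ge (m := m) (t0 := 1 - 7 * μ / 16) hLa hI hμ (by linarith) hLm B
      (by linarith) (by linarith) hx hl (lo_true.1 hz) h1 h2 (by linarith)
    refine Relation.ReflTransGen.mono ?_ _ _ h6
    rintro u v ⟨F, ⟨q, hq, y, hy, hy1, hy2⟩, hA, e⟩
    exact ⟨F, ⟨q, hq, y, hy, hy1, lo_true.2 hy2⟩, hA, e⟩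

end Crest.Agent.R096.Nwm_560
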