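import Crest.Agent.R096.Hop1_895
import Crest.Agent.R096.Nwi5_688
import Crest.Agent.R096.Nwi6_18
import Crest.Agent.R096.Nem1_493
import Crest.Agent.R096.Nwm1_560
import Crest.Agent.R096.Upd3_645
import Crest.Agent.R096.Lat1_498
import Crest.Agent.R096.Tpn1_72

/-!
# R096 (row 96), DOORS (helper18): **`NEWINM`** from the landed pieces

`newinT` (688, 18) with 914's `hK_m`, 498's `late_in`, 688's `no1_m`, `no2_m`, 645's `start_m`,
560's `conn_m`, 72's `top_notin_m` and 493's `ne1M`.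
-/

set_option autoImplicit false
set_option linter.unusedSectionVars false
set_option linter.unusedVariables false
set_option linter.style.longLine false

open Set Topology Filter Metric Module Relation MeasureTheory
open scoped Classical

namespace Crest.Agent.R096.Nwf_18

open Crest.Agent.R096.Msh_715 Crest.Agent.R096.Coh_184 Crest.Agent.R096.Lab_184
  Crest.Agent.R096.Main_4 Crest.Agent.R096.Agl5_543
  Crest.Agent.R096.Seq_213 Crest.Agent.R096.St_147 Crest.Agent.R096.Door_501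
  Crest.Agent.R096.Twr_438 Crest.Agent.R096.Exa_560
  Crest.Agent.R096.Ess3_95 Crest.Agent.R096.Ess4_95 Crest.Agent.R096.Ac_117 Crest.Agent.R096.Lm_117
  Crest.Agent.R096.Dfi_539 Crest.Agent.R096.Dfi_471 Crest.Agent.R096.Dfo_539
  Crest.Agent.R096.Sla_184 Crest.Agent.R096.Gm_298
  Crest.Agent.R096.Brk1_582 Crest.Agent.R096.Brk2_582 Crest.Agent.R096.Brk3_582
  Crest.Agent.R096.Brk5_582 Crest.Agent.R096.Bsp_628 Crest.Agent.R096.Init_543
  Crest.Agent.R096.Lv3_471 Crest.Agent.R096.Lv4_471 Crest.Agent.R096.Slt_471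
  Crest.Agent.R096.Dib_438 Crest.Agent.R096.Rop_441 Crest.Agent.R096.Frk_441
  Crest.Agent.R096.Dff_539 Crest.Agent.R096.Frs_662 Crest.Agent.R096.Qdl_662
  Crest.Agent.R096.Cg_501 Crest.Agent.R096.SecW_892 Crest.Agent.R096.Sgd_298
  Crest.Agent.R096.Dfg_539 Crest.Agent.R096.Nmd1_698 Crest.Agent.R096.Civ_662
  Crest.Agent.R096.Lbc_334 Crest.Agent.R096.Bar_106 Crest.Agent.R096.Bgf_4
open Crest.Agent.R096.Sgo_298 (RmA rout ActR)
open Crest.Agent.R096.Mbf_337 (KJ Tiny Cores Fine sb gau Star Levels Words)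
open Crest.Agent.R096.SkC1_961 (E3 FoamD Hom3)
open Crest.Agent.R096.Frn_337 (Ti)
open Crest.Agent.R096.Ess7_95 (KT Sh)
open Crest.Agent.R096.Dia_316 (nbT)
open Crest.Agent.R096.Dfn_416 (BarS)
open Crest.Agent.R096.Bmf_416 (coT coT_fin)
open Crest.Agent.R096.Vin_527 (sdm)
open Crest.Agent.R096.Sde_422 (gR)
open Crest.Agent.R096.Zwk_560 (ZnF)
open Crest.Agent.R096.Nwm_560 (Lo conn_m)
open Crest.Agent.R096.Nwi_688 (GiF ZStep Dz)
open Crest.Agent.R096.Hop_895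
open Crest.Agent.R096.Sla_184.Sla (hf vf old)

theorem lo_dz {σ : Bool} {μ x : ℝ} (h : Lo σ μ x) : Dz μ σ x := by
  cases σ
  · exact h.1 rfl
  · exact h.2 rfl

/-- **`NEWINM`** -/
theorem newinM : NEWINM := by
  intro δ κ0 R c0 κ2 κ3 κp μ κ1 Om La f g hLa Φ ι T X J0 J V ct A lam z θ φ M hC ct' r₀ hR hM h1 h2
    L _ hG D bp lam₀ v₀ v₁ r v0 v1 ρ1 ρ2 ρ3 ρ4 d q₀ ε bm hGB v0B v1B n hn Lv Tw MM _ hnC l0' hmf j0
    hj0 hs far t Ph s₃ g1 g2 g3 DR pB j m0 k hm0 hk Y hbY hY hgi w hw hl hnew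
  obtain ⟨hws, p, hpK, hwp, x, hx, hz⟩ := hnew
  have N := MM.N
  have hRm := Lbc_334.rma_bo MM.bar
  have hga := Lbc_334.ga_bo MM.bar
  obtain ⟨n1, n2, n3, n4, n5, n6⟩ := N.base
  have hkB : j.1 ∈ k.B := (qin k _).1 hk
  have hrE : ∀ j : JJ Φ L, ∃ q, r j ∈ P (T.H q) ∧ (∀ c ∉ X, q ∉ V c) ∧
      ∀ (k : Init_543.QK (Pc Φ.F)) (s : ℝ), j.1 ∈ k.B → κ1 < s →
        q ∉ Act0 T (Pc Φ.F) (bc (F := Φ.F)) (RF Φ r₀) f (KorJ Φ J0) s k := by
    intro j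
    obtain ⟨-, q, g1, -, g2, g3⟩ := MM.root j
    exact ⟨q, g1, fun c _ => g2 c, g3⟩
  have hconn : ∀ j, (st0 hG bp).Conn j := fun j =>
    st0_conn hLa hR (fun i => ⟨(MM.init.base i).1, (MM.init.base i).2.1, (MM.init.base i).2.2.1⟩) j
  have hposM := fun m => posM_m (l0' := l0') N hRm MM.din MM.lo MM.tt MM.brec hga m
  obtain ⟨σ, hσ⟩ : ∃ σ : Bool, (σ = false → Φ.lev m0.am (f x) ≤ 3 * μ / 8) ∧
      (σ = true → 1 - 3 * μ / 8 ≤ Φ.lev m0.am (f x)) := by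
    rcases hz with h | h
    · exact ⟨false, fun _ => h, fun e => absurd e (by decide)⟩
    · exact ⟨true, fun e => absurd e (by decide), fun _ => h⟩
  choose jm hjm hoF hoB using MM.ord
  have hb3 := base_S3 DR g2 j
  obtain ⟨e1, e2⟩ := (g1 j.1).far_mem (g2 j.1 (nL BM.am j) j rfl)
  refine Nwi_18.newinT DR (j := j) (k := k) (b := (Sum.elim r bm) (Sum.inl j)) ?hK hY ?hAct ?hgi
    ?hb2 ?hbl hb3.1 hbY hjm ?hord ?hh1 ?hr ?late
    (fun m => ZnF T Φ f X (lRc Φ X μ ρ1 ρ3 d) ε (Lo σ μ) m)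
    (fun m => {x | Lo σ μ (Φ.lev m.am (f x))}) ?no1 ?no2 hw hl hws ?start ?conn
  case hK =>
    exact Tro_914.hK_m (lm := 3 * μ / 16 + Cn δ R * κ1) (tb := 7 * μ / 32) (σ' := μ / 4)
      (fun m w hw hl p hp hwp hK e he => hposM m w hw hl p hp hwp hK e he)
      (by linarith) (by linarith) pB hkB
  case hAct => exact fun a c => Sgo_298.inr_ActR
  case hgi =>
    rintro F v ⟨c, hc⟩ hA hv
    exact hgi v hA.1 hv ⟨c, F, hc, hA.2⟩
  case hb2 => exact (mem_pr.1 e1).1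
  case hbl => exact (pr_lab_iff (mem_pr.1 e1).2).1 e2
  case hord => exact fun m _ c i hi => (hoB c m).1 i hi
  case hh1 => exact fun m _ => MM.bar.h1 _
  case hr => exact fun m _ => (MM.bar.root m).2
  case late =>
    intro Y hY hgY c G m ham x y hx hxl hy hyl
    refine Lat_498.late_in (tb := 7 * μ / 32) (σ' := μ / 4) (lb := 3 * μ / 16 + Cn δ R * κ1)
      (jm := jm c) (c := c) (F := hf G (jm c)) (by linarith) pB (by linarith) hkB ?_ ?_ hY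
      (fun F w hF => hgY F w ⟨c, hF⟩) (Or.inl ⟨G, jm c, le_rfl, hjm c, rfl⟩) hy hyl hx ?_
    · intro i h3 h4
      rw [(hoF c j.1 i h3).1, (hoF c j.1 (i + 1) (by omega)).1]
    · exact fun i h3 _ => (hoF c j.1 i h3).2
    · intro p hp hxp hK e he
      exact hposM m x hx.1 hxl p hp hxp hK e (by rw [ham]; exact he)
  case no1 =>
    rintro m ham F ⟨q, hq, x, hx, hxl, hxD⟩ hd y hy
    exact Nwi_688.no1_m N MM.bar MM.brec.trl ham ⟨q, hq, x, hx, hxl, lo_dz hxD⟩ hd hy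
  case no2 =>
    rintro m ham c e ⟨F, ⟨q, hq, x, hx, hxl, hxD⟩, -, w, hwe, hwF⟩ i hi y hy
    exact Nwi_688.no2_m N MM.bar MM.din MM.lo MM.tt MM.brec.trl MM.v0l MM.v1l ham
      ⟨q, hq, x, hx, hxl, lo_dz hxD⟩ hwe hwF (hi.trans_le (hjm c)) hy
  case start =>
    intro m ham h hhl hh hF B hhB hB1 hB2
    exact Upd_645.start_m N MM.bar MM.din MM.lo MM.tt MM.mon MM.monT MM.brec hpK hwp ham σ
      ⟨x, hx, by rw [ham, ← hm0]; exact hσ⟩ hhl hh hF hhB hB1 hB2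
  case conn =>
    intro m ham Y' hbY' hY' hgY' B hB1 hB2 hB3 x' hx' hxl' hxz hxB
    obtain ⟨y, y1, y2, y3, y4⟩ := conn_m (hLa := hLa) (hC := hC) (n := n) (hn := hn) (r := r)
      N hR MM.lev MM.bar σ m hx'.1 hxl' hxz
    refine ⟨y, y1, y2, y3, fun hyB => ?_⟩
    exact Tpn_72.top_notin_m N MM.k2 MM.words MM.lev hconn MM.bar MM.din MM.lo MM.tt MM.brec hrE pB
      (Nem_493.ne1M δ κ0 R c0 κ2 κ3 κp μ κ1 Om La f g hLa Φ ι T X J0 J V ct A lam z θ φ M hC ct' r₀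
        hR hM h1 h2 L hG D bp lam₀ v₀ v₁ r v0 v1 ρ1 ρ2 ρ3 ρ4 d q₀ ε bm hGB v0B v1B n hn Lv Tw MM
        hnC l0' m) hkB ham hbY' hY' hB1 hB2 hB3 hyB y4

end Crest.Agent.R096.Nwf_18
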