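import Crest.Agent.R096.Door4_501

/-!
# Row 96, DOORS (helper276): **(W) in one step** (688 #12211 (W))

`s` = full (truthful) state on the mesh `M`, `π` = merging of the core tiles, `r` = roots,
`outerP s π r` = the outer component.  `G` = the trace points of the outer component of the sheet `i`
which are (through the layers) in the closed set; `Y` = the closed set outside.  ONE potential `Ψ`
(`H1` of the full sheet: constant along the outer chords, `Ψ + 1_G` constant along the inner
chords) extends `Y` to a set which is closed under ALL chords over the zone `Z`.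
-/

set_option autoImplicit false

namespace Crest.Agent.R096.Nwi_276

open Crest.Agent.R096.St_147 Crest.Agent.R096.Seq_213 Crest.Agent.R096.Msh_715
  Crest.Agent.R096.Door_501 Classical

variable {ι ι' Φ W J C : Type} {M : MeshC ι Φ W} {fam : J → C}

/-- a function constant along the outer chords is constant on the outer component -/
theorem outer_const {s : GSt M fam} {π : ι → ι'} {r : J → W} {i : J} {Ψ : W → ZMod 2}
    (h : ∀ F w, ¬ ((M.side F).map π).IsDiag → s.At F w → s.lab w = i → Ψ w = Ψ (s.mu F w))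
    (hr : s.lab (r i) = i) {w : W} (hw : w ∈ outerP s π r) (hl : s.lab w = i) : Ψ w = Ψ (r i) := by
  have key : ∀ w, Relation.ReflTransGen (OStep s π) (r i) w → Ψ w = Ψ (r i) := by
    intro w hw
    induction hw with
    | refl => rfl
    | @tail a b h1 h2 ih =>
      obtain ⟨F, g1, g2, g3, rfl⟩ := h2
      rw [← h F a g1 ⟨g2, g3⟩ ((oreach_lab h1).trans hr)]
      exact ih
  have h1 := hw.2
  rw [hl] at h1
  exact key w h1

/-- **the extension over the zone** -/
theorem exists_ext {s : GSt M fam} {π : ι → ι'} {r : J → W} {i : J} (h1 : s.H1 i)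
    (hr : s.lab (r i) = i) {cor : Set ι}
    (hcor : ∀ F, ((M.side F).map π).IsDiag → ∀ q ∈ M.side F, q ∈ cor) {G : Set W}
    (hGM : ∀ w ∈ G, w ∈ outerP s π r)
    (hGb : ∀ F w, ¬ ((M.side F).map π).IsDiag → (∃ q ∈ M.side F, q ∈ cor) → s.At F w →
      s.lab w = i → (w ∈ G ↔ s.mu F w ∈ G))
    {Z : Set Φ} {Y : Set W}
    (hY : ∀ F ∈ Z, ¬ ((M.side F).map π).IsDiag → ∀ w, s.At F w → s.lab w = i →
      w ∈ outerP s π r → (w ∈ Y ↔ s.mu F w ∈ Y))
    (hYG : ∀ F ∈ Z, ((M.side F).map π).IsDiag → ∀ w, s.At F w → s.lab w = i →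
      w ∈ outerP s π r → (w ∈ Y ↔ w ∈ G)) :
    ∃ Yh : Set W, (∀ w, w ∈ outerP s π r → (w ∈ Yh ↔ w ∈ Y)) ∧
      ∀ F ∈ Z, ∀ w, s.At F w → s.lab w = i → (w ∈ Yh ↔ s.mu F w ∈ Yh) := by
  let χ : W → ZMod 2 := fun w => if w ∈ G then 1 else 0
  have hχ : ∀ {x y : W}, χ x = χ y ↔ (x ∈ G ↔ y ∈ G) := by
    intro x y
    show (if x ∈ G then (1 : ZMod 2) else 0) = (if y ∈ G then 1 else 0) ↔ _
    by_cases hx : x ∈ G <;> by_cases hy : y ∈ G <;> simp [hx, hy]
  let κ : Φ → W → ZMod 2 := fun F w =>
    if ((M.side F).map π).IsDiag then χ w + χ (s.mu F w) else 0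
  obtain ⟨Ψ, hΨ⟩ := h1 κ (by
    intro q
    by_cases hq : q ∈ cor
    · refine ⟨χ, fun F w hqF hA hl => ?_⟩
      show (if ((M.side F).map π).IsDiag then χ w + χ (s.mu F w) else 0) = _
      by_cases hF : ((M.side F).map π).IsDiag
      · rw [if_pos hF]
      · rw [if_neg hF, hχ.2 (hGb F w hF ⟨q, hqF, hq⟩ hA hl)]
        exact (CharTwo.add_self_eq_zero _).symm
    · refine ⟨fun _ => 0, fun F w hqF hA hl => ?_⟩
      show (if ((M.side F).map π).IsDiag then χ w + χ (s.mu F w) else 0) = _
      rw [if_neg (fun hF => hq (hcor F hF q hqF)), add_zero])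
  have hout : ∀ F w, ¬ ((M.side F).map π).IsDiag → s.At F w → s.lab w = i →
      Ψ w = Ψ (s.mu F w) := by
    intro F w hF hA hl
    have h2 := hΨ F w hA hl
    have h3 : κ F w = 0 := if_neg hF
    rw [h3] at h2
    exact CharTwo.add_eq_zero.1 h2.symm
  have hin : ∀ F w, ((M.side F).map π).IsDiag → s.At F w → s.lab w = i →
      χ w + χ (s.mu F w) = Ψ w + Ψ (s.mu F w) := by
    intro F w hF hA hl
    have h2 := hΨ F w hA hl
    have h3 : κ F w = χ w + χ (s.mu F w) := if_pos hF
    rw [h3] at h2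
    exact h2
  have hM : ∀ w, w ∈ outerP s π r → s.lab w = i → Ψ w = Ψ (r i) :=
    fun w hw hl => outer_const hout hr hw hl
  refine ⟨{w | (w ∈ outerP s π r ∧ w ∈ Y) ∨ (w ∉ outerP s π r ∧ Ψ w ≠ Ψ (r i))}, ?_, ?_⟩
  · intro w hw
    constructor
    · rintro (⟨-, h⟩ | ⟨h, -⟩)
      · exact h
      · exact absurd hw h
    · exact fun h => Or.inl ⟨hw, h⟩
  · intro F hFZ w hA hl
    have hA' : s.At F (s.mu F w) := s.mu_mem hA.1 hA.2
    have hl' : s.lab (s.mu F w) = i := (s.mu_lab hA.1 hA.2).trans hl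
    have hmm : s.mu F (s.mu F w) = w := s.mu_mu hA.1 hA.2
    by_cases hF : ((M.side F).map π).IsDiag
    · -- an inner chord
      have hadd := hin F w hF hA hl
      -- one direction for both cases
      have key : ∀ x, s.At F x → s.lab x = i → x ∈ outerP s π r → s.mu F x ∉ outerP s π r →
          (x ∈ Y ↔ Ψ (s.mu F x) ≠ Ψ (r i)) := by
        intro x hx hxl hxo hxo'
        have h2 := hin F x hF hx hxl
        have h3 : χ (s.mu F x) = 0 := if_neg fun h => hxo' (hGM _ h)
        rw [h3, add_zero, hM x hxo hxl] at h2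
        rw [hYG F hFZ hF x hx hxl hxo]
        constructor
        · intro hg h4
          have h5 : χ x = 1 := if_pos hg
          rw [h5, h4, CharTwo.add_self_eq_zero] at h2
          exact absurd h2 (by decide)
        · intro h4
          by_contra hg
          have h5 : χ x = 0 := if_neg hg
          rw [h5] at h2
          exact h4 (CharTwo.add_eq_zero.1 h2.symm).symm
      by_cases hw : w ∈ outerP s π r
      · by_cases hw' : s.mu F w ∈ outerP s π r
        · have h2 : w ∈ G ↔ s.mu F w ∈ G := by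
            refine hχ.1 ?_
            rw [hM w hw hl, hM _ hw' hl', CharTwo.add_self_eq_zero] at hadd
            exact CharTwo.add_eq_zero.1 hadd
          have h3 : w ∈ Y ↔ s.mu F w ∈ Y := by
            rw [hYG F hFZ hF w hA hl hw, hYG F hFZ hF _ hA' hl' hw', h2]
          constructor
          · rintro (⟨-, h⟩ | ⟨h, -⟩)
            · exact Or.inl ⟨hw', h3.1 h⟩
            · exact absurd hw h
          · rintro (⟨-, h⟩ | ⟨h, -⟩)
            · exact Or.inl ⟨hw, h3.2 h⟩
            · exact absurd hw' h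
        · have h3 := key w hA hl hw hw'
          constructor
          · rintro (⟨-, h⟩ | ⟨h, -⟩)
            · exact Or.inr ⟨hw', h3.1 h⟩
            · exact absurd hw h
          · rintro (⟨h, -⟩ | ⟨-, h⟩)
            · exact absurd h hw'
            · exact Or.inl ⟨hw, h3.2 h⟩
      · by_cases hw' : s.mu F w ∈ outerP s π r
        · have h3 := key (s.mu F w) hA' hl' hw' (by rwa [hmm])
          rw [hmm] at h3
          constructor
          · rintro (⟨h, -⟩ | ⟨-, h⟩)
            · exact absurd h hw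
            · exact Or.inl ⟨hw', h3.2 h⟩
          · rintro (⟨-, h⟩ | ⟨h, -⟩)
            · exact Or.inr ⟨hw, h3.1 h⟩
            · exact absurd hw' h
        · have h4 : χ w = 0 := if_neg fun h => hw (hGM _ h)
          have h5 : χ (s.mu F w) = 0 := if_neg fun h => hw' (hGM _ h)
          rw [h4, h5, add_zero] at hadd
          have h6 : Ψ w = Ψ (s.mu F w) := CharTwo.add_eq_zero.1 hadd.symm
          constructor
          · rintro (⟨h, -⟩ | ⟨-, h⟩)
            · exact absurd h hw
            · exact Or.inr ⟨hw', by rwa [← h6]⟩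
          · rintro (⟨h, -⟩ | ⟨-, h⟩)
            · exact absurd h hw'
            · exact Or.inr ⟨hw, by rwa [h6]⟩
    · -- an outer chord
      have h2 := outerP_mu_iff (r := r) hF hA.1 hA.2
      by_cases hw : w ∈ outerP s π r
      · have hw' := h2.2 hw
        have h3 := hY F hFZ hF w hA hl hw
        constructor
        · rintro (⟨-, h⟩ | ⟨h, -⟩)
          · exact Or.inl ⟨hw', h3.1 h⟩
          · exact absurd hw h
        · rintro (⟨-, h⟩ | ⟨h, -⟩)
          · exact Or.inl ⟨hw, h3.2 h⟩
          · exact absurd hw' h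
      · have hw' : s.mu F w ∉ outerP s π r := fun h => hw (h2.1 h)
        have h6 := hout F w hF hA hl
        constructor
        · rintro (⟨h, -⟩ | ⟨-, h⟩)
          · exact absurd h hw
          · exact Or.inr ⟨hw', by rwa [← h6]⟩
        · rintro (⟨h, -⟩ | ⟨-, h⟩)
          · exact absurd h hw'
          · exact Or.inr ⟨hw, by rwa [h6]⟩

/-- **(W)** : if the points of the full sheet over the zone are joined by chords over the zone, then
all points of the outer component over the zone are in `Y` or none -/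
theorem w_all {s : GSt M fam} {π : ι → ι'} {r : J → W} {i : J} (h1 : s.H1 i)
    (hr : s.lab (r i) = i) {cor : Set ι}
    (hcor : ∀ F, ((M.side F).map π).IsDiag → ∀ q ∈ M.side F, q ∈ cor) {G : Set W}
    (hGM : ∀ w ∈ G, w ∈ outerP s π r)
    (hGb : ∀ F w, ¬ ((M.side F).map π).IsDiag → (∃ q ∈ M.side F, q ∈ cor) → s.At F w →
      s.lab w = i → (w ∈ G ↔ s.mu F w ∈ G))
    {Z : Set Φ} {Y : Set W}
    (hY : ∀ F ∈ Z, ¬ ((M.side F).map π).IsDiag → ∀ w, s.At F w → s.lab w = i →
      w ∈ outerP s π r → (w ∈ Y ↔ s.mu F w ∈ Y))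
    (hYG : ∀ F ∈ Z, ((M.side F).map π).IsDiag → ∀ w, s.At F w → s.lab w = i →
      w ∈ outerP s π r → (w ∈ Y ↔ w ∈ G))
    {w w' : W}
    (hcon : ∀ X : Set W, (∀ F ∈ Z, ∀ x, s.At F x → s.lab x = i → (x ∈ X ↔ s.mu F x ∈ X)) →
      (w ∈ X ↔ w' ∈ X))
    (hw : w ∈ outerP s π r) (hw' : w' ∈ outerP s π r) : w ∈ Y ↔ w' ∈ Y := by
  obtain ⟨Yh, e1, e2⟩ := exists_ext h1 hr hcor hGM hGb hY hYG
  rw [← e1 w hw, ← e1 w' hw']
  exact hcon Yh e2

end Crest.Agent.R096.Nwi_276
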