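import Crest.Agent.R096.Pbn3_147

/-!
# R096 (row 96), DOORS, NEWIN (helper688), part 2: the new points of CUT outside a closed set

`new_cutG` : `X` closed in the state `s₃` after CUT, `w ∉ X` a new point of `j`. Then there are `Y`,
closed in the state before CUT, with the values of `X` at the common points, a barrier point `h` on
the faces of `w`, and a set `B ∋ h` of points of this barrier which is closed under all barrier
chords which are not crossed by a point of `j` outside `Y`, without frozen points.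
-/

set_option autoImplicit false

namespace Crest.Agent.R096.Nwi_688

open Crest.Agent.R096.St_147 Crest.Agent.R096.Wk_689 Crest.Agent.R096.F_422
open Crest.Agent.R096.Seq_213 Crest.Agent.R096.Cg_501 Crest.Agent.R096.Sgd_298
open Crest.Agent.R096.Sec_892 Crest.Agent.R096.SecW_892
open Crest.Agent.R096.Pbn_147 (PBN EncV K3)

variable {ι Φ W J C Mo : Type} {M : MeshC ι Φ W} {fam : J → C} {am : Mo → C}
variable {s : GSt M (Sum.map fam (id : Mo → Mo))} {hs : BSep s am}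
  {hm : ∀ a, {m | am m = a}.Finite} {j0 : C → J} {hj0 : ∀ a, fam (j0 a) = a}
  {Act : C → Set ι} {far : ∀ a, PN fam am a → Set W}
variable {t : ∀ a, St M (pcol fam am a)} {Ph : C → Finset W} {s₃ : GSt M fam}

/-- **the new points of CUT outside a closed set** -/
theorem new_cutG {K : Type} {Q : Quads ι C K} (D : CutR s hs hm j0 hj0 Act far t Ph s₃) {j : J}
    {k : K}
    (hK : ∀ q F F' h m, q ∈ M.side F → q ∈ M.side F' → s.At F' h → s.lab h = Sum.inr m →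
      am m = fam j → ∀ w, s₃.At F w → s₃.lab w = j → Dinv_106.KFree s₃ Q k F w)
    {X : Set W} (hX : Dinv_106.KCl s₃ Q j k X) {w : W} (hw : w ∈ s₃.P) (hl : s₃.lab w = j)
    (hws : w ∉ s.P) (hwX : w ∉ X) :
    ∃ Y : Set W,
      (∀ F v, s.At F v → s.lab v = Sum.inl j → K3 s₃ Q j k F v → (v ∈ Y ↔ s.mu F v ∈ Y)) ∧
      (∀ v, v ∈ s.P → s.lab v = Sum.inl j → v ∈ s₃.P → (v ∈ Y ↔ v ∈ X)) ∧
      ∃ h ∈ s.P, ∃ m, s.lab h = Sum.inr m ∧ am m = fam j ∧ (∀ F, w ∈ M.On F ↔ h ∈ M.On F) ∧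
        ∃ B : Set W, h ∈ B ∧ (∀ x ∈ B, x ∈ s.P ∧ s.lab x = Sum.inr m) ∧
          (∀ F x, x ∈ B → s.At F x → (∀ y, s.At F y → s.lab y = Sum.inl j →
            M.Lace F x (s.mu F x) y (s.mu F y) → y ∈ Y) → s.mu F x ∈ B) ∧
          ∀ x ∈ B, ∀ F, s.At F x → ¬ St.Frozen M (Act (am m)) F := by
  have hK' : ∀ q F F' h m, q ∈ M.side F → q ∈ M.side F' → s.At F' h → s.lab h = Sum.inr m →
      am m = fam j → ∀ w, K3 s₃ Q j k F w := fun q F F' h m h1 h2 h3 h4 h5 w h6 h7 =>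
    hK q F F' h m h1 h2 h3 h4 h5 w h6 h7
  have hX' : ∀ F w, s₃.At F w → s₃.lab w = j → K3 s₃ Q j k F w → (w ∈ X ↔ s₃.mu F w ∈ X) :=
    fun F w hA hl hk => (Dinv_106.KCl.iff hX hA hl (hk hA hl)).symm
  have hKB : KBar (prS s hs hm j0 hj0 (fam j)) (K3 s₃ Q j k) := by
    intro q F F' h hq hq' hh hF' w
    obtain ⟨h3, m, h4, h5⟩ := pr_hp.1 hh
    exact hK' q F F' h m hq hq' ⟨h3, hF'⟩ h5 h4 w
  obtain ⟨Y, hY, hcom, -, hn⟩ := D.pbn (fam j) (nL am j) rfl (K3 s₃ Q j k) hKB X (by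
    intro F' w' hw' hl' hk
    obtain ⟨e3, e4⟩ := D.at_iff.2 ⟨hw', hl'⟩
    rw [← D.mu' e3.1 e4]
    exact hX' F' w' e3 e4 hk)
  obtain ⟨e1, e2⟩ := D.mem.1 ⟨hw, hl⟩
  obtain ⟨h, hh, hnb, B, h1, h2, h3, h4⟩ := hn w e1 (fun h => hws (mem_pr.1 h).1) e2
  obtain ⟨g1, m, g2, g3⟩ := pr_hp.1 hh
  refine ⟨Y, ?_, ?_, h, g1, m, g3, g2, hnb.1, B, h1, ?_, ?_, ?_⟩
  · intro F' w' hw' hl' hk
    obtain ⟨e3, e4⟩ := D.pr_of hw'.1 hl'
    exact hY F' w' ⟨e3, hw'.2⟩ e4 hk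
  · intro v hv hvl hv₃
    obtain ⟨e3, e4⟩ := D.pr_of hv hvl
    have e5 : s₃.lab v = j := Sum.inl_injective ((D.old hv₃ hv).symm.trans hvl)
    obtain ⟨e6, e7⟩ := D.mem.1 ⟨hv₃, e5⟩
    exact hcom v e3 e4 e6 e7
  · intro x hx
    obtain ⟨k1, k2⟩ := h2 x hx
    obtain ⟨k3, m', k4, k5⟩ := pr_hp.1 k1
    refine ⟨k3, ?_⟩
    have e3 : Sum.elim fam am (s.lab h) = fam j := by rw [g3]; exact g2
    have e4 := (pr_lab_iff (by rw [k5]; exact k4)).1 k2
    have e5 := (pr_lab_iff (hs := hs) (hm := hm) (i0 := ⟨Sum.inl (j0 (fam j)), hj0 _⟩) e3).1 rfl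
    rw [e4, ← e5, g3]
  · intro F x hx hA hno
    obtain ⟨k1, k2⟩ := h2 x hx
    refine h3 F x hx ⟨k1.1, hA.2⟩ ?_
    intro z hF he hzl hiff
    subst hF
    have hA' : (prS s hs hm j0 hj0 (fam j)).At z.F x := ⟨k1.1, hA.2⟩
    have h13 := z.lace
    rw [he] at h13
    have h14 := (lace_lo_right (prS s hs hm j0 hj0 (fam j)) hA' _ _).1 h13
    have h15 := lace_comm (prS s hs hm j0 hj0 (fam j)) (z.at_ true) hA' (by
      intro e
      have h16 := z.colr true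
      have h17 := k1.2
      rw [← e, h16] at h17
      exact Bool.false_ne_true h17.symm) h14
    obtain ⟨h18, h19⟩ := pr_at.1 (z.at_ true)
    have h20 : s.lab (z.e true) = Sum.inl j := (pr_lab_iff h19).1 hzl
    exact hwX (hiff.1 (hno (z.e true) h18 h20 h15))
  · intro x hx F hA
    obtain ⟨k1, k2⟩ := h2 x hx
    rw [g2]
    exact (h4 x hx).2 F ⟨k1.1, hA.2⟩

end Crest.Agent.R096.Nwi_688
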