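import Crest.Agent.R096.Afr1_112
import Crest.Agent.R096.Ne1_892

/-!
# R096 (row 96), DOORS, NEWIN (helper112): UPDOWN over the machine

`updown_m` : a barrier point `h` of the state with layers on a cell whose tile meets the end zone
`lev ≤ 3μ/8` (or `≥ 1 - 3μ/8`), in a set `B` of points of the barrier which is closed under the
chords on faces without points of the family of the barrier and has no point on a giant: then `B` has
a point of the outer state over the zone `lev ≤ 13μ/32` (or `≥ 1 - 13μ/32`).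
-/

set_option autoImplicit false
set_option linter.unusedSectionVars false
set_option linter.unusedVariables false
set_option linter.style.longLine false

open Set Topology Filter Metric Module Relation
open scoped Classical

namespace Crest.Agent.R096.Upd_112

open Crest.Agent.R096.Msh_715 Crest.Agent.R096.Agl5_543 Crest.Agent.R096.St_147
  Crest.Agent.R096.Seq_213 Crest.Agent.R096.Door_501 Crest.Agent.R096.Sla_184
  Crest.Agent.R096.Twr_438 Crest.Agent.R096.Exa_560 Crest.Agent.R096.Ess3_95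
  Crest.Agent.R096.Ess4_95 Crest.Agent.R096.Dfi_539 Crest.Agent.R096.Dfi_471
  Crest.Agent.R096.Ac_117 Crest.Agent.R096.Lm_117 Crest.Agent.R096.Cp_298
  Crest.Agent.R096.Coh_184 Crest.Agent.R096.Gm_298 Crest.Agent.R096.Cpo_642
  Crest.Agent.R096.Gl_422 Crest.Agent.R096.Flb_422 Crest.Agent.R096.Sid_422
  Crest.Agent.R096.Vrt_422 Crest.Agent.R096.Dfo_539
open Crest.Agent.R096.Brk1_582 Crest.Agent.R096.Brk2_582 Crest.Agent.R096.Brk3_582
  Crest.Agent.R096.Brk5_582 Crest.Agent.R096.Bsp_628 Crest.Agent.R096.Init_543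
  Crest.Agent.R096.Bar_106 Crest.Agent.R096.Dib_438 Crest.Agent.R096.Lam_847
  Crest.Agent.R096.Ess5_95 Crest.Agent.R096.Bgf_4 Crest.Agent.R096.Ebr1_95
  Crest.Agent.R096.Ebr4_95 Crest.Agent.R096.Rop_441 Crest.Agent.R096.Nmd1_698
  Crest.Agent.R096.Lbc_334 Crest.Agent.R096.Lv4_471 Crest.Agent.R096.Lv3_471
  Crest.Agent.R096.Afr_112 Crest.Agent.R096.Yl_471
open Crest.Agent.R096.Mbf_337 (sb KJ Tiny gau Cores Fine)
open Crest.Agent.R096.SkC1_961 (E3 FoamD Hom3)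
open Crest.Agent.R096.Frn_337 (Ti)
open Crest.Agent.R096.Frs_662 (slC)
open Crest.Agent.R096.Ess7_95 (KT Sh)
open Crest.Agent.R096.Dff_539 (vS)
open Crest.Agent.R096.Bmf_416 (coT)
open Crest.Agent.R096.Sla_184.Sla (hf vf old tg F0 Fn Out OnS InL In)

variable {δ κ0 R c0 : ℝ} {La Om : Set E3} {ι : Type} {Φ : FoamD δ κ0 R c0 La} {T : Tiling Om ι}
  {f g : E3 → E3} {κ1 κ2 μ : ℝ} {X : Set Φ.F} {J0 J V : Φ.F → Set ι}
  {ct ct' : Φ.F → ι} {A : Φ.F → E3 ≃ᵃ[ℝ] E3} {lam : Φ.F → ℝ} {z : Φ.F → E3}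
  {θ : Φ.F → E3 → E3} {φ : Φ.F → E3 → ℝ} {r₀ : Φ.F → ℝ}
  {L : Φ.F → Finset ℝ} [Nonempty (JJ Φ L)] {hG : GF Φ r₀ T f L} {bp : JJ Φ L → E3}
  {N' : BM Φ X → Set ℝ} {ρ1 ρ2 ρ3 ρ4 d : Φ.F → ℝ} {q₀ : BM Φ X → E3} {ε : BM Φ X → ℝ}
  {bm : BM Φ X → E3} {hGB : GFB Φ r₀ T f L (lRc Φ X μ ρ1 ρ3 d) ε}
  {v0F v1F : ∀ c, Φ.F → VxK T (KT T J X) c} {v0B v1B : ∀ c, BM Φ X → VxK T (KT T J X) c}
  {hLa : IsOpen La} {hC : Cores Φ T f κ1 κ2 X J0 J V ct A lam z θ φ}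
  {n : Ti X → ℕ} {hn : ∀ c, 0 < n c} {r : JJ Φ L ⊕ BM Φ X → E3}
  {Sf : JJ Φ L ⊕ BM Φ X → Set E3}
  {Lv : ∀ c, Φ.F ⊕ BM Φ X → Lev T (frontier ((slC hLa hC n hn).K c)) (JJ Φ L ⊕ BM Φ X)}
  {Tw : Twrs ((slC hLa hC n hn).sh fr3) (slC hLa hC n hn).n
    (outK (slC hLa hC n hn).hH (slC hLa hC n hn).dis (stB hGB bp bm) r)}
  {l0' : E3 → JJ Φ L ⊕ BM Φ X}

section s2

variable (N : NumD δ κ0 R c0 κ2 μ κ1)
  (bar : BarOut Φ T f κ1 μ X J0 J V θ hG bp N' ρ1 ρ2 ρ3 ρ4 d q₀ ε bm hGB v0B v1B)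
  (D : DIn (slC hLa hC n hn).hH (stB hGB bp bm) r Sf (nbA Φ X) (vS v0F v0B) (vS v1F v1B)
    (uA Φ hLa X θ) (AA Φ X μ κ1) (BA Φ X μ))
  (lo : LevOut (Kc := (slC hLa hC n hn).K) (stB hGB bp bm) (nbA Φ X) (uA Φ hLa X θ)
    (AA Φ X μ κ1) (BA Φ X μ) Lv)
  (tt : TwOut (slC hLa hC n hn) fr3 (stB hGB bp bm) r (vS v0F v0B) (vS v1F v1B) Lv Tw)
  (mon : Dff_539.Mon (slC hLa hC n hn) fr3 Lv Tw)
  (monT : ∀ c a j, ∀ w ∈ (trc (slC hLa hC n hn).hH (slC hLa hC n hn).dis (stB hGB bp bm)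
      r c a).P, w ∈ ((Tw.tw c a).pat (j + 1)).P → w ∈ ((Tw.tw c a).pat j).P)
  (rec : BR hLa (stB hGB bp bm) f X J θ coT BM.am BM.Zm (nbA Φ X) (vS v0F v0B) (vS v1F v1B)
    (uA Φ hLa X θ) (AA Φ X μ κ1) (BA Φ X μ) μ κ1)
include N bar D lo tt rec

/-- 471's `Reg` of the machine for the zone `t` -/
theorem reg_m (m : BM Φ X) {t : ℝ} (ht : (2 * Cn δ R + 1) * κ1 ≤ t) (ht1 : t < 1) :
    Reg (S := slC hLa hC n hn) (stB hGB bp bm) (vS v0F v0B) (vS v1F v1B) Lv r (coT m) m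
      (fun x => sb Φ (θ m.co x) m.am) (fun x => Φ.lev m.am (f x)) t (Cn δ R * κ1)
      ((2 * Cn δ R + 1) * κ1) := by
  have hb1 : (1 : ℝ) + μ / 16 ≤ 1 + μ / 16 := le_rfl
  obtain ⟨p, q, hM⟩ := rec.mo m
  have hN : ∀ e, (Pc Φ.F (coT m).1 ∩ Pc Φ.F e).Nonempty → e ∈ Nb Φ hLa (coT m).1 :=
    fun e he => mem_Nb.2 he
  have hnm : nbA Φ X (coT m) (Sum.inr m) := rfl
  exact reg_tiny hLa N.hδ N.hR N.hκ N.cn21 hC.tiny lo hM hN (rec.um (coT m) m)
    (by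
      have h1 := (Bar_543.fs_ge_c hLa hM hN (t := 3 * μ / 16) (by linarith [N.hμ])
        (by linarith [N.hμb])).1
      rw [rec.Bm (coT m) m]
      exact h1)
    (D.v0_lt (coT m) (Sum.inr m) hnm) (D.v1_gt (coT m) (Sum.inr m) hnm) N.l0 N.ra0
    (by rw [rec.Bm (coT m) m]; exact N.bB hb1) (by rw [rec.Bm (coT m) m]; exact N.bv1)
    (N.m0 hb1) (N.m1 hb1)
    (fun w hw hl _ => rec.trm w hw m hl) ht ht1

include mon monT

/-- **UPDOWN, generic zone** : `Y` a connected part of the frontier of the core of the barrier -/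
theorem updown_zone (m : BM Φ X) {h : E3}
    (hh : h ∈ (s2 (slC hLa hC n hn) fr3 Tw l0').P)
    (hl : (s2 (slC hLa hC n hn) fr3 Tw l0').lab h = Sum.inr m) {B : Set E3} (hhB : h ∈ B)
    (hBc : ∀ F x, x ∈ B → (s2 (slC hLa hC n hn) fr3 Tw l0').At F x →
      (s2 (slC hLa hC n hn) fr3 Tw l0').lab x = Sum.inr m →
      (∀ y, (s2 (slC hLa hC n hn) fr3 Tw l0').At F y → ∀ i,
        (s2 (slC hLa hC n hn) fr3 Tw l0').lab y = Sum.inl i → i.1 ≠ m.am) →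
      (s2 (slC hLa hC n hn) fr3 Tw l0').mu F x ∈ B)
    (hBf : ∀ F x, x ∈ B → (s2 (slC hLa hC n hn) fr3 Tw l0').At F x →
      (s2 (slC hLa hC n hn) fr3 Tw l0').lab x = Sum.inr m →
      ∀ c : Ti X, Sum.inr c ∉ ((slC hLa hC n hn).mn fr3).side F)
    (hc : (slC hLa hC n hn).In (coT m) h)
    {Y : Set E3} (hY : IsCompact Y) (hYc : IsPreconnected Y)
    (hYf : Y ⊆ frontier ((slC hLa hC n hn).K (coT m)))
    (hcl : ∀ q : T.Cell, q.set ⊆ frontier ((slC hLa hC n hn).K (coT m)) → (q.set ∩ Y).Nonempty →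
      ∀ x ∈ q.set, Φ.lev m.am (f x) ≤ 7 * μ / 16 ∨ 1 - 7 * μ / 16 ≤ Φ.lev m.am (f x))
    (hv : ∃ v : (slC hLa hC n hn).Vx (coT m), v.1 ∈ Y ∧ ∀ i,
      ¬ Rgn ((slC hLa hC n hn).sh fr3 (coT m)) (vS v0F v0B (coT m) (Sum.inr m))
        (vS v1F v1B (coT m) (Sum.inr m))
        (trc (slC hLa hC n hn).hH (slC hLa hC n hn).dis (stB hGB bp bm) r (coT m) (Sum.inr m))
        (exa fr3 (slC hLa hC n hn).hH (slC hLa hC n hn).dis (Lv (coT m) (Sum.inr m))) i v)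
    (hhY : ∀ x ∈ frontier ((slC hLa hC n hn).K (coT m)), (∀ p : T.RIdx (slC hLa hC n hn).HH,
      h ∈ P ((slC hLa hC n hn).T3.H p) → x ∈ P (T.H p.tile)) → x ∈ Y) :
    ∃ w ∈ B, w ∈ (outK (slC hLa hC n hn).hH (slC hLa hC n hn).dis (stB hGB bp bm) r).P ∧
      (stB hGB bp bm).lab w = Sum.inr m ∧ ∃ q : T.Cell,
        q.set ⊆ frontier ((slC hLa hC n hn).K (coT m)) ∧ (q.set ∩ Y).Nonempty ∧ w ∈ q.set := by
  obtain ⟨v', hv', hR⟩ := hv
  have hr := (bar.rm m.co m.co_notMem).2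
  have hX : Vcl Tw l0' (coT m) (EA (slC hLa hC n hn) (coT m) Y) (Sum.inr m) B := by
    rintro e' ⟨q, hq, heq, hqY⟩ j hj x hx hxP hxl hxF
    refine hBc _ x hx ⟨hxP, hxF⟩ hxl ?_
    rintro y ⟨hy, hyF⟩ i hyl hi
    -- a tile at the edge
    have hpe : e'.1.pt ∈ e'.1.set := e'.1.opn_sub (T.self_mem_oc _)
    obtain ⟨i0, hi0⟩ := T.at_nonempty e'.1.pt_mem
    have hsub : e'.1.set ⊆ P (T.H i0) := by
      rw [e'.1.set_eq]; exact T.cc_sub_tile hi0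
    have hfr := hr.fr _ (hq (heq hpe))
    obtain ⟨g1, g2⟩ := afree_in N bar D lo tt rec m (hsub hpe) (by linarith [hfr.1, hr.r12, hr.d0])
      (by linarith [hfr.2, hr.r34, hr.d0]) (hcl q hq hqY _ (heq hpe)) (coT m) e' hsub j
    have hfam : famB Φ L (BM Φ X)
        ((s2 (slC hLa hC n hn) fr3 Tw l0').lab y) = Sum.inl m.am := by
      rw [hyl]
      exact congrArg Sum.inl hi
    obtain ⟨a', x0, h1, h2, h4, -⟩ := on_vf hj hy hyF
    rcases x0 with w | w | v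
    · have k1 := ((Tw.tw (coT m) a').mv j).top_mem_P'.1 h1
      have k2 : w ∈ e'.1.opn := ((slC hLa hC n hn).sh fr3 (coT m)).top_mem_vert.1 h2
      have e1 : y = (slC hLa hC n hn).hp (coT m) j w := h4
      have h5 := lab_hp (l0 := l0') hj.le k1
      rw [← e1] at h5
      rw [h5, Tw.labj k1] at hfam
      subst hfam
      exact g1 j w k1 k2
    · have k1 := Twrs.mem_B.1 (((Tw.tw (coT m) a').mv j).bot_mem_P'.1 h1)
      have k2 : w ∈ e'.1.opn := ((slC hLa hC n hn).sh fr3 (coT m)).bot_mem_vert.1 h2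
      have e1 : y = (slC hLa hC n hn).hp (coT m) (j + 1) w := h4
      have h5 := lab_hp (l0 := l0') (show j + 1 ≤ (slC hLa hC n hn).n (coT m) from hj) k1
      rw [← e1] at h5
      rw [h5, Tw.labj k1] at hfam
      subst hfam
      exact g1 (j + 1) w k1 k2
    · have k1 := ((Tw.tw (coT m) a').mv j).vert_mem_P'.1 h1
      have e1 : y = (slC hLa hC n hn).vc (coT m) v.1 j := h4
      have h5 := lab_vp (l0 := l0') hj k1
      rw [← e1] at h5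
      rw [h5, Tw.labv k1] at hfam
      subst hfam
      have k2 : ∃ b, ((slC hLa hC n hn).sh fr3 (coT m)).en e' b = v := by
        rcases h2 with ⟨_, _, h⟩ | ⟨_, _, h⟩ | ⟨b', h⟩
        · cases h
        · cases h
        · exact ⟨b', (Sum.inr.inj (Sum.inr.inj h)).symm⟩
      obtain ⟨b, rfl⟩ := k2
      exact g2 b k1
  have hin := (in2 D lo tt hh hc).2
  have hfam : famB Φ L (BM Φ X)
      ((s2 (slC hLa hC n hn) fr3 Tw l0').lab h) = Sum.inr m := by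
    rw [hl]; rfl
  rw [hfam] at hin
  have hbase : (∃ j w, j ≤ (slC hLa hC n hn).n (coT m) ∧
        w ∈ ((Tw.tw (coT m) (Sum.inr m)).pat j).P ∧ w ∈ Y ∧ h = (slC hLa hC n hn).hp (coT m) j w) ∨
      ∃ j, ∃ v : (slC hLa hC n hn).Vx (coT m), j < (slC hLa hC n hn).n (coT m) ∧
        v ∈ ((Tw.tw (coT m) (Sum.inr m)).mv j).Qv ∧ v.1 ∈ Y ∧
        h = (slC hLa hC n hn).vc (coT m) v.1 j := by
    rcases hin with ⟨j, q, h1, h2, h4, h5, h6, -, -⟩ | ⟨j, v, h1, h2, h4, -⟩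
    · obtain ⟨e', he'⟩ := pat_onE h4
      obtain ⟨g1, g2, g4, g5⟩ := at_hp e' he' h1 h2
      exact Or.inl ⟨j, q, h2, h4, hhY q h6 (fun p hp => (at3_O g2 (h5 ▸ g4) hc hp).1), h5⟩
    · obtain ⟨g1, g2, g4, g5⟩ := at_vc (S := slC hLa hC n hn) v h1
      exact Or.inr ⟨j, v, h1, h2, hhY v.1 g2 (fun p hp => (at3_O g2 (h4 ▸ g4) hc hp).1), h4⟩
  obtain ⟨e', he', w, h1, h2⟩ := Ne_892.y_three (l0 := l0') tt
    (fun j w hw1 hw2 => mon (coT m) _ j w hw2 hw1)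
    (fun j w hw1 hw2 => monT (coT m) _ j w hw2 hw1) hY hYc hYf hv' hR hX hhB hl hbase
  rcases h2 with ⟨-, h4, h5, h6⟩ | ⟨h4, h5, h6⟩
  · exfalso
    let G : ((slC hLa hC n hn).sh fr3 (coT m)).Fk :=
      ⟨((slC hLa hC n hn).sh fr3 (coT m)).fc e' false,
        ((slC hLa hC n hn).sh fr3 (coT m)).fc_side e' false⟩
    have hG : (slC hLa hC n hn).hp (coT m) ((slC hLa hC n hn).n (coT m)) w ∈
        ((slC hLa hC n hn).mn fr3).On (hf G ((slC hLa hC n hn).n (coT m))) :=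
      (Sla.on_hf le_rfl).2 ⟨w, ((slC hLa hC n hn).sh fr3 (coT m)).on_of_onE (e := e') h1 false, rfl⟩
    refine hBf (hf G ((slC hLa hC n hn).n (coT m))) _ h4 ⟨h5, hG⟩ h6 (coT m) ?_
    have h7 : ((slC hLa hC n hn).n (coT m) - 1) + 1 = (slC hLa hC n hn).n (coT m) := by
      have := (slC hLa hC n hn).npos (coT m)
      omega
    have h8 : ((slC hLa hC n hn).mn fr3).side (hf G ((slC hLa hC n hn).n (coT m))) =
        s(Sum.inl (tg G ((slC hLa hC n hn).n (coT m) - 1)), Sum.inr (coT m)) :=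
      (((slC hLa hC n hn).cols fr3).cl (coT m)).side_bot G h7
    rw [h8]
    exact Sym2.mem_mk_right _ _
  · obtain ⟨k1, k2, k3⟩ := mem_trc.1 h4
    obtain ⟨q, hq, heq, hqY⟩ := he'
    refine ⟨w, h5, k1, ?_, q, hq, hqY, heq (e'.1.opn_sub h1)⟩
    rw [lab_old k1] at h6
    exact h6

/-- **UPDOWN, the low end** -/
theorem updown_lo (m : BM Φ X) {p : T.RIdx (slC hLa hC n hn).HH} {h x0 : E3}
    (hh : h ∈ (s2 (slC hLa hC n hn) fr3 Tw l0').P)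
    (hl : (s2 (slC hLa hC n hn) fr3 Tw l0').lab h = Sum.inr m)
    (hhp : h ∈ P ((slC hLa hC n hn).T3.H p)) (hx0 : x0 ∈ P (T.H p.tile))
    (hz : Φ.lev m.am (f x0) ≤ 3 * μ / 8) {B : Set E3} (hhB : h ∈ B)
    (hBc : ∀ F x, x ∈ B → (s2 (slC hLa hC n hn) fr3 Tw l0').At F x →
      (s2 (slC hLa hC n hn) fr3 Tw l0').lab x = Sum.inr m →
      (∀ y, (s2 (slC hLa hC n hn) fr3 Tw l0').At F y → ∀ i,
        (s2 (slC hLa hC n hn) fr3 Tw l0').lab y = Sum.inl i → i.1 ≠ m.am) →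
      (s2 (slC hLa hC n hn) fr3 Tw l0').mu F x ∈ B)
    (hBf : ∀ F x, x ∈ B → (s2 (slC hLa hC n hn) fr3 Tw l0').At F x →
      (s2 (slC hLa hC n hn) fr3 Tw l0').lab x = Sum.inr m →
      ∀ c : Ti X, Sum.inr c ∉ ((slC hLa hC n hn).mn fr3).side F) :
    ∃ w ∈ B, w ∈ (outK (slC hLa hC n hn).hH (slC hLa hC n hn).dis (stB hGB bp bm) r).P ∧
      (stB hGB bp bm).lab w = Sum.inr m ∧ Φ.lev m.am (f w) ≤ 13 * μ / 32 := by
  obtain ⟨n1, n2, n3, n4, n5, -⟩ := N.base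
  obtain ⟨hd, hr⟩ := bar.rm m.co m.co_notMem
  have hO : h ∈ Om := (s2_dim hh).1
  have hxt : h ∈ P (T.H p.tile) := Sla.P3_sub p hhp
  rcases Sla.out_or (S := slC hLa hC n hn) hO with ho | ⟨c, hc⟩
  · -- an outer point
    obtain ⟨g1, g2⟩ := s2_out hh ho
    have g3 : (stB hGB bp bm).lab h = Sum.inr m := g2.symm.trans hl
    have hga := bar.gau m h g1.1 g3
    have h3 := (abs_le.1 ((hr.tile_osc hxt (by linarith [hga.1, hr.d0])
      (by linarith [hga.2, hr.r34, hr.d0]) hx0).2.2 m.am)).2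
    exact ⟨h, hhB, g1, g3, by linarith⟩
  · -- in the layers
    have hcm : c = coT m := by
      have := (in2 D lo tt hh hc).1
      rw [hl] at this
      exact this.symm
    subst hcm
    have hR := reg_m N bar D lo tt rec m (t := 25 * μ / 64) (by linarith) (by linarith)
    obtain ⟨v, k1, k2⟩ := hR.vlo
    have hcl : ∀ q : T.Cell, q.set ⊆ frontier ((slC hLa hC n hn).K (coT m)) →
        (q.set ∩ {x | x ∈ frontier ((slC hLa hC n hn).K (coT m)) ∧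
          sb Φ (θ m.co x) m.am ≤ 25 * μ / 64}).Nonempty →
        ∀ x ∈ q.set, Φ.lev m.am (f x) ≤ 13 * μ / 32 := by
      rintro q hq ⟨z, hz1, -, hz2⟩ x hx
      have h2 := abs_le.1 (hR.osc q hq x hx z hz1)
      have h4 := abs_le.1 (hR.nr x (hq hx))
      linarith [h2.1, h2.2, h4.1, h4.2]
    obtain ⟨w, w1, w2, w3, q, w4, w5, w6⟩ := updown_zone N bar D lo tt mon monT rec m hh hl hhB hBc
      hBf hc (Y := {x | x ∈ frontier ((slC hLa hC n hn).K (coT m)) ∧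
        sb Φ (θ m.co x) m.am ≤ 25 * μ / 64}) hR.lo.1 hR.lo.2 (fun x hx => hx.1)
      (fun q hq hqY x hx => Or.inl (by linarith [hcl q hq hqY x hx]))
      ⟨v, ⟨v.2.2, k1⟩, k2⟩ (fun x hx hxp => by
        have h5 := hxp p hhp
        have hfr := hr.fr x hx
        have h3 := (abs_le.1 ((hr.tile_osc h5 (by linarith [hfr.1, hr.r12, hr.d0])
          (by linarith [hfr.2, hr.r34, hr.d0]) hx0).2.2 m.am)).2
        have h4 := abs_le.1 (hR.nr x hx)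
        exact ⟨hx, by linarith [h4.1, h4.2]⟩)
    exact ⟨w, w1, w2, w3, hcl q w4 w5 w w6⟩

/-- **UPDOWN, the high end** -/
theorem updown_hi (m : BM Φ X) {p : T.RIdx (slC hLa hC n hn).HH} {h x0 : E3}
    (hh : h ∈ (s2 (slC hLa hC n hn) fr3 Tw l0').P)
    (hl : (s2 (slC hLa hC n hn) fr3 Tw l0').lab h = Sum.inr m)
    (hhp : h ∈ P ((slC hLa hC n hn).T3.H p)) (hx0 : x0 ∈ P (T.H p.tile))
    (hz : 1 - 3 * μ / 8 ≤ Φ.lev m.am (f x0)) {B : Set E3} (hhB : h ∈ B)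
    (hBc : ∀ F x, x ∈ B → (s2 (slC hLa hC n hn) fr3 Tw l0').At F x →
      (s2 (slC hLa hC n hn) fr3 Tw l0').lab x = Sum.inr m →
      (∀ y, (s2 (slC hLa hC n hn) fr3 Tw l0').At F y → ∀ i,
        (s2 (slC hLa hC n hn) fr3 Tw l0').lab y = Sum.inl i → i.1 ≠ m.am) →
      (s2 (slC hLa hC n hn) fr3 Tw l0').mu F x ∈ B)
    (hBf : ∀ F x, x ∈ B → (s2 (slC hLa hC n hn) fr3 Tw l0').At F x →
      (s2 (slC hLa hC n hn) fr3 Tw l0').lab x = Sum.inr m →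
      ∀ c : Ti X, Sum.inr c ∉ ((slC hLa hC n hn).mn fr3).side F) :
    ∃ w ∈ B, w ∈ (outK (slC hLa hC n hn).hH (slC hLa hC n hn).dis (stB hGB bp bm) r).P ∧
      (stB hGB bp bm).lab w = Sum.inr m ∧ 1 - 13 * μ / 32 ≤ Φ.lev m.am (f w) := by
  obtain ⟨n1, n2, n3, n4, n5, -⟩ := N.base
  obtain ⟨hd, hr⟩ := bar.rm m.co m.co_notMem
  have hO : h ∈ Om := (s2_dim hh).1
  have hxt : h ∈ P (T.H p.tile) := Sla.P3_sub p hhp
  rcases Sla.out_or (S := slC hLa hC n hn) hO with ho | ⟨c, hc⟩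
  · -- an outer point
    obtain ⟨g1, g2⟩ := s2_out hh ho
    have g3 : (stB hGB bp bm).lab h = Sum.inr m := g2.symm.trans hl
    have hga := bar.gau m h g1.1 g3
    have h3 := (abs_le.1 ((hr.tile_osc hxt (by linarith [hga.1, hr.d0])
      (by linarith [hga.2, hr.r34, hr.d0]) hx0).2.2 m.am)).1
    exact ⟨h, hhB, g1, g3, by linarith⟩
  · -- in the layers
    have hcm : c = coT m := by
      have := (in2 D lo tt hh hc).1
      rw [hl] at this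
      exact this.symm
    subst hcm
    have hR := reg_m N bar D lo tt rec m (t := 25 * μ / 64) (by linarith) (by linarith)
    obtain ⟨v, k1, k2⟩ := hR.vhi
    have hcl : ∀ q : T.Cell, q.set ⊆ frontier ((slC hLa hC n hn).K (coT m)) →
        (q.set ∩ {x | x ∈ frontier ((slC hLa hC n hn).K (coT m)) ∧
          1 - 25 * μ / 64 ≤ sb Φ (θ m.co x) m.am}).Nonempty →
        ∀ x ∈ q.set, 1 - 13 * μ / 32 ≤ Φ.lev m.am (f x) := by
      rintro q hq ⟨z, hz1, -, hz2⟩ x hx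
      have h2 := abs_le.1 (hR.osc q hq x hx z hz1)
      have h4 := abs_le.1 (hR.nr x (hq hx))
      linarith [h2.1, h2.2, h4.1, h4.2]
    obtain ⟨w, w1, w2, w3, q, w4, w5, w6⟩ := updown_zone N bar D lo tt mon monT rec m hh hl hhB hBc
      hBf hc (Y := {x | x ∈ frontier ((slC hLa hC n hn).K (coT m)) ∧
        1 - 25 * μ / 64 ≤ sb Φ (θ m.co x) m.am}) hR.hi.1 hR.hi.2 (fun x hx => hx.1)
      (fun q hq hqY x hx => Or.inr (by linarith [hcl q hq hqY x hx]))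
      ⟨v, ⟨v.2.2, k1⟩, k2⟩ (fun x hx hxp => by
        have h5 := hxp p hhp
        have hfr := hr.fr x hx
        have h3 := (abs_le.1 ((hr.tile_osc h5 (by linarith [hfr.1, hr.r12, hr.d0])
          (by linarith [hfr.2, hr.r34, hr.d0]) hx0).2.2 m.am)).1
        have h4 := abs_le.1 (hR.nr x hx)
        exact ⟨hx, by linarith [h4.1, h4.2]⟩)
    exact ⟨w, w1, w2, w3, hcl q w4 w5 w w6⟩

end s2

end Crest.Agent.R096.Upd_112
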