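import Crest.Agent.R096.Nwi5_688
import Crest.Agent.R096.Nwi6_18
import Crest.Agent.R096.Upd1_112
import Crest.Agent.R096.Tpn1_72
import Crest.Agent.R096.Whi1_72
import Crest.Agent.R096.Hop1_895

/-!
# R096 (row 96), DOORS, NEWIN (helper688), part 7: **895's `NEWINM` from 778's `NE1M`**
-/

set_option autoImplicit false
set_option linter.unusedSectionVars false
set_option linter.unusedVariables false
set_option linter.style.longLine false

open Set Topology Filter Metric Module Relation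
open scoped Classical

namespace Crest.Agent.R096.Nwi_688

open Crest.Agent.R096.Msh_715 Crest.Agent.R096.Coh_184 Crest.Agent.R096.Lab_184
  Crest.Agent.R096.Main_4 Crest.Agent.R096.Agl5_543
  Crest.Agent.R096.Seq_213 Crest.Agent.R096.St_147 Crest.Agent.R096.Door_501
  Crest.Agent.R096.Twr_438 Crest.Agent.R096.Exa_560
  Crest.Agent.R096.Ess3_95 Crest.Agent.R096.Ess4_95 Crest.Agent.R096.Ac_117 Crest.Agent.R096.Lm_117
  Crest.Agent.R096.Dfi_539 Crest.Agent.R096.Dfi_471 Crest.Agent.R096.Dfo_539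
  Crest.Agent.R096.Sla_184 Crest.Agent.R096.Gm_298
  Crest.Agent.R096.Brk1_582 Crest.Agent.R096.Brk2_582 Crest.Agent.R096.Brk3_582
  Crest.Agent.R096.Brk5_582 Crest.Agent.R096.Bsp_628 Crest.Agent.R096.Init_543
  Crest.Agent.R096.Lv3_471 Crest.Agent.R096.Lv4_471 Crest.Agent.R096.Slt_471
  Crest.Agent.R096.Dib_438 Crest.Agent.R096.Rop_441 Crest.Agent.R096.Frk_441
  Crest.Agent.R096.Dff_539 Crest.Agent.R096.Frs_662 Crest.Agent.R096.Qdl_662
  Crest.Agent.R096.Cg_501 Crest.Agent.R096.SecW_892 Crest.Agent.R096.Sgd_298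
  Crest.Agent.R096.Dfg_539 Crest.Agent.R096.Nmd1_698 Crest.Agent.R096.Civ_662
  Crest.Agent.R096.Lbc_334 Crest.Agent.R096.Bar_106 Crest.Agent.R096.Bgf_4
  Crest.Agent.R096.Pbn_147 Crest.Agent.R096.Tro_147
  Crest.Agent.R096.Tro_914 Crest.Agent.R096.Cns_778 Crest.Agent.R096.Hop_895
open Crest.Agent.R096.Sgo_298 (RmA rout ActR)
open Crest.Agent.R096.Mbf_337 (KJ Tiny Cores Fine sb gau Star Levels Words)
open Crest.Agent.R096.SkC1_961 (E3 FoamD Hom3)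
open Crest.Agent.R096.Frn_337 (Ti)
open Crest.Agent.R096.Ess7_95 (KT Sh)
open Crest.Agent.R096.Dia_316 (nbT)
open Crest.Agent.R096.Bmf_416 (coT coT_fin)
open Crest.Agent.R096.Sla_184.Sla (hf vf old Fn Out F0)
open Crest.Agent.R096.Zwk_560 (ZnF zwalk_le zwalk_ge)

/-- **THE NEW POINTS OF THE END ZONE ARE IN `Y`**: 895's `NEWINM` from 778's `NE1M` -/
theorem newinm (HN : NE1M) : NEWINM := by
  intro δ κ0 R c0 κ2 κ3 κp μ κ1 Om La f g hLa Φ ι T X J0 J V ct A lam z θ φ M hC ct' r₀ hR hM h1 h2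
    L _ hG D bp lam₀ v₀ v₁ r v0 v1 ρ1 ρ2 ρ3 ρ4 d q₀ ε bm hGB v0B v1B n hn Lv Tw MM _ hnC l0' hmf j0
    hj0 hs far t Ph s₃ g1 g2 g3 DR pB j m0 k hm0 hk Y hbY hY hgi w hw hl hNE
  obtain ⟨n1, n2, n3, n4, n5, -⟩ := MM.N.base
  have hRm := Lbc_334.rma_bo MM.bar
  have hga := Lbc_334.ga_bo MM.bar
  have hrE : ∀ j : JJ Φ L, ∃ q, r j ∈ P (T.H q) ∧ (∀ c ∉ X, q ∉ V c) ∧
      ∀ (k : Init_543.QK (Pc Φ.F)) (s : ℝ), j.1 ∈ k.B → κ1 < s →
        q ∉ Act0 T (Pc Φ.F) (bc (F := Φ.F)) (RF Φ r₀) f (KorJ Φ J0) s k := by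
    intro j
    obtain ⟨-, q, g1, -, g2, g3⟩ := MM.root j
    exact ⟨q, g1, fun c _ => g2 c, g3⟩
  have hconn : ∀ j, (st0 hG bp).Conn j := fun j =>
    st0_conn hLa hR (fun i => ⟨(MM.init.base i).1, (MM.init.base i).2.1, (MM.init.base i).2.2.1⟩) j
  have htl := MM.brec.trl
  have hkB : j.1 ∈ k.B := (qin k _).1 hk
  obtain ⟨hws, p, hpK, hwp, x0, hx0, hlev⟩ := hNE
  choose jm hjm hfam hbar using MM.ord
  -- the end
  obtain ⟨σ, hσ⟩ : ∃ σ : Bool, (σ = false → Φ.lev m0.am (f x0) ≤ 3 * μ / 8) ∧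
      (σ = true → 1 - 3 * μ / 8 ≤ Φ.lev m0.am (f x0)) := by
    rcases hlev with h | h
    · exact ⟨false, fun _ => h, fun h => absurd h (by decide)⟩
    · exact ⟨true, fun h => absurd h (by decide), fun _ => h⟩
  have hr2 := root2 (h3 := fr3) (Tw := Tw) (l0 := l0') MM.din (Sum.inl j)
  have hbm := (DR.good j.1).far_mem (g2 j.1 (nL BM.am j) j rfl)
  obtain ⟨hb3, hbl3⟩ := DR.mem.2 ⟨hbm.1, hbm.2⟩
  refine Nwi_18.newinT (b := r j) (jm := jm) (Zf := ZnF T Φ f X (lRc Φ X μ ρ1 ρ3 d) ε (Dz μ σ))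
    (Zs := fun m => {x | Dz μ σ (Φ.lev m.am (f x))}) DR (j := j) (k := k) ?_ hY
    (fun _ _ => Sgo_298.inr_ActR) ?_ hr2.1 hr2.2 hb3 hbY hjm ?_ (fun m _ => MM.din.h1 (Sum.inr m))
    (fun m _ => (MM.din.root (Sum.inr m)).2) ?_ ?_ ?_ hw hl hws ?_ ?_
  · -- `hK`
    refine hK_m (tb := 7 * μ / 32) (σ' := μ / 4) (lm := 3 * μ / 16 + Cn δ R * κ1)
      (fun m => posM_m MM.N hRm MM.din MM.lo MM.tt MM.brec hga m) ?_ (by linarith) pB hkB
    linarith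
  · -- the giants of `s₃`
    rintro F v ⟨c, hc⟩ hA hlv
    exact hgi v hA.1 hlv ⟨c, F, hc, hA.2⟩
  · -- Ord
    intro m _ c i hi
    exact (hbar c m).1 i hi
  · -- late
    intro Y' hY' hG' c G m ham x y hx hxl hy hyl
    refine Lat_498.late_in (tb := 7 * μ / 32) (σ' := μ / 4) (lb := 3 * μ / 16 + Cn δ R * κ1)
      (by linarith) pB (by linarith) hkB (jm := jm c) (fun i hi _ => ?_)
      (fun i hi _ => (hfam c j.1 i hi).2) hY' (fun F v hF hA hlv => hG' F v ⟨c, hF⟩ hA hlv)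
      (Or.inl ⟨G, jm c, le_rfl, hjm c, rfl⟩) hy hyl hx (fun p hpK hp hkor e he => ?_)
    · rw [(hfam c j.1 i hi).1, (hfam c j.1 (i + 1) (by omega)).1]
    · have ham' : m.am = j.1 := ham
      rw [← ham'] at he
      exact posM_m MM.N hRm MM.din MM.lo MM.tt MM.brec hga m x hx.1 hxl p hpK hp hkor e he
  · intro m ham F hF hd y hy
    exact no1_m MM.N MM.bar htl (ham) hF hd hy
  · rintro m ham c e ⟨F, hF, -, w', hwe, hwF⟩ i hi y hy
    exact no2_m MM.N MM.bar MM.din MM.lo MM.tt htl MM.v0l MM.v1l ham hF hwe hwF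
      (lt_of_lt_of_le hi (hjm c)) hy
  · -- start
    intro m ham h hhl hhP hsame B hhB hB1 hB2
    have ham' : m.am = j.1 := ham
    have hmm : m.am = m0.am := ham'.trans hm0.symm
    by_cases hfr : ∃ x ∈ B, ∃ F, GiF F ∧ (s2 (slC hLa hC n hn) fr3 Tw l0').At F x
    · exact Or.inr hfr
    refine Or.inl ?_
    obtain ⟨p1, p2, -⟩ := pts3 (hKK := (Lay_316.lay_sla hLa hC n hn).core)
      (Dff_539.cutOut_of DR) hw
    obtain ⟨F, h3, h4, -⟩ := exists_faceK (h3 := fr3) (hH := (Lay_316.lay_sla hLa hC n hn).core)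
      (hdis := Sla.dis_KK) p1 p2 hwp hpK
    have hhp : h ∈ P ((slC hLa hC n hn).T3.H p) := (sideN_tile ((hsame F).1 h3) h4).1
    have hBc : ∀ F x, x ∈ B → (s2 (slC hLa hC n hn) fr3 Tw l0').At F x →
        (s2 (slC hLa hC n hn) fr3 Tw l0').lab x = Sum.inr m →
        (∀ y, (s2 (slC hLa hC n hn) fr3 Tw l0').At F y → ∀ i,
          (s2 (slC hLa hC n hn) fr3 Tw l0').lab y = Sum.inl i → i.1 ≠ m.am) →
        (s2 (slC hLa hC n hn) fr3 Tw l0').mu F x ∈ B := fun F x hx hA _ hno =>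
      hB2 F x hx hA fun y hy hyl => hno y hy j hyl ham'.symm
    have hBf : ∀ F x, x ∈ B → (s2 (slC hLa hC n hn) fr3 Tw l0').At F x →
        (s2 (slC hLa hC n hn) fr3 Tw l0').lab x = Sum.inr m →
        ∀ c : Ti X, Sum.inr c ∉ ((slC hLa hC n hn).mn fr3).side F := fun F x hx hA _ c hc =>
      hfr ⟨x, hx, F, ⟨c, hc⟩, hA⟩
    cases σ
    · obtain ⟨x, hx, hxo, hxl, hxz⟩ := Upd_112.updown_lo MM.N MM.bar MM.din MM.lo MM.tt MM.mon
        MM.monT MM.brec m hhP hhl hhp hx0 (by rw [hmm]; exact hσ.1 rfl) hhB hBc hBf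
      refine ⟨x, hx, hxo, ?_⟩
      show Φ.lev m.am (f x) ≤ 7 * μ / 16
      linarith
    · obtain ⟨x, hx, hxo, hxl, hxz⟩ := Upd_112.updown_hi MM.N MM.bar MM.din MM.lo MM.tt MM.mon
        MM.monT MM.brec m hhP hhl hhp hx0 (by rw [hmm]; exact hσ.2 rfl) hhB hBc hBf
      refine ⟨x, hx, hxo, ?_⟩
      show 1 - 7 * μ / 16 ≤ Φ.lev m.am (f x)
      linarith
  · -- conn
    intro m ham Y' hbY' hY' hG' B hB1 hB2 hB3 x hx hxl hxz hxB
    obtain ⟨y, y1, y2, -, -, -, y6, y7, y8, -, -, y11⟩ := Whi_72.wall_both (hLa := hLa) (hC := hC)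
      (n := n) (hn := hn) (r := r) MM.N hR MM.lev MM.bar m σ
    have hyB : y ∉ B := fun hyB => Tpn_72.top_notin_m MM.N MM.k2 MM.words MM.lev hconn MM.bar
      MM.din MM.lo MM.tt MM.brec hrE pB
      (HN δ κ0 R c0 κ2 κ3 κp μ κ1 Om La f g hLa Φ ι T X J0 J V ct A lam z θ φ M hC ct' r₀ hR
        hM h1 h2 L hG D bp lam₀ v₀ v₁ r v0 v1 ρ1 ρ2 ρ3 ρ4 d q₀ ε bm hGB v0B v1B n hn Lv Tw MM hnC
        l0' m) hkB ham hbY' hY' hB1 hB2 hB3 hyB y8
    refine ⟨y, y11, y2, ?_, hyB⟩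
    cases σ
    · have hxz' : Φ.lev m.am (f x) ≤ 7 * μ / 16 := hxz
      exact zwalk_le (t0 := 7 * μ / 16) hLa hR n4 (by linarith) MM.lev MM.bar (by linarith)
        (by linarith) hx.1 hxl hxz' y1 y2 (by linarith [y6 rfl])
    · have hxz' : 1 - 7 * μ / 16 ≤ Φ.lev m.am (f x) := hxz
      exact zwalk_ge (t0 := 1 - 7 * μ / 16) hLa hR n4 (by linarith) MM.lev MM.bar (by linarith)
        (by linarith) hx.1 hxl hxz' y1 y2 (by linarith [y7 rfl])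

end Crest.Agent.R096.Nwi_688
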