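import Crest.Agent.R096.Upd1_645
import Crest.Agent.R096.Lbc1_334

/-!
# R096 (row 96), DOORS, NEWIN (helper645), piece B6: UPDOWN over the end zones, MACHINE

`updown_m` : letters of 334's Lbc1 (`N D lo tt rec` = fields of 895's `Mach`): a point `y` of the
barrier `m` in the layers, on a tile which meets `{lev ≤ 3μ/8}` (resp. `{lev ≥ 1 - 3μ/8}`), in a set
`B` closed under the barrier chords on the faces without points of the family `am m` and without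
frozen points: `B` contains a trace point with level `≤ 7μ/16` (resp. `≥ 1 - 7μ/16`).
-/

set_option autoImplicit false
set_option linter.unusedSectionVars false
set_option linter.unusedVariables false
set_option linter.style.longLine false

open Set Topology Filter Metric Module Relation
open scoped Classical

namespace Crest.Agent.R096.Upd_645

open Crest.Agent.R096.Msh_715 Crest.Agent.R096.Coh_184 Crest.Agent.R096.Lab_184
  Crest.Agent.R096.Main_4 Crest.Agent.R096.Agl5_543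
  Crest.Agent.R096.Seq_213 Crest.Agent.R096.St_147 Crest.Agent.R096.Door_501
  Crest.Agent.R096.Twr_438 Crest.Agent.R096.Exa_560
  Crest.Agent.R096.Ess3_95 Crest.Agent.R096.Ess4_95 Crest.Agent.R096.Ac_117 Crest.Agent.R096.Lm_117
  Crest.Agent.R096.Dfi_539 Crest.Agent.R096.Dfi_471 Crest.Agent.R096.Dfo_539
  Crest.Agent.R096.Sla_184 Crest.Agent.R096.Gm_298
  Crest.Agent.R096.Brk1_582 Crest.Agent.R096.Brk2_582 Crest.Agent.R096.Brk3_582
  Crest.Agent.R096.Brk5_582 Crest.Agent.R096.Bsp_628 Crest.Agent.R096.Init_543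
  Crest.Agent.R096.Lv3_471 Crest.Agent.R096.Lv4_471 Crest.Agent.R096.Slt_471
  Crest.Agent.R096.Dib_438 Crest.Agent.R096.Rop_441 Crest.Agent.R096.Frk_441
  Crest.Agent.R096.Dff_539 Crest.Agent.R096.Frs_662 Crest.Agent.R096.Qdl_662
  Crest.Agent.R096.Dfg_539 Crest.Agent.R096.Nmd1_698 Crest.Agent.R096.Lbc_334
open Crest.Agent.R096.Mbf_337 (KJ Tiny Cores Fine sb gau)
open Crest.Agent.R096.SkC1_961 (E3 FoamD Hom3)
open Crest.Agent.R096.Frn_337 (Ti)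
open Crest.Agent.R096.Ess7_95 (KT)
open Crest.Agent.R096.Dia_316 (nbT)
open Crest.Agent.R096.Bar_106 (Fs Fm Gm)
open Crest.Agent.R096.St_147.St (Frozen)

variable {δ κ0 R c0 : ℝ} {La Om : Set E3} {ι : Type} {Φ : FoamD δ κ0 R c0 La} {T : Tiling Om ι}
  {f g : E3 → E3} {κ1 κ2 μ : ℝ} {X : Set Φ.F} {J0 J V : Φ.F → Set ι}
  {ct ct' : Φ.F → ι} {Aj : Φ.F → E3 ≃ᵃ[ℝ] E3} {lam : Φ.F → ℝ} {z : Φ.F → E3}
  {θ : Φ.F → E3 → E3} {φ : Φ.F → E3 → ℝ} {r₀ : Φ.F → ℝ}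
  {L : Φ.F → Finset ℝ} [Nonempty (JJ Φ L)]
  {Mo : Type} {co : Mo → Ti X} {am : Mo → Φ.F} {Zm : Mo → Set Φ.F} [Nonempty (JJ Φ L ⊕ Mo)]
  {sB : GSt (meshC T fr3) (Sum.map (fun j : JJ Φ L => j.1) (id : Mo → Mo))}
  {r : JJ Φ L ⊕ Mo → E3} {Sf : JJ Φ L ⊕ Mo → Set E3} {nb : Ti X → Φ.F ⊕ Mo → Prop}
  {hLa : IsOpen La} {hC : Cores Φ T f κ1 κ2 X J0 J V ct Aj lam z θ φ}
  {n : Ti X → ℕ} {hn : ∀ c, 0 < n c}
  {v0 v1 : ∀ c, Φ.F ⊕ Mo → VxK T (slC hLa hC n hn).K c} {u : Ti X → Φ.F ⊕ Mo → E3 → ℝ}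
  {A B : Ti X → Φ.F ⊕ Mo → ℝ}
  {Lx : ∀ c, Φ.F ⊕ Mo → Lev T (frontier ((slC hLa hC n hn).K c)) (JJ Φ L ⊕ Mo)}
  {Tw : Twrs ((slC hLa hC n hn).sh fr3) (slC hLa hC n hn).n
    (outK (slC hLa hC n hn).hH (slC hLa hC n hn).dis sB r)} {l0' : E3 → JJ Φ L ⊕ Mo}

/-- **the positions of the families**, `σ₁ = μ / 2 - Cn * κ1` -/
theorem posF_m (N : NumD δ κ0 R c0 κ2 μ κ1)
    (lo : LevOut (Kc := (slC hLa hC n hn).K) sB nb u A B Lx)
    (rec : BR hLa sB f X J θ co am Zm nb v0 v1 u A B μ κ1) :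
    PosF (S := slC hLa hC n hn) sB nb v0 v1 u A B Lx r (fun a x => Φ.lev a (f x))
      (μ / 2 - Cn δ R * κ1) (Cn δ R * κ1) := by
  have hCκ : 0 ≤ Cn δ R * κ1 := N.cn0
  obtain ⟨n1, n2, n3, n4, n5, n6⟩ := N.base
  have htr' : ∀ w ∈ sB.P, ∀ a, Sum.map (fun j : JJ Φ L => j.1) (id : Mo → Mo) (sB.lab w) =
      Sum.inl a → μ ≤ Φ.lev a (f w) ∧ Φ.lev a (f w) ≤ 1 - μ := by
    intro w hw a ha
    rcases hl : sB.lab w with j | m
    · rw [hl] at ha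
      have : j.1 = a := Sum.inl.inj ha
      rw [← this]
      exact rec.trl w hw j hl
    · rw [hl] at ha
      cases ha
  exact
  { tr := fun w hw j hl => by
      obtain ⟨h1, h2⟩ := rec.trl w hw j hl
      show μ / 2 - Cn δ R * κ1 ≤ Φ.lev j.1 (f w) ∧ Φ.lev j.1 (f w) ≤ 1 - (μ / 2 - Cn δ R * κ1)
      constructor <;> linarith
    nr := fun c a hna x hx => by
      rw [rec.ul]
      exact tiny_near hLa N.hδ N.hR N.cn1 (hC.tiny c.1 c.2) hx a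
    win := fun c a _ => ⟨by rw [rec.Al c a]; linarith, by rw [rec.Bl c a]; linarith⟩
    rg := fun c a hna i v hv => by
      have h := tiny_rgnI (κ := {c : Φ.F // c ∉ X}) (cf := Subtype.val) (J := fun c => J c.1)
        (J0 := fun c => J0 c.1) (V := fun c => V c.1) (θ := fun c => θ c.1)
        (φ := fun c => φ c.1) (k := c) (a := a) (a' := Sum.inl a) hLa N.hδ N.hR N.hκ N.hμ N.half
        N.cn3 (fun c => hC.tiny c.1 c.2) lo (rec.ul c a) ((rec.nbl c a).1 hna).1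
        (by rw [rec.Al c a]; exact N.wA) (by rw [rec.Bl c a]) (rec.v0l c a hna)
        (rec.v1l c a hna) (fun w hw hl => htr' w hw a hl) hv
      show μ / 2 - Cn δ R * κ1 ≤ Φ.lev a (f v.1) ∧ Φ.lev a (f v.1) ≤ 1 - (μ / 2 - Cn δ R * κ1)
      exact ⟨by linarith [h.2.2.1], by linarith [h.2.2.2]⟩ }

/-- **the region input of the barrier `m`**, any `t` -/
theorem reg_m (N : NumD δ κ0 R c0 κ2 μ κ1)
    (D : DIn (slC hLa hC n hn).hH sB r Sf nb v0 v1 u A B)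
    (lo : LevOut (Kc := (slC hLa hC n hn).K) sB nb u A B Lx)
    (rec : BR hLa sB f X J θ co am Zm nb v0 v1 u A B μ κ1) {c : Ti X} {m : Mo}
    (hnm : nb c (Sum.inr m)) {t : ℝ} (ht : (2 * Cn δ R + 1) * κ1 ≤ t) (ht1 : t < 1) :
    Reg (S := slC hLa hC n hn) sB v0 v1 Lx r c m (fun x => sb Φ (θ c.1 x) (am m))
      (fun x => Φ.lev (am m) (f x)) t (Cn δ R * κ1) ((2 * Cn δ R + 1) * κ1) := by
  have hh : (1 : ℝ) + μ / 16 ≤ 1 + μ / 16 := le_rfl
  have hco := (rec.nbm c m).1 hnm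
  obtain ⟨p, q, hM⟩ := rec.mo m
  rw [hco] at hM
  have hN : ∀ e, (Pc Φ.F c.1 ∩ Pc Φ.F e).Nonempty → e ∈ Nb Φ hLa c.1 := fun e he => mem_Nb.2 he
  have hμ := N.hμ
  have hμb := N.hμb
  exact reg_tiny hLa N.hδ N.hR N.hκ N.cn21 hC.tiny lo hM hN (rec.um c m)
    (by
      have h1 := (Bar_543.fs_ge_c hLa hM hN (t := 3 * μ / 16) (by linarith) (by linarith)).1
      rw [rec.Bm c m]
      exact h1)
    (D.v0_lt c (Sum.inr m) hnm) (D.v1_gt c (Sum.inr m) hnm) N.l0 N.ra0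
    (by rw [rec.Bm c m]; exact N.bB hh) (by rw [rec.Bm c m]; linarith [N.cn21']) (N.m0 hh)
    (N.m1 hh) (fun w hw hl _ => rec.trm w hw m hl) ht ht1

/-- **UPDOWN over the end zones, MACHINE**: `b = false` = low end, `b = true` = high end -/
theorem updown_m (N : NumD δ κ0 R c0 κ2 μ κ1)
    (D : DIn (slC hLa hC n hn).hH sB r Sf nb v0 v1 u A B)
    (lo : LevOut (Kc := (slC hLa hC n hn).K) sB nb u A B Lx)
    (tt : TwOut (slC hLa hC n hn) fr3 sB r v0 v1 Lx Tw)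
    (mon : Mon (slC hLa hC n hn) fr3 Lx Tw)
    (monT : ∀ c a j, ∀ w ∈ (trc (slC hLa hC n hn).hH (slC hLa hC n hn).dis sB r c a).P,
      w ∈ ((Tw.tw c a).pat (j + 1)).P → w ∈ ((Tw.tw c a).pat j).P)
    (rec : BR hLa sB f X J θ co am Zm nb v0 v1 u A B μ κ1) {m : Mo} {y : E3}
    (hy : y ∈ (s2 (slC hLa hC n hn) fr3 Tw l0').P)
    (hl : (s2 (slC hLa hC n hn) fr3 Tw l0').lab y = Sum.inr m) {c : Ti X}
    (hc : (slC hLa hC n hn).In c y) {Act : Set (T.RIdx (slC hLa hC n hn).HH ⊕ Ti X)}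
    (hgi : Sum.inr c ∉ Act) {Y : Set E3} (hyY : y ∈ Y)
    (hYc : ∀ F x, x ∈ Y → (s2 (slC hLa hC n hn) fr3 Tw l0').At F x →
      (s2 (slC hLa hC n hn) fr3 Tw l0').lab x = Sum.inr m →
      (∀ z, (s2 (slC hLa hC n hn) fr3 Tw l0').At F z → ∀ i : JJ Φ L,
        (s2 (slC hLa hC n hn) fr3 Tw l0').lab z = Sum.inl i → i.1 ≠ am m) →
      (s2 (slC hLa hC n hn) fr3 Tw l0').mu F x ∈ Y)
    (hYf : ∀ F x, x ∈ Y → (s2 (slC hLa hC n hn) fr3 Tw l0').At F x →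
      (s2 (slC hLa hC n hn) fr3 Tw l0').lab x = Sum.inr m →
      ¬ Frozen ((slC hLa hC n hn).mn fr3) Act F)
    {p : T.RIdx (slC hLa hC n hn).HH} (hyp : y ∈ P ((slC hLa hC n hn).T3.H p)) (b : Bool)
    (hz : ∃ x ∈ P (T.H p.tile), (b = false → Φ.lev (am m) (f x) ≤ 3 * μ / 8) ∧
      (b = true → 1 - 3 * μ / 8 ≤ Φ.lev (am m) (f x))) :
    ∃ e' : (slC hLa hC n hn).Ed c, ∃ w, w ∈ e'.1.opn ∧
      w ∈ (trc (slC hLa hC n hn).hH (slC hLa hC n hn).dis sB r c (Sum.inr m)).P ∧ w ∈ Y ∧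
      (s2 (slC hLa hC n hn) fr3 Tw l0').lab w = Sum.inr m ∧
      (b = false → Φ.lev (am m) (f w) ≤ 7 * μ / 16) ∧
      (b = true → 1 - 7 * μ / 16 ≤ Φ.lev (am m) (f w)) := by
  obtain ⟨n1, n2, n3, n4, n5, n6⟩ := N.base
  have hnm : nb c (Sum.inr m) := by
    have h1 := (in2 D lo tt hy hc).1
    rw [hl] at h1
    exact h1
  have hp := posF_m (r := r) N lo rec
  have e1 : (2 * Cn δ R + 1) * κ1 = 2 * (Cn δ R * κ1) + κ1 := by ring
  have hr := reg_m (r := r) N D lo rec hnm (t := 3 * μ / 8 + (Cn δ R * κ1 + κ1))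
    (by rw [e1]; linarith) (by linarith)
  obtain ⟨x0, hx0, hx1, hx2⟩ := hz
  have hosc : ∀ x ∈ P (T.H p.tile), x ∈ frontier ((slC hLa hC n hn).K c) →
      |Φ.lev (am m) (f x) - Φ.lev (am m) (f x0)| ≤ κ1 := by
    intro x hx hxf
    obtain ⟨d, hd, hdk, hosc⟩ := tiny_tile (hC.tiny c.1 c.2) hxf hx
    exact (hosc x hx x0 hx0 _).trans hdk
  cases b
  · obtain ⟨e', w, g1, g2, g3, g4, g5⟩ := updown_lo (σ := 3 * μ / 8 + κ1) D lo tt hp
      (fun j w hw hD => mon c (Sum.inr m) j w hD hw) (fun j w hw hD => monT c (Sum.inr m) j w hD hw) hr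
      (by linarith) (by rw [e1]; linarith) hgi hy hl hc hyY hYc hYf hyp (fun x hx hxf => by
        have h1 := abs_le.1 (hosc x hx hxf)
        have h2 := hx1 rfl
        linarith [h1.2])
    refine ⟨e', w, g1, g2, g3, g4, fun _ => ?_, fun h => absurd h (by decide)⟩
    rw [e1] at g5
    linarith
  · obtain ⟨e', w, g1, g2, g3, g4, g5⟩ := updown_hi (σ := 3 * μ / 8 + κ1) D lo tt hp
      (fun j w hw hD => mon c (Sum.inr m) j w hD hw) (fun j w hw hD => monT c (Sum.inr m) j w hD hw) hr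
      (by linarith) (by rw [e1]; linarith) hgi hy hl hc hyY hYc hYf hyp (fun x hx hxf => by
        have h1 := abs_le.1 (hosc x hx hxf)
        have h2 := hx2 rfl
        linarith [h1.1])
    refine ⟨e', w, g1, g2, g3, g4, fun h => absurd h (by decide), fun _ => ?_⟩
    rw [e1] at g5
    linarith

end Crest.Agent.R096.Upd_645
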