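import Crest.Agent.R096.Nwi6_18
import Crest.Agent.R096.Lat1_498
import Crest.Agent.R096.Afr1_224
import Crest.Agent.R096.Zwk1_560
import Crest.Agent.R096.Zcn1_143
import Crest.Agent.R096.Whi1_72
import Crest.Agent.R096.Tpn1_72
import Crest.Agent.R096.Upd2_645
import Crest.Agent.R096.Hop1_895

/-!
# R096 (row 96), DOORS, NEWIN (helper147, second typist): the machine instance

* `no1_m`, `no2_m` : no point of the family over the zone;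
* `late_m`         : the points of the family in the slice `jm` next to a barrier point;
* `start_m`        : from the new point to an outer point over the zone;
* `newin_m`        : 18's `newinT` for the machine;
* **`newinM_of : NE1M → NEWINM`**.
-/

set_option autoImplicit false
set_option linter.unusedSectionVars false
set_option linter.unusedVariables false
set_option linter.style.longLine false

open Set Topology Filter Metric Module Relation MeasureTheory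
open scoped Classical

namespace Crest.Agent.R096.Nwm_147

open Crest.Agent.R096.Msh_715 Crest.Agent.R096.Coh_184 Crest.Agent.R096.Lab_184
  Crest.Agent.R096.Main_4 Crest.Agent.R096.Agl5_543
  Crest.Agent.R096.Seq_213 Crest.Agent.R096.St_147 Crest.Agent.R096.Door_501
  Crest.Agent.R096.Twr_438 Crest.Agent.R096.Exa_560
  Crest.Agent.R096.Ess3_95 Crest.Agent.R096.Ess4_95 Crest.Agent.R096.Ac_117 Crest.Agent.R096.Lm_117
  Crest.Agent.R096.Dfi_539 Crest.Agent.R096.Dfi_471 Crest.Agent.R096.Dfo_539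
  Crest.Agent.R096.Sla_184 Crest.Agent.R096.Gm_298
  Crest.Agent.R096.Brk1_582 Crest.Agent.R096.Brk2_582 Crest.Agent.R096.Brk3_582
  Crest.Agent.R096.Brk5_582 Crest.Agent.R096.Bsp_628 Crest.Agent.R096.Init_543
  Crest.Agent.R096.Lv3_471 Crest.Agent.R096.Lv4_471 Crest.Agent.R096.Slt_471
  Crest.Agent.R096.Dib_438 Crest.Agent.R096.Rop_441 Crest.Agent.R096.Frk_441
  Crest.Agent.R096.Dff_539 Crest.Agent.R096.Frs_662 Crest.Agent.R096.Qdl_662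
  Crest.Agent.R096.Cg_501 Crest.Agent.R096.SecW_892 Crest.Agent.R096.Sgd_298
  Crest.Agent.R096.Dfg_539 Crest.Agent.R096.Nmd1_698 Crest.Agent.R096.Civ_662
  Crest.Agent.R096.Lbc_334 Crest.Agent.R096.Pbn_147 Crest.Agent.R096.Tro_147
  Crest.Agent.R096.Bar_106
open Crest.Agent.R096.Sgo_298 (RmA rout ActR)
open Crest.Agent.R096.Mbf_337 (KJ Tiny Cores Fine Words sb gau)
open Crest.Agent.R096.SkC1_961 (E3 FoamD Hom3)
open Crest.Agent.R096.Frn_337 (Ti)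
open Crest.Agent.R096.Ess7_95 (KT)
open Crest.Agent.R096.Ess5_95 (ga)
open Crest.Agent.R096.Dia_316 (nbT)
open Crest.Agent.R096.Bgf_4
open Crest.Agent.R096.Bmf_416 (coT coT_fin)
open Crest.Agent.R096.Sla_184.Sla (hf vf old Fn Out F0)
open Crest.Agent.R096.Zwk_560 (ZnF)
open Crest.Agent.R096.Nwi_688 (GiF ZStep)

section mach

variable {δ κ0 R c0 : ℝ} {La Om : Set E3} {ι : Type} {Φ : FoamD δ κ0 R c0 La} {T : Tiling Om ι}
  {f g : E3 → E3} {κ1 κ2 μ : ℝ} {X : Set Φ.F} {J0 J V : Φ.F → Set ι}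
  {ct ct' : Φ.F → ι} {Aj : Φ.F → E3 ≃ᵃ[ℝ] E3} {lam : Φ.F → ℝ} {z : Φ.F → E3}
  {θ : Φ.F → E3 → E3} {φ : Φ.F → E3 → ℝ} {r₀ : Φ.F → ℝ} {ρ1 ρ2 ρ3 ρ4 d : Φ.F → ℝ}
  {L : Φ.F → Finset ℝ} [Nonempty (JJ Φ L)] {hG : GF Φ r₀ T f L} {bp : JJ Φ L → E3}
  {Nn : BM Φ X → Set ℝ} {q₀ : BM Φ X → E3} {ε : BM Φ X → ℝ} {bm : BM Φ X → E3}
  {hGB : GFB Φ r₀ T f L (lRc Φ X μ ρ1 ρ3 d) ε}
  {v0F v1F : ∀ c, Φ.F → VxK T (KT T J X) c} {v0B v1B : ∀ c, BM Φ X → VxK T (KT T J X) c}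
  {hLa : IsOpen La} {hC : Cores Φ T f κ1 κ2 X J0 J V ct Aj lam z θ φ}
  {n : Ti X → ℕ} {hn : ∀ c, 0 < n c} {r : JJ Φ L ⊕ BM Φ X → E3}
  {Sf : JJ Φ L ⊕ BM Φ X → Set E3}
  {Lv : ∀ c, Φ.F ⊕ BM Φ X → Lev T (frontier ((slC hLa hC n hn).K c)) (JJ Φ L ⊕ BM Φ X)}
  {Tw : Twrs ((slC hLa hC n hn).sh fr3) (slC hLa hC n hn).n
    (outK (slC hLa hC n hn).hH (slC hLa hC n hn).dis (stB hGB bp bm) r)}
  {l0' : E3 → JJ Φ L ⊕ BM Φ X}

/-- the tiles of the zone are near the core of `m` -/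
theorem zn_ga (bar : BarOut Φ T f κ1 μ X J0 J V θ hG bp Nn ρ1 ρ2 ρ3 ρ4 d q₀ ε bm hGB v0B v1B)
    {m : BM Φ X} {x : E3} (hx : x ∈ Om) (hxl : lRc Φ X μ ρ1 ρ3 d m (f x) = ε m) :
    ρ1 m.co ≤ ga Φ m.co (f x) ∧ ga Φ m.co (f x) ≤ ρ4 m.co := by
  obtain ⟨q, hq⟩ := T.cov x hx
  obtain ⟨⟨g1, g2⟩, -⟩ := Zcn_143.gsD_tile bar (m := m) (D := univ) ⟨hx, hxl, mem_univ _⟩ hq
  have hd := (bar.rm m.co m.co_notMem).2.d0
  constructor <;> linarith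

/-- **no point of the family on the outer faces of the zone** -/
theorem no1_m (N : NumD δ κ0 R c0 κ2 μ κ1)
    (bar : BarOut Φ T f κ1 μ X J0 J V θ hG bp Nn ρ1 ρ2 ρ3 ρ4 d q₀ ε bm hGB v0B v1B)
    (htl : ∀ w ∈ (stB hGB bp bm).P, ∀ j, (stB hGB bp bm).lab w = Sum.inl j →
      μ ≤ Φ.lev j.1 (f w) ∧ Φ.lev j.1 (f w) ≤ 1 - μ) {D : ℝ → Prop}
    (hD : ∀ t, D t → t ≤ 7 * μ / 16 ∨ 1 - 7 * μ / 16 ≤ t) {m : BM Φ X} {j : JJ Φ L}
    (ham : m.am = j.1) {F : C2 T} (hF : F ∈ ZnF T Φ f X (lRc Φ X μ ρ1 ρ3 d) ε D m)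
    (hd : ¬ (((meshC T fr3).side F).map (piK T (slC hLa hC n hn).K)).IsDiag) {y : E3}
    (hy : (s2 (slC hLa hC n hn) fr3 Tw l0').At (old ⟨F, hd⟩) y) :
    (s2 (slC hLa hC n hn) fr3 Tw l0').lab y ≠ Sum.inl j := by
  intro hl
  obtain ⟨q, hq, x, hx, hxl, hxD⟩ := hF
  obtain ⟨g1, g2⟩ := zn_ga bar (T.sub q hx) hxl
  obtain ⟨k1, k2, k3, -, -⟩ := mu_out hy.1 hy.2
  exact Afr_224.afree_outF N bar htl m hx g1 g2 (hD _ hxD) F hq y k1 k2 j (k3.symm.trans hl)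
    ham.symm

/-- **no point of the family on the vertical faces over the zone** -/
theorem no2_m (N : NumD δ κ0 R c0 κ2 μ κ1)
    (bar : BarOut Φ T f κ1 μ X J0 J V θ hG bp Nn ρ1 ρ2 ρ3 ρ4 d q₀ ε bm hGB v0B v1B)
    (Di : DIn (slC hLa hC n hn).hH (stB hGB bp bm) r Sf (nbA Φ X) (vS v0F v0B) (vS v1F v1B)
      (uA Φ hLa X θ) (AA Φ X μ κ1) (BA Φ X μ))
    (lo : LevOut (Kc := (slC hLa hC n hn).K) (stB hGB bp bm) (nbA Φ X) (uA Φ hLa X θ)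
      (AA Φ X μ κ1) (BA Φ X μ) Lv)
    (tt : TwOut (slC hLa hC n hn) fr3 (stB hGB bp bm) r (vS v0F v0B) (vS v1F v1B) Lv Tw)
    (htl : ∀ w ∈ (stB hGB bp bm).P, ∀ j, (stB hGB bp bm).lab w = Sum.inl j →
      μ ≤ Φ.lev j.1 (f w) ∧ Φ.lev j.1 (f w) ≤ 1 - μ)
    (hv0 : ∀ (c : Ti X) a, nbT Φ X c a → sb Φ (θ c.1 (v0F c a).1) a ≤ (2 * Cn δ R + 1) * κ1)
    (hv1 : ∀ (c : Ti X) a, nbT Φ X c a → 1 - (2 * Cn δ R + 1) * κ1 ≤ sb Φ (θ c.1 (v1F c a).1) a)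
    {D : ℝ → Prop} (hD : ∀ t, D t → t ≤ 7 * μ / 16 ∨ 1 - 7 * μ / 16 ≤ t) {m : BM Φ X}
    {j : JJ Φ L} (ham : m.am = j.1) {c : Ti X} {e : (slC hLa hC n hn).Ed c}
    (he : ∃ F ∈ ZnF T Φ f X (lRc Φ X μ ρ1 ρ3 d) ε D m,
      InF (meshC T fr3) (piK T (slC hLa hC n hn).K) (Sum.inr c) F ∧
        ∃ w ∈ e.1.opn, w ∈ (meshC T fr3).On F) {i : ℕ} (hi : i < (slC hLa hC n hn).n c) {y : E3}
    (hy : (s2 (slC hLa hC n hn) fr3 Tw l0').At (vf fr3 e i) y) :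
    (s2 (slC hLa hC n hn) fr3 Tw l0').lab y ≠ Sum.inl j := by
  intro hl
  obtain ⟨F, ⟨q, hq, x, hx, hxl, hxD⟩, -, w, hwe, hwF⟩ := he
  obtain ⟨g1, g2⟩ := zn_ga bar (T.sub q hx) hxl
  have hwq : w ∈ P (T.H q) := C2.sub_tile (h3 := fr3) hq hwF.1
  have heq : e.1.set ⊆ P (T.H q) := by
    have h1 := T.cc_eq_of_mem_oc e.1.pt_mem hwe
    rw [e.1.set_eq, ← h1]
    exact T.cc_sub_tile hwq
  have hfree := fun j' => Afr_224.afree_in (hn := hn) N bar Di lo tt htl hv0 hv1 m hx g1 g2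
    (hD _ hxD) c e heq j'
  obtain ⟨a', x0, k1, k2, k3, -⟩ := on_vf hi hy.1 hy.2
  have key : Sum.map (fun j : JJ Φ L => j.1) (id : BM Φ X → BM Φ X)
      ((s2 (slC hLa hC n hn) fr3 Tw l0').lab y) = Sum.inl m.am := by
    rw [hl, ham]; rfl
  rcases x0 with u | u | v
  · have p1 : u ∈ ((Tw.tw c a').pat i).P := ((Tw.tw c a').mv i).top_mem_P'.1 k1
    have p2 : u ∈ e.1.opn := ((slC hLa hC n hn).sh fr3 c).top_mem_vert.1 k2
    have p3 : (s2 (slC hLa hC n hn) fr3 Tw l0').lab y = ((Tw.tw c a').pat i).lab u := by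
      rw [k3]; exact lab_hp hi.le p1
    rw [p3] at key
    have h6 : a' = Sum.inl m.am := (Tw.labj p1).symm.trans key
    subst h6
    exact (hfree i).1 u p1 p2
  · have p1 : u ∈ ((Tw.tw c a').pat (i + 1)).P :=
      Twrs.mem_B.1 (((Tw.tw c a').mv i).bot_mem_P'.1 k1)
    have p2 : u ∈ e.1.opn := ((slC hLa hC n hn).sh fr3 c).bot_mem_vert.1 k2
    have p3 : (s2 (slC hLa hC n hn) fr3 Tw l0').lab y = ((Tw.tw c a').pat (i + 1)).lab u := by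
      rw [k3]; exact lab_hp (show i + 1 ≤ (slC hLa hC n hn).n c by omega) p1
    rw [p3] at key
    have h6 : a' = Sum.inl m.am := (Tw.labj p1).symm.trans key
    subst h6
    exact (hfree (i + 1)).1 u p1 p2
  · have p1 : v ∈ ((Tw.tw c a').mv i).Qv := ((Tw.tw c a').mv i).vert_mem_P'.1 k1
    obtain ⟨b, hb⟩ := ((slC hLa hC n hn).sh fr3 c).vert_mem_vert.1 k2
    have p3 : (s2 (slC hLa hC n hn) fr3 Tw l0').lab y = ((Tw.tw c a').mv i).i0 := by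
      rw [k3]; exact lab_vp hi p1
    rw [p3] at key
    have h6 : a' = Sum.inl m.am := (Tw.labv p1).symm.trans key
    subst h6
    exact (hfree i).2 b (by rw [hb]; exact p1)

/-- **the points of the family in the slice `jm`** -/
theorem late_m (N : NumD δ κ0 R c0 κ2 μ κ1)
    (hRm : RmA Φ T f X J0 J V θ ρ1 ρ2 ρ3 ρ4 d) {hI : InitR Φ T f g J0 ct' r₀}
    {hM : Mesh0 T (Pc Φ.F) (bc (F := Φ.F)) (RF Φ r₀) f (KorJ Φ J0) κ1} {h1 : κ1 < μ / 32}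
    {h2 : κ1 < 1}
    (Di : DIn (slC hLa hC n hn).hH (stB hGB bp bm) r Sf (nbA Φ X) (vS v0F v0B) (vS v1F v1B)
      (uA Φ hLa X θ) (AA Φ X μ κ1) (BA Φ X μ))
    (lo : LevOut (Kc := (slC hLa hC n hn).K) (stB hGB bp bm) (nbA Φ X) (uA Φ hLa X θ)
      (AA Φ X μ κ1) (BA Φ X μ) Lv)
    (tt : TwOut (slC hLa hC n hn) fr3 (stB hGB bp bm) r (vS v0F v0B) (vS v1F v1B) Lv Tw)
    (rec : BR hLa (stB hGB bp bm) f X J θ coT BM.am BM.Zm (nbA Φ X) (vS v0F v0B) (vS v1F v1B)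
      (uA Φ hLa X θ) (AA Φ X μ κ1) (BA Φ X μ) μ κ1)
    (hga : ∀ w ∈ (stB hGB bp bm).P, ∀ m, (stB hGB bp bm).lab w = Sum.inr m →
      Ess5_95.ga Φ (coT m).1 (f w) ≤ ρ3 (coT m).1 + 15 * d (coT m).1)
    {s₃ : GSt ((slC hLa hC n hn).mn fr3) (fun j : JJ Φ L => j.1)}
    (posB : PosS (hH := (Lay_316.lay_sla hLa hC n hn).core) Φ T f (μ / 4) J0 (slC hLa hC n hn) s₃)
    {jm : Ti X → ℕ} (hjm : ∀ c, jm c ≤ n c)
    (ord : ∀ c, ∀ a : Φ.F, ∀ j, jm c ≤ j → (Tw.tw c (Sum.inl a)).pat j =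
      (Tw.tw c (Sum.inl a)).pat (n c) ∧ ((Tw.tw c (Sum.inl a)).mv j).Qv = ∅)
    {j : JJ Φ L} {k : Init_543.QK (Pc Φ.F)} (hkB : j.1 ∈ k.B) {Y : Set E3}
    (hY : ∀ F w, (s2 (slC hLa hC n hn) fr3 Tw l0').At F w →
      (s2 (slC hLa hC n hn) fr3 Tw l0').lab w = Sum.inl j →
      K3 s₃ (qdT (fun p : T.RIdx (slC hLa hC n hn).HH => p.tile) (sla_sub (slC hLa hC n hn))
        (slC hLa hC n hn).KK hLa hI hM h1 h2) j k F w →
      (w ∈ Y ↔ (s2 (slC hLa hC n hn) fr3 Tw l0').mu F w ∈ Y))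
    (hG : ∀ F v, GiF F → (s2 (slC hLa hC n hn) fr3 Tw l0').At F v →
      (s2 (slC hLa hC n hn) fr3 Tw l0').lab v = Sum.inl j → v ∈ Y) (c : Ti X)
    (G : ((slC hLa hC n hn).sh fr3 c).Fk) {m : BM Φ X} (ham : m.am = j.1) {x y : E3}
    (hx : (s2 (slC hLa hC n hn) fr3 Tw l0').At (hf G (jm c)) x)
    (hxl : (s2 (slC hLa hC n hn) fr3 Tw l0').lab x = Sum.inr m)
    (hy : (s2 (slC hLa hC n hn) fr3 Tw l0').At (hf G (jm c)) y)
    (hyl : (s2 (slC hLa hC n hn) fr3 Tw l0').lab y = Sum.inl j) : y ∈ Y := by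
  obtain ⟨n1, n2, n3, n4, n5, -⟩ := N.base
  refine Lat_498.late_in (S := slC hLa hC n hn) (hLa := hLa) (hR := hI) (hM := hM) (hε := h1)
    (hε1 := h2) (l0 := l0') (tb := 7 * μ / 32) (σ' := μ / 4) (lb := 3 * μ / 16 + Cn δ R * κ1)
    (jm := jm c) (c := c) (by linarith) posB (by linarith) hkB ?_ ?_ hY
    (fun F w hF hA hl => hG F w ⟨c, hF⟩ hA hl) (F := hf G (jm c))
    (Or.inl ⟨G, jm c, le_rfl, hjm c, rfl⟩) hy hyl hx ?_
  · intro i a1 a2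
    rw [(ord c j.1 i a1).1, (ord c j.1 (i + 1) (by omega)).1]
  · intro i a1 _
    exact (ord c j.1 i a1).2
  · intro p hpK hxp hkor e he
    rw [← ham] at he
    exact posM_m N hRm Di lo tt rec hga m x hx.1 hxl p hpK hxp hkor e he

/-- **from the new point to an outer point over the zone** -/
theorem start_m (N : NumD δ κ0 R c0 κ2 μ κ1)
    (bar : BarOut Φ T f κ1 μ X J0 J V θ hG bp Nn ρ1 ρ2 ρ3 ρ4 d q₀ ε bm hGB v0B v1B)
    (Di : DIn (slC hLa hC n hn).hH (stB hGB bp bm) r Sf (nbA Φ X) (vS v0F v0B) (vS v1F v1B)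
      (uA Φ hLa X θ) (AA Φ X μ κ1) (BA Φ X μ))
    (lo : LevOut (Kc := (slC hLa hC n hn).K) (stB hGB bp bm) (nbA Φ X) (uA Φ hLa X θ)
      (AA Φ X μ κ1) (BA Φ X μ) Lv)
    (tt : TwOut (slC hLa hC n hn) fr3 (stB hGB bp bm) r (vS v0F v0B) (vS v1F v1B) Lv Tw)
    (mon : Mon (slC hLa hC n hn) fr3 Lv Tw)
    (monT : ∀ c a j, ∀ w ∈ (trc (slC hLa hC n hn).hH (slC hLa hC n hn).dis (stB hGB bp bm)
      r c a).P, w ∈ ((Tw.tw c a).pat (j + 1)).P → w ∈ ((Tw.tw c a).pat j).P)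
    (rec : BR hLa (stB hGB bp bm) f X J θ coT BM.am BM.Zm (nbA Φ X) (vS v0F v0B) (vS v1F v1B)
      (uA Φ hLa X θ) (AA Φ X μ κ1) (BA Φ X μ) μ κ1) (b : Bool) {j : JJ Φ L} {m : BM Φ X}
    (ham : m.am = j.1) {h : E3} (hhl : (s2 (slC hLa hC n hn) fr3 Tw l0').lab h = Sum.inr m)
    (hh : h ∈ (s2 (slC hLa hC n hn) fr3 Tw l0').P) {p : T.RIdx (slC hLa hC n hn).HH}
    (hhp : h ∈ P ((slC hLa hC n hn).T3.H p))
    (hz : ∃ x ∈ P (T.H p.tile), (b = false → Φ.lev m.am (f x) ≤ 3 * μ / 8) ∧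
      (b = true → 1 - 3 * μ / 8 ≤ Φ.lev m.am (f x))) {B : Set E3} (hhB : h ∈ B)
    (hB1 : ∀ x ∈ B, x ∈ (s2 (slC hLa hC n hn) fr3 Tw l0').P ∧
      (s2 (slC hLa hC n hn) fr3 Tw l0').lab x = Sum.inr m)
    (hB2 : ∀ F x, x ∈ B → (s2 (slC hLa hC n hn) fr3 Tw l0').At F x →
      (∀ y, (s2 (slC hLa hC n hn) fr3 Tw l0').At F y →
        (s2 (slC hLa hC n hn) fr3 Tw l0').lab y ≠ Sum.inl j) →
      (s2 (slC hLa hC n hn) fr3 Tw l0').mu F x ∈ B) :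
    (∃ x ∈ B, x ∈ (outK (slC hLa hC n hn).hH (slC hLa hC n hn).dis (stB hGB bp bm) r).P ∧
      (b = false → Φ.lev m.am (f x) ≤ 7 * μ / 16) ∧
      (b = true → 1 - 7 * μ / 16 ≤ Φ.lev m.am (f x))) ∨
    ∃ x ∈ B, ∃ F, GiF F ∧ (s2 (slC hLa hC n hn) fr3 Tw l0').At F x := by
  by_cases hG : ∃ x ∈ B, ∃ F, GiF F ∧ (s2 (slC hLa hC n hn) fr3 Tw l0').At F x
  · exact Or.inr hG
  left
  obtain ⟨n1, n2, n3, n4, n5, -⟩ := N.base
  rcases Sla.out_or (S := slC hLa hC n hn) (s2_dim hh).1 with ho | ⟨c, hc⟩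
  · obtain ⟨k1, k2⟩ := s2_out hh ho
    obtain ⟨x, hx, hx1, hx2⟩ := hz
    have hhq : h ∈ P (T.H p.tile) := sla_sub (slC hLa hC n hn) p hhp
    have hl' : (stB hGB bp bm).lab h = Sum.inr m := k2.symm.trans hhl
    obtain ⟨p1, -, p2, -⟩ := bar.pos m h k1.1 hl'
    obtain ⟨g1, g2⟩ := zn_ga bar p1 p2
    obtain ⟨hd, hr⟩ := bar.rm m.co m.co_notMem
    have h3 := abs_le.1 ((hr.tile_osc hhq g1 g2 hx).2.2 m.am)
    refine ⟨h, hhB, k1, fun hb => ?_, fun hb => ?_⟩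
    · have := hx1 hb
      linarith [h3.2]
    · have := hx2 hb
      linarith [h3.1]
  · obtain ⟨e', w, -, w2, w3, w4, w5, w6⟩ := Upd_645.updown_m (l0' := l0')
      (Act := {q | ∀ c, q ≠ Sum.inr c}) (Y := B) N Di lo tt mon monT rec hh hhl hc
      (fun h1 => h1 c rfl) hhB
      (fun F x hx hA _ hno => hB2 F x hx hA fun y hy hyl => hno y hy j hyl ham.symm)
      (fun F x hx hA _ hfr => by
        obtain ⟨q, hq, hqA⟩ := hfr
        refine hG ⟨x, hx, F, ?_, hA⟩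
        simp only [mem_ofPred_eq, not_forall, not_not] at hqA
        obtain ⟨c', rfl⟩ := hqA
        exact ⟨c', hq⟩) hhp b hz
    exact ⟨w, w3, (mem_trc.1 w2).1, w5, w6⟩

end mach

/-- **NEWIN FROM NE1** -/
theorem newinM_of (HN : Hop_895.NE1M) : Hop_895.NEWINM := by
  intro δ κ0 R c0 κ2 κ3 κp μ κ1 Om La f g hLa Φ ι T X J0 J V ct A lam z θ φ M hC ct' r₀ hR hM h1 h2
    L _ hG D bp lam₀ v₀ v₁ r v0 v1 ρ1 ρ2 ρ3 ρ4 d q₀ ε bm hGB v0B v1B n hn Lv Tw MM _ hnC l0' hmf j0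
    hj0 hs far t Ph s₃ g1 g2 g3 DR pB j m k hm hk Y hbY hY hgi w hw hl hnew
  obtain ⟨hws, p, hpO, hwp, x₀, hx₀, hx₁⟩ := hnew
  have hRm := Lbc_334.rma_bo MM.bar
  have hga := Lbc_334.ga_bo MM.bar
  have hrE : ∀ j : JJ Φ L, ∃ q, (Sum.elim r bm) (Sum.inl j) ∈ P (T.H q) ∧ (∀ c ∉ X, q ∉ V c) ∧
      ∀ (k : Init_543.QK (Pc Φ.F)) (s : ℝ), j.1 ∈ k.B → κ1 < s →
        q ∉ Act0 T (Pc Φ.F) (bc (F := Φ.F)) (RF Φ r₀) f (KorJ Φ J0) s k := by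
    intro j
    obtain ⟨-, q, g1, -, g2, g3⟩ := MM.root j
    exact ⟨q, g1, fun c _ => g2 c, g3⟩
  have hconn : ∀ j, (st0 hG bp).Conn j := fun j =>
    st0_conn hLa hR (fun i => ⟨(MM.init.base i).1, (MM.init.base i).2.1, (MM.init.base i).2.2.1⟩) j
  have hkB : j.1 ∈ k.B := (qin k _).1 hk
  obtain ⟨n1, n2, n3, n4, n5, -⟩ := MM.N.base
  choose jm hjm hord using MM.ord
  have key : ∀ b : Bool, (∃ x ∈ P (T.H p.tile), (b = false → Φ.lev j.1 (f x) ≤ 3 * μ / 8) ∧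
      (b = true → 1 - 3 * μ / 8 ≤ Φ.lev j.1 (f x))) → w ∈ Y := by
    intro b hz
    let Dz : ℝ → Prop := fun u => (b = false → u ≤ 7 * μ / 16) ∧ (b = true → 1 - 7 * μ / 16 ≤ u)
    have hDz : ∀ u, Dz u → u ≤ 7 * μ / 16 ∨ 1 - 7 * μ / 16 ≤ u := by
      intro u hu
      cases b
      · exact Or.inl (hu.1 rfl)
      · exact Or.inr (hu.2 rfl)
    have hwalk : ∀ (m : BM Φ X) (x y : E3), x ∈ (stB hGB bp bm).P →
        (stB hGB bp bm).lab x = Sum.inr m → Dz (Φ.lev m.am (f x)) → y ∈ (stB hGB bp bm).P →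
        (stB hGB bp bm).lab y = Sum.inr m → Dz (Φ.lev m.am (f y)) →
        ReflTransGen (ZStep (stB hGB bp bm) (ZnF T Φ f X (lRc Φ X μ ρ1 ρ3 d) ε Dz m)) x y := by
      intro m x y hx hxl hxD hy hyl hyD
      cases b
      · refine ReflTransGen.mono ?_ _ _ (Zwk_560.zwalk_le (t0 := 7 * μ / 16) hLa hR MM.N.hμ
          (by linarith) MM.lev MM.bar (by linarith) (by linarith) hx hxl (hxD.1 rfl) hy hyl
          (hyD.1 rfl))
        rintro u v ⟨F, ⟨q, hq, z, hz, hz1, hz2⟩, hA, e⟩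
        exact ⟨F, ⟨q, hq, z, hz, hz1, fun _ => hz2, fun h => absurd h (by decide)⟩, hA, e⟩
      · refine ReflTransGen.mono ?_ _ _ (Zwk_560.zwalk_ge (t0 := 1 - 7 * μ / 16) hLa hR MM.N.hμ
          (by linarith) MM.lev MM.bar (by linarith) (by linarith) hx hxl (hxD.2 rfl) hy hyl
          (hyD.2 rfl))
        rintro u v ⟨F, ⟨q, hq, z, hz, hz1, hz2⟩, hA, e⟩
        exact ⟨F, ⟨q, hq, z, hz, hz1, fun h => absurd h (by decide), fun _ => hz2⟩, hA, e⟩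
    refine Nwi_18.newinT (am := BM.am) (Q := qdT (fun p : T.RIdx (slC hLa hC n hn).HH => p.tile)
        (sla_sub (slC hLa hC n hn)) (slC hLa hC n hn).KK hLa hR hM h1 h2) (k := k) DR ?_ hY
      (fun a c => Sgo_298.inr_ActR) ?_ (b := (Sum.elim r bm) (Sum.inl j)) ?_ ?_ ?_ hbY hjm
      (fun m _ c i hi => (hord c).2 m |>.1 i hi) ?_ ?_ ?_
      (fun m => ZnF T Φ f X (lRc Φ X μ ρ1 ρ3 d) ε Dz m) (fun m => {x | Dz (Φ.lev m.am (f x))})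
      ?_ ?_ hw hl hws ?_ ?_
    · intro q F F' h m' hq hq' hh hhl hma v hv hvl
      refine bar_kfree (a := j.1) (lb := 3 * μ / 16 + Cn δ R * κ1) (tb := 7 * μ / 32)
        (σ' := μ / 4) (by linarith) pB (by linarith) hkB hq hq' hh.2
        (fun p hpK hhp hkor e he => ?_) hv ?_
      · have he' : e ≠ BM.am m' := by rw [hma]; exact he
        exact posM_m MM.N hRm MM.din MM.lo MM.tt MM.brec hga m' h hh.1 hhl p hpK hhp hkor e he'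
      · rw [hvl]
        exact (qin k _).2 hkB
    · rintro F v ⟨c, hc⟩ hA hvl
      exact hgi v hA.1 hvl ⟨c, F, hc, hA.2⟩
    · refine mem_s2.2 (Or.inl ⟨(MM.din.root (Sum.inl j)).1, ?_⟩)
      rw [(MM.din.root (Sum.inl j)).2]
    · have hbo : (Sum.elim r bm) (Sum.inl j) ∈ (outK (slC hLa hC n hn).hH (slC hLa hC n hn).dis
          (stB hGB bp bm) (Sum.elim r bm)).P :=
        ⟨(MM.din.root (Sum.inl j)).1, by rw [(MM.din.root (Sum.inl j)).2]⟩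
      rw [lab_old hbo]
      exact (MM.din.root (Sum.inl j)).2
    · exact (base_S3 DR g2 j).1
    · exact fun m _ => MM.din.h1 (Sum.inr m)
    · exact fun m _ => (MM.din.root (Sum.inr m)).2
    · intro Y' hY' hG' c G m' hma x y hx hxl hy hyl
      exact late_m MM.N hRm MM.din MM.lo MM.tt MM.brec hga pB hjm (fun c a i hi => (hord c).1 a i hi)
        hkB hY' hG' c G hma hx hxl hy hyl
    · intro m' hma F hF hd y hy
      exact no1_m MM.N MM.bar MM.brec.trl hDz hma hF hd hy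
    · intro m' hma c e he i hi y hy
      exact no2_m MM.N MM.bar MM.din MM.lo MM.tt MM.brec.trl MM.v0l MM.v1l hDz hma he
        (hi.trans_le (hjm c)) hy
    · intro m' hma h hhl hh hnb B hhB hB1 hB2
      have hwd := pts3 (hKK := (Lay_316.lay_sla hLa hC n hn).core) (cutOut_of DR) hw
      have hhp : h ∈ P ((slC hLa hC n hn).T3.H p) :=
        same_tile (hH := (Lay_316.lay_sla hLa hC n hn).core) (hdis := Sla.dis_KK) hwd.1 hwd.2.1 hnb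
          hwp hpO
      obtain ⟨x, hx, hx'⟩ := hz
      exact start_m MM.N MM.bar MM.din MM.lo MM.tt MM.mon MM.monT MM.brec b hma hhl hh hhp
        ⟨x, hx, by rw [show m'.am = j.1 from hma]; exact hx'⟩ hhB hB1 hB2
    · intro m' hma Y' hbY' hY' hG' B hB1 hB2 hB3 x hxo hxl hxz hxB
      obtain ⟨y, y1, y2, -, -, -, y3, y4, y5, -, -, y6⟩ :=
        Whi_72.wall_both (r := r) (hLa := hLa) (hC := hC) (n := n) (hn := hn) MM.N hR MM.lev MM.bar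
          m' b
      refine ⟨y, y6, y2, hwalk m' x y hxo.1 hxl hxz y1 y2 ⟨fun h => ?_, fun h => ?_⟩, fun hyB => ?_⟩
      · have := y3 h
        linarith
      · have := y4 h
        linarith
      · exact Tpn_72.top_notin_m MM.N MM.k2 MM.words MM.lev hconn MM.bar MM.din MM.lo MM.tt
          MM.brec hrE pB (HN δ κ0 R c0 κ2 κ3 κp μ κ1 Om La f g hLa Φ ι T X J0 J V ct A lam z θ φ M
            hC ct' r₀ hR hM h1 h2 L hG D bp lam₀ v₀ v₁ r v0 v1 ρ1 ρ2 ρ3 ρ4 d q₀ ε bm hGB v0B v1B n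
            hn Lv Tw MM hnC l0' m') hkB hma hbY' hY' hB1 hB2 hB3 hyB y5
  rw [← hm] at key
  rcases hx₁ with h | h
  · exact key false ⟨x₀, hx₀, fun _ => h, fun h => absurd h (by decide)⟩
  · exact key true ⟨x₀, hx₀, fun h => absurd h (by decide), fun _ => h⟩

end Crest.Agent.R096.Nwm_147
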