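import Crest.Agent.R096.Hop1_895
import Crest.Agent.R096.Nwm1_560
import Crest.Agent.R096.Nwi5_688
import Crest.Agent.R096.Upd3_645
import Crest.Agent.R096.Afr1_543

/-!
# R096 (row 96), DOORS (helper812): **NEWIN over the machine: `Hop_895.NE1M → Hop_895.NEWINM`**

Composition of 560 `newinT`, `conn_m`; 688 `no1_m`, `no2_m`; 645 `start_m`; 498 `late_in`;
72 `top_notin_m`; 914 `hK_m`; 543 `stB_lev`.
-/

set_option autoImplicit false
set_option linter.unusedSectionVars false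
set_option linter.unusedVariables false
set_option linter.style.longLine false

open Set Topology Filter Metric Module Relation MeasureTheory
open scoped Classical

namespace Crest.Agent.R096.Nwm_812

open Crest.Agent.R096.Msh_715 Crest.Agent.R096.Coh_184 Crest.Agent.R096.Lab_184
  Crest.Agent.R096.Main_4 Crest.Agent.R096.Agl5_543
  Crest.Agent.R096.Seq_213 Crest.Agent.R096.St_147 Crest.Agent.R096.Door_501
  Crest.Agent.R096.Twr_438 Crest.Agent.R096.Exa_560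
  Crest.Agent.R096.Ess3_95 Crest.Agent.R096.Ess4_95
  Crest.Agent.R096.Dfi_539 Crest.Agent.R096.Dfi_471 Crest.Agent.R096.Dfo_539
  Crest.Agent.R096.Sla_184
  Crest.Agent.R096.Brk1_582 Crest.Agent.R096.Brk2_582 Crest.Agent.R096.Brk3_582
  Crest.Agent.R096.Brk5_582 Crest.Agent.R096.Bsp_628 Crest.Agent.R096.Init_543
  Crest.Agent.R096.Lv3_471 Crest.Agent.R096.Lv4_471 Crest.Agent.R096.Slt_471
  Crest.Agent.R096.Dib_438 Crest.Agent.R096.Rop_441 Crest.Agent.R096.Frk_441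
  Crest.Agent.R096.Dff_539 Crest.Agent.R096.Frs_662 Crest.Agent.R096.Qdl_662
  Crest.Agent.R096.Cg_501 Crest.Agent.R096.SecW_892 Crest.Agent.R096.Sgd_298
  Crest.Agent.R096.Dfg_539 Crest.Agent.R096.Nmd1_698 Crest.Agent.R096.Civ_662
  Crest.Agent.R096.Lbc_334 Crest.Agent.R096.Bar_106 Crest.Agent.R096.Bgf_4
  Crest.Agent.R096.Nwi_688 Crest.Agent.R096.Nwm_560 Crest.Agent.R096.Cns_778
  Crest.Agent.R096.Hop_895
open Crest.Agent.R096.Sgo_298 (RmA rout ActR)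
open Crest.Agent.R096.Mbf_337 (KJ Tiny Cores Fine sb gau Star Levels Words)
open Crest.Agent.R096.SkC1_961 (E3 FoamD Hom3)
open Crest.Agent.R096.Frn_337 (Ti)
open Crest.Agent.R096.Ess7_95 (KT Sh)
open Crest.Agent.R096.Dia_316 (nbT)
open Crest.Agent.R096.Dfn_416 (BarS)
open Crest.Agent.R096.Bmf_416 (coT coT_fin)
open Crest.Agent.R096.Sla_184.Sla (hf vf old tg F0 Fn Out OnS InL In)
open Crest.Agent.R096.Pbn_147 (K3)
open Crest.Agent.R096.Zwk_560 (ZnF)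

theorem dz_of {μ t : ℝ} {σ : Bool}
    (h : (σ = false → t ≤ 7 * μ / 16) ∧ (σ = true → 1 - 7 * μ / 16 ≤ t)) : Dz μ σ t := by
  cases σ
  · exact h.1 rfl
  · exact h.2 rfl

theorem lo_of {μ t : ℝ} {σ : Bool} (h : Dz μ σ t) : Nwm_560.Lo σ μ t := by
  cases σ
  · exact ⟨fun _ => h, fun e => by cases e⟩
  · exact ⟨fun e => (by cases e), fun _ => h⟩

/-- **NEWIN OVER THE MACHINE** -/
theorem newinm_of (HN : NE1M) : NEWINM := by
  intro δ κ0 R c0 κ2 κ3 κp μ κ1 Om La f g hLa Φ ι T X J0 J V ct A lam z θ φ M hC ct' r₀ hR hM h1 h2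
    L _ hG D bp lam₀ v₀ v₁ r v0 v1 ρ1 ρ2 ρ3 ρ4 d q₀ ε bm hGB v0B v1B n hn Lv Tw MM _ hnC l0' hmf
    j0 hj0 hs far t Ph s₃ g1 g2 g3 DR pB j m0 k hm hk Y hbY hY hgi w hw hl hnew
  have hRm := Lbc_334.rma_bo MM.bar
  have hga := Lbc_334.ga_bo MM.bar
  have N := MM.N
  obtain ⟨n1, n2, n3, n4, n5, n6⟩ := N.base
  have hkB : j.1 ∈ k.B := (qin k _).1 hk
  have hconn : ∀ j, (st0 hG bp).Conn j := fun j =>
    st0_conn hLa hR (fun i => ⟨(MM.init.base i).1, (MM.init.base i).2.1, (MM.init.base i).2.2.1⟩) j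
  have hrE : ∀ j : JJ Φ L, ∃ q, r j ∈ P (T.H q) ∧ (∀ c ∉ X, q ∉ V c) ∧
      ∀ (k : Init_543.QK (Pc Φ.F)) (s : ℝ), j.1 ∈ k.B → κ1 < s →
        q ∉ Act0 T (Pc Φ.F) (bc (F := Φ.F)) (RF Φ r₀) f (KorJ Φ J0) s k := by
    intro j
    obtain ⟨-, q, g1, -, g2, g3⟩ := MM.root j
    exact ⟨q, g1, fun c _ => g2 c, g3⟩
  have htl : ∀ w ∈ (stB hGB bp bm).P, ∀ j, (stB hGB bp bm).lab w = Sum.inl j →
      μ ≤ Φ.lev j.1 (f w) ∧ Φ.lev j.1 (f w) ≤ 1 - μ := fun w hw j hl =>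
    Afr_543.stB_lev hR hLa MM.barS MM.lev hw hl
  have hpos := fun m => Lbc_334.posM_m (l0' := l0') N hRm MM.din MM.lo MM.tt MM.brec hga m
  obtain ⟨hws, p, hpK, hwp, x0, hx0, hlev⟩ := hnew
  -- the end
  obtain ⟨σ, hz⟩ : ∃ σ : Bool, (σ = false → Φ.lev m0.am (f x0) ≤ 3 * μ / 8) ∧
      (σ = true → 1 - 3 * μ / 8 ≤ Φ.lev m0.am (f x0)) := by
    rcases hlev with h | h
    · exact ⟨false, fun _ => h, fun e => by cases e⟩
    · exact ⟨true, fun e => (by cases e), fun _ => h⟩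
  choose jm hjm hordA hordB using MM.ord
  have hroot := MM.din.root
  -- the root
  have hb2 : (Sum.elim r bm) (Sum.inl j) ∈ (s2 (slC hLa hC n hn) fr3 Tw l0').P := by
    refine mem_s2.2 (Or.inl ⟨(hroot (Sum.inl j)).1, ?_⟩)
    rw [(hroot (Sum.inl j)).2]
  have hbm := (DR.good j.1).far_mem (g2 j.1 (nL BM.am j) j rfl)
  obtain ⟨hb3, hbl3⟩ := DR.mem.2 ⟨hbm.1, hbm.2⟩
  have hbl : (s2 (slC hLa hC n hn) fr3 Tw l0').lab ((Sum.elim r bm) (Sum.inl j)) = Sum.inl j := by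
    rw [DR.old hb3 hb2, hbl3]
  refine Nwt_560.newinT (S := slC hLa hC n hn) (h3 := fr3) (am := BM.am)
    (Q := qdT (fun p : T.RIdx (slC hLa hC n hn).HH => p.tile) (sla_sub (slC hLa hC n hn))
          (slC hLa hC n hn).KK hLa hR hM h1 h2) DR (j := j) (k := k)
    ?_ hY (fun a c => Sgo_298.inr_ActR) ?_ (jm := jm) hjm ?_ (fun m _ => MM.din.h1 (Sum.inr m))
    (fun m _ => (hroot (Sum.inr m)).2) ?_
    (ZnF T Φ f X (lRc Φ X μ ρ1 ρ3 d) ε (Dz μ σ)) (fun m => {x | Dz μ σ (Φ.lev m.am (f x))})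
    ?_ ?_ hw hl hws ?_ (GmT Om Φ f X μ ρ1 ρ3 d ε) ?_ (b := Sum.elim r bm (Sum.inl j)) hb2 hbl hb3
    hbY ?_
  · -- `hK`
    exact Tro_914.hK_m (am := BM.am) (lm := 3 * μ / 16 + Cn δ R * κ1) (tb := 7 * μ / 32)
      (σ' := μ / 4) (fun m w hw hl p hpK hp hkor e he => hpos m w hw hl p hpK hp hkor e he)
      (by linarith) (by linarith) pB hkB
  · -- the giants
    rintro F v ⟨c, hc⟩ hA hl'
    exact hgi v hA.1 hl' ⟨c, F, hc, hA.2⟩
  · -- Ord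
    exact fun m _ c i hi => (hordB c m).1 i hi
  · -- the slice `jm`
    intro Y' hY' hG' c G m ham x y hx hxl hy hyl
    refine Lat_498.late_in (S := slC hLa hC n hn) (tb := 7 * μ / 32) (σ' := μ / 4)
      (lb := 3 * μ / 16 + Cn δ R * κ1) (c := c) (jm := jm c) (by linarith) pB (by linarith) hkB
      (fun i a1 a2 => ?_) (fun i a1 a2 => (hordA c j.1 i a1).2) hY'
      (fun F w hc => hG' F w ⟨c, hc⟩) (F := hf G (jm c)) (Or.inl ⟨G, jm c, le_rfl, hjm c, rfl⟩)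
      hy hyl hx ?_
    · rw [(hordA c j.1 i a1).1, (hordA c j.1 (i + 1) (by omega)).1]
    · intro p hpK hhp hkor e he
      exact hpos m x hx.1 hxl p hpK hhp hkor e (by rw [ham]; exact he)
  · intro m ham F hF hd y hy
    exact no1_m N MM.bar htl ham hF hd hy
  · rintro m ham c e ⟨F, hF, -, w', hw', hwF⟩ i hi y hy
    exact no2_m N MM.bar MM.din MM.lo MM.tt htl MM.v0l MM.v1l ham hF hw' hwF
      (hi.trans_le (hjm c)) hy
  · intro m ham h hhl hh hF B hhB hB1 hB2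
    have hmm : m.am = m0.am := ham.trans hm.symm
    rcases Upd_645.start_m N MM.bar MM.din MM.lo MM.tt MM.mon MM.monT MM.brec hpK hwp ham σ
      ⟨x0, hx0, by rw [hmm]; exact hz⟩ hhl hh hF hhB hB1 hB2 with ⟨x, e1, e2, e3⟩ | h
    · exact Or.inl ⟨x, e1, e2, dz_of e3⟩
    · exact Or.inr h
  · intro m ham x hx hxl hxz
    obtain ⟨y, e1, e2, e3, e4⟩ := conn_m (n := n) (hn := hn) (hC := hC) (r := r) N hR MM.lev MM.bar σ
      m hx.1 hxl (lo_of hxz)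
    refine ⟨y, e1, e2, ?_, e4⟩
    refine Relation.ReflTransGen.mono ?_ _ _ e3
    rintro u v ⟨F, ⟨q, hq, y, hy, hy1, hy2⟩, hA, e⟩
    exact ⟨F, ⟨q, hq, y, hy, hy1, dz_of hy2⟩, hA, e⟩
  · intro Y' hbY' hY' m ham B hB1 hB2 hB3 y hy hyB
    exact Tpn_72.top_notin_m N MM.k2 MM.words MM.lev hconn MM.bar MM.din MM.lo MM.tt MM.brec hrE pB
      (HN δ κ0 R c0 κ2 κ3 κp μ κ1 Om La f g hLa Φ ι T X J0 J V ct A lam z θ φ M hC ct' r₀ hR
        hM h1 h2 L hG D bp lam₀ v₀ v₁ r v0 v1 ρ1 ρ2 ρ3 ρ4 d q₀ ε bm hGB v0B v1B n hn Lv Tw MM hnC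
        l0' m) hkB ham hbY' hY' hB1 hB2 hB3 hyB hy

end Crest.Agent.R096.Nwm_812
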