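import Crest.Agent.R096.Ps11_273

/-!
Row 96 (S0127), helper458.  **[X3]** of 962's #11402 (`p ≥ 3`): one shift in a given set `A'` of good
shifts with `volume (box 3 \ A') ≤ 1/4`, with all the numbers (273's `bad_shift`).
-/

set_option autoImplicit false

open MeasureTheory Set Filter
open scoped Topology ENNReal

namespace Crest.Agent.R096.Nx3_458

open Crest.Agent.R096.Ps_273
open Crest.Agent.R096.Msh_810 Crest.Agent.R096.Bas_731 Crest.Agent.R96.En3_199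
  Crest.Agent.R96.En4_199 Crest.Agent.R96.En5_199 Crest.Agent.R96.En2_199 Crest.Agent.R96.En6_199
  Crest.Agent.R96.En7_199 Crest.Agent.R96.En8_199 Crest.Agent.R96.En9_199
  Crest.Agent.R96.En11_199
  Crest.Agent.R96.Acl_392 Crest.Agent.R96.Sob2_199 Crest.Agent.R96.Sob3_199

noncomputable section

/-- **[X3]**: a shift in `A'` with all the numbers -/
theorem shift_in (D : Dat 3) {Ω : Set (Fin 3 → ℝ)} (hΩ : IsOpen Ω)
    (hsub : Ω ⊆ D.Om) {𝒞 : Type*} [Countable 𝒞]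
    {v : 𝒞 → (Fin 3 → ℝ) → ℝ}
    {g : 𝒞 → Fin 3 → (Fin 3 → ℝ) → ℝ} (hg : ∀ c i, Measurable (g c i))
    (hg0 : ∀ c i, ∀ x, x ∉ Ω → g c i x = 0)
    (hwd : ∀ c i, WD Ω volume (v c) (g c i) (Pi.single i (1:ℝ))) (hv : ∀ c, ContinuousOn (v c) Ω)
    (w : 𝒞 → ℝ≥0∞)
    (s : Fin 3 → ℝ≥0∞) {p : ℝ} (hp : 1 ≤ p) {R' : Set (Fin 3 → ℝ)} (hR : MeasurableSet R')
    {η : Type*} [Countable η] {H : η → (Fin 3 → ℝ) → ℝ≥0∞} (hH : ∀ k, Measurable (H k))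
    {θ : η → ℝ≥0∞} (hθ : ∀ k, ∫⁻ a in box 3, H k a ≤ θ k) {m : η → ℝ≥0∞} (hm : ∀ k, m k ≠ 0)
    (hms : ∑' k, (m k)⁻¹ ≤ 1 / 4) {A' : Set (Fin 3 → ℝ)}
    (hA : volume (box 3 \ A') ≤ 1 / 4) {Q : (Fin 3 → ℝ) → Prop} (hQ : ∀ᵐ a, Q a) :
    ∃ a ∈ A', a ∈ box 3 ∧ Q a ∧ (∀ (k : ℕ) (z : Fin 3 → ℤ), Good Ω v g (vx a k z)) ∧
      (∀ l, Ed (D.sh a) l p (Xs w g s l) ≤ 96 * ∫⁻ x in Ω, Xs w g s l x ^ p) ∧
      (∀ l, Ed (D.sh a) l 1 (Xs w g s l) ≤ 96 * ∫⁻ x in Ω, Xs w g s l x) ∧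
      S (D.sh a) p (R'.indicator (GGw w g)) ≤
        (48 * KE 3 p) * ∫⁻ x in Ω ∩ R', GGw w g x ^ p ∧
      ∀ k, H k a ≤ m k * θ k := by
  have key := bad_shift D hΩ hsub hg hg0 hwd hv w s hp (R := fun _ : Unit => R') (fun _ => hR)
    (κ := fun _ : Unit => 48) (fun _ => by norm_num) hH hθ hm (c0 := 48) (by norm_num) hQ
  by_contra hcon
  push Not at hcon
  have hsub2 : box 3 ⊆ (box 3 \ A') ∪ {a ∈ box 3 | ¬ (Q a ∧
      (∀ (k : ℕ) (z : Fin 3 → ℤ), Good Ω v g (vx a k z)) ∧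
      (∀ i, Ed (D.sh a) i p (Xs w g s i) ≤ 48 * (2 * ∫⁻ x in Ω, Xs w g s i x ^ p)) ∧
      (∀ i, Ed (D.sh a) i 1 (Xs w g s i) ≤ 48 * (2 * ∫⁻ x in Ω, Xs w g s i x)) ∧
      (∀ j : Unit, S (D.sh a) p (((fun _ : Unit => R') j).indicator (GGw w g)) ≤
        48 * (KE 3 p * ∫⁻ x in Ω ∩ (fun _ : Unit => R') j, GGw w g x ^ p)) ∧
      ∀ k, H k a ≤ m k * θ k)} := by
    intro a ha
    by_cases haA : a ∈ A'
    · right
      refine ⟨ha, ?_⟩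
      rintro ⟨h1, h2, h3, h4, h5, h6⟩
      have e : (48 : ℝ≥0∞) * 2 = 96 := by norm_num
      obtain ⟨k, hk⟩ := hcon a haA ha h1 h2
        (fun l => by
          have := h3 l
          rwa [← mul_assoc, e] at this)
        (fun l => by
          have := h4 l
          rwa [← mul_assoc, e] at this)
        (by
          have := h5 ()
          rwa [← mul_assoc] at this)
      exact absurd (h6 k) (not_le.2 hk)
    · left; exact ⟨ha, haA⟩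
  have h1 := (measure_mono (μ := (volume : Measure (Fin 3 → ℝ))) hsub2).trans
    (measure_union_le _ _)
  rw [volume_box] at h1
  have h2 := h1.trans (add_le_add hA key)
  have h3 : (1 / 4 : ℝ≥0∞) + ((((3 : ℕ) : ℝ≥0∞) * ∑' _j : Unit, (48 : ℝ≥0∞)⁻¹ +
      2 * ((3 : ℕ) : ℝ≥0∞) * (48 : ℝ≥0∞)⁻¹) + ∑' k, (m k)⁻¹) ≤ 11 / 16 := by
    rw [tsum_fintype]
    simp only [Finset.univ_unique, Finset.sum_singleton]
    calc (1 / 4 : ℝ≥0∞) + ((((3 : ℕ) : ℝ≥0∞) * (48 : ℝ≥0∞)⁻¹ +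
          2 * ((3 : ℕ) : ℝ≥0∞) * (48 : ℝ≥0∞)⁻¹) + ∑' k, (m k)⁻¹)
        ≤ (1 / 4 : ℝ≥0∞) + ((((3 : ℕ) : ℝ≥0∞) * (48 : ℝ≥0∞)⁻¹ +
          2 * ((3 : ℕ) : ℝ≥0∞) * (48 : ℝ≥0∞)⁻¹) + 1 / 4) := by gcongr
      _ = ENNReal.ofReal (11 / 16) := by
        have e1 : (1 / 4 : ℝ≥0∞) = ENNReal.ofReal (1 / 4) := by
          rw [one_div, one_div, ENNReal.ofReal_inv_of_pos (by norm_num)]; norm_num
        have e2 : (48 : ℝ≥0∞)⁻¹ = ENNReal.ofReal (1 / 48) := by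
          rw [one_div, ENNReal.ofReal_inv_of_pos (by norm_num)]; norm_num
        have e3 : ((3 : ℕ) : ℝ≥0∞) = ENNReal.ofReal 3 := by norm_num
        have e4 : (2 : ℝ≥0∞) = ENNReal.ofReal 2 := by norm_num
        rw [e1, e2, e3, e4, ← ENNReal.ofReal_mul (by norm_num), ← ENNReal.ofReal_mul (by norm_num),
          ← ENNReal.ofReal_mul (by norm_num), ← ENNReal.ofReal_add (by norm_num) (by norm_num),
          ← ENNReal.ofReal_add (by norm_num) (by norm_num),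
          ← ENNReal.ofReal_add (by norm_num) (by norm_num)]
        norm_num
      _ = 11 / 16 := by
        rw [ENNReal.ofReal_div_of_pos (by norm_num)]; norm_num
  have h4 := h2.trans h3
  have h5 : (11 / 16 : ℝ≥0∞) < 1 := by
    rw [ENNReal.div_lt_iff (Or.inl (by norm_num)) (Or.inl (by norm_num))]
    norm_num
  exact absurd h4 (not_le.2 h5)

end

end Crest.Agent.R096.Nx3_458
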