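import Crest.Agent.R096.Cwr2_527
import Crest.Agent.R096.Sk0_962
import Crest.Agent.R96.Intr12_538

/-!
# R096 (row 96, p = 2), leaf R-EDGE (753 #10687), helper58: the target squeeze `R` does not destroy
near-optimality on edges
-/

set_option autoImplicit false

namespace Crest.Agent.R096.Red_58

open MeasureTheory Set Filter Topology
open Crest.Agent.R096.Core_124 Crest.Agent.R096.Cwr_527
open Crest.AnalysisR.VecCalc3 Crest.AnalysisR.Sobolev
open Crest.Agent.R96.Acl_392 Crest.Agent.R96.Lu_538 Crest.Agent.R96.Coarse_538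
open Crest.Agent.R096.Sk_962 (SH)
open scoped ENNReal

noncomputable section

/-- domination of the increments gives domination of the norms -/
theorem norm_le_of_inc {F : Type*} [NormedAddCommGroup F] [NormedSpace ℝ F] [CompleteSpace F]
    {h : ℝ → F} {g : ℝ → ℝ} (hh : IntervalIntegrable h volume 0 1)
    (hg : IntervalIntegrable g volume 0 1)
    (H : ∀ s ∈ Icc (0:ℝ) 1, ∀ t ∈ Icc (0:ℝ) 1, s ≤ t → ‖∫ τ in s..t, h τ‖ ≤ ∫ τ in s..t, g τ) :
    ∫ τ in (0:ℝ)..1, ‖h τ‖ ≤ ∫ τ in (0:ℝ)..1, g τ := by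
  have h01 : (0:ℝ) ≤ 1 := zero_le_one
  have key : ∀ᵐ x : ℝ, x ∈ Ioc (0:ℝ) 1 → ‖h x‖ ≤ g x := by
    have hne : ∀ᵐ x : ℝ, x ≠ 1 := by simp [ae_iff, measure_singleton]
    filter_upwards [hh.ae_hasDerivAt_integral, hg.ae_hasDerivAt_integral, hne] with x h1 h2 h3 hx
    have hx1 : x < 1 := lt_of_le_of_ne hx.2 h3
    have hxu : x ∈ uIcc (0:ℝ) 1 := by rw [uIcc_of_le h01]; exact ⟨hx.1.le, hx.2⟩
    have d1 := (h1 hxu 0 left_mem_uIcc).tendsto_slope_zero_right.norm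
    have d2 := (h2 hxu 0 left_mem_uIcc).tendsto_slope_zero_right
    refine le_of_tendsto_of_tendsto d1 d2 ?_
    have hev : ∀ᶠ t in 𝓝[>] (0:ℝ), t < 1 - x :=
      (gt_mem_nhds (by linarith : (0:ℝ) < 1 - x)).filter_mono nhdsWithin_le_nhds
    filter_upwards [hev, self_mem_nhdsWithin] with t ht ht0
    have ht0' : (0:ℝ) < t := ht0
    have i1 : IntervalIntegrable h volume 0 (x + t) := hh.mono_set (by
      rw [uIcc_of_le (by linarith [hx.1]), uIcc_of_le h01]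
      exact Icc_subset_Icc le_rfl (by linarith))
    have i2 : IntervalIntegrable h volume 0 x := hh.mono_set (by
      rw [uIcc_of_le hx.1.le, uIcc_of_le h01]
      exact Icc_subset_Icc le_rfl hx.2)
    have j1 : IntervalIntegrable g volume 0 (x + t) := hg.mono_set (by
      rw [uIcc_of_le (by linarith [hx.1]), uIcc_of_le h01]
      exact Icc_subset_Icc le_rfl (by linarith))
    have j2 : IntervalIntegrable g volume 0 x := hg.mono_set (by
      rw [uIcc_of_le hx.1.le, uIcc_of_le h01]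
      exact Icc_subset_Icc le_rfl hx.2)
    rw [intervalIntegral.integral_interval_sub_left i1 i2,
      intervalIntegral.integral_interval_sub_left j1 j2, norm_smul, norm_inv, Real.norm_eq_abs,
      abs_of_pos ht0', smul_eq_mul]
    exact mul_le_mul_of_nonneg_left (H x ⟨hx.1.le, hx.2⟩ (x + t) ⟨by linarith [hx.1], by linarith⟩
      (by linarith)) (inv_nonneg.2 ht0'.le)
  rw [intervalIntegral.integral_of_le h01, intervalIntegral.integral_of_le h01]
  refine integral_mono_ae ?_ ?_ ((ae_restrict_iff' measurableSet_Ioc).2 key)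
  · exact hh.norm.1
  · exact hg.1

/-- a curve with an integrable derivative is near affine with the defect `‖c' - u‖` -/
theorem nearSeg_of_deriv {F : Type*} [NormedAddCommGroup F] [NormedSpace ℝ F] [CompleteSpace F]
    {c c' : ℝ → F} (hc' : IntervalIntegrable c' volume 0 1)
    (hc : ∀ s ∈ Icc (0:ℝ) 1, ∀ t ∈ Icc (0:ℝ) 1, s ≤ t → c t - c s = ∫ τ in s..t, c' τ) (u : F) :
    NearSeg c (fun τ => ‖c' τ - u‖) (c 0) u (∫ τ in (0:ℝ)..1, ‖c' τ - u‖) := by
  have h01 : (0:ℝ) ≤ 1 := zero_le_one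
  have hsub : IntervalIntegrable (fun τ => c' τ - u) volume 0 1 := hc'.sub intervalIntegrable_const
  have hint : IntervalIntegrable (fun τ => ‖c' τ - u‖) volume 0 1 := hsub.norm
  have hmono : ∀ s ∈ Icc (0:ℝ) 1, ∀ t ∈ Icc (0:ℝ) 1, uIcc s t ⊆ uIcc (0:ℝ) 1 := by
    intro s hs t ht
    rw [uIcc_of_le h01]
    exact uIcc_subset_Icc hs ht
  have hinc : ∀ s ∈ Icc (0:ℝ) 1, ∀ t ∈ Icc (0:ℝ) 1, s ≤ t →
      ‖c t - c s - (t - s) • u‖ ≤ ∫ τ in s..t, ‖c' τ - u‖ := by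
    intro s hs t ht hst
    have e : c t - c s - (t - s) • u = ∫ τ in s..t, (c' τ - u) := by
      rw [intervalIntegral.integral_sub (hc'.mono_set (hmono s hs t ht)) intervalIntegrable_const,
        intervalIntegral.integral_const, hc s hs t ht hst]
    rw [e]
    exact intervalIntegral.norm_integral_le_integral_norm hst
  have hle : ∀ t ∈ Icc (0:ℝ) 1, ∫ τ in (0:ℝ)..t, ‖c' τ - u‖ ≤ ∫ τ in (0:ℝ)..1, ‖c' τ - u‖ := by
    intro t ht
    refine intervalIntegral.integral_mono_interval le_rfl ht.1 ht.2 ?_ hint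
    exact Eventually.of_forall fun τ => norm_nonneg _
  refine ⟨?_, hint, fun t _ => norm_nonneg _, hinc, fun t ht => ?_⟩
  · have h1 : ContinuousOn (fun t => ∫ τ in (0:ℝ)..t, c' τ) (Icc 0 1) := by
      have := intervalIntegral.continuousOn_primitive_interval' hc' (left_mem_uIcc)
      rwa [uIcc_of_le h01] at this
    have h2 : ContinuousOn (fun t => c 0 + ∫ τ in (0:ℝ)..t, c' τ) (Icc 0 1) :=
      continuousOn_const.add h1
    refine h2.congr fun t ht => ?_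
    show c t = c 0 + ∫ τ in (0:ℝ)..t, c' τ
    rw [← hc 0 ⟨le_rfl, h01⟩ t ht ht.1]
    abel
  · have h1 := hinc 0 ⟨le_rfl, h01⟩ t ht ht.1
    rw [sub_zero] at h1
    have e : c t - (c 0 + t • u) = c t - c 0 - t • u := by abel
    rw [e]
    exact h1.trans (hle t ht)

/-- **R-EDGE, one curve** -/
theorem red_edge {R : R3 → R3} {ψ : Fin 3 → ℝ → ℝ} {σ : ℝ} (hm : ∀ a, Monotone (ψ a))
    (hL : ∀ a x y, |ψ a x - ψ a y| ≤ |x - y|) (h0 : ∀ a x, 0 ≤ ψ a x) (h1 : ∀ a x, ψ a x ≤ σ)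
    {c c' d : ℝ → R3} (hc' : IntervalIntegrable c' volume 0 1)
    (hc : ∀ s ∈ Icc (0:ℝ) 1, ∀ t ∈ Icc (0:ℝ) 1, s ≤ t → c t - c s = ∫ τ in s..t, c' τ)
    (hR : ∀ t ∈ Icc (0:ℝ) 1, ∀ a, R (c t) a = c t a - ψ a (c t a))
    (hd : IntervalIntegrable d volume 0 1)
    (hRd : ∀ s ∈ Icc (0:ℝ) 1, ∀ t ∈ Icc (0:ℝ) 1, s ≤ t → R (c t) - R (c s) = ∫ τ in s..t, d τ)
    (u : R3) :
    ∫ τ in (0:ℝ)..1, ‖d τ - u‖ ≤ 7 * (∫ τ in (0:ℝ)..1, ‖c' τ - u‖) + 3 * σ := by
  obtain ⟨g', b1, b2⟩ := NearSeg.of_coord hm hL h0 h1 (nearSeg_of_deriv hc' hc u) hR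
  have hcard : (Fintype.card (Fin 3) : ℝ) = 3 := by simp
  rw [hcard] at b2
  have b3 : ∫ τ in (0:ℝ)..1, ‖d τ - u‖ ≤ ∫ τ in (0:ℝ)..1, g' τ := by
    refine norm_le_of_inc (hd.sub intervalIntegrable_const) b1.int fun s hs t ht hst => ?_
    have hmono : uIcc s t ⊆ uIcc (0:ℝ) 1 := by
      rw [uIcc_of_le zero_le_one]
      exact uIcc_subset_Icc hs ht
    rw [intervalIntegral.integral_sub (hd.mono_set hmono) intervalIntegrable_const,
      intervalIntegral.integral_const, ← hRd s hs t ht hst]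
    exact b1.inc s hs t ht hst
  linarith

/-- from `ACV` to the hypotheses of `red_edge` -/
theorem acv_interval {Om : Set R3} {f : R3 → R3} {D : R3 → R3 →L[ℝ] R3} {v x : R3}
    (h : ACV Om f D v x) (hx : ∀ t ∈ Icc (0:ℝ) 1, x + t • v ∈ Om) :
    IntervalIntegrable (fun t => D (x + t • v) v) volume 0 1 ∧
      ∀ s ∈ Icc (0:ℝ) 1, ∀ t ∈ Icc (0:ℝ) 1, s ≤ t →
        f (x + t • v) - f (x + s • v) = ∫ τ in s..t, D (x + τ • v) v := by
  constructor
  · rw [intervalIntegrable_iff_integrableOn_Icc_of_le zero_le_one]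
    exact (h 0 1 zero_le_one fun τ hτ => hx τ hτ).1
  · intro s hs t ht hst
    exact (h s t hst fun τ hτ => hx τ ⟨hs.1.trans hτ.1, hτ.2.trans ht.2⟩).2

/-- **R-EDGE, almost every translate of countably many edges** -/
theorem red_edges {p : ℝ} {Om La : Set R3} (hOm : IsOpen Om) {g : R3 → R3}
    {G G2 : Fin 3 → R3 → R3} {R : R3 → R3} (hg : SH p Om La g G)
    (hRg : SH p Om La (fun x => R (g x)) G2) {ψ : Fin 3 → ℝ → ℝ} {σ : ℝ} (hσ : 0 ≤ σ)
    (hm : ∀ a, Monotone (ψ a)) (hL : ∀ a x y, |ψ a x - ψ a y| ≤ |x - y|)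
    (h0 : ∀ a x, 0 ≤ ψ a x) (h1 : ∀ a x, ψ a x ≤ σ) {O : Set R3}
    (hR : ∀ y ∈ O, ∀ a, R y a = y a - ψ a (y a)) {ι : Type*} [Countable ι] (x v : ι → R3) :
    ∀ᵐ w : R3, ∀ i, (∀ t ∈ Icc (0:ℝ) 1, x i + w + t • v i ∈ Om ∧ g (x i + w + t • v i) ∈ O) →
      ∀ u : R3, ∫⁻ t in Ioc (0:ℝ) 1, ‖Gmat G2 (x i + w + t • v i) (v i) - u‖ₑ ≤
        7 * (∫⁻ t in Ioc (0:ℝ) 1, ‖Gmat G (x i + w + t • v i) (v i) - u‖ₑ) +
          ENNReal.ofReal (3 * σ) := by
  obtain ⟨_, _, _, _, _, hgc, _⟩ := hg.homeo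
  obtain ⟨_, _, _, _, _, hRgc, _⟩ := hRg.homeo
  have k1 := acv_countable hOm hg.wg hgc x v
  have k2 := acv_countable hOm hRg.wg hRgc x v
  filter_upwards [k1, k2] with w w1 w2 i hi u
  have e : w + x i = x i + w := add_comm _ _
  obtain ⟨a1, a2⟩ := acv_interval (e ▸ w1 i) fun t ht => (hi t ht).1
  obtain ⟨b1, b2⟩ := acv_interval (e ▸ w2 i) fun t ht => (hi t ht).1
  have key := red_edge hm hL h0 h1 a1 a2 (fun t ht a => hR _ (hi t ht).2 a) b1 b2 u
  have c1 : ∫⁻ t in Ioc (0:ℝ) 1, ‖Gmat G2 (x i + w + t • v i) (v i) - u‖ₑ =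
      ENNReal.ofReal (∫ t in (0:ℝ)..1, ‖Gmat G2 (x i + w + t • v i) (v i) - u‖) := by
    rw [intervalIntegral.integral_of_le zero_le_one,
      ofReal_integral_norm_eq_lintegral_enorm (b1.sub intervalIntegrable_const).1]
  have c2 : ∫⁻ t in Ioc (0:ℝ) 1, ‖Gmat G (x i + w + t • v i) (v i) - u‖ₑ =
      ENNReal.ofReal (∫ t in (0:ℝ)..1, ‖Gmat G (x i + w + t • v i) (v i) - u‖) := by
    rw [intervalIntegral.integral_of_le zero_le_one,
      ofReal_integral_norm_eq_lintegral_enorm (a1.sub intervalIntegrable_const).1]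
  rw [c1, c2]
  refine (ENNReal.ofReal_le_ofReal key).trans ?_
  have hnn : 0 ≤ ∫ t in (0:ℝ)..1, ‖Gmat G (x i + w + t • v i) (v i) - u‖ :=
    intervalIntegral.integral_nonneg zero_le_one fun t _ => norm_nonneg _
  rw [ENNReal.ofReal_add (by positivity) (by positivity), ENNReal.ofReal_mul (by norm_num)]
  gcongr
  norm_num

end

end Crest.Agent.R096.Red_58
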