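import Crest.Agent.R096.Np3_962
import Crest.Agent.R096.Red1_58
import Crest.Agent.R96.Sg5_199

/-!
Row 96 (S0127), helper120, [B0] of 962 #11186 / #11223: **PREMACH-N** = the target
`Np_962.PremachN` (112's `premach` with exact weights of the levels and the sharp bound for the
weights of the edges by the derivatives of the level functions).
-/

set_option autoImplicit false
set_option linter.unusedSectionVars false
set_option linter.unusedVariables false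
open Set Filter Topology MeasureTheory
open scoped NNReal ENNReal

noncomputable section

namespace Crest.Agent.R096.Prn_120

open Crest.Agent.R096.Msh_715
open Crest.Agent.R096.SkC1_961 (E3 Cfg FoamD Hom3 NN)
open Crest.Agent.R096.Ls_222
open Crest.Agent.R096.Mbf_337
open Crest.Agent.R096.Der_764 (OmH isOpen_OmH continuousOn_Psif)
open Crest.Agent.R96.Pm_199
open Crest.Agent.R96.Acl_392 (ACLat WD segIn)
open Crest.Agent.R96.Sg1_199 (li sgm UGs ugs_of_acl li_ne_top_of_acl)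
open Crest.Agent.R96.Sg5_199 (gdir wd_dir measurable_gdir)
open Crest.Agent.R096.Pmc_112 (Gd' Qs Qs_rev ae_Qs Mok dim_of_cores)
open Crest.Agent.R096.Np_962

/-! ### domination of the increments, extended nonnegative form -/

theorem lint_le_of_inc {h : ℝ → ℝ} {G : ℝ → ℝ≥0∞} (hh : IntegrableOn h (Icc (0:ℝ) 1))
    (hGm : AEMeasurable G (volume.restrict (Icc (0:ℝ) 1)))
    (hGf : ∫⁻ τ in Icc (0:ℝ) 1, G τ ≠ ⊤)
    (H : ∀ s t : ℝ, 0 ≤ s → s ≤ t → t ≤ 1 →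
      ENNReal.ofReal |∫ τ in s..t, h τ| ≤ ∫⁻ τ in Ioc s t, G τ) :
    ∫⁻ τ in Icc (0:ℝ) 1, ‖h τ‖ₑ ≤ ∫⁻ τ in Icc (0:ℝ) 1, G τ := by
  have hhI : IntervalIntegrable h volume 0 1 := by
    rw [intervalIntegrable_iff_integrableOn_Ioc_of_le zero_le_one]
    exact hh.mono_set Ioc_subset_Icc_self
  have hgI : IntegrableOn (fun τ => (G τ).toReal) (Icc (0:ℝ) 1) :=
    integrable_toReal_of_lintegral_ne_top hGm hGf
  have hgI' : IntervalIntegrable (fun τ => (G τ).toReal) volume 0 1 := by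
    rw [intervalIntegrable_iff_integrableOn_Ioc_of_le zero_le_one]
    exact hgI.mono_set Ioc_subset_Icc_self
  have hfin : ∀ᵐ τ ∂(volume.restrict (Icc (0:ℝ) 1)), G τ < ⊤ := ae_lt_top' hGm hGf
  have hsub : ∀ s t : ℝ, 0 ≤ s → t ≤ 1 → Ioc s t ⊆ Icc (0:ℝ) 1 := fun s t hs ht τ hτ =>
    ⟨hs.trans hτ.1.le, hτ.2.trans ht⟩
  have key := Red_58.norm_le_of_inc hhI hgI' (by
    intro s hs t ht hst
    have h1 := H s t hs.1 hst ht.2
    have h2 : ∫ τ in s..t, (G τ).toReal = (∫⁻ τ in Ioc s t, G τ).toReal := by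
      rw [intervalIntegral.integral_of_le hst]
      exact integral_toReal (hGm.mono_measure (Measure.restrict_mono (hsub s t hs.1 ht.2) le_rfl))
        (ae_mono (Measure.restrict_mono (hsub s t hs.1 ht.2) le_rfl) hfin)
    rw [h2, Real.norm_eq_abs]
    have h3 : ∫⁻ τ in Ioc s t, G τ ≠ ⊤ :=
      ne_top_of_le_ne_top hGf (lintegral_mono_set (hsub s t hs.1 ht.2))
    exact (ENNReal.ofReal_le_iff_le_toReal h3).1 h1)
  have e1 : ∫⁻ τ in Icc (0:ℝ) 1, ‖h τ‖ₑ = ENNReal.ofReal (∫ τ in (0:ℝ)..1, ‖h τ‖) := by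
    rw [intervalIntegral.integral_of_le zero_le_one,
      ofReal_integral_norm_eq_lintegral_enorm (hh.mono_set Ioc_subset_Icc_self)]
    exact setLIntegral_congr Ioc_ae_eq_Icc.symm
  have e2 : ∫⁻ τ in Icc (0:ℝ) 1, G τ = ENNReal.ofReal (∫ τ in (0:ℝ)..1, (G τ).toReal) := by
    rw [intervalIntegral.integral_of_le zero_le_one, ← integral_Icc_eq_integral_Ioc,
      integral_toReal hGm hfin, ENNReal.ofReal_toReal hGf]
  rw [e1, e2]
  exact ENNReal.ofReal_le_ofReal key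

/-! ### good segments -/

variable {δ κ0 R c0 : ℝ} {La Om : Set E3} {Φ : FoamD δ κ0 R c0 La} {f : E3 → E3} {J : Type}

/-- good segments: 112's `Qs`, and all level functions are absolutely continuous with derivative
`gdir (g c) v` -/
def Qn (Φ : FoamD δ κ0 R c0 La) (f : E3 → E3) (Om : Set E3) (D' : E3 → E3 →L[ℝ] E3)
    (g : Φ.F → Fin 3 → E3 → ℝ) (x v : E3) : Prop :=
  Qs Φ f Om D' x v ∧ ∀ c, ACLat (OmH Φ f Om) (us Φ f c) (gdir (g c) v) v x

/-- the reversed segment -/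
theorem aclat_rev {Ω : Set E3} {u : E3 → ℝ} {g : Fin 3 → E3 → ℝ} {x v : E3}
    (h : ACLat Ω u (gdir g v) v x) : ACLat Ω u (gdir g (-v)) (-v) (x + v) := by
  intro s t hst hseg
  have e0 : ∀ τ : ℝ, x + v + τ • -v = x + (1 - τ) • v := by
    intro τ
    rw [sub_smul, one_smul, smul_neg]; abel
  have hseg' : x ∈ segIn Ω v (1 - t) (1 - s) := by
    intro τ hτ
    have h1 := hseg (1 - τ) ⟨by linarith [hτ.2], by linarith [hτ.1]⟩
    rw [e0, sub_sub_cancel] at h1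
    exact h1
  obtain ⟨h1, h2⟩ := h (1 - t) (1 - s) (by linarith) hseg'
  have e1 : ∀ τ : ℝ, gdir g (-v) (x + v + τ • -v) = - gdir g v (x + (1 - τ) • v) := by
    intro τ
    rw [e0]
    unfold gdir
    rw [← Finset.sum_neg_distrib]
    refine Finset.sum_congr rfl fun l _ => ?_
    rw [Pi.neg_apply, neg_mul]
  constructor
  · simp only [e1]
    apply Integrable.neg
    have h3 : IntervalIntegrable (fun τ : ℝ => gdir g v (x + τ • v)) volume (1 - t) (1 - s) := by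
      rw [intervalIntegrable_iff_integrableOn_Icc_of_le (by linarith)]
      exact h1
    have h4 := h3.comp_sub_left 1
    simp only [sub_sub_cancel] at h4
    have h5 := (intervalIntegrable_iff_integrableOn_Icc_of_le hst).1 h4.symm
    exact h5
  · rw [e0 t, e0 s]
    simp only [e1]
    rw [intervalIntegral.integral_neg,
      intervalIntegral.integral_comp_sub_left (fun τ => gdir g v (x + τ • v)) 1, ← h2]
    ring

theorem Qn_rev {D' : E3 → E3 →L[ℝ] E3} {g : Φ.F → Fin 3 → E3 → ℝ} {x v : E3}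
    (h : Qn Φ f Om D' g x v) : Qn Φ f Om D' g (x + v) (-v) :=
  ⟨Qs_rev h.1, fun c => aclat_rev (h.2 c)⟩

theorem ae_Qn (hO : IsOpen Om) (hLa : IsOpen La) (hf : Hom3 f Om La)
    {D' : E3 → E3 →L[ℝ] E3}
    (hD : ∀ l, Crest.Agent.R96.Sob4_199.VWD (OmH Φ f Om) volume
      (fun x => Crest.Agent.R96.En10_199.P3 (Φ.Psi (f x)))
      (fun x => Crest.Agent.R96.En10_199.P3 (D' x (Pi.single l 1))) (Pi.single l (1:ℝ)))
    {g : Φ.F → Fin 3 → E3 → ℝ}
    (hg : ∀ c l, WD (OmH Φ f Om) volume (fun x => Φ.lev c (f x)) (g c l) (Pi.single l 1))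
    (x v : E3) : ∀ᵐ a : E3, Qn Φ f Om D' g (x + a) v := by
  have : Countable Φ.F := countable_F Φ
  have hOH : IsOpen (OmH Φ f Om) := isOpen_OmH hO hLa hf
  have hu : ∀ c : Φ.F, ContinuousOn (us Φ f c) (OmH Φ f Om) := fun c =>
    continuousOn_us hLa hf (fun y hy => hy.1) (fun y hy => hy.2) c
  have h1 := Crest.Agent.R96.Sg2_199.ae_shift (μ := (volume : Measure E3)) hOH
    (ι := Unit) (fun _ => x) (fun _ => v) (u := fun (c : Φ.F) y => us Φ f c y)
    (g := fun c _ => gdir (g c) v) hu (fun c _ => wd_dir (fun l => hg c l) v)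
  filter_upwards [ae_Qs hO hLa hf hD x v, h1] with a ha1 ha2
  exact ⟨ha1, fun c => ha2 c ()⟩

/-! ### the sizes `GV` -/

theorem GV_smul {𝒞 : Type*} (w : 𝒞 → ℝ≥0∞) (g : 𝒞 → Fin 3 → E3 → ℝ) (t : ℝ) (v y : E3) :
    GV w g (t • v) y = ‖t‖ₑ * GV w g v y := by
  unfold GV
  rw [← ENNReal.tsum_mul_left]
  refine tsum_congr fun c => ?_
  have h1 : ∑ l, (t • v) l * g c l y = t * ∑ l, v l * g c l y := by
    rw [Finset.mul_sum]
    refine Finset.sum_congr rfl fun l _ => ?_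
    rw [Pi.smul_apply, smul_eq_mul, mul_assoc]
  rw [h1, enorm_mul]
  ring

theorem measurable_GV {𝒞 : Type*} [Countable 𝒞] (w : 𝒞 → ℝ≥0∞) {g : 𝒞 → Fin 3 → E3 → ℝ}
    (hg : ∀ c l, Measurable (g c l)) (v : E3) : Measurable (GV w g v) := by
  unfold GV
  exact Measurable.tsum fun c =>
    (Finset.measurable_sum _ fun l _ => (hg c l).const_mul _).enorm.const_mul _

/-! ### one level function on one good segment -/

/-- on a good segment the derivative of the level function `c` is at most `Cl / sz` times the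
derivative of `Psi ∘ f` on `{lev < 1}` (in the mean over the segment) -/
theorem li_gdir_le (hLa : IsOpen La) (hδ : 0 < δ) (hR : 0 < R) (hf : Hom3 f Om La)
    {D' : E3 → E3 →L[ℝ] E3} (hDm : ∀ v, Measurable fun y => D' y v) {g : Φ.F → Fin 3 → E3 → ℝ}
    {x v : E3} (hs : sgm x v ⊆ OmH Φ f Om) (hQ : Qn Φ f Om D' g x v) (c : Φ.F) :
    li (fun y => ‖gdir (g c) v y‖ₑ) x v ≤
      li (fun y => ENNReal.ofReal (Cl δ R / c.1.sz) *
        {y | us Φ f c y < 1}.indicator (fun y => ‖D' y v‖ₑ) y) x v := by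
  have hsO : sgm x v ⊆ Om := fun y hy => (hs hy).1
  have hsh : ∀ y ∈ sgm x v, ∀ c, f y ∉ (Φ.B c).S := fun y hy => (hs hy).2
  obtain ⟨hG, hGf⟩ := hQ.1 hs
  have hug := ugs_us hLa hδ hR hf hsO hsh hG c
  have hA := hQ.2 c
  have hseg : ∀ s t : ℝ, 0 ≤ s → t ≤ 1 → x ∈ segIn (OmH Φ f Om) v s t := by
    intro s t h1 h2 τ hτ
    exact hs ⟨τ, ⟨h1.trans hτ.1, hτ.2.trans h2⟩, rfl⟩
  have hcont : ContinuousOn (fun τ : ℝ => us Φ f c (x + τ • v)) (Icc 0 1) :=
    (continuousOn_us hLa hf hsO hsh c).comp (Continuous.continuousOn (by fun_prop))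
      fun τ hτ => ⟨τ, hτ, rfl⟩
  have hm : AEMeasurable (fun τ : ℝ => ENNReal.ofReal (Cl δ R / c.1.sz) *
      {y | us Φ f c y < 1}.indicator (fun y => ‖D' y v‖ₑ) (x + τ • v))
      (volume.restrict (Icc (0:ℝ) 1)) := by
    refine AEMeasurable.const_mul ?_ _
    obtain ⟨U, hU, hUe⟩ := (continuousOn_iff'.1 hcont) (Iio 1) isOpen_Iio
    have hDmm : Measurable fun τ : ℝ => ‖D' (x + τ • v) v‖ₑ :=
      ((hDm v).comp (Continuous.measurable (by fun_prop : Continuous fun τ : ℝ => x + τ • v))).enorm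
    refine ((hDmm.indicator hU.measurableSet).aemeasurable).congr ?_
    rw [Filter.EventuallyEq, ae_restrict_iff' measurableSet_Icc]
    refine Eventually.of_forall fun τ hτ => ?_
    have h1 : τ ∈ U ↔ us Φ f c (x + τ • v) < 1 := by
      have h2 : τ ∈ (fun τ : ℝ => us Φ f c (x + τ • v)) ⁻¹' Iio 1 ∩ Icc 0 1 ↔ τ ∈ U ∩ Icc 0 1 := by
        rw [hUe]
      constructor
      · intro h; exact (h2.2 ⟨h, hτ⟩).1
      · intro h; exact (h2.1 ⟨h, hτ⟩).1
    by_cases h : τ ∈ U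
    · rw [indicator_of_mem h, indicator_of_mem (show x + τ • v ∈ {y | us Φ f c y < 1} from h1.1 h)]
    · rw [indicator_of_notMem h,
        indicator_of_notMem (show x + τ • v ∉ {y | us Φ f c y < 1} from fun h2 => h (h1.2 h2))]
  have hf' : li (fun y => ENNReal.ofReal (Cl δ R / c.1.sz) *
        {y | us Φ f c y < 1}.indicator (fun y => ‖D' y v‖ₑ) y) x v ≠ ⊤ := by
    rw [li_const_mul ENNReal.ofReal_ne_top]
    refine ENNReal.mul_ne_top ENNReal.ofReal_ne_top (ne_top_of_le_ne_top hGf ?_)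
    exact li_mono fun y _ => indicator_le_self _ _ _
  refine lint_le_of_inc (h := fun τ => gdir (g c) v (x + τ • v))
    (hA 0 1 zero_le_one (hseg 0 1 le_rfl le_rfl)).1 hm hf' ?_
  intro s t h1 h2 h3
  have h4 := hug s t h1 h2 h3
  rw [(hA s t h2 (hseg s t h1 h3)).2] at h4
  exact h4

/-- **`cmp`**: on a good segment -/
theorem li_GV_le (hLa : IsOpen La) (hδ : 0 < δ) (hR : 0 < R) (hf : Hom3 f Om La)
    {D' : E3 → E3 →L[ℝ] E3} (hDm : ∀ v, Measurable fun y => D' y v) {g : Φ.F → Fin 3 → E3 → ℝ}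
    (hgm : ∀ c l, Measurable (g c l)) {W : Φ.F → ℝ} (hW : ∀ c, W c ≤ c.1.sz)
    {x v : E3} (hs : sgm x v ⊆ OmH Φ f Om) (hQ : Qn Φ f Om D' g x v) :
    li (GV (fun c => ENNReal.ofReal (W c)) g v) x v ≤
      ENNReal.ofReal (8 * Cl δ R) * li (Gd' D' v) x v := by
  have : Countable Φ.F := countable_F Φ
  have hline : Measurable fun τ : ℝ => x + τ • v := Continuous.measurable (by fun_prop)
  have e1 : li (GV (fun c => ENNReal.ofReal (W c)) g v) x v =
      ∑' c : Φ.F, ENNReal.ofReal (W c) * li (fun y => ‖gdir (g c) v y‖ₑ) x v := by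
    have e2 : li (GV (fun c => ENNReal.ofReal (W c)) g v) x v = ∫⁻ τ in Icc (0:ℝ) 1,
        ∑' c : Φ.F, ENNReal.ofReal (W c) * ‖gdir (g c) v (x + τ • v)‖ₑ := rfl
    rw [e2, lintegral_tsum (f := fun (c : Φ.F) (τ : ℝ) =>
      ENNReal.ofReal (W c) * ‖gdir (g c) v (x + τ • v)‖ₑ) fun c =>
      (((measurable_gdir (g := g c) (hgm c) v).comp hline).enorm.const_mul _).aemeasurable]
    refine tsum_congr fun c => ?_
    exact lintegral_const_mul' _ _ ENNReal.ofReal_ne_top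
  rw [e1]
  calc ∑' c : Φ.F, ENNReal.ofReal (W c) * li (fun y => ‖gdir (g c) v y‖ₑ) x v
      ≤ ∑' c : Φ.F, ENNReal.ofReal (W c) * li (fun y => ENNReal.ofReal (Cl δ R / c.1.sz) *
        {y | us Φ f c y < 1}.indicator (fun y => ‖D' y v‖ₑ) y) x v :=
        ENNReal.tsum_le_tsum fun c => mul_le_mul' le_rfl (li_gdir_le hLa hδ hR hf hDm hs hQ c)
    _ ≤ li (fun y => ∑' c : Φ.F, ENNReal.ofReal (W c) * (ENNReal.ofReal (Cl δ R / c.1.sz) *
        {y | us Φ f c y < 1}.indicator (fun y => ‖D' y v‖ₑ) y)) x v := tsum_mul_li_le _ _ _ _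
    _ ≤ li (fun y => ENNReal.ofReal (8 * Cl δ R) * ‖D' y v‖ₑ) x v := by
        refine li_mono fun y hy => ?_
        refine (sum_grad_le' (Φ := Φ) hLa hδ hR hf (hs hy).1 (hs hy).2 (fun y => ‖D' y v‖ₑ)
          (A := W) (B := 1) zero_le_one (fun c => by rw [one_mul]; exact hW c)).trans ?_
        refine mul_le_mul' (ENNReal.ofReal_le_ofReal ?_) le_rfl
        have := Cl_nonneg hδ hR
        linarith
    _ = _ := li_const_mul ENNReal.ofReal_ne_top

/-! ### one mesh -/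

theorem preOutN_of (hLa : IsOpen La) (hδ : 0 < δ) (hR : 0 < R) (hf : Hom3 f Om La)
    {D' : E3 → E3 →L[ℝ] E3} (hDm : ∀ v, Measurable fun y => D' y v) {g : Φ.F → Fin 3 → E3 → ℝ}
    (hgm : ∀ c l, Measurable (g c l)) {W : Φ.F → ℝ} {κp μ κ1 κ2 κ3 : ℝ}
    (hW0 : ∀ c, 0 < W c) (hWd : ∀ c, ∃ k N : ℕ, W c * 2 ^ k = N)
    (hW1 : ∀ c, c.1.sz ≤ κ3 * W c) (hW2 : ∀ c, W c ≤ κ3 * c.1.sz) (hW3 : ∀ c, W c ≤ c.1.sz)
    (hκp : 0 < κp) (hκp1 : κp ≤ 1) (hμ : μ ≤ κp / 64) (hκ2 : 0 ≤ κ2) (hκ : κ1 * κ0 < κ2)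
    {X : Set Φ.F} {D : Dec Om Φ.F} (hM : Mok Φ f κp μ κ1 κ2 X D)
    (hQ : ∀ e : Edg D.T, Qn Φ f Om D' g (ea e) (ev e)) :
    PreOutN Φ f κp μ κ1 κ2 κ3 W X g D' D := by
  have hh := hh_of_cores hκ2 hκ hM.cores (dim_of_cores hf hM.cores)
  have hs : ∀ e : Edg D.T, sgm (ea e) (ev e) ⊆ OmH Φ f Om := fun e y hy =>
    ⟨sgm_sub_Om e hy, hh e y hy⟩
  obtain ⟨Bad, hB1, hB2, hB3⟩ := hM.words
  refine ⟨hM.cores, hM.fine, fun e => ((hQ e).1 (hs e)).2,
    fun e => li_GV_le hLa hδ hR hf hDm hgm hW3 (hs e) (hQ e), ?_⟩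
  intro err herr Z m0 hZ
  obtain ⟨κ, L, -, h2, h3, h4, h5, -, -⟩ := levsel2 hLa hf D.T hh
    (g := fun c e y => ‖gdir (g c) (ev e) y‖ₑ)
    (fun c e => ugs_of_acl (hs e) ((hQ e).2 c)) (fun c e => li_ne_top_of_acl (hs e) ((hQ e).2 c))
    (κ' := fun _ => Empty) (X := fun _ j => j.elim) (fun _ j => j.elim)
    (J := fun _ j => j.elim) (fun _ j => j.elim) (fun _ j => j.elim) (e' := fun _ => 1)
    (fun _ => one_pos) herr hκp hκp1 hμ hW0 hWd hW1 hW2 hZ hB1 hB2 m0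
  refine ⟨κ, L, h2, hB3 L h2.marg h3, h4, fun e => ?_, fun i => NN_le h2.vert i⟩
  refine (h5 e).trans (add_le_add (le_of_eq ?_) le_rfl)
  show li _ _ _ = ENNReal.ofReal (1 + κp) * li _ _ _
  rw [← li_const_mul ENNReal.ofReal_ne_top]
  congr 1
  funext y
  unfold GV
  rw [← ENNReal.tsum_mul_left]
  refine tsum_congr fun c => ?_
  rw [ENNReal.ofReal_mul (by linarith), mul_assoc]
  rfl

/-- **PREMACH-N** ([B0] of 962 #11186 / #11223) -/
theorem premachN : PremachN := by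
  intro δ κ0 R c0 La Om Φ f J hO hLa hδ hR hf M D' hDm hD g hgm hg W κp μ κ1 κ2 κ3 hW0 hWd hW1 hW2
    hW3 hκp hκp1 hμ hκ3 hκ2 hκ X p hp Gd hGd θ₁ θ₂ hZ m lam hm0 hm hl0 hl1 hl P' hP hM
  have : Countable Φ.F := countable_F Φ
  have hGh : ∀ (t : ℝ) v y, Gd' D' (t • v) y = ‖t‖ₑ * Gd' D' v y := by
    intro t v y
    unfold Gd'
    rw [map_smul, enorm_smul]
  have hGm : ∀ v, Measurable (Gd' D' v) := fun v => (hDm v).enorm
  obtain ⟨A', h1, h2, h3, h4⟩ := M.sel (Q := Qn Φ f Om D' g) (ae_Qn hO hLa hf hD hg)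
    (fun x v h => Qn_rev h) (G := GV (fun c => ENNReal.ofReal (W c)) g)
    (fun t v y => GV_smul _ g t v y) (fun v => measurable_GV _ hgm v) hp hGd hZ hm0 hm hl0 hl1 hl
    (P' := fun a => P' a ∧ ∀ w (h : M.Ok a w), (∀ j, a + w j ∈ Gd j) →
      Mok Φ f κp μ κ1 κ2 X (M.md a w h))
    (by filter_upwards [hP, hM] with a ha1 ha2 ha
        exact ⟨ha1 ha, ha2 ha⟩)
  refine ⟨A', h1, h2, h3, fun a ha => ?_⟩
  obtain ⟨⟨h5, h6⟩, w, h, h7, h8, h9, -⟩ := h4 a ha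
  refine ⟨h5, w, h, h7, preOutN_of hLa hδ hR hf hDm hgm hW0 hWd hW1 hW2 hW3 hκp hκp1 hμ hκ2 hκ
    (h6 w h h7) h8, h9, fun k j hk => ?_⟩
  have h10 := M.en_le hGh hGm hp h k
  rw [hk] at h10
  exact h10

end Crest.Agent.R096.Prn_120
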