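import Crest.Agent.R096.Pgb1_120
import Crest.Agent.R096.Prn1_120
import Crest.Agent.R096.Mfs1_168
import Crest.Agent.R96.Gj1_872

/-!
# Row 96 (S0127), helper120, (M3) of 962 #11558 (`pre_genN`), part 2: literal statement

`DN` = data of the blocks, `LN` = finite dyadic lists of relative shifts, `LN.ins` = 880's record over the
capped mesh data `cap M c` (common shifts in the unit ball), `GenInN` = input, **`PreGenN`** = the theorem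
as a Prop.
-/

set_option autoImplicit false
set_option linter.style.longLine false
set_option linter.unusedSectionVars false

open MeasureTheory Set Filter Metric
open scoped Topology ENNReal

namespace Crest.Agent.R096.Pgb_120

open Crest.Agent.R096.Msh_715 Crest.Agent.R096.Msh_810 Crest.Agent.R096.Cut_874
  Crest.Agent.R096.Mal_874
open Crest.Agent.R096.SkC1_961 (E3 Cfg FoamD Hom3)
open Crest.Agent.R096.Gno_324 (cap capD capD_Om)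
open Crest.Agent.R096.Mfa_880
open Crest.Agent.R096.Mfs_168 (mfs)
open Crest.Agent.R096.Mbf_337
open Crest.Agent.R096.Der_764 (OmH)
open Crest.Agent.R96.Pm_199
open Crest.Agent.R96.Sob4_199 (VWD)
open Crest.Agent.R96.Acl_392 (WD)
open Crest.Agent.R96.En10_199 (P3)
open Crest.Agent.R096.Pmc_112 (Gd' Mok)
open Crest.Agent.R096.Np_962 (GV PreOutN)

noncomputable section

/-- **the data of the blocks** -/
structure DN (F : Type) (X : Set F) where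
  M : MD E3 3 X
  D : RD M
  /-- coarse scales -/
  k0 : X → ℕ
  hk0 : ∀ j, (M.Q j).kc ≤ k0 j
  /-- admissible total shifts -/
  Bx : X → Set E3
  hBx : ∀ j, Bx j ⊆ BxM M j
  cX : Countable X
  hOm : (M.φ ⁻¹' M.D0.Om).Nonempty
  /-- decoration of the cores (depends on the shifts) -/
  deco : E3 → (X → E3) → Deco F

/-- **finite lists of dyadic relative shifts** -/
structure LN {F : Type} {X : Set F} (I : DN F X) where
  W : X → Set E3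
  Wf : ∀ j, (W j).Finite
  κw : X → ℕ
  h0 : ∀ j m, ∃ c : ℤ, 2 ^ κw j * (I.D.d j : ℝ) * (I.M.Q j).a' m = c
  hW : ∀ j, ∀ w ∈ W j, ∀ l, ∃ z : ℤ, 2 ^ κw j * I.M.φ w l = z

namespace LN

variable {F : Type} {X : Set F} {I : DN F X} (L : LN I)

/-- 880's record over `cap M c`; common shifts = the unit ball -/
def pri {c : ℝ} (hc : 0 < c) : Pri F X where
  M := cap I.M c hc
  D := capX I.D c hc
  W := L.W
  Wf := L.Wf
  k0 := I.k0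
  hk0 := I.hk0
  κw := L.κw
  h0 := L.h0
  hW := L.hW
  Bx := I.Bx
  hBx := I.hBx
  r := 1
  A := closedBall 0 1
  Am := isClosed_closedBall.measurableSet
  A0 := (measure_closedBall_pos volume (0 : E3) one_pos).ne'
  A1 := measure_closedBall_lt_top.ne
  hAr a ha := mem_closedBall_zero_iff.1 ha
  cX := I.cX
  hOm := by rw [cap_Om]; exact I.hOm
  deco := I.deco

/-- **the instance over the capped mesh with the scales `k` at the walls** -/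
def ins {c : ℝ} (hc : 0 < c) {k : X → ℕ} (hk : (cap I.M c hc).Sc k) (h1 : ∀ j, I.k0 j ≤ k j)
    (h2 : ∀ j, L.κw j ≤ k j) : Ins F X :=
  (L.pri hc).ins ⟨hk, h1, h2⟩

end LN

/-- **input of `pre_genN`**: good sets of total shifts; (B1) + (B2) = `mok` (635's `mok_XN`: exact cores,
fineness, words on every capped mesh whose total shifts are good); (B3) = `en` -/
structure GenInN {δ κ0 R c0 : ℝ} {La : Set E3} (Φ : FoamD δ κ0 R c0 La) (f : E3 → E3)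
    (D' : E3 → E3 →L[ℝ] E3) (p κp μ κ1 κ2 : ℝ) {X : Set Φ.F} (I : DN Φ.F X) (κr : X → ℕ)
    (Gd : X → Set E3) (wt : ∀ j : X, Mfi_290.Pt (I.M.Q j) ⊕ ℕ → ℝ≥0∞) (B : X → ℝ≥0∞) : Prop where
  Gds : ∀ j, Gd j ⊆ I.Bx j
  Gdm : ∀ j, MeasurableSet (Gd j)
  Gd0 : ∀ j, volume (Gd j) ≠ 0
  h0 : ∀ j m, ∃ c : ℤ, 2 ^ κr j * (I.D.d j : ℝ) * (I.M.Q j).a' m = c
  mok : ∀ (c : ℝ) (hc : 0 < c) (k : X → ℕ) (hk : (cap I.M c hc).Sc k) (a : E3) (w : X → E3)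
    (hv : (cap I.M c hc).Adm fun j => a + w j), (∀ j, a + w j ∈ Gd j) →
    ∀ (i0 : (cap I.M c hc).OIx hk ((cap I.M c hc).φ a) hv ⊕
        Σ j, (cap I.M c hc).IIx hk ((cap I.M c hc).φ a) hv j)
      (fr : ((cap I.M c hc).OIx hk ((cap I.M c hc).φ a) hv ⊕
        Σ j, (cap I.M c hc).IIx hk ((cap I.M c hc).φ a) hv j) → E3 ≃ᵃ[ℝ] E3),
    Mok Φ f κp μ κ1 κ2 X
      (((I.deco a w).mkX X ((cap I.M c hc).mesh hk ((cap I.M c hc).φ a) hv) i0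
        fun j => Sum.inr ⟨j, (cap I.M c hc).core hk ((cap I.M c hc).φ a) hv j⟩).wf fr)
  en : ∀ j, ∀ s ∈ Gd j, ∑' c, wt j c * (QU I.M I.D I.k0 I.hk0 j).EnC (Gd' D') p c s ≤ B j

/-- **the output of `pre_genN` for one shift `a`** (`I'` = the instance over the capped mesh) -/
def OutN {δ κ0 R c0 : ℝ} {La : Set E3} (Φ : FoamD δ κ0 R c0 La) (f : E3 → E3)
    (D' : E3 → E3 →L[ℝ] E3) (g : Φ.F → Fin 3 → E3 → ℝ) (W : Φ.F → ℝ) (p κp μ κ1 κ2 κ3 : ℝ)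
    {X : Set Φ.F} (Gd : X → Set E3) (B : X → ℝ≥0∞) (KO KI εb : X → ℝ≥0∞) (I' : Ins Φ.F X)
    (wt : ∀ j : X, Mfi_290.Pt (I'.M.Q j) ⊕ ℕ → ℝ≥0∞) (a : E3) : Prop :=
  ∃ (w : X → E3) (h : (mfs I').Ok a w), (∀ j, a + w j ∈ Gd j) ∧
    PreOutN Φ f κp μ κ1 κ2 κ3 W X g D' ((mfs I').md a w h) ∧
    (∀ j, KO j * (mfs I').EnT (GV (fun c => ENNReal.ofReal (W c)) g) p a w h (I'.kOw j) ≤ εb j) ∧
    (∀ j, KI j * (mfs I').EnT (GV (fun c => ENNReal.ofReal (W c)) g) p a w h (I'.kIw j) ≤ εb j) ∧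
    ∀ j, ∑' c, wt j c * (mfs I').EnT (Gd' D') p a w h (I'.kI j c) ≤ B j

/-- **`pre_genN`, literal Prop** ((M3) of 962 #11558).  First the data and the numbers, then the lists `L`
of relative shifts and the thresholds `kw`; then any cap `c` and any admissible scales `k ≥ kw`. -/
def PreGenN : Prop :=
  ∀ (δ κ0 R c0 : ℝ) (La : Set E3) (Φ : FoamD δ κ0 R c0 La) (f : E3 → E3) (X : Set Φ.F)
    (I : DN Φ.F X), IsOpen La → 0 < δ → 0 < R → Hom3 f (I.M.φ ⁻¹' I.M.D0.Om) La →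
  ∀ D' : E3 → E3 →L[ℝ] E3, (∀ v, Measurable fun y => D' y v) →
  (∀ l, VWD (OmH Φ f (I.M.φ ⁻¹' I.M.D0.Om)) volume (fun x => P3 (Φ.Psi (f x)))
    (fun x => P3 (D' x (Pi.single l 1))) (Pi.single l (1:ℝ))) →
  ∀ g : Φ.F → Fin 3 → E3 → ℝ, (∀ c l, Measurable (g c l)) →
  (∀ c l, WD (OmH Φ f (I.M.φ ⁻¹' I.M.D0.Om)) volume (fun x => Φ.lev c (f x)) (g c l)
    (Pi.single l 1)) →
  ∀ (W : Φ.F → ℝ) (κp μ κ1 κ2 κ3 : ℝ), (∀ c, 0 < W c) → (∀ c, ∃ k N : ℕ, W c * 2 ^ k = N) →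
  (∀ c, c.1.sz ≤ κ3 * W c) → (∀ c, W c ≤ κ3 * c.1.sz) → (∀ c, W c ≤ c.1.sz) →
  0 < κp → κp ≤ 1 → μ ≤ κp / 64 → 8 ≤ κ3 → 0 ≤ κ2 → κ1 * κ0 < κ2 →
  ∀ p : ℝ, 1 ≤ p →
  ∀ H : E3 → ℝ≥0∞, (∀ᵐ y : E3, ∀ v, GV (fun c => ENNReal.ofReal (W c)) g v y ≤ ‖v‖ₑ * H y) →
  ∫⁻ y in I.M.φ ⁻¹' I.M.D0.Om, H y ^ p ≠ ∞ →
  ∀ (κr : X → ℕ) (Gd : X → Set E3) (wt : ∀ j : X, Mfi_290.Pt (I.M.Q j) ⊕ ℕ → ℝ≥0∞)
    (B : X → ℝ≥0∞), GenInN Φ f D' p κp μ κ1 κ2 I κr Gd wt B →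
  ∀ θ : ℝ≥0∞, θ ≠ 0 → ∀ KO KI εb : X → ℝ≥0∞, (∀ j, KO j ≠ ∞) → (∀ j, KI j ≠ ∞) →
  (∀ j, εb j ≠ 0) →
  ∃ (L : LN I) (kw : X → ℕ) (h1 : ∀ j, I.k0 j ≤ kw j) (h2 : ∀ j, L.κw j ≤ kw j),
  ∀ (c : ℝ) (hc : 0 < c) (k : X → ℕ) (hk : (cap I.M c hc).Sc k) (hkw : ∀ j, kw j ≤ k j),
  ∃ A' ⊆ closedBall (0 : E3) 1, MeasurableSet A' ∧ volume (closedBall (0 : E3) 1 \ A') ≤ θ ∧
  ∀ a ∈ A', OutN Φ f D' g W p κp μ κ1 κ2 κ3 Gd B KO KI εb
    (L.ins hc hk (fun j => (h1 j).trans (hkw j)) fun j => (h2 j).trans (hkw j)) wt a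

end

end Crest.Agent.R096.Pgb_120
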