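import Crest.Agent.R096.Nx4_473
import Crest.Agent.R096.Nend4_458
import Crest.Agent.R096.Pgb2_120
import Crest.Agent.R096.Nsl2_552
import Crest.Agent.R096.Pdn1_635

/-!
# Row 96, NO0 p >= 3, helper473: adapters for the end composition `exMeshN` (798)

* `GV_le`     : `GV w g v y ≤ ‖v‖ₑ * GGw w g y`
* `exists_W3` : the weights `W` (552) with all their properties, for `ΦN`
* `gen3`      : 120's `PreGenN` with ALL hypotheses on the data plugged from `Front3` (derivatives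
  `g0` = indicator, `H = GGw`)
* `shift_ends`: the last choice of the shift `a ∈ A'`: `ed`, `ed1`, `sR` and 458's `ends`
-/

set_option autoImplicit false
set_option linter.unusedSectionVars false
set_option linter.unusedVariables false

open Set Filter Topology MeasureTheory Metric
open scoped NNReal ENNReal

noncomputable section

namespace Crest.Agent.R096.Nx5_473

open Crest.Agent.R096.SkC1_961 (E3 Hom3 FoamD)
open Crest.Agent.R096.Brk5_582 Crest.Agent.R096.Bsp_628 Crest.Agent.R096.Log2_582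
open Crest.Agent.R096.Dic6_582 (dF kF dF_pos)
open Crest.Agent.R096.Npr_582 (Op cN)
open Crest.Agent.R096.Np_962
open Crest.Agent.R96.Acl_392 Crest.Agent.R96.Sob2_199
open Crest.Agent.R096.Er_594 (SH3)
open Crest.Agent.R96.En10_199 (P3)
open Crest.Agent.R096.Msh_810
open Crest.Agent.R96.En9_199 (GGw)
open Crest.Agent.R96.En11_199 (Hw)
open Crest.Agent.R096.No_276 (QL)
open Crest.Agent.R096.Nx4_473
open Crest.Agent.R096.Der_764 (OmH)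
open Crest.Agent.R96.Sob4_199 (VWD)
open Crest.Agent.R096.Pgb_120
open Crest.Agent.R096.Mal_874 (MD)
open Crest.Agent.R096.Mfa_880
open Crest.Agent.R096.Gno_324 (cap)

/-- the function `H` of `PreGenN` -/
theorem GV_le {𝒞 : Type*} (w : 𝒞 → ℝ≥0∞) (g : 𝒞 → Fin 3 → E3 → ℝ) (v y : E3) :
    GV w g v y ≤ ‖v‖ₑ * GGw w g y := by
  unfold GV GGw
  rw [← ENNReal.tsum_mul_left]
  refine ENNReal.tsum_le_tsum fun c => ?_
  rw [mul_left_comm]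
  refine mul_le_mul' le_rfl ?_
  calc ‖∑ l, v l * g c l y‖ₑ ≤ ∑ l, ‖v l * g c l y‖ₑ := enorm_sum_le _ _
    _ ≤ ∑ l, ‖v‖ₑ * ‖g c l y‖ₑ := by
        refine Finset.sum_le_sum fun l _ => ?_
        rw [enorm_mul]
        refine mul_le_mul' ?_ le_rfl
        rw [← ofReal_norm, ← ofReal_norm]
        exact ENNReal.ofReal_le_ofReal (norm_le_pi_norm v l)
    _ = ‖v‖ₑ * Crest.Agent.R96.En9_199.G1 (g c) y := by
        rw [← Finset.mul_sum]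
        rfl

/-! ### `PreGenN` for the front -/

section gen

variable {p : ℝ} {q : ℕ} {s : Fin 3 → ℝ} {ε ε' : ℝ≥0∞} {La : Set E3} {L : ℕ}
  {M h : ℝ} {a : Fin 3 → ℝ} {Φ : FoamD (dF q) (kF q) 6 (cN q) La}
  {f1 : E3 → E3} {X HH : Set E3} {g : Φ.F → Fin 3 → E3 → ℝ} {W : Φ.F → ℝ}

/-- `H = GGw (g0)` has finite energy on the whole domain -/
theorem int_H (hp : 1 ≤ p) (hL : 1 ≤ L) (H : FrontC p q s ε ε' (QL L) La M h a Φ f1 X HH g)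
    (hε : ε ≠ ⊤) (hW : ∀ c : Φ.F, IsLog q a h c.1 → W c = h / 2)
    (hWs : ∀ c : Φ.F, W c ≤ c.1.sz) :
    ∫⁻ y in QL L, GGw (fun c => ENNReal.ofReal (W c)) (g0 Φ (QL L) f1 g) y ^ p ≠ ⊤ := by
  have hv : volume (QL (L : ℝ)) ≠ ⊤ := vol_QL hL
  have hp0 : 0 < p := by linarith
  have h1 := (int_GGw_lt hp (frontC_g0 H) hW hWs hε hv).ne
  refine ne_top_of_le_ne_top h1 ?_
  have hsub : Op Φ (QL L) f1 ⊆ QL (L : ℝ) := fun x hx => hx.1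
  rw [← lintegral_indicator H.op.measurableSet]
  refine (setLIntegral_mono' ?_ ?_).trans (setLIntegral_le_lintegral _ _)
  · exact (Crest.Agent.R096.No_276.QL_open (L : ℝ)).measurableSet
  · intro y hy
    by_cases hyO : y ∈ Op Φ (QL L) f1
    · rw [indicator_of_mem hyO]
    · have e : GGw (fun c => ENNReal.ofReal (W c)) (g0 Φ (QL L) f1 g) y = 0 :=
        Crest.Agent.R096.Ps_273.GGw_zero fun c i => g0_off hyO c i
      rw [e, ENNReal.zero_rpow_of_pos hp0]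
      exact zero_le

/-- **120's `PreGenN` WITH THE DATA OF THE FRONT** (all hypotheses but the block data) -/
theorem gen3 (HP : PreGenN) (hp : 1 ≤ p) (hL : 1 ≤ L) (hLa : IsOpen La)
    (H : FrontC p q s ε ε' (QL L) La M h a Φ f1 X HH g) (hε : ε ≠ ⊤)
    (I : DN Φ.F univ) (hO : I.M.φ ⁻¹' I.M.D0.Om = QL L)
    {D' : E3 → E3 →L[ℝ] E3} (hDm : ∀ v, Measurable fun y => D' y v)
    (hDv : ∀ l, VWD (OmH Φ f1 (QL L)) volume (fun x => P3 (Φ.Psi (f1 x)))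
      (fun x => P3 (D' x (Pi.single l 1))) (Pi.single l (1:ℝ)))
    {κp μ κ1 κ2 κ3 : ℝ} (hW0 : ∀ c, 0 < W c) (hWd : ∀ c, ∃ k N : ℕ, W c * 2 ^ k = N)
    (hW1 : ∀ c, c.1.sz ≤ κ3 * W c) (hW2 : ∀ c, W c ≤ κ3 * c.1.sz) (hWs : ∀ c, W c ≤ c.1.sz)
    (hW : ∀ c : Φ.F, IsLog q a h c.1 → W c = h / 2)
    (hκp : 0 < κp) (hκp1 : κp ≤ 1) (hμ : μ ≤ κp / 64) (hκ3 : 8 ≤ κ3) (hκ2 : 0 ≤ κ2)
    (hκ1 : κ1 * kF q < κ2) {κr : ↥(univ : Set Φ.F) → ℕ} {Gd : ↥(univ : Set Φ.F) → Set E3}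
    {wt : ∀ j : ↥(univ : Set Φ.F), Mfi_290.Pt (I.M.Q j) ⊕ ℕ → ℝ≥0∞}
    {B : ↥(univ : Set Φ.F) → ℝ≥0∞} (hG : GenInN Φ f1 D' p κp μ κ1 κ2 I κr Gd wt B)
    {KO KI εb : ↥(univ : Set Φ.F) → ℝ≥0∞} (hKO : ∀ j, KO j ≠ ∞) (hKI : ∀ j, KI j ≠ ∞)
    (hεb : ∀ j, εb j ≠ 0) :
    ∃ (Lw : LN I) (kw : ↥(univ : Set Φ.F) → ℕ) (h1 : ∀ j, I.k0 j ≤ kw j)
      (h2 : ∀ j, Lw.κw j ≤ kw j),
    ∀ (c : ℝ) (hc : 0 < c) (k : ↥(univ : Set Φ.F) → ℕ) (hk : (cap I.M c hc).Sc k)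
      (hkw : ∀ j, kw j ≤ k j),
    ∃ A' ⊆ closedBall (0 : E3) 1, MeasurableSet A' ∧ volume (closedBall (0 : E3) 1 \ A') ≤ 1 / 4 ∧
    ∀ a ∈ A', OutN Φ f1 D' (g0 Φ (QL L) f1 g) W p κp μ κ1 κ2 κ3 Gd B KO KI εb
      (Lw.ins hc hk (fun j => (h1 j).trans (hkw j)) fun j => (h2 j).trans (hkw j)) wt a := by
  have hOm : OmH Φ f1 (QL L) = Op Φ (QL L) f1 := rfl
  refine HP (dF q) (kF q) 6 (cN q) La Φ f1 univ I hLa (dF_pos H.q1) (by norm_num)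
    (by rw [hO]; exact H.homeo) D' hDm (by rw [hO]; exact hDv) (g0 Φ (QL L) f1 g)
    (g0_gm H.op H.gm) (by rw [hO]; exact g0_wd H.op (v := fun c x => Φ.lev c (f1 x)) H.wd)
    W κp μ κ1 κ2 κ3 hW0 hWd hW1 hW2 hWs hκp hκp1 hμ hκ3 hκ2 hκ1 p hp
    (GGw (fun c => ENNReal.ofReal (W c)) (g0 Φ (QL L) f1 g))
    (Eventually.of_forall fun y v => GV_le _ _ v y)
    (by rw [hO]; exact int_H hp hL H hε hW hWs) κr Gd wt B hG (1 / 4) (by norm_num) KO KI εb hKO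
    hKI hεb

end gen

/-! ### the last choice of the shift -/

section fin

open Crest.Agent.R096.Msh_810 Crest.Agent.R96.En2_199 Crest.Agent.R96.En4_199
  Crest.Agent.R96.En9_199 Crest.Agent.R96.En11_199
open Crest.Agent.R096.Ps_273
open Crest.Agent.R096.Nend_458
open Crest.Agent.R096.Bas_731 Crest.Agent.R96.En3_199 Crest.Agent.R96.En5_199 Crest.Agent.R96.En6_199
  Crest.Agent.R96.En7_199 Crest.Agent.R96.En8_199
open Crest.Agent.R096.Mal_874 (outD)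

variable {p : ℝ} {q : ℕ} {s : Fin 3 → ℝ} {ε ε' : ℝ≥0∞} {La : Set E3} {L : ℕ}
  {M h : ℝ} {a : Fin 3 → ℝ} {Φ : FoamD (dF q) (kF q) 6 (cN q) La}
  {f f1 : E3 → E3} {X HH : Set E3} {g : Φ.F → Fin 3 → E3 → ℝ} {W : Φ.F → ℝ}

theorem box_sub_ball : box 3 ⊆ closedBall (0 : E3) 1 := by
  intro x hx
  rw [mem_closedBall_zero_iff, pi_norm_le_iff_of_nonneg zero_le_one]
  intro i
  have := hx i (mem_univ i)
  rw [Real.norm_eq_abs, abs_le]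
  constructor <;> linarith [this.1, this.2]

/-- **the shift of `MeshN`**: a shift `a` of the good set `A'` of `PreGenN` with the numbers `ed`, `ed1`,
`sR` and the ends (458), for the capped mesh data `Md` -/
theorem shift_ends (hp : 1 ≤ p) (hL : 1 ≤ L) (hLa : IsOpen La)
    (H : FrontC p q s ε ε' (QL L) La M h a Φ f1 X HH g)
    (hW : ∀ c : Φ.F, IsLog q a h c.1 → W c = h / 2) (hWs : ∀ c : Φ.F, W c ≤ c.1.sz)
    {K : ℝ≥0∞} (hK : Kn p ≤ K) (hK5 : 512 ≤ K) {D0 : E3 → E3 →L[ℝ] E3}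
    (hSH : SH3 p (QL L) La f D0) {δf : ℝ≥0∞} {e5 ρ0 : ℝ} (he5 : 0 < e5)
    (hδ : K * δf ^ p⁻¹ ≤ ENNReal.ofReal e5) (hρ : ρ0 ≤ e5 / 16)
    (hE : ∫⁻ x in QL L, ∑ l, ‖P3 (D0 x (Pi.single l 1)) - EuclideanSpace.single l (s l)‖ₑ ^ p ≤
      δf * volume (QL L))
    (hnear : ∀ x ∈ QL (L : ℝ), ‖f1 x - f x‖ ≤ ρ0)
    {R' : Set E3} (hR : IsOpen R') {e2 : ℝ≥0∞}
    (hR2 : 24 * KE 3 p * ∫⁻ x in Op Φ (QL L) f1 ∩ R',
      GGw (fun c => ENNReal.ofReal (W c)) g x ^ p ≤ e2)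
    {J : Type} (Md : MD E3 3 J) (hD : Md.D0.Om = QL L) (k : J → ℕ) {K0 : ℕ} {r : ℝ}
    (hr : r = ((2:ℝ) ^ K0)⁻¹) {A' : Set E3} (hA : volume (closedBall (0 : E3) 1 \ A') ≤ 1 / 4) :
    ∃ a ∈ A', a ∈ box 3 ∧
      (∀ l, Ed (outD Md.D0 k Md.W a) l p (Xs (fun c => ENNReal.ofReal (W c)) (g0 Φ (QL L) f1 g)
        (fun l => ENNReal.ofReal (s l)) l) ≤ K * (ε + ε ^ p⁻¹) * volume (QL L)) ∧
      (∀ l, Ed (outD Md.D0 k Md.W a) l 1 (Xs (fun c => ENNReal.ofReal (W c)) (g0 Φ (QL L) f1 g)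
        (fun l => ENNReal.ofReal (s l)) l) ≤ K * (ε + ε ^ p⁻¹) * volume (QL L)) ∧
      S (outD Md.D0 k Md.W a) p (R'.indicator
        (GGw (fun c => ENNReal.ofReal (W c)) (g0 Φ (QL L) f1 g))) ≤ e2 ∧
      ∀ {o : Fin 2 → ℤ} {Mm : ℕ} {Zs : Finset ℤ} {η : ℝ}, 0 < Mm →
        (∀ j : Fin 2, a j.castSucc + r * o j ≤ -(1 - η) ∧ -1 < a j.castSucc + r * o j) →
        (∀ j : Fin 2, 1 - η ≤ a j.castSucc + r * (o j + Mm) ∧
          a j.castSucc + r * (o j + Mm) < 1) →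
        (∀ m ∈ Zs, |(L : ℝ) * (a 2 + r * m)| ≤ 1 / 2) →
        2 / L ≤ ((Zs.card : ℝ) * Mm ^ 2) * r ^ 3 →
        ∀ j : Fin 2, ∑ m ∈ Zs, ∑ t ∈ Finset.range (Mm + 1),
          |(f1 (No0_477.vx a r o m (fun i => if i = j then Mm else t)) -
            f1 (No0_477.vx a r o m (fun i => if i = j then 0 else t))) j.castSucc -
              s j.castSucc * (Mm * r)| ≤ e5 * ((Zs.card : ℝ) * Mm) := by
  have hv : volume (QL (L : ℝ)) ≠ ⊤ := vol_QL hL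
  have hr' : r = 1 / 2 ^ K0 := by rw [hr, one_div]
  obtain ⟨S', hSm, hSi, hSa⟩ := Pg_691.exists_ends hp (Crest.Agent.R096.No_276.QL_open (L : ℝ)) hv hSH
    s hE hr'
  have hA2 : volume (box 3 \ A') ≤ 1 / 4 :=
    (measure_mono (sdiff_subset_sdiff_left box_sub_ball)).trans hA
  have hR2' : 24 * KE 3 p * ∫⁻ x in Op Φ (QL L) f1 ∩ R',
      GGw (wt W) (g0 Φ (QL L) f1 g) x ^ p ≤ e2 := by
    refine le_trans (le_of_eq ?_) hR2
    congr 1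
    exact lint_g0 (Φ := Φ) (Om := QL L) (f1 := f1) (g := g)
      (F := fun G => (∑' c, wt W c * ∑ i, ‖G c i‖ₑ) ^ p) (S := R') H.op hR.measurableSet
  obtain ⟨b, hbA, hb, hQ, -, h1, h2, h3, h4⟩ := nums_md hp hLa (frontC_g0 H)
    (fun c l x hx => g0_off hx c l) hW hWs hK hR hR2' Md hD k (N := 2) (Hk := S') hSm
    (θ := fun _ => ((2 : ℝ≥0∞) ^ K0) ^ 2 * (δf ^ p⁻¹ * volume (QL (L : ℝ)))) hSi (A' := A') hA2
    (Q := fun a => ∀ j, EndB (QL L) f s j r (S' j) a) hSa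
  refine ⟨b, hbA, hb, h1, h2, h3, ?_⟩
  intro o Mm Zs η hMm lo hi zs hN
  refine ends3 hL hr hMm lo hi zs hN (s := s) (f := f) (ρ0 := ρ0) hQ (m := 8 * ((2 : ℕ) : ℝ≥0∞))
    (δ' := δf ^ p⁻¹) h4 ?_ he5 hnear (by linarith)
  have e1 : (16 : ℝ≥0∞) * (8 * ((2 : ℕ) : ℝ≥0∞) * δf ^ p⁻¹) = 256 * δf ^ p⁻¹ := by
    rw [← mul_assoc]
    congr 1
    norm_num
  rw [e1]
  have e2 : (512 : ℝ≥0∞) * δf ^ p⁻¹ ≤ ENNReal.ofReal e5 := (mul_le_mul' hK5 le_rfl).trans hδ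
  have e3 : ENNReal.ofReal (e5 / 2) = ENNReal.ofReal e5 / 2 := by
    rw [ENNReal.ofReal_div_of_pos (by norm_num)]
    norm_num
  rw [e3, ENNReal.le_div_iff_mul_le (Or.inl (by norm_num)) (Or.inl (by norm_num))]
  refine le_trans (le_of_eq ?_) e2
  rw [mul_right_comm]
  congr 1
  norm_num

end fin

end Crest.Agent.R096.Nx5_473
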