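import Crest.Agent.R096.Ou1_609
import Crest.Agent.R096.SkC1_961

/-!
# R096 (row 96), helper609: OUT-EXPLODE, part 2

* `explode_E3` : an exploded structure `X : Expl Om C G` (537) over `La`, both open in `Fin 3 → ℝ`,
  gives a PL homeomorphism `g : Om → La` (`Hom3`, `LocPL`, PL inverse) with, for a locally finite
  family `P i` and tolerances `tol i`: `‖g - G‖ ≤ tol i` on `P i` and
  `‖(g y - g x) - (G y - G x)‖ ≤ tol i * ‖y - x‖` near every `x ∈ P i`.
* `volume_inner` : the inner homothetic copy of a convex compact set has almost full volume.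
* `core_G` : the clause `core` for `G = st C κ (Th x)` when `Th` is locally close to the affine map
  `th` off a small set.
-/

set_option autoImplicit false
set_option linter.unusedSectionVars false
set_option linter.unusedVariables false

open Set Metric Topology Module Filter MeasureTheory
open scoped Classical NNReal ENNReal

namespace Crest.Agent.R096.Ou_609

open Crest.Agent.R096.Xp_537 Crest.Agent.R096.SkC1_961
open Crest.Agent.R096.Ce_537 (PLOn PLEquiv cube sph IsBall)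

/-- **EXPLODE in `Fin 3 → ℝ`, with local tolerances** -/
theorem explode_E3 {Q : Type*} [PartialOrder Q] {Om La : Set E3} {C : CC La Q} {G : E3 → E3}
    (X : Expl Om C G) (hΩ : IsOpen Om) (hΛ : IsOpen La) {ι : Type*} (P : ι → Set E3)
    (hP : ∀ x ∈ Om, ∃ r > (0:ℝ), {i | (P i ∩ Metric.ball x r).Nonempty}.Finite)
    (tol : ι → ℝ) (htol : ∀ i, 0 < tol i) :
    ∃ g : E3 → E3, Hom3 g Om La ∧ Str_696.LocPL g Om ∧
      (∃ k : E3 → E3, Str_696.LocPL k La ∧ MapsTo k La Om ∧ (∀ x ∈ Om, k (g x) = x) ∧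
        ∀ y ∈ La, g (k y) = y) ∧
      (∀ i, ∀ x ∈ P i, x ∈ Om → ‖g x - G x‖ ≤ tol i) ∧
      ∀ i, ∀ x ∈ P i, x ∈ Om → ∀ᶠ y in 𝓝 x,
        ‖(g y - g x) - (G y - G x)‖ ≤ tol i * ‖y - x‖ := by
  obtain ⟨c, hc, hsm⟩ := X.small_fam hΩ (η := fun _ => (1:ℝ)) continuousOn_const
    (fun _ _ => one_pos) P hP tol htol
  obtain ⟨-, h1, h2⟩ := hsm c (fun ρ => ⟨(hc ρ).1, le_rfl⟩)
  obtain ⟨k, k1, k2, k3, k4, k5, k6⟩ := X.explode hΩ hΛ hc
  exact ⟨X.g c, ⟨k, k3, k4, k5, k6, locPL_continuousOn k1, locPL_continuousOn k2⟩,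
    locPL_iff.1 k1, ⟨k, locPL_iff.1 k2, k4, k5, k6⟩, h1, h2⟩

section Vol

variable {E : Type*} [NormedAddCommGroup E] [NormedSpace ℝ E] [FiniteDimensional ℝ E]
  [MeasurableSpace E] [BorelSpace E] (μ : Measure E) [μ.IsAddHaarMeasure]

/-- the inner homothetic copy of a compact convex set has almost full volume -/
theorem volume_inner {K : Set E} (hK : IsCompact K) (hc : Convex ℝ K) {b : E} (hb : b ∈ K)
    {κ : ℝ} (h0 : 0 ≤ κ) (h1 : κ < 1) :
    μ (K \ ((fun t => (1 - κ) • t + κ • b) '' interior K)) ≤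
      ENNReal.ofReal (finrank ℝ E * κ) * μ K := by
  have hk : 0 < 1 - κ := by linarith
  have himg : ((fun t => (1 - κ) • t + κ • b) '' interior K) =
      AffineMap.homothety b (1 - κ) '' interior K := by
    refine image_congr fun t _ => ?_
    rw [AffineMap.homothety_apply, vsub_eq_sub, vadd_eq_add]
    module
  have hsub : ((fun t => (1 - κ) • t + κ • b) '' interior K) ⊆ K := by
    rintro _ ⟨t, ht, rfl⟩
    exact hc (interior_subset ht) hb hk.le h0 (by ring)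
  have hopen : IsOpen ((fun t => (1 - κ) • t + κ • b) '' interior K) := by
    rw [himg]
    exact (AffineMap.homothety_isOpenMap b (1 - κ) hk.ne') _ isOpen_interior
  have hKi : μ (interior K) = μ K := by
    have h2 : μ (frontier K) = 0 := hc.addHaar_frontier μ
    refine le_antisymm (measure_mono interior_subset) ?_
    have h3 : K ⊆ interior K ∪ frontier K := by
      intro x hx
      by_cases h : x ∈ interior K
      · exact Or.inl h
      · exact Or.inr ⟨subset_closure hx, h⟩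
    calc μ K ≤ μ (interior K ∪ frontier K) := measure_mono h3
      _ ≤ μ (interior K) + μ (frontier K) := measure_union_le _ _
      _ = μ (interior K) := by rw [h2, add_zero]
  have hfin : μ K ≠ ⊤ := hK.measure_lt_top.ne
  have hvol : μ ((fun t => (1 - κ) • t + κ • b) '' interior K) =
      ENNReal.ofReal ((1 - κ) ^ finrank ℝ E) * μ K := by
    rw [himg, Measure.addHaar_image_homothety, hKi, abs_of_pos (pow_pos hk _)]
  rw [measure_sdiff hsub hopen.measurableSet.nullMeasurableSet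
    ((measure_mono hsub).trans_lt hK.measure_lt_top).ne, hvol]
  have hb1 : 1 - (finrank ℝ E : ℝ) * κ ≤ (1 - κ) ^ finrank ℝ E := by
    have := one_add_mul_le_pow (a := -κ) (by linarith) (finrank ℝ E)
    calc 1 - (finrank ℝ E : ℝ) * κ = 1 + (finrank ℝ E : ℝ) * (-κ) := by ring
      _ ≤ (1 + -κ) ^ finrank ℝ E := this
      _ = (1 - κ) ^ finrank ℝ E := by ring_nf
  rw [tsub_le_iff_right, ← add_mul, ← ENNReal.ofReal_add (by positivity) (by positivity)]
  calc μ K = ENNReal.ofReal 1 * μ K := by rw [ENNReal.ofReal_one, one_mul]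
    _ ≤ _ := by gcongr; linarith

end Vol

section Core

variable {E E' : Type*} [NormedAddCommGroup E] [NormedSpace ℝ E]
  [NormedAddCommGroup E'] [NormedSpace ℝ E'] {Q : Type*} [PartialOrder Q] {La : Set E}

/-- **exact core, good part**: if `Th` is locally `e`-close to the affine map `th` at a point whose
image is in the (open) inner homothetic copy of the cell, then `G = st C κ (Th ·)` is locally
`(e + κ)/(1 - κ)`-close to `th`. -/
theorem core_G (C : CC La Q) {κ : ℝ} (hκ : 0 < κ ∧ κ < 1) {c : Q} {Kc : Set E'} {G Th th : E' → E}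
    (hG : ∀ x ∈ Kc, G x = st C κ (Th x)) {x : E'} (hx : x ∈ interior Kc) {t : E}
    (ht : t ∈ interior (C.cell c)) (hTx : Th x = (1 - κ) • t + κ • C.b c)
    (hcont : ContinuousAt Th x) {e : ℝ}
    (hloc : ∀ᶠ y in 𝓝 x, ‖(Th y - Th x) - (th y - th x)‖ ≤ e * ‖th y - th x‖) :
    ∀ᶠ y in 𝓝 x, ‖(G y - G x) - (th y - th x)‖ ≤ (e + κ) / (1 - κ) * ‖th y - th x‖ := by
  have hk : 0 < 1 - κ := by linarith [hκ.2]
  have h1 := st_inner_near C hκ ht
  rw [← hTx] at h1
  have h2 := hcont.eventually h1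
  have hxK : x ∈ Kc := interior_subset hx
  filter_upwards [h2, hloc, isOpen_interior.mem_nhds hx] with y hy hy2 hy3
  rw [hG y (interior_subset hy3), hG x hxK, hy]
  have e1 : (1 - κ)⁻¹ • (Th y - Th x) - (th y - th x) =
      (1 - κ)⁻¹ • ((Th y - Th x) - (th y - th x)) + ((1 - κ)⁻¹ * κ) • (th y - th x) := by
    have : (1 - κ)⁻¹ * κ = (1 - κ)⁻¹ - 1 := by field_simp; ring
    rw [this]
    module
  rw [e1]
  have hi : 0 < (1 - κ)⁻¹ := inv_pos.2 hk
  calc ‖(1 - κ)⁻¹ • ((Th y - Th x) - (th y - th x)) + ((1 - κ)⁻¹ * κ) • (th y - th x)‖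
      ≤ ‖(1 - κ)⁻¹ • ((Th y - Th x) - (th y - th x))‖ + ‖((1 - κ)⁻¹ * κ) • (th y - th x)‖ :=
        norm_add_le _ _
    _ = (1 - κ)⁻¹ * ‖(Th y - Th x) - (th y - th x)‖ + ((1 - κ)⁻¹ * κ) * ‖th y - th x‖ := by
        rw [norm_smul, norm_smul, Real.norm_of_nonneg hi.le,
          Real.norm_of_nonneg (mul_nonneg hi.le hκ.1.le)]
    _ ≤ (1 - κ)⁻¹ * (e * ‖th y - th x‖) + ((1 - κ)⁻¹ * κ) * ‖th y - th x‖ := by gcongr
    _ = (e + κ) / (1 - κ) * ‖th y - th x‖ := by rw [div_eq_inv_mul]; ring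

/-- the same estimate after EXPLODE: `g` locally `tol`-close to `G`, `th` locally expanding by `m` -/
theorem core_g {G g th : E' → E} {x : E'} {e m τ : ℝ} (hm : 0 < m) (hτ : 0 ≤ τ)
    (hG : ∀ᶠ y in 𝓝 x, ‖(G y - G x) - (th y - th x)‖ ≤ e * ‖th y - th x‖)
    (hth : ∀ᶠ y in 𝓝 x, m * ‖y - x‖ ≤ ‖th y - th x‖)
    (hg : ∀ᶠ y in 𝓝 x, ‖(g y - g x) - (G y - G x)‖ ≤ τ * ‖y - x‖) :
    ∀ᶠ y in 𝓝 x, ‖(g y - g x) - (th y - th x)‖ ≤ (e + τ / m) * ‖th y - th x‖ := by
  filter_upwards [hG, hth, hg] with y h1 h2 h3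
  have h4 : τ * ‖y - x‖ ≤ τ / m * ‖th y - th x‖ := by
    rw [div_mul_eq_mul_div, le_div_iff₀ hm]
    calc τ * ‖y - x‖ * m = τ * (m * ‖y - x‖) := by ring
      _ ≤ τ * ‖th y - th x‖ := mul_le_mul_of_nonneg_left h2 hτ
  calc ‖(g y - g x) - (th y - th x)‖ =
        ‖((g y - g x) - (G y - G x)) + ((G y - G x) - (th y - th x))‖ := by congr 1; abel
    _ ≤ ‖(g y - g x) - (G y - G x)‖ + ‖(G y - G x) - (th y - th x)‖ := norm_add_le _ _
    _ ≤ τ * ‖y - x‖ + e * ‖th y - th x‖ := add_le_add h3 h1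
    _ ≤ (e + τ / m) * ‖th y - th x‖ := by linarith

/-- Lipschitz form -/
theorem core_lip {G g th : E' → E} {x : E'} {L m τ : ℝ} (hm : 0 < m) (hτ : 0 ≤ τ)
    (hG : ∀ᶠ y in 𝓝 x, ‖G y - G x‖ ≤ L * ‖th y - th x‖)
    (hth : ∀ᶠ y in 𝓝 x, m * ‖y - x‖ ≤ ‖th y - th x‖)
    (hg : ∀ᶠ y in 𝓝 x, ‖(g y - g x) - (G y - G x)‖ ≤ τ * ‖y - x‖) :
    ∀ᶠ y in 𝓝 x, ‖g y - g x‖ ≤ (L + τ / m) * ‖th y - th x‖ := by
  filter_upwards [hG, hth, hg] with y h1 h2 h3
  have h4 : τ * ‖y - x‖ ≤ τ / m * ‖th y - th x‖ := by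
    rw [div_mul_eq_mul_div, le_div_iff₀ hm]
    calc τ * ‖y - x‖ * m = τ * (m * ‖y - x‖) := by ring
      _ ≤ τ * ‖th y - th x‖ := mul_le_mul_of_nonneg_left h2 hτ
  calc ‖g y - g x‖ = ‖((g y - g x) - (G y - G x)) + (G y - G x)‖ := by congr 1; abel
    _ ≤ ‖(g y - g x) - (G y - G x)‖ + ‖G y - G x‖ := norm_add_le _ _
    _ ≤ τ * ‖y - x‖ + L * ‖th y - th x‖ := add_le_add h3 h1
    _ ≤ (L + τ / m) * ‖th y - th x‖ := by linarith

end Core

/-- an affine equivalence of a finite dimensional space expands every vector by a positive factor -/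
lemma exists_expand {E : Type*} [NormedAddCommGroup E] [NormedSpace ℝ E] [FiniteDimensional ℝ E]
    (A : E ≃ᵃ[ℝ] E) : ∃ m : ℝ, 0 < m ∧ ∀ x y : E, m * ‖y - x‖ ≤ ‖A y - A x‖ := by
  obtain ⟨M, hM0, hM⟩ :=
    (LinearMap.toContinuousLinearMap (A.symm.linear : E →ₗ[ℝ] E)).bound
  refine ⟨M⁻¹, inv_pos.2 hM0, fun x y => ?_⟩
  rw [inv_mul_le_iff₀ hM0]
  have h1 := hM (A y - A x)
  have h2 : (LinearMap.toContinuousLinearMap (A.symm.linear : E →ₗ[ℝ] E)) (A y - A x) = y - x := by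
    show A.symm.linear (A y - A x) = y - x
    have h3 := A.symm.toAffineMap.linearMap_vsub (A y) (A x)
    simpa using h3
  rwa [h2] at h1

end Crest.Agent.R096.Ou_609
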