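import Crest.Agent.R096.Nr2_527
import Crest.Agent.R096.Ou2_609

/-!
# Row 96 (S0127), OUT-ASM, part 1 (helper527): from the structure map `G` to the homeomorphism `g`

* `exists_g` : `Expl Om C G` + `Adj` ⟹ a locally PL homeomorphism `g : Om → La` with `Out.near`, and
  `g - G` has local Lipschitz constant `≤ tol i` on the tile `i` (any positive tolerances);
* `lip_add` : clause `lip` of `Out` from the clause for `G`;
* `core_add`, `core_add'` : clauses of `Out.core` from the clauses for `G`;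
* `exists_tolc` : the tolerances on the core tiles.
-/

set_option autoImplicit false
set_option linter.unusedSectionVars false
set_option linter.unusedVariables false

open Set Filter Topology Metric

namespace Crest.Agent.R096.Oa_527

open Crest.Agent.R096.Brk3_582 Crest.Agent.R096.Brk5_582 Crest.Agent.R096.Bsp_628
open Crest.Agent.R096.SkC1_961 Crest.Agent.R096.Msh_715 Crest.Agent.R096.Nr_527
open Crest.Agent.R096.Xp_537 (CC Expl Trn)

variable {δ κ0 R c0 : ℝ} {La Om : Set E3} {ι : Type} {Φ : FoamD δ κ0 R c0 La}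

/-- a positive lower bound of `η ∘ f` on every tile -/
theorem exists_low {f : E3 → E3} {η : E3 → ℝ} (T : Tiling Om ι) (hf : Hom3 f Om La)
    (hη : Continuous η) (h0 : ∀ y ∈ La, 0 < η y) :
    ∃ h : ι → ℝ, (∀ i, 0 < h i) ∧ ∀ i, ∀ x ∈ P (T.H i), h i ≤ η (f x) := by
  obtain ⟨fi, hm, -, -, -, hcf, -⟩ := hf
  have key : ∀ i, ∃ h : ℝ, 0 < h ∧ ∀ x ∈ P (T.H i), h ≤ η (f x) := by
    intro i
    have hne : (P (T.H i)).Nonempty := (T.ne i).mono (I_sub_P _)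
    obtain ⟨x, hx, hmin⟩ := (T.cpt i).exists_isMinOn hne
      (hη.comp_continuousOn (hcf.mono (T.sub i)))
    exact ⟨η (f x), h0 _ (hm (T.sub i hx)), fun y hy => hmin hy⟩
  choose h h1 h2 using key
  exact ⟨h, h1, h2⟩

/-- **from the structure map to the homeomorphism** -/
theorem exists_g {Q : Type*} [PartialOrder Q] (hOm : IsOpen Om) (hLa : IsOpen La)
    (hne : La.Nonempty) {C : CC La Q} {G f : E3 → E3} (X : Expl Om C G) (T : Tiling Om ι)
    (hf : Hom3 f Om La) (hA : Adj Φ.F Om f G) (tol : ι → ℝ) (htol : ∀ i, 0 < tol i) :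
    ∃ g : E3 → E3, Hom3 g Om La ∧ Str_696.LocPL g Om ∧
      (∃ k : E3 → E3, Str_696.LocPL k La ∧ MapsTo k La Om ∧ (∀ x ∈ Om, k (g x) = x) ∧
        ∀ y ∈ La, g (k y) = y) ∧
      (∀ x ∈ Om, ∀ c : Φ.F, f x ∈ c.1.set → ‖g x - f x‖ ≤ (2 + R) * c.1.sz) ∧
      (∀ i, ∀ x ∈ P (T.H i), ‖g x - G x‖ ≤ tol i) ∧
      ∀ i, ∀ x ∈ P (T.H i), ∀ᶠ y in 𝓝 x,
        ‖(g y - g x) - (G y - G x)‖ ≤ tol i * ‖y - x‖ := by
  obtain ⟨η, hη, hη0, hη1⟩ := exists_eta Φ.bf hLa hne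
  obtain ⟨h, hh0, hh⟩ := exists_low T hf hη.continuous hη0
  obtain ⟨g, g1, g2, g3, g4, g5⟩ := Ou_609.explode_E3 X hOm hLa (fun i => P (T.H i)) T.lf
    (fun i => min (tol i) (h i)) (fun i => lt_min (htol i) (hh0 i))
  refine ⟨g, g1, g2, g3, near_of_adj hA hη1 fun x hx => ?_, fun i x hx => ?_, fun i x hx => ?_⟩
  · obtain ⟨i, hi⟩ := T.cov x hx
    exact (g4 i x hi hx).trans ((min_le_right _ _).trans (hh i x hi))
  · exact (g4 i x hx (T.sub i hx)).trans (min_le_left _ _)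
  · filter_upwards [g5 i x hx (T.sub i hx)] with y hy
    exact hy.trans (mul_le_mul_of_nonneg_right (min_le_left _ _) (norm_nonneg _))

/-- clause `lip` -/
theorem lip_add {G g : E3 → E3} {x : E3} {K τ : ℝ} {B : E3 → E3}
    (hG : ∀ᶠ y in 𝓝 x, ‖G y - G x‖ ≤ K * ‖B y - B x‖)
    (hg : ∀ᶠ y in 𝓝 x, ‖(g y - g x) - (G y - G x)‖ ≤ τ * ‖y - x‖) :
    ∀ᶠ y in 𝓝 x, ‖g y - g x‖ ≤ K * ‖B y - B x‖ + τ * ‖y - x‖ := by
  filter_upwards [hG, hg] with y h1 h2
  calc ‖g y - g x‖ = ‖(G y - G x) + ((g y - g x) - (G y - G x))‖ := by congr 1; abel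
    _ ≤ ‖G y - G x‖ + ‖(g y - g x) - (G y - G x)‖ := norm_add_le _ _
    _ ≤ _ := add_le_add h1 h2

/-- **the expansion constants of the exact maps** `th c y = (A c y - z) / lam`: tolerances `≤ e m_c` -/
theorem exists_tolc {F : Type*} {ct : F → ι} (hinj : Function.Injective ct) (X : Set F)
    (A : F → E3 ≃ᵃ[ℝ] E3) (lam : F → ℝ) (hlam : ∀ c ∈ X, 0 < lam c) {e : ℝ} (he : 0 < e)
    (tol : ι → ℝ) (htol : ∀ i, 0 < tol i) :
    ∃ tol' : ι → ℝ, (∀ i, 0 < tol' i) ∧ (∀ i, tol' i ≤ tol i) ∧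
      ∀ c ∈ X, ∀ x y : E3, tol' (ct c) * ‖y - x‖ ≤ e * (1 / lam c * ‖A c y - A c x‖) := by
  classical
  have key : ∀ c : F, ∃ m : ℝ, 0 < m ∧ (c ∈ X → ∀ x y : E3, m * ‖y - x‖ ≤
      e * (1 / lam c * ‖A c y - A c x‖)) := by
    intro c
    by_cases hc : c ∈ X
    · obtain ⟨m, hm, hmA⟩ := Ou_609.exists_expand (A c)
      have hl := hlam c hc
      refine ⟨e * (1 / lam c * m), by positivity, fun _ x y => ?_⟩
      have := hmA x y
      calc e * (1 / lam c * m) * ‖y - x‖ = e * (1 / lam c * (m * ‖y - x‖)) := by ring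
        _ ≤ e * (1 / lam c * ‖A c y - A c x‖) := by gcongr
    · exact ⟨1, one_pos, fun h => absurd h hc⟩
  choose m hm hmX using key
  refine ⟨fun i => if h : ∃ c, ct c = i then min (tol i) (m h.choose) else tol i,
    fun i => ?_, fun i => ?_, fun c hc x y => ?_⟩
  · dsimp only
    split_ifs with h
    · exact lt_min (htol i) (hm _)
    · exact htol i
  · dsimp only
    split_ifs with h
    · exact min_le_left _ _
    · exact le_rfl
  · dsimp only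
    have h : ∃ d, ct d = ct c := ⟨c, rfl⟩
    rw [dif_pos h]
    have hch : h.choose = c := hinj h.choose_spec
    rw [hch]
    exact (mul_le_mul_of_nonneg_right (min_le_right _ _) (norm_nonneg _)).trans (hmX c hc x y)

/-- clause `core`, Lipschitz part -/
theorem core_add {G g A : E3 → E3} {x : E3} {K e l τ : ℝ}
    (hG : ∀ᶠ y in 𝓝 x, ‖G y - G x‖ ≤ K * (l * ‖A y - A x‖))
    (hg : ∀ᶠ y in 𝓝 x, ‖(g y - g x) - (G y - G x)‖ ≤ τ * ‖y - x‖)
    (hτ : ∀ x y : E3, τ * ‖y - x‖ ≤ e * (l * ‖A y - A x‖)) :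
    ∀ᶠ y in 𝓝 x, ‖g y - g x‖ ≤ (K + e) * (l * ‖A y - A x‖) := by
  filter_upwards [hG, hg] with y h1 h2
  calc ‖g y - g x‖ = ‖(G y - G x) + ((g y - g x) - (G y - G x))‖ := by congr 1; abel
    _ ≤ ‖G y - G x‖ + ‖(g y - g x) - (G y - G x)‖ := norm_add_le _ _
    _ ≤ K * (l * ‖A y - A x‖) + e * (l * ‖A y - A x‖) := add_le_add h1 (h2.trans (hτ x y))
    _ = _ := by ring

/-- clause `core`, near affine part -/
theorem core_add' {G g A : E3 → E3} {x : E3} {e e' l τ : ℝ}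
    (hG : ∀ᶠ y in 𝓝 x, ‖(G y - G x) - l • (A y - A x)‖ ≤ e * (l * ‖A y - A x‖))
    (hg : ∀ᶠ y in 𝓝 x, ‖(g y - g x) - (G y - G x)‖ ≤ τ * ‖y - x‖)
    (hτ : ∀ x y : E3, τ * ‖y - x‖ ≤ e' * (l * ‖A y - A x‖)) :
    ∀ᶠ y in 𝓝 x, ‖(g y - g x) - l • (A y - A x)‖ ≤ (e + e') * (l * ‖A y - A x‖) := by
  filter_upwards [hG, hg] with y h1 h2
  calc ‖(g y - g x) - l • (A y - A x)‖ =
        ‖((G y - G x) - l • (A y - A x)) + ((g y - g x) - (G y - G x))‖ := by congr 1; abel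
    _ ≤ ‖(G y - G x) - l • (A y - A x)‖ + ‖(g y - g x) - (G y - G x)‖ := norm_add_le _ _
    _ ≤ e * (l * ‖A y - A x‖) + e' * (l * ‖A y - A x‖) := add_le_add h1 (h2.trans (hτ x y))
    _ = _ := by ring

end Crest.Agent.R096.Oa_527
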