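import Crest.Agent.R096.Sqt17_143
import Crest.Agent.R096.Oi1_961

/-!
Row 96 (S0127), helper143.  COMPOSITE B, (O1), leaf (B) of 961: **the line integrals of a long edge** from
`LongE` and `OutE1`.  The bounds along the edges are only used for the closed 1-cells of the tiling in `C`.
-/

set_option autoImplicit false
set_option linter.unusedSectionVars false
set_option linter.style.longLine false

open Set Metric Filter Topology MeasureTheory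
open scoped ENNReal NNReal

namespace Crest.Agent.R096.Sqt_143

open Crest.AnalysisR.VecCalc3
open Crest.Agent.R096.Msh_715 (P I Tiling)
open Crest.Agent.R096.Mal_874 (CB)
open Crest.Agent.R096.Sk_962 (SH)
open Crest.Agent.R096.Sq_55 (E3 Sys w2)
open Crest.Agent.R096.Cob_622 (EF Jt CE SmallR)
open Crest.Agent.R096.Efi_296
open Crest.Agent.R096.Cbs_296
open Crest.Agent.R096.Slb_296
open Crest.Agent.R096.Fce_793 (pt)
open Crest.Agent.R096.Pin_753 (Tw)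
open Crest.Agent.R096.Oi_961
open Crest.Agent.R096.H2a_821 (tube_pieces)
open Crest.Agent.R96.Coarse_538 (seg)
open Crest.Agent.R96.Lu_538 (Gmat)
open Crest.Agent.R096.Br_695 (En)

noncomputable section

variable {OmR : Set R3} {ι : Type*} {T : Tiling OmR ι} {Om : Set R3} {κe κf : Type*}
  {x v : κe → R3} {e : κf → Fin 2 → R3} {xx : κf → R3} {a : R3} {Q : κf → Set (ℝ × ℝ)}
  {s : Finset ι} {pr : (Te T).Cell → Prop}
  {c : ι → E3} {R : ι → ℝ≥0} {ρ : E3 → ℝ≥0} {m : ι → ℝ≥0} {X : Sys s (reps (Te T) s pr)}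

/-- **near tubes** (bounds along the 1-cells of the tiling in `C` only) -/
theorem Jt_near_loc {p : ℝ} {G : Fin 3 → R3 → R3} {L : R3 →L[ℝ] R3}
    (h : SysOf (Te T) s pr c R ρ m X)
    (hG : GoodA Om (fun y => ‖Gmat G y - L‖ₑ ^ p) x v e xx a)
    (hQ : ∀ φ, IsCompact (Q φ))
    {me : EgS (Te T) s → κe} {mf : FcS (Te T) s pr → κf}
    (hme : ∀ c, w2 '' c.1.set = seg x v a (me c))
    (hmf : ∀ c, w2 '' c.1.set = pt (e (mf c)) (a + xx (mf c)) '' Q (mf c)) {B0 : Set R3}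
    (hB0 : IsClosed B0) {C : Set R3} {n nE : ℕ} {V η' : ℝ} {k : s} {E : Set E3} {u : ℝ}
    (hZ : Zn T s pr R ρ m x v a me C n nE V k E u) (hV0 : 0 ≤ V)
    (hg : ∀ c : EgS (Te T) s, seg x v a (me c) ⊆ C →
      ∫⁻ σ in Ioc (0:ℝ) 1, C.indicator (fun y => ‖Gmat G y - L‖ₑ ^ p)
        (a + x (me c) + σ • v (me c)) ≤ ENNReal.ofReal η') :
    Jt (efLoc hG hQ hme hmf X h.rim h.Z hB0) k E u ≤
      ENNReal.ofReal (34848 * (m k : ℝ)^9 * n * nE * V * u^2 * η') := by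
  refine (Jt_zn h hG hQ hme hmf hB0 hZ (b := ENNReal.ofReal η')
    fun c hc => edge_near (hZ.hC c hc) (hg c (hZ.hC c hc)) _).trans (le_of_eq ?_)
  rw [← ENNReal.ofReal_mul (by positivity)]

/-- **energy tubes** (bounds along the 1-cells of the tiling in `C` only) -/
theorem Jt_en_loc {p : ℝ} (hp1 : 1 ≤ p) (hp2 : p ≤ 2) {G : Fin 3 → R3 → R3} {L : R3 →L[ℝ] R3}
    (h : SysOf (Te T) s pr c R ρ m X)
    (hG : GoodA Om (En p G) x v e xx a)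
    (hQ : ∀ φ, IsCompact (Q φ))
    {me : EgS (Te T) s → κe} {mf : FcS (Te T) s pr → κf}
    (hme : ∀ c, w2 '' c.1.set = seg x v a (me c))
    (hmf : ∀ c, w2 '' c.1.set = pt (e (mf c)) (a + xx (mf c)) '' Q (mf c)) {B0 : Set R3}
    (hB0 : IsClosed B0) {C : Set R3} {n nE : ℕ} {V η' : ℝ} {k : s} {E : Set E3} {u : ℝ}
    (hZ : Zn T s pr R ρ m x v a me C n nE V k E u)
    (hg : ∀ c : EgS (Te T) s, seg x v a (me c) ⊆ C →
      ∫⁻ σ in Ioc (0:ℝ) 1, C.indicator (fun y => ‖Gmat G y - L‖ₑ ^ p)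
        (a + x (me c) + σ • v (me c)) ≤ ENNReal.ofReal η')
    (hη' : ENNReal.ofReal η' ≤ ‖L‖ₑ ^ p) :
    Jt (efLoc hG hQ hme hmf X h.rim h.Z hB0) k E u ≤
      ENNReal.ofReal (34848 * (m k : ℝ)^9 * n * nE * V * u^2) * (12 * ‖L‖ₑ ^ p) := by
  refine Jt_zn h hG hQ hme hmf hB0 hZ
    fun c hc => (edge_en hp1 hp2 L (hZ.hC c hc) (hg c (hZ.hC c hc)) _).trans ?_
  calc 6 * ‖L‖ₑ ^ p + 6 * ENNReal.ofReal η' ≤ 6 * ‖L‖ₑ ^ p + 6 * ‖L‖ₑ ^ p := by gcongr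
    _ = _ := by ring

/-- **the right side of (E) in numbers** (bounds along the 1-cells of the tiling in `C` only) -/
theorem energy_loc {p : ℝ} (hp1 : 1 ≤ p) (hp2 : p ≤ 2) {G : Fin 3 → R3 → R3} {L : R3 →L[ℝ] R3}
    (h : SysOf (Te T) s pr c R ρ m X)
    (hG : GoodA Om (En p G) x v e xx a)
    (hQ : ∀ φ, IsCompact (Q φ))
    {me : EgS (Te T) s → κe} {mf : FcS (Te T) s pr → κf}
    (hme : ∀ c, w2 '' c.1.set = seg x v a (me c))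
    (hmf : ∀ c, w2 '' c.1.set = pt (e (mf c)) (a + xx (mf c)) '' Q (mf c)) {B0 : Set R3}
    (hB0 : IsClosed B0) {C : Set R3} {n nE : ℕ} {V η' : ℝ} {k : s} {E : Set E3} {u : ℝ}
    (hZ : Zn T s pr R ρ m x v a me C n nE V k E u)
    (hg : ∀ c : EgS (Te T) s, seg x v a (me c) ⊆ C →
      ∫⁻ σ in Ioc (0:ℝ) 1, C.indicator (fun y => ‖Gmat G y - L‖ₑ ^ p)
        (a + x (me c) + σ • v (me c)) ≤ ENNReal.ofReal η')
    (hη' : ENNReal.ofReal η' ≤ ‖L‖ₑ ^ p)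
    {K M : ℝ≥0} (hM : m k ≤ M) {cV V0 : ℝ} (hV0 : 0 ≤ V0) (hcV : 0 ≤ cV) (hV1 : 0 ≤ V)
    (hVc : V ≤ cV * V0)
    {ε : ℝ≥0∞} (hε : ε ≤ ENNReal.ofReal (u^2 * V0) * ‖L‖ₑ ^ p) :
    ENNReal.ofReal (CE p K (m k)) * Jt (efLoc hG hQ hme hmf X h.rim h.Z hB0) k E u + ε ≤
      ENNReal.ofReal (AE p K M n nE cV * u^2 * V0) * ‖L‖ₑ ^ p := by
  have hCE := CE_nonneg (p := p) (by linarith) K M
  have hM' : (m k : ℝ) ≤ M := by exact_mod_cast hM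
  have h1 := Jt_en_loc hp1 hp2 h hG hQ hme hmf hB0 hZ hg hη'
  have h2 : ENNReal.ofReal (34848 * (m k : ℝ)^9 * n * nE * V * u^2) * (12 * ‖L‖ₑ ^ p) ≤
      ENNReal.ofReal (418176 * (M : ℝ)^9 * n * nE * cV * u^2 * V0) * ‖L‖ₑ ^ p := by
    rw [← mul_assoc, ← ENNReal.ofReal_ofNat 12, ← ENNReal.ofReal_mul' (by norm_num)]
    refine mul_le_mul' (ENNReal.ofReal_le_ofReal ?_) le_rfl
    calc 34848 * (m k : ℝ)^9 * n * nE * V * u^2 * 12 =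
          418176 * (m k : ℝ)^9 * n * nE * u^2 * V := by ring
      _ ≤ 418176 * (M : ℝ)^9 * n * nE * u^2 * V := by gcongr
      _ ≤ 418176 * (M : ℝ)^9 * n * nE * u^2 * (cV * V0) := by gcongr
      _ = _ := by ring
  calc _ ≤ ENNReal.ofReal (CE p K M) *
        (ENNReal.ofReal (418176 * (M : ℝ)^9 * n * nE * cV * u^2 * V0) * ‖L‖ₑ ^ p) +
        ENNReal.ofReal (u^2 * V0) * ‖L‖ₑ ^ p :=
        add_le_add (mul_le_mul' (ENNReal.ofReal_le_ofReal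
          (CE_mono (by linarith) (by linarith) K hM)) (h1.trans h2)) hε
    _ = _ := by
        rw [← mul_assoc, ← ENNReal.ofReal_mul hCE, ← add_mul,
          ← ENNReal.ofReal_add (by positivity) (by positivity)]
        congr 2
        unfold AE
        ring

section long

variable {n nE np nc : ℕ} {lam cV : ℝ} {M : ℝ≥0} {u : ℝ} {C : Set R3} {ed : R3 × R3} {m' : ℕ}
  {t : ℕ → ℝ} {S : ℕ → Finset s} {me : EgS (Te T) s → κe}

theorem LongE_lt (hL : LongE T s pr R ρ m x v a me C n nE np nc lam cV M u ed m' t S)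
    (hlam : 0 < lam) : ∀ i < m', t i < t (i + 1) := fun i hi => by
  have := hL.gap i hi
  linarith

theorem LongE_card (hL : LongE T s pr R ρ m x v a me C n nE np nc lam cV M u ed m' t S) :
    ∑ i ∈ Finset.range m', (S i).card ≤ np * nc := by
  refine (Finset.sum_le_card_nsmul _ _ nc fun i hi => hL.card i (Finset.mem_range.1 hi)).trans ?_
  rw [Finset.card_range, smul_eq_mul]
  exact Nat.mul_le_mul_right _ hL.num

/-- the tube of a long edge lies in the open set -/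
theorem LongE_sub (hL : LongE T s pr R ρ m x v a me C n nE np nc lam cV M u ed m' t S)
    (hlam : 0 < lam) (hu : 0 ≤ u) :
    cthickening u (sg (w2.symm ed.1) (w2.symm (ed.2 - ed.1))) ⊆ w2 ⁻¹' OmR := by
  intro z hz
  obtain ⟨i, hi, hzi⟩ := mem_iUnion₂.1 (tube_pieces hL.t0 hL.tm (LongE_lt hL hlam) hu hz)
  obtain ⟨k, hk, hzk⟩ := mem_iUnion₂.1 (hL.cov i (Finset.mem_range.1 hi) hzi)
  exact (Te T).sub k hzk

/-- the energies of the pairs (piece, tile) -/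
theorem LongE_en {p : ℝ} (hp1 : 1 ≤ p) (hp2 : p ≤ 2) {G G₂ : Fin 3 → R3 → R3} {L : R3 →L[ℝ] R3}
    (h : SysOf (Te T) s pr c R ρ m X) (hG : GoodA Om (En p G) x v e xx a)
    (hQ : ∀ φ, IsCompact (Q φ)) {mf : FcS (Te T) s pr → κf}
    (hme : ∀ c, w2 '' c.1.set = seg x v a (me c))
    (hmf : ∀ c, w2 '' c.1.set = pt (e (mf c)) (a + xx (mf c)) '' Q (mf c))
    (hL : LongE T s pr R ρ m x v a me C n nE np nc lam cV M u ed m' t S) (hcV : 0 ≤ cV)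
    {K : ℝ≥0} {ε : ℝ≥0∞} (hO : OutE1 h hG hQ hme hmf G₂ K u ε) {η' : ℝ}
    (hg : ∀ c : EgS (Te T) s, seg x v a (me c) ⊆ C →
      ∫⁻ σ in Ioc (0:ℝ) 1, C.indicator (fun y => ‖Gmat G y - L‖ₑ ^ p)
        (a + x (me c) + σ • v (me c)) ≤ ENNReal.ofReal η')
    (hη' : ENNReal.ofReal η' ≤ ‖L‖ₑ ^ p)
    (hε : ε ≤ ENNReal.ofReal (u^2 * ‖ed.2 - ed.1‖) * ‖L‖ₑ ^ p) :
    ∀ i < m', ∀ k ∈ S i, ∫⁻ z in P ((Te T).H (k : ι)) ∩
        cthickening u (sg (w2.symm ed.1 + t i • w2.symm (ed.2 - ed.1))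
          ((t (i + 1) - t i) • w2.symm (ed.2 - ed.1))), En p G₂ (w2 z) ≤
      ENNReal.ofReal (AE p K M n nE cV * u^2 * ‖ed.2 - ed.1‖) * ‖L‖ₑ ^ p := by
  intro i hi k hk
  obtain ⟨c0, hc0⟩ := hL.cell i hi
  have h1 := hO c0 k (hL.sml i hi k hk)
  have h2 : c0.1.set = sg (w2.symm ed.1 + t i • w2.symm (ed.2 - ed.1))
      ((t (i + 1) - t i) • w2.symm (ed.2 - ed.1)) := hc0
  rw [← h2]
  refine h1.trans ?_
  have hZ := hL.zn i hi k hk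
  rw [← hc0] at hZ
  have hmM : m k ≤ M := by
    first
      | exact hL.em i hi k hk
      | exact (hL.em i hi k hk).le
  exact energy_loc hp1 hp2 h hG hQ hme hmf _ hZ hg hη' hmM (norm_nonneg _) hcV
    (by positivity) le_rfl hε

/-- **(B) in LINE form** -/
theorem line_longE {p : ℝ} (hp1 : 1 ≤ p) (hp2 : p ≤ 2) {G G₂ : Fin 3 → R3 → R3}
    {L : R3 →L[ℝ] R3} {La : Set R3} {g : R3 → R3} (hS : SH p OmR La g G₂)
    {Qb : CB R3 3} {k0 : ℕ} {κ : ℝ} (hκ : 0 < κ) (cnd1 : ∀ v, κ / 4 * ‖v‖ ≤ ‖Qb.ψ v‖)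
    (cnd2 : ∀ v, ‖Qb.ψ v‖ ≤ 4 * κ⁻¹ * ‖v‖) (hu : u = 4 * κ⁻¹ / (5 * 2 ^ k0))
    (h : SysOf (Te T) s pr c R ρ m X) (hG : GoodA Om (En p G) x v e xx a)
    (hQ : ∀ φ, IsCompact (Q φ)) {mf : FcS (Te T) s pr → κf}
    (hme : ∀ c, w2 '' c.1.set = seg x v a (me c))
    (hmf : ∀ c, w2 '' c.1.set = pt (e (mf c)) (a + xx (mf c)) '' Q (mf c))
    (hL : LongE T s pr R ρ m x v a me C n nE np nc lam cV M u ed m' t S) (hlam : 0 < lam)
    (hcV : 0 ≤ cV)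
    {K : ℝ≥0} {ε : ℝ≥0∞} (hO : OutE1 h hG hQ hme hmf G₂ K u ε) {η' : ℝ}
    (hg : ∀ c : EgS (Te T) s, seg x v a (me c) ⊆ C →
      ∫⁻ σ in Ioc (0:ℝ) 1, C.indicator (fun y => ‖Gmat G y - L‖ₑ ^ p)
        (a + x (me c) + σ • v (me c)) ≤ ENNReal.ofReal η')
    (hη' : ENNReal.ofReal η' ≤ ‖L‖ₑ ^ p)
    (hε : ε ≤ ENNReal.ofReal (u^2 * ‖ed.2 - ed.1‖) * ‖L‖ₑ ^ p) :
    ∫⁻ w in Tw Qb k0, ∫⁻ τ in Icc (0:ℝ) 1,
        ‖Gmat G₂ (ed.1 + w + τ • (ed.2 - ed.1)) (ed.2 - ed.1)‖ₑ ^ p ≤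
      ENNReal.ofReal (24576 * AE p K M n nE cV * ((np * nc : ℕ) : ℝ) / κ ^ 6) * ‖L‖ₑ ^ p *
        ‖ed.2 - ed.1‖ₑ ^ p * volume (Tw Qb k0) := by
  have hu0 : 0 ≤ u := by rw [hu]; positivity
  exact long_num hp1 hp2 hS hκ cnd1 cnd2 hu hL.ne (LongE_sub hL hlam hu0) hL.t0 hL.tm
    (LongE_lt hL hlam) S hL.cov (LongE_card hL) L
    (LongE_en hp1 hp2 h hG hQ hme hmf hL hcV hO hg hη' hε)

/-- **(B) in the form of `h2b_inc`** -/
theorem tb_longE {p : ℝ} (hp1 : 1 ≤ p) (hp2 : p ≤ 2) {G G₂ : Fin 3 → R3 → R3}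
    {L : R3 →L[ℝ] R3} {k0 : ℕ} {κ : ℝ} (hκ : 0 < κ) (hu : u = 4 * κ⁻¹ / (5 * 2 ^ k0))
    (h : SysOf (Te T) s pr c R ρ m X) (hG : GoodA Om (En p G) x v e xx a)
    (hQ : ∀ φ, IsCompact (Q φ)) {mf : FcS (Te T) s pr → κf}
    (hme : ∀ c, w2 '' c.1.set = seg x v a (me c))
    (hmf : ∀ c, w2 '' c.1.set = pt (e (mf c)) (a + xx (mf c)) '' Q (mf c))
    (hL : LongE T s pr R ρ m x v a me C n nE np nc lam cV M u ed m' t S) (hlam : 0 < lam)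
    (hcV : 0 ≤ cV)
    {K : ℝ≥0} {ε : ℝ≥0∞} (hO : OutE1 h hG hQ hme hmf G₂ K u ε) {η' : ℝ}
    (hg : ∀ c : EgS (Te T) s, seg x v a (me c) ⊆ C →
      ∫⁻ σ in Ioc (0:ℝ) 1, C.indicator (fun y => ‖Gmat G y - L‖ₑ ^ p)
        (a + x (me c) + σ • v (me c)) ≤ ENNReal.ofReal η')
    (hη' : ENNReal.ofReal η' ≤ ‖L‖ₑ ^ p)
    (hε : ε ≤ ENNReal.ofReal (u^2 * ‖ed.2 - ed.1‖) * ‖L‖ₑ ^ p) :
    ∫⁻ y in Tb3 u ed.1 (ed.2 - ed.1), En p G₂ y ≤
      ENNReal.ofReal (c1L κ p K M n nE (np * nc) cV * ‖L‖ ^ p * ‖ed.2 - ed.1‖ / 4 ^ k0) := by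
  have hu0 : 0 ≤ u := by rw [hu]; positivity
  have hp0 : 0 ≤ p := by linarith
  have hCE := CE_nonneg (p := p) (by linarith) K M
  refine (tube_of_pieces_En (p := p) (G2 := G₂) hu0 hL.t0 hL.tm (LongE_lt hL hlam)
    (PP := fun k : s => P ((Te T).H (k : ι))) S hL.cov (LongE_card hL)
    (LongE_en hp1 hp2 h hG hQ hme hmf hL hcV hO hg hη' hε)).trans ?_
  have hAE : 0 ≤ AE p K M n nE cV := by unfold AE; positivity
  have e1 : ‖L‖ₑ ^ p = ENNReal.ofReal (‖L‖ ^ p) := by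
    rw [← ofReal_norm, ENNReal.ofReal_rpow_of_nonneg (norm_nonneg _) hp0]
  rw [e1, ← ENNReal.ofReal_natCast (np * nc),
    ← ENNReal.ofReal_mul (by positivity), ← ENNReal.ofReal_mul (by positivity)]
  refine ENNReal.ofReal_le_ofReal ?_
  have e2 : (4:ℝ) ^ k0 = (2 ^ k0) ^ 2 := by rw [← pow_mul, mul_comm, pow_mul]; norm_num
  have e3 : u ^ 2 = 16 / (25 * κ ^ 2 * 4 ^ k0) := by
    rw [hu, e2]; field_simp; ring
  rw [e3]
  unfold c1L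
  set w : ℝ := ‖ed.2 - ed.1‖
  set N : ℕ := np * nc
  have hw : 0 ≤ w := norm_nonneg _
  have h1 : 0 ≤ N * AE p K M n nE cV * ‖L‖ ^ p * w / (κ ^ 2 * 4 ^ k0) := by positivity
  calc N * (AE p K M n nE cV * (16 / (25 * κ ^ 2 * 4 ^ k0)) * w * ‖L‖ ^ p) =
        16 / 25 * (N * AE p K M n nE cV * ‖L‖ ^ p * w / (κ ^ 2 * 4 ^ k0)) := by
        field_simp
    _ ≤ 2 * (N * AE p K M n nE cV * ‖L‖ ^ p * w / (κ ^ 2 * 4 ^ k0)) := by
        gcongr; norm_num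
    _ = _ := by field_simp

end long

end

end Crest.Agent.R096.Sqt_143
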