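import Crest.Agent.R096.Oi1_961
import Crest.Agent.R096.Hb3_82
import Crest.Agent.R096.H2n3_821
import Crest.Agent.R096.Nme1_227
import Crest.Agent.R096.Sqt18_143

/-!
Row 96 (S0127), helper961, COMPOSITE B, (O1): the join `InP` of one block from `LongE` / `NearE`, the outputs
of `cob_T`, the short edges (82's `h2b_T`) and the clause `gam` (968).
-/

set_option autoImplicit false
set_option linter.unusedSectionVars false
set_option linter.style.longLine false

open Set Metric Filter Topology MeasureTheory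
open scoped ENNReal NNReal

namespace Crest.Agent.R096.Oi_961

open Crest.AnalysisR.VecCalc3 Crest.AnalysisR.Sobolev
open Crest.Agent.R096.Msh_715 (P I Tiling)
open Crest.Agent.R096.Mal_874 (CB)
open Crest.Agent.R096.Sk_962 (SH)
open Crest.Agent.R096.Sq_55 (E3 Sys w2)
open Crest.Agent.R096.Sqt_143 (sg cu Zn CT AE)
open Crest.Agent.R096.Cob_622
open Crest.Agent.R096.Efi_296
open Crest.Agent.R096.Cbs_296
open Crest.Agent.R096.Fce_793 (pt)
open Crest.Agent.R096.H2a_821 (A1 A2)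
open Crest.Agent.R096.She_227 (sE)
open Crest.Agent.R96.Coarse_538 (seg)
open Crest.Agent.R96.Lu_538 (Gmat)
open Crest.Agent.R096.Br_695 (En)
open Crest.Agent.R096.Pin_753

noncomputable section

section long

variable {OmR La : Set R3} {ι : Type*} {T : Tiling OmR ι} {κe κf : Type*}
  {x v : κe → R3} {e : κf → Fin 2 → R3} {xx : κf → R3} {a : R3} {Qf : κf → Set (ℝ × ℝ)}
  {s : Finset ι} {pr : (Te T).Cell → Prop}
  {c : ι → E3} {R : ι → ℝ≥0} {ρ : E3 → ℝ≥0} {m : ι → ℝ≥0} {X : Sys s (reps (Te T) s pr)}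
  {C : Set R3} {n nE np nc : ℕ} {lam cV : ℝ} {M : ℝ≥0} {u : ℝ} {ed : R3 × R3} {m' : ℕ}
  {t : ℕ → ℝ} {S : ℕ → Finset s} {me : EgS (Te T) s → κe}

/-- the constant of the long edges -/
def AL (p : ℝ) (K M : ℝ≥0) (n nE np nc : ℕ) (cV κ : ℝ) : ℝ :=
  24576 * AE p K M n nE cV * (np * nc : ℕ) / κ ^ 6

/-- the deviation along the closed 1-cells of the used tiles inside `C` -/
def Dev (T : Tiling OmR ι) (s : Finset ι) (x v : κe → R3) (a : R3) (me : EgS (Te T) s → κe)
    (C : Set R3) (g : R3 → ℝ≥0∞) (η : ℝ) : Prop :=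
  ∀ c : EgS (Te T) s, seg x v a (me c) ⊆ C →
    ∫⁻ σ in Ioc (0:ℝ) 1, C.indicator g (a + x (me c) + σ • v (me c)) ≤ ENNReal.ofReal η

end long

end

end Crest.Agent.R096.Oi_961
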