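import Crest.Agent.R096.Oi2_961
import Crest.Agent.R096.H2n4_821
import Crest.Agent.R096.Onp1_622

/-!
Row 96 (S0127), helper961, COMPOSITE B, (O1): `inP_block`, the clause `InP` of one block from the outputs of
`cob_T`, `LongE`, `NearE`, the short edges and `gam`.
-/

set_option autoImplicit false
set_option linter.unusedSectionVars false
set_option linter.style.longLine false

open Set Metric Filter Topology MeasureTheory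
open scoped ENNReal NNReal

namespace Crest.Agent.R096.Oi_961

open Crest.AnalysisR.VecCalc3 Crest.AnalysisR.Sobolev
open Crest.Agent.R096.Msh_715 (P I Tiling)
open Crest.Agent.R096.Mal_874 (CB ZP)
open Crest.Agent.R096.Sk_962 (SH)
open Crest.Agent.R096.Sq_55 (E3 Sys w2)
open Crest.Agent.R096.Sqt_143 (sg cu Zn CT AE)
open Crest.Agent.R096.Cob_622
open Crest.Agent.R096.Efi_296
open Crest.Agent.R096.Cbs_296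
open Crest.Agent.R096.Fce_793 (pt)
open Crest.Agent.R096.H2a_821 (A1 A2)
open Crest.Agent.R096.She_227 (sE)
open Crest.Agent.R096.Hb_82 (Ct)
open Crest.Agent.R096.Sht_726 (NW)
open Crest.Agent.R96.Coarse_538 (seg)
open Crest.Agent.R96.Lu_538 (Gmat)
open Crest.Agent.R096.Br_695 (En)
open Crest.Agent.R096.Pin_753

noncomputable section

/-- the numbers of (2a) for one M-edge of length `V` -/
structure Num2 (p κ κw θ η η₁ σ V Cb cV : ℝ) (M : ℝ≥0) (n nE np nc nw nM k0 : ℕ) : Prop where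
  small : 7 * (η * V) + 3 * σ ≤ κw * V / (512 * nM)
  th : 1 / 2 ^ k0 ≤ θ * V
  n1 : A1 p κ (4226 * (M:ℝ) ^ 4) Cb np nc nw * θ ≤ η ^ p / 3
  n2 : A2 p κ (4226 * (M:ℝ) ^ 4) (CT p M) (34848 * (M:ℝ) ^ 9 * n * nE * cV) np nc * η₁ ^ p ≤
    η ^ p / 3

/-- the last error is small for the edges of length at least `V₀` -/
def EpsOK (p κ η V₀ lam : ℝ) (np nc k0 : ℕ) (ε : ℝ≥0∞) : Prop :=
  ∀ V : ℝ, V₀ ≤ V → ∀ (m' : ℕ) (t : ℕ → ℝ) {κX : Type} (S : ℕ → Finset κX),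
    (∀ i < m', t i + lam ≤ t (i + 1)) → m' ≤ np → (∀ i < m', (S i).card ≤ nc) →
    (ENNReal.ofReal (12800 * 4 ^ k0 / (κ ^ 4 * V)) *
      ∑ i ∈ Finset.range m', ∑ _k ∈ S i, ENNReal.ofReal (((t (i + 1) - t i) ^ p)⁻¹)) * ε ≤
      ENNReal.ofReal ((η * V) ^ p / 3)

/-- **`InP` of one block** -/
theorem inP_block (Bs : ℕ) {κ : ℝ} (hκ : 0 < κ) (N : ℕ) {dm : ℝ} (hdm : 0 ≤ dm) :
    ∃ (c2 : ℝ≥0) (Λ : ℝ) (mI : ℕ), 0 < c2 ∧ 0 < Λ ∧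
    ∀ {p : ℝ}, 1 ≤ p → p ≤ 2 → ∀ (Q : CB R3 3) (k0 : ℕ) (hk : Q.kc ≤ k0),
    (∀ v, κ / 4 * ‖v‖ ≤ ‖Q.ψ v‖ ∧ ‖Q.ψ v‖ ≤ 4 * κ⁻¹ * ‖v‖) →
    (∀ i, ∀ p ∈ Q.S.GG i, ∀ l, |p.1 l| ≤ Bs) →
    (∀ i, i ≠ Q.S.core → ∀ v ∈ ZP (Q.S.GG i), ∀ w ∈ ZP (Q.S.GG i), ∀ l, |w l - v l| ≤ Bs) →
    ∀ {OmR La : Set R3}, IsOpen OmR → ∀ {ι : Type} {T : Tiling OmR ι} {κe κf : Type}
      {x v : κe → R3} {e : κf → Fin 2 → R3} {xx : κf → R3} {a : R3} {Qf : κf → Set (ℝ × ℝ)}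
      {s : Finset ι} {pr : (Te T).Cell → Prop} {c : ι → E3} {R : ι → ℝ≥0} {ρ : E3 → ℝ≥0}
      {m : ι → ℝ≥0} {X : Sys s (reps (Te T) s pr)} {G Gg G₂ : Fin 3 → R3 → R3} {g Rr : R3 → R3},
    SH p OmR La g Gg → SH p OmR La (fun x => Rr (g x)) G₂ →
    ∀ {L : R3 →L[ℝ] R3}, (∀ v, κ * ‖v‖ ≤ ‖L v‖) → ‖L‖ ≤ κ⁻¹ →
    ∀ {u : ℝ}, u = 4 * κ⁻¹ / (5 * 2 ^ k0) →
    -- the coordinate form of `Rr`
    ∀ {ψ : Fin 3 → ℝ → ℝ} {σ : ℝ}, 0 ≤ σ → (∀ a, Monotone (ψ a)) →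
    (∀ a x y, |ψ a x - ψ a y| ≤ |x - y|) → (∀ a x, 0 ≤ ψ a x) → (∀ a x, ψ a x ≤ σ) →
    ∀ {O : Set R3}, (∀ y ∈ O, ∀ a, Rr y a = y a - ψ a (y a)) →
    -- the clause `gam` and the position of the tubes
    ∀ {κw sz : ℝ} {b z : R3},
    (∀ x ∈ Q.Kc, (Q.T k0 hk).dim x = 1 → ∀ y ∈ (Q.T k0 hk).cc x, ∀ w ∈ Tw Q k0,
      ‖Rr (g (y + w)) - Bk b L z (y + w)‖ ≤ κw * sz) →
    (∀ e ∈ Ed Q k0 hk, cthickening u (sE e) ⊆ w2 ⁻¹' OmR) →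
    (∀ e ∈ Ed Q k0 hk, segment ℝ e.1 e.2 ⊆ Q.Kc → ∀ z ∈ cthickening u (sE e), g (w2 z) ∈ O) →
    -- the outputs of `cob_T`
    ∀ (h : SysOf (Te T) s pr c R ρ m X) (hG : GoodA OmR (En p G) x v e xx a)
      (hGL : GoodA OmR (fun y => ‖Gmat G y - L‖ₑ ^ p) x v e xx a) (hQ : ∀ φ, IsCompact (Qf φ))
      {me : EgS (Te T) s → κe} {mf : FcS (Te T) s pr → κf}
      (hme : ∀ c, w2 '' c.1.set = seg x v a (me c))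
      (hmf : ∀ c, w2 '' c.1.set = pt (e (mf c)) (a + xx (mf c)) '' Qf (mf c))
      {K : ℝ≥0} {ε : ℝ≥0∞} {Sn : Set (EgS (Te T) s)} {npp : ∀ c : Sn, NP X m u c.1.1},
    OutE1 h hG hQ hme hmf G₂ K u ε → OutN h hGL hQ hme hmf Gg u npp ε →
    -- deviations
    ∀ {C : Set R3} {η₁ : ℝ}, 0 ≤ η₁ → Dev T s x v a me C (fun y => ‖Gmat G y - L‖ₑ ^ p) (η₁ ^ p) →
    ENNReal.ofReal (η₁ ^ p) ≤ ‖L‖ₑ ^ p →
    -- the long edges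
    ∀ (Sh : Set (R3 × R3)) {n nE np nc nw : ℕ} {lam cV Cb : ℝ} {M : ℝ≥0}, 0 < lam → 0 ≤ cV →
    0 ≤ Cb →
    (∀ e ∈ Ed Q k0 hk, e ∉ Sh → ∃ m' t S,
      LongE T s pr R ρ m x v a me C n nE np nc lam cV M u e m' t S ∧
      (segment ℝ e.1 e.2 ⊆ Q.Kc → NearE X npp nw Cb e m' t)) →
    (∀ e ∈ Ed Q k0 hk, segment ℝ e.1 e.2 ⊆ Q.Kc → e ∉ Sh) →
    (∀ e ∈ Ed Q k0 hk, e ∉ Sh → ε ≤ ENNReal.ofReal (u^2 * ‖e.2 - e.1‖) * ‖L‖ₑ ^ p) →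
    -- the numbers of the M-edges
    ∀ {nM : ℕ}, 0 < nM → {e | e ∈ Ed Q k0 hk ∧ segment ℝ e.1 e.2 ⊆ Q.Kc}.ncard ≤ nM →
    ∀ {θ η V₀ : ℝ}, 0 ≤ η → (∀ e ∈ Ed Q k0 hk, segment ℝ e.1 e.2 ⊆ Q.Kc → V₀ ≤ ‖e.2 - e.1‖ ∧
      Num2 p κ κw θ η η₁ σ ‖e.2 - e.1‖ Cb cV M n nE np nc nw nM k0) →
    EpsOK p κ η V₀ lam np nc k0 ε →
    -- the short edges
    (∀ e ∈ Ed Q k0 hk, e ∈ Sh → ∃ y ∈ segment ℝ e.1 e.2, NW Q k0 N y) →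
    ∀ {C1 : ℝ}, 512 * κ⁻¹ ^ 6 * AL p K M n nE np nc cV κ * c2 ≤ C1 →
    ∀ {ιS : Type} (PP : ιS → Set R3) (bb : ιS → ℝ≥0∞) (KS : Finset ιS) (Z : R3 × R3 → Finset ιS)
      {er : ℝ≥0∞},
    (∀ e ∈ Ed Q k0 hk, e ∈ Sh → ∀ k ∈ Z e,
      k ∈ KS ∧ (PP k ∩ w2 '' cthickening u (sE e)).Nonempty) →
    (∀ k ∈ KS, ∀ x ∈ PP k, ∀ y ∈ PP k, ‖x - y‖ ≤ dm / 2 ^ k0) →
    (∀ e ∈ Ed Q k0 hk, e ∈ Sh →
      ∫⁻ x in cthickening u (sE e), En p G₂ (w2 x) ≤ ∑ k ∈ Z e, bb k) →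
    ENNReal.ofReal (512 * Ct κ * Λ ^ 2) * (mI * ∑ k ∈ KS, bb k) ≤ er →
    InP p (fun x => Rr (g x)) (Gmat G₂) C1 κw sz b L z er Q k0 hk := by
  obtain ⟨c2, Λ, mI, hc2, hΛ, key⟩ := Hb_82.h2b_T Bs hκ N hdm
  refine ⟨c2, Λ, mI, hc2, hΛ, ?_⟩
  intro p hp1 hp2 Q k0 hk cnd hB hR OmR La hOm ι T κe κf x v e xx a Qf s pr c R ρ m X G Gg G₂ g Rr
    hg hg2 L hL1 hL2 u hu ψ σ hσ hψ1 hψ2 hψ3 hψ4 O hRO κw sz b z hgam hT hOe h hG hGL hQ me mf hme hmf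
    K ε Sn npp hO1 hON C η₁ hη₁ hdev hη' Sh n nE np nc nw lam cV Cb M hlam hcV hCb hlong hMSh hεL
    nM hnM0 hnM θ η V₀ hη hnum hε hNW C1 hC1 ιS PP bb KS Z er hZ hdia hen her
  have hAE : 0 ≤ AL p K M n nE np nc cV κ := by
    have hCE := Sqt_143.CE_nonneg (p := p) (by linarith) K M
    have : 0 ≤ AE p K M n nE cV := by unfold AE; positivity
    unfold AL; positivity
  refine Tra_227.inP_of hk hgam hOm.measurableSet ?_ ?_ hnM0 hnM ?_ ?_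
  · exact Crest.Agent.R96.Lu_538.aesm_Gmat fun j => (hg2.memG j).1
  · intro e he w hw τ hτ
    obtain ⟨y, hy, hy2⟩ := Fub_216.seg_add_Tw hκ (fun v => (cnd v).1) hu.ge e.1 (e.2 - e.1) w hw τ hτ
    rw [← hy2]
    exact hT e he hy
  · intro e he heK
    have hSh := hMSh e he heK
    obtain ⟨m', t, S, hE, hN⟩ := hlong e he hSh
    obtain ⟨hV, hn⟩ := hnum e he heK
    exact H2a_821.h2a_longE hp1 (by linarith) hOm hg hg2 hσ hψ1 hψ2 hψ3 hψ4 hRO hκ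
      (fun v => (cnd v).1) (fun v => (cnd v).2) hu (hT e he) (hOe e he heK) hL2 h hGL hQ hme hmf npp
      hON hη₁ hdev hlam hcV hCb hE (hN heK) hη hn.small hn.th hn.n1 hn.n2
      (hε _ hV m' t S hE.gap hE.num hE.card)
  · refine key hp1 hp2 Q k0 hk cnd hB hR hg2 L hL1 hL2 hu Sh hNW (fun e he _ => ?_)
      hAE (fun e he hs => ?_) hC1 PP bb KS Z hZ hdia hen her
    · rintro _ ⟨y, hy, rfl⟩
      exact hT e he hy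
    · obtain ⟨m', t, S, hE, -⟩ := hlong e he hs
      exact Sqt_143.line_longE hp1 hp2 hg2 hκ (fun v => (cnd v).1) (fun v => (cnd v).2) hu h hG hQ
        hme hmf hE hlam hcV hO1 hdev hη' (hεL e he hs)

end

end Crest.Agent.R096.Oi_961
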