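import Crest.Agent.R096.On1_441
import Crest.Agent.R096.Lm5_117

/-!
# R096 (row 96), NO-LABELS (helper441), part 2: pieces of a 1-cell = points of the state

Over a labelled mesh `L : LM M Q dim` (tilings, merged meshes, layers) of helper117:
* `nP_le`   : for every cell the number of pieces of a family is at most the number of its points;
* `nP_edge` : for a 1-cell the number of pieces of a family is the number of its points;
* `nP_zero_iff`, `ex_of` : (K4) from the points and the labels.
-/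

set_option autoImplicit false
set_option linter.unusedSectionVars false

open Set Relation

namespace Crest.Agent.R096.On_441

open Crest.Agent.R096.St_147 Crest.Agent.R096.Seq_213
  Crest.Agent.R096.Bd_416 Crest.Agent.R096.Mg_441 Crest.Agent.R096.Lm_117
  Crest.Agent.R096.Grd_714

variable {ι Φ W Q J Cc : Type} {M : MeshC ι Φ W} [PartialOrder Q] {dim : Q → ℕ}
variable {L : LM M Q dim} {fam : J → Cc} {s : GSt M fam}

/-- the points of the family `a` in the cell `c` -/
def ptF (L : LM M Q dim) (s : GSt M fam) (c : Q) (a : Cc) : Set W :=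
  {w | w ∈ s.P ∧ w ∈ L.toSk.In c ∧ fam (s.lab w) = a}

variable (h : LF L s) (Lam : J → Q → ZMod 2) (hLam : ∀ j c, L.toSk.XL (gP s j) (Lam j) c)

include h in
theorem ptF_finite (c : Q) (a : Cc) : (ptF L s c a).Finite :=
  (h c).subset fun _ hw => ⟨hw.1, hw.2.1⟩

theorem fam_pts {c : Q} {x : Pc L s c} {w : W} (hw : w ∈ pts h c x) {a : Cc} :
    w ∈ ptF L s c a ↔ fam (pcol L s c x) = a := by
  rw [pcol_pts hw]
  exact ⟨fun h' => h'.2.2, fun h' => ⟨(pts_in hw).1, (pts_in hw).2, h'⟩⟩

/-- at most as many pieces as points -/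
theorem nP_le (c : Q) (a : Cc) : nP (cmb h Lam hLam) c a ≤ (ptF L s c a).ncard := by
  classical
  have hf := ptF_finite (L := L) h c a
  unfold nP
  rw [← Set.ncard_coe_finset]
  let f : Pc L s c → W := fun x => rep h x
  refine Set.ncard_le_ncard_of_injOn (t := ptF L s c a) f ?_ ?_ hf
  · intro x hx
    exact (fam_pts h (rep_mem h x)).2 (Finset.mem_filter.1 (Finset.mem_coe.1 hx)).2
  · intro x _ y _ e
    have h1 := rep_mem h x
    have e' : rep h x = rep h y := e
    rw [e'] at h1
    exact pts_disj h1 (rep_mem h y)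

/-- **on a 1-cell the pieces are the points** -/
theorem nP_edge {c : Q} (hc : dim c = 1) (a : Cc) :
    nP (cmb h Lam hLam) c a = (ptF L s c a).ncard := by
  classical
  refine le_antisymm (nP_le h Lam hLam c a) ?_
  unfold nP
  rw [← Set.ncard_coe_finset]
  let f : Pc L s c → W := fun x => rep h x
  refine (Set.ncard_le_ncard (t := f '' _) ?_ ((Finset.finite_toSet _).image _)).trans
    (Set.ncard_image_le (Finset.finite_toSet _))
  intro w hw
  have hw' : w ∈ s.P ∧ w ∈ L.toSk.In c := ⟨hw.1, hw.2.1⟩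
  refine ⟨(Quot.mk _ ⟨w, hw'⟩ : Pc L s c), ?_, ?_⟩
  · exact Finset.mem_coe.2 (Finset.mem_filter.2
      ⟨@Finset.mem_univ _ ((cmb h Lam hLam).fin c) _, hw.2.2⟩)
  · exact pts_edge hc _ (rep_mem h _) (mem_pts.2 ⟨hw', rfl⟩)

/-- no points, no pieces -/
theorem noPc {c : Q} {a : Cc} (h0 : ∀ w ∈ s.P, w ∈ L.toSk.In c → fam (s.lab w) ≠ a) :
    ∀ x : (cmb h Lam hLam).I c, (cmb h Lam hLam).fam ((cmb h Lam hLam).col c x) ≠ a := by
  intro x hx
  have h1 := rep_mem h (show Pc L s c from x)
  have h2 := (fam_pts h h1 (a := a)).2 hx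
  exact h0 _ h2.1 h2.2.1 h2.2.2

variable {E' : Type*} [NormedAddCommGroup E'] [NormedSpace ℝ E'] {Pf : Cc → Set E'}

/-- **(K4)** from the points and the labels of the state: the families which are exact at `y` have
no points in the cell and the exact label at one vertex of the cell -/
theorem ex_of {c : Q} {y : Cc → ℝ} (hy : y ∈ K2 Pf)
    (hpt : ∀ w ∈ s.P, w ∈ L.toSk.In c → 0 < y (fam (s.lab w)) ∧ y (fam (s.lab w)) < 1)
    (h0 : ∀ j, y (fam j) = 0 → ∃ v ≤ c, dim v = 0 ∧ Lam j v = 0)
    (h1 : ∀ j, y (fam j) = 1 → ∃ v ≤ c, dim v = 0 ∧ Lam j v = 1) :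
    Ex (cmb h Lam hLam) Pf c y := by
  -- the label of a sheet without points is constant on the cell
  have hc : ∀ j, (y (fam j) = 0 ∨ y (fam j) = 1) → ∀ v ≤ c, dim v = 0 →
      Lam j (bv L.toSk c) = Lam j v := by
    intro j hj v hv hv0
    refine L.conn c (Lam j) ?_ _ _ (bv_le L.toSk c) hv (bv_dim L.toSk c) hv0
    intro e he he1
    have h2 := hLam j c e he he1
    have h3 : nW (gP s j) (L.toSk.On1 e) = 0 := by
      apply nW_empty
      intro w hw hwe
      obtain ⟨hwP, rfl⟩ := mem_gP.1 hw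
      have h4 := hpt w hwP ⟨hwe.1, hwe.2.symm ▸ he⟩
      rcases hj with h5 | h5
      · exact absurd h5 h4.1.ne'
      · exact absurd h5 h4.2.ne
    rw [h3] at h2
    have e0 : ∀ a b : ZMod 2, a + b = 0 → a = b := by decide
    exact e0 _ _ h2
  refine ⟨hy, ?_, ?_⟩
  · intro a ha
    refine ⟨noPc h Lam hLam fun w hw hwc hwa => ?_, ?_⟩
    · have h2 := (hpt w hw hwc).1
      rw [hwa, ha] at h2
      exact lt_irrefl _ h2
    · intro j hj
      have hj' : fam j = a := hj
      obtain ⟨v, hv, hv0, e⟩ := h0 j (by rw [hj']; exact ha)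
      show Lam j (bv L.toSk c) = 0
      rw [hc j (Or.inl (by rw [hj']; exact ha)) v hv hv0, e]
  · intro a ha
    refine ⟨noPc h Lam hLam fun w hw hwc hwa => ?_, ?_⟩
    · have h2 := (hpt w hw hwc).2
      rw [hwa, ha] at h2
      exact lt_irrefl _ h2
    · intro j hj
      have hj' : fam j = a := hj
      obtain ⟨v, hv, hv0, e⟩ := h1 j (by rw [hj']; exact ha)
      show Lam j (bv L.toSk c) = 1
      rw [hc j (Or.inr (by rw [hj']; exact ha)) v hv hv0, e]

end Crest.Agent.R096.On_441
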