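/-
helper622, row 96, p ≤ 2: **`PreIN p`**.
-/
import Crest.Agent.R096.Onp6_622
import Crest.Agent.R096.Pas7_753
import Crest.Agent.R096.Elc3_812

set_option autoImplicit false

namespace Crest.Agent.R096.Onp_622

open Crest.Agent.R096.Ea0_961 (EA0)
open Crest.Agent.R096.Pin_753 (PreIN)

/-- **everything before the foam machine, `1 ≤ p ≤ 2`** -/
theorem preIN {p : ℝ} (hp : 1 ≤ p) (hp2 : p ≤ 2) (hE : EA0 p) : PreIN p :=
  Crest.Agent.R096.Pas_753.preIN_of hp hp2 hE Crest.Agent.R96.Eld_538.Els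
    (Crest.Agent.R096.Elc_812.elP hp hp2) (oneP hp hp2)

end Crest.Agent.R096.Onp_622
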