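import Mathlib

/-!
# P2-PATCH: the boundary of a convex body minus a small ball

The points of the boundary of a convex body which are far from a ball lie in one preconnected
subset of the boundary which misses the ball (antipode + radial projection of segments).
-/

set_option autoImplicit false

open Set Metric Topology
open scoped NNReal

namespace Crest.Agent.R096.Ptc_160

variable {E : Type*} [NormedAddCommGroup E] [NormedSpace ℝ E]

/-- Radial projection to `{gauge K = 1}`. -/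
noncomputable def rad (K : Set E) (x : E) : E := (gauge K x)⁻¹ • x

section body

variable {K : Set E} {r R : ℝ}

theorem absorbent_of_ball (hr : 0 < r) (h1 : ball (0 : E) r ⊆ K) : Absorbent ℝ K :=
  (absorbent_ball_zero hr).mono h1

omit [NormedSpace ℝ E] in
theorem nhds_of_ball (hr : 0 < r) (h1 : ball (0 : E) r ⊆ K) : K ∈ 𝓝 (0 : E) :=
  Filter.mem_of_superset (ball_mem_nhds _ hr) h1

theorem gpos (hr : 0 < r) (h1 : ball (0 : E) r ⊆ K) (h2 : K ⊆ closedBall 0 R) {x : E}
    (hx : x ≠ 0) : 0 < gauge K x :=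
  (gauge_pos (absorbent_of_ball hr h1)
    (NormedSpace.isVonNBounded_of_isBounded ℝ ((isBounded_closedBall).subset h2))).2 hx

theorem glip (hc : Convex ℝ K) (hr : 0 < r) (h1 : ball (0 : E) r ⊆ K) (x y : E) :
    |gauge K x - gauge K y| ≤ ‖x - y‖ / r := by
  lift r to ℝ≥0 using hr.le
  have h := (hc.lipschitzWith_gauge (r := r) (by exact_mod_cast hr) h1).dist_le_mul x y
  rw [Real.dist_eq, dist_eq_norm] at h
  refine h.trans (le_of_eq ?_)
  rw [NNReal.coe_inv]
  ring

theorem gsmul (a : ℝ) (ha : 0 ≤ a) (x : E) : gauge K (a • x) = a * gauge K x := by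
  rw [gauge_smul_of_nonneg ha, smul_eq_mul]

theorem gauge_rad (hr : 0 < r) (h1 : ball (0 : E) r ⊆ K) (h2 : K ⊆ closedBall 0 R) {x : E}
    (hx : x ≠ 0) : gauge K (rad K x) = 1 := by
  have h := gpos hr h1 h2 hx
  rw [rad, gsmul _ (inv_nonneg.2 h.le), inv_mul_cancel₀ h.ne']

theorem rad_of_eq {x : E} (hx : gauge K x = 1) : rad K x = x := by
  rw [rad, hx, inv_one, one_smul]

theorem ne_zero_of_gauge {x : E} (hx : gauge K x = 1) : x ≠ 0 := by
  rintro rfl
  rw [gauge_zero] at hx
  exact zero_ne_one hx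

theorem continuousOn_rad (hc : Convex ℝ K) (hr : 0 < r) (h1 : ball (0 : E) r ⊆ K)
    (h2 : K ⊆ closedBall 0 R) : ContinuousOn (rad K) {0}ᶜ := by
  refine ContinuousOn.smul (ContinuousOn.inv₀ ?_ ?_) continuousOn_id
  · exact (continuous_gauge hc (nhds_of_ball hr h1)).continuousOn
  · intro x hx
    exact (gpos hr h1 h2 hx).ne'

theorem norm_le_of_gauge (hc : Convex ℝ K) (hr : 0 < r) (h1 : ball (0 : E) r ⊆ K)
    (h2 : K ⊆ closedBall 0 R) {x : E} (hx : gauge K x = 1) : ‖x‖ ≤ R := by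
  have h : x ∈ closure K :=
    (gauge_le_one_iff_mem_closure hc (nhds_of_ball hr h1)).1 hx.le
  have := closure_minimal h2 isClosed_closedBall h
  rwa [mem_closedBall_zero_iff] at this

theorem le_norm_of_gauge (h1 : ball (0 : E) r ⊆ K) {x : E}
    (hx : gauge K x = 1) : r ≤ ‖x‖ := by
  by_contra hlt
  push Not at hlt
  have : x ∈ interior K :=
    mem_interior.2 ⟨ball 0 r, h1, isOpen_ball, by rwa [mem_ball_zero_iff]⟩
  exact (interior_subset_gauge_lt_one K this).out.ne hx

/-- Key estimate: if the radial projection of a point of the segment from `w` to the antipode of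
`p` is close to `p`, then `w` is close to `p`. -/
theorem key (hc : Convex ℝ K) (hr : 0 < r) (h1 : ball (0 : E) r ⊆ K) (h2 : K ⊆ closedBall 0 R)
    {p w m : E} (hp : gauge K p = 1) (hw : gauge K w = 1) {τ g l d : ℝ} (hτ0 : 0 ≤ τ)
    (hτ1 : τ < 1) (hg : 0 < g) (hl : 0 ≤ l) (hd : d ≤ r / 2)
    (he : (1 - τ) • w - (τ * l) • p = g • m) (hm : ‖m - p‖ ≤ d) :
    ‖w - p‖ ≤ 2 * d * (1 + R / r) := by
  have h1τ : 0 < 1 - τ := by linarith
  set α : ℝ := (g + τ * l) / (1 - τ) with hα
  set β : ℝ := g / (1 - τ) with hβ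
  have hd0 : 0 ≤ d := (norm_nonneg _).trans hm
  have hβ0 : 0 < β := by positivity
  have hβα : β ≤ α := by
    rw [hα, hβ]
    apply div_le_div_of_nonneg_right _ h1τ.le
    have : 0 ≤ τ * l := mul_nonneg hτ0 hl
    linarith
  have hw' : w = α • p + β • (m - p) := by
    have h3 : (1 - τ) • w = (g + τ * l) • p + g • (m - p) := by
      have : (1 - τ) • w = g • m + (τ * l) • p := by rw [← he]; abel
      rw [this, add_smul, smul_sub]; abel
    have h4 : w = (1 - τ)⁻¹ • ((1 - τ) • w) := by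
      rw [smul_smul, inv_mul_cancel₀ h1τ.ne', one_smul]
    rw [h4, h3, smul_add, smul_smul, smul_smul, hα, hβ, div_eq_inv_mul, div_eq_inv_mul]
  have h5 : ‖w - α • p‖ ≤ β * d := by
    have : w - α • p = β • (m - p) := by
      nth_rewrite 1 [hw']; abel
    rw [this, norm_smul, Real.norm_of_nonneg hβ0.le]
    exact mul_le_mul_of_nonneg_left hm hβ0.le
  have hα0 : 0 ≤ α := hβ0.le.trans hβα
  have h6 : |1 - α| ≤ β * d / r := by
    have := glip hc hr h1 w (α • p)
    rw [hw, gsmul _ hα0, hp, mul_one] at this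
    exact this.trans (div_le_div_of_nonneg_right h5 hr.le)
  have h7 : α ≤ 2 := by
    have h8 : α - 1 ≤ β * d / r := by
      have := neg_le_abs (1 - α)
      linarith
    have h9 : β * d / r ≤ α / 2 := by
      rw [div_le_iff₀ hr]
      calc β * d ≤ α * (r / 2) := mul_le_mul hβα hd hd0 hα0
        _ = α / 2 * r := by ring
    linarith
  have hβ2 : β ≤ 2 := hβα.trans h7
  have hpR : ‖p‖ ≤ R := norm_le_of_gauge hc hr h1 h2 hp
  have hR0 : 0 ≤ R := (norm_nonneg p).trans hpR
  have h10 : ‖w - p‖ ≤ ‖w - α • p‖ + ‖(α - 1) • p‖ := by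
    have : w - p = (w - α • p) + (α - 1) • p := by
      rw [sub_smul, one_smul]; abel
    rw [this]; exact norm_add_le _ _
  have h11 : ‖(α - 1) • p‖ ≤ β * d / r * R := by
    rw [norm_smul, Real.norm_eq_abs, abs_sub_comm]
    exact mul_le_mul h6 hpR (norm_nonneg _) (by positivity)
  calc ‖w - p‖ ≤ β * d + β * d / r * R := h10.trans (add_le_add h5 h11)
    _ = β * (d * (1 + R / r)) := by field_simp
    _ ≤ 2 * (d * (1 + R / r)) := mul_le_mul_of_nonneg_right hβ2 (by positivity)
    _ = 2 * d * (1 + R / r) := by ring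

/-- One path: from a far point `w` to the antipode of `p`. -/
theorem path (hc : Convex ℝ K) (hr : 0 < r) (h1 : ball (0 : E) r ⊆ K) (h2 : K ⊆ closedBall 0 R)
    {p w : E} (hp : gauge K p = 1) (hw : gauge K w = 1) {d : ℝ} (hd0 : 0 ≤ d) (hd : d ≤ r / 2)
    (hfar : 2 * d * (1 + R / r) < ‖w - p‖) :
    ∃ S : Set E, IsPreconnected S ∧ rad K (-p) ∈ S ∧ w ∈ S ∧
      ∀ m ∈ S, gauge K m = 1 ∧ d < ‖m - p‖ := by
  have hp0 : p ≠ 0 := ne_zero_of_gauge hp
  have hnp0 : -p ≠ 0 := neg_ne_zero.2 hp0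
  have hw0 : w ≠ 0 := ne_zero_of_gauge hw
  set l : ℝ := (gauge K (-p))⁻¹ with hl
  have hl0 : 0 < l := inv_pos.2 (gpos hr h1 h2 hnp0)
  have hq : rad K (-p) = -(l • p) := by rw [rad, smul_neg]
  have hpR : ‖p‖ ≤ R := norm_le_of_gauge hc hr h1 h2 hp
  have hR0 : 0 ≤ R := (norm_nonneg p).trans hpR
  -- points of the segment
  have hseg : ∀ x ∈ segment ℝ w (rad K (-p)), ∃ τ, 0 ≤ τ ∧ τ ≤ 1 ∧
      x = (1 - τ) • w - (τ * l) • p := by
    rintro x ⟨a, b, ha, hb, hab, rfl⟩
    refine ⟨b, hb, by linarith, ?_⟩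
    rw [hq, show (1 - b) = a by linarith, smul_neg, smul_smul, sub_eq_add_neg]
  have hx0 : ∀ x ∈ segment ℝ w (rad K (-p)), x ≠ 0 := by
    intro x hx h0
    obtain ⟨τ, hτ0, hτ1, hxe⟩ := hseg x hx
    rw [h0] at hxe
    have h3 : (1 - τ) • w = (τ * l) • p := (sub_eq_zero.1 hxe.symm)
    have h4 : (1 - τ) = τ * l := by
      have := congrArg (gauge K) h3
      rwa [gsmul _ (by linarith), gsmul _ (by positivity), hw, hp, mul_one, mul_one] at this
    have h5 : (1 - τ) ≠ 0 := by
      intro h6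
      have h7 : τ = 1 := by linarith
      rw [h6, h7, one_mul] at h4
      exact hl0.ne h4
    have h8 : w = p := by
      rw [← h4] at h3
      exact smul_right_injective E h5 h3
    rw [h8, sub_self, norm_zero] at hfar
    have : 0 ≤ 2 * d * (1 + R / r) := by positivity
    linarith
  refine ⟨rad K '' segment ℝ w (rad K (-p)), ?_, ?_, ?_, ?_⟩
  · refine (convex_segment _ _).isPreconnected.image _ ((continuousOn_rad hc hr h1 h2).mono ?_)
    intro x hx
    exact hx0 x hx
  · exact ⟨_, right_mem_segment ℝ _ _, rad_of_eq (gauge_rad hr h1 h2 hnp0)⟩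
  · exact ⟨_, left_mem_segment ℝ _ _, rad_of_eq hw⟩
  · rintro m ⟨x, hx, rfl⟩
    have hxn := hx0 x hx
    refine ⟨gauge_rad hr h1 h2 hxn, ?_⟩
    by_contra hlt
    push Not at hlt
    obtain ⟨τ, hτ0, hτ1, hxe⟩ := hseg x hx
    have hgx := gpos hr h1 h2 hxn
    rcases hτ1.lt_or_eq with hτ | hτ
    · have he : (1 - τ) • w - (τ * l) • p = gauge K x • rad K x := by
        rw [← hxe, rad, smul_smul, mul_inv_cancel₀ hgx.ne', one_smul]
      exact absurd (key hc hr h1 h2 hp hw hτ0 hτ hgx hl0.le hd he hlt) (not_le.2 hfar)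
    · have hx' : x = rad K (-p) := by
        rw [hxe, hτ, hq, sub_self, zero_smul, one_mul, zero_sub]
      rw [hx', rad_of_eq (gauge_rad hr h1 h2 hnp0), hq] at hlt
      have h3 : -(l • p) - p = -((l + 1) • p) := by rw [add_smul, one_smul]; abel
      rw [h3, norm_neg, norm_smul, Real.norm_of_nonneg (by positivity)] at hlt
      have h4 := le_norm_of_gauge h1 hp
      nlinarith

/-- The level set of the gauge is preconnected. -/
theorem preconn (hrank : 1 < Module.rank ℝ E) (hc : Convex ℝ K) (hr : 0 < r)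
    (h1 : ball (0 : E) r ⊆ K) (h2 : K ⊆ closedBall 0 R) :
    IsPreconnected {x | gauge K x = 1} := by
  have : {x | gauge K x = 1} = rad K '' sphere (0 : E) 1 := by
    ext x
    constructor
    · intro hx
      have hx0 : x ≠ 0 := ne_zero_of_gauge hx
      have hn : 0 < ‖x‖ := norm_pos_iff.2 hx0
      refine ⟨‖x‖⁻¹ • x, ?_, ?_⟩
      · rw [mem_sphere_zero_iff_norm, norm_smul, norm_inv, norm_norm, inv_mul_cancel₀ hn.ne']
      · have hx1 : gauge K x = 1 := hx
        rw [rad, gsmul _ (inv_nonneg.2 hn.le), hx1, mul_one, inv_inv, smul_smul,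
          mul_inv_cancel₀ hn.ne', one_smul]
    · rintro ⟨y, hy, rfl⟩
      refine gauge_rad hr h1 h2 ?_
      rintro rfl
      rw [mem_sphere_zero_iff_norm, norm_zero] at hy
      exact zero_ne_one hy
  rw [this]
  refine (isPreconnected_sphere hrank 0 1).image _ ((continuousOn_rad hc hr h1 h2).mono ?_)
  intro y hy h0
  rw [mem_singleton_iff] at h0
  rw [h0, mem_sphere_zero_iff_norm, norm_zero] at hy
  exact zero_ne_one hy

/-- **P2-PATCH for a gauge.** -/
theorem patch_gauge (hrank : 1 < Module.rank ℝ E) (hc : Convex ℝ K) (hr : 0 < r)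
    (h1 : ball (0 : E) r ⊆ K) (h2 : K ⊆ closedBall 0 R) (y : E) {ρ : ℝ} (hρ : 0 < ρ) :
    ∃ S : Set E, IsPreconnected S ∧ S ⊆ {z | gauge K z = 1} \ closedBall y ρ ∧
      {z | gauge K z = 1} \ closedBall y (8 * (1 + R / r) * ρ) ⊆ S := by
  by_cases hne : ({z | gauge K z = 1} ∩ closedBall y ρ).Nonempty
  · obtain ⟨p, hp, hpy⟩ := hne
    replace hp : gauge K p = 1 := hp
    rw [mem_closedBall, dist_eq_norm] at hpy
    have hpR : ‖p‖ ≤ R := norm_le_of_gauge hc hr h1 h2 hp
    have hR0 : 0 ≤ R := (norm_nonneg p).trans hpR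
    have hRr : 0 ≤ R / r := by positivity
    have hfar' : ∀ z ∉ closedBall y (8 * (1 + R / r) * ρ), 7 * ρ + 8 * (R / r) * ρ < ‖z - p‖ := by
      intro z hz
      rw [mem_closedBall, dist_eq_norm, not_le] at hz
      have h3 : ‖z - y‖ ≤ ‖z - p‖ + ‖p - y‖ := by
        have : z - y = (z - p) + (p - y) := by abel
        rw [this]; exact norm_add_le _ _
      nlinarith
    by_cases hρr : 2 * ρ ≤ r / 2
    · have hpath : ∀ z ∈ {z | gauge K z = 1} \ closedBall y (8 * (1 + R / r) * ρ),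
          ∃ S : Set E, IsPreconnected S ∧ rad K (-p) ∈ S ∧ z ∈ S ∧
            ∀ m ∈ S, gauge K m = 1 ∧ 2 * ρ < ‖m - p‖ := by
        rintro z ⟨hz1, hz2⟩
        refine path hc hr h1 h2 hp hz1 (by positivity) hρr ?_
        have h4 := hfar' z hz2
        have h5 : 2 * (2 * ρ) * (1 + R / r) ≤ 7 * ρ + 8 * (R / r) * ρ := by
          have : 0 ≤ R / r * ρ := by positivity
          nlinarith
        linarith
      choose! S hS using hpath
      set Z := {z | gauge K z = 1} \ closedBall y (8 * (1 + R / r) * ρ) with hZ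
      refine ⟨⋃ z ∈ Z, S z, ?_, ?_, ?_⟩
      · refine isPreconnected_of_forall_pair ?_
        intro a ha b hb
        rw [mem_iUnion₂] at ha hb
        obtain ⟨z, hz, haz⟩ := ha
        obtain ⟨z', hz', hbz⟩ := hb
        refine ⟨S z ∪ S z', union_subset (subset_biUnion_of_mem hz) (subset_biUnion_of_mem hz'),
          Or.inl haz, Or.inr hbz, ?_⟩
        exact (hS z hz).1.union _ (hS z hz).2.1 (hS z' hz').2.1 (hS z' hz').1
      · intro m hm
        rw [mem_iUnion₂] at hm
        obtain ⟨z, hz, hmz⟩ := hm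
        obtain ⟨h3, h4⟩ := (hS z hz).2.2.2 m hmz
        refine ⟨h3, fun h5 => ?_⟩
        rw [mem_closedBall, dist_eq_norm] at h5
        have h6 : ‖m - p‖ ≤ ‖m - y‖ + ‖p - y‖ := by
          have : m - p = (m - y) - (p - y) := by abel
          rw [this]; exact norm_sub_le _ _
        linarith
      · intro z hz
        exact mem_biUnion hz (hS z hz).2.2.1
    · refine ⟨∅, isPreconnected_empty, empty_subset _, ?_⟩
      rintro z ⟨hz1, hz2⟩
      exfalso
      have h4 := hfar' z hz2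
      have hzR : ‖z‖ ≤ R := norm_le_of_gauge hc hr h1 h2 hz1
      have h5 : ‖z - p‖ ≤ 2 * R := (norm_sub_le _ _).trans (by linarith)
      have h6 : R ≤ 4 * (R / r) * ρ := by
        rw [mul_assoc, div_mul_eq_mul_div, ← mul_div_assoc, le_div_iff₀ hr]
        have h7 : r ≤ 4 * ρ := by linarith
        nlinarith
      linarith
  · refine ⟨{z | gauge K z = 1}, preconn hrank hc hr h1 h2, ?_, fun _ hz => hz.1⟩
    intro z hz
    exact ⟨hz, fun h => hne ⟨z, hz, h⟩⟩

end body

/-- Level sets of a convex function as level sets of a gauge. -/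
theorem level_eq {u : E → ℝ} (hu : Continuous u) (hc : ConvexOn ℝ univ u) {t r : ℝ}
    (ho : u 0 < t) (hr : 0 < r) (h1 : ball (0 : E) r ⊆ {y | u y ≤ t}) :
    {z | u z = t} = {z | gauge {y | u y ≤ t} z = 1} := by
  set K : Set E := {y | u y ≤ t} with hK
  have hKc : Convex ℝ K := by
    have := hc.convex_le t
    simpa [hK] using this
  have hK0 : K ∈ 𝓝 (0 : E) := nhds_of_ball hr h1
  have hcl : IsClosed K := isClosed_le hu continuous_const
  ext z
  show u z = t ↔ gauge K z = 1
  rw [gauge_eq_one_iff_mem_frontier hKc hK0]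
  constructor
  · intro hz
    refine ⟨subset_closure hz.le, fun hi => ?_⟩
    -- push beyond `z`
    have hg : gauge K z < 1 := (interior_subset_gauge_lt_one K hi).out
    obtain ⟨s, hs1, hs⟩ : ∃ s : ℝ, 1 < s ∧ s • z ∈ K := by
      have hcont : Continuous fun s : ℝ => s • z := by fun_prop
      have h2 : ∀ᶠ s in 𝓝 (1 : ℝ), s • z ∈ interior K :=
        hcont.continuousAt.eventually_mem (isOpen_interior.mem_nhds (by simpa using hi))
      obtain ⟨ε, hε, h3⟩ := Metric.eventually_nhds_iff.1 h2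
      refine ⟨1 + ε / 2, by linarith, interior_subset (h3 ?_)⟩
      rw [Real.dist_eq, add_sub_cancel_left, abs_of_pos (by positivity)]
      linarith
    have hs0 : 0 < s := by linarith
    have h4 := hc.2 (mem_univ (s • z)) (mem_univ (0 : E)) (inv_nonneg.2 hs0.le)
      (sub_nonneg.2 (inv_le_one_of_one_le₀ hs1.le)) (by ring : s⁻¹ + (1 - s⁻¹) = 1)
    rw [smul_smul, inv_mul_cancel₀ hs0.ne', one_smul, smul_zero, add_zero, smul_eq_mul,
      smul_eq_mul] at h4
    have h5 : u (s • z) ≤ t := hs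
    have h6 : 0 < 1 - s⁻¹ := sub_pos.2 (inv_lt_one_of_one_lt₀ hs1)
    have h7 : u z < t := by
      have h8 : s⁻¹ * u (s • z) ≤ s⁻¹ * t := mul_le_mul_of_nonneg_left h5 (inv_nonneg.2 hs0.le)
      have h9 : (1 - s⁻¹) * u 0 < (1 - s⁻¹) * t := mul_lt_mul_of_pos_left ho h6
      nlinarith
    exact h7.ne hz
  · rintro ⟨hz1, hz2⟩
    rw [hcl.closure_eq] at hz1
    have hz1' : u z ≤ t := hz1
    refine le_antisymm hz1' (not_lt.1 fun hlt => hz2 ?_)
    exact mem_interior.2 ⟨{y | u y < t}, fun y hy => (le_of_lt hy : u y ≤ t),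
      isOpen_lt hu continuous_const, hlt⟩

/-- **P2-PATCH.** The points of the level set `{u = t}` of a convex function outside the ball
`closedBall y (8 (1 + R/r) ρ)` lie in one preconnected subset of `{u = t} \ closedBall y ρ`. -/
theorem patch (hrank : 1 < Module.rank ℝ E) {u : E → ℝ} (hu : Continuous u)
    (hc : ConvexOn ℝ univ u) {o : E} {t r R : ℝ} (ho : u o < t) (hr : 0 < r)
    (h1 : ball o r ⊆ {y | u y ≤ t}) (h2 : {y | u y ≤ t} ⊆ closedBall o R) (y : E) {ρ : ℝ}
    (hρ : 0 < ρ) :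
    ∃ S : Set E, IsPreconnected S ∧ S ⊆ {z | u z = t} \ closedBall y ρ ∧
      {z | u z = t} \ closedBall y (8 * (1 + R / r) * ρ) ⊆ S := by
  set v : E → ℝ := fun z => u (z + o) with hv
  have hvc : Continuous v := hu.comp (continuous_id.add continuous_const)
  have hvx : ConvexOn ℝ univ v := by
    have := hc.translate_left o
    simpa [hv, Function.comp_def, preimage_univ] using this
  have h1' : ball (0 : E) r ⊆ {y | v y ≤ t} := by
    intro z hz
    refine h1 ?_
    rw [mem_ball, dist_eq_norm, add_sub_cancel_right]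
    rwa [mem_ball_zero_iff] at hz
  have h2' : {y | v y ≤ t} ⊆ closedBall (0 : E) R := by
    intro z hz
    have := h2 (show z + o ∈ {y | u y ≤ t} from hz)
    rw [mem_closedBall, dist_eq_norm, add_sub_cancel_right] at this
    rwa [mem_closedBall_zero_iff]
  have hKc : Convex ℝ {y | v y ≤ t} := by
    have := hvx.convex_le t
    simpa using this
  have hlev := level_eq hvc hvx (by simpa [hv] using ho) hr h1'
  obtain ⟨S, hS1, hS2, hS3⟩ := patch_gauge hrank hKc hr h1' h2' (y - o) hρ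
  rw [← hlev] at hS2 hS3
  refine ⟨(fun z => z + o) '' S, hS1.image _ (by fun_prop), ?_, ?_⟩
  · rintro _ ⟨z, hz, rfl⟩
    obtain ⟨h3, h4⟩ := hS2 hz
    refine ⟨h3, fun h5 => h4 ?_⟩
    rw [mem_closedBall, dist_eq_norm] at h5 ⊢
    rwa [show z - (y - o) = z + o - y by abel]
  · rintro z ⟨h3, h4⟩
    refine ⟨z - o, hS3 ⟨?_, fun h5 => h4 ?_⟩, sub_add_cancel z o⟩
    · show u (z - o + o) = t
      rw [sub_add_cancel]; exact h3
    · rw [mem_closedBall, dist_eq_norm] at h5 ⊢
      rwa [show z - y = z - o - (y - o) by abel]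

end Crest.Agent.R096.Ptc_160
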