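import Crest.Agent.R096.P2l4_565
import Crest.Agent.R096.Gau4_812
import Crest.Agent.R096.Ptc1_160
import Crest.Agent.R096.Spr2_113

/-!
# Row 96 (S0127), p = 2: leaf [A] ONE2 FROM GOODT (helper160)

`GoodT.one2`: the p = 2 data `One2` (565) of one good tile (812).
`patch_ug`, `lip_ug`: patches and Lipschitz constant of a gauge with scale-invariant constants.
-/

set_option autoImplicit false
set_option linter.unusedSectionVars false

open Set Metric MeasureTheory

namespace Crest.Agent.R096.Ont_160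

open Msh_715 (Tiling P)
open Sk2_855 (sk1)
open Sk3_812 (UG GoodT HF GLv)
open P2l_565 (One2 Cov)

section gauge

variable {E : Type*} [NormedAddCommGroup E] [NormedSpace ℝ E] [FiniteDimensional ℝ E]
  {u : E → ℝ} {C : E}

theorem u_center (U : UG u C) : u C = 0 := by
  have := U.hom 0 le_rfl C
  simpa using this

/-- the sublevels are homothetic: balls inside -/
theorem ball_sub (U : UG u C) {r t : ℝ} (hr : ball C r ⊆ {y | u y ≤ 1}) (ht : 0 < t) :
    ball C (t * r) ⊆ {y | u y ≤ t} := by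
  intro y hy
  rw [mem_ball, dist_eq_norm] at hy
  have h1 : C + t⁻¹ • (y - C) ∈ ball C r := by
    rw [mem_ball, dist_eq_norm, add_sub_cancel_left, norm_smul, Real.norm_eq_abs,
      abs_of_pos (inv_pos.2 ht), inv_mul_lt_iff₀ ht]
    exact hy
  have h2 := hr h1
  rw [mem_ofPred_eq, U.hom _ (inv_pos.2 ht).le, inv_mul_le_iff₀ ht, mul_one] at h2
  exact h2

/-- the sublevels are homothetic: balls outside -/
theorem sub_ball (U : UG u C) {R t : ℝ} (hR : {y | u y ≤ 1} ⊆ closedBall C R) (ht : 0 < t) :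
    {y | u y ≤ t} ⊆ closedBall C (t * R) := by
  intro y hy
  have h1 : C + t⁻¹ • (y - C) ∈ {y | u y ≤ 1} := by
    rw [mem_ofPred_eq, U.hom _ (inv_pos.2 ht).le, inv_mul_le_iff₀ ht, mul_one]
    exact hy
  have h2 := hR h1
  rw [mem_closedBall, dist_eq_norm, add_sub_cancel_left, norm_smul, Real.norm_eq_abs,
    abs_of_pos (inv_pos.2 ht), inv_mul_le_iff₀ ht] at h2
  rwa [mem_closedBall, dist_eq_norm]

/-- **patches on the levels of a gauge**, `0 ≤ ρ` -/
theorem patch_ug (hrank : 1 < Module.rank ℝ E) (U : UG u C) {r R : ℝ} (hr0 : 0 < r)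
    (hr : ball C r ⊆ {y | u y ≤ 1}) (hR : {y | u y ≤ 1} ⊆ closedBall C R) {t : ℝ} (ht : 0 < t)
    (y : E) {ρ : ℝ} (hρ : 0 ≤ ρ) :
    ∃ S : Set E, IsPreconnected S ∧ S ⊆ {z | u z = t} \ closedBall y ρ ∧
      {z | u z = t} \ closedBall y (8 * (1 + R / r) * ρ) ⊆ S := by
  have key : ∀ ρ : ℝ, 0 < ρ → ∃ S : Set E, IsPreconnected S ∧
      S ⊆ {z | u z = t} \ closedBall y ρ ∧
      {z | u z = t} \ closedBall y (8 * (1 + R / r) * ρ) ⊆ S := by
    intro ρ hρ
    have h := Ptc_160.patch hrank U.cont U.cvx (o := C) (t := t) (r := t * r) (R := t * R)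
      (by rw [u_center U]; exact ht) (by positivity) (ball_sub U hr ht) (sub_ball U hR ht) y hρ
    rwa [mul_div_mul_left R r ht.ne'] at h
  rcases hρ.eq_or_lt with rfl | hρ
  · refine ⟨{z | u z = t} \ {y}, ?_, ?_, ?_⟩
    · set c : ℝ := 8 * (1 + R / r) with hc
      refine isPreconnected_of_forall_pair fun z hz z' hz' => ?_
      have d1 : 0 < dist z y := dist_pos.2 fun h => hz.2 h
      have d2 : 0 < dist z' y := dist_pos.2 fun h => hz'.2 h
      set m := min (dist z y) (dist z' y) with hm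
      have m0 : 0 < m := lt_min d1 d2
      set ρ : ℝ := m / (2 * (|c| + 1)) with hρ
      have hρ0 : 0 < ρ := by positivity
      obtain ⟨S, hS, h1, h2⟩ := key ρ hρ0
      have hcρ : c * ρ < m := by
        have : c * ρ ≤ |c| * ρ := mul_le_mul_of_nonneg_right (le_abs_self _) hρ0.le
        refine this.trans_lt ?_
        rw [hρ, mul_div_assoc', div_lt_iff₀ (by positivity)]
        nlinarith [abs_nonneg c]
      refine ⟨S, fun w hw => ⟨(h1 hw).1, fun hwy => (h1 hw).2 ?_⟩, h2 ⟨hz.1, fun h => ?_⟩,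
        h2 ⟨hz'.1, fun h => ?_⟩, hS⟩
      · rw [mem_singleton_iff] at hwy
        rw [hwy]
        exact mem_closedBall_self hρ0.le
      · rw [mem_closedBall] at h
        exact absurd (hcρ.trans_le (min_le_left _ _)) (not_lt.2 h)
      · rw [mem_closedBall] at h
        exact absurd (hcρ.trans_le (min_le_right _ _)) (not_lt.2 h)
    · rw [closedBall_zero]
    · rw [mul_zero, closedBall_zero]
  · exact key ρ hρ

theorem le_of_ball (U : UG u C) {r : ℝ} (hr0 : 0 < r) (hr : ball C r ⊆ {y | u y ≤ 1}) (w : E) :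
    u (C + w) ≤ r⁻¹ * ‖w‖ := by
  have hr' : closedBall C r ⊆ {y | u y ≤ 1} := by
    rw [← closure_ball C hr0.ne']
    exact closure_minimal hr (isClosed_le U.cont continuous_const)
  rcases eq_or_ne w 0 with rfl | hw
  · simp [u_center U]
  · have hn : 0 < ‖w‖ := norm_pos_iff.2 hw
    have h1 : C + (r / ‖w‖) • ((C + w) - C) ∈ {y | u y ≤ 1} := by
      refine hr' ?_
      rw [mem_closedBall, dist_eq_norm, add_sub_cancel_left, add_sub_cancel_left, norm_smul,
        Real.norm_eq_abs, abs_of_pos (by positivity), div_mul_cancel₀ _ hn.ne']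
    rw [mem_ofPred_eq, U.hom _ (by positivity), div_mul_eq_mul_div, div_le_one hn] at h1
    rw [inv_mul_eq_div, le_div_iff₀ hr0]
    linarith

theorem u_add_le (U : UG u C) (v w : E) : u (C + (v + w)) ≤ u (C + v) + u (C + w) := by
  have h1 := U.cvx.2 (mem_univ (C + v)) (mem_univ (C + w)) (by norm_num : (0 : ℝ) ≤ 1 / 2)
    (by norm_num : (0 : ℝ) ≤ 1 / 2) (by norm_num)
  have h2 := U.hom (1 / 2) (by norm_num) (C + (v + w))
  have e : C + (1 / 2 : ℝ) • (C + (v + w) - C) = (1 / 2 : ℝ) • (C + v) + (1 / 2 : ℝ) • (C + w) := by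
    module
  rw [e] at h2
  rw [h2] at h1
  simp only [smul_eq_mul] at h1
  linarith

/-- **the Lipschitz constant of a gauge** -/
theorem lip_ug (U : UG u C) {r : ℝ} (hr0 : 0 < r) (hr : ball C r ⊆ {y | u y ≤ 1}) (y z : E) :
    |u y - u z| ≤ r⁻¹ * dist y z := by
  have key : ∀ y z : E, u y - u z ≤ r⁻¹ * dist y z := by
    intro y z
    have h1 := u_add_le U (z - C) (y - z)
    have h2 := le_of_ball U hr0 hr (y - z)
    rw [dist_eq_norm]
    have e1 : C + ((z - C) + (y - z)) = y := by abel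
    have e2 : C + (z - C) = z := by abel
    rw [e1, e2] at h1
    linarith
  rw [abs_le]
  constructor
  · have := key z y
    rw [dist_comm] at this
    linarith
  · exact key y z

end gauge

section tile

variable {E : Type} [NormedAddCommGroup E] [NormedSpace ℝ E] [FiniteDimensional ℝ E]
  [MeasurableSpace E] {Om La : Set E} {ι : Type*} {T : Tiling Om ι} {i : ι}
  {f fi : E → E} {u : E → ℝ} {C : E} {a b : ℝ}

/-- **One2 of a good tile** -/
noncomputable def one2 (h3 : Module.finrank ℝ E = 3) (Q : GoodT T La f i u C a b)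
    (F : HF Om La f fi) {r R : ℝ} (hr0 : 0 < r) (hR0 : 0 ≤ R) (hr : ball C r ⊆ {y | u y ≤ 1})
    (hR : {y | u y ≤ 1} ⊆ closedBall C R) {t0 tm th t1 : ℝ} (ha : a ≤ t0)
    (mh : tm ≤ th) (ht : th ≤ t1) (h1 : t1 ≤ b) {θ0 : ℝ} (θ00 : 0 ≤ θ0)
    (bad0 : volume (Ioo t0 tm \ GLv T f i u a b) ≤ ENNReal.ofReal θ0)
    (Fs : Finset E)
    (rep : ∀ x ∈ Om, T.dim x = 2 → T.cc x ⊆ P (T.H i) → ∃ y ∈ Fs, T.cc y = T.cc x)
    {θf σf : ℝ} (θf0 : 0 ≤ θf) (σf0 : 0 ≤ σf)
    (sc : ∀ x ∈ Fs, ∃ Bad : Set ℝ, MeasurableSet Bad ∧ volume Bad ≤ ENNReal.ofReal θf ∧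
      ∀ ts ∈ Ioo t0 tm, ts ∉ Bad → ∃ (n : ℕ) (y : Fin n → E) (ρ : Fin n → ℝ),
        (∀ m, 0 < ρ m) ∧ ∑ m, ρ m ≤ σf ∧ ∃ η > 0, Cov (T.cc x) f u th ts n y ρ η)
    {D0 : ℝ}
    (spread : ∀ s ∈ GLv T f i u a b, s ∈ Ioo t0 tm → ∃ x1 ∈ sk1 T, ∃ x2 ∈ sk1 T, u (f x1) = s ∧
      u (f x2) = s ∧ D0 ≤ dist (f x1) (f x2))
    (hD0 : 2 * (8 * (1 + R / r) * (Fs.card * σf)) < D0) :
    One2 T La f (P (T.H i)) {y | u y ≤ b} where
  u := u
  cont := Q.ug.cont
  L := r⁻¹
  L0 := (inv_pos.2 hr0).le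
  lip := lip_ug Q.ug hr0 hr
  t0 := t0
  tm := tm
  th := th
  t1 := t1
  mh := mh
  ht := ht
  sub1 := fun y (hy : u y ≤ t1) => hy.trans h1
  G := GLv T f i u a b
  θ0 := θ0
  θ00 := θ00
  bad0 := bad0
  fin := fun s hs => Q.fin hs
  box := by
    intro s hs _ ζ hζ
    obtain ⟨B, η, hη, e, b1, b2, b3, b4, -, b6, b7⟩ := Q.box2 h3 F hs hζ
    exact ⟨B, η, hη, e, b1, b2, b3, b4, b6, b7⟩
  C := 8 * (1 + R / r)
  C0 := by positivity
  patch := by
    intro t ht' y ρ hρ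
    have hrank : 1 < Module.rank ℝ E := by
      rw [← Module.finrank_eq_rank, h3]
      norm_num
    exact patch_ug hrank Q.ug hr0 hr hR (Q.a0.trans_le (ha.trans ht'.1.le)) y hρ.le
  Fs := Fs
  rep := rep
  θf := θf
  σf := σf
  θf0 := θf0
  σf0 := σf0
  sc := sc
  D0 := D0
  spread := spread
  hD0 := hD0

end tile

end Crest.Agent.R096.Ont_160
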