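import Crest.Agent.R096.Ont1_160
import Crest.Agent.R96.Gdt3_538

/-!
# Row 96 (S0127), p = 2: leaf [A] ONE2 FROM GOODT (helper160), part 2

`bad_of`: the measure of the bad levels, under the hypotheses of 538's `goodT_of`.
`ball_tile`, `sub_tile`: inner and outer ball of `{u ≤ 1}` for the gauge of `A '' P (T.H i)`.
`one2_tile`: `One2` of a tile, everything except the face data.
-/

set_option autoImplicit false
set_option linter.unusedSectionVars false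
set_option maxHeartbeats 400000

open Set Metric MeasureTheory

namespace Crest.Agent.R096.Ont_160

open Crest.Agent.R096.Msh_715
open Crest.Agent.R096.Sk2_855 (sk1)
open Crest.Agent.R096.Ub_113 (gau le_gau exists_gau convex_gau continuous_gau)
open Crest.Agent.R096.Sk3_812
open P2l_565 (One2 Cov)

variable {E : Type} [NormedAddCommGroup E] [NormedSpace ℝ E] [FiniteDimensional ℝ E]
variable {Om La : Set E} {ι : Type*}

/-- **bad levels** under the hypotheses of 538's `goodT_of` (without `count`) -/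
theorem bad_of {T : Tiling Om ι} {f : E → E} {i : ι} (hne : (T.H i).Nonempty) {c : E}
    (hc : c ∈ I (T.H i)) (A : E ≃ᵃ[ℝ] E) (hf : ContinuousOn f Om) {N : Set E}
    {Λ ε β η' : ℝ} (hΛ0 : 0 ≤ Λ) (hΛ : ∀ h ∈ GH (T.H i) c A, ‖h.1‖ ≤ Λ) (hε : 0 < ε)
    (hβ : 0 < β) (hΛε : 4 * (Λ * ε) ≤ β)
    (hNc : ∀ x, Crs T i x → T.cc x ⊆ N)
    (near : ∀ x ∈ sk1 T, x ∈ N → ‖f x - A x‖ ≤ ε)
    (gap : ∀ x ∈ sk1 T, x ∈ N → x ∉ P (T.H i) → ¬ Crs T i x →
      1 + 4 * β ≤ ug (T.H i) hne c A (A x))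
    (bv : ∀ x, Crs T i x → ∀ p q, T.cc x = segment ℝ p q →
      ∃ F : ℝ → ℝ, MonotoneOn F (Icc 0 1) ∧ F 1 - F 0 ≤ η' ∧
        ∀ s ∈ Icc (0:ℝ) 1, ∀ t ∈ Icc (0:ℝ) 1, s ≤ t →
          ‖(f (p + t • (q - p)) - A (p + t • (q - p))) -
            (f (p + s • (q - p)) - A (p + s • (q - p)))‖ ≤ F t - F s) :
    volume (Ioo (1 + β) (1 + 3 * β) \
      GLv T f i (ug (T.H i) hne c A) (1 + β) (1 + 3 * β)) ≤
      ENNReal.ofReal ((Nat.card (KT T i) : ℝ) * (2 * (Λ * η'))) := by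
  set u := ug (T.H i) hne c A with hu
  have hΛε0 : 0 ≤ Λ * ε := by positivity
  have hlip : ∀ y z, u y ≤ u z + Λ * ‖y - z‖ := fun y z => R96.Gdt_538.gau_lip hΛ y z
  have hn2 : ∀ x ∈ sk1 T, x ∈ N → u (A x) ≤ u (f x) + Λ * ε := fun x hx hxN =>
    (hlip (A x) (f x)).trans (by
      have := mul_le_mul_of_nonneg_left (near x hx hxN) hΛ0
      rw [norm_sub_rev]
      linarith)
  have htile : ∀ x, x ∈ P (T.H i) → u (A x) ≤ 1 := fun x hx => by
    rw [hu, ug_le_one_iff hne hc A, A.symm_apply_apply]; exact hx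
  have houtv : ∀ x, Crs T i x → ∀ w ∈ T.cc x, T.dim w = 0 → w ∉ P (T.H i) →
      1 + 4 * β - Λ * ε ≤ u (f w) := by
    intro x hx w hw hw0 hwi
    have hwO : w ∈ Om := T.cc_sub_Om hx.1 hw
    have hws : w ∈ sk1 T := ⟨hwO, by rw [hw0]; exact zero_le_one⟩
    have h1 := gap w hws (hNc x hx hw) hwi (fun h => by
      have h2 := h.2.1
      rw [hw0] at h2
      exact absurd h2 (by norm_num))
    have h2 := hn2 w hws (hNc x hx hw)
    linarith
  set a := 1 + β with ha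
  set b := 1 + 3 * β with hb
  set Bad : KT T i → Set ℝ := fun k => {t | t ∈ Ioo a b ∧ ∃ z ∈ T.cc k.e, ∃ z' ∈ T.cc k.e,
    z ≠ z' ∧ u (f z) = t ∧ u (f z') = t} with hBad
  have hbad : ∀ k, volume (Bad k) ≤ ENNReal.ofReal (2 * (Λ * η')) := by
    intro k
    have hk := k.crs
    obtain ⟨p, q, hpq, hp0, hq0, hp, hq⟩ :=
      (Crest.Agent.R096.Tgr_335.Crs.ends (T := T) (i := i) (e := k.e)
        ⟨hk.1, hk.2.1, hk.2.2.1, hk.2.2.2⟩)
    obtain ⟨F, hF, hF1, hFb⟩ := bv _ hk p q hpq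
    have hmem : ∀ s ∈ Icc (0:ℝ) 1, p + s • (q - p) ∈ T.cc k.e := by
      intro s hs
      rw [hpq, segment_eq_image']
      exact ⟨s, hs, rfl⟩
    have hsk : T.cc k.e ⊆ sk1 T := cc_sub_sk1 hk.1 hk.2.1
    have hlin : ∀ s : ℝ, A (p + s • (q - p)) = A p + s • A.linear (q - p) := by
      intro s
      have h1 := A.map_vadd p (s • (q - p))
      simp only [vadd_eq_add, map_smul] at h1
      rw [add_comm p, h1, add_comm]
    have h1 := R96.Gdt_538.edge_once (hG := GH_ne hne c A) hΛ0 hΛ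
      (γ := fun s => f (p + s • (q - p))) (δ := fun s => A (p + s • (q - p)))
      (hf.comp (by fun_prop) fun s hs => T.cc_sub_Om hk.1 (hmem s hs))
      (p := A p) (v := A.linear (q - p)) hlin hε
      (fun s hs => near _ (hsk (hmem s hs)) (hNc _ hk (hmem s hs)))
      hF hFb (htile p hp) (a0 := a) (b0 := b) (by rw [ha]; linarith)
      (by
        have h2 := houtv _ hk q (by rw [hpq]; exact right_mem_segment _ _ _) hq0 hq
        have h3 : (p + (1:ℝ) • (q - p)) = q := by rw [one_smul]; abel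
        rw [h3, hb]
        have h4 : u (f q) = gau (GH (T.H i) c A) (GH_ne hne c A) (f q) := rfl
        rw [← h4]
        linarith)
    refine (measure_mono ?_).trans (h1.trans (ENNReal.ofReal_le_ofReal ?_))
    · rintro t ⟨ht, z, hz, z', hz', hzz, e1, e2⟩
      rw [hpq, segment_eq_image'] at hz hz'
      obtain ⟨s, hs, rfl⟩ := hz
      obtain ⟨s', hs', rfl⟩ := hz'
      refine ⟨ht, s, hs, s', hs', ?_, e1, e2⟩
      rintro rfl
      exact hzz rfl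
    · have := mul_le_mul_of_nonneg_left hF1 hΛ0
      linarith
  have hcov : Ioo a b \ GLv T f i u a b ⊆ ⋃ k, Bad k := by
    rintro t ⟨ht, hn⟩
    have h : ¬ ∀ x, Crs T i x → ∀ z ∈ T.cc x, ∀ z' ∈ T.cc x,
        u (f z) = t → u (f z') = t → z = z' := fun h => hn ⟨ht, h⟩
    push Not at h
    obtain ⟨x, hx, z, hz, z', hz', e1, e2, hzz⟩ := h
    obtain ⟨k, hk⟩ := exists_KT hx
    have hcc : T.cc x = T.cc k.e := T.cc_eq_of_mem_oc k.eOm hk
    rw [hcc] at hz hz'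
    exact mem_iUnion.2 ⟨k, ht, z, hz, z', hz', hzz, e1, e2⟩
  refine (measure_mono hcov).trans ?_
  cases nonempty_fintype (KT T i)
  refine (measure_iUnion_fintype_le _ _).trans ?_
  refine (Finset.sum_le_sum fun k _ => hbad k).trans ?_
  rw [Finset.sum_const, Finset.card_univ, nsmul_eq_mul, Nat.card_eq_fintype_card,
    ENNReal.ofReal_mul (Nat.cast_nonneg _), ENNReal.ofReal_natCast]

/-! ### inner and outer ball -/

section balls

variable {H : Finset ((E →L[ℝ] ℝ) × ℝ)} (hne : H.Nonempty) {c : E} (hc : c ∈ I H)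
  (A : E ≃ᵃ[ℝ] E) {κ K ρ D : ℝ}

theorem sub_apply (x y : E) : A x - A y = A.linear (x - y) := by
  have := A.toAffineMap.linearMap_vsub x y
  simp only [AffineEquiv.coe_toAffineMap, AffineEquiv.linear_toAffineMap, vsub_eq_sub,
    LinearEquiv.coe_coe] at this
  exact this.symm

include hc in
theorem ball_tile (hκ : 0 < κ) (hA : ∀ v, κ * ‖v‖ ≤ ‖A.linear v‖) (hB : closedBall c ρ ⊆ P H) :
    ball (A c) (κ * ρ) ⊆ {y | ug H hne c A y ≤ 1} := by
  intro y hy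
  show ug H hne c A y ≤ 1
  rw [ug_le_one_iff hne hc A]
  refine hB ?_
  rw [mem_closedBall, dist_eq_norm]
  have h1 := hA (A.symm y - c)
  rw [← sub_apply, A.apply_symm_apply] at h1
  rw [mem_ball, dist_eq_norm] at hy
  exact le_of_mul_le_mul_left (h1.trans hy.le) hκ

include hc in
theorem sub_tile (hK : 0 ≤ K) (hA : ∀ v, ‖A.linear v‖ ≤ K * ‖v‖) (hB : P H ⊆ closedBall c D) :
    {y | ug H hne c A y ≤ 1} ⊆ closedBall (A c) (K * D) := by
  intro y (hy : ug H hne c A y ≤ 1)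
  rw [ug_le_one_iff hne hc A] at hy
  have h1 := hB hy
  rw [mem_closedBall, dist_eq_norm] at h1 ⊢
  have h2 := hA (A.symm y - c)
  rw [← sub_apply, A.apply_symm_apply] at h2
  exact h2.trans (mul_le_mul_of_nonneg_left h1 hK)

include hc in
/-- **patches for the gauge of a tile** -/
theorem patch_tile (hrank : 1 < Module.rank ℝ E) (hcpt : IsCompact (P H)) (hκ : 0 < κ)
    (hρ : 0 < ρ) (hK : 0 ≤ K) (hA : ∀ v, κ * ‖v‖ ≤ ‖A.linear v‖)
    (hA' : ∀ v, ‖A.linear v‖ ≤ K * ‖v‖) (hB : closedBall c ρ ⊆ P H) (hD : P H ⊆ closedBall c D)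
    {t : ℝ} (ht : 0 < t) (y : E) {r : ℝ} (hr : 0 ≤ r) :
    ∃ S : Set E, IsPreconnected S ∧ S ⊆ {z | ug H hne c A z = t} \ closedBall y r ∧
      {z | ug H hne c A z = t} \ closedBall y (8 * (1 + (K * D) / (κ * ρ)) * r) ⊆ S :=
  patch_ug hrank (ug_spec hne hc A hcpt) (by positivity) (ball_tile hne hc A hκ hA hB)
    (sub_tile hne hc A hK hA' hD) ht y hr

end balls

/-- representatives of the 2-cells of a tile -/
theorem exists_Fs (T : Tiling Om ι) (i : ι) :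
    ∃ Fs : Finset E, (∀ y ∈ Fs, y ∈ Om ∧ T.dim y = 2 ∧ T.cc y ⊆ P (T.H i)) ∧
      (∀ y ∈ Fs, ∀ y' ∈ Fs, T.cc y = T.cc y' → y = y') ∧
      ∀ x ∈ Om, T.dim x = 2 → T.cc x ⊆ P (T.H i) → ∃ y ∈ Fs, T.cc y = T.cc x := by
  classical
  set S : Set (Set E) := {c | ∃ x ∈ Om, T.dim x = 2 ∧ T.cc x ⊆ P (T.H i) ∧ c = T.cc x} with hS
  have hfin : S.Finite := by
    refine (T.finite_cells (T.cpt i) (T.sub i)).subset ?_
    rintro _ ⟨x, hx, -, hsub, rfl⟩
    exact ⟨⟨x, hx, rfl⟩, x, T.self_mem_cc x, hsub (T.self_mem_cc x)⟩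
  choose! g hg1 hg2 hg3 hg4 using fun c (hc : c ∈ S) => hc
  refine ⟨hfin.toFinset.image g, ?_, ?_, ?_⟩
  · intro y hy
    obtain ⟨c, hc, rfl⟩ := Finset.mem_image.1 hy
    rw [Set.Finite.mem_toFinset] at hc
    exact ⟨hg1 c hc, hg2 c hc, hg3 c hc⟩
  · intro y hy y' hy' h
    obtain ⟨c, hc, rfl⟩ := Finset.mem_image.1 hy
    obtain ⟨c', hc', rfl⟩ := Finset.mem_image.1 hy'
    rw [Set.Finite.mem_toFinset] at hc hc'
    rw [← hg4 c hc, ← hg4 c' hc'] at h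
    rw [h]
  · intro x hx hd hsub
    have hc : T.cc x ∈ S := ⟨x, hx, hd, hsub, rfl⟩
    exact ⟨g (T.cc x), Finset.mem_image_of_mem _ ((Set.Finite.mem_toFinset _).2 hc),
      (hg4 _ hc).symm⟩

/-- the number of the 2-cells of a tile is at most the number of its neighbours -/
theorem card_Fs (h3 : Module.finrank ℝ E = 3) (T : Tiling Om ι) (i : ι) {Fs : Finset E}
    (h1 : ∀ y ∈ Fs, y ∈ Om ∧ T.dim y = 2 ∧ T.cc y ⊆ P (T.H i))
    (h2 : ∀ y ∈ Fs, ∀ y' ∈ Fs, T.cc y = T.cc y' → y = y') :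
    Fs.card ≤ {j | (P (T.H j) ∩ P (T.H i)).Nonempty}.ncard := by
  classical
  have key : ∀ y ∈ Fs, ∃ j, T.cc y = P (T.H i) ∩ P (T.H j) := by
    intro y hy
    obtain ⟨hyO, hd, hsub⟩ := h1 y hy
    obtain ⟨p, q, -, hat, hcc⟩ := T.two_tiles hyO (by omega)
    have hi : i ∈ T.at_ y := hsub (T.self_mem_cc y)
    rw [hat] at hi
    rcases hi with rfl | hi
    · exact ⟨q, hcc⟩
    · rw [mem_singleton_iff] at hi
      subst hi
      exact ⟨p, hcc.trans (inter_comm _ _)⟩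
  have : Nonempty ι := ⟨i⟩
  choose! g hg using key
  rw [← Set.ncard_coe_finset]
  refine Set.ncard_le_ncard_of_injOn g (fun y hy => ?_) (fun y hy y' hy' h => ?_)
    (T.finite_tiles (T.cpt i) (T.sub i))
  · have := hg y hy
    refine ⟨y, ?_⟩
    have h3 : y ∈ T.cc y := T.self_mem_cc y
    rw [this] at h3
    exact ⟨h3.2, h3.1⟩
  · refine h2 y hy y' hy' ?_
    rw [hg y hy, hg y' hy', h]

/-- **spread** for the gauge of a tile, levels below `tm` -/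
theorem spread_tile [Nontrivial E] {T : Tiling Om ι} {f fi : E → E} {i : ι}
    (hne : (T.H i).Nonempty) {c : E} (A : E ≃ᵃ[ℝ] E) {a b : ℝ}
    (Q : GoodT T La f i (ug (T.H i) hne c A) (A c) a b) (F : HF Om La f fi)
    {Λ ε κ β' εv tm : ℝ} (hΛ0 : 0 ≤ Λ) (hΛ : ∀ h ∈ GH (T.H i) c A, ‖h.1‖ ≤ Λ) (hκ : 0 ≤ κ)
    (hA : ∀ v, κ * ‖v‖ ≤ ‖A.linear v‖)
    (near : ∀ e, Crs T i e → ∀ z ∈ T.cc e, ‖f z - A z‖ ≤ ε)
    (hN : Spr_113.NearV T i (ug (T.H i) hne c (AffineEquiv.refl ℝ E)) β' εv)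
    (htm : tm + Λ * ε ≤ 1 + β') :
    ∀ s ∈ Ioo a b, s < tm → ∃ x1 ∈ sk1 T, ∃ x2 ∈ sk1 T,
      ug (T.H i) hne c A (f x1) = s ∧ ug (T.H i) hne c A (f x2) = s ∧
      κ * (diam (P (T.H i)) / 2 - 2 * εv) - 2 * ε ≤ dist (f x1) (f x2) := by
  intro s hs hst
  refine Spr_113.spread Q F hN (δ := Λ * ε) (fun e he z hz => ?_) (A := A) hκ (fun x y => ?_)
    near s hs (by linarith)
  · refine Spr_113.gauge_le hΛ0 (fun y y' => ?_) (A := A) (fun x => ?_) (near e he z hz)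
    · rw [abs_le]
      constructor
      · have := R96.Gdt_538.gau_lip (hG := GH_ne hne c A) hΛ y' y
        unfold ug
        rw [norm_sub_rev] at this
        linarith
      · have := R96.Gdt_538.gau_lip (hG := GH_ne hne c A) hΛ y y'
        unfold ug
        linarith
    · exact ug_comp hne A x
  · rw [sub_apply]
    exact hA _

/-- **One2 of a tile**, everything except the face data; window `1 + β ≤ t0`, `t1 ≤ 1 + 3 β` -/
noncomputable def one2_tile (h3 : Module.finrank ℝ E = 3) {T : Tiling Om ι} {f fi : E → E} {i : ι}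
    (F : HF Om La f fi) (hne : (T.H i).Nonempty) {c : E} (hc : c ∈ I (T.H i)) (A : E ≃ᵃ[ℝ] E)
    {β : ℝ} (Q : GoodT T La f i (ug (T.H i) hne c A) (A c) (1 + β) (1 + 3 * β))
    {κ K ρ D : ℝ} (hκ : 0 < κ) (hρ : 0 < ρ) (hK : 0 ≤ K) (hD0 : 0 ≤ D)
    (hA : ∀ v, κ * ‖v‖ ≤ ‖A.linear v‖)
    (hA' : ∀ v, ‖A.linear v‖ ≤ K * ‖v‖) (hB : closedBall c ρ ⊆ P (T.H i))
    (hD : P (T.H i) ⊆ closedBall c D)
    {ε β' εv : ℝ} (near : ∀ e, Crs T i e → ∀ z ∈ T.cc e, ‖f z - A z‖ ≤ ε)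
    (hN : Spr_113.NearV T i (ug (T.H i) hne c (AffineEquiv.refl ℝ E)) β' εv)
    {t0 tm th t1 : ℝ} (ht0 : 1 + β ≤ t0) (mh : tm ≤ th) (ht : th ≤ t1) (h1 : t1 ≤ 1 + 3 * β)
    (htm : tm + (κ * ρ)⁻¹ * ε ≤ 1 + β')
    {θ0 : ℝ} (θ00 : 0 ≤ θ0)
    (bad : volume (Ioo (1 + β) (1 + 3 * β) \
      GLv T f i (ug (T.H i) hne c A) (1 + β) (1 + 3 * β)) ≤ ENNReal.ofReal θ0)
    (Fs : Finset E)
    (rep : ∀ x ∈ Om, T.dim x = 2 → T.cc x ⊆ P (T.H i) → ∃ y ∈ Fs, T.cc y = T.cc x)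
    {θf σf : ℝ} (θf0 : 0 ≤ θf) (σf0 : 0 ≤ σf)
    (sc : ∀ x ∈ Fs, ∃ Bad : Set ℝ, MeasurableSet Bad ∧ volume Bad ≤ ENNReal.ofReal θf ∧
      ∀ ts ∈ Ioo t0 tm, ts ∉ Bad → ∃ (n : ℕ) (y : Fin n → E) (ρ : Fin n → ℝ),
        (∀ m, 0 < ρ m) ∧ ∑ m, ρ m ≤ σf ∧
          ∃ η > 0, Cov (T.cc x) f (ug (T.H i) hne c A) th ts n y ρ η)
    (hS : 2 * (8 * (1 + (K * D) / (κ * ρ)) * (Fs.card * σf)) <
      κ * (diam (P (T.H i)) / 2 - 2 * εv) - 2 * ε) :
    One2 T La f (P (T.H i)) {y | ug (T.H i) hne c A y ≤ 1 + 3 * β} :=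
  one2 h3 Q F (r := κ * ρ) (R := K * D) (by positivity) (by positivity)
    (ball_tile hne hc A hκ hA hB) (sub_tile hne hc A hK hA' hD) ht0 mh ht h1 θ00
    ((measure_mono (sdiff_subset_sdiff_left (Ioo_subset_Ioo ht0 (mh.trans (ht.trans h1))))).trans bad)
    Fs rep θf0 σf0 sc (D0 := κ * (diam (P (T.H i)) / 2 - 2 * εv) - 2 * ε)
    (fun s hs hst => by
      have : Nontrivial E := Module.nontrivial_of_finrank_pos (R := ℝ) (by rw [h3]; norm_num)
      exact spread_tile hne A Q F (Λ := (κ * ρ)⁻¹) (by positivity)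
        (R96.Gdt_538.GH_norm hc A hρ hκ hB hA) hκ.le hA near hN htm s hs.1 hst.2) hS

end Crest.Agent.R096.Ont_160
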