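import Crest.Agent.R096.Mnt1_189

/-!
# Row 96, DOORS-TOWER (helper117): 189's `exists_twrsT` with the ORDER of the windows (688 #12211)

`exists_twrsO` : for a predicate `ea` on the families, the windows of the families with `ea` come first:
there is `jm ≤ n c` with: for `ea a` the pattern is final from `jm` on, for `¬ ea a` it is the trace up
to `jm`.
-/

set_option autoImplicit false

namespace Crest.Agent.R096.Ord_117

open Crest.Agent.R096.St_147 Crest.Agent.R096.Seq_213 Crest.Agent.R096.Door_501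
  Crest.Agent.R096.Qp_106 Crest.Agent.R096.Twr_438 Crest.Agent.R096.Mnt_189 Classical

section seq

variable {ι Φ W : Type} {M : MeshC ι Φ W} {k : ι} {Vx Ed : Type} {S : Shell M k Vx Ed}
variable {J : Type}

/-- the tower placed in the window `[N, N + n)` -/
theorem exists_windowO (i0 : J) {R : J → Vx → Prop} {L : St S.sph (fun _ : J => true) → Prop}
    {K D : Set W} {n : ℕ} {s t : St S.sph (fun _ : J => true)} (h : Chn (TameT R L K D) n s t)
    (hLs : L s) (hL : L t) (hs : ∀ w ∈ s.P, ∃ e, w ∈ S.OnE e) (N : ℕ) :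
    ∃ T : Twr S J, T.pat 0 = s ∧ (∀ j, N + n ≤ j → T.pat j = t ∧ (T.mv j).Qv = ∅) ∧
      (∀ j, j < N → (T.mv j).Qv = ∅) ∧ (∀ j, Tm R L (T.pat j) (T.mv j)) ∧
      (∀ j, ∀ x ∈ (T.pat j).P, x ∉ K → x ∈ (T.pat (j + 1)).P) ∧
      (∀ j, ∀ x ∈ (T.pat (j + 1)).P, x ∉ D → x ∈ (T.pat j).P) ∧
      ∀ j, j ≤ N → T.pat j = s := by
  induction N with
  | zero =>
    obtain ⟨T, t1, t2, t3, t4, t5⟩ := exists_twrT i0 h hL hs
    exact ⟨T, t1, fun j hj => t2 j (by omega), fun j hj => absurd hj (Nat.not_lt_zero j), t3, t4, t5,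
      fun j hj => by rw [Nat.le_zero.1 hj]; exact t1⟩
  | succ N ih =>
    obtain ⟨T, t1, t2, t3, t4, t5, t6, t7⟩ := ih
    refine ⟨consT (Move.triv s i0 hs) (triv_good s i0 hs) T t1, rfl, ?_, ?_, ?_, ?_, ?_, ?_⟩
    · intro j hj
      cases j with
      | zero => omega
      | succ j => exact t2 j (by omega)
    · intro j hj
      cases j with
      | zero => rfl
      | succ j => exact t3 j (by omega)
    · intro j
      cases j with
      | zero => exact triv_tm s i0 hs hLs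
      | succ j => exact t4 j
    · intro j
      cases j with
      | zero =>
        intro x hx _
        show x ∈ (T.pat 0).P
        rw [t1]
        exact hx
      | succ j => exact t5 j
    · intro j
      cases j with
      | zero =>
        intro x hx _
        have hx : x ∈ (T.pat 0).P := hx
        rw [t1] at hx
        exact hx
      | succ j => exact t6 j
    · intro j hj
      cases j with
      | zero => rfl
      | succ j => exact t7 j (by omega)

end seq

/-- offsets in two groups: the windows of `ea` come first -/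
theorem exists_offsetsO {C : Type} (ea : C → Prop) (n : C → ℕ) (F : Finset C) :
    ∃ (N : C → ℕ) (B jm : ℕ), (∀ a ∈ F, N a + n a ≤ B) ∧
      (∀ a ∈ F, ∀ b ∈ F, a ≠ b → N a + n a ≤ N b ∨ N b + n b ≤ N a) ∧ jm ≤ B ∧
      (∀ a ∈ F, ea a → N a + n a ≤ jm) ∧ ∀ a ∈ F, ¬ ea a → jm ≤ N a := by
  obtain ⟨N1, B1, h1, h2⟩ := exists_offsets n (F.filter ea)
  obtain ⟨N2, B2, g1, g2⟩ := exists_offsets n (F.filter fun a => ¬ ea a)
  refine ⟨fun a => if ea a then N1 a else B1 + N2 a, B1 + B2, B1, ?_, ?_, Nat.le_add_right _ _, ?_, ?_⟩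
  · intro a ha
    by_cases h : ea a
    · have := h1 a (Finset.mem_filter.2 ⟨ha, h⟩)
      simp only [h, if_true]
      omega
    · have := g1 a (Finset.mem_filter.2 ⟨ha, h⟩)
      simp only [h, if_false]
      omega
  · intro a ha b hb hab
    by_cases h : ea a
    · have e1 := h1 a (Finset.mem_filter.2 ⟨ha, h⟩)
      by_cases h' : ea b
      · have := h2 a (Finset.mem_filter.2 ⟨ha, h⟩) b (Finset.mem_filter.2 ⟨hb, h'⟩) hab
        simp only [h, h', if_true]
        exact this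
      · simp only [h, h', if_true, if_false]
        left; omega
    · by_cases h' : ea b
      · have e1 := h1 b (Finset.mem_filter.2 ⟨hb, h'⟩)
        simp only [h, h', if_true, if_false]
        right; omega
      · have := g2 a (Finset.mem_filter.2 ⟨ha, h⟩) b (Finset.mem_filter.2 ⟨hb, h'⟩) hab
        simp only [h, h', if_false]
        omega
  · intro a ha h
    have := h1 a (Finset.mem_filter.2 ⟨ha, h⟩)
    simp only [h, if_true]
    exact this
  · intro a ha h
    simp only [h, if_false]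
    omega

variable {ι0 Φ0 W J C : Type} {M0 : MeshC ι0 Φ0 W} {κ : Type} {k0 : κ → ι0}
  {Vx Ed : κ → Type} {fam : J → C}

/-- **the towers exist, monotone**, with the order of the windows -/
theorem exists_twrsO (ea : C → Prop) [∀ c, Fintype (Ed c)] [Nonempty J]
    {S : ∀ c, Shell M0 (k0 c) (Vx c) (Ed c)} {s : GSt M0 fam}
    {d : ∀ c (_ : C), St (S c).sph (fun _ : J => true)} (D : TIn S s d) (m : κ → ℕ) :
    ∃ (n : κ → ℕ) (T : Twrs S n s), (∀ c, 0 < n c ∧ m c ≤ n c) ∧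
      (∀ c a, ((T.tw c a).pat (n c)).P = (d c a).P ∧
        (∀ w ∈ (d c a).P, ((T.tw c a).pat (n c)).lab w = (d c a).lab w) ∧
        ∀ F, ∀ w ∈ (d c a).P, w ∈ (S c).sph.On F →
          ((T.tw c a).pat (n c)).mu F w = (d c a).mu F w) ∧
      (∀ c a, (T.tw c a).pat 0 = trace (S c) s a) ∧
      (∀ c a j, Fits (trace (S c) s a) (d c a) ((T.tw c a).pat j)) ∧
      (∀ c a j, ∀ v ∈ ((T.tw c a).mv j).Qv,
        Rgn (S c) (D.v0 c a) (D.v1 c a) (trace (S c) s a) (d c a) ((T.tw c a).mv j).i0 v) ∧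
      (∀ c a j, ∀ w ∈ (d c a).P, w ∈ ((T.tw c a).pat j).P → w ∈ ((T.tw c a).pat (j + 1)).P) ∧
      (∀ c a j, ∀ w ∈ (trace (S c) s a).P, w ∈ ((T.tw c a).pat (j + 1)).P →
        w ∈ ((T.tw c a).pat j).P) ∧
      ∀ c, ∃ jm ≤ n c,
        (∀ a, ea a → ∀ j, jm ≤ j → (T.tw c a).pat j = (T.tw c a).pat (n c) ∧
          ((T.tw c a).mv j).Qv = ∅) ∧
        ∀ a, ¬ ea a → (∀ j, j ≤ jm → (T.tw c a).pat j = trace (S c) s a) ∧
          ∀ j, j < jm → ((T.tw c a).mv j).Qv = ∅ := by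
  obtain ⟨i0⟩ := ‹Nonempty J›
  have hch : ∀ c a, ∃ n u, Chn (TameT (Rgn (S c) (D.v0 c a) (D.v1 c a) (trace (S c) s a) (d c a))
      (Fits (trace (S c) s a) (d c a)) {w | w ∈ (trace (S c) s a).P} {w | w ∈ (d c a).P}) n
        (trace (S c) s a) u ∧
      Fits (trace (S c) s a) (d c a) u ∧ u.P = (d c a).P ∧
      (∀ w ∈ (d c a).P, u.lab w = (d c a).lab w) ∧
      ∀ F, ∀ w ∈ (d c a).P, w ∈ (S c).sph.On F → u.mu F w = (d c a).mu F w := fun c a =>
    exists_chainT ((S c).sphSh_Sph (D.sph c)) ((S c).sphSh_Circ (D.circ c))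
      ((S c).sphSh_Con (D.con c)) (D.hv0 c a) (D.hv1 c a) (fun _ _ => rfl) _ _
      (fun w hw => (mem_trace.1 hw).2.2) (D.tgt c a)
  choose nn u c1 c2 c3 c4 c5 using hch
  have hF : ∀ c, ∃ (N : C → ℕ) (B jm : ℕ), (∀ a ∈ (D.fin_c c).toFinset, N a + nn c a ≤ B) ∧
      (∀ a ∈ (D.fin_c c).toFinset, ∀ b ∈ (D.fin_c c).toFinset, a ≠ b →
        N a + nn c a ≤ N b ∨ N b + nn c b ≤ N a) ∧ jm ≤ B ∧
      (∀ a ∈ (D.fin_c c).toFinset, ea a → N a + nn c a ≤ jm) ∧
      ∀ a ∈ (D.fin_c c).toFinset, ¬ ea a → jm ≤ N a := fun c => exists_offsetsO ea (nn c) _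
  choose N B jm hB hdis hjB hea hla using hF
  have hs : ∀ c a, ∀ w ∈ (trace (S c) s a).P, ∃ e, w ∈ (S c).OnE e :=
    fun c a w hw => (mem_trace.1 hw).2.2
  have hLs : ∀ c a, Fits (trace (S c) s a) (d c a) (trace (S c) s a) :=
    fun c a w hw => Or.inl ⟨hw, rfl, fun _ _ => rfl⟩
  have htw : ∀ c a, ∃ T : Twr (S c) J, T.pat 0 = trace (S c) s a ∧
      (∀ j, B c + 1 + m c ≤ j → (T.pat j).P = (d c a).P ∧
        (∀ w ∈ (d c a).P, (T.pat j).lab w = (d c a).lab w) ∧
        ∀ F, ∀ w ∈ (d c a).P, w ∈ (S c).sph.On F → (T.pat j).mu F w = (d c a).mu F w) ∧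
      (∀ j, Tm (Rgn (S c) (D.v0 c a) (D.v1 c a) (trace (S c) s a) (d c a))
        (Fits (trace (S c) s a) (d c a)) (T.pat j) (T.mv j)) ∧
      (∀ j, (T.mv j).Qv.Nonempty → a ∈ (D.fin_c c).toFinset ∧ N c a ≤ j ∧ j < N c a + nn c a) ∧
      (∀ j, ∀ x ∈ (T.pat j).P, x ∉ (trace (S c) s a).P → x ∈ (T.pat (j + 1)).P) ∧
      (∀ j, ∀ x ∈ (T.pat (j + 1)).P, x ∉ (d c a).P → x ∈ (T.pat j).P) ∧
      (ea a → ∀ j, jm c ≤ j → T.pat j = T.pat (B c + 1 + m c) ∧ (T.mv j).Qv = ∅) ∧
      (¬ ea a → (∀ j, j ≤ jm c → T.pat j = trace (S c) s a) ∧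
        ∀ j, j < jm c → (T.mv j).Qv = ∅) := by
    intro c a
    by_cases ha : a ∈ (D.fin_c c).toFinset
    · obtain ⟨T, t1, t2, t3, t4, t5, t6, t7⟩ :=
        exists_windowO i0 (c1 c a) (hLs c a) (c2 c a) (hs c a) (N c a)
      refine ⟨T, t1, fun j hj => ?_, t4, fun j hj => ⟨ha, ?_, ?_⟩, t5, t6, fun he j hj => ?_,
        fun he => ⟨fun j hj => t7 j (hj.trans (hla c a ha he)),
          fun j hj => t3 j (lt_of_lt_of_le hj (hla c a ha he))⟩⟩
      · have h1 := hB c a ha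
        rw [(t2 j (by omega)).1]
        exact ⟨c3 c a, c4 c a, c5 c a⟩
      · by_contra h
        rw [t3 j (not_le.1 h)] at hj
        exact Finset.not_nonempty_empty hj
      · by_contra h
        rw [(t2 j (not_lt.1 h)).2] at hj
        exact Finset.not_nonempty_empty hj
      · have k1 := hea c a ha he
        have k2 := hjB c
        refine ⟨?_, (t2 j (by omega)).2⟩
        rw [(t2 j (by omega)).1, (t2 (B c + 1 + m c) (by omega)).1]
    · have h1 : (trace (S c) s a).P = ∅ := by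
        by_contra h
        exact ha ((D.fin_c c).mem_toFinset.2 (Or.inl (Finset.nonempty_iff_ne_empty.2 h)))
      have h2 : (d c a).P = ∅ := by
        by_contra h
        exact ha ((D.fin_c c).mem_toFinset.2 (Or.inr (Finset.nonempty_iff_ne_empty.2 h)))
      refine ⟨idle (trace (S c) s a) i0 (hs c a), rfl, fun j _ => ?_,
        fun j => triv_tm _ i0 (hs c a) (hLs c a), fun j hj => ?_, fun j x hx _ => hx,
        fun j x hx _ => hx, fun _ j _ => ⟨rfl, rfl⟩, fun _ => ⟨fun j _ => rfl, fun j _ => rfl⟩⟩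
      · refine ⟨h1.trans h2.symm, fun w hw => ?_, fun F w hw => ?_⟩
        · rw [h2] at hw
          exact absurd hw (Finset.notMem_empty w)
        · rw [h2] at hw
          exact absurd hw (Finset.notMem_empty w)
      · exact absurd hj Finset.not_nonempty_empty
  choose T t1 t2 t3 t4 t5 t6 t7 t8 using htw
  have hfam : ∀ c a j w, w ∈ ((T c a).pat j).P →
      (w ∈ s.P ∧ ((T c a).pat j).lab w = s.lab w ∧ fam (s.lab w) = a) ∨
      (w ∈ (d c a).P ∧ ((T c a).pat j).lab w = (d c a).lab w) := by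
    intro c a j w hw
    rcases (t3 c a j).1 w hw with ⟨h1, h2, _⟩ | ⟨h1, h2, _⟩
    · exact Or.inl ⟨(mem_trace.1 h1).1, h2, (mem_trace.1 h1).2.1⟩
    · exact Or.inr ⟨h1, h2⟩
  have hlab : ∀ c a j w, w ∈ ((T c a).pat j).P → fam (((T c a).pat j).lab w) = a := by
    intro c a j w hw
    rcases hfam c a j w hw with ⟨_, h2, h3⟩ | ⟨h1, h2⟩
    · rw [h2]; exact h3
    · rw [h2]; exact D.d_fam h1
  refine ⟨fun c => B c + 1 + m c,
    { tw := T
      P0 := fun c a w => by
        rw [t1 c a]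
        exact mem_trace
      lab0 := fun {c a w} _ => by rw [t1 c a]; rfl
      mu0 := fun {c a G w} _ _ => by rw [t1 c a]; rfl
      labj := fun {c a j w} hw => hlab c a j w hw
      dis := ?_
      labv := ?_
      disv := ?_
      fin := ?_
      on := D.on }, ?_, ?_, t1, fun c a j => (t3 c a j).1, ?_, ?_, ?_, ?_⟩
  · intro c a b j w h1 h2
    rcases hfam c a j w h1 with ⟨g1, _, g3⟩ | ⟨g1, _⟩ <;>
      rcases hfam c b j w h2 with ⟨g1', _, g3'⟩ | ⟨g1', _⟩
    · exact g3.symm.trans g3'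
    · exact (D.d_new g1' g1).elim
    · exact (D.d_new g1 g1').elim
    · exact D.d_dis g1 g1'
  · intro c a j v hv
    obtain ⟨_, w, hw, hi⟩ := (t3 c a j).2 v hv
    rw [hi]
    exact hlab c a j w hw
  · intro c a b j v h1 h2
    obtain ⟨a1, a2, a3⟩ := t4 c a j ⟨v, h1⟩
    obtain ⟨b1, b2, b3⟩ := t4 c b j ⟨v, h2⟩
    by_contra hab
    rcases hdis c a a1 b b1 hab with h | h <;> omega
  · intro a
    refine (D.fin_a a).subset ?_
    rintro c ⟨j, _, h⟩
    rcases h with ⟨w, hw⟩ | ⟨v, hv⟩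
    · rcases (t3 c a j).1 w hw with ⟨h1, _⟩ | ⟨h1, _⟩
      · exact Or.inl ⟨w, h1⟩
      · exact Or.inr ⟨w, h1⟩
    · exact (D.fin_c c).mem_toFinset.1 (t4 c a j ⟨v, hv⟩).1
  · intro c
    show 0 < B c + 1 + m c ∧ m c ≤ B c + 1 + m c
    exact ⟨by omega, by omega⟩
  · intro c a
    exact t2 c a _ le_rfl
  · intro c a j v hv
    exact ((t3 c a j).2 v hv).1
  · intro c a j w hw hwp
    exact t5 c a j w hwp fun h => D.d_new hw (mem_trace.1 h).1
  · intro c a j w hw hwp
    exact t6 c a j w hwp fun h => D.d_new h (mem_trace.1 hw).1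
  · intro c
    refine ⟨jm c, ?_, fun a he j hj => t7 c a he j hj, fun a he => t8 c a he⟩
    have := hjB c
    show jm c ≤ B c + 1 + m c
    omega

end Crest.Agent.R096.Ord_117
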