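import Crest.Agent.R096.Mnt2_189

/-!
# R096 (row 96), DOORS (helper895, assembly): the clause (Ord) of 688 #12211 / 22's Ord1

machine families first, barriers last at every core
-/

set_option autoImplicit false
set_option linter.unusedSectionVars false
set_option linter.style.longLine false

open Set Topology Filter Metric Module
open scoped Classical

namespace Crest.Agent.R096.Ord_895

open Crest.Agent.R096.Msh_715 Crest.Agent.R096.Coh_184 Crest.Agent.R096.Lab_184
  Crest.Agent.R096.Main_4 Crest.Agent.R096.Agl5_543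
  Crest.Agent.R096.Seq_213 Crest.Agent.R096.St_147 Crest.Agent.R096.Door_501
  Crest.Agent.R096.Twr_438 Crest.Agent.R096.Exa_560 Crest.Agent.R096.Qp_106
  Crest.Agent.R096.Ess3_95 Crest.Agent.R096.Ess4_95 Crest.Agent.R096.Ac_117 Crest.Agent.R096.Lm_117
  Crest.Agent.R096.Dfi_539 Crest.Agent.R096.Dfi_471 Crest.Agent.R096.Sla_184

/-- (Ord) : the patterns of the families `inl a` are exact from level `jm` on, the patterns of the
barriers `inr m` are the trace up to and including level `jm` -/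
def OrdT {E : Type} [NormedAddCommGroup E] [NormedSpace ℝ E] [FiniteDimensional ℝ E]
    {Om : Set E} {ι : Type} {T : Tiling Om ι} {κ : Type} (S : Sla T κ) (h3 : finrank ℝ E = 3)
    {J C Mo : Type} {fam : J → C ⊕ Mo} {s : GSt (meshC T h3) fam} {r : J → E}
    (Tw : Twrs (S.sh h3) S.n (outK S.hH S.dis s r)) : Prop :=
  ∀ c, ∃ jm, jm ≤ S.n c ∧
    (∀ (a : C) j, jm ≤ j → (Tw.tw c (Sum.inl a)).pat j = (Tw.tw c (Sum.inl a)).pat (S.n c) ∧
      ((Tw.tw c (Sum.inl a)).mv j).Qv = ∅) ∧
    (∀ (m : Mo) j, j ≤ jm →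
      (Tw.tw c (Sum.inr m)).pat j = trc S.hH S.dis s r c (Sum.inr m)) ∧
    ∀ (m : Mo) j, j < jm → ((Tw.tw c (Sum.inr m)).mv j).Qv = ∅

end Crest.Agent.R096.Ord_895
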