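import Crest.Agent.R096.Osc2_400
import Crest.Agent.R096.Pin1_753

/-!
Row 96 (S0127), helper400.  **[OSC], part 3: the block input of `meshS_diam` from `BlkP.sub`**.

`cel_norm`: diameter of a cube; `blk_diam`: translated blocks in cubes `cel Cb z r ⊆ W1`, `4 r + ‖v j‖ ≤ ρmin`;
`meshS_diam_blk`: the clause "every tile of `meshS` has diameter `≤ ρ₀` at each of its points", all blocks in `BlkP`.
-/

set_option autoImplicit false
set_option linter.style.longLine false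
set_option linter.unusedSectionVars false

open Set Filter Topology Metric

namespace Crest.Agent.R096.Osc_400

open Crest.Agent.R096.Msh_810 Crest.AnalysisR.VecCalc3 Crest.Agent.R096.Msh_715
  Crest.Agent.R096.Mal_874 Crest.Agent.R096.Msb_432
open Crest.Agent.R96.En10_199 (P3)
open Crest.Agent.R96.Intr_538 (cel par)
open Crest.Agent.R96.Coarse_538 (vt Cb mem_cel)
open Crest.Agent.R096.Pin_753 (BlkP)

noncomputable section

/-- diameter of a cube -/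
theorem cel_norm {z x y : R3} {r : ℝ} (hr : 0 < r) (hx : x ∈ cel Cb z r) (hy : y ∈ cel Cb z r) :
    ‖y - x‖ ≤ 4 * r := by
  rw [mem_cel hr] at hx hy
  have h1 := norm_sub_le_two y x
  have h2 : dist (P3.symm y) (P3.symm x) ≤ 2 * r := by
    rw [dist_pi_le_iff (by positivity)]
    intro i
    change dist (y i) (x i) ≤ 2 * r
    rw [Real.dist_eq]
    have e : y i - x i = (y i - z i) - (x i - z i) := by ring
    rw [e]
    refine (abs_sub _ _).trans ?_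
    linarith [hx i, hy i]
  linarith

/-- **a translated block in a cube** -/
theorem blk_diam {Q : CB R3 3} {v z : R3} {r : ℝ} (hr : 0 < r) (hN : Q.N ⊆ cel Cb z r)
    {ρ₀ : R3 → ℝ} (hl : ∀ x y, ρ₀ x ≤ ρ₀ y + ‖x - y‖) {ρmin : ℝ} (hmin : ∀ x ∈ cel Cb z r, ρmin ≤ ρ₀ x)
    (hs : 4 * r + ‖v‖ ≤ ρmin) : ∀ x ∈ (Q.tr v).N, ∀ y ∈ (Q.tr v).N, ‖y - x‖ ≤ ρ₀ x := by
  intro x hx y hy
  rw [CB.mem_N_tr] at hx hy
  have h1 := cel_norm hr (hN hx) (hN hy)
  have e : y - v - (x - v) = y - x := by abel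
  rw [e] at h1
  have h2 := hmin _ (hN hx)
  have h3 := hl (x - v) x
  have e2 : x - v - x = -v := by abel
  rw [e2, norm_neg] at h3
  linarith

/-- size function on a translated cube: `ρmin / 2` from the value on the compact set -/
theorem rho_near {ρ₀ : R3 → ℝ} (hl : ∀ x y, ρ₀ x ≤ ρ₀ y + ‖x - y‖) {W1 : Set R3} {ρmin : ℝ}
    (hmin : ∀ x ∈ W1, ρmin ≤ ρ₀ x) {x y : R3} (hx : x ∈ W1) (hxy : ‖x - y‖ ≤ ρmin / 2) :
    ρmin / 2 ≤ ρ₀ y := by
  have h1 := hl x y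
  have h2 := hmin x hx
  linarith

variable {J : Type} {M : MD R3 3 J} {k : J → ℕ} (hk : M.Sc k) (a : Fin 3 → ℝ) {v : J → R3}
  (hv : M.Adm v)

/-- **every tile of `meshS` has diameter at most `ρ₀` at each of its points** -/
theorem meshS_diam_blk (hφ : M.φ = P3.symm) {ρ₀ : R3 → ℝ} (h0 : ∀ x, 0 ≤ ρ₀ x)
    (hl : ∀ x y, ρ₀ x ≤ ρ₀ y + ‖x - y‖) {c : ℝ} (hc' : c ≤ 1 / 2)
    (hD : ∀ y, M.D0.ρ y ≤ ρ₀ (P3 y) * c) {W1 : Set R3} {ρmin : ℝ} (hmin : ∀ x ∈ W1, ρmin ≤ ρ₀ x)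
    {κ s τ hh c1 θ0 θ1 : ℝ} {Bs Nn : ℕ} {zz : J → R3} {k0 : J → ℕ} (hs0 : 0 < s) (hτ0 : 0 < τ) (hτ : τ < 1)
    (hB : ∀ j, BlkP κ s τ hh c1 θ0 θ1 Bs Nn (zz j) (M.Q j) (k0 j))
    (hW : ∀ j, cel Cb (zz j) s ⊆ W1) (hs : ∀ j, 4 * s + ‖v j‖ ≤ ρmin) :
    ∀ t, ∀ x ∈ P ((meshS M hk a hv).H t), ∀ y ∈ P ((meshS M hk a hv).H t), ‖y - x‖ ≤ ρ₀ x := by
  refine meshS_diam hk a hv hφ h0 hc' hD fun j => ?_
  have hr : 0 < (1 - τ) * s := mul_pos (by linarith) hs0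
  have hle : (1 - τ) * s ≤ s := by nlinarith
  have hsub : cel Cb (zz j) ((1 - τ) * s) ⊆ cel Cb (zz j) s := by
    intro x hx
    rw [mem_cel hr] at hx
    rw [mem_cel hs0]
    exact fun i => (hx i).trans hle
  refine blk_diam hr (hB j).sub hl (fun x hx => hmin x (hW j (hsub hx))) ?_
  have := hs j
  linarith

end

end Crest.Agent.R096.Osc_400
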