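import Mathlib
import Crest.Prelude.Def_SobolevMap
import Crest.Agent.R096.Osc4_802

/-!
P6-OSC part 5 (helper802): oscillation estimate for box-monotone continuous functions with weak
gradient, p > 2 (absolute constant `36 * Cp p`), relative to affine functions; L^p Lebesgue points;
differentiability almost everywhere.
-/

set_option autoImplicit false
open MeasureTheory Set Metric Filter Topology TopologicalSpace
open scoped ENNReal NNReal ContDiff RealInnerProductSpace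
open Crest.AnalysisR.VecCalc3 Crest.AnalysisR.Sobolev

namespace Crest.Agent.R096.Osc_802

/-- **oscillation relative to an affine function** (p > 2). -/
theorem osc_affine {Ω : Set R3} (hΩ : IsOpen Ω) {v : R3 → ℝ} {G : R3 → R3}
    (hv : ContinuousOn v Ω) (hG : HasWeakGradOn Ω v G) (hm : BoxMono v Ω) {p : ℝ} (hp : 2 < p)
    {c : R3} {R : ℝ} (hR : 0 < R) (hQ : cube c (2 * R) ⊆ Ω) (a : R3) {θ : ℝ} (hθ : 0 < θ)
    (hθ1 : θ ≤ 1) {I : ℝ} (hI : 0 ≤ I)
    (hGI : ∫⁻ x in cube c (2 * R), ‖G x - a‖ₑ ^ p ≤ ENNReal.ofReal I) :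
    ∀ y ∈ cube c R, ∀ y' ∈ cube c R, |(v y - ⟪a, y⟫) - (v y' - ⟪a, y'⟫)| ≤
      36 * Cp p * θ ^ (-(1 / p)) * R ^ (1 - 3 / p) * I ^ (1 / p) + 2 * (θ * R * ‖a‖) := by
  have hp0 : 0 < p := by linarith
  have h2p : 0 < 1 - 2 / p := by
    have : 2 / p < 1 := by rw [div_lt_one hp0]; exact hp
    linarith
  have h1p : 0 < 1 / p := by positivity
  have h1p1 : 1 / p ≤ 1 := by rw [div_le_one hp0]; linarith
  set D := 2 * Cp p * (3 / 2 * R) ^ (1 - 2 / p) * (I / (θ * R / 2)) ^ (1 / p) with hD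
  have hCp := Cp_pos hp
  have hKL : cthickening (R / 2) (cube c (3 / 2 * R)) ⊆ cube c (2 * R) := by
    refine (cthickening_cube (by positivity) (by positivity)).trans (subset_of_eq ?_)
    congr 1; ring
  have hKΩ : cube c (3 / 2 * R) ⊆ Ω := ((self_subset_cthickening _).trans hKL).trans hQ
  have key : ∀ η > 0, ∀ y ∈ cube c R, ∀ y' ∈ cube c R,
      |(v y - ⟪a, y⟫) - (v y' - ⟪a, y'⟫)| ≤ 6 * D + 2 * (θ * R * ‖a‖) + 2 * η := by
    intro η hη
    obtain ⟨w, hw, hwv, hwI⟩ := exists_mollify hv hG (measurable_cube c (3 / 2 * R))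
      (isCompact_cube c (by positivity)) hQ hΩ (by positivity) hKL hη a (p := p) (by linarith)
    let u : R3 → ℝ := fun x => w x - innerSL ℝ a x
    have hu : ContDiff ℝ 1 u := (hw.of_le (by norm_cast)).sub (innerSL ℝ a).contDiff
    have hud : ∀ x, fderiv ℝ u x = fderiv ℝ w x - innerSL ℝ a := by
      intro x
      have h1 : HasFDerivAt w (fderiv ℝ w x) x :=
        (hw.differentiable (by simp)).differentiableAt.hasFDerivAt
      exact (h1.sub (innerSL ℝ a).hasFDerivAt).fderiv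
    have huI : ∫⁻ x in cube c (3 / 2 * R), ‖fderiv ℝ u x‖ₑ ^ p ≤ ENNReal.ofReal I := by
      simp_rw [hud]; exact hwI.trans hGI
    refine osc_core (u := u) hm hR hθ hθ1 hKΩ a ?_ ?_
    · intro x hx
      have := hwv x hx
      simp only [u, innerSL_apply_apply]
      rw [abs_sub_comm] at this
      convert this using 2; ring
    · intro i s t hst hs ht
      have hts : t - s = θ * R / 2 := by rw [hst]; ring
      have hlt : s < t := by
        have : 0 < θ * R / 2 := by positivity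
        linarith
      have := exists_plane hu hp (c := c) (R := 3 / 2 * R) (by positivity) hI huI i hlt hs ht
      rw [hts] at this
      exact this
  have h6D : 6 * D ≤ 36 * Cp p * θ ^ (-(1 / p)) * R ^ (1 - 3 / p) * I ^ (1 / p) := by
    have e1 : (3 / 2 * R) ^ (1 - 2 / p) ≤ 3 / 2 * R ^ (1 - 2 / p) := by
      rw [Real.mul_rpow (by norm_num) hR.le]
      gcongr
      calc (3 / 2 : ℝ) ^ (1 - 2 / p) ≤ (3 / 2 : ℝ) ^ (1 : ℝ) :=
            Real.rpow_le_rpow_of_exponent_le (by norm_num) (by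
              have : 0 < 2 / p := by positivity
              linarith)
        _ = 3 / 2 := Real.rpow_one _
    have e2 : (I / (θ * R / 2)) ^ (1 / p) ≤ 2 * (I ^ (1 / p) * θ ^ (-(1 / p)) * R ^ (-(1 / p))) := by
      have : I / (θ * R / 2) = 2 * (I * θ⁻¹ * R⁻¹) := by field_simp
      rw [this, Real.mul_rpow (by norm_num) (by positivity), Real.mul_rpow (by positivity)
        (by positivity), Real.mul_rpow hI (by positivity), Real.inv_rpow hθ.le, Real.inv_rpow hR.le,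
        Real.rpow_neg hθ.le, Real.rpow_neg hR.le]
      gcongr
      calc (2 : ℝ) ^ (1 / p) ≤ (2 : ℝ) ^ (1 : ℝ) :=
            Real.rpow_le_rpow_of_exponent_le (by norm_num) h1p1
        _ = 2 := Real.rpow_one _
    have e3 : R ^ (1 - 2 / p) * R ^ (-(1 / p)) = R ^ (1 - 3 / p) := by
      rw [← Real.rpow_add hR]; congr 1; ring
    calc 6 * D = 12 * Cp p * ((3 / 2 * R) ^ (1 - 2 / p) * (I / (θ * R / 2)) ^ (1 / p)) := by
          rw [hD]; ring
      _ ≤ 12 * Cp p * ((3 / 2 * R ^ (1 - 2 / p)) *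
            (2 * (I ^ (1 / p) * θ ^ (-(1 / p)) * R ^ (-(1 / p))))) := by gcongr
      _ = 36 * Cp p * θ ^ (-(1 / p)) * (R ^ (1 - 2 / p) * R ^ (-(1 / p))) * I ^ (1 / p) := by ring
      _ = _ := by rw [e3]
  intro y hy y' hy'
  refine le_of_forall_pos_le_add fun ε hε => ?_
  have := key (ε / 2) (by positivity) y hy y' hy'
  linarith

/-- **(O3)** oscillation of a box-monotone function. -/
theorem osc_le {Ω : Set R3} (hΩ : IsOpen Ω) {v : R3 → ℝ} {G : R3 → R3}
    (hv : ContinuousOn v Ω) (hG : HasWeakGradOn Ω v G) (hm : BoxMono v Ω) {p : ℝ} (hp : 2 < p)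
    {c : R3} {R : ℝ} (hR : 0 < R) (hQ : cube c (2 * R) ⊆ Ω) {I : ℝ} (hI : 0 ≤ I)
    (hGI : ∫⁻ x in cube c (2 * R), ‖G x‖ₑ ^ p ≤ ENNReal.ofReal I) :
    ∀ y ∈ cube c R, ∀ y' ∈ cube c R, |v y - v y'| ≤
      36 * Cp p * R ^ (1 - 3 / p) * I ^ (1 / p) := by
  intro y hy y' hy'
  have := osc_affine hΩ hv hG hm hp hR hQ 0 one_pos le_rfl hI (by simpa using hGI) y hy y' hy'
  simpa using this

/-- L^p Lebesgue points. -/
theorem ae_lebesgue {F : R3 → R3} {p : ℝ} (hp : 1 ≤ p) (hF : MemLp F (ENNReal.ofReal p) volume) :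
    ∀ᵐ x, Tendsto (fun r : ℝ => (∫⁻ y in closedBall x r, ‖F y - F x‖ₑ ^ p) /
      volume (closedBall x r)) (𝓝[>] 0) (𝓝 0) := by
  have hp0 : 0 < p := by linarith
  have hpe : (ENNReal.ofReal p).toReal = p := ENNReal.toReal_ofReal hp0.le
  have hloc : ∀ q : R3, LocallyIntegrable (fun y => ‖F y - q‖ ^ p) volume := by
    intro q
    rw [locallyIntegrable_iff]
    intro K hK
    have : IsFiniteMeasure ((volume : Measure R3).restrict K) :=
      ⟨by simpa using hK.measure_lt_top⟩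
    have h1 : MemLp (fun y => F y - q) (ENNReal.ofReal p) (volume.restrict K) :=
      (hF.restrict K).sub (memLp_const q)
    have h2 := h1.integrable_norm_rpow (by simpa using hp0) ENNReal.ofReal_ne_top
    rw [hpe] at h2
    exact h2
  have hae : ∀ᵐ x, ∀ n : ℕ, Tendsto (fun r : ℝ =>
      (∫⁻ y in closedBall x r, ‖‖F y - denseSeq R3 n‖ ^ p - ‖F x - denseSeq R3 n‖ ^ p‖ₑ) /
        volume (closedBall x r)) (𝓝[>] 0) (𝓝 0) := by
    rw [ae_all_iff]
    intro n
    filter_upwards [(Besicovitch.vitaliFamily (volume : Measure R3)).ae_tendsto_lintegral_enorm_sub_div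
      (hloc (denseSeq R3 n))] with x hx
    exact hx.comp (Besicovitch.tendsto_filterAt volume x)
  filter_upwards [hae] with x hx
  rw [ENNReal.tendsto_nhds_zero]
  intro ε hε
  -- choose a dense point
  obtain ⟨ε', hε', hεε⟩ : ∃ ε' : ℝ≥0∞, 0 < ε' ∧ (2 : ℝ≥0∞) ^ (p - 1) * (ε' + 2 * ε') ≤ ε := by
    have h2 : (2 : ℝ≥0∞) ^ (p - 1) * 3 ≠ 0 := by
      refine mul_ne_zero ?_ (by norm_num)
      exact (ENNReal.rpow_pos (by simp) (by simp)).ne'
    have h2' : (2 : ℝ≥0∞) ^ (p - 1) * 3 ≠ ⊤ :=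
      ENNReal.mul_ne_top (ENNReal.rpow_ne_top_of_nonneg (by linarith) (by simp)) (by simp)
    refine ⟨ε / ((2 : ℝ≥0∞) ^ (p - 1) * 3), ENNReal.div_pos hε.ne' h2', ?_⟩
    have : ∀ t : ℝ≥0∞, (2 : ℝ≥0∞) ^ (p - 1) * (t + 2 * t) = (2 : ℝ≥0∞) ^ (p - 1) * 3 * t := by
      intro t; ring
    rw [this]
    exact ENNReal.mul_div_le
  obtain ⟨n, hn⟩ : ∃ n, ‖F x - denseSeq R3 n‖ₑ ^ p ≤ ε' := by
    have hcont : Tendsto (fun q : R3 => ‖F x - q‖ₑ ^ p) (𝓝 (F x)) (𝓝 0) := by
      have : Continuous fun q : R3 => ‖F x - q‖ₑ ^ p :=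
        (ENNReal.continuous_rpow_const).comp (by fun_prop)
      have h := this.tendsto (F x)
      simpa [ENNReal.zero_rpow_of_pos hp0] using h
    have hev := hcont.eventually (ge_mem_nhds hε')
    obtain ⟨q, ⟨n, hqn⟩, hq⟩ := Dense.inter_nhds_nonempty (denseRange_denseSeq R3) hev
    refine ⟨n, ?_⟩
    rw [hqn]
    exact hq
  have hgx : ∀ y, ‖F y - denseSeq R3 n‖ₑ ^ p = ENNReal.ofReal (‖F y - denseSeq R3 n‖ ^ p) := by
    intro y
    rw [← ofReal_norm, ENNReal.ofReal_rpow_of_nonneg (norm_nonneg _) hp0.le]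
  have hev := (ENNReal.tendsto_nhds_zero.1 (hx n)) ε' hε'
  filter_upwards [hev, self_mem_nhdsWithin] with r hr hr0
  have hr0' : (0 : ℝ) < r := hr0
  have hV0 : (volume : Measure R3) (closedBall x r) ≠ 0 := (measure_closedBall_pos _ _ hr0').ne'
  have hVt : (volume : Measure R3) (closedBall x r) ≠ ⊤ := measure_closedBall_lt_top.ne
  have hr1 : ∫⁻ y in closedBall x r, ‖‖F y - denseSeq R3 n‖ ^ p - ‖F x - denseSeq R3 n‖ ^ p‖ₑ ≤
      ε' * volume (closedBall x r) := by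
    rwa [ENNReal.div_le_iff hV0 hVt] at hr
  rw [ENNReal.div_le_iff hV0 hVt]
  calc ∫⁻ y in closedBall x r, ‖F y - F x‖ₑ ^ p
      ≤ ∫⁻ y in closedBall x r, (2 : ℝ≥0∞) ^ (p - 1) *
          (‖‖F y - denseSeq R3 n‖ ^ p - ‖F x - denseSeq R3 n‖ ^ p‖ₑ + 2 * ε') := by
        refine lintegral_mono fun y => ?_
        have h1 : ‖F y - F x‖ₑ ≤ ‖F y - denseSeq R3 n‖ₑ + ‖F x - denseSeq R3 n‖ₑ := by
          calc ‖F y - F x‖ₑ = ‖(F y - denseSeq R3 n) - (F x - denseSeq R3 n)‖ₑ := by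
                congr 1; abel
            _ ≤ _ := enorm_sub_le
        have h2 : ‖F y - denseSeq R3 n‖ₑ ^ p ≤
            ‖‖F y - denseSeq R3 n‖ ^ p - ‖F x - denseSeq R3 n‖ ^ p‖ₑ + ε' := by
          calc ‖F y - denseSeq R3 n‖ₑ ^ p
              = ‖(‖F y - denseSeq R3 n‖ ^ p - ‖F x - denseSeq R3 n‖ ^ p) +
                  ‖F x - denseSeq R3 n‖ ^ p‖ₑ := by
                rw [hgx, sub_add_cancel, Real.enorm_of_nonneg (by positivity)]
            _ ≤ ‖‖F y - denseSeq R3 n‖ ^ p - ‖F x - denseSeq R3 n‖ ^ p‖ₑ +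
                  ‖‖F x - denseSeq R3 n‖ ^ p‖ₑ := enorm_add_le _ _
            _ ≤ _ := by
                gcongr
                rw [Real.enorm_of_nonneg (by positivity), ← hgx]; exact hn
        calc ‖F y - F x‖ₑ ^ p
            ≤ (‖F y - denseSeq R3 n‖ₑ + ‖F x - denseSeq R3 n‖ₑ) ^ p := by gcongr
          _ ≤ (2 : ℝ≥0∞) ^ (p - 1) *
                (‖F y - denseSeq R3 n‖ₑ ^ p + ‖F x - denseSeq R3 n‖ₑ ^ p) :=
              ENNReal.rpow_add_le_mul_rpow_add_rpow _ _ hp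
          _ ≤ (2 : ℝ≥0∞) ^ (p - 1) *
                ((‖‖F y - denseSeq R3 n‖ ^ p - ‖F x - denseSeq R3 n‖ ^ p‖ₑ + ε') + ε') := by
              gcongr
          _ = _ := by ring
    _ = (2 : ℝ≥0∞) ^ (p - 1) *
          ((∫⁻ y in closedBall x r, ‖‖F y - denseSeq R3 n‖ ^ p - ‖F x - denseSeq R3 n‖ ^ p‖ₑ) +
            2 * ε' * volume (closedBall x r)) := by
        rw [lintegral_const_mul' _ _ (ENNReal.rpow_ne_top_of_nonneg (by linarith) (by simp)),
          lintegral_add_right _ measurable_const, lintegral_const,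
          Measure.restrict_apply MeasurableSet.univ, univ_inter]
    _ ≤ (2 : ℝ≥0∞) ^ (p - 1) * (ε' * volume (closedBall x r) + 2 * ε' * volume (closedBall x r)) := by
        gcongr
    _ = (2 : ℝ≥0∞) ^ (p - 1) * (ε' + 2 * ε') * volume (closedBall x r) := by ring
    _ ≤ ε * volume (closedBall x r) := by gcongr

end Crest.Agent.R096.Osc_802
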