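import Mathlib
import Crest.Prelude.Def_SobolevMap
import Crest.Agent.R096.Osc5_802

/-!
P6-OSC part 6 (helper802): at L^p Lebesgue points of the weak gradient (p > 2) a box-monotone
continuous Sobolev function is differentiable with the weak gradient as derivative, uniformly on
cubes; vector versions for homeomorphisms.
-/

set_option autoImplicit false
open MeasureTheory Set Metric Filter Topology TopologicalSpace
open scoped ENNReal NNReal ContDiff RealInnerProductSpace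
open Crest.AnalysisR.VecCalc3 Crest.AnalysisR.Sobolev

namespace Crest.Agent.R096.Osc_802

/-- L^p Lebesgue point condition. -/
def LebPt (p : ℝ) (F : R3 → R3) (x : R3) : Prop :=
  Tendsto (fun r : ℝ => (∫⁻ y in closedBall x r, ‖F y - F x‖ₑ ^ p) /
      volume (closedBall x r)) (𝓝[>] 0) (𝓝 0)

theorem ae_lebPt {F : R3 → R3} {p : ℝ} (hp : 1 ≤ p) (hF : MemLp F (ENNReal.ofReal p) volume) :
    ∀ᵐ x, LebPt p F x := ae_lebesgue hp hF

lemma volume_closedBall_le (x : R3) {r : ℝ} (hr : 0 ≤ r) :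
    (volume (closedBall x r) : ℝ≥0∞) =
      ENNReal.ofReal (r ^ 3 * (volume : Measure R3).real (closedBall 0 1)) := by
  rw [Measure.addHaar_closedBall' _ _ hr, Measure.real]
  rw [ENNReal.ofReal_mul (by positivity), ENNReal.ofReal_toReal]
  · simp only [finrank_euclideanSpace, Fintype.card_fin]
  · exact measure_closedBall_lt_top.ne

/-- **(O4), one function**: affine approximation on all small cubes round a Lebesgue point. -/
theorem affine_at_lebPt {Ω : Set R3} (hΩ : IsOpen Ω) {v : R3 → ℝ} {G : R3 → R3}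
    (hv : ContinuousOn v Ω) (hG : HasWeakGradOn Ω v G) (hm : BoxMono v Ω) {p : ℝ} (hp : 2 < p)
    {x : R3} (hx : x ∈ Ω) (hL : LebPt p (Ω.indicator G) x) {ε : ℝ} (hε : 0 < ε) :
    ∃ r₀ > 0, ∀ r : ℝ, 0 < r → r < r₀ → cube x (2 * r) ⊆ Ω ∧
      ∀ y ∈ cube x r, ∀ y' ∈ cube x r,
        |(v y - ⟪G x, y⟫) - (v y' - ⟪G x, y'⟫)| ≤ ε * r := by
  have hp0 : 0 < p := by linarith
  have h1p : 0 < 1 / p := by positivity
  set V := (volume : Measure R3).real (closedBall 0 1) with hV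
  have hV0 : 0 < V := by
    rw [hV, Measure.real]
    exact ENNReal.toReal_pos (measure_closedBall_pos _ _ one_pos).ne' measure_closedBall_lt_top.ne
  have hCp := Cp_pos hp
  -- θ
  obtain ⟨θ, hθ, hθ1, hθa⟩ : ∃ θ : ℝ, 0 < θ ∧ θ ≤ 1 ∧ 2 * θ * ‖G x‖ ≤ ε / 2 := by
    refine ⟨min 1 (ε / (4 * (‖G x‖ + 1))), by positivity, min_le_left _ _, ?_⟩
    have h1 : min 1 (ε / (4 * (‖G x‖ + 1))) ≤ ε / (4 * (‖G x‖ + 1)) := min_le_right _ _
    calc 2 * min 1 (ε / (4 * (‖G x‖ + 1))) * ‖G x‖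
        ≤ 2 * (ε / (4 * (‖G x‖ + 1))) * (‖G x‖ + 1) := by
          gcongr; linarith
      _ = ε / 2 := by field_simp; ring
  -- δ
  obtain ⟨δ, hδ, hδε⟩ : ∃ δ : ℝ, 0 < δ ∧
      36 * Cp p * θ ^ (-(1 / p)) * (64 * V * δ) ^ (1 / p) ≤ ε / 2 := by
    set A := 36 * Cp p * θ ^ (-(1 / p)) with hA
    have hA0 : 0 < A := by positivity
    refine ⟨(ε / (2 * A)) ^ p / (64 * V), by positivity, ?_⟩
    have : 64 * V * ((ε / (2 * A)) ^ p / (64 * V)) = (ε / (2 * A)) ^ p := by field_simp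
    rw [this, ← Real.rpow_mul (by positivity), mul_one_div_cancel hp0.ne', Real.rpow_one]
    apply le_of_eq; field_simp
  -- radius
  obtain ⟨r₁, hr₁, hr₁Ω⟩ := Metric.isOpen_iff.1 hΩ x hx
  have hev := ENNReal.tendsto_nhds_zero.1 hL (ENNReal.ofReal δ) (by simpa using hδ)
  rw [eventually_nhdsWithin_iff, Metric.eventually_nhds_iff] at hev
  obtain ⟨r₂, hr₂, hev⟩ := hev
  refine ⟨min (r₁ / 5) (r₂ / 5), by positivity, fun r hr hrr => ?_⟩
  have hrr1 : r < r₁ / 5 := hrr.trans_le (min_le_left _ _)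
  have hrr2 : r < r₂ / 5 := hrr.trans_le (min_le_right _ _)
  have hcb : cube x (2 * r) ⊆ closedBall x (4 * r) := by
    have := cube_subset_closedBall (c := x) (R := 2 * r) (by positivity)
    rwa [show 2 * (2 * r) = 4 * r by ring] at this
  have hQ : cube x (2 * r) ⊆ Ω :=
    hcb.trans ((closedBall_subset_ball (by linarith)).trans hr₁Ω)
  refine ⟨hQ, ?_⟩
  have hvol0 : (volume : Measure R3) (closedBall x (4 * r)) ≠ 0 :=
    (measure_closedBall_pos _ _ (by positivity)).ne'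
  have hvolt : (volume : Measure R3) (closedBall x (4 * r)) ≠ ⊤ := measure_closedBall_lt_top.ne
  have h1 := hev (y := 4 * r) (by rw [Real.dist_eq, sub_zero, abs_of_pos (by positivity)]; linarith)
    (show (0 : ℝ) < 4 * r by positivity)
  rw [ENNReal.div_le_iff hvol0 hvolt] at h1
  have hGI : ∫⁻ y in cube x (2 * r), ‖G y - G x‖ₑ ^ p ≤ ENNReal.ofReal (64 * V * δ * r ^ 3) := by
    calc ∫⁻ y in cube x (2 * r), ‖G y - G x‖ₑ ^ p
        = ∫⁻ y in cube x (2 * r), ‖Ω.indicator G y - Ω.indicator G x‖ₑ ^ p := by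
          refine setLIntegral_congr_fun (measurable_cube x _) fun y hy => ?_
          simp only [indicator_of_mem hx, indicator_of_mem (hQ hy)]
      _ ≤ ∫⁻ y in closedBall x (4 * r), ‖Ω.indicator G y - Ω.indicator G x‖ₑ ^ p :=
          lintegral_mono_set hcb
      _ ≤ ENNReal.ofReal δ * volume (closedBall x (4 * r)) := h1
      _ = ENNReal.ofReal (64 * V * δ * r ^ 3) := by
          rw [volume_closedBall_le x (by positivity), ← ENNReal.ofReal_mul hδ.le]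
          congr 1; rw [← hV]; ring
  intro y hy y' hy'
  have h2 := osc_affine hΩ hv hG hm hp hr hQ (G x) hθ hθ1 (by positivity) hGI y hy y' hy'
  refine h2.trans ?_
  have e1 : (64 * V * δ * r ^ 3) ^ (1 / p) = (64 * V * δ) ^ (1 / p) * r ^ (3 / p) := by
    rw [Real.mul_rpow (by positivity) (by positivity)]
    congr 1
    rw [← Real.rpow_natCast, ← Real.rpow_mul hr.le]
    congr 1; push_cast; ring
  have e2 : r ^ (1 - 3 / p) * r ^ (3 / p) = r := by
    rw [← Real.rpow_add hr]; simp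
  calc 36 * Cp p * θ ^ (-(1 / p)) * r ^ (1 - 3 / p) * (64 * V * δ * r ^ 3) ^ (1 / p) +
        2 * (θ * r * ‖G x‖)
      = (36 * Cp p * θ ^ (-(1 / p)) * (64 * V * δ) ^ (1 / p)) * (r ^ (1 - 3 / p) * r ^ (3 / p)) +
        (2 * θ * ‖G x‖) * r := by rw [e1]; ring
    _ ≤ ε / 2 * r + ε / 2 * r := by rw [e2]; gcongr
    _ = ε * r := by ring

lemma mem_cube_self (x : R3) {r : ℝ} (hr : 0 ≤ r) : x ∈ cube x r := by
  intro i; simpa using hr

lemma mem_cube_norm (x y : R3) : y ∈ cube x ‖y - x‖ := by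
  intro i
  have := PiLp.norm_apply_le (y - x) i
  simpa [Real.norm_eq_abs] using this

/-- differentiability at Lebesgue points. -/
theorem hasFDerivAt_of_lebPt {Ω : Set R3} (hΩ : IsOpen Ω) {v : R3 → ℝ} {G : R3 → R3}
    (hv : ContinuousOn v Ω) (hG : HasWeakGradOn Ω v G) (hm : BoxMono v Ω) {p : ℝ} (hp : 2 < p)
    {x : R3} (hx : x ∈ Ω) (hL : LebPt p (Ω.indicator G) x) :
    HasFDerivAt v (innerSL ℝ (G x)) x := by
  rw [hasFDerivAt_iff_isLittleO_nhds_zero, Asymptotics.isLittleO_iff]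
  intro ε hε
  obtain ⟨r₀, hr₀, h⟩ := affine_at_lebPt hΩ hv hG hm hp hx hL hε
  filter_upwards [Metric.ball_mem_nhds (0 : R3) hr₀] with z hz
  rcases eq_or_ne z 0 with rfl | hz0
  · simp
  have hzn : 0 < ‖z‖ := norm_pos_iff.2 hz0
  have hz' : ‖z‖ < r₀ := by simpa using hz
  obtain ⟨-, h1⟩ := h ‖z‖ hzn hz'
  have hy : x + z ∈ cube x ‖z‖ := by simpa using mem_cube_norm x (x + z)
  have h2 := h1 (x + z) hy x (mem_cube_self x hzn.le)
  rw [inner_add_right] at h2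
  rw [Real.norm_eq_abs]
  refine le_trans (le_of_eq ?_) h2
  rw [innerSL_apply_apply]
  congr 1; ring

/-- **(O4), a.e. differentiability** (p > 2). -/
theorem ae_diff {Ω : Set R3} (hΩ : IsOpen Ω) {v : R3 → ℝ} {G : R3 → R3}
    (hv : ContinuousOn v Ω) (hG : HasWeakGradOn Ω v G) (hm : BoxMono v Ω) {p : ℝ} (hp : 2 < p)
    (hGp : MemLp G (ENNReal.ofReal p) (volume.restrict Ω)) :
    ∀ᵐ x, x ∈ Ω → LebPt p (Ω.indicator G) x ∧ HasFDerivAt v (innerSL ℝ (G x)) x := by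
  have h := (memLp_indicator_iff_restrict hΩ.measurableSet).2 hGp
  filter_upwards [ae_lebPt (by linarith) h] with x hx hxΩ
  exact ⟨hx, hasFDerivAt_of_lebPt hΩ hv hG hm hp hxΩ hx⟩

/-! ### vector versions -/

lemma norm_le_sum3 (w : R3) : ‖w‖ ≤ ∑ j, |w j| := by
  have : w = ∑ j, w j • EuclideanSpace.single j (1 : ℝ) := by
    ext k
    simp [Finset.sum_apply, Pi.single_apply]
  calc ‖w‖ = ‖∑ j, w j • EuclideanSpace.single j (1 : ℝ)‖ := by rw [← this]
    _ ≤ ∑ j, ‖w j • EuclideanSpace.single j (1 : ℝ)‖ := norm_sum_le _ _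
    _ = ∑ j, |w j| := by simp [norm_smul]

/-- the linear map with rows `A j`. -/
noncomputable def rowMap (A : Fin 3 → R3) : R3 →L[ℝ] R3 :=
  (EuclideanSpace.equiv (Fin 3) ℝ).symm.toContinuousLinearMap ∘L
    ContinuousLinearMap.pi fun j => innerSL ℝ (A j)

@[simp] lemma rowMap_apply (A : Fin 3 → R3) (y : R3) (j : Fin 3) : rowMap A y j = ⟪A j, y⟫ := rfl

/-- **(O3) for homeomorphisms, relative to an affine map.** -/
theorem homeo_osc_affine {Ω Λ : Set R3} (hΩ : IsOpen Ω) (hΛ : IsOpen Λ) {f : R3 → R3}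
    (hf : IsHomeomorphOn f Ω Λ) {G : Fin 3 → R3 → R3}
    (hG : ∀ j, HasWeakGradOn Ω (fun x => f x j) (G j)) {p : ℝ} (hp : 2 < p)
    {c : R3} {R : ℝ} (hR : 0 < R) (hQ : cube c (2 * R) ⊆ Ω) (A : Fin 3 → R3) {θ : ℝ} (hθ : 0 < θ)
    (hθ1 : θ ≤ 1) {I : ℝ} (hI : 0 ≤ I)
    (hGI : ∫⁻ x in cube c (2 * R), ∑ j, ‖G j x - A j‖ₑ ^ p ≤ ENNReal.ofReal I) :
    ∀ y ∈ cube c R, ∀ y' ∈ cube c R, ‖f y - f y' - rowMap A (y - y')‖ ≤
      108 * Cp p * θ ^ (-(1 / p)) * R ^ (1 - 3 / p) * I ^ (1 / p) +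
        2 * (θ * R * ∑ j, ‖A j‖) := by
  intro y hy y' hy'
  have hfc : ContinuousOn f Ω := by obtain ⟨g, _, _, _, _, h, _⟩ := hf; exact h
  have key : ∀ j, |(f y - f y' - rowMap A (y - y')) j| ≤
      36 * Cp p * θ ^ (-(1 / p)) * R ^ (1 - 3 / p) * I ^ (1 / p) + 2 * (θ * R * ‖A j‖) := by
    intro j
    have hvc : ContinuousOn (fun x => f x j) Ω :=
      (EuclideanSpace.proj (𝕜 := ℝ) j).continuous.comp_continuousOn hfc
    have h1 := osc_affine hΩ hvc (hG j) (boxMono_coord hf hΛ j) hp hR hQ (A j) hθ hθ1 hI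
      (le_trans (lintegral_mono fun x =>
        Finset.single_le_sum (f := fun j => ‖G j x - A j‖ₑ ^ p) (fun _ _ => zero_le)
          (Finset.mem_univ j)) hGI) y hy y' hy'
    refine le_trans (le_of_eq ?_) h1
    simp only [PiLp.sub_apply, rowMap_apply, inner_sub_right]
    congr 1; ring
  calc ‖f y - f y' - rowMap A (y - y')‖ ≤ ∑ j, |(f y - f y' - rowMap A (y - y')) j| :=
        norm_le_sum3 _
    _ ≤ ∑ j : Fin 3, (36 * Cp p * θ ^ (-(1 / p)) * R ^ (1 - 3 / p) * I ^ (1 / p) +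
          2 * (θ * R * ‖A j‖)) := Finset.sum_le_sum fun j _ => key j
    _ = _ := by
        rw [Finset.sum_add_distrib, Finset.sum_const, Finset.card_univ, Fintype.card_fin,
          ← Finset.mul_sum, ← Finset.mul_sum]
        simp only [nsmul_eq_mul]
        push_cast; ring

/-- **(O3) for homeomorphisms.** -/
theorem homeo_osc_le {Ω Λ : Set R3} (hΩ : IsOpen Ω) (hΛ : IsOpen Λ) {f : R3 → R3}
    (hf : IsHomeomorphOn f Ω Λ) {G : Fin 3 → R3 → R3}
    (hG : ∀ j, HasWeakGradOn Ω (fun x => f x j) (G j)) {p : ℝ} (hp : 2 < p)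
    {c : R3} {R : ℝ} (hR : 0 < R) (hQ : cube c (2 * R) ⊆ Ω) {I : ℝ} (hI : 0 ≤ I)
    (hGI : ∫⁻ x in cube c (2 * R), ∑ j, ‖G j x‖ₑ ^ p ≤ ENNReal.ofReal I) :
    ∀ y ∈ cube c R, ∀ y' ∈ cube c R, ‖f y - f y'‖ ≤
      108 * Cp p * R ^ (1 - 3 / p) * I ^ (1 / p) := by
  intro y hy y' hy'
  have h := homeo_osc_affine hΩ hΛ hf hG hp hR hQ (fun _ => 0) one_pos le_rfl hI (by simpa using hGI)
    y hy y' hy'
  have e : rowMap (fun _ => (0 : R3)) (y - y') = 0 := by ext j; simp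
  rw [e] at h
  simpa using h

/-- **(O4) for homeomorphisms**: a.e. differentiability and affine approximation on cubes. -/
theorem homeo_ae_diff {Ω Λ : Set R3} (hΩ : IsOpen Ω) (hΛ : IsOpen Λ) {f : R3 → R3}
    (hf : IsHomeomorphOn f Ω Λ) {G : Fin 3 → R3 → R3}
    (hG : ∀ j, HasWeakGradOn Ω (fun x => f x j) (G j)) {p : ℝ} (hp : 2 < p)
    (hGp : ∀ j, MemLp (G j) (ENNReal.ofReal p) (volume.restrict Ω)) :
    ∀ᵐ x, x ∈ Ω → (∀ j, LebPt p (Ω.indicator (G j)) x) ∧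
      HasFDerivAt f (rowMap fun j => G j x) x := by
  have hfc : ContinuousOn f Ω := by obtain ⟨g, _, _, _, _, h, _⟩ := hf; exact h
  have h : ∀ j, ∀ᵐ x, x ∈ Ω → LebPt p (Ω.indicator (G j)) x ∧
      HasFDerivAt (fun x => f x j) (innerSL ℝ (G j x)) x := fun j =>
    ae_diff hΩ ((EuclideanSpace.proj (𝕜 := ℝ) j).continuous.comp_continuousOn hfc) (hG j)
      (boxMono_coord hf hΛ j) hp (hGp j)
  filter_upwards [ae_all_iff.2 h] with x hx hxΩ
  refine ⟨fun j => (hx j hxΩ).1, ?_⟩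
  rw [← hasFDerivWithinAt_univ, hasFDerivWithinAt_euclidean]
  intro j
  rw [hasFDerivWithinAt_univ]
  have : (EuclideanSpace.proj j : R3 →L[ℝ] ℝ) ∘L (rowMap fun j => G j x) =
      innerSL ℝ (G j x) := by ext y; simp
  rw [this]
  exact (hx j hxΩ).2

theorem homeo_affine_at_lebPt {Ω Λ : Set R3} (hΩ : IsOpen Ω) (hΛ : IsOpen Λ) {f : R3 → R3}
    (hf : IsHomeomorphOn f Ω Λ) {G : Fin 3 → R3 → R3}
    (hG : ∀ j, HasWeakGradOn Ω (fun x => f x j) (G j)) {p : ℝ} (hp : 2 < p)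
    {x : R3} (hx : x ∈ Ω) (hL : ∀ j, LebPt p (Ω.indicator (G j)) x) {ε : ℝ} (hε : 0 < ε) :
    ∃ r₀ > 0, ∀ r : ℝ, 0 < r → r < r₀ → cube x (2 * r) ⊆ Ω ∧
      ∀ y ∈ cube x r, ∀ y' ∈ cube x r,
        ‖f y - f y' - rowMap (fun j => G j x) (y - y')‖ ≤ ε * r := by
  have hfc : ContinuousOn f Ω := by obtain ⟨g, _, _, _, _, h, _⟩ := hf; exact h
  have h : ∀ j, ∃ r₀ > 0, ∀ r : ℝ, 0 < r → r < r₀ → cube x (2 * r) ⊆ Ω ∧
      ∀ y ∈ cube x r, ∀ y' ∈ cube x r,
        |(f y j - ⟪G j x, y⟫) - (f y' j - ⟪G j x, y'⟫)| ≤ ε / 3 * r := fun j =>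
    affine_at_lebPt hΩ ((EuclideanSpace.proj (𝕜 := ℝ) j).continuous.comp_continuousOn hfc) (hG j)
      (boxMono_coord hf hΛ j) hp hx (hL j) (by positivity)
  choose r₀ hr₀ h using h
  refine ⟨min (r₀ 0) (min (r₀ 1) (r₀ 2)), lt_min (hr₀ 0) (lt_min (hr₀ 1) (hr₀ 2)),
    fun r hr hrr => ?_⟩
  have hrj : ∀ j, r < r₀ j := by
    intro j
    have h0 := hrr.trans_le (min_le_left _ _)
    have h1 := hrr.trans_le ((min_le_right _ _).trans (min_le_left _ _))
    have h2 := hrr.trans_le ((min_le_right _ _).trans (min_le_right _ _))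
    fin_cases j <;> assumption
  refine ⟨(h 0 r hr (hrj 0)).1, fun y hy y' hy' => ?_⟩
  calc ‖f y - f y' - rowMap (fun j => G j x) (y - y')‖
      ≤ ∑ j, |(f y - f y' - rowMap (fun j => G j x) (y - y')) j| := norm_le_sum3 _
    _ ≤ ∑ j : Fin 3, ε / 3 * r := by
        refine Finset.sum_le_sum fun j _ => ?_
        refine le_trans (le_of_eq ?_) ((h j r hr (hrj j)).2 y hy y' hy')
        simp only [PiLp.sub_apply, rowMap_apply, inner_sub_right]
        congr 1; ring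
    _ = ε * r := by simp; ring

end Crest.Agent.R096.Osc_802
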