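import Crest.Agent.R096.Pas3_753
import Crest.Agent.R096.Vly1_186
import Crest.Agent.R096.Cbs1_296
import Crest.Agent.R096.Cob7_622

/-!
Row 96 (S0127), helper372.  (OU) of 753 #11736: the `Ly` clause and the last clause of `OutP`, from the
cell energies of composite B.  Part A: abstract.  Part B: layers of the blocks.  Part C: for the output of
622's `cob_main` over 296's `SysOf (Te T)`.
-/

set_option autoImplicit false
set_option linter.style.longLine false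
set_option linter.unusedSectionVars false

open MeasureTheory Set Filter Topology Metric
open scoped ENNReal NNReal

namespace Crest.Agent.R096.Ou_372

open Crest.AnalysisR.VecCalc3 Crest.AnalysisR.Sobolev
open Crest.Agent.R096.Msh_715 (Tiling P I)
open Crest.Agent.R096.Mal_874 (CB)
open Crest.Agent.R096.Br_695 (En)
open Crest.Agent.R096.Pin_753
open Crest.Agent.R96.Coarse_538 (vt Cb)
open Crest.Agent.R096.Sq_55 (E3 Sys Face FaceOf w2 lint_w2)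
open Crest.Agent.R096.Cob_622 (EF)
open Crest.Agent.R096.Efi_296 (Te reps)
open Crest.Agent.R096.Cbs_296 (SysOf)

noncomputable section

/-! ### Part A: abstract -/

section abstract_

variable {ι J : Type*} {Om : Set R3} {Pc : ι → Set R3} {e1 e2 : R3 → ℝ≥0∞} {Jf : ι → ℝ≥0∞}
  {C₀ Cu ε' e₀ : ℝ≥0∞}

/-- integral over a finite union -/
theorem lint_cells (s₁ : Finset ι) (cells : ∀ k ∈ s₁, ∫⁻ x in Pc k, e2 x ≤ Jf k + ε') :
    ∫⁻ x in ⋃ k ∈ s₁, Pc k, e2 x ≤ (∑ k ∈ s₁, Jf k) + s₁.card * ε' := by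
  classical
  have h1 : ∫⁻ x in ⋃ k ∈ s₁, Pc k, e2 x ≤ ∑ k ∈ s₁, ∫⁻ x in Pc k, e2 x := by
    have h := lintegral_iUnion_le (μ := (volume : Measure R3)) (fun k : s₁ => Pc k) e2
    rw [tsum_fintype, Finset.sum_coe_sort s₁ (fun k => ∫⁻ x in Pc k, e2 x)] at h
    have e : (⋃ k ∈ s₁, Pc k) = ⋃ k : s₁, Pc k := by
      ext x; simp
    rw [e]
    exact h
  refine h1.trans ?_
  calc (∑ k ∈ s₁, ∫⁻ x in Pc k, e2 x) ≤ ∑ k ∈ s₁, (Jf k + ε') := Finset.sum_le_sum cells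
    _ = (∑ k ∈ s₁, Jf k) + s₁.card * ε' := by
      rw [Finset.sum_add_distrib, Finset.sum_const, nsmul_eq_mul]

/-- **the last clause of `OutP`, abstract**: `s'` = all tiles of the system, `s₁` = those which are
not inside a block -/
theorem out_le {pJ : J → Prop} {N Kc : J → Set R3} (s' s₁ : Finset ι) (hOm : MeasurableSet Om)
    (hPm : ∀ k ∈ s', MeasurableSet (Pc k)) (hNm : MeasurableSet (⋃ j ∈ {j | pJ j}, N j))
    (hKN : ∀ j, pJ j → Kc j ⊆ N j) (hs₁ : ∀ k ∈ s', k ∈ s₁ ∨ ∃ j, pJ j ∧ Pc k ⊆ N j)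
    (cells : ∀ k ∈ s₁, ∫⁻ x in Pc k, e2 x ≤ Jf k + ε')
    (out : ∀ S : Set R3, MeasurableSet S → S ⊆ Om → (∀ x ∈ S, ∀ k ∈ s', x ∉ Pc k) →
      ∫⁻ x in S, e2 x ≤ C₀ * (∫⁻ x in S, e1 x) + ε')
    (hi : ∑ k ∈ s₁, Jf k ≤ Cu * (∫⁻ x in Om \ ⋃ j ∈ {j | pJ j}, Kc j, e1 x) + e₀) :
    ∫⁻ x in Om \ ⋃ j ∈ {j | pJ j}, N j, (1 + e2 x) ≤
      (1 + C₀ + Cu) * (∫⁻ x in Om \ ⋃ j ∈ {j | pJ j}, Kc j, (1 + e1 x)) +
        (e₀ + (s₁.card + 1) * ε') := by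
  classical
  have hsub : Om \ ⋃ j ∈ {j | pJ j}, N j ⊆ Om \ ⋃ j ∈ {j | pJ j}, Kc j := by
    refine sdiff_subset_sdiff_right ?_
    exact iUnion₂_mono fun j hj => hKN j hj
  set S : Set R3 := (Om \ ⋃ j ∈ {j | pJ j}, N j) \ ⋃ k ∈ s', Pc k with hS
  have hSm : MeasurableSet S :=
    (hOm.diff hNm).diff (Finset.measurableSet_biUnion s' hPm)
  have hcov : Om \ ⋃ j ∈ {j | pJ j}, N j ⊆ (⋃ k ∈ s₁, Pc k) ∪ S := by
    intro x hx
    by_cases h : x ∈ ⋃ k ∈ s', Pc k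
    · left
      obtain ⟨k, hk, hxk⟩ := mem_iUnion₂.1 h
      rcases hs₁ k hk with h1 | ⟨j, hj, hsub⟩
      · exact mem_iUnion₂.2 ⟨k, h1, hxk⟩
      · exact absurd (mem_iUnion₂.2 ⟨j, hj, hsub hxk⟩) hx.2
    · exact Or.inr ⟨hx, h⟩
  have h1 : ∫⁻ x in Om \ ⋃ j ∈ {j | pJ j}, N j, e2 x ≤
      ((∑ k ∈ s₁, Jf k) + s₁.card * ε') + (C₀ * (∫⁻ x in S, e1 x) + ε') := by
    refine (lintegral_mono_set hcov).trans ((lintegral_union_le _ _ _).trans ?_)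
    refine add_le_add (lint_cells s₁ cells) (out S hSm (fun x hx => hx.1.1) fun x hx k hk hxk => ?_)
    exact hx.2 (mem_iUnion₂.2 ⟨k, hk, hxk⟩)
  have h2 : ∫⁻ x in S, e1 x ≤ ∫⁻ x in Om \ ⋃ j ∈ {j | pJ j}, Kc j, e1 x :=
    lintegral_mono_set fun x hx => hsub hx.1
  rw [lintegral_add_left measurable_const, lintegral_add_left measurable_const]
  simp only [lintegral_const, one_mul, Measure.restrict_apply MeasurableSet.univ, univ_inter]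
  set V₁ := volume (Om \ ⋃ j ∈ {j | pJ j}, N j) with hV₁
  set V₂ := volume (Om \ ⋃ j ∈ {j | pJ j}, Kc j) with hV₂
  set A := ∫⁻ x in Om \ ⋃ j ∈ {j | pJ j}, Kc j, e1 x with hA
  have h3 : V₁ ≤ V₂ := measure_mono hsub
  calc V₁ + ∫⁻ x in Om \ ⋃ j ∈ {j | pJ j}, N j, e2 x
      ≤ V₂ + (((Cu * A + e₀) + s₁.card * ε') + (C₀ * A + ε')) := by
        refine add_le_add h3 (h1.trans (add_le_add (add_le_add hi le_rfl) ?_))
        exact add_le_add (mul_le_mul_right h2 _) le_rfl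
    _ = (V₂ + C₀ * A + Cu * A) + (e₀ + (s₁.card + 1) * ε') := by ring
    _ ≤ (1 + C₀ + Cu) * (V₂ + A) + (e₀ + (s₁.card + 1) * ε') := by
        refine add_le_add ?_ le_rfl
        calc V₂ + C₀ * A + Cu * A ≤ (V₂ + C₀ * A + Cu * A) + (A + C₀ * V₂ + Cu * V₂) := le_self_add
          _ = (1 + C₀ + Cu) * (V₂ + A) := by ring

/-- **the `Ly` clause of `OutP`, abstract** -/
theorem ly_le [Countable J] {pJ : J → Prop} {Lj : J → Set R3} {ev : ℝ≥0∞} (s₂ : Finset ι)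
    (hm : ∀ j, pJ j → MeasurableSet (Lj j))
    (hd : ∀ i j, pJ i → pJ j → i ≠ j → Disjoint (Lj i) (Lj j))
    (hL : ∀ j, pJ j → ∀ x ∈ Lj j, ∃ k ∈ s₂, x ∈ Pc k)
    (cells : ∀ k ∈ s₂, ∫⁻ x in Pc k, e2 x ≤ Jf k + ε') (hii : ∑ k ∈ s₂, Jf k ≤ e₀)
    (hv : ∑' j : {j // pJ j}, volume (Lj j) ≤ ev) :
    ∑' j : {j // pJ j}, ∫⁻ x in Lj j, (1 + e2 x) ≤ ev + (e₀ + s₂.card * ε') := by
  have h1 : ∀ j : {j // pJ j}, ∫⁻ x in Lj j, (1 + e2 x) = volume (Lj j) + ∫⁻ x in Lj j, e2 x := by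
    intro j
    rw [lintegral_add_left measurable_const]
    simp only [lintegral_const, one_mul, Measure.restrict_apply MeasurableSet.univ, univ_inter]
  simp_rw [h1]
  rw [ENNReal.tsum_add]
  refine add_le_add hv ?_
  rw [← lintegral_iUnion (fun j : {j // pJ j} => hm j j.2) (fun i j hij => hd i j i.2 j.2
    (fun e => hij (Subtype.ext e)))]
  refine (lintegral_mono_set ?_).trans ((lint_cells s₂ cells).trans (add_le_add hii le_rfl))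
  intro x hx
  obtain ⟨j, hj⟩ := mem_iUnion.1 hx
  obtain ⟨k, hk, hxk⟩ := hL j j.2 x hj
  exact mem_iUnion₂.2 ⟨k, hk, hxk⟩

end abstract_

/-! ### Part B: the layers of the blocks -/

section layers

variable {J : Type*} {κ s τ hh c1 θ0 θ1 c2 : ℝ} {Bs Nn : ℕ} {z0 : J → R3} {Qb : J → CB R3 3}
  {k0 : ℕ}

/-- a point of the layer is near the wall -/
theorem ly_near {Q : CB R3 3} {r : ℝ} (hκ : 0 < κ) (hcnd : ∀ v, κ / 4 * ‖v‖ ≤ ‖Q.ψ v‖)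
    {θ : ℝ} (hθ : 1 / 2 ^ k0 ≤ θ * s) (hr : 0 ≤ r) {y z : R3} (h : ‖Q.ψ y - Q.ψ z‖ ≤ r / 2 ^ k0) :
    dist y z ≤ 4 * r * κ⁻¹ * θ * s := by
  have h1 := hcnd (y - z)
  rw [map_sub] at h1
  have h2 : r / 2 ^ k0 ≤ r * (θ * s) := by
    rw [div_eq_mul_one_div]
    exact mul_le_mul_of_nonneg_left hθ hr
  have h3 : κ * ‖y - z‖ ≤ 4 * r * (θ * s) := by linarith
  rw [dist_eq_norm]
  have h4 : ‖y - z‖ ≤ (4 * r * (θ * s)) / κ := by rw [le_div_iff₀' hκ]; exact h3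
  refine h4.trans (le_of_eq ?_)
  field_simp

/-- **the layers are disjoint** -/
theorem ly_disj (hs : 0 < s) (hκ : 0 < κ) (hθ : 320 * θ0 < κ * c2) (h2 : 1 / 2 ^ k0 ≤ θ0 * s)
    (hb : ∀ j, ∀ v, κ / 4 * ‖v‖ ≤ ‖(Qb j).ψ v‖)
    (sep : ∀ i j, i ≠ j → ∀ x ∈ (Qb i).N, ∀ y ∈ (Qb j).N, c2 * s ≤ dist x y) (a : R3) {i j : J}
    (hij : i ≠ j) : Disjoint (Ly ((Qb i).tr a) k0) (Ly ((Qb j).tr a) k0) := by
  rw [Set.disjoint_left]
  rintro y ⟨z1, hz1, h3⟩ ⟨z2, hz2, h4⟩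
  have n1 : z1 - a ∈ (Qb i).N := ((Qb i).mem_N_tr a z1).1 (((Qb i).tr a).frontier_sub hz1)
  have n2 : z2 - a ∈ (Qb j).N := ((Qb j).mem_N_tr a z2).1 (((Qb j).tr a).frontier_sub hz2)
  have h5 := sep i j hij _ n1 _ n2
  rw [dist_sub_right] at h5
  have h6 := ly_near (Q := (Qb i).tr a) hκ (hb i) h2 (by norm_num) h3
  have h7 := ly_near (Q := (Qb j).tr a) hκ (hb j) h2 (by norm_num) h4
  have h8 := dist_triangle z1 y z2
  rw [dist_comm z1 y] at h8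
  have e : 4 * 40 * κ⁻¹ * θ0 * s + 4 * 40 * κ⁻¹ * θ0 * s = 320 * θ0 * κ⁻¹ * s := by ring
  have h9 : 320 * θ0 * κ⁻¹ < c2 := by
    rw [← div_eq_mul_inv, div_lt_iff₀ hκ]
    linarith
  have h10 : 320 * θ0 * κ⁻¹ * s < c2 * s := mul_lt_mul_of_pos_right h9 hs
  linarith

/-- **the volume of the layers** -/
theorem ly_vol [Countable J] (hs : 0 < s) (hc1 : 0 < c1) (hθ : 40 * θ0 ≤ c1)
    (h2 : 1 / 2 ^ k0 ≤ θ0 * s) (hb : ∀ j, c1 * s ≤ 1 / 2 ^ (Qb j).kc) (hc2 : 0 < c2)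
    (sep : ∀ i j, i ≠ j → ∀ x ∈ (Qb i).N, ∀ y ∈ (Qb j).N, c2 * s ≤ dist x y) {Om : Set R3}
    (hO : ∀ j, (Qb j).N ⊆ Om) (a : R3) :
    ∑' j, volume (Ly ((Qb j).tr a) k0) ≤ ENNReal.ofReal (7680 * θ0 / c1) * volume Om := by
  have hθ0 : 0 < θ0 := by
    have h3 : (0 : ℝ) < 1 / 2 ^ k0 := by positivity
    by_contra hcon
    have : θ0 * s ≤ 0 := mul_nonpos_of_nonpos_of_nonneg (not_lt.1 hcon) hs.le
    linarith
  have hd : Pairwise fun i j => Disjoint (Qb i).N (Qb j).N := by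
    intro i j hij
    rw [Set.disjoint_left]
    intro x hx hx'
    have h3 := sep i j hij x hx x hx'
    rw [dist_self] at h3
    have : 0 < c2 * s := by positivity
    linarith
  have hfr : 40 * θ0 / c1 ≤ 1 := by rw [div_le_one hc1]; exact hθ
  have hfr0 : 0 ≤ 40 * θ0 / c1 := by positivity
  have hnum : 48 * (40 * θ0 / c1) * (1 + 40 * θ0 / c1) ^ 2 ≤ 7680 * θ0 / c1 := by
    have h3 : (1 + 40 * θ0 / c1) ^ 2 ≤ 4 := by nlinarith
    have e : 7680 * θ0 / c1 = 48 * (40 * θ0 / c1) * 4 := by ring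
    rw [e]
    exact mul_le_mul_of_nonneg_left h3 (by positivity)
  calc ∑' j, volume (Ly ((Qb j).tr a) k0)
      ≤ ∑' j, ENNReal.ofReal (7680 * θ0 / c1) * volume (Qb j).N := by
        refine ENNReal.tsum_le_tsum fun j => ?_
        refine (Vly_186.vol_Ly ((Qb j).tr a) hc1 hs (hb j) h2).trans ?_
        rw [Vly_186.vol_N_tr]
        exact mul_le_mul_left (ENNReal.ofReal_le_ofReal hnum) _
    _ = ENNReal.ofReal (7680 * θ0 / c1) * ∑' j, volume (Qb j).N := ENNReal.tsum_mul_left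
    _ = ENNReal.ofReal (7680 * θ0 / c1) * volume (⋃ j, (Qb j).N) := by
        rw [measure_iUnion hd fun j => (Qb j).isCompact_N.measurableSet]
    _ ≤ _ := mul_le_mul_right (measure_mono (iUnion_subset hO)) _

/-- the layer is closed -/
theorem meas_ly (Q : CB R3 3) : MeasurableSet (Ly Q k0) := (Vly_186.isClosed_ly Q _).measurableSet

/-- the layer lies near the block -/
theorem ly_sub_cthick (hκ : 0 < κ) (h2 : 1 / 2 ^ k0 ≤ θ0 * s) {Q : CB R3 3}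
    (hb : ∀ v, κ / 4 * ‖v‖ ≤ ‖Q.ψ v‖) (a : R3) :
    Ly (Q.tr a) k0 ⊆ cthickening (160 * κ⁻¹ * θ0 * s) (Q.tr a).N := by
  rintro y ⟨z, hz, h⟩
  have h6 := ly_near (Q := Q.tr a) hκ hb h2 (by norm_num) h
  have e : 4 * 40 * κ⁻¹ * θ0 * s = 160 * κ⁻¹ * θ0 * s := by ring
  rw [e] at h6
  exact mem_cthickening_of_dist_le _ _ _ _ ((Q.tr a).frontier_sub hz) h6

/-- the core lies in the block -/
theorem Kc_sub_N (Q : CB R3 3) : Q.Kc ⊆ Q.N := by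
  intro y hy
  rw [CB.mem_N]
  intro l
  have h : (Q.S.lo l : ℝ) ≤ Crest.Agent.R096.Msh_810.ps Q.a' Q.kc (Q.ψ y) l ∧
      Crest.Agent.R096.Msh_810.ps Q.a' Q.kc (Q.ψ y) l ≤ Q.S.hi l := hy l
  have hw := Q.w_real
  have ht : (0 : ℝ) < Q.S.t := by exact_mod_cast Q.S.t0
  constructor <;> linarith [h.1, h.2]

end layers

end

end Crest.Agent.R096.Ou_372
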