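import Crest.Agent.R096.Xp6_537
import Crest.Agent.R096.Xq2_537

/-!
# R096 (row 96), helper609: OUT-EXPLODE, part 1

* `Expl.small_fam` : choice of `κ` such that `g κ - G` is small in `C⁰` (continuous tolerance) and has
  small local Lipschitz constants `tol i` on the members `P i` of a locally finite family.
* `hom3_of_explode` etc.
-/

set_option autoImplicit false
set_option linter.unusedSectionVars false
set_option linter.unusedVariables false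

open Set Metric Topology Module Filter
open scoped Classical NNReal ENNReal

namespace Crest.Agent.R096.Xp_537

open Crest.Agent.R096.Ce_537 (PLOn PLEquiv cube sph IsBall)

variable {E : Type*} [NormedAddCommGroup E] [NormedSpace ℝ E]
  {Q : Type*} [PartialOrder Q] {Λ : Set E}
  {E' : Type*} [NormedAddCommGroup E'] [NormedSpace ℝ E']
  {Ω : Set E'} {C : CC Λ Q} {G : E' → E}

namespace Expl

variable (X : Expl Ω C G)

/-- uniform local Lipschitz constant of `D ρ` -/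
lemma D_lip_fam [FiniteDimensional ℝ E] [FiniteDimensional ℝ E'] (hΩ : IsOpen Ω) (ρ : Q) :
    ∃ L : ℝ≥0, ∀ x ∈ Ω, ∀ᶠ y in 𝓝 x, ‖X.D ρ y - X.D ρ x‖ ≤ L * ‖y - x‖ ∧
      (x ∉ X.K ρ → X.D ρ y - X.D ρ x = 0) := by
  obtain ⟨S, hS⟩ := X.D_sel ρ
  obtain ⟨L, hL⟩ := lip_sel S
  refine ⟨L, fun x hx => ?_⟩
  obtain ⟨r, hr, hsub⟩ := Metric.isOpen_iff.1 hΩ x hx
  have h1 : LipschitzOnWith L (X.D ρ) (Metric.ball x r) :=
    hL _ _ (convex_ball x r) ((locPL_continuousOn (X.locPL_D hΩ ρ)).mono hsub)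
      (fun y hy => hS y (hsub hy))
  by_cases hK : x ∈ X.K ρ
  · filter_upwards [Metric.ball_mem_nhds x hr] with y hy
    exact ⟨h1.norm_sub_le hy (Metric.mem_ball_self hr), fun h => absurd hK h⟩
  · have hopen : IsOpen (Ω \ X.K ρ) := hΩ.sdiff (X.isCompact_K ρ).isClosed
    filter_upwards [Metric.ball_mem_nhds x hr, hopen.mem_nhds ⟨hx, hK⟩] with y hy hy2
    refine ⟨h1.norm_sub_le hy (Metric.mem_ball_self hr), fun _ => ?_⟩
    rw [X.D_notMem hx hK, X.D_notMem hy2.1 hy2.2, sub_zero]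

/-- **choice of `κ`**: `C⁰` closeness and small local Lipschitz constants of `g κ - G`. -/
theorem small_fam [FiniteDimensional ℝ E] [FiniteDimensional ℝ E'] (hΩ : IsOpen Ω) {η : E' → ℝ}
    (hη : ContinuousOn η Ω) (hη0 : ∀ x ∈ Ω, 0 < η x) {ι : Type*} (P : ι → Set E')
    (hP : ∀ x ∈ Ω, ∃ r > (0:ℝ), {i | (P i ∩ Metric.ball x r).Nonempty}.Finite)
    (tol : ι → ℝ) (htol : ∀ i, 0 < tol i) :
    ∃ c : Q → ℝ, (∀ ρ, 0 < c ρ ∧ c ρ < 1) ∧ ∀ κ : Q → ℝ, (∀ ρ, 0 < κ ρ ∧ κ ρ ≤ c ρ) →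
      (∀ x ∈ Ω, ‖X.g κ x - G x‖ ≤ η x) ∧
      (∀ i, ∀ x ∈ P i, x ∈ Ω → ‖X.g κ x - G x‖ ≤ tol i) ∧
      ∀ i, ∀ x ∈ P i, x ∈ Ω → ∀ᶠ y in 𝓝 x,
        ‖(X.g κ y - X.g κ x) - (G y - G x)‖ ≤ tol i * ‖y - x‖ := by
  have := X.countable
  obtain ⟨ω, hω, hω1⟩ := ENNReal.exists_pos_sum_of_countable (ε := 1) one_ne_zero Q
  choose L hL using fun ρ => X.D_lip_fam hΩ ρ
  choose B hB0 hB using fun ρ => X.D_bound hΩ ρ
  have hmin : ∀ ρ, ∃ h : ℝ, 0 < h ∧ ∀ x ∈ X.K ρ, h ≤ η x := by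
    intro ρ
    obtain ⟨x, hx, hmin⟩ := (X.isCompact_K ρ).exists_isMinOn (X.K_nonempty ρ)
      (hη.mono (X.K_sub ρ))
    exact ⟨η x, hη0 x (X.K_sub ρ hx), fun y hy => hmin hy⟩
  choose h hh0 hh using hmin
  -- tolerances on the supports
  have hfinP : ∀ ρ, {i | (P i ∩ X.K ρ).Nonempty}.Finite := by
    intro ρ
    choose! r hr hrf using hP
    obtain ⟨t, ht, hcov⟩ := (X.isCompact_K ρ).elim_nhds_subcover (fun x => Metric.ball x (r x))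
      (fun x hx => ball_mem_nhds x (hr x (X.K_sub ρ hx)))
    refine (t.finite_toSet.biUnion (fun x hx => hrf x (X.K_sub ρ (ht x hx)))).subset ?_
    rintro i ⟨x, hx1, hx2⟩
    obtain ⟨z, hz, hxz⟩ := mem_iUnion₂.1 (hcov hx2)
    exact mem_biUnion (Finset.mem_coe.2 hz) ⟨x, hx1, hxz⟩
  have hmin2 : ∀ ρ, ∃ τ : ℝ, 0 < τ ∧ ∀ i, (P i ∩ X.K ρ).Nonempty → τ ≤ tol i := by
    intro ρ
    rcases (hfinP ρ).toFinset.eq_empty_or_nonempty with hem | hne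
    · refine ⟨1, one_pos, fun i hi => ?_⟩
      have : i ∈ (hfinP ρ).toFinset := (hfinP ρ).mem_toFinset.2 hi
      rw [hem] at this
      simp at this
    · obtain ⟨j, hj, hm⟩ := (hfinP ρ).toFinset.exists_min_image tol hne
      exact ⟨tol j, htol j, fun i hi => hm i ((hfinP ρ).mem_toFinset.2 hi)⟩
  choose τ hτ0 hτ using hmin2
  set c : Q → ℝ := fun ρ => min (1 / 2) (min (ω ρ * h ρ / (1 + B ρ))
    (min (ω ρ * τ ρ / (1 + L ρ)) (ω ρ * τ ρ / (1 + B ρ)))) with hc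
  have hω' : ∀ ρ, (0 : ℝ) < ω ρ := fun ρ => by exact_mod_cast hω ρ
  have hc0 : ∀ ρ, 0 < c ρ := fun ρ => by
    have h1 := hω' ρ
    have h2 := hh0 ρ
    have h3 := hτ0 ρ
    have h4 := hB0 ρ
    have h5 : (0 : ℝ) ≤ L ρ := (L ρ).2
    exact lt_min (by norm_num) (lt_min (by positivity) (lt_min (by positivity) (by positivity)))
  refine ⟨c, fun ρ => ⟨hc0 ρ, (min_le_left _ _).trans_lt (by norm_num)⟩, fun κ hκ => ?_⟩
  have hκB : ∀ ρ, κ ρ * B ρ ≤ ω ρ * h ρ := fun ρ => by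
    have h4 := hB0 ρ
    have h1 : κ ρ ≤ ω ρ * h ρ / (1 + B ρ) :=
      (hκ ρ).2.trans ((min_le_right _ _).trans (min_le_left _ _))
    rw [le_div_iff₀ (by linarith)] at h1
    have := (hκ ρ).1
    nlinarith
  have hκL : ∀ ρ, κ ρ * L ρ ≤ ω ρ * τ ρ := fun ρ => by
    have h5 : (0 : ℝ) ≤ L ρ := (L ρ).2
    have h1 : κ ρ ≤ ω ρ * τ ρ / (1 + L ρ) :=
      (hκ ρ).2.trans ((min_le_right _ _).trans ((min_le_right _ _).trans (min_le_left _ _)))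
    rw [le_div_iff₀ (by linarith)] at h1
    have := (hκ ρ).1
    nlinarith
  have hκB' : ∀ ρ, κ ρ * B ρ ≤ ω ρ * τ ρ := fun ρ => by
    have h4 := hB0 ρ
    have h1 : κ ρ ≤ ω ρ * τ ρ / (1 + B ρ) :=
      (hκ ρ).2.trans ((min_le_right _ _).trans ((min_le_right _ _).trans (min_le_right _ _)))
    rw [le_div_iff₀ (by linarith)] at h1
    have := (hκ ρ).1
    nlinarith
  have hωs : ∀ F : Finset Q, ∑ ρ ∈ F, (ω ρ : ℝ) ≤ 1 := by
    intro F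
    have h1 : ∑ ρ ∈ F, (ω ρ : ℝ≥0∞) ≤ 1 := (ENNReal.sum_le_tsum F).trans hω1.le
    have h2 : ((∑ ρ ∈ F, ω ρ : ℝ≥0) : ℝ≥0∞) ≤ ((1 : ℝ≥0) : ℝ≥0∞) := by
      push_cast; exact h1
    have h3 : ∑ ρ ∈ F, ω ρ ≤ 1 := ENNReal.coe_le_coe.1 h2
    exact_mod_cast h3
  refine ⟨?_, ?_, ?_⟩
  · -- C⁰
    intro x hx
    obtain ⟨q, hq⟩ := X.cover x hx
    rw [X.g_eq_sum κ hq, add_sub_cancel_left]
    have h1 : ∀ ρ ∈ X.ups q, ‖κ ρ • X.D ρ x‖ ≤ ω ρ * η x := by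
      intro ρ _
      by_cases hK : x ∈ X.K ρ
      · rw [norm_smul, Real.norm_eq_abs, abs_of_pos (hκ ρ).1]
        calc κ ρ * ‖X.D ρ x‖ ≤ κ ρ * B ρ := mul_le_mul_of_nonneg_left (hB ρ x hx) (hκ ρ).1.le
          _ ≤ ω ρ * h ρ := hκB ρ
          _ ≤ ω ρ * η x := mul_le_mul_of_nonneg_left (hh ρ x hK) (hω' ρ).le
      · rw [X.D_notMem hx hK, smul_zero, norm_zero]
        exact mul_nonneg (hω' ρ).le (hη0 x hx).le
    calc ‖∑ ρ ∈ X.ups q, κ ρ • X.D ρ x‖ ≤ ∑ ρ ∈ X.ups q, ‖κ ρ • X.D ρ x‖ := norm_sum_le _ _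
      _ ≤ ∑ ρ ∈ X.ups q, (ω ρ : ℝ) * η x := Finset.sum_le_sum h1
      _ = (∑ ρ ∈ X.ups q, (ω ρ : ℝ)) * η x := by rw [Finset.sum_mul]
      _ ≤ 1 * η x := mul_le_mul_of_nonneg_right (hωs _) (hη0 x hx).le
      _ = η x := one_mul _
  · -- C⁰, family
    intro i x hxi hx
    obtain ⟨q, hq⟩ := X.cover x hx
    rw [X.g_eq_sum κ hq, add_sub_cancel_left]
    have h1 : ∀ ρ ∈ X.ups q, ‖κ ρ • X.D ρ x‖ ≤ ω ρ * tol i := by
      intro ρ _
      by_cases hK : x ∈ X.K ρ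
      · rw [norm_smul, Real.norm_eq_abs, abs_of_pos (hκ ρ).1]
        calc κ ρ * ‖X.D ρ x‖ ≤ κ ρ * B ρ := mul_le_mul_of_nonneg_left (hB ρ x hx) (hκ ρ).1.le
          _ ≤ ω ρ * τ ρ := hκB' ρ
          _ ≤ ω ρ * tol i := mul_le_mul_of_nonneg_left (hτ ρ i ⟨x, hxi, hK⟩) (hω' ρ).le
      · rw [X.D_notMem hx hK, smul_zero, norm_zero]
        exact mul_nonneg (hω' ρ).le (htol i).le
    calc ‖∑ ρ ∈ X.ups q, κ ρ • X.D ρ x‖ ≤ ∑ ρ ∈ X.ups q, ‖κ ρ • X.D ρ x‖ := norm_sum_le _ _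
      _ ≤ ∑ ρ ∈ X.ups q, (ω ρ : ℝ) * tol i := Finset.sum_le_sum h1
      _ = (∑ ρ ∈ X.ups q, (ω ρ : ℝ)) * tol i := by rw [Finset.sum_mul]
      _ ≤ 1 * tol i := mul_le_mul_of_nonneg_right (hωs _) (htol i).le
      _ = tol i := one_mul _
  · -- local Lipschitz
    intro i x hxi hx
    obtain ⟨F, hF⟩ := X.g_near hΩ hx
    have hall : ∀ᶠ y in 𝓝 x, ∀ ρ ∈ F, ‖X.D ρ y - X.D ρ x‖ ≤ L ρ * ‖y - x‖ ∧
        (x ∉ X.K ρ → X.D ρ y - X.D ρ x = 0) :=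
      (Finset.eventually_all F).2 (fun ρ _ => hL ρ x hx)
    filter_upwards [hF κ, hall] with y hy hy2
    rw [hy, (hF κ).self_of_nhds]
    have e1 : G y + ∑ ρ ∈ F, κ ρ • X.D ρ y - (G x + ∑ ρ ∈ F, κ ρ • X.D ρ x) - (G y - G x) =
        ∑ ρ ∈ F, κ ρ • (X.D ρ y - X.D ρ x) := by
      have : ∑ ρ ∈ F, κ ρ • (X.D ρ y - X.D ρ x) =
          ∑ ρ ∈ F, κ ρ • X.D ρ y - ∑ ρ ∈ F, κ ρ • X.D ρ x := by
        rw [← Finset.sum_sub_distrib]
        exact Finset.sum_congr rfl (fun ρ _ => smul_sub _ _ _)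
      rw [this]; abel
    rw [e1]
    have h1 : ∀ ρ ∈ F, ‖κ ρ • (X.D ρ y - X.D ρ x)‖ ≤ ω ρ * (tol i * ‖y - x‖) := by
      intro ρ hρ
      obtain ⟨h2, h3⟩ := hy2 ρ hρ
      by_cases hK : x ∈ X.K ρ
      · rw [norm_smul, Real.norm_eq_abs, abs_of_pos (hκ ρ).1]
        calc κ ρ * ‖X.D ρ y - X.D ρ x‖ ≤ κ ρ * (L ρ * ‖y - x‖) :=
              mul_le_mul_of_nonneg_left h2 (hκ ρ).1.le
          _ = (κ ρ * L ρ) * ‖y - x‖ := by ring
          _ ≤ (ω ρ * τ ρ) * ‖y - x‖ := mul_le_mul_of_nonneg_right (hκL ρ) (norm_nonneg _)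
          _ ≤ (ω ρ * tol i) * ‖y - x‖ := mul_le_mul_of_nonneg_right
              (mul_le_mul_of_nonneg_left (hτ ρ i ⟨x, hxi, hK⟩) (hω' ρ).le) (norm_nonneg _)
          _ = ω ρ * (tol i * ‖y - x‖) := by ring
      · rw [h3 hK, smul_zero, norm_zero]
        exact mul_nonneg (hω' ρ).le (mul_nonneg (htol i).le (norm_nonneg _))
    calc ‖∑ ρ ∈ F, κ ρ • (X.D ρ y - X.D ρ x)‖ ≤ ∑ ρ ∈ F, ‖κ ρ • (X.D ρ y - X.D ρ x)‖ :=
          norm_sum_le _ _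
      _ ≤ ∑ ρ ∈ F, (ω ρ : ℝ) * (tol i * ‖y - x‖) := Finset.sum_le_sum h1
      _ = (∑ ρ ∈ F, (ω ρ : ℝ)) * (tol i * ‖y - x‖) := by rw [Finset.sum_mul]
      _ ≤ 1 * (tol i * ‖y - x‖) := mul_le_mul_of_nonneg_right (hωs _)
          (mul_nonneg (htol i).le (norm_nonneg _))
      _ = tol i * ‖y - x‖ := one_mul _

end Expl

/-! ### the inner homothetic copy of a cell in the exact structure -/

section Inner

variable {c : Q} {κ : ℝ}

/-- on the inner homothetic copy of the cell `c` the layer weight is `single c 1`, the base point is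
the inverse homothety -/
lemma st_inner (C : CC Λ Q) (hκ : 0 < κ ∧ κ < 1) {t : E} (ht : t ∈ C.cell c) :
    sl C κ ((1 - κ) • t + κ • C.b c) = Finsupp.single c 1 ∧
      st C κ ((1 - κ) • t + κ • C.b c) = t := by
  have hst : State C (Finsupp.single c (1 : ℝ)) t := by
    have hw := Expl.wt_single c
    refine ⟨hw.nn, hw.sum, hw.chain, fun ρ hρ => ?_⟩
    rw [Finsupp.support_single_ne_zero c one_ne_zero, Finset.mem_singleton] at hρ
    rw [hρ]; exact ht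
  have hpk : pk C κ (Finsupp.single c (1 : ℝ)) t = (1 - κ) • t + κ • C.b c := by
    rw [pk, bs_single _ one_pos, one_smul]
  rw [← hpk]
  exact ⟨sl_pk C hκ hst, st_pk C hκ hst⟩

/-- near an interior point of the inner copy `st` is the inverse homothety -/
lemma st_inner_near (C : CC Λ Q) (hκ : 0 < κ ∧ κ < 1) {t : E} (ht : t ∈ interior (C.cell c)) :
    ∀ᶠ y in 𝓝 ((1 - κ) • t + κ • C.b c),
      st C κ y - st C κ ((1 - κ) • t + κ • C.b c) =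
        (1 - κ)⁻¹ • (y - ((1 - κ) • t + κ • C.b c)) := by
  have hk : 0 < 1 - κ := by linarith [hκ.2]
  have hcont : Continuous fun y : E => (1 - κ)⁻¹ • (y - κ • C.b c) := by fun_prop
  have e0 : (1 - κ)⁻¹ • (((1 - κ) • t + κ • C.b c) - κ • C.b c) = t := by
    rw [add_sub_cancel_right, smul_smul, inv_mul_cancel₀ hk.ne', one_smul]
  have hev : ∀ᶠ y in 𝓝 ((1 - κ) • t + κ • C.b c),
      (1 - κ)⁻¹ • (y - κ • C.b c) ∈ interior (C.cell c) := by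
    refine hcont.continuousAt.eventually_mem ?_
    rw [e0]
    exact isOpen_interior.mem_nhds ht
  filter_upwards [hev] with y hy
  have e1 : y = (1 - κ) • ((1 - κ)⁻¹ • (y - κ • C.b c)) + κ • C.b c := by
    rw [smul_smul, mul_inv_cancel₀ hk.ne', one_smul, sub_add_cancel]
  have h1 := (st_inner C hκ (interior_subset hy)).2
  rw [← e1] at h1
  rw [h1, (st_inner C hκ (interior_subset ht)).2]
  have e2 : t = (1 - κ)⁻¹ • (((1 - κ) • t + κ • C.b c) - κ • C.b c) := e0.symm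
  conv_lhs => rw [e2]
  rw [← smul_sub]
  congr 1
  abel

end Inner

end Crest.Agent.R096.Xp_537
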