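import Mathlib

/-!
# Row 96 (S0127), p = 2: leaf [L7] P2-LEVELS (helper565): levels and patches, one box after the
other, from `f` alone

For every box `i` there are: a gauge `u i` (`L i`-Lipschitz), a window `(t0 i, tm i)` of levels and
a family of faces `k : K i`.  Outside a small set of levels every face has its small balls
(*patches*), of total radius at most `σ i k`, with a property `G i k ts y ρ η`, antitone in `η`.
The levels can be chosen such that every level `ts i` stays away from the values of `u i` on the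
enlarged patches of all earlier neighbours of `i`.
-/

set_option autoImplicit false

open Set Metric MeasureTheory

namespace Crest.Agent.R096.P2l_565

/-- a finite family of balls with a level and a tolerance -/
structure Dat (Y : Type*) (K : Type*) where
  ts : ℝ
  n : K → ℕ
  y : ∀ k, Fin (n k) → Y
  ρ : ∀ k, Fin (n k) → ℝ
  η : ℝ

instance {Y K : Type*} : Nonempty (Dat Y K) :=
  ⟨⟨0, fun _ => 0, fun _ => Fin.elim0, fun _ => Fin.elim0, 0⟩⟩

variable {Y : Type*} [PseudoMetricSpace Y]

/-- one step: a level outside finitely many intervals and a small set -/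
theorem exists_level {Bad : Set ℝ} {θ : ℝ} (hθ : 0 ≤ θ) (hBad : volume Bad ≤ ENNReal.ofReal θ)
    {t0 tm : ℝ} {A : Type*} (s : Finset A) (c r : A → ℝ) (hr : ∀ a ∈ s, 0 ≤ r a)
    (h : θ + ∑ a ∈ s, 2 * r a < tm - t0) :
    ∃ ts ∈ Ioo t0 tm, ts ∉ Bad ∧ ∀ a ∈ s, r a < |ts - c a| := by
  by_contra hno
  push Not at hno
  have h1 : Ioo t0 tm ⊆ Bad ∪ ⋃ a ∈ s, Icc (c a - r a) (c a + r a) := by
    intro ts hts
    by_cases hB : ts ∈ Bad
    · exact Or.inl hB
    · obtain ⟨a, ha, hle⟩ := hno ts hts hB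
      refine Or.inr (mem_iUnion₂.2 ⟨a, ha, ?_⟩)
      have := abs_le.1 hle
      exact ⟨by linarith [this.1], by linarith [this.2]⟩
  have h2 : volume (Ioo t0 tm) ≤ ENNReal.ofReal (θ + ∑ a ∈ s, 2 * r a) := by
    refine (measure_mono h1).trans ((measure_union_le _ _).trans ?_)
    rw [ENNReal.ofReal_add hθ (Finset.sum_nonneg fun a ha => by linarith [hr a ha])]
    refine add_le_add hBad ((measure_biUnion_finset_le _ _).trans ?_)
    rw [ENNReal.ofReal_sum_of_nonneg fun a ha => by linarith [hr a ha]]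
    refine Finset.sum_le_sum fun a _ => ?_
    rw [Real.volume_Icc]
    exact ENNReal.ofReal_le_ofReal (by linarith)
  rw [Real.volume_Ioo] at h2
  have h0 : 0 ≤ θ + ∑ a ∈ s, 2 * r a :=
    add_nonneg hθ (Finset.sum_nonneg fun a ha => by linarith [hr a ha])
  have h3 := (ENNReal.ofReal_le_ofReal_iff h0).1 h2
  linarith

section Main

variable {J : Type*} [Finite J] {K : J → Type*} [∀ i, Fintype (K i)]

/-- the enlarged patches of the box `i` -/
def pat (C : ℝ) {K : Type*} (D : Dat Y K) : Set Y :=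
  ⋃ k, ⋃ m, closedBall (D.y k m) (C * D.ρ k m)

theorem isClosed_pat (C : ℝ) {K : Type*} [Finite K] (D : Dat Y K) : IsClosed (pat C D) := by
  unfold pat
  exact isClosed_iUnion_of_finite fun k => isClosed_iUnion_of_finite fun m => isClosed_closedBall

/-- **P2-LEVELS** (abstract form) -/
theorem levels (rk : J → ℕ) (nb : J → Finset J) (hnb : ∀ i, ∀ j ∈ nb i, rk j < rk i)
    (u : J → Y → ℝ) (L : J → ℝ) (hL : ∀ i, 0 ≤ L i)
    (hu : ∀ i y z, |u i y - u i z| ≤ L i * dist y z)
    (t0 tm : J → ℝ) (θ σ : ∀ i, K i → ℝ) (hθ : ∀ i k, 0 ≤ θ i k) {C : ℝ} (hC : 0 ≤ C)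
    (hsum : ∀ i, ∑ k, θ i k + ∑ j ∈ nb i, ∑ k, 2 * (L i * C * σ j k) < tm i - t0 i)
    (G : ∀ i, K i → ℝ → ∀ n : ℕ, (Fin n → Y) → (Fin n → ℝ) → ℝ → Prop)
    (hGm : ∀ i k ts n y ρ η η', η' ≤ η → 0 < η' → G i k ts n y ρ η → G i k ts n y ρ η')
    (hG : ∀ i k, ∃ Bad : Set ℝ, MeasurableSet Bad ∧ volume Bad ≤ ENNReal.ofReal (θ i k) ∧
      ∀ ts ∈ Ioo (t0 i) (tm i), ts ∉ Bad → ∃ (n : ℕ) (y : Fin n → Y) (ρ : Fin n → ℝ),
        (∀ m, 0 < ρ m) ∧ ∑ m, ρ m ≤ σ i k ∧ ∃ η > 0, G i k ts n y ρ η) :
    ∃ D : ∀ i, Dat Y (K i), ∃ η > 0,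
      (∀ i, t0 i < (D i).ts - η ∧ (D i).ts + η < tm i) ∧
      (∀ i k m, 0 < (D i).ρ k m) ∧ (∀ i k, ∑ m, (D i).ρ k m ≤ σ i k) ∧
      (∀ i k, G i k (D i).ts ((D i).n k) ((D i).y k) ((D i).ρ k) η) ∧
      (∀ i, ∀ j ∈ nb i, ∀ z ∈ pat C (D j), η < |u i z - (D i).ts|) := by
  classical
  cases nonempty_fintype J
  -- the bad levels of a box
  choose Bad hBm hBv hBG using hG
  let Q : ∀ i, Dat Y (K i) → (∀ j, Dat Y (K j)) → Prop := fun i d D =>
      (0 < d.η ∧ t0 i < d.ts - d.η ∧ d.ts + d.η < tm i) ∧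
      (∀ k m, 0 < d.ρ k m) ∧ (∀ k, ∑ m, d.ρ k m ≤ σ i k) ∧
      (∀ k, G i k d.ts (d.n k) (d.y k) (d.ρ k) d.η) ∧
      (∀ j ∈ nb i, ∀ z ∈ pat C (D j), d.η < |u i z - d.ts|)
  have key : ∀ N : ℕ, ∃ D : ∀ i, Dat Y (K i), ∀ i, rk i < N → Q i (D i) D := by
    intro N
    induction N with
    | zero =>
      exact ⟨fun i => ⟨0, fun _ => 0, fun _ => Fin.elim0, fun _ => Fin.elim0, 0⟩,
        fun i h => absurd h (Nat.not_lt_zero _)⟩
    | succ N ih =>
      obtain ⟨D, hD⟩ := ih
      -- the new data of the boxes of rank `N`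
      have step : ∀ i, rk i = N → ∃ D' : Dat Y (K i), Q i D' D := by
        intro i hi
        have hpos : ∀ j ∈ nb i, ∀ k m, 0 < (D j).ρ k m := fun j hj =>
          (hD j (by rw [← hi]; exact hnb i j hj)).2.1
        have hσ : ∀ j ∈ nb i, ∀ k, ∑ m, (D j).ρ k m ≤ σ j k := fun j hj =>
          (hD j (by rw [← hi]; exact hnb i j hj)).2.2.1
        -- the forbidden intervals
        let s : Finset (Σ j : J, Σ k : K j, Fin ((D j).n k)) :=
          (nb i).sigma fun j => Finset.univ
        obtain ⟨ts, hts, hB, hav⟩ := exists_level (Bad := ⋃ k, Bad i k)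
          (θ := ∑ k, θ i k) (Finset.sum_nonneg fun k _ => hθ i k)
          (by
            refine (measure_iUnion_le _).trans ?_
            rw [tsum_fintype, ENNReal.ofReal_sum_of_nonneg fun k _ => hθ i k]
            exact Finset.sum_le_sum fun k _ => hBv i k)
          (t0 := t0 i) (tm := tm i) s
          (fun a => u i ((D a.1).y a.2.1 a.2.2)) (fun a => L i * C * (D a.1).ρ a.2.1 a.2.2)
          (by
            intro a ha
            exact mul_nonneg (mul_nonneg (hL i) hC)
              (hpos a.1 (Finset.mem_sigma.1 ha).1 _ _).le)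
          (by
            refine lt_of_le_of_lt ?_ (hsum i)
            refine add_le_add le_rfl ?_
            simp only [s]
            rw [Finset.sum_sigma]
            refine Finset.sum_le_sum fun j hj => ?_
            rw [← Finset.univ_sigma_univ, Finset.sum_sigma]
            refine Finset.sum_le_sum fun k _ => ?_
            simp only
            rw [← Finset.mul_sum, ← Finset.mul_sum]
            have := mul_le_mul_of_nonneg_left (hσ j hj k) (mul_nonneg (hL i) hC)
            linarith)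
        have hB' : ∀ k, ts ∉ Bad i k := fun k hk => hB (mem_iUnion.2 ⟨k, hk⟩)
        choose n y ρ hρ hρs η1 hη1 hG1 using fun k => hBG i k ts hts (hB' k)
        -- the tolerance
        obtain ⟨η2, hη2, hη2'⟩ : ∃ η2 > 0, ∀ a ∈ s,
            η2 < |ts - u i ((D a.1).y a.2.1 a.2.2)| - L i * C * (D a.1).ρ a.2.1 a.2.2 := by
          rcases s.eq_empty_or_nonempty with hs | hs
          · exact ⟨1, one_pos, fun a ha => by rw [hs] at ha; exact absurd ha (Finset.notMem_empty _)⟩
          · obtain ⟨a0, ha0, hmin⟩ := s.exists_min_image (fun a =>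
              |ts - u i ((D a.1).y a.2.1 a.2.2)| - L i * C * (D a.1).ρ a.2.1 a.2.2) hs
            have h0 := hav a0 ha0
            refine ⟨(|ts - u i ((D a0.1).y a0.2.1 a0.2.2)| -
              L i * C * (D a0.1).ρ a0.2.1 a0.2.2) / 2, by linarith, fun a ha => ?_⟩
            have := hmin a ha
            linarith
        obtain ⟨η3, hη3, hη3'⟩ : ∃ η3 > 0, ∀ k, η3 ≤ η1 k := by
          rcases isEmpty_or_nonempty (K i) with hK | hK
          · exact ⟨1, one_pos, fun k => (hK.false k).elim⟩
          · obtain ⟨k0, hmin⟩ := Finite.exists_min η1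
            exact ⟨η1 k0, hη1 k0, hmin⟩
        obtain ⟨η, hη, h1, h2, h3, h4⟩ : ∃ η > 0, η ≤ η2 ∧ η ≤ η3 ∧ η < ts - t0 i ∧
            η < tm i - ts := by
          refine ⟨min (min η2 η3) (min ((ts - t0 i) / 2) ((tm i - ts) / 2)), ?_, ?_, ?_, ?_, ?_⟩
          · have := hts.1
            have := hts.2
            refine lt_min (lt_min hη2 hη3) (lt_min ?_ ?_) <;> linarith
          · exact (min_le_left _ _).trans (min_le_left _ _)
          · exact (min_le_left _ _).trans (min_le_right _ _)
          · refine lt_of_le_of_lt ((min_le_right _ _).trans (min_le_left _ _)) ?_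
            have := hts.1
            linarith
          · refine lt_of_le_of_lt ((min_le_right _ _).trans (min_le_right _ _)) ?_
            have := hts.2
            linarith
        refine ⟨⟨ts, n, y, ρ, η⟩, ⟨hη, by simp only; linarith, by simp only; linarith⟩, hρ, hρs,
          fun k => hGm i k ts _ _ _ _ _ (h2.trans (hη3' k)) hη (hG1 k), ?_⟩
        intro j hj z hz
        simp only [pat, mem_iUnion] at hz
        obtain ⟨k, m, hz⟩ := hz
        have e1 := hη2' ⟨j, k, m⟩ (by simp [s, hj])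
        simp only at e1
        have e2 := hu i z ((D j).y k m)
        have e3 : L i * dist z ((D j).y k m) ≤ L i * (C * (D j).ρ k m) :=
          mul_le_mul_of_nonneg_left (mem_closedBall.1 hz) (hL i)
        have e4 : |ts - u i ((D j).y k m)| ≤ |u i z - ts| + |u i z - u i ((D j).y k m)| := by
          have : ts - u i ((D j).y k m) = -(u i z - ts) + (u i z - u i ((D j).y k m)) := by ring
          rw [this]
          refine (abs_add_le _ _).trans ?_
          rw [abs_neg]
        simp only
        have e5 : L i * C * (D j).ρ k m = L i * (C * (D j).ρ k m) := by ring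
        linarith
      choose! D' hD' using step
      refine ⟨fun i => if rk i = N then D' i else D i, ?_⟩
      intro i hi
      have hnb' : ∀ j ∈ nb i, (if rk j = N then D' j else D j) = D j := by
        intro j hj
        have := hnb i j hj
        rw [if_neg (by omega)]
      have hQ : ∀ d : Dat Y (K i), Q i d D →
          Q i d (fun i => if rk i = N then D' i else D i) := by
        rintro d ⟨a1, a2, a3, a4, a5⟩
        refine ⟨a1, a2, a3, a4, fun j hj z hz => a5 j hj z ?_⟩
        have hz' : z ∈ pat C (if rk j = N then D' j else D j) := hz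
        rwa [hnb' j hj] at hz'
      by_cases hiN : rk i = N
      · show Q i (if rk i = N then D' i else D i) _
        rw [if_pos hiN]
        exact hQ _ (hD' i hiN)
      · show Q i (if rk i = N then D' i else D i) _
        rw [if_neg hiN]
        exact hQ _ (hD i (by omega))
  obtain ⟨N, hN⟩ : ∃ N, ∀ i, rk i < N := by
    refine ⟨Finset.univ.sup rk + 1, fun i => ?_⟩
    have := Finset.le_sup (f := rk) (Finset.mem_univ i)
    omega
  obtain ⟨D, hD⟩ := key N
  obtain ⟨η, hη, hη'⟩ : ∃ η > 0, ∀ i, η ≤ (D i).η := by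
    rcases isEmpty_or_nonempty J with hJ | hJ
    · exact ⟨1, one_pos, fun k => (hJ.false k).elim⟩
    · obtain ⟨k0, hmin⟩ := Finite.exists_min fun i => (D i).η
      exact ⟨(D k0).η, (hD k0 (hN k0)).1.1, hmin⟩
  refine ⟨D, η, hη, fun i => ?_, fun i => (hD i (hN i)).2.1, fun i => (hD i (hN i)).2.2.1,
    fun i k => hGm i k _ _ _ _ _ _ (hη' i) hη ((hD i (hN i)).2.2.2.1 k), fun i j hj z hz => ?_⟩
  · obtain ⟨a1, a2, a3⟩ := (hD i (hN i)).1
    have := hη' i
    exact ⟨by linarith, by linarith⟩
  · exact lt_of_le_of_lt (hη' i) ((hD i (hN i)).2.2.2.2 j hj z hz)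

end Main

end Crest.Agent.R096.P2l_565
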