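import Crest.Agent.R096.P2l1_565

/-!
# Row 96 (S0127), p = 2: leaf [L7] P2-LEVELS (helper565), the form of `small_circles_pre` (753)
-/

set_option autoImplicit false

open Set Metric MeasureTheory

namespace Crest.Agent.R096.P2l_565

variable {X : Type*} [NormedAddCommGroup X] [NormedSpace ℝ X] {Y : Type*} [PseudoMetricSpace Y]

/-- the conclusion of `small_circles_pre` (753 #10029) at the level `ts` with tolerance `η`: every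
significant curve `Γ` of a map `h` near `f`, at a level `t` near `ts`, is mapped into one ball -/
def Cov (F : Set X) (f : X → Y) (u : Y → ℝ) (t1 ts : ℝ) (n : ℕ) (y : Fin n → Y) (ρ : Fin n → ℝ)
    (η : ℝ) : Prop :=
  ∀ t, |t - ts| ≤ η → ∀ h : X → Y, (∀ x ∈ F, dist (h x) (f x) ≤ η) →
    ∀ K Γ : Set X, Γ ⊆ F → IsPreconnected Γ → (∀ x ∈ Γ, u (h x) = t) →
      (∃ x ∈ K ∩ F, t1 ≤ u (h x) ∧ ∃ p ∈ F, ∃ q ∈ F, p ∉ K ∧ q ∉ K ∧ x ∈ segment ℝ p q) →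
      (∀ S ⊆ F, IsPreconnected S → (S ∩ K).Nonempty → ¬ S ⊆ K → (S ∩ Γ).Nonempty) →
      ∃ m, h '' Γ ⊆ closedBall (y m) (ρ m)

theorem Cov.mono {F : Set X} {f : X → Y} {u : Y → ℝ} {t1 ts : ℝ} {n : ℕ} {y : Fin n → Y}
    {ρ : Fin n → ℝ} {η η' : ℝ} (hη : η' ≤ η) (H : Cov F f u t1 ts n y ρ η) :
    Cov F f u t1 ts n y ρ η' :=
  fun t ht h hh => H t (ht.trans hη) h fun x hx => (hh x hx).trans hη

/-- continuous `h` only (968's original hypothesis) -/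
def CovC (F : Set X) (f : X → Y) (u : Y → ℝ) (t1 ts : ℝ) (n : ℕ) (y : Fin n → Y) (ρ : Fin n → ℝ)
    (η : ℝ) : Prop :=
  ∀ t, |t - ts| ≤ η → ∀ h : X → Y, ContinuousOn h F → (∀ x ∈ F, dist (h x) (f x) ≤ η) →
    ∀ K Γ : Set X, Γ ⊆ F → IsPreconnected Γ → (∀ x ∈ Γ, u (h x) = t) →
      (∃ x ∈ K ∩ F, t1 ≤ u (h x) ∧ ∃ p ∈ F, ∃ q ∈ F, p ∉ K ∧ q ∉ K ∧ x ∈ segment ℝ p q) →
      (∀ S ⊆ F, IsPreconnected S → (S ∩ K).Nonempty → ¬ S ⊆ K → (S ∩ Γ).Nonempty) →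
      ∃ m, h '' Γ ⊆ closedBall (y m) (ρ m)

theorem CovC.mono {F : Set X} {f : X → Y} {u : Y → ℝ} {t1 ts : ℝ} {n : ℕ} {y : Fin n → Y}
    {ρ : Fin n → ℝ} {η η' : ℝ} (hη : η' ≤ η) (H : CovC F f u t1 ts n y ρ η) :
    CovC F f u t1 ts n y ρ η' :=
  fun t ht h hc hh => H t (ht.trans hη) h hc fun x hx => (hh x hx).trans hη

section Main

variable {J : Type*} [Finite J] {K : J → Type*} [∀ i, Fintype (K i)]

/-- **P2-LEVELS** for `small_circles_pre`: box `i` has the faces `F i k`, `k : K i`, the gauge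
`u i`, the window `(t0 i, tm i)` and the threshold `t1 i`. -/
theorem levels_sc (rk : J → ℕ) (nb : J → Finset J) (hnb : ∀ i, ∀ j ∈ nb i, rk j < rk i)
    (u : J → Y → ℝ) (L : J → ℝ) (hL : ∀ i, 0 ≤ L i)
    (hu : ∀ i y z, |u i y - u i z| ≤ L i * dist y z)
    (t0 tm t1 : J → ℝ) (θ σ : ∀ i, K i → ℝ) (hθ : ∀ i k, 0 ≤ θ i k) {C : ℝ} (hC : 0 ≤ C)
    (hsum : ∀ i, ∑ k, θ i k + ∑ j ∈ nb i, ∑ k, 2 * (L i * C * σ j k) < tm i - t0 i)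
    (F : ∀ i, K i → Set X) (f : X → Y)
    (hG : ∀ i k, ∃ Bad : Set ℝ, MeasurableSet Bad ∧ volume Bad ≤ ENNReal.ofReal (θ i k) ∧
      ∀ ts ∈ Ioo (t0 i) (tm i), ts ∉ Bad → ∃ (n : ℕ) (y : Fin n → Y) (ρ : Fin n → ℝ),
        (∀ m, 0 < ρ m) ∧ ∑ m, ρ m ≤ σ i k ∧ ∃ η > 0, Cov (F i k) f (u i) (t1 i) ts n y ρ η) :
    ∃ D : ∀ i, Dat Y (K i), ∃ η > 0,
      (∀ i, t0 i < (D i).ts - η ∧ (D i).ts + η < tm i) ∧
      (∀ i k m, 0 < (D i).ρ k m) ∧ (∀ i k, ∑ m, (D i).ρ k m ≤ σ i k) ∧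
      (∀ i k, Cov (F i k) f (u i) (t1 i) (D i).ts ((D i).n k) ((D i).y k) ((D i).ρ k) η) ∧
      (∀ i, ∀ j ∈ nb i, ∀ z ∈ pat C (D j), η < |u i z - (D i).ts|) :=
  levels rk nb hnb u L hL hu t0 tm θ σ hθ hC hsum
    (fun i k ts n y ρ η => Cov (F i k) f (u i) (t1 i) ts n y ρ η)
    (fun _ _ _ _ _ _ _ _ h _ H => H.mono h) hG

/-- the same for `CovC` -/
theorem levels_scC (rk : J → ℕ) (nb : J → Finset J) (hnb : ∀ i, ∀ j ∈ nb i, rk j < rk i)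
    (u : J → Y → ℝ) (L : J → ℝ) (hL : ∀ i, 0 ≤ L i)
    (hu : ∀ i y z, |u i y - u i z| ≤ L i * dist y z)
    (t0 tm t1 : J → ℝ) (θ σ : ∀ i, K i → ℝ) (hθ : ∀ i k, 0 ≤ θ i k) {C : ℝ} (hC : 0 ≤ C)
    (hsum : ∀ i, ∑ k, θ i k + ∑ j ∈ nb i, ∑ k, 2 * (L i * C * σ j k) < tm i - t0 i)
    (F : ∀ i, K i → Set X) (f : X → Y)
    (hG : ∀ i k, ∃ Bad : Set ℝ, MeasurableSet Bad ∧ volume Bad ≤ ENNReal.ofReal (θ i k) ∧
      ∀ ts ∈ Ioo (t0 i) (tm i), ts ∉ Bad → ∃ (n : ℕ) (y : Fin n → Y) (ρ : Fin n → ℝ),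
        (∀ m, 0 < ρ m) ∧ ∑ m, ρ m ≤ σ i k ∧ ∃ η > 0, CovC (F i k) f (u i) (t1 i) ts n y ρ η) :
    ∃ D : ∀ i, Dat Y (K i), ∃ η > 0,
      (∀ i, t0 i < (D i).ts - η ∧ (D i).ts + η < tm i) ∧
      (∀ i k m, 0 < (D i).ρ k m) ∧ (∀ i k, ∑ m, (D i).ρ k m ≤ σ i k) ∧
      (∀ i k, CovC (F i k) f (u i) (t1 i) (D i).ts ((D i).n k) ((D i).y k) ((D i).ρ k) η) ∧
      (∀ i, ∀ j ∈ nb i, ∀ z ∈ pat C (D j), η < |u i z - (D i).ts|) :=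
  levels rk nb hnb u L hL hu t0 tm θ σ hθ hC hsum
    (fun i k ts n y ρ η => CovC (F i k) f (u i) (t1 i) ts n y ρ η)
    (fun _ _ _ _ _ _ _ _ h _ H => H.mono h) hG

/-- the shell of the box `i` misses the enlarged patches of the earlier neighbours -/
theorem shell_disjoint {K : Type*} {u : Y → ℝ} {ts η C : ℝ} {D : Dat Y K}
    (h : ∀ z ∈ pat C D, η < |u z - ts|) {a b : ℝ} (ha : ts - η ≤ a) (hb : b ≤ ts + η) :
    Disjoint {y | a ≤ u y ∧ u y ≤ b} (pat C D) := by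
  rw [Set.disjoint_left]
  rintro y ⟨h1, h2⟩ hy
  have h3 := h y hy
  rw [lt_abs] at h3
  rcases h3 with h3 | h3 <;> linarith

end Main

end Crest.Agent.R096.P2l_565
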