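import Crest.Agent.R096.P2l4_565

/-!
# Row 96 (S0127), p = 2: leaf [L7] P2-LEVELS (helper565), part 5: the box with patches of one tile
-/

set_option autoImplicit false
set_option linter.unusedSectionVars false

open Set Metric MeasureTheory

namespace Crest.Agent.R096.P2l_565

open Msh_715 (Tiling)
open Ce_537 (IsBall)
open Sk2_855 (sk1 HP Mv)
open Srg_465 (Circ DiscIn Ls)
open Ub_113 (UBox)
open Pst_465 (PBox)

variable {E : Type*} [NormedAddCommGroup E] [NormedSpace ℝ E] {Om La : Set E} {ι : Type*}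
  [FiniteDimensional ℝ E]

/-- the box with patches of one tile at a chosen level -/
theorem exists_pbox {T : Tiling Om ι} {f : E → E} {F Y : Set E} (O : One2 T La f F Y)
    (D : Dat E O.Fs) {η : ℝ} (hη : 0 < η) (h0 : O.t0 < D.ts - η) (hm : D.ts + η < O.tm)
    (hρ : ∀ k m, 0 < D.ρ k m) (hσ : ∀ k, ∑ m, D.ρ k m ≤ O.σf)
    (hcov : ∀ k : O.Fs, Cov (T.cc k) f O.u O.th D.ts (D.n k) (D.y k) (D.ρ k) η)
    (hG : D.ts ∈ O.G) {ζ : ℝ} (hζ : 0 < ζ) (hζη : ζ ≤ η) :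
    ∃ (B : PBox T La) (η' : ℝ), 0 < η' ∧ B.u = O.u ∧ D.ts - ζ ≤ B.a ∧ B.b ≤ D.ts + ζ ∧
      B.t1 = O.t1 ∧ B.N = {x | T.cc x ⊆ F} ∧
      (∀ k, ∃ x ∈ sk1 T, O.u (f x) = D.ts ∧ B.M k ⊆ closedBall (f x) ζ) ∧
      (⋃ m, B.c' m = pat O.C D) ∧
      (∃ (y : Fin B.n → E) (ρ : Fin B.n → ℝ), (∀ m, 0 < ρ m) ∧
        (∀ m, B.c' m = closedBall (y m) (ρ m)) ∧ ∑ m, ρ m ≤ O.C * (O.Fs.card * O.σf)) ∧
      ∀ h : E → E, (∀ x ∈ Om, ‖h x - f x‖ ≤ η') → B.Ok h ∧ B.Sig h O.th ∧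
        ∀ x ∈ Om, T.dim x = 2 → T.cc x ⊆ F → B.Own h x := by
  classical
  have hts : D.ts ∈ Ioo O.t0 O.tm := ⟨by linarith, by linarith⟩
  set ζ' : ℝ := min ζ ((O.D0 - 2 * (O.C * (O.Fs.card * O.σf))) / 8) with hζ'
  have hgap := O.hD0
  have hζ0 : 0 < ζ' := lt_min hζ (by linarith)
  have hζ1 : ζ' ≤ ζ := min_le_left _ _
  have hζ2 : ζ' ≤ (O.D0 - 2 * (O.C * (O.Fs.card * O.σf))) / 8 := min_le_right _ _
  obtain ⟨B0, η0, hη0, hu, ha, ha', hb', hb, hM, hOk⟩ := O.box D.ts hG hts ζ' hζ0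
  -- the index set of the balls
  let e := Fintype.equivFin (Σ k : O.Fs, Fin (D.n k))
  let c : Fin (Fintype.card (Σ k : O.Fs, Fin (D.n k))) → E := fun m =>
    D.y (e.symm m).1 (e.symm m).2
  let r : Fin (Fintype.card (Σ k : O.Fs, Fin (D.n k))) → ℝ := fun m =>
    D.ρ (e.symm m).1 (e.symm m).2
  have hr : ∀ m, 0 < r m := fun m => hρ _ _
  have hrσ : ∀ m, r m ≤ O.Fs.card * O.σf := by
    intro m
    have h1 : r m ≤ ∑ m', D.ρ (e.symm m).1 m' :=
      Finset.single_le_sum (f := fun m' => D.ρ (e.symm m).1 m') (fun m' _ => (hρ _ m').le)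
        (Finset.mem_univ (e.symm m).2)
    have h2 := h1.trans (hσ _)
    have h3 : 0 < O.σf := (hr m).trans_le h2
    have h4 : (1 : ℝ) ≤ O.Fs.card := by
      have : 0 < O.Fs.card := Finset.card_pos.2 ⟨_, (e.symm m).1.2⟩
      exact_mod_cast this
    nlinarith
  have hsumr : ∑ m, r m ≤ O.Fs.card * O.σf := by
    have h1 : ∑ m, r m = ∑ a : (Σ k : O.Fs, Fin (D.n k)), D.ρ a.1 a.2 :=
      Fintype.sum_equiv e.symm _ _ fun _ => rfl
    rw [h1, ← Finset.univ_sigma_univ, Finset.sum_sigma]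
    calc ∑ k : O.Fs, ∑ m, D.ρ k m ≤ ∑ _k : O.Fs, O.σf := Finset.sum_le_sum fun k _ => hσ k
      _ = O.Fs.card * O.σf := by simp
  have hwin : ∀ t ∈ Ioo B0.a B0.b, t ∈ Ioo O.t0 O.tm ∧ |t - D.ts| ≤ η := by
    intro t ht
    refine ⟨⟨by linarith [ht.1], by linarith [ht.2]⟩, ?_⟩
    rw [abs_le]
    exact ⟨by linarith [ht.1], by linarith [ht.2]⟩
  -- the marks are not all in one patch
  have hfar : ∀ t ∈ Ioo B0.a B0.b, ∀ m, ∃ k, ∃ y ∈ B0.M k, B0.u y = t ∧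
      y ∉ closedBall (c m) (O.C * r m) := by
    intro t ht m
    obtain ⟨hOf, -⟩ := hOk f fun x _ => by rw [sub_self, norm_zero]; exact hη0.le
    have key : ∀ x ∈ sk1 T, O.u (f x) = D.ts → ∃ k, ∃ y ∈ B0.M k, B0.u y = t ∧
        dist y (f x) ≤ 2 * ζ' := by
      intro x hx hxs
      obtain ⟨k, -, hk⟩ := hOf.edges x hx ⟨by rw [hu, hxs]; exact ha'.le, by
        rw [hu, hxs]; exact hb'.le⟩
      obtain ⟨y, hy, hyt⟩ := (B0.Mlev k t ⟨ht.1.le, ht.2.le⟩).2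
      obtain ⟨x', -, -, hsub⟩ := hM k
      refine ⟨k, y, hy, hyt, ?_⟩
      have d1 := mem_closedBall.1 (hsub hy)
      have d2 := mem_closedBall'.1 (hsub hk)
      have := dist_triangle y (f x') (f x)
      linarith
    obtain ⟨x1, hx1, x2, hx2, e1, e2, hd⟩ := O.spread D.ts hG hts
    obtain ⟨k1, y1, hy1, ht1, hd1⟩ := key x1 hx1 e1
    obtain ⟨k2, y2, hy2, ht2, hd2⟩ := key x2 hx2 e2
    by_cases h1 : y1 ∈ closedBall (c m) (O.C * r m)
    · by_cases h2 : y2 ∈ closedBall (c m) (O.C * r m)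
      · exfalso
        have d1 := mem_closedBall.1 h1
        have d2 := mem_closedBall'.1 h2
        have t1 := dist_triangle4 (f x1) y1 y2 (f x2)
        have t2 := dist_triangle y1 (c m) y2
        have t3 : O.C * r m ≤ O.C * (O.Fs.card * O.σf) :=
          mul_le_mul_of_nonneg_left (hrσ m) O.C0.le
        rw [dist_comm] at hd1
        linarith
      · exact ⟨k2, y2, hy2, ht2, h2⟩
    · exact ⟨k1, y1, hy1, ht1, h1⟩
  let B : PBox T La :=
    { toUBox := B0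
      n := _
      c := fun m => closedBall (c m) (r m)
      c' := fun m => closedBall (c m) (O.C * r m)
      cl := fun m => isClosed_closedBall
      t1 := O.t1
      bt := by linarith [O.mh, O.ht]
      sep := by
        intro t ht m
        rw [hu]
        exact O.patch t (hwin t ht).1 (c m) (r m) (hr m)
      far := hfar
      N := {x | T.cc x ⊆ F} }
  refine ⟨B, min η0 η, ?_, hu, by linarith, by linarith, rfl, rfl, ?_, ?_, ?_,
    fun h hh => ?_⟩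
  · exact lt_min hη0 hη
  · intro k
    obtain ⟨x, hx, hxs, hsub⟩ := hM k
    exact ⟨x, hx, hxs, hsub.trans (closedBall_subset_closedBall hζ1)⟩
  · ext z
    simp only [pat, mem_iUnion, B, c, r]
    constructor
    · rintro ⟨m, hz⟩
      exact ⟨_, _, hz⟩
    · rintro ⟨k, m, hz⟩
      refine ⟨e ⟨k, m⟩, ?_⟩
      rw [Equiv.symm_apply_apply]
      exact hz
  · refine ⟨c, fun m => O.C * r m, fun m => mul_pos O.C0 (hr m), fun m => rfl, ?_⟩
    rw [← Finset.mul_sum]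
    exact mul_le_mul_of_nonneg_left hsumr O.C0.le
  · have hh0 : ∀ x ∈ Om, ‖h x - f x‖ ≤ η0 := fun x hx => (hh x hx).trans (min_le_left _ _)
    have hh1 : ∀ x ∈ Om, ‖h x - f x‖ ≤ η := fun x hx => (hh x hx).trans (min_le_right _ _)
    obtain ⟨hO1, hO2⟩ := hOk h hh0
    refine ⟨hO1, ?_, ?_⟩
    · rintro x ⟨hsub, hx, hd, -, hrim⟩ t ht Γ K hΓ hK hz
      obtain ⟨x', hx', ecc⟩ := O.rep x hx hd hsub
      have hc := hcov ⟨x', hx'⟩
      simp only at hc
      rw [ecc] at hc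
      have hu' : ∀ z, B.u z = O.u z := fun z => congrFun hu z
      have hcirc : Circ (T.cc x) (T.cc x ∩ sk1 T) (fun z => O.u (h z)) t Γ := by
        have : (fun z => O.u (h z)) = fun z => B.u (h z) := funext fun z => (hu' (h z)).symm
        rw [this]
        exact hΓ
      obtain ⟨m, hm'⟩ := sig_of_cov hx hd hc hh1 (hwin t ht).2 hcirc hK (by
        obtain ⟨z, hz, hz'⟩ := hz
        exact ⟨z, hz, by rw [← hu']; exact hz'⟩)
      refine ⟨e ⟨⟨x', hx'⟩, m⟩, hm'.trans (le_of_eq ?_)⟩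
      exact (congrArg (fun a : (Σ k : O.Fs, Fin (D.n k)) =>
        closedBall (D.y a.1 a.2) (D.ρ a.1 a.2)) (e.symm_apply_apply ⟨⟨x', hx'⟩, m⟩)).symm
    · intro x hx hd hF
      obtain ⟨h1, h2⟩ := hO2 x hx hd hF
      refine ⟨hF, hx, hd, h1, fun z hz hz1 => ?_⟩
      show B0.u (h z) < B0.a
      rw [hu]
      exact h2 z hz hz1

end Crest.Agent.R096.P2l_565
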