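import Crest.Agent.R096.P2l5_565
import Crest.Agent.R096.Sk3a_270

/-!
# Row 96 (S0127), p = 2: leaf [L7] P2-LEVELS (helper565), part 6: the family of boxes
-/

set_option autoImplicit false
set_option linter.unusedSectionVars false

open Set Metric MeasureTheory

namespace Crest.Agent.R096.P2l_565

open Msh_715 (Tiling)
open Ce_537 (IsBall)
open Sk2_855 (sk1 HP Mv)
open Ub_113 (UBox)
open Pst_465 (PBox)

/-- a preconnected subset of a finite union of balls has diameter at most the sum of the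
diameters -/
theorem dist_le_of_cover {E : Type*} [PseudoMetricSpace E] {S : Set E} (hS : IsPreconnected S)
    {κ : Type*} (s : Finset κ) (c : κ → E) (r : κ → ℝ) (hr : ∀ m ∈ s, 0 ≤ r m)
    (hcov : S ⊆ ⋃ m ∈ s, closedBall (c m) (r m)) {y z : E} (hy : y ∈ S) (hz : z ∈ S) :
    dist y z ≤ ∑ m ∈ s, 2 * r m := by
  have hc : Continuous fun x => dist y x := by fun_prop
  have h1 : Icc 0 (dist y z) ⊆ ⋃ m ∈ s, Icc (dist y (c m) - r m) (dist y (c m) + r m) := by
    have h2 : Icc 0 (dist y z) ⊆ (fun x => dist y x) '' S := by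
      have := hS.intermediate_value hy hz hc.continuousOn
      simpa using this
    refine h2.trans ?_
    rintro _ ⟨x, hx, rfl⟩
    obtain ⟨m, hm, hxm⟩ := mem_iUnion₂.1 (hcov hx)
    refine mem_iUnion₂.2 ⟨m, hm, ?_⟩
    have h3 := mem_closedBall.1 hxm
    have h4 := dist_triangle y x (c m)
    have h5 := dist_triangle y (c m) x
    rw [dist_comm (c m) x] at h5
    exact ⟨by linarith, by linarith⟩
  have h2 : volume (Icc 0 (dist y z)) ≤ ENNReal.ofReal (∑ m ∈ s, 2 * r m) := by
    refine (measure_mono h1).trans ((measure_biUnion_finset_le _ _).trans ?_)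
    rw [ENNReal.ofReal_sum_of_nonneg fun m hm => by linarith [hr m hm]]
    refine Finset.sum_le_sum fun m _ => ?_
    rw [Real.volume_Icc]
    exact ENNReal.ofReal_le_ofReal (by linarith)
  rw [Real.volume_Icc, sub_zero] at h2
  exact (ENNReal.ofReal_le_ofReal_iff
    (Finset.sum_nonneg fun m hm => by linarith [hr m hm])).1 h2

/-- an injective rank which refines the colours -/
theorem exists_rank {J : Type*} [Finite J] {n : ℕ} (col : J → Fin n) :
    ∃ rk : J → ℕ, Function.Injective rk ∧ ∀ i j, col i < col j → rk i < rk j := by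
  cases nonempty_fintype J
  let e := Fintype.equivFin J
  have hlt : ∀ i j, col i < col j → (col i : ℕ) * Fintype.card J + e i <
      (col j : ℕ) * Fintype.card J + e j := by
    intro i j h
    have h1 : (col i : ℕ) + 1 ≤ col j := h
    have h2 : ((e i : Fin _) : ℕ) < Fintype.card J := (e i).2
    have h3 := Nat.mul_le_mul_right (Fintype.card J) h1
    rw [add_mul, one_mul] at h3
    omega
  refine ⟨fun j => (col j : ℕ) * Fintype.card J + e j, fun i j h => ?_, hlt⟩
  rcases lt_trichotomy (col i) (col j) with h1 | h1 | h1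
  · exact absurd h (hlt i j h1).ne
  · simp only at h
    rw [h1] at h
    exact e.injective (Fin.ext (by omega))
  · exact absurd h (hlt j i h1).ne'

variable {E : Type*} [NormedAddCommGroup E] [NormedSpace ℝ E] {Om La : Set E} {ι : Type*}
  [FiniteDimensional ℝ E]

theorem isClosed_patB {T : Tiling Om ι} (B : PBox T La) : IsClosed B.pat := by
  unfold PBox.pat UBox.shell
  refine ((isClosed_le continuous_const B.cont).inter
    (isClosed_le B.cont continuous_const)).inter (isClosed_iUnion_of_finite fun m => B.cl m)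

/-- **the boxes of a finite family of tiles, p = 2**: levels, patches and tolerance from `f`
alone.  `g` = the group of a tile (good cube); `Sg a` bounds the total radius of all patches of
the group `a`. -/
theorem family2 {T : Tiling Om ι} {f : E → E} {J : Type*} [Fintype J] {F Y : J → Set E}
    (O : ∀ j, One2 T La f (F j) (Y j)) {n : ℕ} (col : J → Fin n) {A : Type*} [DecidableEq A]
    (g : J → A) (hg : ∀ j j', g j ≠ g j' → Disjoint (Y j) (Y j')) (Sg : A → ℝ)
    (hS : ∀ a, ∑ j ∈ Finset.univ.filter (fun j => g j = a),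
      (O j).C * ((O j).Fs.card * (O j).σf) ≤ Sg a)
    (hsum : ∀ i, (O i).θ0 + (O i).Fs.card * (O i).θf + 2 * ((O i).L * Sg (g i)) <
      (O i).tm - (O i).t0)
    (hosc : ∀ i, (O i).th + 2 * ((O i).L * Sg (g i)) ≤ (O i).t1) :
    ∃ (B : J → PBox T La) (η : ℝ), 0 < η ∧ (∀ j, (B j).u = (O j).u) ∧
      (∀ j, (B j).t1 = (O j).t1) ∧ (∀ j, (B j).N = {x | T.cc x ⊆ F j}) ∧
      (∀ j, (O j).t0 < (B j).a ∧ (B j).b < (O j).tm) ∧
      (∀ j j', j ≠ j' → ∀ k, Disjoint (B j).shell ((B j').M k)) ∧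
      (∀ i j, col i < col j → Disjoint (B i).pat (B j).shell) ∧
      (∀ j, ∀ S ⊆ ⋃ i, (B i).pat, IsPreconnected S → (∃ y ∈ S, (B j).t1 ≤ (B j).u y) →
        ∀ z ∈ S, (O j).th ≤ (B j).u z) ∧
      (∀ j, ∃ (y : Fin (B j).n → E) (ρ : Fin (B j).n → ℝ), (∀ m, 0 < ρ m) ∧
        (∀ m, (B j).c' m = closedBall (y m) (ρ m)) ∧
        ∑ m, ρ m ≤ (O j).C * ((O j).Fs.card * (O j).σf)) ∧
      ∀ h : E → E, (∀ x ∈ Om, ‖h x - f x‖ ≤ η) → ∀ j, (B j).Ok h ∧ (B j).Sig h (O j).th ∧
        ∀ x ∈ Om, T.dim x = 2 → T.cc x ⊆ F j → (B j).Own h x := by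
  classical
  obtain ⟨rk, hinj, hrk⟩ := exists_rank col
  have hpos : ∀ j, 0 ≤ (O j).C * ((O j).Fs.card * (O j).σf) := fun j =>
    mul_nonneg (O j).C0.le (mul_nonneg (Nat.cast_nonneg _) (O j).σf0)
  let R : J → J → ℝ → ℝ → Prop := fun j j' s s' => ∃ x ∈ sk1 T, (O j).u (f x) = s ∧
    (O j').u (f x) = s'
  let nb : J → Finset J := fun i => Finset.univ.filter fun j => col j < col i ∧ g j = g i
  obtain ⟨D, η, hη, hwin, hρ, hσ, hcov, hpat, hG, hR⟩ := levels2
    (K := fun i => {x // x ∈ (O i).Fs}) rk nb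
    (fun i j hj => hrk j i (Finset.mem_filter.1 hj).2.1)
    (fun i => (O i).u) (fun i => (O i).L) (fun i => (O i).L0) (fun i => (O i).lip)
    (fun i => (O i).t0) (fun i => (O i).tm) (fun i => (O i).θ0) (fun i => (O i).θ00)
    (fun i _ => (O i).θf) (fun i _ => (O i).σf) (fun i _ => (O i).θf0)
    (C := fun i => (O i).C) (fun i => (O i).C0.le)
    (by
      intro i
      refine lt_of_le_of_lt ?_ (hsum i)
      have e1 : ∑ _k : {x // x ∈ (O i).Fs}, (O i).θf = (O i).Fs.card * (O i).θf := by simp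
      rw [e1]
      refine add_le_add le_rfl ?_
      have e2 : ∀ j, ∑ _k : {x // x ∈ (O j).Fs}, 2 * ((O i).L * (O j).C * (O j).σf) =
          2 * ((O i).L * ((O j).C * ((O j).Fs.card * (O j).σf))) := by
        intro j
        simp only [Finset.sum_const, Finset.card_univ, Fintype.card_coe, nsmul_eq_mul]
        ring
      simp only [e2]
      rw [← Finset.mul_sum, ← Finset.mul_sum]
      refine mul_le_mul_of_nonneg_left (mul_le_mul_of_nonneg_left ?_ (O i).L0) zero_le_two
      refine le_trans ?_ (hS (g i))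
      refine Finset.sum_le_sum_of_subset_of_nonneg ?_ fun j _ _ => hpos j
      intro j hj
      rw [Finset.mem_filter] at hj ⊢
      exact ⟨hj.1, hj.2.2⟩)
    (fun i => (O i).G) (fun i => (O i).bad0) R
    (by
      intro i j _ s hs
      refine (((O j).fin s hs).image fun x => (O i).u (f x)).subset ?_
      rintro s' ⟨x, hx, e1, e2⟩
      exact ⟨x, ⟨hx, e1⟩, e2⟩)
    (fun i k ts n y ρ η => Cov (T.cc (k : E)) f (O i).u (O i).th ts n y ρ η)
    (fun _ _ _ _ _ _ _ _ h _ H => H.mono h)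
    (fun i k => (O i).sc k k.2)
  -- the levels of different boxes do not meet on the 1-skeleton
  have hR' : ∀ j j', j ≠ j' → ¬ R j j' (D j).ts (D j').ts := by
    intro j j' hne
    rcases lt_trichotomy (rk j) (rk j') with h1 | h1 | h1
    · exact hR j' j h1
    · exact absurd (hinj h1) hne
    · rintro ⟨x, hx, e1, e2⟩
      exact hR j j' h1 ⟨x, hx, e2, e1⟩
  -- a common margin
  have hζ : ∀ p : J × J, ∃ ζ > 0, p.1 ≠ p.2 →
      ∀ x ∈ sk1 T, (O p.2).u (f x) = (D p.2).ts → ∀ z ∈ closedBall (f x) ζ,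
        ζ < |(O p.1).u z - (D p.1).ts| := by
    rintro ⟨j, j'⟩
    by_cases hne : j = j'
    · exact ⟨1, one_pos, fun h => absurd hne h⟩
    · obtain ⟨ζ, h1, h2⟩ := Sk3_270.exists_margin (O j).cont (s := (D j).ts)
        (((O j').fin (D j').ts (hG j')).image f) (by
          rintro _ ⟨x, ⟨hx, e⟩, rfl⟩ e'
          exact hR' j j' hne ⟨x, hx, e', e⟩)
      exact ⟨ζ, h1, fun _ x hx e z hz => h2 _ ⟨x, ⟨hx, e⟩, rfl⟩ z hz⟩
  choose ζ hζ0 hζ' using hζ
  obtain ⟨ζ1, hz1, hz1'⟩ := Sk3_270.exists_min ζ hζ0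
  set ζ0 : ℝ := min ζ1 (η / 2) with hζ0def
  have hz0 : 0 < ζ0 := lt_min hz1 (half_pos hη)
  have hzη : ζ0 ≤ η / 2 := min_le_right _ _
  have hzle : ∀ p, ζ0 ≤ ζ p := fun p => (min_le_left _ _).trans (hz1' p)
  -- the boxes
  choose B η' hη' hu ha hb ht1 hN hM hc' hball hOk using fun j =>
    exists_pbox (O j) (D j) hη (hwin j).1 (hwin j).2 (hρ j) (hσ j) (hcov j) (hG j) hz0
      (hzη.trans (half_le_self hη.le))
  obtain ⟨η0, h0, h1⟩ := Sk3_270.exists_min η' hη'
  have hshell : ∀ j, ∀ y ∈ (B j).shell, |(O j).u y - (D j).ts| ≤ ζ0 := by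
    rintro j y ⟨h2, h3⟩
    rw [hu j] at h2 h3
    rw [abs_le]
    exact ⟨by linarith [ha j], by linarith [hb j]⟩
  have hshY : ∀ j, (B j).shell ⊆ Y j := by
    intro j y hy
    refine (O j).sub1 ?_
    have h2 := (abs_le.1 (hshell j y hy)).2
    have h3 := (hwin j).2
    have h4 := (O j).mh
    have h5 := (O j).ht
    show (O j).u y ≤ (O j).t1
    linarith
  have hpY : ∀ j, (B j).pat ⊆ Y j := fun j => inter_subset_left.trans (hshY j)
  refine ⟨B, η0, h0, hu, ht1, hN, fun j => ?_, fun j j' hne k => ?_, fun i j hij => ?_,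
    fun j S hSsub hSp hy z hz => ?_, hball, fun h hh j => ?_⟩
  · have h2 := (hwin j).1
    have h3 := (hwin j).2
    have h4 := ha j
    have h5 := hb j
    exact ⟨by linarith, by linarith⟩
  · rw [Set.disjoint_left]
    intro y h2 h4
    obtain ⟨x, hx, e, hsub⟩ := hM j' k
    have h5 := hζ' (j, j') hne x hx e y (closedBall_subset_closedBall (hzle (j, j')) (hsub h4))
    have h6 := hshell j y h2
    exact absurd (h5.trans_le (h6.trans (hzle (j, j')))) (lt_irrefl _)
  · by_cases hgg : g i = g j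
    · rw [Set.disjoint_left]
      rintro y ⟨-, h2⟩ h3
      rw [hc' i] at h2
      have h4 := hpat j i (Finset.mem_filter.2 ⟨Finset.mem_univ _, hij, hgg⟩) y h2
      have h5 := hshell j y h3
      linarith
    · exact (hg i j hgg).mono (hpY i) (hshY j)
  · -- the oscillation
    obtain ⟨y, hyS, hyt⟩ := hy
    rw [hu j] at hyt ⊢
    rw [ht1 j] at hyt
    -- the group of the patch through `y`
    let U : A → Set E := fun a => ⋃ i ∈ {i | g i = a}, (B i).pat
    have hUc : ∀ a, IsClosed (U a) := fun a =>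
      (Set.toFinite _).isClosed_biUnion fun i _ => isClosed_patB (B i)
    obtain ⟨i0, hi0⟩ := mem_iUnion.1 (hSsub hyS)
    have hV : IsClosed (⋃ i ∈ {i | g i ≠ g i0}, (B i).pat) :=
      (Set.toFinite _).isClosed_biUnion fun i _ => isClosed_patB (B i)
    have hSU : S ⊆ U (g i0) := by
      have hcov2 : S ⊆ U (g i0) ∪ ⋃ i ∈ {i | g i ≠ g i0}, (B i).pat := by
        intro w hw
        obtain ⟨i, hi⟩ := mem_iUnion.1 (hSsub hw)
        by_cases hgi : g i = g i0
        · exact Or.inl (mem_iUnion₂.2 ⟨i, hgi, hi⟩)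
        · exact Or.inr (mem_iUnion₂.2 ⟨i, hgi, hi⟩)
      have hdis : S ∩ (U (g i0) ∩ ⋃ i ∈ {i | g i ≠ g i0}, (B i).pat) = ∅ := by
        rw [Set.eq_empty_iff_forall_notMem]
        rintro w ⟨-, hw1, hw2⟩
        obtain ⟨i, hi, hwi⟩ := mem_iUnion₂.1 hw1
        obtain ⟨i', hi', hwi'⟩ := mem_iUnion₂.1 hw2
        have hne : g i ≠ g i' := by
          rw [show g i = g i0 from hi]
          exact fun h => hi' h.symm
        exact (Set.disjoint_left.1 (hg i i' hne)) (hpY i hwi) (hpY i' hwi')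
      rcases isPreconnected_iff_subset_of_disjoint_closed.1 hSp _ _ (hUc (g i0)) hV hcov2 hdis
        with h2 | h2
      · exact h2
      · exfalso
        obtain ⟨i, hi, hyi⟩ := mem_iUnion₂.1 (h2 hyS)
        exact (Set.disjoint_left.1 (hg i i0 hi)) (hpY i hyi) (hpY i0 hi0)
    by_cases hgj : g i0 = g j
    · -- the same group: the diameter is small
      choose yy ρρ hρ0 hcb hρs using hball
      have hd : dist y z ≤ ∑ m ∈ (Finset.univ.filter fun i => g i = g j).sigma
          (fun i => (Finset.univ : Finset (Fin (B i).n))), 2 * ρρ m.1 m.2 := by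
        refine dist_le_of_cover hSp _ (fun m : (Σ i, Fin (B i).n) => yy m.1 m.2)
          (fun m => ρρ m.1 m.2) (fun m _ => (hρ0 _ _).le) ?_ hyS hz
        intro w hw
        obtain ⟨i, hi, hwi⟩ := mem_iUnion₂.1 (hSU hw)
        obtain ⟨m, hm⟩ := mem_iUnion.1 hwi.2
        rw [hcb] at hm
        refine mem_iUnion₂.2 ⟨⟨i, m⟩, ?_, hm⟩
        rw [Finset.mem_sigma]
        refine ⟨Finset.mem_filter.2 ⟨Finset.mem_univ _, ?_⟩, Finset.mem_univ _⟩
        exact (show g i = g i0 from hi).trans hgj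
      have hd2 : ∑ m ∈ (Finset.univ.filter fun i => g i = g j).sigma
          (fun i => (Finset.univ : Finset (Fin (B i).n))), 2 * ρρ m.1 m.2 ≤ 2 * Sg (g j) := by
        rw [Finset.sum_sigma]
        refine le_trans ?_ (mul_le_mul_of_nonneg_left (hS (g j)) zero_le_two)
        rw [Finset.mul_sum]
        refine Finset.sum_le_sum fun i _ => ?_
        simp only
        rw [← Finset.mul_sum]
        exact mul_le_mul_of_nonneg_left (hρs i) zero_le_two
      have h2 := (O j).lip y z
      have h3 := mul_le_mul_of_nonneg_left (hd.trans hd2) (O j).L0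
      have h4 := (abs_le.1 (h2.trans h3)).2
      have h5 := hosc j
      have h6 : (O j).L * (2 * Sg (g j)) = 2 * ((O j).L * Sg (g j)) := by ring
      linarith
    · -- another group
      obtain ⟨i, hi, hzi⟩ := mem_iUnion₂.1 (hSU hz)
      have h2 : z ∉ Y j := fun hzY => by
        have hne : g i ≠ g j := by
          rw [show g i = g i0 from hi]
          exact hgj
        exact (Set.disjoint_left.1 (hg i j hne)) (hpY i hzi) hzY
      have h3 : ¬ (O j).u z ≤ (O j).t1 := fun h => h2 ((O j).sub1 h)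
      have h4 := (O j).ht
      linarith
  · obtain ⟨h2, h3, h4⟩ := hOk j h fun x hx => (hh x hx).trans (h1 j)
    exact ⟨h2, h3, h4⟩

end Crest.Agent.R096.P2l_565
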