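import Crest.Agent.R096.Pst2_465

/-!
# Row 96, p = 2: the iteration with thresholds along connected sets (helper465, for 565's L7)

`transfer'`, `iterate2'`, `iterate2_col'`: instead of a bound of the oscillation: a connected subset
of the patches which reaches the level `t1` stays above the threshold `θ`.
-/

set_option autoImplicit false
set_option linter.unusedSectionVars false

open Set Metric Filter Topology

namespace Crest.Agent.R096.Pst_465

open Msh_715 (Tiling)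
open Ce_537 Srg_465 Sk2_855 Ub_113

variable {E : Type*} [NormedAddCommGroup E] [NormedSpace ℝ E] {Om La : Set E} {ι : Type*}

/-- connected subsets of `P` which reach `t1` stay above `θ` -/
def Thr (u : E → ℝ) (P : Set E) (t1 θ : ℝ) : Prop :=
  ∀ S ⊆ P, IsPreconnected S → (∃ y ∈ S, t1 ≤ u y) → ∀ z ∈ S, θ ≤ u z

theorem Thr.mono {u : E → ℝ} {P P' : Set E} {t1 θ : ℝ} (h : Thr u P t1 θ) (hs : P' ⊆ P) :
    Thr u P' t1 θ := fun S hS => h S (hS.trans hs)

/-- a level which is not met by `P` is a threshold -/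
theorem Thr.of_clean {u : E → ℝ} (hu : Continuous u) {P : Set E} {t1 θ τ : ℝ} (h1 : θ ≤ τ)
    (h2 : τ ≤ t1) (h3 : ∀ y ∈ P, u y ≠ τ) : Thr u P t1 θ := by
  rintro S hS hSp ⟨y, hy, hyt⟩ z hz
  by_contra hn
  rw [not_le] at hn
  obtain ⟨w, hw, e⟩ := hSp.intermediate_value hz hy hu.continuousOn
    (show τ ∈ Icc (u z) (u y) from ⟨(hn.trans_le h1).le, h2.trans hyt⟩)
  exact h3 w (hS hw) e

/-- **L5**, general form -/
theorem transfer' {T : Tiling Om ι} (B : PBox T La) {h hi : E → E} (H : HP Om La h hi)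
    {Ψ : E ≃ₜ E} (hΨ : Mv T Ψ) {PP : Set E} (hnear : Near T h Ψ PP) (hsh : Disjoint PP B.shell)
    {θ : ℝ} (hosc : Thr B.u PP B.t1 θ) (hθ : θ ≤ B.t1) (hS : B.Sig h θ) :
    B.Sig (fun x => h (Ψ x)) B.t1 := by
  intro x hOwn t ht Γ K hΓ hK hreach
  have hOwn' := (own_congr B hΨ).1 hOwn
  obtain ⟨-, hx, hd, -, -⟩ := hOwn
  have H' := H.comp hΨ
  have hFO : T.cc x ⊆ Om := T.cc_sub_Om hx
  set N : Set E := {y | ∀ᶠ z in 𝓝 y, Ψ z = z} with hN
  have hNo : IsOpen N := isOpen_setOfPred_eventually_nhds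
  have hNe : ∀ y ∈ N, Ψ y = y := fun y hy =>
    (show ∀ᶠ z in 𝓝 y, Ψ z = z from hy).self_of_nhds
  have hlevN : ∀ y ∈ T.cc x, B.u (h (Ψ y)) = t → ∀ᶠ z in 𝓝 y, Ψ z = z := by
    intro y hy hyt
    rcases hnear x hx hd y hy with h1 | h1
    · exact h1
    · exfalso
      refine disjoint_left.1 hsh h1 ?_
      show B.a ≤ B.u (h (Ψ y)) ∧ B.u (h (Ψ y)) ≤ B.b
      rw [hyt]; exact ⟨ht.1.le, ht.2.le⟩
  have hcg : ContinuousOn (fun z => B.u (h (Ψ z))) (T.cc x) :=
    B.cont.comp_continuousOn (H'.contOn.mono hFO)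
  obtain ⟨hΓh, hΓid⟩ := circ_back (T.isClosed_cc x) (φh := fun z => B.u (h z)) (Ψ := Ψ)
    hcg (fun z hz => by show B.u (h (Ψ z)) = B.u (h z); rw [hz]) hlevN hΓ
  have hΓN : Γ ⊆ N := fun y hy => by
    have := hΓ.subset hy
    exact hlevN y this.1 this.2
  have himg : (fun z => h (Ψ z)) '' Γ = h '' Γ := by
    ext y
    constructor
    · rintro ⟨z, hz, rfl⟩
      show h (Ψ z) ∈ h '' Γ
      rw [hΓid z hz]; exact ⟨z, hz, rfl⟩
    · rintro ⟨z, hz, rfl⟩
      refine ⟨z, hz, ?_⟩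
      show h (Ψ z) = h z
      rw [hΓid z hz]
  -- the disc reaches `θ`
  have hKF : K ⊆ T.cc x := fun y hy => (hK.2.1 hy).1
  have hreach' : ∃ z ∈ K, θ ≤ B.u (h z) := by
    obtain ⟨z, hz, hzt⟩ := hreach
    have hzt' : B.t1 ≤ B.u (h (Ψ z)) := hzt
    by_cases hzN : z ∈ N
    · refine ⟨z, hz, ?_⟩
      rw [hNe z hzN] at hzt'
      linarith
    · set L : Set E := K \ N with hL
      have hLc : IsCompact L := hK.1.isCompact.diff hNo
      have hLP : ∀ y ∈ L, h (Ψ y) ∈ PP := fun y hy =>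
        (hnear x hx hd y (hKF hy.1)).resolve_left hy.2
      by_cases hq : ∃ q ∈ closure (K ∩ N) ∩ L, q ∈ connectedComponentIn L z
      · obtain ⟨q, ⟨hq1, hq2⟩, hq3⟩ := hq
        have hSsub : (fun y => h (Ψ y)) '' connectedComponentIn L z ⊆ PP := by
          rintro _ ⟨y, hy, rfl⟩
          exact hLP y (connectedComponentIn_subset _ _ hy)
        have hSp : IsPreconnected ((fun y => h (Ψ y)) '' connectedComponentIn L z) :=
          isPreconnected_connectedComponentIn.image _ (H'.contOn.mono fun y hy =>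
            hFO (hKF (connectedComponentIn_subset _ _ hy).1))
        have h1 := hosc _ hSsub hSp ⟨_, ⟨z, mem_connectedComponentIn ⟨hz, hzN⟩, rfl⟩, hzt'⟩ _
          ⟨q, hq3, rfl⟩
        have h2 : θ ≤ B.u (h (Ψ q)) := h1
        have hid : Ψ q = q := by
          have hcl : IsClosed {y | Ψ y = y} := isClosed_eq Ψ.continuous continuous_id
          exact (closure_minimal (fun y hy => hNe y hy.2) hcl) hq1
        rw [hid] at h2
        exact ⟨q, hq2.1, h2⟩
      · exfalso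
        push Not at hq
        have hPcl : IsClosed (closure (K ∩ N) ∩ L) := isClosed_closure.inter hLc.isClosed
        obtain ⟨K1, K2, c1, c2, hd12, hun, hP1, hP2⟩ := Gg2_113.clopen_sep hLc
          (isClosed_singleton (x := z)) hPcl
          (singleton_subset_iff.2 ⟨hz, hzN⟩) inter_subset_right
          (fun p hp q hq' => by
            rw [mem_singleton_iff.1 hp]
            exact hq q hq')
        have hKp : IsPreconnected K := hK.1.isPreconnected
        have hcov : K ⊆ K1 ∪ (K2 ∪ closure (K ∩ N)) := by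
          intro y hy
          by_cases hyN : y ∈ N
          · exact Or.inr (Or.inr (subset_closure ⟨hy, hyN⟩))
          · have : y ∈ K1 ∪ K2 := by rw [hun]; exact ⟨hy, hyN⟩
            rcases this with h1 | h1
            · exact Or.inl h1
            · exact Or.inr (Or.inl h1)
        have hdis : K ∩ (K1 ∩ (K2 ∪ closure (K ∩ N))) = ∅ := by
          rw [eq_empty_iff_forall_notMem]
          rintro y ⟨hy, hy1, hy2⟩
          have hyK2 : y ∈ K2 := by
            rcases hy2 with h1 | h1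
            · exact h1
            · exact hP2 ⟨h1, by rw [← hun]; exact Or.inl hy1⟩
          exact disjoint_left.1 hd12 hy1 hyK2
        have hz1 : z ∈ K1 := hP1 rfl
        obtain ⟨⟨x0, hx0, hx0t, hΓe⟩, -⟩ := id hΓ
        rcases isPreconnected_iff_subset_of_disjoint_closed.1 hKp K1 _ c1.isClosed
          (c2.isClosed.union isClosed_closure) hcov hdis with h1 | h1
        · have h2 : x0 ∈ Γ := by rw [hΓe]; exact mem_connectedComponentIn ⟨hx0, hx0t⟩
          have h3 : x0 ∈ L := by rw [← hun]; exact Or.inl (h1 (hK.1.subset h2))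
          exact h3.2 (hΓN h2)
        · exact (eq_empty_iff_forall_notMem.1 hdis) z ⟨hz, hz1, h1 hz⟩
  rw [himg]
  exact hS x hOwn' t ht Γ K hΓh hK hreach'

/-- all patches of a list of indices -/
def patsI {T : Tiling Om ι} {J : Type*} (B : J → PBox T La) (l : List J) : Set E :=
  {y | ∃ j ∈ l, y ∈ (B j).pat}

/-- **many boxes with patches, one after the other** (indexed form) -/
theorem iterate2' {T : Tiling Om ι} (hS : Step2 T La) {h hi : E → E} (H : HP Om La h hi)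
    {J : Type*} (B : J → PBox T La) {PP : Set E} (θ : J → ℝ) : ∀ (l : List J),
    l.Pairwise (fun i j => Rel (B i) (B j)) →
    (∀ j ∈ l, (B j).Ok h ∧ (B j).pat ⊆ PP ∧ Thr (B j).u PP (B j).t1 (θ j) ∧ θ j ≤ (B j).t1 ∧
      (B j).Sig h (θ j)) →
    ∀ (Ψ₀ : E ≃ₜ E) (P₀ : Set E), Mv T Ψ₀ → P₀ ⊆ PP → Near T h Ψ₀ P₀ →
    (∀ j ∈ l, Disjoint P₀ (B j).shell ∧ ∀ k, Disjoint P₀ ((B j).M k)) →
    ∃ Ψ : E ≃ₜ E, Mv T Ψ ∧ Near T h Ψ (P₀ ∪ patsI B l) ∧
      (∀ x ∈ Om, T.dim x = 2 →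
        h '' (Ψ '' T.cc x) ⊆ reach (h '' (Ψ₀ '' T.cc x)) (l.map fun j => (B j).Y)) ∧
      (∀ l1 j l2, l = l1 ++ j :: l2 → ∀ x, (B j).Own h x →
        h '' (Ψ '' T.cc x) ⊆ reach (B j).Y1 (l2.map fun j => (B j).Y)) := by
  intro l
  induction l with
  | nil =>
    intro _ _ Ψ₀ P₀ hΨ₀ _ hN _
    refine ⟨Ψ₀, hΨ₀, fun x hx hd z hz => ?_, fun x _ _ => Subset.rfl, ?_⟩
    · exact (hN x hx hd z hz).imp_right Or.inl
    · intro l1 j l2 h0
      exact absurd h0.symm (by simp)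
  | cons b l ih =>
    intro hp hl Ψ₀ P₀ hΨ₀ hP₀ hN hdis
    rw [List.pairwise_cons] at hp
    obtain ⟨hOk, hBP, hosc, hθ, hSig⟩ := hl b List.mem_cons_self
    obtain ⟨hd1, hd2⟩ := hdis b List.mem_cons_self
    have H₀ : HP Om La (fun x => h (Ψ₀ x)) (fun y => Ψ₀.symm (hi y)) := H.comp hΨ₀
    have esk : ∀ z ∈ sk1 T, h (Ψ₀ z) = h z := fun z hz => by rw [hΨ₀.eq_on_sk1 hz]
    have hOk₀ : (B b).Ok (fun x => h (Ψ₀ x)) := by
      refine ⟨fun x hx hs => ?_, fun k => ?_, fun x hx hd hn k => ?_⟩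
      · show ∃ k, x ∈ T.oc ((B b).e k) ∧ h (Ψ₀ x) ∈ (B b).M k
        change h (Ψ₀ x) ∈ (B b).shell at hs
        rw [esk x hx] at hs ⊢
        exact hOk.edges x hx hs
      · obtain ⟨v, hv, w, hw, dv, dw, lv, lw⟩ := hOk.ends k
        have hk := (B b).eOm k
        refine ⟨v, hv, w, hw, dv, dw, ?_, ?_⟩
        · show (B b).u (h (Ψ₀ v)) < (B b).a
          rw [esk v ⟨T.cc_sub_Om hk hv, by rw [dv]; exact zero_le_one⟩]; exact lv
        · show (B b).b < (B b).u (h (Ψ₀ w))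
          rw [esk w ⟨T.cc_sub_Om hk hw, by rw [dw]; exact zero_le_one⟩]; exact lw
      · rw [disjoint_left]
        rintro _ ⟨z, hz, rfl⟩ hM
        change h (Ψ₀ z) ∈ (B b).M k at hM
        rcases hN x hx hd z hz with h1 | h1
        · rw [h1.self_of_nhds] at hM
          exact disjoint_left.1 (hOk.faces x hx hd hn k) ⟨z, hz, rfl⟩ hM
        · exact disjoint_left.1 (hd2 k) h1 hM
    have hSig₀ : (B b).Sig (fun x => h (Ψ₀ x)) (B b).t1 :=
      transfer' (B b) H hΨ₀ hN hd1 (hosc.mono hP₀) hθ hSig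
    obtain ⟨ψ, hψ, g1, g2, g3⟩ := hS (B b) _ _ H₀ hOk₀ hSig₀
    set Ψ₁ : E ≃ₜ E := ψ.trans Ψ₀ with hΨ₁
    have hM₁ : Mv T Ψ₁ := hψ.trans hΨ₀
    have hN₁ : Near T h Ψ₁ (P₀ ∪ (B b).pat) := by
      intro x hx hd z hz
      rcases g1 x hx hd z hz with h1 | h1
      · rcases hN x hx hd z hz with h2 | h2
        · left
          filter_upwards [h1, h2] with y e1 e2
          show Ψ₀ (ψ y) = y
          rw [e1, e2]
        · right
          left
          show h (Ψ₀ (ψ z)) ∈ P₀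
          rw [h1.self_of_nhds]; exact h2
      · exact Or.inr (Or.inr h1)
    obtain ⟨Ψ, hΨ, k1, k2, k3⟩ := ih hp.2 (fun B' hB' => hl B' (List.mem_cons_of_mem _ hB')) Ψ₁
      (P₀ ∪ (B b).pat) hM₁ (union_subset hP₀ hBP) hN₁ (fun B' hB' => by
        obtain ⟨q1, q2⟩ := hdis B' (List.mem_cons_of_mem _ hB')
        obtain ⟨q3, q4⟩ := hp.1 B' hB'
        exact ⟨disjoint_union_left.2 ⟨q1, q3⟩, fun k => disjoint_union_left.2 ⟨q2 k, q4 k⟩⟩)
    have step : ∀ x ∈ Om, T.dim x = 2 →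
        h '' (Ψ₁ '' T.cc x) ⊆ grow (h '' (Ψ₀ '' T.cc x)) (B b).Y := by
      rintro x hx hd _ ⟨_, ⟨z, hz, rfl⟩, rfl⟩
      show h (Ψ₀ (ψ z)) ∈ _
      by_cases hm : Disjoint ((fun x => h (Ψ₀ x)) '' T.cc x) (B b).shell
      · rw [(g2 x hx hd hm z hz).self_of_nhds]
        exact sub_grow _ _ ⟨_, ⟨z, hz, rfl⟩, rfl⟩
      · rcases g1 x hx hd z hz with h1 | h1
        · rw [h1.self_of_nhds]
          exact sub_grow _ _ ⟨_, ⟨z, hz, rfl⟩, rfl⟩
        · rw [not_disjoint_iff] at hm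
          obtain ⟨_, ⟨w, hw, rfl⟩, hw'⟩ := hm
          exact Or.inr ⟨h1.1.2, h (Ψ₀ w), ⟨_, ⟨w, hw, rfl⟩, rfl⟩, hw'.2⟩
    refine ⟨Ψ, hΨ, fun x hx hd z hz => ?_, fun x hx hd => ?_, ?_⟩
    · refine (k1 x hx hd z hz).imp_right ?_
      rintro ((q | q) | ⟨B', hB', q⟩)
      · exact Or.inl q
      · exact Or.inr ⟨b, List.mem_cons_self, q⟩
      · exact Or.inr ⟨B', List.mem_cons_of_mem _ hB', q⟩
    · exact (k2 x hx hd).trans (reach_mono (step x hx hd) _)
    · intro l1 B' l2 hl' x hOwn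
      cases l1 with
      | nil =>
        rw [List.nil_append, List.cons.injEq] at hl'
        obtain ⟨rfl, rfl⟩ := hl'
        refine (k2 x hOwn.2.1 hOwn.2.2.1).trans (reach_mono ?_ _)
        rintro _ ⟨_, ⟨z, hz, rfl⟩, rfl⟩
        exact g3 x ((own_congr (B b) hΨ₀).2 hOwn) z hz
      | cons B'' l1 =>
        rw [List.cons_append, List.cons.injEq] at hl'
        exact k3 l1 B' l2 hl'.2 x hOwn

/-- **many boxes with patches, with colours** (565's form of the hypotheses) -/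
theorem iterate2_col' {T : Tiling Om ι} (hS : Step2 T La) {J : Type*} [Finite J]
    (B : J → PBox T La) {n : ℕ} (col : J → Fin n)
    (hcol : ∀ j j', j ≠ j' → col j = col j' → Disjoint (B j).Y (B j').Y)
    (hM : ∀ j j', j ≠ j' → ∀ k, Disjoint (B j).shell ((B j').M k))
    (hpat : ∀ i j, col i < col j → Disjoint (B i).pat (B j).shell)
    {h hi : E → E} (H : HP Om La h hi) (hOk : ∀ j, (B j).Ok h)
    (θ : J → ℝ) (hθ : ∀ j, θ j ≤ (B j).t1)
    (hosc : ∀ j, ∀ S ⊆ ⋃ i, (B i).pat, IsPreconnected S → (∃ y ∈ S, (B j).t1 ≤ (B j).u y) →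
      ∀ z ∈ S, θ j ≤ (B j).u z)
    (hSig : ∀ j, (B j).Sig h (θ j)) :
    ∃ Ψ : E ≃ₜ E, Mv T Ψ ∧ Near T h Ψ (⋃ j, (B j).pat) ∧
      ∀ Z : ℕ → Set E, (∀ i, Z i ⊆ Z (i + 1)) →
      (∀ i < n, ∀ j, (Z i ∩ (B j).Y).Nonempty → (B j).Y ⊆ Z (i + 1)) →
      (∀ x ∈ Om, T.dim x = 2 → h '' T.cc x ⊆ Z 0 → h '' (Ψ '' T.cc x) ⊆ Z n) ∧
      (∀ j, (B j).Y1 ⊆ Z 0 → ∀ x, (B j).Own h x → h '' (Ψ '' T.cc x) ⊆ Z n) := by
  classical
  cases nonempty_fintype J
  have hrel : ∀ j j', j ≠ j' → col j ≤ col j' → Rel (B j) (B j') := by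
    intro i j hne hle
    have hps : (B i).pat ⊆ (B i).shell := inter_subset_left
    refine ⟨?_, fun k => (hM i j hne k).mono_left hps⟩
    rcases hle.lt_or_eq with h1 | h1
    · exact hpat i j h1
    · exact (hcol i j hne h1).mono (hps.trans (B i).shell_sub_Y) (B j).shell_sub_Y
  -- the classes
  let cl : Fin n → List J := fun c => (Finset.univ.filter fun j => col j = c).toList
  let cls : List (List J) := (List.finRange n).map cl
  have hlen : cls.length = n := by simp [cls]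
  have hmemcl : ∀ c j, j ∈ cl c ↔ col j = c := by
    intro c j
    simp only [cl, Finset.mem_toList, Finset.mem_filter, Finset.mem_univ, true_and]
  have hmem : ∀ j, j ∈ cls.flatten := by
    intro j
    rw [List.mem_flatten]
    exact ⟨_, List.mem_map.2 ⟨col j, List.mem_finRange _, rfl⟩, (hmemcl _ _).2 rfl⟩
  have hpw : cls.flatten.Pairwise (fun j j' => j ≠ j' ∧ col j ≤ col j') := by
    rw [List.pairwise_flatten]
    refine ⟨fun l hl => ?_, ?_⟩
    · obtain ⟨c, -, rfl⟩ := List.mem_map.1 hl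
      have h1 : (cl c).Pairwise (fun j j' => j ≠ j') := Finset.nodup_toList _
      refine h1.imp_of_mem ?_
      intro j j' hj hj' hne
      rw [hmemcl] at hj hj'
      exact ⟨hne, by rw [hj, hj']⟩
    · rw [List.pairwise_map]
      refine (List.pairwise_lt_finRange n).imp ?_
      intro c c' hcc j hj j' hj'
      rw [hmemcl] at hj hj'
      refine ⟨?_, by rw [hj, hj']; exact hcc.le⟩
      rintro rfl
      rw [hj] at hj'
      exact hcc.ne hj'
  have hcls : ∀ l ∈ cls, l.Pairwise (fun j j' => Disjoint (B j).Y (B j').Y) := by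
    intro l hl
    obtain ⟨c, -, rfl⟩ := List.mem_map.1 hl
    have h1 : (cl c).Pairwise (fun j j' => j ≠ j') := Finset.nodup_toList _
    refine h1.imp_of_mem ?_
    intro j j' hj hj' hne
    rw [hmemcl] at hj hj'
    exact hcol j j' hne (hj.trans hj'.symm)
  obtain ⟨Ψ, hΨ, g0, g1, g2⟩ := iterate2' hS H B (PP := ⋃ j, (B j).pat) θ cls.flatten
    (hpw.imp fun hne => hrel _ _ hne.1 hne.2)
    (fun j _ => ⟨hOk j, subset_iUnion (fun j => (B j).pat) j, hosc j, hθ j, hSig j⟩)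
    (Homeomorph.refl E) ∅ Mv.refl (empty_subset _)
    (fun x _ _ z _ => Or.inl (Eventually.of_forall fun _ => rfl))
    (fun b _ => ⟨empty_disjoint _, fun k => empty_disjoint _⟩)
  have hrefl : ∀ s : Set E, h '' ((Homeomorph.refl E) '' s) = h '' s := by
    intro s
    have : (Homeomorph.refl E) '' s = s := by ext z; simp
    rw [this]
  have key : ∀ (ls : List (List J)), (∀ l' ∈ ls, ∃ l ∈ cls, l'.Sublist l) → ls.length ≤ n →
      ∀ Z : ℕ → Set E, (∀ i, Z i ⊆ Z (i + 1)) →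
      (∀ i < n, ∀ j, (Z i ∩ (B j).Y).Nonempty → (B j).Y ⊆ Z (i + 1)) →
      ∀ S ⊆ Z 0, reach S (ls.flatten.map fun j => (B j).Y) ⊆ Z n := by
    intro ls hls hn Z hZ hZY S hS
    have e : (ls.flatten.map fun j => (B j).Y) =
        (ls.map fun l => l.map fun j => (B j).Y).flatten := by
      rw [List.map_flatten]
    rw [e]
    have h1 := reach_chain Z hZ (ls.map fun l => l.map fun j => (B j).Y)
      (by
        intro l hl
        obtain ⟨l', hl', rfl⟩ := List.mem_map.1 hl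
        obtain ⟨l0, h0, h0'⟩ := hls l' hl'
        rw [List.pairwise_map]
        exact (hcls l0 h0).sublist h0') 0
      (by
        intro l hl Y hY i hi hm
        obtain ⟨l', hl', rfl⟩ := List.mem_map.1 hl
        obtain ⟨j, -, rfl⟩ := List.mem_map.1 hY
        rw [List.length_map, Nat.zero_add] at hi
        exact hZY i (lt_of_lt_of_le hi hn) j hm) S hS
    refine h1.trans ?_
    rw [List.length_map, Nat.zero_add]
    exact monotone_nat_of_le_succ hZ hn
  refine ⟨Ψ, hΨ, fun x hx hd z hz => ?_, fun Z hZ hZY => ⟨fun x hx hd h0 => ?_,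
    fun j hj x hOwn => ?_⟩⟩
  · refine (g0 x hx hd z hz).imp_right ?_
    rintro (q | ⟨j, hb, q⟩)
    · exact absurd q (notMem_empty _)
    · exact mem_iUnion.2 ⟨j, q⟩
  · exact (g1 x hx hd).trans (key cls (fun l hl => ⟨l, hl, List.Sublist.refl _⟩) hlen.le Z hZ hZY
      _ (by rw [hrefl]; exact h0))
  · obtain ⟨m1, m2, e⟩ := List.append_of_mem (hmem j)
    obtain ⟨ls', e', hl', hs'⟩ := flatten_suffix cls m1 j m2 e
    have h2 := g2 m1 j m2 e x hOwn
    refine h2.trans ?_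
    rw [e']
    exact key ls' hs' (hl'.trans hlen.le) Z hZ hZY _ hj

/-- **many boxes with patches, with colours** (753's clean level `τ`) -/
theorem iterate2_clean {T : Tiling Om ι} (hS : Step2 T La) {J : Type*} [Finite J]
    (B : J → PBox T La) {n : ℕ} (col : J → Fin n)
    (hcol : ∀ j j', j ≠ j' → col j = col j' → Disjoint (B j).Y (B j').Y)
    (hM : ∀ j j', j ≠ j' → ∀ k, Disjoint (B j).shell ((B j').M k))
    (hpat : ∀ i j, col i < col j → Disjoint (B i).pat (B j).shell)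
    {h hi : E → E} (H : HP Om La h hi) (hOk : ∀ j, (B j).Ok h) (θ : J → ℝ)
    (hτ : ∀ j, ∃ τ, θ j ≤ τ ∧ τ ≤ (B j).t1 ∧ ∀ y ∈ ⋃ i, (B i).pat, (B j).u y ≠ τ)
    (hSig : ∀ j, (B j).Sig h (θ j)) :
    ∃ Ψ : E ≃ₜ E, Mv T Ψ ∧ Near T h Ψ (⋃ j, (B j).pat) ∧
      ∀ Z : ℕ → Set E, (∀ i, Z i ⊆ Z (i + 1)) →
      (∀ i < n, ∀ j, (Z i ∩ (B j).Y).Nonempty → (B j).Y ⊆ Z (i + 1)) →
      (∀ x ∈ Om, T.dim x = 2 → h '' T.cc x ⊆ Z 0 → h '' (Ψ '' T.cc x) ⊆ Z n) ∧
      (∀ j, (B j).Y1 ⊆ Z 0 → ∀ x, (B j).Own h x → h '' (Ψ '' T.cc x) ⊆ Z n) :=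
  iterate2_col' hS B col hcol hM hpat H hOk θ
    (fun j => by obtain ⟨τ, h1, h2, -⟩ := hτ j; exact h1.trans h2)
    (fun j => by
      obtain ⟨τ, h1, h2, h3⟩ := hτ j
      exact Thr.of_clean (B j).cont h1 h2 h3) hSig

end Crest.Agent.R096.Pst_465
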