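import Crest.Agent.R096.Tsk1_879
import Crest.Agent.R096.Pst3_465

/-!
# Row 96 (S0127), p = 2: lemma 2SK2 (helper879, for 753 #10340 [B]), part 2

`thr_of_clean`: a clean level gives 465's `hosc`.  `two_sk2`: the end of the chain, from the boxes
of a finite family of tiles (565's output) to the metric statement for `f ∘ Ψ`.
-/

set_option autoImplicit false
set_option linter.unusedSectionVars false

open Set Metric Topology Filter Module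

namespace Crest.Agent.R096.Tsk_879

open Crest.Agent.R096.Msh_715
open Crest.Agent.R096.Sk2_855 (sk1 HP Mv)
open Crest.Agent.R096.Ub_113 (UBox)
open Crest.Agent.R096.Pst_465
open Crest.Agent.R096.Sk3_270 (capture_tile exists_min)

variable {E : Type*} [NormedAddCommGroup E] [NormedSpace ℝ E] {Om La : Set E} {ι : Type*}

/-- a clean level between `θ` and `t1` (IVT): connected subsets of `P` which reach `t1` stay
above `θ` -/
theorem thr_of_clean {u : E → ℝ} (hu : Continuous u) {P : Set E} {t1 θ τ : ℝ} (h1 : θ ≤ τ)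
    (h2 : τ ≤ t1) (hP : ∀ y ∈ P, u y ≠ τ) : Thr u P t1 θ := by
  rintro S hS hSc ⟨y, hy, hyt⟩ z hz
  by_contra hlt
  push Not at hlt
  obtain ⟨w, hw, hwe⟩ := hSc.intermediate_value hz hy hu.continuousOn
    (show τ ∈ Icc (u z) (u y) from ⟨(hlt.trans_le h1).le, h2.trans hyt⟩)
  exact hP w (hS hw) hwe

variable [FiniteDimensional ℝ E] {T : Tiling Om ι} {f : E → E} {J : Type*}

/-- the boxes of a finite family of tiles for a map `f` (output of L7, 565 #10287) : `Y j` bodies,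
`θ j` thresholds, `η` the closeness -/
structure Fam2 (T : Tiling Om ι) (La : Set E) (f : E → E) (i : J → ι) (Y : J → Set E) {n : ℕ}
    (col : J → Fin n) where
  B : J → PBox T La
  θ : J → ℝ
  η : ℝ
  hη : 0 < η
  /-- (i) -/
  hM : ∀ j j', j ≠ j' → ∀ k, Disjoint (B j).shell ((B j').M k)
  /-- (ii) -/
  hpat : ∀ j j', col j < col j' → Disjoint (B j).pat (B j').shell
  /-- (iii) -/
  hθ : ∀ j, θ j ≤ (B j).t1
  hthr : ∀ j, Thr (B j).u (⋃ j', (B j').pat) (B j).t1 (θ j)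
  /-- (iv) -/
  ok : ∀ h : E → E, (∀ x ∈ Om, ‖h x - f x‖ ≤ η) → ∀ j, (B j).Ok h ∧ (B j).Sig h (θ j) ∧
    ∀ x ∈ Om, T.dim x = 2 → T.cc x ⊆ P (T.H (i j)) → (B j).Own h x
  /-- (v) -/
  hY : ∀ j, {y | (B j).u y ≤ (B j).t1} ⊆ Y j
  hcol : ∀ j j', j ≠ j' → col j = col j' → Disjoint (Y j) (Y j')

namespace Fam2

variable {i : J → ι} {Y : J → Set E} {n : ℕ} {col : J → Fin n} (F : Fam2 T La f i Y col)

theorem Y_sub (j : J) : (F.B j).Y ⊆ Y j :=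
  fun _ hy => F.hY j (le_trans hy (F.B j).bt)

theorem Y1_sub (j : J) : (F.B j).Y1 ⊆ Y j := by
  intro y hy
  have hy' : (F.B j).u y < (F.B j).t1 := hy
  exact F.hY j hy'.le

/-- one map `h` -/
theorem out (hS : Step2 T La) [Finite J] {h hi : E → E} (H : HP Om La h hi)
    (hh : ∀ x ∈ Om, ‖h x - f x‖ ≤ F.η) : ∃ Ψ : E ≃ₜ E, Out2 T F.B n h Ψ := by
  obtain ⟨Ψ, h1, h2, h3⟩ := iterate2_col' hS F.B col
    (fun j j' hne e => (F.hcol j j' hne e).mono (F.Y_sub j) (F.Y_sub j')) F.hM F.hpat H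
    (fun j => (F.ok h hh j).1) F.θ F.hθ F.hthr (fun j => (F.ok h hh j).2.1)
  exact ⟨Ψ, h1, h2, h3⟩

/-- **2SK2 for a finite family of tiles**: `Ψ` is a `Mv` of the tiling (PL, compact support in
`Om`, the identity near the 1-skeleton); on the faces `Ψ` is the identity nearby or `f ∘ Ψ` is
`e`-close to a patch of a shell; the growth clauses of `two_sk_near`. -/
theorem two_sk2 (h3 : finrank ℝ E = 3) (hLa : IsOpen La) (hS : Step2 T La) [Finite J]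
    (happ : ∀ η > 0, ∃ h hi, HP Om La h hi ∧ ∀ x ∈ Om, ‖h x - f x‖ ≤ η) {e : ℝ} (he : 0 < e) :
    ∃ Ψ : E ≃ₜ E, Mv T Ψ ∧
      (∀ x ∈ Om, T.dim x = 2 → ∀ z ∈ T.cc x, (∀ᶠ y in 𝓝 z, Ψ y = y) ∨
        ∃ j m, ∃ w ∈ (F.B j).shell, w ∈ (F.B j).c' m ∧ ‖f (Ψ z) - w‖ ≤ e) ∧
      (∀ j (y0 : E) (R D : ℝ), 0 ≤ D → Y j ⊆ closedBall y0 R →
        (∀ j', (Y j' ∩ closedBall y0 (R + n * D + e)).Nonempty →
          ∀ y ∈ Y j', ∀ y' ∈ Y j', ‖y - y'‖ ≤ D) →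
        ∀ x ∈ P (T.H (i j)), ‖f (Ψ x) - y0‖ ≤ R + n * D + e) ∧
      (∀ k (y0 : E) (R D : ℝ), 0 ≤ D → (∀ x ∈ P (T.H k), T.dim x ≤ 2 → f x ∈ closedBall y0 R) →
        (∀ j', (Y j' ∩ closedBall y0 (R + n * D + e)).Nonempty →
          ∀ y ∈ Y j', ∀ y' ∈ Y j', ‖y - y'‖ ≤ D) →
        ∀ x ∈ P (T.H k), ‖f (Ψ x) - y0‖ ≤ R + n * D + e) ∧
      (∀ x ∈ Om, T.dim x = 2 → ∀ (y0 : E) (R D : ℝ), 0 ≤ D →
        (∀ z ∈ T.cc x, f z ∈ closedBall y0 R) →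
        (∀ j', (Y j' ∩ closedBall y0 (R + n * D + e)).Nonempty →
          ∀ y ∈ Y j', ∀ y' ∈ Y j', ‖y - y'‖ ≤ D) →
        ∀ z ∈ T.cc x, ‖f (Ψ z) - y0‖ ≤ R + n * D + e) := by
  obtain ⟨h, hi, H, hh⟩ := happ (min F.η (e / 2)) (lt_min F.hη (by positivity))
  have hh1 : ∀ x ∈ Om, ‖h x - f x‖ ≤ F.η := fun x hx => (hh x hx).trans (min_le_left _ _)
  have hh2 : ∀ x ∈ Om, ‖h x - f x‖ ≤ e / 2 := fun x hx => (hh x hx).trans (min_le_right _ _)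
  obtain ⟨Ψ, O⟩ := F.out hS H hh1
  obtain ⟨g1, g2, g3⟩ := O.near (f := f) h3 hLa H i F.Y_sub F.Y1_sub
    (fun j => (F.ok h hh1 j).2.2) he.le hh2
  exact ⟨Ψ, O.mv, fun x hx hd z hz => O.patch (fun y hy => (hh2 y hy).trans (by linarith)) hx hd hz,
    g1, g2, g3⟩

/-- **2SK2 with balls as patches** (565 (vi)): `f (Ψ z)` is in the double of a ball patch -/
theorem two_sk2_ball (h3 : finrank ℝ E = 3) (hLa : IsOpen La) (hS : Step2 T La) [Finite J]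
    (happ : ∀ η > 0, ∃ h hi, HP Om La h hi ∧ ∀ x ∈ Om, ‖h x - f x‖ ≤ η)
    {yc : ∀ j, Fin (F.B j).n → E} {r : ∀ j, Fin (F.B j).n → ℝ} (hr : ∀ j m, 0 < r j m)
    (hc : ∀ j m, (F.B j).c' m ⊆ closedBall (yc j m) (r j m)) {e : ℝ} (he : 0 < e) :
    ∃ Ψ : E ≃ₜ E, Mv T Ψ ∧
      (∀ x ∈ Om, T.dim x = 2 → ∀ z ∈ T.cc x, (∀ᶠ y in 𝓝 z, Ψ y = y) ∨
        ∃ j m, f (Ψ z) ∈ closedBall (yc j m) (2 * r j m) ∧
          ∃ w ∈ (F.B j).shell, w ∈ (F.B j).c' m ∧ ‖f (Ψ z) - w‖ ≤ e) ∧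
      (∀ j (y0 : E) (R D : ℝ), 0 ≤ D → Y j ⊆ closedBall y0 R →
        (∀ j', (Y j' ∩ closedBall y0 (R + n * D + e)).Nonempty →
          ∀ y ∈ Y j', ∀ y' ∈ Y j', ‖y - y'‖ ≤ D) →
        ∀ x ∈ P (T.H (i j)), ‖f (Ψ x) - y0‖ ≤ R + n * D + e) ∧
      (∀ k (y0 : E) (R D : ℝ), 0 ≤ D → (∀ x ∈ P (T.H k), T.dim x ≤ 2 → f x ∈ closedBall y0 R) →
        (∀ j', (Y j' ∩ closedBall y0 (R + n * D + e)).Nonempty →
          ∀ y ∈ Y j', ∀ y' ∈ Y j', ‖y - y'‖ ≤ D) →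
        ∀ x ∈ P (T.H k), ‖f (Ψ x) - y0‖ ≤ R + n * D + e) ∧
      (∀ x ∈ Om, T.dim x = 2 → ∀ (y0 : E) (R D : ℝ), 0 ≤ D →
        (∀ z ∈ T.cc x, f z ∈ closedBall y0 R) →
        (∀ j', (Y j' ∩ closedBall y0 (R + n * D + e)).Nonempty →
          ∀ y ∈ Y j', ∀ y' ∈ Y j', ‖y - y'‖ ≤ D) →
        ∀ z ∈ T.cc x, ‖f (Ψ z) - y0‖ ≤ R + n * D + e) := by
  obtain ⟨e1, he1, hle⟩ := exists_min (J := Σ j, Fin (F.B j).n) (fun p => r p.1 p.2)
    (fun p => hr p.1 p.2)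
  obtain ⟨Ψ, k1, k2, k3, k4, k5⟩ := F.two_sk2 h3 hLa hS happ (e := min e e1) (lt_min he he1)
  have hmin : min e e1 ≤ e := min_le_left _ _
  have hb : ∀ (y0 : E) (R D : ℝ), closedBall y0 (R + n * D + min e e1) ⊆
      closedBall y0 (R + n * D + e) := fun y0 R D => closedBall_subset_closedBall (by linarith)
  refine ⟨Ψ, k1, fun x hx hd z hz => ?_, fun j y0 R D hD hj hdi x hx => ?_,
    fun k y0 R D hD hj hdi x hx => ?_, fun x hx hd y0 R D hD hj hdi z hz => ?_⟩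
  · refine (k2 x hx hd z hz).imp_right ?_
    rintro ⟨j, m, w, hw, hwc, hwn⟩
    refine ⟨j, m, ?_, w, hw, hwc, hwn.trans hmin⟩
    have h1 := hc j m hwc
    rw [mem_closedBall, dist_eq_norm] at h1 ⊢
    have e2 : f (Ψ z) - yc j m = (f (Ψ z) - w) + (w - yc j m) := by abel
    rw [e2]
    have h2 := (hwn.trans (min_le_right _ _)).trans (hle ⟨j, m⟩)
    exact (norm_add_le _ _).trans (by linarith)
  · have := k3 j y0 R D hD hj (fun j' hj' => hdi j'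
      (hj'.mono (inter_subset_inter_right _ (hb y0 R D)))) x hx
    linarith
  · have := k4 k y0 R D hD hj (fun j' hj' => hdi j'
      (hj'.mono (inter_subset_inter_right _ (hb y0 R D)))) x hx
    linarith
  · have := k5 x hx hd y0 R D hD hj (fun j' hj' => hdi j'
      (hj'.mono (inter_subset_inter_right _ (hb y0 R D)))) z hz
    linarith

end Fam2

end Crest.Agent.R096.Tsk_879
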