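import Crest.Agent.R096.P2l6_565
import Crest.Agent.R096.Tsk2_879

/-!
# Row 96 (S0127), p = 2: leaf [L7] (helper565), part 7: 879's `Fam2` from the tiles
-/

set_option autoImplicit false
set_option linter.unusedSectionVars false

open Set Metric MeasureTheory Module

namespace Crest.Agent.R096.P2l_565

open Msh_715
open Ce_537 (IsBall)
open Sk2_855 (sk1 HP Mv)
open Ub_113 (UBox)
open Pst_465
open Tsk_879 (Fam2)

variable {E : Type*} [NormedAddCommGroup E] [NormedSpace ℝ E] {Om La : Set E} {ι : Type*}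
  [FiniteDimensional ℝ E]

/-- **`Fam2` from the tiles**, with the patches as balls -/
theorem exists_fam2 {T : Tiling Om ι} {f : E → E} {J : Type*} [Fintype J] {i : J → ι}
    {Y : J → Set E} (O : ∀ j, One2 T La f (P (T.H (i j))) (Y j)) {n : ℕ} (col : J → Fin n)
    (hcol : ∀ j j', j ≠ j' → col j = col j' → Disjoint (Y j) (Y j'))
    {A : Type*} [DecidableEq A]
    (g : J → A) (hg : ∀ j j', g j ≠ g j' → Disjoint (Y j) (Y j')) (Sg : A → ℝ)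
    (hS : ∀ a, ∑ j ∈ Finset.univ.filter (fun j => g j = a),
      (O j).C * ((O j).Fs.card * (O j).σf) ≤ Sg a)
    (hsum : ∀ i, (O i).θ0 + (O i).Fs.card * (O i).θf + 2 * ((O i).L * Sg (g i)) <
      (O i).tm - (O i).t0)
    (hosc : ∀ i, (O i).th + 2 * ((O i).L * Sg (g i)) ≤ (O i).t1) :
    ∃ (F : Fam2 T La f i Y col) (yc : ∀ j, Fin (F.B j).n → E) (r : ∀ j, Fin (F.B j).n → ℝ),
      (∀ j m, 0 < r j m) ∧ (∀ j m, (F.B j).c' m = closedBall (yc j m) (r j m)) ∧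
      (∀ j, ∑ m, r j m ≤ (O j).C * ((O j).Fs.card * (O j).σf)) ∧
      (∀ a, ∑ j ∈ Finset.univ.filter (fun j => g j = a), ∑ m, r j m ≤ Sg a) ∧
      (∀ j, (F.B j).u = (O j).u) ∧ (∀ j, (F.B j).t1 = (O j).t1) ∧
      (∀ j, (O j).t0 < (F.B j).a ∧ (F.B j).b < (O j).tm) ∧ (∀ j, F.θ j = (O j).th) := by
  obtain ⟨B, η, hη, hu, ht1, -, hab, hM, hpat, hthr, hball, hOk⟩ :=
    family2 O col g hg Sg hS hsum hosc
  choose yc r hr hc hrs using hball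
  refine ⟨{ B := B
            θ := fun j => (O j).th
            η := η
            hη := hη
            hM := hM
            hpat := hpat
            hθ := fun j => by rw [ht1 j]; exact (O j).ht
            hthr := hthr
            ok := hOk
            hY := fun j y hy => (O j).sub1 (by
              rw [mem_setOf_eq, hu j, ht1 j] at hy
              exact hy)
            hcol := hcol }, yc, r, hr, hc, hrs, fun a => ?_, hu, ht1, hab, fun _ => rfl⟩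
  exact (Finset.sum_le_sum fun j _ => hrs j).trans (hS a)

/-- **2SK2 from the tiles** (879's `two_sk2_ball` for `exists_fam2`) -/
theorem two_sk2_tiles (h3 : finrank ℝ E = 3) (hLa : IsOpen La) {T : Tiling Om ι}
    (hSt : Step2 T La) {f : E → E}
    (happ : ∀ η > 0, ∃ h hi, HP Om La h hi ∧ ∀ x ∈ Om, ‖h x - f x‖ ≤ η)
    {J : Type*} [Fintype J] {i : J → ι}
    {Y : J → Set E} (O : ∀ j, One2 T La f (P (T.H (i j))) (Y j)) {n : ℕ} (col : J → Fin n)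
    (hcol : ∀ j j', j ≠ j' → col j = col j' → Disjoint (Y j) (Y j'))
    {A : Type*} [DecidableEq A]
    (g : J → A) (hg : ∀ j j', g j ≠ g j' → Disjoint (Y j) (Y j')) (Sg : A → ℝ)
    (hS : ∀ a, ∑ j ∈ Finset.univ.filter (fun j => g j = a),
      (O j).C * ((O j).Fs.card * (O j).σf) ≤ Sg a)
    (hsum : ∀ i, (O i).θ0 + (O i).Fs.card * (O i).θf + 2 * ((O i).L * Sg (g i)) <
      (O i).tm - (O i).t0)
    (hosc : ∀ i, (O i).th + 2 * ((O i).L * Sg (g i)) ≤ (O i).t1) {e : ℝ} (he : 0 < e) :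
    ∃ (N : J → ℕ) (yc : ∀ j, Fin (N j) → E) (r : ∀ j, Fin (N j) → ℝ) (Ψ : E ≃ₜ E),
      (∀ j m, 0 < r j m) ∧
      (∀ a, ∑ j ∈ Finset.univ.filter (fun j => g j = a), ∑ m, r j m ≤ Sg a) ∧ Mv T Ψ ∧
      (∀ x ∈ Om, T.dim x = 2 → ∀ z ∈ T.cc x, (∀ᶠ y in nhds z, Ψ y = y) ∨
        ∃ j m, f (Ψ z) ∈ closedBall (yc j m) (2 * r j m) ∧
          ∃ w ∈ Y j, w ∈ closedBall (yc j m) (r j m) ∧ ‖f (Ψ z) - w‖ ≤ e) ∧
      (∀ j (y0 : E) (R D : ℝ), 0 ≤ D → Y j ⊆ closedBall y0 R →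
        (∀ j', (Y j' ∩ closedBall y0 (R + n * D + e)).Nonempty →
          ∀ y ∈ Y j', ∀ y' ∈ Y j', ‖y - y'‖ ≤ D) →
        ∀ x ∈ P (T.H (i j)), ‖f (Ψ x) - y0‖ ≤ R + n * D + e) ∧
      (∀ k (y0 : E) (R D : ℝ), 0 ≤ D → (∀ x ∈ P (T.H k), T.dim x ≤ 2 → f x ∈ closedBall y0 R) →
        (∀ j', (Y j' ∩ closedBall y0 (R + n * D + e)).Nonempty →
          ∀ y ∈ Y j', ∀ y' ∈ Y j', ‖y - y'‖ ≤ D) →
        ∀ x ∈ P (T.H k), ‖f (Ψ x) - y0‖ ≤ R + n * D + e) ∧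
      (∀ x ∈ Om, T.dim x = 2 → ∀ (y0 : E) (R D : ℝ), 0 ≤ D →
        (∀ z ∈ T.cc x, f z ∈ closedBall y0 R) →
        (∀ j', (Y j' ∩ closedBall y0 (R + n * D + e)).Nonempty →
          ∀ y ∈ Y j', ∀ y' ∈ Y j', ‖y - y'‖ ≤ D) →
        ∀ z ∈ T.cc x, ‖f (Ψ z) - y0‖ ≤ R + n * D + e) := by
  obtain ⟨F, yc, r, hr, hc, -, hSr, -, -, -, -⟩ := exists_fam2 O col hcol g hg Sg hS hsum hosc
  obtain ⟨Ψ, k1, k2, k3, k4, k5⟩ := F.two_sk2_ball h3 hLa hSt happ hr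
    (fun j m => (hc j m).subset) he
  refine ⟨fun j => (F.B j).n, yc, r, Ψ, hr, hSr, k1, fun x hx hd z hz => ?_, k3, k4, k5⟩
  refine (k2 x hx hd z hz).imp_right ?_
  rintro ⟨j, m, h1, w, hw, hwc, hwn⟩
  exact ⟨j, m, h1, w, F.Y_sub j ((F.B j).shell_sub_Y hw), (hc j m) ▸ hwc, hwn⟩

end Crest.Agent.R096.P2l_565
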