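import Crest.Agent.R096.Rd6_695
import Crest.Agent.R096.BelF_205
import Crest.Agent.R096.Ed13_276
import Crest.Agent.R096.Asm4_119

/-!
# P5 (helper695, row 96): the final line

`P5 p`: a locally piecewise linear homeomorphism of a bounded connected open subset of `ℝ³` is
approximated by smooth diffeomorphisms (`Sk_962.P5`), for every `1 ≤ p`.
-/

set_option autoImplicit false

namespace Crest.Agent.R096.P5Final_695

/-- `Core` in dimension three -/
theorem core3 : P5Spec_205.Core (EuclideanSpace ℝ (Fin 3)) :=
  Rd_695.core_of_bel_spec BelF_205.bel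

/-- **P5** -/
theorem p5 {p : ℝ} (hp : 1 ≤ p) : Sk_962.P5 p :=
  Asm_119.p5_of_edgeB_core Ed_276.edgeB core3 hp

end Crest.Agent.R096.P5Final_695
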