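import Crest.Agent.R096.Pas1_753
import Crest.Agent.R096.Ca12_855

/-!
Row 96 (S0127), helper753.  Assembly of `PreIN p`, part 2: `comp_U` = the selection of the position and of
the good cubes together with composite A, uniform in `1 ≤ p ≤ 2` (855's `comp_A_fine` for `p < 2`, 465's
`comp_A2F` for `p = 2`), on a `MFam2`.
-/

set_option autoImplicit false
set_option linter.style.longLine false
set_option linter.unusedSectionVars false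

open MeasureTheory Set Filter Topology Metric
open scoped ENNReal NNReal

namespace Crest.Agent.R096.Pas_753

open Crest.AnalysisR.VecCalc3 Crest.AnalysisR.Sobolev
open Crest.Agent.R096.Msh_715 (Tiling P I)
open Crest.Agent.R096.Mal_874 (CB)
open Crest.Agent.R096.Sk_962 (SH)
open Crest.Agent.R096.Br_695 (En)
open Crest.Agent.R096.Sk2_855 (Mv sk1)
open Crest.Agent.R096.Cp_465
open Crest.Agent.R096.Fsl_793
open Crest.Agent.R096.Ca_855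
open Crest.Agent.R096.Gz_812 (HFine)
open Crest.Agent.R096.Pin_753
open Crest.Agent.R96.Lu_538
open Crest.Agent.R96.Intr_538
open Crest.Agent.R96.Coarse_538
open Crest.Agent.R96.Acl_392

noncomputable section

/-- **composite A, uniform in `p`** -/
theorem comp_U {p : ℝ} (hp : 1 ≤ p) (hp2 : p ≤ 2) {Om La : Set R3} (hOm : IsOpen Om)
    (hOmb : Bornology.IsBounded Om) (hLa : IsOpen La) (hLaf : volume La ≠ ∞) {f : R3 → R3}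
    {G : Fin 3 → R3 → R3} (H : SH p Om La f G) (happ : HFine Om La f) {ε : ℝ} (hε : 0 < ε) :
    ∃ κ : ℝ, 0 < κ ∧ κ ≤ 1 ∧ ∃ K ⊆ Om, IsCompact K ∧ ∃ K' ⊆ La, IsCompact K' ∧
      ∀ (nc mf : ℕ) (N n τ σ₀ β r σ' η₁ θ δ e₁ : ℝ), 0 < N → 0 < n → 0 < σ₀ → σ₀ < τ → 6 * τ < 1 →
        1 ≤ σ₀ * N → 2 ≤ τ * N → 0 < β → 0 < r → 0 < σ' → 24 * σ' ≤ κ * τ * N → 0 < η₁ →
        0 < θ → 0 < δ → 0 < e₁ →
        ∃ s₀ : ℝ, 0 < s₀ ∧ ∀ s : ℝ, 0 < s → s < s₀ → ∀ a₀ : R3,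
        ∃ (Q₀ : Finset (Fin 3 → ℤ)) (b : (Fin 3 → ℤ) → R3) (L : (Fin 3 → ℤ) → R3 →L[ℝ] R3)
          (S : (Fin 3 → ℤ) → Set R3),
          (∀ k ∈ Q₀, GC Om volume f (Gmat G) Cb κ e₁ s (vt (2 * s) a₀ k) (b k) (L k) (S k)) ∧
          (∀ k ∈ Q₀, cel Cb (vt (2 * s) a₀ k) s ⊆ K) ∧ (∀ k ∈ Q₀, par Cb (L k) (b k) s ⊆ K') ∧
          (∀ k ∈ Q₀, ∀ l ∈ Q₀, k ≠ l →
            Disjoint (par Cb (L k) (b k) ((1 - τ) * s)) (par Cb (L l) (b l) s)) ∧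
          ∑ k ∈ Q₀, ∫⁻ x in cel Cb (vt (2 * s) a₀ k) s, ‖Gmat G x - L k‖ₑ ^ p ≤
            ENNReal.ofReal e₁ ∧
          volume ((Om ∩ {x | (Gmat G x).det ≠ 0}) \ ⋃ k ∈ Q₀, cel Cb (vt (2 * s) a₀ k) s) ≤
            ENNReal.ofReal ε ∧
          ∀ (W : Set R3), K ⊆ W → (∀ y ∈ Om, f y ∈ K' → y ∈ W) →
            ∀ (M : MFam2 Om W (s / N) n β r nc mf) (ν : R3 → Measure R3),
            RM M.Tr (ENNReal.ofReal n) ν →
            ∀ (J : Type) [Countable J] (F : J → R3 → ℝ≥0∞), (∀ j, AEMeasurable (F j) volume) →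
            (∀ j, ∫⁻ y, F j y ≠ ∞) →
            ∃ B : Set R3, volume B ≤ ENNReal.ofReal θ * volume M.Tr ∧
              ∀ a ∈ M.Tr, a ∉ B → (∀ e, ACV Om f (Gmat G) (M.v e) (a + M.x e)) ∧
                (∀ e j, ∀ ε' : ℝ≥0∞, 0 < ε' → ∀ᶠ r in 𝓝[>] (0:ℝ),
                  ∫⁻ y in thickening r (seg M.x M.v a e), F j y ≤
                    ENNReal.ofReal (64 * ‖M.v e‖ * r ^ 2) *
                      ((∫⁻ σ in Ioc (0:ℝ) 1, F j (a + M.x e + σ • M.v e)) + ε')) ∧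
                ∃ Q ⊆ Q₀, ((Q₀ \ Q).card : ℝ) * (2 * s) ^ 3 ≤ δ ∧
                (∀ k ∈ Q, PerfG M.x M.v p Om f (Gmat G) κ τ σ₀ η₁ (s / N) s a
                  (vt (2 * s) a₀ k) (b k) (L k)) ∧
                (p = 2 → ∀ k ∈ Q, ∫⁻ y in cel Cb (vt (2 * s) a₀ k) s,
                  ‖Gmat G y - L k‖ₑ ^ (2:ℝ) ∂ν a ≤ ENNReal.ofReal (η₁ * s ^ 3)) ∧
                ResU (p = 2) Om La (M.T a) f Q (vt (2 * s) a₀) b L κ τ s
                  (3 * (nc * (nc * nc) + 2) * (κ⁻¹ * (s / N))) (σ' * (s / N)) := by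
  rcases hp2.lt_or_eq with hlt | rfl
  · -- p < 2
    obtain ⟨κ, hκ, hκ1, K, hK, hKc, K', hK', hK'c, H0⟩ :=
      comp_A_fine hp hOm hOmb hLa hLaf H happ hε
    refine ⟨κ, hκ, hκ1, K, hK, hKc, K', hK', hK'c, ?_⟩
    intro nc mf N n τ σ₀ β r σ' η₁ θ δ e₁ hN hn hσ₀ hσ₀τ hτ6 hσN hτN hβ hr hσ' hσ'r hη₁ hθ hδ he₁
    obtain ⟨s₀, hs₀, Hs⟩ := H0 nc N n τ σ₀ η₁ θ δ e₁ β r hN hn hσ₀ hσ₀τ hτ6 hσN hτN hη₁ hθ hδ he₁
      hβ hr 0 (fun _ _ => 0) (fun l => l.elim0) (fun l => l.elim0) (fun _ => 1) (fun _ => 1) 1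
      (fun l => l.elim0) (fun l => l.elim0) one_pos
    refine ⟨s₀, hs₀, fun s hs hss a₀ => ?_⟩
    obtain ⟨Q₀, b, L, S, q1, q2, q3, q4, q5, q6, q7⟩ := Hs s hs hss a₀
    refine ⟨Q₀, b, L, S, q1, q2, q3, q4, q5, q6, ?_⟩
    intro W hKW hKW' M ν hν J _ F hF hFi
    obtain ⟨B, hB, HB⟩ := q7 W hKW hKW' M.toMFam (fun _ _ => 0) (fun l => l.elim0)
      (fun l => l.elim0) (fun _ => ∅) (fun l => l.elim0) J F hF hFi
    refine ⟨B, hB, fun a ha haB => ?_⟩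
    obtain ⟨a1, a2, Q, hQ, a3, a4, -, hinj, -, a6⟩ := HB a ha haB
    refine ⟨a1, a2, Q, hQ, a3, a4, fun h => absurd h hlt.ne, ?_⟩
    have hst : 0 ≤ σ' * (s / N) := by positivity
    have hpr : (p = 2) = False := by
      simp only [hlt.ne]
    rw [hpr]
    refine ResU.of_lt hst fun e he ζ hζ0 hζ => ?_
    obtain ⟨Ψ, g1, g2, g3, g4⟩ := a6 e he ζ hζ0 hζ
    refine ⟨Ψ, g1, g2, fun i y hy r' hr' => (g3 i y hy r' hr').trans ?_, g4⟩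
    have : 0 ≤ κ⁻¹ * (s / N) := by positivity
    nlinarith
  · -- p = 2
    obtain ⟨κ, hκ, hκ1, K, hK, hKc, K', hK', hK'c, H0⟩ :=
      comp_A2F hOm hOmb hLa hLaf H happ hε
    refine ⟨κ, hκ, hκ1, K, hK, hKc, K', hK', hK'c, ?_⟩
    intro nc mf N n τ σ₀ β r σ' η₁ θ δ e₁ hN hn hσ₀ hσ₀τ hτ6 hσN hτN hβ hr hσ' hσ'r hη₁ hθ hδ he₁
    obtain ⟨s₀, hs₀, Hs⟩ := H0 N n τ σ₀ β r σ' η₁ nc mf hN hn hσ₀ hσ₀τ hτ6 hσN hτN hβ hr hσ' hσ'r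
      hη₁ θ δ e₁ hθ hδ he₁ 0 (fun _ _ => 0) (fun l => l.elim0) (fun l => l.elim0) (fun _ => 1)
      (fun _ => 1) 1 (fun l => l.elim0) (fun l => l.elim0) one_pos
    refine ⟨s₀, hs₀, fun s hs hss a₀ => ?_⟩
    obtain ⟨Q₀, b, L, S, q1, q2, q3, q4, q5, q6, q7⟩ := Hs s hs hss a₀
    refine ⟨Q₀, b, L, S, q1, q2, q3, q4, q5, q6, ?_⟩
    intro W hKW hKW' M ν hν J _ F hF hFi
    obtain ⟨B, hB, HB⟩ := q7 W hKW hKW' M ν hν (fun _ _ => 0) (fun l => l.elim0)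
      (fun l => l.elim0) (fun _ => ∅) (fun l => l.elim0) J F hF hFi
    refine ⟨B, hB, fun a ha haB => ?_⟩
    obtain ⟨a1, a2, Q, hQ, a3, a4, -, a6⟩ := HB a ha haB
    exact ⟨a1, a2, Q, hQ, a3, fun k hk => (a4 k hk).1, fun _ k hk => (a4 k hk).2,
      ResU.of_two a6 _⟩

end

end Crest.Agent.R096.Pas_753
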