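import Crest.Agent.R096.Pin1_753

/-!
Row 96 (S0127), helper518.  `PreIN p` from the same statement with the condition
`θ1 * s ≤ 1 / 2 ^ k0 ≤ θ0 * s` as a separate hypothesis (matters only for `J = ∅`), and `θ1 ≤ θ0 / 2`.
-/

set_option autoImplicit false
set_option linter.style.longLine false
set_option linter.unusedSectionVars false

open MeasureTheory Set Filter Topology Metric
open scoped ENNReal NNReal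

namespace Crest.Agent.R096.Pje_518

open Crest.AnalysisR.VecCalc3 Crest.AnalysisR.Sobolev
open Crest.Agent.R096.Msh_715 Crest.Agent.R096.Mal_874
open Crest.Agent.R096.Sk_962 (SH)
open Crest.Agent.R096.Br_695 (En)
open Crest.Agent.R96.Lu_538 (Gmat)
open Crest.Agent.R96.Intr_538 (cel par)
open Crest.Agent.R96.Coarse_538 (vt Cb)
open Crest.Agent.R96.En10_199 (P3)
open Crest.Agent.R096.Pin_753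

noncomputable section

/-- `PreIN p` with `θ1 ≤ θ0 / 2` and `θ1 * s ≤ 1 / 2 ^ k0 ≤ θ0 * s` as separate hypotheses. -/
def PreINs (p : ℝ) : Prop :=
  ∀ Bs : ℕ, ∃ C : ℝ≥0, ∀ (Om La : Set R3) (f : R3 → R3) (G : Fin 3 → R3 → R3),
    IsOpen Om → Bornology.IsBounded Om → IsConnected Om →
    IsOpen La → Bornology.IsBounded La → IsConnected La → SH p Om La f G →
  ∀ ε : ℝ, 0 < ε →
  ∃ κ : ℝ, 0 < κ ∧ κ ≤ 1 ∧ ∃ K ⊆ Om, IsCompact K ∧ ∃ K' ⊆ La, IsCompact K' ∧ ∃ C1 : ℝ, 1 ≤ C1 ∧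
  ∀ (τ hh c1 c2 κw e : ℝ) (Nn : ℕ), 0 < τ → τ ≤ 1 / 4 → 0 < hh → 0 < c1 → 0 < c2 → 0 < κw → 0 < e →
    C1 * hh ≤ min τ c2 →
  ∃ θ0 : ℝ, 0 < θ0 ∧ ∀ θ1 : ℝ, 0 < θ1 → θ1 ≤ θ0 / 2 →
  ∀ η : R3 → ℝ, ContinuousOn η Om → (∀ x ∈ Om, 0 < η x) → ∀ e1 δ : ℝ, 0 < e1 → 0 < δ →
  ∃ s₀ : ℝ, 0 < s₀ ∧ ∀ s : ℝ, 0 < s → s < s₀ → ∀ a₀ : R3,
  ∃ (Q₀ : Finset (Fin 3 → ℤ)) (b : (Fin 3 → ℤ) → R3) (L : (Fin 3 → ℤ) → R3 →L[ℝ] R3),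
    (∀ k ∈ Q₀, (∀ v, κ * ‖v‖ ≤ ‖L k v‖) ∧ ‖L k‖ ≤ κ⁻¹) ∧
    (∀ k ∈ Q₀, cel Cb (vt (2 * s) a₀ k) s ⊆ K) ∧ (∀ k ∈ Q₀, par Cb (L k) (b k) s ⊆ K') ∧
    (∀ k ∈ Q₀, ∀ l ∈ Q₀, k ≠ l →
      Disjoint (par Cb (L k) (b k) ((1 - τ) * s)) (par Cb (L l) (b l) s)) ∧
    (∑ k ∈ Q₀, ∫⁻ x in cel Cb (vt (2 * s) a₀ k) s, ‖Gmat G x - L k‖ₑ ^ p) ≤ ENNReal.ofReal e1 ∧
    volume ((Om ∩ {x | (Gmat G x).det ≠ 0}) \ ⋃ k ∈ Q₀, cel Cb (vt (2 * s) a₀ k) s) ≤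
      ENNReal.ofReal ε ∧
  ∀ (J : Type) [Finite J] (kk : J → Fin 3 → ℤ) (Qb : J → CB R3 3) (k0 : ℕ)
    (hk : ∀ j, (Qb j).kc ≤ k0), θ1 * s ≤ 1 / 2 ^ k0 → 1 / 2 ^ k0 ≤ θ0 * s → (∀ j, kk j ∈ Q₀) →
    (∀ j, BlkP κ s τ hh c1 θ0 θ1 Bs Nn (vt (2 * s) a₀ (kk j)) (Qb j) k0) →
    (∀ i j, i ≠ j → ∀ x ∈ (Qb i).N, ∀ y ∈ (Qb j).N, c2 * s ≤ dist x y) →
  ∃ a : R3, ‖a‖ ≤ κw * s ∧ ∃ Q ⊆ Q₀, ((Q₀ \ Q).card : ℝ) * (2 * s) ^ 3 ≤ δ ∧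
  ∃ (f₂ : R3 → R3) (G₂ : Fin 3 → R3 → R3) (er : J → ℝ≥0∞), SH p Om La f₂ G₂ ∧
    (∀ x ∈ Om, ‖f₂ x - f x‖ ≤ η x) ∧
    (∀ k ∈ Q, ∀ x ∈ cel Cb (vt (2 * s) a₀ k) ((1 - τ) * s),
      ‖f₂ x - Bk (b k) (L k) (vt (2 * s) a₀ k) x‖ ≤ C1 * hh * s) ∧
    (∀ j, kk j ∈ Q → InP p f₂ (Gmat G₂) C1 κw s (b (kk j)) (L (kk j))
      (vt (2 * s) a₀ (kk j)) (er j) ((Qb j).tr a) k0 (hk j)) ∧
    (∑' j : {j // kk j ∈ Q}, er j) ≤ ENNReal.ofReal e ∧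
    (∑' j : {j // kk j ∈ Q}, ∫⁻ x in Ly ((Qb j).tr a) k0, (1 + En p G₂ x)) ≤ ENNReal.ofReal e ∧
    (∫⁻ x in Om \ ⋃ j ∈ {j | kk j ∈ Q}, ((Qb j).tr a).N, (1 + En p G₂ x)) ≤
      C * (∫⁻ x in Om \ ⋃ j ∈ {j | kk j ∈ Q}, ((Qb j).tr a).Kc, (1 + En p G x)) + ENNReal.ofReal e

theorem BlkP.mono_lo {κ s τ hh c1 θ0 θ1 θ1' : ℝ} {Bs Nn : ℕ} {z0 : R3} {Q : CB R3 3} {k0 : ℕ}
    (hs : 0 ≤ s) (h : θ1' ≤ θ1) (H : BlkP κ s τ hh c1 θ0 θ1 Bs Nn z0 Q k0) :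
    BlkP κ s τ hh c1 θ0 θ1' Bs Nn z0 Q k0 where
  cnd := H.cnd
  net := H.net
  hB := H.hB
  hR := H.hR
  cellL := H.cellL
  cellU := H.cellU
  lo := (mul_le_mul_of_nonneg_right h hs).trans H.lo
  hi := H.hi
  sub := H.sub

/-- a dyadic scale between `t / 2` and `t` -/
theorem exists_scale {t : ℝ} (ht : 0 < t) (ht1 : t ≤ 1) : ∃ k : ℕ, t / 2 ≤ 1 / 2 ^ k ∧ (1:ℝ) / 2 ^ k ≤ t := by
  obtain ⟨n, h1, h2⟩ := exists_nat_pow_near (x := t⁻¹) (y := 2) (one_le_inv_iff₀.2 ⟨ht, ht1⟩) one_lt_two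
  have hp : (0:ℝ) < 2 ^ n := by positivity
  have hp1 : (0:ℝ) < 2 ^ (n + 1) := by positivity
  refine ⟨n + 1, ?_, ?_⟩
  · rw [div_le_div_iff₀ (by norm_num) hp1, pow_succ]
    have : 2 ^ n * t ≤ 1 := by
      have := mul_le_mul_of_nonneg_right h1 ht.le
      rwa [inv_mul_cancel₀ ht.ne'] at this
    nlinarith
  · rw [div_le_iff₀ hp1]
    have := mul_le_mul_of_nonneg_right h2.le ht.le
    rw [inv_mul_cancel₀ ht.ne'] at this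
    linarith

/-- **the reduction** -/
theorem preIN_of_scaled {p : ℝ} (H : PreINs p) : PreIN p := by
  intro Bs
  obtain ⟨C, H⟩ := H Bs
  refine ⟨C, fun Om La f G h1 h2 h3 h4 h5 h6 h7 ε hε => ?_⟩
  obtain ⟨κ, hκ, hκ1, K, hK, hKc, K', hK', hKc', C1, hC1, H⟩ := H Om La f G h1 h2 h3 h4 h5 h6 h7 ε hε
  refine ⟨κ, hκ, hκ1, K, hK, hKc, K', hK', hKc', C1, hC1, ?_⟩
  intro τ hh c1 c2 κw e Nn g1 g2 g3 g4 g5 g6 g7 g8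
  obtain ⟨θ0, hθ0, H⟩ := H τ hh c1 c2 κw e Nn g1 g2 g3 g4 g5 g6 g7 g8
  refine ⟨θ0, hθ0, fun θ1 hθ1 η hη hη0 e1 δ he1 hδ => ?_⟩
  obtain ⟨s₀, hs₀, H⟩ := H (min θ1 (θ0 / 2)) (lt_min hθ1 (by positivity)) (min_le_right _ _) η hη hη0
    e1 δ he1 hδ
  refine ⟨min s₀ (1 / θ0), lt_min hs₀ (by positivity), fun s hs hss a₀ => ?_⟩
  obtain ⟨Q₀, b, L, q1, q2, q3, q4, q5, q6, H⟩ := H s hs (hss.trans_le (min_le_left _ _)) a₀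
  refine ⟨Q₀, b, L, q1, q2, q3, q4, q5, q6, ?_⟩
  intro J _ kk Qb k0 hk hkk hB hsep
  rcases isEmpty_or_nonempty J with hJ | ⟨⟨j₀⟩⟩
  · have ht : θ0 * s ≤ 1 := by
      have := (hss.trans_le (min_le_right _ _)).le
      rw [le_div_iff₀ hθ0] at this
      linarith
    obtain ⟨k, k1, k2⟩ := exists_scale (t := θ0 * s) (by positivity) ht
    have k1' : min θ1 (θ0 / 2) * s ≤ 1 / 2 ^ k := by
      refine (mul_le_mul_of_nonneg_right (min_le_right _ _) hs.le).trans ?_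
      linarith
    obtain ⟨a, ha, Q, hQ, r1, f₂, G₂, er, r2, r3, r4, r5, r6, r7, r8⟩ :=
      H J kk Qb k (fun j => hJ.elim j) k1' k2 hkk (fun j => hJ.elim j) hsep
    refine ⟨a, ha, Q, hQ, r1, f₂, G₂, er, r2, r3, r4, fun j => hJ.elim j, r6, ?_, r8⟩
    have : IsEmpty {j // kk j ∈ Q} := ⟨fun j => hJ.elim j.1⟩
    rw [tsum_empty]
    exact bot_le
  · refine H J kk Qb k0 hk ((mul_le_mul_of_nonneg_right (min_le_left _ _) hs.le).trans (hB j₀).lo)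
      (hB j₀).hi hkk (fun j => BlkP.mono_lo hs.le (min_le_left _ _) (hB j)) hsep

end

end Crest.Agent.R096.Pje_518
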