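import Crest.Agent.R096.Pas4_753
import Crest.Agent.R096.Pje_518
import Crest.Agent.R096.Hap1_812
import Crest.Agent.R096.Pe1_622

/-!
Row 96 (S0127), helper753.  Assembly of `PreIN p`, part 5: **the outer frame**: `PreIN p` from the
selection (`SelP`), the families of cells (`AllC`), the energy list (`ElP`) and the one-position theorem
(`OneP`); order of the constants.
-/

set_option autoImplicit false
set_option linter.style.longLine false
set_option linter.unusedSectionVars false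

open MeasureTheory Set Filter Topology Metric
open scoped ENNReal NNReal

namespace Crest.Agent.R096.Pas_753

open Crest.AnalysisR.VecCalc3 Crest.AnalysisR.Sobolev
open Crest.Agent.R096.Msh_715 (Tiling P I)
open Crest.Agent.R096.Mal_874 (CB)
open Crest.Agent.R096.Sk_962 (SH)
open Crest.Agent.R096.Br_695 (En)
open Crest.Agent.R096.Fce_793 (pt cc)
open Crest.Agent.R096.Ca_855
open Crest.Agent.R096.Gz_812 (HFine)
open Crest.Agent.R096.Eta_812 (EtaOK exists_eta_osc)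
open Crest.Agent.R096.Efi_296 (GoodA ae_goodA)
open Crest.Agent.R096.Ea0_961 (EA0)
open Crest.Agent.R096.Pje_518
open Crest.Agent.R096.Pin_753
open Crest.Agent.R96.Lu_538
open Crest.Agent.R96.Intr_538
open Crest.Agent.R96.Coarse_538
open Crest.Agent.R96.Acl_392

noncomputable section

theorem aem_gF {p : ℝ} {Om La : Set R3} {f : R3 → R3} {G : Fin 3 → R3 → R3}
    (H : SH p Om La f G) (L : (Fin 3 → ℤ) → R3 →L[ℝ] R3) (i : Option (Fin 3 → ℤ)) :
    AEMeasurable (gF p G L i) (volume.restrict Om) := by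
  cases i with
  | none =>
    show AEMeasurable (fun x => ∑ j : Fin 3, ‖G j x‖ₑ ^ p) (volume.restrict Om)
    exact Finset.aemeasurable_fun_sum _ fun j _ =>
      (H.memG j).aestronglyMeasurable.enorm.pow_const p
  | some k =>
    exact (((memLp_Gmat H.memG).aestronglyMeasurable).sub
      aestronglyMeasurable_const).enorm.pow_const p

theorem int_gF {p : ℝ} (hp : 1 ≤ p) {Om La : Set R3} (hOmf : volume Om ≠ ∞) {f : R3 → R3}
    {G : Fin 3 → R3 → R3}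
    (H : SH p Om La f G) (L : (Fin 3 → ℤ) → R3 →L[ℝ] R3) (i : Option (Fin 3 → ℤ)) :
    ∫⁻ y in Om, gF p G L i y ≠ ∞ := by
  have hp0 : 0 < p := by linarith
  cases i with
  | none => exact Pe_622.en_finite hp0 H
  | some k =>
    have : IsFiniteMeasure (volume.restrict Om) := ⟨by
      rw [Measure.restrict_apply_univ]; exact hOmf.lt_top⟩
    have h1 : MemLp (fun x => Gmat G x - L k) (ENNReal.ofReal p) (volume.restrict Om) :=
      (memLp_Gmat H.memG).sub (memLp_const _)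
    have h2 := h1.eLpNorm_lt_top
    have hp1 : ENNReal.ofReal p ≠ 0 := by
      rw [Ne, ENNReal.ofReal_eq_zero]
      exact not_le.2 hp0
    have h3 := lintegral_rpow_enorm_lt_top_of_eLpNorm_lt_top hp1 ENNReal.ofReal_ne_top h2
    rw [ENNReal.toReal_ofReal hp0.le] at h3
    exact h3.ne

theorem BlkP.mono_hi {κ s τ hh c1 θ0 θ0' θ1 : ℝ} {Bs Nn : ℕ} {z0 : R3} {Q : CB R3 3} {k0 : ℕ}
    (hs : 0 ≤ s) (h : θ0 ≤ θ0') (H : BlkP κ s τ hh c1 θ0 θ1 Bs Nn z0 Q k0) :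
    BlkP κ s τ hh c1 θ0' θ1 Bs Nn z0 Q k0 where
  cnd := H.cnd
  net := H.net
  hB := H.hB
  hR := H.hR
  cellL := H.cellL
  cellU := H.cellU
  lo := H.lo
  hi := H.hi.trans (mul_le_mul_of_nonneg_right h hs)
  sub := H.sub

/-- **the outer frame** -/
theorem preIN_frame {p : ℝ} (hp : 1 ≤ p) (hE : EA0 p) (Els : ElsT)
    (hsel : ∀ (Om La : Set R3) (f : R3 → R3) (G : Fin 3 → R3 → R3), IsOpen Om →
      Bornology.IsBounded Om → IsOpen La → volume La ≠ ∞ → SH p Om La f G → HFine Om La f →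
      ∀ ε : ℝ, 0 < ε → ∀ Bs : ℕ, SelP p Om La f G ε Bs)
    (hAC : ∀ {Om W : Set R3} {ρ₀ : R3 → ℝ} {J : Type} {Qb : J → CB R3 3} {k0 : ℕ} {σ : ℝ}
      [Finite J] (h : MIn Om W ρ₀ Qb k0 σ), ∃ (κe κf : Type) (x v : κe → R3) (e : κf → Fin 2 → R3)
      (xx : κf → R3) (Qf : κf → Set (ℝ × ℝ)), AllC h x v e xx Qf)
    (hEL : ElP p Els) (hO : OneP p Els) : PreIN p := by
  refine preIN_of_scaled fun Bs => ?_
  obtain ⟨mU, hO⟩ := hO
  obtain ⟨Cu, hEL⟩ := hEL mU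
  obtain ⟨C, hO⟩ := hO Cu Bs
  refine ⟨C, fun Om La f G hOm hOmb hOmc hLa hLab hLac H ε hε => ?_⟩
  have hOmf : volume Om ≠ ∞ := hOmb.measure_lt_top.ne
  have hLaf : volume La ≠ ∞ := hLab.measure_lt_top.ne
  have happ : HFine Om La f := Hap_812.happ_fine_r3 hp hE hOm hOmb hOmc hLa hLab hLac H
  obtain ⟨κ, hκ, hκ1, K, hK, hKc, K', hK', hK'c, W, hW, hWc, hKW, hfW, D, hD, nc, hTC, hsel⟩ :=
    hsel Om La f G hOm hOmb hLa hLaf H happ ε hε Bs
  obtain ⟨C1, hC1, hDC1, hO⟩ := hO Om La f G hOm hOmb hOmc hLa hLab hLac H κ D nc hκ hκ1 hD hTC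
  refine ⟨κ, hκ, hκ1, K, hK, hKc, K', hK', hK'c, C1, hC1, ?_⟩
  intro τ hh c1 c2 κw e Nn hτ hτ4 hhh hc1 hc2 hκw he hC1h
  obtain ⟨Rl, e₀, mN, hRl, he₀, θO, hθO, hO⟩ := hO τ hh c1 c2 κw e Nn hτ hτ4 hhh hc1 hc2 hκw he hC1h
  obtain ⟨θE, hθE, hEL⟩ := hEL Om La f G hOm hOmb H κ τ c1 c2 hh Rl e₀ mN Bs Nn hκ hκ1 hτ hτ4
    hc1 hc2 hhh hRl he₀
  obtain ⟨θ0, hθ0, h0O, h0E, h0c, h0h, h0w⟩ : ∃ θ0 : ℝ, 0 < θ0 ∧ θ0 ≤ θO ∧ θ0 ≤ θE ∧ 48 * θ0 < c2 ∧
      θ0 ≤ hh ∧ 2 * θ0 ≤ κw := by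
    refine ⟨min (min θO θE) (min (c2 / 96) (min hh (κw / 2))), by positivity, ?_, ?_, ?_, ?_, ?_⟩
    · exact (min_le_left _ _).trans (min_le_left _ _)
    · exact (min_le_left _ _).trans (min_le_right _ _)
    · have : min (min θO θE) (min (c2 / 96) (min hh (κw / 2))) ≤ c2 / 96 :=
        (min_le_right _ _).trans (min_le_left _ _)
      linarith
    · exact (min_le_right _ _).trans ((min_le_right _ _).trans (min_le_left _ _))
    · have : min (min θO θE) (min (c2 / 96) (min hh (κw / 2))) ≤ κw / 2 :=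
        (min_le_right _ _).trans ((min_le_right _ _).trans (min_le_right _ _))
      linarith
  refine ⟨θ0, hθ0, fun θ1 hθ1 hθ10 η hη hη0 e1 δ he1 hδ => ?_⟩
  obtain ⟨σ', η₁, hσ', hη₁, hσ'r, hO⟩ := hO θ1 hθ1
  obtain ⟨w, d0, ρ₀, hd0, hw0, hwl, ρl, ρn, ρ1, ρp, -, -, ρosc, ρmin, hEta⟩ :=
    exists_eta_osc hOm hLa H.homeo hη hη0 hK'c hK' hWc hW
  obtain ⟨e1O, δO, sO, he1O, hδO, hsO, hO⟩ := hO W K' hW hWc hK'c hK' hfW η w ρ₀ d0 hη hη0 hd0 hw0
    hwl hEta ρl ρn ρ1 ρp ρmin ρosc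
  obtain ⟨e1E, δE, sE, he1E, hδE, hsE, hEL⟩ := hEL θ1 hθ1 W ρ₀ hW hWc ρl ρn ρ1 ρp ρmin
  have hDh : 24 * D * hh ≤ τ := by
    have h1 : C1 * hh ≤ τ := hC1h.trans (min_le_left _ _)
    nlinarith
  have hDh2 : 8 * D * hh ≤ c2 := by
    have h1 : C1 * hh ≤ c2 := hC1h.trans (min_le_right _ _)
    nlinarith [mul_pos (by linarith : 0 < D) hhh]
  obtain ⟨sS, hsS, hsel⟩ := hsel τ hh c1 c2 θ0 θ1 σ' η₁ Nn hτ hτ4 hhh hc1 hc2 hθ0 hθ1 hσ' hη₁ hDh
    hDh2 h0c h0h hσ'r ρ₀ ρl ρn ρ1 ρp ρmin (min e1 (min e1O e1E)) (min δ (min δO δE))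
    (lt_min he1 (lt_min he1O he1E)) (lt_min hδ (lt_min hδO hδE))
  refine ⟨min sS (min sO sE), lt_min hsS (lt_min hsO hsE), fun s hs hss a₀ => ?_⟩
  have hssS : s < sS := hss.trans_le (min_le_left _ _)
  have hssO : s < sO := hss.trans_le ((min_le_right _ _).trans (min_le_left _ _))
  have hssE : s < sE := hss.trans_le ((min_le_right _ _).trans (min_le_right _ _))
  obtain ⟨Q₀, b, L, q1, q2, q3, q4, q5, q6, hsel⟩ := hsel s hs hssS a₀
  have hm1 : min e1 (min e1O e1E) ≤ e1 := min_le_left _ _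
  have hm2 : min e1 (min e1O e1E) ≤ e1O := (min_le_right _ _).trans (min_le_left _ _)
  have hm3 : min e1 (min e1O e1E) ≤ e1E := (min_le_right _ _).trans (min_le_right _ _)
  refine ⟨Q₀, b, L, q1, q2, q3, q4, q5.trans (ENNReal.ofReal_le_ofReal hm1), q6, ?_⟩
  intro J _ kk Qb k0 hk hlo hhi hkk hB hsep
  obtain ⟨h, κi, cκi, x, v, κf, cκf, xf, ef, Pf, hsel⟩ := hsel J kk Qb k0 hk hkk hB hsep hlo hhi
  obtain ⟨κe', κf', x', v', e', xx', Qf', hA⟩ := hAC h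
  obtain ⟨B2, hB2, hEL⟩ := hEL s hs hssE a₀ Q₀ L q1 (fun k hk => (q2 k hk).trans hKW)
    (q5.trans (ENNReal.ofReal_le_ofReal hm3)) J kk Qb k0 hkk (fun j => BlkP.mono_hi hs.le h0E (hB j))
    hsep hlo (hhi.trans (mul_le_mul_of_nonneg_right h0E hs.le)) h
  -- almost every position is good
  have := hA.ce
  have := hA.cf
  have hgood := ae_goodA hA.v0 hA.c0 xx' (x := x') hOm.measurableSet (fun i => aem_gF H L i)
    (fun i => int_gF hp hOmf H L i)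
  have hB2' : volume (B2 ∪ {a | ¬ ∀ i, GoodA Om (gF p G L i) x' v' e' xx' a}) ≤
      ENNReal.ofReal (1 / 2) * volume (Dt (1 / 2 ^ k0)) := by
    refine (measure_union_le _ _).trans ?_
    rw [ae_iff.1 hgood, add_zero]
    exact hB2
  obtain ⟨a, haD, haB, han, Q, hQ, hcard, hPos⟩ := hsel _ hB2'
  have haB2 : a ∉ B2 := fun h' => haB (Or.inl h')
  have haG : ∀ i, GoodA Om (gF p G L i) x' v' e' xx' a := by
    by_contra hcon
    exact haB (Or.inr hcon)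
  have hc1' : ((Q₀ \ Q).card : ℝ) * (2 * s) ^ 3 ≤ δ := hcard.trans (min_le_left _ _)
  have hc2' : ((Q₀ \ Q).card : ℝ) * (2 * s) ^ 3 ≤ δO :=
    hcard.trans ((min_le_right _ _).trans (min_le_left _ _))
  have hc3' : ((Q₀ \ Q).card : ℝ) * (2 * s) ^ 3 ≤ δE :=
    hcard.trans ((min_le_right _ _).trans (min_le_right _ _))
  have hels := hEL a haD haB2 Q hQ hc3'
  refine ⟨a, ?_, Q, hQ, hc1', ?_⟩
  · have e2 : (2:ℝ) / 2 ^ k0 = 2 * (1 / 2 ^ k0) := by ring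
    rw [e2] at han
    have : 2 * (1 / 2 ^ k0) ≤ 2 * (θ0 * s) := by linarith
    have h5 : 2 * θ0 * s ≤ κw * s := mul_le_mul_of_nonneg_right h0w hs.le
    linarith
  · exact hO s hs hssO a₀ Q₀ b L q1 (fun k hk => (q2 k hk).trans hKW) q3 q4
      (q5.trans (ENNReal.ofReal_le_ofReal hm2)) J kk Qb k0 hk hkk
      (fun j => BlkP.mono_hi hs.le h0O (hB j)) hsep hlo
      (hhi.trans (mul_le_mul_of_nonneg_right h0O hs.le)) h x v xf ef Pf x' v' e' xx' Qf' hA a haD han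
      haG Q hQ hc2' hPos hels

end

end Crest.Agent.R096.Pas_753
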