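import Mathlib

/-!
Row 96 (S0127), helper753.  Small numbers: finitely many linear conditions.
-/

set_option autoImplicit false

namespace Crest.Agent.R096.Pas_753

/-- one small number for finitely many conditions `q.1 * θ < q.2` -/
theorem exists_small (l : List (ℝ × ℝ)) (hl : ∀ q ∈ l, 0 < q.2) :
    ∃ θ : ℝ, 0 < θ ∧ ∀ θ', 0 ≤ θ' → θ' ≤ θ → ∀ q ∈ l, q.1 * θ' < q.2 := by
  induction l with
  | nil => exact ⟨1, one_pos, fun _ _ _ q hq => absurd hq (by simp)⟩
  | cons a l ih =>
    obtain ⟨θ, hθ, h⟩ := ih fun q hq => hl q (List.mem_cons_of_mem _ hq)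
    have ha := hl a (List.mem_cons_self ..)
    have hp : 0 < |a.1| + 1 := by positivity
    refine ⟨min θ (a.2 / (|a.1| + 1)), lt_min hθ (by positivity), fun θ' h0 h1 q hq => ?_⟩
    rcases List.mem_cons.1 hq with rfl | hq
    · have h2 : θ' ≤ q.2 / (|q.1| + 1) := h1.trans (min_le_right _ _)
      rcases h0.lt_or_eq with h0' | h0'
      · have h3 : θ' * (|q.1| + 1) ≤ q.2 := (le_div_iff₀ hp).1 h2
        have h4 : q.1 * θ' ≤ |q.1| * θ' := mul_le_mul_of_nonneg_right (le_abs_self _) h0
        nlinarith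
      · rw [← h0', mul_zero]
        exact ha
    · exact h θ' h0 (h1.trans (min_le_left _ _)) q hq

end Crest.Agent.R096.Pas_753
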