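import Crest.Agent.R096.Lv4_471
import Crest.Agent.R096.Bar4_543
import Crest.Agent.R096.Dib2_438
import Crest.Agent.R096.Bgf10_4
import Crest.Agent.R096.Dfn1_416

/-!
# R096 (row 96), DOORS_final (helper416): joint 16, (B) for the state after CUT

`posS_S3` : `PosS Φ T f σ J0 S s₃` (= field `posB`) from 471's `lev3`, `pos_tiny`, `reg_tiny`, for any
combined state with barriers over moats.
-/

set_option autoImplicit false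
set_option linter.unusedSectionVars false
set_option linter.unusedVariables false
set_option linter.style.longLine false

open Set Topology Filter Metric Module Relation
open scoped Classical

namespace Crest.Agent.R096.Dfn_416

open Crest.Agent.R096.Msh_715 Crest.Agent.R096.Coh_184 Crest.Agent.R096.Lab_184
  Crest.Agent.R096.Main_4 Crest.Agent.R096.Agl5_543
  Crest.Agent.R096.Seq_213 Crest.Agent.R096.St_147 Crest.Agent.R096.Door_501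
  Crest.Agent.R096.Twr_438 Crest.Agent.R096.Exa_560
  Crest.Agent.R096.Ess3_95 Crest.Agent.R096.Ess4_95 Crest.Agent.R096.Ac_117 Crest.Agent.R096.Lm_117
  Crest.Agent.R096.Dfi_539 Crest.Agent.R096.Dfi_471 Crest.Agent.R096.Dfo_539
  Crest.Agent.R096.Sla_184 Crest.Agent.R096.Gm_298 Crest.Agent.R096.Rop_441 Crest.Agent.R096.Frk_441
  Crest.Agent.R096.Brk1_582 Crest.Agent.R096.Brk2_582 Crest.Agent.R096.Brk3_582
  Crest.Agent.R096.Brk5_582 Crest.Agent.R096.Bsp_628 Crest.Agent.R096.Init_543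
  Crest.Agent.R096.Lv3_471 Crest.Agent.R096.Lv4_471 Crest.Agent.R096.Bar_106
  Crest.Agent.R096.Dib_438
open Crest.Agent.R096.Mbf_337 (KJ Tiny Cores sb)
open Crest.Agent.R096.SkC1_961 (E3 FoamD Hom3)
open Crest.Agent.R096.Frn_337 (Ti)
open Crest.Agent.R096.Frs_662 (slC)

variable {δ κ0 R c0 : ℝ} {La Om : Set E3} {ι : Type} {Φ : FoamD δ κ0 R c0 La} {T : Tiling Om ι}
  {f g : E3 → E3} {κ1 κ2 μ : ℝ} {X : Set Φ.F} {J0 J V : Φ.F → Set ι}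
  {ct ct' : Φ.F → ι} {A : Φ.F → E3 ≃ᵃ[ℝ] E3} {lam : Φ.F → ℝ} {z : Φ.F → E3}
  {θ : Φ.F → E3 → E3} {φ : Φ.F → E3 → ℝ} {r₀ : Φ.F → ℝ}
  {L : Φ.F → Finset ℝ} [Nonempty (JJ Φ L)] {hG : GF Φ r₀ T f L} {bp : JJ Φ L → E3}
  {Mo : Type} {co : Mo → Ti X}

/-- the coordinates of a point of the frontier of a tiny core -/
theorem lev01 (hLa : IsOpen La) (H : Hm f g Om La) {c : Φ.F} {J0 J V : Set ι} {θ : E3 → E3}
    {φ : E3 → ℝ} (hT : Tiny Φ T f κ1 c J0 J V θ φ) {w : E3} (hw : w ∈ frontier (KJ T J)) (e : Φ.F) :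
    0 ≤ Φ.lev e (f w) ∧ Φ.lev e (f w) ≤ 1 := by
  obtain ⟨ρ1, ρ2, ρ3, ρ4, d, hd, hr⟩ := Ess5_95.exists_rm hT
  have hw' := fr_sub hT hw
  obtain ⟨i, hi, hwi⟩ := mem_iUnion₂.1 hw'
  obtain ⟨g1, g2⟩ := hr.fr w hw
  obtain ⟨g3, g4⟩ := hr.tile hwi (by linarith [hr.r12, hr.d0]) (by linarith [hr.r34, hr.d0])
  have h := (Bgf_4.psi_tile hLa H hT hr g3 g4 hwi).2
  exact Dib_438.sb_mem hLa h e

section posb

variable [Nonempty (JJ Φ L ⊕ Mo)]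
  {sB : GSt (meshC T fr3) (Sum.map (fun j : JJ Φ L => j.1) (id : Mo → Mo))}
  {r : JJ Φ L ⊕ Mo → E3} {Sf : JJ Φ L ⊕ Mo → Set E3} {nb : Ti X → Φ.F ⊕ Mo → Prop}

/-- **(B) FOR THE STATE AFTER CUT** -/
theorem posS_S3 (hLa : IsOpen La) (hδ : 0 < δ) (hR0 : 0 < R) (hκ1 : 0 < κ1) (hμ0 : 0 < μ)
    (hμ1 : μ ≤ 1 / 2) (hR : InitR Φ T f g J0 ct' r₀)
    (hC : Cores Φ T f κ1 κ2 X J0 J V ct A lam z θ φ)
    (hm : ∀ c, ∀ t ∈ L c, μ ≤ t ∧ t ≤ 1 - μ)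
    {n : Ti X → ℕ} {hn : ∀ c, 0 < n c}
    (hB : BarS hG bp V co sB)
    {v0 v1 : ∀ c, Φ.F ⊕ Mo → VxK T (slC hLa hC n hn).K c} {u : Ti X → Φ.F ⊕ Mo → E3 → ℝ}
    {Al Bl : Ti X → Φ.F ⊕ Mo → ℝ}
    {Lx : ∀ c, Φ.F ⊕ Mo → Lev T (frontier ((slC hLa hC n hn).K c)) (JJ Φ L ⊕ Mo)}
    {Tw : Twrs ((slC hLa hC n hn).sh fr3) (slC hLa hC n hn).n
      (outK (slC hLa hC n hn).hH (slC hLa hC n hn).dis sB r)} {l0 : E3 → JJ Φ L ⊕ Mo}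
    (Dn : DIn (slC hLa hC n hn).hH sB r Sf nb v0 v1 u Al Bl)
    (lo : LevOut (Kc := (slC hLa hC n hn).K) sB nb u Al Bl Lx)
    (tt : TwOut (slC hLa hC n hn) fr3 sB r v0 v1 Lx Tw)
    (mon : Dff_539.Mon (slC hLa hC n hn) fr3 Lx Tw)
    {am : Mo → Φ.F} {Zm : Mo → Set Φ.F} {Nn : Ti X → Finset Φ.F}
    -- the families
    (hnb : ∀ c a, nb c (Sum.inl a) → a ∈ nbr Φ c.1)
    (hu : ∀ c a x, u c (Sum.inl a) x = sb Φ (θ c.1 x) a)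
    (hA : ∀ c a, μ / 2 ≤ Al c (Sum.inl a)) (hB1 : ∀ c a, Bl c (Sum.inl a) ≤ 1 - μ / 2)
    (hv0 : ∀ c a, nb c (Sum.inl a) → sb Φ (θ c.1 (v0 c (Sum.inl a)).1) a ≤ μ / 2)
    (hv1 : ∀ c a, nb c (Sum.inl a) → 1 - μ / 2 ≤ sb Φ (θ c.1 (v1 c (Sum.inl a)).1) a)
    -- the barriers
    (hmo : ∀ m, ∃ p q, Bar_106.Mo (Pc Φ.F) (co m).1 (am m) (Zm m) p q)
    (hnbM : ∀ c m, nb c (Sum.inr m) → co m = c)
    (hNn : ∀ c : Ti X, ∀ e, (Pc Φ.F c.1 ∩ Pc Φ.F e).Nonempty → e ∈ Nn c)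
    (huM : ∀ c m, nb c (Sum.inr m) → ∀ x, u c (Sum.inr m) x = Fs (Nn c) (am m) (Zm m) (sb Φ (θ c.1 x)))
    {s0 mm ra hi : ℝ} (hs0 : 0 < s0) (hra : 0 < ra) (hhi : 0 ≤ hi)
    (hgm : ∀ w ∈ sB.P, ∀ m, sB.lab w = Sum.inr m →
      Gm s0 mm ra (am m) (Zm m) (fun e => Φ.lev e (f w)) ≤ hi)
    (hwB : ∀ c m, nb c (Sum.inr m) → s0 * hi + (3 * Cn δ R + 1) * κ1 < Bl c (Sum.inr m) ∧
      Bl c (Sum.inr m) ≤ 1 - (2 * Cn δ R + 1) * κ1)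
    -- numbers
    {σ σ₁ t : ℝ} (hn1 : (3 * Cn δ R + 1) * κ1 < μ / 2) (hσ1 : σ₁ + Cn δ R * κ1 ≤ μ / 2)
    (hn2 : (2 * Cn δ R + 1) * κ1 ≤ t) (hn4 : σ + Cn δ R * κ1 ≤ t)
    (hn5 : t + (2 * Cn δ R + 1) * κ1 + Cn δ R * κ1 < σ₁)
    (hw1 : σ₁ ≤ mm - ra * hi) (hw2 : mm + ra * hi ≤ 1 - σ₁)
    -- cut
    {Act : Φ.F → Set (T.RIdx (slC hLa hC n hn).HH ⊕ Ti X)}
    {s3 : GSt (mK fr3 (Lay_316.lay_sla hLa hC n hn).core (Lay_316.lay_sla hLa hC n hn).disj)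
      (fun j : JJ Φ L => j.1)}
    (D3 : CutOut (s2 (slC hLa hC n hn) fr3 Tw l0) am Act s3) (hgi : ∀ a k, Sum.inr k ∉ Act a) :
    PosS Φ T f σ J0 (slC hLa hC n hn) s3 := by
  have hCn := Cn_nonneg hδ hR0
  have hCκ : 0 ≤ Cn δ R * κ1 := mul_nonneg hCn hκ1.le
  have e1 : (3 * Cn δ R + 1) * κ1 = 3 * (Cn δ R * κ1) + κ1 := by ring
  have e2 : (2 * Cn δ R + 1) * κ1 = 2 * (Cn δ R * κ1) + κ1 := by ring
  have hκb : (2 * Cn δ R + 1) * κ1 < 1 := by linarith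
  have hsh : 0 ≤ s0 * hi := mul_nonneg hs0.le hhi
  have hbr : ∀ w ∈ sB.P, ∀ m, sB.lab w = Sum.inr m →
      σ₁ ≤ Φ.lev (am m) (f w) ∧ Φ.lev (am m) (f w) ≤ 1 - σ₁ := by
    intro w hw m hl
    have h1 := hgm w hw m hl
    have h2 : |Φ.lev (am m) (f w) - mm| ≤ ra * hi := by
      have := (le_max_right _ _).trans h1
      rw [div_le_iff₀ hra] at this
      linarith
    rw [abs_le] at h2
    constructor <;> linarith [h2.1, h2.2]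
  have hp := pos_tiny (s := sB) (r := r) (nb := nb) (v0 := v0) (v1 := v1) (u := u) (A := Al)
    (B := Bl) (L := Lx) (am := am) (σ₁ := σ₁) hLa hδ hR0 hκ1 hμ0 hμ1 hn1 hC.tiny lo hσ1 hnb hu hA hB1
    hv0 hv1 (fun w hw j hl => by
      obtain ⟨h1, h2, h4⟩ := hB.mem hLa hR hw hl
      rw [h4]
      exact hm j.1 j.2.1 j.2.2) hbr
  intro w hw i3 hiK hwi hKor
  have key := lev3 (hKK := (Lay_316.lay_sla hLa hC n hn).core) (σ := σ) (t := t) Dn lo tt mon hp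
    (fun c m hcm => by
      obtain ⟨p, q, M⟩ := hmo m
      have hc : co m = c := hnbM c m hcm
      rw [hc] at M
      obtain ⟨g1, g2⟩ := hwB c m hcm
      refine ⟨_, reg_tiny hLa hδ hR0 hκ1 hκb hC.tiny lo M (hNn c) (huM c m hcm)
        (Bar_543.fs_ge_c hLa M (hNn c) (by linarith) (by linarith)).1
        (Dn.v0_lt c _ hcm) (Dn.v1_gt c _ hcm) hs0 hra g1 g2 (by linarith) (by linarith)
        (fun w hw hl hwf => ⟨fun e => lev01 hLa hR.hm (hC.tiny c.1 c.2) hwf e, hgm w hw m hl⟩)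
        hn2 (by linarith)⟩) hCκ (by linarith) hn4 hn5 D3 hgi hw hwi hiK
  obtain ⟨x, hx, g1, g2⟩ := key
  exact ⟨x, hx, g1, g2⟩

end posb

end Crest.Agent.R096.Dfn_416
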