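import Crest.Agent.R096.Sec11_892

/-!
# R096 (row 96), DOORS (helper147): pull back of closed sets with the values of the new points

`PBN` : 892's `PB` + every double point of the cut state comes from a double point of the old state
with the same name and the same value + every new point lies next to a barrier point which is
enclosed by chords of the same sheet with the value of the new point.  `cutN` : the whole cut.
-/

set_option autoImplicit false

namespace Crest.Agent.R096.Pbn_147

open Crest.Agent.R096.St_147 Crest.Agent.R096.Wk_689 Crest.Agent.R096.F_422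
open Crest.Agent.R096.Sec_892 Crest.Agent.R096.SecW_892

variable {ι Φ W I : Type} {M : MeshC ι Φ W} {col : I → Bool} {s : St M col}
variable {Act : Set ι} {far : I → Set W}

/-- the barrier point `h` is enclosed, on its barrier, by chords of the sheet `i` whose value (with
respect to `X`) is `v`: no path of barrier chords which are not crossed by such chords leads to a
frozen face or a marked point -/
def EncV (Act : Set ι) (far : I → Set W) (s : St M col) (i : I) (X : Set W) (v : Prop) (h : W) :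
    Prop :=
  ∃ B : Set W, h ∈ B ∧ (∀ x ∈ B, HP s x ∧ s.lab x = s.lab h) ∧
    (∀ F x, x ∈ B → s.At F x →
      (∀ z : s.Dbl, z.F = F → z.e false = s.lo F x → s.lab (z.e true) = i →
        ¬ (z.e true ∈ X ↔ v)) → s.mu F x ∈ B) ∧
    ∀ x ∈ B, x ∉ far (s.lab h) ∧ ∀ F, s.At F x → ¬ St.Frozen M Act F

/-- **pull back of closed sets, with the new points** -/
def PBN (Act : Set ι) (far : I → Set W) (Ph : Finset W) (s' s : St M col) : Prop :=
  ∀ i, col i = true → ∀ K : Φ → W → Prop, KBar s K → ∀ X', KCl s' i K X' →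
    ∃ X, KCl s i K X ∧
      (∀ w, w ∈ s.P → s.lab w = i → w ∈ s'.P → s'.lab w = i → (w ∈ X ↔ w ∈ X')) ∧
      (∀ z' : s'.Dbl, s'.lab (z'.e true) = i → ∃ z : s.Dbl, z.F = z'.F ∧
        z.e false = z'.e false ∧ s.lab (z.e true) = i ∧ (z.e true ∈ X ↔ z'.e true ∈ X')) ∧
      ∀ w ∈ s'.P, w ∉ s.P → s'.lab w = i →
        ∃ h, HP s h ∧ Nb M Ph h w ∧ EncV Act far s i X (w ∈ X') h

theorem PBN.refl (Act : Set ι) (far : I → Set W) (Ph : Finset W) (s : St M col) :
    PBN Act far Ph s s := fun _ _ _ _ X h =>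
  ⟨X, h, fun _ _ _ _ _ => Iff.rfl, fun z hz => ⟨z, rfl, rfl, hz, Iff.rfl⟩,
    fun _ h1 h2 => absurd h1 h2⟩

theorem EncV.congr {i : I} {X : Set W} {v v' : Prop} {h : W} (hv : v ↔ v')
    (he : EncV Act far s i X v h) : EncV Act far s i X v' h := by
  rwa [propext hv] at he

theorem EncV.of_cle {Ph : Finset W} {s' s : St M col} (hc : CLe Act far Ph s' s) {i : I}
    {X X' : Set W} {v : Prop} {h : W}
    (hd : ∀ z' : s'.Dbl, s'.lab (z'.e true) = i → ∃ z : s.Dbl, z.F = z'.F ∧
      z.e false = z'.e false ∧ s.lab (z.e true) = i ∧ (z.e true ∈ X ↔ z'.e true ∈ X'))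
    (he : EncV Act far s' i X' v h) : EncV Act far s i X v h := by
  obtain ⟨B, h1, h2, h3, h4⟩ := he
  have hh := (hc.hp h).1 (h2 h h1).1
  have hl : s'.lab h = s.lab h := hc.hlab h hh
  refine ⟨B, h1, ?_, ?_, ?_⟩
  · intro x hx
    obtain ⟨h5, h6⟩ := h2 x hx
    have h7 := (hc.hp x).1 h5
    exact ⟨h7, by rw [← hc.hlab x h7, h6, hl]⟩
  · intro F x hx hA hf
    obtain ⟨h5, -⟩ := h2 x hx
    have h7 := (hc.hp x).1 h5
    have hlo : s'.lo F x = s.lo F x := by
      unfold St.lo
      rw [hc.hmu x F h7]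
    rw [← hc.hmu x F h7]
    refine h3 F x hx ⟨h5.1, hA.2⟩ ?_
    intro z' hF he' hi hiff
    obtain ⟨z, e1, e2, e3, e4⟩ := hd z' hi
    exact hf z (e1.trans hF) (e2.trans (he'.trans hlo)) e3 (e4.trans hiff)
  · intro x hx
    obtain ⟨h5, -⟩ := h2 x hx
    obtain ⟨h6, h7⟩ := h4 x hx
    rw [hl] at h6
    exact ⟨h6, fun F hA => h7 F ⟨h5.1, hA.2⟩⟩

/-- composition -/
theorem PBN.trans {Ph Ph' : Finset W} {s'' s' s : St M col} (hPh : Ph ⊆ Ph') (hP : s.P ⊆ Ph')
    (h2 : CL2 Act far Ph' s'' s') (h1 : CL2 Act far Ph s' s)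
    (e2 : PBN Act far Ph' s'' s') (e1 : PBN Act far Ph s' s) : PBN Act far Ph s'' s := by
  have hmid : ∀ w, w ∈ s''.P → w ∈ s.P → w ∈ s'.P := by
    intro w hw hws
    rcases h2.cle.P w hw with h | h
    · exact h
    · exact absurd (hP hws) h.1
  intro i hi K hK X'' hX''
  have hK' : KBar s' K := fun q F F' h hq hq' hh hF' => hK q F F' h hq hq' ((h1.cle.hp h).1 hh) hF'
  obtain ⟨X', hX', c2, d2, n2⟩ := e2 i hi K hK' X'' hX''
  obtain ⟨X, hX, c1, d1, n1⟩ := e1 i hi K hK X' hX'
  refine ⟨X, hX, fun w hw hwi hw'' hwi'' => ?_, fun z'' hz'' => ?_, fun w hw hws hwi => ?_⟩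
  · have h := hmid w hw'' hw
    have hl : s'.lab w = i := by rw [h1.lab w h hw, hwi]
    rw [c1 w hw hwi h hl, c2 w h hl hw'' hwi'']
  · obtain ⟨z', a1, a2, a3, a4⟩ := d2 z'' hz''
    obtain ⟨z, b1, b2, b3, b4⟩ := d1 z' a3
    exact ⟨z, b1.trans a1, b2.trans a2, b3, b4.trans a4⟩
  · by_cases h : w ∈ s'.P
    · have hl : s'.lab w = i := by rw [← h2.lab w hw h, hwi]
      obtain ⟨u, g1, g2, g3⟩ := n1 w h hws hl
      exact ⟨u, g1, g2, g3.congr (c2 w h hl hw hwi)⟩
    · obtain ⟨u, g1, g2, g3⟩ := n2 w hw h hwi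
      exact ⟨u, (h1.cle.hp u).1 g1, ⟨g2.1, fun F y h6 h7 h8 h9 => g2.2 F y h6 (hPh h7) h8 h9⟩,
        g3.of_cle h1.cle d1⟩

section step

variable {G : Set s.Dbl} {inn : s.Dbl → Bool → Bool} {nm : Dart s → Option I}
variable {up : Φ → W → Bool} {Ph : Finset W} {b : Bool} {c : W → W}

/-- **the values after the exchange along one curve** (892's proof of `pst_pb`, all conclusions) -/
theorem pst_val {A : s.Arcs Act} {z₀ : s.Dbl} (hz₀ : z₀ ∈ A.mx) (hg : s.Good Act far)
    (N : NmsT s (A.cv z₀) far inn nm) (hp : Push s up Ph b c) (hP : s.P ⊆ Ph)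
    (hgood : (pst hp hP (nst_sub hg N)).Good Act far) {i : I} (hi : col i = true)
    {K : Φ → W → Prop} (hK : KBar s K) {X' : Set W}
    (hX' : KCl (pst hp hP (nst_sub hg N)) i K X') :
    ∃ X : Set W, KCl s i K X ∧
      (∀ w, w ∈ s.P → s.lab w = i → w ∈ (pst hp hP (nst_sub hg N)).P →
        (pst hp hP (nst_sub hg N)).lab w = i → (w ∈ X ↔ w ∈ X')) ∧
      (∀ w, w ∉ s.P → w ∈ (pst hp hP (nst_sub hg N)).P →
        (pst hp hP (nst_sub hg N)).lab w = i → (z₀.e true ∈ X ↔ w ∈ X')) ∧
      ∀ F w, s.At F w → s.lab w = i → (∃ z ∈ A.cv z₀, z.F = F ∧ z.e true = s.lo F w) →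
        (w ∈ X ↔ z₀.e true ∈ X) := by
  classical
  set t := nst hg N with ht
  set s' := pst hp hP (nst_sub hg N) with hs'
  set χ : W → ZMod 2 := fun w => if w ∈ X' then 1 else 0 with hχ
  have hχe : ∀ {u v : W}, (u ∈ X' ↔ v ∈ X') → χ u = χ v := fun h => if_congr h rfl rfl
  -- kept points
  have hkept : ∀ {w}, w ∈ t.P → s.lab w = i → t.lab w = i ∧ ph s c w = w ∧ w ∈ s'.P ∧
      s'.lab w = i := by
    intro w hw hwi
    have hc : col (s.lab w) = true := by rw [hwi]; exact hi
    have h1 : t.lab w = i := (nst_same hg N hw hc).trans hwi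
    have h2 : w ∈ kA t := mem_kA.2 ⟨hw, by rw [h1]; exact hi⟩
    have h3 := pst_ph (hp := hp) (hP := hP) (ht := nst_sub hg N) h2
    rw [ph_neg hc] at h3
    exact ⟨h1, ph_neg hc, h3.1, h3.2.1.trans h1⟩
  have hcom : ∀ w, w ∈ s.P → s.lab w = i → w ∈ s'.P → w ∈ t.P := by
    intro w hw hwi hw'
    rcases (pst_common hg N hp hP hw' hw).1 with h | ⟨h, hc⟩
    · exfalso
      have h3 := h.2
      rw [hwi, hi] at h3
      exact Bool.false_ne_true h3.symm
    · exact (mem_kA.1 h).1
  have htm : ∀ {F w}, s.At F w → w ∈ t.P → t.mu F w ∈ t.P := fun hA hw => (nmd hg N).mem hA hw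
  -- free chords
  have hfree : ∀ {F w}, s.At F w → s.lab w = i →
      (∀ z ∈ A.cv z₀, z.F = F → z.e true ≠ s.lo F w) → t.mu F w = s.mu F w := by
    intro F w hA hwi hz
    exact mu'_eq_mu hA (by rw [hwi, hi]; exact hz)
  have hfree_iff : ∀ {F w}, s.At F w → s.lab w = i →
      (∀ z ∈ A.cv z₀, z.F = F → z.e true ≠ s.lo F w) →
      (w ∈ t.P → s.mu F w ∈ t.P ∧ s'.mu F w = s.mu F w) := by
    intro F w hA hwi hz hw
    have h1 := hfree hA hwi hz
    have h2 := htm hA hw
    rw [h1] at h2
    refine ⟨h2, ?_⟩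
    obtain ⟨h3, h4, -, -⟩ := hkept hw hwi
    have h5 : w ∈ kA t := mem_kA.2 ⟨hw, by rw [h3]; exact hi⟩
    have h6 := (pst_ph (hp := hp) (hP := hP) (ht := nst_sub hg N) h5).2.2 F
    rw [h4] at h6
    refine h6.trans ?_
    show ph s c (t.mu F w) = _
    rw [h1]
    exact (hkept h2 ((s.mu_lab hA.1 hA.2).trans hwi)).2.1
  have hlo : ∀ {F w}, s.At F w → s.lo F (s.mu F w) = s.lo F w := by
    intro F w hA
    unfold St.lo
    rw [s.mu_mu hA.1 hA.2]
    rcases lt_trichotomy (M.pos F w) (M.pos F (s.mu F w)) with h | h | h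
    · rw [if_neg (not_le.2 h), if_pos h.le]
    · exact absurd (M.pos_inj F hA.2 (s.mu_mem hA.1 hA.2).2 h).symm (s.mu_ne hA.1 hA.2)
    · rw [if_pos h.le, if_neg (not_le.2 h)]
  -- the cochain
  set θ : Φ → W → ZMod 2 := fun F w =>
    if w ∈ t.P ∧ ¬ K F w ∧ ¬ K F (s.mu F w) then χ w + χ (s.mu F w) else 0 with hθ
  have hθK : ∀ {F w}, K F w → θ F w = 0 := fun h => if_neg fun h' => h'.2.1 h
  obtain ⟨Ψ, hΨ⟩ := hg.h1 i θ (by
    intro q
    by_cases hq : ∃ F' h, q ∈ M.side F' ∧ HP s h ∧ h ∈ M.On F'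
    · obtain ⟨F', h, hq', hh, hF'⟩ := hq
      refine ⟨fun _ => 0, fun F w hF hA hl => ?_⟩
      rw [add_zero]
      exact hθK (hK q F F' h hF hq' hh hF' w)
    · refine ⟨fun w => if w ∈ t.P then χ w else 0, fun F w hF hA hl => ?_⟩
      have hno : ∀ z ∈ A.cv z₀, z.F = F → z.e true ≠ s.lo F w := by
        intro z _ hzF _
        exact hq ⟨z.F, z.e false, by rw [hzF]; exact hF, ⟨(z.at_ false).1, z.colr false⟩,
          (z.at_ false).2⟩
      have hA' := At.mu s hA
      have hl' : s.lab (s.mu F w) = i := (s.mu_lab hA.1 hA.2).trans hl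
      have hno' : ∀ z ∈ A.cv z₀, z.F = F → z.e true ≠ s.lo F (s.mu F w) := by
        rw [hlo hA]; exact hno
      by_cases hw : w ∈ t.P
      · obtain ⟨h1, h2⟩ := hfree_iff hA hl hno hw
        beta_reduce
        rw [if_pos hw, if_pos h1]
        by_cases hk : K F w ∨ K F (s.mu F w)
        · have h3 : w ∈ X' ↔ s.mu F w ∈ X' := by
            rcases hk with hk | hk
            · have := hX' F w ⟨(hkept hw hl).2.2.1, hA.2⟩ (hkept hw hl).2.2.2 hk
              rwa [h2] at this
            · have h4 := (hfree_iff hA' hl' hno' h1).2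
              rw [s.mu_mu hA.1 hA.2] at h4
              have := hX' F (s.mu F w) ⟨(hkept h1 hl').2.2.1, hA'.2⟩ (hkept h1 hl').2.2.2 hk
              rw [h4] at this
              exact this.symm
          rw [hχe h3, add_self2]
          exact if_neg fun h' => hk.elim h'.2.1 h'.2.2
        · rw [not_or] at hk
          exact if_pos ⟨hw, hk.1, hk.2⟩
      · have h1 : s.mu F w ∉ t.P := by
          intro h
          have := (hfree_iff hA' hl' hno' h).1
          rw [s.mu_mu hA.1 hA.2] at this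
          exact hw this
        beta_reduce
        rw [if_neg hw, if_neg h1, add_zero]
        exact if_neg fun h' => hw h'.1)
  have hΨK : ∀ {F w}, s.At F w → s.lab w = i → K F w → Ψ w = Ψ (s.mu F w) := by
    intro F w hA hl hk
    have := hΨ F w hA hl
    rw [hθK hk] at this
    exact eq_of_add2 this.symm
  -- affected chords
  have haff : ∀ {F w}, s.At F w → s.lab w = i →
      (∃ z ∈ A.cv z₀, z.F = F ∧ z.e true = s.lo F w) → Ψ w = Ψ (z₀.e true) := by
    rintro F w hA hl ⟨z, hz, hzF, hze⟩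
    have hKF : ∀ u, K F u := by
      obtain ⟨q, hq⟩ := exists_side' (M := M) F
      exact hK q F F (z.e false) hq hq ⟨(z.at_ false).1, z.colr false⟩ (by
        rw [← hzF]; exact (z.at_ false).2)
    have hloA : s.lo F w = w ∨ s.lo F w = s.mu F w := by
      unfold St.lo
      split_ifs
      · exact Or.inl rfl
      · exact Or.inr rfl
    have hl2 : s.lab (s.lo F w) = i := by
      rcases hloA with h | h
      · rw [h]; exact hl
      · rw [h, s.mu_lab hA.1 hA.2]; exact hl
    have hΨ2 : Ψ (s.lo F w) = Ψ w := by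
      rcases hloA with h | h
      · rw [h]
      · rw [h]; exact (hΨK hA hl (hKF w)).symm
    have hz1 : s.lab (z.e true) = i := by rw [hze]; exact hl2
    have hmx := A.mx_closed
    -- the curve lies on the sheet `i`
    have hi0 : s.lab (z₀.e true) = i := by
      have := (curve_const (K := K) (Ψ := fun _ => 0) hz₀ hK (fun _ _ _ _ _ => rfl) hz).1
      rw [← this]; exact hz1
    have := (curve_const (Ψ := Ψ) hz₀ hK (fun F w hA' hl' hk' => hΨK hA' (hl'.trans hi0) hk') hz).2
    rw [← this, hze]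
    exact hΨ2.symm
  obtain ⟨b₀, hb₀⟩ := hg.far_ne i
  have hb1 : b₀ ∈ t.P := far_mem' hg N hi hb₀
  have hb2 : s.lab b₀ = i := (hg.far_mem hb₀).2
  set e : ZMod 2 := Ψ b₀ + χ b₀ with he
  set Z : Set W := {x | (x ∈ s.P → Ψ x + χ x = e) ∧ (x ∉ s.P → Ψ (z₀.e true) + χ x = e)} with hZ
  have hclosed : ∀ F x, x ∈ Z → s'.At F x → s'.lab x = i → s'.mu F x ∈ Z := by
    intro F x hxZ hxA hxl
    obtain ⟨v, hv, rfl⟩ := pst_true hxA.1 (by rw [hxl]; exact hi)
    have hvP := nst_sub hg N (mem_kA.1 hv).1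
    have hvF : v ∈ M.On F := (ph_on hp hvP F).1 hxA.2
    have hvA : s.At F v := ⟨hvP, hvF⟩
    have h4 := pst_ph (hp := hp) (hP := hP) (ht := nst_sub hg N) hv
    have hvl : t.lab v = i := h4.2.1.symm.trans hxl
    have hmu : s'.mu F (ph s c v) = ph s c (t.mu F v) := h4.2.2 F
    -- the new partner
    have hv' : t.mu F v ∈ t.P := htm hvA (mem_kA.1 hv).1
    have hv'l : t.lab (t.mu F v) = i := (t.mu_lab (mem_kA.1 hv).1 hvF).trans hvl
    have hv'A : s.At F (t.mu F v) := mu'_at (A.cv z₀) inn hvA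
    have hmm : t.mu F (t.mu F v) = v := t.mu_mu (mem_kA.1 hv).1 hvF
    -- values at a common point on an affected chord
    have hval : ∀ u, s.At F u → u ∈ t.P → col (s.lab u) = true → t.lab u = i →
        (∃ z ∈ A.cv z₀, z.F = F ∧ z.e true = s.lo F u) → Ψ u = Ψ (z₀.e true) := by
      intro u hu huP huc hul hz
      exact haff hu ((nst_same hg N huP huc).symm.trans hul) hz
    by_cases haf : col (s.lab v) = true ∧ ∀ z ∈ A.cv z₀, z.F = F → z.e true ≠ s.lo F v
    · -- not affected
      obtain ⟨hc, hz⟩ := haf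
      have hsl : s.lab v = i := (nst_same hg N (mem_kA.1 hv).1 hc).symm.trans hvl
      have h1 := hfree hvA hsl hz
      have hsl' : s.lab (s.mu F v) = i := (s.mu_lab hvP hvF).trans hsl
      obtain ⟨h2, h3⟩ := hfree_iff hvA hsl hz (mem_kA.1 hv).1
      rw [ph_neg hc] at hxZ hxA hxl ⊢
      rw [h3]
      have hmP : s.mu F v ∈ s.P := (At.mu s hvA).1
      have hx1 := hxZ.1 hvP
      refine ⟨fun _ => ?_, fun h => absurd hmP h⟩
      rw [← hx1]
      have hq := hΨ F v hvA hsl
      by_cases hk : K F v ∨ K F (s.mu F v)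
      · have h5 : v ∈ X' ↔ s.mu F v ∈ X' := by
          rcases hk with hk | hk
          · have := hX' F v hxA hxl hk
            rwa [h3] at this
          · have h6 := (hfree_iff (At.mu s hvA) hsl' (by rw [hlo hvA]; exact hz) h2).2
            rw [s.mu_mu hvP hvF] at h6
            have := hX' F (s.mu F v) ⟨(hkept h2 hsl').2.2.1, (At.mu s hvA).2⟩
              (hkept h2 hsl').2.2.2 hk
            rw [h6] at this
            exact this.symm
        have h7 : θ F v = 0 := if_neg fun h' => hk.elim h'.2.1 h'.2.2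
        rw [h7] at hq
        rw [← eq_of_add2 hq.symm, hχe h5]
      · rw [not_or] at hk
        have h7 : θ F v = χ v + χ (s.mu F v) := if_pos ⟨(mem_kA.1 hv).1, hk.1, hk.2⟩
        rw [h7] at hq
        have e1 := add_self2 (Ψ (s.mu F v))
        have e2 := add_self2 (χ (s.mu F v))
        have e3 := add_self2 (χ v)
        have e4 := add_self2 (Ψ v)
        linear_combination hq + e1 - e3
    · -- affected: the face has a barrier point
      have hface : ∃ h, HP s h ∧ h ∈ M.On F := by
        by_cases hc : col (s.lab v) = true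
        · have : ∃ z ∈ A.cv z₀, z.F = F ∧ z.e true = s.lo F v := by
            by_contra hcon
            apply haf
            refine ⟨hc, fun z hz hzF hze => hcon ⟨z, hz, hzF, hze⟩⟩
          obtain ⟨z, -, hzF, -⟩ := this
          exact ⟨z.e false, ⟨(z.at_ false).1, z.colr false⟩, by rw [← hzF]; exact (z.at_ false).2⟩
        · exact ⟨v, ⟨hvP, by simpa using hc⟩, hvF⟩
      have hKF : ∀ u, K F u := by
        obtain ⟨h, hh, hhF⟩ := hface
        obtain ⟨q, hq⟩ := exists_side' (M := M) F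
        exact hK q F F h hq hq hh hhF
      have hXX : (ph s c v ∈ X' ↔ s'.mu F (ph s c v) ∈ X') := hX' F _ hxA hxl (hKF _)
      -- the value at `x`
      have hx1 : Ψ (z₀.e true) + χ (ph s c v) = e := by
        by_cases hc : col (s.lab v) = true
        · have : ∃ z ∈ A.cv z₀, z.F = F ∧ z.e true = s.lo F v := by
            by_contra hcon
            apply haf
            refine ⟨hc, fun z hz hzF hze => hcon ⟨z, hz, hzF, hze⟩⟩
          rw [ph_neg hc] at hxZ ⊢
          rw [← hval v hvA (mem_kA.1 hv).1 hc hvl this]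
          exact hxZ.1 hvP
        · have hc' : col (s.lab v) = false := by simpa using hc
          refine hxZ.2 ?_
          rw [ph_pos hc']
          exact fun h => hp.nin ⟨hvP, hc'⟩ (hP h)
      have hx2 : Ψ (z₀.e true) + χ (s'.mu F (ph s c v)) = e := by rw [← hχe hXX]; exact hx1
      rw [hmu] at hx2 ⊢
      by_cases hc' : col (s.lab (t.mu F v)) = true
      · rw [ph_neg hc'] at hx2 ⊢
        refine ⟨fun _ => ?_, fun _ => hx2⟩
        have : ∃ z ∈ A.cv z₀, z.F = F ∧ z.e true = s.lo F (t.mu F v) := by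
          by_contra hcon
          push Not at hcon
          have hsl' : s.lab (t.mu F v) = i := (nst_same hg N hv' hc').symm.trans hv'l
          have h5 := hfree hv'A hsl' hcon
          rw [hmm] at h5
          -- `v` is the old partner of its new partner
          apply haf
          have h6 : t.mu F v = s.mu F v := by
            conv_rhs => rw [h5]
            rw [s.mu_mu hv'A.1 hv'A.2]
          have hc : col (s.lab v) = true := by
            rw [h5, s.mu_lab hv'A.1 hv'A.2]; exact hc'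
          refine ⟨hc, ?_⟩
          have h7 : s.lo F v = s.lo F (t.mu F v) := by
            rw [h6, hlo hvA]
          rw [h7]
          exact hcon
        rw [hval _ hv'A hv' hc' hv'l this]
        exact hx2
      · have hc'' : col (s.lab (t.mu F v)) = false := by simpa using hc'
        rw [ph_pos hc''] at hx2 ⊢
        exact ⟨fun h => absurd (hP h) (hp.nin ⟨hv'A.1, hc''⟩), fun _ => hx2⟩
  have hbZ : b₀ ∈ Z := ⟨fun _ => rfl, fun h => absurd (hg.far_mem hb₀).1 h⟩
  have hall := (hgood.conn i).2 Z hclosed b₀ hbZ (hkept hb1 hb2).2.2.1 (hkept hb1 hb2).2.2.2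
  have hfin : ∀ {r : ZMod 2} {w : W}, r + χ w = e → (r = e + 1 ↔ w ∈ X') := by
    intro r w h1
    by_cases hx : w ∈ X'
    · have h2 : χ w = 1 := if_pos hx
      rw [h2] at h1
      refine ⟨fun _ => hx, fun _ => ?_⟩
      rw [← h1]
      have := add_self2 (1 : ZMod 2)
      linear_combination -this
    · have h2 : χ w = 0 := if_neg hx
      rw [h2, add_zero] at h1
      refine ⟨fun h3 => ?_, fun h => absurd h hx⟩
      exfalso
      rw [h1] at h3
      exact one_ne_zero (left_eq_add.1 h3)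
  refine ⟨{w | Ψ w = e + 1}, ?_, ?_, ?_, ?_⟩
  · intro F w hA hl hk
    show Ψ w = e + 1 ↔ Ψ (s.mu F w) = e + 1
    rw [hΨK hA hl hk]
  · intro w hw hwi hw' hwi'
    exact hfin ((hall w hw' hwi').1 hw)
  · intro w hw hw' hwi'
    exact hfin ((hall w hw' hwi').2 hw)
  · intro F w hA hl hz
    show Ψ w = e + 1 ↔ Ψ (z₀.e true) = e + 1
    rw [haff hA hl hz]

/-- the darts of a chord of colour `x` without nodes in `G` form a stable set -/
theorem on_chord_iff {F : Φ} {u : W} {x : Bool}
    (hno : ∀ z ∈ G, ¬ (z.F = F ∧ z.e x = u)) {d d' : Dart s}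
    (ho : orb G inn d = orb G inn d') :
    (d.x = x ∧ chd d.p = (F, u)) ↔ (d'.x = x ∧ chd d'.p = (F, u)) := by
  have h1 : ∀ d : Dart s, (d.x = x ∧ chd d.p = (F, u)) →
      ((tt G inn d).x = x ∧ chd (tt G inn d).p = (F, u)) := by
    rintro d ⟨h1, h2⟩
    have h3 := chd_tt (inn := inn) (d := d) (G := G) (by
      intro z hz h4
      rw [h2, h1] at h4
      exact hno z hz ⟨(Prod.mk.inj h4).1, (Prod.mk.inj h4).2⟩)
    exact ⟨h3.1.trans h1, h3.2.trans h2⟩
  let f : Orb G inn → Prop := Quot.lift (fun d : Dart s => d.x = x ∧ chd d.p = (F, u)) (by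
    rintro d d' (rfl | rfl)
    · rfl
    · refine propext ⟨h1 d, fun h => ?_⟩
      have := h1 _ h
      rwa [tt_tt] at this)
  have h2 := congrArg f ho
  exact Iff.of_eq h2

/-- a function on the darts which is stable under the walk has the same value at both ends of a
chord without nodes in `G` -/
theorem ends_eq (inn : s.Dbl → Bool → Bool) {f : Dart s → ZMod 2} (hfl : ∀ d, f (flip d) = f d) {F : Φ} {w : W}
    (hA : s.At F w) (hno : ∀ z ∈ G, z.F = F → z.e (col (s.lab w)) ≠ s.lo F w)
    (hst : ∀ z ∉ G, ∀ x b, f (dz z x (!b)) = f (dz z x b)) :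
    f (ed (At.mu s hA)) = f (ed hA) := by
  have hstab : ∀ d : Dart s, (d.x = (ed hA).x ∧ chd d.p = chd (ed hA).p ∧ f d = f (ed hA)) →
      ((tt G inn d).x = (ed hA).x ∧ chd (tt G inn d).p = chd (ed hA).p ∧
        f (tt G inn d) = f (ed hA)) := by
    rintro d ⟨h1, h2, h3⟩
    have hG : ∀ z ∈ G, (z.F, z.e d.x) ≠ chd d.p := by
      intro z hz h4
      rw [h2, Wk_689.chd_ed hA] at h4
      rw [h1, x_ed hA] at h4
      simp only [Prod.mk.injEq] at h4
      exact hno z hz h4.1 h4.2
    have h4 := chd_tt (inn := inn) (d := d) (G := G) hG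
    refine ⟨h4.1.trans h1, h4.2.trans h2, ?_⟩
    rcases hn : node d with _ | z
    · rw [tt_none hn]; exact h3
    · have h5 := eq_dz hn
      have hz : z ∉ G := by
        intro hz
        apply hG z hz
        conv_rhs => rw [h5]
        rw [chd_dz, dz_x]
      rw [← h3]
      conv_lhs => rw [h5]
      conv_rhs => rw [h5]
      rw [tt_dz_out hz]
      exact hst z hz _ _
  have hc := Tig_438.conn_pr flip (tt G inn) (ed hA)
    (fun d => d.x = (ed hA).x ∧ chd d.p = chd (ed hA).p ∧ f d = f (ed hA))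
    (fun d hd => ⟨hd.1, hd.2.1, (hfl d).trans hd.2.2⟩) hstab ⟨rfl, rfl, rfl⟩
  have h6 := hc.2.2
  rw [← ed_mu' hA] at h6
  have h7 : mu' G inn F w = s.mu F w := mu'_eq_mu hA hno
  have h8 : ed (mu'_at G inn hA) = ed (At.mu s hA) := by
    apply eq_ed (node_ed _) (fc_ed _)
    rw [pt_ed]; exact h7
  rw [← h8]
  exact h6

/-- **one curve** -/
theorem pst_pbn {A : s.Arcs Act} {τ : Bool → ι → s.Dbl → ZMod 2}
    {D : s.Dbl → Bool → Dart s → ZMod 2} {z₀ : s.Dbl} (hD : DD A τ A.mx far D) (hz₀ : z₀ ∈ A.mx)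
    (hg : s.Good Act far) (N : NmsT s (A.cv z₀) far (innD D) (nm1 D z₀))
    (hp : Push s up Ph b c) (hP : s.P ⊆ Ph) (h2 : Two s up)
    (hgood : (pst hp hP (nst_sub hg N)).Good Act far) :
    PBN Act far Ph (pst hp hP (nst_sub hg N)) s := by
  classical
  intro i hi K hK X' hX'
  obtain ⟨X, hX, hcom, hnew, haff⟩ := pst_val hz₀ hg N hp hP hgood hi hK hX'
  have hlow : ∀ (z : s.Dbl) (x : Bool), s.lo z.F (z.e x) = z.e x := fun z x => by
    unfold St.lo
    rw [if_pos (z.low x).le]
  have hlow' : ∀ {F : Φ} {w : W}, s.lo F w = w ∨ s.lo F w = s.mu F w := by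
    intro F w
    unfold St.lo
    split_ifs
    · exact Or.inl rfl
    · exact Or.inr rfl
  refine ⟨X, hX, hcom, ?_, ?_⟩
  · -- double points
    intro z' hz'
    obtain ⟨v, hv, z, β, hvk, he, hzF, hzf, horb, -⟩ := exists_old' h2 (nst_mu' hg N) z'
    have h4 := pst_ph (hp := hp) (hP := hP) (ht := nst_sub hg N) hvk
    have hvl : (nst hg N).lab v = i := by
      rw [← h4.2.1, ← he]; exact hz'
    have hm := (mem_nmd (hg := hg) (N := N)).1 (mem_kA.1 hvk).1
    have hnv : nm1 D z₀ (ed hv) = some i := by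
      rw [← hvl]
      exact joined_nm N hm.2.1 hm.2.2 hv
    have hnz : nm1 D z₀ (dz z true β) = some i := by
      rw [← nmO_orb N, horb, nmO_orb N]
      exact hnv
    have hlz : s.lab (z.e true) = i := by
      rcases z2 (D z₀ true (dz z true β)) with h5 | h5
      · rw [nm1_t (dz_x _ _ _) h5] at hnz
        have h6 := Option.some.inj hnz
        rcases pt_dz z true β with h7 | h7
        · rw [h7] at h6; exact h6
        · rw [h7, s.mu_lab (z.at_ true).1 (z.at_ true).2] at h6; exact h6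
      · rw [nm1_t' (dz_x _ _ _) h5] at hnz
        exact absurd hnz (by simp)
    refine ⟨z, hzF, hzf, hlz, ?_⟩
    have hzA : s.At z'.F (z.e true) := by rw [← hzF]; exact z.at_ true
    have hKF : ∀ u, K z'.F u := by
      obtain ⟨q, hq⟩ := exists_side' (M := M) z'.F
      exact hK q z'.F z'.F (z.e false) hq hq ⟨(z.at_ false).1, z.colr false⟩ (by
        rw [← hzF]; exact (z.at_ false).2)
    have hvlo : ∀ {u}, s.At z'.F u → s.lab u = i → (s.lo z'.F u ∈ X ↔ u ∈ X) := by
      intro u hu hul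
      rcases hlow' (F := z'.F) (w := u) with h | h
      · rw [h]
      · rw [h]; exact (hX _ _ hu hul (hKF _)).symm
    have hold : col (s.lab v) = true → s.lab v = i ∧ (v ∈ X ↔ z'.e true ∈ X') := by
      intro hc
      have hvsl : s.lab v = i := (nst_same hg N (mem_kA.1 hvk).1 hc).symm.trans hvl
      have h5 := h4
      rw [ph_neg hc] at h5
      refine ⟨hvsl, ?_⟩
      rw [he, ph_neg hc]
      exact hcom v hv.1 hvsl h5.1 (h5.2.1.trans hvl)
    by_cases haz : ∃ z₁ ∈ A.cv z₀, z₁.F = z'.F ∧ z₁.e true = z.e true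
    · have e1 : z.e true ∈ X ↔ z₀.e true ∈ X := by
        obtain ⟨z₁, g1, g2, g3⟩ := haz
        refine haff z'.F (z.e true) hzA hlz ⟨z₁, g1, g2, ?_⟩
        rw [g3, ← hzF, hlow]
      by_cases hs : ph s c v ∈ s.P
      · have hc : col (s.lab v) = true := by
          cases hc : col (s.lab v)
          · rw [ph_pos hc] at hs
            exact absurd (hP hs) (hp.nin ⟨hv.1, hc⟩)
          · rfl
        obtain ⟨hvsl, g⟩ := hold hc
        rw [← g]
        by_cases hav : ∃ z₁ ∈ A.cv z₀, z₁.F = z'.F ∧ z₁.e true = s.lo z'.F v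
        · rw [e1]
          exact (haff z'.F v hv hvsl hav).symm
        · have h6 := (on_chord_iff (G := A.cv z₀) (inn := innD D) (F := z'.F)
            (u := s.lo z'.F v) (x := true) (fun z₁ g1 g2 => hav ⟨z₁, g1, g2.1, g2.2⟩)
            horb.symm).1 ⟨by rw [x_ed, hc], Wk_689.chd_ed hv⟩
          have h7 := h6.2
          rw [chd_dz, dz_x] at h7
          rw [(Prod.mk.inj h7).2]
          exact hvlo hv hvsl
      · rw [e1, he]
        refine hnew _ hs h4.1 (h4.2.1.trans hvl)
    · have h6 := (on_chord_iff (G := A.cv z₀) (inn := innD D) (F := z'.F)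
        (u := z.e true) (x := true) (fun z₁ g1 g2 => haz ⟨z₁, g1, g2.1, g2.2⟩)
        horb).1 ⟨dz_x _ _ _, by rw [chd_dz, dz_x, hzF]⟩
      have hc : col (s.lab v) = true := by rw [← x_ed hv]; exact h6.1
      obtain ⟨hvsl, g⟩ := hold hc
      have h7 := h6.2
      rw [Wk_689.chd_ed] at h7
      rw [← g, ← (Prod.mk.inj h7).2]
      exact hvlo hv hvsl
  · -- new points
    intro w hw hws hwi
    rcases pst_cases hw with ⟨v, hv, rfl⟩ | h
    · have hvP := nst_sub hg N (mem_kA.1 hv).1
      cases hc : col (s.lab v)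
      · have hm := (mem_nmd (hg := hg) (N := N)).1 (mem_kA.1 hv).1
        have hface : ∃ F, s.At F v := by
          by_contra hcon
          have h1 : lab' s (nm1 D z₀) v = s.lab v := by
            classical
            unfold lab'
            rw [dif_neg hcon]
          rw [h1, hc] at hm
          exact Bool.false_ne_true hm.2.1
        have hin : ∀ F (hA : s.At F v), D z₀ false (ed hA) = 1 := by
          intro F hA
          have h1 := joined_nm N hm.2.1 hm.2.2 hA
          rcases z2 (D z₀ false (ed hA)) with h2 | h2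
          · rw [nm1_f' (by rw [x_ed, hc]) h2] at h1
            exact absurd h1 (by simp)
          · exact h2
        have hvl : (nst hg N).lab v = i := by
          rw [← (pst_ph (hp := hp) (hP := hP) (ht := nst_sub hg N) hv).2.1]; exact hwi
        have hi0 : s.lab (z₀.e true) = i := by
          obtain ⟨F₀, hA₀⟩ := hface
          have h1 := joined_nm N hm.2.1 hm.2.2 hA₀
          rw [nm1_f (by rw [x_ed, hc]) (hin F₀ hA₀)] at h1
          exact (Option.some.inj h1).trans hvl
        have hval : z₀.e true ∈ X ↔ ph s c v ∈ X' := hnew _ hws hw hwi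
        have hadj : Nb M Ph v (ph s c v) := by
          rw [ph_pos hc]
          exact ⟨fun F => hp.on F ⟨hvP, hc⟩,
            fun F u h3 h4 h5 h6 => hp.adj ⟨hvP, hc⟩ h3 h4 h5 h6⟩
        refine ⟨v, ⟨hvP, hc⟩, hadj,
          {x | s.lab x = s.lab v ∧ (∃ F, s.At F x) ∧ ∀ F (hA : s.At F x), D z₀ false (ed hA) = 1},
          ⟨rfl, hface, hin⟩, ?_, ?_, ?_⟩
        · rintro x ⟨h1, ⟨F, hA⟩, -⟩
          exact ⟨⟨hA.1, by rw [h1]; exact hc⟩, h1⟩
        · rintro F x ⟨h1, -, h2x⟩ hA hno
          have hcx : col (s.lab x) = false := by rw [h1]; exact hc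
          have hnoG : ∀ z ∈ A.cv z₀, z.F = F → z.e (col (s.lab x)) ≠ s.lo F x := by
            rw [hcx]
            intro z hz hzF hze
            have hlz : s.lab (z.e true) = i :=
              ((curve_const (K := K) (Ψ := fun _ => 0) hz₀ hK (fun _ _ _ _ _ => rfl) hz).1).trans
                hi0
            refine hno z hzF hze hlz ?_
            rw [← hval]
            exact haff z.F (z.e true) (z.at_ true) hlz ⟨z, hz, rfl, (hlow z true).symm⟩
          have hst : ∀ z ∉ A.cv z₀, ∀ x b, D z₀ false (dz z x (!b)) = D z₀ false (dz z x b) := by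
            intro z hz x b
            cases x
            · have := hD.jump_out z₀ hz₀ z hz false
              cases b
              · exact this
              · exact this.symm
            · have h0 : ∀ b, D z₀ false (dz z true b) = 0 := by
                intro b
                by_contra h
                have := (hD.supp z₀ hz₀ false _ h).1
                rw [dz_x] at this
                exact Bool.false_ne_true this.symm
              rw [h0, h0]
          have hend := ends_eq (G := A.cv z₀) (innD D) (fun d => hD.fl z₀ hz₀ false d) hA hnoG hst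
          refine ⟨(s.mu_lab hA.1 hA.2).trans h1, ⟨F, At.mu s hA⟩, fun F' hA'' => ?_⟩
          rw [hD.cont z₀ hz₀ false F' F _ hA'' (At.mu s hA), hend]
          exact h2x F hA
        · rintro x ⟨h1, ⟨F, hA⟩, h2x⟩
          constructor
          · intro hx
            have h3 := hD.far0 z₀ hz₀ false _ F x hA hx
            rw [h2x F hA] at h3
            exact one_ne_zero h3
          · intro F' hA' hF'
            have h3 := hD.far0 z₀ hz₀ false _ F' x hA' (hg.far_frozen hA' hF')
            rw [h2x F' hA'] at h3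
            exact one_ne_zero h3
      · rw [ph_neg hc] at hws
        exact absurd hvP hws
    · exact absurd h.1 hws

/-- **one step** -/
theorem stepN (hg : s.Good Act far) (h2 : Two s up) (hP : s.P ⊆ Ph)
    (hroom : ∀ b, ∃ c, Push s up Ph b c) (A : s.Arcs Act) {G : Set s.Dbl} (hG : A.Closed G)
    (hne : G.Nonempty) :
    ∃ s' : St M col, s'.Good Act far ∧ CL2 Act far Ph s' s ∧ Enc Act far Ph s' s ∧
      PBN Act far Ph s' s ∧ Nat.card s'.Dbl < Nat.card s.Dbl := by
  classical
  have hR := refStmt A (fun i => B_422.sep_of_h1 s i (hg.h1 i))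
  obtain ⟨D, hD⟩ := Sd1_161.exists_DD hg A _ hR
  have hmx := A.mx_closed
  obtain ⟨z₀, hz₀, hin⟩ := exists_inner hD (hne.mono (A.sub_mx hG))
  have N := exists_nms1 hD hR (fun _ _ h => (hg.far_mem h).2) hz₀ hin
  have hG' : A.Closed (A.cv z₀) := by
    intro u hu q hq
    exact ⟨(hmx u (cv_sub hmx hz₀ hu) q hq).1, cv_trans hu (cv_arc hq)⟩
  have hDw : DDw A _ (A.cv z₀) far D := DDw.of hD fun u hu => cv_sub hmx hz₀ hu
  have hn : nm1 D z₀ (dz z₀ true (!innD D z₀ true)) = none := by
    have h1 := SecW_892.D_in hDw (cv_refl A z₀) true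
    exact nm1_t' (dz_x _ _ _) h1
  have hx : HP s (z₀.e false) := ⟨(z₀.at_ false).1, z₀.colr false⟩
  have hfin : ∀ {b : Bool} {c : W → W} (hp : Push s up Ph b c),
      (¬ (M.Btw z₀.F (z₀.e false) (s.mu z₀.F (z₀.e false))
        (pt (flip (dz z₀ true (!innD D z₀ true)))) ↔
        M.pos z₀.F (z₀.e false) < M.pos z₀.F (c (z₀.e false)))) →
      ∃ s' : St M col, s'.Good Act far ∧ CL2 Act far Ph s' s ∧ Enc Act far Ph s' s ∧
        PBN Act far Ph s' s ∧ Nat.card s'.Dbl < Nat.card s.Dbl := by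
    intro b c hp hanti
    have hgood := pst_good hG' hg N hp hP h2
    refine ⟨pst hp hP (nst_sub hg N), hgood,
      ⟨pst_cle hG' hg N hp hP h2, ?_, ?_, pst_pb hz₀ hg N hp hP hgood⟩,
      pst_enc hD hz₀ hg N hp hP, pst_pbn hD hz₀ hg N hp hP h2 hgood,
      pst_card hg N hp hP h2 (z₀ := z₀) (β₀ := !innD D z₀ true) hanti hn⟩
    · exact fun w hw hws => (pst_common hg N hp hP hw hws).2
    · exact fun F w hw hw' hf => pst_off hg N hp hP h2 hw hw' hf
  by_cases hQ : M.Btw z₀.F (z₀.e false) (s.mu z₀.F (z₀.e false))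
      (pt (flip (dz z₀ true (!innD D z₀ true))))
  · obtain ⟨c, hp⟩ := hroom (!up z₀.F (z₀.e false))
    refine hfin hp ?_
    intro h
    have h3 := (hp.side hx (z₀.at_ false).2).1 (h.1 hQ)
    cases up z₀.F (z₀.e false) <;> simp at h3
  · obtain ⟨c, hp⟩ := hroom (up z₀.F (z₀.e false))
    refine hfin hp ?_
    intro h
    exact hQ (h.2 ((hp.side hx (z₀.at_ false).2).2 rfl))

/-- **CUT with (ENC) and (PBN)** -/
theorem cutN (up : Φ → W → Bool) (s : St M col) (hg : s.Good Act far) (h2 : Two s up)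
    (hroom : Room s up) (Ph : Finset W) (hP : s.P ⊆ Ph) :
    ∃ s' : St M col, s'.Good Act far ∧ CL2 Act far Ph s' s ∧ Enc Act far Ph s' s ∧
      PBN Act far Ph s' s ∧ ∀ (A : s'.Arcs Act) (G : Set s'.Dbl), A.Closed G → G = ∅ := by
  classical
  induction hn : Nat.card s.Dbl using Nat.strong_induction_on generalizing s Ph with
  | _ n ih =>
    by_cases h : ∀ (A : s.Arcs Act) (G : Set s.Dbl), A.Closed G → G = ∅
    · exact ⟨s, hg, CL2.refl _ _ _ _, Enc.refl _ _ _ _, PBN.refl _ _ _ _, h⟩
    · push Not at h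
      obtain ⟨A, G, hG, hne⟩ := h
      obtain ⟨s₁, hg₁, hl₁, he₁, hb₁, hc₁⟩ := stepN hg h2 hP (fun b => hroom Ph b) A hG hne
      have h2' : Two s₁ up := by
        intro F w hw hF
        have hw' := (hl₁.cle.hp w).1 hw
        rw [hl₁.cle.hmu w F hw']
        exact h2 hw' hF
      have hroom' : Room s₁ up := by
        intro Ph' b
        obtain ⟨c, hp⟩ := hroom Ph' b
        exact ⟨c, hp.congr hl₁.cle.hp⟩
      obtain ⟨s₂, hg₂, hl₂, he₂, hb₂, hc₂⟩ := ih _ (hn ▸ hc₁) s₁ hg₁ h2' hroom' (Ph ∪ s₁.P)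
        Finset.subset_union_right rfl
      exact ⟨s₂, hg₂, CL2.trans Finset.subset_union_left (hP.trans Finset.subset_union_left)
        hl₂ hl₁ hg₁, Enc.trans Finset.subset_union_left hl₁.cle he₂ he₁,
        PBN.trans Finset.subset_union_left (hP.trans Finset.subset_union_left) hl₂ hl₁ hb₂ hb₁,
        hc₂⟩

end step

end Crest.Agent.R096.Pbn_147
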