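import Crest.Agent.R096.Pc2_117

/-!
# R096 (row 96), P4-CONE, part 3: sheets and double points in collar coordinates (helper117)

`sheet_iff`: `{AA f n k = s}` is a wall over the curve `{f = s}` and a floor over `{f ≥ s}`.
`double_iff`: two sheets of depths `l < k` meet in the arcs of the DEEPER curve inside the shallower
disc, at the depth of the shallower one, and in vertical segments over the crossing points.
-/

set_option autoImplicit false

open Set Filter Topology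

namespace Crest.Agent.R096.Pc_117

section Sheets

variable {E : Type*}

/-- wall and floor of a sheet -/
theorem sheet_iff {f : E → ℝ} {n k : ℕ} {z : E} {r s : ℝ} (h1 : -1/2 < s) (h2 : s < 1/2) :
    AA f n k (z, r) = s ↔
      (f z = s ∧ rr n k + hh n * s ≤ r) ∨ (s ≤ f z ∧ r = rr n k + hh n * s) := by
  show min (f z) (ww n k r) = s ↔ _
  constructor
  · intro h
    rcases le_total (f z) (ww n k r) with h3 | h3
    · rw [min_eq_left h3] at h
      left
      refine ⟨h, ?_⟩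
      rw [h] at h3
      exact (le_ww_iff h1 h2.le).1 h3
    · rw [min_eq_right h3] at h
      right
      refine ⟨by rw [← h]; exact h3, (ww_eq_iff h1 h2).1 h⟩
  · rintro (⟨h3, h4⟩ | ⟨h3, h4⟩)
    · have := (le_ww_iff (n := n) (k := k) (r := r) h1 h2.le).2 h4
      rw [h3, min_eq_left this]
    · have := (ww_eq_iff (n := n) (k := k) (r := r) h1 h2).2 h4
      rw [this, min_eq_right h3]

lemma sheet_r_ge {f : E → ℝ} {n k : ℕ} {z : E} {r s : ℝ} (h1 : -1/2 < s) (h2 : s < 1/2)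
    (h : AA f n k (z, r) = s) : rr n k + hh n * s ≤ r := by
  rcases (sheet_iff h1 h2).1 h with h3 | h3
  · exact h3.2
  · exact h3.2.ge

lemma sheet_f_ge {f : E → ℝ} {n k : ℕ} {z : E} {r s : ℝ} (h1 : -1/2 < s) (h2 : s < 1/2)
    (h : AA f n k (z, r) = s) : s ≤ f z := by
  rcases (sheet_iff h1 h2).1 h with h3 | h3
  · exact h3.1.ge
  · exact h3.1

/-- the depth intervals of different ramps are strictly ordered -/
lemma depth_lt {n k l : ℕ} (hlk : l < k) {s t : ℝ} (hs : -1/2 < s) (ht : t < 1/2) :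
    rr n l + hh n * t < rr n k + hh n * s := by
  have h1 := rr_gap (n := n) hlk
  have h2 := hh_pos n
  nlinarith

/-- **double points** of two sheets, `f` shallower (`l < k`) -/
theorem double_iff {f g : E → ℝ} {n k l : ℕ} (hlk : l < k) {z : E} {r s t : ℝ}
    (hs1 : -1/2 < s) (hs2 : s < 1/2) (ht1 : -1/2 < t) (ht2 : t < 1/2) :
    (AA f n k (z, r) = s ∧ AA g n l (z, r) = t) ↔
      (g z = t ∧ s ≤ f z ∧ r = rr n k + hh n * s) ∨
      (f z = s ∧ g z = t ∧ rr n k + hh n * s ≤ r) := by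
  have hd := depth_lt (n := n) hlk hs1 ht2
  constructor
  · rintro ⟨h1, h2⟩
    have h3 := sheet_r_ge hs1 hs2 h1
    have h4 : g z = t := by
      rcases (sheet_iff ht1 ht2).1 h2 with h5 | h5
      · exact h5.1
      · exfalso
        have := h5.2
        linarith
    rcases (sheet_iff hs1 hs2).1 h1 with h5 | h5
    · exact Or.inr ⟨h5.1, h4, h5.2⟩
    · exact Or.inl ⟨h4, h5.1, h5.2⟩
  · rintro (⟨h1, h2, h3⟩ | ⟨h1, h2, h3⟩)
    · refine ⟨(sheet_iff hs1 hs2).2 (Or.inr ⟨h2, h3⟩), (sheet_iff ht1 ht2).2 (Or.inl ⟨h1, ?_⟩)⟩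
      rw [h3]; exact hd.le
    · refine ⟨(sheet_iff hs1 hs2).2 (Or.inl ⟨h1, h3⟩), (sheet_iff ht1 ht2).2 (Or.inl ⟨h2, ?_⟩)⟩
      exact hd.le.trans h3

/-- below the depth of the shallower disc its band does not exist; the floor of a band -/
theorem band_iff {f : E → ℝ} {n k : ℕ} {z : E} {r : ℝ} :
    (-1/2 < AA f n k (z, r) ∧ AA f n k (z, r) < 1/2) ↔
      (-1/2 < f z ∧ -1/2 < ww n k r ∧ (f z < 1/2 ∨ ww n k r < 1/2)) := by
  show (-1/2 < min (f z) (ww n k r) ∧ min (f z) (ww n k r) < 1/2) ↔ _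
  rw [lt_min_iff, min_lt_iff]
  tauto

/-- at a point of the ramp interval of `k` every other `ww` is `± 1/2` -/
lemma ww_const {n k l : ℕ} (hkl : k ≠ l) {r : ℝ} (h1 : -1/2 < ww n k r) (h2 : ww n k r < 1/2) :
    ww n l r = -1/2 ∨ ww n l r = 1/2 := by
  rcases lt_or_gt_of_ne hkl with h | h
  · left
    by_contra hc
    have h3 : -1/2 < ww n l r := lt_of_le_of_ne (ww_mem _ _ _).1 (Ne.symm hc)
    have := ww_lt h h3
    linarith
  · right
    exact ww_lt h h1

end Sheets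

section Comp

variable {E : Type*} [TopologicalSpace E]

/-- **no closed double curve inside a cell**: if every point of the deeper curve inside the
shallower disc is joined, inside, to the shallower curve, then every point of the double set is
joined, inside the double set, to a point over `r = 1`. -/
theorem double_component {Z : Set E} {f g : E → ℝ} {n k l : ℕ} (hlk : l < k) (hkn : k < n)
    {s t : ℝ} (hs1 : -1/2 < s) (hs2 : s < 1/2) (ht1 : -1/2 < t) (ht2 : t < 1/2)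
    (hbump : ∀ z ∈ Z, g z = t → s ≤ f z → ∃ A ⊆ {w ∈ Z | g w = t ∧ s ≤ f w}, IsPreconnected A ∧
      z ∈ A ∧ ∃ w ∈ A, f w = s) {p : E × ℝ} (hpZ : p.1 ∈ Z) (hpr : p.2 ∈ Icc (1/2 : ℝ) 1)
    (h1 : AA f n k p = s) (h2 : AA g n l p = t) :
    ∃ C ⊆ {q : E × ℝ | q.1 ∈ Z ∧ q.2 ∈ Icc (1/2 : ℝ) 1 ∧ AA f n k q = s ∧ AA g n l q = t},
      IsPreconnected C ∧ p ∈ C ∧ ∃ w ∈ Z, f w = s ∧ g w = t ∧ (w, (1:ℝ)) ∈ C := by
  obtain ⟨z, r⟩ := p
  have hh0 := hh_pos n
  have hb1 : (1:ℝ)/2 ≤ rr n k + hh n * s := by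
    have := rr_ge n k
    nlinarith
  have hb2 : rr n k + hh n * s ≤ 1 := by
    have := rr_bound hkn
    nlinarith
  -- vertical segments
  have vert : ∀ w ∈ Z, f w = s → g w = t → ({w} ×ˢ Icc (rr n k + hh n * s) 1 : Set (E × ℝ)) ⊆
      {q : E × ℝ | q.1 ∈ Z ∧ q.2 ∈ Icc (1/2 : ℝ) 1 ∧ AA f n k q = s ∧ AA g n l q = t} := by
    rintro w hw hfw hgw ⟨u, ρ⟩ ⟨hu, hρ⟩
    obtain rfl : u = w := hu
    have := (double_iff (f := f) (g := g) hlk hs1 hs2 ht1 ht2 (z := u) (r := ρ)).2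
      (Or.inr ⟨hfw, hgw, hρ.1⟩)
    exact ⟨hw, ⟨hb1.trans hρ.1, hρ.2⟩, this.1, this.2⟩
  have vconn : ∀ w : E, IsPreconnected ({w} ×ˢ Icc (rr n k + hh n * s) 1 : Set (E × ℝ)) :=
    fun w => isPreconnected_singleton.prod isPreconnected_Icc
  rcases (double_iff hlk hs1 hs2 ht1 ht2).1 ⟨h1, h2⟩ with ⟨h3, h4, h5⟩ | ⟨h3, h4, h5⟩
  · obtain ⟨A, hA, hAc, hzA, w, hwA, hfw⟩ := hbump z hpZ h3 h4
    have hwZ := (hA hwA).1
    have hgw := (hA hwA).2.1
    refine ⟨A ×ˢ {r} ∪ {w} ×ˢ Icc (rr n k + hh n * s) 1, ?_, ?_, ?_, w, hwZ, hfw, hgw, ?_⟩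
    · apply union_subset
      · rintro ⟨u, ρ⟩ ⟨hu, hρ⟩
        obtain rfl : ρ = r := hρ
        have := (double_iff (f := f) (g := g) hlk hs1 hs2 ht1 ht2 (z := u) (r := ρ)).2
          (Or.inl ⟨(hA hu).2.1, (hA hu).2.2, h5⟩)
        exact ⟨(hA hu).1, hpr, this.1, this.2⟩
      · exact vert w hwZ hfw hgw
    · refine IsPreconnected.union (w, r) ⟨hwA, rfl⟩ ⟨rfl, ?_⟩
        (hAc.prod isPreconnected_singleton) (vconn w)
      rw [h5]
      exact ⟨le_rfl, hb2⟩
    · exact Or.inl ⟨hzA, rfl⟩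
    · exact Or.inr ⟨rfl, hb2, le_rfl⟩
  · refine ⟨{z} ×ˢ Icc (rr n k + hh n * s) 1, vert z hpZ h3 h4, vconn z, ⟨rfl, h5, hpr.2⟩,
      z, hpZ, h3, h4, ⟨rfl, hb2, le_rfl⟩⟩

/-- **boundary bumping**: `K` compact connected, `f` continuous, somewhere `< s` on `K`: every point
of `K ∩ {f ≥ s}` is joined inside `K ∩ {f ≥ s}` to a point of `{f = s}`. -/
theorem bump [T2Space E] {K : Set E} (hK : IsCompact K) (hKc : IsPreconnected K) {f : E → ℝ}
    (hf : ContinuousOn f K) {s : ℝ} (hlt : ∃ w ∈ K, f w < s) {z : E} (hz : z ∈ K) (hzs : s ≤ f z) :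
    ∃ A ⊆ {w ∈ K | s ≤ f w}, IsPreconnected A ∧ z ∈ A ∧ ∃ w ∈ A, f w = s := by
  by_contra hno
  push Not at hno
  let F : Set E := {w ∈ K | s ≤ f w}
  have hFeq : F = K ∩ f ⁻¹' (Ici s) := by
    ext w; rfl
  have hFcl : IsClosed F := by
    rw [hFeq]
    exact hf.preimage_isClosed_of_isClosed hK.isClosed isClosed_Ici
  have hFc : IsCompact F := hK.of_isClosed_subset hFcl (fun w hw => hw.1)
  have hzF : z ∈ F := ⟨hz, hzs⟩
  have : CompactSpace F := isCompact_iff_compactSpace.1 hFc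
  let z' : F := ⟨z, hzF⟩
  let f' : F → ℝ := fun w => f w
  have hf' : Continuous f' := by
    have : ContinuousOn f F := hf.mono (fun w hw => hw.1)
    exact continuousOn_iff_continuous_domRestrict.1 this
  -- the component of `z` in `F` misses `{f = s}`
  have hcomp : connectedComponent z' ⊆ {w | f' w ≠ s} := by
    intro w hw hws
    have hA : IsPreconnected (Subtype.val '' connectedComponent z' : Set E) :=
      isPreconnected_connectedComponent.image _ continuous_subtype_val.continuousOn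
    exact hno (Subtype.val '' connectedComponent z') (by
      rintro _ ⟨u, -, rfl⟩
      exact u.2) hA ⟨z', mem_connectedComponent, rfl⟩ w ⟨w, hw, rfl⟩ hws
  have hopen : IsOpen {w : F | f' w ≠ s} := isOpen_ne_fun hf' continuous_const
  rw [connectedComponent_eq_iInter_isClopen] at hcomp
  have hne : Nonempty {U : Set F // IsClopen U ∧ z' ∈ U} := ⟨⟨univ, isClopen_univ, mem_univ _⟩⟩
  obtain ⟨U, hU⟩ : ∃ U : Set F, IsClopen U ∧ z' ∈ U ∧ U ⊆ {w | f' w ≠ s} := by
    have h1 := exists_subset_nhds_of_isCompact' (ι := {U : Set F // IsClopen U ∧ z' ∈ U})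
      (V := fun U => U.1) (U := {w : F | f' w ≠ s}) (by
        rintro ⟨U, hU1, hU2⟩ ⟨V, hV1, hV2⟩
        exact ⟨⟨U ∩ V, hU1.inter hV1, hU2, hV2⟩, inter_subset_left, inter_subset_right⟩)
      (fun U => U.2.1.isClosed.isCompact)
      (fun U => U.2.1.isClosed) (fun w hw => hopen.mem_nhds (hcomp hw))
    obtain ⟨U, hU⟩ := h1
    exact ⟨U.1, U.2.1, U.2.2, hU⟩
  obtain ⟨hUc, hzU, hUs⟩ := hU
  -- `U` is clopen in `K`
  obtain ⟨O, hO, hOU⟩ := isOpen_induced_iff.1 hUc.isOpen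
  have hVcl : IsClosed (Subtype.val '' U : Set E) :=
    (hUc.isClosed.isCompact.image continuous_subtype_val).isClosed
  -- an open set `W` with `W ∩ K = val '' U`
  have hgt : IsOpen (((K ∩ f ⁻¹' (Iic s)))ᶜ) :=
    (hf.preimage_isClosed_of_isClosed hK.isClosed isClosed_Iic).isOpen_compl
  have hW : K ∩ (O ∩ (K ∩ f ⁻¹' (Iic s))ᶜ) = Subtype.val '' U := by
    ext w
    constructor
    · rintro ⟨hwK, hwO, hw2⟩
      have h3 : s < f w := by
        by_contra hc
        exact hw2 ⟨hwK, not_lt.1 hc⟩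
      refine ⟨⟨w, hwK, h3.le⟩, ?_, rfl⟩
      rw [← hOU]
      exact hwO
    · rintro ⟨u, hu, rfl⟩
      refine ⟨u.2.1, ?_, ?_⟩
      · rw [← hOU] at hu
        exact hu
      · rintro ⟨-, h4⟩
        have h5 : s ≤ f u := u.2.2
        exact hUs hu (le_antisymm h4 h5)
  obtain ⟨w, hwK, hws⟩ := hlt
  -- connectedness of `K`
  have hc := hKc _ _ (hO.inter hgt) hVcl.isOpen_compl (fun u hu => by
    by_cases h7 : u ∈ (Subtype.val '' U : Set E)
    · left
      rw [← hW] at h7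
      exact h7.2
    · exact Or.inr h7) ⟨z, hz, by
        have h8 : z ∈ (Subtype.val '' U : Set E) := ⟨z', hzU, rfl⟩
        rw [← hW] at h8
        exact h8.2⟩ ⟨w, hwK, by
        rintro ⟨u, -, hu⟩
        have h6 : s ≤ f u := u.2.2
        rw [hu] at h6
        linarith⟩
  obtain ⟨u, huK, hu1, hu2⟩ := hc
  exact hu2 (by rw [← hW]; exact ⟨huK, hu1⟩)

end Comp

end Crest.Agent.R096.Pc_117
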