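import Crest.Agent.R096.Srg2_465
import Crest.Agent.R096.Cb4_609
import Crest.Agent.R096.Gg2_113

/-!
# R096 (row 96), P2-DISC ([L4] of 753 #10029): a PL ball inside a PL ball does not separate it
(helper879)

* `preconn_diff_ball`: `K \ D` is preconnected for balls `D ⊆ K \ dK` (any dimensions).
* `join2`, `join_finite`: positive form of `no_sep` for finitely many disjoint compact sets.
* `exists_disc`: a point above the level `t` of a face whose rim is below `t` lies in the disc of a
  circle of the level `t`.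
-/

set_option autoImplicit false
set_option linter.unusedSectionVars false
set_option linter.unusedVariables false

open Set Metric Topology Filter

namespace Crest.Agent.R096.Pdc_879

open Ce_537 Cb_609 Srg_465

variable {E : Type*} [NormedAddCommGroup E] [NormedSpace ℝ E]

/-! ### a ball does not separate a ball -/

/-- a ball is a neighbourhood-free retract: there is a continuous map of the whole space into the
ball which is the identity on the ball. -/
theorem exists_retr {m : ℕ} {D Γ : Set E} (hD : IsBall m D Γ) :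
    ∃ r : E → E, Continuous r ∧ (∀ x, r x ∈ D) ∧ ∀ x ∈ D, r x = x := by
  obtain ⟨e, he⟩ := hD
  have hDc : IsClosed D := by
    rw [← e.image_eq]
    exact ((isCompact_closedBall (0 : Fin m → ℝ) 1).image_of_continuousOn e.pf.1).isClosed
  -- extend the chart
  have h1 : ∀ i : Fin m, ∃ G : E → ℝ, Continuous G ∧ ∀ x ∈ D, G x = e.g x i := by
    intro i
    have hc : ContinuousOn (fun x => e.g x i) D := (continuous_apply i).comp_continuousOn e.pg.1
    let f : C(D, ℝ) := ⟨fun x => e.g x.1 i, continuousOn_iff_continuous_domRestrict.1 hc⟩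
    obtain ⟨g, hg⟩ := f.exists_restrict_eq hDc
    refine ⟨g, g.continuous, fun x hx => ?_⟩
    have := DFunLike.congr_fun hg (⟨x, hx⟩ : D)
    exact this
  choose G hGc hG using h1
  -- clamp
  let P : (Fin m → ℝ) → (Fin m → ℝ) := fun y => (max 1 ‖y‖)⁻¹ • y
  have hmax : ∀ y : Fin m → ℝ, 0 < max 1 ‖y‖ := fun y => lt_max_of_lt_left one_pos
  have hPc : Continuous P := by
    have h1 : Continuous fun y : Fin m → ℝ => max 1 ‖y‖ := continuous_const.max continuous_norm
    exact (h1.inv₀ fun y => (hmax y).ne').smul continuous_id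
  have hPm : ∀ y, P y ∈ cube m := by
    intro y
    rw [mem_closedBall, dist_zero_right, norm_smul, norm_inv, Real.norm_eq_abs,
      abs_of_pos (hmax y), inv_mul_le_iff₀ (hmax y), mul_one]
    exact le_max_right _ _
  have hPid : ∀ y ∈ cube m, P y = y := by
    intro y hy
    rw [mem_closedBall, dist_zero_right] at hy
    show (max 1 ‖y‖)⁻¹ • y = y
    rw [max_eq_left hy, inv_one, one_smul]
  have hGc' : Continuous fun x => fun i => G i x := continuous_pi hGc
  refine ⟨fun x => e.f (P fun i => G i x), ?_, fun x => e.mf (hPm _), fun x hx => ?_⟩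
  · exact e.pf.1.comp_continuous (hPc.comp hGc') fun x => hPm _
  · have h2 : (fun i => G i x) = e.g x := by
      funext i; exact hG i x hx
    show e.f (P fun i => G i x) = x
    rw [h2, hPid _ (e.mg hx), e.ri x hx]

/-- **a ball in the interior of a ball does not separate it** -/
theorem preconn_diff_ball {n m : ℕ} {K dK D Γ : Set E} (hK : IsBall n K dK)
    (hdK : IsPreconnected dK) (hne : dK.Nonempty) (hD : IsBall m D Γ) (hDK : D ⊆ K \ dK) :
    IsPreconnected (K \ D) := by
  obtain ⟨r, hrc, hrm, hrid⟩ := exists_retr hD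
  obtain ⟨e, he⟩ := hK
  have hKc : IsClosed K := by
    rw [← e.image_eq]
    exact ((isCompact_closedBall (0 : Fin n → ℝ) 1).image_of_continuousOn e.pf.1).isClosed
  have hDc : IsClosed D := hD.isCompact.isClosed
  have hdKK : dK ⊆ K := by
    rw [← he]
    rintro _ ⟨x, hx, rfl⟩
    exact e.mf (sph_subset_cube hx)
  have hsub : dK ⊆ K \ D := fun x hx => ⟨hdKK hx, fun hxD => (hDK hxD).2 hx⟩
  -- the key: no clopen piece away from the boundary
  have key : ∀ U V : Set E, IsOpen U → IsOpen V → K \ D ⊆ U ∪ V → dK ⊆ V →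
      (K \ D) ∩ (U ∩ V) = ∅ → ∀ p ∈ K \ D, p ∉ U := by
    intro U V hU hV hUV hdV hemp p hp hpU
    have hdisj : ∀ x ∈ K \ D, x ∈ U → x ∉ V := by
      intro x hx h1 h2
      have : x ∈ (K \ D) ∩ (U ∩ V) := ⟨hx, h1, h2⟩
      rw [hemp] at this; exact this
    -- closed pieces
    set A : Set E := {x | x ∈ K ∧ (x ∈ D ∨ x ∈ U)} with hA
    set B : Set E := {x | x ∈ K ∧ (x ∈ D ∨ x ∈ V)} with hB
    have hAc : IsClosed A := by
      have : A = K ∩ (V \ D)ᶜ := by
        ext x
        constructor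
        · rintro ⟨h1, h2⟩
          refine ⟨h1, fun h3 => ?_⟩
          rcases h2 with h2 | h2
          · exact h3.2 h2
          · exact hdisj x ⟨h1, h3.2⟩ h2 h3.1
        · rintro ⟨h1, h2⟩
          refine ⟨h1, ?_⟩
          by_contra h3
          push Not at h3
          rcases hUV ⟨h1, h3.1⟩ with h4 | h4
          · exact h3.2 h4
          · exact h2 ⟨h4, h3.1⟩
      rw [this]
      exact hKc.inter (hV.sdiff hDc).isClosed_compl
    have hBc : IsClosed B := by
      have : B = K ∩ (U \ D)ᶜ := by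
        ext x
        constructor
        · rintro ⟨h1, h2⟩
          refine ⟨h1, fun h3 => ?_⟩
          rcases h2 with h2 | h2
          · exact h3.2 h2
          · exact hdisj x ⟨h1, h3.2⟩ h3.1 h2
        · rintro ⟨h1, h2⟩
          refine ⟨h1, ?_⟩
          by_contra h3
          push Not at h3
          rcases hUV ⟨h1, h3.1⟩ with h4 | h4
          · exact h2 ⟨h4, h3.1⟩
          · exact h3.2 h4
      rw [this]
      exact hKc.inter (hU.sdiff hDc).isClosed_compl
    have hAB : K ⊆ A ∪ B := by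
      intro x hx
      by_cases hxD : x ∈ D
      · exact Or.inl ⟨hx, Or.inl hxD⟩
      · rcases hUV ⟨hx, hxD⟩ with h | h
        · exact Or.inl ⟨hx, Or.inr h⟩
        · exact Or.inr ⟨hx, Or.inr h⟩
    classical
    let R : E → E := fun x => if x ∈ B then x else r x
    have hRB : ∀ x ∈ B, R x = x := fun x hx => if_pos hx
    have hRA : ∀ x ∈ A, R x = r x := by
      intro x hx
      by_cases hxB : x ∈ B
      · have hxD : x ∈ D := by
          by_contra hxD
          rcases hx.2 with h | h
          · exact hxD h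
          · rcases hxB.2 with h' | h'
            · exact hxD h'
            · exact hdisj x ⟨hx.1, hxD⟩ h h'
        rw [hRB x hxB, hrid x hxD]
      · exact if_neg hxB
    have hRc : ContinuousOn R (A ∪ B) := by
      refine ContinuousOn.union_of_isClosed ?_ ?_ hAc hBc
      · exact hrc.continuousOn.congr hRA
      · exact continuousOn_id.congr hRB
    have hRK : ∀ x ∈ K, R x ∈ K := by
      intro x hx
      rcases hAB hx with h | h
      · rw [hRA x h]; exact (hDK (hrm x)).1
      · rw [hRB x h]; exact hx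
    have hRp : ∀ x ∈ K, R x ≠ p := by
      intro x hx hxp
      rcases hAB hx with h | h
      · rw [hRA x h] at hxp
        exact hp.2 (hxp ▸ hrm x)
      · rw [hRB x h] at hxp
        subst hxp
        rcases h.2 with h' | h'
        · exact hp.2 h'
        · exact hdisj _ hp hpU h'
    have hpd : p ∉ dK := fun h => hdisj p hp hpU (hdV h)
    have hw1 := e.mg hp.1
    have hw2 : e.g p ∉ sph n := by
      intro hw
      apply hpd
      rw [← he]
      exact ⟨_, hw, e.ri p hp.1⟩
    have hw : ‖e.g p‖ < 1 := by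
      rw [mem_closedBall, dist_zero_right] at hw1
      refine lt_of_le_of_ne hw1 fun h => hw2 ?_
      rw [mem_sphere, dist_zero_right]; exact h
    obtain ⟨ρ, h1, h2, h3⟩ := exists_radial hw
    have hne' : ∀ x ∈ cube n, e.g (R (e.f x)) ∈ ({e.g p}ᶜ : Set (Fin n → ℝ)) := by
      intro x hx hcon
      have h4 := e.ri _ (hRK _ (e.mf hx))
      rw [mem_singleton_iff.1 hcon, e.ri p hp.1] at h4
      exact hRp _ (e.mf hx) h4.symm
    refine no_retraction n (fun x => ρ (e.g (R (e.f x)))) ?_ ?_ ?_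
    · refine h1.comp ?_ hne'
      refine e.pg.1.comp ?_ fun x hx => hRK _ (e.mf hx)
      exact (hRc.mono hAB).comp e.pf.1 e.mf
    · intro x hx
      exact h2 (hne' x hx)
    · intro x hx
      have hxd : e.f x ∈ dK := by rw [← he]; exact mem_image_of_mem _ hx
      have hxB : e.f x ∈ B := ⟨hdKK hxd, Or.inr (hdV hxd)⟩
      show ρ (e.g (R (e.f x))) = x
      rw [hRB _ hxB, e.li x (sph_subset_cube hx)]
      exact h3 x hx
  -- conclusion
  rw [isPreconnected_iff_subset_of_disjoint]
  intro U V hU hV hUV hemp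
  have h5 := (isPreconnected_iff_subset_of_disjoint.1 hdK) U V hU hV (hsub.trans hUV) (by
    rw [← subset_empty_iff, ← hemp]
    exact inter_subset_inter_left _ hsub)
  rcases h5 with h5 | h5
  · left
    intro p hp
    rcases hUV hp with h | h
    · exact h
    · exact absurd h (key V U hV hU (by rwa [union_comm]) h5 (by rwa [inter_comm V U]) p hp)
  · right
    intro p hp
    rcases hUV hp with h | h
    · exact absurd h (key U V hU hV hUV h5 hemp p hp)
    · exact h

/-! ### finitely many disjoint closed sets none of which separates -/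

/-- points of a set near a closed set stay in their component -/
theorem near_comp {F K : Set E} (hF : Convex ℝ F) (hK : IsClosed K) {x : E} (hx : x ∈ F \ K) :
    ∀ᶠ y in 𝓝[F] x, y ∈ connectedComponentIn (F \ K) x := by
  obtain ⟨ε, hε, hball⟩ := Metric.isOpen_iff.1 hK.isOpen_compl x hx.2
  have h1 : ball x ε ∈ 𝓝[F] x := mem_nhdsWithin_of_mem_nhds (ball_mem_nhds x hε)
  filter_upwards [h1, self_mem_nhdsWithin] with y hy hyF
  have h2 : segment ℝ x y ⊆ F \ K := by
    intro w hw
    exact ⟨hF.segment_subset hx.1 hyF hw,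
      hball ((convex_ball x ε).segment_subset (mem_ball_self hε) hy hw)⟩
  exact ((convex_segment x y).isPreconnected.subset_connectedComponentIn
    (left_mem_segment ℝ x y) h2) (right_mem_segment ℝ x y)

/-- **positive form of `no_sep`** -/
theorem join2 {F K1 K2 : Set E} (hF : Convex ℝ F) (h1 : IsClosed K1) (h2 : IsClosed K2)
    (hd : Disjoint K1 K2) {v w : E}
    (hC1 : ∃ C, IsPreconnected C ∧ C ⊆ F \ K1 ∧ v ∈ C ∧ w ∈ C)
    (hC2 : ∃ C, IsPreconnected C ∧ C ⊆ F \ K2 ∧ v ∈ C ∧ w ∈ C) :
    ∃ C, IsPreconnected C ∧ C ⊆ F \ (K1 ∪ K2) ∧ v ∈ C ∧ w ∈ C := by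
  classical
  obtain ⟨C1, p1, s1, v1, w1⟩ := hC1
  obtain ⟨C2, p2, s2, v2, w2⟩ := hC2
  set K := K1 ∪ K2 with hK
  have hKc : IsClosed K := h1.union h2
  have hvK : v ∈ F \ K := ⟨(s1 v1).1, fun h => h.elim (s1 v1).2 (s2 v2).2⟩
  have hwK : w ∈ F \ K := ⟨(s1 w1).1, fun h => h.elim (s1 w1).2 (s2 w2).2⟩
  set C := connectedComponentIn (F \ K) v with hC
  by_cases hw : w ∈ C
  · exact ⟨C, isPreconnected_connectedComponentIn, connectedComponentIn_subset _ _,
      mem_connectedComponentIn hvK, hw⟩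
  exfalso
  have hKne : K.Nonempty := by
    by_contra hne
    rw [not_nonempty_iff_eq_empty] at hne
    apply hw
    rw [hC, hne, sdiff_empty]
    exact (hF.isPreconnected.subset_connectedComponentIn hvK.1 Subset.rfl) hwK.1
  have near1 : ∀ x ∈ C, ∀ᶠ y in 𝓝[F] x, y ∈ C := by
    intro x hx
    have hxF : x ∈ F \ K := connectedComponentIn_subset _ _ hx
    have := near_comp hF hKc hxF
    rwa [← connectedComponentIn_eq hx] at this
  have near2 : ∀ x ∈ F \ K, x ∉ C → ∀ᶠ y in 𝓝[F] x, y ∉ C := by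
    intro x hx hxC
    filter_upwards [near_comp hF hKc hx] with y hy hyC
    apply hxC
    have e1 := connectedComponentIn_eq hy
    have e2 : C = connectedComponentIn (F \ K) y := connectedComponentIn_eq hyC
    rw [e2, ← e1]
    exact mem_connectedComponentIn hx
  let u : E → ℝ := fun y => if y ∈ C then -infDist y K else infDist y K
  have hic : Continuous fun y => infDist y K := continuous_infDist_pt K
  have hu : ContinuousOn u F := by
    intro x hx
    by_cases hxK : x ∈ K
    · have h0 : u x = 0 := by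
        have : infDist x K = 0 := infDist_zero_of_mem hxK
        simp [u, this]
      rw [ContinuousWithinAt, h0, tendsto_zero_iff_norm_tendsto_zero]
      have h3 : (fun y => ‖u y‖) = fun y => infDist y K := by
        funext y
        by_cases hy : y ∈ C
        · simp [u, hy, abs_of_nonneg infDist_nonneg]
        · simp [u, hy, abs_of_nonneg infDist_nonneg]
      rw [h3]
      have h4 := (hic.tendsto x).mono_left (nhdsWithin_le_nhds (s := F))
      rwa [infDist_zero_of_mem hxK] at h4
    · by_cases hxC : x ∈ C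
      · have h4 : ContinuousWithinAt (fun y => -infDist y K) F x :=
          hic.neg.continuousWithinAt
        refine h4.congr_of_eventuallyEq ?_ (by simp [u, hxC])
        filter_upwards [near1 x hxC] with y hy
        simp [u, hy]
      · have h4 : ContinuousWithinAt (fun y => infDist y K) F x := hic.continuousWithinAt
        refine h4.congr_of_eventuallyEq ?_ (by simp [u, hxC])
        filter_upwards [near2 x ⟨hx, hxK⟩ hxC] with y hy
        simp [u, hy]
  have hvC : v ∈ C := mem_connectedComponentIn hvK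
  have pos : ∀ y ∉ K, 0 < infDist y K := fun y hy => (hKc.notMem_iff_infDist_pos hKne).1 hy
  refine Gg2_113.no_sep hF h1 h2 hd hu (t := 0) (fun z hz hz0 => ?_) p1 p2
    (fun x hx => (s1 hx).1) (fun x hx => (s2 hx).1)
    (disjoint_left.2 fun x hx => (s1 hx).2) (disjoint_left.2 fun x hx => (s2 hx).2) v1 v2 w1 w2
    ?_ ?_
  · by_contra hzK
    have h5 := pos z hzK
    by_cases hzC : z ∈ C
    · simp only [u, hzC, if_true] at hz0; linarith
    · simp only [u, hzC, if_false] at hz0; linarith
  · have := pos v hvK.2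
    simp only [u, hvC, if_true]; linarith
  · have := pos w hwK.2
    simp only [u, hw, if_false]; linarith

/-- finitely many pairwise disjoint closed sets -/
theorem join_finite {F : Set E} (hF : Convex ℝ F) {v w : E} (hv : v ∈ F) (hw : w ∈ F)
    {S : Set (Set E)} (hS : S.Finite) (hc : ∀ K ∈ S, IsClosed K)
    (hd : ∀ K ∈ S, ∀ K' ∈ S, K ≠ K' → Disjoint K K')
    (hC : ∀ K ∈ S, ∃ C, IsPreconnected C ∧ C ⊆ F \ K ∧ v ∈ C ∧ w ∈ C) :
    ∃ C, IsPreconnected C ∧ C ⊆ F \ ⋃₀ S ∧ v ∈ C ∧ w ∈ C := by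
  induction S, hS using Set.Finite.induction_on with
  | empty =>
    exact ⟨F, hF.isPreconnected, by simp, hv, hw⟩
  | @insert K S hK hS ih =>
    rw [sUnion_insert]
    refine join2 hF (hc K (mem_insert _ _)) ?_ ?_ (hC K (mem_insert _ _))
      (ih (fun L hL => hc L (mem_insert_of_mem _ hL))
        (fun L hL L' hL' => hd L (mem_insert_of_mem _ hL) L' (mem_insert_of_mem _ hL'))
        (fun L hL => hC L (mem_insert_of_mem _ hL)))
    · rw [sUnion_eq_biUnion]
      exact hS.isClosed_biUnion fun L hL => hc L (mem_insert_of_mem _ hL)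
    · rw [disjoint_sUnion_right]
      intro L hL
      exact hd K (mem_insert _ _) L (mem_insert_of_mem _ hL) (fun h => hK (h ▸ hL))

/-! ### the discs of a level -/

section Disc

variable {F rim : Set E} {φ : E → ℝ} {I : Set ℝ} {t : ℝ}

/-- a connected set which meets the disc and is not contained in it meets its circle -/
theorem sep_of_disc {Fc Γ O S : Set E} (hFc : IsClosed Fc) (hO : IsOpen O)
    (hO' : O ∩ F = Fc \ Γ) (hSF : S ⊆ F) (hS : IsPreconnected S) (h1 : (S ∩ Fc).Nonempty)
    (h2 : ¬ S ⊆ Fc) : (S ∩ Γ).Nonempty := by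
  by_contra hcon
  rw [not_nonempty_iff_eq_empty] at hcon
  have hnΓ : ∀ x ∈ S, x ∉ Γ := fun x hx hxΓ => by
    have : x ∈ S ∩ Γ := ⟨hx, hxΓ⟩
    rw [hcon] at this; exact this
  have hcov : S ⊆ O ∪ Fcᶜ := by
    intro x hx
    by_cases hxF : x ∈ Fc
    · left
      have : x ∈ O ∩ F := by rw [hO']; exact ⟨hxF, hnΓ x hx⟩
      exact this.1
    · exact Or.inr hxF
  have hdis : S ∩ (O ∩ Fcᶜ) = ∅ := by
    rw [eq_empty_iff_forall_notMem]
    rintro x ⟨hx, hxO, hxF⟩
    have : x ∈ Fc \ Γ := by rw [← hO']; exact ⟨hxO, hSF hx⟩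
    exact hxF this.1
  rcases isPreconnected_iff_subset_of_disjoint.1 hS O Fcᶜ hO hFc.isOpen_compl hcov hdis with h | h
  · apply h2
    intro x hx
    have : x ∈ Fc \ Γ := by rw [← hO']; exact ⟨h hx, hSF hx⟩
    exact this.1
  · obtain ⟨x, hx, hxF⟩ := h1
    exact h hx hxF

/-- **(2) of 753 #10029**: if the level `t` does not meet the rim and separates the values at a rim
point `v` and at `z` then `z` lies in the disc of a circle of the level `t`. -/
theorem exists_disc (hF : Convex ℝ F) (hball : IsBall 2 F rim) (h : Lev F rim φ I) (ht : t ∈ I)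
    (hrim : ∀ x ∈ rim, φ x ≠ t) {v z : E} (hv : v ∈ rim) (hz : z ∈ F)
    (hvz : (φ v < t ∧ t < φ z) ∨ (φ z < t ∧ t < φ v)) :
    ∃ Γ Fc : Set E, Circ F rim φ t Γ ∧ IsBall 2 Fc Γ ∧ Fc ⊆ F \ rim ∧
      (∃ O, IsOpen O ∧ O ∩ F = Fc \ Γ) ∧ z ∈ Fc ∧ z ∉ Γ := by
  by_contra hcon
  have hrimF : rim ⊆ F := hball.subset
  have hdisc : ∀ Γ, Circ F rim φ t Γ → ∃ Fc, IsBall 2 Fc Γ ∧ Fc ⊆ F \ rim ∧ z ∉ Fc := by
    rintro Γ hΓ
    obtain ⟨⟨x, hx, hxt, hxΓ⟩, Fc, h1, h2, h3⟩ := hΓ
    refine ⟨Fc, h1, h2, fun hzF => hcon ⟨Γ, Fc, ⟨⟨x, hx, hxt, hxΓ⟩, Fc, h1, h2, h3⟩, h1, h2, h3,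
      hzF, fun hzΓ => ?_⟩⟩
    have h4 : z ∈ Ls F φ t := by
      rw [hxΓ] at hzΓ
      exact connectedComponentIn_subset _ _ hzΓ
    have h5 : φ z = t := h4.2
    rcases hvz with h | h <;> linarith [h.1, h.2]
  have hrp : IsPreconnected rim := isPreconnected_of_disc hball
  obtain ⟨C, hC1, hC2, hCv, hCz⟩ := join_finite hF (hrimF hv) hz (h.fin t ht)
    (fun Γ hΓ => by
      obtain ⟨-, Fc, h1, -, -⟩ := hΓ
      obtain ⟨e, he⟩ := h1
      rw [← he]
      exact ((isCompact_sphere (0 : Fin 2 → ℝ) 1).image_of_continuousOn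
        (e.pf.1.mono sph_subset_cube)).isClosed)
    (fun Γ hΓ Γ' hΓ' hne => by
      obtain ⟨⟨x, hx, hxt, rfl⟩, -⟩ := hΓ
      obtain ⟨⟨y, hy, hyt, rfl⟩, -⟩ := hΓ'
      rw [disjoint_left]
      intro w hw hw'
      exact hne ((connectedComponentIn_eq hw).trans (connectedComponentIn_eq hw').symm))
    (fun Γ hΓ => by
      obtain ⟨Fc, h1, h2, h3⟩ := hdisc Γ hΓ
      refine ⟨F \ Fc, preconn_diff_ball hball hrp ⟨v, hv⟩ h1 h2, ?_, ⟨hrimF hv, fun hvF =>
        (h2 hvF).2 hv⟩, ⟨hz, h3⟩⟩
      exact fun x hx => ⟨hx.1, fun hxΓ => hx.2 (h1.subset hxΓ)⟩)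
  have hφC : ContinuousOn φ C := h.cont.mono fun x hx => (hC2 hx).1
  have hIVT : ∃ c ∈ C, φ c = t := by
    rcases hvz with h6 | h6
    · obtain ⟨c, hc, hct⟩ := hC1.intermediate_value hCv hCz hφC ⟨h6.1.le, h6.2.le⟩
      exact ⟨c, hc, hct⟩
    · obtain ⟨c, hc, hct⟩ := hC1.intermediate_value hCz hCv hφC ⟨h6.1.le, h6.2.le⟩
      exact ⟨c, hc, hct⟩
  obtain ⟨c, hc, hct⟩ := hIVT
  have hcF := (hC2 hc).1
  have hcc : c ∈ connectedComponentIn (Ls F φ t) c := mem_connectedComponentIn ⟨hcF, hct⟩
  rcases h.comp t ht c hcF hct with h7 | h7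
  · obtain ⟨y, hy, hyr⟩ := h7
    exact hrim y hyr (connectedComponentIn_subset _ _ hy).2
  · exact (hC2 hc).2 ⟨_, h7, hcc⟩

end Disc

end Crest.Agent.R096.Pdc_879
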