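import Crest.Agent.R096.Pdc1_879
import Crest.Agent.R096.Srg4_465
import Crest.Agent.R96.Nu3_199

/-!
# R096 (row 96), P2-DISC ([L4] of 753 #10029), part 2: the faces of a tiling (helper879)
-/

set_option autoImplicit false
set_option linter.unusedSectionVars false
set_option linter.unusedVariables false

open Set Metric Topology Filter

namespace Crest.Agent.R096.Pdc_879

open Ce_537 Cb_609 Srg_465 Msh_715 Sk2_855
open Crest.Agent.R96.Nu3_199 (ri oc_eq_ri)

variable {E : Type*} [NormedAddCommGroup E] [NormedSpace ℝ E]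

/-- the last point of a compact set on a ray -/
theorem exists_last {K : Set E} (hK : IsCompact K) {z v : E} (hz : z ∈ K) (hv : v ≠ 0) :
    ∃ s : ℝ, 0 ≤ s ∧ z + s • v ∈ K ∧ ∀ s', s < s' → z + s' • v ∉ K := by
  set A : Set ℝ := {s | 0 ≤ s ∧ z + s • v ∈ K} with hA
  have hc : Continuous fun s : ℝ => z + s • v := by fun_prop
  have hAc : IsClosed A := by
    have : A = Ici 0 ∩ (fun s : ℝ => z + s • v) ⁻¹' K := rfl
    rw [this]
    exact isClosed_Ici.inter (hK.isClosed.preimage hc)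
  obtain ⟨R, hR⟩ := hK.isBounded.exists_norm_le
  have hvp : 0 < ‖v‖ := norm_pos_iff.2 hv
  have hAb : A ⊆ Icc 0 ((R + ‖z‖) / ‖v‖) := by
    rintro s ⟨h0, h1⟩
    refine ⟨h0, ?_⟩
    rw [le_div_iff₀ hvp]
    have h2 := hR _ h1
    have h3 : ‖s • v‖ ≤ ‖z + s • v‖ + ‖z‖ := by
      have : s • v = (z + s • v) - z := by abel
      calc ‖s • v‖ = ‖(z + s • v) - z‖ := by rw [← this]
        _ ≤ _ := norm_sub_le _ _
    rw [norm_smul, Real.norm_eq_abs, abs_of_nonneg h0] at h3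
    linarith
  have hAcomp : IsCompact A := (isCompact_Icc).of_isClosed_subset hAc hAb
  obtain ⟨s, hs, hmax⟩ := hAcomp.exists_isMaxOn (⟨0, le_rfl, by simpa using hz⟩ : A.Nonempty)
    continuousOn_id
  refine ⟨s, hs.1, hs.2, fun s' hs' hmem => ?_⟩
  have h4 : s' ∈ A := ⟨hs.1.trans hs'.le, hmem⟩
  have h5 : id s' ≤ id s := hmax h4
  exact absurd h5 (not_le.2 hs')

/-- every point of a compact set lies between two points which are not in the relative interior -/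
theorem exists_seg {K : Set E} (hK : IsCompact K) {z w : E} (hz : z ∈ K) (hw : w ∈ K)
    (hne : w ≠ z) : ∃ p ∈ K \ ri K, ∃ q ∈ K \ ri K, z ∈ segment ℝ p q := by
  -- one end beyond `z` seen from `a ∈ K`
  have key : ∀ a ∈ K, a ≠ z → ∃ b ∈ K \ ri K, ∃ s : ℝ, 0 ≤ s ∧ b = z + s • (z - a) := by
    intro a ha haz
    obtain ⟨s, h0, h1, h2⟩ := exists_last hK hz (sub_ne_zero.2 (Ne.symm haz))
    refine ⟨z + s • (z - a), ⟨h1, fun hri => ?_⟩, s, h0, rfl⟩
    obtain ⟨s', hs', h3⟩ := hri.2 a ha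
    have h4 : z + s • (z - a) + s' • (z + s • (z - a) - a) = z + (s + s' * (s + 1)) • (z - a) := by
      module
    rw [h4] at h3
    refine h2 _ ?_ h3
    have : 0 < s' * (s + 1) := mul_pos hs' (by linarith)
    linarith
  obtain ⟨b, hb, s, hs, hbe⟩ := key w hw hne
  by_cases hbz : b = z
  · subst hbz
    exact ⟨b, hb, b, hb, left_mem_segment ℝ b b⟩
  · obtain ⟨c, hc, r, hr, hce⟩ := key b hb.1 hbz
    refine ⟨b, hb, c, hc, ?_⟩
    rw [segment_eq_image]
    refine ⟨1 / (1 + r), ⟨by positivity, ?_⟩, ?_⟩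
    · rw [div_le_one (by linarith)]; linarith
    · show (1 - 1 / (1 + r)) • b + (1 / (1 + r)) • c = z
      rw [hce]
      have h5 : (1 - 1 / (1 + r)) • b + (1 / (1 + r)) • (z + r • (z - b)) =
          (1 - 1 / (1 + r) - r / (1 + r)) • b + ((1 + r) / (1 + r)) • z := by
        module
      rw [h5, div_self (by linarith : (1 + r) ≠ 0)]
      have h6 : 1 - 1 / (1 + r) - r / (1 + r) = 0 := by
        have : (1 + r) ≠ 0 := by linarith
        field_simp
        ring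
      rw [h6, zero_smul, one_smul, zero_add]

section Face

variable {Om : Set E} {ι : Type*} (T : Tiling Om ι) [FiniteDimensional ℝ E]

/-- the rim of a face -/
theorem rim_eq {x : E} (hx : x ∈ Om) (hd : T.dim x = 2) :
    T.cc x ∩ sk1 T = T.cc x \ T.oc x := by
  ext y
  constructor
  · rintro ⟨h1, h2⟩
    refine ⟨h1, fun h3 => ?_⟩
    have := T.dim_eq_of_mem_oc hx h3
    have h4 := h2.2
    omega
  · rintro ⟨h1, h2⟩
    refine ⟨h1, T.cc_sub_Om hx h1, ?_⟩
    have := T.dim_lt h1 h2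
    omega

theorem isBall_face {x : E} (hx : x ∈ Om) (hd : T.dim x = 2) :
    IsBall 2 (T.cc x) (T.cc x ∩ sk1 T) := by
  rw [rim_eq T hx hd]
  have := T.isBall_cell hx
  rwa [hd] at this

/-- **P2-DISC**: if the level `t` misses the rim of the face `x` and separates the value at `z` from
the rim then `z` lies in the disc `Fc` of a circle `Γ` of the level, and the two hypotheses of
`small_circles_pre` hold for `K := Fc`. -/
theorem face_disc {x : E} (hx : x ∈ Om) (hd : T.dim x = 2) {φ : E → ℝ} {I : Set ℝ}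
    (h : Lev (T.cc x) (T.cc x ∩ sk1 T) φ I) {t : ℝ} (ht : t ∈ I)
    (hrim : ∀ y ∈ T.cc x ∩ sk1 T, φ y < t) {z : E} (hz : z ∈ T.cc x) (hzt : t < φ z) :
    ∃ Γ Fc : Set E, Circ (T.cc x) (T.cc x ∩ sk1 T) φ t Γ ∧ IsBall 2 Fc Γ ∧
      Fc ⊆ T.cc x \ (T.cc x ∩ sk1 T) ∧ (∃ O, IsOpen O ∧ O ∩ T.cc x = Fc \ Γ) ∧ z ∈ Fc ∧ z ∉ Γ ∧
      Γ ⊆ T.cc x ∧ IsPreconnected Γ ∧ (∀ y ∈ Γ, φ y = t) ∧
      (∃ p ∈ T.cc x, ∃ q ∈ T.cc x, p ∉ Fc ∧ q ∉ Fc ∧ z ∈ segment ℝ p q) ∧
      ∀ S ⊆ T.cc x, IsPreconnected S → (S ∩ Fc).Nonempty → ¬ S ⊆ Fc → (S ∩ Γ).Nonempty := by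
  have hball := isBall_face T hx hd
  obtain ⟨v, hv⟩ := nonempty_of_disc hball
  obtain ⟨Γ, Fc, h1, h2, h3, ⟨O, hO, hO'⟩, h4, h5⟩ := exists_disc (T.convex_cc x) hball h ht
    (fun y hy => (hrim y hy).ne) hv hz (Or.inl ⟨hrim v hv, hzt⟩)
  have hΓF : Γ ⊆ T.cc x := fun y hy => (h3 (h2.subset hy)).1
  have hzv : v ≠ z := by
    rintro rfl
    exact absurd (hrim v hv) (not_lt.2 hzt.le)
  obtain ⟨p, hp, q, hq, hpq⟩ := exists_seg hball.isCompact hz hv.1 hzv
  have hnot : ∀ y ∈ T.cc x \ ri (T.cc x), y ∉ Fc := by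
    intro y hy hyF
    rw [← oc_eq_ri hx, ← rim_eq T hx hd] at hy
    exact (h3 hyF).2 hy
  refine ⟨Γ, Fc, h1, h2, h3, ⟨O, hO, hO'⟩, h4, h5, hΓF, isPreconnected_of_disc h2, ?_,
    ⟨p, hp.1, q, hq.1, hnot p hp, hnot q hq, hpq⟩, ?_⟩
  · intro y hy
    exact (h1.subset hy).2
  · intro S hS hSp hne hns
    exact sep_of_disc h2.isCompact.isClosed hO hO' hS hSp hne hns

/-- the disc of every circle of a face does not separate the face -/
theorem preconn_face_diff {x : E} (hx : x ∈ Om) (hd : T.dim x = 2) {Fc Γ : Set E}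
    (hF : IsBall 2 Fc Γ) (hs : Fc ⊆ T.cc x \ (T.cc x ∩ sk1 T)) :
    IsPreconnected (T.cc x \ Fc) :=
  preconn_diff_ball (isBall_face T hx hd) (isPreconnected_of_disc (isBall_face T hx hd))
    (nonempty_of_disc (isBall_face T hx hd)) hF hs

end Face

end Crest.Agent.R096.Pdc_879
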