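import Crest.Agent.R096.Eaa1_748
import Crest.Agent.R096.Mbf_337
import Crest.Agent.R96.Push20_899

/-!
# Row 96, NO0-PRE, [PREG] (helper691), part 1: centres of the tiny cores and radii of the zones
-/

set_option autoImplicit false
set_option linter.unusedSectionVars false
set_option linter.style.longLine false

open Set Filter Topology Metric

namespace Crest.Agent.R096.Pg_691

open Crest.Agent.R096.Bsp_628 Crest.Agent.R096.Brk1_582
open Crest.Agent.R096.SkC1_961 (E3 Hom3 FoamD)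
open Crest.Agent.R96.Push_899 (Box Mid toBox)

noncomputable section

variable {δ κ0 R c0 : ℝ} {La Om : Set E3} {Φ : FoamD δ κ0 R c0 La} {f1 : E3 → E3}
  {z x : Φ.F → E3} {r : Φ.F → ℝ}

/-- **centres `x c` of the tiny cores and radii `r c` of the zones** (the closed balls of radius
`2 r c` are the large zones) -/
structure Rad (Φ : FoamD δ κ0 R c0 La) (Om : Set E3) (f1 : E3 → E3) (z x : Φ.F → E3)
    (r : Φ.F → ℝ) : Prop where
  xO : ∀ c, x c ∈ Om
  fx : ∀ c, f1 (x c) = z c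
  r0 : ∀ c, 0 < r c
  sub : ∀ c, closedBall (x c) (2 * r c) ⊆ Om
  inb : ∀ c, ∀ y ∈ closedBall (x c) (2 * r c), ∀ k, c.1.lo k < f1 y k ∧ f1 y k < c.1.hi k
  dis : ∀ c c', c ≠ c' → Disjoint (closedBall (x c) (2 * r c)) (closedBall (x c') (2 * r c'))
  lf : ∀ y ∈ Om, ∃ t > 0, {c | (closedBall (x c) (2 * r c) ∩ ball y t).Nonempty}.Finite
  osc : ∀ c, ∀ y ∈ closedBall (x c) (2 * r c), ∀ y' ∈ closedBall (x c) (2 * r c),
    ‖f1 y - f1 y'‖ ≤ infDist (f1 y') Laᶜ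
  hole : ∀ y ∈ Om, ∀ c, f1 y ∈ (Φ.B c).S → y = x c

/-- the centre of the hole is in the open brick -/
theorem mid_open {C : Bx (Fin 3)} {h : C.Pos} {y : E3} (hy : y ∈ Mid (toBox C h)) (k : Fin 3) :
    C.lo k < y k ∧ y k < C.hi k := by
  have h1 := hy.1 k
  have h2 := hy.2 k
  have h3 := h k
  simp only [Crest.Agent.R96.Push_899.toBox_lo, Crest.Agent.R96.Push_899.toBox_hi,
    Crest.Agent.R96.Push_899.toBox_W, Bx.side] at h1 h2
  constructor <;> linarith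

/-- **the centres** -/
theorem exists_centres (hpt : ∀ c, Φ.B c = Box.pt (z c))
    (hmid : ∀ c, z c ∈ Mid (toBox c.1 (Φ.bf.pos c.1 c.2))) (hf : Hom3 f1 Om La) :
    ∃ x : Φ.F → E3, ∀ c, x c ∈ Om ∧ f1 (x c) = z c ∧
      (∀ k, c.1.lo k < f1 (x c) k ∧ f1 (x c) k < c.1.hi k) ∧
      ∀ y ∈ Om, f1 y ∈ (Φ.B c).S → y = x c := by
  obtain ⟨fi, hfm, hfim, hl, hri, hfc, hfic⟩ := hf
  have hzLa : ∀ c, z c ∈ La := fun c => Φ.bf.sub c.1 c.2 ⟨fun k => (mid_open (hmid c) k).1.le,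
    fun k => (mid_open (hmid c) k).2.le⟩
  refine ⟨fun c => fi (z c), fun c => ⟨hfim (hzLa c), hri _ (hzLa c), fun k => ?_, ?_⟩⟩
  · rw [hri _ (hzLa c)]
    exact mid_open (hmid c) k
  · intro y hy hyc
    have h1 : f1 y = z c := by
      rw [hpt c] at hyc
      funext k
      have h2 : z c k ≤ f1 y k ∧ f1 y k ≤ z c k := hyc k
      exact le_antisymm h2.2 h2.1
    show y = fi (z c)
    rw [← h1, hl y hy]

/-- **the radii**: arbitrarily small, with the zones in prescribed neighbourhoods `W c` -/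
theorem exists_rad (hO : IsOpen Om) (hLa : IsOpen La) (hne : Laᶜ.Nonempty) (hf : Hom3 f1 Om La)
    (hx : ∀ c, x c ∈ Om ∧ f1 (x c) = z c ∧
      (∀ k, c.1.lo k < f1 (x c) k ∧ f1 (x c) k < c.1.hi k) ∧
      ∀ y ∈ Om, f1 y ∈ (Φ.B c).S → y = x c) {W : Φ.F → Set E3} (hW : ∀ c, W c ∈ 𝓝 (x c))
    {η : Φ.F → ℝ} (hη : ∀ c, 0 < η c) :
    ∃ r : Φ.F → ℝ, Rad Φ Om f1 z x r ∧ (∀ c, r c ≤ η c) ∧
      ∀ c, closedBall (x c) (2 * r c) ⊆ W c := by
  have hfm : MapsTo f1 Om La := by obtain ⟨fi, h, -⟩ := hf; exact h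
  have hfc : ContinuousOn f1 Om := by obtain ⟨fi, -, -, -, -, h, -⟩ := hf; exact h
  have hd : ∀ c, 0 < infDist (f1 (x c)) Laᶜ := by
    intro c
    have h1 : f1 (x c) ∉ closure Laᶜ := by
      rw [hLa.isClosed_compl.closure_eq]
      exact fun h => h (hfm (hx c).1)
    exact (infDist_pos_iff_notMem_closure hne).1 h1
  have hnb : ∀ c, f1 ⁻¹' ball (f1 (x c)) (infDist (f1 (x c)) Laᶜ / 4) ∈ 𝓝 (x c) := fun c =>
    (hfc.continuousAt (hO.mem_nhds (hx c).1)).preimage_mem_nhds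
      (ball_mem_nhds _ (by have := hd c; positivity))
  obtain ⟨r, h1, h2, h3⟩ := Crest.Agent.R096.Eaa_748.exists_macro hO hLa hf Φ.bf univ
    (x := x) (fun c _ => ⟨(hx c).1, (hx c).2.2.1⟩)
    (W := fun c => W c ∩ f1 ⁻¹' ball (f1 (x c)) (infDist (f1 (x c)) Laᶜ / 4))
    (fun c _ => inter_mem (hW c) (hnb c)) (η := fun c => η c) hη
  have e : ∀ c, 2 * (r c / 2) = r c := fun c => by ring
  refine ⟨fun c => r c / 2, ⟨fun c => (hx c).1, fun c => (hx c).2.1, fun c => ?_, fun c => ?_,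
    fun c => ?_, fun c c' hcc => ?_, fun y hy => ?_, fun c => ?_, fun y hy c hc => ?_⟩,
    fun c => ?_, fun c => ?_⟩
  · have := (h1 c (mem_univ c)).1
    show 0 < r c / 2
    positivity
  · show closedBall (x c) (2 * (r c / 2)) ⊆ Om
    rw [e]
    exact fun y hy => ((h1 c (mem_univ c)).2.2.1 hy).1
  · show ∀ y ∈ closedBall (x c) (2 * (r c / 2)), _
    rw [e]
    exact (h1 c (mem_univ c)).2.2.2
  · show Disjoint (closedBall (x c) (2 * (r c / 2))) (closedBall (x c') (2 * (r c' / 2)))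
    rw [e, e]
    exact h2 c (mem_univ c) c' (mem_univ c') hcc
  · obtain ⟨U, hU, hfin⟩ := h3 y hy
    obtain ⟨t, ht, hsub⟩ := Metric.mem_nhds_iff.1 hU
    refine ⟨t, ht, hfin.subset ?_⟩
    rintro c ⟨u, hu, hut⟩
    have hu' : u ∈ closedBall (x c) (2 * (r c / 2)) := hu
    rw [e] at hu'
    exact ⟨mem_univ c, u, hu', hsub hut⟩
  · show ∀ y ∈ closedBall (x c) (2 * (r c / 2)), ∀ y' ∈ closedBall (x c) (2 * (r c / 2)), _
    rw [e]
    intro y hy y' hy'
    have h4 : f1 y ∈ ball (f1 (x c)) (infDist (f1 (x c)) Laᶜ / 4) :=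
      ((h1 c (mem_univ c)).2.2.1 hy).2.2
    have h5 : f1 y' ∈ ball (f1 (x c)) (infDist (f1 (x c)) Laᶜ / 4) :=
      ((h1 c (mem_univ c)).2.2.1 hy').2.2
    rw [mem_ball] at h4 h5
    have h6 : infDist (f1 (x c)) Laᶜ ≤ infDist (f1 y') Laᶜ + dist (f1 (x c)) (f1 y') :=
      infDist_le_infDist_add_dist
    rw [dist_comm] at h6
    rw [← dist_eq_norm]
    have h7 : dist (f1 y) (f1 y') ≤ dist (f1 y) (f1 (x c)) + dist (f1 y') (f1 (x c)) :=
      dist_triangle_right _ _ _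
    linarith [hd c]
  · exact (hx c).2.2.2 y hy hc
  · have h4 := (h1 c (mem_univ c)).1
    have h5 := (h1 c (mem_univ c)).2.1
    show r c / 2 ≤ η c
    linarith
  · show closedBall (x c) (2 * (r c / 2)) ⊆ W c
    rw [e]
    exact fun y hy => ((h1 c (mem_univ c)).2.2.1 hy).2.1

/-- the finitely many zones which meet a compact set -/
theorem Rad.fin (h : Rad Φ Om f1 z x r) {K : Set E3} (hK : IsCompact K) (hKO : K ⊆ Om) :
    {c | (closedBall (x c) (2 * r c) ∩ K).Nonempty}.Finite := by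
  choose! t ht hfin using h.lf
  obtain ⟨s, hs, hcov⟩ := hK.elim_nhds_subcover (fun y => ball y (t y))
    fun y hy => ball_mem_nhds y (ht y (hKO hy))
  refine (s.finite_toSet.biUnion
    (t := fun y => {c | (closedBall (x c) (2 * r c) ∩ ball y (t y)).Nonempty})
    fun y hy => hfin y (hKO (hs y hy))).subset ?_
  rintro c ⟨u, hu, huK⟩
  obtain ⟨y, hy, hyu⟩ := mem_iUnion₂.1 (hcov huK)
  exact mem_biUnion hy ⟨u, hu, hyu⟩

/-- the hypothesis `hhole` of 234's `exists_base` -/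
theorem Rad.hhole (h : Rad Φ Om f1 z x r) : ∀ y ∈ Om, ∀ c, f1 y ∈ (Φ.B c).S →
    y ∈ ball (x c) (r c / 2) := by
  intro y hy c hc
  rw [h.hole y hy c hc]
  exact mem_ball_self (by have := h.r0 c; positivity)

end

end Crest.Agent.R096.Pg_691
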