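import Crest.Agent.R096.Pg1_691
import Crest.Agent.R096.Tms2_582
import Crest.Agent.R096.Tme3_234
import Crest.Agent.R096.Gno4_324
import Crest.Agent.R096.Gno3_324

/-!
# Row 96, NO0-PRE, [PREG] (helper691), part 3: the geometry of the slices (`NOGeo`, `U = True`) and the
clause `av` for the patched tiling `tmesh`
-/

set_option autoImplicit false
set_option linter.unusedSectionVars false
set_option linter.style.longLine false

open Set Filter Topology Metric MeasureTheory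
open scoped ENNReal

namespace Crest.Agent.R096.Pg_691

open Crest.Agent.R096.Msh_715
open Crest.Agent.R096.Msh_810 (Cu Hc)
open Crest.Agent.R096.SkC1_961 (E3 Hom3 FoamD Cfg)
open Crest.Agent.R096.Tms_582 Crest.Agent.R096.Gno_324 Crest.Agent.R096.No0_477
open Crest.Agent.R096.No_276 (QL)

noncomputable section

/-- the bulk: the compact set which contains all the cubes of the slices -/
def KB (L : ℕ) (η : ℝ) : Set E3 :=
  {y | |y 0| ≤ 1 - η / 2 ∧ |y 1| ≤ 1 - η / 2 ∧ |(L : ℝ) * y 2| ≤ 3 / 4}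

theorem KB_sub {L : ℕ} {η : ℝ} (hη : 0 < η) : KB L η ⊆ QL (L : ℝ) := by
  rintro y ⟨h0, h1, h2⟩
  exact ⟨by linarith, by linarith, by linarith⟩

theorem KB_compact {L : ℕ} (hL : 1 ≤ L) (η : ℝ) : IsCompact (KB L η) := by
  have hL0 : (0 : ℝ) < L := by exact_mod_cast hL
  rw [isCompact_iff_isClosed_bounded]
  constructor
  · have h1 : KB L η = {y : E3 | |y 0| ≤ 1 - η / 2} ∩ ({y | |y 1| ≤ 1 - η / 2} ∩
        {y | |(L : ℝ) * y 2| ≤ 3 / 4}) := by ext y; rfl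
    rw [h1]
    refine IsClosed.inter ?_ (IsClosed.inter ?_ ?_)
    · exact isClosed_le (by fun_prop) continuous_const
    · exact isClosed_le (by fun_prop) continuous_const
    · exact isClosed_le (by fun_prop) continuous_const
  · refine (isBounded_closedBall (x := (0 : E3)) (r := |1 - η / 2| + 3 / 4 / L)).subset ?_
    rintro y ⟨h0, h1, h2⟩
    rw [mem_closedBall_zero_iff]
    have e : (0 : ℝ) ≤ 3 / 4 / L := by positivity
    refine (pi_norm_le_iff_of_nonneg (by positivity)).2 fun i => ?_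
    rw [Real.norm_eq_abs]
    have h3 : |y 2| ≤ 3 / 4 / L := by
      rw [le_div_iff₀ hL0, mul_comm]
      rw [abs_mul, abs_of_pos hL0] at h2
      exact h2
    have h4 := le_abs_self (1 - η / 2)
    fin_cases i
    · show |y 0| ≤ _
      linarith
    · show |y 1| ≤ _
      linarith
    · show |y 2| ≤ _
      have := abs_nonneg (1 - η / 2)
      linarith

/-- the cubes of the slices are in the bulk -/
theorem cub_sub_KB {L : ℕ} {η r : ℝ} (hrη : 4 * r ≤ η) (hrL : 4 * L * r ≤ 1) {x : E3}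
    (h1 : ∀ j : Fin 2, |x j.castSucc| ≤ 1 - η + 2 * r) (h2 : |(L : ℝ) * x 2| ≤ 1 / 2 + L * r) :
    x ∈ KB L η := by
  have h3 := h1 0
  have h4 := h1 1
  simp only [Fin.castSucc_zero, Fin.castSucc_one] at h3 h4
  exact ⟨by linarith, by linarith, by linarith⟩

variable {ι0 : Type} {𝒞 : Type} {Om : Set E3} {T0 : Tiling Om ι0}
  {x : 𝒞 → E3} {R : 𝒞 → ℝ} {k : 𝒞 → ℕ} {w : 𝒞 → E3} {Zc : 𝒞 → Finset (Fin 3 → ℤ)} {κ : 𝒞 → Type}
  {H : ∀ c, κ c → Finset ((E3 →L[ℝ] ℝ) × ℝ)}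

/-- a tile of `tmesh` through a point off the balls `closedBall (x c) (R c)` is a base tile, not in
`⋃ Vc` -/
theorem off_ball (Z : Zones T0 x R k w) (F : LocF x R k Zc H)
    {i : {i // i ∉ Ar T0 k w Zc} ⊕ Σ c, κ c} {y : E3} (hy : y ∈ P ((tmesh Z F).H i))
    (hn : ∀ c, y ∉ closedBall (x c) (R c)) :
    (∀ c, i ∉ Vc (tmesh Z F) x R c) ∧ ∃ i0 : {i // i ∉ Ar T0 k w Zc}, i = Sum.inl i0 := by
  have key : ∀ c, i ∉ Vc (tmesh Z F) x R c := by
    intro c hc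
    have hz := tmesh_zone Z F c (ρ := R c) (by have := Z.R0 c; linarith)
    have h2 := (Crest.Agent.R096.Tme_234.zone_sub (by have := Z.sm c; have := Z.R0 c; linarith)
      (F.rep c) (F.inb c) (Z.w01 c) hz).2 i hc
    exact hn c (h2 hy)
  refine ⟨key, ?_⟩
  obtain ⟨i0, h1, -⟩ := off_zones Z F key
  exact ⟨i0, h1⟩

/-- **`NOGeo` with `U = True` for the patched tiling** -/
theorem geo_tmesh {L : ℕ} {Om' : Set E3} {T0 : Tiling Om' ι0} (Z : Zones T0 x R k w)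
    (F : LocF x R k Zc H) {η r : ℝ} (hr0 : 0 < r) (hr : r ≠ 0) {kb : ℕ} (hkb : r = 1 / 2 ^ kb)
    {a : E3} {o : Fin 2 → ℤ} {M : ℕ} (hM : 0 < M) {Zs : Finset ℤ} {Kb : Set E3} (hKb : Kb ⊆ Om')
    (hbase : ∀ τ, (P (T0.H τ) ∩ Kb).Nonempty → ∃ z, T0.H τ = Hc idE a kb z)
    (lo : ∀ j : Fin 2, a j.castSucc + r * o j ≤ -(1 - η) ∧ -1 < a j.castSucc + r * o j)
    (hi : ∀ j : Fin 2, 1 - η ≤ a j.castSucc + r * (o j + M) ∧ a j.castSucc + r * (o j + M) < 1)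
    (zne : Zs.Nonempty) (zs : ∀ m ∈ Zs, |(L : ℝ) * (a 2 + r * m)| ≤ 1 / 2)
    (hcub : ∀ m ∈ Zs, ∀ v : Fin 2 → ℕ, (∀ j, v j < M) → cub (vx a r o m v) r ⊆ Kb)
    (hdis : ∀ m ∈ Zs, ∀ v : Fin 2 → ℕ, (∀ j, v j < M) → ∀ c,
      Disjoint (cub (vx a r o m v) r) (closedBall (x c) (R c))) :
    NOGeo (tmesh Z F) (⋃ c, Vc (tmesh Z F) x R c) 𝒬0 L η r hr a o M Zs (fun _ _ => True) := by
  have hU : ∀ m ∈ Zs, ∀ v : Fin 2 → ℕ, (∀ j, v j < M) →
      Ug (tmesh Z F) (⋃ c, Vc (tmesh Z F) x R c) a r o m v := by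
    intro m hm v hv
    refine ⟨(hcub m hm v hv).trans hKb, fun y hy i hyi => ?_⟩
    obtain ⟨h1, i0, rfl⟩ := off_ball Z F hyi fun c =>
      Set.disjoint_left.1 (hdis m hm v hv c) hy
    refine ⟨fun hmem => ?_, ?_⟩
    · obtain ⟨c, hc⟩ := mem_iUnion.1 hmem
      exact h1 c hc
    · rw [tmesh_inl] at hyi ⊢
      obtain ⟨z, hz⟩ := hbase i0.1 ⟨y, hyi, hcub m hm v hv hy⟩
      exact ⟨z, by rw [hz, P_Hc_idE, Cu_eq_lcub hkb]⟩
  have G := nogeo_of (tmesh Z F) (⋃ c, Vc (tmesh Z F) x R c) hr0 hr a o hM lo hi zne zs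
  exact ⟨G.r0, G.M0, G.lo, G.hi, G.zne, G.zs, fun m hm v hv _ => G.tile m hm v hv (hU m hm v hv),
    fun m hm v hv _ => G.face m hm v hv (hU m hm v hv),
    fun m hm v hv _ => G.edge m hm v hv (hU m hm v hv),
    fun m hm v hv _ => G.off m hm v hv (hU m hm v hv)⟩

/-- the clause `av`; `hsl` = the conclusion of 552's `exists_slices_block` for the finitely many zones
which meet the bulk -/
theorem av_of {L : ℕ} {η : ℝ} (hη : 0 < η) {Zs : Finset ℤ} {a : E3} {r : ℝ} (hr : 0 ≤ r)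
    (zs : ∀ m ∈ Zs, |(L : ℝ) * (a 2 + r * m)| ≤ 1 / 2) {R1 : 𝒞 → ℝ} (hR1 : ∀ c, R1 c ≤ 2 * R c)
    (hsl : ∀ m ∈ Zs, ∀ c, (closedBall (x c) (2 * R c) ∩ KB L η).Nonempty →
      2 * R c + r < |a 2 + r * m - x c 2|) :
    ∀ m ∈ Zs, ∀ c, ∀ y ∈ closedBall (x c) (R1 c), |y 0| < 1 - η → |y 1| < 1 - η →
      y 2 ≠ a 2 + r * m := by
  intro m hm c y hy h0 h1 h2
  have hy2 : y ∈ closedBall (x c) (2 * R c) := closedBall_subset_closedBall (hR1 c) hy
  have h3 : y ∈ KB L η := by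
    refine ⟨by linarith, by linarith, ?_⟩
    rw [h2]
    have := zs m hm
    linarith
  have h4 := hsl m hm c ⟨y, hy2, h3⟩
  have h5 : |y 2 - x c 2| ≤ 2 * R c := by
    have h6 := norm_le_pi_norm (y - x c) 2
    rw [mem_closedBall_iff_norm] at hy2
    simpa using h6.trans hy2
  rw [h2] at h5
  linarith

/-- the cubes of the chosen slices miss the large zones -/
theorem dis_of {L : ℕ} {η : ℝ} {Zs : Finset ℤ} {a : E3} {r : ℝ} {o : Fin 2 → ℤ} {M : ℕ}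
    (hR : ∀ c, 0 < R c)
    (hcub : ∀ m ∈ Zs, ∀ v : Fin 2 → ℕ, (∀ j, v j < M) → cub (vx a r o m v) r ⊆ KB L η)
    (hsl : ∀ m ∈ Zs, ∀ c, (closedBall (x c) (2 * R c) ∩ KB L η).Nonempty →
      ∀ v : Fin 2 → ℕ, Disjoint (cub (vx a r o m v) r) (closedBall (x c) (2 * R c))) :
    ∀ m ∈ Zs, ∀ v : Fin 2 → ℕ, (∀ j, v j < M) → ∀ c,
      Disjoint (cub (vx a r o m v) r) (closedBall (x c) (R c)) := by
  intro m hm v hv c
  rw [Set.disjoint_left]
  intro y hy hyc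
  have hy2 : y ∈ closedBall (x c) (2 * R c) :=
    closedBall_subset_closedBall (by have := hR c; linarith) hyc
  exact Set.disjoint_left.1 (hsl m hm c ⟨y, hy2, hcub m hm v hv hy⟩ v) hy hy2

end

end Crest.Agent.R096.Pg_691
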