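import Crest.Agent.R096.Pgb2_120

/-!
# Row 96 (S0127), helper120, (M3) of 962 #11558 (`pre_genN`), part 3: **proof of `PreGenN`**
-/

set_option autoImplicit false
set_option linter.style.longLine false
set_option linter.unusedSectionVars false

open MeasureTheory Set Filter Metric
open scoped Topology ENNReal

namespace Crest.Agent.R096.Pgb_120

open Crest.Agent.R096.Msh_715 Crest.Agent.R096.Msh_810 Crest.Agent.R096.Cut_874
  Crest.Agent.R096.Mal_874
open Crest.Agent.R096.SkC1_961 (E3 Cfg FoamD Hom3)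
open Crest.Agent.R096.Gno_324 (cap capD capD_Om)
open Crest.Agent.R096.Mfa_880
open Crest.Agent.R096.Mfs_168 (mfs)
open Crest.Agent.R096.Mbf_337
open Crest.Agent.R096.Der_764 (OmH)
open Crest.Agent.R96.Pm_199
open Crest.Agent.R96.Sob4_199 (VWD)
open Crest.Agent.R96.Acl_392 (WD)
open Crest.Agent.R96.En10_199 (P3)
open Crest.Agent.R096.Pmc_112 (Gd' Mok)
open Crest.Agent.R096.Np_962 (GV PreOutN)
open Crest.Agent.R96.Wm5_72 (mean_QW mean_QWi)

noncomputable section

theorem EnC_congr {J : Type} {Q Q' : PT J} (h : Q = Q') {c : Q.κ} {c' : Q'.κ} (hc : HEq c c')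
    (G : E3 → E3 → ℝ≥0∞) (p : ℝ) (s : E3) : Q.EnC G p c s = Q'.EnC G p c' s := by
  subst h
  cases hc
  rfl

/-- a common bound for good sets -/
theorem isBounded_BxM {J : Type} (M : MD E3 3 J) (j : J) : Bornology.IsBounded (BxM M j) := by
  have h1 : BxM M j ⊆ M.φ.symm '' closedBall (0 : Fin 3 → ℝ) (M.r j) := by
    intro s hs
    refine ⟨M.φ s, mem_closedBall_zero_iff.2 hs, M.φ.symm_apply_apply s⟩
  exact (((isCompact_closedBall (0 : Fin 3 → ℝ) (M.r j)).image
    M.φ.symm.continuous).isBounded).subset h1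

/-- the type of the classes -/
abbrev KT {F : Type} {X : Set F} (I : DN F X) : Type :=
  Option ((Unit ⊕ X) ⊕ ((Σ j : X, Mfi_290.Pt (I.M.Q j) ⊕ ℕ) ⊕ (Σ _ : X, Unit)))

/-- the means: the walls `ow`, `iw`, no condition at the outer cubes -/
def mN {F : Type} {X : Set F} (I : DN F X) (ow iw : X → ℝ≥0∞) : KT I → ℝ≥0∞
  | none => 1
  | some (Sum.inl (Sum.inl _)) => ∞
  | some (Sum.inl (Sum.inr j)) => ow j
  | some (Sum.inr (Sum.inl _)) => 1
  | some (Sum.inr (Sum.inr ⟨j, _⟩)) => iw j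

theorem mul_aux {K l e : ℝ≥0∞} (hK : K * l + 1 ≠ ∞) : K * (l * (e / (K * l + 1))) ≤ e := by
  have h0 : K * l + 1 ≠ 0 := by simp
  calc K * (l * (e / (K * l + 1))) = (K * l) * (e / (K * l + 1)) := by ring
    _ ≤ (K * l + 1) * (e / (K * l + 1)) := mul_le_mul' le_self_add le_rfl
    _ = e := ENNReal.mul_div_cancel h0 hK

set_option maxHeartbeats 1000000 in
/-- **(M3) OF 962 #11558** -/
theorem preGenN : PreGenN := by
  intro δ κ0 R c0 La Φ f X I hLa hδ hR hf D' hDm hD g hgm hgw W κp μ κ1 κ2 κ3 W0 Wd W1 W2 W3 hκp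
    hκp1 hμ hκ3 hκ2 hκ p hp H hGH hH κr Gd wt B hI θ hθ KO KI εb hKO hKI hεb
  classical
  have := I.cX
  have cF : Countable Φ.F := Crest.Agent.R096.Ls_222.countable_F Φ
  set G : E3 → E3 → ℝ≥0∞ := GV (fun c => ENNReal.ofReal (W c)) g with hG
  have hGm : ∀ v, Measurable (G v) := fun v => Crest.Agent.R096.Prn_120.measurable_GV _ hgm v
  set U : Set E3 := closedBall (0 : E3) 1 with hU
  have hU0 : volume U ≠ 0 := (measure_closedBall_pos volume (0 : E3) one_pos).ne'
  have hU1 : volume U ≠ ∞ := measure_closedBall_lt_top.ne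
  -- the fraction of bad shifts
  obtain ⟨η, hη0, hη1, hη⟩ : ∃ η : ℝ≥0∞, η ≠ 0 ∧ η ≠ ∞ ∧ (η + η) * volume U ≤ θ := by
    refine ⟨min 1 (θ / (2 * volume U)), ?_, ?_, ?_⟩
    · refine (lt_min one_pos (ENNReal.div_pos hθ (ENNReal.mul_ne_top ENNReal.ofNat_ne_top hU1))).ne'
    · exact ((min_le_left _ _).trans_lt ENNReal.one_lt_top).ne
    · calc (min 1 (θ / (2 * volume U)) + min 1 (θ / (2 * volume U))) * volume U
          ≤ (θ / (2 * volume U) + θ / (2 * volume U)) * volume U := by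
            gcongr <;> exact min_le_right _ _
        _ = θ / (2 * volume U) * (2 * volume U) := by ring
        _ ≤ θ := by rw [mul_comm]; exact ENNReal.mul_div_le
  -- the lists
  obtain ⟨κw, Wl, hκw, hWf, hWD, hlist⟩ := Crest.Agent.R96.Gj_872.exists_dyadic_lists
    (μ := (volume : Measure E3)) I.M.φ (A := U) isClosed_closedBall.measurableSet hU0
    isBounded_closedBall hI.Gdm hI.Gd0
    (fun j => (isBounded_BxM I.M j).subset ((hI.Gds j).trans (I.hBx j))) κr hη0
  let L : LN I :=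
    { W := Wl
      Wf := hWf
      κw := κw
      h0 := fun j m => by
        obtain ⟨z, hz⟩ := hI.h0 j m
        obtain ⟨z', hz'⟩ := Crest.Agent.R96.Gj_872.int_mul_pow (hκw j)
          (x := (I.D.d j : ℝ) * (I.M.Q j).a' m) ⟨z, by rw [← mul_assoc]; exact hz⟩
        exact ⟨z', by rw [mul_assoc]; exact hz'⟩
      hW := fun j w hw => (hWD j w hw).1 }
  -- weights and means
  obtain ⟨lam, l0, l1, l2, -⟩ := Eds_746.exists_lam (none : KT I) hη0 hη1
  let kOw : X → KT I := fun j => some (Sum.inl (Sum.inr j))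
  let kIw : X → KT I := fun j => some (Sum.inr (Sum.inr ⟨j, ()⟩))
  have hq : ∀ (K : ℝ≥0∞) (κ : KT I), K ≠ ∞ → K * lam κ + 1 ≠ ∞ := fun K κ hK =>
    ENNReal.add_ne_top.2 ⟨ENNReal.mul_ne_top hK (l1 κ), ENNReal.one_ne_top⟩
  set ow : X → ℝ≥0∞ := fun j => εb j / (KO j * lam (kOw j) + 1) with how
  set iw : X → ℝ≥0∞ := fun j => εb j / (KI j * lam (kIw j) + 1) with hiw
  have how0 : ∀ j, ow j ≠ 0 := fun j => (ENNReal.div_pos (hεb j) (hq _ _ (hKO j))).ne'
  have hiw0 : ∀ j, iw j ≠ 0 := fun j => (ENNReal.div_pos (hεb j) (hq _ _ (hKI j))).ne'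
  set m : KT I → ℝ≥0∞ := mN I ow iw with hm
  have hm0 : ∀ κ, m κ ≠ 0 := by
    rintro (_ | (⟨⟩ | j) | (⟨j, c⟩ | ⟨j, ⟨⟩⟩))
    · exact one_ne_zero
    · exact ENNReal.top_ne_zero
    · exact how0 j
    · exact one_ne_zero
    · exact hiw0 j
  -- the walls
  have hfj : ∀ j : X, ∫⁻ z in I.M.φ ⁻¹' (I.M.D0.Om ∩
      cthickening (I.M.r j + 1) (I.M.φ '' frontier (I.M.Q j).N)), H z ^ p ≠ ∞ := fun j =>
    ((lintegral_mono_set (preimage_mono inter_subset_left)).trans_lt (lt_top_iff_ne_top.2 hH)).ne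
  have h2 : ∀ j : X, ∃ kk : ℕ, ∀ k : X → ℕ, kk ≤ k j →
      (∫⁻ a in U, (Mou_324.QW k (fun j => (hWf j).countable) I.D 1).toPT.EnC G p j a ≤
        ow j * volume U) ∧
      ∫⁻ a in U, (QUw I.M I.D k (fun j => (hWf j).countable) j).EnC G p () a ≤
        iw j * volume U := by
    intro j
    obtain ⟨ka, ha⟩ := mean_QW (fun j => (hWf j).countable) I.D j (hWf j)
      (r' := I.M.r j + 1) (by linarith) (H := H) hp (hfj j)
      (ε := ow j * volume U) (mul_ne_zero (how0 _) hU0)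
    obtain ⟨kb, hb⟩ := mean_QWi I.D (fun j => (hWf j).countable) j (hWf j)
      (r' := I.M.r j + 1) (by linarith) (H := H) hp (hfj j)
      (ε := iw j * volume U) (mul_ne_zero (hiw0 _) hU0)
    refine ⟨max ka kb, fun k hk => ⟨?_, ?_⟩⟩
    · exact ha k ((le_max_left _ _).trans hk) 1 isClosed_closedBall.measurableSet hGm hGH
    · exact hb k ((le_max_right _ _).trans hk) (Uni_663.KU_countable _) (countable_singleton 0)
        isClosed_closedBall.measurableSet hGm hGH
  choose kk hkk using h2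
  refine ⟨L, fun j => max (kk j) (max (I.k0 j) (κw j)),
    fun j => (le_max_left _ _).trans (le_max_right _ _),
    fun j => (le_max_right _ _).trans (le_max_right _ _), ?_⟩
  intro c hc k hk hkw
  set I' : Ins Φ.F X := L.ins hc hk (fun j => ((le_max_left _ _).trans (le_max_right _ _)).trans
    (hkw j)) fun j => ((le_max_right _ _).trans (le_max_right _ _)).trans (hkw j) with hI'
  have eOm : I'.Om = I.M.φ ⁻¹' I.M.D0.Om := cap_Om hc
  have hOo : IsOpen I'.Om :=
    (isOpen_lt continuous_const I'.M.D0.continuous_ρ).preimage I'.M.φ.continuous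
  -- the means of all classes which move with `a`
  have hmean : ∀ κ : (mfs I').κ, (mfs I').bl κ = none →
      ∫⁻ a in (mfs I').A, (mfs I').EnC G p κ a ≤ m κ * volume (mfs I').A := by
    refine I'.cases ?_ ?_ ?_ ?_ ?_
    · intro _
      refine le_trans (le_of_eq ?_) bot_le
      exact (lintegral_congr fun a => I'.EnC_kN G p a).trans lintegral_zero
    · intro _
      refine le_trans le_top (le_of_eq ?_)
      show (⊤ : ℝ≥0∞) = ∞ * volume U
      rw [ENNReal.top_mul hU0]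
    · intro j _
      refine (le_of_eq (lintegral_congr fun a => I'.EnC_kOw G p a j)).trans ?_
      refine le_trans (le_of_eq ?_) (hkk j k ((le_max_left _ _).trans (hkw j))).1
      refine lintegral_congr fun a => ?_
      exact EnC_congr (congrArg Crest.Agent.R096.Mfe_161.PTn.toPT
        (QW_cap I.D hc k (fun j => (hWf j).countable) 1)) HEq.rfl G p a
    · intro j c' hcc
      have h3 : (mfs I').bl (I'.kI j c') = some j := rfl
      rw [h3] at hcc
      cases hcc
    · intro j _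
      refine (le_of_eq (lintegral_congr fun a => I'.EnC_kIw G p a j)).trans ?_
      exact (hkk j k ((le_max_left _ _).trans (hkw j))).2
  obtain ⟨A', hA1, hA2, hA3, hA4⟩ := Crest.Agent.R096.Prn_120.premachN δ κ0 R c0 La I'.Om Φ f X hOo
    hLa hδ hR (by rw [eOm]; exact hf) (mfs I') D' hDm (by rw [eOm]; exact hD) g hgm
    (by rw [eOm]; exact hgw) W κp μ κ1 κ2 κ3 W0 Wd W1 W2 W3 hκp hκp1 hμ hκ3 hκ2 hκ X p
    (by linarith) Gd hI.Gds η η hlist m lam hm0 hmean l0 l1 l2 (fun _ => True)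
    (Eventually.of_forall fun _ _ => trivial)
    (Eventually.of_forall fun a _ w h hw => hI.mok c hc k hk a w _ hw _ _)
  refine ⟨A', hA1, hA2, hA3.trans hη, fun a ha => ?_⟩
  obtain ⟨-, w, h, hw, hPre, hE1, hE2⟩ := hA4 a ha
  refine ⟨w, h, hw, hPre, fun j => ?_, fun j => ?_, fun j => ?_⟩
  · exact (mul_le_mul' le_rfl (hE1 (I'.kOw j) rfl)).trans (mul_aux (hq _ _ (hKO j)))
  · exact (mul_le_mul' le_rfl (hE1 (I'.kIw j) rfl)).trans (mul_aux (hq _ _ (hKI j)))
  · refine le_trans (ENNReal.tsum_le_tsum fun c' => ?_) (hI.en j (a + w j) (hw j))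
    refine mul_le_mul' le_rfl ((hE2 (I'.kI j c') j rfl).trans (le_of_eq ?_))
    refine (I'.EnC_kI (Gd' D') p (a + w j) j c').trans ?_
    exact EnC_congr (QU_cap I.D hc I.k0 I.hk0 j) HEq.rfl (Gd' D') p (a + w j)

end

end Crest.Agent.R096.Pgb_120
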