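import Crest.Agent.R096.Pgb2_120

/-!
Row 96 (S0127), helper477 (hot spare of 120), (M3) of 962 #11558: proof of `Pgb_120.PreGenN`.
-/

set_option autoImplicit false
set_option linter.style.longLine false
set_option linter.unusedSectionVars false

open MeasureTheory Set Filter Metric
open scoped Topology ENNReal

namespace Crest.Agent.R096.Pgd_477

open Crest.Agent.R096.Msh_715 Crest.Agent.R096.Msh_810 Crest.Agent.R096.Cut_874
  Crest.Agent.R096.Mal_874
open Crest.Agent.R096.SkC1_961 (E3 Cfg FoamD Hom3)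
open Crest.Agent.R096.Gno_324 (cap capD capD_Om)
open Crest.Agent.R096.Mfa_880
open Crest.Agent.R096.Mfs_168 (mfs)
open Crest.Agent.R096.Mbf_337
open Crest.Agent.R096.Der_764 (OmH)
open Crest.Agent.R96.Pm_199
open Crest.Agent.R96.Sob4_199 (VWD)
open Crest.Agent.R96.Acl_392 (WD)
open Crest.Agent.R96.En10_199 (P3)
open Crest.Agent.R96.Wm5_72 (mean_QW mean_QWi)
open Crest.Agent.R096.Pmc_112 (Gd' Mok)
open Crest.Agent.R096.Np_962 (GV PreOutN)
open Crest.Agent.R096.Pgb_120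

noncomputable section

/-- the classes (they do not see the cap) -/
abbrev Kp {F : Type} {X : Set F} (I : DN F X) : Type :=
  Option ((Unit ⊕ X) ⊕ ((Σ j : X, Mfi_290.Pt (I.M.Q j) ⊕ ℕ) ⊕ (Σ _ : X, Unit)))

/-- numbers of the classes -/
def mK {F : Type} {X : Set F} (I : DN F X) (mO : ℝ≥0∞) (mw mi : X → ℝ≥0∞) : Kp I → ℝ≥0∞
  | none => 1
  | some (Sum.inl (Sum.inl _)) => mO
  | some (Sum.inl (Sum.inr j)) => mw j
  | some (Sum.inr (Sum.inl _)) => 1
  | some (Sum.inr (Sum.inr ⟨j, _⟩)) => mi j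

theorem mul_div_le (K l e : ℝ≥0∞) (hK : K ≠ ∞) (hl : l ≠ ∞) :
    K * (l * (e / (K * l + 1))) ≤ e := by
  have h1 : K * l + 1 ≠ ∞ := ENNReal.add_ne_top.2 ⟨ENNReal.mul_ne_top hK hl, ENNReal.one_ne_top⟩
  have h0 : K * l + 1 ≠ 0 := by simp
  calc K * (l * (e / (K * l + 1))) = (K * l) * (e / (K * l + 1)) := by ring
    _ ≤ (K * l + 1) * (e / (K * l + 1)) := mul_le_mul' le_self_add le_rfl
    _ = e := ENNReal.mul_div_cancel h0 h1

/-- **`pre_genN`** -/
theorem preGenN : PreGenN := by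
  intro δ κ0 R c0 La Φ f X I hLa hδ hR hf D' hDm hD g hgm hg W κp μ κ1 κ2 κ3 hW0 hWd hW1 hW2 hW3
    hκp hκp1 hμ hκ3 hκ2 hκ p hp H hGH hHfin κr Gd wt B G θ hθ KO KI εb hKO hKI hεb
  classical
  have hcX : Countable X := I.cX
  have hcF : Countable Φ.F := Φ.bf.countable.to_subtype
  have hp0 : 0 ≤ p := by linarith
  have hO : IsOpen (I.M.φ ⁻¹' I.M.D0.Om) :=
    (isOpen_lt continuous_const I.M.D0.continuous_ρ).preimage I.M.φ.continuous
  set V1 : ℝ≥0∞ := volume (closedBall (0 : E3) 1) with hV1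
  have hV10 : V1 ≠ 0 := (measure_closedBall_pos volume (0 : E3) one_pos).ne'
  have hV11 : V1 ≠ ∞ := measure_closedBall_lt_top.ne
  -- the portion
  obtain ⟨τ, hτ0, hτ1, hτ⟩ : ∃ τ : ℝ≥0∞, τ ≠ 0 ∧ τ ≠ ∞ ∧ (τ + τ) * V1 ≤ θ := by
    refine ⟨min (θ / (2 * V1)) 1, ?_, ?_, ?_⟩
    · refine (lt_min (ENNReal.div_pos hθ (ENNReal.mul_ne_top ENNReal.ofNat_ne_top hV11))
        one_pos).ne'
    · exact ne_top_of_le_ne_top ENNReal.one_ne_top (min_le_right _ _)
    · calc (min (θ / (2 * V1)) 1 + min (θ / (2 * V1)) 1) * V1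
          ≤ (θ / (2 * V1) + θ / (2 * V1)) * V1 :=
            mul_le_mul' (add_le_add (min_le_left _ _) (min_le_left _ _)) le_rfl
        _ = (2 * V1) * (θ / (2 * V1)) := by ring
        _ ≤ θ := ENNReal.mul_div_le
  have hBd : ∀ j, Bornology.IsBounded (Gd j) := by
    intro j
    have h1 : Gd j ⊆ I.M.φ.symm '' closedBall 0 (I.M.r j) := by
      intro s hs
      refine ⟨I.M.φ s, ?_, I.M.φ.symm_apply_apply s⟩
      rw [mem_closedBall_zero_iff]
      exact I.hBx j (G.Gds j hs)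
    exact ((isCompact_closedBall _ _).image I.M.φ.symm.continuous).isBounded.subset h1
  obtain ⟨κ, Wl, w1, w2, w3, w4⟩ := Crest.Agent.R96.Gj_872.exists_dyadic_lists
    (μ := (volume : Measure E3)) I.M.φ (A := closedBall (0 : E3) 1)
    measurableSet_closedBall hV10 isBounded_closedBall G.Gdm G.Gd0 hBd κr (θ := τ) hτ0
  -- the lists
  set L : LN I :=
    { W := Wl
      Wf := w2
      κw := κ
      h0 := fun j m => by
        obtain ⟨c, hc⟩ := Crest.Agent.R96.Gj_872.int_mul_pow (w1 j)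
          (x := (I.D.d j : ℝ) * (I.M.Q j).a' m) (by
            obtain ⟨c, hc⟩ := G.h0 j m
            exact ⟨c, by rw [← hc]; ring⟩)
        exact ⟨c, by rw [← hc]; ring⟩
      hW := fun j w hw l => (w3 j w hw).1 l } with hL
  -- the weights
  have hcκ : Countable (Kp I) := by infer_instance
  obtain ⟨lam, l0, l1, l2, -⟩ := Eds_746.exists_lam (none : Kp I) hτ0 hτ1
  set mw : X → ℝ≥0∞ := fun j =>
    εb j / (KO j * lam (some (Sum.inl (Sum.inr j))) + 1) with hmw
  set mi : X → ℝ≥0∞ := fun j =>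
    εb j / (KI j * lam (some (Sum.inr (Sum.inr ⟨j, ()⟩))) + 1) with hmi
  have hmw0 : ∀ j, mw j ≠ 0 := fun j => (ENNReal.div_pos (hεb j) (ENNReal.add_ne_top.2
    ⟨ENNReal.mul_ne_top (hKO j) (l1 _), ENNReal.one_ne_top⟩)).ne'
  have hmi0 : ∀ j, mi j ≠ 0 := fun j => (ENNReal.div_pos (hεb j) (ENNReal.add_ne_top.2
    ⟨ENNReal.mul_ne_top (hKI j) (l1 _), ENNReal.one_ne_top⟩)).ne'
  set m : Kp I → ℝ≥0∞ := mK I ⊤ mw mi with hm
  have hm0 : ∀ c, m c ≠ 0 := by
    rintro (_ | (⟨⟩ | j) | (c | ⟨j, ⟨⟩⟩))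
    · exact one_ne_zero
    · exact ENNReal.top_ne_zero
    · exact hmw0 j
    · exact one_ne_zero
    · exact hmi0 j
  -- the walls
  have hGm : ∀ v, Measurable (GV (fun c => ENNReal.ofReal (W c)) g v) := fun v =>
    Prn_120.measurable_GV _ hgm v
  have hfj : ∀ j : X, ∫⁻ z in I.M.φ ⁻¹' (I.M.D0.Om ∩
      cthickening (I.M.r j + 1) (I.M.φ '' frontier (I.M.Q j).N)), H z ^ p ≠ ∞ := fun j =>
    ((lintegral_mono_set (preimage_mono inter_subset_left)).trans_lt
      (lt_top_iff_ne_top.2 hHfin)).ne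
  have h2 : ∀ j : X, ∃ k0 : ℕ, ∀ k : X → ℕ, k0 ≤ k j →
      (∫⁻ a in closedBall (0 : E3) 1, (Mou_324.QW (M := I.M) k (fun j => (L.Wf j).countable)
        I.D 1).toPT.EnC (GV (fun c => ENNReal.ofReal (W c)) g) p j a ≤ mw j * V1) ∧
      ∫⁻ a in closedBall (0 : E3) 1, (QUw I.M I.D k (fun j => (L.Wf j).countable) j).EnC
        (GV (fun c => ENNReal.ofReal (W c)) g) p () a ≤ mi j * V1 := by
    intro j
    obtain ⟨ka, ha⟩ := mean_QW (M := I.M) (fun j => (L.Wf j).countable) I.D j (L.Wf j)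
      (r' := I.M.r j + 1) (by linarith) (H := H) hp (hfj j)
      (ε := mw j * V1) (mul_ne_zero (hmw0 _) hV10)
    obtain ⟨kb, hb⟩ := mean_QWi I.D (fun j => (L.Wf j).countable) j (L.Wf j)
      (r' := I.M.r j + 1) (by linarith) (H := H) hp (hfj j)
      (ε := mi j * V1) (mul_ne_zero (hmi0 _) hV10)
    refine ⟨max ka kb, fun k hk => ⟨?_, ?_⟩⟩
    · exact ha k ((le_max_left _ _).trans hk) 1 measurableSet_closedBall hGm hGH
    · exact hb k ((le_max_right _ _).trans hk) (Uni_663.KU_countable _) (countable_singleton 0)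
        measurableSet_closedBall hGm hGH
  choose kw0 hkw0 using h2
  refine ⟨L, fun j => max (kw0 j) (max (I.k0 j) (κ j)), fun j =>
    (le_max_left _ _).trans (le_max_right _ _), fun j =>
    (le_max_right _ _).trans (le_max_right _ _), fun c hc k hk hkw => ?_⟩
  set I' : Ins Φ.F X := L.ins hc hk
    (fun j => ((le_max_left _ _).trans (le_max_right _ _)).trans (hkw j))
    (fun j => ((le_max_right _ _).trans (le_max_right _ _)).trans (hkw j)) with hI'
  have hkk : ∀ j, kw0 j ≤ k j := fun j => (le_max_left _ _).trans (hkw j)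
  have hOmE : I'.Om = I.M.φ ⁻¹' I.M.D0.Om := cap_Om hc
  -- the means
  have hmean : ∀ q : I'.mf.κ, I'.mf.bl q = none → ∫⁻ a in closedBall (0 : E3) 1,
      I'.mf.EnC (GV (fun c => ENNReal.ofReal (W c)) g) p q a ≤ m q * V1 := by
    refine I'.cases ?_ ?_ ?_ ?_ ?_
    · intro _
      refine le_trans (le_of_eq ?_) bot_le
      rw [lintegral_congr fun a => I'.EnC_kN (GV (fun c => ENNReal.ofReal (W c)) g) p a]
      exact lintegral_zero
    · intro _
      have : m I'.kO = ⊤ := rfl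
      rw [this, ENNReal.top_mul hV10]
      exact le_top
    · intro j _
      rw [lintegral_congr fun a => I'.EnC_kOw (GV (fun c => ENNReal.ofReal (W c)) g) p a j]
      have e : I'.qOw = (Mou_324.QW (M := I.M) k (fun j => (L.Wf j).countable) I.D 1).toPT :=
        congrArg (fun q => q.toPT) (QW_cap I.D hc k (fun j => (L.Wf j).countable) 1)
      have e2 : HEq (I'.qOw.EnC (GV (fun c => ENNReal.ofReal (W c)) g) p)
          ((Mou_324.QW (M := I.M) k (fun j => (L.Wf j).countable) I.D 1).toPT.EnC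
            (GV (fun c => ENNReal.ofReal (W c)) g) p) := by rw [e]
      have e3 : (I'.qOw.EnC (GV (fun c => ENNReal.ofReal (W c)) g) p : X → E3 → ℝ≥0∞) =
          (Mou_324.QW (M := I.M) k (fun j => (L.Wf j).countable) I.D 1).toPT.EnC
            (GV (fun c => ENNReal.ofReal (W c)) g) p := eq_of_heq e2
      refine le_trans (le_of_eq (lintegral_congr fun a => congrFun (congrFun e3 j) a))
        (hkw0 j k (hkk j)).1
    · intro j q hq
      rw [I'.bl_kI] at hq
      cases hq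
    · intro j _
      rw [lintegral_congr fun a => I'.EnC_kIw (GV (fun c => ENNReal.ofReal (W c)) g) p a j]
      exact (hkw0 j k (hkk j)).2
  obtain ⟨A', a1, a2, a3, a4⟩ := Prn_120.premachN δ κ0 R c0 La I'.Om Φ f X
    (by rw [hOmE]; exact hO) hLa hδ hR (by rw [hOmE]; exact hf) (mfs I') D' hDm
    (by rw [hOmE]; exact hD) g hgm (by rw [hOmE]; exact hg) W κp μ κ1 κ2 κ3 hW0 hWd hW1 hW2 hW3
    hκp hκp1 hμ hκ3 hκ2 hκ X p hp0 Gd (fun j => G.Gds j) τ τ w4 m lam hm0
    (fun q hq => hmean q hq) l0 l1 l2 (fun _ => True) (ae_of_all _ fun _ _ => trivial)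
    (ae_of_all _ fun a ha w h hG => by
      exact G.mok c hc k hk a w (Ins.adm h) hG _ _)
  refine ⟨A', a1, a2, a3.trans hτ, fun a ha => ?_⟩
  obtain ⟨-, w, h, b1, b2, b3, b4⟩ := a4 a ha
  refine ⟨w, h, b1, b2, fun j => ?_, fun j => ?_, fun j => ?_⟩
  · refine (mul_le_mul' le_rfl (b3 (I'.kOw j) rfl)).trans ?_
    exact mul_div_le _ _ _ (hKO j) (l1 _)
  · refine (mul_le_mul' le_rfl (b3 (I'.kIw j) rfl)).trans ?_
    exact mul_div_le _ _ _ (hKI j) (l1 _)
  · refine le_trans (ENNReal.tsum_le_tsum fun q => mul_le_mul' le_rfl ?_) (G.en j (a + w j) (b1 j))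
    refine (b4 (I'.kI j q) j rfl).trans (le_of_eq ?_)
    refine (I'.EnC_kI (Gd' D') p (a + w j) j q).trans ?_
    have e : I'.qI j = QU I.M I.D I.k0 I.hk0 j := QU_cap I.D hc I.k0 I.hk0 j
    have e2 : HEq ((I'.qI j).EnC (Gd' D') p) ((QU I.M I.D I.k0 I.hk0 j).EnC (Gd' D') p) := by
      rw [e]
    have e3 : ((I'.qI j).EnC (Gd' D') p : (Mfi_290.Pt (I.M.Q j) ⊕ ℕ) → E3 → ℝ≥0∞) =
        (QU I.M I.D I.k0 I.hk0 j).EnC (Gd' D') p := eq_of_heq e2
    exact congrFun (congrFun e3 q) (a + w j)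

end

end Crest.Agent.R096.Pgd_477
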