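import Crest.Agent.R096.Pgn2_112
import Crest.Agent.R096.Eds2_746

/-!
# Row 96 (S0127), helper112.  The X-generic end theorem `pre_gen`, part 3

`exists_lam_mu2` (weights, all other classes negligible, each one below a given number), `ae_mok`
(`Mok` for almost all shifts), `sum_blk`, `sum_tot` (sums of class energies).
-/

set_option autoImplicit false
set_option linter.style.longLine false

open MeasureTheory Set Filter Metric
open scoped Topology ENNReal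

namespace Crest.Agent.R096.Pgn_112

open Crest.Agent.R096.Msh_715 Crest.Agent.R096.Msh_810 Crest.Agent.R096.Cut_874
  Crest.Agent.R096.Mal_874
open Crest.Agent.R096.SkC1_961 (E3 Cfg FoamD Hom3)
open Crest.Agent.R096.Bsp_628 Crest.Agent.R096.Brk5_582
open Crest.Agent.R096.Ls_222 (Edg ea ev eIn mem_eIn)
open Crest.Agent.R096.Mbf_337
open Crest.Agent.R096.Tms_582
open Crest.Agent.R096.Er_594 (SH3)
open Crest.Agent.R096.Mfa_880
open Crest.Agent.R096.Wd_120 (CoreAt)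
open Crest.Agent.R96.Pm_199
open Crest.Agent.R96.Eam_466 (TLAt FineX InB mix_tmesh locF_of_tl)
open Crest.Agent.R96.Zpatch_348 (ZIn lv)
open Crest.Agent.R096.Pmc_112 (Mok Gd' Bk Kl)

noncomputable section

/-- **weights and means**: `ow` = the outer class; the others are negligible, each one below a given
number `εk k` -/
theorem exists_lam_mu2 {κ : Type*} [Countable κ] (ow : κ) {θ ε : ℝ≥0∞} (hθ : θ ≠ 0) (hθ1 : θ ≠ ∞)
    (hε : ε ≠ 0) (Kc : κ → ℝ≥0∞) (hK : ∀ k, Kc k ≠ ∞) {εk : κ → ℝ≥0∞} (hεk : ∀ k, εk k ≠ 0) :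
    ∃ lam μ : κ → ℝ≥0∞, (∀ k, lam k ≠ 0) ∧ (∀ k, lam k ≠ ∞) ∧ ∑' k, (lam k)⁻¹ ≤ θ ∧
      lam ow = 2 / θ ∧ (∀ k, μ k ≠ 0) ∧ (∀ k, μ k ≠ ∞) ∧ ∑' k, Kc k * (lam k * μ k) ≤ ε ∧
      ∀ k, Kc k * (lam k * μ k) ≤ εk k := by
  obtain ⟨lam, h1, h2, h3, h4⟩ := Eds_746.exists_lam ow hθ hθ1
  obtain ⟨d, hd0, hd⟩ := ENNReal.exists_pos_sum_of_countable' hε κ
  have hdt : ∀ k, d k ≠ ∞ := fun k => ((ENNReal.le_tsum k).trans_lt (hd.trans_le le_top)).ne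
  set q : κ → ℝ≥0∞ := fun k => Kc k * lam k + 1 with hq
  have hq0 : ∀ k, q k ≠ 0 := fun k => by simp [hq]
  have hqt : ∀ k, q k ≠ ∞ := fun k =>
    ENNReal.add_ne_top.2 ⟨ENNReal.mul_ne_top (hK k) (h2 k), ENNReal.one_ne_top⟩
  set μ : κ → ℝ≥0∞ := fun k => min (d k) (εk k) / q k with hμ
  have hm0 : ∀ k, min (d k) (εk k) ≠ 0 := fun k =>
    (lt_min (hd0 k) (pos_iff_ne_zero.2 (hεk k))).ne'
  have key : ∀ k, Kc k * (lam k * μ k) ≤ min (d k) (εk k) := by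
    intro k
    calc Kc k * (lam k * μ k) = (Kc k * lam k) * μ k := by ring
      _ ≤ q k * (min (d k) (εk k) / q k) := mul_le_mul' le_self_add le_rfl
      _ ≤ min (d k) (εk k) := ENNReal.mul_div_le
  refine ⟨lam, μ, h1, h2, h3, h4, fun k => (ENNReal.div_pos (hm0 k) (hqt k)).ne', fun k =>
    ENNReal.div_ne_top ((min_le_left _ _).trans_lt (hdt k).lt_top).ne (hq0 k), ?_, fun k =>
    (key k).trans (min_le_right _ _)⟩
  exact (ENNReal.tsum_le_tsum fun k => (key k).trans (min_le_left _ _)).trans hd.le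

variable {δ κ0 Rc c0 : ℝ} {La : Set E3} {Φ : FoamD δ κ0 Rc c0 La} {X : Set Φ.F}
  {I : Ins Φ.F X} {Zd : ZD Φ.F X}

/-- **`Mok` for almost all shifts** -/
theorem ae_mok (hz : ZOk I Zd) {f : E3 → E3} {κp μ κ1 κ2 p : ℝ} {D : E3 → E3 →L[ℝ] E3}
    (hO : IsOpen I.Om) (hSH : SH3 p I.Om La f D) (hxO : ∀ c, Zd.x c ∈ I.Om)
    (htl : ∀ c, TLAt Φ I.Om f κ1 c.1 (Zd.x c) (Zd.R c) (Zd.k c) (Zd.Zc c) (Zd.H c) (Zd.J0 c)
      (Zd.J c) (Zd.θ c) (Zd.φ c)) {Gd : X → Set E3}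
    (hB1 : ∀ a w (h : I.mf.Ok a w), (∀ j, a + w j ∈ Gd j) →
      (∀ c ∈ X, Exact Φ (I.mf.md a w h).T f κ1 κ2 c ((I.mf.md a w h).ct c)
        ((I.mf.md a w h).A c) ((I.mf.md a w h).lam c) ((I.mf.md a w h).z c)) ∧
      FineX Φ (I.mf.md a w h).T f κ1 X (I.mf.md a w h).ct Zd.x Zd.R)
    (hB2 : ∀ a w (h : I.mf.Ok a w), (∀ j, a + w j ∈ Gd j) →
      Cores Φ ((zin I Zd hz).dec h).T f κ1 κ2 X ((zin I Zd hz).dec h).J0
        ((zin I Zd hz).dec h).J ((zin I Zd hz).dec h).V ((zin I Zd hz).dec h).ct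
        ((zin I Zd hz).dec h).A ((zin I Zd hz).dec h).lam ((zin I Zd hz).dec h).z
        ((zin I Zd hz).dec h).θ ((zin I Zd hz).dec h).φ →
      WordsOk Φ f κp μ X ((zin I Zd hz).dec h)) :
    ∀ᵐ a : E3, a ∈ (zin I Zd hz).mf.A → ∀ w (h : (zin I Zd hz).mf.Ok a w),
      (∀ j, a + w j ∈ Gd j) → Mok Φ f κp μ κ1 κ2 X ((zin I Zd hz).mf.md a w h) := by
  have hcF := hz.cF
  have h1 := Rgv_168.reg_all (zin I Zd hz).mf hO hSH (𝓗 := (zin I Zd hz).Hall)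
    (((zin I Zd hz).Hf_c.union (zin I Zd hz).Hz_countable)) (fun a w h => (zin I Zd hz).hs_T h)
    (X0 := range Zd.x) (countable_range _)
  filter_upwards [h1] with a ha _ w h hG
  obtain ⟨h2, h3⟩ := ha w h
  obtain ⟨h4, h5⟩ := hB1 a w h hG
  exact mok_zin hz htl h h4 h5 h2 (fun c => h3 _ (mem_range_self c) (hxO c)) (hB2 a w h hG)

end

end Crest.Agent.R096.Pgn_112
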