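import Crest.Agent.R096.Pgn3_112

/-!
# Row 96 (S0127), helper112.  The X-generic end theorem `pre_gen`, part 4: sums over the classes
-/

set_option autoImplicit false
set_option linter.style.longLine false

open MeasureTheory Set Filter Metric
open scoped Topology ENNReal

namespace Crest.Agent.R096.Pgn_112

open Crest.Agent.R096.Msh_715 Crest.Agent.R096.Msh_810 Crest.Agent.R096.Cut_874
  Crest.Agent.R096.Mal_874
open Crest.Agent.R096.SkC1_961 (E3 Cfg FoamD Hom3)
open Crest.Agent.R096.Bsp_628 Crest.Agent.R096.Brk5_582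
open Crest.Agent.R096.Ls_222 (Edg ea ev eIn mem_eIn)
open Crest.Agent.R096.Mbf_337
open Crest.Agent.R096.Tms_582
open Crest.Agent.R096.Mfa_880
open Crest.Agent.R96.Pm_199
open Crest.Agent.R96.Zpatch_348 (ZIn lv)
open Crest.Agent.R096.Pmc_112 (Mok Gd' Bk Kl)

noncomputable section

variable {δ κ0 Rc c0 : ℝ} {La : Set E3} {Φ : FoamD δ κ0 Rc c0 La} {X : Set Φ.F}
  {I : Ins Φ.F X} {Zd : ZD Φ.F X}

theorem kI_inj (I : Ins Φ.F X) (j : X) : Function.Injective (I.kI j) := by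
  intro c c' h
  have h1 := Sum.inl_injective (Sum.inr_injective (Option.some_injective _ h))
  exact eq_of_heq (Sigma.mk.inj h1).2

/-- the classes of the block `j` are the classes `kI j c` -/
theorem eq_kI {k : I.mf.κ} {j : X} (h : I.mf.bl k = some j) : ∃ c, k = I.kI j c := by
  revert h
  refine I.cases (Pr := fun k => I.mf.bl k = some j → ∃ c, k = I.kI j c) ?_ ?_ ?_ ?_ ?_ k
  · intro h
    rw [I.bl_kN] at h
    cases h
  · intro h
    rw [I.bl_kO] at h
    cases h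
  · intro j' h
    rw [I.bl_kOw] at h
    cases h
  · intro j' c h
    rw [I.bl_kI] at h
    obtain rfl := Option.some_injective _ h
    exact ⟨c, rfl⟩
  · intro j' h
    rw [I.bl_kIw] at h
    cases h

/-- **sum over the classes of one block** -/
theorem sum_bl (I : Ins Φ.F X) (t : I.mf.κ → ℝ≥0∞) (j : X) :
    ∑' k : {k // I.mf.bl k = some j}, t k ≤ ∑' c, t (I.kI j c) := by
  choose g hg using fun k : {k // I.mf.bl k = some j} => eq_kI k.2
  have hinj : Function.Injective g := by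
    intro k k' h
    apply Subtype.ext
    rw [hg k, hg k', h]
  calc ∑' k : {k // I.mf.bl k = some j}, t k = ∑' k : {k // I.mf.bl k = some j}, t (I.kI j (g k)) :=
        tsum_congr fun k => congrArg t (hg k)
    _ ≤ ∑' c, t (I.kI j c) := ENNReal.tsum_comp_le_tsum_of_injective hinj (fun c => t (I.kI j c))

/-- the classes of the tiles in the block `j` -/
def Sb (I : Ins Φ.F X) (j : X) : Set I.mf.κ := range (I.kI j) ∪ {I.kIw j}

theorem sum_Sb (I : Ins Φ.F X) (t : I.mf.κ → ℝ≥0∞) (j : X) :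
    ∑' k : Sb I j, t k ≤ (∑' c, t (I.kI j c)) + t (I.kIw j) := by
  refine (ENNReal.tsum_union_le t (range (I.kI j)) {I.kIw j}).trans ?_
  gcongr
  · exact (tsum_range t (kI_inj I j)).le
  · exact (tsum_singleton (I.kIw j) t).le

variable (hz : ZOk I Zd) {D' : E3 → E3 →L[ℝ] E3} {p : ℝ} {lam m μ : I.mf.κ → ℝ≥0∞} {a : E3}
  {w : X → E3}

theorem Bk_kI (j : X) (c : Mfi_290.Pt (I.M.Q j) ⊕ ℕ) :
    Bk (zin I Zd hz).mf D' p lam m a w (I.kI j c) = (I.qI j).EnC (Gd' D') p c (a + w j) := by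
  have h1 : Bk (zin I Zd hz).mf D' p lam m a w (I.kI j c) =
      (zin I Zd hz).mf.EnC (Gd' D') p (I.kI j c) (a + w j) := rfl
  rw [h1]
  refine ((zin I Zd hz).mf_EnC (Gd' D') p (I.kI j c) (a + w j)).trans ?_
  exact I.EnC_kI (Gd' D') p (a + w j) j c

theorem Bk_kIw (j : X) :
    Bk (zin I Zd hz).mf D' p lam m a w (I.kIw j) = lam (I.kIw j) * m (I.kIw j) := rfl

/-- **the sum over the classes of one block** -/
theorem blk_le (c : I.mf.κ → ℝ≥0∞) (j : X) {B : ℝ≥0∞}
    (hB : ∑' c', c (I.kI j c') * (I.qI j).EnC (Gd' D') p c' (a + w j) ≤ B) :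
    ∑' k : Sb I j, c k.1 * Bk (zin I Zd hz).mf D' p lam m a w k.1 ≤
      B + c (I.kIw j) * (lam (I.kIw j) * m (I.kIw j)) := by
  refine (sum_Sb I (fun k => c k * Bk (zin I Zd hz).mf D' p lam m a w k) j).trans ?_
  refine add_le_add (le_trans (le_of_eq (tsum_congr fun c' => ?_)) hB) le_rfl
  rw [Bk_kI]

/-- **the sum over all classes** -/
theorem tot_le (c : I.mf.κ → ℝ≥0∞)
    (hμ : ∀ k, I.mf.bl k = none → k ≠ I.kO → m k ≤ μ k) {ε : ℝ≥0∞}
    (hε : ∑' k, c k * (lam k * μ k) ≤ ε) {B : X → ℝ≥0∞}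
    (hB : ∀ j, ∑' c', c (I.kI j c') * (I.qI j).EnC (Gd' D') p c' (a + w j) ≤ B j) :
    ∑' k, c k * Bk (zin I Zd hz).mf D' p lam m a w k ≤
      c I.kO * (lam I.kO * m I.kO) + ε + ∑' j, B j := by
  refine Eds_746.sum_Bk (zin I Zd hz).mf I.kO rfl c hμ hε fun j => ?_
  refine (sum_bl I (fun k => c k * (zin I Zd hz).mf.EnC (Gd' D') p k (a + w j)) j).trans
    (le_trans (le_of_eq (tsum_congr fun c' => ?_)) (hB j))
  exact congrArg (c (I.kI j c') * ·) (Bk_kI (lam := lam) (m := m) hz j c')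

end

end Crest.Agent.R096.Pgn_112
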