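import Crest.Agent.R096.Pgn4_112

/-!
# Row 96 (S0127), helper112.  The X-generic end theorem `pre_gen`, part 5: the tiles of the blocks in the
patched mesh (`Qb`), and the selection theorem `sel`.
-/

set_option autoImplicit false
set_option linter.style.longLine false

open MeasureTheory Set Filter Metric
open scoped Topology ENNReal

namespace Crest.Agent.R096.Pgn_112

open Crest.Agent.R096.Msh_715 Crest.Agent.R096.Msh_810 Crest.Agent.R096.Cut_874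
  Crest.Agent.R096.Mal_874
open Crest.Agent.R096.SkC1_961 (E3 Cfg FoamD Hom3)
open Crest.Agent.R096.Bsp_628 Crest.Agent.R096.Brk5_582
open Crest.Agent.R096.Ls_222 (Edg ea ev eIn mem_eIn Cl)
open Crest.Agent.R096.Der_764 (OmH)
open Crest.Agent.R096.Mbf_337
open Crest.Agent.R096.Tms_582
open Crest.Agent.R096.Er_594 (SH3)
open Crest.Agent.R096.Mfa_880
open Crest.Agent.R096.Wd_120 (CoreAt)
open Crest.Agent.R96.Pm_199
open Crest.Agent.R96.Sob4_199 (VWD)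
open Crest.Agent.R96.En10_199 (P3)
open Crest.Agent.R96.EaCore_348 (EE bt)
open Crest.Agent.R96.Eam_466 (TLAt FineX InB mix_tmesh locF_of_tl)
open Crest.Agent.R96.Zpatch_348 (ZIn lv)
open Crest.Agent.R096.Pmc_112 (Mok Gd' Bk Kl PreOut premach EE_leQ ent_le_Bk)

noncomputable section

variable {δ κ0 Rc c0 : ℝ} {La : Set E3} {Φ : FoamD δ κ0 Rc c0 La} {X : Set Φ.F}
  {I : Ins Φ.F X} {Zd : ZD Φ.F X}

/-- the block `j` misses the zones -/
theorem blk_zone (hz : ZOk I Zd) {v : X → E3} (hv : I.M.Adm v) (j : X) (c : {c // c ∉ X}) {y : E3}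
    (hy : y ∈ (I.M.Bk v j).N) : y ∉ closedBall (Zd.x c) (2 * Zd.R c) := fun h =>
  Set.disjoint_left.1 (hz.dis c j) h (mem_V_of_N I.M hz.φ hv j hy)

/-- a tile of the block `j` is not replaced -/
theorem not_Ar_in (hz : ZOk I Zd) {a : E3} {w : X → E3} (h : I.mf.Ok a w) {j : X}
    (i : I.M.IIx I.hk (I.M.φ a) (Ins.adm h) j) :
    (Sum.inr ⟨j, i⟩ : (I.mf.md a w h).ι) ∉ Ar (I.mf.md a w h).T (zin I Zd hz).k
      (fun c => (zin I Zd hz).wz c a) (zin I Zd hz).Zc := by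
  intro hA
  obtain ⟨c, hc⟩ := Crest.Agent.R96.Eam_466.Ar_sub ((zin I Zd hz).Z a w h) (zin I Zd hz).F hA
  obtain ⟨y, hy⟩ := (I.mf.md a w h).T.ne (Sum.inr ⟨j, i⟩)
  have h1 := hc (I_sub_P _ hy)
  have h2 : y ∈ (I.M.Bk (fun j => a + w j) j).N := i.2 (I_sub_P _ hy)
  refine blk_zone hz (Ins.adm h) j c h2 (ball_subset_closedBall (ball_subset_ball ?_ h1))
  have := ((zin I Zd hz).Z a w h).R0 c
  show Zd.R c / 2 ≤ 2 * Zd.R c
  change 0 < Zd.R c at this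
  linarith

/-- **the tiles of the block `j`** in the patched mesh, except the core -/
def Qb (hz : ZOk I Zd) {a : E3} {w : X → E3} (h : I.mf.Ok a w) (j : X) :
    Set ((zin I Zd hz).Ix h) :=
  {i | ∃ i' : I.M.IIx I.hk (I.M.φ a) (Ins.adm h) j, i' ≠ I.M.core I.hk (I.M.φ a) (Ins.adm h) j ∧
    i = Sum.inl ⟨Sum.inr ⟨j, i'⟩, not_Ar_in hz h i'⟩}

variable (hz : ZOk I Zd) {a : E3} {w : X → E3} (h : I.mf.Ok a w)

theorem Qb_disj {j j' : X} (hj : j ≠ j') : Disjoint (Qb hz h j) (Qb hz h j') := by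
  rw [Set.disjoint_left]
  rintro i ⟨i1, -, rfl⟩ ⟨i2, -, h2⟩
  have h3 := Sum.inr_injective (congrArg Subtype.val (Sum.inl_injective h2))
  exact hj (Sigma.mk.inj h3).1

/-- the tiles of the block lie in the block -/
theorem Qb_sub {j : X} {i : (zin I Zd hz).Ix h} (hi : i ∈ Qb hz h j) :
    P (((zin I Zd hz).dec h).T.H i) ⊆ ((I.M.Q j).tr (a + w j)).N := by
  obtain ⟨i1, -, rfl⟩ := hi
  exact i1.2

/-- the tiles of the block cover the block without the core -/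
theorem Qb_cov {j : X} {x : E3} (hx : x ∈ ((I.M.Q j).tr (a + w j)).N)
    (hk : x ∉ ((I.M.Q j).tr (a + w j)).Kc) :
    ∃ i ∈ Qb hz h j, x ∈ P (((zin I Zd hz).dec h).T.H i) := by
  obtain ⟨i, hi⟩ := exists_inner I.M I.hk (I.M.φ a) (Ins.adm h) j hx
  refine ⟨_, ⟨i, ?_, rfl⟩, hi⟩
  rintro rfl
  apply hk
  rw [I.M.P_core I.hk (I.M.φ a) (Ins.adm h) j] at hi
  exact hi

/-- the tiles of the block are ordinary -/
theorem Qb_ord {j : X} {i : (zin I Zd hz).Ix h} (hi : i ∈ Qb hz h j) :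
    ((zin I Zd hz).dec h).Ord i := by
  obtain ⟨i1, h1, rfl⟩ := hi
  intro c hc
  by_cases hcX : c ∈ X
  · have hc1 : (Sum.inl ⟨Sum.inr ⟨j, i1⟩, not_Ar_in hz h i1⟩ : (zin I Zd hz).Ix h) =
        (zin I Zd hz).ct h c := by
      rw [(zin I Zd hz).dec_V_of h hcX] at hc
      exact hc
    rw [(zin I Zd hz).ct_of h hcX] at hc1
    have h2 := congrArg Subtype.val (Sum.inl_injective hc1)
    have h3 : (Sum.inr ⟨j, i1⟩ : (I.mf.md a w h).ι) = (I.mf.md a w h).ct c := h2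
    rw [I.mf_ct h hcX] at h3
    obtain ⟨rfl, h4⟩ := Sigma.mk.inj_iff.1 (Sum.inr_injective h3)
    exact h1 (eq_of_heq h4)
  · rw [(zin I Zd hz).dec_V_not h hcX] at hc
    obtain ⟨y, hy1, hy2⟩ := hc
    refine blk_zone hz (Ins.adm h) j ⟨c, hcX⟩ (i1.2 hy1) (closedBall_subset_closedBall ?_ hy2)
    have := ((zin I Zd hz).Z a w h).R0 ⟨c, hcX⟩
    show Zd.R ⟨c, hcX⟩ / 2 ≤ 2 * Zd.R ⟨c, hcX⟩
    change 0 < Zd.R ⟨c, hcX⟩ at this
    linarith

/-- the tiles of the block miss the macro balls -/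
theorem Qb_off {j : X} {i : (zin I Zd hz).Ix h} (hi : i ∈ Qb hz h j) {x : E3}
    (hx : x ∈ P (((zin I Zd hz).dec h).T.H i)) (c : {c // c ∉ X}) :
    x ∉ closedBall (Zd.x c) (2 * Zd.R c) :=
  blk_zone hz (Ins.adm h) j c (Qb_sub hz h hi hx)

/-- the classes of the tiles of the block -/
theorem Qb_cl {j : X} {i : (zin I Zd hz).Ix h} (hi : i ∈ Qb hz h j) :
    (zin I Zd hz).mf.cl ((zin I Zd hz).mf.pot a w h i) ∈ Sb I j := by
  obtain ⟨i1, h1, rfl⟩ := hi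
  have h2 := I.cl_inner h h1
  have h3 : (zin I Zd hz).mf.cl ((zin I Zd hz).mf.pot a w h
      (Sum.inl ⟨Sum.inr ⟨j, i1⟩, not_Ar_in hz h i1⟩)) =
      I.mf.cl (I.mf.pot a w h (Sum.inr ⟨j, i1⟩)) := rfl
  rw [h3]
  rcases h2 with ⟨c, hc⟩ | hc
  · exact Or.inl ⟨c, hc.symm⟩
  · exact Or.inr hc

end

end Crest.Agent.R096.Pgn_112
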