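import Crest.Agent.R096.Pgn6_112

/-!
# Row 96 (S0127), helper112.  The X-generic end theorem, part 7: `pre_gen`
-/

set_option autoImplicit false
set_option linter.style.longLine false

open MeasureTheory Set Filter Metric
open scoped Topology ENNReal

namespace Crest.Agent.R096.Pgn_112

open Crest.Agent.R096.Msh_715 Crest.Agent.R096.Msh_810 Crest.Agent.R096.Cut_874
  Crest.Agent.R096.Mal_874
open Crest.Agent.R096.SkC1_961 (E3 Cfg FoamD Hom3)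
open Crest.Agent.R096.Bsp_628 Crest.Agent.R096.Brk5_582
open Crest.Agent.R096.Ls_222 (Edg ea ev eIn mem_eIn Cl)
open Crest.Agent.R096.Der_764 (OmH)
open Crest.Agent.R096.Mbf_337
open Crest.Agent.R096.Tms_582
open Crest.Agent.R096.Er_594 (SH3)
open Crest.Agent.R096.Mfa_880
open Crest.Agent.R096.Wd_120 (CoreAt)
open Crest.Agent.R096.Fns_360 (trA)
open Crest.Agent.R96.Pm_199
open Crest.Agent.R96.Sob4_199 (VWD)
open Crest.Agent.R96.En10_199 (P3)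
open Crest.Agent.R96.EaCore_348 (EE bt)
open Crest.Agent.R96.EaPost_348 (Geo)
open Crest.Agent.R96.Eam_466 (TLAt FineX InB mix_tmesh locF_of_tl)
open Crest.Agent.R96.Zpatch_348 (ZIn lv)
open Crest.Agent.R096.Pmc_112 (Mok Gd' Bk Kl lP PreOut premach EE_le EE_leQ ent_le_Bk)

noncomputable section

variable {δ κ0 Rc c0 : ℝ} {La : Set E3} {Φ : FoamD δ κ0 Rc c0 La} {f : E3 → E3}
  {D' : E3 → E3 →L[ℝ] E3} {p κp κ1 κ2 : ℝ} {X : Set Φ.F} {A : Φ.F → E3 ≃ᵃ[ℝ] E3}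
  {lam : Φ.F → ℝ} {z : Φ.F → E3} {Mc : Φ.F → ℕ} {M : MD E3 3 X} {D : RD M} {k0 : X → ℕ}
  {hk0 : ∀ j, (M.Q j).kc ≤ k0 j} {κr : X → ℕ} {Bx Gd : X → Set E3}
  {wt : ∀ j : X, Mfi_290.Pt (M.Q j) ⊕ ℕ → ℝ≥0∞} {B : X → ℝ≥0∞} {Zd : ZD Φ.F X}

open Classical in
/-- the decoration of the cores for the shifts `a, w` -/
def dco (A : Φ.F → E3 ≃ᵃ[ℝ] E3) (lam : Φ.F → ℝ) (z : Φ.F → E3) (Mc : Φ.F → ℕ) (a : E3)
    (w : X → E3) : Deco Φ.F where
  A c := if h : c ∈ X then trA (A c) (a + w ⟨c, h⟩) else A c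
  lam := lam
  z := z
  θ _ y := y
  φ _ _ := 0
  M := Mc

theorem cX_of (Φ : FoamD δ κ0 Rc c0 La) (X : Set Φ.F) : Countable X := by
  have : Countable Φ.F := Φ.bf.countable.to_subtype
  infer_instance

/-- the record `Pri` -/
def mkP (G : GenIn Φ f D' p κp κ1 κ2 X A lam z Mc M D k0 hk0 κr Bx Gd wt B Zd)
    (hn : (M.φ ⁻¹' M.D0.Om).Nonempty) (κ : X → ℕ) (hκ : ∀ j, κr j ≤ κ j) (W : X → Set E3)
    (Wf : ∀ j, (W j).Finite) (hW : ∀ j, ∀ w ∈ W j, w ∈ Crest.Agent.R96.Gj_872.Dy M.φ (κ j)) :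
    Pri Φ.F X where
  M := M
  D := D
  W := W
  Wf := Wf
  k0 := k0
  hk0 := hk0
  κw := κ
  h0 j m := by
    obtain ⟨c, hc⟩ := Crest.Agent.R96.Gj_872.int_mul_pow (hκ j)
      (x := (D.d j : ℝ) * (M.Q j).a' m) (by
        obtain ⟨c, hc⟩ := G.h0 j m
        exact ⟨c, by rw [← hc]; ring⟩)
    exact ⟨c, by rw [← hc]; ring⟩
  hW j w hw l := hW j w hw l
  Bx := Bx
  hBx := G.Bxs
  r := 1
  A := closedBall 0 1
  Am := measurableSet_closedBall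
  A0 := (measure_closedBall_pos volume (0 : E3) one_pos).ne'
  A1 := measure_closedBall_lt_top.ne
  hAr a ha := by simpa using ha
  cX := cX_of Φ X
  hOm := hn
  deco := dco A lam z Mc

section

variable (G : GenIn Φ f D' p κp κ1 κ2 X A lam z Mc M D k0 hk0 κr Bx Gd wt B Zd)
  {hn : (M.φ ⁻¹' M.D0.Om).Nonempty} {κ : X → ℕ} {hκ : ∀ j, κr j ≤ κ j} {W : X → Set E3}
  {Wf : ∀ j, (W j).Finite} {hW : ∀ j, ∀ w ∈ W j, w ∈ Crest.Agent.R96.Gj_872.Dy M.φ (κ j)}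
  {k : X → ℕ} (h : (mkP G hn κ hκ W Wf hW).Sc k)

/-- the zones -/
theorem zok (hZ : ∀ (a : E3) (v : X → E3) (hv : M.Adm v), Zones (M.mesh h.sc a hv) Zd.x Zd.R Zd.k
    (fun c => Zlt_798.wz a (Zd.k c))) : ZOk ((mkP G hn κ hκ W Wf hW).ins h) Zd where
  cF := by
    have : Countable Φ.F := Φ.bf.countable.to_subtype
    infer_instance
  φ := G.φ
  LF := G.LF
  Z a v hv := by
    have key : ∀ b : Fin 3 → ℝ, b = a → Zones (M.mesh h.sc b hv) Zd.x Zd.R Zd.k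
        (fun c => Zlt_798.wz a (Zd.k c)) := by
      rintro b rfl
      exact hZ b v hv
    exact key (M.φ a) (by rw [G.φ]; rfl)
  dis := G.dis

/-- (B1) for the instance -/
theorem b1_ins {a : E3} {w : X → E3} (hw : ((mkP G hn κ hκ W Wf hW).ins h).mf.Ok a w)
    (hG : ∀ j, a + w j ∈ Gd j) :
    (∀ c ∈ X, Exact Φ (((mkP G hn κ hκ W Wf hW).ins h).mf.md a w hw).T f κ1 κ2 c
      ((((mkP G hn κ hκ W Wf hW).ins h).mf.md a w hw).ct c)
      ((((mkP G hn κ hκ W Wf hW).ins h).mf.md a w hw).A c)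
      ((((mkP G hn κ hκ W Wf hW).ins h).mf.md a w hw).lam c)
      ((((mkP G hn κ hκ W Wf hW).ins h).mf.md a w hw).z c)) ∧
    FineX Φ (((mkP G hn κ hκ W Wf hW).ins h).mf.md a w hw).T f κ1 X
      (((mkP G hn κ hκ W Wf hW).ins h).mf.md a w hw).ct Zd.x Zd.R := by
  set I := (mkP G hn κ hκ W Wf hW).ins h with hI
  constructor
  · intro c hc
    have h1 := G.ex k h.sc (M.φ a) (fun j => a + w j) (Ins.adm hw) hG ⟨c, hc⟩
    rw [I.mf_ct hw hc]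
    have eA : (I.mf.md a w hw).A c = trA (A c) (a + w ⟨c, hc⟩) := dif_pos hc
    rw [eA]
    exact h1
  · exact G.fine k h.sc (M.φ a) (fun j => a + w j) (Ins.adm hw) hG (I.mf.md a w hw).ct
      (fun c => I.mf_ct hw c.2)

/-- (B2) for the instance -/
theorem b2_ins (hz : ZOk ((mkP G hn κ hκ W Wf hW).ins h) Zd) {a : E3} {w : X → E3}
    (hw : ((mkP G hn κ hκ W Wf hW).ins h).mf.Ok a w) (hG : ∀ j, a + w j ∈ Gd j)
    (hC : Cores Φ ((zin _ Zd hz).dec hw).T f κ1 κ2 X ((zin _ Zd hz).dec hw).J0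
        ((zin _ Zd hz).dec hw).J ((zin _ Zd hz).dec hw).V ((zin _ Zd hz).dec hw).ct
        ((zin _ Zd hz).dec hw).A ((zin _ Zd hz).dec hw).lam ((zin _ Zd hz).dec hw).z
        ((zin _ Zd hz).dec hw).θ ((zin _ Zd hz).dec hw).φ) :
    WordsOk Φ f κp (κp / 64) X ((zin _ Zd hz).dec hw) :=
  G.words (fun j => a + w j) hG ((zin _ Zd hz).dec hw) hC fun c =>
    ⟨rfl, rfl, dif_pos c.2, rfl, coreAt_zin hz hw c.2⟩

end

/-! ### functions on the classes -/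

/-- functions on the classes -/
def Cfun {F : Type} {X : Set F} {α : Type*} (I : Pri F X) (a0 a1 : α) (a2 : X → α)
    (a3 : (j : X) → Mfi_290.Pt (I.M.Q j) ⊕ ℕ → α) (a4 : X → α) : I.κ → α
  | none => a0
  | some (Sum.inl (Sum.inl _)) => a1
  | some (Sum.inl (Sum.inr j)) => a2 j
  | some (Sum.inr (Sum.inl ⟨j, c⟩)) => a3 j c
  | some (Sum.inr (Sum.inr ⟨j, _⟩)) => a4 j

theorem exists_bd (C : Set (Set E3) → ℝ) {S : Set (Set (Set E3))} (hS : S.Finite) :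
    ∃ b : ℝ, ∀ 𝒦 ∈ S, C 𝒦 ≤ b := by
  obtain ⟨b, hb⟩ := (hS.image C).bddAbove
  exact ⟨b, fun 𝒦 h => hb (mem_image_of_mem C h)⟩

end

end Crest.Agent.R096.Pgn_112
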