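import Crest.Agent.R096.PlMark_296

/-!
# The double cone and the cube (helper458, row 96, P2-CAN)

`N1 p = ‖p.1‖ + |p.2|` on `F × ℝ`.  For every space built from `ℝ` by products (sup norm) there is
an explicit PL homeomorphism `Φ` of `F × ℝ` with `‖Φ p‖ = N1 p`; so the double cone sphere is
PL equivalent (by a homeomorphism of the space) to the boundary of the cube.
-/

namespace Crest.Agent.R096.Pl

open Set Metric

set_option linter.unusedSectionVars false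

/-- clamp -/
noncomputable def cl (c t : ℝ) : ℝ := max (-c) (min c t)

theorem cl_of_abs_le {c t : ℝ} (h : |t| ≤ c) : cl c t = t := by
  obtain ⟨h1, h2⟩ := abs_le.1 h
  unfold cl
  rw [min_eq_right h2, max_eq_right h1]

theorem cl_of_le {c t : ℝ} (hc : 0 ≤ c) (h : c ≤ t) : cl c t = c := by
  unfold cl
  rw [min_eq_left h, max_eq_right (by linarith)]

theorem cl_of_le_neg {c t : ℝ} (hc : 0 ≤ c) (h : t ≤ -c) : cl c t = -c := by
  unfold cl
  rw [min_eq_right (by linarith), max_eq_left h]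

/-- the three cases -/
theorem cl_cases {c : ℝ} (hc : 0 ≤ c) (t : ℝ) :
    (|t| ≤ c ∧ cl c t = t) ∨ (c ≤ t ∧ cl c t = c) ∨ (t ≤ -c ∧ cl c t = -c) := by
  rcases le_total |t| c with h | h
  · exact Or.inl ⟨h, cl_of_abs_le h⟩
  · rcases le_abs.1 h with h | h
    · exact Or.inr (Or.inl ⟨h, cl_of_le hc h⟩)
    · exact Or.inr (Or.inr ⟨by linarith, cl_of_le_neg hc (by linarith)⟩)

/-- a family of PL clamps on a normed space -/
structure KOp (F : Type*) [NormedAddCommGroup F] [NormedSpace ℝ F] where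
  K : F → ℝ → F
  pl : PLMap (fun p : F × ℝ => K p.1 p.2)
  k1 : ∀ x c, ‖x‖ ≤ c → K x c = x
  k2 : ∀ x c, 0 ≤ c → ‖x + K x c‖ = ‖x‖ + min c ‖x‖
  k3 : ∀ x c, 0 ≤ c → (x + K x c) - (1 / 2 : ℝ) • K (x + K x c) (2 * c) = x
  k4 : ∀ y c, 0 ≤ c →
    (y - (1 / 2 : ℝ) • K y c) + K (y - (1 / 2 : ℝ) • K y c) (c / 2) = y
  k5 : ∀ y c, 0 ≤ c → ‖y - (1 / 2 : ℝ) • K y c‖ = ‖y‖ - min c ‖y‖ / 2

theorem cl_k3 {c : ℝ} (hc : 0 ≤ c) (x : ℝ) :
    (x + cl c x) - (1 / 2 : ℝ) * cl (2 * c) (x + cl c x) = x := by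
  rcases cl_cases hc x with ⟨h, h'⟩ | ⟨h, h'⟩ | ⟨h, h'⟩
  · rw [h', cl_of_abs_le (by rw [← two_mul, abs_mul]; norm_num; exact h)]; ring
  · rw [h', cl_of_le (by linarith) (by linarith)]; ring
  · rw [h', cl_of_le_neg (by linarith) (by linarith)]; ring

theorem cl_k4 {c : ℝ} (hc : 0 ≤ c) (y : ℝ) :
    (y - (1 / 2 : ℝ) * cl c y) + cl (c / 2) (y - (1 / 2 : ℝ) * cl c y) = y := by
  rcases cl_cases hc y with ⟨h, h'⟩ | ⟨h, h'⟩ | ⟨h, h'⟩
  · have : y - 1 / 2 * y = y / 2 := by ring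
    rw [h', this, cl_of_abs_le (by rw [abs_div]; norm_num; linarith)]; ring
  · rw [h', cl_of_le (by linarith) (by linarith)]; ring
  · rw [h', cl_of_le_neg (by linarith) (by linarith)]; ring

theorem cl_k2 {c : ℝ} (hc : 0 ≤ c) (x : ℝ) : |x + cl c x| = |x| + min c |x| := by
  rcases cl_cases hc x with ⟨h, h'⟩ | ⟨h, h'⟩ | ⟨h, h'⟩
  · rw [h', min_eq_right h, ← two_mul, abs_mul]; norm_num; ring
  · have h0 : 0 ≤ x := by linarith
    rw [h', abs_of_nonneg h0, min_eq_left h, abs_of_nonneg (by linarith)]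
  · have h0 : x ≤ 0 := by linarith
    rw [h', abs_of_nonpos h0, min_eq_left (by linarith), abs_of_nonpos (by linarith)]; ring

theorem cl_k5 {c : ℝ} (hc : 0 ≤ c) (y : ℝ) :
    |y - (1 / 2 : ℝ) * cl c y| = |y| - min c |y| / 2 := by
  rcases cl_cases hc y with ⟨h, h'⟩ | ⟨h, h'⟩ | ⟨h, h'⟩
  · have : y - 1 / 2 * y = y / 2 := by ring
    rw [h', min_eq_right h, this, abs_div]; norm_num; ring
  · have h0 : 0 ≤ y := by linarith
    rw [h', abs_of_nonneg h0, min_eq_left h, abs_of_nonneg (by linarith)]; ring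
  · have h0 : y ≤ 0 := by linarith
    rw [h', abs_of_nonpos h0, min_eq_left (by linarith), abs_of_nonpos (by linarith)]; ring

/-- the line -/
noncomputable def KOp.real : KOp ℝ where
  K x c := cl c x
  pl := PLMap.id.snd.neg.max (PLMap.id.snd.min PLMap.id.fst)
  k1 x c h := cl_of_abs_le (by simpa using h)
  k2 x c hc := by simpa only [Real.norm_eq_abs] using cl_k2 hc x
  k3 x c hc := by simpa only [smul_eq_mul] using cl_k3 hc x
  k4 y c hc := by simpa only [smul_eq_mul] using cl_k4 hc y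
  k5 y c hc := by simpa only [Real.norm_eq_abs, smul_eq_mul] using cl_k5 hc y

/-- products -/
noncomputable def KOp.prod {F G : Type*} [NormedAddCommGroup F] [NormedSpace ℝ F]
    [NormedAddCommGroup G] [NormedSpace ℝ G] (k : KOp F) (l : KOp G) : KOp (F × G) where
  K x c := (k.K x.1 c, l.K x.2 c)
  pl := (k.pl.comp (PLMap.id.fst.fst.prodMk PLMap.id.snd)).prodMk
    (l.pl.comp (PLMap.id.fst.snd.prodMk PLMap.id.snd))
  k1 x c h := by
    have h' := norm_prod_le_iff.1 h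
    rw [k.k1 _ _ h'.1, l.k1 _ _ h'.2]
  k2 x c hc := by
    rw [Prod.norm_def, Prod.norm_def]
    simp only [Prod.fst_add, Prod.snd_add]
    rw [k.k2 _ _ hc, l.k2 _ _ hc]
    rcases le_total ‖x.1‖ ‖x.2‖ with h | h
    · rw [max_eq_right h, max_eq_right (add_le_add h (min_le_min le_rfl h))]
    · rw [max_eq_left h, max_eq_left (add_le_add h (min_le_min le_rfl h))]
  k3 x c hc := by
    ext
    · simpa using k.k3 x.1 c hc
    · simpa using l.k3 x.2 c hc
  k4 y c hc := by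
    ext
    · simpa using k.k4 y.1 c hc
    · simpa using l.k4 y.2 c hc
  k5 y c hc := by
    rw [Prod.norm_def, Prod.norm_def]
    simp only [Prod.fst_sub, Prod.snd_sub, Prod.smul_fst, Prod.smul_snd]
    rw [k.k5 _ _ hc, l.k5 _ _ hc]
    have hmono : ∀ s t : ℝ, s ≤ t → s - min c s / 2 ≤ t - min c t / 2 := by
      intro s t h
      rcases le_total c s with h1 | h1 <;> rcases le_total c t with h2 | h2 <;>
        simp only [min_eq_left h1, min_eq_right h1, min_eq_left h2, min_eq_right h2] <;> linarith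
    rcases le_total ‖y.1‖ ‖y.2‖ with h | h
    · rw [max_eq_right h, max_eq_right (hmono _ _ h)]
    · rw [max_eq_left h, max_eq_left (hmono _ _ h)]

variable {F : Type*} [NormedAddCommGroup F] [NormedSpace ℝ F]

/-- the map from the double cone to the cube -/
noncomputable def phiUp (k : KOp F) (p : F × ℝ) : F × ℝ :=
  (p.1 + k.K p.1 |p.2|, p.2 + cl ‖p.1‖ p.2)

/-- its inverse -/
noncomputable def phiDn (k : KOp F) (p : F × ℝ) : F × ℝ :=
  (p.1 - (1 / 2 : ℝ) • k.K p.1 |p.2|, p.2 - (1 / 2 : ℝ) * cl ‖p.1‖ p.2)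

theorem phiUp_pl (k : KOp F) (hN : PLMap (fun x : F => ‖x‖)) : PLMap (phiUp k) := by
  have hn : PLMap (fun p : F × ℝ => ‖p.1‖) := hN.comp PLMap.id.fst
  refine (PLMap.id.fst.add (k.pl.comp (PLMap.id.fst.prodMk PLMap.id.snd.abs))).prodMk
    (PLMap.id.snd.add ?_)
  exact hn.neg.max (hn.min PLMap.id.snd)

theorem phiDn_pl (k : KOp F) (hN : PLMap (fun x : F => ‖x‖)) : PLMap (phiDn k) := by
  have hn : PLMap (fun p : F × ℝ => ‖p.1‖) := hN.comp PLMap.id.fst
  refine (PLMap.id.fst.sub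
    ((k.pl.comp (PLMap.id.fst.prodMk PLMap.id.snd.abs)).const_smul _)).prodMk
    (PLMap.id.snd.sub (PLMap.const_mul _ ?_))
  exact hn.neg.max (hn.min PLMap.id.snd)

theorem phiDn_phiUp (k : KOp F) (p : F × ℝ) : phiDn k (phiUp k p) = p := by
  obtain ⟨x, z⟩ := p
  simp only [phiUp, phiDn]
  have hz : 0 ≤ |z| := abs_nonneg z
  have hx : 0 ≤ ‖x‖ := norm_nonneg x
  rcases le_total |z| ‖x‖ with h | h
  · have hw : cl ‖x‖ z = z := cl_of_abs_le h
    have hwa : |z + z| = 2 * |z| := by rw [← two_mul, abs_mul]; norm_num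
    have hy : ‖x + k.K x |z|‖ = ‖x‖ + |z| := by rw [k.k2 _ _ hz, min_eq_left h]
    rw [hw, hwa, hy, k.k3 x _ hz, cl_of_abs_le (by rw [hwa]; linarith)]
    ext
    · rfl
    · show z + z - 1 / 2 * (z + z) = z
      ring
  · have hK : k.K x |z| = x := k.k1 _ _ h
    have hy : ‖x + x‖ = 2 * ‖x‖ := by rw [← two_smul ℝ x, norm_smul]; norm_num
    have hwa : |z + cl ‖x‖ z| = |z| + ‖x‖ := by rw [cl_k2 hx, min_eq_left h]
    rw [hK, hy, hwa, k.k1 (x + x) _ (by rw [hy]; linarith), cl_k3 hx]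
    ext
    · show x + x - (1 / 2 : ℝ) • (x + x) = x
      module
    · rfl

theorem phiUp_phiDn (k : KOp F) (p : F × ℝ) : phiUp k (phiDn k p) = p := by
  obtain ⟨y, w⟩ := p
  simp only [phiUp, phiDn]
  have hw : 0 ≤ |w| := abs_nonneg w
  have hy : 0 ≤ ‖y‖ := norm_nonneg y
  rcases le_total |w| ‖y‖ with h | h
  · have hz : cl ‖y‖ w = w := cl_of_abs_le h
    have hz2 : w - 1 / 2 * w = w / 2 := by ring
    have hza : |w / 2| = |w| / 2 := by rw [abs_div]; norm_num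
    have hx : ‖y - (1 / 2 : ℝ) • k.K y |w|‖ = ‖y‖ - |w| / 2 := by
      rw [k.k5 _ _ hw, min_eq_left h]
    rw [hz, hz2, hza, hx, k.k4 y _ hw, cl_of_abs_le (by rw [hza]; linarith)]
    ext
    · rfl
    · show w / 2 + w / 2 = w
      ring
  · have hK : k.K y |w| = y := k.k1 _ _ h
    have hx : y - (1 / 2 : ℝ) • y = (1 / 2 : ℝ) • y := by module
    have hxn : ‖(1 / 2 : ℝ) • y‖ = ‖y‖ / 2 := by rw [norm_smul]; norm_num; ring
    have hza : |w - 1 / 2 * cl ‖y‖ w| = |w| - ‖y‖ / 2 := by rw [cl_k5 hy, min_eq_left h]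
    rw [hK, hx, hxn, hza, k.k1 ((1 / 2 : ℝ) • y) _ (by rw [hxn]; linarith), cl_k4 hy]
    ext
    · show (1 / 2 : ℝ) • y + (1 / 2 : ℝ) • y = y
      module
    · rfl

theorem norm_phiUp (k : KOp F) (p : F × ℝ) : ‖phiUp k p‖ = N1 p := by
  obtain ⟨x, z⟩ := p
  simp only [phiUp, N1]
  rw [Prod.norm_def]
  have hz : 0 ≤ |z| := abs_nonneg z
  have hx : 0 ≤ ‖x‖ := norm_nonneg x
  simp only [Real.norm_eq_abs]
  rw [k.k2 _ _ hz, cl_k2 hx]
  rcases le_total |z| ‖x‖ with h | h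
  · rw [min_eq_left h, min_eq_right h, max_eq_left (by linarith)]
  · rw [min_eq_right h, min_eq_left h, max_eq_right (by linarith)]; ring

/-- **the double cone is a cube** -/
noncomputable def cubeH (k : KOp F) (hN : PLMap (fun x : F => ‖x‖)) : (F × ℝ) ≃ₜ (F × ℝ) :=
  mkH (phiUp k) (phiDn k) (phiUp_pl k hN) (phiDn_pl k hN) (phiDn_phiUp k) (phiUp_phiDn k)

theorem PLH_cubeH (k : KOp F) (hN : PLMap (fun x : F => ‖x‖)) : PLH (cubeH k hN) :=
  PLH_mkH _ _ _ _ _ _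

theorem norm_cubeH (k : KOp F) (hN : PLMap (fun x : F => ‖x‖)) (p : F × ℝ) :
    ‖cubeH k hN p‖ = N1 p := norm_phiUp k p

theorem cubeH_image (k : KOp F) (hN : PLMap (fun x : F => ‖x‖)) (T : Set ℝ) :
    cubeH k hN '' {p | N1 p ∈ T} = {q | ‖q‖ ∈ T} := by
  ext q
  constructor
  · rintro ⟨p, hp, rfl⟩
    show ‖cubeH k hN p‖ ∈ T
    rw [norm_cubeH]; exact hp
  · intro hq
    refine ⟨(cubeH k hN).symm q, ?_, (cubeH k hN).apply_symm_apply q⟩
    show N1 ((cubeH k hN).symm q) ∈ T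
    rw [← norm_cubeH k hN, (cubeH k hN).apply_symm_apply]; exact hq

theorem cubeH_S1 (k : KOp F) (hN : PLMap (fun x : F => ‖x‖)) :
    cubeH k hN '' S1 F = sphere 0 1 := by
  have := cubeH_image k hN {1}
  ext q
  rw [mem_sphere_zero_iff_norm]
  exact Set.ext_iff.1 this q

theorem cubeH_closed (k : KOp F) (hN : PLMap (fun x : F => ‖x‖)) :
    cubeH k hN '' {p | N1 p ≤ 1} = closedBall 0 1 := by
  have := cubeH_image k hN (Iic 1)
  ext q
  rw [mem_closedBall_zero_iff]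
  exact Set.ext_iff.1 this q

theorem cubeH_open (k : KOp F) (hN : PLMap (fun x : F => ‖x‖)) :
    cubeH k hN '' U1 F = ball 0 1 := by
  have := cubeH_image k hN (Iio 1)
  ext q
  rw [mem_ball_zero_iff]
  exact Set.ext_iff.1 this q

/-- `StdC` with the boundary of the cube as model -/
theorem stdC_iff_sphere (k : KOp F) (hN : PLMap (fun x : F => ‖x‖)) {S : Set (F × ℝ)} :
    StdC S ↔ ∃ H : (F × ℝ) ≃ₜ (F × ℝ), PLH H ∧ H '' sphere (0 : F × ℝ) 1 = S := by
  constructor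
  · rintro ⟨H, hH, rfl⟩
    refine ⟨(cubeH k hN).symm.trans H, (PLH_cubeH k hN).symm.trans hH, ?_⟩
    rw [trans_image, ← cubeH_S1 k hN, symm_image_image']
  · rintro ⟨H, hH, rfl⟩
    refine ⟨(cubeH k hN).trans H, (PLH_cubeH k hN).trans hH, ?_⟩
    rw [trans_image, cubeH_S1 k hN]

end Crest.Agent.R096.Pl
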