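import Crest.Agent.R096.PlDefs_296

/-!
# Cells: V-polytopes on which PL maps are affine (helper296, row 96, P2-Y)
-/

namespace Crest.Agent.R096.Pl

open Set

set_option linter.unusedSectionVars false

variable {V W : Type*} [NormedAddCommGroup V] [NormedSpace ℝ V]
  [NormedAddCommGroup W] [NormedSpace ℝ W]

/-- V-polytopes: convex hulls of finite sets -/
def VP (C : Set V) : Prop := ∃ s : Set V, s.Finite ∧ C = convexHull ℝ s

theorem VP.convex {C : Set V} (h : VP C) : Convex ℝ C := by
  obtain ⟨s, -, rfl⟩ := h; exact convex_convexHull ℝ s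

theorem VP.isCompact {C : Set V} (h : VP C) : IsCompact C := by
  obtain ⟨s, hs, rfl⟩ := h; exact hs.isCompact_convexHull ℝ

theorem affine_comb (a : V →ᵃ[ℝ] ℝ) {x y : V} {s t : ℝ} (h : s + t = 1) :
    a (s • x + t • y) = s * a x + t * a y := by
  have h1 : s • x + t • y = AffineMap.lineMap x y t := by
    rw [AffineMap.lineMap_apply_module]; rw [show s = 1 - t by linarith]
  rw [h1, AffineMap.apply_lineMap, AffineMap.lineMap_apply_module, smul_eq_mul, smul_eq_mul,
    show s = 1 - t by linarith]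

/-- the point of the segment `[y,z]` where `a = 0` -/
noncomputable def cross (a : V →ᵃ[ℝ] ℝ) (y z : V) : V :=
  (a y / (a y - a z)) • z + (-a z / (a y - a z)) • y

theorem cross_mem_left {a : V →ᵃ[ℝ] ℝ} {K : Set V} (hK : Convex ℝ K) {z : V} (hz : a z < 0) :
    Convex ℝ {y | 0 ≤ a y ∧ cross a y z ∈ K} := by
  rintro y ⟨hy, hyK⟩ y' ⟨hy', hyK'⟩ s t hs ht hst
  have e : a (s • y + t • y') = s * a y + t * a y' := affine_comb a hst
  refine ⟨by rw [e]; positivity, ?_⟩
  have hd : 0 < a y - a z := by linarith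
  have hd' : 0 < a y' - a z := by linarith
  have hD : 0 < s * (a y - a z) + t * (a y' - a z) := by
    have : s * (a y - a z) + t * (a y' - a z) = (s * a y + t * a y') - (s + t) * a z := by ring
    rw [this, hst]; have := mul_nonneg hs hy; have := mul_nonneg ht hy'; linarith
  have hD' : (s * a y + t * a y') - a z = s * (a y - a z) + t * (a y' - a z) := by
    have : s * (a y - a z) + t * (a y' - a z) = (s * a y + t * a y') - (s + t) * a z := by ring
    rw [this, hst]; ring
  have key : cross a (s • y + t • y') z =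
      (s * (a y - a z) / (s * (a y - a z) + t * (a y' - a z))) • cross a y z +
      (t * (a y' - a z) / (s * (a y - a z) + t * (a y' - a z))) • cross a y' z := by
    unfold cross
    rw [e, hD']
    match_scalars <;> field_simp
  rw [key]
  refine hK hyK hyK' (by positivity) (by positivity) ?_
  rw [← add_div, div_self hD.ne']

theorem cross_mem_right {a : V →ᵃ[ℝ] ℝ} {K : Set V} (hK : Convex ℝ K) {y : V} (hy : 0 ≤ a y) :
    Convex ℝ {z | a z < 0 ∧ cross a y z ∈ K} := by
  rintro z ⟨hz, hzK⟩ z' ⟨hz', hzK'⟩ s t hs ht hst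
  have e : a (s • z + t • z') = s * a z + t * a z' := affine_comb a hst
  have hneg : s * a z + t * a z' < 0 := by
    rcases hs.lt_or_eq with hs' | hs'
    · have := mul_neg_of_pos_of_neg hs' hz
      have := mul_nonpos_of_nonneg_of_nonpos ht hz'.le
      linarith
    · have ht1 : t = 1 := by linarith
      rw [← hs', ht1]; linarith
  refine ⟨by rw [e]; exact hneg, ?_⟩
  have hd : 0 < a y - a z := by linarith
  have hd' : 0 < a y - a z' := by linarith
  have hD' : a y - (s * a z + t * a z') = s * (a y - a z) + t * (a y - a z') := by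
    have : s * (a y - a z) + t * (a y - a z') = (s + t) * a y - (s * a z + t * a z') := by ring
    rw [this, hst]; ring
  have hD : 0 < s * (a y - a z) + t * (a y - a z') := by rw [← hD']; linarith
  have key : cross a y (s • z + t • z') =
      (s * (a y - a z) / (s * (a y - a z) + t * (a y - a z'))) • cross a y z +
      (t * (a y - a z') / (s * (a y - a z) + t * (a y - a z'))) • cross a y z' := by
    unfold cross
    rw [e, hD']
    match_scalars <;> field_simp
    ring
  rw [key]
  refine hK hzK hzK' (by positivity) (by positivity) ?_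
  rw [← add_div, div_self hD.ne']

/-- cutting a V-polytope by a half space -/
theorem VP.inter_nonneg {C : Set V} (hC : VP C) (a : V →ᵃ[ℝ] ℝ) : VP (C ∩ {x | 0 ≤ a x}) := by
  obtain ⟨s, hs, rfl⟩ := hC
  set p := {x ∈ s | 0 ≤ a x} with hp
  set q := {x ∈ s | a x < 0} with hq
  have hpf : p.Finite := hs.subset (sep_subset _ _)
  have hqf : q.Finite := hs.subset (sep_subset _ _)
  have hspq : s = p ∪ q := by
    ext x; simp only [hp, hq, mem_union, mem_ofPred_eq, ← and_or_left]
    constructor
    · intro h; exact ⟨h, le_or_gt 0 (a x)⟩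
    · exact fun h => h.1
  have hconvp : Convex ℝ {x | 0 ≤ a x} := by
    intro x hx y hy s t hs ht hst
    simp only [mem_ofPred_eq] at *
    rw [affine_comb a hst]; positivity
  have hconvn : Convex ℝ {x | a x < 0} := by
    intro x hx y hy s t hs ht hst
    simp only [mem_ofPred_eq] at *
    rw [affine_comb a hst]
    rcases hs.lt_or_eq with hs' | hs'
    · have := mul_neg_of_pos_of_neg hs' hx
      have := mul_nonpos_of_nonneg_of_nonpos ht hy.le
      linarith
    · have ht1 : t = 1 := by linarith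
      rw [← hs', ht1]; linarith
  refine ⟨p ∪ image2 (cross a) p q, hpf.union (hpf.image2 _ hqf), ?_⟩
  apply Subset.antisymm
  · rintro x ⟨hx, hx0⟩
    rcases q.eq_empty_or_nonempty with hqe | hqn
    · have : s = p := by rw [hspq, hqe, union_empty]
      rw [this] at hx
      exact convexHull_mono subset_union_left hx
    rcases p.eq_empty_or_nonempty with hpe | hpn
    · have : s = q := by rw [hspq, hpe, empty_union]
      rw [this] at hx
      have : x ∈ {x | a x < 0} := convexHull_min (fun y hy => hy.2) hconvn hx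
      exact absurd (show 0 ≤ a x from hx0) (not_le.2 (show a x < 0 from this))
    rw [hspq, convexHull_union hpn hqn] at hx
    rw [mem_convexJoin] at hx
    obtain ⟨y, hy, z, hz, hx⟩ := hx
    have hy0 : 0 ≤ a y := convexHull_min (t := {x | 0 ≤ a x}) (fun y hy => hy.2) hconvp hy
    have hz0 : a z < 0 := convexHull_min (t := {x | a x < 0}) (fun y hy => hy.2) hconvn hz
    set K := convexHull ℝ (p ∪ image2 (cross a) p q) with hK
    have hKc : Convex ℝ K := convex_convexHull ℝ _
    have hyK : y ∈ K := convexHull_mono subset_union_left hy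
    have h1 : ∀ r ∈ q, cross a y r ∈ K := by
      intro r hr
      have : convexHull ℝ p ⊆ {y | 0 ≤ a y ∧ cross a y r ∈ K} := by
        refine convexHull_min ?_ (cross_mem_left hKc hr.2)
        intro u hu
        exact ⟨hu.2, subset_convexHull ℝ _ (Or.inr (mem_image2_of_mem hu hr))⟩
      exact (this hy).2
    have h2 : cross a y z ∈ K := by
      have : convexHull ℝ q ⊆ {z | a z < 0 ∧ cross a y z ∈ K} := by
        refine convexHull_min ?_ (cross_mem_right hKc hy0)
        intro u hu
        exact ⟨hu.2, h1 u hu⟩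
      exact (this hz).2
    -- `x` is on the segment from `y` to `cross a y z`
    obtain ⟨α, β, hα, hβ, hαβ, rfl⟩ := hx
    have hx0' : 0 ≤ α * a y + β * a z := by rw [← affine_comb a hαβ]; exact hx0
    have hD : 0 < a y - a z := by linarith
    rcases hy0.eq_or_lt with hy0' | hy0'
    · have : β = 0 := by
        by_contra hne
        have : 0 < β := lt_of_le_of_ne hβ (Ne.symm hne)
        nlinarith
      subst this
      have : α = 1 := by linarith
      subst this
      simpa using hyK
    · have key : α • y + β • z = (1 - β * (a y - a z) / a y) • y +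
          (β * (a y - a z) / a y) • cross a y z := by
        unfold cross
        have hα' : α = 1 - β := by linarith
        subst hα'
        match_scalars
        · field_simp; ring
        · field_simp
      rw [key]
      refine hKc hyK h2 ?_ (by positivity) (by ring)
      rw [sub_nonneg, div_le_one hy0']
      have hα' : α = 1 - β := by linarith
      subst hα'
      nlinarith
  · refine convexHull_min ?_ ((convex_convexHull ℝ s).inter hconvp)
    rintro x (hx | ⟨y, hy, z, hz, rfl⟩)
    · exact ⟨subset_convexHull ℝ _ hx.1, hx.2⟩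
    · have hy0 := hy.2
      have hz0 := hz.2
      have hD : 0 < a y - a z := by linarith
      have hsum : a y / (a y - a z) + -a z / (a y - a z) = 1 := by field_simp; ring
      refine ⟨(convex_convexHull ℝ s) (subset_convexHull ℝ _ hz.1) (subset_convexHull ℝ _ hy.1)
        (by positivity) (div_nonneg (by linarith) hD.le) hsum, ?_⟩
      simp only [mem_ofPred_eq, cross]
      rw [affine_comb a hsum]
      have : a y / (a y - a z) * a z + -a z / (a y - a z) * a y = 0 := by field_simp; ring
      rw [this]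

theorem VP.inter_nonpos {C : Set V} (hC : VP C) (a : V →ᵃ[ℝ] ℝ) : VP (C ∩ {x | a x ≤ 0}) := by
  have := hC.inter_nonneg (-a)
  simpa using this

/-- a V-polytope is a finite union of V-polytopes on which finitely many given affine functionals
have constant sign -/
theorem VP.cells_sign {Q : Set V} (hQ : VP Q) {A : Set (V →ᵃ[ℝ] ℝ)} (hA : A.Finite) :
    ∃ 𝒞 : Set (Set V), 𝒞.Finite ∧ (∀ C ∈ 𝒞, VP C) ∧ ⋃₀ 𝒞 = Q ∧
      ∀ C ∈ 𝒞, ∀ a ∈ A, (∀ x ∈ C, 0 ≤ a x) ∨ (∀ x ∈ C, a x ≤ 0) := by
  induction A, hA using Set.Finite.induction_on with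
  | empty => exact ⟨{Q}, finite_singleton Q, by simpa using hQ, by simp, by simp⟩
  | @insert a A _ _ ih =>
    obtain ⟨𝒞, h1, h2, h3, h4⟩ := ih
    refine ⟨(fun C => C ∩ {x | 0 ≤ a x}) '' 𝒞 ∪ (fun C => C ∩ {x | a x ≤ 0}) '' 𝒞,
      (h1.image _).union (h1.image _), ?_, ?_, ?_⟩
    · rintro C (⟨D, hD, rfl⟩ | ⟨D, hD, rfl⟩)
      · exact (h2 D hD).inter_nonneg a
      · exact (h2 D hD).inter_nonpos a
    · rw [← h3]
      ext x
      simp only [mem_sUnion, mem_union, mem_image]
      constructor
      · rintro ⟨C, (⟨D, hD, rfl⟩ | ⟨D, hD, rfl⟩), hx⟩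
        · exact ⟨D, hD, hx.1⟩
        · exact ⟨D, hD, hx.1⟩
      · rintro ⟨D, hD, hx⟩
        rcases le_total 0 (a x) with h | h
        · exact ⟨_, Or.inl ⟨D, hD, rfl⟩, hx, h⟩
        · exact ⟨_, Or.inr ⟨D, hD, rfl⟩, hx, h⟩
    · rintro C (⟨D, hD, rfl⟩ | ⟨D, hD, rfl⟩) b hb
      · rcases mem_insert_iff.1 hb with rfl | hb
        · left; exact fun x hx => hx.2
        · rcases h4 D hD b hb with h | h
          · left; exact fun x hx => h x hx.1
          · right; exact fun x hx => h x hx.1
      · rcases mem_insert_iff.1 hb with rfl | hb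
        · right; exact fun x hx => hx.2
        · rcases h4 D hD b hb with h | h
          · left; exact fun x hx => h x hx.1
          · right; exact fun x hx => h x hx.1

/-! ### PL functions are affine on suitable cells -/

theorem convex_zero (a : V →ᵃ[ℝ] ℝ) : Convex ℝ {x | a x = 0} := by
  intro x hx y hy s t _ _ hst
  simp only [mem_ofPred_eq] at *
  rw [affine_comb a hst, hx, hy]; simp

theorem exists_generic {s : Set V} (hs : s.Finite) (hne : s.Nonempty) :
    ∃ x₀ ∈ convexHull ℝ s, ∀ a : V →ᵃ[ℝ] ℝ, (∀ x ∈ convexHull ℝ s, 0 ≤ a x) → a x₀ = 0 →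
      ∀ x ∈ convexHull ℝ s, a x = 0 := by
  induction s, hs using Set.Finite.induction_on with
  | empty => exact absurd hne (by simp)
  | @insert p s _ _ ih =>
    rcases s.eq_empty_or_nonempty with rfl | hs'
    · refine ⟨p, by simp, fun a _ h x hx => ?_⟩
      simp only [insert_empty_eq, convexHull_singleton, mem_singleton_iff] at hx
      rw [hx]; exact h
    · obtain ⟨x₀, hx₀, h⟩ := ih hs'
      have hp : p ∈ convexHull ℝ (insert p s) := subset_convexHull ℝ _ (mem_insert _ _)
      have hsub : convexHull ℝ s ⊆ convexHull ℝ (insert p s) :=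
        convexHull_mono (subset_insert _ _)
      refine ⟨(1/2 : ℝ) • p + (1/2 : ℝ) • x₀, ?_, fun a ha h0 => ?_⟩
      · exact (convex_convexHull ℝ _) hp (hsub hx₀) (by norm_num) (by norm_num) (by norm_num)
      · rw [affine_comb a (by norm_num)] at h0
        have h1 := ha p hp
        have h2 := ha x₀ (hsub hx₀)
        have h3 : a p = 0 := by linarith
        have h4 : a x₀ = 0 := by linarith
        have h5 := h a (fun x hx => ha x (hsub hx)) h4
        have : convexHull ℝ (insert p s) ⊆ {x | a x = 0} := by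
          refine convexHull_min ?_ (convex_zero a)
          intro x hx
          rcases mem_insert_iff.1 hx with rfl | hx
          · exact h3
          · exact h5 x (subset_convexHull ℝ _ hx)
        exact fun x hx => this hx

/-- a PL function whose selections are ordered on the V-polytope `C` is affine on `C` -/
theorem affine_of_signs {C : Set V} (hC : VP C) {f : V → ℝ} (hf : Continuous f)
    {G : Set (V →ᵃ[ℝ] ℝ)} (hG : G.Finite) (hsel : ∀ x, ∃ g ∈ G, f x = g x)
    (hs : ∀ g ∈ G, ∀ g' ∈ G, (∀ x ∈ C, 0 ≤ (g - g') x) ∨ (∀ x ∈ C, (g - g') x ≤ 0)) :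
    ∃ g : V →ᵃ[ℝ] ℝ, ∀ x ∈ C, f x = g x := by
  rcases C.eq_empty_or_nonempty with rfl | hne
  · exact ⟨0, by simp⟩
  obtain ⟨s, hsf, rfl⟩ := hC
  have hsne : s.Nonempty := by
    rw [nonempty_iff_ne_empty]; rintro rfl; simp at hne
  obtain ⟨x₀, hx₀, hgen⟩ := exists_generic hsf hsne
  obtain ⟨g, hg, hgx⟩ := hsel x₀
  refine ⟨g, fun x hx => ?_⟩
  -- the path
  let γ : ℝ → V := fun t => (1 - t) • x₀ + t • x
  have hγ : Continuous γ := by fun_prop
  have hgen' : ∀ t ∈ Ico (0:ℝ) 1, ∀ g' ∈ G, g (γ t) = g' (γ t) →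
      ∀ y ∈ convexHull ℝ s, g y = g' y := by
    intro t ht g' hg' h y hy
    have hA : ∀ a : V →ᵃ[ℝ] ℝ, (∀ x ∈ convexHull ℝ s, 0 ≤ a x) → a (γ t) = 0 →
        ∀ y ∈ convexHull ℝ s, a y = 0 := by
      intro a ha h0
      refine hgen a ha ?_
      have h0' : (1 - t) * a x₀ + t * a x = 0 := by
        rw [← affine_comb a (by ring : (1 - t) + t = 1)]; exact h0
      have h1 := ha x₀ hx₀
      have h2 := mul_nonneg ht.1 (ha x hx)
      have h3 : 0 < 1 - t := by linarith [ht.2]
      have h4 := mul_nonneg h3.le h1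
      have : (1 - t) * a x₀ = 0 := by linarith
      rcases mul_eq_zero.1 this with h | h
      · linarith
      · exact h
    rcases hs g hg g' hg' with hh | hh
    · have := hA (g - g') hh (by simp [h]) y hy
      simpa [sub_eq_zero] using this
    · have := hA (g' - g) (fun x hx => by simpa using hh x hx) (by simp [h]) y hy
      simp only [AffineMap.coe_sub, Pi.sub_apply, sub_eq_zero] at this
      exact this.symm
  let T : Set ℝ := {t | f (γ t) = g (γ t)}
  let T' : Set ℝ := ⋃ g' ∈ {g' ∈ G | ¬ ∀ y ∈ convexHull ℝ s, g y = g' y},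
    {t | f (γ t) = g' (γ t)}
  have hline : ∀ a : V →ᵃ[ℝ] ℝ, Continuous fun t => a (γ t) := by
    intro a
    have : (fun t => a (γ t)) = fun t => (1 - t) * a x₀ + t * a x := by
      funext t; exact affine_comb a (by ring)
    rw [this]; fun_prop
  have hT : IsClosed T := isClosed_eq (hf.comp hγ) (hline g)
  have hT' : IsClosed T' :=
    (hG.subset (sep_subset _ _)).isClosed_biUnion fun g' _ => isClosed_eq (hf.comp hγ) (hline g')
  have hsubT : Ico (0:ℝ) 1 ⊆ T ∪ T' := by
    intro t _
    obtain ⟨g', hg', h⟩ := hsel (γ t)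
    by_cases hh : ∀ y ∈ convexHull ℝ s, g y = g' y
    · by_cases ht : t ∈ Icc (0:ℝ) 1
      · left
        have : γ t ∈ convexHull ℝ s := (convex_convexHull ℝ s) hx₀ hx (by linarith [ht.2]) ht.1
          (by ring)
        show f (γ t) = g (γ t)
        rw [h, hh _ this]
      · exact absurd ⟨by assumption, by assumption⟩ (fun _ : (t ∈ Ico (0:ℝ) 1) ∧
          t ∈ Ico (0:ℝ) 1 => ht ⟨by have := ‹t ∈ Ico (0:ℝ) 1›; exact this.1,
            by have := ‹t ∈ Ico (0:ℝ) 1›; exact this.2.le⟩)
    · right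
      exact mem_biUnion (show g' ∈ {g' ∈ G | ¬ ∀ y ∈ convexHull ℝ s, g y = g' y} from ⟨hg', hh⟩) h
  have h0T : (0:ℝ) ∈ T := by
    show f (γ 0) = g (γ 0)
    simpa [γ] using hgx
  have hsubT2 : Ico (0:ℝ) 1 ⊆ T := by
    intro t ht
    by_contra hnt
    have htT' : t ∈ T' := (hsubT ht).resolve_left hnt
    have := isPreconnected_closed_iff.1 (isPreconnected_Ico (a := (0:ℝ)) (b := 1)) T T' hT hT'
      hsubT ⟨0, ⟨le_rfl, one_pos⟩, h0T⟩ ⟨t, ht, htT'⟩
    obtain ⟨u, hu, huT, huT'⟩ := this
    obtain ⟨g', hg', hu'⟩ := mem_iUnion₂.1 huT'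
    have hg1 : g' ∈ G ∧ ¬ ∀ y ∈ convexHull ℝ s, g y = g' y := hg'
    refine hg1.2 (hgen' u hu g' hg1.1 ?_)
    have e1 : f (γ u) = g (γ u) := huT
    have e2 : f (γ u) = g' (γ u) := hu'
    rw [← e1, e2]
  have h1 : (1:ℝ) ∈ closure (Ico (0:ℝ) 1) := by
    rw [closure_Ico (by norm_num)]; exact ⟨zero_le_one, le_rfl⟩
  have h1T : (1:ℝ) ∈ T := hT.closure_subset (closure_mono hsubT2 h1)
  have : f (γ 1) = g (γ 1) := h1T
  simpa [γ] using this

/-- **cell theorem**: a V-polytope is a finite union of V-polytopes on which a given PL map is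
affine and finitely many given affine functionals have constant sign -/
theorem PLMap.cells [FiniteDimensional ℝ W] {f : V → W} (hf : PLMap f) {Q : Set V} (hQ : VP Q)
    {A : Set (V →ᵃ[ℝ] ℝ)} (hA : A.Finite) :
    ∃ 𝒞 : Set (Set V), 𝒞.Finite ∧ (∀ C ∈ 𝒞, VP C) ∧ ⋃₀ 𝒞 = Q ∧
      (∀ C ∈ 𝒞, ∃ g : V →ᵃ[ℝ] W, ∀ x ∈ C, f x = g x) ∧
      ∀ C ∈ 𝒞, ∀ a ∈ A, (∀ x ∈ C, 0 ≤ a x) ∨ (∀ x ∈ C, a x ≤ 0) := by
  classical
  obtain ⟨hfc, G, hG, hsel⟩ := hf
  let b := Module.finBasis ℝ W
  let co : (V →ᵃ[ℝ] W) → Fin (Module.finrank ℝ W) → (V →ᵃ[ℝ] ℝ) := fun g i =>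
    (b.coord i).toAffineMap.comp g
  let B : Set (V →ᵃ[ℝ] ℝ) := ⋃ i, image2 (fun g g' => co g i - co g' i) G G
  have hB : B.Finite := finite_iUnion fun i => hG.image2 _ hG
  obtain ⟨𝒞, h1, h2, h3, h4⟩ := hQ.cells_sign (hA.union hB)
  refine ⟨𝒞, h1, h2, h3, fun C hC => ?_, fun C hC a ha => h4 C hC a (Or.inl ha)⟩
  have key : ∀ i, ∃ g : V →ᵃ[ℝ] ℝ, ∀ x ∈ C, b.coord i (f x) = g x := by
    intro i
    refine affine_of_signs (h2 C hC) (f := fun x => b.coord i (f x))
      ((b.coord i).continuous_of_finiteDimensional.comp hfc)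
      (hG.image fun g => co g i) ?_ ?_
    · intro x
      obtain ⟨g, hg, h⟩ := hsel x
      exact ⟨co g i, mem_image_of_mem _ hg, by simp [co, h]⟩
    · rintro _ ⟨g, hg, rfl⟩ _ ⟨g', hg', rfl⟩
      exact h4 C hC _ (Or.inr (mem_iUnion.2 ⟨i, mem_image2_of_mem hg hg'⟩))
  choose g hg using key
  refine ⟨b.equivFun.symm.toLinearMap.toAffineMap.comp (AffineMap.pi g), fun x hx => ?_⟩
  have : (AffineMap.pi g) x = b.equivFun (f x) := by
    funext i
    rw [AffineMap.pi_apply, ← hg i x hx]; rfl
  simp only [AffineMap.comp_apply, LinearMap.coe_toAffineMap, this]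
  simp

end Crest.Agent.R096.Pl
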