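import Crest.Agent.R096.PlDefs_296

/-!
# Cone moves (helper296, row 96, P2-Y)

For a region `R = {x | ∀ i, 0 ≤ a i x}` (finitely many affine `a i`, any dimension) and two points
`v, v'` of its interior the map which is the identity off `R` and maps the segment `[v,y]`
linearly onto `[v',y]`, `y ∈ ∂R`.
The functions `a i` only have to be PL and affine in the direction `v' - v`.
-/

namespace Crest.Agent.R096.Pl

open Set

set_option linter.unusedSectionVars false

variable {V : Type*} [NormedAddCommGroup V] [NormedSpace ℝ V]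
variable {ι : Type*} [Fintype ι] [Nonempty ι]

/-- the "depth" of `x` in the region `{a ≥ 0}` seen from `v` : it is `1` at `v`, `0` on the
boundary, and affine on the segments from `v` to boundary points -/
noncomputable def depth (a : ι → V → ℝ) (v x : V) : ℝ :=
  Finset.univ.inf' Finset.univ_nonempty (fun i => a i x / a i v)

/-- the cone move -/
noncomputable def coneMap (a : ι → V → ℝ) (v v' x : V) : V :=
  x + max 0 (depth a v x) • (v' - v)

theorem le_depth_iff {a : ι → V → ℝ} {v x : V} {m : ℝ} (hv : ∀ i, 0 < a i v) :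
    m ≤ depth a v x ↔ ∀ i, m * a i v ≤ a i x := by
  unfold depth
  rw [Finset.le_inf'_iff]
  constructor
  · intro h i
    exact (le_div_iff₀ (hv i)).1 (h i (Finset.mem_univ i))
  · intro h i _
    exact (le_div_iff₀ (hv i)).2 (h i)

theorem depth_le_iff {a : ι → V → ℝ} {v x : V} {m : ℝ} (hv : ∀ i, 0 < a i v) :
    depth a v x ≤ m ↔ ∃ i, a i x ≤ m * a i v := by
  unfold depth
  rw [Finset.inf'_le_iff]
  constructor
  · rintro ⟨i, -, h⟩
    exact ⟨i, (div_le_iff₀ (hv i)).1 h⟩
  · rintro ⟨i, h⟩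
    exact ⟨i, Finset.mem_univ i, (div_le_iff₀ (hv i)).2 h⟩

theorem depth_eq_iff {a : ι → V → ℝ} {v x : V} {m : ℝ} (hv : ∀ i, 0 < a i v) :
    depth a v x = m ↔ (∀ i, m * a i v ≤ a i x) ∧ ∃ i, a i x ≤ m * a i v := by
  rw [← le_depth_iff hv, ← depth_le_iff hv]
  constructor
  · rintro rfl; exact ⟨le_rfl, le_rfl⟩
  · rintro ⟨h1, h2⟩; exact le_antisymm h2 h1

theorem coneMap_of_depth_nonneg {a : ι → V → ℝ} {v v' x : V} (hx : 0 ≤ depth a v x) :
    coneMap a v v' x = x + depth a v x • (v' - v) := by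
  unfold coneMap
  rw [max_eq_right hx]

theorem coneMap_of_depth_nonpos {a : ι → V → ℝ} {v v' x : V} (hx : depth a v x ≤ 0) :
    coneMap a v v' x = x := by
  unfold coneMap
  rw [max_eq_left hx]; simp

/-- the cone move is the identity outside the open region -/
theorem coneMap_of_le {a : ι → V → ℝ} {v v' x : V} (hv : ∀ i, 0 < a i v) (hx : ∃ i, a i x ≤ 0) :
    coneMap a v v' x = x := by
  refine coneMap_of_depth_nonpos ((depth_le_iff hv).2 ?_)
  obtain ⟨i, hi⟩ := hx
  exact ⟨i, by simpa using hi⟩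

theorem depth_coneMap {a : ι → V → ℝ} {v v' x : V} (hv : ∀ i, 0 < a i v) (hv' : ∀ i, 0 < a i v')
    (ha : ∀ i x (c : ℝ), a i (x + c • (v' - v)) = a i x + c * (a i v' - a i v))
    (hx : 0 ≤ depth a v x) : depth a v' (coneMap a v v' x) = depth a v x := by
  rw [coneMap_of_depth_nonneg hx, depth_eq_iff hv']
  obtain ⟨h1, i, h2⟩ := (depth_eq_iff (a := a) (x := x) hv).1 rfl
  refine ⟨fun j => ?_, i, ?_⟩
  · rw [ha]; have := h1 j; nlinarith
  · rw [ha]; nlinarith

theorem coneMap_coneMap {a : ι → V → ℝ} {v v' : V} (hv : ∀ i, 0 < a i v) (hv' : ∀ i, 0 < a i v')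
    (ha : ∀ i x (c : ℝ), a i (x + c • (v' - v)) = a i x + c * (a i v' - a i v)) (x : V) :
    coneMap a v' v (coneMap a v v' x) = x := by
  rcases le_total 0 (depth a v x) with hx | hx
  · have h1 := depth_coneMap hv hv' ha hx
    rw [coneMap_of_depth_nonneg (by rw [h1]; exact hx), h1, coneMap_of_depth_nonneg hx,
      add_assoc, ← smul_add]
    simp
  · rw [coneMap_of_depth_nonpos hx]
    refine coneMap_of_le hv' ?_
    obtain ⟨i, hi⟩ := (depth_le_iff hv).1 hx
    exact ⟨i, by simpa using hi⟩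

theorem ha_swap {a : ι → V → ℝ} {v v' : V}
    (ha : ∀ i x (c : ℝ), a i (x + c • (v' - v)) = a i x + c * (a i v' - a i v)) :
    ∀ i x (c : ℝ), a i (x + c • (v - v')) = a i x + c * (a i v - a i v') := by
  intro i x c
  have := ha i x (-c)
  rw [neg_smul, ← smul_neg, neg_sub] at this
  rw [this]; ring

theorem PLMap_depth {a : ι → V → ℝ} (hPL : ∀ i, PLMap (a i)) (v : V) : PLMap (depth a v) :=
  PLMap.finset_inf' Finset.univ_nonempty (f := fun i x => a i x / a i v)
    fun i _ => (hPL i).div_const _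

theorem PLMap_coneMap {a : ι → V → ℝ} (hPL : ∀ i, PLMap (a i)) (v v' : V) :
    PLMap (coneMap a v v') :=
  PLMap.id.add (((PLMap.const 0).max (PLMap_depth hPL v)).smul_const (v' - v))

/-- the cone move as a homeomorphism -/
noncomputable def coneH (a : ι → V → ℝ) (v v' : V) (hPL : ∀ i, PLMap (a i))
    (hv : ∀ i, 0 < a i v) (hv' : ∀ i, 0 < a i v')
    (ha : ∀ i x (c : ℝ), a i (x + c • (v' - v)) = a i x + c * (a i v' - a i v)) : V ≃ₜ V :=
  mkH (coneMap a v v') (coneMap a v' v) (PLMap_coneMap hPL _ _) (PLMap_coneMap hPL _ _)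
    (coneMap_coneMap hv hv' ha) (coneMap_coneMap hv' hv (ha_swap ha))

theorem PLH_coneH (a : ι → V → ℝ) (v v' : V) (hPL : ∀ i, PLMap (a i))
    (hv : ∀ i, 0 < a i v) (hv' : ∀ i, 0 < a i v')
    (ha : ∀ i x (c : ℝ), a i (x + c • (v' - v)) = a i x + c * (a i v' - a i v)) :
    PLH (coneH a v v' hPL hv hv' ha) := PLH_mkH _ _ _ _ _ _

@[simp] theorem coneH_apply (a : ι → V → ℝ) (v v' : V) (hPL : ∀ i, PLMap (a i))
    (hv : ∀ i, 0 < a i v) (hv' : ∀ i, 0 < a i v')
    (ha : ∀ i x (c : ℝ), a i (x + c • (v' - v)) = a i x + c * (a i v' - a i v)) (x : V) :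
    coneH a v v' hPL hv hv' ha x = coneMap a v v' x := rfl

/-! ### affine data -/

theorem affine_dir (a : V →ᵃ[ℝ] ℝ) (v v' x : V) (c : ℝ) :
    a (x + c • (v' - v)) = a x + c * (a v' - a v) := by
  have h : x + c • (v' - v) = c • (v' - v) +ᵥ x := by rw [vadd_eq_add, add_comm]
  rw [h, AffineMap.map_vadd, map_smul, vadd_eq_add, smul_eq_mul]
  have : a.linear (v' - v) = a v' - a v := by
    rw [← vsub_eq_sub, AffineMap.linearMap_vsub, vsub_eq_sub]
  rw [this]; ring

/-- along a segment from `v` the depth is affine -/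
theorem depth_segment (a : ι → V →ᵃ[ℝ] ℝ) {v y : V} (hv : ∀ i, 0 < a i v) {s : ℝ} (hs : 0 ≤ s) :
    depth (fun i => a i) v (v + s • (y - v)) = (1 - s) + s * depth (fun i => a i) v y := by
  rw [depth_eq_iff (a := fun i => a i) hv]
  obtain ⟨h1, i, h2⟩ := (depth_eq_iff (a := fun i => a i) (x := y) hv).1 rfl
  refine ⟨fun j => ?_, i, ?_⟩
  · rw [affine_dir]
    have := mul_le_mul_of_nonneg_left (h1 j) hs
    nlinarith
  · rw [affine_dir]
    have := mul_le_mul_of_nonneg_left h2 hs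
    nlinarith

/-- **cone move, affine data, any dimension.** -/
theorem exists_coneMove [FiniteDimensional ℝ V] (a : ι → V →ᵃ[ℝ] ℝ) {v v' : V}
    (hv : ∀ i, 0 < a i v) (hv' : ∀ i, 0 < a i v') :
    ∃ H : V ≃ₜ V, PLH H ∧ H v = v' ∧ (∀ x, (∃ i, a i x ≤ 0) → H x = x) ∧
      (∀ y, (∀ i, 0 ≤ a i y) → (∃ i, a i y = 0) → ∀ s ∈ Icc (0 : ℝ) 1,
        H (v + s • (y - v)) = v' + s • (y - v')) := by
  refine ⟨coneH (fun i => a i) v v' (fun i => PLMap.of_affine _) hv hv'
    (fun i x c => affine_dir _ _ _ _ _), PLH_coneH _ _ _ _ _ _ _, ?_, ?_, ?_⟩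
  · rw [coneH_apply]
    have : depth (fun i => a i) v v = 1 := by
      rw [depth_eq_iff (a := fun i => a i) hv]
      exact ⟨fun i => by simp, Classical.arbitrary ι, by simp⟩
    rw [coneMap_of_depth_nonneg (by rw [this]; norm_num), this]; simp
  · intro x hx
    exact coneMap_of_le (a := fun i => a i) hv hx
  · intro y hy ⟨i, hi⟩ s hs
    have h0 : depth (fun i => a i) v y = 0 := by
      rw [depth_eq_iff (a := fun i => a i) hv]
      exact ⟨fun i => by simpa using hy i, i, by simp [hi]⟩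
    have h1 := depth_segment a hv (y := y) hs.1
    rw [h0, mul_zero, add_zero] at h1
    rw [coneH_apply, coneMap_of_depth_nonneg (by rw [h1]; linarith [hs.2]), h1]
    module

/-! ### The push across a double cone -/

/-- **push lemma** in `F × ℝ`, `F` with a polyhedral norm: a PL homeomorphism supported in
`{‖x‖ + |z|/(1+ε) ≤ 1}` which maps the upper cone `{(x, 1 - ‖x‖)}` vertically onto the lower
cone `{(x, -(1 - ‖x‖))}`. -/
theorem exists_push {F : Type*} [NormedAddCommGroup F] [NormedSpace ℝ F]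
    (hN : PLMap (fun x : F => ‖x‖)) {ε : ℝ} (hε : 0 < ε) :
    ∃ H : (F × ℝ) ≃ₜ (F × ℝ), PLH H ∧
      (∀ x : F, ‖x‖ ≤ 1 → H (x, 1 - ‖x‖) = (x, -(1 - ‖x‖))) ∧
      (∀ p : F × ℝ, 1 ≤ ‖p.1‖ + |p.2| / (1 + ε) → H p = p) := by
  have he : 0 < 1 + ε := by linarith
  let a : Bool → F × ℝ → ℝ := fun b p => (1 - ‖p.1‖) + (if b then -1 else 1) * (p.2 / (1 + ε))
  have hPL : ∀ i, PLMap (a i) := fun i =>
    ((PLMap.const 1).sub (hN.comp PLMap.id.fst)).add ((PLMap.id.snd.div_const _).const_mul _)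
  have hlt : (1 + ε)⁻¹ < 1 := inv_lt_one_of_one_lt₀ (by linarith)
  have hpos : 0 < (1 + ε)⁻¹ := inv_pos.2 he
  have hv : ∀ i, 0 < a i ((0 : F), (1 : ℝ)) := by
    intro i
    cases i <;> simp only [a, norm_zero] <;> norm_num <;> linarith
  have hv' : ∀ i, 0 < a i ((0 : F), (-1 : ℝ)) := by
    intro i
    cases i <;> simp only [a, norm_zero, neg_div] <;> norm_num <;> linarith
  have hdir : (((0 : F), (-1 : ℝ)) - ((0 : F), (1 : ℝ))) = ((0 : F), (-2 : ℝ)) := by
    ext <;> norm_num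
  have ha : ∀ i (x : F × ℝ) (c : ℝ), a i (x + c • (((0 : F), (-1 : ℝ)) - ((0 : F), (1 : ℝ)))) =
      a i x + c * (a i ((0 : F), (-1 : ℝ)) - a i ((0 : F), (1 : ℝ))) := by
    intro i x c
    rw [hdir]
    cases i <;> simp only [a, Prod.fst_add, Prod.snd_add, Prod.smul_fst, Prod.smul_snd, smul_zero,
      add_zero, norm_zero, smul_eq_mul] <;> norm_num <;> ring
  refine ⟨coneH a _ _ hPL hv hv' ha, PLH_coneH _ _ _ _ _ _ _, ?_, ?_⟩
  · intro x hx
    have hd : depth a ((0 : F), (1 : ℝ)) (x, 1 - ‖x‖) = 1 - ‖x‖ := by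
      rw [depth_eq_iff hv]
      refine ⟨fun i => ?_, true, ?_⟩
      · cases i <;> simp only [a, norm_zero] <;> norm_num <;> field_simp <;> nlinarith
      · simp only [a, norm_zero]; norm_num; field_simp; nlinarith
    rw [coneH_apply, coneMap_of_depth_nonneg (by rw [hd]; linarith), hd, hdir]
    ext
    · simp
    · simp; ring
  · intro p hp
    rw [coneH_apply]
    refine coneMap_of_le hv ?_
    rcases le_total 0 p.2 with h | h
    · refine ⟨true, ?_⟩
      rw [abs_of_nonneg h] at hp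
      simp only [a]; norm_num; linarith
    · refine ⟨false, ?_⟩
      rw [abs_of_nonpos h, neg_div] at hp
      simp only [a]; norm_num; linarith

end Crest.Agent.R096.Pl
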