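import Crest.Agent.R096.PlPoly_296

/-!
# Diagonals of closed simple polygons in the plane (helper296, row 96, P2-Y)
-/

namespace Crest.Agent.R096.Pl

open Set Metric Topology

set_option linter.unusedSectionVars false

/-- determinant of two plane vectors -/
def dt (u w : ℝ × ℝ) : ℝ := u.1 * w.2 - u.2 * w.1

/-- barycentric coordinates at a corner -/
structure Coord (o a b : ℝ × ℝ) (s t : (ℝ × ℝ) →ᵃ[ℝ] ℝ) : Prop where
  so : s o = 0
  to' : t o = 0
  sa : s a = 1
  ta : t a = 0
  sb : s b = 0
  tb : t b = 1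
  inj : ∀ x y, s x = s y → t x = t y → x = y

theorem exists_coord {o a b : ℝ × ℝ} (h : dt (a - o) (b - o) ≠ 0) :
    ∃ s t : (ℝ × ℝ) →ᵃ[ℝ] ℝ, Coord o a b s t := by
  set Δ := dt (a - o) (b - o) with hΔ
  let fs : (ℝ × ℝ) →ᵃ[ℝ] ℝ := (LinearMap.fst ℝ ℝ ℝ).toAffineMap - AffineMap.const ℝ _ o.1
  let sn : (ℝ × ℝ) →ᵃ[ℝ] ℝ := (LinearMap.snd ℝ ℝ ℝ).toAffineMap - AffineMap.const ℝ _ o.2
  have hfs : ∀ x, fs x = x.1 - o.1 := fun x => by simp [fs]
  have hsn : ∀ x, sn x = x.2 - o.2 := fun x => by simp [sn]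
  have hΔ' : Δ = (a.1 - o.1) * (b.2 - o.2) - (a.2 - o.2) * (b.1 - o.1) := by
    rw [hΔ]; simp [dt]
  let s : (ℝ × ℝ) →ᵃ[ℝ] ℝ := ((b.2 - o.2) / Δ) • fs - ((b.1 - o.1) / Δ) • sn
  let t : (ℝ × ℝ) →ᵃ[ℝ] ℝ := ((a.1 - o.1) / Δ) • sn - ((a.2 - o.2) / Δ) • fs
  have hs : ∀ x, s x = ((b.2 - o.2) * (x.1 - o.1) - (b.1 - o.1) * (x.2 - o.2)) / Δ := fun x => by
    simp only [s, AffineMap.coe_sub, AffineMap.coe_smul, Pi.sub_apply, Pi.smul_apply, smul_eq_mul,
      hfs, hsn]
    ring
  have ht : ∀ x, t x = ((a.1 - o.1) * (x.2 - o.2) - (a.2 - o.2) * (x.1 - o.1)) / Δ := fun x => by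
    simp only [t, AffineMap.coe_sub, AffineMap.coe_smul, Pi.sub_apply, Pi.smul_apply, smul_eq_mul,
      hfs, hsn]
    ring
  refine ⟨s, t, ?_, ?_, ?_, ?_, ?_, ?_, ?_⟩
  · rw [hs]; simp
  · rw [ht]; simp
  · rw [hs, div_eq_one_iff_eq h, hΔ']; ring
  · rw [ht, div_eq_zero_iff]; left; ring
  · rw [hs, div_eq_zero_iff]; left; ring
  · rw [ht, div_eq_one_iff_eq h, hΔ']
  · intro x y h1 h2
    rw [hs, hs] at h1
    rw [ht, ht] at h2
    have h1' := (div_left_inj' h).1 h1
    have h2' := (div_left_inj' h).1 h2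
    have e1 : Δ * (x.1 - y.1) = 0 := by rw [hΔ']; linear_combination (a.1 - o.1) * h1' + (b.1 - o.1) * h2'
    have e2 : Δ * (x.2 - y.2) = 0 := by rw [hΔ']; linear_combination (a.2 - o.2) * h1' + (b.2 - o.2) * h2'
    ext
    · have := (mul_eq_zero.1 e1).resolve_left h; linarith
    · have := (mul_eq_zero.1 e2).resolve_left h; linarith

theorem mem_segment_comb {x y z : ℝ × ℝ} (h : z ∈ segment ℝ x y) :
    ∃ τ : ℝ, 0 ≤ τ ∧ τ ≤ 1 ∧ z = (1 - τ) • x + τ • y := by
  obtain ⟨α, β, h1, h2, h3, rfl⟩ := h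
  exact ⟨β, h2, by linarith, by rw [show 1 - β = α by linarith]⟩

theorem comb_mem_segment {x y : ℝ × ℝ} {τ : ℝ} (h1 : 0 ≤ τ) (h2 : τ ≤ 1) :
    (1 - τ) • x + τ • y ∈ segment ℝ x y := ⟨1 - τ, τ, by linarith, h1, by ring, rfl⟩

theorem Coord.mem_left {o a b : ℝ × ℝ} {s t : (ℝ × ℝ) →ᵃ[ℝ] ℝ} (h : Coord o a b s t) {x : ℝ × ℝ}
    (hs : 0 ≤ s x) (hs1 : s x ≤ 1) (ht : t x = 0) : x ∈ segment ℝ o a := by
  have e : x = (1 - s x) • o + (s x) • a := by
    apply h.inj
    · rw [affine_comb s (by ring), h.so, h.sa]; ring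
    · rw [affine_comb t (by ring), h.to', h.ta, ht]; ring
  rw [e]; exact comb_mem_segment hs hs1

theorem Coord.mem_right {o a b : ℝ × ℝ} {s t : (ℝ × ℝ) →ᵃ[ℝ] ℝ} (h : Coord o a b s t) {x : ℝ × ℝ}
    (ht : 0 ≤ t x) (ht1 : t x ≤ 1) (hs : s x = 0) : x ∈ segment ℝ o b := by
  have e : x = (1 - t x) • o + (t x) • b := by
    apply h.inj
    · rw [affine_comb s (by ring), h.so, h.sb, hs]; ring
    · rw [affine_comb t (by ring), h.to', h.tb]; ring
  rw [e]; exact comb_mem_segment ht ht1

/-- **Lemma Q**: an edge whose end points are outside `Ω = {s, t ≥ 0, s + t < m}` and which does not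
meet the two legs of `Ω` does not meet `Ω`. -/
theorem lemmaQ {s t : (ℝ × ℝ) →ᵃ[ℝ] ℝ} {m : ℝ} {c d : ℝ × ℝ}
    (hc : ¬ (0 ≤ s c ∧ 0 ≤ t c ∧ s c + t c < m)) (hd : ¬ (0 ≤ s d ∧ 0 ≤ t d ∧ s d + t d < m))
    (hleg : ∀ y ∈ segment ℝ c d, 0 ≤ s y → 0 ≤ t y → s y + t y < m → s y ≠ 0 ∧ t y ≠ 0) :
    ∀ x ∈ segment ℝ c d, ¬ (0 ≤ s x ∧ 0 ≤ t x ∧ s x + t x < m) := by
  rintro x hx ⟨hs, ht, hm⟩
  obtain ⟨hs0, ht0⟩ := hleg x hx hs ht hm
  have hs' : 0 < s x := lt_of_le_of_ne hs (Ne.symm hs0)
  have ht' : 0 < t x := lt_of_le_of_ne ht (Ne.symm ht0)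
  have key : ∀ z ∈ segment ℝ c d, ¬ (0 ≤ s z ∧ 0 ≤ t z ∧ s z + t z < m) → m ≤ s z + t z := by
    intro z hz hnz
    by_contra hlt
    push Not at hlt
    have hneg : min (s z) (t z) < 0 := by
      by_contra hge
      push Not at hge
      exact hnz ⟨hge.trans (min_le_left _ _), hge.trans (min_le_right _ _), hlt⟩
    let γ : ℝ → ℝ × ℝ := fun τ => (1 - τ) • x + τ • z
    have hγ : Continuous γ := by fun_prop
    have hf : Continuous fun τ => min (s (γ τ)) (t (γ τ)) :=
      (s.continuous_of_finiteDimensional.comp hγ).min (t.continuous_of_finiteDimensional.comp hγ)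
    have h01 : (0 : ℝ) ∈ Icc (min (s (γ 1)) (t (γ 1))) (min (s (γ 0)) (t (γ 0))) := by
      constructor
      · simpa [γ] using (lt_min_iff.not.1 (not_lt.2 hneg.le) |> fun _ => hneg.le)
      · simp only [γ]
        simp only [sub_zero, one_smul, zero_smul, add_zero]
        exact le_min hs ht
    obtain ⟨τ, hτ, hτ0⟩ := intermediate_value_Icc' (zero_le_one (α := ℝ)) hf.continuousOn h01
    have hy : γ τ ∈ segment ℝ c d :=
      (convex_segment c d) hx hz (by linarith [hτ.2]) hτ.1 (by ring)
    have hsum : s (γ τ) + t (γ τ) = (1 - τ) * (s x + t x) + τ * (s z + t z) := by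
      simp only [γ]
      rw [affine_comb s (by ring), affine_comb t (by ring)]; ring
    have hlt' : s (γ τ) + t (γ τ) < m := by
      rw [hsum]
      rcases hτ.1.eq_or_lt with h0 | h0
      · rw [← h0]; linarith
      · nlinarith [hτ.2]
    have h1 : 0 ≤ s (γ τ) := by rw [← hτ0]; exact min_le_left _ _
    have h2 : 0 ≤ t (γ τ) := by rw [← hτ0]; exact min_le_right _ _
    obtain ⟨h3, h4⟩ := hleg _ hy h1 h2 hlt'
    rcases min_choice (s (γ τ)) (t (γ τ)) with h | h
    · exact h3 (h.symm.trans hτ0)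
    · exact h4 (h.symm.trans hτ0)
  have h1 := key c (left_mem_segment ℝ c d) hc
  have h2 := key d (right_mem_segment ℝ c d) hd
  obtain ⟨τ, hτ0, hτ1, rfl⟩ := mem_segment_comb hx
  have hsum : s ((1 - τ) • c + τ • d) + t ((1 - τ) • c + τ • d) =
      (1 - τ) * (s c + t c) + τ * (s d + t d) := by
    rw [affine_comb s (by ring), affine_comb t (by ring)]; ring
  rw [hsum] at hm
  nlinarith

/-- an extreme vertex is a genuine corner -/
theorem Poly.corner {n : ℕ} {v : ℤ → ℝ × ℝ} (h : Poly n v)
    (hmin : ∀ j, toLex (v 0) ≤ toLex (v j)) : dt (v 1 - v 0) (v (-1) - v 0) ≠ 0 := by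
  intro hdt
  have h3 := h.three
  have hlex : ∀ j : ℤ, ¬ (n : ℤ) ∣ j → (v 0).1 < (v j).1 ∨ ((v 0).1 = (v j).1 ∧ (v 0).2 < (v j).2) := by
    intro j hj
    have h1 := hmin j
    rw [Prod.Lex.toLex_le_toLex] at h1
    rcases h1 with h1 | ⟨h1, h2⟩
    · exact Or.inl h1
    · rcases h2.lt_or_eq with h2 | h2
      · exact Or.inr ⟨h1, h2⟩
      · exfalso
        have : v 0 = v j := Prod.ext h1 h2
        have := h.inj _ _ this
        rw [zero_sub] at this
        exact hj ((dvd_neg).1 this)
  have hn1 : ¬ (n : ℤ) ∣ 1 := fun hd => by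
    have := dvd_small hd (by omega) (by omega); omega
  have hn2 : ¬ (n : ℤ) ∣ -1 := fun hd => by
    have := dvd_small hd (by omega) (by omega); omega
  have ha := hlex 1 hn1
  have hb := hlex (-1) hn2
  -- the two neighbours are on the same ray
  set o := v 0
  set a := v 1
  set b := v (-1)
  have hdt' : (a.1 - o.1) * (b.2 - o.2) = (a.2 - o.2) * (b.1 - o.1) := by
    have : (a.1 - o.1) * (b.2 - o.2) - (a.2 - o.2) * (b.1 - o.1) = 0 := by simpa [dt] using hdt
    linarith
  -- find `c > 0` with `b - o = c (a - o)`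
  have hc : ∃ c : ℝ, 0 < c ∧ b = (1 - c) • o + c • a := by
    rcases ha with ha | ⟨ha, ha2⟩
    · have hpos : 0 < a.1 - o.1 := by linarith
      refine ⟨(b.1 - o.1) / (a.1 - o.1), ?_, ?_⟩
      · rcases hb with hb | ⟨hb, hb2⟩
        · apply div_pos <;> linarith
        · exfalso
          rw [← hb, sub_self, mul_zero] at hdt'
          rcases mul_eq_zero.1 hdt' with h' | h' <;> linarith
      · ext
        · simp only [Prod.fst_add, Prod.smul_fst, smul_eq_mul]; field_simp; ring
        · simp only [Prod.snd_add, Prod.smul_snd, smul_eq_mul]; field_simp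
          linear_combination hdt'
    · have hpos : 0 < a.2 - o.2 := by linarith
      have hb1 : b.1 - o.1 = 0 := by
        rw [← ha, sub_self, zero_mul] at hdt'
        exact (mul_eq_zero.1 hdt'.symm).resolve_left hpos.ne'
      rcases hb with hb | ⟨hb, hb2⟩
      · linarith
      refine ⟨(b.2 - o.2) / (a.2 - o.2), by apply div_pos <;> linarith, ?_⟩
      ext
      · simp only [Prod.fst_add, Prod.smul_fst, smul_eq_mul]; rw [← ha]; linarith
      · simp only [Prod.snd_add, Prod.smul_snd, smul_eq_mul]; field_simp; ring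
  obtain ⟨c, hc0, hc⟩ := hc
  rcases le_total c 1 with h1 | h1
  · have hm : b ∈ edge v 0 := by
      show b ∈ segment ℝ o (v (0 + 1))
      rw [zero_add, hc]; exact comb_mem_segment hc0.le h1
    rcases h.vertex_mem_edge hm with h' | h'
    · have := dvd_small h' (by omega) (by omega); omega
    · have := dvd_small h' (by omega) (by omega); omega
  · have hm : a ∈ edge v (-1) := by
      show a ∈ segment ℝ b (v (-1 + 1))
      rw [neg_add_cancel, segment_symm]
      have e : a = (1 - 1 / c) • o + (1 / c) • b := by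
        rw [hc]
        match_scalars <;> field_simp
        ring
      have hmem := comb_mem_segment (x := o) (y := b) (τ := 1 / c) (by positivity)
        (by rw [div_le_one hc0]; exact h1)
      rw [← e] at hmem
      exact hmem
    rcases h.vertex_mem_edge hm with h' | h'
    · have := dvd_small h' (by omega) (by omega); omega
    · have := dvd_small h' (by omega) (by omega); omega

/-- the corner form of the diagonal lemma -/
theorem Poly.diag_aux {n : ℕ} {v : ℤ → ℝ × ℝ} (h : Poly n v) (h4 : 4 ≤ n)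
    (hcorner : dt (v 1 - v 0) (v (-1) - v 0) ≠ 0) :
    ∃ c : ℤ, ∃ k : ℕ, 2 ≤ k ∧ k + 2 ≤ n ∧
      ∀ x ∈ segment ℝ (v (c + k)) (v c), x ∈ polySet v → x = v c ∨ x = v (c + k) := by
  obtain ⟨s, t, hst⟩ := exists_coord hcorner
  have hso := hst.so
  have hto := hst.to'
  have hsa := hst.sa
  have hta := hst.ta
  have hsb := hst.sb
  have htb := hst.tb
  have he0 : edge v 0 = segment ℝ (v 0) (v 1) := by
    show segment ℝ (v 0) (v (0 + 1)) = _; rw [zero_add]
  have he1 : edge v (-1) = segment ℝ (v 0) (v (-1)) := by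
    show segment ℝ (v (-1)) (v (-1 + 1)) = _; rw [neg_add_cancel, segment_symm]
  -- the legs are met only in `a`, `b`
  have hleg : ∀ i : ℤ, 1 ≤ i → i ≤ n - 2 → ∀ m : ℝ, m ≤ 1 → ∀ y ∈ segment ℝ (v i) (v (i + 1)),
      0 ≤ s y → 0 ≤ t y → s y + t y < m → s y ≠ 0 ∧ t y ≠ 0 := by
    intro i hi1 hi2 m hm y hy hsy hty hlt
    constructor
    · intro h0
      have hm' : y ∈ edge v (-1) := by
        rw [he1]; exact hst.mem_right hty (by linarith) h0
      obtain ⟨h5, h6⟩ := h.simple (-1) i (fun hd => by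
        have := dvd_small hd (by omega) (by omega); omega) y hm' hy
      rw [neg_add_cancel] at h5
      rcases h5 with h5 | h5
      · rw [h5, htb] at hlt; linarith
      · rcases h6 with h6 | h6
        · have := dvd_small (h.inj _ _ (h5.symm.trans h6)) (by omega) (by omega); omega
        · have := dvd_small (h.inj _ _ (h5.symm.trans h6)) (by omega) (by omega); omega
    · intro h0
      have hm' : y ∈ edge v 0 := by
        rw [he0]; exact hst.mem_left hsy (by linarith) h0
      obtain ⟨h5, h6⟩ := h.simple 0 i (fun hd => by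
        have := dvd_small hd (by omega) (by omega); omega) y hm' hy
      rw [zero_add] at h5
      rcases h5 with h5 | h5
      · rcases h6 with h6 | h6
        · have := dvd_small (h.inj _ _ (h5.symm.trans h6)) (by omega) (by omega); omega
        · have := dvd_small (h.inj _ _ (h5.symm.trans h6)) (by omega) (by omega); omega
      · rw [h5, hsa] at hlt; linarith
  -- candidates
  let cand : Finset ℤ := (Finset.Icc (2 : ℤ) (n - 2)).filter
    (fun j => 0 ≤ s (v j) ∧ 0 ≤ t (v j) ∧ s (v j) + t (v j) ≤ 1)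
  -- a vertex of index in `[1, n-1]` in the triangle is `a`, `b` or a candidate
  have hcand : ∀ i : ℤ, 1 ≤ i → i ≤ n - 1 → 0 ≤ s (v i) → 0 ≤ t (v i) → s (v i) + t (v i) ≤ 1 →
      i = 1 ∨ i = n - 1 ∨ i ∈ cand := by
    intro i h1 h2 h3 h5 h6
    by_cases hi1 : i = 1
    · exact Or.inl hi1
    by_cases hi2 : i = n - 1
    · exact Or.inr (Or.inl hi2)
    · right; right
      exact Finset.mem_filter.2 ⟨Finset.mem_Icc.2 ⟨by omega, by omega⟩, h3, h5, h6⟩
  have hvn : v ((n : ℤ) - 1) = v (-1) := h.eq_of_dvd ⟨1, by ring⟩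
  by_cases hne : cand.Nonempty
  · -- Case B
    obtain ⟨j, hj, hjmin⟩ := Finset.exists_min_image cand (fun j => s (v j) + t (v j)) hne
    obtain ⟨hj1, hjs, hjt, hj2⟩ := Finset.mem_filter.1 hj
    rw [Finset.mem_Icc] at hj1
    obtain ⟨k, rfl⟩ : ∃ k : ℕ, j = k := ⟨j.toNat, by omega⟩
    have hsw : s (v k) ≠ 0 := by
      intro h0
      have hm' : v k ∈ edge v (-1) := by
        rw [he1]; exact hst.mem_right hjt (by linarith) h0
      rcases h.vertex_mem_edge hm' with h' | h'
      · have := dvd_small (z := (k : ℤ) + 1 - n) (by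
          have := h'.sub (dvd_refl (n : ℤ)); rw [sub_neg_eq_add] at this; exact this)
          (by omega) (by omega)
        omega
      · have := dvd_small (z := (k : ℤ)) (by simpa using h') (by omega) (by omega)
        omega
    have htw : t (v k) ≠ 0 := by
      intro h0
      have hm' : v k ∈ edge v 0 := by
        rw [he0]; exact hst.mem_left hjs (by linarith) h0
      rcases h.vertex_mem_edge hm' with h' | h'
      · have := dvd_small (z := (k : ℤ)) (by simpa using h') (by omega) (by omega)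
        omega
      · have := dvd_small h' (by omega) (by omega)
        omega
    have hsw' : 0 < s (v k) := lt_of_le_of_ne hjs (Ne.symm hsw)
    have htw' : 0 < t (v k) := lt_of_le_of_ne hjt (Ne.symm htw)
    set m := s (v k) + t (v k) with hm
    have hout : ∀ i : ℤ, 1 ≤ i → i ≤ n - 1 →
        ¬ (0 ≤ s (v i) ∧ 0 ≤ t (v i) ∧ s (v i) + t (v i) < m) := by
      rintro i h1 h2 ⟨h3, h5, h6⟩
      rcases hcand i h1 h2 h3 h5 (by linarith) with rfl | rfl | hi
      · rw [hsa, hta] at h6; linarith
      · rw [hvn, hsb, htb] at h6; linarith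
      · have := hjmin i hi; linarith
    refine ⟨0, k, by omega, by omega, ?_⟩
    rw [zero_add]
    intro x hx hxp
    rw [segment_symm] at hx
    obtain ⟨τ, hτ0, hτ1, rfl⟩ := mem_segment_comb hx
    have hsx : s ((1 - τ) • v 0 + τ • v k) = τ * s (v k) := by
      rw [affine_comb s (by ring), hso]; ring
    have htx : t ((1 - τ) • v 0 + τ • v k) = τ * t (v k) := by
      rw [affine_comb t (by ring), hto]; ring
    rcases hτ0.eq_or_lt with h0 | h0
    · left; rw [← h0]; simp
    rcases hτ1.eq_or_lt with h1 | h1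
    · right; rw [h1]; simp
    exfalso
    rw [h.polySet_eq (-1), mem_arcSet] at hxp
    obtain ⟨i, hi1, hi2, hi3⟩ := hxp
    have hi : i = -1 ∨ i = 0 ∨ (1 ≤ i ∧ i ≤ n - 2) := by omega
    rcases hi with rfl | rfl | ⟨hi4, hi5⟩
    · rw [he1] at hi3
      obtain ⟨σ, _, _, e⟩ := mem_segment_comb hi3
      have := congrArg s e
      rw [hsx, affine_comb s (by ring), hso, hsb] at this
      have : τ * s (v k) = 0 := by rw [this]; ring
      have := mul_pos h0 hsw'; linarith
    · rw [he0] at hi3
      obtain ⟨σ, _, _, e⟩ := mem_segment_comb hi3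
      have := congrArg t e
      rw [htx, affine_comb t (by ring), hto, hta] at this
      have : τ * t (v k) = 0 := by rw [this]; ring
      have := mul_pos h0 htw'; linarith
    · refine lemmaQ (hout i hi4 (by omega)) (hout (i + 1) (by omega) (by omega))
        (hleg i hi4 hi5 m hj2) _ hi3 ⟨?_, ?_, ?_⟩
      · rw [hsx]; positivity
      · rw [htx]; positivity
      · rw [hsx, htx]; nlinarith
  · -- Case A
    have hcand' : ∀ i : ℤ, 1 ≤ i → i ≤ n - 1 → 0 ≤ s (v i) → 0 ≤ t (v i) →
        s (v i) + t (v i) ≤ 1 → i = 1 ∨ i = n - 1 := by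
      intro i h1 h2 h3 h5 h6
      rcases hcand i h1 h2 h3 h5 h6 with h' | h' | h'
      · exact Or.inl h'
      · exact Or.inr h'
      · exact absurd ⟨i, h'⟩ hne
    have hout : ∀ i : ℤ, 1 ≤ i → i ≤ n - 1 →
        ¬ (0 ≤ s (v i) ∧ 0 ≤ t (v i) ∧ s (v i) + t (v i) < 1) := by
      rintro i h1 h2 ⟨h3, h5, h6⟩
      rcases hcand' i h1 h2 h3 h5 h6.le with rfl | rfl
      · rw [hsa, hta] at h6; linarith
      · rw [hvn, hsb, htb] at h6; linarith
    obtain ⟨k, hk⟩ : ∃ k : ℕ, n = k + 2 := ⟨n - 2, by omega⟩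
    have hv' : v (1 + (k : ℤ)) = v (-1) := by
      refine h.eq_of_dvd ⟨1, ?_⟩
      rw [hk]; push_cast; ring
    refine ⟨1, k, by omega, by omega, ?_⟩
    rw [hv']
    intro x hx hxp
    rw [segment_symm] at hx
    obtain ⟨τ, hτ0, hτ1, rfl⟩ := mem_segment_comb hx
    set x := (1 - τ) • v 1 + τ • v (-1) with hxdef
    have hsx : s x = 1 - τ := by
      rw [hxdef, affine_comb s (by ring), hsa, hsb]; ring
    have htx : t x = τ := by
      rw [hxdef, affine_comb t (by ring), hta, htb]; ring
    rcases hτ0.eq_or_lt with h0 | h0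
    · left; rw [hxdef, ← h0]; simp
    rcases hτ1.eq_or_lt with h1 | h1
    · right; rw [hxdef, h1]; simp
    exfalso
    rw [h.polySet_eq (-1), mem_arcSet] at hxp
    obtain ⟨i, hi1, hi2, hi3⟩ := hxp
    have hi : i = -1 ∨ i = 0 ∨ (1 ≤ i ∧ i ≤ n - 2) := by omega
    rcases hi with rfl | rfl | ⟨hi4, hi5⟩
    · rw [he1] at hi3
      obtain ⟨σ, _, _, e⟩ := mem_segment_comb hi3
      have := congrArg s e
      rw [hsx, affine_comb s (by ring), hso, hsb] at this
      have : 1 - τ = 0 := by rw [this]; ring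
      linarith
    · rw [he0] at hi3
      obtain ⟨σ, _, _, e⟩ := mem_segment_comb hi3
      have := congrArg t e
      rw [htx, affine_comb t (by ring), hto, hta] at this
      have : τ = 0 := by rw [this]; ring
      linarith
    · have hQ := lemmaQ (hout i hi4 (by omega)) (hout (i + 1) (by omega) (by omega))
        (hleg i hi4 hi5 1 le_rfl)
      set c := v i with hc
      set d := v (i + 1) with hd
      -- both end points are beyond the line `a b`
      have hge : ∀ z ∈ segment ℝ c d, 1 ≤ s z + t z := by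
        intro z hz
        by_contra hlt
        push Not at hlt
        -- move a little from `x` to `z`
        have hcont : Continuous fun δ : ℝ => min (s ((1 - δ) • x + δ • z)) (t ((1 - δ) • x + δ • z)) := by
          have hγ : Continuous fun δ : ℝ => (1 - δ) • x + δ • z := by fun_prop
          exact (s.continuous_of_finiteDimensional.comp hγ).min
            (t.continuous_of_finiteDimensional.comp hγ)
        have hpos0 : 0 < min (s ((1 - (0:ℝ)) • x + (0:ℝ) • z)) (t ((1 - (0:ℝ)) • x + (0:ℝ) • z)) := by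
          simp only [sub_zero, one_smul, zero_smul, add_zero, hsx, htx]
          exact lt_min (by linarith) h0
        have := (hcont.tendsto 0).eventually (lt_mem_nhds hpos0)
        obtain ⟨ε, hε, hball⟩ := Metric.eventually_nhds_iff.1 this
        set δ := min (ε / 2) 1 with hδ
        have hδ0 : 0 < δ := lt_min (by linarith) one_pos
        have hδ1 : δ ≤ 1 := min_le_right _ _
        have hδε : dist δ 0 < ε := by
          rw [Real.dist_eq, sub_zero, abs_of_pos hδ0]
          exact lt_of_le_of_lt (min_le_left _ _) (by linarith)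
        have h7 := hball hδε
        have h8 := lt_min_iff.1 h7
        refine hQ ((1 - δ) • x + δ • z) ?_ ⟨h8.1.le, h8.2.le, ?_⟩
        · exact (convex_segment c d) hi3 hz (by linarith) hδ0.le (by ring)
        · rw [affine_comb s (by ring), affine_comb t (by ring), hsx, htx]
          nlinarith
      have hgc := hge c (left_mem_segment ℝ c d)
      have hgd := hge d (right_mem_segment ℝ c d)
      obtain ⟨σ, hσ0, hσ1, hσ⟩ := mem_segment_comb hi3
      have e1 : s x = (1 - σ) * s c + σ * s d := by rw [hσ, affine_comb s (by ring)]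
      have e2 : t x = (1 - σ) * t c + σ * t d := by rw [hσ, affine_comb t (by ring)]
      -- `x` is not a vertex
      have hxc : ∀ z : ℤ, 1 ≤ z → z ≤ n - 1 → x ≠ v z := by
        intro z hz1 hz2 hz
        have h9 := hcand' z hz1 hz2 (by rw [← hz, hsx]; linarith) (by rw [← hz, htx]; linarith)
          (by rw [← hz, hsx, htx]; linarith)
        rcases h9 with rfl | rfl
        · have := congrArg t hz; rw [htx, hta] at this; linarith
        · have := congrArg s hz; rw [hsx, hvn, hsb] at this; linarith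
      have hσ0' : 0 < σ := by
        rcases hσ0.eq_or_lt with h' | h'
        · exfalso; rw [← h'] at hσ
          exact hxc i hi4 (by omega) (by rw [hσ, ← hc]; simp)
        · exact h'
      have hσ1' : σ < 1 := by
        rcases hσ1.eq_or_lt with h' | h'
        · exfalso; rw [h'] at hσ
          exact hxc (i + 1) (by omega) (by omega) (by rw [hσ, ← hd]; simp)
        · exact h'
      have hlc : s c + t c = 1 := by nlinarith
      have hld : s d + t d = 1 := by nlinarith
      -- position on the line `ab`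
      have hpos : ∀ z : ℤ, 1 ≤ z → z ≤ n - 1 → s (v z) + t (v z) = 1 →
          s (v z) ≤ 0 ∨ 1 ≤ s (v z) := by
        intro z hz1 hz2 hz
        by_contra hcon
        push Not at hcon
        rcases hcand' z hz1 hz2 hcon.1.le (by linarith [hcon.2]) hz.le with rfl | rfl
        · linarith [hcon.2]
        · rw [hvn, hsb] at hcon; linarith [hcon.1]
      have hmem : ∀ y, s y + t y = 1 → (s c ≤ s y ∧ s y ≤ s d ∨ s d ≤ s y ∧ s y ≤ s c) →
          s c ≠ s d → y ∈ segment ℝ c d := by
        intro y hy hbet hne'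
        have hden : s d - s c ≠ 0 := sub_ne_zero.2 (Ne.symm hne')
        have e : y = (1 - (s y - s c) / (s d - s c)) • c + ((s y - s c) / (s d - s c)) • d := by
          apply hst.inj
          · rw [affine_comb s (by ring)]; field_simp; ring
          · rw [affine_comb t (by ring)]
            have h1' : t y = 1 - s y := by linarith
            have h2' : t c = 1 - s c := by linarith
            have h3' : t d = 1 - s d := by linarith
            rw [h1', h2', h3']; field_simp; ring
        have hr : 0 ≤ (s y - s c) / (s d - s c) ∧ (s y - s c) / (s d - s c) ≤ 1 := by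
          rcases hbet with ⟨h5, h6⟩ | ⟨h5, h6⟩
          · have hp : 0 < s d - s c := lt_of_le_of_ne (by linarith) (Ne.symm hden)
            exact ⟨div_nonneg (by linarith) hp.le, by rw [div_le_one hp]; linarith⟩
          · have hp : s d - s c < 0 := lt_of_le_of_ne (by linarith) hden
            exact ⟨div_nonneg_of_nonpos (by linarith) hp.le, by
              rw [div_le_one_of_neg hp]; linarith⟩
        rw [e]; exact comb_mem_segment hr.1 hr.2
      have hsc := hpos i hi4 (by omega) hlc
      have hsd := hpos (i + 1) (by omega) (by omega) hld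
      rw [← hc] at hsc
      rw [← hd] at hsd
      have hsx0 : 0 < s x := by rw [hsx]; linarith
      have hsx1 : s x < 1 := by rw [hsx]; linarith
      have hab : v 1 ∈ edge v i ∧ v (-1) ∈ edge v i := by
        rcases hsc with hsc | hsc <;> rcases hsd with hsd | hsd
        · exfalso; nlinarith
        · exact ⟨hmem _ (by rw [hsa, hta]; ring) (Or.inl ⟨by rw [hsa]; linarith, by rw [hsa]; exact hsd⟩)
            (by intro h'; linarith),
            hmem _ (by rw [hsb, htb]; ring) (Or.inl ⟨by rw [hsb]; exact hsc, by rw [hsb]; linarith⟩)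
            (by intro h'; linarith)⟩
        · exact ⟨hmem _ (by rw [hsa, hta]; ring) (Or.inr ⟨by rw [hsa]; linarith, by rw [hsa]; exact hsc⟩)
            (by intro h'; linarith),
            hmem _ (by rw [hsb, htb]; ring) (Or.inr ⟨by rw [hsb]; exact hsd, by rw [hsb]; linarith⟩)
            (by intro h'; linarith)⟩
        · exfalso; nlinarith
      have hi1' : i = 1 := by
        rcases h.vertex_mem_edge hab.1 with h' | h'
        · have := dvd_small h' (by omega) (by omega); omega
        · have := dvd_small h' (by omega) (by omega); omega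
      rcases h.vertex_mem_edge hab.2 with h' | h'
      · have := dvd_small h' (by omega) (by omega); omega
      · have := dvd_small h' (by omega) (by omega); omega

/-- **diagonal lemma**: a closed simple polygon with at least 4 vertices has a diagonal -/
theorem Poly.exists_diag {n : ℕ} {v : ℤ → ℝ × ℝ} (h : Poly n v) (h4 : 4 ≤ n) :
    ∃ c : ℤ, ∃ k : ℕ, 2 ≤ k ∧ k + 2 ≤ n ∧
      ∀ x ∈ segment ℝ (v (c + k)) (v c), x ∈ polySet v → x = v c ∨ x = v (c + k) := by
  obtain ⟨i₀, _, hi₀⟩ := Finset.exists_min_image (Finset.Ico (0:ℤ) n) (fun i => toLex (v i))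
    ⟨0, by simp; omega⟩
  have hmin : ∀ j, toLex (v i₀) ≤ toLex (v j) := by
    intro j
    obtain ⟨j', h1, h2, h3⟩ := h.exists_rep 0 j
    rw [h.eq_of_dvd h3]
    exact hi₀ j' (Finset.mem_Ico.2 ⟨h1, by simpa using h2⟩)
  have hs := h.shift i₀
  obtain ⟨c, k, h1, h2, h3⟩ := hs.diag_aux h4 (hs.corner (by
    intro j
    simp only [zero_add]
    exact hmin _))
  refine ⟨c + i₀, k, h1, h2, ?_⟩
  rw [polySet_shift] at h3
  intro x hx hxp
  have := h3 x (by
    have e : c + (k : ℤ) + i₀ = c + i₀ + k := by ring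
    simp only [e]; exact hx) hxp
  have e : c + (k : ℤ) + i₀ = c + i₀ + k := by ring
  simp only [e] at this
  exact this

end Crest.Agent.R096.Pl
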