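import Crest.Agent.R096.PlCut_296

/-!
# Standard spheres, marked pairs (helper296, row 96, P2-Y)
-/

namespace Crest.Agent.R096.Pl

open Set Metric

set_option linter.unusedSectionVars false

variable {F : Type*} [NormedAddCommGroup F] [NormedSpace ℝ F]

/-- standard spheres: images of the double cone sphere under a PL homeo of `F × ℝ` -/
def StdC (S : Set (F × ℝ)) : Prop := ∃ H : (F × ℝ) ≃ₜ (F × ℝ), PLH H ∧ H '' S1 F = S

theorem StdS.stdC {E₁ E₂ : Set (F × ℝ)} (h : StdS E₁ E₂) : StdC (E₁ ∪ E₂) := by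
  obtain ⟨H, hH, h1, h2⟩ := h
  exact ⟨H, hH, by rw [← Kp_union_Km, image_union, h1, h2]⟩

theorem StdC.map {S : Set (F × ℝ)} (h : StdC S) {G : (F × ℝ) ≃ₜ (F × ℝ)} (hG : PLH G) :
    StdC (G '' S) := by
  obtain ⟨H, hH, h1⟩ := h
  exact ⟨H.trans G, hH.trans hG, by rw [trans_image, h1]⟩

theorem StdS.inter {E₁ E₂ : Set (F × ℝ)} {H : (F × ℝ) ≃ₜ (F × ℝ)} (h1 : H '' Kp F = E₁)
    (h2 : H '' Km F = E₂) : H '' Eqt F = E₁ ∩ E₂ := by
  rw [← Kp_inter_Km, image_inter H.injective, h1, h2]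

/-- the cut lemma in terms of `StdS` only -/
theorem StdS.cut (hF : PolyNorm F) [FiniteDimensional ℝ F] [Nontrivial F]
    {E₁ E₂ D : Set (F × ℝ)} (h1 : StdS E₁ D) (h2 : StdS E₂ D)
    (hE : E₁ ∩ E₂ = E₁ ∩ D) (hD : E₂ ∩ D = E₁ ∩ D) : StdS E₁ E₂ := by
  obtain ⟨HA, hA, hA1, hA2⟩ := h1
  obtain ⟨HB, hB, hB1, hB2⟩ := h2
  exact cut_lemma hF hA hB hA1 hA2 (StdS.inter hA1 hA2) hB1 hB2
    ((StdS.inter hB1 hB2).trans hD) hE

theorem Kp_diff_eq : Kp F \ Eqt F = S1 F ∩ {p | 0 < p.2} := by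
  ext p
  simp only [Kp, Eqt, S1, mem_sdiff, mem_inter_iff, mem_ofPred_eq]
  constructor
  · rintro ⟨⟨h1, h2⟩, h3⟩
    refine ⟨h2, lt_of_le_of_ne h1 (fun h => h3 ⟨h.symm, ?_⟩)⟩
    unfold N1 at h2; rw [← h] at h2; simpa using h2
  · rintro ⟨h1, h2⟩
    exact ⟨⟨h2.le, h1⟩, fun h => h2.ne' h.1⟩

theorem Km_diff_eq : Km F \ Eqt F = S1 F ∩ {p | p.2 < 0} := by
  ext p
  simp only [Km, Eqt, S1, mem_sdiff, mem_inter_iff, mem_ofPred_eq]
  constructor
  · rintro ⟨⟨h1, h2⟩, h3⟩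
    refine ⟨h2, lt_of_le_of_ne h1 (fun h => h3 ⟨h, ?_⟩)⟩
    unfold N1 at h2; rw [h] at h2; simpa using h2
  · rintro ⟨h1, h2⟩
    exact ⟨⟨h2.le, h1⟩, fun h => h2.ne h.1⟩

theorem Km_diff_nonempty : (Km F \ Eqt F).Nonempty := by
  refine ⟨(0, -1), ⟨by simp [Km, N1], ?_⟩⟩
  simp [Eqt]

theorem Eqt_subset_S1 : Eqt F ⊆ S1 F :=
  Eqt_subset_Kp.trans (by rw [← Kp_union_Km]; exact subset_union_left)

/-- if `H` maps the double cone sphere onto `S` and the equator onto `Γ`, then any decomposition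
of `S` into two pieces meeting in `Γ` with connected interiors is a standard pair -/
theorem StdS_of_equator {S E D Γ : Set (F × ℝ)} {H : (F × ℝ) ≃ₜ (F × ℝ)} (hH : PLH H)
    (hS : H '' S1 F = S) (hΓ : H '' Eqt F = Γ) (hED : E ∪ D = S) (hi : E ∩ D = Γ)
    (hE : IsPreconnected (E \ Γ)) (hD : IsPreconnected (D \ Γ)) : StdS E D := by
  have hopP : IsOpen (H '' {p : F × ℝ | 0 < p.2}) :=
    H.isOpenMap _ (isOpen_lt continuous_const continuous_snd)
  have hopM : IsOpen (H '' {p : F × ℝ | p.2 < 0}) :=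
    H.isOpenMap _ (isOpen_lt continuous_snd continuous_const)
  have hPM : Disjoint (H '' {p : F × ℝ | 0 < p.2}) (H '' {p : F × ℝ | p.2 < 0}) := by
    rw [disjoint_image_iff H.injective, disjoint_left]
    intro p hp hp'
    exact absurd (show 0 < p.2 from hp) (not_lt.2 (le_of_lt (show p.2 < 0 from hp')))
  have hcov : S \ Γ ⊆ H '' {p : F × ℝ | 0 < p.2} ∪ H '' {p : F × ℝ | p.2 < 0} := by
    rintro _ ⟨hq, hqΓ⟩
    rw [← hS] at hq
    obtain ⟨q, hq, rfl⟩ := hq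
    have hne : q.2 ≠ 0 := by
      intro h0
      apply hqΓ
      rw [← hΓ]
      refine mem_image_of_mem _ ⟨h0, ?_⟩
      have : N1 q = 1 := hq
      unfold N1 at this; rw [h0] at this; simpa using this
    rcases hne.lt_or_gt with h | h
    · exact Or.inr (mem_image_of_mem _ h)
    · exact Or.inl (mem_image_of_mem _ h)
  have hES : E \ Γ ⊆ S \ Γ := sdiff_subset_sdiff_left (by rw [← hED]; exact subset_union_left)
  have hDS : D \ Γ ⊆ S \ Γ := sdiff_subset_sdiff_left (by rw [← hED]; exact subset_union_right)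
  have hKpS : H '' (Kp F \ Eqt F) = (S \ Γ) ∩ H '' {p : F × ℝ | 0 < p.2} := by
    rw [Kp_diff_eq, ← hS, ← hΓ, ← image_sdiff H.injective, ← image_inter H.injective]
    congr 1
    ext p
    simp only [mem_inter_iff, mem_sdiff, mem_ofPred_eq]
    exact ⟨fun ⟨h1, h2⟩ => ⟨⟨h1, fun h => h2.ne' h.1⟩, h2⟩, fun ⟨⟨h1, _⟩, h2⟩ => ⟨h1, h2⟩⟩
  have hKmS : H '' (Km F \ Eqt F) = (S \ Γ) ∩ H '' {p : F × ℝ | p.2 < 0} := by
    rw [Km_diff_eq, ← hS, ← hΓ, ← image_sdiff H.injective, ← image_inter H.injective]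
    congr 1
    ext p
    simp only [mem_inter_iff, mem_sdiff, mem_ofPred_eq]
    exact ⟨fun ⟨h1, h2⟩ => ⟨⟨h1, fun h => h2.ne h.1⟩, h2⟩, fun ⟨⟨h1, _⟩, h2⟩ => ⟨h1, h2⟩⟩
  have hSED : S \ Γ = (E \ Γ) ∪ (D \ Γ) := by rw [← hED, union_sdiff_distrib]
  -- the general conclusion
  have concl : ∀ A B : Set (F × ℝ), A ∪ B = S → A ∩ B = Γ →
      A \ Γ ⊆ H '' {p : F × ℝ | 0 < p.2} → B \ Γ ⊆ H '' {p : F × ℝ | p.2 < 0} →
      StdS A B := by
    intro A B hAB hiAB hA hB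
    have hΓA : Γ ⊆ A := by rw [← hiAB]; exact inter_subset_left
    have hΓB : Γ ⊆ B := by rw [← hiAB]; exact inter_subset_right
    have hSAB : S \ Γ = (A \ Γ) ∪ (B \ Γ) := by rw [← hAB, union_sdiff_distrib]
    have e1 : A \ Γ = H '' (Kp F \ Eqt F) := by
      rw [hKpS, hSAB]
      apply Subset.antisymm
      · exact fun p hp => ⟨Or.inl hp, hA hp⟩
      · rintro p ⟨hp | hp, hp'⟩
        · exact hp
        · exact absurd (hB hp) (disjoint_left.1 hPM hp')
    have e2 : B \ Γ = H '' (Km F \ Eqt F) := by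
      rw [hKmS, hSAB]
      apply Subset.antisymm
      · exact fun p hp => ⟨Or.inr hp, hB hp⟩
      · rintro p ⟨hp | hp, hp'⟩
        · exact absurd hp' (disjoint_left.1 hPM (hA hp))
        · exact hp
    refine ⟨H, hH, ?_, ?_⟩
    · rw [← sdiff_union_of_subset Eqt_subset_Kp, image_union, ← e1, hΓ,
        sdiff_union_of_subset hΓA]
    · rw [← sdiff_union_of_subset Eqt_subset_Km, image_union, ← e2, hΓ,
        sdiff_union_of_subset hΓB]
  have hnp : ¬ S \ Γ ⊆ H '' {p : F × ℝ | 0 < p.2} := by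
    intro h
    obtain ⟨q, hq⟩ := (Km_diff_nonempty (F := F)).image H
    rw [hKmS] at hq
    exact disjoint_left.1 hPM (h hq.1) hq.2
  have hnm : ¬ S \ Γ ⊆ H '' {p : F × ℝ | p.2 < 0} := by
    intro h
    obtain ⟨q, hq⟩ := (Kp_diff_nonempty (F := F)).image H
    rw [hKpS] at hq
    exact disjoint_left.1 hPM hq.2 (h hq.1)
  rcases hE.subset_or_subset hopP hopM hPM (hES.trans hcov) with h1 | h1 <;>
    rcases hD.subset_or_subset hopP hopM hPM (hDS.trans hcov) with h2 | h2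
  · exact absurd (by rw [hSED]; exact union_subset h1 h2) hnp
  · exact concl E D hED hi h1 h2
  · exact (concl D E (by rw [union_comm]; exact hED) (by rw [inter_comm]; exact hi) h2 h1).symm
  · exact absurd (by rw [hSED]; exact union_subset h1 h2) hnm

/-! ### the half push -/

/-- a PL homeo which fixes the upper disc and moves the flat disc onto the lower disc -/
theorem exists_halfPush (hF : PolyNorm F) :
    ∃ H : (F × ℝ) ≃ₜ (F × ℝ), PLH H ∧ (∀ p ∈ Kp F, H p = p) ∧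
      (∀ x : F, ‖x‖ ≤ 1 → H (x, 0) = em x) ∧
      (∀ p : F × ℝ, 1 ≤ ‖p.1‖ + |p.2| / 2 → H p = p) := by
  let a : Bool → F × ℝ → ℝ := fun b p => (1 - ‖p.1‖) + (if b then -1 else 1/2) * p.2
  have hPL : ∀ i, PLMap (a i) := fun i =>
    ((PLMap.const 1).sub (hF.pl.comp PLMap.id.fst)).add (PLMap.id.snd.const_mul _)
  have hv : ∀ i, 0 < a i ((0 : F), (0 : ℝ)) := by
    intro i
    cases i <;> simp [a]
  have hv' : ∀ i, 0 < a i ((0 : F), (-1 : ℝ)) := by
    intro i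
    cases i <;> simp only [a, norm_zero] <;> norm_num
  have hdir : (((0 : F), (-1 : ℝ)) - ((0 : F), (0 : ℝ))) = ((0 : F), (-1 : ℝ)) := by
    ext <;> norm_num
  have ha : ∀ i (x : F × ℝ) (c : ℝ), a i (x + c • (((0 : F), (-1 : ℝ)) - ((0 : F), (0 : ℝ)))) =
      a i x + c * (a i ((0 : F), (-1 : ℝ)) - a i ((0 : F), (0 : ℝ))) := by
    intro i x c
    rw [hdir]
    cases i <;> simp only [a, Prod.fst_add, Prod.snd_add, Prod.smul_fst, Prod.smul_snd, smul_zero,
      add_zero, norm_zero, smul_eq_mul] <;> norm_num <;> ring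
  refine ⟨coneH a _ _ hPL hv hv' ha, PLH_coneH _ _ _ _ _ _ _, ?_, ?_, ?_⟩
  · rintro p ⟨h1, h2⟩
    rw [coneH_apply]
    refine coneMap_of_le hv ⟨true, ?_⟩
    unfold N1 at h2
    rw [abs_of_nonneg h1] at h2
    simp only [a]; norm_num; linarith
  · intro x hx
    have hd : depth a ((0 : F), (0 : ℝ)) (x, 0) = 1 - ‖x‖ := by
      rw [depth_eq_iff hv]
      refine ⟨fun i => ?_, true, ?_⟩
      · cases i <;> simp only [a, norm_zero] <;> norm_num
      · simp only [a, norm_zero]; norm_num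
    rw [coneH_apply, coneMap_of_depth_nonneg (by rw [hd]; linarith), hd, hdir]
    ext
    · simp [em]
    · simp [em]
  · intro p hp
    rw [coneH_apply]
    refine coneMap_of_le hv ?_
    rcases le_total 0 p.2 with h | h
    · refine ⟨true, ?_⟩
      rw [abs_of_nonneg h] at hp
      simp only [a]; norm_num; linarith
    · refine ⟨false, ?_⟩
      rw [abs_of_nonpos h, neg_div] at hp
      simp only [a]; norm_num; linarith

end Crest.Agent.R096.Pl
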