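import Crest.Agent.R096.PlCurve_296
import Crest.Agent.R096.PlCan2_458

/-!
# Pushing closed subsets of the octahedral sphere into the lower half (helper296, row 96, P2-Y)
-/

namespace Crest.Agent.R096.Pl

open Set Metric Topology

set_option linter.unusedSectionVars false

/-! ### lifting PL homeos of the disc to the sphere -/

section lift

variable {F : Type*} [NormedAddCommGroup F] [NormedSpace ℝ F]

/-- transfer of a self map `f` of the unit ball of `F` to the upper half of the sphere -/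
noncomputable def onUpF (f : F → F) (p : F × ℝ) : F × ℝ :=
  if 0 ≤ p.2 then (f p.1, 1 - ‖f p.1‖) else p

theorem onUpF_mapsTo {f : F → F} (hf : ∀ x, ‖x‖ ≤ 1 → ‖f x‖ ≤ 1) :
    MapsTo (onUpF f) (S1 F) (S1 F) := by
  intro p hp
  have hp' : ‖p.1‖ + |p.2| = 1 := hp
  unfold onUpF
  split_ifs with h
  · have : ‖f p.1‖ ≤ 1 := hf _ (by have := abs_nonneg p.2; linarith)
    show ‖f p.1‖ + abs (1 - ‖f p.1‖) = 1
    rw [abs_of_nonneg (by linarith : 0 ≤ 1 - ‖f p.1‖)]; ring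
  · exact hp

theorem isClosed_Kp : IsClosed (Kp F) := by
  have : Kp F = {p : F × ℝ | 0 ≤ p.2} ∩ {p | N1 p = 1} := rfl
  rw [this]
  exact (isClosed_le continuous_const continuous_snd).inter
    (isClosed_eq N1_continuous continuous_const)

theorem isClosed_Km : IsClosed (Km F) := by
  have : Km F = {p : F × ℝ | p.2 ≤ 0} ∩ {p | N1 p = 1} := rfl
  rw [this]
  exact (isClosed_le continuous_snd continuous_const).inter
    (isClosed_eq N1_continuous continuous_const)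

theorem onUpF_on_Km {f : F → F} (hb : ∀ x, 1 ≤ ‖x‖ → f x = x) :
    ∀ p ∈ Km F, onUpF f p = p := by
  intro p hp
  unfold onUpF
  split_ifs with h
  · have h0 : p.2 = 0 := le_antisymm hp.1 h
    have hN : ‖p.1‖ + |p.2| = 1 := hp.2
    rw [h0, abs_zero, add_zero] at hN
    rw [hb _ hN.ge]; ext
    · rfl
    · simp [hN, h0]
  · rfl

theorem onUpF_continuousOn {f : F → F} (hf : Continuous f) (hb : ∀ x, 1 ≤ ‖x‖ → f x = x) :
    ContinuousOn (onUpF f) (S1 F) := by
  have hup : ContinuousOn (onUpF f) (Kp F) := by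
    have : Continuous fun p : F × ℝ => (f p.1, 1 - ‖f p.1‖) := by fun_prop
    refine this.continuousOn.congr fun p hp => ?_
    unfold onUpF; rw [if_pos hp.1]
  have hlo : ContinuousOn (onUpF f) (Km F) := continuousOn_id.congr (onUpF_on_Km hb)
  rw [← Kp_union_Km]
  exact hup.union_of_isClosed hlo isClosed_Kp isClosed_Km

theorem onUpF_sel (hF : PolyNorm F) {f : F → F} (hf : PLMap f) : SelOn (onUpF f) (S1 F) := by
  have h1 : PLMap fun p : F × ℝ => (f p.1, 1 - ‖f p.1‖) :=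
    (hf.comp PLMap.id.fst).prodMk ((PLMap.const 1).sub (hF.pl.comp (hf.comp PLMap.id.fst)))
  obtain ⟨G, hG, hG'⟩ := h1.selOn univ
  refine ⟨insert (AffineMap.id ℝ _) G, hG.insert _, fun p _ => ?_⟩
  unfold onUpF
  split_ifs
  · obtain ⟨a, ha, h⟩ := hG' p (mem_univ _)
    exact ⟨a, Or.inr ha, h⟩
  · exact ⟨_, Or.inl rfl, rfl⟩

theorem onUpF_leftInv {f f' : F → F} (hf : ∀ x, ‖x‖ ≤ 1 → ‖f x‖ ≤ 1)
    (h : ∀ x, f' (f x) = x) : ∀ p ∈ S1 F, onUpF f' (onUpF f p) = p := by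
  intro p hp
  have hp' : ‖p.1‖ + |p.2| = 1 := hp
  by_cases h0 : 0 ≤ p.2
  · have h1 : ‖f p.1‖ ≤ 1 := hf _ (by have := abs_nonneg p.2; linarith)
    have e : onUpF f p = (f p.1, 1 - ‖f p.1‖) := by unfold onUpF; rw [if_pos h0]
    rw [e]
    unfold onUpF
    rw [if_pos (by simpa using h1)]
    simp only [h]
    rw [abs_of_nonneg h0] at hp'
    ext
    · rfl
    · simp only; linarith
  · unfold onUpF
    rw [if_neg h0, if_neg h0]

/-- a PL homeo of `F` supported in the unit ball lifts to the upper half of the sphere -/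
theorem exists_lift (hF : PolyNorm F) [FiniteDimensional ℝ F] {f : F ≃ₜ F} (hf : PLH f)
    (hb : ∀ x, 1 ≤ ‖x‖ → f x = x) :
    ∃ H : (F × ℝ) ≃ₜ (F × ℝ), PLH H ∧ H '' S1 F = S1 F ∧ (∀ p ∈ Km F, H p = p) ∧
      (∀ p ∈ Kp F, H p = (f p.1, 1 - ‖f p.1‖)) := by
  have hb' : ∀ x, 1 ≤ ‖x‖ → f.symm x = x := fun x hx => by
    rw [Homeomorph.symm_apply_eq, hb x hx]
  have hle : ∀ x, ‖x‖ ≤ 1 → ‖f x‖ ≤ 1 := by
    intro x hx
    by_contra hlt
    push Not at hlt
    have := hb' (f x) hlt.le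
    rw [f.symm_apply_apply] at this
    rw [← this] at hlt; linarith
  have hle' : ∀ x, ‖x‖ ≤ 1 → ‖f.symm x‖ ≤ 1 := by
    intro x hx
    by_contra hlt
    push Not at hlt
    have := hb (f.symm x) hlt.le
    rw [f.apply_symm_apply] at this
    rw [← this] at hlt; linarith
  obtain ⟨H, hH, hHg, -, hHS⟩ := exists_cone hF (g := onUpF f) (g' := onUpF f.symm)
    (onUpF_continuousOn hf.1.continuous hb) (onUpF_sel hF hf.1)
    (onUpF_continuousOn hf.2.continuous hb') (onUpF_sel hF hf.2)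
    (onUpF_mapsTo hle) (onUpF_mapsTo hle')
    (onUpF_leftInv hle f.symm_apply_apply) (onUpF_leftInv hle' f.apply_symm_apply)
  refine ⟨H, hH, hHS, fun p hp => ?_, fun p hp => ?_⟩
  · rw [hHg p (by rw [← Kp_union_Km]; exact Or.inr hp), onUpF_on_Km hb p hp]
  · rw [hHg p (by rw [← Kp_union_Km]; exact Or.inl hp)]
    unfold onUpF; rw [if_pos hp.1]

end lift

/-! ### the plane with the sup norm -/

theorem norm_plane (x : ℝ × ℝ) : ‖x‖ = max |x.1| |x.2| := rfl

/-- the four sides of the unit square -/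
noncomputable def sides : Fin 4 → (ℝ × ℝ) →ᵃ[ℝ] ℝ := ![
  AffineMap.const ℝ _ 1 - (LinearMap.fst ℝ ℝ ℝ).toAffineMap,
  AffineMap.const ℝ _ 1 + (LinearMap.fst ℝ ℝ ℝ).toAffineMap,
  AffineMap.const ℝ _ 1 - (LinearMap.snd ℝ ℝ ℝ).toAffineMap,
  AffineMap.const ℝ _ 1 + (LinearMap.snd ℝ ℝ ℝ).toAffineMap]

theorem sides_pos {x : ℝ × ℝ} (hx : ‖x‖ < 1) : ∀ i, 0 < sides i x := by
  rw [norm_plane, max_lt_iff, abs_lt, abs_lt] at hx
  intro i
  fin_cases i <;> simp [sides] <;> linarith [hx.1.1, hx.1.2, hx.2.1, hx.2.2]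

theorem sides_nonpos {x : ℝ × ℝ} (hx : 1 ≤ ‖x‖) : ∃ i, sides i x ≤ 0 := by
  rw [norm_plane, le_max_iff, le_abs, le_abs] at hx
  rcases hx with (h | h) | (h | h)
  · exact ⟨0, by simp [sides]; linarith⟩
  · exact ⟨1, by simp [sides]; linarith⟩
  · exact ⟨2, by simp [sides]; linarith⟩
  · exact ⟨3, by simp [sides]; linarith⟩

/-- a point of the open upper half of the octahedral sphere can be moved to the top -/
theorem move_to_top {q : (ℝ × ℝ) × ℝ} (hq : q ∈ S1 (ℝ × ℝ)) (hpos : 0 < q.2) :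
    ∃ H : ((ℝ × ℝ) × ℝ) ≃ₜ ((ℝ × ℝ) × ℝ), PLH H ∧ H '' S1 (ℝ × ℝ) = S1 (ℝ × ℝ) ∧
      H q = (0, 1) := by
  have hq' : ‖q.1‖ + |q.2| = 1 := hq
  rw [abs_of_pos hpos] at hq'
  obtain ⟨f, hf, hf1, hf2, -⟩ := exists_coneMove sides (v := q.1) (v' := 0)
    (sides_pos (by linarith)) (sides_pos (by simp))
  obtain ⟨H, hH, hHS, -, hup⟩ := exists_lift polyNorm_plane hf
    (fun x hx => hf2 x (sides_nonpos hx))
  refine ⟨H, hH, hHS, ?_⟩
  rw [hup q ⟨hpos.le, hq⟩, hf1]; simp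

/-! ### the upward moves -/

/-- rotated coordinates: `((u,w),z) ↦ ((u+w,u-w),z)`, `‖·‖_∞ ↔ ℓ¹` -/
noncomputable def rotH : (ℝ × ℝ) ≃ₜ (ℝ × ℝ) :=
  mkH (fun p => (p.1 + p.2, p.1 - p.2)) (fun p => ((p.1 + p.2) / 2, (p.1 - p.2) / 2))
    ((PLMap.id.fst.add PLMap.id.snd).prodMk (PLMap.id.fst.sub PLMap.id.snd))
    (((PLMap.id.fst.add PLMap.id.snd).div_const 2).prodMk
      ((PLMap.id.fst.sub PLMap.id.snd).div_const 2))
    (fun p => by ext <;> simp) (fun p => by ext <;> simp <;> ring)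

theorem rotH_apply (p : ℝ × ℝ) : rotH p = (p.1 + p.2, p.1 - p.2) := rfl

theorem rotH_symm_apply (p : ℝ × ℝ) : rotH.symm p = ((p.1 + p.2) / 2, (p.1 - p.2) / 2) := rfl

theorem PLH_rotH : PLH rotH := PLH_mkH _ _ _ _ _ _

theorem norm_rotH (p : ℝ × ℝ) : ‖rotH p‖ = |p.1| + |p.2| := by
  rw [rotH_apply, norm_plane]
  apply le_antisymm
  · exact max_le (abs_add_le _ _) (by simpa using abs_sub p.1 p.2)
  · rcases le_total 0 p.1 with h | h <;> rcases le_total 0 p.2 with h' | h'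
    · rw [abs_of_nonneg h, abs_of_nonneg h']; exact le_trans (le_abs_self _) (le_max_left _ _)
    · rw [abs_of_nonneg h, abs_of_nonpos h']
      exact le_trans (by rw [← sub_eq_add_neg]; exact le_abs_self _) (le_max_right _ _)
    · rw [abs_of_nonpos h, abs_of_nonneg h']
      exact le_trans (by rw [show -p.1 + p.2 = -(p.1 - p.2) by ring]; exact neg_le_abs _)
        (le_max_right _ _)
    · rw [abs_of_nonpos h, abs_of_nonpos h']
      exact le_trans (by rw [show -p.1 + -p.2 = -(p.1 + p.2) by ring]; exact neg_le_abs _)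
        (le_max_left _ _)

theorem norm_rotH' (p : ℝ × ℝ) : ‖rotH p‖ = N1 p := norm_rotH p

/-- product of homeos with the identity of the vertical axis -/
def timesId {F G : Type*} [TopologicalSpace F] [TopologicalSpace G] (h : F ≃ₜ G) :
    (F × ℝ) ≃ₜ (G × ℝ) := h.prodCongr (Homeomorph.refl ℝ)

theorem timesId_apply {F G : Type*} [TopologicalSpace F] [TopologicalSpace G] (h : F ≃ₜ G)
    (p : F × ℝ) : timesId h p = (h p.1, p.2) := rfl

theorem PLH_timesId {F G : Type*} [NormedAddCommGroup F] [NormedSpace ℝ F]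
    [NormedAddCommGroup G] [NormedSpace ℝ G] {h : F ≃ₜ G} (hh : PLH h) : PLH (timesId h) :=
  ⟨(hh.1.comp PLMap.id.fst).prodMk PLMap.id.snd, (hh.2.comp PLMap.id.fst).prodMk PLMap.id.snd⟩

/-- the upward move `G`, rotated coordinates -/
noncomputable def gup (p : (ℝ × ℝ) × ℝ) : (ℝ × ℝ) × ℝ :=
  ((p.1.1 + |p.2| - |p.2 + max 0 p.1.1 / 2|, p.1.2), p.2 + max 0 p.1.1 / 2)

/-- its inverse -/
noncomputable def gdn (p : (ℝ × ℝ) × ℝ) : (ℝ × ℝ) × ℝ :=
  ((p.1.1 + |p.2| - abs (max (2 * p.2 - max 0 p.1.1 - |p.2|) ((2 * p.2 - max 0 p.1.1 - |p.2|) / 3)),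
    p.1.2), max (2 * p.2 - max 0 p.1.1 - |p.2|) ((2 * p.2 - max 0 p.1.1 - |p.2|) / 3))

theorem gup_pl : PLMap gup :=
  (((PLMap.id.fst.fst.add PLMap.id.snd.abs).sub
    ((PLMap.id.snd.add (((PLMap.const 0).max PLMap.id.fst.fst).div_const 2)).abs)).prodMk
      PLMap.id.fst.snd).prodMk (PLMap.id.snd.add (((PLMap.const 0).max PLMap.id.fst.fst).div_const 2))

theorem gdn_aux : PLMap (fun p : (ℝ × ℝ) × ℝ => max (2 * p.2 - max 0 p.1.1 - |p.2|)
    ((2 * p.2 - max 0 p.1.1 - |p.2|) / 3)) := by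
  have h1 : PLMap (fun p : (ℝ × ℝ) × ℝ => 2 * p.2 - max 0 p.1.1 - |p.2|) :=
    ((PLMap.id.snd.const_mul 2).sub ((PLMap.const 0).max PLMap.id.fst.fst)).sub PLMap.id.snd.abs
  exact h1.max (h1.div_const 3)

theorem gdn_pl : PLMap gdn :=
  (((PLMap.id.fst.fst.add PLMap.id.snd.abs).sub gdn_aux.abs).prodMk PLMap.id.fst.snd).prodMk gdn_aux

theorem gdn_gup (p : (ℝ × ℝ) × ℝ) : gdn (gup p) = p := by
  obtain ⟨⟨u, w⟩, z⟩ := p
  -- it suffices to compute the third coordinate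
  have key : max (2 * (z + max 0 u / 2) - max 0 (u + |z| - |z + max 0 u / 2|) -
      |z + max 0 u / 2|) ((2 * (z + max 0 u / 2) - max 0 (u + |z| - |z + max 0 u / 2|) -
      |z + max 0 u / 2|) / 3) = z := by
    rcases le_total u 0 with hu | hu
    · rw [max_eq_left hu]
      have e1 : max 0 (u + |z| - |z + 0 / 2|) = 0 := by
        rw [zero_div, add_zero]; exact max_eq_left (by linarith)
      rw [e1, zero_div, add_zero, sub_zero]
      rcases le_total z 0 with hz | hz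
      · rw [abs_of_nonpos hz, max_eq_right (by linarith)]; ring
      · rw [abs_of_nonneg hz, max_eq_left (by linarith)]; ring
    · rw [max_eq_right hu]
      rcases le_total z 0 with hz | hz
      · rw [abs_of_nonpos hz]
        rcases le_total (z + u / 2) 0 with h | h
        · rw [abs_of_nonpos h, max_eq_right (by linarith : 0 ≤ u + -z - -(z + u / 2)),
            max_eq_right (by linarith)]; ring
        · rw [abs_of_nonneg h, max_eq_right (by linarith : 0 ≤ u + -z - (z + u / 2)),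
            max_eq_right (by linarith)]; ring
      · rw [abs_of_nonneg hz, abs_of_nonneg (by linarith),
          max_eq_right (by linarith : 0 ≤ u + z - (z + u / 2)), max_eq_left (by linarith)]; ring
  unfold gdn gup
  simp only
  rw [key]
  ext
  · simp
  · simp
  · simp

theorem gup_gdn (p : (ℝ × ℝ) × ℝ) : gup (gdn p) = p := by
  obtain ⟨⟨u, w⟩, z⟩ := p
  set s := 2 * z - max 0 u - |z| with hs
  have key : max s (s / 3) + max 0 (u + |z| - abs (max s (s / 3))) / 2 = z := by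
    rcases le_total u 0 with hu | hu
    · rw [max_eq_left hu] at hs
      have e : max s (s / 3) = z := by
        rcases le_total z 0 with hz | hz
        · rw [abs_of_nonpos hz] at hs
          rw [max_eq_right (by linarith)]; linarith
        · rw [abs_of_nonneg hz] at hs
          rw [max_eq_left (by linarith)]; linarith
      rw [e, max_eq_left (by linarith)]; ring
    · rw [max_eq_right hu] at hs
      rcases le_total s 0 with h | h
      · rw [max_eq_right (by linarith : s ≤ s / 3), abs_of_nonpos (by linarith : s / 3 ≤ 0)]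
        rcases le_total z 0 with hz | hz
        · rw [abs_of_nonpos hz] at hs ⊢
          rw [max_eq_right (by linarith)]; linarith
        · rw [abs_of_nonneg hz] at hs ⊢
          rw [max_eq_right (by linarith)]; linarith
      · rw [max_eq_left (by linarith : s / 3 ≤ s), abs_of_nonneg h]
        rcases le_total z 0 with hz | hz
        · rw [abs_of_nonpos hz] at hs ⊢
          rw [max_eq_right (by linarith)]; linarith
        · rw [abs_of_nonneg hz] at hs ⊢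
          rw [max_eq_right (by linarith)]; linarith
  unfold gup gdn
  simp only
  rw [← hs, key]
  ext
  · simp
  · simp
  · simp

/-- the octahedral gauge in rotated coordinates -/
def oct (p : (ℝ × ℝ) × ℝ) : ℝ := |p.1.1| + |p.1.2| + |p.2|

theorem oct_gup (p : (ℝ × ℝ) × ℝ) : oct (gup p) = oct p := by
  obtain ⟨⟨u, w⟩, z⟩ := p
  unfold oct gup
  simp only
  rcases le_total u 0 with hu | hu
  · rw [max_eq_left hu, zero_div, add_zero]
    rw [show u + |z| - |z| = u by ring]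
  · rw [max_eq_right hu]
    have h1 : |z + u / 2| ≤ |z| + u / 2 := by
      have := abs_add_le z (u / 2); rwa [abs_of_nonneg (by linarith : 0 ≤ u / 2)] at this
    rw [abs_of_nonneg (by linarith : 0 ≤ u + |z| - |z + u / 2|), abs_of_nonneg hu]; ring

theorem gup_snd (p : (ℝ × ℝ) × ℝ) : p.2 ≤ (gup p).2 := by
  have h := le_max_left 0 p.1.1
  show p.2 ≤ p.2 + max 0 p.1.1 / 2
  linarith

theorem gup_snd_eq {p : (ℝ × ℝ) × ℝ} (h : (gup p).2 = p.2) : gup p = p ∧ p.1.1 ≤ 0 := by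
  have h1 : max 0 p.1.1 = 0 := by
    unfold gup at h
    simp only at h; linarith
  refine ⟨?_, by rw [← h1]; exact le_max_right _ _⟩
  unfold gup
  rw [h1]; ext <;> simp

/-- `gup` as a homeo -/
noncomputable def gH : ((ℝ × ℝ) × ℝ) ≃ₜ ((ℝ × ℝ) × ℝ) := mkH gup gdn gup_pl gdn_pl gdn_gup gup_gdn

theorem PLH_gH : PLH gH := PLH_mkH _ _ _ _ _ _

theorem gH_apply (p : (ℝ × ℝ) × ℝ) : gH p = gup p := rfl

/-- "good upward moves" in rotated coordinates -/
structure Upw (H : ((ℝ × ℝ) × ℝ) ≃ₜ ((ℝ × ℝ) × ℝ)) (P : (ℝ × ℝ) × ℝ → Prop) : Prop where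
  pl : PLH H
  oct : ∀ p, oct (H p) = oct p
  up : ∀ p, p.2 ≤ (H p).2
  eq : ∀ p, (H p).2 = p.2 → H p = p ∧ P p

theorem Upw.trans {H K : ((ℝ × ℝ) × ℝ) ≃ₜ ((ℝ × ℝ) × ℝ)} {P Q : (ℝ × ℝ) × ℝ → Prop}
    (h : Upw H P) (k : Upw K Q) : Upw (H.trans K) (fun p => P p ∧ Q p) where
  pl := h.pl.trans k.pl
  oct := fun p => by
    show Pl.oct (K (H p)) = Pl.oct p
    rw [k.oct, h.oct]
  up := fun p => (h.up p).trans (k.up (H p))
  eq := fun p hp => by
    have hp' : (K (H p)).2 = p.2 := hp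
    have h1 := h.up p
    have h2 := k.up (H p)
    have e1 : (H p).2 = p.2 := by linarith
    have e2 : (K (H p)).2 = (H p).2 := by linarith
    obtain ⟨h3, h4⟩ := h.eq p e1
    obtain ⟨h5, h6⟩ := k.eq (H p) e2
    refine ⟨?_, h4, ?_⟩
    · show K (H p) = p
      rw [h5, h3]
    · rw [h3] at h6; exact h6

/-- conjugation by a symmetry fixing the vertical coordinate -/
theorem Upw.conj {H σ : ((ℝ × ℝ) × ℝ) ≃ₜ ((ℝ × ℝ) × ℝ)} {P : (ℝ × ℝ) × ℝ → Prop}
    (h : Upw H P) (hσ : PLH σ) (ho : ∀ p, Pl.oct (σ p) = Pl.oct p) (hz : ∀ p, (σ p).2 = p.2)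
    (hi : ∀ p, σ (σ p) = p) : Upw (σ.trans (H.trans σ)) (fun p => P (σ p)) where
  pl := hσ.trans (h.pl.trans hσ)
  oct := fun p => by
    show Pl.oct (σ (H (σ p))) = Pl.oct p
    rw [ho, h.oct, ho]
  up := fun p => by
    show p.2 ≤ (σ (H (σ p))).2
    rw [hz, ← hz p]; exact h.up _
  eq := fun p hp => by
    have hp' : (σ (H (σ p))).2 = p.2 := hp
    rw [hz, ← hz p] at hp'
    obtain ⟨h1, h2⟩ := h.eq (σ p) hp'
    refine ⟨?_, h2⟩
    show σ (H (σ p)) = p
    rw [h1, hi]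

theorem upw_g : Upw gH (fun p => p.1.1 ≤ 0) :=
  ⟨PLH_gH, oct_gup, gup_snd, fun _ h => gup_snd_eq h⟩

/-- `u ↦ -u` -/
noncomputable def sgH : ((ℝ × ℝ) × ℝ) ≃ₜ ((ℝ × ℝ) × ℝ) :=
  mkH (fun p => ((-p.1.1, p.1.2), p.2)) (fun p => ((-p.1.1, p.1.2), p.2))
    ((PLMap.id.fst.fst.neg.prodMk PLMap.id.fst.snd).prodMk PLMap.id.snd)
    ((PLMap.id.fst.fst.neg.prodMk PLMap.id.fst.snd).prodMk PLMap.id.snd)
    (fun p => by ext <;> simp) (fun p => by ext <;> simp)

/-- `u ↔ w` -/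
noncomputable def swH : ((ℝ × ℝ) × ℝ) ≃ₜ ((ℝ × ℝ) × ℝ) :=
  mkH (fun p => ((p.1.2, p.1.1), p.2)) (fun p => ((p.1.2, p.1.1), p.2))
    ((PLMap.id.fst.snd.prodMk PLMap.id.fst.fst).prodMk PLMap.id.snd)
    ((PLMap.id.fst.snd.prodMk PLMap.id.fst.fst).prodMk PLMap.id.snd)
    (fun p => rfl) (fun p => rfl)

theorem exists_upw : ∃ H : ((ℝ × ℝ) × ℝ) ≃ₜ ((ℝ × ℝ) × ℝ), Upw H (fun p => p.1 = 0) := by
  have h1 := upw_g
  have h2 := h1.conj (σ := sgH) (PLH_mkH _ _ _ _ _ _)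
    (fun p => by show |-p.1.1| + |p.1.2| + |p.2| = |p.1.1| + |p.1.2| + |p.2|; rw [abs_neg])
    (fun p => rfl) (fun p => by show ((- -p.1.1, p.1.2), p.2) = p; rw [neg_neg])
  have h12 := h1.trans h2
  have h34 := h12.conj (σ := swH) (PLH_mkH _ _ _ _ _ _)
    (fun p => by show |p.1.2| + |p.1.1| + |p.2| = |p.1.1| + |p.1.2| + |p.2|; ring)
    (fun p => rfl) (fun p => rfl)
  have h := h12.trans h34
  refine ⟨_, h.pl, h.oct, h.up, fun p hp => ?_⟩
  obtain ⟨h5, ⟨h6, h7⟩, h8, h9⟩ := h.eq p hp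
  refine ⟨h5, ?_⟩
  have e6 : p.1.1 ≤ 0 := h6
  have e7 : -p.1.1 ≤ 0 := h7
  have e8 : p.1.2 ≤ 0 := h8
  have e9 : -p.1.2 ≤ 0 := h9
  ext
  · show p.1.1 = 0; linarith
  · show p.1.2 = 0; linarith

/-! ### dynamics -/

/-- an upward move of the octahedral sphere in the original coordinates -/
theorem exists_up : ∃ M : ((ℝ × ℝ) × ℝ) ≃ₜ ((ℝ × ℝ) × ℝ), PLH M ∧ M '' S1 (ℝ × ℝ) = S1 (ℝ × ℝ) ∧
    (∀ p, p.2 ≤ (M p).2) ∧ ∀ p, (M p).2 = p.2 → p.1 = 0 := by
  obtain ⟨H, hH⟩ := exists_upw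
  have hN : ∀ p : (ℝ × ℝ) × ℝ, N1 (timesId rotH p) = oct p := by
    intro p
    show ‖rotH p.1‖ + |p.2| = |p.1.1| + |p.1.2| + |p.2|
    rw [norm_rotH]
  let K := timesId rotH
  have hK : PLH K := PLH_timesId PLH_rotH
  refine ⟨K.symm.trans (H.trans K), hK.symm.trans (hH.pl.trans hK), ?_, ?_, ?_⟩
  · have hsub : ∀ p, N1 ((K.symm.trans (H.trans K)) p) = N1 p := by
      intro p
      show N1 (K (H (K.symm p))) = N1 p
      rw [hN, hH.oct, ← hN]
      show N1 (K (K.symm p)) = N1 p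
      rw [K.apply_symm_apply]
    apply Subset.antisymm
    · rintro _ ⟨p, hp, rfl⟩
      show N1 _ = 1
      rw [hsub]; exact hp
    · intro p hp
      refine ⟨(K.symm.trans (H.trans K)).symm p, ?_, Homeomorph.apply_symm_apply _ _⟩
      show N1 _ = 1
      rw [← hsub, Homeomorph.apply_symm_apply]; exact hp
  · intro p
    show p.2 ≤ (H (K.symm p)).2
    exact hH.up (K.symm p)
  · intro p hp
    have hp' : (H (K.symm p)).2 = (K.symm p).2 := hp
    have := (hH.eq _ hp').2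
    have h2 : rotH.symm p.1 = 0 := this
    rw [Homeomorph.symm_apply_eq] at h2
    rw [h2, rotH_apply]; simp

/-- composition powers of a homeo preserving the sphere -/
theorem exists_iter {M : ((ℝ × ℝ) × ℝ) ≃ₜ ((ℝ × ℝ) × ℝ)} (hM : PLH M)
    (hMS : M '' S1 (ℝ × ℝ) = S1 (ℝ × ℝ)) (n : ℕ) :
    ∃ K : ((ℝ × ℝ) × ℝ) ≃ₜ ((ℝ × ℝ) × ℝ), PLH K ∧ K '' S1 (ℝ × ℝ) = S1 (ℝ × ℝ) ∧
      ∀ p, K p = M^[n] p := by
  induction n with
  | zero => exact ⟨Homeomorph.refl _, PLH.refl, by simp, fun p => rfl⟩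
  | succ n ih =>
    obtain ⟨K, hK, hKS, h⟩ := ih
    refine ⟨M.trans K, hM.trans hK, by rw [trans_image, hMS, hKS], fun p => ?_⟩
    rw [Function.iterate_succ_apply, ← h]; rfl

theorem isCompact_S1 {F : Type*} [NormedAddCommGroup F] [NormedSpace ℝ F]
    [FiniteDimensional ℝ F] : IsCompact (S1 F) :=
  isCompact_le.of_isClosed_subset (isClosed_eq N1_continuous continuous_const) S1_subset_le

/-- closed subsets missing the bottom are moved into the open upper half -/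
theorem push_up {A : Set ((ℝ × ℝ) × ℝ)} (hA : IsClosed A) (hAS : A ⊆ S1 (ℝ × ℝ))
    (hB : ((0 : ℝ × ℝ), (-1 : ℝ)) ∉ A) :
    ∃ K : ((ℝ × ℝ) × ℝ) ≃ₜ ((ℝ × ℝ) × ℝ), PLH K ∧ K '' S1 (ℝ × ℝ) = S1 (ℝ × ℝ) ∧
      ∀ p ∈ A, 0 < (K p).2 := by
  obtain ⟨M, hM, hMS, hup, hstrict⟩ := exists_up
  rcases A.eq_empty_or_nonempty with rfl | hne
  · exact ⟨Homeomorph.refl _, PLH.refl, by simp, by simp⟩
  have hAc : IsCompact A := isCompact_S1.of_isClosed_subset hA hAS
  obtain ⟨a, ha, hamin⟩ := hAc.exists_isMinOn hne continuous_snd.continuousOn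
  have hbot : ∀ p ∈ S1 (ℝ × ℝ), p.1 = 0 → p.2 = 1 ∨ p.2 = -1 := by
    intro p hp h0
    have : ‖p.1‖ + |p.2| = 1 := hp
    rw [h0, norm_zero, zero_add] at this
    exact eq_or_eq_neg_of_abs_eq this
  have hge : ∀ p ∈ S1 (ℝ × ℝ), -1 ≤ p.2 := by
    intro p hp
    have h1 : ‖p.1‖ + |p.2| = 1 := hp
    have := neg_abs_le p.2
    have := norm_nonneg p.1
    linarith
  have hac : -1 < a.2 := by
    rcases (hge a (hAS ha)).eq_or_lt with h | h
    · exfalso
      have h1 : ‖a.1‖ + |a.2| = 1 := hAS ha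
      rw [← h] at h1
      norm_num at h1
      exact hB (by rw [show ((0 : ℝ × ℝ), (-1 : ℝ)) = a from Prod.ext h1.symm h]; exact ha)
    · exact h
  -- the compact set where progress is uniform
  let C : Set ((ℝ × ℝ) × ℝ) := S1 (ℝ × ℝ) ∩ {p | a.2 ≤ p.2 ∧ p.2 ≤ 0}
  have hCc : IsCompact C := isCompact_S1.inter_right
    ((isClosed_le continuous_const continuous_snd).inter
      (isClosed_le continuous_snd continuous_const))
  have hκ : ∃ κ > 0, ∀ p ∈ C, p.2 + κ ≤ (M p).2 := by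
    rcases C.eq_empty_or_nonempty with hCe | hCn
    · exact ⟨1, one_pos, by rw [hCe]; simp⟩
    · have hcont : Continuous fun p : (ℝ × ℝ) × ℝ => (M p).2 - p.2 :=
        (continuous_snd.comp M.continuous).sub continuous_snd
      obtain ⟨b, hb, hbmin⟩ := hCc.exists_isMinOn hCn hcont.continuousOn
      refine ⟨(M b).2 - b.2, ?_, fun p hp => ?_⟩
      · rcases (hup b).eq_or_lt with h | h
        · exfalso
          rcases hbot b hb.1 (hstrict b h.symm) with h' | h'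
          · have := hb.2.2; linarith
          · have := hb.2.1; linarith
        · linarith
      · have := hbmin hp
        simp only [mem_ofPred_eq] at this
        linarith
  obtain ⟨κ, hκ0, hκ⟩ := hκ
  have key : ∀ n : ℕ, ∀ p ∈ A, M^[n] p ∈ S1 (ℝ × ℝ) ∧ a.2 ≤ (M^[n] p).2 ∧
      (0 < (M^[n] p).2 ∨ a.2 + n * κ ≤ (M^[n] p).2) := by
    intro n
    induction n with
    | zero =>
      intro p hp
      refine ⟨hAS hp, hamin hp, Or.inr ?_⟩
      have := hamin hp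
      simpa using this
    | succ n ih =>
      intro p hp
      obtain ⟨h1, h2, h3⟩ := ih p hp
      rw [Function.iterate_succ_apply']
      have h4 := hup (M^[n] p)
      refine ⟨by rw [← hMS]; exact mem_image_of_mem _ h1, h2.trans h4, ?_⟩
      rcases lt_or_ge 0 (M^[n] p).2 with h5 | h5
      · exact Or.inl (lt_of_lt_of_le h5 h4)
      · right
        have h6 := hκ (M^[n] p) ⟨h1, h2, h5⟩
        rcases h3 with h3 | h3
        · linarith
        · push_cast; linarith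
  obtain ⟨n, hn⟩ := exists_nat_gt (-a.2 / κ)
  obtain ⟨K, hK, hKS, hKe⟩ := exists_iter hM hMS n
  refine ⟨K, hK, hKS, fun p hp => ?_⟩
  rw [hKe]
  rcases (key n p hp).2.2 with h | h
  · exact h
  · rw [div_lt_iff₀ hκ0] at hn
    linarith

/-- **push-off lemma**: every closed proper subset of the octahedral sphere is moved into the open
lower half by a PL homeo preserving the sphere -/
theorem push_off {A : Set ((ℝ × ℝ) × ℝ)} (hA : IsClosed A) (hAS : A ⊆ S1 (ℝ × ℝ))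
    (hne : A ≠ S1 (ℝ × ℝ)) :
    ∃ K : ((ℝ × ℝ) × ℝ) ≃ₜ ((ℝ × ℝ) × ℝ), PLH K ∧ K '' S1 (ℝ × ℝ) = S1 (ℝ × ℝ) ∧
      ∀ p ∈ A, (K p).2 < 0 := by
  -- a point of the complement which is not the bottom
  obtain ⟨q, hqS, hqA, hqB⟩ : ∃ q ∈ S1 (ℝ × ℝ), q ∉ A ∧ q ≠ ((0 : ℝ × ℝ), (-1 : ℝ)) := by
    obtain ⟨q, hqS, hqA⟩ : ∃ q ∈ S1 (ℝ × ℝ), q ∉ A := by
      by_contra hcon
      push Not at hcon
      exact hne (Subset.antisymm hAS hcon)
    by_cases hq : q = ((0 : ℝ × ℝ), (-1 : ℝ))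
    · -- move a little
      let γ : ℝ → (ℝ × ℝ) × ℝ := fun t => ((t, 0), -1 + |t|)
      have hγ : Continuous γ := by fun_prop
      have hγ0 : γ 0 ∈ Aᶜ := by
        have : γ 0 = q := by rw [hq]; simp [γ]
        rw [this]; exact hqA
      have := (hγ.tendsto 0).eventually (hA.isOpen_compl.mem_nhds hγ0)
      obtain ⟨ε, hε, hball⟩ := Metric.eventually_nhds_iff.1 this
      set δ := min (ε / 2) (1 / 2) with hδ
      have hδ0 : 0 < δ := lt_min (by linarith) (by norm_num)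
      have hδ1 : δ ≤ 1 / 2 := min_le_right _ _
      have h1 := hball (y := δ) (by
        rw [Real.dist_eq, sub_zero, abs_of_pos hδ0]
        exact lt_of_le_of_lt (min_le_left _ _) (by linarith))
      refine ⟨γ δ, ?_, h1, ?_⟩
      · show ‖((δ, 0) : ℝ × ℝ)‖ + abs (-1 + |δ|) = 1
        rw [norm_plane, abs_of_pos hδ0, abs_zero, max_eq_left hδ0.le,
          abs_of_nonpos (by linarith)]; ring
      · intro h
        have := congrArg (fun p => p.1.1) h
        simp only [γ, Prod.fst_zero] at this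
        linarith
    · exact ⟨q, hqS, hqA, hq⟩
  -- move `q` to the top
  obtain ⟨K1, hK1, hK1S, hK1q⟩ := push_up (A := {q}) isClosed_singleton (by simpa using hqS)
    (by simpa using hqB.symm)
  have hq1 : K1 q ∈ S1 (ℝ × ℝ) := by rw [← hK1S]; exact mem_image_of_mem _ hqS
  obtain ⟨K2, hK2, hK2S, hK2q⟩ := move_to_top hq1 (hK1q q rfl)
  -- reflect and push up
  let R := refl (ℝ × ℝ)
  have hRS : R '' S1 (ℝ × ℝ) = S1 (ℝ × ℝ) := by
    rw [← Kp_union_Km, image_union, refl_image_Kp, refl_image_Km, union_comm]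
  let L := (K1.trans K2).trans R
  have hLS : L '' S1 (ℝ × ℝ) = S1 (ℝ × ℝ) := by
    rw [trans_image, trans_image, hK1S, hK2S, hRS]
  have hLA : IsClosed (L '' A) := L.isClosedMap _ hA
  have hLq : L q = ((0 : ℝ × ℝ), (-1 : ℝ)) := by
    show R (K2 (K1 q)) = _
    rw [hK2q]; rfl
  obtain ⟨K3, hK3, hK3S, hK3A⟩ := push_up hLA (by rw [← hLS]; exact image_mono hAS) (by
    rintro ⟨p, hp, hp'⟩
    rw [← hLq] at hp'
    exact hqA (L.injective hp' ▸ hp))
  refine ⟨(L.trans K3).trans R, (((hK1.trans hK2).trans PLH_refl).trans hK3).trans PLH_refl, ?_, ?_⟩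
  · rw [trans_image, trans_image, hLS, hK3S, hRS]
  · intro p hp
    show (R (K3 (L p))).2 < 0
    have := hK3A (L p) (mem_image_of_mem _ hp)
    show -(K3 (L p)).2 < 0
    linarith

end Crest.Agent.R096.Pl
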