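import Crest.Agent.R096.PlExt_296

/-!
# Closed simple polygons in the plane (helper296, row 96, P2-Y)
-/

namespace Crest.Agent.R096.Pl

open Set Metric Topology

set_option linter.unusedSectionVars false

/-- the edge from `v i` to `v (i+1)` -/
def edge {E : Type*} [AddCommGroup E] [Module ℝ E] (v : ℤ → E) (i : ℤ) : Set E :=
  segment ℝ (v i) (v (i + 1))

/-- the union of all edges -/
def polySet {E : Type*} [AddCommGroup E] [Module ℝ E] (v : ℤ → E) : Set E := ⋃ i, edge v i

/-- the union of the edges `a, …, b-1` -/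
def arcSet {E : Type*} [AddCommGroup E] [Module ℝ E] (v : ℤ → E) (a b : ℤ) : Set E :=
  ⋃ i ∈ Ico a b, edge v i

/-- a closed simple polygon with `n` vertices `v 0, …, v (n-1)`, indexed periodically by `ℤ` -/
structure Poly {E : Type*} [AddCommGroup E] [Module ℝ E] (n : ℕ) (v : ℤ → E) : Prop where
  three : 3 ≤ n
  per : ∀ i, v (i + n) = v i
  inj : ∀ i j, v i = v j → (n : ℤ) ∣ i - j
  simple : ∀ i j, ¬ (n : ℤ) ∣ i - j → ∀ x ∈ edge v i, x ∈ edge v j →
    (x = v i ∨ x = v (i + 1)) ∧ (x = v j ∨ x = v (j + 1))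

section general

variable {E : Type*} [NormedAddCommGroup E] [NormedSpace ℝ E] {n : ℕ} {v : ℤ → E}

theorem left_mem_edge (v : ℤ → E) (i : ℤ) : v i ∈ edge v i := left_mem_segment ℝ _ _

theorem right_mem_edge (v : ℤ → E) (i : ℤ) : v (i + 1) ∈ edge v i := right_mem_segment ℝ _ _

theorem Poly.pos (h : Poly n v) : (0 : ℤ) < n := by have := h.three; omega

theorem Poly.eq_of_dvd (h : Poly n v) {i j : ℤ} (hd : (n : ℤ) ∣ i - j) : v i = v j := by
  obtain ⟨c, hc⟩ := hd
  have hp : Function.Periodic v (n : ℤ) := h.per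
  have := hp.int_mul c j
  rw [← this]; congr 1
  simp only [Int.cast_id]; linarith [mul_comm (n : ℤ) c]

theorem Poly.edge_eq_of_dvd (h : Poly n v) {i j : ℤ} (hd : (n : ℤ) ∣ i - j) :
    edge v i = edge v j := by
  unfold edge
  rw [h.eq_of_dvd hd, h.eq_of_dvd (i := i + 1) (j := j + 1) (by simpa using hd)]

theorem Poly.eq_iff (h : Poly n v) {i j : ℤ} : v i = v j ↔ (n : ℤ) ∣ i - j :=
  ⟨h.inj i j, h.eq_of_dvd⟩

/-- a vertex lies only on its two edges -/
theorem Poly.vertex_mem_edge (h : Poly n v) {a j : ℤ} (hm : v a ∈ edge v j) :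
    (n : ℤ) ∣ a - j ∨ (n : ℤ) ∣ a - (j + 1) := by
  by_cases hd : (n : ℤ) ∣ a - j
  · exact Or.inl hd
  · rcases (h.simple a j hd _ (left_mem_edge v a) hm).2 with h' | h'
    · exact Or.inl (h.inj _ _ h')
    · exact Or.inr (h.inj _ _ h')

theorem Poly.shift (h : Poly n v) (c : ℤ) : Poly n (fun i => v (i + c)) where
  three := h.three
  per := fun i => by
    rw [← h.per (i + c)]; congr 1; ring
  inj := fun i j hij => by
    have := h.inj _ _ hij
    simpa using this
  simple := fun i j hij x hx hx' => by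
    have e : ∀ i, edge (fun i => v (i + c)) i = edge v (i + c) := fun i => by
      show segment ℝ (v (i + c)) (v (i + 1 + c)) = segment ℝ (v (i + c)) (v (i + c + 1))
      rw [show i + 1 + c = i + c + 1 by ring]
    rw [e] at hx hx'
    have := h.simple (i + c) (j + c) (by simpa using hij) x hx hx'
    rw [show i + 1 + c = i + c + 1 by ring, show j + 1 + c = j + c + 1 by ring]
    exact this

theorem edge_shift (v : ℤ → E) (c i : ℤ) : edge (fun i => v (i + c)) i = edge v (i + c) := by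
  show segment ℝ (v (i + c)) (v (i + 1 + c)) = segment ℝ (v (i + c)) (v (i + c + 1))
  rw [show i + 1 + c = i + c + 1 by ring]

theorem polySet_shift (v : ℤ → E) (c : ℤ) : polySet (fun i => v (i + c)) = polySet v := by
  unfold polySet
  simp only [edge_shift]
  exact (Equiv.addRight c).surjective.iUnion_comp (fun i => edge v i)

theorem arcSet_shift (v : ℤ → E) (c a b : ℤ) :
    arcSet (fun i => v (i + c)) a b = arcSet v (a + c) (b + c) := by
  ext x
  simp only [arcSet, mem_iUnion, edge_shift, exists_prop, mem_Ico]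
  constructor
  · rintro ⟨i, hi, hx⟩
    exact ⟨i + c, ⟨by omega, by omega⟩, hx⟩
  · rintro ⟨i, hi, hx⟩
    exact ⟨i - c, ⟨by omega, by omega⟩, by simpa using hx⟩

theorem mem_arcSet {v : ℤ → E} {a b : ℤ} {x : E} :
    x ∈ arcSet v a b ↔ ∃ i, a ≤ i ∧ i < b ∧ x ∈ edge v i := by
  simp only [arcSet, mem_iUnion, exists_prop, mem_Ico, and_assoc]

theorem mem_polySet {v : ℤ → E} {x : E} : x ∈ polySet v ↔ ∃ i, x ∈ edge v i := by
  simp only [polySet, mem_iUnion]

/-- every edge is one of the edges `a, …, a + n - 1` -/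
theorem Poly.exists_rep (h : Poly n v) (a i : ℤ) :
    ∃ j, a ≤ j ∧ j < a + n ∧ (n : ℤ) ∣ i - j := by
  refine ⟨a + (i - a) % n, ?_, ?_, ?_⟩
  · have := Int.emod_nonneg (i - a) h.pos.ne'; linarith
  · have := Int.emod_lt_of_pos (i - a) h.pos; linarith
  · have := Int.emod_add_mul_ediv (i - a) n
    refine ⟨(i - a) / n, ?_⟩
    linarith

theorem Poly.polySet_eq (h : Poly n v) (a : ℤ) : polySet v = arcSet v a (a + n) := by
  ext x
  rw [mem_polySet, mem_arcSet]
  constructor
  · rintro ⟨i, hi⟩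
    obtain ⟨j, h1, h2, h3⟩ := h.exists_rep a i
    exact ⟨j, h1, h2, by rwa [← h.edge_eq_of_dvd h3]⟩
  · rintro ⟨i, -, -, hi⟩
    exact ⟨i, hi⟩

theorem arcSet_union {v : ℤ → E} {a b c : ℤ} (h1 : a ≤ b) (h2 : b ≤ c) :
    arcSet v a b ∪ arcSet v b c = arcSet v a c := by
  ext x
  simp only [mem_union, mem_arcSet]
  constructor
  · rintro (⟨i, h3, h4, h5⟩ | ⟨i, h3, h4, h5⟩)
    · exact ⟨i, h3, by omega, h5⟩
    · exact ⟨i, by omega, h4, h5⟩
  · rintro ⟨i, h3, h4, h5⟩
    by_cases h : i < b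
    · exact Or.inl ⟨i, h3, h, h5⟩
    · exact Or.inr ⟨i, by omega, h4, h5⟩

theorem dvd_small {n : ℕ} {z : ℤ} (hd : (n : ℤ) ∣ z) (h1 : -(n : ℤ) < z) (h2 : z < n) : z = 0 :=
  Int.eq_zero_of_abs_lt_dvd hd (abs_lt.2 ⟨h1, h2⟩)

theorem isPreconnected_segment_diff {x y : E} (hxy : x ≠ y) {T : Set E}
    (hT : ∀ z ∈ T, z ∈ segment ℝ x y → z = x ∨ z = y) : IsPreconnected (segment ℝ x y \ T) := by
  refine IsPreconnected.subset_closure (convex_openSegment x y).isPreconnected ?_ ?_
  · intro z hz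
    refine ⟨openSegment_subset_segment ℝ x y hz, fun hzT => ?_⟩
    rcases hT z hzT (openSegment_subset_segment ℝ x y hz) with rfl | rfl
    · exact hxy (left_mem_openSegment_iff.1 hz)
    · exact hxy (right_mem_openSegment_iff.1 hz)
  · rw [closure_openSegment]; exact sdiff_subset

/-- the interior of an arc of a simple polygon is connected -/
theorem Poly.isPreconnected_arc (h : Poly n v) {a b : ℤ} (hab : a < b) (hbn : b < a + n) :
    IsPreconnected (arcSet v a b \ {v a, v b}) := by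
  have e : arcSet v a b \ {v a, v b} = ⋃ i ∈ Ico a b, (edge v i \ {v a, v b}) := by
    ext x
    simp only [mem_sdiff, mem_arcSet, mem_iUnion, exists_prop, mem_Ico]
    constructor
    · rintro ⟨⟨i, h1, h2, h3⟩, h4⟩; exact ⟨i, ⟨h1, h2⟩, h3, h4⟩
    · rintro ⟨i, ⟨h1, h2⟩, h3, h4⟩; exact ⟨⟨i, h1, h2, h3⟩, h4⟩
  have h3 := h.three
  rw [e]
  refine IsPreconnected.biUnion_of_chain ordConnected_Ico ?_ ?_
  · intro i hi
    have hi' : a ≤ i ∧ i < b := hi
    refine isPreconnected_segment_diff ?_ ?_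
    · intro heq
      have := h.inj _ _ heq
      have := dvd_small this (by omega) (by omega)
      omega
    · rintro z (rfl | rfl) hz
      · rcases h.vertex_mem_edge hz with h' | h'
        · exact Or.inl (h.eq_of_dvd h')
        · exact Or.inr (h.eq_of_dvd h')
      · rcases h.vertex_mem_edge hz with h' | h'
        · exact Or.inl (h.eq_of_dvd h')
        · exact Or.inr (h.eq_of_dvd h')
  · intro i hi hi'
    have hi1 : a ≤ i ∧ i < b := hi
    have hi2 : a ≤ i + 1 ∧ i + 1 < b := hi'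
    refine ⟨v (i + 1), ⟨right_mem_edge v i, ?_⟩, ⟨left_mem_edge v (i + 1), ?_⟩⟩
    all_goals
      rintro (h' | h')
      · have := dvd_small (h.inj _ _ h') (by omega) (by omega)
        omega
      · have := dvd_small (h.inj _ _ (show v (i + 1) = v b from h')) (by omega) (by omega)
        omega

/-- the two arcs of a simple polygon meet in their end points -/
theorem Poly.arc_inter (h : Poly n v) {k : ℤ} (hk : 0 < k) (hkn : k < n) :
    arcSet v 0 k ∩ arcSet v k n = {v 0, v k} := by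
  have h0 : v n = v 0 := by have := h.per 0; rwa [zero_add] at this
  ext x
  simp only [mem_inter_iff, mem_arcSet, mem_insert_iff, mem_singleton_iff]
  constructor
  · rintro ⟨⟨i, h1, h2, h3⟩, ⟨j, h4, h5, h6⟩⟩
    have hnd : ¬ (n : ℤ) ∣ i - j := by
      intro hd
      have := dvd_small hd (by omega) (by omega)
      omega
    obtain ⟨hx1, hx2⟩ := h.simple i j hnd x h3 h6
    rcases hx1 with hx1 | hx1 <;> rcases hx2 with hx2 | hx2
    · have := dvd_small (h.inj _ _ (hx1.symm.trans hx2)) (by omega) (by omega)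
      omega
    · -- v i = v (j+1)
      have hd := h.inj _ _ (hx1.symm.trans hx2)
      rcases lt_or_ge (j + 1 - i) n with h' | h'
      · have := dvd_small hd (by omega) (by omega)
        omega
      · have : i = 0 := by omega
        left; rw [hx1, this]
    · -- v (i+1) = v j
      have := dvd_small (h.inj _ _ (hx1.symm.trans hx2)) (by omega) (by omega)
      right; rw [hx1, show i + 1 = k by omega]
    · have hd := h.inj _ _ (hx1.symm.trans hx2)
      have := dvd_small hd (by omega) (by omega)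
      omega
  · rintro (rfl | rfl)
    · refine ⟨⟨0, le_rfl, hk, left_mem_edge v 0⟩, ⟨n - 1, by omega, by omega, ?_⟩⟩
      rw [← h0]
      have := right_mem_edge v ((n : ℤ) - 1)
      simpa using this
    · refine ⟨⟨k - 1, by omega, by omega, ?_⟩, ⟨k, le_rfl, hkn, left_mem_edge v k⟩⟩
      have := right_mem_edge v (k - 1)
      simpa using this

/-- the sub-polygon cut off by the chord from `v k` to `v 0` -/
theorem Poly.sub (h : Poly n v) {k : ℕ} (hk : 2 ≤ k) (hkn : k + 2 ≤ n)
    (hD : ∀ x ∈ segment ℝ (v k) (v 0), x ∈ polySet v → x = v 0 ∨ x = v k) :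
    Poly (k + 1) (fun i => v (i % (k + 1 : ℤ))) ∧
      polySet (fun i => v (i % (k + 1 : ℤ))) = arcSet v 0 k ∪ segment ℝ (v k) (v 0) := by
  set w : ℤ → E := fun i => v (i % (k + 1 : ℤ)) with hw
  have hm : (0 : ℤ) < k + 1 := by omega
  have hr0 : ∀ i : ℤ, 0 ≤ i % (k + 1 : ℤ) := fun i => Int.emod_nonneg i hm.ne'
  have hr1 : ∀ i : ℤ, i % (k + 1 : ℤ) < k + 1 := fun i => Int.emod_lt_of_pos i hm
  have hlt : ∀ i : ℤ, i % (k + 1 : ℤ) < k → (i + 1) % (k + 1 : ℤ) = i % (k + 1 : ℤ) + 1 := by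
    intro i hi
    have h0 := hr0 i
    rw [Int.add_emod, Int.emod_eq_of_lt (a := (1 : ℤ)) (by omega) (by omega),
      Int.emod_eq_of_lt (by omega) (by omega)]
  have hlast : ∀ i : ℤ, i % (k + 1 : ℤ) = k → (i + 1) % (k + 1 : ℤ) = 0 := by
    intro i hi
    rw [Int.add_emod, Int.emod_eq_of_lt (a := (1 : ℤ)) (by omega) (by omega), hi]
    exact Int.emod_self
  have hedge : ∀ i : ℤ, i % (k + 1 : ℤ) < k → edge w i = edge v (i % (k + 1 : ℤ)) := by
    intro i hi
    show segment ℝ (v (i % (k + 1 : ℤ))) (v ((i + 1) % (k + 1 : ℤ))) = _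
    rw [hlt i hi]; rfl
  have hedge' : ∀ i : ℤ, i % (k + 1 : ℤ) = k → edge w i = segment ℝ (v k) (v 0) := by
    intro i hi
    show segment ℝ (v (i % (k + 1 : ℤ))) (v ((i + 1) % (k + 1 : ℤ))) = _
    rw [hlast i hi, hi]
  have hmod : ∀ i j : ℤ, i % (k + 1 : ℤ) = j % (k + 1 : ℤ) → ((k + 1 : ℕ) : ℤ) ∣ i - j := by
    intro i j hij
    push_cast
    exact Int.ModEq.dvd (show j ≡ i [ZMOD (k + 1 : ℤ)] from hij.symm)
  have hnd : ∀ a b : ℤ, 0 ≤ a → 0 ≤ b → a ≤ k → b ≤ k → (n : ℤ) ∣ a - b → a = b := by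
    intro a b h1 h2 h3 h4 hd
    have := dvd_small hd (by omega) (by omega)
    omega
  -- chord and edge
  have hchord : ∀ r : ℤ, 0 ≤ r → r < k → ∀ x ∈ segment ℝ (v k) (v 0), x ∈ edge v r →
      (x = v k ∨ x = v 0) ∧ (x = v r ∨ x = v (r + 1)) := by
    intro r hr hrk x hx hxr
    have h1 := hD x hx (mem_polySet.2 ⟨r, hxr⟩)
    refine ⟨h1.symm, ?_⟩
    rcases h1 with rfl | rfl
    · rcases h.vertex_mem_edge hxr with h' | h'
      · exact Or.inl (h.eq_of_dvd h')
      · exact Or.inr (h.eq_of_dvd h')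
    · rcases h.vertex_mem_edge hxr with h' | h'
      · exact Or.inl (h.eq_of_dvd h')
      · exact Or.inr (h.eq_of_dvd h')
  refine ⟨⟨by omega, ?_, ?_, ?_⟩, ?_⟩
  · intro i
    show v ((i + ((k + 1 : ℕ) : ℤ)) % (k + 1 : ℤ)) = v (i % (k + 1 : ℤ))
    congr 1
    push_cast
    exact Int.add_emod_right i _
  · intro i j hij
    have h1 := h.inj _ _ hij
    have h2 := hnd _ _ (hr0 i) (hr0 j) (by have := hr1 i; omega) (by have := hr1 j; omega) h1
    exact hmod i j h2
  · intro i j hij x hx hx'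
    have hne : i % (k + 1 : ℤ) ≠ j % (k + 1 : ℤ) := fun h' => hij (hmod i j h')
    have hi1 := hr1 i
    have hj1 := hr1 j
    have hi0 := hr0 i
    have hj0 := hr0 j
    rcases lt_or_eq_of_le (by omega : i % (k + 1 : ℤ) ≤ k) with hi | hi
    · rcases lt_or_eq_of_le (by omega : j % (k + 1 : ℤ) ≤ k) with hj | hj
      · rw [hedge i hi] at hx
        rw [hedge j hj] at hx'
        have := h.simple _ _ (fun hd => hne (hnd _ _ hi0 hj0 (by omega) (by omega) hd)) x hx hx'
        show (x = v (i % (k + 1 : ℤ)) ∨ x = v ((i + 1) % (k + 1 : ℤ))) ∧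
          (x = v (j % (k + 1 : ℤ)) ∨ x = v ((j + 1) % (k + 1 : ℤ)))
        rw [hlt i hi, hlt j hj]; exact this
      · rw [hedge i hi] at hx
        rw [hedge' j hj] at hx'
        have := hchord _ hi0 hi x hx' hx
        show (x = v (i % (k + 1 : ℤ)) ∨ x = v ((i + 1) % (k + 1 : ℤ))) ∧
          (x = v (j % (k + 1 : ℤ)) ∨ x = v ((j + 1) % (k + 1 : ℤ)))
        rw [hlt i hi, hlast j hj, hj]; exact this.symm
    · rcases lt_or_eq_of_le (by omega : j % (k + 1 : ℤ) ≤ k) with hj | hj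
      · rw [hedge' i hi] at hx
        rw [hedge j hj] at hx'
        have := hchord _ hj0 hj x hx hx'
        show (x = v (i % (k + 1 : ℤ)) ∨ x = v ((i + 1) % (k + 1 : ℤ))) ∧
          (x = v (j % (k + 1 : ℤ)) ∨ x = v ((j + 1) % (k + 1 : ℤ)))
        rw [hlt j hj, hlast i hi, hi]; exact this
      · exact absurd (hi.trans hj.symm) hne
  · ext x
    rw [mem_polySet, mem_union, mem_arcSet]
    constructor
    · rintro ⟨i, hi⟩
      have hi1 := hr1 i
      rcases lt_or_eq_of_le (by omega : i % (k + 1 : ℤ) ≤ k) with h' | h'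
      · rw [hedge i h'] at hi
        exact Or.inl ⟨_, hr0 i, h', hi⟩
      · rw [hedge' i h'] at hi
        exact Or.inr hi
    · rintro (⟨i, h1, h2, h3⟩ | h1)
      · refine ⟨i, ?_⟩
        have e : i % (k + 1 : ℤ) = i := Int.emod_eq_of_lt h1 (by omega)
        rw [hedge i (by omega), e]; exact h3
      · refine ⟨k, ?_⟩
        rw [hedge' k (Int.emod_eq_of_lt (by omega) (by omega))]; exact h1

end general

end Crest.Agent.R096.Pl
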