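import Crest.Agent.R96.Pm2_199
import Crest.Agent.R96.Eac1_348

/-!
# Row 96 (S0127), helper112.  PREMACH, part 2: the energy of the edges of one mesh and the classes

`EE_le`: 348's energy `EE` of the ordinary tiles (with the constants `C (shape)` of the machine) is at
most the weighted sum of the energies `MF.EnT` of the classes of 199's shiftable mesh.
-/

set_option autoImplicit false
set_option linter.style.longLine false

open MeasureTheory Set Filter Metric
open scoped Topology ENNReal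

namespace Crest.Agent.R096.Pmc_112

open Crest.Agent.R096.Msh_715
open Crest.Agent.R096.SkC1_961 (E3 Cfg FoamD)
open Crest.Agent.R096.Ls_222 (Edg ea ev eIn)
open Crest.Agent.R096.Ea_713 (lin)
open Crest.Agent.R96.Pm_199
open Crest.Agent.R96.Sg1_199 (li sgm)
open Crest.Agent.R96.Sg3_199 (EnF)
open Crest.Agent.R96.EaCore_348 (bt EE)

noncomputable section

variable {Om : Set E3} {F J : Type}

/-- the norm of the linear part of the frame -/
theorem norm_lin_le {A : E3 ≃ᵃ[ℝ] E3} {β : ℝ} (h : ∀ y : E3, ‖A.linear y‖ ≤ β * ‖y‖) :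
    0 ≤ β ∧ ‖lin A‖ ≤ β := by
  have h0 : 0 ≤ β := by
    have h1 := h (Pi.single 0 1)
    have h2 : ‖(Pi.single 0 1 : E3)‖ = 1 := by
      rw [Pi.norm_single, norm_one]
    rw [h2, mul_one] at h1
    exact (norm_nonneg _).trans h1
  exact ⟨h0, ContinuousLinearMap.opNorm_le_bound _ h0 h⟩

/-- **the energy of one mesh and its classes** -/
theorem EE_le (M : MF Om F J) {C : Set (Set E3) → ℝ} (hC0 : ∀ 𝒦, 0 ≤ C 𝒦) {Cm : M.κ → ℝ}
    (hC : ∀ k, ∀ 𝒦 ∈ M.Sh k, C 𝒦 ≤ Cm k) (G : E3 → E3 → ℝ≥0∞) (K : ℝ≥0∞) {p : ℝ} (hp : 0 ≤ p)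
    {a : E3} {w : J → E3} (h : M.Ok a w) :
    EE C (M.md a w h).T (M.md a w h).fr {i | (M.md a w h).Ord i} (fun e => K * le G e) p ≤
      ∑' k, (ENNReal.ofReal (Cm k) * K) ^ p * M.EnT G p a w h k := by
  classical
  set T := (M.md a w h).T with hT
  set fr := (M.md a w h).fr with hfr
  set O : Set (M.md a w h).ι := {i | (M.md a w h).Ord i} with hO
  have key : ∀ i : O, bt C T fr i.1 * ∑ e ∈ eIn T i.1, K * le G e ≤
      (ENNReal.ofReal (Cm (M.cl (M.pot a w h i.1))) * K) *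
        (ENNReal.ofReal (M.β (M.pot a w h i.1)) * ∑ e ∈ eIn T i.1, le G e) := by
    intro i
    have h1 := M.shp a w h i.1 i.2
    obtain ⟨h2, h3⟩ := norm_lin_le (M.frn a w h i.1 i.2)
    rw [← Finset.mul_sum]
    have h4 : bt C T fr i.1 ≤ ENNReal.ofReal (Cm (M.cl (M.pot a w h i.1))) *
        ENNReal.ofReal (M.β (M.pot a w h i.1)) := by
      unfold bt
      rw [← ENNReal.ofReal_mul ((hC0 _).trans (hC _ _ h1))]
      exact ENNReal.ofReal_le_ofReal (mul_le_mul (hC _ _ h1) h3 (norm_nonneg _)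
        ((hC0 _).trans (hC _ _ h1)))
    calc bt C T fr i.1 * (K * ∑ e ∈ eIn T i.1, le G e)
        ≤ (ENNReal.ofReal (Cm (M.cl (M.pot a w h i.1))) *
            ENNReal.ofReal (M.β (M.pot a w h i.1))) * (K * ∑ e ∈ eIn T i.1, le G e) :=
          mul_le_mul' h4 le_rfl
      _ = _ := by ring
  -- the fibres
  have e1 : ∑' i : O, volume (P (T.H i.1)) *
      ((ENNReal.ofReal (Cm (M.cl (M.pot a w h i.1))) * K) *
        (ENNReal.ofReal (M.β (M.pot a w h i.1)) * ∑ e ∈ eIn T i.1, le G e)) ^ p =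
      ∑' (k : M.κ) (i : {i : O // M.cl (M.pot a w h i.1) = k}), volume (P (T.H i.1.1)) *
      ((ENNReal.ofReal (Cm (M.cl (M.pot a w h i.1.1))) * K) *
        (ENNReal.ofReal (M.β (M.pot a w h i.1.1)) * ∑ e ∈ eIn T i.1.1, le G e)) ^ p := by
    rw [← ENNReal.tsum_sigma' (f := fun q : Σ k : M.κ, {i : O // M.cl (M.pot a w h i.1) = k} =>
      volume (P (T.H q.2.1.1)) *
      ((ENNReal.ofReal (Cm (M.cl (M.pot a w h q.2.1.1))) * K) *
        (ENNReal.ofReal (M.β (M.pot a w h q.2.1.1)) * ∑ e ∈ eIn T q.2.1.1, le G e)) ^ p)]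
    exact ((Equiv.sigmaFiberEquiv (fun i : O => M.cl (M.pot a w h i.1))).tsum_eq
      (fun i : O => volume (P (T.H i.1)) *
      ((ENNReal.ofReal (Cm (M.cl (M.pot a w h i.1))) * K) *
        (ENNReal.ofReal (M.β (M.pot a w h i.1)) * ∑ e ∈ eIn T i.1, le G e)) ^ p)).symm
  calc EE C T fr O (fun e => K * le G e) p
      ≤ ∑' i : O, volume (P (T.H i.1)) *
      ((ENNReal.ofReal (Cm (M.cl (M.pot a w h i.1))) * K) *
        (ENNReal.ofReal (M.β (M.pot a w h i.1)) * ∑ e ∈ eIn T i.1, le G e)) ^ p :=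
        ENNReal.tsum_le_tsum fun i => mul_le_mul' le_rfl (ENNReal.rpow_le_rpow (key i) hp)
    _ = _ := e1
    _ ≤ ∑' k, (ENNReal.ofReal (Cm k) * K) ^ p * M.EnT G p a w h k := by
        refine ENNReal.tsum_le_tsum fun k => ?_
        unfold MF.EnT EnF
        rw [← ENNReal.tsum_mul_left]
        refine le_trans (le_of_eq ?_) (ENNReal.tsum_comp_le_tsum_of_injective
          (f := fun i : {i : O // M.cl (M.pot a w h i.1) = k} =>
            (⟨i.1.1, i.1.2, i.2⟩ : {i // (M.md a w h).Ord i ∧ M.cl (M.pot a w h i) = k}))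
          (fun i j hij => by
            have h5 := congrArg Subtype.val hij
            exact Subtype.ext (Subtype.ext h5)) _)
        refine tsum_congr fun i => ?_
        obtain ⟨⟨i, hi⟩, hk⟩ := i
        simp only at hk ⊢
        subst hk
        rw [ENNReal.mul_rpow_of_nonneg _ _ hp]
        ring

end

end Crest.Agent.R096.Pmc_112
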