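import Crest.Agent.R096.Pmc4_112

/-!
# Row 96 (S0127), helper112.  PREMACH, part 5: `ea_mf` = the machine + PREMACH + EA-CORE

From `MachBF` and a shiftable mesh (199's `MF`) with good classes: the final map with its energies, for
most shifts.
-/

set_option autoImplicit false
set_option linter.style.longLine false

open MeasureTheory Set Filter Metric
open scoped Topology ENNReal

namespace Crest.Agent.R096.Pmc_112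

open Crest.Agent.R096.Msh_715
open Crest.Agent.R096.SkC1_961 (E3 Cfg FoamD Hom3 NN)
open Crest.Agent.R096.Bsp_628 Crest.Agent.R096.Brk5_582
open Crest.Agent.R096.Ls_222
open Crest.Agent.R096.Der_764 (OmH)
open Crest.Agent.R096.Mbf_337
open Crest.Agent.R096.Ea_713 (lin)
open Crest.Agent.R96.EaPost_348 (Geo)
open Crest.Agent.R96.Pm_199
open Crest.Agent.R96.Sob4_199 (VWD)
open Crest.Agent.R96.En10_199 (P3)
open Crest.Agent.R96.Sg1_199 (li sgm)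
open Crest.Agent.R96.EaCore_348 (bt EE Choice Data Kea Res Ord ea_core)

noncomputable section

variable {δ κ0 R c0 : ℝ} {La Om : Set E3} {Φ : FoamD δ κ0 R c0 La} {f : E3 → E3} {J : Type}

theorem szp (c : Φ.F) : 0 < c.1.sz := Bx.sz_pos (Φ.bf.pos _ c.2)

/-- monotonicity of the cores in `κ1` -/
theorem cores_mono {ι : Type} {T : Tiling Om ι} {κ1 κ1' κ2 : ℝ} (h : κ1 ≤ κ1') {X : Set Φ.F}
    {J0 J V : Φ.F → Set ι} {ct : Φ.F → ι} {A : Φ.F → E3 ≃ᵃ[ℝ] E3} {lam : Φ.F → ℝ}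
    {z : Φ.F → E3} {θ : Φ.F → E3 → E3} {φ : Φ.F → E3 → ℝ}
    (hC : Cores Φ T f κ1 κ2 X J0 J V ct A lam z θ φ) :
    Cores Φ T f κ1' κ2 X J0 J V ct A lam z θ φ where
  disj := hC.disj
  one := hC.one
  exact_ := fun c hc => by
    have h1 := hC.exact_ c hc
    exact { h1 with
      nbd := fun x hx => ⟨(h1.nbd x hx).1, fun hxi => ((h1.nbd x hx).2 hxi).trans
        (mul_le_mul_of_nonneg_right h (mul_nonneg h1.lam0.le (szp c).le))⟩ }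
  tiny := fun c hc => by
    have h1 := hC.tiny c hc
    obtain ⟨ρ1, ρ2, ρ3, ρ4, d, hd0, hd1, hrest⟩ := h1.room
    exact { h1 with room := ⟨ρ1, ρ2, ρ3, ρ4, d, hd0, hd1.trans h, hrest⟩ }

theorem fine_mono {ι : Type} {T : Tiling Om ι} {κ1 κ1' : ℝ} (h : κ1 ≤ κ1') {J0 : Φ.F → Set ι}
    (hC : Fine Φ T f κ1 J0) : Fine Φ T f κ1' J0 where
  psi := fun i hi x hx y hy c hc => (hC.psi i hi x hx y hy c hc).trans
    (mul_le_mul_of_nonneg_right h (szp c).le)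
  lev := fun i hi x hx y hy c => (hC.lev i hi x hx y hy c).trans h

/-- the bound of the energy of the class `k` -/
def Bk (M : MF Om Φ.F J) (D' : E3 → E3 →L[ℝ] E3) (p : ℝ) (lam m : M.κ → ℝ≥0∞) (a : E3)
    (w : J → E3) (k : M.κ) : ℝ≥0∞ :=
  match M.bl k with
  | none => lam k * m k
  | some j => M.EnC (Gd' D') p k (a + w j)

theorem ent_le_Bk {M : MF Om Φ.F J} {D' : E3 → E3 →L[ℝ] E3} {p : ℝ} {lam m : M.κ → ℝ≥0∞} {a : E3}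
    {w : J → E3} {h : M.Ok a w}
    (h1 : ∀ k, M.bl k = none → M.EnT (Gd' D') p a w h k ≤ lam k * m k)
    (h2 : ∀ k j, M.bl k = some j → M.EnT (Gd' D') p a w h k ≤ M.EnC (Gd' D') p k (a + w j))
    (k : M.κ) : M.EnT (Gd' D') p a w h k ≤ Bk M D' p lam m a w k := by
  unfold Bk
  rcases hk : M.bl k with _ | j
  · exact h1 k hk
  · exact h2 k j hk

/-- the factor of the edges -/
def Kl (δ R : ℝ) : ℝ≥0∞ := ENNReal.ofReal (8 * Cl δ R)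

/-- the conclusion for one mesh `D` -/
structure Fin1 (C0 : ℝ) (e : ℝ) (Φ : FoamD δ κ0 R c0 La) (f : E3 → E3) (X : Set Φ.F)
    (D : Dec Om Φ.F) (p : ℝ) (ρ' : E3 → ℝ) (En : ℝ≥0∞) (g : E3 → E3) : Prop where
  hom : Hom3 g Om La
  pl : Crest.Agent.R096.Str_696.LocPL g Om
  near : ∀ x ∈ Om, ‖g x - f x‖ ≤ ρ' x
  energy : ∫⁻ x in Om \ ⋃ i ∈ D.ct '' X, P (D.T.H i), ‖fderiv ℝ g x‖ₑ ^ p ≤ En
  core : ∀ c ∈ X, ∫⁻ x in P (D.T.H (D.ct c)), ‖fderiv ℝ g x - (1 / D.lam c) • lin (D.A c)‖ₑ ^ p ≤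
    ENNReal.ofReal ((e ^ p + (C0 + 1) ^ p * e) * (‖lin (D.A c)‖ / D.lam c) ^ p) *
      volume (P (D.T.H (D.ct c)))

/-- **`ea_mf`**: the machine + PREMACH + EA-CORE. -/
theorem ea_mf (HM : MachBF) {δ κ0 R c0 κ2 : ℝ} (hδ : 0 < δ) (hκ0 : 1 ≤ κ0) (hR : 1 ≤ R)
    (hc0 : 0 < c0) (hκ2 : 0 < κ2) :
    ∃ (C0 : ℝ) (C : Set (Set E3) → ℝ), 0 < C0 ∧ (∀ 𝒦, 0 < C 𝒦) ∧ ∀ e : ℝ, 0 < e →
    ∃ κp : ℝ, 0 < κp ∧ κp ≤ 1 ∧ ∃ κ1 : ℝ, 0 < κ1 ∧ κ1 * κ0 < κ2 ∧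
    ∀ (Om La : Set E3) (f : E3 → E3), IsOpen Om → Bornology.IsBounded Om → IsConnected Om →
      IsOpen La → Bornology.IsBounded La → IsConnected La → Hom3 f Om La →
    ∀ (Φ : FoamD δ κ0 R c0 La), Star Φ → ∀ (X : Set Φ.F) (J : Type) (M : MF Om Φ.F J)
      (D' : E3 → E3 →L[ℝ] E3), (∀ v, Measurable fun y => D' y v) →
      (∀ l, VWD (OmH Φ f Om) volume (fun x => P3 (Φ.Psi (f x)))
        (fun x => P3 (D' x (Pi.single l 1))) (Pi.single l (1:ℝ))) →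
    ∀ (p : ℝ), 1 ≤ p → ∀ (Gd : J → Set E3), (∀ j, Gd j ⊆ M.Bx j) → ∀ (θ₁ θ₂ : ℝ≥0∞),
      volume (⋃ j, {a | a ∈ M.A ∧ ∀ w ∈ M.W j, a + w ∉ Gd j}) ≤ θ₁ * volume M.A →
    ∀ (m lam : M.κ → ℝ≥0∞), (∀ k, m k ≠ 0) →
      (∀ k, M.bl k = none → ∫⁻ a in M.A, M.EnC (Gd' D') p k a ≤ m k * volume M.A) →
      (∀ k, lam k ≠ 0) → (∀ k, lam k ≠ ∞) → ∑' k, (lam k)⁻¹ ≤ θ₂ →
    ∀ (P' : E3 → Prop), (∀ᵐ a : E3, a ∈ M.A → P' a) →
      (∀ᵐ a : E3, a ∈ M.A → ∀ w (h : M.Ok a w), (∀ j, a + w j ∈ Gd j) →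
        Mok Φ f κp (κp / 64) κ1 κ2 X (M.md a w h)) →
    ∃ A' ⊆ M.A, MeasurableSet A' ∧ volume (M.A \ A') ≤ (θ₁ + θ₂) * volume M.A ∧
      ∀ a ∈ A', P' a ∧ ∃ (w : J → E3) (h : M.Ok a w), (∀ j, a + w j ∈ Gd j) ∧
      ∀ (κ : Type) (b : κ → E3) (R0 R1 : κ → ℝ) (κv : ℝ), 0 < κv →
        Geo (M.md a w h).T ((M.md a w h).ct '' X) {i | ∃ c, c ∉ X ∧ i ∈ (M.md a w h).V c}
          b R0 R1 κv → (p < 3 ∨ IsEmpty κ) →
      ∀ (ρ ρ' : E3 → ℝ), (∀ x ∈ Om, ∃ c : Φ.F, f x ∈ c.1.set ∧ C0 * c.1.sz ≤ ρ x) →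
        (∀ x ∈ Om, ρ x ≤ ρ' x) →
        (∀ c, ∀ x ∈ closedBall (b c) (R1 c), ∀ x' ∈ closedBall (b c) (R1 c),
          ‖f x' - f x‖ + ρ x' ≤ ρ' x) →
      ∀ (Cm : M.κ → ℝ), (∀ k, ∀ 𝒦 ∈ M.Sh k, C 𝒦 ≤ Cm k) → ∀ ε : ℝ≥0∞, ε ≠ 0 →
      ∃ g : E3 → E3, Fin1 C0 e Φ f X (M.md a w h) p ρ'
        (Kea p κv * 2 ^ (p - 1) *
          (∑' k, (ENNReal.ofReal (Cm k) * Kl δ R) ^ p * Bk M D' p lam m a w k) + ε) g := by
  obtain ⟨C0, C, hC0, hC, H⟩ := ea_core HM hδ hκ0 hR hc0 hκ2 (κ3 := 8) le_rfl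
  refine ⟨C0, C, hC0, hC, fun e he => ?_⟩
  obtain ⟨κp0, hκp0, H⟩ := H e he
  set κp : ℝ := min κp0 1 with hκpd
  have hκp : 0 < κp := lt_min hκp0 one_pos
  have hκp1 : κp ≤ 1 := min_le_right _ _
  obtain ⟨κ10, hκ10, H⟩ := H (κp / 64) (by positivity) (by
    have : κp ≤ κp0 := min_le_left _ _
    linarith)
  set κ1 : ℝ := min κ10 (κ2 / (2 * κ0)) with hκ1d
  have hκ00 : 0 < κ0 := by linarith
  have hκ1 : 0 < κ1 := lt_min hκ10 (by positivity)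
  have hκ1κ : κ1 * κ0 < κ2 := by
    have h1 : κ1 ≤ κ2 / (2 * κ0) := min_le_right _ _
    have h2 : κ1 * κ0 ≤ κ2 / (2 * κ0) * κ0 := mul_le_mul_of_nonneg_right h1 hκ00.le
    have h3 : κ2 / (2 * κ0) * κ0 = κ2 / 2 := by field_simp
    linarith
  refine ⟨κp, hκp, hκp1, κ1, hκ1, hκ1κ, ?_⟩
  intro Om La f hO hOb hOc hLa hLb hLc hf Φ hst X J M D' hDm hD p hp Gd hGd θ₁ θ₂ hZ m lam hm0 hm
    hl0 hl1 hl P' hP hM
  obtain ⟨A', h1, h2, h3, h4⟩ := premach hO hLa hδ (by linarith) hf M hDm hD (κ3 := 8) hκp hκp1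
    (μ := κp / 64) le_rfl le_rfl hκ2.le hκ1κ (by linarith : (0:ℝ) ≤ p) hGd hZ hm0 hm hl0 hl1 hl hP hM
  refine ⟨A', h1, h2, h3, fun a ha => ?_⟩
  obtain ⟨h5, w, h, h6, h7, h8, h9⟩ := h4 a ha
  refine ⟨h5, w, h, h6, ?_⟩
  intro κ b R0 R1 κv hκv hgeo hp3 ρ ρ' hρ hρ' hosc Cm hCm ε hε
  obtain ⟨g, hg⟩ := H Om La f hO hOb hOc hLa hLb hLc hf Φ _ (M.md a w h).T X (M.md a w h).J0
    (M.md a w h).J (M.md a w h).V (M.md a w h).ct (M.md a w h).A (M.md a w h).lam (M.md a w h).z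
    (M.md a w h).θ (M.md a w h).φ (M.md a w h).M _ κ b R0 R1 κv hκv
    { star := hst
      cores := cores_mono (min_le_left _ _) h7.cores
      fine := fine_mono (min_le_left _ _) h7.fine
      fin := fun i _ e _ => h7.fin e
      choice := fun err herr Z m0 hZ' => by
        obtain ⟨κ', L, g1, g2, g3⟩ := h7.choice err herr Z m0 hZ'
        exact ⟨κ', L, levels_mono (min_le_left _ _) g1, g2, g3⟩
      geo := hgeo } p hp hp3 (M.md a w h).fr ρ ρ' hρ hρ' hosc ε hε (fun _ => 1)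
    (fun _ => one_ne_zero)
  refine ⟨g, hg.hom, hg.pl, hg.near, hg.energy.trans ?_, hg.core⟩
  refine add_le_add (mul_le_mul' le_rfl ?_) le_rfl
  refine (EE_le M (fun 𝒦 => (hC 𝒦).le) hCm (Gd' D') (ENNReal.ofReal (8 * Cl δ R))
    (by linarith : (0:ℝ) ≤ p) h).trans ?_
  exact ENNReal.tsum_le_tsum fun k => mul_le_mul' le_rfl (ent_le_Bk h8 h9 k)

end

end Crest.Agent.R096.Pmc_112
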