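import Crest.Agent.R96.Pur2_392

/-!
# Row 96, NO0-PUR (helper168): purity by counting on lines (477 #9891 (2))

No pins and no closeness in measure.  On every line of a block of the mesh the displacements `d` of the
map add up to at least `M t - κ - ∑ x'`; on the good edges `d ≤ t + x` (`d ≤` spacing × number of final
points `≤` spacing × number of initial points `≤ t + x`), on the other edges `d ≤ b`.  Hence the deficits
`t + x - d ≥ 0` of the good edges have a small sum (`block_deficit`), so all but few edges are *pure*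
(`card_impure`), all but few cells have only pure edges (`card_cells`) and the energy of the other cells is
small (`energy_cells`).
-/

set_option autoImplicit false
set_option linter.unusedSectionVars false

open Finset

namespace Crest.Agent.R096.Pn_168

open Crest.Agent.R96.Bulk_348 Crest.Agent.R96.Pur_392

noncomputable section

/-- **one line** -/
theorem line_deficit {E : Type*} {S : Finset E} {G : E → Prop} [DecidablePred G] {t κ : ℝ}
    (ht : 0 ≤ t) {x d b : E → ℝ} (hx : ∀ e ∈ S, 0 ≤ x e)
    (hb : ∀ e ∈ S, ¬ G e → d e ≤ b e) (hd : (S.card : ℝ) * t - κ ≤ ∑ e ∈ S, d e) :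
    ∑ e ∈ S, (if G e then t + x e - d e else 0) ≤
      ∑ e ∈ S, x e + ∑ e ∈ S, (if G e then 0 else b e) + κ := by
  have h1 : ∑ e ∈ S, (if G e then t + x e - d e else 0) ≤
      ∑ e ∈ S, (t + x e - d e + (if G e then 0 else b e)) := by
    refine sum_le_sum fun e he => ?_
    split_ifs with hG
    · simp
    · have := hb e he hG
      have := hx e he
      linarith
  rw [sum_add_distrib, sum_sub_distrib, sum_add_distrib, sum_const, nsmul_eq_mul] at h1
  linarith

variable {n M : ℕ}

/-- **all lines of one direction of a block** -/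
theorem block_deficit {i : Fin n} {G : V n M → Prop} [DecidablePred G] {t κ : ℝ} (ht : 0 ≤ t)
    {x x' d b : V n M → ℝ} (hx : ∀ p, (p i : ℕ) < M → 0 ≤ x p)
    (hb : ∀ p, (p i : ℕ) < M → ¬ G p → d p ≤ b p)
    (hd : ∀ h : V n M, (M : ℝ) * t - κ - ∑ k : Fin M, x' (Function.update h i k.castSucc) ≤
      ∑ k : Fin M, d (Function.update h i k.castSucc)) :
    es i (fun p => if G p then t + x p - d p else 0) ≤
      es i x + es i x' + es i (fun p => if G p then 0 else b p) +
        κ * (((M : ℝ) + 1) ^ n / ((M : ℝ) + 1)) := by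
  classical
  have hM1 : (0 : ℝ) < (M : ℝ) + 1 := by positivity
  have hlt : ∀ (h : V n M) (k : Fin M), ((Function.update h i k.castSucc : V n M) i : ℕ) < M := by
    intro h k; simp
  have hline : ∀ h : V n M,
      ∑ k : Fin M, (if G (Function.update h i k.castSucc) then
          t + x (Function.update h i k.castSucc) - d (Function.update h i k.castSucc) else 0) ≤
        ∑ k : Fin M, x (Function.update h i k.castSucc) +
        ∑ k : Fin M, (if G (Function.update h i k.castSucc) then 0
          else b (Function.update h i k.castSucc)) +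
        (κ + ∑ k : Fin M, x' (Function.update h i k.castSucc)) := by
    intro h
    refine line_deficit (S := (univ : Finset (Fin M)))
      (G := fun k => G (Function.update h i k.castSucc)) ht (fun k _ => hx _ (hlt h k))
      (d := fun k => d (Function.update h i k.castSucc))
      (b := fun k => b (Function.update h i k.castSucc)) (fun k _ hk => hb _ (hlt h k) hk) ?_
    have := hd h
    simp only [card_univ, Fintype.card_fin]
    linarith
  have hs := sum_le_sum (s := (univ : Finset (V n M))) fun h _ => hline h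
  rw [sum_line' (fun p => if G p then t + x p - d p else 0) i] at hs
  simp only [sum_add_distrib] at hs
  rw [sum_line' x i, sum_line' (fun p => if G p then 0 else b p) i, sum_line' x' i, sum_const,
    card_univ, card_V, nsmul_eq_mul] at hs
  push_cast at hs
  have h1 : ((M : ℝ) + 1) * es i (fun p => if G p then t + x p - d p else 0) ≤ ((M : ℝ) + 1) *
      (es i x + es i x' + es i (fun p => if G p then 0 else b p) +
        κ * (((M : ℝ) + 1) ^ n / ((M : ℝ) + 1))) := by
    refine hs.trans (le_of_eq ?_)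
    have h2 : ((M : ℝ) + 1) * (κ * (((M : ℝ) + 1) ^ n / ((M : ℝ) + 1))) = ((M : ℝ) + 1) ^ n * κ := by
      field_simp
    linear_combination (-1 : ℝ) * h2
  exact le_of_mul_le_mul_left h1 hM1

/-- telescoping along a line -/
theorem sum_tele (g : V n M → ℝ) (i : Fin n) (h : V n M) :
    ∑ k : Fin M, (g (Function.update h i k.succ) - g (Function.update h i k.castSucc)) =
      g (Function.update h i (Fin.last M)) - g (Function.update h i 0) := by
  have h1 := Finset.sum_range_sub (fun k => g (Function.update h i (Fin.ofNat (M + 1) k))) M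
  rw [Finset.sum_range] at h1
  have e0 : (Fin.ofNat (M + 1) 0) = 0 := by simp
  have eM : (Fin.ofNat (M + 1) M) = Fin.last M := by
    ext; simp [Fin.ofNat, Fin.val_last]
  rw [e0, eM] at h1
  rw [← h1]
  refine sum_congr rfl fun k _ => ?_
  have e1 : (Fin.ofNat (M + 1) (k : ℕ)) = k.castSucc := by
    ext
    simp only [Fin.ofNat, Fin.val_castSucc]
    exact Nat.mod_eq_of_lt (by omega)
  have e2 : (Fin.ofNat (M + 1) ((k : ℕ) + 1)) = k.succ := by
    ext
    simp only [Fin.ofNat, Fin.val_succ]
    exact Nat.mod_eq_of_lt (by omega)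
  rw [e1, e2]

/-- **block, displacement form**: `g` is `κ`-close to `f` at the two ends of every line, `f` moves by at
least `t - x'` on every edge, `d p` bounds nothing else than the displacement of `g`. -/
theorem block_deficit' {i : Fin n} {G : V n M → Prop} [DecidablePred G] {t κ : ℝ} (ht : 0 ≤ t)
    {x x' d b g f : V n M → ℝ} (hx : ∀ p, (p i : ℕ) < M → 0 ≤ x p)
    (hb : ∀ p, (p i : ℕ) < M → ¬ G p → d p ≤ b p)
    (hd : ∀ (p : V n M) (k : Fin M),
      d (Function.update p i k.castSucc) =
        g (Function.update p i k.succ) - g (Function.update p i k.castSucc))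
    (hclose : ∀ p : V n M, (p i = 0 ∨ p i = Fin.last M) → |g p - f p| ≤ κ)
    (hf : ∀ (p : V n M) (k : Fin M), t - x' (Function.update p i k.castSucc) ≤
      f (Function.update p i k.succ) - f (Function.update p i k.castSucc)) :
    es i (fun p => if G p then t + x p - d p else 0) ≤
      es i x + es i x' + es i (fun p => if G p then 0 else b p) +
        2 * κ * (((M : ℝ) + 1) ^ n / ((M : ℝ) + 1)) := by
  refine block_deficit ht hx hb fun h => ?_
  simp only [hd h]
  rw [sum_tele g i h]
  have h1 := hclose (Function.update h i 0) (Or.inl (by simp))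
  have h2 := hclose (Function.update h i (Fin.last M)) (Or.inr (by simp))
  have h3 := sum_le_sum (s := (univ : Finset (Fin M))) fun k _ => hf h k
  rw [sum_sub_distrib, sum_const, card_univ, Fintype.card_fin, nsmul_eq_mul, sum_tele f i h] at h3
  rw [abs_le] at h1 h2
  linarith

/-! ### number of impure edges -/

/-- an edge is *pure* if it is good, its excess `x` and its deficit `t + x - d` are `≤ τ` -/
def Pure (G : V n M → Prop) (t τ : ℝ) (x d : V n M → ℝ) (p : V n M) : Prop :=
  G p ∧ x p ≤ τ ∧ t + x p - d p ≤ τ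

theorem Pure.bounds {G : V n M → Prop} {t τ : ℝ} {x d : V n M → ℝ} {p : V n M}
    (h : Pure G t τ x d p) (hx : 0 ≤ x p) : t - τ ≤ d p := by
  have := h.2.2
  linarith

/-- **number of impure edges of direction `i`** -/
theorem card_impure {i : Fin n} {G : V n M → Prop} {t τ q : ℝ} (hτ : 0 < τ) (hq : 0 < q)
    {x d : V n M → ℝ} (hx : ∀ p, (p i : ℕ) < M → 0 ≤ x p)
    (hdef : ∀ p, (p i : ℕ) < M → G p → 0 ≤ t + x p - d p)
    [DecidablePred G] [DecidablePred (Pure G t τ x d)] :
    es i (fun p => if Pure G t τ x d p then 0 else (1 : ℝ)) ≤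
      es i (fun p => if G p then 0 else (1 : ℝ)) + (τ ^ q)⁻¹ * es i (fun p => x p ^ q) +
        τ⁻¹ * es i (fun p => if G p then t + x p - d p else 0) := by
  have hτq : 0 < τ ^ q := Real.rpow_pos_of_pos hτ _
  have h1 : es i (fun p => if Pure G t τ x d p then 0 else (1 : ℝ)) ≤
      es i (fun p => (if G p then 0 else (1 : ℝ)) + (τ ^ q)⁻¹ * x p ^ q +
        τ⁻¹ * (if G p then t + x p - d p else 0)) := by
    refine es_mono fun p hp => ?_
    have hxp := hx p hp
    have hxq : 0 ≤ x p ^ q := Real.rpow_nonneg hxp _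
    have e1 : 0 ≤ (τ ^ q)⁻¹ * x p ^ q := by positivity
    by_cases hG : G p
    · have hdp := hdef p hp hG
      have e2 : 0 ≤ τ⁻¹ * (t + x p - d p) := by positivity
      rw [if_pos hG, if_pos hG]
      by_cases hP : Pure G t τ x d p
      · rw [if_pos hP]; linarith
      · rw [if_neg hP]
        have h2 : ¬ (x p ≤ τ ∧ t + x p - d p ≤ τ) := fun h => hP ⟨hG, h.1, h.2⟩
        rw [not_and_or, not_le, not_le] at h2
        rcases h2 with h2 | h2
        · have h3 : 1 ≤ (τ ^ q)⁻¹ * x p ^ q := by
            rw [← div_eq_inv_mul, le_div_iff₀ hτq, one_mul]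
            exact Real.rpow_le_rpow hτ.le h2.le hq.le
          linarith
        · have h3 : 1 ≤ τ⁻¹ * (t + x p - d p) := by
            rw [← div_eq_inv_mul, le_div_iff₀ hτ, one_mul]
            exact h2.le
          linarith
    · have hP : ¬ Pure G t τ x d p := fun h => hG h.1
      rw [if_neg hP, if_neg hG, if_neg hG]
      linarith
  refine h1.trans (le_of_eq ?_)
  unfold es
  rw [mul_sum, mul_sum, ← sum_add_distrib, ← sum_add_distrib]
  refine sum_congr rfl fun p _ => ?_
  by_cases hp : (p i : ℕ) < M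
  · simp only [if_pos hp]
  · simp only [if_neg hp]; ring

/-! ### cells -/

section cells

variable {Q E : Type*} [DecidableEq E]

/-- every edge lies in at most `m` cells: number of cells with a bad edge -/
theorem card_cells {cs : Finset Q} {ed : Q → Finset E} {es : Finset E} {m : ℕ}
    (hed : ∀ c ∈ cs, ed c ⊆ es) (hmult : ∀ e ∈ es, (cs.filter (e ∈ ed ·)).card ≤ m)
    (Bad : E → Prop) [DecidablePred Bad] [DecidablePred fun c => ∃ e ∈ ed c, Bad e] :
    ((cs.filter fun c => ∃ e ∈ ed c, Bad e).card : ℝ) ≤ m * (es.filter Bad).card := by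
  classical
  have h1 := sum_cells (F := fun e => if Bad e then (1 : ℝ) else 0) hed hmult
    (fun e _ => by split_ifs <;> norm_num)
  have h2 : ((cs.filter fun c => ∃ e ∈ ed c, Bad e).card : ℝ) ≤
      ∑ c ∈ cs, ∑ e ∈ ed c, (if Bad e then (1 : ℝ) else 0) := by
    rw [card_eq_sum_ones, Nat.cast_sum, sum_filter]
    refine sum_le_sum fun c _ => ?_
    split_ifs with hc
    · obtain ⟨e, he, hB⟩ := hc
      have := single_le_sum (f := fun e => if Bad e then (1 : ℝ) else 0)
        (fun e _ => by split_ifs <;> norm_num) he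
      simpa [hB] using this
    · exact sum_nonneg fun e _ => by split_ifs <;> norm_num
  refine h2.trans (h1.trans (le_of_eq ?_))
  rw [card_eq_sum_ones, Nat.cast_sum, sum_filter]
  simp

/-- **energy of any set of cells**: `v ≤ t + x` on every edge -/
theorem energy_cells {cs cb : Finset Q} {ed : Q → Finset E} {es : Finset E} {m k : ℕ}
    (hcb : cb ⊆ cs) (hed : ∀ c ∈ cs, ed c ⊆ es)
    (hmult : ∀ e ∈ es, (cs.filter (e ∈ ed ·)).card ≤ m) (hk : ∀ c ∈ cs, (ed c).card ≤ k)
    {v x : E → ℝ} {t q : ℝ} (ht : 0 ≤ t) (hq : 1 ≤ q) (hv : ∀ e ∈ es, 0 ≤ v e)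
    (hx : ∀ e ∈ es, 0 ≤ x e) (hvx : ∀ e ∈ es, v e ≤ t + x e) :
    ∑ c ∈ cb, (∑ e ∈ ed c, v e) ^ q ≤
      (k : ℝ) ^ (q - 1) * 2 ^ (q - 1) * (m * ∑ e ∈ es, x e ^ q + k * (cb.card * t ^ q)) := by
  classical
  have hq1 : 0 ≤ q - 1 := by linarith
  have h1 : ∀ c ∈ cb, (∑ e ∈ ed c, v e) ^ q ≤
      (k : ℝ) ^ (q - 1) * 2 ^ (q - 1) * (∑ e ∈ ed c, x e ^ q + k * t ^ q) := by
    intro c hc
    have hcs := hcb hc
    have h2 : (∑ e ∈ ed c, v e) ^ q ≤ ((ed c).card : ℝ) ^ (q - 1) * ∑ e ∈ ed c, v e ^ q :=
      Real.rpow_sum_le_const_mul_sum_rpow_of_nonneg (ed c) (f := v) hq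
        (fun e he => hv e (hed c hcs he))
    have h3 : ∑ e ∈ ed c, v e ^ q ≤ 2 ^ (q - 1) * (∑ e ∈ ed c, x e ^ q + k * t ^ q) := by
      calc ∑ e ∈ ed c, v e ^ q ≤ ∑ e ∈ ed c, 2 ^ (q - 1) * (x e ^ q + t ^ q) := by
            refine sum_le_sum fun e he => ?_
            have hee := hed c hcs he
            have h4 : v e ≤ x e + t := by linarith [hvx e hee]
            exact (Real.rpow_le_rpow (hv e hee) h4 (by linarith)).trans
              (real_add_rpow (hx e hee) ht hq)
        _ = 2 ^ (q - 1) * (∑ e ∈ ed c, x e ^ q + (ed c).card * t ^ q) := by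
            rw [← mul_sum, sum_add_distrib, sum_const, nsmul_eq_mul]
        _ ≤ _ := by
            have : ((ed c).card : ℝ) ≤ k := by exact_mod_cast hk c hcs
            gcongr
    have h4 : ((ed c).card : ℝ) ^ (q - 1) ≤ (k : ℝ) ^ (q - 1) :=
      Real.rpow_le_rpow (by positivity) (by exact_mod_cast hk c hcs) hq1
    have h5 : 0 ≤ ∑ e ∈ ed c, v e ^ q :=
      sum_nonneg fun e he => Real.rpow_nonneg (hv e (hed c hcs he)) _
    calc (∑ e ∈ ed c, v e) ^ q ≤ ((ed c).card : ℝ) ^ (q - 1) * ∑ e ∈ ed c, v e ^ q := h2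
      _ ≤ (k : ℝ) ^ (q - 1) * (2 ^ (q - 1) * (∑ e ∈ ed c, x e ^ q + k * t ^ q)) := by gcongr
      _ = _ := by ring
  have hc := sum_cells hed hmult (F := fun e => x e ^ q) fun e he => Real.rpow_nonneg (hx e he) _
  calc ∑ c ∈ cb, (∑ e ∈ ed c, v e) ^ q
      ≤ ∑ c ∈ cb, ((k : ℝ) ^ (q - 1) * 2 ^ (q - 1) * (∑ e ∈ ed c, x e ^ q + k * t ^ q)) :=
        sum_le_sum h1
    _ = (k : ℝ) ^ (q - 1) * 2 ^ (q - 1) *
        (∑ c ∈ cb, ∑ e ∈ ed c, x e ^ q + cb.card * (k * t ^ q)) := by
        rw [← mul_sum, sum_add_distrib, sum_const, nsmul_eq_mul]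
    _ ≤ (k : ℝ) ^ (q - 1) * 2 ^ (q - 1) * (m * ∑ e ∈ es, x e ^ q + cb.card * (k * t ^ q)) := by
        have h7 : ∑ c ∈ cb, ∑ e ∈ ed c, x e ^ q ≤ ∑ c ∈ cs, ∑ e ∈ ed c, x e ^ q :=
          sum_le_sum_of_subset_of_nonneg hcb fun c hc' _ =>
            sum_nonneg fun e he => Real.rpow_nonneg (hx e (hed c hc' he)) _
        have h8 := h7.trans hc
        gcongr
    _ = _ := by ring

end cells

end

end Crest.Agent.R096.Pn_168
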