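/-
helper205, row 96, PUR-NO ((5.6) of 477 #8882 in vertex-value form), part 1: the line lemma.

A finite family of lines `ℓ : Λ`, each with vertices `0..M` and edges `t < M`; `Y ℓ t` = coordinate of
the vertex value in the direction of the line, `Z ℓ t ≥ 0` = movement of everything else along the
edge, `v ℓ t` = bound of the total movement (number of levels crossed, weighted), `c` = increment of
the linear model.  Signed version: the edges with `Y (t+1) - Y t ≈ c` are the overwhelming majority.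
-/
import Mathlib
import Crest.Agent.R96.Pure3_520

set_option autoImplicit false
set_option linter.unusedSectionVars false

open Finset

namespace Crest.Agent.R096.Pno_205

/-- one row, signed deficit -/
theorem row_signed {M h : ℕ} (h1 : 1 ≤ h) (h2 : 2 * h ≤ M + 1) {Y v : ℕ → ℝ} {c b : ℝ}
    (hY : ∀ t < M, |Y (t + 1) - Y t| ≤ v t) (hc : 0 ≤ c) :
    ∑ t ∈ range M, (v t - (Y (t + 1) - Y t)) ≤
      3 * (h * c) + 2 * ∑ t ∈ range M, |v t - c| +
        (1 / h) * ∑ t ∈ range (M + 1), |Y t - (c * t + b)| := by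
  set D : ℕ → ℝ := fun t => |Y t - (c * t + b)| with hD
  have hv0 : ∀ t < M, 0 ≤ v t := fun t ht => (abs_nonneg _).trans (hY t ht)
  have hh : (0:ℝ) < h := by exact_mod_cast h1
  set S : ℝ := ∑ t ∈ range M, (v t - (Y (t + 1) - Y t)) with hS
  set X : ℝ := ∑ t ∈ range M, |v t - c| with hX
  -- the two end parts
  have hout : ∀ j ∈ range h, ∑ t ∈ range M \ Ico j (j + (M + 1 - h)), v t ≤ h * c + X := by
    intro j hj
    rw [mem_range] at hj
    have e1 : ∑ t ∈ range M \ Ico j (j + (M + 1 - h)), v t ≤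
        ∑ t ∈ range M \ Ico j (j + (M + 1 - h)), (c + |v t - c|) := by
      apply sum_le_sum
      intro t _
      have := le_abs_self (v t - c)
      linarith
    have e2 : ∑ t ∈ range M \ Ico j (j + (M + 1 - h)), |v t - c| ≤ X :=
      sum_le_sum_of_subset_of_nonneg sdiff_subset (fun t _ _ => abs_nonneg _)
    have e3 : (range M \ Ico j (j + (M + 1 - h))).card ≤ h := by
      have e4 : Ico j (min M (j + (M + 1 - h))) ⊆ range M := by
        intro t ht
        rw [mem_Ico] at ht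
        rw [mem_range]
        omega
      have e5 : range M \ Ico j (j + (M + 1 - h)) ⊆ range M \ Ico j (min M (j + (M + 1 - h))) := by
        intro t ht
        rw [mem_sdiff, mem_range, mem_Ico] at *
        omega
      have e6 := card_le_card e5
      rw [card_sdiff_of_subset e4, card_range, Nat.card_Ico] at e6
      omega
    have e7 : (((range M \ Ico j (j + (M + 1 - h))).card : ℕ) : ℝ) * c ≤ h * c := by
      apply mul_le_mul_of_nonneg_right _ hc
      exact_mod_cast e3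
    rw [sum_add_distrib, sum_const, nsmul_eq_mul] at e1
    linarith
  -- one shift
  have hj : ∀ j ∈ range h, S ≤ (∑ t ∈ range M, v t) + (h * c + X) -
      (c * (M + 1 - h) - D j - D (j + (M + 1 - h))) := by
    intro j hj
    have hj' := mem_range.1 hj
    have hjM : j + (M + 1 - h) ≤ M := by omega
    have hsub : Ico j (j + (M + 1 - h)) ⊆ range M := by
      intro t ht
      rw [mem_Ico] at ht
      rw [mem_range]
      omega
    have e1 : S = ∑ t ∈ range M \ Ico j (j + (M + 1 - h)), (v t - (Y (t + 1) - Y t)) +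
        ∑ t ∈ Ico j (j + (M + 1 - h)), (v t - (Y (t + 1) - Y t)) :=
      (sum_sdiff hsub).symm
    have e2 : ∑ t ∈ range M \ Ico j (j + (M + 1 - h)), (v t - (Y (t + 1) - Y t)) ≤
        ∑ t ∈ range M \ Ico j (j + (M + 1 - h)), (v t + v t) := by
      apply sum_le_sum
      intro t ht
      rw [mem_sdiff, mem_range] at ht
      have := (abs_le.1 (hY t ht.1)).1
      linarith
    have e3 : ∑ t ∈ Ico j (j + (M + 1 - h)), (v t - (Y (t + 1) - Y t)) =
        ∑ t ∈ Ico j (j + (M + 1 - h)), v t - (Y (j + (M + 1 - h)) - Y j) := by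
      rw [sum_sub_distrib, sum_Ico_sub Y (by omega : j ≤ j + (M + 1 - h))]
    have e4 : ∑ t ∈ range M, v t = ∑ t ∈ range M \ Ico j (j + (M + 1 - h)), v t +
        ∑ t ∈ Ico j (j + (M + 1 - h)), v t := (sum_sdiff hsub).symm
    have h5 : Y (j + (M + 1 - h)) ≥ (c * ((j + (M + 1 - h) : ℕ) : ℝ) + b) - D (j + (M + 1 - h)) := by
      have := neg_abs_le (Y (j + (M + 1 - h)) - (c * ((j + (M + 1 - h) : ℕ) : ℝ) + b))
      simp only [hD]
      linarith
    have h6 : Y j ≤ (c * (j : ℝ) + b) + D j := by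
      have := le_abs_self (Y j - (c * (j : ℝ) + b))
      simp only [hD]
      linarith
    have h7 : ((j + (M + 1 - h) : ℕ) : ℝ) = j + (M + 1 - h) := by
      rw [Nat.cast_add, Nat.cast_sub (by omega)]
      push_cast
      ring
    rw [h7] at h5
    have h8 := hout j hj
    rw [sum_add_distrib] at e2
    nlinarith
  have h8 := sum_le_sum hj
  rw [sum_const, card_range, nsmul_eq_mul, sum_sub_distrib, sum_const, card_range,
    nsmul_eq_mul, sum_sub_distrib, sum_sub_distrib, sum_const, card_range, nsmul_eq_mul] at h8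
  have h9 : ∑ j ∈ range h, D j + ∑ j ∈ range h, D (j + (M + 1 - h)) ≤
      ∑ t ∈ range (M + 1), D t := by
    have h10 : ∑ j ∈ range h, D (j + (M + 1 - h)) = ∑ t ∈ Ico (M + 1 - h) (M + 1), D t := by
      rw [sum_Ico_eq_sum_range]
      have h11 : M + 1 - (M + 1 - h) = h := by omega
      rw [h11]
      apply sum_congr rfl
      intro j _
      rw [add_comm]
    rw [h10, ← sum_union]
    · apply sum_le_sum_of_subset_of_nonneg
      · intro t ht
        rw [mem_union, mem_range, mem_Ico] at ht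
        rw [mem_range]
        omega
      · intro t _ _
        exact abs_nonneg _
    · rw [disjoint_left]
      intro t ht
      rw [mem_range] at ht
      rw [mem_Ico]
      omega
  have h10 : ∑ t ∈ range M, v t ≤ c * M + X := by
    have : ∑ t ∈ range M, v t ≤ ∑ t ∈ range M, (c + |v t - c|) := by
      apply sum_le_sum
      intro t _
      have := le_abs_self (v t - c)
      linarith
    rw [sum_add_distrib, sum_const, card_range, nsmul_eq_mul] at this
    linarith
  set T : ℝ := ∑ t ∈ range (M + 1), D t with hT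
  have h11 : h * S ≤ h * (3 * (h * c) + 2 * X) + T := by
    have h12 : (h:ℝ) * ((∑ t ∈ range M, v t) + (h * c + X)) ≤ h * (c * M + X + (h * c + X)) :=
      mul_le_mul_of_nonneg_left (by linarith) hh.le
    have h13 : (0:ℝ) ≤ h * c := by positivity
    nlinarith
  have h12 : S ≤ (h * (3 * (h * c) + 2 * X) + T) / h := by
    rw [le_div_iff₀ hh]
    linarith
  refine h12.trans (le_of_eq ?_)
  field_simp

/-- one row: movement in the right direction -/
theorem row_pure {M h : ℕ} (h1 : 1 ≤ h) (h2 : 2 * h ≤ M + 1) {Y Z v : ℕ → ℝ} {c b : ℝ}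
    (hZ : ∀ t < M, 0 ≤ Z t) (hY : ∀ t < M, |Y (t + 1) - Y t| + Z t ≤ v t) (hc : 0 ≤ c) :
    ∑ t ∈ range M, (|Y (t + 1) - Y t - c| + Z t) ≤
      6 * (h * c) + 5 * ∑ t ∈ range M, |v t - c| +
        (2 / h) * ∑ t ∈ range (M + 1), |Y t - (c * t + b)| := by
  have e0 := row_signed (b := b) h1 h2 (fun t ht => (le_add_of_nonneg_right (hZ t ht)).trans (hY t ht)) hc
  have e1 : ∑ t ∈ range M, (|Y (t + 1) - Y t - c| + Z t) ≤
      ∑ t ∈ range M, (|v t - c| + 2 * (v t - (Y (t + 1) - Y t))) := by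
    apply sum_le_sum
    intro t ht
    rw [mem_range] at ht
    have f1 := hY t ht
    have f2 := le_abs_self (Y (t + 1) - Y t)
    have f3 : |Y (t + 1) - Y t - c| ≤ |v t - c| + (v t - (Y (t + 1) - Y t)) := by
      have : Y (t + 1) - Y t - c = (v t - c) - (v t - (Y (t + 1) - Y t)) := by ring
      rw [this]
      refine (abs_sub _ _).trans ?_
      rw [abs_of_nonneg (a := v t - (Y (t + 1) - Y t))]
      linarith [hZ t ht]
    linarith
  have e3 : ∑ t ∈ range M, (|v t - c| + 2 * (v t - (Y (t + 1) - Y t))) =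
      ∑ t ∈ range M, |v t - c| + 2 * ∑ t ∈ range M, (v t - (Y (t + 1) - Y t)) := by
    rw [sum_add_distrib, ← mul_sum]
  rw [e3] at e1
  have e2 : (2:ℝ) / h = 2 * (1 / h) := by ring
  rw [e2]
  linarith

variable {Λ : Type*} [Fintype Λ]

theorem rpow_le_split {y x s q : ℝ} (hq : 1 ≤ q) (hs : 0 ≤ s) (hy : 0 ≤ y)
    (h : y ≤ 2 * s + x) : y ^ q ≤ (4 * s) ^ (q - 1) * y + (2 * |x|) ^ q := by
  have hx0 : 0 ≤ |x| := abs_nonneg x
  have hx1 := le_abs_self x
  rcases le_or_gt |x| (2 * s) with h3 | h3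
  · rcases hy.eq_or_lt with h4 | h4
    · rw [← h4, Real.zero_rpow (by linarith)]
      positivity
    · have h5 : y ^ q = y ^ (q - 1) * y := by
        rw [← Real.rpow_add_one h4.ne']
        congr 1
        ring
      have h6 : y ^ (q - 1) ≤ (4 * s) ^ (q - 1) :=
        Real.rpow_le_rpow hy (by linarith) (by linarith)
      have h7 : 0 ≤ (2 * |x|) ^ q := by positivity
      rw [h5]
      nlinarith
  · have h5 : y ^ q ≤ (2 * |x|) ^ q := Real.rpow_le_rpow hy (by linarith) (by linarith)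
    have h6 : 0 ≤ (4 * s) ^ (q - 1) * y := by positivity
    linarith

/-- **line lemma, epsilon-delta form, signed.**  `Y` = the coordinate in the direction of the lines,
`Z` = movement of everything else, `v` = total movement.  Uniform in the family of lines, in `r`, in
`b` and in `M ≥ M₀`. -/
theorem line_pure {q s ε : ℝ} (hq : 1 ≤ q) (hs : 0 ≤ s) (hε : 0 < ε) :
    ∃ δ : ℝ, 0 < δ ∧ ∃ M₀ : ℕ, ∀ M : ℕ, M₀ ≤ M → ∀ (Λ : Type) [Fintype Λ]
      (r : ℝ) (b : Λ → ℝ) (Y Z v : Λ → ℕ → ℝ), 0 < r →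
      (∀ l, ∀ t < M, 0 ≤ Z l t) →
      (∀ l, ∀ t < M, |Y l (t + 1) - Y l t| + Z l t ≤ v l t) →
      ∑ l, ∑ t ∈ range (M + 1), |Y l t - (s * r * t + b l)| ≤
        δ * (M * r) * (Fintype.card Λ * (M + 1)) →
      ∑ l, ∑ t ∈ range M, (|v l t - s * r| / r) ^ q ≤ δ * (Fintype.card Λ * (M + 1)) →
      ∑ l, ∑ t ∈ range M, ((|Y l (t + 1) - Y l t - s * r| + Z l t) / r) ^ q ≤
        ε * (Fintype.card Λ * (M + 1)) := by
  -- the constants
  set K : ℝ := (4 * s) ^ (q - 1) with hK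
  have hK0 : 0 ≤ K := by positivity
  -- tau for Young
  obtain ⟨τ, hτ, hτ1⟩ : ∃ τ : ℝ, 0 < τ ∧ 5 * K * τ ≤ ε / 5 := by
    refine ⟨ε / 5 / (5 * K + 1), by positivity, ?_⟩
    rw [← mul_div_assoc, div_le_iff₀ (by positivity)]
    nlinarith [mul_nonneg hK0 hε.le]
  -- rho : window fraction
  obtain ⟨ρ, hρ, hρ1, hρ2⟩ : ∃ ρ : ℝ, 0 < ρ ∧ ρ ≤ 1 / 4 ∧ K * (12 * s * ρ) ≤ ε / 5 := by
    refine ⟨min (1 / 4) (ε / 5 / (K * (12 * s) + 1)), by positivity, min_le_left _ _, ?_⟩
    have h1 : min (1 / 4) (ε / 5 / (K * (12 * s) + 1)) ≤ ε / 5 / (K * (12 * s) + 1) :=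
      min_le_right _ _
    have h2 : 0 ≤ K * (12 * s) := by positivity
    calc K * (12 * s * min (1 / 4) (ε / 5 / (K * (12 * s) + 1)))
        = K * (12 * s) * min (1 / 4) (ε / 5 / (K * (12 * s) + 1)) := by ring
      _ ≤ K * (12 * s) * (ε / 5 / (K * (12 * s) + 1)) := mul_le_mul_of_nonneg_left h1 h2
      _ ≤ ε / 5 := by
        rw [← mul_div_assoc, div_le_iff₀ (by positivity)]
        nlinarith
  -- M0 : rho (M+1) >= 1
  obtain ⟨M₀, hM₀⟩ := exists_nat_ge (1 / ρ)
  -- delta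
  set L : ℝ := (5 * K) * τ ^ (1 - q) + 2 ^ q with hL
  have hL0 : 0 < L := by positivity
  obtain ⟨δ, hδ, hδ1, hδ2⟩ : ∃ δ : ℝ, 0 < δ ∧ L * δ ≤ ε / 5 ∧ K * (2 / ρ * δ) ≤ ε / 5 := by
    refine ⟨min (ε / 5 / L) (ε / 5 / (K * (2 / ρ) + 1)), by positivity, ?_, ?_⟩
    · calc L * min (ε / 5 / L) _ ≤ L * (ε / 5 / L) :=
          mul_le_mul_of_nonneg_left (min_le_left _ _) hL0.le
        _ = ε / 5 := by field_simp
    · have h2 : 0 ≤ K * (2 / ρ) := by positivity
      calc K * (2 / ρ * min (ε / 5 / L) (ε / 5 / (K * (2 / ρ) + 1)))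
          = K * (2 / ρ) * min (ε / 5 / L) (ε / 5 / (K * (2 / ρ) + 1)) := by ring
        _ ≤ K * (2 / ρ) * (ε / 5 / (K * (2 / ρ) + 1)) :=
          mul_le_mul_of_nonneg_left (min_le_right _ _) h2
        _ ≤ ε / 5 := by
          rw [← mul_div_assoc, div_le_iff₀ (by positivity)]
          nlinarith
  refine ⟨δ, hδ, M₀ + 1, ?_⟩
  intro M hM Λ _ r b Y Z v hr hZ hY h2 h3
  set N : ℝ := Fintype.card Λ * (M + 1) with hN
  have hN0 : 0 ≤ N := by positivity
  have hMr : (M₀ : ℝ) + 1 ≤ M := by exact_mod_cast hM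
  have hρM : 1 ≤ ρ * (M + 1) := by
    have : 1 ≤ ρ * M₀ := by
      calc (1:ℝ) = ρ * (1 / ρ) := by field_simp
        _ ≤ ρ * M₀ := mul_le_mul_of_nonneg_left hM₀ hρ.le
    nlinarith
  -- the window
  obtain ⟨h, hh1, hh2, hh3, hh4⟩ : ∃ h : ℕ, 1 ≤ h ∧ 2 * h ≤ M + 1 ∧ (h:ℝ) ≤ 2 * ρ * (M + 1) ∧
      ρ * (M + 1) ≤ h := by
    refine ⟨⌈ρ * (M + 1)⌉₊, ?_, ?_, ?_, Nat.le_ceil _⟩
    · rw [Nat.one_le_ceil_iff]; linarith
    · have h5 : ((⌈ρ * ((M:ℝ) + 1)⌉₊ : ℕ) : ℝ) < ρ * (M + 1) + 1 := Nat.ceil_lt_add_one (by positivity)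
      have h6 : (2 : ℝ) * ((⌈ρ * ((M:ℝ) + 1)⌉₊ : ℕ) : ℝ) ≤ M + 1 := by
        nlinarith
      exact_mod_cast h6
    · have h5 : ((⌈ρ * ((M:ℝ) + 1)⌉₊ : ℕ) : ℝ) < ρ * (M + 1) + 1 := Nat.ceil_lt_add_one (by positivity)
      linarith
  have hh0 : (0:ℝ) < h := by exact_mod_cast hh1
  -- first powers
  set X : ℝ := ∑ l, ∑ t ∈ range M, |v l t - s * r| / r with hX
  set I : ℝ := ∑ l, ∑ t ∈ range M, (|Y l (t + 1) - Y l t - s * r| + Z l t) / r with hI
  have k1 : I ≤ 12 * s * ρ * N + 5 * X + 2 / ρ * δ * N := by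
    have e1 : ∀ l, ∑ t ∈ range M, (|Y l (t + 1) - Y l t - s * r| + Z l t) / r ≤
        6 * (h * s) + 5 * ∑ t ∈ range M, |v l t - s * r| / r +
          (2 / (h * r)) * ∑ t ∈ range (M + 1), |Y l t - (s * r * t + b l)| := by
      intro l
      have f1 := row_pure (b := b l) hh1 hh2 (hZ l) (hY l) (by positivity : 0 ≤ s * r)
      rw [← sum_div, ← sum_div, div_le_iff₀ hr]
      refine f1.trans (le_of_eq ?_)
      field_simp
    have e2 : I ≤ ∑ l : Λ, (6 * (h * s) + 5 * ∑ t ∈ range M, |v l t - s * r| / r +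
          (2 / (h * r)) * ∑ t ∈ range (M + 1), |Y l t - (s * r * t + b l)|) :=
      sum_le_sum fun l _ => e1 l
    rw [sum_add_distrib, sum_add_distrib, sum_const, card_univ, nsmul_eq_mul, ← mul_sum,
      ← mul_sum] at e2
    have e3 : (Fintype.card Λ : ℝ) * (6 * (h * s)) ≤ 12 * s * ρ * N := by
      have : (6:ℝ) * (h * s) ≤ 12 * s * ρ * (M + 1) := by nlinarith
      calc (Fintype.card Λ : ℝ) * (6 * (h * s)) ≤ Fintype.card Λ * (12 * s * ρ * (M + 1)) :=
            mul_le_mul_of_nonneg_left this (by positivity)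
        _ = 12 * s * ρ * N := by rw [hN]; ring
    have e4 : (2 / (h * r)) * ∑ l, ∑ t ∈ range (M + 1), |Y l t - (s * r * t + b l)| ≤
        2 / ρ * δ * N := by
      calc (2 / (h * r)) * ∑ l, ∑ t ∈ range (M + 1), |Y l t - (s * r * t + b l)|
          ≤ (2 / (h * r)) * (δ * (M * r) * N) := mul_le_mul_of_nonneg_left h2 (by positivity)
        _ = 2 * δ * N * (M / h) := by field_simp
        _ ≤ 2 * δ * N * (1 / ρ) := by
            apply mul_le_mul_of_nonneg_left _ (by positivity)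
            rw [div_le_div_iff₀ hh0 hρ]
            nlinarith
        _ = 2 / ρ * δ * N := by ring
    linarith
  have k2 : X ≤ τ * N + τ ^ (1 - q) * (δ * N) := by
    have e1 : X ≤ ∑ l : Λ, ∑ t ∈ range M, (τ + τ ^ (1 - q) * (|v l t - s * r| / r) ^ q) :=
      sum_le_sum fun l _ => sum_le_sum fun t _ =>
        R96.Pure_520.le_young hq (by positivity) hτ
    have e2 : ∑ l : Λ, ∑ t ∈ range M, (τ + τ ^ (1 - q) * (|v l t - s * r| / r) ^ q) =
        Fintype.card Λ * (M * τ) + τ ^ (1 - q) *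
          ∑ l, ∑ t ∈ range M, (|v l t - s * r| / r) ^ q := by
      rw [mul_sum]
      simp_rw [sum_add_distrib, mul_sum, sum_const, card_range, card_univ, nsmul_eq_mul]
    rw [e2] at e1
    have e3 : (Fintype.card Λ : ℝ) * (M * τ) ≤ τ * N := by
      rw [hN]
      have : (0:ℝ) ≤ Fintype.card Λ := by positivity
      nlinarith [mul_nonneg this hτ.le]
    have e4 := mul_le_mul_of_nonneg_left h3 (show 0 ≤ τ ^ (1 - q) by positivity)
    linarith
  -- q-th powers
  have k3 : ∑ l, ∑ t ∈ range M, ((|Y l (t + 1) - Y l t - s * r| + Z l t) / r) ^ q ≤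
      K * I + 2 ^ q * (δ * N) := by
    have e1 : ∑ l, ∑ t ∈ range M, ((|Y l (t + 1) - Y l t - s * r| + Z l t) / r) ^ q ≤
        ∑ l : Λ, ∑ t ∈ range M, (K * ((|Y l (t + 1) - Y l t - s * r| + Z l t) / r) +
          2 ^ q * (|v l t - s * r| / r) ^ q) := by
      apply sum_le_sum
      intro l _
      apply sum_le_sum
      intro t ht
      rw [mem_range] at ht
      have f0 := hZ l t ht
      have f1 : (|Y l (t + 1) - Y l t - s * r| + Z l t) / r ≤ 2 * s + (v l t - s * r) / r := by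
        rw [div_le_iff₀ hr, add_mul, div_mul_cancel₀ _ hr.ne']
        have f2 := hY l t ht
        have f3 : |Y l (t + 1) - Y l t - s * r| ≤ |Y l (t + 1) - Y l t| + s * r := by
          refine (abs_sub _ _).trans ?_
          rw [abs_of_nonneg (by positivity : 0 ≤ s * r)]
        linarith
      have f4 := rpow_le_split hq hs (by positivity) f1
      rw [abs_div, abs_of_pos hr,
        Real.mul_rpow (x := 2) (y := |v l t - s * r| / r) (by norm_num) (by positivity)] at f4
      exact f4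
    simp_rw [sum_add_distrib, ← mul_sum] at e1
    have e2 := mul_le_mul_of_nonneg_left h3 (show (0:ℝ) ≤ 2 ^ q by positivity)
    linarith
  have k4 : K * I ≤ K * (12 * s * ρ * N + 5 * (τ * N + τ ^ (1 - q) * (δ * N)) + 2 / ρ * δ * N) :=
    mul_le_mul_of_nonneg_left (by linarith) hK0
  have m1 : K * (12 * s * ρ) * N ≤ ε / 5 * N := mul_le_mul_of_nonneg_right hρ2 hN0
  have m2 : 5 * K * τ * N ≤ ε / 5 * N := mul_le_mul_of_nonneg_right hτ1 hN0
  have m3 : L * δ * N ≤ ε / 5 * N := mul_le_mul_of_nonneg_right hδ1 hN0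
  have m4 : K * (2 / ρ * δ) * N ≤ ε / 5 * N := mul_le_mul_of_nonneg_right hδ2 hN0
  have m5 : 0 ≤ ε / 5 * N := by positivity
  rw [hL] at m3
  nlinarith

end Crest.Agent.R096.Pno_205
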