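import Crest.Agent.R096.Bxs4_627
import Crest.Agent.R096.Toph3_766
import Crest.Agent.R096.Bsp9_628
import Crest.Agent.R096.Brk5_582
import Crest.Agent.R096.Acr1_733

/-!
Row 96 (S0127), helper766.  **PREP3**: the whole input of the machine for `p ≥ 3`: a box foam of the
target (dyadic, bounded geometry), a Lipschitz homeomorphism `Th` of the target, an exact core in every
brick, good bricks and small energy over the bad bricks.
-/

set_option autoImplicit false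
set_option linter.unusedSectionVars false
set_option linter.style.longLine false
set_option linter.style.haveILetI false
set_option linter.unusedVariables false

namespace Crest.Agent.R096.Prep_766

open MeasureTheory Set Filter Topology Metric
open scoped ENNReal NNReal
open Crest.AnalysisR.VecCalc3 Crest.AnalysisR.Sobolev
open Crest.Agent.R096.Bsp_628 Crest.Agent.R096.Brk5_582 Crest.Agent.R096.Brk3_582
open Crest.Agent.R096.Osc_802 Crest.Agent.R096.LusN_766 Crest.Agent.R096.VolC_766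
open Crest.Agent.R096.VolC2_766 Crest.Agent.R096.VolC3_766 Crest.Agent.R96.Lu_538
open Crest.Agent.R096.ThC6_766 Crest.Agent.R096.ThCi2_766 Crest.Agent.R096.ThCi3_766
open Crest.Agent.R096.Sel_766 Crest.Agent.R096.Toph_766 Crest.Agent.R096.Bxs_627
open Crest.Agent.R096.Sk_962 (SH)
open Crest.Agent.R96.En10_199

/-- positive continuous functions are locally bounded below. -/
lemma low_of_cont {L : Set R3} (hL : IsOpen L) {h : R3 → ℝ} (hc : ContinuousOn h L)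
    (hp : ∀ x ∈ L, 0 < h x) :
    ∀ x ∈ L, ∃ r : ℝ, 0 < r ∧ ∃ m : ℝ, 0 < m ∧ ∀ y ∈ ball x r, m ≤ h y := by
  intro x hx
  have h1 : ContinuousAt h x := hc.continuousAt (hL.mem_nhds hx)
  have h2 : ∀ᶠ y in 𝓝 x, h x / 2 < h y :=
    h1.eventually (lt_mem_nhds (by have := hp x hx; linarith))
  obtain ⟨r, hr, hb⟩ := Metric.eventually_nhds_iff_ball.1 h2
  exact ⟨r, hr, h x / 2, by have := hp x hx; positivity, fun y hy => (hb y hy).le⟩

/-- the bricks close to `O`. -/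
def BadE (F : Set (Bx (Fin 3))) (O : Set R3) : Set F :=
  {c | ∃ y ∈ O, ‖y - P3 (ctr c.1)‖ ≤ 16 * c.1.sz}

/-- the region of the bricks close to `O`. -/
def BadR (F : Set (Bx (Fin 3))) (O : Set R3) : Set R3 :=
  ⋃ c ∈ BadE F O, closedBall (P3 (ctr c.1)) (4 * c.1.sz)

lemma norm_sub_ctr {C : Bx (Fin 3)} (hC : C.Pos) {y : R3} (hy : P3.symm y ∈ C.set) :
    ‖y - P3 (ctr C)‖ ≤ C.sz := by
  have hs := Bx.sz_pos hC
  have h1 : ‖P3.symm y - ctr C‖ ≤ C.sz / 2 := by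
    rw [pi_norm_le_iff_of_nonneg (by positivity)]
    intro k
    rw [Pi.sub_apply, Real.norm_eq_abs, abs_le]
    have h2 := Bx.mem_set.1 hy k
    have h3 := ctr_lo C k
    have h4 := ctr_hi C k
    have h5 := C.side_le_sz k
    constructor <;> linarith
  have h2 := norm_P3_le (P3.symm y - ctr C)
  rw [map_sub, ContinuousLinearEquiv.apply_symm_apply] at h2
  linarith

lemma bdB_subset_badE {La : Set (Fin 3 → ℝ)} {F : Set (Bx (Fin 3))} {δ κ0 : ℝ}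
    (BF : BoxFoam La F δ κ0) (O : Set R3) : BdB F O ⊆ BadE F O := by
  rintro c ⟨y, hy, hyc⟩
  have h1 := norm_sub_ctr (BF.pos _ c.2) hyc
  have h2 := Bx.sz_pos (BF.pos _ c.2)
  exact ⟨y, hy, by linarith⟩

/-- **energy over the bad bricks.** -/
theorem bad_energy {Ω Λ : Set R3} {f : R3 → R3} {G : Fin 3 → R3 → R3} {p : ℝ} {K : Set R3}
    {e : ℝ≥0∞} (hKe : ∫⁻ x in Ω \ f ⁻¹' K, (1 + ∑ j, ‖G j x‖ₑ ^ p) < e / 2) {τ : ℝ≥0∞}
    (hτ : ∀ A : Set R3, volume A < τ →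
      ∫⁻ x in Ω ∩ f ⁻¹' A ∩ {x | (Gmat G x).det ≠ 0}, (1 + ∑ j, ‖G j x‖ₑ ^ p) < e / 2)
    {d0 : ℝ} (hd0 : 0 < d0) (hd0Λ : cthickening d0 K ⊆ Λ) {w σ : R3 → ℝ} (hw : Scale Λ w)
    (hwd : ∀ x ∈ Λ, w x ≤ d0 / 2)
    {s0 : ℝ} (hs0 : 0 < s0) (hs0d : s0 ≤ d0 / 200) (hs01 : s0 ≤ 1 / 4)
    {F : Set (Bx (Fin 3))} {δf : ℝ} (BF : BoxFoam (P3 ⁻¹' Λ) F δf 3)
    (hsz : ∀ c ∈ F, c.sz ≤ s0)
    (hszK : ∀ c ∈ F, P3 (ctr c) ∈ cthickening d0 K → s0 ≤ 15 / 4 * c.sz)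
    (hσ : Scale Λ σ) (hσl : ∀ (y : R3) (m : ℝ), 0 ≤ m → m ≤ 1 → ball y (8 * m) ⊆ Λ →
        (∀ i : F, ‖P3 (ctr i.1) - y‖ ≤ w (P3 (ctr i.1)) / 16 + 8 * m → m ≤ rad 3 i.1) → m ≤ σ y)
    {E W : Set R3} (hW : W = {y | y ∈ Λ ∧ σ y / 2 < infDist y E}) {η : ℝ} (hη : 0 < η)
    (hvol : ENNReal.ofReal (5 ^ 3 / (min (η / 6 ^ 3) ((1 / 360 / 28) ^ 3) / 2)) * volume (Λ \ E) < τ) :
    ∫⁻ x in Ω ∩ f ⁻¹' (BadR F (OO η w W)) ∩ {x | (Gmat G x).det ≠ 0}, (1 + ∑ j, ‖G j x‖ₑ ^ p) < e := by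
  set O := OO η w W with hO
  set η' : ℝ := min (η / 6 ^ 3) ((1 / 360 / 28) ^ 3) / 2 with hη'
  have hη'0 : 0 < η' := by
    rw [hη']
    have : 0 < min (η / 6 ^ 3) ((1 / 360 / 28 : ℝ) ^ 3) := lt_min (by positivity) (by positivity)
    linarith
  have hfr : Module.finrank ℝ R3 = 3 := by simp
  have hvM : volume (BadR F O ∩ K) < τ := by
    refine lt_of_le_of_lt (vitali_le (V := R3) (A := Λ \ E) (η := η') (R₀ := 7) hη'0 ?_) (by
      rw [hfr]; exact hvol)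
    rintro y ⟨hyB, hyK⟩
    obtain ⟨c, hc⟩ := mem_iUnion.1 hyB
    obtain ⟨⟨z, hzO, hz⟩, hyc⟩ := mem_iUnion.1 hc
    rw [mem_closedBall, dist_eq_norm] at hyc
    have hc0 := Bx.sz_pos (BF.pos _ c.2)
    have hcs := hsz _ c.2
    have hctrK : ∀ z : R3, ‖z - y‖ ≤ d0 → z ∈ cthickening d0 K := fun z hz =>
      mem_cthickening_of_dist_le z y d0 K hyK (by rwa [dist_eq_norm])
    have key := bad_density (V := R3) hw hσ hW hη (c := 1 / 360) (by norm_num) (by norm_num)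
      (q := P3 (ctr c.1)) (s := 4 * c.1.sz) (by positivity) (by linarith) ?_ (z := z) (by linarith) hzO y
      (by linarith)
    · obtain ⟨ρ, h1, h2, h3⟩ := key
      rw [hfr] at h3
      exact ⟨ρ, h1, h2, h3⟩
    · intro x hx
      have hxy : ‖x - y‖ ≤ 24 * s0 := by
        have h1 : x - y = (x - P3 (ctr c.1)) - (y - P3 (ctr c.1)) := by abel
        rw [h1]
        refine (norm_sub_le _ _).trans ?_
        linarith
      have hm : 1 / 360 * (4 * c.1.sz) ≤ s0 / 90 := by linarith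
      refine hm.trans (hσl x (s0 / 90) (by positivity) (by linarith) ?_ ?_)
      · intro z' hz'
        rw [mem_ball, dist_eq_norm] at hz'
        refine hd0Λ (hctrK _ ?_)
        have := norm_add_le (z' - x) (x - y)
        rw [sub_add_sub_cancel] at this
        linarith
      · intro i hi
        have hwi : w (P3 (ctr i.1)) ≤ d0 / 2 := hwd _ (BF.sub _ i.2 (ctr_mem (BF.pos _ i.2)))
        have h2 := hszK _ i.2 (hctrK _ (by
          have := norm_add_le (P3 (ctr i.1) - x) (x - y)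
          rw [sub_add_sub_cancel] at this
          linarith))
        unfold rad
        linarith
  have h1 := hτ _ hvM
  calc ∫⁻ x in Ω ∩ f ⁻¹' (BadR F O) ∩ {x | (Gmat G x).det ≠ 0}, (1 + ∑ j, ‖G j x‖ₑ ^ p)
      ≤ ∫⁻ x in (Ω \ f ⁻¹' K) ∪ (Ω ∩ f ⁻¹' (BadR F O ∩ K) ∩ {x | (Gmat G x).det ≠ 0}),
          (1 + ∑ j, ‖G j x‖ₑ ^ p) := by
        apply lintegral_mono_set
        rintro x ⟨⟨hx1, hx2⟩, hx3⟩
        by_cases hxK : f x ∈ K
        · exact Or.inr ⟨⟨hx1, hx2, hxK⟩, hx3⟩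
        · exact Or.inl ⟨hx1, hxK⟩
    _ ≤ (∫⁻ x in Ω \ f ⁻¹' K, (1 + ∑ j, ‖G j x‖ₑ ^ p)) +
        ∫⁻ x in Ω ∩ f ⁻¹' (BadR F O ∩ K) ∩ {x | (Gmat G x).det ≠ 0}, (1 + ∑ j, ‖G j x‖ₑ ^ p) :=
        lintegral_union_le _ _ _
    _ < e / 2 + e / 2 := ENNReal.add_lt_add hKe h1
    _ = e := ENNReal.add_halves e

end Crest.Agent.R096.Prep_766
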