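import Crest.Agent.R096.Prep1_766
import Crest.Agent.R096.Bxs6_627

/-!
Row 96 (S0127), helper766.  **PREP3**, the theorem.
-/

set_option autoImplicit false
set_option linter.unusedSectionVars false
set_option linter.style.longLine false
set_option linter.style.haveILetI false
set_option linter.unusedVariables false

namespace Crest.Agent.R096.Prep_766

open MeasureTheory Set Filter Topology Metric
open scoped ENNReal NNReal
open Crest.AnalysisR.VecCalc3 Crest.AnalysisR.Sobolev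
open Crest.Agent.R096.Bsp_628 Crest.Agent.R096.Brk5_582 Crest.Agent.R096.Brk3_582
open Crest.Agent.R096.Osc_802 Crest.Agent.R096.LusN_766 Crest.Agent.R096.VolC_766
open Crest.Agent.R096.VolC2_766 Crest.Agent.R096.VolC3_766 Crest.Agent.R96.Lu_538
open Crest.Agent.R096.ThC6_766 Crest.Agent.R096.ThCi2_766 Crest.Agent.R096.ThCi3_766
open Crest.Agent.R096.Sel_766 Crest.Agent.R096.Toph_766 Crest.Agent.R096.Bxs_627
open Crest.Agent.R096.Sk_962 (SH)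
open Crest.Agent.R96.En10_199

/-- **Output of PREP3**: `f2 = Th ∘ f`, `G'` its weak gradients; `F` the foam; the sets and functions of
the selection `μ κ δ σ w O`; the centres `ξ c` of the cores; `yc c` the point moved to the centre. -/
structure Pre3 (p : ℝ) (Ω Λ : Set R3) (f : R3 → R3) (G : Fin 3 → R3 → R3) (lamb κ1 κ2 : ℝ)
    (F : Set (Bx (Fin 3))) (Th : R3 ≃ₜ R3) (G' : Fin 3 → R3 → R3) (μ κ δ : R3 → ℝ) (O : Set R3)
    (ξ yc : F → R3) (hξ : ∀ c, ξ c ∈ EE Ω f G p μ κ δ) (hm : ∀ c, 0 < μ (ξ c)) : Prop where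
  foam : BoxFoam (P3 ⁻¹' Λ) F (min (dl (Fin 3) 3 / 2) (1 / 3)) 3
  cmp : Cmp F 4
  /-- comparability of bricks at small distance (for `Bxs_627.th_id_nbhd`) -/
  gr : Gr F (1 / 180) (15 / 2)
  /-- off `Λ` -/
  id_off : ∀ y, y ∉ Λ → Th y = y
  mem : ∀ y, Th y ∈ Λ ↔ y ∈ Λ
  lip : ∀ y y', ‖Th y - Th y'‖ ≤ 25 / 2 * ‖y - y'‖
  sh : SH p Ω Λ (fun x => Th (f x)) G'
  col : ∀ᵐ x, x ∈ Ω → ∀ i, ‖Crest.Agent.R96.Str_520.col G' i x‖ ≤ 25 / 2 * ‖Crest.Agent.R96.Str_520.col G i x‖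
  trans : ∀ (U : Set R3) (t : R3), IsOpen U → U ⊆ Ω → (∀ x ∈ U, Th (f x) = f x + t) →
    ∀ᵐ x, x ∈ U → ∀ j, G' j x = G j x
  scμ : Scale Ω μ
  scδ : Scale Ω δ
  openO : IsOpen O
  subO : O ⊆ Λ
  id_good : ∀ y, y ∉ O → (∀ c ∈ BdB F O, 2 * rad 3 c.1 ≤ ‖y - P3 (ctr c.1)‖) → Th y = y
  /-- bad bricks -/
  bad : ∀ c ∈ BdB F O, ‖yc c - f (ξ c)‖ ≤ rad 3 c.1 ∧
    (∀ y, ‖y - yc c‖ ≤ rad 3 c.1 / 16 → Th y = P3 (ctr c.1) + (y - yc c)) ∧
    (∀ y, ‖Th y - P3 (ctr c.1)‖ ≤ rad 3 c.1 / 16 → y = yc c + (Th y - P3 (ctr c.1))) ∧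
    GoodAt Ω f G p κ (ξ c) (4 * rad 3 c.1 / μ (ξ c)) ∧
    Cor Ω (Th ∘ f) (affE f G (ξ c) (P3 (ctr c.1) - yc c) (hm c) (hξ c).2.1) c.1 (ls 3) κ1 κ2
  /-- good bricks -/
  good : ∀ c ∉ BdB F O, yc c = P3 (ctr c.1) ∧ (∀ y, P3.symm y ∈ c.1.set → Th y = y) ∧
    ‖P3 (ctr c.1) - f (ξ c)‖ ≤ rad 3 c.1 ∧
    GoodAt Ω f G p κ (ξ c) (8 * c.1.sz / μ (ξ c)) ∧
    8 * c.1.sz < μ (ξ c) * δ (ξ c) ∧
    Cor Ω (Th ∘ f) (affE f G (ξ c) (P3 (ctr c.1) - yc c) (hm c) (hξ c).2.1) c.1 lamb κ1 κ2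

set_option maxHeartbeats 1000000 in
/-- **PREP3.** -/
theorem prep3 {p : ℝ} (hp : 3 ≤ p) {Ω Λ : Set R3} (hΩ : IsOpen Ω) (hΩb : Bornology.IsBounded Ω)
    (hΛ : IsOpen Λ) (hΛb : Bornology.IsBounded Λ) {f : R3 → R3} {G : Fin 3 → R3 → R3}
    (h : SH p Ω Λ f G) {dsp : R3 → ℝ} (hdc : ContinuousOn dsp Λ) (hdp : ∀ y ∈ Λ, 0 < dsp y)
    {lamb κ1 κ2 : ℝ} (hl : 1 / 2 ≤ lamb) (hl1 : lamb < 1) (hκ1 : 0 < κ1) (hκ2 : 0 ≤ κ2)
    (hκ2' : κ2 ≤ 1 / 4) (hlκ : (1 / 2 + κ2) * lamb < 1 / 2) {κf : ℝ → ℝ} (hκm : Measurable κf)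
    (hκp : ∀ m, 0 < m → 0 < κf m) {e : ℝ≥0∞} (he : 0 < e) (o : Fin 3 → ℝ) {u M : ℝ} (hu : 0 < u)
    (hM : 4 / dl (Fin 3) 3 ≤ M) (hM2 : 2 ≤ M) :
    ∃ (F : Set (Bx (Fin 3))) (Th : R3 ≃ₜ R3) (G' : Fin 3 → R3 → R3) (μ κ δ : R3 → ℝ) (O : Set R3)
      (ξ yc : F → R3) (hξ : ∀ c, ξ c ∈ EE Ω f G p μ κ δ) (hm : ∀ c, 0 < μ (ξ c)),
      Pre3 p Ω Λ f G lamb κ1 κ2 F Th G' μ κ δ O ξ yc hξ hm ∧
      (∀ x ∈ Ω, κ x ≤ κf (μ x)) ∧
      (∀ C ∈ F, Dy o u M C) ∧ (∀ C ∈ F, ∀ z ∈ C.set, C.sz ≤ dsp (P3 z)) ∧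
      (∀ y ∈ Λ, ‖Th y - y‖ ≤ dsp y) ∧
      ∫⁻ x in Ω ∩ f ⁻¹' (BadR F O) ∩ {x | (Gmat G x).det ≠ 0}, (1 + ∑ j, ‖G j x‖ₑ ^ p) < e := by
  classical
  have hp0 : 0 < p := by linarith
  have hΛc : (Λᶜ).Nonempty := by
    by_contra hcon
    rw [not_nonempty_iff_eq_empty, compl_empty_iff] at hcon
    rw [hcon] at hΛb
    exact NormedSpace.unbounded_univ ℝ R3 hΛb
  obtain ⟨K, hKΛ, hK, hKe⟩ := Acr_733.SH.energy_compact hΩ hΛ hΩb h hp0 (ENNReal.half_pos he.ne')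
  obtain ⟨τ, hτ, hτe⟩ := Acr_733.SH.ac_rank3 hΩ hΛ hΩb h (by linarith) (ENNReal.half_pos he.ne')
  obtain ⟨d0, hd0, hd0Λ⟩ := hK.exists_cthickening_subset_open hΛ hKΛ
  obtain ⟨w, hw, hwh⟩ := exists_scale hΛ (h := fun y => min (dsp y / 2) (d0 / 2))
    (low_of_cont hΛ (by fun_prop) (fun y hy => lt_min (by have := hdp y hy; positivity) (by positivity)))
  obtain ⟨η, hη, hη1, hbox⟩ := boxes hΩ hΛ hΛc h.homeo (G := G) (p := p) hw
  set η' : ℝ := min (η / 6 ^ 3) ((1 / 360 / 28) ^ 3) / 2 with hη'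
  have hη'0 : 0 < η' := by
    rw [hη']
    have : 0 < min (η / 6 ^ 3) ((1 / 360 / 28 : ℝ) ^ 3) := lt_min (by positivity) (by positivity)
    linarith
  set cc : ℝ≥0∞ := ENNReal.ofReal (5 ^ 3 / η') with hcc
  have hcc0 : cc ≠ 0 := by rw [hcc, ENNReal.ofReal_ne_zero_iff]; positivity
  have hcct : cc ≠ ∞ := ENNReal.ofReal_ne_top
  set ε : ℝ≥0∞ := τ / cc with hε
  have hε0 : 0 < ε := ENNReal.div_pos hτ.ne' hcct
  obtain ⟨μ, hμ, -, -, hmain⟩ := sel_vol hΩ hΛ hΛb.measure_lt_top.ne h.homeo h.wg hp h.memG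
    (ρ := 0) (Measure.AbsolutelyContinuous.zero volume) hε0 hw hη (h₁ := fun _ => 1)
    (fun x _ => ⟨1, one_pos, 1, one_pos, fun _ _ => le_rfl⟩)
  set κ₁ : ℝ := min (min (1 / 32) (κ1 / 64)) ((1 / 2 - (1 / 2 + κ2) * lamb) / 6) with hκ₁
  have hκ₁0 : 0 < κ₁ := lt_min (lt_min (by norm_num) (by positivity)) (by linarith)
  have hκ₁a : κ₁ ≤ 1 / 32 := (min_le_left _ _).trans (min_le_left _ _)
  have hκ₁b : κ₁ ≤ κ1 / 64 := (min_le_left _ _).trans (min_le_right _ _)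
  have hκ₁c : κ₁ ≤ (1 / 2 - (1 / 2 + κ2) * lamb) / 6 := min_le_right _ _
  set κ : R3 → ℝ := fun x => min (κf (μ x)) (κ₁ * μ x / 4) with hκdef
  have hμc := hμ.cont
  obtain ⟨δ, hδ, -, -, hvol, hden⟩ := hmain κ
    ((hκm.comp hμc.measurable).min (by fun_prop))
    (fun x hx => by
      have := hμ.pos x hx
      exact lt_min (hκp _ this) (by positivity))
    (fun _ => 1) (fun x _ => ⟨1, one_pos, 1, one_pos, fun _ _ => le_rfl⟩)
  have hκ4 : ∀ x ∈ Ω, κ x * 4 ≤ κ₁ * μ x := by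
    intro x hx
    have : κ x ≤ κ₁ * μ x / 4 := min_le_right _ _
    linarith
  have hμc := hμ.cont
  have hδc := hδ.cont
  obtain ⟨s₁, hs₁, hs₁h⟩ := exists_s1 hΩ hΛ h.homeo hw (h := fun x => μ x * δ x / 16)
    (by fun_prop) (fun x hx => by
      have h1 := hμ.pos x hx
      have h2 := hδ.pos x hx
      positivity)
  have hs₁c := hs₁.cont
  -- the constant size near `K`
  obtain ⟨s0, hs0, hs0d, hs0u, hs01, hs0K⟩ : ∃ s0 : ℝ, 0 < s0 ∧ s0 ≤ d0 / 200 ∧ s0 ≤ u ∧ s0 ≤ 1 / 4 ∧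
      ∀ q ∈ cthickening d0 K, s0 ≤ s₁ q := by
    have hKc : IsCompact (cthickening d0 K) := hK.cthickening
    obtain ⟨m, hm0, hm⟩ : ∃ m : ℝ, 0 < m ∧ ∀ q ∈ cthickening d0 K, m ≤ s₁ q := by
      rcases (cthickening d0 K).eq_empty_or_nonempty with hem | hne
      · exact ⟨1, one_pos, fun q hq => by rw [hem] at hq; exact absurd hq (notMem_empty q)⟩
      · obtain ⟨q0, hq0, hmin⟩ := hKc.exists_isMinOn hne hs₁c.continuousOn
        exact ⟨s₁ q0, hs₁.pos _ (hd0Λ hq0), fun q hq => hmin hq⟩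
    refine ⟨min (min m (d0 / 200)) (min u (1 / 4)), ?_, ?_, ?_, ?_, ?_⟩
    · exact lt_min (lt_min hm0 (by positivity)) (lt_min hu (by norm_num))
    · exact (min_le_left _ _).trans (min_le_right _ _)
    · exact (min_le_right _ _).trans (min_le_left _ _)
    · exact (min_le_right _ _).trans (min_le_right _ _)
    · intro q hq
      exact ((min_le_left _ _).trans (min_le_left _ _)).trans (hm q hq)
  -- the foam
  set rho : (Fin 3 → ℝ) → ℝ := fun z => min s0 (s₁ (P3 z)) with hrho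
  have hlip : LipschitzWith (1 / 4) rho := by
    have h1 : LipschitzWith (1 / 4) fun z : Fin 3 → ℝ => s₁ (P3 z) := by
      apply LipschitzWith.of_le_add_mul
      intro z z'
      have h1 := hs₁.lip (P3 z) (P3 z')
      have h2 := norm_P3_le (z - z')
      rw [map_sub] at h2
      rw [dist_eq_norm]
      push_cast
      linarith
    exact h1.const_min s0
  have hLa : ∀ z, 0 < rho z ↔ z ∈ P3 ⁻¹' Λ := by
    intro z
    rw [mem_preimage]
    constructor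
    · intro hz
      by_contra hcon
      have h1 : rho z ≤ s₁ (P3 z) := min_le_right _ _
      rw [hs₁.off _ hcon] at h1
      linarith
    · intro hz
      exact lt_min hs0 (hs₁.pos _ hz)
  have hbd : Bornology.IsBounded (P3 ⁻¹' Λ) := by
    have h1 : P3 ⁻¹' Λ = P3.symm '' Λ := by
      ext z
      rw [mem_preimage, mem_image]
      constructor
      · intro hz; exact ⟨_, hz, P3.symm_apply_apply z⟩
      · rintro ⟨y, hy, rfl⟩; rwa [P3.apply_symm_apply]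
    rw [h1]
    exact P3.symm.lipschitz.isBounded_image hΛb
  obtain ⟨F, BF, f1, f2, f3⟩ := exists_foam_bounded_dy o hu hM hM2 hlip hLa hbd
  have f2' : ∀ C ∈ F, ∀ z ∈ C.set, rho z ≤ 15 / 4 * C.sz := by
    intro C hC z hz
    have h1 := f2 C hC z hz
    have h2 : rho z ≤ u := (min_le_left _ _).trans hs0u
    rw [min_eq_left h2] at h1
    push_cast at h1
    linarith
  have hcmp : Cmp F 4 := by
    have h1 := cmp_of_scale (F := F) f1 f2'
    intro c c' hcc'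
    have h2 := h1 c c' hcc'
    have h3 := Bx.sz_pos (BF.pos _ c'.2)
    linarith
  have hgr : Gr F (1 / 180) (15 / 2) := by
    have h1 := Gr.of_rho (F := F) BF.pos (rho := rho) (L := 1 / 4) (K := 15 / 4) (τ := 1 / 180)
      (fun x y => by
        have h1 := hlip.dist_le_mul x y
        rw [Real.dist_eq, dist_eq_norm] at h1
        have h2 := (abs_le.1 h1).2
        push_cast at h2
        linarith) (by norm_num) f1 f2' (by norm_num) (by norm_num)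
    rwa [show (2 : ℝ) * (15 / 4) = 15 / 2 by norm_num] at h1
  have hsz0 : ∀ c ∈ F, c.sz ≤ s0 := fun c hc =>
    (f1 c hc _ (ctr_mem (BF.pos _ hc))).trans (min_le_left _ _)
  have hsz1 : ∀ c ∈ F, ∀ z ∈ c.set, c.sz ≤ s₁ (P3 z) := fun c hc z hz =>
    (f1 c hc z hz).trans (min_le_right _ _)
  have hctr : ∀ c ∈ F, P3 (ctr c) ∈ Λ := fun c hc => BF.sub _ hc (ctr_mem (BF.pos _ hc))
  have hsz2 : ∀ c ∈ F, c.sz ≤ w (P3 (ctr c)) / 8 := fun c hc =>
    (hsz1 c hc _ (ctr_mem (BF.pos _ hc))).trans (hs₁h _ (hctr c hc)).1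
  have hrad0 : ∀ c ∈ F, 0 < rad 3 c := fun c hc => by
    have := Bx.sz_pos (BF.pos _ hc)
    unfold rad; positivity
  have hrad1 : ∀ c ∈ F, rad 3 c ≤ c.sz / 8 := fun c hc => by
    have := Bx.sz_pos (BF.pos _ hc)
    unfold rad; linarith
  obtain ⟨σ, hσ, hσ1, hσ2⟩ := exists_sigma hΛ hw (P := fun c : F => P3 (ctr c.1))
    (R := fun c : F => rad 3 c.1) (fun c => hrad0 _ c.2) (fun q hq =>
      holes_fin BF (by norm_num) (q := q) (by
        rw [mem_preimage, mem_preimage, ContinuousLinearEquiv.apply_symm_apply]; exact hq))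
  obtain ⟨Th, ξ, yc, hξ, hm, hT1, hT2, hT3, hT4, hT5, hbad, hgood⟩ := hbox
    (μ := μ) (κ := κ) (δ := δ) (fun x hx => hμ.pos x hx) hκ₁0.le hκ₁a hκ4 hden hσ rfl BF
    (by norm_num) hl hl1 hκ2 hκ2' (κ1 := κ1) (by linarith) (by linarith)
    (fun c hc => by
      have h1 := hrad1 c hc
      have h2 := hsz2 c hc
      have h3 := Bx.sz_pos (BF.pos _ hc)
      linarith)
    (fun c hc => hσ1 ⟨c, hc⟩)
    (fun c hc x hx hxf => by
      have h1 := hsz1 c hc _ (ctr_mem (BF.pos _ hc))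
      have h2 := (hs₁h _ (hctr c hc)).2 x hx (by
        have := hw.nonneg (P3 (ctr c))
        linarith)
      have h3 := hμ.pos x hx
      have h4 := hδ.pos x hx
      have h5 : 0 < μ x * δ x := by positivity
      linarith)
  have hlipT : LipschitzWith (25 / 2) Th := by
    apply LipschitzWith.of_dist_le_mul
    intro y y'
    rw [dist_eq_norm, dist_eq_norm]
    have := hT4 y y'
    push_cast
    exact this
  obtain ⟨G', hSH, hcol, htr⟩ := sh_comp hΩ hΩb.measure_lt_top.ne h hT2 hlipT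
  set W : Set R3 := {y | y ∈ Λ ∧ σ y / 2 < infDist y (f '' EE Ω f G p μ κ δ)} with hW
  refine ⟨F, Th, G', μ, κ, δ, OO η w W, ξ, yc, hξ, hm, ?_, ?_, f3, ?_, ?_, ?_⟩
  · refine ⟨BF, hcmp, hgr, hT1, hT2, hT4, hSH, ?_, htr, hμ, hδ, isOpen_OO hw η W, OO_subset hw η W,
      hT5, hbad, ?_⟩
    · filter_upwards [hcol] with x hx hxΩ i
      have := hx hxΩ i
      push_cast at this
      exact this
    · intro c hc
      obtain ⟨g1, g2, g3, g4, g5⟩ := hgood c hc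
      have hσc : σ (P3 (ctr c.1)) ≤ rad 3 c.1 := hσ1 c _ (by
        rw [sub_self, norm_zero]
        have := hw.nonneg (P3 (ctr c.1))
        positivity)
      refine ⟨g1, g2, (g3.trans_le hσc).le, g4, ?_, g5⟩
      have h1 := hsz1 c.1 c.2 _ (ctr_mem (BF.pos _ c.2))
      have hξΩ := (hξ c).1
      have h2 := (hs₁h _ (hctr c.1 c.2)).2 (ξ c) hξΩ (by
        rw [norm_sub_rev]
        have h3 := hrad1 c.1 c.2
        have h4 := hsz2 c.1 c.2
        have h5 := Bx.sz_pos (BF.pos _ c.2)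
        linarith)
      have h3 := hμ.pos _ hξΩ
      have h4 := hδ.pos _ hξΩ
      have h5 : 0 < μ (ξ c) * δ (ξ c) := by positivity
      linarith
  · intro x hx
    exact min_le_left _ _
  · intro C hC z hz
    have h1 := hsz1 C hC z hz
    have hzΛ : P3 z ∈ Λ := BF.sub _ hC hz
    have h2 := (hs₁h _ hzΛ).1
    have h3 := hwh _ hzΛ
    have h4 : min (dsp (P3 z) / 2) (d0 / 2) ≤ dsp (P3 z) / 2 := min_le_left _ _
    have h5 := hdp _ hzΛ
    have h6 := hw.nonneg (P3 z)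
    linarith
  · intro y hy
    have h1 := hT3 y
    have h3 := hwh _ hy
    have h4 : min (dsp y / 2) (d0 / 2) ≤ dsp y / 2 := min_le_left _ _
    have h5 := hdp _ hy
    linarith
  · refine bad_energy hKe hτe hd0 hd0Λ hw (fun x hx => (hwh x hx).trans (min_le_right _ _)) hs0 hs0d
      hs01 BF hsz0 ?_ hσ hσ2 rfl hη ?_
    · intro c hc hcK
      have h1 := f2' c hc _ (ctr_mem (BF.pos _ hc))
      have h2 : s0 ≤ rho (ctr c) := le_min le_rfl (hs0K _ hcK)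
      linarith
    · calc cc * volume (Λ \ f '' EE Ω f G p μ κ δ) < cc * ε := by
            exact (ENNReal.mul_lt_mul_iff_right hcc0 hcct).2 hvol
        _ = τ := ENNReal.mul_div_cancel hcc0 hcct

end Crest.Agent.R096.Prep_766
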