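/-
helper273, row 96, NO0-PRE [ZSEL] (552 #11087), part 12: the choice of the slices `Zs`, literal form of
#11087 (no error term, explicit constant `Kz p`).
-/
import Mathlib
import Crest.Agent.R096.Ps10_273

set_option autoImplicit false
set_option linter.unusedVariables false

open MeasureTheory Set Filter Metric
open scoped Topology ENNReal

namespace Crest.Agent.R096.Ps_273

open Crest.Agent.R096.Msh_810 Crest.Agent.R96.En3_199
  Crest.Agent.R96.En4_199 Crest.Agent.R96.En5_199 Crest.Agent.R96.En6_199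
  Crest.Agent.R96.En7_199 Crest.Agent.R96.En8_199 Crest.Agent.R96.En9_199
  Crest.Agent.R96.En11_199 Crest.Agent.R96.Sg1_199
open Crest.Agent.R096.Msh_715 hiding P I
open Crest.Agent.R096.Ls_222
open Crest.Agent.R096.No0_477 (cub fr Vw Fc)
open Crest.Agent.R096.SkC1_961 (E3)
open Crest.Agent.R096.Nsl_552 (exists_slices_block_e slice_card sqs)

noncomputable section

open Classical in
/-- **THE CHOICE OF THE SLICES**, with two additional functions `G` of the slices -/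
theorem exists_Zs7 {p : ℝ} (hp : 1 ≤ p) {D : Dat 3} {k M L : ℕ} {o : Fin 2 → ℤ} {A : Finset ℤ}
    {r : ℝ}
    (hL : 1 ≤ L) (hrk : r = ((2:ℝ) ^ k)⁻¹) (hrL : 4 * L * r ≤ 1) (hM : 0 < M)
    (hA : ∀ m, m ∈ A ↔ |(L : ℝ) * (D.a 2 + r * m)| ≤ 1 / 2)
    (hN : 2 / L ≤ ((A.card : ℝ) * M ^ 2) * r ^ 3)
    {I : Type*} (B : Finset I) (x : I → E3) (ρ : I → ℝ) (hρ : ∀ c ∈ B, 0 ≤ ρ c)
    (hB : ∑ c ∈ B, (ρ c + r) ≤ 1 / (32 * L))
    {𝒞 : Type*} {w : 𝒞 → ℝ≥0∞} {g : 𝒞 → Fin 3 → (Fin 3 → ℝ) → ℝ} {s : Fin 3 → ℝ≥0∞}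
    {κp c : ℝ≥0∞} {er : Cel D → ℝ≥0∞} {Rx : Set E3} {εx εq εH εR εG : ℝ} (hx0 : 0 ≤ εx)
    (hq0 : 0 ≤ εq) (hH0 : 0 ≤ εH) (hR0 : 0 ≤ εR) (hG0 : 0 ≤ εG)
    (hx : ∀ j : Fin 2, 4 * (κp * s j.castSucc) + L * ((1 + κp) *
      Ed D j.castSucc 1 (Xs w g s j.castSucc) + Ye D j.castSucc 1 er) ≤ ENNReal.ofReal εx)
    (hq : L * (KC 3 p * (2 ^ (p - 1) * (c ^ p * ∑ l : Fin 3, Ed D l p (Xs w g s l) +
      ∑ l : Fin 3, Ye D l p er))) ≤ ENNReal.ofReal εq)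
    (hH : L * (2 ^ (p - 1) * (c ^ p * S D p (Rx.indicator (GGw w g)) +
      KC 3 p * ∑ l : Fin 3, Ye D l p er)) ≤ ENNReal.ofReal εH)
    (hR : volume Rx ≤ ENNReal.ofReal (εR / L))
    (G : Fin 2 → ℤ → ℝ≥0∞) (hG : ∀ j, ∑ m ∈ A, G j m ≤ ENNReal.ofReal εG * A.card) :
    ∃ Zs : Finset ℤ, Zs ⊆ A ∧ Zs.Nonempty ∧ (A.card : ℝ) ≤ 2 * Zs.card ∧
      (∀ m ∈ Zs, |(L : ℝ) * (D.a 2 + r * m)| ≤ 1 / 2) ∧
      (∀ m ∈ Zs, ∀ c ∈ B, ρ c + r < |D.a 2 + r * m - x c 2|) ∧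
      (∀ m ∈ Zs, ∀ c ∈ B, ∀ (o : Fin 2 → ℤ) (v : Fin 2 → ℕ),
        Disjoint (cub (No0_477.vx D.a r o m v) r) (closedBall (x c) (ρ c))) ∧
      (∀ j, ∑ m ∈ Zs, G j m ≤ ENNReal.ofReal (28 * εG * Zs.card)) ∧
      (∀ j, ∑ m ∈ Zs, ∑ v ∈ Fintype.piFinset fun _ : Fin 2 => Finset.range (M + 1),
        xE D k o w g s κp er j m v ≤ ENNReal.ofReal (28 * εx * ((Zs.card : ℝ) * M ^ 2))) ∧
      (∑ m ∈ Zs, ∑ v ∈ Fintype.piFinset fun _ : Fin 2 => Finset.range M,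
        qE D k o w g s c er m v ^ p ≤ ENNReal.ofReal (28 * εq * ((Zs.card : ℝ) * M ^ 2))) ∧
      (∑ m ∈ Zs, ∑ v ∈ Fintype.piFinset fun _ : Fin 2 => Finset.range M,
        (if cub (No0_477.vx D.a r o m v) r ⊆ Rx then qH D k o w g c er m v ^ p else 0) ≤
          ENNReal.ofReal (28 * εH * ((Zs.card : ℝ) * M ^ 2))) ∧
      (((Fc M Zs).filter fun k => cub (No0_477.vx D.a r o k.1 k.2) r ⊆ Rx).card : ℝ) ≤
        28 * εR * ((Zs.card : ℝ) * M ^ 2) := by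
  have hr : 0 < r := by rw [hrk]; positivity
  have hmass := mass_block hrk hL hN
  have hL0 : (0:ℝ) < L := by exact_mod_cast hL
  -- the seven functions
  set F : Fin 7 → ℤ → ℝ≥0∞ := ![
    fun m => ∑ v ∈ Fintype.piFinset fun _ : Fin 2 => Finset.range (M + 1),
      xE D k o w g s κp er 0 m v,
    fun m => ∑ v ∈ Fintype.piFinset fun _ : Fin 2 => Finset.range (M + 1),
      xE D k o w g s κp er 1 m v,
    fun m => ∑ v ∈ Fintype.piFinset fun _ : Fin 2 => Finset.range M,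
      qE D k o w g s c er m v ^ p,
    fun m => ∑ v ∈ Fintype.piFinset fun _ : Fin 2 => Finset.range M,
      (if cub (No0_477.vx D.a r o m v) r ⊆ Rx then qH D k o w g c er m v ^ p else 0),
    fun m => ENNReal.ofReal
      ((sqs M).filter fun v => cub (No0_477.vx D.a r o m v) r ⊆ Rx).card, G 0, G 1] with hF
  set ε' : Fin 7 → ℝ≥0∞ := ![ENNReal.ofReal (εx * M ^ 2), ENNReal.ofReal (εx * M ^ 2),
    ENNReal.ofReal (εq * M ^ 2), ENNReal.ofReal (εH * M ^ 2),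
    ENNReal.ofReal (εR * M ^ 2), ENNReal.ofReal εG, ENNReal.ofReal εG] with hε'
  have key : ∀ {t : ℝ} {X : ℝ≥0∞}, 0 ≤ t → X ≤ ENNReal.ofReal t →
      X * ((A.card : ℝ≥0∞) * (M:ℝ≥0∞) ^ 2) ≤ ENNReal.ofReal (t * M ^ 2) * A.card := by
    intro t X ht h
    rw [ENNReal.ofReal_mul (by positivity), ENNReal.ofReal_pow (by positivity),
      ENNReal.ofReal_natCast]
    calc X * ((A.card : ℝ≥0∞) * (M:ℝ≥0∞) ^ 2) ≤
        ENNReal.ofReal t * ((A.card : ℝ≥0∞) * (M:ℝ≥0∞) ^ 2) := by gcongr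
      _ = _ := by ring
  have hxj : ∀ j : Fin 2, ∑ m ∈ A, ∑ v ∈ Fintype.piFinset fun _ : Fin 2 => Finset.range (M + 1),
      xE D k o w g s κp er j m v ≤ ENNReal.ofReal (εx * M ^ 2) * A.card := by
    intro j
    refine le_trans ?_ (key hx0 (hx j))
    refine (sum_xE κp er j A _).trans ?_
    calc _ ≤ (A.card * (4 * (M:ℝ≥0∞) ^ 2)) * (κp * s j.castSucc) +
        (L * (A.card * (M:ℝ≥0∞) ^ 2)) * ((1 + κp) * Ed D j.castSucc 1 (Xs w g s j.castSucc) +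
        Ye D j.castSucc 1 er) := by
          gcongr
          exact card_sq_succ hM
      _ = _ := by ring
  have hsum : ∀ i, ∑ m ∈ A, F i m ≤ ε' i * A.card := by
    intro i
    fin_cases i
    · exact hxj 0
    · exact hxj 1
    · refine le_trans ((sum_qE (k := k) (o := o) hp c er A _).trans ?_) (key hq0 hq)
      calc _ ≤ (L * (A.card * (M:ℝ≥0∞) ^ 2)) * (KC 3 p * (2 ^ (p - 1) *
          (c ^ p * ∑ l : Fin 3, Ed D l p (Xs w g s l) + ∑ l : Fin 3, Ye D l p er))) := by gcongr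
        _ = _ := by ring
    · have h1 := sum_qH (D := D) (k := k) (o := o) (w := w) (g := g) hp c er Rx A
        (Fintype.piFinset fun _ : Fin 2 => Finset.range M)
      rw [← hrk] at h1
      refine le_trans (h1.trans ?_) (key hH0 hH)
      calc _ ≤ (L * (A.card * (M:ℝ≥0∞) ^ 2)) * (2 ^ (p - 1) *
          (c ^ p * S D p (Rx.indicator (GGw w g)) + KC 3 p * ∑ l : Fin 3, Ye D l p er)) := by gcongr
        _ = _ := by ring
    · have h1 := slice_card (a := D.a) hL hr o hN Rx (β := εR) hR0 hR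
        (fun m v => cub (No0_477.vx D.a r o m v) r ⊆ Rx) (fun m _ v _ h => h)
      show ∑ m ∈ A, ENNReal.ofReal
        ((sqs M).filter fun v => cub (No0_477.vx D.a r o m v) r ⊆ Rx).card ≤
        ENNReal.ofReal (εR * M ^ 2) * A.card
      rw [← ENNReal.ofReal_sum_of_nonneg (fun _ _ => Nat.cast_nonneg _),
        ← ENNReal.ofReal_natCast, ← ENNReal.ofReal_mul (by positivity)]
      exact ENNReal.ofReal_le_ofReal h1
    · exact hG 0
    · exact hG 1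
  obtain ⟨Zs, h1, h2, h3, h4, h5, h6, h7, h8⟩ := exists_slices_block_e (a := D.a) hL hr hrL hA B x ρ
    hρ hB F ε' (by
      intro i
      fin_cases i <;> exact ENNReal.ofReal_ne_top) hsum
  have e1 : (4 * ((7:ℕ):ℝ≥0∞)) = ENNReal.ofReal 28 := by
    rw [show (28:ℝ) = ((28:ℕ):ℝ) by norm_num, ENNReal.ofReal_natCast]
    norm_num
  have hmul : ∀ t : ℝ, 0 ≤ t → 4 * ((7:ℕ):ℝ≥0∞) * ENNReal.ofReal (t * M ^ 2) * Zs.card =
      ENNReal.ofReal (28 * t * ((Zs.card : ℝ) * M ^ 2)) := by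
    intro t ht
    rw [e1, ← ENNReal.ofReal_mul (by norm_num), ← ENNReal.ofReal_natCast (n := Zs.card),
      ← ENNReal.ofReal_mul (by positivity)]
    congr 1
    ring
  have hmulG : 4 * ((7:ℕ):ℝ≥0∞) * ENNReal.ofReal εG * Zs.card =
      ENNReal.ofReal (28 * εG * Zs.card) := by
    rw [e1, ← ENNReal.ofReal_mul (by norm_num), ← ENNReal.ofReal_natCast (n := Zs.card),
      ← ENNReal.ofReal_mul (by positivity)]
  refine ⟨Zs, h1, h2, h3, h4, h5, h6, ?_, ?_, ?_, ?_, ?_⟩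
  · intro j
    rw [← hmulG]
    rcases fin2_cases (j := j) with rfl | rfl
    · exact h8 5
    · exact h8 6
  · intro j
    rw [← hmul _ hx0]
    rcases fin2_cases (j := j) with rfl | rfl
    · exact h8 0
    · exact h8 1
  · rw [← hmul _ hq0]
    exact h8 2
  · rw [← hmul _ hH0]
    exact h8 3
  · have h9 := h8 4
    have h10 : ENNReal.ofReal
        (((Fc M Zs).filter fun k => cub (No0_477.vx D.a r o k.1 k.2) r ⊆ Rx).card : ℝ) ≤
        ENNReal.ofReal (28 * εR * ((Zs.card : ℝ) * M ^ 2)) := by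
      rw [← hmul _ hR0]
      refine le_trans (le_of_eq ?_) h9
      show _ = ∑ m ∈ Zs, ENNReal.ofReal
        ((sqs M).filter fun v => cub (No0_477.vx D.a r o m v) r ⊆ Rx).card
      rw [← ENNReal.ofReal_sum_of_nonneg (fun _ _ => Nat.cast_nonneg _)]
      congr 1
      rw [← Nat.cast_sum]
      congr 1
      rw [Finset.card_filter, Nsl_552.sum_Fc]
      refine Finset.sum_congr rfl fun m _ => ?_
      rw [Finset.card_filter]
    exact (ENNReal.ofReal_le_ofReal_iff (by positivity)).1 h10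

/-- the constant of the choice of the slices -/
def Kz (p : ℝ) : ℝ := 28 * (4 + 3 * (KC 3 p).toReal * 2 ^ (2 * p) + 2 ^ (2 * p))

theorem Kz_ge (p : ℝ) : 112 ≤ Kz p := by
  unfold Kz
  have h1 : 0 ≤ 3 * (KC 3 p).toReal * 2 ^ (2 * p) := by positivity
  have h2 : (0:ℝ) ≤ 2 ^ (2 * p) := by positivity
  linarith

theorem Kz_ge2 (p : ℝ) : 28 * (3 * (KC 3 p).toReal * 2 ^ (2 * p)) ≤ Kz p := by
  unfold Kz
  have h2 : (0:ℝ) ≤ 2 ^ (2 * p) := by positivity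
  linarith

theorem Kz_ge3 (p : ℝ) : 28 * 2 ^ (2 * p) ≤ Kz p := by
  unfold Kz
  have h1 : 0 ≤ 3 * (KC 3 p).toReal * 2 ^ (2 * p) := by positivity
  linarith

theorem Ye_zero {D : Dat 3} (l : Fin 3) {p : ℝ} (hp : 1 ≤ p) : Ye D l p (0 : Cel D → ℝ≥0∞) = 0 := by
  unfold Ye
  simp [ENNReal.zero_rpow_of_pos (lt_of_lt_of_le one_pos hp)]

open Classical in
/-- **[ZSEL]: THE CHOICE OF THE SLICES** (552 #11087, `er = 0`) -/
theorem exists_Zs0 {p : ℝ} (hp : 1 ≤ p) {L : ℕ} (hL : 1 ≤ L) {D : Dat 3} {k : ℕ} {r : ℝ}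
    (hrk : r = ((2:ℝ) ^ k)⁻¹) (hrL : 4 * L * r ≤ 1) {o : Fin 2 → ℤ} {M : ℕ} (hM : 0 < M)
    {A : Finset ℤ} (hA : ∀ m, m ∈ A ↔ |(L : ℝ) * (D.a 2 + r * m)| ≤ 1 / 2)
    (hN : 2 / L ≤ ((A.card : ℝ) * M ^ 2) * r ^ 3)
    {𝒞 : Type*} {w : 𝒞 → ℝ≥0∞} {g : 𝒞 → Fin 3 → (Fin 3 → ℝ) → ℝ} {s : Fin 3 → ℝ≥0∞} {sm : ℝ}
    (hsm : 0 ≤ sm) (hs : ∀ l, s l ≤ ENNReal.ofReal sm) {κ' : ℝ} (hκ0 : 0 ≤ κ') (hκ1 : κ' ≤ 1)
    {e1 e2 e3 : ℝ} (h10 : 0 ≤ e1) (h20 : 0 ≤ e2) (h30 : 0 ≤ e3)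
    (hE1 : ∀ j : Fin 2, Ed D j.castSucc 1 (Xs w g s j.castSucc) ≤ ENNReal.ofReal (e1 / L))
    (hEp : ∀ l, Ed D l p (Xs w g s l) ≤ ENNReal.ofReal (e1 / L)) {Rx : Set E3}
    (hS : S D p (Rx.indicator (GGw w g)) ≤ ENNReal.ofReal (e2 / L))
    (hR : volume Rx ≤ ENNReal.ofReal (e3 / L))
    {I : Type*} (B : Finset I) (x : I → E3) (ρ : I → ℝ) (hρ : ∀ c ∈ B, 0 ≤ ρ c)
    (hB : ∑ c ∈ B, (ρ c + r) ≤ 1 / (32 * L))
    (G : Fin 2 → ℤ → ℝ≥0∞) {e4 : ℝ} (h40 : 0 ≤ e4)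
    (hG : ∀ j, ∑ m ∈ A, G j m ≤ ENNReal.ofReal (e4 * M) * A.card) :
    ∃ Zs : Finset ℤ, Zs ⊆ A ∧ Zs.Nonempty ∧ (A.card : ℝ) ≤ 2 * Zs.card ∧
      (∀ m ∈ Zs, |(L : ℝ) * (D.a 2 + r * m)| ≤ 1 / 2) ∧
      (∀ m ∈ Zs, ∀ c ∈ B, ρ c + r < |D.a 2 + r * m - x c 2|) ∧
      (∀ m ∈ Zs, ∀ c ∈ B, ∀ (o : Fin 2 → ℤ) (v : Fin 2 → ℕ),
        Disjoint (cub (No0_477.vx D.a r o m v) r) (closedBall (x c) (ρ c))) ∧
      (∀ j, ∑ m ∈ Zs, G j m ≤ ENNReal.ofReal (Kz p * e4 * ((Zs.card : ℝ) * M))) ∧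
      (∀ j, ∑ m ∈ Zs, ∑ v ∈ Fintype.piFinset fun _ : Fin 2 => Finset.range (M + 1),
        xE D k o w g s (ENNReal.ofReal κ') 0 j m v ≤
          ENNReal.ofReal (Kz p * (κ' * sm + e1) * ((Zs.card : ℝ) * M ^ 2))) ∧
      (∑ m ∈ Zs, ∑ v ∈ Fintype.piFinset fun _ : Fin 2 => Finset.range M,
        qE D k o w g s (1 + ENNReal.ofReal κ') 0 m v ^ p ≤
          ENNReal.ofReal (Kz p * e1 * ((Zs.card : ℝ) * M ^ 2))) ∧
      (∑ m ∈ Zs, ∑ v ∈ Fintype.piFinset fun _ : Fin 2 => Finset.range M,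
        (if cub (No0_477.vx D.a r o m v) r ⊆ Rx then
          qH D k o w g (1 + ENNReal.ofReal κ') 0 m v ^ p else 0) ≤
          ENNReal.ofReal (Kz p * e2 * ((Zs.card : ℝ) * M ^ 2))) ∧
      (((Fc M Zs).filter fun k => cub (No0_477.vx D.a r o k.1 k.2) r ⊆ Rx).card : ℝ) ≤
        Kz p * e3 * ((Zs.card : ℝ) * M ^ 2) := by
  have hL0 : (0:ℝ) < L := by exact_mod_cast hL
  have hLE : (L:ℝ≥0∞) = ENNReal.ofReal L := (ENNReal.ofReal_natCast L).symm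
  have h1κ : 1 + ENNReal.ofReal κ' ≤ 2 := by
    have h := ENNReal.ofReal_le_ofReal hκ1
    rw [ENNReal.ofReal_one] at h
    calc 1 + ENNReal.ofReal κ' ≤ 1 + 1 := by gcongr
      _ = 2 := by norm_num
  have hLe : ∀ {e : ℝ}, 0 ≤ e → (L:ℝ≥0∞) * ENNReal.ofReal (e / L) = ENNReal.ofReal e := by
    intro e he
    rw [hLE, ← ENNReal.ofReal_mul hL0.le, mul_div_cancel₀ _ hL0.ne']
  have hKC : (KC 3 p) = ENNReal.ofReal (KC 3 p).toReal :=
    (ENNReal.ofReal_toReal (KC_ne_top hp)).symm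
  have h2p : (2:ℝ≥0∞) ^ (p - 1) * (1 + ENNReal.ofReal κ') ^ p ≤ ENNReal.ofReal (2 ^ (2 * p)) := by
    have h1 : (1 + ENNReal.ofReal κ') ^ p ≤ (2:ℝ≥0∞) ^ p :=
      ENNReal.rpow_le_rpow h1κ (by linarith)
    have h2 : (2:ℝ≥0∞) ^ (p - 1) ≤ 2 ^ p :=
      ENNReal.rpow_le_rpow_of_exponent_le (by norm_num) (by linarith)
    have h3 : ENNReal.ofReal (2 ^ (2 * p)) = (2:ℝ≥0∞) ^ p * 2 ^ p := by
      rw [← ENNReal.ofReal_rpow_of_pos (by norm_num), two_mul,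
        ENNReal.rpow_add _ _ (by simp) (by simp)]
      norm_num
    rw [h3]
    gcongr
  have hS3 : ∑ l : Fin 3, Ed D l p (Xs w g s l) ≤ 3 * ENNReal.ofReal (e1 / L) := by
    calc ∑ l : Fin 3, Ed D l p (Xs w g s l) ≤ ∑ _l : Fin 3, ENNReal.ofReal (e1 / L) :=
          Finset.sum_le_sum fun l _ => hEp l
      _ = _ := by simp
  have hsmκ : 0 ≤ κ' * sm := by positivity
  have n4 : ∀ z : ℕ, 28 * (e4 * M) * (z : ℝ) ≤ Kz p * e4 * ((z : ℝ) * M) := by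
    intro z
    have h1 := Kz_ge p
    have h2 : 0 ≤ e4 * ((z : ℝ) * M) := by positivity
    calc 28 * (e4 * M) * (z : ℝ) = 28 * (e4 * ((z : ℝ) * M)) := by ring
      _ ≤ Kz p * (e4 * ((z : ℝ) * M)) := mul_le_mul_of_nonneg_right (by linarith) h2
      _ = _ := by ring
  have n1 : ∀ z : ℕ, 28 * (4 * (κ' * sm) + 2 * e1) * ((z : ℝ) * M ^ 2) ≤
      Kz p * (κ' * sm + e1) * ((z : ℝ) * M ^ 2) := by
    intro z
    have h1 := Kz_ge p
    have h2 : 0 ≤ (z : ℝ) * (M:ℝ) ^ 2 := by positivity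
    refine mul_le_mul_of_nonneg_right ?_ h2
    have h3 : 112 * (κ' * sm + e1) ≤ Kz p * (κ' * sm + e1) :=
      mul_le_mul_of_nonneg_right h1 (by linarith)
    linarith
  have n2 : ∀ z : ℕ, 28 * (3 * (KC 3 p).toReal * 2 ^ (2 * p) * e1) * ((z : ℝ) * M ^ 2) ≤
      Kz p * e1 * ((z : ℝ) * M ^ 2) := by
    intro z
    have h1 := Kz_ge2 p
    have h2 : 0 ≤ (z : ℝ) * (M:ℝ) ^ 2 := by positivity
    refine mul_le_mul_of_nonneg_right ?_ h2
    calc 28 * (3 * (KC 3 p).toReal * 2 ^ (2 * p) * e1) =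
        28 * (3 * (KC 3 p).toReal * 2 ^ (2 * p)) * e1 := by ring
      _ ≤ _ := mul_le_mul_of_nonneg_right h1 h10
  have n3 : ∀ z : ℕ, 28 * (2 ^ (2 * p) * e2) * ((z : ℝ) * M ^ 2) ≤
      Kz p * e2 * ((z : ℝ) * M ^ 2) := by
    intro z
    have h1 := Kz_ge3 p
    have h2 : 0 ≤ (z : ℝ) * (M:ℝ) ^ 2 := by positivity
    refine mul_le_mul_of_nonneg_right ?_ h2
    calc 28 * (2 ^ (2 * p) * e2) = 28 * 2 ^ (2 * p) * e2 := by ring
      _ ≤ _ := mul_le_mul_of_nonneg_right h1 h20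
  have n5 : ∀ z : ℕ, 28 * e3 * ((z : ℝ) * M ^ 2) ≤ Kz p * e3 * ((z : ℝ) * M ^ 2) := by
    intro z
    have h1 := Kz_ge p
    have h2 : 0 ≤ (z : ℝ) * (M:ℝ) ^ 2 := by positivity
    refine mul_le_mul_of_nonneg_right (mul_le_mul_of_nonneg_right (by linarith) h30) h2
  obtain ⟨Zs, g1, g2, g3, g4, g5, g6, g7, g8, g9, g10, g11⟩ := exists_Zs7 hp (D := D) (k := k)
    (o := o) hL hrk hrL hM hA hN B x ρ hρ hB (w := w) (g := g) (s := s)
    (κp := ENNReal.ofReal κ') (c := 1 + ENNReal.ofReal κ') (er := 0) (Rx := Rx)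
    (εx := 4 * (κ' * sm) + 2 * e1) (εq := 3 * (KC 3 p).toReal * 2 ^ (2 * p) * e1)
    (εH := 2 ^ (2 * p) * e2) (εR := e3) (εG := e4 * M) (by positivity)
    (by positivity) (by positivity) h30 (by positivity)
    (fun j => by
      rw [Ye_zero _ le_rfl, add_zero, ENNReal.ofReal_add (by positivity) (by positivity),
        ENNReal.ofReal_mul (by norm_num), ENNReal.ofReal_mul hκ0, ENNReal.ofReal_mul (by norm_num),
        ← hLe h10]
      have e4 : ENNReal.ofReal 4 = 4 := by norm_num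
      have e2 : ENNReal.ofReal 2 = 2 := by norm_num
      rw [e4, e2]
      refine add_le_add ?_ ?_
      · gcongr
        exact hs _
      · calc (L:ℝ≥0∞) * ((1 + ENNReal.ofReal κ') * Ed D j.castSucc 1 (Xs w g s j.castSucc)) ≤
            L * (2 * ENNReal.ofReal (e1 / L)) := by gcongr; exact hE1 j
          _ = _ := by ring)
    (by
      simp only [Ye_zero _ hp, Finset.sum_const_zero, add_zero]
      calc (L:ℝ≥0∞) * (KC 3 p * (2 ^ (p - 1) * ((1 + ENNReal.ofReal κ') ^ p *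
          ∑ l : Fin 3, Ed D l p (Xs w g s l)))) ≤
          L * (KC 3 p * (2 ^ (p - 1) * ((1 + ENNReal.ofReal κ') ^ p *
            (3 * ENNReal.ofReal (e1 / L))))) := by gcongr
        _ = (3 * KC 3 p) * ((2:ℝ≥0∞) ^ (p - 1) * (1 + ENNReal.ofReal κ') ^ p) *
            (L * ENNReal.ofReal (e1 / L)) := by ring
        _ ≤ (3 * KC 3 p) * ENNReal.ofReal (2 ^ (2 * p)) * ENNReal.ofReal e1 := by
            rw [hLe h10]
            gcongr
        _ = _ := by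
            rw [ENNReal.ofReal_mul (by positivity), ENNReal.ofReal_mul (by positivity),
              ENNReal.ofReal_mul (by norm_num), ← hKC]
            norm_num)
    (by
      simp only [Ye_zero _ hp, Finset.sum_const_zero, mul_zero, add_zero]
      calc (L:ℝ≥0∞) * (2 ^ (p - 1) * ((1 + ENNReal.ofReal κ') ^ p *
          S D p (Rx.indicator (GGw w g)))) ≤
          L * (2 ^ (p - 1) * ((1 + ENNReal.ofReal κ') ^ p * ENNReal.ofReal (e2 / L))) := by gcongr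
        _ = ((2:ℝ≥0∞) ^ (p - 1) * (1 + ENNReal.ofReal κ') ^ p) *
            (L * ENNReal.ofReal (e2 / L)) := by ring
        _ ≤ ENNReal.ofReal (2 ^ (2 * p)) * ENNReal.ofReal e2 := by
            rw [hLe h20]
            gcongr
        _ = _ := by rw [ENNReal.ofReal_mul (by positivity)]) hR G hG
  exact ⟨Zs, g1, g2, g3, g4, g5, g6, fun j => (g7 j).trans (ENNReal.ofReal_le_ofReal (n4 Zs.card)),
    fun j => (g8 j).trans (ENNReal.ofReal_le_ofReal (n1 Zs.card)),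
    g9.trans (ENNReal.ofReal_le_ofReal (n2 Zs.card)),
    g10.trans (ENNReal.ofReal_le_ofReal (n3 Zs.card)), g11.trans (n5 Zs.card)⟩

end

end Crest.Agent.R096.Ps_273
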