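/-
helper273, row 96, NO0-PRE3 [X3] (962 #11402): the numbers of the outer mesh for one shift in a large
set of shifts.
-/
import Mathlib
import Crest.Agent.R096.Ps11_273

set_option autoImplicit false

open MeasureTheory Set Filter
open scoped Topology ENNReal

namespace Crest.Agent.R096.Ps_273

open Crest.Agent.R096.Msh_810 Crest.Agent.R096.Bas_731 Crest.Agent.R96.En3_199
  Crest.Agent.R96.En4_199 Crest.Agent.R96.En5_199 Crest.Agent.R96.En2_199 Crest.Agent.R96.En6_199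
  Crest.Agent.R96.En7_199 Crest.Agent.R96.En8_199 Crest.Agent.R96.En9_199
  Crest.Agent.R96.En11_199

noncomputable section

/-- **[X3]: the bad shifts of the numbers**, integrals over the whole domain of the mesh -/
theorem bad_num (D : Dat 3) {𝒞 : Type*} [Countable 𝒞] {g : 𝒞 → Fin 3 → (Fin 3 → ℝ) → ℝ}
    (hg : ∀ c i, Measurable (g c i)) (w : 𝒞 → ℝ≥0∞) (s : Fin 3 → ℝ≥0∞) {p : ℝ} (hp : 1 ≤ p)
    {R' : Set (Fin 3 → ℝ)} (hR : MeasurableSet R') (hRO : R' ⊆ D.Om)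
    {η : Type*} [Countable η] {H : η → (Fin 3 → ℝ) → ℝ≥0∞} (hH : ∀ k, Measurable (H k))
    {θ : η → ℝ≥0∞} (hθ : ∀ k, ∫⁻ a in box 3, H k a ≤ θ k) {m : η → ℝ≥0∞} (hm : ∀ k, m k ≠ 0)
    {Q : (Fin 3 → ℝ) → Prop} (hQ : ∀ᵐ a, Q a) :
    volume {a ∈ box 3 | ¬ (Q a ∧
      (∀ l, Ed (D.sh a) l p (Xs w g s l) ≤ 96 * ∫⁻ x in D.Om, Xs w g s l x ^ p) ∧
      (∀ l, Ed (D.sh a) l 1 (Xs w g s l) ≤ 96 * ∫⁻ x in D.Om, Xs w g s l x) ∧
      S (D.sh a) p (R'.indicator (GGw w g)) ≤ 24 * (KE 3 p * ∫⁻ x in R', GGw w g x ^ p) ∧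
      ∀ k, H k a ≤ m k * θ k)} ≤ 1 / 4 + ∑' k, (m k)⁻¹ := by
  have hp0 : 0 < p := by linarith
  have b1 := volume_bad_S (D := D) (ι := Unit) (g := fun _ => R'.indicator (GGw w g))
    (fun _ => (measurable_GGw hg w).indicator hR) (p := fun _ => p) (fun _ => hp)
    (c := fun _ => (24:ℝ≥0∞)) (fun _ => by norm_num)
  have b2 := volume_bad_E (D := D) (X := fun j : Fin 3 × Bool => Xs w g s j.1)
    (fun j => measurable_Xs hg w s j.1) (fun j => j.1) (p := fun j => if j.2 then p else 1)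
    (fun j => by
      show 1 ≤ if j.2 then p else 1
      split_ifs <;> linarith) (c := fun _ => (48:ℝ≥0∞)) (fun _ => by norm_num)
  have hs1 : ((3:ℕ):ℝ≥0∞) * ∑' _i : Unit, (24:ℝ≥0∞)⁻¹ = 1 / 8 := by
    rw [tsum_fintype, Finset.sum_const, Finset.card_univ, Fintype.card_unit, one_smul,
      show (24:ℝ≥0∞) = 3 * 8 by norm_num, ENNReal.mul_inv (Or.inl (by norm_num))
        (Or.inl (by norm_num)), ← mul_assoc]
    push_cast
    rw [ENNReal.mul_inv_cancel (by norm_num) (by norm_num), one_mul, one_div]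
  have hs2 : (∑' _j : Fin 3 × Bool, (48:ℝ≥0∞)⁻¹) = 1 / 8 := by
    rw [tsum_fintype, Finset.sum_const, Finset.card_univ, Fintype.card_prod, Fintype.card_fin,
      Fintype.card_bool, nsmul_eq_mul, show (48:ℝ≥0∞) = 6 * 8 by norm_num,
      ENNReal.mul_inv (Or.inl (by norm_num)) (Or.inl (by norm_num)), ← mul_assoc]
    rw [show (((3 * 2 : ℕ)) : ℝ≥0∞) = 6 by norm_num,
      ENNReal.mul_inv_cancel (by norm_num) (by norm_num), one_mul, one_div]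
  have b3 : volume (⋃ k, {a ∈ box 3 | m k * θ k < H k a}) ≤ ∑' k, (m k)⁻¹ :=
    (measure_iUnion_le _).trans (ENNReal.tsum_le_tsum fun k => markov (hH k) (hθ k) (hm k))
  set B1 : Set (Fin 3 → ℝ) := {a ∈ box 3 | ∃ i : Unit, (24:ℝ≥0∞) * (KE 3 p * ∫⁻ x in D.Om,
    R'.indicator (GGw w g) x ^ p) < S (D.sh a) p (R'.indicator (GGw w g))} with hB1
  set B2 : Set (Fin 3 → ℝ) := {a ∈ box 3 | ∃ j : Fin 3 × Bool, (48:ℝ≥0∞) *
    (2 * ∫⁻ x in D.Om, Xs w g s j.1 x ^ (if j.2 then p else 1)) <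
    Ed (D.sh a) j.1 (if j.2 then p else 1) (Xs w g s j.1)} with hB2
  have hint : ∫⁻ x in D.Om, R'.indicator (GGw w g) x ^ p = ∫⁻ x in R', GGw w g x ^ p := by
    have h4 : ∀ x, R'.indicator (GGw w g) x ^ p = R'.indicator (fun x => GGw w g x ^ p) x := by
      intro x
      by_cases hx : x ∈ R'
      · rw [indicator_of_mem hx, indicator_of_mem hx]
      · rw [indicator_of_notMem hx, indicator_of_notMem hx, ENNReal.zero_rpow_of_pos hp0]
    simp only [h4]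
    rw [setLIntegral_indicator hR, inter_eq_self_of_subset_left hRO]
  have hsub' : {a ∈ box 3 | ¬ (Q a ∧
      (∀ l, Ed (D.sh a) l p (Xs w g s l) ≤ 96 * ∫⁻ x in D.Om, Xs w g s l x ^ p) ∧
      (∀ l, Ed (D.sh a) l 1 (Xs w g s l) ≤ 96 * ∫⁻ x in D.Om, Xs w g s l x) ∧
      S (D.sh a) p (R'.indicator (GGw w g)) ≤ 24 * (KE 3 p * ∫⁻ x in R', GGw w g x ^ p) ∧
      ∀ k, H k a ≤ m k * θ k)} ⊆ ((B1 ∪ B2) ∪ ⋃ k, {a ∈ box 3 | m k * θ k < H k a}) ∪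
      {a | ¬ Q a} := by
    rintro a ⟨ha, hnot⟩
    by_cases hPa : Q a
    swap
    · right; exact hPa
    left
    by_contra hno
    simp only [mem_union, not_or, mem_iUnion, not_exists] at hno
    obtain ⟨⟨n1, n2⟩, n3⟩ := hno
    have h1 : S (D.sh a) p (R'.indicator (GGw w g)) ≤
        24 * (KE 3 p * ∫⁻ x in R', GGw w g x ^ p) := by
      have h2 : ¬ ((24:ℝ≥0∞) * (KE 3 p * ∫⁻ x in D.Om, R'.indicator (GGw w g) x ^ p) <
          S (D.sh a) p (R'.indicator (GGw w g))) := fun h => n1 ⟨ha, (), h⟩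
      rw [not_lt, hint] at h2
      exact h2
    have h2 : ∀ j : Fin 3 × Bool, Ed (D.sh a) j.1 (if j.2 then p else 1) (Xs w g s j.1) ≤
        96 * ∫⁻ x in D.Om, Xs w g s j.1 x ^ (if j.2 then p else 1) := by
      intro j
      have h3 : ¬ ((48:ℝ≥0∞) * (2 * ∫⁻ x in D.Om, Xs w g s j.1 x ^ (if j.2 then p else 1)) <
          Ed (D.sh a) j.1 (if j.2 then p else 1) (Xs w g s j.1)) := fun h => n2 ⟨ha, j, h⟩
      rw [not_lt, ← mul_assoc, show (48:ℝ≥0∞) * 2 = 96 by norm_num] at h3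
      exact h3
    have h3 : ∀ k, H k a ≤ m k * θ k := fun k => by
      by_contra hk
      rw [not_le] at hk
      exact n3 k ⟨ha, hk⟩
    refine hnot ⟨hPa, fun i => h2 (i, true), fun i => ?_, h1, h3⟩
    have h4 := h2 (i, false)
    simp only [Bool.false_eq_true, if_false, ENNReal.rpow_one] at h4
    exact h4
  refine (measure_mono hsub').trans ((measure_union_le _ _).trans ?_)
  rw [ae_iff.1 hQ, add_zero]
  refine (measure_union_le _ _).trans (add_le_add ((measure_union_le _ _).trans ?_) b3)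
  have h14 : (1:ℝ≥0∞) / 4 = 1 / 8 + 1 / 8 := by
    rw [← ENNReal.add_div, show (1:ℝ≥0∞) + 1 = 2 by norm_num,
      ENNReal.div_eq_div_iff (by norm_num) (by norm_num) (by norm_num) (by norm_num)]
    norm_num
  rw [h14]
  refine add_le_add ?_ ?_
  · rw [← hs1]; exact b1
  · rw [← hs2]; exact b2

/-- **[X3]: ONE SHIFT in a large set `A'` of shifts, with all the numbers** -/
theorem exists_num (D : Dat 3) {𝒞 : Type*} [Countable 𝒞] {g : 𝒞 → Fin 3 → (Fin 3 → ℝ) → ℝ}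
    (hg : ∀ c i, Measurable (g c i)) (w : 𝒞 → ℝ≥0∞) (s : Fin 3 → ℝ≥0∞) {p : ℝ} (hp : 1 ≤ p)
    {R' : Set (Fin 3 → ℝ)} (hR : MeasurableSet R') (hRO : R' ⊆ D.Om)
    {η : Type*} [Countable η] {H : η → (Fin 3 → ℝ) → ℝ≥0∞} (hH : ∀ k, Measurable (H k))
    {θ : η → ℝ≥0∞} (hθ : ∀ k, ∫⁻ a in box 3, H k a ≤ θ k) {m : η → ℝ≥0∞} (hm : ∀ k, m k ≠ 0)
    (hms : ∑' k, (m k)⁻¹ ≤ 1 / 4) {A' : Set (Fin 3 → ℝ)} (hA : volume (box 3 \ A') ≤ 1 / 4)
    {Q : (Fin 3 → ℝ) → Prop} (hQ : ∀ᵐ a, Q a) :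
    ∃ a ∈ A', a ∈ box 3 ∧ Q a ∧
      (∀ l, Ed (D.sh a) l p (Xs w g s l) ≤ 96 * ∫⁻ x in D.Om, Xs w g s l x ^ p) ∧
      (∀ l, Ed (D.sh a) l 1 (Xs w g s l) ≤ 96 * ∫⁻ x in D.Om, Xs w g s l x) ∧
      S (D.sh a) p (R'.indicator (GGw w g)) ≤ 24 * (KE 3 p * ∫⁻ x in R', GGw w g x ^ p) ∧
      ∀ k, H k a ≤ m k * θ k := by
  have hb := bad_num D hg w s hp hR hRO hH hθ hm hQ
  by_contra hcon
  push Not at hcon
  have hsub : box 3 ⊆ (box 3 \ A') ∪ {a ∈ box 3 | ¬ (Q a ∧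
      (∀ l, Ed (D.sh a) l p (Xs w g s l) ≤ 96 * ∫⁻ x in D.Om, Xs w g s l x ^ p) ∧
      (∀ l, Ed (D.sh a) l 1 (Xs w g s l) ≤ 96 * ∫⁻ x in D.Om, Xs w g s l x) ∧
      S (D.sh a) p (R'.indicator (GGw w g)) ≤ 24 * (KE 3 p * ∫⁻ x in R', GGw w g x ^ p) ∧
      ∀ k, H k a ≤ m k * θ k)} := by
    intro a ha
    by_cases haA : a ∈ A'
    · right
      refine ⟨ha, ?_⟩
      rintro ⟨h1, h2, h3, h4, h5⟩
      obtain ⟨k, hk⟩ := hcon a haA ha h1 h2 h3 h4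
      exact absurd (h5 k) (not_le.2 hk)
    · left; exact ⟨ha, haA⟩
  have h1 := (measure_mono (μ := (volume : Measure (Fin 3 → ℝ))) hsub).trans (measure_union_le _ _)
  rw [volume_box] at h1
  have h2 : (1:ℝ≥0∞) ≤ 1 / 4 + (1 / 4 + 1 / 4) :=
    h1.trans (add_le_add hA (hb.trans (add_le_add le_rfl hms)))
  have h3 : (1:ℝ≥0∞) / 4 + (1 / 4 + 1 / 4) = 3 / 4 := by
    rw [← ENNReal.add_div, ← ENNReal.add_div]
    norm_num
  rw [h3, ENNReal.le_div_iff_mul_le (Or.inl (by norm_num)) (Or.inl (by norm_num)), one_mul] at h2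
  norm_num at h2

end

end Crest.Agent.R096.Ps_273
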