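import Mathlib
import Crest.Agent.R096.Pse2_316
import Crest.Agent.R96.En10_199

/-! # Row 96, seam SPHERE → tiny cores (helper316), part 3: transport by a linear isomorphism (in
particular `P3 : E3 ≃L R3`) of gauges, projections, bodies, PL maps and balls. -/

set_option autoImplicit false
set_option linter.unusedSectionVars false
set_option linter.deprecated false

open Set Filter Topology Metric NNReal

namespace Crest.Agent.R096.Pse_316

open Crest.Agent.R096.Sphg_316 Crest.Agent.R96.Push_899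
open Crest.Agent.R096.Bsp_628 Crest.Agent.R096.Brk3_582
open Crest.Agent.R096.SkC1_961 (E3 FoamD IsPush)
open Crest.Agent.R096.Ce_537
open Crest.Agent.R96.En10_199 (P3)

section lin

variable {V W : Type*} [NormedAddCommGroup V] [NormedSpace ℝ V] [NormedAddCommGroup W]
  [NormedSpace ℝ W] (L : V ≃L[ℝ] W)

theorem Ng_map (z : V) (C : Set V) (y : V) : Ng (L z) (L '' C) (L y) = Ng z C y := by
  unfold Ng
  rw [gauge_def', gauge_def']
  congr 1
  ext r
  have h1 : r⁻¹ • (L y - L z) + L z = L (r⁻¹ • (y - z) + z) := by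
    rw [map_add, map_smul, map_sub]
  show (r ∈ Ioi (0 : ℝ) ∧ r⁻¹ • (L y - L z) + L z ∈ L '' C) ↔
    (r ∈ Ioi (0 : ℝ) ∧ r⁻¹ • (y - z) + z ∈ C)
  rw [h1, L.injective.mem_set_image]

theorem pj_map (z : V) (C : Set V) (y : V) : pj (L z) (L '' C) (L y) = L (pj z C y) := by
  unfold pj
  rw [Ng_map, map_add, map_smul, map_sub]

theorem frontier_map (C : Set V) : frontier (L '' C) = L '' frontier C :=
  (L.toHomeomorph.image_frontier C).symm

theorem interior_map (C : Set V) : interior (L '' C) = L '' interior C :=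
  (L.toHomeomorph.image_interior C).symm

theorem bod_map {z : V} {C : Set V} (h : Bod z C) : Bod (L z) (L '' C) where
  cpt := h.cpt.image L.continuous
  cvx := h.cvx.linear_image (L : V →ₗ[ℝ] W)
  int := by rw [interior_map]; exact mem_image_of_mem _ h.int

/-- the frontier of a preimage -/
theorem frontier_pre (C : Set W) : frontier (L ⁻¹' C) = L ⁻¹' frontier C :=
  (L.toHomeomorph.preimage_frontier C).symm

theorem interior_pre (C : Set W) : interior (L ⁻¹' C) = L ⁻¹' interior C :=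
  (L.toHomeomorph.preimage_interior C).symm

variable [FiniteDimensional ℝ V] [FiniteDimensional ℝ W]

theorem plOn_lin (A : Set V) : PLOn (fun x => L x) A := by
  have h := plOn_affine ((L : V →ₗ[ℝ] W).toAffineMap) A
  exact h

/-- a linear isomorphism as a PL equivalence of a preimage -/
def plPre (B : Set W) : PLEquiv (L ⁻¹' B) B where
  f := fun x => L x
  g := fun y => L.symm y
  pf := plOn_lin L _
  pg := plOn_lin L.symm _
  mf := fun _ hx => hx
  mg := fun y hy => by show L (L.symm y) ∈ B; rw [L.apply_symm_apply]; exact hy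
  li := fun x _ => L.symm_apply_apply x
  ri := fun y _ => L.apply_symm_apply y

theorem isBall_pre {k : ℕ} {K dK : Set W} (h : IsBall k K dK) :
    IsBall k (L ⁻¹' K) (L ⁻¹' dK) := by
  have h1 := h.map (plPre L K).symm
  have h2 : (plPre L K).symm.f '' dK = L ⁻¹' dK := by
    show (fun y => L.symm y) '' dK = L ⁻¹' dK
    ext x
    constructor
    · rintro ⟨y, hy, rfl⟩
      show L (L.symm y) ∈ dK
      rw [L.apply_symm_apply]; exact hy
    · intro hx
      exact ⟨L x, hx, L.symm_apply_apply x⟩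
  rwa [h2] at h1

theorem plOn_pre {F : Type*} [NormedAddCommGroup F] [NormedSpace ℝ F] {φ : W → F} {A : Set W}
    (h : PLOn φ A) : PLOn (fun x => φ (L x)) (L ⁻¹' A) :=
  h.comp (plOn_lin L _) fun _ hx => hx

theorem plOn_pre_univ {F : Type*} [NormedAddCommGroup F] [NormedSpace ℝ F] {φ : W → F}
    (h : PLOn φ univ) : PLOn (fun x => φ (L x)) univ :=
  h.comp (plOn_lin L _) fun _ _ => mem_univ _

end lin

/-! ### the homeomorphism `e₀` on the body in `R3` -/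

section R3

open Crest.AnalysisR.VecCalc3

variable {δ κ0 R c0 : ℝ} {La : Set R3} (Φ : FoamD δ κ0 R c0 (P3 ⁻¹' La))

/-- the small body in `R3` -/
def sbR (c : Φ.F) (r : ℝ) : Set R3 := P3 '' sb Φ c r

theorem bod_sbR (c : Φ.F) (hpt : (Φ.B c).lo = (Φ.B c).hi) {r : ℝ} (hr : 0 < r) :
    Bod (P3 (Φ.B c).lo) (sbR Φ c r) := bod_map P3 (bod_sb Φ c hpt hr)

theorem sbR_sub_La (c : Φ.F) (hpt : (Φ.B c).lo = (Φ.B c).hi) {r : ℝ} (hr : r ≤ 1) :
    sbR Φ c r ⊆ La := by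
  rintro _ ⟨y, hy, rfl⟩
  exact sb_sub_La Φ c hpt hr hy

theorem Ng_sbR (c : Φ.F) (hpt : (Φ.B c).lo = (Φ.B c).hi) {r : ℝ} (hr : 0 < r) (y : E3) :
    Ng (P3 (Φ.B c).lo) (sbR Φ c r) (P3 y) = Mbf_337.gau c.1 (Φ.B c).lo y / r := by
  rw [sbR, Ng_map]; exact Ng_sb Φ c hpt hr y

/-- the same for a point of `R3` -/
theorem Ng_sbR' (c : Φ.F) (hpt : (Φ.B c).lo = (Φ.B c).hi) {r : ℝ} (hr : 0 < r) (y : R3) :
    Ng (P3 (Φ.B c).lo) (sbR Φ c r) y = Mbf_337.gau c.1 (Φ.B c).lo (P3.symm y) / r := by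
  have h1 := Ng_sbR Φ c hpt hr (P3.symm y)
  rwa [P3.apply_symm_apply] at h1

/-- **`Psi` near a point hole, `R3` version**: literally the hypotheses on `C, e₀, e₁` of
`sphere_of` with `C := sbR Φ c r`, `z := P3 (Φ.B c).lo`, and the meaning of `e₀ ∘ pj`. -/
theorem exists_e0R (hLa : IsOpen La) (c : Φ.F) (hpt : (Φ.B c).lo = (Φ.B c).hi) :
    ∃ r0 : ℝ, 0 < r0 ∧ r0 ≤ 1 ∧ ∀ r : ℝ, 0 < r → r ≤ r0 →
      ∃ (e₀ : R3 → E3) (e₁ : E3 → R3),
      ContinuousOn e₀ (frontier (sbR Φ c r)) ∧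
      MapsTo e₀ (frontier (sbR Φ c r)) (frontier c.1.set) ∧
      ContinuousOn e₁ (frontier c.1.set) ∧
      MapsTo e₁ (frontier c.1.set) (frontier (sbR Φ c r)) ∧
      (∀ y ∈ frontier c.1.set, e₀ (e₁ y) = y) ∧
      (∀ y ∈ frontier (sbR Φ c r), e₁ (e₀ y) = y) ∧
      ∀ y : R3, Mbf_337.gau c.1 (Φ.B c).lo (P3.symm y) ≤ r0 → y ≠ P3 (Φ.B c).lo →
        e₀ (pj (P3 (Φ.B c).lo) (sbR Φ c r) y) = Φ.Psi (P3.symm y) := by
  obtain ⟨r0, h0, h1, H⟩ := exists_e0 Φ (hLa.preimage P3.continuous) c hpt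
  refine ⟨r0, h0, h1, fun r hr hrr => ?_⟩
  obtain ⟨e₀, e₁, a1, a2, a3, a4, a5, a6, a7⟩ := H r hr hrr
  have hfr : frontier (sbR Φ c r) = P3 '' frontier (sb Φ c r) := frontier_map P3 _
  refine ⟨fun y => e₀ (P3.symm y), fun y => P3 (e₁ y), ?_, ?_, ?_, ?_, ?_, ?_, ?_⟩
  · rw [hfr]
    refine a1.comp P3.symm.continuous.continuousOn ?_
    rintro _ ⟨y, hy, rfl⟩
    rw [P3.symm_apply_apply]; exact hy
  · rw [hfr]
    rintro _ ⟨y, hy, rfl⟩
    show e₀ (P3.symm (P3 y)) ∈ _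
    rw [P3.symm_apply_apply]; exact a2 hy
  · exact P3.continuous.comp_continuousOn a3
  · rw [hfr]
    intro y hy
    exact ⟨e₁ y, a4 hy, rfl⟩
  · intro y hy
    show e₀ (P3.symm (P3 (e₁ y))) = y
    rw [P3.symm_apply_apply]; exact a5 y hy
  · rw [hfr]
    rintro _ ⟨y, hy, rfl⟩
    show P3 (e₁ (e₀ (P3.symm (P3 y)))) = P3 y
    rw [P3.symm_apply_apply, a6 y hy]
  · intro y hy hyp
    have h2 : pj (P3 (Φ.B c).lo) (sbR Φ c r) y = P3 (pj (Φ.B c).lo (sb Φ c r) (P3.symm y)) := by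
      have h3 := pj_map P3 (Φ.B c).lo (sb Φ c r) (P3.symm y)
      rwa [P3.apply_symm_apply] at h3
    show e₀ (P3.symm (pj (P3 (Φ.B c).lo) (sbR Φ c r) y)) = Φ.Psi (P3.symm y)
    rw [h2, P3.symm_apply_apply]
    refine (a7 (P3.symm y) ?_ ?_).symm
    · show Ng (Φ.B c).lo c.1.set (P3.symm y) ≤ r0
      rw [← gau_eq]; exact hy
    · intro he
      exact hyp (by rw [← he, P3.apply_symm_apply])

/-- `Psi` is constant on the straight rays of the small body (539's `RayTo`) -/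
theorem rayTo {La : Set E3} (Φ : FoamD δ κ0 R c0 La) (hLa : IsOpen La) (c : Φ.F)
    (hpt : (Φ.B c).lo = (Φ.B c).hi) :
    ∃ r0 : ℝ, 0 < r0 ∧ r0 < 1 ∧ ∀ r : ℝ, 0 < r → r ≤ r0 → ∀ y : E3, y ≠ (Φ.B c).lo →
      Mbf_337.gau c.1 (Φ.B c).lo y ≤ r → Φ.Psi y =
        Φ.Psi ((Φ.B c).lo + (r / Mbf_337.gau c.1 (Φ.B c).lo y) • (y - (Φ.B c).lo)) := by
  obtain ⟨r0, h0, h1, H⟩ := exists_e0 Φ hLa c hpt
  refine ⟨r0 / 2, by positivity, by linarith, fun r hr hrr y hy hyr => ?_⟩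
  have hb := bod_brick Φ c hpt
  obtain ⟨e₀, e₁, -, -, -, -, -, -, a7⟩ := H (r0 / 2) (by positivity) (by linarith)
  rw [gau_eq] at hyr ⊢
  have hg : 0 < Ng (Φ.B c).lo c.1.set y := hb.pos.2 hy
  have ht : 0 < r / Ng (Φ.B c).lo c.1.set y := div_pos hr hg
  have h2 : Ng (Φ.B c).lo c.1.set
      ((Φ.B c).lo + (r / Ng (Φ.B c).lo c.1.set y) • (y - (Φ.B c).lo)) = r := by
    rw [Ng_ray _ _ ht.le, div_mul_cancel₀ _ hg.ne']
  rw [a7 y (by show Ng _ _ y ≤ r0; linarith) hy, a7 _ (by show Ng _ _ _ ≤ r0; rw [h2]; linarith)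
    (fun he => by rw [he, Ng_self] at h2; exact hr.ne h2), pj_of_ray _ _ ht]

end R3

end Crest.Agent.R096.Pse_316
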