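import Crest.Agent.R096.Mbf_337
import Crest.Agent.R096.Sk0_962
import Crest.Agent.R096.Er1_594

/-!
Row 96 (S0127), helper539.  **`SPHERE`**: the interface at the tiny cores (`p < 3`), definitions
only (form of record: 335 #10410, #10429 (D1)).  From the Sobolev homeomorphism `f` to a PL ball `K`
round the preimage of the hole with a PL homeomorphism `θ` of its boundary onto the boundary of the
brick, near `Psi ∘ f`.
-/

set_option autoImplicit false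
set_option linter.style.longLine false

open MeasureTheory Set Filter Topology Metric
open scoped ENNReal NNReal

namespace Crest.Agent.R096.SkT_539

open Crest.Agent.R096.Bsp_628 Crest.Agent.R096.Brk1_582 Crest.Agent.R096.Brk3_582
open Crest.Agent.R096.Brk5_582 Crest.Agent.R096.Msh_715 Crest.Agent.R96.Push_899
open Crest.Agent.R096.Sk_962 Crest.Agent.R096.Er_594
open Crest.Agent.R096.SkC1_961 (E3 Hom3 IsPush FoamD)
open Crest.Agent.R096.Ce_537 (PLOn PLEquiv IsBall)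
open Crest.Agent.R096.Mbf_337 (gau)
open Crest.Agent.R96.En10_199 (P3)
open Crest.AnalysisR.VecCalc3

noncomputable section

variable {δ κ0 R c0 : ℝ} {La : Set E3}

/-- the straight gauge of the brick `c` round its hole (one point): `0` there, `1` on the walls -/
def ga (Φ : FoamD δ κ0 R c0 La) (c : Φ.F) (y : E3) : ℝ := gau c.1 (Φ.B c).lo y

/-- on `{ga ≤ r}` the push is constant along the straight rays from the hole -/
def RayTo (Φ : FoamD δ κ0 R c0 La) (c : Φ.F) (r : ℝ) : Prop :=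
  ∀ y : E3, y ≠ (Φ.B c).lo → ga Φ c y ≤ r →
    Φ.Psi y = Φ.Psi ((Φ.B c).lo + (r / ga Φ c y) • (y - (Φ.B c).lo))

/-- **SPHERE** (levels and meshes do not occur). -/
def SPHERE : Prop :=
  ∀ (p : ℝ), 1 ≤ p → ∀ (Om La : Set R3) (f : R3 → R3) (G : Fin 3 → R3 → R3),
    IsOpen Om → IsOpen La → SH p Om La f G →
  ∀ (δ κ0 R c0 : ℝ), 0 < δ → 1 ≤ κ0 → 1 ≤ R → 0 < c0 →
  ∀ (Φ : FoamD δ κ0 R c0 (P3 ⁻¹' La)) (c : Φ.F), (Φ.B c).lo = (Φ.B c).hi →
  ∃ r : ℝ, 0 < r ∧ r < 1 ∧ RayTo Φ c r ∧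
  ∀ ρ₁ ρ₂ ε : ℝ, 0 < ρ₁ → ρ₁ < ρ₂ → ρ₂ ≤ r → 0 < ε →
  ∃ (K : Set E3) (θ : PLEquiv (frontier K) (frontier c.1.set)),
    IsBall 3 K (frontier K) ∧ K ⊆ P3 ⁻¹' Om ∧
    (∀ x ∈ K, ga Φ c (e3 f x) < ρ₂) ∧
    (∀ x ∈ frontier K, ρ₁ < ga Φ c (e3 f x)) ∧
    (∀ x ∈ P3 ⁻¹' Om, ga Φ c (e3 f x) ≤ ρ₁ → x ∈ interior K) ∧
    (∀ x ∈ frontier K, ‖θ.f x - Φ.Psi (e3 f x)‖ ≤ ε)

end

end Crest.Agent.R096.SkT_539
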