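import Crest.Agent.R096.Tws2_662

/-!
# Local two-sidedness of PL surfaces, part 3 (helper662, row 96, `twoSided_of_sphere`)

`twoSidedAt_of_chart`, `twoSidedAt_of_isBall`, `twoSided_of_sphere`.
-/

set_option autoImplicit false

namespace Crest.Agent.R096.Tws_662

open Set Metric Function Topology Filter
open Crest.Agent.R096.Pl Crest.Agent.R096.Ax_914 Crest.Agent.R096.Ce_537

/-! ### germs of PL maps are positively homogeneous -/

section Germ

variable {V W : Type*} [NormedAddCommGroup V] [NormedSpace ℝ V] [FiniteDimensional ℝ V]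
  [NormedAddCommGroup W] [NormedSpace ℝ W]

omit [FiniteDimensional ℝ V] in
theorem affine_lin (g : V →ᵃ[ℝ] W) (h : g 0 = 0) (t : ℝ) (y : V) : g (t • y) = t • g y := by
  have e : ∀ z, g z = g.linear z := fun z => by
    have := g.map_vadd 0 z
    simpa [h] using this
  rw [e, e, map_smul]

/-- a PL map with `F 0 = 0` is positively homogeneous near `0` -/
theorem exists_homogeneous {F : V → W} {r : ℝ} (hr : 0 < r) (hF : PLOn F (closedBall 0 r))
    (h0 : F 0 = 0) : ∃ r' > 0, r' ≤ r ∧ ∃ S : Finset (V →ᵃ[ℝ] W), (∀ g ∈ S, g 0 = 0) ∧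
      (∀ y, ‖y‖ ≤ r' → ∃ g ∈ S, F y = g y) ∧
      ∀ y, ‖y‖ ≤ r' → ∀ t : ℝ, 0 ≤ t → t ≤ 1 → F (t • y) = t • F y := by
  classical
  obtain ⟨hc, S, hS⟩ := hF
  have hm0 : (0 : V) ∈ closedBall (0 : V) r := mem_closedBall_self hr.le
  have hca : ContinuousAt F 0 := hc.continuousAt (closedBall_mem_nhds _ hr)
  -- near `0` only the linear pieces occur
  have h1 : ∀ᶠ y in 𝓝 (0 : V), ∀ g ∈ S, g 0 ≠ 0 → F y ≠ g y := by
    rw [Filter.eventually_all_finset]
    intro g hg
    by_cases hg0 : g 0 = 0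
    · exact Eventually.of_forall fun y h => absurd hg0 h
    · have h2 : Tendsto (fun y => F y - g y) (𝓝 0) (𝓝 (F 0 - g 0)) :=
        hca.sub (g.continuous_of_finiteDimensional.tendsto 0)
      rw [h0, zero_sub] at h2
      filter_upwards [h2.eventually (isOpen_compl_singleton.mem_nhds
        (show -g 0 ∈ ({0}ᶜ : Set W) by simpa using hg0))] with y hy _ h
      exact hy (by simp [h])
  obtain ⟨δ, hδ, hball⟩ := Metric.eventually_nhds_iff.1 h1
  set r' := min r (δ / 2) with hr'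
  have hr0 : 0 < r' := lt_min hr (by linarith)
  have hsel : ∀ y, ‖y‖ ≤ r' → ∃ g ∈ S.filter (fun g => g 0 = 0), F y = g y := by
    intro y hy
    obtain ⟨g, hg, e⟩ := hS y (by simpa using hy.trans (min_le_left _ _))
    refine ⟨g, Finset.mem_filter.2 ⟨hg, ?_⟩, e⟩
    by_contra hne
    refine hball (y := y) ?_ g hg hne e
    rw [dist_zero_right]
    exact lt_of_le_of_lt (hy.trans (min_le_right _ _)) (by linarith)
  refine ⟨r', hr0, min_le_left _ _, S.filter (fun g => g 0 = 0),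
    fun g hg => (Finset.mem_filter.1 hg).2, hsel, ?_⟩
  intro y hy t ht ht1
  rcases ht.lt_or_eq with ht | ht
  swap
  · rw [← ht, zero_smul, zero_smul, h0]
  -- the finite set of values of `t⁻¹ F (t y)`
  let T : Set W := (fun g : V →ᵃ[ℝ] W => g y) '' (S : Set (V →ᵃ[ℝ] W))
  have hT : T.Finite := S.finite_toSet.image _
  have hny : ∀ s : ℝ, s ∈ Ioc (0 : ℝ) 1 → ‖s • y‖ ≤ r' := by
    intro s hs
    rw [norm_smul, Real.norm_eq_abs, abs_of_pos hs.1]
    nlinarith [norm_nonneg y, hs.2, hs.1]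
  have hcont : ContinuousOn (fun s : ℝ => s⁻¹ • F (s • y)) (Ioc 0 1) := by
    refine (continuousOn_id.inv₀ fun s hs => hs.1.ne').smul ?_
    refine hc.comp (by fun_prop) fun s hs => ?_
    simpa using (hny s hs).trans (min_le_left _ _)
  have hmaps : MapsTo (fun s : ℝ => s⁻¹ • F (s • y)) (Ioc 0 1) T := by
    intro s hs
    obtain ⟨g, hg, e⟩ := hsel (s • y) (hny s hs)
    have hg' := Finset.mem_filter.1 hg
    refine ⟨g, hg'.1, ?_⟩
    show g y = s⁻¹ • F (s • y)
    rw [e, affine_lin g hg'.2, smul_smul, inv_mul_cancel₀ hs.1.ne', one_smul]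
  obtain ⟨c, -, hcst⟩ := isPreconnected_Ioc.eqOn_const_of_mapsTo hT.isDiscrete hcont hmaps
    ⟨_, hmaps (show (1 : ℝ) ∈ Ioc (0 : ℝ) 1 by simp)⟩
  have e1 := hcst (show t ∈ Ioc (0 : ℝ) 1 from ⟨ht, ht1⟩)
  have e2 := hcst (show (1 : ℝ) ∈ Ioc (0 : ℝ) 1 by simp)
  simp only [const_apply, inv_one, one_smul] at e1 e2
  rw [← e2] at e1
  rw [← e1, smul_smul, mul_inv_cancel₀ ht.ne', one_smul]

/-- the positively homogeneous extension of a germ -/
theorem exists_extension {F : V → W} {r : ℝ} (hr : 0 < r) (hF : PLOn F (closedBall 0 r))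
    (h0 : F 0 = 0) (hi : InjOn F (closedBall 0 r)) : ∃ r' > 0, r' ≤ r ∧ ∃ Ψ : V → W, PLMap Ψ ∧
      Injective Ψ ∧ (∀ y : V, ∀ t : ℝ, 0 ≤ t → Ψ (t • y) = t • Ψ y) ∧
      ∀ y, ‖y‖ ≤ r' → Ψ y = F y := by
  classical
  obtain ⟨r', hr', hrr, S, hS0, hsel, hhom⟩ := exists_homogeneous hr hF h0
  let lam : V → ℝ := fun y => r' / (1 + ‖y‖)
  have hlam : ∀ y, 0 < lam y := fun y => div_pos hr' (by positivity)
  have hlamn : ∀ y, ‖lam y • y‖ ≤ r' := by
    intro y
    have h1 : 0 < 1 + ‖y‖ := by positivity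
    rw [norm_smul, Real.norm_eq_abs, abs_of_pos (hlam y), div_mul_eq_mul_div, div_le_iff₀ h1]
    nlinarith [norm_nonneg y]
  let Ψ : V → W := fun y => (lam y)⁻¹ • F (lam y • y)
  have mono : ∀ y : V, ∀ a b : ℝ, 0 < a → a ≤ b → ‖b • y‖ ≤ r' →
      a⁻¹ • F (a • y) = b⁻¹ • F (b • y) := by
    intro y a b ha hab hb
    have hb0 : 0 < b := ha.trans_le hab
    have h1 := hhom (b • y) hb (a / b) (by positivity) ((div_le_one hb0).2 hab)
    rw [smul_smul, div_mul_cancel₀ _ hb0.ne'] at h1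
    rw [h1, smul_smul]
    congr 1
    field_simp
  have key : ∀ y : V, ∀ a : ℝ, 0 < a → ‖a • y‖ ≤ r' → Ψ y = a⁻¹ • F (a • y) := by
    intro y a ha hay
    rcases le_total a (lam y) with h | h
    · exact (mono y a (lam y) ha h (hlamn y)).symm
    · exact mono y (lam y) a (hlam y) h hay
  have hcont : Continuous Ψ := by
    have h1 : Continuous lam := continuous_const.div (by fun_prop) fun y => by positivity
    refine (h1.inv₀ fun y => (hlam y).ne').smul ?_
    exact hF.1.comp_continuous (h1.smul continuous_id) fun y => by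
      simpa using (hlamn y).trans hrr
  refine ⟨r', hr', hrr, Ψ, ⟨hcont, (S : Set (V →ᵃ[ℝ] W)), S.finite_toSet, fun y => ?_⟩, ?_, ?_, ?_⟩
  · obtain ⟨g, hg, e⟩ := hsel (lam y • y) (hlamn y)
    refine ⟨g, hg, ?_⟩
    show (lam y)⁻¹ • F (lam y • y) = g y
    rw [e, affine_lin g (hS0 g hg), smul_smul, inv_mul_cancel₀ (hlam y).ne', one_smul]
  · intro y y' h
    set a := r' / (1 + ‖y‖ + ‖y'‖) with ha
    have hd : 0 < 1 + ‖y‖ + ‖y'‖ := by positivity
    have ha0 : 0 < a := div_pos hr' hd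
    have h1 : ‖a • y‖ ≤ r' := by
      rw [norm_smul, Real.norm_eq_abs, abs_of_pos ha0, ha, div_mul_eq_mul_div, div_le_iff₀ hd]
      nlinarith [norm_nonneg y, norm_nonneg y']
    have h2 : ‖a • y'‖ ≤ r' := by
      rw [norm_smul, Real.norm_eq_abs, abs_of_pos ha0, ha, div_mul_eq_mul_div, div_le_iff₀ hd]
      nlinarith [norm_nonneg y, norm_nonneg y']
    rw [key y a ha0 h1, key y' a ha0 h2] at h
    have h3 : F (a • y) = F (a • y') := by
      have := congrArg (fun w => a • w) h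
      simpa [smul_smul, mul_inv_cancel₀ ha0.ne'] using this
    have h4 := hi (by simpa using h1.trans hrr) (by simpa using h2.trans hrr) h3
    have := congrArg (fun w => a⁻¹ • w) h4
    simpa [smul_smul, inv_mul_cancel₀ ha0.ne'] using this
  · intro y t ht
    rcases ht.lt_or_eq with ht | ht
    · have h1 := key y (lam (t • y) * t) (mul_pos (hlam _) ht) (by
        rw [mul_smul]; exact hlamn _)
      rw [h1]
      show (lam (t • y))⁻¹ • F (lam (t • y) • (t • y)) = _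
      rw [smul_smul, smul_smul]
      congr 1
      have := (hlam (t • y)).ne'
      field_simp
    · rw [← ht, zero_smul, zero_smul]
      show (lam 0)⁻¹ • F (lam 0 • 0) = 0
      rw [smul_zero, h0, smul_zero]
  · intro y hy
    rw [key y 1 one_pos (by simpa using hy), inv_one, one_smul, one_smul]

end Germ

/-! ### charts -/

section Chart

variable {E : Type*} [NormedAddCommGroup E] [NormedSpace ℝ E] [FiniteDimensional ℝ E]

/-- **a set of 3-space with a PL chart at `x` is two-sided at `x`** -/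
theorem twoSidedAt_of_chart (h3 : Module.finrank ℝ E = 3) {S : Set E} {x : E}
    {F : ℝ × ℝ → E} {r : ℝ} (hr : 0 < r) (hF : PLOn F (closedBall 0 r))
    (hi : InjOn F (closedBall 0 r)) (h0 : F 0 = x) (hm : MapsTo F (closedBall 0 r) S)
    (hn : F '' closedBall 0 r ∈ 𝓝[S] x) : TwoSidedAt S x := by
  classical
  have hfr : Module.finrank ℝ E = Module.finrank ℝ V3 := by rw [h3]; simp
  let L : E ≃L[ℝ] V3 := ContinuousLinearEquiv.ofFinrankEq hfr
  let Φ : E ≃ₜ V3 := (Homeomorph.subRight x).trans L.toHomeomorph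
  have hΦ : ∀ z, Φ z = L (z - x) := fun z => rfl
  have hΦx : Φ x = 0 := by rw [hΦ, sub_self, map_zero]
  let F' : ℝ × ℝ → V3 := fun y => L (F y - x)
  have hF' : PLOn F' (closedBall 0 r) := by
    obtain ⟨hc, T, hT⟩ := hF
    refine ⟨L.continuous.comp_continuousOn (hc.sub continuousOn_const),
      T.image (fun g => (L.toLinearMap.toAffineMap.comp
        ((AffineMap.id ℝ E) - AffineMap.const ℝ E x)).comp g), ?_⟩
    intro y hy
    obtain ⟨g, hg, e⟩ := hT y hy
    refine ⟨_, Finset.mem_image_of_mem _ hg, ?_⟩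
    show L (F y - x) = _
    rw [e]
    simp
  have hF'0 : F' 0 = 0 := by show L (F 0 - x) = 0; rw [h0, sub_self, map_zero]
  have hF'i : InjOn F' (closedBall 0 r) := by
    intro y hy y' hy' h
    have h1 : F y - x = F y' - x := L.injective h
    exact hi hy hy' (sub_left_injective h1)
  obtain ⟨r', hr', hrr, Ψ, hΨ, hΨi, hΨh, hΨF⟩ := exists_extension hr hF' hF'0 hF'i
  have key := twoSidedAt_range hΨ hΨh hΨi
  have hΨ0 : Ψ 0 = 0 := by simpa using hΨh 0 0 le_rfl
  -- lower bound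
  obtain ⟨c, hc, hcb⟩ : ∃ c > 0, ∀ y, c * ‖y‖ ≤ ‖Ψ y‖ := by
    have hcomp : IsCompact (sphere (0 : ℝ × ℝ) 1) := isCompact_sphere _ _
    have hne : (sphere (0 : ℝ × ℝ) 1).Nonempty := NormedSpace.sphere_nonempty.2 zero_le_one
    obtain ⟨y₀, hy₀, hmin⟩ := hcomp.exists_isMinOn hne hΨ.continuous.norm.continuousOn
    have hy1 : ‖y₀‖ = 1 := by simpa using hy₀
    have hpos : 0 < ‖Ψ y₀‖ := by
      rw [norm_pos_iff]
      intro h
      have : y₀ = 0 := hΨi (h.trans hΨ0.symm)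
      rw [this, norm_zero] at hy1
      norm_num at hy1
    refine ⟨‖Ψ y₀‖, hpos, fun y => ?_⟩
    rcases eq_or_ne y 0 with rfl | hy
    · simp
    · have hny : 0 < ‖y‖ := norm_pos_iff.2 hy
      have h1 : ‖y‖⁻¹ • y ∈ sphere (0 : ℝ × ℝ) 1 := by
        simp [norm_smul, inv_mul_cancel₀ hny.ne']
      have h2 : ‖Ψ y₀‖ ≤ ‖Ψ (‖y‖⁻¹ • y)‖ := hmin h1
      rw [hΨh _ _ (by positivity), norm_smul, norm_inv, norm_norm, inv_mul_eq_div,
        le_div_iff₀ hny] at h2
      exact h2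
  -- points of `S` near `x` come from the small ball
  obtain ⟨ε₁, hε₁, hsmall⟩ : ∃ ε > 0, ∀ s ∈ S, dist s x < ε → ∃ y, ‖y‖ ≤ r' ∧ F y = s := by
    have hcl : IsClosed (F '' (closedBall 0 r \ ball 0 r')) := by
      refine (((isCompact_closedBall (0 : ℝ × ℝ) r).diff isOpen_ball).image_of_continuousOn
        (hF.1.mono sdiff_subset)).isClosed
    have hx : x ∉ F '' (closedBall 0 r \ ball 0 r') := by
      rintro ⟨y, ⟨hy, hy'⟩, e⟩
      have : y = 0 := hi hy (mem_closedBall_self hr.le) (e.trans h0.symm)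
      rw [this] at hy'
      exact hy' (mem_ball_self hr')
    have h1 : F '' closedBall 0 r ∩ (F '' (closedBall 0 r \ ball 0 r'))ᶜ ∈ 𝓝[S] x :=
      inter_mem hn (mem_nhdsWithin_of_mem_nhds (hcl.isOpen_compl.mem_nhds hx))
    obtain ⟨ε, hε, hb⟩ := Metric.mem_nhdsWithin_iff.1 h1
    refine ⟨ε, hε, fun s hs hd => ?_⟩
    obtain ⟨⟨y, hy, e⟩, h2⟩ := hb ⟨hd, hs⟩
    refine ⟨y, ?_, e⟩
    by_contra h3
    exact h2 ⟨y, ⟨hy, by simpa using (not_le.1 h3).le⟩, e⟩
  have hV : Φ '' ball x ε₁ ∩ ball 0 (c * r') ∈ 𝓝 (0 : V3) := by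
    refine inter_mem ?_ (ball_mem_nhds _ (mul_pos hc hr'))
    rw [← hΦx]
    exact Φ.isOpenMap.image_mem_nhds (ball_mem_nhds _ hε₁)
  have h4 : TwoSidedAt (Φ '' S) 0 := by
    refine key.congr hV ?_
    ext z
    constructor
    · rintro ⟨⟨y, rfl⟩, hz, hz'⟩
      refine ⟨?_, hz, hz'⟩
      have h5 : ‖Ψ y‖ < c * r' := by simpa using hz'
      have h6 : ‖y‖ ≤ r' := (lt_of_mul_lt_mul_left ((hcb y).trans_lt h5) hc.le).le
      rw [hΨF y h6]
      exact ⟨F y, hm (by simpa using h6.trans hrr), rfl⟩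
    · rintro ⟨⟨s, hs, rfl⟩, hz, hz'⟩
      refine ⟨?_, hz, hz'⟩
      obtain ⟨s', hs', e⟩ := hz
      have : s' = s := Φ.injective e
      subst this
      obtain ⟨y, hy, rfl⟩ := hsmall s' hs hs'
      exact ⟨y, hΨF y hy⟩
  rw [← hΦx] at h4
  exact (TwoSidedAt.map_iff Φ).1 h4

end Chart

end Crest.Agent.R096.Tws_662
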