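import Crest.Agent.R096.Bd4_416
import Crest.Agent.R096.Tws3_662

/-!
# R096 (row 96), P2-TWOSIDED, part 1 (helper458)

`twoSidedAt_of_tr`   : level sets with a transport (bicollar) are two-sided.
`twoSidedAt_half`    : the sheet `{z ∈ Ω | G j z = 1/2}` of 416's band structure is two-sided.
-/

set_option autoImplicit false

open Set Metric Topology Filter

namespace Crest.Agent.R096.Tw_458

open Ce_537 Ax_914 Bd_416

/-- level sets with a transport are two-sided -/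
theorem twoSidedAt_of_tr {X : Type*} [PseudoMetricSpace X] {O : Set X} (hO : IsOpen O)
    {c : X → ℝ} (hc : ContinuousOn c O) {tr : X × ℝ → X} {b : ℝ} (hb : 0 < b)
    (hcb : ∀ z ∈ O, c z ∈ Ioo (-b) b)
    (htr : ContinuousOn tr (O ×ˢ Ioo (-b) b))
    (hm : ∀ z ∈ O, ∀ s ∈ Ioo (-b) b, tr (z, s) ∈ O)
    (hcs : ∀ z ∈ O, ∀ s ∈ Ioo (-b) b, c (tr (z, s)) = s)
    (hid : ∀ z ∈ O, tr (z, c z) = z)
    (htt : ∀ z ∈ O, ∀ s ∈ Ioo (-b) b, ∀ t ∈ Ioo (-b) b, tr (tr (z, s), t) = tr (z, t))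
    {x : X} (hx : x ∈ O) (hx0 : c x = 0)
    (hloc : ∀ ρ > 0, ∃ V : Set X, IsOpen V ∧ x ∈ V ∧ V ⊆ ball x ρ ∧
      IsPreconnected {z | z ∈ V ∧ z ∈ O ∧ c z = 0})
    {S : Set X} (hS : ∀ z ∈ O, z ∈ S ↔ c z = 0) : TwoSidedAt S x := by
  intro ε hε
  have h0 : (0 : ℝ) ∈ Ioo (-b) b := ⟨by linarith, hb⟩
  have hIo : IsOpen (O ×ˢ Ioo (-b) b) := hO.prod isOpen_Ioo
  have hmem : ((x, (0:ℝ)) : X × ℝ) ∈ O ×ˢ Ioo (-b) b := ⟨hx, h0⟩
  have hca : ContinuousAt tr (x, (0:ℝ)) := htr.continuousAt (hIo.mem_nhds hmem)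
  have htx : tr (x, 0) = x := by have := hid x hx; rwa [hx0] at this
  have hn : tr ⁻¹' ball x ε ∈ 𝓝 ((x, (0:ℝ)) : X × ℝ) :=
    hca.preimage_mem_nhds (by rw [htx]; exact ball_mem_nhds x hε)
  obtain ⟨ρ, hρ, hρb⟩ := Metric.mem_nhds_iff.1 (Filter.inter_mem hn (hIo.mem_nhds hmem))
  set δ := min ρ b with hδdef
  have hδ : 0 < δ := lt_min hρ hb
  have hδb : δ ≤ b := min_le_right _ _
  have hδρ : δ ≤ ρ := min_le_left _ _
  obtain ⟨V, hVo, hxV, hVρ, hVc⟩ := hloc ρ hρ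
  have key : ∀ w ∈ V, ∀ s : ℝ, |s| < δ → tr (w, s) ∈ ball x ε ∧ w ∈ O := by
    intro w hw s hs
    have h1 : ((w, s) : X × ℝ) ∈ ball ((x, (0:ℝ)) : X × ℝ) ρ := by
      rw [mem_ball, Prod.dist_eq, max_lt_iff]
      exact ⟨hVρ hw, by rw [Real.dist_eq, sub_zero]; exact hs.trans_le hδρ⟩
    exact ⟨(hρb h1).1, (hρb h1).2.1⟩
  have hI : ∀ s : ℝ, |s| < δ → s ∈ Ioo (-b) b := fun s hs => by
    rw [abs_lt] at hs; exact ⟨by linarith [hs.1], by linarith [hs.2]⟩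
  have hπc : ContinuousOn (fun z => tr (z, (0:ℝ))) O :=
    htr.comp (by fun_prop) fun z hz => ⟨hz, h0⟩
  -- the neighbourhood
  set U : Set X := {z | z ∈ O ∧ |c z| < δ ∧ tr (z, 0) ∈ V} with hU
  have hUo : IsOpen U := by
    have h1 : IsOpen (O ∩ c ⁻¹' ball 0 δ) := hc.isOpen_inter_preimage hO isOpen_ball
    have h2 : IsOpen (O ∩ (fun z => tr (z, (0:ℝ))) ⁻¹' V) := hπc.isOpen_inter_preimage hO hVo
    have h3 : U = (O ∩ c ⁻¹' ball 0 δ) ∩ (O ∩ (fun z => tr (z, (0:ℝ))) ⁻¹' V) := by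
      ext z
      simp only [hU, mem_ofPred_eq, mem_inter_iff, mem_preimage, mem_ball, Real.dist_eq, sub_zero]
      tauto
    rw [h3]; exact h1.inter h2
  set W : Set X := {z | z ∈ V ∧ z ∈ O ∧ c z = 0} with hW
  have hπW : ∀ z ∈ U, tr (z, 0) ∈ W := fun z hz => ⟨hz.2.2, hm z hz.1 0 h0, hcs z hz.1 0 h0⟩
  have hback : ∀ z ∈ U, tr (tr (z, 0), c z) = z := fun z hz => by
    rw [htt z hz.1 0 h0 (c z) (hcb z hz.1), hid z hz.1]
  have hfwd : ∀ w ∈ W, ∀ s : ℝ, |s| < δ → tr (w, s) ∈ U ∧ c (tr (w, s)) = s := by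
    intro w hw s hs
    have hs' := hI s hs
    refine ⟨⟨hm w hw.2.1 s hs', ?_, ?_⟩, hcs w hw.2.1 s hs'⟩
    · rw [hcs w hw.2.1 s hs']; exact hs
    · rw [htt w hw.2.1 s hs' 0 h0]
      have := hid w hw.2.1
      rw [hw.2.2] at this
      rw [this]; exact hw.1
  have himg : ∀ T : Set ℝ, T ⊆ ball 0 δ → {z | z ∈ U ∧ c z ∈ T} = tr '' (W ×ˢ T) := by
    intro T hT
    ext z
    constructor
    · rintro ⟨hz, hzT⟩
      exact ⟨(tr (z, 0), c z), ⟨hπW z hz, hzT⟩, hback z hz⟩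
    · rintro ⟨⟨w, s⟩, ⟨hw, hs⟩, rfl⟩
      have hs' : |s| < δ := by simpa using hT hs
      obtain ⟨h1, h2⟩ := hfwd w hw s hs'
      exact ⟨h1, by rw [h2]; exact hs⟩
  have hpre : ∀ T : Set ℝ, T ⊆ ball 0 δ → IsPreconnected T →
      IsPreconnected {z | z ∈ U ∧ c z ∈ T} := by
    intro T hT hTc
    rw [himg T hT]
    refine (hVc.prod hTc).image _ (htr.mono ?_)
    rintro ⟨w, s⟩ ⟨hw, hs⟩
    exact ⟨hw.2.1, hI s (by simpa using hT hs)⟩
  have hxW : x ∈ W := ⟨hxV, hx, hx0⟩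
  have hopen : ∀ T : Set ℝ, IsOpen T → IsOpen {z | z ∈ U ∧ c z ∈ T} := by
    intro T hT
    exact (hc.mono fun z hz => hz.1).isOpen_inter_preimage hUo hT
  have hclos : ∀ T : Set ℝ, T ⊆ ball 0 δ → (0:ℝ) ∈ closure T → x ∈ closure {z | z ∈ U ∧ c z ∈ T} := by
    intro T hT hT0
    rw [himg T hT]
    have h1 : ((x, (0:ℝ)) : X × ℝ) ∈ closure (W ×ˢ T) := by
      rw [closure_prod_eq]; exact ⟨subset_closure hxW, hT0⟩
    have h2 := hca.continuousWithinAt.mem_closure_image (s := W ×ˢ T) h1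
    rwa [htx] at h2
  refine ⟨U, {z | z ∈ U ∧ c z ∈ Ioo 0 δ}, {z | z ∈ U ∧ c z ∈ Ioo (-δ) 0}, hUo,
    hopen _ isOpen_Ioo, hopen _ isOpen_Ioo, ⟨hx, by rw [hx0]; simpa using hδ, by rw [htx]; exact hxV⟩,
    ?_, hpre _ ?_ isPreconnected_Ioo, hpre _ ?_ isPreconnected_Ioo, ?_, ?_, hclos _ ?_ ?_,
    hclos _ ?_ ?_⟩
  · intro z hz
    rw [← hback z hz]
    exact (key _ hz.2.2 _ hz.2.1).1
  · intro t ht; simp only [mem_ball, Real.dist_eq, sub_zero, abs_lt]; exact ⟨by linarith [ht.1], ht.2⟩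
  · intro t ht; simp only [mem_ball, Real.dist_eq, sub_zero, abs_lt]; exact ⟨ht.1, by linarith [ht.2]⟩
  · rw [Set.disjoint_left]
    rintro z ⟨-, h1⟩ ⟨-, h2⟩
    linarith [h1.1, h2.2]
  · ext z
    constructor
    · rintro ⟨hz, hzS⟩
      have h1 : c z ≠ 0 := fun h => hzS ((hS z hz.1).2 h)
      have h2 := abs_lt.1 hz.2.1
      rcases lt_or_gt_of_ne h1 with h | h
      · exact Or.inr ⟨hz, h2.1, h⟩
      · exact Or.inl ⟨hz, h, h2.2⟩
    · rintro (⟨hz, h⟩ | ⟨hz, h⟩)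
      · exact ⟨hz, fun hzS => by have := (hS z hz.1).1 hzS; linarith [h.1]⟩
      · exact ⟨hz, fun hzS => by have := (hS z hz.1).1 hzS; linarith [h.2]⟩
  · intro t ht; simp only [mem_ball, Real.dist_eq, sub_zero, abs_lt]; exact ⟨by linarith [ht.1], ht.2⟩
  · rw [closure_Ioo hδ.ne]; exact ⟨le_refl _, hδ.le⟩
  · intro t ht; simp only [mem_ball, Real.dist_eq, sub_zero, abs_lt]; exact ⟨ht.1, by linarith [ht.2]⟩
  · rw [closure_Ioo (by linarith)]; exact ⟨by linarith, le_refl _⟩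

section PL

variable {E : Type*} [NormedAddCommGroup E] [NormedSpace ℝ E]

/-- locally finite closed covers: continuity -/
theorem continuousOn_of_cover {F Q Y : Type*} [PseudoMetricSpace F] [TopologicalSpace Y]
    {Ω : Set F} {K : Q → Set F}
    (hcov : ∀ x ∈ Ω, ∃ q, x ∈ K q)
    (hlf : ∀ x ∈ Ω, ∃ r > 0, {i | (K i ∩ ball x r).Nonempty}.Finite) {D : Set F} {f : F → Y}
    (hDc : ∀ q, ContinuousOn f (K q ∩ D)) (hDcl : ∀ q, IsClosed (K q ∩ D)) :
    ContinuousOn f (Ω ∩ D) := by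
  intro x hx
  obtain ⟨r, hr, hfin⟩ := hlf x hx.1
  have h1 : ContinuousOn f (⋃ q ∈ {i | (K i ∩ ball x r).Nonempty}, K q ∩ D) := by
    have := hfin
    generalize {i | (K i ∩ ball x r).Nonempty} = s at this
    induction s, this using Set.Finite.induction_on with
    | empty => simp
    | @insert a s _ hs ih =>
      rw [biUnion_insert]
      exact (hDc a).union_of_isClosed ih (hDcl a) (hs.isClosed_biUnion fun i _ => hDcl i)
  have h2 : ball x r ∩ (Ω ∩ D) ⊆ ⋃ q ∈ {i | (K i ∩ ball x r).Nonempty}, K q ∩ D := by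
    rintro z ⟨hz, hzΩ, hzD⟩
    obtain ⟨q, hq⟩ := hcov z hzΩ
    exact mem_biUnion (show q ∈ {i | (K i ∩ ball x r).Nonempty} from ⟨z, hq, hz⟩) ⟨hq, hzD⟩
  have h3 : ContinuousWithinAt f (ball x r ∩ (Ω ∩ D)) x :=
    (h1 x (h2 ⟨mem_ball_self hr, hx⟩)).mono h2
  rw [Set.inter_comm] at h3
  exact (continuousWithinAt_inter (ball_mem_nhds x hr)).1 h3

/-- a function that is PL on the cells is PL on small balls -/
theorem plOn_ball {Q Y : Type*} [NormedAddCommGroup Y] [NormedSpace ℝ Y]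
    {Ω : Set E} {K : Q → Set E} (hΩ : IsOpen Ω) (hcl : ∀ q, IsClosed (K q))
    (hcov : ∀ x ∈ Ω, ∃ q, x ∈ K q)
    (hlf : ∀ x ∈ Ω, ∃ r > 0, {i | (K i ∩ ball x r).Nonempty}.Finite) {f : E → Y}
    (hf : ∀ q, PLOn f (K q)) {x : E} (hx : x ∈ Ω) : ∃ r > 0, PLOn f (closedBall x r) := by
  obtain ⟨r, hr, hfin⟩ := hlf x hx
  obtain ⟨r', hr', hsub⟩ := Metric.isOpen_iff.1 hΩ x hx
  have h1 := plOn_biUnion _ hfin (f := f) (K := K) (fun i _ => hf i) (fun i _ => hcl i)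
  refine ⟨min r r' / 2, by positivity, h1.mono ?_⟩
  intro z hz
  have hz1 : dist z x ≤ min r r' / 2 := hz
  have hm : 0 < min r r' := lt_min hr hr'
  have hz2 : z ∈ ball x r := by
    rw [mem_ball]; linarith [min_le_left r r']
  have hz3 : z ∈ ball x r' := by
    rw [mem_ball]; linarith [min_le_right r r']
  obtain ⟨q, hq⟩ := hcov z (hsub hz3)
  exact mem_biUnion (show q ∈ {i | (K i ∩ ball x r).Nonempty} from ⟨z, hq, hz2⟩) hq

/-- zero sets of PL functions are locally star shaped -/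
theorem exists_star [FiniteDimensional ℝ E] {f : E → ℝ} {x : E} {r : ℝ} (hr : 0 < r)
    (hf : PLOn f (closedBall x r)) (h0 : f x = 0) :
    ∃ r' > 0, r' ≤ r ∧ ∀ z ∈ closedBall x r', f z = 0 → ∀ t : ℝ, 0 ≤ t → t ≤ 1 →
      f (x + t • (z - x)) = 0 := by
  have h1 : PLOn (fun y => f (x + y)) (closedBall (0:E) r) := by
    have h2 : PLOn (fun y : E => x + y) (closedBall (0:E) r) :=
      ⟨by fun_prop, {AffineMap.const ℝ E x + AffineMap.id ℝ E}, fun y _ =>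
        ⟨_, Finset.mem_singleton_self _, by simp⟩⟩
    refine hf.comp h2 fun y hy => ?_
    simpa using hy
  obtain ⟨r', hr', hle, S, -, -, hh⟩ := Tws_662.exists_homogeneous hr h1 (by simpa using h0)
  refine ⟨r', hr', hle, fun z hz hz0 t ht0 ht1 => ?_⟩
  have h3 := hh (z - x) (by simpa [dist_eq_norm] using hz) t ht0 ht1
  simp only [add_sub_cancel] at h3
  rw [h3, hz0, smul_zero]

variable {κ : Type*} {g : Gd E κ}

/-- on `{0 < G < 1}` the level is `0` -/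
theorem lev_eq {Z : Set E} (h : g.Is Z) {j : κ} {z : E} (hz : z ∈ Z) (h0 : 0 < g.G j z)
    (h1 : g.G j z < 1) : z ∈ g.B j ∧ g.lev j z = 0 := by
  have hB : z ∈ g.B j := by
    refine h.nB j z hz fun hi => ?_
    obtain ⟨n, hn⟩ := mem_Zs.1 hi
    rw [hn] at h0 h1
    have h2 : (0 : ℤ) < n := by exact_mod_cast h0
    have h3 : n < 1 := by exact_mod_cast h1
    omega
  refine ⟨hB, ?_⟩
  obtain ⟨n, hn⟩ := mem_Zs.1 (h.li j z hz hB)
  have h2 := h.ab j z hz hB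
  rw [hn] at h2 ⊢
  have h3 : (-1 : ℝ) < n := by linarith [h2.2]
  have h4 : (n : ℝ) < 1 := by linarith [h2.1]
  have h5 : (-1 : ℤ) < n := by exact_mod_cast h3
  have h6 : n < 1 := by exact_mod_cast h4
  have : n = 0 := by omega
  rw [this]; norm_num

/-- **the sheets of 416's band structure are two-sided** -/
theorem twoSidedAt_half [FiniteDimensional ℝ E] {Q : Type*} {Ω : Set E} {K : Q → Set E}
    (hΩ : IsOpen Ω) (hsub : ∀ q, K q ⊆ Ω) (hcl : ∀ q, IsClosed (K q))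
    (hcov : ∀ x ∈ Ω, ∃ q, x ∈ K q)
    (hlf : ∀ x ∈ Ω, ∃ r > 0, {i | (K i ∩ ball x r).Nonempty}.Finite)
    (h : ∀ q, g.Is (K q)) (j : κ) {x : E} (hx : x ∈ Ω) (hxj : g.G j x = 1/2) :
    TwoSidedAt {z | z ∈ Ω ∧ g.G j z = 1/2} x := by
  have hGc : ContinuousOn (g.G j) Ω := by
    have := continuousOn_of_cover hcov hlf (D := univ) (f := g.G j)
      (fun q => by rw [inter_univ]; exact ((h q).pG j).1) (fun q => by rw [inter_univ]; exact hcl q)
    rwa [inter_univ] at this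
  set c : E → ℝ := fun z => g.G j z - 1/2 with hcdef
  have hcc : ContinuousOn c Ω := hGc.sub continuousOn_const
  set O : Set E := Ω ∩ c ⁻¹' Ioo (-1/2) (1/2) with hOdef
  have hOo : IsOpen O := hcc.isOpen_inter_preimage hΩ isOpen_Ioo
  have hOB : ∀ z ∈ O, ∀ q, z ∈ K q → z ∈ g.B j ∧ g.lev j z = 0 := by
    intro z hz q hq
    have h1 := hz.2
    simp only [hcdef, mem_preimage, mem_Ioo] at h1
    exact lev_eq (h q) hq (by linarith [h1.1]) (by linarith [h1.2])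
  have hIoo : ∀ s : ℝ, s ∈ Ioo (-(1/2) : ℝ) (1/2) → s ∈ I2 := fun s hs =>
    ⟨by linarith [hs.1], hs.2.le⟩
  have hab : (-1/2 : ℝ) = -(1/2) := by norm_num
  have htG : ∀ z ∈ O, ∀ s ∈ Ioo (-(1/2) : ℝ) (1/2), c (g.tr j (z, s)) = s := by
    intro z hz s hs
    obtain ⟨q, hq⟩ := hcov z hz.1
    obtain ⟨hB, hl⟩ := hOB z hz q hq
    have := (h q).tG j z hq hB s (hIoo s hs)
    simp only [hcdef]
    rw [this, hl]; ring
  refine twoSidedAt_of_tr hOo (hcc.mono inter_subset_left) (b := 1/2) (by norm_num) (tr := g.tr j)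
    (fun z hz => by rw [← hab]; exact hz.2) ?_ ?_ htG ?_ ?_ (x := x) ⟨hx, ?_⟩ ?_ ?_ ?_
  · -- continuity of the transport
    have h1 : ContinuousOn (g.tr j) ((Ω ×ˢ univ) ∩ (g.B j ×ˢ I2)) := by
      refine continuousOn_of_cover (K := fun q => K q ×ˢ (univ : Set ℝ)) ?_ ?_ ?_ ?_
      · rintro ⟨z, s⟩ hz
        obtain ⟨q, hq⟩ := hcov z hz.1
        exact ⟨q, hq, mem_univ _⟩
      · rintro ⟨z, s⟩ hz
        obtain ⟨r, hr, hf⟩ := hlf z hz.1
        refine ⟨r, hr, hf.subset ?_⟩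
        rintro i ⟨⟨w, t⟩, hw, hwt⟩
        refine ⟨w, hw.1, ?_⟩
        rw [mem_ball, Prod.dist_eq, max_lt_iff] at hwt
        exact hwt.1
      · intro q
        have h2 : (K q ×ˢ (univ : Set ℝ)) ∩ (g.B j ×ˢ I2) = (K q ∩ g.B j) ×ˢ I2 := by
          rw [prod_inter_prod, univ_inter]
        rw [h2]; exact ((h q).pt j).1
      · intro q
        have h2 : (K q ×ˢ (univ : Set ℝ)) ∩ (g.B j ×ˢ I2) = (K q ∩ g.B j) ×ˢ I2 := by
          rw [prod_inter_prod, univ_inter]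
        rw [h2]; exact ((h q).cB j).prod isClosed_Icc
    refine h1.mono ?_
    rintro ⟨z, s⟩ ⟨hz, hs⟩
    obtain ⟨q, hq⟩ := hcov z hz.1
    exact ⟨⟨hz.1, mem_univ _⟩, (hOB z hz q hq).1, hIoo s hs⟩
  · intro z hz s hs
    obtain ⟨q, hq⟩ := hcov z hz.1
    obtain ⟨hB, hl⟩ := hOB z hz q hq
    refine ⟨hsub q ((h q).tZ j z hq hB s (hIoo s hs)), ?_⟩
    rw [mem_preimage, htG z hz s hs, hab]; exact hs
  · intro z hz
    obtain ⟨q, hq⟩ := hcov z hz.1
    obtain ⟨hB, hl⟩ := hOB z hz q hq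
    have := (h q).ts j z hq hB
    rwa [hl, sub_zero] at this
  · intro z hz s hs t ht
    obtain ⟨q, hq⟩ := hcov z hz.1
    obtain ⟨hB, hl⟩ := hOB z hz q hq
    exact (h q).tt j z hq hB s (hIoo s hs) t (hIoo t ht)
  · rw [mem_preimage]; simp only [hcdef, hxj]; constructor <;> norm_num
  · simp only [hcdef, hxj]; norm_num
  · -- local star shape
    intro ρ hρ
    obtain ⟨r, hr, hpl⟩ := plOn_ball hΩ hcl hcov hlf (fun q => (h q).pG j) hx
    have hpc : PLOn c (closedBall x r) := pl_sub_const hpl _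
    obtain ⟨r', hr', -, hstar⟩ := exists_star hr hpc (by simp only [hcdef, hxj]; norm_num)
    obtain ⟨r'', hr'', hsubO⟩ := Metric.isOpen_iff.1 hOo x
      ⟨hx, by rw [mem_preimage]; simp only [hcdef, hxj]; constructor <;> norm_num⟩
    set R := min (min r' r'') ρ with hR
    have hRpos : 0 < R := lt_min (lt_min hr' hr'') hρ
    refine ⟨ball x R, isOpen_ball, mem_ball_self hRpos, ball_subset_ball (min_le_right _ _), ?_⟩
    have hxS : x ∈ {z | z ∈ ball x R ∧ z ∈ O ∧ c z = 0} :=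
      ⟨mem_ball_self hRpos, hsubO (mem_ball_self hr''), by simp only [hcdef, hxj]; norm_num⟩
    suffices hst : StarConvex ℝ x {z | z ∈ ball x R ∧ z ∈ O ∧ c z = 0} from
      (hst.isPathConnected hxS).isConnected.isPreconnected
    rw [starConvex_iff_forall_pos hxS]
    intro z hz a b ha hb hab
    have e1 : a • x + b • z = x + b • (z - x) := by
      have : a = 1 - b := by linarith
      rw [this, sub_smul, one_smul, smul_sub]; abel
    have e2 : a • x + b • z ∈ ball x R := by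
      exact (convex_ball x R) (mem_ball_self hRpos) hz.1 ha.le hb.le hab
    refine ⟨e2, hsubO (ball_subset_ball ((min_le_left _ _).trans (min_le_right _ _)) e2), ?_⟩
    rw [e1]
    refine hstar z ?_ hz.2.2 b hb.le (by linarith)
    exact ball_subset_closedBall (ball_subset_ball ((min_le_left _ _).trans (min_le_left _ _)) hz.1)
  · intro z hz
    simp only [mem_ofPred_eq, hcdef]
    constructor
    · rintro ⟨-, h1⟩; rw [h1]; norm_num
    · intro h1; exact ⟨hz.1, by linarith⟩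

/-- the same over a locally finite complex -/
theorem twoSidedAt_sheet [FiniteDimensional ℝ E] {Q : Type*} [PartialOrder Q] {dim : Q → ℕ}
    {Ω : Set E} {K : Q → Set E} (X : Cplx Ω Q dim K) (hΩ : IsOpen Ω) (h : ∀ q, g.Is (K q)) (j : κ) :
    ∀ x ∈ {z | z ∈ Ω ∧ g.G j z = 1/2}, TwoSidedAt {z | z ∈ Ω ∧ g.G j z = 1/2} x :=
  fun _ hx => twoSidedAt_half hΩ X.sub X.isClosed X.cover X.lf h j hx.1 hx.2

end PL

end Crest.Agent.R096.Tw_458
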