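import Crest.Agent.R096.Shp3_334
import Crest.Agent.R096.Gp0_702
import Crest.Agent.R096.Tw1_458

/-!
# R096 (row 96), ARR-SH (helper334), part 4: the sheet `{G_j = 1/2}` is a PL 2-sphere

* `vp_image_cube` : the image of a cube under a `PLOn` map is a finite union of convex polytopes;
* `sheet_sphere` : (SH), from helper702's P2-GEN, helper458's `twoSidedAt_sheet`, parts 1-3.
-/

set_option autoImplicit false

open Set Metric Topology Filter

namespace Crest.Agent.R096.Shp_334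

open Crest.Agent.R096.Ce_537 Crest.Agent.R096.Pl

/-! ### polyhedral images -/

section poly

variable {W : Type*} [NormedAddCommGroup W] [NormedSpace ℝ W]

/-- the retraction onto the cube -/
noncomputable def clampC (n : ℕ) (y : Fin n → ℝ) : Fin n → ℝ := fun i => max (-1) (min 1 (y i))

lemma clampC_mem (n : ℕ) (y : Fin n → ℝ) : clampC n y ∈ cube n := by
  rw [mem_closedBall_zero_iff, pi_norm_le_iff_of_nonneg zero_le_one]
  intro i
  rw [Real.norm_eq_abs, abs_le]
  exact ⟨le_max_left _ _, max_le (by norm_num) (min_le_left _ _)⟩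

lemma clampC_of_mem {n : ℕ} {y : Fin n → ℝ} (hy : y ∈ cube n) : clampC n y = y := by
  rw [mem_closedBall_zero_iff, pi_norm_le_iff_of_nonneg zero_le_one] at hy
  funext i
  have h1 := hy i
  rw [Real.norm_eq_abs, abs_le] at h1
  unfold clampC
  rw [min_eq_right h1.2, max_eq_right h1.1]

lemma plMap_clampC (n : ℕ) : PLMap (clampC n) := by
  have h1 : clampC n = fun y => ∑ i : Fin n, (max (-1) (min 1 (y i))) • (Pi.single i (1:ℝ) :
      Fin n → ℝ) := by
    funext y
    funext k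
    rw [Finset.sum_apply, Finset.sum_eq_single k]
    · simp [clampC]
    · intro i _ hik
      simp [Pi.single_apply, Ne.symm hik]
    · intro h; exact absurd (Finset.mem_univ _) h
  rw [h1]
  refine PLMap.finset_sum _ fun i _ => PLMap.smul_const ?_ _
  exact (PLMap.const _).max ((PLMap.const _).min
    (PLMap.of_affine (LinearMap.proj i : (Fin n → ℝ) →ₗ[ℝ] ℝ).toAffineMap))

/-- a `PLOn` map on the cube is the restriction of a PL map -/
lemma plMap_comp_clamp {n : ℕ} {f : (Fin n → ℝ) → W} (hf : PLOn f (cube n)) :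
    PLMap (fun y => f (clampC n y)) := by
  classical
  obtain ⟨hc, S, hS⟩ := hf
  obtain ⟨kc, G, hG, hs⟩ := plMap_clampC n
  refine ⟨hc.comp_continuous kc fun y => clampC_mem n y, image2 (fun (a : (Fin n → ℝ) →ᵃ[ℝ] W) b => a.comp b) S G,
    S.finite_toSet.image2 _ hG, fun x => ?_⟩
  obtain ⟨g, hg, e⟩ := hS (clampC n x) (clampC_mem n x)
  obtain ⟨a, ha, e'⟩ := hs x
  refine ⟨g.comp a, ⟨g, hg, a, ha, rfl⟩, ?_⟩
  show f (clampC n x) = g (a x)
  rw [e, e']

/-- **the image of a cube is a finite union of convex polytopes** -/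
theorem vp_image_cube [FiniteDimensional ℝ W] {n : ℕ} {f : (Fin n → ℝ) → W}
    (hf : PLOn f (cube n)) : ∃ 𝒞 : Set (Set W), 𝒞.Finite ∧ (∀ C ∈ 𝒞, VP C) ∧
      ⋃₀ 𝒞 = f '' cube n := by
  obtain ⟨𝒞, h1, h2, h3, h4, -⟩ := (plMap_comp_clamp hf).cells (Cb_609.vp_cube n) (A := ∅)
    Set.finite_empty
  refine ⟨(fun C => f '' C) '' 𝒞, h1.image _, ?_, ?_⟩
  · rintro _ ⟨C, hC, rfl⟩
    obtain ⟨g, hg⟩ := h4 C hC
    have h5 : C ⊆ cube n := fun u hu => by
      have h6 : u ∈ ⋃₀ 𝒞 := ⟨C, hC, hu⟩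
      rw [h3] at h6
      exact h6
    have h6 : f '' C = g '' C := by
      refine image_congr fun x hx => ?_
      have := hg x hx
      rwa [clampC_of_mem (h5 hx)] at this
    obtain ⟨s, hs, rfl⟩ := h2 C hC
    show VP (f '' _)
    rw [h6]
    exact ⟨g '' s, hs.image _, (AffineMap.image_convexHull g s)⟩
  · rw [sUnion_image, ← image_iUnion₂, ← sUnion_eq_biUnion, h3]

/-- finite unions of polyhedral sets -/
lemma vp_iUnion {ι : Type*} [Finite ι] {A : ι → Set W}
    (h : ∀ i, ∃ 𝒞 : Set (Set W), 𝒞.Finite ∧ (∀ C ∈ 𝒞, VP C) ∧ ⋃₀ 𝒞 = A i) :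
    ∃ 𝒞 : Set (Set W), 𝒞.Finite ∧ (∀ C ∈ 𝒞, VP C) ∧ ⋃₀ 𝒞 = ⋃ i, A i := by
  choose 𝒞 h1 h2 h3 using h
  refine ⟨⋃ i, 𝒞 i, Set.finite_iUnion h1, ?_, ?_⟩
  · intro C hC
    obtain ⟨i, hi⟩ := mem_iUnion.1 hC
    exact h2 i C hi
  · rw [sUnion_iUnion]
    exact iUnion_congr h3

end poly

/-! ### the sheet is a sphere -/

section final

open Crest.Agent.R096.Bd_416 Crest.Agent.R096.Coh_184 Crest.Agent.R096.Gp_702

open scoped Classical

variable {Q : Type} [PartialOrder Q] {dim : Q → ℕ} {J Fam : Type}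
variable {E : Type*} [NormedAddCommGroup E] [NormedSpace ℝ E] [FiniteDimensional ℝ E]
variable {C : Cmb Q dim J Fam} {K : Q → Set E} {g : Gd E J}
  {P : ∀ q, C.I q → Set E} {c : ∀ q, C.I q → E → ℝ} {Ω : Set E}

omit [FiniteDimensional ℝ E] in
/-- images of the sheet under linear isomorphisms are polyhedral -/
theorem sheet_poly (H : Inv C K univ g P c) (X : Cplx Ω Q dim K) {j : J} (hB : Bls C K c j)
    (htop : Top3 Q dim) [Finite (Pce C j 3)] (L : E ≃L[ℝ] (Fin 3 → ℝ)) :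
    Gp_702.Poly (L '' {z | z ∈ Ω ∧ g.G j z = 1/2}) := by
  rw [← sheet_eq H X htop hB, Cw.car, image_iUnion]
  refine vp_iUnion fun t => ?_
  obtain ⟨e, -⟩ := hB t.1.1 (by rw [t.2.1]; norm_num) t.1.2 t.2.2
  have h1 : L '' (cw H X hB).KT t = (fun u => L (e.f u)) '' cube (dim t.1.1 - 1) := by
    have h2 : (cw H X hB).KT t = e.f '' cube (dim t.1.1 - 1) := e.image_eq.symm
    rw [h2, image_image]
  rw [h1]
  exact vp_image_cube (pl_clm e.pf (L : E →L[ℝ] (Fin 3 → ℝ)))

/-- the equivalence of a set with its image under a linear isomorphism -/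
noncomputable def linEquiv {E' : Type*} [NormedAddCommGroup E'] [NormedSpace ℝ E']
    (L : E ≃L[ℝ] E') (S : Set E) : PLEquiv S (L '' S) where
  f := L
  g := L.symm
  pf := pl_clm (plOn_id _) (L : E →L[ℝ] E')
  pg := pl_clm (plOn_id _) (L.symm : E' →L[ℝ] E)
  mf := fun x hx => ⟨x, hx, rfl⟩
  mg := by rintro _ ⟨x, hx, rfl⟩; simpa using hx
  li := fun x _ => by simp
  ri := fun y _ => by simp

/-- **(SH): the sheet `{G_j = 1/2}` is a PL 2-sphere** (`P2-GEN` of helper702 as hypothesis) -/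
theorem sheet_sphere (hE : ExistStmt) (hN : NormStmt) (h3 : Module.finrank ℝ E = 3)
    (hΩ : IsOpen Ω) (H : Inv C K univ g P c) (X : Cplx Ω Q dim K) {j : J} (hB : Bls C K c j)
    (htop : Top3 Q dim) [Finite (Pce C j 3)] (h1 : SH1 C j) (hc : SConn C j) :
    Nonempty (PLEquiv (sph 3) {z | z ∈ Ω ∧ g.G j z = 1/2}) := by
  set S : Set E := {z | z ∈ Ω ∧ g.G j z = 1/2} with hS
  have L : E ≃L[ℝ] (Fin 3 → ℝ) := ContinuousLinearEquiv.ofFinrankEq (by simp [h3])
  have hcl : IsClosed S := (sheet_isCompact H X hB htop).isClosed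
  have htr := sheet_trivF H X hB htop h1
  have hcon := sheet_isConnected H X htop hB hc
  have hst := alexander_gen hE hN (S := L '' S) (sheet_poly H X hB htop L)
    (by
      rintro _ ⟨x, hx, rfl⟩
      exact (Tw_458.twoSidedAt_sheet X hΩ (fun q => H.is q (mem_univ q)) j x hx).map L.toHomeomorph)
    (hcon.image L L.continuous.continuousOn)
    (fun n => Ax_914.TrivAll.map L.toHomeomorph hcl (htr n))
  obtain ⟨A, Hh, -, -, hH, -, hHS, -⟩ := StdC.fin3' hst
  have e1 : PLEquiv (sph 3) (L '' S) := hHS ▸ Cb_609.ofPLH hH (sph 3)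
  exact ⟨e1.trans (linEquiv L S).symm⟩

end final

end Crest.Agent.R096.Shp_334
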