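import Crest.Agent.R096.Sphs1_4
import Crest.Agent.R096.Shp4_334
import Crest.Agent.R096.Sps3_333

/-! # Row 96, SPHERE (helper4), part 2: the realised sheet of the main class bounds a ball which
contains the core point and stays inside `f⁻¹ (int D)`. -/

set_option autoImplicit false

open Set Filter Topology Metric Module

namespace Crest.Agent.R096.Sphs_4

open Crest.Agent.R096.Msh_715 Crest.Agent.R096.Agl4_543 Crest.Agent.R096.Agl5_543
  Crest.Agent.R096.Coh_184 Crest.Agent.R096.Main_4 Crest.Agent.R096.Ginv_543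
  Crest.Agent.R096.Lab_184 Crest.Agent.R096.Seq_213 Crest.Agent.R096.Cm_117
  Crest.Agent.R096.Bd_416 Crest.Agent.R096.Shp_334 Crest.Agent.R096.Ce_537

open scoped Classical

section cells

variable {E : Type} [NormedAddCommGroup E] [NormedSpace ℝ E] [FiniteDimensional ℝ E]
variable {Om : Set E} {ι : Type} {T : Tiling Om ι} {h3 : finrank ℝ E = 3}
variable {s : GSt (meshC T h3) (fun _ : Unit => ())}
variable {h : LF s} {hon : ∀ w ∈ s.P, w ∈ Om ∧ T.dim w = 1} {Lam : Unit → E → ZMod 2}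
  {hLam : ∀ j, ∀ e ∈ Om, T.dim e = 1 → ∀ a b, T.cc e = segment ℝ a b →
      Lam j a + Lam j b = (((gPts s j : Set E) ∩ T.cc e).ncard : ZMod 2)}
variable {g : Gd E Unit} {P : ∀ q, (cmb h hon Lam hLam).I q → Set E}
  {c : ∀ q, (cmb h hon Lam hLam).I q → E → ℝ}

/-- `G` is continuous -/
theorem continuousOn_G (H : Inv (cmb h hon Lam hLam) (fun c : T.Cell => c.set) univ g P c) :
    ContinuousOn (g.G ()) Om := by
  have X := T.cplx
  have := Tw_458.continuousOn_of_cover (K := fun c : T.Cell => c.set) (Ω := Om) X.cover X.lf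
    (D := univ) (f := g.G ())
    (fun q => by rw [inter_univ]; exact ((H.is q (mem_univ q)).pG ()).1)
    (fun q => by rw [inter_univ]; exact X.isClosed q)
  rwa [inter_univ] at this

/-- `G` on a tile without points of the sheet: the label of any vertex -/
theorem G_of_empty (H : Inv (cmb h hon Lam hLam) (fun c : T.Cell => c.set) univ g P c) {q : ι}
    (hq : ∀ w ∈ s.P, w ∉ Msh_715.P (T.H q)) {z : E} (hz : z ∈ Msh_715.P (T.H q)) :
    g.G () z = 1/2 - sg (Lam () (bv (tcell T q))) / 2 := by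
  have hz' : z ∈ (tcell T q).set := by rw [tcell_set]; exact hz
  have h1 := H.PF (tcell T q) (mem_univ _) () z hz'
  have h2 : IsEmpty ((cmb h hon Lam hLam).I (tcell T q)) := by
    refine ⟨fun x => ?_⟩
    obtain ⟨w, -⟩ := Quot.exists_rep (x : Pc s (tcell T q))
    have h4 : (w.1 : E) ∈ Msh_715.P (T.H q) := tcell_set (T := T) q ▸ w.2.2.1
    exact hq w.1 w.2.1 h4
  rw [h1, Finset.prod_eq_one (fun x _ => (h2.false x).elim), mul_one]
  rfl

end cells

section homeo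

open Crest.AnalysisR.VecCalc3 Crest.AnalysisR.Sobolev

variable {f : R3 → R3} {Om La : Set R3} {ι : Type} {T : Tiling Om ι} {h3 : finrank ℝ R3 = 3}
variable {s : GSt (meshC T h3) (fun _ : Unit => ())}
variable {h : LF s} {hon : ∀ w ∈ s.P, w ∈ Om ∧ T.dim w = 1} {lam : R3 → ZMod 2}
  {hLam : ∀ j : Unit, ∀ e ∈ Om, T.dim e = 1 → ∀ a b, T.cc e = segment ℝ a b →
      (fun _ : Unit => lam) j a + (fun _ : Unit => lam) j b =
        (((gPts s j : Set R3) ∩ T.cc e).ncard : ZMod 2)}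
variable {g : Gd R3 Unit} {P : ∀ q, (cmb h hon (fun _ => lam) hLam).I q → Set R3}
  {c : ∀ q, (cmb h hon (fun _ => lam) hLam).I q → R3 → ℝ}

/-- `G = 0` on the far tiles -/
theorem G_far (H : Inv (cmb h hon (fun _ => lam) hLam) (fun c : T.Cell => c.set) univ g P c)
    {D : Set R3} (hl : FarLab T f D (gPts s ()) lam)
    (hsupp : ∀ w ∈ s.P, ∀ q, w ∈ Msh_715.P (T.H q) → Msh_715.P (T.H q) ⊆ f ⁻¹' interior D)
    {q : ι} (hq : ¬ Msh_715.P (T.H q) ⊆ f ⁻¹' interior D) {z : R3}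
    (hz : z ∈ Msh_715.P (T.H q)) : g.G () z = 0 := by
  rw [G_of_empty H (fun w hw hwq => hq (hsupp w hw q hwq)) hz]
  have h1 : lam (bv (tcell T q)) = 0 := by
    refine hl.far q hq _ ?_
    have := bv_mem (tcell T q)
    rwa [tcell_set] at this
  show 1/2 - sg (lam (bv (tcell T q))) / 2 = 0
  rw [h1, sg_zero]; norm_num

/-- `G = 1` on a tile without points which has a vertex with label `1` -/
theorem G_core (H : Inv (cmb h hon (fun _ => lam) hLam) (fun c : T.Cell => c.set) univ g P c)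
    (hl : IsLab T (gPts s ()) lam) {q : ι} (hq : ∀ w ∈ s.P, w ∉ Msh_715.P (T.H q)) {v₀ : R3}
    (hv₀ : v₀ ∈ Msh_715.P (T.H q)) (hd₀ : T.dim v₀ = 0) (h0 : lam v₀ = 1) {z : R3}
    (hz : z ∈ Msh_715.P (T.H q)) : g.G () z = 1 := by
  rw [G_of_empty H hq hz]
  have hbq : bv (tcell T q) ∈ Msh_715.P (T.H q) := by
    have := bv_mem (tcell T q)
    rwa [tcell_set] at this
  -- the label is constant on the tile: use an interior point
  obtain ⟨y, hy⟩ := T.ne q
  have hyP := I_sub_P _ hy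
  have h1 : lam (bv (tcell T q)) = lam v₀ := by
    refine hl.const_geom (K := {y}) isPreconnected_singleton
      (singleton_subset_iff.2 (T.sub q hyP)) ?_
      (mem_VM hyP (mem_singleton y) hbq (bv_dim _)) (mem_VM hyP (mem_singleton y) hv₀ hd₀)
    rintro i ⟨y', hy', rfl⟩ u hu huP
    have hi : i ∈ T.at_ y' := hy'
    rw [T.at_eq_singleton hy, mem_singleton_iff] at hi
    rw [hi] at huP
    exact hq u (mem_gPts.1 hu).1 huP
  show 1/2 - sg (lam (bv (tcell T q))) / 2 = 1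
  rw [h1, h0, sg_one]; norm_num

end homeo

/-- (B) of the split (helper458): the side of a PL sphere given by a level function is a ball -/
def BallLvl (E : Type) [NormedAddCommGroup E] [NormedSpace ℝ E] : Prop :=
  ∀ {Om : Set E}, IsOpen Om → ∀ {G : E → ℝ}, ContinuousOn G Om → ∀ {B : Set E}, IsCompact B →
    B ⊆ Om → (∀ z ∈ Om, z ∉ B → G z = 0) →
    Nonempty (PLEquiv (sph 3) {z | z ∈ Om ∧ G z = 1/2}) → (∃ x₀ ∈ Om, 1/2 < G x₀) →
    IsBall 3 {z | z ∈ Om ∧ 1/2 ≤ G z} {z | z ∈ Om ∧ G z = 1/2} ∧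
      frontier {z | z ∈ Om ∧ 1/2 ≤ G z} = {z | z ∈ Om ∧ G z = 1/2} ∧
      interior {z | z ∈ Om ∧ 1/2 ≤ G z} = {z | z ∈ Om ∧ 1/2 < G z}

section ball

open Crest.AnalysisR.VecCalc3 Crest.AnalysisR.Sobolev

variable {f : R3 → R3} {Om La : Set R3} {ι : Type} {T : Tiling Om ι} {h3 : finrank ℝ R3 = 3}
variable {s : GSt (meshC T h3) (fun _ : Unit => ())}
variable {h : LF s} {hon : ∀ w ∈ s.P, w ∈ Om ∧ T.dim w = 1} {lam : R3 → ZMod 2}
  {hLam : ∀ j : Unit, ∀ e ∈ Om, T.dim e = 1 → ∀ a b, T.cc e = segment ℝ a b →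
      (fun _ : Unit => lam) j a + (fun _ : Unit => lam) j b =
        (((gPts s j : Set R3) ∩ T.cc e).ncard : ZMod 2)}
variable {g : Gd R3 Unit} {P : ∀ q, (cmb h hon (fun _ => lam) hLam).I q → Set R3}
  {c : ∀ q, (cmb h hon (fun _ => lam) hLam).I q → R3 → ℝ}

/-- **THE BALL OF THE MAIN CLASS** -/
theorem ball_of_state (hBL : BallLvl R3) (hOm : IsOpen Om) (hf : IsHomeomorphOn f Om La)
    (hE : Gp_702.ExistStmt) (hN : Gp_702.NormStmt)
    (H : Inv (cmb h hon (fun _ => lam) hLam) (fun c : T.Cell => c.set) univ g P c)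
    (hB : Bls (cmb h hon (fun _ => lam) hLam) (fun c : T.Cell => c.set) c ())
    (h1 : s.H1 ()) (hc : s.Conn ()) {D : Set R3} (hD : IsCompact D) (hDL : D ⊆ La)
    (hl : FarLab T f D (gPts s ()) lam)
    (hsupp : ∀ w ∈ s.P, ∀ q, w ∈ Msh_715.P (T.H q) → Msh_715.P (T.H q) ⊆ f ⁻¹' interior D)
    {q : ι} (hq : ∀ w ∈ s.P, w ∉ Msh_715.P (T.H q)) {v₀ : R3}
    (hv₀ : v₀ ∈ Msh_715.P (T.H q)) (hd₀ : T.dim v₀ = 0) (h0 : lam v₀ = 1) :
    ∃ K : Set R3, K = {z | z ∈ Om ∧ 1/2 ≤ g.G () z} ∧ IsBall 3 K (frontier K) ∧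
      frontier K = {z | z ∈ Om ∧ g.G () z = 1/2} ∧ Msh_715.P (T.H q) ⊆ interior K ∧
      (∀ z ∈ K, ∀ i, z ∈ Msh_715.P (T.H i) → Msh_715.P (T.H i) ⊆ f ⁻¹' interior D) ∧
      K ⊆ Om := by
  have X := T.cplx
  have Dc : Dic (cmb h hon (fun _ => lam) hLam) s () := cmb_dic h hon (fun _ => lam) hLam ()
  have hfar : ∀ z ∈ Om, ∀ i, z ∈ Msh_715.P (T.H i) → g.G () z ≠ 0 →
      Msh_715.P (T.H i) ⊆ f ⁻¹' interior D := by
    intro z _ i hzi hG
    by_contra hcon
    exact hG (G_far H hl hsupp hcon hzi)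
  have f1 : Finite (Pce (cmb h hon (fun _ => lam) hLam) () 1) := Dc.finite1
  have f3 : Finite (Pce (cmb h hon (fun _ => lam) hLam) () 3) := finite3 H X hB
  have hS := sheet_sphere hE hN h3 hOm H X hB (Spp_333.top3_cell h3) (Dc.sh1 h1) (Dc.sconn hc)
  obtain ⟨fi, a1, a2, a3, a4, a5, a6⟩ := hf
  have hBc : IsCompact (fi '' D) := hD.image_of_continuousOn (a6.mono hDL)
  have hBO : fi '' D ⊆ Om := by
    rintro _ ⟨y, hy, rfl⟩; exact a2 (hDL hy)
  have hG1 : ∀ z ∈ Msh_715.P (T.H q), g.G () z = 1 := fun z hz =>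
    G_core H hl.lab hq hv₀ hd₀ h0 hz
  obtain ⟨b1, b2, b3⟩ := hBL hOm (continuousOn_G H) hBc hBO (by
    intro z hz hzB
    by_contra hG
    obtain ⟨i, hi⟩ := T.cov z hz
    have h4 := hfar z hz i hi hG hi
    exact hzB ⟨f z, interior_subset h4, a3 z hz⟩) hS
    ⟨v₀, T.sub q hv₀, by rw [hG1 v₀ hv₀]; norm_num⟩
  refine ⟨_, rfl, ?_, b2, ?_, ?_, fun z hz => hz.1⟩
  · rw [b2]; exact b1
  · rw [b3]
    intro z hz
    exact ⟨T.sub q hz, by rw [hG1 z hz]; norm_num⟩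
  · intro z hz i hi
    refine hfar z hz.1 i hi ?_
    have := hz.2
    intro h4
    rw [h4] at this
    norm_num at this

end ball

end Crest.Agent.R096.Sphs_4
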