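import Mathlib
import Crest.Agent.R096.Sphg2_316
import Crest.Agent.R096.Lab1_184
import Crest.Agent.R096.Init2_543

/-! # Row 96, SPHERE (G): the level spheres of the gauge and their preimages under a
homeomorphism (helper316): (g5), (g7) -/

set_option autoImplicit false
set_option linter.unusedSectionVars false

open Set Filter Topology Metric NNReal

namespace Crest.Agent.R096.Sphg_316

open Crest.Agent.R096.Coh_184 Crest.Agent.R096.Init_543

variable {V : Type*} [NormedAddCommGroup V] [NormedSpace ℝ V] [FiniteDimensional ℝ V]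
  {z : V} {C : Set V}

/-! ### (g5) -/

theorem Bod.trivF_eq {A : Type*} [AddCommGroup A] (h : Bod z C)
    (h3 : Module.finrank ℝ V = 3) {r : ℝ} (hr : 0 < r) : TrivF A {y | Ng z C y = r} := by
  rw [← h.frontier_le hr]
  refine Lab_184.trivF_frontier h3 (h.isCompact_le r) (h.convex_le r) ?_
  rw [h.interior_le hr]
  exact h.nonempty_lt hr

theorem Bod.preconn_eq (h : Bod z C) (h3 : Module.finrank ℝ V = 3) {r : ℝ} (hr : 0 < r) :
    IsPreconnected {y | Ng z C y = r} := by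
  rw [← h.frontier_le hr]
  refine Lab_184.isPreconnected_frontier h3 (h.isCompact_le r) (h.convex_le r) ?_
  rw [h.interior_le hr]
  exact h.nonempty_lt hr

/-! ### (g7) -/

variable {E : Type*} [MetricSpace E] {f : E → V} {g : V → E} {Om : Set E} {La : Set V}

theorem lev_eq (f : E → V) (Om : Set E) (z : V) (C : Set V) (r : ℝ) :
    {x | x ∈ Om ∧ Ng z C (f x) = r} = Om ∩ f ⁻¹' {y | Ng z C y = r} := rfl

theorem Bod.isCompact_lev (h : Bod z C) (H : Hm f g Om La) (hCL : C ⊆ La) {r : ℝ}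
    (hr1 : r ≤ 1) : IsCompact {x | x ∈ Om ∧ Ng z C (f x) = r} :=
  H.isCompact_pre ((h.eq_sub hr1).trans hCL) (h.isCompact_eq r)

theorem Bod.isCompact_levle (h : Bod z C) (H : Hm f g Om La) (hCL : C ⊆ La) {r : ℝ}
    (hr1 : r ≤ 1) : IsCompact {x | x ∈ Om ∧ Ng z C (f x) ≤ r} :=
  H.isCompact_pre ((h.le_sub hr1).trans hCL) (h.isCompact_le r)

theorem Bod.trivF_lev (h : Bod z C) (h3 : Module.finrank ℝ V = 3) (H : Hm f g Om La)
    (hCL : C ⊆ La) {r : ℝ} (hr : 0 < r) (hr1 : r ≤ 1) :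
    TrivF (ZMod 2) {x | x ∈ Om ∧ Ng z C (f x) = r} :=
  H.trivF_pre ((h.eq_sub hr1).trans hCL) (h.isCompact_eq r) (h.trivF_eq h3 hr)

theorem Bod.preconn_lev (h : Bod z C) (h3 : Module.finrank ℝ V = 3) (H : Hm f g Om La)
    (hCL : C ⊆ La) {r : ℝ} (hr : 0 < r) (hr1 : r ≤ 1) :
    IsPreconnected {x | x ∈ Om ∧ Ng z C (f x) = r} :=
  H.preconn_pre ((h.eq_sub hr1).trans hCL) (h.preconn_eq h3 hr)

theorem Bod.preconn_levle (h : Bod z C) (H : Hm f g Om La)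
    (hCL : C ⊆ La) {r : ℝ} (hr1 : r ≤ 1) :
    IsPreconnected {x | x ∈ Om ∧ Ng z C (f x) ≤ r} :=
  H.preconn_pre ((h.le_sub hr1).trans hCL) (h.convex_le r).isPreconnected

theorem Bod.preconn_levlt (h : Bod z C) (H : Hm f g Om La)
    (hCL : C ⊆ La) {r : ℝ} (hr1 : r ≤ 1) :
    IsPreconnected {x | x ∈ Om ∧ Ng z C (f x) < r} :=
  H.preconn_pre (D := {y | Ng z C y < r}) (fun y (hy : Ng z C y < r) => hCL (h.le_sub hr1 hy.le))
    (h.convex_lt r).isPreconnected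

theorem Bod.preconn_levG (h : Bod z C) (H : Hm f g Om La) (hCL : C ⊆ La) {r : ℝ} (hr : 0 < r)
    (hr1 : r ≤ 1) {Γ : Set V} (hΓ : Γ ⊆ frontier C) (hp : IsPreconnected Γ) :
    IsPreconnected {x | x ∈ Om ∧ Ng z C (f x) = r ∧ pj z C (f x) ∈ Γ} :=
  H.preconn_pre (fun _ hy => hCL (h.eq_sub hr1 hy.1)) (h.preconn_level hΓ hp hr)

theorem Bod.isCompact_levG (h : Bod z C) (H : Hm f g Om La) (hCL : C ⊆ La) {r : ℝ} (hr : 0 < r)
    (hr1 : r ≤ 1) {Γ : Set V} (hΓ : Γ ⊆ frontier C) (hp : IsCompact Γ) :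
    IsCompact {x | x ∈ Om ∧ Ng z C (f x) = r ∧ pj z C (f x) ∈ Γ} :=
  H.isCompact_pre (fun _ hy => hCL (h.eq_sub hr1 hy.1)) (h.compact_level hΓ hp hr)

/-! ### the same for `IsHomeomorphOn` in `R3` -/

section R3

open Crest.AnalysisR.VecCalc3 Crest.AnalysisR.Sobolev

variable {f : R3 → R3} {Om La : Set R3} {z : R3} {C : Set R3}

theorem finrank_R3 : Module.finrank ℝ R3 = 3 := by
  simp [R3]

/-- **(g7)**, all statements together -/
theorem Bod.g7 (h : Bod z C) (hf : IsHomeomorphOn f Om La) (hCL : C ⊆ La) {r : ℝ} (hr : 0 < r)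
    (hr1 : r ≤ 1) :
    IsCompact {x | x ∈ Om ∧ Ng z C (f x) = r} ∧
    TrivF (ZMod 2) {x | x ∈ Om ∧ Ng z C (f x) = r} ∧
    IsPreconnected {x | x ∈ Om ∧ Ng z C (f x) = r} ∧
    ∀ Γ : Set R3, Γ ⊆ frontier C → IsPreconnected Γ →
      IsPreconnected {x | x ∈ Om ∧ Ng z C (f x) = r ∧ pj z C (f x) ∈ Γ} := by
  obtain ⟨g, H⟩ := exists_hm hf
  exact ⟨h.isCompact_lev H hCL hr1, h.trivF_lev finrank_R3 H hCL hr hr1,
    h.preconn_lev finrank_R3 H hCL hr hr1, fun Γ hΓ hp => h.preconn_levG H hCL hr hr1 hΓ hp⟩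

/-- the part of `Om` inside: compact for `≤ r`, preconnected for `< r` and for `≤ r` -/
theorem Bod.g7' (h : Bod z C) (hf : IsHomeomorphOn f Om La) (hCL : C ⊆ La) {r : ℝ}
    (hr1 : r ≤ 1) :
    IsCompact {x | x ∈ Om ∧ Ng z C (f x) ≤ r} ∧
    IsPreconnected {x | x ∈ Om ∧ Ng z C (f x) ≤ r} ∧
    IsPreconnected {x | x ∈ Om ∧ Ng z C (f x) < r} := by
  obtain ⟨g, H⟩ := exists_hm hf
  exact ⟨h.isCompact_levle H hCL hr1, h.preconn_levle H hCL hr1, h.preconn_levlt H hCL hr1⟩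

end R3

end Crest.Agent.R096.Sphg_316
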