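import Crest.Agent.R096.Sphs2_4
import Crest.Agent.R096.Arc9_778
import Crest.Agent.R096.Bd20_416

/-! # Row 96, SPHERE (helper4), part 3: the band structure with `Bls` for every `cmb` without given
part; sheets of the one-class state. -/

set_option autoImplicit false

open Set Filter Topology Metric Module

namespace Crest.Agent.R096.Sphs_4

open Crest.Agent.R096.Ce_537 Crest.Agent.R096.Bd_416 Crest.Agent.R096.Arc_778
  Crest.Agent.R096.Shp_334

open scoped Classical

section gen

variable {Q : Type} [PartialOrder Q] {dim : Q → ℕ} {J Fam : Type}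
variable {E : Type} [NormedAddCommGroup E] [NormedSpace ℝ E] [FiniteDimensional ℝ E]
variable {C : Cmb Q dim J Fam} {K : Q → Set E} {Ω : Set E}

/-- the empty `Gd` -/
noncomputable def gd0 (E : Type) [NormedAddCommGroup E] [NormedSpace ℝ E] (J : Type) : Gd E J where
  G := fun _ _ => 0
  B := fun _ => ∅
  lev := fun _ _ => 0
  tr := fun _ _ => 0

/-- **the band structure of a `Cmb` with no given part, and its sheets are made of balls** -/
theorem exists_inv_bls (X : Cplx Ω Q dim K) (hdim : ∀ q, dim q ≤ 3) {k : ∀ q, C.I q → ℕ}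
    (L : CmbG C ∅ k)
    (ord : ∀ τ, dim τ = 1 → ∀ x x', x ≠ x' → C.fam (C.col τ x) = C.fam (C.col τ x') →
      (k τ x' < k τ x → C.side τ x x' = 1) ∧ (k τ x < k τ x' → C.side τ x x' = 0)) :
    ∃ g P c, Inv C K univ g P c ∧ ∀ j, Bls C K c j := by
  have hch : ∀ τ, ∀ _ : 1 ≤ dim τ, ∃ e : PLEquiv (cube (dim τ)) (K τ),
      e.f '' sph (dim τ) = bdS K τ := fun τ _ => (X.isBall τ)
  choose e he using hch
  obtain ⟨g, P, c, H, hT⟩ := mesh_cone (C := C) (K := K) (Y := ℝ) X (R := ∅)
    (fun q hq => hq.elim) (g0 := gd0 E J) (P0 := fun _ _ => ∅) (c0 := fun _ _ _ => 0) Inv.empty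
    (b := fun _ => 1/4) (fun _ => by norm_num) (fun _ => by norm_num)
    (wt := fun _ => 1) (fun _ => one_pos) (Λ := fun _ _ _ => 0) (fun _ => ∅)
    (fun _ _ _ h => h.elim) (fun _ _ _ h => h.elim) (fun _ _ h => h) (fun _ h => h.elim)
    (ε := 1/2) (by norm_num) (by norm_num)
    (fun τ => 1 / (2 * ((Fintype.card (C.I τ) : ℝ) + 1))) (fun τ => by positivity)
    (fun τ _ => by
      simp only [Finset.sum_const, Finset.card_univ, nsmul_eq_mul, mul_one]
      rw [div_mul_eq_mul_div, one_mul, div_le_div_iff₀ (by positivity) (by norm_num)]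
      nlinarith)
    (fun _ _ => 0) (fun _ _ => 0) (fun _ _ _ => le_rfl) e (fun τ _ hd => he τ hd)
    (fun _ _ _ _ h => h.elim) (fun _ _ _ _ h => h.elim) k (fun τ h hd => L.inj τ h hd)
    (fun τ _ hd => ord τ hd) (fun _ _ _ _ h => h.elim) (fun _ _ => 0)
    (fun _ _ _ _ h => h.elim) (fun _ _ _ _ h => h.elim)
    (RlG C K) (fun D g P c H τ hd hτ => rlG_rank X D g P c H τ hd hτ)
    (fun c τ x x' h => rlG_ins c τ x x' h)
    (SpecG C K k) (fun τ _ hd M => specG0 hd M)
    (fun τ _ hd e he hb p hE hord => specG1 X hd e he hb hE hord)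
    (fun D g P c H τ hd _ _ hτ κ ρ Dp hρ => specG2 H X hd hτ Dp hρ _ _) 4
  have hu : (∅ : Set Q) ∪ {q | dim q < 4} = univ := by
    rw [empty_union]
    exact eq_univ_of_forall fun q => by have := hdim q; show dim q < 4; omega
  rw [hu] at H hT
  refine ⟨g, P, c, H, fun j => ?_⟩
  have hG : Geo C K c ∅ k := Geo.of_trk (fun _ _ h => h) fun q _ => hT q (mem_univ q)
  have hR : GeoR C K c (∅ : Set Q) := ⟨fun _ h => h.elim, fun _ h => h.elim, fun _ h => h.elim⟩
  exact bls H X hG hR L j

end gen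

end Crest.Agent.R096.Sphs_4
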