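import Crest.Agent.R096.Sps6_333
import Crest.Agent.R096.Sphg3_316
import Crest.Agent.R096.Sphm1_976
import Crest.Agent.R096.Agl8_543
import Crest.Agent.R096.Sphs3_4
import Crest.Agent.R096.Lm7_117

/-!
# R096 (row 96), SPHERE (helper333), part s7: the order of the constants
-/

set_option autoImplicit false

open Set Metric Filter Topology

namespace Crest.Agent.R096.Spp_333

open Crest.Agent.R096.Sph_560 Crest.Agent.R096.Ce_537 Crest.Agent.R096.Bd_416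
  Crest.Agent.R096.Shp_334 Crest.Agent.R096.Coh_184 Crest.Agent.R096.Jn_890
  Crest.Agent.R096.Seq_213 Crest.Agent.R096.St_147 Crest.Agent.R096.Sphg_316
  Crest.Agent.R096.Msh_715 Crest.Agent.R096.Agl4_543 Crest.Agent.R096.Agl5_543
  Crest.Agent.R096.Main_4 Crest.Agent.R096.Sphs_4 Crest.Agent.R096.Cm_117
  Crest.AnalysisR.VecCalc3 Crest.AnalysisR.Sobolev Crest.Agent.R096.Ginv_543
  Crest.Agent.R096.Lab_184

/-! ### scaling of the body -/

section scale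

variable {C : Set R3} {z : R3}

/-- the sublevel of the gauge is a body -/
theorem bod_le (hC : Bod z C) {ρ : ℝ} (hρ : 0 < ρ) : Bod z {y | Ng z C y ≤ ρ} where
  cpt := hC.isCompact_le ρ
  cvx := hC.convex_le ρ
  int := by
    rw [hC.interior_le hρ]
    show Ng z C z < ρ
    rw [Ng_self]; exact hρ

/-- the gauge of the sublevel -/
theorem Ng_le (hC : Bod z C) {ρ : ℝ} (hρ : 0 < ρ) (y : R3) :
    Ng z {y | Ng z C y ≤ ρ} y = Ng z C y / ρ := by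
  have hD := bod_le hC hρ
  rcases eq_or_ne y z with rfl | hy
  · rw [Ng_self, Ng_self, zero_div]
  · have h1 := hD.pj_mem hy
    rw [hC.frontier_le hρ] at h1
    have h2 : Ng z C (z + (Ng z {y | Ng z C y ≤ ρ} y)⁻¹ • (y - z)) = ρ := h1
    have h3 := hD.pos.2 hy
    rw [Ng_ray z C (inv_nonneg.2 h3.le)] at h2
    field_simp at h2
    field_simp
    linarith

theorem pj_le (hC : Bod z C) {ρ : ℝ} (hρ : 0 < ρ) {y : R3} (hy : y ≠ z) :
    pj z C (pj z {y | Ng z C y ≤ ρ} y) = pj z C y := by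
  have hD := bod_le hC hρ
  exact pj_of_ray z C (inv_pos.2 (hD.pos.2 hy)) y

end scale

/-- the facts about the gauge -/
theorem gau (z : R3) {C : Set R3} (hC : Bod z C) : Gau z C where
  pf _ hy := hC.pj_mem hy
  ray _ hw _ hs := hC.pj_ray hw hs
  one _ hw := hC.eq_one_iff.2 hw
  eq _ _ hr h := hC.eq_ray hr h

/-- `e₀` is uniformly continuous -/
theorem unif_e {F : Type*} [NormedAddCommGroup F] {A : Set R3} (hA : IsCompact A) {e₀ : R3 → F}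
    (he : ContinuousOn e₀ A) {δ : ℝ} (hδ : 0 < δ) :
    ∃ δ' > 0, ∀ w ∈ A, ∀ w' ∈ A, ‖w - w'‖ ≤ δ' → ‖e₀ w - e₀ w'‖ ≤ δ := by
  have h1 := hA.uniformContinuousOn_of_continuous he
  rw [Metric.uniformContinuousOn_iff] at h1
  obtain ⟨η, hη, h2⟩ := h1 δ hδ
  refine ⟨η / 2, half_pos hη, fun w hw w' hw' h => ?_⟩
  rw [← dist_eq_norm]
  refine (h2 w hw w' hw' ?_).le
  rw [dist_eq_norm]; linarith

/-- **the choice of the mesh size** -/
theorem exists_near {z : R3} {C : Set R3} (hC : Bod z C) {F : Type*} [NormedAddCommGroup F]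
    {e₀ : R3 → F} (he : ContinuousOn e₀ (frontier C)) {ρ δ : ℝ} (hρ : 0 < ρ) (hρ1 : ρ < 1)
    (hδ : 0 < δ) :
    ∃ ε₁ > 0, (∀ a b : R3, ‖a - b‖ ≤ ε₁ → |Ng z C a - Ng z C b| < (1 - ρ) / 3) ∧
      ∀ r, (2 * ρ + 1) / 3 < r → r < (ρ + 2) / 3 → Near z C e₀ r ε₁ δ := by
  obtain ⟨δ', hδ', h1⟩ := unif_e (hC.cpt.of_isClosed_subset isClosed_frontier
    hC.cpt.isClosed.frontier_subset) he hδ
  obtain ⟨ε₂, hε₂, h2⟩ := hC.pj_unif hρ hδ'
  obtain ⟨L, hL⟩ := hC.lipschitz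
  have hL0 : (0 : ℝ) ≤ L := L.2
  set η : ℝ := (1 - ρ) / (6 * (L + 1)) with hη
  have hη0 : 0 < η := by
    have : 0 < 1 - ρ := by linarith
    positivity
  have hLη : L * η < (1 - ρ) / 3 := by
    have h5 : (L + 1) * η = (1 - ρ) / 6 := by
      rw [hη]; field_simp
    nlinarith
  have hN : ∀ a b : R3, ‖a - b‖ ≤ min ε₂ η → |Ng z C a - Ng z C b| < (1 - ρ) / 3 := by
    intro a b hab
    have h3 := hL.dist_le_mul a b
    rw [Real.dist_eq, dist_eq_norm] at h3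
    have h4 : ‖a - b‖ ≤ η := hab.trans (min_le_right _ _)
    refine lt_of_le_of_lt h3 (lt_of_le_of_lt ?_ hLη)
    exact mul_le_mul_of_nonneg_left h4 hL0
  refine ⟨min ε₂ η, lt_min hε₂ hη0, hN, fun r hr1 hr2 a b ha hab => ?_⟩
  have h3 := abs_lt.1 (hN a b hab)
  have hb : ρ < Ng z C b := by rw [ha] at h3; linarith [h3.2]
  have hbz : b ≠ z := hC.pos.1 (hρ.trans hb)
  have haz : a ≠ z := hC.pos.1 (by rw [ha]; linarith)
  refine ⟨hbz, h1 _ (hC.pj_mem haz) _ (hC.pj_mem hbz) ?_⟩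
  exact h2 a b (by rw [ha]; linarith) (by rw [ha]; linarith) (hab.trans (min_le_left _ _))


/-! ### the three clauses on `K` -/

section clauses

variable {f : R3 → R3} {Om La : Set R3} {ι : Type} {T : Tiling Om ι} {h3 : Module.finrank ℝ R3 = 3}
variable {s : GSt (meshC T h3) (fun _ : Unit => ())}
variable {h : LF s} {hon : ∀ w ∈ s.P, w ∈ Om ∧ T.dim w = 1} {Lam : Unit → R3 → ZMod 2}
  {hLam : ∀ j, ∀ e ∈ Om, T.dim e = 1 → ∀ a b, T.cc e = segment ℝ a b →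
      Lam j a + Lam j b = (((gPts s j : Set R3) ∩ T.cc e).ncard : ZMod 2)}
variable {g : Gd R3 Unit} {P : ∀ q, (cmb h hon Lam hLam).I q → Set R3}
  {c : ∀ q, (cmb h hon Lam hLam).I q → R3 → ℝ}

/-- the tiles which meet the level `1/2` have points of the state -/
theorem exists_pt_of_half
    (H : Inv (cmb h hon Lam hLam) (fun c : T.Cell => c.set) univ g P c) {z : R3}
    (hz : g.G () z = 1/2) {q : ι} (hq : z ∈ Msh_715.P (T.H q)) :
    ∃ w ∈ s.P, w ∈ Msh_715.P (T.H q) := by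
  by_contra hcon
  push Not at hcon
  have h1 := G_of_empty H hcon hq
  rw [hz] at h1
  unfold sg at h1
  split_ifs at h1 <;> norm_num at h1

/-- `G` is PL on a compact set -/
theorem plOn_G (H : Inv (cmb h hon Lam hLam) (fun c : T.Cell => c.set) univ g P c)
    {K : Set R3} (hK : IsCompact K) (hKO : K ⊆ Om) : PLOn (g.G ()) K := by
  classical
  have X := T.cplx
  have hfin := X.finite_meet hK hKO
  have h1 : ∀ q : T.Cell, ∃ S : Finset (R3 →ᵃ[ℝ] ℝ), ∀ x ∈ q.set, ∃ a ∈ S, g.G () x = a x :=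
    fun q => ((H.is q (mem_univ q)).pG ()).2
  choose S hS using h1
  refine ⟨(continuousOn_G H).mono hKO, hfin.toFinset.biUnion S, fun x hx => ?_⟩
  obtain ⟨q, hq⟩ := X.cover x (hKO hx)
  obtain ⟨a, ha, hxa⟩ := hS q x hq
  exact ⟨a, Finset.mem_biUnion.2 ⟨q, hfin.mem_toFinset.2 ⟨x, hq, hx⟩, ha⟩, hxa⟩

end clauses

/-- a preconnected set which meets the interior of `K` and misses its frontier -/
theorem sub_interior {X : Type*} [TopologicalSpace X] {A K : Set X} (hA : IsPreconnected A)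
    (h1 : (A ∩ interior K).Nonempty) (h2 : Disjoint A (frontier K)) : A ⊆ interior K := by
  refine hA.subset_left_of_subset_union isOpen_interior (isClosed_closure (s := K)).isOpen_compl
    ?_ ?_ h1
  · rw [disjoint_compl_right_iff_subset]
    exact interior_subset_closure
  · intro x hx
    by_cases hx1 : x ∈ closure K
    · left
      by_contra hx2
      exact disjoint_left.1 h2 hx ⟨hx1, hx2⟩
    · exact Or.inr hx1


/-! ### the sphere -/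

section final

variable {f : R3 → R3} {Om La : Set R3} {G : Fin 3 → R3 → R3} {p : ℝ}

/-- **SPHERE, normalised** (`ρ₂ = 1`) -/
theorem sphere1 (hBL : BallLvl R3) (hE : Gp_702.ExistStmt) (hN : Gp_702.NormStmt) (hp : 1 ≤ p)
    (hO : IsOpen Om) (hL : IsOpen La) (hS : Sk_962.SH p Om La f G) {C : Set R3} {z x₀ : R3}
    (hC : Bod z C) (hCL : C ⊆ La) (hx₀ : x₀ ∈ Om) (hz : f x₀ = z)
    {F : Type*} [NormedAddCommGroup F] [NormedSpace ℝ F] {K' Sg' : Set F} (hK' : IsBall 3 K' Sg')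
    {e₀ : R3 → F} {e₁ : F → R3} (he₀ : ContinuousOn e₀ (frontier C))
    (he₀m : MapsTo e₀ (frontier C) Sg') (he₁ : ContinuousOn e₁ Sg')
    (he₁m : MapsTo e₁ Sg' (frontier C)) (h01 : ∀ y ∈ Sg', e₀ (e₁ y) = y)
    (h10 : ∀ y ∈ frontier C, e₁ (e₀ y) = y) {ρ ε : ℝ} (hρ : 0 < ρ) (hρ1 : ρ < 1) (hε : 0 < ε) :
    ∃ (K : Set R3) (θ : PLEquiv (frontier K) Sg') (φ : R3 → ℝ), IsBall 3 K (frontier K) ∧
      K ⊆ Om ∧ x₀ ∈ interior K ∧ (∀ x ∈ K, Ng z C (f x) < 1) ∧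
      (∀ x ∈ frontier K, ρ < Ng z C (f x)) ∧
      (∀ x ∈ Om, Ng z C (f x) ≤ ρ → x ∈ interior K) ∧
      (∀ x ∈ frontier K, ‖θ.f x - e₀ (pj z C (f x))‖ ≤ ε) ∧
      PLOn φ K ∧ (∀ x ∈ K, φ x ≤ 0) ∧ (∀ x ∈ K, φ x = 0 ↔ x ∈ frontier K) := by
  classical
  have h3 := finrank_R3
  have hf := hS.homeo
  have hfc : ContinuousOn f Om := by
    obtain ⟨_, _, _, _, _, h, _⟩ := id hf
    exact h
  -- the constants
  obtain ⟨δ, hδ, hdel⟩ := exists_del R3 hK' hε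
  obtain ⟨ε₁, hε₁, hn1, hn2⟩ := exists_near hC he₀ hρ hρ1 hδ
  -- the mesh
  obtain ⟨hKc, -, -⟩ := hC.g7' hf hCL le_rfl
  obtain ⟨ι, T, hT1, hT2⟩ := Sphm_976.exists_mesh1 hp hO hS hKc (fun x hx => hx.1) hε₁
  have htile : ∀ q, ∀ x ∈ Msh_715.P (T.H q), Ng z C (f x) ≤ 1 → ∀ y ∈ Msh_715.P (T.H q),
      |Ng z C (f x) - Ng z C (f y)| < (1 - ρ) / 3 := fun q x hx hx1 y hy =>
    hn1 _ _ (hT1 q ⟨x, hx, T.sub q hx, hx1⟩ x hx y hy).2
  have hfine : Fine1 T f C ε₁ := by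
    rintro q ⟨x, hx, hxC⟩ a ha b hb
    exact (hT1 q ⟨x, hx, T.sub q hx, hC.le_one_iff.2 hxC⟩ a ha b hb).2
  -- the level
  have huc : ContinuousOn (fun x => Ng z C (f x)) Om := hC.continuous.comp_continuousOn hfc
  obtain ⟨L, hLip⟩ := hC.lipschitz
  have hae := Agl8_543.ae_regLevel T huc (fun x hx hd => hT2 _ L hLip x hx hd)
  obtain ⟨r, ⟨hr1, hr2⟩, hreg⟩ : ∃ r ∈ Ioo ((2 * ρ + 1) / 3) ((ρ + 2) / 3),
      IsCompact {x | x ∈ Om ∧ Ng z C (f x) = r} →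
        RegLevel T (fun x => Ng z C (f x)) r {x | x ∈ Om ∧ Ng z C (f x) = r} := by
    by_contra hcon
    push Not at hcon
    have h1 : MeasureTheory.volume (Ioo ((2 * ρ + 1) / 3) ((ρ + 2) / 3)) = 0 := by
      refine MeasureTheory.measure_mono_null (fun r hr => ?_) hae
      intro h2
      exact (hcon r hr).2 (h2 (hcon r hr).1)
    rw [Real.volume_Ioo, ENNReal.ofReal_eq_zero] at h1
    linarith
  have hr0 : 0 < r := by linarith
  have hr1' : r ≤ 1 := by linarith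
  obtain ⟨hcpt, htriv, -, -⟩ := hC.g7 hf hCL hr0 hr1'
  have h := hreg hcpt
  -- the tiles which meet the level
  have hlevT : ∀ w ∈ {x | x ∈ Om ∧ Ng z C (f x) = r}, ∀ q, w ∈ Msh_715.P (T.H q) →
      ∀ x ∈ Msh_715.P (T.H q), ρ < Ng z C (f x) ∧ Ng z C (f x) < 1 := by
    rintro w ⟨-, hw⟩ q hwq x hx
    have h5 := abs_lt.1 (htile q w hwq (hw.le.trans hr1') x hx)
    rw [hw] at h5
    constructor <;> linarith [h5.1, h5.2]
  have hsupp : ∀ w ∈ {x | x ∈ Om ∧ Ng z C (f x) = r}, ∀ q, w ∈ Msh_715.P (T.H q) →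
      Msh_715.P (T.H q) ⊆ f ⁻¹' interior C := fun w hw q hwq x hx =>
    hC.lt_one_iff.1 (hlevT w hw q hwq x hx).2
  have hout : ∀ q, ¬ Msh_715.P (T.H q) ⊆ f ⁻¹' interior C → ∀ v ∈ Msh_715.P (T.H q),
      r ≤ Ng z C (f v) := by
    intro q hq v hv
    by_contra hcon
    push Not at hcon
    refine hq fun x hx => hC.lt_one_iff.1 ?_
    have h5 := abs_lt.1 (htile q v hv (by linarith) x hx)
    show Ng z C (f x) < 1
    linarith [h5.1]
  obtain ⟨q₀, hq₀⟩ := T.cov x₀ hx₀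
  obtain ⟨v₀, hv₀, hd₀⟩ := exists_vertex_tile hq₀
  have hN0 : Ng z C (f x₀) = 0 := by rw [hz, Ng_self]
  have htile0 : ∀ x ∈ Msh_715.P (T.H q₀), Ng z C (f x) < r := by
    intro x hx
    have h5 := abs_lt.1 (htile q₀ x₀ hq₀ (by rw [hN0]; norm_num) x hx)
    rw [hN0] at h5
    linarith [h5.1]
  -- the class
  obtain ⟨b, hb, hb1, lam, hl, hlv⟩ := exists_base1 hL hf hC.cpt hC.cvx ⟨z, hC.int⟩ hCL h huc
    (fun x hx hx' => ⟨hx, hx'⟩) hsupp hout (T.sub q₀ hv₀) hd₀ (htile0 v₀ hv₀) h3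
  -- the combinatorial sheet
  have hLam : ∀ j : Unit, ∀ e ∈ Om, T.dim e = 1 → ∀ a b', T.cc e = segment ℝ a b' →
      (fun _ : Unit => lam) j a + (fun _ : Unit => lam) j b' =
        (((gPts (s1 h h3 b) j : Set R3) ∩ T.cc e).ncard : ZMod 2) := by
    intro j e he hd a b' hab
    exact lam_of_isLab hl.lab he hd hab
  have hon := fun w (hw : w ∈ (s1 h h3 b).P) => s1_on h h3 b hw
  have hLF : LF (s1 h h3 b) := s1_LF h h3 b
  obtain ⟨g, P, c, H, hB⟩ := exists_inv_bls (C := cmb hLF hon (fun _ => lam) hLam) T.cplx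
    (fun c => (T.dim_le_finrank c.pt).trans h3.le) (k := ek hLF)
    (Lm_117.cmbG_T hLF hon (fun _ => lam) hLam (R := ∅) fun q _ hq => ek_inj hLF q hq)
    (fun τ hτ x x' hne _ => cmb_ord hLF hon (fun _ => lam) hLam τ hτ x x' hne)
  have hPS : ∀ w, w ∈ (s1 h h3 b).P → w ∈ {x | x ∈ Om ∧ Ng z C (f x) = r} := fun w hw =>
    (s1_mem h h3 b hw).1
  have hH1 := s1_H1 h h3 b htriv
  have hCo := s1_Conn h h3 b hb hb1
  obtain ⟨K, hKe, hKb, hKf, hK0, hKD, hKO⟩ := ball_of_state hBL hO hf hE hN H (hB ()) hH1 hCo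
    hC.cpt hCL hl (fun w hw => hsupp w (hPS w hw)) (q := q₀)
    (fun w hw hwq => by
      have h5 := htile0 w hwq
      have h6 := (hPS w hw).2
      linarith) hv₀ hd₀ hlv
  -- the map
  have hKb' : IsBall 3 K {z | z ∈ Om ∧ g.G () z = 1/2} := by rw [← hKf]; exact hKb
  have key : ∃ θ : PLEquiv (frontier K) Sg',
      ∀ p ∈ frontier K, dist (θ.f p) (e₀ (pj z C (f p))) ≤ ε := by
    rw [hKf]
    exact theta_s1 (h3 := h3) H T.cplx (hB ()) (mfd_cell h3) (top3_cell h3) hf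
      hC.cpt.isClosed hC.cvx hCL (interior_subset hC.int) (gau z hC) he₀m he₁m he₁ h01 h10 hr0 hr1'
      (hn2 r hr1 hr2) hfine hdel hKb' h htriv hb.1 hb.2 hb1 hl hq₀ hz hv₀ hd₀ hlv
      ((cmb_dic hLF hon (fun _ => lam) hLam ()).sh1 hH1)
      ((cmb_dic hLF hon (fun _ => lam) hLam ()).sconn hCo)
      (cmb_dic hLF hon (fun _ => lam) hLam ()) (cmb_cell hLF hon (fun _ => lam) hLam)
  obtain ⟨θ, hθ⟩ := key
  have hfr : ∀ x ∈ frontier K, ρ < Ng z C (f x) := by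
    intro x hx
    rw [hKf] at hx
    obtain ⟨q, hq⟩ := T.cov x hx.1
    obtain ⟨w, hw, hwq⟩ := exists_pt_of_half H hx.2 hq
    exact (hlevT w (hPS w hw) q hwq x hq).1
  have hx₀K : x₀ ∈ interior K := hK0 hq₀
  refine ⟨K, θ, fun x => 1/2 - g.G () x, hKb, hKO, hx₀K, fun x hx => ?_, hfr, ?_,
    fun x hx => ?_, ?_, fun x hx => ?_, fun x hx => ?_⟩
  · obtain ⟨q, hq⟩ := T.cov x (hKO hx)
    exact hC.lt_one_iff.2 (hKD x hx q hq hq)
  · have h5 := (hC.g7' hf hCL hρ1.le).2.1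
    have h6 : {x | x ∈ Om ∧ Ng z C (f x) ≤ ρ} ⊆ interior K := by
      refine sub_interior h5 ⟨x₀, ⟨hx₀, by rw [hN0]; exact hρ.le⟩, hx₀K⟩ ?_
      rw [disjoint_left]
      exact fun x hx hx' => absurd (hfr x hx') (not_lt.2 hx.2)
    exact fun x hx hx' => h6 ⟨hx, hx'⟩
  · rw [← dist_eq_norm]; exact hθ x hx
  · have h5 := plOn_G H hKb.isCompact hKO
    exact (pl_sub (plOn_const (1/2) K) h5)
  · have h5 : x ∈ {z | z ∈ Om ∧ 1/2 ≤ g.G () z} := hKe ▸ hx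
    have := h5.2
    show 1/2 - g.G () x ≤ 0
    linarith
  · rw [hKf]
    constructor
    · intro h5
      have h6 : 1/2 - g.G () x = 0 := h5
      exact ⟨hKO hx, by linarith⟩
    · rintro ⟨-, h5⟩
      show 1/2 - g.G () x = 0
      rw [h5]; norm_num

/-- **SPHERE** -/
theorem sphere_of (hBL : BallLvl R3) (hE : Gp_702.ExistStmt) (hN : Gp_702.NormStmt) (hp : 1 ≤ p)
    (hO : IsOpen Om) (hL : IsOpen La) (hS : Sk_962.SH p Om La f G) {C : Set R3} {z x₀ : R3}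
    (hC : Bod z C) (hCL : C ⊆ La) (hx₀ : x₀ ∈ Om) (hz : f x₀ = z)
    {F : Type*} [NormedAddCommGroup F] [NormedSpace ℝ F] {K' Sg' : Set F} (hK' : IsBall 3 K' Sg')
    {e₀ : R3 → F} {e₁ : F → R3} (he₀ : ContinuousOn e₀ (frontier C))
    (he₀m : MapsTo e₀ (frontier C) Sg') (he₁ : ContinuousOn e₁ Sg')
    (he₁m : MapsTo e₁ Sg' (frontier C)) (h01 : ∀ y ∈ Sg', e₀ (e₁ y) = y)
    (h10 : ∀ y ∈ frontier C, e₁ (e₀ y) = y) {ρ₁ ρ₂ ε : ℝ} (hρ₁ : 0 < ρ₁) (hρ : ρ₁ < ρ₂)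
    (hρ₂ : ρ₂ ≤ 1) (hε : 0 < ε) :
    ∃ (K : Set R3) (θ : PLEquiv (frontier K) Sg') (φ : R3 → ℝ), IsBall 3 K (frontier K) ∧
      K ⊆ Om ∧ x₀ ∈ interior K ∧ (∀ x ∈ K, Ng z C (f x) < ρ₂) ∧
      (∀ x ∈ frontier K, ρ₁ < Ng z C (f x)) ∧
      (∀ x ∈ Om, Ng z C (f x) ≤ ρ₁ → x ∈ interior K) ∧
      (∀ x ∈ frontier K, ‖θ.f x - e₀ (pj z C (f x))‖ ≤ ε) ∧
      PLOn φ K ∧ (∀ x ∈ K, φ x ≤ 0) ∧ (∀ x ∈ K, φ x = 0 ↔ x ∈ frontier K) := by
  have h2 : 0 < ρ₂ := hρ₁.trans hρ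
  have hD := bod_le hC h2
  have hfr := hC.frontier_le h2
  have hne : ∀ w ∈ frontier {y | Ng z C y ≤ ρ₂}, w ≠ z := by
    intro w hw hwz
    rw [hfr] at hw
    have h5 : Ng z C w = ρ₂ := hw
    rw [hwz, Ng_self] at h5
    exact h2.ne h5
  obtain ⟨K, θ, φ, a1, a2, a3, a4, a5, a6, a7, a8, a9, a10⟩ := sphere1 hBL hE hN hp hO hL hS hD
    ((hC.le_sub hρ₂).trans hCL) hx₀ hz hK' (e₀ := fun w => e₀ (pj z C w))
    (e₁ := fun y => z + ρ₂ • (e₁ y - z)) (he₀.comp (hC.continuousOn_pj.mono fun w hw => hne w hw)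
      fun w hw => hC.pj_mem (hne w hw)) (fun w hw => he₀m (hC.pj_mem (hne w hw)))
    (continuousOn_const.add ((he₁.sub continuousOn_const).const_smul ρ₂))
    (fun y hy => by
      rw [hfr]
      show Ng z C (z + ρ₂ • (e₁ y - z)) = ρ₂
      rw [Ng_ray z C h2.le, hC.eq_one_iff.2 (he₁m hy), mul_one])
    (fun y hy => by
      show e₀ (pj z C (z + ρ₂ • (e₁ y - z))) = y
      rw [hC.pj_ray (he₁m hy) h2, h01 y hy])
    (fun w hw => by
      show z + ρ₂ • (e₁ (e₀ (pj z C w)) - z) = w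
      rw [h10 _ (hC.pj_mem (hne w hw))]
      rw [hfr] at hw
      exact (hC.eq_ray h2 hw).symm)
    (ρ := ρ₁ / ρ₂) (div_pos hρ₁ h2) ((div_lt_one h2).2 hρ) hε
  refine ⟨K, θ, φ, a1, a2, a3, fun x hx => ?_, fun x hx => ?_, fun x hx hx' => ?_,
    fun x hx => ?_, a8, a9, a10⟩
  · have h5 := a4 x hx
    rwa [Ng_le hC h2, div_lt_one h2] at h5
  · have h5 := a5 x hx
    rwa [Ng_le hC h2, div_lt_div_iff_of_pos_right h2] at h5
  · exact a6 x hx (by rw [Ng_le hC h2]; exact (div_le_div_iff_of_pos_right h2).2 hx')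
  · have h5 := a7 x hx
    have h6 : f x ≠ z := hC.pos.1 (hρ₁.trans (by
      have h7 := a5 x hx
      rwa [Ng_le hC h2, div_lt_div_iff_of_pos_right h2] at h7))
    rwa [pj_le hC h2 h6] at h5

end final

end Crest.Agent.R096.Spp_333
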