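import Crest.Agent.R096.Pb1_812
import Crest.Agent.R096.Sphs2_4
import Crest.Agent.R096.GpZ_702
import Crest.Agent.R096.Sps7_333

/-!
# R096 (row 96), SPHERE (helper333), part s8: the side of a PL sphere given by a level function is
a ball (`BallLvl`), `sphere` without hypotheses
-/

set_option autoImplicit false

open Set Metric Filter Topology

namespace Crest.Agent.R096.Spp_333

open Crest.Agent.R096.Ce_537 Crest.Agent.R096.Pl Crest.Agent.R096.Gp_702

section std

variable {E : Type} [NormedAddCommGroup E] [NormedSpace ℝ E] [FiniteDimensional ℝ E]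

/-- a PL 2-sphere of a 3-dimensional space is standard -/
theorem exists_std (hE : ExistStmt) (hN : NormStmt) (h3 : Module.finrank ℝ E = 3) {S : Set E}
    (φ : PLEquiv (sph 3) S) :
    ∃ H : (Fin 3 → ℝ) ≃ₜ E, IsBall 3 (H '' closedBall 0 1) S ∧ H '' sphere 0 1 = S := by
  have L : E ≃L[ℝ] (Fin 3 → ℝ) := ContinuousLinearEquiv.ofFinrankEq (by simp [h3])
  have hst := Pb_812.stdC_of_sphere hE hN (φ.trans (Shp_334.linEquiv L S))
  obtain ⟨A, H, -, -, hH, hHA, hHS, -⟩ := StdC.fin3' hst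
  have hS : (H.trans L.symm.toHomeomorph) '' sphere 0 1 = S := by
    have h5 : (H.trans L.symm.toHomeomorph) '' sphere 0 1 = L.symm '' (H '' sphere 0 1) := by
      rw [image_image]; rfl
    rw [h5, hHS, image_image]
    simp
  refine ⟨H.trans L.symm.toHomeomorph, ?_, hS⟩
  have h1 := (isBall_cube 3).plh hH
  have h2 := h1.image_injOn (f := L.symm)
    (Bd_416.pl_clm (plOn_id _) (L.symm : (Fin 3 → ℝ) →L[ℝ] E)) L.symm.injective.injOn
  rw [← image_comp, ← image_comp] at h2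
  have h5 : IsBall 3 ((H.trans L.symm.toHomeomorph) '' closedBall 0 1)
      ((H.trans L.symm.toHomeomorph) '' sphere 0 1) := h2
  rwa [hS] at h5

end std

/-- the outside of the unit ball is connected -/
theorem preconn_out : IsPreconnected ((closedBall (0 : Fin 3 → ℝ) 1)ᶜ) := by
  have h1 : 1 < Module.rank ℝ (Fin 3 → ℝ) := by
    rw [rank_fin_fun]; norm_num
  have h2 := ((isConnected_sphere h1 0 zero_le_one).isPreconnected.prod
    (isPreconnected_Ioi (a := (1 : ℝ)))).image (fun p : (Fin 3 → ℝ) × ℝ => p.2 • p.1)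
    (by fun_prop)
  convert h2 using 1
  ext x
  rw [mem_compl_iff, mem_closedBall, dist_zero_right, not_le]
  constructor
  · intro hx
    have h0 : ‖x‖ ≠ 0 := by positivity
    refine ⟨(‖x‖⁻¹ • x, ‖x‖), ⟨?_, hx⟩, ?_⟩
    · show ‖x‖⁻¹ • x ∈ sphere (0 : Fin 3 → ℝ) 1
      rw [mem_sphere, dist_zero_right, norm_smul, norm_inv, norm_norm, inv_mul_cancel₀ h0]
    · show ‖x‖ • ‖x‖⁻¹ • x = x
      rw [smul_smul, mul_inv_cancel₀ h0, one_smul]
  · rintro ⟨⟨s, t⟩, ⟨hs, ht⟩, rfl⟩
    have hs' : ‖s‖ = 1 := by simpa using hs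
    have ht' : 1 < t := ht
    show 1 < ‖t • s‖
    rw [norm_smul, hs', mul_one, Real.norm_eq_abs, abs_of_pos (by linarith)]
    exact ht'

/-- **(B)**: the side of a PL sphere given by a level function is a ball -/
theorem ballLvl_of (hE : ExistStmt) (hN : NormStmt) {E : Type} [NormedAddCommGroup E]
    [NormedSpace ℝ E] [FiniteDimensional ℝ E] (h3 : Module.finrank ℝ E = 3) :
    Sphs_4.BallLvl E := by
  intro Om hOm G hG B hB hBO h0 ⟨φ⟩ ⟨x₀, hx₀, hGx₀⟩
  obtain ⟨H, hK, hS⟩ := exists_std hE hN h3 φ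
  set S : Set E := {z | z ∈ Om ∧ G z = 1/2} with hSdef
  set K : Set E := H '' closedBall 0 1 with hKdef
  have hKi : interior K = H '' ball 0 1 := by
    rw [hKdef, ← H.image_interior, interior_closedBall _ one_ne_zero]
  have hKf : frontier K = S := by
    rw [hKdef, ← H.image_frontier, frontier_closedBall _ one_ne_zero, hS]
  have hKc : IsCompact K := (isCompact_closedBall (0 : Fin 3 → ℝ) 1).image H.continuous
  -- the two open sets
  have hU : IsOpen {z | z ∈ Om ∧ 1/2 < G z} := by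
    have h5 := hG.isOpen_inter_preimage hOm (isOpen_Ioi (a := (1/2 : ℝ)))
    exact h5
  have hV : IsOpen ({z | z ∈ Om ∧ G z < 1/2} ∪ Bᶜ) := by
    refine IsOpen.union ?_ hB.isClosed.isOpen_compl
    exact hG.isOpen_inter_preimage hOm (isOpen_Iio (a := (1/2 : ℝ)))
  set U : Set E := {z | z ∈ Om ∧ 1/2 < G z} with hUdef
  set V : Set E := {z | z ∈ Om ∧ G z < 1/2} ∪ Bᶜ with hVdef
  have hUB : U ⊆ B := by
    rintro z ⟨hz, hz'⟩
    by_contra hzB
    rw [h0 z hz hzB] at hz'
    norm_num at hz'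
  have hUV : Disjoint U V := by
    rw [disjoint_left]
    rintro z hz (hz' | hz')
    · exact absurd hz.2 (not_lt.2 hz'.2.le)
    · exact hz' (hUB hz)
  have hcov : ∀ z, z ∉ S → z ∈ U ∪ V := by
    intro z hz
    by_cases hzB : z ∈ B
    · rcases lt_trichotomy (G z) (1/2) with h | h | h
      · exact Or.inr (Or.inl ⟨hBO hzB, h⟩)
      · exact absurd ⟨hBO hzB, h⟩ hz
      · exact Or.inl ⟨hBO hzB, h⟩
    · exact Or.inr (Or.inr hzB)
  -- the outside
  have hout : Kᶜ ⊆ V := by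
    have h5 : IsPreconnected Kᶜ := by
      rw [hKdef, ← image_compl_eq H.bijective]
      exact preconn_out.image _ H.continuous.continuousOn
    have h9 : Kᶜ ⊆ U ∪ V := fun z hz => hcov z fun hzS => by
      rw [← hKf] at hzS
      exact hz (hKc.isClosed.frontier_subset hzS)
    rcases h5.subset_or_subset hU hV hUV h9 with h6 | h6
    · exfalso
      have h7 : (univ : Set E) ⊆ K ∪ B := by
        intro z _
        by_cases hz : z ∈ K
        · exact Or.inl hz
        · exact Or.inr (hUB (h6 hz))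
      have : Nontrivial E := Module.nontrivial_of_finrank_pos (R := ℝ) (by omega)
      have h8 : IsCompact (univ : Set E) := (hKc.union hB).of_isClosed_subset isClosed_univ h7
      have : NoncompactSpace E := NormedSpace.noncompactSpace ℝ E
      exact noncompact_univ E h8
    · exact h6
  have hin : interior K ⊆ U := by
    have h5 : IsPreconnected (interior K) := by
      rw [hKi]
      exact (convex_ball (0 : Fin 3 → ℝ) 1).isPreconnected.image _ H.continuous.continuousOn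
    refine h5.subset_left_of_subset_union hU hV hUV (fun z hz => hcov z (fun hzS => ?_)) ?_
    · rw [← hKf] at hzS
      exact hzS.2 hz
    · refine ⟨x₀, ?_, hx₀, hGx₀⟩
      by_contra hcon
      by_cases hxK : x₀ ∈ K
      · have h6 : x₀ ∈ frontier K := ⟨subset_closure hxK, hcon⟩
        rw [hKf] at h6
        rw [h6.2] at hGx₀
        exact lt_irrefl _ hGx₀
      · exact disjoint_left.1 hUV ⟨hx₀, hGx₀⟩ (hout hxK)
  have hUi : U = interior K := by
    refine Subset.antisymm (fun z hz => ?_) hin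
    by_contra hcon
    by_cases hzK : z ∈ K
    · have h6 : z ∈ frontier K := ⟨subset_closure hzK, hcon⟩
      rw [hKf] at h6
      have h7 := hz.2
      rw [h6.2] at h7
      exact lt_irrefl _ h7
    · exact disjoint_left.1 hUV hz (hout hzK)
  have hKe : {z | z ∈ Om ∧ 1/2 ≤ G z} = K := by
    ext z
    constructor
    · rintro ⟨h5, h6⟩
      rcases lt_or_eq_of_le h6 with h7 | h7
      · exact interior_subset (hUi ▸ (⟨h5, h7⟩ : z ∈ U))
      · have h8 : z ∈ S := ⟨h5, h7.symm⟩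
        rw [← hKf] at h8
        exact hKc.isClosed.frontier_subset h8
    · intro hz
      by_cases h5 : z ∈ interior K
      · rw [← hUi] at h5
        exact ⟨h5.1, h5.2.le⟩
      · have h6 : z ∈ frontier K := ⟨subset_closure hz, h5⟩
        rw [hKf] at h6
        exact ⟨h6.1, h6.2.ge⟩
  rw [hKe]
  exact ⟨hK, hKf, hUi.symm⟩


/-- **(B) in `R3`, no hypotheses** -/
theorem ballLvl : Sphs_4.BallLvl Crest.AnalysisR.VecCalc3.R3 :=
  ballLvl_of existStmt normStmt Sphg_316.finrank_R3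

section final

open Crest.AnalysisR.VecCalc3 Crest.Agent.R096.Sphg_316

variable {f : R3 → R3} {Om La : Set R3} {G : Fin 3 → R3 → R3} {p : ℝ}

/-- **SPHERE**, no hypotheses -/
theorem sphere (hp : 1 ≤ p)
    (hO : IsOpen Om) (hL : IsOpen La) (hS : Sk_962.SH p Om La f G) {C : Set R3} {z x₀ : R3}
    (hC : Bod z C) (hCL : C ⊆ La) (hx₀ : x₀ ∈ Om) (hz : f x₀ = z)
    {F : Type*} [NormedAddCommGroup F] [NormedSpace ℝ F] {K' Sg' : Set F} (hK' : IsBall 3 K' Sg')
    {e₀ : R3 → F} {e₁ : F → R3} (he₀ : ContinuousOn e₀ (frontier C))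
    (he₀m : MapsTo e₀ (frontier C) Sg') (he₁ : ContinuousOn e₁ Sg')
    (he₁m : MapsTo e₁ Sg' (frontier C)) (h01 : ∀ y ∈ Sg', e₀ (e₁ y) = y)
    (h10 : ∀ y ∈ frontier C, e₁ (e₀ y) = y) {ρ₁ ρ₂ ε : ℝ} (hρ₁ : 0 < ρ₁) (hρ : ρ₁ < ρ₂)
    (hρ₂ : ρ₂ ≤ 1) (hε : 0 < ε) :
    ∃ (K : Set R3) (θ : PLEquiv (frontier K) Sg') (φ : R3 → ℝ), IsBall 3 K (frontier K) ∧
      K ⊆ Om ∧ x₀ ∈ interior K ∧ (∀ x ∈ K, Ng z C (f x) < ρ₂) ∧
      (∀ x ∈ frontier K, ρ₁ < Ng z C (f x)) ∧
      (∀ x ∈ Om, Ng z C (f x) ≤ ρ₁ → x ∈ interior K) ∧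
      (∀ x ∈ frontier K, ‖θ.f x - e₀ (pj z C (f x))‖ ≤ ε) ∧
      PLOn φ K ∧ (∀ x ∈ K, φ x ≤ 0) ∧ (∀ x ∈ K, φ x = 0 ↔ x ∈ frontier K) :=
  sphere_of ballLvl existStmt normStmt hp hO hL hS hC hCL hx₀ hz hK' he₀ he₀m he₁ he₁m h01 h10
    hρ₁ hρ hρ₂ hε

end final

end Crest.Agent.R096.Spp_333
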