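import Crest.Agent.R096.Sphs8_4
import Crest.Agent.R096.Sps8_333

/-! # Row 96, SPHERE (helper4), part 9: **THE THEOREM IN THE FORM OF 539 #10454**: `φ` PL on the whole
space, ONE PL map `Θ` on the collar `{-1/4 ≤ φ ≤ 1/4}`, all levels; no hypotheses left. -/

set_option autoImplicit false

open Set Filter Topology Metric Module NNReal MeasureTheory

namespace Crest.Agent.R096.Sphs_4

open Crest.Agent.R096.Msh_715 Crest.Agent.R096.Agl4_543 Crest.Agent.R096.Agl5_543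
  Crest.Agent.R096.Coh_184 Crest.Agent.R096.Main_4 Crest.Agent.R096.Ginv_543
  Crest.Agent.R096.Lab_184 Crest.Agent.R096.Seq_213 Crest.Agent.R096.Cm_117
  Crest.Agent.R096.Bd_416 Crest.Agent.R096.Shp_334 Crest.Agent.R096.Ce_537
  Crest.Agent.R096.Spp_333 Crest.Agent.R096.Sphf_316 Crest.Agent.R096.Sphg_316
  Crest.AnalysisR.VecCalc3 Crest.AnalysisR.Sobolev

open scoped Classical

/-- the data of one `φ`: all levels `a ≤ t ≤ b` are spheres carrying the map `Θ` -/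
structure SphFull (Om : Set R3) (f : R3 → R3) (C : Set R3) (z : R3) (ρ₁ ρ₂ ε : ℝ)
    {F : Type*} [NormedAddCommGroup F] [NormedSpace ℝ F] (Sg' : Set F) (e₀ : R3 → F)
    (φ : R3 → ℝ) (a b : ℝ) (Θ : R3 → F) : Prop where
  ab : a < b
  pl : PLOn φ univ
  plT : PLOn Θ {x | a ≤ φ x ∧ φ x ≤ b}
  lt : ∀ x, φ x ≤ b → x ∈ Om ∧ Ng z C (f x) < ρ₂
  inn : ∀ x ∈ Om, Ng z C (f x) ≤ ρ₁ → φ x < a
  near : ∀ x, a ≤ φ x → φ x ≤ b → ‖Θ x - e₀ (pj z C (f x))‖ ≤ ε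
  ball : ∀ t ∈ Icc a b, IsBall 3 {x | φ x ≤ t} {x | φ x = t}
  fr : ∀ t ∈ Icc a b, frontier {x | φ x ≤ t} = {x | φ x = t}
  bij : ∀ t ∈ Icc a b, ∃ θ : PLEquiv {x | φ x = t} Sg', EqOn θ.f Θ {x | φ x = t}

/-- **SPHERE IN FULL** -/
theorem sphere_full {p : ℝ} (hp : 1 ≤ p) {Om La : Set R3} {f : R3 → R3} {G : Fin 3 → R3 → R3}
    (hO : IsOpen Om) (hLa : IsOpen La) (hS : Sk_962.SH p Om La f G)
    {C : Set R3} {z x₀ : R3} (hC : Bod z C) (hCL : C ⊆ La) (hx₀ : x₀ ∈ Om) (hz : f x₀ = z)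
    {F : Type*} [NormedAddCommGroup F] [NormedSpace ℝ F] {K' Sg' : Set F}
    (hK' : IsBall 3 K' Sg') {e₀ : R3 → F} {e₁ : F → R3} (he₀ : ContinuousOn e₀ (frontier C))
    (he₀m : MapsTo e₀ (frontier C) Sg') (he₁ : ContinuousOn e₁ Sg')
    (he₁m : MapsTo e₁ Sg' (frontier C)) (h01 : ∀ y ∈ Sg', e₀ (e₁ y) = y)
    (h10 : ∀ y ∈ frontier C, e₁ (e₀ y) = y)
    {ρ₁ ρ₂ ε : ℝ} (hρ₁ : 0 < ρ₁) (hρ : ρ₁ < ρ₂) (hρ₂ : ρ₂ ≤ 1) (hε : 0 < ε) :
    ∃ (φ : R3 → ℝ) (a b : ℝ) (Θ : R3 → F), SphFull Om f C z ρ₁ ρ₂ ε Sg' e₀ φ a b Θ := by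
  have hBL : BallLvl R3 := Spp_333.ballLvl
  have hE : Gp_702.ExistStmt := Gp_702.existStmt
  have hN : Gp_702.NormStmt := Gp_702.normStmt
  have hf := hS.homeo
  obtain ⟨gi, Hm⟩ := Init_543.exists_hm hf
  obtain ⟨δ₁, hδ₁, hdel₁⟩ := exists_del R3 hK' (half_pos hε)
  set δ₀ : ℝ := min δ₁ (ε / 4) with hδ₀'
  have hδ₀ : 0 < δ₀ := by positivity
  have hdel : Del R3 Sg' (ε / 2) δ₀ := del_mono hdel₁ (min_le_left _ _)
  obtain ⟨ε₁, hε₁, hnear⟩ := exists_near hC he₀ hρ₁ hδ₀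
  obtain ⟨L, hL⟩ := hC.lipschitz
  have hL0 : (0:ℝ) ≤ L := L.2
  have hd : 0 < ρ₂ - ρ₁ := sub_pos.2 hρ
  set ε₂ : ℝ := min ε₁ ((ρ₂ - ρ₁) / (12 * (L + 1))) with hε₂
  have hε₂0 : 0 < ε₂ := by positivity
  have hLε : (L:ℝ) * ε₂ ≤ (ρ₂ - ρ₁) / 12 := by
    have h1 : (L:ℝ) * ε₂ ≤ L * ((ρ₂ - ρ₁) / (12 * (L + 1))) :=
      mul_le_mul_of_nonneg_left (min_le_right _ _) hL0
    have h2 : (L:ℝ) * ((ρ₂ - ρ₁) / (12 * (L + 1))) = (ρ₂ - ρ₁) / 12 * (L / (L + 1)) := by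
      field_simp
    have h3 : (ρ₂ - ρ₁) / 12 * ((L:ℝ) / (L + 1)) ≤ (ρ₂ - ρ₁) / 12 := by
      refine mul_le_of_le_one_right (by positivity) ?_
      rw [div_le_one (by positivity)]; linarith
    linarith
  obtain ⟨ι, T, hfine, hfin⟩ := Sphm_976.exists_mesh1 hp hO hS
    (K := {x | x ∈ Om ∧ Ng z C (f x) ≤ 1}) (hC.isCompact_levle Hm hCL le_rfl)
    (fun x hx => hx.1) hε₂0
  have hM1 : FMesh T f {x | x ∈ Om ∧ Ng z C (f x) ≤ 1} ε₂ := ⟨hfine, hfin⟩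
  have hM : FMesh T f {x | x ∈ Om ∧ Ng z C (f x) ≤ ρ₂} ε₂ :=
    ⟨fun q hq => hfine q (hq.mono (inter_subset_inter_right _ fun x hx => ⟨hx.1, hx.2.trans hρ₂⟩)),
      hfin⟩
  obtain ⟨t, ht, h, htriv, -, hsupp, b, hb, hb1, lam, hlam, hin⟩ := front hLa hf hC hCL hx₀ hz
    (r0 := (ρ₁ + ρ₂) / 2) (r1 := ρ₂) (by linarith) (by linarith) hρ₂ hL hε₂0.le (by linarith) hM
    finrank_R3
  have ht0 : 0 < t := by have := ht.1; linarith
  have ht1 : t ≤ 1 := by have := ht.2; linarith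
  have hsS : ∀ w ∈ (s1 h finrank_R3 b).P, w ∈ {x | x ∈ Om ∧ Ng z C (f x) = t} := fun w hw =>
    (s1_mem h finrank_R3 b hw).1
  have hLam : ∀ j : Unit, ∀ e ∈ Om, T.dim e = 1 → ∀ a b', T.cc e = segment ℝ a b' →
      (fun _ : Unit => lam) j a + (fun _ : Unit => lam) j b' =
        (((gPts (s1 h finrank_R3 b) j : Set R3) ∩ T.cc e).ncard : ZMod 2) :=
    fun j e he hd a b' hab => lam_of_isLab hlam.lab he hd hab
  obtain ⟨g, P, c, H, hB⟩ := exists_state (s1_LF h finrank_R3 b)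
    (fun w hw => s1_on h finrank_R3 b hw) (fun _ => lam) hLam
  -- the core tile
  obtain ⟨q₀, hq₀⟩ := T.cov x₀ hx₀
  obtain ⟨v₀, hv₀, hd₀⟩ := exists_vertex_tile hq₀
  have hux₀ : Ng z C (f x₀) = 0 := by rw [hz, Ng_self]
  have h0 : lam v₀ = 1 := hin v₀ (mem_VM hq₀ (show x₀ ∈ {x | x ∈ Om ∧ Ng z C (f x) < (ρ₁ + ρ₂) / 2}
    from ⟨hx₀, by show Ng z C (f x₀) < _; rw [hux₀]; linarith⟩) hv₀ hd₀)
  have hqe : ∀ w ∈ (s1 h finrank_R3 b).P, w ∉ Msh_715.P (T.H q₀) := by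
    intro w hw hwq
    have h1 := osc_u hL hM (q := q₀) ⟨x₀, hq₀, hx₀, by
      show Ng z C (f x₀) ≤ ρ₂; rw [hux₀]; linarith⟩ hq₀ hwq
    rw [hux₀, (hsS w hw).2] at h1
    have := ht.1
    linarith
  have hballs := balls_of_state hBL hO hf hE hN H
    (hB ()) (s1_H1 h finrank_R3 b htriv) (s1_Conn h finrank_R3 b hb hb1)
    (D := {y | Ng z C y ≤ ρ₂}) (hC.isCompact_le ρ₂) ((hC.le_sub hρ₂).trans hCL) hlam
    (fun w hw q hq => hsupp w (hsS w hw) q hq) hqe hv₀ hd₀ h0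
  have hint : interior {y | Ng z C y ≤ ρ₂} = {y | Ng z C y < ρ₂} := hC.interior_le (hρ₁.trans hρ)
  have hcK : IsCompact {x | x ∈ Om ∧ Ng z C (f x) ≤ ρ₂} := hC.isCompact_levle Hm hCL hρ₂
  -- θ at the middle level
  obtain ⟨K0, k1, k2, k3, -⟩ := hballs (1/2) ⟨by norm_num, by norm_num⟩
  obtain ⟨θ₀, hθ₀⟩ := theta_s1 (h3 := finrank_R3) H T.cplx (hB ()) (mfd_cell finrank_R3)
    (top3_cell finrank_R3) hf hC.cpt.isClosed hC.cvx hCL (interior_subset hC.int) (gau hC)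
    (Sg := Sg') (e₀ := e₀) (e₁ := e₁) he₀m he₁m he₁ h01 h10 (r := t) (ε₁ := ε₁) (ε := ε / 2)
    (δ := δ₀) ht0 ht1
    (hnear t (by have := ht.1; linarith) ht1)
    (by
      rintro q ⟨x, hx, hxC⟩ y hy y' hy'
      have h1 := (hM1.fine q ⟨x, hx, T.sub q hx, hC.le_one_iff.2 hxC⟩ y hy y' hy').2
      exact h1.trans (min_le_left _ _))
    hdel (Kb := K0) (by rw [← k3]; exact k2) h htriv hb.1 hb.2 hb1
    (FarLab.mono hlam (hC.le_sub hρ₂)) hq₀ hz hv₀ hd₀ h0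
    ((cmb_dic _ _ _ hLam ()).sh1 (s1_H1 h finrank_R3 b htriv))
    ((cmb_dic _ _ _ hLam ()).sconn (s1_Conn h finrank_R3 b hb hb1))
    (cmb_dic _ _ _ hLam ()) (cmb_cell _ _ _ hLam)
  -- values off the tiles of the pattern
  have hfar : ∀ x ∈ Om, g.G () x ≠ 0 → Ng z C (f x) < ρ₂ := by
    intro x hx hG
    obtain ⟨i, hi⟩ := T.cov x hx
    by_contra hcon
    refine hG (G_far H hlam (fun w hw q hq => hsupp w (hsS w hw) q hq) (q := i) ?_ hi)
    intro h4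
    have h5 := h4 hi
    rw [mem_preimage, hint] at h5
    exact hcon h5
  set φ : R3 → ℝ := fun x => if x ∈ Om then 1/2 - g.G () x else 1/2 with hφdef
  have hφO : ∀ x ∈ Om, φ x = 1/2 - g.G () x := fun x hx => if_pos hx
  have hφN : ∀ x, x ∉ Om → φ x = 1/2 := fun x hx => if_neg hx
  have hφm : ∀ x, φ x < 1/2 → x ∈ Om := fun x hx => by
    by_contra hcon
    rw [hφN x hcon] at hx
    exact lt_irrefl _ hx
  have hsle : ∀ t < (1/2 : ℝ), {x | φ x ≤ t} = {x | x ∈ Om ∧ 1/2 - t ≤ g.G () x} := by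
    intro t ht
    ext x
    constructor
    · intro hx
      have hx' : φ x ≤ t := hx
      have hxO := hφm x (by linarith)
      rw [hφO x hxO] at hx'
      exact ⟨hxO, by linarith⟩
    · rintro ⟨hxO, hx⟩
      show φ x ≤ t
      rw [hφO x hxO]; linarith
  have hseq : ∀ t < (1/2 : ℝ), {x | φ x = t} = {x | x ∈ Om ∧ g.G () x = 1/2 - t} := by
    intro t ht
    ext x
    constructor
    · intro hx
      have hx' : φ x = t := hx
      have hxO := hφm x (by linarith)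
      rw [hφO x hxO] at hx'
      exact ⟨hxO, by linarith⟩
    · rintro ⟨hxO, hx⟩
      show φ x = t
      rw [hφO x hxO]; linarith
  have hfT := T.finite_tiles hcK (fun x hx => hx.1)
  have hsc : ∀ x ∈ Om, g.G () x ∈ Ioo (0:ℝ) 1 → ∃ q ∈ tcell T '' {i | (Msh_715.P (T.H i) ∩
      {x | x ∈ Om ∧ Ng z C (f x) ≤ ρ₂}).Nonempty}, x ∈ q.set := by
    intro x hx hG
    obtain ⟨i, hi⟩ := T.cov x hx
    exact ⟨tcell T i, ⟨i, ⟨x, hi, hx, (hfar x hx hG.1.ne').le⟩, rfl⟩, by rw [tcell_set]; exact hi⟩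
  have hlev : ∀ t ∈ Icc (-1/4 : ℝ) (1/4), 1/2 - t ∈ Ioo (0:ℝ) 1 := fun t ht =>
    ⟨by have := ht.2; linarith, by have := ht.1; linarith⟩
  have hcol : ∀ x, (-1/4 : ℝ) ≤ φ x → φ x ≤ 1/4 → x ∈ Om ∧ g.G () x ∈ Ioo (0:ℝ) 1 := by
    intro x h5 h6
    have hxO := hφm x (by linarith)
    rw [hφO x hxO] at h5 h6
    exact ⟨hxO, by linarith, by linarith⟩
  refine ⟨φ, -1/4, 1/4, fun x => θ₀.f (trl g () (1/2) x), ⟨by norm_num, ?_, ?_, ?_, ?_, ?_, ?_, ?_,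
    ?_⟩⟩
  · -- PL on the whole space
    have h5 := plOn_G H hcK (fun x hx => hx.1)
    have h6 : PLOn (fun t : ℝ => 1/2 - t) univ := by
      have := plOn_affine (AffineMap.const ℝ ℝ (1/2 : ℝ) - AffineMap.id ℝ ℝ) (univ : Set ℝ)
      exact this
    have h7 : PLOn φ {x | x ∈ Om ∧ Ng z C (f x) ≤ ρ₂} :=
      (h6.comp h5 (fun _ _ => mem_univ _)).congr fun x hx => hφO x hx.1
    have h8 : PLOn φ (closure {x | x ∈ Om ∧ Ng z C (f x) ≤ ρ₂}ᶜ) := by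
      refine (plOn_const (1/2 : ℝ) _).congr fun x hx => ?_
      by_cases hxO : x ∈ Om
      · rw [hφO x hxO]
        by_contra hcon
        have hG : g.G () x ≠ 0 := fun h9 => hcon (by rw [h9, sub_zero])
        have h9 := hfar x hxO hG
        have hc : ContinuousAt (fun x => Ng z C (f x)) x :=
          (continuousOn_u hf hC).continuousAt (hO.mem_nhds hxO)
        have h10 : {x | x ∈ Om ∧ Ng z C (f x) ≤ ρ₂} ∈ 𝓝 x := by
          filter_upwards [hO.mem_nhds hxO, hc.eventually_lt_const h9] with y hy hy'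
          exact ⟨hy, hy'.le⟩
        rw [closure_compl] at hx
        exact hx (mem_interior_iff_mem_nhds.2 h10)
      · exact hφN x hxO
    refine (h7.union h8 hcK.isClosed isClosed_closure).mono fun x _ => ?_
    by_cases h9 : x ∈ {x | x ∈ Om ∧ Ng z C (f x) ≤ ρ₂}
    · exact Or.inl h9
    · exact Or.inr (subset_closure h9)
  · -- the map on the collar
    have h5 := plOn_trl_mid H (j := ()) (Om := Om) (t := 1/2) ⟨by norm_num, by norm_num⟩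
      (hfT.image (tcell T)) hsc
    refine θ₀.pf.comp (h5.mono fun x hx => hcol x hx.1 hx.2) fun x hx => ?_
    obtain ⟨hxO, hG⟩ := hcol x hx.1 hx.2
    obtain ⟨i, hi⟩ := T.cov x hxO
    have hi' : x ∈ (tcell T i).set := by rw [tcell_set]; exact hi
    have hBx := mem_B_lev H (q := tcell T i) hi' hG rfl
    have hm := trl_mem H (q := tcell T i) (t := 1/2) hi' hBx ⟨by norm_num, by norm_num⟩
    exact ⟨T.cplx.sub _ hm, trl_G H (q := tcell T i) hi' hBx ⟨by norm_num, by norm_num⟩⟩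
  · intro x hx
    have hxO := hφm x (by linarith)
    refine ⟨hxO, hfar x hxO fun h5 => ?_⟩
    rw [hφO x hxO, h5] at hx
    linarith
  · -- inner part
    intro x hx hxr
    obtain ⟨K, k1, k2, k3, k4, k5, k6, k7, k8, k9, -⟩ := hballs (1/2 - (-1/4)) (hlev _
      ⟨le_rfl, by norm_num⟩)
    have h5 : x ∈ interior K := by
      refine k9 {x | x ∈ Om ∧ Ng z C (f x) ≤ ρ₁} (hC.preconn_levle Hm hCL (by linarith))
        (fun y hy hyf => ?_) ⟨x₀, ⟨hx₀, by show Ng z C (f x₀) ≤ ρ₁; rw [hux₀]; exact hρ₁.le⟩, hq₀⟩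
        ⟨hx, hxr⟩
      have hyO : y ∈ Om := hy.1
      obtain ⟨i, hi⟩ := T.cov y hyO
      obtain ⟨w, hw, hwi⟩ := k8 y hyf i hi
      have h1 := osc_u hL hM (q := i) (x := y) (y := w) ⟨w, hwi, (hsS w hw).1, by
        show Ng z C (f w) ≤ ρ₂
        rw [(hsS w hw).2]; exact ht.2.le⟩ hi hwi
      rw [(hsS w hw).2] at h1
      have h2 := ht.1
      have h3 : Ng z C (f y) ≤ ρ₁ := hy.2
      linarith
    have h6 : x ∈ K := interior_subset h5
    have h7 : x ∉ frontier K := by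
      rw [k7.isClosed.frontier_eq]
      exact fun h8 => h8.2 h5
    rw [k3] at h7
    rw [k1] at h6
    rw [hφO x hx]
    have h8 : g.G () x ≠ 1/2 - (-1/4) := fun h9 => h7 ⟨hx, h9⟩
    have h9 : 1/2 - (-1/4 : ℝ) < g.G () x := lt_of_le_of_ne h6.2 (Ne.symm h8)
    linarith
  · -- near
    intro x h5 h6
    obtain ⟨hxO, hG⟩ := hcol x h5 h6
    obtain ⟨i, hi⟩ := T.cov x hxO
    obtain ⟨w, hw, hwi⟩ := pt_of_mid H hi hG
    have hi' : x ∈ (tcell T i).set := by rw [tcell_set]; exact hi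
    have hBx := mem_B_lev H (q := tcell T i) hi' hG rfl
    have hex : trl g () (1/2) x ∈ Msh_715.P (T.H i) := by
      have := trl_mem H (q := tcell T i) (t := 1/2) hi' hBx ⟨by norm_num, by norm_num⟩
      rwa [tcell_set] at this
    have hem : trl g () (1/2) x ∈ {z | z ∈ Om ∧ g.G () z = 1/2} :=
      ⟨T.sub i hex, trl_G H (q := tcell T i) hi' hBx ⟨by norm_num, by norm_num⟩⟩
    have h1 := hθ₀ _ hem
    rw [dist_eq_norm] at h1
    have hN := hnear t (by have := ht.1; linarith) ht1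
    have hwC : (Msh_715.P (T.H i) ∩ {x | x ∈ Om ∧ Ng z C (f x) ≤ 1}).Nonempty :=
      ⟨w, hwi, (hsS w hw).1, by
        show Ng z C (f w) ≤ 1
        rw [(hsS w hw).2]; exact ht1⟩
    have h2 := (hN (f w) (f x) (hsS w hw).2
      ((hM1.fine i hwC w hwi x hi).2.trans (min_le_left _ _))).2
    have h3 := (hN (f w) (f (trl g () (1/2) x)) (hsS w hw).2
      ((hM1.fine i hwC w hwi _ hex).2.trans (min_le_left _ _))).2
    have h4 : δ₀ ≤ ε / 4 := min_le_right _ _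
    have e1 : θ₀.f (trl g () (1/2) x) - e₀ (pj z C (f x)) =
        (θ₀.f (trl g () (1/2) x) - e₀ (pj z C (f (trl g () (1/2) x)))) +
        ((e₀ (pj z C (f w)) - e₀ (pj z C (f x))) -
          (e₀ (pj z C (f w)) - e₀ (pj z C (f (trl g () (1/2) x))))) := by abel
    show ‖θ₀.f (trl g () (1/2) x) - e₀ (pj z C (f x))‖ ≤ ε
    rw [e1]
    calc _ ≤ ‖θ₀.f (trl g () (1/2) x) - e₀ (pj z C (f (trl g () (1/2) x)))‖ +
          ‖(e₀ (pj z C (f w)) - e₀ (pj z C (f x))) -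
            (e₀ (pj z C (f w)) - e₀ (pj z C (f (trl g () (1/2) x))))‖ := norm_add_le _ _
      _ ≤ ε / 2 + (δ₀ + δ₀) := add_le_add h1 ((norm_sub_le _ _).trans (add_le_add h2 h3))
      _ ≤ ε := by linarith
  · intro t' ht'
    obtain ⟨K, k1, k2, k3, -⟩ := hballs (1/2 - t') (hlev t' ht')
    rw [hsle t' (by have := ht'.2; linarith), hseq t' (by have := ht'.2; linarith), ← k1, ← k3]
    exact k2
  · intro t' ht'
    obtain ⟨K, k1, k2, k3, -⟩ := hballs (1/2 - t') (hlev t' ht')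
    rw [hsle t' (by have := ht'.2; linarith), hseq t' (by have := ht'.2; linarith), ← k1, ← k3]
  · intro t' ht'
    obtain ⟨K, k1, k2, k3, k4, k5, k6, k7, k8, k9, e, he, hef⟩ := hballs (1/2 - t') (hlev t' ht')
    rw [hseq t' (by have := ht'.2; linarith)]
    exact ⟨e.trans θ₀, fun x _ => by
      show θ₀.f (e.f x) = θ₀.f (trl g () (1/2) x)
      rw [hef]⟩

end Crest.Agent.R096.Sphs_4
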