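import Mathlib
import Crest.Agent.R096.Pse3_316
import Crest.Agent.R096.Sphs9_4
import Crest.Agent.R096.SkT_539

/-! # Row 96, seam SPHERE → tiny cores (helper316), part 4: the theorem SPHERE IN FULL
(`Sphs_4.sphere_full`: all levels, one PL map on the collar) for a point hole of a foam, in `E3`.
`sphere : SPHERE` (539's Prop) as a corollary. -/

set_option autoImplicit false
set_option linter.unusedSectionVars false

open Set Filter Topology Metric NNReal MeasureTheory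

namespace Crest.Agent.R096.Pse_316

open Crest.Agent.R096.Sphg_316 Crest.Agent.R96.Push_899
open Crest.Agent.R096.Bsp_628 Crest.Agent.R096.Brk3_582
open Crest.Agent.R096.SkC1_961 (E3 FoamD IsPush)
open Crest.Agent.R096.Ce_537
open Crest.Agent.R96.En10_199 (P3)
open Crest.Agent.R096.Er_594 (e3)
open Crest.Agent.R096.SkT_539 (ga RayTo SPHERE)
open Crest.AnalysisR.VecCalc3

variable {δ κ0 R c0 : ℝ}

/-- 4's `SphFull` in `E3`, for a point hole of a foam (539 #10454 (A) literally) -/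
structure SphE {La : Set E3} (Om : Set E3) (f : E3 → E3) (Φ : FoamD δ κ0 R c0 La) (c : Φ.F)
    (ρ₁ ρ₂ ε : ℝ) (φ : E3 → ℝ) (a b : ℝ) (Θ : E3 → E3) : Prop where
  ab : a < b
  pl : PLOn φ univ
  plT : PLOn Θ {x | a ≤ φ x ∧ φ x ≤ b}
  lt : ∀ x, φ x ≤ b → x ∈ Om ∧ ga Φ c (f x) < ρ₂
  inn : ∀ x ∈ Om, ga Φ c (f x) ≤ ρ₁ → φ x < a
  near : ∀ x, a ≤ φ x → φ x ≤ b → ‖Θ x - Φ.Psi (f x)‖ ≤ ε
  ball : ∀ t ∈ Icc a b, IsBall 3 {x | φ x ≤ t} {x | φ x = t}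
  fr : ∀ t ∈ Icc a b, frontier {x | φ x ≤ t} = {x | φ x = t}
  bij : ∀ t ∈ Icc a b, ∃ θ : PLEquiv {x | φ x = t} (frontier c.1.set), EqOn θ.f Θ {x | φ x = t}

/-- **SPHERE IN FULL, `E3` version** -/
theorem sphere_fullE {p : ℝ} (hp : 1 ≤ p) {Om La : Set R3} {f : R3 → R3} {G : Fin 3 → R3 → R3}
    (hO : IsOpen Om) (hLa : IsOpen La) (hS : Sk_962.SH p Om La f G)
    (Φ : FoamD δ κ0 R c0 (P3 ⁻¹' La)) (c : Φ.F) (hpt : (Φ.B c).lo = (Φ.B c).hi) :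
    ∃ r : ℝ, 0 < r ∧ r < 1 ∧ (∀ r', 0 < r' → r' ≤ r → RayTo Φ c r') ∧
    ∀ ρ₁ ρ₂ ε : ℝ, 0 < ρ₁ → ρ₁ < ρ₂ → ρ₂ ≤ r → 0 < ε →
    ∃ (φ : E3 → ℝ) (a b : ℝ) (Θ : E3 → E3),
      SphE (P3 ⁻¹' Om) (e3 f) Φ c ρ₁ ρ₂ ε φ a b Θ := by
  obtain ⟨r1, h1, h1', H1⟩ := exists_e0R Φ hLa c hpt
  obtain ⟨r2, h2, h2', H2⟩ := rayTo Φ (hLa.preimage P3.continuous) c hpt
  set r : ℝ := min r1 r2 with hr
  have hr0 : 0 < r := lt_min h1 h2
  have hr1 : r ≤ r1 := min_le_left _ _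
  have hr2 : r ≤ r2 := min_le_right _ _
  have hrlt : r < 1 := lt_of_le_of_lt hr2 h2'
  refine ⟨r, hr0, hrlt, ?_, ?_⟩
  · intro r' hr' hrr y hy hyr
    exact H2 r' hr' (hrr.trans hr2) y hy hyr
  intro ρ₁ ρ₂ ε hρ₁ hρ hρ₂ hε
  obtain ⟨e₀, e₁, a1, a2, a3, a4, a5, a6, a7⟩ := H1 r hr0 hr1
  -- the preimage of the hole
  have hzLa : P3 (Φ.B c).lo ∈ La :=
    sbR_sub_La Φ c hpt hrlt.le (interior_subset (bod_sbR Φ c hpt hr0).int)
  obtain ⟨x₀, hx₀, hz⟩ : ∃ x₀ ∈ Om, f x₀ = P3 (Φ.B c).lo := by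
    obtain ⟨gi, Hm⟩ := Init_543.exists_hm hS.homeo
    exact ⟨gi (P3 (Φ.B c).lo), Hm.gm hzLa, Hm.fg _ hzLa⟩
  obtain ⟨φ, a, b, Θ, S⟩ := Sphs_4.sphere_full hp hO hLa hS (bod_sbR Φ c hpt hr0)
    (sbR_sub_La Φ c hpt hrlt.le) hx₀ hz (isBall_brick Φ c) a1 a2 a3 a4 a5 a6
    (ρ₁ := ρ₁ / r) (ρ₂ := ρ₂ / r) (ε := ε) (div_pos hρ₁ hr0)
    (div_lt_div_of_pos_right hρ hr0) ((div_le_one hr0).2 hρ₂) hε
  have hNg : ∀ x : E3, Ng (P3 (Φ.B c).lo) (sbR Φ c r) (f (P3 x)) = ga Φ c (e3 f x) / r :=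
    fun x => Ng_sbR' Φ c hpt hr0 (f (P3 x))
  refine ⟨fun x => φ (P3 x), a, b, fun x => Θ (P3 x), ⟨S.ab, ?_, ?_, ?_, ?_, ?_, ?_, ?_, ?_⟩⟩
  · exact plOn_pre_univ P3 S.pl
  · exact plOn_pre P3 S.plT
  · intro x hx
    obtain ⟨b1, b2⟩ := S.lt (P3 x) hx
    rw [hNg] at b2
    exact ⟨b1, (div_lt_div_iff_of_pos_right hr0).1 b2⟩
  · intro x hx hxr
    refine S.inn (P3 x) hx ?_
    rw [hNg]
    exact (div_le_div_iff_of_pos_right hr0).2 hxr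
  · intro x b1 b2
    have b3 := S.near (P3 x) b1 b2
    obtain ⟨b4, b5⟩ := S.lt (P3 x) b2
    rw [hNg] at b5
    have b6 : ga Φ c (e3 f x) < ρ₂ := (div_lt_div_iff_of_pos_right hr0).1 b5
    have b7 : f (P3 x) ≠ P3 (Φ.B c).lo := by
      intro he
      have b8 : Ng (P3 (Φ.B c).lo) (sbR Φ c r) (f (P3 x)) ≤ ρ₁ / r := by
        rw [he, Ng_self]
        positivity
      exact absurd b1 (not_le.2 (S.inn (P3 x) b4 b8))
    have b9 : e₀ (pj (P3 (Φ.B c).lo) (sbR Φ c r) (f (P3 x))) = Φ.Psi (P3.symm (f (P3 x))) := by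
      refine a7 _ ?_ b7
      have : Mbf_337.gau c.1 (Φ.B c).lo (P3.symm (f (P3 x))) < ρ₂ := b6
      linarith
    rw [b9] at b3
    exact b3
  · intro t ht
    exact isBall_pre P3 (S.ball t ht)
  · intro t ht
    have b1 := S.fr t ht
    have b2 := frontier_pre P3 {x | φ x ≤ t}
    rw [b1] at b2
    exact b2
  · intro t ht
    obtain ⟨θ, hθ⟩ := S.bij t ht
    refine ⟨(plPre P3 {x | φ x = t}).trans θ, ?_⟩
    intro x hx
    exact hθ hx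

/-- the one-ball form -/
theorem SphE.one {La : Set E3} {Om : Set E3} {f : E3 → E3} {Φ : FoamD δ κ0 R c0 La} {c : Φ.F}
    {ρ₁ ρ₂ ε : ℝ} {φ : E3 → ℝ} {a b : ℝ} {Θ : E3 → E3} (S : SphE Om f Φ c ρ₁ ρ₂ ε φ a b Θ)
    {t : ℝ} (ht : t ∈ Icc a b) :
    ∃ (K : Set E3) (θ : PLEquiv (frontier K) (frontier c.1.set)),
    IsBall 3 K (frontier K) ∧ K ⊆ Om ∧
    (∀ x ∈ K, ga Φ c (f x) < ρ₂) ∧
    (∀ x ∈ frontier K, ρ₁ < ga Φ c (f x)) ∧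
    (∀ x ∈ Om, ga Φ c (f x) ≤ ρ₁ → x ∈ interior K) ∧
    (∀ x ∈ frontier K, ‖θ.f x - Φ.Psi (f x)‖ ≤ ε) := by
  have hfr := S.fr t ht
  obtain ⟨θ, hθ⟩ := S.bij t ht
  refine ⟨{x | φ x ≤ t}, hfr ▸ θ, ?_, ?_, ?_, ?_, ?_, ?_⟩
  · rw [hfr]; exact S.ball t ht
  · intro x hx
    exact (S.lt x (le_trans hx ht.2)).1
  · intro x hx
    exact (S.lt x (le_trans hx ht.2)).2
  · intro x hx
    rw [hfr] at hx
    have hx' : φ x = t := hx
    have hxO := (S.lt x (hx'.le.trans ht.2)).1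
    by_contra hcon
    have := S.inn x hxO (not_lt.1 hcon)
    have := ht.1
    linarith
  · intro x hx hxr
    have h1 := S.inn x hx hxr
    have hcl : IsClosed {x | φ x ≤ t} := (S.ball t ht).isCompact.isClosed
    by_contra hcon
    have h2 : x ∈ frontier {x | φ x ≤ t} := by
      rw [hcl.frontier_eq]
      refine ⟨?_, hcon⟩
      show φ x ≤ t
      have := ht.1
      linarith
    rw [hfr] at h2
    have h3 : φ x = t := h2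
    have := ht.1
    linarith
  · intro x hx
    rw [hfr] at hx
    have hx' : φ x = t := hx
    have h1 := S.near x (by rw [hx']; exact ht.1) (by rw [hx']; exact ht.2)
    have key : ∀ (A B : Set E3) (h : A = B) (θ : PLEquiv B (frontier c.1.set)),
        (h ▸ θ : PLEquiv A (frontier c.1.set)).f = θ.f := by
      intro A B h θ
      subst h
      rfl
    rw [key _ _ hfr θ, hθ hx]
    exact h1

/-- **539's Prop `SPHERE`** -/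
theorem sphere : SPHERE := by
  intro p hp Om La f G hO hLa hS δ κ0 R c0 _ _ _ _ Φ c hpt
  obtain ⟨r, hr, hr1, hray, H⟩ := sphere_fullE hp hO hLa hS Φ c hpt
  refine ⟨r, hr, hr1, hray r hr le_rfl, fun ρ₁ ρ₂ ε hρ₁ hρ hρ₂ hε => ?_⟩
  obtain ⟨φ, a, b, Θ, S⟩ := H ρ₁ ρ₂ ε hρ₁ hρ hρ₂ hε
  exact S.one (t := a) ⟨le_rfl, S.ab.le⟩

end Crest.Agent.R096.Pse_316
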