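import Crest.Agent.R096.Seq2_213

/-!
Row 96 (helper630), DOORS, `NEWIN` of 688 #12211 (C), piece (4) and the abstract (W).

* `exists_psi` : a set `γ` of points of the sheet `i` which is closed under the chords on the boundary
  faces of a set `In` of cells is the jump of a function `Ψ` : constant on the outer chords,
  `Ψ + 1_γ` constant on the inner chords (only `H1` of the sheet `i`);
* `exists_hat` : a set `B` of points of the outer component `Mc` which is closed over the faces `Z` and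
  contains with a point of a trace curve `γ g` over `Z` all points of this curve over `Z` extends to a
  set of points of the FULL sheet which is closed under all chords on the faces `Z`.
-/

set_option autoImplicit false
set_option linter.style.longLine false

open Set

namespace Crest.Agent.R096.Psg_630

open Crest.Agent.R096.St_147 Crest.Agent.R096.Seq_213 Crest.Agent.R096.Seq_213.GSt

variable {ι Φ W J C : Type} {M : MeshC ι Φ W} {fam : J → C}

open Classical in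
/-- indicator -/
noncomputable def ind (γ : Set W) (w : W) : ZMod 2 := if w ∈ γ then 1 else 0

theorem ind_mem {γ : Set W} {w : W} (h : w ∈ γ) : ind γ w = 1 := by
  unfold ind; rw [if_pos h]

theorem ind_not {γ : Set W} {w : W} (h : w ∉ γ) : ind γ w = 0 := by
  unfold ind; rw [if_neg h]

theorem ind_eq {γ : Set W} {w w' : W} (h : w ∈ γ ↔ w' ∈ γ) : ind γ w = ind γ w' := by
  by_cases hw : w ∈ γ
  · rw [ind_mem hw, ind_mem (h.1 hw)]
  · rw [ind_not hw, ind_not fun h' => hw (h.2 h')]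

theorem eq_of_ind {γ : Set W} {w w' : W} (h : ind γ w = ind γ w') : w ∈ γ ↔ w' ∈ γ := by
  by_cases hw : w ∈ γ
  · by_cases hw' : w' ∈ γ
    · exact ⟨fun _ => hw', fun _ => hw⟩
    · rw [ind_mem hw, ind_not hw'] at h; exact absurd h one_ne_zero
  · by_cases hw' : w' ∈ γ
    · rw [ind_not hw, ind_mem hw'] at h; exact absurd h.symm one_ne_zero
    · exact ⟨fun h' => absurd h' hw, fun h' => absurd h' hw'⟩

theorem z2_self (a : ZMod 2) : a + a = 0 := by
  revert a; decide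

theorem at_mu (s : GSt M fam) {F : Φ} {w : W} (h : s.At F w) : s.At F (s.mu F w) :=
  s.mu_mem h.1 h.2

/-- **piece (4)**: the jump function of a closed trace curve -/
theorem exists_psi (s : GSt M fam) {i : J} (h1 : s.H1 i) (In : Set ι) (γ : Set W)
    (hγ : ∀ F w, w ∈ γ → s.At F w → s.lab w = i → (∃ q ∈ M.side F, q ∈ In) →
      (∃ q ∈ M.side F, q ∉ In) → s.mu F w ∈ γ) :
    ∃ Ψ : W → ZMod 2,
      (∀ F w, s.At F w → s.lab w = i → (∃ q ∈ M.side F, q ∉ In) → Ψ (s.mu F w) = Ψ w) ∧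
      ∀ F w, s.At F w → s.lab w = i → (∀ q ∈ M.side F, q ∈ In) →
        Ψ (s.mu F w) + ind γ (s.mu F w) = Ψ w + ind γ w := by
  classical
  have hγ' : ∀ F w, s.At F w → s.lab w = i → (∃ q ∈ M.side F, q ∈ In) →
      (∃ q ∈ M.side F, q ∉ In) → (w ∈ γ ↔ s.mu F w ∈ γ) := by
    intro F w hA hl ha hb
    refine ⟨fun h => hγ F w h hA hl ha hb, fun h => ?_⟩
    have h2 := hγ F (s.mu F w) h (at_mu s hA) ((s.mu_lab hA.1 hA.2).trans hl) ha hb
    rwa [s.mu_mu hA.1 hA.2] at h2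
  obtain ⟨Ψ, hΨ⟩ := h1 (fun F w => if (∀ q ∈ M.side F, q ∈ In) then ind γ w + ind γ (s.mu F w) else 0)
    (by
      intro q
      by_cases hq : q ∈ In
      · refine ⟨ind γ, fun F w hF hA hl => ?_⟩
        by_cases hI : ∀ q ∈ M.side F, q ∈ In
        · simp only [if_pos hI]
        · simp only [if_neg hI]
          push Not at hI
          rw [← ind_eq (hγ' F w hA hl ⟨q, hF, hq⟩ hI)]
          exact (z2_self _).symm
      · refine ⟨fun _ => 0, fun F w hF hA hl => ?_⟩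
        have hI : ¬ ∀ q ∈ M.side F, q ∈ In := fun h => hq (h q hF)
        simp only [if_neg hI, add_zero])
  refine ⟨Ψ, fun F w hA hl hF => ?_, fun F w hA hl hF => ?_⟩
  · have h := hΨ F w hA hl
    have hI : ¬ ∀ q ∈ M.side F, q ∈ In := by
      obtain ⟨q, h2, h3⟩ := hF
      exact fun h => h3 (h q h2)
    simp only [if_neg hI] at h
    have h2 : Ψ w + (Ψ w + Ψ (s.mu F w)) = Ψ w := by rw [← h, add_zero]
    rw [← add_assoc, z2_self, zero_add] at h2
    exact h2
  · have h := hΨ F w hA hl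
    simp only [if_pos hF] at h
    have h2 : Ψ w + ind γ w = Ψ (s.mu F w) + ind γ (s.mu F w) + ((Ψ w + Ψ (s.mu F w)) +
        (ind γ w + ind γ (s.mu F w))) := by
      generalize Ψ w = a
      generalize Ψ (s.mu F w) = b
      generalize ind γ w = c
      generalize ind γ (s.mu F w) = d
      revert a b c d
      decide
    rw [h, z2_self, add_zero] at h2
    exact h2.symm

/-- **(W), abstract**: extension of a set of points of the outer component to the full sheet -/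
theorem exists_hat (s : GSt M fam) {i : J} (h1 : s.H1 i) (In : Set ι) (Z : Set Φ) (Mc : Set W)
    (hout : ∀ F w, w ∈ Mc → s.At F w → (∃ q ∈ M.side F, q ∉ In) → s.mu F w ∈ Mc)
    (hconn : ∀ X : Set W, (∀ F w, w ∈ X → s.At F w → s.lab w = i → (∃ q ∈ M.side F, q ∉ In) →
      s.mu F w ∈ X) → ∀ w ∈ Mc, w ∈ X → Mc ⊆ X)
    {G : Type} (γ : G → Set W) (hγM : ∀ g, γ g ⊆ Mc)
    (hγ : ∀ g F w, w ∈ γ g → s.At F w → (∃ q ∈ M.side F, q ∈ In) → (∃ q ∈ M.side F, q ∉ In) →
      s.mu F w ∈ γ g)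
    (hcov : ∀ F ∈ Z, ∀ w ∈ Mc, s.At F w → (∀ q ∈ M.side F, q ∈ In) → ∃ g, w ∈ γ g)
    (B : Set W)
    (hB1 : ∀ F ∈ Z, ∀ w ∈ Mc, w ∈ B → s.At F w → (∃ q ∈ M.side F, q ∉ In) → s.mu F w ∈ B)
    (hB2 : ∀ g, ∀ x ∈ γ g, x ∈ B → (∃ F ∈ Z, x ∈ M.On F) → ∀ y ∈ γ g, (∃ F ∈ Z, y ∈ M.On F) →
      y ∈ B) :
    ∃ Y : Set W, (∀ F ∈ Z, ∀ w ∈ Y, s.At F w → s.lab w = i → s.mu F w ∈ Y) ∧
      ∀ w ∈ Mc, (w ∈ Y ↔ w ∈ B) := by
  classical
  have hex : ∀ g, ∃ Ψ : W → ZMod 2, ∃ c : ZMod 2, (∀ w ∈ Mc, Ψ w = c) ∧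
      (∀ F w, s.At F w → s.lab w = i → (∃ q ∈ M.side F, q ∉ In) → Ψ (s.mu F w) = Ψ w) ∧
      ∀ F w, s.At F w → s.lab w = i → (∀ q ∈ M.side F, q ∈ In) →
        Ψ (s.mu F w) + ind (γ g) (s.mu F w) = Ψ w + ind (γ g) w := by
    intro g
    obtain ⟨Ψ, p1, p2⟩ := exists_psi s h1 In (γ g) fun F w hw hA _ ha hb => hγ g F w hw hA ha hb
    by_cases hne : Mc.Nonempty
    · obtain ⟨w0, hw0⟩ := hne
      refine ⟨Ψ, Ψ w0, ?_, p1, p2⟩
      have h := hconn {w | Ψ w = Ψ w0} (fun F w hw hA hl ho => (p1 F w hA hl ho).trans hw) w0 hw0 rfl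
      exact fun w hw => h hw
    · exact ⟨Ψ, 0, fun w hw => absurd ⟨w, hw⟩ hne, p1, p2⟩
  choose Ψ c hc p1 p2 using hex
  refine ⟨{x | (x ∈ Mc ∧ x ∈ B) ∨ (x ∉ Mc ∧ ∃ g, (∃ y ∈ γ g, y ∈ B ∧ ∃ F ∈ Z, y ∈ M.On F) ∧
    Ψ g x ≠ c g)}, ?_, ?_⟩
  · intro F hF w hw hA hl
    have hA' := at_mu s hA
    have hl' : s.lab (s.mu F w) = i := (s.mu_lab hA.1 hA.2).trans hl
    by_cases ho : ∃ q ∈ M.side F, q ∉ In
    · rcases hw with ⟨h2, h3⟩ | ⟨h2, g, h3, h4⟩
      · exact Or.inl ⟨hout F w h2 hA ho, hB1 F hF w h2 h3 hA ho⟩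
      · refine Or.inr ⟨fun h => h2 ?_, g, h3, ?_⟩
        · have := hout F _ h hA' ho
          rwa [s.mu_mu hA.1 hA.2] at this
        · rw [p1 g F w hA hl ho]; exact h4
    push Not at ho
    rcases hw with ⟨h2, h3⟩ | ⟨h2, g, h3, h4⟩
    · obtain ⟨g, hg⟩ := hcov F hF w h2 hA ho
      have h5 := p2 g F w hA hl ho
      rw [hc g w h2, ind_mem hg] at h5
      by_cases h6 : s.mu F w ∈ Mc
      · left
        refine ⟨h6, hB2 g w hg h3 ⟨F, hF, hA.2⟩ _ ?_ ⟨F, hF, hA'.2⟩⟩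
        by_contra h7
        rw [hc g _ h6, ind_not h7] at h5
        exact zero_ne_one (add_left_cancel h5)
      · right
        refine ⟨h6, g, ⟨w, hg, h3, F, hF, hA.2⟩, fun h7 => ?_⟩
        rw [h7, ind_not fun h8 => h6 (hγM g h8)] at h5
        exact zero_ne_one (add_left_cancel h5)
    · have h5 := p2 g F w hA hl ho
      rw [ind_not fun h8 => h2 (hγM g h8), add_zero] at h5
      by_cases h6 : s.mu F w ∈ Mc
      · left
        refine ⟨h6, ?_⟩
        obtain ⟨y, h7, h8, h9⟩ := h3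
        refine hB2 g y h7 h8 h9 _ ?_ ⟨F, hF, hA'.2⟩
        by_contra h10
        rw [hc g _ h6, ind_not h10, add_zero] at h5
        exact h4 h5.symm
      · right
        refine ⟨h6, g, h3, ?_⟩
        rw [ind_not fun h8 => h6 (hγM g h8), add_zero] at h5
        rw [h5]; exact h4
  · intro w hw
    constructor
    · rintro (h | h)
      · exact h.2
      · exact absurd hw h.1
    · exact fun h => Or.inl ⟨hw, h⟩

end Crest.Agent.R096.Psg_630
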