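import Crest.Agent.R096.Cp1_465
import Crest.Agent.R096.Ca2_855

/-!
# Row 96 (S0127), p = 2: composite A, one mesh and perfect cubes (helper58): `psi_of_regs2` =
855's `psi_of_regs` on 465's `exists_phiR` (753 #10547, 465 #10751 (c))
-/

set_option autoImplicit false
set_option linter.unusedSectionVars false

open Set Metric MeasureTheory Filter Topology
open scoped ENNReal

namespace Crest.Agent.R096.Psp_58

open Crest.AnalysisR.VecCalc3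
open Crest.Agent.R096.Msh_715 (Tiling P I)
open Crest.Agent.R096.Sk2_855 (sk1 HP Mv)
open Crest.Agent.R096.Sk3_812 (GoodT HF ug)
open Crest.Agent.R096.Ca_855
open Crest.Agent.R096.Cp_465
open Crest.Agent.R96.Intr_538 (cel par cel_mono isCompact_cel)
open Crest.Agent.R96.Coarse_538

/-- a thickening of a parallelepiped is in a larger parallelepiped -/
theorem thick_par {b : R3} {L : R3 →L[ℝ] R3} {κ : ℝ} (hκ : 0 < κ) (low : ∀ v, κ * ‖v‖ ≤ ‖L v‖)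
    {q q' r : ℝ} (hq : 0 < q) (hr : 0 ≤ r) (h : r ≤ κ * (q' - q)) :
    thickening r (par Cb L b q) ⊆ par Cb L b q' := by
  have hL := inj_of_low hκ low
  have hqq : 0 ≤ q' - q := by
    by_contra hn
    push Not at hn
    have := mul_neg_of_pos_of_neg hκ hn
    linarith
  intro y hy
  rw [mem_thickening_iff] at hy
  obtain ⟨x, hx, hxy⟩ := hy
  rw [← aff_image (z := 0) (hL := hL)] at hx ⊢
  obtain ⟨x', hx', rfl⟩ := hx
  refine ⟨(aff b 0 L hL).symm y, ?_, (aff b 0 L hL).apply_symm_apply y⟩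
  have e1 : L ((aff b 0 L hL).symm y - x') = y - aff b 0 L hL x' := by
    have h1 := aff_apply (b := b) (z := 0) (L := L) (hL := hL) ((aff b 0 L hL).symm y)
    rw [(aff b 0 L hL).apply_symm_apply] at h1
    rw [aff_apply (b := b) (z := 0) (L := L) (hL := hL) x']
    conv_rhs => rw [h1]
    simp only [sub_zero, map_sub]
    abel
  have e2 : κ * ‖(aff b 0 L hL).symm y - x'‖ ≤ κ * (q' - q) := by
    refine (low _).trans ?_
    rw [e1, ← dist_eq_norm]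
    exact hxy.le.trans h
  have e3 : ‖(aff b 0 L hL).symm y - x'‖ ≤ q' - q := le_of_mul_le_mul_left e2 hκ
  exact cel_near hqq hq (by linarith) hx' e3

section one

variable {Om La : Set R3} {ι : Type} {T : Tiling Om ι} {f fi : R3 → R3}
  {κ τ t s : ℝ} {Q : Finset (Fin 3 → ℤ)} {zc bb : (Fin 3 → ℤ) → R3}
  {LL : (Fin 3 → ℤ) → R3 →L[ℝ] R3} {nc : ℕ}

/-- **`Ψ`, the balls and the squeezes for one mesh and perfect cubes** (`p = 2`) -/
theorem psi_of_regs2 (hκ : 0 < κ) (hτ : 0 < τ) (hτ6 : 6 * τ < 1) (hs : 0 < s) (ht0 : 0 ≤ t)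
    (ht : 2 * t ≤ τ * s) (hLa : IsOpen La)
    (low : ∀ k ∈ Q, ∀ v, κ * ‖v‖ ≤ ‖LL k v‖)
    {hinj : ∀ k ∈ Q, Function.Injective (LL k)}
    {u : {k // k ∈ Q} → ι → R3 → ℝ} {C : {k // k ∈ Q} → ι → R3} {α α' Λ : ℝ}
    (hsub : ∀ k ∈ Q, cel Cb (zc k) s ⊆ Om)
    (hpar : ∀ k ∈ Q, par Cb (LL k) (bb k) ((1 - τ) * s) ⊆ La)
    (hdis : ∀ k ∈ Q, ∀ l ∈ Q, k ≠ l →
      Disjoint (par Cb (LL k) (bb k) ((1 - τ) * s)) (par Cb (LL l) (bb l) s))
    (R : Regs T La f (Aq zc bb LL hinj) (fun k => cel Cb (zc k) ((1 - 5 * τ) * s))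
      (fun k => cel Cb (zc k) ((1 - 4 * τ) * s)) u C α α' nc t Λ)
    {Sg σ r : {k // k ∈ Q} → ℝ}
    (R2 : Regs2 T La f (fun k : {k // k ∈ Q} => cel Cb (zc k) ((1 - 5 * τ) * s)) u α' Sg)
    (happ : ∀ η > 0, ∃ h hi, HP Om La h hi ∧ ∀ x ∈ Om, ‖h x - f x‖ ≤ η)
    (hσ : ∀ k, 4 * Sg k < σ k) (hr : ∀ k, 24 * σ k ≤ r k) (hrκ : ∀ k, r k ≤ κ * (3 * τ * s))
    {e : ℝ} (he : 0 < e) :
    ∃ Ψ : R3 ≃ₜ R3, Mv T Ψ ∧
      (∀ k ∈ Q, ∀ y ∈ cel Cb (zc k) ((1 - 6 * τ) * s),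
        ‖f (Ψ y) - (bb k + LL k (y - zc k))‖ ≤ 3 * (nc * (nc * nc) + 2) * (Λ * t) + e) ∧
      (∀ i, ∀ y ∈ P (T.H i), ∀ r, (∀ y' ∈ P (T.H i), ‖f y' - f y‖ ≤ r) →
        ‖f (Ψ y) - f y‖ ≤ r + 3 * (nc * (nc * nc) + 1) * (Λ * t) + e) ∧
      ∃ (m : {k // k ∈ Q} → ℕ) (y : ∀ k, Fin (m k) → R3) (ρ : ∀ k, Fin (m k) → ℝ),
        (∀ (k : {k // k ∈ Q}) l, y k l ∈ par Cb (LL k) (bb k) ((1 - 4 * τ) * s)) ∧
        (∀ k l, 0 < ρ k l) ∧
        (∀ k, ∑ l, 2 * ρ k l ≤ σ k) ∧ NearB T f Ψ y ρ ∧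
        ∀ n : ℕ, ∃ Rq : R3 ≃ₜ R3, LipschitzWith (3 / 2) Rq ∧ (∀ y, Rq y ∈ La ↔ y ∈ La) ∧
          (∀ y, (∀ k : {k // k ∈ Q},
            y ∉ thickening (r k) (par Cb (LL k) (bb k) ((1 - 4 * τ) * s))) → Rq y = y) ∧
          (∀ k : {k // k ∈ Q}, ∀ y ∈ thickening (r k) (par Cb (LL k) (bb k) ((1 - 4 * τ) * s)),
            Rq y ∈ thickening (r k) (par Cb (LL k) (bb k) ((1 - 4 * τ) * s)) ∧
              ‖Rq y - y‖ ≤ 3 * σ k) ∧
          (∀ k l, ∀ z ∈ ball (y k l) (ρ k l), ∀ᶠ z' in 𝓝 z,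
            ‖Rq z' - Rq z‖ ≤ (1 / 2) ^ n * ‖z' - z‖) ∧
          ∃ ψ : {k // k ∈ Q} → Fin 3 → ℝ → ℝ, (∀ q a, Monotone (ψ q a)) ∧
            (∀ q a x y, |ψ q a x - ψ q a y| ≤ |x - y|) ∧
            (∀ q a x, 0 ≤ ψ q a x) ∧ (∀ q a x, ψ q a x ≤ σ q) ∧
            ∀ q : {k // k ∈ Q}, ∀ y ∈ thickening (r q / 4) (par Cb (LL q) (bb q) ((1 - 4 * τ) * s)),
              ∀ a, Rq y a = y a - ψ q a (y a) := by
  have hτs : 0 < τ * s := mul_pos hτ hs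
  have h4 : 0 < (1 - 4 * τ) * s := mul_pos (by linarith) hs
  have h6 : 0 < (1 - 6 * τ) * s := mul_pos (by linarith) hs
  have himg : ∀ k : {k // k ∈ Q}, (Aq zc bb LL hinj k) '' cel Cb (zc k) ((1 - 4 * τ) * s) =
      par Cb (LL k) (bb k) ((1 - 4 * τ) * s) := fun k => aff_image _
  have hr0 : ∀ k, 0 ≤ r k := fun k => by
    have h1 := hσ k
    have h2 := R2.Sg0 k
    have h3 := hr k
    linarith
  have hth : ∀ k : {k // k ∈ Q}, thickening (r k) (par Cb (LL k) (bb k) ((1 - 4 * τ) * s)) ⊆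
      par Cb (LL k) (bb k) ((1 - τ) * s) := fun k => by
    refine thick_par hκ (low k k.2) h4 (hr0 k) ((hrκ k).trans ?_)
    have : (1 - τ) * s - (1 - 4 * τ) * s = 3 * τ * s := by ring
    rw [this]
  have h1s : (1 - τ) * s ≤ s := by nlinarith
  have h1s0 : 0 ≤ (1 - τ) * s := mul_nonneg (by linarith) hs.le
  obtain ⟨Ψ, hΨ, g1, g2, m, y, ρ, k1, k2, k3, k4, k5⟩ := exists_phiR R R2 hLa happ (r := r) hσ
    (fun k => by
      refine ⟨zc k, ?_⟩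
      rw [mem_cel h4]
      intro i
      simp only [sub_self, abs_zero]
      exact h4.le)
    hr
    (fun k l hkl => by
      rw [himg k, himg l]
      have hkl' : (k : Fin 3 → ℤ) ≠ l := fun h => hkl (Subtype.ext h)
      exact (hdis k k.2 l l.2 hkl').mono (hth k) ((hth l).trans (par_mono (hinj l l.2) h1s0 h1s)))
    (fun k => by
      rw [himg k]
      exact (hth k).trans (hpar k k.2)) he
  refine ⟨Ψ, hΨ, fun k hk w hw => ?_, g2, m, y, ρ, fun k l => ?_, k2, k3, k4, fun n => ?_⟩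
  · have hyO : w ∈ Om := hsub k hk (cel_mono ref_Cb _ h6.le (by nlinarith) hw)
    obtain ⟨i, hi⟩ := T.at_nonempty hyO
    have hi' : P (T.H i) ⊆ cel Cb (zc k) ((1 - 5 * τ) * s) := by
      intro w' hw'
      have h1 := R.diam ⟨k, hk⟩ i ⟨w, hi, cel_mono ref_Cb _ h6.le (by nlinarith) hw⟩ w' hw' w hi
      exact cel_near ht0 h6 (by nlinarith) hw h1
    have h2 := g1 ⟨k, hk⟩ i hi' w hi
    rw [show Aq zc bb LL hinj ⟨k, hk⟩ w = bb k + LL k (w - zc k) from aff_apply w] at h2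
    exact h2
  · rw [← himg k]; exact k1 k l
  · have h := k5 n
    simp only [himg] at h
    exact h

end one

end Crest.Agent.R096.Psp_58
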