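import Crest.Agent.R096.Pst0_465
import Crest.Agent.R096.Gg2_113
import Crest.Agent.R096.Sk2b_855

/-!
# Row 96, p = 2: later boxes see the original map; the iteration (helper465)

* `transfer`: significance of circles for `h ∘ Ψ` from the one for `h` (753 #10029 (1), L5).
* `iterate2`, `iterate2_col`: many boxes with patches (L6).
-/

set_option autoImplicit false
set_option linter.unusedSectionVars false

open Set Metric Filter Topology

namespace Crest.Agent.R096.Pst_465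

open Msh_715 (Tiling)
open Ce_537 Srg_465 Sk2_855 Ub_113

variable {E : Type*} [NormedAddCommGroup E] [NormedSpace ℝ E] {Om La : Set E} {ι : Type*}

/-- every face point is not moved (locally) or its image is in `PP` -/
def Near (T : Tiling Om ι) (h : E → E) (Ψ : E ≃ₜ E) (PP : Set E) : Prop :=
  ∀ x ∈ Om, T.dim x = 2 → ∀ z ∈ T.cc x, (∀ᶠ y in 𝓝 z, Ψ y = y) ∨ h (Ψ z) ∈ PP

/-- the oscillation of `u` on the connected subsets of `PP` is at most `δ` -/
def Osc (u : E → ℝ) (PP : Set E) (δ : ℝ) : Prop :=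
  ∀ S ⊆ PP, IsPreconnected S → ∀ y ∈ S, ∀ y' ∈ S, u y - u y' ≤ δ

theorem Osc.mono {u : E → ℝ} {PP PP' : Set E} {δ : ℝ} (h : Osc u PP δ) (hs : PP' ⊆ PP) :
    Osc u PP' δ := fun S hS => h S (hS.trans hs)

theorem own_congr {T : Tiling Om ι} (B : PBox T La) {h : E → E} {Ψ : E ≃ₜ E} (hΨ : Mv T Ψ)
    {x : E} : B.Own (fun z => h (Ψ z)) x ↔ B.Own h x := by
  have e : ∀ z ∈ sk1 T, B.u (h (Ψ z)) = B.u (h z) := fun z hz => by rw [hΨ.eq_on_sk1 hz]
  constructor
  · rintro ⟨h0, h1, h2, h3, h4⟩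
    exact ⟨h0, h1, h2, h3, fun z hz hz1 => by rw [← e z hz1]; exact h4 z hz hz1⟩
  · rintro ⟨h0, h1, h2, h3, h4⟩
    exact ⟨h0, h1, h2, h3, fun z hz hz1 => by
      show B.u (h (Ψ z)) < B.a
      rw [e z hz1]; exact h4 z hz hz1⟩

/-- **L5** -/
theorem transfer {T : Tiling Om ι} (B : PBox T La) {h hi : E → E} (H : HP Om La h hi)
    {Ψ : E ≃ₜ E} (hΨ : Mv T Ψ) {PP : Set E} (hnear : Near T h Ψ PP) (hsh : Disjoint PP B.shell)
    {δ θ : ℝ} (hδ : 0 ≤ δ) (hosc : Osc B.u PP δ) (hθ : θ + δ < B.t1) (hS : B.Sig h θ) :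
    B.Sig (fun x => h (Ψ x)) B.t1 := by
  intro x hOwn t ht Γ K hΓ hK hreach
  have hOwn' := (own_congr B hΨ).1 hOwn
  obtain ⟨-, hx, hd, -, -⟩ := hOwn
  have H' := H.comp hΨ
  have hFO : T.cc x ⊆ Om := T.cc_sub_Om hx
  set N : Set E := {y | ∀ᶠ z in 𝓝 y, Ψ z = z} with hN
  have hNo : IsOpen N := isOpen_setOfPred_eventually_nhds
  have hNe : ∀ y ∈ N, Ψ y = y := fun y hy =>
    (show ∀ᶠ z in 𝓝 y, Ψ z = z from hy).self_of_nhds
  have hlevN : ∀ y ∈ T.cc x, B.u (h (Ψ y)) = t → y ∈ N := by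
    intro y hy hyt
    rcases hnear x hx hd y hy with h1 | h1
    · exact h1
    · exfalso
      refine disjoint_left.1 hsh h1 ?_
      show B.a ≤ B.u (h (Ψ y)) ∧ B.u (h (Ψ y)) ≤ B.b
      rw [hyt]; exact ⟨ht.1.le, ht.2.le⟩
  set φg : E → ℝ := fun z => B.u (h (Ψ z)) with hφg
  set φh : E → ℝ := fun z => B.u (h z) with hφh
  have hcg : ContinuousOn φg (T.cc x) := B.cont.comp_continuousOn (H'.contOn.mono hFO)
  have hLsub : Ls (T.cc x) φg t ⊆ Ls (T.cc x) φh t := by
    rintro y ⟨hy, hyt⟩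
    have e := hNe y (hlevN y hy hyt)
    refine ⟨hy, ?_⟩
    show B.u (h y) = t
    have hyt' : B.u (h (Ψ y)) = t := hyt
    rwa [e] at hyt'
  have hLN : ∀ y ∈ Ls (T.cc x) φh t, y ∈ N → y ∈ Ls (T.cc x) φg t := by
    rintro y ⟨hy, hyt⟩ hyN
    refine ⟨hy, ?_⟩
    show B.u (h (Ψ y)) = t
    rw [hNe y hyN]; exact hyt
  have hLcl : IsClosed (Ls (T.cc x) φg t) :=
    hcg.preimage_isClosed_of_isClosed (T.isClosed_cc x) isClosed_singleton
  -- the circle is a circle for `h`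
  obtain ⟨⟨x0, hx0, hx0t, hΓe⟩, hdisc⟩ := id hΓ
  have hx0L : x0 ∈ Ls (T.cc x) φg t := ⟨hx0, hx0t⟩
  have hcomp : connectedComponentIn (Ls (T.cc x) φh t) x0 =
      connectedComponentIn (Ls (T.cc x) φg t) x0 := by
    apply Subset.antisymm
    · set C := connectedComponentIn (Ls (T.cc x) φh t) x0 with hC
      have hCp : IsPreconnected C := isPreconnected_connectedComponentIn
      have hCs : C ⊆ Ls (T.cc x) φh t := connectedComponentIn_subset _ _
      have hx0C : x0 ∈ C := mem_connectedComponentIn (hLsub hx0L)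
      have hcov : C ⊆ N ∪ (Ls (T.cc x) φg t)ᶜ := by
        intro y hy
        by_cases hyL : y ∈ Ls (T.cc x) φg t
        · exact Or.inl (hlevN y hyL.1 hyL.2)
        · exact Or.inr hyL
      have hdis : C ∩ (N ∩ (Ls (T.cc x) φg t)ᶜ) = ∅ := by
        rw [eq_empty_iff_forall_notMem]
        rintro y ⟨hy, hyN, hyL⟩
        exact hyL (hLN y (hCs hy) hyN)
      have hCN : C ⊆ N := by
        rcases isPreconnected_iff_subset_of_disjoint.1 hCp N _ hNo hLcl.isOpen_compl hcov hdis with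
          h1 | h1
        · exact h1
        · exact absurd hx0L (h1 hx0C)
      exact hCp.subset_connectedComponentIn hx0C fun y hy => hLN y (hCs hy) (hCN hy)
    · exact connectedComponentIn_mono _ hLsub
  have hΓN : Γ ⊆ N := by
    rw [hΓe]
    intro y hy
    have := connectedComponentIn_subset _ _ hy
    exact hlevN y this.1 this.2
  have hΓh : Circ (T.cc x) (T.cc x ∩ sk1 T) φh t Γ := by
    refine ⟨⟨x0, hx0, (hLsub hx0L).2, ?_⟩, hdisc⟩
    rw [hcomp]; exact hΓe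
  have himg : (fun z => h (Ψ z)) '' Γ = h '' Γ := by
    ext y
    constructor
    · rintro ⟨z, hz, rfl⟩
      show h (Ψ z) ∈ h '' Γ
      rw [hNe z (hΓN hz)]; exact ⟨z, hz, rfl⟩
    · rintro ⟨z, hz, rfl⟩
      refine ⟨z, hz, ?_⟩
      show h (Ψ z) = h z
      rw [hNe z (hΓN hz)]
  -- the disc reaches `θ`
  have hKF : K ⊆ T.cc x := fun y hy => (hK.2.1 hy).1
  have hreach' : ∃ z ∈ K, θ ≤ B.u (h z) := by
    obtain ⟨z, hz, hzt⟩ := hreach
    have hzt' : B.t1 ≤ B.u (h (Ψ z)) := hzt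
    by_cases hzN : z ∈ N
    · refine ⟨z, hz, ?_⟩
      rw [hNe z hzN] at hzt'
      linarith
    · set L : Set E := K \ N with hL
      have hLc : IsCompact L := hK.1.isCompact.diff hNo
      have hLP : ∀ y ∈ L, h (Ψ y) ∈ PP := fun y hy =>
        (hnear x hx hd y (hKF hy.1)).resolve_left hy.2
      by_cases hq : ∃ q ∈ closure (K ∩ N) ∩ L, q ∈ connectedComponentIn L z
      · obtain ⟨q, ⟨hq1, hq2⟩, hq3⟩ := hq
        have hSsub : (fun y => h (Ψ y)) '' connectedComponentIn L z ⊆ PP := by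
          rintro _ ⟨y, hy, rfl⟩
          exact hLP y (connectedComponentIn_subset _ _ hy)
        have hSp : IsPreconnected ((fun y => h (Ψ y)) '' connectedComponentIn L z) :=
          isPreconnected_connectedComponentIn.image _ (H'.contOn.mono fun y hy =>
            hFO (hKF (connectedComponentIn_subset _ _ hy).1))
        have h1 := hosc _ hSsub hSp _ ⟨z, mem_connectedComponentIn ⟨hz, hzN⟩, rfl⟩ _
          ⟨q, hq3, rfl⟩
        have h2 : θ < φg q := by
          have h1' : B.u (h (Ψ z)) - B.u (h (Ψ q)) ≤ δ := h1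
          show θ < B.u (h (Ψ q))
          linarith
        have hcq : ContinuousWithinAt φg (K ∩ N) q :=
          (hcg.mono hKF q hq2.1).mono inter_subset_left
        have h3 : ∃ᶠ y in 𝓝[K ∩ N] q, y ∈ K ∩ N := by
          have : (𝓝[K ∩ N] q).NeBot := mem_closure_iff_nhdsWithin_neBot.1 hq1
          exact (eventually_mem_nhdsWithin).frequently
        obtain ⟨y, hy, hyt⟩ := (h3.and_eventually (hcq.eventually (lt_mem_nhds h2))).exists
        refine ⟨y, hy.1, ?_⟩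
        have hyt' : θ < B.u (h (Ψ y)) := hyt
        rw [hNe y hy.2] at hyt'
        exact hyt'.le
      · exfalso
        push Not at hq
        have hPcl : IsClosed (closure (K ∩ N) ∩ L) := isClosed_closure.inter hLc.isClosed
        obtain ⟨K1, K2, c1, c2, hd12, hun, hP1, hP2⟩ := Gg2_113.clopen_sep hLc
          (isClosed_singleton (x := z)) hPcl
          (singleton_subset_iff.2 ⟨hz, hzN⟩) inter_subset_right
          (fun p hp q hq' => by
            rw [mem_singleton_iff.1 hp]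
            exact hq q hq')
        have hKp : IsPreconnected K := hK.1.isPreconnected
        have hcov : K ⊆ K1 ∪ (K2 ∪ closure (K ∩ N)) := by
          intro y hy
          by_cases hyN : y ∈ N
          · exact Or.inr (Or.inr (subset_closure ⟨hy, hyN⟩))
          · have : y ∈ K1 ∪ K2 := by rw [hun]; exact ⟨hy, hyN⟩
            rcases this with h1 | h1
            · exact Or.inl h1
            · exact Or.inr (Or.inl h1)
        have hdis : K ∩ (K1 ∩ (K2 ∪ closure (K ∩ N))) = ∅ := by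
          rw [eq_empty_iff_forall_notMem]
          rintro y ⟨hy, hy1, hy2⟩
          have hyK2 : y ∈ K2 := by
            rcases hy2 with h1 | h1
            · exact h1
            · exact hP2 ⟨h1, by rw [← hun]; exact Or.inl hy1⟩
          exact disjoint_left.1 hd12 hy1 hyK2
        have hz1 : z ∈ K1 := hP1 rfl
        rcases isPreconnected_iff_subset_of_disjoint_closed.1 hKp K1 _ c1.isClosed
          (c2.isClosed.union isClosed_closure) hcov hdis with h1 | h1
        · have h2 : x0 ∈ Γ := by rw [hΓe]; exact mem_connectedComponentIn hx0L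
          have h3 : x0 ∈ L := by rw [← hun]; exact Or.inl (h1 (hK.1.subset h2))
          exact h3.2 (hΓN h2)
        · exact (eq_empty_iff_forall_notMem.1 hdis) z ⟨hz, hz1, h1 hz⟩
  rw [himg]
  exact hS x hOwn' t ht Γ K hΓh hK hreach'

/-! ### the iteration -/

/-- `B` comes before `B'` -/
def Rel {T : Tiling Om ι} (B B' : PBox T La) : Prop :=
  Disjoint B.pat B'.shell ∧ ∀ k, Disjoint B.pat (B'.M k)

/-- the body of the own faces after the step -/
def PBox.Y1 {T : Tiling Om ι} (B : PBox T La) : Set E := {y | B.u y < B.t1}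

/-- all patches of a list -/
def pats {T : Tiling Om ι} (l : List (PBox T La)) : Set E := {y | ∃ B ∈ l, y ∈ B.pat}

/-- **many boxes with patches, one after the other** -/
theorem iterate2 {T : Tiling Om ι} (hS : Step2 T La) {h hi : E → E} (H : HP Om La h hi)
    {PP : Set E} (δ θ : PBox T La → ℝ) : ∀ (l : List (PBox T La)), l.Pairwise Rel →
    (∀ B ∈ l, B.Ok h ∧ B.pat ⊆ PP ∧ 0 ≤ δ B ∧ Osc B.u PP (δ B) ∧ θ B + δ B < B.t1 ∧
      B.Sig h (θ B)) →
    ∀ (Ψ₀ : E ≃ₜ E) (P₀ : Set E), Mv T Ψ₀ → P₀ ⊆ PP → Near T h Ψ₀ P₀ →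
    (∀ B ∈ l, Disjoint P₀ B.shell ∧ ∀ k, Disjoint P₀ (B.M k)) →
    ∃ Ψ : E ≃ₜ E, Mv T Ψ ∧ Near T h Ψ (P₀ ∪ pats l) ∧
      (∀ x ∈ Om, T.dim x = 2 →
        h '' (Ψ '' T.cc x) ⊆ reach (h '' (Ψ₀ '' T.cc x)) (l.map fun B => B.Y)) ∧
      (∀ l1 B l2, l = l1 ++ B :: l2 → ∀ x, B.Own h x →
        h '' (Ψ '' T.cc x) ⊆ reach B.Y1 (l2.map fun B => B.Y)) := by
  intro l
  induction l with
  | nil =>
    intro _ _ Ψ₀ P₀ hΨ₀ _ hN _
    refine ⟨Ψ₀, hΨ₀, fun x hx hd z hz => ?_, fun x _ _ => Subset.rfl, ?_⟩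
    · exact (hN x hx hd z hz).imp_right Or.inl
    · intro l1 B l2 h0
      exact absurd h0.symm (by simp)
  | cons B l ih =>
    intro hp hl Ψ₀ P₀ hΨ₀ hP₀ hN hdis
    rw [List.pairwise_cons] at hp
    obtain ⟨hOk, hBP, hδ, hosc, hθ, hSig⟩ := hl B List.mem_cons_self
    obtain ⟨hd1, hd2⟩ := hdis B List.mem_cons_self
    have H₀ : HP Om La (fun x => h (Ψ₀ x)) (fun y => Ψ₀.symm (hi y)) := H.comp hΨ₀
    have esk : ∀ z ∈ sk1 T, h (Ψ₀ z) = h z := fun z hz => by rw [hΨ₀.eq_on_sk1 hz]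
    have hOk₀ : B.Ok (fun x => h (Ψ₀ x)) := by
      refine ⟨fun x hx hs => ?_, fun k => ?_, fun x hx hd hn k => ?_⟩
      · show ∃ k, x ∈ T.oc (B.e k) ∧ h (Ψ₀ x) ∈ B.M k
        change h (Ψ₀ x) ∈ B.shell at hs
        rw [esk x hx] at hs ⊢
        exact hOk.edges x hx hs
      · obtain ⟨v, hv, w, hw, dv, dw, lv, lw⟩ := hOk.ends k
        have hk := B.eOm k
        refine ⟨v, hv, w, hw, dv, dw, ?_, ?_⟩
        · show B.u (h (Ψ₀ v)) < B.a
          rw [esk v ⟨T.cc_sub_Om hk hv, by rw [dv]; exact zero_le_one⟩]; exact lv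
        · show B.b < B.u (h (Ψ₀ w))
          rw [esk w ⟨T.cc_sub_Om hk hw, by rw [dw]; exact zero_le_one⟩]; exact lw
      · rw [disjoint_left]
        rintro _ ⟨z, hz, rfl⟩ hM
        change h (Ψ₀ z) ∈ B.M k at hM
        rcases hN x hx hd z hz with h1 | h1
        · rw [h1.self_of_nhds] at hM
          exact disjoint_left.1 (hOk.faces x hx hd hn k) ⟨z, hz, rfl⟩ hM
        · exact disjoint_left.1 (hd2 k) h1 hM
    have hSig₀ : B.Sig (fun x => h (Ψ₀ x)) B.t1 :=
      transfer B H hΨ₀ hN hd1 hδ (hosc.mono hP₀) hθ hSig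
    obtain ⟨ψ, hψ, g1, g2, g3⟩ := hS B _ _ H₀ hOk₀ hSig₀
    set Ψ₁ : E ≃ₜ E := ψ.trans Ψ₀ with hΨ₁
    have hM₁ : Mv T Ψ₁ := hψ.trans hΨ₀
    have hN₁ : Near T h Ψ₁ (P₀ ∪ B.pat) := by
      intro x hx hd z hz
      rcases g1 x hx hd z hz with h1 | h1
      · rcases hN x hx hd z hz with h2 | h2
        · left
          filter_upwards [h1, h2] with y e1 e2
          show Ψ₀ (ψ y) = y
          rw [e1, e2]
        · right
          left
          show h (Ψ₀ (ψ z)) ∈ P₀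
          rw [h1.self_of_nhds]; exact h2
      · exact Or.inr (Or.inr h1)
    obtain ⟨Ψ, hΨ, k1, k2, k3⟩ := ih hp.2 (fun B' hB' => hl B' (List.mem_cons_of_mem _ hB')) Ψ₁
      (P₀ ∪ B.pat) hM₁ (union_subset hP₀ hBP) hN₁ (fun B' hB' => by
        obtain ⟨q1, q2⟩ := hdis B' (List.mem_cons_of_mem _ hB')
        obtain ⟨q3, q4⟩ := hp.1 B' hB'
        exact ⟨disjoint_union_left.2 ⟨q1, q3⟩, fun k => disjoint_union_left.2 ⟨q2 k, q4 k⟩⟩)
    have step : ∀ x ∈ Om, T.dim x = 2 →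
        h '' (Ψ₁ '' T.cc x) ⊆ grow (h '' (Ψ₀ '' T.cc x)) B.Y := by
      rintro x hx hd _ ⟨_, ⟨z, hz, rfl⟩, rfl⟩
      show h (Ψ₀ (ψ z)) ∈ _
      by_cases hm : Disjoint ((fun x => h (Ψ₀ x)) '' T.cc x) B.shell
      · rw [(g2 x hx hd hm z hz).self_of_nhds]
        exact sub_grow _ _ ⟨_, ⟨z, hz, rfl⟩, rfl⟩
      · rcases g1 x hx hd z hz with h1 | h1
        · rw [h1.self_of_nhds]
          exact sub_grow _ _ ⟨_, ⟨z, hz, rfl⟩, rfl⟩
        · rw [not_disjoint_iff] at hm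
          obtain ⟨_, ⟨w, hw, rfl⟩, hw'⟩ := hm
          exact Or.inr ⟨h1.1.2, h (Ψ₀ w), ⟨_, ⟨w, hw, rfl⟩, rfl⟩, hw'.2⟩
    refine ⟨Ψ, hΨ, fun x hx hd z hz => ?_, fun x hx hd => ?_, ?_⟩
    · refine (k1 x hx hd z hz).imp_right ?_
      rintro ((q | q) | ⟨B', hB', q⟩)
      · exact Or.inl q
      · exact Or.inr ⟨B, List.mem_cons_self, q⟩
      · exact Or.inr ⟨B', List.mem_cons_of_mem _ hB', q⟩
    · exact (k2 x hx hd).trans (reach_mono (step x hx hd) _)
    · intro l1 B' l2 hl' x hOwn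
      cases l1 with
      | nil =>
        rw [List.nil_append, List.cons.injEq] at hl'
        obtain ⟨rfl, rfl⟩ := hl'
        refine (k2 x hOwn.2.1 hOwn.2.2.1).trans (reach_mono ?_ _)
        rintro _ ⟨_, ⟨z, hz, rfl⟩, rfl⟩
        exact g3 x ((own_congr B hΨ₀).2 hOwn) z hz
      | cons B'' l1 =>
        rw [List.cons_append, List.cons.injEq] at hl'
        exact k3 l1 B' l2 hl'.2 x hOwn

/-- **many boxes with patches, with colours** -/
theorem iterate2_col {T : Tiling Om ι} (hS : Step2 T La) {J : Type*} [Finite J]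
    (B : J → PBox T La) {n : ℕ} (col : J → Fin n)
    (hcol : ∀ j j', j ≠ j' → col j = col j' → Disjoint (B j).Y (B j').Y)
    (hrel : ∀ j j', j ≠ j' → col j ≤ col j' → Rel (B j) (B j'))
    {h hi : E → E} (H : HP Om La h hi) (hOk : ∀ j, (B j).Ok h)
    {PP : Set E} (hPP : ∀ j, (B j).pat ⊆ PP) (δ θ : PBox T La → ℝ)
    (hδ : ∀ j, 0 ≤ δ (B j)) (hosc : ∀ j, Osc (B j).u PP (δ (B j)))
    (hθ : ∀ j, θ (B j) + δ (B j) < (B j).t1) (hSig : ∀ j, (B j).Sig h (θ (B j))) :
    ∃ Ψ : E ≃ₜ E, Mv T Ψ ∧ Near T h Ψ (⋃ j, (B j).pat) ∧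
      ∀ Z : ℕ → Set E, (∀ i, Z i ⊆ Z (i + 1)) →
      (∀ i < n, ∀ j, (Z i ∩ (B j).Y).Nonempty → (B j).Y ⊆ Z (i + 1)) →
      (∀ x ∈ Om, T.dim x = 2 → h '' T.cc x ⊆ Z 0 → h '' (Ψ '' T.cc x) ⊆ Z n) ∧
      (∀ j, (B j).Y1 ⊆ Z 0 → ∀ x, (B j).Own h x → h '' (Ψ '' T.cc x) ⊆ Z n) := by
  classical
  cases nonempty_fintype J
  -- the classes
  let cl : Fin n → List J := fun c => (Finset.univ.filter fun j => col j = c).toList
  let cls : List (List J) := (List.finRange n).map cl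
  have hlen : cls.length = n := by simp [cls]
  have hmemcl : ∀ c j, j ∈ cl c ↔ col j = c := by
    intro c j
    simp only [cl, Finset.mem_toList, Finset.mem_filter, Finset.mem_univ, true_and]
  have hmem : ∀ j, j ∈ cls.flatten := by
    intro j
    rw [List.mem_flatten]
    exact ⟨_, List.mem_map.2 ⟨col j, List.mem_finRange _, rfl⟩, (hmemcl _ _).2 rfl⟩
  have hpw : cls.flatten.Pairwise (fun j j' => j ≠ j' ∧ col j ≤ col j') := by
    rw [List.pairwise_flatten]
    refine ⟨fun l hl => ?_, ?_⟩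
    · obtain ⟨c, -, rfl⟩ := List.mem_map.1 hl
      have h1 : (cl c).Pairwise (fun j j' => j ≠ j') := Finset.nodup_toList _
      refine h1.imp_of_mem ?_
      intro j j' hj hj' hne
      rw [hmemcl] at hj hj'
      exact ⟨hne, by rw [hj, hj']⟩
    · rw [List.pairwise_map]
      refine (List.pairwise_lt_finRange n).imp ?_
      intro c c' hcc j hj j' hj'
      rw [hmemcl] at hj hj'
      refine ⟨?_, by rw [hj, hj']; exact hcc.le⟩
      rintro rfl
      rw [hj] at hj'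
      exact hcc.ne hj'
  have hcls : ∀ l ∈ cls, l.Pairwise (fun j j' => Disjoint (B j).Y (B j').Y) := by
    intro l hl
    obtain ⟨c, -, rfl⟩ := List.mem_map.1 hl
    have h1 : (cl c).Pairwise (fun j j' => j ≠ j') := Finset.nodup_toList _
    refine h1.imp_of_mem ?_
    intro j j' hj hj' hne
    rw [hmemcl] at hj hj'
    exact hcol j j' hne (hj.trans hj'.symm)
  obtain ⟨Ψ, hΨ, g0, g1, g2⟩ := iterate2 hS H (PP := PP) δ θ (cls.flatten.map B)
    (by
      rw [List.pairwise_map]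
      exact hpw.imp fun hne => hrel _ _ hne.1 hne.2)
    (by
      intro b hb
      obtain ⟨j, -, rfl⟩ := List.mem_map.1 hb
      exact ⟨hOk j, hPP j, hδ j, hosc j, hθ j, hSig j⟩)
    (Homeomorph.refl E) ∅ Mv.refl (empty_subset _)
    (fun x _ _ z _ => Or.inl (Eventually.of_forall fun _ => rfl))
    (fun b _ => ⟨empty_disjoint _, fun k => empty_disjoint _⟩)
  have hrefl : ∀ s : Set E, h '' ((Homeomorph.refl E) '' s) = h '' s := by
    intro s
    have : (Homeomorph.refl E) '' s = s := by ext z; simp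
    rw [this]
  have key : ∀ (ls : List (List J)), (∀ l' ∈ ls, ∃ l ∈ cls, l'.Sublist l) → ls.length ≤ n →
      ∀ Z : ℕ → Set E, (∀ i, Z i ⊆ Z (i + 1)) →
      (∀ i < n, ∀ j, (Z i ∩ (B j).Y).Nonempty → (B j).Y ⊆ Z (i + 1)) →
      ∀ S ⊆ Z 0, reach S ((ls.flatten.map B).map fun B => B.Y) ⊆ Z n := by
    intro ls hls hn Z hZ hZY S hS
    have e : ((ls.flatten.map B).map fun B => B.Y) =
        (ls.map fun l => l.map fun j => (B j).Y).flatten := by
      rw [List.map_map, List.map_flatten]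
      rfl
    rw [e]
    have h1 := reach_chain Z hZ (ls.map fun l => l.map fun j => (B j).Y)
      (by
        intro l hl
        obtain ⟨l', hl', rfl⟩ := List.mem_map.1 hl
        obtain ⟨l0, h0, h0'⟩ := hls l' hl'
        rw [List.pairwise_map]
        exact (hcls l0 h0).sublist h0') 0
      (by
        intro l hl Y hY i hi hm
        obtain ⟨l', hl', rfl⟩ := List.mem_map.1 hl
        obtain ⟨j, -, rfl⟩ := List.mem_map.1 hY
        rw [List.length_map, Nat.zero_add] at hi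
        exact hZY i (lt_of_lt_of_le hi hn) j hm) S hS
    refine h1.trans ?_
    rw [List.length_map, Nat.zero_add]
    exact monotone_nat_of_le_succ hZ hn
  refine ⟨Ψ, hΨ, fun x hx hd z hz => ?_, fun Z hZ hZY => ⟨fun x hx hd h0 => ?_,
    fun j hj x hOwn => ?_⟩⟩
  · refine (g0 x hx hd z hz).imp_right ?_
    rintro (q | ⟨b, hb, q⟩)
    · exact absurd q (notMem_empty _)
    · obtain ⟨j, -, rfl⟩ := List.mem_map.1 hb
      exact mem_iUnion.2 ⟨j, q⟩
  · exact (g1 x hx hd).trans (key cls (fun l hl => ⟨l, hl, List.Sublist.refl _⟩) hlen.le Z hZ hZY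
      _ (by rw [hrefl]; exact h0))
  · obtain ⟨m1, m2, e⟩ := List.append_of_mem (hmem j)
    obtain ⟨ls', e', hl', hs'⟩ := flatten_suffix cls m1 j m2 e
    have h2 := g2 (m1.map B) (B j) (m2.map B) (by rw [e]; simp) x hOwn
    refine h2.trans ?_
    rw [e']
    exact key ls' hs' (hl'.trans hlen.le) Z hZ hZY _ hj

end Crest.Agent.R096.Pst_465
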