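import Crest.Agent.R096.Sk2a_855

/-!
# Row 96, 2SK for a general gauge: boxes `{u ≤ b}` with a PL function `u` (helper113)

`UBox T La` = `Sk2_855.Box` with `u : E → ℝ` instead of `‖L y‖`; `USurg T La`, `uiterate`.
-/

set_option autoImplicit false
set_option linter.unusedSectionVars false

open Set Metric

namespace Crest.Agent.R096.Ub_113

open Crest.Agent.R096.Msh_715 (Tiling)
open Crest.Agent.R096.Pl (PLH PLMap)
open Crest.Agent.R096.Ce_537 (LocPL PLOn)
open Crest.Agent.R096.Ce_537 (IsBall)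
open Crest.Agent.R096.Sk2_855

variable {E : Type*} [NormedAddCommGroup E] [NormedSpace ℝ E] {Om La : Set E} {ι : Type*}

/-- a convex body `{u ≤ b}` (or any family of PL balls) of the target with its crossing edges and
its marks -/
structure UBox (T : Tiling Om ι) (La : Set E) where
  u : E → ℝ
  cont : Continuous u
  pl : PLOn u univ
  a : ℝ
  b : ℝ
  ab : a < b
  cpt : IsCompact {y | u y ≤ b}
  ball : ∀ t ∈ Ioo a b, IsBall 3 {y | u y ≤ t} {y | u y = t}
  sub : ∀ y, u y ≤ b → y ∈ La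
  K : Type
  fin : Finite K
  e : K → E
  eOm : ∀ k, e k ∈ Om
  edim : ∀ k, T.dim (e k) = 1
  einj : ∀ k k', e k' ∈ T.oc (e k) → k' = k
  M : K → Set E
  Mc : ∀ k, IsCompact (M k)
  Mdisj : ∀ k k', k ≠ k' → Disjoint (M k) (M k')
  Mlev : ∀ k, ∀ t ∈ Icc a b, IsPreconnected (M k ∩ {y | u y = t}) ∧ (M k ∩ {y | u y = t}).Nonempty
  two : ∀ x ∈ Om, T.dim x = 2 → (∃ k, e k ∈ T.cc x) →
    ∃ k k', k ≠ k' ∧ e k ∈ T.cc x ∧ e k' ∈ T.cc x ∧ ∀ k'', e k'' ∈ T.cc x → k'' = k ∨ k'' = k'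
  conn : ∀ k k', Relation.ReflTransGen
    (fun k k' => ∃ x ∈ Om, T.dim x = 2 ∧ e k ∈ T.cc x ∧ e k' ∈ T.cc x) k k'

namespace UBox

variable {T : Tiling Om ι} (B : UBox T La)

/-- the shell of the level interval -/
def shell : Set E := {y | B.a ≤ B.u y ∧ B.u y ≤ B.b}

/-- the full box -/
def Y : Set E := {y | B.u y ≤ B.b}

theorem shell_sub_Y : B.shell ⊆ B.Y := fun _ h => h.2

/-- a face which contains no crossing edge -/
def NC (x : E) : Prop := ∀ k, B.e k ∉ T.cc x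

/-- the hypotheses on the homeomorphism -/
structure Ok (h : E → E) : Prop where
  edges : ∀ x ∈ sk1 T, h x ∈ B.shell → ∃ k, x ∈ T.oc (B.e k) ∧ h x ∈ B.M k
  ends : ∀ k, ∃ v ∈ T.cc (B.e k), ∃ w ∈ T.cc (B.e k), T.dim v = 0 ∧ T.dim w = 0 ∧
      B.u (h v) < B.a ∧ B.b < B.u (h w)
  faces : ∀ x ∈ Om, T.dim x = 2 → B.NC x → ∀ k, Disjoint (h '' T.cc x) (B.M k)

end UBox

/-- **SURG** (one box): what the surgery leaf gives. -/
def USurg (T : Tiling Om ι) (La : Set E) : Prop :=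
  ∀ (B : UBox T La) (h hi : E → E), HP Om La h hi → B.Ok h →
    ∃ ψ : E ≃ₜ E, Mv T ψ ∧
      (∀ x ∈ Om, T.dim x = 2 → h '' (ψ '' T.cc x) ⊆ h '' T.cc x ∪ B.shell) ∧
      (∀ x ∈ Om, T.dim x = 2 → Disjoint (h '' T.cc x) B.shell → ψ '' T.cc x = T.cc x) ∧
      (∃ t ∈ Ioo B.a B.b, ∀ x ∈ Om, T.dim x = 2 → B.NC x → ∀ z ∈ T.cc x, B.u (h (ψ z)) ≠ t)

/-! ### iteration -/

variable [FiniteDimensional ℝ E]

theorem in_of_ne {T : Tiling Om ι} (B : UBox T La) {h hi : E → E} (H : HP Om La h hi)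
    {x : E} (hx : x ∈ Om) {t : ℝ} (ht : t ∈ Ioo B.a B.b)
    (hne : ∀ z ∈ T.cc x, B.u (h z) ≠ t)
    (hb : ∀ z ∈ T.cc x, z ∈ sk1 T → B.u (h z) < B.a) : h '' T.cc x ⊆ B.Y := by
  obtain ⟨v, hv, hv0⟩ := T.exists_vertex hx
  have hvO : v ∈ Om := T.cc_sub_Om hx hv
  have hcont : ContinuousOn (fun z => B.u (h z)) (T.cc x) :=
    B.cont.comp_continuousOn (H.contOn.mono (T.cc_sub_Om hx))
  have hpre : IsPreconnected (T.cc x) := (T.convex_cc x).isPreconnected
  rintro _ ⟨z, hz, rfl⟩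
  by_contra hn
  have hz' : B.b < B.u (h z) := not_le.1 hn
  have h1 := hb v hv ⟨hvO, by rw [hv0]; exact zero_le_one⟩
  obtain ⟨w, hw, e⟩ := hpre.intermediate_value hv hz hcont
    (show t ∈ Icc (B.u (h v)) (B.u (h z)) from ⟨(h1.trans ht.1).le, (ht.2.trans hz').le⟩)
  exact hne w hw e

/-- many boxes, one after the other -/
theorem iterate {T : Tiling Om ι} (hS : USurg T La) : ∀ (l : List (UBox T La)),
    l.Pairwise (fun B B' => ∀ k, Disjoint B.shell (B'.M k)) →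
    ∀ h hi : E → E, HP Om La h hi → (∀ B ∈ l, B.Ok h) →
    ∃ Ψ : E ≃ₜ E, Mv T Ψ ∧
      (∀ x ∈ Om, T.dim x = 2 →
        h '' (Ψ '' T.cc x) ⊆ reach (h '' T.cc x) (l.map fun B => B.Y)) ∧
      (∀ l1 B l2, l = l1 ++ B :: l2 → ∀ x ∈ Om, T.dim x = 2 → B.NC x →
        (∀ z ∈ T.cc x, z ∈ sk1 T → B.u (h z) < B.a) →
        h '' (Ψ '' T.cc x) ⊆ reach B.Y (l2.map fun B => B.Y)) := by
  intro l
  induction l with
  | nil =>
    intro _ h hi _ _
    refine ⟨Homeomorph.refl E, Mv.refl, fun x _ _ => ?_, ?_⟩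
    · have : (Homeomorph.refl E) '' T.cc x = T.cc x := by
        ext z; simp
      rw [this]
      exact Subset.rfl
    · intro l1 B l2 h0
      exact absurd h0.symm (by simp)
  | cons B l ih =>
    intro hp h hi H hOk
    obtain ⟨ψ, hψ, h1, h2, t, ht, h3⟩ := hS B h hi H (hOk B List.mem_cons_self)
    set h' : E → E := fun x => h (ψ x) with hh'
    have H' : HP Om La h' (fun y => ψ.symm (hi y)) := H.comp hψ
    have esk : ∀ z ∈ sk1 T, h' z = h z := fun z hz => by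
      show h (ψ z) = h z
      rw [hψ.eq_on_sk1 hz]
    have eim : ∀ s : Set E, h' '' s = h '' (ψ '' s) := fun s => (image_image h ψ s).symm
    rw [List.pairwise_cons] at hp
    have hOk' : ∀ B' ∈ l, B'.Ok h' := by
      intro B' hB'
      have hO := hOk B' (List.mem_cons_of_mem _ hB')
      refine ⟨fun x hx hs => ?_, fun k => ?_, fun x hx hd hn k => ?_⟩
      · rw [esk x hx] at hs ⊢
        exact hO.edges x hx hs
      · obtain ⟨v, hv, w, hw, dv, dw, lv, lw⟩ := hO.ends k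
        have hk := B'.eOm k
        refine ⟨v, hv, w, hw, dv, dw, ?_, ?_⟩
        · rw [esk v ⟨T.cc_sub_Om hk hv, by rw [dv]; exact zero_le_one⟩]; exact lv
        · rw [esk w ⟨T.cc_sub_Om hk hw, by rw [dw]; exact zero_le_one⟩]; exact lw
      · rw [eim]
        exact Disjoint.mono_left (h1 x hx hd)
          (disjoint_union_left.2 ⟨hO.faces x hx hd hn k, hp.1 B' hB' k⟩)
    obtain ⟨Ψ, hΨ, g1, g2⟩ := ih hp.2 h' _ H' hOk'
    have eim2 : ∀ s : Set E, h '' ((Ψ.trans ψ) '' s) = h' '' (Ψ '' s) := fun s => by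
      rw [eim]
      have e : (⇑(Ψ.trans ψ)) '' s = ψ '' (Ψ '' s) := by rw [image_image]; rfl
      rw [e]
    have step : ∀ x ∈ Om, T.dim x = 2 → h' '' T.cc x ⊆ grow (h '' T.cc x) B.Y := by
      intro x hx hd
      rw [eim]
      by_cases hm : Disjoint (h '' T.cc x) B.shell
      · rw [h2 x hx hd hm]
        exact sub_grow _ _
      · rintro y hy
        rcases h1 x hx hd hy with hy | hy
        · exact Or.inl hy
        · rw [not_disjoint_iff] at hm
          obtain ⟨z, hz, hz'⟩ := hm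
          exact Or.inr ⟨hy.2, z, hz, hz'.2⟩
    refine ⟨Ψ.trans ψ, hΨ.trans hψ, fun x hx hd => ?_, ?_⟩
    · rw [eim2]
      exact (g1 x hx hd).trans (reach_mono (step x hx hd) _)
    · intro l1 B' l2 hl x hx hd hn hb
      rw [eim2]
      cases l1 with
      | nil =>
        rw [List.nil_append, List.cons.injEq] at hl
        obtain ⟨rfl, rfl⟩ := hl
        refine (g1 x hx hd).trans (reach_mono ?_ _)
        exact in_of_ne B H' hx ht (h3 x hx hd hn) fun z hz hz1 => by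
          rw [esk z hz1]; exact hb z hz hz1
      | cons B'' l1 =>
        rw [List.cons_append, List.cons.injEq] at hl
        exact g2 l1 B' l2 hl.2 x hx hd hn fun z hz hz1 => by
          rw [esk z hz1]; exact hb z hz hz1

end Crest.Agent.R096.Ub_113
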