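import Crest.Agent.R096.Gg3_113
import Crest.Agent.R096.Ub1_113

/-!
# 2SK, CLUSTER for a general gauge: the connecting set `X t` of a box

`X B h t` = the marks at the level `t` and the images of all the components of level sets of faces
which meet the rim.  It is preconnected, lies in the level `t`, and misses the faces without
crossing edges.
-/

set_option autoImplicit false
set_option linter.unusedSectionVars false

open Set Metric Topology

namespace Crest.Agent.R096.Ub2_113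

open Crest.Agent.R096.Msh_715 Crest.Agent.R096.Agl5_543 Crest.Agent.R096.Sk2_855
open Crest.Agent.R096.Gg2_113 Crest.Agent.R096.Gg3_113 Crest.Agent.R096.Ub_113

variable {E : Type} [NormedAddCommGroup E] [NormedSpace ℝ E] [FiniteDimensional ℝ E]
variable {Om La : Set E} {ι : Type} {T : Tiling Om ι}

/-- the level set of the closed cell of `x` -/
def LS (B : UBox T La) (h : E → E) (t : ℝ) (x : E) : Set E := {z | z ∈ T.cc x ∧ B.u (h z) = t}

/-- the connecting set at the level `t` -/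
def X (B : UBox T La) (h : E → E) (t : ℝ) : Set E :=
  (⋃ k, B.M k ∩ {y | B.u y = t}) ∪
  {y | ∃ x ∈ Om, T.dim x = 2 ∧ ∃ p ∈ LS B h t x, T.dim p ≤ 1 ∧
    y ∈ h '' connectedComponentIn (LS B h t x) p}

section

variable {B : UBox T La} {h : E → E} {t : ℝ}

/-- a rim point in the shell lies on a crossing edge -/
theorem rim_pt (hO : B.Ok h) (ht : t ∈ Icc B.a B.b) {p : E} (hp : p ∈ Om) (hd : T.dim p ≤ 1)
    (e : B.u (h p) = t) : ∃ k, p ∈ T.oc (B.e k) ∧ h p ∈ B.M k ∩ {y | B.u y = t} := by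
  obtain ⟨k, h1, h2⟩ := hO.edges p ⟨hp, hd⟩ ⟨by rw [e]; exact ht.1, by rw [e]; exact ht.2⟩
  exact ⟨k, h1, h2, e⟩

theorem eq_of_oc {k k' : B.K} {p : E} (h1 : p ∈ T.oc (B.e k)) (h2 : p ∈ T.oc (B.e k')) :
    k' = k := by
  apply B.einj
  rw [← T.oc_eq_of_mem (B.eOm k) h1, T.oc_eq_of_mem (B.eOm k') h2]
  exact T.self_mem_oc _

theorem e_mem_of_oc {k : B.K} {p x : E} (h1 : p ∈ T.oc (B.e k)) (hx : p ∈ T.cc x) :
    B.e k ∈ T.cc x := by
  apply T.cc_sub_of_mem hx
  rw [T.cc_eq_of_mem_oc (B.eOm k) h1]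
  exact T.self_mem_cc _

/-- (iii) the rim of a face without crossing edges has no point in the shell -/
theorem nc_rim (hO : B.Ok h) {x : E} (hx : x ∈ Om) (hn : B.NC x) {p : E}
    (hp : p ∈ T.cc x) (hd : T.dim p ≤ 1) : h p ∉ B.shell := by
  intro hs
  obtain ⟨k, h1, -⟩ := hO.edges p ⟨T.cc_sub_Om hx hp, hd⟩ hs
  exact hn k (e_mem_of_oc h1 hp)

theorem isClosed_LS (hc : ContinuousOn h Om) {x : E} (hx : x ∈ Om) : IsClosed (LS B h t x) := by
  have hu : ContinuousOn (fun z => B.u (h z)) (T.cc x) :=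
    B.cont.comp_continuousOn (hc.mono (T.cc_sub_Om hx))
  exact hu.preimage_isClosed_of_isClosed (T.isClosed_cc x) isClosed_singleton

/-- **the joining component in a face with two crossing edges** -/
theorem join (hO : B.Ok h) (hc : ContinuousOn h Om) (ht : t ∈ Icc B.a B.b) {x : E}
    (hx : x ∈ Om) (hd : T.dim x = 2) {k k' : B.K} (hkk : k ≠ k') (hk : B.e k ∈ T.cc x)
    (hk' : B.e k' ∈ T.cc x) :
    ∃ p ∈ LS B h t x, ∃ q ∈ LS B h t x, p ∈ T.oc (B.e k) ∧ q ∈ T.oc (B.e k') ∧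
      q ∈ connectedComponentIn (LS B h t x) p := by
  set F : C2 T := mk2 T hx hd with hF
  have hFs : F.set = T.cc x := rfl
  set u : E → ℝ := fun z => B.u (h z) with hu
  have huc : ContinuousOn u (T.cc x) :=
    B.cont.comp_continuousOn (hc.mono (T.cc_sub_Om hx))
  have hsub : T.cc (B.e k) ⊆ T.cc x := T.cc_sub_of_mem hk
  have hsub' : T.cc (B.e k') ⊆ T.cc x := T.cc_sub_of_mem hk'
  -- points of edges at the level `t` are in the open edges
  have hopen : ∀ k, ∀ p ∈ T.cc (B.e k), u p = t → p ∈ T.oc (B.e k) := by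
    intro k p hp hpt
    by_contra hn
    have h1 := T.dim_lt hp hn
    rw [B.edim k] at h1
    have hpO : p ∈ Om := T.cc_sub_Om (B.eOm k) hp
    obtain ⟨k'', h2, -⟩ := rim_pt hO ht hpO (by omega) hpt
    have h3 := T.dim_eq_of_mem_oc (B.eOm k'') h2
    rw [B.edim k''] at h3
    omega
  obtain ⟨v, hv, w, hw, dv, dw, lv, lw⟩ := hO.ends k
  have hbd : ∀ y ∈ T.cc (B.e k), T.dim y = 0 → y ∈ F.bd \ T.oc (B.e k) := by
    intro y hy hy0
    refine ⟨?_, fun hyo => ?_⟩
    · rw [F.mem_bd_iff (by rw [hFs]; exact hsub hy)]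
      omega
    · have := T.dim_eq_of_mem_oc (B.eOm k) hyo
      rw [B.edim k] at this
      omega
  have key := exists_join (F := T.cc x) (T.convex_cc x) (T.isCompact_cc hx) huc (t := t)
    (P := LS B h t (B.e k)) (P' := LS B h t (B.e k')) (C1 := F.bd \ T.oc (B.e k))
    (C2 := T.cc (B.e k)) (isClosed_LS hc (B.eOm k)) (isClosed_LS hc (B.eOm k'))
    (fun z hz => ⟨hsub hz.1, hz.2⟩) (fun z hz => ⟨hsub' hz.1, hz.2⟩)
    (rim_edge F (by rw [hFs]; exact hk) (B.edim k)) (T.convex_cc _).isPreconnected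
    (fun z hz => by rw [← hFs]; exact F.bd_sub hz.1) hsub ?_ (fun z hz e => ⟨hz, e⟩)
    (hbd v hv dv) hv (hbd w hw dw) hw (lv.trans_le ht.1) (ht.2.trans_lt lw)
  · obtain ⟨p, hp, q, hq, hc⟩ := key
    exact ⟨p, ⟨hsub hp.1, hp.2⟩, q, ⟨hsub' hq.1, hq.2⟩, hopen k p hp.1 hp.2,
      hopen k' q hq.1 hq.2, hc⟩
  · rintro z ⟨hzb, hzo⟩ hzt
    have hzF : z ∈ T.cc x := by rw [← hFs]; exact F.bd_sub hzb
    have hz1 : T.dim z ≤ 1 := (F.mem_bd_iff (F.bd_sub hzb)).1 hzb
    obtain ⟨k'', h1, h2⟩ := rim_pt hO ht (T.cc_sub_Om hx hzF) hz1 hzt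
    have h3 : B.e k'' ∈ T.cc x := e_mem_of_oc h1 hzF
    have hne : k'' ≠ k := by
      rintro rfl
      exact hzo h1
    obtain ⟨k1, k2, -, -, -, hall⟩ := B.two x hx hd ⟨k, hk⟩
    have e1 := hall k hk
    have e2 := hall k' hk'
    have e3 := hall k'' h3
    have e4 : k'' = k' := by
      rcases e1 with e1 | e1 <;> rcases e2 with e2 | e2 <;> rcases e3 with e3 | e3 <;>
        subst_vars <;> first | rfl | exact absurd rfl hkk | exact absurd rfl hne
    subst e4
    exact ⟨T.oc_sub_cc _ h1, hzt⟩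

/-- (i) -/
theorem X_sub (B : UBox T La) (h : E → E) (t : ℝ) : X B h t ⊆ {y | B.u y = t} := by
  rintro y (hy | ⟨x, hx, hd, p, hp, hp1, z, hz, rfl⟩)
  · obtain ⟨k, hk⟩ := mem_iUnion.1 hy
    exact hk.2
  · exact (connectedComponentIn_subset _ _ hz).2

/-- (ii) the components of level sets of faces which meet the rim are mapped into `X` -/
theorem comp_sub_X {x : E} (hx : x ∈ Om) (hd : T.dim x = 2) {p : E} (hp : p ∈ LS B h t x)
    (hp1 : T.dim p ≤ 1) : h '' connectedComponentIn (LS B h t x) p ⊆ X B h t :=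
  fun _ hy => Or.inr ⟨x, hx, hd, p, hp, hp1, hy⟩

theorem preconn_comp (hc : ContinuousOn h Om) {x : E} (hx : x ∈ Om) (p : E) :
    IsPreconnected (h '' connectedComponentIn (LS B h t x) p) := by
  refine isPreconnected_connectedComponentIn.image _ (hc.mono ?_)
  exact (connectedComponentIn_subset _ _).trans fun z hz => T.cc_sub_Om hx hz.1

theorem mark_sub_X (k : B.K) : B.M k ∩ {y | B.u y = t} ⊆ X B h t :=
  fun _ hy => Or.inl (mem_iUnion.2 ⟨k, hy⟩)

/-- (iv) `X t` is preconnected -/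
theorem X_preconn (hO : B.Ok h) (hc : ContinuousOn h Om) (ht : t ∈ Icc B.a B.b) :
    IsPreconnected (X B h t) := by
  -- every point of `X` is joined to a mark
  have hpt : ∀ y ∈ X B h t, ∃ k, ∃ S ⊆ X B h t, IsPreconnected S ∧ y ∈ S ∧
      B.M k ∩ {y | B.u y = t} ⊆ S := by
    rintro y (hy | ⟨x, hx, hd, p, hp, hp1, hy⟩)
    · obtain ⟨k, hk⟩ := mem_iUnion.1 hy
      exact ⟨k, _, mark_sub_X k, (B.Mlev k t ht).1, hk, Subset.rfl⟩
    · obtain ⟨k, -, hk⟩ := rim_pt hO ht (T.cc_sub_Om hx hp.1) hp1 hp.2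
      refine ⟨k, _, union_subset (comp_sub_X hx hd hp hp1) (mark_sub_X k), ?_, Or.inl hy,
        subset_union_right⟩
      exact IsPreconnected.union (h p) ⟨p, mem_connectedComponentIn hp, rfl⟩ hk
        (preconn_comp hc hx p) (B.Mlev k t ht).1
  -- two marks are joined
  have hmm : ∀ k k', ∃ S ⊆ X B h t, IsPreconnected S ∧ B.M k ∩ {y | B.u y = t} ⊆ S ∧
      B.M k' ∩ {y | B.u y = t} ⊆ S := by
    intro k k'
    have hch := B.conn k k'
    induction hch with
    | refl => exact ⟨_, mark_sub_X k, (B.Mlev k t ht).1, Subset.rfl, Subset.rfl⟩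
    | @tail k1 k2 _ hst ih =>
      obtain ⟨S, hS, hSp, hSk, hS1⟩ := ih
      by_cases he : k1 = k2
      · subst he
        exact ⟨S, hS, hSp, hSk, hS1⟩
      obtain ⟨x, hx, hd, h1, h2⟩ := hst
      obtain ⟨p, hp, q, hq, hpo, hqo, hpq⟩ := join hO hc ht hx hd he h1 h2
      have hp1 : T.dim p ≤ 1 := by rw [T.dim_eq_of_mem_oc (B.eOm _) hpo, B.edim]
      have hq1 : T.dim q ≤ 1 := by rw [T.dim_eq_of_mem_oc (B.eOm _) hqo, B.edim]
      obtain ⟨k3, a1, a2⟩ := rim_pt hO ht (T.cc_sub_Om hx hp.1) hp1 hp.2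
      obtain ⟨k4, b1, b2⟩ := rim_pt hO ht (T.cc_sub_Om hx hq.1) hq1 hq.2
      have e3 : k3 = k1 := eq_of_oc hpo a1
      have e4 : k4 = k2 := eq_of_oc hqo b1
      subst e3
      subst e4
      refine ⟨S ∪ (h '' connectedComponentIn (LS B h t x) p ∪
        B.M k4 ∩ {y | B.u y = t}), ?_, ?_, hSk.trans subset_union_left, ?_⟩
      · exact union_subset hS (union_subset (comp_sub_X hx hd hp hp1) (mark_sub_X _))
      · refine IsPreconnected.union (h p) (hS1 a2)
          (Or.inl ⟨p, mem_connectedComponentIn hp, rfl⟩) hSp ?_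
        exact IsPreconnected.union (h q) ⟨q, hpq, rfl⟩ b2 (preconn_comp hc hx p)
          (B.Mlev _ t ht).1
      · exact subset_union_right.trans subset_union_right
  refine isPreconnected_of_forall_pair fun y hy y' hy' => ?_
  obtain ⟨k, S, hS, hSp, hyS, hkS⟩ := hpt y hy
  obtain ⟨k', S', hS', hSp', hyS', hkS'⟩ := hpt y' hy'
  obtain ⟨R, hR, hRp, h1, h2⟩ := hmm k k'
  obtain ⟨m, hm⟩ := (B.Mlev k t ht).2
  obtain ⟨m', hm'⟩ := (B.Mlev k' t ht).2
  refine ⟨S ∪ (R ∪ S'), union_subset hS (union_subset hR hS'), Or.inl hyS, Or.inr (Or.inr hyS'),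
    ?_⟩
  exact IsPreconnected.union m (hkS hm) (Or.inl (h1 hm)) hSp
    (IsPreconnected.union m' (h2 hm') (hkS' hm') hRp hSp')

/-- (v) the faces without crossing edges miss `X t` -/
theorem nc_disj (hO : B.Ok h) (hi : InjOn h Om) (ht : t ∈ Icc B.a B.b) {x : E}
    (hx : x ∈ Om) (hd : T.dim x = 2) (hn : B.NC x) : Disjoint (h '' T.cc x) (X B h t) := by
  rw [disjoint_left]
  rintro _ ⟨z, hz, rfl⟩ (hy | ⟨x', hx', hd', p, hp, hp1, z', hz', e⟩)
  · obtain ⟨k, hk⟩ := mem_iUnion.1 hy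
    exact (disjoint_left.1 (hO.faces x hx hd hn k)) (mem_image_of_mem _ hz) hk.1
  · have hz'L := connectedComponentIn_subset _ _ hz'
    have hzz : z' = z := hi (T.cc_sub_Om hx' hz'L.1) (T.cc_sub_Om hx hz) e
    subst hzz
    have hzt : B.u (h z') = t := hz'L.2
    have hzO : z' ∈ Om := T.cc_sub_Om hx hz
    rcases le_or_gt (T.dim z') 1 with h1 | h1
    · exact nc_rim hO hx hn hz h1 ⟨by rw [hzt]; exact ht.1, by rw [hzt]; exact ht.2⟩
    · have o1 : z' ∈ T.oc x := by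
        by_contra hno
        have := T.dim_lt hz hno
        omega
      have o2 : z' ∈ T.oc x' := by
        by_contra hno
        have := T.dim_lt hz'L.1 hno
        omega
      have ecc : T.cc x' = T.cc x := by
        rw [← T.cc_eq_of_mem_oc hx o1, ← T.cc_eq_of_mem_oc hx' o2]
      have hpx : p ∈ T.cc x := by rw [← ecc]; exact hp.1
      exact nc_rim hO hx hn hpx hp1 ⟨by rw [hp.2]; exact ht.1, by rw [hp.2]; exact ht.2⟩

end

end Crest.Agent.R096.Ub2_113
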