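import Crest.Agent.R096.Pst1_465
import Crest.Agent.R096.Ub3_113
import Crest.Agent.R096.Dsc2_113

/-!
# Row 96, p = 2: the surgery for one box with patches (L2; helper465)

* `circ_back`: a circle of `h ∘ Ψ` at a level which is not reached by moved points is a circle
  of `h`.
* `step2 : Step2 T La`.
-/

set_option autoImplicit false
set_option linter.unusedSectionVars false

open Set Metric Topology Filter Module

namespace Crest.Agent.R096.Pst_465

open Ce_537 Pl Cb_609 Msh_715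
open Srg_465 Sk2_855 Ub_113

/-- the circles at a level without moved points are old circles -/
theorem circ_back {E : Type*} [NormedAddCommGroup E] [NormedSpace ℝ E] {F rim : Set E}
    (hF : IsClosed F) {φh φg : E → ℝ} {Ψ : E → E} (hcg : ContinuousOn φg F)
    (hgh : ∀ z, Ψ z = z → φg z = φh z) {t : ℝ}
    (hlevN : ∀ y ∈ F, φg y = t → ∀ᶠ z in 𝓝 y, Ψ z = z) {Γ : Set E}
    (hΓ : Circ F rim φg t Γ) :
    Circ F rim φh t Γ ∧ ∀ z ∈ Γ, Ψ z = z := by
  set N : Set E := {y | ∀ᶠ z in 𝓝 y, Ψ z = z} with hN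
  have hNo : IsOpen N := isOpen_setOfPred_eventually_nhds
  have hNe : ∀ y ∈ N, Ψ y = y := fun y hy =>
    (show ∀ᶠ z in 𝓝 y, Ψ z = z from hy).self_of_nhds
  have hlevN' : ∀ y ∈ F, φg y = t → y ∈ N := hlevN
  have hLsub : Ls F φg t ⊆ Ls F φh t := by
    rintro y ⟨hy, hyt⟩
    exact ⟨hy, by rw [← hgh y (hNe y (hlevN y hy hyt))]; exact hyt⟩
  have hLN : ∀ y ∈ Ls F φh t, y ∈ N → y ∈ Ls F φg t := by
    rintro y ⟨hy, hyt⟩ hyN
    exact ⟨hy, by rw [hgh y (hNe y hyN)]; exact hyt⟩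
  have hLcl : IsClosed (Ls F φg t) := hcg.preimage_isClosed_of_isClosed hF isClosed_singleton
  obtain ⟨⟨x0, hx0, hx0t, hΓe⟩, hdisc⟩ := id hΓ
  have hx0L : x0 ∈ Ls F φg t := ⟨hx0, hx0t⟩
  have hcomp : connectedComponentIn (Ls F φh t) x0 = connectedComponentIn (Ls F φg t) x0 := by
    apply Subset.antisymm
    · set C := connectedComponentIn (Ls F φh t) x0 with hC
      have hCp : IsPreconnected C := isPreconnected_connectedComponentIn
      have hCs : C ⊆ Ls F φh t := connectedComponentIn_subset _ _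
      have hx0C : x0 ∈ C := mem_connectedComponentIn (hLsub hx0L)
      have hcov : C ⊆ N ∪ (Ls F φg t)ᶜ := by
        intro y hy
        by_cases hyL : y ∈ Ls F φg t
        · exact Or.inl (hlevN y hyL.1 hyL.2)
        · exact Or.inr hyL
      have hdis : C ∩ (N ∩ (Ls F φg t)ᶜ) = ∅ := by
        rw [eq_empty_iff_forall_notMem]
        rintro y ⟨hy, hyN, hyL⟩
        exact hyL (hLN y (hCs hy) hyN)
      have hCN : C ⊆ N := by
        rcases isPreconnected_iff_subset_of_disjoint.1 hCp N _ hNo hLcl.isOpen_compl hcov hdis with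
          h1 | h1
        · exact h1
        · exact absurd hx0L (h1 hx0C)
      exact hCp.subset_connectedComponentIn hx0C fun y hy => hLN y (hCs hy) (hCN hy)
    · exact connectedComponentIn_mono _ hLsub
  refine ⟨⟨⟨x0, hx0, (hLsub hx0L).2, by rw [hcomp]; exact hΓe⟩, hdisc⟩, fun z hz => ?_⟩
  rw [hΓe] at hz
  have := connectedComponentIn_subset _ _ hz
  exact hNe z (hlevN z this.1 this.2)

section Surg

variable {E : Type} [NormedAddCommGroup E] [NormedSpace ℝ E] [FiniteDimensional ℝ E]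
variable {Om La : Set E} {ι : Type} {T : Tiling Om ι}

/-- **L2**, for one box -/
theorem step2_aux (h3 : finrank ℝ E = 3) (hDM : DMove E) (hLev : LevStmt T) : Step2 T La := by
  classical
  intro B h hi H hOk hSig
  have M := mesh (T := T) h3 hDM
  set u : E → ℝ := fun y => B.u y with hu
  have huc : Continuous u := B.cont
  let J : Finset (Face T) := (Ub3_113.finite_faces B.toUBox H).toFinset
  have hJ : ∀ k, k ∈ J ↔ ∃ x ∈ k.set, B.u (h x) ≤ B.b := by
    intro k; simp [J]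
  -- the regular levels
  have hlev : ∀ k : Face T, ∃ bad : Set ℝ, bad.Finite ∧ ∀ I : Set ℝ, IsPreconnected I →
      Disjoint I bad →
      Lev k.set (k.set ∩ sk1 T) (fun x => u (h x)) I ∧
        ∃ n : ℕ, ∀ t ∈ I, {Γ | Circ k.set (k.set ∩ sk1 T) (fun x => u (h x)) t Γ}.ncard ≤ n := by
    intro k
    obtain ⟨x, hx, hd, e⟩ := k.exists_pt
    rw [e]
    refine hLev x hx hd _ ?_
    have h1 : PLOn h (T.cc x) := LocPL.plOn H.pl (T.isCompact_cc hx) (T.cc_sub_Om hx)
    have h2 : PLOn u univ := B.pl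
    exact h2.comp h1 fun _ _ => mem_univ _
  choose bad hbad hn' using hlev
  have hBf : (⋃ k ∈ (J : Set (Face T)), bad k).Finite :=
    J.finite_toSet.biUnion fun k _ => hbad k
  obtain ⟨a', b', ha', hab', hb', hdis⟩ : ∃ a' b', B.a ≤ a' ∧ a' < b' ∧ b' ≤ B.b ∧
      Disjoint (Ioo a' b') (⋃ k ∈ (J : Set (Face T)), bad k) := by
    have hop : IsOpen (Ioo B.a B.b ∩ (⋃ k ∈ (J : Set (Face T)), bad k)ᶜ) :=
      isOpen_Ioo.inter hBf.isClosed.isOpen_compl
    have hne : (Ioo B.a B.b ∩ (⋃ k ∈ (J : Set (Face T)), bad k)ᶜ).Nonempty := by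
      have h1 : (Ioo B.a B.b).Infinite := Ioo_infinite B.ab
      obtain ⟨t, ht, ht'⟩ := (h1.sdiff hBf).nonempty
      exact ⟨t, ht, ht'⟩
    obtain ⟨t, ht⟩ := hne
    obtain ⟨l, m, hlm, hsub⟩ := (mem_nhds_iff_exists_Ioo_subset).1 (hop.mem_nhds ht)
    have hlm' : l < m := hlm.1.trans hlm.2
    have h1 : Icc l m ⊆ Icc B.a B.b := by
      rw [← closure_Ioo hlm'.ne, ← closure_Ioo B.ab.ne]
      exact closure_mono fun s hs => (hsub hs).1
    have h2 := h1 (left_mem_Icc.2 hlm'.le)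
    have h4 := h1 (right_mem_Icc.2 hlm'.le)
    refine ⟨l, m, h2.1, hlm', h4.2, ?_⟩
    rw [disjoint_left]
    exact fun s hs => (hsub hs).2
  have hn2 : ∀ k : Face T, ∃ n : ℕ, k ∈ J →
      Lev k.set (k.set ∩ sk1 T) (fun x => u (h x)) (Ioo a' b') ∧
        ∀ t ∈ Ioo a' b', {Γ | Circ k.set (k.set ∩ sk1 T) (fun x => u (h x)) t Γ}.ncard ≤ n := by
    intro k
    by_cases hk : k ∈ J
    · obtain ⟨h1, n, h2⟩ := hn' k (Ioo a' b') isPreconnected_Ioo (hdis.mono_right
        (subset_biUnion_of_mem (u := bad) (show k ∈ (J : Set (Face T)) from hk)))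
      exact ⟨n, fun _ => ⟨h1, h2⟩⟩
    · exact ⟨0, fun hk' => absurd hk' hk⟩
  choose n hn using hn2
  have hI : Ioo a' b' ⊆ Icc B.a B.b := fun t ht => ⟨ha'.trans ht.1.le, ht.2.le.trans hb'⟩
  have L : Lvls La u (fun t => {y | B.u y ≤ t}) (fun t => {y | B.u y = t}) (Ioo a' b') :=
    { cont := huc.continuousOn
      ball := fun t ht => B.ball t ⟨ha'.trans_lt ht.1, ht.2.trans_le hb'⟩
      sub := fun t ht y hy => B.sub y (by
        have : B.u y = t := hy
        rw [this]; exact (hI ht).2)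
      eq := fun t ht y _ => Iff.rfl }
  let 𝒜 : ℝ → Set E → Prop := fun t D => Disjoint D (Ub2_113.X B.toUBox h t) ∧ ∃ m, D ⊆ B.c' m
  have hA : ∀ t D D', 𝒜 t D → D' ⊆ D → 𝒜 t D' := by
    rintro t D D' ⟨h1, m, h2⟩ h4
    exact ⟨h1.mono_left h4, m, h4.trans h2⟩
  have s : St Om La (sk1 T) (fun k : Face T => k.set) J u 𝒜 (Ioo a' b') h hi :=
    { hp := H
      lev := fun k hk => (hn k hk).1
      off := fun k hk x hx hxI => hk ((hJ k).2 ⟨x, hx, (hI hxI).2⟩)
      rim := by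
        rintro k hk t ht x hx hxt ⟨p, hp1, hp2⟩ D hD hxD
        obtain ⟨q, hq, hd, e⟩ := k.exists_pt
        change x ∈ k.set at hx
        change u (h x) = t at hxt
        have hLS : Ls k.set (fun x => u (h x)) t = Ub2_113.LS B.toUBox h t q := by
          rw [e]; rfl
        rw [hLS] at hp1
        have hpL := connectedComponentIn_subset _ _ hp1
        have hsub := Ub2_113.comp_sub_X (B := B.toUBox) (h := h) hq hd hpL hp2.2.2
        rw [← connectedComponentIn_eq hp1] at hsub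
        have hxL : x ∈ Ub2_113.LS B.toUBox h t q := ⟨by rw [← e]; exact hx, hxt⟩
        exact disjoint_left.1 hD.1 hxD (hsub ⟨x, mem_connectedComponentIn hxL, rfl⟩) }
  have hsum : ∀ t ∈ Ioo a' b', (∑ k ∈ J, {Γ | Circ k.set (k.set ∩ sk1 T)
      (fun x => u (h x)) t Γ}.ncard) ≤ ∑ k ∈ J, n k := by
    intro t ht
    exact Finset.sum_le_sum fun k hk => (hn k hk).2 t ht
  obtain ⟨ψ, hψ, c1, c2, a'', b'', ha'', hab'', hb'', e1, s1, g1⟩ :=
    surgery M hA _ a' b' hab' L h hi s hsum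
  have hI2 : Ioo a'' b'' ⊆ Ioo a' b' := Ioo_subset_Ioo ha'' hb''
  have hMv : Mv T ψ := ⟨hψ.plh, hψ.supp⟩
  refine ⟨ψ, hMv, ?_, ?_, ?_⟩
  · intro x hx hd z hz
    rcases c1 (mkFace hx hd) z hz with h1 | ⟨t, ht, D, Γ, ⟨-, m, hm⟩, hS, hzD⟩
    · exact Or.inl h1
    · right
      have h2 : B.u (h (ψ z)) = t := hS.sub hzD
      refine ⟨?_, mem_iUnion.2 ⟨m, hm hzD⟩⟩
      show B.a ≤ B.u (h (ψ z)) ∧ B.u (h (ψ z)) ≤ B.b
      rw [h2]
      exact hI ht
  · intro x hx hd hdj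
    exact c2 (mkFace hx hd) (fun z hz hzI => disjoint_left.1 hdj ⟨z, hz, rfl⟩ (by
      show B.a ≤ B.u (h z) ∧ B.u (h z) ≤ B.b
      exact hI hzI))
  · intro x hOwn z hz
    obtain ⟨-, hx, hd, hNC, hrim⟩ := id hOwn
    by_contra hcon
    rw [not_lt] at hcon
    -- the point is not moved
    have hzN : ∀ᶠ y in 𝓝 z, ψ y = y := by
      rcases c1 (mkFace hx hd) z hz with h1 | ⟨t, ht, D, Γ, -, hS, hzD⟩
      · exact h1
      · exfalso
        have h2 : B.u (h (ψ z)) = t := hS.sub hzD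
        rw [h2] at hcon
        have h4 := ht.2.trans_le (hb'.trans B.bt)
        exact absurd hcon (not_le.2 h4)
    have hzz : ψ z = z := hzN.self_of_nhds
    obtain ⟨t, ht⟩ := nonempty_Ioo.2 hab''
    have htI := hI (hI2 ht)
    have htI' : t ∈ Ioo B.a B.b :=
      ⟨lt_of_le_of_lt (ha'.trans ha'') ht.1, lt_of_lt_of_le ht.2 (hb''.trans hb')⟩
    set k : Face T := mkFace hx hd with hk
    have hks : k.set = T.cc x := rfl
    obtain ⟨v, hv, hv1⟩ := Dsc_113.rim_nonempty (T := T) hx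
    have hkJ : k ∈ J := (hJ k).2 ⟨v, hv, (hrim v hv hv1).le.trans B.ab.le⟩
    have hid : ∀ w ∈ T.cc x, B.u (h (ψ w)) = t → ∀ᶠ y in 𝓝 w, ψ y = y := fun w hw hwt =>
      e1 k w hw (by
        show B.u (h (ψ w)) ∈ Ioo a'' b''
        rw [hwt]; exact ht)
    -- the circle around `z`
    have hLv : Lev (T.cc x) (T.cc x ∩ sk1 T) (fun z => u (h (ψ z))) (Ioo a'' b'') := s1.lev k hkJ
    obtain ⟨Γ, Fc, hDC, hzF⟩ := Dsc_113.exists_circle hx hd hLv ht (by
        rintro y ⟨hy, hy1⟩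
        show B.u (h (ψ y)) < t
        rw [hMv.eq_on_sk1 hy1]
        exact (hrim y hy hy1).trans htI'.1) hz (by
        show t < B.u (h (ψ z))
        exact (htI'.2.trans_le B.bt).trans_le hcon)
    have h1 : Circ (T.cc x) (T.cc x ∩ sk1 T) (fun z => u (h (ψ z))) t Γ := hDC.circ
    obtain ⟨hΓh, hΓid⟩ := circ_back (T.isClosed_cc x) (φh := fun z => u (h z)) (Ψ := ψ)
      hLv.cont (fun z hz => by show u (h (ψ z)) = u (h z); rw [hz]) hid h1
    obtain ⟨m, hm⟩ := hSig x hOwn t htI' Γ Fc hΓh hDC.2 ⟨z, hzF, by rwa [hzz] at hcon⟩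
    have hΓL : Γ ⊆ Ls k.set (fun x => u (h (ψ x))) t := h1.subset
    obtain ⟨-, hB, hsub, -⟩ := id hDC
    have hFO : Fc ⊆ Om := hsub.trans fun w hw => M.sub k hw.1
    have himg : (fun x => h (ψ x)) '' Γ = h '' Γ := by
      ext y
      constructor
      · rintro ⟨w, hw, rfl⟩
        show h (ψ w) ∈ h '' Γ
        rw [hΓid w hw]; exact ⟨w, hw, rfl⟩
      · rintro ⟨w, hw, rfl⟩
        refine ⟨w, hw, ?_⟩
        show h (ψ w) = h w
        rw [hΓid w hw]
    have hc : Nonempty (PLEquiv (S1 ℝ) ((fun x => h (ψ x)) '' Γ)) :=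
      circle_of_disc (HP.ball_image s1.hp hB hFO)
    have hcZ : (fun x => h (ψ x)) '' Γ ⊆ {y | B.u y = t} := by
      rintro _ ⟨w, hw, rfl⟩
      exact (hΓL hw).2
    obtain ⟨A, A', h5, h6⟩ := sphere_sides (L.ball t (hI2 ht)) hc hcZ
    have hSA : Side {y | B.u y ≤ t} {y | B.u y = t} A ((fun x => h (ψ x)) '' Γ) :=
      ⟨A', h5, h6⟩
    have hSA' : Side {y | B.u y ≤ t} {y | B.u y = t} A' ((fun x => h (ψ x)) '' Γ) :=
      ⟨A, h5.symm, by rw [union_comm]; exact h6⟩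
    obtain ⟨S, hSp, hS1, hS2⟩ := B.sep t htI' m
    obtain ⟨k', y, hyM, hyt, hym⟩ := B.far t htI' m
    have hyS : y ∈ S := hS2 ⟨hyt, hym⟩
    have hyX : y ∈ Ub2_113.X B.toUBox h t := Ub2_113.mark_sub_X (B := B.toUBox) k' ⟨hyM, hyt⟩
    have hXp : IsPreconnected (Ub2_113.X B.toUBox h t ∪ S) :=
      IsPreconnected.union y hyX hyS (Ub2_113.X_preconn hOk H.contOn htI) hSp
    have hXs : Ub2_113.X B.toUBox h t ∪ S ⊆ {y | B.u y = t} :=
      union_subset (Ub2_113.X_sub B.toUBox h t) fun w hw => (hS1 hw).1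
    have hXc : Disjoint (Ub2_113.X B.toUBox h t ∪ S) ((fun x => h (ψ x)) '' Γ) := by
      rw [himg]
      refine disjoint_union_left.2 ⟨?_, ?_⟩
      · refine Disjoint.mono_right ?_ (Ub2_113.nc_disj hOk (HP.injOn H) htI hx hd hNC).symm
        exact image_mono fun w hw => (hΓL hw).1
      · rw [disjoint_left]
        exact fun w hw hw' => (hS1 hw).2 (hm hw')
    have hall : ∀ D, Side {y | B.u y ≤ t} {y | B.u y = t} D ((fun x => h (ψ x)) '' Γ) →
        Disjoint (Ub2_113.X B.toUBox h t ∪ S) D → 𝒜 t D := by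
      intro D hD hdj
      rw [disjoint_union_left] at hdj
      refine ⟨hdj.1.symm, m, fun w hw => ?_⟩
      by_contra hwm
      exact disjoint_left.1 hdj.2 (hS2 ⟨hD.sub hw, hwm⟩) hw
    rcases split_of_union hSA.isBall.isClosed hSA'.isBall.isClosed h6 h5.inter hXp hXs hXc with
      h7 | h7
    · exact g1 t ht k hkJ Γ h1 A' hSA' (hall A' hSA' h7.2)
    · exact g1 t ht k hkJ Γ h1 A hSA (hall A hSA h7.2)

/-- **L2** -/
theorem step2 (h3 : finrank ℝ E = 3) (hDM : DMove E) (T : Tiling Om ι) : Step2 T La :=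
  step2_aux h3 hDM (levStmt T)

end Surg

end Crest.Agent.R096.Pst_465
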