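import Crest.Agent.R096.Pst3_465
import Crest.Agent.R096.Lm5_812
import Crest.Agent.R096.GpZ_702

/-!
# Row 96: the unconditional forms of `DMove`, `Surg`, `Step2` and of the iteration (helper465)
-/

set_option autoImplicit false
set_option linter.unusedSectionVars false

open Set Metric Topology Filter Module

namespace Crest.Agent.R096.Pst_465

open Ce_537 Pl Cb_609 Msh_715
open Srg_465 Sk2_855 Ub_113

section

variable {E : Type} [NormedAddCommGroup E] [NormedSpace ℝ E] [FiniteDimensional ℝ E]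

theorem dMove_final (h3 : finrank ℝ E = 3) : DMove E :=
  Lm_812.dMove_gen h3 Gp_702.existStmt Gp_702.normStmt

variable {Om La : Set E} {ι : Type}

theorem surg_final' (h3 : finrank ℝ E = 3) (T : Tiling Om ι) : Surg T La :=
  surg_final h3 (dMove_final h3) T

/-- **L2**, unconditional -/
theorem step2_final (h3 : finrank ℝ E = 3) (T : Tiling Om ι) : Step2 T La :=
  step2 h3 (dMove_final h3) T

/-- **L6**, unconditional -/
theorem iterate2_final (h3 : finrank ℝ E = 3) {T : Tiling Om ι} {J : Type*} [Finite J]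
    (B : J → PBox T La) {n : ℕ} (col : J → Fin n)
    (hcol : ∀ j j', j ≠ j' → col j = col j' → Disjoint (B j).Y (B j').Y)
    (hM : ∀ j j', j ≠ j' → ∀ k, Disjoint (B j).shell ((B j').M k))
    (hpat : ∀ i j, col i < col j → Disjoint (B i).pat (B j).shell)
    {h hi : E → E} (H : HP Om La h hi) (hOk : ∀ j, (B j).Ok h)
    (θ : J → ℝ) (hθ : ∀ j, θ j ≤ (B j).t1)
    (hosc : ∀ j, ∀ S ⊆ ⋃ i, (B i).pat, IsPreconnected S → (∃ y ∈ S, (B j).t1 ≤ (B j).u y) →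
      ∀ z ∈ S, θ j ≤ (B j).u z)
    (hSig : ∀ j, (B j).Sig h (θ j)) :
    ∃ Ψ : E ≃ₜ E, Mv T Ψ ∧ Near T h Ψ (⋃ j, (B j).pat) ∧
      ∀ Z : ℕ → Set E, (∀ i, Z i ⊆ Z (i + 1)) →
      (∀ i < n, ∀ j, (Z i ∩ (B j).Y).Nonempty → (B j).Y ⊆ Z (i + 1)) →
      (∀ x ∈ Om, T.dim x = 2 → h '' T.cc x ⊆ Z 0 → h '' (Ψ '' T.cc x) ⊆ Z n) ∧
      (∀ j, (B j).Y1 ⊆ Z 0 → ∀ x, (B j).Own h x → h '' (Ψ '' T.cc x) ⊆ Z n) :=
  iterate2_col' (step2_final h3 T) B col hcol hM hpat H hOk θ hθ hosc hSig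

/-- **L6** with clean levels, unconditional -/
theorem iterate2_clean_final (h3 : finrank ℝ E = 3) {T : Tiling Om ι} {J : Type*} [Finite J]
    (B : J → PBox T La) {n : ℕ} (col : J → Fin n)
    (hcol : ∀ j j', j ≠ j' → col j = col j' → Disjoint (B j).Y (B j').Y)
    (hM : ∀ j j', j ≠ j' → ∀ k, Disjoint (B j).shell ((B j').M k))
    (hpat : ∀ i j, col i < col j → Disjoint (B i).pat (B j).shell)
    {h hi : E → E} (H : HP Om La h hi) (hOk : ∀ j, (B j).Ok h) (θ : J → ℝ)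
    (hτ : ∀ j, ∃ τ, θ j ≤ τ ∧ τ ≤ (B j).t1 ∧ ∀ y ∈ ⋃ i, (B i).pat, (B j).u y ≠ τ)
    (hSig : ∀ j, (B j).Sig h (θ j)) :
    ∃ Ψ : E ≃ₜ E, Mv T Ψ ∧ Near T h Ψ (⋃ j, (B j).pat) ∧
      ∀ Z : ℕ → Set E, (∀ i, Z i ⊆ Z (i + 1)) →
      (∀ i < n, ∀ j, (Z i ∩ (B j).Y).Nonempty → (B j).Y ⊆ Z (i + 1)) →
      (∀ x ∈ Om, T.dim x = 2 → h '' T.cc x ⊆ Z 0 → h '' (Ψ '' T.cc x) ⊆ Z n) ∧
      (∀ j, (B j).Y1 ⊆ Z 0 → ∀ x, (B j).Own h x → h '' (Ψ '' T.cc x) ⊆ Z n) :=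
  iterate2_clean (step2_final h3 T) B col hcol hM hpat H hOk θ hτ hSig

end

end Crest.Agent.R096.Pst_465
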