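import Mathlib

/-!
# Row 96, P2-PATCH ([L3] of 753 #10029) (helper168)

`Z` = boundary of a convex body of a 3-dimensional normed space (`ball o r ⊆ K ⊆ closedBall o R`).
There is a constant `C = C(E, r, R)` such that for all `y`, `ρ ≥ 0` the points of `Z` outside
`closedBall y (C * ρ)` lie in one preconnected subset of `Z \ closedBall y ρ`.

Proof: radial projection to the unit sphere of the sup norm of `Fin 3 → ℝ` (bi-Lipschitz); there
the complement of a box is connected by coordinate slices.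
-/

set_option autoImplicit false
set_option linter.unusedSectionVars false

open Set Metric Topology

namespace Crest.Agent.R096.Ptc_168

noncomputable section

/-! ### the sup-norm sphere of `Fin 3 → ℝ` minus a box -/

abbrev V3 : Type := Fin 3 → ℝ

/-- a coordinate slice of the unit sphere -/
def Sl (j : Fin 3) (c : ℝ) : Set V3 := {w | ‖w‖ = 1 ∧ w j = c}

/-- a piece of a slice -/
def Pc (j i : Fin 3) (c ε : ℝ) : Set V3 := closedBall 0 1 ∩ {w | w j = c} ∩ {w | w i = ε}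

theorem convex_coord (j : Fin 3) (c : ℝ) : Convex ℝ {w : V3 | w j = c} :=
  convex_hyperplane (LinearMap.isLinear (LinearMap.proj (R := ℝ) (φ := fun _ : Fin 3 => ℝ) j)) c

theorem isPreconnected_Pc (j i : Fin 3) (c ε : ℝ) : IsPreconnected (Pc j i c ε) :=
  (((convex_closedBall (0 : V3) 1).inter (convex_coord j c)).inter
    (convex_coord i ε)).isPreconnected

theorem norm_le_one {w : V3} (h : ∀ i, |w i| ≤ 1) : ‖w‖ ≤ 1 :=
  (pi_norm_le_iff_of_nonneg zero_le_one).2 h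

theorem norm_eq_one {w : V3} (h : ∀ i, |w i| ≤ 1) {i : Fin 3} (hi : |w i| = 1) : ‖w‖ = 1 :=
  le_antisymm (norm_le_one h) (hi ▸ norm_le_pi_norm w i)

theorem exists_of_norm {w : V3} (h : ‖w‖ = 1) : ∃ i, |w i| = 1 := by
  by_contra hcon
  push Not at hcon
  have h1 : ∀ i, |w i| < 1 := fun i =>
    lt_of_le_of_ne (h ▸ norm_le_pi_norm w i) (hcon i)
  have h2 : ‖w‖ < 1 := (pi_norm_lt_iff one_pos).2 h1
  linarith

theorem Pc_sub {j i : Fin 3} {c ε : ℝ} (hε : |ε| = 1) : Pc j i c ε ⊆ Sl j c := by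
  rintro w ⟨⟨h1, h2⟩, h3⟩
  refine ⟨?_, h2⟩
  rw [mem_closedBall_zero_iff] at h1
  refine norm_eq_one (fun k => (norm_le_pi_norm w k).trans h1) (i := i) ?_
  rw [show w i = ε from h3]; exact hε

theorem third (j k : Fin 3) : ∃ l : Fin 3, l ≠ j ∧ l ≠ k := by
  revert j k; decide

theorem others (j : Fin 3) : ∃ k l : Fin 3, k ≠ j ∧ l ≠ j ∧ k ≠ l ∧ ∀ i, i = j ∨ i = k ∨ i = l := by
  revert j; decide

/-- the point with three prescribed coordinates -/
def pt3 (j k : Fin 3) (c a b : ℝ) : V3 := fun i => if i = j then c else if i = k then a else b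

theorem isPreconnected_Sl (j : Fin 3) {c : ℝ} (hc : |c| ≤ 1) : IsPreconnected (Sl j c) := by
  rcases eq_or_lt_of_le hc with h1 | h1
  · -- a full face
    have : Sl j c = closedBall 0 1 ∩ {w | w j = c} := by
      ext w
      constructor
      · rintro ⟨a, b⟩
        exact ⟨by rw [mem_closedBall_zero_iff]; exact a.le, b⟩
      · rintro ⟨a, b⟩
        rw [mem_closedBall_zero_iff] at a
        refine ⟨norm_eq_one (fun k => (norm_le_pi_norm w k).trans a) (i := j) ?_, b⟩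
        rw [show w j = c from b]; exact h1
    rw [this]
    exact ((convex_closedBall (0 : V3) 1).inter (convex_coord j c)).isPreconnected
  · obtain ⟨k, l, hk, hl, hkl, hall⟩ := others j
    -- corners
    have hcor : ∀ a b : ℝ, |a| = 1 → |b| = 1 → pt3 j k c a b ∈ Pc j k c a ∩ Pc j l c b := by
      intro a b ha hb
      have hn : ‖pt3 j k c a b‖ ≤ 1 := by
        refine norm_le_one fun i => ?_
        unfold pt3
        split_ifs
        · exact h1.le
        · exact ha.le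
        · exact hb.le
      have hj : pt3 j k c a b j = c := by simp [pt3]
      have hk' : pt3 j k c a b k = a := by simp [pt3, hk]
      have hl' : pt3 j k c a b l = b := by simp [pt3, hl, hkl.symm]
      refine ⟨⟨⟨?_, hj⟩, hk'⟩, ⟨⟨?_, hj⟩, hl'⟩⟩
      · rw [mem_closedBall_zero_iff]; exact hn
      · rw [mem_closedBall_zero_iff]; exact hn
    have h11 : |(1 : ℝ)| = 1 := abs_one
    refine isPreconnected_of_forall (pt3 j k c 1 1) fun w hw => ?_
    obtain ⟨i, hi⟩ := exists_of_norm hw.1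
    have hwb : w ∈ closedBall (0 : V3) 1 := by rw [mem_closedBall_zero_iff]; exact hw.1.le
    rcases hall i with rfl | rfl | rfl
    · exfalso
      rw [hw.2] at hi
      linarith
    · refine ⟨Pc j i c (w i) ∪ Pc j l c 1, union_subset (Pc_sub hi) (Pc_sub h11), Or.inr (hcor 1 1 h11 h11).2,
        Or.inl ⟨⟨hwb, hw.2⟩, rfl⟩, ?_⟩
      exact IsPreconnected.union _ (hcor (w i) 1 hi h11).1 (hcor (w i) 1 hi h11).2
        (isPreconnected_Pc _ _ _ _) (isPreconnected_Pc _ _ _ _)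
    · refine ⟨Pc j i c (w i) ∪ Pc j k c 1, union_subset (Pc_sub hi) (Pc_sub h11), Or.inr (hcor 1 1 h11 h11).1,
        Or.inl ⟨⟨hwb, hw.2⟩, rfl⟩, ?_⟩
      exact IsPreconnected.union _ (hcor 1 (w i) h11 hi).2 (hcor 1 (w i) h11 hi).1
        (isPreconnected_Pc _ _ _ _) (isPreconnected_Pc _ _ _ _)

theorem Sl_meet {j k : Fin 3} (hjk : j ≠ k) {c c' : ℝ} (hc : |c| ≤ 1) (hc' : |c'| ≤ 1) :
    (Sl j c ∩ Sl k c').Nonempty := by
  obtain ⟨l, hlj, hlk⟩ := third j k
  have hn : ‖pt3 j k c c' 1‖ = 1 := by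
    refine norm_eq_one (fun i => ?_) (i := l) ?_
    · unfold pt3
      split_ifs
      · exact hc
      · exact hc'
      · exact abs_one.le
    · simp [pt3, hlj, hlk]
  exact ⟨pt3 j k c c' 1, ⟨hn, by simp [pt3]⟩, ⟨hn, by simp [pt3, hjk.symm]⟩⟩

/-- **the unit sphere of the sup norm minus a box of half side `< 1` is connected** -/
theorem isPreconnected_sphere_diff (w0 : V3) {δ : ℝ} (hδ : δ < 1) :
    IsPreconnected ({w : V3 | ‖w‖ = 1} \ closedBall w0 δ) := by
  classical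
  -- free values
  have hfree : ∀ l : Fin 3, ∃ c : ℝ, |c| ≤ 1 ∧ δ < |c - w0 l| := by
    intro l
    rcases le_total 0 (w0 l) with h | h
    · refine ⟨-1, by simp, ?_⟩
      rw [abs_of_nonpos (by linarith)]; linarith
    · refine ⟨1, by simp, ?_⟩
      rw [abs_of_nonneg (by linarith)]; linarith
  choose c hc1 hc2 using hfree
  -- slices avoid the box
  have hav : ∀ (j : Fin 3) (a : ℝ), δ < |a - w0 j| →
      Sl j a ⊆ {w : V3 | ‖w‖ = 1} \ closedBall w0 δ := by
    intro j a ha w hw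
    refine ⟨hw.1, fun hb => ?_⟩
    rw [mem_closedBall, dist_eq_norm] at hb
    have h1 := (norm_le_pi_norm (w - w0) j).trans hb
    rw [Pi.sub_apply, hw.2, Real.norm_eq_abs] at h1
    linarith
  -- the hub
  have h01 := Sl_meet (j := 0) (k := 1) (by decide) (hc1 0) (hc1 1)
  have h12 := Sl_meet (j := 1) (k := 2) (by decide) (hc1 1) (hc1 2)
  obtain ⟨p, hp0, hp1⟩ := h01
  obtain ⟨q, hq1, hq2⟩ := h12
  have hub01 : IsPreconnected (Sl 0 (c 0) ∪ Sl 1 (c 1)) :=
    IsPreconnected.union p hp0 hp1 (isPreconnected_Sl 0 (hc1 0)) (isPreconnected_Sl 1 (hc1 1))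
  have hub : IsPreconnected (Sl 0 (c 0) ∪ Sl 1 (c 1) ∪ Sl 2 (c 2)) :=
    IsPreconnected.union q (Or.inr hq1) hq2 hub01 (isPreconnected_Sl 2 (hc1 2))
  have hubs : ∀ l, Sl l (c l) ⊆ Sl 0 (c 0) ∪ Sl 1 (c 1) ∪ Sl 2 (c 2) := by
    intro l
    fin_cases l
    · exact fun x hx => Or.inl (Or.inl hx)
    · exact fun x hx => Or.inl (Or.inr hx)
    · exact fun x hx => Or.inr hx
  have hubav : Sl 0 (c 0) ∪ Sl 1 (c 1) ∪ Sl 2 (c 2) ⊆ {w : V3 | ‖w‖ = 1} \ closedBall w0 δ :=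
    union_subset (union_subset (hav _ _ (hc2 0)) (hav _ _ (hc2 1))) (hav _ _ (hc2 2))
  refine isPreconnected_of_forall p fun w hw => ?_
  -- a coordinate of w outside the box
  obtain ⟨j, hj⟩ : ∃ j, δ < |w j - w0 j| := by
    by_contra hcon
    push Not at hcon
    rcases le_or_gt 0 δ with hδ0 | hδ0
    · apply hw.2
      rw [mem_closedBall, dist_eq_norm, pi_norm_le_iff_of_nonneg hδ0]
      exact fun i => hcon i
    · exact absurd ((abs_nonneg _).trans (hcon 0)) (not_le.2 hδ0)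
  have hwj : |w j| ≤ 1 := by
    have h1 : ‖w‖ = 1 := hw.1
    exact h1 ▸ norm_le_pi_norm w j
  obtain ⟨l, hlj, -⟩ := third j j
  obtain ⟨z, hz1, hz2⟩ := Sl_meet (j := j) (k := l) hlj.symm hwj (hc1 l)
  refine ⟨Sl j (w j) ∪ (Sl 0 (c 0) ∪ Sl 1 (c 1) ∪ Sl 2 (c 2)), union_subset (hav _ _ hj) hubav,
    Or.inr (Or.inl (Or.inl hp0)), Or.inl ⟨hw.1, rfl⟩, ?_⟩
  exact IsPreconnected.union z hz1 (hubs l hz2) (isPreconnected_Sl j hwj) hub

/-! ### gauges and radial projections -/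

variable {E : Type*} [NormedAddCommGroup E] [NormedSpace ℝ E]

/-- a positively homogeneous Lipschitz function which is bounded below -/
structure Gg (g : E → ℝ) (κ c : ℝ) : Prop where
  hom : ∀ t : ℝ, 0 ≤ t → ∀ v, g (t • v) = t * g v
  lip : ∀ v w, |g v - g w| ≤ κ * ‖v - w‖
  low : ∀ v, c * ‖v‖ ≤ g v

namespace Gg

variable {g n : E → ℝ} {κ c : ℝ}

theorem zero (h : Gg g κ c) : g 0 = 0 := by
  have := h.hom 0 le_rfl 0
  simpa using this

theorem up (h : Gg g κ c) (v : E) : g v ≤ κ * ‖v‖ := by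
  have := h.lip v 0
  rw [h.zero, sub_zero, sub_zero] at this
  exact (le_abs_self _).trans this

theorem pos (h : Gg g κ c) (hc : 0 < c) {v : E} (hv : v ≠ 0) : 0 < g v :=
  lt_of_lt_of_le (mul_pos hc (norm_pos_iff.2 hv)) (h.low v)

theorem cont (h : Gg g κ c) (hκ : 0 ≤ κ) : Continuous g := by
  have : LipschitzWith ⟨κ, hκ⟩ g := LipschitzWith.of_dist_le_mul fun v w => by
    rw [Real.dist_eq, dist_eq_norm]; exact h.lip v w
  exact this.continuous

theorem mono (h : Gg g κ c) {κ' c' : ℝ} (h1 : κ ≤ κ') (h2 : c' ≤ c) : Gg g κ' c' where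
  hom := h.hom
  lip v w := (h.lip v w).trans (mul_le_mul_of_nonneg_right h1 (norm_nonneg _))
  low v := (mul_le_mul_of_nonneg_right h2 (norm_nonneg _)).trans (h.low v)

/-- the radial projection `{g = 1} → {n = 1}` is Lipschitz -/
theorem proj_lip (h : Gg g κ c) (h' : Gg n κ c) (hκ : 0 < κ) (hc : 0 < c) {v v' : E}
    (hv : g v = 1) (hv' : g v' = 1) :
    ‖(n v)⁻¹ • v - (n v')⁻¹ • v'‖ ≤ (κ / c + κ ^ 3 / c ^ 3) * ‖v - v'‖ := by
  -- sizes
  have hup : ∀ {w : E}, g w = 1 → ‖w‖ ≤ 1 / c := by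
    intro w hw
    have := h.low w
    rw [le_div_iff₀ hc]; linarith
  have hlo : ∀ {w : E}, g w = 1 → 1 / κ ≤ ‖w‖ := by
    intro w hw
    have := h.up w
    rw [div_le_iff₀ hκ]; linarith
  have hnlo : ∀ {w : E}, g w = 1 → c / κ ≤ n w := by
    intro w hw
    have h1 := h'.low w
    have h2 := mul_le_mul_of_nonneg_left (hlo hw) hc.le
    calc c / κ = c * (1 / κ) := by ring
      _ ≤ c * ‖w‖ := h2
      _ ≤ n w := h1
  have hck : 0 < c / κ := by positivity
  have hn : 0 < n v := lt_of_lt_of_le hck (hnlo hv)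
  have hn' : 0 < n v' := lt_of_lt_of_le hck (hnlo hv')
  have e1 : (n v)⁻¹ • v - (n v')⁻¹ • v' = (n v)⁻¹ • (v - v') + ((n v)⁻¹ - (n v')⁻¹) • v' := by
    rw [smul_sub, sub_smul]; abel
  rw [e1]
  have e2 : |(n v)⁻¹ - (n v')⁻¹| ≤ κ * ‖v - v'‖ * (κ / c) ^ 2 := by
    have h3 : (n v)⁻¹ - (n v')⁻¹ = (n v' - n v) * ((n v)⁻¹ * (n v')⁻¹) := by
      field_simp
    rw [h3, abs_mul]
    have h4 : |n v' - n v| ≤ κ * ‖v - v'‖ := by
      rw [abs_sub_comm]; exact h'.lip v v'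
    have h5 : |(n v)⁻¹ * (n v')⁻¹| ≤ (κ / c) ^ 2 := by
      rw [abs_of_pos (by positivity), sq]
      have h6 : (n v)⁻¹ ≤ κ / c := by
        rw [inv_le_comm₀ hn (by positivity), inv_div]; exact hnlo hv
      have h7 : (n v')⁻¹ ≤ κ / c := by
        rw [inv_le_comm₀ hn' (by positivity), inv_div]; exact hnlo hv'
      exact mul_le_mul h6 h7 (by positivity) (by positivity)
    exact mul_le_mul h4 h5 (abs_nonneg _) (by positivity)
  have e3 : ‖(n v)⁻¹ • (v - v')‖ ≤ κ / c * ‖v - v'‖ := by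
    rw [norm_smul, Real.norm_eq_abs, abs_of_pos (by positivity)]
    refine mul_le_mul_of_nonneg_right ?_ (norm_nonneg _)
    rw [inv_le_comm₀ hn (by positivity), inv_div]; exact hnlo hv
  have e4 : ‖((n v)⁻¹ - (n v')⁻¹) • v'‖ ≤ κ ^ 3 / c ^ 3 * ‖v - v'‖ := by
    rw [norm_smul, Real.norm_eq_abs]
    calc |(n v)⁻¹ - (n v')⁻¹| * ‖v'‖ ≤ (κ * ‖v - v'‖ * (κ / c) ^ 2) * (1 / c) :=
          mul_le_mul e2 (hup hv') (norm_nonneg _) (by positivity)
      _ = κ ^ 3 / c ^ 3 * ‖v - v'‖ := by field_simp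
  calc _ ≤ ‖(n v)⁻¹ • (v - v')‖ + ‖((n v)⁻¹ - (n v')⁻¹) • v'‖ := norm_add_le _ _
    _ ≤ κ / c * ‖v - v'‖ + κ ^ 3 / c ^ 3 * ‖v - v'‖ := add_le_add e3 e4
    _ = _ := by ring

end Gg

/-- the norm of a linear isomorphism is a gauge -/
theorem gg_norm {F : Type*} [NormedAddCommGroup F] [NormedSpace ℝ F] (L : E ≃L[ℝ] F) :
    Gg (fun v => ‖L v‖) ‖(L : E →L[ℝ] F)‖ (‖(L.symm : F →L[ℝ] E)‖ + 1)⁻¹ where
  hom t ht v := by
    simp only [map_smul, norm_smul, Real.norm_eq_abs, abs_of_nonneg ht]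
  lip v w := by
    refine (abs_norm_sub_norm_le _ _).trans ?_
    rw [← map_sub]
    exact (L : E →L[ℝ] F).le_opNorm _
  low v := by
    have h0 : 0 ≤ ‖(L.symm : F →L[ℝ] E)‖ := norm_nonneg _
    rw [inv_mul_le_iff₀ (by linarith)]
    have h1 := (L.symm : F →L[ℝ] E).le_opNorm (L v)
    simp only [ContinuousLinearEquiv.coe_coe, ContinuousLinearEquiv.symm_apply_apply] at h1
    have h2 : 0 ≤ ‖L v‖ := norm_nonneg _
    nlinarith

/-- **PATCH, gauge form.** -/
theorem patch_gauge (h3 : Module.finrank ℝ E = 3) {κ c : ℝ} (hκ : 0 < κ) (hc : 0 < c) :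
    ∃ C : ℝ, 1 ≤ C ∧ ∀ g : E → ℝ, Gg g κ c → ∀ (y : E) (ρ : ℝ), 0 ≤ ρ →
      ∃ S : Set E, S ⊆ {v | g v = 1} \ closedBall y ρ ∧ IsPreconnected S ∧
        {v | g v = 1} \ closedBall y (C * ρ) ⊆ S := by
  classical
  have : FiniteDimensional ℝ E := Module.finite_of_finrank_pos (by rw [h3]; norm_num)
  obtain ⟨L⟩ : Nonempty (E ≃L[ℝ] V3) := by
    refine ⟨ContinuousLinearEquiv.ofFinrankEq ?_⟩
    rw [h3]; simp
  have hL := gg_norm L
  set c0 : ℝ := (‖(L.symm : V3 →L[ℝ] E)‖ + 1)⁻¹ with hc0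
  have hc0pos : 0 < c0 := by
    have : 0 ≤ ‖(L.symm : V3 →L[ℝ] E)‖ := norm_nonneg _
    positivity
  set κ1 : ℝ := max κ ‖(L : E →L[ℝ] V3)‖ with hκ1
  set c1 : ℝ := min c c0 with hc1
  have hκ1p : 0 < κ1 := lt_of_lt_of_le hκ (le_max_left _ _)
  have hc1p : 0 < c1 := lt_min hc hc0pos
  have hn : Gg (fun v => ‖L v‖) κ1 c1 := hL.mono (le_max_right _ _) (min_le_right _ _)
  set C1 : ℝ := κ1 / c1 + κ1 ^ 3 / c1 ^ 3 with hC1
  have hC1p : 0 < C1 := by positivity
  refine ⟨1 + 4 * κ1 * C1 / c1 + 2 * κ1 * C1 ^ 2 / c1, ?_, ?_⟩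
  · have h1 : 0 < 4 * κ1 * C1 / c1 := by positivity
    have h2 : 0 < 2 * κ1 * C1 ^ 2 / c1 := by positivity
    linarith
  intro g hg0 y ρ hρ
  have hg : Gg g κ1 c1 := hg0.mono (le_max_left _ _) (min_le_left _ _)
  set C : ℝ := 1 + 4 * κ1 * C1 / c1 + 2 * κ1 * C1 ^ 2 / c1 with hC
  -- radial maps
  set φ : E → V3 := fun v => L ((‖L v‖)⁻¹ • v) with hφ
  set ψ : V3 → E := fun w => (g (L.symm w))⁻¹ • L.symm w with hψ
  have hne : ∀ {v : E}, g v = 1 → v ≠ 0 := by
    intro v hv h0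
    rw [h0, hg.zero] at hv
    exact zero_ne_one hv
  have hφn : ∀ {v : E}, g v = 1 → ‖φ v‖ = 1 := by
    intro v hv
    have h1 : ‖L v‖ ≠ 0 := (hn.pos hc1p (hne hv)).ne'
    simp only [hφ, map_smul, norm_smul, norm_inv, norm_norm]
    exact inv_mul_cancel₀ h1
  have hψφ : ∀ {v : E}, g v = 1 → ψ (φ v) = v := by
    intro v hv
    have h1 : 0 < ‖L v‖ := hn.pos hc1p (hne hv)
    simp only [hφ, hψ, ContinuousLinearEquiv.symm_apply_apply]
    rw [hg.hom _ (by positivity), hv, mul_one, inv_inv, smul_smul, mul_inv_cancel₀ h1.ne', one_smul]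
  have hLs : ∀ {w : V3}, ‖w‖ = 1 → L.symm w ≠ 0 := by
    intro w hw h0
    have : w = 0 := by
      have := congrArg L h0
      simpa using this
    rw [this, norm_zero] at hw
    exact zero_ne_one hw
  have hgψ : ∀ {w : V3}, ‖w‖ = 1 → g (ψ w) = 1 := by
    intro w hw
    have h1 : 0 < g (L.symm w) := hg.pos hc1p (hLs hw)
    simp only [hψ]
    rw [hg.hom _ (by positivity)]
    exact inv_mul_cancel₀ h1.ne'
  have hφψ : ∀ {w : V3}, ‖w‖ = 1 → φ (ψ w) = w := by
    intro w hw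
    have h1 : 0 < g (L.symm w) := hg.pos hc1p (hLs hw)
    simp only [hφ, hψ, map_smul, ContinuousLinearEquiv.apply_symm_apply, norm_smul, norm_inv,
      Real.norm_eq_abs, abs_of_pos h1, hw, mul_one, inv_inv]
    rw [smul_smul, mul_inv_cancel₀ h1.ne', one_smul]
  have hψc : ContinuousOn ψ {w | ‖w‖ = 1} := by
    have h1 : Continuous fun w : V3 => g (L.symm w) :=
      (hg.cont hκ1p.le).comp L.symm.continuous
    refine ContinuousOn.smul (h1.continuousOn.inv₀ fun w hw => ?_) L.symm.continuous.continuousOn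
    exact (hg.pos hc1p (hLs hw)).ne'
  -- trivial case
  by_cases hz : ∃ z0, g z0 = 1 ∧ z0 ∈ closedBall y ρ
  swap
  · refine ⟨{v | g v = 1}, fun v hv => ⟨hv, fun hb => hz ⟨v, hv, hb⟩⟩, ?_, fun v hv => hv.1⟩
    have h1 : {v : E | g v = 1} = ψ '' ({w : V3 | ‖w‖ = 1} \ closedBall 0 (-1)) := by
      ext v
      constructor
      · intro hv
        exact ⟨φ v, ⟨hφn hv, by simp⟩, hψφ hv⟩
      · rintro ⟨w, hw, rfl⟩
        exact hgψ hw.1
    rw [h1]
    exact (isPreconnected_sphere_diff 0 (by norm_num)).image _ (hψc.mono fun w hw => hw.1)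
  obtain ⟨z0, hz0, hz0b⟩ := hz
  set w0 : V3 := φ z0 with hw0
  set δ : ℝ := κ1 * C1 * (2 * ρ) with hδ
  -- φ is Lipschitz on the level set
  have hφl : ∀ {v v' : E}, g v = 1 → g v' = 1 → ‖φ v - φ v'‖ ≤ κ1 * C1 * ‖v - v'‖ := by
    intro v v' hv hv'
    have h1 := hg.proj_lip hn hκ1p hc1p hv hv'
    have h2 : φ v - φ v' = L ((‖L v‖)⁻¹ • v - (‖L v'‖)⁻¹ • v') := by simp only [hφ, map_sub]
    rw [h2]
    calc ‖L ((‖L v‖)⁻¹ • v - (‖L v'‖)⁻¹ • v')‖ ≤ κ1 * ‖(‖L v‖)⁻¹ • v - (‖L v'‖)⁻¹ • v'‖ :=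
          hn.up _
      _ ≤ κ1 * (C1 * ‖v - v'‖) := mul_le_mul_of_nonneg_left h1 hκ1p.le
      _ = _ := by ring
  have hψl : ∀ {v v' : E}, g v = 1 → g v' = 1 → ‖v - v'‖ ≤ C1 / c1 * ‖φ v - φ v'‖ := by
    intro v v' hv hv'
    have hv1 : ‖L ((‖L v‖)⁻¹ • v)‖ = 1 := hφn hv
    have hv2 : ‖L ((‖L v'‖)⁻¹ • v')‖ = 1 := hφn hv'
    have h1 := hn.proj_lip hg hκ1p hc1p (v := (‖L v‖)⁻¹ • v) (v' := (‖L v'‖)⁻¹ • v') hv1 hv2
    have hback : ∀ {u : E}, g u = 1 → (g ((‖L u‖)⁻¹ • u))⁻¹ • (‖L u‖)⁻¹ • u = u := by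
      intro u hu
      have h2 : 0 < ‖L u‖ := hn.pos hc1p (hne hu)
      rw [hg.hom _ (by positivity), hu, mul_one, inv_inv, smul_smul, mul_inv_cancel₀ h2.ne', one_smul]
    rw [hback hv, hback hv'] at h1
    have h3 : c1 * ‖(‖L v‖)⁻¹ • v - (‖L v'‖)⁻¹ • v'‖ ≤ ‖φ v - φ v'‖ := by
      have := hn.low ((‖L v‖)⁻¹ • v - (‖L v'‖)⁻¹ • v')
      simpa only [hφ, map_sub] using this
    calc ‖v - v'‖ ≤ C1 * ‖(‖L v‖)⁻¹ • v - (‖L v'‖)⁻¹ • v'‖ := h1
      _ ≤ C1 * (‖φ v - φ v'‖ / c1) := by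
          refine mul_le_mul_of_nonneg_left ?_ hC1p.le
          rw [le_div_iff₀ hc1p]; linarith
      _ = _ := by ring
  have hzy : ‖z0 - y‖ ≤ ρ := by rwa [← dist_eq_norm, ← mem_closedBall]
  rcases lt_or_ge δ 1 with hδ1 | hδ1
  · -- the main case
    refine ⟨ψ '' ({w : V3 | ‖w‖ = 1} \ closedBall w0 δ), ?_,
      (isPreconnected_sphere_diff w0 hδ1).image _ (hψc.mono fun w hw => hw.1), ?_⟩
    · rintro _ ⟨w, ⟨hw, hwb⟩, rfl⟩
      refine ⟨hgψ hw, fun hb => hwb ?_⟩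
      rw [mem_closedBall, dist_eq_norm] at hb ⊢
      have h1 := hφl (hgψ hw) hz0
      rw [hφψ hw] at h1
      refine h1.trans ?_
      rw [hδ]
      refine mul_le_mul_of_nonneg_left ?_ (by positivity)
      calc ‖ψ w - z0‖ = ‖(ψ w - y) - (z0 - y)‖ := by congr 1; abel
        _ ≤ ‖ψ w - y‖ + ‖z0 - y‖ := norm_sub_le _ _
        _ ≤ 2 * ρ := by linarith
    · rintro v ⟨hv, hvb⟩
      refine ⟨φ v, ⟨hφn hv, fun hb => hvb ?_⟩, hψφ hv⟩
      rw [mem_closedBall, dist_eq_norm] at hb ⊢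
      have h1 := (hψl hv hz0).trans (mul_le_mul_of_nonneg_left hb (by positivity))
      calc ‖v - y‖ = ‖(v - z0) + (z0 - y)‖ := by congr 1; abel
        _ ≤ ‖v - z0‖ + ‖z0 - y‖ := norm_add_le _ _
        _ ≤ C1 / c1 * δ + ρ := add_le_add h1 hzy
        _ = (1 + 2 * κ1 * C1 ^ 2 / c1) * ρ := by rw [hδ]; ring
        _ ≤ C * ρ := by
            refine mul_le_mul_of_nonneg_right ?_ hρ
            have : 0 < 4 * κ1 * C1 / c1 := by positivity
            rw [hC]; linarith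
  · -- the ball is large
    refine ⟨∅, empty_subset _, isPreconnected_empty, ?_⟩
    rintro v ⟨hv, hvb⟩
    exfalso
    apply hvb
    rw [mem_closedBall, dist_eq_norm]
    have hup : ∀ {w : E}, g w = 1 → ‖w‖ ≤ 1 / c1 := by
      intro w hw
      have := hg.low w
      rw [le_div_iff₀ hc1p]; linarith
    have h1 : 2 / c1 ≤ 4 * κ1 * C1 / c1 * ρ := by
      have h2 : 1 ≤ κ1 * C1 * (2 * ρ) := hδ1
      calc 2 / c1 = 2 / c1 * 1 := by ring
        _ ≤ 2 / c1 * (κ1 * C1 * (2 * ρ)) := mul_le_mul_of_nonneg_left h2 (by positivity)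
        _ = _ := by ring
    calc ‖v - y‖ = ‖v - z0 + (z0 - y)‖ := by congr 1; abel
      _ ≤ ‖v - z0‖ + ‖z0 - y‖ := norm_add_le _ _
      _ ≤ (‖v‖ + ‖z0‖) + ρ := add_le_add (norm_sub_le _ _) hzy
      _ ≤ (1 / c1 + 1 / c1) + ρ := by linarith [hup hv, hup hz0]
      _ = 2 / c1 + ρ := by ring
      _ ≤ 4 * κ1 * C1 / c1 * ρ + ρ := by linarith
      _ = (1 + 4 * κ1 * C1 / c1) * ρ := by ring
      _ ≤ C * ρ := by
          refine mul_le_mul_of_nonneg_right ?_ hρ
          have : 0 < 2 * κ1 * C1 ^ 2 / c1 := by positivity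
          rw [hC]; linarith

/-- **PATCH, convex bodies.** -/
theorem patch (h3 : Module.finrank ℝ E = 3) {r R : ℝ} (hr : 0 < r) (hR : 0 < R) :
    ∃ C : ℝ, 1 ≤ C ∧ ∀ (K : Set E) (o : E), Convex ℝ K → ball o r ⊆ K → K ⊆ closedBall o R →
      ∀ (y : E) (ρ : ℝ), 0 ≤ ρ →
      ∃ S : Set E, S ⊆ frontier K \ closedBall y ρ ∧ IsPreconnected S ∧
        frontier K \ closedBall y (C * ρ) ⊆ S := by
  obtain ⟨C, hC1, H⟩ := patch_gauge h3 (κ := r⁻¹) (c := R⁻¹) (by positivity) (by positivity)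
  refine ⟨C, hC1, fun K o hK hr' hR' y ρ hρ => ?_⟩
  -- translate
  set K' : Set E := (fun v => o + v) ⁻¹' K with hK'
  have hK'c : Convex ℝ K' := hK.translate_preimage_right o
  have hb : ball (0 : E) r ⊆ K' := by
    intro v hv
    apply hr'
    simpa [mem_ball, dist_eq_norm] using hv
  have hB : K' ⊆ closedBall 0 R := by
    intro v hv
    have := hR' hv
    simpa [mem_closedBall, dist_eq_norm] using this
  have hnb : K' ∈ 𝓝 (0 : E) := Filter.mem_of_superset (ball_mem_nhds 0 hr) hb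
  have hg : Gg (gauge K') r⁻¹ R⁻¹ :=
    { hom := fun t ht v => by
        rw [gauge_smul_of_nonneg ht]; rfl
      lip := fun v w => by
        have hrr : ((r.toNNReal : NNReal) : ℝ) = r := Real.coe_toNNReal r hr.le
        have := (hK'c.lipschitzWith_gauge (r := r.toNNReal) (by rwa [Real.toNNReal_pos])
          (by rwa [hrr])).dist_le_mul v w
        have e : (((r.toNNReal)⁻¹ : NNReal) : ℝ) = r⁻¹ := by rw [NNReal.coe_inv, hrr]
        rw [Real.dist_eq, dist_eq_norm, e] at this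
        exact this
      low := fun v => by
        have h1 := le_gauge_of_subset_closedBall (absorbent_nhds_zero hnb) hR.le hB (x := v)
        rw [div_eq_inv_mul] at h1
        exact h1 }
  obtain ⟨S, hS1, hS2, hS3⟩ := H (gauge K') hg (y - o) ρ hρ
  have hfr : ∀ v, gauge K' v = 1 ↔ o + v ∈ frontier K := by
    intro v
    rw [gauge_eq_one_iff_mem_frontier hK'c hnb]
    have h1 := (Homeomorph.addLeft o).preimage_frontier K
    have h2 : (Homeomorph.addLeft o) ⁻¹' K = K' := rfl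
    rw [h2] at h1
    rw [← h1]; rfl
  refine ⟨(fun v => o + v) '' S, ?_, hS2.image _ (by fun_prop), ?_⟩
  · rintro _ ⟨v, hv, rfl⟩
    have := hS1 hv
    refine ⟨(hfr v).1 this.1, fun hb' => this.2 ?_⟩
    rw [mem_closedBall, dist_eq_norm] at hb' ⊢
    have e : v - (y - o) = (o + v) - y := by abel
    rw [e]; exact hb'
  · rintro z ⟨hz, hzb⟩
    refine ⟨z - o, hS3 ⟨?_, fun hb' => hzb ?_⟩, by simp⟩
    · show gauge K' (z - o) = 1
      rw [hfr]; simpa using hz
    · rw [mem_closedBall, dist_eq_norm] at hb' ⊢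
      have e : z - o - (y - o) = z - y := by abel
      rw [e] at hb'; exact hb'

/-- **PATCH, level sets of a convex function** `u` with `u o < t`. -/
theorem patch_level (h3 : Module.finrank ℝ E = 3) {r R : ℝ} (hr : 0 < r) (hR : 0 < R) :
    ∃ C : ℝ, 1 ≤ C ∧ ∀ (u : E → ℝ) (o : E) (t : ℝ), ConvexOn ℝ univ u → Continuous u → u o < t →
      ball o r ⊆ {z | u z ≤ t} → {z | u z ≤ t} ⊆ closedBall o R →
      ∀ (y : E) (ρ : ℝ), 0 ≤ ρ →
      ∃ S : Set E, S ⊆ {z | u z = t} \ closedBall y ρ ∧ IsPreconnected S ∧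
        {z | u z = t} \ closedBall y (C * ρ) ⊆ S := by
  obtain ⟨C, hC1, H⟩ := patch h3 hr hR
  refine ⟨C, hC1, fun u o t hu huc hot hb hB y ρ hρ => ?_⟩
  have hK : Convex ℝ {z | u z ≤ t} := by
    have := hu.convex_le t
    simpa using this
  have hfr : frontier {z | u z ≤ t} = {z | u z = t} := by
    apply Subset.antisymm
    · exact frontier_le_subset_eq huc continuous_const
    · intro z hz
      have hz' : u z = t := hz
      refine ⟨subset_closure (le_of_eq hz'), fun hint => ?_⟩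
      -- move a little beyond `z` on the ray from `o`
      rw [mem_interior_iff_mem_nhds, Metric.mem_nhds_iff] at hint
      obtain ⟨ε, hε, hball⟩ := hint
      set s : ℝ := ε / (2 * (‖z - o‖ + 1)) with hs
      have hno : 0 ≤ ‖z - o‖ := norm_nonneg _
      have hs0 : 0 < s := by positivity
      have hmem : z + s • (z - o) ∈ ball z ε := by
        rw [mem_ball, dist_eq_norm, add_sub_cancel_left, norm_smul, Real.norm_eq_abs,
          abs_of_pos hs0, hs, div_mul_eq_mul_div, div_lt_iff₀ (by positivity)]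
        nlinarith
      have h1 : u (z + s • (z - o)) ≤ t := hball hmem
      have h2 : z = (s / (1 + s)) • o + (1 / (1 + s)) • (z + s • (z - o)) := by
        have h3 : (1 + s) ≠ 0 := by positivity
        have : (1 / (1 + s)) • (z + s • (z - o)) = z - (s / (1 + s)) • o := by
          rw [smul_add, smul_smul, smul_sub]
          have e1 : (1 / (1 + s) * s) = s / (1 + s) := by ring
          rw [e1]
          have e2 : z = (1 / (1 + s)) • z + (s / (1 + s)) • z := by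
            rw [← add_smul, ← add_div, div_self h3, one_smul]
          calc (1 / (1 + s)) • z + ((s / (1 + s)) • z - (s / (1 + s)) • o) =
              ((1 / (1 + s)) • z + (s / (1 + s)) • z) - (s / (1 + s)) • o := by abel
            _ = z - (s / (1 + s)) • o := by rw [← e2]
        rw [this]; abel
      have h3 : u z ≤ (s / (1 + s)) * u o + (1 / (1 + s)) * u (z + s • (z - o)) := by
        have := hu.2 (mem_univ o) (mem_univ (z + s • (z - o)))
          (show (0 : ℝ) ≤ s / (1 + s) by positivity) (show (0 : ℝ) ≤ 1 / (1 + s) by positivity)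
          (by rw [← add_div, add_comm s 1]; exact div_self (by positivity))
        rw [← h2] at this
        simpa [smul_eq_mul] using this
      have h4 : (s / (1 + s)) * u o < (s / (1 + s)) * t :=
        mul_lt_mul_of_pos_left hot (by positivity)
      have h5 : (1 / (1 + s)) * u (z + s • (z - o)) ≤ (1 / (1 + s)) * t :=
        mul_le_mul_of_nonneg_left h1 (by positivity)
      have h6 : (s / (1 + s)) * t + (1 / (1 + s)) * t = t := by
        rw [← add_mul, ← add_div, add_comm s 1, div_self (by positivity), one_mul]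
      linarith
  have := H {z | u z ≤ t} o hK hb hB y ρ hρ
  rwa [hfr] at this

end

end Crest.Agent.R096.Ptc_168
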