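import Crest.Agent.R096.Tl4_4
import Crest.Agent.R96.EaP2_899

/-!
# Row 96 (S0127), helper358.  EA, p < 3: leaf [E13] = [PTH] of 348 #11167 / #11024

* `tiny_fX`: `TinyLoc (fX bf cmp H) Om f κ1 c x₀ R` for `c ∉ X` (from 4's `tiny_loc`);
* `exists_zones`: the centres and the radii of the zones of all bricks `c ∉ X` (disjoint, locally
  finite, inside given neighbourhoods, mapped into the open brick).
-/

set_option autoImplicit false
set_option linter.style.longLine false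

open MeasureTheory Set Filter Metric
open scoped Topology ENNReal

namespace Crest.Agent.R096.Pth_358

open Crest.Agent.R096.SkC1_961 (E3 Hom3 FoamD)
open Crest.Agent.R096.Bsp_628 Crest.Agent.R096.Brk5_582
open Crest.Agent.R096.Er_594 (SH3)
open Crest.Agent.R096.Tms_582 (TinyLoc)
open Crest.Agent.R96.Push_899 (Mid brk' toBox)
open Crest.Agent.R96.EaP_899

noncomputable section

variable {Om La : Set E3} {f : E3 → E3} {F : Set (Bx (Fin 3))} {δ κ0 R c0 : ℝ}

/-- **[E13] / [PTH]**: the local statement for all clauses of one tiny core of `fX` -/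
theorem tiny_fX {p : ℝ} (hp : 1 ≤ p) (hO : IsOpen Om) (hLa : IsOpen La)
    {D : E3 → E3 →L[ℝ] E3} (hS : SH3 p Om La f D) (bf : BoxFoam La F δ κ0) (cmp : Cmp F R)
    {X : Set F} {lam : F → ℝ} {z : F → E3} (H : XD bf c0 X lam z) {c : F} (hc : c ∉ X) {x₀ : E3}
    (hfx : f x₀ = z c) {r : ℝ} (hr : 0 < r) (hOm : closedBall x₀ r ⊆ Om)
    (hin : ∀ x ∈ closedBall x₀ r, ∀ k, c.1.lo k < f x k ∧ f x k < c.1.hi k) {κ1 : ℝ}
    (hκ : 0 < κ1) : TinyLoc (fX bf cmp H) Om f κ1 c x₀ r :=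
  Tl_4.tiny_loc hp hO hLa hS (fX bf cmp H) (fX_pt bf cmp H hc)
    (by rw [fX_B_not bf cmp H hc]; exact hfx) hr hOm hin hκ

/-- a point of `Mid` is in the open brick -/
theorem mid_open {C : Bx (Fin 3)} {h : C.Pos} {y : E3} (hy : y ∈ Mid (toBox C h)) (k : Fin 3) :
    C.lo k < y k ∧ y k < C.hi k := by
  have h1 := hy.1 k
  have h2 := hy.2 k
  have h3 := h k
  have h4 : (toBox C h).W k = C.hi k - C.lo k := rfl
  have h5 : (toBox C h).lo k = C.lo k := rfl
  have h6 : (toBox C h).hi k = C.hi k := rfl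
  simp only [h4, h5, h6] at h1 h2
  constructor <;> linarith

/-- `z c` is in the open brick for `c ∉ X` -/
theorem XD_open {bf : BoxFoam La F δ κ0} {X : Set F} {lam : F → ℝ} {z : F → E3}
    (H : XD bf c0 X lam z) {c : F} (hc : c ∉ X) (k : Fin 3) : c.1.lo k < z c k ∧ z c k < c.1.hi k :=
  mid_open (H.hz c hc) k

/-- **the zones**: `z c` in the open brick for `c ∉ X`; `W c` prescribed neighbourhoods of the
preimage, `η c > 0` prescribed bounds -/
theorem exists_zones (hO : IsOpen Om) (hf : Hom3 f Om La) (bf : BoxFoam La F δ κ0) (X : Set F)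
    {z : F → E3} (hz : ∀ c, c ∉ X → ∀ k, c.1.lo k < z c k ∧ z c k < c.1.hi k)
    {W : {c // c ∉ X} → Set E3}
    (hW : ∀ c, ∀ x ∈ Om, f x = z c.1 → W c ∈ 𝓝 x) {η : {c // c ∉ X} → ℝ} (hη : ∀ c, 0 < η c) :
    ∃ (x : {c // c ∉ X} → E3) (r : {c // c ∉ X} → ℝ),
      (∀ c, x c ∈ Om ∧ f (x c) = z c.1) ∧ (∀ c, 0 < r c ∧ r c ≤ η c) ∧
      (∀ c, closedBall (x c) (2 * r c) ⊆ Om) ∧ (∀ c, closedBall (x c) (2 * r c) ⊆ W c) ∧
      (∀ c, ∀ y ∈ closedBall (x c) (2 * r c), ∀ k, c.1.1.lo k < f y k ∧ f y k < c.1.1.hi k) ∧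
      (∀ c c', c ≠ c' → Disjoint (closedBall (x c) (2 * r c)) (closedBall (x c') (2 * r c'))) ∧
      ∀ y ∈ Om, ∃ t > 0, {c | (closedBall (x c) (2 * r c) ∩ ball y t).Nonempty}.Finite := by
  obtain ⟨fi, hm, hmi, hfi, hif, hfc, -⟩ := id hf
  have hzL : ∀ c : {c // c ∉ X}, z c.1 ∈ La := fun c => bf.sub _ c.1.2 (by
    rw [Bx.mem_set]
    intro k
    exact ⟨(hz c.1 c.2 k).1.le, (hz c.1 c.2 k).2.le⟩)
  set x : {c // c ∉ X} → E3 := fun c => fi (z c.1) with hx
  have hxO : ∀ c, x c ∈ Om := fun c => hmi (hzL c)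
  have hfx : ∀ c, f (x c) = z c.1 := fun c => hif _ (hzL c)
  -- the open brick
  have hUo : ∀ c : F, IsOpen {y : E3 | ∀ k, c.1.lo k < y k ∧ y k < c.1.hi k} := by
    intro c
    simp only [ofPred_forall]
    refine isOpen_iInter_of_finite fun k => ?_
    exact (isOpen_lt continuous_const (continuous_apply k)).inter
      (isOpen_lt (continuous_apply k) continuous_const)
  have hN : ∀ c, (W c ∩ (Om ∩ f ⁻¹' {y : E3 | ∀ k, c.1.1.lo k < y k ∧ y k < c.1.1.hi k})) ∈ 𝓝 (x c) := by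
    intro c
    refine inter_mem (hW c _ (hxO c) (hfx c)) ?_
    refine (hfc.isOpen_inter_preimage hO (hUo c.1)).mem_nhds ⟨hxO c, ?_⟩
    show ∀ k, c.1.1.lo k < f (x c) k ∧ f (x c) k < c.1.1.hi k
    rw [hfx c]
    exact hz c.1 c.2
  choose ρ hρ hρs using fun c => Metric.nhds_basis_closedBall.mem_iff.1 (hN c)
  refine ⟨x, fun c => min (η c) (ρ c / 2), fun c => ⟨hxO c, hfx c⟩, fun c =>
    ⟨lt_min (hη c) (half_pos (hρ c)), min_le_left _ _⟩, ?_, ?_, ?_, ?_, ?_⟩
  · intro c y hy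
    exact (hρs c (closedBall_subset_closedBall (by
      have := min_le_right (η c) (ρ c / 2); linarith) hy)).2.1
  · intro c y hy
    exact (hρs c (closedBall_subset_closedBall (by
      have := min_le_right (η c) (ρ c / 2); linarith) hy)).1
  · intro c y hy
    exact (hρs c (closedBall_subset_closedBall (by
      have := min_le_right (η c) (ρ c / 2); linarith) hy)).2.2
  · intro c c' hcc
    rw [Set.disjoint_left]
    intro y hy hy'
    have h1 := (hρs c (closedBall_subset_closedBall (by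
      have := min_le_right (η c) (ρ c / 2); linarith) hy)).2.2
    have h2 := (hρs c' (closedBall_subset_closedBall (by
      have := min_le_right (η c') (ρ c' / 2); linarith) hy')).2.2
    have hne : c.1.1 ≠ c'.1.1 := fun h => hcc (Subtype.ext (Subtype.ext h))
    obtain ⟨k, hk⟩ := bf.inv.disj c.1.2 c'.1.2 (bf.pos _ c.1.2) (bf.pos _ c'.1.2) hne
    have h3 := h1 k
    have h4 := h2 k
    rcases hk with hk | hk <;> linarith [h3.1, h3.2, h4.1, h4.2]
  · intro y hy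
    obtain ⟨t, ht, hfin⟩ := bf.lf (f y) (hm hy)
    have h1 : Om ∩ f ⁻¹' ball (f y) t ∈ 𝓝 y :=
      (hfc.isOpen_inter_preimage hO isOpen_ball).mem_nhds ⟨hy, mem_ball_self ht⟩
    obtain ⟨s, hs, hss⟩ := Metric.nhds_basis_ball.mem_iff.1 h1
    refine ⟨s, hs, ?_⟩
    refine Set.Finite.of_finite_image (f := fun c : {c // c ∉ X} => c.1.1) (hfin.subset ?_) ?_
    · rintro _ ⟨c, ⟨p, hp, hps⟩, rfl⟩
      have h2 := (hρs c (closedBall_subset_closedBall (by
        have := min_le_right (η c) (ρ c / 2); linarith) hp)).2.2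
      refine ⟨c.1.2, f p, ?_, (hss hps).2⟩
      rw [Bx.mem_set]
      intro k
      exact ⟨(h2 k).1.le, (h2 k).2.le⟩
    · intro c _ c' _ h
      exact Subtype.ext (Subtype.ext h)

/-- **[PTH] with the zones**: all local statements at once -/
theorem tiny_all {p : ℝ} (hp : 1 ≤ p) (hO : IsOpen Om) (hLa : IsOpen La)
    {D : E3 → E3 →L[ℝ] E3} (hS : SH3 p Om La f D) (bf : BoxFoam La F δ κ0) (cmp : Cmp F R)
    {X : Set F} {lam : F → ℝ} {z : F → E3} (H : XD bf c0 X lam z) {x : {c // c ∉ X} → E3}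
    {r : {c // c ∉ X} → ℝ} (hx : ∀ c, x c ∈ Om ∧ f (x c) = z c.1) (hr : ∀ c, 0 < r c)
    (hOm : ∀ c, closedBall (x c) (2 * r c) ⊆ Om)
    (hin : ∀ c, ∀ y ∈ closedBall (x c) (2 * r c), ∀ k, c.1.1.lo k < f y k ∧ f y k < c.1.1.hi k)
    {κ1 : ℝ} (hκ : 0 < κ1) (c : {c // c ∉ X}) :
    TinyLoc (fX bf cmp H) Om f κ1 c.1 (x c) (r c) := by
  have h1 : closedBall (x c) (r c) ⊆ closedBall (x c) (2 * r c) :=
    closedBall_subset_closedBall (by linarith [hr c])
  exact tiny_fX hp hO hLa hS bf cmp H c.2 (hx c).2 (hr c) (h1.trans (hOm c))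
    (fun y hy => hin c y (h1 hy)) hκ

end

end Crest.Agent.R096.Pth_358
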