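import Crest.Agent.R096.Tl4_4
import Crest.Agent.R096.Eaa1_748
import Crest.Agent.R96.EaP3_899
import Crest.Agent.R96.Eam3_466

/-!
# Row 96, [E13] PTH of 348 #11167 (helper561)

The tiny cores of 899's `fX` (point holes `z c`, `c ∉ X`): centres `x₀ c = f⁻¹ (z c)`, radii `R₀ c`, and
`TinyLoc` at all smaller radii (helper4's `tiny_loc`), together with the geometric clauses of 582's `Zones`
and 466's `InB`, `exists_tl`, `LocF`.
-/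

set_option autoImplicit false
set_option linter.unusedSectionVars false
set_option linter.unusedVariables false
set_option linter.style.longLine false

open MeasureTheory Set Filter Topology Metric

noncomputable section

namespace Crest.Agent.R096.Pth_561

open Crest.Agent.R096.Bsp_628 Crest.Agent.R096.Brk5_582
open Crest.Agent.R096.SkC1_961 (E3 Hom3 FoamD)
open Crest.Agent.R96.Push_899
open Crest.Agent.R96.EaP_899
open Crest.Agent.R096.Msh_715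
open Crest.Agent.R096.Er_594 (SH3)
open Crest.Agent.R096.Tms_582 (TinyLoc Zones LocF idE)
open Crest.Agent.R96.Eam_466 (TLAt exists_tl InB locF_of_tl)
open Crest.Agent.R096.Eaa_748 (exists_macro)

variable {δ κ0 R c0 : ℝ} {La Om : Set E3} {F : Set (Bx (Fin 3))} {X : Set F} {lam : F → ℝ}
  {z : F → E3}

/-- the middle box lies in the open brick -/
theorem mid_open {bf : BoxFoam La F δ κ0} {c : F} {q : E3} (hq : q ∈ Mid (brk' bf c)) :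
    ∀ k, c.1.lo k < q k ∧ q k < c.1.hi k := by
  intro k
  have h1 := hq.1 k
  have h2 := hq.2 k
  have h3 : 0 < c.1.side k := Bx.side_pos (bf.pos _ c.2) k
  have e1 : (brk' bf c).W k = c.1.side k := rfl
  have e2 : (brk' bf c).lo k = c.1.lo k := rfl
  have e3 : (brk' bf c).hi k = c.1.hi k := rfl
  simp only [e1, e2, e3] at h1 h2
  constructor <;> linarith

/-- a point of the open brick lies in `La` -/
theorem mem_La {bf : BoxFoam La F δ κ0} {c : F} {q : E3}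
    (hq : ∀ k, c.1.lo k < q k ∧ q k < c.1.hi k) : q ∈ La := by
  apply bf.sub _ c.2
  rw [Bx.mem_set]
  exact fun k => ⟨(hq k).1.le, (hq k).2.le⟩

/-- **the centres** -/
theorem exists_x0 {f : E3 → E3} (hf : Hom3 f Om La) {bf : BoxFoam La F δ κ0}
    (H : XD bf c0 X lam z) :
    ∃ x₀ : {c : F // c ∉ X} → E3, ∀ c, x₀ c ∈ Om ∧ f (x₀ c) = z c.1 := by
  obtain ⟨fi, h1, h2, h3, h4, h5, h6⟩ := hf
  refine ⟨fun c => fi (z c.1), fun c => ?_⟩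
  have h := mem_La (bf := bf) (mid_open (H.hz c.1 c.2))
  exact ⟨h2 h, h4 _ h⟩

/-- **the radii**, and `TinyLoc` at all smaller radii -/
theorem exists_R0 {p : ℝ} (hp : 1 ≤ p) (hO : IsOpen Om) (hLa : IsOpen La) {f : E3 → E3}
    {D : E3 → E3 →L[ℝ] E3} (hS : SH3 p Om La f D) (bf : BoxFoam La F δ κ0) (cmp : Cmp F R)
    (H : XD bf c0 X lam z) {x₀ : {c : F // c ∉ X} → E3}
    (hx₀ : ∀ c, x₀ c ∈ Om ∧ f (x₀ c) = z c.1) {κ1 : ℝ} (hκ1 : 0 < κ1)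
    {η : {c : F // c ∉ X} → ℝ} (hη : ∀ c, 0 < η c) :
    ∃ R₀ : {c : F // c ∉ X} → ℝ, (∀ c, 0 < R₀ c) ∧ (∀ c, R₀ c ≤ η c) ∧
      (∀ c, closedBall (x₀ c) (2 * R₀ c) ⊆ Om) ∧
      (∀ c, ∀ y ∈ closedBall (x₀ c) (2 * R₀ c), ∀ k, c.1.1.lo k < f y k ∧ f y k < c.1.1.hi k) ∧
      (∀ c c', c ≠ c' → Disjoint (closedBall (x₀ c) (2 * R₀ c)) (closedBall (x₀ c') (2 * R₀ c'))) ∧
      (∀ y ∈ Om, ∃ r > 0, {c | (closedBall (x₀ c) (2 * R₀ c) ∩ ball y r).Nonempty}.Finite) ∧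
      ∀ ρ : {c : F // c ∉ X} → ℝ, (∀ c, 0 < ρ c ∧ ρ c ≤ R₀ c) →
        InB (fX bf cmp H) f X x₀ ρ ∧
        ∀ c : {c : F // c ∉ X}, TinyLoc (fX bf cmp H) Om f κ1 c.1 (x₀ c) (ρ c) := by
  classical
  have hin : ∀ c : {c : F // c ∉ X}, ∀ k, c.1.1.lo k < f (x₀ c) k ∧ f (x₀ c) k < c.1.1.hi k := by
    intro c
    rw [(hx₀ c).2]
    exact mid_open (H.hz c.1 c.2)
  set x' : F → E3 := fun c => if h : c ∉ X then x₀ ⟨c, h⟩ else 0 with hx'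
  have ex : ∀ c : {c : F // c ∉ X}, x' c.1 = x₀ c := fun c => dif_pos c.2
  set η' : F → ℝ := fun c => if h : c ∉ X then 2 * η ⟨c, h⟩ else 1 with hη'
  have eη : ∀ c : {c : F // c ∉ X}, η' c.1 = 2 * η c := fun c => dif_pos c.2
  obtain ⟨r, h1, h2, h3⟩ := exists_macro hO hLa hS.homeo bf {c | c ∉ X} (x := x')
    (by
      intro c hc
      rw [ex ⟨c, hc⟩]
      exact ⟨(hx₀ ⟨c, hc⟩).1, hin ⟨c, hc⟩⟩) (W := fun _ => univ) (fun _ _ => univ_mem) (η := η')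
    (by
      intro c
      by_cases hc : c ∉ X
      · rw [eη ⟨c, hc⟩]
        have := hη ⟨c, hc⟩
        positivity
      · rw [hη']
        simp only [dif_neg hc]
        exact one_pos)
  have e2 : ∀ c : {c : F // c ∉ X}, 2 * (r c.1 / 2) = r c.1 := fun c => by ring
  refine ⟨fun c => r c.1 / 2, fun c => ?_, fun c => ?_, fun c => ?_, fun c => ?_, fun c c' hcc => ?_,
    fun y hy => ?_, fun ρ hρ => ?_⟩
  · have := (h1 c.1 c.2).1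
    positivity
  · have := (h1 c.1 c.2).2.1
    rw [eη] at this
    linarith
  · rw [e2, ← ex c]
    exact (h1 c.1 c.2).2.2.1.trans inter_subset_left
  · rw [e2, ← ex c]
    exact (h1 c.1 c.2).2.2.2
  · rw [e2, e2, ← ex c, ← ex c']
    exact h2 c.1 c.2 c'.1 c'.2 fun h => hcc (Subtype.ext h)
  · obtain ⟨U, hU, hfin⟩ := h3 y hy
    obtain ⟨s, hs, hsU⟩ := Metric.mem_nhds_iff.1 hU
    refine ⟨s, hs, Set.Finite.of_finite_image (f := Subtype.val) (hfin.subset ?_)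
      Subtype.val_injective.injOn⟩
    rintro _ ⟨c, ⟨u, hu, hub⟩, rfl⟩
    refine ⟨c.2, u, ?_, hsU hub⟩
    have h5 : 2 * (r c.1 / 2) = r c.1 := e2 c
    rw [ex c, ← h5]
    exact hu
  · have hsub : ∀ c : {c : F // c ∉ X}, closedBall (x₀ c) (ρ c) ⊆ closedBall (x' c.1) (r c.1) := by
      intro c
      rw [ex c]
      apply closedBall_subset_closedBall
      have h4 := (hρ c).2
      have h5 := (h1 c.1 c.2).1
      dsimp only at h4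
      linarith
    refine ⟨fun c y hy => (h1 c.1 c.2).2.2.2 y (hsub c hy), fun c => ?_⟩
    refine Crest.Agent.R096.Tl_4.tiny_loc hp hO hLa hS (fX bf cmp H) (fX_pt bf cmp H c.2) ?_ (hρ c).1
      ((hsub c).trans ((h1 c.1 c.2).2.2.1.trans inter_subset_left))
      (fun y hy => (h1 c.1 c.2).2.2.2 y (hsub c hy)) hκ1
    rw [(hx₀ c).2, fX_B_not bf cmp H c.2]
    rfl

/-- the geometric clauses of `Zones` pass to smaller radii -/
theorem zones_of {ι0 : Type} {T0 : Tiling Om ι0} {𝒞 : Type} {x : 𝒞 → E3} {R₀ ρ : 𝒞 → ℝ}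
    {k : 𝒞 → ℕ} {w : 𝒞 → E3} (h0 : ∀ c, 0 < ρ c ∧ ρ c ≤ R₀ c)
    (hsub : ∀ c, closedBall (x c) (2 * R₀ c) ⊆ Om)
    (hdis : ∀ c c', c ≠ c' → Disjoint (closedBall (x c) (2 * R₀ c)) (closedBall (x c') (2 * R₀ c')))
    (hlf : ∀ y ∈ Om, ∃ r > 0, {c | (closedBall (x c) (2 * R₀ c) ∩ ball y r).Nonempty}.Finite)
    (hsm : ∀ c, (2 : ℝ)⁻¹ ^ k c ≤ ρ c / 16) (hw : ∀ c i, 0 ≤ w c i ∧ w c i ≤ (2 : ℝ)⁻¹ ^ k c)
    (hlat : ∀ c i, (P (T0.H i) ∩ closedBall (x c) (2 * ρ c)).Nonempty →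
      ∃ z, T0.H i = Crest.Agent.R096.Msh_810.Hc idE (w c) (k c) z) : Zones T0 x ρ k w := by
  have hs : ∀ c, closedBall (x c) (2 * ρ c) ⊆ closedBall (x c) (2 * R₀ c) := fun c =>
    closedBall_subset_closedBall (by linarith [(h0 c).2])
  refine ⟨fun c => (h0 c).1, fun c => (hs c).trans (hsub c), fun c c' h => (hdis c c' h).mono (hs c)
    (hs c'), fun y hy => ?_, hsm, hw, hlat⟩
  obtain ⟨r, hr, hf⟩ := hlf y hy
  refine ⟨r, hr, hf.subset ?_⟩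
  rintro c ⟨u, hu, hub⟩
  exact ⟨u, hs c hu, hub⟩

/-- **[E13]: all data of the tiny cores of `fX`.** -/
theorem exists_pth {p : ℝ} (hp : 1 ≤ p) (hO : IsOpen Om) (hLa : IsOpen La) {f : E3 → E3}
    {D : E3 → E3 →L[ℝ] E3} (hS : SH3 p Om La f D) (bf : BoxFoam La F δ κ0) (cmp : Cmp F R)
    (H : XD bf c0 X lam z) {κ1 : ℝ} (hκ1 : 0 < κ1) {η : {c : F // c ∉ X} → ℝ} (hη : ∀ c, 0 < η c) :
    ∃ (x₀ : {c : F // c ∉ X} → E3) (R₀ : {c : F // c ∉ X} → ℝ),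
      (∀ c, x₀ c ∈ Om ∧ f (x₀ c) = z c.1) ∧ (∀ c, 0 < R₀ c) ∧ (∀ c, R₀ c ≤ η c) ∧
      (∀ c, closedBall (x₀ c) (2 * R₀ c) ⊆ Om) ∧
      (∀ c, ∀ y ∈ closedBall (x₀ c) (2 * R₀ c), ∀ k, c.1.1.lo k < f y k ∧ f y k < c.1.1.hi k) ∧
      (∀ c c', c ≠ c' → Disjoint (closedBall (x₀ c) (2 * R₀ c)) (closedBall (x₀ c') (2 * R₀ c'))) ∧
      (∀ y ∈ Om, ∃ r > 0, {c | (closedBall (x₀ c) (2 * R₀ c) ∩ ball y r).Nonempty}.Finite) ∧
      ∀ ρ : {c : F // c ∉ X} → ℝ, (∀ c, 0 < ρ c ∧ ρ c ≤ R₀ c) →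
        InB (fX bf cmp H) f X x₀ ρ ∧
        (∀ c : {c : F // c ∉ X}, TinyLoc (fX bf cmp H) Om f κ1 c.1 (x₀ c) (ρ c)) ∧
        ∃ k0 : {c : F // c ∉ X} → ℕ, ∀ k : {c : F // c ∉ X} → ℕ, (∀ c, k0 c ≤ k c) →
          (∀ c, (2 : ℝ)⁻¹ ^ k c ≤ ρ c / 16) ∧
          ∃ (Zc : {c : F // c ∉ X} → Finset (Fin 3 → ℤ)) (κ : {c : F // c ∉ X} → Type)
            (Hh : ∀ c, κ c → Finset ((E3 →L[ℝ] ℝ) × ℝ)) (J0 J : ∀ c, Set (κ c))
            (θ : {c : F // c ∉ X} → E3 → E3) (φ : {c : F // c ∉ X} → E3 → ℝ),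
            LocF x₀ ρ k Zc Hh ∧
            ∀ c, TLAt (fX bf cmp H) Om f κ1 c.1 (x₀ c) (ρ c) (k c) (Zc c) (Hh c) (J0 c) (J c) (θ c)
              (φ c) := by
  obtain ⟨x₀, hx₀⟩ := exists_x0 hS.homeo H
  obtain ⟨R₀, a1, a2, a3, a4, a5, a6, a7⟩ := exists_R0 hp hO hLa hS bf cmp H hx₀ hκ1 hη
  refine ⟨x₀, R₀, hx₀, a1, a2, a3, a4, a5, a6, fun ρ hρ => ?_⟩
  obtain ⟨b1, b2⟩ := a7 ρ hρ
  refine ⟨b1, b2, ?_⟩
  obtain ⟨k0, hk0⟩ := exists_tl (Φ := fX bf cmp H) (X := X) b2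
  have key : ∀ c : {c : F // c ∉ X}, ∃ k1 : ℕ, ∀ k, k1 ≤ k → (2 : ℝ)⁻¹ ^ k ≤ ρ c / 16 := by
    intro c
    have h1 : 0 < ρ c / 16 := by have := (hρ c).1; positivity
    obtain ⟨k1, hk1⟩ := exists_pow_lt_of_lt_one h1 (by norm_num : (2 : ℝ)⁻¹ < 1)
    exact ⟨k1, fun k hk => (pow_le_pow_of_le_one (by norm_num) (by norm_num) hk).trans hk1.le⟩
  choose k1 hk1 using key
  refine ⟨fun c => max (k0 c) (k1 c), fun k hk => ⟨fun c => hk1 c _ ((le_max_right _ _).trans (hk c)),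
    ?_⟩⟩
  obtain ⟨Zc, κ, Hh, J0, J, θ, φ, h⟩ := hk0 k fun c => (le_max_left _ _).trans (hk c)
  exact ⟨Zc, κ, Hh, J0, J, θ, φ, locF_of_tl h, h⟩

end Crest.Agent.R096.Pth_561
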