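import Crest.Agent.R096.Pth1_561
import Crest.Agent.R096.Zlt2_798

/-!
# Row 96 (helper561): the zones of the tiny cores of `fX` as 798's `ZBall`

`zball_of` : `ZBall M x₀ ρ` for every mesh `M` over the blocks of `X` whose rooms are mapped into their
open bricks, and every radius function `0 < ρ ≤ R₀` of `Pth1_561.exists_pth`.
-/

set_option autoImplicit false
set_option linter.unusedSectionVars false
set_option linter.unusedVariables false
set_option linter.style.longLine false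

open MeasureTheory Set Filter Topology Metric

noncomputable section

namespace Crest.Agent.R096.Pth_561

open Crest.Agent.R096.Bsp_628 Crest.Agent.R096.Brk5_582
open Crest.Agent.R096.SkC1_961 (E3 Hom3 FoamD)
open Crest.Agent.R96.Push_899
open Crest.Agent.R96.EaP_899
open Crest.Agent.R096.Msh_715
open Crest.Agent.R096.Mal_874
open Crest.Agent.R096.Er_594 (SH3)
open Crest.Agent.R096.Tms_582 (TinyLoc Zones LocF idE)
open Crest.Agent.R96.Eam_466 (TLAt exists_tl InB locF_of_tl)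
open Crest.Agent.R096.Zlt_798 (ZBall)

variable {δ κ0 R c0 : ℝ} {La Om : Set E3} {F : Set (Bx (Fin 3))} {X : Set F} {lam : F → ℝ}
  {z : F → E3}

/-- **`ZBall` for the zones of the tiny cores** -/
theorem zball_of (bf : BoxFoam La F δ κ0) {f : E3 → E3} (M : MD E3 3 X) (hid : M.φ = idE)
    (hOm : M.D0.Om = Om)
    (hV : ∀ j : X, ∀ y ∈ M.V j, ∀ k, j.1.1.lo k < f y k ∧ f y k < j.1.1.hi k)
    {x₀ : {c : F // c ∉ X} → E3} {R₀ ρ : {c : F // c ∉ X} → ℝ}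
    (hsub : ∀ c, closedBall (x₀ c) (2 * R₀ c) ⊆ Om)
    (hin : ∀ c, ∀ y ∈ closedBall (x₀ c) (2 * R₀ c), ∀ k, c.1.1.lo k < f y k ∧ f y k < c.1.1.hi k)
    (hdis : ∀ c c', c ≠ c' → Disjoint (closedBall (x₀ c) (2 * R₀ c)) (closedBall (x₀ c') (2 * R₀ c')))
    (hlf : ∀ y ∈ Om, ∃ r > 0, {c | (closedBall (x₀ c) (2 * R₀ c) ∩ ball y r).Nonempty}.Finite)
    (hρ : ∀ c, 0 < ρ c ∧ ρ c ≤ R₀ c) : ZBall M x₀ ρ := by
  have hs : ∀ c, closedBall (x₀ c) (2 * ρ c) ⊆ closedBall (x₀ c) (2 * R₀ c) := fun c =>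
    closedBall_subset_closedBall (by linarith [(hρ c).2])
  refine ⟨hid, fun c => (hρ c).1, fun c => ?_, fun c c' h => (hdis c c' h).mono (hs c) (hs c'),
    fun c j => ?_, fun y hy => ?_⟩
  · rw [hOm]
    exact (hs c).trans (hsub c)
  · rw [Set.disjoint_left]
    intro y hy hy'
    refine Crest.Agent.R096.Eaa_748.brick_disj bf (c := j.1) (c' := c.1) ?_ (hV j y hy')
      (hin c y (hs c hy))
    intro e
    exact c.2 (e ▸ j.2)
  · rw [hOm] at hy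
    obtain ⟨r, hr, hf⟩ := hlf y hy
    refine ⟨r, hr, hf.subset ?_⟩
    rintro c ⟨u, hu, hub⟩
    exact ⟨u, hs c hu, hub⟩

/-- **all data of the zones, before the mesh**: centres, radii, and for every mesh with rooms over the open
bricks and every smaller radius function the inputs (Z) of 112's `pre_gen` -/
theorem exists_zones {p : ℝ} (hp : 1 ≤ p) (hO : IsOpen Om) (hLa : IsOpen La) {f : E3 → E3}
    {D : E3 → E3 →L[ℝ] E3} (hS : SH3 p Om La f D) (bf : BoxFoam La F δ κ0) (cmp : Cmp F R)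
    (H : XD bf c0 X lam z) {κ1 : ℝ} (hκ1 : 0 < κ1) {η : {c : F // c ∉ X} → ℝ} (hη : ∀ c, 0 < η c) :
    ∃ (x₀ : {c : F // c ∉ X} → E3) (R₀ : {c : F // c ∉ X} → ℝ),
      (∀ c, x₀ c ∈ Om ∧ f (x₀ c) = z c.1) ∧ (∀ c, 0 < R₀ c) ∧ (∀ c, R₀ c ≤ η c) ∧
      (∀ c, closedBall (x₀ c) (2 * R₀ c) ⊆ Om) ∧
      (∀ c, ∀ y ∈ closedBall (x₀ c) (2 * R₀ c), ∀ k, c.1.1.lo k < f y k ∧ f y k < c.1.1.hi k) ∧
      ∀ ρ : {c : F // c ∉ X} → ℝ, (∀ c, 0 < ρ c ∧ ρ c ≤ R₀ c) →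
        InB (fX bf cmp H) f X x₀ ρ ∧
        (∀ c : {c : F // c ∉ X}, TinyLoc (fX bf cmp H) Om f κ1 c.1 (x₀ c) (ρ c)) ∧
        ∀ M : MD E3 3 X, M.φ = idE → M.D0.Om = Om →
          (∀ j : X, ∀ y ∈ M.V j, ∀ k, j.1.1.lo k < f y k ∧ f y k < j.1.1.hi k) →
          ZBall M x₀ ρ := by
  obtain ⟨x₀, hx₀⟩ := exists_x0 hS.homeo H
  obtain ⟨R₀, a1, a2, a3, a4, a5, a6, a7⟩ := exists_R0 hp hO hLa hS bf cmp H hx₀ hκ1 hη
  refine ⟨x₀, R₀, hx₀, a1, a2, a3, a4, fun ρ hρ => ⟨(a7 ρ hρ).1, (a7 ρ hρ).2, ?_⟩⟩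
  intro M hid hOm hV
  exact zball_of bf M hid hOm hV a3 a4 a5 a6 hρ

end Crest.Agent.R096.Pth_561
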