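import Crest.Agent.R096.Pth3_561
import Crest.Agent.R096.Mdd8_360

/-!
# Row 96 (helper561): (B1) of 112's `GenIn` for the mesh data with zones

`b1_zn` : 360's `b1_gen` for `zn Zb.zn kz` (798) from the same hypotheses on `M`: the fields `ex` and `fine`
of `GenIn` literally.
-/

set_option autoImplicit false
set_option linter.unusedSectionVars false
set_option linter.unusedVariables false
set_option linter.style.longLine false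

open MeasureTheory Set Filter Topology Metric

noncomputable section

namespace Crest.Agent.R096.Pth_561

open Crest.Agent.R096.Bsp_628 Crest.Agent.R096.Brk5_582
open Crest.Agent.R096.SkC1_961 (E3 Hom3 FoamD)
open Crest.Agent.R96.Push_899
open Crest.Agent.R96.EaP_899
open Crest.Agent.R096.Msh_715
open Crest.Agent.R096.Mal_874
open Crest.Agent.R096.Mdd_360
open Crest.Agent.R096.EaX_766 (cbx RatA)
open Crest.Agent.R096.Bxs_627 (ctr CoriE fD zz)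
open Crest.Agent.R096.Fns_360
open Crest.Agent.R96.Eam_466 (OX OX_mem isOpen_OX hole_OX fineX_MD exactX_MD FineX)
open Crest.Agent.R096.Zlt_798 (ZBall zn wz zn_Om zn_ρ_le znRD)

variable {δ κ0 R c0 : ℝ} {La Om : Set E3} {f : E3 → E3} {F : Set (Bx (Fin 3))} {X : Set F}

/-- **(B1) of `GenIn` for `zn Zb.zn kz`** -/
theorem b1_zn (hLa : IsOpen La) (hδ : 0 < δ) (hR : 0 < R) (bf : BoxFoam La F δ κ0)
    (cmp : Cmp F R) {lam : F → ℝ} {zc : F → E3} (H : XD bf c0 X lam zc) {fi : E3 → E3}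
    (hfi : ∀ y ∈ Om, fi (f y) = y)
    {κ1 κ2 τ η ε : ℝ} (hκ1 : 0 ≤ κ1) (hτ : 0 ≤ τ) (hτ2 : τ ≤ κ2)
    (h2 : κ2 ≤ 1 / 4) (hκ8 : (κ1 + τ) * κ0 ≤ 1 / 8)
    (hlτ : ∀ c ∈ X, (1 + 2 * ((κ1 + τ) * κ0)) * lam c < 1)
    {A : F → E3 ≃ᵃ[ℝ] E3} (hcor : ∀ c ∈ X, CoriE Om f (A c) c.1 (lam c) κ1 κ2)
    (M : MD E3 3 X) (hφ : M.φ = ContinuousLinearEquiv.refl ℝ E3) (hOmM : M.φ ⁻¹' M.D0.Om = Om)
    (hK : ∀ c : X, (M.Q c).Kc = A c ⁻¹' cbx c.1.1 (lam c))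
    (himg : Img M Om f A lam κ1) (hsm : Sm M A lam τ) (Y : RD M)
    {uA : X → ℝ} (huA0 : ∀ c, 0 ≤ uA c)
    (huA : ∀ (c : X), ∀ x y, ‖A c y - A c x‖ ≤ uA c * dist ((M.Q c).ψ x) ((M.Q c).ψ y))
    (hη : ∀ c : X, uA c * (Y.R c / 2 ^ (M.Q c).kc) ≤ η * c.1.1.sz)
    (hε : KI δ κ0 R (cm κ0 c0) * (η + 2 * (κ1 + τ)) ≤ ε)
    {x : {c // c ∉ X} → E3} {Rz : {c // c ∉ X} → ℝ}
    (hF : ∀ y ∈ Om, FineS (fX bf cmp H) f ε
      (closedBall y (M.D0.ρ y) ∩ (Om ∩ offO f (OX X lam La fi x fun c => Rz c / 2))))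
    (Zb : ZBall M x Rz) (kz : {c // c ∉ X} → ℕ) :
    (∀ (k : X → ℕ) (hk : (zn Zb.zn kz).Sc k) (a : Fin 3 → ℝ) (v : X → E3)
      (hv : (zn Zb.zn kz).Adm v) (c : X),
      Mbf_337.Exact (fX bf cmp H) ((zn Zb.zn kz).mesh hk a hv) f (κ1 + τ) (κ2 - τ) c.1
        (Sum.inr ⟨c, (zn Zb.zn kz).core hk a hv c⟩) (trA (A c) (v c)) (lam c)
        (zz c.1.1 (lam c))) ∧
    ∀ (k : X → ℕ) (hk : (zn Zb.zn kz).Sc k) (a : Fin 3 → ℝ) (v : X → E3)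
      (hv : (zn Zb.zn kz).Adm v)
      (ct0 : F → (zn Zb.zn kz).OIx hk a hv ⊕ Σ j, (zn Zb.zn kz).IIx hk a hv j),
      (∀ c : X, ct0 c.1 = Sum.inr ⟨c, (zn Zb.zn kz).core hk a hv c⟩) →
      FineX (fX bf cmp H) ((zn Zb.zn kz).mesh hk a hv) f ε X ct0 x Rz := by
  classical
  have hO' : (zn Zb.zn kz).φ ⁻¹' (zn Zb.zn kz).D0.Om = Om := by
    rw [zn_Om]
    exact hOmM
  have hF' : ∀ y ∈ Om, FineS (fX bf cmp H) f ε (closedBall y ((zn Zb.zn kz).D0.ρ y) ∩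
      (Om ∩ offO f (OX X lam La fi x fun c => Rz c / 2))) := fun y hy =>
    (hF y hy).mono (inter_subset_inter_left _ (closedBall_subset_closedBall (zn_ρ_le Zb.zn kz y)))
  have key := fun (k : X → ℕ) (hk : (zn Zb.zn kz).Sc k) (a : Fin 3 → ℝ) (v : X → E3)
      (hv : (zn Zb.zn kz).Adm v)
      (ct0 : F → (zn Zb.zn kz).OIx hk a hv ⊕ Σ j, (zn Zb.zn kz).IIx hk a hv j)
      (hct0 : ∀ c : X, ct0 c.1 = Sum.inr ⟨c, (zn Zb.zn kz).core hk a hv c⟩) =>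
    b1_gen hLa hδ hR bf cmp H hfi hκ1 hτ hτ2 h2 hκ8 hlτ hcor (zn Zb.zn kz) hφ hO' hK himg hsm
      (znRD Zb.zn kz Y) huA0 huA hη hε hF' hk a hv hct0
  refine ⟨fun k hk a v hv c => ?_, fun k hk a v hv ct0 hct0 => (key k hk a v hv ct0 hct0).2⟩
  set ct0 : F → (zn Zb.zn kz).OIx hk a hv ⊕ Σ j, (zn Zb.zn kz).IIx hk a hv j := fun d =>
    if h : d ∈ X then Sum.inr ⟨⟨d, h⟩, (zn Zb.zn kz).core hk a hv ⟨d, h⟩⟩
    else Sum.inr ⟨c, (zn Zb.zn kz).core hk a hv c⟩ with hct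
  exact (key k hk a v hv ct0 fun d => dif_pos d.2).1 c

end Crest.Agent.R096.Pth_561
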