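import Crest.Agent.R096.Np4_962
import Crest.Agent.R096.Shv1_273
import Crest.Agent.R096.Ea1_713

/-!
Row 96 (S0127), helper479.  NO0-PRE3, leaf **[P-V]** of 962 #11402: the volume of the tiles of `Q`
which meet the shell `ShL L η`, and of those which meet junk squares.
-/

set_option autoImplicit false
set_option linter.unusedSectionVars false
set_option linter.unusedVariables false

open Set MeasureTheory Filter Topology Metric
open scoped ENNReal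

namespace Crest.Agent.R096.Pv_479

open Crest.Agent.R096.Msh_715 Crest.Agent.R096.SkC1_961 Crest.Agent.R096.No_276
open Crest.Agent.R096.Shv_273 Crest.Agent.R096.No0_477 Crest.Agent.R096.SkN1_477
open Crest.Agent.R096.Gno_324 Crest.Agent.R096.Np_962 Crest.Agent.R096.Ps_273
open Crest.Agent.R096.Msh_810 (Dc Cel Idx ps Top Dat)

noncomputable section

/-- sup-diameter of a closed dyadic cell -/
theorem Dc_diam {n : ℕ} (a : Fin n → ℝ) (σ : Idx n) {x y : Fin n → ℝ} (hx : x ∈ Dc a σ)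
    (hy : y ∈ Dc a σ) : ‖x - y‖ ≤ ((2:ℝ) ^ σ.k)⁻¹ := by
  have h2 : (0:ℝ) < 2 ^ σ.k := by positivity
  rw [pi_norm_le_iff_of_nonneg (by positivity)]
  intro i
  rw [Real.norm_eq_abs, Pi.sub_apply]
  have h1 : |ps a σ.k x i - ps a σ.k y i| ≤ 1 := by
    by_cases hi : i ∈ σ.J
    · have hx1 := (hx i).1 hi
      have hy1 := (hy i).1 hi
      rw [abs_le]
      constructor <;> linarith [hx1.1, hx1.2, hy1.1, hy1.2]
    · rw [(hx i).2 hi, (hy i).2 hi]; simp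
  have h3 : ps a σ.k x i - ps a σ.k y i = 2 ^ σ.k * (x i - y i) := by
    simp only [ps]; ring
  rw [h3, abs_mul, abs_of_pos h2] at h1
  rw [← one_div, le_div_iff₀ h2]
  linarith

variable {ι : Type}

/-- volume of the tiles of `A` which meet the shell -/
theorem shell_vol_on {L : ℕ} (hL : 1 ≤ L) {η t : ℝ} (hη : 0 < η) (ht : 0 ≤ t)
    {T : Tiling (QL L) ι} {A : Set ι}
    (hT : ∀ i ∈ A, ∀ x ∈ P (T.H i), ∀ y ∈ P (T.H i), ‖x - y‖ ≤ t)
    (hA : ∀ i ∈ A, (P (T.H i) ∩ ShL L η).Nonempty) :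
    volume (⋃ i ∈ A, P (T.H i)) ≤ ENNReal.ofReal ((48 * η + 24 * L * t) / L) := by
  have hL0 : (0:ℝ) < L := by exact_mod_cast hL
  have hL1 : (1:ℝ) ≤ L := by exact_mod_cast hL
  have hu : 0 ≤ 2 * η + L * t := by positivity
  refine (measure_mono ?_).trans ((vol_Sv hL0 hu).trans (ENNReal.ofReal_le_ofReal (le_of_eq ?_)))
  swap
  · ring
  intro x hx
  simp only [mem_iUnion, exists_prop] at hx
  obtain ⟨i, hi, hxi⟩ := hx
  obtain ⟨y, hy1, hyQ, hy2⟩ := hA i hi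
  have hxy := hT i hi x hxi y hy1
  have hco : ∀ j, |x j - y j| ≤ t := fun j => (norm_le_pi_norm (x - y) j).trans hxy
  have hab : ∀ j, |y j| - t ≤ |x j| := by
    intro j
    have h1 : |y j| ≤ |x j| + |x j - y j| := by
      have h2 : y j = x j - (x j - y j) := by ring
      calc |y j| = |x j - (x j - y j)| := by rw [← h2]
        _ ≤ _ := abs_sub _ _
    linarith [hco j]
  refine ⟨T.sub i hxi, ?_⟩
  have hLt : t ≤ L * t := by nlinarith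
  simp only [mem_ofPred_eq] at hy2
  rcases hy2 with h | h | h
  · left
    linarith [hab 0]
  · right; left
    linarith [hab 1]
  · right; right
    rw [abs_mul, abs_of_pos hL0] at h ⊢
    have h3 := mul_le_mul_of_nonneg_left (hab 2) hL0.le
    nlinarith

/-- the box round a square -/
theorem vol_box3 (w : E3) {r : ℝ} (hr : 0 ≤ r) :
    volume (Icc (fun i => w i - r) (fun i => w i + 2 * r)) = ENNReal.ofReal (27 * r ^ 3) := by
  rw [Real.volume_Icc_pi]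
  have h : ∀ i : Fin 3, ENNReal.ofReal (w i + 2 * r - (w i - r)) = ENNReal.ofReal (3 * r) := by
    intro i; congr 1; ring
  simp only [h, Finset.prod_const, Finset.card_univ, Fintype.card_fin]
  rw [← ENNReal.ofReal_pow (by positivity)]
  congr 1; ring

/-- volume of the tiles of `A` which meet the squares of `S` -/
theorem sq_vol_on {Om : Set E3} {T : Tiling Om ι} {A : Set ι} {r : ℝ} (hr0 : 0 < r) (hr : r ≠ 0)
    (a : E3) (o : Fin 2 → ℤ) (hT : ∀ i ∈ A, ∀ x ∈ P (T.H i), ∀ y ∈ P (T.H i), ‖x - y‖ ≤ r)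
    (S : Set (ℤ × (Fin 2 → ℕ))) (hS : S.Finite)
    (hA : ∀ i ∈ A, ∃ k ∈ S, (P (T.H i) ∩ usq (fr (vx a r o k.1 k.2) r hr)).Nonempty) :
    volume (⋃ i ∈ A, P (T.H i)) ≤ ENNReal.ofReal (27 * r ^ 3 * S.ncard) := by
  have hsub : (⋃ i ∈ A, P (T.H i)) ⊆ ⋃ k ∈ hS.toFinset,
      Icc (fun i => vx a r o k.1 k.2 i - r) (fun i => vx a r o k.1 k.2 i + 2 * r) := by
    intro x hx
    simp only [mem_iUnion, exists_prop] at hx
    obtain ⟨i, hi, hxi⟩ := hx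
    obtain ⟨k, hk, y, hy1, hy2⟩ := hA i hi
    rw [mem_usq_fr hr0 hr] at hy2
    obtain ⟨h0, h0', h1, h1', h2⟩ := hy2
    have hxy := hT i hi x hxi y hy1
    have hco : ∀ j, -r ≤ x j - y j ∧ x j - y j ≤ r := fun j =>
      abs_le.1 ((norm_le_pi_norm (x - y) j).trans hxy)
    refine mem_iUnion₂.2 ⟨k, by simpa using hk, ?_, ?_⟩
    · intro j
      have h := hco j
      fin_cases j
      · simp only [Fin.zero_eta, Fin.isValue] at h ⊢; linarith [h.1]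
      · simp only [Fin.mk_one, Fin.isValue] at h ⊢; linarith [h.1]
      · simp only [Fin.reduceFinMk, Fin.isValue] at h ⊢; linarith [h.1]
    · intro j
      have h := hco j
      fin_cases j
      · simp only [Fin.zero_eta, Fin.isValue] at h ⊢; linarith [h.2]
      · simp only [Fin.mk_one, Fin.isValue] at h ⊢; linarith [h.2]
      · simp only [Fin.reduceFinMk, Fin.isValue] at h ⊢; linarith [h.2]
  calc volume (⋃ i ∈ A, P (T.H i)) ≤ volume (⋃ k ∈ hS.toFinset,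
        Icc (fun i => vx a r o k.1 k.2 i - r) (fun i => vx a r o k.1 k.2 i + 2 * r)) :=
        measure_mono hsub
    _ ≤ ∑ k ∈ hS.toFinset,
        volume (Icc (fun i => vx a r o k.1 k.2 i - r) (fun i => vx a r o k.1 k.2 i + 2 * r)) :=
        measure_biUnion_finset_le _ _
    _ = ENNReal.ofReal (27 * r ^ 3 * S.ncard) := by
        simp only [vol_box3 _ hr0.le, Finset.sum_const, nsmul_eq_mul]
        rw [Set.ncard_eq_toFinset_card S hS, ← ENNReal.ofReal_natCast,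
          ← ENNReal.ofReal_mul (Nat.cast_nonneg _)]
        congr 1; ring

/-- the volumes of the tiles of `A` add up -/
theorem tsum_vol {Om : Set E3} (T : Tiling Om ι) (A : Set ι) :
    ∑' i : A, volume (P (T.H i.1)) = volume (⋃ i ∈ A, P (T.H i)) := by
  have hc : Countable ι := Crest.Agent.R096.Ea_713.countable_ix T
  rw [biUnion_eq_iUnion, measure_iUnion₀]
  · intro i j hij
    exact Crest.Agent.R096.Ea_713.aedisj T (μ := volume) (fun h => hij (Subtype.ext h))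
  · intro i
    exact (T.cpt i.1).measurableSet.nullMeasurableSet

section Mesh

variable {δ κ0 R c0 : ℝ} {La : Set E3} {p : ℝ} {q : ℕ} {al : Fin 3 → ℝ} {h : ℝ} {s : Fin 3 → ℝ}
  {L : ℕ} {η : ℝ} {Φ : FoamD δ κ0 R c0 La} {f1 : E3 → E3} {g : Φ.F → Fin 3 → E3 → ℝ} {W : Φ.F → ℝ}
  {κ' μ κ1 κ2 κ3 : ℝ} {Cs : Set (Set E3) → ℝ} {𝒮0 : Set (Set (Set E3))} {HH R' : Set E3}
  {e1 e2 e3 e4 : ℝ≥0∞} {e5 : ℝ} {Ku : ℝ≥0∞} {D : Dat 3} {K0 : ℕ} {r : ℝ} {hr : r ≠ 0}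
  {o : Fin 2 → ℤ} {M : ℕ} {Zs : Finset ℤ} {T : Tiling (QL L) ι} {Q : Set ι} {τ : ι → Top D}
  {J0 J V : Φ.F → Set ι} {ct : Φ.F → ι} {A : Φ.F → E3 ≃ᵃ[ℝ] E3} {lam : Φ.F → ℝ} {z : Φ.F → E3}
  {θ : Φ.F → E3 → E3} {φ : Φ.F → E3 → ℝ} {Mg : Φ.F → ℕ} {B : ι → E3 ≃ᵃ[ℝ] E3} {cw : ι → ℝ≥0∞}

/-- the unit is positive -/
theorem r_pos (H : MeshN p q al h s L η Φ f1 g W κ' μ κ1 κ2 κ3 Cs 𝒮0 HH R' e1 e2 e3 e4 e5 Ku D K0 r
    hr o M Zs T Q τ J0 J V ct A lam z θ φ Mg B cw) : 0 < r := by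
  rw [H.rK]; positivity

/-- the tiles of `Q` have sup-diameter at most `r` -/
theorem diam_Q (H : MeshN p q al h s L η Φ f1 g W κ' μ κ1 κ2 κ3 Cs 𝒮0 HH R' e1 e2 e3 e4 e5 Ku D K0
    r hr o M Zs T Q τ J0 J V ct A lam z θ φ Mg B cw) {i : ι} (hi : i ∈ Q) :
    ∀ x ∈ P (T.H i), ∀ y ∈ P (T.H i), ‖x - y‖ ≤ r := by
  intro x hx y hy
  rw [H.base.P_eq hi] at hx hy
  refine (Dc_diam D.a (τ i).1.1 hx hy).trans ?_
  rw [H.rK]
  exact inv_anti₀ (by positivity) (pow_le_pow_right₀ (by norm_num) (H.scQ i hi))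

/-- **[P-V] (1)**: tiles of `Q` which meet the shell -/
theorem vol_shell_Q (H : MeshN p q al h s L η Φ f1 g W κ' μ κ1 κ2 κ3 Cs 𝒮0 HH R' e1 e2 e3 e4 e5 Ku D
    K0 r hr o M Zs T Q τ J0 J V ct A lam z θ φ Mg B cw) (hL : 1 ≤ L) (hη : 0 < η) {S : Set ι}
    (hS : S ⊆ Q) (hm : ∀ i ∈ S, (P (T.H i) ∩ ShL L η).Nonempty) :
    volume (⋃ i ∈ S, P (T.H i)) ≤ ENNReal.ofReal ((48 * η + 24 * L * r) / L) :=
  shell_vol_on hL hη (r_pos H).le (fun i hi => diam_Q H (hS hi)) hm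

/-- **[P-V] (1)**, sum form with `IZ` without macro balls -/
theorem tsum_shell_Q (H : MeshN p q al h s L η Φ f1 g W κ' μ κ1 κ2 κ3 Cs 𝒮0 HH R' e1 e2 e3 e4 e5 Ku
    D K0 r hr o M Zs T Q τ J0 J V ct A lam z θ φ Mg B cw) (hL : 1 ≤ L) (hη : 0 < η) {β : Type}
    [IsEmpty β] (b : β → E3) (R1 : β → ℝ) (Sc : β → Finset ι) {S : Set ι} (hS : S ⊆ Q) :
    ∑' i : {i // i ∈ S ∧ i ∈ IZ T (ShL L η) b R1 Sc}, volume (P (T.H i.1)) ≤
      ENNReal.ofReal ((48 * η + 24 * L * r) / L) := by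
  have h1 := tsum_vol T {i | i ∈ S ∧ i ∈ IZ T (ShL L η) b R1 Sc}
  refine (le_of_eq h1).trans (vol_shell_Q H hL hη (fun i hi => hS hi.1) ?_)
  rintro i ⟨_, hi | ⟨c, _⟩⟩
  · exact hi
  · exact isEmptyElim c

/-- **[P-V] (2)**: tiles of `Q` which meet junk squares -/
theorem vol_junk_Q (H : MeshN p q al h s L η Φ f1 g W κ' μ κ1 κ2 κ3 Cs 𝒮0 HH R' e1 e2 e3 e4 e5 Ku D
    K0 r hr o M Zs T Q τ J0 J V ct A lam z θ φ Mg B cw) (U : ℤ → (Fin 2 → ℕ) → Prop) {S : Set ι}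
    (hS : S ⊆ Q) (hm : ∀ i ∈ S, MJ T r hr D.a o M Zs U i) :
    volume (⋃ i ∈ S, P (T.H i)) ≤ ENNReal.ofReal (27 * r ^ 3 *
      ({k : ℤ × (Fin 2 → ℕ) | k ∈ Fc M Zs ∧ ¬ U k.1 k.2}).ncard) := by
  refine sq_vol_on (r_pos H) hr D.a o (fun i hi => diam_Q H (hS hi)) _
    ((Fc M Zs).finite_toSet.subset fun k hk => hk.1) ?_
  intro i hi
  obtain ⟨k, hk, hU, hk2⟩ := hm i hi
  exact ⟨k, ⟨hk, hU⟩, hk2⟩

/-- **[P-V] (2)**, sum form -/
theorem tsum_junk_Q (H : MeshN p q al h s L η Φ f1 g W κ' μ κ1 κ2 κ3 Cs 𝒮0 HH R' e1 e2 e3 e4 e5 Ku D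
    K0 r hr o M Zs T Q τ J0 J V ct A lam z θ φ Mg B cw) (U : ℤ → (Fin 2 → ℕ) → Prop) {S : Set ι}
    (hS : S ⊆ Q) :
    ∑' i : {i // i ∈ S ∧ MJ T r hr D.a o M Zs U i}, volume (P (T.H i.1)) ≤
      ENNReal.ofReal (27 * r ^ 3 *
        ({k : ℤ × (Fin 2 → ℕ) | k ∈ Fc M Zs ∧ ¬ U k.1 k.2}).ncard) := by
  have h1 := tsum_vol T {i | i ∈ S ∧ MJ T r hr D.a o M Zs U i}
  exact (le_of_eq h1).trans (vol_junk_Q H U (fun i hi => hS hi.1) fun i hi => hi.2)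

/-- **[P-V] (2)** with the number of junk squares of `MeshN` -/
theorem tsum_junk_Q' (H : MeshN p q al h s L η Φ f1 g W κ' μ κ1 κ2 κ3 Cs 𝒮0 HH R' e1 e2 e3 e4 e5 Ku
    D K0 r hr o M Zs T Q τ J0 J V ct A lam z θ φ Mg B cw) {S : Set ι} (hS : S ⊆ Q) :
    ∑' i : {i // i ∈ S ∧ MJ T r hr D.a o M Zs (Ug T Qᶜ D.a r o) i}, volume (P (T.H i.1)) ≤
      ENNReal.ofReal (27 * e5 * ((Zs.card : ℝ) * M ^ 2) * r ^ 3) := by
  refine (tsum_junk_Q H (Ug T Qᶜ D.a r o) hS).trans (ENNReal.ofReal_le_ofReal ?_)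
  have h1 := H.junk
  have h2 : 0 ≤ 27 * r ^ 3 := by have := r_pos H; positivity
  calc 27 * r ^ 3 * _ ≤ 27 * r ^ 3 * (e5 * ((Zs.card : ℝ) * M ^ 2)) :=
        mul_le_mul_of_nonneg_left h1 h2
    _ = _ := by ring

end Mesh

end

end Crest.Agent.R096.Pv_479
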