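import Crest.Agent.R096.No0_477
import Crest.Agent.R096.Dic5_582

/-!
# Row 96, NO0, QUAD (helper205), part 1: labels over good squares

A tile (any set `W`) on which the labels `u` are exact (`zero` / `one` of `OutNO`): if the pushed map
`Psi ∘ f` maps one point of `W` into a good square of the log foam, then `T ∘ u` maps all of `W` into
this square, only the four neighbours of the square move, and the displacement of `T ∘ u` along a
1-cell is at most the weight of the final points on it.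
-/

set_option autoImplicit false
set_option linter.style.longLine false
set_option linter.unusedSectionVars false

open MeasureTheory Set Filter Topology Metric
open scoped ENNReal

namespace Crest.Agent.R096.Qd_205

open Crest.Agent.R096.Bsp_628 Crest.Agent.R096.Brk1_582 Crest.Agent.R096.Brk3_582
open Crest.Agent.R096.Brk5_582
open Crest.Agent.R096.Log1_582 Crest.Agent.R096.Log2_582 Crest.Agent.R096.Dic1_582
open Crest.Agent.R096.Dic5_582
open Crest.Agent.R096.Msh_715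
open Crest.Agent.R096.SkC1_961 Crest.Agent.R096.SkN1_477 Crest.Agent.R096.No0_477

noncomputable section

variable {δ κ0 R c0 : ℝ} {La Om : Set E3} {ι : Type} {Φ : FoamD δ κ0 R c0 La}

/-- the labels are exact on the set `W` (one ordinary tile) -/
structure Lab (Φ : FoamD δ κ0 R c0 La) (W : Set E3) (f : E3 → E3) (u : E3 → Φ.F → ℝ) : Prop where
  memK : ∀ x ∈ W, u x ∈ K (Pc Φ.F)
  zero : ∀ x ∈ W, ∀ y ∈ W, ∀ c, Φ.lev c (f x) = 0 → u y c = 0
  one : ∀ x ∈ W, ∀ y ∈ W, ∀ c, Φ.lev c (f x) = 1 → u y c = 1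

theorem Lab.mono {W W' : Set E3} {f : E3 → E3} {u : E3 → Φ.F → ℝ} (h : Lab Φ W f u)
    (hW : W' ⊆ W) : Lab Φ W' f u :=
  ⟨fun x hx => h.memK x (hW hx), fun x hx y hy => h.zero x (hW hx) y (hW hy),
    fun x hx y hy => h.one x (hW hx) y (hW hy)⟩

variable {q : ℕ} {a : Fin 3 → ℝ} {h : ℝ} {e o i j : ℤ} {W : Set E3} {f : E3 → E3}
  {u : E3 → Φ.F → ℝ}

section square

variable (H : Lab Φ W f u) (G : GSq Φ.F q a h e o i j) (hLa : IsOpen La) (hq : 1 ≤ q) (hh : 0 < h)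
  {x : E3} (hx : x ∈ W) (hfx : Φ.Psi (f x) ∈ sqr a h e o i j)

include hLa hq hh hfx in
theorem lev_cx : Φ.lev (cx G) (f x) = 0 := by
  classical
  have := G.sc_eq Φ.bf hLa hq hh hfx (cx G)
  have h0 : (cx G).1 = Lx q a h e i j ∨ (cx G).1 = Ly q a h o i j := Or.inl rfl
  rw [if_pos h0] at this
  exact this

include hLa hq hh hfx in
theorem lev_cy : Φ.lev (cy G) (f x) = 0 := by
  classical
  have := G.sc_eq Φ.bf hLa hq hh hfx (cy G)
  have h0 : (cy G).1 = Lx q a h e i j ∨ (cy G).1 = Ly q a h o i j := Or.inr rfl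
  rw [if_pos h0] at this
  exact this

include H hLa hq hh hx hfx

/-- all labels but four are the same on the whole tile -/
theorem Lab.other {c : Φ.F} (h1 : c ≠ G.xp) (h2 : c ≠ G.xm) (h3 : c ≠ G.yp) (h4 : c ≠ G.ym)
    {y y' : E3} (hy : y ∈ W) (hy' : y' ∈ W) : u y c = u y' c := by
  rcases G.sc_other Φ.bf hLa hq hh hfx h1 h2 h3 h4 with h5 | h5
  · rw [H.zero x hx y hy c h5, H.zero x hx y' hy' c h5]
  · rw [H.one x hx y hy c h5, H.one x hx y' hy' c h5]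

/-- `T ∘ u` maps the whole tile into the same square, exact formulas -/
theorem Lab.coord {y : E3} (hy : y ∈ W) :
    T (bc (F := Φ.F)) (u y) ∈ sqr a h e o i j ∧
      T (bc (F := Φ.F)) (u y) 0 = a 0 + h * (i + 1 / 2 + (u y G.xm - u y G.xp) / 2) ∧
      T (bc (F := Φ.F)) (u y) 1 = a 1 + h * (j + 1 / 2 + (u y G.ym - u y G.yp) / 2) ∧
      T (bc (F := Φ.F)) (u y) 2 = a 2 + h * ((max e o : ℤ) : ℝ) :=
  GSq.coord_T G Φ.bf hLa hq hh (H.memK y hy)
    (H.zero x hx y hy _ (lev_cx G hLa hq hh hfx)) (H.zero x hx y hy _ (lev_cy G hLa hq hh hfx))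

/-- displacement over a good square -/
theorem Lab.disp {y y' : E3} (hy : y ∈ W) (hy' : y' ∈ W) :
    |T (bc (F := Φ.F)) (u y) 0 - T (bc (F := Φ.F)) (u y') 0| ≤
        h / 2 * (|u y G.xp - u y' G.xp| + |u y G.xm - u y' G.xm|) ∧
      |T (bc (F := Φ.F)) (u y) 1 - T (bc (F := Φ.F)) (u y') 1| ≤
        h / 2 * (|u y G.yp - u y' G.yp| + |u y G.ym - u y' G.ym|) ∧
      T (bc (F := Φ.F)) (u y) 2 = T (bc (F := Φ.F)) (u y') 2 := by
  obtain ⟨-, h1, h2, h3⟩ := H.coord G hLa hq hh hx hfx hy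
  obtain ⟨-, h1', h2', h3'⟩ := H.coord G hLa hq hh hx hfx hy'
  have key : ∀ p m p' m' : ℝ, |(m - p) / 2 - (m' - p') / 2| ≤ 1 / 2 * (|p - p'| + |m - m'|) := by
    intro p m p' m'
    have : (m - p) / 2 - (m' - p') / 2 = 1 / 2 * ((m - m') - (p - p')) := by ring
    rw [this, abs_mul, abs_of_pos (by norm_num : (0:ℝ) < 1 / 2)]
    have := abs_sub (m - m') (p - p')
    nlinarith
  refine ⟨?_, ?_, by rw [h3, h3']⟩
  · rw [h1, h1']
    have : a 0 + h * (i + 1 / 2 + (u y G.xm - u y G.xp) / 2) -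
        (a 0 + h * (i + 1 / 2 + (u y' G.xm - u y' G.xp) / 2)) =
        h * ((u y G.xm - u y G.xp) / 2 - (u y' G.xm - u y' G.xp) / 2) := by ring
    rw [this, abs_mul, abs_of_pos hh]
    have := key (u y G.xp) (u y G.xm) (u y' G.xp) (u y' G.xm)
    nlinarith
  · rw [h2, h2']
    have : a 1 + h * (j + 1 / 2 + (u y G.ym - u y G.yp) / 2) -
        (a 1 + h * (j + 1 / 2 + (u y' G.ym - u y' G.yp) / 2)) =
        h * ((u y G.ym - u y G.yp) / 2 - (u y' G.ym - u y' G.yp) / 2) := by ring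
    rw [this, abs_mul, abs_of_pos hh]
    have := key (u y G.yp) (u y G.ym) (u y' G.yp) (u y' G.ym)
    nlinarith

end square

/-! ### weights -/

/-- final counts and labels on the 1-cell `S` -/
structure Cnt (Φ : FoamD δ κ0 R c0 La) (f : E3 → E3) (κ : Φ.F → ℕ) (L : Φ.F → Finset ℝ) (ε : ℝ)
    (u : E3 → Φ.F → ℝ) (n : Set E3 → Φ.F → ℝ) (S : Set E3) : Prop where
  e0 : 0 ≤ ε
  n0 : ∀ c, 0 ≤ n S c
  cnt : ∀ s : Finset Φ.F, ENNReal.ofReal (∑ c ∈ s, n S c * (2 : ℝ)⁻¹ ^ κ c) ≤ Vw Φ f κ L S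
  osc : ∀ c, ∀ y ∈ S, ∀ y' ∈ S, |u y c - u y' c| * (L c).card ≤ (1 + ε) * n S c

variable {κ : Φ.F → ℕ} {L : Φ.F → Finset ℝ} {n : Set E3 → Φ.F → ℝ} {S : Set E3} {ε : ℝ}

theorem Cnt.sum_le (hC : Cnt Φ f κ L ε u n S) (s : Finset Φ.F) :
    ENNReal.ofReal (∑ c ∈ s, n S c * (2 : ℝ)⁻¹ ^ κ c) ≤ Vw Φ f κ L S := by
  exact hC.cnt s

theorem Cnt.osc_w (hC : Cnt Φ f κ L ε u n S) (c : Φ.F) {y y' : E3} (hy : y ∈ S) (hy' : y' ∈ S) :
    |u y c - u y' c| * ((L c).card * (2 : ℝ)⁻¹ ^ κ c) ≤ (1 + ε) * (n S c * (2 : ℝ)⁻¹ ^ κ c) := by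
  rw [← mul_assoc, ← mul_assoc]
  exact mul_le_mul_of_nonneg_right (hC.osc c y hy y' hy') (by positivity)

/-- **displacement over a good square ≤ weight of the initial points** -/
theorem disp_le (H : Lab Φ W f u) (G : GSq Φ.F q a h e o i j) (hLa : IsOpen La) (hq : 1 ≤ q)
    (hh : 0 < h) (hw : ∀ c : Φ.F, IsLog q a h c.1 → (L c).card * (2 : ℝ)⁻¹ ^ κ c = h / 2)
    {x : E3} (hx : x ∈ W) (hfx : Φ.Psi (f x) ∈ sqr a h e o i j) (hC : Cnt Φ f κ L ε u n S)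
    (hSW : S ⊆ W) {y y' : E3} (hy : y ∈ S) (hy' : y' ∈ S) :
    ENNReal.ofReal (|T (bc (F := Φ.F)) (u y) 0 - T (bc (F := Φ.F)) (u y') 0| +
      |T (bc (F := Φ.F)) (u y) 1 - T (bc (F := Φ.F)) (u y') 1|) ≤
      ENNReal.ofReal (1 + ε) * Vw Φ f κ L S := by
  classical
  obtain ⟨h1, h2, -⟩ := H.disp G hLa hq hh hx hfx (hSW hy) (hSW hy')
  have l1 : IsLog q a h G.xp.1 := ⟨_, _, _, rfl⟩
  have l2 : IsLog q a h G.xm.1 := ⟨_, _, _, rfl⟩
  have l3 : IsLog q a h G.yp.1 := ⟨_, _, _, rfl⟩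
  have l4 : IsLog q a h G.ym.1 := ⟨_, _, _, rfl⟩
  have k1 := hC.osc_w (κ := κ) G.xp hy hy'
  have k2 := hC.osc_w (κ := κ) G.xm hy hy'
  have k3 := hC.osc_w (κ := κ) G.yp hy hy'
  have k4 := hC.osc_w (κ := κ) G.ym hy hy'
  rw [hw _ l1] at k1
  rw [hw _ l2] at k2
  rw [hw _ l3] at k3
  rw [hw _ l4] at k4
  have he := hC.e0
  refine le_trans (ENNReal.ofReal_le_ofReal
    (q := (1 + ε) * ∑ c ∈ {G.xp, G.xm, G.yp, G.ym}, n S c * (2 : ℝ)⁻¹ ^ κ c) ?_) (by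
      rw [ENNReal.ofReal_mul (by linarith)]
      exact mul_le_mul' le_rfl (hC.sum_le (κ := κ) {G.xp, G.xm, G.yp, G.ym}))
  rw [Finset.sum_insert, Finset.sum_insert, Finset.sum_insert, Finset.sum_singleton]
  · linarith
  · simp only [Finset.mem_singleton]; exact G.yp_ne_ym hh
  · simp only [Finset.mem_insert, Finset.mem_singleton, not_or]
    exact ⟨G.xm_ne_yp hh, G.xm_ne_ym hh⟩
  · simp only [Finset.mem_insert, Finset.mem_singleton, not_or]
    exact ⟨G.xp_ne_xm hh, G.xp_ne_yp hh, G.xp_ne_ym hh⟩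

/-- **displacement over a horizontal wall between two logs ≤ twice the weight** -/
theorem disp_hor (H : Lab Φ W f u) {C O : Φ.F} (Hh : Hor Φ.F q a h C O) (hLa : IsOpen La)
    (hh : 0 < h) (hw : ∀ c : Φ.F, IsLog q a h c.1 → (L c).card * (2 : ℝ)⁻¹ ^ κ c = h / 2)
    {x : E3} (hx : x ∈ W) (hP : Φ.Psi (f x) ∈ Pc Φ.F C ∩ Pc Φ.F O)
    (hPL : Φ.Psi (f x) ∈ La)
    (hC : Cnt Φ f κ L ε u n S)
    (hSW : S ⊆ W) {y y' : E3} (hy : y ∈ S) (hy' : y' ∈ S) :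
    ENNReal.ofReal ‖T (bc (F := Φ.F)) (u y) - T (bc (F := Φ.F)) (u y')‖ ≤
      ENNReal.ofReal (2 * (1 + ε)) * Vw Φ f κ L S := by
  classical
  have FF := foam Φ.bf hLa
  have hz : ∀ D : Φ.F, Φ.Psi (f x) ∈ Pc Φ.F D → Φ.lev D (f x) = 0 := by
    intro D hD
    have h1 := FF.act_T (FF.sc_mem_K hPL)
    rw [FF.T_sc hPL] at h1
    have h2 : D ∈ act (Pc Φ.F) (Φ.Psi (f x)) := hD
    rw [h1] at h2
    exact h2
  have huC : ∀ z ∈ W, u z C = 0 := fun z hz' => H.zero x hx z hz' C (hz C hP.1)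
  have huO : ∀ z ∈ W, u z O = 0 := fun z hz' => H.zero x hx z hz' O (hz O hP.2)
  have hfin : ∀ z ∈ W, {c | u z c < 1}.Finite := fun z hz' => FF.K_finite (H.memK z hz')
  set s : Finset Φ.F := (hfin y (hSW hy)).toFinset ∪ (hfin y' (hSW hy')).toFinset with hs
  have hS : ∀ c, c ∉ s → u y c = u y' c := by
    intro c hc
    rw [hs, Finset.mem_union, not_or, (hfin y (hSW hy)).mem_toFinset,
      (hfin y' (hSW hy')).mem_toFinset] at hc
    have e1 : u y c = 1 := le_antisymm ((H.memK y (hSW hy)).1 c).2 (not_lt.1 hc.1)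
    have e2 : u y' c = 1 := le_antisymm ((H.memK y' (hSW hy')).1 c).2 (not_lt.1 hc.2)
    rw [e1, e2]
  have hlog : ∀ c ∈ s, IsLog q a h c.1 := by
    have aux : ∀ z ∈ W, ∀ c, u z c < 1 → IsLog q a h c.1 := by
      intro z hz' c hc
      obtain ⟨p, hp⟩ := (H.memK z hz').2.2
      have m1 : p ∈ Pc Φ.F c := mem_fc.1 hp c hc
      have m2 : p ∈ Pc Φ.F C := mem_fc.1 hp C (by change u z C < 1; rw [huC z hz']; norm_num)
      have m3 : p ∈ Pc Φ.F O := mem_fc.1 hp O (by change u z O < 1; rw [huO z hz']; norm_num)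
      exact Hh.log c ⟨p, m1, m2, m3⟩
    intro c hc
    rw [hs, Finset.mem_union, (hfin y (hSW hy)).mem_toFinset,
      (hfin y' (hSW hy')).mem_toFinset] at hc
    rcases hc with hc | hc
    · exact aux y (hSW hy) c hc
    · exact aux y' (hSW hy') c hc
  have key := hor_T_lip Hh Φ.bf hLa hh (H.memK y (hSW hy)) (H.memK y' (hSW hy'))
    (huC y (hSW hy)) (huO y (hSW hy)) (huC y' (hSW hy')) (huO y' (hSW hy')) s hS
  have he := hC.e0
  have h3 : h * ∑ c ∈ s, |u y c - u y' c| ≤ 2 * (1 + ε) * ∑ c ∈ s, n S c * (2 : ℝ)⁻¹ ^ κ c := by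
    rw [Finset.mul_sum, Finset.mul_sum]
    refine Finset.sum_le_sum fun c hc => ?_
    have k1 := hC.osc_w (κ := κ) c hy hy'
    rw [hw _ (hlog c hc)] at k1
    linarith
  calc ENNReal.ofReal ‖T (bc (F := Φ.F)) (u y) - T (bc (F := Φ.F)) (u y')‖
      ≤ ENNReal.ofReal (2 * (1 + ε) * ∑ c ∈ s, n S c * (2 : ℝ)⁻¹ ^ κ c) :=
        ENNReal.ofReal_le_ofReal (key.trans h3)
    _ = ENNReal.ofReal (2 * (1 + ε)) * ENNReal.ofReal (∑ c ∈ s, n S c * (2 : ℝ)⁻¹ ^ κ c) := by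
        rw [ENNReal.ofReal_mul (by linarith)]
    _ ≤ _ := mul_le_mul' le_rfl (hC.sum_le (κ := κ) s)

end

end Crest.Agent.R096.Qd_205
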