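import Crest.Agent.R096.Qd1_205

/-!
# Row 96, NO0, QUAD (helper205), part 2 = (L4) of 477 #10235

* `Lab.qf` : a tile with exact labels one point of which is mapped by `Psi ∘ f` into a closed good
  square of the log foam satisfies `QF` (477), with width `h / 2`.
* `par_of_square` : over a good square every quad is a parallelogram (364 #10232: hypothesis of
  `clo`).
-/

set_option autoImplicit false
set_option linter.style.longLine false
set_option linter.unusedSectionVars false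

open MeasureTheory Set Filter Topology Metric
open scoped ENNReal

namespace Crest.Agent.R096.Qd_205

open Crest.Agent.R096.Bsp_628 Crest.Agent.R096.Brk1_582 Crest.Agent.R096.Brk3_582
open Crest.Agent.R096.Brk5_582
open Crest.Agent.R096.Log1_582 Crest.Agent.R096.Log2_582 Crest.Agent.R096.Dic1_582
open Crest.Agent.R096.Dic5_582
open Crest.Agent.R096.Msh_715
open Crest.Agent.R096.SkC1_961 Crest.Agent.R096.SkN1_477 Crest.Agent.R096.No0_477

noncomputable section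

variable {δ κ0 R c0 : ℝ} {La Om : Set E3} {ι : Type} {Φ : FoamD δ κ0 R c0 La}
variable {q : ℕ} {a : Fin 3 → ℝ} {h : ℝ} {e o i j : ℤ} {W : Set E3} {f : E3 → E3}
  {u : E3 → Φ.F → ℝ} {κ : Φ.F → ℕ} {L : Φ.F → Finset ℝ}

/-! ### parallelograms -/

section par

variable {F : Set (Bx (Fin 3))} {La' : Set (Fin 3 → ℝ)} {δ' κ0' : ℝ}

/-- the label which is `0` on `S` and `1` off `S` -/
def ind (S : Set F) : F → ℝ := by
  classical
  exact fun c => if c ∈ S then 0 else 1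

theorem ind_zero (S : Set F) : {c | ind S c = 0} = S := by
  classical
  ext c
  simp only [ind, mem_ofPred_eq]
  by_cases h : c ∈ S
  · simp [h]
  · simp [h]

theorem T_ind (b : Set F → (Fin 3 → ℝ)) (S : Set F) : T b (ind S) = b S := by
  classical
  rw [T_const, ind_zero]
  intro c
  unfold ind
  by_cases h : c ∈ S
  · left; simp [h]
  · right; simp [h]

theorem ind_mem_K {S : Set F} (hne : S.Nonempty) (hS : (fc (Pc F) S).Nonempty) :
    ind S ∈ K (Pc F) := by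
  classical
  refine ⟨fun c => ?_, ?_, ?_⟩
  · unfold ind
    split_ifs <;> norm_num
  · obtain ⟨c, hc⟩ := hne
    exact ⟨c, by simp [ind, hc]⟩
  · have : {c | ind S c < 1} = S := by
      ext c
      simp only [ind, mem_ofPred_eq]
      by_cases h : c ∈ S
      · simp [h]
      · simp [h]
    rw [this]; exact hS

/-- **over a good square every quad is a parallelogram** -/
theorem par_of_square (G : GSq F q a h e o i j) (BF : BoxFoam La' F δ' κ0') (hLa : IsOpen La')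
    (hq : 1 ≤ q) (hh : 0 < h) {v : F → ℝ} (hv : v ∈ K (Pc F)) (h0 : v (cx G) = 0)
    (h1 : v (cy G) = 0) {c1 c2 : F} (hne : c1 ≠ c2) (hav : {c | 0 < v c ∧ v c < 1} = {c1, c2}) :
    bc (F := F) {c | v c < 1} + bc (F := F) {c | v c = 0} =
      bc (F := F) (insert c1 {c | v c = 0}) + bc (F := F) (insert c2 {c | v c = 0}) := by
  classical
  set A : Set F := {c | v c = 0} with hA
  have m1 : 0 < v c1 ∧ v c1 < 1 := by
    have : c1 ∈ {c | 0 < v c ∧ v c < 1} := by rw [hav]; exact mem_insert _ _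
    exact this
  have m2 : 0 < v c2 ∧ v c2 < 1 := by
    have : c2 ∈ {c | 0 < v c ∧ v c < 1} := by rw [hav]; exact mem_insert_of_mem _ rfl
    exact this
  have hlt : {c | v c < 1} = insert c1 (insert c2 A) := by
    ext c
    constructor
    · intro hc
      have hc' : v c < 1 := hc
      rcases (hv.1 c).1.eq_or_lt with h2 | h2
      · exact mem_insert_of_mem _ (mem_insert_of_mem _ h2.symm)
      · have : c ∈ ({c1, c2} : Set F) := by rw [← hav]; exact ⟨h2, hc'⟩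
        rcases this with rfl | h3
        · exact mem_insert _ _
        · rw [mem_singleton_iff] at h3
          rw [h3]
          exact mem_insert_of_mem _ (mem_insert _ _)
    · rintro (rfl | rfl | h2)
      · exact m1.2
      · exact m2.2
      · change v c < 1
        have : v c = 0 := h2
        rw [this]; norm_num
  have hfc : (fc (Pc F) (insert c1 (insert c2 A))).Nonempty := by
    rw [← hlt]; exact hv.2.2
  have n1 : c1 ∉ A := fun h2 => by
    have : v c1 = 0 := h2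
    linarith [m1.1]
  have n2 : c2 ∉ A := fun h2 => by
    have : v c2 = 0 := h2
    linarith [m2.1]
  have hx : cx G ∈ A := h0
  have hy : cy G ∈ A := h1
  have key : ∀ S : Set F, A ⊆ S → S ⊆ insert c1 (insert c2 A) →
      bc (F := F) S 0 = a 0 + h * (i + 1 / 2 + (ind S G.xm - ind S G.xp) / 2) ∧
      bc (F := F) S 1 = a 1 + h * (j + 1 / 2 + (ind S G.ym - ind S G.yp) / 2) ∧
      bc (F := F) S 2 = a 2 + h * ((max e o : ℤ) : ℝ) := by
    intro S hS hS'
    have hK : ind S ∈ K (Pc F) := ind_mem_K ⟨_, hS hx⟩ (hfc.mono (fc_anti hS'))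
    have e0 : ind S (cx G) = 0 := by simp [ind, hS hx]
    have e1 : ind S (cy G) = 0 := by simp [ind, hS hy]
    have := (GSq.coord_T G BF hLa hq hh hK e0 e1).2
    rwa [T_ind] at this
  have s1 : insert c1 A ⊆ insert c1 (insert c2 A) := insert_subset_insert (subset_insert _ _)
  have s2 : insert c2 A ⊆ insert c1 (insert c2 A) := subset_insert _ _
  have s3 : A ⊆ insert c1 (insert c2 A) := (subset_insert _ _).trans s2
  obtain ⟨a0, a1, a2⟩ := key A Subset.rfl s3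
  obtain ⟨b0, b1, b2⟩ := key (insert c1 A) (subset_insert _ _) s1
  obtain ⟨d0, d1, d2⟩ := key (insert c2 A) (subset_insert _ _) s2
  obtain ⟨f0, f1, f2⟩ := key (insert c1 (insert c2 A)) s3 Subset.rfl
  have hind : ∀ c, ind (insert c1 (insert c2 A)) c + ind A c =
      ind (insert c1 A) c + ind (insert c2 A) c := by
    intro c
    unfold ind
    by_cases g1 : c = c1
    · subst g1
      simp [n1, hne]
    · by_cases g2 : c = c2
      · subst g2
        simp [n2, g1]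
      · simp [g1, g2]
  rw [hlt]
  funext k
  fin_cases k
  · change bc (F := F) (insert c1 (insert c2 A)) 0 + bc (F := F) A 0 =
      bc (F := F) (insert c1 A) 0 + bc (F := F) (insert c2 A) 0
    rw [a0, b0, d0, f0]
    have e1 := hind G.xm
    have e2 := hind G.xp
    linear_combination (h / 2) * e1 - (h / 2) * e2
  · change bc (F := F) (insert c1 (insert c2 A)) 1 + bc (F := F) A 1 =
      bc (F := F) (insert c1 A) 1 + bc (F := F) (insert c2 A) 1
    rw [a1, b1, d1, f1]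
    have e1 := hind G.ym
    have e2 := hind G.yp
    linear_combination (h / 2) * e1 - (h / 2) * e2
  · change bc (F := F) (insert c1 (insert c2 A)) 2 + bc (F := F) A 2 =
      bc (F := F) (insert c1 A) 2 + bc (F := F) (insert c2 A) 2
    rw [a2, b2, d2, f2]

end par

/-- one of the two x-labels is constant `1` on the whole tile -/
theorem Lab.x_const (H : Lab Φ W f u) (G : GSq Φ.F q a h e o i j) (hLa : IsOpen La) (hq : 1 ≤ q)
    (hh : 0 < h) {x : E3} (hx : x ∈ W) (hfx : Φ.Psi (f x) ∈ sqr a h e o i j) :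
    (∀ y ∈ W, u y G.xm = 1) ∨ (∀ y ∈ W, u y G.xp = 1) := by
  rcases le_total 0 ((Φ.Psi (f x) 0 - a 0) / h - (i + 1 / 2)) with h1 | h1
  · left
    intro y hy
    apply H.one x hx y hy
    change sc (Pc Φ.F) (bc (F := Φ.F)) (Φ.Psi (f x)) G.xm = 1
    rw [G.sc_xm Φ.bf hLa hq hh hfx, max_eq_right (by linarith)]
    ring
  · right
    intro y hy
    apply H.one x hx y hy
    change sc (Pc Φ.F) (bc (F := Φ.F)) (Φ.Psi (f x)) G.xp = 1
    rw [G.sc_xp Φ.bf hLa hq hh hfx, max_eq_right (by linarith)]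
    ring

/-- one of the two y-labels is constant `1` on the whole tile -/
theorem Lab.y_const (H : Lab Φ W f u) (G : GSq Φ.F q a h e o i j) (hLa : IsOpen La) (hq : 1 ≤ q)
    (hh : 0 < h) {x : E3} (hx : x ∈ W) (hfx : Φ.Psi (f x) ∈ sqr a h e o i j) :
    (∀ y ∈ W, u y G.ym = 1) ∨ (∀ y ∈ W, u y G.yp = 1) := by
  rcases le_total 0 ((Φ.Psi (f x) 1 - a 1) / h - (j + 1 / 2)) with h1 | h1
  · left
    intro y hy
    apply H.one x hx y hy
    change sc (Pc Φ.F) (bc (F := Φ.F)) (Φ.Psi (f x)) G.ym = 1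
    rw [G.sc_ym Φ.bf hLa hq hh hfx, max_eq_right (by linarith)]
    ring
  · right
    intro y hy
    apply H.one x hx y hy
    change sc (Pc Φ.F) (bc (F := Φ.F)) (Φ.Psi (f x)) G.yp = 1
    rw [G.sc_yp Φ.bf hLa hq hh hfx, max_eq_right (by linarith)]
    ring

/-- all quads over the tile are parallelograms -/
theorem Lab.par (H : Lab Φ W f u) (G : GSq Φ.F q a h e o i j) (hLa : IsOpen La) (hq : 1 ≤ q)
    (hh : 0 < h) {x : E3} (hx : x ∈ W) (hfx : Φ.Psi (f x) ∈ sqr a h e o i j) {y : E3}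
    (hy : y ∈ W) : Par (u y) := fun _ _ hne hav =>
  par_of_square G Φ.bf hLa hq hh (H.memK y hy)
    (H.zero x hx y hy _ (lev_cx G hLa hq hh hfx)) (H.zero x hx y hy _ (lev_cy G hLa hq hh hfx))
    hne hav

/-- **(L4)** -/
theorem Lab.qf (H : Lab Φ W f u) (G : GSq Φ.F q a h e o i j) (hLa : IsOpen La) (hq : 1 ≤ q)
    (hh : 0 < h) (hw : ∀ c : Φ.F, IsLog q a h c.1 → (L c).card * (2 : ℝ)⁻¹ ^ κ c = h / 2)
    {x : E3} (hx : x ∈ W) (hfx : Φ.Psi (f x) ∈ sqr a h e o i j) :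
    ∃ (c1 c2 : Φ.F) (σ1 σ2 : ℝ) (b : E3), QF Φ κ L u W c1 c2 σ1 σ2 (h / 2) b ∧
      IsLog q a h c1.1 ∧ IsLog q a h c2.1 := by
  have l1 : IsLog q a h G.xp.1 := ⟨_, _, _, rfl⟩
  have l2 : IsLog q a h G.xm.1 := ⟨_, _, _, rfl⟩
  have l3 : IsLog q a h G.yp.1 := ⟨_, _, _, rfl⟩
  have l4 : IsLog q a h G.ym.1 := ⟨_, _, _, rfl⟩
  -- the x-class
  obtain ⟨c1, σ1, b0, hc1, hs1, hl1, hf1, ho1⟩ : ∃ (c1 : Φ.F) (σ1 b0 : ℝ),
      (c1 = G.xp ∨ c1 = G.xm) ∧ (σ1 = 1 ∨ σ1 = -1) ∧ IsLog q a h c1.1 ∧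
      (∀ y ∈ W, a 0 + h * (i + 1 / 2 + (u y G.xm - u y G.xp) / 2) = b0 + σ1 * (h / 2) * u y c1) ∧
      ∀ c, (c = G.xp ∨ c = G.xm) → c ≠ c1 → ∀ y ∈ W, u y c = 1 := by
    rcases H.x_const G hLa hq hh hx hfx with h1 | h1
    · refine ⟨G.xp, -1, a 0 + h * (i + 1), Or.inl rfl, Or.inr rfl, l1, ?_, ?_⟩
      · intro y hy
        rw [h1 y hy]; ring
      · rintro c (rfl | rfl) hc y hy
        · exact absurd rfl hc
        · exact h1 y hy
    · refine ⟨G.xm, 1, a 0 + h * i, Or.inr rfl, Or.inl rfl, l2, ?_, ?_⟩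
      · intro y hy
        rw [h1 y hy]; ring
      · rintro c (rfl | rfl) hc y hy
        · exact h1 y hy
        · exact absurd rfl hc
  obtain ⟨c2, σ2, b1, hc2, hs2, hl2, hf2, ho2⟩ : ∃ (c2 : Φ.F) (σ2 b1 : ℝ),
      (c2 = G.yp ∨ c2 = G.ym) ∧ (σ2 = 1 ∨ σ2 = -1) ∧ IsLog q a h c2.1 ∧
      (∀ y ∈ W, a 1 + h * (j + 1 / 2 + (u y G.ym - u y G.yp) / 2) = b1 + σ2 * (h / 2) * u y c2) ∧
      ∀ c, (c = G.yp ∨ c = G.ym) → c ≠ c2 → ∀ y ∈ W, u y c = 1 := by
    rcases H.y_const G hLa hq hh hx hfx with h1 | h1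
    · refine ⟨G.yp, -1, a 1 + h * (j + 1), Or.inl rfl, Or.inr rfl, l3, ?_, ?_⟩
      · intro y hy
        rw [h1 y hy]; ring
      · rintro c (rfl | rfl) hc y hy
        · exact absurd rfl hc
        · exact h1 y hy
    · refine ⟨G.ym, 1, a 1 + h * j, Or.inr rfl, Or.inl rfl, l4, ?_, ?_⟩
      · intro y hy
        rw [h1 y hy]; ring
      · rintro c (rfl | rfl) hc y hy
        · exact h1 y hy
        · exact absurd rfl hc
  have hne : c1 ≠ c2 := by
    rcases hc1 with rfl | rfl <;> rcases hc2 with rfl | rfl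
    · exact G.xp_ne_yp hh
    · exact G.xp_ne_ym hh
    · exact G.xm_ne_yp hh
    · exact G.xm_ne_ym hh
  refine ⟨c1, c2, σ1, σ2, ![b0, b1, a 2 + h * ((max e o : ℤ) : ℝ)], ?_, hl1, hl2⟩
  refine ⟨hne, by positivity, hw _ hl1, hw _ hl2, hs1, hs2, ?_, ?_, fun y hy =>
    H.par G hLa hq hh hx hfx hy⟩
  · intro y hy
    obtain ⟨-, k0, k1, k2⟩ := H.coord G hLa hq hh hx hfx hy
    rw [hf1 y hy] at k0
    rw [hf2 y hy] at k1
    have n01 : (0 : Fin 3) ≠ 1 := by decide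
    have n10 : (1 : Fin 3) ≠ 0 := by decide
    have n20 : (2 : Fin 3) ≠ 0 := by decide
    have n21 : (2 : Fin 3) ≠ 1 := by decide
    funext k
    simp only [Pi.add_apply, Pi.smul_apply, smul_eq_mul]
    fin_cases k
    · change T (bc (F := Φ.F)) (u y) 0 = b0 + σ1 * (h / 2) * u y c1 * (Pi.single 0 1 : E3) 0 +
        σ2 * (h / 2) * u y c2 * (Pi.single 1 1 : E3) 0
      rw [Pi.single_eq_same, Pi.single_eq_of_ne n01, k0]
      ring
    · change T (bc (F := Φ.F)) (u y) 1 = b1 + σ1 * (h / 2) * u y c1 * (Pi.single 0 1 : E3) 1 +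
        σ2 * (h / 2) * u y c2 * (Pi.single 1 1 : E3) 1
      rw [Pi.single_eq_same, Pi.single_eq_of_ne n10, k1]
      ring
    · change T (bc (F := Φ.F)) (u y) 2 = (a 2 + h * ((max e o : ℤ) : ℝ)) +
        σ1 * (h / 2) * u y c1 * (Pi.single 0 1 : E3) 2 +
        σ2 * (h / 2) * u y c2 * (Pi.single 1 1 : E3) 2
      rw [Pi.single_eq_of_ne n20, Pi.single_eq_of_ne n21, k2]
      ring
  · intro c h1 h2 y hy y' hy'
    by_cases e1 : c = G.xp
    · rw [ho1 c (Or.inl e1) h1 y hy, ho1 c (Or.inl e1) h1 y' hy']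
    by_cases e2 : c = G.xm
    · rw [ho1 c (Or.inr e2) h1 y hy, ho1 c (Or.inr e2) h1 y' hy']
    by_cases e3 : c = G.yp
    · rw [ho2 c (Or.inl e3) h2 y hy, ho2 c (Or.inl e3) h2 y' hy']
    by_cases e4 : c = G.ym
    · rw [ho2 c (Or.inr e4) h2 y hy, ho2 c (Or.inr e4) h2 y' hy']
    exact H.other G hLa hq hh hx hfx e1 e2 e3 e4 hy hy'

/-- the labels of `OutNO` are exact on every ordinary tile -/
theorem lab_of_outNO {T : Tiling Om ι} {p : ℝ} {Cu : Set (Set E3) → ℝ} {e' η : ℝ} {Ex : Set ι}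
    {tol : ι → ℝ} {Ds : Set E3} {B : E3 → E3 ≃ᵃ[ℝ] E3} {μ : ℝ} {a' : Fin 2 → ℝ} {g : E3 → E3}
    {n : Set E3 → Φ.F → ℝ} (hO : OutNO p Cu e' η Φ T f Ex κ L tol Ds B μ a' g u n) {k : ι}
    (hk : k ∉ Ex) : Lab Φ (P (T.H k)) f u :=
  ⟨hO.memK k hk, fun x hx y hy c hc => hO.zero k hk x hx y hy c hc,
    fun x hx y hy c hc => hO.one k hk x hx y hy c hc⟩

/-- **(L4) for `OutNO`** -/
theorem qf_of_outNO {T : Tiling Om ι} {p : ℝ} {Cu : Set (Set E3) → ℝ} {e' η : ℝ} {Ex : Set ι}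
    {tol : ι → ℝ} {Ds : Set E3} {B : E3 → E3 ≃ᵃ[ℝ] E3} {μ : ℝ} {a' : Fin 2 → ℝ} {g : E3 → E3}
    {n : Set E3 → Φ.F → ℝ} (hO : OutNO p Cu e' η Φ T f Ex κ L tol Ds B μ a' g u n) {k : ι}
    (hk : k ∉ Ex) (G : GSq Φ.F q a h e o i j) (hLa : IsOpen La) (hq : 1 ≤ q)
    (hh : 0 < h) (hw : ∀ c : Φ.F, IsLog q a h c.1 → (L c).card * (2 : ℝ)⁻¹ ^ κ c = h / 2)
    {x : E3} (hx : x ∈ P (T.H k)) (hfx : Φ.Psi (f x) ∈ sqr a h e o i j) :
    ∃ (c1 c2 : Φ.F) (σ1 σ2 : ℝ) (b : E3), QF Φ κ L u (P (T.H k)) c1 c2 σ1 σ2 (h / 2) b ∧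
      IsLog q a h c1.1 ∧ IsLog q a h c2.1 :=
  (lab_of_outNO hO hk).qf G hLa hq hh hw hx hfx

/-- counts and oscillation of `OutNO` on an ordinary closed 1-cell -/
theorem cnt_of_outNO {T : Tiling Om ι} {p : ℝ} {Cu : Set (Set E3) → ℝ} {e' η : ℝ} {Ex : Set ι}
    {tol : ι → ℝ} {Ds : Set E3} {B : E3 → E3 ≃ᵃ[ℝ] E3} {μ : ℝ} {a' : Fin 2 → ℝ} {g : E3 → E3}
    {n : Set E3 → Φ.F → ℝ} (hO : OutNO p Cu e' η Φ T f Ex κ L tol Ds B μ a' g u n) (he : 0 ≤ e')
    {z : E3} (hz : z ∈ Om) (hd : T.dim z = 1) (hE : ∀ i, z ∈ P (T.H i) → i ∉ Ex) :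
    Cnt Φ f κ L e' u n (T.cc z) :=
  ⟨he, fun c => hO.n0 _ c, hO.cnt z hz hd hE, fun c y hy y' hy' =>
    (hO.osc z hz hd hE c y hy y' hy').trans
      (le_mul_of_one_le_left (hO.n0 _ c) (by linarith))⟩


end

end Crest.Agent.R096.Qd_205
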