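import Crest.Agent.R096.Frn1_337
import Crest.Agent.R096.At12_241
import Crest.Agent.R096.Sla7_184
import Crest.Agent.R096.Nr5_527
import Crest.Agent.R096.Lmx2_662

/-!
# R096 (row 96), DOORS (helper662): the quads over a refined tiling with merged cores

`qd3 til hfin KK Q : Quads (ι3 ⊕ κ) C K`, `Act k` = the tiles of `T3` in no `KK k'` whose tile of `T`
is in `Q.Act k`; and the clauses `qin actK actO actP actI` of 337's `Front` for the machine.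
-/

set_option autoImplicit false
set_option linter.unusedSectionVars false
set_option linter.unusedVariables false
set_option linter.style.longLine false

open Set Relation Module Topology Filter Metric

namespace Crest.Agent.R096.Qdl_662

open Crest.Agent.R096.Brk1_582 Crest.Agent.R096.Brk2_582 Crest.Agent.R096.Brk3_582
open Crest.Agent.R096.Brk5_582 Crest.Agent.R096.Bsp_628
open Crest.Agent.R096.St_147 Crest.Agent.R096.Seq_213 Crest.Agent.R096.Seq_213.GSt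
open Crest.Agent.R096.Lm_117 Crest.Agent.R096.Ac_117 Crest.Agent.R096.Msh_715
open Crest.Agent.R096.Agl5_543 Crest.Agent.R096.Init_543 Crest.Agent.R096.At_241
open Crest.Agent.R096.SkC1_961 (E3 Hom3 FoamD)
open Crest.Agent.R096.Mbf_337 (KJ sb)
open Crest.Agent.R096.Frn_337 (Ti cti Lay)

section gen

variable {E : Type} [NormedAddCommGroup E] [NormedSpace ℝ E] [FiniteDimensional ℝ E]
variable {Om : Set E} {ι ι3 κ C K : Type} {T : Tiling Om ι} {T3 : Tiling Om ι3} {til : ι3 → ι}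

/-- finitely many small tiles over finitely many tiles -/
theorem fin_til (hsub : ∀ p, P (T3.H p) ⊆ P (T.H (til p))) {A : Set ι} (hA : A.Finite) :
    {p | til p ∈ A}.Finite := by
  have hK : IsCompact (⋃ i ∈ A, P (T.H i)) := hA.isCompact_biUnion fun i _ => T.cpt i
  refine (T3.finite_tiles hK (iUnion₂_subset fun i _ => T.sub i)).subset ?_
  intro p hp
  obtain ⟨x, hx⟩ := T3.ne p
  have hxP := I_sub_P _ hx
  exact ⟨x, hxP, mem_iUnion₂.2 ⟨til p, hp, hsub p hxP⟩⟩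

/-- **the quads over the refined tiling with the merged cores `KK`** -/
noncomputable def qd3 (til : ι3 → ι) (hsub : ∀ p, P (T3.H p) ⊆ P (T.H (til p))) (KK : κ → Set E)
    (Q : Quads ι C K) : Quads (ι3 ⊕ κ) C K where
  pr := Q.pr
  ne := Q.ne
  Act := fun k => Sum.inl '' {p | til p ∈ Q.Act k ∧ ∀ k', ¬ P (T3.H p) ⊆ KK k'}
  fin := fun k => ((fin_til hsub (Q.fin k)).subset fun p hp => hp.1).image _
  disj := fun k l hkl => by
    rw [disjoint_left]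
    rintro _ ⟨p, hp, rfl⟩ ⟨p', hp', he⟩
    obtain rfl : p' = p := Sum.inl.inj he
    exact disjoint_left.1 (Q.disj k l hkl) hp.1 hp'.1
  finK := Q.finK

variable {hsub : ∀ p, P (T3.H p) ⊆ P (T.H (til p))} {KK : κ → Set E} {Q : Quads ι C K}

theorem qd3_in {k : K} {c : C} : (qd3 til hsub KK Q).In k c ↔ Q.In k c := Iff.rfl

theorem qd3_pr {k : K} {b : Bool} : (qd3 til hsub KK Q).pr k b = Q.pr k b := rfl

theorem inl_qd3 {k : K} {p : ι3} : Sum.inl p ∈ (qd3 til hsub KK Q).Act k ↔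
    til p ∈ Q.Act k ∧ ∀ k', ¬ P (T3.H p) ⊆ KK k' := by
  constructor
  · rintro ⟨p', hp, he⟩
    obtain rfl : p' = p := Sum.inl.inj he
    exact hp
  · intro h; exact ⟨p, h, rfl⟩

theorem inr_qd3 {k : K} {c : κ} : Sum.inr c ∉ (qd3 til hsub KK Q).Act k := by
  rintro ⟨p, -, he⟩
  cases he

/-- a set with interior lies in one tile only -/
theorem til_unique (hsub : ∀ p, P (T3.H p) ⊆ P (T.H (til p))) {p : ι3} {i : ι}
    (h : P (T3.H p) ⊆ P (T.H i)) : i = til p := At_241.tile_unique h (hsub p)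

end gen

/-! ### the machine -/

section mach

variable {δ κ0 R c0 : ℝ} {La Om : Set E3} {ι ι3 : Type} {Φ : FoamD δ κ0 R c0 La}
  {T : Tiling Om ι} {T3 : Tiling Om ι3} {f g : E3 → E3} {X : Set Φ.F} {J0 J V : Φ.F → Set ι}
  {ct : Φ.F → ι} {ct' : Φ.F → ι} {r₀ : Φ.F → ℝ} {KK : Ti X → Set E3} {c3 : ι → ι3} {til : ι3 → ι}
  {ε s₁ : ℝ}

/-- **the quads of the front** -/
noncomputable abbrev qdT (til : ι3 → ι) (hsub : ∀ p, P (T3.H p) ⊆ P (T.H (til p)))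
    (KK : Ti X → Set E3) (hLa : IsOpen La) (hR : InitR Φ T f g J0 ct' r₀)
    (hM : Mesh0 T (Pc Φ.F) (bc (F := Φ.F)) (RF Φ r₀) f (KorJ Φ J0) ε) (hε : ε < s₁)
    (hε1 : ε < 1) : Quads (ι3 ⊕ Ti X) Φ.F (QK (Pc Φ.F)) :=
  qd3 til hsub KK (qdF hLa hR hM hε hε1)

variable {hsub : ∀ p, P (T3.H p) ⊆ P (T.H (til p))} {hLa : IsOpen La}
  {hR : InitR Φ T f g J0 ct' r₀}
  {hM : Mesh0 T (Pc Φ.F) (bc (F := Φ.F)) (RF Φ r₀) f (KorJ Φ J0) ε} {hε : ε < s₁} {hε1 : ε < 1}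

/-- **`qin`** -/
theorem qin (k : QK (Pc Φ.F)) (c : Φ.F) : (qdT til hsub KK hLa hR hM hε hε1).In k c ↔ c ∈ k.B :=
  qdF_in hLa hR hM hε hε1

theorem inl_act {k : QK (Pc Φ.F)} {p : ι3} :
    Sum.inl p ∈ (qdT til hsub KK hLa hR hM hε hε1).Act k ↔
      til p ∈ Act0 T (Pc Φ.F) (bc (F := Φ.F)) (RF Φ r₀) f (KorJ Φ J0) s₁ k ∧
        ∀ k', ¬ P (T3.H p) ⊆ KK k' := inl_qd3

theorem inr_act {k : QK (Pc Φ.F)} {c : Ti X} :
    Sum.inr c ∉ (qdT til hsub KK hLa hR hM hε hε1).Act k := inr_qd3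

/-- **`actO`** -/
theorem actO (k : QK (Pc Φ.F)) (i3 : ι3)
    (h : Sum.inl i3 ∈ (qdT til hsub KK hLa hR hM hε hε1).Act k) (k' : Ti X) :
    ¬ P (T3.H i3) ⊆ KK k' := (inl_act.1 h).2 k'

/-- **`actK`** -/
theorem actK {κ1 κ2 : ℝ} {A : Φ.F → E3 ≃ᵃ[ℝ] E3} {lam : Φ.F → ℝ} {z : Φ.F → E3}
    {θ : Φ.F → E3 → E3} {φ : Φ.F → E3 → ℝ}
    (hC : Mbf_337.Cores Φ T f κ1 κ2 X J0 J V ct A lam z θ φ)
    (htil : ∀ c ∈ X, til (c3 (ct c)) = ct c) (k : QK (Pc Φ.F)) (c : Φ.F) :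
    cti X c3 ct c ∉ (qdT til hsub KK hLa hR hM hε hε1).Act k := by
  classical
  by_cases hc : c ∉ X
  · have e : cti X c3 ct c = Sum.inr ⟨c, hc⟩ := dif_pos hc
    rw [e]
    exact inr_act
  · have e : cti X c3 ct c = Sum.inl (c3 (ct c)) := dif_neg hc
    have hc' : c ∈ X := not_not.1 hc
    rw [e]
    intro h
    have h1 := (inl_act.1 h).1.1
    rw [htil c hc'] at h1
    exact h1 ⟨c, by rw [(hC.one c hc').1]; rfl⟩

/-- **`actP`** -/
theorem actP (k : QK (Pc Φ.F)) (i3 : ι3)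
    (h : Sum.inl i3 ∈ (qdT til hsub KK hLa hR hM hε hε1).Act k) (i : ι)
    (hi : P (T3.H i3) ⊆ P (T.H i)) (x : E3) (hx : x ∈ P (T.H i)) :
    (∀ a ∈ k.B, Φ.lev a (f x) ∈ Ioo (0:ℝ) 1) ∧ ∀ a ∈ k.Z, Φ.lev a (f x) = 0 :=
  actV_of hLa hR hM hε hε1 (Qd := qdT til hsub KK hLa hR hM hε hε1)
    (fun k p hp => ⟨til p, hsub p, (inl_act.1 hp).1⟩) k i3 h i hi x hx

/-- **`actI`** from (B): every point of the state on a layered cell is near the middle levels of its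
family at some point of the tile -/
theorem actI {L : Φ.F → Finset ℝ} {P₀ : Set E3} {lab : E3 → JJ Φ L} {s' : ℝ} (hs' : s₁ + ε ≤ s')
    (hpos : ∀ w ∈ P₀, ∀ i3, (∀ k', ¬ P (T3.H i3) ⊆ KK k') → w ∈ P (T3.H i3) →
      til i3 ∉ KorJ Φ J0 →
      ∃ x ∈ P (T.H (til i3)), Φ.lev (lab w).1 (f x) ∈ Icc s' (1 - s'))
    (k : QK (Pc Φ.F)) (i3 : ι3) (h1 : ∀ k', ¬ P (T3.H i3) ⊆ KK k') (i : ι) (hiJ : ∀ c, i ∉ J0 c)
    (hi : P (T3.H i3) ⊆ P (T.H i)) (x : E3) (hx : x ∈ P (T.H i))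
    (hw : ∀ a ∈ k.B, ∃ w ∈ P₀, (lab w).1 = a ∧ w ∈ P (T3.H i3))
    (hz : ∀ a ∈ k.Z, Φ.lev a (f x) = 0) :
    Sum.inl i3 ∈ (qdT til hsub KK hLa hR hM hε hε1).Act k := by
  obtain rfl := til_unique hsub hi
  have hiK : til i3 ∉ KorJ Φ J0 := fun ⟨c, hc⟩ => hiJ c hc
  refine inl_act.2 ⟨act_of_vals hM hs' hiK hx (fun a ha => ?_) (fun a ha => ?_), h1⟩
  · obtain ⟨w, hwP, rfl, hwt⟩ := hw a ha
    obtain ⟨x', hx', h4⟩ := hpos w hwP i3 h1 hwt hiK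
    exact ⟨x', hx', by rw [va_lev hLa hR hiK hx']; exact h4⟩
  · rw [va_lev hLa hR hiK hx]; exact hz a ha

/-- **`act` of `labIn_mixD`**: the active cells of the quads of `a` are inside the body of `a` -/
theorem act_AD {κ1 κ2 : ℝ} {A : Φ.F → E3 ≃ᵃ[ℝ] E3} {lam : Φ.F → ℝ} {z : Φ.F → E3}
    {θ : Φ.F → E3 → E3} {φ : Φ.F → E3 → ℝ}
    (hC : Mbf_337.Cores Φ T f κ1 κ2 X J0 J V ct A lam z θ φ) (hε0 : 0 ≤ ε) {a : Φ.F} {D : Set E3}
    (hD : Body Om f (Pc Φ.F) a D) (k : QK (Pc Φ.F))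
    (hk : (qdT til hsub KK hLa hR hM hε hε1).In k a) :
    (qdT til hsub KK hLa hR hM hε hε1).Act k ⊆ Gm_298.AD T3 KK D := by
  rintro x ⟨p, hp, rfl⟩
  have ha : a ∈ k.B := (qin k a).1 hk
  obtain ⟨⟨-, w, hw, h1, -⟩, -⟩ := hp
  refine ⟨fun q hq => ?_, fun c hc => by cases hc⟩
  obtain rfl : p = q := Sum.inl.inj hq
  refine (hsub p).trans (Lmx_662.tile_body hLa hR.hm (retF Φ hLa hR.pos hR.le_one) hC hM hε0 hD hw ?_)
  have := (h1 a ha).2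
  linarith

/-- the tiles outside the remaining cores are not near the holes -/
theorem notKor_of_lay (hL : Lay Φ T X J0 J T3 KK c3) (hsub : ∀ p, P (T3.H p) ⊆ P (T.H (til p)))
    (htil : ∀ i, (∀ k : Ti X, i ∉ J k.1) → til (c3 i) = i) {κ1 κ2 : ℝ}
    {A : Φ.F → E3 ≃ᵃ[ℝ] E3} {lam : Φ.F → ℝ} {z : Φ.F → E3} {θ : Φ.F → E3 → E3} {φ : Φ.F → E3 → ℝ}
    (hC : Mbf_337.Cores Φ T f κ1 κ2 X J0 J V ct A lam z θ φ) {p : ι3}
    (hp : ∀ k', ¬ P (T3.H p) ⊆ KK k') (hc : ∀ c ∈ X, til p ≠ ct c) : til p ∉ KorJ Φ J0 := by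
  rintro ⟨c, hq⟩
  by_cases hcX : c ∈ X
  · rw [(hC.one c hcX).1] at hq
    exact hc c hcX hq
  · rcases hL.lay p hp with ⟨i, rfl, hi⟩ | ⟨k, i, hi, hi0, hs⟩
    · rw [htil i hi] at hq
      exact hi ⟨c, hcX⟩ (Nr_527.J0_sub hC c hq)
    · obtain rfl := til_unique hsub hs
      by_cases hkc : c = k.1
      · rw [hkc] at hq; exact hi0 hq
      · exact disjoint_left.1 (hC.disj c k.1 hkc)
          (Nr_527.J_sub hC c (Nr_527.J0_sub hC c hq)) (Nr_527.J_sub hC k.1 hi)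

end mach

/-! ### 184's layers -/

section sla

variable {E : Type} [NormedAddCommGroup E] [NormedSpace ℝ E] [FiniteDimensional ℝ E]
variable {Om : Set E} {ι κ : Type} {T : Tiling Om ι} (S : Sla_184.Sla T κ)

theorem sla_sub (p : T.RIdx S.HH) : P (S.T3.H p) ⊆ P (T.H p.tile) := Sla_184.Sla.P3_sub p

theorem sla_til {i : ι} (hi : ∀ c, ¬ P (T.H i) ⊆ S.K c) : (S.ot i hi).tile = i := rfl

end sla

end Crest.Agent.R096.Qdl_662
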