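import Crest.Agent.R096.Qp1_106
import Crest.Agent.R096.Coh4_184

/-!
# Row 96, DOORS (QP), part 2 (helper106): the pairing on an edge, splitting of sums over the points of
the horizontal piece on a vertical face, closed curves with total zero.
-/

set_option autoImplicit false

namespace Crest.Agent.R096.Qp_106

open Crest.Agent.R096.St_147 Crest.Agent.R096.Door_501 Classical

/-- a cochain on a connected two-regular graph with total zero is exact (half edge form) -/
theorem cyc {E V : Type} [Fintype E] [Fintype V] (v : E → V) (σ : E → E)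
    (hσ : ∀ p, σ (σ p) = p) (g : E → ZMod 2) (hg : ∑ p, g p = 0)
    (hconn : ∀ z : E → ZMod 2, (∀ p, z (σ p) = z p) →
      (∀ u, ∑ p ∈ Finset.univ.filter (fun p => v p = u), z p = 0) → ∀ p q, z p = z q) :
    ∃ lam : V → ZMod 2, ∀ p, g p + g (σ p) = lam (v p) + lam (v (σ p)) := by
  let τ : Equiv.Perm E := ⟨σ, σ, hσ, hσ⟩
  obtain ⟨ψ, hψ⟩ := Coh_184.exact_of_kills (K := ZMod 2)
    (fun (p : E) (u : V) => (if v p = u then (1 : ZMod 2) else 0) + (if v (σ p) = u then 1 else 0))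
    (fun _ => True) (fun p => g p + g (σ p)) (by
      intro z _ hz
      have h1 : ∀ p q, z p + z (σ p) = z q + z (σ q) := by
        refine hconn (fun p => z p + z (σ p)) (fun p => ?_) (fun u => ?_)
        · rw [hσ, add_comm]
        · rw [Finset.sum_filter]
          refine Eq.trans ?_ (hz u)
          have h2 : ∑ p, z p * ((if v p = u then (1 : ZMod 2) else 0) +
              (if v (σ p) = u then 1 else 0)) =
              (∑ p, if v p = u then z p else 0) + ∑ p, if v (σ p) = u then z p else 0 := by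
            rw [← Finset.sum_add_distrib]
            refine Finset.sum_congr rfl fun p _ => ?_
            rw [mul_add, mul_ite, mul_ite, mul_one, mul_zero]
          have h3 : (∑ p, if v p = u then z p + z (σ p) else 0) =
              (∑ p, if v p = u then z p else 0) + ∑ p, if v p = u then z (σ p) else 0 := by
            rw [← Finset.sum_add_distrib]
            refine Finset.sum_congr rfl fun p _ => ?_
            split_ifs
            · rfl
            · rw [add_zero]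
          rw [h2, h3]
          congr 1
          rw [← Equiv.sum_comp τ (fun p => if v (σ p) = u then z p else 0)]
          refine Finset.sum_congr rfl fun p _ => ?_
          show _ = if v (σ (σ p)) = u then z (σ p) else 0
          rw [hσ]
      have h4 : ∑ p, z p * (g p + g (σ p)) = ∑ p, (z p + z (σ p)) * g p := by
        simp only [mul_add, add_mul, Finset.sum_add_distrib]
        congr 1
        rw [← Equiv.sum_comp τ (fun p => z (σ p) * g p)]
        refine Finset.sum_congr rfl fun p _ => ?_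
        show _ = z (σ (σ p)) * g (σ p)
        rw [hσ]
      rw [h4]
      by_cases hE : Nonempty E
      · obtain ⟨p0⟩ := hE
        have h5 : ∑ p, (z p + z (σ p)) * g p = ∑ p, (z p0 + z (σ p0)) * g p :=
          Finset.sum_congr rfl fun p _ => by rw [h1 p p0]
        rw [h5, ← Finset.mul_sum, hg, mul_zero]
      · have : IsEmpty E := not_nonempty_iff.1 hE
        rw [Finset.univ_eq_empty, Finset.sum_empty])
  refine ⟨ψ, fun p => ?_⟩
  rw [hψ p trivial]
  simp only [add_mul, ite_mul, one_mul, zero_mul, Finset.sum_add_distrib, Finset.sum_ite_eq,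
    Finset.mem_univ, if_true]

end Crest.Agent.R096.Qp_106

namespace Crest.Agent.R096.Door_501.Shell

open Crest.Agent.R096.St_147 Crest.Agent.R096.Door_501 Crest.Agent.R096.Qp_106 Classical

variable {ι Φ W : Type} {M : MeshC ι Φ W} {k : ι} {Vx Ed : Type} (S : Shell M k Vx Ed)

/-- a connected closed curve on the sphere: a cochain with total zero is exact -/
theorem curve_exact [Fintype Ed] (T : Finset W) (hT : ∀ w ∈ T, ∃ e, w ∈ S.OnE e)
    (nu : Φ → W → W)
    (h1 : ∀ F w, k ∈ M.side F → w ∈ T → w ∈ M.On F → nu F w ∈ T ∧ nu F w ∈ M.On F)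
    (h3 : ∀ F w, k ∈ M.side F → w ∈ T → w ∈ M.On F → nu F (nu F w) = w)
    (hconn : ∀ X : Set W, (∀ F w, k ∈ M.side F → w ∈ M.On F → w ∈ T → w ∈ X → nu F w ∈ X) →
      ∀ w ∈ X, w ∈ T → ∀ w' ∈ T, w' ∈ X)
    (ψ : Φ → W → ZMod 2)
    (htot : ∑ e : Ed, ∑ w ∈ T.filter (fun w => w ∈ S.OnE e),
      (ψ (S.fc e false) w + ψ (S.fc e true) w) = 0) :
    ∃ lam : W → ZMod 2, ∀ F w, k ∈ M.side F → w ∈ T → w ∈ M.On F →
      ψ F w + ψ F (nu F w) = lam w + lam (nu F w) := by
  let HC : Finset (Φ × W) := (S.FS ×ˢ T).filter (fun p => p.2 ∈ M.On p.1)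
  have hHC : ∀ p, p ∈ HC ↔ p.1 ∈ S.FS ∧ p.2 ∈ T ∧ p.2 ∈ M.On p.1 := by
    intro p
    simp only [HC, Finset.mem_filter, Finset.mem_product]
    tauto
  have hFS : ∀ F w, k ∈ M.side F → w ∈ T → w ∈ M.On F → (F, w) ∈ HC := by
    intro F w hF hw hwF
    obtain ⟨e, b, rfl, _⟩ := (S.onE hF).1 hwF
    exact (hHC _).2 ⟨S.FS_of e b, hw, hwF⟩
  let v : HC → T := fun p => ⟨p.1.2, ((hHC p.1).1 p.2).2.1⟩
  have hσm : ∀ p : HC, (p.1.1, nu p.1.1 p.1.2) ∈ HC := by
    intro p
    obtain ⟨g1, g2, g3⟩ := (hHC p.1).1 p.2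
    obtain ⟨g4, g5⟩ := h1 p.1.1 p.1.2 (S.mem_FS g1) g2 g3
    exact (hHC _).2 ⟨g1, g4, g5⟩
  let σ : HC → HC := fun p => ⟨(p.1.1, nu p.1.1 p.1.2), hσm p⟩
  have hσ : ∀ p, σ (σ p) = p := by
    intro p
    obtain ⟨g1, g2, g3⟩ := (hHC p.1).1 p.2
    apply Subtype.ext
    show (p.1.1, nu p.1.1 (nu p.1.1 p.1.2)) = p.1
    rw [h3 p.1.1 p.1.2 (S.mem_FS g1) g2 g3]
  obtain ⟨lam, hlam⟩ := cyc v σ hσ (fun p => ψ p.1.1 p.1.2) (by
    rw [Finset.sum_coe_sort HC (fun p => ψ p.1 p.2)]
    rw [Finset.sum_filter, Finset.sum_product]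
    rw [S.hsum] at htot
    refine Eq.trans ?_ htot
    refine Finset.sum_congr rfl fun F _ => ?_
    rw [Finset.sum_filter]) (by
    intro z hz1 hz2
    -- the two faces at a point
    have hpair : ∀ (e : Ed) (w : W) (hw : w ∈ S.OnE e) (hwT : w ∈ T)
        (g1 : (S.fc e false, w) ∈ HC) (g2 : (S.fc e true, w) ∈ HC),
        z ⟨_, g1⟩ = z ⟨_, g2⟩ := by
      intro e w hw hwT g1 g2
      have h4 := hz2 ⟨w, hwT⟩
      have h5 : ∑ p ∈ ({⟨_, g1⟩, ⟨_, g2⟩} : Finset HC), z p = 0 := by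
        refine Eq.trans (Finset.sum_congr ?_ fun _ _ => rfl) h4
        ext p
        simp only [Finset.mem_filter, Finset.mem_univ, true_and, Finset.mem_insert,
          Finset.mem_singleton]
        constructor
        · rintro (h6 | h6)
          · rw [h6]
          · rw [h6]
        · intro h6
          have h7 : p.1.2 = w := congrArg Subtype.val h6
          obtain ⟨a1, a2, a3⟩ := (hHC p.1).1 p.2
          rw [h7] at a3
          obtain ⟨b, hb⟩ := S.fc_of_on hw (S.mem_FS a1) a3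
          cases b
          · left
            apply Subtype.ext
            exact Prod.ext hb.symm h7
          · right
            apply Subtype.ext
            exact Prod.ext hb.symm h7
      rw [Finset.sum_pair] at h5
      · exact zz_eq _ _ h5
      · intro h6
        exact S.fc_ne e (congrArg (fun p : HC => p.1.1) h6)
    have hpair' : ∀ (F F' : Φ) (w : W) (g1 : (F, w) ∈ HC) (g2 : (F', w) ∈ HC),
        z ⟨_, g1⟩ = z ⟨_, g2⟩ := by
      intro F F' w g1 g2
      obtain ⟨a1, a2, a3⟩ := (hHC _).1 g1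
      obtain ⟨b1, b2, b3⟩ := (hHC _).1 g2
      obtain ⟨e, he⟩ := hT w a2
      obtain ⟨b, rfl⟩ := S.fc_of_on he (S.mem_FS a1) a3
      obtain ⟨b', rfl⟩ := S.fc_of_on he (S.mem_FS b1) b3
      cases b <;> cases b'
      · rfl
      · exact hpair e w he a2 g1 g2
      · exact (hpair e w he a2 g2 g1).symm
      · rfl
    intro p q
    obtain ⟨a1, a2, a3⟩ := (hHC _).1 p.2
    obtain ⟨b1, b2, b3⟩ := (hHC _).1 q.2
    have h8 := hconn {w | ∀ F, ∀ h : (F, w) ∈ HC, z ⟨_, h⟩ = z p} (by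
      intro F w hF hwF hwT hwX F' hF'
      have c1 := hFS F w hF hwT hwF
      have c2 := h1 F w hF hwT hwF
      have c3 := hFS F (nu F w) hF c2.1 c2.2
      have c4 : σ ⟨_, c1⟩ = ⟨_, c3⟩ := rfl
      rw [hpair' F' F _ hF' c3, ← c4, hz1]
      exact hwX F c1) p.1.2 (fun F hF => hpair' F p.1.1 _ hF p.2) a2 q.1.2 b2
    exact (h8 q.1.1 q.2).symm)
  refine ⟨fun w => if h : w ∈ T then lam ⟨w, h⟩ else 0, fun F w hF hw hwF => ?_⟩
  have c1 := hFS F w hF hw hwF
  have c2 := h1 F w hF hw hwF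
  have h9 := hlam ⟨_, c1⟩
  show _ = (if h : w ∈ T then lam ⟨w, h⟩ else 0) + (if h : nu F w ∈ T then lam ⟨_, h⟩ else 0)
  rw [dif_pos hw, dif_pos c2.1]
  exact h9

end Crest.Agent.R096.Door_501.Shell

namespace Crest.Agent.R096.Door_501.Move

open Crest.Agent.R096.St_147 Crest.Agent.R096.Door_501 Crest.Agent.R096.Qp_106 Classical

variable {ι Φ W : Type} {M : MeshC ι Φ W} {k : ι} {Vx Ed : Type} {I : Type} {col : I → Bool}
variable {S : Shell M k Vx Ed} {s : St M col} (m : Move S s)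

/-- the positions below `x` on the vertical face `e` -/
noncomputable def Lx (e : Ed) (x : S.Pnt) : Finset S.Pnt :=
  (m.qon e).filter fun y => S.tau e y < S.tau e x

theorem mem_Lx {e : Ed} {x y : S.Pnt} :
    y ∈ m.Lx e x ↔ y ∈ m.qon e ∧ S.tau e y < S.tau e x := Finset.mem_filter

theorem tau_ne {e : Ed} {x y : S.Pnt} (hx : x ∈ m.qon e) (hy : y ∈ m.qon e) (h : x ≠ y) :
    S.tau e x ≠ S.tau e y := fun h' => h (m.tau_inj e (Finset.mem_coe.2 hx) (Finset.mem_coe.2 hy) h')

/-- the points below the upper end of a pair -/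
theorem Lx_pr (hp : m.Par) {e : Ed} {x : S.Pnt} (hx : x ∈ m.qon e)
    (h : S.tau e x < S.tau e (m.pr hp e x)) :
    m.Lx e (m.pr hp e x) = insert x (m.Lx e x) ∧ x ∉ m.Lx e x ∧ Even (m.Lx e x).card := by
  obtain ⟨g1, g2, g3, g4, g5⟩ := m.pr_spec hp e x hx
  refine ⟨?_, fun h' => lt_irrefl _ (m.mem_Lx.1 h').2, g5 h⟩
  ext y
  rw [mem_Lx, Finset.mem_insert, mem_Lx]
  constructor
  · rintro ⟨h1, h2⟩
    by_cases h3 : y = x
    · exact Or.inl h3
    · right
      refine ⟨h1, ?_⟩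
      rcases lt_or_gt_of_ne (m.tau_ne h1 hx h3) with h4 | h4
      · exact h4
      · exact ((g4 y h1).1 ⟨h4, h2⟩).elim
  · rintro (rfl | ⟨h1, h2⟩)
    · exact ⟨hx, h⟩
    · exact ⟨h1, h2.trans h⟩

theorem pair_total (hp : m.Par) (e : Ed) (g : S.Pnt → ZMod 2)
    (hg : ∀ x ∈ m.qon e, g (m.pr hp e x) = g x) : ∑ x ∈ m.qon e, g x = 0 :=
  sum_inv _ _ (m.pr hp e) (fun x hx => (m.pr_spec hp e x hx).1)
    (fun x hx => (m.pr_spec hp e x hx).2.1) (fun x hx => (m.pr_spec hp e x hx).2.2.1) hg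

theorem pair_sum (hp : m.Par) {e : Ed} (g : S.Pnt → ZMod 2)
    (hg : ∀ x ∈ m.qon e, g (m.pr hp e x) = g x) {x : S.Pnt} (hx : x ∈ m.qon e) :
    ∑ y ∈ m.Lx e x, g y = if Even (m.Lx e x).card then 0 else g x := by
  obtain ⟨g1, g2, g3, g4, g5⟩ := m.pr_spec hp e x hx
  have hne := m.tau_ne g1 hx g2
  rcases lt_or_gt_of_ne hne with hlt | hlt
  · -- `x` is the upper end
    have h1 := m.Lx_pr hp g1 (by rw [g3]; exact hlt)
    rw [g3] at h1
    obtain ⟨h2, h3, h4⟩ := h1
    have h5 : ¬ Even (m.Lx e x).card := by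
      rw [h2, Finset.card_insert_of_notMem h3, Nat.even_add_one]
      exact fun h => h h4
    rw [if_neg h5, h2, Finset.sum_insert h3, hg x hx]
    have h6 : ∑ y ∈ m.Lx e (m.pr hp e x), g y = 0 := by
      refine sum_inv _ _ (m.pr hp e) ?_ ?_ ?_ ?_
      · intro y hy
        obtain ⟨a1, a2⟩ := m.mem_Lx.1 hy
        obtain ⟨b1, b2, b3, b4, b5⟩ := m.pr_spec hp e y a1
        rw [mem_Lx]
        refine ⟨b1, ?_⟩
        by_contra hcon
        have hne2 : m.pr hp e y ≠ m.pr hp e x := by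
          intro h7
          have : y = x := by rw [← b3, h7, g3]
          rw [this] at a2
          exact absurd a2 (not_lt.2 hlt.le)
        rcases lt_or_gt_of_ne (m.tau_ne b1 g1 hne2) with h8 | h8
        · exact hcon h8
        · exact (b4 _ g1).1 ⟨a2, h8⟩
      · intro y hy
        exact (m.pr_spec hp e y (m.mem_Lx.1 hy).1).2.1
      · intro y hy
        exact (m.pr_spec hp e y (m.mem_Lx.1 hy).1).2.2.1
      · intro y hy
        exact hg y (m.mem_Lx.1 hy).1
    rw [h6, add_zero]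
  · -- `x` is the lower end
    have h4 := g5 hlt
    have h4' : Even (m.Lx e x).card := h4
    rw [if_pos h4']
    refine sum_inv _ _ (m.pr hp e) ?_ ?_ ?_ ?_
    · intro y hy
      obtain ⟨a1, a2⟩ := m.mem_Lx.1 hy
      obtain ⟨b1, b2, b3, b4, b5⟩ := m.pr_spec hp e y a1
      rw [mem_Lx]
      refine ⟨b1, ?_⟩
      by_contra hcon
      have hne2 : m.pr hp e y ≠ x := by
        intro h7
        have : y = m.pr hp e x := by rw [← b3, h7]
        rw [this] at a2
        exact absurd a2 (not_lt.2 hlt.le)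
      rcases lt_or_gt_of_ne (m.tau_ne b1 hx hne2) with h8 | h8
      · exact hcon h8
      · exact (b4 _ hx).1 ⟨a2, h8⟩
    · intro y hy
      exact (m.pr_spec hp e y (m.mem_Lx.1 hy).1).2.1
    · intro y hy
      exact (m.pr_spec hp e y (m.mem_Lx.1 hy).1).2.2.1
    · intro y hy
      exact hg y (m.mem_Lx.1 hy).1

/-- the points of the boundary curves of `Q` -/
noncomputable def Dp : Finset W :=
  (s.P.filter fun w => w ∉ m.B ∧ ∃ e, w ∈ S.OnE e) ∪ (m.B.filter fun w => w ∉ s.P)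

theorem mem_Dp {w : W} : w ∈ m.Dp ↔ (w ∈ s.P ∧ w ∉ m.B ∧ ∃ e, w ∈ S.OnE e) ∨
    (w ∈ m.B ∧ w ∉ s.P) := by
  unfold Dp
  rw [Finset.mem_union, Finset.mem_filter, Finset.mem_filter]

theorem Dp_edge {w : W} (h : w ∈ m.Dp) : ∃ e, w ∈ S.OnE e := by
  rcases m.mem_Dp.1 h with ⟨_, _, h⟩ | ⟨h, _⟩
  · exact h
  · exact m.B_on h

/-- the point of `qe` at `w` -/
noncomputable def pt (_m : Move S s) (w : W) : S.Pnt := if w ∈ s.P then S.top w else S.bot w

theorem pt_top {w : W} (h : w ∈ s.P) : m.pt w = S.top w := if_pos h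

theorem pt_bot {w : W} (h : w ∉ s.P) : m.pt w = S.bot w := if_neg h

theorem pt_inj : Function.Injective m.pt := by
  intro w w' h
  by_cases h1 : w ∈ s.P <;> by_cases h2 : w' ∈ s.P
  · rw [m.pt_top h1, m.pt_top h2] at h
    exact Sum.inl.inj h
  · rw [m.pt_top h1, m.pt_bot h2] at h
    cases h
  · rw [m.pt_bot h1, m.pt_top h2] at h
    cases h
  · rw [m.pt_bot h1, m.pt_bot h2] at h
    exact Sum.inl.inj (Sum.inr.inj h)

theorem tau_pt (e : Ed) (w : W) : S.tau e (m.pt w) = S.t w := by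
  unfold pt
  split_ifs <;> rfl

theorem pt_ne_vert (w : W) (v : Vx) : m.pt w ≠ S.vert v := by
  unfold pt
  split_ifs
  · intro h; cases h
  · intro h; cases h

theorem pt_mem_qe {w : W} : m.pt w ∈ m.qe ↔ w ∈ m.Dp := by
  by_cases h : w ∈ s.P
  · rw [m.pt_top h, m.top_mem_qe, m.mem_Dp]
    tauto
  · rw [m.pt_bot h, m.bot_mem_qe, m.mem_Dp]
    tauto

theorem pt_mem_vert {e : Ed} {w : W} : m.pt w ∈ S.On (Sum.inr (Sum.inr e)) ↔ w ∈ S.OnE e := by
  by_cases h : w ∈ s.P
  · rw [m.pt_top h]; exact S.top_mem_vert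
  · rw [m.pt_bot h]; exact S.bot_mem_vert

theorem pt_mem_qon {e : Ed} {w : W} : m.pt w ∈ m.qon e ↔ w ∈ m.Dp ∧ w ∈ S.OnE e := by
  rw [m.mem_qon, m.pt_mem_qe, m.pt_mem_vert]

theorem vert_mem_qon {e : Ed} {v : Vx} : S.vert v ∈ m.qon e ↔ v ∈ m.Qv ∧ ∃ b, S.en e b = v := by
  rw [m.mem_qon, m.vert_mem_qe, S.vert_mem_vert]

theorem qe_cases {x : S.Pnt} (h : x ∈ m.qe) :
    (∃ w ∈ m.Dp, x = m.pt w) ∨ ∃ v ∈ m.Qv, x = S.vert v := by
  rcases x with w | w | v
  · have h1 := m.top_mem_qe.1 h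
    left
    exact ⟨w, m.mem_Dp.2 (Or.inl h1), (m.pt_top h1.1).symm⟩
  · have h1 := m.bot_mem_qe.1 h
    left
    exact ⟨w, m.mem_Dp.2 (Or.inr h1), (m.pt_bot h1.2).symm⟩
  · right
    exact ⟨v, m.vert_mem_qe.1 h, rfl⟩

theorem qon_eq (e : Ed) : m.qon e = ((m.Dp.filter fun w => w ∈ S.OnE e).image m.pt) ∪
    ((m.Qv.filter fun v => ∃ b, S.en e b = v).image S.vert) := by
  ext x
  rw [Finset.mem_union, Finset.mem_image, Finset.mem_image]
  constructor
  · intro h
    have h1 := m.mem_qon.1 h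
    rcases m.qe_cases h1.1 with ⟨w, hw, rfl⟩ | ⟨v, hv, rfl⟩
    · exact Or.inl ⟨w, Finset.mem_filter.2 (m.pt_mem_qon.1 h), rfl⟩
    · exact Or.inr ⟨v, Finset.mem_filter.2 (m.vert_mem_qon.1 h), rfl⟩
  · rintro (⟨w, hw, rfl⟩ | ⟨v, hv, rfl⟩)
    · exact m.pt_mem_qon.2 (Finset.mem_filter.1 hw)
    · exact m.vert_mem_qon.2 (Finset.mem_filter.1 hv)

/-- value at a vertex of `Q`, `0` at the other vertices -/
noncomputable def vq (f : S.Pnt → ZMod 2) (v : Vx) : ZMod 2 :=
  if v ∈ m.Qv then f (S.vert v) else 0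

/-- splitting of a sum over the points of `Q` on the vertical face `e` -/
theorem sum_qon (e : Ed) (f : S.Pnt → ZMod 2) :
    ∑ x ∈ m.qon e, f x = (∑ w ∈ m.Dp.filter (fun w => w ∈ S.OnE e), f (m.pt w)) +
      (m.vq f (S.en e false) + m.vq f (S.en e true)) := by
  rw [m.qon_eq, Finset.sum_union, Finset.sum_image, Finset.sum_image]
  · congr 1
    have h1 : (m.Qv.filter fun v => ∃ b, S.en e b = v) =
        (({S.en e false, S.en e true} : Finset Vx).filter fun v => v ∈ m.Qv) := by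
      ext v
      simp only [Finset.mem_filter, Finset.mem_insert, Finset.mem_singleton, Bool.exists_bool]
      constructor
      · rintro ⟨h1, h2 | h2⟩
        · exact ⟨Or.inl h2.symm, h1⟩
        · exact ⟨Or.inr h2.symm, h1⟩
      · rintro ⟨h2 | h2, h1⟩
        · exact ⟨h1, Or.inl h2.symm⟩
        · exact ⟨h1, Or.inr h2.symm⟩
    rw [h1, Finset.sum_filter, Finset.sum_pair (S.en_ne e)]
    rfl
  · intro v _ v' _ h
    exact Sum.inr.inj (Sum.inr.inj h)
  · intro w _ w' _ h
    exact m.pt_inj h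
  · rw [Finset.disjoint_left]
    intro x h1 h2
    obtain ⟨w, _, rfl⟩ := Finset.mem_image.1 h1
    obtain ⟨v, _, h3⟩ := Finset.mem_image.1 h2
    exact m.pt_ne_vert w v h3.symm

/-- splitting of a sum over the points of `Q` below `w` on the vertical face `e` -/
theorem sum_Lx {e : Ed} {w : W} (hw : w ∈ S.OnE e) (f : S.Pnt → ZMod 2) :
    ∑ x ∈ m.Lx e (m.pt w), f x =
      (∑ y ∈ m.Dp.filter (fun y => y ∈ S.OnE e ∧ S.t y < S.t w), f (m.pt y)) +
        m.vq f (S.en e false) := by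
  unfold Lx
  rw [Finset.sum_filter, m.sum_qon]
  have h1 : m.vq (fun x => if S.tau e x < S.tau e (m.pt w) then f x else 0) (S.en e false) =
      m.vq f (S.en e false) := by
    by_cases h1 : S.en e false ∈ m.Qv
    · unfold vq
      rw [if_pos h1, if_pos h1]
      show (if S.tau e (S.vert (S.en e false)) < S.tau e (m.pt w) then
        f (S.vert (S.en e false)) else 0) = _
      rw [if_pos]
      rw [m.tau_pt]
      have h3 : S.tau e (S.vert (S.en e false)) = -1 / 2 := by simp [Shell.tau]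
      rw [h3]
      have := S.t_pos hw
      linarith
    · unfold vq
      rw [if_neg h1, if_neg h1]
  have h2 : m.vq (fun x => if S.tau e x < S.tau e (m.pt w) then f x else 0) (S.en e true) = 0 := by
    by_cases h1 : S.en e true ∈ m.Qv
    · unfold vq
      rw [if_pos h1]
      show (if S.tau e (S.vert (S.en e true)) < S.tau e (m.pt w) then
        f (S.vert (S.en e true)) else 0) = _
      rw [if_neg]
      rw [m.tau_pt]
      have h3 : S.tau e (S.vert (S.en e true)) = 3 / 2 := by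
        simp [Shell.tau, (S.en_ne e).symm]
      rw [h3]
      have := S.t_lt hw
      intro h4
      linarith
    · unfold vq
      rw [if_neg h1]
  rw [h1, h2, add_zero]
  congr 1
  have h4 : m.Dp.filter (fun y => y ∈ S.OnE e ∧ S.t y < S.t w) =
      (m.Dp.filter (fun y => y ∈ S.OnE e)).filter (fun y => S.t y < S.t w) := by
    ext y
    simp only [Finset.mem_filter]
    tauto
  rw [h4]
  refine Eq.trans ?_ (Finset.sum_filter _ _).symm
  refine Finset.sum_congr rfl fun y _ => ?_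
  rw [m.tau_pt, m.tau_pt]

end Crest.Agent.R096.Door_501.Move
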