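import Crest.Agent.R096.Qp2_106

/-!
# Row 96, DOORS (QP), part 3 (helper106): **`Move.qp`**, the horizontal piece has no period.
-/

set_option autoImplicit false

namespace Crest.Agent.R096.Qp_106

theorem y1 : ∀ a b c d : ZMod 2, a + b = c + d → c + a = d + b := by decide

theorem y2 : ∀ R R1 e : ZMod 2, (R + e) + (1 + (R1 + 1)) * e = R + (1 + R1) * e := by decide

theorem y3 : ∀ a b c : ZMod 2, a + c + (b + c) = a + b := by decide

theorem y4 : ∀ a b c d : ZMod 2, a + b = c + d → a + c + (b + d) = 0 := by decide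

theorem y5 : ∀ a b : ZMod 2, a = b + a + b := by decide

theorem y6 : ∀ R o e R1 : ZMod 2, R + o * e + (1 + (R1 + o * 1)) * e = R + (1 + R1) * e := by
  decide

end Crest.Agent.R096.Qp_106

namespace Crest.Agent.R096.Door_501.Move

open Crest.Agent.R096.St_147 Crest.Agent.R096.Door_501 Crest.Agent.R096.Qp_106 Classical

variable {ι Φ W : Type} {M : MeshC ι Φ W} {k : ι} {Vx Ed : Type} {I : Type} {col : I → Bool}
variable {S : Shell M k Vx Ed} {s : St M col} (m : Move S s)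

/-- (NL): upper and lower difference chords do not interlace -/
def NL : Prop := ∀ F w x, k ∈ M.side F → w ∈ s.P → w ∉ m.B → w ∈ M.On F →
  x ∈ m.B → x ∉ s.P → x ∈ M.On F →
  ¬ M.Lace F w (s.mu F w) x (m.mu0 F x) ∧ ¬ M.Lace F x (m.mu0 F x) w (s.mu F w)

/-- the partner on the boundary curves of `Q` -/
noncomputable def nu (F : Φ) (w : W) : W := if w ∈ s.P then s.mu F w else m.mu0 F w

theorem nu_top {F : Φ} {w : W} (h : w ∈ s.P) : m.nu F w = s.mu F w := if_pos h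

theorem nu_bot {F : Φ} {w : W} (h : w ∉ s.P) : m.nu F w = m.mu0 F w := if_neg h

theorem nu_mem {F : Φ} {w : W} (hF : k ∈ M.side F) (hw : w ∈ m.Dp) (hwF : w ∈ M.On F) :
    m.nu F w ∈ m.Dp ∧ m.nu F w ∈ M.On F := by
  by_cases h : w ∈ s.P
  · rw [m.nu_top h]
    have h1 : w ∉ m.B := by
      rcases m.mem_Dp.1 hw with h1 | h1
      · exact h1.2.1
      · exact (h1.2 h).elim
    have h2 := s.mu_mem h hwF
    obtain ⟨e, _, _, he⟩ := (S.onE hF).1 h2.2
    exact ⟨m.mem_Dp.2 (Or.inl ⟨h2.1, m.mu_not_B hF hwF h h1, e, he⟩), h2.2⟩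
  · rw [m.nu_bot h]
    have h1 : w ∈ m.B := by
      rcases m.mem_Dp.1 hw with h1 | h1
      · exact (h h1.1).elim
      · exact h1.1
    have h2 := m.mem hF h1 hwF
    exact ⟨m.mem_Dp.2 (Or.inr ⟨h2.1, m.mu0_not_P hF hwF h h1⟩), h2.2⟩

theorem Dp_top {w : W} (hw : w ∈ m.Dp) (h : w ∈ s.P) : w ∉ m.B := by
  rcases m.mem_Dp.1 hw with h1 | h1
  · exact h1.2.1
  · exact (h1.2 h).elim

theorem Dp_bot {w : W} (hw : w ∈ m.Dp) (h : w ∉ s.P) : w ∈ m.B := by
  rcases m.mem_Dp.1 hw with h1 | h1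
  · exact (h h1.1).elim
  · exact h1.1

theorem nu_P {F : Φ} {w : W} (hF : k ∈ M.side F) (hw : w ∈ m.Dp) (hwF : w ∈ M.On F) :
    m.nu F w ∈ s.P ↔ w ∈ s.P := by
  by_cases h : w ∈ s.P
  · rw [m.nu_top h]
    exact ⟨fun _ => h, fun _ => (s.mu_mem h hwF).1⟩
  · rw [m.nu_bot h]
    exact ⟨fun h' => (m.mu0_not_P hF hwF h (m.Dp_bot hw h) h').elim, fun h' => (h h').elim⟩

theorem nu_ne {F : Φ} {w : W} (hF : k ∈ M.side F) (hw : w ∈ m.Dp) (hwF : w ∈ M.On F) :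
    m.nu F w ≠ w := by
  by_cases h : w ∈ s.P
  · rw [m.nu_top h]; exact s.mu_ne h hwF
  · rw [m.nu_bot h]; exact m.ne hF (m.Dp_bot hw h) hwF

theorem nu_nu {F : Φ} {w : W} (hF : k ∈ M.side F) (hw : w ∈ m.Dp) (hwF : w ∈ M.On F) :
    m.nu F (m.nu F w) = w := by
  have h1 := m.nu_P hF hw hwF
  by_cases h : w ∈ s.P
  · rw [m.nu_top (h1.2 h), m.nu_top h]; exact s.mu_mu h hwF
  · rw [m.nu_bot (fun h' => h (h1.1 h')), m.nu_bot h]; exact m.inv hF (m.Dp_bot hw h) hwF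

theorem nu_lace (hNL : m.NL) {F : Φ} {w x : W} (hF : k ∈ M.side F) (hw : w ∈ m.Dp)
    (hwF : w ∈ M.On F) (hx : x ∈ m.Dp) (hxF : x ∈ M.On F) (h1 : x ≠ w) (h2 : x ≠ m.nu F w) :
    ¬ M.Lace F w (m.nu F w) x (m.nu F x) := by
  by_cases hwP : w ∈ s.P <;> by_cases hxP : x ∈ s.P
  · rw [m.nu_top hwP] at h2 ⊢
    rw [m.nu_top hxP]
    obtain ⟨e, he⟩ := m.Dp_edge hw
    obtain ⟨e', he'⟩ := m.Dp_edge hx
    refine s.nc hwP hwF hxP hxF ?_ h1 h2
    rw [m.dif_top he hwP (m.Dp_top hw hwP), m.dif_top he' hxP (m.Dp_top hx hxP)]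
  · rw [m.nu_top hwP, m.nu_bot hxP]
    exact (hNL F w x hF hwP (m.Dp_top hw hwP) hwF (m.Dp_bot hx hxP) hxP hxF).1
  · rw [m.nu_bot hwP, m.nu_top hxP]
    exact (hNL F x w hF hxP (m.Dp_top hx hxP) hxF (m.Dp_bot hw hwP) hwP hwF).2
  · rw [m.nu_bot hwP] at h2 ⊢
    rw [m.nu_bot hxP]
    refine m.nc hF (m.Dp_bot hw hwP) hwF (m.Dp_bot hx hxP) hxF ?_ h1 h2
    rw [m.dif_bot (m.Dp_bot hw hwP) hwP, m.dif_bot (m.Dp_bot hx hxP) hxP]

/-- running sums of an invariant weight at the two ends of a chord -/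
theorem run_chord (hNL : m.NL) {F : Φ} (hF : k ∈ M.side F) (f : W → ZMod 2)
    (hf : ∀ w ∈ m.Dp, w ∈ M.On F → f (m.nu F w) = f w) {w : W} (hw : w ∈ m.Dp)
    (hwF : w ∈ M.On F) (hlt : M.pos F w < M.pos F (m.nu F w)) :
    ∑ x ∈ (m.Dp.filter fun x => x ∈ M.On F).filter (fun x => M.pos F x < M.pos F (m.nu F w)), f x =
      (∑ x ∈ (m.Dp.filter fun x => x ∈ M.On F).filter (fun x => M.pos F x < M.pos F w), f x) +
        f w := by
  set DF := m.Dp.filter fun x => x ∈ M.On F with hDF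
  have hmem : ∀ x, x ∈ DF ↔ x ∈ m.Dp ∧ x ∈ M.On F := fun x => Finset.mem_filter
  have hw' := m.nu_mem hF hw hwF
  set J := DF.filter fun x => M.pos F w < M.pos F x ∧ M.pos F x < M.pos F (m.nu F w) with hJ
  have h1 : DF.filter (fun x => M.pos F x < M.pos F (m.nu F w)) =
      insert w (DF.filter (fun x => M.pos F x < M.pos F w) ∪ J) := by
    ext x
    simp only [hJ, Finset.mem_filter, Finset.mem_insert, Finset.mem_union]
    constructor
    · rintro ⟨h1, h2⟩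
      rcases lt_trichotomy (M.pos F x) (M.pos F w) with h3 | h3 | h3
      · exact Or.inr (Or.inl ⟨h1, h3⟩)
      · exact Or.inl (M.pos_inj F ((hmem x).1 h1).2 hwF h3)
      · exact Or.inr (Or.inr ⟨h1, h3, h2⟩)
    · rintro (rfl | ⟨h1, h2⟩ | ⟨h1, h2, h3⟩)
      · exact ⟨(hmem _).2 ⟨hw, hwF⟩, hlt⟩
      · exact ⟨h1, h2.trans hlt⟩
      · exact ⟨h1, h3⟩
  have h2 : w ∉ DF.filter (fun x => M.pos F x < M.pos F w) ∪ J := by
    simp only [hJ, Finset.mem_filter, Finset.mem_union, lt_irrefl, and_false, false_and, or_false,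
      not_false_eq_true]
  have h3 : Disjoint (DF.filter (fun x => M.pos F x < M.pos F w)) J := by
    rw [Finset.disjoint_left]
    intro x a1 a2
    exact lt_asymm (Finset.mem_filter.1 a1).2 (Finset.mem_filter.1 a2).2.1
  rw [h1, Finset.sum_insert h2, Finset.sum_union h3, add_comm]
  have h4 : ∑ x ∈ J, f x = 0 := by
    refine sum_inv _ _ (m.nu F) ?_ ?_ ?_ ?_
    · intro x hx
      obtain ⟨a1, a2, a3⟩ := Finset.mem_filter.1 hx
      obtain ⟨b1, b2⟩ := (hmem x).1 a1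
      have h5 : x ≠ w := by rintro rfl; exact lt_irrefl _ a2
      have h6 : x ≠ m.nu F w := by rintro rfl; exact lt_irrefl _ a3
      have h7 := m.nu_lace hNL hF hw hwF b1 b2 h5 h6
      have h8 : M.Btw F w (m.nu F w) x := Or.inl ⟨a2, a3⟩
      have h9 : M.Btw F w (m.nu F w) (m.nu F x) := (not_not.1 h7).1 h8
      refine Finset.mem_filter.2 ⟨(hmem _).2 (m.nu_mem hF b1 b2), ?_⟩
      rcases h9 with h9 | h9
      · exact h9
      · exact absurd (h9.1.trans h9.2) (not_lt.2 hlt.le)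
    · intro x hx
      obtain ⟨a1, a2, a3⟩ := Finset.mem_filter.1 hx
      obtain ⟨b1, b2⟩ := (hmem x).1 a1
      exact m.nu_ne hF b1 b2
    · intro x hx
      obtain ⟨a1, a2, a3⟩ := Finset.mem_filter.1 hx
      obtain ⟨b1, b2⟩ := (hmem x).1 a1
      exact m.nu_nu hF b1 b2
    · intro x hx
      obtain ⟨a1, a2, a3⟩ := Finset.mem_filter.1 hx
      obtain ⟨b1, b2⟩ := (hmem x).1 a1
      exact hf x b1 b2
  rw [h4, add_zero]

/-- potentials on the boundary circle of a face -/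
theorem face_key [Fintype Ed] (hC : S.Circ) (hNL : m.NL) {F : Φ} (hF : k ∈ M.side F) :
    ∃ o : W → ZMod 2, ∀ (f : W → ZMod 2) (d : Vx → ZMod 2),
      (∀ w ∈ m.Dp, w ∈ M.On F → f (m.nu F w) = f w) →
      (∀ e ∈ S.EF F, d (S.en e false) + d (S.en e true) =
        ∑ w ∈ m.Dp.filter (fun w => w ∈ S.OnE e), f w) →
      ∃ R : W → ZMod 2,
        (∀ e ∈ S.EF F, ∀ w ∈ m.Dp, w ∈ S.OnE e →
          d (S.en e false) + ∑ y ∈ m.Dp.filter (fun y => y ∈ S.OnE e ∧ S.t y < S.t w), f y =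
            R w + o w * f w) ∧
        (∀ w ∈ m.Dp, w ∈ M.On F → R (m.nu F w) = R w + f w) := by
  obtain ⟨pv, o, hco⟩ := hC.weighted hF
  refine ⟨o, fun f d hf hd => ?_⟩
  set DF := m.Dp.filter fun x => x ∈ M.On F with hDF
  have hmem : ∀ x, x ∈ DF ↔ x ∈ m.Dp ∧ x ∈ M.On F := fun x => Finset.mem_filter
  have hsum : ∑ w ∈ DF, f w = 0 := by
    refine sum_inv _ _ (m.nu F) ?_ ?_ ?_ ?_
    · intro x hx
      exact (hmem _).2 (m.nu_mem hF ((hmem x).1 hx).1 ((hmem x).1 hx).2)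
    · intro x hx
      exact m.nu_ne hF ((hmem x).1 hx).1 ((hmem x).1 hx).2
    · intro x hx
      exact m.nu_nu hF ((hmem x).1 hx).1 ((hmem x).1 hx).2
    · intro x hx
      exact hf x ((hmem x).1 hx).1 ((hmem x).1 hx).2
  obtain ⟨c1, c2⟩ := hco DF f (fun w hw => ((hmem w).1 hw).2) hsum
  obtain ⟨Rr, hRr⟩ : ∃ Rr : ℝ → ZMod 2, ∀ r, Rr r = ∑ w ∈ DF.filter (fun w => M.pos F w < r), f w :=
    ⟨_, fun _ => rfl⟩
  have hDe : ∀ e, e ∈ S.EF F → DF.filter (fun w => w ∈ S.OnE e) =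
      m.Dp.filter (fun w => w ∈ S.OnE e) := by
    intro e he
    obtain ⟨b, hb⟩ := S.mem_EF.1 he
    ext w
    simp only [hDF, Finset.mem_filter]
    constructor
    · rintro ⟨⟨a1, a2⟩, a3⟩
      exact ⟨a1, a3⟩
    · rintro ⟨a1, a3⟩
      exact ⟨⟨a1, by rw [← hb]; exact S.on_of_onE a3 b⟩, a3⟩
  have hDe2 : ∀ e, e ∈ S.EF F → ∀ w, DF.filter (fun y => y ∈ S.OnE e ∧ S.t y < S.t w) =
      m.Dp.filter (fun y => y ∈ S.OnE e ∧ S.t y < S.t w) := by
    intro e he w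
    obtain ⟨b, hb⟩ := S.mem_EF.1 he
    ext y
    simp only [hDF, Finset.mem_filter]
    constructor
    · rintro ⟨⟨a1, a2⟩, a3⟩
      exact ⟨a1, a3⟩
    · rintro ⟨a1, a3⟩
      exact ⟨⟨a1, by rw [← hb]; exact S.on_of_onE a3.1 b⟩, a3⟩
  -- the constant
  have hconst : ∀ e ∈ S.EF F, ∀ b, ∀ e' ∈ S.EF F, ∀ b',
      d (S.en e b) + Rr (pv (S.en e b)) = d (S.en e' b') + Rr (pv (S.en e' b')) := by
    intro e he b e' he' b'
    have h1 := hC.vconn F hF {v | d v + Rr (pv v) = d (S.en e b) + Rr (pv (S.en e b))} (by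
      intro e0 he0
      have h2 := hd e0 (S.mem_EF.2 he0)
      have h3 := c1 e0 he0
      rw [hDe e0 (S.mem_EF.2 he0), ← h2, ← hRr, ← hRr] at h3
      have h4 : d (S.en e0 false) + Rr (pv (S.en e0 false)) =
          d (S.en e0 true) + Rr (pv (S.en e0 true)) := y1 _ _ _ _ h3
      show d (S.en e0 false) + Rr (pv (S.en e0 false)) = _ ↔
        d (S.en e0 true) + Rr (pv (S.en e0 true)) = _
      rw [h4]) e (S.mem_EF.1 he) b rfl e' (S.mem_EF.1 he') b'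
    exact h1.symm
  obtain ⟨C, hCc⟩ : ∃ C : ZMod 2, ∀ e ∈ S.EF F, ∀ b, d (S.en e b) + Rr (pv (S.en e b)) = C := by
    by_cases hne : ∃ e, e ∈ S.EF F
    · obtain ⟨e, he⟩ := hne
      exact ⟨d (S.en e false) + Rr (pv (S.en e false)), fun e' he' b' =>
        hconst e' he' b' e he false⟩
    · exact ⟨0, fun e he => (hne ⟨e, he⟩).elim⟩
  refine ⟨fun w => C + Rr (M.pos F w), ?_, ?_⟩
  · intro e he w hw hwe
    obtain ⟨b, hb⟩ := S.mem_EF.1 he
    have hwF : w ∈ M.On F := by rw [← hb]; exact S.on_of_onE hwe b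
    have h1 := c2 e (S.mem_EF.1 he) w hwe ((hmem w).2 ⟨hw, hwF⟩)
    rw [hDe2 e he w, ← hRr, ← hRr] at h1
    have h2 := hCc e he false
    have y : ∀ d r r' s t C : ZMod 2, r + r' = s + t → d + r = C → d + s = C + r' + t := by
      decide
    exact y _ _ _ _ _ _ h1 h2
  · have hlow : ∀ w ∈ m.Dp, w ∈ M.On F → M.pos F w < M.pos F (m.nu F w) →
        C + Rr (M.pos F (m.nu F w)) = C + Rr (M.pos F w) + f w := by
      intro w hw hwF hlt
      rw [hRr, hRr, m.run_chord hNL hF f hf hw hwF hlt, add_assoc]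
    intro w hw hwF
    have hw' := m.nu_mem hF hw hwF
    rcases lt_trichotomy (M.pos F w) (M.pos F (m.nu F w)) with h | h | h
    · exact hlow w hw hwF h
    · exact absurd (M.pos_inj F hwF hw'.2 h) (m.nu_ne hF hw hwF).symm
    · have h1 := hlow _ hw'.1 hw'.2 (by rw [m.nu_nu hF hw hwF]; exact h)
      rw [m.nu_nu hF hw hwF, hf w hw hwF] at h1
      show C + Rr (M.pos F (m.nu F w)) = C + Rr (M.pos F w) + f w
      rw [h1, add_assoc, zz_self, add_zero]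

theorem vq_add (f g : S.Pnt → ZMod 2) (v : Vx) :
    m.vq (fun x => f x + g x) v = m.vq f v + m.vq g v := by
  unfold vq
  split_ifs
  · rfl
  · rw [add_zero]

/-- `∑` over the points of a union -/
theorem sum_Dp (p : W → Prop) (f : W → ZMod 2) : ∑ w ∈ m.Dp.filter p, f w =
    (∑ w ∈ (s.P.filter fun w => w ∉ m.B ∧ ∃ e, w ∈ S.OnE e).filter p, f w) +
      ∑ w ∈ (m.B.filter fun w => w ∉ s.P).filter p, f w := by
  unfold Dp
  rw [Finset.filter_union, Finset.sum_union]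
  rw [Finset.disjoint_left]
  intro w h1 h2
  exact (Finset.mem_filter.1 (Finset.mem_filter.1 h2).1).2
    (Finset.mem_filter.1 (Finset.mem_filter.1 h1).1).1

end Crest.Agent.R096.Door_501.Move
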