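import Crest.Agent.R096.Qp3_106

/-!
# Row 96, DOORS (QP), part 4 (helper106): **`Move.qp`**, the horizontal piece has no period.
-/

set_option autoImplicit false

namespace Crest.Agent.R096.Door_501.Move

open Crest.Agent.R096.St_147 Crest.Agent.R096.Door_501 Crest.Agent.R096.Qp_106 Classical

variable {ι Φ W : Type} {M : MeshC ι Φ W} {k : ι} {Vx Ed : Type} {I : Type} {col : I → Bool}
variable {S : Shell M k Vx Ed} {s : St M col} (m : Move S s)

/-- the vertex terms cancel -/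
theorem vert_total [Fintype Ed] (ψ : Φ → S.Pnt → ZMod 2) :
    ∑ e : Ed, (m.vq (fun x => ψ (S.fc e false) x + ψ (S.fc e true) x) (S.en e false) +
      m.vq (fun x => ψ (S.fc e false) x + ψ (S.fc e true) x) (S.en e true)) = 0 := by
  have h1 := S.esum (fun F e => m.vq (ψ F) (S.en e false) + m.vq (ψ F) (S.en e true))
  have h2 : ∑ F ∈ S.FS, ∑ e ∈ S.EF F, (m.vq (ψ F) (S.en e false) + m.vq (ψ F) (S.en e true)) =
      0 := Finset.sum_eq_zero fun F _ => S.vsum F (m.vq (ψ F))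
  rw [h2] at h1
  rw [← h1]
  refine Finset.sum_congr rfl fun e _ => ?_
  rw [m.vq_add, m.vq_add]
  exact add_add_add_comm _ _ _ _

/-- the total of the local potentials on the upper curves is zero -/
theorem top_total [Fintype Ed] (hp : m.Par) (ψ : Φ → S.Pnt → ZMod 2) (ψk : S.Pnt → ZMod 2)
    (hg : ∀ e, ∀ x ∈ m.qon e, ψ (S.fc e false) (m.pr hp e x) + ψ (S.fc e true) (m.pr hp e x) =
      ψ (S.fc e false) x + ψ (S.fc e true) x)
    (hb : ∀ F w, k ∈ M.side F → w ∈ m.B → w ∉ s.P → w ∈ M.On F →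
      ψ F (S.bot w) + ψ F (S.bot (m.mu0 F w)) = ψk (S.bot w) + ψk (S.bot (m.mu0 F w))) :
    ∑ e : Ed, ∑ w ∈ (s.P.filter fun w => w ∉ m.B ∧ ∃ e, w ∈ S.OnE e).filter
      (fun w => w ∈ S.OnE e), (ψ (S.fc e false) (S.top w) + ψ (S.fc e true) (S.top w)) = 0 := by
  have h1 : ∑ e : Ed, ∑ x ∈ m.qon e, (ψ (S.fc e false) x + ψ (S.fc e true) x) = 0 :=
    Finset.sum_eq_zero fun e _ => m.pair_total hp e _ (hg e)
  have h2 : ∑ e : Ed, ∑ x ∈ m.qon e, (ψ (S.fc e false) x + ψ (S.fc e true) x) =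
      ∑ e : Ed, ∑ w ∈ m.Dp.filter (fun w => w ∈ S.OnE e),
        (ψ (S.fc e false) (m.pt w) + ψ (S.fc e true) (m.pt w)) := by
    have h3 := m.vert_total ψ
    have h4 : ∀ e : Ed, ∑ x ∈ m.qon e, (ψ (S.fc e false) x + ψ (S.fc e true) x) =
        (∑ w ∈ m.Dp.filter (fun w => w ∈ S.OnE e),
          (ψ (S.fc e false) (m.pt w) + ψ (S.fc e true) (m.pt w))) +
        (m.vq (fun x => ψ (S.fc e false) x + ψ (S.fc e true) x) (S.en e false) +
          m.vq (fun x => ψ (S.fc e false) x + ψ (S.fc e true) x) (S.en e true)) := fun e =>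
      m.sum_qon e (fun x => ψ (S.fc e false) x + ψ (S.fc e true) x)
    rw [Finset.sum_congr rfl fun e _ => h4 e, Finset.sum_add_distrib, h3, add_zero]
  rw [h1] at h2
  have h5 : ∑ e : Ed, ∑ w ∈ m.Dp.filter (fun w => w ∈ S.OnE e),
        (ψ (S.fc e false) (m.pt w) + ψ (S.fc e true) (m.pt w)) =
      (∑ e : Ed, ∑ w ∈ (s.P.filter fun w => w ∉ m.B ∧ ∃ e, w ∈ S.OnE e).filter
        (fun w => w ∈ S.OnE e), (ψ (S.fc e false) (S.top w) + ψ (S.fc e true) (S.top w))) +
      ∑ e : Ed, ∑ w ∈ (m.B.filter fun w => w ∉ s.P).filter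
        (fun w => w ∈ S.OnE e), (ψ (S.fc e false) (S.bot w) + ψ (S.fc e true) (S.bot w)) := by
    rw [← Finset.sum_add_distrib]
    refine Finset.sum_congr rfl fun e _ => ?_
    rw [m.sum_Dp]
    congr 1
    · refine Finset.sum_congr (by ext; simp only [Finset.mem_filter]) fun w hw => ?_
      rw [m.pt_top (Finset.mem_filter.1 (Finset.mem_filter.1 hw).1).1]
    · refine Finset.sum_congr (by ext; simp only [Finset.mem_filter]) fun w hw => ?_
      rw [m.pt_bot (Finset.mem_filter.1 (Finset.mem_filter.1 hw).1).2]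
  have h6 : ∑ e : Ed, ∑ w ∈ (m.B.filter fun w => w ∉ s.P).filter
        (fun w => w ∈ S.OnE e), (ψ (S.fc e false) (S.bot w) + ψ (S.fc e true) (S.bot w)) = 0 := by
    have h7 := S.hsum_inv (m.B.filter fun w => w ∉ s.P)
      (fun F w => ψ F (S.bot w) + ψk (S.bot w)) m.mu0 (by
        intro F w hF hw hwF
        obtain ⟨a1, a2⟩ := Finset.mem_filter.1 hw
        have a3 := m.mem hF a1 hwF
        exact ⟨Finset.mem_filter.2 ⟨a3.1, m.mu0_not_P hF hwF a2 a1⟩, a3.2⟩) (by
        intro F w hF hw hwF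
        exact m.ne hF (Finset.mem_filter.1 hw).1 hwF) (by
        intro F w hF hw hwF
        exact m.inv hF (Finset.mem_filter.1 hw).1 hwF) (by
        intro F w hF hw hwF
        obtain ⟨a1, a2⟩ := Finset.mem_filter.1 hw
        exact (zz_swap _ _ _ _ (hb F w hF a1 a2 hwF)).symm)
    rw [← h7]
    refine Finset.sum_congr rfl fun e _ => Finset.sum_congr rfl fun w _ => ?_
    exact (y3 _ _ _).symm
  rw [h5, h6, add_zero] at h2
  exact h2.symm

/-- **(QP)**: the horizontal piece has no period, if the upper curve is connected and the sphere has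
`H¹ = 0`. -/
theorem qp [Fintype Ed] (hp : m.Par) (hS : S.Sph) (hC : S.Circ) (hTC : m.TC) (hNL : m.NL) :
    m.QP hp := by
  intro κ hG hK
  choose ψ' hψ' using hG
  obtain ⟨ψk, hψk⟩ := hK
  obtain ⟨ψ, hψdef⟩ : ∃ ψ : Φ → S.Pnt → ZMod 2, ∀ F (hF : k ∈ M.side F) x,
      ψ F x = ψ' ⟨F, hF⟩ x :=
    ⟨fun F x => if hF : k ∈ M.side F then ψ' ⟨F, hF⟩ x else 0, fun F hF x => dif_pos hF⟩
  have hψ : ∀ F (hF : k ∈ M.side F) F' x, (Sum.inr ⟨F, hF⟩ : S.Cell) ∈ S.side F' → x ∈ m.qe →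
      x ∈ S.On F' → κ F' x = ψ F x + ψ F (m.mu' hp F' x) := by
    intro F hF F' x h1 h2 h3
    rw [hψdef F hF, hψdef F hF]
    exact hψ' ⟨F, hF⟩ F' x h1 h2 h3
  clear hψ' hψdef
  -- vertical chords
  have hv : ∀ e b x, x ∈ m.qon e →
      κ (Sum.inr (Sum.inr e)) x = ψ (S.fc e b) x + ψ (S.fc e b) (m.pr hp e x) := by
    intro e b x hx
    obtain ⟨h1, h2⟩ := m.mem_qon.1 hx
    have h3 := hψ (S.fc e b) (S.fc_side e b) (Sum.inr (Sum.inr e)) x
      (S.mem_side_vert.2 ⟨b, rfl⟩) h1 h2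
    rwa [m.mu'_vert_qe hp h1] at h3
  have hg : ∀ e, ∀ x ∈ m.qon e,
      ψ (S.fc e false) (m.pr hp e x) + ψ (S.fc e true) (m.pr hp e x) =
        ψ (S.fc e false) x + ψ (S.fc e true) x := by
    intro e x hx
    have h1 := hv e false x hx
    have h2 := hv e true x hx
    rw [h1] at h2
    have y : ∀ a b c d : ZMod 2, a + b = c + d → b + d = a + c := by decide
    exact y _ _ _ _ h2
  -- chords of the upper and lower curves
  have htop : ∀ F w, k ∈ M.side F → S.top w ∈ m.qe → w ∈ M.On F →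
      κ (Sum.inl F) (S.top w) = ψ F (S.top w) + ψ F (S.top (s.mu F w)) := fun F w hF h1 h2 =>
    hψ F hF (Sum.inl F) (S.top w) (S.inr_mem_side.2 rfl) h1 (S.top_mem_On.2 h2)
  have hbot : ∀ F (hF : k ∈ M.side F) w, S.bot w ∈ m.qe → w ∈ M.On F →
      κ (Sum.inr (Sum.inl ⟨F, hF⟩)) (S.bot w) = ψ F (S.bot w) + ψ F (S.bot (m.mu0 F w)) :=
    fun F hF w h1 h2 => hψ F hF (Sum.inr (Sum.inl ⟨F, hF⟩)) (S.bot w)
      (S.mem_side_bot.2 (Or.inl rfl)) h1 (S.bot_mem_On.2 h2)
  have hbotk : ∀ F (hF : k ∈ M.side F) w, S.bot w ∈ m.qe → w ∈ M.On F →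
      κ (Sum.inr (Sum.inl ⟨F, hF⟩)) (S.bot w) = ψk (S.bot w) + ψk (S.bot (m.mu0 F w)) :=
    fun F hF w h1 h2 => hψk (Sum.inr (Sum.inl ⟨F, hF⟩)) (S.bot w)
      (S.mem_side_bot.2 (Or.inr rfl)) h1 (S.bot_mem_On.2 h2)
  have hb : ∀ F w, k ∈ M.side F → w ∈ m.B → w ∉ s.P → w ∈ M.On F →
      ψ F (S.bot w) + ψ F (S.bot (m.mu0 F w)) = ψk (S.bot w) + ψk (S.bot (m.mu0 F w)) := by
    intro F w hF h1 h2 h3
    have h4 := m.bot_mem_qe.2 ⟨h1, h2⟩
    rw [← hbot F hF w h4 h3, hbotk F hF w h4 h3]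
  -- the potential on the upper curve
  obtain ⟨lam, hlam⟩ := S.curve_exact (s.P.filter fun w => w ∉ m.B ∧ ∃ e, w ∈ S.OnE e)
    (fun w hw => (Finset.mem_filter.1 hw).2.2) s.mu (by
      intro F w hF hw hwF
      obtain ⟨a1, a2, a3⟩ := Finset.mem_filter.1 hw
      have a4 := s.mu_mem a1 hwF
      obtain ⟨e, _, _, he⟩ := (S.onE hF).1 a4.2
      exact ⟨Finset.mem_filter.2 ⟨a4.1, m.mu_not_B hF hwF a1 a2, e, he⟩, a4.2⟩) (by
      intro F w hF hw hwF
      exact s.mu_mu (Finset.mem_filter.1 hw).1 hwF) (by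
      intro X hX w hwX hw w' hw'
      obtain ⟨a1, a2, a3⟩ := Finset.mem_filter.1 hw
      obtain ⟨b1, b2, b3⟩ := Finset.mem_filter.1 hw'
      refine hTC X (fun F u h1 h2 h3 h4 h5 => ?_) w hwX a1 a2 a3 w' b1 b2 b3
      obtain ⟨e, _, _, he⟩ := (S.onE h1).1 h2
      exact hX F u h1 h2 (Finset.mem_filter.2 ⟨h3, h4, e, he⟩) h5)
    (fun F w => ψ F (S.top w)) (m.top_total hp ψ ψk hg hb)
  obtain ⟨lam', hlam1, hlam2⟩ : ∃ lam' : W → ZMod 2, (∀ w ∈ s.P, lam' w = lam w) ∧
      ∀ w, w ∉ s.P → lam' w = ψk (S.bot w) :=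
    ⟨fun w => if w ∈ s.P then lam w else ψk (S.bot w), fun w hw => if_pos hw,
      fun w hw => if_neg hw⟩
  obtain ⟨eps, heps⟩ : ∃ eps : Φ → W → ZMod 2, ∀ F w, eps F w = ψ F (m.pt w) + lam' w :=
    ⟨_, fun _ _ => rfl⟩
  have hinv : ∀ F, k ∈ M.side F → ∀ w ∈ m.Dp, w ∈ M.On F → eps F (m.nu F w) = eps F w := by
    intro F hF w hw hwF
    rw [heps, heps]
    by_cases hP : w ∈ s.P
    · have hB := m.Dp_top hw hP
      obtain ⟨e, he⟩ := m.Dp_edge hw
      have h1 := hlam F w hF (Finset.mem_filter.2 ⟨hP, hB, e, he⟩) hwF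
      have h2 := s.mu_mem hP hwF
      rw [m.nu_top hP, m.pt_top hP, m.pt_top h2.1, hlam1 _ hP, hlam1 _ h2.1]
      exact (zz_swap _ _ _ _ h1).symm
    · have hB := m.Dp_bot hw hP
      have h2 := m.mem hF hB hwF
      have h3 := m.mu0_not_P hF hwF hP hB
      rw [m.nu_bot hP, m.pt_bot hP, m.pt_bot h3, hlam2 _ hP, hlam2 _ h3]
      exact (zz_swap _ _ _ _ (hb F w hF hB hP hwF)).symm
  -- the cochain on the edges
  obtain ⟨c, hc0⟩ : ∃ c : Ed → ZMod 2, ∀ e, c e =
      (∑ w ∈ m.Dp.filter (fun w => w ∈ S.OnE e), eps (S.fc e false) w) +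
        (m.vq (ψ (S.fc e false)) (S.en e false) + m.vq (ψ (S.fc e false)) (S.en e true)) :=
    ⟨_, fun _ => rfl⟩
  have hc1 : ∀ e b, c e =
      (∑ w ∈ m.Dp.filter (fun w => w ∈ S.OnE e), eps (S.fc e b) w) +
        (m.vq (ψ (S.fc e b)) (S.en e false) + m.vq (ψ (S.fc e b)) (S.en e true)) := by
    intro e b
    cases b
    · exact hc0 e
    · rw [hc0 e]
      apply zz_eq
      have h1 := m.pair_total hp e (fun x => ψ (S.fc e false) x + ψ (S.fc e true) x) (hg e)
      rw [m.sum_qon, m.vq_add, m.vq_add] at h1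
      have h2 : ∑ w ∈ m.Dp.filter (fun w => w ∈ S.OnE e),
          (ψ (S.fc e false) (m.pt w) + ψ (S.fc e true) (m.pt w)) =
          (∑ w ∈ m.Dp.filter (fun w => w ∈ S.OnE e), eps (S.fc e false) w) +
            ∑ w ∈ m.Dp.filter (fun w => w ∈ S.OnE e), eps (S.fc e true) w := by
        rw [← Finset.sum_add_distrib]
        refine Finset.sum_congr rfl fun w _ => ?_
        rw [heps, heps]
        exact (y3 _ _ _).symm
      rw [h2] at h1
      rw [← h1]
      have y : ∀ a b c d e f : ZMod 2, a + (b + c) + (d + (e + f)) = a + d + (b + e + (c + f)) := by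
        decide
      exact y _ _ _ _ _ _
  have hc : ∀ F e, e ∈ S.EF F → c e =
      (∑ w ∈ m.Dp.filter (fun w => w ∈ S.OnE e), eps F w) +
        (m.vq (ψ F) (S.en e false) + m.vq (ψ F) (S.en e true)) := by
    intro F e he
    obtain ⟨b, rfl⟩ := S.mem_EF.1 he
    exact hc1 e b
  obtain ⟨ψ0, hψ0⟩ := hS c (by
    intro F hF
    rw [Finset.sum_congr rfl (hc F), Finset.sum_add_distrib, S.vsum F (m.vq (ψ F)), add_zero,
      S.wsum hF]
    refine sum_inv _ _ (m.nu F) ?_ ?_ ?_ ?_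
    · intro x hx
      obtain ⟨a1, a2⟩ := Finset.mem_filter.1 hx
      exact Finset.mem_filter.2 (m.nu_mem hF a1 a2)
    · intro x hx
      obtain ⟨a1, a2⟩ := Finset.mem_filter.1 hx
      exact m.nu_ne hF a1 a2
    · intro x hx
      obtain ⟨a1, a2⟩ := Finset.mem_filter.1 hx
      exact m.nu_nu hF a1 a2
    · intro x hx
      obtain ⟨a1, a2⟩ := Finset.mem_filter.1 hx
      exact hinv F hF x a1 a2)
  obtain ⟨DG, hDG⟩ : ∃ DG : Φ → Vx → ZMod 2, ∀ F v, DG F v = ψ0 v + m.vq (ψ F) v :=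
    ⟨_, fun _ _ => rfl⟩
  have hE1 : ∀ F, ∀ e ∈ S.EF F, DG F (S.en e false) + DG F (S.en e true) =
      ∑ w ∈ m.Dp.filter (fun w => w ∈ S.OnE e), eps F w := by
    intro F e he
    have h1 := hψ0 e
    rw [hc F e he] at h1
    rw [hDG, hDG]
    have y : ∀ s a b c d : ZMod 2, s + (a + b) = c + d → c + a + (d + b) = s := by decide
    exact y _ _ _ _ _ h1
  -- the potential
  obtain ⟨Pe, hPe⟩ : ∃ Pe : Ed → Φ → W → ZMod 2, ∀ e F w, Pe e F w =
      DG F (S.en e false) +
        (∑ y ∈ m.Dp.filter (fun y => y ∈ S.OnE e ∧ S.t y < S.t w), eps F y) +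
        (if Even (m.Lx e (m.pt w)).card then lam' w else ψ F (m.pt w)) :=
    ⟨_, fun _ _ _ => rfl⟩
  have hind : ∀ e w, w ∈ m.Dp → w ∈ S.OnE e → Pe e (S.fc e false) w = Pe e (S.fc e true) w := by
    intro e w hw hwe
    have h1 := m.pair_sum hp (fun x => ψ (S.fc e false) x + ψ (S.fc e true) x) (hg e)
      (m.pt_mem_qon.2 ⟨hw, hwe⟩)
    rw [m.sum_Lx hwe, m.vq_add] at h1
    have h2 : ∑ y ∈ m.Dp.filter (fun y => y ∈ S.OnE e ∧ S.t y < S.t w),
          (ψ (S.fc e false) (m.pt y) + ψ (S.fc e true) (m.pt y)) =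
          (∑ y ∈ m.Dp.filter (fun y => y ∈ S.OnE e ∧ S.t y < S.t w), eps (S.fc e false) y) +
            ∑ y ∈ m.Dp.filter (fun y => y ∈ S.OnE e ∧ S.t y < S.t w), eps (S.fc e true) y := by
      rw [← Finset.sum_add_distrib]
      refine Finset.sum_congr rfl fun w _ => ?_
      rw [heps, heps]
      exact (y3 _ _ _).symm
    rw [h2] at h1
    rw [hPe, hPe, hDG, hDG]
    by_cases hev : Even (m.Lx e (m.pt w)).card
    · rw [if_pos hev] at h1
      rw [if_pos hev, if_pos hev]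
      have y : ∀ p a b s t l : ZMod 2, s + t + (a + b) = 0 →
          p + a + s + l = p + b + t + l := by decide
      exact y _ _ _ _ _ _ h1
    · rw [if_neg hev] at h1
      rw [if_neg hev, if_neg hev]
      have y : ∀ p a b s t l l' : ZMod 2, s + t + (a + b) = l + l' →
          p + a + s + l = p + b + t + l' := by decide
      exact y _ _ _ _ _ _ _ h1
  obtain ⟨Pw, hPw⟩ : ∃ Pw : W → ZMod 2, ∀ e F w, e ∈ S.EF F → w ∈ m.Dp → w ∈ S.OnE e →
      Pw w = Pe e F w := by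
    refine ⟨fun w => if h : ∃ e, w ∈ S.OnE e then Pe h.choose (S.fc h.choose false) w else 0, ?_⟩
    intro e F w he hw hwe
    have h : ∃ e, w ∈ S.OnE e := ⟨e, hwe⟩
    have h1 : h.choose = e := S.onE_disj h.choose_spec hwe
    show (if h : ∃ e, w ∈ S.OnE e then Pe h.choose (S.fc h.choose false) w else 0) = _
    rw [dif_pos h, h1]
    obtain ⟨b, rfl⟩ := S.mem_EF.1 he
    cases b
    · rfl
    · exact hind e w hw hwe
  obtain ⟨Ψ, hΨ1, hΨ2⟩ : ∃ Ψ : S.Pnt → ZMod 2, (∀ w, Ψ (m.pt w) = Pw w) ∧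
      ∀ v, Ψ (S.vert v) = ψ0 v := by
    refine ⟨fun x => match x with
      | Sum.inl w => Pw w
      | Sum.inr (Sum.inl w) => Pw w
      | Sum.inr (Sum.inr v) => ψ0 v, fun w => ?_, fun v => rfl⟩
    by_cases h : w ∈ s.P
    · rw [m.pt_top h]
    · rw [m.pt_bot h]
  -- the defect
  have hdel : ∀ F e w, e ∈ S.EF F → w ∈ m.Dp → w ∈ S.OnE e →
      Ψ (m.pt w) + ψ F (m.pt w) = DG F (S.en e false) +
        (∑ y ∈ m.Dp.filter (fun y => y ∈ S.OnE e ∧ S.t y < S.t w), eps F y) +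
        (if Even (m.Lx e (m.pt w)).card then eps F w else 0) := by
    intro F e w he hw hwe
    rw [hΨ1, hPw e F w he hw hwe, hPe, heps]
    split_ifs
    · have y : ∀ a b c d : ZMod 2, a + b + c + d = a + b + (d + c) := by decide
      exact y _ _ _ _
    · have y : ∀ a b c : ZMod 2, a + b + c + c = a + b + 0 := by decide
      exact y _ _ _
  -- along the boundary circle of a face
  have hface : ∀ F, k ∈ M.side F → ∀ w ∈ m.Dp, w ∈ M.On F →
      Ψ (m.pt w) + Ψ (m.pt (m.nu F w)) = ψ F (m.pt w) + ψ F (m.pt (m.nu F w)) := by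
    intro F hF
    obtain ⟨o, ho⟩ := m.face_key hC hNL hF
    obtain ⟨R, hR1, hR2⟩ := ho (eps F) (DG F) (hinv F hF) (hE1 F)
    obtain ⟨R1, hR3, hR4⟩ := ho (fun _ => 1) (m.vq fun _ => 1) (fun _ _ _ => rfl) (by
      intro e he
      have h1 := hp.even e
      have h2 : ∑ x ∈ m.qon e, (1 : ZMod 2) = 0 := by
        rw [Finset.sum_const, nsmul_even h1]
      rw [m.sum_qon e (fun _ => 1)] at h2
      exact (zz_eq _ _ h2).symm)
    have hD : ∀ w ∈ m.Dp, w ∈ M.On F →
        Ψ (m.pt w) + ψ F (m.pt w) = R w + (1 + R1 w) * eps F w := by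
      intro w hw hwF
      obtain ⟨e, b, hb1, hwe⟩ := (S.onE hF).1 hwF
      have he : e ∈ S.EF F := S.mem_EF.2 ⟨b, hb1⟩
      rw [hdel F e w he hw hwe, hR1 e he w hw hwe]
      have h3 : ((m.Lx e (m.pt w)).card : ZMod 2) = R1 w + o w * 1 := by
        rw [← hR3 e he w hw hwe]
        have h4 := m.sum_Lx hwe (fun _ => (1 : ZMod 2))
        rw [Finset.sum_const, nsmul_eq_mul, mul_one] at h4
        rw [h4, add_comm]
      have h5 : (if Even (m.Lx e (m.pt w)).card then eps F w else 0) =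
          (1 + ((m.Lx e (m.pt w)).card : ZMod 2)) * eps F w := by
        by_cases hev : Even (m.Lx e (m.pt w)).card
        · rw [if_pos hev, (ZMod.natCast_eq_zero_iff_even).2 hev, add_zero, one_mul]
        · have h6 : ((m.Lx e (m.pt w)).card : ZMod 2) = 1 :=
            ZMod.natCast_eq_one_iff_odd.2 (Nat.not_even_iff_odd.1 hev)
          rw [if_neg hev, h6]
          have y : ∀ a : ZMod 2, 0 = (1 + 1) * a := by decide
          exact y _
      rw [h5, h3]
      exact y6 _ _ _ _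
    intro w hw hwF
    have hw' := m.nu_mem hF hw hwF
    have h1 := hD w hw hwF
    have h2 := hD _ hw'.1 hw'.2
    rw [hR2 w hw hwF, hR4 w hw hwF, hinv F hF w hw hwF, y2, ← h1] at h2
    have y : ∀ a b c d : ZMod 2, a + b = c + d → c + a = d + b := by decide
    exact y _ _ _ _ h2
  -- along a vertical face
  have hvert : ∀ e, ∀ x ∈ m.qon e, Ψ x + Ψ (m.pr hp e x) =
      ψ (S.fc e false) x + ψ (S.fc e false) (m.pr hp e x) := by
    intro e
    have he : e ∈ S.EF (S.fc e false) := S.mem_EF.2 ⟨false, rfl⟩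
    obtain ⟨eP, heP1, heP2⟩ : ∃ eP : S.Pnt → ZMod 2,
        (∀ w, eP (m.pt w) = eps (S.fc e false) w) ∧ ∀ v, eP (S.vert v) = 0 := by
      refine ⟨fun x => match x with
        | Sum.inl w => eps (S.fc e false) w
        | Sum.inr (Sum.inl w) => eps (S.fc e false) w
        | Sum.inr (Sum.inr _) => 0, fun w => ?_, fun v => rfl⟩
      by_cases h : w ∈ s.P
      · rw [m.pt_top h]
      · rw [m.pt_bot h]
    have hvq : ∀ v, m.vq eP v = 0 := by
      intro v
      unfold vq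
      rw [heP2, ite_self]
    have hval : ∀ x ∈ m.qon e, Ψ x + ψ (S.fc e false) x = DG (S.fc e false) (S.en e false) +
        (∑ y ∈ m.Lx e x, eP y) + (if Even (m.Lx e x).card then eP x else 0) := by
      intro x hx
      have hx1 := (m.mem_qon.1 hx).1
      rcases m.qe_cases hx1 with ⟨w, hw, rfl⟩ | ⟨v, hv, rfl⟩
      · have hwe := (m.pt_mem_qon.1 hx).2
        rw [hdel _ e w he hw hwe, m.sum_Lx hwe, hvq, add_zero, heP1]
        congr 2
        exact Finset.sum_congr rfl fun y _ => (heP1 y).symm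
      · obtain ⟨_, b, hb1⟩ := m.vert_mem_qon.1 hx
        rw [hΨ2, heP2, ite_self, add_zero]
        have h1 : ψ0 v + ψ (S.fc e false) (S.vert v) = DG (S.fc e false) v := by
          rw [hDG]
          unfold vq
          rw [if_pos hv]
        rw [h1]
        cases b
        · subst hb1
          have h2 : m.Lx e (S.vert (S.en e false)) = ∅ := by
            rw [Finset.eq_empty_iff_forall_notMem]
            intro y hy
            obtain ⟨a1, a2⟩ := m.mem_Lx.1 hy
            have h3 : S.tau e (S.vert (S.en e false)) = -1 / 2 := by simp [Shell.tau]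
            have h4 := (S.tau_mem (m.mem_qon.1 a1).2).1
            rw [h3] at a2
            linarith
          rw [h2, Finset.sum_empty, add_zero]
        · subst hb1
          have h3 : S.tau e (S.vert (S.en e true)) = 3 / 2 := by
            simp [Shell.tau, (S.en_ne e).symm]
          have h2 : m.Lx e (S.vert (S.en e true)) = (m.qon e).erase (S.vert (S.en e true)) := by
            ext y
            rw [m.mem_Lx, Finset.mem_erase]
            constructor
            · rintro ⟨a1, a2⟩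
              refine ⟨?_, a1⟩
              rintro rfl
              exact lt_irrefl _ a2
            · rintro ⟨a1, a2⟩
              refine ⟨a2, ?_⟩
              have h4 := (S.tau_mem (m.mem_qon.1 a2).2).2.1
              have h5 := m.tau_ne a2 hx a1
              rw [h3] at h5 ⊢
              exact lt_of_le_of_ne h4 h5
          have h6 : ∑ y ∈ m.Lx e (S.vert (S.en e true)), eP y =
              ∑ w ∈ m.Dp.filter (fun w => w ∈ S.OnE e), eps (S.fc e false) w := by
            rw [h2, Finset.sum_erase _ (heP2 _), m.sum_qon, hvq, hvq, add_zero, add_zero]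
            exact Finset.sum_congr rfl fun y _ => heP1 y
          rw [h6, ← hE1 _ e he]
          have y : ∀ a b : ZMod 2, a = b + (b + a) := by decide
          exact y _ _
    -- lower end first
    have hlow : ∀ x ∈ m.qon e, S.tau e x < S.tau e (m.pr hp e x) →
        Ψ (m.pr hp e x) + ψ (S.fc e false) (m.pr hp e x) = Ψ x + ψ (S.fc e false) x := by
      intro x hx hlt
      obtain ⟨a1, a2, a3⟩ := m.Lx_pr hp hx hlt
      have h4 : ¬ Even (m.Lx e (m.pr hp e x)).card := by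
        rw [a1, Finset.card_insert_of_notMem a2, Nat.even_add_one]
        exact fun h => h a3
      rw [hval x hx, hval _ (m.pr_spec hp e x hx).1, if_pos a3, if_neg h4, a1,
        Finset.sum_insert a2]
      have y : ∀ a b c : ZMod 2, a + (b + c) + 0 = a + c + b := by decide
      exact y _ _ _
    intro x hx
    obtain ⟨g1, g2, g3, g4, g5⟩ := m.pr_spec hp e x hx
    rcases lt_or_gt_of_ne (m.tau_ne g1 hx g2) with h | h
    · have h1 := hlow _ g1 (by rw [g3]; exact h)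
      rw [g3] at h1
      have y : ∀ a b c d : ZMod 2, a + b = c + d → a + c = b + d := by decide
      exact y _ _ _ _ h1
    · have h1 := hlow x hx h
      have y : ∀ a b c d : ZMod 2, a + b = c + d → c + a = d + b := by decide
      exact y _ _ _ _ h1
  -- conclusion
  refine ⟨Ψ, fun F x hF hx hxF => ?_⟩
  rcases F with F | G | e
  · have hk := S.of_lay_top hF
    rcases x with w | x
    · have hwF := S.top_mem_On.1 hxF
      obtain ⟨a1, a2, a3⟩ := m.top_mem_qe.1 hx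
      have h1 := hface F hk w (m.mem_Dp.2 (Or.inl ⟨a1, a2, a3⟩)) hwF
      rw [m.nu_top a1, m.pt_top a1, m.pt_top (s.mu_mem a1 hwF).1] at h1
      exact (htop F w hk hx hwF).trans h1.symm
    · obtain ⟨w, _, h⟩ := hxF
      cases h
  · rcases x with w | w | v
    · exact (S.top_not_mem_On hxF).elim
    · have hwF := S.bot_mem_On.1 hxF
      obtain ⟨a1, a2⟩ := m.bot_mem_qe.1 hx
      have h1 := hface G.1 G.2 w (m.mem_Dp.2 (Or.inr ⟨a1, a2⟩)) hwF
      rw [m.nu_bot a2, m.pt_bot a2, m.pt_bot (m.mu0_not_P G.2 hwF a2 a1)] at h1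
      exact (hbot G.1 G.2 w hx hwF).trans h1.symm
    · exact (S.vert_not_mem_On' hxF).elim
  · have hx1 := m.mem_qon.2 ⟨hx, hxF⟩
    rw [m.mu'_vert_qe hp hx, hv e false x hx1]
    exact (hvert e x hx1).symm

end Crest.Agent.R096.Door_501.Move
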