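import Crest.Agent.R096.Qp5_106

/-!
# Row 96, DOORS (helper106), part 6: (QC) for the moves `MvD.move`, and the sphere shell.
-/

set_option autoImplicit false

namespace Crest.Agent.R096.Door_501

open Crest.Agent.R096.St_147 Crest.Agent.R096.Qp_106 Classical

variable {ι Φ W : Type} {M : MeshC ι Φ W} {k : ι} {Vx Ed : Type} {I : Type} {col : I → Bool}

namespace Shell

variable (S : Shell M k Vx Ed)

theorem sphSh_EF [Fintype Ed] (G : S.Fk) : S.sphSh.EF G = S.EF G.1 := by
  ext e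
  rw [mem_EF, mem_EF]
  constructor
  · rintro ⟨b, hb⟩
    exact ⟨b, congrArg Subtype.val hb⟩
  · rintro ⟨b, hb⟩
    exact ⟨b, Subtype.ext hb⟩

theorem sphSh_fc {e : Ed} {G : S.Fk} : (∃ b, S.sphSh.fc e b = G) ↔ ∃ b, S.fc e b = G.1 := by
  constructor
  · rintro ⟨b, hb⟩
    exact ⟨b, congrArg Subtype.val hb⟩
  · rintro ⟨b, hb⟩
    exact ⟨b, Subtype.ext hb⟩

theorem sphSh_Sph [Fintype Ed] (h : S.Sph) : S.sphSh.Sph := by
  intro c hc
  refine h c fun F hF => ?_
  have h1 := hc ⟨F, hF⟩ (mem_bool_side _)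
  rwa [S.sphSh_EF] at h1

theorem sphSh_Con (h : S.Con) : S.sphSh.Con := h

theorem sphSh_Circ (h : S.Circ) : S.sphSh.Circ where
  circ := by
    rintro ⟨F, hF⟩ _
    obtain ⟨pv, h1, h2⟩ := h.circ F hF
    exact ⟨pv, fun e he => h1 e (S.sphSh_fc.1 he), fun e he => h2 e (S.sphSh_fc.1 he)⟩
  vconn := by
    rintro ⟨F, hF⟩ _ X hX e he b hb e' he' b'
    exact h.vconn F hF X (fun e he => hX e (S.sphSh_fc.2 he)) e (S.sphSh_fc.1 he) b hb e'
      (S.sphSh_fc.1 he') b'

end Shell

namespace MvD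

variable {S : Shell M k Vx Ed} {s : St M col} (d : MvD S s) [Fintype Ed]

theorem pt_C {w : W} (h : w ∈ d.C) : d.move.pt w = S.top w := d.move.pt_top (d.C_P h)

theorem pt_D {w : W} (h : w ∈ d.D) : d.move.pt w = S.bot w := d.move.pt_bot (d.D_new h)

theorem mem_qon_C {e : Ed} {w : W} (h : w ∈ d.C) (he : w ∈ S.OnE e) :
    S.top w ∈ d.move.qon e := by
  rw [← d.pt_C h]
  exact d.move.pt_mem_qon.2 ⟨d.mem_Dp.2 (Or.inl h), he⟩

/-- a closed set containing `C`: the vertices outside have the points of `D` outside as boundary -/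
theorem qc_aux (X : Set S.Pnt)
    (hX : ∀ F x, S.Lay F → x ∈ d.move.qe → x ∈ S.On F → x ∈ X → d.move.mu' d.par F x ∈ X)
    (htop : ∀ w ∈ d.C, S.top w ∈ X) (e : Ed) :
    d.move.vq (fun x => if x ∈ X then 0 else 1) (S.en e false) +
      d.move.vq (fun x => if x ∈ X then 0 else 1) (S.en e true) =
        ∑ w ∈ d.D.filter (fun w => w ∈ S.OnE e), if S.bot w ∈ X then (0 : ZMod 2) else 1 := by
  have hpr : ∀ x ∈ d.move.qon e, x ∈ X → d.move.pr d.par e x ∈ X := by
    intro x hx hxX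
    obtain ⟨h1, h2⟩ := d.move.mem_qon.1 hx
    have h3 := hX (Sum.inr (Sum.inr e)) x (S.lay_vert e) h1 h2 hxX
    rwa [d.move.mu'_vert_qe d.par h1] at h3
  have h1 := d.move.pair_total d.par e (fun x => if x ∈ X then (0 : ZMod 2) else 1) (by
    intro x hx
    refine if_congr ?_ rfl rfl
    obtain ⟨g1, g2, g3, _⟩ := d.move.pr_spec d.par e x hx
    constructor
    · intro h
      have := hpr _ g1 h
      rwa [g3] at this
    · exact hpr x hx)
  rw [d.move.sum_qon e (fun x => if x ∈ X then (0 : ZMod 2) else 1)] at h1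
  have h2 : ∑ w ∈ d.move.Dp.filter (fun w => w ∈ S.OnE e),
      (if d.move.pt w ∈ X then (0 : ZMod 2) else 1) =
      ∑ w ∈ d.D.filter (fun w => w ∈ S.OnE e), if S.bot w ∈ X then (0 : ZMod 2) else 1 := by
    rw [d.Dp_eq, Finset.filter_union, Finset.sum_union (Finset.disjoint_filter_filter d.disj)]
    have h3 : ∑ w ∈ d.C.filter (fun w => w ∈ S.OnE e),
        (if d.move.pt w ∈ X then (0 : ZMod 2) else 1) = 0 := by
      refine Finset.sum_eq_zero fun w hw => ?_
      have hw1 := (Finset.mem_filter.1 hw).1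
      rw [d.pt_C hw1, if_pos (htop w hw1)]
    rw [h3, zero_add]
    refine Finset.sum_congr rfl fun w hw => ?_
    rw [d.pt_D (Finset.mem_filter.1 hw).1]
  rw [h2] at h1
  exact (zz_eq _ _ h1).symm

/-- all points of `D` in `X` ⟹ everything in `X` -/
theorem qc_of_D (hCon : S.Con) (X : Set S.Pnt)
    (hX : ∀ F x, S.Lay F → x ∈ d.move.qe → x ∈ S.On F → x ∈ X → d.move.mu' d.par F x ∈ X)
    (htop : ∀ w ∈ d.C, S.top w ∈ X) (hbot : ∀ w ∈ d.D, S.bot w ∈ X) :
    ∀ x ∈ d.move.qe, x ∈ X := by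
  have h1 : ∀ e, d.move.vq (fun x => if x ∈ X then 0 else 1) (S.en e false) +
      d.move.vq (fun x => if x ∈ X then 0 else 1) (S.en e true) = 0 := by
    intro e
    rw [d.qc_aux X hX htop e]
    refine Finset.sum_eq_zero fun w hw => ?_
    rw [if_pos (hbot w (Finset.mem_filter.1 hw).1)]
  have h2 : ∀ e b, S.en e b ∈ d.move.Qv → S.vert (S.en e b) ∈ X := by
    intro e b hb
    by_contra hno
    have h3 := hCon {v | d.move.vq (fun x => if x ∈ X then (0 : ZMod 2) else 1) v = 1} (by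
      intro e
      show _ = _ ↔ _ = _
      have y : ∀ p q : ZMod 2, p + q = 0 → (p = 1 ↔ q = 1) := by decide
      exact y _ _ (h1 e)) e b
    have h4 : d.move.vq (fun x => if x ∈ X then (0 : ZMod 2) else 1) (S.en e b) = 1 := by
      unfold Move.vq
      rw [if_pos hb]
      show (if S.vert (S.en e b) ∈ X then (0 : ZMod 2) else 1) = 1
      rw [if_neg hno]
    obtain ⟨w, hw⟩ := d.C_ne
    obtain ⟨e', he'⟩ := d.C_on hw
    have h5 : d.move.vq (fun x => if x ∈ X then (0 : ZMod 2) else 1) (S.en e' false) = 1 :=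
      h3 e' false h4
    have h6 : S.en e' false ∈ d.move.Qv ∧ S.vert (S.en e' false) ∉ X := by
      unfold Move.vq at h5
      split_ifs at h5 with h7
      · refine ⟨h7, fun h8 => ?_⟩
        have h9 : (if S.vert (S.en e' false) ∈ X then (0 : ZMod 2) else 1) = 1 := h5
        rw [if_pos h8] at h9
        exact zero_ne_one h9
      · exact (zero_ne_one h5).elim
    have h7 : S.vert (S.en e' false) ∈ d.move.qon e' :=
      d.move.vert_mem_qon.2 ⟨h6.1, false, rfl⟩
    obtain ⟨g1, g2, g3, g4, _⟩ := d.move.pr_spec d.par e' _ h7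
    obtain ⟨g5, g6⟩ := d.move.mem_qon.1 g1
    have h8 : S.tau e' (S.vert (S.en e' false)) = -1 / 2 := by simp [Shell.tau]
    have h9 := d.mem_qon_C hw he'
    have h10 := (g4 _ h9).1
    have h11 : S.tau e' (S.top w) = S.t w := rfl
    rw [h8, h11] at h10
    have h12 := S.t_pos he'
    have h13 := S.t_lt he'
    have h14 : S.tau e' (d.move.pr d.par e' (S.vert (S.en e' false))) ≤ S.t w := by
      by_contra hcon
      exact h10 ⟨by linarith, not_le.1 hcon⟩
    have h15 : d.move.pr d.par e' (S.vert (S.en e' false)) ∈ X := by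
      rcases d.move.qe_cases g5 with ⟨u, hu, hu2⟩ | ⟨v, hv, hv2⟩
      · rw [hu2]
        rcases d.mem_Dp.1 hu with h | h
        · rw [d.pt_C h]; exact htop u h
        · rw [d.pt_D h]; exact hbot u h
      · exfalso
        rw [hv2] at g6 g2 h14
        obtain ⟨b', hb'⟩ := S.vert_mem_vert.1 g6
        cases b'
        · exact g2 (by rw [hb'])
        · rw [← hb'] at h14
          have h16 : S.tau e' (S.vert (S.en e' true)) = 3 / 2 := by
            simp [Shell.tau, (S.en_ne e').symm]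
          rw [h16] at h14
          linarith
    have h16 := hX (Sum.inr (Sum.inr e')) _ (S.lay_vert e') g5 g6 h15
    rw [d.move.mu'_vert_qe d.par g5, g3] at h16
    exact h6.2 h16
  intro x hx
  rcases d.move.qe_cases hx with ⟨w, hw, rfl⟩ | ⟨v, hv, rfl⟩
  · rcases d.mem_Dp.1 hw with h | h
    · rw [d.pt_C h]; exact htop w h
    · rw [d.pt_D h]; exact hbot w h
  · obtain ⟨_, e, b, rfl⟩ := S.mem_vset.1 hv
    exact h2 e b hv

/-- **(QC), death of a curve** -/
theorem qc_death (hCon : S.Con) (hD : d.D = ∅) : d.move.QC d.par := by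
  intro X hX htop
  refine d.qc_of_D hCon X hX (fun w hw => htop w (d.top_qe.2 hw)) ?_
  rw [hD]
  exact fun w hw => (Finset.notMem_empty w hw).elim

/-- **(QC), slide**: `D` is connected, and two vertices outside the region are separated by `C`. -/
theorem qc_slide (hCon : S.Con)
    (hD : ∀ X : Set W, (∀ F w, k ∈ M.side F → w ∈ M.On F → w ∈ d.D → w ∈ X → d.nuD F w ∈ X) →
      ∀ w ∈ X, w ∈ d.D → ∀ w' ∈ d.D, w' ∈ X)
    (a : Vx → ZMod 2) (ha : ∀ e, a (S.en e false) + a (S.en e true) = S.par d.C e)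
    {e e' : Ed} {b b' : Bool} (h1 : d.q (S.en e b) = 0) (h2 : d.q (S.en e' b') = 0)
    (hne : a (S.en e b) ≠ a (S.en e' b')) : d.move.QC d.par := by
  intro X hX htop
  have htop' : ∀ w ∈ d.C, S.top w ∈ X := fun w hw => htop w (d.top_qe.2 hw)
  by_cases hall : ∀ w ∈ d.D, S.bot w ∈ X
  · exact d.qc_of_D hCon X hX htop' hall
  exfalso
  push Not at hall
  obtain ⟨w0, hw0, hw0X⟩ := hall
  have h3 : ∀ w ∈ d.D, S.bot w ∉ X := by
    intro w hw
    refine hD {w | S.bot w ∉ X} (fun F u g1 g2 g3 g4 => ?_) w0 hw0X hw0 w hw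
    intro h5
    apply g4
    obtain ⟨g5, g6⟩ := d.D_mem g1 g3 g2
    have h6 := hX (Sum.inr (Sum.inl ⟨F, g1⟩)) (S.bot (d.nuD F u)) (S.lay_bot _)
      (d.bot_qe.2 g5) (S.bot_mem_On.2 g6) h5
    have h7 : d.move.mu' d.par (Sum.inr (Sum.inl ⟨F, g1⟩)) (S.bot (d.nuD F u)) =
        S.bot (d.mu0 F (d.nuD F u)) := rfl
    rw [h7, d.mu0_D g5, d.D_inv g1 g3 g2] at h6
    exact h6
  have h4 : ∀ e, d.move.vq (fun x => if x ∈ X then 0 else 1) (S.en e false) +
      d.move.vq (fun x => if x ∈ X then 0 else 1) (S.en e true) = S.par d.D e := by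
    intro e
    rw [d.qc_aux X hX htop' e]
    have h5 : ∑ w ∈ d.D.filter (fun w => w ∈ S.OnE e),
        (if S.bot w ∈ X then (0 : ZMod 2) else 1) =
        ∑ w ∈ d.D.filter (fun w => w ∈ S.OnE e), (1 : ZMod 2) := by
      refine Finset.sum_congr rfl fun w hw => ?_
      rw [if_neg (h3 w (Finset.mem_filter.1 hw).1)]
    rw [h5, Finset.sum_const, nsmul_eq_mul, mul_one]
    rfl
  obtain ⟨c, hc⟩ := S.labels_unique hCon a
    (fun v => d.q v + d.move.vq (fun x => if x ∈ X then 0 else 1) v) (by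
      intro e
      have y : ∀ p q r s c d : ZMod 2, p + q = c + d → r + s = d → c = (p + r) + (q + s) := by
        decide
      rw [ha e]
      exact y _ _ _ _ _ _ (d.q_edge e) (h4 e))
  have h5 : ∀ v, d.q v = 0 → d.move.vq (fun x => if x ∈ X then (0 : ZMod 2) else 1) v = 0 := by
    intro v hv
    unfold Move.vq
    rw [if_neg]
    intro h6
    have h7 := (S.mem_vset.1 h6).1
    rw [hv] at h7
    exact zero_ne_one h7
  apply hne
  have g1 := hc e b
  have g2 := hc e' b'
  beta_reduce at g1 g2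
  rw [h1, h5 _ h1] at g1
  rw [h2, h5 _ h2] at g2
  rw [g1, g2]

end MvD

end Crest.Agent.R096.Door_501
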