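import Mathlib

/-!
Row 96 (S0127), helper862: radial extension of a near-isometric Lipschitz map of the unit sphere
(REL-1 of 628).
-/

set_option autoImplicit false

open Set Filter Topology

namespace Crest.Agent.R096.Rcn_862

noncomputable section

variable {E : Type*} [NormedAddCommGroup E] [NormedSpace ℝ E]

/-- radial extension -/
def rad (φ : E → E) (x : E) : E := ‖x‖ • φ (‖x‖⁻¹ • x)

theorem norm_unit {x : E} (hx : x ≠ 0) : ‖‖x‖⁻¹ • x‖ = 1 := by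
  rw [norm_smul, norm_inv, norm_norm, inv_mul_cancel₀ (norm_ne_zero_iff.mpr hx)]

theorem norm_unit_le (x : E) : ‖‖x‖⁻¹ • x‖ ≤ 1 := by
  by_cases hx : x = 0
  · simp [hx]
  · exact (norm_unit hx).le

theorem smul_unit (x : E) : ‖x‖ • (‖x‖⁻¹ • x) = x := by
  by_cases hx : x = 0
  · simp [hx]
  · rw [smul_smul, mul_inv_cancel₀ (norm_ne_zero_iff.mpr hx), one_smul]

/-- the radial projection is `2/‖x‖`-Lipschitz -/
theorem unit_sub (x x' : E) : ‖x‖ * ‖‖x‖⁻¹ • x - ‖x'‖⁻¹ • x'‖ ≤ 2 * ‖x - x'‖ := by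
  have e1 : ‖x‖ • (‖x‖⁻¹ • x - ‖x'‖⁻¹ • x') = (x - x') + (‖x'‖ - ‖x‖) • (‖x'‖⁻¹ • x') := by
    rw [smul_sub, smul_unit, sub_smul, smul_unit]
    abel
  have e2 : ‖x‖ * ‖‖x‖⁻¹ • x - ‖x'‖⁻¹ • x'‖ = ‖‖x‖ • (‖x‖⁻¹ • x - ‖x'‖⁻¹ • x')‖ := by
    rw [norm_smul, norm_norm]
  rw [e2, e1]
  refine (norm_add_le _ _).trans ?_
  rw [norm_smul, Real.norm_eq_abs]
  have h1 : |‖x'‖ - ‖x‖| ≤ ‖x - x'‖ := by
    rw [abs_sub_comm]
    exact abs_norm_sub_norm_le x x'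
  have h2 := norm_unit_le x'
  have h3 : |‖x'‖ - ‖x‖| * ‖‖x'‖⁻¹ • x'‖ ≤ ‖x - x'‖ * 1 :=
    mul_le_mul h1 h2 (norm_nonneg _) (norm_nonneg _)
  linarith

theorem norm_rad {φ : E → E} (h1 : ∀ y, ‖y‖ = 1 → ‖φ y‖ = 1) (x : E) : ‖rad φ x‖ = ‖x‖ := by
  by_cases hx : x = 0
  · simp [rad, hx]
  · rw [rad, norm_smul, norm_norm, h1 _ (norm_unit hx), mul_one]

/-- **REL-1 (a)** -/
theorem lip_rad {φ : E → E} {L : ℝ} (hL : 0 ≤ L) (h1 : ∀ y, ‖y‖ = 1 → ‖φ y‖ = 1)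
    (h2 : ∀ y y', ‖y‖ = 1 → ‖y'‖ = 1 → ‖φ y - φ y'‖ ≤ L * ‖y - y'‖) (x x' : E) :
    ‖rad φ x - rad φ x'‖ ≤ (1 + 2 * L) * ‖x - x'‖ := by
  by_cases hx' : x' = 0
  · subst hx'
    have e : rad φ (0 : E) = 0 := by simp [rad]
    rw [e, sub_zero, sub_zero, norm_rad h1]
    nlinarith [norm_nonneg x, mul_nonneg hL (norm_nonneg x)]
  by_cases hx : x = 0
  · subst hx
    have e : rad φ (0 : E) = 0 := by simp [rad]
    rw [e, zero_sub, zero_sub, norm_neg, norm_neg, norm_rad h1]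
    nlinarith [norm_nonneg x', mul_nonneg hL (norm_nonneg x')]
  have e1 : rad φ x - rad φ x' = (‖x‖ - ‖x'‖) • φ (‖x'‖⁻¹ • x') +
      ‖x‖ • (φ (‖x‖⁻¹ • x) - φ (‖x'‖⁻¹ • x')) := by
    simp only [rad, smul_sub, sub_smul]
    abel
  rw [e1]
  refine (norm_add_le _ _).trans ?_
  rw [norm_smul, norm_smul, norm_norm, Real.norm_eq_abs, h1 _ (norm_unit hx'), mul_one]
  have a1 : |‖x‖ - ‖x'‖| ≤ ‖x - x'‖ := abs_norm_sub_norm_le x x'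
  have a2 : ‖x‖ * ‖φ (‖x‖⁻¹ • x) - φ (‖x'‖⁻¹ • x')‖ ≤
      ‖x‖ * (L * ‖‖x‖⁻¹ • x - ‖x'‖⁻¹ • x'‖) :=
    mul_le_mul_of_nonneg_left (h2 _ _ (norm_unit hx) (norm_unit hx')) (norm_nonneg _)
  have a3 := mul_le_mul_of_nonneg_left (unit_sub x x') hL
  nlinarith

theorem tendsto_unit {x : E} (hx : x ≠ 0) :
    Tendsto (fun x' : E => ‖x'‖⁻¹ • x') (𝓝 x) (𝓝[Metric.sphere 0 1] (‖x‖⁻¹ • x)) := by
  rw [tendsto_nhdsWithin_iff]
  constructor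
  · have hc : ContinuousAt (fun x' : E => ‖x'‖⁻¹ • x') x :=
      (continuous_norm.continuousAt.inv₀ (norm_ne_zero_iff.mpr hx)).smul continuousAt_id
    exact hc
  · filter_upwards [isOpen_ne.mem_nhds hx] with x' hx'
    rw [mem_sphere_zero_iff_norm]
    exact norm_unit hx'

/-- **REL-1 (b)** -/
theorem near_rad {φ : E → E} {e : ℝ} (he : 0 ≤ e) {x : E} (hx : x ≠ 0)
    (h1 : ‖φ (‖x‖⁻¹ • x) - ‖x‖⁻¹ • x‖ ≤ e)
    (h2 : ∀ᶠ y' in 𝓝[Metric.sphere 0 1] (‖x‖⁻¹ • x),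
      ‖(φ y' - φ (‖x‖⁻¹ • x)) - (y' - ‖x‖⁻¹ • x)‖ ≤ e * ‖y' - ‖x‖⁻¹ • x‖) :
    ∀ᶠ x' in 𝓝 x, ‖(rad φ x' - rad φ x) - (x' - x)‖ ≤ 3 * e * ‖x' - x‖ := by
  filter_upwards [(tendsto_unit hx).eventually h2] with x' h
  set y := ‖x‖⁻¹ • x with hy
  set y' := ‖x'‖⁻¹ • x' with hy'
  have ex : x = ‖x‖ • y := (smul_unit x).symm
  have ex' : x' = ‖x'‖ • y' := (smul_unit x').symm
  have e1 : (rad φ x' - rad φ x) - (x' - x) = (‖x'‖ - ‖x‖) • (φ y - y) +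
      ‖x'‖ • ((φ y' - φ y) - (y' - y)) := by
    have r1 : rad φ x' = ‖x'‖ • φ y' := rfl
    have r2 : rad φ x = ‖x‖ • φ y := rfl
    have r3 : x' - x = ‖x'‖ • y' - ‖x‖ • y := by rw [← ex, ← ex']
    rw [r1, r2, r3]
    simp only [smul_sub, sub_smul]
    abel
  rw [e1]
  refine (norm_add_le _ _).trans ?_
  rw [norm_smul, norm_smul, norm_norm, Real.norm_eq_abs]
  have a1 : |‖x'‖ - ‖x‖| ≤ ‖x' - x‖ := abs_norm_sub_norm_le x' x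
  have a2 : |‖x'‖ - ‖x‖| * ‖φ y - y‖ ≤ ‖x' - x‖ * e :=
    mul_le_mul a1 h1 (norm_nonneg _) (norm_nonneg _)
  have a3 : ‖x'‖ * ‖(φ y' - φ y) - (y' - y)‖ ≤ ‖x'‖ * (e * ‖y' - y‖) :=
    mul_le_mul_of_nonneg_left h (norm_nonneg _)
  have a4 := mul_le_mul_of_nonneg_left (unit_sub x' x) he
  rw [← hy, ← hy'] at a4
  nlinarith

section Chart

variable {E' : Type*} [NormedAddCommGroup E'] [NormedSpace ℝ E']

/-- the radial extension in the linear chart `A` centred at `o` -/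
def radA (A : E ≃L[ℝ] E') (o : E') (φ : E → E) (z : E') : E' := o + A (rad φ (A.symm (z - o)))

theorem lip_radA (A : E ≃L[ℝ] E') (o : E') {φ : E → E} {L : ℝ} (hL : 0 ≤ L)
    (h1 : ∀ y, ‖y‖ = 1 → ‖φ y‖ = 1)
    (h2 : ∀ y y', ‖y‖ = 1 → ‖y'‖ = 1 → ‖φ y - φ y'‖ ≤ L * ‖y - y'‖) (z z' : E') :
    ‖radA A o φ z - radA A o φ z'‖ ≤
      ‖(A : E →L[ℝ] E')‖ * ‖(A.symm : E' →L[ℝ] E)‖ * (1 + 2 * L) * ‖z - z'‖ := by
  have e1 : radA A o φ z - radA A o φ z' =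
      (A : E →L[ℝ] E') (rad φ (A.symm (z - o)) - rad φ (A.symm (z' - o))) := by
    simp [radA, map_sub]
  rw [e1]
  refine ((A : E →L[ℝ] E').le_opNorm _).trans ?_
  have a1 := lip_rad hL h1 h2 (A.symm (z - o)) (A.symm (z' - o))
  have a2 : ‖A.symm (z - o) - A.symm (z' - o)‖ ≤ ‖(A.symm : E' →L[ℝ] E)‖ * ‖z - z'‖ := by
    have : A.symm (z - o) - A.symm (z' - o) = (A.symm : E' →L[ℝ] E) (z - z') := by
      rw [← map_sub]
      simp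
    rw [this]
    exact (A.symm : E' →L[ℝ] E).le_opNorm _
  calc ‖(A : E →L[ℝ] E')‖ * ‖rad φ (A.symm (z - o)) - rad φ (A.symm (z' - o))‖
      ≤ ‖(A : E →L[ℝ] E')‖ * ((1 + 2 * L) * (‖(A.symm : E' →L[ℝ] E)‖ * ‖z - z'‖)) := by
        gcongr
        exact a1.trans (mul_le_mul_of_nonneg_left a2 (by positivity))
    _ = _ := by ring

theorem near_radA (A : E ≃L[ℝ] E') (o : E') {φ : E → E} {e : ℝ} (he : 0 ≤ e) {z : E'}
    (hz : z ≠ o)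
    (h1 : ‖φ (‖A.symm (z - o)‖⁻¹ • A.symm (z - o)) - ‖A.symm (z - o)‖⁻¹ • A.symm (z - o)‖ ≤ e)
    (h2 : ∀ᶠ y' in 𝓝[Metric.sphere 0 1] (‖A.symm (z - o)‖⁻¹ • A.symm (z - o)),
      ‖(φ y' - φ (‖A.symm (z - o)‖⁻¹ • A.symm (z - o))) -
        (y' - ‖A.symm (z - o)‖⁻¹ • A.symm (z - o))‖ ≤
        e * ‖y' - ‖A.symm (z - o)‖⁻¹ • A.symm (z - o)‖) :
    ∀ᶠ z' in 𝓝 z, ‖(radA A o φ z' - radA A o φ z) - (z' - z)‖ ≤
      ‖(A : E →L[ℝ] E')‖ * ‖(A.symm : E' →L[ℝ] E)‖ * (3 * e) * ‖z' - z‖ := by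
  have hx : A.symm (z - o) ≠ 0 := by
    intro h
    apply hz
    have := (A.symm.map_eq_zero_iff).1 h
    exact sub_eq_zero.1 this
  have hn := near_rad he hx h1 h2
  have hc : Tendsto (fun z' : E' => A.symm (z' - o)) (𝓝 z) (𝓝 (A.symm (z - o))) :=
    (A.symm.continuous.comp (continuous_id.sub continuous_const)).continuousAt
  filter_upwards [hc.eventually hn] with z' h
  have e1 : (radA A o φ z' - radA A o φ z) - (z' - z) =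
      (A : E →L[ℝ] E') ((rad φ (A.symm (z' - o)) - rad φ (A.symm (z - o))) -
        (A.symm (z' - o) - A.symm (z - o))) := by
    simp [radA, map_sub]
  rw [e1]
  refine ((A : E →L[ℝ] E').le_opNorm _).trans ?_
  have a2 : ‖A.symm (z' - o) - A.symm (z - o)‖ ≤ ‖(A.symm : E' →L[ℝ] E)‖ * ‖z' - z‖ := by
    have : A.symm (z' - o) - A.symm (z - o) = (A.symm : E' →L[ℝ] E) (z' - z) := by
      rw [← map_sub]
      simp
    rw [this]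
    exact (A.symm : E' →L[ℝ] E).le_opNorm _
  calc ‖(A : E →L[ℝ] E')‖ * ‖(rad φ (A.symm (z' - o)) - rad φ (A.symm (z - o))) -
        (A.symm (z' - o) - A.symm (z - o))‖
      ≤ ‖(A : E →L[ℝ] E')‖ * (3 * e * (‖(A.symm : E' →L[ℝ] E)‖ * ‖z' - z‖)) := by
        gcongr
        exact h.trans (mul_le_mul_of_nonneg_left a2 (by positivity))
    _ = _ := by ring

end Chart

end

end Crest.Agent.R096.Rcn_862
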