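import Crest.Agent.R096.Vx5_270

/-!
# One step of CORE3 along a path, and the relation `Sim`

* `Fam.coreAt_of_moll` : the gluing step;
* `MPath.coreAt` : `CoreAt (K 1) → CoreAt (K 0)` for a path of conic maps in the segment class which
  is injective at one time;
* `Sim K K'` and `Sim.coreAt`.
-/

set_option autoImplicit false
set_option linter.unusedSectionVars false

open MeasureTheory Metric Set Filter Topology
open scoped ENNReal NNReal ContDiff

namespace Crest.Agent.R096.Vx_270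

open Crest.Agent.R096.Mo_119 (MollAt)

variable {E : Type*} [NormedAddCommGroup E] [NormedSpace ℝ E] [FiniteDimensional ℝ E]
  [MeasurableSpace E] [BorelSpace E]

/-- `K` is `CoreAt` if it has an extension that agrees with `K` far away -/
theorem coreAt_of_radius {μ : Measure E} [μ.IsAddHaarMeasure] {K : E → E} (hK : Hom K) {R : ℝ}
    (hR : 0 < R) {Φ : E → E} (h1 : IsHomeomorph Φ) (h2 : ∀ x, R ≤ ‖x‖ → Φ x = K x)
    (h3 : ∀ x, MollAt μ Φ x) {C : ℝ≥0} (h4 : LipschitzWith C Φ) : CoreAt μ K := by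
  have hR' : 0 < R⁻¹ := inv_pos.2 hR
  have e : ∀ x : E, R⁻¹ • Φ ((R⁻¹)⁻¹ • x) = R⁻¹ • Φ (R • x) := fun x => by rw [inv_inv]
  refine ⟨fun x => R⁻¹ • Φ ((R⁻¹)⁻¹ • x), ?_, ?_, ?_, C, ?_⟩
  · have hs1 : IsHomeomorph (fun x : E => R⁻¹ • x) :=
      (Homeomorph.smulOfNeZero R⁻¹ hR'.ne').isHomeomorph
    have hs2 : IsHomeomorph (fun x : E => (R⁻¹)⁻¹ • x) :=
      (Homeomorph.smulOfNeZero (R⁻¹)⁻¹ (inv_pos.2 hR').ne').isHomeomorph
    exact hs1.comp (h1.comp hs2)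
  · intro x hx
    show R⁻¹ • Φ ((R⁻¹)⁻¹ • x) = K x
    rw [e, h2, hK _ _ hR, smul_smul, inv_mul_cancel₀ hR.ne', one_smul]
    rw [norm_smul, Real.norm_eq_abs, abs_of_pos hR]
    nlinarith
  · intro x
    exact MollAt.rescale hR' (h3 _)
  · refine LipschitzWith.of_dist_le_mul fun x y => ?_
    rw [e, e, dist_eq_norm, dist_eq_norm, ← smul_sub, norm_smul, Real.norm_eq_abs,
      abs_of_pos hR']
    have h := h4.dist_le_mul (R • x) (R • y)
    rw [dist_eq_norm, dist_eq_norm, ← smul_sub, norm_smul, Real.norm_eq_abs, abs_of_pos hR] at h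
    calc R⁻¹ * ‖Φ (R • x) - Φ (R • y)‖ ≤ R⁻¹ * (C * (R * ‖x - y‖)) := by gcongr
      _ = C * ‖x - y‖ := by field_simp

/-- **The gluing step.** -/
theorem Fam.coreAt_of_moll (F : Fam E) {μ : Measure E} [μ.IsAddHaarMeasure] {η : ℝ} (hη : 0 < η)
    (hU : ∀ (τ : ℝ → ℝ) (ε : ℝ), Slow τ ε → 3 * F.M * ε ≤ η → ∀ x, x ≠ 0 → MollAt μ (F.phi τ) x)
    (h1 : CoreAt μ (F.K 1)) (hN : ∀ x, F.G.N x = ‖x‖) : CoreAt μ (F.K 0) := by
  obtain ⟨Φ', hΦh, hΦK, hΦM, C', hC'⟩ := h1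
  have hM := F.M_pos
  -- choice of the slope
  obtain ⟨ε, hε, hε1, hε2⟩ : ∃ ε > 0, ε * F.M ^ 4 ≤ 1 / 4 ∧ 3 * F.M * ε ≤ η := by
    refine ⟨min (1 / 4 / F.M ^ 4) (η / (3 * F.M)), by positivity, ?_, ?_⟩
    · have := min_le_left (1 / 4 / F.M ^ 4) (η / (3 * F.M))
      rwa [le_div_iff₀ (by positivity)] at this
    · have := min_le_right (1 / 4 / F.M ^ 4) (η / (3 * F.M))
      rw [le_div_iff₀ (by positivity)] at this
      linarith
  have hτ : Slow (cut ε) ε := cut_slow hε.le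
  set ρ₁ := Real.exp (-ε⁻¹) with hρ₁
  have hρ₁0 : 0 < ρ₁ := Real.exp_pos _
  have hρ₁1 : ρ₁ < 1 := by
    rw [hρ₁, Real.exp_lt_one_iff]
    have := inv_pos.2 hε
    linarith
  set ρ := ρ₁ / 2 with hρ
  have hρ0 : 0 < ρ := half_pos hρ₁0
  -- the interpolated homeomorphism
  set Φ₀ : E ≃ₜ E := F.homeo hτ hε1 with hΦ₀
  have hΦ₀a : ∀ x, Φ₀ x = F.phi (cut ε) x := fun x => rfl
  have hout : ∀ x, 1 ≤ ‖x‖ → Φ₀ x = F.K 0 x := by
    intro x hx
    rw [hΦ₀a, Fam.phi, Fam.par, cut_of_nonneg hε.le]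
    rw [hN]
    exact Real.log_nonneg hx
  have hin : ∀ x, ‖x‖ ≤ ρ₁ → Φ₀ x = F.K 1 x := by
    intro x hx
    rcases eq_or_ne x 0 with h0 | h0
    · subst h0
      rw [hΦ₀a, F.phi_zero, F.K_zero]
    · have hn : 0 < ‖x‖ := norm_pos_iff.2 h0
      rw [hΦ₀a, Fam.phi, Fam.par, cut_of_le hε]
      rw [hN, Real.log_le_iff_le_exp hn]
      exact hx
  -- the homeomorphism Θ
  set Θ : E → E := fun x => F.J 1 (ρ • Φ' (ρ⁻¹ • x)) with hΘ
  have hsc : ∀ x : E, ‖ρ⁻¹ • x‖ = ρ⁻¹ * ‖x‖ := fun x => by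
    rw [norm_smul, Real.norm_eq_abs, abs_of_pos (inv_pos.2 hρ0)]
  have hΘout : ∀ x, ρ ≤ ‖x‖ → Θ x = x := by
    intro x hx
    have h2 : 1 ≤ ‖ρ⁻¹ • x‖ := by
      rw [hsc]
      have := mul_le_mul_of_nonneg_left hx (inv_pos.2 hρ0).le
      rwa [inv_mul_cancel₀ hρ0.ne'] at this
    simp only [hΘ]
    rw [hΦK _ h2, ← F.hom 1 _ _ hρ0, smul_smul, mul_inv_cancel₀ hρ0.ne', one_smul, F.JK]
  have hΘh : IsHomeomorph Θ := by
    have hJ : IsHomeomorph (F.J 1) := by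
      have hcJ : LipschitzWith ⟨F.M, hM.le⟩ (F.J 1) := LipschitzWith.of_dist_le_mul fun x y => by
        rw [dist_eq_norm, dist_eq_norm]; exact F.lipJ 1 x y
      have hcK : LipschitzWith ⟨F.M, hM.le⟩ (F.K 1) := LipschitzWith.of_dist_le_mul fun x y => by
        rw [dist_eq_norm, dist_eq_norm]; exact F.lipK 1 x y
      exact (Homeomorph.mk ⟨F.J 1, F.K 1, F.KJ 1, F.JK 1⟩ hcJ.continuous
        hcK.continuous).isHomeomorph
    have hs1 : IsHomeomorph (fun x : E => ρ • x) :=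
      (Homeomorph.smulOfNeZero ρ hρ0.ne').isHomeomorph
    have hs2 : IsHomeomorph (fun x : E => ρ⁻¹ • x) :=
      (Homeomorph.smulOfNeZero ρ⁻¹ (inv_pos.2 hρ0).ne').isHomeomorph
    exact hJ.comp (hs1.comp (hΦh.comp hs2))
  have hΘL : LipschitzWith (⟨F.M, hM.le⟩ * C') Θ := by
    refine LipschitzWith.of_dist_le_mul fun x y => ?_
    rw [dist_eq_norm, dist_eq_norm]
    have h2 := F.lipJ 1 (ρ • Φ' (ρ⁻¹ • x)) (ρ • Φ' (ρ⁻¹ • y))
    have h3 := hC'.dist_le_mul (ρ⁻¹ • x) (ρ⁻¹ • y)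
    rw [dist_eq_norm, dist_eq_norm, ← smul_sub, hsc] at h3
    rw [← smul_sub, norm_smul, Real.norm_eq_abs, abs_of_pos hρ0] at h2
    calc ‖Θ x - Θ y‖ ≤ F.M * (ρ * ‖Φ' (ρ⁻¹ • x) - Φ' (ρ⁻¹ • y)‖) := h2
      _ ≤ F.M * (ρ * (C' * (ρ⁻¹ * ‖x - y‖))) := by gcongr
      _ = F.M * C' * ‖x - y‖ := by field_simp
  have hΘball : ∀ x, ‖x‖ < ρ → ‖Θ x‖ < ρ := by
    intro x hx
    by_contra hcon
    push Not at hcon
    have h2 : Θ (Θ x) = Θ x := hΘout _ hcon
    have h3 := hΘh.injective h2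
    rw [h3] at hcon
    linarith
  refine ⟨fun x => Φ₀ (Θ x), Φ₀.isHomeomorph.comp hΘh, ?_, ?_, ?_⟩
  · intro x hx
    show Φ₀ (Θ x) = F.K 0 x
    rw [hΘout x (by linarith), hout x hx]
  · intro x
    rcases lt_or_ge ‖x‖ ρ₁ with hx | hx
    · -- inner ball
      have hev : (fun y => ρ • Φ' (ρ⁻¹ • y)) =ᶠ[𝓝 x] fun y => Φ₀ (Θ y) := by
        have : ∀ᶠ y in 𝓝 x, ‖y‖ < ρ₁ := (isOpen_lt continuous_norm continuous_const).mem_nhds hx
        filter_upwards [this] with y hy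
        have h2 : ‖Θ y‖ ≤ ρ₁ := by
          rcases lt_or_ge ‖y‖ ρ with hy' | hy'
          · exact (hΘball y hy').le.trans (by linarith)
          · rw [hΘout y hy']; exact hy.le
        rw [hin _ h2]
        simp only [hΘ]
        rw [F.KJ]
      exact MollAt.congr (MollAt.rescale hρ0 (hΦM _)) hev
    · -- outside
      have hρx : ρ < ‖x‖ := by linarith
      have hx0 : x ≠ 0 := by
        rw [← norm_pos_iff]; linarith
      have hev : F.phi (cut ε) =ᶠ[𝓝 x] fun y => Φ₀ (Θ y) := by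
        have : ∀ᶠ y in 𝓝 x, ρ < ‖y‖ := (isOpen_lt continuous_const continuous_norm).mem_nhds hρx
        filter_upwards [this] with y hy
        rw [hΘout y hy.le, hΦ₀a]
      exact MollAt.congr (hU (cut ε) ε hτ hε2 x hx0) hev
  · exact ⟨_, (F.lipschitz_phi hτ).comp hΘL⟩

/-- clamping to `[0,1]` -/
noncomputable def clamp (t : ℝ) : ℝ := max 0 (min 1 t)

lemma clamp_mem (t : ℝ) : clamp t ∈ Icc (0 : ℝ) 1 :=
  ⟨le_max_left _ _, max_le zero_le_one (min_le_left _ _)⟩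

lemma clamp_of_mem {t : ℝ} (ht : t ∈ Icc (0 : ℝ) 1) : clamp t = t := by
  rw [clamp, min_eq_right ht.2, max_eq_right ht.1]

lemma abs_clamp_sub (s t : ℝ) : |clamp s - clamp t| ≤ |s - t| := by
  unfold clamp
  refine (abs_max_sub_max_le_max _ _ _ _).trans ?_
  rw [sub_self, abs_zero]
  refine max_le (abs_nonneg _) ?_
  refine (abs_min_sub_min_le_max _ _ _ _).trans ?_
  rw [sub_self, abs_zero]
  exact max_le (abs_nonneg _) le_rfl

/-- the family of a path -/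
theorem MPath.exists_fam {K : ℝ → E → E} {M : ℝ} (h : MPath K M)
    (hE : 1 < Module.finrank ℝ E) {t₁ : ℝ} (ht₁ : t₁ ∈ Icc (0 : ℝ) 1)
    (hinj : Function.Injective (K t₁)) :
    ∃ F : Fam E, (∀ t, F.K t = K (clamp t)) ∧ (∀ x, F.G.N x = ‖x‖) ∧
      ∃ q > 0, ∀ t₀ : ℝ, ∀ x₀ : E, x₀ ≠ 0 → ∃ r > 0, ∃ C : Set (E →L[ℝ] E), GoodQ q C ∧
        ∀ t, |t - t₀| < r → Seg C (F.K t) (ball x₀ r) := by
  have hall := h.injective_all ht₁ hinj
  obtain ⟨q, hq, hq1, hu⟩ := h.unif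
  have hU : ∀ t ∈ Icc (0 : ℝ) 1, Unif q (K t) := fun t ht x₀ hx₀ => by
    obtain ⟨C, hC, hs⟩ := hu t ht x₀ hx₀
    exact ⟨C, hC, hs t ht (by rw [sub_self, abs_zero]; exact hq)⟩
  have hbij : ∀ t, Function.Bijective (K (clamp t)) := fun t =>
    ⟨hall _ (clamp_mem t), (hU _ (clamp_mem t)).surjective hE hq hq1 (h.hom _ (clamp_mem t))⟩
  set e : ℝ → E ≃ E := fun t => Equiv.ofBijective _ (hbij t) with he
  have hJK : ∀ t x, (e t).symm (K (clamp t) x) = x := fun t x => (e t).symm_apply_apply x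
  have hKJ : ∀ t x, K (clamp t) ((e t).symm x) = x := fun t x => (e t).apply_symm_apply x
  set M' : ℝ := max (max (2 / q ^ 2) (32 / q ^ 2)) (max |M| 1) with hM'
  have hM1 : 2 / q ^ 2 ≤ M' := (le_max_left _ _).trans (le_max_left _ _)
  have hM2 : 32 / q ^ 2 ≤ M' := (le_max_right _ _).trans (le_max_left _ _)
  have hM3 : M ≤ M' := (le_abs_self M).trans ((le_max_left _ _).trans (le_max_right _ _))
  have hM4 : 1 ≤ M' := (le_max_right _ _).trans (le_max_right _ _)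
  refine ⟨⟨fun t => K (clamp t), fun t => (e t).symm, M', hM4,
    fun t => h.hom _ (clamp_mem t), hJK, hKJ, ?_, ?_, ?_, Gauge.ofNorm E⟩, fun _ => rfl,
    fun _ => rfl, q, hq, ?_⟩
  · intro t x y
    exact ((hU _ (clamp_mem t)).lip hq hq1 (h.hom _ (clamp_mem t)) x y).trans
      (mul_le_mul_of_nonneg_right hM1 (norm_nonneg _))
  · intro t x y
    have h1 := (hU _ (clamp_mem t)).antilip hq hq1 (h.hom _ (clamp_mem t)) (hall _ (clamp_mem t))
      ((e t).symm x) ((e t).symm y)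
    rw [hKJ, hKJ] at h1
    have h2 : ‖(e t).symm x - (e t).symm y‖ ≤ 32 / q ^ 2 * ‖x - y‖ := by
      rw [div_mul_eq_mul_div, le_div_iff₀ (by positivity)]
      have h3 := mul_le_mul_of_nonneg_left h1 (by norm_num : (0:ℝ) ≤ 32)
      calc ‖(e t).symm x - (e t).symm y‖ * q ^ 2 =
            32 * (q ^ 2 / 32 * ‖(e t).symm x - (e t).symm y‖) := by ring
        _ ≤ 32 * ‖x - y‖ := h3
    exact h2.trans (mul_le_mul_of_nonneg_right hM2 (norm_nonneg _))
  · intro s t x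
    refine (h.lipt _ (clamp_mem s) _ (clamp_mem t) x).trans ?_
    refine mul_le_mul_of_nonneg_right ?_ (norm_nonneg _)
    exact mul_le_mul hM3 (abs_clamp_sub s t) (abs_nonneg _) (by linarith)
  · intro t₀ x₀ hx₀
    have hn : 0 < ‖x₀‖ := norm_pos_iff.2 hx₀
    obtain ⟨C, hC, hs⟩ := hu (clamp t₀) (clamp_mem t₀) (‖x₀‖⁻¹ • x₀) (by
      rw [norm_smul, norm_inv, norm_norm, inv_mul_cancel₀ hn.ne'])
    refine ⟨min q (‖x₀‖ * q), lt_min hq (by positivity), C, hC, fun t ht => ?_⟩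
    have h1 := (hs (clamp t) (clamp_mem t)
      ((abs_clamp_sub t t₀).trans_lt (ht.trans_le (min_le_left _ _)))).scale
      (h.hom _ (clamp_mem t)) hn
    rw [smul_smul, mul_inv_cancel₀ hn.ne', one_smul] at h1
    exact h1.mono subset_rfl (ball_subset_ball (min_le_right _ _))

/-- **One step of CORE3 along a path.** -/
theorem MPath.coreAt {μ : Measure E} [μ.IsAddHaarMeasure] {K : ℝ → E → E} {M : ℝ}
    (h : MPath K M) (hE : 1 < Module.finrank ℝ E) {t₁ : ℝ} (ht₁ : t₁ ∈ Icc (0 : ℝ) 1)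
    (hinj : Function.Injective (K t₁)) (h1 : CoreAt μ (K 1)) : CoreAt μ (K 0) := by
  have : ProperSpace (E →L[ℝ] E) := FiniteDimensional.proper_real _
  obtain ⟨F, hF, hN, q, hq, hs⟩ := h.exists_fam hE ht₁ hinj
  have e1 : F.K 1 = K 1 := by rw [hF, clamp_of_mem (right_mem_Icc.2 zero_le_one)]
  have e0 : F.K 0 = K 0 := by rw [hF, clamp_of_mem (left_mem_Icc.2 zero_le_one)]
  rw [← e0]
  rw [← e1] at h1
  refine F.coreAt_of_moll hq ?_ h1 hN
  intro τ ε hτ hε x hx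
  obtain ⟨r, hr, C, hC, hseg⟩ := hs (F.par τ x) x hx
  obtain ⟨r', hr', h2⟩ := F.seg_phi hτ hx hr hseg
  refine mollAt_of_seg (C := cthickening q C) ⟨hC.conv.cthickening q, hC.cpt.cthickening,
    hC.thick⟩ hr' (h2.mono (cthickening_mono hε C) subset_rfl)

/-- the conic maps of a path are homeomorphisms -/
theorem MPath.isHomeomorph {K : ℝ → E → E} {M : ℝ}
    (h : MPath K M) (hE : 1 < Module.finrank ℝ E) {t₁ : ℝ} (ht₁ : t₁ ∈ Icc (0 : ℝ) 1)
    (hinj : Function.Injective (K t₁)) {t : ℝ} (ht : t ∈ Icc (0 : ℝ) 1) :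
    IsHomeomorph (K t) := by
  obtain ⟨F, hF, -⟩ := h.exists_fam hE ht₁ hinj
  have e1 : F.K t = K t := by rw [hF, clamp_of_mem ht]
  rw [← e1]
  have hM := F.M_pos
  have hcJ : LipschitzWith ⟨F.M, hM.le⟩ (F.J t) := LipschitzWith.of_dist_le_mul fun x y => by
    rw [dist_eq_norm, dist_eq_norm]; exact F.lipJ t x y
  have hcK : LipschitzWith ⟨F.M, hM.le⟩ (F.K t) := LipschitzWith.of_dist_le_mul fun x y => by
    rw [dist_eq_norm, dist_eq_norm]; exact F.lipK t x y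
  exact (Homeomorph.mk ⟨F.K t, F.J t, F.JK t, F.KJ t⟩ hcK.continuous
    hcJ.continuous).isHomeomorph

/-! ### the relation `Sim` -/

/-- near every point of the unit sphere both maps satisfy the segment condition with one good
set -/
def Sim (K K' : E → E) : Prop :=
  ∀ x₀ : E, ‖x₀‖ = 1 → ∃ r > 0, ∃ C : Set (E →L[ℝ] E), Good C ∧ Seg C K (ball x₀ r) ∧
    Seg C K' (ball x₀ r)

lemma Sim.symm {K K' : E → E} (h : Sim K K') : Sim K' K := fun x₀ hx₀ =>
  let ⟨r, hr, C, hC, h1, h2⟩ := h x₀ hx₀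
  ⟨r, hr, C, hC, h2, h1⟩

/-- a conic map which is continuous on the unit sphere is bounded by a multiple of the norm -/
lemma Hom.bound {K : E → E} (hK : Hom K) (hc : ContinuousOn K (sphere (0 : E) 1)) :
    ∃ B : ℝ, 0 ≤ B ∧ ∀ x, ‖K x‖ ≤ B * ‖x‖ := by
  have : ProperSpace E := FiniteDimensional.proper_real _
  obtain ⟨B, hB⟩ := (isCompact_sphere (0 : E) 1).exists_bound_of_continuousOn hc
  refine ⟨max B 0, le_max_right _ _, fun x => ?_⟩
  rcases eq_or_ne x 0 with hx | hx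
  · subst hx; simp [hK.zero]
  · have hn : 0 < ‖x‖ := norm_pos_iff.2 hx
    have h1 := hB (‖x‖⁻¹ • x) (by
      rw [mem_sphere_zero_iff_norm, norm_smul, norm_inv, norm_norm, inv_mul_cancel₀ hn.ne'])
    rw [hK _ _ (inv_pos.2 hn), norm_smul, norm_inv, norm_norm, inv_mul_le_iff₀ hn] at h1
    calc ‖K x‖ ≤ ‖x‖ * B := h1
      _ ≤ max B 0 * ‖x‖ := by
          rw [mul_comm]; exact mul_le_mul_of_nonneg_right (le_max_left _ _) (norm_nonneg _)

/-- the straight path between two maps -/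
theorem Sim.mpath {K K' : E → E} (h : Sim K K') (hK : Hom K) (hK' : Hom K') :
    ∃ M, MPath (fun t x => (1 - t) • K x + t • K' x) M := by
  have hcont : ∀ K K' : E → E, Sim K K' → ContinuousOn K (sphere (0 : E) 1) := by
    intro K K' h x hx
    rw [mem_sphere_zero_iff_norm] at hx
    obtain ⟨r, hr, C, hC, h1, -⟩ := h x hx
    obtain ⟨L, hL⟩ := exists_norm_le hC.cpt
    exact (((h1.lipschitz hL).continuousOn).continuousAt (ball_mem_nhds x hr)).continuousWithinAt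
  obtain ⟨B, hB0, hB⟩ := hK.bound (hcont K K' h)
  obtain ⟨B', hB'0, hB'⟩ := hK'.bound (hcont K' K h.symm)
  refine ⟨B + B', ?_, ?_, ?_⟩
  · intro t _ c x hc
    show (1 - t) • K (c • x) + t • K' (c • x) = c • ((1 - t) • K x + t • K' x)
    rw [hK _ _ hc, hK' _ _ hc, smul_add, smul_comm c (1 - t), smul_comm c t]
  · intro s _ t _ x
    have e : (1 - s) • K x + s • K' x - ((1 - t) • K x + t • K' x) = (s - t) • (K' x - K x) := by
      simp only [sub_smul, one_smul, smul_sub]; abel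
    show ‖(1 - s) • K x + s • K' x - ((1 - t) • K x + t • K' x)‖ ≤ _
    rw [e, norm_smul, Real.norm_eq_abs]
    have h1 : ‖K' x - K x‖ ≤ (B + B') * ‖x‖ := by
      refine (norm_sub_le _ _).trans ?_
      have := hB x
      have := hB' x
      linarith [add_mul B B' ‖x‖]
    calc |s - t| * ‖K' x - K x‖ ≤ |s - t| * ((B + B') * ‖x‖) :=
          mul_le_mul_of_nonneg_left h1 (abs_nonneg _)
      _ = (B + B') * |s - t| * ‖x‖ := by ring
  · intro t₀ _ x₀ hx₀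
    obtain ⟨r, hr, C, hC, h1, h2⟩ := h x₀ hx₀
    refine ⟨r, hr, C, hC, fun t ht _ a ha b hb => ?_⟩
    obtain ⟨A, hA, e⟩ := h1 a ha b hb
    obtain ⟨A', hA', e'⟩ := h2 a ha b hb
    refine ⟨(1 - t) • A + t • A', hC.conv hA hA' (sub_nonneg.2 ht.2) ht.1 (by ring), ?_⟩
    show (1 - t) • K a + t • K' a - ((1 - t) • K b + t • K' b) = (1 - t) • A (a - b) + t • A' (a - b)
    rw [← e, ← e', smul_sub, smul_sub]
    abel

/-- **`CoreAt` is invariant under `Sim`.** -/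
theorem Sim.coreAt {μ : Measure E} [μ.IsAddHaarMeasure] (hE : 1 < Module.finrank ℝ E)
    {K K' : E → E} (hK : Hom K) (hK' : Hom K') (hinj : Function.Injective K) (h : Sim K K') :
    IsHomeomorph K' ∧ (CoreAt μ K' ↔ CoreAt μ K) := by
  obtain ⟨M, hM⟩ := h.mpath hK hK'
  have h0 : (fun x => (1 - (0:ℝ)) • K x + (0:ℝ) • K' x) = K := by funext x; simp
  have h1 : (fun x => (1 - (1:ℝ)) • K x + (1:ℝ) • K' x) = K' := by funext x; simp
  have hinj0 : Function.Injective ((fun t x => (1 - t) • K x + t • K' x) (0:ℝ)) := by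
    show Function.Injective (fun x => (1 - (0:ℝ)) • K x + (0:ℝ) • K' x)
    rw [h0]; exact hinj
  have hK'h : IsHomeomorph K' := by
    have := hM.isHomeomorph hE (left_mem_Icc.2 zero_le_one) hinj0 (right_mem_Icc.2 zero_le_one)
    rwa [h1] at this
  refine ⟨hK'h, fun hc => ?_, fun hc => ?_⟩
  · have := hM.coreAt (μ := μ) hE (left_mem_Icc.2 zero_le_one) hinj0 (by
      rw [h1]; exact hc)
    rwa [h0] at this
  · obtain ⟨M', hM'⟩ := h.symm.mpath hK' hK
    have h0' : (fun x => (1 - (0:ℝ)) • K' x + (0:ℝ) • K x) = K' := by funext x; simp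
    have h1' : (fun x => (1 - (1:ℝ)) • K' x + (1:ℝ) • K x) = K := by funext x; simp
    have hinj1 : Function.Injective ((fun t x => (1 - t) • K' x + t • K x) (1:ℝ)) := by
      show Function.Injective (fun x => (1 - (1:ℝ)) • K' x + (1:ℝ) • K x)
      rw [h1']; exact hinj
    have := hM'.coreAt (μ := μ) hE (right_mem_Icc.2 zero_le_one) hinj1 (by
      rw [h1']; exact hc)
    rwa [h0'] at this

end Crest.Agent.R096.Vx_270
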