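import Crest.Agent.R096.Hm3_695
import Crest.Agent.R096.Vx6_270

/-!
# C3-RED, part 1 (helper695, row 96 P5): smooth conic diffeomorphisms, linear homotopies, paths

`SC H` : `H` is a conic homeomorphism, smooth off `0`, with positive Jacobian.
-/

set_option autoImplicit false

open MeasureTheory Metric Set Filter Topology
open scoped NNReal ContDiff

namespace Crest.Agent.R096.Rd_695

open Crest.Agent.R096.Vx_270 (Seg Good Sim CoreAt)
open Crest.Agent.R096.Hm_695 (Conic Conic.fderiv_smul Conic.zero)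

variable {E : Type*} [NormedAddCommGroup E] [InnerProductSpace ℝ E] [FiniteDimensional ℝ E]

/-- smooth conic diffeomorphism -/
structure SC (H : E → E) : Prop where
  conic : Conic H
  smooth : ContDiffOn ℝ ∞ H {0}ᶜ
  det : ∀ x, x ≠ 0 → 0 < (fderiv ℝ H x).det
  homeo : IsHomeomorph H

omit [FiniteDimensional ℝ E] in
lemma SC.contDiffAt {H : E → E} (h : SC H) {x : E} (hx : x ≠ 0) : ContDiffAt ℝ ∞ H x :=
  h.smooth.contDiffAt (isOpen_compl_singleton.mem_nhds hx)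

omit [FiniteDimensional ℝ E] in
lemma SC.differentiableAt {H : E → E} (h : SC H) {x : E} (hx : x ≠ 0) : DifferentiableAt ℝ H x :=
  (h.contDiffAt hx).differentiableAt (by simp)

omit [FiniteDimensional ℝ E] in
lemma SC.ne_zero {H : E → E} (h : SC H) {x : E} (hx : x ≠ 0) : H x ≠ 0 := fun he =>
  hx (h.homeo.injective (by rw [he, h.conic.zero]))

omit [FiniteDimensional ℝ E] in
/-- Euler's identity -/
lemma euler {H : E → E} (hc : Conic H) {x : E} (hd : DifferentiableAt ℝ H x) :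
    fderiv ℝ H x x = H x := by
  have h1 : HasDerivAt (fun t : ℝ => H (t • x)) (fderiv ℝ H x x) 1 := by
    have h2 : HasDerivAt (fun t : ℝ => t • x) x 1 := by
      simpa using (hasDerivAt_id (1:ℝ)).smul_const x
    have h3 : HasFDerivAt H (fderiv ℝ H x) ((1:ℝ) • x) := by
      rw [one_smul]; exact hd.hasFDerivAt
    exact h3.comp_hasDerivAt (1:ℝ) h2
  have h2 : HasDerivAt (fun t : ℝ => H (t • x)) (H x) 1 := by
    have h3 : HasDerivAt (fun t : ℝ => t • H x) (H x) 1 := by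
      simpa using (hasDerivAt_id (1:ℝ)).smul_const (H x)
    refine h3.congr_of_eventuallyEq ?_
    filter_upwards [Ioi_mem_nhds (show (0:ℝ) < 1 from one_pos)] with t ht
    exact hc t (le_of_lt ht) x
  exact h1.unique h2

omit [FiniteDimensional ℝ E] in
lemma inj_of_det {A : E →L[ℝ] E} [FiniteDimensional ℝ E] (hA : A.det ≠ 0) {v : E} (hv : A v = 0) :
    v = 0 := by
  apply (A.toContinuousLinearEquivOfDetNeZero hA).injective
  rw [ContinuousLinearMap.toContinuousLinearEquivOfDetNeZero_apply,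
    ContinuousLinearMap.toContinuousLinearEquivOfDetNeZero_apply, hv, map_zero]

omit [FiniteDimensional ℝ E] in
lemma det_ne_of_inj {A : E →L[ℝ] E} [FiniteDimensional ℝ E] (hA : ∀ v, A v = 0 → v = 0) :
    A.det ≠ 0 := by
  have h1 : Function.Injective (A : E →ₗ[ℝ] E) := by
    rw [← LinearMap.ker_eq_bot, LinearMap.ker_eq_bot']
    exact fun m hm => hA m hm
  have h2 : IsUnit (A : E →ₗ[ℝ] E) := (LinearMap.isUnit_iff_ker_eq_bot _).2
    (LinearMap.ker_eq_bot.2 h1)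
  exact (LinearMap.isUnit_iff_isUnit_det _).1 h2 |>.ne_zero

/-- `Seg` from a derivative bound -/
lemma seg_of_fderiv {C : Set (E →L[ℝ] E)} (hC : Convex ℝ C) (hCc : IsClosed C) {f : E → E}
    {B : Set E} (hB : Convex ℝ B) (hf : ∀ z ∈ B, ContDiffAt ℝ 1 f z)
    (hm : ∀ z ∈ B, fderiv ℝ f z ∈ C) : Seg C f B := fun _ ha _ hb =>
  Mo_119.exists_seg hB hC hCc hf hm ha hb

/-- **Linear homotopy**: two `C^1` conic maps whose derivatives span a segment of positive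
determinant at every point are `Sim`. -/
theorem sim_of_segment {K K' : E → E} (hK : ContDiffOn ℝ 1 K {0}ᶜ) (hK' : ContDiffOn ℝ 1 K' {0}ᶜ)
    (hdet : ∀ x, x ≠ 0 → ∀ s ∈ Icc (0:ℝ) 1,
      0 < ((1 - s) • fderiv ℝ K x + s • fderiv ℝ K' x).det) : Sim K K' := by
  intro x₀ hx₀
  have hne : x₀ ≠ 0 := by
    rintro rfl; simp at hx₀
  have hps : ProperSpace (E →L[ℝ] E) := FiniteDimensional.proper_real _
  have hK1 : ∀ x, x ≠ 0 → ContDiffAt ℝ 1 K x := fun x hx =>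
    hK.contDiffAt (isOpen_compl_singleton.mem_nhds hx)
  have hK1' : ∀ x, x ≠ 0 → ContDiffAt ℝ 1 K' x := fun x hx =>
    hK'.contDiffAt (isOpen_compl_singleton.mem_nhds hx)
  set S : Set (E →L[ℝ] E) := segment ℝ (fderiv ℝ K x₀) (fderiv ℝ K' x₀) with hS
  have hSc : IsCompact S := by
    rw [hS, segment_eq_image]
    exact isCompact_Icc.image (by fun_prop)
  have hSd : ∀ A ∈ S, 0 < A.det := by
    rw [hS, segment_eq_image]
    rintro _ ⟨s, hs, rfl⟩
    exact hdet x₀ hne s hs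
  obtain ⟨t, ht, htS⟩ := Mo_119.exists_tol hSc hSd
  have hc1 : ∀ᶠ x in 𝓝 x₀, fderiv ℝ K x ∈ ball (fderiv ℝ K x₀) t :=
    ((hK1 x₀ hne).continuousAt_fderiv one_ne_zero).eventually (ball_mem_nhds _ ht)
  have hc2 : ∀ᶠ x in 𝓝 x₀, fderiv ℝ K' x ∈ ball (fderiv ℝ K' x₀) t :=
    ((hK1' x₀ hne).continuousAt_fderiv one_ne_zero).eventually (ball_mem_nhds _ ht)
  have hc3 : ∀ᶠ x in 𝓝 x₀, x ≠ 0 := isOpen_ne.mem_nhds hne
  obtain ⟨r, hr, hb⟩ := Metric.eventually_nhds_iff_ball.1 (hc1.and (hc2.and hc3))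
  have hSconv : Convex ℝ S := convex_segment _ _
  have hTconv : Convex ℝ (cthickening t S) := hSconv.cthickening t
  have hl : fderiv ℝ K x₀ ∈ S := left_mem_segment ℝ _ _
  have hr' : fderiv ℝ K' x₀ ∈ S := right_mem_segment ℝ _ _
  have hm1 : ∀ z ∈ ball x₀ r, fderiv ℝ K z ∈ cthickening t S := fun z hz =>
    mem_cthickening_of_dist_le (fderiv ℝ K z) (fderiv ℝ K x₀) t S hl
      (mem_ball.1 (hb z hz).1).le
  have hm2 : ∀ z ∈ ball x₀ r, fderiv ℝ K' z ∈ cthickening t S := fun z hz =>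
    mem_cthickening_of_dist_le (fderiv ℝ K' z) (fderiv ℝ K' x₀) t S hr'
      (mem_ball.1 (hb z hz).2.1).le
  refine ⟨r, hr, cthickening t S, ⟨hTconv, hSc.cthickening, fun A hA => (htS A hA).1⟩, ?_, ?_⟩
  · exact seg_of_fderiv hTconv isClosed_cthickening (convex_ball x₀ r)
      (fun z hz => hK1 z (hb z hz).2.2) hm1
  · exact seg_of_fderiv hTconv isClosed_cthickening (convex_ball x₀ r)
      (fun z hz => hK1' z (hb z hz).2.2) hm2

/-- nearby members of a path with continuous derivative are `Sim` -/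
theorem sim_of_path {K : ℝ → E → E} (hK : ∀ t ∈ Icc (0:ℝ) 1, ContDiffOn ℝ 1 (K t) {0}ᶜ)
    (hcont : ContinuousOn (fun p : ℝ × E => fderiv ℝ (K p.1) p.2) (Icc 0 1 ×ˢ {0}ᶜ))
    (hdet : ∀ t ∈ Icc (0:ℝ) 1, ∀ x, x ≠ 0 → 0 < (fderiv ℝ (K t) x).det)
    {t₀ : ℝ} (ht₀ : t₀ ∈ Icc (0:ℝ) 1) :
    ∃ ε > 0, ∀ t ∈ Icc (0:ℝ) 1, |t - t₀| < ε → Sim (K t₀) (K t) := by
  have hps : ProperSpace (E →L[ℝ] E) := FiniteDimensional.proper_real _
  have hps' : ProperSpace E := FiniteDimensional.proper_real _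
  -- local statement
  have hloc : ∀ x₀ ∈ sphere (0:E) 1, ∃ ε > 0, ∃ r > 0, ∃ C, Good C ∧
      ∀ t ∈ Icc (0:ℝ) 1, |t - t₀| < ε → Seg C (K t) (ball x₀ r) := by
    intro x₀ hx₀
    have hx₀' : ‖x₀‖ = 1 := by simpa using hx₀
    have hne : x₀ ≠ 0 := by
      rintro rfl; simp at hx₀'
    obtain ⟨η, hη, hηd⟩ := Mo_119.exists_tol (isCompact_singleton (x := fderiv ℝ (K t₀) x₀))
      (by simpa using hdet t₀ ht₀ x₀ hne)
    rw [cthickening_singleton _ hη.le] at hηd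
    have h1 := hcont (t₀, x₀) ⟨ht₀, hne⟩
    rw [ContinuousWithinAt, Metric.tendsto_nhdsWithin_nhds] at h1
    obtain ⟨d, hd, hdb⟩ := h1 η hη
    have hBconv : Convex ℝ (closedBall (fderiv ℝ (K t₀) x₀) η) :=
      convex_closedBall (fderiv ℝ (K t₀) x₀) η
    have hBc : IsCompact (closedBall (fderiv ℝ (K t₀) x₀) η) :=
      isCompact_closedBall (fderiv ℝ (K t₀) x₀) η
    have hgood : Good (closedBall (fderiv ℝ (K t₀) x₀) η) :=
      ⟨hBconv, hBc, fun A hA => (hηd A hA).1⟩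
    refine ⟨d, hd, min d 1, lt_min hd one_pos, closedBall (fderiv ℝ (K t₀) x₀) η, hgood, ?_⟩
    intro t ht htd
    have hz0 : ∀ z ∈ ball x₀ (min d 1), z ≠ 0 := by
      rintro z hz rfl
      rw [mem_ball, dist_comm, dist_zero_right, hx₀'] at hz
      linarith [min_le_right d 1]
    have hm1 : ∀ z ∈ ball x₀ (min d 1), fderiv ℝ (K t) z ∈
        closedBall (fderiv ℝ (K t₀) x₀) η := by
      intro z hz
      have h2 := @hdb (t, z) ⟨ht, hz0 z hz⟩ (by
        rw [Prod.dist_eq]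
        refine max_lt ?_ ?_
        · rw [Real.dist_eq]; exact htd
        · exact (mem_ball.1 hz).trans_le (min_le_left _ _))
      exact (mem_closedBall.2 h2.le)
    have hsm : ∀ z ∈ ball x₀ (min d 1), ContDiffAt ℝ 1 (K t) z := fun z hz =>
      (hK t ht).contDiffAt (isOpen_compl_singleton.mem_nhds (hz0 z hz))
    exact seg_of_fderiv hBconv hBc.isClosed (convex_ball x₀ (min d 1)) hsm hm1
  -- uniformity
  have huni : ∃ ε > 0, ∀ x₀ ∈ sphere (0:E) 1, ∃ r > 0, ∃ C, Good C ∧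
      ∀ t ∈ Icc (0:ℝ) 1, |t - t₀| < ε → Seg C (K t) (ball x₀ r) := by
    refine (isCompact_sphere (0 : E) 1).induction_on
      (p := fun s => ∃ ε > 0, ∀ x₀ ∈ s, ∃ r > 0, ∃ C, Good C ∧
      ∀ t ∈ Icc (0:ℝ) 1, |t - t₀| < ε → Seg C (K t) (ball x₀ r)) ?_ ?_ ?_ ?_
    · exact ⟨1, one_pos, fun x hx => absurd hx (notMem_empty x)⟩
    · rintro s t hst ⟨ε, hε, h⟩
      exact ⟨ε, hε, fun x hx => h x (hst hx)⟩
    · rintro s t ⟨ε, hε, h⟩ ⟨ε', hε', h'⟩
      refine ⟨min ε ε', lt_min hε hε', ?_⟩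
      rintro x (hx | hx)
      · obtain ⟨r, hr, C, hC, h2⟩ := h x hx
        exact ⟨r, hr, C, hC, fun t ht htd => h2 t ht (htd.trans_le (min_le_left _ _))⟩
      · obtain ⟨r, hr, C, hC, h2⟩ := h' x hx
        exact ⟨r, hr, C, hC, fun t ht htd => h2 t ht (htd.trans_le (min_le_right _ _))⟩
    · intro x₀ hx₀
      obtain ⟨ε, hε, r, hr, C, hC, h⟩ := hloc x₀ hx₀
      refine ⟨ball x₀ (r / 2), mem_nhdsWithin_of_mem_nhds (ball_mem_nhds _ (half_pos hr)),
        ε, hε, fun x hx => ⟨r / 2, half_pos hr, C, hC, fun t ht htd a ha b hb => ?_⟩⟩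
      have hsub : ball x (r / 2) ⊆ ball x₀ r := by
        refine ball_subset_ball' ?_
        rw [mem_ball] at hx
        linarith
      exact h t ht htd a (hsub ha) b (hsub hb)
  obtain ⟨ε, hε, h⟩ := huni
  refine ⟨ε, hε, fun t ht htd x₀ hx₀ => ?_⟩
  obtain ⟨r, hr, C, hC, h2⟩ := h x₀ (by simpa using hx₀)
  exact ⟨r, hr, C, hC, h2 t₀ ht₀ (by simpa using hε), h2 t ht htd⟩

section core
variable [MeasurableSpace E] [BorelSpace E] (μ : Measure E) [μ.IsAddHaarMeasure]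

/-- **Path step**: along a path of conic maps with continuous derivative of positive determinant,
being a homeomorphism and `CoreAt` are invariant. -/
theorem path_step (hE : 1 < Module.finrank ℝ E) {K : ℝ → E → E}
    (hconic : ∀ t ∈ Icc (0:ℝ) 1, Conic (K t))
    (hK : ∀ t ∈ Icc (0:ℝ) 1, ContDiffOn ℝ 1 (K t) {0}ᶜ)
    (hcont : ContinuousOn (fun p : ℝ × E => fderiv ℝ (K p.1) p.2) (Icc 0 1 ×ˢ {0}ᶜ))
    (hdet : ∀ t ∈ Icc (0:ℝ) 1, ∀ x, x ≠ 0 → 0 < (fderiv ℝ (K t) x).det)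
    (h0 : IsHomeomorph (K 0)) {t : ℝ} (ht : t ∈ Icc (0:ℝ) 1) :
    IsHomeomorph (K t) ∧ (CoreAt μ (K t) ↔ CoreAt μ (K 0)) := by
  have hstep : ∀ t₀ ∈ Icc (0:ℝ) 1, ∃ ε > 0, ∀ s ∈ Icc (0:ℝ) 1, |s - t₀| < ε →
      (IsHomeomorph (K t₀) → IsHomeomorph (K s) ∧ (CoreAt μ (K s) ↔ CoreAt μ (K t₀))) ∧
      (IsHomeomorph (K s) → IsHomeomorph (K t₀) ∧ (CoreAt μ (K t₀) ↔ CoreAt μ (K s))) := by
    intro t₀ ht₀
    obtain ⟨ε, hε, h⟩ := sim_of_path hK hcont hdet ht₀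
    refine ⟨ε, hε, fun s hs hst => ⟨fun hh => ?_, fun hh => ?_⟩⟩
    · exact Sim.coreAt (μ := μ) hE (fun c x hc => hconic t₀ ht₀ c hc.le x)
        (fun c x hc => hconic s hs c hc.le x) hh.injective (h s hs hst)
    · have hsym : Sim (K s) (K t₀) := by
        intro x₀ hx₀
        obtain ⟨r, hr, C, hC, h1, h2⟩ := h s hs hst x₀ hx₀
        exact ⟨r, hr, C, hC, h2, h1⟩
      exact Sim.coreAt (μ := μ) hE (fun c x hc => hconic s hs c hc.le x)
        (fun c x hc => hconic t₀ ht₀ c hc.le x) hh.injective hsym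
  -- clopen argument on the subtype
  set P : Set (Icc (0:ℝ) 1) := {s | IsHomeomorph (K s) ∧ (CoreAt μ (K s) ↔ CoreAt μ (K 0))}
    with hP
  have hopen : IsOpen P := by
    rw [Metric.isOpen_iff]
    intro s hs
    obtain ⟨ε, hε, h⟩ := hstep s s.2
    refine ⟨ε, hε, fun u hu => ?_⟩
    have hu' : |(u:ℝ) - s| < ε := by
      rw [mem_ball, Subtype.dist_eq, Real.dist_eq] at hu
      exact hu
    obtain ⟨h1, h2⟩ := (h u u.2 hu').1 hs.1
    exact ⟨h1, h2.trans hs.2⟩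
  have hclosed : IsClosed P := by
    rw [← isOpen_compl_iff, Metric.isOpen_iff]
    intro s hs
    obtain ⟨ε, hε, h⟩ := hstep s s.2
    refine ⟨ε, hε, fun u hu huP => hs ?_⟩
    have hu' : |(u:ℝ) - s| < ε := by
      rw [mem_ball, Subtype.dist_eq, Real.dist_eq] at hu
      exact hu
    obtain ⟨h1, h2⟩ := (h u u.2 hu').2 huP.1
    exact ⟨h1, h2.trans huP.2⟩
  have hmem0 : (⟨0, by simp⟩ : Icc (0:ℝ) 1) ∈ P := ⟨h0, Iff.rfl⟩
  have huniv : P = univ := IsClopen.eq_univ ⟨hclosed, hopen⟩ ⟨_, hmem0⟩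
  have : (⟨t, ht⟩ : Icc (0:ℝ) 1) ∈ P := by rw [huniv]; exact mem_univ _
  exact this

/-- **Segment step** -/
theorem segment_step (hE : 1 < Module.finrank ℝ E) {K K' : E → E} (hK : SC K) (hc : Conic K')
    (hs : ContDiffOn ℝ ∞ K' {0}ᶜ)
    (hdet : ∀ x, x ≠ 0 → ∀ s ∈ Icc (0:ℝ) 1,
      0 < ((1 - s) • fderiv ℝ K x + s • fderiv ℝ K' x).det) :
    SC K' ∧ (CoreAt μ K' ↔ CoreAt μ K) := by
  have hsim : Sim K K' := sim_of_segment (hK.smooth.of_le (by norm_cast))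
    (hs.of_le (by norm_cast)) hdet
  obtain ⟨h1, h2⟩ := Sim.coreAt (μ := μ) hE (fun c x hc => hK.conic c hc.le x)
    (fun c x hc' => hc c hc'.le x) hK.homeo.injective hsim
  refine ⟨⟨hc, hs, fun x hx => ?_, h1⟩, h2⟩
  have := hdet x hx 1 (by simp)
  simpa using this

end core

end Crest.Agent.R096.Rd_695
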