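import Crest.Agent.R096.Rd1_695

/-!
# C3-RED, part 2 (helper695, row 96 P5): making a smooth conic diffeomorphism the identity near a ray
-/

set_option autoImplicit false

open MeasureTheory Metric Set Filter Topology
open scoped NNReal ContDiff

namespace Crest.Agent.R096.Rd_695

open Crest.Agent.R096.Vx_270 (Seg Good Sim CoreAt)
open Crest.Agent.R096.Hm_695 (Conic Conic.fderiv_smul Conic.zero)

/-- the profile: `1` on `(-∞, 1]`, `0` on `[4, ∞)` -/
noncomputable def beta (q : ℝ) : ℝ := Real.smoothTransition ((4 - q) / 3)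

lemma beta_contDiff : ContDiff ℝ ∞ beta := by
  unfold beta
  exact Real.smoothTransition.contDiff.comp (by fun_prop)

lemma beta_nonneg (q : ℝ) : 0 ≤ beta q := Real.smoothTransition.nonneg _

lemma beta_le_one (q : ℝ) : beta q ≤ 1 := Real.smoothTransition.le_one _

lemma beta_of_le {q : ℝ} (h : q ≤ 1) : beta q = 1 :=
  Real.smoothTransition.one_of_one_le (by linarith)

lemma beta_of_ge {q : ℝ} (h : 4 ≤ q) : beta q = 0 :=
  Real.smoothTransition.zero_of_nonpos (by linarith)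

lemma deriv_beta_of_ge {q : ℝ} (h : 4 ≤ q) : deriv beta q = 0 := by
  apply IsLocalMin.deriv_eq_zero
  refine Eventually.of_forall fun p => ?_
  rw [beta_of_ge h]; exact beta_nonneg p

lemma deriv_beta_of_le {q : ℝ} (h : q ≤ 1) : deriv beta q = 0 := by
  apply IsLocalMax.deriv_eq_zero
  refine Eventually.of_forall fun p => ?_
  rw [beta_of_le h]; exact beta_le_one p

lemma exists_beta_bound : ∃ B : ℝ, 0 ≤ B ∧ ∀ q, |deriv beta q| ≤ B := by
  have hc : Continuous (deriv beta) := beta_contDiff.continuous_deriv (by simp)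
  obtain ⟨B, hB⟩ := (isCompact_Icc (a := (1:ℝ)) (b := 4)).exists_bound_of_continuousOn
    hc.continuousOn
  have hB0 : 0 ≤ B := (norm_nonneg _).trans (hB 1 (by norm_num))
  refine ⟨B, hB0, fun q => ?_⟩
  rcases le_total q 1 with h | h
  · rw [deriv_beta_of_le h, abs_zero]; exact hB0
  · rcases le_total q 4 with h' | h'
    · exact hB q ⟨h, h'⟩
    · rw [deriv_beta_of_ge h', abs_zero]; exact hB0

variable {E : Type*} [NormedAddCommGroup E] [InnerProductSpace ℝ E]

/-- the angular cut-off -/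
noncomputable def chi (e : E) (δ : ℝ) (x : E) : ℝ := beta (‖‖x‖⁻¹ • x - e‖ ^ 2 / δ ^ 2)

lemma chi_smul (e : E) (δ : ℝ) {c : ℝ} (hc : 0 < c) (x : E) : chi e δ (c • x) = chi e δ x := by
  unfold chi
  have : ‖c • x‖⁻¹ • c • x = ‖x‖⁻¹ • x := by
    rw [norm_smul, Real.norm_eq_abs, abs_of_pos hc, smul_smul, mul_inv, mul_assoc,
      mul_comm ‖x‖⁻¹ c, ← mul_assoc, inv_mul_cancel₀ hc.ne', one_mul]
  rw [this]

lemma chi_nonneg (e : E) (δ : ℝ) (x : E) : 0 ≤ chi e δ x := beta_nonneg _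

lemma chi_le_one (e : E) (δ : ℝ) (x : E) : chi e δ x ≤ 1 := beta_le_one _

lemma chi_eq_one {e : E} {δ : ℝ} (hδ : 0 < δ) {x : E} (hx : x ≠ 0)
    (h : ‖x - ‖x‖ • e‖ ≤ δ * ‖x‖) : chi e δ x = 1 := by
  unfold chi
  refine beta_of_le ?_
  have hx0 : 0 < ‖x‖ := norm_pos_iff.2 hx
  have h1 : ‖‖x‖⁻¹ • x - e‖ ≤ δ := by
    have : ‖x‖⁻¹ • x - e = ‖x‖⁻¹ • (x - ‖x‖ • e) := by
      rw [smul_sub, smul_smul, inv_mul_cancel₀ hx0.ne', one_smul]
    rw [this, norm_smul, norm_inv, norm_norm, inv_mul_le_iff₀ hx0]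
    linarith
  rw [div_le_one (by positivity)]
  gcongr

lemma contDiffAt_unit {x : E} (hx : x ≠ 0) :
    ContDiffAt ℝ ∞ (fun y : E => ‖y‖⁻¹ • y) x := by
  have h1 : ContDiffAt ℝ ∞ (fun y : E => ‖y‖) x := contDiffAt_id.norm ℝ hx
  exact (h1.inv (norm_ne_zero_iff.2 hx)).smul contDiffAt_id

lemma contDiffAt_chi (e : E) (δ : ℝ) {x : E} (hx : x ≠ 0) : ContDiffAt ℝ ∞ (chi e δ) x := by
  unfold chi
  refine beta_contDiff.contDiffAt.comp x ?_
  exact (((contDiffAt_unit hx).sub contDiffAt_const).norm_sq ℝ).div_const _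

/-- derivative of `x ↦ ‖x‖⁻¹ • x` at a unit vector -/
lemma norm_fderiv_unit_le {x : E} (hx : ‖x‖ = 1) :
    ‖fderiv ℝ (fun y : E => ‖y‖⁻¹ • y) x‖ ≤ 2 := by
  have hne : x ≠ 0 := by
    rintro rfl; simp at hx
  have h1 : ContDiffAt ℝ 1 (fun y : E => ‖y‖) x := contDiffAt_id.norm ℝ hne
  have hN : HasFDerivAt (fun y : E => ‖y‖) (fderiv ℝ (fun y : E => ‖y‖) x) x :=
    (h1.differentiableAt one_ne_zero).hasFDerivAt
  set φ := fderiv ℝ (fun y : E => ‖y‖) x with hφ
  have hφ1 : ‖φ‖ ≤ 1 := by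
    have := norm_fderiv_le_of_lipschitz ℝ (lipschitzWith_one_norm (E := E)) (x₀ := x)
    simpa using this
  have hinv : HasFDerivAt (fun y : E => ‖y‖⁻¹) (-(‖x‖ ^ 2)⁻¹ • φ) x :=
    (hasDerivAt_inv (norm_ne_zero_iff.2 hne)).comp_hasFDerivAt x hN
  have h := hinv.smul (hasFDerivAt_id x)
  have h' : HasFDerivAt (fun y : E => ‖y‖⁻¹ • y)
      (‖x‖⁻¹ • ContinuousLinearMap.id ℝ E + (-(‖x‖ ^ 2)⁻¹ • φ).smulRight x) x := h
  rw [h'.fderiv, hx]
  simp only [one_pow, inv_one, one_smul, neg_smul]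
  calc ‖ContinuousLinearMap.id ℝ E + (-φ).smulRight x‖
      ≤ ‖ContinuousLinearMap.id ℝ E‖ + ‖(-φ).smulRight x‖ := norm_add_le _ _
    _ ≤ 1 + 1 * 1 := by
        rw [ContinuousLinearMap.norm_smulRight_apply, norm_neg, hx]
        gcongr
        exact ContinuousLinearMap.norm_id_le
    _ = 2 := by norm_num

/-- derivative of the cut-off at a unit vector -/
lemma norm_fderiv_chi_le {e : E} {δ B : ℝ} (hδ : 0 < δ) (hB : 0 ≤ B)
    (hb : ∀ q, |deriv beta q| ≤ B)
    {x : E} (hx : ‖x‖ = 1) : ‖fderiv ℝ (chi e δ) x‖ ≤ B * (4 * ‖x - e‖ / δ ^ 2) := by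
  have hne : x ≠ 0 := by
    rintro rfl; simp at hx
  set u : E → E := fun y => ‖y‖⁻¹ • y with hu
  have hux : u x = x := by simp [hu, hx]
  have hU : HasFDerivAt u (fderiv ℝ u x) x :=
    ((contDiffAt_unit hne).differentiableAt (by simp)).hasFDerivAt
  have hU2 : ‖fderiv ℝ u x‖ ≤ 2 := norm_fderiv_unit_le hx
  have hq := (hU.sub_const e).norm_sq
  have hq2 : HasFDerivAt (fun y => ‖u y - e‖ ^ 2 / δ ^ 2)
      ((δ ^ 2)⁻¹ • (2 • (innerSL ℝ (u x - e)).comp (fderiv ℝ u x))) x := by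
    have := hq.const_mul ((δ ^ 2)⁻¹)
    refine this.congr_of_eventuallyEq (Eventually.of_forall fun y => ?_)
    simp only [div_eq_inv_mul]
  have hbeta : HasDerivAt beta (deriv beta (‖u x - e‖ ^ 2 / δ ^ 2)) (‖u x - e‖ ^ 2 / δ ^ 2) :=
    ((beta_contDiff.differentiable (by simp)) _).hasDerivAt
  have hchi : HasFDerivAt (chi e δ) (deriv beta (‖u x - e‖ ^ 2 / δ ^ 2) •
      ((δ ^ 2)⁻¹ • (2 • (innerSL ℝ (u x - e)).comp (fderiv ℝ u x)))) x :=
    hbeta.comp_hasFDerivAt x hq2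
  rw [hchi.fderiv, norm_smul, Real.norm_eq_abs]
  refine mul_le_mul (hb _) ?_ (norm_nonneg _) hB
  rw [norm_smul, norm_inv, Real.norm_eq_abs, abs_of_nonneg (sq_nonneg δ), hux]
  have h1 : ‖(2:ℕ) • (innerSL ℝ (x - e)).comp (fderiv ℝ u x)‖ ≤ 2 * (‖x - e‖ * 2) := by
    rw [← Nat.cast_smul_eq_nsmul ℝ, norm_smul]
    have h2 : ‖(innerSL ℝ (x - e)).comp (fderiv ℝ u x)‖ ≤ ‖x - e‖ * 2 := by
      refine (ContinuousLinearMap.opNorm_comp_le _ _).trans ?_
      rw [innerSL_apply_norm]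
      gcongr
    have h3 : ‖((2:ℕ):ℝ)‖ = 2 := by simp
    rw [h3]
    gcongr
  calc (δ ^ 2)⁻¹ * ‖(2:ℕ) • (innerSL ℝ (x - e)).comp (fderiv ℝ u x)‖
      ≤ (δ ^ 2)⁻¹ * (2 * (‖x - e‖ * 2)) := by gcongr
    _ = 4 * ‖x - e‖ / δ ^ 2 := by ring

/-- the perturbation -/
noncomputable def pert (H : E → E) (e : E) (δ : ℝ) (x : E) : E := chi e δ x • (x - H x)

lemma pert_conic {H : E → E} (hc : Conic H) (e : E) (δ : ℝ) : Conic (pert H e δ) := by
  intro c hc0 x
  rcases hc0.eq_or_lt with h | h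
  · rw [← h, zero_smul, zero_smul, pert, hc.zero, sub_zero, smul_zero]
  · rw [pert, pert, chi_smul e δ h, hc c hc0, ← smul_sub, smul_comm]

lemma pert_contDiffAt {H : E → E} (h : SC H) (e : E) (δ : ℝ) {x : E} (hx : x ≠ 0) :
    ContDiffAt ℝ ∞ (pert H e δ) x :=
  (contDiffAt_chi e δ hx).smul (contDiffAt_id.sub (h.contDiffAt hx))

lemma exists_pert [FiniteDimensional ℝ E] {H : E → E} (h : SC H) {e : E} (he : ‖e‖ = 1)
    (hd : fderiv ℝ H e = ContinuousLinearMap.id ℝ E) {η : ℝ} (hη : 0 < η) :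
    ∃ δ > 0, ∀ x, ‖x‖ = 1 → ‖fderiv ℝ (pert H e δ) x‖ ≤ η := by
  have hne : e ≠ 0 := by
    rintro rfl; simp at he
  obtain ⟨B, hB, hb⟩ := exists_beta_bound
  set η' := η / (1 + 16 * B) with hη'
  have hη'0 : 0 < η' := by positivity
  have hcont : ContinuousAt (fderiv ℝ H) e := (h.contDiffAt hne).continuousAt_fderiv (by simp)
  have h1 : ∀ᶠ x in 𝓝 e, dist (fderiv ℝ H x) (fderiv ℝ H e) < η' :=
    hcont.eventually (ball_mem_nhds _ hη'0)
  have h2 : ∀ᶠ x in 𝓝 e, x ≠ 0 := isOpen_ne.mem_nhds hne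
  obtain ⟨r, hr, hrb⟩ := Metric.eventually_nhds_iff_ball.1 (h1.and h2)
  refine ⟨r / 4, by positivity, fun x hx => ?_⟩
  set δ := r / 4 with hδ
  have hδ0 : 0 < δ := by positivity
  have hxne : x ≠ 0 := by
    rintro rfl; simp at hx
  have hchi : HasFDerivAt (chi e δ) (fderiv ℝ (chi e δ) x) x :=
    ((contDiffAt_chi e δ hxne).differentiableAt (by simp)).hasFDerivAt
  have hHx : HasFDerivAt H (fderiv ℝ H x) x := (h.differentiableAt hxne).hasFDerivAt
  have hP : HasFDerivAt (pert H e δ) (chi e δ x • (ContinuousLinearMap.id ℝ E - fderiv ℝ H x) +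
      (fderiv ℝ (chi e δ) x).smulRight (x - H x)) x :=
    hchi.smul ((hasFDerivAt_id x).sub hHx)
  rw [hP.fderiv]
  have hux : ‖x‖⁻¹ • x = x := by rw [hx, inv_one, one_smul]
  by_cases hθ : 2 * δ ≤ ‖x - e‖
  · have hq : 4 ≤ ‖x - e‖ ^ 2 / δ ^ 2 := by
      rw [le_div_iff₀ (by positivity)]
      nlinarith
    have hz : chi e δ x = 0 := by
      unfold chi; rw [hux]; exact beta_of_ge hq
    have hz' : fderiv ℝ (chi e δ) x = 0 := by
      have hq' : DifferentiableAt ℝ (fun y : E => ‖‖y‖⁻¹ • y - e‖ ^ 2 / δ ^ 2) x :=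
        ((((contDiffAt_unit hxne).sub contDiffAt_const).norm_sq ℝ).div_const _).differentiableAt
          (n := ∞) (by simp)
      have hbeta : HasDerivAt beta (deriv beta (‖‖x‖⁻¹ • x - e‖ ^ 2 / δ ^ 2))
          (‖‖x‖⁻¹ • x - e‖ ^ 2 / δ ^ 2) :=
        ((beta_contDiff.differentiable (by simp)) _).hasDerivAt
      have h3 : HasFDerivAt (chi e δ) _ x := hbeta.comp_hasFDerivAt x hq'.hasFDerivAt
      rw [h3.fderiv, hux, deriv_beta_of_ge hq, zero_smul]
    rw [hz, hz', zero_smul, zero_add]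
    simp only [ContinuousLinearMap.zero_smulRight, norm_zero]
    exact hη.le
  · push Not at hθ
    have hxr : x ∈ ball e r := by
      rw [mem_ball, dist_eq_norm]; linarith
    have h4 : ‖ContinuousLinearMap.id ℝ E - fderiv ℝ H x‖ ≤ η' := by
      have := (hrb x hxr).1
      rw [hd, dist_eq_norm, norm_sub_rev] at this
      exact this.le
    have h5 : ‖x - H x‖ ≤ η' * ‖x - e‖ := by
      have hf : ∀ z ∈ ball e r, HasFDerivWithinAt (fun y => y - H y)
          (ContinuousLinearMap.id ℝ E - fderiv ℝ H z) (ball e r) z := fun z hz =>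
        ((hasFDerivAt_id z).sub (h.differentiableAt (hrb z hz).2).hasFDerivAt).hasFDerivWithinAt
      have hbd : ∀ z ∈ ball e r, ‖ContinuousLinearMap.id ℝ E - fderiv ℝ H z‖ ≤ η' := by
        intro z hz
        have := (hrb z hz).1
        rw [hd, dist_eq_norm, norm_sub_rev] at this
        exact this.le
      have h6 := (convex_ball e r).norm_image_sub_le_of_norm_hasFDerivWithin_le hf hbd
        (mem_ball_self hr) hxr
      have h7 : H e = e := by
        rw [← euler h.conic (h.differentiableAt hne), hd]; rfl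
      rw [h7, sub_self, sub_zero] at h6
      exact h6
    have h8 := norm_fderiv_chi_le (e := e) hδ0 hB hb hx
    calc ‖chi e δ x • (ContinuousLinearMap.id ℝ E - fderiv ℝ H x) +
          (fderiv ℝ (chi e δ) x).smulRight (x - H x)‖
        ≤ ‖chi e δ x • (ContinuousLinearMap.id ℝ E - fderiv ℝ H x)‖ +
          ‖(fderiv ℝ (chi e δ) x).smulRight (x - H x)‖ := norm_add_le _ _
      _ ≤ 1 * η' + (B * (4 * ‖x - e‖ / δ ^ 2)) * (η' * ‖x - e‖) := by
          rw [norm_smul, ContinuousLinearMap.norm_smulRight_apply, Real.norm_eq_abs,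
            abs_of_nonneg (chi_nonneg e δ x)]
          gcongr
          exact chi_le_one e δ x
      _ ≤ 1 * η' + (B * (4 * (2 * δ) / δ ^ 2)) * (η' * (2 * δ)) := by gcongr
      _ = η' * (1 + 16 * B) := by field_simp; ring
      _ = η := by rw [hη']; field_simp

section core
variable [FiniteDimensional ℝ E] [MeasurableSpace E] [BorelSpace E] (μ : Measure E)
  [μ.IsAddHaarMeasure]

/-- **R2**: a smooth conic diffeomorphism with `D H (e) = id` can be made the identity near the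
ray through `e`. -/
theorem localise (hE : 1 < Module.finrank ℝ E) {H : E → E} (h : SC H) {e : E} (he : ‖e‖ = 1)
    (hd : fderiv ℝ H e = ContinuousLinearMap.id ℝ E) :
    ∃ H' : E → E, SC H' ∧ (CoreAt μ H' ↔ CoreAt μ H) ∧
      ∃ δ > 0, ∀ x, ‖x - ‖x‖ • e‖ ≤ δ * ‖x‖ → H' x = x := by
  have hps : ProperSpace E := FiniteDimensional.proper_real _
  -- margin
  have hcompact : IsCompact ((fderiv ℝ H) '' sphere (0:E) 1) := by
    refine (isCompact_sphere (0:E) 1).image_of_continuousOn ?_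
    intro x hx
    have hx' : ‖x‖ = 1 := by simpa using hx
    have hne : x ≠ 0 := by
      rintro rfl; simp at hx'
    exact ((h.contDiffAt hne).continuousAt_fderiv (by simp)).continuousWithinAt
  have hdet : ∀ A ∈ ((fderiv ℝ H) '' sphere (0:E) 1), 0 < A.det := by
    rintro _ ⟨x, hx, rfl⟩
    have hx' : ‖x‖ = 1 := by simpa using hx
    refine h.det x ?_
    rintro rfl; simp at hx'
  obtain ⟨η, hη, hηd⟩ := Mo_119.exists_tol hcompact hdet
  obtain ⟨δ, hδ, hδP⟩ := exists_pert h he hd hη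
  set H' : E → E := fun x => H x + pert H e δ x with hH'
  have hc' : Conic H' := by
    intro c hc x
    simp only [hH']
    rw [h.conic c hc, pert_conic h.conic e δ c hc, smul_add]
  have hs' : ContDiffOn ℝ ∞ H' {0}ᶜ := fun x hx =>
    ((h.contDiffAt hx).add (pert_contDiffAt h e δ hx)).contDiffWithinAt
  have hstep := segment_step μ hE h hc' hs' ?_
  · refine ⟨H', hstep.1, hstep.2, δ, hδ, fun x hx => ?_⟩
    rcases eq_or_ne x 0 with hx0 | hx0
    · subst hx0; exact hstep.1.conic.zero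
    · simp only [hH', pert]
      rw [chi_eq_one hδ hx0 hx, one_smul]; abel
  · intro x hx s hs
    have hx0 : 0 < ‖x‖ := norm_pos_iff.2 hx
    have hfd : fderiv ℝ H' x = fderiv ℝ H x + fderiv ℝ (pert H e δ) x :=
      ((h.differentiableAt hx).hasFDerivAt.add
        ((pert_contDiffAt h e δ hx).differentiableAt (by simp)).hasFDerivAt).fderiv
    have e1 : (1 - s) • fderiv ℝ H x + s • fderiv ℝ H' x
        = fderiv ℝ H x + s • fderiv ℝ (pert H e δ) x := by
      rw [hfd, sub_smul, one_smul, smul_add]; abel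
    rw [e1]
    -- move to the unit sphere
    have hu : ‖‖x‖⁻¹ • x‖ = 1 := by rw [norm_smul, norm_inv, norm_norm, inv_mul_cancel₀ hx0.ne']
    rw [← h.conic.fderiv_smul (inv_pos.2 hx0) x,
      ← (pert_conic h.conic e δ).fderiv_smul (inv_pos.2 hx0) x]
    refine (hηd _ ?_).1
    refine mem_cthickening_of_dist_le _ (fderiv ℝ H (‖x‖⁻¹ • x)) _ _
      (mem_image_of_mem _ (by simpa using hu)) ?_
    rw [dist_eq_norm, add_sub_cancel_left, norm_smul, Real.norm_eq_abs, abs_of_nonneg hs.1]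
    calc s * ‖fderiv ℝ (pert H e δ) (‖x‖⁻¹ • x)‖ ≤ 1 * η := by
          gcongr
          · exact hs.2
          · exact hδP _ hu
      _ = η := one_mul _

end core

end Crest.Agent.R096.Rd_695
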