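import Crest.Agent.R096.Rd2_695

/-!
# C3-RED, part 3 (helper695, row 96 P5): smooth paths, conjugation by Lorentz boosts
-/

set_option autoImplicit false

open MeasureTheory Metric Set Filter Topology
open scoped NNReal ContDiff

namespace Crest.Agent.R096.Rd_695

open Crest.Agent.R096.Vx_270 (Seg Good Sim CoreAt)
open Crest.Agent.R096.Hm_695 (Conic Conic.fderiv_smul Conic.zero)

/-- a continuous nonvanishing function on `[0,1]` keeps its sign -/
lemma pos_of_ne {f : ℝ → ℝ} (hf : ContinuousOn f (Icc 0 1)) (hne : ∀ t ∈ Icc (0:ℝ) 1, f t ≠ 0)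
    (h0 : 0 < f 0) {t : ℝ} (ht : t ∈ Icc (0:ℝ) 1) : 0 < f t := by
  by_contra hcon
  push Not at hcon
  have h1 := intermediate_value_Icc' ht.1 (hf.mono (Icc_subset_Icc le_rfl ht.2))
  obtain ⟨s, hs, hs0⟩ := h1 ⟨hcon, h0.le⟩
  exact hne s ⟨hs.1, hs.2.trans ht.2⟩ hs0

variable {E : Type*} [NormedAddCommGroup E] [InnerProductSpace ℝ E]

/-- jointly smooth path of conic maps with invertible derivatives -/
structure JS (K : ℝ → E → E) : Prop where
  conic : ∀ t, Conic (K t)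
  smooth : ContDiffOn ℝ ∞ (fun p : ℝ × E => K p.1 p.2) (univ ×ˢ {0}ᶜ)
  inj : ∀ t ∈ Icc (0:ℝ) 1, ∀ x, x ≠ 0 → ∀ v, fderiv ℝ (K t) x v = 0 → v = 0

omit [InnerProductSpace ℝ E] in
lemma isOpen_dom : IsOpen ((univ : Set ℝ) ×ˢ ({0}ᶜ : Set E)) :=
  isOpen_univ.prod isOpen_compl_singleton

lemma JS.contDiffAt {K : ℝ → E → E} (h : JS K) (t : ℝ) {x : E} (hx : x ≠ 0) :
    ContDiffAt ℝ ∞ (fun p : ℝ × E => K p.1 p.2) (t, x) :=
  h.smooth.contDiffAt (isOpen_dom.mem_nhds ⟨mem_univ _, hx⟩)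

lemma JS.contDiffAt_slice {K : ℝ → E → E} (h : JS K) (t : ℝ) {x : E} (hx : x ≠ 0) :
    ContDiffAt ℝ ∞ (K t) x := by
  have h1 : ContDiffAt ℝ ∞ (fun y : E => ((t, y) : ℝ × E)) x := contDiffAt_const.prodMk contDiffAt_id
  exact (h.contDiffAt t hx).comp x h1

lemma JS.fderiv_eq {K : ℝ → E → E} (h : JS K) (t : ℝ) {x : E} (hx : x ≠ 0) :
    fderiv ℝ (K t) x =
      (fderiv ℝ (fun p : ℝ × E => K p.1 p.2) (t, x)).comp (ContinuousLinearMap.inr ℝ ℝ E) := by
  have h1 : HasFDerivAt (fun p : ℝ × E => K p.1 p.2) _ (t, x) :=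
    ((h.contDiffAt t hx).differentiableAt (by simp)).hasFDerivAt
  have h2 : HasFDerivAt (fun y : E => ((t, y) : ℝ × E)) (ContinuousLinearMap.inr ℝ ℝ E) x :=
    hasFDerivAt_prodMk_right t x
  exact (h1.comp x h2).fderiv

lemma JS.continuousOn_fderiv {K : ℝ → E → E} (h : JS K) :
    ContinuousOn (fun p : ℝ × E => fderiv ℝ (K p.1) p.2) (Icc 0 1 ×ˢ {0}ᶜ) := by
  have h1 : ContinuousOn (fderiv ℝ (fun p : ℝ × E => K p.1 p.2)) (univ ×ˢ {0}ᶜ) :=
    h.smooth.continuousOn_fderiv_of_isOpen isOpen_dom (by simp)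
  have h2 : ContinuousOn (fun p : ℝ × E => (fderiv ℝ (fun p : ℝ × E => K p.1 p.2) p).comp
      (ContinuousLinearMap.inr ℝ ℝ E)) (Icc 0 1 ×ˢ {0}ᶜ) :=
    (h1.mono (prod_mono (subset_univ _) le_rfl)).clm_comp continuousOn_const
  refine h2.congr fun p hp => ?_
  exact h.fderiv_eq p.1 hp.2

section core
variable [FiniteDimensional ℝ E]

lemma JS.det_pos {K : ℝ → E → E} (h : JS K) (h0 : SC (K 0)) {t : ℝ} (ht : t ∈ Icc (0:ℝ) 1)
    {x : E} (hx : x ≠ 0) : 0 < (fderiv ℝ (K t) x).det := by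
  refine pos_of_ne (f := fun t => (fderiv ℝ (K t) x).det) ?_ ?_ (h0.det x hx) ht
  · refine ContinuousLinearMap.continuous_det.comp_continuousOn ?_
    have : ContinuousOn (fun s : ℝ => ((s, x) : ℝ × E)) (Icc 0 1) := by fun_prop
    exact h.continuousOn_fderiv.comp this fun s hs => ⟨hs, hx⟩
  · exact fun s hs => det_ne_of_inj (h.inj s hs x hx)

variable [MeasurableSpace E] [BorelSpace E] (μ : Measure E) [μ.IsAddHaarMeasure]

theorem JS.step (hE : 1 < Module.finrank ℝ E) {K : ℝ → E → E} (h : JS K) (h0 : SC (K 0))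
    {t : ℝ} (ht : t ∈ Icc (0:ℝ) 1) : SC (K t) ∧ (CoreAt μ (K t) ↔ CoreAt μ (K 0)) := by
  obtain ⟨h1, h2⟩ := path_step μ hE (fun t _ => h.conic t)
    (fun t _ x hx => ((h.contDiffAt_slice t hx).of_le (by norm_cast)).contDiffWithinAt)
    h.continuousOn_fderiv (fun t ht x hx => h.det_pos h0 ht hx) h0.homeo ht
  exact ⟨⟨h.conic t, fun x hx => (h.contDiffAt_slice t hx).contDiffWithinAt,
    fun x hx => h.det_pos h0 ht hx, h1⟩, h2⟩

end core

/-! ### Lorentz boosts -/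

/-- the boost in direction `e` -/
noncomputable def bo (e : E) (b : ℝ) (x : E) : E :=
  x + ((Real.cosh b - 1) * inner ℝ e x + Real.sinh b * ‖x‖) • e

lemma inner_bo {e : E} (he : ‖e‖ = 1) (b : ℝ) (x : E) :
    inner ℝ e (bo e b x) = Real.cosh b * inner ℝ e x + Real.sinh b * ‖x‖ := by
  rw [bo, inner_add_right, inner_smul_right, real_inner_self_eq_norm_sq, he]
  ring

lemma abs_sinh_le (b : ℝ) : |Real.sinh b| ≤ Real.cosh b := by
  rw [abs_le]
  have h1 := Real.cosh_add_sinh b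
  have h2 := Real.cosh_sub_sinh b
  have h3 := Real.exp_pos b
  have h4 := Real.exp_pos (-b)
  constructor <;> linarith

lemma norm_bo {e : E} (he : ‖e‖ = 1) (b : ℝ) (x : E) :
    ‖bo e b x‖ = Real.cosh b * ‖x‖ + Real.sinh b * inner ℝ e x := by
  have h1 : |inner ℝ e x| ≤ ‖x‖ := by
    have := abs_real_inner_le_norm e x
    rwa [he, one_mul] at this
  have h2 : 0 ≤ Real.cosh b * ‖x‖ + Real.sinh b * inner ℝ e x := by
    have h3 : |Real.sinh b * inner ℝ e x| ≤ Real.cosh b * ‖x‖ := by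
      rw [abs_mul]
      exact mul_le_mul (abs_sinh_le b) h1 (abs_nonneg _) (Real.cosh_pos b).le
    have := neg_abs_le (Real.sinh b * inner ℝ e x)
    linarith
  rw [← sq_eq_sq₀ (norm_nonneg _) h2]
  have h4 := Real.cosh_sq b
  rw [bo, norm_add_sq_real, norm_smul, inner_smul_right, he, mul_one, Real.norm_eq_abs, sq_abs,
    real_inner_comm e x]
  set C := Real.cosh b
  set S := Real.sinh b
  set t := inner ℝ e x
  set n := ‖x‖
  linear_combination (t ^ 2 - n ^ 2) * h4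

lemma bo_neg_bo {e : E} (he : ‖e‖ = 1) (b : ℝ) (x : E) : bo e (-b) (bo e b x) = x := by
  have h1 := inner_bo he b x
  have h2 := norm_bo he b x
  rw [bo, h1, h2, Real.cosh_neg, Real.sinh_neg]
  have h4 := Real.cosh_sq b
  rw [bo, add_assoc, ← add_smul]
  have : (Real.cosh b - 1) * inner ℝ e x + Real.sinh b * ‖x‖ +
      ((Real.cosh b - 1) * (Real.cosh b * inner ℝ e x + Real.sinh b * ‖x‖) +
        -Real.sinh b * (Real.cosh b * ‖x‖ + Real.sinh b * inner ℝ e x)) = 0 := by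
    linear_combination (inner ℝ e x) * h4
  rw [this, zero_smul, add_zero]

lemma bo_bo_neg {e : E} (he : ‖e‖ = 1) (b : ℝ) (x : E) : bo e b (bo e (-b) x) = x := by
  have := bo_neg_bo he (-b) x
  rwa [neg_neg] at this

lemma bo_zero (e : E) (x : E) : bo e 0 x = x := by simp [bo]

lemma bo_conic (e : E) (b : ℝ) : Conic (bo e b) := by
  intro c hc x
  rw [bo, bo, inner_smul_right, norm_smul, Real.norm_eq_abs, abs_of_nonneg hc, smul_add, smul_smul]
  congr 2
  ring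

lemma bo_ne_zero {e : E} (he : ‖e‖ = 1) (b : ℝ) {x : E} (hx : x ≠ 0) : bo e b x ≠ 0 := by
  intro h
  apply hx
  rw [← bo_neg_bo he b x, h, (bo_conic e (-b)).zero]

lemma bo_contDiffAt (e : E) {g : ℝ × E → ℝ} {f : ℝ × E → E} {p : ℝ × E}
    (hg : ContDiffAt ℝ ∞ g p) (hf : ContDiffAt ℝ ∞ f p) (h0 : f p ≠ 0) :
    ContDiffAt ℝ ∞ (fun q => bo e (g q) (f q)) p := by
  unfold bo
  refine hf.add (ContDiffAt.smul ?_ contDiffAt_const)
  refine ContDiffAt.add (ContDiffAt.mul ?_ ?_) (ContDiffAt.mul ?_ ?_)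
  · exact (Real.contDiff_cosh.contDiffAt.comp p hg).sub contDiffAt_const
  · exact contDiffAt_const.inner ℝ hf
  · exact Real.contDiff_sinh.contDiffAt.comp p hg
  · exact hf.norm ℝ h0

lemma bo_contDiffAt' (e : E) (b : ℝ) {x : E} (hx : x ≠ 0) : ContDiffAt ℝ ∞ (bo e b) x := by
  have h1 : ContDiffAt ℝ ∞ (fun y : E => ((0:ℝ), y)) x := contDiffAt_const.prodMk contDiffAt_id
  have h2 := bo_contDiffAt e (g := fun _ => b) (f := fun p : ℝ × E => p.2) (p := ((0:ℝ), x))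
    contDiffAt_const contDiffAt_snd hx
  exact h2.comp x h1

lemma bo_fderiv_inj {e : E} (he : ‖e‖ = 1) (b : ℝ) {x : E} (hx : x ≠ 0) {v : E}
    (hv : fderiv ℝ (bo e b) x v = 0) : v = 0 := by
  have h1 : HasFDerivAt (bo e b) (fderiv ℝ (bo e b) x) x :=
    ((bo_contDiffAt' e b hx).differentiableAt (by simp)).hasFDerivAt
  have h2 : HasFDerivAt (bo e (-b)) (fderiv ℝ (bo e (-b)) (bo e b x)) (bo e b x) :=
    ((bo_contDiffAt' e (-b) (bo_ne_zero he b hx)).differentiableAt (by simp)).hasFDerivAt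
  have h3 := h2.comp x h1
  have h4 : (bo e (-b)) ∘ (bo e b) = id := by
    funext y; exact bo_neg_bo he b y
  rw [h4] at h3
  have h5 := h3.unique (hasFDerivAt_id x)
  have h6 := congrArg (fun A : E →L[ℝ] E => A v) h5
  simp only [ContinuousLinearMap.comp_apply, hv, map_zero, ContinuousLinearMap.id_apply] at h6
  exact h6.symm

section core
variable [FiniteDimensional ℝ E]

/-- the path of conjugates -/
lemma boost_js {H : E → E} (h : SC H) {e : E} (he : ‖e‖ = 1) (b : ℝ) :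
    JS (fun t x => bo e (t * b) (H (bo e (-(t * b)) x))) := by
  refine ⟨fun t c hc x => ?_, fun p hp => ?_, fun t _ x hx v hv => ?_⟩
  · rw [bo_conic e _ c hc, h.conic c hc, bo_conic e _ c hc]
  · have hx : p.2 ≠ 0 := hp.2
    have h1 : ContDiffAt ℝ ∞ (fun q : ℝ × E => -(q.1 * b)) p := by fun_prop
    have h1' : ContDiffAt ℝ ∞ (fun q : ℝ × E => q.1 * b) p := by fun_prop
    have h2 := bo_contDiffAt e h1 contDiffAt_snd hx
    have hne : bo e (-(p.1 * b)) p.2 ≠ 0 := bo_ne_zero he _ hx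
    have h3 : ContDiffAt ℝ ∞ (fun q : ℝ × E => H (bo e (-(q.1 * b)) q.2)) p :=
      ContDiffAt.comp p (h.contDiffAt hne) h2
    exact (bo_contDiffAt e h1' h3 (h.ne_zero hne)).contDiffWithinAt
  · set y := bo e (-(t * b)) x with hy
    have hy0 : y ≠ 0 := bo_ne_zero he _ hx
    have h1 : HasFDerivAt (bo e (-(t * b))) (fderiv ℝ (bo e (-(t * b))) x) x :=
      ((bo_contDiffAt' e _ hx).differentiableAt (by simp)).hasFDerivAt
    have h2 : HasFDerivAt H (fderiv ℝ H y) y := (h.differentiableAt hy0).hasFDerivAt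
    have h3 : HasFDerivAt (bo e (t * b)) (fderiv ℝ (bo e (t * b)) (H y)) (H y) :=
      ((bo_contDiffAt' e _ (h.ne_zero hy0)).differentiableAt (by simp)).hasFDerivAt
    have h21 : HasFDerivAt (fun x => H (bo e (-(t * b)) x)) ((fderiv ℝ H y).comp
          (fderiv ℝ (bo e (-(t * b))) x)) x := HasFDerivAt.comp x h2 h1
    have h4 : HasFDerivAt (fun x => bo e (t * b) (H (bo e (-(t * b)) x)))
        ((fderiv ℝ (bo e (t * b)) (H y)).comp ((fderiv ℝ H y).comp
          (fderiv ℝ (bo e (-(t * b))) x))) x :=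
      HasFDerivAt.comp (g := bo e (t * b)) x h3 h21
    rw [h4.fderiv] at hv
    have h5 := bo_fderiv_inj he (t * b) (h.ne_zero hy0) hv
    have h6 := inj_of_det (h.det y hy0).ne' h5
    exact bo_fderiv_inj he _ hx h6

/-- existence of a large boost -/
lemma exists_boost {δ : ℝ} (hδ : 0 < δ) : ∃ b : ℝ, 0 < b ∧
    Real.cosh b * (3 - 2 * δ) ≤ Real.sinh b * (3 - δ) := by
  refine ⟨6 / δ, by positivity, ?_⟩
  set b := 6 / δ with hb
  have hb0 : 0 < b := by positivity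
  have h1 := Real.cosh_eq b
  have h2 := Real.sinh_eq b
  have ha : b + 1 ≤ Real.exp b := Real.add_one_le_exp b
  have ha0 : 0 < Real.exp b := Real.exp_pos b
  have hm : Real.exp (-b) ≤ 1 := by
    rw [Real.exp_le_one_iff]; linarith
  have hm0 : 0 < Real.exp (-b) := Real.exp_pos _
  have h3 : 6 ≤ Real.exp b * δ := by
    have : b * δ = 6 := by rw [hb]; field_simp
    nlinarith
  rw [h1, h2]
  have h4 : (0:ℝ) ≤ Real.exp (-b) * δ := by positivity
  nlinarith

variable [MeasurableSpace E] [BorelSpace E] (μ : Measure E) [μ.IsAddHaarMeasure]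

/-- **R3** -/
theorem boost_step (hE : 1 < Module.finrank ℝ E) {H : E → E} (h : SC H) {e : E} (he : ‖e‖ = 1)
    {δ : ℝ} (hδ : 0 < δ) (hid : ∀ x, ‖x - ‖x‖ • e‖ ≤ δ * ‖x‖ → H x = x) :
    ∃ H' : E → E, SC H' ∧ (CoreAt μ H' ↔ CoreAt μ H) ∧
      ∀ z, -(‖z‖ / 2) ≤ inner ℝ e z → H' z = z := by
  set δ' := δ ^ 2 / 2 with hδ'
  have hδ'0 : 0 < δ' := by positivity
  obtain ⟨b, hb, hbC⟩ := exists_boost hδ'0
  have hjs := boost_js h he (-b)
  have h0 : SC ((fun (t : ℝ) x => bo e (t * (-b)) (H (bo e (-(t * (-b))) x))) 0) := by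
    have e0 : (fun (t : ℝ) x => bo e (t * (-b)) (H (bo e (-(t * (-b))) x))) 0 = H := by
      funext x; simp [bo_zero]
    rw [e0]; exact h
  have e0 : (fun (t : ℝ) x => bo e (t * (-b)) (H (bo e (-(t * (-b))) x))) 0 = H := by
    funext x; simp [bo_zero]
  obtain ⟨h1, h2⟩ := hjs.step μ hE h0 (t := 1) (by simp)
  have e1 : (fun x => bo e (0 * -b) (H (bo e (-(0 * -b)) x))) = H := e0
  rw [e1] at h2
  refine ⟨_, h1, h2, fun z hz => ?_⟩
  simp only [one_mul, neg_neg]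
  have hin := inner_bo he b z
  have hno := norm_bo he b z
  set y := bo e b z with hy
  have hyid : H y = y := by
    refine hid y ?_
    -- ‖y - ‖y‖ e‖² = 2 ‖y‖ (‖y‖ - ⟪e, y⟫)
    have hsq : ‖y - ‖y‖ • e‖ ^ 2 = 2 * ‖y‖ * (‖y‖ - inner ℝ e y) := by
      rw [norm_sub_sq_real, norm_smul, inner_smul_right, he, norm_norm, real_inner_comm]
      ring
    have hkey : (1 - δ') * ‖y‖ ≤ inner ℝ e y := by
      rw [hin, hno]
      have hS0 : 0 < Real.sinh b := Real.sinh_pos_iff.2 hb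
      have hCS : Real.sinh b ≤ Real.cosh b := (le_abs_self _).trans (abs_sinh_le b)
      have hcoef : 0 ≤ Real.cosh b - (1 - δ') * Real.sinh b := by nlinarith
      have hn : 0 ≤ ‖z‖ := norm_nonneg z
      have h3 := mul_le_mul_of_nonneg_left hz hcoef
      have h4 := mul_le_mul_of_nonneg_right hbC hn
      nlinarith
    have h5 : ‖y - ‖y‖ • e‖ ^ 2 ≤ (δ * ‖y‖) ^ 2 := by
      rw [hsq]
      have hn : 0 ≤ ‖y‖ := norm_nonneg y
      have : (δ * ‖y‖) ^ 2 = 2 * ‖y‖ * (δ' * ‖y‖) := by rw [hδ']; ring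
      rw [this]
      refine mul_le_mul_of_nonneg_left ?_ (by positivity)
      linarith
    exact le_of_sq_le_sq h5 (by positivity)
  rw [hyid, hy]
  exact bo_neg_bo he b z

end core

end Crest.Agent.R096.Rd_695
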