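import Crest.Agent.R096.Rd3_695

/-!
# C3-RED, part 4 (helper695, row 96 P5): radial factor, linear normalisation
-/

set_option autoImplicit false

open MeasureTheory Metric Set Filter Topology
open scoped NNReal ContDiff

namespace Crest.Agent.R096.Rd_695

open Crest.Agent.R096.Vx_270 (Seg Good Sim CoreAt)
open Crest.Agent.R096.Hm_695 (Conic Conic.fderiv_smul Conic.zero)

variable {E : Type*} [NormedAddCommGroup E] [InnerProductSpace ℝ E]

section height

variable {K : E → E} {e : E}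

/-- the maps `K` and `id` separate the cone where `K ≠ id` -/
lemma height_pos (h : SC K) (hid : ∀ z, inner ℝ e z ≤ ‖z‖ / 2 → K z = z) {z : E}
    (hz : ‖z‖ / 2 < inner ℝ e z) : ‖K z‖ / 2 < inner ℝ e (K z) := by
  by_contra hcon
  push Not at hcon
  have h1 := hid (K z) hcon
  have h2 := h.homeo.injective h1
  rw [h2] at hcon
  linarith

open Classical in
/-- the radial factor -/
noncomputable def rho (K : E → E) (e : E) (z : E) : ℝ :=
  if inner ℝ e z ≤ ‖z‖ / 2 then 1 else inner ℝ e z / inner ℝ e (K z)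

lemma rho_of_le {z : E} (hz : inner ℝ e z ≤ ‖z‖ / 2) : rho K e z = 1 := if_pos hz

lemma rho_of_pos (hid : ∀ z, inner ℝ e z ≤ ‖z‖ / 2 → K z = z) {z : E} (hz : 0 < inner ℝ e z) :
    rho K e z = inner ℝ e z / inner ℝ e (K z) := by
  by_cases h : inner ℝ e z ≤ ‖z‖ / 2
  · rw [rho_of_le h, hid z h, div_self hz.ne']
  · rw [rho, if_neg h]

lemma inner_K_pos (h : SC K) (hid : ∀ z, inner ℝ e z ≤ ‖z‖ / 2 → K z = z) {z : E}
    (hz : 0 < inner ℝ e z) : 0 < inner ℝ e (K z) := by
  by_cases h' : inner ℝ e z ≤ ‖z‖ / 2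
  · rw [hid z h']; exact hz
  · push Not at h'
    have := height_pos h hid h'
    linarith [norm_nonneg (K z)]

lemma rho_pos (h : SC K) (hid : ∀ z, inner ℝ e z ≤ ‖z‖ / 2 → K z = z) (z : E) :
    0 < rho K e z := by
  by_cases h' : inner ℝ e z ≤ ‖z‖ / 2
  · rw [rho_of_le h']; exact one_pos
  · push Not at h'
    have hz : 0 < inner ℝ e z := lt_of_le_of_lt (by positivity) h'
    rw [rho_of_pos hid hz]
    exact div_pos hz (inner_K_pos h hid hz)

lemma rho_smul (h : SC K) {c : ℝ} (hc : 0 < c) (z : E) : rho K e (c • z) = rho K e z := by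
  have h1 : inner ℝ e (c • z) = c * inner ℝ e z := inner_smul_right _ _ _
  have h2 : ‖c • z‖ = c * ‖z‖ := by rw [norm_smul, Real.norm_eq_abs, abs_of_pos hc]
  by_cases h' : inner ℝ e z ≤ ‖z‖ / 2
  · rw [rho_of_le h', rho_of_le]
    rw [h1, h2]
    have := mul_le_mul_of_nonneg_left h' hc.le
    linarith
  · have h'' : ¬ (inner ℝ e (c • z) ≤ ‖c • z‖ / 2) := by
      rw [h1, h2]
      intro h3
      apply h'
      have : c * inner ℝ e z ≤ c * (‖z‖ / 2) := by linarith
      exact le_of_mul_le_mul_left this hc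
    rw [rho, if_neg h'', rho, if_neg h', h1, h.conic c hc.le, inner_smul_right]
    rw [mul_div_mul_left _ _ hc.ne']

lemma rho_contDiffAt (h : SC K) (hid : ∀ z, inner ℝ e z ≤ ‖z‖ / 2 → K z = z) {z : E}
    (hz : z ≠ 0) : ContDiffAt ℝ ∞ (rho K e) z := by
  have hz0 : 0 < ‖z‖ := norm_pos_iff.2 hz
  rcases lt_or_ge 0 (inner ℝ e z) with hp | hp
  · have h1 : ContDiffAt ℝ ∞ (fun y => inner ℝ e y / inner ℝ e (K y)) z :=
      (contDiffAt_const.inner ℝ contDiffAt_id).div (contDiffAt_const.inner ℝ (h.contDiffAt hz))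
        (inner_K_pos h hid hp).ne'
    refine h1.congr_of_eventuallyEq ?_
    have hopen : ∀ᶠ y in 𝓝 z, 0 < inner ℝ e y :=
      (isOpen_lt continuous_const (by fun_prop)).mem_nhds hp
    filter_upwards [hopen] with y hy
    exact rho_of_pos hid hy
  · have hopen : ∀ᶠ y in 𝓝 z, inner ℝ e y < ‖y‖ / 2 :=
      (isOpen_lt (by fun_prop) (by fun_prop)).mem_nhds (show inner ℝ e z < ‖z‖ / 2 by linarith)
    refine (contDiffAt_const (c := (1:ℝ))).congr_of_eventuallyEq ?_
    filter_upwards [hopen] with y hy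
    exact rho_of_le hy.le

/-- the derivative of a `0`-homogeneous function kills the radial direction -/
lemma rho_radial (h : SC K) (hid : ∀ z, inner ℝ e z ≤ ‖z‖ / 2 → K z = z) {z : E}
    (hz : z ≠ 0) : fderiv ℝ (rho K e) z z = 0 := by
  have h0 : HasFDerivAt (rho K e) (fderiv ℝ (rho K e) z) z :=
    ((rho_contDiffAt h hid hz).differentiableAt (by simp)).hasFDerivAt
  have h1 : HasDerivAt (fun t : ℝ => rho K e (t • z)) (fderiv ℝ (rho K e) z z) 1 := by
    have h2 : HasDerivAt (fun t : ℝ => t • z) z 1 := by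
      simpa using (hasDerivAt_id (1:ℝ)).smul_const z
    have h3 : HasFDerivAt (rho K e) (fderiv ℝ (rho K e) z) ((1:ℝ) • z) := by
      rw [one_smul]; exact h0
    exact h3.comp_hasDerivAt (1:ℝ) h2
  have h2 : HasDerivAt (fun t : ℝ => rho K e (t • z)) 0 1 := by
    refine (hasDerivAt_const (1:ℝ) (rho K e z)).congr_of_eventuallyEq ?_
    filter_upwards [Ioi_mem_nhds (show (0:ℝ) < 1 from one_pos)] with t ht
    exact rho_smul h ht z
  exact h1.unique h2

variable [FiniteDimensional ℝ E] [MeasurableSpace E] [BorelSpace E] (μ : Measure E)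
  [μ.IsAddHaarMeasure]

/-- **R4** -/
theorem height_step (hE : 1 < Module.finrank ℝ E) (h : SC K)
    (hid : ∀ z, inner ℝ e z ≤ ‖z‖ / 2 → K z = z) :
    ∃ K' : E → E, SC K' ∧ (CoreAt μ K' ↔ CoreAt μ K) ∧
      (∀ z, inner ℝ e z ≤ ‖z‖ / 2 → K' z = z) ∧ ∀ z, inner ℝ e (K' z) = inner ℝ e z := by
  set K' : E → E := fun z => rho K e z • K z with hK'
  have hc' : Conic K' := by
    intro c hc x
    rcases hc.eq_or_lt with hc0 | hc0
    · rw [← hc0, zero_smul, zero_smul]
      simp only [hK']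
      rw [h.conic.zero, smul_zero]
    · simp only [hK']
      rw [rho_smul h hc0, h.conic c hc, smul_comm]
  have hs' : ContDiffOn ℝ ∞ K' {0}ᶜ := fun x hx =>
    ((rho_contDiffAt h hid hx).smul (h.contDiffAt hx)).contDiffWithinAt
  have hstep := segment_step μ hE h hc' hs' ?_
  · refine ⟨K', hstep.1, hstep.2, fun z hz => ?_, fun z => ?_⟩
    · simp only [hK']
      rw [rho_of_le hz, one_smul, hid z hz]
    · simp only [hK']
      rw [inner_smul_right]
      by_cases h' : inner ℝ e z ≤ ‖z‖ / 2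
      · rw [rho_of_le h', one_mul, hid z h']
      · push Not at h'
        have hz : 0 < inner ℝ e z := lt_of_le_of_lt (by positivity) h'
        rw [rho_of_pos hid hz, div_mul_cancel₀ _ (inner_K_pos h hid hz).ne']
  · intro x hx s hs
    have hd := h.differentiableAt hx
    have hfd : fderiv ℝ K' x = rho K e x • fderiv ℝ K x + (fderiv ℝ (rho K e) x).smulRight (K x) :=
      (((rho_contDiffAt h hid hx).differentiableAt (by simp)).hasFDerivAt.smul
        hd.hasFDerivAt).fderiv
    refine pos_of_ne (f := fun s => ((1 - s) • fderiv ℝ K x + s • fderiv ℝ K' x).det) ?_ ?_ ?_ hs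
    · refine ContinuousLinearMap.continuous_det.comp_continuousOn ?_
      fun_prop
    · intro s hs
      refine det_ne_of_inj fun v hv => ?_
      rw [hfd] at hv
      set ρ := rho K e x with hρ
      set φ := fderiv ℝ (rho K e) x with hφ
      have hρ0 : 0 < ρ := rho_pos h hid x
      have hρs : 0 < (1 - s) + s * ρ := by
        rcases hs.1.eq_or_lt with h0 | h0
        · rw [← h0]; simp
        · have : 0 < s * ρ := mul_pos h0 hρ0
          linarith [hs.2]
      have hEu : fderiv ℝ K x x = K x := euler h.conic hd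
      have h1 : fderiv ℝ K x (((1 - s) + s * ρ) • v + (s * φ v) • x) = 0 := by
        rw [map_add, map_smul, map_smul, hEu]
        simp only [add_apply, smul_apply,
          ContinuousLinearMap.smulRight_apply] at hv
        rw [← hv, add_smul, smul_add, smul_smul, smul_smul]
        abel
      have h2 := inj_of_det (h.det x hx).ne' h1
      have h3 : φ x = 0 := rho_radial h hid hx
      have h4 : φ v = 0 := by
        have := congrArg φ h2
        rw [map_add, map_smul, map_smul, h3, map_zero, smul_zero, add_zero, smul_eq_mul] at this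
        exact (mul_eq_zero.1 this).resolve_left hρs.ne'
      rw [h4, mul_zero, zero_smul, add_zero] at h2
      exact (smul_eq_zero.1 h2).resolve_left hρs.ne'
    · simpa using h.det x hx

end height

section linear

variable [FiniteDimensional ℝ E]

omit [FiniteDimensional ℝ E] in
lemma det_symm_pos {A : E ≃L[ℝ] E} (hA : 0 < (A : E →L[ℝ] E).det) :
    0 < (A.symm : E →L[ℝ] E).det := by
  have h1 : (A.symm : E →L[ℝ] E).det * (A : E →L[ℝ] E).det = 1 := by
    have h2 : LinearMap.det (((A.symm : E →L[ℝ] E) : E →ₗ[ℝ] E) ∘ₗ ((A : E →L[ℝ] E) : E →ₗ[ℝ] E))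
        = 1 := by
      have : ((A.symm : E →L[ℝ] E) : E →ₗ[ℝ] E) ∘ₗ ((A : E →L[ℝ] E) : E →ₗ[ℝ] E)
          = LinearMap.id := by
        ext v; simp
      rw [this, LinearMap.det_id]
    rw [LinearMap.det_comp] at h2
    exact h2
  by_contra hcon
  push Not at hcon
  nlinarith

omit [FiniteDimensional ℝ E] in
lemma det_comp_pos {A B : E →L[ℝ] E} (hA : 0 < A.det) (hB : 0 < B.det) :
    0 < (A.comp B).det := by
  have h2 : LinearMap.det ((A : E →ₗ[ℝ] E) ∘ₗ (B : E →ₗ[ℝ] E))
      = LinearMap.det (A : E →ₗ[ℝ] E) * LinearMap.det (B : E →ₗ[ℝ] E) := LinearMap.det_comp _ _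
  have h3 : (A.comp B).det = A.det * B.det := h2
  rw [h3]
  exact mul_pos hA hB

variable [MeasurableSpace E] [BorelSpace E] {μ : Measure E} [μ.IsAddHaarMeasure]

omit [μ.IsAddHaarMeasure] [BorelSpace E] in
/-- `MollAt` is invariant under composition with an orientation preserving linear map -/
lemma mollAt_comp_left {A : E ≃L[ℝ] E} (hA : 0 < (A : E →L[ℝ] E).det) {Φ : E → E} {x : E}
    (h : Mo_119.MollAt μ Φ x) : Mo_119.MollAt μ (fun y => A (Φ y)) x := by
  obtain ⟨r, hr, C, hC1, hC2, hC3, ⟨L, hL⟩, hae⟩ := h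
  refine ⟨r, hr, (fun B : E →L[ℝ] E => (A : E →L[ℝ] E).comp B) '' C, ?_, ?_, ?_, ?_, ?_⟩
  · exact hC1.linear_image ((ContinuousLinearMap.compL ℝ E E E (A : E →L[ℝ] E)) :
      (E →L[ℝ] E) →ₗ[ℝ] (E →L[ℝ] E))
  · exact hC2.image (ContinuousLinearMap.compL ℝ E E E (A : E →L[ℝ] E)).continuous
  · rintro _ ⟨B, hB, rfl⟩
    exact det_comp_pos hA (hC3 B hB)
  · exact ⟨_, (A : E →L[ℝ] E).lipschitz.comp_lipschitzOnWith hL⟩
  · filter_upwards [hae] with y hy hyb
    refine ⟨fderiv ℝ Φ y, hy hyb, ?_⟩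
    exact (A.comp_fderiv (f := Φ) (x := y)).symm

omit [μ.IsAddHaarMeasure] [BorelSpace E] in
theorem coreAt_of_comp_left {A : E ≃L[ℝ] E} (hA : 0 < (A : E →L[ℝ] E).det) {K : E → E}
    (h : CoreAt μ (fun x => A (K x))) : CoreAt μ K := by
  obtain ⟨Φ, hΦ, hout, hmoll, C, hC⟩ := h
  refine ⟨fun x => A.symm (Φ x), A.symm.toHomeomorph.isHomeomorph.comp hΦ, fun x hx => ?_,
    fun x => mollAt_comp_left (det_symm_pos hA) (hmoll x), _,
    (A.symm : E →L[ℝ] E).lipschitz.comp hC⟩
  show A.symm (Φ x) = K x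
  rw [hout x hx]
  exact A.symm_apply_apply _

omit [MeasurableSpace E] [BorelSpace E] in
lemma SC.comp_left {K : E → E} (h : SC K) {A : E ≃L[ℝ] E} (hA : 0 < (A : E →L[ℝ] E).det) :
    SC (fun x => A (K x)) := by
  refine ⟨fun c hc x => by rw [h.conic c hc, map_smul], fun x hx => ?_, fun x hx => ?_,
    A.toHomeomorph.isHomeomorph.comp h.homeo⟩
  · exact (A.contDiff.contDiffAt.comp x (h.contDiffAt hx)).contDiffWithinAt
  · have : fderiv ℝ (fun x => A (K x)) x = (A : E →L[ℝ] E).comp (fderiv ℝ K x) :=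
      A.comp_fderiv (f := K) (x := x)
    rw [this]
    exact det_comp_pos hA (h.det x hx)

end linear

section normal
variable [FiniteDimensional ℝ E] [MeasurableSpace E] [BorelSpace E] (μ : Measure E)
  [μ.IsAddHaarMeasure]

/-- **R1 - R4 together**: every smooth conic diffeomorphism is reduced to one which preserves the
height `⟪e, ·⟫` and is the identity for `⟪e, z⟫ ≤ ‖z‖ / 2`. -/
theorem normalise (hE : 1 < Module.finrank ℝ E) {e : E} (he : ‖e‖ = 1) {H : E → E} (h : SC H) :
    ∃ K : E → E, SC K ∧ (CoreAt μ K → CoreAt μ H) ∧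
      (∀ z, inner ℝ e z ≤ ‖z‖ / 2 → K z = z) ∧ ∀ z, inner ℝ e (K z) = inner ℝ e z := by
  -- use the opposite direction for the localisation
  set e' : E := -e with he'
  have hne' : ‖e'‖ = 1 := by rw [he', norm_neg, he]
  have hne : e' ≠ 0 := by
    intro h0; rw [h0, norm_zero] at hne'; exact zero_ne_one hne'
  set D : E ≃L[ℝ] E := (fderiv ℝ H e').toContinuousLinearEquivOfDetNeZero (h.det e' hne).ne'
    with hD
  have hDe : (D : E →L[ℝ] E) = fderiv ℝ H e' :=
    ContinuousLinearMap.coe_toContinuousLinearEquivOfDetNeZero _ _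
  have hDdet : 0 < (D : E →L[ℝ] E).det := by rw [hDe]; exact h.det e' hne
  have hAdet : 0 < (D.symm : E →L[ℝ] E).det := det_symm_pos hDdet
  have h1 : SC (fun x => D.symm (H x)) := h.comp_left hAdet
  have hfd : fderiv ℝ (fun x => D.symm (H x)) e' = ContinuousLinearMap.id ℝ E := by
    have : fderiv ℝ (fun x => D.symm (H x)) e' =
        (D.symm : E →L[ℝ] E).comp (fderiv ℝ H e') := D.symm.comp_fderiv (f := H) (x := e')
    rw [this, ← hDe]
    ext v; simp
  obtain ⟨H2, h2, hc2, δ, hδ, hid2⟩ := localise μ hE h1 hne' hfd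
  obtain ⟨H3, h3, hc3, hid3⟩ := boost_step μ hE h2 hne' hδ hid2
  have hid3' : ∀ z, inner ℝ e z ≤ ‖z‖ / 2 → H3 z = z := by
    intro z hz
    refine hid3 z ?_
    rw [he', inner_neg_left]
    linarith
  obtain ⟨H4, h4, hc4, hid4, hh4⟩ := height_step μ hE h3 hid3'
  exact ⟨H4, h4, fun hc => coreAt_of_comp_left hAdet (hc2.1 (hc3.1 (hc4.1 hc))), hid4, hh4⟩

end normal

end Crest.Agent.R096.Rd_695
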