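import Crest.Agent.R096.Rd4_695
import Crest.Agent.R096.BelDefs_205

/-!
# C3-RED, part 5 (helper695, row 96 P5): cones over maps of the plane
-/

set_option autoImplicit false

open MeasureTheory Metric Set Filter Topology
open scoped NNReal ContDiff

namespace Crest.Agent.R096.Rd_695

open Crest.Agent.R096.Vx_270 (Seg Good Sim CoreAt)
open Crest.Agent.R096.Hm_695 (Conic Conic.fderiv_smul Conic.zero)
open Crest.Agent.R096.BelDefs_205 (Adm PathC Bel)

variable {E : Type*} [NormedAddCommGroup E] [InnerProductSpace ℝ E]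

/-- coordinates `ℂ × ℝ` adapted to the unit vector `e` -/
structure Chart (e : E) where
  ι : ℂ →L[ℝ] E
  π : E →L[ℝ] ℂ
  πι : ∀ w, π (ι w) = w
  πe : π e = 0
  sι : ∀ w, inner ℝ e (ι w) = 0
  dec : ∀ z, ι (π z) + (inner ℝ e z : ℝ) • e = z

theorem exists_chart [FiniteDimensional ℝ E] (hE : Module.finrank ℝ E = 3) {e : E}
    (he : ‖e‖ = 1) : Nonempty (Chart e) := by
  have hne : e ≠ 0 := by
    rintro rfl; simp at he
  have : Fact (Module.finrank ℝ E = 2 + 1) := ⟨hE⟩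
  have h2 : Module.finrank ℝ (ℝ ∙ e)ᗮ = 2 := Submodule.finrank_orthogonal_span_singleton hne
  let ψ : ℂ ≃L[ℝ] (ℝ ∙ e)ᗮ := ContinuousLinearEquiv.ofFinrankEq (by
    rw [h2, Complex.finrank_real_complex])
  have hs : ∀ y : (ℝ ∙ e)ᗮ, inner ℝ e (y : E) = 0 := fun y =>
    (Submodule.mem_orthogonal_singleton_iff_inner_right).1 y.2
  refine ⟨⟨(ℝ ∙ e)ᗮ.subtypeL.comp (ψ : ℂ →L[ℝ] (ℝ ∙ e)ᗮ),
    (ψ.symm : (ℝ ∙ e)ᗮ →L[ℝ] ℂ).comp (ℝ ∙ e)ᗮ.orthogonalProjectionOnto, ?_, ?_, ?_, ?_⟩⟩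
  · intro w
    simp
  · have : (ℝ ∙ e)ᗮ.orthogonalProjectionOnto e = 0 := by
      apply Submodule.orthogonalProjectionOnto_orthogonal_apply_eq_zero
      exact Submodule.mem_span_singleton_self e
    simp [this]
  · intro w
    exact hs (ψ w)
  · intro z
    simp only [ContinuousLinearMap.comp_apply, ContinuousLinearEquiv.coe_coe,
      ContinuousLinearEquiv.apply_symm_apply, Submodule.subtypeL_apply]
    have h3 := Submodule.starProjection_add_starProjection_orthogonal (K := ℝ ∙ e) z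
    have h4 : (ℝ ∙ e).starProjection z = (inner ℝ e z : ℝ) • e := by
      rw [Submodule.starProjection_unit_singleton ℝ he]
    rw [h4] at h3
    rw [add_comm] at h3
    exact h3

namespace Chart

variable {e : E} (c : Chart e)

/-- the cone over `g`, upper half space -/
noncomputable def up (g : ℂ → ℂ) (z : E) : E :=
  c.ι ((inner ℝ e z : ℝ) • g ((inner ℝ e z : ℝ)⁻¹ • c.π z)) + (inner ℝ e z : ℝ) • e

open Classical in
/-- the cone over `g` -/
noncomputable def cone (g : ℂ → ℂ) (z : E) : E :=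
  if 0 < (inner ℝ e z : ℝ) then c.up g z else z

/-- derivative of the cone -/
noncomputable def DC (A : ℂ →L[ℝ] ℂ) (w gw : ℂ) : E →L[ℝ] E :=
  c.ι.comp (A.comp (c.π - (innerSL ℝ e).smulRight w) + (innerSL ℝ e).smulRight gw)
    + (innerSL ℝ e).smulRight e

lemma DC_apply (A : ℂ →L[ℝ] ℂ) (w gw : ℂ) (v : E) :
    c.DC A w gw v = c.ι (A (c.π v - (inner ℝ e v : ℝ) • w) + (inner ℝ e v : ℝ) • gw)
      + (inner ℝ e v : ℝ) • e := rfl

lemma hasFDerivAt_up {g : ℂ → ℂ} {z : E} (hz : 0 < (inner ℝ e z : ℝ))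
    (hg : DifferentiableAt ℝ g ((inner ℝ e z : ℝ)⁻¹ • c.π z)) :
    HasFDerivAt (c.up g) (c.DC (fderiv ℝ g ((inner ℝ e z : ℝ)⁻¹ • c.π z))
      ((inner ℝ e z : ℝ)⁻¹ • c.π z) (g ((inner ℝ e z : ℝ)⁻¹ • c.π z))) z := by
  set s := (inner ℝ e z : ℝ) with hs
  set w := s⁻¹ • c.π z with hw
  have h1 : HasFDerivAt (fun y : E => (inner ℝ e y : ℝ)) (innerSL ℝ e) z :=
    (innerSL ℝ e).hasFDerivAt
  have h2 : HasFDerivAt (fun y : E => (inner ℝ e y : ℝ)⁻¹) (-(s ^ 2)⁻¹ • innerSL ℝ e) z :=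
    (hasDerivAt_inv hz.ne').comp_hasFDerivAt z h1
  have h3 : HasFDerivAt (fun y : E => c.π y) c.π z := c.π.hasFDerivAt
  have h4 : HasFDerivAt (fun y : E => (inner ℝ e y : ℝ)⁻¹ • c.π y)
      (s⁻¹ • c.π + (-(s ^ 2)⁻¹ • innerSL ℝ e).smulRight (c.π z)) z := h2.smul h3
  have h5 : HasFDerivAt g (fderiv ℝ g w) ((fun y : E => (inner ℝ e y : ℝ)⁻¹ • c.π y) z) :=
    hg.hasFDerivAt
  have h6 : HasFDerivAt (fun y : E => g ((inner ℝ e y : ℝ)⁻¹ • c.π y))
      ((fderiv ℝ g w).comp (s⁻¹ • c.π + (-(s ^ 2)⁻¹ • innerSL ℝ e).smulRight (c.π z))) z :=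
    HasFDerivAt.comp z h5 h4
  have h7 := h1.smul h6
  have h8 := (c.ι.hasFDerivAt.comp z h7).add (h1.smul_const e)
  refine HasFDerivAt.congr_fderiv h8 ?_
  ext v
  rw [DC_apply]
  simp only [add_apply, ContinuousLinearMap.comp_apply, smul_apply,
    ContinuousLinearMap.smulRight_apply, innerSL_apply_apply]
  have key : s • (fderiv ℝ g w) (s⁻¹ • c.π v + (-(s ^ 2)⁻¹ • (inner ℝ e v : ℝ)) • c.π z) =
      (fderiv ℝ g w) (c.π v - (inner ℝ e v : ℝ) • w) := by
    rw [← map_smul]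
    congr 1
    rw [hw, smul_add, smul_smul, mul_inv_cancel₀ hz.ne', one_smul, smul_smul, smul_smul,
      sub_eq_add_neg, ← neg_smul]
    congr 2
    rw [smul_eq_mul]
    field_simp
  rw [← key]

lemma DC_inj {A : ℂ →L[ℝ] ℂ} (hA : ∀ u, A u = 0 → u = 0) (w gw : ℂ) (he : ‖e‖ = 1) {v : E}
    (hv : c.DC A w gw v = 0) : v = 0 := by
  rw [DC_apply] at hv
  have h1 : (inner ℝ e v : ℝ) = 0 := by
    have := congrArg (fun y => (inner ℝ e y : ℝ)) hv
    simp only [inner_add_right, c.sι, inner_smul_right, real_inner_self_eq_norm_sq, he,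
      inner_zero_right] at this
    simpa using this
  rw [h1] at hv
  simp only [zero_smul, sub_zero, add_zero] at hv
  have h2 : A (c.π v) = 0 := by
    have := congrArg c.π hv
    rwa [c.πι, map_zero] at this
  have h3 := hA _ h2
  rw [← c.dec v, h3, h1, map_zero, zero_smul, add_zero]

/-- the open set where all cones are the identity -/
def out (R : ℝ) : Set E := {z | R * (inner ℝ e z : ℝ) < ‖c.π z‖} ∪ {z | (inner ℝ e z : ℝ) < 0}

lemma isOpen_out (R : ℝ) : IsOpen (c.out R) :=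
  (isOpen_lt (by fun_prop) (by fun_prop)).union (isOpen_lt (by fun_prop) (by fun_prop))

lemma isOpen_upper : IsOpen {z : E | 0 < (inner ℝ e z : ℝ)} :=
  isOpen_lt (by fun_prop) (by fun_prop)

lemma cone_of_out {g : ℂ → ℂ} {R : ℝ} (hg : ∀ w, R < ‖w‖ → g w = w) {z : E}
    (hz : z ∈ c.out R) : c.cone g z = z := by
  by_cases hs : 0 < (inner ℝ e z : ℝ)
  · rw [cone, if_pos hs, up]
    have hz' : R * (inner ℝ e z : ℝ) < ‖c.π z‖ := by
      rcases hz with hz | hz
      · exact hz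
      · exact absurd hs (not_lt.2 (le_of_lt hz))
    have h1 : R < ‖(inner ℝ e z : ℝ)⁻¹ • c.π z‖ := by
      rw [norm_smul, norm_inv, Real.norm_eq_abs, abs_of_pos hs, lt_inv_mul_iff₀ hs]
      linarith
    rw [hg _ h1, smul_smul, mul_inv_cancel₀ hs.ne', one_smul]
    exact c.dec z
  · rw [cone, if_neg hs]

lemma mem_out_of_le {R : ℝ} {z : E} (hz : z ≠ 0) (hs : (inner ℝ e z : ℝ) ≤ 0) :
    z ∈ c.out R := by
  rcases hs.lt_or_eq with h | h
  · exact Or.inr h
  · left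
    show R * (inner ℝ e z : ℝ) < ‖c.π z‖
    rw [h, mul_zero, norm_pos_iff]
    intro h0
    apply hz
    rw [← c.dec z, h0, h, map_zero, zero_smul, add_zero]

lemma cone_conic (g : ℂ → ℂ) : Conic (c.cone g) := by
  intro a ha z
  rcases ha.eq_or_lt with ha0 | ha0
  · rw [← ha0, zero_smul, zero_smul, cone, if_neg]
    simp
  · have h1 : (inner ℝ e (a • z) : ℝ) = a * inner ℝ e z := inner_smul_right _ _ _
    by_cases hs : 0 < (inner ℝ e z : ℝ)
    · have hs' : 0 < (inner ℝ e (a • z) : ℝ) := by rw [h1]; positivity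
      have h2 : (a * (inner ℝ e z : ℝ))⁻¹ * a = (inner ℝ e z : ℝ)⁻¹ := by
        field_simp
      rw [cone, if_pos hs', cone, if_pos hs, up, up, h1, c.π.map_smul, smul_smul, h2, smul_add,
        mul_smul, mul_smul, c.ι.map_smul]
    · have hs' : ¬ 0 < (inner ℝ e (a • z) : ℝ) := by
        rw [h1]
        push Not at hs ⊢
        exact mul_nonpos_of_nonneg_of_nonpos ha0.le hs
      rw [cone, if_neg hs', cone, if_neg hs]

lemma cone_id : c.cone id = id := by
  funext z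
  by_cases hs : 0 < (inner ℝ e z : ℝ)
  · rw [cone, if_pos hs, up, id, smul_smul, mul_inv_cancel₀ hs.ne', one_smul]
    exact c.dec z
  · rw [cone, if_neg hs]; rfl

lemma cone_eventually_up (g : ℂ → ℂ) {z : E} (hz : 0 < (inner ℝ e z : ℝ)) :
    c.cone g =ᶠ[𝓝 z] c.up g := by
  filter_upwards [isOpen_upper.mem_nhds (show z ∈ {z : E | 0 < (inner ℝ e z : ℝ)} from hz)]
    with y hy
  rw [cone, if_pos hy]

lemma cone_eventually_id {g : ℂ → ℂ} {R : ℝ} (hg : ∀ w, R < ‖w‖ → g w = w) {z : E}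
    (hz : z ∈ c.out R) : c.cone g =ᶠ[𝓝 z] id := by
  filter_upwards [(c.isOpen_out R).mem_nhds hz] with y hy
  exact c.cone_of_out hg hy

lemma fderiv_cone_up {g : ℂ → ℂ} {z : E} (hz : 0 < (inner ℝ e z : ℝ))
    (hg : DifferentiableAt ℝ g ((inner ℝ e z : ℝ)⁻¹ • c.π z)) :
    fderiv ℝ (c.cone g) z = c.DC (fderiv ℝ g ((inner ℝ e z : ℝ)⁻¹ • c.π z))
      ((inner ℝ e z : ℝ)⁻¹ • c.π z) (g ((inner ℝ e z : ℝ)⁻¹ • c.π z)) := by
  rw [(c.cone_eventually_up g hz).fderiv_eq]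
  exact (c.hasFDerivAt_up hz hg).fderiv

lemma fderiv_cone_out {g : ℂ → ℂ} {R : ℝ} (hg : ∀ w, R < ‖w‖ → g w = w) {z : E}
    (hz : z ∈ c.out R) : fderiv ℝ (c.cone g) z = ContinuousLinearMap.id ℝ E := by
  rw [(c.cone_eventually_id hg hz).fderiv_eq]
  exact fderiv_id

lemma contDiffAt_cone {R : ℝ} {g : ℂ → ℂ} (hg : Adm R g) {z : E} (hz : z ≠ 0) :
    ContDiffAt ℝ ∞ (c.cone g) z := by
  by_cases hs : 0 < (inner ℝ e z : ℝ)
  · refine ContDiffAt.congr_of_eventuallyEq ?_ (c.cone_eventually_up g hs)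
    unfold up
    have h1 : ContDiffAt ℝ ∞ (fun y : E => (inner ℝ e y : ℝ)) z :=
      contDiffAt_const.inner ℝ contDiffAt_id
    have h2 : ContDiffAt ℝ ∞ (fun y : E => (inner ℝ e y : ℝ)⁻¹ • c.π y) z :=
      (h1.inv hs.ne').smul c.π.contDiff.contDiffAt
    have h3 : ContDiffAt ℝ ∞ (fun y : E => g ((inner ℝ e y : ℝ)⁻¹ • c.π y)) z :=
      hg.smooth.contDiffAt.comp z h2
    exact (c.ι.contDiff.contDiffAt.comp z (h1.smul h3)).add (h1.smul contDiffAt_const)
  · push Not at hs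
    exact contDiffAt_id.congr_of_eventuallyEq
      (c.cone_eventually_id hg.out (c.mem_out_of_le hz hs))

lemma fderiv_cone_inj {R : ℝ} {g : ℂ → ℂ} (hg : Adm R g) (he : ‖e‖ = 1) {z : E} (hz : z ≠ 0)
    {v : E} (hv : fderiv ℝ (c.cone g) z v = 0) : v = 0 := by
  by_cases hs : 0 < (inner ℝ e z : ℝ)
  · rw [c.fderiv_cone_up hs ((hg.smooth.differentiable (by simp)) _)] at hv
    exact c.DC_inj (fun u hu => inj_of_det (hg.det _).ne' hu) _ _ he hv
  · push Not at hs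
    rw [c.fderiv_cone_out hg.out (c.mem_out_of_le hz hs)] at hv
    exact hv

section path

lemma joint0 {R M : ℝ} {F : ℝ → ℂ → ℂ} (h : PathC R M F) :
    ContinuousOn (fun p : ℝ × ℂ => F p.1 p.2) (Icc 0 1 ×ˢ univ) := by
  refine continuousOn_prod_of_continuousOn_lipschitzOnWith (fun p : ℝ × ℂ => F p.1 p.2)
    M.toNNReal (fun a ha => ((h.adm a ha).smooth.continuous).continuousOn) fun b _ => ?_
  refine LipschitzOnWith.of_dist_le_mul fun s hs t ht => ?_
  rw [dist_eq_norm, Real.dist_eq]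
  exact (h.lip0 s hs t ht b).trans
    (mul_le_mul_of_nonneg_right (Real.le_coe_toNNReal M) (abs_nonneg _))

lemma joint1 {R M : ℝ} {F : ℝ → ℂ → ℂ} (h : PathC R M F) :
    ContinuousOn (fun p : ℝ × ℂ => fderiv ℝ (F p.1) p.2) (Icc 0 1 ×ˢ univ) := by
  refine continuousOn_prod_of_continuousOn_lipschitzOnWith
    (fun p : ℝ × ℂ => fderiv ℝ (F p.1) p.2)
    M.toNNReal (fun a ha => ((h.adm a ha).smooth.continuous_fderiv (by simp)).continuousOn)
    fun b _ => ?_
  refine LipschitzOnWith.of_dist_le_mul fun s hs t ht => ?_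
  rw [dist_eq_norm, Real.dist_eq]
  exact (h.lip1 s hs t ht b).trans
    (mul_le_mul_of_nonneg_right (Real.le_coe_toNNReal M) (abs_nonneg _))

lemma continuous_DC : Continuous fun q : (ℂ →L[ℝ] ℂ) × ℂ × ℂ => c.DC q.1 q.2.1 q.2.2 := by
  unfold DC
  fun_prop

lemma continuousOn_fderiv_cone {R M : ℝ} {F : ℝ → ℂ → ℂ} (h : PathC R M F) :
    ContinuousOn (fun p : ℝ × E => fderiv ℝ (c.cone (F p.1)) p.2) (Icc 0 1 ×ˢ {0}ᶜ) := by
  rintro ⟨t, z⟩ ⟨ht, hz⟩
  have hz0 : z ≠ 0 := hz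
  by_cases hs : 0 < (inner ℝ e z : ℝ)
  · set W : Set (ℝ × E) := Icc 0 1 ×ˢ {z : E | 0 < (inner ℝ e z : ℝ)} with hW
    set w : ℝ × E → ℂ := fun p => (inner ℝ e p.2 : ℝ)⁻¹ • c.π p.2 with hw
    have hsc : ContinuousOn (fun p : ℝ × E => (inner ℝ e p.2 : ℝ)) W := by fun_prop
    have hπc : ContinuousOn (fun p : ℝ × E => c.π p.2) W := by fun_prop
    have hwc : ContinuousOn w W := (hsc.inv₀ fun p hp => ne_of_gt hp.2).smul hπc
    have hpw : ContinuousOn (fun p : ℝ × E => (p.1, w p)) W := continuousOn_fst.prodMk hwc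
    have hmaps : MapsTo (fun p : ℝ × E => (p.1, w p)) W (Icc 0 1 ×ˢ univ) :=
      fun p hp => ⟨hp.1, mem_univ _⟩
    have h0 : ContinuousOn (fun p : ℝ × E => F p.1 (w p)) W := (joint0 h).comp hpw hmaps
    have h1 : ContinuousOn (fun p : ℝ × E => fderiv ℝ (F p.1) (w p)) W :=
      (joint1 h).comp hpw hmaps
    have h12 : ContinuousOn (fun p : ℝ × E => (fderiv ℝ (F p.1) (w p), w p, F p.1 (w p))) W :=
      h1.prodMk (hwc.prodMk h0)
    have h2 := c.continuous_DC.comp_continuousOn h12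
    have h3 : ContinuousOn (fun p : ℝ × E => fderiv ℝ (c.cone (F p.1)) p.2) W := by
      refine h2.congr fun p hp => ?_
      exact c.fderiv_cone_up hp.2 (((h.adm p.1 hp.1).smooth.differentiable (by simp)) _)
    have h4 : ContinuousWithinAt (fun p : ℝ × E => fderiv ℝ (c.cone (F p.1)) p.2) W (t, z) :=
      h3 (t, z) ⟨ht, hs⟩
    refine h4.mono_of_mem_nhdsWithin ?_
    have h5 : (univ : Set ℝ) ×ˢ {z : E | 0 < (inner ℝ e z : ℝ)} ∈ 𝓝 (t, z) :=
      (isOpen_univ.prod isOpen_upper).mem_nhds ⟨mem_univ _, hs⟩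
    filter_upwards [self_mem_nhdsWithin, mem_nhdsWithin_of_mem_nhds h5] with p hp hp'
    exact ⟨hp.1, hp'.2⟩
  · push Not at hs
    have hout : z ∈ c.out R := c.mem_out_of_le hz0 hs
    have h5 : (univ : Set ℝ) ×ˢ c.out R ∈ 𝓝 (t, z) :=
      (isOpen_univ.prod (c.isOpen_out R)).mem_nhds ⟨mem_univ _, hout⟩
    have h6 : (fun p : ℝ × E => fderiv ℝ (c.cone (F p.1)) p.2)
        =ᶠ[𝓝[Icc 0 1 ×ˢ {0}ᶜ] (t, z)] fun _ => ContinuousLinearMap.id ℝ E := by
      filter_upwards [self_mem_nhdsWithin, mem_nhdsWithin_of_mem_nhds h5] with p hp hp'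
      exact c.fderiv_cone_out (h.adm p.1 hp.1).out hp'.2
    exact (continuousWithinAt_const (b := ContinuousLinearMap.id ℝ E)).congr_of_eventuallyEq h6
      (c.fderiv_cone_out (h.adm t ht).out hout)

variable [FiniteDimensional ℝ E]

lemma cone_det_pos {R M : ℝ} {F : ℝ → ℂ → ℂ} (h : PathC R M F) (he : ‖e‖ = 1)
    (h0 : ∀ z, z ≠ 0 → 0 < (fderiv ℝ (c.cone (F 0)) z).det) {t : ℝ} (ht : t ∈ Icc (0:ℝ) 1)
    {z : E} (hz : z ≠ 0) : 0 < (fderiv ℝ (c.cone (F t)) z).det := by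
  refine pos_of_ne (f := fun t => (fderiv ℝ (c.cone (F t)) z).det) ?_ ?_ (h0 z hz) ht
  · refine ContinuousLinearMap.continuous_det.comp_continuousOn ?_
    have : ContinuousOn (fun s : ℝ => ((s, z) : ℝ × E)) (Icc 0 1) := by fun_prop
    exact (c.continuousOn_fderiv_cone h).comp this fun s hs => ⟨hs, hz⟩
  · exact fun s hs => det_ne_of_inj fun v hv => c.fderiv_cone_inj (h.adm s hs) he hz hv

variable [MeasurableSpace E] [BorelSpace E] (μ : Measure E) [μ.IsAddHaarMeasure]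

/-- the cones over a path of plane maps -/
theorem cone_step (hE : 1 < Module.finrank ℝ E) {R M : ℝ} {F : ℝ → ℂ → ℂ} (h : PathC R M F)
    (he : ‖e‖ = 1) (h0 : ∀ z, z ≠ 0 → 0 < (fderiv ℝ (c.cone (F 0)) z).det)
    (hh : IsHomeomorph (c.cone (F 0))) {t : ℝ} (ht : t ∈ Icc (0:ℝ) 1) :
    IsHomeomorph (c.cone (F t)) ∧ (CoreAt μ (c.cone (F t)) ↔ CoreAt μ (c.cone (F 0))) :=
  path_step μ hE (fun t _ => c.cone_conic (F t))
    (fun t ht z hz => ((c.contDiffAt_cone (h.adm t ht) hz).of_le (by norm_cast)).contDiffWithinAt)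
    (c.continuousOn_fderiv_cone h) (fun t ht z hz => c.cone_det_pos h he h0 ht hz) hh ht

end path

/-- a height preserving smooth conic diffeomorphism is the cone over a map of the plane -/
theorem exists_plane [FiniteDimensional ℝ E] {K : E → E} (h : SC K) (he : ‖e‖ = 1)
    (hid : ∀ z, inner ℝ e z ≤ ‖z‖ / 2 → K z = z) (hh : ∀ z, inner ℝ e (K z) = (inner ℝ e z : ℝ)) :
    ∃ (R : ℝ) (f : ℂ → ℂ), Adm R f ∧ c.cone f = K := by
  set f : ℂ → ℂ := fun w => c.π (K (c.ι w + e)) with hf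
  have hs1 : ∀ w, (inner ℝ e (c.ι w + e) : ℝ) = 1 := fun w => by
    rw [inner_add_right, c.sι, real_inner_self_eq_norm_sq, he]; norm_num
  have hne : ∀ w, c.ι w + e ≠ 0 := fun w h0 => by
    have := hs1 w
    rw [h0, inner_zero_right] at this
    exact zero_ne_one this
  have hKf : ∀ w, K (c.ι w + e) = c.ι (f w) + e := fun w => by
    have h1 := c.dec (K (c.ι w + e))
    rw [hh, hs1, one_smul] at h1
    exact h1.symm
  have haff : ∀ w, HasFDerivAt (fun w => c.ι w + e) c.ι w := fun w =>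
    c.ι.hasFDerivAt.add_const e
  have hfd : ∀ w, HasFDerivAt f ((c.π.comp (fderiv ℝ K (c.ι w + e))).comp c.ι) w := fun w => by
    have h1 : HasFDerivAt K (fderiv ℝ K (c.ι w + e)) (c.ι w + e) :=
      (h.differentiableAt (hne w)).hasFDerivAt
    exact c.π.hasFDerivAt.comp w (h1.comp w (haff w))
  have hsm : ContDiff ℝ ∞ f := by
    rw [contDiff_iff_contDiffAt]
    intro w
    have h1 : ContDiffAt ℝ ∞ (fun w => c.ι w + e) w :=
      c.ι.contDiff.contDiffAt.add contDiffAt_const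
    exact c.π.contDiff.contDiffAt.comp w ((h.contDiffAt (hne w)).comp w h1)
  -- derivative of the height
  have hhd : ∀ w v, (inner ℝ e (fderiv ℝ K (c.ι w + e) v) : ℝ) = inner ℝ e v := fun w v => by
    have h1 : HasFDerivAt K (fderiv ℝ K (c.ι w + e)) (c.ι w + e) :=
      (h.differentiableAt (hne w)).hasFDerivAt
    have h2 : HasFDerivAt (fun z => (inner ℝ e (K z) : ℝ))
        ((innerSL ℝ e).comp (fderiv ℝ K (c.ι w + e))) (c.ι w + e) :=
      (innerSL ℝ e).hasFDerivAt.comp _ h1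
    have h3 : (fun z => (inner ℝ e (K z) : ℝ)) = fun z => (innerSL ℝ e) z := by
      funext z; exact hh z
    rw [h3] at h2
    have h4 := h2.unique (innerSL ℝ e).hasFDerivAt
    have h5 := congrArg (fun A : E →L[ℝ] ℝ => A v) h4
    exact h5
  have hinj : ∀ w v, fderiv ℝ f w v = 0 → v = 0 := fun w v hv => by
    rw [(hfd w).fderiv] at hv
    have h1 : c.π (fderiv ℝ K (c.ι w + e) (c.ι v)) = 0 := hv
    have h2 := c.dec (fderiv ℝ K (c.ι w + e) (c.ι v))
    rw [h1, hhd, c.sι, map_zero, zero_smul, add_zero] at h2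
    have h3 := inj_of_det (h.det _ (hne w)).ne' h2.symm
    rw [← c.πι v, h3, map_zero]
  -- radius
  set R : ℝ := 3 * ‖c.π‖ with hR
  have hR0 : 0 ≤ R := by positivity
  have hout : ∀ w, R < ‖w‖ → f w = w := fun w hw => by
    have h1 : ‖w‖ ≤ ‖c.π‖ * ‖c.ι w‖ := by
      have := c.π.le_opNorm (c.ι w)
      rwa [c.πι] at this
    have h2 : 3 < ‖c.ι w‖ := by
      by_contra hcon
      push Not at hcon
      have : ‖c.π‖ * ‖c.ι w‖ ≤ ‖c.π‖ * 3 := by gcongr
      linarith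
    have h3 : ‖c.ι w‖ ≤ ‖c.ι w + e‖ + 1 := by
      calc ‖c.ι w‖ = ‖(c.ι w + e) - e‖ := by congr 1; abel
        _ ≤ ‖c.ι w + e‖ + ‖e‖ := norm_sub_le _ _
        _ = _ := by rw [he]
    have h4 : K (c.ι w + e) = c.ι w + e := hid _ (by rw [hs1]; linarith)
    simp only [hf]
    rw [h4, map_add, c.πι, c.πe, add_zero]
  have hdet : ∀ w, 0 < (fderiv ℝ f w).det := fun w => by
    set w₁ : ℂ := ((R + 1 : ℝ) : ℂ) with hw₁
    have hn : R < ‖w₁‖ := by
      rw [hw₁, Complex.norm_real, Real.norm_eq_abs, abs_of_nonneg (by linarith)]; linarith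
    have h1 : fderiv ℝ f w₁ = ContinuousLinearMap.id ℝ ℂ := by
      have : f =ᶠ[𝓝 w₁] id := by
        filter_upwards [(isOpen_lt continuous_const continuous_norm).mem_nhds hn] with y hy
        exact hout y hy
      rw [this.fderiv_eq]; exact fderiv_id
    have h2 := pos_of_ne (f := fun t => (fderiv ℝ f (w₁ + t • (w - w₁))).det) (t := 1) ?_ ?_ ?_
      (by simp)
    · simpa using h2
    · refine Continuous.continuousOn ?_
      refine ContinuousLinearMap.continuous_det.comp ?_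
      exact (hsm.continuous_fderiv (by simp)).comp (by fun_prop)
    · intro t _
      exact det_ne_of_inj fun v hv => hinj _ v hv
    · simp only [zero_smul, add_zero]
      rw [h1]
      show 0 < LinearMap.det _
      simp
  refine ⟨R, f, ⟨hsm, hout, hdet⟩, ?_⟩
  funext z
  by_cases hs : 0 < (inner ℝ e z : ℝ)
  · rw [cone, if_pos hs, up]
    set s := (inner ℝ e z : ℝ) with hs'
    have h1 : z = s • (c.ι (s⁻¹ • c.π z) + e) := by
      rw [map_smul, smul_add, smul_smul, mul_inv_cancel₀ hs.ne', one_smul]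
      exact (c.dec z).symm
    conv_rhs => rw [h1, h.conic s hs.le, hKf, smul_add]
    rw [map_smul]
  · rw [cone, if_neg hs]
    push Not at hs
    exact (hid z (hs.trans (by positivity))).symm

end Chart

section final
variable [FiniteDimensional ℝ E] [MeasurableSpace E] [BorelSpace E] (μ : Measure E)
  [μ.IsAddHaarMeasure]

/-- **C3-RED**: smooth conic diffeomorphisms of a `3`-dimensional space are `CoreAt`, granted the
path connectedness of `Diff_c(ℂ)`. -/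
theorem coreAt_of_bel (hB : Bel) (hE : Module.finrank ℝ E = 3) {H : E → E} (h : SC H) :
    CoreAt μ H := by
  have hE1 : 1 < Module.finrank ℝ E := by rw [hE]; norm_num
  have hnt : Nontrivial E := Module.nontrivial_of_finrank_pos (R := ℝ) (by omega)
  obtain ⟨e, he⟩ := exists_norm_eq E (zero_le_one)
  obtain ⟨c⟩ := exists_chart hE he
  obtain ⟨K, hK, hc, hid, hh⟩ := normalise μ hE1 he h
  refine hc ?_
  obtain ⟨R, f, hf, hKf⟩ := c.exists_plane hK he hid hh
  obtain ⟨R', M, F, G, hF, hG, hF0, hFG, hG1⟩ := hB R f hf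
  rw [← hKf, ← hG1]
  have hid0 : c.cone (F 0) = id := by rw [hF0]; exact c.cone_id
  have hdet0 : ∀ z, z ≠ 0 → 0 < (fderiv ℝ (c.cone (F 0)) z).det := fun z _ => by
    rw [hid0, fderiv_id]
    show 0 < LinearMap.det _
    simp
  have h1 := fun t (ht : t ∈ Icc (0:ℝ) 1) => c.cone_step μ hE1 hF he hdet0
    (by rw [hid0]; exact IsHomeomorph.id) ht
  have hdetG : ∀ z, z ≠ 0 → 0 < (fderiv ℝ (c.cone (G 0)) z).det := fun z hz => by
    rw [← hFG]
    exact c.cone_det_pos hF he hdet0 (by simp) hz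
  have h2 := c.cone_step μ hE1 hG he hdetG (by rw [← hFG]; exact (h1 1 (by simp)).1)
    (t := 1) (by simp)
  rw [h2.2, ← hFG, (h1 1 (by simp)).2, hid0]
  have h3 := Vx_270.coreAt_linear (μ := μ) (L := ContinuousLinearMap.id ℝ E) (by
    show 0 < LinearMap.det _
    simp)
  exact h3

/-- **CORE3** from `Bel` -/
theorem core_of_bel (hB : Bel) (hE : Module.finrank ℝ E = 3) {K : E → E} (hK : IsHomeomorph K)
    (hc : ∀ c : ℝ, 0 ≤ c → ∀ x, K (c • x) = c • K x)
    (hM : ∀ x, x ≠ 0 → Mo_119.MollAt μ K x) : CoreAt μ K :=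
  Hm_695.coreAt_of_smooth μ (by rw [hE]; norm_num)
    (fun G h1 h2 h3 h4 => coreAt_of_bel μ hB hE ⟨h2, h3, h4, h1⟩) hK hc hM

end final

end Crest.Agent.R096.Rd_695
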