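import Crest.Agent.R096.Red1_58

/-!
# R096 (row 96, p = 2), leaf R-EDGE-SUB (622's (S4)), helper58: `red_edges` on sub-intervals off finitely
many exceptional balls
-/

set_option autoImplicit false

namespace Crest.Agent.R096.Red_58

open MeasureTheory Set Filter Topology
open Crest.Agent.R096.Core_124 Crest.Agent.R096.Cwr_527
open Crest.AnalysisR.VecCalc3 Crest.AnalysisR.Sobolev
open Crest.Agent.R96.Acl_392 Crest.Agent.R96.Lu_538 Crest.Agent.R96.Coarse_538
open Crest.Agent.R096.Sk_962 (SH)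
open scoped ENNReal

noncomputable section

/-- a curve with an integrable derivative is continuous -/
theorem continuousOn_of_inc {F : Type*} [NormedAddCommGroup F] [NormedSpace ℝ F] [CompleteSpace F]
    {c c' : ℝ → F} {a b : ℝ} (hab : a ≤ b) (hc' : IntervalIntegrable c' volume a b)
    (hc : ∀ s ∈ Icc a b, ∀ t ∈ Icc a b, s ≤ t → c t - c s = ∫ τ in s..t, c' τ) :
    ContinuousOn c (Icc a b) := by
  have h1 : ContinuousOn (fun t => ∫ τ in a..t, c' τ) (Icc a b) := by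
    have := intervalIntegral.continuousOn_primitive_interval' hc' left_mem_uIcc
    rwa [uIcc_of_le hab] at this
  refine (continuousOn_const.add h1 : ContinuousOn (fun t => c a + ∫ τ in a..t, c' τ) _).congr
    fun t ht => ?_
  show c t = c a + ∫ τ in a..t, c' τ
  rw [← hc a ⟨le_rfl, hab⟩ t ht ht.1]
  abel

/-- **R-EDGE, one curve on `[a, b]`**; the formula for `R` is only needed in the interior -/
theorem red_edge_ab {R : R3 → R3} {ψ : Fin 3 → ℝ → ℝ} {σ : ℝ} (hm : ∀ a, Monotone (ψ a))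
    (hL : ∀ a x y, |ψ a x - ψ a y| ≤ |x - y|) (h0 : ∀ a x, 0 ≤ ψ a x) (h1 : ∀ a x, ψ a x ≤ σ)
    {c c' d : ℝ → R3} {a b : ℝ} (hab : a ≤ b) (hc' : IntervalIntegrable c' volume a b)
    (hc : ∀ s ∈ Icc a b, ∀ t ∈ Icc a b, s ≤ t → c t - c s = ∫ τ in s..t, c' τ)
    (hR : ∀ t ∈ Ioo a b, ∀ i, R (c t) i = c t i - ψ i (c t i))
    (hd : IntervalIntegrable d volume a b)
    (hRd : ∀ s ∈ Icc a b, ∀ t ∈ Icc a b, s ≤ t → R (c t) - R (c s) = ∫ τ in s..t, d τ)
    (u : R3) :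
    ∫ τ in a..b, ‖d τ - u‖ ≤ 7 * (∫ τ in a..b, ‖c' τ - u‖) + 3 * σ := by
  have hσ : 0 ≤ σ := (h0 0 0).trans (h1 0 0)
  rcases hab.eq_or_lt with rfl | hlt
  · simp only [intervalIntegral.integral_same]
    linarith
  have hl : 0 < b - a := sub_pos.2 hlt
  -- the formula on the closed interval
  have cc := continuousOn_of_inc hab hc' hc
  have cR : ContinuousOn (fun t => R (c t)) (Icc a b) := continuousOn_of_inc hab hd hRd
  have hR' : ∀ t ∈ Icc a b, ∀ i, R (c t) i = c t i - ψ i (c t i) := by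
    intro t ht i
    have hψ : Continuous (ψ i) := by
      have : LipschitzWith 1 (ψ i) := LipschitzWith.of_dist_le_mul fun x y => by
        simpa [Real.dist_eq] using hL i x y
      exact this.continuous
    have hci : ContinuousOn (fun t => c t i) (Icc a b) :=
      (EuclideanSpace.proj i : R3 →L[ℝ] ℝ).continuous.comp_continuousOn cc
    have hRi : ContinuousOn (fun t => R (c t) i) (Icc a b) :=
      (EuclideanSpace.proj i : R3 →L[ℝ] ℝ).continuous.comp_continuousOn cR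
    have hr : ContinuousOn (fun t => c t i - ψ i (c t i)) (Icc a b) :=
      hci.sub (hψ.comp_continuousOn hci)
    have hcl : Icc a b ⊆ closure (Ioo a b) := by rw [closure_Ioo hlt.ne]
    have heq : EqOn (fun t => R (c t) i) (fun t => c t i - ψ i (c t i)) (Ioo a b) :=
      fun t ht => hR t ht i
    exact heq.of_subset_closure hRi hr Ioo_subset_Icc_self hcl ht
  have hφ : ∀ t ∈ Icc (0:ℝ) 1, a + (b - a) * t ∈ Icc a b := by
    intro t ht
    constructor
    · nlinarith [ht.1]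
    · nlinarith [ht.2]
  have e0 : a + (b - a) * 0 = a := by ring
  have e1 : a + (b - a) * 1 = b := by ring
  have hii : ∀ h : ℝ → R3, IntervalIntegrable h volume a b →
      IntervalIntegrable (fun t => (b - a) • h (a + (b - a) * t)) volume 0 1 := by
    intro h hh
    have h2 : IntervalIntegrable (fun t => h (a + t)) volume (a - a) (b - a) := by
      have := hh.comp_add_left a
      simpa using this
    have h3 := h2.comp_mul_left (c := b - a)
    have e2 : (a - a) / (b - a) = 0 := by simp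
    have e3 : (b - a) / (b - a) = 1 := div_self hl.ne'
    rw [e2, e3] at h3
    exact h3.smul (b - a)
  have hinc : ∀ (e h : ℝ → R3), (∀ s ∈ Icc a b, ∀ t ∈ Icc a b, s ≤ t →
      e t - e s = ∫ τ in s..t, h τ) → ∀ s ∈ Icc (0:ℝ) 1, ∀ t ∈ Icc (0:ℝ) 1, s ≤ t →
      e (a + (b - a) * t) - e (a + (b - a) * s) = ∫ τ in s..t, (b - a) • h (a + (b - a) * τ) := by
    intro e h he s hs t ht hst
    rw [he _ (hφ s hs) _ (hφ t ht) (by nlinarith), intervalIntegral.integral_smul,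
      intervalIntegral.smul_integral_comp_add_mul]
  have key := red_edge (R := R) (c := fun t => c (a + (b - a) * t)) hm hL h0 h1 (hii c' hc')
    (hinc c c' hc) (fun t ht i => hR' _ (hφ t ht) i) (hii d hd) (hinc (fun t => R (c t)) d hRd)
    ((b - a) • u)
  have hsc : ∀ h : ℝ → R3, ∫ τ in (0:ℝ)..1, ‖(b - a) • h (a + (b - a) * τ) - (b - a) • u‖ =
      ∫ τ in a..b, ‖h τ - u‖ := by
    intro h
    have h2 : ∀ τ : ℝ, ‖(b - a) • h (a + (b - a) * τ) - (b - a) • u‖ =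
        (b - a) * ‖h (a + (b - a) * τ) - u‖ := fun τ => by
      rw [← smul_sub, norm_smul, Real.norm_eq_abs, abs_of_pos hl]
    simp_rw [h2]
    rw [intervalIntegral.integral_const_mul]
    have h3 := intervalIntegral.smul_integral_comp_add_mul (a := 0) (b := 1)
      (fun τ => ‖h τ - u‖) (b - a) a
    rw [e0, e1, smul_eq_mul] at h3
    exact h3
  rw [hsc, hsc] at key
  exact key

/-- the parameters off the closed `β`-neighbourhoods of `S` -/
def Off (S : Finset ℝ) (β : ℝ) : Set ℝ := {t | ∀ s ∈ S, β < |t - s|}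

theorem isOpen_Off (S : Finset ℝ) (β : ℝ) : IsOpen (Off S β) := by
  have : Off S β = ⋂ s ∈ S, {t | β < |t - s|} := by
    ext t
    simp [Off]
  rw [this]
  exact isOpen_biInter_finset fun s _ => isOpen_lt continuous_const (by fun_prop)

/-- **R-EDGE, one curve, off finitely many balls** -/
theorem red_edge_off {R : R3 → R3} {ψ : Fin 3 → ℝ → ℝ} {σ β : ℝ} (hβ : 0 ≤ β)
    (hm : ∀ a, Monotone (ψ a))
    (hL : ∀ a x y, |ψ a x - ψ a y| ≤ |x - y|) (h0 : ∀ a x, 0 ≤ ψ a x) (h1 : ∀ a x, ψ a x ≤ σ)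
    {c c' d : ℝ → R3} (u : R3) (S : Finset ℝ) : ∀ {a b : ℝ}, a ≤ b →
    IntervalIntegrable c' volume a b →
    (∀ s ∈ Icc a b, ∀ t ∈ Icc a b, s ≤ t → c t - c s = ∫ τ in s..t, c' τ) →
    (∀ t ∈ Ioo a b, t ∈ Off S β → ∀ i, R (c t) i = c t i - ψ i (c t i)) →
    IntervalIntegrable d volume a b →
    (∀ s ∈ Icc a b, ∀ t ∈ Icc a b, s ≤ t → R (c t) - R (c s) = ∫ τ in s..t, d τ) →
    ∫⁻ t in Ioo a b ∩ Off S β, ‖d t - u‖ₑ ≤ 7 * (∫⁻ t in Ioo a b ∩ Off S β, ‖c' t - u‖ₑ) +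
      ENNReal.ofReal (3 * (S.card + 1) * σ) := by
  have hσ : 0 ≤ σ := (h0 0 0).trans (h1 0 0)
  have lin : ∀ {h : ℝ → R3} {a b : ℝ}, a ≤ b → IntervalIntegrable h volume a b →
      ∫⁻ t in Ioo a b, ‖h t - u‖ₑ = ENNReal.ofReal (∫ t in a..b, ‖h t - u‖) := by
    intro h a b hab hh
    rw [intervalIntegral.integral_of_le hab,
      ofReal_integral_norm_eq_lintegral_enorm (hh.sub intervalIntegrable_const).1]
    exact setLIntegral_congr Ioo_ae_eq_Ioc
  have base : ∀ {a b : ℝ}, a ≤ b → IntervalIntegrable c' volume a b →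
      (∀ s ∈ Icc a b, ∀ t ∈ Icc a b, s ≤ t → c t - c s = ∫ τ in s..t, c' τ) →
      (∀ t ∈ Ioo a b, ∀ i, R (c t) i = c t i - ψ i (c t i)) →
      IntervalIntegrable d volume a b →
      (∀ s ∈ Icc a b, ∀ t ∈ Icc a b, s ≤ t → R (c t) - R (c s) = ∫ τ in s..t, d τ) →
      ∫⁻ t in Ioo a b, ‖d t - u‖ₑ ≤ 7 * (∫⁻ t in Ioo a b, ‖c' t - u‖ₑ) +
        ENNReal.ofReal (3 * σ) := by
    intro a b hab hc' hc hR hd hRd
    have key := red_edge_ab hm hL h0 h1 hab hc' hc hR hd hRd u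
    rw [lin hab hc', lin hab hd]
    refine (ENNReal.ofReal_le_ofReal key).trans ?_
    have hnn : 0 ≤ ∫ t in a..b, ‖c' t - u‖ :=
      intervalIntegral.integral_nonneg hab fun t _ => norm_nonneg _
    rw [ENNReal.ofReal_add (by positivity) (by positivity), ENNReal.ofReal_mul (by norm_num)]
    gcongr
    norm_num
  induction S using Finset.induction_on_max with
  | empty =>
    intro a b hab hc' hc hR hd hRd
    have e : Ioo a b ∩ Off ∅ β = Ioo a b := by
      ext t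
      simp [Off]
    rw [e]
    refine (base hab hc' hc (fun t ht => hR t ht (by simp [Off])) hd hRd).trans ?_
    gcongr
    simp
  | insert s S hs ih =>
    intro a b hab hc' hc hR hd hRd
    have hns : s ∉ S := fun h => lt_irrefl _ (hs s h)
    -- the two pieces
    set b1 := max a (min b (s - β)) with hb1
    set a2 := min b (max a (s + β)) with ha2
    have hab1 : a ≤ b1 := le_max_left _ _
    have hb1b : b1 ≤ b := max_le hab (min_le_left _ _)
    have haa2 : a ≤ a2 := le_min hab (le_max_left _ _)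
    have ha2b : a2 ≤ b := min_le_left _ _
    have hI1 : Icc a b1 ⊆ Icc a b := Icc_subset_Icc le_rfl hb1b
    have hI2 : Icc a2 b ⊆ Icc a b := Icc_subset_Icc haa2 le_rfl
    have hJ1 : uIcc a b1 ⊆ uIcc a b := by rw [uIcc_of_le hab1, uIcc_of_le hab]; exact hI1
    have hJ2 : uIcc a2 b ⊆ uIcc a b := by rw [uIcc_of_le ha2b, uIcc_of_le hab]; exact hI2
    have m1 : ∀ t ∈ Ioo a b1, t < b ∧ t < s - β := by
      intro t ht
      have h2 : t < min b (s - β) := by
        rcases lt_max_iff.1 ht.2 with h | h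
        · exact absurd h (not_lt.2 ht.1.le)
        · exact h
      exact lt_min_iff.1 h2
    have m2 : ∀ t ∈ Ioo a2 b, a < t ∧ s + β < t := by
      intro t ht
      have h2 : max a (s + β) < t := by
        rcases min_lt_iff.1 ht.1 with h | h
        · exact absurd h (not_lt.2 ht.2.le)
        · exact h
      exact max_lt_iff.1 h2
    have o1 : ∀ t ∈ Ioo a b1, t ∈ Off S β → t ∈ Ioo a b ∧ t ∈ Off (insert s S) β := by
      intro t ht hO
      obtain ⟨h2, h3⟩ := m1 t ht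
      refine ⟨⟨ht.1, h2⟩, fun r hr => ?_⟩
      rcases Finset.mem_insert.1 hr with rfl | hr
      · rw [abs_sub_comm]
        exact (by linarith : β < r - t).trans_le (le_abs_self _)
      · exact hO r hr
    have o2 : ∀ t ∈ Ioo a2 b, t ∈ Ioo a b ∧ t ∈ Off (insert s S) β := by
      intro t ht
      obtain ⟨h2, h3⟩ := m2 t ht
      refine ⟨⟨h2, ht.2⟩, fun r hr => ?_⟩
      rcases Finset.mem_insert.1 hr with rfl | hr
      · exact (by linarith : β < t - r).trans_le (le_abs_self _)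
      · have := hs r hr
        exact (by linarith : β < t - r).trans_le (le_abs_self _)
    have split : Ioo a b ∩ Off (insert s S) β = (Ioo a b1 ∩ Off S β) ∪ Ioo a2 b := by
      ext t
      constructor
      · rintro ⟨ht, hO⟩
        have h2 := hO s (Finset.mem_insert_self _ _)
        rcases lt_abs.1 h2 with h3 | h3
        · right
          refine ⟨?_, ht.2⟩
          exact min_lt_iff.2 (Or.inr (max_lt ht.1 (by linarith)))
        · left
          refine ⟨⟨ht.1, ?_⟩, fun r hr => hO r (Finset.mem_insert_of_mem hr)⟩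
          exact lt_max_iff.2 (Or.inr (lt_min ht.2 (by linarith)))
      · rintro (⟨ht, hO⟩ | ht)
        · exact o1 t ht hO
        · exact o2 t ht
    have hdis : Disjoint (Ioo a b1 ∩ Off S β) (Ioo a2 b) := by
      rw [Set.disjoint_left]
      rintro t ⟨ht, _⟩ ht2
      have h2 := (m1 t ht).2
      have h3 := (m2 t ht2).2
      linarith
    have k1 := ih (a := a) (b := b1) hab1 (hc'.mono_set hJ1)
      (fun s hs t ht => hc s (hI1 hs) t (hI1 ht))
      (fun t ht hO => hR t (o1 t ht hO).1 (o1 t ht hO).2) (hd.mono_set hJ1)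
      (fun s hs t ht => hRd s (hI1 hs) t (hI1 ht))
    have k2 := base (a := a2) (b := b) ha2b (hc'.mono_set hJ2)
      (fun s hs t ht => hc s (hI2 hs) t (hI2 ht))
      (fun t ht => hR t (o2 t ht).1 (o2 t ht).2) (hd.mono_set hJ2)
      (fun s hs t ht => hRd s (hI2 hs) t (hI2 ht))
    rw [split, lintegral_union measurableSet_Ioo hdis, lintegral_union measurableSet_Ioo hdis,
      Finset.card_insert_of_notMem hns]
    refine (add_le_add k1 k2).trans (le_of_eq ?_)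
    have e : ENNReal.ofReal (3 * ((S.card + 1 : ℕ) + 1) * σ) =
        ENNReal.ofReal (3 * (S.card + 1) * σ) + ENNReal.ofReal (3 * σ) := by
      rw [← ENNReal.ofReal_add (by positivity) (by positivity)]
      congr 1
      push_cast
      ring
    rw [e]
    ring

/-- **R-EDGE-SUB (622's (S4)), almost every translate of countably many edges, off finitely many
balls**: the exceptional set of translations does not depend on `S`, `β`, `u`. -/
theorem red_edges_off {p : ℝ} {Om La : Set R3} (hOm : IsOpen Om) {g : R3 → R3}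
    {G G2 : Fin 3 → R3 → R3} {R : R3 → R3} (hg : SH p Om La g G)
    (hRg : SH p Om La (fun x => R (g x)) G2) {ψ : Fin 3 → ℝ → ℝ} {σ : ℝ}
    (hm : ∀ a, Monotone (ψ a)) (hL : ∀ a x y, |ψ a x - ψ a y| ≤ |x - y|)
    (h0 : ∀ a x, 0 ≤ ψ a x) (h1 : ∀ a x, ψ a x ≤ σ) {O : Set R3}
    (hR : ∀ y ∈ O, ∀ a, R y a = y a - ψ a (y a)) {ι : Type*} [Countable ι] (x v : ι → R3) :
    ∀ᵐ w : R3, ∀ i, (∀ t ∈ Icc (0:ℝ) 1, x i + w + t • v i ∈ Om) →
      ∀ (S : Finset ℝ) (β : ℝ), 0 ≤ β →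
      (∀ t ∈ Ioo (0:ℝ) 1, t ∈ Off S β → g (x i + w + t • v i) ∈ O) →
      ∀ u : R3, ∫⁻ t in Ioo (0:ℝ) 1 ∩ Off S β, ‖Gmat G2 (x i + w + t • v i) (v i) - u‖ₑ ≤
        7 * (∫⁻ t in Ioo (0:ℝ) 1 ∩ Off S β, ‖Gmat G (x i + w + t • v i) (v i) - u‖ₑ) +
          ENNReal.ofReal (3 * (S.card + 1) * σ) := by
  obtain ⟨_, _, _, _, _, hgc, _⟩ := hg.homeo
  obtain ⟨_, _, _, _, _, hRgc, _⟩ := hRg.homeo
  have k1 := acv_countable hOm hg.wg hgc x v
  have k2 := acv_countable hOm hRg.wg hRgc x v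
  filter_upwards [k1, k2] with w w1 w2 i hi S β hβ hO u
  have e : w + x i = x i + w := add_comm _ _
  obtain ⟨a1, a2⟩ := acv_interval (e ▸ w1 i) hi
  obtain ⟨b1, b2⟩ := acv_interval (e ▸ w2 i) hi
  exact red_edge_off hβ hm hL h0 h1 u S zero_le_one a1 a2
    (fun t ht hS a => hR _ (hO t ht hS) a) b1 b2

/-- **R-EDGE-SUB, the whole edge** -/
theorem red_edges_sub {p : ℝ} {Om La : Set R3} (hOm : IsOpen Om) {g : R3 → R3}
    {G G2 : Fin 3 → R3 → R3} {R : R3 → R3} (hg : SH p Om La g G)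
    (hRg : SH p Om La (fun x => R (g x)) G2) {ψ : Fin 3 → ℝ → ℝ} {σ : ℝ}
    (hm : ∀ a, Monotone (ψ a)) (hL : ∀ a x y, |ψ a x - ψ a y| ≤ |x - y|)
    (h0 : ∀ a x, 0 ≤ ψ a x) (h1 : ∀ a x, ψ a x ≤ σ) {O : Set R3}
    (hR : ∀ y ∈ O, ∀ a, R y a = y a - ψ a (y a)) {ι : Type*} [Countable ι] (x v : ι → R3) :
    ∀ᵐ w : R3, ∀ i, (∀ t ∈ Icc (0:ℝ) 1, x i + w + t • v i ∈ Om) →
      ∀ (S : Finset ℝ) (β : ℝ), 0 ≤ β →
      (∀ t ∈ Ioo (0:ℝ) 1, (∀ s ∈ S, β < |t - s|) → g (x i + w + t • v i) ∈ O) →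
      ∀ u : R3, ∫⁻ t in Icc (0:ℝ) 1, ‖Gmat G2 (x i + w + t • v i) (v i) - u‖ₑ ≤
        7 * (∫⁻ t in {t ∈ Icc (0:ℝ) 1 | ∀ s ∈ S, β < |t - s|},
            ‖Gmat G (x i + w + t • v i) (v i) - u‖ₑ) +
          ENNReal.ofReal (3 * (S.card + 1) * σ) +
          ∫⁻ t in {t ∈ Icc (0:ℝ) 1 | ∃ s ∈ S, |t - s| ≤ β},
            ‖Gmat G2 (x i + w + t • v i) (v i) - u‖ₑ := by
  filter_upwards [red_edges_off hOm hg hRg hm hL h0 h1 hR x v] with w hw i hi S β hβ hO u
  have key := hw i hi S β hβ (fun t ht hS => hO t ht hS) u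
  have hle : ∫⁻ t in Ioo (0:ℝ) 1 ∩ Off S β, ‖Gmat G (x i + w + t • v i) (v i) - u‖ₑ ≤
      ∫⁻ t in {t ∈ Icc (0:ℝ) 1 | ∀ s ∈ S, β < |t - s|},
        ‖Gmat G (x i + w + t • v i) (v i) - u‖ₑ :=
    lintegral_mono_set fun t ht => ⟨Ioo_subset_Icc_self ht.1, ht.2⟩
  have hcov : Ioo (0:ℝ) 1 ⊆ (Ioo (0:ℝ) 1 ∩ Off S β) ∪
      {t ∈ Icc (0:ℝ) 1 | ∃ s ∈ S, |t - s| ≤ β} := by
    intro t ht
    by_cases h : ∀ s ∈ S, β < |t - s|
    · exact Or.inl ⟨ht, h⟩
    · push Not at h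
      exact Or.inr ⟨Ioo_subset_Icc_self ht, h⟩
  calc ∫⁻ t in Icc (0:ℝ) 1, ‖Gmat G2 (x i + w + t • v i) (v i) - u‖ₑ
      = ∫⁻ t in Ioo (0:ℝ) 1, ‖Gmat G2 (x i + w + t • v i) (v i) - u‖ₑ :=
        (setLIntegral_congr Ioo_ae_eq_Icc).symm
    _ ≤ ∫⁻ t in (Ioo (0:ℝ) 1 ∩ Off S β) ∪ {t ∈ Icc (0:ℝ) 1 | ∃ s ∈ S, |t - s| ≤ β},
          ‖Gmat G2 (x i + w + t • v i) (v i) - u‖ₑ := lintegral_mono_set hcov
    _ ≤ _ := lintegral_union_le _ _ _
    _ ≤ _ := by gcongr; exact key.trans (by gcongr)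

end

end Crest.Agent.R096.Red_58
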