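import Crest.Agent.R096.Mrg1_715

/-!
# R096 (row 96, p = 2): REFINE = cutting a merged (giant) cell by a mesh (helper527)

`M : MeshC ι Φ W`, `π : ι → ι'` merges the cells, `mergeC M π hπ` = merged mesh of 715.
`Restr s' s` : the state `s` of the merged mesh is the restriction of the state `s'` of `M`.

If the pattern of the sheet `i` inside every merged cell is a union of discs in the sense of
(D1) `DH1` : a function on the chords in the cells of `π ⁻¹' {k}` which is exact on every cell is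
             exact,
(D2) `DBd` : every point in the merged cell is joined by inner chords to a point on its boundary,
(D3) `DJn` : two boundary points joined inside are joined by chords on the boundary,
then `s.H1 i ↔ s'.H1 i` and `s.Conn i ↔ s'.Conn i`.
-/

set_option autoImplicit false

open Set

namespace Crest.Agent.R096.Ref_527

open St_147 Msh_715

variable {ι ι' Φ W : Type} {M : MeshC ι Φ W} {π : ι → ι'}
  {hπ : ∀ k w, ConnAt M (π ⁻¹' {k}) w} {I : Type} {col : I → Bool}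

/-- the face `F` is visible in the merged mesh -/
def Vis (M : MeshC ι Φ W) (π : ι → ι') (F : Φ) : Prop := ¬ ((M.side F).map π).IsDiag

/-- `F` is a face of a cell of `π ⁻¹' {k}` -/
def Of (M : MeshC ι Φ W) (π : ι → ι') (k : ι') (F : Φ) : Prop := ∃ q ∈ M.side F, π q = k

/-- `s` is the restriction of `s'` to the merged mesh -/
structure Restr (s' : St M col) (s : St (mergeC M π hπ) col) : Prop where
  at_iff : ∀ (F : {F : Φ // ¬ ((M.side F).map π).IsDiag}) (w : W), w ∈ M.On F.1 →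
    (w ∈ s.P ↔ w ∈ s'.P)
  lab : ∀ (F : {F : Φ // ¬ ((M.side F).map π).IsDiag}) (w : W), w ∈ M.On F.1 → w ∈ s'.P →
    s.lab w = s'.lab w
  mu : ∀ (F : {F : Φ // ¬ ((M.side F).map π).IsDiag}) (w : W), w ∈ M.On F.1 → w ∈ s'.P →
    s.mu F w = s'.mu F.1 w

/-- one chord of the sheet `i` on a face of the merged cell `k` -/
def StepIn (π : ι → ι') (s' : St M col) (i : I) (k : ι') (w v : W) : Prop :=
  ∃ F, Of M π k F ∧ s'.At F w ∧ s'.lab w = i ∧ v = s'.mu F w

/-- one chord of the sheet `i` on a visible face of the merged cell `k` -/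
def StepBd (π : ι → ι') (s' : St M col) (i : I) (k : ι') (w v : W) : Prop :=
  ∃ F, Of M π k F ∧ Vis M π F ∧ s'.At F w ∧ s'.lab w = i ∧ v = s'.mu F w

/-- point of the sheet `i` on the boundary of the merged cell `k` -/
def Bd (π : ι → ι') (s' : St M col) (i : I) (k : ι') (w : W) : Prop :=
  ∃ F, Of M π k F ∧ Vis M π F ∧ s'.At F w ∧ s'.lab w = i

/-- point of the sheet `i` in the merged cell `k` -/
def In (π : ι → ι') (s' : St M col) (i : I) (k : ι') (w : W) : Prop :=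
  ∃ F, Of M π k F ∧ s'.At F w ∧ s'.lab w = i

/-- (D1) -/
def DH1 (π : ι → ι') (s' : St M col) (i : I) (k : ι') : Prop :=
  ∀ κ : Φ → W → ZMod 2,
    (∀ q : ι, π q = k → ∃ ψ : W → ZMod 2, ∀ F w, q ∈ M.side F → s'.At F w → s'.lab w = i →
      κ F w = ψ w + ψ (s'.mu F w)) →
    ∃ Ψ : W → ZMod 2, ∀ F w, Of M π k F → s'.At F w → s'.lab w = i →
      κ F w = Ψ w + Ψ (s'.mu F w)

/-- (D2) -/
def DBd (π : ι → ι') (s' : St M col) (i : I) (k : ι') : Prop :=
  ∀ w, In π s' i k w → ∃ b, Bd π s' i k b ∧ Relation.ReflTransGen (StepIn π s' i k) w b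

/-- (D3) -/
def DJn (π : ι → ι') (s' : St M col) (i : I) (k : ι') : Prop :=
  ∀ w v, Bd π s' i k w → Bd π s' i k v → Relation.ReflTransGen (StepIn π s' i k) w v →
    Relation.ReflTransGen (StepBd π s' i k) w v

section basics

theorem At.mu {s : St M col} {F : Φ} {w : W} (h : s.At F w) : s.At F (s.mu F w) :=
  s.mu_mem h.1 h.2

theorem StepIn.symm {s' : St M col} {i : I} {k : ι'} {w v : W} (h : StepIn π s' i k w v) :
    StepIn π s' i k v w := by
  obtain ⟨F, hF, ha, hl, rfl⟩ := h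
  exact ⟨F, hF, At.mu ha, (s'.mu_lab ha.1 ha.2).trans hl, (s'.mu_mu ha.1 ha.2).symm⟩

theorem rtg_symm {s' : St M col} {i : I} {k : ι'} {w v : W}
    (h : Relation.ReflTransGen (StepIn π s' i k) w v) :
    Relation.ReflTransGen (StepIn π s' i k) v w := by
  induction h with
  | refl => exact Relation.ReflTransGen.refl
  | tail _ h2 ih => exact Relation.ReflTransGen.head h2.symm ih

theorem Bd.toIn {s' : St M col} {i : I} {k : ι'} {w : W} (h : Bd π s' i k w) : In π s' i k w := by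
  obtain ⟨F, h1, _, h3, h4⟩ := h
  exact ⟨F, h1, h3, h4⟩

theorem StepIn.in_right {s' : St M col} {i : I} {k : ι'} {w v : W} (h : StepIn π s' i k w v) :
    In π s' i k v := by
  obtain ⟨F, hF, ha, hl, rfl⟩ := h
  exact ⟨F, hF, At.mu ha, (s'.mu_lab ha.1 ha.2).trans hl⟩

/-- sides of an invisible face of `k` -/
theorem of_invis {F : Φ} {k : ι'} (hF : Of M π k F) (hv : ¬ Vis M π F) :
    ∀ q ∈ M.side F, π q = k := by
  obtain ⟨q0, hq0, h0⟩ := hF
  unfold Vis at hv
  rw [not_not, map_isDiag_iff] at hv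
  intro q hq
  rw [hv q hq q0 hq0]; exact h0

theorem of_unique {F : Φ} {k k' : ι'} (hF : Of M π k F) (hF' : Of M π k' F) (hv : ¬ Vis M π F) :
    k = k' := by
  obtain ⟨q, hq, rfl⟩ := hF
  exact of_invis hF' hv q hq

/-- **link**: a point in `k` which lies on a visible face lies on a visible face of `k` -/
theorem exists_vis_of {w : W} {F G : Φ} {k : ι'} (hF : Of M π k F) (hwF : w ∈ M.On F)
    (hG : Vis M π G) (hwG : w ∈ M.On G) : ∃ G', Of M π k G' ∧ Vis M π G' ∧ w ∈ M.On G' := by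
  by_contra hcon
  push Not at hcon
  obtain ⟨q, hq, hqk⟩ := hF
  have key := M.link w (π ⁻¹' {k}) (by
    intro F' hF' x hx y hy hxk
    by_cases hv : Vis M π F'
    · exact absurd hF' (hcon F' ⟨x, hx, hxk⟩ hv)
    · exact of_invis ⟨x, hx, hxk⟩ hv y hy) F hwF q hq hqk G hwG
  apply hG
  rw [map_isDiag_iff]
  intro x hx y hy
  have h1 : π x = k := key x hx
  have h2 : π y = k := key y hy
  rw [h1, h2]

/-- a point which lies on no visible face lies in one merged cell only -/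
theorem in_unique {w : W} {F F' : Φ} {k k' : ι'} (hF : Of M π k F) (hwF : w ∈ M.On F)
    (hF' : Of M π k' F') (hwF' : w ∈ M.On F') (hno : ∀ G, w ∈ M.On G → ¬ Vis M π G) : k = k' := by
  obtain ⟨q, hq, hqk⟩ := hF
  have key := M.link w (π ⁻¹' {k}) (by
    intro G hG x hx y hy hxk
    exact of_invis ⟨x, hx, hxk⟩ (hno G hG) y hy) F hwF q hq hqk F' hwF'
  obtain ⟨q', hq', rfl⟩ := hF'
  exact (key q' hq').symm

theorem in_bd {s' : St M col} {i : I} {k : ι'} {w : W} (h : In π s' i k w) {G : Φ}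
    (hG : Vis M π G) (hwG : w ∈ M.On G) : Bd π s' i k w := by
  obtain ⟨F, hF, ha, hl⟩ := h
  obtain ⟨G', h1, h2, h3⟩ := exists_vis_of hF ha.2 hG hwG
  exact ⟨G', h1, h2, ⟨ha.1, h3⟩, hl⟩

end basics

namespace Restr

variable {s' : St M col} {s : St (mergeC M π hπ) col}

theorem at_ {F : {F : Φ // ¬ ((M.side F).map π).IsDiag}} {w : W} (r : Restr s' s) :
    s.At F w ↔ s'.At F.1 w := by
  constructor
  · rintro ⟨h1, h2⟩
    exact ⟨(r.at_iff F w h2).1 h1, h2⟩
  · rintro ⟨h1, h2⟩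
    exact ⟨(r.at_iff F w h2).2 h1, h2⟩

/-- a step on the boundary is a step of the merged state -/
theorem stepBd_mem {i : I} {k : ι'} (r : Restr s' s) {X : Set W}
    (hX : ∀ F w, w ∈ X → s.At F w → s.lab w = i → s.mu F w ∈ X) {w v : W}
    (h : Relation.ReflTransGen (StepBd π s' i k) w v) (hw : w ∈ X) : v ∈ X := by
  induction h with
  | refl => exact hw
  | tail _ h2 ih =>
    obtain ⟨F, _, hv, ha, hl, rfl⟩ := h2
    have h3 := hX ⟨F, hv⟩ _ ih (r.at_.2 ha) ((r.lab ⟨F, hv⟩ _ ha.2 ha.1).trans hl)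
    rw [r.mu ⟨F, hv⟩ _ ha.2 ha.1] at h3
    exact h3

/-- `H¹`, giant cell → cut cell -/
theorem h1 {i : I} (r : Restr s' s) (hD1 : ∀ k, DH1 π s' i k) (hD2 : ∀ k, DBd π s' i k)
    (hD3 : ∀ k, DJn π s' i k) (h : s.H1 i) : s'.H1 i := by
  classical
  intro κ hκ
  have h1 : ∀ k, ∃ Ψ : W → ZMod 2, ∀ F w, Of M π k F → s'.At F w → s'.lab w = i →
      κ F w = Ψ w + Ψ (s'.mu F w) := fun k => hD1 k κ fun q _ => hκ q
  choose Ψk hΨk using h1
  obtain ⟨Ψo, hΨo⟩ := h (fun F w => κ F.1 w) (by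
    intro k
    refine ⟨Ψk k, fun F w hk ha hl => ?_⟩
    have ha' := r.at_.1 ha
    have hl' : s'.lab w = i := (r.lab F w ha'.2 ha'.1).symm.trans hl
    obtain ⟨q, hq, hqk⟩ := mem_map_iff.1 hk
    rw [r.mu F w ha'.2 ha'.1]
    exact hΨk k F.1 w ⟨q, hq, hqk⟩ ha' hl')
  have hO : ∀ F w, Vis M π F → s'.At F w → s'.lab w = i →
      κ F w = Ψo w + Ψo (s'.mu F w) := by
    intro F w hv ha hl
    have h2 := hΨo ⟨F, hv⟩ w (r.at_.2 ha) ((r.lab ⟨F, hv⟩ w ha.2 ha.1).trans hl)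
    rw [r.mu ⟨F, hv⟩ w ha.2 ha.1] at h2
    exact h2
  -- the correction is constant along boundary chords
  have hg1 : ∀ k w v, Relation.ReflTransGen (StepBd π s' i k) w v →
      Ψo w + Ψk k w = Ψo v + Ψk k v := by
    intro k w v hwv
    induction hwv with
    | refl => rfl
    | @tail b c _ h2 ih =>
      obtain ⟨F, hF, hv, ha, hl, rfl⟩ := h2
      have e1 := hO F b hv ha hl
      have e2 := hΨk k F b hF ha hl
      rw [ih]
      have e3 : Ψo b + Ψo (s'.mu F b) = Ψk k b + Ψk k (s'.mu F b) := e1.symm.trans e2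
      have : ∀ a b c d : ZMod 2, a + b = c + d → a + c = b + d := by decide
      exact this _ _ _ _ e3
  have hg2 : ∀ k w v, Bd π s' i k w → Bd π s' i k v →
      Relation.ReflTransGen (StepIn π s' i k) w v → Ψo w + Ψk k w = Ψo v + Ψk k v :=
    fun k w v hw hv hwv => hg1 k w v (hD3 k w v hw hv hwv)
  -- the new function
  let Q : W → Prop := fun w => ∃ G, w ∈ M.On G ∧ Vis M π G
  let R : W → Prop := fun w => ∃ k b, Bd π s' i k b ∧ In π s' i k w ∧
    Relation.ReflTransGen (StepIn π s' i k) w b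
  let Ψ : W → ZMod 2 := fun w =>
    if Q w then Ψo w else
      if hR : R w then
        Ψk hR.choose w + (Ψo hR.choose_spec.choose + Ψk hR.choose hR.choose_spec.choose)
      else 0
  -- value of `Ψ` at a point of the merged cell `k`
  have hval : ∀ k w b, In π s' i k w → Bd π s' i k b →
      Relation.ReflTransGen (StepIn π s' i k) w b → Ψ w = Ψk k w + (Ψo b + Ψk k b) := by
    intro k w b hw hb hwb
    by_cases hQ : Q w
    · have h2 : Ψ w = Ψo w := if_pos hQ
      obtain ⟨G, hG, hv⟩ := hQ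
      have h3 := in_bd hw hv hG
      have h4 := hg2 k w b h3 hb hwb
      rw [h2, ← h4]
      have : ∀ a b : ZMod 2, a = b + (a + b) := by decide
      exact this _ _
    · have hR : R w := ⟨k, b, hb, hw, hwb⟩
      have h2 : Ψ w = Ψk hR.choose w +
          (Ψo hR.choose_spec.choose + Ψk hR.choose hR.choose_spec.choose) := by
        show (if Q w then _ else _) = _
        rw [if_neg hQ, dif_pos hR]
      obtain ⟨hb', hw', hwb'⟩ := hR.choose_spec.choose_spec
      have hkk : hR.choose = k := by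
        obtain ⟨F, hF, ha, _⟩ := hw
        obtain ⟨F', hF', ha', _⟩ := hw'
        exact in_unique hF' ha'.2 hF ha.2 fun G hG hv => hQ ⟨G, hG, hv⟩
      rw [h2]
      generalize hR.choose_spec.choose = b' at hb' hwb' ⊢
      generalize hR.choose = k' at hb' hwb' hkk ⊢
      subst hkk
      rw [hg2 k' b' b hb' hb ((rtg_symm hwb').trans hwb)]
  refine ⟨Ψ, fun F w ha hl => ?_⟩
  by_cases hv : Vis M π F
  · have ha2 := At.mu ha
    have h2 : Ψ w = Ψo w := if_pos ⟨F, ha.2, hv⟩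
    have h3 : Ψ (s'.mu F w) = Ψo (s'.mu F w) := if_pos ⟨F, ha2.2, hv⟩
    rw [h2, h3]
    exact hO F w hv ha hl
  · obtain ⟨q, hq⟩ : ∃ q, q ∈ M.side F := by
      induction M.side F using Sym2.ind with
      | _ x y => exact ⟨x, Sym2.mem_mk_left _ _⟩
    have hOf : Of M π (π q) F := ⟨q, hq, rfl⟩
    have hw : In π s' i (π q) w := ⟨F, hOf, ha, hl⟩
    obtain ⟨b, hb, hwb⟩ := hD2 (π q) w hw
    have hst : StepIn π s' i (π q) w (s'.mu F w) := ⟨F, hOf, ha, hl, rfl⟩
    have hw2 := hst.in_right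
    rw [hval (π q) w b hw hb hwb, hval (π q) (s'.mu F w) b hw2 hb
      (Relation.ReflTransGen.head hst.symm hwb), hΨk (π q) F w hOf ha hl]
    have : ∀ a b c : ZMod 2, a + b = a + c + (b + c) := by decide
    exact this _ _ _

/-- `H¹`, cut cell → giant cell (no condition) -/
theorem h1_merge {i : I} (r : Restr s' s) (h : s'.H1 i) : s.H1 i := by
  classical
  intro κ hκ
  choose ψ hψ using hκ
  obtain ⟨Ψ, hΨ⟩ := h (fun F w => if hv : Vis M π F then κ ⟨F, hv⟩ w else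
      if hk : ∃ k, Of M π k F then ψ hk.choose w + ψ hk.choose (s'.mu F w) else 0) (by
    intro q
    refine ⟨ψ (π q), fun F w hq ha hl => ?_⟩
    by_cases hv : Vis M π F
    · rw [dif_pos hv]
      have h2 := hψ (π q) ⟨F, hv⟩ w (mem_map_iff.2 ⟨q, hq, rfl⟩) (r.at_.2 ha)
        ((r.lab ⟨F, hv⟩ w ha.2 ha.1).trans hl)
      rw [r.mu ⟨F, hv⟩ w ha.2 ha.1] at h2
      exact h2
    · rw [dif_neg hv]
      have hk : ∃ k, Of M π k F := ⟨π q, q, hq, rfl⟩
      rw [dif_pos hk]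
      have : hk.choose = π q := of_unique hk.choose_spec ⟨q, hq, rfl⟩ hv
      rw [this])
  refine ⟨Ψ, fun F w ha hl => ?_⟩
  have ha' := r.at_.1 ha
  have h2 := hΨ F.1 w ha' ((r.lab F w ha'.2 ha'.1).symm.trans hl)
  have hv : Vis M π F.1 := F.2
  rw [dif_pos hv] at h2
  rw [r.mu F w ha'.2 ha'.1]
  exact h2

/-- connectedness, giant cell → cut cell -/
theorem conn {i : I} (r : Restr s' s) (hD2 : ∀ k, DBd π s' i k)
    (hcov : ∀ w ∈ s'.P, s'.lab w = i → ∃ F, w ∈ M.On F)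
    (hne : ∃ w ∈ s'.P, s'.lab w = i)
    (h : s.Conn i) : s'.Conn i := by
  refine ⟨hne, ?_⟩
  intro X hX
  -- a point is joined to a visible point
  have hvis : ∀ w ∈ s'.P, s'.lab w = i → ∃ b G, Vis M π G ∧ b ∈ M.On G ∧ b ∈ s'.P ∧
      s'.lab b = i ∧ (w ∈ X ↔ b ∈ X) := by
    intro w hw hl
    obtain ⟨F, hF⟩ := hcov w hw hl
    obtain ⟨q, hq⟩ : ∃ q, q ∈ M.side F := by
      induction M.side F using Sym2.ind with
      | _ x y => exact ⟨x, Sym2.mem_mk_left _ _⟩
    have hin : In π s' i (π q) w := ⟨F, ⟨q, hq, rfl⟩, ⟨hw, hF⟩, hl⟩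
    obtain ⟨b, ⟨G, _, hv, ha, hlb⟩, hwb⟩ := hD2 (π q) w hin
    have hmem : ∀ {x y : W}, Relation.ReflTransGen (StepIn π s' i (π q)) x y → x ∈ X → y ∈ X := by
      intro x y hxy
      induction hxy with
      | refl => exact id
      | tail _ h2 ih =>
        intro hx
        obtain ⟨F', _, ha', hl', rfl⟩ := h2
        exact hX F' _ (ih hx) ha' hl'
    exact ⟨b, G, hv, ha.2, ha.1, hlb, hmem hwb, hmem (rtg_symm hwb)⟩
  intro w hw hwP hl w' hw'P hl'
  obtain ⟨b, G, hv, hbG, hbP, hlb, hwb⟩ := hvis w hwP hl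
  obtain ⟨b', G', hv', hbG', hbP', hlb', hwb'⟩ := hvis w' hw'P hl'
  rw [hwb']
  refine h.2 X ?_ b (hwb.1 hw) ((r.at_iff ⟨G, hv⟩ b hbG).2 hbP)
    ((r.lab ⟨G, hv⟩ b hbG hbP).trans hlb) b' ((r.at_iff ⟨G', hv'⟩ b' hbG').2 hbP')
    ((r.lab ⟨G', hv'⟩ b' hbG' hbP').trans hlb')
  intro F x hx ha hlx
  have ha' := r.at_.1 ha
  have h2 := hX F.1 x hx ha' ((r.lab F x ha'.2 ha'.1).symm.trans hlx)
  rw [r.mu F x ha'.2 ha'.1]
  exact h2

/-- connectedness, cut cell → giant cell -/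
theorem conn_merge {i : I} (r : Restr s' s) (hD3 : ∀ k, DJn π s' i k)
    (hcov : ∀ w ∈ s.P, s.lab w = i → ∃ F : {F : Φ // ¬ ((M.side F).map π).IsDiag}, w ∈ M.On F.1)
    (hne : ∃ w ∈ s.P, s.lab w = i)
    (h : s'.Conn i) : s.Conn i := by
  refine ⟨hne, ?_⟩
  intro X hX
  let X' : Set W := {v | ∃ k b, Bd π s' i k b ∧ b ∈ X ∧ In π s' i k v ∧
    Relation.ReflTransGen (StepIn π s' i k) v b}
  -- visible points of `X'` are in `X`
  have hvis : ∀ {v : W} {G : Φ}, v ∈ X' → Vis M π G → v ∈ M.On G → v ∈ X := by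
    rintro v G ⟨k, b, hb, hbX, hv, hvb⟩ hG hvG
    have h1 := in_bd hv hG hvG
    exact r.stepBd_mem hX (hD3 k b v hb h1 (rtg_symm hvb)) hbX
  have hin : ∀ {v : W} {G : Φ}, s'.At G v → s'.lab v = i → Vis M π G → v ∈ X → v ∈ X' := by
    intro v G ha hl hG hvX
    obtain ⟨q, hq⟩ : ∃ q, q ∈ M.side G := by
      induction M.side G using Sym2.ind with
      | _ x y => exact ⟨x, Sym2.mem_mk_left _ _⟩
    exact ⟨π q, v, ⟨G, ⟨q, hq, rfl⟩, hG, ha, hl⟩, hvX, ⟨G, ⟨q, hq, rfl⟩, ha, hl⟩,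
      Relation.ReflTransGen.refl⟩
  have hX' : ∀ F w, w ∈ X' → s'.At F w → s'.lab w = i → s'.mu F w ∈ X' := by
    intro F w hw ha hl
    by_cases hv : Vis M π F
    · have hwX := hvis hw hv ha.2
      have h2 := hX ⟨F, hv⟩ w hwX (r.at_.2 ha) ((r.lab ⟨F, hv⟩ w ha.2 ha.1).trans hl)
      rw [r.mu ⟨F, hv⟩ w ha.2 ha.1] at h2
      exact hin (At.mu ha) ((s'.mu_lab ha.1 ha.2).trans hl) hv h2
    · obtain ⟨q, hq⟩ : ∃ q, q ∈ M.side F := by
        induction M.side F using Sym2.ind with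
        | _ x y => exact ⟨x, Sym2.mem_mk_left _ _⟩
      have hOf : Of M π (π q) F := ⟨q, hq, rfl⟩
      have hst : StepIn π s' i (π q) w (s'.mu F w) := ⟨F, hOf, ha, hl, rfl⟩
      by_cases hQ : ∃ G, Vis M π G ∧ w ∈ M.On G
      · obtain ⟨G, hG, hwG⟩ := hQ
        have hwX := hvis hw hG hwG
        have hb := in_bd (k := π q) (s' := s') (i := i) ⟨F, hOf, ha, hl⟩ hG hwG
        exact ⟨π q, w, hb, hwX, hst.in_right, Relation.ReflTransGen.single hst.symm⟩
      · obtain ⟨k, b, hb, hbX, ⟨F', hF', ha', _⟩, hwb⟩ := hw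
        have hk : k = π q := in_unique hF' ha'.2 hOf ha.2 fun G hG hv' => hQ ⟨G, hv', hG⟩
        subst hk
        exact ⟨π q, b, hb, hbX, hst.in_right, Relation.ReflTransGen.head hst.symm hwb⟩
  intro w hw hwP hl w' hw'P hl'
  obtain ⟨G, hwG⟩ := hcov w hwP hl
  obtain ⟨G', hwG'⟩ := hcov w' hw'P hl'
  have h1 := (r.at_iff G w hwG).1 hwP
  have h1' := (r.at_iff G' w' hwG').1 hw'P
  have h2 : s'.lab w = i := (r.lab G w hwG h1).symm.trans hl
  have h2' : s'.lab w' = i := (r.lab G' w' hwG' h1').symm.trans hl'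
  exact hvis (h.2 X' hX' w (hin ⟨h1, hwG⟩ h2 G.2 hw) h1 h2 w' h1' h2') G'.2 hwG'

end Restr

end Crest.Agent.R096.Ref_527
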