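import Crest.Agent.R096.Pmc3_112
import Crest.Agent.R096.Tms1_582
import Crest.Agent.R096.Cnt1_324

/-!
# Row 96 (S0127), helper358.  Leaf [REG] of 348 #11024

For almost every translate `a` all closed 1-cells of all meshes `M.md a w h` (199's `MF`), and of all
tilings `T` with `HS T a 𝓗` (324), are regular for `f`: `RegV T f V` for EVERY set `V` of tiles.
Data: `f` continuous on `Om` with weak derivatives `D` (`VWD`, = fields of `Er_594.SH3`).
-/

set_option autoImplicit false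
set_option linter.style.longLine false

open MeasureTheory Set Filter Metric
open scoped Topology ENNReal NNReal

namespace Crest.Agent.R096.Reg_358

open Crest.Agent.R096.Msh_715
open Crest.Agent.R096.SkC1_961 (E3 Hom3)
open Crest.Agent.R096.Ls_222
open Crest.Agent.R096.Mbf_337 (KJ)
open Crest.Agent.R096.Tms_582 (RegV)
open Crest.Agent.R096.Cnt_324 (HS Eix ex edge_code)
open Crest.Agent.R96.Pm_199
open Crest.Agent.R96.Acl_392 (ACLat WD)
open Crest.Agent.R96.Sob4_199 (VWD)
open Crest.Agent.R96.En10_199 (P3)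
open Crest.Agent.R96.Sg5_199 (gdir wd_dir)
open Crest.Agent.R96.Sg1_199
open Crest.Agent.R096.Bas_731 (cnt Dom lintegral_cnt_Icc_le)
open Crest.Agent.R96.En2_199 (aemeasurable_cnt_Icc)

noncomputable section

variable {Om La : Set E3} {f : E3 → E3} {F J : Type}

/-- almost every level of a function with integrable upper gradient is finite on the segment -/
theorem finite_levels {u : E3 → ℝ} {g : E3 → ℝ≥0∞} {x v : E3} (hu : ContinuousOn u (sgm x v))
    (hug : UGs u g x v) (hli : li g x v ≠ ∞) : ∀ᵐ t : ℝ, {y ∈ sgm x v | u y = t}.Finite := by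
  by_cases hv : v = 0
  · subst hv
    refine Eventually.of_forall fun t => (Set.finite_singleton x).subset ?_
    rintro y ⟨⟨τ, -, rfl⟩, -⟩
    simp
  have h0 : cr u x v = cnt (fun τ => u (x + τ • v)) (Icc (0:ℝ) 1) :=
    funext fun y => cr_eq hv y
  have hcont : ContinuousOn (fun τ : ℝ => u (x + τ • v)) (Icc (0:ℝ) 1) := by
    refine hu.comp (Continuous.continuousOn (by fun_prop)) ?_
    intro s hs
    exact ⟨s, hs, rfl⟩
  have hdom : Dom (fun τ : ℝ => u (x + τ • v))
      ((volume.restrict (Icc (0:ℝ) 1)).withDensity fun τ => g (x + τ • v)) 0 1 := by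
    intro s t hs hst ht
    have hsub : Ioc s t ⊆ Icc (0:ℝ) 1 := fun τ hτ => ⟨hs.trans hτ.1.le, hτ.2.trans ht⟩
    rw [withDensity_apply _ measurableSet_Ioc, Measure.restrict_restrict measurableSet_Ioc,
      inter_eq_self_of_subset_left hsub]
    exact hug s t hs hst ht
  have h1 : ∫⁻ t : ℝ, cr u x v t ≤ li g x v := by
    rw [h0]
    refine (lintegral_cnt_Icc_le hcont hdom).trans ?_
    rw [withDensity_apply _ measurableSet_Ioc, Measure.restrict_restrict measurableSet_Ioc,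
      inter_eq_self_of_subset_left Ioc_subset_Icc_self]
    exact lintegral_mono_set Ioc_subset_Icc_self
  have h2 : AEMeasurable (cr u x v) volume := by
    rw [h0]
    exact aemeasurable_cnt_Icc hcont
  filter_upwards [ae_lt_top' h2 (ne_top_of_le_ne_top hli h1)] with t ht
  exact finite_of_cr ht.ne

/-- **the regular segments** -/
def Qr (f : E3 → E3) (Om : Set E3) (x v : E3) : Prop :=
  sgm x v ⊆ Om → ∀ ℓ : E3 → ℝ, (∃ k, LipschitzWith k ℓ) →
    ∀ᵐ t : ℝ, {y ∈ sgm x v | ℓ (f y) = t}.Finite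

theorem sgm_rev (x v : E3) : sgm (x + v) (-v) = sgm x v := by
  ext y
  constructor
  · rintro ⟨τ, hτ, rfl⟩
    refine ⟨1 - τ, ⟨by linarith [hτ.2], by linarith [hτ.1]⟩, ?_⟩
    show x + (1 - τ) • v = x + v + τ • -v
    rw [sub_smul, one_smul, smul_neg]; abel
  · rintro ⟨τ, hτ, rfl⟩
    refine ⟨1 - τ, ⟨by linarith [hτ.2], by linarith [hτ.1]⟩, ?_⟩
    show x + v + (1 - τ) • -v = x + τ • v
    rw [sub_smul, one_smul, smul_neg]; abel

theorem Qr_rev {x v : E3} (h : Qr f Om x v) : Qr f Om (x + v) (-v) := by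
  intro hs
  rw [sgm_rev] at hs ⊢
  exact h hs

/-- a segment with an upper gradient for `f` is regular -/
theorem Qr_of_ugv (hfc : ContinuousOn f Om) {G : E3 → ℝ≥0∞} {x v : E3}
    (h : sgm x v ⊆ Om → UGv f G x v ∧ li G x v ≠ ∞) : Qr f Om x v := by
  rintro hs ℓ ⟨k, hk⟩
  obtain ⟨h1, h2⟩ := h hs
  refine finite_levels (u := fun y => ℓ (f y)) (g := fun y => (k : ℝ≥0∞) * G y)
    (hk.continuous.comp_continuousOn (hfc.mono hs)) ?_ ?_
  · intro s t hs0 hst ht1
    have h3 := h1 s t hs0 hst ht1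
    rw [lintegral_const_mul' _ _ ENNReal.coe_ne_top]
    refine le_trans ?_ (mul_le_mul_right h3 _)
    have h4 := hk (f (x + t • v)) (f (x + s • v))
    rw [edist_eq_enorm_sub, edist_eq_enorm_sub] at h4
    rw [← Real.norm_eq_abs, ofReal_norm]
    exact h4
  · rw [li_const_mul ENNReal.coe_ne_top]
    exact ENNReal.mul_ne_top ENNReal.coe_ne_top h2

/-- **almost every translate of a segment is regular** -/
theorem ae_Qr (hO : IsOpen Om) (hfc : ContinuousOn f Om) {D : E3 → E3 →L[ℝ] E3}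
    (hD : ∀ i, VWD Om volume (fun x => P3 (f x)) (fun x => P3 (D x (Pi.single i 1)))
      (Pi.single i 1)) (x v : E3) : ∀ᵐ a : E3, Qr f Om (x + a) v := by
  have hu : ∀ k : Fin 3, ContinuousOn (fun y => f y k) Om := fun k =>
    (continuous_apply k).comp_continuousOn hfc
  have hg : ∀ k : Fin 3, WD Om volume (fun y => f y k)
      (gdir (fun l y => D y (Pi.single l 1) k) v) v := fun k => wd_dir (fun l => hD l k) v
  have h1 := Crest.Agent.R96.Sg2_199.ae_shift (μ := (volume : Measure E3)) hO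
    (ι := Unit) (fun _ => x) (fun _ => v) (u := fun (k : Fin 3) y => f y k)
    (g := fun k _ => gdir (fun l y => D y (Pi.single l 1) k) v) hu (fun k _ => hg k)
  have e : ∀ k : Fin 3, gdir (fun l y => D y (Pi.single l 1) k) v = fun y => D y v k := by
    intro k
    funext y
    show ∑ l, v l * D y (Pi.single l 1) k = D y v k
    have hv : v = ∑ l, v l • (Pi.single l (1:ℝ) : E3) := by
      funext j
      simp [Finset.sum_apply, Pi.single_apply]
    conv_rhs => rw [hv, map_sum]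
    rw [Finset.sum_apply]
    refine Finset.sum_congr rfl fun l _ => ?_
    rw [map_smul, Pi.smul_apply, smul_eq_mul]
  filter_upwards [h1] with a ha
  refine Qr_of_ugv hfc (G := fun y => ‖D y v‖ₑ) fun hs => ?_
  have h2 : ∀ k : Fin 3, ACLat Om (fun y => f y k) (fun y => D y v k) v (x + a) := by
    intro k
    have h3 := ha k ()
    simp only [e k] at h3
    exact h3
  exact ⟨ugv_of_acl hs h2, li_ne_top_of_aclv hs h2⟩

/-- regular edges give `RegV` for every set of tiles -/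
theorem regV_of_Qr {ι : Type} {T : Tiling Om ι} (h : ∀ e : Edg T, Qr f Om (ea e) (ev e))
    (V : Set ι) : RegV T f V := by
  intro x hx hd ℓ hℓ
  have hxO : x ∈ Om := by
    obtain ⟨i, -, hi⟩ := mem_iUnion₂.1 hx
    exact T.sub i hi
  have h1 := h ⟨T.cc x, x, hxO, hd, rfl⟩
  unfold Qr at h1
  rw [sgm_edg] at h1
  exact h1 (T.cc_sub_Om hxO) ℓ hℓ

/-- **[REG]**: for almost every `a` all 1-cells of all meshes are regular for `f` -/
theorem MF_ae_reg (M : MF Om F J) (hO : IsOpen Om) (hfc : ContinuousOn f Om)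
    {D : E3 → E3 →L[ℝ] E3}
    (hD : ∀ i, VWD Om volume (fun x => P3 (f x)) (fun x => P3 (D x (Pi.single i 1)))
      (Pi.single i 1)) :
    ∀ᵐ a : E3, ∀ w (h : M.Ok a w) (V : Set (M.md a w h).ι), RegV (M.md a w h).T f V := by
  filter_upwards [M.ae_edges (Q := Qr f Om) (fun x v => ae_Qr hO hfc hD x v)
    (fun x v h => Qr_rev h)] with a ha w h V
  exact regV_of_Qr (ha w h) V

/-- **[REG] for tilings whose inequalities are translates of countably many** -/
theorem HS_ae_reg {𝓗 : Set ((E3 →L[ℝ] ℝ) × ℝ)} (h𝓗 : 𝓗.Countable) (hO : IsOpen Om)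
    (hfc : ContinuousOn f Om) {D : E3 → E3 →L[ℝ] E3}
    (hD : ∀ i, VWD Om volume (fun x => P3 (f x)) (fun x => P3 (D x (Pi.single i 1)))
      (Pi.single i 1)) :
    ∀ᵐ a : E3, ∀ (ι : Type) (T : Tiling Om ι), HS T a 𝓗 → ∀ V : Set ι, RegV T f V := by
  have : Countable 𝓗 := h𝓗.to_subtype
  have h1 : ∀ᵐ a : E3, ∀ j : Eix 𝓗, Qr f Om (ex j + a) (Cnt_324.ev j) :=
    ae_all_iff.2 fun j => ae_Qr hO hfc hD _ _
  filter_upwards [h1] with a ha ι T hT V x hx hd ℓ hℓ
  have hxO : x ∈ Om := by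
    obtain ⟨i, -, hi⟩ := mem_iUnion₂.1 hx
    exact T.sub i hi
  obtain ⟨j, hj⟩ := edge_code hT hxO hd
  have h2 := ha j
  unfold Qr at h2
  rw [← hj] at h2
  exact h2 (T.cc_sub_Om hxO) ℓ hℓ

/-- **countably many fixed points lie in open tiles for almost all shifts** -/
theorem HS_ae_top {𝓗 : Set ((E3 →L[ℝ] ℝ) × ℝ)} (h𝓗 : 𝓗.Countable) {S : Set E3}
    (hS : S.Countable) (hSO : S ⊆ Om) :
    ∀ᵐ a : E3, ∀ (ι : Type) (T : Tiling Om ι), HS T a 𝓗 → ∀ x ∈ S, ∃ i, x ∈ I (T.H i) := by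
  have h1 : ∀ᵐ a : E3, ∀ x ∈ S, ∀ (Om' : Set E3) (ι : Type) (T : Tiling Om' ι), HS T a 𝓗 →
      ∀ z ∈ Om', T.V z ≠ ⊤ → x ∉ T.cc z :=
    (ae_ball_iff hS).2 fun x _ => Cnt_324.ae_top (volume : Measure E3) h𝓗 x
  filter_upwards [h1] with a ha ι T hT x hx
  rw [← T.V_eq_top_iff (hSO hx)]
  by_contra hV
  exact ha x hx Om ι T hT x (hSO hx) hV (T.self_mem_cc x)

end

end Crest.Agent.R096.Reg_358
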