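import Mathlib
import Crest.Agent.R096.Glob1_816

/-!
Row 96, P5-REG (205 #7463): regularised distance by the implicit equation
`τ = κ ∫ ρ (x + τ z) φ z dz`, `ρ ≥ 0` 1-Lipschitz.
-/

set_option autoImplicit false
set_option linter.unusedSectionVars false
open MeasureTheory Set Metric Module
open scoped ContDiff Topology Convolution NNReal

namespace Crest.Agent.R096.RegD_816

variable {E : Type*} [NormedAddCommGroup E] [InnerProductSpace ℝ E]

/-! ## the radial bump -/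

/-- unnormalised radial bump in the unit ball -/
noncomputable def phi0 (z : E) : ℝ := expNegInvGlue (1 - ‖z‖ ^ 2)

theorem phi0_contDiff : ContDiff ℝ ∞ (phi0 : E → ℝ) :=
  expNegInvGlue.contDiff.comp (contDiff_const.sub (contDiff_norm_sq ℝ))

theorem phi0_nonneg (z : E) : 0 ≤ phi0 z := expNegInvGlue.nonneg _

theorem phi0_zero {z : E} (h : 1 ≤ ‖z‖) : phi0 z = 0 :=
  expNegInvGlue.zero_of_nonpos (by nlinarith)

theorem phi0_ne : phi0 (0 : E) ≠ 0 := by
  have : 0 < phi0 (0 : E) := expNegInvGlue.pos_of_pos (by simp)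
  exact this.ne'

variable [FiniteDimensional ℝ E] [MeasurableSpace E] [BorelSpace E]

theorem phi0_compact : HasCompactSupport (phi0 : E → ℝ) := by
  refine HasCompactSupport.intro (isCompact_closedBall (0 : E) 1) fun z hz => phi0_zero ?_
  rw [mem_closedBall_zero_iff, not_le] at hz
  exact hz.le

theorem int_phi0_pos : 0 < ∫ z : E, phi0 z :=
  (phi0_contDiff.continuous).integral_pos_of_hasCompactSupport_nonneg_nonzero phi0_compact
    phi0_nonneg phi0_ne

/-- normalised radial bump -/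
noncomputable def phi (z : E) : ℝ := (∫ w : E, phi0 w)⁻¹ * phi0 z

theorem phi_contDiff : ContDiff ℝ ∞ (phi : E → ℝ) := contDiff_const.mul phi0_contDiff

theorem phi_nonneg (z : E) : 0 ≤ phi z := mul_nonneg (inv_nonneg.2 int_phi0_pos.le) (phi0_nonneg z)

theorem phi_zero {z : E} (h : 1 ≤ ‖z‖) : phi z = 0 := by rw [phi, phi0_zero h, mul_zero]

theorem phi_compact : HasCompactSupport (phi : E → ℝ) := by
  refine HasCompactSupport.intro (isCompact_closedBall (0 : E) 1) fun z hz => phi_zero ?_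
  rw [mem_closedBall_zero_iff, not_le] at hz
  exact hz.le

theorem phi_iso (O : E ≃ₗᵢ[ℝ] E) (z : E) : phi (O z) = phi z := by
  simp only [phi, phi0, LinearIsometryEquiv.norm_map]

theorem phi_neg (z : E) : phi (-z) = phi z := by
  simp only [phi, phi0, norm_neg]

theorem int_phi : ∫ z : E, phi z = 1 := by
  simp only [phi]
  rw [integral_const_mul, inv_mul_cancel₀ int_phi0_pos.ne']

/-! ## averages -/

/-- average against the bump -/
noncomputable def avg (a : E → ℝ) : ℝ := ∫ z, a z * phi z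

theorem integrable_avg {a : E → ℝ} (ha : Continuous a) : Integrable fun z => a z * phi z :=
  (ha.mul phi_contDiff.continuous).integrable_of_hasCompactSupport phi_compact.mul_left

theorem avg_const (c : ℝ) : avg (fun _ : E => c) = c := by
  rw [avg, integral_const_mul, int_phi, mul_one]

theorem avg_const_mul (c : ℝ) (a : E → ℝ) : avg (fun z => c * a z) = c * avg a := by
  rw [avg, avg, ← integral_const_mul]
  congr 1; ext z; ring

theorem avg_congr {a b : E → ℝ} (h : ∀ z, ‖z‖ ≤ 1 → a z = b z) : avg a = avg b := by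
  unfold avg
  congr 1; ext z
  by_cases hz : ‖z‖ ≤ 1
  · rw [h z hz]
  · rw [phi_zero (not_le.1 hz).le, mul_zero, mul_zero]

theorem avg_mono {a b : E → ℝ} (ha : Continuous a) (hb : Continuous b)
    (h : ∀ z, ‖z‖ ≤ 1 → a z ≤ b z) : avg a ≤ avg b := by
  refine integral_mono (integrable_avg ha) (integrable_avg hb) fun z => ?_
  by_cases hz : ‖z‖ ≤ 1
  · exact mul_le_mul_of_nonneg_right (h z hz) (phi_nonneg z)
  · change a z * phi z ≤ b z * phi z
    rw [phi_zero (not_le.1 hz).le, mul_zero, mul_zero]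

theorem avg_iso (O : E ≃ₗᵢ[ℝ] E) (a : E → ℝ) : avg (fun z => a (O z)) = avg a := by
  unfold avg
  have h := (O.measurePreserving).integral_comp' (f := O.toMeasurableEquiv)
    (fun z => a z * phi z)
  rw [← h]
  congr 1; ext z
  change a (O z) * phi z = a (O z) * phi (O z)
  rw [phi_iso]

theorem avg_sub_le {a b : E → ℝ} (ha : Continuous a) (hb : Continuous b) {C : ℝ}
    (h : ∀ z, ‖z‖ ≤ 1 → |a z - b z| ≤ C) : |avg a - avg b| ≤ C := by
  rw [abs_le]
  have h1 : avg a ≤ avg (fun z => C + b z) :=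
    avg_mono ha (continuous_const.add hb) fun z hz => by
      have := (abs_le.1 (h z hz)).2; linarith
  have h2 : avg b ≤ avg (fun z => C + a z) :=
    avg_mono hb (continuous_const.add ha) fun z hz => by
      have := (abs_le.1 (h z hz)).1; linarith
  have h3 : ∀ c : E → ℝ, Continuous c → avg (fun z => C + c z) = C + avg c := by
    intro c hc
    have : (fun z => (C + c z) * phi z) = fun z => C * phi z + c z * phi z := by
      ext z; ring
    rw [avg, this, integral_add ((integrable_avg (a := fun _ => C) continuous_const))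
      (integrable_avg hc), integral_const_mul, int_phi, mul_one, avg]
  rw [h3 b hb] at h1
  rw [h3 a ha] at h2
  constructor <;> linarith

/-! ## the implicit equation -/

variable {ρ : E → ℝ}

theorem cont_line (hρ : LipschitzWith 1 ρ) (x : E) (τ : ℝ) :
    Continuous fun z : E => ρ (x + τ • z) :=
  hρ.continuous.comp (by fun_prop)

theorem line_le (hρ : LipschitzWith 1 ρ) (x y : E) (τ σ : ℝ) :
    |avg (fun z : E => ρ (x + τ • z)) - avg (fun z : E => ρ (y + σ • z))| ≤ ‖x - y‖ + |τ - σ| := by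
  refine avg_sub_le (cont_line hρ x τ) (cont_line hρ y σ) fun z hz => ?_
  have h1 := hρ.dist_le_mul (x + τ • z) (y + σ • z)
  rw [NNReal.coe_one, one_mul, Real.dist_eq, dist_eq_norm] at h1
  refine h1.trans ?_
  have h2 : x + τ • z - (y + σ • z) = (x - y) + (τ - σ) • z := by
    rw [sub_smul]; abel
  rw [h2]
  refine (norm_add_le _ _).trans ?_
  rw [norm_smul, Real.norm_eq_abs]
  have := mul_le_mul_of_nonneg_left hz (abs_nonneg (τ - σ))
  linarith

theorem exists_unique (hρ : LipschitzWith 1 ρ) {κ : ℝ} (h0 : 0 ≤ κ) (h1 : κ < 1) (x : E) (s : ℝ) :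
    ∃! τ : ℝ, s + κ * avg (fun z : E => ρ (x + τ • z)) = τ := by
  have hL : LipschitzWith ⟨κ, h0⟩ (fun τ : ℝ => s + κ * avg (fun z : E => ρ (x + τ • z))) := by
    refine LipschitzWith.of_dist_le_mul fun τ σ => ?_
    rw [Real.dist_eq, Real.dist_eq]
    have := line_le hρ x x τ σ
    rw [sub_self, norm_zero, zero_add] at this
    have e : s + κ * avg (fun z : E => ρ (x + τ • z)) - (s + κ * avg (fun z : E => ρ (x + σ • z)))
      = κ * (avg (fun z : E => ρ (x + τ • z)) - avg (fun z : E => ρ (x + σ • z))) := by ring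
    rw [e, abs_mul, abs_of_nonneg h0]
    exact mul_le_mul_of_nonneg_left this h0
  have hC : ContractingWith ⟨κ, h0⟩ (fun τ : ℝ => s + κ * avg (fun z : E => ρ (x + τ • z))) :=
    ⟨by exact_mod_cast h1, hL⟩
  exact ⟨hC.fixedPoint, hC.fixedPoint_isFixedPt, fun y hy => hC.fixedPoint_unique hy⟩

/-- the solution of `τ = s + κ avg ρ(x + τ ·)` (junk if `ρ` is not Lipschitz) -/
noncomputable def T (ρ : E → ℝ) (κ : ℝ) (x : E) (s : ℝ) : ℝ := by
  classical
  exact if h : ∃ τ : ℝ, s + κ * avg (fun z : E => ρ (x + τ • z)) = τ then h.choose else 0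

theorem T_eq (hρ : LipschitzWith 1 ρ) {κ : ℝ} (h0 : 0 ≤ κ) (h1 : κ < 1) (x : E) (s : ℝ) :
    s + κ * avg (fun z : E => ρ (x + T ρ κ x s • z)) = T ρ κ x s := by
  have h := (exists_unique hρ h0 h1 x s).exists
  have e : T ρ κ x s = h.choose := by unfold T; rw [dif_pos h]
  rw [e]
  exact h.choose_spec

theorem T_unique (hρ : LipschitzWith 1 ρ) {κ : ℝ} (h0 : 0 ≤ κ) (h1 : κ < 1) {x : E} {s τ : ℝ}
    (h : s + κ * avg (fun z : E => ρ (x + τ • z)) = τ) : T ρ κ x s = τ :=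
  (exists_unique hρ h0 h1 x s).unique (T_eq hρ h0 h1 x s) h

/-- the regularised distance -/
noncomputable def reg (ρ : E → ℝ) (κ : ℝ) (x : E) : ℝ := T ρ κ x 0

theorem reg_eq (hρ : LipschitzWith 1 ρ) {κ : ℝ} (h0 : 0 ≤ κ) (h1 : κ < 1) (x : E) :
    κ * avg (fun z : E => ρ (x + reg ρ κ x • z)) = reg ρ κ x := by
  have := T_eq hρ h0 h1 x 0
  rwa [zero_add] at this

theorem reg_unique (hρ : LipschitzWith 1 ρ) {κ : ℝ} (h0 : 0 ≤ κ) (h1 : κ < 1) {x : E} {τ : ℝ}
    (h : κ * avg (fun z : E => ρ (x + τ • z)) = τ) : reg ρ κ x = τ :=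
  T_unique hρ h0 h1 (by rw [zero_add]; exact h)

theorem reg_nonneg (hρ : LipschitzWith 1 ρ) (hn : ∀ x, 0 ≤ ρ x) {κ : ℝ} (h0 : 0 ≤ κ) (h1 : κ < 1)
    (x : E) : 0 ≤ reg ρ κ x := by
  rw [← reg_eq hρ h0 h1 x]
  refine mul_nonneg h0 ?_
  have := avg_mono (a := fun _ : E => (0 : ℝ)) continuous_const (cont_line hρ x (reg ρ κ x))
    fun z _ => hn _
  rwa [avg_const] at this

/-- `|τ - κ ρ x| ≤ κ τ` -/
theorem reg_sub_le (hρ : LipschitzWith 1 ρ) (hn : ∀ x, 0 ≤ ρ x) {κ : ℝ} (h0 : 0 ≤ κ) (h1 : κ < 1)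
    (x : E) : |reg ρ κ x - κ * ρ x| ≤ κ * reg ρ κ x := by
  have h := line_le hρ x x (reg ρ κ x) 0
  have e : (fun z : E => ρ (x + (0 : ℝ) • z)) = fun _ => ρ x := by ext z; rw [zero_smul, add_zero]
  rw [e, avg_const, sub_self, norm_zero, zero_add, sub_zero,
    abs_of_nonneg (reg_nonneg hρ hn h0 h1 x)] at h
  have e2 : reg ρ κ x - κ * ρ x = κ * (avg (fun z : E => ρ (x + reg ρ κ x • z)) - ρ x) := by
    rw [mul_sub, reg_eq hρ h0 h1 x]
  rw [e2, abs_mul, abs_of_nonneg h0]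
  exact mul_le_mul_of_nonneg_left h h0

theorem reg_le (hρ : LipschitzWith 1 ρ) (hn : ∀ x, 0 ≤ ρ x) {κ : ℝ} (h0 : 0 ≤ κ) (h1 : κ < 1)
    (x : E) : reg ρ κ x ≤ κ / (1 - κ) * ρ x := by
  have h := (abs_le.1 (reg_sub_le hρ hn h0 h1 x)).2
  rw [div_mul_eq_mul_div, le_div_iff₀ (by linarith)]
  nlinarith

theorem le_reg (hρ : LipschitzWith 1 ρ) (hn : ∀ x, 0 ≤ ρ x) {κ : ℝ} (h0 : 0 ≤ κ) (h1 : κ < 1)
    (x : E) : κ / (1 + κ) * ρ x ≤ reg ρ κ x := by
  have h := (abs_le.1 (reg_sub_le hρ hn h0 h1 x)).1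
  rw [div_mul_eq_mul_div, div_le_iff₀ (by linarith)]
  nlinarith

theorem reg_pos (hρ : LipschitzWith 1 ρ) (hn : ∀ x, 0 ≤ ρ x) {κ : ℝ} (h0 : 0 < κ) (h1 : κ < 1)
    {x : E} (hx : 0 < ρ x) : 0 < reg ρ κ x :=
  lt_of_lt_of_le (by positivity) (le_reg hρ hn h0.le h1 x)

theorem reg_zero (hρ : LipschitzWith 1 ρ) (hn : ∀ x, 0 ≤ ρ x) {κ : ℝ} (h0 : 0 ≤ κ) (h1 : κ < 1)
    {x : E} (hx : ρ x = 0) : reg ρ κ x = 0 := by
  refine le_antisymm ?_ (reg_nonneg hρ hn h0 h1 x)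
  have := reg_le hρ hn h0 h1 x
  rwa [hx, mul_zero] at this

theorem reg_lip (hρ : LipschitzWith 1 ρ) {κ : ℝ} (h0 : 0 ≤ κ) (h1 : κ < 1) (x y : E) :
    |reg ρ κ x - reg ρ κ y| ≤ κ / (1 - κ) * ‖x - y‖ := by
  have h := line_le hρ x y (reg ρ κ x) (reg ρ κ y)
  have e : reg ρ κ x - reg ρ κ y = κ * (avg (fun z : E => ρ (x + reg ρ κ x • z))
      - avg (fun z : E => ρ (y + reg ρ κ y • z))) := by
    rw [mul_sub, reg_eq hρ h0 h1 x, reg_eq hρ h0 h1 y]
  have h2 : |reg ρ κ x - reg ρ κ y| ≤ κ * (‖x - y‖ + |reg ρ κ x - reg ρ κ y|) := by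
    conv_lhs => rw [e]
    rw [abs_mul, abs_of_nonneg h0]
    exact mul_le_mul_of_nonneg_left h h0
  rw [div_mul_eq_mul_div, le_div_iff₀ (by linarith)]
  nlinarith

theorem reg_lipschitz (hρ : LipschitzWith 1 ρ) {κ : ℝ} (h0 : 0 ≤ κ) (h1 : κ < 1) :
    LipschitzWith (Real.toNNReal (κ / (1 - κ))) (reg ρ κ) := by
  refine LipschitzWith.of_dist_le_mul fun x y => ?_
  rw [Real.coe_toNNReal _ (div_nonneg h0 (by linarith)), Real.dist_eq, dist_eq_norm]
  exact reg_lip hρ h0 h1 x y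

/-- **Symmetries.** `ρ₁ (x' + λ O z) = λ ρ (x + z)` for `‖z‖ ≤ reg ρ κ x` implies
`reg ρ₁ κ x' = λ reg ρ κ x`. -/
theorem reg_sym {ρ₁ : E → ℝ} (hρ : LipschitzWith 1 ρ) (hρ₁ : LipschitzWith 1 ρ₁)
    (hn : ∀ x, 0 ≤ ρ x) {κ : ℝ} (h0 : 0 ≤ κ) (h1 : κ < 1) {x x' : E} {l : ℝ}
    (O : E ≃ₗᵢ[ℝ] E)
    (h : ∀ z : E, ‖z‖ ≤ reg ρ κ x → ρ₁ (x' + l • O z) = l * ρ (x + z)) :
    reg ρ₁ κ x' = l * reg ρ κ x := by
  refine reg_unique hρ₁ h0 h1 ?_
  have e1 : avg (fun z : E => ρ₁ (x' + (l * reg ρ κ x) • z))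
      = avg (fun z : E => ρ₁ (x' + (l * reg ρ κ x) • O z)) :=
    (avg_iso O (fun z : E => ρ₁ (x' + (l * reg ρ κ x) • z))).symm
  have e2 : avg (fun z : E => ρ₁ (x' + (l * reg ρ κ x) • O z))
      = avg (fun z : E => l * ρ (x + reg ρ κ x • z)) := by
    refine avg_congr fun z hz => ?_
    have := h (reg ρ κ x • z) (by
      rw [norm_smul, Real.norm_eq_abs, abs_of_nonneg (reg_nonneg hρ hn h0 h1 x)]
      exact mul_le_of_le_one_right (reg_nonneg hρ hn h0 h1 x) hz)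
    rw [← this, mul_smul]
    congr 3
    exact (O.map_smul _ _).symm
  rw [e1, e2, avg_const_mul]
  have := reg_eq hρ h0 h1 x
  calc κ * (l * avg fun z => ρ (x + reg ρ κ x • z))
      = l * (κ * avg fun z => ρ (x + reg ρ κ x • z)) := by ring
    _ = l * reg ρ κ x := by rw [this]

/-- only the values of `ρ` on `closedBall x (reg ρ κ x)` matter -/
theorem reg_local {ρ₁ : E → ℝ} (hρ : LipschitzWith 1 ρ) (hρ₁ : LipschitzWith 1 ρ₁)
    (hn : ∀ x, 0 ≤ ρ x) {κ : ℝ} (h0 : 0 ≤ κ) (h1 : κ < 1) {x : E}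
    (h : ∀ y : E, ‖y - x‖ ≤ reg ρ κ x → ρ₁ y = ρ y) : reg ρ₁ κ x = reg ρ κ x := by
  have := reg_sym (l := 1) (x' := x) hρ hρ₁ hn h0 h1 (LinearIsometryEquiv.refl ℝ E)
    (fun z hz => by
      rw [one_smul, one_mul]
      exact h _ (by simpa using hz))
  rwa [one_mul] at this

/-- translation invariance (local) -/
theorem reg_trans (hρ : LipschitzWith 1 ρ) (hn : ∀ x, 0 ≤ ρ x) {κ : ℝ} (h0 : 0 ≤ κ) (h1 : κ < 1)
    {x v : E} (h : ∀ y : E, ‖y - x‖ ≤ reg ρ κ x → ρ (y + v) = ρ y) :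
    reg ρ κ (x + v) = reg ρ κ x := by
  have := reg_sym (l := 1) (x' := x + v) hρ hρ hn h0 h1 (LinearIsometryEquiv.refl ℝ E)
    (fun z hz => by
      rw [one_smul, one_mul, ← h (x + z) (by simpa using hz)]
      congr 1
      change x + v + z = x + z + v
      abel)
  rwa [one_mul] at this

/-- homogeneity about `p` (local) -/
theorem reg_homog (hρ : LipschitzWith 1 ρ) (hn : ∀ x, 0 ≤ ρ x) {κ : ℝ} (h0 : 0 ≤ κ) (h1 : κ < 1)
    {x p : E} {l : ℝ}
    (h : ∀ y : E, ‖y - x‖ ≤ reg ρ κ x → ρ (p + l • (y - p)) = l * ρ y) :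
    reg ρ κ (p + l • (x - p)) = l * reg ρ κ x := by
  refine reg_sym hρ hρ hn h0 h1 (LinearIsometryEquiv.refl ℝ E) (fun z hz => ?_)
  rw [← h (x + z) (by simpa using hz)]
  congr 1
  change p + l • (x - p) + l • z = p + l • (x + z - p)
  rw [add_assoc, ← smul_add]
  congr 2
  abel

end Crest.Agent.R096.RegD_816
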