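import Mathlib
import Crest.Agent.R096.RegD1_816

/-!
Row 96, P5-REG: smoothness of the regularised distance on `{ρ > 0}`.
-/

set_option autoImplicit false
open MeasureTheory Set Metric Module
open scoped ContDiff Topology Convolution NNReal

namespace Crest.Agent.R096.RegD_816

variable {E : Type*} [NormedAddCommGroup E] [InnerProductSpace ℝ E]
  [FiniteDimensional ℝ E] [MeasurableSpace E] [BorelSpace E] {ρ : E → ℝ}

theorem avg_line_eq (x : E) {τ : ℝ} (hτ : 0 < τ) :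
    avg (fun z : E => ρ (x + τ • z))
      = (τ ^ finrank ℝ E)⁻¹ * ∫ w : E, ρ w * phi (τ⁻¹ • (x - w)) := by
  have h1 := Measure.integral_comp_smul_of_nonneg (volume : Measure E)
    (fun u : E => ρ (x + u) * phi (τ⁻¹ • u)) τ (hR := hτ.le)
  have h2 : (fun z : E => ρ (x + τ • z) * phi (τ⁻¹ • (τ • z)))
      = fun z : E => ρ (x + τ • z) * phi z := by
    ext z; rw [smul_smul, inv_mul_cancel₀ hτ.ne', one_smul]
  rw [h2] at h1
  rw [avg, h1, smul_eq_mul]
  congr 1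
  have h3 := integral_add_left_eq_self (μ := (volume : Measure E))
    (fun w : E => ρ w * phi (τ⁻¹ • (x - w))) x
  rw [← h3]
  congr 1; ext u
  have : x - (x + u) = -u := by abel
  rw [this, smul_neg, phi_neg]

theorem avg_contDiffOn (hρ : LipschitzWith 1 ρ) :
    ContDiffOn ℝ ∞ (fun q : E × ℝ => avg (fun z : E => ρ (q.1 + q.2 • z))) {q | 0 < q.2} := by
  have key : ∀ q0 : E × ℝ, 0 < q0.2 → ContDiffAt ℝ ∞
      (fun q : E × ℝ => ∫ w : E, ρ w * phi (q.2⁻¹ • (q.1 - w))) q0 := by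
    intro q0 hq0
    let s : Set (E × ℝ) := {q | q0.2 / 2 < q.2 ∧ q.2 < 2 * q0.2}
    have hs : IsOpen s := (isOpen_lt continuous_const continuous_snd).inter
      (isOpen_lt continuous_snd continuous_const)
    have hqs : q0 ∈ s := ⟨by linarith, by linarith⟩
    have hpos : ∀ q ∈ s, 0 < q.2 := fun q hq => by have := hq.1; linarith
    have h := contDiffOn_convolution_right_with_param_comp (𝕜 := ℝ) (μ := (volume : Measure E))
      (n := ⊤) (ContinuousLinearMap.mul ℝ ℝ) (s := s) (v := Prod.fst) contDiff_fst.contDiffOn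
      (f := ρ) (g := fun q u => phi (q.2⁻¹ • u)) (k := closedBall (0 : E) (2 * q0.2)) hs
      (isCompact_closedBall _ _) (by
        intro q u hq hu
        refine phi_zero ?_
        rw [mem_closedBall_zero_iff, not_le] at hu
        have hq2 := hpos q hq
        rw [norm_smul, norm_inv, Real.norm_eq_abs, abs_of_pos hq2, inv_mul_eq_div,
          le_div_iff₀ hq2, one_mul]
        exact (hq.2.trans hu).le) hρ.continuous.locallyIntegrable (by
        have h1 : ContDiffOn ℝ ∞ (fun p : (E × ℝ) × E => (p.1.2)⁻¹ • p.2) (s ×ˢ univ) := by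
          refine ContDiffOn.smul (ContDiffOn.inv ?_ ?_) contDiff_snd.contDiffOn
          · exact (contDiff_snd.comp contDiff_fst).contDiffOn
          · intro p hp
            exact (hpos p.1 hp.1).ne'
        exact phi_contDiff.comp_contDiffOn h1)
    have h2 := h.contDiffAt (hs.mem_nhds hqs)
    refine h2.congr_of_eventuallyEq (Filter.Eventually.of_forall fun q => ?_)
    rfl
  intro q0 hq0
  refine ContDiffAt.contDiffWithinAt ?_
  have hq0' : 0 < q0.2 := hq0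
  have h1 : ContDiffAt ℝ ∞ (fun q : E × ℝ => (q.2 ^ finrank ℝ E)⁻¹
      * ∫ w : E, ρ w * phi (q.2⁻¹ • (q.1 - w))) q0 := by
    refine ContDiffAt.mul (ContDiffAt.inv ?_ (pow_ne_zero _ hq0'.ne')) (key q0 hq0)
    exact (contDiff_snd.pow _).contDiffAt
  refine h1.congr_of_eventuallyEq ?_
  filter_upwards [(isOpen_lt continuous_const continuous_snd).mem_nhds hq0'] with q hq
  exact avg_line_eq q.1 hq

/-- the map whose inverse contains the regularised distance -/
noncomputable def G (ρ : E → ℝ) (κ : ℝ) (q : E × ℝ) : E × ℝ :=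
  (q.1, q.2 - κ * avg (fun z : E => ρ (q.1 + q.2 • z)))

theorem G_contDiffOn (hρ : LipschitzWith 1 ρ) (κ : ℝ) :
    ContDiffOn ℝ ∞ (G ρ κ) {q : E × ℝ | 0 < q.2} :=
  contDiff_fst.contDiffOn.prodMk (contDiff_snd.contDiffOn.sub
    (contDiffOn_const.mul (avg_contDiffOn hρ)))

theorem G_fderiv_inv (hρ : LipschitzWith 1 ρ) {κ : ℝ} (h0 : 0 ≤ κ) (h1 : κ < 1)
    {q : E × ℝ} (hq : 0 < q.2) : (fderiv ℝ (G ρ κ) q).IsInvertible := by
  have hopen : IsOpen {q : E × ℝ | 0 < q.2} := isOpen_lt continuous_const continuous_snd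
  let A : E × ℝ → ℝ := fun q => avg (fun z : E => ρ (q.1 + q.2 • z))
  have hA : DifferentiableAt ℝ A q :=
    ((avg_contDiffOn hρ).contDiffAt (hopen.mem_nhds hq)).differentiableAt (by simp)
  have hG : HasFDerivAt (G ρ κ) ((ContinuousLinearMap.fst ℝ E ℝ).prod
      (ContinuousLinearMap.snd ℝ E ℝ - κ • fderiv ℝ A q)) q :=
    hasFDerivAt_fst.prodMk (hasFDerivAt_snd.sub (hA.hasFDerivAt.const_mul κ))
  rw [hG.fderiv]
  -- bound of the derivative in the direction `(0, 1)`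
  have hb : |fderiv ℝ A q (0, 1)| ≤ 1 := by
    have hl : HasDerivAt (fun σ : ℝ => (q.1, σ)) ((0 : E), (1 : ℝ)) q.2 :=
      (hasDerivAt_const _ _).prodMk (hasDerivAt_id _)
    have hc : HasDerivAt (fun σ : ℝ => A (q.1, σ)) (fderiv ℝ A q (0, 1)) q.2 :=
      (hA.hasFDerivAt).comp_hasDerivAt (x := q.2) (f := fun σ : ℝ => (q.1, σ)) hl
    have hL : LipschitzWith 1 (fun σ : ℝ => A (q.1, σ)) := by
      refine LipschitzWith.of_dist_le_mul fun τ σ => ?_
      have := line_le hρ q.1 q.1 τ σ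
      rw [sub_self, norm_zero, zero_add] at this
      rw [NNReal.coe_one, one_mul, Real.dist_eq, Real.dist_eq]
      exact this
    have := norm_deriv_le_of_lipschitz (x₀ := q.2) hL
    rwa [hc.deriv, Real.norm_eq_abs, NNReal.coe_one] at this
  set D : E × ℝ →L[ℝ] E × ℝ := (ContinuousLinearMap.fst ℝ E ℝ).prod
      (ContinuousLinearMap.snd ℝ E ℝ - κ • fderiv ℝ A q) with hD
  have hinj : Function.Injective (D : E × ℝ →ₗ[ℝ] E × ℝ) := by
    rw [← LinearMap.ker_eq_bot, LinearMap.ker_eq_bot']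
    rintro ⟨u, t⟩ hut
    have h2 : D (u, t) = 0 := hut
    rw [hD] at h2
    simp only [ContinuousLinearMap.prod_apply, ContinuousLinearMap.coe_fst', Prod.mk_eq_zero,
      ContinuousLinearMap.sub_apply, ContinuousLinearMap.coe_snd', ContinuousLinearMap.smul_apply,
      smul_eq_mul] at h2
    obtain ⟨rfl, h3⟩ := h2
    have h4 : ((0 : E), t) = t • ((0 : E), (1 : ℝ)) := by simp
    rw [h4, map_smul, smul_eq_mul] at h3
    have h5 : t * (1 - κ * fderiv ℝ A q (0, 1)) = 0 := by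
      have : t * (1 - κ * fderiv ℝ A q (0, 1)) = t - κ * (t * fderiv ℝ A q (0, 1)) := by ring
      rw [this]; exact h3
    have h6 : 1 - κ * fderiv ℝ A q (0, 1) ≠ 0 := by
      have h7 := (abs_le.1 hb).2
      have h8 : κ * fderiv ℝ A q (0, 1) ≤ κ * 1 := mul_le_mul_of_nonneg_left h7 h0
      intro h9
      linarith
    rcases mul_eq_zero.1 h5 with h | h
    · rw [h]; rfl
    · exact absurd h h6
  refine ⟨(LinearEquiv.ofInjectiveEndo (D : E × ℝ →ₗ[ℝ] E × ℝ) hinj).toContinuousLinearEquiv, ?_⟩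
  ext v <;> rfl

theorem K_contDiffOn (hρ : LipschitzWith 1 ρ) {κ : ℝ} (h0 : 0 ≤ κ) (h1 : κ < 1) :
    ContDiffOn ℝ ∞ (fun p : E × ℝ => (p.1, T ρ κ p.1 p.2)) {p | 0 < T ρ κ p.1 p.2} := by
  refine Glob_816.contDiffOn_inv (g := G ρ κ) (Om := {q : E × ℝ | 0 < q.2}) (by simp)
    (isOpen_lt continuous_const continuous_snd) (G_contDiffOn hρ κ)
    (fun q hq => G_fderiv_inv hρ h0 h1 hq) (fun p hp => hp) ?_ ?_
  · rintro ⟨x, τ⟩ -
    have : T ρ κ x (τ - κ * avg (fun z : E => ρ (x + τ • z))) = τ :=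
      T_unique hρ h0 h1 (by ring)
    simp only [G, this]
  · rintro ⟨x, s⟩ -
    have := T_eq hρ h0 h1 x s
    simp only [G]
    rw [Prod.mk.injEq]
    exact ⟨rfl, by linarith⟩

/-- the regularised distance is smooth where `ρ > 0` -/
theorem reg_contDiffOn (hρ : LipschitzWith 1 ρ) (hn : ∀ x, 0 ≤ ρ x) {κ : ℝ} (h0 : 0 < κ)
    (h1 : κ < 1) : ContDiffOn ℝ ∞ (reg ρ κ) {x | 0 < ρ x} := by
  have h2 : ContDiffOn ℝ ∞ (fun x : E => (x, (0 : ℝ))) {x | 0 < ρ x} :=
    contDiffOn_id.prodMk contDiffOn_const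
  have h3 := (K_contDiffOn (E := E) hρ h0.le h1).comp h2 (fun x hx => reg_pos hρ hn h0 h1 hx)
  exact contDiff_snd.comp_contDiffOn h3

theorem reg_contDiffAt (hρ : LipschitzWith 1 ρ) (hn : ∀ x, 0 ≤ ρ x) {κ : ℝ} (h0 : 0 < κ)
    (h1 : κ < 1) {x : E} (hx : 0 < ρ x) : ContDiffAt ℝ ∞ (reg ρ κ) x :=
  (reg_contDiffOn hρ hn h0 h1).contDiffAt
    ((isOpen_lt continuous_const hρ.continuous).mem_nhds hx)

theorem reg_norm_fderiv_le (hρ : LipschitzWith 1 ρ) {κ : ℝ} (h0 : 0 ≤ κ) (h1 : κ < 1) (x : E) :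
    ‖fderiv ℝ (reg ρ κ) x‖ ≤ κ / (1 - κ) := by
  have := norm_fderiv_le_of_lipschitz ℝ (x₀ := x) (reg_lipschitz hρ h0 h1)
  rwa [Real.coe_toNNReal _ (div_nonneg h0 (by linarith))] at this

/-- **P5-REG**, everything in one statement with the constant of 205 (`κ = 1/10`). -/
theorem exists_reg (hρ : LipschitzWith 1 ρ) (hn : ∀ x, 0 ≤ ρ x) :
    ∃ rt : E → ℝ, (∀ x, ρ x / 11 ≤ rt x) ∧ (∀ x, rt x ≤ ρ x / 9) ∧
      (∀ x, 0 < ρ x → ContDiffAt ℝ ∞ rt x) ∧ LipschitzWith (1 / 9) rt ∧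
      (∀ x, ‖fderiv ℝ rt x‖ ≤ 1 / 9) ∧
      (∀ (x v : E), (∀ y, ‖y - x‖ ≤ rt x → ρ (y + v) = ρ y) → rt (x + v) = rt x) ∧
      (∀ (x p : E) (l : ℝ), (∀ y, ‖y - x‖ ≤ rt x → ρ (p + l • (y - p)) = l * ρ y) →
        rt (p + l • (x - p)) = l * rt x) ∧
      (∀ (x x' : E) (l : ℝ) (O : E ≃ₗᵢ[ℝ] E),
        (∀ z : E, ‖z‖ ≤ rt x → ρ (x' + l • O z) = l * ρ (x + z)) → rt x' = l * rt x) := by
  have h0 : (0 : ℝ) < 1 / 10 := by norm_num
  have h1 : (1 / 10 : ℝ) < 1 := by norm_num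
  refine ⟨reg ρ (1 / 10), fun x => ?_, fun x => ?_, fun x hx => reg_contDiffAt hρ hn h0 h1 hx,
    ?_, fun x => ?_, fun x v h => reg_trans hρ hn h0.le h1 h,
    fun x p l h => reg_homog hρ hn h0.le h1 h, fun x x' l O h => reg_sym hρ hρ hn h0.le h1 O h⟩
  · have := le_reg hρ hn h0.le h1 x
    norm_num at this; linarith
  · have := reg_le hρ hn h0.le h1 x
    norm_num at this; linarith
  · have := reg_lipschitz hρ h0.le h1 (E := E)
    convert this using 1
    rw [← NNReal.coe_inj, Real.coe_toNNReal _ (by norm_num)]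
    norm_num
  · have := reg_norm_fderiv_le hρ h0.le h1 x
    norm_num at this; norm_num; linarith

end Crest.Agent.R096.RegD_816
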