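import Crest.Agent.R096.Brk2_582
import Crest.Agent.R096.Cx1_609

/-!
# Row 96: the relabelling homeomorphism `rl = T ∘ σ ∘ sc` of a foam

`σ c : [0,1] → [0,1]` increasing homeomorphisms fixing `0` and `1`; `rl P b σ y = T b (σ (sc P b y))`
is a homeomorphism of `La` which preserves all cells and faces, and
`s_c (rl y) = σ c (s_c y)`.
-/

set_option autoImplicit false
set_option linter.unusedSectionVars false
open Set Filter Topology MeasureTheory

namespace Crest.Agent.R096.Rel_628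

open Crest.Agent.R096.Brk1_582 Crest.Agent.R096.Brk2_582

/-! ## the functions `σ` -/

/-- increasing homeomorphisms of `[0,1]` fixing the ends -/
structure Rl {I : Type*} (σ : I → ℝ → ℝ) : Prop where
  zero : ∀ c, σ c 0 = 0
  one : ∀ c, σ c 1 = 1
  mono : ∀ c, StrictMonoOn (σ c) (Icc 0 1)
  cont : ∀ c, ContinuousOn (σ c) (Icc 0 1)

/-- coordinatewise application -/
def sg {I : Type*} (σ : I → ℝ → ℝ) (u : I → ℝ) : I → ℝ := fun c => σ c (u c)

section sig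

variable {I : Type*} {σ τ : I → ℝ → ℝ}

private theorem h01 : (0 : ℝ) ∈ Icc (0 : ℝ) 1 := ⟨le_rfl, zero_le_one⟩
private theorem h11 : (1 : ℝ) ∈ Icc (0 : ℝ) 1 := ⟨zero_le_one, le_rfl⟩

theorem Rl.mem (h : Rl σ) (c : I) {x : ℝ} (hx : x ∈ Icc (0 : ℝ) 1) : σ c x ∈ Icc (0 : ℝ) 1 := by
  constructor
  · rw [← h.zero c]; exact (h.mono c).monotoneOn h01 hx hx.1
  · rw [← h.one c]; exact (h.mono c).monotoneOn hx h11 hx.2

theorem Rl.lt_one (h : Rl σ) (c : I) {x : ℝ} (hx : x ∈ Icc (0 : ℝ) 1) : σ c x < 1 ↔ x < 1 := by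
  conv_lhs => rw [← h.one c]
  exact (h.mono c).lt_iff_lt hx h11

theorem Rl.eq_zero (h : Rl σ) (c : I) {x : ℝ} (hx : x ∈ Icc (0 : ℝ) 1) : σ c x = 0 ↔ x = 0 := by
  constructor
  · intro h0
    exact (h.mono c).injOn hx h01 (by rw [h0, h.zero])
  · rintro rfl; exact h.zero c

theorem Rl.eq_one (h : Rl σ) (c : I) {x : ℝ} (hx : x ∈ Icc (0 : ℝ) 1) : σ c x = 1 ↔ x = 1 := by
  constructor
  · intro h0
    exact (h.mono c).injOn hx h11 (by rw [h0, h.one])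
  · rintro rfl; exact h.one c

theorem Rl.image (h : Rl σ) (c : I) : σ c '' Icc 0 1 = Icc 0 1 := by
  apply subset_antisymm
  · rintro _ ⟨x, hx, rfl⟩; exact h.mem c hx
  · have := intermediate_value_Icc zero_le_one (h.cont c)
    rwa [h.zero, h.one] at this

theorem rl_id : Rl (fun (_ : I) (x : ℝ) => x) :=
  ⟨fun _ => rfl, fun _ => rfl, fun _ => strictMono_id.strictMonoOn _, fun _ => continuousOn_id⟩

/-- the inverse family -/
theorem Rl.exists_inv (h : Rl σ) : ∃ τ : I → ℝ → ℝ, Rl τ ∧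
    (∀ c, ∀ x ∈ Icc (0 : ℝ) 1, τ c (σ c x) = x) ∧ ∀ c, ∀ x ∈ Icc (0 : ℝ) 1, σ c (τ c x) = x := by
  classical
  let τ : I → ℝ → ℝ := fun c => Function.invFunOn (σ c) (Icc 0 1)
  have hs : ∀ c, ∀ x ∈ Icc (0 : ℝ) 1, ∃ y ∈ Icc (0 : ℝ) 1, σ c y = x := fun c x hx => by
    rw [← h.image c] at hx; exact hx
  have hm : ∀ c, ∀ x ∈ Icc (0 : ℝ) 1, τ c x ∈ Icc (0 : ℝ) 1 := fun c x hx =>
    Function.invFunOn_mem (hs c x hx)
  have hr : ∀ c, ∀ x ∈ Icc (0 : ℝ) 1, σ c (τ c x) = x := fun c x hx =>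
    Function.invFunOn_eq (hs c x hx)
  have hl : ∀ c, ∀ x ∈ Icc (0 : ℝ) 1, τ c (σ c x) = x := fun c x hx =>
    (h.mono c).injOn (hm c _ (h.mem c hx)) hx (hr c _ (h.mem c hx))
  have hmono : ∀ c, StrictMonoOn (τ c) (Icc 0 1) := fun c x hx y hy hxy => by
    rw [← (h.mono c).lt_iff_lt (hm c x hx) (hm c y hy), hr c x hx, hr c y hy]
    exact hxy
  refine ⟨τ, ⟨fun c => ?_, fun c => ?_, hmono, fun c => ?_⟩, hl, hr⟩
  · have := hl c 0 h01; rwa [h.zero] at this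
  · have := hl c 1 h11; rwa [h.one] at this
  · -- continuity: inverse of a continuous bijection of a compact set
    have h1 : IsCompact (Icc (0 : ℝ) 1) := isCompact_Icc
    rw [continuousOn_iff_isClosed]
    intro t ht
    refine ⟨σ c '' (Icc 0 1 ∩ t), ((h1.inter_right ht).image_of_continuousOn
      ((h.cont c).mono inter_subset_left)).isClosed, ?_⟩
    ext x
    constructor
    · rintro ⟨hxt, hx⟩
      exact ⟨⟨τ c x, ⟨hm c x hx, hxt⟩, hr c x hx⟩, hx⟩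
    · rintro ⟨⟨y, ⟨hy, hyt⟩, rfl⟩, hx⟩
      refine ⟨?_, hx⟩
      change τ c (σ c y) ∈ t
      rw [hl c y hy]
      exact hyt

end sig

/-! ## the map -/

section main

variable {E : Type*} [NormedAddCommGroup E] [NormedSpace ℝ E] [CompleteSpace E] {I : Type*}
variable {La : Set E} {P : I → Set E} {b : Set I → E} {N : ℕ} {σ τ : I → ℝ → ℝ}

theorem sg_mem_K (h : Rl σ) {u : I → ℝ} (hu : u ∈ K P) : sg σ u ∈ K P := by
  have hu' : ∀ c, u c ∈ Icc (0 : ℝ) 1 := fun c => hu.1 c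
  refine ⟨fun c => h.mem c (hu' c), ?_, ?_⟩
  · obtain ⟨c, hc⟩ := hu.2.1
    exact ⟨c, by simp only [sg, hc]; exact h.zero c⟩
  · have : {c | sg σ u c < 1} = {c | u c < 1} := by
      ext c; exact h.lt_one c (hu' c)
    rw [this]
    exact hu.2.2

/-- **the relabelling map** -/
noncomputable def rl (P : I → Set E) (b : Set I → E) (σ : I → ℝ → ℝ) (y : E) : E :=
  T b (sg σ (sc P b y))

variable (F : Foam La P b N)
include F

theorem rl_mem (h : Rl σ) {y : E} (hy : y ∈ La) : rl P b σ y ∈ La :=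
  F.T_mem_La (sg_mem_K h (F.sc_mem_K hy))

/-- **all coordinates are relabelled, everywhere in `La`** -/
theorem sc_rl (h : Rl σ) {y : E} (hy : y ∈ La) : sc P b (rl P b σ y) = sg σ (sc P b y) :=
  F.sc_T (sg_mem_K h (F.sc_mem_K hy))

theorem sc_rl_apply (h : Rl σ) {y : E} (hy : y ∈ La) (c : I) :
    sc P b (rl P b σ y) c = σ c (sc P b y c) := by
  rw [sc_rl F h hy]; rfl

theorem act_rl (h : Rl σ) {y : E} (hy : y ∈ La) : act P (rl P b σ y) = act P y := by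
  rw [F.act_eq (rl_mem F h hy), F.act_eq hy, sc_rl F h hy]
  ext c
  exact h.eq_zero c ((F.sc_mem_K hy).1 c)

theorem mem_P_rl (h : Rl σ) {y : E} (hy : y ∈ La) {c : I} : rl P b σ y ∈ P c ↔ y ∈ P c := by
  rw [← mem_act, act_rl F h hy, mem_act]

theorem rl_rl (hσ : Rl σ) (hτ : Rl τ) (hτσ : ∀ c, ∀ x ∈ Icc (0 : ℝ) 1, τ c (σ c x) = x) {y : E}
    (hy : y ∈ La) : rl P b τ (rl P b σ y) = y := by
  refine F.sc_inj (rl_mem F hτ (rl_mem F hσ hy)) hy ?_
  rw [sc_rl F hτ (rl_mem F hσ hy), sc_rl F hσ hy]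
  funext c
  exact hτσ c _ ((F.sc_mem_K hy).1 c)

theorem continuousOn_rl (h : Rl σ) : ContinuousOn (rl P b σ) La := by
  refine (continuousOn_T F).comp ?_ fun y hy => sg_mem_K h (F.sc_mem_K hy)
  rw [continuousOn_pi]
  intro c
  exact (h.cont c).comp (continuousOn_sc_apply F c) fun y hy => (F.sc_mem_K hy).1 c

/-- the faces are preserved -/
theorem rl_image_fc (h : Rl σ) {A : Set I} (hA : A.Nonempty) : rl P b σ '' fc P A = fc P A := by
  obtain ⟨τ, hτ, h1, h2⟩ := h.exists_inv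
  have hm : ∀ {ρ : I → ℝ → ℝ}, Rl ρ → ∀ y ∈ fc P A, rl P b ρ y ∈ fc P A := fun hρ y hy => by
    rw [mem_fc', act_rl F hρ (F.fc_sub_La hA hy), ← mem_fc']
    exact hy
  apply subset_antisymm
  · rintro _ ⟨y, hy, rfl⟩; exact hm h y hy
  · intro y hy
    exact ⟨rl P b τ y, hm hτ y hy, rl_rl F hτ h h2 (F.fc_sub_La hA hy)⟩

theorem rl_image_P (h : Rl σ) (c : I) : rl P b σ '' P c = P c := by
  have := rl_image_fc F h (A := {c}) (singleton_nonempty c)
  simpa [fc] using this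

/-- **`rl` is a homeomorphism of `La`** -/
theorem exists_rl_inv (h : Rl σ) : ∃ τ : I → ℝ → ℝ, Rl τ ∧
    (∀ c, ∀ x ∈ Icc (0 : ℝ) 1, τ c (σ c x) = x) ∧ (∀ c, ∀ x ∈ Icc (0 : ℝ) 1, σ c (τ c x) = x) ∧
    (∀ y ∈ La, rl P b τ (rl P b σ y) = y) ∧ (∀ y ∈ La, rl P b σ (rl P b τ y) = y) ∧
    ContinuousOn (rl P b σ) La ∧ ContinuousOn (rl P b τ) La := by
  obtain ⟨τ, hτ, h1, h2⟩ := h.exists_inv
  exact ⟨τ, hτ, h1, h2, fun y hy => rl_rl F h hτ h1 hy, fun y hy => rl_rl F hτ h h2 hy,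
    continuousOn_rl F h, continuousOn_rl F hτ⟩

theorem rl_bijOn (h : Rl σ) : BijOn (rl P b σ) La La := by
  obtain ⟨τ, hτ, h1, h2, h3, h4, -, -⟩ := exists_rl_inv F h
  refine ⟨fun y hy => rl_mem F h hy, fun y hy z hz hyz => ?_, fun y hy =>
    ⟨rl P b τ y, rl_mem F hτ hy, h4 y hy⟩⟩
  rw [← h3 y hy, ← h3 z hz, hyz]

/-- the barycentres are fixed -/
theorem rl_b (h : Rl σ) {A : Set I} (hA : A.Nonempty) (hf : (fc P A).Nonempty) :
    rl P b σ (b A) = b A := by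
  classical
  have hb := F.fc_sub_La hA (F.mem A hA hf)
  refine F.sc_inj (rl_mem F h hb) hb ?_
  rw [sc_rl F h hb]
  funext c
  simp only [sg, F.sc_b hA hf c]
  split_ifs
  · exact h.zero c
  · exact h.one c

end main

end Crest.Agent.R096.Rel_628
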