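import Crest.Agent.R096.Rel1_628
import Crest.Agent.R096.Ce2_537
import Crest.Agent.R096.Cx3_609

/-!
# Row 96: the coordinates `sc` of a foam are piecewise affine on every cell; `T` is piecewise affine
in the (finitely many) coordinates; the relabelling homeomorphism `rl` is locally piecewise affine
-/

set_option autoImplicit false
set_option linter.unusedSectionVars false
open Set Filter Topology MeasureTheory

namespace Crest.Agent.R096.Rel_628

open Crest.Agent.R096.Brk1_582 Crest.Agent.R096.Brk2_582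

/-! ## selections of affine maps -/

section sel

variable {V W : Type*} [NormedAddCommGroup V] [NormedSpace ℝ V] [NormedAddCommGroup W]
  [NormedSpace ℝ W]

/-- selection of finitely many affine maps -/
def Sel (K : Set V) (f : V → W) : Prop :=
  ∃ S : Set (V →ᵃ[ℝ] W), S.Finite ∧ ∀ x ∈ K, ∃ g ∈ S, f x = g x

variable {K : Set V} {f g : V → W}

theorem Sel.congr (h : Sel K f) (e : EqOn g f K) : Sel K g := by
  obtain ⟨S, hS, h⟩ := h
  exact ⟨S, hS, fun x hx => by obtain ⟨a, ha, e'⟩ := h x hx; exact ⟨a, ha, (e hx).trans e'⟩⟩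

theorem sel_affine (a : V →ᵃ[ℝ] W) : Sel K (fun x => a x) :=
  ⟨{a}, finite_singleton a, fun _ _ => ⟨a, rfl, rfl⟩⟩

theorem sel_const (w : W) : Sel K (fun _ => w) := by
  have := sel_affine (K := K) (AffineMap.const ℝ V w)
  simpa using this

theorem Sel.add (hf : Sel K f) (hg : Sel K g) : Sel K (fun x => f x + g x) := by
  obtain ⟨S, hS, h⟩ := hf
  obtain ⟨S', hS', h'⟩ := hg
  refine ⟨image2 (fun a b => a + b) S S', hS.image2 _ hS', fun x hx => ?_⟩
  obtain ⟨a, ha, e⟩ := h x hx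
  obtain ⟨a', ha', e'⟩ := h' x hx
  exact ⟨a + a', mem_image2_of_mem ha ha', by change f x + g x = a x + a' x; rw [e, e']⟩

theorem sel_sum {ι : Type*} (s : Finset ι) {f : ι → V → W} (h : ∀ i ∈ s, Sel K (f i)) :
    Sel K (fun x => ∑ i ∈ s, f i x) := by
  classical
  induction s using Finset.induction_on with
  | empty => simpa using sel_const (K := K) (0 : W)
  | insert i s hi ih =>
    have h1 := (h i (Finset.mem_insert_self i s)).add
      (ih fun j hj => h j (Finset.mem_insert_of_mem hj))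
    refine h1.congr fun x _ => ?_
    simp only [Finset.sum_insert hi]

theorem Sel.or {f g k : V → W} (hf : Sel K f) (hg : Sel K g) (h : ∀ x ∈ K, k x = f x ∨ k x = g x) :
    Sel K k := by
  obtain ⟨S, hS, h1⟩ := hf
  obtain ⟨S', hS', h2⟩ := hg
  refine ⟨S ∪ S', hS.union hS', fun x hx => ?_⟩
  rcases h x hx with e | e
  · obtain ⟨a, ha, e'⟩ := h1 x hx; exact ⟨a, Or.inl ha, e.trans e'⟩
  · obtain ⟨a, ha, e'⟩ := h2 x hx; exact ⟨a, Or.inr ha, e.trans e'⟩

theorem Sel.max {f g : V → ℝ} (hf : Sel K f) (hg : Sel K g) : Sel K (fun x => max (f x) (g x)) :=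
  hf.or hg fun x _ => (max_choice (f x) (g x))

theorem Sel.min {f g : V → ℝ} (hf : Sel K f) (hg : Sel K g) : Sel K (fun x => min (f x) (g x)) :=
  hf.or hg fun x _ => (min_choice (f x) (g x))

theorem Sel.smul_const {f : V → ℝ} (hf : Sel K f) (w : W) : Sel K (fun x => f x • w) := by
  obtain ⟨S, hS, h⟩ := hf
  refine ⟨(fun a : V →ᵃ[ℝ] ℝ => (LinearMap.toSpanSingleton ℝ W w).toAffineMap.comp a) '' S,
    hS.image _, fun x hx => ?_⟩
  obtain ⟨a, ha, e⟩ := h x hx
  exact ⟨_, mem_image_of_mem _ ha, by simp [e, LinearMap.toSpanSingleton_apply]⟩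

theorem Sel.sub {f g : V → ℝ} (hf : Sel K f) (hg : Sel K g) : Sel K (fun x => f x - g x) := by
  refine (hf.add (hg.smul_const (-1 : ℝ))).congr fun x _ => ?_
  simp [sub_eq_add_neg]

theorem sel_fold_max {ι : Type*} (s : Finset ι) {f : ι → V → ℝ} (c : ℝ)
    (h : ∀ i ∈ s, Sel K (f i)) : Sel K (fun x => s.fold max c fun i => f i x) := by
  classical
  induction s using Finset.induction_on with
  | empty => simpa using sel_const (K := K) c
  | insert i s hi ih =>
    have h1 := (h i (Finset.mem_insert_self i s)).max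
      (ih fun j hj => h j (Finset.mem_insert_of_mem hj))
    refine h1.congr fun x _ => ?_
    simp only [Finset.fold_insert hi]

theorem sel_fold_min {ι : Type*} (s : Finset ι) {f : ι → V → ℝ} (c : ℝ)
    (h : ∀ i ∈ s, Sel K (f i)) : Sel K (fun x => s.fold min c fun i => f i x) := by
  classical
  induction s using Finset.induction_on with
  | empty => simpa using sel_const (K := K) c
  | insert i s hi ih =>
    have h1 := (h i (Finset.mem_insert_self i s)).min
      (ih fun j hj => h j (Finset.mem_insert_of_mem hj))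
    refine h1.congr fun x _ => ?_
    simp only [Finset.fold_insert hi]

theorem Sel.comp {X : Type*} [NormedAddCommGroup X] [NormedSpace ℝ X] {L : Set W} {k : W → X}
    (hk : Sel L k) (hf : Sel K f) (hm : MapsTo f K L) : Sel K (fun x => k (f x)) := by
  obtain ⟨S, hS, h1⟩ := hf
  obtain ⟨S', hS', h2⟩ := hk
  refine ⟨image2 (fun a b => b.comp a) S S', hS.image2 _ hS', fun x hx => ?_⟩
  obtain ⟨a, ha, e⟩ := h1 x hx
  obtain ⟨a', ha', e'⟩ := h2 _ (hm hx)
  exact ⟨a'.comp a, mem_image2_of_mem ha ha', by change k (f x) = a' (a x); rw [e', e]⟩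

theorem Sel.mono {L : Set V} (h : Sel K f) (hL : L ⊆ K) : Sel L f := by
  obtain ⟨S, hS, h⟩ := h
  exact ⟨S, hS, fun x hx => h x (hL hx)⟩

theorem sel_pi {ι : Type*} [Fintype ι] {f : V → ι → ℝ} (h : ∀ i, Sel K (fun x => f x i)) :
    Sel K f := by
  classical
  have h1 : Sel K (fun x => ∑ i, (f x i) • (Pi.single i (1 : ℝ) : ι → ℝ)) :=
    sel_sum _ fun i _ => (h i).smul_const _
  refine h1.congr fun x _ => ?_
  funext j
  simp [Finset.sum_apply, Pi.single_apply]

end sel

/-! ## the formula for `T` -/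

section formula

variable {E : Type*} [NormedAddCommGroup E] [NormedSpace ℝ E] [CompleteSpace E] {I : Type*}

/-- **`T` as a sum over the sets `A`** -/
theorem T_eq_sum [DecidableEq I] (b : Set I → E) {u : I → ℝ} (hu : ∀ c, u c ∈ Icc (0 : ℝ) 1)
    (C : Finset I) (hC : ∀ c, c ∉ C → u c = 1) :
    T b u = ∑ A ∈ C.powerset, (max ((C \ A).fold min 1 u - A.fold max 0 u) 0) • b (↑A : Set I) := by
  classical
  have hle : (0 : ℝ) ≤ 1 := zero_le_one
  have key : ∀ τ ∈ Ioo (0 : ℝ) 1, b {c | u c ≤ τ} = ∑ A ∈ C.powerset,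
      (Ico (A.fold max 0 u) ((C \ A).fold min 1 u)).indicator (fun _ => b (↑A : Set I)) τ := by
    intro τ hτ
    set A0 : Finset I := C.filter fun c => u c ≤ τ with hA0
    have e0 : {c | u c ≤ τ} = (↑A0 : Set I) := by
      ext c
      simp only [hA0, Finset.coe_filter, mem_ofPred_eq]
      refine ⟨fun h => ⟨?_, h⟩, fun h => h.2⟩
      by_contra hc
      rw [hC c hc] at h
      linarith [hτ.2]
    have hA0C : A0 ∈ C.powerset := Finset.mem_powerset.2 (Finset.filter_subset _ _)
    have hin : ∀ A ∈ C.powerset, τ ∈ Ico (A.fold max 0 u) ((C \ A).fold min 1 u) ↔ A = A0 := by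
      intro A hA
      rw [mem_Ico, Finset.fold_max_le, Finset.lt_fold_min]
      constructor
      · rintro ⟨⟨-, h1⟩, -, h2⟩
        ext c
        rw [hA0, Finset.mem_filter]
        constructor
        · intro hc; exact ⟨Finset.mem_powerset.1 hA hc, h1 c hc⟩
        · rintro ⟨hcC, hc⟩
          by_contra hcA
          exact absurd (h2 c (Finset.mem_sdiff.2 ⟨hcC, hcA⟩)) (not_lt.2 hc)
      · rintro rfl
        refine ⟨⟨hτ.1.le, fun c hc => (Finset.mem_filter.1 hc).2⟩, hτ.2, fun c hc => ?_⟩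
        rw [Finset.mem_sdiff, hA0, Finset.mem_filter] at hc
        by_contra h
        exact hc.2 ⟨hc.1, not_lt.1 h⟩
    rw [e0, Finset.sum_eq_single A0]
    · rw [indicator_of_mem ((hin A0 hA0C).2 rfl)]
    · intro A hA hne
      rw [indicator_of_notMem]
      exact fun h => hne ((hin A hA).1 h)
    · exact fun h => absurd hA0C h
  have hlen : ∀ A : Finset I, ∫ τ in (0 : ℝ)..1,
      (Ico (A.fold max 0 u) ((C \ A).fold min 1 u)).indicator (fun _ => b (↑A : Set I)) τ =
      (max ((C \ A).fold min 1 u - A.fold max 0 u) 0) • b (↑A : Set I) := by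
    intro A
    set l := A.fold max 0 u with hl
    set r := (C \ A).fold min 1 u with hr
    have hl0 : 0 ≤ l := by rw [hl, Finset.le_fold_max]; exact Or.inl le_rfl
    have hr1 : r ≤ 1 := by rw [hr, Finset.fold_min_le]; exact Or.inl le_rfl
    rw [intervalIntegral.integral_of_le hle, integral_indicator_const _ measurableSet_Ico]
    congr 1
    rw [measureReal_restrict_apply measurableSet_Ico, Measure.real]
    have h1 : volume (Ico l r ∩ Ioc 0 1) = ENNReal.ofReal (r - l) := by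
      apply le_antisymm
      · calc volume (Ico l r ∩ Ioc 0 1) ≤ volume (Icc l r) :=
            measure_mono fun x hx => Ico_subset_Icc_self hx.1
          _ = _ := Real.volume_Icc
      · calc ENNReal.ofReal (r - l) = volume (Ioo l r) := Real.volume_Ioo.symm
          _ ≤ _ := by
              refine measure_mono fun x hx => ?_
              exact ⟨⟨hx.1.le, hx.2⟩, lt_of_le_of_lt hl0 hx.1, hx.2.le.trans hr1⟩
    rw [h1, ENNReal.toReal_ofReal']
  have hint : ∀ A ∈ C.powerset, IntervalIntegrable (fun τ =>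
      (Ico (A.fold max 0 u) ((C \ A).fold min 1 u)).indicator (fun _ => b (↑A : Set I)) τ)
      volume 0 1 := fun A _ => by
    rw [intervalIntegrable_iff_integrableOn_Ioc_of_le hle]
    exact (integrable_const _).indicator measurableSet_Ico
  rw [T]
  have e1 : ∫ τ in (0 : ℝ)..1, b {c | u c ≤ τ} = ∫ τ in (0 : ℝ)..1, ∑ A ∈ C.powerset,
      (Ico (A.fold max 0 u) ((C \ A).fold min 1 u)).indicator (fun _ => b (↑A : Set I)) τ := by
    rw [intervalIntegral.integral_of_le hle, intervalIntegral.integral_of_le hle,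
      integral_Ioc_eq_integral_Ioo, integral_Ioc_eq_integral_Ioo]
    exact setIntegral_congr_fun measurableSet_Ioo fun τ hτ => key τ hτ
  rw [e1, intervalIntegral.integral_finsetSum hint]
  exact Finset.sum_congr rfl fun A _ => hlen A

end formula

/-! ## `T` and `sc` in finitely many coordinates -/

section fin

variable {E : Type*} [NormedAddCommGroup E] [NormedSpace ℝ E] [CompleteSpace E] {I : Type*}
variable {La : Set E} {P : I → Set E} {b : Set I → E} {N : ℕ} {σ τ : I → ℝ → ℝ}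

open Classical in
/-- extension by `1` -/
noncomputable def ex (C : Finset I) (v : C → ℝ) : I → ℝ := fun c => if h : c ∈ C then v ⟨c, h⟩ else 1

/-- restriction -/
def rs (C : Finset I) (u : I → ℝ) : C → ℝ := fun c => u c

theorem ex_mem {C : Finset I} (v : C → ℝ) {c : I} (h : c ∈ C) : ex C v c = v ⟨c, h⟩ := by
  simp [ex, h]

theorem ex_not {C : Finset I} (v : C → ℝ) {c : I} (h : c ∉ C) : ex C v c = 1 := by
  simp [ex, h]

theorem ex_rs {C : Finset I} {u : I → ℝ} (h : ∀ c, c ∉ C → u c = 1) : ex C (rs C u) = u := by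
  funext c
  by_cases hc : c ∈ C
  · rw [ex_mem _ hc]; rfl
  · rw [ex_not _ hc, h c hc]

theorem rs_ex {C : Finset I} (v : C → ℝ) : rs C (ex C v) = v := by
  funext c
  simp [rs, ex]

theorem continuous_ex (C : Finset I) : Continuous (ex C) := by
  refine continuous_pi fun c => ?_
  by_cases hc : c ∈ C
  · simp only [ex_mem _ hc]; exact continuous_apply _
  · simp only [ex_not _ hc]; exact continuous_const

/-- the part `u c0 = 0` of the cube complex in the coordinates `C` -/
def KF (P : I → Set E) (C : Finset I) (c0 : I) : Set (C → ℝ) :=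
  {v | ex C v ∈ K P ∧ ex C v c0 = 0}

theorem KF_eq {C : Finset I} {c0 : I} (hc0 : c0 ∈ C) :
    KF P C c0 = ⋃ A ∈ {A : Finset I | A ⊆ C ∧ (fc P (↑A : Set I)).Nonempty},
      {v : C → ℝ | (∀ c, v c ∈ Icc (0 : ℝ) 1) ∧ v ⟨c0, hc0⟩ = 0 ∧ ∀ c : C, (c : I) ∉ A → v c = 1} := by
  classical
  ext v
  simp only [mem_iUnion₂, mem_ofPred_eq, exists_prop]
  constructor
  · rintro ⟨h1, h2⟩
    refine ⟨C.filter fun c => ex C v c < 1, ⟨Finset.filter_subset _ _, ?_⟩, fun c => ?_, ?_,
      fun c hc => ?_⟩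
    · refine h1.2.2.mono (fc_anti fun c hc => ?_)
      have := (Finset.mem_filter.1 (Finset.mem_coe.1 hc)).2
      exact this
    · have := h1.1 c; rwa [ex_mem _ c.2] at this
    · rwa [ex_mem _ hc0] at h2
    · rw [Finset.mem_filter, not_and, ex_mem _ c.2] at hc
      have h3 := h1.1 c
      rw [ex_mem _ c.2] at h3
      exact le_antisymm h3.2 (not_lt.1 (hc c.2))
  · rintro ⟨A, ⟨hAC, hA⟩, h1, h2, h3⟩
    refine ⟨⟨fun c => ?_, ⟨c0, ?_⟩, hA.mono (fc_anti fun c (hc : ex C v c < 1) => ?_)⟩, ?_⟩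
    · by_cases hc : c ∈ C
      · rw [ex_mem _ hc]; exact h1 _
      · rw [ex_not _ hc]; exact ⟨zero_le_one, le_rfl⟩
    · rw [ex_mem _ hc0]; exact h2
    · by_contra hcA
      by_cases hcC : c ∈ C
      · rw [ex_mem _ hcC, h3 ⟨c, hcC⟩ hcA] at hc; exact lt_irrefl _ hc
      · rw [ex_not _ hcC] at hc; exact lt_irrefl _ hc
    · rw [ex_mem _ hc0]; exact h2

theorem finite_KF (C : Finset I) :
    {A : Finset I | A ⊆ C ∧ (fc P (↑A : Set I)).Nonempty}.Finite :=
  (C.powerset.finite_toSet).subset fun _ hA => Finset.mem_coe.2 (Finset.mem_powerset.2 hA.1)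

theorem finConv_KF {C : Finset I} {c0 : I} (hc0 : c0 ∈ C) : Cx_609.FinConv (KF P C c0) := by
  rw [KF_eq hc0]
  refine ⟨(fun A : Finset I => {v : C → ℝ | (∀ c, v c ∈ Icc (0 : ℝ) 1) ∧ v ⟨c0, hc0⟩ = 0 ∧
    ∀ c : C, (c : I) ∉ A → v c = 1}) '' {A : Finset I | A ⊆ C ∧ (fc P (↑A : Set I)).Nonempty},
    (finite_KF C).image _, ?_, sUnion_image _ _⟩
  rintro _ ⟨A, -, rfl⟩
  rintro v ⟨h1, h2, h3⟩ w ⟨h1', h2', h3'⟩ s t hs ht hst
  refine ⟨fun c => ?_, ?_, fun c hc => ?_⟩
  · exact (convex_Icc (0 : ℝ) 1) (h1 c) (h1' c) hs ht hst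
  · simp only [Pi.add_apply, Pi.smul_apply, smul_eq_mul, h2, h2', mul_zero, add_zero]
  · simp only [Pi.add_apply, Pi.smul_apply, smul_eq_mul, h3 c hc, h3' c hc, mul_one, hst]

theorem isCompact_KF {C : Finset I} {c0 : I} (hc0 : c0 ∈ C) : IsCompact (KF P C c0) := by
  rw [KF_eq hc0]
  refine (finite_KF C).isCompact_biUnion fun A _ => ?_
  refine (isCompact_univ_pi fun _ : C => isCompact_Icc (a := (0 : ℝ)) (b := 1)).of_isClosed_subset
    ?_ fun v hv c _ => hv.1 c
  have e : {v : C → ℝ | (∀ c, v c ∈ Icc (0 : ℝ) 1) ∧ v ⟨c0, hc0⟩ = 0 ∧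
      ∀ c : C, (c : I) ∉ A → v c = 1} = (⋂ c, {v : C → ℝ | v c ∈ Icc (0 : ℝ) 1}) ∩
      ({v | v ⟨c0, hc0⟩ = 0} ∩ ⋂ c : C, ⋂ _ : (c : I) ∉ A, {v | v c = 1}) := by
    ext v; simp
  rw [e]
  refine (isClosed_iInter fun c => isClosed_Icc.preimage (continuous_apply c)).inter
    ((isClosed_singleton.preimage (continuous_apply _)).inter
      (isClosed_iInter fun c => isClosed_iInter fun _ =>
        isClosed_singleton.preimage (continuous_apply c)))

variable (F : Foam La P b N)
include F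

/-- a finite set of cells containing all neighbours of `c0` -/
noncomputable def nbF (c0 : I) : Finset I := (finite_touch F c0).toFinset

theorem mem_nbF {c0 c : I} : c ∈ nbF F c0 ↔ (P c ∩ P c0).Nonempty := by simp [nbF]

theorem one_of_not_nbF {u : I → ℝ} (hu : u ∈ K P) {c0 : I} (h0 : u c0 = 0) {c : I}
    (hc : c ∉ nbF F c0) : u c = 1 := by
  by_contra h
  exact hc ((mem_nbF F).2 (lt_one_sub F hu (c0 := c0) (by rw [h0]; exact one_pos)
    (lt_of_le_of_ne (hu.1 c).2 h)))

theorem self_mem_nbF {c0 : I} (h : (P c0).Nonempty) : c0 ∈ nbF F c0 :=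
  (mem_nbF F).2 (by rwa [inter_self])

/-- **`T` is piecewise affine in the coordinates** -/
theorem plOn_T (C : Finset I) (c0 : I) : Cx_609.PLOn (KF P C c0) (fun v => T b (ex C v)) := by
  classical
  refine ⟨(continuousOn_T F).comp (continuous_ex C).continuousOn fun v hv => hv.1, ?_⟩
  have h1 : Sel (KF P C c0) (fun v => ∑ A ∈ C.powerset,
      (max ((C \ A).fold min 1 (ex C v) - A.fold max 0 (ex C v)) 0) • b (↑A : Set I)) := by
    have hc : ∀ c : I, Sel (KF P C c0) (fun v : C → ℝ => ex C v c) := fun c => by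
      by_cases hc : c ∈ C
      · simp only [ex_mem _ hc]
        exact sel_affine (LinearMap.proj (R := ℝ) (φ := fun _ : C => ℝ) ⟨c, hc⟩).toAffineMap
      · simp only [ex_not _ hc]
        exact sel_const 1
    exact sel_sum _ fun A _ => (((sel_fold_min _ 1 fun c _ => hc c).sub
      (sel_fold_max _ 0 fun c _ => hc c)).max (sel_const 0)).smul_const _
  exact h1.congr fun v hv => T_eq_sum b (fun c => hv.1.1 c) C fun c hc => ex_not _ hc

theorem T_image_KF {c0 : I} : (fun v => T b (ex (nbF F c0) v)) '' KF P (nbF F c0) c0 = P c0 := by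
  apply subset_antisymm
  · rintro _ ⟨v, hv, rfl⟩
    exact mem_fc.1 (F.T_mem_fc hv.1) c0 hv.2
  · intro y hy
    have hyL := F.sub c0 hy
    have h0 := (F.sc_eq_zero hyL).2 hy
    have hu := F.sc_mem_K hyL
    have e := ex_rs (C := nbF F c0) fun c hc => one_of_not_nbF F hu h0 hc
    exact ⟨rs (nbF F c0) (sc P b y), ⟨by rw [e]; exact hu, by rw [e]; exact h0⟩, by
      change T b (ex _ _) = y
      rw [e, F.T_sc hyL]⟩

/-- **the coordinates are piecewise affine on every cell** -/
theorem plOn_sc [FiniteDimensional ℝ E] (c0 : I) :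
    Cx_609.PLOn (P c0) (fun y => rs (nbF F c0) (sc P b y)) := by
  by_cases hne : (P c0).Nonempty
  · have hc0 := self_mem_nbF F hne
    rw [← T_image_KF F (c0 := c0)]
    refine Cx_609.PLOn.inv (finConv_KF hc0) (isCompact_KF hc0) (plOn_T F _ c0) fun v hv => ?_
    change rs _ (sc P b (T b (ex _ v))) = v
    rw [F.sc_T hv.1, rs_ex]
  · rw [not_nonempty_iff_eq_empty.1 hne]
    exact Cx_609.plOn_empty _

theorem plOn_sc_apply [FiniteDimensional ℝ E] (c0 c : I) :
    Cx_609.PLOn (P c0) (fun y => sc P b y c) := by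
  by_cases hc : c ∈ nbF F c0
  · have h := plOn_sc F c0
    have h2 := Cx_609.PLOn.comp (t := univ) (Cx_609.plOn_affine univ
      (LinearMap.proj (R := ℝ) (φ := fun _ : nbF F c0 => ℝ) ⟨c, hc⟩).toAffineMap) h
      (mapsTo_univ _ _)
    exact h2
  · refine (Cx_609.plOn_const (P c0) (1 : ℝ)).congr fun y hy => ?_
    exact one_of_not_nbF F (F.sc_mem_K (F.sub c0 hy)) ((F.sc_eq_zero (F.sub c0 hy)).2 hy) hc

/-- **the relabelling map is piecewise affine on every cell** -/
theorem plOn_rl [FiniteDimensional ℝ E] (h : Rl σ)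
    (hs : ∀ c, Cx_609.PLOn (Icc (0 : ℝ) 1) (σ c)) (c0 : I) :
    Cx_609.PLOn (P c0) (rl P b σ) := by
  set C := nbF F c0 with hC
  have h1 : Cx_609.PLOn (P c0) (fun y => fun c : C => σ c (sc P b y c)) := by
    refine ⟨continuousOn_pi.2 fun c => ((h.cont c).comp ((continuousOn_sc_apply F c).mono
      (F.sub c0)) fun y hy => (F.sc_mem_K (F.sub c0 hy)).1 c), ?_⟩
    refine sel_pi (K := P c0) fun c => ?_
    exact Sel.comp (L := Icc (0 : ℝ) 1) (hs c).2 (plOn_sc_apply F c0 c).2
      fun y hy => (F.sc_mem_K (F.sub c0 hy)).1 c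
  have e : ∀ y ∈ P c0, ex C (fun c : C => σ c (sc P b y c)) = sg σ (sc P b y) := by
    intro y hy
    have hyL := F.sub c0 hy
    refine ex_rs (u := sg σ (sc P b y)) fun c hc => ?_
    rw [sg, one_of_not_nbF F (F.sc_mem_K hyL) ((F.sc_eq_zero hyL).2 hy) hc, h.one]
  have h2 := Cx_609.PLOn.comp (plOn_T F C c0) h1 fun y hy => by
    refine ⟨by rw [e y hy]; exact sg_mem_K h (F.sc_mem_K (F.sub c0 hy)), ?_⟩
    rw [e y hy, sg, (F.sc_eq_zero (F.sub c0 hy)).2 hy, h.zero]
  refine h2.congr fun y hy => ?_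
  change T b (sg σ (sc P b y)) = T b (ex C fun c : C => σ c (sc P b y c))
  rw [e y hy]

/-- piecewise affine on every cell ⟹ locally piecewise affine on `La` -/
theorem locPL_of_cells {E' : Type*} [NormedAddCommGroup E'] [NormedSpace ℝ E']
    [FiniteDimensional ℝ E] [FiniteDimensional ℝ E'] {f : E → E'}
    (hf : ∀ c, Cx_609.PLOn (P c) f) : Ce_537.LocPL f La := by
  intro y hy
  obtain ⟨r, hr, hfin⟩ := F.lf y hy
  obtain ⟨r', hr', hball⟩ := Metric.isOpen_iff.1 F.op y hy
  have h1 : Cx_609.PLOn (⋃ c ∈ {c | (P c ∩ Metric.ball y r).Nonempty}, P c) f :=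
    Cx_609.PLOn.biUnion hfin (fun c _ => (F.cpt c).isClosed) fun c _ => hf c
  refine ⟨min r r', lt_min hr hr', Cx_609.plOn_iff.1 (h1.mono fun z hz => ?_)⟩
  have hzr : z ∈ Metric.ball y r := Metric.ball_subset_ball (min_le_left _ _) hz
  obtain ⟨c, hc⟩ := F.cov z (hball (Metric.ball_subset_ball (min_le_right _ _) hz))
  exact mem_iUnion₂.2 ⟨c, ⟨z, hc, hzr⟩, hc⟩

/-- **`rl` is locally piecewise affine, in both directions** -/
theorem locPL_rl [FiniteDimensional ℝ E] (h : Rl σ)
    (hs : ∀ c, Cx_609.PLOn (Icc (0 : ℝ) 1) (σ c)) : Ce_537.LocPL (rl P b σ) La :=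
  locPL_of_cells F fun c => plOn_rl F h hs c

omit F in
theorem plOn_inv_sigma (h : Rl σ) (hs : ∀ c, Cx_609.PLOn (Icc (0 : ℝ) 1) (σ c))
    (hτ : ∀ c, ∀ x ∈ Icc (0 : ℝ) 1, τ c (σ c x) = x) (c : I) :
    Cx_609.PLOn (Icc (0 : ℝ) 1) (τ c) := by
  have := Cx_609.PLOn.inv (r := τ c) (convex_Icc (0 : ℝ) 1).finConv isCompact_Icc (hs c)
    (fun x hx => hτ c x hx)
  rwa [h.image c] at this

theorem locPL_sc_apply [FiniteDimensional ℝ E] (c : I) :
    Ce_537.LocPL (fun y => sc P b y c) La :=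
  locPL_of_cells F fun c0 => plOn_sc_apply F c0 c

end fin

end Crest.Agent.R096.Rel_628
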