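import Mathlib

/-!
Row 96 (S0127), helper802.  RANGE 2 < p < 3 (and p >= 3), selection of the good blocks, part 1:
finitely many disjoint parallelepipeds `{y | ‖ψ_x (y - x)‖ ≤ r}` (shape `ψ_x` depending on the centre,
`‖ψ_x‖, ‖ψ_x⁻¹‖ ≤ M`) centred at points of a set `S`, with an arbitrary eventual property, covering
`S` up to small `F`-mass.
-/

set_option autoImplicit false
set_option linter.unusedSectionVars false
set_option linter.style.longLine false

open MeasureTheory Set Metric Filter Topology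
open scoped ENNReal NNReal

namespace Crest.Agent.R096.Rg_802

noncomputable section

variable {E F : Type*} [NormedAddCommGroup E] [NormedSpace ℝ E]
  [NormedAddCommGroup F] [NormedSpace ℝ F]

/-- the parallelepiped (ball of the norm `‖ψ ·‖`) -/
def Bx (ψ : E ≃L[ℝ] F) (x : E) (r : ℝ) : Set E := {y | ‖ψ (y - x)‖ ≤ r}

theorem mem_Bx {ψ : E ≃L[ℝ] F} {x y : E} {r : ℝ} : y ∈ Bx ψ x r ↔ ‖ψ (y - x)‖ ≤ r := Iff.rfl

theorem Bx_mono (ψ : E ≃L[ℝ] F) (x : E) {r r' : ℝ} (h : r ≤ r') : Bx ψ x r ⊆ Bx ψ x r' :=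
  fun _ hy => le_trans hy h

theorem isClosed_Bx (ψ : E ≃L[ℝ] F) (x : E) (r : ℝ) : IsClosed (Bx ψ x r) :=
  isClosed_le (ψ.continuous.comp (continuous_id.sub continuous_const)).norm continuous_const

theorem Bx_sub (ψ : E ≃L[ℝ] F) (x : E) {r M : ℝ} (hM : ‖(ψ.symm : F →L[ℝ] E)‖ ≤ M) (_hr : 0 ≤ r) :
    Bx ψ x r ⊆ closedBall x (M * r) := by
  intro y hy
  rw [mem_closedBall, dist_eq_norm]
  have hM0 : 0 ≤ M := (norm_nonneg _).trans hM
  calc ‖y - x‖ = ‖(ψ.symm : F →L[ℝ] E) (ψ (y - x))‖ := by simp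
    _ ≤ ‖(ψ.symm : F →L[ℝ] E)‖ * ‖ψ (y - x)‖ := ContinuousLinearMap.le_opNorm _ _
    _ ≤ M * r := mul_le_mul hM hy (norm_nonneg _) hM0

theorem sub_Bx (ψ : E ≃L[ℝ] F) (x : E) {r M : ℝ} (hM0 : 0 < M) (hM : ‖(ψ : E →L[ℝ] F)‖ ≤ M) :
    closedBall x (r / M) ⊆ Bx ψ x r := by
  intro y hy
  rw [mem_closedBall, dist_eq_norm] at hy
  calc ‖ψ (y - x)‖ ≤ ‖(ψ : E →L[ℝ] F)‖ * ‖y - x‖ := (ψ : E →L[ℝ] F).le_opNorm _
    _ ≤ M * (r / M) := mul_le_mul hM hy (norm_nonneg _) hM0.le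
    _ = r := by field_simp

variable [FiniteDimensional ℝ E] [MeasurableSpace E] [BorelSpace E]

theorem isCompact_Bx (ψ : E ≃L[ℝ] F) (x : E) {r : ℝ} (hr : 0 ≤ r) : IsCompact (Bx ψ x r) :=
  (isCompact_closedBall _ _).of_isClosed_subset (isClosed_Bx ψ x r) (Bx_sub ψ x le_rfl hr)

/-- **selection**: disjoint parallelepipeds covering `S` up to small mass. -/
theorem boxesP (μ : Measure E) [μ.IsAddHaarMeasure] {Om : Set E} (hO : IsOpen Om) {S : Set E}
    (hS : S ⊆ Om) (ψ : E → (E ≃L[ℝ] F)) {M : ℝ} (hM0 : 0 < M)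
    (hM : ∀ x ∈ S, ‖(ψ x : E →L[ℝ] F)‖ ≤ M ∧ ‖((ψ x).symm : F →L[ℝ] E)‖ ≤ M)
    {P : E → ℝ → Prop} (hP : ∀ᵐ x ∂μ, x ∈ S → ∀ᶠ r in 𝓝[>] (0 : ℝ), P x r)
    {w : E → ℝ≥0∞} (hw : ∫⁻ x in Om, w x ∂μ ≠ ∞) {ε : ℝ≥0∞} (hε : 0 < ε) :
    ∃ T : Finset (E × ℝ),
      (∀ a ∈ T, a.1 ∈ S ∧ 0 < a.2 ∧ Bx (ψ a.1) a.1 a.2 ⊆ Om ∧ P a.1 a.2) ∧
      (T : Set (E × ℝ)).PairwiseDisjoint (fun a => Bx (ψ a.1) a.1 a.2) ∧
      ∫⁻ y in S \ ⋃ a ∈ T, Bx (ψ a.1) a.1 a.2, w y ∂μ < ε := by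
  set B : E × ℝ → Set E := fun a => Bx (ψ a.1) a.1 a.2 with hB
  have hBc : ∀ a, IsClosed (B a) := fun a => isClosed_Bx _ _ _
  set good : Set E := {x | x ∈ S ∧ ∀ᶠ r in 𝓝[>] (0 : ℝ), P x r} with hgd
  have hnull : μ (S \ good) = 0 := by
    refine measure_mono_null ?_ (mem_ae_iff.1 hP)
    rintro x ⟨hx1, hx2⟩ hx3
    exact hx2 ⟨hx1, hx3 hx1⟩
  set t : Set (E × ℝ) := {a | a.1 ∈ S ∧ 0 < a.2 ∧ B a ⊆ Om ∧ P a.1 a.2} with ht
  set d := Module.finrank ℝ E
  set C : ℝ≥0 := ⟨(3 * M * M) ^ d, by positivity⟩ with hC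
  obtain ⟨u, hut, huc, hud, hu0⟩ := Vitali.exists_disjoint_covering_ae μ good t
    C (fun a => M * a.2) (fun a => a.1) B
    (fun a ha => Bx_sub _ _ (hM _ ha.1).2 ha.2.1.le)
    (by
      intro a ha
      have h0 := ha.2.1
      have h1 : closedBall a.1 (a.2 / M) ⊆ B a := sub_Bx _ _ hM0 (hM _ ha.1).1
      have h2 : μ (closedBall a.1 (3 * (M * a.2))) =
          C * μ (closedBall a.1 (a.2 / M)) := by
        have h3 : (C : ℝ≥0∞) = ENNReal.ofReal ((3 * M * M) ^ d) := by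
          rw [hC]
          rw [ENNReal.ofReal, ENNReal.coe_inj]
          apply NNReal.coe_injective
          rw [Real.coe_toNNReal _ (by positivity)]
          rfl
        have h4 : 3 * (M * a.2) = (3 * M * M) * (a.2 / M) := by field_simp
        rw [h4, Measure.addHaar_closedBall μ a.1 (by positivity),
          Measure.addHaar_closedBall μ a.1 (by positivity), mul_pow,
          ENNReal.ofReal_mul (by positivity), h3, mul_assoc]
      rw [h2]
      gcongr)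
    (by
      intro a ha
      refine ⟨a.1, ?_⟩
      rw [mem_interior_iff_mem_nhds]
      exact mem_of_superset (closedBall_mem_nhds _ (div_pos ha.2.1 hM0)) (sub_Bx _ _ hM0 (hM _ ha.1).1))
    (fun a _ => hBc a)
    (by
      intro x hx η hη
      obtain ⟨ρ, hρ, hρO⟩ := Metric.isOpen_iff.1 hO x (hS hx.1)
      have h2 : ∀ᶠ s in 𝓝[>] (0 : ℝ), s ∈ Ioo 0 (min ρ η / M) :=
        Ioo_mem_nhdsGT (div_pos (lt_min hρ hη) hM0)
      obtain ⟨s, hs1, hs2⟩ := (hx.2.and h2).exists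
      have h4 : M * s < min ρ η := by
        have := hs2.2
        rw [lt_div_iff₀ hM0] at this
        linarith
      refine ⟨(x, s), ⟨hx.1, hs2.1, ?_, hs1⟩, ?_, rfl⟩
      · have h3 := Bx_sub (ψ x) x (r := s) (hM x hx.1).2 hs2.1.le
        refine h3.trans ((closedBall_subset_ball ?_).trans hρO)
        exact h4.trans_le (min_le_left _ _)
      · change M * s ≤ η
        exact h4.le.trans (min_le_right _ _))
  -- the finite measure
  set ν : Measure E := (μ.restrict Om).withDensity w with hν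
  have hνfin : ν univ ≠ ∞ := by
    rw [hν, withDensity_apply _ MeasurableSet.univ, Measure.restrict_univ]
    exact hw
  have : Countable u := huc.to_subtype
  have hdis : Pairwise (Function.onFun Disjoint (fun a : u => B a.1)) := by
    intro a b hab
    exact hud a.2 b.2 (fun h => hab (Subtype.ext h))
  have hsum : ∑' a : u, ν (B a.1) ≠ ∞ := by
    rw [← measure_iUnion hdis (fun a => (hBc a.1).measurableSet)]
    exact ne_top_of_le_ne_top hνfin (measure_mono (subset_univ _))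
  have htend := ENNReal.tendsto_tsum_compl_atTop_zero hsum
  obtain ⟨S', hS'⟩ := (htend.eventually (gt_mem_nhds hε)).exists
  set T : Finset (E × ℝ) := S'.map (Function.Embedding.subtype _) with hT
  have hTu : ∀ a ∈ T, a ∈ u := by
    intro a ha
    rw [hT, Finset.mem_map] at ha
    obtain ⟨b, _, rfl⟩ := ha
    exact b.2
  have hνOm : ν (S \ ⋃ a ∈ u, B a) = 0 := by
    have h1 : μ (S \ ⋃ a ∈ u, B a) = 0 := by
      refine measure_mono_null ?_ (measure_union_null hnull hu0)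
      rintro x ⟨hx1, hx2⟩
      by_cases hg : x ∈ good
      · exact Or.inr ⟨hg, hx2⟩
      · exact Or.inl ⟨hx1, hg⟩
    have h2 : (μ.restrict Om) (S \ ⋃ a ∈ u, B a) = 0 :=
      le_antisymm ((Measure.restrict_apply_le _ _).trans h1.le) bot_le
    exact withDensity_absolutelyContinuous _ _ h2
  have hmain : ν (S \ ⋃ a ∈ T, B a) < ε := by
    refine lt_of_le_of_lt ?_ hS'
    calc ν (S \ ⋃ a ∈ T, B a)
        ≤ ν ((S \ ⋃ a ∈ u, B a) ∪ ⋃ b : {x // x ∉ S'}, B (b.1.1)) := by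
          apply measure_mono
          rintro x ⟨hx1, hx2⟩
          by_cases hx3 : x ∈ ⋃ a ∈ u, B a
          · right
            rw [mem_iUnion₂] at hx3
            obtain ⟨a, ha, hxa⟩ := hx3
            rw [mem_iUnion]
            refine ⟨⟨⟨a, ha⟩, ?_⟩, hxa⟩
            intro hS''
            apply hx2
            rw [mem_iUnion₂]
            refine ⟨a, ?_, hxa⟩
            rw [hT, Finset.mem_map]
            exact ⟨⟨a, ha⟩, hS'', rfl⟩
          · exact Or.inl ⟨hx1, hx3⟩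
      _ ≤ ν (S \ ⋃ a ∈ u, B a) + ν (⋃ b : {x // x ∉ S'}, B (b.1.1)) := measure_union_le _ _
      _ ≤ 0 + ∑' b : {x // x ∉ S'}, ν (B (b.1.1)) := by
          gcongr
          · exact hνOm.le
          · exact measure_iUnion_le _
      _ = _ := by rw [zero_add]
  refine ⟨T, fun a ha => hut (hTu a ha), ?_, ?_⟩
  · intro a ha b hb hab
    exact hud (hTu a (by simpa using ha)) (hTu b (by simpa using hb)) hab
  · refine lt_of_le_of_lt ?_ hmain
    have h1 := withDensity_apply_le (μ := μ.restrict Om) w (S \ ⋃ a ∈ T, B a)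
    rw [Measure.restrict_restrict' hO.measurableSet,
      inter_eq_left.2 (sdiff_subset.trans hS)] at h1
    exact h1

end

end Crest.Agent.R096.Rg_802
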