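import Mathlib

/-!
Row 96 (S0127), helper802.  RANGE 2 < p < 3, part 2: linear algebra of the blocks.
Rational approximation of an invertible matrix; the sets `{‖L‖ ≤ M, |det L| ≥ 1/M}`.
-/

set_option autoImplicit false
set_option linter.unusedSectionVars false
set_option linter.style.longLine false

open MeasureTheory Set Metric Filter Topology
open scoped ENNReal NNReal

namespace Crest.Agent.R096.Rg_802

noncomputable section

variable {n : ℕ}

/-- the linear map `ψ` has rational entries -/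
def Rat (L : (Fin n → ℝ) →L[ℝ] (Fin n → ℝ)) : Prop :=
  ∀ k l, ∃ q : ℚ, L (Pi.single l 1) k = q

/-- rational linear maps are dense -/
theorem exists_rat (L : (Fin n → ℝ) →L[ℝ] (Fin n → ℝ)) {δ : ℝ} (hδ : 0 < δ) :
    ∃ L' : (Fin n → ℝ) →L[ℝ] (Fin n → ℝ), Rat L' ∧ ‖L' - L‖ ≤ δ := by
  have h : ∀ k l, ∃ q : ℚ, |(q : ℝ) - L (Pi.single l 1) k| ≤ δ / (n + 1) := by
    intro k l
    obtain ⟨q, hq1, hq2⟩ := exists_rat_btwn
      (show L (Pi.single l 1) k < L (Pi.single l 1) k + δ / (n + 1) from by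
        have : 0 < δ / (n + 1) := by positivity
        linarith)
    refine ⟨q, ?_⟩
    rw [abs_le]
    constructor <;> linarith
  choose q hq using h
  set M : Matrix (Fin n) (Fin n) ℝ := fun k l => (q k l : ℝ) with hM
  set L' : (Fin n → ℝ) →L[ℝ] (Fin n → ℝ) := LinearMap.toContinuousLinearMap (Matrix.toLin' M) with hL'
  have hL'1 : ∀ l k, L' (Pi.single l 1) k = q k l := by
    intro l k
    simp [hL', hM]
  refine ⟨L', fun k l => ⟨q k l, hL'1 l k⟩, ?_⟩
  refine ContinuousLinearMap.opNorm_le_bound _ hδ.le fun x => ?_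
  rw [pi_norm_le_iff_of_nonneg (by positivity)]
  intro k
  have hx : x = ∑ l, x l • (Pi.single l 1 : Fin n → ℝ) := by
    ext m
    simp [Finset.sum_apply, Pi.single_apply]
  have h1 : (L' - L) x k = ∑ l, x l * (L' (Pi.single l 1) k - L (Pi.single l 1) k) := by
    conv_lhs => rw [hx]
    rw [map_sum, Finset.sum_apply]
    refine Finset.sum_congr rfl fun l _ => ?_
    simp
  rw [h1]
  have h2 : ∀ l, |x l * (L' (Pi.single l 1) k - L (Pi.single l 1) k)| ≤ ‖x‖ * (δ / (n + 1)) := by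
    intro l
    rw [abs_mul, hL'1]
    exact mul_le_mul (norm_le_pi_norm x l) (hq k l) (abs_nonneg _) (norm_nonneg _)
  calc ‖∑ l, x l * (L' (Pi.single l 1) k - L (Pi.single l 1) k)‖
      ≤ ∑ l, ‖x l * (L' (Pi.single l 1) k - L (Pi.single l 1) k)‖ := norm_sum_le _ _
    _ ≤ ∑ _l : Fin n, ‖x‖ * (δ / (n + 1)) := Finset.sum_le_sum fun l _ => h2 l
    _ = n * (‖x‖ * (δ / (n + 1))) := by simp
    _ = (n / (n + 1)) * (δ * ‖x‖) := by ring
    _ ≤ 1 * (δ * ‖x‖) := by
        apply mul_le_mul_of_nonneg_right _ (by positivity)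
        rw [div_le_one (by positivity)]
        linarith
    _ = δ * ‖x‖ := one_mul _

/-- perturbation of an invertible map in finite dimension -/
theorem exists_equiv_near {E : Type*} [NormedAddCommGroup E] [NormedSpace ℝ E] [FiniteDimensional ℝ E]
    (L : E ≃L[ℝ] E) {M : ℝ} (hM : 0 < M) (hL : ‖(L.symm : E →L[ℝ] E)‖ ≤ M)
    (L' : E →L[ℝ] E) (h : ‖L' - (L : E →L[ℝ] E)‖ ≤ 1 / (2 * M)) :
    ∃ ψ : E ≃L[ℝ] E, (ψ : E →L[ℝ] E) = L' ∧ ‖(ψ.symm : E →L[ℝ] E)‖ ≤ 2 * M := by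
  have hlow : ∀ x, ‖x‖ ≤ 2 * M * ‖L' x‖ := by
    intro x
    have h1 : ‖x‖ ≤ M * ‖L x‖ := by
      calc ‖x‖ = ‖(L.symm : E →L[ℝ] E) (L x)‖ := by simp
        _ ≤ ‖(L.symm : E →L[ℝ] E)‖ * ‖L x‖ := ContinuousLinearMap.le_opNorm _ _
        _ ≤ M * ‖L x‖ := by gcongr
    have h2 : ‖L x‖ ≤ ‖L' x‖ + 1 / (2 * M) * ‖x‖ := by
      have h3 : L x = L' x - (L' - (L : E →L[ℝ] E)) x := by simp
      calc ‖L x‖ = ‖L' x - (L' - (L : E →L[ℝ] E)) x‖ := by rw [← h3]
        _ ≤ ‖L' x‖ + ‖(L' - (L : E →L[ℝ] E)) x‖ := norm_sub_le _ _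
        _ ≤ ‖L' x‖ + ‖L' - (L : E →L[ℝ] E)‖ * ‖x‖ := by
            gcongr; exact ContinuousLinearMap.le_opNorm _ _
        _ ≤ _ := by gcongr
    have h4 : ‖x‖ ≤ M * (‖L' x‖ + 1 / (2 * M) * ‖x‖) := h1.trans (by gcongr)
    have h5 : M * (‖L' x‖ + 1 / (2 * M) * ‖x‖) = M * ‖L' x‖ + ‖x‖ / 2 := by field_simp
    rw [h5] at h4
    linarith
  have hinj : Function.Injective (L' : E →ₗ[ℝ] E) := by
    rw [← LinearMap.ker_eq_bot, LinearMap.ker_eq_bot']
    intro x hx
    have := hlow x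
    rw [show L' x = 0 from hx] at this
    simpa using this
  set e := LinearEquiv.ofInjectiveEndo (L' : E →ₗ[ℝ] E) hinj
  refine ⟨e.toContinuousLinearEquiv, ?_, ?_⟩
  · ext x; rfl
  · refine ContinuousLinearMap.opNorm_le_bound _ (by positivity) fun y => ?_
    have h1 := hlow (e.toContinuousLinearEquiv.symm y)
    have h2 : L' (e.toContinuousLinearEquiv.symm y) = y :=
      e.toContinuousLinearEquiv.apply_symm_apply y
    rw [h2] at h1
    exact h1

section Det

variable {E : Type*} [NormedAddCommGroup E] [NormedSpace ℝ E] [FiniteDimensional ℝ E]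

/-- bounded maps with determinant bounded below -/
def KM (E : Type*) [NormedAddCommGroup E] [NormedSpace ℝ E] (M : ℕ) : Set (E →L[ℝ] E) :=
  {L | ‖L‖ ≤ M ∧ 1 / ((M : ℝ) + 1) ≤ |L.det|}

theorem isClosed_KM (M : ℕ) : IsClosed (KM E M) := by
  apply IsClosed.inter
  · exact isClosed_le continuous_norm continuous_const
  · exact isClosed_le continuous_const (ContinuousLinearMap.continuous_det).abs

theorem isCompact_KM (M : ℕ) : IsCompact (KM E M) := by
  have : ProperSpace (E →L[ℝ] E) := FiniteDimensional.proper_real _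
  refine (isCompact_closedBall (0 : E →L[ℝ] E) M).of_isClosed_subset (isClosed_KM M) ?_
  intro L hL
  rw [mem_closedBall_zero_iff]
  exact hL.1

theorem KM_mono {M M' : ℕ} (h : M ≤ M') : KM E M ⊆ KM E M' := by
  rintro L ⟨h1, h2⟩
  refine ⟨h1.trans (by exact_mod_cast h), le_trans ?_ h2⟩
  apply one_div_le_one_div_of_le (by positivity)
  have : (M : ℝ) ≤ M' := by exact_mod_cast h
  linarith

theorem exists_KM (L : E →L[ℝ] E) (hL : L.det ≠ 0) : ∃ M : ℕ, L ∈ KM E M := by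
  obtain ⟨m, hm⟩ := exists_nat_ge (max ‖L‖ (1 / |L.det|))
  have hd : 0 < |L.det| := abs_pos.2 hL
  refine ⟨m, (le_max_left _ _).trans hm, ?_⟩
  rw [one_div_le (by positivity) hd]
  linarith [(le_max_right _ _).trans hm]

theorem equiv_of_det {L : E →L[ℝ] E} (hL : L.det ≠ 0) : ∃ ψ : E ≃L[ℝ] E, (ψ : E →L[ℝ] E) = L := by
  have h1 : LinearMap.det (L : E →ₗ[ℝ] E) ≠ 0 := hL
  refine ⟨(LinearMap.equivOfDetNeZero (L : E →ₗ[ℝ] E) h1).toContinuousLinearEquiv, ?_⟩
  ext x; rfl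

/-- uniform bound of the inverses on `KM` -/
theorem exists_inv_bound (M : ℕ) : ∃ C : ℝ, 0 < C ∧ ∀ L ∈ KM E M, ∃ ψ : E ≃L[ℝ] E,
    (ψ : E →L[ℝ] E) = L ∧ ‖(ψ.symm : E →L[ℝ] E)‖ ≤ C := by
  have hc : ContinuousOn (fun L : E →L[ℝ] E => ContinuousLinearMap.inverse L) (KM E M) := by
    intro L hL
    apply ContinuousAt.continuousWithinAt
    have hd : L.det ≠ 0 := by
      intro h0
      have := hL.2
      rw [h0, abs_zero] at this
      have h1 : 0 < 1 / ((M : ℝ) + 1) := by positivity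
      linarith
    obtain ⟨ψ, rfl⟩ := equiv_of_det hd
    exact (contDiffAt_map_inverse (𝕜 := ℝ) (n := 0) ψ).continuousAt
  obtain ⟨C, hC⟩ := (isCompact_KM (E := E) M).exists_bound_of_continuousOn hc
  refine ⟨max C 1, by positivity, fun L hL => ?_⟩
  have hd : L.det ≠ 0 := by
    intro h0
    have := hL.2
    rw [h0, abs_zero] at this
    have h1 : 0 < 1 / ((M : ℝ) + 1) := by positivity
    linarith
  obtain ⟨ψ, hψ⟩ := equiv_of_det hd
  refine ⟨ψ, hψ, ?_⟩
  have h1 := hC L hL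
  rw [← hψ, ContinuousLinearMap.inverse_equiv] at h1
  exact h1.trans (le_max_left _ _)

end Det

end

end Crest.Agent.R096.Rg_802
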