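import Crest.Agent.R096.Core3_124

/-!
Row 96 (S0127), helper802.  `in_of_good` (961 #10272 (3), 18 #10071 (C)(2)): good translates of a
finite family of segments from an `L^p` bound of `D - L` on a neighbourhood, by Chebyshev.
-/

set_option autoImplicit false
set_option linter.unusedSectionVars false
set_option linter.style.longLine false

open MeasureTheory Set Metric Filter Topology
open scoped ENNReal NNReal

namespace Crest.Agent.R096.Rg_802

noncomputable section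

variable {E F : Type*} [NormedAddCommGroup E] [NormedSpace ℝ E] [MeasurableSpace E] [BorelSpace E]
  [SecondCountableTopology E] [NormedAddCommGroup F] [NormedSpace ℝ F]

/-- Jensen / Hölder on the unit interval -/
theorem jensen01 {g : ℝ → ℝ≥0∞} (hg : AEMeasurable g (volume.restrict (Icc (0:ℝ) 1))) {p : ℝ}
    (hp : 1 ≤ p) :
    (∫⁻ t in Icc (0:ℝ) 1, g t) ^ p ≤ ∫⁻ t in Icc (0:ℝ) 1, g t ^ p := by
  have h1 : IsProbabilityMeasure (volume.restrict (Icc (0:ℝ) 1)) := ⟨by simp⟩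
  have hp0 : 0 < p := by linarith
  have h2 := ENNReal.lintegral_mul_le_Lp_mul_Lq (volume.restrict (Icc (0:ℝ) 1))
    (p := p) (q := p / (p - 1)) (f := g) (g := fun _ => 1)
  rcases eq_or_lt_of_le hp with rfl | hp1
  · simp
  have h3 := h2 (Real.HolderConjugate.conjExponent hp1) hg aemeasurable_const
  simp only [Pi.mul_apply, mul_one, ENNReal.one_rpow, lintegral_const, measure_univ] at h3
  calc (∫⁻ t in Icc (0:ℝ) 1, g t) ^ p
      ≤ ((∫⁻ t in Icc (0:ℝ) 1, g t ^ p) ^ (1 / p)) ^ p := ENNReal.rpow_le_rpow h3 hp0.le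
    _ = _ := by
        rw [← ENNReal.rpow_mul, one_div_mul_cancel hp0.ne', ENNReal.rpow_one]

variable {μ : Measure E} [SFinite μ] [μ.IsAddRightInvariant]

/-- bad translates of one segment -/
theorem bad_seg {W N : Set E} (hW : MeasurableSet W) (hN : MeasurableSet N) {a v : E}
    (hsub : ∀ w ∈ W, ∀ t ∈ Icc (0:ℝ) 1, w + (a + t • v) ∈ N) {h : E → ℝ≥0∞}
    (hh : AEMeasurable h (μ.restrict N)) {c : ℝ≥0∞} (hc0 : c ≠ 0) (hc1 : c ≠ ⊤) :
    μ {w ∈ W | c ≤ ∫⁻ t in Icc (0:ℝ) 1, h (w + (a + t • v))} ≤ (∫⁻ x in N, h x ∂μ) / c := by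
  -- replace `h` by a measurable function on `E`, equal on the relevant set
  set h' : E → ℝ≥0∞ := N.indicator h with hh'
  have hm : AEMeasurable h' μ := (aemeasurable_indicator_iff hN).2 hh
  have h1 := Core_124.seg_cheb μ hsub hm hW hN c
  have h2 : ∫⁻ x in N, h' x ∂μ = ∫⁻ x in N, h x ∂μ := by
    apply setLIntegral_congr_fun hN
    intro x hx
    simp only [hh', indicator_of_mem hx]
  have h3 : {w ∈ W | c ≤ ∫⁻ t in Icc (0:ℝ) 1, h (w + (a + t • v))} =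
      {w ∈ W | c ≤ ∫⁻ t in Icc (0:ℝ) 1, h' (w + (a + t • v))} := by
    ext w
    simp only [mem_ofPred_eq]
    apply and_congr_right
    intro hw
    have h4 : ∫⁻ t in Icc (0:ℝ) 1, h' (w + (a + t • v)) =
        ∫⁻ t in Icc (0:ℝ) 1, h (w + (a + t • v)) := by
      apply setLIntegral_congr_fun measurableSet_Icc
      intro t ht
      simp only [hh', indicator_of_mem (hsub w hw t ht)]
    rw [h4]
  rw [h3, ENNReal.le_div_iff_mul_le (Or.inl hc0) (Or.inl hc1), mul_comm, ← h2]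
  exact h1

/-- the weighted sum over the segments: bad translates -/
theorem bad_sum {W N : Set E} (hW : MeasurableSet W) (hN : MeasurableSet N) {J : Type*} [Fintype J]
    {a v : J → E} (hsub : ∀ j, ∀ w ∈ W, ∀ t ∈ Icc (0:ℝ) 1, w + (a j + t • v j) ∈ N)
    {h : E → ℝ≥0∞} (hh : AEMeasurable h (μ.restrict N)) (ρ : J → ℝ≥0∞)
    {c : ℝ≥0∞} (hc0 : c ≠ 0) (hc1 : c ≠ ⊤) :
    μ {w ∈ W | c ≤ ∑ j, ρ j * ∫⁻ t in Icc (0:ℝ) 1, h (w + (a j + t • v j))} ≤
      (∑ j, ρ j) * (∫⁻ x in N, h x ∂μ) / c := by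
  set h' : E → ℝ≥0∞ := N.indicator h with hh'
  have hm : AEMeasurable h' μ := (aemeasurable_indicator_iff hN).2 hh
  have h2 : ∫⁻ x in N, h' x ∂μ = ∫⁻ x in N, h x ∂μ := by
    apply setLIntegral_congr_fun hN
    intro x hx
    simp only [hh', indicator_of_mem hx]
  have hj : ∀ j, AEMeasurable (fun x => ∫⁻ t in Icc (0:ℝ) 1, h' (x + (a j + t • v j)))
      (μ.restrict W) := by
    intro j
    have hae : AEMeasurable (fun q : E × ℝ => h' (q.1 + (a j + q.2 • v j)))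
        ((μ.restrict W).prod (volume.restrict (Icc (0:ℝ) 1))) :=
      hm.comp_quasiMeasurePreserving (Core_124.qmp_seg μ (a j) (v j) W (Icc 0 1))
    exact hae.lintegral_prod_right'
  have h3 : {w ∈ W | c ≤ ∑ j, ρ j * ∫⁻ t in Icc (0:ℝ) 1, h (w + (a j + t • v j))} =
      {w ∈ W | c ≤ ∑ j, ρ j * ∫⁻ t in Icc (0:ℝ) 1, h' (w + (a j + t • v j))} := by
    ext w
    simp only [mem_ofPred_eq]
    apply and_congr_right
    intro hw
    have h4 : ∀ j, ∫⁻ t in Icc (0:ℝ) 1, h' (w + (a j + t • v j)) =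
        ∫⁻ t in Icc (0:ℝ) 1, h (w + (a j + t • v j)) := by
      intro j
      apply setLIntegral_congr_fun measurableSet_Icc
      intro t ht
      simp only [hh', indicator_of_mem (hsub j w hw t ht)]
    simp only [h4]
  rw [h3, ENNReal.le_div_iff_mul_le (Or.inl hc0) (Or.inl hc1), mul_comm]
  have h5 : AEMeasurable (fun w => ∑ j, ρ j * ∫⁻ t in Icc (0:ℝ) 1, h' (w + (a j + t • v j)))
      (μ.restrict W) := Finset.aemeasurable_fun_sum _ fun j _ => (hj j).const_mul _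
  have h6 := mul_meas_ge_le_lintegral₀ h5 c
  calc c * μ {w ∈ W | c ≤ ∑ j, ρ j * ∫⁻ t in Icc (0:ℝ) 1, h' (w + (a j + t • v j))}
      ≤ c * (μ.restrict W) {w | c ≤ ∑ j, ρ j * ∫⁻ t in Icc (0:ℝ) 1, h' (w + (a j + t • v j))} := by
        refine mul_le_mul_right ?_ c
        rw [Measure.restrict_apply₀' hW.nullMeasurableSet]
        exact measure_mono (fun x hx => ⟨hx.2, hx.1⟩)
    _ ≤ ∫⁻ w in W, (∑ j, ρ j * ∫⁻ t in Icc (0:ℝ) 1, h' (w + (a j + t • v j))) ∂μ := h6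
    _ = ∑ j, ρ j * ∫⁻ w in W, (∫⁻ t in Icc (0:ℝ) 1, h' (w + (a j + t • v j))) ∂μ := by
        rw [lintegral_finsetSum' _ (fun j _ => (hj j).const_mul _)]
        refine Finset.sum_congr rfl fun j _ => ?_
        rw [lintegral_const_mul'' _ (hj j)]
    _ ≤ ∑ j, ρ j * ∫⁻ x in N, h x ∂μ := by
        refine Finset.sum_le_sum fun j _ => mul_le_mul_right ?_ (ρ j)
        rw [← h2]
        exact Core_124.seg_avg μ (hsub j) hm hW hN
    _ = (∑ j, ρ j) * ∫⁻ x in N, h x ∂μ := by rw [Finset.sum_mul]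

/-- **`in_of_good`**: if `∫_N ‖D - L‖^p` is small, then for at least `3/4` of the translates `w ∈ W`
the line integrals along all segments `w + a j + [0,1] v j` are small, and so is any weighted sum. -/
theorem in_of_good {p : ℝ} (hp : 1 ≤ p) {W N : Set E} (hW : MeasurableSet W)
    (hWT : μ W ≠ ∞) (hN : MeasurableSet N) {J : Type*} [Fintype J] {a v : J → E}
    (hsub : ∀ j, ∀ w ∈ W, ∀ t ∈ Icc (0:ℝ) 1, w + (a j + t • v j) ∈ N)
    {D : E → E →L[ℝ] F} (hD : AEStronglyMeasurable D (μ.restrict N)) (L : E →L[ℝ] F)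
    {κ : ℝ≥0∞} (hκ0 : κ ≠ 0) (hκ1 : κ ≠ ∞) (ρ : J → ℝ≥0∞) {c : ℝ≥0∞} (hc0 : c ≠ 0) (hc1 : c ≠ ∞)
    (h1 : 8 * Fintype.card J * ∫⁻ x in N, ‖D x - L‖ₑ ^ p ∂μ ≤ κ ^ p * μ W)
    (h2 : 8 * (∑ j, ρ j) * ∫⁻ x in N, ‖D x - L‖ₑ ^ p ∂μ ≤ c * μ W)
    {Q : E → Prop} (hQ : ∀ᵐ w ∂μ, Q w) :
    3 / 4 * μ W ≤ μ {w ∈ W | Q w ∧
      (∀ j, ∫⁻ t in Icc (0:ℝ) 1, ‖(D (w + (a j + t • v j)) - L) (v j)‖ₑ ≤ κ * ‖v j‖ₑ) ∧
      ∑ j, ρ j * ∫⁻ t in Icc (0:ℝ) 1, ‖D (w + (a j + t • v j)) - L‖ₑ ^ p ≤ c} := by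
  have hp0 : 0 < p := by linarith
  set I := ∫⁻ x in N, ‖D x - L‖ₑ ^ p ∂μ with hI
  set h : E → ℝ≥0∞ := fun x => ‖D x - L‖ₑ with hh
  have hm : AEMeasurable h (μ.restrict N) := (hD.sub aestronglyMeasurable_const).enorm
  have hmp : AEMeasurable (fun x => h x ^ p) (μ.restrict N) := hm.pow_const p
  -- measurability along almost every translate
  have hae : ∀ᵐ w ∂μ, ∀ j, w ∈ W →
      AEMeasurable (fun t => h (w + (a j + t • v j))) (volume.restrict (Icc (0:ℝ) 1)) := by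
    rw [ae_all_iff]
    intro j
    have hm' : AEMeasurable (N.indicator h) μ := (aemeasurable_indicator_iff hN).2 hm
    have h3 : AEMeasurable (fun q : E × ℝ => N.indicator h (q.1 + (a j + q.2 • v j)))
        ((μ.restrict W).prod (volume.restrict (Icc (0:ℝ) 1))) :=
      hm'.comp_quasiMeasurePreserving (Core_124.qmp_seg μ (a j) (v j) W (Icc 0 1))
    have h4 := h3.aestronglyMeasurable.prodMk_left
    rw [ae_restrict_iff' hW] at h4
    filter_upwards [h4] with w hw hwW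
    refine (hw hwW).aemeasurable.congr ?_
    filter_upwards [ae_restrict_mem measurableSet_Icc] with t ht
    exact indicator_of_mem (hsub j w hwW t ht) h
  set B1 : J → Set E := fun j => {w ∈ W | κ ^ p ≤ ∫⁻ t in Icc (0:ℝ) 1, (fun x => h x ^ p) (w + (a j + t • v j))}
  set B2 : Set E := {w ∈ W | c ≤ ∑ j, ρ j * ∫⁻ t in Icc (0:ℝ) 1, (fun x => h x ^ p) (w + (a j + t • v j))}
  set Gd : Set E := {w ∈ W | Q w ∧
      (∀ j, ∫⁻ t in Icc (0:ℝ) 1, ‖(D (w + (a j + t • v j)) - L) (v j)‖ₑ ≤ κ * ‖v j‖ₑ) ∧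
      ∑ j, ρ j * ∫⁻ t in Icc (0:ℝ) 1, ‖D (w + (a j + t • v j)) - L‖ₑ ^ p ≤ c}
  set Nl : Set E := {w | ¬ (Q w ∧ ∀ j, w ∈ W →
      AEMeasurable (fun t => h (w + (a j + t • v j))) (volume.restrict (Icc (0:ℝ) 1)))}
  have hNl : μ Nl = 0 := hQ.and hae
  have hκp0 : κ ^ p ≠ 0 := by
    intro h0
    rcases ENNReal.rpow_eq_zero_iff.1 h0 with h0 | h0
    · exact hκ0 h0.1
    · linarith [h0.2]
  have hκp1 : κ ^ p ≠ ∞ := ENNReal.rpow_ne_top_of_nonneg hp0.le hκ1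
  have hcov : W ⊆ Gd ∪ ((⋃ j, B1 j) ∪ B2) ∪ Nl := by
    intro w hw
    by_cases hwN : w ∈ Nl
    · exact Or.inr hwN
    left
    have hwN' : Q w ∧ ∀ j, w ∈ W →
      AEMeasurable (fun t => h (w + (a j + t • v j))) (volume.restrict (Icc (0:ℝ) 1)) :=
      not_not.1 hwN
    by_cases hB1 : w ∈ ⋃ j, B1 j
    · exact Or.inr (Or.inl hB1)
    by_cases hB2 : w ∈ B2
    · exact Or.inr (Or.inr hB2)
    left
    refine ⟨hw, hwN'.1, fun j => ?_, ?_⟩
    · have h5 : ∫⁻ t in Icc (0:ℝ) 1, (fun x => h x ^ p) (w + (a j + t • v j)) < κ ^ p := by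
        by_contra hcon
        exact hB1 (mem_iUnion.2 ⟨j, hw, not_lt.1 hcon⟩)
      have h6 := (jensen01 (hwN'.2 j hw) hp).trans_lt h5
      have h7 : ∫⁻ t in Icc (0:ℝ) 1, h (w + (a j + t • v j)) < κ :=
        (ENNReal.rpow_lt_rpow_iff hp0).1 h6
      calc ∫⁻ t in Icc (0:ℝ) 1, ‖(D (w + (a j + t • v j)) - L) (v j)‖ₑ
          ≤ ∫⁻ t in Icc (0:ℝ) 1, h (w + (a j + t • v j)) * ‖v j‖ₑ := by
            refine lintegral_mono fun t => ?_
            exact ContinuousLinearMap.le_opENorm _ _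
        _ = (∫⁻ t in Icc (0:ℝ) 1, h (w + (a j + t • v j))) * ‖v j‖ₑ :=
            lintegral_mul_const' _ _ enorm_ne_top
        _ ≤ κ * ‖v j‖ₑ := by gcongr
    · by_contra hcon
      exact hB2 ⟨hw, (not_le.1 hcon).le⟩
  have hB1 : μ (⋃ j, B1 j) ≤ 1 / 8 * μ W := by
    calc μ (⋃ j, B1 j) ≤ ∑ j, μ (B1 j) := measure_iUnion_fintype_le _ _
      _ ≤ ∑ _j : J, I / κ ^ p := Finset.sum_le_sum fun j _ => bad_seg hW hN (hsub j) hmp hκp0 hκp1
      _ = Fintype.card J * I / κ ^ p := by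
          rw [Finset.sum_const, Finset.card_univ, nsmul_eq_mul, mul_div_assoc]
      _ ≤ 1 / 8 * μ W := by
          rw [ENNReal.div_le_iff hκp0 hκp1]
          have h8 : (8:ℝ≥0∞) * (Fintype.card J * I) ≤ 8 * (1 / 8 * μ W * κ ^ p) := by
            calc (8:ℝ≥0∞) * (Fintype.card J * I) = 8 * Fintype.card J * I := by ring
              _ ≤ κ ^ p * μ W := h1
              _ = (8 * (1 / 8)) * (μ W * κ ^ p) := by
                  rw [ENNReal.mul_div_cancel (by norm_num) (by norm_num)]; ring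
              _ = 8 * (1 / 8 * μ W * κ ^ p) := by ring
          exact (ENNReal.mul_le_mul_iff_right (by norm_num) (by norm_num)).1 h8
  have hB2 : μ B2 ≤ 1 / 8 * μ W := by
    calc μ B2 ≤ (∑ j, ρ j) * I / c := bad_sum hW hN hsub hmp ρ hc0 hc1
      _ ≤ 1 / 8 * μ W := by
          rw [ENNReal.div_le_iff hc0 hc1]
          have h8 : (8:ℝ≥0∞) * ((∑ j, ρ j) * I) ≤ 8 * (1 / 8 * μ W * c) := by
            calc (8:ℝ≥0∞) * ((∑ j, ρ j) * I) = 8 * (∑ j, ρ j) * I := by ring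
              _ ≤ c * μ W := h2
              _ = (8 * (1 / 8)) * (μ W * c) := by
                  rw [ENNReal.mul_div_cancel (by norm_num) (by norm_num)]; ring
              _ = 8 * (1 / 8 * μ W * c) := by ring
          exact (ENNReal.mul_le_mul_iff_right (by norm_num) (by norm_num)).1 h8
  have h9 : μ W ≤ μ Gd + 1 / 4 * μ W := by
    calc μ W ≤ μ (Gd ∪ ((⋃ j, B1 j) ∪ B2) ∪ Nl) := measure_mono hcov
      _ ≤ μ Gd + (μ (⋃ j, B1 j) + μ B2) + μ Nl := by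
          refine (measure_union_le _ _).trans ?_
          gcongr
          refine (measure_union_le _ _).trans ?_
          gcongr
          exact measure_union_le _ _
      _ ≤ μ Gd + (1 / 8 * μ W + 1 / 8 * μ W) + 0 := by
          rw [hNl]; gcongr
      _ = μ Gd + 1 / 4 * μ W := by
          rw [add_zero, ← add_mul]
          congr 2
          rw [ENNReal.div_add_div_same, one_add_one_eq_two]
          rw [ENNReal.div_eq_div_iff (by norm_num) (by norm_num) (by norm_num) (by norm_num)]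
          norm_num
  have h10 : μ W = 3 / 4 * μ W + 1 / 4 * μ W := by
    rw [← add_mul, ENNReal.div_add_div_same]
    have : ((3:ℝ≥0∞) + 1) / 4 = 1 := by
      rw [show (3:ℝ≥0∞) + 1 = 4 by norm_num]
      exact ENNReal.div_self (by norm_num) (by norm_num)
    rw [this, one_mul]
  have h11 : 1 / 4 * μ W ≠ ∞ := ENNReal.mul_ne_top (by
    apply ENNReal.div_ne_top <;> norm_num) hWT
  exact (ENNReal.add_le_add_iff_right h11).1 (h10.symm.le.trans h9)

/-- energy on a segment from the distance to `L` -/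
theorem line_D_le {p : ℝ} (hp : 1 ≤ p) (D : ℝ → E →L[ℝ] F) (L : E →L[ℝ] F) :
    ∫⁻ t in Icc (0:ℝ) 1, ‖D t‖ₑ ^ p ≤
      2 ^ (p - 1) * ((∫⁻ t in Icc (0:ℝ) 1, ‖D t - L‖ₑ ^ p) + ‖L‖ₑ ^ p) := by
  have h2 : (2:ℝ≥0∞) ^ (p - 1) ≠ ∞ := ENNReal.rpow_ne_top_of_nonneg (by linarith) (by norm_num)
  calc ∫⁻ t in Icc (0:ℝ) 1, ‖D t‖ₑ ^ p
      ≤ ∫⁻ t in Icc (0:ℝ) 1, 2 ^ (p - 1) * (‖D t - L‖ₑ ^ p + ‖L‖ₑ ^ p) := by
        refine lintegral_mono fun t => ?_
        calc ‖D t‖ₑ ^ p ≤ (‖D t - L‖ₑ + ‖L‖ₑ) ^ p := by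
              apply ENNReal.rpow_le_rpow _ (by linarith)
              have h := enorm_add_le (D t - L) L
              rwa [sub_add_cancel] at h
          _ ≤ _ := ENNReal.rpow_add_le_mul_rpow_add_rpow _ _ hp
    _ = 2 ^ (p - 1) * ∫⁻ t in Icc (0:ℝ) 1, (‖D t - L‖ₑ ^ p + ‖L‖ₑ ^ p) := by
        rw [lintegral_const_mul' _ _ h2]
    _ = _ := by
        rw [lintegral_add_right _ measurable_const]
        simp

theorem sum_D_le {p : ℝ} (hp : 1 ≤ p) {J : Type*} [Fintype J] (D : J → ℝ → E →L[ℝ] F)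
    (L : E →L[ℝ] F) (ρ : J → ℝ≥0∞) :
    ∑ j, ρ j * ∫⁻ t in Icc (0:ℝ) 1, ‖D j t‖ₑ ^ p ≤
      2 ^ (p - 1) * ((∑ j, ρ j * ∫⁻ t in Icc (0:ℝ) 1, ‖D j t - L‖ₑ ^ p) + (∑ j, ρ j) * ‖L‖ₑ ^ p) := by
  calc ∑ j, ρ j * ∫⁻ t in Icc (0:ℝ) 1, ‖D j t‖ₑ ^ p
      ≤ ∑ j, ρ j * (2 ^ (p - 1) * ((∫⁻ t in Icc (0:ℝ) 1, ‖D j t - L‖ₑ ^ p) + ‖L‖ₑ ^ p)) := by
        refine Finset.sum_le_sum fun j _ => mul_le_mul_right (line_D_le hp (D j) L) _
    _ = _ := by
        rw [Finset.sum_mul, ← Finset.sum_add_distrib, Finset.mul_sum]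
        refine Finset.sum_congr rfl fun j _ => ?_
        ring

end

end Crest.Agent.R096.Rg_802
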