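import Crest.Agent.R096.EaX1_766
import Crest.Agent.R096.Prep2_766

/-!
Row 96 (S0127), helper766.  Range `p ≥ 3`, part a: rational affine maps close to a given one.
-/

set_option autoImplicit false
set_option linter.unusedSectionVars false
set_option linter.style.longLine false
set_option linter.style.haveILetI false
set_option linter.unusedVariables false

namespace Crest.Agent.R096.Rg3_766

open MeasureTheory Set Filter Topology Metric
open scoped ENNReal NNReal
open Crest.Agent.R096.SkC1_961 (E3 Hom3)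
open Crest.Agent.R096.EaX_766

noncomputable section

lemma exists_rat_near' (x : ℝ) {ε : ℝ} (hε : 0 < ε) : ∃ q : ℚ, |(q : ℝ) - x| ≤ ε := by
  obtain ⟨q, hq⟩ := exists_rat_near x hε
  exact ⟨q, by rw [abs_sub_comm]; exact hq.le⟩

/-- the linear map with matrix `a`. -/
def matL (a : Fin 3 → Fin 3 → ℝ) : E3 →L[ℝ] E3 :=
  ContinuousLinearMap.pi fun k => ∑ j, a k j • ContinuousLinearMap.proj (R := ℝ) (φ := fun _ : Fin 3 => ℝ) j

lemma matL_apply (a : Fin 3 → Fin 3 → ℝ) (v : E3) (k : Fin 3) : matL a v k = ∑ j, a k j * v j := by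
  simp [matL]

lemma norm_matL_sub_le {a : Fin 3 → Fin 3 → ℝ} {B : E3 →L[ℝ] E3} {ε : ℝ} (hε : 0 ≤ ε)
    (h : ∀ k j, |a k j - B (Pi.single j 1) k| ≤ ε) : ‖matL a - B‖ ≤ 3 * ε := by
  refine ContinuousLinearMap.opNorm_le_bound _ (by positivity) fun v => ?_
  rw [pi_norm_le_iff_of_nonneg (by positivity)]
  intro k
  have h1 : v = ∑ i, v i • (Pi.single i (1 : ℝ) : E3) := by
    funext k
    simp [Finset.sum_apply, Pi.single_apply]
  have h2 : B v k = ∑ j, B (Pi.single j 1) k * v j := by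
    conv_lhs => rw [h1]
    rw [map_sum, Finset.sum_apply]
    refine Finset.sum_congr rfl fun j _ => ?_
    rw [map_smul, Pi.smul_apply, smul_eq_mul, mul_comm]
  have h3 : (matL a - B) v k = ∑ j, (a k j - B (Pi.single j 1) k) * v j := by
    have : (matL a - B) v k = matL a v k - B v k := rfl
    rw [this, matL_apply, h2, ← Finset.sum_sub_distrib]
    exact Finset.sum_congr rfl fun j _ => by ring
  rw [h3, Real.norm_eq_abs]
  calc |∑ j, (a k j - B (Pi.single j 1) k) * v j| ≤ ∑ j, |(a k j - B (Pi.single j 1) k) * v j| :=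
        Finset.abs_sum_le_sum_abs _ _
    _ ≤ ∑ _j : Fin 3, ε * ‖v‖ := by
        refine Finset.sum_le_sum fun j _ => ?_
        rw [abs_mul]
        have h4 : |v j| ≤ ‖v‖ := by
          rw [← Real.norm_eq_abs]; exact norm_le_pi_norm v j
        exact mul_le_mul (h k j) h4 (abs_nonneg _) hε
    _ = 3 * ε * ‖v‖ := by simp; ring

/-- **rational approximation** of an affine isomorphism. -/
theorem exists_ratA (o : E3) {u : ℝ} (hu : 0 < u) {B : E3 →L[ℝ] E3} {m : ℝ} (hm : 0 < m)
    (hB : ∀ v, m * ‖v‖ ≤ ‖B v‖) (x0 y0 : E3) {ε : ℝ} (hε : 0 < ε) (hεm : ε ≤ m / 2) :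
    ∃ A : E3 ≃ᵃ[ℝ] E3, RatA o u A ∧ ‖lin A - B‖ ≤ ε ∧ ‖A x0 - y0‖ ≤ ε ∧
      (∀ x x', A x - A x' = lin A (x - x')) ∧ (∀ v, m / 2 * ‖v‖ ≤ ‖lin A v‖) ∧
      ‖lin A.symm‖ ≤ 2 / m ∧ (∀ v, lin A.symm (lin A v) = v) ∧ (∀ v, lin A (lin A.symm v) = v) := by
  have h1 : ∀ k j, ∃ q : ℚ, |(q : ℝ) - B (Pi.single j 1) k / u| ≤ ε / (3 * u) := fun k j =>
    exists_rat_near' _ (by positivity)
  choose L hL using h1
  set a : Fin 3 → Fin 3 → ℝ := fun k j => u * L k j with ha
  have h2 : ∀ k j, |a k j - B (Pi.single j 1) k| ≤ ε / 3 := by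
    intro k j
    have h3 : a k j - B (Pi.single j 1) k = u * ((L k j : ℝ) - B (Pi.single j 1) k / u) := by
      rw [ha]; field_simp
    rw [h3, abs_mul, abs_of_pos hu]
    calc u * |(L k j : ℝ) - B (Pi.single j 1) k / u| ≤ u * (ε / (3 * u)) := by
          gcongr; exact hL k j
      _ = ε / 3 := by field_simp
  have h3 : ‖matL a - B‖ ≤ ε := by
    have := norm_matL_sub_le (by positivity) h2
    linarith
  have hlow : ∀ v, m / 2 * ‖v‖ ≤ ‖matL a v‖ := by
    intro v
    have h4 : ‖(matL a - B) v‖ ≤ ε * ‖v‖ := (matL a - B).le_of_opNorm_le h3 v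
    have h5 : B v = matL a v - (matL a - B) v := by
      have : (matL a - B) v = matL a v - B v := rfl
      rw [this]; abel
    have h6 : ‖B v‖ ≤ ‖matL a v‖ + ‖(matL a - B) v‖ := by
      conv_lhs => rw [h5]
      exact norm_sub_le _ _
    have h7 := hB v
    have h8 : ε * ‖v‖ ≤ m / 2 * ‖v‖ := by gcongr
    linarith
  have hinj : Function.Injective (matL a : E3 →ₗ[ℝ] E3) := by
    rw [injective_iff_map_eq_zero]
    intro v hv
    have h4 := hlow v
    have h5 : matL a v = 0 := hv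
    rw [h5, norm_zero] at h4
    have h6 : ‖v‖ ≤ 0 := by
      by_contra hcon
      have := mul_pos (half_pos hm) (not_le.1 hcon)
      linarith
    exact norm_le_zero_iff.1 h6
  set E : E3 ≃ₗ[ℝ] E3 := LinearEquiv.ofInjectiveEndo (matL a : E3 →ₗ[ℝ] E3) hinj with hE
  have hEa : ∀ v, E v = matL a v := fun v => rfl
  have h4 : ∀ k, ∃ q : ℚ, |(q : ℝ) - ((y0 - matL a x0) k - o k) / u| ≤ ε / u := fun k =>
    exists_rat_near' _ (by positivity)
  choose v hv using h4
  set f : E3 → E3 := fun x => fun k => o k + u * (∑ j, (L k j : ℝ) * x j + v k) with hf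
  have hfm : ∀ x, f x = matL a x + fun k => o k + u * v k := by
    intro x
    funext k
    rw [hf, Pi.add_apply, matL_apply]
    simp only [ha, mul_add, Finset.mul_sum]
    have : ∑ j, u * ((L k j : ℝ) * x j) = ∑ j, u * (L k j : ℝ) * x j :=
      Finset.sum_congr rfl fun j _ => by ring
    rw [this]; ring
  set A : E3 ≃ᵃ[ℝ] E3 := AffineEquiv.mk' f E 0 (by
    intro x
    rw [hEa, hfm, hfm 0, vsub_eq_sub, vadd_eq_add, sub_zero, map_zero, zero_add]) with hA
  have hAf : ∀ x, A x = f x := fun x => rfl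
  have hlin : lin A = matL a := by
    ext1 x
    rfl
  have hsub : ∀ x x', A x - A x' = lin A (x - x') := by
    intro x x'
    rw [hAf, hAf, hfm, hfm, hlin, map_sub]
    abel
  have hs1 : ∀ v, lin A.symm (lin A v) = v := fun v => E.symm_apply_apply v
  have hs2 : ∀ v, lin A (lin A.symm v) = v := fun v => E.apply_symm_apply v
  refine ⟨A, ⟨L, v, fun x k => rfl⟩, by rw [hlin]; exact h3, ?_, hsub, by rw [hlin]; exact hlow, ?_,
    hs1, hs2⟩
  · rw [hAf, hfm, pi_norm_le_iff_of_nonneg hε.le]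
    intro k
    have h5 : (matL a x0 + (fun k => o k + u * (v k : ℝ)) - y0) k =
        u * ((v k : ℝ) - ((y0 - matL a x0) k - o k) / u) := by
      simp only [Pi.add_apply, Pi.sub_apply]
      field_simp
      ring
    rw [h5, Real.norm_eq_abs, abs_mul, abs_of_pos hu]
    calc u * |(v k : ℝ) - ((y0 - matL a x0) k - o k) / u| ≤ u * (ε / u) := by gcongr; exact hv k
      _ = ε := by field_simp
  · refine ContinuousLinearMap.opNorm_le_bound _ (by positivity) fun w => ?_
    have h5 := hlow (lin A.symm w)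
    rw [← hlin, hs2] at h5
    rw [div_mul_eq_mul_div, le_div_iff₀ hm]
    linarith

/-- bound of the determinant. -/
theorem abs_det_le (B : E3 →L[ℝ] E3) : |B.det| ≤ ‖B‖ ^ 3 := by
  have h1 : volume (B '' ball (0 : E3) 1) = ENNReal.ofReal |B.det| * volume (ball (0 : E3) 1) :=
    Measure.addHaar_image_continuousLinearMap _ _ _
  have h2 : B '' ball (0 : E3) 1 ⊆ closedBall (0 : E3) ‖B‖ := by
    rintro _ ⟨x, hx, rfl⟩
    rw [mem_ball_zero_iff] at hx
    rw [mem_closedBall_zero_iff]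
    calc ‖B x‖ ≤ ‖B‖ * ‖x‖ := B.le_opNorm x
      _ ≤ ‖B‖ * 1 := by gcongr
      _ = ‖B‖ := mul_one _
  have h3 := measure_mono (μ := (volume : Measure E3)) h2
  rw [h1, Measure.addHaar_closedBall _ _ (norm_nonneg _)] at h3
  have h4 : (volume : Measure E3) (ball (0 : E3) 1) ≠ 0 := (measure_ball_pos _ _ one_pos).ne'
  have h5 : (volume : Measure E3) (ball (0 : E3) 1) ≠ ∞ := measure_ball_lt_top.ne
  have h6 := (ENNReal.mul_le_mul_iff_left h4 h5).1 h3
  have h7 : Module.finrank ℝ E3 = 3 := by simp [E3]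
  rw [h7] at h6
  exact (ENNReal.ofReal_le_ofReal_iff (by positivity)).1 h6

/-- `lin A` has non-zero determinant; volumes of preimages. -/
theorem vol_preimage (A : E3 ≃ᵃ[ℝ] E3) (S : Set E3) :
    ENNReal.ofReal |(lin A).det| * volume (A ⁻¹' S) = volume S := by
  have h1 : A '' (A ⁻¹' S) = S := by
    rw [image_preimage_eq _ A.surjective]
  have h2 : ∀ x, A x = A 0 + lin A x := by
    intro x
    have h3 := A.toAffineMap.linearMap_vsub x 0
    have h4 : A x - A 0 = lin A x := by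
      have h5 : lin A x = (A : E3 →ᵃ[ℝ] E3).linear (x - 0) := by rw [sub_zero]; rfl
      rw [h5]
      exact h3.symm
    rw [← h4]; abel
  have h3 : (A '' (A ⁻¹' S)) = (fun y => A 0 + y) '' (lin A '' (A ⁻¹' S)) := by
    rw [image_image]
    exact image_congr fun x _ => h2 x
  rw [← Measure.addHaar_image_continuousLinearMap (volume : Measure E3) (lin A) (A ⁻¹' S)]
  have h4 : volume ((fun y => A 0 + y) '' (lin A '' (A ⁻¹' S))) = volume (lin A '' (A ⁻¹' S)) := by
    rw [image_add_left]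
    exact measure_preimage_add _ _ _
  rw [← h4, ← h3, h1]

end

end Crest.Agent.R096.Rg3_766
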