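import Crest.Agent.R096.Rg3a_766

/-!
Row 96 (S0127), helper766.  Range `p ≥ 3`, part b: `ExIn` of a brick from the closeness to a real
affine map.
-/

set_option autoImplicit false
set_option linter.unusedSectionVars false
set_option linter.style.longLine false
set_option linter.style.haveILetI false
set_option linter.unusedVariables false

namespace Crest.Agent.R096.Rg3_766

open MeasureTheory Set Filter Topology Metric
open scoped ENNReal NNReal
open Crest.Agent.R096.SkC1_961 (E3 Hom3)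
open Crest.Agent.R096.EaX_766 Crest.Agent.R096.Bsp_628
open Crest.Agent.R096.Bxs_627 (ctr)

noncomputable section

lemma add_rpow_le (a b : ℝ≥0∞) {p : ℝ} (hp : 0 ≤ p) : (a + b) ^ p ≤ 2 ^ p * (a ^ p + b ^ p) := by
  have h1 : a + b ≤ 2 * max a b := by
    rw [two_mul]
    exact add_le_add (le_max_left _ _) (le_max_right _ _)
  calc (a + b) ^ p ≤ (2 * max a b) ^ p := ENNReal.rpow_le_rpow h1 hp
    _ = 2 ^ p * (max a b) ^ p := ENNReal.mul_rpow_of_nonneg _ _ hp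
    _ ≤ 2 ^ p * (a ^ p + b ^ p) := by
        gcongr
        rcases le_total a b with h | h
        · rw [max_eq_right h]; exact le_add_self
        · rw [max_eq_left h]; exact le_self_add

lemma cbx_mono {Q : Bx (Fin 3)} (hQ : Q.Pos) {a b : ℝ} (h : a ≤ b) : cbx Q a ⊆ cbx Q b := by
  intro y hy k
  have h1 := Bx.side_pos hQ k
  refine (hy k).trans ?_
  have : a * Q.side k ≤ b * Q.side k := by gcongr
  linarith

lemma norm_sub_of_cbx {Q : Bx (Fin 3)} (hQ : Q.Pos) {a : ℝ} (ha : 0 ≤ a) {y : E3} (hy : y ∈ cbx Q a) :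
    ‖y - ctr Q‖ ≤ a * Q.sz / 2 := by
  have hs := Bx.sz_pos hQ
  rw [pi_norm_le_iff_of_nonneg (by positivity)]
  intro k
  rw [Pi.sub_apply, Real.norm_eq_abs]
  refine (hy k).trans ?_
  have h1 := Q.side_le_sz k
  have : a * Q.side k ≤ a * Q.sz := by gcongr
  linarith

lemma cbx_near {Q : Bx (Fin 3)} {κ0 : ℝ} (asp : ∀ i, Q.sz ≤ κ0 * Q.side i) {a η : ℝ} (hη : 0 ≤ η)
    {y y' : E3} (hy : y ∈ cbx Q a) (h : ‖y' - y‖ ≤ η * Q.sz) : y' ∈ cbx Q (a + 2 * κ0 * η) := by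
  intro k
  have h1 := norm_le_pi_norm (y' - y) k
  rw [Pi.sub_apply, Real.norm_eq_abs] at h1
  have h2 := hy k
  have h3 : |y' k - ctr Q k| ≤ |y' k - y k| + |y k - ctr Q k| := abs_sub_le _ _ _
  have h4 : η * Q.sz ≤ η * (κ0 * Q.side k) := mul_le_mul_of_nonneg_left (asp k) hη
  have h5 : (a + 2 * κ0 * η) * Q.side k / 2 = a * Q.side k / 2 + η * (κ0 * Q.side k) := by ring
  rw [h5]
  linarith

lemma vol_cbx_le {Q : Bx (Fin 3)} (hQ : Q.Pos) {a : ℝ} (ha : 0 ≤ a) (ha2 : a ≤ 2) :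
    volume (cbx Q a) ≤ ENNReal.ofReal (8 * Q.sz ^ 3) := by
  have hs := Bx.sz_pos hQ
  have h1 : cbx Q a ⊆ closedBall (ctr Q) Q.sz := by
    intro y hy
    rw [mem_closedBall, dist_eq_norm]
    have := norm_sub_of_cbx hQ ha hy
    have h2 : a * Q.sz ≤ 2 * Q.sz := by gcongr
    linarith
  refine (measure_mono h1).trans (le_of_eq ?_)
  rw [Real.volume_pi_closedBall _ hs.le, Fintype.card_fin]
  congr 1
  ring

/-- **`ExIn` from the closeness to a real affine map.** -/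
theorem exIn_of {p : ℝ} (hp : 1 ≤ p) {Om : Set E3} {f : E3 → E3} {D : E3 → E3 →L[ℝ] E3} (o : E3)
    {u : ℝ} (hu : 0 < u) {Q : Bx (Fin 3)} (hQ : Q.Pos) (asp : ∀ i, Q.sz ≤ 3 * Q.side i)
    {B : E3 →L[ℝ] E3} {m : ℝ} (hm : 0 < m) (hm1 : m ≤ 1) (hB : ∀ v, m * ‖v‖ ≤ ‖B v‖)
    (hBn : ‖B‖ ≤ 1 / m) {x0 y0 : E3} (hy0 : ‖y0 - ctr Q‖ ≤ Q.sz) {a κ₁ θ lam κ1 κ2 : ℝ}
    (hκ₁ : 0 < κ₁) (hκ₁' : κ₁ ≤ 1 / 8) (ha0 : 0 ≤ a) (ha2 : a ≤ 2) (hlam : 0 < lam) (hκ2 : 0 ≤ κ2)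
    (hgap : (1 + 2 * κ2) * lam + 6 * κ₁ ≤ a) (hκ1 : 2 * κ₁ ≤ κ1 * lam)
    (H : ∀ x, (x ∈ Om ∧ f x ∈ cbx Q a) ∨ (y0 + B (x - x0) ∈ cbx Q a) →
      x ∈ Om ∧ ‖f x - (y0 + B (x - x0))‖ ≤ κ₁ * Q.sz)
    (hθ0 : 0 ≤ θ) (hθ : 2 * ((4 / m) ^ p * (8 / m ^ 3 * θ)) ≤ κ1 * (lam * Q.sz) ^ 3)
    (HL : ∫⁻ x in {x | y0 + B (x - x0) ∈ cbx Q a}, ‖D x - B‖ₑ ^ p ≤ ENNReal.ofReal θ)
    {ε0 : ℝ} (hε0 : 0 < ε0) :
    ∃ A : E3 ≃ᵃ[ℝ] E3, ExIn p Om f D o u κ1 κ2 Q A lam ∧ ‖lin A - B‖ ≤ ε0 ∧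
      (∀ v, m / 2 * ‖v‖ ≤ ‖lin A v‖) ∧
      (∀ b, b ≤ a → ∀ x ∈ Om, f x ∈ cbx Q b → A x ∈ cbx Q (b + 12 * κ₁)) := by
  have hs := Bx.sz_pos hQ
  have hp0 : 0 ≤ p := by linarith
  have hlam1 : lam ≤ a := by nlinarith
  have hκ1p : 0 < κ1 := by
    by_contra hcon
    push Not at hcon
    nlinarith
  set ε : ℝ := min (min (min ε0 (m / 2)) (min 1 Q.sz))
    (min (κ₁ * Q.sz / (1 + 6 * Q.sz / m)) (κ1 * lam ^ 3 / (16 * (4 / m) ^ p))) with hε
  have h4p : (0 : ℝ) < (4 / m) ^ p := Real.rpow_pos_of_pos (by positivity) p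
  have hε0' : 0 < ε := by
    rw [hε]
    refine lt_min (lt_min (lt_min hε0 (by positivity)) (lt_min one_pos hs)) (lt_min ?_ ?_)
    · positivity
    · positivity
  have e1 : ε ≤ ε0 := ((min_le_left _ _).trans (min_le_left _ _)).trans (min_le_left _ _)
  have e2 : ε ≤ m / 2 := ((min_le_left _ _).trans (min_le_left _ _)).trans (min_le_right _ _)
  have e3 : ε ≤ 1 := ((min_le_left _ _).trans (min_le_right _ _)).trans (min_le_left _ _)
  have e4 : ε ≤ Q.sz := ((min_le_left _ _).trans (min_le_right _ _)).trans (min_le_right _ _)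
  have e5 : ε * (1 + 6 * Q.sz / m) ≤ κ₁ * Q.sz := by
    rw [← le_div_iff₀ (by positivity)]
    exact (min_le_right _ _).trans (min_le_left _ _)
  have e6 : ε * (16 * (4 / m) ^ p) ≤ κ1 * lam ^ 3 := by
    rw [← le_div_iff₀ (by positivity)]
    exact (min_le_right _ _).trans (min_le_right _ _)
  obtain ⟨A, hrat, hAB, hA0, hAs, hAl, hAi, hAi1, hAi2⟩ := exists_ratA o hu hm hB x0 y0 hε0' e2
  -- closeness of `A` to the real map
  have hclose : ∀ x, ‖x - x0‖ ≤ 6 * Q.sz / m → ‖A x - (y0 + B (x - x0))‖ ≤ κ₁ * Q.sz := by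
    intro x hx
    have h1 : A x - (y0 + B (x - x0)) = (A x0 - y0) + (lin A - B) (x - x0) := by
      have h2 := hAs x x0
      have h3 : (lin A - B) (x - x0) = lin A (x - x0) - B (x - x0) := rfl
      rw [h3, ← h2]; abel
    rw [h1]
    calc ‖(A x0 - y0) + (lin A - B) (x - x0)‖ ≤ ‖A x0 - y0‖ + ‖(lin A - B) (x - x0)‖ := norm_add_le _ _
      _ ≤ ε + ε * (6 * Q.sz / m) := by
          gcongr
          exact ((lin A - B).le_of_opNorm_le hAB _).trans (by gcongr)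
      _ = ε * (1 + 6 * Q.sz / m) := by ring
      _ ≤ κ₁ * Q.sz := e5
  have hfar1 : ∀ x, ‖y0 + B (x - x0) - ctr Q‖ ≤ 2 * Q.sz → ‖x - x0‖ ≤ 6 * Q.sz / m := by
    intro x hx
    have h1 := hB (x - x0)
    have h2 : B (x - x0) = (y0 + B (x - x0) - ctr Q) - (y0 - ctr Q) := by abel
    have h3 : ‖B (x - x0)‖ ≤ 2 * Q.sz + Q.sz := by
      rw [h2]
      exact (norm_sub_le _ _).trans (add_le_add hx hy0)
    rw [le_div_iff₀ hm]
    linarith
  have hfar2 : ∀ x, ‖A x - ctr Q‖ ≤ Q.sz → ‖x - x0‖ ≤ 6 * Q.sz / m := by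
    intro x hx
    have h1 := hAl (x - x0)
    have h2 : lin A (x - x0) = (A x - ctr Q) - (y0 - ctr Q) - (A x0 - y0) := by
      rw [← hAs x x0]; abel
    have h3 : ‖lin A (x - x0)‖ ≤ Q.sz + Q.sz + Q.sz := by
      rw [h2]
      refine (norm_sub_le _ _).trans (add_le_add ((norm_sub_le _ _).trans (add_le_add hx hy0)) ?_)
      exact hA0.trans e4
    rw [le_div_iff₀ hm]
    linarith
  have hin : ∀ x, y0 + B (x - x0) ∈ cbx Q a → ‖x - x0‖ ≤ 6 * Q.sz / m := fun x hx => hfar1 x (by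
    have := norm_sub_of_cbx hQ ha0 hx
    have h2 : a * Q.sz ≤ 2 * Q.sz := by gcongr
    linarith)
  -- `A x` in the enlarged box
  have hA2 : ∀ x, A x ∈ cbx Q ((1 + 2 * κ2) * lam) → y0 + B (x - x0) ∈ cbx Q a := by
    intro x hx
    have h0 : (1 + 2 * κ2) * lam ≤ 2 := by linarith
    have h0' : 0 ≤ (1 + 2 * κ2) * lam := by positivity
    have h1 : ‖x - x0‖ ≤ 6 * Q.sz / m := hfar2 x (by
      have := norm_sub_of_cbx hQ h0' hx
      have h2 : (1 + 2 * κ2) * lam * Q.sz ≤ 2 * Q.sz := by gcongr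
      linarith)
    have h2 := hclose x h1
    rw [norm_sub_rev] at h2
    have h3 := cbx_near asp hκ₁.le hx h2
    exact cbx_mono hQ (by linarith) h3
  have hmain : ∀ x, (x ∈ Om ∧ f x ∈ cbx Q a) ∨ (y0 + B (x - x0) ∈ cbx Q a) →
      x ∈ Om ∧ ‖f x - A x‖ ≤ 2 * κ₁ * Q.sz := by
    intro x hx
    obtain ⟨h1, h2⟩ := H x hx
    refine ⟨h1, ?_⟩
    have h3 : ‖x - x0‖ ≤ 6 * Q.sz / m := by
      rcases hx with ⟨-, hx⟩ | hx
      · refine hfar1 x ?_
        have h4 := norm_sub_of_cbx hQ ha0 hx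
        have h5 : y0 + B (x - x0) - ctr Q = (f x - ctr Q) - (f x - (y0 + B (x - x0))) := by abel
        rw [h5]
        refine (norm_sub_le _ _).trans ?_
        have h6 : a * Q.sz ≤ 2 * Q.sz := by gcongr
        have h7 : κ₁ * Q.sz ≤ 1 / 8 * Q.sz := by gcongr
        linarith
      · exact hin x hx
    have h4 := hclose x h3
    have h5 : f x - A x = (f x - (y0 + B (x - x0))) - (A x - (y0 + B (x - x0))) := by abel
    rw [h5]
    refine (norm_sub_le _ _).trans ?_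
    linarith
  refine ⟨A, ⟨hrat, ?_, ?_⟩, hAB.trans e1, hAl, ?_⟩
  · intro x hx
    have h1 := hmain x (hx.imp (fun h => ⟨h.1, cbx_mono hQ hlam1 h.2⟩) (hA2 x))
    refine ⟨h1.1, h1.2.trans ?_⟩
    calc 2 * κ₁ * Q.sz ≤ κ1 * lam * Q.sz := by gcongr
      _ = κ1 * (lam * Q.sz) := by ring
  · set S : Set E3 := A ⁻¹' cbx Q ((1 + 2 * κ2) * lam) with hS
    have hSsub : S ⊆ {x | y0 + B (x - x0) ∈ cbx Q a} := fun x hx => hA2 x hx
    have hpt : ∀ x, ‖(D x).comp (lin A.symm) - ContinuousLinearMap.id ℝ E3‖ₑ ^ p ≤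
        ENNReal.ofReal ((4 / m) ^ p) * (‖D x - B‖ₑ ^ p + ENNReal.ofReal ε) := by
      intro x
      have h1 : (D x).comp (lin A.symm) - ContinuousLinearMap.id ℝ E3 =
          (D x - lin A).comp (lin A.symm) := by
        ext1 v
        simp only [sub_apply, ContinuousLinearMap.comp_apply,
          ContinuousLinearMap.id_apply, hAi2]
      have h2 : ‖(D x).comp (lin A.symm) - ContinuousLinearMap.id ℝ E3‖ ≤
          2 / m * (‖D x - B‖ + ε) := by
        rw [h1]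
        calc ‖(D x - lin A).comp (lin A.symm)‖ ≤ ‖D x - lin A‖ * ‖lin A.symm‖ :=
              ContinuousLinearMap.opNorm_comp_le _ _
          _ ≤ (‖D x - B‖ + ε) * (2 / m) := by
              gcongr
              have h3 : D x - lin A = (D x - B) - (lin A - B) := by abel
              rw [h3]
              exact (norm_sub_le _ _).trans (by gcongr)
          _ = 2 / m * (‖D x - B‖ + ε) := by ring
      have h3 : ‖(D x).comp (lin A.symm) - ContinuousLinearMap.id ℝ E3‖ₑ ≤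
          ENNReal.ofReal (2 / m) * (‖D x - B‖ₑ + ENNReal.ofReal ε) := by
        rw [← ofReal_norm, ← ofReal_norm, ← ENNReal.ofReal_add (norm_nonneg _) hε0'.le,
          ← ENNReal.ofReal_mul (by positivity)]
        exact ENNReal.ofReal_le_ofReal h2
      have h5 : ENNReal.ofReal ε ^ p ≤ ENNReal.ofReal ε := by
        conv_rhs => rw [← ENNReal.rpow_one (ENNReal.ofReal ε)]
        exact ENNReal.rpow_le_rpow_of_exponent_ge (ENNReal.ofReal_le_one.2 e3) hp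
      have h6 : ENNReal.ofReal (2 / m) ^ p * 2 ^ p = ENNReal.ofReal ((4 / m) ^ p) := by
        have h7 : (2 : ℝ≥0∞) = ENNReal.ofReal 2 := by norm_num
        rw [h7, ← ENNReal.mul_rpow_of_nonneg _ _ hp0, ← ENNReal.ofReal_mul (by positivity),
          ENNReal.ofReal_rpow_of_nonneg (by positivity) hp0]
        congr 2
        ring
      calc ‖(D x).comp (lin A.symm) - ContinuousLinearMap.id ℝ E3‖ₑ ^ p
          ≤ (ENNReal.ofReal (2 / m) * (‖D x - B‖ₑ + ENNReal.ofReal ε)) ^ p :=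
            ENNReal.rpow_le_rpow h3 hp0
        _ = ENNReal.ofReal (2 / m) ^ p * (‖D x - B‖ₑ + ENNReal.ofReal ε) ^ p :=
            ENNReal.mul_rpow_of_nonneg _ _ hp0
        _ ≤ ENNReal.ofReal (2 / m) ^ p * (2 ^ p * (‖D x - B‖ₑ ^ p + ENNReal.ofReal ε ^ p)) := by
            gcongr
            exact add_rpow_le _ _ hp0
        _ = ENNReal.ofReal ((4 / m) ^ p) * (‖D x - B‖ₑ ^ p + ENNReal.ofReal ε ^ p) := by
            rw [← mul_assoc, h6]
        _ ≤ ENNReal.ofReal ((4 / m) ^ p) * (‖D x - B‖ₑ ^ p + ENNReal.ofReal ε) := by gcongr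
    have hdet : |(lin A).det| ≤ 8 / m ^ 3 := by
      refine (abs_det_le _).trans ?_
      have h1 : ‖lin A‖ ≤ 2 / m := by
        have h2 : lin A = B + (lin A - B) := by abel
        rw [h2]
        refine (norm_add_le _ _).trans ?_
        have h3 : ε ≤ 1 / m := by
          refine e3.trans ?_
          rw [le_div_iff₀ hm]; linarith
        have h4 : (2 : ℝ) / m = 1 / m + 1 / m := by ring
        rw [h4]
        exact add_le_add hBn (hAB.trans h3)
      calc ‖lin A‖ ^ 3 ≤ (2 / m) ^ 3 := by gcongr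
        _ = 8 / m ^ 3 := by rw [div_pow]; norm_num
    have hvolS : ENNReal.ofReal |(lin A).det| * volume S ≤ ENNReal.ofReal (8 * Q.sz ^ 3) := by
      rw [hS, vol_preimage]
      exact vol_cbx_le hQ (by positivity) (by linarith)
    calc ENNReal.ofReal |(lin A).det| * ∫⁻ x in S,
          ‖(D x).comp (lin A.symm) - ContinuousLinearMap.id ℝ E3‖ₑ ^ p
        ≤ ENNReal.ofReal |(lin A).det| * ∫⁻ x in S,
          ENNReal.ofReal ((4 / m) ^ p) * (‖D x - B‖ₑ ^ p + ENNReal.ofReal ε) := by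
          gcongr with x
          exact hpt x
      _ = ENNReal.ofReal |(lin A).det| * (ENNReal.ofReal ((4 / m) ^ p) *
          ((∫⁻ x in S, ‖D x - B‖ₑ ^ p) + ENNReal.ofReal ε * volume S)) := by
          rw [lintegral_const_mul' _ _ ENNReal.ofReal_ne_top, lintegral_add_right' _ aemeasurable_const,
            lintegral_const, Measure.restrict_apply_univ]
      _ = ENNReal.ofReal ((4 / m) ^ p) * (ENNReal.ofReal |(lin A).det| * (∫⁻ x in S, ‖D x - B‖ₑ ^ p) +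
          ENNReal.ofReal ε * (ENNReal.ofReal |(lin A).det| * volume S)) := by ring
      _ ≤ ENNReal.ofReal ((4 / m) ^ p) * (ENNReal.ofReal (8 / m ^ 3) * ENNReal.ofReal θ +
          ENNReal.ofReal ε * ENNReal.ofReal (8 * Q.sz ^ 3)) := by
          gcongr
          exact (lintegral_mono_set hSsub).trans HL
      _ = ENNReal.ofReal ((4 / m) ^ p * (8 / m ^ 3 * θ + ε * (8 * Q.sz ^ 3))) := by
          rw [ENNReal.ofReal_mul h4p.le, ENNReal.ofReal_add (by positivity) (by positivity),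
            ENNReal.ofReal_mul (show 0 ≤ 8 / m ^ 3 by positivity), ENNReal.ofReal_mul hε0'.le]
      _ ≤ ENNReal.ofReal (κ1 * (lam * Q.sz) ^ 3) := by
          apply ENNReal.ofReal_le_ofReal
          have h1 : (4 / m) ^ p * (ε * (8 * Q.sz ^ 3)) = ε * (16 * (4 / m) ^ p) * Q.sz ^ 3 / 2 := by ring
          have h2 : ε * (16 * (4 / m) ^ p) * Q.sz ^ 3 ≤ κ1 * lam ^ 3 * Q.sz ^ 3 := by gcongr
          have h3 : κ1 * lam ^ 3 * Q.sz ^ 3 = κ1 * (lam * Q.sz) ^ 3 := by ring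
          have h4 : (4 / m) ^ p * (8 / m ^ 3 * θ + ε * (8 * Q.sz ^ 3)) =
            (4 / m) ^ p * (8 / m ^ 3 * θ) + (4 / m) ^ p * (ε * (8 * Q.sz ^ 3)) := by ring
          rw [h4, h1]
          linarith
  · intro b hb x hx hxb
    have h1 := (hmain x (Or.inl ⟨hx, cbx_mono hQ hb hxb⟩)).2
    rw [norm_sub_rev] at h1
    have h2 := cbx_near asp (by positivity) hxb h1
    refine cbx_mono hQ (le_of_eq ?_) h2
    ring

end

end Crest.Agent.R096.Rg3_766
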