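import Crest.Agent.R096.Rg3b_766

/-!
Row 96 (S0127), helper766.  Range `p ≥ 3`, part c: from PREP3 to `ExIn` for ALL bricks.
-/

set_option autoImplicit false
set_option linter.unusedSectionVars false
set_option linter.style.longLine false
set_option linter.style.haveILetI false
set_option linter.unusedVariables false

namespace Crest.Agent.R096.Rg3_766

open MeasureTheory Set Filter Topology Metric
open scoped ENNReal NNReal
open Crest.AnalysisR.VecCalc3 Crest.AnalysisR.Sobolev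
open Crest.Agent.R096.SkC1_961 (E3 Hom3)
open Crest.Agent.R096.EaX_766 Crest.Agent.R096.Bsp_628 Crest.Agent.R096.Prep_766
open Crest.Agent.R096.Bxs_627 hiding E3
open Crest.Agent.R096.Er_594
open Crest.Agent.R096.Osc_802 Crest.Agent.R096.VolC2_766 Crest.Agent.R96.Lu_538
open Crest.Agent.R096.ThC6_766 Crest.Agent.R096.Sel_766 Crest.Agent.R096.Toph_766
open Crest.Agent.R96.En10_199

noncomputable section

/-! ### the real affine map in `E3` -/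

/-- the linear part at `ξ` -/
def BB (G : Fin 3 → R3 → R3) (ξ : R3) : E3 →L[ℝ] E3 := ofRows fun j => G j ξ

lemma BB_apply (G : Fin 3 → R3 → R3) (ξ : R3) (v : E3) :
    BB G ξ v = P3.symm (Gmat G ξ (P3 v)) := rfl

/-- the real affine map, on `E3`. -/
def AR (f : R3 → R3) (G : Fin 3 → R3 → R3) (ξ t : R3) (x : E3) : E3 :=
  P3.symm (f ξ + t) + BB G ξ (x - P3.symm ξ)

lemma AR_eq (f : R3 → R3) (G : Fin 3 → R3 → R3) (ξ t : R3) (x : E3) :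
    AR f G ξ t x = P3.symm (Aff f G ξ t (P3 x)) := by
  rw [AR, BB_apply, Aff, map_sub, P3.apply_symm_apply, ← map_add]
  congr 1
  abel

lemma BB_low {G : Fin 3 → R3 → R3} {ξ : R3} {m : ℝ} (hm : 0 ≤ m) (hA : Gmat G ξ ∈ LM m) (v : E3) :
    m / 2 * ‖v‖ ≤ ‖BB G ξ v‖ := by
  have h1 := (hA (P3 v)).1
  have h2 := Er_594.norm_le_P3_symm (Gmat G ξ (P3 v))
  rw [← BB_apply] at h2
  have h3 := Er_594.norm_le_P3 v
  have h4 : m * ‖v‖ ≤ m * ‖P3 v‖ := by gcongr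
  linarith

lemma BB_norm {G : Fin 3 → R3 → R3} {ξ : R3} {m : ℝ} (hm : 0 < m) (hA : Gmat G ξ ∈ LM m) :
    ‖BB G ξ‖ ≤ 1 / (m / 2) := by
  refine ContinuousLinearMap.opNorm_le_bound _ (by positivity) fun v => ?_
  have h1 := (hA (P3 v)).2
  have h2 := Er_594.norm_P3_symm_le (Gmat G ξ (P3 v))
  rw [← BB_apply] at h2
  have h3 := Er_594.norm_P3_le v
  rw [one_div_div, div_mul_eq_mul_div, le_div_iff₀ hm]
  nlinarith

/-- the point is in the cube. -/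
lemma mem_cube_of_AR {f : R3 → R3} {G : Fin 3 → R3 → R3} {ξ t : R3} {m : ℝ} (hm : 0 < m)
    (hA : Gmat G ξ ∈ LM m) {x : E3} {c : E3} {a b : ℝ} (h1 : ‖AR f G ξ t x - c‖ ≤ a)
    (h2 : ‖P3.symm (f ξ + t) - c‖ ≤ b) : P3 x ∈ cube ξ (2 * (a + b) / m) := by
  apply mem_cube_of_norm
  have h3 := (hA (P3 x - ξ)).1
  have h4 : BB G ξ (x - P3.symm ξ) = (AR f G ξ t x - c) - (P3.symm (f ξ + t) - c) := by
    rw [AR]; abel
  have h5 : ‖BB G ξ (x - P3.symm ξ)‖ ≤ a + b := by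
    rw [h4]
    exact (norm_sub_le _ _).trans (add_le_add h1 h2)
  have h6 : Gmat G ξ (P3 x - ξ) = P3 (BB G ξ (x - P3.symm ξ)) := by
    have h8 : P3 (x - P3.symm ξ) = P3 x - ξ := by rw [map_sub, P3.apply_symm_apply]
    rw [BB_apply, P3.apply_symm_apply, h8]
  have h7 := Er_594.norm_P3_le (BB G ξ (x - P3.symm ξ))
  rw [← h6] at h7
  rw [le_div_iff₀ hm]
  linarith

/-- `L^p` closeness of the transported gradient over the region. -/
theorem lp_of_good {Ω : Set R3} {f : R3 → R3} {G G' : Fin 3 → R3 → R3} {p : ℝ} (hp : 1 ≤ p)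
    {κ : R3 → ℝ} {ξ : R3} {r θ : ℝ} (hg : GoodAt Ω f G p κ ξ r) {S : Set E3}
    (hS : S ⊆ P3 ⁻¹' cube ξ r) {U : Set R3} (hU : IsOpen U) (hSU : S ⊆ P3 ⁻¹' U)
    (hGG : ∀ᵐ x, x ∈ U → ∀ j, G' j x = G j x) (hθ : 2 ^ p * (κ ξ * r ^ 3) ≤ θ) :
    ∫⁻ x in S, ‖D3 G' x - BB G ξ‖ₑ ^ p ≤ ENNReal.ofReal θ := by
  have hp0 : 0 ≤ p := by linarith
  have h2p : (2 : ℝ≥0∞) ^ p = ENNReal.ofReal (2 ^ p) := by
    rw [← ENNReal.ofReal_rpow_of_nonneg (by norm_num) hp0]; norm_num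
  have h2t : (2 : ℝ≥0∞) ^ p ≠ ∞ := by rw [h2p]; exact ENNReal.ofReal_ne_top
  have hae : ∀ᵐ x ∂((volume : Measure E3).restrict (P3 ⁻¹' U)), ∀ j, G' j (P3 x) = G j (P3 x) := by
    have h1 : ∀ᵐ y ∂((volume : Measure R3).restrict U), ∀ j, G' j y = G j y := by
      rw [ae_restrict_iff' hU.measurableSet]
      exact hGG
    exact ae_P3.1 h1
  have hae' : ∀ᵐ x ∂((volume : Measure E3).restrict S), ∀ j, G' j (P3 x) = G j (P3 x) :=
    ae_restrict_of_ae_restrict_of_subset hSU hae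
  calc ∫⁻ x in S, ‖D3 G' x - BB G ξ‖ₑ ^ p
      ≤ ∫⁻ x in S, 2 ^ p * ∑ j, ‖G j (P3 x) - G j ξ‖ₑ ^ p := by
        apply lintegral_mono_ae
        filter_upwards [hae'] with x hx
        have h1 := le_sum_row (D3 G' x - BB G ξ) hp0
        refine h1.trans (le_of_eq ?_)
        congr 1
        refine Finset.sum_congr rfl fun j _ => ?_
        rw [row_sub, row_D3, BB, row_ofRows, hx j]
    _ = 2 ^ p * ∫⁻ x in S, ∑ j, ‖G j (P3 x) - G j ξ‖ₑ ^ p := lintegral_const_mul' _ _ h2t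
    _ ≤ 2 ^ p * ∫⁻ x in P3 ⁻¹' cube ξ r, ∑ j, ‖G j (P3 x) - G j ξ‖ₑ ^ p := by
        gcongr
    _ = 2 ^ p * ∫⁻ y in cube ξ r, ∑ j, ‖G j y - G j ξ‖ₑ ^ p := by
        rw [lint_P3 (cube ξ r) (fun y => ∑ j, ‖G j y - G j ξ‖ₑ ^ p)]
    _ ≤ 2 ^ p * ENNReal.ofReal (κ ξ * r ^ 3) := by
        gcongr
        exact hg.int
    _ = ENNReal.ofReal (2 ^ p * (κ ξ * r ^ 3)) := by
        rw [h2p, ← ENNReal.ofReal_mul (show (0 : ℝ) ≤ 2 ^ p by positivity)]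
    _ ≤ ENNReal.ofReal θ := ENNReal.ofReal_le_ofReal hθ

/-- the function `κf`. -/
def kf (p κ1 κc m : ℝ) : ℝ :=
  min (κ1 * (1 / 3072) ^ 3 / (2 * 64 * 512 * 16 ^ p) * m ^ (p + 6)) (κc * m / 4)

lemma measurable_kf (p κ1 κc : ℝ) : Measurable (kf p κ1 κc) := by
  unfold kf
  fun_prop

lemma kf_pos {p κ1 κc m : ℝ} (h1 : 0 < κ1) (h2 : 0 < κc) (hm : 0 < m) : 0 < kf p κ1 κc m := by
  unfold kf
  have h3 : (0 : ℝ) < 16 ^ p := Real.rpow_pos_of_pos (by norm_num) p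
  have h4 : 0 < m ^ (p + 6) := Real.rpow_pos_of_pos hm _
  exact lt_min (by positivity) (by positivity)

/-- the number `θ` of `exIn_of` -/
lemma theta_ok {p κ1 κc m k lam s : ℝ} (hp : 0 ≤ p) (hκ1 : 0 < κ1) (hm : 0 < m) (hk0 : 0 ≤ k)
    (hk : k ≤ kf p κ1 κc m) (hs : 0 ≤ s) (hlam : 1 / 3072 ≤ lam) :
    2 * ((4 / (m / 2)) ^ p * (8 / (m / 2) ^ 3 * (2 ^ p * (k * (8 * s / m) ^ 3)))) ≤
      κ1 * (lam * s) ^ 3 := by
  have h16 : (0 : ℝ) < 16 ^ p := Real.rpow_pos_of_pos (by norm_num) p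
  have h1 : (4 / (m / 2)) ^ p * 2 ^ p = 16 ^ p / m ^ p := by
    rw [← Real.mul_rpow (by positivity) (by norm_num), ← Real.div_rpow (by norm_num) hm.le]
    congr 1
    field_simp
    norm_num
  have hmp : m ^ (p + 6) = m ^ p * m ^ 6 := by
    rw [Real.rpow_add hm]
    congr 1
    exact_mod_cast Real.rpow_natCast m 6
  have hmp0 : 0 < m ^ p := Real.rpow_pos_of_pos hm p
  have h2 : 2 * ((4 / (m / 2)) ^ p * (8 / (m / 2) ^ 3 * (2 ^ p * (k * (8 * s / m) ^ 3)))) =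
      (2 * 64 * 512 * 16 ^ p) / m ^ (p + 6) * k * s ^ 3 := by
    calc 2 * ((4 / (m / 2)) ^ p * (8 / (m / 2) ^ 3 * (2 ^ p * (k * (8 * s / m) ^ 3))))
        = ((4 / (m / 2)) ^ p * 2 ^ p) * (2 * (8 / (m / 2) ^ 3 * (k * (8 * s / m) ^ 3))) := by ring
      _ = (16 ^ p / m ^ p) * (2 * (8 / (m / 2) ^ 3 * (k * (8 * s / m) ^ 3))) := by rw [h1]
      _ = (2 * 64 * 512 * 16 ^ p) / m ^ (p + 6) * k * s ^ 3 := by
          rw [hmp]
          field_simp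
          ring
  have h3 : k ≤ κ1 * (1 / 3072) ^ 3 / (2 * 64 * 512 * 16 ^ p) * m ^ (p + 6) := hk.trans (min_le_left _ _)
  have hmp6 : 0 < m ^ (p + 6) := Real.rpow_pos_of_pos hm _
  rw [h2]
  calc (2 * 64 * 512 * 16 ^ p) / m ^ (p + 6) * k * s ^ 3
      ≤ (2 * 64 * 512 * 16 ^ p) / m ^ (p + 6) *
        (κ1 * (1 / 3072) ^ 3 / (2 * 64 * 512 * 16 ^ p) * m ^ (p + 6)) * s ^ 3 := by gcongr
    _ = κ1 * ((1 / 3072) * s) ^ 3 := by field_simp
    _ ≤ κ1 * (lam * s) ^ 3 := by gcongr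

end

end Crest.Agent.R096.Rg3_766
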