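import Crest.Agent.R096.Rg3d_766
import Crest.Agent.R096.Dz1_466
import Crest.Agent.R096.Br2_695

/-!
Row 96 (S0127), helper766.  Range `p > 2`, part e: measure theory of ONE exact core (`ExIn`).
-/

set_option autoImplicit false
set_option linter.unusedSectionVars false
set_option linter.style.longLine false
set_option linter.style.haveILetI false
set_option linter.unusedVariables false

namespace Crest.Agent.R096.Rg3_766

open MeasureTheory Set Filter Topology Metric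
open scoped ENNReal NNReal
open Crest.Agent.R096.SkC1_961 (E3 Hom3)
open Crest.Agent.R096.EaX_766 Crest.Agent.R096.Bsp_628
open Crest.Agent.R096.Bxs_627 (ctr)

noncomputable section

/-- volume of the brick -/
def vQ (Q : Bx (Fin 3)) : ℝ := ∏ k, Q.side k

lemma vQ_pos {Q : Bx (Fin 3)} (hQ : Q.Pos) : 0 < vQ Q :=
  Finset.prod_pos fun k _ => Bx.side_pos hQ k

lemma sz_le_vQ {Q : Bx (Fin 3)} (hQ : Q.Pos) (asp : ∀ i, Q.sz ≤ 3 * Q.side i) :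
    Q.sz ^ 3 ≤ 27 * vQ Q := by
  have hs := Bx.sz_pos hQ
  unfold vQ
  rw [Fin.prod_univ_three]
  have h0 := Bx.side_pos hQ 0
  have h1 := Bx.side_pos hQ 1
  have h2 := Bx.side_pos hQ 2
  calc Q.sz ^ 3 = Q.sz * Q.sz * Q.sz := by ring
    _ ≤ (3 * Q.side 0) * (3 * Q.side 1) * (3 * Q.side 2) := by
        gcongr
        · exact asp 0
        · exact asp 1
        · exact asp 2
    _ = 27 * (Q.side 0 * Q.side 1 * Q.side 2) := by ring

lemma vol_cbx {Q : Bx (Fin 3)} (hQ : Q.Pos) {a : ℝ} (ha : 0 ≤ a) :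
    volume (cbx Q a) = ENNReal.ofReal (a ^ 3 * vQ Q) := by
  have h1 : cbx Q a = Icc (fun k => ctr Q k - a * Q.side k / 2) (fun k => ctr Q k + a * Q.side k / 2) := by
    ext y
    simp only [cbx, mem_ofPred_eq, mem_Icc, Pi.le_def, abs_le]
    constructor
    · intro h
      exact ⟨fun k => by linarith [(h k).1], fun k => by linarith [(h k).2]⟩
    · rintro ⟨h2, h3⟩ k
      exact ⟨by linarith [h2 k], by linarith [h3 k]⟩
  rw [h1, Real.volume_Icc_pi]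
  rw [← ENNReal.ofReal_prod_of_nonneg (fun k _ => by
    have := Bx.side_pos hQ k
    have h2 : 0 ≤ a * Q.side k := by positivity
    linarith)]
  congr 1
  unfold vQ
  rw [Fin.prod_univ_three, Fin.prod_univ_three]
  ring

lemma det_ne (A : E3 ≃ᵃ[ℝ] E3) : (lin A).det ≠ 0 := by
  intro h
  have h1 := vol_preimage A univ
  rw [h] at h1
  simp at h1

/-- the volume of the whole preimage of the brick -/
def wA (Q : Bx (Fin 3)) (A : E3 ≃ᵃ[ℝ] E3) : ℝ := vQ Q / |(lin A).det|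

lemma wA_pos {Q : Bx (Fin 3)} (hQ : Q.Pos) (A : E3 ≃ᵃ[ℝ] E3) : 0 < wA Q A :=
  div_pos (vQ_pos hQ) (abs_pos.2 (det_ne A))

lemma vol_pre {Q : Bx (Fin 3)} (hQ : Q.Pos) (A : E3 ≃ᵃ[ℝ] E3) {a : ℝ} (ha : 0 ≤ a) :
    volume (A ⁻¹' cbx Q a) = ENNReal.ofReal (a ^ 3 * wA Q A) := by
  have hd : 0 < |(lin A).det| := abs_pos.2 (det_ne A)
  have h1 := vol_preimage A (cbx Q a)
  rw [vol_cbx hQ ha] at h1
  have h2 : ENNReal.ofReal |(lin A).det| ≠ 0 := by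
    rw [ENNReal.ofReal_ne_zero_iff]; exact hd
  have h3 : ENNReal.ofReal |(lin A).det| * ENNReal.ofReal (a ^ 3 * wA Q A) =
      ENNReal.ofReal (a ^ 3 * vQ Q) := by
    rw [← ENNReal.ofReal_mul hd.le]
    congr 1
    unfold wA
    field_simp
  rw [← h3] at h1
  exact (ENNReal.mul_right_inj h2 ENNReal.ofReal_ne_top).1 h1

lemma measurable_pre (A : E3 ≃ᵃ[ℝ] E3) (Q : Bx (Fin 3)) (a : ℝ) :
    MeasurableSet (A ⁻¹' cbx Q a) := by
  have hc : Continuous A := A.continuous_of_finiteDimensional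
  have h1 : IsClosed (cbx Q a) := by
    have : cbx Q a = ⋂ k : Fin 3, {y : E3 | |y k - ctr Q k| ≤ a * Q.side k / 2} := by
      ext y; simp [cbx]
    rw [this]
    exact isClosed_iInter fun k => isClosed_le (by fun_prop) continuous_const
  exact (h1.preimage hc).measurableSet

variable {p : ℝ} {Om : Set E3} {f : E3 → E3} {D : E3 → E3 →L[ℝ] E3} {o : E3} {u κ1 κ2 : ℝ}
  {Q : Bx (Fin 3)} {A : E3 ≃ᵃ[ℝ] E3} {lam : ℝ}

lemma exIn_mono (h : ExIn p Om f D o u κ1 κ2 Q A lam) {κ1' : ℝ} (hκ : κ1 ≤ κ1') (hQ : Q.Pos)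
    (hl : 0 < lam) : ExIn p Om f D o u κ1' κ2 Q A lam := by
  have hs := Bx.sz_pos hQ
  refine ⟨h.rat, fun x hx => ⟨(h.cor x hx).1, (h.cor x hx).2.trans (by gcongr)⟩,
    h.lp.trans (ENNReal.ofReal_le_ofReal (by gcongr))⟩

lemma lin_symm_comp (A : E3 ≃ᵃ[ℝ] E3) (v : E3) : lin A.symm (lin A v) = v :=
  A.linear.symm_apply_apply v

/-- **`L^p` closeness to `lin A` on the enlarged core.** -/
theorem exIn_lp (h : ExIn p Om f D o u κ1 κ2 Q A lam) (hp : 0 ≤ p) (hQ : Q.Pos)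
    (asp : ∀ i, Q.sz ≤ 3 * Q.side i) (hl : 0 < lam) (hκ1 : 0 ≤ κ1) :
    ∫⁻ x in A ⁻¹' cbx Q ((1 + 2 * κ2) * lam), ‖D x - lin A‖ₑ ^ p ≤
      ENNReal.ofReal (27 * κ1) * (‖lin A‖ₑ ^ p * volume (A ⁻¹' cbx Q lam)) := by
  have hs := Bx.sz_pos hQ
  have hd : 0 < |(lin A).det| := abs_pos.2 (det_ne A)
  have hpt : ∀ x, ‖D x - lin A‖ₑ ^ p ≤
      ‖lin A‖ₑ ^ p * ‖(D x).comp (lin A.symm) - ContinuousLinearMap.id ℝ E3‖ₑ ^ p := by
    intro x
    have h1 : D x - lin A = ((D x).comp (lin A.symm) - ContinuousLinearMap.id ℝ E3).comp (lin A) := by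
      ext1 v
      simp only [sub_apply, ContinuousLinearMap.comp_apply,
        ContinuousLinearMap.id_apply, lin_symm_comp]
    have h2 : ‖D x - lin A‖ ≤ ‖lin A‖ * ‖(D x).comp (lin A.symm) - ContinuousLinearMap.id ℝ E3‖ := by
      conv_lhs => rw [h1]
      rw [mul_comm]
      exact ContinuousLinearMap.opNorm_comp_le _ _
    rw [← ENNReal.mul_rpow_of_nonneg _ _ hp]
    apply ENNReal.rpow_le_rpow _ hp
    rw [← ofReal_norm, ← ofReal_norm, ← ofReal_norm, ← ENNReal.ofReal_mul (norm_nonneg _)]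
    exact ENNReal.ofReal_le_ofReal h2
  have htop : ‖lin A‖ₑ ^ p ≠ ∞ := ENNReal.rpow_ne_top_of_nonneg hp enorm_ne_top
  set I : ℝ≥0∞ := ∫⁻ x in A ⁻¹' cbx Q ((1 + 2 * κ2) * lam),
    ‖(D x).comp (lin A.symm) - ContinuousLinearMap.id ℝ E3‖ₑ ^ p with hI
  have hI1 : ENNReal.ofReal |(lin A).det| * I ≤ ENNReal.ofReal (κ1 * (lam * Q.sz) ^ 3) := h.lp
  have hI2 : I ≤ ENNReal.ofReal (27 * κ1) * volume (A ⁻¹' cbx Q lam) := by
    have h2 : ENNReal.ofReal |(lin A).det| ≠ 0 := by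
      rw [ENNReal.ofReal_ne_zero_iff]; exact hd
    rw [← ENNReal.mul_le_mul_iff_right h2 ENNReal.ofReal_ne_top]
    refine hI1.trans ?_
    rw [vol_pre hQ A hl.le, ← ENNReal.ofReal_mul (by positivity), ← ENNReal.ofReal_mul hd.le]
    apply ENNReal.ofReal_le_ofReal
    have h3 := sz_le_vQ hQ asp
    have h4 : |(lin A).det| * (27 * κ1 * (lam ^ 3 * wA Q A)) = κ1 * lam ^ 3 * (27 * vQ Q) := by
      unfold wA
      field_simp
    rw [h4]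
    calc κ1 * (lam * Q.sz) ^ 3 = κ1 * lam ^ 3 * Q.sz ^ 3 := by ring
      _ ≤ κ1 * lam ^ 3 * (27 * vQ Q) := by gcongr
  calc ∫⁻ x in A ⁻¹' cbx Q ((1 + 2 * κ2) * lam), ‖D x - lin A‖ₑ ^ p
      ≤ ∫⁻ x in A ⁻¹' cbx Q ((1 + 2 * κ2) * lam),
        ‖lin A‖ₑ ^ p * ‖(D x).comp (lin A.symm) - ContinuousLinearMap.id ℝ E3‖ₑ ^ p :=
        lintegral_mono fun x => hpt x
    _ = ‖lin A‖ₑ ^ p * I := lintegral_const_mul' _ _ htop
    _ ≤ ‖lin A‖ₑ ^ p * (ENNReal.ofReal (27 * κ1) * volume (A ⁻¹' cbx Q lam)) := by gcongr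
    _ = ENNReal.ofReal (27 * κ1) * (‖lin A‖ₑ ^ p * volume (A ⁻¹' cbx Q lam)) := by ring

lemma enorm_le_add (a b : E3 →L[ℝ] E3) : ‖a‖ₑ ≤ ‖b - a‖ₑ + ‖b‖ₑ := by
  rw [← ofReal_norm, ← ofReal_norm, ← ofReal_norm, ← ENNReal.ofReal_add (norm_nonneg _) (norm_nonneg _)]
  apply ENNReal.ofReal_le_ofReal
  have h2 : a = b - (b - a) := by abel
  calc ‖a‖ = ‖b - (b - a)‖ := by rw [← h2]
    _ ≤ ‖b‖ + ‖b - a‖ := norm_sub_le _ _
    _ = ‖b - a‖ + ‖b‖ := add_comm _ _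

lemma le_two_mul_of_half {X a : ℝ≥0∞} (hX : X ≠ ∞) (h : X ≤ a + 2⁻¹ * X) : X ≤ 2 * a := by
  have h1 : X = 2⁻¹ * X + 2⁻¹ * X := by
    rw [← add_mul, ENNReal.inv_two_add_inv_two, one_mul]
  have h2 : 2⁻¹ * X ≠ ∞ := ENNReal.mul_ne_top (by simp) hX
  have h3 : 2⁻¹ * X ≤ a := by
    have h4 : 2⁻¹ * X + 2⁻¹ * X ≤ a + 2⁻¹ * X := by rw [← h1]; exact h
    exact (ENNReal.add_le_add_iff_right h2).1 h4
  calc X = 2⁻¹ * X + 2⁻¹ * X := h1
    _ ≤ a + a := add_le_add h3 h3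
    _ = 2 * a := (two_mul a).symm

/-- **energy of the affine map on the core ≤ energy of `f`.** -/
theorem exIn_energy (h : ExIn p Om f D o u κ1 κ2 Q A lam)
    (hDm : AEStronglyMeasurable D (volume.restrict Om)) (hp : 0 ≤ p) (hQ : Q.Pos)
    (asp : ∀ i, Q.sz ≤ 3 * Q.side i) (hl : 0 < lam) (hκ1 : 0 ≤ κ1) (hκ2 : 0 ≤ κ2)
    (hκ : 2 ^ p * (27 * κ1) ≤ 1 / 2) :
    ‖lin A‖ₑ ^ p * volume (A ⁻¹' cbx Q lam) ≤
      2 ^ (p + 1) * ∫⁻ x in A ⁻¹' cbx Q lam, ‖D x‖ₑ ^ p := by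
  set X : ℝ≥0∞ := ‖lin A‖ₑ ^ p * volume (A ⁻¹' cbx Q lam) with hX
  have htop : ‖lin A‖ₑ ^ p ≠ ∞ := ENNReal.rpow_ne_top_of_nonneg hp enorm_ne_top
  have h2t : (2 : ℝ≥0∞) ^ p ≠ ∞ := ENNReal.rpow_ne_top_of_nonneg hp (by norm_num)
  have hXt : X ≠ ∞ := ENNReal.mul_ne_top htop (by rw [vol_pre hQ A hl.le]; exact ENNReal.ofReal_ne_top)
  have hsub : A ⁻¹' cbx Q lam ⊆ A ⁻¹' cbx Q ((1 + 2 * κ2) * lam) := by
    apply preimage_mono
    apply cbx_mono hQ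
    nlinarith
  have hKO : A ⁻¹' cbx Q lam ⊆ Om := fun x hx => (h.cor x (Or.inr (hsub hx))).1
  have hDK : AEStronglyMeasurable D (volume.restrict (A ⁻¹' cbx Q lam)) := hDm.mono_set hKO
  have hmm : AEMeasurable (fun x => ‖D x - lin A‖ₑ ^ p) (volume.restrict (A ⁻¹' cbx Q lam)) :=
    ((hDK.sub aestronglyMeasurable_const).enorm).pow_const p
  have h1 : X ≤ 2 ^ p * (∫⁻ x in A ⁻¹' cbx Q lam, ‖D x‖ₑ ^ p) + 2⁻¹ * X := by
    calc X = ∫⁻ x in A ⁻¹' cbx Q lam, ‖lin A‖ₑ ^ p := by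
          rw [lintegral_const, Measure.restrict_apply_univ]
      _ ≤ ∫⁻ x in A ⁻¹' cbx Q lam, 2 ^ p * (‖D x - lin A‖ₑ ^ p + ‖D x‖ₑ ^ p) := by
          refine lintegral_mono fun x => ?_
          refine (ENNReal.rpow_le_rpow ?_ hp).trans (add_rpow_le _ _ hp)
          exact enorm_le_add _ _
      _ = 2 ^ p * ∫⁻ x in A ⁻¹' cbx Q lam, (‖D x - lin A‖ₑ ^ p + ‖D x‖ₑ ^ p) :=
          lintegral_const_mul' _ _ h2t
      _ ≤ 2 ^ p * ((∫⁻ x in A ⁻¹' cbx Q lam, ‖D x - lin A‖ₑ ^ p) +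
            ∫⁻ x in A ⁻¹' cbx Q lam, ‖D x‖ₑ ^ p) := by
          rw [lintegral_add_left' hmm]
      _ ≤ 2 ^ p * (ENNReal.ofReal (27 * κ1) * X + ∫⁻ x in A ⁻¹' cbx Q lam, ‖D x‖ₑ ^ p) := by
          gcongr
          exact (lintegral_mono_set hsub).trans (exIn_lp h hp hQ asp hl hκ1)
      _ = 2 ^ p * (∫⁻ x in A ⁻¹' cbx Q lam, ‖D x‖ₑ ^ p) + 2 ^ p * ENNReal.ofReal (27 * κ1) * X := by
          ring
      _ ≤ 2 ^ p * (∫⁻ x in A ⁻¹' cbx Q lam, ‖D x‖ₑ ^ p) + 2⁻¹ * X := by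
          gcongr
          have h2p : (2 : ℝ≥0∞) ^ p = ENNReal.ofReal (2 ^ p) := by
            rw [← ENNReal.ofReal_rpow_of_nonneg (by norm_num) hp]; norm_num
          rw [h2p, ← ENNReal.ofReal_mul (by positivity)]
          refine (ENNReal.ofReal_le_ofReal hκ).trans (le_of_eq ?_)
          rw [one_div, ENNReal.ofReal_inv_of_pos (by norm_num)]
          norm_num
  refine (le_two_mul_of_half hXt h1).trans (le_of_eq ?_)
  rw [← mul_assoc, ENNReal.rpow_add _ _ (by norm_num) (by norm_num), ENNReal.rpow_one, mul_comm (2 : ℝ≥0∞)]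

end

end Crest.Agent.R096.Rg3_766
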