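import Crest.Agent.R096.Rg3e_766

/-!
Row 96 (S0127), helper766.  Range `p > 2`, part f: accounting over all cores.
-/

set_option autoImplicit false
set_option linter.unusedSectionVars false
set_option linter.style.longLine false
set_option linter.style.haveILetI false
set_option linter.unusedVariables false

namespace Crest.Agent.R096.Rg3_766

open MeasureTheory Set Filter Topology Metric
open scoped ENNReal NNReal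
open Crest.Agent.R096.SkC1_961 (E3 Hom3)

noncomputable section

lemma two_rpow_ne_top {p : ℝ} (hp : 0 ≤ p) : (2 : ℝ≥0∞) ^ p ≠ ∞ :=
  ENNReal.rpow_ne_top_of_nonneg hp (by norm_num)

lemma one_le_two_rpow {p : ℝ} (hp : 0 ≤ p) : (1 : ℝ≥0∞) ≤ 2 ^ p := by
  calc (1 : ℝ≥0∞) = 1 ^ p := (ENNReal.one_rpow p).symm
    _ ≤ 2 ^ p := ENNReal.rpow_le_rpow (by norm_num) hp

lemma enorm_add_le3 (a b : E3 →L[ℝ] E3) : ‖a + b‖ₑ ≤ ‖a‖ₑ + ‖b‖ₑ := by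
  rw [← ofReal_norm, ← ofReal_norm, ← ofReal_norm,
    ← ENNReal.ofReal_add (norm_nonneg _) (norm_nonneg _)]
  exact ENNReal.ofReal_le_ofReal (norm_add_le _ _)

lemma enorm_neg3 (a : E3 →L[ℝ] E3) : ‖-a‖ₑ = ‖a‖ₑ := by
  rw [← ofReal_norm, ← ofReal_norm, norm_neg]

/-- `∫ ‖h‖^p` from `∫ ‖h - M‖^p` -/
lemma lint_h_le {p : ℝ} (hp : 0 ≤ p) (S : Set E3) (h : E3 → E3 →L[ℝ] E3) (M : E3 →L[ℝ] E3) :
    ∫⁻ x in S, ‖h x‖ₑ ^ p ≤ 2 ^ p * ((∫⁻ x in S, ‖h x - M‖ₑ ^ p) + ‖M‖ₑ ^ p * volume S) := by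
  calc ∫⁻ x in S, ‖h x‖ₑ ^ p ≤ ∫⁻ x in S, 2 ^ p * (‖h x - M‖ₑ ^ p + ‖M‖ₑ ^ p) := by
        refine lintegral_mono fun x => ?_
        refine (ENNReal.rpow_le_rpow ?_ hp).trans (add_rpow_le _ _ hp)
        have h1 : h x = (h x - M) + M := by abel
        conv_lhs => rw [h1]
        exact enorm_add_le3 _ _
    _ = 2 ^ p * ∫⁻ x in S, (‖h x - M‖ₑ ^ p + ‖M‖ₑ ^ p) :=
        lintegral_const_mul' _ _ (two_rpow_ne_top hp)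
    _ = 2 ^ p * ((∫⁻ x in S, ‖h x - M‖ₑ ^ p) + ‖M‖ₑ ^ p * volume S) := by
        rw [lintegral_add_right _ measurable_const, lintegral_const, Measure.restrict_apply_univ]

lemma lint_sub_le {p : ℝ} (hp : 0 ≤ p) (S : Set E3) (h D : E3 → E3 →L[ℝ] E3) (M : E3 →L[ℝ] E3)
    (hD : AEStronglyMeasurable D (volume.restrict S)) :
    ∫⁻ x in S, ‖h x - D x‖ₑ ^ p ≤
      2 ^ p * ((∫⁻ x in S, ‖h x - M‖ₑ ^ p) + ∫⁻ x in S, ‖M - D x‖ₑ ^ p) := by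
  have hm : AEMeasurable (fun x => ‖M - D x‖ₑ ^ p) (volume.restrict S) :=
    ((aestronglyMeasurable_const.sub hD).enorm).pow_const p
  calc ∫⁻ x in S, ‖h x - D x‖ₑ ^ p ≤ ∫⁻ x in S, 2 ^ p * (‖h x - M‖ₑ ^ p + ‖M - D x‖ₑ ^ p) := by
        refine lintegral_mono fun x => ?_
        refine (ENNReal.rpow_le_rpow ?_ hp).trans (add_rpow_le _ _ hp)
        have h1 : h x - D x = (h x - M) + (M - D x) := by abel
        rw [h1]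
        exact enorm_add_le3 _ _
    _ = 2 ^ p * ∫⁻ x in S, (‖h x - M‖ₑ ^ p + ‖M - D x‖ₑ ^ p) :=
        lintegral_const_mul' _ _ (two_rpow_ne_top hp)
    _ = 2 ^ p * ((∫⁻ x in S, ‖h x - M‖ₑ ^ p) + ∫⁻ x in S, ‖M - D x‖ₑ ^ p) := by
        rw [lintegral_add_right' _ hm]

lemma smul_enorm_rpow {p : ℝ} (hp : 0 ≤ p) {a : ℝ} (ha : 0 ≤ a) (L : E3 →L[ℝ] E3) :
    ‖a • L‖ₑ ^ p = ENNReal.ofReal a ^ p * ‖L‖ₑ ^ p := by
  rw [enorm_smul, ENNReal.mul_rpow_of_nonneg _ _ hp, Real.enorm_eq_ofReal ha]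

/-- one bad core -/
lemma bad_core {p : ℝ} (hp : 0 ≤ p) {S : Set E3} {h : E3 → E3 →L[ℝ] E3} {L : E3 →L[ℝ] E3} {lam ρ : ℝ}
    (hρ1 : ρ ≤ 1) (hl : 1 / 3072 ≤ lam)
    (hc : (∫⁻ x in S, ‖h x - lam⁻¹ • L‖ₑ ^ p) ≤ ENNReal.ofReal ρ * (‖L‖ₑ ^ p * volume S)) :
    ∫⁻ x in S, ‖h x‖ₑ ^ p ≤ 2 ^ p * (1 + 3072 ^ p) * (‖L‖ₑ ^ p * volume S) := by
  have hl0 : 0 < lam := by linarith
  have h1 : ENNReal.ofReal lam⁻¹ ^ p ≤ 3072 ^ p := by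
    apply ENNReal.rpow_le_rpow _ hp
    have : lam⁻¹ ≤ 3072 := by
      rw [inv_le_comm₀ hl0 (by norm_num)]
      linarith
    refine (ENNReal.ofReal_le_ofReal this).trans (by norm_num)
  have h2 : ENNReal.ofReal ρ ≤ 1 := by
    rw [← ENNReal.ofReal_one]; exact ENNReal.ofReal_le_ofReal hρ1
  calc ∫⁻ x in S, ‖h x‖ₑ ^ p
      ≤ 2 ^ p * ((∫⁻ x in S, ‖h x - lam⁻¹ • L‖ₑ ^ p) + ‖lam⁻¹ • L‖ₑ ^ p * volume S) :=
        lint_h_le hp S h _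
    _ ≤ 2 ^ p * (1 * (‖L‖ₑ ^ p * volume S) + (3072 ^ p * ‖L‖ₑ ^ p) * volume S) := by
        rw [smul_enorm_rpow hp (inv_nonneg.2 hl0.le)]
        gcongr
        exact hc.trans (by gcongr)
    _ = 2 ^ p * (1 + 3072 ^ p) * (‖L‖ₑ ^ p * volume S) := by ring

/-- one good core -/
lemma good_core {p : ℝ} (hp : 1 ≤ p) {S : Set E3} {h D : E3 → E3 →L[ℝ] E3} {L : E3 →L[ℝ] E3}
    {lam ρ : ℝ} (hD : AEStronglyMeasurable D (volume.restrict S)) (hρ0 : 0 ≤ ρ)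
    (hρ1 : ρ ≤ 1) (hl : 0 < lam) (hl1 : lam ≤ 1) (hl2 : lam⁻¹ - 1 ≤ ρ)
    (hc : (∫⁻ x in S, ‖h x - lam⁻¹ • L‖ₑ ^ p) ≤ ENNReal.ofReal ρ * (‖L‖ₑ ^ p * volume S))
    (hDL : (∫⁻ x in S, ‖D x - L‖ₑ ^ p) ≤ ENNReal.ofReal ρ * (‖L‖ₑ ^ p * volume S)) :
    ∫⁻ x in S, ‖h x - D x‖ₑ ^ p ≤
      2 ^ p * (1 + 2 * 2 ^ p) * ENNReal.ofReal ρ * (‖L‖ₑ ^ p * volume S) := by
  have hp0 : 0 ≤ p := by linarith
  have h0 : 0 ≤ lam⁻¹ - 1 := by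
    have := (one_le_inv₀ hl).2 hl1
    linarith
  have h3 : ENNReal.ofReal (lam⁻¹ - 1) ^ p ≤ ENNReal.ofReal ρ := by
    refine (ENNReal.rpow_le_rpow (ENNReal.ofReal_le_ofReal hl2) hp0).trans ?_
    have h4 : ENNReal.ofReal ρ ≤ 1 := by
      rw [← ENNReal.ofReal_one]; exact ENNReal.ofReal_le_ofReal hρ1
    calc ENNReal.ofReal ρ ^ p ≤ ENNReal.ofReal ρ ^ (1 : ℝ) :=
          ENNReal.rpow_le_rpow_of_exponent_ge h4 hp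
      _ = ENNReal.ofReal ρ := ENNReal.rpow_one _
  have hMD : ∫⁻ x in S, ‖lam⁻¹ • L - D x‖ₑ ^ p ≤
      2 * 2 ^ p * ENNReal.ofReal ρ * (‖L‖ₑ ^ p * volume S) := by
    calc ∫⁻ x in S, ‖lam⁻¹ • L - D x‖ₑ ^ p
        ≤ ∫⁻ x in S, 2 ^ p * (‖D x - L‖ₑ ^ p + ‖(lam⁻¹ - 1) • L‖ₑ ^ p) := by
          refine lintegral_mono fun x => ?_
          refine (ENNReal.rpow_le_rpow ?_ hp0).trans (add_rpow_le _ _ hp0)
          have h1 : lam⁻¹ • L - D x = -(D x - L) + (lam⁻¹ - 1) • L := by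
            ext v k
            simp
            ring
          rw [h1]
          refine (enorm_add_le3 _ _).trans ?_
          rw [enorm_neg3]
      _ = 2 ^ p * ∫⁻ x in S, (‖D x - L‖ₑ ^ p + ‖(lam⁻¹ - 1) • L‖ₑ ^ p) :=
          lintegral_const_mul' _ _ (two_rpow_ne_top hp0)
      _ = 2 ^ p * ((∫⁻ x in S, ‖D x - L‖ₑ ^ p) + ENNReal.ofReal (lam⁻¹ - 1) ^ p * ‖L‖ₑ ^ p * volume S) := by
          rw [lintegral_add_right _ measurable_const, lintegral_const, Measure.restrict_apply_univ,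
            smul_enorm_rpow hp0 h0]
      _ ≤ 2 ^ p * (ENNReal.ofReal ρ * (‖L‖ₑ ^ p * volume S) +
            ENNReal.ofReal ρ * ‖L‖ₑ ^ p * volume S) := by gcongr
      _ = 2 * 2 ^ p * ENNReal.ofReal ρ * (‖L‖ₑ ^ p * volume S) := by ring
  calc ∫⁻ x in S, ‖h x - D x‖ₑ ^ p
      ≤ 2 ^ p * ((∫⁻ x in S, ‖h x - lam⁻¹ • L‖ₑ ^ p) + ∫⁻ x in S, ‖lam⁻¹ • L - D x‖ₑ ^ p) :=
        lint_sub_le hp0 S h D _ hD
    _ ≤ 2 ^ p * (ENNReal.ofReal ρ * (‖L‖ₑ ^ p * volume S) +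
          2 * 2 ^ p * ENNReal.ofReal ρ * (‖L‖ₑ ^ p * volume S)) := by gcongr
    _ = 2 ^ p * (1 + 2 * 2 ^ p) * ENNReal.ofReal ρ * (‖L‖ₑ ^ p * volume S) := by ring

/-- one shell -/
lemma shell_le {p : ℝ} (hp : 0 ≤ p) {T S K : Set E3} (hTS : T ⊆ S) {D : E3 → E3 →L[ℝ] E3}
    {L : E3 →L[ℝ] E3} {ρ : ℝ}
    (hDL : (∫⁻ x in S, ‖D x - L‖ₑ ^ p) ≤ ENNReal.ofReal ρ * (‖L‖ₑ ^ p * volume K))
    (hT : volume T ≤ ENNReal.ofReal ρ * volume K) :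
    ∫⁻ x in T, (1 + ‖D x‖ₑ ^ p) ≤
      2 * 2 ^ p * ENNReal.ofReal ρ * ((1 + ‖L‖ₑ ^ p) * volume K) := by
  have h1 := lint_h_le hp T D L
  have h2 : (∫⁻ x in T, ‖D x - L‖ₑ ^ p) ≤ ENNReal.ofReal ρ * (‖L‖ₑ ^ p * volume K) :=
    (lintegral_mono_set hTS).trans hDL
  have h3 : (1 : ℝ≥0∞) ≤ 2 * 2 ^ p := by
    calc (1 : ℝ≥0∞) ≤ 2 * 1 := by norm_num
      _ ≤ 2 * 2 ^ p := by gcongr; exact one_le_two_rpow hp
  calc ∫⁻ x in T, (1 + ‖D x‖ₑ ^ p) = volume T + ∫⁻ x in T, ‖D x‖ₑ ^ p := by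
        rw [lintegral_add_left measurable_const, lintegral_const, Measure.restrict_apply_univ, one_mul]
    _ ≤ ENNReal.ofReal ρ * volume K + 2 ^ p * (ENNReal.ofReal ρ * (‖L‖ₑ ^ p * volume K) +
          ‖L‖ₑ ^ p * (ENNReal.ofReal ρ * volume K)) := by
        gcongr
        exact h1.trans (by gcongr)
    _ = ENNReal.ofReal ρ * (1 * volume K) + 2 * 2 ^ p * ENNReal.ofReal ρ * (‖L‖ₑ ^ p * volume K) := by
        ring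
    _ ≤ ENNReal.ofReal ρ * ((2 * 2 ^ p) * volume K) +
          2 * 2 ^ p * ENNReal.ofReal ρ * (‖L‖ₑ ^ p * volume K) := by gcongr
    _ = 2 * 2 ^ p * ENNReal.ofReal ρ * ((1 + ‖L‖ₑ ^ p) * volume K) := by ring

/-! ### all cores -/

/-- **accounting.** -/
theorem acct {ι : Type*} [Countable ι] {p : ℝ} (hp : 1 ≤ p) {Om : Set E3} (hOm : MeasurableSet Om)
    {K : ι → Set E3} (hK : ∀ i, MeasurableSet (K i)) (hd : ∀ i j, i ≠ j → Disjoint (K i) (K j))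
    (hs : ∀ i, K i ⊆ Om)
    {L : ι → E3 →L[ℝ] E3} {lam : ι → ℝ} {good : Set ι} {D D0 h : E3 → E3 →L[ℝ] E3}
    (hDm : AEStronglyMeasurable D (volume.restrict Om))
    (hmass : ∀ i, ‖L i‖ₑ ^ p * volume (K i) ≤ 2 ^ (p + 1) * ∫⁻ x in K i, ‖D x‖ₑ ^ p)
    (hDD : ∀ᵐ x, x ∈ Om → ‖D x‖ₑ ^ p ≤ 25 ^ p * ‖D0 x‖ₑ ^ p)
    {ρ : ℝ} (hρ : 0 ≤ ρ) (hρ1 : ρ ≤ 1)
    (hcore : ∀ i, (∫⁻ x in K i, ‖h x - (lam i)⁻¹ • L i‖ₑ ^ p) ≤
      ENNReal.ofReal ρ * (‖L i‖ₑ ^ p * volume (K i)))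
    (hlam : ∀ i, 1 / 3072 ≤ lam i ∧ lam i ≤ 1)
    (hg1 : ∀ i ∈ good, (∫⁻ x in K i, ‖D x - L i‖ₑ ^ p) ≤
      ENNReal.ofReal ρ * (‖L i‖ₑ ^ p * volume (K i)))
    (hg2 : ∀ i ∈ good, (lam i)⁻¹ - 1 ≤ ρ)
    (hg3 : ∀ i ∈ good, ∀ᵐ x, x ∈ K i → D x = D0 x)
    {CE e1 : ℝ≥0∞} (hEA : (∫⁻ x in Om \ ⋃ i, K i, ‖h x‖ₑ ^ p) ≤
      CE * (∫⁻ x in Om \ ⋃ i, K i, (1 + ‖D x‖ₑ ^ p)) +
        ENNReal.ofReal ρ * (∑' i, (1 + ‖L i‖ₑ ^ p) * volume (K i)) + e1)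
    {T : ι → Set E3} (hT : ∀ i ∈ good, (∫⁻ x in T i, (1 + ‖D0 x‖ₑ ^ p)) ≤
      2 * 2 ^ p * ENNReal.ofReal ρ * ((1 + ‖L i‖ₑ ^ p) * volume (K i)))
    {Z Z0 : Set E3} {e2 : ℝ≥0∞} (hZ : (∫⁻ x in Z, (1 + ‖D0 x‖ₑ ^ p)) ≤ e2)
    (hcov : ∀ x ∈ Om, x ∉ Z0 → (∀ i ∈ good, x ∉ K i) → x ∈ Z ∨ ∃ i ∈ good, x ∈ T i)
    {B : ℝ≥0∞} (hB : 2 ^ (p + 1) * 25 ^ p * (∫⁻ x in Om, (1 + ‖D0 x‖ₑ ^ p)) ≤ B) :
    (∫⁻ x in ⋃ i ∈ good, K i, ‖h x - D0 x‖ₑ ^ p) ≤ 2 ^ p * (1 + 2 * 2 ^ p) * ENNReal.ofReal ρ * B ∧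
    (∫⁻ x in Om \ ⋃ i ∈ good, K i, ‖h x‖ₑ ^ p) ≤
      (CE * 25 ^ p + 2 ^ p * (1 + 3072 ^ p) * (2 ^ (p + 1) * 25 ^ p)) *
        (∫⁻ x in Om \ ⋃ i ∈ good, K i, (1 + ‖D0 x‖ₑ ^ p)) + (ENNReal.ofReal ρ * B + e1) ∧
    (∫⁻ x in (Om \ Z0) \ ⋃ i ∈ good, K i, (1 + ‖D0 x‖ₑ ^ p)) ≤
      e2 + 2 * 2 ^ p * ENNReal.ofReal ρ * B := by
  classical
  have hp0 : 0 ≤ p := by linarith
  have h25t : (25 : ℝ≥0∞) ^ p ≠ ∞ := ENNReal.rpow_ne_top_of_nonneg hp0 (by norm_num)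
  have h25 : (1 : ℝ≥0∞) ≤ 25 ^ p := by
    calc (1 : ℝ≥0∞) ≤ 2 ^ p := one_le_two_rpow hp0
      _ ≤ 25 ^ p := ENNReal.rpow_le_rpow (by norm_num) hp0
  have h2p1 : (1 : ℝ≥0∞) ≤ 2 ^ (p + 1) := one_le_two_rpow (by linarith)
  -- comparison of the energies of `D` and `D0`
  have hcmp : ∀ S : Set E3, S ⊆ Om → ∫⁻ x in S, (1 + ‖D x‖ₑ ^ p) ≤ 25 ^ p * ∫⁻ x in S, (1 + ‖D0 x‖ₑ ^ p) := by
    intro S hS
    rw [← lintegral_const_mul' _ _ h25t]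
    apply lintegral_mono_ae
    have hS' : ∀ᵐ x ∂(volume.restrict S), x ∈ Om :=
      ae_restrict_of_ae_restrict_of_subset hS (ae_restrict_mem hOm)
    filter_upwards [hS', ae_restrict_of_ae hDD] with x hx hx'
    rw [mul_add, mul_one]
    exact add_le_add h25 (hx' hx)
  -- mass of one core
  have hm1 : ∀ i, (1 + ‖L i‖ₑ ^ p) * volume (K i) ≤
      2 ^ (p + 1) * 25 ^ p * ∫⁻ x in K i, (1 + ‖D0 x‖ₑ ^ p) := by
    intro i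
    calc (1 + ‖L i‖ₑ ^ p) * volume (K i) = volume (K i) + ‖L i‖ₑ ^ p * volume (K i) := by ring
      _ ≤ 2 ^ (p + 1) * volume (K i) + 2 ^ (p + 1) * ∫⁻ x in K i, ‖D x‖ₑ ^ p := by
          refine add_le_add ?_ (hmass i)
          calc volume (K i) = 1 * volume (K i) := (one_mul _).symm
              _ ≤ 2 ^ (p + 1) * volume (K i) := by gcongr
      _ = 2 ^ (p + 1) * ∫⁻ x in K i, (1 + ‖D x‖ₑ ^ p) := by
          rw [lintegral_add_left measurable_const, lintegral_const, Measure.restrict_apply_univ,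
            one_mul, mul_add]
      _ ≤ 2 ^ (p + 1) * (25 ^ p * ∫⁻ x in K i, (1 + ‖D0 x‖ₑ ^ p)) := by
          gcongr
          exact hcmp _ (hs i)
      _ = _ := by ring
  have hpd : ∀ I : Set ι, I.PairwiseDisjoint K := fun I i _ j _ hij => hd i j hij
  have hsum : ∀ I : Set ι, ∑' i : I, (1 + ‖L i‖ₑ ^ p) * volume (K i) ≤
      2 ^ (p + 1) * 25 ^ p * ∫⁻ x in ⋃ i ∈ I, K i, (1 + ‖D0 x‖ₑ ^ p) := by
    intro I
    rw [lintegral_biUnion I.to_countable (fun i _ => hK i) (hpd I), ← ENNReal.tsum_mul_left]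
    exact ENNReal.tsum_le_tsum fun i => hm1 i
  have hsumB : ∀ I : Set ι, ∑' i : I, (1 + ‖L i‖ₑ ^ p) * volume (K i) ≤ B := by
    intro I
    refine (hsum I).trans (le_trans ?_ hB)
    gcongr
    exact iUnion₂_subset fun i _ => hs i
  have hsumBu : ∑' i, (1 + ‖L i‖ₑ ^ p) * volume (K i) ≤ B := by
    have := hsumB univ
    rwa [tsum_univ (fun i => (1 + ‖L i‖ₑ ^ p) * volume (K i))] at this
  refine ⟨?_, ?_, ?_⟩
  · -- good cores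
    rw [lintegral_biUnion good.to_countable (fun i _ => hK i) (hpd good)]
    calc ∑' i : good, ∫⁻ x in K i, ‖h x - D0 x‖ₑ ^ p
        ≤ ∑' i : good, 2 ^ p * (1 + 2 * 2 ^ p) * ENNReal.ofReal ρ *
            ((1 + ‖L i‖ₑ ^ p) * volume (K i)) := by
          refine ENNReal.tsum_le_tsum fun i => ?_
          have e1 : ∫⁻ x in K i, ‖h x - D0 x‖ₑ ^ p = ∫⁻ x in K i, ‖h x - D x‖ₑ ^ p := by
            apply lintegral_congr_ae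
            have := hg3 i i.2
            filter_upwards [ae_restrict_of_ae this, ae_restrict_mem (hK i)] with x hx hx'
            rw [hx hx']
          rw [e1]
          have hl := hlam i
          refine (good_core hp (hDm.mono_set (hs i)) hρ hρ1 (by linarith [hl.1]) hl.2 (hg2 i i.2)
            (hcore i) (hg1 i i.2)).trans ?_
          gcongr
          exact le_add_self
      _ = 2 ^ p * (1 + 2 * 2 ^ p) * ENNReal.ofReal ρ * ∑' i : good, (1 + ‖L i‖ₑ ^ p) * volume (K i) :=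
          ENNReal.tsum_mul_left
      _ ≤ 2 ^ p * (1 + 2 * 2 ^ p) * ENNReal.ofReal ρ * B := by
          gcongr
          exact hsumB good
  · -- off the good cores
    have hsub : Om \ ⋃ i ∈ good, K i ⊆ (Om \ ⋃ i, K i) ∪ ⋃ i ∈ goodᶜ, K i := by
      rintro x ⟨hx, hxg⟩
      by_cases hx2 : x ∈ ⋃ i, K i
      · obtain ⟨i, hi⟩ := mem_iUnion.1 hx2
        refine Or.inr (mem_iUnion₂.2 ⟨i, ?_, hi⟩)
        intro hig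
        exact hxg (mem_iUnion₂.2 ⟨i, hig, hi⟩)
      · exact Or.inl ⟨hx, hx2⟩
    have hsub1 : Om \ ⋃ i, K i ⊆ Om \ ⋃ i ∈ good, K i := by
      apply sdiff_subset_sdiff_right
      exact iUnion₂_subset fun i _ => subset_iUnion K i
    have hsub2 : ⋃ i ∈ goodᶜ, K i ⊆ Om \ ⋃ i ∈ good, K i := by
      refine iUnion₂_subset fun i hi x hx => ⟨hs i hx, ?_⟩
      intro hx2
      obtain ⟨j, hj, hxj⟩ := mem_iUnion₂.1 hx2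
      have hij : i ≠ j := by rintro rfl; exact hi hj
      exact (disjoint_left.1 (hd i j hij)) hx hxj
    have hbad : ∫⁻ x in ⋃ i ∈ goodᶜ, K i, ‖h x‖ₑ ^ p ≤
        2 ^ p * (1 + 3072 ^ p) * (2 ^ (p + 1) * 25 ^ p) *
          ∫⁻ x in Om \ ⋃ i ∈ good, K i, (1 + ‖D0 x‖ₑ ^ p) := by
      rw [lintegral_biUnion (goodᶜ).to_countable (fun i _ => hK i) (hpd goodᶜ)]
      calc ∑' i : (goodᶜ : Set ι), ∫⁻ x in K i, ‖h x‖ₑ ^ p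
          ≤ ∑' i : (goodᶜ : Set ι), 2 ^ p * (1 + 3072 ^ p) * ((1 + ‖L i‖ₑ ^ p) * volume (K i)) := by
            refine ENNReal.tsum_le_tsum fun i => ?_
            refine (bad_core hp0 hρ1 (hlam i).1 (hcore i)).trans ?_
            gcongr
            exact le_add_self
        _ = 2 ^ p * (1 + 3072 ^ p) * ∑' i : (goodᶜ : Set ι), (1 + ‖L i‖ₑ ^ p) * volume (K i) :=
            ENNReal.tsum_mul_left
        _ ≤ 2 ^ p * (1 + 3072 ^ p) * (2 ^ (p + 1) * 25 ^ p *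
              ∫⁻ x in ⋃ i ∈ goodᶜ, K i, (1 + ‖D0 x‖ₑ ^ p)) := by
            gcongr
            exact hsum goodᶜ
        _ ≤ 2 ^ p * (1 + 3072 ^ p) * (2 ^ (p + 1) * 25 ^ p *
              ∫⁻ x in Om \ ⋃ i ∈ good, K i, (1 + ‖D0 x‖ₑ ^ p)) := by
            gcongr
        _ = _ := by ring
    calc ∫⁻ x in Om \ ⋃ i ∈ good, K i, ‖h x‖ₑ ^ p
        ≤ ∫⁻ x in (Om \ ⋃ i, K i) ∪ ⋃ i ∈ goodᶜ, K i, ‖h x‖ₑ ^ p := lintegral_mono_set hsub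
      _ ≤ (∫⁻ x in Om \ ⋃ i, K i, ‖h x‖ₑ ^ p) + ∫⁻ x in ⋃ i ∈ goodᶜ, K i, ‖h x‖ₑ ^ p :=
          lintegral_union_le _ _ _
      _ ≤ (CE * (25 ^ p * ∫⁻ x in Om \ ⋃ i ∈ good, K i, (1 + ‖D0 x‖ₑ ^ p)) +
            ENNReal.ofReal ρ * B + e1) +
          2 ^ p * (1 + 3072 ^ p) * (2 ^ (p + 1) * 25 ^ p) *
            ∫⁻ x in Om \ ⋃ i ∈ good, K i, (1 + ‖D0 x‖ₑ ^ p) := by
          refine add_le_add ?_ hbad
          refine hEA.trans ?_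
          gcongr
          exact (hcmp _ sdiff_subset).trans (by gcongr)
      _ = _ := by ring
  · -- the rest
    have hsub : (Om \ Z0) \ ⋃ i ∈ good, K i ⊆ Z ∪ ⋃ i ∈ good, T i := by
      rintro x ⟨⟨hx, hxZ⟩, hxK⟩
      rcases hcov x hx hxZ (fun i hi hxi => hxK (mem_iUnion₂.2 ⟨i, hi, hxi⟩)) with h1 | ⟨i, hi, h1⟩
      · exact Or.inl h1
      · exact Or.inr (mem_iUnion₂.2 ⟨i, hi, h1⟩)
    calc ∫⁻ x in (Om \ Z0) \ ⋃ i ∈ good, K i, (1 + ‖D0 x‖ₑ ^ p)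
        ≤ ∫⁻ x in Z ∪ ⋃ i ∈ good, T i, (1 + ‖D0 x‖ₑ ^ p) := lintegral_mono_set hsub
      _ ≤ (∫⁻ x in Z, (1 + ‖D0 x‖ₑ ^ p)) + ∫⁻ x in ⋃ i ∈ good, T i, (1 + ‖D0 x‖ₑ ^ p) :=
          lintegral_union_le _ _ _
      _ ≤ e2 + ∑' i : good, ∫⁻ x in T i, (1 + ‖D0 x‖ₑ ^ p) := by
          gcongr
          rw [biUnion_eq_iUnion]
          exact lintegral_iUnion_le _ _
      _ ≤ e2 + ∑' i : good, 2 * 2 ^ p * ENNReal.ofReal ρ * ((1 + ‖L i‖ₑ ^ p) * volume (K i)) := by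
          gcongr with i
          exact hT i i.2
      _ = e2 + 2 * 2 ^ p * ENNReal.ofReal ρ * ∑' i : good, (1 + ‖L i‖ₑ ^ p) * volume (K i) := by
          rw [ENNReal.tsum_mul_left]
      _ ≤ e2 + 2 * 2 ^ p * ENNReal.ofReal ρ * B := by
          gcongr
          exact hsumB good

end

end Crest.Agent.R096.Rg3_766
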