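import Crest.Agent.R096.Rg3g_766
import Crest.Agent.R096.Sta1_161

/-!
Row 96 (S0127), helper766.  Range `p ≥ 3`, part h: **`BFk p` from `EA p`**.
-/

set_option autoImplicit false
set_option linter.unusedSectionVars false
set_option linter.style.longLine false
set_option linter.style.haveILetI false
set_option linter.unusedVariables false

namespace Crest.Agent.R096.Rg3_766

open MeasureTheory Set Filter Topology Metric
open scoped ENNReal NNReal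
open Crest.AnalysisR.VecCalc3 Crest.AnalysisR.Sobolev
open Crest.Agent.R096.SkC1_961 (E3 Hom3)
open Crest.Agent.R096.EaX_766 Crest.Agent.R096.Bsp_628 Crest.Agent.R096.Prep_766
open Crest.Agent.R096.Bxs_627 hiding E3
open Crest.Agent.R096.Er_594
open Crest.Agent.R096.Osc_802 Crest.Agent.R096.VolC2_766 Crest.Agent.R96.Lu_538
open Crest.Agent.R096.ThC6_766 Crest.Agent.R096.Sel_766 Crest.Agent.R096.Toph_766
open Crest.Agent.R96.En10_199
open Crest.Agent.R096.Sk_962 (SH)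
open Crest.Agent.R096.Sk4_663 (Zd)

noncomputable section

/-- energies of `R3` from `E3` -/
lemma lint_one_le {R : Set R3} {p : ℝ} (hp : 0 ≤ p) (G : Fin 3 → R3 → R3) :
    ∫⁻ y in R, (1 + ∑ j, ‖G j y‖ₑ ^ p) ≤ 3 * ∫⁻ x in P3 ⁻¹' R, (1 + ‖D3 G x‖ₑ ^ p) := by
  rw [lint_P3, ← lintegral_const_mul' _ _ (by norm_num)]
  refine lintegral_mono fun x => ?_
  have h1 := sum_row_le (D3 G x) hp
  simp only [row_D3] at h1
  change 1 + ∑ j, ‖G j (P3 x)‖ₑ ^ p ≤ 3 * (1 + ‖D3 G x‖ₑ ^ p)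
  calc 1 + ∑ j, ‖G j (P3 x)‖ₑ ^ p ≤ 3 + 3 * ‖D3 G x‖ₑ ^ p := add_le_add (by norm_num) h1
    _ = 3 * (1 + ‖D3 G x‖ₑ ^ p) := by ring

lemma le_lint_one {R : Set R3} {p : ℝ} (hp : 0 ≤ p) (G : Fin 3 → R3 → R3) :
    ∫⁻ x in P3 ⁻¹' R, (1 + ‖D3 G x‖ₑ ^ p) ≤ 2 ^ p * ∫⁻ y in R, (1 + ∑ j, ‖G j y‖ₑ ^ p) := by
  rw [lint_P3, ← lintegral_const_mul' _ _ (two_rpow_ne_top hp)]
  refine lintegral_mono fun x => ?_
  have h1 := le_sum_row (D3 G x) hp
  simp only [row_D3] at h1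
  change 1 + ‖D3 G x‖ₑ ^ p ≤ 2 ^ p * (1 + ∑ j, ‖G j (P3 x)‖ₑ ^ p)
  rw [mul_add, mul_one]
  exact add_le_add (one_le_two_rpow hp) h1

lemma energy_fin {p : ℝ} (hp : 1 ≤ p) {Ω Λ : Set R3} (hΩ : IsOpen Ω) (hΩb : Bornology.IsBounded Ω)
    {f : R3 → R3} {G : Fin 3 → R3 → R3} (h : SH p Ω Λ f G) :
    ∫⁻ x in P3 ⁻¹' Ω, (1 + ‖D3 G x‖ₑ ^ p) ≠ ∞ := by
  have h1 := (sh3_of hp hΩ h).energy
  rw [lintegral_add_left measurable_const, lintegral_const, Measure.restrict_apply_univ, one_mul]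
  refine ENNReal.add_ne_top.2 ⟨?_, h1⟩
  exact (isBounded_pre hΩb).measure_lt_top.ne

lemma isClosed_cbx (Q : Bx (Fin 3)) (a : ℝ) : IsClosed (cbx Q a) := by
  have : cbx Q a = ⋂ k : Fin 3, {y : E3 | |y k - ctr Q k| ≤ a * Q.side k / 2} := by
    ext y; simp [cbx]
  rw [this]
  exact isClosed_iInter fun k => isClosed_le (by fun_prop) continuous_const

lemma measurable_inter {Om : Set E3} (hO : IsOpen Om) {f : E3 → E3} (hf : ContinuousOn f Om)
    {C : Set E3} (hC : IsClosed C) : MeasurableSet {x | x ∈ Om ∧ f x ∈ C} := by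
  have h1 : {x | x ∈ Om ∧ f x ∈ C} = Om \ (Om ∩ f ⁻¹' Cᶜ) := by
    ext x
    constructor
    · intro h
      exact ⟨h.1, fun h2 => h2.2 h.2⟩
    · rintro ⟨h2, h3⟩
      refine ⟨h2, ?_⟩
      by_contra hcon
      exact h3 ⟨h2, hcon⟩
  rw [h1]
  exact MeasurableSet.diff hO.measurableSet (hf.isOpen_inter_preimage hO hC.isOpen_compl).measurableSet

/-- **choice of `ρ`** -/
lemma exists_rho {W : ℝ≥0∞} (hW : W ≠ ∞) {e : ℝ} (he : 0 < e) :
    ∃ ρ : ℝ, 0 < ρ ∧ ρ ≤ 1 ∧ ENNReal.ofReal ρ * W ≤ ENNReal.ofReal (e / 2) := by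
  have hW0 : 0 ≤ W.toReal := ENNReal.toReal_nonneg
  refine ⟨min 1 (e / (2 * (W.toReal + 1))), lt_min one_pos (by positivity), min_le_left _ _, ?_⟩
  have h1 : W = ENNReal.ofReal W.toReal := (ENNReal.ofReal_toReal hW).symm
  rw [h1, ← ENNReal.ofReal_mul (le_min zero_le_one (by positivity)), ENNReal.toReal_ofReal hW0]
  apply ENNReal.ofReal_le_ofReal
  calc min 1 (e / (2 * (W.toReal + 1))) * W.toReal ≤ e / (2 * (W.toReal + 1)) * (W.toReal + 1) := by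
        gcongr
        · exact min_le_right _ _
        · linarith
    _ = e / 2 := by field_simp

set_option maxHeartbeats 2000000 in
/-- **`BFk p` from `EA p`, `p ≥ 3`.** -/
theorem bfk_of_ea {p : ℝ} (hp : 3 ≤ p) (H : EA p) : Br_695.BFk p := by
  classical
  have hp1 : 1 ≤ p := by linarith
  have hp0 : 0 ≤ p := by linarith
  have hdl : 0 < dl (Fin 3) 3 := dl_pos 3
  set M : ℝ := max (4 / dl (Fin 3) 3) 2 with hM
  obtain ⟨CE, hCE, hEA⟩ := H (min (dl (Fin 3) 3 / 2) (1 / 3)) 3 4 (1 / 3072) (1 / 720) M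
    (lt_min (by positivity) (by norm_num)) (by norm_num) (by norm_num) (by norm_num) (by norm_num)
    (by norm_num) (by norm_num) (lt_of_lt_of_le two_pos (le_max_right _ _))
  set CC : ℝ≥0∞ := (CE : ℝ≥0∞) * 25 ^ p + 2 ^ p * (1 + 3072 ^ p) * (2 ^ (p + 1) * 25 ^ p) with hCC
  have h2t : (2 : ℝ≥0∞) ^ p ≠ ∞ := two_rpow_ne_top hp0
  have h2t1 : (2 : ℝ≥0∞) ^ (p + 1) ≠ ∞ := two_rpow_ne_top (by linarith)
  have h25t : (25 : ℝ≥0∞) ^ p ≠ ∞ := ENNReal.rpow_ne_top_of_nonneg hp0 (by norm_num)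
  have h3072t : (3072 : ℝ≥0∞) ^ p ≠ ∞ := ENNReal.rpow_ne_top_of_nonneg hp0 (by norm_num)
  have hCCt : CC ≠ ∞ := by
    rw [hCC]
    refine ENNReal.add_ne_top.2 ⟨ENNReal.mul_ne_top ENNReal.coe_ne_top h25t, ?_⟩
    refine ENNReal.mul_ne_top (ENNReal.mul_ne_top h2t (ENNReal.add_ne_top.2 ⟨ENNReal.one_ne_top, h3072t⟩)) ?_
    exact ENNReal.mul_ne_top h2t1 h25t
  have hC3t : 3 * CC * 2 ^ p ≠ ∞ := ENNReal.mul_ne_top (ENNReal.mul_ne_top (by norm_num) hCCt) h2t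
  refine ⟨(3 * CC * 2 ^ p).toNNReal, ?_⟩
  rw [ENNReal.coe_toNNReal hC3t]
  intro Om La f G hO hOb hOc hL hLb hLc hf η hη hη0 e he
  -- the error parameters
  set B : ℝ≥0∞ := 2 ^ (p + 1) * 25 ^ p * (∫⁻ x in P3 ⁻¹' Om, (1 + ‖D3 G x‖ₑ ^ p)) with hB
  have hBt : B ≠ ∞ := ENNReal.mul_ne_top (ENNReal.mul_ne_top h2t1 h25t) (energy_fin hp1 hO hOb hf)
  set c4 : ℝ≥0∞ := 2 ^ p * (1 + 2 * 2 ^ p) with hc4
  have hc4t : c4 ≠ ∞ :=
    ENNReal.mul_ne_top h2t (ENNReal.add_ne_top.2 ⟨ENNReal.one_ne_top, ENNReal.mul_ne_top (by norm_num) h2t⟩)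
  have h1c4 : 1 ≤ c4 := by
    calc (1 : ℝ≥0∞) = 1 * 1 := by norm_num
      _ ≤ 2 ^ p * (1 + 2 * 2 ^ p) := mul_le_mul' (one_le_two_rpow hp0) le_self_add
  have h2c4 : 2 * 2 ^ p ≤ c4 := by
    calc (2 : ℝ≥0∞) * 2 ^ p = 1 * (2 * 2 ^ p) := by ring
      _ ≤ 2 ^ p * (1 + 2 * 2 ^ p) := mul_le_mul' (one_le_two_rpow hp0) le_add_self
  obtain ⟨ρ, hρ, hρ1, hρW⟩ := exists_rho (W := 3 * c4 * B)
    (ENNReal.mul_ne_top (ENNReal.mul_ne_top (by norm_num) hc4t) hBt) he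
  obtain ⟨q, hq0, hq1, hqρ, hnum⟩ := numbers hρ hρ1
  set lamb : ℝ := 1 - (q : ℝ) with hlamb
  have hlamb1 : lamb < 1 := by linarith
  have hlamb2 : 1 / 2 ≤ lamb := by linarith
  obtain ⟨κ1, hκ1, hEA1⟩ := hEA ρ hρ lamb hlamb1
  have h2p : (0 : ℝ) < 2 ^ p := by positivity
  set κ1'' : ℝ := min κ1 (min (ρ / 27) (min ((q : ℝ) / 6) (1 / (54 * 2 ^ p)))) with hκ1''
  have hκp : 0 < κ1'' := by
    rw [hκ1'']
    refine lt_min hκ1 (lt_min (by positivity) (lt_min (by positivity) (by positivity)))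
  have hκa : κ1'' ≤ κ1 := min_le_left _ _
  have hκb : κ1'' ≤ ρ / 27 := (min_le_right _ _).trans (min_le_left _ _)
  have hκc1 : κ1'' ≤ (q : ℝ) / 6 := (min_le_right _ _).trans ((min_le_right _ _).trans (min_le_left _ _))
  have hκd : κ1'' ≤ 1 / (54 * 2 ^ p) :=
    (min_le_right _ _).trans ((min_le_right _ _).trans (min_le_right _ _))
  have hκe : 2 ^ p * (27 * κ1'') ≤ 1 / 2 := by
    rw [le_div_iff₀ (by positivity)] at hκd
    linarith
  set κc : ℝ := min (min (1 / 20000) (ρ / 1000)) (κ1'' / 8) with hκc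
  have hκc0 : 0 < κc := lt_min (lt_min (by norm_num) (by positivity)) (by positivity)
  have hκca : κc ≤ 1 / 20000 := (min_le_left _ _).trans (min_le_left _ _)
  have hκcb : κc ≤ ρ / 1000 := (min_le_left _ _).trans (min_le_right _ _)
  have hκcc : κc ≤ κ1'' / 8 := min_le_right _ _
  obtain ⟨hn1, hn2⟩ := hnum κc hκc0.le hκca hκcb
  -- the displacement
  obtain ⟨fi, hfm, hfim, hfl, hfr, hfc, hfic⟩ := id hf.homeo
  have hLn : (Laᶜ).Nonempty := by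
    by_contra hcon
    rw [not_nonempty_iff_eq_empty, compl_empty_iff] at hcon
    rw [hcon] at hLb
    exact NormedSpace.unbounded_univ ℝ R3 hLb
  have hCEr : (0 : ℝ) < CE := by exact_mod_cast hCE
  have hηc : ContinuousOn (fun y => η (fi y) / (8 * ((CE : ℝ) + 1))) La :=
    (hη.comp hfic hfim).div_const _
  obtain ⟨w, hw, hwh⟩ := exists_scale hL
    (h := fun y => min (η (fi y) / (8 * ((CE : ℝ) + 1))) (Sta_161.dspS 4 La y))
    (low_of_cont hL (ContinuousOn.inf hηc (Sta_161.dspS_cont 4 La).continuousOn) (fun y hy =>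
        lt_min (div_pos (hη0 _ (hfim hy)) (by positivity)) (Sta_161.dspS_pos (by norm_num) hL hLn hy)))
  set eP : ℝ≥0∞ := ENNReal.ofReal (e / 2) / (3 * 2 ^ p) with heP
  have h32 : (3 * 2 ^ p : ℝ≥0∞) ≠ ∞ := ENNReal.mul_ne_top (by norm_num) h2t
  have h320 : (3 * 2 ^ p : ℝ≥0∞) ≠ 0 := by
    have := one_le_two_rpow hp0
    intro h
    rw [mul_eq_zero] at h
    rcases h with h | h
    · norm_num at h
    · rw [h] at this
      norm_num at this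
  have heP0 : 0 < eP := by
    rw [heP]
    refine ENNReal.div_pos ?_ h32
    rw [ENNReal.ofReal_ne_zero_iff]
    positivity
  obtain ⟨F, Th, G', μ, κ, δ, O, ξ, yc, hξ, hm, P, hκf, hDy, hsz, hTh, hbe⟩ :=
    prep3 hp hO hOb hL hLb hf (dsp := w) hw.cont.continuousOn (fun y hy => hw.pos y hy)
      (lamb := 1 / 2) (κ1 := min (κ1'' / 4) (1 / 24)) (κ2 := 0) le_rfl (by norm_num)
      (lt_min (by positivity) (by norm_num)) le_rfl (by norm_num) (by norm_num)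
      (κf := kf p κ1'' κc) (measurable_kf p κ1'' κc) (fun m hm => kf_pos hκp hκc0 hm)
      (e := eP) heP0 0 (u := 1) (M := M) one_pos (le_max_left _ _) (le_max_right _ _)
  set f2 : E3 → E3 := e3 fun x => Th (f x) with hf2
  have hpos : ∀ c : F, c.1.Pos := fun c => P.foam.pos _ c.2
  have hasp : ∀ c : F, ∀ i, c.1.sz ≤ 3 * c.1.side i := fun c => P.foam.asp _ c.2
  -- the cores
  have hcore : ∀ c : F, ∃ (A : E3 ≃ᵃ[ℝ] E3) (l : ℝ), (1 / 3072 ≤ l ∧ l ≤ lamb ∧ ∃ q' : ℚ, l = q') ∧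
      (c ∉ BadE F O → l = lamb) ∧ ExIn p (P3 ⁻¹' Om) f2 (D3 G') 0 1 κ1'' (1 / 720) c.1 A l ∧
      (c ∉ BadE F O → (∀ x ∈ P3 ⁻¹' Om, f2 x ∈ cbx c.1 1 → A x ∈ cbx c.1 (1 + 24 * κc)) ∧
        ∀ y : R3, P3.symm y ∈ nb c.1 (1 / 180 * c.1.sz) → Th y = y) := by
    intro c
    have hk1 : (0 : ℝ) < min (κ1'' / 4) (1 / 24) := lt_min (by positivity) (by norm_num)
    by_cases hcE : c ∈ BadE F O
    · by_cases hcB : c ∈ BdB F O
      · obtain ⟨A, hA, -⟩ := exIn_bad (κ1 := κ1'') (κc := κc) hp1 hO P hfc hk1 (min_le_left _ _)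
          (min_le_right _ _) hκf 0 one_pos hcB (ε0 := 1) one_pos
        exact ⟨A, 1 / 3072, ⟨le_rfl, by linarith, 1 / 3072, by norm_num⟩, fun h => absurd hcE h, hA,
          fun h => absurd hcE h⟩
      · obtain ⟨A, hA, -⟩ := exIn_mid (κ1 := κ1'') (κc := κc) hp1 hO P hfc hk1 (min_le_left _ _)
          (min_le_right _ _) hκf 0 one_pos hcB (ε0 := 1) one_pos
        exact ⟨A, 1 / 4, ⟨by norm_num, by linarith, 1 / 4, by norm_num⟩, fun h => absurd hcE h, hA,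
          fun h => absurd hcE h⟩
    · obtain ⟨A, hA, -, hA3, hA4⟩ := exIn_good (κ1 := κ1'') (κc := κc) (lamb := lamb) hp1 hO hL P
        hf.homeo hκp hκc0 (by linarith) hκcc hlamb2 hlamb1.le hκf 0 one_pos hcE (ε0 := 1) one_pos
      exact ⟨A, lamb, ⟨by linarith, le_rfl, 1 - q, by push_cast; rfl⟩, fun _ => rfl, hA,
        fun _ => ⟨hA3, hA4⟩⟩
  choose A l hl1 hl2 hEx hgd using hcore
  have hl0 : ∀ c, 0 < l c := fun c => by linarith [(hl1 c).1]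
  -- the star hypothesis
  have hstar : ∀ c : F, ∃ S : Set E3, IsCompact S ∧ Convex ℝ S ∧ S ⊆ P3 ⁻¹' La ∧
      ∀ c' : F, (c'.1.set ∩ c.1.set).Nonempty → c'.1.set ⊆ interior S := by
    refine Sta_161.starF_of_dsp (R := 4) (by norm_num) hL hLn P.foam.pos P.foam.sub P.cmp ?_
    intro C hC z hz
    exact (hsz C hC z hz).trans ((hwh _ (P.foam.sub C hC hz)).trans (min_le_right _ _))
  obtain ⟨g, hg1, hg2, hg3, hg4, hg5⟩ := hEA1 (P3 ⁻¹' Om) (P3 ⁻¹' La) f2 (D3 G') (isOpen_pre hO)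
    (isBounded_pre hOb) (isConnected_pre hOc) (isOpen_pre hL) (isBounded_pre hLb)
    (isConnected_pre hLc) (sh3_of hp1 hO P.sh) 0 1 one_pos F P.foam P.cmp hDy hstar univ (Or.inr rfl)
    A l (fun c _ => hl1 c) (fun c _ => exIn_mono (hEx c) hκa (hpos c) (hl0 c))
    (ENNReal.ofReal (e / 6)) (by rw [ENNReal.ofReal_pos]; positivity)
  simp only [mem_univ, iUnion_true, forall_true_left] at hg4 hg5
  rw [tsum_univ (fun c : F => (1 + ‖lin (A c)‖ₑ ^ p) * volume (Kor F A l c))] at hg4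
  have hP3O : IsOpen (P3 ⁻¹' Om) := isOpen_pre hO
  haveI : Countable F := P.foam.countable.to_subtype
  set good : Set F := (BadE F O)ᶜ with hgood
  have hcin : ∀ c : F, ∀ x ∈ Kor F A l c, x ∈ P3 ⁻¹' Om ∧
      ∀ k, |f2 x k - ctr c.1 k| < c.1.side k / 2 := by
    intro c x hx
    refine core_in (hEx c) (hpos c) (hasp c) (hl0 c) hκp.le (by norm_num) ?_ hx
    have h1 := (hl1 c).2.1
    have h2 := hl0 c
    have h3 : 1 + 6 * κ1'' ≤ 1 + q := by linarith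
    calc l c * (1 + 6 * κ1'') ≤ lamb * (1 + q) := by gcongr
      _ < 1 := by rw [hlamb]; nlinarith
  have hDm : AEStronglyMeasurable (D3 G') (volume.restrict (P3 ⁻¹' Om)) :=
    (sh3_of hp1 hO P.sh).aesm
  have hlp : ∀ c : F, (∫⁻ x in A c ⁻¹' cbx c.1 ((1 + 2 * (1 / 720)) * l c), ‖D3 G' x - lin (A c)‖ₑ ^ p) ≤
      ENNReal.ofReal ρ * (‖lin (A c)‖ₑ ^ p * volume (Kor F A l c)) := by
    intro c
    refine (exIn_lp (hEx c) hp0 (hpos c) (hasp c) (hl0 c) hκp.le).trans ?_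
    have : 27 * κ1'' ≤ ρ := by linarith
    gcongr
    exact le_rfl
  have hsubK : ∀ c : F, Kor F A l c ⊆ A c ⁻¹' cbx c.1 ((1 + 2 * (1 / 720)) * l c) := by
    intro c
    apply preimage_mono
    apply cbx_mono (hpos c)
    have := hl0 c
    nlinarith
  have hf2c : ContinuousOn f2 (P3 ⁻¹' Om) := hom3_cont (sh3_of hp1 hO P.sh).homeo
  set Z : Set R3 := Om ∩ f ⁻¹' (BadR F O) ∩ {x | (Gmat G x).det ≠ 0} with hZ
  set T : F → Set E3 := fun c => {x | x ∈ P3 ⁻¹' Om ∧ f2 x ∈ cbx c.1 1} ∩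
    (A c ⁻¹' cbx c.1 (1 + 24 * κc) \ Kor F A l c) with hT
  have heqg : ∀ c ∈ good, ∀ᵐ x : E3, x ∈ P3 ⁻¹' Om → f2 x ∈ cbx c.1 1 → D3 G' x = D3 G x :=
    fun c hc => eq_on_good hO P hfc (hgd c hc).2
  have key := acct (ι := F) hp1 hP3O.measurableSet (K := Kor F A l) (L := fun c => lin (A c)) (lam := l)
    (good := good) (D := D3 G') (D0 := D3 G) (h := fderiv ℝ g) (ρ := ρ) (CE := CE)
    (e1 := ENNReal.ofReal (e / 6)) (T := T) (Z := P3 ⁻¹' Z) (Z0 := P3 ⁻¹' Zd G)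
    (e2 := 2 ^ p * eP) (B := B)
    (fun c => measurable_pre _ _ _)
    (fun c c' hne => disjoint_left.2 fun x hx hx' => cores_disj P.foam hne (hcin c x hx).2 (hcin c' x hx').2)
    (fun c x hx => (hcin c x hx).1) hDm
    (fun c => exIn_energy (hEx c) hDm hp0 (hpos c) (hasp c) (hl0 c) hκp.le (by norm_num) hκe)
    (D_le hp hO hL hf P.lip P.sh) hρ.le hρ1 hg5 (fun c => ⟨(hl1 c).1, (hl1 c).2.1.trans hlamb1.le⟩)
    (fun c hc => (lintegral_mono_set (hsubK c)).trans (hlp c))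
    (fun c hc => by rw [hl2 c hc]; exact hqρ)
    (fun c hc => by
      filter_upwards [heqg c hc] with x hx hxK
      refine hx (hcin c x hxK).1 fun k => ?_
      have := (hcin c x hxK).2 k
      rw [one_mul]
      exact this.le)
    hg4
    (fun c hc => by
      have hlc := hl2 c hc
      have hsub : T c ⊆ A c ⁻¹' cbx c.1 ((1 + 2 * (1 / 720)) * l c) := by
        rintro x ⟨-, hx, -⟩
        refine cbx_mono (hpos c) ?_ hx
        rw [hlc]; exact hn2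
      have hvol : volume (T c) ≤ ENNReal.ofReal ρ * volume (Kor F A l c) := by
        refine (measure_mono inter_subset_right).trans ?_
        refine shell_vol (hpos c) (A c) (hl0 c).le ?_ hρ.le ?_
        · rw [hlc]; linarith
        · rw [hlc]; exact hn1
      have h1 := shell_le hp0 hsub (hlp c) hvol
      refine le_trans (le_of_eq ?_) h1
      apply lintegral_congr_ae
      have hTm : ∀ᵐ x ∂(volume.restrict (T c)), x ∈ P3 ⁻¹' Om ∧ f2 x ∈ cbx c.1 1 :=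
        ae_restrict_of_ae_restrict_of_subset inter_subset_left
          (ae_restrict_mem (measurable_inter hP3O hf2c (isClosed_cbx c.1 1)))
      filter_upwards [hTm, ae_restrict_of_ae (heqg c hc)] with x hx hx'
      rw [hx' hx.1 hx.2])
    ((le_lint_one hp0 G).trans (by gcongr))
    (by
      intro x hx hxZ hxK
      by_cases hB1 : f (P3 x) ∈ BadR F O
      · exact Or.inl ⟨⟨hx, hB1⟩, hxZ⟩
      · obtain ⟨h1, c, hc, hxc⟩ := cover P (hfm hx) hB1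
        refine Or.inr ⟨c, hc, ?_⟩
        have h2 : f2 x ∈ cbx c.1 1 := by
          apply cbx_one
          change P3.symm (Th (f (P3 x))) ∈ c.1.set
          rw [h1]
          exact hxc
        exact ⟨⟨hx, h2⟩, (hgd c hc).1 x hx h2, hxK c hc⟩)
    le_rfl
  obtain ⟨k1, k2, k3⟩ := key
  set K3 : Set E3 := ⋃ c ∈ good, Kor F A l c with hK3
  have hK3s : K3 ⊆ P3 ⁻¹' Om := iUnion₂_subset fun c _ x hx => (hcin c x hx).1
  have hpK : P3 ⁻¹' (P3.symm ⁻¹' K3) = K3 := symm_pre K3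
  have hKO : P3.symm ⁻¹' K3 ⊆ Om := by
    intro y hy
    have h1 : P3 (P3.symm y) ∈ Om := hK3s hy
    rwa [P3.apply_symm_apply] at h1
  have hhalf : ENNReal.ofReal (e / 2) + ENNReal.ofReal (e / 2) = ENNReal.ofReal e := by
    rw [← ENNReal.ofReal_add (by positivity) (by positivity)]
    congr 1; ring
  have hsix : 3 * ENNReal.ofReal (e / 6) = ENNReal.ofReal (e / 2) := by
    have : (3 : ℝ≥0∞) = ENNReal.ofReal 3 := by norm_num
    rw [this, ← ENNReal.ofReal_mul (by norm_num)]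
    congr 1; ring
  have hρB : 3 * (ENNReal.ofReal ρ * B) ≤ ENNReal.ofReal (e / 2) := by
    refine le_trans ?_ hρW
    calc 3 * (ENNReal.ofReal ρ * B) = ENNReal.ofReal ρ * (3 * 1 * B) := by ring
      _ ≤ ENNReal.ofReal ρ * (3 * c4 * B) := by gcongr
  refine ⟨P3.symm ⁻¹' K3, r3 g, homeo_of hg1, locPL_r3 hg2, ?_, ?_, ?_, ?_⟩
  · intro y hy
    have hx : P3.symm y ∈ P3 ⁻¹' Om := by
      rw [mem_preimage, P3.apply_symm_apply]; exact hy
    have hf2y : f2 (P3.symm y) = P3.symm (Th (f y)) := by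
      change P3.symm (Th (f (P3 (P3.symm y)))) = _
      rw [P3.apply_symm_apply]
    have hfy : f y ∈ La := hfm hy
    have hThy : P3.symm (Th (f y)) ∈ P3 ⁻¹' La := by
      rw [mem_preimage, P3.apply_symm_apply]; exact (P.mem _).2 hfy
    obtain ⟨C, hC, hyC⟩ := P.foam.cov _ hThy
    have h1 := hg3 _ hx ⟨C, hC⟩ (by rw [hf2y]; exact hyC)
    have h2 := hsz C hC _ hyC
    rw [P3.apply_symm_apply] at h2
    have h3 := hw.lip (Th (f y)) (f y)
    have h4 := hTh _ hfy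
    have h5 := (hwh _ hfy).trans (min_le_left _ _)
    rw [hfl _ hy] at h5
    have h6 := norm_r3_sub_le g (fun x => Th (f x)) y
    have hw0 := hw.pos _ hfy
    have h7 : C.sz ≤ 2 * w (f y) := by linarith
    have h8 : (CE : ℝ) * C.sz ≤ CE * (2 * w (f y)) := by gcongr
    have h9 : ‖r3 g y - f y‖ ≤ ‖r3 g y - Th (f y)‖ + ‖Th (f y) - f y‖ := norm_sub_le_norm_sub_add_norm_sub _ _ _
    have h10 : w (f y) * (8 * ((CE : ℝ) + 1)) ≤ η y := by
      rwa [le_div_iff₀ (by positivity)] at h5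
    have h11 : ‖g (P3.symm y) - f2 (P3.symm y)‖ ≤ CE * C.sz := h1
    have h12 : ‖r3 g y - Th (f y)‖ ≤ 2 * ‖g (P3.symm y) - f2 (P3.symm y)‖ := h6
    nlinarith
  · refine (energy_sub_le hO hg2 hKO hp0 G).trans ?_
    rw [hpK]
    calc 3 * ∫⁻ x in K3, ‖fderiv ℝ g x - D3 G x‖ₑ ^ p ≤ 3 * (c4 * ENNReal.ofReal ρ * B) := by gcongr
      _ = ENNReal.ofReal ρ * (3 * c4 * B) := by ring
      _ ≤ ENNReal.ofReal (e / 2) := hρW
      _ ≤ ENNReal.ofReal e := ENNReal.ofReal_le_ofReal (by linarith)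
  · have h1 := energy_g_le hO hg2 (R := Om \ P3.symm ⁻¹' K3) sdiff_subset hp0
    have h2 : P3 ⁻¹' (Om \ P3.symm ⁻¹' K3) = P3 ⁻¹' Om \ K3 := by rw [preimage_sdiff, hpK]
    have h3 := le_lint_one (R := Om \ P3.symm ⁻¹' K3) hp0 G
    rw [h2] at h1 h3
    calc ∫⁻ x in Om \ P3.symm ⁻¹' K3, Br_695.En p (Sk_962.Gr (r3 g)) x
        ≤ 3 * ∫⁻ x in P3 ⁻¹' Om \ K3, ‖fderiv ℝ g x‖ₑ ^ p := h1
      _ ≤ 3 * (CC * (2 ^ p * ∫⁻ y in Om \ P3.symm ⁻¹' K3, (1 + ∑ j, ‖G j y‖ₑ ^ p)) +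
            (ENNReal.ofReal ρ * B + ENNReal.ofReal (e / 6))) := by
          gcongr
          refine k2.trans ?_
          gcongr
      _ = 3 * CC * 2 ^ p * (∫⁻ y in Om \ P3.symm ⁻¹' K3, (1 + ∑ j, ‖G j y‖ₑ ^ p)) +
            (3 * (ENNReal.ofReal ρ * B) + 3 * ENNReal.ofReal (e / 6)) := by ring
      _ ≤ 3 * CC * 2 ^ p * (∫⁻ y in Om \ P3.symm ⁻¹' K3, (1 + ∑ j, ‖G j y‖ₑ ^ p)) +
            (ENNReal.ofReal (e / 2) + ENNReal.ofReal (e / 2)) := by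
          gcongr
          exact hsix.le
      _ = 3 * CC * 2 ^ p * (∫⁻ y in Om \ P3.symm ⁻¹' K3, (1 + Br_695.En p G y)) +
            ENNReal.ofReal e := by rw [hhalf]; rfl
  · have h1 := lint_one_le (R := (Om \ Zd G) \ P3.symm ⁻¹' K3) hp0 G
    have h2 : P3 ⁻¹' ((Om \ Zd G) \ P3.symm ⁻¹' K3) = (P3 ⁻¹' Om \ P3 ⁻¹' Zd G) \ K3 := by
      rw [preimage_sdiff, preimage_sdiff, hpK]
    rw [h2] at h1
    calc ∫⁻ x in (Om \ Zd G) \ P3.symm ⁻¹' K3, (1 + Br_695.En p G x)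
        ≤ 3 * ∫⁻ x in (P3 ⁻¹' Om \ P3 ⁻¹' Zd G) \ K3, (1 + ‖D3 G x‖ₑ ^ p) := h1
      _ ≤ 3 * (2 ^ p * eP + 2 * 2 ^ p * ENNReal.ofReal ρ * B) := by gcongr
      _ = eP * (3 * 2 ^ p) + ENNReal.ofReal ρ * (3 * (2 * 2 ^ p) * B) := by ring
      _ ≤ ENNReal.ofReal (e / 2) + ENNReal.ofReal (e / 2) := by
          gcongr
          · rw [heP, ENNReal.div_mul_cancel h320 h32]
          · refine le_trans ?_ hρW
            gcongr
      _ = ENNReal.ofReal e := hhalf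

/-- **`BFs p` from `EA p`, `p ≥ 3`.** -/
theorem bfs_of_ea {p : ℝ} (hp : 3 ≤ p) (H : EA p) : Sk4_663.BFs p :=
  Br_695.bfs_of_bfk (by linarith) (bfk_of_ea hp H)

end

end Crest.Agent.R096.Rg3_766
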