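import Crest.Agent.R096.Rgl2_527
import Crest.Agent.R096.Dib1_438
import Crest.Agent.R096.Bar1_106
import Crest.Agent.R096.Ebr3_95

/-!
# Row 96 (S0127), DOORS (helper527): the regions `{s_a ≥ t}`, `{s_a ≤ t}` on the frontier of a tiny
core for a moat `(Z, a)` (input of 471's Lv3 / `y_lemma`)

* `far_hi`, `far_lo` : a vertex `v` with `s_a` near `1` (near `0`) which is far from the axis;
* `mo_ge`  : `{B ≤ Fs}` on the frontier of the core is compact and connected;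
* `mo_not_rgn` : no vertex `v` with `B ≤ Fs v` is moved by the tower of the moat;
* `mo_clean_hi`, `mo_clean_lo` : no cell with a trace point of the moat meets the region;
* `mo_hi`, `mo_lo` : everything together.
-/

set_option autoImplicit false
set_option linter.unusedSectionVars false
set_option linter.unusedVariables false

open Set Module

namespace Crest.Agent.R096.Rgb_527

open Crest.Agent.R096.Msh_715 Crest.Agent.R096.Agl5_543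
  Crest.Agent.R096.Seq_213 Crest.Agent.R096.St_147 Crest.Agent.R096.Door_501
  Crest.Agent.R096.Twr_438 Crest.Agent.R096.Exa_560 Crest.Agent.R096.Rgl_527
  Crest.Agent.R096.Ess3_95 Crest.Agent.R096.Ce_537 Crest.Agent.R096.Rop_441
open Crest.Agent.R096.Brk1_582 Crest.Agent.R096.Brk2_582 Crest.Agent.R096.Brk3_582
  Crest.Agent.R096.Brk5_582 Crest.Agent.R096.Bsp_628 Crest.Agent.R096.Dfi_539
  Crest.Agent.R096.Bar_106 Crest.Agent.R096.Dib_438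
open Crest.Agent.R096.Mbf_337 (sb KJ Tiny)
open Crest.Agent.R096.SkC1_961 (E3 FoamD)

open scoped Classical

variable {δ κ0 R c0 : ℝ} {La Om : Set E3} {ι : Type} {Φ : FoamD δ κ0 R c0 La} {T : Tiling Om ι}
  {f : E3 → E3} {κ1 : ℝ}

section gen

variable {E : Type} [NormedAddCommGroup E] [NormedSpace ℝ E] [FiniteDimensional ℝ E]
variable {Om : Set E} {ι : Type} {T : Tiling Om ι} {J : Type}
variable {κ : Type} {Kc : κ → Set E} {h3 : finrank ℝ E = 3}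
variable {hH : ∀ c, CoreH T (Kc c)} {hdis : ∀ c c', c ≠ c' → Disjoint (Kc c) (Kc c')} {c : κ}

/-- vertices with `hi ≤ u` are not moved -/
theorem not_rgn_u [Fintype (EdK T Kc c)] [Nonempty J]
    {s : St (shellH h3 hH hdis c).sph (fun _ : J => true)}
    (hs : ∀ w ∈ s.P, ∃ e, w ∈ (shellH h3 hH hdis c).OnE e)
    {L : Lev T (frontier (Kc c)) J} {u : E → ℝ} (hLu : L.u = u)
    (hcon : ∀ j ∈ L.J0, IsPreconnected {x | x ∈ frontier (Kc c) ∧ L.u x = L.lv j})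
    {hi : ℝ} {v0 v1 : VxK T Kc c} (hlv : ∀ j ∈ L.J0, u v0.1 ≤ L.lv j ∧ L.lv j < hi)
    (h1 : hi ≤ u v1.1)
    (hhi : IsCompact {x | x ∈ frontier (Kc c) ∧ hi ≤ u x} ∧
      IsPreconnected {x | x ∈ frontier (Kc c) ∧ hi ≤ u x})
    (hpt : ∀ w ∈ s.P, ∀ q : T.Cell, q.set ⊆ frontier (Kc c) → w ∈ q.set → ∀ x ∈ q.set, u x < hi)
    {v : VxK T Kc c} (hv : hi ≤ u v.1) (i : J) :
    ¬ Rgn (shellH h3 hH hdis c) v0 v1 s (exa h3 hH hdis L) i v := by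
  refine not_rgn_hi hs hhi.1 hhi.2 (fun x hx => hx.1) ?_ (v := v) ⟨v1.2.2, h1⟩ ⟨v.2.2, hv⟩ ?_ i
  · rintro w hw q hq hwq ⟨x, hxq, -, hx⟩
    exact absurd hx (not_le.2 (hpt w hw q hq hwq x hxq))
  · intro w hw
    obtain ⟨g1, g2⟩ := exa_lab L hw
    rw [exa_lbl L g1 (hcon _ g1) hw rfl v0 v (not_lt.2 (by rw [hLu]; exact (hlv _ g1).1)),
      if_pos (by rw [hLu]; exact (hlv _ g1).2.trans_le hv)]

end gen

section target

/-- a point of the frontier of `c` with given zeros `c`, `d` and coordinates `1` elsewhere -/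
theorem exists_pt (hLa : IsOpen La) {c d : Φ.F} (hcd : d ≠ c)
    (hne : (fc (Pc Φ.F) {e | e = c ∨ e = d}).Nonempty) :
    ∃ q ∈ frontier c.1.set, sb Φ q c = 0 ∧ sb Φ q d = 0 ∧ ∀ e, e ≠ c → e ≠ d → sb Φ q e = 1 := by
  have FF := foam Φ.bf hLa
  let u : Φ.F → ℝ := fun e => if e = c ∨ e = d then 0 else 1
  have hu : u ∈ K (Pc Φ.F) := by
    refine ⟨fun e => ?_, ⟨c, by simp [u]⟩, ?_⟩
    · show 0 ≤ (if e = c ∨ e = d then (0 : ℝ) else 1) ∧ (if e = c ∨ e = d then (0 : ℝ) else 1) ≤ 1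
      split_ifs
      · exact ⟨le_rfl, zero_le_one⟩
      · exact ⟨zero_le_one, le_rfl⟩
    · refine hne.mono (fc_anti ?_)
      intro e he
      by_contra hcon
      have he' : u e < 1 := he
      have : u e = 1 := by
        show (if e = c ∨ e = d then (0 : ℝ) else 1) = 1
        rw [if_neg (show ¬ (e = c ∨ e = d) from hcon)]
      rw [this] at he'
      exact lt_irrefl _ he'
  have hsc : ∀ e, sb Φ (Brk1_582.T (bc (F := Φ.F)) u) e = u e := fun e => congrFun (FF.sc_T hu) e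
  have hact := FF.act_T hu
  have huc : u c = 0 := by simp [u]
  have hud : u d = 0 := by simp [u]
  refine ⟨Brk1_582.T (bc (F := Φ.F)) u, ?_, (hsc c).trans huc, (hsc d).trans hud, fun e h1 h2 => ?_⟩
  · rw [frontier_c Φ hLa c]
    refine ⟨?_, d, hcd, ?_⟩
    · have h2 : c ∈ act (Pc Φ.F) (Brk1_582.T (bc (F := Φ.F)) u) := by rw [hact]; exact huc
      exact h2
    · have h2 : d ∈ act (Pc Φ.F) (Brk1_582.T (bc (F := Φ.F)) u) := by rw [hact]; exact hud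
      exact h2
  · rw [hsc e]
    show (if e = c ∨ e = d then (0 : ℝ) else 1) = 1
    rw [if_neg (by rintro (h | h); exacts [h1 h, h2 h])]

end target

section tiny

variable {c : Φ.F} {J0 J V : Set ι} {θ : E3 → E3} {φ : E3 → ℝ} {a p m : Φ.F} {Z : Set Φ.F}
  {N : Finset Φ.F}

/-- **a vertex with `s_a` near `1`, far from the axis** -/
theorem far_hi (hLa : IsOpen La) (hδ : 0 < δ) (hR : 0 < R) (hκ : Cn δ R * κ1 < 1)
    (H : Tiny Φ T f κ1 c J0 J V θ φ) (M : Mo (Pc Φ.F) c a Z p m)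
    (hN : ∀ e, (Pc Φ.F c ∩ Pc Φ.F e).Nonempty → e ∈ N) :
    ∃ v ∈ frontier (KJ T J), T.dim v = 0 ∧ 1 - (2 * Cn δ R + 1) * κ1 ≤ sb Φ (θ v) a ∧
      1 - (2 * Cn δ R + 1) * κ1 ≤ Fs N a Z (sb Φ (θ v)) := by
  obtain ⟨d, hdZ, hdc, hdp⟩ := M.wp
  have hda : d ≠ a := fun h => M.aZ (h ▸ hdZ)
  have hca : c ≠ a := fun h => M.aZ (h ▸ M.cZ)
  obtain ⟨q, hq, -, -, hq1⟩ := exists_pt hLa (c := c) (d := p) M.pc
    (M.fcp.mono (fc_anti (by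
      rintro e (rfl | rfl)
      · exact Or.inl M.cZ
      · exact Or.inr (Or.inr rfl))))
  obtain ⟨v, hv, hv0, hvn⟩ := tiny_vertex' hLa hδ hR hκ H hq
  have h1 := abs_le.1 (hvn a)
  have h2 := abs_le.1 (hvn d)
  rw [hq1 a hca.symm M.pa.symm] at h1
  rw [hq1 d hdc hdp] at h2
  have hθ := th_mem H hv
  have hdN : d ∈ N := by
    refine hN d ?_
    obtain ⟨y, hy⟩ := M.fcp
    exact ⟨y, mem_fc.1 hy c (Or.inl M.cZ), mem_fc.1 hy d (Or.inl hdZ)⟩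
  refine ⟨v, hv, hv0, by linarith [h1.1], ?_⟩
  have h4 : dv a Z (sb Φ (θ v)) d ≤ Fs N a Z (sb Φ (θ v)) :=
    Finset.single_le_sum (f := fun e => dv a Z (sb Φ (θ v)) e)
      (fun e _ => (dv_mem (sb_mem hLa hθ) e).1) hdN
  rw [dv_in hda hdZ] at h4
  linarith [h2.1]

/-- **a vertex with `s_a` near `0`, far from the axis** -/
theorem far_lo (hLa : IsOpen La) (hδ : 0 < δ) (hR : 0 < R) (hκ : Cn δ R * κ1 < 1)
    (H : Tiny Φ T f κ1 c J0 J V θ φ) (M : Mo (Pc Φ.F) c a Z p m)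
    (hN : ∀ e, (Pc Φ.F c ∩ Pc Φ.F e).Nonempty → e ∈ N) :
    ∃ v ∈ frontier (KJ T J), T.dim v = 0 ∧ sb Φ (θ v) a ≤ (2 * Cn δ R + 1) * κ1 ∧
      1 - (2 * Cn δ R + 1) * κ1 ≤ Fs N a Z (sb Φ (θ v)) := by
  obtain ⟨d, hdZ, hdc, hdp⟩ := M.wp
  have hda : d ≠ a := fun h => M.aZ (h ▸ hdZ)
  have hca : c ≠ a := fun h => M.aZ (h ▸ M.cZ)
  obtain ⟨q, hq, -, hq0, hq1⟩ := exists_pt hLa (c := c) (d := a) hca.symm
    (M.fcp.mono (fc_anti (by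
      rintro e (rfl | rfl)
      · exact Or.inl M.cZ
      · exact Or.inr (Or.inl rfl))))
  obtain ⟨v, hv, hv0, hvn⟩ := tiny_vertex' hLa hδ hR hκ H hq
  have h1 := abs_le.1 (hvn a)
  have h2 := abs_le.1 (hvn d)
  rw [hq0] at h1
  rw [hq1 d hdc hda] at h2
  have hθ := th_mem H hv
  have hdN : d ∈ N := by
    refine hN d ?_
    obtain ⟨y, hy⟩ := M.fcp
    exact ⟨y, mem_fc.1 hy c (Or.inl M.cZ), mem_fc.1 hy d (Or.inl hdZ)⟩
  refine ⟨v, hv, hv0, by linarith [h1.2], ?_⟩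
  have h4 : dv a Z (sb Φ (θ v)) d ≤ Fs N a Z (sb Φ (θ v)) :=
    Finset.single_le_sum (f := fun e => dv a Z (sb Φ (θ v)) e)
      (fun e _ => (dv_mem (sb_mem hLa hθ) e).1) hdN
  rw [dv_in hda hdZ] at h4
  linarith [h2.1]

/-- `Fs` is continuous on the frontier of the brick -/
theorem fs_cont (hLa : IsOpen La) (N : Finset Φ.F) (a : Φ.F) (Z : Set Φ.F) :
    ContinuousOn (fun q => Fs N a Z (sb Φ q)) (frontier c.1.set) := by
  have FF := foam Φ.bf hLa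
  have hsub : frontier c.1.set ⊆ La := by
    intro q hq
    rw [frontier_c Φ hLa c] at hq
    exact FF.sub c hq.1
  unfold Fs
  refine continuousOn_finsetSum _ fun e _ => ?_
  have h1 : ContinuousOn (fun q => sb Φ q e) (frontier c.1.set) :=
    (continuousOn_sc_apply FF e).mono hsub
  unfold dv
  split_ifs
  · exact continuousOn_const
  · exact h1
  · exact continuousOn_const.sub h1

/-- **`{B ≤ Fs}` on the frontier of the core** -/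
theorem mo_ge (hLa : IsOpen La) (H : Tiny Φ T f κ1 c J0 J V θ φ) {B : ℝ}
    (hFs : IsPreconnected {q | q ∈ frontier c.1.set ∧ Fs N a Z (sb Φ q) = B})
    (hne : ∃ x ∈ frontier (KJ T J), B ≤ Fs N a Z (sb Φ (θ x))) :
    IsCompact {x | x ∈ frontier (KJ T J) ∧ B ≤ Fs N a Z (sb Φ (θ x))} ∧
      IsPreconnected {x | x ∈ frontier (KJ T J) ∧ B ≤ Fs N a Z (sb Φ (θ x))} := by
  obtain ⟨u, hu⟩ := H.bij
  have h1 := Ebr3_95.preconn_ge_of_eq (S := frontier c.1.set)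
    (Ebr3_95.preconn_frontier hLa c) isClosed_frontier
    (fs_cont hLa N a Z) hFs
  have hcpt : IsCompact (frontier c.1.set) := by
    have h : IsCompact c.1.set := isCompact_Icc
    exact h.of_isClosed_subset isClosed_frontier h.isClosed.frontier_subset
  have h2 : IsCompact {q | q ∈ frontier c.1.set ∧ B ≤ Fs N a Z (sb Φ q)} := by
    refine hcpt.of_isClosed_subset ?_ fun q hq => hq.1
    exact (fs_cont hLa N a Z).preimage_isClosed_of_isClosed isClosed_frontier isClosed_Ici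
  have h3 : {q | q ∈ frontier c.1.set ∧ B ≤ Fs N a Z (sb Φ q)}.Nonempty := by
    obtain ⟨x, hx, hB⟩ := hne
    exact ⟨θ x, th_mem H hx, hB⟩
  have h4 := Etg_163.pre_plEquiv u (fun q hq => hq.1) ⟨h1, h2, h3⟩
  have h5 : {x | x ∈ frontier (KJ T J) ∧ u.f x ∈ {q | q ∈ frontier c.1.set ∧
      B ≤ Fs N a Z (sb Φ q)}} = {x | x ∈ frontier (KJ T J) ∧ B ≤ Fs N a Z (sb Φ (θ x))} := by
    ext x
    constructor
    · rintro ⟨h2, h3⟩
      rw [hu x h2] at h3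
      exact ⟨h2, h3.2⟩
    · rintro ⟨h2, h3⟩
      refine ⟨h2, u.mf h2, ?_⟩
      rw [hu x h2]; exact h3
  rw [h5] at h4
  exact ⟨h4.2.1, h4.1⟩

/-- near a trace point of the moat `Fs` is small -/
theorem fs_small (hLa : IsOpen La) (hδ : 0 < δ) (hR : 0 < R) (hκ : Cn δ R * κ1 < 1)
    (H : Tiny Φ T f κ1 c J0 J V θ φ) (M : Mo (Pc Φ.F) c a Z p m) (hp : p ∈ N) (hm : m ∈ N)
    {α β l : ℝ} (hα : 0 < α - (3 * Cn δ R + 1) * κ1) (hβ : β + (3 * Cn δ R + 1) * κ1 < 1)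
    (hl : l + (3 * Cn δ R + 1) * κ1 < 1) {w x : E3} (hw : w ∈ frontier (KJ T J))
    (hlev : ∀ e, 0 ≤ Φ.lev e (f w) ∧ Φ.lev e (f w) ≤ 1)
    (h0 : α ≤ Φ.lev a (f w)) (h1 : Φ.lev a (f w) ≤ β) (hF : Fm a Z (fun e => Φ.lev e (f w)) ≤ l)
    {F : C2 T} (hFs : F.set ⊆ frontier (KJ T J)) (hwF : w ∈ F.set) (hxF : x ∈ F.set) :
    Fs N a Z (sb Φ (θ x)) ≤ l + (3 * Cn δ R + 1) * κ1 ∧
      α - (3 * Cn δ R + 1) * κ1 ≤ sb Φ (θ x) a ∧ sb Φ (θ x) a ≤ β + (3 * Cn δ R + 1) * κ1 := by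
  have hx := hFs hxF
  have hθ := th_mem H hx
  have hn : ∀ e, |sb Φ (θ x) e - Φ.lev e (f w)| ≤ (3 * Cn δ R + 1) * κ1 := by
    intro e
    have g1 := abs_le.1 (tiny_osc hLa hδ hR hκ H hFs hxF hwF e)
    have g2 := abs_le.1 (tiny_near hLa hδ hR hκ H hw e)
    rw [abs_le]
    constructor <;> linarith [g1.1, g1.2, g2.1, g2.2]
  have g3 := (abs_le.1 (Fm_sub_le (a := a) (Z := Z) (u := sb Φ (θ x))
    (v := fun e => Φ.lev e (f w)) (sb_mem hLa hθ) hlev hn)).2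
  have g5 := abs_le.1 (hn a)
  refine ⟨?_, by linarith [g5.1], by linarith [g5.2]⟩
  rw [fs_eq_fm hLa M hp hm hθ (by linarith [g5.1]) (by linarith [g5.2]) (by linarith)]
  linarith

end tiny

section inst

variable {κ : Type} {cf : κ → Φ.F} {J0 J V : κ → Set ι} {θ : κ → E3 → E3} {φ : κ → E3 → ℝ}
variable {h3 : finrank ℝ E3 = 3} {hH : ∀ k, CoreH T (KJ T (J k))}
  {hdis : ∀ c c', c ≠ c' → Disjoint (KJ T (J c)) (KJ T (J c'))}
  {JJ C : Type} {fam : JJ → C} [Nonempty JJ]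
  {k : κ} {a p m : Φ.F} {Z : Set Φ.F} {N : Finset Φ.F}
  {s : GSt (meshC T h3) fam} {r : JJ → E3} {b : C} {L : Lev T (frontier (KJ T (J k))) JJ}
  {v0 v1 : VxK T (fun k => KJ T (J k)) k} {α β l Aw Bw : ℝ}

/-- the trace points of the moat -/
def TrMo (Φ : FoamD δ κ0 R c0 La) (T : Tiling Om ι) (f : E3 → E3) (J : Set ι)
    {JJ C : Type} {fam : JJ → C} {h3 : finrank ℝ E3 = 3} (s : GSt (meshC T h3) fam) (b : C)
    (a : Φ.F) (Z : Set Φ.F) (α β l : ℝ) : Prop :=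
  ∀ w ∈ s.P, w ∈ frontier (KJ T J) → fam (s.lab w) = b →
    α ≤ Φ.lev a (f w) ∧ Φ.lev a (f w) ≤ β ∧ Fm a Z (fun e => Φ.lev e (f w)) ≤ l

theorem exists_C2 {c : κ} {q : T.Cell} (hq : q.set ⊆ frontier (KJ T (J c)))
    (hH : ∀ k, CoreH T (KJ T (J k))) (h3 : finrank ℝ E3 = 3) :
    ∃ F : C2 T, F.set ⊆ frontier (KJ T (J c)) ∧ q.set ⊆ F.set := by
  have hpq : q.pt ∈ q.set := q.opn_sub (T.self_mem_oc _)
  obtain ⟨F, hF, hpF⟩ := exists_face h3 hH (c := c) (hq hpq)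
  refine ⟨F, hF, ?_⟩
  rw [q.set_eq, F.set_eq]
  rw [F.set_eq] at hpF
  exact T.cc_sub_of_mem hpF

/-- **vertices far from the axis are not moved by the tower of the moat** -/
theorem mo_not_rgn (hLa : IsOpen La) (hδ : 0 < δ) (hR : 0 < R) (hκ : Cn δ R * κ1 < 1)
    (H : Tiny Φ T f κ1 (cf k) (J0 k) (J k) (V k) (θ k) (φ k)) (M : Mo (Pc Φ.F) (cf k) a Z p m)
    (hp : p ∈ N) (hm : m ∈ N) (hLu : L.u = fun x => Fs N a Z (sb Φ (θ k x)))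
    (hLc : ∀ j ∈ L.J0, IsPreconnected {x | x ∈ frontier (KJ T (J k)) ∧ L.u x = L.lv j})
    (hlv : ∀ j ∈ L.J0, Aw < L.lv j ∧ L.lv j < Bw)
    (h0 : Fs N a Z (sb Φ (θ k v0.1)) ≤ Aw) (h1 : Bw ≤ Fs N a Z (sb Φ (θ k v1.1)))
    (hFs : IsPreconnected {q | q ∈ frontier (cf k).1.set ∧ Fs N a Z (sb Φ q) = Bw})
    (hlev : ∀ w ∈ s.P, w ∈ frontier (KJ T (J k)) → ∀ e, 0 ≤ Φ.lev e (f w) ∧ Φ.lev e (f w) ≤ 1)
    (htr : TrMo Φ T f (J k) s b a Z α β l)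
    (hα : 0 < α - (3 * Cn δ R + 1) * κ1) (hβ : β + (3 * Cn δ R + 1) * κ1 < 1)
    (hl : l + (3 * Cn δ R + 1) * κ1 < Bw) (hBw : Bw ≤ 1)
    {v : VxK T (fun k => KJ T (J k)) k} (hv : Bw ≤ Fs N a Z (sb Φ (θ k v.1))) (i : JJ) :
    ¬ Rgn (shellH h3 hH hdis k) v0 v1 (trc hH hdis s r k b) (exa h3 hH hdis L) i v := by
  have := finite_EdK hH k
  have := Fintype.ofFinite (EdK T (fun k => KJ T (J k)) k)
  refine not_rgn_u (h3 := h3) (hH := hH) (hdis := hdis) (c := k) (s := trc hH hdis s r k b)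
    (fun w hw => (mem_trc.1 hw).2.2) (L := L) (u := fun x => Fs N a Z (sb Φ (θ k x))) hLu hLc
    (hi := Bw) (fun j hj => ⟨h0.trans (hlv j hj).1.le, (hlv j hj).2⟩) h1
    (mo_ge (N := N) (a := a) (Z := Z) hLa H hFs ⟨v.1, v.2.2, hv⟩) ?_ (v := v) hv i
  intro w hw q hq hwq x hxq
  obtain ⟨g1, g2, g4⟩ := trc_P hw
  obtain ⟨e1, e2, e4⟩ := htr w g1 g2 g4
  obtain ⟨F, hF, hqF⟩ := exists_C2 hq hH h3
  have h6 := (fs_small (N := N) hLa hδ hR hκ H M hp hm hα hβ (by linarith) g2 (hlev w g1 g2)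
    e1 e2 e4 hF (hqF hwq) (hqF hxq)).1
  exact h6.trans_lt hl

/-- **the high region of a moat** -/
theorem mo_hi (hLa : IsOpen La) (hδ : 0 < δ) (hR : 0 < R) (hκ : Cn δ R * κ1 < 1)
    (H : Tiny Φ T f κ1 (cf k) (J0 k) (J k) (V k) (θ k) (φ k)) (M : Mo (Pc Φ.F) (cf k) a Z p m)
    (hp : p ∈ N) (hm : m ∈ N) (hN : ∀ e, (Pc Φ.F (cf k) ∩ Pc Φ.F e).Nonempty → e ∈ N)
    (hLu : L.u = fun x => Fs N a Z (sb Φ (θ k x)))
    (hLc : ∀ j ∈ L.J0, IsPreconnected {x | x ∈ frontier (KJ T (J k)) ∧ L.u x = L.lv j})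
    (hlv : ∀ j ∈ L.J0, Aw < L.lv j ∧ L.lv j < Bw)
    (h0 : Fs N a Z (sb Φ (θ k v0.1)) ≤ Aw) (h1 : Bw ≤ Fs N a Z (sb Φ (θ k v1.1)))
    (hFs : IsPreconnected {q | q ∈ frontier (cf k).1.set ∧ Fs N a Z (sb Φ q) = Bw})
    (hlev : ∀ w ∈ s.P, w ∈ frontier (KJ T (J k)) → ∀ e, 0 ≤ Φ.lev e (f w) ∧ Φ.lev e (f w) ≤ 1)
    (htr : TrMo Φ T f (J k) s b a Z α β l)
    (hα : 0 < α - (3 * Cn δ R + 1) * κ1) (hl : l + (3 * Cn δ R + 1) * κ1 < Bw)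
    (hBw : Bw ≤ 1 - (2 * Cn δ R + 1) * κ1) (hκ1 : 0 ≤ κ1)
    {t : ℝ} (hβt : β + (3 * Cn δ R + 1) * κ1 < t) (ht : t ≤ 1 - (2 * Cn δ R + 1) * κ1)
    (ht0 : 0 < t) :
    IsCompact {x | x ∈ frontier (KJ T (J k)) ∧ t ≤ sb Φ (θ k x) a} ∧
    IsPreconnected {x | x ∈ frontier (KJ T (J k)) ∧ t ≤ sb Φ (θ k x) a} ∧
    (∀ w ∈ (trc hH hdis s r k b).P, ∀ q : T.Cell, q.set ⊆ frontier (KJ T (J k)) → w ∈ q.set →
      ¬ (q.set ∩ {x | x ∈ frontier (KJ T (J k)) ∧ t ≤ sb Φ (θ k x) a}).Nonempty) ∧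
    ∃ v' : VxK T (fun k => KJ T (J k)) k,
      v'.1 ∈ {x | x ∈ frontier (KJ T (J k)) ∧ t ≤ sb Φ (θ k x) a} ∧
      ∀ i, ¬ Rgn (shellH h3 hH hdis k) v0 v1 (trc hH hdis s r k b) (exa h3 hH hdis L) i v' := by
  have hC := Cn_nonneg hδ hR
  have hCκ : 0 ≤ Cn δ R * κ1 := mul_nonneg hC hκ1
  have hac : a ≠ cf k := fun h => M.aZ (h ▸ M.cZ)
  have hβ : β + (3 * Cn δ R + 1) * κ1 < 1 := by nlinarith
  obtain ⟨e1, e2⟩ := hi_set hLa H hac ht0 (by nlinarith)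
  refine ⟨e1, e2, ?_, ?_⟩
  · rintro w hw q hq hwq ⟨x, hxq, -, hx⟩
    obtain ⟨g1, g2, g4⟩ := trc_P hw
    obtain ⟨k1, k2, k4⟩ := htr w g1 g2 g4
    obtain ⟨F, hF, hqF⟩ := exists_C2 hq hH h3
    have h6 := (fs_small (N := N) hLa hδ hR hκ H M hp hm hα hβ (by nlinarith) g2 (hlev w g1 g2)
      k1 k2 k4 hF (hqF hwq) (hqF hxq)).2.2
    linarith
  · obtain ⟨v, hv, hv0, hva, hvF⟩ := far_hi hLa hδ hR hκ H M hN
    refine ⟨⟨v, hv0, hv⟩, ⟨hv, ht.trans hva⟩, fun i => ?_⟩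
    exact mo_not_rgn hLa hδ hR hκ H M hp hm hLu hLc hlv h0 h1 hFs hlev htr hα hβ hl
      (by nlinarith) (hBw.trans hvF) i

/-- **the low region of a moat** -/
theorem mo_lo (hLa : IsOpen La) (hδ : 0 < δ) (hR : 0 < R) (hκ : Cn δ R * κ1 < 1)
    (H : Tiny Φ T f κ1 (cf k) (J0 k) (J k) (V k) (θ k) (φ k)) (M : Mo (Pc Φ.F) (cf k) a Z p m)
    (hp : p ∈ N) (hm : m ∈ N) (hN : ∀ e, (Pc Φ.F (cf k) ∩ Pc Φ.F e).Nonempty → e ∈ N)
    (hLu : L.u = fun x => Fs N a Z (sb Φ (θ k x)))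
    (hLc : ∀ j ∈ L.J0, IsPreconnected {x | x ∈ frontier (KJ T (J k)) ∧ L.u x = L.lv j})
    (hlv : ∀ j ∈ L.J0, Aw < L.lv j ∧ L.lv j < Bw)
    (h0 : Fs N a Z (sb Φ (θ k v0.1)) ≤ Aw) (h1 : Bw ≤ Fs N a Z (sb Φ (θ k v1.1)))
    (hFs : IsPreconnected {q | q ∈ frontier (cf k).1.set ∧ Fs N a Z (sb Φ q) = Bw})
    (hlev : ∀ w ∈ s.P, w ∈ frontier (KJ T (J k)) → ∀ e, 0 ≤ Φ.lev e (f w) ∧ Φ.lev e (f w) ≤ 1)
    (htr : TrMo Φ T f (J k) s b a Z α β l)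
    (hβ : β + (3 * Cn δ R + 1) * κ1 < 1) (hl : l + (3 * Cn δ R + 1) * κ1 < Bw)
    (hBw : Bw ≤ 1 - (2 * Cn δ R + 1) * κ1) (hκ1 : 0 ≤ κ1)
    {t : ℝ} (hαt : t < α - (3 * Cn δ R + 1) * κ1) (ht : (2 * Cn δ R + 1) * κ1 ≤ t)
    (ht1 : t < 1) :
    IsCompact {x | x ∈ frontier (KJ T (J k)) ∧ sb Φ (θ k x) a ≤ t} ∧
    IsPreconnected {x | x ∈ frontier (KJ T (J k)) ∧ sb Φ (θ k x) a ≤ t} ∧
    (∀ w ∈ (trc hH hdis s r k b).P, ∀ q : T.Cell, q.set ⊆ frontier (KJ T (J k)) → w ∈ q.set →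
      ¬ (q.set ∩ {x | x ∈ frontier (KJ T (J k)) ∧ sb Φ (θ k x) a ≤ t}).Nonempty) ∧
    ∃ v' : VxK T (fun k => KJ T (J k)) k,
      v'.1 ∈ {x | x ∈ frontier (KJ T (J k)) ∧ sb Φ (θ k x) a ≤ t} ∧
      ∀ i, ¬ Rgn (shellH h3 hH hdis k) v0 v1 (trc hH hdis s r k b) (exa h3 hH hdis L) i v' := by
  have hC := Cn_nonneg hδ hR
  have hCκ : 0 ≤ Cn δ R * κ1 := mul_nonneg hC hκ1
  have hα : 0 < α - (3 * Cn δ R + 1) * κ1 := by nlinarith
  obtain ⟨e1, e2⟩ := lo_set hLa H a (t := t) (by nlinarith) ht1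
  refine ⟨e1, e2, ?_, ?_⟩
  · rintro w hw q hq hwq ⟨x, hxq, -, hx⟩
    obtain ⟨g1, g2, g4⟩ := trc_P hw
    obtain ⟨k1, k2, k4⟩ := htr w g1 g2 g4
    obtain ⟨F, hF, hqF⟩ := exists_C2 hq hH h3
    have h6 := (fs_small (N := N) hLa hδ hR hκ H M hp hm hα hβ (by nlinarith) g2 (hlev w g1 g2)
      k1 k2 k4 hF (hqF hwq) (hqF hxq)).2.1
    linarith
  · obtain ⟨v, hv, hv0, hva, hvF⟩ := far_lo hLa hδ hR hκ H M hN
    refine ⟨⟨v, hv0, hv⟩, ⟨hv, hva.trans ht⟩, fun i => ?_⟩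
    exact mo_not_rgn hLa hδ hR hκ H M hp hm hLu hLc hlv h0 h1 hFs hlev htr hα hβ hl
      (by nlinarith) (hBw.trans hvF) i

end inst

end Crest.Agent.R096.Rgb_527
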