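import Crest.Agent.R096.Rgb1_527
import Crest.Agent.R096.Lv3_471
import Crest.Agent.R096.Frs2_662
import Crest.Agent.R096.Bar4_543

/-!
# Row 96 (S0127), DOORS (helper527): `reg_moat` = 471's region input `Reg` for a moat at its tiny
core, over 662's `slC`
-/

set_option autoImplicit false
set_option linter.unusedSectionVars false
set_option linter.unusedVariables false

open Set Module

namespace Crest.Agent.R096.Rgb_527

open Crest.Agent.R096.Msh_715 Crest.Agent.R096.Agl5_543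
  Crest.Agent.R096.Seq_213 Crest.Agent.R096.St_147 Crest.Agent.R096.Door_501
  Crest.Agent.R096.Twr_438 Crest.Agent.R096.Exa_560 Crest.Agent.R096.Rgl_527
  Crest.Agent.R096.Ess3_95 Crest.Agent.R096.Ce_537 Crest.Agent.R096.Rop_441
open Crest.Agent.R096.Brk1_582 Crest.Agent.R096.Brk2_582 Crest.Agent.R096.Brk3_582
  Crest.Agent.R096.Brk5_582 Crest.Agent.R096.Bsp_628 Crest.Agent.R096.Dfi_539
  Crest.Agent.R096.Bar_106 Crest.Agent.R096.Dib_438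
open Crest.Agent.R096.Mbf_337 (sb KJ Tiny)
open Crest.Agent.R096.SkC1_961 (E3 FoamD)
open Crest.Agent.R096.Init_543 (fr3)
open Crest.Agent.R096.Frn_337 (Ti)
open Crest.Agent.R096.Frs_662 (slC)
open Crest.Agent.R096.Lv3_471 (Reg)

open scoped Classical

variable {δ κ0 R c0 : ℝ} {La Om : Set E3} {ι : Type} {Φ : FoamD δ κ0 R c0 La} {T : Tiling Om ι}
  {f : E3 → E3} {κ1 κ2 : ℝ} {X : Set Φ.F} {J0 Jt V : Φ.F → Set ι}
  {ct : Φ.F → ι} {A : Φ.F → E3 ≃ᵃ[ℝ] E3} {lam : Φ.F → ℝ} {z : Φ.F → E3}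
  {θ : Φ.F → E3 → E3} {φ : Φ.F → E3 → ℝ} {n : Ti X → ℕ} {hn : ∀ c, 0 < n c}
  {JN Mo' : Type} {fam : JN → Φ.F} [Nonempty (JN ⊕ Mo')]
  {s : GSt (meshC T fr3) (Sum.map fam (id : Mo' → Mo'))} {r : JN ⊕ Mo' → E3}
  {Sf : JN ⊕ Mo' → Set E3} {nb : Ti X → Φ.F ⊕ Mo' → Prop}

/-- **the region input of `lev3` for a moat** -/
theorem reg_moat (hLa : IsOpen La) (hδ : 0 < δ) (hR : 0 < R) (hκ1 : 0 ≤ κ1)
    (hκ : Cn δ R * κ1 < 1)
    (hC : Mbf_337.Cores Φ T f κ1 κ2 X J0 Jt V ct A lam z θ φ)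
    {v0 v1 : ∀ c, Φ.F ⊕ Mo' → VxK T (slC hLa hC n hn).K c}
    {u : Ti X → Φ.F ⊕ Mo' → E3 → ℝ} {Aw Bw : Ti X → Φ.F ⊕ Mo' → ℝ}
    {Lv : ∀ c, Φ.F ⊕ Mo' → Lev T (frontier ((slC hLa hC n hn).K c)) (JN ⊕ Mo')}
    (D : DIn (slC hLa hC n hn).hH s r Sf nb v0 v1 u Aw Bw) (lo : LevOut s nb u Aw Bw Lv)
    {c : Ti X} {m : Mo'} (hnb : nb c (Sum.inr m)) {a p q : Φ.F} {Z : Set Φ.F} {N : Finset Φ.F}
    (M : Mo (Pc Φ.F) c.1 a Z p q) (hp : p ∈ N) (hq : q ∈ N)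
    (hN : ∀ e, (Pc Φ.F c.1 ∩ Pc Φ.F e).Nonempty → e ∈ N)
    (hu : u c (Sum.inr m) = fun x => Fs N a Z (sb Φ (θ c.1 x)))
    (hlev : ∀ w ∈ s.P, w ∈ frontier (KJ T (Jt c.1)) → ∀ e, 0 ≤ Φ.lev e (f w) ∧ Φ.lev e (f w) ≤ 1)
    {α β l : ℝ} (htr : ∀ w ∈ s.P, w ∈ frontier (KJ T (Jt c.1)) → s.lab w = Sum.inr m →
      α ≤ Φ.lev a (f w) ∧ Φ.lev a (f w) ≤ β ∧ Fm a Z (fun e => Φ.lev e (f w)) ≤ l)
    (hB0 : 0 < Bw c (Sum.inr m)) (hl : l + (3 * Cn δ R + 1) * κ1 < Bw c (Sum.inr m))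
    (hBw : Bw c (Sum.inr m) ≤ 1 - (2 * Cn δ R + 1) * κ1) (hB1 : Bw c (Sum.inr m) < 1)
    {t : ℝ} (ht0 : 0 < t) (ht1 : t < 1 / 2) (ht : (2 * Cn δ R + 1) * κ1 ≤ t)
    (htα : t < α - (3 * Cn δ R + 1) * κ1) (htβ : β + (3 * Cn δ R + 1) * κ1 < 1 - t) :
    Reg (S := slC hLa hC n hn) s v0 v1 Lv r c m (fun x => sb Φ (θ c.1 x) a)
      (fun x => Φ.lev a (f x)) t (Cn δ R * κ1) ((2 * Cn δ R + 1) * κ1) := by
  have hCn := Cn_nonneg hδ hR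
  have hCκ : 0 ≤ Cn δ R * κ1 := mul_nonneg hCn hκ1
  have hT := hC.tiny c.1 c.2
  have hac : a ≠ c.1 := fun h => M.aZ (h ▸ M.cZ)
  have hFs := (Bar_543.fs_eq_c (N := N) hLa M hN hB0 hB1).1
  have htr' : TrMo Φ T f (Jt c.1) s (Sum.inr m) a Z α β l := by
    intro w hw hwf hl
    refine htr w hw hwf ?_
    rcases h : s.lab w with j | m'
    · rw [h] at hl
      cases hl
    · rw [h] at hl
      exact congrArg Sum.inr (Sum.inr_injective hl)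
  have hLu : (Lv c (Sum.inr m)).u = fun x => Fs N a Z (sb Φ (θ c.1 x)) := (lo.u c _).trans hu
  have h0 : Fs N a Z (sb Φ (θ c.1 (v0 c (Sum.inr m)).1)) ≤ Aw c (Sum.inr m) := by
    have := D.v0_lt c _ hnb
    rw [hu] at this
    exact this
  have h1 : Bw c (Sum.inr m) ≤ Fs N a Z (sb Φ (θ c.1 (v1 c (Sum.inr m)).1)) := by
    have := D.v1_gt c _ hnb
    rw [hu] at this
    exact this
  have hlv := fun j hj => lo.win c (Sum.inr m) j hj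
  have hLc := fun j hj => (lo.conn c (Sum.inr m) j hj).1
  have hhi := mo_hi (κ := Ti X) (cf := fun k => k.1) (J0 := fun k => J0 k.1)
    (J := fun k => Jt k.1) (V := fun k => V k.1) (θ := fun k => θ k.1) (φ := fun k => φ k.1)
    (h3 := fr3) (hH := (slC hLa hC n hn).hH) (hdis := (slC hLa hC n hn).dis) (k := c)
    (s := s) (r := r) (b := Sum.inr m) (L := Lv c (Sum.inr m)) (v0 := v0 c (Sum.inr m))
    (v1 := v1 c (Sum.inr m)) (Aw := Aw c (Sum.inr m)) (Bw := Bw c (Sum.inr m))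
    hLa hδ hR hκ hT M hp hq hN hLu hLc hlv h0 h1 hFs hlev htr' (by linarith)
    hl hBw hκ1 (t := 1 - t) htβ (by linarith) (by linarith)
  have hlo := mo_lo (κ := Ti X) (cf := fun k => k.1) (J0 := fun k => J0 k.1)
    (J := fun k => Jt k.1) (V := fun k => V k.1) (θ := fun k => θ k.1) (φ := fun k => φ k.1)
    (h3 := fr3) (hH := (slC hLa hC n hn).hH) (hdis := (slC hLa hC n hn).dis) (k := c)
    (s := s) (r := r) (b := Sum.inr m) (L := Lv c (Sum.inr m)) (v0 := v0 c (Sum.inr m))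
    (v1 := v1 c (Sum.inr m)) (Aw := Aw c (Sum.inr m)) (Bw := Bw c (Sum.inr m))
    hLa hδ hR hκ hT M hp hq hN hLu hLc hlv h0 h1 hFs hlev htr' (by linarith)
    hl hBw hκ1 (t := t) htα ht (by linarith)
  refine ⟨?_, ?_, ⟨hlo.1, hlo.2.1⟩, ⟨hhi.1, hhi.2.1⟩, ?_, ?_⟩
  · intro x hx
    exact tiny_near hLa hδ hR hκ hT hx a
  · intro q' hq' x hx y hy
    obtain ⟨F, hF, hqF⟩ := exists_C2 (κ := Ti X) (J := fun k => Jt k.1) (c := c) hq'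
      (slC hLa hC n hn).hH fr3
    exact tiny_osc hLa hδ hR hκ hT hF (hqF hx) (hqF hy) a
  · obtain ⟨-, -, -, v', g1, g2⟩ := hlo
    exact ⟨v', g1.2, g2⟩
  · obtain ⟨-, -, -, v', g1, g2⟩ := hhi
    exact ⟨v', g1.2, g2⟩

end Crest.Agent.R096.Rgb_527
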