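import Crest.Agent.R096.Dfi1_539
import Crest.Agent.R096.Clo5_441
import Crest.Agent.R096.Exa10_560

/-!
# Row 96 (S0127), RGN-LOC (helper527), part 1: where the moves of a tower are

The canonical labels of a curve on the frontier of a core are constant along a compact connected
subset of the frontier whose cells carry no point of the curve (`lab_const`).  Hence no vertex of
the set `{u ≤ θ}` or `{1 - θ ≤ u}` is in the region `Rgn` of the moves (`rgn_mid`).
-/

set_option autoImplicit false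
set_option linter.unusedSectionVars false
set_option linter.unusedVariables false

open Set Module

namespace Crest.Agent.R096.Rgl_527

open Crest.Agent.R096.Msh_715 Crest.Agent.R096.Agl5_543
  Crest.Agent.R096.Seq_213 Crest.Agent.R096.St_147 Crest.Agent.R096.Door_501
  Crest.Agent.R096.Twr_438 Crest.Agent.R096.Exa_560 Crest.Agent.R096.Qp_106
  Crest.Agent.R096.Ess3_95 Crest.Agent.R096.Ce_537 Crest.Agent.R096.Clo_441

open scoped Classical

variable {E : Type} [NormedAddCommGroup E] [NormedSpace ℝ E] [FiniteDimensional ℝ E]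
variable {Om : Set E} {ι : Type} {T : Tiling Om ι} {J C : Type} {fam : J → C}
variable {κ : Type} {Kc : κ → Set E} {h3 : finrank ℝ E = 3}
variable {hH : ∀ c, CoreH T (Kc c)} {hdis : ∀ c c', c ≠ c' → Disjoint (Kc c) (Kc c')} {c : κ}

theorem fr_Om (hH : ∀ c, CoreH T (Kc c)) (c : κ) : frontier (Kc c) ⊆ Om :=
  ((hH c).cpt.isClosed.frontier_subset).trans (hH c).sub

/-- **labels of a curve are constant along a connected set without points** -/
theorem lab_const {A0 : Crv (shellH h3 hH hdis c).sphSh} {a : VxK T Kc c → ZMod 2}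
    (ha : IsLab A0 a) {A : Set E} (hA : IsCompact A) (hAc : IsPreconnected A)
    (hAf : A ⊆ frontier (Kc c))
    (hpt : ∀ w ∈ A0.C, ∀ q : T.Cell, q.set ⊆ frontier (Kc c) → w ∈ q.set → ¬ (q.set ∩ A).Nonempty)
    {v v' : VxK T Kc c} (hv : v.1 ∈ A) (hv' : v'.1 ∈ A) : a v = a v' := by
  have hAO : A ⊆ Om := hAf.trans (fr_Om hH c)
  let Jc : Set T.Cell := {q | q.set ⊆ frontier (Kc c)}
  let lam : T.Cell → ZMod 2 := fun q =>
    if h : T.dim q.pt = 0 ∧ q.pt ∈ frontier (Kc c) then a ⟨q.pt, h.1, h.2⟩ else 0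
  have hlamv : ∀ (q : T.Cell) (h : T.dim q.pt = 0) (h' : q.pt ∈ frontier (Kc c)),
      lam q = a ⟨q.pt, h, h'⟩ := fun q h h' => dif_pos ⟨h, h'⟩
  have hcell : ∀ {x : E} (hx : x ∈ A), (T.cl (hAO hx)) ∈ Jc ∧
      ((T.cl (hAO hx)).set ∩ A).Nonempty := by
    intro x hx
    have h1 : (T.cl (hAO hx)).set = T.cc x := T.cl_set (hAO hx)
    refine ⟨?_, x, ?_, hx⟩
    · show (T.cl (hAO hx)).set ⊆ _
      rw [h1]; exact (hH c).cc x (hAf hx)
    · rw [h1]; exact T.self_mem_cc x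
  have hcov : A ⊆ ⋃ i ∈ Jc, i.set := by
    intro x hx
    obtain ⟨h1, h2⟩ := hcell hx
    refine mem_biUnion h1 ?_
    rw [T.cl_set]; exact T.self_mem_cc x
  have key := label_const (Tiling.cplx (T := T)) (J := Jc) hA hAc hcov
    (P := (A0.C : Set E) ∪ (frontier (Kc c))ᶜ) (lam := lam) ?_ ?_
    (i := T.cl (hAO hv)) (v := T.cl (hAO hv)) (i' := T.cl (hAO hv')) (v' := T.cl (hAO hv'))
    (hcell hv).1 (hcell hv).2 le_rfl ((T.dim_cl _).trans v.2.1)
    (hcell hv').1 (hcell hv').2 le_rfl ((T.dim_cl _).trans v'.2.1)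
  · have hcl : ∀ (w : VxK T Kc c) (hw : w.1 ∈ A), lam (T.cl (hAO hw)) = a w := by
      intro w hw
      have hset : (T.cl (hAO hw)).set = {w.1} := by
        rw [T.cl_set]; exact T.cc_eq_singleton (T.dim_eq_zero_iff.1 w.2.1)
      have hp : (T.cl (hAO hw)).pt = w.1 := by
        have h1 : (T.cl (hAO hw)).pt ∈ (T.cl (hAO hw)).set :=
          (T.cl (hAO hw)).opn_sub (T.self_mem_oc _)
        rw [hset] at h1
        exact h1
      rw [hlamv _ (by rw [hp]; exact w.2.1) (by rw [hp]; exact w.2.2)]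
      congr 1
      exact Subtype.ext hp
    rw [← hcl v hv, ← hcl v' hv']
    exact key
  · -- clean
    intro m hm hmA j hj hj1
    rw [Set.disjoint_left]
    rintro x hxj (hx | hx)
    · exact hpt x hx m hm (Tiling.Cell.le_def.1 hj hxj) hmA
    · exact hx (hm (Tiling.Cell.le_def.1 hj hxj))
  · -- constant along a clean edge
    intro e he hd p hp q hq hp0 hq0
    have hef : e.set ⊆ frontier (Kc c) := by
      intro x hx
      by_contra h
      exact Set.disjoint_left.1 hd hx (Or.inr h)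
    have hno : ∀ w ∈ A0.C, w ∉ e.set := fun w hw hwe =>
      Set.disjoint_left.1 hd hwe (Or.inl hw)
    let e' : EdK T Kc c := ⟨e, he, hef⟩
    have hpar : a (endK e' false) + a (endK e' true) = 0 := by
      have h1 := ha e'
      have h2 : (A0.C.filter fun w => w ∈ (shellH h3 hH hdis c).sphSh.OnE e') = ∅ := by
        refine Finset.filter_eq_empty_iff.2 fun w hw hwe => ?_
        exact hno w hw (e.opn_sub hwe)
      rw [h2, Finset.card_empty, Nat.cast_zero] at h1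
      exact h1
    have heq : a (endK e' false) = a (endK e' true) := by
      have e1 : ∀ x y : ZMod 2, x + y = 0 → x = y := by decide
      exact e1 _ _ hpar
    have hend : ∀ r : T.Cell, r ≤ e → r.dim = 0 → lam r = a (endK e' true) := by
      intro r hr hr0
      have hpr : r.pt ∈ e.set := Tiling.Cell.le_def.1 hr (r.opn_sub (T.self_mem_oc _))
      have hr0' : T.dim r.pt = 0 := hr0
      rw [hlamv r hr0' (hef hpr)]
      obtain ⟨b, hb⟩ := (endK_iff e' ⟨r.pt, hr0', hef hpr⟩).2 hpr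
      rw [← hb]
      cases b
      · exact heq
      · rfl
    rw [hend p hp hp0, hend q hq hq0]

section rgn

variable [Fintype (EdK T Kc c)] {s d : St (shellH h3 hH hdis c).sph (fun _ : J => true)}

/-- the label of a curve of `s` is constant on `A` -/
theorem lbl_const (hs : ∀ w ∈ s.P, ∃ e, w ∈ (shellH h3 hH hdis c).OnE e) {A : Set E}
    (hA : IsCompact A) (hAc : IsPreconnected A) (hAf : A ⊆ frontier (Kc c))
    (hpt : ∀ w ∈ s.P, ∀ q : T.Cell, q.set ⊆ frontier (Kc c) → w ∈ q.set → ¬ (q.set ∩ A).Nonempty)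
    (v0 : VxK T Kc c) {v v' : VxK T Kc c} (hv : v.1 ∈ A) (hv' : v'.1 ∈ A) (w : E) :
    lbl (shellH h3 hH hdis c).sphSh v0 (comp true s w) v =
      lbl (shellH h3 hH hdis c).sphSh v0 (comp true s w) v' :=
  lab_const (A0 := cc (shellH h3 hH hdis c).sphSh s hs w)
    (lbl_spec ((shellH h3 hH hdis c).sphSh_Sph (shellH_sph c)) (cc _ s hs w) v0).1 hA hAc hAf
    (fun x hx => hpt x (mem_comp.1 hx).1) hv hv'

theorem lbl_zero (hs : ∀ w ∈ s.P, ∃ e, w ∈ (shellH h3 hH hdis c).OnE e) (v0 : VxK T Kc c) (w : E) :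
    lbl (shellH h3 hH hdis c).sphSh v0 (comp true s w) v0 = 0 :=
  (lbl_spec ((shellH h3 hH hdis c).sphSh_Sph (shellH_sph c)) (cc _ s hs w) v0).2

/-- **the moves do not touch the low side** -/
theorem not_rgn_lo (hs : ∀ w ∈ s.P, ∃ e, w ∈ (shellH h3 hH hdis c).OnE e) {A : Set E}
    (hA : IsCompact A) (hAc : IsPreconnected A) (hAf : A ⊆ frontier (Kc c))
    (hpt : ∀ w ∈ s.P, ∀ q : T.Cell, q.set ⊆ frontier (Kc c) → w ∈ q.set → ¬ (q.set ∩ A).Nonempty)
    {v0 v1 v : VxK T Kc c} (h0 : v0.1 ∈ A) (hv : v.1 ∈ A)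
    (hd : ∀ w ∈ d.P, lbl (shellH h3 hH hdis c).sphSh v0 (comp true d w) v = 0) (i : J) :
    ¬ Rgn (shellH h3 hH hdis c) v0 v1 s d i v := by
  have key : ∀ w, lbl (shellH h3 hH hdis c).sphSh v0 (comp true s w) v = 0 := fun w => by
    rw [lbl_const hs hA hAc hAf hpt v0 hv h0 w, lbl_zero hs v0 w]
  rintro (⟨w, hw, -, -, h⟩ | ⟨w, hw, w', hw', -, -, -, h⟩)
  · rw [key w] at h
    exact zero_ne_one h
  · rw [key w, hd w' hw'] at h
    exact absurd h (by decide)

/-- **the moves do not touch the high side** -/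
theorem not_rgn_hi (hs : ∀ w ∈ s.P, ∃ e, w ∈ (shellH h3 hH hdis c).OnE e) {A : Set E}
    (hA : IsCompact A) (hAc : IsPreconnected A) (hAf : A ⊆ frontier (Kc c))
    (hpt : ∀ w ∈ s.P, ∀ q : T.Cell, q.set ⊆ frontier (Kc c) → w ∈ q.set → ¬ (q.set ∩ A).Nonempty)
    {v0 v1 v : VxK T Kc c} (h1 : v1.1 ∈ A) (hv : v.1 ∈ A)
    (hd : ∀ w ∈ d.P, lbl (shellH h3 hH hdis c).sphSh v0 (comp true d w) v = 1) (i : J) :
    ¬ Rgn (shellH h3 hH hdis c) v0 v1 s d i v := by
  have key : ∀ w, lbl (shellH h3 hH hdis c).sphSh v0 (comp true s w) v =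
      lbl (shellH h3 hH hdis c).sphSh v0 (comp true s w) v1 := fun w =>
    lbl_const hs hA hAc hAf hpt v0 hv h1 w
  rintro (⟨w, hw, -, h0, h⟩ | ⟨w, hw, w', hw', -, -, h0, h⟩)
  · rw [key w, h0] at h
    exact zero_ne_one h
  · rw [key w, h0, hd w' hw'] at h
    exact absurd h (by decide)

end rgn

/-- **RGN-LOC**: with exact curves `exa L` (levels in the window), the vertices of the moves are
strictly between `θ` and `1 - θ'`. -/
theorem rgn_mid [Fintype (EdK T Kc c)] [Nonempty J]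
    {s : St (shellH h3 hH hdis c).sph (fun _ : J => true)}
    (hs : ∀ w ∈ s.P, ∃ e, w ∈ (shellH h3 hH hdis c).OnE e)
    {L : Lev T (frontier (Kc c)) J} {u : E → ℝ} (hLu : L.u = u)
    (hcon : ∀ j ∈ L.J0, IsPreconnected {x | x ∈ frontier (Kc c) ∧ L.u x = L.lv j})
    {lo hi ε : ℝ} (hlv : ∀ j ∈ L.J0, lo < L.lv j ∧ L.lv j < hi)
    {v0 v1 : VxK T Kc c} (h0 : u v0.1 ≤ lo) (h1 : hi ≤ u v1.1)
    (hlo : IsCompact {x | x ∈ frontier (Kc c) ∧ u x ≤ lo} ∧
      IsPreconnected {x | x ∈ frontier (Kc c) ∧ u x ≤ lo})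
    (hhi : IsCompact {x | x ∈ frontier (Kc c) ∧ hi ≤ u x} ∧
      IsPreconnected {x | x ∈ frontier (Kc c) ∧ hi ≤ u x})
    (hosc : ∀ q : T.Cell, q.set ⊆ frontier (Kc c) → ∀ x ∈ q.set, ∀ y ∈ q.set, |u x - u y| ≤ ε)
    (hpt : ∀ w ∈ s.P, lo + ε < u w ∧ u w < hi - ε) {i : J} {v : VxK T Kc c}
    (h : Rgn (shellH h3 hH hdis c) v0 v1 s (exa h3 hH hdis L) i v) :
    lo < u v.1 ∧ u v.1 < hi := by
  constructor
  · by_contra hcon'
    push Not at hcon'
    refine not_rgn_lo hs hlo.1 hlo.2 (fun x hx => hx.1) ?_ (v := v) ⟨v0.2.2, h0⟩ ⟨v.2.2, hcon'⟩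
      ?_ i h
    · rintro w hw q hq hwq ⟨x, hxq, -, hx⟩
      have := abs_le.1 (hosc q hq w hwq x hxq)
      linarith [(hpt w hw).1, this.2]
    · intro w hw
      obtain ⟨g1, g2⟩ := exa_lab L hw
      rw [exa_lbl L g1 (hcon _ g1) hw rfl v0 v (not_lt.2 (by rw [hLu]; linarith [(hlv _ g1).1])),
        if_neg (not_lt.2 (by rw [hLu]; linarith [(hlv _ g1).1]))]
  · by_contra hcon'
    push Not at hcon'
    refine not_rgn_hi hs hhi.1 hhi.2 (fun x hx => hx.1) ?_ (v := v) ⟨v1.2.2, h1⟩ ⟨v.2.2, hcon'⟩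
      ?_ i h
    · rintro w hw q hq hwq ⟨x, hxq, -, hx⟩
      have := abs_le.1 (hosc q hq w hwq x hxq)
      linarith [(hpt w hw).2, this.1]
    · intro w hw
      obtain ⟨g1, g2⟩ := exa_lab L hw
      rw [exa_lbl L g1 (hcon _ g1) hw rfl v0 v (not_lt.2 (by rw [hLu]; linarith [(hlv _ g1).1])),
        if_pos (by rw [hLu]; linarith [(hlv _ g1).2])]

end Crest.Agent.R096.Rgl_527
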