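import Crest.Agent.R096.Grd10_714
import Crest.Agent.R096.Rel2_628

/-!
# R096 (row 96), REL-P, part 1 (helper150): homogenisation and clamps

`hom g τ x = τ g (x/τ)`, `clp t m e = max (min t (m + e)) (m - e)`.
-/

set_option autoImplicit false
set_option linter.unusedSectionVars false

open Set

namespace Crest.Agent.R096.Rlp_150

open Crest.Agent.R096.Rel_628 Crest.Agent.R096.Grd_714

section hom

variable {V : Type*} [NormedAddCommGroup V] [NormedSpace ℝ V]

/-- homogenisation -/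
noncomputable def hom (g : V → ℝ) (τ : ℝ) (x : V) : ℝ := τ * g (τ⁻¹ • x)

theorem hom_zero (g : V → ℝ) (x : V) : hom g 0 x = 0 := by simp [hom]

theorem hom_mul {g : V → ℝ} {τ : ℝ} (hτ : 0 < τ) (x : V) : hom g τ (τ • x) = τ * g x := by
  rw [hom, smul_smul, inv_mul_cancel₀ hτ.ne', one_smul]

theorem hom_lip {D : Set V} {g : V → ℝ} {L : ℝ} (hL : 0 ≤ L)
    (hg : ∀ x ∈ D, ∀ x' ∈ D, |g x - g x'| ≤ L * ‖x - x'‖) (hb : ∀ x ∈ D, |g x| ≤ 1)
    {τ τ' : ℝ} {x x' : V} (hτ : 0 ≤ τ) (hτ' : 0 ≤ τ') (hx : τ⁻¹ • x ∈ D) (hx' : τ'⁻¹ • x' ∈ D)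
    (nx : ‖x‖ ≤ τ) (nx' : ‖x'‖ ≤ τ') :
    |hom g τ x - hom g τ' x'| ≤ L * ‖x - x'‖ + (L + 1) * |τ - τ'| := by
  wlog hle : τ' ≤ τ generalizing τ τ' x x'
  · have := this hτ' hτ hx' hx nx' nx (not_le.1 hle).le
    rwa [abs_sub_comm, norm_sub_rev, abs_sub_comm τ' τ] at this
  have h3 : 0 ≤ τ - τ' := sub_nonneg.2 hle
  have e3 : |τ - τ'| = τ - τ' := abs_of_nonneg h3
  rcases hτ'.eq_or_lt with h0 | h0
  · subst h0
    rw [hom_zero, sub_zero, hom, abs_mul, abs_of_nonneg hτ, e3, sub_zero]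
    have h1 := hb _ hx
    have h2 : 0 ≤ L * ‖x - x'‖ := mul_nonneg hL (norm_nonneg _)
    nlinarith
  · have ht : 0 < τ := h0.trans_le hle
    have e : hom g τ x - hom g τ' x' =
        (τ - τ') * g (τ⁻¹ • x) + τ' * (g (τ⁻¹ • x) - g (τ'⁻¹ • x')) := by
      simp only [hom]; ring
    have h1 := hb _ hx
    have h2 := hg _ hx _ hx'
    have h4 : τ' * ‖τ⁻¹ • x - τ'⁻¹ • x'‖ ≤ ‖x - x'‖ + (τ - τ') := by
      have e4 : τ' * ‖τ⁻¹ • x - τ'⁻¹ • x'‖ = ‖τ' • (τ⁻¹ • x - τ'⁻¹ • x')‖ := by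
        rw [norm_smul, Real.norm_of_nonneg h0.le]
      have e5 : τ' • (τ⁻¹ • x - τ'⁻¹ • x') = (x - x') - ((τ - τ') / τ) • x := by
        rw [smul_sub, smul_smul, smul_smul, mul_inv_cancel₀ h0.ne', one_smul]
        have : (τ - τ') / τ = 1 - τ' * τ⁻¹ := by field_simp
        rw [this, sub_smul, one_smul]
        abel
      rw [e4, e5]
      refine (norm_sub_le _ _).trans (add_le_add_right ?_ _)
      rw [norm_smul, Real.norm_of_nonneg (div_nonneg h3 ht.le), div_mul_eq_mul_div,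
        div_le_iff₀ ht]
      exact mul_le_mul_of_nonneg_left nx h3
    rw [e, e3]
    calc |(τ - τ') * g (τ⁻¹ • x) + τ' * (g (τ⁻¹ • x) - g (τ'⁻¹ • x'))|
        ≤ |(τ - τ') * g (τ⁻¹ • x)| + |τ' * (g (τ⁻¹ • x) - g (τ'⁻¹ • x'))| := abs_add_le _ _
      _ = (τ - τ') * |g (τ⁻¹ • x)| + τ' * |g (τ⁻¹ • x) - g (τ'⁻¹ • x')| := by
          rw [abs_mul, abs_mul, e3, abs_of_nonneg h0.le]
      _ ≤ (τ - τ') * 1 + L * (‖x - x'‖ + (τ - τ')) := by
          refine add_le_add (mul_le_mul_of_nonneg_left h1 h3) ?_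
          calc τ' * |g (τ⁻¹ • x) - g (τ'⁻¹ • x')| ≤ τ' * (L * ‖τ⁻¹ • x - τ'⁻¹ • x'‖) :=
                mul_le_mul_of_nonneg_left h2 h0.le
            _ = L * (τ' * ‖τ⁻¹ • x - τ'⁻¹ • x'‖) := by ring
            _ ≤ _ := mul_le_mul_of_nonneg_left h4 hL
      _ = _ := by ring

variable {X : Type*} [NormedAddCommGroup X] [NormedSpace ℝ X] {W : Type*} [NormedAddCommGroup W]
  [NormedSpace ℝ W] {K : Set X}

theorem sel_prod {f : X → V} {g : X → W} (hf : Sel K f) (hg : Sel K g) :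
    Sel K (fun x => (f x, g x)) := by
  obtain ⟨S, hS, h1⟩ := hf
  obtain ⟨S', hS', h2⟩ := hg
  refine ⟨image2 (fun a b => a.prod b) S S', hS.image2 _ hS', fun x hx => ?_⟩
  obtain ⟨a, ha, e⟩ := h1 x hx
  obtain ⟨a', ha', e'⟩ := h2 x hx
  exact ⟨a.prod a', mem_image2_of_mem ha ha', by
    show (f x, g x) = _
    rw [AffineMap.prod_apply, e, e']⟩

theorem sel_hom {D : Set V} {g : V → ℝ} (hg : Sel D g) {τ : X → ℝ} {x : X → V} (hτ : Sel K τ)
    (hx : Sel K x) (h0 : ∀ z ∈ K, τ z = 0 → x z = 0) (hm : ∀ z ∈ K, (τ z)⁻¹ • x z ∈ D) :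
    Sel K (fun z => hom g (τ z) (x z)) := by
  have key : Sel {p : ℝ × V | (p.1 = 0 → p.2 = 0) ∧ p.1⁻¹ • p.2 ∈ D} (fun p => hom g p.1 p.2) := by
    obtain ⟨S, hS, h1⟩ := hg
    refine ⟨(fun a : V →ᵃ[ℝ] ℝ => (a.linear.comp (LinearMap.snd ℝ ℝ V) +
      (a 0) • LinearMap.fst ℝ ℝ V).toAffineMap) '' S, hS.image _, fun p hp => ?_⟩
    obtain ⟨a, ha, e⟩ := h1 _ hp.2
    refine ⟨_, mem_image_of_mem _ ha, ?_⟩
    have e2 : a (p.1⁻¹ • p.2) = p.1⁻¹ * a.linear p.2 + a 0 := by
      have := a.decomp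
      have h3 : a (p.1⁻¹ • p.2) = a.linear (p.1⁻¹ • p.2) + a 0 := congrFun this _
      rw [h3, map_smul, smul_eq_mul]
    simp only [hom, e, e2, LinearMap.coe_toAffineMap, LinearMap.add_apply, LinearMap.comp_apply,
      LinearMap.snd_apply, LinearMap.smul_apply, LinearMap.fst_apply, smul_eq_mul]
    by_cases h : p.1 = 0
    · rw [hp.1 h, h]; simp
    · field_simp
      
  exact key.comp (sel_prod hτ hx) fun z hz => ⟨h0 z hz, hm z hz⟩

end hom

/-! ## clamps -/

/-- clamp of `t` between `m - e` and `m + e` -/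
noncomputable def clp (t m e : ℝ) : ℝ := max (min t (m + e)) (m - e)

theorem clp_zero (t m : ℝ) : clp t m 0 = m := by
  simp [clp]

theorem clp_of_abs {t m e : ℝ} (h : |t - m| ≤ e) : clp t m e = t := by
  rw [abs_le] at h
  rw [clp, min_eq_left (by linarith), max_eq_left (by linarith)]

theorem clp_self {m e : ℝ} (h : 0 ≤ e) : clp m m e = m := clp_of_abs (by simpa using h)

theorem clp_mono {t t' m m' : ℝ} (e : ℝ) (h : t ≤ t') (hm : m ≤ m') : clp t m e ≤ clp t' m' e :=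
  max_le_max (min_le_min h (by linarith)) (by linarith)

theorem clp_lt {t t' m m' : ℝ} (e : ℝ) (h : t < t') (hm : m < m') : clp t m e < clp t' m' e :=
  max_lt_max (min_lt_min h (by linarith)) (by linarith)

theorem clp_mul {τ : ℝ} (hτ : 0 ≤ τ) (t m e : ℝ) : τ * clp t m e = clp (τ * t) (τ * m) (τ * e) := by
  rw [clp, clp, mul_max_of_nonneg _ _ hτ, mul_min_of_nonneg _ _ hτ, mul_add, mul_sub]

theorem clp_add (s t m e : ℝ) : s + clp t m e = clp (s + t) (s + m) e := by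
  rw [clp, clp, add_max, add_min, ← add_assoc, add_sub_assoc]

theorem abs_clp_sub_self {m e : ℝ} (t : ℝ) (h : 0 ≤ e) : |clp t m e - m| ≤ e := by
  rw [abs_le]
  constructor
  · have : m - e ≤ clp t m e := le_max_right _ _
    linarith
  · have : clp t m e ≤ m + e := max_le (min_le_right _ _) (by linarith)
    linarith

theorem clp_sub_le {t t' m m' e e' A : ℝ} (h1 : t - t' ≤ A) (h2 : (m + e) - (m' + e') ≤ A)
    (h3 : (m - e) - (m' - e') ≤ A) : clp t m e - clp t' m' e' ≤ A := by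
  have : clp t m e ≤ clp t' m' e' + A := by
    refine max_le ?_ ?_
    · have : min t (m + e) ≤ min t' (m' + e') + A := by
        rw [min_add]
        exact min_le_min (by linarith) (by linarith)
      exact this.trans (by simp only [clp]; linarith [le_max_left (min t' (m' + e')) (m' - e')])
    · have := le_max_right (min t' (m' + e')) (m' - e')
      simp only [clp]; linarith
  linarith

theorem abs_clp_sub {t t' m m' e e' A : ℝ} (h1 : |t - t'| ≤ A) (h2 : |m - m'| + |e - e'| ≤ A) :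
    |clp t m e - clp t' m' e'| ≤ A := by
  rw [abs_le] at h1 ⊢
  have a1 := le_abs_self (m - m')
  have a2 := neg_abs_le (m - m')
  have a3 := le_abs_self (e - e')
  have a4 := neg_abs_le (e - e')
  constructor
  · have := clp_sub_le (t := t') (t' := t) (m := m') (m' := m) (e := e') (e' := e) (A := A)
      (by linarith) (by linarith) (by linarith)
    linarith
  · exact clp_sub_le (by linarith) (by linarith) (by linarith)

theorem sel_clp {X : Type*} [NormedAddCommGroup X] [NormedSpace ℝ X] {K : Set X} {t m e : X → ℝ}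
    (ht : Sel K t) (hm : Sel K m) (he : Sel K e) : Sel K (fun x => clp (t x) (m x) (e x)) :=
  (ht.min (hm.add he)).max (hm.sub he)

/-- the clamped relabelling is a relabelling -/
theorem rl_clp {I : Type*} {σ : I → ℝ → ℝ} (h : Rl σ) {e : ℝ} (he : 0 ≤ e) :
    Rl (fun a x => clp (σ a x) x e) where
  zero c := by rw [h.zero]; exact clp_self he
  one c := by rw [h.one]; exact clp_self he
  mono c := fun x hx y hy hxy => clp_lt e (h.mono c hx hy hxy) hxy
  cont c := ContinuousOn.sup (ContinuousOn.inf (h.cont c) (continuousOn_id.add continuousOn_const))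
    (continuousOn_id.sub continuousOn_const)

/-- clamped heights are admissible -/
theorem adm_clp {N : ℝ × ℝ → ℝ} (A : Adm N) {e : ℝ} (he : 0 ≤ e) :
    Adm (fun w => clp (N w) (min w.1 w.2) e) where
  m1 x x' y hx hx' hy hle := by
    obtain ⟨h1, h2⟩ := A.m1 x x' y hx hx' hy hle
    have h3 : min x' y ≤ min x y := min_le_min hle le_rfl
    have h4 : min x y - min x' y ≤ x - x' := by
      have : min x y ≤ min x' y + (x - x') := by
        rw [min_add]
        exact min_le_min (by linarith) (by linarith)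
      linarith
    exact ⟨clp_mono e h1 h3, clp_sub_le h2 (by simp only; linarith) (by simp only; linarith)⟩
  m2 x y y' hx hy hy' hle := by
    obtain ⟨h1, h2⟩ := A.m2 x y y' hx hy hy' hle
    have h3 : min x y' ≤ min x y := min_le_min le_rfl hle
    have h4 : min x y - min x y' ≤ y - y' := by
      have : min x y ≤ min x y' + (y - y') := by
        rw [min_add]
        exact min_le_min (by linarith) (by linarith)
      linarith
    exact ⟨clp_mono e h1 h3, clp_sub_le h2 (by simp only; linarith) (by simp only; linarith)⟩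
  st x x' y y' hx hx' hy hy' hlx hly := by
    have h1 := A.st x x' y y' hx hx' hy hy' hlx hly
    have h4 : min x y - min x' y' < (x - x') + (y - y') := by
      rcases le_total x' y' with h | h
      · have := min_le_left x y
        rw [min_eq_left h]; linarith
      · have := min_le_right x y
        rw [min_eq_right h]; linarith
    set B := max (N (x, y) - N (x', y')) (min x y - min x' y') with hB
    have h5 : clp (N (x, y)) (min x y) e - clp (N (x', y')) (min x' y') e ≤ B :=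
      clp_sub_le (le_max_left _ _) (by have := le_max_right (N (x, y) - N (x', y'))
                                        (min x y - min x' y'); linarith)
        (by have := le_max_right (N (x, y) - N (x', y')) (min x y - min x' y'); linarith)
    exact h5.trans_lt (max_lt h1 h4)
  bd w hw ho := by
    show clp (N w) (min w.1 w.2) e = _
    rw [A.bd w hw ho]; exact clp_self he

theorem sym_clp {I : Type*} {N : I → I → ℝ × ℝ → ℝ} (h : Sym N) (e : ℝ) :
    Sym (fun c c' w => clp (N c c' w) (min w.1 w.2) e) := fun c c' x y => by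
  show clp (N c' c (y, x)) (min y x) e = clp (N c c' (x, y)) (min x y) e
  rw [h c c' x y, min_comm]

theorem Adm.nonneg' {N : ℝ × ℝ → ℝ} (A : Adm N) {w : ℝ × ℝ} (hw : w ∈ Sc) : 0 ≤ N w := by
  have h0 : ((0, w.2) : ℝ × ℝ) ∈ Sc := ⟨⟨le_rfl, zero_le_one⟩, hw.2⟩
  have h1 := A.bd (0, w.2) h0 (fun h => lt_irrefl _ h.1.1)
  have h2 := (A.m1 w.1 0 w.2 hw.1 ⟨le_rfl, zero_le_one⟩ hw.2 hw.1.1).1
  rw [h1, min_eq_left hw.2.1] at h2
  exact h2

theorem Adm.le_one' {N : ℝ × ℝ → ℝ} (A : Adm N) {w : ℝ × ℝ} (hw : w ∈ Sc) : N w ≤ 1 := by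
  have h0 : ((0, w.2) : ℝ × ℝ) ∈ Sc := ⟨⟨le_rfl, zero_le_one⟩, hw.2⟩
  have h1 := A.bd (0, w.2) h0 (fun h => lt_irrefl _ h.1.1)
  have h2 := (A.m1 w.1 0 w.2 hw.1 ⟨le_rfl, zero_le_one⟩ hw.2 hw.1.1).2
  rw [h1, min_eq_left hw.2.1] at h2
  linarith [hw.1.2]

theorem Adm.lip' {N : ℝ × ℝ → ℝ} (A : Adm N) {w w' : ℝ × ℝ} (hw : w ∈ Sc) (hw' : w' ∈ Sc) :
    |N w - N w'| ≤ 2 * ‖w - w'‖ := by
  have h1 := A.diff hw hw'
  have h2 := A.diff hw' hw
  have n1 : |w.1 - w'.1| ≤ ‖w - w'‖ := by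
    have := norm_fst_le (w - w'); simpa using this
  have n2 : |w.2 - w'.2| ≤ ‖w - w'‖ := by
    have := norm_snd_le (w - w'); simpa using this
  rw [abs_le] at n1 n2 ⊢
  have m1 : max (w.1 - w'.1) 0 ≤ ‖w - w'‖ := max_le n1.2 (norm_nonneg _)
  have m2 : max (w.2 - w'.2) 0 ≤ ‖w - w'‖ := max_le n2.2 (norm_nonneg _)
  have m3 : max (w'.1 - w.1) 0 ≤ ‖w - w'‖ := max_le (by linarith) (norm_nonneg _)
  have m4 : max (w'.2 - w.2) 0 ≤ ‖w - w'‖ := max_le (by linarith) (norm_nonneg _)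
  constructor <;> linarith

end Crest.Agent.R096.Rlp_150
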