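import Crest.Agent.R096.Rlp1_150

/-!
# R096 (row 96), REL-P, part 2 (helper150): the layers `{gauge = 1 - δ}` of a cell of a foam

`dl C c0 u = min_{a ≠ c0} u a` (1 - gauge).
-/

set_option autoImplicit false
set_option linter.unusedSectionVars false

open Set

namespace Crest.Agent.R096.Rlp_150

open Crest.Agent.R096.Brk1_582 Crest.Agent.R096.Brk2_582
open Crest.Agent.R096.Rel_628 Crest.Agent.R096.Grd_714

variable {E : Type*} [NormedAddCommGroup E] [NormedSpace ℝ E] {I : Type*}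
variable {La : Set E} {P : I → Set E} {b : Set I → E}

open Classical in
/-- the least coordinate off `c0` -/
noncomputable def dl (C : Finset I) (c0 : I) (u : I → ℝ) : ℝ := (C.erase c0).fold min 1 u

section dl

variable {C : Finset I} {c0 : I} {u u' : I → ℝ}

theorem dl_le_one : dl C c0 u ≤ 1 := by
  classical
  rw [dl, Finset.fold_min_le]; exact Or.inl le_rfl

theorem le_dl {x : ℝ} (h1 : x ≤ 1) (h : ∀ a, a ≠ c0 → x ≤ u a) : x ≤ dl C c0 u := by
  classical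
  rw [dl, Finset.le_fold_min]
  exact ⟨h1, fun a ha => h a (Finset.ne_of_mem_erase ha)⟩

theorem le_dl' {x : ℝ} (h1 : x ≤ 1) (h : ∀ a ∈ C, a ≠ c0 → x ≤ u a) : x ≤ dl C c0 u := by
  classical
  rw [dl, Finset.le_fold_min]
  exact ⟨h1, fun a ha => h a (Finset.mem_of_mem_erase ha) (Finset.ne_of_mem_erase ha)⟩

theorem dl_le {a : I} (ha : a ∈ C) (h : a ≠ c0) : dl C c0 u ≤ u a := by
  classical
  rw [dl, Finset.fold_min_le]
  exact Or.inr ⟨a, Finset.mem_erase.2 ⟨h, ha⟩, le_rfl⟩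

theorem exists_dl (h : dl C c0 u < 1) : ∃ a ∈ C, a ≠ c0 ∧ u a = dl C c0 u := by
  classical
  have h1 : (C.erase c0).fold min 1 u ≤ dl C c0 u := le_rfl
  rw [Finset.fold_min_le] at h1
  rcases h1 with h1 | ⟨a, ha, h2⟩
  · exact absurd h (not_lt.2 h1)
  · exact ⟨a, Finset.mem_of_mem_erase ha, Finset.ne_of_mem_erase ha,
      le_antisymm h2 (dl_le (Finset.mem_of_mem_erase ha) (Finset.ne_of_mem_erase ha))⟩

theorem dl_sub_le {t : ℝ} (ht : 0 ≤ t) (h : ∀ a, u a - u' a ≤ t) : dl C c0 u - dl C c0 u' ≤ t := by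
  have : dl C c0 u - t ≤ dl C c0 u' := by
    refine le_dl' (by linarith [dl_le_one (C := C) (c0 := c0) (u := u)]) fun a ha hne => ?_
    have := dl_le (u := u) ha hne
    linarith [h a]
  linarith

theorem abs_dl_sub {t : ℝ} (ht : 0 ≤ t) (h : ∀ a, |u a - u' a| ≤ t) :
    |dl C c0 u - dl C c0 u'| ≤ t := by
  rw [abs_le]
  constructor
  · have := dl_sub_le (C := C) (c0 := c0) (u := u') (u' := u) ht fun a => by
      have := (abs_le.1 (h a)).1; linarith
    linarith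
  · exact dl_sub_le ht fun a => (abs_le.1 (h a)).2

end dl

variable (F : Foam La P b 4) {c0 : I}

/-- points of the cell: coordinates -/
def KC (P : I → Set E) (c0 : I) : Set (I → ℝ) := {u | u ∈ K P ∧ u c0 = 0}

/-- points of the boundary of the cell: coordinates -/
def KB (P : I → Set E) (c0 : I) : Set (I → ℝ) := {u | u ∈ K P ∧ u c0 = 0 ∧ ∃ d, d ≠ c0 ∧ u d = 0}

theorem KB_sub_K2 {u : I → ℝ} (h : u ∈ KB P c0) : u ∈ K2 P := by
  obtain ⟨h1, h2, d, hd, h3⟩ := h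
  exact ⟨h1, c0, d, hd.symm, h2, h3⟩

theorem KB_of_K2 {u : I → ℝ} (h : u ∈ K2 P) (h0 : u c0 = 0) : u ∈ KB P c0 := by
  obtain ⟨h1, c, c', hne, h2, h3⟩ := h
  by_cases e : c = c0
  · exact ⟨h1, h0, c', fun h' => hne (e.trans h'.symm), h3⟩
  · exact ⟨h1, h0, c, e, h2⟩

section lay

variable [CompleteSpace E]

include F

theorem KC_one {u : I → ℝ} (hu : u ∈ KC P c0) {a : I} (ha : a ∉ nbF F c0) : u a = 1 :=
  one_of_not_nbF F hu.1 hu.2 ha

theorem dl_le_all {u : I → ℝ} (hu : u ∈ KC P c0) {a : I} (ha : a ≠ c0) :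
    dl (nbF F c0) c0 u ≤ u a := by
  by_cases h : a ∈ nbF F c0
  · exact dl_le h ha
  · rw [KC_one F hu h]; exact dl_le_one

theorem dl_nonneg {u : I → ℝ} (hu : u ∈ KC P c0) : 0 ≤ dl (nbF F c0) c0 u :=
  le_dl zero_le_one fun a _ => (hu.1.1 a).1

theorem dl_KB {u : I → ℝ} (hu : u ∈ KB P c0) : dl (nbF F c0) c0 u = 0 := by
  obtain ⟨h1, h2, d, hd, h3⟩ := hu
  refine le_antisymm ?_ (dl_nonneg F ⟨h1, h2⟩)
  rw [← h3]; exact dl_le_all F ⟨h1, h2⟩ hd

theorem one_of_dl {u : I → ℝ} (hu : u ∈ KC P c0) (h : dl (nbF F c0) c0 u = 1) {a : I}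
    (ha : a ≠ c0) : u a = 1 :=
  le_antisymm (hu.1.1 a).2 (by rw [← h]; exact dl_le_all F hu ha)

omit F in
theorem cone_c0 (μ : ℝ) (u : I → ℝ) : cone {c0} μ u c0 = 0 := by simp [cone]

omit F in
theorem cone_ne (μ : ℝ) (u : I → ℝ) {a : I} (h : a ≠ c0) :
    cone {c0} μ u a = (1 - μ) + μ * u a := by simp [cone, h]

omit F in
theorem cone_one {u : I → ℝ} (h0 : u c0 = 0) : cone {c0} 1 u = u := by
  funext a
  by_cases h : a = c0
  · rw [h, cone_c0, h0]
  · rw [cone_ne _ _ h]; ring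

omit F in
theorem cone_mem' {u : I → ℝ} (hu : u ∈ KC P c0) {μ : ℝ} (h0 : 0 ≤ μ) (h1 : μ ≤ 1) :
    cone {c0} μ u ∈ KC P c0 := by
  refine ⟨?_, cone_c0 _ _⟩
  rcases h1.eq_or_lt with rfl | h
  · rw [cone_one hu.2]; exact hu.1
  · exact Foam.cone_mem_K (singleton_nonempty _) hu.1 (by rintro _ rfl; exact hu.2) h0 h

theorem dl_cone {w : I → ℝ} (hw : w ∈ KB P c0) {μ : ℝ} (h0 : 0 ≤ μ) (h1 : μ ≤ 1) :
    dl (nbF F c0) c0 (cone {c0} μ w) = 1 - μ := by
  have hC := cone_mem' (c0 := c0) ⟨hw.1, hw.2.1⟩ h0 h1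
  apply le_antisymm
  · obtain ⟨_, _, d, hd, h3⟩ := hw
    have := dl_le_all F hC hd
    rw [cone_ne _ _ hd, h3, mul_zero, add_zero] at this
    exact this
  · refine le_dl (by linarith) fun a ha => ?_
    rw [cone_ne _ _ ha]
    have := mul_nonneg h0 (hw.1.1 a).1
    linarith

omit F in
theorem up_cone {w : I → ℝ} (hw : w ∈ KC P c0) {μ : ℝ} (h0 : 0 < μ) (h1 : μ ≤ 1) :
    up (1 - μ) (cone {c0} μ w) = w := by
  funext a
  have e : 1 - (1 - μ) = μ := by ring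
  simp only [up, e]
  by_cases h : a = c0
  · rw [h, cone_c0, hw.2]
    exact max_eq_left (div_nonpos_of_nonpos_of_nonneg (by linarith) h0.le)
  · rw [cone_ne _ _ h, add_sub_cancel_left, mul_div_cancel_left₀ _ h0.ne']
    exact max_eq_right (hw.1.1 a).1

omit F in
theorem cone_inj {w w' : I → ℝ} (h : w c0 = w' c0) {μ : ℝ} (h0 : 0 < μ)
    (he : cone {c0} μ w = cone {c0} μ w') : w = w' := by
  funext a
  by_cases ha : a = c0
  · rw [ha, h]
  · have := congrFun he a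
    rw [cone_ne _ _ ha, cone_ne _ _ ha] at this
    exact mul_left_cancel₀ h0.ne' (by linarith)

/-- every point of the cell which is not the centre is in a layer -/
theorem exists_cone {u : I → ℝ} (hu : u ∈ KC P c0) (h : dl (nbF F c0) c0 u < 1) :
    up (dl (nbF F c0) c0 u) u ∈ KB P c0 ∧
      u = cone {c0} (1 - dl (nbF F c0) c0 u) (up (dl (nbF F c0) c0 u) u) := by
  have h0 := dl_nonneg F hu
  set δ := dl (nbF F c0) c0 u with hδ
  have h1 : 0 < 1 - δ := by linarith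
  have hK := Foam.up_mem_K hu.1 h0 h
  have hc0 : up δ u c0 = 0 := (Foam.up_eq_zero h c0).2 (by rw [hu.2]; exact h0)
  obtain ⟨d, hd, hdc, hde⟩ := exists_dl h
  refine ⟨⟨hK, hc0, d, hdc, (Foam.up_eq_zero h d).2 (by rw [hde])⟩, ?_⟩
  funext a
  by_cases ha : a = c0
  · rw [ha, cone_c0, hu.2]
  · rw [cone_ne _ _ ha]
    have h2 : δ ≤ u a := dl_le_all F hu ha
    simp only [up]
    rw [max_eq_right (div_nonneg (by linarith) h1.le)]
    field_simp
    ring

theorem eq_center {u : I → ℝ} (hu : u ∈ KC P c0) (h : dl (nbF F c0) c0 u = 1) {w : I → ℝ}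
    (hw : w ∈ KC P c0) : u = cone {c0} 0 w := by
  funext a
  by_cases ha : a = c0
  · rw [ha, cone_c0, hu.2]
  · rw [cone_ne _ _ ha, one_of_dl F hu h ha]; ring

theorem T_cone' {u : I → ℝ} (hu : u ∈ KC P c0) {μ : ℝ} (h0 : 0 ≤ μ) (h1 : μ ≤ 1) :
    T b (cone {c0} μ u) = b {c0} + μ • (T b u - b {c0}) := by
  rcases h1.eq_or_lt with rfl | h
  · rw [cone_one hu.2]; module
  · exact F.T_cone (singleton_nonempty _) hu.1 (by rintro _ rfl; exact hu.2) h0 h

theorem sc_mem_KC {y : E} (hy : y ∈ P c0) : sc P b y ∈ KC P c0 :=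
  ⟨F.sc_mem_K (F.sub c0 hy), (F.sc_eq_zero (F.sub c0 hy)).2 hy⟩

theorem T_mem_P {u : I → ℝ} (hu : u ∈ KC P c0) : T b u ∈ P c0 :=
  mem_fc.1 (F.T_mem_fc hu.1) c0 hu.2

theorem eq_b_of_dl {y : E} (hy : y ∈ P c0) (h : dl (nbF F c0) c0 (sc P b y) = 1) : y = b {c0} := by
  have hu := sc_mem_KC F hy
  rw [← F.T_sc (F.sub c0 hy), eq_center F hu h hu, T_cone' F hu le_rfl zero_le_one]
  simp

theorem b_mem (hne : (P c0).Nonempty) : b {c0} ∈ P c0 := by
  have h1 : (fc P {c0}).Nonempty := by simpa [fc] using hne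
  have := F.mem {c0} (singleton_nonempty _) h1
  simpa [fc] using this

end lay

end Crest.Agent.R096.Rlp_150
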