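import Crest.Agent.R096.Rlp3_150
import Crest.Agent.R096.Cx3_609

/-!
# R096 (row 96), REL-P, part 4 (helper150): local formula for `Rm`

`su` = the new coordinates; on the piece `u d` minimal, all coordinates `1` except
`c0, d, c1, c2`: `Rm y = T b (su u) + hh c1 c2 • Vc`.
-/

set_option autoImplicit false
set_option linter.unusedSectionVars false
set_option linter.unusedVariables false

open Set

namespace Crest.Agent.R096.Rlp_150

open Crest.Agent.R096.Brk1_582 Crest.Agent.R096.Brk2_582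
open Crest.Agent.R096.Rel_628 Crest.Agent.R096.Grd_714

variable {E : Type*} [NormedAddCommGroup E] [NormedSpace ℝ E] {I : Type*}
variable {La : Set E} {P : I → Set E} {b : Set I → E}

open Classical in
/-- the new coordinates -/
noncomputable def su (C : Finset I) (c0 : I) (σ : I → ℝ → ℝ) (Ef : ℝ → ℝ) (u : I → ℝ) : I → ℝ :=
  fun a => if a = c0 then 0 else
    clp (dl C c0 u + hom (σ a) (1 - dl C c0 u) (u a - dl C c0 u)) (u a) (Ef (dl C c0 u))

theorem su_c0 {C : Finset I} {c0 : I} {σ : I → ℝ → ℝ} {Ef : ℝ → ℝ} {u : I → ℝ} :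
    su C c0 σ Ef u c0 = 0 := by simp [su]

theorem su_ne {C : Finset I} {c0 : I} {σ : I → ℝ → ℝ} {Ef : ℝ → ℝ} {u : I → ℝ} {a : I}
    (h : a ≠ c0) : su C c0 σ Ef u a =
      clp (dl C c0 u + hom (σ a) (1 - dl C c0 u) (u a - dl C c0 u)) (u a) (Ef (dl C c0 u)) := by
  simp [su, h]

open Classical in
/-- the cross vector -/
noncomputable def Vc (P : I → Set E) (b : Set I → E) (c0 d c1 c2 : I) : E :=
  if c1 ≠ c2 ∧ c1 ≠ c0 ∧ c1 ≠ d ∧ c2 ≠ c0 ∧ c2 ≠ d ∧
      (fc P (insert c2 (insert c1 {c0, d}))).Nonempty then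
    b (insert c2 (insert c1 {c0, d})) + b {c0, d} - b (insert c1 {c0, d}) - b (insert c2 {c0, d})
  else 0

/-- the height -/
noncomputable def hh (N : I → I → ℝ × ℝ → ℝ) (Ef : ℝ → ℝ) (c1 c2 : I) (δ : ℝ) (v : I → ℝ) : ℝ :=
  clp (hom (N c1 c2) (1 - δ) (1 - v c1, 1 - v c2)) (min (1 - v c1) (1 - v c2)) (Ef δ) -
    min (1 - v c1) (1 - v c2)

section main

variable [CompleteSpace E] (F : Foam La P b 4) (hQ : Quads P b) {c0 : I}
variable {σ : I → ℝ → ℝ} (hσ : Rl σ) {N : I → I → ℝ × ℝ → ℝ} (hA : ∀ c1 c2, Adm (N c1 c2))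
  (hN : Sym N) {Ef : ℝ → ℝ} (hE : ∀ δ, 0 ≤ Ef δ)

include F in
theorem su_cone (hE : ∀ δ, 0 ≤ Ef δ) {w : I → ℝ} (hw : w ∈ KB P c0) {μ : ℝ} (h0 : 0 < μ)
    (h1 : μ ≤ 1) : su (nbF F c0) c0 σ Ef (cone {c0} μ w) =
      cone {c0} μ (sg (cs σ (Ef (1 - μ) / μ)) w) := by
  have e2 := dl_cone F hw h0.le h1
  funext a
  by_cases ha : a = c0
  · rw [ha, su_c0, cone_c0]
  · rw [su_ne ha, e2, cone_ne _ _ ha, cone_ne _ _ ha]
    have e3 : 1 - (1 - μ) = μ := by ring
    have e4 : (1 - μ) + μ * w a - (1 - μ) = μ • w a := by rw [smul_eq_mul]; ring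
    rw [e3, e4, hom_mul h0]
    simp only [sg, cs]
    rw [clp_mul h0.le, clp_add, mul_div_cancel₀ _ h0.ne']

include F in
theorem su_center (hE : ∀ δ, 0 ≤ Ef δ) {u : I → ℝ} (hu : u ∈ KC P c0)
    (h : dl (nbF F c0) c0 u = 1) : su (nbF F c0) c0 σ Ef u = u := by
  funext a
  by_cases ha : a = c0
  · rw [ha, su_c0, hu.2]
  · rw [su_ne ha, h, sub_self, hom_zero, one_of_dl F hu h ha, add_zero]
    exact clp_self (hE 1)

include F hσ in
theorem su_mem (hE : ∀ δ, 0 ≤ Ef δ) {u : I → ℝ} (hu : u ∈ KC P c0) :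
    su (nbF F c0) c0 σ Ef u ∈ KC P c0 := by
  rcases (dl_le_one (C := nbF F c0) (c0 := c0) (u := u)).eq_or_lt with h | h
  · rw [su_center F hE hu h]; exact hu
  · obtain ⟨h1, h2⟩ := exists_cone F hu h
    have h3 := dl_nonneg F hu
    set δ := dl (nbF F c0) c0 u with hδ
    have h4 : 0 < 1 - δ := by linarith
    have h5 : (1 : ℝ) - δ ≤ 1 := by linarith
    rw [h2, su_cone F hE h1 h4 h5]
    have he : 0 ≤ Ef (1 - (1 - δ)) / (1 - δ) := div_nonneg (hE _) h4.le
    have := sg_mem_KB (rl_cs hσ he) h1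
    exact cone_mem' ⟨this.1, this.2.1⟩ h4.le h5

include F hσ in
theorem su_one (hE : ∀ δ, 0 ≤ Ef δ) {u : I → ℝ} (hu : u ∈ KC P c0) {a : I} (h : u a = 1) :
    su (nbF F c0) c0 σ Ef u a = 1 := by
  have ha : a ≠ c0 := by rintro rfl; rw [hu.2] at h; exact zero_ne_one h
  rw [su_ne ha]
  have h0 := dl_nonneg F hu
  have h1 := dl_le_one (C := nbF F c0) (c0 := c0) (u := u)
  set δ := dl (nbF F c0) c0 u with hδ
  have e : δ + hom (σ a) (1 - δ) (u a - δ) = 1 := by
    rcases h1.eq_or_lt with h1 | h1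
    · rw [h1, sub_self, hom_zero, add_zero]
    · have : u a - δ = (1 - δ) • (1 : ℝ) := by rw [h, smul_eq_mul, mul_one]
      rw [this, hom_mul (by linarith), hσ.one]; ring
  rw [e, h]
  exact clp_self (hE _)

include hA in
/-- on the edge of the square the height vanishes -/
theorem hh_zero (hE : ∀ δ, 0 ≤ Ef δ) {c1 c2 : I} {v : I → ℝ} (h1 : v c1 ∈ Icc (0 : ℝ) 1)
    (h2 : v c2 ∈ Icc (0 : ℝ) 1) (h : ¬ ((v c1 ∈ Ioo (0 : ℝ) 1) ∧ v c2 ∈ Ioo (0 : ℝ) 1)) {μ : ℝ}
    (h0 : 0 < μ) {v' : I → ℝ} (e1 : 1 - v' c1 = μ * (1 - v c1)) (e2 : 1 - v' c2 = μ * (1 - v c2))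
    {δ : ℝ} (hδ : 1 - δ = μ) : hh N Ef c1 c2 δ v' = 0 := by
  have hs : ((1 - v c1, 1 - v c2) : ℝ × ℝ) ∈ Sc :=
    ⟨⟨by simp only; linarith [h1.2], by simp only; linarith [h1.1]⟩,
    ⟨by simp only; linarith [h2.2], by simp only; linarith [h2.1]⟩⟩
  have hb := (hA c1 c2).bd _ hs (by
    rintro ⟨⟨a1, a2⟩, a3, a4⟩
    simp only at a1 a2 a3 a4
    exact h ⟨⟨by linarith, by linarith⟩, by linarith, by linarith⟩)
  have e : ((1 - v' c1, 1 - v' c2) : ℝ × ℝ) = μ • (1 - v c1, 1 - v c2) := by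
    rw [e1, e2]; rfl
  rw [hh, e, hδ, hom_mul h0, hb, e1, e2, ← mul_min_of_nonneg _ _ h0.le]
  rw [clp_self (hE _), sub_self]

include F hQ hσ hA hN

/-- **local formula for `Rm`** -/
theorem Rm_eq (hE : ∀ δ, 0 ≤ Ef δ) {y : E} (hy : y ∈ P c0) {d c1 c2 : I} (hd : d ≠ c0)
    (hdC : d ∈ nbF F c0)
    (hdm : ∀ a ∈ nbF F c0, a ≠ c0 → sc P b y d ≤ sc P b y a)
    (h1 : ∀ a ∈ nbF F c0, a ≠ c0 → a ≠ d → a ≠ c1 → a ≠ c2 → sc P b y a = 1) :
    Rm P b (nbF F c0) c0 σ N Ef y = T b (su (nbF F c0) c0 σ Ef (sc P b y)) +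
      hh N Ef c1 c2 (dl (nbF F c0) c0 (sc P b y)) (su (nbF F c0) c0 σ Ef (sc P b y)) •
        Vc P b c0 d c1 c2 := by
  have hu := sc_mem_KC F hy
  have hone : ∀ a, a ≠ c0 → a ≠ d → a ≠ c1 → a ≠ c2 → sc P b y a = 1 := by
    intro a h2 h3 h4 h5
    by_cases ha : a ∈ nbF F c0
    · exact h1 a ha h2 h3 h4 h5
    · exact KC_one F hu ha
  rcases (dl_le_one (C := nbF F c0) (c0 := c0) (u := sc P b y)).eq_or_lt with h | h
  · rw [Rm_center F hQ hσ hA hN hE hy h, su_center F hE hu h, F.T_sc (F.sub c0 hy), h]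
    have h7 : hh N Ef c1 c2 1 (sc P b y) • Vc P b c0 d c1 c2 = 0 := by
      by_cases hV : c1 ≠ c2 ∧ c1 ≠ c0 ∧ c1 ≠ d ∧ c2 ≠ c0 ∧ c2 ≠ d ∧
        (fc P (insert c2 (insert c1 {c0, d}))).Nonempty
      · rw [hh, one_of_dl F hu h hV.2.1, one_of_dl F hu h hV.2.2.2.1]
        simp only [sub_self, hom_zero, min_self]
        rw [clp_self (hE 1), sub_self, zero_smul]
      · rw [Vc, if_neg hV, smul_zero]
    rw [h7, add_zero, ← eq_b_of_dl F hy h]
  · obtain ⟨k1, k2⟩ := exists_cone F hu h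
    have h3 := dl_nonneg F hu
    set δ := dl (nbF F c0) c0 (sc P b y) with hδ
    have h4 : 0 < 1 - δ := by linarith
    have h5 : (1 : ℝ) - δ ≤ 1 := by linarith
    have hdd : sc P b y d = δ := by
      obtain ⟨a, ha, hac, hae⟩ := exists_dl h
      rw [← hδ] at hae
      exact le_antisymm (hae ▸ hdm a ha hac) (dl_le hdC hd)
    set w := up δ (sc P b y) with hw
    have he : 0 ≤ Ef (1 - (1 - δ)) / (1 - δ) := div_nonneg (hE _) h4.le
    have e1 : y = T b (cone {c0} (1 - δ) w) := by rw [← k2]; exact (F.T_sc (F.sub c0 hy)).symm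
    have hwd : w d = 0 := (Foam.up_eq_zero h d).2 hdd.le
    have hw1 : ∀ a, a ≠ c0 → a ≠ d → a ≠ c1 → a ≠ c2 → w a = 1 := by
      intro a g1 g2 g3 g4
      have := congrFun k2 a
      rw [cone_ne _ _ g1, hone a g1 g2 g3 g4] at this
      have h6 : (1 - δ) * (w a - 1) = 0 := by linarith
      rcases mul_eq_zero.1 h6 with h7 | h7
      · linarith
      · linarith
    set e := Ef (1 - (1 - δ)) / (1 - δ) with hedef
    set u' := sg (cs σ e) w with hu'
    have hR := rl_cs hσ he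
    have hB : u' ∈ KB P c0 := sg_mem_KB hR k1
    have u'd : u' d = 0 := by rw [hu']; simp only [sg, hwd]; exact hR.zero d
    have u'0 : u' c0 = 0 := hB.2.1
    have u'1 : ∀ a, a ≠ c0 → a ≠ d → a ≠ c1 → a ≠ c2 → u' a = 1 := by
      intro a g1 g2 g3 g4
      rw [hu']; simp only [sg, hw1 a g1 g2 g3 g4]; exact hR.one a
    have hsu : su (nbF F c0) c0 σ Ef (sc P b y) = cone {c0} (1 - δ) u' := by
      rw [k2, su_cone F hE k1 h4 h5]
    have hRm : Rm P b (nbF F c0) c0 σ N Ef y =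
        b {c0} + (1 - δ) • (Bn b (Nc N e) u' - b {c0}) := by
      have := Rm_cone F hQ hσ hA hN hE k1 h4 h5
      rw [← e1] at this
      exact this
    rw [hsu, hRm, T_cone' F ⟨hB.1, u'0⟩ h4.le h5]
    -- the relation of the coordinates
    have rel : ∀ a, a ≠ c0 → 1 - cone {c0} (1 - δ) u' a = (1 - δ) * (1 - u' a) := by
      intro a ha
      rw [cone_ne _ _ ha]; ring
    by_cases hav : c1 ≠ c2 ∧ av u' = {c1, c2}
    · obtain ⟨hne, hav⟩ := hav
      have m1 : c1 ∈ av u' := by rw [hav]; simp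
      have m2 : c2 ∈ av u' := by rw [hav]; simp
      have n1 : c1 ≠ c0 := by rintro rfl; exact m1.1.ne' u'0
      have n2 : c1 ≠ d := by rintro rfl; exact m1.1.ne' u'd
      have n3 : c2 ≠ c0 := by rintro rfl; exact m2.1.ne' u'0
      have n4 : c2 ≠ d := by rintro rfl; exact m2.1.ne' u'd
      have hZ : {c | u' c = 0} = {c0, d} := by
        ext a
        simp only [mem_ofPred_eq, mem_insert_iff, mem_singleton_iff]
        constructor
        · intro ha
          by_contra hn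
          rw [not_or] at hn
          by_cases g3 : a = c1
          · exact m1.1.ne' (g3 ▸ ha)
          by_cases g4 : a = c2
          · exact m2.1.ne' (g4 ▸ ha)
          rw [u'1 a hn.1 hn.2 g3 g4] at ha
          exact one_ne_zero ha
        · rintro (rfl | rfl)
          · exact u'0
          · exact u'd
      have hL : {c | u' c < 1} = insert c2 (insert c1 {c0, d}) := by
        ext a
        simp only [mem_ofPred_eq, mem_insert_iff, mem_singleton_iff]
        constructor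
        · intro ha
          by_contra hn
          simp only [not_or] at hn
          rw [u'1 a hn.2.2.1 hn.2.2.2 hn.2.1 hn.1] at ha
          exact lt_irrefl _ ha
        · rintro (rfl | rfl | rfl | rfl)
          · exact m2.2
          · exact m1.2
          · rw [u'0]; exact one_pos
          · rw [u'd]; exact one_pos
      have hfc : (fc P (insert c2 (insert c1 {c0, d}))).Nonempty := by
        rw [← hL]; exact hB.1.2.2
      have hV : Vc P b c0 d c1 c2 = b (insert c2 (insert c1 {c0, d})) + b {c0, d} -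
          b (insert c1 {c0, d}) - b (insert c2 {c0, d}) := by
        rw [Vc, if_pos ⟨hne, n1, n2, n3, n4, hfc⟩]
      rw [Bn_eq (sym_Nc hN e) hne hav, hL, hZ, ← hV]
      have hS : hh N Ef c1 c2 δ (cone {c0} (1 - δ) u') =
          (1 - δ) * (Nc N e c1 c2 (1 - u' c1, 1 - u' c2) - min (1 - u' c1) (1 - u' c2)) := by
        have e3 : ((1 - cone {c0} (1 - δ) u' c1, 1 - cone {c0} (1 - δ) u' c2) : ℝ × ℝ) =
            (1 - δ) • (1 - u' c1, 1 - u' c2) := by
          rw [rel c1 n1, rel c2 n3]; rfl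
        rw [hh, e3, hom_mul h4, rel c1 n1, rel c2 n3, ← mul_min_of_nonneg _ _ h4.le, mul_sub]
        simp only [Nc]
        rw [clp_mul h4.le, hedef, mul_div_cancel₀ _ h4.ne']
        have e5 : 1 - (1 - δ) = δ := by ring
        rw [e5]
      rw [hS]
      module
    · have hBn : Bn b (Nc N e) u' = T b u' := by
        rw [Bn, dif_neg]
        rintro ⟨a1, a2, hne, ha⟩
        have m : ∀ a ∈ av u', a = c1 ∨ a = c2 := by
          intro a ha'
          by_contra hn
          rw [not_or] at hn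
          have g1 : a ≠ c0 := by rintro rfl; exact ha'.1.ne' u'0
          have g2 : a ≠ d := by rintro rfl; exact ha'.1.ne' u'd
          exact ha'.2.ne (u'1 a g1 g2 hn.1 hn.2)
        have m1 := m a1 (by rw [ha]; simp)
        have m2 := m a2 (by rw [ha]; simp)
        rcases m1 with rfl | rfl <;> rcases m2 with rfl | rfl
        · exact hne rfl
        · exact hav ⟨hne, ha⟩
        · exact hav ⟨hne.symm, by rw [ha]; exact pair_comm _ _⟩
        · exact hne rfl
      rw [hBn]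
      have h7 : hh N Ef c1 c2 δ (cone {c0} (1 - δ) u') • Vc P b c0 d c1 c2 = 0 := by
        by_cases hV : c1 ≠ c2 ∧ c1 ≠ c0 ∧ c1 ≠ d ∧ c2 ≠ c0 ∧ c2 ≠ d ∧
          (fc P (insert c2 (insert c1 {c0, d}))).Nonempty
        · rw [hh_zero hA hE (hB.1.1 c1) (hB.1.1 c2) ?_ h4 (rel c1 hV.2.1) (rel c2 hV.2.2.2.1) rfl,
            zero_smul]
          rintro ⟨g1, g2⟩
          refine hav ⟨hV.1, Subset.antisymm (fun a ha' => ?_) ?_⟩
          · by_contra hn
            rw [mem_insert_iff, mem_singleton_iff, not_or] at hn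
            have g3 : a ≠ c0 := by rintro rfl; exact ha'.1.ne' u'0
            have g4 : a ≠ d := by rintro rfl; exact ha'.1.ne' u'd
            exact ha'.2.ne (u'1 a g3 g4 hn.1 hn.2)
          · rintro a (rfl | rfl)
            · exact g1
            · exact g2
        · rw [Vc, if_neg hV, smul_zero]
      rw [h7, add_zero]

end main

end Crest.Agent.R096.Rlp_150
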