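import Crest.Agent.R096.Rlp4_150
import Crest.Agent.R096.Brk4_582

/-!
# R096 (row 96), REL-P, part 5 (helper150): `Rm` is Lipschitz on the cell

`(2L+..)`: with `diam P c0 ≤ D`, `sc` `S`-Lipschitz on `P c0`, `σ` `L`-Lipschitz, `Ef` 1-Lipschitz:
`‖Rm y - Rm y'‖ ≤ D * S * (27 L + 24) * ‖y - y'‖`.
-/

set_option autoImplicit false
set_option linter.unusedSectionVars false
set_option linter.unusedVariables false

open Set

namespace Crest.Agent.R096.Rlp_150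

open Crest.Agent.R096.Brk1_582 Crest.Agent.R096.Brk2_582
open Crest.Agent.R096.Rel_628 Crest.Agent.R096.Grd_714

variable {E : Type*} [NormedAddCommGroup E] [NormedSpace ℝ E] {I : Type*}
variable {La : Set E} {P : I → Set E} {b : Set I → E}

theorem inv_mem {δ x : ℝ} (h1 : δ ≤ 1) (hx : x ∈ Icc (0 : ℝ) (1 - δ)) :
    (1 - δ)⁻¹ * x ∈ Icc (0 : ℝ) 1 := by
  rcases h1.eq_or_lt with h | h
  · rw [h]; simp
  · have h2 : 0 < 1 - δ := by linarith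
    refine ⟨mul_nonneg (inv_nonneg.2 h2.le) hx.1, ?_⟩
    rw [inv_mul_le_iff₀ h2, mul_one]
    exact hx.2

theorem hh_lip {N : I → I → ℝ × ℝ → ℝ} (hA : ∀ c1 c2, Adm (N c1 c2)) {Ef : ℝ → ℝ}
    {c1 c2 : I} {δ δ' : ℝ} {v v' : I → ℝ} (hd1 : δ ≤ 1) (hd1' : δ' ≤ 1)
    (h1 : v c1 ∈ Icc δ 1) (h2 : v c2 ∈ Icc δ 1) (h1' : v' c1 ∈ Icc δ' 1) (h2' : v' c2 ∈ Icc δ' 1)
    {s t : ℝ} (hs1 : |v c1 - v' c1| ≤ s) (hs2 : |v c2 - v' c2| ≤ s) (ht : |δ - δ'| ≤ t)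
    (hE : |Ef δ - Ef δ'| ≤ t) :
    |hh N Ef c1 c2 δ v - hh N Ef c1 c2 δ' v'| ≤ 3 * s + 3 * t := by
  have hs0 : 0 ≤ s := (abs_nonneg _).trans hs1
  have ht0 : 0 ≤ t := (abs_nonneg _).trans ht
  have nm : ∀ {δ : ℝ} {v : I → ℝ}, δ ≤ 1 → v c1 ∈ Icc δ 1 → v c2 ∈ Icc δ 1 →
      (1 - δ)⁻¹ • ((1 - v c1, 1 - v c2) : ℝ × ℝ) ∈ Sc ∧ ‖((1 - v c1, 1 - v c2) : ℝ × ℝ)‖ ≤ 1 - δ := by
    intro δ v hd h1 h2
    have a1 : 1 - v c1 ∈ Icc (0 : ℝ) (1 - δ) := ⟨by linarith [h1.2], by linarith [h1.1]⟩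
    have a2 : 1 - v c2 ∈ Icc (0 : ℝ) (1 - δ) := ⟨by linarith [h2.2], by linarith [h2.1]⟩
    refine ⟨⟨inv_mem hd a1, inv_mem hd a2⟩, ?_⟩
    rw [Prod.norm_def]
    refine max_le ?_ ?_
    · show ‖1 - v c1‖ ≤ _
      rw [Real.norm_of_nonneg a1.1]; exact a1.2
    · show ‖1 - v c2‖ ≤ _
      rw [Real.norm_of_nonneg a2.1]; exact a2.2
  obtain ⟨m1, m2⟩ := nm hd1 h1 h2
  obtain ⟨m1', m2'⟩ := nm hd1' h1' h2'
  have e1 : |(1 - δ) - (1 - δ')| ≤ t := by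
    have : (1 - δ) - (1 - δ') = -(δ - δ') := by ring
    rw [this, abs_neg]; exact ht
  have e2 : ‖((1 - v c1, 1 - v c2) : ℝ × ℝ) - (1 - v' c1, 1 - v' c2)‖ ≤ s := by
    rw [Prod.norm_def]
    refine max_le ?_ ?_
    · show ‖(1 - v c1) - (1 - v' c1)‖ ≤ s
      have : (1 - v c1) - (1 - v' c1) = -(v c1 - v' c1) := by ring
      rw [this, norm_neg, Real.norm_eq_abs]; exact hs1
    · show ‖(1 - v c2) - (1 - v' c2)‖ ≤ s
      have : (1 - v c2) - (1 - v' c2) = -(v c2 - v' c2) := by ring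
      rw [this, norm_neg, Real.norm_eq_abs]; exact hs2
  have k1 := hom_lip (D := Sc) (g := N c1 c2) (L := 2) (by norm_num)
    (fun x hx x' hx' => Adm.lip' (hA c1 c2) hx hx')
    (fun x hx => by rw [abs_of_nonneg (Adm.nonneg' (hA c1 c2) hx)]; exact Adm.le_one' (hA c1 c2) hx)
    (sub_nonneg.2 hd1) (sub_nonneg.2 hd1') m1 m1' m2 m2'
  have k2 : |hom (N c1 c2) (1 - δ) (1 - v c1, 1 - v c2) -
      hom (N c1 c2) (1 - δ') (1 - v' c1, 1 - v' c2)| ≤ 2 * s + 3 * t := by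
    refine k1.trans ?_
    have := mul_le_mul_of_nonneg_left e2 (by norm_num : (0 : ℝ) ≤ 2)
    have := mul_le_mul_of_nonneg_left e1 (by norm_num : (0 : ℝ) ≤ 2 + 1)
    linarith
  have k3 : |min (1 - v c1) (1 - v c2) - min (1 - v' c1) (1 - v' c2)| ≤ s := by
    refine (abs_min_sub_min_le_max _ _ _ _).trans (max_le ?_ ?_)
    · have : (1 - v c1) - (1 - v' c1) = -(v c1 - v' c1) := by ring
      rw [this, abs_neg]; exact hs1
    · have : (1 - v c2) - (1 - v' c2) = -(v c2 - v' c2) := by ring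
      rw [this, abs_neg]; exact hs2
  have k4 := abs_clp_sub (e := Ef δ) (e' := Ef δ') k2 (m := min (1 - v c1) (1 - v c2))
    (m' := min (1 - v' c1) (1 - v' c2)) (by linarith)
  have e3 : hh N Ef c1 c2 δ v - hh N Ef c1 c2 δ' v' =
      (clp (hom (N c1 c2) (1 - δ) (1 - v c1, 1 - v c2)) (min (1 - v c1) (1 - v c2)) (Ef δ) -
        clp (hom (N c1 c2) (1 - δ') (1 - v' c1, 1 - v' c2)) (min (1 - v' c1) (1 - v' c2)) (Ef δ')) -
      (min (1 - v c1) (1 - v c2) - min (1 - v' c1) (1 - v' c2)) := by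
    simp only [hh]; ring
  rw [e3]
  refine (abs_sub _ _).trans ?_
  linarith

section main

variable [CompleteSpace E] (F : Foam La P b 4) (hQ : Quads P b) {c0 : I}
variable {σ : I → ℝ → ℝ} (hσ : Rl σ) {N : I → I → ℝ × ℝ → ℝ} (hA : ∀ c1 c2, Adm (N c1 c2))
  (hN : Sym N) {Ef : ℝ → ℝ} (hE : ∀ δ, 0 ≤ Ef δ)

include F hσ in
theorem dl_le_su (hE : ∀ δ, 0 ≤ Ef δ) {u : I → ℝ} (hu : u ∈ KC P c0) {a : I} (ha : a ≠ c0) :
    dl (nbF F c0) c0 u ≤ su (nbF F c0) c0 σ Ef u a := by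
  rcases (dl_le_one (C := nbF F c0) (c0 := c0) (u := u)).eq_or_lt with h | h
  · rw [su_center F hE hu h, one_of_dl F hu h ha]; exact h.le
  · obtain ⟨h1, h2⟩ := exists_cone F hu h
    have h3 := dl_nonneg F hu
    set δ := dl (nbF F c0) c0 u with hδ
    have h4 : 0 < 1 - δ := by linarith
    have h5 : (1 : ℝ) - δ ≤ 1 := by linarith
    rw [h2, su_cone F hE h1 h4 h5, cone_ne _ _ ha]
    have he : 0 ≤ Ef (1 - (1 - δ)) / (1 - δ) := div_nonneg (hE _) h4.le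
    have := sg_mem_KB (rl_cs hσ he) h1
    have h6 := mul_nonneg h4.le (this.1.1 a).1
    linarith

/-- `T` is Lipschitz over the cell -/
theorem T_lip' (F : Foam La P b 4) {D : ℝ} (hD0 : 0 ≤ D)
    (hD : ∀ x ∈ P c0, ∀ y ∈ P c0, ‖x - y‖ ≤ D) {u v : I → ℝ} (hu : u ∈ KC P c0)
    (hv : v ∈ KC P c0) (S : Finset I) (hS : ∀ c, c ∉ S → u c = v c) :
    ‖T b u - T b v‖ ≤ D * ∑ c ∈ S, |u c - v c| := by
  refine norm_T_sub_le (F.K_finite hu.1) (F.K_finite hv.1) S hS hD0 fun τ hτ => ?_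
  have hb : ∀ u : I → ℝ, u ∈ KC P c0 → b {c | u c ≤ τ} ∈ P c0 := by
    intro u hu
    have h1 : c0 ∈ {c | u c ≤ τ} := by
      change u c0 ≤ τ
      rw [hu.2]; exact hτ.1.le
    have h2 : (fc P {c | u c ≤ τ}).Nonempty :=
      hu.1.2.2.mono (fc_anti fun c (hc : u c ≤ τ) => hc.trans_lt hτ.2)
    exact mem_fc.1 (F.mem _ ⟨c0, h1⟩ h2) c0 h1
  exact hD _ (hb u hu) _ (hb v hv)

/-- the cross vector is bounded -/
theorem norm_Vc_le (F : Foam La P b 4) {D : ℝ} (hD0 : 0 ≤ D)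
    (hD : ∀ x ∈ P c0, ∀ y ∈ P c0, ‖x - y‖ ≤ D) (d c1 c2 : I) : ‖Vc P b c0 d c1 c2‖ ≤ 2 * D := by
  by_cases hV : c1 ≠ c2 ∧ c1 ≠ c0 ∧ c1 ≠ d ∧ c2 ≠ c0 ∧ c2 ≠ d ∧
      (fc P (insert c2 (insert c1 {c0, d}))).Nonempty
  · have hb : ∀ A : Set I, c0 ∈ A → A ⊆ insert c2 (insert c1 {c0, d}) → b A ∈ P c0 := by
      intro A h1 h2
      exact mem_fc.1 (F.mem A ⟨c0, h1⟩ (hV.2.2.2.2.2.mono (fc_anti h2))) c0 h1
    have b1 := hb (insert c2 (insert c1 {c0, d})) (by simp) Subset.rfl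
    have b2 := hb {c0, d} (by simp) ((subset_insert _ _).trans (subset_insert _ _))
    have b3 := hb (insert c1 {c0, d}) (by simp) (subset_insert _ _)
    have b4 := hb (insert c2 {c0, d}) (by simp) (insert_subset_insert (subset_insert _ _))
    rw [Vc, if_pos hV]
    have e : b (insert c2 (insert c1 {c0, d})) + b {c0, d} - b (insert c1 {c0, d}) -
        b (insert c2 {c0, d}) = (b (insert c2 (insert c1 {c0, d})) - b (insert c1 {c0, d})) +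
        (b {c0, d} - b (insert c2 {c0, d})) := by abel
    rw [e]
    refine (norm_add_le _ _).trans ?_
    have := hD _ b1 _ b3
    have := hD _ b2 _ b4
    linarith
  · rw [Vc, if_neg hV, norm_zero]; linarith

include F hσ in
/-- the new coordinates are Lipschitz -/
theorem su_lip (hE : ∀ δ, 0 ≤ Ef δ)
    (hE1 : ∀ δ ∈ Icc (0 : ℝ) 1, ∀ δ' ∈ Icc (0 : ℝ) 1, |Ef δ - Ef δ'| ≤ |δ - δ'|) {L : ℝ}
    (hL : 0 ≤ L) (hσL : ∀ a ∈ nbF F c0, ∀ x ∈ Icc (0 : ℝ) 1, ∀ x' ∈ Icc (0 : ℝ) 1,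
      |σ a x - σ a x'| ≤ L * |x - x'|) {u u' : I → ℝ} (hu : u ∈ KC P c0) (hu' : u' ∈ KC P c0)
    {t : ℝ} (ht : ∀ a, |u a - u' a| ≤ t) (a : I) :
    |su (nbF F c0) c0 σ Ef u a - su (nbF F c0) c0 σ Ef u' a| ≤ (3 * L + 2) * t := by
  have ht0 : 0 ≤ t := (abs_nonneg _).trans (ht a)
  have hLt : 0 ≤ L * t := mul_nonneg hL ht0
  by_cases ha : a = c0
  · rw [ha, su_c0, su_c0, sub_self, abs_zero]; nlinarith
  by_cases haC : a ∈ nbF F c0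
  · have hδ : |dl (nbF F c0) c0 u - dl (nbF F c0) c0 u'| ≤ t := abs_dl_sub ht0 ht
    have z0 := dl_nonneg F hu
    have z0' := dl_nonneg F hu'
    have z1 := dl_le_one (C := nbF F c0) (c0 := c0) (u := u)
    have z1' := dl_le_one (C := nbF F c0) (c0 := c0) (u := u')
    have y0 := dl_le_all F hu ha
    have y0' := dl_le_all F hu' ha
    have hEE := hE1 _ ⟨z0, z1⟩ _ ⟨z0', z1'⟩
    rw [su_ne ha, su_ne ha]
    set δ := dl (nbF F c0) c0 u with hδ1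
    set δ' := dl (nbF F c0) c0 u' with hδ2
    have w1 : u a - δ ∈ Icc (0 : ℝ) (1 - δ) := ⟨by linarith, by linarith [(hu.1.1 a).2]⟩
    have w1' : u' a - δ' ∈ Icc (0 : ℝ) (1 - δ') := ⟨by linarith, by linarith [(hu'.1.1 a).2]⟩
    have k1 := hom_lip (D := Icc (0 : ℝ) 1) (g := σ a) hL
      (fun x hx x' hx' => by rw [Real.norm_eq_abs]; exact hσL a haC x hx x' hx')
      (fun x hx => by
        have := hσ.mem a hx
        rw [abs_of_nonneg this.1]; exact this.2)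
      (sub_nonneg.2 z1) (sub_nonneg.2 z1') (x := u a - δ) (x' := u' a - δ')
      (inv_mem z1 w1) (inv_mem z1' w1')
      (by rw [Real.norm_of_nonneg w1.1]; exact w1.2)
      (by rw [Real.norm_of_nonneg w1'.1]; exact w1'.2)
    have e1 : |(1 - δ) - (1 - δ')| ≤ t := by
      have : (1 - δ) - (1 - δ') = -(δ - δ') := by ring
      rw [this, abs_neg]; exact hδ
    have e2 : ‖(u a - δ) - (u' a - δ')‖ ≤ 2 * t := by
      have : (u a - δ) - (u' a - δ') = (u a - u' a) - (δ - δ') := by ring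
      rw [this, Real.norm_eq_abs]
      refine (abs_sub _ _).trans ?_
      linarith [ht a]
    have k2 : |hom (σ a) (1 - δ) (u a - δ) - hom (σ a) (1 - δ') (u' a - δ')| ≤
        (3 * L + 1) * t := by
      refine k1.trans ?_
      have g1 := mul_le_mul_of_nonneg_left e2 hL
      have g2 := mul_le_mul_of_nonneg_left e1 (by linarith : (0 : ℝ) ≤ L + 1)
      linarith
    refine abs_clp_sub ?_ ?_
    · have e3 : δ + hom (σ a) (1 - δ) (u a - δ) - (δ' + hom (σ a) (1 - δ') (u' a - δ')) =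
          (δ - δ') + (hom (σ a) (1 - δ) (u a - δ) - hom (σ a) (1 - δ') (u' a - δ')) := by ring
      rw [e3]
      refine (abs_add_le _ _).trans ?_
      linarith
    · have := ht a
      linarith
  · rw [su_one F hσ hE hu (KC_one F hu haC), su_one F hσ hE hu' (KC_one F hu' haC), sub_self,
      abs_zero]
    nlinarith

/-- the pieces -/
def Qc (F : Foam La P b 4) (c0 d c1 c2 : I) : Set E :=
  {y | y ∈ P c0 ∧ (∀ a ∈ nbF F c0, a ≠ c0 → sc P b y d ≤ sc P b y a) ∧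
    ∀ a ∈ nbF F c0, a ≠ c0 → a ≠ d → a ≠ c1 → a ≠ c2 → 1 ≤ sc P b y a}

include F in
theorem isClosed_Qc (d c1 c2 : I) : IsClosed (Qc F c0 d c1 c2) := by
  have hP := (F.cpt c0).isClosed
  have hc : ∀ a, ContinuousOn (fun y => sc P b y a) (P c0) := fun a =>
    (continuousOn_sc_apply F a).mono (F.sub c0)
  have e : Qc F c0 d c1 c2 = P c0 ∩ ((⋂ a, {y | y ∈ P c0 ∧ (a ∈ nbF F c0 → a ≠ c0 →
      sc P b y d ≤ sc P b y a)}) ∩ ⋂ a, {y | y ∈ P c0 ∧ (a ∈ nbF F c0 → a ≠ c0 → a ≠ d →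
      a ≠ c1 → a ≠ c2 → 1 ≤ sc P b y a)}) := by
    ext y
    simp only [Qc, mem_ofPred_eq, mem_inter_iff, mem_iInter]
    constructor
    · rintro ⟨h1, h2, h3⟩
      exact ⟨h1, fun a => ⟨h1, h2 a⟩, fun a => ⟨h1, h3 a⟩⟩
    · rintro ⟨h1, h2, h3⟩
      exact ⟨h1, fun a => (h2 a).2, fun a => (h3 a).2⟩
  rw [e]
  refine hP.inter ((isClosed_iInter fun a => ?_).inter (isClosed_iInter fun a => ?_))
  · by_cases h : a ∈ nbF F c0 ∧ a ≠ c0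
    · have : {y | y ∈ P c0 ∧ (a ∈ nbF F c0 → a ≠ c0 → sc P b y d ≤ sc P b y a)} =
          {y | y ∈ P c0 ∧ sc P b y d ≤ sc P b y a} := by
        ext y
        simp only [mem_ofPred_eq]
        exact ⟨fun g => ⟨g.1, g.2 h.1 h.2⟩, fun g => ⟨g.1, fun _ _ => g.2⟩⟩
      rw [this]
      exact hP.isClosed_le (hc d) (hc a)
    · have : {y | y ∈ P c0 ∧ (a ∈ nbF F c0 → a ≠ c0 → sc P b y d ≤ sc P b y a)} = P c0 := by
        ext y
        simp only [mem_ofPred_eq]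
        exact ⟨fun g => g.1, fun g => ⟨g, fun h1 h2 => absurd ⟨h1, h2⟩ h⟩⟩
      rw [this]
      exact hP
  · by_cases h : a ∈ nbF F c0 ∧ a ≠ c0 ∧ a ≠ d ∧ a ≠ c1 ∧ a ≠ c2
    · have : {y | y ∈ P c0 ∧ (a ∈ nbF F c0 → a ≠ c0 → a ≠ d → a ≠ c1 → a ≠ c2 →
          1 ≤ sc P b y a)} = {y | y ∈ P c0 ∧ (fun _ => (1 : ℝ)) y ≤ sc P b y a} := by
        ext y
        simp only [mem_ofPred_eq]
        exact ⟨fun g => ⟨g.1, g.2 h.1 h.2.1 h.2.2.1 h.2.2.2.1 h.2.2.2.2⟩,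
          fun g => ⟨g.1, fun _ _ _ _ _ => g.2⟩⟩
      rw [this]
      exact hP.isClosed_le continuousOn_const (hc a)
    · have : {y | y ∈ P c0 ∧ (a ∈ nbF F c0 → a ≠ c0 → a ≠ d → a ≠ c1 → a ≠ c2 →
          1 ≤ sc P b y a)} = P c0 := by
        ext y
        simp only [mem_ofPred_eq]
        exact ⟨fun g => g.1, fun g => ⟨g, fun h1 h2 h3 h4 h5 => absurd ⟨h1, h2, h3, h4, h5⟩ h⟩⟩
      rw [this]
      exact hP

/-- a set of at most two elements -/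
theorem sub_pair {S : Set I} (hS : S.Finite) (h : S.ncard ≤ 2) (x0 : I) :
    ∃ c1 c2, (c1 ∈ S ∨ c1 = x0) ∧ (c2 ∈ S ∨ c2 = x0) ∧ S ⊆ {c1, c2} := by
  have h3 : S.ncard = 0 ∨ S.ncard = 1 ∨ S.ncard = 2 := by omega
  rcases h3 with h | h | h
  · rw [ncard_eq_zero hS] at h
    exact ⟨x0, x0, Or.inr rfl, Or.inr rfl, by rw [h]; exact empty_subset _⟩
  · obtain ⟨x, rfl⟩ := ncard_eq_one.1 h
    exact ⟨x, x, Or.inl rfl, Or.inl rfl, by simp⟩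
  · obtain ⟨x, y, hne, rfl⟩ := ncard_eq_two.1 h
    exact ⟨x, y, Or.inl (by simp), Or.inl (by simp), Subset.rfl⟩

include F in
/-- **the pieces cover the cell** -/
theorem cover_Qc {a0 : I} (ha0 : a0 ∈ nbF F c0) (ha0' : a0 ≠ c0) {y : E} (hy : y ∈ P c0) :
    ∃ d ∈ nbF F c0, d ≠ c0 ∧ ∃ c1 ∈ nbF F c0, ∃ c2 ∈ nbF F c0, y ∈ Qc F c0 d c1 c2 := by
  classical
  have hu := sc_mem_KC F hy
  obtain ⟨d, hd, hdm⟩ := Finset.exists_min_image ((nbF F c0).erase c0) (fun a => sc P b y a)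
    ⟨a0, Finset.mem_erase.2 ⟨ha0', ha0⟩⟩
  have hdC := Finset.mem_of_mem_erase hd
  have hdc := Finset.ne_of_mem_erase hd
  refine ⟨d, hdC, hdc, ?_⟩
  have hmin : ∀ a ∈ nbF F c0, a ≠ c0 → sc P b y d ≤ sc P b y a := fun a ha hac =>
    hdm a (Finset.mem_erase.2 ⟨hac, ha⟩)
  by_cases hd1 : sc P b y d < 1
  · set S : Set I := {a | sc P b y a < 1} \ {c0, d} with hS
    have hfin : {a | sc P b y a < 1}.Finite := F.K_finite hu.1
    have h4 : {a | sc P b y a < 1}.ncard ≤ 4 := F.ncard_le_of_fc (F.K_lt_nonempty hu.1) hu.1.2.2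
    have hsub : ({c0, d} : Set I) ⊆ {a | sc P b y a < 1} := by
      rintro a (rfl | rfl)
      · show sc P b y a < 1
        rw [hu.2]; exact one_pos
      · exact hd1
    have h2 : S.ncard ≤ 2 := by
      rw [hS, ncard_sdiff hsub (hfin.subset hsub), ncard_pair hdc.symm]
      omega
    obtain ⟨c1, c2, g1, g2, g3⟩ := sub_pair (hfin.subset sdiff_subset) h2 c0
    have hc0 := self_mem_nbF F ⟨y, hy⟩
    have mem : ∀ c, (c ∈ S ∨ c = c0) → c ∈ nbF F c0 := by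
      rintro c (h | rfl)
      · by_contra hn
        exact (show sc P b y c < 1 from h.1).ne (KC_one F hu hn)
      · exact hc0
    refine ⟨c1, mem c1 g1, c2, mem c2 g2, hy, hmin, fun a ha g4 g5 g6 g7 => ?_⟩
    by_contra hn
    have : a ∈ S := ⟨not_le.1 hn, by simp [g4, g5]⟩
    rcases g3 this with h | h
    · exact g6 h
    · exact g7 h
  · exact ⟨d, hdC, d, hdC, hy, hmin, fun a ha g4 g5 g6 g7 =>
      (not_lt.1 hd1).trans (hmin a ha g4)⟩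

include F hQ hσ hA hN

/-- **`Rm` is Lipschitz on a piece** -/
theorem Rm_lip_Qc (hE : ∀ δ, 0 ≤ Ef δ)
    (hE1 : ∀ δ ∈ Icc (0 : ℝ) 1, ∀ δ' ∈ Icc (0 : ℝ) 1, |Ef δ - Ef δ'| ≤ |δ - δ'|) {L : ℝ}
    (hL : 0 ≤ L) (hσL : ∀ a ∈ nbF F c0, ∀ x ∈ Icc (0 : ℝ) 1, ∀ x' ∈ Icc (0 : ℝ) 1,
      |σ a x - σ a x'| ≤ L * |x - x'|) {D S : ℝ} (hD0 : 0 ≤ D)
    (hD : ∀ x ∈ P c0, ∀ y ∈ P c0, ‖x - y‖ ≤ D)
    (hS : ∀ y ∈ P c0, ∀ y' ∈ P c0, ∀ a, |sc P b y a - sc P b y' a| ≤ S * ‖y - y'‖)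
    {d c1 c2 : I} (hd : d ≠ c0) (hdC : d ∈ nbF F c0) {y y' : E} (hy : y ∈ Qc F c0 d c1 c2)
    (hy' : y' ∈ Qc F c0 d c1 c2) :
    ‖Rm P b (nbF F c0) c0 σ N Ef y - Rm P b (nbF F c0) c0 σ N Ef y'‖ ≤
      D * S * (27 * L + 24) * ‖y - y'‖ := by
  classical
  obtain ⟨yP, ym, y1⟩ := hy
  obtain ⟨yP', ym', y1'⟩ := hy'
  have hu := sc_mem_KC F yP
  have hu' := sc_mem_KC F yP'
  set t := S * ‖y - y'‖ with ht
  have htd : ∀ a, |sc P b y a - sc P b y' a| ≤ t := hS y yP y' yP'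
  have ht0 : 0 ≤ t := (abs_nonneg _).trans (htd c0)
  have hLt : 0 ≤ L * t := mul_nonneg hL ht0
  rw [Rm_eq F hQ hσ hA hN hE yP (c1 := c1) (c2 := c2) hd hdC ym
      (fun a a1 a2 a3 a4 a5 => le_antisymm (hu.1.1 a).2 (y1 a a1 a2 a3 a4 a5)),
    Rm_eq F hQ hσ hA hN hE yP' (c1 := c1) (c2 := c2) hd hdC ym'
      (fun a a1 a2 a3 a4 a5 => le_antisymm (hu'.1.1 a).2 (y1' a a1 a2 a3 a4 a5))]
  have hv := su_mem F hσ hE hu
  have hv' := su_mem F hσ hE hu'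
  have hsu := su_lip F hσ hE hE1 hL hσL hu hu' htd
  set v := su (nbF F c0) c0 σ Ef (sc P b y) with hvdef
  set v' := su (nbF F c0) c0 σ Ef (sc P b y') with hvdef'
  set δ := dl (nbF F c0) c0 (sc P b y) with hδ
  set δ' := dl (nbF F c0) c0 (sc P b y') with hδ'
  have hδδ : |δ - δ'| ≤ t := abs_dl_sub ht0 htd
  have z0 : 0 ≤ δ := dl_nonneg F hu
  have z0' : 0 ≤ δ' := dl_nonneg F hu'
  have z1 : δ ≤ 1 := dl_le_one
  have z1' : δ' ≤ 1 := dl_le_one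
  have hEE : |Ef δ - Ef δ'| ≤ t := (hE1 δ ⟨z0, z1⟩ δ' ⟨z0', z1'⟩).trans hδδ
  -- the T part
  have hT : ‖T b v - T b v'‖ ≤ D * (3 * ((3 * L + 2) * t)) := by
    have hoff : ∀ c, c ∉ ({d, c1, c2} : Finset I) → v c = v' c := by
      intro a ha
      simp only [Finset.mem_insert, Finset.mem_singleton, not_or] at ha
      by_cases ha0 : a = c0
      · rw [ha0, hv.2, hv'.2]
      have o : ∀ z : E, z ∈ P c0 → (∀ a ∈ nbF F c0, a ≠ c0 → a ≠ d → a ≠ c1 → a ≠ c2 →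
          1 ≤ sc P b z a) → sc P b z a = 1 := by
        intro z hz h
        by_cases haC : a ∈ nbF F c0
        · exact le_antisymm ((sc_mem_KC F hz).1.1 a).2 (h a haC ha0 ha.1 ha.2.1 ha.2.2)
        · exact KC_one F (sc_mem_KC F hz) haC
      rw [hvdef, hvdef', su_one F hσ hE hu (o y yP y1), su_one F hσ hE hu' (o y' yP' y1')]
    refine (T_lip' F hD0 hD hv hv' {d, c1, c2} hoff).trans (mul_le_mul_of_nonneg_left ?_ hD0)
    refine (Finset.sum_le_card_nsmul _ _ ((3 * L + 2) * t) fun a _ => hsu a).trans ?_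
    rw [nsmul_eq_mul]
    refine mul_le_mul_of_nonneg_right ?_ (by nlinarith)
    exact_mod_cast Finset.card_le_three
  -- the height part
  have hH : ‖hh N Ef c1 c2 δ v • Vc P b c0 d c1 c2 - hh N Ef c1 c2 δ' v' • Vc P b c0 d c1 c2‖ ≤
      (3 * ((3 * L + 2) * t) + 3 * t) * (2 * D) := by
    rw [← sub_smul, norm_smul, Real.norm_eq_abs]
    by_cases hV : c1 ≠ c2 ∧ c1 ≠ c0 ∧ c1 ≠ d ∧ c2 ≠ c0 ∧ c2 ≠ d ∧
        (fc P (insert c2 (insert c1 {c0, d}))).Nonempty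
    · have m : ∀ c, c ≠ c0 → v c ∈ Icc δ 1 ∧ v' c ∈ Icc δ' 1 := fun c hc =>
        ⟨⟨dl_le_su F hσ hE hu hc, (hv.1.1 c).2⟩, ⟨dl_le_su F hσ hE hu' hc, (hv'.1.1 c).2⟩⟩
      have k := hh_lip hA (N := N) (Ef := Ef) (c1 := c1) (c2 := c2) z1 z1' (m c1 hV.2.1).1
        (m c2 hV.2.2.2.1).1 (m c1 hV.2.1).2 (m c2 hV.2.2.2.1).2 (hsu c1) (hsu c2) hδδ hEE
      exact mul_le_mul k (norm_Vc_le F hD0 hD d c1 c2) (norm_nonneg _) (by nlinarith)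
    · rw [Vc, if_neg hV, norm_zero, mul_zero]
      exact mul_nonneg (by nlinarith) (by linarith)
  have e : (T b v + hh N Ef c1 c2 δ v • Vc P b c0 d c1 c2) -
      (T b v' + hh N Ef c1 c2 δ' v' • Vc P b c0 d c1 c2) = (T b v - T b v') +
      (hh N Ef c1 c2 δ v • Vc P b c0 d c1 c2 - hh N Ef c1 c2 δ' v' • Vc P b c0 d c1 c2) := by abel
  rw [e]
  refine (norm_add_le _ _).trans ((add_le_add hT hH).trans (le_of_eq ?_))
  rw [ht]; ring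

/-- **`Rm` is Lipschitz on the cell** -/
theorem Rm_lip (hE : ∀ δ, 0 ≤ Ef δ)
    (hE1 : ∀ δ ∈ Icc (0 : ℝ) 1, ∀ δ' ∈ Icc (0 : ℝ) 1, |Ef δ - Ef δ'| ≤ |δ - δ'|) {L : ℝ}
    (hL : 0 ≤ L) (hσL : ∀ a ∈ nbF F c0, ∀ x ∈ Icc (0 : ℝ) 1, ∀ x' ∈ Icc (0 : ℝ) 1,
      |σ a x - σ a x'| ≤ L * |x - x'|) {D S : ℝ} (hD0 : 0 ≤ D)
    (hD : ∀ x ∈ P c0, ∀ y ∈ P c0, ‖x - y‖ ≤ D)
    (hS : ∀ y ∈ P c0, ∀ y' ∈ P c0, ∀ a, |sc P b y a - sc P b y' a| ≤ S * ‖y - y'‖)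
    {y y' : E} (hy : y ∈ P c0) (hy' : y' ∈ P c0) :
    ‖Rm P b (nbF F c0) c0 σ N Ef y - Rm P b (nbF F c0) c0 σ N Ef y'‖ ≤
      D * S * (27 * L + 24) * ‖y - y'‖ := by
  by_cases hex : ∃ a0 ∈ nbF F c0, a0 ≠ c0
  · obtain ⟨a0, ha0, ha0'⟩ := hex
    set f := Rm P b (nbF F c0) c0 σ N Ef with hf
    obtain ⟨g, hg1, hg2⟩ := exists_dual_vector'' ℝ (f y - f y')
    have key := Brk4_582.lip_of_cover (f := fun z => g (f z)) (F.cvx c0)
      (s := {p : I × I × I | (p.1 ∈ nbF F c0 ∧ p.1 ≠ c0) ∧ p.2.1 ∈ nbF F c0 ∧ p.2.2 ∈ nbF F c0})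
      ?_ (C := fun p => Qc F c0 p.1 p.2.1 p.2.2) (fun p _ => isClosed_Qc F _ _ _) ?_
      (K := D * S * (27 * L + 24)) ?_ y hy y' hy'
    · rw [← map_sub, hg2] at key
      have h0 : |(((‖f y - f y'‖ : ℝ)) : ℝ)| = ‖f y - f y'‖ := abs_of_nonneg (norm_nonneg _)
      calc ‖f y - f y'‖ = |(((‖f y - f y'‖ : ℝ)) : ℝ)| := h0.symm
        _ ≤ _ := key
    · refine ((nbF F c0).finite_toSet.prod ((nbF F c0).finite_toSet.prod
        (nbF F c0).finite_toSet)).subset ?_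
      rintro ⟨d, c1, c2⟩ ⟨⟨h1, -⟩, h2, h3⟩
      exact ⟨h1, h2, h3⟩
    · intro z hz
      obtain ⟨d, hd, hdc, c1, hc1, c2, hc2, hzQ⟩ := cover_Qc F ha0 ha0' hz
      exact mem_iUnion₂.2 ⟨(d, c1, c2), ⟨⟨hd, hdc⟩, hc1, hc2⟩, hzQ⟩
    · rintro ⟨d, c1, c2⟩ ⟨⟨h1, h1'⟩, h2, h3⟩ x hx z hz
      show |g (f x) - g (f z)| ≤ _
      rw [← map_sub, ← Real.norm_eq_abs]
      refine (g.le_opNorm _).trans ?_
      have := Rm_lip_Qc F hQ hσ hA hN hE hE1 hL hσL hD0 hD hS h1' h1 hx hz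
      calc ‖g‖ * ‖f x - f z‖ ≤ 1 * ‖f x - f z‖ :=
            mul_le_mul_of_nonneg_right hg1 (norm_nonneg _)
        _ = ‖f x - f z‖ := one_mul _
        _ ≤ _ := this
  · push Not at hex
    have h1 : ∀ z ∈ P c0, z = b {c0} := by
      intro z hz
      refine eq_b_of_dl F hz (le_antisymm dl_le_one ?_)
      exact le_dl' le_rfl fun a ha hac => absurd (hex a ha) hac
    rw [h1 y hy, h1 y' hy']
    simp

end main

end Crest.Agent.R096.Rlp_150
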