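import Crest.Agent.R096.Rlp5_150
import Crest.Agent.R096.Rlp6_714

/-!
# R096 (row 96), REL-P, part 7 (helper150): `Rm` as a PL equivalence of the cell

`exists_R` : cut-off `cut κ1 s η` (`= η` on `δ ≤ κ1`, `= 0` on `s ≤ δ`).
-/

set_option autoImplicit false
set_option linter.unusedSectionVars false
set_option linter.unusedVariables false

open Set

namespace Crest.Agent.R096.Rlp_150

open Crest.Agent.R096.Brk1_582 Crest.Agent.R096.Brk2_582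
open Crest.Agent.R096.Rel_628 Crest.Agent.R096.Grd_714

variable {E : Type*} [NormedAddCommGroup E] [NormedSpace ℝ E] {I : Type*}
variable {La : Set E} {P : I → Set E} {b : Set I → E}

/-! ### the cut-off -/

/-- `η` for `δ ≤ κ1`, `0` for `s ≤ δ` -/
noncomputable def cut (κ1 s η : ℝ) (δ : ℝ) : ℝ := η * max 0 (min 1 ((s - δ) / (s - κ1)))

section cut

variable {κ1 s η : ℝ}

theorem cut_nonneg (h : 0 ≤ η) (δ : ℝ) : 0 ≤ cut κ1 s η δ := mul_nonneg h (le_max_left _ _)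

theorem cut_zero (h : κ1 < s) {δ : ℝ} (hδ : s ≤ δ) : cut κ1 s η δ = 0 := by
  have h1 : (s - δ) / (s - κ1) ≤ 0 :=
    div_nonpos_of_nonpos_of_nonneg (by linarith) (by linarith)
  rw [cut, max_eq_left ((min_le_right _ _).trans h1), mul_zero]

theorem cut_eta (h : κ1 < s) {δ : ℝ} (hδ : δ ≤ κ1) : cut κ1 s η δ = η := by
  have h0 : 0 < s - κ1 := by linarith
  have h1 : 1 ≤ (s - δ) / (s - κ1) := by rw [le_div_iff₀ h0]; linarith
  rw [cut, min_eq_left h1, max_eq_right zero_le_one, mul_one]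

theorem cut_lip (h : κ1 < s) (h0 : 0 ≤ η) (hη : η ≤ s - κ1) (δ δ' : ℝ) :
    |cut κ1 s η δ - cut κ1 s η δ'| ≤ |δ - δ'| := by
  have hs : 0 < s - κ1 := by linarith
  rw [cut, cut, ← mul_sub, abs_mul, abs_of_nonneg h0]
  have h1 : |max 0 (min 1 ((s - δ) / (s - κ1))) - max 0 (min 1 ((s - δ') / (s - κ1)))| ≤
      |(s - δ) / (s - κ1) - (s - δ') / (s - κ1)| := by
    refine (abs_max_sub_max_le_max _ _ _ _).trans ?_
    rw [sub_self, abs_zero]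
    refine max_le (abs_nonneg _) ?_
    refine (abs_min_sub_min_le_max _ _ _ _).trans ?_
    rw [sub_self, abs_zero]
    exact max_le (abs_nonneg _) le_rfl
  have h2 : (s - δ) / (s - κ1) - (s - δ') / (s - κ1) = -(δ - δ') / (s - κ1) := by ring
  rw [h2, abs_div, abs_neg, abs_of_pos hs] at h1
  calc η * _ ≤ η * (|δ - δ'| / (s - κ1)) := mul_le_mul_of_nonneg_left h1 h0
    _ ≤ (s - κ1) * (|δ - δ'| / (s - κ1)) :=
        mul_le_mul_of_nonneg_right hη (div_nonneg (abs_nonneg _) hs.le)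
    _ = |δ - δ'| := by field_simp

theorem sel_cut (K : Set ℝ) : Sel K (cut κ1 s η) := by
  have h1 : Sel K (fun δ : ℝ => (s - δ) / (s - κ1)) := by
    have := ((sel_const (K := K) s).sub
      (sel_affine (K := K) (LinearMap.id (R := ℝ) (M := ℝ)).toAffineMap)).smul_const
        ((s - κ1)⁻¹ : ℝ)
    refine this.congr fun x _ => ?_
    simp [div_eq_mul_inv]
  have h2 := ((sel_const (K := K) (0 : ℝ)).max ((sel_const (K := K) (1 : ℝ)).min h1)).smul_const η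
  refine h2.congr fun x _ => ?_
  simp only [cut, smul_eq_mul]
  ring

end cut

section main

variable [CompleteSpace E] (F : Foam La P b 4) (hQ : Quads P b) {c0 : I}
variable {σ : I → ℝ → ℝ} (hσ : Rl σ) {N : I → I → ℝ × ℝ → ℝ} (hA : ∀ c1 c2, Adm (N c1 c2))
  (hN : Sym N) {Ef : ℝ → ℝ} (hE : ∀ δ, 0 ≤ Ef δ)

/-- without clamps nothing moves -/
theorem lvm_zero (hN : Sym N) (w : I → ℝ) : lvm b σ N 0 w = T b w := by
  have e : sg (cs σ 0) w = w := by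
    funext a; simp only [sg, cs, clp_zero]
  rw [lvm, e]
  by_cases h : ∃ c1 c2 : I, c1 ≠ c2 ∧ av w = {c1, c2}
  · obtain ⟨c1, c2, hne, hav⟩ := h
    rw [Bn_eq (sym_Nc hN 0) hne hav]
    simp only [Nc, clp_zero, sub_self, zero_smul, add_zero]
  · rw [Bn, dif_neg h]

include F in
/-- the gauge of a homothetic copy -/
theorem le_dl_copy {u : E} (hu : u ∈ P c0) {κ' : ℝ} (h0 : 0 ≤ κ') (h1 : κ' ≤ 1) :
    b {c0} + (1 - κ') • (u - b {c0}) ∈ P c0 ∧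
      κ' ≤ dl (nbF F c0) c0 (sc P b (b {c0} + (1 - κ') • (u - b {c0}))) := by
  have hw := sc_mem_KC F hu
  have hC := cone_mem' (c0 := c0) hw (sub_nonneg.2 h1) (by linarith : 1 - κ' ≤ 1)
  have e : b {c0} + (1 - κ') • (u - b {c0}) = T b (cone {c0} (1 - κ') (sc P b u)) := by
    rw [T_cone' F hw (sub_nonneg.2 h1) (by linarith), F.T_sc (F.sub c0 hu)]
  rw [e]
  refine ⟨T_mem_P F hC, ?_⟩
  rw [F.sc_T hC.1]
  refine le_dl (by linarith) fun a ha => ?_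
  rw [cone_ne _ _ ha]
  have := mul_nonneg (sub_nonneg.2 h1) (hw.1.1 a).1
  linarith

include F in
/-- points of large `dl` are in the homothetic copy -/
theorem copy_of_le_dl {y : E} (hy : y ∈ P c0) {κ' : ℝ} (h1 : κ' < 1)
    (h : κ' ≤ dl (nbF F c0) c0 (sc P b y)) :
    ∃ u ∈ P c0, y = b {c0} + (1 - κ') • (u - b {c0}) := by
  have hu := sc_mem_KC F hy
  rcases (dl_le_one (C := nbF F c0) (c0 := c0) (u := sc P b y)).eq_or_lt with h' | h'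
  · exact ⟨b {c0}, b_mem F ⟨y, hy⟩, by rw [eq_b_of_dl F hy h']; simp⟩
  · obtain ⟨k1, k2⟩ := exists_cone F hu h'
    have h3 := dl_nonneg F hu
    set δ := dl (nbF F c0) c0 (sc P b y) with hδ
    have h4 : 0 < 1 - δ := by linarith
    have h5 : (1 : ℝ) - δ ≤ 1 := by linarith
    have hk : 0 < 1 - κ' := by linarith
    set z := T b (up δ (sc P b y)) with hz
    have hzP : z ∈ P c0 := T_mem_P F ⟨k1.1, k1.2.1⟩
    have e1 : y = b {c0} + (1 - δ) • (z - b {c0}) := by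
      rw [hz, ← T_cone' F ⟨k1.1, k1.2.1⟩ h4.le h5, ← k2]
      exact (F.T_sc (F.sub c0 hy)).symm
    refine ⟨b {c0} + ((1 - δ) / (1 - κ')) • (z - b {c0}), ?_, ?_⟩
    · have h6 : (1 - δ) / (1 - κ') ≤ 1 := by rw [div_le_one hk]; linarith
      have := F.cvx c0 (b_mem F ⟨y, hy⟩) hzP (sub_nonneg.2 h6) (div_nonneg h4.le hk.le) (by ring)
      convert this using 1
      module
    · rw [add_sub_cancel_left, smul_smul, mul_div_cancel₀ _ hk.ne']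
      exact e1

include F hQ hσ hA hN

theorem Rm_id (hE : ∀ δ, 0 ≤ Ef δ) {y : E} (hy : y ∈ P c0)
    (h0 : Ef (dl (nbF F c0) c0 (sc P b y)) = 0) : Rm P b (nbF F c0) c0 σ N Ef y = y := by
  have hu := sc_mem_KC F hy
  rcases (dl_le_one (C := nbF F c0) (c0 := c0) (u := sc P b y)).eq_or_lt with h | h
  · rw [Rm_center F hQ hσ hA hN hE hy h, ← eq_b_of_dl F hy h]
  · obtain ⟨h1, h2⟩ := exists_cone F hu h
    have h3 := dl_nonneg F hu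
    set δ := dl (nbF F c0) c0 (sc P b y) with hδ
    have h4 : 0 < 1 - δ := by linarith
    have h5 : (1 : ℝ) - δ ≤ 1 := by linarith
    have e1 : y = T b (cone {c0} (1 - δ) (up δ (sc P b y))) := by
      rw [← h2]; exact (F.T_sc (F.sub c0 hy)).symm
    have e2 : 1 - (1 - δ) = δ := by ring
    have := Rm_cone F hQ hσ hA hN hE h1 h4 h5
    rw [← e1, e2, h0, zero_div, lvm_zero hN, ← T_cone' F ⟨h1.1, h1.2.1⟩ h4.le h5, ← h2,
      F.T_sc (F.sub c0 hy)] at this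
    exact this

/-- **`Rm` is PL** (`hsel` = the local formulas are selections of finitely many affine maps) -/
theorem Rm_plOn (hE : ∀ δ, 0 ≤ Ef δ) (hcont : ContinuousOn (Rm P b (nbF F c0) c0 σ N Ef) (P c0))
    (hsel : ∀ d c1 c2, Sel (P c0) (fun y => T b (su (nbF F c0) c0 σ Ef (sc P b y)) +
      hh N Ef c1 c2 (dl (nbF F c0) c0 (sc P b y)) (su (nbF F c0) c0 σ Ef (sc P b y)) •
        Vc P b c0 d c1 c2)) : Cx_609.PLOn (P c0) (Rm P b (nbF F c0) c0 σ N Ef) := by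
  by_cases hex : ∃ a0 ∈ nbF F c0, a0 ≠ c0
  · obtain ⟨a0, ha0, ha0'⟩ := hex
    have hfin : {p : I × I × I | (p.1 ∈ nbF F c0 ∧ p.1 ≠ c0) ∧ p.2.1 ∈ nbF F c0 ∧
        p.2.2 ∈ nbF F c0}.Finite := by
      refine ((nbF F c0).finite_toSet.prod ((nbF F c0).finite_toSet.prod
        (nbF F c0).finite_toSet)).subset ?_
      rintro ⟨d, c1, c2⟩ ⟨⟨h1, -⟩, h2, h3⟩
      exact ⟨h1, h2, h3⟩
    have h1 : Cx_609.PLOn (⋃ p ∈ {p : I × I × I | (p.1 ∈ nbF F c0 ∧ p.1 ≠ c0) ∧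
        p.2.1 ∈ nbF F c0 ∧ p.2.2 ∈ nbF F c0}, Qc F c0 p.1 p.2.1 p.2.2)
        (Rm P b (nbF F c0) c0 σ N Ef) := by
      refine Cx_609.PLOn.biUnion hfin (fun p _ => isClosed_Qc F _ _ _) ?_
      rintro ⟨d, c1, c2⟩ ⟨⟨hdC, hd⟩, -, -⟩
      refine ⟨hcont.mono fun y hy => hy.1, ?_⟩
      have := ((hsel d c1 c2).mono (L := Qc F c0 d c1 c2) fun y hy => hy.1).congr
        (g := Rm P b (nbF F c0) c0 σ N Ef) fun y hy => Rm_eq F hQ hσ hA hN hE hy.1 hd hdC hy.2.1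
          fun a a1 a2 a3 a4 a5 => le_antisymm ((sc_mem_KC F hy.1).1.1 a).2
            (hy.2.2 a a1 a2 a3 a4 a5)
      exact this
    refine h1.mono fun y hy => ?_
    obtain ⟨d, hd, hdc, c1, hc1, c2, hc2, hyQ⟩ := cover_Qc F ha0 ha0' hy
    exact mem_iUnion₂.2 ⟨(d, c1, c2), ⟨⟨hd, hdc⟩, hc1, hc2⟩, hyQ⟩
  · push Not at hex
    refine (Cx_609.plOn_const (P c0) (b {c0})).congr fun z hz => ?_
    have h1 : dl (nbF F c0) c0 (sc P b z) = 1 :=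
      le_antisymm dl_le_one (le_dl' le_rfl fun a ha hac => absurd (hex a ha) hac)
    exact Rm_center F hQ hσ hA hN hE hz h1

omit hσ hA hN in
/-- **REL-P for a foam, any clamp width `Ef`** -/
theorem exists_Rm [FiniteDimensional ℝ E] (hσ : Rl σ) (hA : ∀ c1 c2, Adm (N c1 c2)) (hN : Sym N)
    (hE : ∀ δ, 0 ≤ Ef δ)
    (hE1 : ∀ δ ∈ Icc (0 : ℝ) 1, ∀ δ' ∈ Icc (0 : ℝ) 1, |Ef δ - Ef δ'| ≤ |δ - δ'|)
    (hsE : Sel (Icc 0 1) Ef) (hsσ : ∀ a, Sel (Icc 0 1) (σ a)) (hsN : ∀ c1 c2, Sel Sc (N c1 c2))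
    {L : ℝ} (hL : 0 ≤ L) (hσL : ∀ a ∈ nbF F c0, ∀ x ∈ Icc (0 : ℝ) 1, ∀ x' ∈ Icc (0 : ℝ) 1,
      |σ a x - σ a x'| ≤ L * |x - x'|) {D S : ℝ} (hD0 : 0 ≤ D)
    (hD : ∀ x ∈ P c0, ∀ y ∈ P c0, ‖x - y‖ ≤ D)
    (hS : ∀ y ∈ P c0, ∀ y' ∈ P c0, ∀ a, |sc P b y a - sc P b y' a| ≤ S * ‖y - y'‖) :
    ∃ R : Ce_537.PLEquiv (P c0) (P c0), R.f = Rm P b (nbF F c0) c0 σ N Ef ∧
      ∀ y ∈ P c0, ∀ y' ∈ P c0, ‖R.f y - R.f y'‖ ≤ D * S * (27 * L + 24) * ‖y - y'‖ := by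
  have hlip : ∀ y ∈ P c0, ∀ y' ∈ P c0, ‖Rm P b (nbF F c0) c0 σ N Ef y -
      Rm P b (nbF F c0) c0 σ N Ef y'‖ ≤ D * S * (27 * L + 24) * ‖y - y'‖ :=
    fun y hy y' hy' => Rm_lip F hQ hσ hA hN hE hE1 hL hσL hD0 hD hS hy hy'
  have hcont : ContinuousOn (Rm P b (nbF F c0) c0 σ N Ef) (P c0) := by
    have : LipschitzOnWith (Real.toNNReal (D * S * (27 * L + 24)))
        (Rm P b (nbF F c0) c0 σ N Ef) (P c0) := by
      refine LipschitzOnWith.of_dist_le_mul fun y hy y' hy' => ?_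
      rw [dist_eq_norm, dist_eq_norm]
      exact (hlip y hy y' hy').trans
        (mul_le_mul_of_nonneg_right (Real.le_coe_toNNReal _) (norm_nonneg _))
    exact this.continuousOn
  have hpl := Rm_plOn F hQ hσ hA hN hE hcont (sel_piece F hσ hE hsσ hsE hsN)
  have hbij : BijOn (Rm P b (nbF F c0) c0 σ N Ef) (P c0) (P c0) :=
    ⟨Rm_mapsTo F hQ hσ hA hN hE, Rm_injOn F hQ hσ hA hN hE, Rm_surjOn F hQ hσ hA hN hE⟩
  obtain ⟨R, hR⟩ := Cx_609.exists_equiv_of_bijOn (F.cvx c0).finConv (F.cpt c0).isClosed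
    (Cx_609.plOn_iff.1 hpl) hbij
  exact ⟨R, hR, by rw [hR]; exact hlip⟩

omit hσ hA hN in
/-- **REL-P for a foam** -/
theorem exists_R [FiniteDimensional ℝ E] (hσ : Rl σ) (hA : ∀ c1 c2, Adm (N c1 c2)) (hN : Sym N)
    (hsσ : ∀ a, Sel (Icc 0 1) (σ a)) (hsN : ∀ c1 c2, Sel Sc (N c1 c2)) {κ1 s η : ℝ}
    (hκ0 : 0 ≤ κ1) (hs : κ1 < s) (hs1 : s ≤ 1) (hη0 : 0 ≤ η) (hη : η ≤ s - κ1) {L : ℝ}
    (hL : 0 ≤ L) (hσL : ∀ a ∈ nbF F c0, ∀ x ∈ Icc (0 : ℝ) 1, ∀ x' ∈ Icc (0 : ℝ) 1,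
      |σ a x - σ a x'| ≤ L * |x - x'|) {D S : ℝ} (hD0 : 0 ≤ D)
    (hD : ∀ x ∈ P c0, ∀ y ∈ P c0, ‖x - y‖ ≤ D)
    (hS : ∀ y ∈ P c0, ∀ y' ∈ P c0, ∀ a, |sc P b y a - sc P b y' a| ≤ S * ‖y - y'‖) :
    ∃ R : Ce_537.PLEquiv (P c0) (P c0),
      (∀ z ∈ P c0, (∃ d, d ≠ c0 ∧ z ∈ P d) → ∀ ρ ∈ Icc (1 - κ1) 1,
        R.f (b {c0} + ρ • (z - b {c0})) =
          b {c0} + ρ • (lvm b σ N (η / ρ) (sc P b z) - b {c0})) ∧
      (∀ y ∈ P c0, s ≤ dl (nbF F c0) c0 (sc P b y) → R.f y = y) ∧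
      (∀ y ∈ P c0, dl (nbF F c0) c0 (sc P b (R.f y)) = dl (nbF F c0) c0 (sc P b y)) ∧
      ∀ y ∈ P c0, ∀ y' ∈ P c0, ‖R.f y - R.f y'‖ ≤ D * S * (27 * L + 24) * ‖y - y'‖ := by
  have hE : ∀ δ, 0 ≤ cut κ1 s η δ := cut_nonneg hη0
  obtain ⟨R, hR, hlip⟩ := exists_Rm F hQ hσ hA hN hE (fun δ _ δ' _ => cut_lip hs hη0 hη δ δ')
    (sel_cut _) hsσ hsN hL hσL hD0 hD hS
  refine ⟨R, ?_, ?_, ?_, hlip⟩
  · rintro z hz ⟨d, hd, hzd⟩ ρ ⟨h1, h2⟩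
    have h0 : 0 < ρ := by linarith
    rw [hR, Rm_ray F hQ hσ hA hN hE hz hd hzd h0 h2, cut_eta hs (by linarith)]
  · intro y hy h
    rw [hR]
    exact Rm_id F hQ hσ hA hN hE hy (cut_zero hs h)
  · intro y hy
    rw [hR]
    exact dl_Rm F hQ hσ hA hN hE hy

end main

end Crest.Agent.R096.Rlp_150
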