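import Mathlib
import Crest.Agent.R96.Intr28_538

/-!
Row 96 (S0127), helper816.  Leaf `rm_tiles` (855 #10785 (4)): random measures of weighted segments
from disjoint tiles.  Part 1: the counting lemma and the abstract criterion.
-/

set_option autoImplicit false
set_option linter.unusedSectionVars false
set_option linter.style.longLine false

open MeasureTheory Set Filter Metric
open scoped ENNReal NNReal Topology

namespace Crest.Agent.R096.Rmt_816

open Crest.AnalysisR.VecCalc3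
open Crest.Agent.R96.Coarse_538

noncomputable section

/-- **counting by disjoint tiles**: weights `w e ≤ C μ (P (q e))`, at most `m` elements per tile, all
tiles in `Z`: the sum of the weights is at most `C m μ Z`. -/
theorem tsum_le_tiles {α κi ι' : Type*} [MeasurableSpace α] {μ : Measure α} {w : κi → ℝ≥0∞}
    {P : ι' → Set α} {q : κi → ι'} {C m : ℝ≥0∞} (hP : ∀ i, NullMeasurableSet (P i) μ)
    (hd : Pairwise (fun i j => AEDisjoint μ (P i) (P j))) (S : Set κi)
    (hw : ∀ e ∈ S, w e ≤ C * μ (P (q e)))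
    (hm : ∀ i, (({e | e ∈ S ∧ q e = i}.encard : ℕ∞) : ℝ≥0∞) ≤ m) {Z : Set α}
    (hZ : ∀ e ∈ S, P (q e) ⊆ Z) :
    ∑' e, S.indicator w e ≤ C * m * μ Z := by
  classical
  have h1 : ∑' e, S.indicator w e = ∑' i, ∑' e : {e // q e = i}, S.indicator w e.1 := by
    rw [← (Equiv.sigmaFiberEquiv q).tsum_eq, ENNReal.tsum_sigma']
    rfl
  have h2 : ∀ i, ∑' e : {e // q e = i}, S.indicator w e.1 ≤
      (q '' S).indicator (fun i => m * (C * μ (P i))) i := by
    intro i
    by_cases hi : i ∈ q '' S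
    · rw [indicator_of_mem hi]
      have h3 : ∑' e : {e // q e = i}, S.indicator w e.1 ≤
          ∑' e : {e // q e = i}, {e : {e // q e = i} | e.1 ∈ S}.indicator
            (fun _ => C * μ (P i)) e := by
        refine ENNReal.tsum_le_tsum fun e => ?_
        by_cases he : e.1 ∈ S
        · rw [indicator_of_mem he, indicator_of_mem (show e ∈ {e : {e // q e = i} | e.1 ∈ S} from he)]
          have := hw e.1 he
          rwa [e.2] at this
        · rw [indicator_of_notMem he]; exact bot_le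
      refine h3.trans ?_
      rw [← tsum_subtype, ENNReal.tsum_set_const]
      gcongr
      refine le_trans ?_ (hm i)
      norm_cast
      have h4 : {e | e ∈ S ∧ q e = i} = Subtype.val '' {e : {e // q e = i} | e.1 ∈ S} := by
        ext e
        constructor
        · rintro ⟨h5, h6⟩; exact ⟨⟨e, h6⟩, h5, rfl⟩
        · rintro ⟨⟨e', h6⟩, h5, rfl⟩; exact ⟨h5, h6⟩
      rw [h4, Subtype.val_injective.encard_image]
    · rw [indicator_of_notMem hi]
      refine (ENNReal.tsum_eq_zero.2 fun e => ?_).le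
      rw [indicator_of_notMem]
      intro he
      exact hi ⟨e.1, he, e.2⟩
  rw [h1]
  refine (ENNReal.tsum_le_tsum h2).trans ?_
  rw [← tsum_subtype]
  have h5 : ∑' i : (q '' S), μ (P i.1) ≤ μ (⋃ i : (q '' S), P i.1) :=
    tsum_meas_le_meas_iUnion_of_disjoint₀ μ (fun i => hP i.1) fun i j hij =>
      hd fun h => hij (Subtype.ext h)
  have h6 : (⋃ i : (q '' S), P i.1) ⊆ Z := by
    refine iUnion_subset ?_
    rintro ⟨_, e, he, rfl⟩
    exact hZ e he
  calc ∑' i : (q '' S), m * (C * μ (P i.1)) = m * (C * ∑' i : (q '' S), μ (P i.1)) := by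
        rw [ENNReal.tsum_mul_left, ENNReal.tsum_mul_left]
    _ ≤ m * (C * μ Z) := by gcongr; exact h5.trans (measure_mono h6)
    _ = C * m * μ Z := by ring

/-- segments with weights which belong to disjoint tiles: `q e` the tile of the edge `e` -/
structure TileW {κi ι' : Type*} (x v : κi → R3) (w : κi → ℝ≥0∞) (P : ι' → Set R3) (q : κi → ι')
    (S : Set κi) (C m : ℝ≥0∞) (R : ℝ) : Prop where
  meas : ∀ i, NullMeasurableSet (P i)
  disj : Pairwise (fun i j => AEDisjoint volume (P i) (P j))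
  wt : ∀ e ∈ S, w e ≤ C * volume (P (q e))
  mult : ∀ i, (({e | e ∈ S ∧ q e = i}.encard : ℕ∞) : ℝ≥0∞) ≤ m
  near : ∀ e ∈ S, ∀ σ ∈ Icc (0:ℝ) 1, ∀ z ∈ P (q e), dist z (x e + σ • v e) ≤ R

/-- the volume of a difference set -/
theorem volume_sub_preimage (y : R3) (Z : Set R3) :
    volume ((fun z : R3 => y - z) ⁻¹' Z) = volume Z := by
  have h : (fun z : R3 => y - z) ⁻¹' Z = Neg.neg ⁻¹' ((fun z : R3 => y + z) ⁻¹' Z) := by
    ext z; simp [sub_eq_add_neg]
  rw [h, Measure.measure_preimage_neg, measure_preimage_add]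

/-- the sum over a subfamily -/
theorem TileW.sum_le {κi ι' : Type*} {x v : κi → R3} {w : κi → ℝ≥0∞}
    {P : ι' → Set R3} {q : κi → ι'} {S : Set κi} {C m : ℝ≥0∞} {R : ℝ}
    (h : TileW x v w P q S C m R) (S' : Set κi) (hS : S' ⊆ S) {Z : Set R3}
    (hZ : ∀ e ∈ S', P (q e) ⊆ Z) : ∑' e, S'.indicator w e ≤ C * m * volume Z := by
  refine tsum_le_tiles (μ := volume) (w := w) (q := q) (C := C) (m := m) h.meas h.disj S'
    (fun e he => h.wt e (hS he)) (fun i => ?_) hZ
  refine le_trans ?_ (h.mult i)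
  norm_cast
  exact encard_le_encard fun e he => ⟨hS he.1, he.2⟩

theorem lint_le_one (B : Set R3) (f : ℝ → R3) :
    ∫⁻ σ in Ioc (0:ℝ) 1, B.indicator (1 : R3 → ℝ≥0∞) (f σ) ≤ 1 := by
  calc ∫⁻ σ in Ioc (0:ℝ) 1, B.indicator (1 : R3 → ℝ≥0∞) (f σ)
      ≤ ∫⁻ _ in Ioc (0:ℝ) 1, 1 := by
        refine lintegral_mono fun σ => ?_
        by_cases h : f σ ∈ B
        · rw [indicator_of_mem h]; exact le_rfl
        · rw [indicator_of_notMem h]; exact bot_le
    _ = 1 := by simp

theorem lint_zero (B : Set R3) (f : ℝ → R3) (h : ¬ ∃ σ ∈ Ioc (0:ℝ) 1, f σ ∈ B) :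
    ∫⁻ σ in Ioc (0:ℝ) 1, B.indicator (1 : R3 → ℝ≥0∞) (f σ) = 0 := by
  have h3 : ∫⁻ σ in Ioc (0:ℝ) 1, B.indicator (1 : R3 → ℝ≥0∞) (f σ) =
      ∫⁻ _ in Ioc (0:ℝ) 1, 0 := by
    refine setLIntegral_congr_fun measurableSet_Ioc fun σ hσ => ?_
    exact indicator_of_notMem (fun h4 => h ⟨σ, hσ, h4⟩) _
  rw [h3, lintegral_zero]

/-- the term of one edge in the criterion -/
theorem term_le {κi : Type*} (x v : κi → R3) (w : κi → ℝ≥0∞) (A : κi → Set R3) (D : Set R3)
    (y : R3) (e : κi) :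
    w e * ((A e).indicator 1 y * ∫⁻ σ in Ioc (0:ℝ) 1, D.indicator 1 (y - (x e + σ • v e))) ≤
      {e | (A e).Nonempty ∧ ∃ σ ∈ Ioc (0:ℝ) 1, y - (x e + σ • v e) ∈ D}.indicator w e := by
  by_cases hyA : y ∈ A e
  · by_cases hs : ∃ σ ∈ Ioc (0:ℝ) 1, y - (x e + σ • v e) ∈ D
    · have he : e ∈ {e | (A e).Nonempty ∧ ∃ σ ∈ Ioc (0:ℝ) 1, y - (x e + σ • v e) ∈ D} :=
        ⟨⟨y, hyA⟩, hs⟩
      rw [indicator_of_mem he, indicator_of_mem hyA, Pi.one_apply, one_mul]
      exact mul_le_of_le_one_right' (lint_le_one D _)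
    · rw [lint_zero D (fun σ => y - (x e + σ • v e)) hs, mul_zero, mul_zero]
      exact bot_le
  · rw [indicator_of_notMem hyA, zero_mul, mul_zero]
    exact bot_le

/-- **criterion `rm_tiles`**: the weighted segments are a random measure with the density `C m K` if
the `R`-neighbourhood of the set of positions has volume at most `K` times its volume -/
theorem rm_tiles {κi ι' : Type*} [Countable κi] {x v : κi → R3} {w : κi → ℝ≥0∞}
    {P : ι' → Set R3} {q : κi → ι'} {A : κi → Set R3} {C m K : ℝ≥0∞} {R : ℝ}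
    (h : TileW x v w P q {e | (A e).Nonempty} C m R) (hA : ∀ e, MeasurableSet (A e))
    {D : Set R3} (hD : MeasurableSet D) (hK : volume (cthickening R D) ≤ K * volume D) :
    RM D (C * m * K) (segM x v w A) := by
  refine rm_of hD hA fun y => ?_
  refine (ENNReal.tsum_le_tsum fun e => term_le x v w A D y e).trans ?_
  have h2 : ∑' e, {e | (A e).Nonempty ∧ ∃ σ ∈ Ioc (0:ℝ) 1, y - (x e + σ • v e) ∈ D}.indicator w e ≤
      C * m * volume ((fun z : R3 => y - z) ⁻¹' cthickening R D) := by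
    refine h.sum_le _ (fun e he => he.1) ?_
    intro e he z hz
    obtain ⟨heA, σ, hσ, hd⟩ := he
    have h3 := h.near e heA σ (Ioc_subset_Icc_self hσ) z hz
    have h4 : dist (y - z) (y - (x e + σ • v e)) = dist z (x e + σ • v e) := by
      rw [dist_sub_left]
    rw [mem_preimage]
    have h5 : dist (y - z) (y - (x e + σ • v e)) ≤ R := by rw [h4]; exact h3
    exact mem_cthickening_of_dist_le (y - z) (y - (x e + σ • v e)) R D hd h5
  refine h2.trans ?_
  rw [volume_sub_preimage]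
  calc C * m * volume (cthickening R D) ≤ C * m * (K * volume D) := by gcongr
    _ = C * m * K * volume D := by ring

/-- the term of one edge in the measure of a set -/
theorem term_le' {κi : Type*} (x v : κi → R3) (w : κi → ℝ≥0∞) (A : κi → Set R3) (Y : Set R3)
    (a : R3) (e : κi) :
    w e * ∫⁻ σ in Ioc (0:ℝ) 1, (A e).indicator (Y.indicator 1) (a + x e + σ • v e) ≤
      {e | (A e).Nonempty ∧ ∃ σ ∈ Ioc (0:ℝ) 1, a + x e + σ • v e ∈ Y}.indicator w e := by
  have h0 : ∀ σ : ℝ, (A e).indicator (Y.indicator (1 : R3 → ℝ≥0∞)) (a + x e + σ • v e) =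
      (A e ∩ Y).indicator (1 : R3 → ℝ≥0∞) (a + x e + σ • v e) := by
    intro σ
    rw [indicator_indicator]
  simp only [h0]
  by_cases hs : e ∈ {e | (A e).Nonempty ∧ ∃ σ ∈ Ioc (0:ℝ) 1, a + x e + σ • v e ∈ Y}
  · rw [indicator_of_mem hs]
    exact mul_le_of_le_one_right' (lint_le_one (A e ∩ Y) _)
  · rw [lint_zero (A e ∩ Y) (fun σ => a + x e + σ • v e), mul_zero]
    · exact bot_le
    · rintro ⟨σ, hσ, h1, h2⟩
      exact hs ⟨⟨_, h1⟩, σ, hσ, h2⟩

/-- the measure of a set is at most the volume of its neighbourhood -/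
theorem segM_le_tiles {κi ι' : Type*} {x v : κi → R3} {w : κi → ℝ≥0∞}
    {P : ι' → Set R3} {q : κi → ι'} {A : κi → Set R3} {C m : ℝ≥0∞} {R : ℝ}
    (h : TileW x v w P q {e | (A e).Nonempty} C m R) (hA : ∀ e, MeasurableSet (A e))
    {Y : Set R3} (hY : MeasurableSet Y) (a : R3) :
    segM x v w A a Y ≤ C * m * volume (cthickening R Y) := by
  rw [← lintegral_indicator_one hY, lint_segM hA (measurable_one.indicator hY)]
  refine (ENNReal.tsum_le_tsum fun e => term_le' x v w A Y a e).trans ?_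
  have h2 : ∑' e, {e | (A e).Nonempty ∧ ∃ σ ∈ Ioc (0:ℝ) 1, a + x e + σ • v e ∈ Y}.indicator w e ≤
      C * m * volume ((fun z : R3 => a + z) ⁻¹' cthickening R Y) := by
    refine h.sum_le _ (fun e he => he.1) ?_
    intro e he z hz
    obtain ⟨heA, σ, hσ, hd⟩ := he
    have h3 := h.near e heA σ (Ioc_subset_Icc_self hσ) z hz
    have h4 : dist (a + z) (a + x e + σ • v e) = dist z (x e + σ • v e) := by
      rw [add_assoc, dist_add_left]
    rw [mem_preimage]
    have h5 : dist (a + z) (a + x e + σ • v e) ≤ R := by rw [h4]; exact h3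
    exact mem_cthickening_of_dist_le (a + z) (a + x e + σ • v e) R Y hd h5
  refine h2.trans ?_
  rw [measure_preimage_add]

end

end Crest.Agent.R096.Rmt_816
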