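import Crest.Agent.R096.Rmt1_816
import Crest.Agent.R096.Ca8_855
import Crest.Agent.R096.Fsl7_793

/-!
Row 96 (S0127), helper816.  Leaf `rm_tiles` (855 #10785 (4)).  Part 2: the edges of a class of fat
tiles of a rigid family of tilings are a random measure; the constant depends on the shape of the
tiles of the class only.
-/

set_option autoImplicit false
set_option linter.unusedSectionVars false
set_option linter.style.longLine false

open MeasureTheory Set Filter Metric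
open scoped ENNReal NNReal Topology

namespace Crest.Agent.R096.Rmt_816

open Crest.AnalysisR.VecCalc3
open Crest.Agent.R96.Coarse_538
open Crest.Agent.R96.Intr_538
open Crest.Agent.R096.Msh_715 (Tiling P I)
open Crest.Agent.R096.Mf_113 (Rig CK)
open Crest.Agent.R096.Ca_855

noncomputable section

/-! ### volumes of neighbourhoods of cubes -/

theorem cthick_box {A : Set R3} {R : ℝ} (hR : 0 ≤ R) {l u : Fin 3 → ℝ}
    (hA : ∀ x ∈ A, ∀ i, l i ≤ x i ∧ x i ≤ u i) {x : R3} (hx : x ∈ cthickening R A) (i : Fin 3) :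
    l i - R ≤ x i ∧ x i ≤ u i + R := by
  have key : ∀ ε > 0, l i - R ≤ x i + ε ∧ x i ≤ u i + R + ε := by
    intro ε hε
    have h1 : x ∈ thickening (R + ε) A :=
      cthickening_subset_thickening' (by positivity) (by linarith) A hx
    obtain ⟨y, hy, hxy⟩ := mem_thickening_iff.1 h1
    have h2 : |x i - y i| ≤ dist x y := by
      rw [dist_eq_norm]
      have h3 := PiLp.norm_apply_le (x - y) i
      simpa using h3
    have h4 := abs_le.1 (h2.trans hxy.le)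
    have h5 := hA y hy i
    constructor <;> linarith [h4.1, h4.2, h5.1, h5.2]
  constructor
  · exact le_of_forall_pos_le_add fun ε hε => (key ε hε).1
  · exact le_of_forall_pos_le_add fun ε hε => (key ε hε).2

theorem volume_cthick_box {A : Set R3} {R : ℝ} (hR : 0 ≤ R) {l u : Fin 3 → ℝ}
    (hA : ∀ x ∈ A, ∀ i, l i ≤ x i ∧ x i ≤ u i) :
    volume (cthickening R A) ≤ ∏ i, ENNReal.ofReal (u i - l i + 2 * R) := by
  have h1 : cthickening R A ⊆ {x : R3 | ∀ i, x i ∈ (fun i => Icc (l i - R) (u i + R)) i} :=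
    fun x hx i => cthick_box hR hA hx i
  refine (measure_mono h1).trans ?_
  rw [vol_box fun _ => measurableSet_Icc]
  refine (Finset.prod_congr rfl fun i _ => ?_).le
  rw [Real.volume_Icc]
  congr 1
  ring

/-- the neighbourhood of the cube of positions -/
theorem thick_Dt {s R : ℝ} (hs : 0 < s) (hR : 0 ≤ R) (hRs : R ≤ s) :
    volume (cthickening R (Dt s)) ≤ 27 * volume (Dt s) := by
  have h1 := volume_cthick_box (A := Dt s) hR (l := fun _ => 0) (u := fun _ => s)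
    (fun x hx i => ⟨(hx i).1, (hx i).2.le⟩)
  refine h1.trans ?_
  rw [vol_Dt hs]
  simp only [Finset.prod_const, Finset.card_univ, Fintype.card_fin]
  rw [← ENNReal.ofReal_pow (by linarith), show (27 : ℝ≥0∞) = ENNReal.ofReal 27 by simp,
    ← ENNReal.ofReal_mul (by norm_num)]
  refine ENNReal.ofReal_le_ofReal ?_
  have h2 : s - 0 + 2 * R ≤ 3 * s := by linarith
  calc (s - 0 + 2 * R) ^ 3 ≤ (3 * s) ^ 3 := by
        gcongr
    _ = 27 * s ^ 3 := by ring

/-- the neighbourhood of a cube -/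
theorem thick_cel {z : R3} {s R : ℝ} (hs : 0 < s) (hR : 0 ≤ R) :
    volume (cthickening R (cel Cb z s)) ≤ ENNReal.ofReal ((2 * (s + R)) ^ 3) := by
  have h1 := volume_cthick_box (A := cel Cb z s) hR (l := fun i => z i - s) (u := fun i => z i + s)
    (fun x hx i => by
      have h2 := (mem_cel hs).1 hx i
      rw [abs_le] at h2
      constructor <;> linarith [h2.1, h2.2])
  refine h1.trans ?_
  have h3 : ∀ i : Fin 3, z i + s - (z i - s) + 2 * R = 2 * (s + R) := fun i => by ring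
  simp only [h3, Finset.prod_const, Finset.card_univ, Fintype.card_fin]
  rw [ENNReal.ofReal_pow (by positivity)]

theorem ofReal_cube_le_ball {c : R3} {ρ : ℝ} (hρ : 0 ≤ ρ) :
    ENNReal.ofReal (ρ ^ 3) ≤ volume (ball c ρ) := by
  rw [EuclideanSpace.volume_ball_fin_three, ← ENNReal.ofReal_pow hρ,
    ← ENNReal.ofReal_mul (by positivity)]
  refine ENNReal.ofReal_le_ofReal ?_
  have h1 := Real.pi_gt_three
  have h2 : 0 ≤ ρ ^ 3 := by positivity
  nlinarith

/-! ### fat tiles -/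

/-- **a fat tile**: a ball of a radius comparable with the diameter, diameter at most `t`, at most
`nc` neighbours -/
structure FatT {E : Type*} [NormedAddCommGroup E] [NormedSpace ℝ E] {Om : Set E} {ι : Type*}
    (T : Tiling Om ι) (i : ι) (Λ t : ℝ) (nc : ℕ) : Prop where
  ball : ∃ c ρ, 0 < ρ ∧ closedBall c ρ ⊆ P (T.H i) ∧
    ∀ y ∈ P (T.H i), ∀ y' ∈ P (T.H i), ‖y - y'‖ ≤ Λ * ρ
  diam : ∀ y ∈ P (T.H i), ∀ y' ∈ P (T.H i), ‖y - y'‖ ≤ t
  card : {j | (P (T.H j) ∩ P (T.H i)).Nonempty}.encard ≤ nc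

/-- 855's tiles are fat -/
theorem FatT.ofG {Om : Set R3} {ι : Type*} {T : Tiling Om ι} {i : ι} {hne : (T.H i).Nonempty}
    {c : R3} {β ρ t Λ : ℝ} {nc : ℕ} (h : TileG T i hne c β ρ t nc) (hρ : 0 < ρ)
    (hfin : {j | (P (T.H j) ∩ P (T.H i)).Nonempty}.Finite) (hΛ : t ≤ Λ * ρ) :
    FatT T i Λ t nc where
  ball := ⟨c, ρ, hρ, h.ball, fun y hy y' hy' => (h.diam y hy y' hy').trans hΛ⟩
  diam := h.diam
  card := by
    rw [← hfin.cast_ncard_eq]
    exact_mod_cast h.cardN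

section rig

variable {Om Om0 W Tr : Set R3} {ι0 : Type} {ι : R3 → Type} {T0 : Tiling Om0 ι0}
  {T : ∀ a, Tiling Om (ι a)}

theorem P_inj' {i j : ι0} (h : P (T0.H i) = P (T0.H j)) : i = j := by
  obtain ⟨z, hz⟩ := T0.ne i
  have h1 : T0.at_ z = {i} := T0.at_eq_singleton hz
  have h2 : j ∈ T0.at_ z := by
    show z ∈ P (T0.H j)
    rw [← h]
    exact Msh_715.I_sub_P _ hz
  rw [h1] at h2
  exact h2.symm

/-- a tile of the family inside `W` is the translate of a tile of the model -/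
theorem Rig.tile_eq (h : Rig T0 T Tr W) {a : R3} (ha : a ∈ Tr) {j : ι a}
    (hj : P ((T a).H j) ⊆ W) : ∃ i, (a + ·) '' P (T0.H i) = P ((T a).H j) := by
  obtain ⟨p, hp⟩ := (T a).ne j
  have hp' : p ∈ P ((T a).H j) := Msh_715.I_sub_P _ hp
  obtain ⟨h1, h2, h3⟩ := h a ha p (hj hp')
  have h4 : P ((T a).H j) ∈ (fun j => P ((T a).H j)) '' (T a).at_ p := ⟨j, hp', rfl⟩
  rw [h3] at h4
  obtain ⟨i, -, e⟩ := h4
  exact ⟨i, e⟩

/-- fatness of the tiles of the model -/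
theorem Rig.fat0 (h : Rig T0 T Tr W) {a : R3} (ha : a ∈ Tr) {j : ι a}
    (hj : P ((T a).H j) ⊆ W) {Λ t : ℝ} {nc : ℕ} (hf : FatT (T a) j Λ t nc) {i : ι0}
    (hi : (a + ·) '' P (T0.H i) = P ((T a).H j)) : FatT T0 i Λ t nc := by
  have hd : ∀ y ∈ P (T0.H i), a + y ∈ P ((T a).H j) := fun y hy => by
    rw [← hi]; exact ⟨y, hy, rfl⟩
  refine ⟨?_, ?_, ?_⟩
  · obtain ⟨c, ρ, hρ, hc, hΛ⟩ := hf.ball
    refine ⟨c - a, ρ, hρ, fun z hz => ?_, fun y hy y' hy' => ?_⟩
    · have h4 : a + z ∈ closedBall c ρ := by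
        rw [mem_closedBall, dist_eq_norm] at hz ⊢
        rwa [show a + z - c = z - (c - a) by abel]
      have h5 := hc h4
      rw [← hi] at h5
      obtain ⟨w, hw, e1⟩ := h5
      rwa [← add_left_cancel e1]
    · have h4 := hΛ _ (hd y hy) _ (hd y' hy')
      rwa [add_sub_add_left_eq_sub] at h4
  · intro y hy y' hy'
    have h4 := hf.diam _ (hd y hy) _ (hd y' hy')
    rwa [add_sub_add_left_eq_sub] at h4
  · refine le_trans ?_ hf.card
    have key : ∀ k : ι0, ∃ k' : ι a, (P (T0.H k) ∩ P (T0.H i)).Nonempty →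
        (a + ·) '' P (T0.H k) = P ((T a).H k') ∧ (P ((T a).H k') ∩ P ((T a).H j)).Nonempty := by
      intro k
      by_cases hk : (P (T0.H k) ∩ P (T0.H i)).Nonempty
      · obtain ⟨p, hp1, hp2⟩ := hk
        have hpW : a + p ∈ W := hj (hd p hp2)
        obtain ⟨h1, h2, h3⟩ := h a ha _ hpW
        have h4 : (a + ·) '' P (T0.H k) ∈ (fun i => (a + ·) '' P (T0.H i)) '' T0.at_ (a + p - a) := by
          refine ⟨k, ?_, rfl⟩
          show a + p - a ∈ P (T0.H k)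
          rwa [add_sub_cancel_left]
        rw [← h3] at h4
        obtain ⟨k', hk', e⟩ := h4
        exact ⟨k', fun _ => ⟨e.symm, a + p, hk', hd p hp2⟩⟩
      · exact ⟨j, fun h => absurd h hk⟩
    choose F hF using key
    refine encard_le_encard_of_injOn (f := F) (fun k hk => (hF k hk).2) ?_
    intro k hk k' hk' e
    have h1 := (hF k hk).1
    have h2 := (hF k' hk').1
    rw [← e, ← h1] at h2
    have h3 : P (T0.H k') = P (T0.H k) :=
      (image_injective.2 (add_right_injective a)) h2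
    exact (P_inj' h3).symm

/-- the edges of the tiles of a class -/
def ES (T0 : Tiling Om0 ι0) (Tr W : Set R3) (T : ∀ a, Tiling Om (ι a)) (Cl : ∀ a, ι a → Prop) :
    Set (KE T0 Tr W) :=
  {e | ∃ a ∈ Tr, ∃ j, Cl a j ∧ (a + ·) '' e.1.1.set ⊆ P ((T a).H j)}

/-- the edges of a class cut to a set -/
def cutS {κi : Type*} (S : Set κi) (E : Set R3) (e : κi) : Set R3 := {y | y ∈ E ∧ e ∈ S}

theorem meas_cutS {κi : Type*} (S : Set κi) {E : Set R3} (hE : MeasurableSet E) (e : κi) :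
    MeasurableSet (cutS S E e) := by
  by_cases he : e ∈ S
  · have : cutS S E e = E := by ext y; simp [cutS, he]
    rwa [this]
  · have : cutS S E e = ∅ := by ext y; simp [cutS, he]
    rw [this]; exact MeasurableSet.empty

theorem mem_of_cutS {κi : Type*} {S : Set κi} {E : Set R3} {e : κi} (h : (cutS S E e).Nonempty) :
    e ∈ S := h.some_mem.2

/-- every 1-cell of a tile of the class is one of the edges -/
theorem exists_edge (h : Rig T0 T Tr W) {Cl : ∀ a, ι a → Prop} {a : R3} (ha : a ∈ Tr) {j : ι a}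
    (hj : Cl a j) (hjW : P ((T a).H j) ⊆ W) {y : R3} (hy : y ∈ Om) (hd : (T a).dim y = 1)
    (hyj : (T a).cc y ⊆ P ((T a).H j)) :
    ∃ e ∈ ES T0 Tr W T Cl, (T a).cc y = segment ℝ (a + kx h e.1) (a + kx h e.1 + kv h e.1) := by
  obtain ⟨e, he⟩ := k_cell h ha hy hd ⟨y, (T a).self_mem_cc y, hjW (hyj ((T a).self_mem_cc y))⟩
  have h1 : (a + ·) '' e.1.set = (T a).cc y := by rw [he, k_image h a e]
  refine ⟨⟨e, a, ha, y, ?_, hjW (hyj ((T a).self_mem_cc y))⟩, ⟨a, ha, j, hj, ?_⟩, he⟩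
  · rw [h1]; exact (T a).self_mem_cc y
  · show (a + ·) '' e.1.set ⊆ _
    rw [h1]; exact hyj

/-- **the edges of a class of fat tiles belong to disjoint balls** -/
theorem tileW_rig (h : Rig T0 T Tr W) {Cl : ∀ a, ι a → Prop} {Λ t : ℝ} {nc : ℕ}
    (hW : ∀ a ∈ Tr, ∀ j, Cl a j → P ((T a).H j) ⊆ W)
    (hf : ∀ a ∈ Tr, ∀ j, Cl a j → FatT (T a) j Λ t nc) :
    ∃ (B : ι0 → Set R3) (q : KE T0 Tr W → ι0), TileW (fun e : KE T0 Tr W => kx h e.1)
      (fun e => kv h e.1) (fun e => ENNReal.ofReal (‖kv h e.1‖ ^ 3)) B q (ES T0 Tr W T Cl)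
      (ENNReal.ofReal (Λ ^ 3)) ((2 ^ nc : ℕ) : ℝ≥0∞) t := by
  classical
  -- the balls
  have hball : ∀ i : ι0, ∃ (c : R3) (ρ : ℝ), (FatT T0 i Λ t nc → 0 < ρ ∧
      closedBall c ρ ⊆ P (T0.H i) ∧ ∀ y ∈ P (T0.H i), ∀ y' ∈ P (T0.H i), ‖y - y'‖ ≤ Λ * ρ) ∧
      (¬ FatT T0 i Λ t nc → ρ = 0) := by
    intro i
    by_cases hi : FatT T0 i Λ t nc
    · obtain ⟨c, ρ, h1⟩ := hi.ball
      exact ⟨c, ρ, fun _ => h1, fun h2 => absurd hi h2⟩
    · exact ⟨0, 0, fun h1 => absurd h1 hi, fun _ => rfl⟩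
  choose c ρ hb hb0 using hball
  -- the tiles of the edges
  have hq : ∀ e : KE T0 Tr W, ∃ i : ι0, e ∈ ES T0 Tr W T Cl →
      FatT T0 i Λ t nc ∧ e.1.1.set ⊆ P (T0.H i) := by
    intro e
    by_cases he : e ∈ ES T0 Tr W T Cl
    · obtain ⟨a, ha, j, hj, hsub⟩ := he
      obtain ⟨i, hi⟩ := Rig.tile_eq h ha (hW a ha j hj)
      refine ⟨i, fun _ => ⟨Rig.fat0 h ha (hW a ha j hj) (hf a ha j hj) hi, ?_⟩⟩
      rw [← hi] at hsub
      exact (image_subset_image_iff (add_right_injective a)).1 hsub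
    · exact ⟨(T0.at_nonempty e.1.1.pt_mem).some, fun h1 => absurd h1 he⟩
  choose q hq using hq
  refine ⟨fun i => ball (c i) (ρ i), q, ⟨?_, ?_, ?_, ?_, ?_⟩⟩
  · exact fun i => measurableSet_ball.nullMeasurableSet
  · intro i j hij
    refine Disjoint.aedisjoint ?_
    by_cases hi : FatT T0 i Λ t nc
    · by_cases hj : FatT T0 j Λ t nc
      · exact Fsl_793.ball_disj hij (hb i hi).2.1 (hb j hj).2.1
      · rw [hb0 j hj, ball_zero]; exact disjoint_bot_right
    · rw [hb0 i hi, ball_zero]; exact disjoint_bot_left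
  · intro e he
    obtain ⟨h1, h2⟩ := hq e he
    obtain ⟨h3, h4, h5⟩ := hb _ h1
    have h6 : ‖kv h e.1‖ ≤ Λ * ρ (q e) := by
      have h7 : kx h e.1 ∈ P (T0.H (q e)) := by
        apply h2; rw [k_set h e.1]; exact left_mem_segment ℝ _ _
      have h8 : kx h e.1 + kv h e.1 ∈ P (T0.H (q e)) := by
        apply h2; rw [k_set h e.1]; exact right_mem_segment ℝ _ _
      have h9 := h5 _ h8 _ h7
      rwa [add_sub_cancel_left] at h9
    have hΛρ : 0 ≤ Λ * ρ (q e) := (norm_nonneg _).trans h6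
    have hΛ0 : 0 ≤ Λ := nonneg_of_mul_nonneg_left hΛρ h3
    calc ENNReal.ofReal (‖kv h e.1‖ ^ 3) ≤ ENNReal.ofReal ((Λ * ρ (q e)) ^ 3) :=
          ENNReal.ofReal_le_ofReal (pow_le_pow_left₀ (norm_nonneg _) h6 3)
      _ = ENNReal.ofReal (Λ ^ 3) * ENNReal.ofReal (ρ (q e) ^ 3) := by
          rw [mul_pow, ENNReal.ofReal_mul (by positivity)]
      _ ≤ ENNReal.ofReal (Λ ^ 3) * volume (ball (c (q e)) (ρ (q e))) := by
          gcongr
          exact ofReal_cube_le_ball h3.le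
  · intro i
    by_cases hi : ∃ e ∈ ES T0 Tr W T Cl, q e = i
    · obtain ⟨e0, he0, rfl⟩ := hi
      have hcard := (hq e0 he0).1.card
      set N := {j | (P (T0.H j) ∩ P (T0.H (q e0))).Nonempty} with hN
      have hfin : N.Finite := finite_of_encard_le_coe hcard
      have hn : N.ncard ≤ nc := by
        rw [← hfin.cast_ncard_eq] at hcard
        exact_mod_cast hcard
      have hpow : (𝒫 N).encard ≤ ((2 ^ nc : ℕ) : ℕ∞) := by
        have h1 : (𝒫 N).Finite := hfin.finite_subsets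
        rw [← h1.cast_ncard_eq, Set.ncard_powerset N hfin]
        exact_mod_cast Nat.pow_le_pow_right (by norm_num) hn
      have h2 : {e | e ∈ ES T0 Tr W T Cl ∧ q e = q e0}.encard ≤ ((2 ^ nc : ℕ) : ℕ∞) := by
        refine le_trans ?_ hpow
        refine encard_le_encard_of_injOn (f := fun e : KE T0 Tr W => T0.at_ e.1.1.pt) ?_ ?_
        · rintro e ⟨he, hee⟩ j hj
          have h3 := (hq e he).2
          rw [hee] at h3
          have h4 : e.1.1.set ⊆ P (T0.H j) := by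
            rw [e.1.1.set_eq]; exact T0.cc_sub_tile hj
          have h5 : e.1.1.pt ∈ e.1.1.set := by
            rw [e.1.1.set_eq]; exact T0.self_mem_cc _
          exact ⟨_, h4 h5, h3 h5⟩
        · intro e _ e' _ hee
          exact Subtype.ext (Subtype.ext (cell_inj hee))
      exact_mod_cast h2
    · have h1 : {e | e ∈ ES T0 Tr W T Cl ∧ q e = i} = ∅ := by
        ext e
        simp only [mem_ofPred_eq, mem_empty_iff_false, iff_false]
        rintro ⟨h2, h3⟩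
        exact hi ⟨e, h2, h3⟩
      rw [h1]
      simp
  · intro e he σ hσ z hz
    obtain ⟨h1, h2⟩ := hq e he
    obtain ⟨h3, h4, h5⟩ := hb _ h1
    have h6 : kx h e.1 + σ • kv h e.1 ∈ P (T0.H (q e)) := by
      apply h2
      rw [k_set h e.1, segment_eq_image']
      exact ⟨σ, hσ, by simp⟩
    rw [dist_eq_norm]
    exact h1.diam _ (h4 (ball_subset_closedBall hz)) _ h6

/-- **`rm_tiles` for a rigid family**: the edges of a class of fat tiles, weights `length³`, cut to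
measurable sets -/
theorem rm_rig (h : Rig T0 T Tr W) {Cl : ∀ a, ι a → Prop} {Λ t : ℝ} {nc : ℕ}
    (hW : ∀ a ∈ Tr, ∀ j, Cl a j → P ((T a).H j) ⊆ W)
    (hf : ∀ a ∈ Tr, ∀ j, Cl a j → FatT (T a) j Λ t nc) {A : KE T0 Tr W → Set R3}
    (hA : ∀ e, MeasurableSet (A e)) (hAS : ∀ e, (A e).Nonempty → e ∈ ES T0 Tr W T Cl)
    (hTr : MeasurableSet Tr) {K : ℝ≥0∞} (hK : volume (cthickening t Tr) ≤ K * volume Tr) :
    RM Tr (ENNReal.ofReal (Λ ^ 3) * ((2 ^ nc : ℕ) : ℝ≥0∞) * K)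
      (segM (fun e : KE T0 Tr W => kx h e.1) (fun e => kv h e.1)
        (fun e => ENNReal.ofReal (‖kv h e.1‖ ^ 3)) A) := by
  obtain ⟨B, q, hB⟩ := tileW_rig h hW hf
  have : Countable (KE T0 Tr W) := inferInstance
  refine rm_tiles (P := B) (q := q) ⟨hB.meas, hB.disj, fun e he => hB.wt e (hAS e he),
    fun i => le_trans ?_ (hB.mult i), fun e he => hB.near e (hAS e he)⟩ hA hTr hK
  norm_cast
  exact encard_le_encard fun e he => ⟨hAS e he.1, he.2⟩

/-- the mass of a set -/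
theorem segM_rig_le (h : Rig T0 T Tr W) {Cl : ∀ a, ι a → Prop} {Λ t : ℝ} {nc : ℕ}
    (hW : ∀ a ∈ Tr, ∀ j, Cl a j → P ((T a).H j) ⊆ W)
    (hf : ∀ a ∈ Tr, ∀ j, Cl a j → FatT (T a) j Λ t nc) {A : KE T0 Tr W → Set R3}
    (hA : ∀ e, MeasurableSet (A e)) (hAS : ∀ e, (A e).Nonempty → e ∈ ES T0 Tr W T Cl)
    {Y : Set R3} (hY : MeasurableSet Y) (a : R3) :
    segM (fun e : KE T0 Tr W => kx h e.1) (fun e => kv h e.1)
        (fun e => ENNReal.ofReal (‖kv h e.1‖ ^ 3)) A a Y ≤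
      ENNReal.ofReal (Λ ^ 3) * ((2 ^ nc : ℕ) : ℝ≥0∞) * volume (cthickening t Y) := by
  obtain ⟨B, q, hB⟩ := tileW_rig h hW hf
  refine segM_le_tiles (P := B) (q := q) ⟨hB.meas, hB.disj, fun e he => hB.wt e (hAS e he),
    fun i => le_trans ?_ (hB.mult i), fun e he => hB.near e (hAS e he)⟩ hA hY a
  norm_cast
  exact encard_le_encard fun e he => ⟨hAS e he.1, he.2⟩

/-- **the form for 538's `coarse_E`**: the class `Cl` cut to the region `E`, positions in a cube -/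
theorem rm_rig_Dt {s : ℝ} (h : Rig T0 T (Dt s) W) {Cl : ∀ a, ι a → Prop} {Λ t : ℝ} {nc : ℕ}
    (hΛ : 0 ≤ Λ) (hs : 0 < s) (ht : 0 ≤ t) (hts : t ≤ s)
    (hW : ∀ a ∈ Dt s, ∀ j, Cl a j → P ((T a).H j) ⊆ W)
    (hf : ∀ a ∈ Dt s, ∀ j, Cl a j → FatT (T a) j Λ t nc) {E : Set R3} (hE : MeasurableSet E) :
    RM (Dt s) (ENNReal.ofReal (27 * Λ ^ 3 * 2 ^ nc))
      (segM (fun e : KE T0 (Dt s) W => kx h e.1) (fun e => kv h e.1)
        (fun e => ENNReal.ofReal (‖kv h e.1‖ ^ 3)) (cutS (ES T0 (Dt s) W T Cl) E)) := by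
  have h1 := rm_rig h hW hf (A := cutS (ES T0 (Dt s) W T Cl) E) (fun e => meas_cutS _ hE e)
    (fun e he => mem_of_cutS he) (meas_Dt s) (thick_Dt hs ht hts)
  have e1 : ENNReal.ofReal (Λ ^ 3) * ((2 ^ nc : ℕ) : ℝ≥0∞) * 27 =
      ENNReal.ofReal (27 * Λ ^ 3 * 2 ^ nc) := by
    rw [show (27 : ℝ≥0∞) = ENNReal.ofReal 27 by simp,
      show ((2 ^ nc : ℕ) : ℝ≥0∞) = ENNReal.ofReal (2 ^ nc) by
        rw [← ENNReal.ofReal_natCast]; push_cast; rfl,
      ← ENNReal.ofReal_mul (by positivity), ← ENNReal.ofReal_mul (by positivity)]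
    congr 1
    ring
  rwa [e1] at h1

/-- **the count of `coarse_E`** -/
theorem cel_rig_le (h : Rig T0 T Tr W) {Cl : ∀ a, ι a → Prop} {Λ t : ℝ} {nc : ℕ} (hΛ : 0 ≤ Λ)
    (hW : ∀ a ∈ Tr, ∀ j, Cl a j → P ((T a).H j) ⊆ W)
    (hf : ∀ a ∈ Tr, ∀ j, Cl a j → FatT (T a) j Λ t nc) {E : Set R3} (hE : MeasurableSet E)
    {s : ℝ} (hs : 0 < s) (ht : 0 ≤ t) (hts : t ≤ s) (a z : R3) :
    segM (fun e : KE T0 Tr W => kx h e.1) (fun e => kv h e.1)
        (fun e => ENNReal.ofReal (‖kv h e.1‖ ^ 3)) (cutS (ES T0 Tr W T Cl) E) a (cel Cb z s) ≤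
      ENNReal.ofReal (8 * Λ ^ 3 * 2 ^ nc * (2 * s) ^ 3) := by
  refine (segM_rig_le h hW hf (A := cutS (ES T0 Tr W T Cl) E) (fun e => meas_cutS _ hE e)
    (fun e he => mem_of_cutS he) (isClosed_cel z s).measurableSet a).trans ?_
  calc ENNReal.ofReal (Λ ^ 3) * ((2 ^ nc : ℕ) : ℝ≥0∞) * volume (cthickening t (cel Cb z s))
      ≤ ENNReal.ofReal (Λ ^ 3) * ENNReal.ofReal (2 ^ nc) *
        ENNReal.ofReal ((2 * (s + t)) ^ 3) := by
        gcongr
        · rw [← ENNReal.ofReal_natCast]; push_cast; exact le_rfl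
        · exact thick_cel hs ht
    _ = ENNReal.ofReal (Λ ^ 3 * 2 ^ nc * (2 * (s + t)) ^ 3) := by
        rw [← ENNReal.ofReal_mul (by positivity), ← ENNReal.ofReal_mul (by positivity)]
    _ ≤ ENNReal.ofReal (8 * Λ ^ 3 * 2 ^ nc * (2 * s) ^ 3) := by
        refine ENNReal.ofReal_le_ofReal ?_
        have h1 : (2 * (s + t)) ^ 3 ≤ (4 * s) ^ 3 :=
          pow_le_pow_left₀ (by positivity) (by linarith) 3
        calc Λ ^ 3 * 2 ^ nc * (2 * (s + t)) ^ 3 ≤ Λ ^ 3 * 2 ^ nc * (4 * s) ^ 3 := by gcongr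
          _ = 8 * Λ ^ 3 * 2 ^ nc * (2 * s) ^ 3 := by ring

end rig

end

end Crest.Agent.R096.Rmt_816
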