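import Crest.Agent.R096.Rmt2_816
import Crest.Agent.R096.Fsl8_793

/-!
Row 96 (S0127), helper816.  Leaf `rm_tiles` / [ELIST], part 3: measures (faces, strips of faces) of a
class of fat tiles of a rigid family are a random measure; the constant depends on the shape of the
tiles of the class only.
-/

set_option autoImplicit false
set_option linter.unusedSectionVars false
set_option linter.style.longLine false

open MeasureTheory Set Filter Metric
open scoped ENNReal NNReal Topology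

namespace Crest.Agent.R096.Rmt_816

open Crest.AnalysisR.VecCalc3
open Crest.Agent.R96.Coarse_538
open Crest.Agent.R96.Intr_538
open Crest.Agent.R096.Msh_715 (Tiling P I)
open Crest.Agent.R096.Mf_113 (Rig CK)
open Crest.Agent.R096.Ca_855
open Crest.Agent.R096.Rmg_793 (trM lint_trM rm_tr)
open Crest.Agent.R096.Fsl_793 (fcM RF)
open Crest.Agent.R096.Fce_793 (pt)
open Crest.Agent.R096.Sk2_855 (sk1)

noncomputable section

/-- measures which belong to disjoint tiles: `q e` the tile of the measure `e` -/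
structure TileM {κi ι' : Type*} (ν : κi → Measure R3) (w : κi → ℝ≥0∞) (P : ι' → Set R3)
    (q : κi → ι') (S : Set κi) (C m : ℝ≥0∞) (R : ℝ) : Prop where
  meas : ∀ i, NullMeasurableSet (P i)
  disj : Pairwise (fun i j => AEDisjoint volume (P i) (P j))
  mass : ∀ e ∈ S, ν e univ ≤ w e
  wt : ∀ e ∈ S, w e ≤ C * volume (P (q e))
  mult : ∀ i, (({e | e ∈ S ∧ q e = i}.encard : ℕ∞) : ℝ≥0∞) ≤ m
  near : ∀ e ∈ S, ∀ᵐ x ∂ν e, ∀ z ∈ P (q e), dist z x ≤ R

/-- the sum over a subfamily -/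
theorem TileM.sum_le {κi ι' : Type*} {ν : κi → Measure R3} {w : κi → ℝ≥0∞}
    {P : ι' → Set R3} {q : κi → ι'} {S : Set κi} {C m : ℝ≥0∞} {R : ℝ}
    (h : TileM ν w P q S C m R) (S' : Set κi) (hS : S' ⊆ S) {Z : Set R3}
    (hZ : ∀ e ∈ S', P (q e) ⊆ Z) : ∑' e, S'.indicator w e ≤ C * m * volume Z := by
  refine tsum_le_tiles (μ := volume) (w := w) (q := q) (C := C) (m := m) h.meas h.disj S'
    (fun e he => h.wt e (hS he)) (fun i => ?_) hZ
  refine le_trans ?_ (h.mult i)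
  norm_cast
  exact encard_le_encard fun e he => ⟨hS he.1, he.2⟩

/-- **criterion for measures** -/
theorem rm_tilesM {κi ι' : Type*} [Countable κi] {ν : κi → Measure R3} [∀ e, SFinite (ν e)]
    {w : κi → ℝ≥0∞} {P : ι' → Set R3} {q : κi → ι'} {A : κi → Set R3} {C m K : ℝ≥0∞} {R : ℝ}
    (h : TileM ν w P q {e | (A e).Nonempty} C m R) (hA : ∀ e, MeasurableSet (A e))
    {D : Set R3} (hD : MeasurableSet D) (hK : volume (cthickening R D) ≤ K * volume D) :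
    RM D (C * m * K) (trM ν A) := by
  refine rm_tr hD hA fun y => ?_
  have h1 : ∀ e, (A e).indicator 1 y * ν e {x | y - x ∈ D} ≤
      {e | (A e).Nonempty ∧ ν e {x | y - x ∈ D} ≠ 0}.indicator w e := by
    intro e
    by_cases hyA : y ∈ A e
    · by_cases hs : ν e {x | y - x ∈ D} = 0
      · rw [hs, mul_zero]; exact bot_le
      · have he : e ∈ {e | (A e).Nonempty ∧ ν e {x | y - x ∈ D} ≠ 0} := ⟨⟨y, hyA⟩, hs⟩
        rw [indicator_of_mem he, indicator_of_mem hyA, Pi.one_apply, one_mul]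
        exact (measure_mono (subset_univ _)).trans (h.mass e ⟨y, hyA⟩)
    · rw [indicator_of_notMem hyA, zero_mul]
      exact bot_le
  refine (ENNReal.tsum_le_tsum h1).trans ?_
  have h2 : ∑' e, {e | (A e).Nonempty ∧ ν e {x | y - x ∈ D} ≠ 0}.indicator w e ≤
      C * m * volume ((fun z : R3 => y - z) ⁻¹' cthickening R D) := by
    refine h.sum_le _ (fun e he => he.1) ?_
    intro e he z hz
    obtain ⟨heA, hν⟩ := he
    obtain ⟨x, hx1, hx2⟩ := ((frequently_ae_mem_iff.2 hν).and_eventually (h.near e heA)).exists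
    have h3 := hx2 z hz
    have h4 : dist (y - z) (y - x) = dist z x := by
      rw [dist_sub_left]
    rw [mem_preimage]
    have h5 : dist (y - z) (y - x) ≤ R := by rw [h4]; exact h3
    exact mem_cthickening_of_dist_le (y - z) (y - x) R D hx1 h5
  refine h2.trans ?_
  rw [volume_sub_preimage]
  calc C * m * volume (cthickening R D) ≤ C * m * (K * volume D) := by gcongr
    _ = C * m * K * volume D := by ring

/-- the measure of a set -/
theorem trM_le_tiles {κi ι' : Type*} {ν : κi → Measure R3}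
    {w : κi → ℝ≥0∞} {P : ι' → Set R3} {q : κi → ι'} {A : κi → Set R3} {C m : ℝ≥0∞} {R : ℝ}
    (h : TileM ν w P q {e | (A e).Nonempty} C m R) (hA : ∀ e, MeasurableSet (A e))
    {Y : Set R3} (hY : MeasurableSet Y) (a : R3) :
    trM ν A a Y ≤ C * m * volume (cthickening R Y) := by
  rw [← lintegral_indicator_one hY, lint_trM hA (measurable_one.indicator hY)]
  have h0 : ∀ e, ∫⁻ x, (A e).indicator (Y.indicator 1) (a + x) ∂ν e =
      ν e {x | a + x ∈ A e ∩ Y} := by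
    intro e
    have h3 : MeasurableSet {x : R3 | a + x ∈ A e ∩ Y} :=
      ((hA e).inter hY).preimage (by fun_prop)
    rw [← lintegral_indicator_one h3]
    refine lintegral_congr fun x => ?_
    rw [indicator_indicator]
    rfl
  simp only [h0]
  have h1 : ∀ e, ν e {x | a + x ∈ A e ∩ Y} ≤
      {e | (A e).Nonempty ∧ ν e {x | a + x ∈ Y} ≠ 0}.indicator w e := by
    intro e
    by_cases he : e ∈ {e | (A e).Nonempty ∧ ν e {x | a + x ∈ Y} ≠ 0}
    · rw [indicator_of_mem he]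
      exact (measure_mono (subset_univ _)).trans (h.mass e he.1)
    · rw [indicator_of_notMem he]
      by_cases hA' : (A e).Nonempty
      · have h3 : ν e {x | a + x ∈ Y} = 0 := by
          by_contra h4
          exact he ⟨hA', h4⟩
        rw [← h3]
        exact measure_mono fun x hx => hx.2
      · rw [not_nonempty_iff_eq_empty] at hA'
        have h3 : {x : R3 | a + x ∈ A e ∩ Y} = ∅ := by
          rw [hA']; ext x; simp
        rw [h3, measure_empty]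
  refine (ENNReal.tsum_le_tsum h1).trans ?_
  have h2 : ∑' e, {e | (A e).Nonempty ∧ ν e {x | a + x ∈ Y} ≠ 0}.indicator w e ≤
      C * m * volume ((fun z : R3 => a + z) ⁻¹' cthickening R Y) := by
    refine h.sum_le _ (fun e he => he.1) ?_
    intro e he z hz
    obtain ⟨heA, hν⟩ := he
    obtain ⟨x, hx1, hx2⟩ := ((frequently_ae_mem_iff.2 hν).and_eventually (h.near e heA)).exists
    have h3 := hx2 z hz
    have h4 : dist (a + z) (a + x) = dist z x := by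
      rw [dist_add_left]
    rw [mem_preimage]
    have h5 : dist (a + z) (a + x) ≤ R := by rw [h4]; exact h3
    exact mem_cthickening_of_dist_le (a + z) (a + x) R Y hx1 h5
  refine h2.trans ?_
  rw [measure_preimage_add]

section rig

variable {Om Om0 W Tr : Set R3} {ι0 : Type} {ι : R3 → Type} {T0 : Tiling Om0 ι0}
  {T : ∀ a, Tiling Om (ι a)}

/-- the frame of a face of the model -/
def fe (h : Rig T0 T Tr W) (φ : CK T0 2) : Fin 2 → R3 := (Mf_113.Rig.faces h).choose φ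

/-- the base point of a face of the model -/
def fx (h : Rig T0 T Tr W) (φ : CK T0 2) : R3 := (Mf_113.Rig.faces h).choose_spec.choose φ

/-- the face in its frame -/
def fQ (h : Rig T0 T Tr W) (φ : CK T0 2) : Set (ℝ × ℝ) :=
  (Mf_113.Rig.faces h).choose_spec.choose_spec.choose φ

theorem fspec (h : Rig T0 T Tr W) : (∀ φ, LinearIndependent ℝ (fe h φ)) ∧
      (∀ φ i, ‖fe h φ i‖ = 2 * diam φ.1.set) ∧ (∀ φ, inner ℝ (fe h φ 0) (fe h φ 1) = 0) ∧
      (∀ φ, IsCompact (fQ h φ)) ∧ (∀ φ, Convex ℝ (fQ h φ)) ∧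
      (∀ φ, fQ h φ ⊆ Icc (0 : ℝ) 1 ×ˢ Icc (0 : ℝ) 1) ∧
      (∀ φ, φ.1.set = pt (fe h φ) (fx h φ) '' fQ h φ) ∧
      ∀ a ∈ Tr, ∀ y ∈ Om, (T a).dim y = 2 → ((T a).cc y ∩ W).Nonempty →
        ∃ φ, (T a).cc y = pt (fe h φ) (a + fx h φ) '' fQ h φ ∧
          ∀ w ∈ fQ h φ, w ∉ interior (fQ h φ) → pt (fe h φ) (a + fx h φ) w ∈ sk1 (T a) :=
  (Mf_113.Rig.faces h).choose_spec.choose_spec.choose_spec

theorem f_image (h : Rig T0 T Tr W) (a : R3) (φ : CK T0 2) :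
    (a + ·) '' φ.1.set = pt (fe h φ) (a + fx h φ) '' fQ h φ := by
  rw [(fspec h).2.2.2.2.2.2.1 φ, Mf_113.pt_translate]

/-- the faces of the tiles of a class -/
def FS (T0 : Tiling Om0 ι0) (Tr W : Set R3) (T : ∀ a, Tiling Om (ι a)) (Cl : ∀ a, ι a → Prop) :
    Set (RF T0 Tr W) :=
  {φ | ∃ a ∈ Tr, ∃ j, Cl a j ∧ (a + ·) '' φ.1.1.set ⊆ P ((T a).H j)}

/-- every 2-cell of a tile of the class is one of the faces -/
theorem exists_face (h : Rig T0 T Tr W) {Cl : ∀ a, ι a → Prop} {a : R3} (ha : a ∈ Tr) {j : ι a}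
    (hj : Cl a j) (hjW : P ((T a).H j) ⊆ W) {y : R3} (hy : y ∈ Om) (hd : (T a).dim y = 2)
    (hyj : (T a).cc y ⊆ P ((T a).H j)) :
    ∃ φ ∈ FS T0 Tr W T Cl, (T a).cc y = pt (fe h φ.1) (a + fx h φ.1) '' fQ h φ.1 := by
  obtain ⟨φ, hφ, -⟩ := (fspec h).2.2.2.2.2.2.2 a ha y hy hd
    ⟨y, (T a).self_mem_cc y, hjW (hyj ((T a).self_mem_cc y))⟩
  have h1 : (a + ·) '' φ.1.set = (T a).cc y := by rw [hφ, f_image h a φ]
  refine ⟨⟨φ, a, ha, y, ?_, hjW (hyj ((T a).self_mem_cc y))⟩, ⟨a, ha, j, hj, ?_⟩, hφ⟩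
  · show y ∈ (a + ·) '' φ.1.set
    rw [h1]; exact (T a).self_mem_cc y
  · show (a + ·) '' φ.1.set ⊆ _
    rw [h1]; exact hyj

/-- **the faces of a class of fat tiles belong to disjoint balls** -/
theorem tileM_rig (h : Rig T0 T Tr W) {Cl : ∀ a, ι a → Prop} {Λ t : ℝ} {nc : ℕ}
    (hW : ∀ a ∈ Tr, ∀ j, Cl a j → P ((T a).H j) ⊆ W)
    (hf : ∀ a ∈ Tr, ∀ j, Cl a j → FatT (T a) j Λ t nc) {S : RF T0 Tr W → Set (ℝ × ℝ)}
    (hS : ∀ φ, S φ ⊆ fQ h φ.1) (hSm : ∀ φ, MeasurableSet (S φ)) {w : RF T0 Tr W → ℝ≥0∞}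
    (hw : ∀ φ, w φ * volume (S φ) ≤ ENNReal.ofReal (‖fe h φ.1 0‖ ^ 3)) :
    ∃ (B : ι0 → Set R3) (q : RF T0 Tr W → ι0),
      TileM (fcM (fun φ : RF T0 Tr W => fx h φ.1) (fun φ => fe h φ.1) S w)
      (fun φ => ENNReal.ofReal (‖fe h φ.1 0‖ ^ 3)) B q (FS T0 Tr W T Cl)
      (ENNReal.ofReal ((2 * Λ) ^ 3)) ((2 ^ nc : ℕ) : ℝ≥0∞) t := by
  classical
  obtain ⟨f1, f2, f3, f4, f5, f6, f7, f8⟩ := fspec h
  -- the balls
  have hball : ∀ i : ι0, ∃ (c : R3) (ρ : ℝ), (FatT T0 i Λ t nc → 0 < ρ ∧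
      closedBall c ρ ⊆ P (T0.H i) ∧ ∀ y ∈ P (T0.H i), ∀ y' ∈ P (T0.H i), ‖y - y'‖ ≤ Λ * ρ) ∧
      (¬ FatT T0 i Λ t nc → ρ = 0) := by
    intro i
    by_cases hi : FatT T0 i Λ t nc
    · obtain ⟨c, ρ, h1⟩ := hi.ball
      exact ⟨c, ρ, fun _ => h1, fun h2 => absurd hi h2⟩
    · exact ⟨0, 0, fun h1 => absurd h1 hi, fun _ => rfl⟩
  choose c ρ hb hb0 using hball
  -- the tiles of the faces
  have hq : ∀ e : RF T0 Tr W, ∃ i : ι0, e ∈ FS T0 Tr W T Cl →
      FatT T0 i Λ t nc ∧ e.1.1.set ⊆ P (T0.H i) := by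
    intro e
    by_cases he : e ∈ FS T0 Tr W T Cl
    · obtain ⟨a, ha, j, hj, hsub⟩ := he
      obtain ⟨i, hi⟩ := Rig.tile_eq h ha (hW a ha j hj)
      refine ⟨i, fun _ => ⟨Rig.fat0 h ha (hW a ha j hj) (hf a ha j hj) hi, ?_⟩⟩
      rw [← hi] at hsub
      exact (image_subset_image_iff (add_right_injective a)).1 hsub
    · exact ⟨(T0.at_nonempty e.1.1.pt_mem).some, fun h1 => absurd h1 he⟩
  choose q hq using hq
  refine ⟨fun i => ball (c i) (ρ i), q, ⟨?_, ?_, ?_, ?_, ?_, ?_⟩⟩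
  · exact fun i => measurableSet_ball.nullMeasurableSet
  · intro i j hij
    refine Disjoint.aedisjoint ?_
    by_cases hi : FatT T0 i Λ t nc
    · by_cases hj : FatT T0 j Λ t nc
      · exact Fsl_793.ball_disj hij (hb i hi).2.1 (hb j hj).2.1
      · rw [hb0 j hj, ball_zero]; exact disjoint_bot_right
    · rw [hb0 i hi, ball_zero]; exact disjoint_bot_left
  · intro e he
    refine le_trans ?_ (hw e)
    rw [fcM, Measure.smul_apply, smul_eq_mul,
      Measure.map_apply (Fsl_793.measurable_pt _ _) MeasurableSet.univ, preimage_univ,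
      Measure.restrict_apply_univ]
  · intro e he
    obtain ⟨h1, h2⟩ := hq e he
    obtain ⟨h3, h4, h5⟩ := hb _ h1
    have hpt : e.1.1.pt ∈ P (T0.H (q e)) := h2 (by rw [e.1.1.set_eq]; exact T0.self_mem_cc _)
    have hΛρ : 0 ≤ Λ * ρ (q e) := (norm_nonneg _).trans (h5 _ hpt _ hpt)
    have hΛ0 : 0 ≤ Λ := nonneg_of_mul_nonneg_left hΛρ h3
    have h6 : ‖fe h e.1 0‖ ≤ 2 * Λ * ρ (q e) := by
      rw [f2]
      have h7 : diam e.1.1.set ≤ Λ * ρ (q e) :=
        diam_le_of_forall_dist_le hΛρ fun y hy y' hy' => by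
          rw [dist_eq_norm]; exact h5 y (h2 hy) y' (h2 hy')
      linarith
    calc ENNReal.ofReal (‖fe h e.1 0‖ ^ 3) ≤ ENNReal.ofReal ((2 * Λ * ρ (q e)) ^ 3) :=
          ENNReal.ofReal_le_ofReal (pow_le_pow_left₀ (norm_nonneg _) h6 3)
      _ = ENNReal.ofReal ((2 * Λ) ^ 3) * ENNReal.ofReal (ρ (q e) ^ 3) := by
          rw [mul_pow, ENNReal.ofReal_mul (by positivity)]
      _ ≤ ENNReal.ofReal ((2 * Λ) ^ 3) * volume (ball (c (q e)) (ρ (q e))) := by
          gcongr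
          exact ofReal_cube_le_ball h3.le
  · intro i
    by_cases hi : ∃ e ∈ FS T0 Tr W T Cl, q e = i
    · obtain ⟨e0, he0, rfl⟩ := hi
      have hcard := (hq e0 he0).1.card
      set N := {j | (P (T0.H j) ∩ P (T0.H (q e0))).Nonempty} with hN
      have hfin : N.Finite := finite_of_encard_le_coe hcard
      have hn : N.ncard ≤ nc := by
        rw [← hfin.cast_ncard_eq] at hcard
        exact_mod_cast hcard
      have hpow : (𝒫 N).encard ≤ ((2 ^ nc : ℕ) : ℕ∞) := by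
        have h1 : (𝒫 N).Finite := hfin.finite_subsets
        rw [← h1.cast_ncard_eq, Set.ncard_powerset N hfin]
        exact_mod_cast Nat.pow_le_pow_right (by norm_num) hn
      have h2 : {e | e ∈ FS T0 Tr W T Cl ∧ q e = q e0}.encard ≤ ((2 ^ nc : ℕ) : ℕ∞) := by
        refine le_trans ?_ hpow
        refine encard_le_encard_of_injOn (f := fun e : RF T0 Tr W => T0.at_ e.1.1.pt) ?_ ?_
        · rintro e ⟨he, hee⟩ j hj
          have h3 := (hq e he).2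
          rw [hee] at h3
          have h4 : e.1.1.set ⊆ P (T0.H j) := by
            rw [e.1.1.set_eq]; exact T0.cc_sub_tile hj
          have h5 : e.1.1.pt ∈ e.1.1.set := by
            rw [e.1.1.set_eq]; exact T0.self_mem_cc _
          exact ⟨_, h4 h5, h3 h5⟩
        · intro e _ e' _ hee
          exact Subtype.ext (Subtype.ext (cell_inj hee))
      exact_mod_cast h2
    · have h1 : {e | e ∈ FS T0 Tr W T Cl ∧ q e = i} = ∅ := by
        ext e
        simp only [mem_ofPred_eq, mem_empty_iff_false, iff_false]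
        rintro ⟨h2, h3⟩
        exact hi ⟨e, h2, h3⟩
      rw [h1]
      simp
  · intro e he
    obtain ⟨h1, h2⟩ := hq e he
    obtain ⟨h3, h4, h5⟩ := hb _ h1
    rw [fcM]
    refine Measure.ae_smul_measure ?_ _
    have hms : MeasurableSet {x : R3 | ∀ z ∈ ball (c (q e)) (ρ (q e)), dist z x ≤ t} := by
      have : {x : R3 | ∀ z ∈ ball (c (q e)) (ρ (q e)), dist z x ≤ t} =
          ⋂ z ∈ ball (c (q e)) (ρ (q e)), {x | dist z x ≤ t} := by
        ext x; simp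
      rw [this]
      refine (isClosed_biInter fun z _ => ?_).measurableSet
      exact isClosed_le (by fun_prop) continuous_const
    refine (ae_map_iff (Fsl_793.measurable_pt _ _).aemeasurable hms).2 ?_
    refine (ae_restrict_iff' (hSm e)).2 (Eventually.of_forall fun u hu z hz => ?_)
    have h6 : pt (fe h e.1) (fx h e.1) u ∈ P (T0.H (q e)) := by
      apply h2
      rw [f7]
      exact ⟨u, hS e hu, rfl⟩
    rw [dist_eq_norm]
    exact h1.diam _ (h4 (ball_subset_closedBall hz)) _ h6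

/-- **`rm_tiles` for the faces of a rigid family** (parts `S φ` of the faces, weights `w φ` with
`w φ |S φ| ≤ size³`) -/
theorem rmF_rig (h : Rig T0 T Tr W) {Cl : ∀ a, ι a → Prop} {Λ t : ℝ} {nc : ℕ}
    (hW : ∀ a ∈ Tr, ∀ j, Cl a j → P ((T a).H j) ⊆ W)
    (hf : ∀ a ∈ Tr, ∀ j, Cl a j → FatT (T a) j Λ t nc) {S : RF T0 Tr W → Set (ℝ × ℝ)}
    (hS : ∀ φ, S φ ⊆ fQ h φ.1) (hSm : ∀ φ, MeasurableSet (S φ)) {w : RF T0 Tr W → ℝ≥0∞}
    (hw : ∀ φ, w φ * volume (S φ) ≤ ENNReal.ofReal (‖fe h φ.1 0‖ ^ 3)) {A : RF T0 Tr W → Set R3}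
    (hA : ∀ e, MeasurableSet (A e)) (hAS : ∀ e, (A e).Nonempty → e ∈ FS T0 Tr W T Cl)
    (hTr : MeasurableSet Tr) {K : ℝ≥0∞} (hK : volume (cthickening t Tr) ≤ K * volume Tr) :
    RM Tr (ENNReal.ofReal ((2 * Λ) ^ 3) * ((2 ^ nc : ℕ) : ℝ≥0∞) * K)
      (trM (fcM (fun φ : RF T0 Tr W => fx h φ.1) (fun φ => fe h φ.1) S w) A) := by
  obtain ⟨B, q, hB⟩ := tileM_rig h hW hf hS hSm hw
  refine rm_tilesM (P := B) (q := q) ⟨hB.meas, hB.disj, fun e he => hB.mass e (hAS e he),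
    fun e he => hB.wt e (hAS e he), fun i => le_trans ?_ (hB.mult i),
    fun e he => hB.near e (hAS e he)⟩ hA hTr hK
  norm_cast
  exact encard_le_encard fun e he => ⟨hAS e he.1, he.2⟩

/-- the mass of a set -/
theorem trF_rig_le (h : Rig T0 T Tr W) {Cl : ∀ a, ι a → Prop} {Λ t : ℝ} {nc : ℕ}
    (hW : ∀ a ∈ Tr, ∀ j, Cl a j → P ((T a).H j) ⊆ W)
    (hf : ∀ a ∈ Tr, ∀ j, Cl a j → FatT (T a) j Λ t nc) {S : RF T0 Tr W → Set (ℝ × ℝ)}
    (hS : ∀ φ, S φ ⊆ fQ h φ.1) (hSm : ∀ φ, MeasurableSet (S φ)) {w : RF T0 Tr W → ℝ≥0∞}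
    (hw : ∀ φ, w φ * volume (S φ) ≤ ENNReal.ofReal (‖fe h φ.1 0‖ ^ 3)) {A : RF T0 Tr W → Set R3}
    (hA : ∀ e, MeasurableSet (A e)) (hAS : ∀ e, (A e).Nonempty → e ∈ FS T0 Tr W T Cl)
    {Y : Set R3} (hY : MeasurableSet Y) (a : R3) :
    trM (fcM (fun φ : RF T0 Tr W => fx h φ.1) (fun φ => fe h φ.1) S w) A a Y ≤
      ENNReal.ofReal ((2 * Λ) ^ 3) * ((2 ^ nc : ℕ) : ℝ≥0∞) * volume (cthickening t Y) := by
  obtain ⟨B, q, hB⟩ := tileM_rig h hW hf hS hSm hw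
  refine trM_le_tiles (P := B) (q := q) ⟨hB.meas, hB.disj, fun e he => hB.mass e (hAS e he),
    fun e he => hB.wt e (hAS e he), fun i => le_trans ?_ (hB.mult i),
    fun e he => hB.near e (hAS e he)⟩ hA hY a
  norm_cast
  exact encard_le_encard fun e he => ⟨hAS e he.1, he.2⟩

/-- the whole faces with the weight `size³` -/
theorem hw_whole (h : Rig T0 T Tr W) (φ : RF T0 Tr W) :
    ENNReal.ofReal (‖fe h φ.1 0‖ ^ 3) * volume (fQ h φ.1) ≤
      ENNReal.ofReal (‖fe h φ.1 0‖ ^ 3) := by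
  have h1 : volume (fQ h φ.1) ≤ 1 := by
    calc volume (fQ h φ.1) ≤ volume (Icc (0:ℝ) 1 ×ˢ Icc (0:ℝ) 1) :=
          measure_mono ((fspec h).2.2.2.2.2.1 φ.1)
      _ = 1 := by
          rw [Measure.volume_eq_prod, Measure.prod_prod]
          simp
  exact mul_le_of_le_one_right' h1

/-- **the form for 538's `coarse_E`** (faces) -/
theorem rmF_rig_Dt {s : ℝ} (h : Rig T0 T (Dt s) W) {Cl : ∀ a, ι a → Prop} {Λ t : ℝ} {nc : ℕ}
    (hΛ : 0 ≤ Λ) (hs : 0 < s) (ht : 0 ≤ t) (hts : t ≤ s)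
    (hW : ∀ a ∈ Dt s, ∀ j, Cl a j → P ((T a).H j) ⊆ W)
    (hf : ∀ a ∈ Dt s, ∀ j, Cl a j → FatT (T a) j Λ t nc) {S : RF T0 (Dt s) W → Set (ℝ × ℝ)}
    (hS : ∀ φ, S φ ⊆ fQ h φ.1) (hSm : ∀ φ, MeasurableSet (S φ)) {w : RF T0 (Dt s) W → ℝ≥0∞}
    (hw : ∀ φ, w φ * volume (S φ) ≤ ENNReal.ofReal (‖fe h φ.1 0‖ ^ 3)) {E : Set R3}
    (hE : MeasurableSet E) :
    RM (Dt s) (ENNReal.ofReal (216 * Λ ^ 3 * 2 ^ nc))
      (trM (fcM (fun φ : RF T0 (Dt s) W => fx h φ.1) (fun φ => fe h φ.1) S w)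
        (cutS (FS T0 (Dt s) W T Cl) E)) := by
  have h1 := rmF_rig h hW hf hS hSm hw (A := cutS (FS T0 (Dt s) W T Cl) E)
    (fun e => meas_cutS _ hE e) (fun e he => mem_of_cutS he) (meas_Dt s) (thick_Dt hs ht hts)
  have e1 : ENNReal.ofReal ((2 * Λ) ^ 3) * ((2 ^ nc : ℕ) : ℝ≥0∞) * 27 =
      ENNReal.ofReal (216 * Λ ^ 3 * 2 ^ nc) := by
    rw [show (27 : ℝ≥0∞) = ENNReal.ofReal 27 by simp,
      show ((2 ^ nc : ℕ) : ℝ≥0∞) = ENNReal.ofReal (2 ^ nc) by
        rw [← ENNReal.ofReal_natCast]; push_cast; rfl,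
      ← ENNReal.ofReal_mul (by positivity), ← ENNReal.ofReal_mul (by positivity)]
    congr 1
    ring
  rwa [e1] at h1

/-- **the count of `coarse_E`** (faces) -/
theorem celF_rig_le (h : Rig T0 T Tr W) {Cl : ∀ a, ι a → Prop} {Λ t : ℝ} {nc : ℕ} (hΛ : 0 ≤ Λ)
    (hW : ∀ a ∈ Tr, ∀ j, Cl a j → P ((T a).H j) ⊆ W)
    (hf : ∀ a ∈ Tr, ∀ j, Cl a j → FatT (T a) j Λ t nc) {S : RF T0 Tr W → Set (ℝ × ℝ)}
    (hS : ∀ φ, S φ ⊆ fQ h φ.1) (hSm : ∀ φ, MeasurableSet (S φ)) {w : RF T0 Tr W → ℝ≥0∞}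
    (hw : ∀ φ, w φ * volume (S φ) ≤ ENNReal.ofReal (‖fe h φ.1 0‖ ^ 3)) {E : Set R3}
    (hE : MeasurableSet E) {s : ℝ} (hs : 0 < s) (ht : 0 ≤ t) (hts : t ≤ s) (a z : R3) :
    trM (fcM (fun φ : RF T0 Tr W => fx h φ.1) (fun φ => fe h φ.1) S w)
        (cutS (FS T0 Tr W T Cl) E) a (cel Cb z s) ≤
      ENNReal.ofReal (64 * Λ ^ 3 * 2 ^ nc * (2 * s) ^ 3) := by
  refine (trF_rig_le h hW hf hS hSm hw (A := cutS (FS T0 Tr W T Cl) E)
    (fun e => meas_cutS _ hE e) (fun e he => mem_of_cutS he)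
    (isClosed_cel z s).measurableSet a).trans ?_
  calc ENNReal.ofReal ((2 * Λ) ^ 3) * ((2 ^ nc : ℕ) : ℝ≥0∞) * volume (cthickening t (cel Cb z s))
      ≤ ENNReal.ofReal ((2 * Λ) ^ 3) * ENNReal.ofReal (2 ^ nc) *
        ENNReal.ofReal ((2 * (s + t)) ^ 3) := by
        gcongr
        · rw [← ENNReal.ofReal_natCast]; push_cast; exact le_rfl
        · exact thick_cel hs ht
    _ = ENNReal.ofReal ((2 * Λ) ^ 3 * 2 ^ nc * (2 * (s + t)) ^ 3) := by
        rw [← ENNReal.ofReal_mul (by positivity), ← ENNReal.ofReal_mul (by positivity)]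
    _ ≤ ENNReal.ofReal (64 * Λ ^ 3 * 2 ^ nc * (2 * s) ^ 3) := by
        refine ENNReal.ofReal_le_ofReal ?_
        have h1 : (2 * (s + t)) ^ 3 ≤ (4 * s) ^ 3 :=
          pow_le_pow_left₀ (by positivity) (by linarith) 3
        calc (2 * Λ) ^ 3 * 2 ^ nc * (2 * (s + t)) ^ 3 ≤ (2 * Λ) ^ 3 * 2 ^ nc * (4 * s) ^ 3 := by
              gcongr
          _ = 64 * Λ ^ 3 * 2 ^ nc * (2 * s) ^ 3 := by ring

end rig

end

end Crest.Agent.R096.Rmt_816
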