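import Crest.Agent.R096.Rmt4_816
import Crest.Agent.R096.Cbs3_296
import Crest.Agent.R96.Els2_538

/-!
Row 96 (S0127), helper816.  [ELIST], part 5: the sum of the functional `J` over the tiles of a class
of a rigid family against the random measure of the class (edges and faces).
-/

set_option autoImplicit false
set_option linter.unusedSectionVars false
set_option linter.style.longLine false

open MeasureTheory Set Filter Metric
open scoped ENNReal NNReal Topology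

namespace Crest.Agent.R096.Rmt_816

open Crest.AnalysisR.VecCalc3
open Crest.Agent.R96.Coarse_538
open Crest.Agent.R96.Intr_538
open Crest.Agent.R096.Msh_715 (Tiling P I)
open Crest.Agent.R096.Mf_113 (Rig CK)
open Crest.Agent.R096.Ca_855
open Crest.Agent.R096.Rmg_793 (trM)
open Crest.Agent.R096.Fsl_793 (fcM RF)
open Crest.Agent.R096.Fce_793 (pt)
open Crest.Agent.R96.En10_199 (P3)
open Crest.Agent.R096.Efi_296
open Crest.Agent.R096.Cbs_296
open Crest.Agent.R096.Cob_622 (EF)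
open Crest.Agent.R96.Els_538 (EdT FcT sum_J_cls seg_int seg_eq_segment)
open Crest.Agent.R096.Sq_55 (Sys w2)

noncomputable section

section rig

variable {Om Om0 W Tr : Set R3} {ι0 : Type} {ι : R3 → Type} {T0 : Tiling Om0 ι0}
  {T : ∀ a, Tiling Om (ι a)}

/-- the edges of a class with the weights `length³` -/
def muE (h : Rig T0 T Tr W) (Cl : ∀ a, ι a → Prop) : R3 → Measure R3 :=
  segM (fun e : KE T0 Tr W => kx h e.1) (fun e => kv h e.1)
    (fun e => ENNReal.ofReal (‖kv h e.1‖ ^ 3)) (cutS (ES T0 Tr W T Cl) univ)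

/-- the faces of a class with the weights `size³` -/
def muF (h : Rig T0 T Tr W) (Cl : ∀ a, ι a → Prop) : R3 → Measure R3 :=
  trM (fcM (fun φ : RF T0 Tr W => fx h φ.1) (fun φ => fe h φ.1) (fun φ => fQ h φ.1)
    (fun φ => ENNReal.ofReal (‖fe h φ.1 0‖ ^ 3))) (cutS (FS T0 Tr W T Cl) univ)

/-- **the random measure of a class** -/
def muC (h : Rig T0 T Tr W) (Cl : ∀ a, ι a → Prop) (a : R3) : Measure R3 :=
  muE h Cl a + muF h Cl a

/-- **the random measure of a class of fat tiles** -/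
theorem rmC (h : Rig T0 T Tr W) {Cl : ∀ a, ι a → Prop} {Λ t : ℝ} {nc : ℕ} (hΛ : 0 ≤ Λ)
    (hW : ∀ a ∈ Tr, ∀ j, Cl a j → P ((T a).H j) ⊆ W)
    (hf : ∀ a ∈ Tr, ∀ j, Cl a j → FatT (T a) j Λ t nc)
    (hTr : MeasurableSet Tr) {K : ℝ} (hK0 : 0 ≤ K)
    (hK : volume (cthickening t Tr) ≤ ENNReal.ofReal K * volume Tr) :
    RM Tr (ENNReal.ofReal (9 * Λ ^ 3 * 2 ^ nc * K)) (muC h Cl) := by
  have h1 := rm_rig h hW hf (A := cutS (ES T0 Tr W T Cl) univ)
    (fun e => meas_cutS _ MeasurableSet.univ e) (fun e he => mem_of_cutS he) hTr hK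
  have h2 := rmF_rig h hW hf (S := fun φ => fQ h φ.1) (fun φ => subset_rfl)
    (fun φ => ((fspec h).2.2.2.1 φ.1).isClosed.measurableSet)
    (w := fun φ => ENNReal.ofReal (‖fe h φ.1 0‖ ^ 3)) (fun φ => hw_whole h φ)
    (A := cutS (FS T0 Tr W T Cl) univ)
    (fun e => meas_cutS _ MeasurableSet.univ e) (fun e he => mem_of_cutS he) hTr hK
  have h3 := h1.add h2
  have e1 : ENNReal.ofReal (Λ ^ 3) * ((2 ^ nc : ℕ) : ℝ≥0∞) * ENNReal.ofReal K +
      ENNReal.ofReal ((2 * Λ) ^ 3) * ((2 ^ nc : ℕ) : ℝ≥0∞) * ENNReal.ofReal K =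
      ENNReal.ofReal (9 * Λ ^ 3 * 2 ^ nc * K) := by
    rw [show ((2 ^ nc : ℕ) : ℝ≥0∞) = ENNReal.ofReal (2 ^ nc) by
        rw [← ENNReal.ofReal_natCast]; push_cast; rfl,
      ← ENNReal.ofReal_mul (by positivity), ← ENNReal.ofReal_mul (by positivity),
      ← ENNReal.ofReal_mul (by positivity), ← ENNReal.ofReal_mul (by positivity),
      ← ENNReal.ofReal_add (by positivity) (by positivity)]
    congr 1
    ring
  rw [e1] at h3
  exact h3

/-- **the count** -/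
theorem celC (h : Rig T0 T Tr W) {Cl : ∀ a, ι a → Prop} {Λ t : ℝ} {nc : ℕ} (hΛ : 0 ≤ Λ)
    (hW : ∀ a ∈ Tr, ∀ j, Cl a j → P ((T a).H j) ⊆ W)
    (hf : ∀ a ∈ Tr, ∀ j, Cl a j → FatT (T a) j Λ t nc)
    {s : ℝ} (hs : 0 < s) (ht : 0 ≤ t) (hts : t ≤ s) (a z : R3) :
    muC h Cl a (cel Cb z s) ≤ ENNReal.ofReal (72 * Λ ^ 3 * 2 ^ nc * (2 * s) ^ 3) := by
  have h1 := cel_rig_le h hΛ hW hf MeasurableSet.univ hs ht hts a z
  have h2 := celF_rig_le h hΛ hW hf (S := fun φ => fQ h φ.1) (fun φ => subset_rfl)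
    (fun φ => ((fspec h).2.2.2.1 φ.1).isClosed.measurableSet)
    (w := fun φ => ENNReal.ofReal (‖fe h φ.1 0‖ ^ 3)) (fun φ => hw_whole h φ)
    MeasurableSet.univ hs ht hts a z
  unfold muC
  rw [Measure.add_apply]
  refine (add_le_add h1 h2).trans (le_of_eq ?_)
  rw [← ENNReal.ofReal_add (by positivity) (by positivity)]
  congr 1
  ring

/-- **the count**, any size of the tiles -/
theorem celC' (h : Rig T0 T Tr W) {Cl : ∀ a, ι a → Prop} {Λ t : ℝ} {nc : ℕ} (hΛ : 0 ≤ Λ)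
    (hW : ∀ a ∈ Tr, ∀ j, Cl a j → P ((T a).H j) ⊆ W)
    (hf : ∀ a ∈ Tr, ∀ j, Cl a j → FatT (T a) j Λ t nc)
    {s : ℝ} (hs : 0 < s) (ht : 0 ≤ t) {c : ℝ} (_hc : 0 ≤ c) (hts : t ≤ c * s) (a z : R3) :
    muC h Cl a (cel Cb z s) ≤ ENNReal.ofReal (9 * Λ ^ 3 * 2 ^ nc * (1 + c) ^ 3 * (2 * s) ^ 3) := by
  have h1 := segM_rig_le h hW hf (A := cutS (ES T0 Tr W T Cl) univ)
    (fun e => meas_cutS _ MeasurableSet.univ e)
    (fun e he => mem_of_cutS he) (isClosed_cel z s).measurableSet a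
  have h2 := trF_rig_le h hW hf (S := fun φ => fQ h φ.1) (fun φ => subset_rfl)
    (fun φ => ((fspec h).2.2.2.1 φ.1).isClosed.measurableSet)
    (w := fun φ => ENNReal.ofReal (‖fe h φ.1 0‖ ^ 3)) (fun φ => hw_whole h φ)
    (A := cutS (FS T0 Tr W T Cl) univ) (fun e => meas_cutS _ MeasurableSet.univ e)
    (fun e he => mem_of_cutS he) (isClosed_cel z s).measurableSet a
  unfold muC
  rw [Measure.add_apply]
  refine (add_le_add h1 h2).trans ?_
  have h3 : volume (cthickening t (cel Cb z s)) ≤ ENNReal.ofReal ((1 + c) ^ 3 * (2 * s) ^ 3) := by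
    refine (thick_cel hs ht).trans (ENNReal.ofReal_le_ofReal ?_)
    rw [← mul_pow]
    exact pow_le_pow_left₀ (by positivity) (by nlinarith) 3
  have e1 : ((2 ^ nc : ℕ) : ℝ≥0∞) = ENNReal.ofReal (2 ^ nc) := by
    rw [← ENNReal.ofReal_natCast]; push_cast; rfl
  rw [← add_mul, ← add_mul, e1]
  refine (mul_le_mul' le_rfl h3).trans (le_of_eq ?_)
  rw [← ENNReal.ofReal_add (by positivity) (by positivity), ← ENNReal.ofReal_mul (by positivity),
    ← ENNReal.ofReal_mul (by positivity)]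
  congr 1
  ring

/-- the neighbourhood of the cube of positions, any radius -/
theorem thick_Dt' {s c : ℝ} (hs : 0 < s) (hc : 0 ≤ c) :
    volume (cthickening (c * s) (Dt s)) ≤ ENNReal.ofReal ((1 + 2 * c) ^ 3) * volume (Dt s) := by
  have h1 := volume_cthick_box (A := Dt s) (R := c * s) (by positivity) (l := fun _ => 0)
    (u := fun _ => s) (fun x hx i => ⟨(hx i).1, (hx i).2.le⟩)
  refine h1.trans ?_
  rw [vol_Dt hs]
  simp only [Finset.prod_const, Finset.card_univ, Fintype.card_fin]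
  rw [← ENNReal.ofReal_pow (by nlinarith), ← ENNReal.ofReal_mul (by positivity)]
  refine ENNReal.ofReal_le_ofReal (le_of_eq ?_)
  ring

/-- a closed 2-cell contains a closed 1-cell -/
theorem exists_one {Om : Set R3} {ι : Type*} {T : Tiling Om ι} {y : R3} (hy : y ∈ Om)
    (hd : 1 ≤ T.dim y) : ∃ e ∈ T.cc y, T.dim e = 1 ∧ T.cc e ⊆ T.cc y := by
  obtain ⟨v, hv, hv0⟩ := T.exists_vertex hy
  obtain ⟨e, he, he1, -⟩ := Mf_113.exists_edge_of_vertex hv0 hy hv hd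
  exact ⟨e, he, he1, T.cc_sub_of_mem he⟩

/-- a closed 1-cell is a segment -/
theorem cell_seg (h : Rig T0 T Tr W) {a : R3} (ha : a ∈ Tr) {j : ι a}
    (hjW : P ((T a).H j) ⊆ W) {y : R3} (hy : y ∈ Om) (hd : (T a).dim y = 1)
    (hyj : (T a).cc y ⊆ P ((T a).H j)) : ∃ e1 e2, (T a).cc y = segment ℝ e1 e2 ∧ e1 ≠ e2 := by
  obtain ⟨e, he⟩ := k_cell h ha hy hd ⟨y, (T a).self_mem_cc y, hjW (hyj ((T a).self_mem_cc y))⟩
  refine ⟨_, _, he, fun h1 => kv_ne h e ?_⟩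
  exact add_eq_left.1 h1.symm

set_option maxHeartbeats 1600000 in
/-- **THE SUM OF `J` OVER THE TILES `K` AGAINST THE RANDOM MEASURE OF A CLASS** which contains the
tiles of `K` and all tiles which meet them -/
theorem sum_cls (h : Rig T0 T Tr W) {a : R3} (ha : a ∈ Tr) {Cl : ∀ a, ι a → Prop}
    {s : Finset (ι a)} {pr : (Te (T a)).Cell → Prop} {X : Sys s (reps (Te (T a)) s pr)}
    {Om' : Set R3} {g : R3 → ℝ≥0∞} (D : EF X Om' g (EgS (Te (T a)) s) (FcS (Te (T a)) s pr))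
    {c : ι a → Sq_55.E3} {R : ι a → ℝ≥0} {ρ : Sq_55.E3 → ℝ≥0} {m : ι a → ℝ≥0}
    (hX : SysOf (Te (T a)) s pr c R ρ m X) (hfc : ∀ b, D.fc b = w2 '' b.1.set)
    (hrE : ∀ x, D.rimE x = rimS (Te (T a)) s (x : Sq_55.E3))
    (hEe : ∀ b : EgS (Te (T a)) s, ∀ y w : R3, w2 '' b.1.set = segment ℝ y (y + w) →
      D.Ee b ≤ ENNReal.ofReal (64 * ‖w‖) * ∫⁻ σ in Ioc (0:ℝ) 1, g (y + σ • w))
    (hEf : ∀ b : FcS (Te (T a)) s pr, ∀ (e : Fin 2 → R3) (x : R3) (Q : Set (ℝ × ℝ)),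
      LinearIndependent ℝ e → MeasurableSet Q → w2 '' b.1.set = pt e x '' Q →
      D.Ef b ≤ ENNReal.ofReal (64 * (‖e 0‖ * ‖e 1‖)) * ∫⁻ w in Q, g (pt e x w))
    {nc : ℕ} (hnc : ∀ k ∈ s, {j | (P ((T a).H j) ∩ P ((T a).H k)).Nonempty}.ncard ≤ nc)
    (K : Finset s) {S : Set R3} (hS : MeasurableSet S)
    (hK : ∀ k ∈ K, ∀ i, (P ((T a).H i) ∩ P ((T a).H (k : ι a))).Nonempty →
      Cl a i ∧ P ((T a).H i) ⊆ W ∧ P ((T a).H i) ⊆ S)
    {Λ u : ℝ≥0} (hR : ∀ k ∈ K, ∀ i, (P ((T a).H i) ∩ P ((T a).H (k : ι a))).Nonempty →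
      ∀ y ∈ P ((T a).H i), (T a).dim y = 1 → ∀ e1 e2, (T a).cc y = segment ℝ e1 e2 → e1 ≠ e2 →
        (R k : ℝ) ≤ Λ * ‖e2 - e1‖)
    (hρ : ∀ k ∈ K, ∀ x ∈ reps (Te (T a)) s pr, (k : ι a) ∈ (Te (T a)).at_ x → ρ x ≤ u * R k) :
    ∑ k ∈ K, D.J k ≤ ENNReal.ofReal (64 * 2 ^ nc * (Λ * (1 + u)) ^ 2 * nc + 32 * Λ * nc) *
      ∫⁻ y in S, g y ∂muC h Cl a := by
  classical
  have hfin : ∀ k : ι a, {j | (P ((T a).H j) ∩ P ((T a).H k)).Nonempty}.Finite := fun k =>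
    (T a).finite_tiles ((T a).cpt k) ((T a).sub k)
  -- the number of squeezed 2-cells at a tile
  have hn : ∀ k ∈ K, {x : reps (Te (T a)) s pr | (k : ι a) ∈ (Te (T a)).at_ (x : Sq_55.E3)}.ncard ≤
      2 ^ nc := by
    intro k hk
    set N := {j | (P ((T a).H j) ∩ P ((T a).H (k : ι a))).Nonempty} with hN
    have hpow : (𝒫 N).ncard ≤ 2 ^ nc := by
      rw [Set.ncard_powerset N (hfin _)]
      exact Nat.pow_le_pow_right (by norm_num) (hnc _ k.2)
    refine le_trans (Set.ncard_le_ncard_of_injOn (f := fun x : reps (Te (T a)) s pr =>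
      (Te (T a)).at_ (x : Sq_55.E3)) ?_ ?_ (hfin _).finite_subsets) hpow
    · intro x hx j hj
      have h1 : w2 (x : Sq_55.E3) ∈ P ((T a).H j) := mem_P_Te.1 hj
      have h2 : w2 (x : Sq_55.E3) ∈ P ((T a).H (k : ι a)) := mem_P_Te.1 hx
      exact ⟨_, h1, h2⟩
    · intro x _ x' _ hxx
      by_contra hne
      have h1 := reps_dim x.2
      have h2 := reps_dim x'.2
      exact reps_ne x.2 x'.2 (fun e => hne (Subtype.ext e))
        (cc_eq_of_at_eq h1.1 h2.1 hxx)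
  -- an edge of a tile next to a tile of `K`
  have key := sum_J_cls (T := Te (T a)) (r := fun k : s => u * R k) (n := 2 ^ nc) (m := nc)
    (m' := nc) D hX.c_mem hX.F hX.eP hfc hrE hEe K
    (fun k hk x hx => by rw [hX.eρ x]; exact hρ k hk x x.2 hx) hn hS (a := a)
    (x := fun e : KE T0 Tr W => kx h e.1) (v := fun e => kv h e.1)
    (A := cutS (ES T0 Tr W T Cl) univ) (Λ := Λ * (1 + u)) ?_ ?_
    (xx := fun φ : RF T0 Tr W => fx h φ.1) (e := fun φ => fe h φ.1) (Q := fun φ => fQ h φ.1)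
    (wf := fun φ => ENNReal.ofReal (‖fe h φ.1 0‖ ^ 3)) (Af := cutS (FS T0 Tr W T Cl) univ)
    (Cf := ENNReal.ofReal (32 * Λ)) ?_ ?_
  · refine key.trans ?_
    have e1 : ∫⁻ y in S, g y ∂muC h Cl a = (∫⁻ y in S, g y ∂muE h Cl a) +
        ∫⁻ y in S, g y ∂muF h Cl a := by
      unfold muC
      rw [Measure.restrict_add, lintegral_add_measure]
    rw [e1]
    set I1 := ∫⁻ y in S, g y ∂muE h Cl a
    set I2 := ∫⁻ y in S, g y ∂muF h Cl a
    change (64 * ((2 ^ nc : ℕ) : ℝ≥0∞) * (((Λ * (1 + u) : ℝ≥0) : ℝ≥0∞)) ^ 2) * (nc * I1) +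
      ENNReal.ofReal (32 * Λ) * (nc * I2) ≤ _
    have e2 : (64 * ((2 ^ nc : ℕ) : ℝ≥0∞) * (((Λ * (1 + u) : ℝ≥0) : ℝ≥0∞)) ^ 2) * nc =
        ENNReal.ofReal (64 * 2 ^ nc * (Λ * (1 + u)) ^ 2 * nc) := by
      rw [show ((2 ^ nc : ℕ) : ℝ≥0∞) = ENNReal.ofReal (2 ^ nc) by
          rw [← ENNReal.ofReal_natCast]; push_cast; rfl,
        show (64 : ℝ≥0∞) = ENNReal.ofReal 64 by norm_num,
        show (nc : ℝ≥0∞) = ENNReal.ofReal nc by rw [ENNReal.ofReal_natCast],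
        show ((Λ * (1 + u) : ℝ≥0) : ℝ≥0∞) = ENNReal.ofReal ((Λ : ℝ) * (1 + u)) by
          rw [← ENNReal.ofReal_coe_nnreal]; push_cast; rfl,
        ← ENNReal.ofReal_pow (by positivity), ← ENNReal.ofReal_mul (by positivity),
        ← ENNReal.ofReal_mul (by positivity), ← ENNReal.ofReal_mul (by positivity)]
    have e3 : ENNReal.ofReal (32 * Λ) * (nc : ℝ≥0∞) = ENNReal.ofReal (32 * Λ * nc) := by
      rw [show (nc : ℝ≥0∞) = ENNReal.ofReal nc by rw [ENNReal.ofReal_natCast],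
        ← ENNReal.ofReal_mul (by positivity)]
    rw [← mul_assoc, e2, ← mul_assoc, e3, mul_add (ENNReal.ofReal _) I1 I2]
    refine add_le_add (mul_le_mul' (ENNReal.ofReal_le_ofReal ?_) le_rfl)
      (mul_le_mul' (ENNReal.ofReal_le_ofReal ?_) le_rfl)
    · have : (0:ℝ) ≤ 32 * Λ * nc := by positivity
      linarith
    · have : (0:ℝ) ≤ 64 * 2 ^ nc * (Λ * (1 + u)) ^ 2 * nc := by positivity
      linarith
  · -- edges
    rintro b ⟨k, hk, hkb⟩
    obtain ⟨h1, h2, h3⟩ := image_set (T a) b.1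
    have h4 : (T a).cc (P3 b.1.pt) ⊆ P ((T a).H (k : ι a)) := Efi_296.image_sub (T a) hkb
    obtain ⟨q1, q2, q3⟩ := hK k hk k ⟨_, h4 ((T a).self_mem_cc _), h4 ((T a).self_mem_cc _)⟩
    obtain ⟨e, he, hseg⟩ := exists_edge h ha q1 q2 h2 (by rw [h3]; exact b.2.1) h4
    refine ⟨e, kv_ne h e.1, by rw [h1, hseg, seg_eq_segment], ?_, ?_⟩
    · rw [h1]
      exact fun y hy => ⟨⟨mem_univ _, he⟩, q3 (h4 hy)⟩
    · intro k' hk' hkb'
      have h5 : (T a).cc (P3 b.1.pt) ⊆ P ((T a).H (k' : ι a)) := Efi_296.image_sub (T a) hkb'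
      have h6 := hR k' hk' k' ⟨_, h5 ((T a).self_mem_cc _), h5 ((T a).self_mem_cc _)⟩
        (P3 b.1.pt) (h5 ((T a).self_mem_cc _)) (by rw [h3]; exact b.2.1) _ _ hseg
        (fun h8 => kv_ne h e.1 (add_eq_left.1 h8.symm))
      rw [add_sub_cancel_left] at h6
      have hu : (0:ℝ) ≤ u := u.coe_nonneg
      have hΛ : (0:ℝ) ≤ Λ := Λ.coe_nonneg
      have hv := norm_nonneg (kv h e.1)
      rw [hX.eR]
      push_cast
      have h7 : (0:ℝ) ≤ Λ * ‖kv h e.1‖ * u := by positivity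
      constructor
      · nlinarith
      · nlinarith [mul_le_mul_of_nonneg_left h6 hu, mul_nonneg hΛ hv]
  · -- tiles at an edge
    intro b K' hK' hb
    rcases K'.eq_empty_or_nonempty with rfl | ⟨k1, hk1⟩
    · simp
    have hpt : ∀ k ∈ K', P3 b.1.pt ∈ P ((T a).H (k : ι a)) := fun k hk =>
      Efi_296.image_sub (T a) (hb k hk) ((T a).self_mem_cc _)
    refine le_trans ?_ (hnc k1 k1.2)
    rw [← Set.ncard_coe_finset, ← Set.ncard_image_of_injective _ Subtype.val_injective]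
    refine Set.ncard_le_ncard ?_ (hfin _)
    rintro _ ⟨k, hk, rfl⟩
    exact ⟨_, hpt k hk, hpt k1 hk1⟩
  · -- faces
    rintro b ⟨k, hk, hkb⟩
    obtain ⟨h1, h2, h3⟩ := image_set (T a) b.1
    obtain ⟨⟨hd2, k2, hk2, hsub⟩, -⟩ := b.2
    have h4 : (T a).cc (P3 b.1.pt) ⊆ P ((T a).H k2) := Efi_296.image_sub (T a) hsub
    have hd : (T a).dim (P3 b.1.pt) = 2 := by rw [h3]; exact hd2
    have touch : ∀ k' : s, FcT (Te (T a)) s pr k' b →
        (P ((T a).H k2) ∩ P ((T a).H (k' : ι a))).Nonempty := by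
      rintro k' ⟨z, hz1, hz2⟩
      refine ⟨w2 z, h4 ?_, mem_P_Te.1 hz2⟩
      rw [← h1]
      exact mem_image_of_mem _ hz1
    obtain ⟨q1, q2, q3⟩ := hK k hk k2 (touch k hkb)
    obtain ⟨φ, hφ, hface⟩ := exists_face h ha q1 q2 h2 hd h4
    have hmq : MeasurableSet (fQ h φ.1) := ((fspec h).2.2.2.1 φ.1).isClosed.measurableSet
    refine ⟨φ, (fspec h).1 φ.1, hmq, h1.trans hface, ?_, ?_⟩
    · rw [h1]
      exact fun y hy => ⟨⟨mem_univ _, hφ⟩, q3 (h4 hy)⟩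
    · intro k' hk' hkb'
      -- the size of the face
      obtain ⟨e, he, he1, hes⟩ := exists_one h2 (by rw [hd]; norm_num)
      have heO : e ∈ Om := (T a).cc_sub_Om h2 he
      obtain ⟨e1, e2, hseg, hne⟩ := cell_seg h ha q2 heO he1 (hes.trans h4)
      have h6 := hR k' hk' k2 (touch k' hkb') e (h4 (hes ((T a).self_mem_cc e))) he1 _ _ hseg hne
      have h7 : diam φ.1.1.set = diam ((T a).cc (P3 b.1.pt)) := by
        rw [hface, ← f_image h a φ.1]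
        exact ((isometry_add_left a).diam_image _).symm
      have h8 : ‖e2 - e1‖ ≤ diam φ.1.1.set := by
        rw [h7, ← dist_eq_norm, dist_comm]
        refine dist_le_diam_of_mem ?_ (hes ?_) (hes ?_)
        · rw [hface]
          exact (((fspec h).2.2.2.1 φ.1).image (Fce_793.continuous_pt _ _)).isBounded
        · rw [hseg]; exact left_mem_segment ℝ _ _
        · rw [hseg]; exact right_mem_segment ℝ _ _
      have h9 : ∀ i, ‖fe h φ.1 i‖ = 2 * diam φ.1.1.set := (fspec h).2.1 φ.1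
      have hΛ : (0:ℝ) ≤ Λ := Λ.coe_nonneg
      have hRk : (R k' : ℝ) ≤ Λ / 2 * ‖fe h φ.1 0‖ := by
        rw [h9 0]
        calc (R k' : ℝ) ≤ Λ * ‖e2 - e1‖ := h6
          _ ≤ Λ * diam φ.1.1.set := by gcongr
          _ = Λ / 2 * (2 * diam φ.1.1.set) := by ring
      rw [hX.eR]
      refine (mul_le_mul' le_rfl (hEf b _ _ _ ((fspec h).1 φ.1) hmq (h1.trans hface))).trans ?_
      set I2 := ∫⁻ w in fQ h φ.1, g (pt (fe h φ.1) (a + fx h φ.1) w)
      rw [← mul_assoc (ENNReal.ofReal (R k')), ← mul_assoc (ENNReal.ofReal (32 * Λ)),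
        ← ENNReal.ofReal_mul (NNReal.coe_nonneg _), ← ENNReal.ofReal_mul (by positivity)]
      refine mul_le_mul' (ENNReal.ofReal_le_ofReal ?_) le_rfl
      have h10 : ‖fe h φ.1 1‖ = ‖fe h φ.1 0‖ := by rw [h9, h9]
      rw [h10]
      set l := ‖fe h φ.1 0‖ with hl
      have hl0 : 0 ≤ l := norm_nonneg _
      calc (R k' : ℝ) * (64 * (l * l)) ≤ (Λ / 2 * l) * (64 * (l * l)) := by gcongr
        _ = 32 * Λ * l ^ 3 := by ring
  · -- tiles at a face
    intro b K' hK' hb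
    obtain ⟨⟨hd2, k2, hk2, hsub⟩, -⟩ := b.2
    have h4 : (T a).cc (P3 b.1.pt) ⊆ P ((T a).H k2) := Efi_296.image_sub (T a) hsub
    refine le_trans ?_ (hnc k2 hk2)
    rw [← Set.ncard_coe_finset, ← Set.ncard_image_of_injective _ Subtype.val_injective]
    refine Set.ncard_le_ncard ?_ (hfin _)
    rintro _ ⟨k, hk, rfl⟩
    obtain ⟨z, hz1, hz2⟩ := hb k hk
    refine ⟨w2 z, mem_P_Te.1 hz2, h4 ?_⟩
    rw [← (image_set (T a) b.1).1]
    exact mem_image_of_mem _ hz1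

end rig

end

end Crest.Agent.R096.Rmt_816
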