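import Crest.Agent.R096.Rop9_441

/-!
# R096 (row 96), ROPES (helper441), part 10: (K4) over `lmK` of the sliced tiling, layers included

`Lst`      : what is needed of the state and the quads over `lmK S.T3 S.KK`;
`k4_outer` : (K4) for a cell in a tile outside all cores;
`k4_layer` : (K4) for a cell in a layer tile;
**`k4_S`** : the field `k4` of 337's `Front`.
-/

set_option autoImplicit false
set_option linter.unusedSectionVars false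

open Set Relation Module

namespace Crest.Agent.R096.Rop_441

open Crest.Agent.R096.Brk1_582 Crest.Agent.R096.Brk2_582 Crest.Agent.R096.Brk3_582
  Crest.Agent.R096.Brk5_582 Crest.Agent.R096.Bsp_628 Crest.Agent.R096.Init_543
  Crest.Agent.R096.Vb_965 Crest.Agent.R096.Msh_715 Crest.Agent.R096.St_147
  Crest.Agent.R096.Seq_213 Crest.Agent.R096.Lm_117 Crest.Agent.R096.Gl_422
  Crest.Agent.R096.SkB_662 Crest.Agent.R096.Cpo_642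
  Crest.Agent.R096.Ce_537 Crest.Agent.R096.Agl5_543
  Crest.Agent.R096.Cp_298 Crest.Agent.R096.Gm_298 Crest.Agent.R096.Ac_117
  Crest.Agent.R096.Sla_184 Crest.Agent.R096.Sla_184.Sla
open Crest.Agent.R096.SkC1_961 (E3 Hom3 FoamD)
open Crest.Agent.R096.Mbf_337 (KJ sb)
open Crest.Agent.R096.Gia_537 (Kc Kc_sub Kc_compact Kc_disj Kc_exact)

variable {δ κ0 R c0 : ℝ} {La Om : Set E3} {ι : Type} {Φ : FoamD δ κ0 R c0 La}
  {T : Tiling Om ι} {f g : E3 → E3} {κ1 κ2 s₁ σ : ℝ} {X : Set Φ.F} {J0 J V : Φ.F → Set ι}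
  {ct : Φ.F → ι}
  {A : Φ.F → E3 ≃ᵃ[ℝ] E3} {lam : Φ.F → ℝ} {z : Φ.F → E3} {θ : Φ.F → E3 → E3} {φ : Φ.F → E3 → ℝ}
  {ct' : Φ.F → ι} {r₀ : Φ.F → ℝ}
  {κ : Type} {S : Sla T κ}

/-- the cores of `S` are tiny cores of the machine data -/
def TinyK (X : Set Φ.F) (J : Φ.F → Set ι) (S : Sla T κ) : Prop :=
  ∀ c : κ, ∃ c' : Φ.F, c' ∉ X ∧ S.K c = KJ T (J c')

theorem TinyK.subK (h : TinyK X J S) : SubK Φ J S := by
  intro i c hc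
  obtain ⟨c', -, e⟩ := h c
  rw [e] at hc
  obtain ⟨y, hy⟩ := T.ne i
  obtain ⟨i', hi', hy'⟩ := Nr_527.mem_KJ.1 (hc (I_sub_P _ hy))
  have h4 := T.at_eq_singleton hy
  have h5 : i' ∈ T.at_ y := hy'
  rw [h4] at h5
  exact ⟨c', by rw [← Set.mem_singleton_iff.1 h5]; exact hi'⟩

/-- a tile at the frontier of a tiny core is not near a hole -/
theorem TinyK.notJ0 (hLa : IsOpen La) (hC : Mbf_337.Cores Φ T f κ1 κ2 X J0 J V ct A lam z θ φ)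
    (h : TinyK X J S) {c : κ} {x : E3} (hx : x ∈ frontier (S.K c)) {i : ι}
    (hi : x ∈ P (T.H i)) : i ∉ KorJ Φ J0 := by
  obtain ⟨c', hc', e⟩ := h c
  rw [e] at hx
  rintro ⟨d, hd⟩
  have hxK : x ∈ Kc T J c' := (Kc_compact hC c').isClosed.frontier_subset hx
  by_cases hdc : d = c'
  · subst hdc
    obtain ⟨ρ1, ρ2, ρ3, ρ4, e1, he, hdk, h1, h12, h23, h34, h4, hray, hJ0, hfr, hV, hosc, hth⟩ :=
      (hC.tiny d hc').room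
    have a1 := hJ0 x (Nr_527.mem_KJ.2 ⟨i, hd, hi⟩)
    have a2 := (hfr x hx).1
    linarith
  · exact disjoint_left.1 (Kc_disj hLa hC hdc)
      (Nr_527.mem_KJ.2 ⟨i, Nr_527.J0_sub hC d hd, hi⟩) hxK

variable [Nonempty S.T3.Cell] {hH : ∀ c, CoreH S.T3 (S.KK c)} {hne : ∃ c, OutK S.T3 S.KK c}
  {Kq : Type} {Qd : Quads (T.RIdx S.HH ⊕ κ) Φ.F Kq} {Jn : Type} {fam : Jn → Φ.F}
  {s₀ : GSt (mK fr3 hH dis_KK) fam}

variable (Φ f J0 J r₀ S hH hne Qd s₀) in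
/-- **the state and the quads over the mesh with layers**: what (K4) needs -/
structure Lst (s₁ σ : ℝ) : Prop where
  on : ∀ w ∈ s₀.P, w ∈ (lmK fr3 hH dis_KK hne).W1
  /-- active cells lie in active tiles of the original tiling -/
  act : ∀ p : T.RIdx S.HH, (∀ c, ¬ P (S.T3.H p) ⊆ S.KK c) → ∀ k, Sum.inl p ∈ Qd.Act k →
    ∃ k' : Init_543.QK (Pc Φ.F),
      p.tile ∈ Act0 T (Pc Φ.F) (bc (F := Φ.F)) (RF Φ r₀) f (KorJ Φ J0) s₁ k' ∧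
      ∀ c, Qd.In k c → c ∈ k'.B
  /-- points on the tiles outside all cores -/
  lev : ∀ w ∈ s₀.P, ∀ i, i ∉ KorJ Φ J → w ∈ P (T.H i) →
    s₁ ≤ va (Pc Φ.F) (bc (F := Φ.F)) (RF Φ r₀) f (fam (s₀.lab w)) w ∧
    va (Pc Φ.F) (bc (F := Φ.F)) (RF Φ r₀) f (fam (s₀.lab w)) w ≤ 1 - s₁
  /-- points on the layer tiles -/
  lay : ∀ w ∈ s₀.P, ∀ (p : T.RIdx S.HH) (c : κ), (∀ c, ¬ P (S.T3.H p) ⊆ S.KK c) →
    P (T.H p.tile) ⊆ S.K c → w ∈ P (S.T3.H p) → ∃ x ∈ P (T.H p.tile),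
      σ ≤ va (Pc Φ.F) (bc (F := Φ.F)) (RF Φ r₀) f (fam (s₀.lab w)) x ∧
      va (Pc Φ.F) (bc (F := Φ.F)) (RF Φ r₀) f (fam (s₀.lab w)) x ≤ 1 - σ

theorem mesh0_mono {Kor Kor' : Set ι} {ε : ℝ}
    (hM : Mesh0 T (Pc Φ.F) (bc (F := Φ.F)) (RF Φ r₀) f Kor ε) (h : Kor ⊆ Kor') :
    Mesh0 T (Pc Φ.F) (bc (F := Φ.F)) (RF Φ r₀) f Kor' ε :=
  ⟨fun q hq => hM.wall q fun h' => hq (h h'), fun q hq => hM.osc q fun h' => hq (h h')⟩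

theorem Lst.env [Nonempty ι]
    (hK : TinyK X J S) (h : Lst Φ f J0 J r₀ S hH hne Qd s₀ s₁ σ) :
    Env T (Pc Φ.F) (bc (F := Φ.F)) (RF Φ r₀) f (KorJ Φ J) s₁ (setK S.T3 S.KK)
      (lmK fr3 hH dis_KK hne) Qd (NoS Φ J S) (tiS S) (tcK S.T3 S.KK) := by
  refine env_S hK.subK fun i hi hiJ k hk => ?_
  obtain ⟨k', ⟨-, h2⟩, h3⟩ := h.act (S.ot i hi) (not_KK_ot hi) k hk
  exact ⟨k', ⟨hiJ, h2⟩, h3⟩

/-- `Deep` over `lmK` -/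
abbrev DeepS (hC : Mbf_337.Cores Φ T f κ1 κ2 X J0 J V ct A lam z θ φ) (r₀ : Φ.F → ℝ)
    (S : Sla T κ) [Nonempty S.T3.Cell] (a : Φ.F) (v : QK (belK S.T3 S.KK)) : Prop :=
  Deep Om La (Pc Φ.F) (bc (F := Φ.F)) (RF Φ r₀) f (Kc T J) (tauC hC) (ηN δ κ0 R c0 κ2 κ1)
    (θN δ κ0 R c0 κ2 κ1) (dimK (belK S.T3 S.KK) fun c => c.1.dim) (setK S.T3 S.KK) (NoS Φ J S)
    (tcK S.T3 S.KK) a v

/-- far vertices over `lmK` -/
def FarS (Φ : FoamD δ κ0 R c0 La) (f : E3 → E3) (r₀ : Φ.F → ℝ) (J : Φ.F → Set ι) (S : Sla T κ)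
    [Nonempty S.T3.Cell] (θ : ℝ) (a : Φ.F) (v : QK (belK S.T3 S.KK)) : Prop :=
  dimK (belK S.T3 S.KK) (fun c => c.1.dim) v = 0 ∧ ∃ i ∈ NoS Φ J S, v ≤ tcK S.T3 S.KK i ∧
    ∃ x ∈ setK S.T3 S.KK (tcK S.T3 S.KK i),
      1 - θ ≤ va (Pc Φ.F) (bc (F := Φ.F)) (RF Φ r₀) f a x

section main

variable (hLa : IsOpen La) (hLc : IsPreconnected La) (hN : Num δ κ0 R c0 κ2 κ1 s₁)
  (hR : InitR Φ T f g J0 ct' r₀)
  (hC : Mbf_337.Cores Φ T f κ1 κ2 X J0 J V ct A lam z θ φ)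
  (hM : Mesh0 T (Pc Φ.F) (bc (F := Φ.F)) (RF Φ r₀) f (KorJ Φ J0) κ1)
  (hK : TinyK X J S)
  (Xc : Cplx Om (QK (belK S.T3 S.KK)) (dimK (belK S.T3 S.KK) fun c => c.1.dim)
    (setK S.T3 S.KK))
  (h : Lst Φ f J0 J r₀ S hH hne Qd s₀ s₁ σ)
include hLa hN hR hC hM hK Xc h

theorem zero_S {a : Φ.F} {v v' : QK (belK S.T3 S.KK)} (hv : DeepS hC r₀ S a v)
    (hv' : DeepS hC r₀ S a v') :
    ReflTransGen (Ed (lmK fr3 hH dis_KK hne) (Fr0 (lmK fr3 hH dis_KK hne) Qd s₀ a)) v v' := by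
  have : Nonempty ι := by
    obtain ⟨q, -, -⟩ := hv.2
    obtain ⟨i, -⟩ : ∃ i : ι, True := by
      obtain ⟨c⟩ := (inferInstance : Nonempty S.T3.Cell)
      obtain ⟨p, -⟩ := S.T3.at_nonempty c.pt_mem
      exact ⟨p.tile, trivial⟩
    exact ⟨i⟩
  exact zero_path Xc (h.env hK) kor_sub hR.hm (foam4 Φ hLa)
    (retF Φ hLa hR.pos hR.le_one)
    (corT hLa hN.hδ hN.hR hN.hκ0 hN.hκ1 hN.hκ2 hN.hκ hN.hκn hC hR)
    (mesh0_mono hM (korJ_mono hC)) (by simp) hN.hθ hN.h00 le_rfl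
    hN.hκ1 hN.hs hN.hs1 (levOn_S h.on h.lev) hv hv'

include hLc

theorem far_S {a : Φ.F} {v v' : QK (belK S.T3 S.KK)}
    (hv : FarS Φ f r₀ J S (θN δ κ0 R c0 κ2 κ1) a v)
    (hv' : FarS Φ f r₀ J S (θN δ κ0 R c0 κ2 κ1) a v') :
    ReflTransGen (Ed (lmK fr3 hH dis_KK hne) (Fr0 (lmK fr3 hH dis_KK hne) Qd s₀ a)) v v' := by
  have : Nonempty ι := by
    obtain ⟨c⟩ := (inferInstance : Nonempty S.T3.Cell)
    obtain ⟨p, -⟩ := S.T3.at_nonempty c.pt_mem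
    exact ⟨p.tile⟩
  obtain ⟨h0, q, hq, hvq, x, hx, hl⟩ := hv
  obtain ⟨h0', q', hq', hvq', x', hx', hl'⟩ := hv'
  have hE := h.env hK
  have hO : ∀ {q}, q ∈ NoS Φ J S → ∀ {x : E3}, x ∈ setK S.T3 S.KK (tcK S.T3 S.KK q) → x ∈ Om :=
    fun {q} hq {x} hx => by
      rw [hE.set q hq] at hx; exact T.sub _ hx
  exact far_path Xc hE kor_sub hR.hm (foam4 Φ hLa)
    (retF Φ hLa hR.pos hR.le_one)
    (corT hLa hN.hδ hN.hR hN.hκ0 hN.hκ1 hN.hκ2 hN.hκ hN.hκn hC hR)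
    (mesh0_mono hM (korJ_mono hC)) (by simp) hN.hθ hN.h00 le_rfl
    hN.hκ1 hN.hs hN.hs1 hLc (fun c h => hS_x hLa a c h) (levOn_S h.on h.lev)
    (hO hq hx) hl (hO hq' hx') hl' (fun c => int_S hq' hx' c) hq hvq h0
    (Or.inl ⟨fun c => int_S hq hx c, hx⟩) hq' hvq' h0' hx'

end main

end Crest.Agent.R096.Rop_441
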