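import Crest.Agent.R096.Rop10_441

/-!
# R096 (row 96), ROPES (helper441), part 11: (K4) over `lmK` of the sliced tiling, main results
-/

set_option autoImplicit false
set_option linter.unusedSectionVars false

open Set Relation Module

namespace Crest.Agent.R096.Rop_441

open Crest.Agent.R096.Brk1_582 Crest.Agent.R096.Brk2_582 Crest.Agent.R096.Brk3_582
  Crest.Agent.R096.Brk5_582 Crest.Agent.R096.Bsp_628 Crest.Agent.R096.Init_543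
  Crest.Agent.R096.Vb_965 Crest.Agent.R096.Msh_715 Crest.Agent.R096.St_147
  Crest.Agent.R096.Seq_213 Crest.Agent.R096.Lm_117 Crest.Agent.R096.Gl_422
  Crest.Agent.R096.SkB_662 Crest.Agent.R096.Cpo_642
  Crest.Agent.R096.Ce_537 Crest.Agent.R096.Agl5_543
  Crest.Agent.R096.Cp_298 Crest.Agent.R096.Gm_298 Crest.Agent.R096.Ac_117
  Crest.Agent.R096.Sla_184 Crest.Agent.R096.Sla_184.Sla Crest.Agent.R096.Kin_527
  Crest.Agent.R096.Vrt_422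
open Crest.Agent.R096.SkC1_961 (E3 Hom3 FoamD)
open Crest.Agent.R096.Mbf_337 (KJ sb)
open Crest.Agent.R096.Gia_537 (Kc Kc_sub Kc_compact Kc_disj Kc_exact)

variable {δ κ0 R c0 : ℝ} {La Om : Set E3} {ι : Type} {Φ : FoamD δ κ0 R c0 La}
  {T : Tiling Om ι} {f g : E3 → E3} {κ1 κ2 s₁ σ : ℝ} {X : Set Φ.F} {J0 J V : Φ.F → Set ι}
  {ct : Φ.F → ι}
  {A : Φ.F → E3 ≃ᵃ[ℝ] E3} {lam : Φ.F → ℝ} {z : Φ.F → E3} {θ : Φ.F → E3 → E3} {φ : Φ.F → E3 → ℝ}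
  {ct' : Φ.F → ι} {r₀ : Φ.F → ℝ}
  {κ : Type} {S : Sla T κ}

theorem Num.two {s₁ : ℝ} (hN : Num δ κ0 R c0 κ2 κ1 s₁) : 2 * κ1 < s₁ := by
  have h1 := hN.h00
  have h2 := hN.hs
  unfold ηN θN at h2
  linarith

section col

variable {c : κ} [Nonempty S.T3.Cell]

/-- a vertex of a cell of a layer tile is a point of a column over a vertex of the frontier; the base
point of the column is in the tile of `T` -/
theorem exists_col {p : T.RIdx S.HH} (hp : ∀ c, ¬ P (S.T3.H p) ⊆ S.KK c)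
    (hpc : P (T.H p.tile) ⊆ S.K c) {q : S.T3.Cell} (hq : q.set ⊆ P (S.T3.H p)) :
    ∃ v j, v ∈ frontier (S.K c) ∧ T.dim v = 0 ∧ j ≤ S.n c ∧ S.hc c v j ∈ q.set ∧
      v ∈ P (T.H p.tile) ∧ S.hc c v 0 = v := by
  obtain ⟨y, hy, hd⟩ := S.T3.exists_vertex q.pt_mem
  rw [← q.set_eq] at hy
  have hyp : y ∈ P (S.T3.H p) := hq hy
  have hyt : y ∈ P (T.H p.tile) := P3_sub p hyp
  have hyK : y ∈ S.K c := hpc hyt
  have hφ : S.t c (S.n c) ≤ S.φ c y := by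
    rcases tile_cases fr3 p with ⟨i, hi, rfl⟩ | ⟨c', G, j, hj, rfl⟩ | ⟨c', hc'⟩
    · exact absurd hpc (hi c)
    · obtain ⟨h1, h2, h4⟩ := (tg_P G hj).1 hyp
      have hcc : c' = c := S.core_unique (C_K (fk_bd G) h1) hyK
      subst hcc
      exact (S.t_le (Nat.succ_le_of_lt hj) le_rfl).trans h2
    · exact absurd hc' (hp c')
  obtain ⟨j, hj, hjs, hD⟩ := vert3 hyK hφ hd
  obtain ⟨a1, a2, a3⟩ := vertex_col hjs hd
  refine ⟨S.hc c y 0, j, a1, a2, hj, by rw [← a3]; exact hy, ?_, ?_⟩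
  · rcases Nat.eq_zero_or_pos j with h0 | h0
    · subst h0
      rw [hc_zero_vx hjs hD]
      exact hyt
    · have hin : S.In c y := (hjs.bo h0).1
      exact (Dfi_471.at3_O a1 (O_symm hjs.bd (hc_O hjs.bd 0)) hin hyp).1
  · have h1 := base_onS hjs.bd
    exact hc_zero_vx h1 (by rw [hc_D hjs.bd 0, hD])

/-- the tiles of the sliced tiling on a column -/
theorem col_tile {v w : E3} {j : ℕ} (hv : v ∈ frontier (S.K c)) (hw : w ∈ S.O c v)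
    (hwl : S.InL c j w) {p : T.RIdx S.HH} (hp : w ∈ P (S.T3.H p)) :
    v ∈ P (T.H p.tile) ∧ P (T.H p.tile) ⊆ S.K c ∧ ∀ k, ¬ P (S.T3.H p) ⊆ S.KK k := by
  obtain ⟨h1, h2⟩ := Dfi_471.at3_O hv hw hwl.bo.1 hp
  exact ⟨h1, h2, fun k hk => InL.not_KK hwl k (hk hp)⟩

end col

variable [Nonempty S.T3.Cell] {hH : ∀ c, CoreH S.T3 (S.KK c)} {hne : ∃ c, OutK S.T3 S.KK c}
  {Kq : Type} {Qd : Quads (T.RIdx S.HH ⊕ κ) Φ.F Kq} {Jn : Type} {fam : Jn → Φ.F}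
  {s₀ : GSt (mK fr3 hH dis_KK) fam}

section main

variable (hLa : IsOpen La) (hLc : IsPreconnected La) (hN : Num δ κ0 R c0 κ2 κ1 s₁)
  (hσ : 2 * κ1 < σ)
  (hR : InitR Φ T f g J0 ct' r₀)
  (hC : Mbf_337.Cores Φ T f κ1 κ2 X J0 J V ct A lam z θ φ)
  (hM : Mesh0 T (Pc Φ.F) (bc (F := Φ.F)) (RF Φ r₀) f (KorJ Φ J0) κ1)
  (hK : TinyK X J S)
  (Xc : Cplx Om (QK (belK S.T3 S.KK)) (dimK (belK S.T3 S.KK) fun c => c.1.dim)
    (setK S.T3 S.KK))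
  (h : Lst Φ f J0 J r₀ S hH hne Qd s₀ s₁ σ)
include hLa hN hσ hR hC hM hK Xc h

/-- **the column over a vertex of the frontier with small or large level** -/
theorem col_S {c : κ} {v : E3} (hv : v ∈ frontier (S.K c)) (hd : T.dim v = 0) {a : Φ.F}
    (hl : va (Pc Φ.F) (bc (F := Φ.F)) (RF Φ r₀) f a v ≤ κ1 ∨
      1 - κ1 ≤ va (Pc Φ.F) (bc (F := Φ.F)) (RF Φ r₀) f a v) {j : ℕ} (hj : j ≤ S.n c) :
    ReflTransGen (Ed (lmK fr3 hH dis_KK hne) (Fr0 (lmK fr3 hH dis_KK hne) Qd s₀ a))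
      (oc (edC S.T3 (S.hc c v 0)) (outK_hc (fr_Bd hv) (Nat.zero_le _)))
      (oc (edC S.T3 (S.hc c v j)) (outK_hc (fr_Bd hv) hj)) := by
  have h2N := hN.two
  have hosc : ∀ {p : T.RIdx S.HH}, v ∈ P (T.H p.tile) → ∀ {x : E3}, x ∈ P (T.H p.tile) →
      |va (Pc Φ.F) (bc (F := Φ.F)) (RF Φ r₀) f a x -
        va (Pc Φ.F) (bc (F := Φ.F)) (RF Φ r₀) f a v| ≤ κ1 := fun {p} hp {x} hx =>
    hM.osc p.tile (hK.notJ0 hLa hC hv hp) x hx v hp a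
  refine col_path (S := S) hv hd ?_ ?_ hj
  · intro k hk i hi
    have hL : S.InL c i (S.vc c v i) := vc_inL (fr_Bd hv) hi
    obtain ⟨p, hp⟩ := S.T3.cov _ hL.mem
    obtain ⟨b1, b2, b3⟩ := col_tile hv (vc_O (fr_Bd hv) i) hL hp
    refine ⟨p, hp, fun hact => ?_⟩
    obtain ⟨k', ⟨-, x, hx, hx1, -⟩, hk'⟩ := h.act p b3 k hact
    have h4 := hx1 a (hk' a hk)
    have h5 := abs_le.1 (hosc b1 hx)
    rcases hl with hl | hl
    · linarith [h4.1, h5.2]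
    · linarith [h4.2, h5.1]
  · intro i hi w hw hwO hwL hwa
    obtain ⟨p, hp⟩ := S.T3.cov _ hwL.mem
    obtain ⟨b1, b2, b3⟩ := col_tile hv hwO hwL hp
    obtain ⟨x, hx, h4, h5⟩ := h.lay w hw p c b3 b2 hp
    rw [hwa] at h4 h5
    have h6 := abs_le.1 (hosc b1 hx)
    rcases hl with hl | hl
    · linarith [h4, h6.2]
    · linarith [h5, h6.1]

/-- the vertex of `lmK` at a vertex of the frontier of a core -/
theorem vx_S {c : κ} {v : E3} (hv : v ∈ frontier (S.K c)) (hd : T.dim v = 0) :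
    ∃ hv' : OutK S.T3 S.KK (edC S.T3 v),
      dimK (belK S.T3 S.KK) (fun c => c.1.dim) (oc (edC S.T3 v) hv') = 0 ∧
      ∃ i, ∃ hi : ∀ c, ¬ P (T.H i) ⊆ S.K c, i ∉ KorJ Φ J ∧ v ∈ P (T.H i) ∧
        oc (edC S.T3 v) hv' ≤ tcK S.T3 S.KK (Sum.inl (S.ot i hi)) := by
  obtain ⟨c', hc', e⟩ := hK c
  have hvO : v ∈ Om := S.K_sub c (S.fr_sub c hv)
  have hout : ∀ d : Φ.F, v ∉ interior (Kc T J d) := by
    intro d hd
    rw [e] at hv
    by_cases hdc : d = c'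
    · subst hdc; exact hv.2 hd
    · exact disjoint_left.1 (Kc_disj hLa hC hdc) (interior_subset hd)
        ((Kc_compact hC c').isClosed.frontier_subset hv)
  obtain ⟨i, hi, hvi⟩ := exists_out T (kor_sub (Φ := Φ) (J := J)) (fun _ _ h => Kc_disj hLa hC h)
    hvO hout
  have hiS : ∀ c, ¬ P (T.H i) ⊆ S.K c := hK.subK.out hi
  have hset : (edC S.T3 v).set = {v} := by
    rw [edC_set hvO]
    have h1 : S.T3.dim v = 0 := by rw [(T3_eq hiS hvi).2.2, hd]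
    exact S.T3.cc_eq_singleton (S.T3.dim_eq_zero_iff.1 h1)
  have hvi' : v ∈ P (S.T3.H (S.ot i hiS)) := by rw [ot_P]; exact hvi
  have hO : OutK S.T3 S.KK (edC S.T3 v) := ⟨S.ot i hiS, not_KK_ot hiS, by
    rw [hset]; exact singleton_subset_iff.2 hvi'⟩
  refine ⟨hO, ?_, i, hiS, hi, hvi, ?_⟩
  · show (edC S.T3 v).dim = 0
    have h1 : S.T3.dim v = 0 := by rw [(T3_eq hiS hvi).2.2, hd]
    exact (edC_vertex hvO h1).1
  · rw [le_tcK (not_KK_ot hiS)]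
    exact ⟨_, hO, rfl, by rw [hset]; exact singleton_subset_iff.2 hvi'⟩

/-- vertices of the frontier of a core with small level are deep -/
theorem deep_fr {c : κ} {v : E3} (hv : v ∈ frontier (S.K c)) (hd : T.dim v = 0) {a : Φ.F}
    (hl : va (Pc Φ.F) (bc (F := Φ.F)) (RF Φ r₀) f a v ≤ θN δ κ0 R c0 κ2 κ1)
    (hv' : OutK S.T3 S.KK (edC S.T3 v)) : DeepS hC r₀ S a (oc (edC S.T3 v) hv') := by
  obtain ⟨hO', h0, i, hi, hiJ, hvi, hle⟩ := vx_S hLa hN hσ hR hC hM hK Xc h hv hd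
  refine deep_of_zero hR.hm (foam4 Φ hLa) (retF Φ hLa hR.pos hR.le_one)
    (corT hLa hN.hδ hN.hR hN.hκ0 hN.hκ1 hN.hκ2 hN.hκ hN.hκn hC hR) (q := Sum.inl (S.ot i hi))
    ⟨i, hi, hiJ, rfl⟩ hle h0 (x := v) ?_ (T.sub i hvi) (fun c => int_J hiJ hvi c) hl
  rw [setK_tcK (not_KK_ot hi), ot_P]
  exact hvi

theorem far_fr {c : κ} {v : E3} (hv : v ∈ frontier (S.K c)) (hd : T.dim v = 0) {a : Φ.F}
    (hl : 1 - θN δ κ0 R c0 κ2 κ1 ≤ va (Pc Φ.F) (bc (F := Φ.F)) (RF Φ r₀) f a v)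
    (hv' : OutK S.T3 S.KK (edC S.T3 v)) :
    FarS Φ f r₀ J S (θN δ κ0 R c0 κ2 κ1) a (oc (edC S.T3 v) hv') := by
  obtain ⟨hO', h0, i, hi, hiJ, hvi, hle⟩ := vx_S hLa hN hσ hR hC hM hK Xc h hv hd
  refine ⟨h0, Sum.inl (S.ot i hi), ⟨i, hi, hiJ, rfl⟩, hle, v, ?_, hl⟩
  rw [setK_tcK (not_KK_ot hi), ot_P]
  exact hvi

end main

end Crest.Agent.R096.Rop_441
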