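import Crest.Agent.R096.Rop11_441

/-!
# R096 (row 96), ROPES (helper441), part 12: (K4) over `lmK` of the sliced tiling

`k4_outer`, `k4_layer`, **`k4_S`** (the field `k4` of 337's `Front`).
-/

set_option autoImplicit false
set_option linter.unusedSectionVars false

open Set Relation Module

namespace Crest.Agent.R096.Rop_441

open Crest.Agent.R096.Brk1_582 Crest.Agent.R096.Brk2_582 Crest.Agent.R096.Brk3_582
  Crest.Agent.R096.Brk5_582 Crest.Agent.R096.Bsp_628 Crest.Agent.R096.Init_543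
  Crest.Agent.R096.Vb_965 Crest.Agent.R096.Msh_715 Crest.Agent.R096.St_147
  Crest.Agent.R096.Seq_213 Crest.Agent.R096.Lm_117 Crest.Agent.R096.Gl_422
  Crest.Agent.R096.SkB_662 Crest.Agent.R096.Cpo_642
  Crest.Agent.R096.Ce_537 Crest.Agent.R096.Agl5_543
  Crest.Agent.R096.Cp_298 Crest.Agent.R096.Gm_298 Crest.Agent.R096.Ac_117
  Crest.Agent.R096.Sla_184 Crest.Agent.R096.Sla_184.Sla Crest.Agent.R096.Kin_527
  Crest.Agent.R096.Vrt_422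
open Crest.Agent.R096.SkC1_961 (E3 Hom3 FoamD)
open Crest.Agent.R096.Mbf_337 (KJ sb)
open Crest.Agent.R096.Gia_537 (Kc Kc_sub Kc_compact Kc_disj Kc_exact)

variable {δ κ0 R c0 : ℝ} {La Om : Set E3} {ι : Type} {Φ : FoamD δ κ0 R c0 La}
  {T : Tiling Om ι} {f g : E3 → E3} {κ1 κ2 s₁ σ : ℝ} {X : Set Φ.F} {J0 J V : Φ.F → Set ι}
  {ct : Φ.F → ι}
  {A : Φ.F → E3 ≃ᵃ[ℝ] E3} {lam : Φ.F → ℝ} {z : Φ.F → E3} {θ : Φ.F → E3 → E3} {φ : Φ.F → E3 → ℝ}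
  {ct' : Φ.F → ι} {r₀ : Φ.F → ℝ}
  {κ : Type} {S : Sla T κ}
variable [Nonempty S.T3.Cell] {hH : ∀ c, CoreH S.T3 (S.KK c)} {hne : ∃ c, OutK S.T3 S.KK c}
  {Kq : Type} {Qd : Quads (T.RIdx S.HH ⊕ κ) Φ.F Kq} {Jn : Type} {fam : Jn → Φ.F}
  {s₀ : GSt (mK fr3 hH dis_KK) fam}

/-- every cell of the outside is a cell of a tile outside all cores, of an exact core tile, or of a
layer tile -/
theorem cell_cases (hLa : IsOpen La)
    (hC : Mbf_337.Cores Φ T f κ1 κ2 X J0 J V ct A lam z θ φ) (hK : TinyK X J S)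
    (hX : ∀ c' : Φ.F, c' ∉ X → ∃ c, S.K c = KJ T (J c')) {q : S.T3.Cell}
    (hq : OutK S.T3 S.KK q)
    (hne : ∀ a ∈ X, q.set ≠ P (T.H (ct a))) :
    (∃ i, i ∉ KorJ Φ J ∧ q.set ⊆ P (T.H i)) ∨
      ∃ (p : T.RIdx S.HH) (c : κ), (∀ c, ¬ P (S.T3.H p) ⊆ S.KK c) ∧ P (T.H p.tile) ⊆ S.K c ∧
        q.set ⊆ P (S.T3.H p) := by
  have hO : q.pt ∈ Om := q.pt_mem
  by_cases hout : ∀ c : Φ.F, q.pt ∉ interior (Kc T J c)
  · left
    obtain ⟨i, hi, hqi⟩ := exists_out T (kor_sub (Φ := Φ) (J := J))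
      (fun _ _ h => Kc_disj hLa hC h) hO hout
    refine ⟨i, hi, ?_⟩
    have hiS := hK.subK.out hi
    have h1 : q.pt ∈ P (S.T3.H (S.ot i hiS)) := by rw [ot_P]; exact hqi
    have h2 := S.T3.cc_sub_tile h1
    rw [ot_P] at h2
    rw [q.set_eq]; exact h2
  · right
    push Not at hout
    obtain ⟨c', hc'⟩ := hout
    by_cases hX' : c' ∈ X
    · exfalso
      rw [Kc_exact hC hX', Csub_487.interior_tile] at hc'
      -- the exact core tile is not in a tiny core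
      have hiS : ∀ c, ¬ P (T.H (ct c')) ⊆ S.K c := by
        intro c hc
        obtain ⟨d, hd, e⟩ := hK c
        rw [e] at hc
        have hne' : d ≠ c' := fun h => hd (h ▸ hX')
        refine disjoint_left.1 (Kc_disj (T := T) (J := J) hLa hC hne') (hc (I_sub_P _ hc')) ?_
        rw [Kc_exact hC hX']; exact I_sub_P _ hc'
      refine hne c' hX' ?_
      have h1 : q.pt ∈ I (S.T3.H (S.ot (ct c') hiS)) := by rw [ot_H]; exact hc'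
      rw [q.set_eq, S.T3.cc_eq_tile h1, ot_P]
    · obtain ⟨c, e⟩ := hX c' hX'
      obtain ⟨p, hp, hqp⟩ := hq
      refine ⟨p, c, hp, ?_, hqp⟩
      have hin : S.In c q.pt := in_iff.2 (by rw [e]; exact hc')
      have h1 : q.pt ∈ P (S.T3.H p) := hqp (by rw [q.set_eq]; exact S.T3.self_mem_cc _)
      exact hin.tile (P3_sub p h1)

section main

variable (hLa : IsOpen La) (hLc : IsPreconnected La) (hN : Num δ κ0 R c0 κ2 κ1 s₁)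
  (hσ : 2 * κ1 < σ)
  (hR : InitR Φ T f g J0 ct' r₀)
  (hC : Mbf_337.Cores Φ T f κ1 κ2 X J0 J V ct A lam z θ φ)
  (hM : Mesh0 T (Pc Φ.F) (bc (F := Φ.F)) (RF Φ r₀) f (KorJ Φ J0) κ1)
  (hK : TinyK X J S)
  (Xc : Cplx Om (QK (belK S.T3 S.KK)) (dimK (belK S.T3 S.KK) fun c => c.1.dim)
    (setK S.T3 S.KK))
  (h : Lst Φ f J0 J r₀ S hH hne Qd s₀ s₁ σ)
  {Z : Φ.F → Set (QK (belK S.T3 S.KK))} {v₀ : Φ.F → QK (belK S.T3 S.KK)}
  (hv₀ : ∀ j, DeepS hC r₀ S (fam j) (v₀ (fam j)))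
  (hv₁ : ∀ j, ∃ v' ∈ Z (fam j), FarS Φ f r₀ J S (θN δ κ0 R c0 κ2 κ1) (fam j) v')
include hLa hLc hN hσ hR hC hM hK Xc h hv₀ hv₁

/-- **(K4) for a cell of a tile outside all cores** -/
theorem k4_outer {i : ι} (hi : i ∉ KorJ Φ J) {q : S.T3.Cell} (hqO : OutK S.T3 S.KK q)
    (hq : q.set ⊆ P (T.H i)) {x : E3} (hx : x ∈ P (T.H i)) :
    K4In (lmK fr3 hH dis_KK hne) Qd s₀ Z v₀ (Pc Φ.F) {oc q hqO}
      (fun _ a => va (Pc Φ.F) (bc (F := Φ.F)) (RF Φ r₀) f a x) := by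
  have : Nonempty ι := ⟨i⟩
  have hiS := hK.subK.out hi
  have hE := h.env hK
  refine k4in (xq := fun _ => x) Xc hE kor_sub hR.hm (foam4 Φ hLa)
    (retF Φ hLa hR.pos hR.le_one)
    (corT hLa hN.hδ hN.hR hN.hκ0 hN.hκ1 hN.hκ2 hN.hκ hN.hκn hC hR)
    (mesh0_mono hM (korJ_mono hC)) (by simp) hN.hθ hN.h00 le_rfl
    hN.hκ1 hN.hs hN.hs1 (levOn_S h.on h.lev) hLc (fun a c h => hS_x hLa a c h)
    (fun i hi x hx c => int_S hi hx c) hv₀ (fun j => ?_) (fun q' hq' => ?_)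
  · obtain ⟨v', h1, h2, i', h3, h4, x', h5, h6⟩ := hv₁ j
    exact ⟨v', h1, h2, i', h3, h4, x', h5, h6⟩
  · rw [Set.mem_singleton_iff.1 hq']
    refine ⟨Sum.inl (S.ot i hiS), ⟨i, hiS, hi, rfl⟩, ?_, ?_⟩
    · rw [le_tcK (not_KK_ot hiS)]
      exact ⟨q, hqO, rfl, by rw [ot_P]; exact hq⟩
    · rw [setK_tcK (not_KK_ot hiS), ot_P]; exact hx

/-- **(K4) for a cell of a layer tile** -/
theorem k4_layer {p : T.RIdx S.HH} {c : κ} (hp : ∀ c, ¬ P (S.T3.H p) ⊆ S.KK c)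
    (hpc : P (T.H p.tile) ⊆ S.K c) {q : S.T3.Cell} (hqO : OutK S.T3 S.KK q)
    (hq : q.set ⊆ P (S.T3.H p)) {x : E3} (hx : x ∈ P (T.H p.tile)) :
    K4In (lmK fr3 hH dis_KK hne) Qd s₀ Z v₀ (Pc Φ.F) {oc q hqO}
      (fun _ a => va (Pc Φ.F) (bc (F := Φ.F)) (RF Φ r₀) f a x) := by
  have h2N := hN.two
  have h1N := hN.hκ1
  obtain ⟨v, j, hv, hvd, hj, hvq, hvp, hv0⟩ := exists_col hp hpc hq
  have hpJ : p.tile ∉ KorJ Φ J0 := hK.notJ0 hLa hC hv hvp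
  have hosc : ∀ {y y' : E3}, y ∈ P (T.H p.tile) → y' ∈ P (T.H p.tile) → ∀ a,
      |va (Pc Φ.F) (bc (F := Φ.F)) (RF Φ r₀) f a y -
        va (Pc Φ.F) (bc (F := Φ.F)) (RF Φ r₀) f a y'| ≤ κ1 := fun {y y'} hy hy' a =>
    hM.osc p.tile hpJ y hy y' hy' a
  have hle : oc q hqO ≤ tcK S.T3 S.KK (Sum.inl p) := by
    rw [le_tcK hp]; exact ⟨q, hqO, rfl, hq⟩
  -- the end of the column
  have hvx : oc (edC S.T3 (S.hc c v j)) (outK_hc (fr_Bd hv) hj) ≤ oc q hqO := by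
    show (edC S.T3 (S.hc c v j)).set ⊆ q.set
    rw [edC_set (hc_Om (fr_Bd hv) hj), q.set_eq]
    rw [q.set_eq] at hvq
    exact S.T3.cc_sub_of_mem hvq
  have hvx0 : dimK (belK S.T3 S.KK) (fun c => c.1.dim)
      (oc (edC S.T3 (S.hc c v j)) (outK_hc (fr_Bd hv) hj)) = 0 := by
    show (edC S.T3 (S.hc c v j)).dim = 0
    exact (edC_vertex (hc_Om (fr_Bd hv) hj) (hc_dim (fr_Bd hv) (D_vx hv hvd) j)).1
  have hO0 := outK_hc (S := S) (fr_Bd hv) (Nat.zero_le (S.n c))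
  have key : ∀ {w : E3}, w = v → ∀ (hO : OutK S.T3 S.KK (edC S.T3 w)) {a : Φ.F},
      va (Pc Φ.F) (bc (F := Φ.F)) (RF Φ r₀) f a v ≤ θN δ κ0 R c0 κ2 κ1 →
      DeepS hC r₀ S a (oc (edC S.T3 w) hO) := by
    rintro w rfl hO a hl
    exact deep_fr hLa hN hσ hR hC hM hK Xc h hv hvd hl hO
  have key' : ∀ {w : E3}, w = v → ∀ (hO : OutK S.T3 S.KK (edC S.T3 w)) {a : Φ.F},
      1 - θN δ κ0 R c0 κ2 κ1 ≤ va (Pc Φ.F) (bc (F := Φ.F)) (RF Φ r₀) f a v →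
      FarS Φ f r₀ J S (θN δ κ0 R c0 κ2 κ1) a (oc (edC S.T3 w) hO) := by
    rintro w rfl hO a hl
    exact far_fr hLa hN hσ hR hC hM hK Xc h hv hvd hl hO
  have hθ : κ1 ≤ θN δ κ0 R c0 κ2 κ1 := by
    have := hN.h00
    unfold θN; linarith
  refine ⟨fun q' hq' => ?_, fun q' hq' w hw hwq => ?_, fun q' hq' k a hka w hw hwq hint' => ?_,
    fun q' hq' j' hj' => ?_, fun q' hq' j' hj' => ?_⟩
  · have F := foam4 Φ hLa
    have hy := mem_La hR.hm F (retF Φ hLa hR.pos hR.le_one) (T.sub _ hx)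
    obtain ⟨c1, c2, hne', h1, h2⟩ := hM.wall p.tile hpJ _ hx
    exact ⟨F.sc_mem_K hy, c1, c2, hne', (F.sc_eq_zero hy).2 h1, (F.sc_eq_zero hy).2 h2⟩
  · rw [Set.mem_singleton_iff.1 hq'] at hwq
    have hwp : w ∈ P (S.T3.H p) := (ed_le_K hwq.1 hp).1 (hwq.2.trans hle)
    obtain ⟨y, hy, h4, h5⟩ := h.lay w hw p c hp hpc hwp
    have h6 := abs_le.1 (hosc hx hy (fam (s₀.lab w)))
    constructor
    · show 0 < va (Pc Φ.F) (bc (F := Φ.F)) (RF Φ r₀) f _ x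
      linarith [h6.1]
    · show va (Pc Φ.F) (bc (F := Φ.F)) (RF Φ r₀) f _ x < 1
      linarith [h6.2]
  · rw [Set.mem_singleton_iff.1 hq'] at hwq
    obtain ⟨F', hF1, hF2⟩ := mid_K (h3 := fr3) (hH := hH) (hdis := dis_KK) (hne := hne) hp
      ((lmK fr3 hH dis_KK hne).ed_dim w hwq.1) (hwq.2.trans hle)
    have hact : Sum.inl p ∈ Qd.Act k :=
      hint'.2 F' (((lmK fr3 hH dis_KK hne).on_iff F' w).2 ⟨hwq.1, hF1⟩) _ hF2
    obtain ⟨k', ⟨-, y, hy, hy1, -⟩, hk'⟩ := h.act p hp k hact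
    have h4 := hy1 a (hk' a hka)
    have h6 := abs_le.1 (hosc hx hy a)
    constructor
    · show 0 < va (Pc Φ.F) (bc (F := Φ.F)) (RF Φ r₀) f a x
      linarith [h6.1, h4.1]
    · show va (Pc Φ.F) (bc (F := Φ.F)) (RF Φ r₀) f a x < 1
      linarith [h6.2, h4.2]
  · rw [Set.mem_singleton_iff.1 hq']
    have hj0 : va (Pc Φ.F) (bc (F := Φ.F)) (RF Φ r₀) f (fam j') x = 0 := hj'
    have hl : va (Pc Φ.F) (bc (F := Φ.F)) (RF Φ r₀) f (fam j') v ≤ κ1 := by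
      have h6 := abs_le.1 (hosc hvp hx (fam j'))
      linarith [h6.2]
    refine ⟨_, hvx, hvx0, ?_⟩
    exact (zero_S hLa hN hR hC hM hK Xc h (hv₀ j') (key hv0 hO0 (hl.trans hθ))).trans
      (col_S hLa hN hσ hR hC hM hK Xc h hv hvd (Or.inl hl) hj)
  · rw [Set.mem_singleton_iff.1 hq']
    have hj0 : va (Pc Φ.F) (bc (F := Φ.F)) (RF Φ r₀) f (fam j') x = 1 := hj'
    have hl : 1 - κ1 ≤ va (Pc Φ.F) (bc (F := Φ.F)) (RF Φ r₀) f (fam j') v := by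
      have h6 := abs_le.1 (hosc hvp hx (fam j'))
      linarith [h6.1]
    obtain ⟨v', h1, h2⟩ := hv₁ j'
    refine ⟨_, hvx, hvx0, v', h1, ?_⟩
    exact (far_S hLa hLc hN hR hC hM hK Xc h h2 (key' hv0 hO0 (by linarith))).trans
      (col_S hLa hN hσ hR hC hM hK Xc h hv hvd (Or.inr hl) hj)

/-- **(K4)**: the field `k4` of 337's `Front` -/
theorem k4_S (hX : ∀ c' : Φ.F, c' ∉ X → ∃ c, S.K c = KJ T (J c')) {q : S.T3.Cell}
    (hqO : OutK S.T3 S.KK q) (hnt : ∀ a ∈ X, q.set ≠ P (T.H (ct a))) :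
    ∃ i, (∀ c, i ∉ J0 c) ∧ q.set ⊆ P (T.H i) ∧ ∀ x ∈ P (T.H i),
      K4In (lmK fr3 hH dis_KK hne) Qd s₀ Z v₀ (Pc Φ.F) {oc q hqO}
        (fun _ => sb Φ (Φ.Psi (f x))) := by
  have key : ∀ {i : ι}, i ∉ KorJ Φ J0 → ∀ {x : E3}, x ∈ P (T.H i) →
      (fun _ : QK (belK S.T3 S.KK) => sb Φ (Φ.Psi (f x))) =
      fun _ a => va (Pc Φ.F) (bc (F := Φ.F)) (RF Φ r₀) f a x := fun {i} hi {x} hx => by
    funext _
    exact (va_eq_sb (R := RF Φ r₀) (RF_Psi hLa hR (T.sub _ hx) fun c =>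
      notMem_hole' hR hi hx c)).symm
  rcases cell_cases hLa hC hK hX hqO hnt with ⟨i, hi, hqi⟩ | ⟨p, c, hp, hpc, hqp⟩
  · have hi0 : i ∉ KorJ Φ J0 := fun h' => hi (korJ_mono hC h')
    refine ⟨i, fun c hc => hi0 ⟨c, hc⟩, hqi, fun x hx => ?_⟩
    rw [key hi0 hx]
    exact k4_outer hLa hLc hN hσ hR hC hM hK Xc h hv₀ hv₁ hi hqO hqi hx
  · obtain ⟨v, j, hv, hvd, hj, hvq, hvp, hv0⟩ := exists_col hp hpc hqp
    have hpJ : p.tile ∉ KorJ Φ J0 := hK.notJ0 hLa hC hv hvp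
    refine ⟨p.tile, fun c hc => hpJ ⟨c, hc⟩, hqp.trans (P3_sub p), fun x hx => ?_⟩
    rw [key hpJ hx]
    exact k4_layer hLa hLc hN hσ hR hC hM hK Xc h hv₀ hv₁ hp hpc hqO hqp hx

end main

end Crest.Agent.R096.Rop_441
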