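import Crest.Agent.R096.Rop13_441
import Crest.Agent.R096.Ebr5_95

/-!
# Row 96 (S0127), DOORS, G4 (R): ROPES OF A BARRIER (helper441)

* `NoP L s i` : the 1-cells without points of the name `i`;
* `rope_out`  : a path of such 1-cells along a compact connected set covered by tiles outside the
  cores which carry no point of the name `i`;
* `Zo`        : shell over a set `A` of the frontier of the brick, outside the core, led round it.
-/

set_option autoImplicit false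
set_option linter.unusedSectionVars false
set_option linter.unusedVariables false

open Set Relation Module

namespace Crest.Agent.R096.Rop_441

open Crest.Agent.R096.Brk1_582 Crest.Agent.R096.Brk2_582 Crest.Agent.R096.Brk3_582
  Crest.Agent.R096.Brk5_582 Crest.Agent.R096.Bsp_628 Crest.Agent.R096.Init_543
  Crest.Agent.R096.Vb_965 Crest.Agent.R096.Msh_715 Crest.Agent.R096.St_147
  Crest.Agent.R096.Seq_213 Crest.Agent.R096.Lm_117 Crest.Agent.R096.Gl_422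
  Crest.Agent.R096.SkB_662 Crest.Agent.R096.Cpo_642
  Crest.Agent.R096.Ce_537 Crest.Agent.R096.Agl5_543
  Crest.Agent.R096.Cp_298 Crest.Agent.R096.Gm_298 Crest.Agent.R096.Ac_117
  Crest.Agent.R096.Sla_184 Crest.Agent.R096.Sla_184.Sla
open Crest.Agent.R096.SkC1_961 (E3 Hom3 FoamD)
open Crest.Agent.R096.Mbf_337 (KJ sb)
open Crest.Agent.R096.Ess5_95 (ga)

section nop

variable {ι Φ W Q : Type} [PartialOrder Q] {dim : Q → ℕ} {M : MeshC ι Φ W} {J C : Type}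
  {fam : J → C}

/-- the 1-cells without points of the name `i` -/
def NoP (L : LM M Q dim) (s : GSt M fam) (i : J) : Set Q :=
  {e | ∀ w ∈ s.P, s.lab w = i → L.ed w ≠ e}

/-- a label of the name `i` is constant along a path without points of the name `i` -/
theorem lam_noP {L : LM M Q dim} {s : GSt M fam} {i : J} {v v' : Q}
    (h : ReflTransGen (Ed L (NoP L s i)) v v') {lam : Q → ZMod 2}
    (hlam : GLab L (gp s i) lam) : lam v' = lam v := by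
  induction h with
  | refl => rfl
  | tail _ hbc ih =>
    obtain ⟨e, he, he1, b, rfl, rfl⟩ := hbc
    rw [← ih]
    have h1 : nW (gp s i) (L.On1 e) = 0 := nW_empty fun w hw hwe => by
      obtain ⟨h2, h4⟩ := mem_gp.1 hw
      exact he w h2 h4 hwe.2
    have h2 := (hlam.xl e) e le_rfl he1
    rw [h1] at h2
    have h4 : lam (L.en e false) = lam (L.en e true) := by
      have e1 : ∀ x y : ZMod 2, x + y = 0 → x = y := by decide
      exact e1 _ _ h2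
    cases b
    · exact h4.symm
    · exact h4

end nop

section out

variable {Om : Set E3} {ι : Type} {T : Tiling Om ι} {κ : Type} {S : Sla T κ}
  [Nonempty S.T3.Cell] {hH : ∀ c, CoreH S.T3 (S.KK c)} {hne : ∃ c, OutK S.T3 S.KK c}
  {Jn Cn : Type} {fam : Jn → Cn} {s₀ : GSt (mK fr3 hH dis_KK) fam}

/-- a point of `Om` in the interior of no core lies on a tile outside the cores -/
theorem exists_out_S (S : Sla T κ) {x : E3} (hx : x ∈ Om) (hxi : ∀ c, x ∉ interior (S.K c)) :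
    ∃ p, (∀ c, ¬ P (T.H p) ⊆ S.K c) ∧ x ∈ P (T.H p) := by
  obtain ⟨q, hq, hxq⟩ := exists_out T (Kor := {q | ∃ c, P (T.H q) ⊆ S.K c}) (fun q hq => hq)
    S.dis hx hxi
  exact ⟨q, fun c hc => hq ⟨c, hc⟩, hxq⟩

/-- **ROPE OUTSIDE THE CORES** without points of the name `i` -/
theorem rope_out (Xc : Cplx Om (QK (belK S.T3 S.KK)) (dimK (belK S.T3 S.KK) fun c => c.1.dim)
      (setK S.T3 S.KK))
    (hon : ∀ w ∈ s₀.P, w ∈ (lmK fr3 hH dis_KK hne).W1) {i : Jn} {A : Set E3}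
    (hA : IsCompact A) (hAc : IsPreconnected A)
    (hcov : ∀ x ∈ A, ∃ p, (∀ c, ¬ P (T.H p) ⊆ S.K c) ∧ x ∈ P (T.H p))
    (hno : ∀ p, (∀ c, ¬ P (T.H p) ⊆ S.K c) → (P (T.H p) ∩ A).Nonempty →
      ∀ w ∈ s₀.P, s₀.lab w = i → w ∉ P (T.H p))
    {p p' : ι} (hp : ∀ c, ¬ P (T.H p) ⊆ S.K c) (hpA : (P (T.H p) ∩ A).Nonempty)
    {v v' : QK (belK S.T3 S.KK)} (hv : v ≤ tcK S.T3 S.KK (Sum.inl (S.ot p hp)))
    (hv0 : dimK (belK S.T3 S.KK) (fun c => c.1.dim) v = 0)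
    (hp' : ∀ c, ¬ P (T.H p') ⊆ S.K c) (hpA' : (P (T.H p') ∩ A).Nonempty)
    (hv' : v' ≤ tcK S.T3 S.KK (Sum.inl (S.ot p' hp')))
    (hv0' : dimK (belK S.T3 S.KK) (fun c => c.1.dim) v' = 0) :
    ReflTransGen (Ed (lmK fr3 hH dis_KK hne) (NoP (lmK fr3 hH dis_KK hne) s₀ i)) v v' := by
  have hset : ∀ (p : ι) (hp : ∀ c, ¬ P (T.H p) ⊆ S.K c),
      setK S.T3 S.KK (tcK S.T3 S.KK (Sum.inl (S.ot p hp))) = P (T.H p) := fun p hp => by
    rw [setK_tcK (not_KK_ot hp), ot_P hp]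
  have h := rope_EdJ Xc (lmK fr3 hH dis_KK hne) hA hAc
    (Jc := {q | ∃ p, ∃ hp : ∀ c, ¬ P (T.H p) ⊆ S.K c,
      q = tcK S.T3 S.KK (Sum.inl (S.ot p hp))}) (fun x hx => by
        obtain ⟨p, hp, hxp⟩ := hcov x hx
        exact mem_biUnion (show _ ∈ {q | ∃ p, ∃ hp : ∀ c, ¬ P (T.H p) ⊆ S.K c,
          q = tcK S.T3 S.KK (Sum.inl (S.ot p hp))} from ⟨p, hp, rfl⟩) (by rw [hset p hp]; exact hxp))
    ⟨p, hp, rfl⟩ (by rw [hset p hp]; exact hpA) hv hv0 ⟨p', hp', rfl⟩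
    (by rw [hset p' hp']; exact hpA') hv' hv0'
  refine path_mono ?_ h
  rintro e ⟨q, ⟨r, hr, rfl⟩, heq, hqA⟩ w hw hl hwe
  rw [hset r hr] at hqA
  refine hno r hr hqA w hw hl ?_
  have h1 := (ed_le_K (hon w hw) (not_KK_ot hr)).1 (hwe ▸ heq)
  rw [ot_P hr] at h1
  exact h1

end out

section shl

variable {δ κ0 R c0 : ℝ} {La Om : Set E3} {ι : Type} {Φ : FoamD δ κ0 R c0 La}
  {T : Tiling Om ι} {f g : E3 → E3} {κ1 : ℝ} {J0 J V : Set ι}
  {θ : E3 → E3} {φ : E3 → ℝ} {c : Φ.F} {ρ1 ρ2 ρ3 ρ4 d : ℝ} {p : ℝ × E3 → E3}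

/-- shell over the set `A` of the frontier of the brick `c` -/
def Shl (Φ : FoamD δ κ0 R c0 La) (Om : Set E3) (f : E3 → E3) (c : Φ.F) (A : Set E3) (r r' : ℝ) :
    Set E3 :=
  Om ∩ f ⁻¹' {y | (r ≤ ga Φ c y ∧ ga Φ c y ≤ r') ∧ Φ.Psi y ∈ A}

/-- the shell outside the core `K`, led round it over `B` -/
def Zo (Φ : FoamD δ κ0 R c0 La) (Om : Set E3) (f : E3 → E3) (c : Φ.F) (K : Set E3)
    (θ : E3 → E3) (A B : Set E3) (r r' : ℝ) : Set E3 :=
  Shl Φ Om f c A r r' \ interior K ∪ {x | x ∈ frontier K ∧ θ x ∈ B}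

variable (hLa : IsOpen La) (H : Hm f g Om La) (hTc : Mbf_337.Tiny Φ T f κ1 c J0 J V θ φ)
  (hr : Ess5_95.Rm Φ T f c J0 J V θ ρ1 ρ2 ρ3 ρ4 d) (hG : Ess5_95.GA Φ c ρ4)
  (hPol : Bgf_4.Pol Φ c ρ4 p)
include hLa H hTc hr hG hPol

theorem shl_cc {A : Set E3} (hA : A ⊆ frontier c.1.set) (hAc : IsCompact A)
    (hAp : IsPreconnected A) {r r' : ℝ} (h0 : 0 < r) (h4 : r' ≤ ρ4) :
    IsCompact (Shl Φ Om f c A r r') ∧ IsPreconnected (Shl Φ Om f c A r r') := by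
  have hL : {y | (r ≤ ga Φ c y ∧ ga Φ c y ≤ r') ∧ Φ.Psi y ∈ A} ⊆ La := fun y hy =>
    (foam4 Φ hLa).sub c ((hG.one y).1 (by linarith [hy.1.2, hr.r4]))
  refine ⟨H.isCompact_pre hL ?_, H.preconn_pre hL (hPol.prod_conn hA hAp h0 h4)⟩
  rw [← hPol.prod hA h0 h4]
  exact (isCompact_Icc.prod hAc).image_of_continuousOn
    (hPol.cont.mono fun x hx => ⟨mem_univ _, hA hx.2⟩)

/-- **the zone is compact and connected** -/
theorem zo_cc {A B : Set E3} (hA : A ⊆ frontier c.1.set) (hAc : IsCompact A)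
    (hAp : IsPreconnected A) (hAn : A.Nonempty) (hB : B ⊆ frontier c.1.set) (hBc : IsCompact B)
    (hBp : IsPreconnected B) (hBn : B.Nonempty)
    (hAB : ∀ x ∈ frontier (KJ T J), Φ.Psi (f x) ∈ A → θ x ∈ B) {r r' : ℝ} (h0 : 0 < r)
    (h2 : r < ρ2) (hrr : r ≤ r') (h4 : r' ≤ ρ4) :
    IsCompact (Zo Φ Om f c (KJ T J) θ A B r r') ∧
      IsPreconnected (Zo Φ Om f c (KJ T J) θ A B r r') := by
  classical
  obtain ⟨hc1, hc2⟩ := shl_cc hLa H hTc hr hG hPol hA hAc hAp h0 h4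
  have hcore : CoreH T (KJ T J) := Exa_560.coreH_tiny hTc
  have hcl : IsClosed (KJ T J) := hcore.cpt.isClosed
  obtain ⟨e, he⟩ := hTc.bij
  have hpat : {x | x ∈ frontier (KJ T J) ∧ θ x ∈ B} = e.g '' B := by
    ext x
    constructor
    · rintro ⟨h1, h2⟩
      refine ⟨θ x, h2, ?_⟩
      rw [← he x h1]
      exact e.li x h1
    · rintro ⟨q, hq, rfl⟩
      have h1 := e.mg (hB hq)
      refine ⟨h1, ?_⟩
      rw [← he _ h1, e.ri q (hB hq)]
      exact hq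
  have hpc : IsCompact {x | x ∈ frontier (KJ T J) ∧ θ x ∈ B} := by
    rw [hpat]; exact hBc.image_of_continuousOn (e.pg.1.mono hB)
  have hpp : IsPreconnected {x | x ∈ frontier (KJ T J) ∧ θ x ∈ B} := by
    rw [hpat]; exact hBp.image _ (e.pg.1.mono hB)
  have hpn : {x | x ∈ frontier (KJ T J) ∧ θ x ∈ B}.Nonempty := by
    rw [hpat]; exact hBn.image _
  -- the shell meets the core
  have hmeet : (Shl Φ Om f c A r r' ∩ KJ T J).Nonempty := by
    obtain ⟨q, hq⟩ := hAn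
    obtain ⟨y, hy, hy1, hy2⟩ := hG.ex q (hA hq) r h0 (hrr.trans h4)
    have hyL : y ∈ La := (foam4 Φ hLa).sub c hy
    refine ⟨g y, ⟨H.gm hyL, ?_⟩, ?_⟩
    · show (r ≤ ga Φ c (f (g y)) ∧ ga Φ c (f (g y)) ≤ r') ∧ Φ.Psi (f (g y)) ∈ A
      rw [H.fg y hyL, hy1, hy2]
      exact ⟨⟨le_rfl, hrr⟩, hq⟩
    · refine interior_subset (Ess5_95.K_int H ((foam4 Φ hLa).sub c) hG hr hTc.sub0 hcl hTc.mem
        (H.gm hyL) ?_)
      rw [H.fg y hyL, hy1]
      exact h2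
  have hdet : det (Shl Φ Om f c A r r') (fun _ : Unit => KJ T J)
      (fun _ => {x | x ∈ frontier (KJ T J) ∧ θ x ∈ B}) = Zo Φ Om f c (KJ T J) θ A B r r' := by
    unfold det Zo
    ext x
    constructor
    · rintro (⟨h1, h⟩ | h)
      · exact Or.inl ⟨h1, fun h' => h (mem_iUnion.2 ⟨(), h'⟩)⟩
      · obtain ⟨_, _, h⟩ := mem_iUnion₂.1 h
        exact Or.inr h
    · rintro (⟨h1, h⟩ | h)
      · refine Or.inl ⟨h1, fun h' => ?_⟩
        obtain ⟨_, h2⟩ := mem_iUnion.1 h'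
        exact h h2
      · exact Or.inr (mem_iUnion₂.2 ⟨(), hmeet, h⟩)
  rw [← hdet]
  refine ⟨isCompact_det hc1 (Set.toFinite _) fun _ _ => hpc,
    detour hc1 hc2 (fun _ => hcl) (fun a b hab => absurd rfl hab) (Set.toFinite _)
      (fun _ _ => ⟨hpn, hpp⟩) fun _ x hx => ?_⟩
  have hxf : x ∈ frontier (KJ T J) := by
    rw [hcl.frontier_eq]; exact ⟨hx.1.2, hx.2⟩
  exact ⟨hxf, hAB x hxf hx.1.1.2.2⟩

end shl

end Crest.Agent.R096.Rop_441
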