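import Crest.Agent.R096.Rop14_441

/-!
# Row 96 (S0127), DOORS, G4 (R), part 2: THE LOW ZONE AND THE HIGH ZONE OF A BARRIER (helper441)

`ZL` (inside the barrier) and `ZH` (outside the barrier), both outside the core and led round it:
**two vertices of the outer tiles which meet `ZL` (`ZH`) are joined by a path without points of the
barrier** (`low_path`, `high_path`).
-/

set_option autoImplicit false
set_option linter.unusedSectionVars false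
set_option linter.unusedVariables false

open Set Relation Module

namespace Crest.Agent.R096.Rop_441

open Crest.Agent.R096.Brk1_582 Crest.Agent.R096.Brk2_582 Crest.Agent.R096.Brk3_582
  Crest.Agent.R096.Brk5_582 Crest.Agent.R096.Bsp_628 Crest.Agent.R096.Init_543
  Crest.Agent.R096.Vb_965 Crest.Agent.R096.Msh_715 Crest.Agent.R096.St_147
  Crest.Agent.R096.Seq_213 Crest.Agent.R096.Lm_117 Crest.Agent.R096.Gl_422
  Crest.Agent.R096.SkB_662 Crest.Agent.R096.Cpo_642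
  Crest.Agent.R096.Ce_537 Crest.Agent.R096.Agl5_543
  Crest.Agent.R096.Cp_298 Crest.Agent.R096.Gm_298 Crest.Agent.R096.Ac_117
  Crest.Agent.R096.Sla_184 Crest.Agent.R096.Sla_184.Sla
  Crest.Agent.R096.Ess5_95 Crest.Agent.R096.Bgf_4 Crest.Agent.R096.Ebr1_95
open Crest.Agent.R096.SkC1_961 (E3 Hom3 FoamD)
open Crest.Agent.R096.Mbf_337 (KJ sb)

variable {δ κ0 R c0 : ℝ} {La Om : Set E3} {ι : Type} {Φ : FoamD δ κ0 R c0 La}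
  {T : Tiling Om ι} {f g : E3 → E3} {κ1 κ2 : ℝ} {X : Set Φ.F} {J0 J V : Φ.F → Set ι}
  {ct : Φ.F → ι} {A : Φ.F → E3 ≃ᵃ[ℝ] E3} {lam : Φ.F → ℝ} {z : Φ.F → E3} {θ : Φ.F → E3 → E3}
  {φ : Φ.F → E3 → ℝ} {κ : Type} {S : Sla T κ}

/-- a vertex of a tile outside the cores which meets `Z` -/
def NearZ (S : Sla T κ) [Nonempty S.T3.Cell] (Z : Set E3) (v : QK (belK S.T3 S.KK)) : Prop :=
  dimK (belK S.T3 S.KK) (fun c => c.1.dim) v = 0 ∧ ∃ p, ∃ hp : ∀ c, ¬ P (T.H p) ⊆ S.K c,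
    v ≤ tcK S.T3 S.KK (Sum.inl (S.ot p hp)) ∧ (P (T.H p) ∩ Z).Nonempty

/-- inside the barrier -/
def ZL (Φ : FoamD δ κ0 R c0 La) (T : Tiling Om ι) (f : E3 → E3) (c : Φ.F) (J : Set ι)
    (θ : E3 → E3) (G : E3 → ℝ) (b ω r r' : ℝ) : Set E3 :=
  Zo Φ Om f c (KJ T J) θ {q | q ∈ frontier c.1.set ∧ G q ≤ b}
    {q | q ∈ frontier c.1.set ∧ G q ≤ b + ω} r r'

/-- outside the barrier -/
def ZH (Φ : FoamD δ κ0 R c0 La) (T : Tiling Om ι) (f : E3 → E3) (c : Φ.F) (J : Set ι)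
    (θ : E3 → E3) (G : E3 → ℝ) (b ω r r' : ℝ) : Set E3 :=
  Zo Φ Om f c (KJ T J) θ {q | q ∈ frontier c.1.set ∧ b ≤ G q}
    {q | q ∈ frontier c.1.set ∧ b - ω ≤ G q} r r'

/-- the function of a barrier at the tiny core `c` -/
structure BZ (Φ : FoamD δ κ0 R c0 La) (T : Tiling Om ι) (f : E3 → E3) (J0 J V : Φ.F → Set ι)
    (θ : Φ.F → E3 → E3) (c : Φ.F) (G : E3 → ℝ) (ρ1 ρ2 ρ3 ρ4 d lo' hi' ω : ℝ) : Prop where
  hr : Rm Φ T f c (J0 c) (J c) (V c) (θ c) ρ1 ρ2 ρ3 ρ4 d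
  gm : GM Φ c G lo' hi'
  w0 : 0 ≤ ω
  osc : ∀ q, ∀ x ∈ P (T.H q), ρ1 ≤ ga Φ c (f x) → ga Φ c (f x) ≤ ρ4 → ∀ y ∈ P (T.H q),
    |G (Φ.Psi (f x)) - G (Φ.Psi (f y))| ≤ ω
  near : ∀ x ∈ frontier (KJ T (J c)), |G (θ c x) - G (Φ.Psi (f x))| ≤ ω

section bz

variable (hLa : IsOpen La) (H : Hm f g Om La)
  (hC : Mbf_337.Cores Φ T f κ1 κ2 X J0 J V ct A lam z θ φ) {c : Φ.F} (hc : c ∉ X)
  {G : E3 → ℝ} {ρ1 ρ2 ρ3 ρ4 d lo' hi' ω : ℝ}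
  (hZ : BZ Φ T f J0 J V θ c G ρ1 ρ2 ρ3 ρ4 d lo' hi' ω)
include hLa H hC hc hZ

theorem bz_ga : GA Φ c ρ4 := by
  have hr := hZ.hr
  exact Etg_163.ga_gau Φ hLa (hC.tiny c hc).pt
    (by linarith [hr.r1, hr.r12, hr.r23, hr.r34, hr.d0]) hr.r4 hr.ray

theorem bz_pol : ∃ p, Pol Φ c ρ4 p := by
  have hr := hZ.hr
  exact exists_pol hLa (hC.tiny c hc).pt
    (by linarith [hr.r1, hr.r12, hr.r23, hr.r34, hr.d0]) hr.r4 hr.ray

theorem bz_cl : IsClosed (KJ T (J c)) := (Exa_560.coreH_tiny (hC.tiny c hc)).cpt.isClosed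

/-- the low zone is compact and connected -/
theorem zl_cc {b : ℝ} (hb0 : lo' < b) (hb1 : b + ω < hi') {r r' : ℝ} (h0 : 0 < r) (h2 : r < ρ2)
    (hrr : r ≤ r') (h4 : r' ≤ ρ4) :
    IsCompact (ZL Φ T f c (J c) (θ c) G b ω r r') ∧
      IsPreconnected (ZL Φ T f c (J c) (θ c) G b ω r r') := by
  obtain ⟨p, hP⟩ := bz_pol hLa H hC hc hZ
  have w0 := hZ.w0
  have hcpt : ∀ t, IsCompact {q | q ∈ frontier c.1.set ∧ G q ≤ t} := fun t => by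
    have h1 : {q | q ∈ frontier c.1.set ∧ G q ≤ t} = frontier c.1.set ∩ G ⁻¹' Iic t := rfl
    rw [h1]
    exact hP.frc.of_isClosed_subset
      (hZ.gm.cont.preimage_isClosed_of_isClosed hP.frc.isClosed isClosed_Iic) inter_subset_left
  obtain ⟨q0, q1, q2⟩ := hZ.gm.low
  refine zo_cc hLa H (hC.tiny c hc) hZ.hr (bz_ga hLa H hC hc hZ) hP (fun q hq => hq.1)
    (hcpt _) (hZ.gm.le_conn hP ⟨hb0, by linarith⟩) ⟨q0, q1, by linarith⟩ (fun q hq => hq.1)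
    (hcpt _) (hZ.gm.le_conn hP ⟨by linarith, hb1⟩) ⟨q0, q1, by linarith⟩
    (fun x hx hxA => ⟨Exa_560.th_mem (hC.tiny c hc) hx, ?_⟩) h0 h2 hrr h4
  have h1 := abs_le.1 (hZ.near x hx)
  have h2 : G (Φ.Psi (f x)) ≤ b := hxA.2
  linarith [h1.2]

/-- the high zone is compact and connected -/
theorem zh_cc {b : ℝ} (hb0 : lo' < b - ω) (hb1 : b < hi') {r r' : ℝ} (h0 : 0 < r) (h2 : r < ρ2)
    (hrr : r ≤ r') (h4 : r' ≤ ρ4) :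
    IsCompact (ZH Φ T f c (J c) (θ c) G b ω r r') ∧
      IsPreconnected (ZH Φ T f c (J c) (θ c) G b ω r r') := by
  obtain ⟨p, hP⟩ := bz_pol hLa H hC hc hZ
  have w0 := hZ.w0
  have hcpt : ∀ t, IsCompact {q | q ∈ frontier c.1.set ∧ t ≤ G q} := fun t => by
    have h1 : {q | q ∈ frontier c.1.set ∧ t ≤ G q} = frontier c.1.set ∩ G ⁻¹' Ici t := rfl
    rw [h1]
    exact hP.frc.of_isClosed_subset
      (hZ.gm.cont.preimage_isClosed_of_isClosed hP.frc.isClosed isClosed_Ici) inter_subset_left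
  obtain ⟨q0, q1, q2⟩ := hZ.gm.high
  refine zo_cc hLa H (hC.tiny c hc) hZ.hr (bz_ga hLa H hC hc hZ) hP (fun q hq => hq.1)
    (hcpt _) (hZ.gm.ge_conn hP ⟨by linarith, hb1⟩) ⟨q0, q1, by linarith⟩ (fun q hq => hq.1)
    (hcpt _) (hZ.gm.ge_conn hP ⟨hb0, by linarith⟩) ⟨q0, q1, by linarith⟩
    (fun x hx hxA => ⟨Exa_560.th_mem (hC.tiny c hc) hx, ?_⟩) h0 h2 hrr h4
  have h1 := abs_le.1 (hZ.near x hx)
  have h2 : b ≤ G (Φ.Psi (f x)) := hxA.2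
  linarith [h1.1]

/-- the gauge on the zone -/
theorem zo_ga {A' B : Set E3} {r r' : ℝ} (h1 : ρ1 ≤ r) (h4 : r' ≤ ρ4) {x : E3}
    (hx : x ∈ Zo Φ Om f c (KJ T (J c)) (θ c) A' B r r') :
    x ∈ Om ∧ x ∉ interior (KJ T (J c)) ∧ ρ1 ≤ ga Φ c (f x) ∧ ga Φ c (f x) ≤ ρ4 := by
  have hr := hZ.hr
  have hcl := bz_cl hLa H hC hc hZ
  rcases hx with ⟨⟨h5, h6, h7⟩, h8⟩ | ⟨h5, h6⟩
  · exact ⟨h5, h8, h1.trans h6.1, h6.2.trans h4⟩
  · have h7 := hr.fr x h5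
    refine ⟨(Exa_560.coreH_tiny (hC.tiny c hc)).sub (hcl.frontier_subset h5), fun h => ?_,
      by linarith [hr.r12, hr.d0, h7.1], by linarith [hr.r34, hr.d0, h7.2]⟩
    rw [hcl.frontier_eq] at h5
    exact h5.2 h

/-- the zone is covered by tiles outside the cores -/
theorem zo_cov (hK : TinyK X J S) {A' B : Set E3} {r r' : ℝ} (h1 : ρ1 ≤ r) (h4 : r' ≤ ρ4)
    {x : E3} (hx : x ∈ Zo Φ Om f c (KJ T (J c)) (θ c) A' B r r') :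
    ∃ p, (∀ c, ¬ P (T.H p) ⊆ S.K c) ∧ x ∈ P (T.H p) := by
  have hr := hZ.hr
  have hG := bz_ga hLa H hC hc hZ
  obtain ⟨g1, g2, g3, g4⟩ := zo_ga hLa H hC hc hZ h1 h4 hx
  refine exists_out_S S g1 fun k hk => ?_
  obtain ⟨c', hc', e⟩ := hK k
  rw [e] at hk
  by_cases hcc : c' = c
  · subst hcc
    exact g2 hk
  · have hT' := hC.tiny c' hc'
    have h5 := hT'.inside x (by
      obtain ⟨i, hi, hxi⟩ := mem_iUnion₂.1 (interior_subset hk)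
      exact mem_iUnion₂.2 ⟨i, hT'.sub hi, hxi⟩)
    exact hcc (Exa_560.only_brick hLa h5 (d := c)
      ((hG.one _).1 (by linarith [hr.r4]))).symm

variable [Nonempty S.T3.Cell] {hH : ∀ c, CoreH S.T3 (S.KK c)} {hne : ∃ c, OutK S.T3 S.KK c}
  {Jn Cn : Type} {fam : Jn → Cn} {s₀ : GSt (mK fr3 hH dis_KK) fam}

/-- **PATH INSIDE THE BARRIER** -/
theorem low_path (hK : TinyK X J S)
    (Xc : Cplx Om (QK (belK S.T3 S.KK)) (dimK (belK S.T3 S.KK) fun c => c.1.dim)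
      (setK S.T3 S.KK))
    (hon : ∀ w ∈ s₀.P, w ∈ (lmK fr3 hH dis_KK hne).W1) {i : Jn} {a0 a1 τ : ℝ}
    (hp : ∀ w ∈ s₀.P, s₀.lab w = i → ∀ p, (∀ c, ¬ P (T.H p) ⊆ S.K c) → w ∈ P (T.H p) →
      f w ∈ SB1 Φ c G a0 a1 τ)
    {b : ℝ} (hb0 : lo' < b) (hb1 : b + ω < hi') (hbτ : b + 3 * ω < τ) {r r' : ℝ} (h1 : ρ1 ≤ r)
    (h2 : r < ρ2) (hrr : r ≤ r') (h4 : r' ≤ ρ4) (ha0 : a0 + d < r) (ha0' : a0 + d < ρ2)
    (ha1 : r' + d < a1) (ha1' : ρ3 + d < a1) {v v' : QK (belK S.T3 S.KK)}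
    (hv : NearZ S (ZL Φ T f c (J c) (θ c) G b ω r r') v)
    (hv' : NearZ S (ZL Φ T f c (J c) (θ c) G b ω r r') v') :
    ReflTransGen (Ed (lmK fr3 hH dis_KK hne) (NoP (lmK fr3 hH dis_KK hne) s₀ i)) v v' := by
  have hr := hZ.hr
  have w0 := hZ.w0
  obtain ⟨hv0, p, hpo, hvp, hpA⟩ := hv
  obtain ⟨hv0', p', hpo', hvp', hpA'⟩ := hv'
  obtain ⟨hc1, hc2⟩ := zl_cc hLa H hC hc hZ hb0 hb1 (by linarith [hr.r1]) h2 hrr h4
  refine rope_out Xc hon hc1 hc2 (fun x hx => zo_cov hLa H hC hc hZ hK h1 h4 hx) ?_ hpo hpA hvp hv0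
    hpo' hpA' hvp' hv0'
  rintro q hq ⟨x, hxq, hx⟩ w hw hl hwq
  obtain ⟨g1, g2, g3, g4⟩ := zo_ga hLa H hC hc hZ h1 h4 hx
  obtain ⟨-, s1, s2, s3, s4⟩ := hp w hw hl q hq hwq
  have o1 := abs_le.1 (hr.tile_osc hxq g3 g4 hwq).1
  have o2 := abs_le.1 (hZ.osc q x hxq g3 g4 w hwq)
  have hgx : a0 + d < ga Φ c (f x) ∧ ga Φ c (f x) + d < a1 ∧ G (Φ.Psi (f x)) ≤ b + 2 * ω := by
    rcases hx with ⟨⟨h5, h6, h7⟩, h8⟩ | ⟨h5, h6⟩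
    · have h9 : G (Φ.Psi (f x)) ≤ b := h7.2
      exact ⟨by linarith [h6.1], by linarith [h6.2], by linarith⟩
    · have h7 := hr.fr x h5
      have h8 := abs_le.1 (hZ.near x h5)
      have h9 : G (θ c x) ≤ b + ω := h6.2
      exact ⟨by linarith [h7.1], by linarith [h7.2], by linarith [h8.1]⟩
  rcases s4 with s4 | s4 | s4
  · linarith [o1.2]
  · linarith [o1.1]
  · linarith [o2.1]

/-- **PATH OUTSIDE THE BARRIER** -/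
theorem high_path (hK : TinyK X J S)
    (Xc : Cplx Om (QK (belK S.T3 S.KK)) (dimK (belK S.T3 S.KK) fun c => c.1.dim)
      (setK S.T3 S.KK))
    (hon : ∀ w ∈ s₀.P, w ∈ (lmK fr3 hH dis_KK hne).W1) {i : Jn} {a0 a1 τ : ℝ}
    (hp : ∀ w ∈ s₀.P, s₀.lab w = i → ∀ p, (∀ c, ¬ P (T.H p) ⊆ S.K c) → w ∈ P (T.H p) →
      f w ∈ SB1 Φ c G a0 a1 τ)
    {b : ℝ} (hb0 : lo' < b - ω) (hb1 : b < hi') (hbτ : τ < b - 3 * ω) {r r' : ℝ} (h1 : ρ1 ≤ r)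
    (h2 : r < ρ2) (hrr : r ≤ r') (h4 : r' ≤ ρ4) {v v' : QK (belK S.T3 S.KK)}
    (hv : NearZ S (ZH Φ T f c (J c) (θ c) G b ω r r') v)
    (hv' : NearZ S (ZH Φ T f c (J c) (θ c) G b ω r r') v') :
    ReflTransGen (Ed (lmK fr3 hH dis_KK hne) (NoP (lmK fr3 hH dis_KK hne) s₀ i)) v v' := by
  have hr := hZ.hr
  have w0 := hZ.w0
  obtain ⟨hv0, p, hpo, hvp, hpA⟩ := hv
  obtain ⟨hv0', p', hpo', hvp', hpA'⟩ := hv'
  obtain ⟨hc1, hc2⟩ := zh_cc hLa H hC hc hZ hb0 hb1 (by linarith [hr.r1]) h2 hrr h4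
  refine rope_out Xc hon hc1 hc2 (fun x hx => zo_cov hLa H hC hc hZ hK h1 h4 hx) ?_ hpo hpA hvp hv0
    hpo' hpA' hvp' hv0'
  rintro q hq ⟨x, hxq, hx⟩ w hw hl hwq
  obtain ⟨g1, g2, g3, g4⟩ := zo_ga hLa H hC hc hZ h1 h4 hx
  obtain ⟨-, s1, s2, s3, s4⟩ := hp w hw hl q hq hwq
  have o2 := abs_le.1 (hZ.osc q x hxq g3 g4 w hwq)
  have hgx : b - 2 * ω ≤ G (Φ.Psi (f x)) := by
    rcases hx with ⟨⟨h5, h6, h7⟩, h8⟩ | ⟨h5, h6⟩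
    · have h9 : b ≤ G (Φ.Psi (f x)) := h7.2
      linarith
    · have h8 := abs_le.1 (hZ.near x h5)
      have h9 : b - ω ≤ G (θ c x) := h6.2
      linarith [h8.2]
  linarith [o2.2]

end bz

end Crest.Agent.R096.Rop_441
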