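import Crest.Agent.R096.Rop15_441
import Crest.Agent.R096.Sdf1_246

/-!
# Row 96 (S0127), DOORS, G4 (R), part 3: VERTICES AND SIDES IN THE ZONES OF A BARRIER (helper441)

`nearZ_of_pt`, `nearZ_vx`, `low_out`, `low_fr`, `high_out`, `high_fr` : vertices near the zones;
`exists_farZ` : a vertex of the high zone outside the body `{ga ≤ r}`;
`side_low`, `side_high` : the side of a point of a 1-cell of a tile which meets the zone.
-/

set_option autoImplicit false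
set_option linter.unusedSectionVars false
set_option linter.unusedVariables false

open Set Relation Module

namespace Crest.Agent.R096.Rop_441

open Crest.Agent.R096.Brk1_582 Crest.Agent.R096.Brk2_582 Crest.Agent.R096.Brk3_582
  Crest.Agent.R096.Brk5_582 Crest.Agent.R096.Bsp_628 Crest.Agent.R096.Init_543
  Crest.Agent.R096.Vb_965 Crest.Agent.R096.Msh_715 Crest.Agent.R096.St_147
  Crest.Agent.R096.Seq_213 Crest.Agent.R096.Lm_117 Crest.Agent.R096.Gl_422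
  Crest.Agent.R096.SkB_662 Crest.Agent.R096.Cpo_642
  Crest.Agent.R096.Ce_537 Crest.Agent.R096.Agl5_543
  Crest.Agent.R096.Cp_298 Crest.Agent.R096.Gm_298 Crest.Agent.R096.Ac_117
  Crest.Agent.R096.Sla_184 Crest.Agent.R096.Sla_184.Sla
  Crest.Agent.R096.Ess5_95 Crest.Agent.R096.Bgf_4 Crest.Agent.R096.Ebr1_95
open Crest.Agent.R096.SkC1_961 (E3 Hom3 FoamD)
open Crest.Agent.R096.Mbf_337 (KJ sb)

section vx

variable {Om : Set E3} {ι : Type} {T : Tiling Om ι} {κ : Type} {S : Sla T κ}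
  [Nonempty S.T3.Cell] {Z : Set E3}

/-- a vertex of the mesh with layers at a point of the zone -/
theorem nearZ_vx (hcov : ∀ x ∈ Z, ∃ p, (∀ c, ¬ P (T.H p) ⊆ S.K c) ∧ x ∈ P (T.H p)) {x : E3}
    (hx : x ∈ Z) (hxO : x ∈ Om) (hx0 : S.T3.dim x = 0)
    (h : OutK S.T3 S.KK (edC S.T3 x)) : NearZ S Z (oc (edC S.T3 x) h) := by
  obtain ⟨p, hp, hxp⟩ := hcov x hx
  have hx3 : x ∈ P (S.T3.H (S.ot p hp)) := by rw [ot_P hp]; exact hxp
  refine ⟨?_, p, hp, (le_tcK (not_KK_ot hp)).2 ⟨_, h, rfl, ?_⟩, x, hxp, hx⟩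
  · show (edC S.T3 x).dim = 0
    unfold edC
    rw [dif_pos hxO]
    exact (S.T3.dim_cl hxO).trans hx0
  · rw [edC_set hxO]
    exact S.T3.cc_sub_tile hx3

/-- the same for any vertex of a tile at a point of the zone -/
theorem nearZ_of_pt {p : ι} (hp : ∀ c, ¬ P (T.H p) ⊆ S.K c) {x : E3} (hxp : x ∈ P (T.H p))
    (hx : x ∈ Z) {v : QK (belK S.T3 S.KK)} (hv : v ≤ tcK S.T3 S.KK (Sum.inl (S.ot p hp)))
    (hv0 : dimK (belK S.T3 S.KK) (fun c => c.1.dim) v = 0) : NearZ S Z v :=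
  ⟨hv0, p, hp, hv, x, hxp, hx⟩

/-- a tile outside the cores which is not inside `D` has a vertex in `ZK` -/
theorem exists_ZK {p : ι} (hp : ∀ c, ¬ P (T.H p) ⊆ S.K c) {x : E3} (hxp : x ∈ P (T.H p))
    (hx : x ∈ Z) {D : Set E3} (hD : ¬ P (T.H p) ⊆ interior D) :
    ∃ q ∈ ZK S.T3 S.KK D, NearZ S Z q := by
  have hx3 : x ∈ P (S.T3.H (S.ot p hp)) := by rw [ot_P hp]; exact hxp
  obtain ⟨v, hv, hv0⟩ := Main_4.exists_vertex_tile hx3
  have hvO : v ∈ Om := S.T3.sub _ hv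
  have hout : OutK S.T3 S.KK (S.T3.cl hvO) := by
    have h1 := out_tile (T := S.T3) (Kg := S.KK) (not_KK_ot hp)
    have h2 : S.T3.cl hvO ≤ tcell S.T3 (S.ot p hp) := by
      show (S.T3.cl hvO).set ⊆ (tcell S.T3 (S.ot p hp)).set
      rw [S.T3.cl_set, tcell_set]
      exact S.T3.cc_sub_tile hv
    exact outK_down _ _ h2 h1
  have hset : (S.T3.cl hvO).set = {v} := by
    rw [S.T3.cl_set]; exact S.T3.cc_eq_singleton (S.T3.dim_eq_zero_iff.1 hv0)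
  have hpt : (S.T3.cl hvO).pt = v := by
    have h1 : (S.T3.cl hvO).pt ∈ (S.T3.cl hvO).set :=
      (S.T3.cl hvO).opn_sub (S.T3.self_mem_oc _)
    rw [hset] at h1
    exact h1
  refine ⟨oc (S.T3.cl hvO) hout, ⟨⟨_, hout⟩, Or.inr ⟨S.ot p hp, ?_, ?_⟩, rfl⟩, ?_, p, hp,
    (le_tcK (not_KK_ot hp)).2 ⟨_, hout, rfl, ?_⟩, x, hxp, hx⟩
  · show (S.T3.cl hvO).pt ∈ _
    rw [hpt]; exact hv
  · rw [ot_P hp]; exact hD
  · exact (S.T3.dim_cl hvO).trans hv0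
  · rw [S.T3.cl_set]; exact S.T3.cc_sub_tile hv

end vx

section side

variable {Om : Set E3} {ι : Type} {T : Tiling Om ι} {κ : Type} {S : Sla T κ}
  [Nonempty S.T3.Cell] {hH : ∀ c, CoreH S.T3 (S.KK c)} {hne : ∃ c, OutK S.T3 S.KK c}
  {Jn Cn : Type} {fam : Jn → Cn} {s₀ : GSt (mK fr3 hH dis_KK) fam} {Z : Set E3}

/-- **the side of a point on an outer tile without points of the name `i`** is the label of the
vertices of the tile -/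
theorem side_tile (hon : ∀ w ∈ s₀.P, w ∈ (lmK fr3 hH dis_KK hne).W1) {i : Jn} {p : ι}
    (hp : ∀ c, ¬ P (T.H p) ⊆ S.K c) (hno : ∀ w ∈ s₀.P, s₀.lab w = i → w ∉ P (T.H p)) {w : E3}
    (hw : w ∈ (lmK fr3 hH dis_KK hne).W1) (hwp : w ∈ P (T.H p))
    {lam : QK (belK S.T3 S.KK) → ZMod 2} {t : ZMod 2}
    (hlam : ∀ v, dimK (belK S.T3 S.KK) (fun c => c.1.dim) v = 0 →
      v ≤ tcK S.T3 S.KK (Sum.inl (S.ot p hp)) → lam v = t) :
    (lmK fr3 hH dis_KK hne).ext (gp s₀ i) lam w = t := by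
  have hw3 : w ∈ P (S.T3.H (S.ot p hp)) := by rw [ot_P hp]; exact hwp
  have hle := (ed_le_K hw (not_KK_ot hp)).2 hw3
  have hd : dimK (belK S.T3 S.KK) (fun c => c.1.dim) ((lmK fr3 hH dis_KK hne).ed w) = 1 :=
    (lmK fr3 hH dis_KK hne).ed_dim w hw
  rw [Sdf_246.ext_of_free]
  · exact hlam _ ((lmK fr3 hH dis_KK hne).en_dim _ hd false)
      (((lmK fr3 hH dis_KK hne).en_lt _ hd false).le.trans hle)
  · intro y hy hye
    obtain ⟨h1, h2⟩ := mem_gp.1 hy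
    refine hno y h1 h2 ?_
    have h3 := (ed_le_K (hon y h1) (not_KK_ot hp)).1 (hye.2.trans_le hle)
    rw [ot_P hp] at h3
    exact h3

end side

section bz

variable {δ κ0 R c0 : ℝ} {La Om : Set E3} {ι : Type} {Φ : FoamD δ κ0 R c0 La}
  {T : Tiling Om ι} {f g : E3 → E3} {κ1 κ2 : ℝ} {X : Set Φ.F} {J0 J V : Φ.F → Set ι}
  {ct : Φ.F → ι} {A : Φ.F → E3 ≃ᵃ[ℝ] E3} {lam : Φ.F → ℝ} {z : Φ.F → E3} {θ : Φ.F → E3 → E3}
  {φ : Φ.F → E3 → ℝ} {κ : Type} {S : Sla T κ}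

variable (hLa : IsOpen La) (H : Hm f g Om La)
  (hC : Mbf_337.Cores Φ T f κ1 κ2 X J0 J V ct A lam z θ φ) {c : Φ.F} (hc : c ∉ X)
  {G : E3 → ℝ} {ρ1 ρ2 ρ3 ρ4 d lo' hi' ω : ℝ}
  (hZ : BZ Φ T f J0 J V θ c G ρ1 ρ2 ρ3 ρ4 d lo' hi' ω)
include hLa H hC hc hZ

/-- a point of a tile outside the cores is not in the interior of the core -/
theorem notInt_tile (hck : ∃ k, S.K k = KJ T (J c)) {p : ι} (hp : ∀ c, ¬ P (T.H p) ⊆ S.K c)
    {x : E3} (hx : x ∈ P (T.H p)) : x ∉ interior (KJ T (J c)) := by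
  obtain ⟨k, hk⟩ := hck
  refine notMem_int T (Kc := fun _ : Unit => KJ T (J c)) (Jc := fun _ => J c)
    (fun _ => Subset.rfl) (fun _ h => hp k ?_) hx ()
  rw [hk]
  exact subset_biUnion_of_mem (u := fun i => P (T.H i)) h

theorem low_out (hck : ∃ k, S.K k = KJ T (J c)) {b r r' : ℝ} {p : ι}
    (hp : ∀ c, ¬ P (T.H p) ⊆ S.K c) {x : E3} (hx : x ∈ P (T.H p)) (h1 : r ≤ ga Φ c (f x))
    (h2 : ga Φ c (f x) ≤ r') (h3 : Φ.Psi (f x) ∈ frontier c.1.set) (h4 : G (Φ.Psi (f x)) ≤ b) :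
    x ∈ ZL Φ T f c (J c) (θ c) G b ω r r' :=
  Or.inl ⟨⟨T.sub p hx, ⟨h1, h2⟩, h3, h4⟩, notInt_tile hLa H hC hc hZ hck hp hx⟩

theorem high_out (hck : ∃ k, S.K k = KJ T (J c)) {b r r' : ℝ} {p : ι}
    (hp : ∀ c, ¬ P (T.H p) ⊆ S.K c) {x : E3} (hx : x ∈ P (T.H p)) (h1 : r ≤ ga Φ c (f x))
    (h2 : ga Φ c (f x) ≤ r') (h3 : Φ.Psi (f x) ∈ frontier c.1.set) (h4 : b ≤ G (Φ.Psi (f x))) :
    x ∈ ZH Φ T f c (J c) (θ c) G b ω r r' :=
  Or.inl ⟨⟨T.sub p hx, ⟨h1, h2⟩, h3, h4⟩, notInt_tile hLa H hC hc hZ hck hp hx⟩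

theorem low_fr {b r r' : ℝ} {x : E3} (hx : x ∈ frontier (KJ T (J c))) (h : G (θ c x) ≤ b + ω) :
    x ∈ ZL Φ T f c (J c) (θ c) G b ω r r' :=
  Or.inr ⟨hx, Exa_560.th_mem (hC.tiny c hc) hx, h⟩

theorem high_fr {b r r' : ℝ} {x : E3} (hx : x ∈ frontier (KJ T (J c)))
    (h : b - ω ≤ G (θ c x)) : x ∈ ZH Φ T f c (J c) (θ c) G b ω r r' :=
  Or.inr ⟨hx, Exa_560.th_mem (hC.tiny c hc) hx, h⟩

/-- **a vertex of the high zone outside a body inside `{ga < ρ4}`** -/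
theorem exists_farZ [Nonempty S.T3.Cell] (hK : TinyK X J S) {b r : ℝ} (hb : b ≤ hi')
    (h1 : ρ1 ≤ r) (hrr : r ≤ ρ4) {D : Set E3}
    (hD : ∀ x ∈ interior D, ga Φ c (f x) < ρ4) :
    ∃ q ∈ ZK S.T3 S.KK D, NearZ S (ZH Φ T f c (J c) (θ c) G b ω r ρ4) q := by
  have hr := hZ.hr
  have hG := bz_ga hLa H hC hc hZ
  obtain ⟨q, hq, hqb⟩ := hZ.gm.high
  have h40 : 0 < ρ4 := by linarith [hr.r1]
  obtain ⟨y, hy, hy1, hy2⟩ := hG.ex q hq ρ4 h40 le_rfl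
  have hyL : y ∈ La := (foam4 Φ hLa).sub c hy
  have hxO : g y ∈ Om := H.gm hyL
  have hTc := hC.tiny c hc
  have hxZ : g y ∈ ZH Φ T f c (J c) (θ c) G b ω r ρ4 := by
    refine Or.inl ⟨⟨hxO, ?_⟩, fun hi => ?_⟩
    · show (r ≤ ga Φ c (f (g y)) ∧ ga Φ c (f (g y)) ≤ ρ4) ∧ Φ.Psi (f (g y)) ∈ _
      rw [H.fg y hyL, hy1, hy2]
      exact ⟨⟨hrr, le_rfl⟩, hq, hb.trans hqb⟩
    · have h5 := K_loc H ((foam4 Φ hLa).sub c) hG hr hTc.sub (bz_cl hLa H hC hc hZ) hTc.inside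
        (interior_subset hi)
      rw [H.fg y hyL, hy1] at h5
      linarith [hr.r34, hr.d0]
  obtain ⟨p, hp, hxp⟩ := zo_cov hLa H hC hc hZ hK h1 le_rfl hxZ
  refine exists_ZK hp hxp hxZ fun hsub => ?_
  have h6 := hD _ (hsub hxp)
  rw [H.fg y hyL, hy1] at h6
  exact lt_irrefl _ h6

end bz

end Crest.Agent.R096.Rop_441
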