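import Crest.Agent.R096.Sde1_422
import Crest.Agent.R096.Rop11_441

/-!
# R096 (row 96), DOORS, G4 (helper422), part 2: **values of the side function, tile by tile**.

`NoT S s i Lo`  : no point of `i` on the ordinary tiles of `T3` over the tiles of `Lo`;
`rope_np`       : `NP`-paths along a compact connected set covered by outer tiles of `Lo`;
`side_face`     : the side is constant on a face without points of `i`;
`side_tile`     : the side of a point on an ordinary tile over `Lo₁` is the label of a vertex of `T`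
                  of this tile (outer tiles and layers);
`side_zone`     : the side is constant over the zone.
-/

set_option autoImplicit false
set_option linter.unusedSectionVars false
set_option linter.unusedVariables false

open Set Module Relation
open scoped Classical

namespace Crest.Agent.R096.Sde_422

open Crest.Agent.R096.Msh_715 Crest.Agent.R096.Sla_184 Crest.Agent.R096.Slp_316
  Crest.Agent.R096.Ce_537 Crest.Agent.R096.Exa_560 Crest.Agent.R096.Agl5_543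
  Crest.Agent.R096.Seq_213 Crest.Agent.R096.St_147 Crest.Agent.R096.Door_501
  Crest.Agent.R096.Gl_422 Crest.Agent.R096.Vrt_422 Crest.Agent.R096.Lmx_662
  Crest.Agent.R096.Lm_117 Crest.Agent.R096.Ac_117 Crest.Agent.R096.Cp_298
  Crest.Agent.R096.Ori_543 Crest.Agent.R096.Coh_184 Crest.Agent.R096.Gm_298
  Crest.Agent.R096.Flb_422 Crest.Agent.R096.Sid_422 Crest.Agent.R096.Cpo_642
  Crest.Agent.R096.Init_543
open Crest.Agent.R096.Sla_184.Sla (hf vf old tg F0 Fn Out OnS InL In)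
open Crest.Agent.R096.SkC1_961 (E3)

/-! ### faces without points -/

section gen

variable {ι Φ W Q : Type} [PartialOrder Q] {dim : Q → ℕ} {M : MeshC ι Φ W}
variable {J C : Type} {fam : J → C} {L : LM M Q dim} {s : GSt M fam} {i : J}

/-- **the side is constant on a face without points of `i`** -/
theorem side_face {lam : Q → ZMod 2} (h : GLab L (gp s i) lam) {F : Φ} {w w' : W}
    (hw : w ∈ M.On F) (hw' : w' ∈ M.On F) (hno : ∀ x, s.At F x → s.lab x ≠ i) :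
    side L s i lam w = side L s i lam w' := by
  have hl : ∀ {x}, x ∈ M.On F → x ∉ gp s i := fun {x} hx h' => by
    obtain ⟨h1, h2⟩ := mem_gp.1 h'
    exact hno x ⟨h1, hx⟩ h2
  have e := side_add h hw hw' (hl hw) (hl hw')
  have h0 : sepF s i F w w' = ∅ := by
    rw [Finset.eq_empty_iff_forall_notMem]
    intro q hq
    obtain ⟨a1, a2, -, -⟩ := Finset.mem_filter.1 hq
    exact hl a2 a1
  rw [h0, Finset.card_empty, Nat.cast_zero] at e
  exact CharTwo.add_eq_zero.1 e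

end gen

/-! ### the sliced mesh -/

variable {Om : Set E3} {ι : Type} {T : Tiling Om ι} {κ : Type} {S : Sla T κ} {c : κ}
variable {w x y v : E3} [Nonempty S.T3.Cell]
variable {hH : ∀ c, CoreH S.T3 (S.KK c)} {hne : ∃ c, OutK S.T3 S.KK c}
  {C : Type} {J : Type} {fam : J → C}
  {s : GSt (mK fr3 hH Sla.dis_KK) fam} {i : J} {Lo Lo₁ : Set ι}

/-- no point of `i` on the ordinary tiles of `T3` over the tiles of `Lo` -/
def NoT (S : Sla T κ) (s : GSt (mK fr3 hH Sla.dis_KK) fam) (i : J) (Lo : Set ι) : Prop :=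
  ∀ p : T.RIdx S.HH, p.tile ∈ Lo → (∀ c, ¬ P (S.T3.H p) ⊆ S.KK c) → ∀ w ∈ s.P, s.lab w = i →
    w ∉ P (S.T3.H p)

/-- the 1-cells of an ordinary tile over `Lo` carry no point -/
theorem NoT.np (h : NoT S s i Lo) {p : T.RIdx S.HH} (hp : p.tile ∈ Lo)
    (hout : ∀ c, ¬ P (S.T3.H p) ⊆ S.KK c) {e : QK (belK S.T3 S.KK)}
    (he : e ≤ tcK S.T3 S.KK (Sum.inl p)) : e ∈ NP (lmK fr3 hH Sla.dis_KK hne) s i := by
  obtain ⟨d, hd, rfl, h1⟩ := (Rop_441.le_tcK hout).1 he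
  intro w hw hl hw1
  have h2 : w ∈ (lmK fr3 hH Sla.dis_KK hne).On1 (oc d hd) := hw1
  rw [on_K hd] at h2
  obtain ⟨h3, h4⟩ := h2
  refine h p hp hout w hw hl (h1 ?_)
  rw [← h4, edC_set h3.1]
  exact S.T3.self_mem_cc w

/-- no point in the column over a vertex -/
theorem NoT.col (h : NoT S s i Lo) (hv : v ∈ frontier (S.K c))
    (hq : ∀ q, v ∈ P (T.H q) → P (T.H q) ⊆ S.K c → q ∈ Lo) : NoCol S s i c v := by
  intro l hl w hw hi hO hL
  obtain ⟨p, hp⟩ := S.T3.cov _ hL.mem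
  obtain ⟨b1, b2, b3⟩ := Rop_441.col_tile hv hO hL hp
  exact h p (hq _ b1 b2) b3 w hw hi hp

/-- **`NP`-paths in the zone** -/
theorem rope_np (X : Cplx Om (QK (belK S.T3 S.KK)) (dimK (belK S.T3 S.KK) fun c => c.1.dim)
      (setK S.T3 S.KK)) (h : NoT S s i Lo) {A : Set E3} (hA : IsCompact A)
    (hAc : IsPreconnected A)
    (hcov : ∀ x ∈ A, ∃ q ∈ Lo, (∀ c, ¬ P (T.H q) ⊆ S.K c) ∧ x ∈ P (T.H q)) {v v' : E3} {q q' : ι}
    (hq : q ∈ Lo) (ho : ∀ c, ¬ P (T.H q) ⊆ S.K c) (hqA : (P (T.H q) ∩ A).Nonempty)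
    (hv : v ∈ P (T.H q)) (hd : T.dim v = 0)
    (hq' : q' ∈ Lo) (ho' : ∀ c, ¬ P (T.H q') ⊆ S.K c) (hqA' : (P (T.H q') ∩ A).Nonempty)
    (hv' : v' ∈ P (T.H q')) (hd' : T.dim v' = 0) :
    ReflTransGen (Ed (lmK fr3 hH Sla.dis_KK hne) (NP (lmK fr3 hH Sla.dis_KK hne) s i))
      (vK ho hv hd) (vK ho' hv' hd') := by
  have hset : ∀ {q : ι} (ho : ∀ c, ¬ P (T.H q) ⊆ S.K c),
      setK S.T3 S.KK (tcK S.T3 S.KK (Sum.inl (S.ot q ho))) = P (T.H q) := fun ho => by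
    rw [Rop_441.setK_tcK (Rop_441.not_KK_ot ho), Sla.ot_P]
  set Jc : Set (QK (belK S.T3 S.KK)) := {x | ∃ q, ∃ ho : ∀ c, ¬ P (T.H q) ⊆ S.K c, q ∈ Lo ∧
    x = tcK S.T3 S.KK (Sum.inl (S.ot q ho))} with hJc
  have key := Rop_441.rope_EdJ X (lmK fr3 hH Sla.dis_KK hne) hA hAc (Jc := Jc) (fun x hx => by
    obtain ⟨q, h1, h2, h4⟩ := hcov x hx
    refine mem_biUnion (x := tcK S.T3 S.KK (Sum.inl (S.ot q h2))) ⟨q, h2, h1, rfl⟩ ?_
    rw [hset h2]; exact h4) (i := tcK S.T3 S.KK (Sum.inl (S.ot q ho)))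
    (i' := tcK S.T3 S.KK (Sum.inl (S.ot q' ho'))) (v := vK ho hv hd) (v' := vK ho' hv' hd')
    ⟨q, ho, hq, rfl⟩ (by rw [hset ho]; exact hqA) (vK_le ho hv hd) (vK_dim ho hv hd)
    ⟨q', ho', hq', rfl⟩ (by rw [hset ho']; exact hqA') (vK_le ho' hv' hd') (vK_dim ho' hv' hd')
  refine ReflTransGen.mono (fun a b hab => hab.mono ?_) _ _ key
  rintro e ⟨j, ⟨q, ho, hqL, rfl⟩, hej, -⟩
  exact h.np (p := S.ot q ho) hqL (Rop_441.not_KK_ot ho) hej

/-- a cell of dimension 0 is the cell of its point -/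
theorem cell_pt {q : S.T3.Cell} (hd : q.dim = 0) {y : E3} (hy : y ∈ q.set) : edC S.T3 y = q := by
  have h1 : q.set = {q.pt} := by
    rw [q.set_eq]; exact S.T3.cc_eq_singleton (S.T3.dim_eq_zero_iff.1 hd)
  rw [h1, mem_singleton_iff] at hy
  subst hy
  apply Tiling.Cell.ext
  rw [edC_set q.pt_mem, q.set_eq]

/-- **the side of a point on an ordinary tile over `Lo₁`** is the label of a vertex of `T` of this
tile: `v` is a vertex of an outer tile, or a vertex on the frontier of a core -/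
theorem side_tile {lam : QK (belK S.T3 S.KK) → ZMod 2}
    (hlam : GLab (lmK fr3 hH Sla.dis_KK hne) (gp s i) lam) (h : NoT S s i Lo)
    (h1 : ∀ q ∈ Lo₁, ∀ q', (P (T.H q) ∩ P (T.H q')).Nonempty → q' ∈ Lo)
    {w : E3} (hw : w ∈ (lmK fr3 hH Sla.dis_KK hne).W1) {p : T.RIdx S.HH} (hp : p.tile ∈ Lo₁)
    (hout : ∀ c, ¬ P (S.T3.H p) ⊆ S.KK c) (hwp : w ∈ P (S.T3.H p)) :
    ∃ v ∈ P (T.H p.tile), T.dim v = 0 ∧ (∃ q, (∀ c, ¬ P (T.H q) ⊆ S.K c) ∧ v ∈ P (T.H q)) ∧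
      ∀ hO : OutK S.T3 S.KK (edC S.T3 v),
        side (lmK fr3 hH Sla.dis_KK hne) s i lam w = lam (oc (edC S.T3 v) hO) := by
  have hpL : p.tile ∈ Lo := by
    obtain ⟨x, hx⟩ := T.ne p.tile
    exact h1 _ hp _ ⟨x, I_sub_P _ hx, I_sub_P _ hx⟩
  obtain ⟨h', e'⟩ := Rop_441.ed_K hw
  have hwO : w ∈ Om := (Gm_298.mem_W1K.1 hw).1
  have hw1 : w ∈ W1 S.T3 := ⟨hwO, (Gm_298.mem_W1K.1 hw).2.1⟩
  have hed : (edC S.T3 w).set ⊆ P (S.T3.H p) := by
    rw [edC_set hwO]; exact S.T3.cc_sub_tile hwp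
  have hno : ∀ q ∈ gp s i, q ∉ (lmK fr3 hH Sla.dis_KK hne).toSk.On1
      ((lmK fr3 hH Sla.dis_KK hne).ed w) := by
    intro q hq
    obtain ⟨g1, g2⟩ := mem_gp.1 hq
    exact (h.np (hne := hne) hpL hout (e := (lmK fr3 hH Sla.dis_KK hne).ed w)
      ((Rop_441.ed_le_K hw hout).2 hwp)) q g1 g2
  have hside := (side_first hlam hw hno).1
  have hd1 := edC_dim hw1
  rw [e'] at hside
  obtain ⟨o1, e1⟩ := en_K (h3 := fr3) (hH := hH) (hdis := Sla.dis_KK) (hne := hne) h' hd1 false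
  rw [e1] at hside
  -- the vertex of `T3`
  set q := enC (edC S.T3 w) false with hqdef
  have hqs : q.set = {epE (edC S.T3 w) false} := en_set hd1 false
  have hsp := (ep_spec hd1).2.2 false
  have hqsub : q.set ⊆ P (S.T3.H p) := by
    rw [hqs, singleton_subset_iff]; exact hed hsp.2
  have hqpt : q.pt = epE (edC S.T3 w) false := en_pt hd1 false
  have hqd : q.dim = 0 := by
    show S.T3.dim q.pt = 0
    rw [hqpt]; exact hsp.1
  rcases Sla.tile_or S p.tile with ho | ⟨c, hc⟩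
  · -- an outer tile
    have hyp : q.pt ∈ P (T.H p.tile) := Sla.P3_sub p (hqsub (pt_set q))
    have hy0 : T.dim q.pt = 0 := by
      rw [← (Sla.T3_eq ho hyp).2.2]; exact hqd
    refine ⟨q.pt, hyp, hy0, ⟨p.tile, ho, hyp⟩, fun hO => ?_⟩
    rw [hside]
    have hc := cell_pt hqd (pt_set q)
    congr 1
    unfold oc
    congr 1
    exact Subtype.ext hc.symm
  · -- a layer
    obtain ⟨v, j, b1, b2, b3, b4, b5, b6⟩ := Rop_441.exists_col hout hc hqsub
    have hcol : NoCol S s i c v := h.col b1 fun q' hv' hq' => h1 _ hp _ ⟨v, b5, hv'⟩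
    have hpath := hcol.path (hne := hne) b1 b2 b3
    have hval := np_path hlam hpath
    refine ⟨v, b5, b2, ?_, fun hO => ?_⟩
    · have hvO : v ∈ Om := T.sub _ b5
      obtain ⟨q', hq', hq''⟩ := Rop_441.exists_out T (Kor := {q | ∃ c, P (T.H q) ⊆ S.K c})
        (Kc := S.K) (fun q hq => hq) (fun c c' hcc => S.dis c c' hcc) hvO
        (fun c' hc' => by
          by_cases hcc : c' = c
          · subst hcc; exact b1.2 hc'
          · exact disjoint_left.1 (S.dis c' c hcc) (interior_subset hc') (S.fr_sub c b1))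
      exact ⟨q', fun c' hc' => hq' ⟨c', hc'⟩, hq''⟩
    · rw [hside]
      have hc' := cell_pt hqd b4
      have e2 : (oc q o1 : QK (belK S.T3 S.KK)) =
          oc (edC S.T3 (S.hc c v j)) (outK_hc (Sla.fr_Bd b1) b3) := by
        unfold oc
        congr 1
        exact Subtype.ext hc'.symm
      rw [e2, hval]

/-- **the side over the zone**: `A` = compact connected set through the zone, one vertex of which has
the label `z` -/
theorem side_zone (X : Cplx Om (QK (belK S.T3 S.KK)) (dimK (belK S.T3 S.KK) fun c => c.1.dim)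
      (setK S.T3 S.KK)) {lam : QK (belK S.T3 S.KK) → ZMod 2}
    (hlam : GLab (lmK fr3 hH Sla.dis_KK hne) (gp s i) lam) (h : NoT S s i Lo)
    (h1 : ∀ q ∈ Lo₁, ∀ q', (P (T.H q) ∩ P (T.H q')).Nonempty → q' ∈ Lo) {A : Set E3}
    (hA : IsCompact A) (hAc : IsPreconnected A)
    (hcov : ∀ x ∈ A, ∃ q ∈ Lo, (∀ c, ¬ P (T.H q) ⊆ S.K c) ∧ x ∈ P (T.H q))
    (hmeet : ∀ q₁ ∈ Lo₁, ∀ v ∈ P (T.H q₁), T.dim v = 0 → ∀ q, (∀ c, ¬ P (T.H q) ⊆ S.K c) →
      v ∈ P (T.H q) → ∃ q', (∀ c, ¬ P (T.H q') ⊆ S.K c) ∧ q' ∈ Lo ∧ v ∈ P (T.H q') ∧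
        (P (T.H q') ∩ A).Nonempty)
    {v₀ : E3} {q₀ : ι} (hq₀ : q₀ ∈ Lo) (ho₀ : ∀ c, ¬ P (T.H q₀) ⊆ S.K c)
    (hqA₀ : (P (T.H q₀) ∩ A).Nonempty) (hv₀ : v₀ ∈ P (T.H q₀)) (hd₀ : T.dim v₀ = 0)
    {w : E3} (hw : w ∈ (lmK fr3 hH Sla.dis_KK hne).W1) {p : T.RIdx S.HH} (hp : p.tile ∈ Lo₁)
    (hout : ∀ c, ¬ P (S.T3.H p) ⊆ S.KK c) (hwp : w ∈ P (S.T3.H p)) :
    side (lmK fr3 hH Sla.dis_KK hne) s i lam w = lam (vK ho₀ hv₀ hd₀) := by
  obtain ⟨v, hv, hd, ⟨q, hq, hvq⟩, hval⟩ := side_tile hlam h h1 hw hp hout hwp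
  obtain ⟨q', hq', hqL', hvq', hqA'⟩ := hmeet _ hp v hv hd q hq hvq
  have hpath := rope_np (hne := hne) X h hA hAc hcov hq₀ ho₀ hqA₀ hv₀ hd₀ hqL' hq' hqA' hvq' hd
  rw [hval (vx3 hq' hvq' hd).2.2.2.2]
  exact np_path hlam hpath

end Crest.Agent.R096.Sde_422
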