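import Crest.Agent.R096.Rop16_441
import Crest.Agent.R096.Bgf11_4
import Crest.Agent.R096.Sde2_422

/-!
# Row 96 (S0127), DOORS, G4 (R), part 4: THE BARRIERS OF THE MACHINE (helper441)

`bz_mach` : `BZ` for the function `Gm` of a moat; `sb1_of` : the points of a barrier of 4's state in
95's format; `body_D` : the body `{ga ≤ ρ4}`; `noP_np` : my paths are 422's paths.
-/

set_option autoImplicit false
set_option linter.unusedSectionVars false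
set_option linter.unusedVariables false

open Set Relation Module Filter Topology

namespace Crest.Agent.R096.Rop_441

open Crest.Agent.R096.Brk1_582 Crest.Agent.R096.Brk2_582 Crest.Agent.R096.Brk3_582
  Crest.Agent.R096.Brk5_582 Crest.Agent.R096.Bsp_628 Crest.Agent.R096.Init_543
  Crest.Agent.R096.Vb_965 Crest.Agent.R096.Msh_715 Crest.Agent.R096.St_147
  Crest.Agent.R096.Seq_213 Crest.Agent.R096.Lm_117 Crest.Agent.R096.Gl_422
  Crest.Agent.R096.SkB_662 Crest.Agent.R096.Cpo_642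
  Crest.Agent.R096.Ce_537 Crest.Agent.R096.Agl5_543
  Crest.Agent.R096.Cp_298 Crest.Agent.R096.Gm_298 Crest.Agent.R096.Ac_117
  Crest.Agent.R096.Sla_184 Crest.Agent.R096.Sla_184.Sla
  Crest.Agent.R096.Ess5_95 Crest.Agent.R096.Bgf_4 Crest.Agent.R096.Ebr1_95
  Crest.Agent.R096.Ebr4_95 Crest.Agent.R096.Bar_106 Crest.Agent.R96.Push_899
  Crest.Agent.R096.Lab_184 Crest.Agent.R096.Exa_560 Crest.Agent.R096.Sphg_316
  Crest.Agent.R096.Agl6_543 Crest.Agent.R096.Coh_184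
open Crest.Agent.R096.SkC1_961 (E3 Hom3 FoamD)
open Crest.Agent.R096.Mbf_337 (KJ sb)

section nop

variable {ι Φ W Q : Type} [PartialOrder Q] {dim : Q → ℕ} {M : MeshC ι Φ W} {J C : Type}
  {fam : J → C}

theorem noP_sub_np (L : LM M Q dim) (s : GSt M fam) (i : J) : NoP L s i ⊆ Sde_422.NP L s i :=
  fun e he w hw hl h => he w hw hl h.2

/-- paths without points in 422's format -/
theorem noP_np {L : LM M Q dim} {s : GSt M fam} {i : J} {v v' : Q}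
    (h : ReflTransGen (Ed L (NoP L s i)) v v') :
    ReflTransGen (Ed L (Sde_422.NP L s i)) v v' := path_mono (noP_sub_np L s i) h

theorem edPath_symm {L : LM M Q dim} {Z : Set Q} {v v' : Q} (h : ReflTransGen (Ed L Z) v v') :
    ReflTransGen (Ed L Z) v' v := by
  induction h with
  | refl => exact .refl
  | tail _ hbc ih =>
    obtain ⟨e, he, he1, b, h1, h2⟩ := hbc
    refine ReflTransGen.head ⟨e, he, he1, !b, h2, ?_⟩ ih
    rw [Bool.not_not]; exact h1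

end nop

variable {δ κ0 R c0 : ℝ} {La Om : Set E3} {ι : Type} {Φ : FoamD δ κ0 R c0 La}
  {T : Tiling Om ι} {f g : E3 → E3} {κ1 κ2 : ℝ} {X : Set Φ.F} {J0 J V : Φ.F → Set ι}
  {ct : Φ.F → ι} {A : Φ.F → E3 ≃ᵃ[ℝ] E3} {lam : Φ.F → ℝ} {z : Φ.F → E3} {θ : Φ.F → E3 → E3}
  {φ : Φ.F → E3 → ℝ} {ρ1 ρ2 ρ3 ρ4 d : Φ.F → ℝ} {l0 mm ra sg : ℝ}

/-- **`BZ` of a moat** -/
theorem bz_mach (hLa : IsOpen La) (hδ : 0 < δ) (hR0 : 0 < R) (H : Hm f g Om La)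
    (hκ : Cn δ R * κ1 < 1) (hC : Mbf_337.Cores Φ T f κ1 κ2 X J0 J V ct A lam z θ φ)
    (hRm : ∀ c ∉ X, Rm Φ T f c (J0 c) (J c) (V c) (θ c) (ρ1 c) (ρ2 c) (ρ3 c) (ρ4 c) (d c))
    {hi' : ℝ} (hN : Nm l0 mm ra hi') (m : BM Φ X) {ω : ℝ}
    (h1 : max (d m.co / l0) (d m.co / ra) ≤ ω)
    (h2 : max (Cn δ R * κ1 / l0) (Cn δ R * κ1 / ra) ≤ ω) :
    BZ Φ T f J0 J V θ m.co (gmf Φ l0 mm ra m.am m.Zm) (ρ1 m.co) (ρ2 m.co) (ρ3 m.co) (ρ4 m.co)
      (d m.co) 0 hi' ω := by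
  have hr := hRm m.co m.co_notMem
  have hT := hC.tiny m.co m.co_notMem
  have hG : GA Φ m.co (ρ4 m.co) := Etg_163.ga_gau Φ hLa hT.pt
    (by linarith [hr.r1, hr.r12, hr.r23, hr.r34, hr.d0]) hr.r4 hr.ray
  obtain ⟨p, q, hM⟩ := m.mo
  exact {
    hr := hr
    gm := gm_moat hLa hδ hR0 hM hN
    w0 := (div_nonneg hr.d0.le hN.hl.le).trans ((le_max_left _ _).trans h1)
    osc := fun i x hx g1 g4 y hy =>
      (Ebr5_95.gm_osc' hLa H hN.hl hN.hra hT hr hG hx g1 g4 hy).trans h1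
    near := fun x hx => (gm_near hLa hδ hR0 hκ hN.hl hN.hra hT hr hG hx).trans h2 }

/-- the radii of a barrier -/
theorem rad_bar (hRm : ∀ c ∉ X, Rm Φ T f c (J0 c) (J c) (V c) (θ c) (ρ1 c) (ρ2 c) (ρ3 c) (ρ4 c)
      (d c)) (m : BM Φ X) {ε : ℝ} (hε : ε ∈ Ioo 1 (hiB ρ1 ρ3 d sg m.co)) :
    ρ1 m.co + 3 * d m.co < rB ρ1 ρ3 d m.co - hB ρ1 ρ3 d m.co * ε ∧
      rB ρ1 ρ3 d m.co - hB ρ1 ρ3 d m.co * ε ≤ ρ1 m.co + 4 * d m.co ∧
      ρ3 m.co + 12 * d m.co ≤ rB ρ1 ρ3 d m.co + hB ρ1 ρ3 d m.co * ε ∧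
      rB ρ1 ρ3 d m.co + hB ρ1 ρ3 d m.co * ε < ρ3 m.co + 13 * d m.co := by
  have hr := hRm m.co m.co_notMem
  have hd := hr.d0
  have hh : 0 < hB ρ1 ρ3 d m.co := by
    unfold hB; linarith [hr.r12, hr.r23]
  have e1 := rB_sub (ρ1 := ρ1) (ρ3 := ρ3) (d := d) m.co
  have e2 := rB_add (ρ1 := ρ1) (ρ3 := ρ3) (d := d) m.co
  have h1 : ε < 1 + d m.co / hB ρ1 ρ3 d m.co :=
    hε.2.trans_le (by unfold hiB; linarith [min_le_left (d m.co / hB ρ1 ρ3 d m.co) sg])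
  have h2 : hB ρ1 ρ3 d m.co * ε < hB ρ1 ρ3 d m.co + d m.co := by
    have h3 := mul_lt_mul_of_pos_left h1 hh
    rw [mul_add, mul_one, mul_div_cancel₀ _ hh.ne'] at h3
    exact h3
  have h3 : hB ρ1 ρ3 d m.co ≤ hB ρ1 ρ3 d m.co * ε := by
    have := mul_le_mul_of_nonneg_left hε.1.le hh.le
    rwa [mul_one] at this
  exact ⟨by linarith, by linarith, by linarith, by linarith⟩

/-- **a point of a barrier in 95's format** -/
theorem sb1_of (hLa : IsOpen La) (hC : Mbf_337.Cores Φ T f κ1 κ2 X J0 J V ct A lam z θ φ)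
    (hRm : ∀ c ∉ X, Rm Φ T f c (J0 c) (J c) (V c) (θ c) (ρ1 c) (ρ2 c) (ρ3 c) (ρ4 c) (d c))
    (m : BM Φ X) {ε : ℝ} (hε : ε ∈ Ioo 1 (hiB ρ1 ρ3 d sg m.co)) {y : E3}
    (h : rB ρ1 ρ3 d m.co - hB ρ1 ρ3 d m.co * ε ≤ ga Φ m.co y ∧
      ga Φ m.co y ≤ rB ρ1 ρ3 d m.co + hB ρ1 ρ3 d m.co * ε ∧
      gmf Φ l0 mm ra m.am m.Zm (Φ.Psi y) ≤ ε ∧
      (ga Φ m.co y = rB ρ1 ρ3 d m.co - hB ρ1 ρ3 d m.co * ε ∨
        ga Φ m.co y = rB ρ1 ρ3 d m.co + hB ρ1 ρ3 d m.co * ε ∨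
        gmf Φ l0 mm ra m.am m.Zm (Φ.Psi y) = ε)) :
    y ∈ SB1 Φ m.co (gmf Φ l0 mm ra m.am m.Zm) (rB ρ1 ρ3 d m.co - hB ρ1 ρ3 d m.co * ε)
      (rB ρ1 ρ3 d m.co + hB ρ1 ρ3 d m.co * ε) ε := by
  have hr := hRm m.co m.co_notMem
  have hT := hC.tiny m.co m.co_notMem
  have hG : GA Φ m.co (ρ4 m.co) := Etg_163.ga_gau Φ hLa hT.pt
    (by linarith [hr.r1, hr.r12, hr.r23, hr.r34, hr.d0]) hr.r4 hr.ray
  obtain ⟨h1, h2, h3, h4⟩ := h
  obtain ⟨-, -, -, r4⟩ := rad_bar hRm m hε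
  exact ⟨(hG.one y).1 (by linarith [hr.r34, hr.r4, hr.d0]), h1, h2, h3, h4⟩

/-- **the body of the barriers of the core `c`** -/
theorem body_D (T0 : IsOpen Om) (hLa : IsOpen La) (H : Hm f g Om La) {c : Φ.F} {r : ℝ}
    (hpt : (Φ.B c).lo = (Φ.B c).hi) (h0 : 0 < r) (hG : GA Φ c r) (h1 : r < 1) :
    IsCompact (Om ∩ f ⁻¹' {y | ga Φ c y ≤ r}) ∧
      IsPreconnected (frontier (Om ∩ f ⁻¹' {y | ga Φ c y ≤ r})) ∧
      TrivF (ZMod 2) (Om ∩ f ⁻¹' {y | ga Φ c y ≤ r}) ∧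
      interior (Om ∩ f ⁻¹' {y | ga Φ c y ≤ r}) = {x | x ∈ Om ∧ ga Φ c (f x) < r} := by
  have hb : Bod (Φ.B c).lo (Pc Φ.F c) := Pse_316.bod_brick Φ c hpt
  have hgf : ga Φ c = Ng (Φ.B c).lo (Pc Φ.F c) := funext (Etg_163.gg_eq Φ c)
  have hDc : IsCompact {y | ga Φ c y ≤ r} := by rw [hgf]; exact hb.isCompact_le r
  have hDv : Convex ℝ {y | ga Φ c y ≤ r} := hG.cvx r h0 h1.le
  have hgc : Continuous (ga Φ c) := by rw [hgf]; exact hb.continuous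
  have hlt : {y | ga Φ c y < r} ⊆ interior {y | ga Φ c y ≤ r} :=
    interior_maximal (fun y (hy : ga Φ c y < r) => (show ga Φ c y ≤ r from hy.le))
      (isOpen_lt hgc continuous_const)
  have hz : ga Φ c (Φ.B c).lo = 0 := hG.zero
  have hDi : (interior {y | ga Φ c y ≤ r}).Nonempty :=
    ⟨(Φ.B c).lo, hlt (by show ga Φ c _ < r; rw [hz]; exact h0)⟩
  have hDL : {y | ga Φ c y ≤ r} ⊆ La := fun y hy =>
    (foam4 Φ hLa).sub c ((hG.one y).1 (le_trans hy h1.le))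
  have hDi' : ∀ y ∈ interior {y | ga Φ c y ≤ r}, ga Φ c y < r := by
    intro y hy
    by_contra hcon
    have hle0 : y ∈ {y | ga Φ c y ≤ r} := interior_subset hy
    have hle : ga Φ c y ≤ r := hle0
    have he : ga Φ c y = r := le_antisymm hle (not_lt.1 hcon)
    have ht : Tendsto (fun s : ℝ => (Φ.B c).lo + s • (y - (Φ.B c).lo)) (𝓝[>] 1) (𝓝 y) := by
      have : Tendsto (fun s : ℝ => (Φ.B c).lo + s • (y - (Φ.B c).lo)) (𝓝 1)
          (𝓝 ((Φ.B c).lo + (1:ℝ) • (y - (Φ.B c).lo))) := by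
        apply Continuous.tendsto; fun_prop
      rw [one_smul, add_sub_cancel] at this
      exact this.mono_left nhdsWithin_le_nhds
    have h1 := ht.eventually (isOpen_interior.mem_nhds hy)
    have h2 : ∀ᶠ s : ℝ in 𝓝[>] 1, 1 < s := self_mem_nhdsWithin
    obtain ⟨s, hs1, hs2⟩ := (h1.and h2).exists
    have h3 : ga Φ c ((Φ.B c).lo + s • (y - (Φ.B c).lo)) = s * r := by
      rw [← he, hgf]; exact Ng_ray _ _ (by linarith) y
    have h4' : (Φ.B c).lo + s • (y - (Φ.B c).lo) ∈ {y | ga Φ c y ≤ r} := interior_subset hs1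
    have h4 : ga Φ c ((Φ.B c).lo + s • (y - (Φ.B c).lo)) ≤ r := h4'
    rw [h3] at h4
    nlinarith
  have hint : interior {y | ga Φ c y ≤ r} = {y | ga Φ c y < r} :=
    Subset.antisymm hDi' hlt
  refine ⟨H.isCompact_pre hDL hDc, ?_, ?_, ?_⟩
  · rw [frontier_pre T0 H hLa hDc hDL]
    exact H.preconn_pre (hDc.isClosed.frontier_subset.trans hDL)
      (isPreconnected_frontier fr3 hDc hDv hDi)
  · exact H.trivF_pre hDL hDc fun n => Vb_965.trivAll_convex' hDc hDv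
  · rw [interior_pre T0 H hLa, hint]
    rfl

end Crest.Agent.R096.Rop_441
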