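import Crest.Agent.R096.Rop17_441

/-!
# Row 96 (S0127), DOORS, G4 (helper441): **THE SIDE FUNCTION OF A BARRIER**

`exists_sdm` : for a state `s₀` over the sliced mesh and one name `i` whose points on the outer
tiles lie on the barrier `{SB1}`: there is a global label which is 0 outside the body, 1 near the
low zone `ZL` and 0 near the high zone `ZH`.
-/

set_option autoImplicit false
set_option linter.unusedSectionVars false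
set_option linter.unusedVariables false

open Set Relation Module Filter Topology

namespace Crest.Agent.R096.Rop_441

open Crest.Agent.R096.Brk1_582 Crest.Agent.R096.Brk2_582 Crest.Agent.R096.Brk3_582
  Crest.Agent.R096.Brk5_582 Crest.Agent.R096.Bsp_628 Crest.Agent.R096.Init_543
  Crest.Agent.R096.Vb_965 Crest.Agent.R096.Msh_715 Crest.Agent.R096.St_147
  Crest.Agent.R096.Seq_213 Crest.Agent.R096.Lm_117 Crest.Agent.R096.Gl_422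
  Crest.Agent.R096.SkB_662 Crest.Agent.R096.Cpo_642
  Crest.Agent.R096.Ce_537 Crest.Agent.R096.Agl5_543
  Crest.Agent.R096.Cp_298 Crest.Agent.R096.Gm_298 Crest.Agent.R096.Ac_117
  Crest.Agent.R096.Sla_184 Crest.Agent.R096.Sla_184.Sla
  Crest.Agent.R096.Ess5_95 Crest.Agent.R096.Bgf_4 Crest.Agent.R096.Ebr1_95
  Crest.Agent.R096.Ebr4_95 Crest.Agent.R096.Bar_106 Crest.Agent.R96.Push_899
  Crest.Agent.R096.Lab_184 Crest.Agent.R096.Exa_560 Crest.Agent.R096.Sphg_316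
  Crest.Agent.R096.Agl6_543 Crest.Agent.R096.Coh_184 Crest.Agent.R096.Flb_422
  Crest.Agent.R096.Vrt_422
open Crest.Agent.R096.SkC1_961 (E3 Hom3 FoamD)
open Crest.Agent.R096.Mbf_337 (KJ sb)

variable {δ κ0 R c0 : ℝ} {La Om : Set E3} {ι : Type} {Φ : FoamD δ κ0 R c0 La}
  {T : Tiling Om ι} {f g : E3 → E3} {κ1 κ2 : ℝ} {X : Set Φ.F} {J0 J V : Φ.F → Set ι}
  {ct : Φ.F → ι} {A : Φ.F → E3 ≃ᵃ[ℝ] E3} {lam : Φ.F → ℝ} {z : Φ.F → E3} {θ : Φ.F → E3 → E3}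
  {φ : Φ.F → E3 → ℝ} {κ : Type} {S : Sla T κ}

/-- a vertex of `T` on the frontier of a core is a vertex of the sliced mesh -/
theorem dim3_foot [Nonempty S.T3.Cell] {k : κ} {v : E3} (hv : v ∈ frontier (S.K k)) (h0 : T.dim v = 0) :
    S.T3.dim v = 0 := by
  have h1 := hc_dim (S := S) (Sla.fr_Bd hv) (Crest.Agent.R096.Vrt_422.D_vx hv h0) 0
  rwa [hc_zero hv h0] at h1

variable (hLa : IsOpen La) (H : Hm f g Om La)
  (hC : Mbf_337.Cores Φ T f κ1 κ2 X J0 J V ct A lam z θ φ) {c : Φ.F} (hc : c ∉ X)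
  {G : E3 → ℝ} {ρ1 ρ2 ρ3 ρ4 d lo' hi' ω : ℝ}
  (hZ : BZ Φ T f J0 J V θ c G ρ1 ρ2 ρ3 ρ4 d lo' hi' ω)
  [Nonempty S.T3.Cell] {hH : ∀ c, CoreH S.T3 (S.KK c)} {hne : ∃ c, OutK S.T3 S.KK c}
  {Jn Cn : Type} {fam : Jn → Cn} {s₀ : GSt (mK fr3 hH dis_KK) fam} {J' : Type}
include hLa H hC hc hZ

/-- **THE SIDE FUNCTION OF A BARRIER** -/
theorem exists_sdm (hK : TinyK X J S)
    (Xc : Cplx Om (QK (belK S.T3 S.KK)) (dimK (belK S.T3 S.KK) fun c => c.1.dim)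
      (setK S.T3 S.KK))
    (hon : ∀ w ∈ s₀.P, w ∈ (lmK fr3 hH dis_KK hne).W1) {i : Jn} {a0 a1 τ : ℝ}
    (hp : ∀ w ∈ s₀.P, s₀.lab w = i → ∀ p, (∀ c, ¬ P (T.H p) ⊆ S.K c) → w ∈ P (T.H p) →
      f w ∈ SB1 Φ c G a0 a1 τ)
    (supp : ∀ w ∈ s₀.P, s₀.lab w = i → (∀ q, w ∈ P (S.T3.H q) →
      P (S.T3.H q) ⊆ interior (Om ∩ f ⁻¹' {y | ga Φ c y ≤ ρ4})) ∧
      ∀ k, w ∈ S.KK k → S.KK k ⊆ interior (Om ∩ f ⁻¹' {y | ga Φ c y ≤ ρ4}))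
    {k : κ} (hk : S.K k = KJ T (J c)) (L : Lev T (frontier (S.K k)) J') {j : J'} (hj : j ∈ L.J0)
    (hE : ExG S k L j {w | w ∈ s₀.P ∧ s₀.lab w = i}) {v0 v1 : E3} (hv0 : v0 ∈ frontier (S.K k))
    (hd0 : T.dim v0 = 0) (hv1 : v1 ∈ frontier (S.K k)) (hd1 : T.dim v1 = 0)
    (hl0 : L.u v0 < L.lv j) (hl1 : L.lv j < L.u v1) (hC0 : Sde_422.NoCol S s₀ i k v0)
    (hC1 : Sde_422.NoCol S s₀ i k v1)
    {b b' : ℝ} (hb0 : lo' < b) (hbτ : b + 3 * ω < τ) (hb1 : τ < b' - 3 * ω) (hb' : b' < hi')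
    (hG0 : G (θ c v0) ≤ b + ω) (hG1 : b' - ω ≤ G (θ c v1)) {r r' : ℝ} (h1 : ρ1 ≤ r)
    (h2 : r < ρ2) (hrr : r ≤ r') (h4 : r' ≤ ρ4) (ha0 : a0 + d < r) (ha0' : a0 + d < ρ2)
    (ha1 : r' + d < a1) (ha1' : ρ3 + d < a1) :
    ∃ lm : QK (belK S.T3 S.KK) → ZMod 2, GLab (lmK fr3 hH dis_KK hne) (gp s₀ i) lm ∧
      (∀ v ∈ ZK S.T3 S.KK (Om ∩ f ⁻¹' {y | ga Φ c y ≤ ρ4}), lm v = 0) ∧
      (∀ v, NearZ S (ZL Φ T f c (J c) (θ c) G b ω r r') v → lm v = 1) ∧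
      ∀ v, NearZ S (ZH Φ T f c (J c) (θ c) G b' ω r ρ4) v → lm v = 0 := by
  have hr := hZ.hr
  have w0 := hZ.w0
  have hT := hC.tiny c hc
  have hG := bz_ga hLa H hC hc hZ
  have h40 : 0 < ρ4 := by linarith [hr.r1]
  obtain ⟨D1, D2, D3, D4⟩ := body_D T.op hLa H hT.pt h40 hG hr.r4
  have hcov : ∀ {A' B : Set E3} {r' : ℝ}, r' ≤ ρ4 → ∀ x ∈ Zo Φ Om f c (KJ T (J c)) (θ c) A' B r r',
      ∃ p, (∀ c, ¬ P (T.H p) ⊆ S.K c) ∧ x ∈ P (T.H p) := fun h x hx =>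
    zo_cov hLa H hC hc hZ hK h1 h hx
  have hfO : ∀ {v}, v ∈ frontier (S.K k) → v ∈ Om := fun {v} hv =>
    (S.hH k).sub ((S.hH k).cpt.isClosed.frontier_subset hv)
  -- the foot `v1` is near the high zone, the foot `v0` near the low zone
  have n1 : NearZ S (ZH Φ T f c (J c) (θ c) G b' ω r ρ4) (oc (edC S.T3 v1) (outK_foot hv1 hd1)) :=
    nearZ_vx (hcov le_rfl) (high_fr hLa H hC hc hZ (by rw [← hk]; exact hv1) hG1) (hfO hv1)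
      (dim3_foot hv1 hd1) _
  have n0 : NearZ S (ZL Φ T f c (J c) (θ c) G b ω r r') (oc (edC S.T3 v0) (outK_foot hv0 hd0)) :=
    nearZ_vx (hcov h4) (low_fr hLa H hC hc hZ (by rw [← hk]; exact hv0) hG0) (hfO hv0)
      (dim3_foot hv0 hd0) _
  obtain ⟨q1, hq1, n2⟩ := exists_farZ (S := S) hLa H hC hc hZ hK (b := b') (r := r) hb'.le h1
    (hrr.trans h4) (D := Om ∩ f ⁻¹' {y | ga Φ c y ≤ ρ4}) (fun x hx => by
      rw [D4] at hx; exact hx.2)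
  have hhigh : ∀ {v v'}, NearZ S (ZH Φ T f c (J c) (θ c) G b' ω r ρ4) v →
      NearZ S (ZH Φ T f c (J c) (θ c) G b' ω r ρ4) v' →
      ReflTransGen (Ed (lmK fr3 hH dis_KK hne) (NoP (lmK fr3 hH dis_KK hne) s₀ i)) v v' :=
    fun hv hv' => high_path hLa H hC hc hZ hK Xc hon hp (by linarith) hb' (by linarith) h1 h2
      (hrr.trans h4) le_rfl hv hv'
  obtain ⟨lm, e1, e2, e3, e4⟩ := Sde_422.exists_sd (s := s₀) (i := i) D1 inter_subset_left D2 D3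
    (fun w hw _ => hon w hw) supp L hj hE hv0 hd0 hv1 hd1 hl0 hl1 hC0 hC1 hq1
    (noP_np (hhigh n2 n1))
  refine ⟨lm, e1, e2, fun v hv => e3 v (noP_np ?_), fun v hv => e4 q1 hq1 v (noP_np (hhigh n2 hv))⟩
  exact low_path hLa H hC hc hZ hK Xc hon hp hb0 (by linarith) hbτ h1 h2 hrr h4 ha0 ha0' ha1 ha1'
    n0 hv

end Crest.Agent.R096.Rop_441
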