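import Crest.Agent.R096.Rop19_441
import Crest.Agent.R096.Frk1_441
import Crest.Agent.R096.Dfo2_539
import Crest.Agent.R096.Ebr6_95
import Crest.Agent.R096.Nmd1_698

/-!
# Row 96 (S0127), DOORS, G4 (helper441): **THE SIDE FUNCTIONS OF ALL BARRIERS, NUMBERS OF RECORD**

`gR`, `ZLm`, `ZHm` : the function of the moat `m`, its low and its high zone;
`sdm_rec` : the labels `lm m` over the sliced mesh, for all moats `m : BM Φ X`.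
-/

set_option autoImplicit false
set_option linter.unusedSectionVars false
set_option linter.unusedVariables false

open Set Relation Module Filter Topology
open scoped Classical

namespace Crest.Agent.R096.Rop_441

open Crest.Agent.R096.Brk1_582 Crest.Agent.R096.Brk2_582 Crest.Agent.R096.Brk3_582
  Crest.Agent.R096.Brk5_582 Crest.Agent.R096.Bsp_628 Crest.Agent.R096.Init_543
  Crest.Agent.R096.Vb_965 Crest.Agent.R096.Msh_715 Crest.Agent.R096.St_147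
  Crest.Agent.R096.Seq_213 Crest.Agent.R096.Lm_117 Crest.Agent.R096.Gl_422
  Crest.Agent.R096.SkB_662 Crest.Agent.R096.Cpo_642
  Crest.Agent.R096.Ce_537 Crest.Agent.R096.Agl5_543
  Crest.Agent.R096.Cp_298 Crest.Agent.R096.Gm_298 Crest.Agent.R096.Ac_117
  Crest.Agent.R096.Sla_184 Crest.Agent.R096.Sla_184.Sla
  Crest.Agent.R096.Ess5_95 Crest.Agent.R096.Bgf_4 Crest.Agent.R096.Ebr1_95
  Crest.Agent.R096.Ebr4_95 Crest.Agent.R096.Bar_106 Crest.Agent.R96.Push_899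
  Crest.Agent.R096.Lab_184 Crest.Agent.R096.Exa_560 Crest.Agent.R096.Sphg_316
  Crest.Agent.R096.Agl6_543 Crest.Agent.R096.Coh_184 Crest.Agent.R096.Flb_422
  Crest.Agent.R096.Vrt_422 Crest.Agent.R096.Twr_438 Crest.Agent.R096.Dfi_539
  Crest.Agent.R096.Dfi_471 Crest.Agent.R096.Ess3_95 Crest.Agent.R096.Door_501
  Crest.Agent.R096.Qp_106 Crest.Agent.R096.Nmd1_698
open Crest.Agent.R096.SkC1_961 (E3 Hom3 FoamD)
open Crest.Agent.R096.Mbf_337 (KJ sb)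
open Crest.Agent.R096.Frn_337 (Ti)

variable {δ κ0 R c0 : ℝ} {La Om : Set E3} {ι : Type} {Φ : FoamD δ κ0 R c0 La}
  {T : Tiling Om ι} {f g : E3 → E3} {κ1 κ2 μ : ℝ} {X : Set Φ.F} {J0 J V : Φ.F → Set ι}
  {ct : Φ.F → ι} {A' : Φ.F → E3 ≃ᵃ[ℝ] E3} {lam : Φ.F → ℝ} {z : Φ.F → E3} {θ : Φ.F → E3 → E3}
  {φ : Φ.F → E3 → ℝ} {ρ1 ρ2 ρ3 ρ4 d : Φ.F → ℝ}

/-- the function of the moat `m`, numbers of record -/
noncomputable abbrev gR (Φ : FoamD δ κ0 R c0 La) (X : Set Φ.F) (μ : ℝ) (m : BM Φ X) : E3 → ℝ :=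
  gmf Φ (μ / 8) (1 / 2) (1 / 2 - 5 * μ / 16) m.am m.Zm

/-- **the low zone of the moat `m`** -/
def ZLm (Φ : FoamD δ κ0 R c0 La) (T : Tiling Om ι) (f : E3 → E3) (X : Set Φ.F)
    (J : Φ.F → Set ι) (θ : Φ.F → E3 → E3) (ρ1 ρ3 d : Φ.F → ℝ) (μ : ℝ) (m : BM Φ X) : Set E3 :=
  ZL Φ T f m.co (J m.co) (θ m.co) (gR Φ X μ m) (1 - μ / 16) (μ / 64)
    (ρ1 m.co + 6 * d m.co) (ρ3 m.co + 10 * d m.co)

/-- **the high zone of the moat `m`** -/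
def ZHm (Φ : FoamD δ κ0 R c0 La) (T : Tiling Om ι) (f : E3 → E3) (X : Set Φ.F)
    (J : Φ.F → Set ι) (θ : Φ.F → E3 → E3) (ρ1 ρ4 d : Φ.F → ℝ) (μ : ℝ) (m : BM Φ X) : Set E3 :=
  ZH Φ T f m.co (J m.co) (θ m.co) (gR Φ X μ m) (1 + μ / 4) (μ / 64)
    (ρ1 m.co + 6 * d m.co) (ρ4 m.co)

/-- small quotients -/
theorem num_max (hμ : 0 < μ) (hμb : μ ≤ 1 / 64) {x : ℝ} (h : 65536 * x ≤ μ ^ 2) :
    max (x / (μ / 8)) (x / (1 / 2 - 5 * μ / 16)) ≤ μ / 64 := by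
  refine max_le ?_ ?_
  · rw [div_le_iff₀ (by positivity)]
    nlinarith
  · rw [div_le_iff₀ (by linarith)]
    nlinarith

/-- **`BZ` with the numbers of record** -/
theorem bz_rec (hLa : IsOpen La) (H : Hm f g Om La) (hn : NumD δ κ0 R c0 κ2 μ κ1)
    (hC : Mbf_337.Cores Φ T f κ1 κ2 X J0 J V ct A' lam z θ φ)
    (hRm : ∀ c ∉ X, Rm Φ T f c (J0 c) (J c) (V c) (θ c) (ρ1 c) (ρ2 c) (ρ3 c) (ρ4 c) (d c))
    (hd : ∀ c ∉ X, d c ≤ κ1) (m : BM Φ X) :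
    BZ Φ T f J0 J V θ m.co (gR Φ X μ m) (ρ1 m.co) (ρ2 m.co) (ρ3 m.co) (ρ4 m.co) (d m.co) 0
      (1 + μ / 2) (μ / 64) := by
  obtain ⟨n1, n2, n3, n4, n5, n6⟩ := hn.base
  refine bz_mach hLa hn.hδ hn.hR H hn.cn1 hC hRm (Ebr6_95.nm_rec n4 (by linarith)) m
    (num_max n4 n5 ?_) (num_max n4 n5 ?_)
  · have := hd m.co m.co_notMem
    linarith
  · linarith

section s2

variable {r₀ : Φ.F → ℝ} {L : Φ.F → Finset ℝ} {S : Sla T (Ti X)}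
  [Nonempty (JJ Φ L ⊕ BM Φ X)]
  {s : GSt (meshC T fr3) (Sum.map (fun j : JJ Φ L => j.1) (id : BM Φ X → BM Φ X))}
  {rt : JJ Φ L ⊕ BM Φ X → E3} {Sf : JJ Φ L ⊕ BM Φ X → Set E3}
  {nb : Ti X → Φ.F ⊕ BM Φ X → Prop} {v0 v1 : ∀ c, Φ.F ⊕ BM Φ X → VxK T S.K c}
  {u : Ti X → Φ.F ⊕ BM Φ X → E3 → ℝ} {A B : Ti X → Φ.F ⊕ BM Φ X → ℝ}
  {Lv : ∀ c, Φ.F ⊕ BM Φ X → Lev T (frontier (S.K c)) (JJ Φ L ⊕ BM Φ X)}
  {Tw : Twrs (S.sh fr3) S.n (outK S.hH S.dis s rt)} {l0 : E3 → JJ Φ L ⊕ BM Φ X}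
  [Nonempty S.T3.Cell] {hH : ∀ c, CoreH S.T3 (S.KK c)} {hne : ∃ c, OutK S.T3 S.KK c}

/-- the points of `s₂` are candidate points of `lmK` -/
theorem on_s2 : ∀ w ∈ (s2 S fr3 Tw l0).P, w ∈ (lmK fr3 hH (dis_KK (S := S)) hne).W1 :=
  fun w hw => mem_W1K.2 ⟨(s2_dim hw).1, (s2_dim hw).2, fun c => Dfo_539.s2_not_int hw c⟩

/-- **THE SIDE FUNCTIONS OF ALL BARRIERS** -/
theorem sdm_rec (hLa : IsOpen La) (H : Hm f g Om La) (hn : NumD δ κ0 R c0 κ2 μ κ1)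
    (hC : Mbf_337.Cores Φ T f κ1 κ2 X J0 J V ct A' lam z θ φ)
    (hRm : ∀ c ∉ X, Rm Φ T f c (J0 c) (J c) (V c) (θ c) (ρ1 c) (ρ2 c) (ρ3 c) (ρ4 c) (d c))
    (hd : ∀ c ∉ X, d c ≤ κ1) (hKe : ∀ k : Ti X, S.K k = KJ T (J k.1))
    (D : DIn S.hH s rt Sf nb v0 v1 u A B) (lo : LevOut s nb u A B Lv)
    (tt : TwOut S fr3 s rt v0 v1 Lv Tw) {ε : BM Φ X → ℝ}
    (hε : ∀ m : BM Φ X, ε m ∈ Ioo 1 (hiB ρ1 ρ3 d (μ / 16) m.co))
    (hbar : ∀ m, ∀ w ∈ s.P, s.lab w = Sum.inr m →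
      (rB ρ1 ρ3 d m.co - hB ρ1 ρ3 d m.co * ε m ≤ ga Φ m.co (f w) ∧
        ga Φ m.co (f w) ≤ rB ρ1 ρ3 d m.co + hB ρ1 ρ3 d m.co * ε m ∧
        gR Φ X μ m (Φ.Psi (f w)) ≤ ε m ∧
        (ga Φ m.co (f w) = rB ρ1 ρ3 d m.co - hB ρ1 ρ3 d m.co * ε m ∨
          ga Φ m.co (f w) = rB ρ1 ρ3 d m.co + hB ρ1 ρ3 d m.co * ε m ∨
          gR Φ X μ m (Φ.Psi (f w)) = ε m)))
    (hnb : ∀ (m : BM Φ X) (k : Ti X), nb k (Sum.inr m) ↔ k.1 = m.co)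
    (hv0 : ∀ m : BM Φ X,
      gR Φ X μ m (θ m.co (v0 ⟨m.co, m.co_notMem⟩ (Sum.inr m)).1) ≤ 1 - μ / 16)
    (hv1 : ∀ m : BM Φ X,
      1 + μ / 4 ≤ gR Φ X μ m (θ m.co (v1 ⟨m.co, m.co_notMem⟩ (Sum.inr m)).1)) :
    ∃ lm : BM Φ X → QK (belK S.T3 S.KK) → ZMod 2, ∀ m : BM Φ X,
      GLab (lmK fr3 hH (dis_KK (S := S)) hne) (gp (s2 S fr3 Tw l0) (Sum.inr m)) (lm m) ∧
      (∀ v ∈ ZK S.T3 S.KK (Om ∩ f ⁻¹' {y | ga Φ m.co y ≤ ρ4 m.co}), lm m v = 0) ∧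
      (∀ v, NearZ S (ZLm Φ T f X J θ ρ1 ρ3 d μ m) v → lm m v = 1) ∧
      ∀ v, NearZ S (ZHm Φ T f X J θ ρ1 ρ4 d μ m) v → lm m v = 0 := by
  have hK : TinyK X J S := fun k => ⟨k.1, k.2, hKe k⟩
  have Xc : Cplx Om (QK (belK S.T3 S.KK)) (dimK (belK S.T3 S.KK) fun c => c.1.dim)
      (setK S.T3 S.KK) := Frk_441.cplxS hC hKe
  obtain ⟨n1, n2, n3, n4, n5, n6⟩ := hn.base
  have key : ∀ m : BM Φ X, ∃ lm : QK (belK S.T3 S.KK) → ZMod 2,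
      GLab (lmK fr3 hH (dis_KK (S := S)) hne) (gp (s2 S fr3 Tw l0) (Sum.inr m)) lm ∧
      (∀ v ∈ ZK S.T3 S.KK (Om ∩ f ⁻¹' {y | ga Φ m.co y ≤ ρ4 m.co}), lm v = 0) ∧
      (∀ v, NearZ S (ZLm Φ T f X J θ ρ1 ρ3 d μ m) v → lm v = 1) ∧
      ∀ v, NearZ S (ZHm Φ T f X J θ ρ1 ρ4 d μ m) v → lm v = 0 := by
    intro m
    have hr := hRm m.co m.co_notMem
    have hd0 := hr.d0
    obtain ⟨q1, q2, q3, q4⟩ := rad_bar hRm m (hε m)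
    have hhi := (hε m).2.trans_le (hiB_le (μ / 16) m.co)
    have hlo := (hε m).1
    refine sdm_s2 (k := ⟨m.co, m.co_notMem⟩) (i := Sum.inr m) hLa H hC m.co_notMem
      (bz_rec hLa H hn hC hRm hd m) hK Xc D lo tt on_s2 ?_ (hKe _) ((hnb m _).2 rfl)
      (fun k' hk' => Subtype.ext ((hnb m k').1 hk'))
      (fun w hw hl => sb1_of hLa hC hRm m (hε m) (hbar m w hw hl)) (by linarith) (by
        linarith [hr.r34]) (by linarith) (by linarith) (by linarith) (by linarith)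
      ((hv0 m).trans (by linarith)) (le_trans (by linarith) (hv1 m)) (by linarith)
      (by linarith [hr.r12]) (by linarith [hr.r12, hr.r23]) (by linarith [hr.r34])
      (by linarith) (by linarith [hr.r12]) (by linarith) (by linarith)
    rintro (j | m') h
    · cases h
    · exact congrArg Sum.inr (Sum.inr_injective h)
  choose lm hlm using key
  exact ⟨lm, hlm⟩

end s2

end Crest.Agent.R096.Rop_441
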