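import Crest.Agent.R096.Rop20_441

/-!
# Row 96 (S0127), DOORS, G4 (helper441): the function of a moat at the vertices `v0`, `v1` of 95 / 438
-/

set_option autoImplicit false
set_option linter.unusedSectionVars false
set_option linter.unusedVariables false

open Set Relation Module Filter Topology
open scoped Classical

namespace Crest.Agent.R096.Rop_441

open Crest.Agent.R096.Brk1_582 Crest.Agent.R096.Brk2_582 Crest.Agent.R096.Brk3_582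
  Crest.Agent.R096.Brk5_582 Crest.Agent.R096.Bsp_628 Crest.Agent.R096.Init_543
  Crest.Agent.R096.Msh_715 Crest.Agent.R096.Ess5_95 Crest.Agent.R096.Bgf_4
  Crest.Agent.R096.Ebr1_95 Crest.Agent.R096.Ebr4_95 Crest.Agent.R096.Bar_106
  Crest.Agent.R096.Exa_560 Crest.Agent.R096.Nmd1_698
open Crest.Agent.R096.SkC1_961 (E3 Hom3 FoamD)
open Crest.Agent.R096.Mbf_337 (KJ sb)
open Crest.Agent.R096.Frn_337 (Ti)

variable {δ κ0 R c0 : ℝ} {La : Set E3} {Φ : FoamD δ κ0 R c0 La} {κ1 κ2 μ : ℝ} {X : Set Φ.F}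

/-- `Gm` is small at `v0` -/
theorem gR_v0 (hLa : IsOpen La) (hn : NumD δ κ0 R c0 κ2 μ κ1) (m : BM Φ X) {p q : Φ.F}
    (hM : Mo (Pc Φ.F) m.co m.am m.Zm p q) {y : E3} (hy : y ∈ frontier m.co.1.set)
    (h : ∀ e, |sb Φ y e - uu m.am m.Zm p q (1 / 2) 0 e| ≤ (2 * Cn δ R + 1) * κ1) :
    gR Φ X μ m y ≤ 1 - μ / 16 := by
  obtain ⟨n1, n2, n3, n4, n5, n6⟩ := hn.base
  have hl : 0 < μ / 8 := by positivity
  have hra : 0 < 1 / 2 - 5 * μ / 16 := by linarith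
  have hx0 : ((1 / 2 : ℝ), (0 : ℝ)) ∈ Rct :=
    ⟨⟨by norm_num, by norm_num⟩, ⟨by norm_num, by norm_num⟩⟩
  have h1 := (moat_val (mm := 1 / 2) hLa hl hra hM hx0 hy h).1
  have h3 : max (|(0 : ℝ)| / (μ / 8)) (|(1 / 2 : ℝ) - 1 / 2| / (1 / 2 - 5 * μ / 16)) ≤ 0 := by
    rw [abs_zero, zero_div, sub_self, abs_zero, zero_div, max_self]
  have h4 : max ((2 * Cn δ R + 1) * κ1 / (μ / 8)) ((2 * Cn δ R + 1) * κ1 /
      (1 / 2 - 5 * μ / 16)) ≤ 1 / 2 := by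
    refine max_le ?_ ?_
    · rw [div_le_iff₀ hl]; nlinarith
    · rw [div_le_iff₀ hra]; nlinarith
  have h2 := (abs_le.1 (h1.trans h4)).2
  have h2' : gR Φ X μ m y - max (|(0 : ℝ)| / (μ / 8)) (|(1 / 2 : ℝ) - 1 / 2| /
    (1 / 2 - 5 * μ / 16)) ≤ 1 / 2 := h2
  linarith

/-- `Gm` is large at `v1` -/
theorem gR_v1 (hLa : IsOpen La) (hn : NumD δ κ0 R c0 κ2 μ κ1) (m : BM Φ X) {p q : Φ.F}
    (hM : Mo (Pc Φ.F) m.co m.am m.Zm p q) {y : E3} (hy : y ∈ frontier m.co.1.set)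
    (h : ∀ e, |sb Φ y e - uu m.am m.Zm p q (1 / 2) 1 e| ≤ (2 * Cn δ R + 1) * κ1) :
    1 + μ / 4 ≤ gR Φ X μ m y := by
  obtain ⟨n1, n2, n3, n4, n5, n6⟩ := hn.base
  have hl : 0 < μ / 8 := by positivity
  have hra : 0 < 1 / 2 - 5 * μ / 16 := by linarith
  have hx0 : ((1 / 2 : ℝ), (1 : ℝ)) ∈ Rct :=
    ⟨⟨by norm_num, by norm_num⟩, ⟨by norm_num, by norm_num⟩⟩
  have h1 := (moat_val (mm := 1 / 2) hLa hl hra hM hx0 hy h).1
  have h3 : 2 ≤ max (|(1 : ℝ)| / (μ / 8)) (|(1 / 2 : ℝ) - 1 / 2| / (1 / 2 - 5 * μ / 16)) := by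
    refine le_max_of_le_left ?_
    rw [abs_one, le_div_iff₀ hl]
    linarith
  have h4 : max ((2 * Cn δ R + 1) * κ1 / (μ / 8)) ((2 * Cn δ R + 1) * κ1 /
      (1 / 2 - 5 * μ / 16)) ≤ 1 / 2 := by
    refine max_le ?_ ?_
    · rw [div_le_iff₀ hl]; nlinarith
    · rw [div_le_iff₀ hra]; nlinarith
  have h2 := (abs_le.1 (h1.trans h4)).1
  have h2' : -(1 / 2) ≤ gR Φ X μ m y - max (|(1 : ℝ)| / (μ / 8)) (|(1 / 2 : ℝ) - 1 / 2| /
    (1 / 2 - 5 * μ / 16)) := h2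
  linarith

end Crest.Agent.R096.Rop_441
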