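import Crest.Agent.R096.Rop21_441
import Crest.Agent.R096.Dib5_438
import Crest.Agent.R096.Frs2_662
import Crest.Agent.R096.Dff2_539

/-!
# Row 96 (S0127), DOORS, G4 (helper441): **THE LABELS OF THE BARRIERS, MACHINE INSTANCE**

`labels_m` : `sdm_rec` in the letters of 117's `HOpen` / 534's `Up`.
-/

set_option autoImplicit false
set_option linter.unusedSectionVars false
set_option linter.unusedVariables false

open Set Relation Module Filter Topology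
open scoped Classical

namespace Crest.Agent.R096.Rop_441

open Crest.Agent.R096.Brk1_582 Crest.Agent.R096.Brk2_582 Crest.Agent.R096.Brk3_582
  Crest.Agent.R096.Brk5_582 Crest.Agent.R096.Bsp_628 Crest.Agent.R096.Init_543
  Crest.Agent.R096.Vb_965 Crest.Agent.R096.Msh_715 Crest.Agent.R096.St_147
  Crest.Agent.R096.Seq_213 Crest.Agent.R096.Lm_117 Crest.Agent.R096.Gl_422
  Crest.Agent.R096.SkB_662 Crest.Agent.R096.Cpo_642
  Crest.Agent.R096.Ce_537 Crest.Agent.R096.Agl5_543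
  Crest.Agent.R096.Cp_298 Crest.Agent.R096.Gm_298 Crest.Agent.R096.Ac_117
  Crest.Agent.R096.Sla_184 Crest.Agent.R096.Sla_184.Sla
  Crest.Agent.R096.Ess5_95 Crest.Agent.R096.Bgf_4 Crest.Agent.R096.Ebr1_95
  Crest.Agent.R096.Ebr4_95 Crest.Agent.R096.Bar_106 Crest.Agent.R96.Push_899
  Crest.Agent.R096.Lab_184 Crest.Agent.R096.Exa_560 Crest.Agent.R096.Sphg_316
  Crest.Agent.R096.Agl6_543 Crest.Agent.R096.Coh_184 Crest.Agent.R096.Flb_422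
  Crest.Agent.R096.Vrt_422 Crest.Agent.R096.Twr_438 Crest.Agent.R096.Dfi_539
  Crest.Agent.R096.Dfi_471 Crest.Agent.R096.Ess3_95 Crest.Agent.R096.Door_501
  Crest.Agent.R096.Qp_106 Crest.Agent.R096.Nmd1_698 Crest.Agent.R096.Dib_438
  Crest.Agent.R096.Dff_539 Crest.Agent.R096.Frs_662
open Crest.Agent.R096.SkC1_961 (E3 Hom3 FoamD)
open Crest.Agent.R096.Mbf_337 (KJ sb Cores)
open Crest.Agent.R096.Frn_337 (Ti)
open Crest.Agent.R096.Ess7_95 (KT Sh)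
open Crest.Agent.R096.Dia_316 (nbT)
open Crest.Agent.R096.Bmf_416 (coT)

variable {δ κ0 R c0 : ℝ} {La Om : Set E3} {ι : Type} {Φ : FoamD δ κ0 R c0 La} {T : Tiling Om ι}
  {f g : E3 → E3} {κ1 κ2 μ : ℝ} {X : Set Φ.F} {J0 J V : Φ.F → Set ι}
  {ct : Φ.F → ι} {A : Φ.F → E3 ≃ᵃ[ℝ] E3} {lam : Φ.F → ℝ} {z : Φ.F → E3}
  {θ : Φ.F → E3 → E3} {φ : Φ.F → E3 → ℝ} {r₀ : Φ.F → ℝ}
  {L : Φ.F → Finset ℝ} [Nonempty (JJ Φ L)] {hG : GF Φ r₀ T f L} {bp : JJ Φ L → E3}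
  {N : BM Φ X → Set ℝ} {ρ1 ρ2 ρ3 ρ4 d : Φ.F → ℝ} {q₀ : BM Φ X → E3} {ε : BM Φ X → ℝ}
  {bm : BM Φ X → E3} {hGB : GFB Φ r₀ T f L (lRc Φ X μ ρ1 ρ3 d) ε}
  {v0B v1B : ∀ c, BM Φ X → VxK T (KT T J X) c} {r : JJ Φ L → E3}
  {v0 v1 : ∀ c, Φ.F → VxK T (KT T J X) c}

/-- **THE LABELS OF THE BARRIERS** -/
theorem labels_m (hLa : IsOpen La) (H : Hm f g Om La) (hn : NumD δ κ0 R c0 κ2 μ κ1)
    (hC : Cores Φ T f κ1 κ2 X J0 J V ct A lam z θ φ)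
    (hB : BarOut Φ T f κ1 μ X J0 J V θ hG bp N ρ1 ρ2 ρ3 ρ4 d q₀ ε bm hGB v0B v1B)
    (DD : DIn (fun c => Dia_316.coreH_KT hC c) (stB hGB bp bm) (Sum.elim r bm)
        (SfA Om Φ X r₀ f L μ ρ1 ρ3 d ε) (nbA Φ X) (vS v0 v0B) (vS v1 v1B) (uA Φ hLa X θ)
        (AA Φ X μ κ1) (BA Φ X μ))
    (n : Ti X → ℕ) (hn0 : ∀ c, 0 < n c)
    {Lv : ∀ c, Φ.F ⊕ BM Φ X → Lev T (frontier ((slC hLa hC n hn0).K c)) (JJ Φ L ⊕ BM Φ X)}
    {Tw : Twrs ((slC hLa hC n hn0).sh fr3) (slC hLa hC n hn0).n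
      (outK (slC hLa hC n hn0).hH (slC hLa hC n hn0).dis (stB hGB bp bm) (Sum.elim r bm))}
    (lo : LevOut (stB hGB bp bm) (nbA Φ X) (uA Φ hLa X θ) (AA Φ X μ κ1) (BA Φ X μ) Lv)
    (tt : TwOut (slC hLa hC n hn0) fr3 (stB hGB bp bm) (Sum.elim r bm) (vS v0 v0B) (vS v1 v1B)
      Lv Tw) (l0 : E3 → JJ Φ L ⊕ BM Φ X)
    [Nonempty (slC hLa hC n hn0).T3.Cell]
    (hH : ∀ c, CoreH (slC hLa hC n hn0).T3 ((slC hLa hC n hn0).KK c))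
    (hne : ∃ c, OutK (slC hLa hC n hn0).T3 (slC hLa hC n hn0).KK c) :
    ∃ lm : BM Φ X → QK (belK (slC hLa hC n hn0).T3 (slC hLa hC n hn0).KK) → ZMod 2,
      ∀ m : BM Φ X,
      GLab (lmK fr3 hH (dis_KK (S := slC hLa hC n hn0)) hne)
        (gp (s2 (slC hLa hC n hn0) fr3 Tw l0) (Sum.inr m)) (lm m) ∧
      (∀ v ∈ ZK (slC hLa hC n hn0).T3 (slC hLa hC n hn0).KK
        (Om ∩ f ⁻¹' {y | ga Φ m.co y ≤ ρ4 m.co}), lm m v = 0) ∧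
      (∀ v, NearZ (slC hLa hC n hn0) (ZLm Φ T f X J θ ρ1 ρ3 d μ m) v → lm m v = 1) ∧
      ∀ v, NearZ (slC hLa hC n hn0) (ZHm Φ T f X J θ ρ1 ρ4 d μ m) v → lm m v = 0 := by
  refine sdm_rec (S := slC hLa hC n hn0) (s := stB hGB bp bm) (l0 := l0) (v0 := vS v0 v0B)
    (v1 := vS v1 v1B) hLa H hn hC (fun c hc => (hB.rm c hc).2) (fun c hc => (hB.rm c hc).1)
    (fun k => rfl) DD lo tt hB.lv (fun m w hw hl => (hB.pos m w hw hl).2.2.2.2) (fun m k => ?_)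
    (fun m => ?_) fun m => ?_
  · constructor
    · intro h
      have h' : coT m = k := h
      rw [← h']; rfl
    · intro h
      show coT m = k
      exact Subtype.ext h.symm
  · exact gR_v0 hLa hn m (mo_pq m)
      (th_mem (hC.tiny m.co m.co_notMem) (v0B ⟨m.co, m.co_notMem⟩ m).2.2)
      (hB.v0 ⟨m.co, m.co_notMem⟩ m rfl)
  · exact gR_v1 hLa hn m (mo_pq m)
      (th_mem (hC.tiny m.co m.co_notMem) (v1B ⟨m.co, m.co_notMem⟩ m).2.2)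
      (hB.v1 ⟨m.co, m.co_notMem⟩ m rfl)

end Crest.Agent.R096.Rop_441
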