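import Crest.Agent.R096.Rop1_441
import Crest.Agent.R096.Init3_543

/-!
# R096 (row 96), ROPES (helper441), part 2: the foam

* `Nb D c η`      : the points of the boundary of the cell `c` with `s_a ≤ η` for all `a ∈ D`;
                    it is compact and preconnected for `η < 1`;
* `Az D θ`        : the points with `va a ≤ θ` for all `a ∈ D`; compact, preconnected;
* `CorT`          : topological data of the cores;
* `Ad D θ`        : `Az D θ` led round the cores: compact, preconnected, `va a ≤ η + η0` on it.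
-/

set_option autoImplicit false
set_option linter.unusedSectionVars false

open Set Relation

namespace Crest.Agent.R096.Rop_441

open Crest.Agent.R096.Brk1_582 Crest.Agent.R096.Brk2_582 Crest.Agent.R096.Init_543
  Crest.Agent.R096.Vb_965

section foam

variable {V : Type} [NormedAddCommGroup V] [NormedSpace ℝ V] [FiniteDimensional ℝ V]
variable {I : Type} {La : Set V} {P : I → Set V} {b : Set I → V} {N : ℕ}

open Classical in
/-- multiply the coordinates of `D` by `r` -/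
noncomputable def scl (D : Set I) (r : ℝ) (u : I → ℝ) : I → ℝ :=
  fun a => if a ∈ D then r * u a else u a

theorem scl_mem {D : Set I} {r : ℝ} {u : I → ℝ} {a : I} (h : a ∈ D) : scl D r u a = r * u a := by
  unfold scl; rw [if_pos h]

theorem scl_not {D : Set I} {r : ℝ} {u : I → ℝ} {a : I} (h : a ∉ D) : scl D r u a = u a := by
  unfold scl; rw [if_neg h]

theorem scl_zero {D : Set I} {r : ℝ} {u : I → ℝ} {a : I} (h : u a = 0) : scl D r u a = 0 := by
  by_cases ha : a ∈ D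
  · rw [scl_mem ha, h, mul_zero]
  · rw [scl_not ha, h]

theorem scl_one (D : Set I) (u : I → ℝ) : scl D 1 u = u := by
  funext a
  by_cases ha : a ∈ D
  · rw [scl_mem ha, one_mul]
  · rw [scl_not ha]

theorem scl_mem_K {D : Set I} {r : ℝ} (h0 : 0 ≤ r) (h1 : r ≤ 1) {u : I → ℝ} (hu : u ∈ K P)
    (hD : ∀ a ∈ D, u a < 1) : scl D r u ∈ K P := by
  obtain ⟨k1, ⟨c, k2⟩, k3⟩ := hu
  refine ⟨fun a => ?_, ⟨c, scl_zero k2⟩, ?_⟩
  · by_cases ha : a ∈ D
    · rw [scl_mem ha]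
      exact ⟨mul_nonneg h0 (k1 a).1, mul_le_one₀ h1 (k1 a).1 (k1 a).2⟩
    · rw [scl_not ha]; exact k1 a
  · refine k3.mono (fc_anti ?_)
    intro a (ha : scl D r u a < 1)
    show u a < 1
    by_cases haD : a ∈ D
    · exact hD a haD
    · rwa [scl_not haD] at ha

theorem continuous_scl (D : Set I) (u : I → ℝ) : Continuous fun r : ℝ => scl D r u := by
  refine continuous_pi fun a => ?_
  by_cases ha : a ∈ D
  · simp only [scl_mem ha]; fun_prop
  · simp only [scl_not ha]; exact continuous_const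

/-- the points of the boundary of the cell `c` which are near all cells of `D` -/
def Nb (La : Set V) (P : I → Set V) (b : Set I → V) (D : Set I) (c : I) (η : ℝ) : Set V :=
  {g | g ∈ Lset La P b c 0 ∧ ∀ a ∈ D, sc P b g a ≤ η}

variable (F : Foam La P b N)
include F

theorem Nb_triv {D : Set I} {c : I} {η : ℝ} (hη : 0 ≤ η) (h : ∀ a ∈ D, a = c) :
    Nb La P b D c η = Lset La P b c 0 := by
  ext g
  refine ⟨fun h => h.1, fun hg => ⟨hg, fun a ha => ?_⟩⟩
  rw [h a ha, hg.2.1]; exact hη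

/-- **the nearly common boundary is connected** -/
theorem preconn_Nb (hV : Module.finrank ℝ V = 3) {c : I} (hne : (P c).Nonempty) {η : ℝ}
    (hη0 : 0 ≤ η) (hη : η < 1) (D : Set I) : IsPreconnected (Nb La P b D c η) := by
  by_cases hD : ∀ a ∈ D, a = c
  · rw [Nb_triv F hη0 hD]
    exact isPreconnected_Lset F hV hne le_rfl one_pos
  push Not at hD
  obtain ⟨a₀, ha₀, hac⟩ := hD
  have hcv : IsPreconnected (fc P (insert c D)) := F.convex_fc.isPreconnected
  -- facts about the path of `g`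
  have hpath : ∀ g ∈ Nb La P b D c η, ∀ r ∈ Icc (0 : ℝ) 1, scl D r (sc P b g) ∈ K P ∧
      T b (scl D r (sc P b g)) ∈ Nb La P b D c η := by
    rintro g ⟨⟨hgL, hgc, c', hc', hgc'⟩, hg⟩ r hr
    have hK := scl_mem_K (D := D) hr.1 hr.2 (F.sc_mem_K hgL) (fun a ha => (hg a ha).trans_lt hη)
    have hL := F.T_mem_La hK
    refine ⟨hK, ⟨hL, ?_, c', hc', ?_⟩, ?_⟩
    · rw [F.sc_T hK]; exact scl_zero hgc
    · rw [← F.sc_eq_zero hL, F.sc_T hK]
      exact scl_zero ((F.sc_eq_zero hgL).2 hgc')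
    · intro a ha
      rw [F.sc_T hK, scl_mem ha]
      have h1 := F.sc_nonneg hgL a
      have h2 := hg a ha
      nlinarith [hr.1, hr.2]
  have hend : ∀ g ∈ Nb La P b D c η, T b (scl D 0 (sc P b g)) ∈ fc P (insert c D) := by
    intro g hg
    obtain ⟨hK, -⟩ := hpath g hg 0 ⟨le_rfl, zero_le_one⟩
    rw [mem_fc', F.act_T hK]
    rintro a (rfl | ha)
    · exact scl_zero hg.1.2.1
    · show scl D 0 (sc P b g) a = 0
      rw [scl_mem ha, zero_mul]
  rcases (Nb La P b D c η).eq_empty_or_nonempty with he | ⟨g₀, hg₀⟩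
  · rw [he]; exact isPreconnected_empty
  have hsub : fc P (insert c D) ⊆ Nb La P b D c η := by
    intro y hy
    have hy' := mem_fc.1 hy
    have hyc := hy' c (Or.inl rfl)
    have hyL : y ∈ La := F.sub c hyc
    refine ⟨⟨hyL, (F.sc_eq_zero hyL).2 hyc, a₀, hac, hy' a₀ (Or.inr ha₀)⟩, fun a ha => ?_⟩
    rw [(F.sc_eq_zero hyL).2 (hy' a (Or.inr ha))]; exact hη0
  refine isPreconnected_of_forall (T b (scl D 0 (sc P b g₀))) fun y hy => ?_
  have hcont : ContinuousOn (fun r : ℝ => T b (scl D r (sc P b y))) (Icc 0 1) :=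
    (continuousOn_T F).comp (continuous_scl D _).continuousOn fun r hr => (hpath y hy r hr).1
  have hpc : IsPreconnected ((fun r : ℝ => T b (scl D r (sc P b y))) '' Icc 0 1) :=
    isPreconnected_Icc.image _ hcont
  refine ⟨fc P (insert c D) ∪ (fun r : ℝ => T b (scl D r (sc P b y))) '' Icc 0 1, ?_,
    Or.inl (hend g₀ hg₀), Or.inr ⟨1, ⟨zero_le_one, le_rfl⟩, ?_⟩, ?_⟩
  · refine union_subset hsub ?_
    rintro _ ⟨r, hr, rfl⟩
    exact (hpath y hy r hr).2
  · show T b (scl D 1 (sc P b y)) = y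
    rw [scl_one, F.T_sc hy.1.1]
  · exact IsPreconnected.union (T b (scl D 0 (sc P b y))) (hend y hy)
      ⟨0, ⟨le_rfl, zero_le_one⟩, rfl⟩ hcv hpc

/-- the points near all cells of `D` -/
theorem preconn_low {D : Set I} (hD : D.Nonempty) {θ : ℝ} (hθ0 : 0 ≤ θ) (hθ : θ < 1) :
    IsPreconnected {y | y ∈ La ∧ ∀ a ∈ D, sc P b y a ≤ θ} := by
  have hcv : IsPreconnected (fc P D) := F.convex_fc.isPreconnected
  have hpath : ∀ g, g ∈ La → (∀ a ∈ D, sc P b g a ≤ θ) → ∀ r ∈ Icc (0 : ℝ) 1,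
      scl D r (sc P b g) ∈ K P ∧ T b (scl D r (sc P b g)) ∈ La ∧
        ∀ a ∈ D, sc P b (T b (scl D r (sc P b g))) a ≤ θ := by
    intro g hgL hg r hr
    have hK := scl_mem_K (D := D) hr.1 hr.2 (F.sc_mem_K hgL) (fun a ha => (hg a ha).trans_lt hθ)
    refine ⟨hK, F.T_mem_La hK, fun a ha => ?_⟩
    rw [F.sc_T hK, scl_mem ha]
    have h1 := F.sc_nonneg hgL a
    have h2 := hg a ha
    nlinarith [hr.1, hr.2]
  have hend : ∀ g, g ∈ La → (∀ a ∈ D, sc P b g a ≤ θ) → T b (scl D 0 (sc P b g)) ∈ fc P D := by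
    intro g hgL hg
    obtain ⟨hK, -⟩ := hpath g hgL hg 0 ⟨le_rfl, zero_le_one⟩
    rw [mem_fc', F.act_T hK]
    intro a ha
    show scl D 0 (sc P b g) a = 0
    rw [scl_mem ha, zero_mul]
  rcases ({y | y ∈ La ∧ ∀ a ∈ D, sc P b y a ≤ θ}).eq_empty_or_nonempty with he | ⟨g₀, hg₀L, hg₀⟩
  · rw [he]; exact isPreconnected_empty
  have hsub : fc P D ⊆ {y | y ∈ La ∧ ∀ a ∈ D, sc P b y a ≤ θ} := by
    intro y hy
    have hy' := mem_fc.1 hy
    obtain ⟨a₀, ha₀⟩ := hD
    have hyL : y ∈ La := F.sub a₀ (hy' a₀ ha₀)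
    refine ⟨hyL, fun a ha => ?_⟩
    rw [(F.sc_eq_zero hyL).2 (hy' a ha)]; exact hθ0
  refine isPreconnected_of_forall (T b (scl D 0 (sc P b g₀))) fun y hy => ?_
  have hcont : ContinuousOn (fun r : ℝ => T b (scl D r (sc P b y))) (Icc 0 1) :=
    (continuousOn_T F).comp (continuous_scl D _).continuousOn fun r hr => (hpath y hy.1 hy.2 r hr).1
  have hpc : IsPreconnected ((fun r : ℝ => T b (scl D r (sc P b y))) '' Icc 0 1) :=
    isPreconnected_Icc.image _ hcont
  refine ⟨fc P D ∪ (fun r : ℝ => T b (scl D r (sc P b y))) '' Icc 0 1, ?_,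
    Or.inl (hend g₀ hg₀L hg₀), Or.inr ⟨1, ⟨zero_le_one, le_rfl⟩, ?_⟩, ?_⟩
  · refine union_subset hsub ?_
    rintro _ ⟨r, hr, rfl⟩
    exact (hpath y hy.1 hy.2 r hr).2
  · show T b (scl D 1 (sc P b y)) = y
    rw [scl_one, F.T_sc hy.1]
  · exact IsPreconnected.union (T b (scl D 0 (sc P b y))) (hend y hy.1 hy.2)
      ⟨0, ⟨le_rfl, zero_le_one⟩, rfl⟩ hcv hpc

theorem isCompact_low {D : Set I} (hD : D.Nonempty) {θ : ℝ} (hθ : θ < 1) :
    IsCompact {y | y ∈ La ∧ ∀ a ∈ D, sc P b y a ≤ θ} := by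
  obtain ⟨a₀, ha₀⟩ := hD
  have hfin : {d | (P d ∩ P a₀).Nonempty}.Finite := finite_touch F a₀
  have hU : IsCompact (⋃ d ∈ {d | (P d ∩ P a₀).Nonempty}, P d) :=
    hfin.isCompact_biUnion fun d _ => F.cpt d
  have hUL : (⋃ d ∈ {d | (P d ∩ P a₀).Nonempty}, P d) ⊆ La := iUnion₂_subset fun d _ => F.sub d
  have hcl : IsClosed {u : I → ℝ | ∀ a ∈ D, u a ≤ θ} := by
    have : {u : I → ℝ | ∀ a ∈ D, u a ≤ θ} = ⋂ a ∈ D, {u : I → ℝ | u a ≤ θ} := by
      ext u; simp
    rw [this]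
    exact isClosed_biInter fun a _ => isClosed_le (continuous_apply a) continuous_const
  have e1 : {y | y ∈ La ∧ ∀ a ∈ D, sc P b y a ≤ θ} =
      (⋃ d ∈ {d | (P d ∩ P a₀).Nonempty}, P d) ∩ (sc P b) ⁻¹' {u : I → ℝ | ∀ a ∈ D, u a ≤ θ} := by
    ext z
    constructor
    · rintro ⟨hz, hz2⟩
      refine ⟨?_, hz2⟩
      obtain ⟨d, hd⟩ := F.cov z hz
      obtain ⟨w, hw⟩ := F.sc_lt_one_fc hz
      refine mem_iUnion₂.2 ⟨d, ⟨w, mem_fc.1 hw d ?_, mem_fc.1 hw a₀ ?_⟩, hd⟩
      · show sc P b z d < 1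
        rw [(F.sc_eq_zero hz).2 hd]; exact one_pos
      · exact (hz2 a₀ ha₀).trans_lt hθ
    · rintro ⟨hz, hz2⟩
      exact ⟨hUL hz, hz2⟩
  rw [e1]
  exact hU.of_isClosed_subset (((continuousOn_sc F).mono hUL).preimage_isClosed_of_isClosed
    hU.isClosed hcl) inter_subset_left

theorem isCompact_Nb (c : I) (D : Set I) (η : ℝ) : IsCompact (Nb La P b D c η) := by
  have h0 : IsCompact (Lset La P b c 0) := isCompact_Lset F c le_rfl one_pos
  have hcl : IsClosed {u : I → ℝ | ∀ a ∈ D, u a ≤ η} := by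
    have : {u : I → ℝ | ∀ a ∈ D, u a ≤ η} = ⋂ a ∈ D, {u : I → ℝ | u a ≤ η} := by
      ext u; simp
    rw [this]
    exact isClosed_biInter fun a _ => isClosed_le (continuous_apply a) continuous_const
  have h1 : Nb La P b D c η = Lset La P b c 0 ∩ (sc P b) ⁻¹' {u : I → ℝ | ∀ a ∈ D, u a ≤ η} := rfl
  rw [h1]
  exact h0.of_isClosed_subset (((continuousOn_sc F).mono fun y hy => hy.1).preimage_isClosed_of_isClosed
    h0.isClosed hcl) inter_subset_left

theorem Nb_nonempty (hV : Module.finrank ℝ V = 3) {c : I} {D : Set I} {η : ℝ} (hη : 0 ≤ η) {y : V}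
    (hy : y ∈ P c) (hyD : ∀ a ∈ D, y ∈ P a) : (Nb La P b D c η).Nonempty := by
  have hyL : y ∈ La := F.sub c hy
  by_cases hD : ∀ a ∈ D, a = c
  · rw [Nb_triv F hη hD, ← frontier_cell F]
    have hnt : Nontrivial V := Module.nontrivial_of_finrank_pos (R := ℝ) (by rw [hV]; norm_num)
    rw [Set.nonempty_iff_ne_empty]
    intro he
    rcases frontier_eq_empty_iff.1 he with h | h
    · rw [h] at hy; exact hy
    · have := F.cpt c
      rw [h] at this
      exact (NormedSpace.noncompactSpace ℝ V).noncompact_univ this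
  · push Not at hD
    obtain ⟨a₀, ha₀, hac⟩ := hD
    exact ⟨y, ⟨hyL, (F.sc_eq_zero hyL).2 hy, a₀, hac, hyD a₀ ha₀⟩, fun a ha => by
      rw [(F.sc_eq_zero hyL).2 (hyD a ha)]; exact hη⟩

end foam

section az

variable {E V : Type} [NormedAddCommGroup E] [NormedSpace ℝ E] [FiniteDimensional ℝ E]
  [NormedAddCommGroup V] [NormedSpace ℝ V] [FiniteDimensional ℝ V]
variable {I : Type} {Om : Set E} {La : Set V} {P : I → Set V} {b : Set I → V} {N : ℕ}
  {R : V → V} {f : E → V} {g : V → E}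

/-- the points with `va a ≤ θ` for all `a ∈ D` -/
def Az (Om : Set E) (P : I → Set V) (b : Set I → V) (R : V → V) (f : E → V) (D : Set I) (θ : ℝ) :
    Set E := {x | x ∈ Om ∧ ∀ a ∈ D, va P b R f a x ≤ θ}

/-- **topological data of the cores** -/
structure CorT (Om : Set E) (P : I → Set V) (b : Set I → V) (R : V → V) (f : E → V)
    (Kc : I → Set E) (th : I → E → V) (tau : I → V → E) (η0 : ℝ) : Prop where
  cpt : ∀ c, IsCompact (Kc c)
  sub : ∀ c, Kc c ⊆ Om
  disj : ∀ c c', c ≠ c' → Disjoint (Kc c) (Kc c')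
  cell : ∀ c, ∀ x ∈ Kc c, f x ∈ P c
  thm : ∀ c, ∀ x ∈ frontier (Kc c), th c x ∈ frontier (P c)
  taum : ∀ c, MapsTo (tau c) (frontier (P c)) (frontier (Kc c))
  li : ∀ c, ∀ x ∈ frontier (Kc c), tau c (th c x) = x
  ri : ∀ c, ∀ y ∈ frontier (P c), th c (tau c y) = y
  cont : ∀ c, ContinuousOn (tau c) (frontier (P c))
  close : ∀ c, ∀ x ∈ frontier (Kc c), ∀ a, |sc P b (th c x) a - va P b R f a x| ≤ η0

/-- `Az D θ` led round the cores -/
def Ad (Om : Set E) (La : Set V) (P : I → Set V) (b : Set I → V) (R : V → V) (f : E → V)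
    (Kc : I → Set E) (tau : I → V → E) (η : ℝ) (D : Set I) (θ : ℝ) : Set E :=
  det (Az Om P b R f D θ) Kc (fun c => tau c '' Nb La P b D c η)

variable (H : Hm f g Om La) (F : Foam La P b N) (hR : Ret La P R)
include H F hR

theorem Az_eq (D : Set I) (θ : ℝ) :
    Az Om P b R f D θ = Om ∩ f ⁻¹' (rpre La R {y | y ∈ La ∧ ∀ a ∈ D, sc P b y a ≤ θ}) := by
  ext x
  constructor
  · rintro ⟨hx, h⟩
    exact ⟨hx, H.fm hx, mem_La H F hR hx, h⟩
  · rintro ⟨hx, -, -, h⟩
    exact ⟨hx, h⟩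

theorem isCompact_Az {D : Set I} (hD : D.Nonempty) {θ : ℝ} (hθ : θ < 1) :
    IsCompact (Az Om P b R f D θ) := by
  rw [Az_eq H F hR D θ]
  exact H.isCompact_pre (fun y hy => hy.1) (hR.isCompact_pre F (isCompact_low F hD hθ)
    fun y hy => hy.1)

theorem preconn_Az {D : Set I} (hD : D.Nonempty) {θ : ℝ} (hθ0 : 0 ≤ θ) (hθ : θ < 1) :
    IsPreconnected (Az Om P b R f D θ) := by
  rw [Az_eq H F hR D θ]
  exact H.preconn_pre (fun y hy => hy.1) (hR.preconn_pre F (isCompact_low F hD hθ)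
    (fun y hy => hy.1) (preconn_low F hD hθ0 hθ))

variable {Kc : I → Set E} {th : I → E → V} {tau : I → V → E} {η0 η : ℝ}
  (hC : CorT Om P b R f Kc th tau η0) {θ : ℝ}
include hC

theorem finite_cores {D : Set I} (hD : D.Nonempty) (hθ : θ < 1) :
    {c | (Az Om P b R f D θ ∩ Kc c).Nonempty}.Finite := by
  have h1 : IsCompact (f '' Az Om P b R f D θ) :=
    (isCompact_Az H F hR hD hθ).image_of_continuousOn (H.fc.mono fun x hx => hx.1)
  have h2 : f '' Az Om P b R f D θ ⊆ La := by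
    rintro _ ⟨x, hx, rfl⟩; exact H.fm hx.1
  refine (F.finite_meet h1 h2).subset ?_
  rintro c ⟨x, hx, hxc⟩
  exact ⟨f x, hC.cell c x hxc, mem_image_of_mem f hx⟩

theorem Nb_ne_of_meet (hV : Module.finrank ℝ V = 3) (hη0 : 0 ≤ η) (hθ : θ < 1) {D : Set I} {c : I}
    (hc : (Az Om P b R f D θ ∩ Kc c).Nonempty) : (P c).Nonempty ∧ (Nb La P b D c η).Nonempty := by
  obtain ⟨x, ⟨hx, hxD⟩, hxc⟩ := hc
  have h1 : R (f x) ∈ P c := hR.cell c (hC.cell c x hxc)
  have hL := mem_La H F hR hx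
  -- move the coordinates of `D` to zero
  have hK := scl_mem_K (D := D) le_rfl zero_le_one (F.sc_mem_K hL)
    (fun a ha => (hxD a ha).trans_lt hθ)
  have hact : ∀ a, a ∈ D ∨ a = c → T b (scl D 0 (sc P b (R (f x)))) ∈ P a := by
    intro a ha
    have : a ∈ act P (T b (scl D 0 (sc P b (R (f x))))) := by
      rw [F.act_T hK]
      rcases ha with ha | rfl
      · show scl D 0 _ a = 0
        rw [scl_mem ha, zero_mul]
      · exact scl_zero ((F.sc_eq_zero hL).2 h1)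
    exact this
  exact ⟨⟨_, h1⟩, Nb_nonempty F hV hη0 (hact c (Or.inr rfl)) fun a ha => hact a (Or.inl ha)⟩

theorem preconn_Ad (hV : Module.finrank ℝ V = 3) (hθ0 : 0 ≤ θ) (hη0 : 0 ≤ η0) (hη01 : θ + η0 ≤ η)
    (hη : η < 1) {D : Set I} (hD : D.Nonempty) :
    IsPreconnected (Ad Om La P b R f Kc tau η D θ) := by
  have hθ : θ < 1 := by linarith
  have hη' : 0 ≤ η := by linarith
  refine detour (isCompact_Az H F hR hD hθ) (preconn_Az H F hR hD hθ0 hθ)
    (fun c => (hC.cpt c).isClosed)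
    hC.disj (finite_cores H F hR hC hD hθ) (fun c hc => ?_) (fun c => ?_)
  · obtain ⟨h1, h2⟩ := Nb_ne_of_meet H F hR hC hV hη' hθ hc
    refine ⟨h2.image _, (preconn_Nb F hV h1 hη' hη D).image _ ((hC.cont c).mono fun y hy => ?_)⟩
    rw [frontier_cell F]; exact hy.1
  · rintro x ⟨⟨⟨hx, hxD⟩, hxc⟩, hxi⟩
    have hxf : x ∈ frontier (Kc c) := by
      rw [(hC.cpt c).isClosed.frontier_eq]; exact ⟨hxc, hxi⟩
    refine ⟨th c x, ⟨?_, fun a ha => ?_⟩, hC.li c x hxf⟩
    · rw [← frontier_cell F]; exact hC.thm c x hxf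
    · have h1 := hC.close c x hxf a
      have h2 := hxD a ha
      rw [abs_le] at h1
      linarith [h1.2]

theorem isCompact_Ad {D : Set I} (hD : D.Nonempty) (hθ : θ < 1) :
    IsCompact (Ad Om La P b R f Kc tau η D θ) := by
  refine isCompact_det (isCompact_Az H F hR hD hθ) (finite_cores H F hR hC hD hθ) (fun c _ => ?_)
  refine (isCompact_Nb F c D η).image_of_continuousOn ((hC.cont c).mono fun y hy => ?_)
  rw [frontier_cell F]; exact hy.1

/-- the points of the detour -/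
theorem mem_Ad (h00 : 0 ≤ η0) (h01 : θ + η0 ≤ η) {D : Set I} {x : E}
    (hx : x ∈ Ad Om La P b R f Kc tau η D θ) :
    x ∈ Om ∧ (∀ c, x ∉ interior (Kc c)) ∧ ∀ a ∈ D, va P b R f a x ≤ η + η0 := by
  rcases hx with ⟨⟨h1, h2⟩, h3⟩ | hx
  · refine ⟨h1, fun c hc => h3 (mem_iUnion.2 ⟨c, hc⟩), fun a ha => ?_⟩
    have := h2 a ha
    linarith
  · obtain ⟨c, -, y, ⟨hy1, hy2⟩, rfl⟩ := mem_iUnion₂.1 hx
    have hyf : y ∈ frontier (P c) := by rw [frontier_cell F]; exact hy1
    have hxf : tau c y ∈ frontier (Kc c) := hC.taum c hyf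
    have hxc : tau c y ∈ Kc c := (hC.cpt c).isClosed.frontier_subset hxf
    refine ⟨hC.sub c hxc, fun c' hc' => ?_, fun a ha => ?_⟩
    · by_cases hcc : c = c'
      · subst hcc
        exact hxf.2 hc'
      · exact Set.disjoint_left.1 (hC.disj c c' hcc) hxc (interior_subset hc')
    · have h1 := hC.close c _ hxf a
      rw [hC.ri c y hyf] at h1
      have h2 := hy2 a ha
      rw [abs_le] at h1
      linarith [h1.1, h1.2]

/-- a point of the frontier of a core near `D` lies on the detour -/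
theorem fr_sub_Ad {D : Set I} {c : I} (hc : (Az Om P b R f D θ ∩ Kc c).Nonempty) {x : E}
    (hx : x ∈ frontier (Kc c)) (h : ∀ a ∈ D, va P b R f a x + η0 ≤ η) :
    x ∈ Ad Om La P b R f Kc tau η D θ := by
  refine Or.inr (mem_biUnion (show c ∈ {c | (Az Om P b R f D θ ∩ Kc c).Nonempty} from hc) ?_)
  refine ⟨th c x, ⟨?_, fun a ha => ?_⟩, hC.li c x hx⟩
  · rw [← frontier_cell F]; exact hC.thm c x hx
  · have h1 := hC.close c x hx a
    have h2 := h a ha
    rw [abs_le] at h1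
    linarith [h1.1, h1.2]

/-- a point of `Az D` outside the interiors of the cores lies on the detour -/
theorem Az_sub_Ad {D : Set I} {x : E} (hx : x ∈ Az Om P b R f D θ)
    (h : ∀ c, x ∉ interior (Kc c)) : x ∈ Ad Om La P b R f Kc tau η D θ :=
  Or.inl ⟨hx, fun h' => by
    obtain ⟨c, hc⟩ := mem_iUnion.1 h'
    exact h c hc⟩

end az

end Crest.Agent.R096.Rop_441
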