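import Crest.Agent.R096.Rop3_441
import Crest.Agent.R096.Gk1_422

/-!
# R096 (row 96), ROPES (helper441), part 4: zero ropes and far ropes in the (merged, layered) mesh

`Env`        : the tiles outside the cores in a labelled mesh `L` (any mesh: tiling, merged, layered);
`Deep a v`, `zero_path` : vertices of tiles outside the cores which meet the zero set of `a` (led
               round the cores) are joined by frozen 1-cells without points of `a`;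
`far_path`   : the same for the set `va a = 1`.
-/

set_option autoImplicit false
set_option linter.unusedSectionVars false

open Set Relation

namespace Crest.Agent.R096.Rop_441

open Crest.Agent.R096.Brk1_582 Crest.Agent.R096.Brk2_582 Crest.Agent.R096.Init_543
  Crest.Agent.R096.Vb_965 Crest.Agent.R096.Ce_537 Crest.Agent.R096.St_147 Crest.Agent.R096.Lm_117
  Crest.Agent.R096.Gl_422 Crest.Agent.R096.Seq_213 Crest.Agent.R096.Msh_715

variable {E V : Type} [NormedAddCommGroup E] [NormedSpace ℝ E] [FiniteDimensional ℝ E]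
  [NormedAddCommGroup V] [NormedSpace ℝ V] [FiniteDimensional ℝ V]
variable {I ι : Type} {Om : Set E} {La : Set V} {P : I → Set V} {b : Set I → V}
  {R : V → V} {f : E → V} {g : V → E} {Kc : I → Set E} {T : Tiling Om ι} {Kor : Set ι}

/-- a point outside the interiors of the cores lies on a tile outside the cores -/
theorem exists_out (T : Tiling Om ι) {Kor : Set ι} (hk : ∀ q ∈ Kor, ∃ c, Msh_715.P (T.H q) ⊆ Kc c)
    (hdis : ∀ c c', c ≠ c' → Disjoint (Kc c) (Kc c')) {x : E} (hx : x ∈ Om)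
    (hxi : ∀ c, x ∉ interior (Kc c)) : ∃ q, q ∉ Kor ∧ x ∈ Msh_715.P (T.H q) := by
  by_contra hcon
  push Not at hcon
  have hall : ∀ q, x ∈ Msh_715.P (T.H q) → q ∈ Kor := fun q hq => by
    by_contra h; exact hcon q h hq
  obtain ⟨q0, hq0⟩ := T.cov x hx
  obtain ⟨c0, hc0⟩ := hk q0 (hall q0 hq0)
  have hx0 : x ∈ Kc c0 := hc0 hq0
  obtain ⟨r, hr, hO, hat⟩ := T.exists_ball hx
  apply hxi c0
  refine mem_interior.2 ⟨Metric.ball x r, fun y hy => ?_, Metric.isOpen_ball, Metric.mem_ball_self hr⟩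
  obtain ⟨i, hi⟩ := T.cov y (hO hy)
  have hix : x ∈ Msh_715.P (T.H i) := hat y hy hi
  obtain ⟨c, hc⟩ := hk i (hall i hix)
  by_cases hcc : c = c0
  · rw [← hcc]; exact hc hi
  · exact absurd hx0 (fun h => Set.disjoint_left.1 (hdis c c0 hcc) (hc hix) h)

/-- the tiles outside the cores do not meet the interiors of the cores -/
theorem notMem_int (T : Tiling Om ι) {Jc : I → Set ι}
    (hKc : ∀ c, Kc c ⊆ ⋃ i ∈ Jc c, Msh_715.P (T.H i)) {q : ι} (hq : ∀ c, q ∉ Jc c) {x : E}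
    (hx : x ∈ Msh_715.P (T.H q)) (c : I) : x ∉ interior (Kc c) := by
  intro hxi
  obtain ⟨z, hz⟩ := T.ne q
  -- points of the open tile near `x`
  have hcl : x ∈ closure (Msh_715.I (T.H q)) := by
    rw [mem_closure_iff_nhds]
    intro U hU
    have hc : Continuous fun s : ℝ => x + s • (z - x) := by fun_prop
    have h0 : (fun s : ℝ => x + s • (z - x)) 0 = x := by simp
    have h1 : ∀ᶠ s in nhdsWithin (0 : ℝ) (Ioi 0), x + s • (z - x) ∈ U := by
      refine (hc.continuousAt.tendsto.mono_left nhdsWithin_le_nhds) ?_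
      have h0' : x + (0 : ℝ) • (z - x) = x := h0
      rw [h0']; exact hU
    have h2 : ∀ᶠ s in nhdsWithin (0 : ℝ) (Ioi 0), s ∈ Ioc (0 : ℝ) 1 := Ioc_mem_nhdsGT one_pos
    obtain ⟨s, hs1, hs2⟩ := (h1.and h2).exists
    exact ⟨_, hs1, mem_I_of_move hx hz hs2.1 hs2.2⟩
  obtain ⟨y, hyi, hyI⟩ := mem_closure_iff.1 hcl _ isOpen_interior hxi
  obtain ⟨i, hi, hyi'⟩ := mem_iUnion₂.1 (hKc c (interior_subset hyi))
  have hne : i ≠ q := fun h => hq c (h ▸ hi)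
  exact Set.disjoint_left.1 (disjoint_P_I (T.ne i) (T.dis i q hne)) hyi' hyI

variable {ι' Φ Q Kq J : Type} [PartialOrder Q] {dim : Q → ℕ} {M : MeshC ι' Φ E} {K : Q → Set E}
  {fam : J → I}

/-- **the tiles outside the cores in a labelled mesh** -/
structure Env (T : Tiling Om ι) (P : I → Set V) (b : Set I → V) (R : V → V) (f : E → V)
    (Kor : Set ι) (s : ℝ) (K : Q → Set E) (L : LM M Q dim) (Qd : Quads ι' I Kq) (No : Set ι')
    (ti : ι' → ι) (tc : ι' → Q) : Prop where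
  mid : ∀ q ∈ No, ∀ e, dim e = 1 → e ≤ tc q → ∃ F, e ≤ L.cf F ∧ q ∈ M.side F
  set : ∀ q ∈ No, K (tc q) = Msh_715.P (T.H (ti q))
  no : ∀ q ∈ No, ti q ∉ Kor
  sur : ∀ q, q ∉ Kor → ∃ q' ∈ No, ti q' = q
  act : ∀ q ∈ No, ∀ k, q ∈ Qd.Act k → ∃ k' : QK P, ti q ∈ Act0 T P b R f Kor s k' ∧
    ∀ c, Qd.In k c → c ∈ k'.B

variable {s ε η0 η : ℝ} {L : LM M Q dim} {Qd : Quads ι' I Kq} {No : Set ι'}
  {ti : ι' → ι} {tc : ι' → Q} {s₀ : GSt M fam}

theorem frN_sub (L : LM M Q dim) (Qd : Quads ι' I Kq) (s₀ : GSt M fam) (a : I) :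
    FrN L Qd s₀ a ⊆ Fr0 L Qd s₀ a := fun _ he =>
  ⟨he.1, fun w hw hwa h => he.2 w hw h.2 hwa⟩

/-- **rope in `Env`** -/
theorem Env.rope {Ω : Set E} (X : Cplx Ω Q dim K)
    (hE : Env T P b R f Kor s K L Qd No ti tc)
    (hk : ∀ q ∈ Kor, ∃ c, Msh_715.P (T.H q) ⊆ Kc c)
    (hdis : ∀ c c', c ≠ c' → Disjoint (Kc c) (Kc c')) {A : Set E} (hA : IsCompact A)
    (hAc : IsPreconnected A) (hAo : ∀ x ∈ A, x ∈ Om ∧ ∀ c, x ∉ interior (Kc c)) {a : I}
    (hfr : ∀ q, q ∉ Kor → (Msh_715.P (T.H q) ∩ A).Nonempty → ∀ k : QK P, a ∈ k.B →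
      q ∉ Act0 T P b R f Kor s k)
    (hpt : ∀ q ∈ No, (K (tc q) ∩ A).Nonempty → ∀ w ∈ s₀.P, L.ed w ≤ tc q →
      fam (s₀.lab w) ≠ a)
    {q q' : ι'} {v v' : Q} (hq : q ∈ No) (hqA : (K (tc q) ∩ A).Nonempty) (hv : v ≤ tc q)
    (hv0 : dim v = 0) (hq' : q' ∈ No) (hqA' : (K (tc q') ∩ A).Nonempty) (hv' : v' ≤ tc q')
    (hv0' : dim v' = 0) :
    ReflTransGen (Ed L (Fr0 L Qd s₀ a)) v v' := by
  refine path_mono (frN_sub L Qd s₀ a) (rope_frozen X L hE.mid hA hAc ?_ ?_ hq hqA hv hv0 hq' hqA'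
    hv' hv0')
  · intro x hx
    obtain ⟨h1, h2⟩ := hAo x hx
    obtain ⟨i, hi, hxi⟩ := exists_out T hk hdis h1 h2
    obtain ⟨p, hp, rfl⟩ := hE.sur i hi
    exact mem_biUnion hp (by rw [hE.set p hp]; exact hxi)
  · intro p hp hpA
    refine ⟨fun k hk' hpk => ?_, hpt p hp hpA⟩
    obtain ⟨k', h1, h2⟩ := hE.act p hp k hpk
    rw [hE.set p hp] at hpA
    exact hfr (ti p) (hE.no p hp) hpA k' (h2 a hk') h1

/-- the points of the state on the tiles outside the cores -/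
def LevOn (P : I → Set V) (b : Set I → V) (R : V → V) (f : E → V) (s : ℝ) (K : Q → Set E)
    (L : LM M Q dim) (s₀ : GSt M fam) (No : Set ι') (tc : ι' → Q) : Prop :=
  ∀ w ∈ s₀.P, ∀ q ∈ No, L.ed w ≤ tc q → w ∈ K (tc q) ∧
    s ≤ va P b R f (fam (s₀.lab w)) w ∧ va P b R f (fam (s₀.lab w)) w ≤ 1 - s

/-- vertices near the set `va a ≤ θ` (led round the cores) -/
def Deep (Om : Set E) (La : Set V) (P : I → Set V) (b : Set I → V) (R : V → V) (f : E → V)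
    (Kc : I → Set E) (tau : I → V → E) (η θ : ℝ) (dim : Q → ℕ) (K : Q → Set E) (No : Set ι')
    (tc : ι' → Q) (a : I) (v : Q) : Prop :=
  dim v = 0 ∧ ∃ q ∈ No, v ≤ tc q ∧ (K (tc q) ∩ Ad Om La P b R f Kc tau η {a} θ).Nonempty

section paths

variable {Ω : Set E} (X : Cplx Ω Q dim K)
  (hE : Env T P b R f Kor s K L Qd No ti tc)
  (hk : ∀ q ∈ Kor, ∃ c, Msh_715.P (T.H q) ⊆ Kc c)
  (H : Hm f g Om La) (F : Foam La P b 4) (hR : Ret La P R)
  {th : I → E → V} {tau : I → V → E} (hC : CorT Om P b R f Kc th tau η0)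
  (hM : Mesh0 T P b R f Kor ε)
  (hV : Module.finrank ℝ V = 3) {θ : ℝ} (hθ0 : 0 ≤ θ) (h00 : 0 ≤ η0) (h01 : θ + η0 ≤ η)
  (hε : 0 ≤ ε) (hs : ε + (η + η0) < s) (hs1 : s ≤ 1 / 2)
include X hE hk H F hR hC hM hV hθ0 h00 h01 hε hs hs1

/-- **ZERO ROPE** -/
theorem zero_path {a : I} (hL : LevOn P b R f s K L s₀ No tc) {v v' : Q}
    (hv : Deep Om La P b R f Kc tau η θ dim K No tc a v)
    (hv' : Deep Om La P b R f Kc tau η θ dim K No tc a v') :
    ReflTransGen (Ed L (Fr0 L Qd s₀ a)) v v' := by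
  obtain ⟨h1, q, h2, h4, h5⟩ := hv
  obtain ⟨h1', q', h2', h4', h5'⟩ := hv'
  have hmem : ∀ {x}, x ∈ Ad Om La P b R f Kc tau η {a} θ →
      x ∈ Om ∧ (∀ c, x ∉ interior (Kc c)) ∧ va P b R f a x ≤ η + η0 := fun hx => by
    obtain ⟨m1, m2, m3⟩ := mem_Ad H F hR hC h00 h01 hx
    exact ⟨m1, m2, m3 a rfl⟩
  refine hE.rope X hk hC.disj (isCompact_Ad H F hR hC (singleton_nonempty a) (by linarith))
    (preconn_Ad H F hR hC hV hθ0 h00 h01 (by linarith) (singleton_nonempty a))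
    (fun x hx => ⟨(hmem hx).1, (hmem hx).2.1⟩) ?_ ?_ h2 h5 h4 h1 h2' h5' h4' h1'
  · rintro p hp ⟨x, hxp, hxA⟩ k hak ⟨hpK, x₀, hx₀, k1, k2⟩
    have h := (key H F hR hM (by linarith) (by linarith) hp hx₀ hxp k1 k2).1 a hak
    have := (hmem hxA).2.2
    linarith [h.1]
  · rintro p hp ⟨x, hxp, hxA⟩ w hw hwp hwa
    obtain ⟨w1, w2, -⟩ := hL w hw p hp hwp
    rw [hwa] at w2
    rw [hE.set p hp] at hxp w1
    have h := abs_le.1 (hM.osc (ti p) (hE.no p hp) w w1 x hxp a)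
    have := (hmem hxA).2.2
    linarith [h.2]

/-- **FAR ROPE** -/
theorem far_path {a : I} (hLa : IsPreconnected La)
    (hS : ∀ c, c ≠ a → IsPreconnected (Lset La P b c 0 \ P a))
    (hL : LevOn P b R f s K L s₀ No tc) {x x' : E} (hx : x ∈ Om)
    (hx1 : 1 - θ ≤ va P b R f a x) (hx' : x' ∈ Om) (hx1' : 1 - θ ≤ va P b R f a x')
    (hxi' : ∀ c, x' ∉ interior (Kc c))
    {q q' : ι'} {v v' : Q} (hq : q ∈ No) (hv : v ≤ tc q) (hv0 : dim v = 0)
    (hqx : ((∀ c, x ∉ interior (Kc c)) ∧ x ∈ K (tc q)) ∨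
      ∃ c, x ∈ Kc c ∧ ∃ z ∈ frontier (Kc c), 1 - η + η0 ≤ va P b R f a z ∧ z ∈ K (tc q))
    (hq' : q' ∈ No) (hv' : v' ≤ tc q') (hv0' : dim v' = 0) (hqx' : x' ∈ K (tc q')) :
    ReflTransGen (Ed L (Fr0 L Qd s₀ a)) v v' := by
  obtain ⟨A, hA, hAc, hxA, hzA, hxA', hmem⟩ := exists_Af H F hR hC hV hθ0 h00 h01 (by linarith)
    hLa hS hx hx1 hx' hx1' hxi'
  refine hE.rope X hk hC.disj hA hAc (fun x hx => ⟨(hmem x hx).1, (hmem x hx).2.1⟩) ?_ ?_ hq ?_ hv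
    hv0 hq' ⟨x', hqx', hxA'⟩ hv' hv0'
  · rintro p hp ⟨x, hxp, hxA⟩ k hak ⟨hpK, x₀, hx₀, k1, k2⟩
    have h := (key H F hR hM (by linarith) (by linarith) hp hx₀ hxp k1 k2).1 a hak
    have := (hmem x hxA).2.2
    linarith [h.2]
  · rintro p hp ⟨x, hxp, hxA⟩ w hw hwp hwa
    obtain ⟨w1, -, w2⟩ := hL w hw p hp hwp
    rw [hwa] at w2
    rw [hE.set p hp] at hxp w1
    have h := abs_le.1 (hM.osc (ti p) (hE.no p hp) w w1 x hxp a)
    have := (hmem x hxA).2.2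
    linarith [h.1]
  · rcases hqx with ⟨h1, h2⟩ | ⟨c, h1, z, h2, h4, h5⟩
    · exact ⟨x, h2, hxA h1⟩
    · exact ⟨z, h5, hzA c h1 z h2 h4⟩

end paths

/-! ### who is deep -/

section deep

variable (H : Hm f g Om La) (F : Foam La P b 4) (hR : Ret La P R)
  {th : I → E → V} {tau : I → V → E} (hC : CorT Om P b R f Kc th tau η0)
include H F hR hC

/-- a vertex of a tile outside the cores which meets the set `va a ≤ θ` -/
theorem deep_of_zero {θ : ℝ} {a : I} {q : ι'} {v : Q} (hq : q ∈ No) (hv : v ≤ tc q)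
    (hv0 : dim v = 0) {x : E} (hx : x ∈ K (tc q)) (hxO : x ∈ Om) (hxi : ∀ c, x ∉ interior (Kc c))
    (hx0 : va P b R f a x ≤ θ) : Deep Om La P b R f Kc tau η θ dim K No tc a v :=
  ⟨hv0, q, hq, hv, x, hx, Az_sub_Ad H F hR hC ⟨hxO, fun e he => by
    rw [show e = a from he]; exact hx0⟩ hxi⟩

/-- a vertex of a tile outside the cores at a point of the frontier of a core which meets the set
`va a ≤ θ` -/
theorem deep_of_core {θ : ℝ} {a c : I} {q : ι'} {v : Q} (hq : q ∈ No) (hv : v ≤ tc q)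
    (hv0 : dim v = 0) {x : E} (hxO : x ∈ Om) (hx0 : va P b R f a x ≤ θ) (hxc : x ∈ Kc c) {z : E}
    (hz : z ∈ frontier (Kc c)) (hzq : z ∈ K (tc q)) (h : va P b R f a z + η0 ≤ η) :
    Deep Om La P b R f Kc tau η θ dim K No tc a v :=
  ⟨hv0, q, hq, hv, z, hzq, fr_sub_Ad H F hR hC ⟨x, ⟨hxO, fun e he => by
    rw [show e = a from he]; exact hx0⟩, hxc⟩ hz fun e he => by
      rw [show e = a from he]; exact h⟩

end deep

end Crest.Agent.R096.Rop_441
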