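import Crest.Agent.R096.Rop5_441
import Crest.Agent.R096.Gia4_537
import Crest.Agent.R096.Hlf1_847
import Crest.Agent.R096.Exa6_560
import Crest.Agent.R096.Init11_543

/-!
# R096 (row 96), ROPES (helper441), part 6: the cores of the machine data as topological cores

`thC`, `tauC` : the boundary homeomorphism of every core (exact or tiny) and its inverse;
`η0F`         : the closeness of `thC` and the levels;
`corT`        : **`CorT` from `Mbf_337.Cores`**.
-/

set_option autoImplicit false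
set_option linter.unusedSectionVars false

open Set Relation

namespace Crest.Agent.R096.Rop_441

open Crest.Agent.R096.Brk1_582 Crest.Agent.R096.Brk2_582 Crest.Agent.R096.Brk3_582
  Crest.Agent.R096.Brk5_582 Crest.Agent.R096.Bsp_628 Crest.Agent.R096.Init_543
  Crest.Agent.R096.Vb_965 Crest.Agent.R096.Msh_715
open Crest.Agent.R096.SkC1_961 (E3 Hom3 FoamD th)
open Crest.Agent.R096.Mbf_337 (KJ sb)
open Crest.Agent.R096.Gia_537 (Kc thi th_thi thi_th Kc_sub Kc_compact Kc_disj Kc_exact)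
open Crest.Agent.R096.Exa_560 (Cn Cn_nonneg tiny_near)
open Crest.Agent.R096.Ce_537 (PLEquiv)

variable {δ κ0 R c0 : ℝ} {La Om : Set E3} {ι : Type} {Φ : FoamD δ κ0 R c0 La}
  {T : Tiling Om ι} {f g : E3 → E3} {κ1 κ2 : ℝ} {X : Set Φ.F} {J0 J V : Φ.F → Set ι} {ct : Φ.F → ι}
  {A : Φ.F → E3 ≃ᵃ[ℝ] E3} {lam : Φ.F → ℝ} {z : Φ.F → E3} {θ : Φ.F → E3 → E3} {φ : Φ.F → E3 → ℝ}
  {ct' : Φ.F → ι} {r₀ : Φ.F → ℝ}

open Classical in
/-- the boundary homeomorphism of the core `c` -/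
noncomputable def thC (X : Set Φ.F) (A : Φ.F → E3 ≃ᵃ[ℝ] E3) (lam : Φ.F → ℝ) (z : Φ.F → E3)
    (θ : Φ.F → E3 → E3) (c : Φ.F) : E3 → E3 :=
  if c ∈ X then th (A c) (lam c) (z c) else θ c

theorem thC_exact {c : Φ.F} (hc : c ∈ X) : thC X A lam z θ c = th (A c) (lam c) (z c) := if_pos hc

theorem thC_tiny {c : Φ.F} (hc : c ∉ X) : thC X A lam z θ c = θ c := if_neg hc

/-- the closeness of the boundary homeomorphisms and the levels -/
noncomputable def η0F (δ κ0 R c0 κ2 κ1 : ℝ) : ℝ :=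
  Cs 3 δ R * (54 * κ0 / (c0 ^ 2 * κ2) * κ1) + Cn δ R * κ1

theorem η0F_nonneg (hδ : 0 < δ) (hR : 0 < R) (hκ0 : 0 ≤ κ0) (hκ1 : 0 ≤ κ1) (hκ2 : 0 ≤ κ2) :
    0 ≤ η0F δ κ0 R c0 κ2 κ1 := by
  have h1 := Cs_nonneg (n := 3) hδ hR
  have h2 := Cn_nonneg hδ hR
  unfold η0F
  positivity

/-- the exact map on the frontiers -/
theorem fr_exact {c : Φ.F} {i : ι} {A : E3 ≃ᵃ[ℝ] E3} {lam : ℝ} {z : E3}
    (hE : Mbf_337.Exact Φ T f κ1 κ2 c i A lam z) {x : E3} :
    x ∈ frontier (P (T.H i)) ↔ th A lam z x ∈ frontier (Pc Φ.F c) := by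
  obtain ⟨B, h1, h2⟩ := Gia_537.exists_B A hE.lam0 z
  have h3 : P (T.H i) = B ⁻¹' (Pc Φ.F c) := by
    ext x
    rw [mem_preimage, h1]
    exact Ecm_446.th_mem hE
  rw [h3]
  have h4 : frontier (B ⁻¹' (Pc Φ.F c)) = B ⁻¹' (frontier (Pc Φ.F c)) :=
    (B.toContinuousAffineEquiv.toHomeomorph.preimage_frontier (Pc Φ.F c)).symm
  rw [h4, mem_preimage, h1]

theorem continuous_thi (A : E3 ≃ᵃ[ℝ] E3) {lam : ℝ} (hl : 0 < lam) (z : E3) :
    Continuous (thi A lam z) := by
  obtain ⟨B, h1, h2⟩ := Gia_537.exists_B A hl z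
  have e : thi A lam z = B.symm := (funext h2).symm
  rw [e]
  exact B.symm.continuous_of_finiteDimensional

open Classical in
/-- the inverse of the boundary homeomorphism -/
noncomputable def tauC (hC : Mbf_337.Cores Φ T f κ1 κ2 X J0 J V ct A lam z θ φ) (c : Φ.F) : E3 → E3 :=
  if hc : c ∈ X then thi (A c) (lam c) (z c) else (Classical.choose (hC.tiny c hc).bij).g

theorem notMem_hole (hLa : IsOpen La) (hC : Mbf_337.Cores Φ T f κ1 κ2 X J0 J V ct A lam z θ φ)
    (hR : InitR Φ T f g J0 ct' r₀) {c : Φ.F} {x : E3} (hx : x ∈ frontier (Kc T J c)) (c' : Φ.F) :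
    x ∉ I (T.H (ct' c')) := by
  intro h
  have hsub : I (T.H (ct' c')) ⊆ Kc T J c' := fun y hy =>
    Nr_527.mem_KJ.2 ⟨_, Nr_527.J0_sub hC c' (hR.ct c'), I_sub_P _ hy⟩
  by_cases he : c = c'
  · subst he
    exact hx.2 (interior_maximal hsub (isOpen_I _) h)
  · exact disjoint_left.1 (Kc_disj hLa hC he) ((Kc_compact hC c).isClosed.frontier_subset hx)
      (hsub h)

/-- **the cores of the machine data** -/
theorem corT (hLa : IsOpen La) (hδ : 0 < δ) (hR0 : 0 < R) (hκ0 : 0 ≤ κ0) (hκ1 : 0 ≤ κ1)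
    (hκ2 : 0 < κ2) (hκ : 2 * κ0 * κ1 ≤ κ2) (hκn : Cn δ R * κ1 < 1)
    (hC : Mbf_337.Cores Φ T f κ1 κ2 X J0 J V ct A lam z θ φ) (hR : InitR Φ T f g J0 ct' r₀) :
    CorT Om (Pc Φ.F) (bc (F := Φ.F)) (RF Φ r₀) f (Kc T J) (thC X A lam z θ) (tauC hC)
      (η0F δ κ0 R c0 κ2 κ1) where
  cpt := fun c => Kc_compact hC c
  sub := fun c => Kc_sub c
  disj := fun c c' h => Kc_disj hLa hC h
  cell := fun c x hx => by
    have h := Nr_527.V_inside hC (Gia_537.KJ_mono (Nr_527.J_sub hC c) hx)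
    exact Bx.mem_set.2 fun k => ⟨(h k).1.le, (h k).2.le⟩
  thm := fun c x hx => by
    by_cases hc : c ∈ X
    · rw [Kc_exact hC hc] at hx
      rw [thC_exact hc]
      exact (fr_exact (hC.exact_ c hc)).1 hx
    · rw [thC_tiny hc]
      exact Exa_560.th_mem (hC.tiny c hc) hx
  taum := fun c y hy => by
    by_cases hc : c ∈ X
    · rw [tauC, dif_pos hc, Kc_exact hC hc]
      have h := (fr_exact (hC.exact_ c hc) (x := thi (A c) (lam c) (z c) y)).2
      rw [th_thi (hC.exact_ c hc).lam0] at h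
      exact h hy
    · rw [tauC, dif_neg hc]
      exact (Classical.choose (hC.tiny c hc).bij).mg hy
  li := fun c x hx => by
    by_cases hc : c ∈ X
    · rw [tauC, dif_pos hc, thC_exact hc]
      exact thi_th (hC.exact_ c hc).lam0 x
    · rw [tauC, dif_neg hc, thC_tiny hc, ← Classical.choose_spec (hC.tiny c hc).bij x hx]
      exact (Classical.choose (hC.tiny c hc).bij).li x hx
  ri := fun c y hy => by
    by_cases hc : c ∈ X
    · rw [tauC, dif_pos hc, thC_exact hc]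
      exact th_thi (hC.exact_ c hc).lam0 y
    · have h1 := (Classical.choose (hC.tiny c hc).bij).mg hy
      rw [tauC, dif_neg hc, thC_tiny hc, ← Classical.choose_spec (hC.tiny c hc).bij _ h1]
      exact (Classical.choose (hC.tiny c hc).bij).ri y hy
  cont := fun c => by
    by_cases hc : c ∈ X
    · have e : tauC hC c = thi (A c) (lam c) (z c) := by rw [tauC, dif_pos hc]
      rw [e]
      exact (continuous_thi _ (hC.exact_ c hc).lam0 _).continuousOn
    · have e : tauC hC c = (Classical.choose (hC.tiny c hc).bij).g := by rw [tauC, dif_neg hc]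
      rw [e]
      exact (Classical.choose (hC.tiny c hc).bij).pg.1
  close := fun c x hx a => by
    have hxK : x ∈ Kc T J c := (Kc_compact hC c).isClosed.frontier_subset hx
    have hxO : x ∈ Om := Kc_sub c hxK
    have hv : va (Pc Φ.F) (bc (F := Φ.F)) (RF Φ r₀) f a x = Φ.lev a (f x) :=
      hR.v_eq Φ hLa hxO (fun c' => notMem_hole hLa hC hR hx c') a
    rw [hv]
    have h1 := Cs_nonneg (n := 3) hδ hR0
    have h2 := Cn_nonneg hδ hR0
    have h3 : 0 ≤ Cn δ R * κ1 := by positivity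
    have h4 : 0 ≤ Cs 3 δ R * (54 * κ0 / (c0 ^ 2 * κ2) * κ1) := by positivity
    by_cases hc : c ∈ X
    · rw [thC_exact hc]
      rw [Kc_exact hC hc] at hx hxK
      have hxI : x ∉ I (T.H (ct c)) := fun h =>
        hx.2 (interior_maximal (I_sub_P _) (isOpen_I _) h)
      have h5 := Hlf_847.close_lev (hC.exact_ c hc) hLa hδ hR0 hκ1 hκ2 hκ hxK hxI a
      rw [abs_sub_comm]
      exact h5.trans (by unfold η0F; linarith)
    · rw [thC_tiny hc]
      have h5 := tiny_near hLa hδ hR0 hκn (hC.tiny c hc) hx a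
      exact h5.trans (by unfold η0F; linarith)

end Crest.Agent.R096.Rop_441
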