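import Crest.Agent.R096.SkMv2_362
import Crest.Agent.R096.Be8_416
import Crest.Agent.R096.Cin3_181

/-!
# R096 (row 96), BOTTOM, vertical slice `X = univ` (helper362, hot spare of SkM_337), part 3

`disc_x` : 446's `Disc` for every exact core over `Lx` (open: `hpath` = ropes to the core, `hl` =
labels at the vertices of the core).
-/

set_option autoImplicit false
set_option linter.style.longLine false
set_option linter.unusedSectionVars false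

open Set Topology Filter Relation MeasureTheory

namespace Crest.Agent.R096.SkMv_362

open Crest.Agent.R096.Coh_184 Crest.Agent.R096.Brk1_582 Crest.Agent.R096.Brk2_582
  Crest.Agent.R096.Brk3_582 Crest.Agent.R096.Brk5_582 Crest.Agent.R096.Bsp_628
  Crest.Agent.R096.Lab_184 Crest.Agent.R096.Main_4 Crest.Agent.R096.Msh_715
  Crest.Agent.R096.Agl4_543 Crest.Agent.R096.Agl5_543 Crest.Agent.R096.Agl6_543
  Crest.Agent.R096.Ginv_543 Crest.Agent.R096.Seq_213 Crest.Agent.R096.Seq_213.GSt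
  Crest.Agent.R096.St_147 Crest.Agent.R96.Push_899
  Crest.Agent.R096.Init_543 Crest.Agent.R096.Leaf_965 Crest.Agent.R096.SkB_662
  Crest.Agent.R096.Lm_117 Crest.Agent.R096.Ac_117 Crest.Agent.R096.Gl_422
  Crest.Agent.R096.Cp_298 Crest.Agent.R096.Ori_543 Crest.Agent.R096.Bd_416 Crest.Agent.R096.Mg_441
  Crest.Agent.R096.Cpo_642 Crest.Agent.R096.Csub_487 Crest.Agent.R096.Ce_537
  Crest.Agent.R096.Ecm_446

open Crest.Agent.R096.SkC1_961 (E3 Hom3 IsPush FoamD Cfg th NN)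
open Crest.Agent.R096.Fin_147 (Xout)

section mesh

variable {Om : Set E3} {ι α : Type} {T : Tiling Om ι} [Nonempty T.Cell] {ct : α → ι}

theorem onT_x : OnT T (Lx T ct).toSk (fun c : Qx T ct => c.1) :=
  onT_sub (onT_skT T) (notTile T ct) (px_down T ct) (px_ne T ct)

theorem full_x (i : ι) : Full T i (fun c : Qx T ct => c.1) where
  sur := fun c hc => ⟨⟨c, px_two T ct c hc.2⟩, rfl⟩
  inj := fun _ _ h => Subtype.ext h

/-- the 1-cells of a tile which is active in no quad of the family are frozen -/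
theorem frE_x {C K : Type} {Qd : Quads ι C K} {c : C} {i : ι} (h : ∀ k, Qd.In k c → i ∉ Qd.Act k)
    {e : Qx T ct} (he : e ∈ Dk i (fun c : Qx T ct => c.1)) (h1 : e.1.dim = 1) :
    FrE (Lx T ct) Qd c e :=
  frE_sb.2 (frE_T fr3 h1 fun k hk => ⟨i, he.1, h k hk⟩)

end mesh

section slice

variable {δ κ0 R c0 : ℝ} {La Om : Set E3} {ι : Type} {Φ : FoamD δ κ0 R c0 La}
  {T : Tiling Om ι} {f g : E3 → E3} [Nonempty T.Cell] {J0 : Φ.F → Set ι} {ct' : Φ.F → ι}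
  {r₀ : Φ.F → ℝ} {κ1 s₁ : ℝ} {hLa : IsOpen La} {hR : InitR Φ T f g J0 ct' r₀}
  {hM : Mesh0 T (Pc Φ.F) (bc (F := Φ.F)) (RF Φ r₀) f (KorJ Φ J0) κ1} {h1 : κ1 < s₁}
  {h2 : κ1 < 1} {ct : Φ.F → ι} {κ : Φ.F → ℕ} {L : Φ.F → Finset ℝ} [Nonempty (JJ Φ L)]
  {hG : GF Φ r₀ T f L} {D : Φ.F → Set E3} {bp : JJ Φ L → E3} {lam₀ : JJ Φ L → E3 → ZMod 2}
  {v₀ v₁ : Φ.F → E3} {far₀ : JJ Φ L → Set E3} {kap : Φ.F → ℕ}
  {s : GSt (meshC T fr3) (fam' (fun j : JJ Φ L => j.1) (Rk κ kap))}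
  {far : Nm' (fun j : JJ Φ L => j.1) (Rk κ kap) → Set E3} {β : E3 → E3}
  {lam : Nm' (fun j : JJ Φ L => j.1) (Rk κ kap) → Qx T ct → ZMod 2}

/-- the core tiles are active in no quad -/
theorem ct_act {X : Set Φ.F} {κ2 : ℝ} {J V : Φ.F → Set ι}
    {A : Φ.F → E3 ≃ᵃ[ℝ] E3} {lm : Φ.F → ℝ} {z : Φ.F → E3} {θ : Φ.F → E3 → E3}
    {φ : Φ.F → E3 → ℝ} (hC : Mbf_337.Cores Φ T f κ1 κ2 X J0 J V ct A lm z θ φ) {c : Φ.F}
    (hc : c ∈ X) (k : QK (Pc Φ.F)) : ct c ∉ (qdF hLa hR hM h1 h2).Act k := by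
  intro h
  refine h.1 ⟨c, ?_⟩
  rw [(hC.one c hc).1]
  rfl

/-- **446's `Disc` for the exact core `c`** -/
theorem disc_x {X : Set Φ.F} {κ2 : ℝ} {J V : Φ.F → Set ι}
    {A : Φ.F → E3 ≃ᵃ[ℝ] E3} {lm : Φ.F → ℝ} {z : Φ.F → E3} {θ : Φ.F → E3 → E3}
    {φ : Φ.F → E3 → ℝ} {M : Φ.F → ℕ}
    (hC : Mbf_337.Cores Φ T f κ1 κ2 X J0 J V ct A lm z θ φ)
    (hW : Mbf_337.Words Φ T f X ct A lm z M L)
    (hi : StIx hLa hR hM h1 h2 ct κ hG D bp lam₀ v₀ v₁ far₀)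
    (h : StOx hLa hR hM h1 h2 ct κ hG D bp lam₀ v₀ v₁ far₀ kap s far β lam) {c : Φ.F} (hc : c ∈ X)
    (hpath : ∀ a : Φ.F, (∃ j : JJ Φ L, j.1 = a) → (∃ v ∈ Dk (ct c) (fun c : Qx T ct => c.1),
      v.1.dim = 0 ∧ ReflTransGen (Ed (Lx T ct) {e | FrE (Lx T ct) (qdF hLa hR hM h1 h2) a e})
        (sv (notTile T ct) (px_ne T ct) (edC T (v₀ a))) v) ∨
      ∀ v ∈ Dk (ct c) (fun c : Qx T ct => c.1), v.1.dim = 0 →
        v.1 ∈ ZT T (D a) ∧ ∀ j : JJ Φ L, j.1 = a → lam₀ j v.1.pt = 0)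
    (hl : ∀ v ∈ Dk (ct c) (fun c : Qx T ct => c.1), v.1.dim = 0 → ∀ j : JJ Φ L,
      lam₀ j v.1.pt = 1 ↔ Φ.lev j.1 (f v.1.pt) < j.2.1) :
    Disc h.cmb (Dk (ct c) (fun c : Qx T ct => c.1)) (nr (Lx T ct) s lam h.fin1)
      (NN (fun j : JJ Φ L => j.1) κ kap (fun j => M c * j.2.1))
      (lo (U Φ (A c) (lm c) (z c) (M c)) (fun c : Qx T ct => c.1))
      (Ecm_446.hi (U Φ (A c) (lm c) (z c) (M c)) (fun c : Qx T ct => c.1)) := by
  have hE := hC.exact_ c hc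
  have hg := grid_of_words hW hc
  refine sto_disc (X := fun j : JJ Φ L => {y | Φ.lev j.1 (f y) = j.2.1})
    (V := fun j : JJ Φ L => {y | Φ.lev j.1 (f y) < j.2.1}) hi h onT_x (full_x (ct c))
    (cg_of_grid hLa hE hg) (cw_of_words hW hc hg.1 fun j => j.2.2) ?_ ?_ hpath hl
  · intro w hw _
    exact (st0_mem hLa hR hw).2.2
  · intro e he he1 a
    exact frE_x (fun k _ => ct_act hC hc k) he he1

end slice

end Crest.Agent.R096.SkMv_362
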