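import Crest.Agent.R096.Rop6_441
import Crest.Agent.R096.Kin2_527
import Crest.Agent.R096.Onb1_63
import Crest.Agent.R096.SkMv3_362

/-!
# R096 (row 96), ROPES (helper441), part 7: the slice `X = univ`

`env_x`, `levOn_x`, `deep_x`, `far_x` : 441's `Env`, `LevOn`, `Deep` for 362's labelled mesh `Lx`;
**`meshExA_x`** : (K4) for all cells of `Lx`;
**`hpath_x`**   : a frozen path from `v₀ a` to a vertex of every exact core tile (446's `hpath`).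
-/

set_option autoImplicit false
set_option linter.unusedSectionVars false

open Set Relation Module

namespace Crest.Agent.R096.Rop_441

open Crest.Agent.R096.Brk1_582 Crest.Agent.R096.Brk2_582 Crest.Agent.R096.Brk3_582
  Crest.Agent.R096.Brk5_582 Crest.Agent.R096.Bsp_628 Crest.Agent.R096.Init_543
  Crest.Agent.R096.Vb_965 Crest.Agent.R096.Msh_715 Crest.Agent.R096.St_147
  Crest.Agent.R096.Seq_213 Crest.Agent.R096.Lm_117 Crest.Agent.R096.Gl_422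
  Crest.Agent.R096.SkB_662 Crest.Agent.R096.SkMv_362 Crest.Agent.R096.Cpo_642
  Crest.Agent.R096.Ce_537 Crest.Agent.R096.Agl5_543 Crest.Agent.R096.Ecm_446
  Crest.Agent.R096.Cp_298 Crest.Agent.R096.Kin_527 Crest.Agent.R096.Ac_117
open Crest.Agent.R096.SkC1_961 (E3 Hom3 FoamD)
open Crest.Agent.R096.Mbf_337 (KJ sb)
open Crest.Agent.R096.Gia_537 (Kc Kc_sub Kc_compact Kc_disj Kc_exact)
open Crest.Agent.R096.Exa_560 (Cn Cn_nonneg)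

section gen

variable {δ κ0 R c0 : ℝ} {La Om : Set E3} {ι : Type} {Φ : FoamD δ κ0 R c0 La}
  {T : Tiling Om ι} {f g : E3 → E3} {κ1 κ2 : ℝ} {X : Set Φ.F} {J0 J V : Φ.F → Set ι} {ct : Φ.F → ι}
  {A : Φ.F → E3 ≃ᵃ[ℝ] E3} {lam : Φ.F → ℝ} {z : Φ.F → E3} {θ : Φ.F → E3 → E3} {φ : Φ.F → E3 → ℝ}
  {ct' : Φ.F → ι} {r₀ : Φ.F → ℝ}

theorem RF_Psi (hLa : IsOpen La) (hR : InitR Φ T f g J0 ct' r₀) {x : E3} (hx : x ∈ Om)
    (hxI : ∀ c, x ∉ I (T.H (ct' c))) : RF Φ r₀ (f x) = Φ.Psi (f x) := by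
  obtain ⟨c, hc⟩ := (foam4 Φ hLa).cov (f x) (hR.hm.fm hx)
  exact (RF_eq Φ hLa hR.pos hR.le_one hc (hR.out c x hx hc (hxI c))).1

theorem notMem_hole' (hR : InitR Φ T f g J0 ct' r₀) {q : ι} (hq : q ∉ KorJ Φ J0) {x : E3}
    (hx : x ∈ P (T.H q)) (c : Φ.F) : x ∉ I (T.H (ct' c)) :=
  not_mem_I (fun e => hq ⟨c, by rw [e]; exact hR.ct c⟩) hx

theorem korJ_mono (hC : Mbf_337.Cores Φ T f κ1 κ2 X J0 J V ct A lam z θ φ) :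
    KorJ Φ J0 ⊆ KorJ Φ J := by
  rintro q ⟨c, hc⟩
  exact ⟨c, Nr_527.J0_sub hC c hc⟩

theorem kor_sub : ∀ q ∈ KorJ Φ J, ∃ c, P (T.H q) ⊆ Kc T J c := by
  rintro q ⟨c, hc⟩
  exact ⟨c, fun x hx => Nr_527.mem_KJ.2 ⟨q, hc, hx⟩⟩

theorem kor_sub0 (hC : Mbf_337.Cores Φ T f κ1 κ2 X J0 J V ct A lam z θ φ) :
    ∀ q ∈ KorJ Φ J0, ∃ c, P (T.H q) ⊆ Kc T J c := fun q hq => kor_sub q (korJ_mono hC hq)

theorem int_J {q : ι} (hq : q ∉ KorJ Φ J) {x : E3} (hx : x ∈ P (T.H q)) (c : Φ.F) :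
    x ∉ interior (Kc T J c) := Nr_527.not_mem_interior_KJ (fun h => hq ⟨c, h⟩) hx

/-- the threshold of the ropes -/
noncomputable def θN (δ κ0 R c0 κ2 κ1 : ℝ) : ℝ := κ1 + η0F δ κ0 R c0 κ2 κ1

/-- the width of the ropes -/
noncomputable def ηN (δ κ0 R c0 κ2 κ1 : ℝ) : ℝ :=
  θN δ κ0 R c0 κ2 κ1 + η0F δ κ0 R c0 κ2 κ1

/-- **the numbers of the ropes**: `s₁` = threshold of the active tiles (`s₁ ≤ μ`, `μ` the margin of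
the levels) -/
structure Num (δ κ0 R c0 κ2 κ1 s₁ : ℝ) : Prop where
  hδ : 0 < δ
  hR : 0 < R
  hκ0 : 0 ≤ κ0
  hκ1 : 0 ≤ κ1
  hκ2 : 0 < κ2
  hκ : 2 * κ0 * κ1 ≤ κ2
  hκn : Cn δ R * κ1 < 1
  hs : κ1 + (ηN δ κ0 R c0 κ2 κ1 + η0F δ κ0 R c0 κ2 κ1) < s₁
  hs1 : s₁ ≤ 1 / 2

theorem Num.h00 {s₁ : ℝ} (h : Num δ κ0 R c0 κ2 κ1 s₁) : 0 ≤ η0F δ κ0 R c0 κ2 κ1 :=
  η0F_nonneg h.hδ h.hR h.hκ0 h.hκ1 h.hκ2.le

theorem Num.hθ {s₁ : ℝ} (h : Num δ κ0 R c0 κ2 κ1 s₁) : 0 ≤ θN δ κ0 R c0 κ2 κ1 :=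
  add_nonneg h.hκ1 h.h00

/-- `κ1` exists for given `s₁` -/
theorem exists_num {s₁ : ℝ} (hδ : 0 < δ) (hκ0 : 0 ≤ κ0) (hR : 0 < R) (hκ2 : 0 < κ2)
    (hs : 0 < s₁) (hs1 : s₁ ≤ 1 / 2) :
    ∃ κ : ℝ, 0 < κ ∧ ∀ κ1, 0 ≤ κ1 → κ1 ≤ κ → Num δ κ0 R c0 κ2 κ1 s₁ := by
  set C := Cs 3 δ R * (54 * κ0 / (c0 ^ 2 * κ2)) + Cn δ R with hC
  have hC0 : 0 ≤ C := by
    have h1 := Cs_nonneg (n := 3) hδ hR
    have h2 := Cn_nonneg hδ hR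
    positivity
  have hCn := Cn_nonneg hδ hR
  refine ⟨min (κ2 / (2 * κ0 + 1)) (min (1 / (Cn δ R + 2)) (s₁ / (2 * (2 + 3 * C)))), by positivity,
    fun κ1 h0 h1 => ?_⟩
  have a1 : κ1 ≤ κ2 / (2 * κ0 + 1) := h1.trans (min_le_left _ _)
  have a2 : κ1 ≤ 1 / (Cn δ R + 2) := h1.trans ((min_le_right _ _).trans (min_le_left _ _))
  have a3 : κ1 ≤ s₁ / (2 * (2 + 3 * C)) := h1.trans ((min_le_right _ _).trans (min_le_right _ _))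
  have e : η0F δ κ0 R c0 κ2 κ1 = C * κ1 := by
    rw [hC]; unfold η0F; ring
  refine ⟨hδ, hR, hκ0, h0, hκ2, ?_, ?_, ?_, hs1⟩
  · rw [le_div_iff₀ (by positivity)] at a1
    nlinarith
  · rw [le_div_iff₀ (by positivity)] at a2
    nlinarith
  · rw [le_div_iff₀ (by positivity)] at a3
    unfold ηN θN
    rw [e]
    nlinarith

end gen

section slice

variable {δ κ0 R c0 : ℝ} {La Om : Set E3} {ι : Type} {Φ : FoamD δ κ0 R c0 La}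
  {T : Tiling Om ι} {f g : E3 → E3} [Nonempty T.Cell] {J0 : Φ.F → Set ι} {ct' : Φ.F → ι}
  {r₀ : Φ.F → ℝ} {κ1 s₁ : ℝ} {hLa : IsOpen La} {hR : InitR Φ T f g J0 ct' r₀}
  {hM : Mesh0 T (Pc Φ.F) (bc (F := Φ.F)) (RF Φ r₀) f (KorJ Φ J0) κ1} {h1 : κ1 < s₁}
  {h2 : κ1 < 1} {ct : Φ.F → ι} {κ : Φ.F → ℕ} {L : Φ.F → Finset ℝ} [Nonempty (JJ Φ L)]
  {hG : GF Φ r₀ T f L} {D : Φ.F → Set E3} {bp : JJ Φ L → E3} {lam₀ : JJ Φ L → E3 → ZMod 2}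
  {v₀ v₁ : Φ.F → E3} {far₀ : JJ Φ L → Set E3} {kap : Φ.F → ℕ}
  {s : GSt (meshC T fr3) (fam' (fun j : JJ Φ L => j.1) (Rk κ kap))}
  {far : Nm' (fun j : JJ Φ L => j.1) (Rk κ kap) → Set E3} {β : E3 → E3}
  {lam : Nm' (fun j : JJ Φ L => j.1) (Rk κ kap) → Qx T ct → ZMod 2}
  {κ2 : ℝ} {J V : Φ.F → Set ι} {A : Φ.F → E3 ≃ᵃ[ℝ] E3} {lm : Φ.F → ℝ} {z : Φ.F → E3}
  {θ : Φ.F → E3 → E3} {φ : Φ.F → E3 → ℝ}

open Classical in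
/-- the 3-cell of a tile in `Lx` -/
noncomputable def tcx (T : Tiling Om ι) [Nonempty T.Cell] (ct : Φ.F → ι) (i : ι) : Qx T ct :=
  if h : notTile T ct (tcell T i) then ⟨tcell T i, h⟩ else ⟨(px_ne T ct).choose, (px_ne T ct).choose_spec⟩

theorem tcx_eq {i : ι} (hi : ∀ a : Φ.F, ct a ≠ i) : (tcx T ct i).1 = tcell T i := by
  have h : notTile T ct (tcell T i) := by
    intro a e
    rw [tcell_set] at e
    obtain ⟨y, hy⟩ := T.ne i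
    have h4 := T.at_eq_singleton hy
    have h5 : ct a ∈ T.at_ y := by
      show y ∈ P (T.H (ct a))
      rw [← e]; exact I_sub_P _ hy
    rw [h4] at h5
    exact hi a h5
  unfold tcx
  rw [dif_pos h]

theorem ne_of_notKor (hct : ∀ a, ct a ∈ KorJ Φ J0) {i : ι} (hi : i ∉ KorJ Φ J0) (a : Φ.F) :
    ct a ≠ i := fun h => hi (h ▸ hct a)

theorem env_x (hct : ∀ a, ct a ∈ KorJ Φ J0) :
    Env T (Pc Φ.F) (bc (F := Φ.F)) (RF Φ r₀) f (KorJ Φ J0) s₁ (fun c : Qx T ct => c.1.set)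
      (Lx T ct) (qdF hLa hR hM h1 h2) (KorJ Φ J0)ᶜ id (tcx T ct) where
  mid := by
    intro q hq e he heq
    have h3 : e.1.set ⊆ P (T.H q) := by
      have h4 : e.1 ≤ (tcx T ct q).1 := heq
      rw [tcx_eq (ne_of_notKor hct hq)] at h4
      have h5 : e.1.set ⊆ (tcell T q).set := h4
      rwa [tcell_set] at h5
    obtain ⟨F, h4, h5⟩ := Onb_63.exists_face fr3 he h3
    exact ⟨F, h4, h5⟩
  set := by
    intro q hq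
    show (tcx T ct q).1.set = _
    rw [tcx_eq (ne_of_notKor hct hq), tcell_set]
    rfl
  no := fun q hq => hq
  sur := fun q hq => ⟨q, hq, rfl⟩
  act := by
    intro q hq k hk
    exact ⟨k, hk, fun c hc => (qdF_in hLa hR hM h1 h2).1 hc⟩

theorem le_tcx (hct : ∀ a, ct a ∈ KorJ Φ J0) {i : ι} (hi : i ∉ KorJ Φ J0) {c : Qx T ct} :
    c ≤ tcx T ct i ↔ c.1.set ⊆ P (T.H i) := by
  have h4 : c ≤ tcx T ct i ↔ c.1 ≤ (tcx T ct i).1 := Iff.rfl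
  rw [h4, tcx_eq (ne_of_notKor hct hi), Tiling.Cell.le_def, tcell_set]

theorem levOn_x (hLa : IsOpen La) (hR : InitR Φ T f g J0 ct' r₀)
    (hct : ∀ a, ct a ∈ KorJ Φ J0) {μ : ℝ} (hμ : s₁ ≤ μ)
    (hm : ∀ c, ∀ t ∈ L c, μ ≤ t ∧ t ≤ 1 - μ) :
    LevOn (Pc Φ.F) (bc (F := Φ.F)) (RF Φ r₀) f s₁ (fun c : Qx T ct => c.1.set) (Lx T ct)
      (st0 hG bp) (KorJ Φ J0)ᶜ (tcx T ct) := by
  intro w hw q hq hwq
  obtain ⟨a1, a2, a3⟩ := st0_mem hLa hR hw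
  have hW : w ∈ (lmT T fr3).W1 := ⟨a1, a2⟩
  have h4 := (le_tcx hct hq).1 hwq
  rw [sb_ed hW] at h4
  have h5 : w ∈ (edC T w).set := by rw [edC_set a1]; exact T.self_mem_cc _
  have h6 : w ∈ P (T.H q) := h4 h5
  refine ⟨?_, ?_⟩
  · show w ∈ (tcx T ct q).1.set
    rw [tcx_eq (ne_of_notKor hct hq), tcell_set]
    exact h6
  · have h7 : va (Pc Φ.F) (bc (F := Φ.F)) (RF Φ r₀) f ((st0 hG bp).lab w).1 w =
        ((st0 hG bp).lab w).2.1 := by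
      rw [← a3]
      exact hR.v_eq' Φ hLa a1 (by omega) _
    have h8 := hm _ _ ((st0 hG bp).lab w).2.2
    rw [h7]
    constructor <;> linarith [h8.1, h8.2]

end slice

end Crest.Agent.R096.Rop_441
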