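import Mathlib

/-!
Row 96 (S0127), helper751.  **[X2] of 962 #11402**: an open neighbourhood of a measurable set inside
an open set of finite measure, with a small excess of volume and of energy.
-/

set_option autoImplicit false
set_option linter.style.longLine false

open MeasureTheory Set Filter Topology
open scoped ENNReal

namespace Crest.Agent.R096.Rp_751

/-- **[X2], abstract form**: `X ⊆ Om`, `Om` open with `μ Om < ⊤`, `∫_Om h < ⊤`. -/
theorem exists_open_sup {E : Type*} [TopologicalSpace E] [MeasurableSpace E] [BorelSpace E]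
    {μ : Measure E} [μ.OuterRegular] {Om X : Set E} (hO : IsOpen Om) (hOm : μ Om ≠ ⊤)
    (hX : X ⊆ Om) (hXm : MeasurableSet X) {h : E → ℝ≥0∞} (hh : ∫⁻ x in Om, h x ∂μ ≠ ⊤)
    {e : ℝ≥0∞} (he : e ≠ 0) :
    ∃ R : Set E, IsOpen R ∧ X ⊆ R ∧ R ⊆ Om ∧ μ R ≤ μ X + e ∧
      ∫⁻ x in R, h x ∂μ ≤ ∫⁻ x in X, h x ∂μ + e := by
  have hXt : μ X ≠ ⊤ := ne_top_of_le_ne_top hOm (measure_mono hX)
  obtain ⟨δ, hδ, hδ'⟩ := exists_pos_setLIntegral_lt_of_measure_lt (μ := μ.restrict Om) hh he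
  obtain ⟨U, hXU, hUo, hU⟩ := X.exists_isOpen_lt_add hXt (ε := min e δ)
    (lt_min (pos_iff_ne_zero.2 he) hδ).ne'
  refine ⟨U ∩ Om, hUo.inter hO, subset_inter hXU hX, inter_subset_right, ?_, ?_⟩
  · exact (measure_mono inter_subset_left).trans
      (hU.le.trans (add_le_add le_rfl (min_le_left _ _)))
  · have h1 : U ∩ Om = X ∪ ((U ∩ Om) \ X) := (union_sdiff_cancel (subset_inter hXU hX)).symm
    have hm : MeasurableSet ((U ∩ Om) \ X) := ((hUo.inter hO).measurableSet).diff hXm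
    have h2 : μ ((U ∩ Om) \ X) < δ := by
      have h3 : μ (U \ X) < δ := by
        rw [measure_sdiff hXU hXm.nullMeasurableSet hXt]
        have h4 : μ U < μ X + δ := hU.trans_le (add_le_add le_rfl (min_le_right _ _))
        exact ENNReal.sub_lt_of_lt_add (measure_mono hXU) (by rwa [add_comm] at h4)
      exact (measure_mono (sdiff_subset_sdiff_left inter_subset_left)).trans_lt h3
    have h5 : ∫⁻ x in (U ∩ Om) \ X, h x ∂μ ≤ e := by
      have h6 : (μ.restrict Om) ((U ∩ Om) \ X) < δ :=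
        (Measure.restrict_apply_le _ _).trans_lt h2
      have h7 := (hδ' _ h6).le
      rwa [Measure.restrict_restrict_of_subset (sdiff_subset.trans inter_subset_right)] at h7
    rw [h1]
    exact (lintegral_union_le _ _ _).trans (add_le_add le_rfl h5)

/-- **[X2] of 962 #11402, literally** (`E3 = Fin 3 → ℝ`). -/
theorem exists_R' {Om X : Set (Fin 3 → ℝ)} (hO : IsOpen Om) (hb : Bornology.IsBounded Om)
    (hXm : MeasurableSet X) (hX : X ⊆ Om) {p : ℝ} {G : (Fin 3 → ℝ) → ℝ≥0∞}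
    (hG : ∫⁻ x in Om, G x ^ p ≠ ⊤) {e : ℝ≥0∞} (he : e ≠ 0) :
    ∃ R' : Set (Fin 3 → ℝ), IsOpen R' ∧ X ⊆ R' ∧ R' ⊆ Om ∧ volume R' ≤ volume X + e ∧
      ∫⁻ x in R', G x ^ p ≤ (∫⁻ x in X, G x ^ p) + e :=
  exists_open_sup hO hb.measure_lt_top.ne hX hXm hG he

/-- **several densities at once** (energy, its first power, the volume of any further finite
measure): one `R'` for a finite list `h j`. -/
theorem exists_R'_list {Om X : Set (Fin 3 → ℝ)} (hO : IsOpen Om) (hb : Bornology.IsBounded Om)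
    (hXm : MeasurableSet X) (hX : X ⊆ Om) {n : ℕ} (h : Fin n → (Fin 3 → ℝ) → ℝ≥0∞)
    (hh : ∀ j, ∫⁻ x in Om, h j x ≠ ⊤) {e : ℝ≥0∞} (he : e ≠ 0) :
    ∃ R' : Set (Fin 3 → ℝ), IsOpen R' ∧ X ⊆ R' ∧ R' ⊆ Om ∧ volume R' ≤ volume X + e ∧
      ∀ j, ∫⁻ x in R', h j x ≤ (∫⁻ x in X, h j x) + e := by
  have h1 : ∀ j, ∃ R : Set (Fin 3 → ℝ), IsOpen R ∧ X ⊆ R ∧ R ⊆ Om ∧ volume R ≤ volume X + e ∧
      ∫⁻ x in R, h j x ≤ (∫⁻ x in X, h j x) + e := fun j =>
    exists_open_sup hO hb.measure_lt_top.ne hX hXm (hh j) he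
  choose R r1 r2 r3 r4 r5 using h1
  obtain ⟨R0, s1, s2, s3, s4, -⟩ := exists_open_sup (μ := volume) hO hb.measure_lt_top.ne hX hXm
    (h := fun _ => 0) (by simp) he
  refine ⟨R0 ∩ ⋂ j, R j, s1.inter (isOpen_iInter_of_finite r1), subset_inter s2
    (subset_iInter r2), inter_subset_left.trans s3, (measure_mono inter_subset_left).trans s4,
    fun j => (lintegral_mono_set (inter_subset_right.trans (iInter_subset _ j))).trans (r5 j)⟩

end Crest.Agent.R096.Rp_751
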