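import Mathlib

/-!
# Row 96, NO0 p ≥ 3, [X2] of 962 #11402 (helper561): the open set `R'` around the rest

`X ⊆ Om` measurable, `Om` open of finite volume, finitely many integrable densities `g l` on `Om`: there
is an open `R'` with `X ⊆ R' ⊆ Om`, `volume R' ≤ volume X + e`, `∫_R' g l ≤ ∫_X g l + e` for all `l`.
-/

set_option autoImplicit false

open MeasureTheory Set Filter Topology Metric
open scoped ENNReal

namespace Crest.Agent.R096.Rpr_561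

variable {E : Type*} [MetricSpace E] [MeasurableSpace E] [BorelSpace E] {μ : Measure E}

/-- **finitely many densities at once** -/
theorem exists_open_fin {κ : Type*} [Fintype κ] {Om X : Set E} (hO : IsOpen Om) (hOv : μ Om ≠ ∞)
    (hXO : X ⊆ Om) (hX : MeasurableSet X) {g : κ → E → ℝ≥0∞}
    (hg : ∀ l, ∫⁻ x in Om, g l x ∂μ ≠ ∞) {e : ℝ≥0∞} (he : e ≠ 0) :
    ∃ R' : Set E, IsOpen R' ∧ X ⊆ R' ∧ R' ⊆ Om ∧ μ (R' \ X) ≤ e ∧ μ R' ≤ μ X + e ∧
      (∀ l, ∫⁻ x in R' \ X, g l x ∂μ ≤ e) ∧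
      ∀ l, ∫⁻ x in R', g l x ∂μ ≤ ∫⁻ x in X, g l x ∂μ + e := by
  classical
  set ν : Measure E := μ.restrict Om + ∑ l : κ, (μ.restrict Om).withDensity (g l) with hν
  have hfin : IsFiniteMeasure ν := by
    constructor
    rw [hν, Measure.add_apply, Measure.finsetSum_apply]
    refine ENNReal.add_lt_top.2 ⟨?_, ?_⟩
    · rw [Measure.restrict_apply_univ]
      exact lt_top_iff_ne_top.2 hOv
    · refine ENNReal.sum_lt_top.2 fun l _ => ?_
      rw [withDensity_apply _ MeasurableSet.univ, Measure.restrict_univ]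
      exact lt_top_iff_ne_top.2 (hg l)
  obtain ⟨U, hXU, hU, -, hUe⟩ := hX.exists_isOpen_sdiff_lt (μ := ν) (measure_ne_top ν X) he
  have hRO : (U ∩ Om) \ X ⊆ Om := sdiff_subset.trans inter_subset_right
  have hRm : MeasurableSet ((U ∩ Om) \ X) := (hU.inter hO).measurableSet.diff hX
  have h1 : ν ((U ∩ Om) \ X) ≤ e := (measure_mono (sdiff_subset_sdiff_left inter_subset_left)).trans
    hUe.le
  have h2 : ν ((U ∩ Om) \ X) = μ ((U ∩ Om) \ X) + ∑ l : κ, ∫⁻ x in (U ∩ Om) \ X, g l x ∂μ := by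
    rw [hν, Measure.add_apply, Measure.finsetSum_apply, Measure.restrict_apply hRm,
      inter_eq_left.2 hRO]
    congr 1
    refine Finset.sum_congr rfl fun l _ => ?_
    rw [withDensity_apply _ hRm, Measure.restrict_restrict hRm, inter_eq_left.2 hRO]
  rw [h2] at h1
  have h3 : μ ((U ∩ Om) \ X) ≤ e := le_self_add.trans h1
  have h4 : ∀ l, ∫⁻ x in (U ∩ Om) \ X, g l x ∂μ ≤ e := fun l =>
    ((Finset.single_le_sum (f := fun l => ∫⁻ x in (U ∩ Om) \ X, g l x ∂μ) (fun _ _ => zero_le)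
      (Finset.mem_univ l)).trans le_add_self).trans h1
  have hXR : X ⊆ U ∩ Om := subset_inter hXU hXO
  have hun : U ∩ Om = X ∪ (U ∩ Om) \ X := (union_sdiff_cancel hXR).symm
  refine ⟨U ∩ Om, hU.inter hO, hXR, inter_subset_right, h3, ?_, h4, fun l => ?_⟩
  · conv_lhs => rw [hun]
    exact (measure_union_le _ _).trans (by gcongr)
  · conv_lhs => rw [hun]
    exact (lintegral_union_le _ _ _).trans (by gcongr; exact h4 l)

/-- **[X2]** -/
theorem exists_R' {Om X : Set E} (hO : IsOpen Om) (hOv : μ Om ≠ ∞) (hXO : X ⊆ Om)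
    (hX : MeasurableSet X) {G : E → ℝ≥0∞} {p : ℝ} (hG : ∫⁻ x in Om, G x ^ p ∂μ ≠ ∞)
    {e : ℝ≥0∞} (he : e ≠ 0) :
    ∃ R' : Set E, IsOpen R' ∧ X ⊆ R' ∧ R' ⊆ Om ∧ μ R' ≤ μ X + e ∧
      ∫⁻ x in R', G x ^ p ∂μ ≤ ∫⁻ x in X, G x ^ p ∂μ + e := by
  obtain ⟨R', h1, h2, h3, -, h5, -, h7⟩ := exists_open_fin (κ := Unit) hO hOv hXO hX
    (g := fun _ x => G x ^ p) (fun _ => hG) he
  exact ⟨R', h1, h2, h3, h5, h7 ()⟩

/-- **[X2]**, bounded open sets of `E3` -/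
theorem exists_R'_vol {Om X : Set (Fin 3 → ℝ)} (hO : IsOpen Om) (hOb : Bornology.IsBounded Om)
    (hXO : X ⊆ Om) (hX : MeasurableSet X) {G : (Fin 3 → ℝ) → ℝ≥0∞} {p : ℝ}
    (hG : ∫⁻ x in Om, G x ^ p < ∞) {e : ℝ≥0∞} (he : e ≠ 0) :
    ∃ R' : Set (Fin 3 → ℝ), IsOpen R' ∧ X ⊆ R' ∧ R' ⊆ Om ∧ volume R' ≤ volume X + e ∧
      ∫⁻ x in R', G x ^ p ≤ (∫⁻ x in X, G x ^ p) + e :=
  exists_R' (μ := volume) hO hOb.measure_lt_top.ne hXO hX hG.ne he

end Crest.Agent.R096.Rpr_561
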