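import Crest.Agent.R096.Ax2_914

/-! # R096 (row 96), P2-GEN, (EXIST), (TR), part 1: two sides of a conical set which is invariant
in one direction: the trace is exactly two rays (angle form). -/

set_option autoImplicit false

open Set Metric Topology Filter

namespace Crest.Agent.R096.Rs1_161

/-- **exactly one more direction**: `S` is near `z` the preimage of a cone of `ℂ` which contains
the negative half line; then the cone contains exactly one more half line. -/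
theorem unique_angle {E : Type*} [NormedAddCommGroup E] [NormedSpace ℝ E] {S : Set E} {z : E}
    {r : ℝ} (hr : 0 < r) (Λ : E →L[ℝ] ℂ) (σ : ℂ →L[ℝ] E) (hΛσ : ∀ w, Λ (σ w) = w)
    (G : ℂ → Prop)
    (key : ∀ y ∈ ball z r, ∀ w : ℂ, ∀ s : ℝ, 0 < s → Λ (y - z) = s • w → (y ∈ S ↔ G w))
    (hz : z ∈ S) (hG : G (-1)) (h2 : ∀ x ∈ S, Ax_914.TwoSidedAt S x) :
    ∃ θ ∈ Ioo (-Real.pi) Real.pi, G (Complex.exp (θ * Complex.I)) ∧
      ∀ θ' ∈ Ioo (-Real.pi) Real.pi, G (Complex.exp (θ' * Complex.I)) → θ' = θ := by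
  obtain ⟨U, P, N, hU, hPo, hNo, hzU, hUr, hPc, hNc, hdis, hUPN, hzP, hzN⟩ := h2 z hz r hr
  obtain ⟨r', hr', hB⟩ := Metric.isOpen_iff.1 hU z hzU
  set ε : ℝ := r' / (2 * (‖σ‖ + 1)) with hε
  have hσ0 : 0 ≤ ‖σ‖ := norm_nonneg σ
  have hε0 : 0 < ε := by positivity
  set q : ℝ → E := fun θ => z + ε • σ (Complex.exp (θ * Complex.I)) with hq
  have hqc : Continuous q := by
    have h1 : Continuous fun θ : ℝ => Complex.exp (θ * Complex.I) := by fun_prop
    exact continuous_const.add ((σ.continuous.comp h1).const_smul ε)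
  have hnorm : ∀ θ : ℝ, ‖Complex.exp (θ * Complex.I)‖ = 1 := fun θ =>
    Complex.norm_exp_ofReal_mul_I θ
  have hqB : ∀ θ, q θ ∈ ball z r' := by
    intro θ
    rw [mem_ball, dist_eq_norm, hq]
    simp only [add_sub_cancel_left]
    rw [norm_smul, Real.norm_eq_abs, abs_of_pos hε0]
    have h1 : ‖σ (Complex.exp (θ * Complex.I))‖ ≤ ‖σ‖ := by
      have := σ.le_opNorm (Complex.exp (θ * Complex.I))
      rwa [hnorm, mul_one] at this
    calc ε * ‖σ (Complex.exp (θ * Complex.I))‖ ≤ ε * (‖σ‖ + 1) := by gcongr; linarith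
      _ = r' / 2 := by rw [hε]; field_simp
      _ < r' := by linarith
  have hqr : ∀ θ, q θ ∈ ball z r := fun θ => hUr (hB (hqB θ))
  have hqΛ : ∀ θ, Λ (q θ - z) = ε • Complex.exp (θ * Complex.I) := by
    intro θ
    rw [hq]
    simp only [add_sub_cancel_left]
    rw [map_smul, hΛσ]
  have hqS : ∀ θ, q θ ∈ S ↔ G (Complex.exp (θ * Complex.I)) := fun θ =>
    key (q θ) (hqr θ) _ ε hε0 (hqΛ θ)
  have hG0 : G 0 := (key z (mem_ball_self hr) 0 1 one_pos (by simp)).1 hz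
  -- points off `S` are in the slit plane
  have hslit : ∀ y ∈ ball z r, y ∉ S → Λ (y - z) ∈ Complex.slitPlane := by
    intro y hy hyS
    by_contra hcon
    rw [Complex.mem_slitPlane_iff, not_or, not_lt, not_not] at hcon
    obtain ⟨h1, h3⟩ := hcon
    apply hyS
    rcases eq_or_lt_of_le h1 with h4 | h4
    · exact (key y hy 0 1 one_pos (by
        rw [smul_zero]; exact Complex.ext h4 h3)).2 hG0
    · refine (key y hy (-1) (-(Λ (y - z)).re) (by linarith) ?_).2 hG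
      refine Complex.ext ?_ ?_
      · simp
      · rw [h3]; simp
  set α : E → ℝ := fun y => Complex.arg (Λ (y - z)) with hα
  have hαc : ContinuousOn α (ball z r \ S) := by
    intro y hy
    have h1 : ContinuousAt (fun y => Λ (y - z)) y := by fun_prop
    exact (ContinuousAt.comp (g := Complex.arg) (f := fun y => Λ (y - z))
      (Complex.continuousAt_arg (hslit y hy.1 hy.2)) h1).continuousWithinAt
  have hαr : ∀ y ∈ ball z r, y ∉ S → α y ∈ Ioo (-Real.pi) Real.pi := by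
    intro y hy hyS
    have h1 := Complex.mem_slitPlane_iff_arg.1 (hslit y hy hyS)
    exact ⟨Complex.neg_pi_lt_arg _, lt_of_le_of_ne (Complex.arg_le_pi _) h1.1⟩
  have hpolar : ∀ y, Λ (y - z) = ‖Λ (y - z)‖ • Complex.exp (α y * Complex.I) := by
    intro y
    rw [Complex.real_smul, hα, Complex.norm_mul_exp_arg_mul_I]
  have hpos : ∀ y ∈ ball z r, y ∉ S → 0 < ‖Λ (y - z)‖ := by
    intro y hy hyS
    exact norm_pos_iff.2 (Complex.mem_slitPlane_iff_arg.1 (hslit y hy hyS)).2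
  have hαG : ∀ y ∈ ball z r, y ∉ S → ¬ G (Complex.exp (α y * Complex.I)) := by
    intro y hy hyS hGy
    exact hyS ((key y hy _ _ (hpos y hy hyS) (hpolar y)).2 hGy)
  have hαq : ∀ θ ∈ Ioo (-Real.pi) Real.pi, α (q θ) = θ := by
    intro θ hθ
    rw [hα]
    simp only
    rw [hqΛ, Complex.real_smul, Complex.arg_real_mul _ hε0, Complex.exp_mul_I,
      Complex.arg_cos_add_sin_mul_I ⟨hθ.1, hθ.2.le⟩]
  -- one side
  have side : ∀ P N : Set E, IsOpen P → IsOpen N → IsPreconnected P → Disjoint P N →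
      U \ S = P ∪ N → z ∈ closure P →
      ({θ | θ ∈ Ioo (-Real.pi) Real.pi ∧ q θ ∈ P}).Nonempty ∧
      ({θ | θ ∈ Ioo (-Real.pi) Real.pi ∧ q θ ∈ P}).OrdConnected := by
    intro P N hPo hNo hPc hdis hUPN hzP
    have hPU : ∀ y ∈ P, y ∈ ball z r ∧ y ∉ S := by
      intro y hy
      have h1 : y ∈ U \ S := by rw [hUPN]; exact Or.inl hy
      exact ⟨hUr h1.1, h1.2⟩
    have hXo : ∀ {Q : Set E}, IsOpen Q → IsOpen {θ | θ ∈ Ioo (-Real.pi) Real.pi ∧ q θ ∈ Q} :=
      fun hQ => isOpen_Ioo.inter (hQ.preimage hqc)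
    have hne : ({θ | θ ∈ Ioo (-Real.pi) Real.pi ∧ q θ ∈ P}).Nonempty := by
      obtain ⟨y, hyB, hyP⟩ := mem_closure_iff.1 hzP (ball z r') isOpen_ball (mem_ball_self hr')
      obtain ⟨hyr, hyS⟩ := hPU y hyP
      have hθ := hαr y hyr hyS
      refine ⟨α y, hθ, ?_⟩
      let H : Set E := {y' | y' ∈ ball z r' ∧ ∃ s : ℝ, 0 < s ∧
        Λ (y' - z) = s • Complex.exp (α y * Complex.I)}
      have hHc : Convex ℝ H := by
        rintro y1 ⟨h1, s1, hs1, e1⟩ y2 ⟨h2, s2, hs2, e2⟩ a b ha hb hab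
        refine ⟨convex_ball z r' h1 h2 ha hb hab, a * s1 + b * s2, ?_, ?_⟩
        · rcases eq_or_lt_of_le ha with h | h
          · have : b = 1 := by linarith
            rw [← h, this]; linarith
          · have : 0 ≤ b * s2 := by positivity
            have : 0 < a * s1 := by positivity
            linarith
        · have e3 : a • y1 + b • y2 - z = a • (y1 - z) + b • (y2 - z) := by
            have hz' : z = (a + b) • z := by rw [hab, one_smul]
            conv_lhs => rw [hz']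
            module
          rw [e3, map_add, map_smul, map_smul, e1, e2]
          module
      have hHS : H ⊆ P ∪ N := by
        rintro y' ⟨h1, s, hs, e⟩
        rw [← hUPN]
        exact ⟨hB h1, fun h => hαG y hyr hyS ((key y' (hUr (hB h1)) _ s hs e).1 h)⟩
      have hHP : H ⊆ P := hHc.isPreconnected.subset_left_of_subset_union hPo hNo hdis hHS
        ⟨y, ⟨hyB, _, hpos y hyr hyS, hpolar y⟩, hyP⟩
      exact hHP ⟨hqB _, ε, hε0, hqΛ _⟩
    refine ⟨hne, ?_⟩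
    have himg : α '' P = {θ | θ ∈ Ioo (-Real.pi) Real.pi ∧ q θ ∈ P} := by
      have hsub : {θ | θ ∈ Ioo (-Real.pi) Real.pi ∧ q θ ∈ P} ⊆ α '' P := by
        rintro θ ⟨hθ, hθP⟩
        exact ⟨q θ, hθP, hαq θ hθ⟩
      have hsub2 : α '' P ⊆ {θ | θ ∈ Ioo (-Real.pi) Real.pi ∧ q θ ∈ P} ∪
          {θ | θ ∈ Ioo (-Real.pi) Real.pi ∧ q θ ∈ N} := by
        rintro _ ⟨y, hy, rfl⟩
        obtain ⟨h1, h3⟩ := hPU y hy
        have h4 : q (α y) ∈ P ∪ N := by
          rw [← hUPN]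
          exact ⟨hB (hqB _), fun h => hαG y h1 h3 ((hqS _).1 h)⟩
        exact h4.imp (fun h => ⟨hαr y h1 h3, h⟩) fun h => ⟨hαr y h1 h3, h⟩
      have hpre : IsPreconnected (α '' P) := hPc.image _ (hαc.mono fun y hy => hPU y hy)
      refine Subset.antisymm ?_ hsub
      refine hpre.subset_left_of_subset_union (hXo hPo) (hXo hNo) ?_ hsub2 ?_
      · rw [Set.disjoint_left]
        rintro θ ⟨-, h1⟩ ⟨-, h3⟩
        exact Set.disjoint_left.1 hdis h1 h3
      · obtain ⟨θ, hθ⟩ := hne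
        exact ⟨θ, hsub hθ, hθ⟩
    rw [← himg]
    exact (hPc.image _ (hαc.mono fun y hy => hPU y hy)).ordConnected
  obtain ⟨hXne, hXc⟩ := side P N hPo hNo hPc hdis hUPN hzP
  obtain ⟨hYne, hYc⟩ := side N P hNo hPo hNc hdis.symm (by rw [hUPN, union_comm]) hzN
  have hcov : ∀ θ ∈ Ioo (-Real.pi) Real.pi, ¬ G (Complex.exp (θ * Complex.I)) →
      q θ ∈ P ∨ q θ ∈ N := by
    intro θ _ h
    have h4 : q θ ∈ P ∪ N := by
      rw [← hUPN]
      exact ⟨hB (hqB _), fun h1 => h ((hqS _).1 h1)⟩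
    exact h4
  have hXS : ∀ θ, q θ ∈ P → ¬ G (Complex.exp (θ * Complex.I)) := by
    intro θ h h1
    have h3 : q θ ∈ U \ S := by rw [hUPN]; exact Or.inl h
    exact h3.2 ((hqS θ).2 h1)
  have hYS : ∀ θ, q θ ∈ N → ¬ G (Complex.exp (θ * Complex.I)) := by
    intro θ h h1
    have h3 : q θ ∈ U \ S := by rw [hUPN]; exact Or.inr h
    exact h3.2 ((hqS θ).2 h1)
  -- existence
  obtain ⟨θ₀, hθ₀, hGθ₀⟩ : ∃ θ ∈ Ioo (-Real.pi) Real.pi, G (Complex.exp (θ * Complex.I)) := by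
    by_contra hcon
    push Not at hcon
    obtain ⟨θ, -, h1, h3⟩ := isPreconnected_Ioo (a := -Real.pi) (b := Real.pi) (q ⁻¹' P) (q ⁻¹' N)
      (hPo.preimage hqc) (hNo.preimage hqc) (fun θ hθ => hcov θ hθ (hcon θ hθ))
      (by obtain ⟨θ, h1, h3⟩ := hXne; exact ⟨θ, h1, h3⟩)
      (by obtain ⟨θ, h1, h3⟩ := hYne; exact ⟨θ, h1, h3⟩)
    exact Set.disjoint_left.1 hdis h1 h3
  -- no interior
  have hgap : ∀ a b : ℝ, -Real.pi ≤ a → a < b → b ≤ Real.pi →
      ∃ θ ∈ Ioo a b, ¬ G (Complex.exp (θ * Complex.I)) := by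
    intro a b ha hab hb
    by_contra hcon
    push Not at hcon
    let W : Set E := ball z r ∩ (fun y => Λ (y - z)) ⁻¹'
      (Complex.slitPlane ∩ Complex.arg ⁻¹' (Ioo a b))
    have hWo : IsOpen W := by
      refine isOpen_ball.inter (IsOpen.preimage (by fun_prop) ?_)
      exact ContinuousOn.isOpen_inter_preimage
        (fun w hw => (Complex.continuousAt_arg hw).continuousWithinAt)
        Complex.isOpen_slitPlane isOpen_Ioo
    have hWS : W ⊆ S := by
      rintro y ⟨hy, h1, h3⟩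
      refine (key y hy _ _ ?_ (hpolar y)).2 (hcon _ h3)
      exact norm_pos_iff.2 (Complex.mem_slitPlane_iff_arg.1 h1).2
    have hmid : (a + b) / 2 ∈ Ioo a b := ⟨by linarith, by linarith⟩
    have hmid' : (a + b) / 2 ∈ Ioo (-Real.pi) Real.pi :=
      ⟨by linarith [hmid.1], by linarith [hmid.2]⟩
    have hqW : q ((a + b) / 2) ∈ W := by
      refine ⟨hqr _, ?_, ?_⟩
      · show Λ (q ((a + b) / 2) - z) ∈ Complex.slitPlane
        rw [hqΛ, Complex.mem_slitPlane_iff_arg]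
        refine ⟨?_, ?_⟩
        · have := hαq _ hmid'
          rw [hα] at this
          simp only at this
          rw [hqΛ] at this
          rw [this]; exact hmid'.2.ne
        · exact smul_ne_zero hε0.ne' (Complex.exp_ne_zero _)
      · show Complex.arg (Λ (q ((a + b) / 2) - z)) ∈ Ioo a b
        have := hαq _ hmid'
        rw [hα] at this
        simp only at this
        rw [this]; exact hmid
    obtain ⟨V, P', N', hV, hP', hN', hxV, -, -, -, -, hVS, hxP, -⟩ := h2 _ (hWS hqW) 1 one_pos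
    obtain ⟨y, hyW, hyP⟩ := mem_closure_iff.1 hxP W hWo hqW
    have h1 : y ∈ V \ S := by rw [hVS]; exact Or.inl hyP
    exact h1.2 (hWS hyW)
  -- uniqueness
  have huniq : ∀ p p' : ℝ, p ∈ Ioo (-Real.pi) Real.pi → p' ∈ Ioo (-Real.pi) Real.pi →
      G (Complex.exp (p * Complex.I)) → G (Complex.exp (p' * Complex.I)) → p < p' → False := by
    intro p p' hp hp' hGp hGp' hlt
    obtain ⟨x1, hx1, g1⟩ := hgap (-Real.pi) p le_rfl hp.1 hp.2.le
    obtain ⟨x2, hx2, g2⟩ := hgap p p' hp.1.le hlt hp'.2.le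
    obtain ⟨x3, hx3, g3⟩ := hgap p' Real.pi hp'.1.le hp'.2 le_rfl
    have m1 : x1 ∈ Ioo (-Real.pi) Real.pi := ⟨hx1.1, hx1.2.trans hp.2⟩
    have m2 : x2 ∈ Ioo (-Real.pi) Real.pi := ⟨hp.1.trans hx2.1, hx2.2.trans hp'.2⟩
    have m3 : x3 ∈ Ioo (-Real.pi) Real.pi := ⟨hp'.1.trans hx3.1, hx3.2⟩
    have no : ∀ {Q : Set E}, (∀ θ, q θ ∈ Q → ¬ G (Complex.exp (θ * Complex.I))) →
        ({θ | θ ∈ Ioo (-Real.pi) Real.pi ∧ q θ ∈ Q}).OrdConnected → ∀ x y w : ℝ,
        x ∈ Ioo (-Real.pi) Real.pi → y ∈ Ioo (-Real.pi) Real.pi → q x ∈ Q → q y ∈ Q → x < w →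
        w < y → G (Complex.exp (w * Complex.I)) → False := by
      intro Q hQ hQc x y w hx hy hxQ hyQ hxw hwy hGw
      exact hQ w (hQc.out ⟨hx, hxQ⟩ ⟨hy, hyQ⟩ ⟨hxw.le, hwy.le⟩).2 hGw
    rcases hcov x1 m1 g1 with a1 | a1 <;> rcases hcov x2 m2 g2 with a2 | a2 <;>
      rcases hcov x3 m3 g3 with a3 | a3
    · exact no hXS hXc x1 x2 p m1 m2 a1 a2 hx1.2 hx2.1 hGp
    · exact no hXS hXc x1 x2 p m1 m2 a1 a2 hx1.2 hx2.1 hGp
    · exact no hXS hXc x1 x3 p m1 m3 a1 a3 hx1.2 (hlt.trans hx3.1) hGp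
    · exact no hYS hYc x2 x3 p' m2 m3 a2 a3 hx2.2 hx3.1 hGp'
    · exact no hXS hXc x2 x3 p' m2 m3 a2 a3 hx2.2 hx3.1 hGp'
    · exact no hYS hYc x1 x3 p m1 m3 a1 a3 hx1.2 (hlt.trans hx3.1) hGp
    · exact no hYS hYc x1 x2 p m1 m2 a1 a2 hx1.2 hx2.1 hGp
    · exact no hYS hYc x1 x2 p m1 m2 a1 a2 hx1.2 hx2.1 hGp
  refine ⟨θ₀, hθ₀, hGθ₀, fun θ' hθ' hG' => ?_⟩
  rcases lt_trichotomy θ' θ₀ with h | h | h
  · exact (huniq _ _ hθ' hθ₀ hG' hGθ₀ h).elim
  · exact h
  · exact (huniq _ _ hθ₀ hθ' hGθ₀ hG' h).elim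

end Crest.Agent.R096.Rs1_161
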