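import Crest.Agent.R096.Isl2_968

/-!
# R096 (S0127), p = 2: small circles (SC), part 1: clusters of cells
-/

set_option autoImplicit false

namespace Crest.Agent.R096.Sc_968

open MeasureTheory Set Metric
open scoped ENNReal

/-- linked finite families: every proper nonempty part is linked with the rest -/
def Lk {X J : Type*} (A : J → Set X) (s : Finset J) : Prop :=
  ∀ s' ⊆ s, s'.Nonempty → s' ≠ s → ∃ q ∈ s', ∃ q' ∈ s, q' ∉ s' ∧ (A q ∩ A q').Nonempty

lemma Lk.union {X J : Type*} [DecidableEq J] {A : J → Set X} {s t : Finset J} (hs : Lk A s)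
    (ht : Lk A t) (hst : (s ∩ t).Nonempty) : Lk A (s ∪ t) := by
  intro s' hs' hne hne'
  by_cases h1 : (s' ∩ s).Nonempty ∧ s' ∩ s ≠ s
  · obtain ⟨q, hq, q', hq', hn, h⟩ := hs (s' ∩ s) Finset.inter_subset_right h1.1 h1.2
    refine ⟨q, (Finset.mem_inter.1 hq).1, q', Finset.mem_union_left _ hq', fun h' => hn ?_, h⟩
    exact Finset.mem_inter.2 ⟨h', hq'⟩
  by_cases h2 : (s' ∩ t).Nonempty ∧ s' ∩ t ≠ t
  · obtain ⟨q, hq, q', hq', hn, h⟩ := ht (s' ∩ t) Finset.inter_subset_right h2.1 h2.2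
    refine ⟨q, (Finset.mem_inter.1 hq).1, q', Finset.mem_union_right _ hq', fun h' => hn ?_, h⟩
    exact Finset.mem_inter.2 ⟨h', hq'⟩
  exfalso
  have e1 : (∀ x ∈ s, x ∉ s') ∨ s ⊆ s' := by
    by_cases h : (s' ∩ s).Nonempty
    · right
      have : s' ∩ s = s := by
        by_contra h'
        exact h1 ⟨h, h'⟩
      intro x hx
      rw [← this] at hx
      exact (Finset.mem_inter.1 hx).1
    · left
      intro x hx hx'
      exact h ⟨x, Finset.mem_inter.2 ⟨hx', hx⟩⟩
  have e2 : (∀ x ∈ t, x ∉ s') ∨ t ⊆ s' := by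
    by_cases h : (s' ∩ t).Nonempty
    · right
      have : s' ∩ t = t := by
        by_contra h'
        exact h2 ⟨h, h'⟩
      intro x hx
      rw [← this] at hx
      exact (Finset.mem_inter.1 hx).1
    · left
      intro x hx hx'
      exact h ⟨x, Finset.mem_inter.2 ⟨hx', hx⟩⟩
  obtain ⟨j, hj⟩ := hst
  rw [Finset.mem_inter] at hj
  rcases e1 with e1 | e1 <;> rcases e2 with e2 | e2
  · obtain ⟨x, hx⟩ := hne
    rcases Finset.mem_union.1 (hs' hx) with h | h
    · exact e1 x h hx
    · exact e2 x h hx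
  · exact e1 j hj.1 (e2 hj.2)
  · exact e2 j hj.2 (e1 hj.1)
  · exact hne' (Finset.Subset.antisymm hs' (Finset.union_subset e1 e2))

/-- merging linked families into pairwise disjoint clusters -/
theorem exists_clusters {X J ι : Type*} [DecidableEq J] [Fintype ι] (A : J → Set X)
    (c : ι → Finset J) (Jp : Finset J) (hc : ∀ i, Lk A (c i) ∧ (c i ⊆ Jp ∨ (c i).card ≤ 1)) :
    ∃ C : Finset (Finset J), C.card ≤ Fintype.card ι ∧ (∀ i, ∃ D ∈ C, c i ⊆ D) ∧
      (∀ D ∈ C, Lk A D ∧ (D ⊆ Jp ∨ D.card ≤ 1)) ∧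
      ∀ D ∈ C, ∀ D' ∈ C, D ≠ D' → Disjoint D D' := by
  classical
  let P : Finset (Finset J) → Prop := fun C => (∀ i, ∃ D ∈ C, c i ⊆ D) ∧
    ∀ D ∈ C, Lk A D ∧ (D ⊆ Jp ∨ D.card ≤ 1)
  have hP0 : P (Finset.univ.image c) := by
    refine ⟨fun i => ⟨c i, Finset.mem_image_of_mem _ (Finset.mem_univ _), Finset.Subset.refl _⟩, ?_⟩
    intro D hD
    obtain ⟨i, -, rfl⟩ := Finset.mem_image.1 hD
    exact hc i
  have hex : ∃ n, ∃ C, P C ∧ C.card = n := ⟨_, _, hP0, rfl⟩
  obtain ⟨C, hC, hn⟩ := Nat.find_spec hex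
  refine ⟨C, ?_, hC.1, hC.2, ?_⟩
  · have h1 := Nat.find_min' hex ⟨_, hP0, rfl⟩
    have h2 : (Finset.univ.image c).card ≤ Fintype.card ι := by
      simpa using Finset.card_image_le (s := Finset.univ) (f := c)
    omega
  · intro D hD D' hD' hne
    by_contra hdis
    rw [Finset.not_disjoint_iff] at hdis
    obtain ⟨j, hj, hj'⟩ := hdis
    have hDE : D' ∈ C.erase D := Finset.mem_erase.2 ⟨hne.symm, hD'⟩
    have hcard : ((C.erase D).erase D').card + 2 = C.card := by
      have e1 := Finset.card_erase_add_one hD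
      have e2 := Finset.card_erase_add_one hDE
      omega
    have hP : P (insert (D ∪ D') ((C.erase D).erase D')) := by
      refine ⟨fun i => ?_, fun E hE => ?_⟩
      · obtain ⟨E, hE, hi⟩ := hC.1 i
        by_cases h1 : E = D
        · subst h1
          exact ⟨_, Finset.mem_insert_self _ _, hi.trans Finset.subset_union_left⟩
        by_cases h2 : E = D'
        · subst h2
          exact ⟨_, Finset.mem_insert_self _ _, hi.trans Finset.subset_union_right⟩
        · exact ⟨E, Finset.mem_insert_of_mem (Finset.mem_erase.2 ⟨h2, Finset.mem_erase.2 ⟨h1, hE⟩⟩), hi⟩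
      · rw [Finset.mem_insert] at hE
        rcases hE with rfl | hE
        · obtain ⟨l1, k1⟩ := hC.2 D hD
          obtain ⟨l2, k2⟩ := hC.2 D' hD'
          refine ⟨l1.union l2 ⟨j, Finset.mem_inter.2 ⟨hj, hj'⟩⟩, ?_⟩
          rcases k1 with k1 | k1 <;> rcases k2 with k2 | k2
          · exact Or.inl (Finset.union_subset k1 k2)
          · left
            refine Finset.union_subset k1 fun x hx => ?_
            rw [Finset.card_le_one.1 k2 x hx j hj']
            exact k1 hj
          · left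
            refine Finset.union_subset (fun x hx => ?_) k2
            rw [Finset.card_le_one.1 k1 x hx j hj]
            exact k2 hj'
          · exfalso
            apply hne
            ext x
            constructor
            · intro hx
              rw [Finset.card_le_one.1 k1 x hx j hj]
              exact hj'
            · intro hx
              rw [Finset.card_le_one.1 k2 x hx j hj']
              exact hj
        · exact hC.2 E (Finset.mem_of_mem_erase (Finset.mem_of_mem_erase hE))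
    have hlt : (insert (D ∪ D') ((C.erase D).erase D')).card < C.card := by
      have := Finset.card_insert_le (D ∪ D') ((C.erase D).erase D')
      omega
    have := Nat.find_min' hex ⟨_, hP, rfl⟩
    omega

/-- diameter of the image of a linked family -/
lemma dist_le_sum {X Y J : Type*} [PseudoMetricSpace Y] [DecidableEq J] {A : J → Set X}
    {f : X → Y} {s : Finset J} (hs : Lk A s) {o : J → ℝ} (ho0 : ∀ j ∈ s, 0 ≤ o j)
    (ho : ∀ j ∈ s, ∀ x ∈ A j, ∀ y ∈ A j, dist (f x) (f y) ≤ o j) {j k : J} (hj : j ∈ s)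
    (hk : k ∈ s) {x y : X} (hx : x ∈ A j) (hy : y ∈ A k) : dist (f x) (f y) ≤ ∑ q ∈ s, o q := by
  have h1 := Isl_968.ediam_le_sum s (fun q => f '' A q) (fun q => ENNReal.ofReal (o q))
    (by
      intro q hq
      refine Metric.ediam_le ?_
      rintro _ ⟨a, ha, rfl⟩ _ ⟨b, hb, rfl⟩
      rw [edist_dist]
      exact ENNReal.ofReal_le_ofReal (ho q hq a ha b hb))
    (by
      intro s' hs' hne hne'
      obtain ⟨q, hq, q', hq', hn, z, hz, hz'⟩ := hs s' hs' hne hne'
      exact ⟨q, hq, q', hq', hn, f z, ⟨z, hz, rfl⟩, ⟨z, hz', rfl⟩⟩)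
  have m1 : f x ∈ ⋃ q ∈ s, f '' A q := mem_iUnion₂.2 ⟨j, hj, x, hx, rfl⟩
  have m2 : f y ∈ ⋃ q ∈ s, f '' A q := mem_iUnion₂.2 ⟨k, hk, y, hy, rfl⟩
  have h2 : edist (f x) (f y) ≤ ∑ q ∈ s, ENNReal.ofReal (o q) :=
    (Metric.edist_le_ediam_of_mem m1 m2).trans h1
  rw [← ENNReal.ofReal_sum_of_nonneg ho0, edist_dist] at h2
  exact (ENNReal.ofReal_le_ofReal_iff (Finset.sum_nonneg ho0)).1 h2

end Crest.Agent.R096.Sc_968
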