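import Crest.Agent.R096.Sc1_968

/-!
# R096 (S0127), p = 2: small circles (SC), part 2: the theorem

`small_circles`: `f` continuous on a compact convex `F` (mesh face), `u` Lipschitz on the target.
Hypothesis: arbitrarily fine cell structures of `F` (squares of a grid) with
`∑ (osc over the rim)² ≤ E` over the cells whose rim reaches `{t0 ≤ u ∘ f}`.
Then for all levels `t ∈ (t0, tm)` outside a set of measure `θ`, all maps `h` close to `f`, and all
families of disjoint `K i` (discs) reaching `{t1 ≤ u ∘ h}` with connected rims `Γ i ⊆ {u ∘ h = t}`: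
the images `h (Γ i)` lie in finitely many balls, sum of radii `≤ σ`.
-/

set_option autoImplicit false

namespace Crest.Agent.R096.Sc_968

open MeasureTheory Set Metric
open scoped ENNReal

/-- closed cells `Q j` of `F` with rims `B j` -/
structure Cells {X : Type*} [TopologicalSpace X] (F : Set X) {J : Type*} (Q B : J → Set X) :
    Prop where
  closed : ∀ j, IsClosed (Q j)
  sub : ∀ j, B j ⊆ Q j
  cov : F ⊆ ⋃ j, Q j
  meet : ∀ j k, j ≠ k → Q j ∩ Q k ⊆ B j ∩ B k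
  cut : ∀ j (S : Set X), S ⊆ F → IsPreconnected S → (S ∩ Q j).Nonempty → ¬ S ⊆ Q j →
    (S ∩ B j).Nonempty

/-- one level, one map -/
theorem balls_of_cells {X Y : Type*} [TopologicalSpace X] [PseudoMetricSpace Y] {F : Set X}
    {J : Type*} [Fintype J] {Q B : J → Set X} (hC : Cells F Q B) {f h : X → Y} {u : Y → ℝ}
    {L ε η t : ℝ} (hL : 0 ≤ L) (hu : ∀ y z, |u y - u z| ≤ L * dist y z) (hε0 : 0 ≤ ε)
    (hε : ∀ j, ∀ x ∈ Q j ∩ F, ∀ y ∈ Q j ∩ F, dist (f x) (f y) ≤ ε)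
    {o : J → ℝ} (ho0 : ∀ j, 0 ≤ o j)
    (ho : ∀ j, ∀ x ∈ B j ∩ F, ∀ y ∈ B j ∩ F, dist (f x) (f y) ≤ o j)
    (hη : 0 ≤ η) (hh : ∀ x ∈ F, dist (h x) (f x) ≤ η)
    {ι : Type*} [Fintype ι] (Γ : ι → Set X) (hΓF : ∀ i, Γ i ⊆ F)
    (hΓc : ∀ i, IsPreconnected (Γ i)) (hΓn : ∀ i, (Γ i).Nonempty)
    (hΓt : ∀ i, ∀ x ∈ Γ i, u (h x) = t) (Jp : Finset J)
    (hJp : ∀ j, (∃ x ∈ B j ∩ F, |u (f x) - t| ≤ L * η) → j ∈ Jp) :
    ∃ (n : ℕ) (y : Fin n → Y) (ρ : Fin n → ℝ), (∀ m, 0 ≤ ρ m) ∧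
      ∑ m, ρ m ≤ (∑ j ∈ Jp, o j) + Fintype.card ι * (2 * ε + η) ∧
      ∀ i, ∃ m, h '' Γ i ⊆ closedBall (y m) (ρ m) := by
  classical
  rcases isEmpty_or_nonempty ι with hι | hι
  · refine ⟨0, Fin.elim0, Fin.elim0, fun m => m.elim0, ?_, fun i => hι.elim i⟩
    simp only [Finset.univ_eq_empty, Finset.sum_empty, Fintype.card_eq_zero, Nat.cast_zero,
      zero_mul, add_zero]
    exact Finset.sum_nonneg fun j _ => ho0 j
  let c : ι → Finset J := fun i => Finset.univ.filter (fun j => (Γ i ∩ Q j).Nonempty)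
  have hcmem : ∀ i j, j ∈ c i ↔ (Γ i ∩ Q j).Nonempty := fun i j => by simp [c]
  have hLk : ∀ i, Lk (fun j => B j ∩ F) (c i) := by
    intro i s' hs' hne hne'
    obtain ⟨q1, hq1⟩ := hne
    obtain ⟨q2, hq2, hq2'⟩ : ∃ q ∈ c i, q ∉ s' := by
      by_contra hno
      push Not at hno
      exact hne' (Finset.Subset.antisymm hs' hno)
    have hC1 : IsClosed (⋃ q ∈ s', Q q) :=
      Set.Finite.isClosed_biUnion s'.finite_toSet (fun q _ => hC.closed q)
    have hC2 : IsClosed (⋃ q ∈ c i \ s', Q q) :=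
      Set.Finite.isClosed_biUnion (c i \ s').finite_toSet (fun q _ => hC.closed q)
    obtain ⟨x1, hx1, hx1'⟩ := (hcmem i q1).1 (hs' hq1)
    obtain ⟨x2, hx2, hx2'⟩ := (hcmem i q2).1 hq2
    have hcl := (isPreconnected_closed_iff.1 (hΓc i)) _ _ hC1 hC2 (by
        intro x hx
        obtain ⟨j, hj⟩ := mem_iUnion.1 (hC.cov (hΓF i hx))
        have hjc : j ∈ c i := (hcmem i j).2 ⟨x, hx, hj⟩
        by_cases h1 : j ∈ s'
        · exact Or.inl (mem_iUnion₂.2 ⟨j, h1, hj⟩)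
        · exact Or.inr (mem_iUnion₂.2 ⟨j, Finset.mem_sdiff.2 ⟨hjc, h1⟩, hj⟩))
      ⟨x1, hx1, mem_iUnion₂.2 ⟨q1, hq1, hx1'⟩⟩
      ⟨x2, hx2, mem_iUnion₂.2 ⟨q2, Finset.mem_sdiff.2 ⟨hq2, hq2'⟩, hx2'⟩⟩
    obtain ⟨x, hx, hxa, hxb⟩ := hcl
    obtain ⟨q, hq, hxq⟩ := mem_iUnion₂.1 hxa
    obtain ⟨q', hq', hxq'⟩ := mem_iUnion₂.1 hxb
    rw [Finset.mem_sdiff] at hq'
    have hne2 : q ≠ q' := fun h => hq'.2 (h ▸ hq)
    obtain ⟨b1, b2⟩ := hC.meet q q' hne2 ⟨hxq, hxq'⟩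
    exact ⟨q, hq, q', hq'.1, hq'.2, x, ⟨b1, hΓF i hx⟩, ⟨b2, hΓF i hx⟩⟩
  have hlev : ∀ i j, ∀ x ∈ Γ i, x ∈ B j → j ∈ Jp := by
    intro i j x hx hxB
    refine hJp j ⟨x, ⟨hxB, hΓF i hx⟩, ?_⟩
    rw [← hΓt i x hx]
    refine (hu _ _).trans ?_
    rw [dist_comm]
    exact mul_le_mul_of_nonneg_left (hh x (hΓF i hx)) hL
  have hJc : ∀ i, c i ⊆ Jp ∨ (c i).card ≤ 1 := by
    intro i
    by_cases h1 : (c i).card ≤ 1
    · exact Or.inr h1
    left
    intro m hm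
    obtain ⟨m', hm', hne⟩ := Finset.exists_mem_ne (by omega : 1 < (c i).card) m
    by_cases h2 : Γ i ⊆ Q m
    · obtain ⟨x, hx, hxm⟩ := (hcmem i m').1 hm'
      exact hlev i m x hx (hC.meet m m' hne.symm ⟨h2 hx, hxm⟩).1
    · obtain ⟨x, hx, hxm⟩ := hC.cut m (Γ i) (hΓF i) (hΓc i) ((hcmem i m).1 hm) h2
      exact hlev i m x hx hxm
  obtain ⟨C, hCcard, hCc, hCp, hCd⟩ := exists_clusters (fun j => B j ∩ F) c Jp
    (fun i => ⟨hLk i, hJc i⟩)
  choose pt hpt using hΓn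
  let i0 : ι := Classical.choice hι
  let ix : Finset J → ι := fun D => if hD : ∃ i, c i ⊆ D then hD.choose else i0
  have hix : ∀ D i, c i ⊆ D → c (ix D) ⊆ D := by
    intro D i hi
    have hD : ∃ i, c i ⊆ D := ⟨i, hi⟩
    simp only [ix, dif_pos hD]
    exact hD.choose_spec
  let o' : J → ℝ := fun j => if j ∈ Jp then o j else 0
  have ho'0 : ∀ j, 0 ≤ o' j := by
    intro j
    by_cases h : j ∈ Jp
    · simp only [o', if_pos h]; exact ho0 j
    · simp only [o', if_neg h]; exact le_refl 0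
  let ρ' : Finset J → ℝ := fun D => (∑ j ∈ D, o' j) + (2 * ε + η)
  have hρ0 : ∀ D, 0 ≤ ρ' D := fun D =>
    add_nonneg (Finset.sum_nonneg fun j _ => ho'0 j) (by linarith)
  have hball : ∀ D ∈ C, ∀ i, c i ⊆ D → h '' Γ i ⊆ closedBall (f (pt (ix D))) (ρ' D) := by
    rintro D hD i hi _ ⟨x, hx, rfl⟩
    rw [mem_closedBall]
    have hxF := hΓF i hx
    obtain ⟨j, hj⟩ := mem_iUnion.1 (hC.cov hxF)
    have hjD : j ∈ D := hi ((hcmem i j).2 ⟨x, hx, hj⟩)
    set z := pt (ix D) with hz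
    have hzΓ : z ∈ Γ (ix D) := hpt _
    have hzF := hΓF _ hzΓ
    obtain ⟨k, hk⟩ := mem_iUnion.1 (hC.cov hzF)
    have hkD : k ∈ D := hix D i hi ((hcmem _ k).2 ⟨z, hzΓ, hk⟩)
    have hsum0 : 0 ≤ ∑ j ∈ D, o' j := Finset.sum_nonneg fun j _ => ho'0 j
    have hfx : dist (f x) (f z) ≤ (∑ j ∈ D, o' j) + 2 * ε := by
      by_cases hjk : j = k
      · subst hjk
        have := hε j x ⟨hj, hxF⟩ z ⟨hk, hzF⟩
        linarith
      · obtain ⟨hlk, hcard⟩ := hCp D hD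
        have hDJ : D ⊆ Jp := by
          rcases hcard with h1 | h1
          · exact h1
          · exact (hjk (Finset.card_le_one.1 h1 j hjD k hkD)).elim
        have key : ∀ m ∈ D, ∀ m' ∈ D, m ≠ m' → (B m ∩ F).Nonempty := by
          intro m hm m' hm' hne
          obtain ⟨q, hq, q', hq', hn, w, hw, hw'⟩ := hlk {m} (Finset.singleton_subset_iff.2 hm)
            (Finset.singleton_nonempty _) (fun h => hne (by
              have : m' ∈ ({m} : Finset J) := h ▸ hm'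
              exact (Finset.mem_singleton.1 this).symm))
          rw [Finset.mem_singleton] at hq
          subst hq
          exact ⟨w, hw⟩
        obtain ⟨b, hb⟩ := key j hjD k hkD hjk
        obtain ⟨b', hb'⟩ := key k hkD j hjD (Ne.symm hjk)
        have e1 := hε j x ⟨hj, hxF⟩ b ⟨hC.sub j hb.1, hb.2⟩
        have e2 := hε k b' ⟨hC.sub k hb'.1, hb'.2⟩ z ⟨hk, hzF⟩
        have e3 := dist_le_sum hlk (o := o') (f := f) (fun j _ => ho'0 j) (by
          intro m hm a ha a' ha'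
          simp only [o', if_pos (hDJ hm)]
          exact ho m a ha a' ha') hjD hkD hb hb'
        have e4 := dist_triangle (f x) (f b) (f z)
        have e5 := dist_triangle (f b) (f b') (f z)
        linarith
    have e6 := dist_triangle (h x) (f x) (f z)
    have e7 := hh x hxF
    change dist (h x) (f z) ≤ (∑ j ∈ D, o' j) + (2 * ε + η)
    linarith
  let e := C.equivFin
  refine ⟨C.card, fun m => f (pt (ix (e.symm m).1)), fun m => ρ' (e.symm m).1,
    fun m => hρ0 _, ?_, ?_⟩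
  · have h1 : ∑ m, ρ' (e.symm m).1 = ∑ D ∈ C, ρ' D := by
      rw [Equiv.sum_comp e.symm (fun D : C => ρ' D.1)]
      exact Finset.sum_coe_sort C ρ'
    rw [h1]
    simp only [ρ']
    rw [Finset.sum_add_distrib, Finset.sum_const, nsmul_eq_mul]
    have h2 : ∑ D ∈ C, ∑ j ∈ D, o' j ≤ ∑ j ∈ Jp, o j := by
      rw [← Finset.sum_biUnion (s := C) (t := fun D => D) (fun D hD D' hD' hne => hCd D hD D' hD' hne)]
      calc ∑ j ∈ C.biUnion (fun D => D), o' j ≤ ∑ j, o' j :=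
            Finset.sum_le_sum_of_subset_of_nonneg (Finset.subset_univ _) (fun j _ _ => ho'0 j)
        _ = ∑ j ∈ Jp, o j := by
            simp only [o']
            rw [← Finset.sum_filter]
            congr 1
            ext j
            simp
    have h3 : (C.card : ℝ) * (2 * ε + η) ≤ Fintype.card ι * (2 * ε + η) := by
      refine mul_le_mul_of_nonneg_right ?_ (by linarith)
      exact_mod_cast hCcard
    linarith
  · intro i
    obtain ⟨D, hD, hi⟩ := hCc i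
    refine ⟨e ⟨D, hD⟩, ?_⟩
    simp only [Equiv.symm_apply_apply]
    exact hball D hD i hi

end Crest.Agent.R096.Sc_968
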