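import Crest.Agent.R096.Sc3_968

/-!
# R096 (S0127), p = 2: small circles, balls chosen before the approximating map (helper753)

`small_circles_pre`: as `Sc_968.small_circles`, but the balls depend only on `f` and on the level
`ts`; they work for all maps `h` near `f`, all levels `t` near `ts` and all (also nested)
significant circles.  Their number is bounded by counting cells: a significant circle has diameter
`≥ δ`, so it meets many cells, and few cells are visited at a good level.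
-/

set_option autoImplicit false

namespace Crest.Agent.R096.Scp_753

open MeasureTheory Set Metric
open scoped ENNReal
open Crest.Agent.R096.Sc_968

/-- at most levels few rims are visited -/
theorem level_count {J : Type*} [Fintype J] {o : J → ℝ} (ho0 : ∀ j, 0 ≤ o j) (ctr : J → ℝ)
    (Jb : Finset J) {L E S d V : ℝ} (hL : 0 ≤ L) (hd : 0 ≤ d) (hV : 0 < V) (hS : 0 ≤ S)
    (hdS : d ^ 2 * Fintype.card J ≤ S ^ 2) (hE : ∑ j ∈ Jb, o j ^ 2 ≤ E) :
    ∃ Bad : Set ℝ, MeasurableSet Bad ∧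
      volume Bad ≤ ENNReal.ofReal (2 * L * (S * √E) / V) ∧
      ∀ t ∉ Bad, d * ((Jb.filter (fun j => |t - ctr j| ≤ L * o j)).card : ℝ) < V := by
  classical
  let I : J → Set ℝ := fun j => Icc (ctr j - L * o j) (ctr j + L * o j)
  let w : J → ℝ≥0∞ := fun j => if j ∈ Jb then ENNReal.ofReal d else 0
  have hm : ∀ q, Measurable (fun t => (I q).indicator (fun _ => w q) t) := fun q =>
    measurable_const.indicator measurableSet_Icc
  have hV' : ENNReal.ofReal V ≠ 0 := by
    rw [Ne, ENNReal.ofReal_eq_zero]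
    linarith
  have hsum : d * ∑ j ∈ Jb, o j ≤ S * √E := by
    have hE0 : 0 ≤ E := (Finset.sum_nonneg fun j _ => sq_nonneg (o j)).trans hE
    have h1 : (∑ j ∈ Jb, o j) ^ 2 ≤ Jb.card * ∑ j ∈ Jb, o j ^ 2 := sq_sum_le_card_mul_sum_sq
    have h2 : (Jb.card : ℝ) ≤ Fintype.card J := by exact_mod_cast Finset.card_le_univ Jb
    have h0 : 0 ≤ ∑ j ∈ Jb, o j := Finset.sum_nonneg fun j _ => ho0 j
    have h3 : (d * ∑ j ∈ Jb, o j) ^ 2 ≤ (S * √E) ^ 2 := by
      rw [mul_pow, mul_pow, Real.sq_sqrt hE0]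
      calc d ^ 2 * (∑ j ∈ Jb, o j) ^ 2 ≤ d ^ 2 * (Fintype.card J * E) := by
            refine mul_le_mul_of_nonneg_left (h1.trans ?_) (sq_nonneg d)
            exact mul_le_mul h2 hE (Finset.sum_nonneg fun j _ => sq_nonneg (o j)) (by positivity)
        _ = d ^ 2 * Fintype.card J * E := by ring
        _ ≤ S ^ 2 * E := mul_le_mul_of_nonneg_right hdS hE0
    exact (pow_le_pow_iff_left₀ (mul_nonneg hd h0) (mul_nonneg hS (Real.sqrt_nonneg _))
      two_ne_zero).1 h3
  refine ⟨{t | ENNReal.ofReal V ≤ ∑' q, (I q).indicator (fun _ => w q) t},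
    measurableSet_le measurable_const (Measurable.tsum hm), ?_, ?_⟩
  · refine (Isl_968.levels_le I (fun q => measurableSet_Icc) w hV' ENNReal.ofReal_ne_top).trans ?_
    have h1 : ∑' q, w q * volume (I q) ≤ ENNReal.ofReal (2 * L * (S * √E)) := by
      rw [tsum_fintype]
      have h2 : ∀ q ∈ Finset.univ, w q * volume (I q) ≤
          ENNReal.ofReal (if q ∈ Jb then 2 * L * (d * o q) else 0) := by
        intro q _
        by_cases hq : q ∈ Jb
        · simp only [w, if_pos hq, I]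
          rw [Real.volume_Icc, ← ENNReal.ofReal_mul hd]
          refine ENNReal.ofReal_le_ofReal (le_of_eq ?_)
          ring
        · simp only [w, if_neg hq, zero_mul]
          exact zero_le
      refine (Finset.sum_le_sum h2).trans ?_
      have h3 : ∀ q : J, 0 ≤ (if q ∈ Jb then 2 * L * (d * o q) else 0) := by
        intro q
        split_ifs
        · have := ho0 q
          positivity
        · exact le_refl 0
      rw [← ENNReal.ofReal_sum_of_nonneg (fun q _ => h3 q)]
      refine ENNReal.ofReal_le_ofReal ?_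
      rw [← Finset.sum_filter]
      have h4 : Finset.univ.filter (fun q => q ∈ Jb) = Jb := by ext; simp
      rw [h4, ← Finset.mul_sum, ← Finset.mul_sum]
      exact mul_le_mul_of_nonneg_left hsum (by linarith)
    refine (ENNReal.div_le_div_right h1 _).trans ?_
    rw [← ENNReal.ofReal_div_of_pos hV]
  · intro t ht
    rw [mem_ofPred_eq, not_le] at ht
    have h1 : ENNReal.ofReal (d * ((Jb.filter (fun j => |t - ctr j| ≤ L * o j)).card : ℝ)) ≤
        ∑' q, (I q).indicator (fun _ => w q) t := by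
      rw [tsum_fintype]
      have e : ENNReal.ofReal (d * ((Jb.filter (fun j => |t - ctr j| ≤ L * o j)).card : ℝ)) =
          ∑ _j ∈ Jb.filter (fun j => |t - ctr j| ≤ L * o j), ENNReal.ofReal d := by
        rw [Finset.sum_const, nsmul_eq_mul, mul_comm, ENNReal.ofReal_mul (by positivity),
          ENNReal.ofReal_natCast]
      rw [e]
      refine le_trans (Finset.sum_le_sum fun j hj => ?_)
        (Finset.sum_le_sum_of_subset_of_nonneg (Finset.subset_univ _) (fun j _ _ => zero_le))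
      rw [Finset.mem_filter] at hj
      have hI : t ∈ I j := by
        have := abs_le.1 hj.2
        exact ⟨by linarith [this.1], by linarith [this.2]⟩
      rw [indicator_of_mem hI]
      simp only [w, if_pos hj.1]
      exact le_refl _
    have h2 := h1.trans_lt ht
    exact (ENNReal.ofReal_lt_ofReal_iff hV).1 h2

/-- all linked subfamilies lie in disjoint clusters -/
theorem exists_clusters_all {X J : Type*} [DecidableEq J] [Fintype J] (A : J → Set X)
    (Jp : Finset J) :
    ∃ C : Finset (Finset J), (∀ D ∈ C, Lk A D) ∧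
      (∀ D ∈ C, ∀ D' ∈ C, D ≠ D' → Disjoint D D') ∧
      (∀ D ∈ C, D ⊆ Jp ∨ D.card ≤ 1) ∧ ∀ s ⊆ Jp, Lk A s → ∃ D ∈ C, s ⊆ D := by
  classical
  let ι := {s : Finset J // s ⊆ Jp ∧ Lk A s}
  obtain ⟨C, -, h2, h3, h4⟩ := exists_clusters A (fun s : ι => s.1) Jp
    (fun s => ⟨s.2.2, Or.inl s.2.1⟩)
  exact ⟨C, fun D hD => (h3 D hD).1, h4, fun D hD => (h3 D hD).2,
    fun s hs hl => h2 ⟨s, hs, hl⟩⟩

/-- the cells met by a connected set are linked through their rims -/
theorem lk_met {X : Type*} [TopologicalSpace X] {F : Set X} {J : Type*} [Fintype J]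
    {Q B : J → Set X} (hC : Cells F Q B) {Γ : Set X} (hΓF : Γ ⊆ F) (hΓc : IsPreconnected Γ)
    (c : Finset J) (hcmem : ∀ j, j ∈ c ↔ (Γ ∩ Q j).Nonempty) :
    Lk (fun j => B j ∩ F) c := by
  classical
  intro s' hs' hne hne'
  obtain ⟨q1, hq1⟩ := hne
  obtain ⟨q2, hq2, hq2'⟩ : ∃ q ∈ c, q ∉ s' := by
    by_contra hno
    push Not at hno
    exact hne' (Finset.Subset.antisymm hs' hno)
  have hC1 : IsClosed (⋃ q ∈ s', Q q) :=
    Set.Finite.isClosed_biUnion s'.finite_toSet (fun q _ => hC.closed q)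
  have hC2 : IsClosed (⋃ q ∈ c \ s', Q q) :=
    Set.Finite.isClosed_biUnion (c \ s').finite_toSet (fun q _ => hC.closed q)
  obtain ⟨x1, hx1, hx1'⟩ := (hcmem q1).1 (hs' hq1)
  obtain ⟨x2, hx2, hx2'⟩ := (hcmem q2).1 hq2
  have hcl := (isPreconnected_closed_iff.1 hΓc) _ _ hC1 hC2 (by
      intro x hx
      obtain ⟨j, hj⟩ := mem_iUnion.1 (hC.cov (hΓF hx))
      have hjc : j ∈ c := (hcmem j).2 ⟨x, hx, hj⟩
      by_cases h1 : j ∈ s'
      · exact Or.inl (mem_iUnion₂.2 ⟨j, h1, hj⟩)
      · exact Or.inr (mem_iUnion₂.2 ⟨j, Finset.mem_sdiff.2 ⟨hjc, h1⟩, hj⟩))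
    ⟨x1, hx1, mem_iUnion₂.2 ⟨q1, hq1, hx1'⟩⟩
    ⟨x2, hx2, mem_iUnion₂.2 ⟨q2, Finset.mem_sdiff.2 ⟨hq2, hq2'⟩, hx2'⟩⟩
  obtain ⟨x, hx, hxa, hxb⟩ := hcl
  obtain ⟨q, hq, hxq⟩ := mem_iUnion₂.1 hxa
  obtain ⟨q', hq', hxq'⟩ := mem_iUnion₂.1 hxb
  rw [Finset.mem_sdiff] at hq'
  have hne2 : q ≠ q' := fun h => hq'.2 (h ▸ hq)
  obtain ⟨b1, b2⟩ := hC.meet q q' hne2 ⟨hxq, hxq'⟩
  exact ⟨q, hq, q', hq'.1, hq'.2, x, ⟨b1, hΓF hx⟩, ⟨b2, hΓF hx⟩⟩

theorem Lk.mono {X J : Type*} {A A' : J → Set X} {s : Finset J} (h : Lk A s)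
    (hA : ∀ j, A j ⊆ A' j) : Lk A' s := by
  intro s' hs' hne hne'
  obtain ⟨q, hq, q', hq', hn, x, hx, hx'⟩ := h s' hs' hne hne'
  exact ⟨q, hq, q', hq', hn, x, hA _ hx, hA _ hx'⟩

/-- opposite rays -/
theorem dist_opp {X : Type*} [NormedAddCommGroup X] [NormedSpace ℝ X] {x p q a b : X}
    (hx : x ∈ segment ℝ p q) (hp : x ≠ p) (hq : x ≠ q) (ha : a ∈ segment ℝ x p)
    (hb : b ∈ segment ℝ x q) : dist x a ≤ dist a b := by
  rw [segment_eq_image] at hx ha hb
  obtain ⟨s, ⟨hs0, hs1⟩, hxs⟩ := hx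
  obtain ⟨α, ⟨hα0, hα1⟩, rfl⟩ := ha
  obtain ⟨β, ⟨hβ0, hβ1⟩, rfl⟩ := hb
  have hs0' : 0 < s := by
    rcases hs0.lt_or_eq with h | h
    · exact h
    · exfalso
      apply hp
      rw [← hxs, ← h]
      simp
  have hs1' : s < 1 := by
    rcases hs1.lt_or_eq with h | h
    · exact h
    · exfalso
      apply hq
      rw [← hxs, h]
      simp
  have hQ : q - x = -((1 - s) / s) • (p - x) := by
    have : s • (q - x) = s • (-((1 - s) / s) • (p - x)) := by
      rw [smul_smul]
      have e : s * -((1 - s) / s) = -(1 - s) := by field_simp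
      rw [e]
      have : x = (1 - s) • p + s • q := hxs.symm
      have e2 : s • (q - x) + (1 - s) • (p - x) = ((1 - s) • p + s • q) - x := by module
      have e3 : s • (q - x) + (1 - s) • (p - x) = 0 := by
        rw [e2, ← this, sub_self]
      rw [neg_smul]
      exact eq_neg_of_add_eq_zero_left e3
    exact smul_right_injective X hs0'.ne' this
  have e1 : x - ((1 - α) • x + α • p) = -(α • (p - x)) := by module
  have e2 : ((1 - α) • x + α • p) - ((1 - β) • x + β • q) =
      (α + β * ((1 - s) / s)) • (p - x) := by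
    have : ((1 - α) • x + α • p) - ((1 - β) • x + β • q) = α • (p - x) - β • (q - x) := by module
    rw [this, hQ]
    module
  simp only [dist_eq_norm]
  rw [e1, e2, norm_neg, norm_smul, norm_smul, Real.norm_eq_abs, Real.norm_eq_abs]
  refine mul_le_mul_of_nonneg_right ?_ (norm_nonneg _)
  have h1 : 0 ≤ β * ((1 - s) / s) := mul_nonneg hβ0 (div_nonneg (by linarith) hs0)
  rw [abs_of_nonneg hα0, abs_of_nonneg (by linarith)]
  linarith

end Crest.Agent.R096.Scp_753
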