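import Crest.Agent.R096.Flb2_422
import Crest.Agent.R096.Sid1_422

/-!
# R096 (row 96), DOORS, G4 (helper422), part 1: **the side function of one sheet on the sliced mesh**.

`oneS s i`  : the state of the points of one name;
`NP L s i`  : the 1-cells without points of `i`;  labels are constant along `NP`-paths;
`exists_sd` : a label of `i` with value 0 outside the body and 1 at the inner foot, from the exact
              circle on the boundary of one shrunk core.
-/

set_option autoImplicit false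
set_option linter.unusedSectionVars false
set_option linter.unusedVariables false

open Set Module Relation
open scoped Classical

namespace Crest.Agent.R096.Sde_422

open Crest.Agent.R096.Msh_715 Crest.Agent.R096.Sla_184 Crest.Agent.R096.Slp_316
  Crest.Agent.R096.Ce_537 Crest.Agent.R096.Exa_560 Crest.Agent.R096.Agl5_543
  Crest.Agent.R096.Seq_213 Crest.Agent.R096.St_147 Crest.Agent.R096.Door_501
  Crest.Agent.R096.Gl_422 Crest.Agent.R096.Vrt_422 Crest.Agent.R096.Lmx_662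
  Crest.Agent.R096.Lm_117 Crest.Agent.R096.Ac_117 Crest.Agent.R096.Cp_298
  Crest.Agent.R096.Ori_543 Crest.Agent.R096.Coh_184 Crest.Agent.R096.Gm_298
  Crest.Agent.R096.Flb_422 Crest.Agent.R096.Sid_422
open Crest.Agent.R096.Sla_184.Sla (hf vf old tg F0 Fn Out OnS InL In)

/-! ### one name of a state -/

section gen

variable {ι Φ W Q : Type} [PartialOrder Q] {dim : Q → ℕ} {M : MeshC ι Φ W}
variable {J C : Type} {fam : J → C} {L : LM M Q dim} {s : GSt M fam} {i : J}

/-- the points of one name -/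
def oneS (s : GSt M fam) (i : J) : GSt M (fun _ : Unit => ()) where
  P := {w | w ∈ s.P ∧ s.lab w = i}
  lab := fun _ => ()
  mu := s.mu
  mu_mem := fun h hw => ⟨⟨(s.mu_mem h.1 hw).1, (s.mu_lab h.1 hw).trans h.2⟩, (s.mu_mem h.1 hw).2⟩
  mu_ne := fun h hw => s.mu_ne h.1 hw
  mu_mu := fun h hw => s.mu_mu h.1 hw
  mu_lab := fun _ _ => rfl
  nc := fun h hw hx hxF _ hne hne' => s.nc h.1 hw hx.1 hxF (by rw [h.2, hx.2]) hne hne'
  fin := fun c => (s.fin (fam i)).subset (by rintro w ⟨⟨h1, h2⟩, -⟩; exact ⟨h1, by rw [h2]⟩)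

theorem gp_one : gp (oneS s i) () = gp s i := by
  ext w
  rw [mem_gp, mem_gp]
  exact ⟨fun h => h.1, fun h => ⟨h, rfl⟩⟩

/-- no quads -/
def qd0 (ι : Type) : Quads ι Unit Empty where
  pr := fun k => k.elim
  ne := fun k => k.elim
  Act := fun k => k.elim
  fin := fun k => k.elim
  disj := fun k => k.elim
  finK := fun _ => Set.toFinite _

/-- the 1-cells without points of `i` -/
def NP (L : LM M Q dim) (s : GSt M fam) (i : J) : Set Q :=
  {e | ∀ w ∈ s.P, s.lab w = i → w ∉ L.toSk.On1 e}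

theorem np_fr0 {e : Q} : e ∈ NP L s i ↔ e ∈ Fr0 L (qd0 ι) (oneS s i) () := by
  constructor
  · intro h
    exact ⟨fun k => k.elim, fun w hw _ => h w hw.1 hw.2⟩
  · rintro ⟨-, h⟩ w hw hl
    exact h w ⟨hw, hl⟩ rfl

/-- the sum of two labels of the same points is constant along all paths -/
theorem add_path {Y : Finset W} {lam lam' : Q → ZMod 2} (h : GLab L Y lam) (h' : GLab L Y lam')
    {Z : Set Q} {v v' : Q} (hp : ReflTransGen (Ed L Z) v v') :
    lam v + lam' v = lam v' + lam' v' := by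
  induction hp with
  | refl => rfl
  | tail _ hbc ih =>
    obtain ⟨e, -, he, b, rfl, rfl⟩ := hbc
    rw [ih]
    have h1 := (h e he).trans (h' e he).symm
    have key : ∀ a b c d : ZMod 2, a + b = c + d → a + c = b + d := by decide
    have h2 := key _ _ _ _ h1
    cases b
    · exact h2
    · exact h2.symm

/-- labels are constant along `NP`-paths -/
theorem np_path {lam : Q → ZMod 2} (h : GLab L (gp s i) lam) {v v' : Q}
    (hp : ReflTransGen (Ed L (NP L s i)) v v') : lam v' = lam v := by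
  induction hp with
  | refl => rfl
  | tail _ hbc ih =>
    obtain ⟨e, he, he1, b, rfl, rfl⟩ := hbc
    rw [← ih]
    have h1 : nW (gp s i) (L.toSk.On1 e) = 0 := nW_empty fun w hw hwe => by
      obtain ⟨h2, h4⟩ := mem_gp.1 hw
      exact he w h2 h4 hwe
    have h2 := h e he1
    rw [h1] at h2
    have h4 : lam (L.en e false) = lam (L.en e true) := by
      have e1 : ∀ x y : ZMod 2, x + y = 0 → x = y := by decide
      exact e1 _ _ h2
    cases b
    · exact h4.symm
    · exact h4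

end gen

/-! ### the sliced mesh -/

section lev

variable {E : Type} [NormedAddCommGroup E] [NormedSpace ℝ E] [FiniteDimensional ℝ E]
variable {Om : Set E} {ι : Type} {T : Tiling Om ι} {Sg : Set E} {J : Type}

/-- one level -/
noncomputable def levOne (L : Lev T Sg J) {j : J} (hj : j ∈ L.J0) : Lev T Sg Unit where
  u := L.u
  aff := L.aff
  J0 := {()}
  lv := fun _ => L.lv j
  inj := fun _ _ _ _ _ => rfl
  vert := fun v hv h0 _ _ => L.vert v hv h0 j hj

end lev

section sla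

variable {E : Type} [NormedAddCommGroup E] [NormedSpace ℝ E] [FiniteDimensional ℝ E]
variable {Om : Set E} {ι : Type} {T : Tiling Om ι} {κ : Type} {S : Sla T κ} {c : κ}
variable {w x y v : E} [Nonempty S.T3.Cell]
variable {h3 : finrank ℝ E = 3} {hH : ∀ c, CoreH S.T3 (S.KK c)} {hne : ∃ c, OutK S.T3 S.KK c}
  {C : Type} {J J' : Type} {fam : J → C}
  {s : GSt (mK h3 hH Sla.dis_KK) fam} {i : J}

/-- no point of `i` in the column over `v` -/
def NoCol (S : Sla T κ) (s : GSt (mK h3 hH Sla.dis_KK) fam) (i : J) (c : κ) (v : E) : Prop :=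
  ∀ l < S.n c, ∀ w ∈ s.P, s.lab w = i → w ∈ S.O c v → ¬ S.InL c l w

theorem NoCol.col (h : NoCol S s i c v) : Col (qd0 (T.RIdx S.HH ⊕ κ)) (oneS s i) () c v where
  fr := fun k => k.elim
  pt := fun l hl w hw hO hL _ => h l hl w hw.1 hw.2 hO hL

/-- the column over a vertex without points is an `NP`-path -/
theorem NoCol.path (h : NoCol S s i c v) (hv : v ∈ frontier (S.K c)) (h0 : T.dim v = 0) {j : ℕ}
    (hj : j ≤ S.n c) :
    ReflTransGen (Ed (lmK h3 hH Sla.dis_KK hne) (NP (lmK h3 hH Sla.dis_KK hne) s i))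
      (oc (edC S.T3 v) (outK_foot hv h0))
      (oc (edC S.T3 (S.hc c v j)) (outK_hc (Sla.fr_Bd hv) hj)) := by
  have h1 := col_path (h3 := h3) (hH := hH) (hne := hne) (Qd := qd0 (T.RIdx S.HH ⊕ κ))
    (s := oneS s i) (a := ()) hv h0 h.col.fr h.col.pt hj
  have e : (oc (edC S.T3 v) (outK_foot hv h0) : QK (belK S.T3 S.KK)) =
      oc (edC S.T3 (S.hc c v 0)) (outK_hc (Sla.fr_Bd hv) (Nat.zero_le _)) := by
    congr 1
    exact (congrArg (edC S.T3) (hc_zero hv h0)).symm
  rw [e]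
  refine ReflTransGen.mono (fun a b hab => hab.mono fun e he => np_fr0.2 he) _ _ h1

/-- the empty state of the old mesh -/
noncomputable def st00 (T : Tiling Om ι) (h3 : finrank ℝ E = 3) :
    GSt (meshC T h3) (fun _ : Unit => ()) where
  P := ∅
  lab := fun _ => ()
  mu := fun _ w => w
  mu_mem := fun h => h.elim
  mu_ne := fun h => h.elim
  mu_mu := fun h => h.elim
  mu_lab := fun _ _ => rfl
  nc := fun h => h.elim
  fin := fun _ => (Set.finite_empty (α := E)).subset fun w hw => hw.1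

/-- **THE SIDE FUNCTION OF ONE SHEET** -/
theorem exists_sd {D : Set E} (hD : IsCompact D) (hDO : D ⊆ Om) (hfr : IsPreconnected (frontier D))
    (htr : TrivF (ZMod 2) D)
    (hW : ∀ w ∈ s.P, s.lab w = i → w ∈ (lmK h3 hH Sla.dis_KK hne).W1)
    (supp : ∀ w ∈ s.P, s.lab w = i → (∀ q, w ∈ Msh_715.P (S.T3.H q) →
      Msh_715.P (S.T3.H q) ⊆ interior D) ∧ ∀ c, w ∈ S.KK c → S.KK c ⊆ interior D)
    (L : Lev T (frontier (S.K c)) J') {j : J'} (hj : j ∈ L.J0)
    (hE : ExG S c L j {w | w ∈ s.P ∧ s.lab w = i}) {v0 v1 : E} (hv0 : v0 ∈ frontier (S.K c))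
    (hd0 : T.dim v0 = 0) (hv1 : v1 ∈ frontier (S.K c)) (hd1 : T.dim v1 = 0)
    (hl0 : L.u v0 < L.lv j) (hl1 : L.lv j < L.u v1) (hC0 : NoCol S s i c v0)
    (hC1 : NoCol S s i c v1) {q1 : QK (belK S.T3 S.KK)} (hq1 : q1 ∈ ZK S.T3 S.KK D)
    (hp : ReflTransGen (Ed (lmK h3 hH Sla.dis_KK hne) (NP (lmK h3 hH Sla.dis_KK hne) s i))
      q1 (oc (edC S.T3 v1) (outK_foot hv1 hd1))) :
    ∃ lam : QK (belK S.T3 S.KK) → ZMod 2, GLab (lmK h3 hH Sla.dis_KK hne) (gp s i) lam ∧
      (∀ v ∈ ZK S.T3 S.KK D, lam v = 0) ∧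
      (∀ p, ReflTransGen (Ed (lmK h3 hH Sla.dis_KK hne) (NP (lmK h3 hH Sla.dis_KK hne) s i))
        (oc (edC S.T3 v0) (outK_foot hv0 hd0)) p → lam p = 1) ∧
      ∀ v ∈ ZK S.T3 S.KK D, ∀ p,
        ReflTransGen (Ed (lmK h3 hH Sla.dis_KK hne) (NP (lmK h3 hH Sla.dis_KK hne) s i)) v p →
          lam p = 0 := by
  -- a label with value 0 outside the body
  obtain ⟨lam, hlam, hz⟩ : ∃ lam : QK (belK S.T3 S.KK) → ZMod 2,
      GLab (lmK h3 hH Sla.dis_KK hne) (gp s i) lam ∧ ∀ v ∈ ZK S.T3 S.KK D, lam v = 0 :=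
    hasLab_K (h3 := h3) (hH := hH) (hdis := Sla.dis_KK) (hne := hne) hD hDO hfr htr (gp s i)
      (fun w hw => hW w (mem_gp.1 hw).1 (mem_gp.1 hw).2) (fun w hw => by
        obtain ⟨h1, h2⟩ := mem_gp.1 hw
        exact GD_of (hne := hne) (hW w h1 h2) (supp w h1 h2).1 (supp w h1 h2).2) (gp_even s i)
  -- a label with value 1 at `v0`
  have hmono : ∀ {a b : QK (belK S.T3 S.KK)},
      ReflTransGen (Ed (lmK h3 hH Sla.dis_KK hne) (NP (lmK h3 hH Sla.dis_KK hne) s i)) a b →
      ReflTransGen (Ed (lmK h3 hH Sla.dis_KK hne)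
        (Fr0 (lmK h3 hH Sla.dis_KK hne) (qd0 (T.RIdx S.HH ⊕ κ)) (oneS s i) ())) a b :=
    fun {a b} h => ReflTransGen.mono (fun a b hab => hab.mono fun e he => np_fr0.1 he) _ _ h
  have hcd : Cd hne (qd0 (T.RIdx S.HH ⊕ κ)) (oneS s i) (st00 T h3) (fun _ _ => 0)
      (oc (edC S.T3 v0) (outK_foot hv0 hd0)) q1 () (Sum.inr c) (edC S.T3 (S.hc c v0 (S.n c)))
      (edC S.T3 (S.hc c v1 (S.n c))) (outK_hc (Sla.fr_Bd hv0) le_rfl)
      (outK_hc (Sla.fr_Bd hv1) le_rfl) (ub S c (levOne L hj).u) (levOne L hj).lv := by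
    refine cd_giant hv0 hd0 hv1 hd1 (levOne L hj) (fun k => k.elim)
      (fun _ _ => Finset.mem_singleton_self _) (fun _ _ => ?_) (fun _ _ => ⟨hl0, hl1⟩)
      hC0.col hC1.col .refl (hmono hp)
    intro w hw h1
    constructor
    · rintro ⟨h2, -⟩
      exact (hE w hw h1).1 h2
    · intro h2
      exact ⟨(hE w hw h1).2 h2, rfl⟩
  obtain ⟨lam', hl'⟩ := labIn_sla (Qd := qd0 (T.RIdx S.HH ⊕ κ)) (s := oneS s i) (fam := fun _ => ())
    (v₀ := fun _ => oc (edC S.T3 v0) (outK_foot hv0 hd0)) (v₁ := fun _ => q1) (fun _ => D)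
    (fun w hw => hW w hw.1 hw.2) (fun _ => hD) (fun _ => hDO) (fun _ => hfr) (fun _ => htr)
    (fun w hw => supp w hw.1 hw.2) (fun _ k => k.elim) (fun _ => hq1)
    (fun _ => ⟨_, _, _, _, _, _, _, hcd⟩)
  have hlab := hl'.lab ()
  rw [gp_one] at hlab
  have h1 := add_path hlam hlab (hl'.rope ())
  have h2 : lam' () (oc (edC S.T3 v0) (outK_foot hv0 hd0)) = 1 := hl'.one ()
  have h4 : lam' () q1 = 0 := hl'.zero ()
  rw [h2, h4, hz q1 hq1] at h1
  have h5 : lam (oc (edC S.T3 v0) (outK_foot hv0 hd0)) = 1 := by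
    have key : ∀ a : ZMod 2, a + 1 = 0 + 0 → a = 1 := by decide
    exact key _ h1
  exact ⟨lam, hlam, hz, fun p hp => (np_path hlam hp).trans h5,
    fun v hv p hp => (np_path hlam hp).trans (hz v hv)⟩

end sla

end Crest.Agent.R096.Sde_422
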