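import Crest.Agent.R096.Sde2_422
import Crest.Agent.R096.Rop16_441
import Crest.Agent.R096.Bse1_344
import Crest.Agent.R096.Sdf2_246
import Crest.Agent.R096.Frk1_441
import Crest.Agent.R096.Bgf10_4

/-!
# R096 (row 96), DOORS, G4 (helper422), part 3: **the side function of a barrier at a tiny core**.

`loc3`       : location of the points of one name of `s2`, feet outside the open cores;
`body_facts` : the body `Om ∩ f⁻¹ {ga ≤ ρ}`;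
`exists_lamM`: label, `0` on `ZK` of the body, side `1` over the low zone (outer tiles and layers).
-/

set_option autoImplicit false
set_option linter.unusedSectionVars false
set_option linter.unusedVariables false
set_option linter.style.longLine false

open Set Filter Topology Metric Module Relation
open scoped Classical

namespace Crest.Agent.R096.Sde_422

open Crest.Agent.R096.Msh_715 Crest.Agent.R096.Sla_184 Crest.Agent.R096.Slp_316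
  Crest.Agent.R096.Ce_537 Crest.Agent.R096.Exa_560 Crest.Agent.R096.Agl5_543
  Crest.Agent.R096.Seq_213 Crest.Agent.R096.St_147 Crest.Agent.R096.Door_501
  Crest.Agent.R096.Gl_422 Crest.Agent.R096.Vrt_422 Crest.Agent.R096.Lmx_662
  Crest.Agent.R096.Lm_117 Crest.Agent.R096.Ac_117 Crest.Agent.R096.Cp_298
  Crest.Agent.R096.Ori_543 Crest.Agent.R096.Coh_184 Crest.Agent.R096.Gm_298
  Crest.Agent.R096.Flb_422 Crest.Agent.R096.Sid_422 Crest.Agent.R096.Cpo_642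
  Crest.Agent.R096.Init_543 Crest.Agent.R096.Dfi_539 Crest.Agent.R096.Dfi_471
  Crest.Agent.R096.Twr_438 Crest.Agent.R096.Ess3_95 Crest.Agent.R096.Ess4_95

open Crest.Agent.R096.Brk1_582 Crest.Agent.R096.Brk2_582 Crest.Agent.R096.Brk3_582
  Crest.Agent.R096.Brk5_582 Crest.Agent.R096.Bsp_628
open Crest.Agent.R096.Ess5_95 Crest.Agent.R096.Bgf_4 Crest.Agent.R096.Ebr1_95
  Crest.Agent.R096.Rop_441 Crest.Agent.R096.Sphg_316
open Crest.Agent.R096.Sla_184.Sla (hf vf old tg F0 Fn Out OnS InL In)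
open Crest.Agent.R096.SkC1_961 (E3 Hom3 FoamD)
open Crest.Agent.R096.Mbf_337 (KJ sb Tiny)
open Crest.Agent.R096.Frn_337 (Ti)

section loc

variable {E : Type} [NormedAddCommGroup E] [NormedSpace ℝ E] [FiniteDimensional ℝ E]
variable {Om : Set E} {ι : Type} {T : Tiling Om ι} {κ : Type} {S : Sla T κ}
  {h3 : finrank ℝ E = 3}
variable {J C : Type} {fam : J → C} [Nonempty J]
  {s : GSt (meshC T h3) fam} {r : J → E} {Sf : J → Set E} {nb : κ → C → Prop}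
  {v0 v1 : ∀ c, C → VxK T S.K c} {u : κ → C → E → ℝ} {A B : κ → C → ℝ}
  {L : ∀ c, C → Lev T (frontier (S.K c)) J}
  {Tw : Twrs (S.sh h3) S.n (outK S.hH S.dis s r)} {l0 : E → J} {w : E}

/-- **location of the points of the name `n` of `s2`** -/
theorem loc3 (D : DIn S.hH s r Sf nb v0 v1 u A B) (lo : LevOut s nb u A B L)
    (tt : TwOut S h3 s r v0 v1 L Tw) {n : J} (Bx : E → Prop)
    (htr : ∀ w ∈ s.P, s.lab w = n → S.Out w → Bx w)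
    (hex : ∀ c, nb c (fam n) → ∀ x ∈ frontier (S.K c), A c (fam n) < u c (fam n) x →
      u c (fam n) x < B c (fam n) → Bx x)
    (hR : ∀ c, nb c (fam n) → ∀ v : S.Vx c,
      Rgn (S.sh h3 c) (v0 c (fam n)) (v1 c (fam n)) (trc S.hH S.dis s r c (fam n))
        (exa h3 S.hH S.dis (L c (fam n))) n v → Bx v.1)
    (hw : w ∈ (s2 S h3 Tw l0).P) (hl : (s2 S h3 Tw l0).lab w = n)
    {p : T.RIdx S.HH} (hp : w ∈ P (S.T3.H p)) : ∃ x ∈ P (T.H p.tile), Bx x := by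
  have hpw : w ∈ P (T.H p.tile) := Sla.P3_sub p hp
  have hO : w ∈ Om := (s2_dim hw).1
  rcases Sla.out_or (S := S) hO with ho | ⟨c, hc⟩
  · obtain ⟨h1, h2, -⟩ := out2 hw ho
    exact ⟨w, hpw, htr w h1 (h2.symm.trans hl) ho⟩
  · have hn := (in2 D lo tt hw hc).1
    obtain ⟨q, h1, -, h2, h4⟩ := base2 D lo tt hw hc
    have hq : q ∈ P (T.H p.tile) := by
      have h5 : p.tile ∈ T.at_ w := hpw
      rw [h2] at h5
      exact h5.1
    refine ⟨q, hq, ?_⟩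
    rw [hl] at hn
    rcases h4 with ⟨h5, h6⟩ | ⟨i, h5, -, h7⟩ | ⟨v, h5, h6⟩
    · refine htr q h5 (h6.trans hl) ⟨T.sub _ hq, fun c' hc' => ?_⟩
      by_cases hcc : c' = c
      · subst hcc; exact hc'.2 h1
      · exact disjoint_left.1 (S.dis c' c hcc) hc'.1 (S.fr_sub c h1)
    · have h8 := lo.win c _ i h5
      rw [hl] at h7 h8
      exact hex c hn q h1 (by rw [h7]; exact h8.1) (by rw [h7]; exact h8.2)
    · rw [hl] at h6
      rw [← h5]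
      exact hR c hn v h6

end loc

section body

variable {δ κ0 R c0 : ℝ} {La Om : Set E3} {ι : Type} {Φ : FoamD δ κ0 R c0 La}
  {T : Tiling Om ι} {f g : E3 → E3} {c : Φ.F} {ρ : ℝ}

/-- **the body** -/
theorem body_facts (hLa : IsOpen La) (H : Hm f g Om La) (hOm : IsOpen Om)
    (hpt : (Φ.B c).lo = (Φ.B c).hi) (hρ0 : 0 < ρ) (hρ1 : ρ < 1) :
    IsCompact (Om ∩ f ⁻¹' {y | ga Φ c y ≤ ρ}) ∧
      IsPreconnected (frontier (Om ∩ f ⁻¹' {y | ga Φ c y ≤ ρ})) ∧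
      TrivF (ZMod 2) (Om ∩ f ⁻¹' {y | ga Φ c y ≤ ρ}) ∧
      (∀ x ∈ Om, ga Φ c (f x) < ρ → x ∈ interior (Om ∩ f ⁻¹' {y | ga Φ c y ≤ ρ})) ∧
      ∀ x ∈ interior (Om ∩ f ⁻¹' {y | ga Φ c y ≤ ρ}), ga Φ c (f x) < ρ := by
  have hb : Bod (Φ.B c).lo (Pc Φ.F c) := Pse_316.bod_brick Φ c hpt
  have hgf : ga Φ c = Ng (Φ.B c).lo (Pc Φ.F c) := funext (Etg_163.gg_eq Φ c)
  set D' : Set E3 := {y | ga Φ c y ≤ ρ} with hD'
  have hDc : IsCompact D' := by rw [hD', hgf]; exact hb.isCompact_le ρ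
  have hDv : Convex ℝ D' := by rw [hD', hgf]; exact hb.convex_le ρ
  have hgc : Continuous (ga Φ c) := by rw [hgf]; exact hb.continuous
  have hlt : {y | ga Φ c y < ρ} ⊆ interior D' :=
    interior_maximal (fun y (hy : ga Φ c y < ρ) => (show ga Φ c y ≤ ρ from hy.le))
      (isOpen_lt hgc continuous_const)
  have hz : ga Φ c (Φ.B c).lo = 0 := by rw [hgf]; exact Ng_self _ _
  have hDi : (interior D').Nonempty := ⟨(Φ.B c).lo, hlt (by show ga Φ c _ < ρ; rw [hz]; exact hρ0)⟩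
  have hDL : D' ⊆ La := by
    rw [hD', hgf]
    exact (hb.le_sub hρ1.le).trans (Φ.bf.sub c.1 c.2)
  have hDi' : ∀ y ∈ interior D', ga Φ c y < ρ := by
    intro y hy
    by_contra hcon
    have hle0 : y ∈ D' := interior_subset hy
    have hle : ga Φ c y ≤ ρ := hle0
    have he : ga Φ c y = ρ := le_antisymm hle (not_lt.1 hcon)
    have ht : Tendsto (fun s : ℝ => (Φ.B c).lo + s • (y - (Φ.B c).lo)) (𝓝[>] 1) (𝓝 y) := by
      have : Tendsto (fun s : ℝ => (Φ.B c).lo + s • (y - (Φ.B c).lo)) (𝓝 1)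
          (𝓝 ((Φ.B c).lo + (1:ℝ) • (y - (Φ.B c).lo))) := by
        apply Continuous.tendsto; fun_prop
      rw [one_smul, add_sub_cancel] at this
      exact this.mono_left nhdsWithin_le_nhds
    have h1 := ht.eventually (isOpen_interior.mem_nhds hy)
    have h2 : ∀ᶠ s : ℝ in 𝓝[>] 1, 1 < s := self_mem_nhdsWithin
    obtain ⟨s, hs1, hs2⟩ := (h1.and h2).exists
    have h3 : ga Φ c ((Φ.B c).lo + s • (y - (Φ.B c).lo)) = s * ρ := by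
      rw [← he, hgf]; exact Ng_ray _ _ (by linarith) y
    have h4' : (Φ.B c).lo + s • (y - (Φ.B c).lo) ∈ D' := interior_subset hs1
    have h4 : ga Φ c ((Φ.B c).lo + s • (y - (Φ.B c).lo)) ≤ ρ := h4'
    rw [h3] at h4
    nlinarith
  have hint : interior (Om ∩ f ⁻¹' D') = Om ∩ f ⁻¹' interior D' := interior_pre hOm H hLa D'
  have hfrD : frontier (Om ∩ f ⁻¹' D') = Om ∩ f ⁻¹' frontier D' := frontier_pre hOm H hLa hDc hDL
  refine ⟨H.isCompact_pre hDL hDc, ?_, H.trivF_pre hDL hDc fun n => Vb_965.trivAll_convex' hDc hDv,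
    fun x hx hg => ?_, fun x hx => ?_⟩
  · rw [hfrD]
    exact H.preconn_pre (hDc.isClosed.frontier_subset.trans hDL)
      (Lab_184.isPreconnected_frontier fr3 hDc hDv hDi)
  · rw [hint]; exact ⟨hx, hlt hg⟩
  · rw [hint] at hx; exact hDi' _ hx.2

end body

section low

variable {δ κ0 R c0 : ℝ} {La Om : Set E3} {ι : Type} {Φ : FoamD δ κ0 R c0 La}
  {T : Tiling Om ι} {f g : E3 → E3} {κ1 κ2 : ℝ} {X : Set Φ.F} {J0 J V : Φ.F → Set ι}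
  {ct : Φ.F → ι} {A' : Φ.F → E3 ≃ᵃ[ℝ] E3} {lam : Φ.F → ℝ} {z : Φ.F → E3} {θ : Φ.F → E3 → E3}
  {φ : Φ.F → E3 → ℝ} {κ : Type} {S : Sla T κ}
  {c : Φ.F} {G : E3 → ℝ} {ρ1 ρ2 ρ3 ρ4 d lo' hi' ω : ℝ}
  {Jn Cn : Type} {fam : Jn → Cn} [Nonempty Jn]
  {s : GSt (meshC T fr3) fam} {rt : Jn → E3} {Sf : Jn → Set E3} {nb : κ → Cn → Prop}
  {v0 v1 : ∀ c, Cn → VxK T S.K c} {u : κ → Cn → E3 → ℝ} {A B : κ → Cn → ℝ}
  {L : ∀ c, Cn → Lev T (frontier (S.K c)) Jn}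
  {Tw : Twrs (S.sh fr3) S.n (outK S.hH S.dis s rt)} {l0 : E3 → Jn}
  [Nonempty S.T3.Cell] {hH : ∀ c, CoreH S.T3 (S.KK c)} {hne : ∃ c, OutK S.T3 S.KK c}

/-- points outside the open core have gauge `≥ ρ2` -/
theorem ga_ge (hLa : IsOpen La) (H : Hm f g Om La)
    (hC : Mbf_337.Cores Φ T f κ1 κ2 X J0 J V ct A' lam z θ φ) (hc : c ∉ X)
    (hZ : BZ Φ T f J0 J V θ c G ρ1 ρ2 ρ3 ρ4 d lo' hi' ω) {x : E3} (hx : x ∈ Om)
    (h : x ∉ interior (KJ T (J c))) : ρ2 ≤ ga Φ c (f x) := by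
  have hT := hC.tiny c hc
  by_contra hcon
  exact h (K_int H ((foam4 Φ hLa).sub c) (bz_ga hLa H hC hc hZ) hZ.hr hT.sub0
    (bz_cl hLa H hC hc hZ) hT.mem hx (not_le.1 hcon))

/-- **the position of the points of the barrier in `s2`** -/
theorem pos_bar (hLa : IsOpen La) (H : Hm f g Om La)
    (hC : Mbf_337.Cores Φ T f κ1 κ2 X J0 J V ct A' lam z θ φ) (hc : c ∉ X)
    (hZ : BZ Φ T f J0 J V θ c G ρ1 ρ2 ρ3 ρ4 d lo' hi' ω)
    (D : DIn S.hH s rt Sf nb v0 v1 u A B) (lo : LevOut s nb u A B L)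
    (tt : TwOut S fr3 s rt v0 v1 L Tw) {i : Jn} {k : κ} (hk : S.K k = KJ T (J c))
    (hnb' : ∀ k', nb k' (fam i) → k' = k) {a0 a1 τ : ℝ}
    (hp : ∀ w ∈ s.P, s.lab w = i → f w ∈ SB1 Φ c G a0 a1 τ) (ha0 : a0 < ρ2) (ha4 : a1 ≤ ρ4)
    {z1 : ℝ} (hz1 : z1 - ω ≤ τ)
    (hex : ∀ x ∈ frontier (KJ T (J c)), A k (fam i) < u k (fam i) x →
      u k (fam i) x < B k (fam i) → z1 ≤ G (θ c x))
    (hRg : ∀ v : S.Vx k, Rgn (S.sh fr3 k) (v0 k (fam i)) (v1 k (fam i))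
      (trc S.hH S.dis s rt k (fam i)) (exa fr3 S.hH S.dis (L k (fam i))) i v → z1 ≤ G (θ c v.1))
    {w : E3} (hw : w ∈ (s2 S fr3 Tw l0).P) (hl : (s2 S fr3 Tw l0).lab w = i)
    {p : T.RIdx S.HH} (hwp : w ∈ P (S.T3.H p)) :
    ∃ x ∈ P (T.H p.tile), ρ2 ≤ ga Φ c (f x) ∧ ga Φ c (f x) ≤ ρ4 ∧
      (a1 ≤ ga Φ c (f x) ∨ z1 - ω ≤ G (Φ.Psi (f x))) := by
  have hr := hZ.hr
  have key : ∀ x ∈ frontier (KJ T (J c)), z1 ≤ G (θ c x) → ρ2 ≤ ga Φ c (f x) ∧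
      ga Φ c (f x) ≤ ρ4 ∧ (a1 ≤ ga Φ c (f x) ∨ z1 - ω ≤ G (Φ.Psi (f x))) := by
    intro x hx h
    have h1 := hr.fr x hx
    have h2 := abs_le.1 (hZ.near x hx)
    exact ⟨h1.1, by linarith [hr.r34, hr.d0], Or.inr (by linarith [h2.2])⟩
  refine loc3 D lo tt (n := i) (fun x => ρ2 ≤ ga Φ c (f x) ∧ ga Φ c (f x) ≤ ρ4 ∧
      (a1 ≤ ga Φ c (f x) ∨ z1 - ω ≤ G (Φ.Psi (f x)))) ?_ ?_ ?_ hw hl hwp
  · intro w hw hl ho
    obtain ⟨-, e1, e2, e3, e4⟩ := hp w hw hl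
    have h1 : ρ2 ≤ ga Φ c (f w) := by
      refine ga_ge hLa H hC hc hZ ho.1 fun h => ?_
      rw [← hk] at h
      exact ho.2 k (Sla.in_iff.2 h)
    refine ⟨h1, e2.trans ha4, ?_⟩
    rcases e4 with e4 | e4 | e4
    · linarith
    · exact Or.inl e4.ge
    · exact Or.inr (by linarith)
  · intro k' hn x hx h1 h2
    obtain rfl := hnb' k' hn
    rw [hk] at hx
    exact key x hx (hex x hx h1 h2)
  · intro k' hn v hv
    obtain rfl := hnb' k' hn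
    have hx := v.2.2
    have hx' : v.1 ∈ frontier (KJ T (J c)) := by rw [← hk]; exact hx
    exact key v.1 hx' (hRg v hv)

/-- **THE SIDE OVER THE LOW ZONE** -/
theorem side_low (hLa : IsOpen La) (H : Hm f g Om La)
    (hC : Mbf_337.Cores Φ T f κ1 κ2 X J0 J V ct A' lam z θ φ) (hc : c ∉ X)
    (hZ : BZ Φ T f J0 J V θ c G ρ1 ρ2 ρ3 ρ4 d lo' hi' ω) (hK : TinyK X J S)
    (D : DIn S.hH s rt Sf nb v0 v1 u A B) (lo : LevOut s nb u A B L)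
    (tt : TwOut S fr3 s rt v0 v1 L Tw) {i : Jn} {k : κ} (hk : S.K k = KJ T (J c))
    (hnb' : ∀ k', nb k' (fam i) → k' = k) {a0 a1 τ : ℝ}
    (hp : ∀ w ∈ s.P, s.lab w = i → f w ∈ SB1 Φ c G a0 a1 τ) (ha0 : a0 < ρ2) (ha4 : a1 ≤ ρ4)
    {z1 : ℝ} (hz1 : z1 - ω ≤ τ)
    (hex : ∀ x ∈ frontier (KJ T (J c)), A k (fam i) < u k (fam i) x →
      u k (fam i) x < B k (fam i) → z1 ≤ G (θ c x))
    (hRg : ∀ v : S.Vx k, Rgn (S.sh fr3 k) (v0 k (fam i)) (v1 k (fam i))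
      (trc S.hH S.dis s rt k (fam i)) (exa fr3 S.hH S.dis (L k (fam i))) i v → z1 ≤ G (θ c v.1))
    {b r r' : ℝ} (h1 : ρ1 ≤ r) (h2 : r < ρ2) (h4 : r' ≤ ρ4)
    {lm : QK (belK S.T3 S.KK) → ZMod 2}
    (hlm : GLab (lmK fr3 hH Sla.dis_KK hne) (gp (s2 S fr3 Tw l0) i) lm)
    (hone : ∀ v, NearZ S (ZL Φ T f c (J c) (θ c) G b ω r r') v → lm v = 1)
    {g0 zz : ℝ} (hg0 : g0 + 2 * d < a1) (hg1 : g0 + d ≤ r') (hz : zz + 3 * ω < z1)
    (hzb : zz + ω ≤ b) {w : E3} (hw : w ∈ (lmK fr3 hH Sla.dis_KK hne).W1)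
    {p : T.RIdx S.HH} (hout : ∀ c, ¬ P (S.T3.H p) ⊆ S.KK c) (hwp : w ∈ P (S.T3.H p))
    (hy : ∃ y ∈ P (T.H p.tile), ρ1 ≤ ga Φ c (f y) ∧ ga Φ c (f y) ≤ g0 ∧ G (Φ.Psi (f y)) ≤ zz) :
    side (lmK fr3 hH Sla.dis_KK hne) (s2 S fr3 Tw l0) i lm w = 1 := by
  have hr := hZ.hr
  have hT := hC.tiny c hc
  have w0 := hZ.w0
  have hd0 := hr.d0
  set Lo : Set ι := {q | ∃ y ∈ P (T.H q), ga Φ c (f y) ≤ g0 + d ∧ G (Φ.Psi (f y)) ≤ zz + ω}
    with hLo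
  set Lo₁ : Set ι := {q | ∃ y ∈ P (T.H q), ρ1 ≤ ga Φ c (f y) ∧ ga Φ c (f y) ≤ g0 ∧
    G (Φ.Psi (f y)) ≤ zz} with hLo1
  have hg4 : g0 ≤ ρ4 := by linarith
  have hno : NoT (hH := hH) S (s2 S fr3 Tw l0) i Lo := by
    rintro p' ⟨y, hy, hy1, hy2⟩ - w' hw' hl' hwp'
    obtain ⟨x, hx, x1, x2, x4⟩ := pos_bar hLa H hC hc hZ D lo tt hk hnb' hp ha0 ha4 hz1 hex hRg
      hw' hl' hwp'
    have x1' : ρ1 ≤ ga Φ c (f x) := by linarith [hr.r12, hd0]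
    have o1 := abs_le.1 (hr.tile_osc hx x1' x2 hy).1
    have o2 := abs_le.1 (hZ.osc _ x hx x1' x2 y hy)
    rcases x4 with x4 | x4
    · linarith [o1.2]
    · linarith [o2.2]
  have hnb1 : ∀ q ∈ Lo₁, ∀ q', (P (T.H q) ∩ P (T.H q')).Nonempty → q' ∈ Lo := by
    rintro q ⟨y, hy, y0, y1, y2⟩ q' ⟨x, hx, hx'⟩
    have o1 := abs_le.1 (hr.tile_osc hy y0 (by linarith) hx).1
    have o2 := abs_le.1 (hZ.osc _ y hy y0 (by linarith) x hx)
    exact ⟨x, hx', by linarith [o1.1], by linarith [o2.1]⟩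
  obtain ⟨v, hv, hd, ⟨q, hq, hvq⟩, hval⟩ := side_tile hlm hno hnb1 hw (p := p) hy hout hwp
  obtain ⟨y, hyp, y0, y1, y2⟩ := hy
  have o1 := abs_le.1 (hr.tile_osc hyp y0 (by linarith) hv).1
  have o2 := abs_le.1 (hZ.osc _ y hyp y0 (by linarith) v hv)
  have hvO : v ∈ Om := T.sub _ hv
  have hvi := notInt_tile hLa H hC hc hZ ⟨k, hk⟩ hq hvq
  have hv2 := ga_ge hLa H hC hc hZ hvO hvi
  have hv3 : ga Φ c (f v) ≤ r' := by linarith [o1.1]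
  obtain ⟨hqV, hqJ⟩ := hr.tile hvq (by linarith) (hv3.trans h4)
  have hfr := (psi_tile hLa H hT hr hqV hqJ hvq).2
  have hvZ : v ∈ ZL Φ T f c (J c) (θ c) G b ω r r' :=
    low_out hLa H hC hc hZ ⟨k, hk⟩ hq hvq (by linarith) hv3 hfr (by linarith [o2.1])
  rw [hval (vx3 hq hvq hd).2.2.2.2]
  exact hone _ (nearZ_vx (fun x hx => zo_cov hLa H hC hc hZ hK h1 h4 hx) hvZ hvO
    ((Sla.T3_eq hq hvq).2.2.trans hd) _)

end low

end Crest.Agent.R096.Sde_422
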