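import Crest.Agent.R096.Sec9_892

/-!
# R096 / DOORS-SEC, part 10 (helper892): CUT, one curve at a time, with pull back of closed sets
-/

set_option autoImplicit false

namespace Crest.Agent.R096.SecW_892

open Crest.Agent.R096.St_147 Crest.Agent.R096.Wk_689 Crest.Agent.R096.F_422
open Crest.Agent.R096.Sec_892

variable {ι Φ W I : Type} {M : MeshC ι Φ W} {col : I → Bool} {s : St M col}
variable {Act : Set ι} {far : I → Set W}

/-- closed under the `K`-chords of the sheet `i` -/
def KCl (s : St M col) (i : I) (K : Φ → W → Prop) (X : Set W) : Prop :=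
  ∀ F w, s.At F w → s.lab w = i → K F w → (w ∈ X ↔ s.mu F w ∈ X)

/-- `K` contains all chords on the faces of the cells which have a barrier point -/
def KBar (s : St M col) (K : Φ → W → Prop) : Prop :=
  ∀ q F F' h, q ∈ M.side F → q ∈ M.side F' → HP s h → h ∈ M.On F' → ∀ w, K F w

/-- **pull back of closed sets** -/
def PB (s' s : St M col) : Prop :=
  ∀ i, col i = true → ∀ K : Φ → W → Prop, KBar s K → ∀ X', KCl s' i K X' →
    ∃ X, KCl s i K X ∧ ∀ w, w ∈ s.P → s.lab w = i → w ∈ s'.P → s'.lab w = i → (w ∈ X ↔ w ∈ X')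

/-- the relation between the cut state and the old state -/
structure CL2 (Act : Set ι) (far : I → Set W) (Ph : Finset W) (s' s : St M col) : Prop where
  cle : CLe Act far Ph s' s
  /-- old points keep their names -/
  lab : ∀ w ∈ s'.P, w ∈ s.P → s'.lab w = s.lab w
  /-- free chords with a kept end are kept and stay free -/
  off : ∀ F w, s.At F w → w ∈ s'.P → s.Free F w → s'.mu F w = s.mu F w ∧ s'.Free F w
  pb : PB s' s

theorem PB.refl (s : St M col) : PB s s := fun _ _ _ _ X h => ⟨X, h, fun _ _ _ _ _ => Iff.rfl⟩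

theorem CL2.refl (Act : Set ι) (far : I → Set W) (Ph : Finset W) (s : St M col) :
    CL2 Act far Ph s s :=
  ⟨CLe.refl _ _ _ _, fun _ _ _ => rfl, fun _ _ _ _ h => ⟨rfl, h⟩, PB.refl s⟩

theorem CL2.trans {Ph Ph' : Finset W} {s'' s' s : St M col} (hPh : Ph ⊆ Ph') (hP : s.P ⊆ Ph')
    (h2 : CL2 Act far Ph' s'' s') (h1 : CL2 Act far Ph s' s)
    (hg' : s'.Good Act far) : CL2 Act far Ph s'' s := by
  have hmid : ∀ w, w ∈ s''.P → w ∈ s.P → w ∈ s'.P := by
    intro w hw hws
    rcases h2.cle.P w hw with h | h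
    · exact h
    · exact absurd (hP hws) h.1
  refine ⟨CLe.trans hPh h2.cle h1.cle hg', ?_, ?_, ?_⟩
  · intro w hw hws
    have h := hmid w hw hws
    rw [h2.lab w hw h, h1.lab w h hws]
  · intro F w hw hw'' hf
    have h := hmid w hw'' hw.1
    obtain ⟨a1, a2⟩ := h1.off F w hw h hf
    obtain ⟨b1, b2⟩ := h2.off F w ⟨h, hw.2⟩ hw'' a2
    exact ⟨b1.trans a1, b2⟩
  · intro i hi K hK X'' hX''
    have hK' : KBar s' K := fun q F F' h hq hq' hh hF' => hK q F F' h hq hq' ((h1.cle.hp h).1 hh) hF'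
    obtain ⟨X', hX', e'⟩ := h2.pb i hi K hK' X'' hX''
    obtain ⟨X, hX, e⟩ := h1.pb i hi K hK X' hX'
    refine ⟨X, hX, fun w hw hwi hw'' hwi'' => ?_⟩
    have h := hmid w hw'' hw
    have hl : s'.lab w = i := by rw [h1.lab w h hw, hwi]
    rw [e w hw hwi h hl, e' w h hl hw'' hwi'']

/-! ### one curve -/

section curve

variable {A : s.Arcs Act} {z₀ : s.Dbl}

/-- a function which is constant along the chords of the sheet on the cells of a curve is constant
along the curve -/
theorem curve_const (hz₀ : z₀ ∈ A.mx) {K : Φ → W → Prop} (hK : KBar s K) {Ψ : W → ZMod 2}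
    (hΨ : ∀ F w, s.At F w → s.lab w = s.lab (z₀.e true) → K F w → Ψ w = Ψ (s.mu F w))
    {z : s.Dbl} (hz : z ∈ A.cv z₀) :
    s.lab (z.e true) = s.lab (z₀.e true) ∧ Ψ (z.e true) = Ψ (z₀.e true) := by
  classical
  induction hz with
  | refl => exact ⟨rfl, rfl⟩
  | @tail u v h1 h ih =>
    obtain ⟨q, hq, rfl⟩ := h
    have hu := cv_sub A.mx_closed hz₀ h1
    have hqA : q ∈ Act := (A.mx_closed u hu q hq).1
    have hl := Sd1_161.lab_arc A true hqA hq
    refine ⟨hl.trans ih.1, ?_⟩
    rw [← ih.2]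
    have hH : HP s (u.e false) := ⟨(u.at_ false).1, u.colr false⟩
    have hKq : ∀ F, q ∈ M.side F → ∀ w, K F w := fun F hF w =>
      hK q F u.F (u.e false) hF hq hH (u.at_ false).2 w
    have h := A.same true hqA hq (fun p => if s.lab (chd p).2 = s.lab (z₀.e true) then
      Ψ (chd p).2 else 0) (by
        intro F F' w p p' hF hF' he he'
        have key : ∀ (F : Φ) (p : s.Sub true), q ∈ M.side F → p.End F w →
            (s.lab (chd p).2 = s.lab w ∧ (s.lab w = s.lab (z₀.e true) → Ψ (chd p).2 = Ψ w)) := by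
          intro F p hF he
          obtain ⟨hat, h | h⟩ := he
          · obtain ⟨_, b, rfl, hb⟩ := h
            simp only [chd, hb]
            exact ⟨trivial, fun _ => trivial⟩
          · obtain ⟨_, h⟩ := h
            have hc : (chd p).2 = s.mu F w := by
              rcases p with b | z
              · simp only [chd]
                rw [h.1]
              · simp only [chd]
                rw [h.2.1]
            rw [hc]
            exact ⟨s.mu_lab hat.1 hat.2, fun hl => (hΨ F w hat hl (hKq F hF w)).symm⟩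
        have k1 := key F p hF he
        have k2 := key F' p' hF' he'
        beta_reduce
        rw [k1.1, k2.1]
        split_ifs with hc
        · rw [k1.2 hc, k2.2 hc]
        · rfl) (by
        intro y p p' _ hb ha'
        beta_reduce
        rw [below_chd hb, ha']
        rfl)
    have e1 : (if s.lab (chd (Sum.inr u : s.Sub true)).2 = s.lab (z₀.e true) then
        Ψ (chd (Sum.inr u : s.Sub true)).2 else 0) = Ψ (u.e true) := if_pos ih.1
    have e2 : (if s.lab (chd (Sum.inr (A.arc q u) : s.Sub true)).2 = s.lab (z₀.e true) then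
        Ψ (chd (Sum.inr (A.arc q u) : s.Sub true)).2 else 0) = Ψ ((A.arc q u).e true) :=
      if_pos (hl.trans ih.1)
    exact (e2.symm.trans (h.symm)).trans e1

end curve

theorem exists_side' (F : Φ) : ∃ q, q ∈ M.side F := by
  rcases h : M.side F with ⟨q, q'⟩
  exact ⟨q, Sym2.mem_mk_left q q'⟩

section step

variable {G : Set s.Dbl} {inn : s.Dbl → Bool → Bool} {nm : Dart s → Option I}
variable {up : Φ → W → Bool} {Ph : Finset W} {b : Bool} {c : W → W}

/-- kept old points keep their names -/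
theorem nst_same (hg : s.Good Act far) (N : NmsT s G far inn nm) {v : W}
    (hv : v ∈ (nst hg N).P) (hc : col (s.lab v) = true) : (nst hg N).lab v = s.lab v := by
  have h1 := (mem_nmd (hg := hg) (N := N)).1 hv
  have hi : col ((nst hg N).lab v) = true := h1.2.1
  by_cases h : ∃ F, s.At F v
  · obtain ⟨F, h2⟩ := h
    exact N.same F v h2 _ hc (joined_nm N h1.2.1 h1.2.2 h2)
  · have h3 : v ∈ {u | u = v → u ∈ far ((nst hg N).lab v)} := by
      refine h1.2.2 {u | u = v → u ∈ far ((nst hg N).lab v)} (fun u hu _ => hu) ?_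
      intro F u _ hA he
      exact (h ⟨F, he ▸ mu'_at G inn hA⟩).elim
    exact (hg.far_mem (h3 rfl)).2.symm

/-- a common point of the pushed state and the old one -/
theorem pst_common (hg : s.Good Act far) (N : NmsT s G far inn nm) (hp : Push s up Ph b c)
    (hP : s.P ⊆ Ph) {w : W} (hw : w ∈ (pst hp hP (nst_sub hg N)).P) (hws : w ∈ s.P) :
    (HP s w ∨ (w ∈ kA (nst hg N) ∧ col (s.lab w) = true)) ∧
      (pst hp hP (nst_sub hg N)).lab w = s.lab w := by
  rcases pst_cases hw with ⟨v, hv, rfl⟩ | h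
  · have hvP := nst_sub hg N (mem_kA.1 hv).1
    cases hc : col (s.lab v)
    · exfalso
      rw [ph_pos hc] at hws
      exact hp.nin ⟨hvP, hc⟩ (hP hws)
    · rw [(pst_ph hv).2.1]
      rw [ph_neg hc]
      exact ⟨Or.inr ⟨hv, hc⟩, nst_same hg N (mem_kA.1 hv).1 hc⟩
  · exact ⟨Or.inl h, (pst_hp h).2.1⟩

theorem pst_off (hg : s.Good Act far) (N : NmsT s G far inn nm) (hp : Push s up Ph b c)
    (hP : s.P ⊆ Ph) (h2 : Two s up) {F : Φ} {w : W} (hw : s.At F w)
    (hw' : w ∈ (pst hp hP (nst_sub hg N)).P) (hf : s.Free F w) :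
    (pst hp hP (nst_sub hg N)).mu F w = s.mu F w ∧ (pst hp hP (nst_sub hg N)).Free F w := by
  have hmu : (pst hp hP (nst_sub hg N)).mu F w = s.mu F w := by
    rcases (pst_common hg N hp hP hw' hw.1).1 with h | ⟨h, hc⟩
    · exact (pst_hp h).2.2 F
    · have h3 := (pst_ph (hp := hp) (hP := hP) (ht := nst_sub hg N) h).2.2 F
      have h4 : (nst hg N).mu F w = s.mu F w := (free_keep (nmd hg N) hw hf).1
      rw [ph_neg hc, h4, ph_neg (by rw [s.mu_lab hw.1 hw.2]; exact hc)] at h3
      exact h3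
  exact ⟨hmu, pst_free hg N hp hP h2 hw hf hmu⟩

/-- **pull back of closed sets for one curve** -/
theorem pst_pb {A : s.Arcs Act} {z₀ : s.Dbl} (hz₀ : z₀ ∈ A.mx) (hg : s.Good Act far)
    (N : NmsT s (A.cv z₀) far inn nm) (hp : Push s up Ph b c) (hP : s.P ⊆ Ph)
    (hgood : (pst hp hP (nst_sub hg N)).Good Act far) :
    PB (pst hp hP (nst_sub hg N)) s := by
  classical
  intro i hi K hK X' hX'
  set t := nst hg N with ht
  set s' := pst hp hP (nst_sub hg N) with hs'
  set χ : W → ZMod 2 := fun w => if w ∈ X' then 1 else 0 with hχ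
  have hχe : ∀ {u v : W}, (u ∈ X' ↔ v ∈ X') → χ u = χ v := fun h => if_congr h rfl rfl
  -- kept points
  have hkept : ∀ {w}, w ∈ t.P → s.lab w = i → t.lab w = i ∧ ph s c w = w ∧ w ∈ s'.P ∧
      s'.lab w = i := by
    intro w hw hwi
    have hc : col (s.lab w) = true := by rw [hwi]; exact hi
    have h1 : t.lab w = i := (nst_same hg N hw hc).trans hwi
    have h2 : w ∈ kA t := mem_kA.2 ⟨hw, by rw [h1]; exact hi⟩
    have h3 := pst_ph (hp := hp) (hP := hP) (ht := nst_sub hg N) h2
    rw [ph_neg hc] at h3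
    exact ⟨h1, ph_neg hc, h3.1, h3.2.1.trans h1⟩
  have hcom : ∀ w, w ∈ s.P → s.lab w = i → w ∈ s'.P → w ∈ t.P := by
    intro w hw hwi hw'
    rcases (pst_common hg N hp hP hw' hw).1 with h | ⟨h, hc⟩
    · exfalso
      have h3 := h.2
      rw [hwi, hi] at h3
      exact Bool.false_ne_true h3.symm
    · exact (mem_kA.1 h).1
  have htm : ∀ {F w}, s.At F w → w ∈ t.P → t.mu F w ∈ t.P := fun hA hw => (nmd hg N).mem hA hw
  -- free chords
  have hfree : ∀ {F w}, s.At F w → s.lab w = i →
      (∀ z ∈ A.cv z₀, z.F = F → z.e true ≠ s.lo F w) → t.mu F w = s.mu F w := by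
    intro F w hA hwi hz
    exact mu'_eq_mu hA (by rw [hwi, hi]; exact hz)
  have hfree_iff : ∀ {F w}, s.At F w → s.lab w = i →
      (∀ z ∈ A.cv z₀, z.F = F → z.e true ≠ s.lo F w) →
      (w ∈ t.P → s.mu F w ∈ t.P ∧ s'.mu F w = s.mu F w) := by
    intro F w hA hwi hz hw
    have h1 := hfree hA hwi hz
    have h2 := htm hA hw
    rw [h1] at h2
    refine ⟨h2, ?_⟩
    obtain ⟨h3, h4, -, -⟩ := hkept hw hwi
    have h5 : w ∈ kA t := mem_kA.2 ⟨hw, by rw [h3]; exact hi⟩
    have h6 := (pst_ph (hp := hp) (hP := hP) (ht := nst_sub hg N) h5).2.2 F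
    rw [h4] at h6
    refine h6.trans ?_
    show ph s c (t.mu F w) = _
    rw [h1]
    exact (hkept h2 ((s.mu_lab hA.1 hA.2).trans hwi)).2.1
  have hlo : ∀ {F w}, s.At F w → s.lo F (s.mu F w) = s.lo F w := by
    intro F w hA
    unfold St.lo
    rw [s.mu_mu hA.1 hA.2]
    rcases lt_trichotomy (M.pos F w) (M.pos F (s.mu F w)) with h | h | h
    · rw [if_neg (not_le.2 h), if_pos h.le]
    · exact absurd (M.pos_inj F hA.2 (s.mu_mem hA.1 hA.2).2 h).symm (s.mu_ne hA.1 hA.2)
    · rw [if_pos h.le, if_neg (not_le.2 h)]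
  -- the cochain
  set θ : Φ → W → ZMod 2 := fun F w =>
    if w ∈ t.P ∧ ¬ K F w ∧ ¬ K F (s.mu F w) then χ w + χ (s.mu F w) else 0 with hθ
  have hθK : ∀ {F w}, K F w → θ F w = 0 := fun h => if_neg fun h' => h'.2.1 h
  obtain ⟨Ψ, hΨ⟩ := hg.h1 i θ (by
    intro q
    by_cases hq : ∃ F' h, q ∈ M.side F' ∧ HP s h ∧ h ∈ M.On F'
    · obtain ⟨F', h, hq', hh, hF'⟩ := hq
      refine ⟨fun _ => 0, fun F w hF hA hl => ?_⟩
      rw [add_zero]
      exact hθK (hK q F F' h hF hq' hh hF' w)
    · refine ⟨fun w => if w ∈ t.P then χ w else 0, fun F w hF hA hl => ?_⟩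
      have hno : ∀ z ∈ A.cv z₀, z.F = F → z.e true ≠ s.lo F w := by
        intro z _ hzF _
        exact hq ⟨z.F, z.e false, by rw [hzF]; exact hF, ⟨(z.at_ false).1, z.colr false⟩,
          (z.at_ false).2⟩
      have hA' := At.mu s hA
      have hl' : s.lab (s.mu F w) = i := (s.mu_lab hA.1 hA.2).trans hl
      have hno' : ∀ z ∈ A.cv z₀, z.F = F → z.e true ≠ s.lo F (s.mu F w) := by
        rw [hlo hA]; exact hno
      by_cases hw : w ∈ t.P
      · obtain ⟨h1, h2⟩ := hfree_iff hA hl hno hw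
        beta_reduce
        rw [if_pos hw, if_pos h1]
        by_cases hk : K F w ∨ K F (s.mu F w)
        · have h3 : w ∈ X' ↔ s.mu F w ∈ X' := by
            rcases hk with hk | hk
            · have := hX' F w ⟨(hkept hw hl).2.2.1, hA.2⟩ (hkept hw hl).2.2.2 hk
              rwa [h2] at this
            · have h4 := (hfree_iff hA' hl' hno' h1).2
              rw [s.mu_mu hA.1 hA.2] at h4
              have := hX' F (s.mu F w) ⟨(hkept h1 hl').2.2.1, hA'.2⟩ (hkept h1 hl').2.2.2 hk
              rw [h4] at this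
              exact this.symm
          rw [hχe h3, add_self2]
          exact if_neg fun h' => hk.elim h'.2.1 h'.2.2
        · rw [not_or] at hk
          exact if_pos ⟨hw, hk.1, hk.2⟩
      · have h1 : s.mu F w ∉ t.P := by
          intro h
          have := (hfree_iff hA' hl' hno' h).1
          rw [s.mu_mu hA.1 hA.2] at this
          exact hw this
        beta_reduce
        rw [if_neg hw, if_neg h1, add_zero]
        exact if_neg fun h' => hw h'.1)
  have hΨK : ∀ {F w}, s.At F w → s.lab w = i → K F w → Ψ w = Ψ (s.mu F w) := by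
    intro F w hA hl hk
    have := hΨ F w hA hl
    rw [hθK hk] at this
    exact eq_of_add2 this.symm
  -- affected chords
  have haff : ∀ {F w}, s.At F w → s.lab w = i →
      (∃ z ∈ A.cv z₀, z.F = F ∧ z.e true = s.lo F w) → Ψ w = Ψ (z₀.e true) := by
    rintro F w hA hl ⟨z, hz, hzF, hze⟩
    have hKF : ∀ u, K F u := by
      obtain ⟨q, hq⟩ := exists_side' (M := M) F
      exact hK q F F (z.e false) hq hq ⟨(z.at_ false).1, z.colr false⟩ (by
        rw [← hzF]; exact (z.at_ false).2)
    have hloA : s.lo F w = w ∨ s.lo F w = s.mu F w := by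
      unfold St.lo
      split_ifs
      · exact Or.inl rfl
      · exact Or.inr rfl
    have hl2 : s.lab (s.lo F w) = i := by
      rcases hloA with h | h
      · rw [h]; exact hl
      · rw [h, s.mu_lab hA.1 hA.2]; exact hl
    have hΨ2 : Ψ (s.lo F w) = Ψ w := by
      rcases hloA with h | h
      · rw [h]
      · rw [h]; exact (hΨK hA hl (hKF w)).symm
    have hz1 : s.lab (z.e true) = i := by rw [hze]; exact hl2
    have hmx := A.mx_closed
    -- the curve lies on the sheet `i`
    have hi0 : s.lab (z₀.e true) = i := by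
      have := (curve_const (K := K) (Ψ := fun _ => 0) hz₀ hK (fun _ _ _ _ _ => rfl) hz).1
      rw [← this]; exact hz1
    have := (curve_const (Ψ := Ψ) hz₀ hK (fun F w hA' hl' hk' => hΨK hA' (hl'.trans hi0) hk') hz).2
    rw [← this, hze]
    exact hΨ2.symm
  obtain ⟨b₀, hb₀⟩ := hg.far_ne i
  have hb1 : b₀ ∈ t.P := far_mem' hg N hi hb₀
  have hb2 : s.lab b₀ = i := (hg.far_mem hb₀).2
  set e : ZMod 2 := Ψ b₀ + χ b₀ with he
  set Z : Set W := {x | (x ∈ s.P → Ψ x + χ x = e) ∧ (x ∉ s.P → Ψ (z₀.e true) + χ x = e)} with hZ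
  have hclosed : ∀ F x, x ∈ Z → s'.At F x → s'.lab x = i → s'.mu F x ∈ Z := by
    intro F x hxZ hxA hxl
    obtain ⟨v, hv, rfl⟩ := pst_true hxA.1 (by rw [hxl]; exact hi)
    have hvP := nst_sub hg N (mem_kA.1 hv).1
    have hvF : v ∈ M.On F := (ph_on hp hvP F).1 hxA.2
    have hvA : s.At F v := ⟨hvP, hvF⟩
    have h4 := pst_ph (hp := hp) (hP := hP) (ht := nst_sub hg N) hv
    have hvl : t.lab v = i := h4.2.1.symm.trans hxl
    have hmu : s'.mu F (ph s c v) = ph s c (t.mu F v) := h4.2.2 F
    -- the new partner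
    have hv' : t.mu F v ∈ t.P := htm hvA (mem_kA.1 hv).1
    have hv'l : t.lab (t.mu F v) = i := (t.mu_lab (mem_kA.1 hv).1 hvF).trans hvl
    have hv'A : s.At F (t.mu F v) := mu'_at (A.cv z₀) inn hvA
    have hmm : t.mu F (t.mu F v) = v := t.mu_mu (mem_kA.1 hv).1 hvF
    -- values at a common point on an affected chord
    have hval : ∀ u, s.At F u → u ∈ t.P → col (s.lab u) = true → t.lab u = i →
        (∃ z ∈ A.cv z₀, z.F = F ∧ z.e true = s.lo F u) → Ψ u = Ψ (z₀.e true) := by
      intro u hu huP huc hul hz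
      exact haff hu ((nst_same hg N huP huc).symm.trans hul) hz
    by_cases haf : col (s.lab v) = true ∧ ∀ z ∈ A.cv z₀, z.F = F → z.e true ≠ s.lo F v
    · -- not affected
      obtain ⟨hc, hz⟩ := haf
      have hsl : s.lab v = i := (nst_same hg N (mem_kA.1 hv).1 hc).symm.trans hvl
      have h1 := hfree hvA hsl hz
      have hsl' : s.lab (s.mu F v) = i := (s.mu_lab hvP hvF).trans hsl
      obtain ⟨h2, h3⟩ := hfree_iff hvA hsl hz (mem_kA.1 hv).1
      rw [ph_neg hc] at hxZ hxA hxl ⊢
      rw [h3]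
      have hmP : s.mu F v ∈ s.P := (At.mu s hvA).1
      have hx1 := hxZ.1 hvP
      refine ⟨fun _ => ?_, fun h => absurd hmP h⟩
      rw [← hx1]
      have hq := hΨ F v hvA hsl
      by_cases hk : K F v ∨ K F (s.mu F v)
      · have h5 : v ∈ X' ↔ s.mu F v ∈ X' := by
          rcases hk with hk | hk
          · have := hX' F v hxA hxl hk
            rwa [h3] at this
          · have h6 := (hfree_iff (At.mu s hvA) hsl' (by rw [hlo hvA]; exact hz) h2).2
            rw [s.mu_mu hvP hvF] at h6
            have := hX' F (s.mu F v) ⟨(hkept h2 hsl').2.2.1, (At.mu s hvA).2⟩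
              (hkept h2 hsl').2.2.2 hk
            rw [h6] at this
            exact this.symm
        have h7 : θ F v = 0 := if_neg fun h' => hk.elim h'.2.1 h'.2.2
        rw [h7] at hq
        rw [← eq_of_add2 hq.symm, hχe h5]
      · rw [not_or] at hk
        have h7 : θ F v = χ v + χ (s.mu F v) := if_pos ⟨(mem_kA.1 hv).1, hk.1, hk.2⟩
        rw [h7] at hq
        have e1 := add_self2 (Ψ (s.mu F v))
        have e2 := add_self2 (χ (s.mu F v))
        have e3 := add_self2 (χ v)
        have e4 := add_self2 (Ψ v)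
        linear_combination hq + e1 - e3
    · -- affected: the face has a barrier point
      have hface : ∃ h, HP s h ∧ h ∈ M.On F := by
        by_cases hc : col (s.lab v) = true
        · have : ∃ z ∈ A.cv z₀, z.F = F ∧ z.e true = s.lo F v := by
            by_contra hcon
            apply haf
            refine ⟨hc, fun z hz hzF hze => hcon ⟨z, hz, hzF, hze⟩⟩
          obtain ⟨z, -, hzF, -⟩ := this
          exact ⟨z.e false, ⟨(z.at_ false).1, z.colr false⟩, by rw [← hzF]; exact (z.at_ false).2⟩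
        · exact ⟨v, ⟨hvP, by simpa using hc⟩, hvF⟩
      have hKF : ∀ u, K F u := by
        obtain ⟨h, hh, hhF⟩ := hface
        obtain ⟨q, hq⟩ := exists_side' (M := M) F
        exact hK q F F h hq hq hh hhF
      have hXX : (ph s c v ∈ X' ↔ s'.mu F (ph s c v) ∈ X') := hX' F _ hxA hxl (hKF _)
      -- the value at `x`
      have hx1 : Ψ (z₀.e true) + χ (ph s c v) = e := by
        by_cases hc : col (s.lab v) = true
        · have : ∃ z ∈ A.cv z₀, z.F = F ∧ z.e true = s.lo F v := by
            by_contra hcon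
            apply haf
            refine ⟨hc, fun z hz hzF hze => hcon ⟨z, hz, hzF, hze⟩⟩
          rw [ph_neg hc] at hxZ ⊢
          rw [← hval v hvA (mem_kA.1 hv).1 hc hvl this]
          exact hxZ.1 hvP
        · have hc' : col (s.lab v) = false := by simpa using hc
          refine hxZ.2 ?_
          rw [ph_pos hc']
          exact fun h => hp.nin ⟨hvP, hc'⟩ (hP h)
      have hx2 : Ψ (z₀.e true) + χ (s'.mu F (ph s c v)) = e := by rw [← hχe hXX]; exact hx1
      rw [hmu] at hx2 ⊢
      by_cases hc' : col (s.lab (t.mu F v)) = true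
      · rw [ph_neg hc'] at hx2 ⊢
        refine ⟨fun _ => ?_, fun _ => hx2⟩
        have : ∃ z ∈ A.cv z₀, z.F = F ∧ z.e true = s.lo F (t.mu F v) := by
          by_contra hcon
          push Not at hcon
          have hsl' : s.lab (t.mu F v) = i := (nst_same hg N hv' hc').symm.trans hv'l
          have h5 := hfree hv'A hsl' hcon
          rw [hmm] at h5
          -- `v` is the old partner of its new partner
          apply haf
          have h6 : t.mu F v = s.mu F v := by
            conv_rhs => rw [h5]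
            rw [s.mu_mu hv'A.1 hv'A.2]
          have hc : col (s.lab v) = true := by
            rw [h5, s.mu_lab hv'A.1 hv'A.2]; exact hc'
          refine ⟨hc, ?_⟩
          have h7 : s.lo F v = s.lo F (t.mu F v) := by
            rw [h6, hlo hvA]
          rw [h7]
          exact hcon
        rw [hval _ hv'A hv' hc' hv'l this]
        exact hx2
      · have hc'' : col (s.lab (t.mu F v)) = false := by simpa using hc'
        rw [ph_pos hc''] at hx2 ⊢
        exact ⟨fun h => absurd (hP h) (hp.nin ⟨hv'A.1, hc''⟩), fun _ => hx2⟩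
  have hbZ : b₀ ∈ Z := ⟨fun _ => rfl, fun h => absurd (hg.far_mem hb₀).1 h⟩
  have hall := (hgood.conn i).2 Z hclosed b₀ hbZ (hkept hb1 hb2).2.2.1 (hkept hb1 hb2).2.2.2
  refine ⟨{w | Ψ w = e + 1}, ?_, ?_⟩
  · intro F w hA hl hk
    show Ψ w = e + 1 ↔ Ψ (s.mu F w) = e + 1
    rw [hΨK hA hl hk]
  · intro w hw hwi hw' hwi'
    have h1 := (hall w hw' hwi').1 hw
    show Ψ w = e + 1 ↔ w ∈ X'
    by_cases hx : w ∈ X'
    · have h2 : χ w = 1 := if_pos hx
      rw [h2] at h1
      refine ⟨fun _ => hx, fun _ => ?_⟩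
      rw [← h1]
      have := add_self2 (1 : ZMod 2)
      linear_combination -this
    · have h2 : χ w = 0 := if_neg hx
      rw [h2, add_zero] at h1
      refine ⟨fun h3 => ?_, fun h => absurd h hx⟩
      exfalso
      rw [h1] at h3
      exact one_ne_zero (left_eq_add.1 h3)

/-- an innermost closed curve on the barriers -/
theorem exists_inner {A : s.Arcs Act} {τ : Bool → ι → s.Dbl → ZMod 2}
    {D : s.Dbl → Bool → Dart s → ZMod 2} (hD : DD A τ A.mx far D) (hne : A.mx.Nonempty) :
    ∃ z₀ ∈ A.mx, ∀ u ∉ A.cv z₀, ∀ b, D z₀ false (dz u false b) = 0 := by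
  obtain ⟨z₀, hz₀, hmin⟩ := Set.exists_min_image A.mx
    (fun z => {d' : Dart s | D z false d' = 1}.ncard) (Set.toFinite _) hne
  refine ⟨z₀, hz₀, ?_⟩
  intro u hu b
  by_cases hum : u ∈ A.mx
  · by_contra h
    have h1 := z2_ne0 h
    have hany : ∀ b', D z₀ false (dz u false b') = 1 := by
      intro b'
      rw [St_147.D_any hD hz₀ hu false b' b]
      exact h1
    have h2 : D u false (inD (innD D) u false) = 1 := St_147.D_in hD hum false
    have h3 : D z₀ false (inD (innD D) u false) = 1 := hany _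
    have h4 : D u false (outD (innD D) u false) = 0 := St_147.D_out hD hum false
    have h5 : D z₀ false (outD (innD D) u false) = 1 := hany _
    rcases hD.lam z₀ hz₀ u hum false _ h3 h2 with h6 | h6
    · rw [h6 _ h5] at h4
      exact one_ne_zero h4
    · have h7 : {d' : Dart s | D u false d' = 1} ⊂ {d' : Dart s | D z₀ false d' = 1} := by
        refine ⟨fun d hd => h6 d hd, fun h8 => ?_⟩
        have h9 : D u false (outD (innD D) u false) = 1 := h8 h5
        rw [h9] at h4
        exact one_ne_zero h4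
      have h8 := Set.ncard_lt_ncard h7 (Set.toFinite _)
      exact absurd (hmin u hum) (not_le.2 h8)
  · exact hD.out z₀ hz₀ u hum false b

/-- **one step** -/
theorem step (hg : s.Good Act far) (h2 : Two s up) (hP : s.P ⊆ Ph)
    (hroom : ∀ b, ∃ c, Push s up Ph b c) (A : s.Arcs Act) {G : Set s.Dbl} (hG : A.Closed G)
    (hne : G.Nonempty) :
    ∃ s' : St M col, s'.Good Act far ∧ CL2 Act far Ph s' s ∧ Nat.card s'.Dbl < Nat.card s.Dbl := by
  classical
  have hR := refStmt A (fun i => B_422.sep_of_h1 s i (hg.h1 i))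
  obtain ⟨D, hD⟩ := Sd1_161.exists_DD hg A _ hR
  have hmx := A.mx_closed
  obtain ⟨z₀, hz₀, hin⟩ := exists_inner hD (hne.mono (A.sub_mx hG))
  have N := exists_nms1 hD hR (fun _ _ h => (hg.far_mem h).2) hz₀ hin
  have hG' : A.Closed (A.cv z₀) := by
    intro u hu q hq
    exact ⟨(hmx u (cv_sub hmx hz₀ hu) q hq).1, cv_trans hu (cv_arc hq)⟩
  have hDw : DDw A _ (A.cv z₀) far D := DDw.of hD fun u hu => cv_sub hmx hz₀ hu
  have hn : nm1 D z₀ (dz z₀ true (!innD D z₀ true)) = none := by
    have h1 := SecW_892.D_in hDw (cv_refl A z₀) true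
    exact nm1_t' (dz_x _ _ _) h1
  have hx : HP s (z₀.e false) := ⟨(z₀.at_ false).1, z₀.colr false⟩
  have hfin : ∀ {b : Bool} {c : W → W} (hp : Push s up Ph b c),
      (¬ (M.Btw z₀.F (z₀.e false) (s.mu z₀.F (z₀.e false))
        (pt (flip (dz z₀ true (!innD D z₀ true)))) ↔
        M.pos z₀.F (z₀.e false) < M.pos z₀.F (c (z₀.e false)))) →
      ∃ s' : St M col, s'.Good Act far ∧ CL2 Act far Ph s' s ∧
        Nat.card s'.Dbl < Nat.card s.Dbl := by
    intro b c hp hanti
    have hgood := pst_good hG' hg N hp hP h2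
    refine ⟨pst hp hP (nst_sub hg N), hgood,
      ⟨pst_cle hG' hg N hp hP h2, ?_, ?_, pst_pb hz₀ hg N hp hP hgood⟩,
      pst_card hg N hp hP h2 (z₀ := z₀) (β₀ := !innD D z₀ true) hanti hn⟩
    · exact fun w hw hws => (pst_common hg N hp hP hw hws).2
    · exact fun F w hw hw' hf => pst_off hg N hp hP h2 hw hw' hf
  by_cases hQ : M.Btw z₀.F (z₀.e false) (s.mu z₀.F (z₀.e false))
      (pt (flip (dz z₀ true (!innD D z₀ true))))
  · obtain ⟨c, hp⟩ := hroom (!up z₀.F (z₀.e false))
    refine hfin hp ?_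
    intro h
    have h3 := (hp.side hx (z₀.at_ false).2).1 (h.1 hQ)
    cases up z₀.F (z₀.e false) <;> simp at h3
  · obtain ⟨c, hp⟩ := hroom (up z₀.F (z₀.e false))
    refine hfin hp ?_
    intro h
    exact hQ (h.2 ((hp.side hx (z₀.at_ false).2).2 rfl))

/-- **CUT**: one-sided removal of all closed double curves, with pull back of closed sets -/
theorem cut (up : Φ → W → Bool) (s : St M col) (hg : s.Good Act far) (h2 : Two s up)
    (hroom : Room s up) (Ph : Finset W) (hP : s.P ⊆ Ph) :
    ∃ s' : St M col, s'.Good Act far ∧ CL2 Act far Ph s' s ∧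
      ∀ (A : s'.Arcs Act) (G : Set s'.Dbl), A.Closed G → G = ∅ := by
  classical
  induction hn : Nat.card s.Dbl using Nat.strong_induction_on generalizing s Ph with
  | _ n ih =>
    by_cases h : ∀ (A : s.Arcs Act) (G : Set s.Dbl), A.Closed G → G = ∅
    · exact ⟨s, hg, CL2.refl _ _ _ _, h⟩
    · push Not at h
      obtain ⟨A, G, hG, hne⟩ := h
      obtain ⟨s₁, hg₁, hl₁, hc₁⟩ := step hg h2 hP (fun b => hroom Ph b) A hG hne
      have h2' : Two s₁ up := by
        intro F w hw hF
        have hw' := (hl₁.cle.hp w).1 hw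
        rw [hl₁.cle.hmu w F hw']
        exact h2 hw' hF
      have hroom' : Room s₁ up := by
        intro Ph' b
        obtain ⟨c, hp⟩ := hroom Ph' b
        exact ⟨c, hp.congr hl₁.cle.hp⟩
      obtain ⟨s₂, hg₂, hl₂, hc₂⟩ := ih _ (hn ▸ hc₁) s₁ hg₁ h2' hroom' (Ph ∪ s₁.P)
        Finset.subset_union_right rfl
      exact ⟨s₂, hg₂, CL2.trans Finset.subset_union_left (hP.trans Finset.subset_union_left)
        hl₂ hl₁ hg₁, hc₂⟩

end step

end Crest.Agent.R096.SecW_892
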