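import Crest.Agent.R096.Sec3_892
import Crest.Agent.R096.Cp13_298

/-!
# R096 / DOORS-SEC, part 4 (helper892): `Room` for the merged mesh of a tiling
-/

set_option autoImplicit false

open Set Filter Topology Metric

namespace Crest.Agent.R096.Sec_892

open Crest.Agent.R096.Msh_715 Crest.Agent.R096.Agl5_543 Crest.Agent.R096.St_147
  Crest.Agent.R096.Agl1_543 Crest.Agent.R096.Agl2_543 Crest.Agent.R096.Agl3_543
  Crest.Agent.R096.Ori_543 Crest.Agent.R096.Cp_298

variable {E : Type} [NormedAddCommGroup E] [NormedSpace ℝ E] [FiniteDimensional ℝ E]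
variable {Om : Set E} {ι : Type} {T : Tiling Om ι}

/-- the order on an edge -/
theorem pos_line_iff {F : C2 T} {w : E} (hw : w ∈ F.On) {a b : ℝ}
    (ha : w + a • dv T w ∈ T.oc w) (hb : w + b • dv T w ∈ T.oc w) :
    F.pos (w + a • dv T w) < F.pos (w + b • dv T w) ↔
      ((dirZ F w = 0 ∧ a < b) ∨ (dirZ F w = 1 ∧ b < a)) := by
  rcases z2_cases (dirZ F w) with hz | hz
  · constructor
    · intro h
      left
      refine ⟨hz, ?_⟩
      by_contra hcon
      rcases lt_or_eq_of_le (not_lt.1 hcon) with h1 | h1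
      · exact lt_asymm h ((pos_line hw h1 hb ha).1 hz)
      · rw [h1] at h; exact lt_irrefl _ h
    · rintro (h | h)
      · exact (pos_line hw h.2 ha hb).1 hz
      · rw [hz] at h; exact absurd h.1.symm z2_one_ne
  · constructor
    · intro h
      right
      refine ⟨hz, ?_⟩
      by_contra hcon
      rcases lt_or_eq_of_le (not_lt.1 hcon) with h1 | h1
      · exact lt_asymm h ((pos_line hw h1 ha hb).2 hz)
      · rw [h1] at h; exact lt_irrefl _ h
    · rintro (h | h)
      · rw [hz] at h; exact absurd h.1 z2_one_ne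
      · exact (pos_line hw h.2 hb ha).2 hz

/-- **parallel points on a prescribed side** -/
theorem exists_side (Ph S : Finset E) (hS : ∀ w ∈ S, w ∈ Om ∧ T.dim w = 1) (ε : E → Bool) :
    ∃ c : E → E, (∀ w ∈ S, c w ∈ T.oc w) ∧ (∀ w ∈ S, c w ∉ Ph) ∧
      (∀ w ∈ S, ∀ w' ∈ S, c w = c w' → w = w') ∧
      (∀ (F : C2 T), ∀ w ∈ S, w ∈ F.On → ∀ v ∈ Ph, v ∈ F.On → v ≠ w →
        (F.pos v < F.pos w ↔ F.pos v < F.pos (c w))) ∧
      (∀ (F : C2 T), ∀ w ∈ S, ∀ w' ∈ S, w ∈ F.On → w' ∈ F.On → F.pos w < F.pos w' →
        F.pos (c w) < F.pos (c w')) ∧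
      (∀ (F : C2 T), ∀ w ∈ S, w ∈ F.On →
        (F.pos w < F.pos (c w) ↔ (dirZ F w = 0 ↔ ε w = true))) := by
  classical
  set P : Set E := (↑(Ph ∪ S) : Set E) with hPdef
  have hPfin : P.Finite := Finset.finite_toSet _
  have hPl : ∀ {v}, v ∈ Ph → v ∈ P := fun h => Finset.mem_coe.2 (Finset.mem_union_left _ h)
  have hPr : ∀ {v}, v ∈ S → v ∈ P := fun h => Finset.mem_coe.2 (Finset.mem_union_right _ h)
  have hex : ∀ w, ∃ τ : ℝ, w ∈ S → 0 < τ ∧ (∀ v ∈ T.V w, ‖v‖ < τ → w + v ∈ T.oc w) ∧
      ∀ w' ∈ P, w' ∈ T.oc w → w' ≠ w → τ ≤ dist w w' / 2 := by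
    intro w
    by_cases h : w ∈ S
    · obtain ⟨τ, h1, h2, -, h4⟩ := exists_rad1 (P := P) (δ := fun _ => 1) (w := w)
        (hPfin.subset inter_subset_left) (fun _ => one_pos) (hS w h).1
      exact ⟨τ, fun _ => ⟨h1, h2, h4⟩⟩
    · exact ⟨0, fun h' => absurd h' h⟩
  choose τ hτ using hex
  let a : E → ℝ := fun w => (if ε w = true then 1 else -1) * (τ w / (2 * ‖dv T w‖))
  let c : E → E := fun w => w + a w • dv T w
  have hn : ∀ {w}, w ∈ S → 0 < ‖dv T w‖ := fun {w} h =>
    norm_pos_iff.2 (dv_ne (hS w h).1 (hS w h).2)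
  have habs : ∀ {w}, w ∈ S → |a w| * ‖dv T w‖ = τ w / 2 := by
    intro w h
    have h1 := hn h
    have h2 := (hτ w h).1
    have e : |a w| = τ w / (2 * ‖dv T w‖) := by
      show |(if ε w = true then (1 : ℝ) else -1) * (τ w / (2 * ‖dv T w‖))| = _
      rw [abs_mul]
      have : |(if ε w = true then (1 : ℝ) else -1)| = 1 := by split_ifs <;> simp
      rw [this, one_mul, abs_of_pos (by positivity)]
    rw [e]
    field_simp
  have hnorm : ∀ {w}, w ∈ S → ‖a w • dv T w‖ = τ w / 2 := by
    intro w h
    rw [norm_smul, Real.norm_eq_abs, habs h]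
  have ha0 : ∀ {w}, w ∈ S → a w ≠ 0 := by
    intro w h h0
    have h1 := habs h
    rw [h0, abs_zero, zero_mul] at h1
    have h2 := (hτ w h).1
    linarith
  have hoc : ∀ {w}, w ∈ S → c w ∈ T.oc w := by
    intro w h
    refine (hτ w h).2.1 _ ((T.V w).smul_mem _ (dv_mem (hS w h).1 (hS w h).2)) ?_
    rw [hnorm h]
    have := (hτ w h).1
    linarith
  have hdist : ∀ {w}, w ∈ S → dist w (c w) = τ w / 2 := by
    intro w h
    show dist w (w + a w • dv T w) = _
    rw [dist_comm, dist_eq_norm, add_sub_cancel_left]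
    exact hnorm h
  -- points in the same edge
  have hline : ∀ {w w'}, w ∈ S → w' ∈ T.oc w → ∃ s : ℝ, w' = w + s • dv T w ∧
      dist w w' = |s| * ‖dv T w‖ := by
    intro w w' h hw'
    have h1 := ed1_mem (hS w h).1 (hS w h).2
    obtain ⟨s, hs⟩ := mem_V_line (hS w h).2 h1.1 h1.2 (ed1_spec (hS w h).1 (hS w h).2).1
      (T.sub_mem_V' (T.oc_sub_cc w hw') (T.self_mem_cc w))
    have e : w' = w + s • dv T w := by
      rw [show s • dv T w = w' - w from hs.symm]; abel
    refine ⟨s, e, ?_⟩
    rw [dist_comm, dist_eq_norm, hs, norm_smul, Real.norm_eq_abs]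
    rfl
  refine ⟨c, fun w h => hoc h, ?_, ?_, ?_, ?_, ?_⟩
  · intro w h hc
    have h1 : c w ≠ w := by
      intro he
      have := hdist h
      rw [he, dist_self] at this
      have := (hτ w h).1
      linarith
    have h2 := (hτ w h).2.2 (c w) (hPl hc) (hoc h) h1
    rw [hdist h] at h2
    have := (hτ w h).1
    linarith
  · intro w h w' h' he
    by_contra hne
    have h1 := hoc h
    have h2 := hoc h'
    rw [he] at h1
    have h4 : T.oc w = T.oc w' := by
      rcases T.oc_disjoint_or_eq (hS w h).1 (hS w' h').1 with h5 | h5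
      · exact absurd h2 (disjoint_left.1 h5 h1)
      · exact h5
    have h5 : w' ∈ T.oc w := by rw [h4]; exact T.self_mem_oc w'
    have h6 : w ∈ T.oc w' := by rw [← h4]; exact T.self_mem_oc w
    have h7 := (hτ w h).2.2 w' (hPr h') h5 (Ne.symm hne)
    have h8 := (hτ w' h').2.2 w (hPr h) h6 hne
    have h9 := hdist h
    have h10 := hdist h'
    rw [he] at h9
    have h11 := dist_triangle w (c w') w'
    rw [dist_comm (c w') w'] at h11
    rw [dist_comm w' w] at h8
    have := (hτ w h).1
    linarith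
  · intro F w h hF v hv hvF hne
    have hO := (hS w h).1
    by_cases hoo : T.oc v = T.oc w
    · have h5 : v ∈ T.oc w := by rw [← hoo]; exact T.self_mem_oc v
      obtain ⟨s, hs, hds⟩ := hline h h5
      have h7 := (hτ w h).2.2 v (hPl hv) h5 hne
      rw [hds] at h7
      have h8 := habs h
      have hnp := hn h
      have h9 : |a w| < |s| := by
        by_contra hcon
        have := mul_le_mul_of_nonneg_right (not_lt.1 hcon) hnp.le
        have := (hτ w h).1
        linarith
      have m0 : w + (0 : ℝ) • dv T w ∈ T.oc w := by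
        rw [zero_smul, add_zero]; exact T.self_mem_oc w
      have ms : w + s • dv T w ∈ T.oc w := by rw [← hs]; exact h5
      have m1 : w + a w • dv T w ∈ T.oc w := hoc h
      have e0 : F.pos w = F.pos (w + (0 : ℝ) • dv T w) := by rw [zero_smul, add_zero]
      rw [e0, hs]
      show _ ↔ F.pos (w + s • dv T w) < F.pos (w + a w • dv T w)
      rw [pos_line_iff hF ms m0, pos_line_iff hF ms m1]
      have h10 := abs_lt.1 (lt_of_lt_of_le h9 le_rfl)
      have k1 : s < 0 ↔ s < a w := by
        rcases lt_or_ge s 0 with h11 | h11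
        · rw [abs_of_neg h11] at h10
          exact ⟨fun _ => by linarith [h10.1], fun _ => h11⟩
        · rw [abs_of_nonneg h11] at h10
          exact ⟨fun h => by linarith, fun h => by linarith [h10.2]⟩
      have k2 : 0 < s ↔ a w < s := by
        rcases le_or_gt s 0 with h11 | h11
        · rw [abs_of_nonpos h11] at h10
          exact ⟨fun h => by linarith, fun h => by linarith [h10.1]⟩
        · rw [abs_of_pos h11] at h10
          exact ⟨fun _ => h10.2, fun _ => h11⟩
      rw [k1, k2]
    · have hne' : T.oc w ≠ T.oc v := fun h => hoo h.symm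
      constructor
      · intro hlt
        exact pos_sep hvF hF hoo hlt (T.self_mem_oc v) (hoc h)
      · intro hlt
        by_contra hcon
        rcases lt_or_eq_of_le (not_lt.1 hcon) with h11 | h11
        · exact lt_asymm hlt (pos_sep hF hvF hne' h11 (hoc h) (T.self_mem_oc v))
        · exact hne (F.pos_injOn.mono F.on_sub_bd hvF hF h11.symm)
  · intro F w h w' h' hF hF' hlt
    have hO := (hS w h).1
    have hO' := (hS w' h').1
    by_cases hoo : T.oc w = T.oc w'
    · have h5 : w' ∈ T.oc w := by rw [hoo]; exact T.self_mem_oc w'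
      have h6 : w ∈ T.oc w' := by rw [← hoo]; exact T.self_mem_oc w
      have hww : w ≠ w' := by
        rintro rfl
        exact lt_irrefl _ hlt
      obtain ⟨s, hs, hds⟩ := hline h h5
      have hdv : dv T w' = dv T w := dv_oc hO h5
      have h7 := (hτ w h).2.2 w' (hPr h') h5 (Ne.symm hww)
      have h8 := (hτ w' h').2.2 w (hPr h) h6 hww
      rw [dist_comm w' w] at h8
      rw [hds] at h7 h8
      have h9 := habs h
      have h10 := habs h'
      rw [hdv] at h10
      have hnp := hn h
      have ha1 : |a w| ≤ |s| / 4 := by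
        by_contra hcon
        have := mul_lt_mul_of_pos_right (not_le.1 hcon) hnp
        linarith
      have hb1 : |a w'| ≤ |s| / 4 := by
        by_contra hcon
        have := mul_lt_mul_of_pos_right (not_le.1 hcon) hnp
        linarith
      have e1 : c w = w + a w • dv T w := rfl
      have e2 : c w' = w + (s + a w') • dv T w := by
        show w' + a w' • dv T w' = _
        rw [hdv]
        nth_rewrite 1 [hs]
        module
      have m1 : w + a w • dv T w ∈ T.oc w := hoc h
      have m2 : w + (s + a w') • dv T w ∈ T.oc w := by rw [← e2, hoo]; exact hoc h'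
      have m0 : w + (0 : ℝ) • dv T w ∈ T.oc w := by
        rw [zero_smul, add_zero]; exact T.self_mem_oc w
      have ms : w + s • dv T w ∈ T.oc w := by rw [← hs]; exact h5
      have hlt' : F.pos (w + (0 : ℝ) • dv T w) < F.pos (w + s • dv T w) := by
        rw [zero_smul, add_zero, ← hs]; exact hlt
      rw [e1, e2, pos_line_iff hF m1 m2]
      have k1 := abs_le.1 ha1
      have k2 := abs_le.1 hb1
      rcases (pos_line_iff hF m0 ms).1 hlt' with ⟨hz, hp⟩ | ⟨hz, hp⟩
      · left
        rw [abs_of_pos hp] at k1 k2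
        exact ⟨hz, by linarith [k1.2, k2.1]⟩
      · right
        rw [abs_of_neg hp] at k1 k2
        exact ⟨hz, by linarith [k1.1, k2.2]⟩
    · exact pos_sep hF hF' hoo hlt (hoc h) (hoc h')
  · intro F w h hF
    have m0 : w + (0 : ℝ) • dv T w ∈ T.oc w := by
      rw [zero_smul, add_zero]; exact T.self_mem_oc w
    have m1 : w + a w • dv T w ∈ T.oc w := hoc h
    have e0 : F.pos w = F.pos (w + (0 : ℝ) • dv T w) := by rw [zero_smul, add_zero]
    rw [e0]
    show F.pos (w + (0 : ℝ) • dv T w) < F.pos (w + a w • dv T w) ↔ _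
    rw [pos_line_iff hF m0 m1]
    have hpos : 0 < τ w / (2 * ‖dv T w‖) := by
      have h1 := hn h
      have h2 := (hτ w h).1
      positivity
    cases he : ε w
    · have h1 : a w < 0 := by
        show (if ε w = true then (1 : ℝ) else -1) * (τ w / (2 * ‖dv T w‖)) < 0
        rw [he]
        simp only [Bool.false_eq_true, if_false]
        linarith
      constructor
      · rintro (h2 | h2)
        · exact absurd h2.2 (not_lt.2 h1.le)
        · rw [h2.1]
          exact ⟨fun h => absurd h z2_one_ne, fun h => absurd h (by simp)⟩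
      · intro h2
        right
        refine ⟨?_, h1⟩
        rcases z2_cases (dirZ F w) with hz | hz
        · exact absurd (h2.1 hz) (by simp)
        · exact hz
    · have h1 : 0 < a w := by
        show 0 < (if ε w = true then (1 : ℝ) else -1) * (τ w / (2 * ‖dv T w‖))
        rw [he]
        simp only [if_true]
        linarith
      constructor
      · rintro (h2 | h2)
        · rw [h2.1]
          exact ⟨fun _ => rfl, fun _ => rfl⟩
        · exact absurd h2.2 (not_lt.2 h1.le)
      · intro h2
        left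
        exact ⟨h2.2 rfl, h1⟩

/-! ### the merged mesh -/

section merged

variable {ι' I : Type} (h3 : Module.finrank ℝ E = 3) (π : ι → ι')
  (hc : ∀ k w, ConnAt (meshC T h3) (π ⁻¹' {k}) w) {col : I → Bool}

/-- the positive side of a sheet with transversal orientation `σ` -/
noncomputable def upS {ι Φ W : Type} {M : MeshC ι Φ W} (O : Ori M) (σ : W → ZMod 2) (F : Φ)
    (w : W) : Bool := decide (σ w + O.dir F w = 0)

/-- a transversal orientation of the barriers gives `Two` -/
theorem two_of_ts {ι Φ W : Type} {M : MeshC ι Φ W} (O : Ori M) {s : St M col} {σ : W → ZMod 2}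
    (h : ∀ F w, HP s w → w ∈ M.On F →
      σ w + σ (s.mu F w) + (O.dir F w + O.dir F (s.mu F w)) = 1) : Two s (upS O σ) := by
  intro F w hw hF
  have h1 := h F w hw hF
  unfold upS
  have h2 : (σ (s.mu F w) + O.dir F (s.mu F w) = 0) ↔ ¬ (σ w + O.dir F w = 0) := by
    have h3 : (σ w + O.dir F w) + (σ (s.mu F w) + O.dir F (s.mu F w)) = 1 := by
      rw [← h1]; ring
    generalize σ w + O.dir F w = x at h3
    generalize σ (s.mu F w) + O.dir F (s.mu F w) = y at h3
    revert x y
    decide
  by_cases h3 : σ w + O.dir F w = 0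
  · simp [h3, h2]
  · simp [h3, h2]

/-- **`Room` in a merged mesh of a tiling** -/
theorem room (s : St (mergeC (meshC T h3) π hc) col)
    (hV : ∀ w, HP s w → w ∈ Om ∧ T.dim w = 1) (σ : E → ZMod 2) :
    Room s (upS (oriC h3 π hc) σ) := by
  classical
  intro Ph b
  obtain ⟨c, h1, h2, h4, h5, h6, h7⟩ := exists_side (T := T) Ph
    (s.P.filter fun w => col (s.lab w) = false)
    (fun w hw => hV w (Finset.mem_filter.1 hw))
    (fun w => decide (decide (σ w = 0) = b))
  have hm : ∀ {w}, HP s w → w ∈ s.P.filter fun w => col (s.lab w) = false := fun h =>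
    Finset.mem_filter.2 h
  refine ⟨c, ?_, ?_, ?_, ?_, ?_, ?_⟩
  · intro w hw
    exact h2 w (hm hw)
  · intro w w' hw hw' he
    exact h4 w (hm hw) w' (hm hw') he
  · intro w F hw
    exact on_iff_oc (F := F.1) (hV w hw).1 (h1 w (hm hw))
  · intro F w v hw hF hv hvF hne
    exact h5 F.1 w (hm hw) hF v hv hvF hne
  · intro F w w' hw hw' hF hF' hlt
    exact h6 F.1 w (hm hw) w' (hm hw') hF hF' hlt
  · intro F w hw hF
    refine (h7 F.1 w (hm hw) hF).trans ?_
    have e : (oriC h3 π hc).dir F w = dirZ F.1 w := rfl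
    unfold upS
    rw [e]
    have key : ∀ (b : Bool) (x y : ZMod 2), (x = 0 ↔ decide (decide (y = 0) = b) = true) ↔
        decide (y + x = 0) = b := by decide
    have e2 : (fun w => decide (decide (σ w = 0) = b)) w = decide (decide (σ w = 0) = b) := rfl
    exact key b (dirZ F.1 w) (σ w)

end merged

end Crest.Agent.R096.Sec_892
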