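import Crest.Agent.R096.Sec11_892
import Crest.Agent.R096.Sec4_892
import Crest.Agent.R096.Cg1_501

/-!
# R096 / DOORS-SEC, part 12 (helper892): `Two` and `Room` of 501's pair state over a merged mesh of a
tiling, from `H1` of the barriers
-/

set_option autoImplicit false

namespace Crest.Agent.R096.SecW_892

open Crest.Agent.R096.Msh_715 Crest.Agent.R096.Agl5_543 Crest.Agent.R096.St_147
  Crest.Agent.R096.Agl1_543 Crest.Agent.R096.Agl2_543 Crest.Agent.R096.Agl3_543
  Crest.Agent.R096.Ori_543 Crest.Agent.R096.Cp_298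
open Crest.Agent.R096.Seq_213 Crest.Agent.R096.Sec_892 Crest.Agent.R096.Cg_501

variable {E : Type} [NormedAddCommGroup E] [NormedSpace ℝ E] [FiniteDimensional ℝ E]
variable {Om : Set E} {ι : Type} {T : Tiling Om ι}
variable {ι' J C Mo : Type} {fam : J → C} {am : Mo → C}

/-- **the side function of the barriers of a family** -/
theorem pr_up (h3 : Module.finrank ℝ E = 3) (π : ι → ι')
    (hc : ∀ k w, ConnAt (meshC T h3) (π ⁻¹' {k}) w)
    (s : GSt (mergeC (meshC T h3) π hc) (Sum.map fam (id : Mo → Mo))) (hs : BSep s am)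
    (hm : ∀ a, {m | am m = a}.Finite) (a : C) (i0 : PN fam am a)
    (h1 : ∀ m, am m = a → s.H1 (Sum.inr m))
    (hV : ∀ w ∈ s.P, ∀ m, am m = a → s.lab w = Sum.inr m → w ∈ Om ∧ T.dim w = 1) :
    ∃ up, Two (pr s hs hm a i0) up ∧ Room (pr s hs hm a i0) up := by
  classical
  have h2 : ∀ m, ∃ σ, am m = a → TSj s (oriC h3 π hc) (Sum.inr m) σ := by
    intro m
    by_cases h : am m = a
    · obtain ⟨σ, hσ⟩ := exists_tsj s (oriC h3 π hc) (h1 m h)
      exact ⟨σ, fun _ => hσ⟩
    · exact ⟨fun _ => 0, fun h' => absurd h' h⟩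
  choose σ hσ using h2
  set τ : E → ZMod 2 := fun w => Sum.elim (fun _ => 0) (fun m => σ m w) (s.lab w) with hτ
  refine ⟨upS (oriC h3 π hc) τ, two_of_ts _ ?_, room h3 π hc _ ?_ τ⟩
  · intro F w hw hF
    obtain ⟨hwP, m, hma, hl⟩ := pr_hp.1 hw
    have hl' : s.lab (s.mu F w) = Sum.inr m := (s.mu_lab hwP hF).trans hl
    have e1 : τ w = σ m w := by simp only [hτ, hl, Sum.elim_inr]
    have e2 : τ (s.mu F w) = σ m (s.mu F w) := by simp only [hτ, hl', Sum.elim_inr]
    rw [pr_mu, e1, e2]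
    exact hσ m hma F w ⟨hwP, hF⟩ hl
  · intro w hw
    obtain ⟨hwP, m, hma, hl⟩ := pr_hp.1 hw
    exact hV w hwP m hma hl

end Crest.Agent.R096.SecW_892
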