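import Crest.Agent.R096.Sec13_892
import Crest.Agent.R096.Dfo1_539

/-!
# R096 / DOORS-SEC, part 15 (helper892): 539's record `CutOut` and 560's `AgreeOn` from `CutR`
-/

set_option autoImplicit false

namespace Crest.Agent.R096.SecW_892

open Crest.Agent.R096.St_147 Crest.Agent.R096.Seq_213 Crest.Agent.R096.Sec_892
  Crest.Agent.R096.Cg_501 Crest.Agent.R096.Sgd_298

variable {ι Φ W J C Mo : Type} {M : MeshC ι Φ W} {fam : J → C} {am : Mo → C}
  {s : GSt M (Sum.map fam (id : Mo → Mo))} {hs : BSep s am}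
  {hm : ∀ a, {m | am m = a}.Finite} {j0 : C → J} {hj0 : ∀ a, fam (j0 a) = a}
  {Act : C → Set ι} {far : ∀ a, PN fam am a → Set W} {t : ∀ a, St M (pcol fam am a)}
  {Ph : C → Finset W} {s₃ : GSt M fam}

/-- **539's record** -/
theorem CutR.cutOut (D : CutR s hs hm j0 hj0 Act far t Ph s₃) :
    Dfo_539.CutOut s am Act s₃ where
  h1 := fun j _ => D.h1 j
  conn := fun j _ => D.conn j
  old := fun w hw hws => D.old hw hws
  new := by
    intro w hw hws
    obtain ⟨h, h1, m, h2, h3, -, h5, X, h6, h7, h8, h9⟩ := D.new' hw hws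
    exact ⟨h, h1, m, h2, h3, h5, X, h6, h7, fun F x hx hA hno => h8 F x hx hA hno,
      fun F x hx hA => h9 x hx F hA⟩
  frozen := fun F w j hF => D.frozen hF
  frozen_mu := fun F w hw hF => D.frozen_mu hw hF

end Crest.Agent.R096.SecW_892
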