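import Crest.Agent.R096.F2_422
import Crest.Agent.R096.Seq2_213

/-!
# R096 / DOORS-SEC, part 1 (helper892): one-sided exchange

A state with colours `true` (sheets to be cut) and `false` (barriers, never changed).
`Push s up Ph b c` : `c w` is a candidate point next to the barrier point `w` (no point of the finite
set `Ph` in between), on the side `b` of the barrier.
`pst` : the state made of the sheets of colour `true` of another state `t` (e.g. the result of the
exchange step) whose barrier points are pushed off by `c`, and of the old barriers.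
-/

set_option autoImplicit false

namespace Crest.Agent.R096.Sec_892

open Crest.Agent.R096.St_147 Crest.Agent.R096.Wk_689 Crest.Agent.R096.F_422

variable {ι Φ W I : Type} {M : MeshC ι Φ W} {col : I → Bool}

/-- `w` is a point of colour `false` (a barrier point) -/
def HP (s : St M col) (w : W) : Prop := w ∈ s.P ∧ col (s.lab w) = false

/-- `up F w = true`: the positive side of the barrier at `w` is above `w` on the face `F` -/
def Two (s : St M col) (up : Φ → W → Bool) : Prop :=
  ∀ {F w}, HP s w → w ∈ M.On F → up F (s.mu F w) = !up F w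

/-- parallel copies of the barrier points on the side `b` -/
structure Push (s : St M col) (up : Φ → W → Bool) (Ph : Finset W) (b : Bool) (c : W → W) :
    Prop where
  nin : ∀ {w}, HP s w → c w ∉ Ph
  inj : ∀ {w w'}, HP s w → HP s w' → c w = c w' → w = w'
  on : ∀ {w} (F : Φ), HP s w → (c w ∈ M.On F ↔ w ∈ M.On F)
  adj : ∀ {F w v}, HP s w → w ∈ M.On F → v ∈ Ph → v ∈ M.On F → v ≠ w →
    (M.pos F v < M.pos F w ↔ M.pos F v < M.pos F (c w))
  ord : ∀ {F w w'}, HP s w → HP s w' → w ∈ M.On F → w' ∈ M.On F →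
    M.pos F w < M.pos F w' → M.pos F (c w) < M.pos F (c w')
  side : ∀ {F w}, HP s w → w ∈ M.On F → (M.pos F w < M.pos F (c w) ↔ up F w = b)

/-- barrier points are moved by `c`, the others are not moved -/
def ph (s : St M col) (c : W → W) (w : W) : W := if col (s.lab w) = false then c w else w

section push

variable {s : St M col} {up : Φ → W → Bool} {Ph : Finset W} {b : Bool} {c : W → W}

theorem ph_pos {w : W} (h : col (s.lab w) = false) : ph s c w = c w := if_pos h

theorem ph_neg {w : W} (h : col (s.lab w) = true) : ph s c w = w := by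
  unfold ph; rw [h]; rfl

theorem hp_mu {F : Φ} {w : W} (h : HP s w) (hF : w ∈ M.On F) : HP s (s.mu F w) :=
  ⟨(s.mu_mem h.1 hF).1, by rw [s.mu_lab h.1 hF]; exact h.2⟩

theorem ph_on (hp : Push s up Ph b c) {w : W} (hw : w ∈ s.P) (F : Φ) :
    ph s c w ∈ M.On F ↔ w ∈ M.On F := by
  cases h : col (s.lab w)
  · rw [ph_pos h]; exact hp.on F ⟨hw, h⟩
  · rw [ph_neg h]

theorem ph_inj (hp : Push s up Ph b c) (hP : s.P ⊆ Ph) {w w' : W} (hw : w ∈ s.P) (hw' : w' ∈ s.P)
    (he : ph s c w = ph s c w') : w = w' := by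
  cases h : col (s.lab w) <;> cases h' : col (s.lab w')
  · rw [ph_pos h, ph_pos h'] at he; exact hp.inj ⟨hw, h⟩ ⟨hw', h'⟩ he
  · rw [ph_pos h, ph_neg h'] at he; exact absurd (hP hw') (by rw [← he]; exact hp.nin ⟨hw, h⟩)
  · rw [ph_neg h, ph_pos h'] at he; exact absurd (hP hw) (by rw [he]; exact hp.nin ⟨hw', h'⟩)
  · rwa [ph_neg h, ph_neg h'] at he

/-- a pushed point is on the same side of every other point -/
theorem Push.adj' (hp : Push s up Ph b c) {F : Φ} {w v : W} (hw : HP s w) (hF : w ∈ M.On F)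
    (hv : v ∈ Ph) (hvF : v ∈ M.On F) (hne : v ≠ w) :
    M.pos F w < M.pos F v ↔ M.pos F (c w) < M.pos F v := by
  have h1 := hp.adj hw hF hv hvF hne
  have h2 : M.pos F v ≠ M.pos F w := fun h => hne (M.pos_inj F hvF hF h)
  have h3 : M.pos F v ≠ M.pos F (c w) := fun h =>
    hp.nin hw (by rw [← M.pos_inj F hvF ((hp.on F hw).2 hF) h]; exact hv)
  constructor
  · intro h
    exact lt_of_le_of_ne (not_lt.1 fun h4 => lt_asymm h (h1.2 h4)) h3.symm
  · intro h
    exact lt_of_le_of_ne (not_lt.1 fun h4 => lt_asymm h (h1.1 h4)) h2.symm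

theorem ph_lt_aux (hp : Push s up Ph b c) (hP : s.P ⊆ Ph) {F : Φ} {u v : W} (hu : s.At F u)
    (hv : s.At F v) (h : M.pos F u < M.pos F v) :
    M.pos F (ph s c u) < M.pos F (ph s c v) := by
  have hne : u ≠ v := by rintro rfl; exact lt_irrefl _ h
  cases h1 : col (s.lab u) <;> cases h2 : col (s.lab v)
  · rw [ph_pos h1, ph_pos h2]; exact hp.ord ⟨hu.1, h1⟩ ⟨hv.1, h2⟩ hu.2 hv.2 h
  · rw [ph_pos h1, ph_neg h2]
    exact (hp.adj' ⟨hu.1, h1⟩ hu.2 (hP hv.1) hv.2 hne.symm).1 h
  · rw [ph_neg h1, ph_pos h2]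
    exact (hp.adj ⟨hv.1, h2⟩ hv.2 (hP hu.1) hu.2 hne).1 h
  · rw [ph_neg h1, ph_neg h2]; exact h

theorem ph_lt (hp : Push s up Ph b c) (hP : s.P ⊆ Ph) {F : Φ} {u v : W} (hu : s.At F u)
    (hv : s.At F v) : M.pos F (ph s c u) < M.pos F (ph s c v) ↔ M.pos F u < M.pos F v := by
  constructor
  · intro h
    rcases lt_trichotomy (M.pos F u) (M.pos F v) with h1 | h1 | h1
    · exact h1
    · rw [M.pos_inj F hu.2 hv.2 h1] at h; exact absurd h (lt_irrefl _)
    · exact absurd h (lt_asymm (ph_lt_aux hp hP hv hu h1))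
  · exact ph_lt_aux hp hP hu hv

theorem ph_lace (hp : Push s up Ph b c) (hP : s.P ⊆ Ph) {F : Φ} {u v x y : W} (hu : s.At F u)
    (hv : s.At F v) (hx : s.At F x) (hy : s.At F y) :
    M.Lace F (ph s c u) (ph s c v) (ph s c x) (ph s c y) ↔ M.Lace F u v x y := by
  unfold MeshC.Lace MeshC.Btw
  rw [ph_lt hp hP hu hx, ph_lt hp hP hx hv, ph_lt hp hP hv hx, ph_lt hp hP hx hu,
    ph_lt hp hP hu hy, ph_lt hp hP hy hv, ph_lt hp hP hv hy, ph_lt hp hP hy hu]

end push

/-! ### the combined state -/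

section comb

open Classical in
/-- kept points of colour `true` -/
noncomputable def kA (t : St M col) : Finset W := t.P.filter fun w => col (t.lab w) = true

open Classical in
noncomputable def im (s t : St M col) (c : W → W) : Finset W := (kA t).image (ph s c)

open Classical in
noncomputable def iv (s t : St M col) (c : W → W) (x : W) : W :=
  if h : ∃ w ∈ kA t, ph s c w = x then h.choose else x

variable {s t : St M col} {up : Φ → W → Bool} {Ph : Finset W} {b : Bool} {c : W → W}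

theorem mem_kA {w : W} : w ∈ kA t ↔ w ∈ t.P ∧ col (t.lab w) = true := by
  unfold kA; rw [Finset.mem_filter]

theorem mem_im {x : W} : x ∈ im s t c ↔ ∃ w ∈ kA t, ph s c w = x := by
  classical
  unfold im; rw [Finset.mem_image]

theorem iv_ph (hp : Push s up Ph b c) (hP : s.P ⊆ Ph) (ht : t.P ⊆ s.P) {w : W} (hw : w ∈ kA t) :
    iv s t c (ph s c w) = w := by
  have h : ∃ w' ∈ kA t, ph s c w' = ph s c w := ⟨w, hw, rfl⟩
  unfold iv
  rw [dif_pos h]
  exact ph_inj hp hP (ht (mem_kA.1 h.choose_spec.1).1) (ht (mem_kA.1 hw).1) h.choose_spec.2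

theorem ph_iv {x : W} (h : x ∈ im s t c) : ph s c (iv s t c x) = x := by
  have h' := mem_im.1 h
  unfold iv
  rw [dif_pos h']
  exact h'.choose_spec.2

theorem iv_mem {x : W} (h : x ∈ im s t c) : iv s t c x ∈ kA t := by
  have h' := mem_im.1 h
  unfold iv
  rw [dif_pos h']
  exact h'.choose_spec.1

theorem hp_not_im (hp : Push s up Ph b c) (hP : s.P ⊆ Ph) (ht : t.P ⊆ s.P) {x : W}
    (hx : HP s x) : x ∉ im s t c := by
  intro h
  obtain ⟨w, hw, he⟩ := mem_im.1 h
  have hws := ht (mem_kA.1 hw).1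
  cases h1 : col (s.lab w)
  · rw [ph_pos h1] at he
    exact hp.nin ⟨hws, h1⟩ (by rw [he]; exact hP hx.1)
  · rw [ph_neg h1] at he
    rw [he, hx.2] at h1
    exact Bool.false_ne_true h1

open Classical in
/-- **the state after a one-sided exchange** -/
noncomputable def pst (hp : Push s up Ph b c) (hP : s.P ⊆ Ph) (ht : t.P ⊆ s.P) : St M col where
  P := im s t c ∪ s.P.filter fun w => col (s.lab w) = false
  lab := fun x => if x ∈ im s t c then t.lab (iv s t c x) else s.lab x
  mu := fun F x => if x ∈ im s t c then ph s c (t.mu F (iv s t c x)) else s.mu F x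
  mu_mem := by
    intro F x hx hF
    by_cases h : x ∈ im s t c
    · have h1 := iv_mem h
      have h2 := mem_kA.1 h1
      have h3 : iv s t c x ∈ M.On F := by
        rw [← ph_on hp (ht h2.1) F, ph_iv h]; exact hF
      have h4 := t.mu_mem h2.1 h3
      simp only [if_pos h]
      refine ⟨Finset.mem_union_left _ (mem_im.2 ⟨_, mem_kA.2 ⟨h4.1, ?_⟩, rfl⟩), ?_⟩
      · rw [t.mu_lab h2.1 h3]; exact h2.2
      · rw [ph_on hp (ht h4.1)]; exact h4.2
    · have h1 : HP s x := by
        rcases Finset.mem_union.1 hx with h2 | h2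
        · exact absurd h2 h
        · exact Finset.mem_filter.1 h2
      simp only [if_neg h]
      exact ⟨Finset.mem_union_right _ (Finset.mem_filter.2 (hp_mu h1 hF)), (s.mu_mem h1.1 hF).2⟩
  mu_ne := by
    intro F x hx hF
    by_cases h : x ∈ im s t c
    · have h2 := mem_kA.1 (iv_mem h)
      have h3 : iv s t c x ∈ M.On F := by
        rw [← ph_on hp (ht h2.1) F, ph_iv h]; exact hF
      simp only [if_pos h]
      intro he
      rw [← ph_iv h] at he
      have h5 := ph_inj hp hP (ht (t.mu_mem h2.1 h3).1) (ht h2.1) (by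
        rw [ph_iv h] at he ⊢
        exact he)
      exact t.mu_ne h2.1 h3 h5
    · have h1 : HP s x := by
        rcases Finset.mem_union.1 hx with h2 | h2
        · exact absurd h2 h
        · exact Finset.mem_filter.1 h2
      simp only [if_neg h]
      exact s.mu_ne h1.1 hF
  mu_mu := by
    intro F x hx hF
    by_cases h : x ∈ im s t c
    · have h2 := mem_kA.1 (iv_mem h)
      have h3 : iv s t c x ∈ M.On F := by
        rw [← ph_on hp (ht h2.1) F, ph_iv h]; exact hF
      have h4 := t.mu_mem h2.1 h3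
      have h5 : t.mu F (iv s t c x) ∈ kA t := mem_kA.2 ⟨h4.1, by
        rw [t.mu_lab h2.1 h3]; exact h2.2⟩
      have h6 : ph s c (t.mu F (iv s t c x)) ∈ im s t c := mem_im.2 ⟨_, h5, rfl⟩
      simp only [if_pos h, if_pos h6]
      rw [iv_ph hp hP ht h5, t.mu_mu h2.1 h3, ph_iv h]
    · have h1 : HP s x := by
        rcases Finset.mem_union.1 hx with h2 | h2
        · exact absurd h2 h
        · exact Finset.mem_filter.1 h2
      have h6 := hp_not_im hp hP ht (hp_mu h1 hF)
      simp only [if_neg h, if_neg h6]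
      exact s.mu_mu h1.1 hF
  mu_lab := by
    intro F x hx hF
    by_cases h : x ∈ im s t c
    · have h2 := mem_kA.1 (iv_mem h)
      have h3 : iv s t c x ∈ M.On F := by
        rw [← ph_on hp (ht h2.1) F, ph_iv h]; exact hF
      have h4 := t.mu_mem h2.1 h3
      have h5 : t.mu F (iv s t c x) ∈ kA t := mem_kA.2 ⟨h4.1, by
        rw [t.mu_lab h2.1 h3]; exact h2.2⟩
      have h6 : ph s c (t.mu F (iv s t c x)) ∈ im s t c := mem_im.2 ⟨_, h5, rfl⟩
      simp only [if_pos h, if_pos h6]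
      rw [iv_ph hp hP ht h5, t.mu_lab h2.1 h3]
    · have h1 : HP s x := by
        rcases Finset.mem_union.1 hx with h2 | h2
        · exact absurd h2 h
        · exact Finset.mem_filter.1 h2
      have h6 := hp_not_im hp hP ht (hp_mu h1 hF)
      simp only [if_neg h, if_neg h6]
      exact s.mu_lab h1.1 hF
  nc := by
    intro F x y hx hF hy hF' hc hne hne'
    by_cases h : x ∈ im s t c <;> by_cases h' : y ∈ im s t c
    · have h2 := mem_kA.1 (iv_mem h)
      have h3 : iv s t c x ∈ M.On F := by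
        rw [← ph_on hp (ht h2.1) F, ph_iv h]; exact hF
      have h2' := mem_kA.1 (iv_mem h')
      have h3' : iv s t c y ∈ M.On F := by
        rw [← ph_on hp (ht h2'.1) F, ph_iv h']; exact hF'
      have h4 := t.mu_mem h2.1 h3
      have h4' := t.mu_mem h2'.1 h3'
      simp only [if_pos h] at hne' ⊢
      simp only [if_pos h']
      have key : M.Lace F x (ph s c (t.mu F (iv s t c x))) y (ph s c (t.mu F (iv s t c y))) ↔
          M.Lace F (iv s t c x) (t.mu F (iv s t c x)) (iv s t c y) (t.mu F (iv s t c y)) := by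
        have := ph_lace hp hP (s := s) (F := F) (u := iv s t c x) (v := t.mu F (iv s t c x))
          (x := iv s t c y) (y := t.mu F (iv s t c y)) ⟨ht h2.1, h3⟩ ⟨ht h4.1, h4.2⟩
          ⟨ht h2'.1, h3'⟩ ⟨ht h4'.1, h4'.2⟩
        rw [ph_iv h, ph_iv h'] at this
        exact this
      rw [key]
      refine t.nc h2.1 h3 h2'.1 h3' (h2.2.trans h2'.2.symm) ?_ ?_
      · intro he
        apply hne
        rw [← ph_iv h, ← ph_iv h', he]
      · intro he
        apply hne'
        rw [← he, ph_iv h']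
    · simp only [if_pos h, if_neg h'] at hc
      have h2 := mem_kA.1 (iv_mem h)
      have h1 : HP s y := by
        rcases Finset.mem_union.1 hy with h2 | h2
        · exact absurd h2 h'
        · exact Finset.mem_filter.1 h2
      rw [h2.2, h1.2] at hc
      exact absurd hc.symm Bool.false_ne_true
    · simp only [if_neg h, if_pos h'] at hc
      have h2 := mem_kA.1 (iv_mem h')
      have h1 : HP s x := by
        rcases Finset.mem_union.1 hx with h2 | h2
        · exact absurd h2 h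
        · exact Finset.mem_filter.1 h2
      rw [h2.2, h1.2] at hc
      exact absurd hc Bool.false_ne_true
    · have h1 : HP s x := by
        rcases Finset.mem_union.1 hx with h2 | h2
        · exact absurd h2 h
        · exact Finset.mem_filter.1 h2
      have h1' : HP s y := by
        rcases Finset.mem_union.1 hy with h2 | h2
        · exact absurd h2 h'
        · exact Finset.mem_filter.1 h2
      simp only [if_neg h] at hc hne' ⊢
      simp only [if_neg h'] at hc ⊢
      exact s.nc h1.1 hF h1'.1 hF' hc hne hne'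

variable {hp : Push s up Ph b c} {hP : s.P ⊆ Ph} {ht : t.P ⊆ s.P}

theorem pst_cases {x : W} (hx : x ∈ (pst hp hP ht).P) :
    (∃ w ∈ kA t, x = ph s c w) ∨ HP s x := by
  classical
  rcases Finset.mem_union.1 hx with h | h
  · left
    obtain ⟨w, hw, he⟩ := mem_im.1 h
    exact ⟨w, hw, he.symm⟩
  · right; exact Finset.mem_filter.1 h

theorem pst_ph {w : W} (hw : w ∈ kA t) : ph s c w ∈ (pst hp hP ht).P ∧
    (pst hp hP ht).lab (ph s c w) = t.lab w ∧
    ∀ F, (pst hp hP ht).mu F (ph s c w) = ph s c (t.mu F w) := by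
  classical
  have h : ph s c w ∈ im s t c := mem_im.2 ⟨w, hw, rfl⟩
  refine ⟨Finset.mem_union_left _ h, ?_, fun F => ?_⟩
  · show (if _ ∈ im s t c then _ else _) = _
    rw [if_pos h, iv_ph hp hP ht hw]
  · show (if _ ∈ im s t c then _ else _) = _
    rw [if_pos h, iv_ph hp hP ht hw]

theorem pst_hp {x : W} (hx : HP s x) : x ∈ (pst hp hP ht).P ∧
    (pst hp hP ht).lab x = s.lab x ∧ ∀ F, (pst hp hP ht).mu F x = s.mu F x := by
  classical
  have h := hp_not_im hp hP ht hx
  refine ⟨Finset.mem_union_right _ (Finset.mem_filter.2 hx), ?_, fun F => ?_⟩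
  · show (if _ ∈ im s t c then _ else _) = _
    rw [if_neg h]
  · show (if _ ∈ im s t c then _ else _) = _
    rw [if_neg h]

/-- the barrier points of the new state are the old ones -/
theorem pst_hp_iff {x : W} : HP (pst hp hP ht) x ↔ HP s x := by
  constructor
  · rintro ⟨h1, h2⟩
    rcases pst_cases h1 with ⟨w, hw, rfl⟩ | h
    · rw [(pst_ph hw).2.1, (mem_kA.1 hw).2] at h2
      exact absurd h2.symm Bool.false_ne_true
    · exact h
  · intro h
    exact ⟨(pst_hp h).1, by rw [(pst_hp h).2.1]; exact h.2⟩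

/-- points of colour `true` -/
theorem pst_true {x : W} (hx : x ∈ (pst hp hP ht).P)
    (hc : col ((pst hp hP ht).lab x) = true) : ∃ w ∈ kA t, x = ph s c w := by
  rcases pst_cases hx with h | h
  · exact h
  · rw [(pst_hp h).2.1, h.2] at hc
    exact absurd hc Bool.false_ne_true

theorem pst_H1 (h1 : ∀ i, s.H1 i) (h2 : ∀ i, t.H1 i) (i : I) : (pst hp hP ht).H1 i := by
  intro κ hκ
  cases hi : col i
  · obtain ⟨Ψ, hΨ⟩ := h1 i κ (fun q => by
      obtain ⟨ψ, hψ⟩ := hκ q
      refine ⟨ψ, fun F w hq hw hl => ?_⟩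
      have h3 : HP s w := ⟨hw.1, by rw [hl]; exact hi⟩
      have h4 := pst_hp (hp := hp) (hP := hP) (ht := ht) h3
      rw [hψ F w hq ⟨h4.1, hw.2⟩ (h4.2.1.trans hl), h4.2.2])
    refine ⟨Ψ, fun F x hx hl => ?_⟩
    have h3 : HP s x := pst_hp_iff.1 ⟨hx.1, by rw [hl]; exact hi⟩
    have h4 := pst_hp (hp := hp) (hP := hP) (ht := ht) h3
    rw [hΨ F x ⟨h3.1, hx.2⟩ (h4.2.1.symm.trans hl), h4.2.2]
  · obtain ⟨Ψ, hΨ⟩ := h2 i (fun F w => κ F (ph s c w)) (fun q => by
      obtain ⟨ψ, hψ⟩ := hκ q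
      refine ⟨fun w => ψ (ph s c w), fun F w hq hw hl => ?_⟩
      have h3 : w ∈ kA t := mem_kA.2 ⟨hw.1, by rw [hl]; exact hi⟩
      have h4 := pst_ph (hp := hp) (hP := hP) (ht := ht) h3
      rw [hψ F (ph s c w) hq ⟨h4.1, (ph_on hp (ht hw.1) F).2 hw.2⟩ (h4.2.1.trans hl), h4.2.2])
    refine ⟨fun x => Ψ (iv s t c x), fun F x hx hl => ?_⟩
    obtain ⟨w, hw, rfl⟩ := pst_true hx.1 (by rw [hl]; exact hi)
    have h4 := pst_ph (hp := hp) (hP := hP) (ht := ht) hw
    have hwF : w ∈ M.On F := (ph_on hp (ht (mem_kA.1 hw).1) F).1 hx.2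
    have h5 : t.mu F w ∈ kA t := mem_kA.2 ⟨(t.mu_mem (mem_kA.1 hw).1 hwF).1, by
      rw [t.mu_lab (mem_kA.1 hw).1 hwF]; exact (mem_kA.1 hw).2⟩
    show κ F (ph s c w) = Ψ (iv s t c (ph s c w)) + Ψ (iv s t c ((pst hp hP ht).mu F (ph s c w)))
    rw [h4.2.2, iv_ph hp hP ht hw, iv_ph hp hP ht h5]
    exact hΨ F w ⟨(mem_kA.1 hw).1, hwF⟩ (h4.2.1.symm.trans hl)

theorem pst_Conn (h1 : ∀ i, s.Conn i) (h2 : ∀ i, t.Conn i) (i : I) :
    (pst hp hP ht).Conn i := by
  cases hi : col i
  · obtain ⟨⟨w, hw, hl⟩, hc⟩ := h1 i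
    have h3 : HP s w := ⟨hw, by rw [hl]; exact hi⟩
    have h4 := pst_hp (hp := hp) (hP := hP) (ht := ht) h3
    refine ⟨⟨w, h4.1, h4.2.1.trans hl⟩, ?_⟩
    intro X hX x hx hxP hxl y hyP hyl
    have h5 : HP s x := pst_hp_iff.1 ⟨hxP, by rw [hxl]; exact hi⟩
    have h6 : HP s y := pst_hp_iff.1 ⟨hyP, by rw [hyl]; exact hi⟩
    rw [(pst_hp h5).2.1] at hxl
    rw [(pst_hp h6).2.1] at hyl
    refine hc X ?_ x hx h5.1 hxl y h6.1 hyl
    intro F u hu hat hul
    have h7 : HP s u := ⟨hat.1, by rw [hul]; exact hi⟩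
    have h8 := pst_hp (hp := hp) (hP := hP) (ht := ht) h7
    rw [← h8.2.2]
    exact hX F u hu ⟨h8.1, hat.2⟩ (h8.2.1.trans hul)
  · obtain ⟨⟨w, hw, hl⟩, hc⟩ := h2 i
    have h3 : w ∈ kA t := mem_kA.2 ⟨hw, by rw [hl]; exact hi⟩
    have h4 := pst_ph (hp := hp) (hP := hP) (ht := ht) h3
    refine ⟨⟨_, h4.1, h4.2.1.trans hl⟩, ?_⟩
    intro X hX x hx hxP hxl y hyP hyl
    obtain ⟨u, hu, rfl⟩ := pst_true hxP (by rw [hxl]; exact hi)
    obtain ⟨v, hv, rfl⟩ := pst_true hyP (by rw [hyl]; exact hi)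
    rw [(pst_ph hu).2.1] at hxl
    rw [(pst_ph hv).2.1] at hyl
    refine hc {w | ph s c w ∈ X} ?_ u hx (mem_kA.1 hu).1 hxl v (mem_kA.1 hv).1 hyl
    intro F w' hw' hat hwl
    have h7 : w' ∈ kA t := mem_kA.2 ⟨hat.1, by rw [hwl]; exact hi⟩
    have h8 := pst_ph (hp := hp) (hP := hP) (ht := ht) h7
    show ph s c (t.mu F w') ∈ X
    rw [← h8.2.2]
    exact hX F _ hw' ⟨h8.1, (ph_on hp (ht hat.1) F).2 hat.2⟩ (h8.2.1.trans hwl)

end comb

end Crest.Agent.R096.Sec_892
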