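import Crest.Agent.R096.Sec1_892

/-!
# R096 / DOORS-SEC, part 2 (helper892): the double points of the pushed state

`cross` : a pushed chord of the exchange which crosses a barrier chord passes through an old double
point of this barrier chord, with its dart of colour `true` on the side opposite to the push.
-/

set_option autoImplicit false

namespace Crest.Agent.R096.Sec_892

open Crest.Agent.R096.St_147 Crest.Agent.R096.Wk_689 Crest.Agent.R096.F_422

variable {ι Φ W I : Type} {M : MeshC ι Φ W} {col : I → Bool}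

section order

/-- real version of `Btw` -/
def Bt (p q x : ℝ) : Prop := (p < x ∧ x < q) ∨ (q < x ∧ x < p)

theorem bt_in {p q a a' y : ℝ} (h1 : Bt p q a) (h2 : Bt p q a') (h3 : ¬ Bt p q y) :
    ¬ Bt a a' y := by
  intro h
  apply h3
  unfold Bt at *
  rcases h1 with ⟨_, _⟩ | ⟨_, _⟩ <;> rcases h2 with ⟨_, _⟩ | ⟨_, _⟩ <;>
    rcases h with ⟨_, _⟩ | ⟨_, _⟩ <;>
    first
    | (left; constructor <;> linarith)
    | (right; constructor <;> linarith)

theorem bt_out1 {p q a y y' : ℝ} (h1 : ¬ Bt p q a) (h2 : Bt p q y) (h3 : Bt p q y') :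
    (a < y ↔ a < y') ∧ (y < a ↔ y' < a) := by
  unfold Bt at *
  rcases h2 with ⟨_, _⟩ | ⟨_, _⟩ <;> rcases h3 with ⟨_, _⟩ | ⟨_, _⟩
  · refine ⟨⟨fun h => ?_, fun h => ?_⟩, ⟨fun h => ?_, fun h => ?_⟩⟩ <;>
    · by_contra h'
      exact h1 (Or.inl ⟨by linarith, by linarith⟩)
  · linarith
  · linarith
  · refine ⟨⟨fun h => ?_, fun h => ?_⟩, ⟨fun h => ?_, fun h => ?_⟩⟩ <;>
    · by_contra h'
      exact h1 (Or.inr ⟨by linarith, by linarith⟩)

theorem bt_out {p q a a' y y' : ℝ} (h1 : ¬ Bt p q a) (h1' : ¬ Bt p q a') (h2 : Bt p q y)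
    (h3 : Bt p q y') : Bt a a' y ↔ Bt a a' y' := by
  have e1 := bt_out1 h1 h2 h3
  have e2 := bt_out1 h1' h2 h3
  unfold Bt
  rw [e1.1, e1.2, e2.1, e2.2]

/-- interlaced pairs, both not separated by `p, q`, are on the same side of `p, q` -/
theorem bt_same {p q a a' y y' : ℝ} (h1 : Bt p q a ↔ Bt p q a') (h2 : Bt p q y ↔ Bt p q y')
    (h3 : ¬ (Bt a a' y ↔ Bt a a' y')) : Bt p q a ↔ Bt p q y := by
  by_cases ha : Bt p q a <;> by_cases hy : Bt p q y
  · exact ⟨fun _ => hy, fun _ => ha⟩
  · exfalso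
    apply h3
    have e1 := bt_in ha (h1.1 ha) hy
    have e2 := bt_in ha (h1.1 ha) (fun h => hy (h2.2 h))
    exact ⟨fun h => absurd h e1, fun h => absurd h e2⟩
  · exact absurd (bt_out ha (fun h => ha (h1.2 h)) hy (h2.1 hy)) h3
  · exact ⟨fun h => absurd h ha, fun h => absurd h hy⟩

theorem bt_comm {p q a a' : ℝ} (h1 : p ≠ a) (h2 : p ≠ a') (h3 : q ≠ a) (h4 : q ≠ a')
    (h : Bt p q a ↔ Bt p q a') : Bt a a' p ↔ Bt a a' q := by
  unfold Bt at *
  rcases lt_or_gt_of_ne h1 with d1 | d1 <;> rcases lt_or_gt_of_ne h2 with d2 | d2 <;>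
    rcases lt_or_gt_of_ne h3 with d3 | d3 <;> rcases lt_or_gt_of_ne h4 with d4 | d4 <;>
    simp [d1, d2, d3, d4, not_lt.2 d1.le, not_lt.2 d2.le, not_lt.2 d3.le, not_lt.2 d4.le] at h ⊢

end order

theorem lace_comm {s : St M col} {F : Φ} {u v x y : W} (hu : s.At F u) (hv : s.At F v)
    (hx : s.At F x) (hy : s.At F y) (h1 : u ≠ x) (h2 : u ≠ y) (h3 : v ≠ x) (h4 : v ≠ y)
    (h : M.Lace F u v x y) : M.Lace F x y u v := by
  intro h'
  exact h (bt_comm (pos_ne s hx hu h1.symm) (pos_ne s hx hv h3.symm)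
    (pos_ne s hy hu h2.symm) (pos_ne s hy hv h4.symm) h')

section side

variable {s : St M col} {up : Φ → W → Bool} {Ph : Finset W} {b : Bool} {c : W → W}

theorem btw_low {F : Φ} {x x' u : W} (h : M.pos F x < M.pos F x') :
    M.Btw F x x' u ↔ M.pos F x < M.pos F u ∧ M.pos F u < M.pos F x' := by
  unfold MeshC.Btw
  constructor
  · rintro (h1 | h1)
    · exact h1
    · exact absurd (h1.1.trans h1.2) (not_lt.2 h.le)
  · exact Or.inl

theorem Push.ne (hp : Push s up Ph b c) (hP : s.P ⊆ Ph) {F : Φ} {w v : W} (hw : HP s w)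
    (hF : w ∈ M.On F) (hv : s.At F v) : M.pos F (c w) ≠ M.pos F v := by
  intro h
  have := M.pos_inj F ((hp.on F hw).2 hF) hv.2 h
  exact hp.nin hw (by rw [this]; exact hP hv.1)

/-- the parallel copy of the lower end -/
theorem inC1 (hp : Push s up Ph b c) (hP : s.P ⊆ Ph) {F : Φ} {x : W} (hx : HP s x)
    (hxF : x ∈ M.On F) (hlow : M.pos F x < M.pos F (s.mu F x)) :
    M.Btw F x (s.mu F x) (c x) ↔ M.pos F x < M.pos F (c x) := by
  have hm := s.mu_mem hx.1 hxF
  have h1 := (hp.adj' hx hxF (hP hm.1) hm.2 (s.mu_ne hx.1 hxF)).1 hlow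
  rw [btw_low hlow]
  exact ⟨fun h => h.1, fun h => ⟨h, h1⟩⟩

/-- the parallel copy of the upper end -/
theorem inC2 (hp : Push s up Ph b c) (hP : s.P ⊆ Ph) (h2 : Two s up) {F : Φ} {x : W}
    (hx : HP s x) (hxF : x ∈ M.On F) (hlow : M.pos F x < M.pos F (s.mu F x)) :
    M.Btw F x (s.mu F x) (c (s.mu F x)) ↔ M.pos F x < M.pos F (c x) := by
  have hm := s.mu_mem hx.1 hxF
  have hm' := hp_mu hx hxF
  have h1 := (hp.adj hm' hm.2 (hP hx.1) hxF (s.mu_ne hx.1 hxF).symm).1 hlow
  have h3 := hp.side hx hxF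
  have h4 := hp.side hm' hm.2
  have h5 := Push.ne hp hP hm' hm.2 hm
  rw [h2 hx hxF] at h4
  rw [btw_low hlow]
  constructor
  · rintro ⟨-, h6⟩
    rw [h3]
    by_contra h7
    have h8 : (!up F x) = b := by
      revert h7
      cases up F x <;> cases b <;> simp
    exact lt_asymm h6 (h4.2 h8)
  · intro h6
    refine ⟨h1, lt_of_le_of_ne (not_lt.1 fun h7 => ?_) h5⟩
    have h8 := h4.1 h7
    rw [h3.1 h6] at h8
    revert h8
    cases b <;> simp

theorem side_ph (hp : Push s up Ph b c) (hP : s.P ⊆ Ph) {F : Φ} {p q u : W} (hu : s.At F u)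
    (hpP : p ∈ Ph) (hpF : p ∈ M.On F) (hqP : q ∈ Ph) (hqF : q ∈ M.On F) (h1 : p ≠ u)
    (h2 : q ≠ u) : M.Btw F p q (ph s c u) ↔ M.Btw F p q u := by
  cases hc : col (s.lab u)
  · rw [ph_pos hc]
    have hu' : HP s u := ⟨hu.1, hc⟩
    unfold MeshC.Btw
    rw [hp.adj hu' hu.2 hpP hpF h1, hp.adj hu' hu.2 hqP hqF h2, hp.adj' hu' hu.2 hpP hpF h1,
      hp.adj' hu' hu.2 hqP hqF h2]
  · rw [ph_neg hc]

/-- a barrier chord is on one side of another one -/
theorem side_nc {F : Φ} {x y : W} (hx : HP s x) (hxF : x ∈ M.On F) (hy : HP s y)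
    (hyF : y ∈ M.On F) (h1 : y ≠ x) (h2 : y ≠ s.mu F x) :
    M.Btw F x (s.mu F x) y ↔ M.Btw F x (s.mu F x) (s.mu F y) := by
  have := s.nc hx.1 hxF hy.1 hyF (hx.2.trans hy.2.symm) h1 h2
  unfold MeshC.Lace at this
  exact not_not.1 this

variable (s c) in
/-- side of the node of a dart with respect to the barrier chord of `x` -/
def sd (F : Φ) (x : W) (d : Dart s) : Prop :=
  (node d = none ∧ M.Btw F x (s.mu F x) (ph s c (pt d))) ∨
  ∃ z, node d = some z ∧ ((z.e false = x ∧ M.pos F x < M.pos F (c x)) ∨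
     (z.e false ≠ x ∧ M.Btw F x (s.mu F x) (z.e false)))

theorem sd_none {F : Φ} {x : W} {d : Dart s} (h : node d = none) :
    sd s c F x d ↔ M.Btw F x (s.mu F x) (ph s c (pt d)) := by
  constructor
  · rintro (h1 | ⟨z, h1, -⟩)
    · exact h1.2
    · rw [h] at h1; exact absurd h1 (by simp)
  · intro h1; exact Or.inl ⟨h, h1⟩

theorem sd_eq {F : Φ} {x : W} {d : Dart s} {z : s.Dbl} (h : node d = some z)
    (hz : z.e false = x) : sd s c F x d ↔ M.pos F x < M.pos F (c x) := by
  constructor
  · rintro (h1 | ⟨z', h1, h2⟩)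
    · rw [h] at h1; exact absurd h1.1 (by simp)
    · rw [h] at h1
      obtain rfl := Option.some.inj h1
      rcases h2 with h2 | h2
      · exact h2.2
      · exact absurd hz h2.1
  · intro h1; exact Or.inr ⟨z, h, Or.inl ⟨hz, h1⟩⟩

theorem sd_ne {F : Φ} {x : W} {d : Dart s} {z : s.Dbl} (h : node d = some z)
    (hz : z.e false ≠ x) : sd s c F x d ↔ M.Btw F x (s.mu F x) (z.e false) := by
  constructor
  · rintro (h1 | ⟨z', h1, h2⟩)
    · rw [h] at h1; exact absurd h1.1 (by simp)
    · rw [h] at h1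
      obtain rfl := Option.some.inj h1
      rcases h2 with h2 | h2
      · exact absurd h2.1 hz
      · exact h2.2
  · intro h1; exact Or.inr ⟨z, h, Or.inr ⟨hz, h1⟩⟩

theorem node_tt {G : Set s.Dbl} {inn : s.Dbl → Bool → Bool} (d : Dart s) :
    node (tt G inn d) = node d := by
  rcases hn : node d with _ | z
  · rw [tt_none hn, hn]
  · have h := eq_dz hn
    rw [h]
    by_cases hz : z ∈ G
    · rw [tt_dz_in hz, node_dz]
    · rw [tt_dz_out hz, node_dz]

theorem sd_congr {F : Φ} {x : W} {d d' : Dart s} {z : s.Dbl} (h : node d = some z)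
    (h' : node d' = some z) : sd s c F x d ↔ sd s c F x d' := by
  by_cases hz : z.e false = x
  · rw [sd_eq h hz, sd_eq h' hz]
  · rw [sd_ne h hz, sd_ne h' hz]

theorem sd_tt {G : Set s.Dbl} {inn : s.Dbl → Bool → Bool} {F : Φ} {x : W} (d : Dart s) :
    sd s c F x (tt G inn d) ↔ sd s c F x d := by
  rcases hn : node d with _ | z
  · rw [tt_none hn]
  · exact sd_congr (by rw [node_tt, hn]) hn

open Classical in
/-- pieces of colour `false` -/
theorem sd_false (hp : Push s up Ph b c) (hP : s.P ⊆ Ph) (h2 : Two s up) {F : Φ} {x : W}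
    (hx : HP s x) (hxF : x ∈ M.On F) (hlow : M.pos F x < M.pos F (s.mu F x)) (p : s.Sub false)
    (hF : (chd p).1 = F) (β : Bool) :
    sd s c F x ⟨false, p, β⟩ ↔ if (chd p).2 = x then M.pos F x < M.pos F (c x) else
      M.Btw F x (s.mu F x) (chd p).2 := by
  have hat := chd_at p
  have hl := chd_low p
  have hc := chd_col p
  rw [hF] at hat hl
  have hy : HP s (chd p).2 := ⟨hat.1, hc⟩
  -- the node, if any, lies on the chord of `p`
  have hnode : ∀ z, node (⟨false, p, β⟩ : Dart s) = some z → z.e false = (chd p).2 := by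
    intro z hz
    have h3 := eq_dz hz
    cases β
    · have h4 : p = abv z false := prv_some.1 hz
      rw [h4]; rfl
    · have h4 : p = bel z false := nxt_some.1 hz
      rw [h4, below_chd (bel_spec z false)]
  have hm := s.mu_mem hat.1 hat.2
  have hmy := hp_mu hy hat.2
  have hx' := s.mu_mem hx.1 hxF
  by_cases he : (chd p).2 = x
  · rw [if_pos he]
    rcases hn : node (⟨false, p, β⟩ : Dart s) with _ | z
    · rw [sd_none hn]
      cases β
      · show M.Btw F x (s.mu F x) (ph s c (chd p).2) ↔ _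
        rw [he, ph_pos hx.2]
        exact inC1 hp hP hx hxF hlow
      · show M.Btw F x (s.mu F x) (ph s c (s.mu (chd p).1 (chd p).2)) ↔ _
        rw [hF, he, ph_pos (hp_mu hx hxF).2]
        exact inC2 hp hP h2 hx hxF hlow
    · rw [sd_eq hn ((hnode z hn).trans he)]
  · rw [if_neg he]
    have hne' : (chd p).2 ≠ s.mu F x := by
      intro h
      rw [h, s.mu_mu hx.1 hxF] at hl
      exact lt_asymm hl hlow
    rcases hn : node (⟨false, p, β⟩ : Dart s) with _ | z
    · rw [sd_none hn]
      cases β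
      · show M.Btw F x (s.mu F x) (ph s c (chd p).2) ↔ _
        exact side_ph hp hP hat (hP hx.1) hxF (hP hx'.1) hx'.2 (Ne.symm he) (Ne.symm hne')
      · show M.Btw F x (s.mu F x) (ph s c (s.mu (chd p).1 (chd p).2)) ↔ _
        rw [hF, side_nc hx hxF hy hat.2 he hne']
        refine side_ph hp hP hm (hP hx.1) hxF (hP hx'.1) hx'.2 ?_ ?_
        · intro h
          exact hne' (by rw [h, s.mu_mu hat.1 hat.2])
        · intro h
          have := congrArg (s.mu F) h
          rw [s.mu_mu hat.1 hat.2, s.mu_mu hx.1 hxF] at this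
          exact he this.symm
    · rw [sd_ne hn (by rw [hnode z hn]; exact he), hnode z hn]

/-- pieces of colour `true`: the node lies on the chord -/
theorem true_node {F : Φ} {a : W} {p : s.Sub true} (hp : chd p = (F, a)) {β : Bool} {z : s.Dbl}
    (hz : node (⟨true, p, β⟩ : Dart s) = some z) : z.F = F ∧ z.e true = a := by
  cases β
  · have h4 : p = abv z true := prv_some.1 hz
    rw [h4] at hp
    exact ⟨congrArg Prod.fst hp, congrArg Prod.snd hp⟩
  · have h4 : p = bel z true := nxt_some.1 hz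
    rw [h4, below_chd (bel_spec z true)] at hp
    exact ⟨congrArg Prod.fst hp, congrArg Prod.snd hp⟩

theorem col_ne {F : Φ} {x a : W} (hx : HP s x) (hxF : x ∈ M.On F) (ha : s.At F a)
    (hc : col (s.lab a) = true) : x ≠ a ∧ x ≠ s.mu F a ∧ s.mu F x ≠ a ∧ s.mu F x ≠ s.mu F a := by
  have h1 := hx.2
  have h2 := (hp_mu hx hxF).2
  have h3 := s.mu_lab ha.1 ha.2
  refine ⟨?_, ?_, ?_, ?_⟩
  · intro h; rw [h, hc] at h1; exact absurd h1 (by simp)
  · intro h; rw [h, h3, hc] at h1; exact absurd h1 (by simp)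
  · intro h; rw [h, hc] at h2; exact absurd h2 (by simp)
  · intro h; rw [h, h3, hc] at h2; exact absurd h2 (by simp)

/-- a double point on a chord which does not cross the barrier chord of `x` -/
theorem true_nolace {F : Φ} {x a : W} (hx : HP s x) (hxF : x ∈ M.On F)
    (hlow : M.pos F x < M.pos F (s.mu F x))
    (hnl : M.Btw F x (s.mu F x) a ↔ M.Btw F x (s.mu F x) (s.mu F a)) {z : s.Dbl} (hzF : z.F = F)
    (hza : z.e true = a) :
    z.e false ≠ x ∧ (M.Btw F x (s.mu F x) (z.e false) ↔ M.Btw F x (s.mu F x) a) := by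
  subst hzF
  subst hza
  have ha := z.at_ true
  have hy := z.at_ false
  have hne := col_ne hx hxF ha (z.colr true)
  have h1 : z.e false ≠ x := by
    intro h
    have hl := z.lace
    rw [h] at hl
    exact lace_comm ha (At.mu s ha) ⟨hx.1, hxF⟩ (At.mu s ⟨hx.1, hxF⟩) hne.1.symm hne.2.2.1.symm
      hne.2.1.symm hne.2.2.2.symm hl hnl
  have h2 : z.e false ≠ s.mu z.F x := by
    intro h
    have hl := z.low false
    rw [h, s.mu_mu hx.1 hxF] at hl
    exact lt_asymm hl hlow
  exact ⟨h1, (bt_same hnl (side_nc hx hxF ⟨hy.1, z.colr false⟩ hy.2 h1 h2) z.lace).symm⟩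

/-- double points on a chord which crosses the barrier chord of `x` in `zh` -/
theorem true_lace {F : Φ} {x a : W} (hx : HP s x) (hxF : x ∈ M.On F)
    (hlow : M.pos F x < M.pos F (s.mu F x))
    (hl : ¬ (M.Btw F x (s.mu F x) a ↔ M.Btw F x (s.mu F x) (s.mu F a))) {z zh : s.Dbl}
    (hzF : z.F = F) (hza : z.e true = a) (hhF : zh.F = F) (hha : zh.e true = a)
    (hhx : zh.e false = x) (hne : z.e false ≠ x) :
    (z.key true < zh.key true →
      (M.Btw F x (s.mu F x) (z.e false) ↔ M.Btw F x (s.mu F x) a)) ∧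
    (zh.key true < z.key true →
      (M.Btw F x (s.mu F x) (z.e false) ↔ M.Btw F x (s.mu F x) (s.mu F a))) := by
  have k1 := key_mem z true
  have k2 := key_mem zh true
  have hy := z.at_ false
  rw [hzF] at hy
  have hlz := z.low false
  rw [hzF] at hlz
  have h2 : z.e false ≠ s.mu F x := by
    intro h
    rw [h, s.mu_mu hx.1 hxF] at hlz
    exact lt_asymm hlz hlow
  have hnc := side_nc hx hxF ⟨hy.1, z.colr false⟩ hy.2 hne h2
  -- the point `kp`
  have e1 : M.Btw F x (s.mu F x) (z.e false) ↔ M.Btw F x (s.mu F x) (kp z true) := by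
    unfold kp
    split_ifs
    · exact Iff.rfl
    · rw [hzF]; exact hnc
  have e2 : kp zh true = x ∨ kp zh true = s.mu F x := by
    unfold kp
    split_ifs
    · left; exact hhx
    · right
      show s.mu zh.F (zh.e false) = _
      rw [hhF, hhx]
  rw [key_eq] at k1 k2
  rw [key_eq, key_eq, e1]
  rw [hzF, hza] at k1
  rw [hhF, hha] at k2
  rw [hzF, hhF]
  rw [btw_low hlow, btw_low hlow, btw_low hlow]
  rw [btw_low hlow, btw_low hlow] at hl
  generalize M.pos F (kp z true) = k at *
  rcases e2 with e2 | e2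
  · rw [e2] at k2 ⊢
    generalize M.pos F x = X at *
    generalize M.pos F (s.mu F x) = X' at *
    generalize M.pos F a = A at *
    generalize M.pos F (s.mu F a) = A' at *
    have h3 : ¬ (X < A ∧ A < X') := fun h => by linarith [h.1]
    have h4 : X < A' ∧ A' < X' := by
      by_contra h5
      exact hl ⟨fun h => absurd h h3, fun h => absurd h h5⟩
    constructor
    · intro h6
      exact ⟨fun h => by linarith [h.1], fun h => by linarith [h.1]⟩
    · intro h6
      exact ⟨fun _ => h4, fun _ => ⟨h6, by linarith [h4.2]⟩⟩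
  · rw [e2] at k2 ⊢
    generalize M.pos F x = X at *
    generalize M.pos F (s.mu F x) = X' at *
    generalize M.pos F a = A at *
    generalize M.pos F (s.mu F a) = A' at *
    have h3 : ¬ (X < A' ∧ A' < X') := fun h => by linarith [h.2]
    have h4 : X < A ∧ A < X' := by
      by_contra h5
      exact hl ⟨fun h => absurd h h5, fun h => absurd h h3⟩
    constructor
    · intro h6
      exact ⟨fun _ => h4, fun _ => ⟨by linarith [h4.1], h6⟩⟩
    · intro h6
      exact ⟨fun h => by linarith [h.2], fun h => by linarith [h.2]⟩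

/-- pieces of colour `true` -/
theorem sd_true {F : Φ} {x : W} (hx : HP s x) (hxF : x ∈ M.On F)
    (hlow : M.pos F x < M.pos F (s.mu F x)) (p : s.Sub true) (hF : (chd p).1 = F)
    (hno : ∀ (z : s.Dbl) (β : Bool), z.F = F → z.e false = x →
      (dz z true β = ⟨true, p, false⟩ ∨ dz z true β = ⟨true, p, true⟩) →
      (M.Btw F x (s.mu F x) (pt (flip (dz z true β))) ↔ M.pos F x < M.pos F (c x))) :
    sd s c F x ⟨true, p, false⟩ ↔ sd s c F x ⟨true, p, true⟩ := by
  have hat := chd_at p
  have hlp := chd_low p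
  have hc := chd_col p
  obtain ⟨a, ha⟩ : ∃ a, chd p = (F, a) := ⟨(chd p).2, Prod.ext hF rfl⟩
  rw [ha] at hat hlp hc
  change s.At F a at hat
  change M.pos F a < M.pos F (s.mu F a) at hlp
  change col (s.lab a) = true at hc
  have hat' := At.mu s hat
  have hc' : col (s.lab (s.mu F a)) = true := by rw [s.mu_lab hat.1 hat.2]; exact hc
  have hneq := col_ne hx hxF hat hc
  -- ends
  have n0 : node (⟨true, p, false⟩ : Dart s) = none →
      (sd s c F x ⟨true, p, false⟩ ↔ M.Btw F x (s.mu F x) a) := by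
    intro h
    rw [sd_none h]
    show M.Btw F x (s.mu F x) (ph s c (chd p).2) ↔ _
    rw [ha, ph_neg hc]
  have n1 : node (⟨true, p, true⟩ : Dart s) = none →
      (sd s c F x ⟨true, p, true⟩ ↔ M.Btw F x (s.mu F x) (s.mu F a)) := by
    intro h
    rw [sd_none h]
    show M.Btw F x (s.mu F x) (ph s c (s.mu (chd p).1 (chd p).2)) ↔ _
    rw [ha, ph_neg hc']
  by_cases hl : (M.Btw F x (s.mu F x) a ↔ M.Btw F x (s.mu F x) (s.mu F a))
  · have key : ∀ β z, node (⟨true, p, β⟩ : Dart s) = some z →
        (sd s c F x ⟨true, p, β⟩ ↔ M.Btw F x (s.mu F x) a) := by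
      intro β z hz
      obtain ⟨h1, h2⟩ := true_node ha hz
      obtain ⟨h3, h4⟩ := true_nolace hx hxF hlow hl h1 h2
      rw [sd_ne hz h3, h4]
    have e0 : sd s c F x ⟨true, p, false⟩ ↔ M.Btw F x (s.mu F x) a := by
      rcases hn : node (⟨true, p, false⟩ : Dart s) with _ | z
      · exact n0 hn
      · exact key _ z hn
    have e1 : sd s c F x ⟨true, p, true⟩ ↔ M.Btw F x (s.mu F x) a := by
      rcases hn : node (⟨true, p, true⟩ : Dart s) with _ | z
      · rw [n1 hn, hl]
      · exact key _ z hn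
    rw [e0, e1]
  · -- the double point of the two chords
    obtain ⟨zh, hhF, hha, hhx⟩ : ∃ zh : s.Dbl, zh.F = F ∧ zh.e true = a ∧ zh.e false = x := by
      refine ⟨⟨F, fun y => match y with | true => a | false => x, ?_, ?_, ?_, ?_⟩, rfl, rfl, rfl⟩
      · intro y; cases y; exacts [⟨hx.1, hxF⟩, hat]
      · intro y; cases y; exacts [hlow, hlp]
      · intro y; cases y; exacts [hx.2, hc]
      · exact lace_comm ⟨hx.1, hxF⟩ (At.mu s ⟨hx.1, hxF⟩) hat hat' hneq.1 hneq.2.1 hneq.2.2.1
          hneq.2.2.2 hl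
    have huniq : ∀ z : s.Dbl, z.F = F → z.e true = a → z.e false = x → z = zh := by
      intro z h1 h2 h3
      apply Dbl.ext' s (h1.trans hhF.symm)
      funext y
      cases y
      · exact h3.trans hhx.symm
      · exact h2.trans hha.symm
    -- value at a node different from `zh`
    have hval : ∀ β z, node (⟨true, p, β⟩ : Dart s) = some z → z ≠ zh →
        (z.key true < zh.key true → (sd s c F x ⟨true, p, β⟩ ↔ M.Btw F x (s.mu F x) a)) ∧
        (zh.key true < z.key true →
          (sd s c F x ⟨true, p, β⟩ ↔ M.Btw F x (s.mu F x) (s.mu F a))) := by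
      intro β z hz hne
      obtain ⟨h1, h2⟩ := true_node ha hz
      have h3 : z.e false ≠ x := fun h => hne (huniq z h1 h2 h)
      have h4 := true_lace hx hxF hlow hl h1 h2 hhF hha hhx h3
      rw [sd_ne hz h3]
      exact h4
    have hkne : ∀ z : s.Dbl, z.F = F → z.e true = a → z ≠ zh → z.key true ≠ zh.key true := by
      intro z h1 h2 h3 h4
      exact h3 (key_inj (h1.trans hhF.symm) (h2.trans hha.symm) h4)
    by_cases hpz : p = Sum.inr zh
    · -- the piece starts at `zh`
      have hn0 : node (⟨true, p, false⟩ : Dart s) = some zh := prv_some.2 hpz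
      rw [sd_eq hn0 hhx]
      have h5 := hno zh false hhF hhx (Or.inl (by rw [hpz]; rfl))
      have h6 : pt (flip (dz zh true false)) = s.mu F a := by
        show s.mu zh.F (zh.e true) = _
        rw [hhF, hha]
      rw [h6] at h5
      rw [← h5]
      rcases hn : node (⟨true, p, true⟩ : Dart s) with _ | z
      · rw [n1 hn]
      · obtain ⟨h1, h2⟩ := true_node ha hn
        have h7 : p.Below z := below_iff.2 (nxt_some.1 hn)
        have h8 := (below_start h7).1
        rw [hpz] at h8
        change zh.key true < z.key true at h8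
        exact ((hval true z hn (fun h => by rw [h] at h8; exact lt_irrefl _ h8)).2 h8).symm
    · -- lower end
      have hlo : start p < zh.key true →
          (sd s c F x ⟨true, p, false⟩ ↔ M.Btw F x (s.mu F x) a) := by
        intro h
        rcases hn : node (⟨true, p, false⟩ : Dart s) with _ | z
        · exact n0 hn
        · have h7 : p = Sum.inr z := prv_some.1 hn
          have h8 : start p = z.key true := by rw [h7]; rfl
          rw [h8] at h
          exact (hval false z hn (fun h' => by rw [h'] at h; exact lt_irrefl _ h)).1 h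
      have hchd : chd (Sum.inr zh : s.Sub true) = chd p := by
        rw [ha]
        exact Prod.ext hhF hha
      have hsne : start p ≠ zh.key true := by
        intro h
        exact hpz (start_inj hchd.symm h)
      rcases lt_or_gt_of_ne hsne with hs | hs
      · rw [hlo hs]
        rcases hn : node (⟨true, p, true⟩ : Dart s) with _ | z
        · exfalso
          have h7 : IsTop p := nxt_none.1 hn
          exact absurd hs (not_lt.2 (top_iff.1 h7 _ hchd))
        · obtain ⟨h1, h2⟩ := true_node ha hn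
          have h7 : p.Below z := below_iff.2 (nxt_some.1 hn)
          by_cases hzz : z = zh
          · subst hzz
            rw [sd_eq hn hhx]
            have h5 := hno z true hhF hhx (Or.inr (by
              have h9 : p = bel z true := nxt_some.1 hn
              rw [h9]; rfl))
            have h6 : pt (flip (dz z true true)) = a := by
              show (chd (bel z true)).2 = _
              rw [below_chd (bel_spec z true)]
              exact hha
            rw [h6] at h5
            exact h5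
          · have h8 := (below_start h7).2 _ hchd
            have h9 : z.key true < zh.key true := by
              rcases lt_or_gt_of_ne (hkne z h1 h2 hzz) with h | h
              · exact h
              · exact absurd ⟨hs, h⟩ h8
            exact ((hval true z hn hzz).1 h9).symm
      · -- after `zh`
        have e0 : sd s c F x ⟨true, p, false⟩ ↔ M.Btw F x (s.mu F x) (s.mu F a) := by
          rcases hn : node (⟨true, p, false⟩ : Dart s) with _ | z
          · exfalso
            cases p with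
            | inl q =>
              have h9 : start (Sum.inl q : s.Sub true) = M.pos F a := by
                have : q.1 = (F, a) := ha
                show M.pos q.1.1 q.1.2 = _
                rw [this]
              have k2 := (key_mem zh true).1
              rw [hhF, hha] at k2
              rw [h9] at hs
              exact lt_asymm hs k2
            | inr z => exact absurd hn (by simp [node, prv])
          · have h7 : p = Sum.inr z := prv_some.1 hn
            have h8 : start p = z.key true := by rw [h7]; rfl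
            rw [h8] at hs
            exact (hval false z hn (fun h' => by rw [h'] at hs; exact lt_irrefl _ hs)).2 hs
        rw [e0]
        rcases hn : node (⟨true, p, true⟩ : Dart s) with _ | z
        · rw [n1 hn]
        · have h7 : p.Below z := below_iff.2 (nxt_some.1 hn)
          have h8 := (below_start h7).1
          have h9 := lt_trans hs h8
          exact ((hval true z hn (fun h' => by rw [h'] at h9; exact lt_irrefl _ h9)).2 h9).symm

end side

section main

variable {s : St M col} {up : Φ → W → Bool} {Ph : Finset W} {b : Bool} {c : W → W}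
variable {G : Set s.Dbl} {inn : s.Dbl → Bool → Bool}

/-- **a pushed chord which crosses a barrier chord** passes through an old double point of this
barrier chord, on the side opposite to the push -/
theorem cross (hp : Push s up Ph b c) (hP : s.P ⊆ Ph) (h2 : Two s up) {F : Φ} {x : W}
    (hx : HP s x) (hxF : x ∈ M.On F) (hlow : M.pos F x < M.pos F (s.mu F x)) {v : W}
    (hv : s.At F v) (hl : ¬ (M.Btw F x (s.mu F x) (ph s c v) ↔
      M.Btw F x (s.mu F x) (ph s c (mu' G inn F v)))) :
    ∃ (z : s.Dbl) (β : Bool), z.F = F ∧ z.e false = x ∧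
      orb G inn (dz z true β) = orb G inn (ed hv) ∧
      ¬ (M.Btw F x (s.mu F x) (pt (flip (dz z true β))) ↔ M.pos F x < M.pos F (c x)) := by
  by_contra hcon
  have hcon' : ∀ (z : s.Dbl) (β : Bool), z.F = F → z.e false = x →
      orb G inn (dz z true β) = orb G inn (ed hv) →
      (M.Btw F x (s.mu F x) (pt (flip (dz z true β))) ↔ M.pos F x < M.pos F (c x)) := by
    intro z β h1 h2 h3
    by_contra h4
    exact hcon ⟨z, β, h1, h2, h3, h4⟩
  apply hl
  have hv' := mu'_at G inn hv
  have e0 : sd s c F x (ed hv) ↔ M.Btw F x (s.mu F x) (ph s c v) := by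
    rw [sd_none (node_ed hv), pt_ed]
  have e1 : sd s c F x (ed hv') ↔ M.Btw F x (s.mu F x) (ph s c (mu' G inn F v)) := by
    rw [sd_none (node_ed hv'), pt_ed]
  rw [← e0, ← e1]
  have hc := orb_eq_iff.1 (orb_mu' (G := G) (inn := inn) hv).symm
  refine (hc (fun d => (fc d = F ∧ orb G inn d = orb G inn (ed hv)) ∧
    (sd s c F x d ↔ sd s c F x (ed hv))) ?_ ?_ ⟨⟨fc_ed hv, rfl⟩, Iff.rfl⟩).2.symm
  · rintro d ⟨⟨h3, h4⟩, h5⟩
    refine ⟨⟨h3, (orb_flip d).trans h4⟩, Iff.trans ?_ h5⟩
    obtain ⟨y, p, β⟩ := d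
    cases y
    · show sd s c F x ⟨false, p, !β⟩ ↔ sd s c F x ⟨false, p, β⟩
      rw [sd_false hp hP h2 hx hxF hlow p h3, sd_false hp hP h2 hx hxF hlow p h3]
    · have h6 : sd s c F x ⟨true, p, false⟩ ↔ sd s c F x ⟨true, p, true⟩ := by
        apply sd_true hx hxF hlow p h3
        intro z γ h7 h8 h9
        apply hcon' z γ h7 h8
        have h10 : orb G inn (dz z true γ) = lb G inn p := by
          rcases h9 with h9 | h9 <;> rw [h9] <;> exact orb_eq_lb _
        rw [h10, ← h4]
        exact (orb_eq_lb (⟨true, p, β⟩ : Dart s)).symm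
      cases β
      · exact h6.symm
      · exact h6
  · rintro d ⟨⟨h3, h4⟩, h5⟩
    exact ⟨⟨(fc_tt d).trans h3, (orb_tt d).trans h4⟩, (sd_tt d).trans h5⟩

variable {t : St M col} {hp : Push s up Ph b c} {hP : s.P ⊆ Ph} {ht : t.P ⊆ s.P}

/-- **double points of the pushed state** -/
theorem exists_old' (h2 : Two s up) (hmu : ∀ F w, s.At F w → t.mu F w = mu' G inn F w)
    (z' : (pst hp hP ht).Dbl) :
    ∃ (v : W) (hv : s.At z'.F v) (z : s.Dbl) (β : Bool), v ∈ kA t ∧ z'.e true = ph s c v ∧
      z.F = z'.F ∧ z.e false = z'.e false ∧ orb G inn (dz z true β) = orb G inn (ed hv) ∧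
      ¬ (M.Btw z.F (z.e false) (s.mu z.F (z.e false)) (pt (flip (dz z true β))) ↔
        M.pos z.F (z.e false) < M.pos z.F (c (z.e false))) := by
  obtain ⟨v, hv, hve⟩ := pst_true (z'.at_ true).1 (z'.colr true)
  have hx : HP s (z'.e false) := pst_hp_iff.1 ⟨(z'.at_ false).1, z'.colr false⟩
  have hxF := (z'.at_ false).2
  have hmx : (pst hp hP ht).mu z'.F (z'.e false) = s.mu z'.F (z'.e false) := (pst_hp hx).2.2 _
  have hlow := z'.low false
  rw [hmx] at hlow
  have hvP := (mem_kA.1 hv).1
  have hvF : v ∈ M.On z'.F := by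
    rw [← ph_on hp (ht hvP), ← hve]
    exact (z'.at_ true).2
  have hvA : s.At z'.F v := ⟨ht hvP, hvF⟩
  have hmv : (pst hp hP ht).mu z'.F (z'.e true) = ph s c (mu' G inn z'.F v) := by
    rw [hve, (pst_ph hv).2.2, hmu _ _ hvA]
  have hl := z'.lace
  have a1 := z'.at_ true
  have a2 := z'.at_ false
  have hne := col_ne (s := pst hp hP ht) ⟨a2.1, z'.colr false⟩ a2.2 a1 (z'.colr true)
  have hl' := lace_comm a1 (At.mu _ a1) a2 (At.mu _ a2) hne.1.symm hne.2.2.1.symm hne.2.1.symm
    hne.2.2.2.symm hl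
  rw [hmv, hmx, hve] at hl'
  obtain ⟨z, β, h3, h4, h5, h6⟩ := cross (G := G) (inn := inn) hp hP h2 hx hxF hlow hvA hl'
  refine ⟨v, hvA, z, β, hv, hve, h3, h4, h5, ?_⟩
  rw [h3, h4]
  exact h6

/-- the dart opposite to the push is unique -/
theorem anti_unique {z : s.Dbl} {β β' : Bool} {P : Prop}
    (h : ¬ (M.Btw z.F (z.e false) (s.mu z.F (z.e false)) (pt (flip (dz z true β))) ↔ P))
    (h' : ¬ (M.Btw z.F (z.e false) (s.mu z.F (z.e false)) (pt (flip (dz z true β'))) ↔ P)) :
    β = β' := by
  have e1 : pt (flip (dz z true false)) = s.mu z.F (z.e true) := rfl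
  have e2 : pt (flip (dz z true true)) = z.e true := by
    show (chd (bel z true)).2 = _
    rw [below_chd (bel_spec z true)]
  have a1 := z.at_ true
  have a2 := z.at_ false
  have hne := col_ne (s := s) ⟨a2.1, z.colr false⟩ a2.2 a1 (z.colr true)
  have hl := lace_comm a1 (At.mu _ a1) a2 (At.mu _ a2) hne.1.symm hne.2.2.1.symm hne.2.1.symm
    hne.2.2.2.symm z.lace
  unfold MeshC.Lace at hl
  cases β <;> cases β'
  · rfl
  · exfalso
    rw [e1] at h
    rw [e2] at h'
    exact hl (by tauto)
  · exfalso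
    rw [e2] at h
    rw [e1] at h'
    exact hl (by tauto)
  · rfl

/-- exactly one of the two darts is opposite to the push -/
theorem anti_exists (z : s.Dbl) (P : Prop) : ∃ β : Bool,
    ¬ (M.Btw z.F (z.e false) (s.mu z.F (z.e false)) (pt (flip (dz z true β))) ↔ P) := by
  by_contra hcon
  push Not at hcon
  have e1 : pt (flip (dz z true false)) = s.mu z.F (z.e true) := rfl
  have e2 : pt (flip (dz z true true)) = z.e true := by
    show (chd (bel z true)).2 = _
    rw [below_chd (bel_spec z true)]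
  have a1 := z.at_ true
  have a2 := z.at_ false
  have hne := col_ne (s := s) ⟨a2.1, z.colr false⟩ a2.2 a1 (z.colr true)
  have hl := lace_comm a1 (At.mu _ a1) a2 (At.mu _ a2) hne.1.symm hne.2.2.1.symm hne.2.1.symm
    hne.2.2.2.symm z.lace
  have h1 := hcon false
  have h2 := hcon true
  rw [e1] at h1
  rw [e2] at h2
  exact hl (h2.trans h1.symm)

/-- the map to the old double points -/
noncomputable def odp (h2 : Two s up) (hmu : ∀ F w, s.At F w → t.mu F w = mu' G inn F w)
    (z' : (pst hp hP ht).Dbl) : s.Dbl := (exists_old' h2 hmu z').choose_spec.choose_spec.choose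

theorem odp_spec (h2 : Two s up) (hmu : ∀ F w, s.At F w → t.mu F w = mu' G inn F w)
    (z' : (pst hp hP ht).Dbl) :
    ∃ (v : W) (hv : s.At z'.F v) (β : Bool), v ∈ kA t ∧ z'.e true = ph s c v ∧
      (odp h2 hmu z').F = z'.F ∧ (odp h2 hmu z').e false = z'.e false ∧
      orb G inn (dz (odp h2 hmu z') true β) = orb G inn (ed hv) ∧
      ¬ (M.Btw (odp h2 hmu z').F ((odp h2 hmu z').e false)
        (s.mu (odp h2 hmu z').F ((odp h2 hmu z').e false))
        (pt (flip (dz (odp h2 hmu z') true β))) ↔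
        M.pos (odp h2 hmu z').F ((odp h2 hmu z').e false) <
          M.pos (odp h2 hmu z').F (c ((odp h2 hmu z').e false))) := by
  obtain ⟨β, h⟩ := (exists_old' h2 hmu z').choose_spec.choose_spec.choose_spec
  exact ⟨_, _, β, h⟩

theorem odp_inj (h2 : Two s up) (hmu : ∀ F w, s.At F w → t.mu F w = mu' G inn F w) :
    Function.Injective (odp (hp := hp) (hP := hP) (ht := ht) h2 hmu) := by
  intro z1 z2 he
  obtain ⟨v1, hv1, β1, k1, e1, F1, x1, o1, n1⟩ := odp_spec h2 hmu z1
  obtain ⟨v2, hv2, β2, k2, e2, F2, x2, o2, n2⟩ := odp_spec h2 hmu z2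
  rw [he] at F1 x1 o1 n1
  have hβ := anti_unique n1 n2
  have hF : z1.F = z2.F := F1.symm.trans F2
  subst hβ
  rw [o1] at o2
  obtain ⟨-, h3⟩ := (orb_ed_iff hv2 hv1).1 o2
  have l1 := z1.low true
  have l2 := z2.low true
  have m1 : (pst hp hP ht).mu z1.F (z1.e true) = ph s c (mu' G inn z1.F v1) := by
    rw [e1, (pst_ph k1).2.2, hmu _ _ hv1]
  have m2 : (pst hp hP ht).mu z2.F (z2.e true) = ph s c (mu' G inn z2.F v2) := by
    rw [e2, (pst_ph k2).2.2, hmu _ _ hv2]
  rw [m1, e1] at l1
  rw [m2, e2] at l2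
  have hv : v1 = v2 := by
    rcases h3 with h3 | h3
    · exact h3
    · exfalso
      rw [hF, h3, mu'_mu' hv2] at l1
      exact lt_asymm l1 l2
  apply Dbl.ext' _ hF
  funext y
  cases y
  · exact x1.symm.trans x2
  · rw [e1, e2, hv]

end main

end Crest.Agent.R096.Sec_892
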