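import Crest.Agent.R096.Sec2_892

/-!
# R096 / DOORS-SEC, part 3 (helper892): one step of the one-sided exchange
-/

set_option autoImplicit false

namespace Crest.Agent.R096.Sec_892

open Crest.Agent.R096.St_147 Crest.Agent.R096.Wk_689 Crest.Agent.R096.F_422

variable {ι Φ W I : Type} {M : MeshC ι Φ W} {col : I → Bool}

section third

variable {s : St M col} {up : Φ → W → Bool} {Ph : Finset W} {b : Bool} {c : W → W}
variable {G : Set s.Dbl} {inn : s.Dbl → Bool → Bool}

theorem pt_dz (z : s.Dbl) (x β : Bool) :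
    pt (dz z x β) = z.e x ∨ pt (dz z x β) = s.mu z.F (z.e x) := by
  cases β
  · left; rfl
  · right
    show s.mu (chd (bel z x)).1 (chd (bel z x)).2 = _
    rw [below_chd (bel_spec z x)]

theorem pt_flip (d : Dart s) : pt (flip d) = s.mu (fc d) (pt d) := by
  obtain ⟨x, p, β⟩ := d
  cases β
  · rfl
  · show (chd p).2 = s.mu (chd p).1 (s.mu (chd p).1 (chd p).2)
    rw [s.mu_mu (chd_at p).1 (chd_at p).2]

/-- **a re-glued chord separates two points only if an old chord does** -/
theorem third (hp : Push s up Ph b c) (hP : s.P ⊆ Ph) {F : Φ} {v p q : W} (hv : s.At F v)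
    (hpP : p ∈ Ph) (hqP : q ∈ Ph) (hps : p ∉ s.P) (hqs : q ∉ s.P) (hpF : p ∈ M.On F)
    (hqF : q ∈ M.On F) (hl : M.Lace F (ph s c v) (ph s c (mu' G inn F v)) p q) :
    ∃ u, s.At F u ∧ M.Lace F u (s.mu F u) p q := by
  by_contra hcon
  have hcon' : ∀ u, s.At F u → (M.Btw F u (s.mu F u) p ↔ M.Btw F u (s.mu F u) q) := by
    intro u hu
    by_contra h
    exact hcon ⟨u, hu, h⟩
  have hne : ∀ {r u : W}, r ∉ s.P → r ∈ M.On F → s.At F u → M.pos F r ≠ M.pos F u := by
    intro r u hr hrF hu h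
    exact hr (by rw [M.pos_inj F hrF hu.2 h]; exact hu.1)
  have hne' : ∀ {r u : W}, r ∉ s.P → r ∈ Ph → r ∈ M.On F → s.At F u →
      M.pos F r ≠ M.pos F (ph s c u) := by
    intro r u hr hrP hrF hu h
    cases hc : col (s.lab u)
    · rw [ph_pos hc] at h
      exact hp.nin ⟨hu.1, hc⟩ (by rw [← M.pos_inj F hrF ((hp.on F ⟨hu.1, hc⟩).2 hu.2) h]; exact hrP)
    · rw [ph_neg hc] at h
      exact hne hr hrF hu h
  -- the side of the chord
  have hside : ∀ u, s.At F u → (M.Btw F p q u ↔ M.Btw F p q (s.mu F u)) := by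
    intro u hu
    exact bt_comm (hne hps hpF hu).symm (hne hqs hqF hu).symm (hne hps hpF (At.mu s hu)).symm
      (hne hqs hqF (At.mu s hu)).symm (hcon' u hu)
  have hv' := mu'_at G inn hv
  have hc := orb_eq_iff.1 (orb_mu' (G := G) (inn := inn) hv).symm
  have key : M.Btw F p q (mu' G inn F v) ↔ M.Btw F p q v := by
    have := (hc (fun d => fc d = F ∧ (M.Btw F p q (pt d) ↔ M.Btw F p q v)) ?_ ?_
      ⟨fc_ed hv, by rw [pt_ed]⟩).2
    · rw [pt_ed] at this
      exact this
    · rintro d ⟨h3, h4⟩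
      refine ⟨h3, ?_⟩
      have h5 := pt_at d
      rw [h3] at h5
      rw [pt_flip, h3, ← hside _ h5]
      exact h4
    · rintro d ⟨h3, h4⟩
      refine ⟨(fc_tt d).trans h3, ?_⟩
      rcases hn : node d with _ | z
      · rw [tt_none hn]; exact h4
      · have hzF : z.F = F := by
          rw [← h3, eq_dz hn, fc_dz]
        have e1 : ∀ d' : Dart s, node d' = some z →
            (M.Btw F p q (pt d') ↔ M.Btw F p q (z.e true)) := by
          intro d' hd'
          have a1 := z.at_ true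
          have a2 := z.at_ false
          have hl := z.lace
          rw [hzF] at a1 a2 hl
          have e2 : M.Btw F p q (z.e true) ↔ M.Btw F p q (z.e false) :=
            bt_same (hside _ a1) (hside _ a2) hl
          have e3 : M.Btw F p q (pt d') ↔ M.Btw F p q (z.e d'.x) := by
            have h6 := pt_dz z d'.x d'.b
            rw [← eq_dz hd', hzF] at h6
            rcases h6 with h6 | h6
            · rw [h6]
            · rw [h6]
              have a3 := z.at_ d'.x
              rw [hzF] at a3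
              exact (hside _ a3).symm
          rw [e3]
          cases d'.x
          · exact e2.symm
          · exact Iff.rfl
        rw [e1 _ (by rw [node_tt, hn]), ← e1 d hn]
        exact h4
  have hpu : ∀ u, s.At F u → p ≠ u := fun u hu h => hps (h ▸ hu.1)
  have hqu : ∀ u, s.At F u → q ≠ u := fun u hu h => hqs (h ▸ hu.1)
  have h7 : M.Btw F p q (ph s c v) ↔ M.Btw F p q (ph s c (mu' G inn F v)) := by
    rw [side_ph hp hP hv hpP hpF hqP hqF (hpu v hv) (hqu v hv),
      side_ph hp hP hv' hpP hpF hqP hqF (hpu _ hv') (hqu _ hv')]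
    exact key.symm
  exact hl (bt_comm (hne' hps hpP hpF hv) (hne' hps hpP hpF hv') (hne' hqs hqP hqF hv)
    (hne' hqs hqP hqF hv') h7)

end third

section root

variable {s : St M col} {Act : Set ι} {A : s.Arcs Act} {τ : Bool → ι → s.Dbl → ZMod 2}
  {G : Set s.Dbl} {far : I → Set W} {D : s.Dbl → Bool → Dart s → ZMod 2}

/-- **an outermost double point on the barriers** -/
theorem exists_root (hD : DD A τ G far D) (hG : A.Closed G) (hne : G.Nonempty) :
    ∃ z₀ ∈ G, nmf G D (inD (innD D) z₀ true) = some (s.lab (z₀.e false)) := by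
  obtain ⟨z, hz, hmax⟩ := Set.exists_max_image G
    (fun z => {d' : Dart s | D z false d' = 1}.ncard) (Set.toFinite _) hne
  refine ⟨z, hz, ?_⟩
  rw [nmf_some hD hG]
  refine ⟨1, ?_⟩
  have hroot : ∀ z' ∈ G, D z' false (outD (innD D) z false) = 0 := by
    intro z' hz'
    by_contra h
    have h1 := z2_ne0 h
    have h2 : z ∉ A.cv z' := by
      intro h3
      rw [D_out' hD hG hz' h3] at h1
      exact zero_ne_one h1
    have h4 : D z' false (inD (innD D) z false) = 1 := by
      unfold inD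
      unfold outD at h1
      rw [D_any hD hz' h2 false _ (innD D z false)]
      exact h1
    rcases hD.lam z hz z' hz' false _ (D_in hD hz false) h4 with h5 | h5
    · have h6 : {d' : Dart s | D z false d' = 1} ⊂ {d' : Dart s | D z' false d' = 1} := by
        refine ⟨fun d hd => h5 d hd, fun h7 => ?_⟩
        have h8 : D z false (outD (innD D) z false) = 1 := h7 h1
        rw [D_out hD hz] at h8
        exact zero_ne_one h8
      have h9 := Set.ncard_lt_ncard h6 (Set.toFinite _)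
      exact absurd (hmax z' hz') (not_le.2 h9)
    · have h8 := h5 _ h1
      rw [D_out hD hz] at h8
      exact zero_ne_one h8
  rw [nm_in_iff hD hG hz, Bool.not_true]
  have h1 := Nm.root (G := G) (D := D) (outD (innD D) z false) (fun z' hz' => by
    rw [outD_x]; exact hroot z' hz')
  have h2 : s.lab (pt (outD (innD D) z false)) = s.lab (z.e false) := by
    unfold outD; exact lab_dz _ _ _
  rwa [h2] at h1

end root

section step

variable {s : St M col} {Act : Set ι} {far : I → Set W}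

/-- `w` is next to `h`: no point of `Ph` in between -/
def Nb (M : MeshC ι Φ W) (Ph : Finset W) (h w : W) : Prop :=
  (∀ F, w ∈ M.On F ↔ h ∈ M.On F) ∧ ∀ F v, h ∈ M.On F → v ∈ Ph → v ∈ M.On F → v ≠ h →
    (M.pos F v < M.pos F h ↔ M.pos F v < M.pos F w)

/-- the relation between the cut state `s'` and the old state `s` -/
structure CLe (Act : Set ι) (far : I → Set W) (Ph : Finset W) (s' s : St M col) : Prop where
  hp : ∀ w, HP s' w ↔ HP s w
  hlab : ∀ w, HP s w → s'.lab w = s.lab w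
  hmu : ∀ w F, HP s w → s'.mu F w = s.mu F w
  P : ∀ w ∈ s'.P, w ∈ s.P ∨ (w ∉ Ph ∧ ∃ h, HP s h ∧ Nb M Ph h w)
  frozen_P : ∀ F w, St.Frozen M Act F → w ∈ M.On F → (w ∈ s'.P ↔ w ∈ s.P)
  frozen_mu : ∀ F w, St.Frozen M Act F → s.At F w → s'.mu F w = s.mu F w
  free : ∀ F w, s.At F w → w ∈ far (s.lab w) → s.mu F w ∈ far (s.lab w) → s.Free F w →
    s'.mu F w = s.mu F w ∧ s'.Free F w
  dbl : ∀ z' : s'.Dbl, ∃ z : s.Dbl, z.F = z'.F ∧ z.e false = z'.e false
  third : ∀ F w p q, s'.At F w → p ∈ Ph → q ∈ Ph → p ∉ s.P → q ∉ s.P → p ∈ M.On F →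
    q ∈ M.On F → M.Lace F w (s'.mu F w) p q → ∃ u, s.At F u ∧ M.Lace F u (s.mu F u) p q

theorem CLe.refl (Act : Set ι) (far : I → Set W) (Ph : Finset W) (s : St M col) :
    CLe Act far Ph s s where
  hp _ := Iff.rfl
  hlab _ _ := rfl
  hmu _ _ _ := rfl
  P _ h := Or.inl h
  frozen_P _ _ _ _ := Iff.rfl
  frozen_mu _ _ _ _ := rfl
  free _ _ _ _ _ h := ⟨rfl, h⟩
  dbl z := ⟨z, rfl, rfl⟩
  third _ w _ _ hw _ _ _ _ _ _ hl := ⟨w, hw, hl⟩

theorem CLe.trans {Ph Ph' : Finset W} {s'' s' s : St M col} (hPh : Ph ⊆ Ph')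
    (h2 : CLe Act far Ph' s'' s') (h1 : CLe Act far Ph s' s)
    (hg' : s'.Good Act far) : CLe Act far Ph s'' s where
  hp w := (h2.hp w).trans (h1.hp w)
  hlab w h := (h2.hlab w ((h1.hp w).2 h)).trans (h1.hlab w h)
  hmu w F h := (h2.hmu w F ((h1.hp w).2 h)).trans (h1.hmu w F h)
  P w h := by
    rcases h2.P w h with h3 | ⟨h3, h, h4, h5⟩
    · exact h1.P w h3
    · exact Or.inr ⟨fun h6 => h3 (hPh h6), h, (h1.hp h).1 h4, h5.1, fun F v h6 h7 h8 h9 =>
        h5.2 F v h6 (hPh h7) h8 h9⟩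
  frozen_P F w hF hw := (h2.frozen_P F w hF hw).trans (h1.frozen_P F w hF hw)
  frozen_mu F w hF hw := (h2.frozen_mu F w hF ⟨(h1.frozen_P F w hF hw.2).2 hw.1, hw.2⟩).trans
    (h1.frozen_mu F w hF hw)
  free F w hw hf hf' hfr := by
    obtain ⟨h3, h4⟩ := h1.free F w hw hf hf' hfr
    have h5 := hg'.far_mem hf
    have h6 := h2.free F w ⟨h5.1, hw.2⟩ (by rw [h5.2]; exact hf) (by rw [h3, h5.2]; exact hf') h4
    exact ⟨h6.1.trans h3, h6.2⟩
  dbl z' := by
    obtain ⟨z1, h3, h4⟩ := h2.dbl z'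
    obtain ⟨z, h5, h6⟩ := h1.dbl z1
    exact ⟨z, h5.trans h3, h6.trans h4⟩
  third F w p q hw hp hq hps hqs hpF hqF hl := by
    have hns : ∀ r, r ∈ Ph → r ∉ s.P → r ∉ s'.P := by
      intro r hr hrs h
      rcases h1.P r h with h3 | h3
      · exact hrs h3
      · exact h3.1 hr
    obtain ⟨u, hu, hl'⟩ := h2.third F w p q hw (hPh hp) (hPh hq) (hns p hp hps) (hns q hq hqs)
      hpF hqF hl
    exact h1.third F u p q hu hp hq hps hqs hpF hqF hl'

theorem CLe.mono {Ph Ph' : Finset W} {s' s : St M col} (hPh : Ph ⊆ Ph')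
    (h : CLe Act far Ph' s' s) (hg : s.Good Act far) : CLe Act far Ph s' s :=
  CLe.trans hPh h (CLe.refl Act far Ph s) hg

variable {up : Φ → W → Bool} {Ph : Finset W} {b : Bool} {c : W → W}
variable {G : Set s.Dbl} {inn : s.Dbl → Bool → Bool} {nm : Dart s → Option I}

theorem chd_dz (z : s.Dbl) (x β : Bool) : chd (dz z x β).p = (z.F, z.e (dz z x β).x) := by
  cases β
  · rfl
  · exact below_chd (bel_spec z x)

theorem nst_sub (hg : s.Good Act far) (N : Nms s G far inn nm) : (nst hg N).P ⊆ s.P :=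
  (nmd hg N).sub

theorem nst_mu' (hg : s.Good Act far) (N : Nms s G far inn nm) (F : Φ) (w : W)
    (_ : s.At F w) : (nst hg N).mu F w = mu' G inn F w := rfl

theorem far_kA (hg : s.Good Act far) (N : Nms s G far inn nm) {i : I} {w : W} (h : w ∈ far i)
    (hi : col i = true) : w ∈ kA (nst hg N) ∧ ph s c w = w ∧ (nst hg N).lab w = i := by
  have h1 := far_mem' hg N h
  have h2 : (nst hg N).lab w = i := far_lab hg N h
  refine ⟨mem_kA.2 ⟨h1, by rw [h2]; exact hi⟩, ph_neg (by rw [(hg.far_mem h).2]; exact hi), h2⟩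

/-- partners of marked points -/
theorem pst_mu_far (hg : s.Good Act far) (N : Nms s G far inn nm) (hp : Push s up Ph b c)
    (hP : s.P ⊆ Ph) {i : I} {F : Φ} {w : W} (hw : w ∈ far i) (hmw : s.mu F w ∈ far i)
    (hmu : (nst hg N).mu F w = s.mu F w) :
    (pst hp hP (nst_sub hg N)).mu F w = s.mu F w := by
  cases hi : col i
  · have h1 : HP s w := ⟨(hg.far_mem hw).1, by rw [(hg.far_mem hw).2]; exact hi⟩
    exact (pst_hp h1).2.2 F
  · obtain ⟨h1, h2, -⟩ := far_kA (c := c) hg N hw hi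
    have h3 := (pst_ph (hp := hp) (hP := hP) (ht := nst_sub hg N) h1).2.2 F
    rw [h2, hmu, (far_kA (c := c) hg N hmw hi).2.1] at h3
    exact h3

theorem pst_far (hg : s.Good Act far) (N : Nms s G far inn nm) (hp : Push s up Ph b c)
    (hP : s.P ⊆ Ph) {i : I} {w : W} (hw : w ∈ far i) :
    w ∈ (pst hp hP (nst_sub hg N)).P ∧ (pst hp hP (nst_sub hg N)).lab w = i := by
  cases hi : col i
  · have h1 : HP s w := ⟨(hg.far_mem hw).1, by rw [(hg.far_mem hw).2]; exact hi⟩
    exact ⟨(pst_hp h1).1, (pst_hp h1).2.1.trans (hg.far_mem hw).2⟩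
  · obtain ⟨h1, h2, h4⟩ := far_kA (c := c) hg N hw hi
    have h3 := pst_ph (hp := hp) (hP := hP) (ht := nst_sub hg N) h1
    rw [h2] at h3
    exact ⟨h3.1, h3.2.1.trans h4⟩

theorem lo_at {F : Φ} {w : W} (hw : s.At F w) : s.At F (s.lo F w) := by
  unfold St.lo
  split_ifs
  · exact hw
  · exact At.mu s hw

theorem lo_lo {F : Φ} {w : W} (hw : s.At F w) : s.lo F (s.lo F w) = s.lo F w := by
  unfold St.lo
  by_cases h : M.pos F w ≤ M.pos F (s.mu F w)
  · simp only [if_pos h]
  · simp only [if_neg h, s.mu_mu hw.1 hw.2]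
    rw [if_pos (not_le.1 h).le]

/-- free chords which keep their partner stay free -/
theorem pst_free (hg : s.Good Act far) (N : Nms s G far inn nm) (hp : Push s up Ph b c)
    (hP : s.P ⊆ Ph) (h2 : Two s up) {F : Φ} {w : W} (hw : s.At F w) (hfr : s.Free F w)
    (hmu : (pst hp hP (nst_sub hg N)).mu F w = s.mu F w) :
    (pst hp hP (nst_sub hg N)).Free F w := by
  intro z' hF x he
  have hlo : (pst hp hP (nst_sub hg N)).lo F w = s.lo F w := by
    unfold St.lo
    rw [hmu]
  rw [hlo] at he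
  obtain ⟨v, hv, z, β, h3, h4, h5, h6, h7, -⟩ := exists_old' h2 (nst_mu' hg N) z'
  have hlA := lo_at hw
  subst hF
  cases x
  · exact hfr z h5 false (h6.trans he)
  · have hct : col (s.lab v) = true := by
      cases hc : col (s.lab v)
      · exfalso
        rw [ph_pos hc] at h4
        exact hp.nin ⟨hv.1, hc⟩ (by rw [← h4, he]; exact hP hlA.1)
      · rfl
    rw [ph_neg hct, he] at h4
    subst h4
    have hfr' : ∀ z ∈ G, z.F = z'.F → z.e (col (s.lab (s.lo z'.F w))) ≠
        s.lo z'.F (s.lo z'.F w) := by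
      intro y _ hy
      rw [lo_lo hw]
      exact hfr y hy _
    have h8 := orb_chd hv hfr' h7
    have h9 := chd_dz z true β
    rw [h8.2, lo_lo hw, dz_x] at h9
    exact hfr z h5 true (Prod.mk.inj h9).2.symm

/-- **the pushed state is good** -/
theorem pst_good {A : s.Arcs Act} (hG : A.Closed G) (hg : s.Good Act far)
    (N : Nms s G far inn nm) (hp : Push s up Ph b c) (hP : s.P ⊆ Ph) (h2 : Two s up) :
    (pst hp hP (nst_sub hg N)).Good Act far where
  h1 := pst_H1 hg.h1 (fun i => B_422.h1_of_sep _ i (sep' hg N i))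
  conn := pst_Conn hg.conn (conn' hG hg N)
  far_mem := fun h => pst_far hg N hp hP h
  far_ne := hg.far_ne
  far_frozen := by
    intro F w hw hF
    rcases pst_cases hw.1 with ⟨v, hv, rfl⟩ | h
    · have hvP := nst_sub hg N (mem_kA.1 hv).1
      have hvF : v ∈ M.On F := (ph_on hp hvP F).1 hw.2
      have h3 := hg.far_frozen ⟨hvP, hvF⟩ hF
      have h4 : (nst hg N).lab v = s.lab v := far_lab hg N h3
      have h5 : col (s.lab v) = true := by rw [← h4]; exact (mem_kA.1 hv).2
      rw [(pst_ph hv).2.1, h4, ph_neg h5]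
      exact h3
    · rw [(pst_hp h).2.1]
      exact hg.far_frozen ⟨h.1, hw.2⟩ hF
  far_conn := by
    intro i X hX w hw hwf
    refine hg.far_conn i X ?_ w hw hwf
    intro F w hw hwf hA hmu hfr
    have hmt : (nst hg N).mu F w = s.mu F w := by
      rcases hfr with h | h
      · exact (free_keep (nmd hg N) hA h).1
      · exact mu_frozen hG hg N h hA
    have hmw := pst_mu_far hg N hp hP hwf hmu hmt
    rw [← hmw] at hmu ⊢
    refine hX F w hw hwf ⟨(pst_far hg N hp hP hwf).1, hA.2⟩ hmu ?_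
    rcases hfr with h | h
    · exact Or.inl (pst_free hg N hp hP h2 hA h hmw)
    · exact Or.inr h

/-- the relation with the old state -/
theorem pst_cle {A : s.Arcs Act} (hG : A.Closed G) (hg : s.Good Act far)
    (N : Nms s G far inn nm) (hp : Push s up Ph b c) (hP : s.P ⊆ Ph) (h2 : Two s up) :
    CLe Act far Ph (pst hp hP (nst_sub hg N)) s where
  hp _ := pst_hp_iff
  hlab _ h := (pst_hp h).2.1
  hmu _ F h := (pst_hp h).2.2 F
  P w hw := by
    rcases pst_cases hw with ⟨v, hv, rfl⟩ | h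
    · have hvP := nst_sub hg N (mem_kA.1 hv).1
      cases hc : col (s.lab v)
      · right
        rw [ph_pos hc]
        exact ⟨hp.nin ⟨hvP, hc⟩, v, ⟨hvP, hc⟩, fun F => hp.on F ⟨hvP, hc⟩,
          fun F u h3 h4 h5 h6 => hp.adj ⟨hvP, hc⟩ h3 h4 h5 h6⟩
      · left; rw [ph_neg hc]; exact hvP
    · exact Or.inl h.1
  frozen_P F w hF hw := by
    constructor
    · intro h
      rcases pst_cases h with ⟨v, hv, rfl⟩ | h
      · have hvP := nst_sub hg N (mem_kA.1 hv).1
        have hvF : v ∈ M.On F := (ph_on hp hvP F).1 hw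
        have h3 := hg.far_frozen ⟨hvP, hvF⟩ hF
        have h4 : (nst hg N).lab v = s.lab v := far_lab hg N h3
        have h5 : col (s.lab v) = true := by rw [← h4]; exact (mem_kA.1 hv).2
        rw [ph_neg h5]
        exact hvP
      · exact h.1
    · intro h
      exact (pst_far hg N hp hP (hg.far_frozen ⟨h, hw⟩ hF)).1
  frozen_mu F w hF hw := by
    have h3 := hg.far_frozen hw hF
    have h4 := hg.far_frozen (At.mu s hw) hF
    rw [s.mu_lab hw.1 hw.2] at h4
    exact pst_mu_far hg N hp hP h3 h4 (mu_frozen hG hg N hF hw)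
  free F w hw hf hf' hfr := by
    have h3 := pst_mu_far hg N hp hP hf hf' (free_keep (nmd hg N) hw hfr).1
    exact ⟨h3, pst_free hg N hp hP h2 hw hfr h3⟩
  dbl z' := by
    obtain ⟨v, hv, z, β, -, -, h5, h6, -, -⟩ := exists_old' h2 (nst_mu' hg N) z'
    exact ⟨z, h5, h6⟩
  third F w p q hw hpP hqP hps hqs hpF hqF hl := by
    rcases pst_cases hw.1 with ⟨v, hv, rfl⟩ | h
    · have hvP := nst_sub hg N (mem_kA.1 hv).1
      have hvF : v ∈ M.On F := (ph_on hp hvP F).1 hw.2
      rw [(pst_ph hv).2.2] at hl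
      exact third hp hP ⟨hvP, hvF⟩ hpP hqP hps hqs hpF hqF hl
    · rw [(pst_hp h).2.2] at hl
      exact ⟨w, ⟨h.1, hw.2⟩, hl⟩

/-- the number of double points drops if the push is chosen well at one point of `G` -/
theorem pst_card (hg : s.Good Act far)
    (N : Nms s G far inn nm) (hp : Push s up Ph b c) (hP : s.P ⊆ Ph) (h2 : Two s up)
    {z₀ : s.Dbl} {β₀ : Bool}
    (hanti : ¬ (M.Btw z₀.F (z₀.e false) (s.mu z₀.F (z₀.e false)) (pt (flip (dz z₀ true β₀))) ↔
      M.pos z₀.F (z₀.e false) < M.pos z₀.F (c (z₀.e false))))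
    {j : I} (hj : col j = false) (hnm : nm (dz z₀ true β₀) = some j) :
    Nat.card (pst hp hP (nst_sub hg N)).Dbl < Nat.card s.Dbl := by
  classical
  have hinj := odp_inj (hp := hp) (hP := hP) (ht := nst_sub hg N) h2 (nst_mu' hg N)
  have hmiss : ∀ z', odp (hp := hp) (hP := hP) (ht := nst_sub hg N) h2 (nst_mu' hg N) z' ≠ z₀ := by
    intro z' he
    obtain ⟨v, hv, β, hk, -, -, -, h5, h6⟩ := odp_spec (hp := hp) (hP := hP)
      (ht := nst_sub hg N) h2 (nst_mu' hg N) z'
    rw [he] at h5 h6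
    have hβ := anti_unique h6 hanti
    subst hβ
    have hk' := mem_kA.1 hk
    have h7 := joined_nm N ((mem_nmd (hg := hg) (N := N)).1 hk'.1).2 hv
    rw [← nmO_orb N, ← h5, nmO_orb N, hnm] at h7
    have h8 : j = (nst hg N).lab v := Option.some.inj h7
    have h9 := hk'.2
    rw [← h8, hj] at h9
    exact Bool.false_ne_true h9
  have h1 : Nat.card (pst hp hP (nst_sub hg N)).Dbl ≤ Nat.card {z : s.Dbl // z ≠ z₀} := by
    apply Nat.card_le_card_of_injective
      (fun z' => (⟨odp h2 (nst_mu' hg N) z', hmiss z'⟩ : {z : s.Dbl // z ≠ z₀}))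
    intro a b h
    exact hinj (by simpa using h)
  have h3 : Nat.card {z : s.Dbl // z ≠ z₀} < Nat.card s.Dbl := by
    have := Fintype.ofFinite s.Dbl
    rw [Nat.card_eq_fintype_card, Nat.card_eq_fintype_card]
    exact Fintype.card_subtype_lt (x := z₀) (by simp)
  omega

/-- **one step** -/
theorem step (hg : s.Good Act far) (h2 : Two s up) (hP : s.P ⊆ Ph)
    (hroom : ∀ b, ∃ c, Push s up Ph b c) (A : s.Arcs Act) {G : Set s.Dbl} (hG : A.Closed G)
    (hne : G.Nonempty) :
    ∃ s' : St M col, s'.Good Act far ∧ CLe Act far Ph s' s ∧ Nat.card s'.Dbl < Nat.card s.Dbl := by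
  classical
  have hR := refStmt A (fun i => B_422.sep_of_h1 s i (hg.h1 i))
  obtain ⟨D, hD⟩ := Sd1_161.exists_DD hg A _ hR
  have hmx := A.mx_closed
  have N := exists_nms hD hmx hR (fun _ _ h => (hg.far_mem h).2)
  obtain ⟨z₀, hz₀, hn⟩ := exists_root hD hmx (hne.mono (A.sub_mx hG))
  have hx : HP s (z₀.e false) := ⟨(z₀.at_ false).1, z₀.colr false⟩
  by_cases hQ : M.Btw z₀.F (z₀.e false) (s.mu z₀.F (z₀.e false))
      (pt (flip (dz z₀ true (!innD D z₀ true))))
  · obtain ⟨c, hp⟩ := hroom (!up z₀.F (z₀.e false))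
    refine ⟨pst hp hP (nst_sub hg N), pst_good hmx hg N hp hP h2, pst_cle hmx hg N hp hP h2,
      pst_card hg N hp hP h2 (z₀ := z₀) (β₀ := !innD D z₀ true) ?_ (z₀.colr false) hn⟩
    intro h
    have h3 := (hp.side hx (z₀.at_ false).2).1 (h.1 hQ)
    cases up z₀.F (z₀.e false) <;> simp at h3
  · obtain ⟨c, hp⟩ := hroom (up z₀.F (z₀.e false))
    refine ⟨pst hp hP (nst_sub hg N), pst_good hmx hg N hp hP h2, pst_cle hmx hg N hp hP h2,
      pst_card hg N hp hP h2 (z₀ := z₀) (β₀ := !innD D z₀ true) ?_ (z₀.colr false) hn⟩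
    intro h
    exact hQ (h.2 ((hp.side hx (z₀.at_ false).2).2 rfl))

/-- room: there are parallel copies of the barriers on both sides, near the barriers -/
def Room (s : St M col) (up : Φ → W → Bool) : Prop :=
  ∀ (Ph : Finset W) (b : Bool), ∃ c, Push s up Ph b c

theorem Push.congr {s' : St M col} (hp : Push s up Ph b c) (h : ∀ w, HP s' w ↔ HP s w) :
    Push s' up Ph b c where
  nin hw := hp.nin ((h _).1 hw)
  inj hw hw' := hp.inj ((h _).1 hw) ((h _).1 hw')
  on F hw := hp.on F ((h _).1 hw)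
  adj hw := hp.adj ((h _).1 hw)
  ord hw hw' := hp.ord ((h _).1 hw) ((h _).1 hw')
  side hw := hp.side ((h _).1 hw)

/-- **CUT**: one-sided removal of all closed double curves -/
theorem cut (up : Φ → W → Bool) (s : St M col) (hg : s.Good Act far) (h2 : Two s up)
    (hroom : Room s up) (Ph : Finset W) (hP : s.P ⊆ Ph) :
    ∃ s' : St M col, s'.Good Act far ∧ CLe Act far Ph s' s ∧
      ∀ (A : s'.Arcs Act) (G : Set s'.Dbl), A.Closed G → G = ∅ := by
  classical
  induction hn : Nat.card s.Dbl using Nat.strong_induction_on generalizing s Ph with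
  | _ n ih =>
    by_cases h : ∀ (A : s.Arcs Act) (G : Set s.Dbl), A.Closed G → G = ∅
    · exact ⟨s, hg, CLe.refl _ _ _ _, h⟩
    · push Not at h
      obtain ⟨A, G, hG, hne⟩ := h
      obtain ⟨s₁, hg₁, hl₁, hc₁⟩ := step hg h2 hP (fun b => hroom Ph b) A hG hne
      have h2' : Two s₁ up := by
        intro F w hw hF
        have hw' := (hl₁.hp w).1 hw
        rw [hl₁.hmu w F hw']
        exact h2 hw' hF
      have hroom' : Room s₁ up := by
        intro Ph' b
        obtain ⟨c, hp⟩ := hroom Ph' b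
        exact ⟨c, hp.congr hl₁.hp⟩
      obtain ⟨s₂, hg₂, hl₂, hc₂⟩ := ih _ (hn ▸ hc₁) s₁ hg₁ h2' hroom' (Ph ∪ s₁.P)
        Finset.subset_union_right rfl
      exact ⟨s₂, hg₂, CLe.trans Finset.subset_union_left hl₂ hl₁ hg₁, hc₂⟩

end step
end Crest.Agent.R096.Sec_892
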