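import Crest.Agent.R096.Sec3_892
import Crest.Agent.R096.Cp4_298

/-!
# R096 / DOORS-SEC, part 5 (helper892): SEC1, the part of a sheet inside a barrier is connected

`s` without closed double curves, exactly two frozen double points of the sheets `i` (colour `true`)
and `j` (barrier): all double points of `i, j` lie on one chain, so the points of `i` inside the
barrier are connected by chords on the faces of the region `Rg`.
-/

set_option autoImplicit false

namespace Crest.Agent.R096.Sec_892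

open Crest.Agent.R096.St_147 Crest.Agent.R096.Wk_689

variable {ι Φ W I : Type} {M : MeshC ι Φ W} {col : I → Bool} {s : St M col} {Act : Set ι}

/-- double points of the sheets `i` and `j` -/
def DD2 (s : St M col) (i j : I) : Set s.Dbl := {z | s.lab (z.e true) = i ∧ s.lab (z.e false) = j}

/-- a set of double points closed under the arcs in the active cells -/
def ArcClosed (A : s.Arcs Act) (X : Set s.Dbl) : Prop :=
  ∀ z ∈ X, ∀ q ∈ M.side z.F, q ∈ Act → A.arc q z ∈ X

theorem arc_DD2 (A : s.Arcs Act) {i j : I} : ArcClosed A (DD2 s i j) := by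
  intro z hz q hq hA
  have h1 := Cp_298.arc_lab A hA hq true
  have h2 := Cp_298.arc_lab A hA hq false
  exact ⟨h1.trans hz.1, h2.trans hz.2⟩

theorem ArcClosed.diff {A : s.Arcs Act} {X Y : Set s.Dbl} (hX : ArcClosed A X)
    (hY : ArcClosed A Y) : ArcClosed A (Y \ X) := by
  intro z hz q hq hA
  refine ⟨hY z hz.1 q hq hA, fun h => hz.2 ?_⟩
  have h1 := hX _ h q (A.mem hA hq) hA
  rwa [A.inv hA hq] at h1

/-- the number of frozen points of an arc closed set is even -/
theorem frozen_even (A : s.Arcs Act) {X : Set s.Dbl} (hX : ArcClosed A X)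
    (hone : ∀ z ∈ X, St.Frozen M Act z.F → ∃ q ∈ M.side z.F, q ∈ Act) {z₁ : s.Dbl} (h1 : z₁ ∈ X)
    (hf1 : St.Frozen M Act z₁.F) (huniq : ∀ z ∈ X, St.Frozen M Act z.F → z = z₁) : False := by
  classical
  have := Fintype.ofFinite s.Dbl
  -- the darts
  let S : Finset (s.Dbl × ι) := (Finset.univ.filter (fun z : s.Dbl => z ∈ X)).biUnion
    (fun z => ((M.side z.F).toFinset.filter (fun q => q ∈ Act)).image (fun q => (z, q)))
  have hS : ∀ p : s.Dbl × ι, p ∈ S ↔ p.1 ∈ X ∧ p.2 ∈ M.side p.1.F ∧ p.2 ∈ Act := by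
    rintro ⟨z, q⟩
    simp only [S, Finset.mem_biUnion, Finset.mem_filter, Finset.mem_univ, true_and,
      Finset.mem_image, Prod.mk.injEq, Sym2.mem_toFinset]
    constructor
    · rintro ⟨z', hz', q', hq', rfl, rfl⟩
      exact ⟨hz', hq'⟩
    · rintro ⟨h1, h2⟩
      exact ⟨z, h1, q, h2, rfl, rfl⟩
  have h0 : ∑ p ∈ S, (1 : ZMod 2) = 0 := by
    apply Finset.sum_involution (fun p _ => (A.arc p.2 p.1, p.2))
    · intro p _
      exact add_self2 1
    · intro p hp _ he
      have h := (hS p).1 hp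
      exact A.ne h.2.2 h.2.1 (congrArg Prod.fst he)
    · intro p hp
      have h := (hS p).1 hp
      exact (hS _).2 ⟨hX _ h.1 _ h.2.1 h.2.2, A.mem h.2.2 h.2.1, h.2.2⟩
    · intro p hp
      have h := (hS p).1 hp
      exact Prod.ext (A.inv h.2.2 h.2.1) rfl
  have h2 : ∑ p ∈ S, (1 : ZMod 2) = ∑ z ∈ Finset.univ.filter (fun z : s.Dbl => z ∈ X),
      ∑ q ∈ (M.side z.F).toFinset.filter (fun q => q ∈ Act), (1 : ZMod 2) := by
    simp only [S]
    rw [Finset.sum_biUnion]
    · apply Finset.sum_congr rfl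
      intro z _
      rw [Finset.sum_image]
      intro q _ q' _ h
      exact congrArg Prod.snd h
    · intro z _ z' _ hne
      rw [Function.onFun, Finset.disjoint_left]
      intro p hp hp'
      rw [Finset.mem_image] at hp hp'
      obtain ⟨q, -, rfl⟩ := hp
      obtain ⟨q', -, h⟩ := hp'
      exact hne (congrArg Prod.fst h).symm
  have h3 : ∀ z ∈ Finset.univ.filter (fun z : s.Dbl => z ∈ X),
      ∑ q ∈ (M.side z.F).toFinset.filter (fun q => q ∈ Act), (1 : ZMod 2) =
      if z = z₁ then 1 else 0 := by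
    intro z hz
    have hzX : z ∈ X := (Finset.mem_filter.1 hz).2
    obtain ⟨a, b, hab⟩ : ∃ a b, M.side z.F = s(a, b) := ⟨_, _, (Quot.out_eq _).symm⟩
    have hnd : a ≠ b := by
      intro h
      have := M.side_nd z.F
      rw [hab, h] at this
      simp at this
    have hT : (M.side z.F).toFinset = {a, b} := by
      ext q
      rw [Sym2.mem_toFinset, hab, Sym2.mem_iff]
      simp
    rw [hT]
    by_cases hf : St.Frozen M Act z.F
    · rw [if_pos (huniq z hzX hf)]
      obtain ⟨q, hq, hqA⟩ := hf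
      obtain ⟨q', hq', hqA'⟩ := hone z hzX ⟨q, hq, hqA⟩
      rw [hab, Sym2.mem_iff] at hq hq'
      have : ({a, b} : Finset ι).filter (fun q => q ∈ Act) = {q'} := by
        ext r
        simp only [Finset.mem_filter, Finset.mem_insert, Finset.mem_singleton]
        constructor
        · rintro ⟨hr, hrA⟩
          rcases hr with rfl | rfl <;> rcases hq with rfl | rfl <;> rcases hq' with rfl | rfl
          all_goals first | rfl | exact absurd hrA hqA | exact absurd hqA' hqA
        · rintro rfl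
          exact ⟨hq', hqA'⟩
      rw [this, Finset.sum_singleton]
    · have hz1 : z ≠ z₁ := by
        rintro rfl
        exact hf hf1
      rw [if_neg hz1]
      have hin : ∀ q ∈ M.side z.F, q ∈ Act := by
        intro q hq
        by_contra hcon
        exact hf ⟨q, hq, hcon⟩
      have ha := hin a (by rw [hab]; exact Sym2.mem_mk_left a b)
      have hb := hin b (by rw [hab]; exact Sym2.mem_mk_right a b)
      have : ({a, b} : Finset ι).filter (fun q => q ∈ Act) = {a, b} := by
        apply Finset.filter_true_of_mem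
        intro r hr
        rw [Finset.mem_insert, Finset.mem_singleton] at hr
        rcases hr with rfl | rfl
        exacts [ha, hb]
      rw [this, Finset.sum_pair hnd]
      exact add_self2 1
  rw [h2, Finset.sum_congr rfl h3, Finset.sum_ite_eq' _ z₁, if_pos] at h0
  · exact one_ne_zero h0
  · exact Finset.mem_filter.2 ⟨Finset.mem_univ _, h1⟩

/-- **one chain**: an arc closed set of double points of `i, j` is empty or everything -/
theorem one_chain (A : s.Arcs Act) (hno : ∀ G : Set s.Dbl, A.Closed G → G = ∅) {i j : I}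
    (hone : ∀ z ∈ DD2 s i j, St.Frozen M Act z.F → ∃ q ∈ M.side z.F, q ∈ Act) {z₁ z₂ : s.Dbl}
    (h12 : ∀ z ∈ DD2 s i j, St.Frozen M Act z.F → z = z₁ ∨ z = z₂)
    {X : Set s.Dbl} (hX : ArcClosed A X) (hXD : X ⊆ DD2 s i j) (hne : X.Nonempty) :
    X = DD2 s i j := by
  classical
  -- an arc closed nonempty set contains a frozen point
  have hfr : ∀ Y : Set s.Dbl, ArcClosed A Y → Y.Nonempty → ∃ z ∈ Y, St.Frozen M Act z.F := by
    intro Y hY hYne
    by_contra hcon
    push Not at hcon
    have hc : A.Closed Y := by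
      intro z hz q hq
      have hqA : q ∈ Act := by
        by_contra h
        exact hcon z hz ⟨q, hq, h⟩
      exact ⟨hqA, hY z hz q hq hqA⟩
    rw [hno Y hc] at hYne
    exact Set.not_nonempty_empty hYne
  by_contra hcon
  have hY : ArcClosed A (DD2 s i j \ X) := ArcClosed.diff hX (arc_DD2 A)
  have hYne : (DD2 s i j \ X).Nonempty := by
    by_contra h
    rw [Set.not_nonempty_iff_eq_empty, Set.sdiff_eq_empty] at h
    exact hcon (Set.Subset.antisymm hXD h)
  obtain ⟨a, ha, hfa⟩ := hfr X hX hne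
  obtain ⟨b, hb, hfb⟩ := hfr _ hY hYne
  have hab : a ≠ b := fun h => hb.2 (h ▸ ha)
  refine frozen_even A hX (fun z hz => hone z (hXD hz)) ha hfa ?_
  intro z hz hfz
  rcases h12 z (hXD hz) hfz with h | h <;> rcases h12 a (hXD ha) hfa with h' | h' <;>
    rcases h12 b hb.1 hfb with h'' | h''
  all_goals first
    | exact h.trans h'.symm
    | exact absurd (h'.trans h''.symm) hab
    | exact absurd (h.trans h''.symm) (fun e => hb.2 (e ▸ hz))

/-- **SEC1**: the points of the sheet `i` with `lam` (inside the barrier `j`) are connected by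
chords on the faces of `Rg` -/
theorem moat_conn (A : s.Arcs Act) (hno : ∀ G : Set s.Dbl, A.Closed G → G = ∅) {i j : I}
    (hi : col i = true) (hj : col j = false) (hconn : s.Conn i)
    (hone : ∀ z ∈ DD2 s i j, St.Frozen M Act z.F → ∃ q ∈ M.side z.F, q ∈ Act) {z₁ z₂ : s.Dbl}
    (h12 : ∀ z ∈ DD2 s i j, St.Frozen M Act z.F → z = z₁ ∨ z = z₂) (lam : W → Prop)
    (hlam : ∀ F w, s.At F w → s.lab w = i →
      (∀ x, s.At F x → s.lab x = j → ¬ M.Lace F w (s.mu F w) x (s.mu F x)) → lam w →
        lam (s.mu F w))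
    (hout : ∃ v ∈ s.P, s.lab v = i ∧ ¬ lam v) (Rg : Set Φ)
    (hR1 : ∀ z ∈ DD2 s i j, ∀ q F, q ∈ M.side z.F → q ∈ M.side F → F ∈ Rg)
    (hR2 : ∀ F w, s.At F w → s.lab w = i → lam w → F ∈ Rg) (X : Set W)
    (hX : ∀ F w, F ∈ Rg → w ∈ X → s.At F w → s.lab w = i → s.mu F w ∈ X)
    {w w' : W} (hw : w ∈ X) (hwP : w ∈ s.P) (hwi : s.lab w = i) (hwl : lam w)
    (hwP' : w' ∈ s.P) (hwi' : s.lab w' = i) (hwl' : lam w') : w' ∈ X := by
  classical
  -- a closed set with a point inside meets a double point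
  have hmeet : ∀ Y : Set W, (∀ F w, F ∈ Rg → w ∈ Y → s.At F w → s.lab w = i → s.mu F w ∈ Y) →
      ∀ v ∈ Y, v ∈ s.P → s.lab v = i → lam v → ∃ z ∈ DD2 s i j, z.e true ∈ Y := by
    intro Y hY v hv hvP hvi hvl
    by_contra hcon
    push Not at hcon
    obtain ⟨u, huP, hui, hul⟩ := hout
    have := hconn.2 {v | v ∈ Y ∧ lam v} ?_ v ⟨hv, hvl⟩ hvP hvi u huP hui
    · exact hul this.2
    · rintro F y ⟨hyY, hyl⟩ hyA hyi
      have hF := hR2 F y hyA hyi hyl
      refine ⟨hY F y hF hyY hyA hyi, hlam F y hyA hyi ?_ hyl⟩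
      intro x hxA hxj hl
      obtain ⟨z, hzF, hz1, hz2⟩ := Seq_213.exists_dbl s hyA hxA
        (by rw [hxj, hyi, hi, hj]; decide) hl
      rw [hyi, hi] at hz1
      rw [hxj, hj] at hz2
      have hzD : z ∈ DD2 s i j := by
        refine ⟨?_, ?_⟩
        · rw [hz1, Seq_213.lo_lab s hyA]; exact hyi
        · rw [hz2, Seq_213.lo_lab s hxA]; exact hxj
      refine hcon z hzD ?_
      rw [hz1]
      rcases Seq_213.lo_cases s F y with e | e
      · rw [e]; exact hyY
      · rw [e]; exact hY F y hF hyY hyA hyi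
  -- closed under chords and complement
  have hXc : ∀ F w, F ∈ Rg → w ∈ Xᶜ → s.At F w → s.lab w = i → s.mu F w ∈ Xᶜ := by
    intro F v hF hv hA hvi h
    have h1 := hX F _ hF h (s.mu_mem hA.1 hA.2) (by rw [s.mu_lab hA.1 hA.2]; exact hvi)
    rw [s.mu_mu hA.1 hA.2] at h1
    exact hv h1
  -- the double points whose chord is in `X`
  have hZ : ArcClosed A {z | z ∈ DD2 s i j ∧ z.e true ∈ X} := by
    rintro z ⟨hz, hzX⟩ q hq hqA
    have hz' := arc_DD2 A z hz q hq hqA
    refine ⟨hz', ?_⟩
    have h := A.same (z := z) true hqA hq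
      (fun p => if s.lab (chd p).2 = i ∧ (chd p).2 ∈ X then 1 else 0) ?_ ?_
    · have e1 : (s.lab (chd (Sum.inr z : s.Sub true)).2 = i ∧
          (chd (Sum.inr z : s.Sub true)).2 ∈ X) := ⟨hz.1, hzX⟩
      rw [if_pos e1] at h
      by_contra hne
      rw [if_neg (fun h' => hne h'.2)] at h
      exact one_ne_zero h
    · intro F F' v p p' hqF hqF' hp hp'
      have hFR := hR1 z hz q F hq hqF
      have hFR' := hR1 z hz q F' hq hqF'
      have key : ∀ F (p : s.Sub true), F ∈ Rg → p.End F v →
          ((s.lab (chd p).2 = i ∧ (chd p).2 ∈ X) ↔ (s.lab v = i ∧ v ∈ X)) := by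
        intro F p hF hp
        have hA := hp.1
        rw [Cp_298.end_chd hp]
        show (s.lab (s.lo F v) = i ∧ s.lo F v ∈ X) ↔ _
        rw [Seq_213.lo_lab s hA]
        constructor
        · rintro ⟨h1, h2⟩
          refine ⟨h1, ?_⟩
          rcases Seq_213.lo_cases s F v with e | e
          · rw [e] at h2; exact h2
          · rw [e] at h2
            have h3 := hX F _ hF h2 (s.mu_mem hA.1 hA.2) (by rw [s.mu_lab hA.1 hA.2]; exact h1)
            rw [s.mu_mu hA.1 hA.2] at h3
            exact h3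
        · rintro ⟨h1, h2⟩
          refine ⟨h1, ?_⟩
          rcases Seq_213.lo_cases s F v with e | e
          · rw [e]; exact h2
          · rw [e]; exact hX F v hF h2 hA h1
      exact if_congr ((key F p hFR hp).trans (key F' p' hFR' hp').symm) rfl rfl
    · intro u p p' _ hb ha
      have e1 := below_chd hb
      have e2 : p' = Sum.inr u := ha
      have e3 : chd p' = (u.F, u.e true) := by rw [e2]; rfl
      show (if s.lab (chd p).2 = i ∧ (chd p).2 ∈ X then (1 : ZMod 2) else 0) =
        (if s.lab (chd p').2 = i ∧ (chd p').2 ∈ X then (1 : ZMod 2) else 0)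
      rw [e1, e3]
  obtain ⟨z, hz, hzX⟩ := hmeet X hX w hw hwP hwi hwl
  have hall := one_chain A hno hone h12 hZ (fun z hz => hz.1) ⟨z, hz, hzX⟩
  by_contra hcon
  obtain ⟨y, hy, hyX⟩ := hmeet Xᶜ hXc w' hcon hwP' hwi' hwl'
  have : y ∈ {z | z ∈ DD2 s i j ∧ z.e true ∈ X} := by rw [hall]; exact hy
  exact hyX this.2

end Crest.Agent.R096.Sec_892
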