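import Crest.Agent.R096.St8_147
import Crest.Agent.R096.Sd2_161

/-!
# R096 / DOORS-SEC, part 7 (helper892): the exchange along a part of the closed double curves

Copies of helper147's St6, St7, St8 for `DDw` = `DD` without the clause `out` (which is used only
for the names at the double points outside `G`).
-/

set_option autoImplicit false

namespace Crest.Agent.R096.SecW_892

open Crest.Agent.R096.St_147 Crest.Agent.R096.Wk_689

variable {ι Φ W I : Type} {M : MeshC ι Φ W} {col : I → Bool} {s : St M col}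
variable {Act : Set ι} {A : s.Arcs Act} {τ : Bool → ι → s.Dbl → ZMod 2} {G : Set s.Dbl}
variable {far : I → Set W} {D : s.Dbl → Bool → Dart s → ZMod 2}

/-- inner discs of the closed double curves in `G`; other curves may be inside -/
structure DDw {Act : Set ι} (A : s.Arcs Act) (τ : Bool → ι → s.Dbl → ZMod 2) (G : Set s.Dbl)
    (far : I → Set W) (D : s.Dbl → Bool → Dart s → ZMod 2) : Prop where
  congr : ∀ z ∈ G, ∀ z' ∈ A.cv z, D z' = D z
  supp : ∀ z ∈ G, ∀ x d, D z x d ≠ 0 → d.x = x ∧ s.lab (pt d) = s.lab (z.e x)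
  fl : ∀ z ∈ G, ∀ x d, D z x (flip d) = D z x d
  cont : ∀ z ∈ G, ∀ x (F F' : Φ) (w : W) (h : s.At F w) (h' : s.At F' w),
    D z x (ed h) = D z x (ed h')
  jump_in : ∀ z ∈ G, ∀ u ∈ A.cv z, ∀ x, D z x (dz u x true) + D z x (dz u x false) = 1
  jump_out : ∀ z ∈ G, ∀ u ∉ A.cv z, ∀ x, D z x (dz u x true) = D z x (dz u x false)
  along : ∀ z ∈ G, ∀ u ∉ A.cv z, ∀ x q, q ∈ Act → q ∈ M.side u.F →
    D z x (dz u x false) = D z x (dz (A.arc q u) x false)
  tau : ∀ z ∈ G, ∀ u ∈ A.cv z, ∀ x q, q ∈ M.side u.F →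
    D z x (dz u x false) + D z x (dz (A.arc q u) x false) = τ x q u
  far0 : ∀ z ∈ G, ∀ x i (F : Φ) (w : W) (h : s.At F w), w ∈ far i → D z x (ed h) = 0
  lam : ∀ z ∈ G, ∀ z' ∈ G, ∀ x d, D z x d = 1 → D z' x d = 1 →
    (∀ d', D z x d' = 1 → D z' x d' = 1) ∨ (∀ d', D z' x d' = 1 → D z x d' = 1)

/-- restriction to a smaller closed set -/
theorem DDw.of {H : Set s.Dbl} (h : DD A τ H far D) (hG : G ⊆ H) : DDw A τ G far D where
  congr z hz := h.congr z (hG hz)
  supp z hz := h.supp z (hG hz)
  fl z hz := h.fl z (hG hz)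
  cont z hz := h.cont z (hG hz)
  jump_in z hz := h.jump_in z (hG hz)
  jump_out z hz := h.jump_out z (hG hz)
  along z hz := h.along z (hG hz)
  tau z hz := h.tau z (hG hz)
  far0 z hz := h.far0 z (hG hz)
  lam z hz z' hz' := h.lam z (hG hz) z' (hG hz')

variable {z₀ : s.Dbl} {x₀ : Bool} {k : Bool → s.Dbl → ZMod 2}

theorem D_in (hD : DDw A τ G far D) {z : s.Dbl} (hz : z ∈ G) (x : Bool) :
    D z x (inD (innD D) z x) = 1 := by
  unfold inD innD
  by_cases h : D z x (dz z x false) = 1
  · simp [h]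
  · have h1 := hD.jump_in z hz z (cv_refl A z) x
    rw [z2_ne h, add_zero] at h1
    simpa [h] using h1

theorem D_out (hD : DDw A τ G far D) {z : s.Dbl} (hz : z ∈ G) (x : Bool) :
    D z x (outD (innD D) z x) = 0 := by
  unfold outD innD
  by_cases h : D z x (dz z x false) = 1
  · have h1 := hD.jump_in z hz z (cv_refl A z) x
    rw [h] at h1
    have h2 : D z x (dz z x true) = 0 := by simpa using h1
    simpa [h] using h2
  · have h2 := z2_ne h
    simpa [h] using h2

theorem D_in' (hD : DDw A τ G far D) (hG : A.Closed G) {z u : s.Dbl} (hz : z ∈ G)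
    (hu : u ∈ A.cv z) (x : Bool) : D z x (inD (innD D) u x) = 1 := by
  rw [← hD.congr z hz u hu]
  exact D_in hD (cv_sub hG hz hu) x

theorem D_out' (hD : DDw A τ G far D) (hG : A.Closed G) {z u : s.Dbl} (hz : z ∈ G)
    (hu : u ∈ A.cv z) (x : Bool) : D z x (outD (innD D) u x) = 0 := by
  rw [← hD.congr z hz u hu]
  exact D_out hD (cv_sub hG hz hu) x

theorem D_any (hD : DDw A τ G far D) {z u : s.Dbl} (hz : z ∈ G) (hu : u ∉ A.cv z) (x b b' : Bool) :
    D z x (dz u x b) = D z x (dz u x b') := by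
  have h := hD.jump_out z hz u hu x
  cases b <;> cases b'
  · rfl
  · exact h.symm
  · exact h
  · rfl

theorem reg_flip (hD : DDw A τ G far D) (d : Dart s) : Reg G D d (flip d) where
  hx := rfl
  hl := by rw [lab_pt, lab_pt]; rfl
  hD := fun z hz => hD.fl z hz _ d

theorem reg_ed (hD : DDw A τ G far D) {F F' : Φ} {w : W} (h : s.At F w) (h' : s.At F' w) :
    Reg G D (ed h) (ed h') where
  hx := by rw [x_ed, x_ed]
  hl := by rw [pt_ed, pt_ed]
  hD := fun z hz => hD.cont z hz _ F' F w h' h

theorem reg_dz (hD : DDw A τ G far D) (hG : A.Closed G) {u : s.Dbl} (hu : u ∉ G) (x b b' : Bool) :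
    Reg G D (dz u x b) (dz u x b') where
  hx := by rw [dz_x, dz_x]
  hl := by rw [lab_dz, lab_dz]
  hD := fun z hz => by
    rw [dz_x]
    exact D_any hD hz (fun h => hu (cv_sub hG hz h)) _ _ _

theorem lab_cv (hD : DDw A τ G far D) (hG : A.Closed G) {z u : s.Dbl} (hz : z ∈ G)
    (hu : u ∈ A.cv z) (x : Bool) : s.lab (u.e x) = s.lab (z.e x) := by
  have h := hD.supp z hz x (inD (innD D) u x) (by rw [D_in' hD hG hz hu]; exact one_ne_zero)
  have h2 := h.2
  unfold inD at h2
  rwa [lab_dz] at h2

/-- the value along a curve `z → u` not on the curve of `z₁` -/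
theorem D_along (hD : DDw A τ G far D) (hG : A.Closed G) {z₁ z u : s.Dbl} (hz₁ : z₁ ∈ G)
    (hz : z ∈ G) (hn : z ∉ A.cv z₁) (hu : u ∈ A.cv z) (x : Bool) :
    D z₁ x (dz z x false) = D z₁ x (dz u x false) := by
  induction hu with
  | refl => rfl
  | @tail u v h1 h ih =>
    obtain ⟨q, hq, rfl⟩ := h
    have hu : u ∈ G := cv_sub hG hz h1
    have hn' : u ∉ A.cv z₁ := fun h => hn (cv_trans h (cv_symm hG hz h1))
    rw [ih]
    exact hD.along z₁ hz₁ u hn' x q (hG u hu q hq).1 hq

theorem reg_out (hD : DDw A τ G far D) (hG : A.Closed G) {z u : s.Dbl} (hz : z ∈ G)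
    (hu : u ∈ A.cv z) (x : Bool) : Reg G D (outD (innD D) z x) (outD (innD D) u x) where
  hx := by rw [outD_x, outD_x]
  hl := by unfold outD; rw [lab_dz, lab_dz, lab_cv hD hG hz hu]
  hD := fun z₁ hz₁ => by
    rw [outD_x]
    by_cases h : z ∈ A.cv z₁
    · rw [D_out' hD hG hz₁ h, D_out' hD hG hz₁ (cv_trans h hu)]
    · have h' : u ∉ A.cv z₁ := fun h1 => h (cv_trans h1 (cv_symm hG hz hu))
      unfold outD
      rw [D_any hD hz₁ h' x _ false, D_any hD hz₁ h x _ false, D_along hD hG hz₁ hz h hu]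

theorem reg_in (hD : DDw A τ G far D) (hG : A.Closed G) {z u : s.Dbl} (hz : z ∈ G)
    (hu : u ∈ A.cv z) (x : Bool) : Reg G D (inD (innD D) z x) (inD (innD D) u x) where
  hx := by rw [inD_x, inD_x]
  hl := by unfold inD; rw [lab_dz, lab_dz, lab_cv hD hG hz hu]
  hD := fun z₁ hz₁ => by
    rw [inD_x]
    by_cases h : z ∈ A.cv z₁
    · rw [D_in' hD hG hz₁ h, D_in' hD hG hz₁ (cv_trans h hu)]
    · have h' : u ∉ A.cv z₁ := fun h1 => h (cv_trans h1 (cv_symm hG hz hu))
      unfold inD
      rw [D_any hD hz₁ h' x _ false, D_any hD hz₁ h x _ false, D_along hD hG hz₁ hz h hu]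

theorem inm_cv (hD : DDw A τ G far D) {z z' : s.Dbl} {d : Dart s} (h : Inm G D z d)
    (h' : Inm G D z' d) : z' ∈ A.cv z := by
  have heq : ∀ d', D z d.x d' = D z' d.x d' := by
    intro d'
    by_cases h1 : D z d.x d' = 1
    · rw [h1, h.le z' h'.mem h'.val d' h1]
    · by_cases h2 : D z' d.x d' = 1
      · exact absurd (h'.le z h.mem h.val d' h2) h1
      · rw [z2_ne h1, z2_ne h2]
  by_contra hn
  have h1 := hD.jump_in z' h'.mem z' (cv_refl A z') d.x
  have h2 := hD.jump_out z h.mem z' hn d.x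
  rw [← heq, ← heq, h2, add_self2] at h1
  exact zero_ne_one h1

theorem exists_inm (hD : DDw A τ G far D) {d : Dart s} (h : ∃ z ∈ G, D z d.x d = 1) :
    ∃ z, Inm G D z d := by
  classical
  obtain ⟨z, hz, hmin⟩ := Set.exists_min_image {z : s.Dbl | z ∈ G ∧ D z d.x d = 1}
    (fun z => {d' : Dart s | D z d.x d' = 1}.ncard) (Set.toFinite _) h
  refine ⟨z, hz.1, hz.2, ?_⟩
  intro z' hz' h' d' hd'
  rcases hD.lam z hz.1 z' hz' d.x d hz.2 h' with h1 | h1
  · exact h1 d' hd'
  · have h2 : {d' : Dart s | D z' d.x d' = 1} = {d' : Dart s | D z d.x d' = 1} :=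
      Set.eq_of_subset_of_ncard_le (fun a ha => h1 a ha) (hmin z' ⟨hz', h'⟩) (Set.toFinite _)
    have h3 : d' ∈ {d' : Dart s | D z d.x d' = 1} := hd'
    rw [← h2] at h3
    exact h3

theorem inm_in (hD : DDw A τ G far D) {z : s.Dbl} (hz : z ∈ G) (x : Bool) :
    Inm G D z (inD (innD D) z x) where
  mem := hz
  val := by rw [inD_x]; exact D_in hD hz x
  le := fun z' hz' h1 d' h2 => by
    rw [inD_x] at h1 h2 ⊢
    rcases hD.lam z hz z' hz' x _ (D_in hD hz x) h1 with h3 | h3
    · exact h3 d' h2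
    · by_cases h4 : z ∈ A.cv z'
      · rw [← hD.congr z' hz' z h4]
        exact h2
      · exfalso
        have h5 : D z' x (outD (innD D) z x) = 1 := by
          unfold outD
          unfold inD at h1
          rw [D_any hD hz' h4 x _ (!innD D z x)]
          exact h1
        have h6 := h3 _ h5
        rw [D_out hD hz] at h6
        exact zero_ne_one h6

theorem nm_unique (hD : DDw A τ G far D) (hG : A.Closed G) {d : Dart s} {i j : I} {n m : ℕ}
    (h : Nm G D d i n) (h' : Nm G D d j m) : i = j ∧ n = m := by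
  induction h generalizing j m with
  | root d h =>
    cases h' with
    | root _ _ => exact ⟨rfl, rfl⟩
    | step _ z _ m h1 h2 =>
      exfalso
      have := h z h1.mem
      rw [h1.val] at this
      exact one_ne_zero this
  | step d z i n h h1 ih =>
    cases h' with
    | root _ h2 =>
      exfalso
      have := h2 z h.mem
      rw [h.val] at this
      exact one_ne_zero this
    | step _ z' _ m h2 h3 =>
      have h4 := inm_cv hD h2 h
      have h5 := ih (h3.congr (reg_out hD hG h2.mem h4 _))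
      exact ⟨h5.1, by rw [h5.2]⟩

/-- one step of the chain at an inner dart -/
theorem nm_in_iff (hD : DDw A τ G far D) (hG : A.Closed G) {z : s.Dbl} (hz : z ∈ G) (x : Bool)
    {i : I} {n : ℕ} :
    Nm G D (inD (innD D) z x) i (n + 1) ↔ Nm G D (outD (innD D) z (!x)) i n := by
  constructor
  · intro h
    cases h with
    | step _ z' _ n h1 h2 =>
      rw [inD_x] at h2
      have h3 := inm_cv hD h1 (inm_in hD hz x)
      exact h2.congr (reg_out hD hG h1.mem h3 _)
  · intro h
    refine Nm.step _ z i n (inm_in hD hz x) ?_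
    rw [inD_x]
    exact h

theorem nm_in_pos (hD : DDw A τ G far D) {z : s.Dbl} (hz : z ∈ G) (x : Bool)
    {i : I} {n : ℕ} (h : Nm G D (inD (innD D) z x) i n) : ∃ m, n = m + 1 := by
  generalize hd : inD (innD D) z x = d at h
  cases h with
  | root d h =>
    exfalso
    subst hd
    have := h z hz
    rw [inD_x, D_in hD hz] at this
    exact one_ne_zero this
  | step _ z' _ n h1 h2 => exact ⟨n, rfl⟩

theorem nmf_some (hD : DDw A τ G far D) (hG : A.Closed G) {d : Dart s} {i : I} :
    nmf G D d = some i ↔ ∃ n, Nm G D d i n := by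
  unfold nmf
  constructor
  · intro h
    split_ifs at h with h1
    have h2 : h1.choose = i := Option.some.inj h
    rw [← h2]
    exact h1.choose_spec
  · rintro ⟨n, hn⟩
    have h1 : ∃ i n, Nm G D d i n := ⟨i, n, hn⟩
    rw [dif_pos h1]
    obtain ⟨m, hm⟩ := h1.choose_spec
    rw [(nm_unique hD hG hm hn).1]

theorem nmf_congr (hD : DDw A τ G far D) (hG : A.Closed G) {d d' : Dart s}
    (h : ∀ i, (∃ n, Nm G D d i n) ↔ ∃ n, Nm G D d' i n) : nmf G D d = nmf G D d' := by
  have : ∀ i, nmf G D d = some i ↔ nmf G D d' = some i := by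
    intro i
    rw [nmf_some hD hG, nmf_some hD hG, h]
  rcases h1 : nmf G D d with _ | i
  · rcases h2 : nmf G D d' with _ | j
    · rfl
    · have := (this j).2 h2
      rw [h1] at this
      exact this
  · exact ((this i).1 h1).symm

theorem nmf_reg (hD : DDw A τ G far D) (hG : A.Closed G) {d d' : Dart s} (h : Reg G D d d') :
    nmf G D d = nmf G D d' :=
  nmf_congr hD hG fun _ => ⟨fun ⟨n, hn⟩ => ⟨n, hn.congr h⟩, fun ⟨n, hn⟩ => ⟨n, hn.congr h.symm⟩⟩

theorem nmf_in (hD : DDw A τ G far D) (hG : A.Closed G) {z : s.Dbl} (hz : z ∈ G) (x : Bool) :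
    nmf G D (inD (innD D) z x) = nmf G D (outD (innD D) z (!x)) := by
  apply nmf_congr hD hG
  intro i
  constructor
  · rintro ⟨n, hn⟩
    obtain ⟨m, rfl⟩ := nm_in_pos hD hz x hn
    exact ⟨m, (nm_in_iff hD hG hz x).1 hn⟩
  · rintro ⟨n, hn⟩
    exact ⟨n + 1, (nm_in_iff hD hG hz x).2 hn⟩

theorem nmf_tt (hD : DDw A τ G far D) (hG : A.Closed G) (d : Dart s) :
    nmf G D (tt G (innD D) d) = nmf G D d := by
  rcases hn : node d with _ | z
  · rw [tt_none hn]
  · have hd := eq_dz hn
    rw [hd]
    by_cases hz : z ∈ G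
    · rcases dz_cases (innD D) z d.x d.b with h | h
      · rw [h, tt_inD hz, nmf_in hD hG hz]
      · rw [h, tt_outD hz, nmf_in hD hG hz, Bool.not_not]
    · rw [tt_dz_out hz]
      exact nmf_reg hD hG (reg_dz hD hG hz _ _ _)

theorem anc_depth (hD : DDw A τ G far D) (hG : A.Closed G) {i₀ : I} {n₀ : ℕ}
    (h₀ : Nm G D (inD (innD D) z₀ x₀) i₀ n₀) {d : Dart s} (h : Anc G D z₀ x₀ d) :
    ∀ {j : I} {n : ℕ}, Nm G D d j n → n₀ ≤ n := by
  induction h with
  | here d hx h =>
    intro j n hn
    cases hn with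
    | root _ h1 =>
      exfalso
      have := h1 z₀ h.mem
      rw [h.val] at this
      exact one_ne_zero this
    | step _ z _ n h1 h2 =>
      obtain ⟨m, rfl⟩ := nm_in_pos hD h.mem x₀ h₀
      rw [nm_in_iff hD hG h.mem] at h₀
      have h3 := inm_cv hD h1 h
      rw [hx] at h2
      have h4 := nm_unique hD hG (h2.congr (reg_out hD hG h1.mem h3 _)) h₀
      omega
  | step d z h h' ih =>
    intro j n hn
    cases hn with
    | root _ h1 =>
      exfalso
      have := h1 z h.mem
      rw [h.val] at this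
      exact one_ne_zero this
    | step _ z' _ n h1 h2 =>
      have h3 := inm_cv hD h1 h
      have := ih (h2.congr (reg_out hD hG h1.mem h3 _))
      omega

theorem anc_in (hD : DDw A τ G far D) (hG : A.Closed G) (hz₀ : z₀ ∈ G) {z : s.Dbl}
    (hz : z ∈ A.cv z₀) : Anc G D z₀ x₀ (inD (innD D) z x₀) :=
  Anc.here _ (inD_x _ _ _) ((inm_in hD hz₀ x₀).congr (reg_in hD hG hz₀ hz x₀))

theorem not_anc_out (hD : DDw A τ G far D) (hG : A.Closed G) (hz₀ : z₀ ∈ G) {i₀ : I} {n₀ : ℕ}
    (h₀ : Nm G D (inD (innD D) z₀ x₀) i₀ n₀) {z : s.Dbl} (hz : z ∈ A.cv z₀) :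
    ¬ Anc G D z₀ x₀ (outD (innD D) z (!x₀)) := by
  intro h
  obtain ⟨m, rfl⟩ := nm_in_pos hD hz₀ x₀ h₀
  have h1 := (nm_in_iff hD hG hz₀ x₀).1 h₀
  have h2 := anc_depth hD hG h₀ h (h1.congr (reg_out hD hG hz₀ hz _))
  omega

theorem anc_iff (hD : DDw A τ G far D) (hG : A.Closed G) {z : s.Dbl}
    (hz : z ∈ G) (x : Bool) (hne : ¬ (x = x₀ ∧ z ∈ A.cv z₀)) :
    Anc G D z₀ x₀ (inD (innD D) z x) ↔ Anc G D z₀ x₀ (outD (innD D) z (!x)) := by
  constructor
  · intro h
    generalize hd : inD (innD D) z x = d at h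
    cases h with
    | here d hx h =>
      exfalso
      subst hd
      rw [inD_x] at hx
      exact hne ⟨hx, inm_cv hD h (inm_in hD hz x)⟩
    | step d z' h h' =>
      subst hd
      rw [inD_x] at h'
      exact h'.congr (reg_out hD hG h.mem (inm_cv hD h (inm_in hD hz x)) _)
  · intro h
    refine Anc.step _ z (inm_in hD hz x) ?_
    rw [inD_x]
    exact h

open Classical in
theorem parity (hD : DDw A τ G far D) (hG : A.Closed G) {t : Dart s → ZMod 2} (ht : St_147.Even t)
    (htt : ∀ d, t (Wk_689.tt G (innD D) d) = t d)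
    (hsup : ∀ d, nmf G D d = none → t d = 0) (hz₀ : z₀ ∈ G) (x₀ : Bool) :
    ∑ z : s.Dbl, (if z ∈ A.cv z₀ then t (inD (innD D) z x₀) else 0) = 0 := by
  by_cases halive : ∃ i n, Nm G D (inD (innD D) z₀ x₀) i n
  swap
  · apply Finset.sum_eq_zero
    intro z _
    split_ifs with hz
    · apply hsup
      rw [← nmf_reg hD hG (reg_in hD hG hz₀ hz x₀)]
      rcases h : nmf G D (inD (innD D) z₀ x₀) with _ | i
      · rfl
      · exact absurd ⟨i, (nmf_some hD hG).1 h⟩ halive
    · rfl
  obtain ⟨i₀, n₀, h₀⟩ := halive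
  set f : Dart s → ZMod 2 := fun d => if Anc G D z₀ x₀ d then t d else 0 with hf
  have hff : ∀ d, f (flip d) = f d := by
    intro d
    simp only [hf]
    have : Anc G D z₀ x₀ (flip d) ↔ Anc G D z₀ x₀ d :=
      ⟨fun h => h.congr (reg_flip hD d).symm, fun h => h.congr (reg_flip hD d)⟩
    rw [if_congr this (ht.fl d) rfl]
  have hc := count f hff
  have h1 : ∑ w ∈ s.P, ∑ F ∈ M.fs w, edv f F w = 0 := by
    apply Finset.sum_eq_zero
    intro w hw
    by_cases hA : ∃ F, ∃ h : s.At F w, Anc G D z₀ x₀ (ed h)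
    · obtain ⟨F₀, h₁, h₂⟩ := hA
      have : ∀ F ∈ M.fs w, edv f F w = edv t F w := by
        intro F hF
        have hat : s.At F w := ⟨hw, MeshC.mem_fs.1 hF⟩
        rw [edv_eq hat, edv_eq hat]
        simp only [hf]
        rw [if_pos (h₂.congr (reg_ed hD h₁ hat))]
      rw [Finset.sum_congr rfl this, ht.ev w hw]
    · apply Finset.sum_eq_zero
      intro F hF
      have hat : s.At F w := ⟨hw, MeshC.mem_fs.1 hF⟩
      rw [edv_eq hat]
      simp only [hf]
      rw [if_neg (fun h => hA ⟨F, hat, h⟩)]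
  rw [h1, zero_add] at hc
  refine Eq.trans (Finset.sum_congr rfl ?_) hc
  intro z _
  rw [Fintype.sum_bool]
  by_cases hz : z ∈ G
  · -- the two interfaces at `z`
    have e : ∀ x, f (inD (innD D) z x) + f (outD (innD D) z (!x)) =
        if x = x₀ ∧ z ∈ A.cv z₀ then t (inD (innD D) z x) else 0 := by
      intro x
      have htx : t (outD (innD D) z (!x)) = t (inD (innD D) z x) := by
        have := htt (outD (innD D) z (!x))
        rw [tt_outD hz, Bool.not_not] at this
        exact this.symm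
      simp only [hf]
      by_cases h4 : x = x₀ ∧ z ∈ A.cv z₀
      · obtain ⟨rfl, h5⟩ := h4
        rw [if_pos (anc_in hD hG hz₀ h5), if_neg (not_anc_out hD hG hz₀ h₀ h5), if_pos ⟨rfl, h5⟩,
          add_zero]
      · rw [if_neg h4, if_congr (anc_iff hD hG hz x h4) rfl rfl, htx]
        split_ifs
        · exact add_self2 _
        · exact add_zero _
    have e1 := e true
    have e2 := e false
    rw [sum_dz (innD D), sum_dz (innD D)]
    have e3 : f (inD (innD D) z true) + f (outD (innD D) z true) +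
        (f (inD (innD D) z false) + f (outD (innD D) z false)) =
        (f (inD (innD D) z true) + f (outD (innD D) z (!true))) +
        (f (inD (innD D) z false) + f (outD (innD D) z (!false))) := by
      simp only [Bool.not_true, Bool.not_false]; ring
    rw [e3, e1, e2]
    cases x₀ <;> by_cases h : z ∈ A.cv z₀ <;> simp [h]
  · have hz' : z ∉ A.cv z₀ := fun h => hz (cv_sub hG hz₀ h)
    rw [if_neg hz']
    have e : ∀ x, f (dz z x true) + f (dz z x false) = 0 := by
      intro x
      apply add_of_eq2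
      simp only [hf]
      have h2 : t (dz z x true) = t (dz z x false) := by
        have := htt (dz z x true)
        rw [tt_dz_out hz] at this
        exact this.symm
      have h3 : Anc G D z₀ x₀ (dz z x true) ↔ Anc G D z₀ x₀ (dz z x false) :=
        ⟨fun h => h.congr (reg_dz hD hG hz _ _ _), fun h => h.congr (reg_dz hD hG hz _ _ _)⟩
      rw [if_congr h3 h2 rfl]
    rw [e, e, add_zero]

theorem ev_unique (hD : DDw A τ G far D) (hG : A.Closed G)
    (hk : ∀ z ∈ G, ∀ u ∈ A.cv z, ∀ x, k x u = k x z) {d : Dart s} {v v' : ZMod 2}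
    (h : Ev G D k d v) (h' : Ev G D k d v') : v = v' := by
  induction h generalizing v' with
  | root d h =>
    cases h' with
    | root _ _ => rfl
    | step _ z _ h1 h2 =>
      exfalso
      have := h z h1.mem
      rw [h1.val] at this
      exact one_ne_zero this
  | step d z v h h1 ih =>
    cases h' with
    | root _ h2 =>
      exfalso
      have := h2 z h.mem
      rw [h.val] at this
      exact one_ne_zero this
    | step _ z' v' h2 h3 =>
      have h4 := inm_cv hD h2 h
      rw [ih (h3.congr (reg_out hD hG h2.mem h4 _)), hk z' h2.mem z h4]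

theorem evf_eq (hD : DDw A τ G far D) (hG : A.Closed G)
    (hk : ∀ z ∈ G, ∀ u ∈ A.cv z, ∀ x, k x u = k x z) {d : Dart s} {v : ZMod 2}
    (h : Ev G D k d v) : evf G D k d = v := by
  unfold evf chO
  have h1 : ∃ v, Ev G D k d v := ⟨v, h⟩
  rw [dif_pos h1]
  exact ev_unique hD hG hk h1.choose_spec h

theorem evf_in (hD : DDw A τ G far D) (hG : A.Closed G)
    (hk : ∀ z ∈ G, ∀ u ∈ A.cv z, ∀ x, k x u = k x z) {z : s.Dbl} (hz : z ∈ G) (x : Bool)
    (halive : nmf G D (outD (innD D) z (!x)) ≠ none) :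
    evf G D k (inD (innD D) z x) = evf G D k (outD (innD D) z (!x)) + k x z := by
  rcases h : nmf G D (outD (innD D) z (!x)) with _ | i
  · exact absurd h halive
  · obtain ⟨n, hn⟩ := (nmf_some hD hG).1 h
    obtain ⟨v, hv⟩ := Ev.exists (k := k) hn
    rw [evf_eq hD hG hk hv]
    apply evf_eq hD hG hk
    have h2 := Ev.step (k := k) (inD (innD D) z x) z v (inm_in hD hz x) (by rw [inD_x]; exact hv)
    rwa [inD_x] at h2

/-- **Sep of the new sheets** -/
theorem sepw (hD : DDw A τ G far D) (hG : A.Closed G) (hR : RefStmt A τ) :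
    ∀ t : Dart s → ZMod 2, St_147.Even t → (∀ d, t (Wk_689.tt G (innD D) d) = t d) →
    (∀ d, nmf G D d = none → t d = 0) →
    ∃ c : ι → Dart s → ZMod 2, (∀ q d, c q (flip d) = c q d) ∧
      (∀ q d, nmf G D d ≠ none → q ∈ M.side (fc d) → c q (Wk_689.tt G (innD D) d) = c q d) ∧
      (∀ (q : ι) (F F' : Φ) (w : W) (h : s.At F w) (h' : s.At F' w), q ∈ M.side F →
        q ∈ M.side F' → c q (ed h) = c q (ed h')) ∧
      ∀ d q q', M.side (fc d) = s(q, q') → t d = c q d + c q' d := by
  classical
  intro t ht htt hsup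
  -- the solutions on the curves
  have hsol : ∀ (x : Bool) (z₀ : s.Dbl), ∃ a, z₀ ∈ G →
      ArcSol A z₀ (fun z => if z ∈ A.cv z₀ then t (inD (innD D) z x) else 0) a := by
    intro x z₀
    by_cases hz₀ : z₀ ∈ G
    · obtain ⟨a, ha⟩ := arcSol hG hz₀ (fun z => t (inD (innD D) z x))
        (parity hD hG ht htt hsup hz₀ x)
      exact ⟨a, fun _ => ha⟩
    · exact ⟨fun _ _ => 0, fun h => absurd h hz₀⟩
  choose sol hsol using hsol
  set α : Bool → ι → s.Dbl → ZMod 2 := fun x q z => sol x (rpt A z) q z with hα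
  have hrG : ∀ z ∈ G, rpt A z ∈ G := fun z hz => cv_sub hG hz (rpt_mem A z)
  have hα_off : ∀ x q z, z ∈ G → q ∉ Act → α x q z = 0 := fun x q z hz hq =>
    (hsol x _ (hrG z hz)).off q z hq
  have hα_inv : ∀ x q z, z ∈ G → q ∈ Act → q ∈ M.side z.F →
      α x q (A.arc q z) = α x q z := by
    intro x q z hz hq hqz
    simp only [hα]
    rw [rpt_eq hG hz (cv_arc hqz)]
    exact (hsol x _ (hrG z hz)).inv q z hq hqz
  have hα_bd : ∀ x z q q', z ∈ G → M.side z.F = s(q, q') →
      α x q z + α x q' z = t (inD (innD D) z x) := by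
    intro x z q q' hz hqq
    have := (hsol x _ (hrG z hz)).bd z q q' hqq
    rw [if_pos (cv_symm hG hz (rpt_mem A z))] at this
    exact this
  have htin : ∀ z ∈ G, ∀ x, t (outD (innD D) z x) = t (inD (innD D) z (!x)) := by
    intro z hz x
    have := htt (outD (innD D) z x)
    rw [tt_outD hz] at this
    exact this.symm
  set a : Bool → ι → s.Dbl → ZMod 2 := fun x q z =>
    if z ∈ G then α x q z + α (!x) q z else 0 with ha
  obtain ⟨c, hc⟩ := hR t a ht
    { off := fun x q z hq => by
        simp only [ha]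
        split_ifs with hz
        · rw [hα_off _ _ _ hz hq, hα_off _ _ _ hz hq, add_zero]
        · rfl
      inv := fun x q z hq hqz => by
        simp only [ha]
        by_cases hz : z ∈ G
        · rw [if_pos hz, if_pos (hG z hz q hqz).2, hα_inv _ _ _ hz hq hqz,
            hα_inv _ _ _ hz hq hqz]
        · rw [if_neg hz, if_neg (arc_notin hG hz hq hqz)] }
    (by
      intro x z q q' hqq
      simp only [ha]
      by_cases hz : z ∈ G
      · rw [if_pos hz, if_pos hz, sum_dz (innD D), htin z hz, ← hα_bd x z q q' hz hqq,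
          ← hα_bd (!x) z q q' hz hqq]
        ring
      · rw [if_neg hz, if_neg hz, add_zero]
        apply add_of_eq2
        have := htt (dz z x true)
        rw [tt_dz_out hz] at this
        exact this.symm)
  -- values of `c` at inner and outer darts along the arcs
  have hin_val : ∀ q x z, z ∈ G → q ∈ M.side z.F →
      c q (inD (innD D) z x) = c q (dz z x false) + (1 + D z x (dz z x false)) * a x q z := by
    intro q x z hz hqz
    have hj := hc.jump q x z hqz
    unfold inD innD
    by_cases h : D z x (dz z x false) = 1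
    · simp only [h, decide_true, Bool.not_true]
      have : (1 : ZMod 2) + 1 = 0 := by decide
      rw [this, zero_mul, add_zero]
    · rw [z2_ne h, add_zero, one_mul]
      simp only [zero_ne_one, decide_false, Bool.not_false]
      rw [← hj]
      have := add_self2 (c q (dz z x false))
      linear_combination -this
  have hout_val : ∀ q x z, z ∈ G → q ∈ M.side z.F →
      c q (outD (innD D) z x) = c q (inD (innD D) z x) + a x q z := by
    intro q x z hz hqz
    have hj := hc.jump q x z hqz
    rw [sum_dz (innD D)] at hj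
    rw [← hj]
    have := add_self2 (c q (inD (innD D) z x))
    linear_combination -this
  have hin_arc : ∀ q x z, z ∈ G → q ∈ M.side z.F →
      c q (inD (innD D) (A.arc q z) x) = c q (inD (innD D) z x) := by
    intro q x z hz hqz
    obtain ⟨hA, hz'⟩ := hG z hz q hqz
    have hqz' := A.mem hA hqz
    rw [hin_val q x z hz hqz, hin_val q x _ hz' hqz']
    have h1 := hc.arc q x z hA hqz
    have h2 := hD.tau z hz z (cv_refl A z) x q hqz
    have h3 : a x q (A.arc q z) = a x q z := by
      simp only [ha]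
      rw [if_pos hz, if_pos hz', hα_inv _ _ _ hz hA hqz, hα_inv _ _ _ hz hA hqz]
    have h4 : D (A.arc q z) = D z := hD.congr z hz _ (cv_arc hqz)
    rw [h3, h4]
    have e1 := add_self2 (a x q z * τ x q z)
    have e2 := add_self2 (c q (dz z x false))
    have e3 := add_self2 (a x q z * D z x (dz z x false))
    linear_combination h1 + a x q z * h2 + e1 - e2 - e3
  have hout_arc : ∀ q x z, z ∈ G → q ∈ M.side z.F →
      c q (outD (innD D) (A.arc q z) x) = c q (outD (innD D) z x) := by
    intro q x z hz hqz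
    obtain ⟨hA, hz'⟩ := hG z hz q hqz
    have hqz' := A.mem hA hqz
    have h3 : a x q (A.arc q z) = a x q z := by
      simp only [ha]
      rw [if_pos hz, if_pos hz', hα_inv _ _ _ hz hA hqz, hα_inv _ _ _ hz hA hqz]
    rw [hout_val q x z hz hqz, hout_val q x _ hz' hqz', hin_arc q x z hz hqz, h3]
  -- the constants
  have hfc : ∀ z x b, fc (dz (s := s) z x b) = z.F := fc_dz
  have hK1 : ∀ x z q q', z ∈ G → q ∈ M.side z.F → q' ∈ M.side z.F →
      c q (inD (innD D) z x) + c q (outD (innD D) z (!x)) =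
      c q' (inD (innD D) z x) + c q' (outD (innD D) z (!x)) := by
    intro x z q q' hz hq hq'
    by_cases hqq : q = q'
    · rw [hqq]
    · have hs : M.side z.F = s(q, q') := (Sym2.mem_and_mem_iff hqq).1 ⟨hq, hq'⟩
      have e1 := hc.bd (inD (innD D) z x) q q' (by unfold inD; rw [hfc]; exact hs)
      have e2 := hc.bd (outD (innD D) z (!x)) q q' (by unfold outD; rw [hfc]; exact hs)
      have e3 := htin z hz (!x)
      rw [Bool.not_not] at e3
      rw [e3] at e2
      have e4 := add_self2 (c q (outD (innD D) z (!x)))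
      have e5 := add_self2 (c q' (inD (innD D) z x))
      linear_combination e2 - e1 + e4 - e5
  have hside : ∀ z : s.Dbl, ∃ q, q ∈ M.side z.F := by
    intro z
    rcases h : M.side z.F with ⟨q, q'⟩
    exact ⟨q, Sym2.mem_mk_left q q'⟩
  choose sd hsd using hside
  set k : Bool → s.Dbl → ZMod 2 := fun x z =>
    c (sd z) (inD (innD D) z x) + c (sd z) (outD (innD D) z (!x)) with hk
  have hkq : ∀ x z q, z ∈ G → q ∈ M.side z.F →
      k x z = c q (inD (innD D) z x) + c q (outD (innD D) z (!x)) :=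
    fun x z q hz hq => hK1 x z _ _ hz (hsd z) hq
  have hkc : ∀ z ∈ G, ∀ u ∈ A.cv z, ∀ x, k x u = k x z := by
    intro z hz u hu x
    induction hu with
    | refl => rfl
    | @tail u v h1 h ih =>
      obtain ⟨q, hq, rfl⟩ := h
      have hu : u ∈ G := cv_sub hG hz h1
      obtain ⟨hA, hu'⟩ := hG u hu q hq
      rw [← ih, hkq x u q hu hq, hkq x _ q hu' (A.mem hA hq), hin_arc q x u hu hq,
        hout_arc q _ u hu hq]
  refine ⟨fun q d => c q d + evf G D k d, ?_, ?_, ?_, ?_⟩
  · intro q d
    simp only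
    rw [hc.fl, evf_reg (reg_flip hD d)]
  · intro q d hal hq
    simp only
    rcases hn : node d with _ | z
    · rw [tt_none hn]
    · have hd := eq_dz hn
      have hqz : q ∈ M.side z.F := by rw [hd, hfc] at hq; exact hq
      rw [hd] at hal ⊢
      by_cases hz : z ∈ G
      · rcases dz_cases (innD D) z d.x d.b with h | h
        · rw [h] at hal ⊢
          rw [tt_inD hz]
          have hal' : nmf G D (outD (innD D) z (!d.x)) ≠ none := by
            rw [← nmf_in hD hG hz]; exact hal
          rw [evf_in hD hG hkc hz d.x hal', hkq d.x z q hz hqz]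
          have e1 := add_self2 (c q (inD (innD D) z d.x))
          linear_combination -e1
        · rw [h] at hal ⊢
          rw [tt_outD hz]
          have hal' : nmf G D (outD (innD D) z (!!d.x)) ≠ none := by
            rw [Bool.not_not]; exact hal
          rw [evf_in hD hG hkc hz (!d.x) hal', hkq (!d.x) z q hz hqz, Bool.not_not]
          have e1 := add_self2 (c q (inD (innD D) z (!d.x)))
          linear_combination e1
      · rw [tt_dz_out hz, evf_reg (reg_dz hD hG hz d.x d.b (!d.b))]
        congr 1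
        have hj := hc.jump q d.x z hqz
        simp only [ha] at hj
        rw [if_neg hz] at hj
        have hj' := eq_of_add2 hj
        cases d.b
        · exact hj'
        · exact hj'.symm
  · intro q F F' w h h' hF hF'
    simp only
    rw [hc.cont q F F' w h h' hF hF', evf_reg (reg_ed hD h h')]
  · intro d q q' hd
    simp only
    rw [hc.bd d q q' hd]
    have := add_self2 (evf G D k d)
    linear_combination -this

end Crest.Agent.R096.SecW_892
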