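import Crest.Agent.R096.Sec7_892
import Crest.Agent.R096.Sec3_892

/-!
# R096 / DOORS-SEC, part 8 (helper892): exchange along ONE closed double curve, the sheets of
colour `true` only
-/

set_option autoImplicit false

namespace Crest.Agent.R096.SecW_892

open Crest.Agent.R096.St_147 Crest.Agent.R096.Wk_689 Crest.Agent.R096.F_422
open Crest.Agent.R096.Sec_892

variable {ι Φ W I : Type} {M : MeshC ι Φ W} {col : I → Bool} {s : St M col}
variable {Act : Set ι} {far : I → Set W} {G : Set s.Dbl} {inn : s.Dbl → Bool → Bool}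
variable {nm : Dart s → Option I}

/-- names of the new sheets of colour `true` (`none` = discarded or of colour `false`) -/
structure NmsT (s : St M col) (G : Set s.Dbl) (far : I → Set W) (inn : s.Dbl → Bool → Bool)
    (nm : Dart s → Option I) : Prop where
  fl : ∀ d, nm (flip d) = nm d
  tt : ∀ d, nm (tt G inn d) = nm d
  cont : ∀ (F F' : Φ) (w : W) (h : s.At F w) (h' : s.At F' w), nm (ed h) = nm (ed h')
  out : ∀ z ∉ G, ∀ x b i, nm (dz z x b) = some i → i = s.lab (z.e x)
  ct : ∀ d i, nm d = some i → col i = true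
  same : ∀ (F : Φ) (w : W) (h : s.At F w) (i : I), col (s.lab w) = true → nm (ed h) = some i →
    i = s.lab w
  farF : ∀ i, col i = false → ∀ (F : Φ) (w : W) (h : s.At F w), w ∈ far i → nm (ed h) = none
  far : ∀ i, col i = true → ∀ (F : Φ) (w : W) (h : s.At F w), w ∈ far i → nm (ed h) = some i
  sep : ∀ t : Dart s → ZMod 2, St_147.Even t → (∀ d, t (Wk_689.tt G inn d) = t d) →
    (∀ d, nm d = none → t d = 0) →
    ∃ c : ι → Dart s → ZMod 2, (∀ q d, c q (flip d) = c q d) ∧
      (∀ q d, nm d ≠ none → q ∈ M.side (fc d) → c q (Wk_689.tt G inn d) = c q d) ∧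
      (∀ (q : ι) (F F' : Φ) (w : W) (h : s.At F w) (h' : s.At F' w), q ∈ M.side F →
        q ∈ M.side F' → c q (ed h) = c q (ed h')) ∧
      ∀ d q q', M.side (fc d) = s(q, q') → t d = c q d + c q' d

section one

variable {A : s.Arcs Act} {τ : Bool → ι → s.Dbl → ZMod 2} {D : s.Dbl → Bool → Dart s → ZMod 2}
variable {z₀ : s.Dbl}

open Classical in
/-- the names after the exchange along the curve of `z₀`, inner disc of colour `true` discarded -/
noncomputable def nm1 (D : s.Dbl → Bool → Dart s → ZMod 2) (z₀ : s.Dbl) (d : Dart s) :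
    Option I :=
  if d.x = true then (if D z₀ true d = 0 then some (s.lab (pt d)) else none)
  else (if D z₀ false d = 1 then some (s.lab (z₀.e true)) else none)

theorem nm1_t {d : Dart s} (hx : d.x = true) (h : D z₀ true d = 0) :
    nm1 D z₀ d = some (s.lab (pt d)) := by
  unfold nm1; rw [if_pos hx, if_pos h]

theorem nm1_t' {d : Dart s} (hx : d.x = true) (h : D z₀ true d = 1) :
    nm1 D z₀ d = none := by
  unfold nm1; rw [if_pos hx, if_neg (by rw [h]; exact one_ne_zero)]

theorem nm1_f {d : Dart s} (hx : d.x = false) (h : D z₀ false d = 1) :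
    nm1 D z₀ d = some (s.lab (z₀.e true)) := by
  unfold nm1; rw [if_neg (by rw [hx]; exact Bool.false_ne_true), if_pos h]

theorem nm1_f' {d : Dart s} (hx : d.x = false) (h : D z₀ false d = 0) :
    nm1 D z₀ d = none := by
  unfold nm1; rw [if_neg (by rw [hx]; exact Bool.false_ne_true), if_neg (by rw [h]; exact zero_ne_one)]

theorem nm1_reg (hz₀ : z₀ ∈ G) {d d' : Dart s} (h : Reg G D d d') :
    nm1 D z₀ d = nm1 D z₀ d' := by
  have h1 := h.hD z₀ hz₀
  unfold nm1
  rw [h.hx, h.hl]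
  cases hx : d.x
  · rw [hx] at h1
    rw [h1, if_neg Bool.false_ne_true, if_neg Bool.false_ne_true]
  · rw [hx] at h1
    rw [h1, if_pos rfl, if_pos rfl]

theorem exists_nms1 (hD : DD A τ A.mx far D) (hR : RefStmt A τ)
    (hfar : ∀ i w, w ∈ far i → s.lab w = i) (hz₀ : z₀ ∈ A.mx)
    (hin : ∀ u ∉ A.cv z₀, ∀ b, D z₀ false (dz u false b) = 0) :
    NmsT s (A.cv z₀) far (innD D) (nm1 D z₀) := by
  have hmx := A.mx_closed
  have hG : A.Closed (A.cv z₀) := by
    intro u hu q hq
    exact ⟨(hmx u (cv_sub hmx hz₀ hu) q hq).1, cv_trans hu (cv_arc hq)⟩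
  have hsub : A.cv z₀ ⊆ A.mx := fun u hu => cv_sub hmx hz₀ hu
  have hDw : DDw A τ (A.cv z₀) far D := DDw.of hD hsub
  have h0 : z₀ ∈ A.cv z₀ := cv_refl A z₀
  have hval_in : ∀ z ∈ A.cv z₀, ∀ x, D z₀ x (inD (innD D) z x) = 1 := fun z hz x =>
    SecW_892.D_in' hDw hG h0 hz x
  have hval_out : ∀ z ∈ A.cv z₀, ∀ x, D z₀ x (outD (innD D) z x) = 0 := fun z hz x =>
    SecW_892.D_out' hDw hG h0 hz x
  have hlab : ∀ z ∈ A.cv z₀, ∀ x, s.lab (z.e x) = s.lab (z₀.e x) := fun z hz x =>
    SecW_892.lab_cv hDw hG h0 hz x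
  have hin_out : ∀ z ∈ A.cv z₀, ∀ x,
      nm1 D z₀ (inD (innD D) z x) = nm1 D z₀ (outD (innD D) z (!x)) := by
    intro z hz x
    cases x
    · show nm1 D z₀ (inD (innD D) z false) = nm1 D z₀ (outD (innD D) z true)
      rw [nm1_f (inD_x _ _ _) (hval_in z hz false)]
      rw [nm1_t (outD_x _ _ _) (hval_out z hz true)]
      unfold outD
      rw [lab_dz]
      exact congrArg some (hlab z hz true).symm
    · show nm1 D z₀ (inD (innD D) z true) = nm1 D z₀ (outD (innD D) z false)
      rw [nm1_t' (inD_x _ _ _) (hval_in z hz true)]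
      rw [nm1_f' (outD_x _ _ _) (hval_out z hz false)]
  have hne : ∀ d : Dart s, nmf (A.cv z₀) D d ≠ none := by
    intro d
    by_cases h : D z₀ d.x d = 1
    · have hI : Inm (A.cv z₀) D z₀ d := ⟨h0, h, fun z' hz' _ d' h2 => by
        rw [hDw.congr z₀ h0 z' hz']; exact h2⟩
      have h1 : Nm (A.cv z₀) D (outD (innD D) z₀ (!d.x))
          (s.lab (pt (outD (innD D) z₀ (!d.x)))) 0 := Nm.root _ (fun z hz => by
        rw [outD_x, hDw.congr z₀ h0 z hz]
        exact hval_out z₀ h0 _)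
      have h2 := Nm.step d z₀ _ 0 hI h1
      rw [(SecW_892.nmf_some hDw hG).2 ⟨1, h2⟩]
      simp
    · have h1 : Nm (A.cv z₀) D d (s.lab (pt d)) 0 := Nm.root _ (fun z hz => by
        rw [hDw.congr z₀ h0 z hz]
        exact z2_ne h)
      rw [(SecW_892.nmf_some hDw hG).2 ⟨0, h1⟩]
      simp
  constructor
  · exact fun d => (nm1_reg h0 (SecW_892.reg_flip hDw d)).symm
  · intro d
    rcases hn : node d with _ | z
    · rw [tt_none hn]
    · have hd := eq_dz hn
      rw [hd]
      by_cases hz : z ∈ A.cv z₀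
      · rcases dz_cases (innD D) z d.x d.b with h | h
        · rw [h, tt_inD hz, hin_out z hz]
        · rw [h, tt_outD hz, hin_out z hz, Bool.not_not]
      · rw [tt_dz_out hz]
        exact nm1_reg h0 (SecW_892.reg_dz hDw hG hz _ _ _)
  · exact fun F F' w h h' => nm1_reg h0 (SecW_892.reg_ed hDw h h')
  · intro z hz x b i h
    cases x
    · rw [nm1_f' (dz_x _ _ _) (hin z hz b)] at h
      exact absurd h (by simp)
    · rcases z2 (D z₀ true (dz z true b)) with h1 | h1
      · rw [nm1_t (dz_x _ _ _) h1, lab_dz] at h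
        exact (Option.some.inj h).symm
      · rw [nm1_t' (dz_x _ _ _) h1] at h
        exact absurd h (by simp)
  · intro d i h
    cases hx : d.x
    · rcases z2 (D z₀ false d) with h1 | h1
      · rw [nm1_f' hx h1] at h
        exact absurd h (by simp)
      · rw [nm1_f hx h1] at h
        rw [← Option.some.inj h]
        exact z₀.colr true
    · rcases z2 (D z₀ true d) with h1 | h1
      · rw [nm1_t hx h1] at h
        rw [← Option.some.inj h]
        exact (x_eq d).symm.trans hx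
      · rw [nm1_t' hx h1] at h
        exact absurd h (by simp)
  · intro F w h i hc hi
    have hx : (ed h).x = true := by rw [x_ed, hc]
    rcases z2 (D z₀ true (ed h)) with h1 | h1
    · rw [nm1_t hx h1, pt_ed] at hi
      exact (Option.some.inj hi).symm
    · rw [nm1_t' hx h1] at hi
      exact absurd hi (by simp)
  · intro i hi F w h hw
    have hl : s.lab w = i := hfar i w hw
    have hx : (ed h).x = false := by rw [x_ed, hl, hi]
    exact nm1_f' hx (hD.far0 z₀ hz₀ false i F w h hw)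
  · intro i hi F w h hw
    have hl : s.lab w = i := hfar i w hw
    have hx : (ed h).x = true := by rw [x_ed, hl, hi]
    have h1 := hD.far0 z₀ hz₀ true i F w h hw
    rw [nm1_t hx h1, pt_ed, hl]
  · intro t ht htt hsup
    obtain ⟨c, c1, c2, c3, c4⟩ := sepw hDw hG hR t ht htt (fun d hd => absurd hd (hne d))
    exact ⟨c, c1, fun q d _ hq => c2 q d (hne d) hq, c3, c4⟩

end one

/-! ### the new sheets of colour `true` -/

section new

/-- the name of an orbit -/
def nmO (N : NmsT s G far inn nm) : Orb G inn → Option I :=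
  Quot.lift nm (by
    rintro d d' (rfl | rfl)
    · exact (N.fl d).symm
    · exact (N.tt d).symm)

theorem nmO_orb (N : NmsT s G far inn nm) (d : Dart s) : nmO N (orb G inn d) = nm d := rfl

theorem joined_nm (N : NmsT s G far inn nm) {i : I} (hi : col i = true) {w : W}
    (hJ : Joined s G inn far i w) {F : Φ} (h : s.At F w) : nm (ed h) = some i := by
  refine hJ {v | ∀ F (h : s.At F v), nm (ed h) = some i} ?_ ?_ F h
  · intro v hv F h
    exact N.far i hi F v h hv
  · intro F v hv h F' h'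
    rw [N.cont F' F _ h' (mu'_at G inn h), ← nmO_orb N, orb_mu' h, nmO_orb N]
    exact hv F h

theorem joined_lab (hg : s.Good Act far) (N : NmsT s G far inn nm) {i : I} (hi : col i = true)
    {w : W} (hJ : Joined s G inn far i w) : lab' s nm w = i := by
  classical
  by_cases h : ∃ F, s.At F w
  · unfold lab'
    rw [dif_pos h, joined_nm N hi hJ h.choose_spec]
    rfl
  · unfold lab'
    rw [dif_neg h]
    have h1 : w ∈ {v | v = w → v ∈ far i} := by
      refine hJ {v | v = w → v ∈ far i} (fun v hv _ => hv) ?_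
      intro F v _ hA he
      exact (h ⟨F, he ▸ mu'_at G inn hA⟩).elim
    exact (hg.far_mem (h1 rfl)).2

open Classical in
/-- the data for 689's `newSt` -/
noncomputable def nmd (hg : s.Good Act far) (N : NmsT s G far inn nm) : Nm G inn where
  P := s.P.filter (fun w => col (lab' s nm w) = true ∧ Joined s G inn far (lab' s nm w) w)
  sub := Finset.filter_subset _ _
  lab := lab' s nm
  nm := nmO N
  hnm {F w} h hw := by
    rw [nmO_orb N]
    exact joined_nm N (Finset.mem_filter.1 hw).2.1 (Finset.mem_filter.1 hw).2.2 h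
  mem {F w} h hw := by
    have h0 := (Finset.mem_filter.1 hw).2.1
    have h1 := joined_mu (Finset.mem_filter.1 hw).2.2 h
    rw [Finset.mem_filter]
    refine ⟨(mu'_at G inn h).1, ?_⟩
    rw [joined_lab hg N h0 h1]
    exact ⟨h0, h1⟩
  old {z} hz x i h := N.out z hz x false i h

theorem mem_nmd {hg : s.Good Act far} {N : NmsT s G far inn nm} {w : W} :
    w ∈ (nmd hg N).P ↔ w ∈ s.P ∧ col (lab' s nm w) = true ∧
      Joined s G inn far (lab' s nm w) w := by
  classical
  exact Finset.mem_filter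

theorem far_lab (hg : s.Good Act far) (N : NmsT s G far inn nm) {i : I} (hi : col i = true)
    {w : W} (h : w ∈ far i) : lab' s nm w = i := joined_lab hg N hi (joined_far h)

theorem far_mem' (hg : s.Good Act far) (N : NmsT s G far inn nm) {i : I} (hi : col i = true)
    {w : W} (h : w ∈ far i) : w ∈ (nmd hg N).P := by
  rw [mem_nmd]
  refine ⟨(hg.far_mem h).1, ?_⟩
  rw [far_lab hg N hi h]
  exact ⟨hi, joined_far h⟩

/-- the new state (sheets of colour `true` only) -/
noncomputable def nst (hg : s.Good Act far) (N : NmsT s G far inn nm) : St M col :=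
  newSt (nmd hg N)

theorem nst_mu (hg : s.Good Act far) (N : NmsT s G far inn nm) :
    (nst hg N).mu = mu' G inn := rfl
theorem nst_lab (hg : s.Good Act far) (N : NmsT s G far inn nm) :
    (nst hg N).lab = lab' s nm := rfl
theorem nst_at {hg : s.Good Act far} {N : NmsT s G far inn nm} {F : Φ} {w : W}
    (h : (nst hg N).At F w) : s.At F w := newSt_at h

theorem mu_frozen {A : s.Arcs Act} (hG : A.Closed G) (hg : s.Good Act far)
    (N : NmsT s G far inn nm) {F : Φ} {w : W} (hF : St.Frozen M Act F) (h : s.At F w) :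
    (nst hg N).mu F w = s.mu F w :=
  mu_keep (nmd hg N) h (fun z hz hzF => (frozen_not hG hF z hz hzF).elim)

/-- steps between marked points -/
theorem far_sub {A : s.Arcs Act} (hG : A.Closed G) (hg : s.Good Act far)
    (N : NmsT s G far inn nm) (i : I) (hi : col i = true) (X : Set W)
    (hX : ∀ F w, w ∈ X → w ∈ far i → (nst hg N).At F w → (nst hg N).mu F w ∈ far i →
      ((nst hg N).Free F w ∨ St.Frozen M Act F) → (nst hg N).mu F w ∈ X)
    (w : W) (hw : w ∈ X) (hwf : w ∈ far i) : far i ⊆ X := by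
  refine hg.far_conn i X ?_ w hw hwf
  intro F w hw hwf hA hmu hfr
  have hmw : (nst hg N).mu F w = s.mu F w := by
    rcases hfr with h | h
    · exact (free_keep (nmd hg N) hA h).1
    · exact mu_frozen hG hg N h hA
  rw [← hmw] at hmu ⊢
  refine hX F w hw hwf ⟨far_mem' hg N hi hwf, hA.2⟩ hmu ?_
  rcases hfr with h | h
  · exact Or.inl (free_keep (nmd hg N) hA h).2.2
  · exact Or.inr h

theorem conn' {A : s.Arcs Act} (hG : A.Closed G) (hg : s.Good Act far)
    (N : NmsT s G far inn nm) (i : I) (hi : col i = true) : (nst hg N).Conn i := by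
  obtain ⟨w₀, hw₀⟩ := hg.far_ne i
  refine ⟨⟨w₀, far_mem' hg N hi hw₀, far_lab hg N hi hw₀⟩, ?_⟩
  intro X hX w hw hwP hwi w' hw'P hw'i
  have hwP' := (mem_nmd (hg := hg) (N := N)).1 hwP
  have hw'P' := (mem_nmd (hg := hg) (N := N)).1 hw'P
  change lab' s nm w = i at hwi
  change lab' s nm w' = i at hw'i
  rw [hwi] at hwP'
  rw [hw'i] at hw'P'
  -- some marked point is in `X`
  have h1 : ∃ v ∈ far i, v ∈ X := by
    by_contra hcon
    have h2 : w ∈ {v | ¬ (v ∈ X ∧ v ∈ (nmd hg N).P ∧ lab' s nm v = i)} := by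
      refine hwP'.2.2 _ ?_ ?_
      · intro v hv hv'
        exact hcon ⟨v, hv, hv'.1⟩
      · intro F v hv hA hv'
        apply hv
        have hA' := mu'_at G inn hA
        have h3 : (nst hg N).mu F (mu' G inn F v) ∈ X :=
          hX F _ hv'.1 ⟨hv'.2.1, hA'.2⟩ hv'.2.2
        rw [nst_mu, mu'_mu' hA] at h3
        have h4 := (nmd hg N).mem hA' hv'.2.1
        rw [mu'_mu' hA] at h4
        refine ⟨h3, h4, ?_⟩
        have h5 := joined_mu (mem_nmd.1 hv'.2.1).2.2 hA'
        rw [mu'_mu' hA, hv'.2.2] at h5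
        exact joined_lab hg N hi h5
    exact h2 ⟨hw, hwP, hwi⟩
  obtain ⟨v, hvf, hvX⟩ := h1
  have h2 : far i ⊆ X := far_sub hG hg N i hi X
    (fun F w hw hwf hA _ _ => hX F w hw hA (far_lab hg N hi hwf)) v hvX hvf
  have h3 : w' ∈ {v | v ∈ X ∧ v ∈ (nmd hg N).P ∧ lab' s nm v = i} := by
    refine hw'P'.2.2 _ ?_ ?_
    · intro v hv
      exact ⟨h2 hv, far_mem' hg N hi hv, far_lab hg N hi hv⟩
    · intro F v hv hA
      refine ⟨hX F v hv.1 ⟨hv.2.1, hA.2⟩ hv.2.2, (nmd hg N).mem hA hv.2.1, ?_⟩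
      have h5 := joined_mu (mem_nmd.1 hv.2.1).2.2 hA
      rw [hv.2.2] at h5
      exact joined_lab hg N hi h5
  exact h3.1

open Classical in
/-- transport of a function on the new chords of sheet `i` to the darts -/
noncomputable def tf (hg : s.Good Act far) (N : NmsT s G far inn nm) (i : I)
    (θ : Φ → W → ZMod 2) (d : Dart s) : ZMod 2 :=
  if h : ∃ p : Φ × W, ∃ h : s.At p.1 p.2, (p.2 ∈ (nmd hg N).P ∧ lab' s nm p.2 = i) ∧
    orb G inn d = orb G inn (ed h) then θ h.choose.1 h.choose.2 else 0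

theorem sep' (hg : s.Good Act far) (N : NmsT s G far inn nm) (i : I) (hi : col i = true) :
    (nst hg N).Sep i := by
  classical
  intro θ hθ1 hθ2
  -- kept status along a chord
  have hkeep : ∀ {F : Φ} {w : W} (h : s.At F w), (w ∈ (nmd hg N).P ∧ lab' s nm w = i) →
      (mu' G inn F w ∈ (nmd hg N).P ∧ lab' s nm (mu' G inn F w) = i) := by
    intro F w h hw
    refine ⟨(nmd hg N).mem h hw.1, ?_⟩
    have h5 := joined_mu (mem_nmd.1 hw.1).2.2 h
    rw [hw.2] at h5
    exact joined_lab hg N hi h5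
  have ht : ∀ {F : Φ} {w : W} (h : s.At F w), (w ∈ (nmd hg N).P ∧ lab' s nm w = i) →
      ∀ d, orb G inn d = orb G inn (ed h) → tf hg N i θ d = θ F w := by
    intro F w h hw d hd
    have hex : ∃ p : Φ × W, ∃ h : s.At p.1 p.2, (p.2 ∈ (nmd hg N).P ∧ lab' s nm p.2 = i) ∧
      orb G inn d = orb G inn (ed h) := ⟨(F, w), h, hw, hd⟩
    unfold tf
    rw [dif_pos hex]
    obtain ⟨h1, h2, h3⟩ := hex.choose_spec
    obtain ⟨hF, hw'⟩ := (orb_ed_iff h h1).1 (h3.symm.trans hd)
    rw [hF]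
    rcases hw' with h4 | h4
    · rw [h4]
    · rw [h4]
      exact hθ1 F w ⟨hw.1, h.2⟩ hw.2
  have ht0 : ∀ d, (¬ ∃ p : Φ × W, ∃ h : s.At p.1 p.2,
      (p.2 ∈ (nmd hg N).P ∧ lab' s nm p.2 = i) ∧ orb G inn d = orb G inn (ed h)) →
      tf hg N i θ d = 0 := by
    intro d hd
    unfold tf
    rw [dif_neg hd]
  have htcongr : ∀ d d', orb G inn d = orb G inn d' → tf hg N i θ d = tf hg N i θ d' := by
    intro d d' h
    by_cases hex : ∃ p : Φ × W, ∃ h : s.At p.1 p.2, (p.2 ∈ (nmd hg N).P ∧ lab' s nm p.2 = i) ∧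
      orb G inn d = orb G inn (ed h)
    · obtain ⟨⟨F, w⟩, h1, h2, h3⟩ := hex
      rw [ht h1 h2 d h3, ht h1 h2 d' (h.symm.trans h3)]
    · rw [ht0 d hex, ht0 d' (by rw [← h]; exact hex)]
  have heven : St_147.Even (tf hg N i θ) := by
    refine ⟨fun d => htcongr _ _ (orb_flip d), ?_⟩
    intro w hw
    by_cases hk : w ∈ (nmd hg N).P ∧ lab' s nm w = i
    · rw [← hθ2 w hk.1 hk.2]
      refine Finset.sum_congr rfl fun F hF => ?_
      have hA : s.At F w := ⟨hw, MeshC.mem_fs.1 hF⟩
      rw [edv_eq hA, ht hA hk _ rfl]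
    · refine Finset.sum_eq_zero fun F hF => ?_
      have hA : s.At F w := ⟨hw, MeshC.mem_fs.1 hF⟩
      rw [edv_eq hA]
      apply ht0
      rintro ⟨⟨F', w'⟩, h1, h2, h3⟩
      obtain ⟨hF', hw'⟩ := (orb_ed_iff h1 hA).1 h3
      apply hk
      rcases hw' with h4 | h4
      · rw [h4]; exact h2
      · rw [h4]; exact hkeep h1 h2
  obtain ⟨c, c1, c2, c3, c4⟩ := N.sep (tf hg N i θ) heven (fun d => htcongr _ _ (orb_tt d)) (by
    intro d hd
    apply ht0
    rintro ⟨⟨F, w⟩, h1, h2, h3⟩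
    have h4 := congrArg (nmO N) h3
    rw [nmO_orb, nmO_orb, hd, joined_nm N (mem_nmd.1 h2.1).2.1 (mem_nmd.1 h2.1).2.2 h1] at h4
    exact absurd h4 (by simp))
  refine ⟨fun q w => if hh : ∃ F, s.At F w ∧ q ∈ M.side F then c q (ed hh.choose_spec.1) else 0,
    ?_, ?_⟩
  · intro q F w hq hA hi
    have hA₀ : s.At F w := nst_at hA
    have hA' : s.At F (mu' G inn F w) := mu'_at G inn hA₀
    have h1 : ∃ F, s.At F w ∧ q ∈ M.side F := ⟨F, hA₀, hq⟩
    have h2 : ∃ F', s.At F' (mu' G inn F w) ∧ q ∈ M.side F' := ⟨F, hA', hq⟩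
    beta_reduce
    rw [nst_mu, dif_pos h1, dif_pos h2, c3 q _ F _ h1.choose_spec.1 hA₀ h1.choose_spec.2 hq,
      c3 q _ F _ h2.choose_spec.1 hA' h2.choose_spec.2 hq]
    have h3 := orb_eq_iff.1 (orb_mu' (G := G) (inn := inn) hA₀).symm
      (fun d => c q d = c q (ed hA₀) ∧ nm d ≠ none ∧ q ∈ M.side (fc d)) ?_ ?_ ?_
    · exact h3.1
    · rintro d ⟨h4, h5, h6⟩
      exact ⟨(c1 q d).trans h4, by rw [N.fl]; exact h5, h6⟩
    · rintro d ⟨h4, h5, h6⟩
      exact ⟨(c2 q d h5 h6).trans h4, by rw [N.tt]; exact h5, by rw [fc_tt]; exact h6⟩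
    · refine ⟨rfl, ?_, by rw [fc_ed]; exact hq⟩
      have h7 := (mem_nmd (hg := hg) (N := N)).1 hA.1
      rw [joined_nm N h7.2.1 h7.2.2 hA₀]
      simp
  · intro F w q q' hqq hA hi
    have hA₀ : s.At F w := nst_at hA
    have hq : q ∈ M.side F := hqq ▸ Sym2.mem_mk_left q q'
    have hq' : q' ∈ M.side F := hqq ▸ Sym2.mem_mk_right q q'
    have h1 : ∃ F, s.At F w ∧ q ∈ M.side F := ⟨F, hA₀, hq⟩
    have h2 : ∃ F, s.At F w ∧ q' ∈ M.side F := ⟨F, hA₀, hq'⟩
    beta_reduce
    rw [dif_pos h1, dif_pos h2, c3 q _ F _ h1.choose_spec.1 hA₀ h1.choose_spec.2 hq,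
      c3 q' _ F _ h2.choose_spec.1 hA₀ h2.choose_spec.2 hq',
      ← c4 (ed hA₀) q q' (by rw [fc_ed]; exact hqq)]
    exact (ht hA₀ ⟨hA.1, hi⟩ _ rfl).symm

end new

end Crest.Agent.R096.SecW_892
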