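import Crest.Agent.R096.Sec8_892

/-!
# R096 / DOORS-SEC, part 9 (helper892): the pushed state after the exchange along one curve
-/

set_option autoImplicit false

namespace Crest.Agent.R096.SecW_892

open Crest.Agent.R096.St_147 Crest.Agent.R096.Wk_689 Crest.Agent.R096.F_422
open Crest.Agent.R096.Sec_892

variable {ι Φ W I : Type} {M : MeshC ι Φ W} {col : I → Bool} {s : St M col}
variable {Act : Set ι} {far : I → Set W} {G : Set s.Dbl} {inn : s.Dbl → Bool → Bool}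
variable {nm : Dart s → Option I}
variable {up : Φ → W → Bool} {Ph : Finset W} {b : Bool} {c : W → W}

section pst

variable {t : St M col} {hp : Push s up Ph b c} {hP : s.P ⊆ Ph} {ht : t.P ⊆ s.P}

theorem pst_H1' (h1 : ∀ i, s.H1 i) (h2 : ∀ i, col i = true → t.H1 i) (i : I) :
    (pst hp hP ht).H1 i := by
  intro κ hκ
  cases hi : col i
  · obtain ⟨Ψ, hΨ⟩ := h1 i κ (fun q => by
      obtain ⟨ψ, hψ⟩ := hκ q
      refine ⟨ψ, fun F w hq hw hl => ?_⟩
      have h3 : HP s w := ⟨hw.1, by rw [hl]; exact hi⟩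
      have h4 := pst_hp (hp := hp) (hP := hP) (ht := ht) h3
      rw [hψ F w hq ⟨h4.1, hw.2⟩ (h4.2.1.trans hl), h4.2.2])
    refine ⟨Ψ, fun F x hx hl => ?_⟩
    have h3 : HP s x := pst_hp_iff.1 ⟨hx.1, by rw [hl]; exact hi⟩
    have h4 := pst_hp (hp := hp) (hP := hP) (ht := ht) h3
    rw [hΨ F x ⟨h3.1, hx.2⟩ (h4.2.1.symm.trans hl), h4.2.2]
  · obtain ⟨Ψ, hΨ⟩ := h2 i hi (fun F w => κ F (ph s c w)) (fun q => by
      obtain ⟨ψ, hψ⟩ := hκ q
      refine ⟨fun w => ψ (ph s c w), fun F w hq hw hl => ?_⟩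
      have h3 : w ∈ kA t := mem_kA.2 ⟨hw.1, by rw [hl]; exact hi⟩
      have h4 := pst_ph (hp := hp) (hP := hP) (ht := ht) h3
      rw [hψ F (ph s c w) hq ⟨h4.1, (ph_on hp (ht hw.1) F).2 hw.2⟩ (h4.2.1.trans hl), h4.2.2])
    refine ⟨fun x => Ψ (iv s t c x), fun F x hx hl => ?_⟩
    obtain ⟨w, hw, rfl⟩ := pst_true hx.1 (by rw [hl]; exact hi)
    have h4 := pst_ph (hp := hp) (hP := hP) (ht := ht) hw
    have hwF : w ∈ M.On F := (ph_on hp (ht (mem_kA.1 hw).1) F).1 hx.2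
    have h5 : t.mu F w ∈ kA t := mem_kA.2 ⟨(t.mu_mem (mem_kA.1 hw).1 hwF).1, by
      rw [t.mu_lab (mem_kA.1 hw).1 hwF]; exact (mem_kA.1 hw).2⟩
    show κ F (ph s c w) = Ψ (iv s t c (ph s c w)) + Ψ (iv s t c ((pst hp hP ht).mu F (ph s c w)))
    rw [h4.2.2, iv_ph hp hP ht hw, iv_ph hp hP ht h5]
    exact hΨ F w ⟨(mem_kA.1 hw).1, hwF⟩ (h4.2.1.symm.trans hl)

theorem pst_Conn' (h1 : ∀ i, s.Conn i) (h2 : ∀ i, col i = true → t.Conn i) (i : I) :
    (pst hp hP ht).Conn i := by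
  cases hi : col i
  · obtain ⟨⟨w, hw, hl⟩, hc⟩ := h1 i
    have h3 : HP s w := ⟨hw, by rw [hl]; exact hi⟩
    have h4 := pst_hp (hp := hp) (hP := hP) (ht := ht) h3
    refine ⟨⟨w, h4.1, h4.2.1.trans hl⟩, ?_⟩
    intro X hX x hx hxP hxl y hyP hyl
    have h5 : HP s x := pst_hp_iff.1 ⟨hxP, by rw [hxl]; exact hi⟩
    have h6 : HP s y := pst_hp_iff.1 ⟨hyP, by rw [hyl]; exact hi⟩
    rw [(pst_hp h5).2.1] at hxl
    rw [(pst_hp h6).2.1] at hyl
    refine hc X ?_ x hx h5.1 hxl y h6.1 hyl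
    intro F u hu hat hul
    have h7 : HP s u := ⟨hat.1, by rw [hul]; exact hi⟩
    have h8 := pst_hp (hp := hp) (hP := hP) (ht := ht) h7
    rw [← h8.2.2]
    exact hX F u hu ⟨h8.1, hat.2⟩ (h8.2.1.trans hul)
  · obtain ⟨⟨w, hw, hl⟩, hc⟩ := h2 i hi
    have h3 : w ∈ kA t := mem_kA.2 ⟨hw, by rw [hl]; exact hi⟩
    have h4 := pst_ph (hp := hp) (hP := hP) (ht := ht) h3
    refine ⟨⟨_, h4.1, h4.2.1.trans hl⟩, ?_⟩
    intro X hX x hx hxP hxl y hyP hyl
    obtain ⟨u, hu, rfl⟩ := pst_true hxP (by rw [hxl]; exact hi)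
    obtain ⟨v, hv, rfl⟩ := pst_true hyP (by rw [hyl]; exact hi)
    rw [(pst_ph hu).2.1] at hxl
    rw [(pst_ph hv).2.1] at hyl
    refine hc {w | ph s c w ∈ X} ?_ u hx (mem_kA.1 hu).1 hxl v (mem_kA.1 hv).1 hyl
    intro F w' hw' hat hwl
    have h7 : w' ∈ kA t := mem_kA.2 ⟨hat.1, by rw [hwl]; exact hi⟩
    have h8 := pst_ph (hp := hp) (hP := hP) (ht := ht) h7
    show ph s c (t.mu F w') ∈ X
    rw [← h8.2.2]
    exact hX F _ hw' ⟨h8.1, (ph_on hp (ht hat.1) F).2 hat.2⟩ (h8.2.1.trans hwl)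

end pst

theorem nst_sub (hg : s.Good Act far) (N : NmsT s G far inn nm) : (nst hg N).P ⊆ s.P :=
  (nmd hg N).sub

theorem nst_mu' (hg : s.Good Act far) (N : NmsT s G far inn nm) (F : Φ) (w : W)
    (_ : s.At F w) : (nst hg N).mu F w = mu' G inn F w := rfl

theorem far_kA (hg : s.Good Act far) (N : NmsT s G far inn nm) {i : I} {w : W} (h : w ∈ far i)
    (hi : col i = true) : w ∈ kA (nst hg N) ∧ ph s c w = w ∧ (nst hg N).lab w = i := by
  have h1 := far_mem' hg N hi h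
  have h2 : (nst hg N).lab w = i := far_lab hg N hi h
  refine ⟨mem_kA.2 ⟨h1, by rw [h2]; exact hi⟩, ph_neg (by rw [(hg.far_mem h).2]; exact hi), h2⟩

/-- kept points on frozen faces are marked points of colour `true` -/
theorem kA_frozen (hg : s.Good Act far) (N : NmsT s G far inn nm) {F : Φ} {v : W}
    (hv : v ∈ kA (nst hg N)) (hvF : v ∈ M.On F) (hF : St.Frozen M Act F) :
    v ∈ far (s.lab v) ∧ col (s.lab v) = true ∧ (nst hg N).lab v = s.lab v := by
  have hvP := nst_sub hg N (mem_kA.1 hv).1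
  have h3 := hg.far_frozen (F := F) ⟨hvP, hvF⟩ hF
  have h4 : col (s.lab v) = true := by
    cases hc : col (s.lab v)
    · exfalso
      have h5 := (mem_nmd (hg := hg) (N := N)).1 (mem_kA.1 hv).1
      have h6 := joined_nm N h5.2.1 h5.2.2 (F := F) ⟨hvP, hvF⟩
      rw [N.farF _ hc F v ⟨hvP, hvF⟩ h3] at h6
      exact absurd h6 (by simp)
    · rfl
  exact ⟨h3, h4, far_lab hg N h4 h3⟩

/-- partners of marked points -/
theorem pst_mu_far (hg : s.Good Act far) (N : NmsT s G far inn nm) (hp : Push s up Ph b c)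
    (hP : s.P ⊆ Ph) {i : I} {F : Φ} {w : W} (hw : w ∈ far i) (hmw : s.mu F w ∈ far i)
    (hmu : (nst hg N).mu F w = s.mu F w) :
    (pst hp hP (nst_sub hg N)).mu F w = s.mu F w := by
  cases hi : col i
  · have h1 : HP s w := ⟨(hg.far_mem hw).1, by rw [(hg.far_mem hw).2]; exact hi⟩
    exact (pst_hp h1).2.2 F
  · obtain ⟨h1, h2, -⟩ := far_kA (c := c) hg N hw hi
    have h3 := (pst_ph (hp := hp) (hP := hP) (ht := nst_sub hg N) h1).2.2 F
    rw [h2, hmu, (far_kA (c := c) hg N hmw hi).2.1] at h3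
    exact h3

theorem pst_far (hg : s.Good Act far) (N : NmsT s G far inn nm) (hp : Push s up Ph b c)
    (hP : s.P ⊆ Ph) {i : I} {w : W} (hw : w ∈ far i) :
    w ∈ (pst hp hP (nst_sub hg N)).P ∧ (pst hp hP (nst_sub hg N)).lab w = i := by
  cases hi : col i
  · have h1 : HP s w := ⟨(hg.far_mem hw).1, by rw [(hg.far_mem hw).2]; exact hi⟩
    exact ⟨(pst_hp h1).1, (pst_hp h1).2.1.trans (hg.far_mem hw).2⟩
  · obtain ⟨h1, h2, h4⟩ := far_kA (c := c) hg N hw hi
    have h3 := pst_ph (hp := hp) (hP := hP) (ht := nst_sub hg N) h1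
    rw [h2] at h3
    exact ⟨h3.1, h3.2.1.trans h4⟩

/-- free chords which keep their partner stay free -/
theorem pst_free (hg : s.Good Act far) (N : NmsT s G far inn nm) (hp : Push s up Ph b c)
    (hP : s.P ⊆ Ph) (h2 : Two s up) {F : Φ} {w : W} (hw : s.At F w) (hfr : s.Free F w)
    (hmu : (pst hp hP (nst_sub hg N)).mu F w = s.mu F w) :
    (pst hp hP (nst_sub hg N)).Free F w := by
  intro z' hF x he
  have hlo : (pst hp hP (nst_sub hg N)).lo F w = s.lo F w := by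
    unfold St.lo
    rw [hmu]
  rw [hlo] at he
  obtain ⟨v, hv, z, β, h3, h4, h5, h6, h7, -⟩ := exists_old' h2 (nst_mu' hg N) z'
  have hlA := lo_at hw
  subst hF
  cases x
  · exact hfr z h5 false (h6.trans he)
  · have hct : col (s.lab v) = true := by
      cases hc : col (s.lab v)
      · exfalso
        rw [ph_pos hc] at h4
        exact hp.nin ⟨hv.1, hc⟩ (by rw [← h4, he]; exact hP hlA.1)
      · rfl
    rw [ph_neg hct, he] at h4
    subst h4
    have hfr' : ∀ z ∈ G, z.F = z'.F → z.e (col (s.lab (s.lo z'.F w))) ≠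
        s.lo z'.F (s.lo z'.F w) := by
      intro y _ hy
      rw [lo_lo hw]
      exact hfr y hy _
    have h8 := orb_chd hv hfr' h7
    have h9 := chd_dz z true β
    rw [h8.2, lo_lo hw, dz_x] at h9
    exact hfr z h5 true (Prod.mk.inj h9).2.symm

/-- **the pushed state is good** -/
theorem pst_good {A : s.Arcs Act} (hG : A.Closed G) (hg : s.Good Act far)
    (N : NmsT s G far inn nm) (hp : Push s up Ph b c) (hP : s.P ⊆ Ph) (h2 : Two s up) :
    (pst hp hP (nst_sub hg N)).Good Act far where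
  h1 := pst_H1' hg.h1 (fun i hi => B_422.h1_of_sep _ i (sep' hg N i hi))
  conn := pst_Conn' hg.conn (conn' hG hg N)
  far_mem := fun h => pst_far hg N hp hP h
  far_ne := hg.far_ne
  far_frozen := by
    intro F w hw hF
    rcases pst_cases hw.1 with ⟨v, hv, rfl⟩ | h
    · have hvF : v ∈ M.On F := (ph_on hp (nst_sub hg N (mem_kA.1 hv).1) F).1 hw.2
      obtain ⟨h3, h5, h4⟩ := kA_frozen hg N hv hvF hF
      rw [(pst_ph hv).2.1, h4, ph_neg h5]
      exact h3
    · rw [(pst_hp h).2.1]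
      exact hg.far_frozen ⟨h.1, hw.2⟩ hF
  far_conn := by
    intro i X hX w hw hwf
    refine hg.far_conn i X ?_ w hw hwf
    intro F w hw hwf hA hmu hfr
    have hmt : (nst hg N).mu F w = s.mu F w := by
      rcases hfr with h | h
      · exact (free_keep (nmd hg N) hA h).1
      · exact mu_frozen hG hg N h hA
    have hmw := pst_mu_far hg N hp hP hwf hmu hmt
    rw [← hmw] at hmu ⊢
    refine hX F w hw hwf ⟨(pst_far hg N hp hP hwf).1, hA.2⟩ hmu ?_
    rcases hfr with h | h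
    · exact Or.inl (pst_free hg N hp hP h2 hA h hmw)
    · exact Or.inr h

/-- the relation with the old state -/
theorem pst_cle {A : s.Arcs Act} (hG : A.Closed G) (hg : s.Good Act far)
    (N : NmsT s G far inn nm) (hp : Push s up Ph b c) (hP : s.P ⊆ Ph) (h2 : Two s up) :
    CLe Act far Ph (pst hp hP (nst_sub hg N)) s where
  hp _ := pst_hp_iff
  hlab _ h := (pst_hp h).2.1
  hmu _ F h := (pst_hp h).2.2 F
  P w hw := by
    rcases pst_cases hw with ⟨v, hv, rfl⟩ | h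
    · have hvP := nst_sub hg N (mem_kA.1 hv).1
      cases hc : col (s.lab v)
      · right
        rw [ph_pos hc]
        exact ⟨hp.nin ⟨hvP, hc⟩, v, ⟨hvP, hc⟩, fun F => hp.on F ⟨hvP, hc⟩,
          fun F u h3 h4 h5 h6 => hp.adj ⟨hvP, hc⟩ h3 h4 h5 h6⟩
      · left; rw [ph_neg hc]; exact hvP
    · exact Or.inl h.1
  frozen_P F w hF hw := by
    constructor
    · intro h
      rcases pst_cases h with ⟨v, hv, rfl⟩ | h
      · have hvP := nst_sub hg N (mem_kA.1 hv).1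
        have hvF : v ∈ M.On F := (ph_on hp hvP F).1 hw
        rw [ph_neg (kA_frozen hg N hv hvF hF).2.1]
        exact hvP
      · exact h.1
    · intro h
      exact (pst_far hg N hp hP (hg.far_frozen ⟨h, hw⟩ hF)).1
  frozen_mu F w hF hw := by
    have h3 := hg.far_frozen hw hF
    have h4 := hg.far_frozen (At.mu s hw) hF
    rw [s.mu_lab hw.1 hw.2] at h4
    exact pst_mu_far hg N hp hP h3 h4 (mu_frozen hG hg N hF hw)
  free F w hw hf hf' hfr := by
    have h3 := pst_mu_far hg N hp hP hf hf' (free_keep (nmd hg N) hw hfr).1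
    exact ⟨h3, pst_free hg N hp hP h2 hw hfr h3⟩
  dbl z' := by
    obtain ⟨v, hv, z, β, -, -, h5, h6, -, -⟩ := exists_old' h2 (nst_mu' hg N) z'
    exact ⟨z, h5, h6⟩
  third F w p q hw hpP hqP hps hqs hpF hqF hl := by
    rcases pst_cases hw.1 with ⟨v, hv, rfl⟩ | h
    · have hvP := nst_sub hg N (mem_kA.1 hv).1
      have hvF : v ∈ M.On F := (ph_on hp hvP F).1 hw.2
      rw [(pst_ph hv).2.2] at hl
      exact third hp hP ⟨hvP, hvF⟩ hpP hqP hps hqs hpF hqF hl
    · rw [(pst_hp h).2.2] at hl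
      exact ⟨w, ⟨h.1, hw.2⟩, hl⟩

/-- the number of double points drops if the push is chosen well at one point of `G` -/
theorem pst_card (hg : s.Good Act far)
    (N : NmsT s G far inn nm) (hp : Push s up Ph b c) (hP : s.P ⊆ Ph) (h2 : Two s up)
    {z₀ : s.Dbl} {β₀ : Bool}
    (hanti : ¬ (M.Btw z₀.F (z₀.e false) (s.mu z₀.F (z₀.e false)) (pt (flip (dz z₀ true β₀))) ↔
      M.pos z₀.F (z₀.e false) < M.pos z₀.F (c (z₀.e false))))
    (hnm : nm (dz z₀ true β₀) = none) :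
    Nat.card (pst hp hP (nst_sub hg N)).Dbl < Nat.card s.Dbl := by
  classical
  have hinj := odp_inj (hp := hp) (hP := hP) (ht := nst_sub hg N) h2 (nst_mu' hg N)
  have hmiss : ∀ z', odp (hp := hp) (hP := hP) (ht := nst_sub hg N) h2 (nst_mu' hg N) z' ≠ z₀ := by
    intro z' he
    obtain ⟨v, hv, β, hk, -, -, -, h5, h6⟩ := odp_spec (hp := hp) (hP := hP)
      (ht := nst_sub hg N) h2 (nst_mu' hg N) z'
    rw [he] at h5 h6
    have hβ := anti_unique h6 hanti
    subst hβ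
    have hk' := mem_kA.1 hk
    have hm := (mem_nmd (hg := hg) (N := N)).1 hk'.1
    have h7 := joined_nm N hm.2.1 hm.2.2 hv
    rw [← nmO_orb N, ← h5, nmO_orb N, hnm] at h7
    exact absurd h7 (by simp)
  have h1 : Nat.card (pst hp hP (nst_sub hg N)).Dbl ≤ Nat.card {z : s.Dbl // z ≠ z₀} := by
    apply Nat.card_le_card_of_injective
      (fun z' => (⟨odp h2 (nst_mu' hg N) z', hmiss z'⟩ : {z : s.Dbl // z ≠ z₀}))
    intro a b h
    exact hinj (by simpa using h)
  have h3 : Nat.card {z : s.Dbl // z ≠ z₀} < Nat.card s.Dbl := by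
    have := Fintype.ofFinite s.Dbl
    rw [Nat.card_eq_fintype_card, Nat.card_eq_fintype_card]
    exact Fintype.card_subtype_lt (x := z₀) (by simp)
  omega

end Crest.Agent.R096.SecW_892
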