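import Crest.Agent.R096.VolC3_766

/-!
Row 96 (S0127), helper766.  Choice of the scale of goodness such that the image of the bad set is small
in every set of a given locally finite family.
-/

set_option autoImplicit false
set_option linter.unusedSectionVars false
set_option linter.style.longLine false
set_option linter.style.haveILetI false
set_option linter.unusedVariables false

namespace Crest.Agent.R096.Sel_766

open MeasureTheory Set Filter Topology Metric
open scoped ENNReal NNReal RealInnerProductSpace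
open Crest.Agent.R096.VolC_766
open Crest.Agent.R096.ThC6_766

variable {V : Type*} [NormedAddCommGroup V] [InnerProductSpace ℝ V]
variable [FiniteDimensional ℝ V] [MeasurableSpace V] [BorelSpace V]
variable {E : Type*} [NormedAddCommGroup E] [InnerProductSpace ℝ E]
variable [FiniteDimensional ℝ E] [MeasurableSpace E] [BorelSpace E]

/-- **Scale selection**: the bad points have small image in every `Q i`. -/
theorem exists_volsel {Ω : Set E} {Λ : Set V} (hΩ : IsOpen Ω) (hΛ : IsOpen Λ)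
    {f : E → V} {g : V → E} (hfm : MapsTo f Ω Λ) (hgm : MapsTo g Λ Ω) (hgf : ∀ x ∈ Ω, g (f x) = x)
    (hfg : ∀ y ∈ Λ, f (g y) = y) (hfc : ContinuousOn f Ω) (hgc : ContinuousOn g Λ)
    {μ : Measure E} [SigmaFinite μ]
    (hN : ∀ N : Set E, μ N = 0 → (volume : Measure V) (f '' (N ∩ Ω)) = 0)
    {B : ℕ → Set E} (hB : ∀ m, NullMeasurableSet (B m) μ) (hBa : Antitone B) (hB0 : μ (⋂ m, B m) = 0)
    {ρ : Measure E} [IsFiniteMeasure ρ] (hρ : ρ ≪ μ) {ε : ℝ≥0∞} (hε : 0 < ε)
    {h₀ : E → ℝ} (hh₀ : ∀ x ∈ Ω, ∃ r : ℝ, 0 < r ∧ ∃ m : ℝ, 0 < m ∧ ∀ y ∈ ball x r, m ≤ h₀ y)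
    {ι : Type*} (Q : ι → Set V) (hQc : ∀ i, IsCompact (Q i)) (hQΛ : ∀ i, Q i ⊆ Λ)
    (hlf : ∀ K : Set V, IsCompact K → K ⊆ Λ → {i | (Q i ∩ K).Nonempty}.Finite)
    {η : ι → ℝ≥0∞} (hη : ∀ i, 0 < η i) :
    ∃ δ : E → ℝ, Scale Ω δ ∧ (∀ x ∈ Ω, δ x ≤ h₀ x) ∧ ρ (Bad Ω B δ) < ε ∧
      ∀ i, volume (f '' (Bad Ω B δ) ∩ Q i) < η i := by
  classical
  obtain ⟨ν, hνμ, hνle, hνK⟩ := exists_image_measure hΩ hΛ hfm hgm hgf hfg hfc hgc hN
  set K : ι → Set E := fun k => g '' Q k with hK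
  have hKc : ∀ k, IsCompact (K k) := fun k => (hQc k).image_of_continuousOn (hgc.mono (hQΛ k))
  have hKΩ : ∀ k, K k ⊆ Ω := by
    rintro k _ ⟨y, hy, rfl⟩
    exact hgm (hQΛ k hy)
  have hmemK : ∀ k, ∀ x ∈ Ω, (x ∈ K k ↔ f x ∈ Q k) := by
    intro k x hx
    constructor
    · rintro ⟨y, hy, rfl⟩
      rwa [hfg y (hQΛ k hy)]
    · intro h
      exact ⟨f x, h, hgf x hx⟩
  have hlim : ∀ (σ : Measure E), σ ≪ μ → σ univ ≠ ∞ → Tendsto (fun m => σ (B m)) atTop (𝓝 0) := by
    intro σ hσ hσf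
    have h1 := tendsto_measure_iInter_atTop (μ := σ) (s := B) (fun m => (hB m).mono_ac hσ) hBa
      ⟨0, ((measure_mono (subset_univ _)).trans_lt (lt_top_iff_ne_top.2 hσf)).ne⟩
    rwa [hσ hB0] at h1
  have hmk : ∀ k, ∃ m : ℕ, ν (B m ∩ K k) < η k := by
    intro k
    have h1 := hlim (ν.restrict (K k)) (Measure.absolutelyContinuous_of_le Measure.restrict_le_self |>.trans hνμ)
      (by rw [Measure.restrict_apply_univ]; exact hνK _ (hKc k) (hKΩ k))
    obtain ⟨m, hm⟩ := (h1.eventually (gt_mem_nhds (hη k))).exists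
    refine ⟨m, ?_⟩
    rwa [Measure.restrict_apply' (hKc k).measurableSet] at hm
  choose m hm using hmk
  obtain ⟨M, hM⟩ : ∃ M : ℕ, ρ (B M) < ε :=
    ((hlim ρ hρ (measure_ne_top _ _)).eventually (gt_mem_nhds hε)).exists
  -- the scale
  set h : E → ℝ := fun y => min (min (h₀ y) (1 / ((M : ℝ) + 1)))
    (⨅ k : Option ι, (match k with | none => 1 | some k => if y ∈ K k then 1 / ((m k : ℝ) + 1) else 1)) with hh
  have hbdd : ∀ y, BddBelow (range fun k : Option ι =>
      (match k with | none => 1 | some k => if y ∈ K k then 1 / ((m k : ℝ) + 1) else 1 : ℝ)) := by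
    intro y
    refine ⟨0, ?_⟩
    rintro _ ⟨k, rfl⟩
    rcases k with _ | k
    · simp
    · simp only
      split_ifs <;> positivity
  have hfinK : ∀ N : Set E, IsCompact N → N ⊆ Ω → {k | (K k ∩ N).Nonempty}.Finite := by
    intro N hN hNΩ
    refine (hlf (f '' N) (hN.image_of_continuousOn (hfc.mono hNΩ)) ?_).subset ?_
    · rintro _ ⟨x, hx, rfl⟩; exact hfm (hNΩ hx)
    · rintro k ⟨x, hxK, hxN⟩
      exact ⟨f x, (hmemK k x (hNΩ hxN)).1 hxK, mem_image_of_mem f hxN⟩
  obtain ⟨δ, hδ, hδh⟩ := exists_scale hΩ (h := h) (by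
    intro x hx
    obtain ⟨r₀, hr₀, m₀, hm₀, hm₀b⟩ := hh₀ x hx
    obtain ⟨r₁, hr₁, hr₁Ω⟩ := Metric.nhds_basis_closedBall.mem_iff.1 (hΩ.mem_nhds hx)
    have hfin := hfinK (closedBall x r₁) (isCompact_closedBall _ _) hr₁Ω
    set c : ℝ := (insert M (hfin.toFinset.image m)).inf' (Finset.insert_nonempty _ _)
      (fun n : ℕ => 1 / ((n : ℝ) + 1)) with hc
    have hcpos : 0 < c := by
      rw [hc, Finset.lt_inf'_iff]
      intro n _
      positivity
    have hcM : c ≤ 1 / ((M : ℝ) + 1) := Finset.inf'_le _ (Finset.mem_insert_self _ _)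
    have hc1 : c ≤ 1 := by
      refine hcM.trans ?_
      rw [div_le_one (by positivity)]
      have : (0 : ℝ) ≤ M := Nat.cast_nonneg _
      linarith
    refine ⟨min r₀ r₁, lt_min hr₀ hr₁, min m₀ c, lt_min hm₀ hcpos, fun y hy => ?_⟩
    have hy₀ : y ∈ ball x r₀ := ball_subset_ball (min_le_left _ _) hy
    have hy₁ : y ∈ closedBall x r₁ := ball_subset_closedBall (ball_subset_ball (min_le_right _ _) hy)
    refine le_min (le_min ((min_le_left _ _).trans (hm₀b y hy₀)) ((min_le_right _ _).trans hcM)) ?_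
    refine (min_le_right _ _).trans (le_ciInf fun k => ?_)
    rcases k with _ | k
    · exact hc1
    · simp only
      split_ifs with hk
      · refine Finset.inf'_le _ (Finset.mem_insert_of_mem (Finset.mem_image_of_mem _ ?_))
        exact hfin.mem_toFinset.2 ⟨y, hk, hy₁⟩
      · exact hc1)
  have hδK : ∀ k, ∀ x ∈ Ω, x ∈ K k → δ x ≤ 1 / ((m k : ℝ) + 1) := by
    intro k x hx hxK
    refine (hδh x hx).trans ((min_le_right _ _).trans ?_)
    refine (ciInf_le (hbdd x) (some k)).trans ?_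
    simp only
    rw [if_pos hxK]
  have hδM : ∀ x ∈ Ω, δ x ≤ 1 / ((M : ℝ) + 1) := fun x hx =>
    (hδh x hx).trans ((min_le_left _ _).trans (min_le_right _ _))
  have hbadK : ∀ k, Bad Ω B δ ∩ K k ⊆ B (m k) ∩ K k := fun k x hx =>
    ⟨hx.1.2 (m k) (hδK k x hx.1.1 hx.2), hx.2⟩
  have hbadM : Bad Ω B δ ⊆ B M := fun x hx => hx.2 M (hδM x hx.1)
  refine ⟨δ, hδ, fun x hx => (hδh x hx).trans ((min_le_left _ _).trans (min_le_left _ _)),
    (measure_mono hbadM).trans_lt hM, fun k => ?_⟩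
  refine lt_of_le_of_lt ?_ (hm k)
  refine le_trans (measure_mono ?_) (hνle (B (m k) ∩ K k))
  rintro _ ⟨⟨x, hx, rfl⟩, hxk⟩
  have hxK : x ∈ K k := (hmemK k x hx.1).2 hxk
  exact ⟨x, ⟨hbadK k ⟨hx, hxK⟩, hx.1⟩, rfl⟩

/-- a locally finite family of balls of the size of a given scale. -/
theorem exists_balls {L : Set V} {w : V → ℝ} (hw : Scale L w) :
    ∃ S : Set V, S ⊆ L ∧ S.Countable ∧ (∀ z ∈ L, ∃ x ∈ S, ‖z - x‖ ≤ w z) ∧
      (∀ x ∈ S, closedBall x (3 * w x) ⊆ L) ∧
      ∀ K : Set V, IsCompact K → K ⊆ L → {x : V | x ∈ S ∧ (closedBall x (3 * w x) ∩ K).Nonempty}.Finite := by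
  have : ProperSpace V := FiniteDimensional.proper_real V
  obtain ⟨S, hSL, hSc, hSnet, hSfin⟩ := exists_net' hw
  refine ⟨S, hSL, hSc, hSnet, ?_, ?_⟩
  · intro x hx y hy
    apply hw.mem (hSL hx)
    rw [mem_closedBall, dist_eq_norm] at hy
    have := hw.pos x (hSL hx)
    linarith
  intro K hK hKL
  set K' : Set V := (fun q : V × V => q.1 + (24 / 5 * w q.1) • q.2) '' (K ×ˢ closedBall 0 1) with hK'
  have hK'c : IsCompact K' := by
    apply (hK.prod (isCompact_closedBall 0 1)).image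
    have := hw.cont
    fun_prop
  have hK'L : K' ⊆ L := by
    rintro _ ⟨⟨x, u⟩, ⟨hx, hu⟩, rfl⟩
    apply hw.mem (hKL hx)
    have h1 : ‖u‖ ≤ 1 := by simpa using hu
    have h2 := hw.pos x (hKL hx)
    simp only [add_sub_cancel_left]
    rw [norm_smul, Real.norm_of_nonneg (by positivity)]
    nlinarith
  have hSK' : (S ∩ K').Finite := by
    obtain ⟨t, htK, htf⟩ := hK'c.elim_nhds_subcover (fun x => closedBall x (w x))
      (fun x hx => closedBall_mem_nhds x (hw.pos x (hK'L hx)))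
    have : S ∩ K' ⊆ ⋃ x ∈ t, (S ∩ closedBall x (w x)) := by
      rintro x ⟨hxS, hxK⟩
      obtain ⟨y, hy⟩ := mem_iUnion.1 (htf hxK)
      obtain ⟨hyt, hxy⟩ := mem_iUnion.1 hy
      exact mem_iUnion.2 ⟨y, mem_iUnion.2 ⟨hyt, hxS, hxy⟩⟩
    exact (t.finite_toSet.biUnion fun x hx => hSfin x (hK'L (htK x hx))).subset this
  refine hSK'.subset ?_
  rintro x ⟨hxS, y, hyx, hyK⟩
  refine ⟨hxS, ⟨(y, (24 / 5 * w y)⁻¹ • (x - y)), ⟨hyK, ?_⟩, ?_⟩⟩
  · have h2 := hw.pos y (hKL hyK)
    have h3 := hw.lip x y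
    rw [mem_closedBall, dist_eq_norm, norm_sub_rev] at hyx
    rw [mem_closedBall, dist_zero_right, norm_smul, norm_inv, Real.norm_of_nonneg (by positivity),
      inv_mul_le_iff₀ (by positivity)]
    linarith
  · have h2 := hw.pos y (hKL hyK)
    simp only
    rw [smul_smul, mul_inv_cancel₀ (by positivity), one_smul, add_sub_cancel]

/-- density form of the smallness in the balls of a family. -/
theorem density_of_balls [Nontrivial V] {L : Set V} {w : V → ℝ} (hw : Scale L w) {S : Set V}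
    (hSL : S ⊆ L) (hSnet : ∀ z ∈ L, ∃ x ∈ S, ‖z - x‖ ≤ w z) {η : ℝ} (hη : 0 < η) {A : Set V}
    (hA : ∀ x ∈ S, volume (A ∩ closedBall x (3 * w x)) ≤
      ENNReal.ofReal (η * (volume : Measure V).real (ball x (w x / 2)))) :
    ∀ y ∈ L, (volume : Measure V).real (A ∩ ball y (w y)) ≤
      η * (volume : Measure V).real (ball y (w y)) := by
  intro y hy
  obtain ⟨x, hxS, hxy⟩ := hSnet y hy
  have hwx := hw.pos x (hSL hxS)
  have hwy := hw.pos y hy
  have h1 := hw.lip x y
  have h2 := hw.lip y x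
  rw [norm_sub_rev] at h1
  have h3 : A ∩ ball y (w y) ⊆ A ∩ closedBall x (3 * w x) := by
    apply inter_subset_inter_right
    intro z hz
    rw [mem_ball, dist_eq_norm] at hz
    rw [mem_closedBall, dist_eq_norm]
    have := norm_add_le (z - y) (y - x)
    rw [sub_add_sub_cancel] at this
    linarith
  have h4 : (volume : Measure V).real (A ∩ ball y (w y)) ≤
      η * (volume : Measure V).real (ball x (w x / 2)) := by
    rw [Measure.real]
    refine ENNReal.toReal_le_of_le_ofReal (by positivity) ((measure_mono h3).trans (hA x hxS))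
  refine h4.trans ?_
  have h5 : (volume : Measure V).real (ball x (w x / 2)) ≤ (volume : Measure V).real (ball y (w y)) := by
    have e1 : (volume : Measure V).real (ball x (w x / 2)) = (volume : Measure V).real (ball y (w x / 2)) := by
      rw [Measure.real, Measure.real, Measure.addHaar_ball_center, Measure.addHaar_ball_center volume y]
    rw [e1]
    apply measureReal_mono (ball_subset_ball (by linarith)) measure_ball_lt_top.ne
  gcongr

end Crest.Agent.R096.Sel_766
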