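import Crest.Agent.R096.St1_147

/-!
# R096 / SEQ, part 1: "no closed double curve" only depends on the faces that touch `Act`

Two states which agree on all faces with a side in `Act` have the same double arcs there.
-/

set_option autoImplicit false

namespace Crest.Agent.R096.Seq_213
open Crest.Agent.R096.St_147

variable {ι Φ W I : Type} {M : MeshC ι Φ W} {col : I → Bool}

/-- the face `F` has a side in `Act` -/
def Tch (M : MeshC ι Φ W) (Act : Set ι) (F : Φ) : Prop := ∃ q ∈ M.side F, q ∈ Act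

/-- the two states have the same points, names and partners on every face touching `Act` -/
def Agr (s t : St M col) (Act : Set ι) : Prop :=
  ∀ F, Tch M Act F → ∀ w, (s.At F w ↔ t.At F w) ∧ (s.At F w → s.mu F w = t.mu F w ∧ s.lab w = t.lab w)

/-- no closed double curve in `Act`, whatever arcs are chosen -/
def NoClosed (s : St M col) (Act : Set ι) : Prop :=
  ∀ (A : s.Arcs Act) (G : Set s.Dbl), A.Closed G → G = ∅

theorem Agr.symm {s t : St M col} {Act : Set ι} (h : Agr s t Act) : Agr t s Act := by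
  intro F hF w
  obtain ⟨h1, h2⟩ := h F hF w
  refine ⟨h1.symm, fun ht => ?_⟩
  obtain ⟨h3, h4⟩ := h2 (h1.2 ht)
  exact ⟨h3.symm, h4.symm⟩

theorem Dbl.ext' {s : St M col} {z z' : s.Dbl} (h1 : z.F = z'.F) (h2 : z.e = z'.e) : z = z' := by
  cases z; cases z'
  cases h1; cases h2
  rfl

namespace Agr

variable {s t : St M col} {Act : Set ι}

/-- transport of a double point -/
def T (h : Agr s t Act) (z : s.Dbl) (hz : Tch M Act z.F) : t.Dbl where
  F := z.F
  e := z.e
  at_ := fun x => ((h _ hz _).1).1 (z.at_ x)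
  low := fun x => by rw [← ((h _ hz _).2 (z.at_ x)).1]; exact z.low x
  colr := fun x => by rw [← ((h _ hz _).2 (z.at_ x)).2]; exact z.colr x
  lace := by
    rw [← ((h _ hz _).2 (z.at_ true)).1, ← ((h _ hz _).2 (z.at_ false)).1]; exact z.lace

theorem T_F (h : Agr s t Act) (z : s.Dbl) (hz : Tch M Act z.F) : (h.T z hz).F = z.F := rfl

theorem T_e (h : Agr s t Act) (z : s.Dbl) (hz : Tch M Act z.F) : (h.T z hz).e = z.e := rfl

theorem T_T (h : Agr s t Act) (z : s.Dbl) (hz : Tch M Act z.F) :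
    h.symm.T (h.T z hz) hz = z := Dbl.ext' rfl rfl

theorem T_inj (h : Agr s t Act) {z z' : s.Dbl} (hz : Tch M Act z.F) (hz' : Tch M Act z'.F)
    (he : h.T z hz = h.T z' hz') : z = z' := by
  have h1 : (h.T z hz).F = (h.T z' hz').F := by rw [he]
  have h2 : (h.T z hz).e = (h.T z' hz').e := by rw [he]
  exact Dbl.ext' h1 h2

theorem T_key (h : Agr s t Act) (z : s.Dbl) (hz : Tch M Act z.F) (x : Bool) :
    (h.T z hz).key x = z.key x := by
  unfold St.Dbl.key
  simp only [T_F, T_e]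
  rw [((h _ hz _).2 (z.at_ x)).1, ((h _ hz _).2 (z.at_ (!x))).1]
  congr

open Classical in
/-- pull back of a function on sub-chords -/
noncomputable def pull (h : Agr s t Act) (x : Bool) (φ : t.Sub x → ZMod 2) : s.Sub x → ZMod 2 :=
  fun p => match p with
  | .inl a => if hF : Tch M Act a.1.1 then φ (Sum.inl ⟨a.1, ((h _ hF _).1).1 a.2.1,
      by rw [← ((h _ hF _).2 a.2.1).1]; exact a.2.2.1,
      by rw [← ((h _ hF _).2 a.2.1).2]; exact a.2.2.2⟩) else 0
  | .inr z => if hF : Tch M Act z.F then φ (Sum.inr (h.T z hF)) else 0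

theorem pull_inr (h : Agr s t Act) (x : Bool) (φ : t.Sub x → ZMod 2) (z : s.Dbl)
    (hz : Tch M Act z.F) : h.pull x φ (Sum.inr z) = φ (Sum.inr (h.T z hz)) := by
  simp only [pull, dif_pos hz]

theorem pull_inl (h : Agr s t Act) (x : Bool) (φ : t.Sub x → ZMod 2)
    (a : {p : Φ × W // s.At p.1 p.2 ∧ M.pos p.1 p.2 < M.pos p.1 (s.mu p.1 p.2) ∧
      col (s.lab p.2) = x}) (ha : Tch M Act a.1.1) :
    h.pull x φ (Sum.inl a) = φ (Sum.inl ⟨a.1, ((h _ ha _).1).1 a.2.1,
      by rw [← ((h _ ha _).2 a.2.1).1]; exact a.2.2.1,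
      by rw [← ((h _ ha _).2 a.2.1).2]; exact a.2.2.2⟩) := by
  simp only [pull, dif_pos ha]

/-- the piece below a double point is transported -/
theorem pull_below (h : Agr s t Act) (x : Bool) (φ : t.Sub x → ZMod 2) {p : s.Sub x} {u : s.Dbl}
    (hu : Tch M Act u.F) (hp : p.Below u) :
    ∃ p' : t.Sub x, p'.Below (h.T u hu) ∧ h.pull x φ p = φ p' := by
  cases p with
  | inl a =>
    obtain ⟨h1, h2, h3⟩ := hp
    have ha : Tch M Act a.1.1 := by rw [h1]; exact hu
    refine ⟨_, ?_, h.pull_inl x φ a ha⟩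
    refine ⟨h1, h2, ?_⟩
    intro v hv hv2
    have hv' : Tch M Act v.F := by rw [hv]; exact hu
    have := h3 (h.symm.T v hv') hv hv2
    rwa [T_key, ← h.T_key u hu] at this
  | inr y =>
    obtain ⟨h1, h2, h3, h4⟩ := hp
    have hy : Tch M Act y.F := by rw [← h1]; exact hu
    refine ⟨_, ?_, h.pull_inr x φ y hy⟩
    refine ⟨h1, h2, ?_, ?_⟩
    · rw [T_key, T_key]; exact h3
    · intro v hv hv2
      have hv' : Tch M Act v.F := by rw [hv]; exact hy
      have := h4 (h.symm.T v hv') hv hv2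
      rwa [T_key, ← h.T_key u hu, ← h.T_key y hy] at this

/-- the end pieces are transported -/
theorem pull_end (h : Agr s t Act) (x : Bool) (φ : t.Sub x → ZMod 2) {p : s.Sub x} {F : Φ} {w : W}
    (hF : Tch M Act F) (hp : p.End F w) :
    ∃ p' : t.Sub x, p'.End F w ∧ h.pull x φ p = φ p' := by
  obtain ⟨hat, hp⟩ := hp
  have hmu := ((h F hF w).2 hat).1
  have hat' := ((h F hF w).1).1 hat
  rcases hp with ⟨h1, a, rfl, ha⟩ | ⟨h1, hp⟩
  · have haF : a.1.1 = F := by rw [ha]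
    refine ⟨_, ?_, h.pull_inl x φ a (by rw [haF]; exact hF)⟩
    refine ⟨hat', Or.inl ⟨by rw [← hmu]; exact h1, _, rfl, ha⟩⟩
  · cases p with
    | inl a =>
      obtain ⟨h2, h3⟩ := hp
      have haF : a.1.1 = F := by rw [h2]
      refine ⟨_, ?_, h.pull_inl x φ a (by rw [haF]; exact hF)⟩
      refine ⟨hat', Or.inr ⟨by rw [← hmu]; exact h1, ?_⟩⟩
      refine ⟨by rw [← hmu]; exact h2, ?_⟩
      intro v hv
      have hv' : Tch M Act v.F := by rw [hv]; exact hF
      rw [← hmu]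
      exact h3 (h.symm.T v hv') hv
    | inr y =>
      obtain ⟨h2, h3, h4⟩ := hp
      have hy : Tch M Act y.F := by rw [h2]; exact hF
      refine ⟨_, ?_, h.pull_inr x φ y hy⟩
      refine ⟨hat', Or.inr ⟨by rw [← hmu]; exact h1, ?_⟩⟩
      refine ⟨h2, by rw [← hmu]; exact h3, ?_⟩
      intro v hv hv2
      have hv' : Tch M Act v.F := by rw [hv]; exact hF
      have := h4 (h.symm.T v hv') hv (by rw [hmu]; exact hv2)
      rwa [T_key, ← h.T_key y hy] at this

open Classical in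
/-- the transported arc map -/
noncomputable def arcF (h : Agr s t Act) (A : t.Arcs Act) (q : ι) (z : s.Dbl) : s.Dbl :=
  if hq : q ∈ Act ∧ q ∈ M.side z.F then
      h.symm.T (A.arc q (h.T z ⟨q, hq.2, hq.1⟩))
        ⟨q, A.mem (z := h.T z ⟨q, hq.2, hq.1⟩) hq.1 hq.2, hq.1⟩ else z

theorem arcF_pos (h : Agr s t Act) (A : t.Arcs Act) {q : ι} {z : s.Dbl} (h1 : q ∈ Act)
    (h2 : q ∈ M.side z.F) : h.arcF A q z =
      h.symm.T (A.arc q (h.T z ⟨q, h2, h1⟩))
        ⟨q, A.mem (z := h.T z ⟨q, h2, h1⟩) h1 h2, h1⟩ := by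
  simp only [arcF]
  rw [dif_pos ⟨h1, h2⟩]

theorem arcF_mem (h : Agr s t Act) (A : t.Arcs Act) {q : ι} {z : s.Dbl} (h1 : q ∈ Act)
    (h2 : q ∈ M.side z.F) : q ∈ M.side (h.arcF A q z).F := by
  rw [arcF_pos h A h1 h2]
  exact A.mem (z := h.T z ⟨q, h2, h1⟩) h1 h2

theorem T_arcF (h : Agr s t Act) (A : t.Arcs Act) {q : ι} {z : s.Dbl} (h1 : q ∈ Act)
    (h2 : q ∈ M.side z.F) (hm : Tch M Act (h.arcF A q z).F) :
    h.T (h.arcF A q z) hm = A.arc q (h.T z ⟨q, h2, h1⟩) := by
  apply Dbl.ext'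
  · show (h.arcF A q z).F = _
    rw [arcF_pos h A h1 h2]; rfl
  · show (h.arcF A q z).e = _
    rw [arcF_pos h A h1 h2]; rfl

/-- transport of a choice of arcs -/
noncomputable def arcs (h : Agr s t Act) (A : t.Arcs Act) : s.Arcs Act where
  arc := h.arcF A
  mem := by
    intro q z h1 h2
    exact arcF_mem h A h1 h2
  ne := by
    intro q z h1 h2 he
    have hz : Tch M Act z.F := ⟨q, h2, h1⟩
    apply A.ne (z := h.T z hz) h1 h2
    have hm : Tch M Act (h.arcF A q z).F := ⟨q, arcF_mem h A h1 h2, h1⟩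
    rw [← h.T_arcF A h1 h2 hm]
    exact Dbl.ext' (by show (h.arcF A q z).F = z.F; rw [he])
      (by show (h.arcF A q z).e = z.e; rw [he])
  inv := by
    intro q z h1 h2
    have hz : Tch M Act z.F := ⟨q, h2, h1⟩
    have hm : Tch M Act (h.arcF A q z).F := ⟨q, arcF_mem h A h1 h2, h1⟩
    have hm2 : Tch M Act (h.arcF A q (h.arcF A q z)).F :=
      ⟨q, arcF_mem h A h1 (arcF_mem h A h1 h2), h1⟩
    apply h.T_inj hm2 hz
    rw [h.T_arcF A h1 (arcF_mem h A h1 h2) hm2, h.T_arcF A h1 h2 hm]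
    exact A.inv (z := h.T z hz) h1 h2
  side := by
    intro q z x h1 h2
    have hz : Tch M Act z.F := ⟨q, h2, h1⟩
    have hm : Tch M Act (h.arcF A q z).F := ⟨q, arcF_mem h A h1 h2, h1⟩
    obtain ⟨φ, a1, a2, a3⟩ := A.side (z := h.T z hz) x h1 h2
    refine ⟨h.pull x φ, ?_, ?_, ?_⟩
    · intro F F' w p p' b1 b2 b3 b4
      obtain ⟨p2, c1, c2⟩ := h.pull_end x φ ⟨q, b1, h1⟩ b3
      obtain ⟨p3, d1, d2⟩ := h.pull_end x φ ⟨q, b2, h1⟩ b4
      rw [c2, d2]
      exact a1 F F' w p2 p3 b1 b2 c1 d1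
    · intro u p p' b1 b2 b3
      have hu : Tch M Act u.F := ⟨q, b1, h1⟩
      obtain ⟨p2, c1, c2⟩ := h.pull_below x φ hu b2
      have c3 : p' = Sum.inr u := b3
      rw [c2, c3, h.pull_inr x φ u hu, a2 (h.T u hu) p2 (Sum.inr (h.T u hu)) b1 c1 rfl,
        ← h.T_arcF A h1 h2 hm]
      constructor
      · rintro (e | e)
        · left; exact h.T_inj hu hz e
        · right; exact h.T_inj hu hm e
      · rintro (e | e)
        · left; subst e; rfl
        · right
          exact Dbl.ext' (by show u.F = (h.arcF A q z).F; rw [e])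
            (by show u.e = (h.arcF A q z).e; rw [e])
    · intro u b1 b2 b3
      have hu : Tch M Act u.F := ⟨q, b1, h1⟩
      have hmu : Tch M Act (h.arcF A q u).F := ⟨q, arcF_mem h A h1 b1, h1⟩
      rw [h.pull_inr x φ u hu, h.pull_inr x φ _ hmu, h.T_arcF A h1 b1 hmu]
      apply a3 (h.T u hu) b1
      · intro e; exact b2 (h.T_inj hu hz e)
      · intro e
        apply b3
        rw [← h.T_arcF A h1 h2 hm] at e
        exact h.T_inj hu hm e
  same := by
    intro q z x h1 h2 φ a1 a2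
    have hz : Tch M Act z.F := ⟨q, h2, h1⟩
    have hm : Tch M Act (h.arcF A q z).F := ⟨q, arcF_mem h A h1 h2, h1⟩
    have hmm : Tch M Act (A.arc q (h.T z hz)).F := ⟨q, A.mem (z := h.T z hz) h1 h2, h1⟩
    have key := A.same (z := h.T z hz) x h1 h2 (h.symm.pull x φ) ?_ ?_
    · rw [h.symm.pull_inr x φ (h.T z hz) hz, h.symm.pull_inr x φ _ hmm, T_T] at key
      rw [arcF_pos h A h1 h2]
      exact key
    · intro F F' w p p' b1 b2 b3 b4
      obtain ⟨p2, c1, c2⟩ := h.symm.pull_end x φ ⟨q, b1, h1⟩ b3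
      obtain ⟨p3, d1, d2⟩ := h.symm.pull_end x φ ⟨q, b2, h1⟩ b4
      rw [c2, d2]
      exact a1 F F' w p2 p3 b1 b2 c1 d1
    · intro u p p' b1 b2 b3
      have hu : Tch M Act u.F := ⟨q, b1, h1⟩
      obtain ⟨p2, c1, c2⟩ := h.symm.pull_below x φ hu b2
      have c3 : p' = Sum.inr u := b3
      rw [c2, c3, h.symm.pull_inr x φ u hu]
      exact a2 (h.symm.T u hu) p2 (Sum.inr (h.symm.T u hu)) b1 c1 rfl

/-- **transfer**: closed double curves only see the faces that touch `Act`. -/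
theorem noClosed (h : Agr s t Act) (hs : NoClosed s Act) : NoClosed t Act := by
  intro A G hG
  have hG' := hs (h.arcs A) {z | ∃ hz : Tch M Act z.F, h.T z hz ∈ G} ?_
  · ext z
    simp only [Set.mem_empty_iff_false, iff_false]
    intro hz
    have hs1 : ∃ q, q ∈ M.side z.F := by
      induction hh : M.side z.F using Sym2.ind with
      | _ a b => exact ⟨a, by simp⟩
    obtain ⟨q, hq⟩ := hs1
    have hzt : Tch M Act z.F := ⟨q, hq, (hG z hz q hq).1⟩
    have : h.symm.T z hzt ∈ ({z | ∃ hz : Tch M Act z.F, h.T z hz ∈ G} : Set s.Dbl) := by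
      refine ⟨hzt, ?_⟩
      have e1 : h.T (h.symm.T z hzt) hzt = z := Dbl.ext' rfl rfl
      rw [e1]; exact hz
    rw [hG'] at this
    exact this
  · rintro z ⟨hz, hzG⟩ q hq
    obtain ⟨h1, h2⟩ := hG _ hzG q hq
    refine ⟨h1, ?_⟩
    have hm : Tch M Act (h.arcF A q z).F := ⟨q, arcF_mem h A h1 hq, h1⟩
    refine ⟨hm, ?_⟩
    show h.T (h.arcF A q z) hm ∈ G
    rw [h.T_arcF A h1 hq hm]
    exact h2

end Agr

end Crest.Agent.R096.Seq_213
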