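import Crest.Agent.R096.Bxn5_627
import Crest.Agent.R096.Dic6_582
import Crest.Agent.R096.Hok1_358
import Crest.Agent.R96.PnU4_849

/-!
Row 96 (S0127), helper849.  NO0, `p ≥ 3`: `sg_brick` (899 #11228 (*)): the map `S ∘ Γ⁻¹` near the centre of
every brick of the log foam (near bricks: cut-off one; transition: frozen cut-off; outside: `S = id`).
-/

set_option autoImplicit false
set_option linter.unusedSectionVars false
set_option linter.style.longLine false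
set_option linter.unusedVariables false

open MeasureTheory Set Filter Topology Metric
open scoped NNReal

namespace Crest.Agent.R096.Sgb_849

open Crest.Agent.R096.Bsp_628 Crest.Agent.R096.Bxs_627
open Crest.Agent.R96.Push_899 Crest.Agent.R96.PnU_849
open Crest.Agent.R96.En10_199 (P3)
open Crest.Agent.R096.SkC1_961 (E3)
open Crest.Agent.R096.Dic6_582 (dF kF one_le_kF Fr)

noncomputable section

theorem dgf_eq_Gm (k : Fin 3) (g : ℝ) (y : EE (Fin 3)) : dgf k g y = Gm k g y := by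
  ext i
  by_cases hi : i = k
  · subst hi; rw [dgf_k, Gm_k]
  · rw [dgf_ne _ _ hi, Gm_ne _ hi]

theorem msl_U (a0 : ℝ) (m : ℕ) : msl (ws m) (εU a0 m) = GU a0 m := by
  unfold msl GU
  rw [div_eq_mul_one_div]

theorem NearS.mono_r {k : Fin 3} {S : EE (Fin 3) → EE (Fin 3)} {χ : EE (Fin 3) → ℝ} {G : ℝ}
    {q : EE (Fin 3)} {r r' ρ : ℝ} (h : NearS k S χ G q r ρ) (hr : r' ≤ r) :
    NearS k S χ G q r' ρ :=
  ⟨h.ne, h.mono, fun y h1 h2 => h.eq y (fun i hi => (h1 i hi).trans hr) h2⟩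

/-- points with positive cut-off are near `K₀` -/
theorem mem_cth_of_cutf {K₀ : Set (EE (Fin 3))} {r : ℝ} (hr : 0 < r) (hne : K₀.Nonempty)
    {y : EE (Fin 3)} (h : cutf K₀ r y ≠ 0) : y ∈ Metric.cthickening (2 * r) K₀ := by
  by_contra hcon
  apply h
  apply cutf_eq_zero hr
  rw [Metric.mem_cthickening_iff, ENNReal.le_ofReal_iff_toReal_le
    (Metric.infEDist_ne_top hne) (by positivity)] at hcon
  exact (not_le.1 hcon).le

theorem ctr_co (Q : Bx (Fin 3)) (i : Fin 3) : (P3 (ctr Q) : EE (Fin 3)) i = (Q.lo i + Q.hi i) / 2 :=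
  rfl

/-- **the stretch at a brick** (one box) -/
theorem nearS_box {Q : Bx (Fin 3)} (hQ : Q.Pos) {R s r a0 : ℝ} {m : ℕ} {K₀ : Set (EE (Fin 3))}
    {a : Fin 3 → ℝ} (ha0 : 1 ≤ a0) (hm : 0 < m) (hr : 0 < r) (hne : K₀.Nonempty)
    (hP : StP (cutf K₀ r) s (ws m) (εU a0 m) (1 / r)) (hR0 : 0 < R)
    (hR : ∀ i, 8 * R ≤ Q.side i) (hRs : R ≤ s / 8) (hG : GU a0 m * s ≤ r)
    (hU : (∃ y : EE (Fin 3), co y ∈ Q.set ∧ y ∈ Metric.cthickening (2 * r) K₀) →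
      Uni 2 a s (toBox Q hQ)) :
    ∃ ρ : ℝ, 0 < ρ ∧ R < GU a0 m * ρ ∧ GU a0 m * (1 / r) * (ρ + R) ≤ 1 / 2 ∧
      NearS 2 (St 2 (cutf K₀ r) (a 2) s (ws m) (εU a0 m)) (cutf K₀ r) (GU a0 m) (P3 (ctr Q)) R ρ := by
  have hs := hP.hs
  have hG1 := GU_ge ha0 hm
  have hw := ws_pos hm
  have hw8 := ws_le hm
  have key : ∀ x : ℝ, 0 ≤ x → x ≤ s / 2 → GU a0 m * (1 / r) * x ≤ 1 / 2 := by
    intro x hx0 hx
    rw [mul_one_div, div_mul_eq_mul_div, div_le_iff₀ hr]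
    have : GU a0 m * x ≤ GU a0 m * (s / 2) := mul_le_mul_of_nonneg_left hx (by linarith)
    linarith
  by_cases hcase : ∃ y : EE (Fin 3), co y ∈ Q.set ∧ y ∈ Metric.cthickening (2 * r) K₀
  · -- a brick aligned with the slabs
    obtain ⟨n, hn⟩ := uni_mid (hU hcase)
    refine ⟨ws m * s, by positivity, ?_, key _ (by positivity) ?_, ?_⟩
    · have := GU_ws ha0 hm
      have h2 : 0.49 * s ≤ GU a0 m * ws m * s := mul_le_mul_of_nonneg_right this hs.le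
      nlinarith
    · have : ws m * s ≤ 1 / 8 * s := mul_le_mul_of_nonneg_right hw8 hs.le
      linarith
    · rw [← msl_U]
      refine nearS_uni hP (by linarith) (N := n) ?_ R
      rw [ctr_co]
      exact hn
  · -- off the support of the cut-off
    refine ⟨2 * R, by positivity, ?_, key _ (by positivity) (by linarith), ?_⟩
    · nlinarith
    · refine nearS_off hP (GU a0 m) fun y h1 h2 => ?_
      by_contra hcon
      apply hcase
      refine ⟨y, ?_, mem_cth_of_cutf hr hne hcon⟩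
      rw [Bx.mem_set]
      intro i
      have h3 : |y i - (Q.lo i + Q.hi i) / 2| ≤ 2 * R := by
        by_cases hi : i = 2
        · subst hi; exact h2
        · exact (h1 i hi).trans (by linarith)
      have h4 := hR i
      have h5 : Q.side i = Q.hi i - Q.lo i := rfl
      rw [abs_le] at h3
      change Q.lo i ≤ y i ∧ y i ≤ Q.hi i
      constructor <;> linarith [h3.1, h3.2]

/-- **`sg_brick` for one box**, `P = Γ q`, `q` = the centre -/
theorem sg_box {Q : Bx (Fin 3)} (hQ : Q.Pos) {R s r a0 : ℝ} {m : ℕ} {K₀ : Set (EE (Fin 3))}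
    {a : Fin 3 → ℝ} (ha0 : 1 ≤ a0) (hm : 0 < m) (hr : 0 < r) (hne : K₀.Nonempty)
    (hP : StP (cutf K₀ r) s (ws m) (εU a0 m) (1 / r)) (hR0 : 0 < R)
    (hR : ∀ i, 8 * R ≤ Q.side i) (hRs : R ≤ s / 8) (hG : GU a0 m * s ≤ r)
    (hU : (∃ y : EE (Fin 3), co y ∈ Q.set ∧ y ∈ Metric.cthickening (2 * r) K₀) →
      Uni 2 a s (toBox Q hQ)) (hd : 3 * Q.sz + s ≤ r) :
    ∃ g : ℝ, g = (1 + cutf K₀ r (P3 (ctr Q)) * (GU a0 m - 1)) / GU a0 m ∧
      1 / GU a0 m ≤ g ∧ g ≤ 1 ∧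
      ((∃ y ∈ SE (toBox Q hQ), ∃ y₀ ∈ K₀, ‖y - y₀‖ ≤ s) → g = 1) ∧
      ∀ rr : ℝ, 0 < rr → rr ≤ R → ∀ t : ℝ, 0 ≤ t → 2 * t ≤ g * rr →
      (∀ y, ‖y - Gm 2 (GU a0 m) (P3 (ctr Q))‖ ≤ rr →
        ‖St 2 (cutf K₀ r) (a 2) s (ws m) (εU a0 m) (Gm 2 (GU a0 m)⁻¹ y) -
          (P3 (ctr Q) + Gm 2 g (y - Gm 2 (GU a0 m) (P3 (ctr Q))))‖ ≤ 1 / r * rr * rr) ∧
      (∀ K : ℝ≥0, 2 * (1 / r) * rr ≤ K →
        LipschitzOnWith K (fun y => St 2 (cutf K₀ r) (a 2) s (ws m) (εU a0 m)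
          (Gm 2 (GU a0 m)⁻¹ y) - Gm 2 g y) (closedBall (Gm 2 (GU a0 m) (P3 (ctr Q))) rr)) ∧
      (∀ y, ‖(P3 (ctr Q) + Gm 2 g (y - Gm 2 (GU a0 m) (P3 (ctr Q)))) - P3 (ctr Q)‖ ≤ t →
        ‖y - Gm 2 (GU a0 m) (P3 (ctr Q))‖ ≤ rr / 2) ∧
      (∀ y, ‖St 2 (cutf K₀ r) (a 2) s (ws m) (εU a0 m) (Gm 2 (GU a0 m)⁻¹ y) - P3 (ctr Q)‖ ≤ t →
        ‖y - Gm 2 (GU a0 m) (P3 (ctr Q))‖ ≤ rr) := by
  obtain ⟨ρ, hρ, h1, h2, h3⟩ := nearS_box hQ ha0 hm hr hne hP hR0 hR hRs hG hU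
  have hG1 := GU_ge ha0 hm
  have hGp : 0 < GU a0 m := by linarith
  set G := GU a0 m with hGd
  set q : EE (Fin 3) := P3 (ctr Q) with hq
  set χ := cutf K₀ r with hχ
  have g1 : 1 / G ≤ (1 + χ q * (G - 1)) / G := gF_ge hG1 (cutf_nonneg K₀ r q)
  have g2 : (1 + χ q * (G - 1)) / G ≤ 1 := gF_le hG1 (cutf_le_one K₀ r q)
  have gp : 0 < (1 + χ q * (G - 1)) / G := lt_of_lt_of_le (by positivity) g1
  refine ⟨_, rfl, g1, g2, ?_, ?_⟩
  · rintro ⟨y, hy, y₀, hy₀, hyy⟩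
    have h4 : χ q = 1 := by
      apply cutf_eq_one hr
      have h5 : ‖q - y‖ ≤ 3 * Q.sz := by
        have hyb : co y ∈ Q.set := by
          have := hy
          rwa [mem_SE_toBox] at this
        rw [Bx.mem_set] at hyb
        refine (norm_le_sum_co _).trans ?_
        rw [Fin.sum_univ_three]
        have h6 : ∀ i, |(q - y) i| ≤ Q.sz := by
          intro i
          rw [PiLp.sub_apply, hq, ctr_co]
          have h7 := hyb i
          have h8 : Q.lo i ≤ y i ∧ y i ≤ Q.hi i := h7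
          have h9 := Q.side_le_sz i
          have h10 : Q.side i = Q.hi i - Q.lo i := rfl
          have h11 : 0 < Q.side i := by rw [h10]; linarith [hQ i]
          rw [abs_le]
          constructor <;> linarith [h8.1, h8.2]
        linarith [h6 0, h6 1, h6 2]
      have h6 : Metric.infDist q K₀ ≤ dist q y₀ := Metric.infDist_le_dist_of_mem hy₀
      rw [dist_eq_norm] at h6
      have h7 : ‖q - y₀‖ ≤ ‖q - y‖ + ‖y - y₀‖ := by
        have e : q - y₀ = (q - y) + (y - y₀) := by abel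
        rw [e]; exact norm_add_le _ _
      linarith
    rw [h4, one_mul, add_sub_cancel, div_self hGp.ne']
  · intro rr hrr hrR t ht0 ht
    have h4 := (NearS.mono_r h3 hrR).core (L := 1 / r) hG1 (cutf_nonneg K₀ r)
      (cutf_le_one K₀ r) (fun y y' => cutf_lip hr y y') (by positivity) hrr
      (lt_of_le_of_lt hrR h1) (t := t) ht0 ?_ ?_ gp.ne'
    · obtain ⟨c1, c2, c3, c4⟩ := h4
      simp only [dgA_apply, dgf_eq_Gm] at c1 c2 c3 c4
      refine ⟨?_, ?_, ?_, ?_⟩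
      · intro y hy
        rw [add_comm]
        exact c1 y hy
      · intro K hK
        apply LipschitzOnWith.of_dist_le_mul
        intro y hy y' hy'
        rw [mem_closedBall_iff_norm] at hy hy'
        rw [dist_eq_norm, dist_eq_norm]
        have h5 := c2 y y' hy hy'
        have e : (St 2 χ (a 2) s (ws m) (εU a0 m) (Gm 2 G⁻¹ y) -
            Gm 2 ((1 + χ q * (G - 1)) / G) y) -
            (St 2 χ (a 2) s (ws m) (εU a0 m) (Gm 2 G⁻¹ y') -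
            Gm 2 ((1 + χ q * (G - 1)) / G) y') =
            (St 2 χ (a 2) s (ws m) (εU a0 m) (Gm 2 G⁻¹ y) -
            (Gm 2 ((1 + χ q * (G - 1)) / G) (y - Gm 2 G q) + q)) -
            (St 2 χ (a 2) s (ws m) (εU a0 m) (Gm 2 G⁻¹ y') -
            (Gm 2 ((1 + χ q * (G - 1)) / G) (y' - Gm 2 G q) + q)) := by
          rw [← Gm_sub, ← Gm_sub]; abel
        rw [e]
        exact h5.trans (mul_le_mul_of_nonneg_right hK (norm_nonneg _))
      · intro y hy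
        rw [add_comm] at hy
        exact c3 y hy
      · exact c4
    · have h5 : 2 * t * G ≤ (1 + χ q * (G - 1)) / G * rr * G :=
        mul_le_mul_of_nonneg_right ht hGp.le
      have e : (1 + χ q * (G - 1)) / G * rr * G = (1 + χ q * (G - 1)) * rr := by
        field_simp
      rw [e] at h5
      linarith
    · have h5 : 2 * t ≤ R := by
        refine ht.trans ?_
        calc _ ≤ 1 * rr := mul_le_mul_of_nonneg_right g2 hrr.le
          _ ≤ R := by linarith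
      refine le_trans ?_ h2
      apply mul_le_mul_of_nonneg_left _ (by positivity)
      linarith

/-- **`sg_brick`** (899 #11228) -/
theorem sg_brick {q : ℕ} {Λ K₀ : Set (EE (Fin 3))} {M s r a0 : ℝ} {m : ℕ} {a : Fin 3 → ℝ}
    {F : Set (Bx (Fin 3))} (hF : Fr q Λ (Metric.cthickening (2 * r) K₀) M s a F) (hM : 1 < M)
    (ha0 : 1 ≤ a0) (hm : 0 < m) (hr : 0 < r) (hne : K₀.Nonempty)
    (hP : StP (cutf K₀ r) s (ws m) (εU a0 m) (1 / r))
    (hG : GU a0 m * s ≤ r) (hqs : (6 * q + 1) * s ≤ r) (c : F) :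
    ∃ g : ℝ, g = (1 + cutf K₀ r (P3 (ctr c.1)) * (GU a0 m - 1)) / GU a0 m ∧
      1 / GU a0 m ≤ g ∧ g ≤ 1 ∧ (Nr K₀ s (brk hF.foam c) → g = 1) ∧
      ∀ rr : ℝ, 0 < rr → rr ≤ c.1.sz / (8 * kF q) → ∀ t : ℝ, 0 ≤ t → 2 * t ≤ g * rr →
      (∀ y, ‖y - Gm 2 (GU a0 m) (P3 (ctr c.1))‖ ≤ rr →
        ‖St 2 (cutf K₀ r) (a 2) s (ws m) (εU a0 m) (Gm 2 (GU a0 m)⁻¹ y) -
          (P3 (ctr c.1) + Gm 2 g (y - Gm 2 (GU a0 m) (P3 (ctr c.1))))‖ ≤ 1 / r * rr * rr) ∧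
      (∀ K : ℝ≥0, 2 * (1 / r) * rr ≤ K →
        LipschitzOnWith K (fun y => St 2 (cutf K₀ r) (a 2) s (ws m) (εU a0 m)
          (Gm 2 (GU a0 m)⁻¹ y) - Gm 2 g y) (closedBall (Gm 2 (GU a0 m) (P3 (ctr c.1))) rr)) ∧
      (∀ y, ‖(P3 (ctr c.1) + Gm 2 g (y - Gm 2 (GU a0 m) (P3 (ctr c.1)))) - P3 (ctr c.1)‖ ≤ t →
        ‖y - Gm 2 (GU a0 m) (P3 (ctr c.1))‖ ≤ rr / 2) ∧
      (∀ y, ‖St 2 (cutf K₀ r) (a 2) s (ws m) (εU a0 m) (Gm 2 (GU a0 m)⁻¹ y) - P3 (ctr c.1)‖ ≤ t →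
        ‖y - Gm 2 (GU a0 m) (P3 (ctr c.1))‖ ≤ rr) := by
  have hpos := hF.foam.pos c.1 c.2
  have hsz0 : 0 < c.1.sz := Bx.sz_pos hpos
  have hk1 := one_le_kF q
  have hk0 : 0 < kF q := by linarith
  have hkq : 2 * (q : ℝ) ≤ kF q := le_max_right _ _
  have hsz := hF.size c.1 c.2
  have hs := hP.hs
  refine sg_box hpos ha0 hm hr hne hP (R := c.1.sz / (8 * kF q)) (by positivity) ?_ ?_ hG ?_ ?_
  · intro i
    have h1 := hF.foam.asp _ c.2 i
    rw [show 8 * (c.1.sz / (8 * kF q)) = c.1.sz / kF q by field_simp, div_le_iff₀ hk0]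
    linarith
  · rw [div_le_iff₀ (by positivity)]
    have h1 : 2 * (q : ℝ) * s ≤ kF q * s := mul_le_mul_of_nonneg_right hkq hs.le
    linarith
  · rintro ⟨y, hy, hy2⟩
    refine hF.uni_of_log (hF.isLog hM (c := c) (y := y) ?_ hy2 (by simpa using hs.le))
    exact (mem_SE_brk hF.foam).2 hy
  · nlinarith

end

end Crest.Agent.R096.Sgb_849
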