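import Crest.Agent.R096.Gl1_422

/-!
# R096 (row 96), DOORS (helper298), part 1: the crossing cochain of a sheet

`xc s j' F w` : number mod 2 of the points of the sheet `j'` on `F` between the ends of the chord of
`w`.  Symmetric, `0` without crossing, `1` with exactly one crossing, exact on every cell of a
labelled mesh.
`xcR` : the same on the faces with a side in a region `R`, and `0` elsewhere.
-/

set_option autoImplicit false
set_option linter.unusedSectionVars false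

open Set

namespace Crest.Agent.R096.Sgd_298

open Crest.Agent.R096.St_147 Crest.Agent.R096.Seq_213 Crest.Agent.R096.Seq_213.GSt
  Crest.Agent.R096.Lm_117 Crest.Agent.R096.Ac_117 Crest.Agent.R096.Gl_422

variable {ι Φ W J C Q : Type} {M : MeshC ι Φ W} {fam : J → C}

/-- **the crossing cochain** of the sheet `j'` -/
noncomputable def xc (s : GSt M fam) (j' : J) (F : Φ) (w : W) : ZMod 2 :=
  bet M F (gp s j') w (s.mu F w)

variable {s : GSt M fam} {j j' : J}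

theorem xc_mu {F : Φ} {w : W} (h : s.At F w) : xc s j' F (s.mu F w) = xc s j' F w := by
  unfold xc
  rw [s.mu_mu h.1 h.2]
  unfold bet
  congr 2
  ext q
  simp only [Finset.mem_filter]
  rw [btw_symm]

/-- **without crossings** -/
theorem xc_zero {F : Φ} {w : W} (h : ∀ x, s.At F x → s.lab x = j' →
    ¬ M.Lace F w (s.mu F w) x (s.mu F x)) : xc s j' F w = 0 := by
  classical
  unfold xc bet
  have h1 : ∑ _q ∈ (gp s j').filter (fun q => q ∈ M.On F ∧ M.Btw F w (s.mu F w) q),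
      (1 : ZMod 2) = 0 := by
    refine Finset.sum_involution (fun q _ => s.mu F q) (fun q hq => by decide)
      (fun q hq _ => ?_) (fun q hq => ?_) (fun q hq => ?_)
    · obtain ⟨a1, a3, -⟩ := Finset.mem_filter.1 hq
      exact s.mu_ne (mem_gp.1 a1).1 a3
    · obtain ⟨a0, a3, a4⟩ := Finset.mem_filter.1 hq
      obtain ⟨a1, a2⟩ := mem_gp.1 a0
      obtain ⟨b1, b2⟩ := s.mu_mem a1 a3
      have b3 := s.mu_lab a1 a3
      have hnl := h q ⟨a1, a3⟩ a2
      have hl : (M.Btw F w (s.mu F w) q ↔ M.Btw F w (s.mu F w) (s.mu F q)) := by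
        by_contra hcon
        exact hnl hcon
      exact Finset.mem_filter.2 ⟨mem_gp.2 ⟨b1, b3.trans a2⟩, b2, hl.1 a4⟩
    · obtain ⟨a0, a3, -⟩ := Finset.mem_filter.1 hq
      exact s.mu_mu (mem_gp.1 a0).1 a3
  rw [Finset.sum_const, nsmul_eq_mul, mul_one] at h1
  convert h1

/-- **exactly one crossing** -/
theorem xc_one {F : Φ} {w x₀ : W} (h0 : s.At F x₀) (hl0 : s.lab x₀ = j')
    (hL : M.Lace F w (s.mu F w) x₀ (s.mu F x₀))
    (h : ∀ x, s.At F x → s.lab x = j' → M.Lace F w (s.mu F w) x (s.mu F x) →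
      x = x₀ ∨ x = s.mu F x₀) : xc s j' F w = 1 := by
  classical
  -- the end point which lies between
  obtain ⟨p, hpA, hpl, hpb, hpn, hpu⟩ : ∃ p, s.At F p ∧ s.lab p = j' ∧
      M.Btw F w (s.mu F w) p ∧ ¬ M.Btw F w (s.mu F w) (s.mu F p) ∧
      ∀ x, s.At F x → s.lab x = j' → M.Lace F w (s.mu F w) x (s.mu F x) →
        x = p ∨ x = s.mu F p := by
    by_cases hb : M.Btw F w (s.mu F w) x₀
    · refine ⟨x₀, h0, hl0, hb, fun hb' => hL ⟨fun _ => hb', fun _ => hb⟩, h⟩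
    · have hm := s.mu_mem h0.1 h0.2
      have hb' : M.Btw F w (s.mu F w) (s.mu F x₀) := by
        by_contra hb'
        exact hL ⟨fun h => absurd h hb, fun h => absurd h hb'⟩
      refine ⟨s.mu F x₀, hm, (s.mu_lab h0.1 h0.2).trans hl0, hb', ?_, ?_⟩
      · rw [s.mu_mu h0.1 h0.2]; exact hb
      · intro x h1 h2 h3
        rw [s.mu_mu h0.1 h0.2]
        exact (h x h1 h2 h3).symm
  unfold xc bet
  set S := (gp s j').filter (fun q => q ∈ M.On F ∧ M.Btw F w (s.mu F w) q) with hS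
  have hpS : p ∈ S := Finset.mem_filter.2 ⟨mem_gp.2 ⟨hpA.1, hpl⟩, hpA.2, hpb⟩
  have h1 : ∑ _q ∈ S.erase p, (1 : ZMod 2) = 0 := by
    refine Finset.sum_involution (fun q _ => s.mu F q) (fun q hq => by decide)
      (fun q hq _ => ?_) (fun q hq => ?_) (fun q hq => ?_)
    · obtain ⟨a1, a3, -⟩ := Finset.mem_filter.1 (Finset.mem_of_mem_erase hq)
      exact s.mu_ne (mem_gp.1 a1).1 a3
    · obtain ⟨a0, a3, a4⟩ := Finset.mem_filter.1 (Finset.mem_of_mem_erase hq)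
      obtain ⟨a1, a2⟩ := mem_gp.1 a0
      obtain ⟨b1, b2⟩ := s.mu_mem a1 a3
      have b3 := s.mu_lab a1 a3
      have hqp : q ≠ p := Finset.ne_of_mem_erase hq
      have hqp' : q ≠ s.mu F p := by
        rintro rfl
        exact hpn a4
      have hl : (M.Btw F w (s.mu F w) q ↔ M.Btw F w (s.mu F w) (s.mu F q)) := by
        by_contra hcon
        rcases hpu q ⟨a1, a3⟩ a2 hcon with e | e
        · exact hqp e
        · exact hqp' e
      refine Finset.mem_erase.2 ⟨?_, Finset.mem_filter.2 ⟨mem_gp.2 ⟨b1, b3.trans a2⟩, b2, hl.1 a4⟩⟩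
      intro e
      apply hqp'
      rw [← e, s.mu_mu a1 a3]
    · obtain ⟨a0, a3, -⟩ := Finset.mem_filter.1 (Finset.mem_of_mem_erase hq)
      exact s.mu_mu (mem_gp.1 a0).1 a3
  have h2 : ∑ _q ∈ S, (1 : ZMod 2) = 1 := by
    rw [← Finset.add_sum_erase S _ hpS, h1, add_zero]
  rw [Finset.sum_const, nsmul_eq_mul, mul_one] at h2
  convert h2

/-- a crossed chord -/
theorem lace_of_xc {F : Φ} {w : W} (h : xc s j' F w ≠ 0) :
    ∃ x, s.At F x ∧ s.lab x = j' ∧ M.Lace F w (s.mu F w) x (s.mu F x) := by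
  by_contra hcon
  push Not at hcon
  exact h (xc_zero hcon)

/-- **exact on every cell of a labelled mesh** -/
theorem xc_exact [PartialOrder Q] {dim : Q → ℕ} (L : LM M Q dim) {q : ι} {c : Q}
    (hc : ∀ F, q ∈ M.side F → L.cf F ≤ c) : ∃ ψ : W → ZMod 2, ∀ F w, q ∈ M.side F → s.At F w →
      s.lab w ≠ j' → xc s j' F w = ψ w + ψ (s.mu F w) := by
  obtain ⟨lam, hlam⟩ := L.cell c (gp s j') (fun F _ => gp_even s j' F)
  refine ⟨fun w => L.ext (gp s j') lam w, fun F w hq hA hl => ?_⟩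
  have hm := s.mu_mem hA.1 hA.2
  have hwY : w ∉ gp s j' := fun h => hl (mem_gp.1 h).2
  have hwY' : s.mu F w ∉ gp s j' := fun h =>
    hl ((s.mu_lab hA.1 hA.2).symm.trans (mem_gp.1 h).2)
  obtain ⟨h1, h2⟩ := L.face F (gp s j') (gp_even s j' F)
  obtain ⟨v, hv, hv0⟩ := L.base (L.cf F)
  have hx := hlam.mono (hc F hq)
  have a1 := hx.unique_ext h1 (fun _ _ => Iff.rfl) hv hv0 ((L.on_iff F w).1 hA.2)
  have a2 := hx.unique_ext h1 (fun _ _ => Iff.rfl) hv hv0 ((L.on_iff F _).1 hm.2)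
  rw [h2 w hA.2 hwY] at a1
  rw [h2 _ hm.2 hwY'] at a2
  unfold xc
  rw [← cntP_add hA.2 hm.2 hwY hwY']
  have e : ∀ a b x y z : ZMod 2, a + x = z → b + y = z → x + y = a + b := by decide
  exact e _ _ _ _ _ a1 a2

open Classical in
/-- the crossing cochain on a region -/
noncomputable def xcR (s : GSt M fam) (j' : J) (R : Set ι) (F : Φ) (w : W) : ZMod 2 :=
  if ∃ q ∈ M.side F, q ∈ R then xc s j' F w else 0

variable {R : Set ι}

theorem xcR_mu {F : Φ} {w : W} (h : s.At F w) : xcR s j' R F (s.mu F w) = xcR s j' R F w := by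
  unfold xcR
  rw [xc_mu h]

theorem xcR_in {q : ι} {F : Φ} (hF : q ∈ M.side F) (hq : q ∈ R) (w : W) :
    xcR s j' R F w = xc s j' F w := if_pos ⟨q, hF, hq⟩

theorem xcR_ne {F : Φ} {w : W} (h : xcR s j' R F w ≠ 0) :
    (∃ q ∈ M.side F, q ∈ R) ∧ ∃ x, s.At F x ∧ s.lab x = j' ∧
      M.Lace F w (s.mu F w) x (s.mu F x) := by
  unfold xcR at h
  split_ifs at h with h1
  · exact ⟨h1, lace_of_xc h⟩
  · exact absurd rfl h

/-- **the hypothesis `hex` of `door_reach` / `door_in`** : `R` = region of a quad, `Bad` = the two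
doors.  `hbd`: no crossing of `j` and `j'` on the faces between `R` and the other cells. -/
theorem xcR_hex [PartialOrder Q] {dim : Q → ℕ} (L : LM M Q dim) {Bad : Set ι} (hne : j ≠ j')
    (hc : ∀ q ∈ R, ∃ c, ∀ F, q ∈ M.side F → L.cf F ≤ c)
    (hbd : ∀ q, q ∉ R → q ∉ Bad → ∀ F w x, q ∈ M.side F → (∃ q' ∈ M.side F, q' ∈ R) →
      s.At F w → s.lab w = j → s.At F x → s.lab x = j' →
      ¬ M.Lace F w (s.mu F w) x (s.mu F x)) :
    ∀ q, q ∉ Bad → (∀ F w, q ∈ M.side F → s.At F w → s.lab w = j → xcR s j' R F w = 0) ∨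
      (q ∈ R ∧ ∃ ψ : W → ZMod 2, ∀ F w, q ∈ M.side F → s.At F w → s.lab w = j →
        xcR s j' R F w = ψ w + ψ (s.mu F w)) := by
  intro q hq
  by_cases hR : q ∈ R
  · right
    obtain ⟨c, hc⟩ := hc q hR
    obtain ⟨ψ, hψ⟩ := xc_exact (s := s) (j' := j') L hc
    refine ⟨hR, ψ, fun F w hF hA hl => ?_⟩
    rw [xcR_in hF hR]
    exact hψ F w hF hA (by rw [hl]; exact hne)
  · left
    intro F w hF hA hl
    by_contra h
    obtain ⟨h1, x, hx, hxl, hL⟩ := xcR_ne h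
    exact hbd q hR hq F w x hF h1 hA hl hx hxl hL

/-- **the odd chord of the door** : exactly one crossing of `j` and `j'` on the faces of the door
`q₀` with a side in `R` -/
theorem xcR_door {q₀ : ι} {F₀ : Φ} {w₀ x₀ : W} (h0 : q₀ ∈ M.side F₀)
    (hR : ∃ q ∈ M.side F₀, q ∈ R) (hx0 : s.At F₀ x₀) (hxl : s.lab x₀ = j')
    (hL : M.Lace F₀ w₀ (s.mu F₀ w₀) x₀ (s.mu F₀ x₀))
    (hu : ∀ F w x, q₀ ∈ M.side F → (∃ q ∈ M.side F, q ∈ R) → s.At F w → s.lab w = j →
      s.At F x → s.lab x = j' → M.Lace F w (s.mu F w) x (s.mu F x) →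
      F = F₀ ∧ (w = w₀ ∨ w = s.mu F₀ w₀) ∧ (x = x₀ ∨ x = s.mu F₀ x₀)) (hA0 : s.At F₀ w₀)
    (hl0 : s.lab w₀ = j) :
    xcR s j' R F₀ w₀ = 1 ∧ ∀ F w, q₀ ∈ M.side F → s.At F w → s.lab w = j →
      xcR s j' R F w ≠ 0 → F = F₀ ∧ (w = w₀ ∨ w = s.mu F₀ w₀) := by
  constructor
  · unfold xcR
    rw [if_pos hR]
    exact xc_one hx0 hxl hL fun x hx hxl' hL' => (hu F₀ w₀ x h0 hR hA0 hl0 hx hxl' hL').2.2
  · intro F w hF hA hl h
    obtain ⟨h1, x, hx, hxl', hL'⟩ := xcR_ne h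
    obtain ⟨e1, e2, -⟩ := hu F w x hF h1 hA hl hx hxl' hL'
    exact ⟨e1, e2⟩

end Crest.Agent.R096.Sgd_298
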