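import Crest.Agent.R096.Sgo3_298
import Crest.Agent.R096.Dfg1_539
import Crest.Agent.R096.Pb2_416

/-!
# Row 96, DOORS (helper298): joints 6 and 7 over the record `BRec` of LEAF A

For `s₂ = s2 (slC hLa hC n hn) fr3 Tw l0` over a combined outer state `sB` with 539's `BRec`, 416's
`BarS`, the radii `RmA` and the gauge of the truthful barrier points:

* `box_rec`  : every barrier point of `s₂` has a point of its box in the tile;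
* `bsep_rec` : `BSep`; `posM_rec` : 334's `PosM`; `two_rec` : (E2) at the giants;
* `good_rec` : 662's `hgood`.
-/

set_option autoImplicit false
set_option linter.unusedSectionVars false
set_option linter.unusedVariables false
set_option linter.style.longLine false

open Set Topology Filter Metric Module
open scoped Classical

namespace Crest.Agent.R096.Sgo_298

open Crest.Agent.R096.Msh_715 Crest.Agent.R096.Agl5_543 Crest.Agent.R096.St_147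
  Crest.Agent.R096.Seq_213 Crest.Agent.R096.Ginv_543 Crest.Agent.R096.Door_501
  Crest.Agent.R096.Sla_184
  Crest.Agent.R096.Twr_438 Crest.Agent.R096.Exa_560 Crest.Agent.R096.Ess3_95
  Crest.Agent.R096.Dfi_539 Crest.Agent.R096.Dfi_471 Crest.Agent.R096.Dis_184
  Crest.Agent.R096.Cg_501 Crest.Agent.R096.Sgd_298 Crest.Agent.R096.Lm_117
  Crest.Agent.R096.SecW_892 Crest.Agent.R096.Sec_892
open Crest.Agent.R096.Brk1_582 Crest.Agent.R096.Brk2_582 Crest.Agent.R096.Brk3_582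
  Crest.Agent.R096.Brk5_582 Crest.Agent.R096.Bsp_628 Crest.Agent.R096.Init_543
  Crest.Agent.R096.Hdr_334 Crest.Agent.R096.Qdl_662 Crest.Agent.R096.Ess5_95
open Crest.Agent.R096.Mbf_337 (sb KJ Tiny gau Cores Fine)
open Crest.Agent.R096.SkC1_961 (E3 FoamD Hom3)
open Crest.Agent.R096.Frn_337 (Ti)
open Crest.Agent.R96.Push_899
open Crest.Agent.R096.Frs_662 (slC)
open Crest.Agent.R096.Dfn_416 (BarS)
open Crest.Agent.R096.Dfg_539 (BRec)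
open Crest.Agent.R096.Dib_438 (Nb mem_Nb)
open Crest.Agent.R096.Bar_106 (Fs Fm Gm)
open Crest.Agent.R096.Bse_344 (BoxP)
open Crest.Agent.R096.Ess7_95 (KT)

variable {δ κ0 R c0 : ℝ} {La Om : Set E3} {ι : Type} {Φ : FoamD δ κ0 R c0 La} {T : Tiling Om ι}
  {f g : E3 → E3} {κ1 κ2 μ : ℝ} {X : Set Φ.F} {J0 Jt V : Φ.F → Set ι}
  {ct ct' : Φ.F → ι} {A : Φ.F → E3 ≃ᵃ[ℝ] E3} {lam : Φ.F → ℝ} {z : Φ.F → E3}
  {θ : Φ.F → E3 → E3} {φ : Φ.F → E3 → ℝ} {r₀ : Φ.F → ℝ} {ρ1 ρ2 ρ3 ρ4 d : Φ.F → ℝ}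

variable {ε s₁ : ℝ} {hLa : IsOpen La}
  {hC : Cores Φ T f κ1 κ2 X J0 Jt V ct A lam z θ φ} {n : Ti X → ℕ} {hn : ∀ c, 0 < n c}
  {L : Φ.F → Finset ℝ} [Nonempty (JJ Φ L)] {hG : GF Φ r₀ T f L} {bp : JJ Φ L → E3}
  {Mo : Type} [Nonempty (JJ Φ L ⊕ Mo)]
  {co : Mo → Ti X} {am : Mo → Φ.F} {Zm : Mo → Set Φ.F}
  {s : GSt (meshC T fr3) (Sum.map (fun j : JJ Φ L => j.1) (id : Mo → Mo))}
  {r : JJ Φ L ⊕ Mo → E3} {Sf : JJ Φ L ⊕ Mo → Set E3} {nb : Ti X → Φ.F ⊕ Mo → Prop}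
  {v0 v1 : ∀ c, Φ.F ⊕ Mo → VxK T (slC hLa hC n hn).K c} {u : Ti X → Φ.F ⊕ Mo → E3 → ℝ}
  {Aw Bw : Ti X → Φ.F ⊕ Mo → ℝ}
  {Lv : ∀ c, Φ.F ⊕ Mo → Lev T (frontier ((slC hLa hC n hn).K c)) (JJ Φ L ⊕ Mo)}
  {Tw : Twrs ((slC hLa hC n hn).sh fr3) (slC hLa hC n hn).n
    (outK (slC hLa hC n hn).hH (slC hLa hC n hn).dis s r)} {l0' : E3 → JJ Φ L ⊕ Mo}
  {l0 mm ra h W0 W1 l : ℝ}

/-- the numbers of the boxes -/
structure NumB (δ R κ1 l0 mm ra h W1 l : ℝ) : Prop where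
  hl0 : 0 < l0
  hra : 0 < ra
  h0 : 0 ≤ h
  nW : l0 * h + (3 * Cn δ R + 1) * κ1 < W1
  nW1 : W1 ≤ 1 - (2 * Cn δ R + 1) * κ1
  nlo : (3 * Cn δ R + 1) * κ1 < mm - ra * h
  nhi : mm + ra * h < 1 - (3 * Cn δ R + 1) * κ1
  nl : W1 + Cn δ R * κ1 ≤ l
  nl2 : 2 * (l + κ1) < 1

/-- **the barrier points of `s₂` are in their boxes** -/
theorem box_rec (hδ : 0 < δ) (hR : 0 < R) (hκ1 : 0 < κ1)
    (hRm : RmA Φ T f X J0 Jt V θ ρ1 ρ2 ρ3 ρ4 d)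
    (D : DIn (slC hLa hC n hn).hH s r Sf nb v0 v1 u Aw Bw)
    (lo : LevOut s nb u Aw Bw Lv) (tt : TwOut (slC hLa hC n hn) fr3 s r v0 v1 Lv Tw)
    (rec : BRec hLa s f X Jt θ co am Zm nb v0 v1 u Aw Bw μ (Cn δ R * κ1) l0 mm ra h W0 W1)
    (hN : NumB δ R κ1 l0 mm ra h W1 l)
    (hga : ∀ w ∈ s.P, ∀ m, s.lab w = Sum.inr m →
      ga Φ (co m).1 (f w) ≤ ρ3 (co m).1 + 15 * d (co m).1)
    {w : E3} (hw : w ∈ (s2 (slC hLa hC n hn) fr3 Tw l0').P) (m : Mo)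
    (hl : (s2 (slC hLa hC n hn) fr3 Tw l0').lab w = Sum.inr m)
    {p : T.RIdx (slC hLa hC n hn).HH} (hp : w ∈ P ((slC hLa hC n hn).T3.H p)) :
    ∃ x ∈ P (T.H p.tile), BoxP Φ f (co m).1 (am m) (Zm m) (rout ρ3 d (co m).1) l x := by
  have hCn := Cn_nonneg hδ hR
  have hCκ : 0 ≤ Cn δ R * κ1 := mul_nonneg hCn hκ1.le
  have hlh : 0 ≤ l0 * h := mul_nonneg hN.hl0.le hN.h0
  have e1 : (2 * Cn δ R + 1) * κ1 = 2 * (Cn δ R * κ1) + κ1 := by ring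
  have e2 : (3 * Cn δ R + 1) * κ1 = 3 * (Cn δ R * κ1) + κ1 := by ring
  have nW := hN.nW
  have nW1 := hN.nW1
  have nl := hN.nl
  have nlo := hN.nlo
  have nhi := hN.nhi
  rw [e2] at nW nlo nhi
  rw [e1] at nW1
  have hκ : Cn δ R * κ1 < 1 := by linarith
  obtain ⟨p', q', hM⟩ := rec.mo m
  have hNb : ∀ e, (Pc Φ.F (co m).1 ∩ Pc Φ.F e).Nonempty → e ∈ Nb Φ hLa (co m).1 :=
    fun e he => mem_Nb.2 he
  refine Bse_344.box_s2 (co := fun m => (co m).1) (ρ := rout ρ3 d) (N := Nb Φ hLa (co m).1)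
    (B := W1) hδ hR hκ D lo tt m (rec.mo m) (fun c hc => by rw [(rec.nbm c m).1 hc])
    (fun c hc x hx => ?_) (fun w hw hl => ?_) hNb (fun c hc => ?_) (fun c hc => (rec.Bm c m).le)
    (fun c hc v hv => ?_) nl hw hl hp
  · have hr := hRm c.1 c.2
    have h1 : gau c.1.1 (Φ.B c.1).lo (f x) ≤ ρ3 c.1 := (hr.fr x hx).2
    show gau c.1.1 (Φ.B c.1).lo (f x) ≤ ρ3 c.1 + 16 * d c.1
    linarith [hr.d0]
  · obtain ⟨h1, h2⟩ := rec.trm w hw m hl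
    have hr := hRm (co m).1 (co m).2
    refine Bse_344.boxP_of_gm hN.hl0 ?_ h1 h2 (by linarith)
    have h4 : gau (co m).1.1 (Φ.B (co m).1).lo (f w) ≤ ρ3 (co m).1 + 15 * d (co m).1 :=
      hga w hw m hl
    show gau (co m).1.1 (Φ.B (co m).1).lo (f w) ≤ ρ3 (co m).1 + 16 * d (co m).1
    linarith [hr.d0]
  · funext x
    rw [rec.um c m x, (rec.nbm c m).1 hc]
  · have hco := (rec.nbm c m).1 hc
    by_contra hcon
    push Not at hcon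
    rw [rec.Bm c m] at hcon
    have hM' := hM
    rw [hco] at hM' hcon
    have hNc : ∀ e, (Pc Φ.F c.1 ∩ Pc Φ.F e).Nonempty → e ∈ Nb Φ hLa c.1 := fun e he => mem_Nb.2 he
    have hW0 : 0 < W1 := by linarith
    have h5 := (Bar_543.fs_ge_c hLa hM' hNc (t := W1) hW0 (by linarith)).1
    exact Lv4_471.not_rgn_bar (κ := {c : Φ.F // c ∉ X}) (cf := Subtype.val)
      (J := fun c => Jt c.1) (J0 := fun c => J0 c.1) (V := fun c => V c.1) (θ := fun c => θ c.1)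
      (φ := fun c => φ c.1) (k := c) (a := am m) (b' := Sum.inr m) (h3 := fr3)
      (hH := (slC hLa hC n hn).hH) (hdis := (slC hLa hC n hn).dis) hLa hδ hR hκ1 hκ
      (fun c => hC.tiny c.1 c.2) lo (rec.um c m) hM' (Lv4_471.mem_N_p hM' hNc)
      (Lv4_471.mem_N_m hM' hNc) (by rw [rec.Bm c m]; exact h5)
      (D.v0_lt c (Sum.inr m) hc) (D.v1_gt c (Sum.inr m) hc) hN.hl0 hN.hra
      (by rw [rec.Bm c m]; exact hN.nW) (by rw [rec.Bm c m]; linarith)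
      (by rw [e2]; linarith) (by rw [e2]; linarith)
      (fun w hw hl _ => rec.trm w hw m (by
        rcases hl' : s.lab w with j | m'
        · rw [hl'] at hl; cases hl
        · rw [hl'] at hl
          have : m' = m := Sum.inr.inj hl
          rw [this])) (by rw [rec.Bm c m]; exact hcon.le) (Sum.inr m) hv

/-- **`BSep` for `s₂`** -/
theorem bsep_rec (hδ : 0 < δ) (hR : 0 < R) (hκ1 : 0 < κ1) (hF : Fine Φ T f κ1 J0)
    (hRm : RmA Φ T f X J0 Jt V θ ρ1 ρ2 ρ3 ρ4 d)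
    (D : DIn (slC hLa hC n hn).hH s r Sf nb v0 v1 u Aw Bw)
    (lo : LevOut s nb u Aw Bw Lv) (tt : TwOut (slC hLa hC n hn) fr3 s r v0 v1 Lv Tw)
    (rec : BRec hLa s f X Jt θ co am Zm nb v0 v1 u Aw Bw μ (Cn δ R * κ1) l0 mm ra h W0 W1)
    (hN : NumB δ R κ1 l0 mm ra h W1 l)
    (hga : ∀ w ∈ s.P, ∀ m, s.lab w = Sum.inr m →
      ga Φ (co m).1 (f w) ≤ ρ3 (co m).1 + 15 * d (co m).1)
    (hinj : ∀ m m', co m = co m' → am m = am m' → Zm m = Zm m' → m = m') :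
    BSep (s2 (slC hLa hC n hn) fr3 Tw l0') am :=
  Bse_344.bsep_s2 (co := fun m => (co m).1) (am := am) (Zm := Zm) (ρ := rout ρ3 d) (l := l)
    (fun m m' h => h) hF
    ⟨fun c hc i ⟨x, hx, h⟩ => (hRm c hc).v i ⟨x, hx, h.trans (hRm c hc).r34⟩⟩ hN.nl2
    (fun m => (co m).2) (fun m => by obtain ⟨p, q, hM⟩ := rec.mo m; exact hM.aZ)
    (fun m m' h1 h2 h3 => hinj m m' (Subtype.ext h1) h2 h3)
    (fun w hw m hl p _ hp => box_rec hδ hR hκ1 hRm D lo tt rec hN hga hw m hl hp)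

/-- **334's `PosM` for the barriers of `s₂`** -/
theorem posM_rec (hδ : 0 < δ) (hR : 0 < R) (hκ1 : 0 < κ1)
    (hRm : RmA Φ T f X J0 Jt V θ ρ1 ρ2 ρ3 ρ4 d)
    (D : DIn (slC hLa hC n hn).hH s r Sf nb v0 v1 u Aw Bw)
    (lo : LevOut s nb u Aw Bw Lv) (tt : TwOut (slC hLa hC n hn) fr3 s r v0 v1 Lv Tw)
    (rec : BRec hLa s f X Jt θ co am Zm nb v0 v1 u Aw Bw μ (Cn δ R * κ1) l0 mm ra h W0 W1)
    (hN : NumB δ R κ1 l0 mm ra h W1 l)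
    (hga : ∀ w ∈ s.P, ∀ m, s.lab w = Sum.inr m →
      ga Φ (co m).1 (f w) ≤ ρ3 (co m).1 + 15 * d (co m).1) (m : Mo) :
    PosM (hH := (Lay_316.lay_sla hLa hC n hn).core)
      (hdis := (Lay_316.lay_sla hLa hC n hn).disj) T f J0
      (fun p : T.RIdx (slC hLa hC n hn).HH => p.tile) (s2 (slC hLa hC n hn) fr3 Tw l0')
      (Sum.inr m) (am m) l :=
  Bse_344.posM_s2 (co := fun m => (co m).1) (am := am) (Zm := Zm) (ρ := rout ρ3 d) (l := l)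
    fun w hw hl p _ hp => box_rec hδ hR hκ1 hRm D lo tt rec hN hga hw m hl hp

/-- **(E2) at the giants of `s₂`** -/
theorem two_rec (hI : InitR Φ T f g J0 ct' r₀)
    (hM : Mesh0 T (Pc Φ.F) (bc (F := Φ.F)) (RF Φ r₀) f (KorJ Φ J0) ε) (hε : ε < s₁) (hε1 : ε < 1)
    (hδ : 0 < δ) (hR : 0 < R) (hκ1 : 0 < κ1) (hμ0 : 0 < μ) (hμ1 : μ ≤ 1 / 2)
    (lo : LevOut s nb u Aw Bw Lv) (tt : TwOut (slC hLa hC n hn) fr3 s r v0 v1 Lv Tw)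
    (rec : BRec hLa s f X Jt θ co am Zm nb v0 v1 u Aw Bw μ (Cn δ R * κ1) l0 mm ra h W0 W1)
    (hs : (Cn δ R + 1) * κ1 < s₁) (hs1 : s₁ + Cn δ R * κ1 ≤ μ / 2)
    (k : QK (Pc Φ.F)) (c : Ti X) (hc : c.1 ∈ k.Z) (j j' : JJ Φ L) (hj : j.1 ∈ k.B)
    (hj' : j'.1 ∈ k.B) (hne : j.1 ≠ j'.1) :
    SkB_662.Two (s2 (slC hLa hC n hn) fr3 Tw l0')
      ((qdT (fun p : T.RIdx (slC hLa hC n hn).HH => p.tile)
        (sla_sub (slC hLa hC n hn)) (slC hLa hC n hn).KK hLa hI hM hε hε1).Act k)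
      {Sum.inr c} (Sum.inl j) (Sum.inl j') :=
  two_s2m hδ hR lo tt (fun c a x _ => rec.ul c a x) (fun c a h => (rec.nbl c a).2 h)
    (fun c a => by
      rw [rec.Al c a]
      linarith [mul_nonneg (Cn_nonneg hδ hR) hκ1.le]) (fun c a => (rec.Bl c a).le) hμ0 hμ1 hs hs1
    hκ1.le k c hc j j' hj hj' hne

/-- **`hgood` OF 662's `leafBC`** -/
theorem good_rec [Nonempty (slC hLa hC n hn).T3.Cell]
    (hnC : ∃ c, OutK (slC hLa hC n hn).T3 (slC hLa hC n hn).KK c)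
    (hI : InitR Φ T f g J0 ct' r₀)
    (hM : Mesh0 T (Pc Φ.F) (bc (F := Φ.F)) (RF Φ r₀) f (KorJ Φ J0) ε) (hε : ε < s₁) (hε1 : ε < 1)
    (hδ : 0 < δ) (hR : 0 < R) (hκ1 : 0 < κ1) (hμ0 : 0 < μ) (hμ1 : μ ≤ 1 / 2)
    (hRm : RmA Φ T f X J0 Jt V θ ρ1 ρ2 ρ3 ρ4 d)
    (hLn : ∀ a, (L a).Nonempty) (hm : ∀ c, ∀ t ∈ L c, μ ≤ t ∧ t ≤ 1 - μ)
    (hB : BarS hG bp V co s)
    (D : DIn (slC hLa hC n hn).hH s r Sf nb v0 v1 u Aw Bw)
    (lo : LevOut s nb u Aw Bw Lv) (tt : TwOut (slC hLa hC n hn) fr3 s r v0 v1 Lv Tw)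
    (rec : BRec hLa s f X Jt θ co am Zm nb v0 v1 u Aw Bw μ (Cn δ R * κ1) l0 mm ra h W0 W1)
    (hN : NumB δ R κ1 l0 mm ra h W1 l)
    (hga : ∀ w ∈ s.P, ∀ m, s.lab w = Sum.inr m →
      ga Φ (co m).1 (f w) ≤ ρ3 (co m).1 + 15 * d (co m).1)
    (hrV : ∀ j : JJ Φ L, ∃ q, r (Sum.inl j) ∈ P (T.H q) ∧ ∀ c ∉ X, q ∉ V c)
    {s' : ℝ} (n1 : (Cn δ R + 1) * κ1 < s₁) (n2 : s₁ + Cn δ R * κ1 ≤ μ / 2)
    (n3 : (3 * Cn δ R + 1) * κ1 < μ / 2) (n4 : s' ≤ μ / 2 - Cn δ R * κ1) (n5 : s₁ + ε ≤ s')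
    (n6 : l + ε < s')
    (hs : BSep (s2 (slC hLa hC n hn) fr3 Tw l0') am) (hfin : ∀ a, {m | am m = a}.Finite)
    (j0 : Φ.F → JJ Φ L) (hj0 : ∀ a, (j0 a).1 = a) (a : Φ.F) :
    ∃ far : PN (fun j : JJ Φ L => j.1) am a → Set E3,
      (prS (s2 (slC hLa hC n hn) fr3 Tw l0') hs hfin j0 hj0 a).Good
        (ActR (slC hLa hC n hn) (Rdc T f Xᶜ (rout ρ3 d))) far ∧
      (∀ i : PN (fun j : JJ Φ L => j.1) am a, ∀ j, i.1 = Sum.inl j → r (Sum.inl j) ∈ far i) ∧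
      ∀ i F w, w ∈ far i → (prS (s2 (slC hLa hC n hn) fr3 Tw l0') hs hfin j0 hj0 a).At F w →
        OKp (prS (s2 (slC hLa hC n hn) fr3 Tw l0') hs hfin j0 hj0 a)
          (ActR (slC hLa hC n hn) (Rdc T f Xᶜ (rout ρ3 d))) F w →
        (s2 (slC hLa hC n hn) fr3 Tw l0').mu F w ∈ far i := by
  have hCκ : 0 ≤ Cn δ R * κ1 := mul_nonneg (Cn_nonneg hδ hR) hκ1.le
  obtain ⟨far, h1, h2, h3⟩ := good_m (am := am) (co := co) hnC hδ hR hI hM hε hε1 hRm hLn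
    (fun c t ht => ⟨by linarith [(hm c t ht).1], by linarith [(hm c t ht).2]⟩) (part_ext hB.ext)
    D lo tt (fun c m => rec.nbm c m) (fun c a => rec.nbl c a) hrV hga n5 n6
    (fun j => Dfn_416.pos_S2 hLa hδ hR hκ1 hμ0 hμ1 hI hC hm hB D lo tt
      (fun c a h => (rec.nbl c a).1 h) rec.ul
      (fun c a => by rw [rec.Al c a]; linarith) (fun c a => (rec.Bl c a).le) rec.v0l rec.v1l n3 n4
      j)
    (fun m => posM_rec hδ hR hκ1 hRm D lo tt rec hN hga m)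
    (fun k c hc j j' hj hj' hne => two_rec hI hM hε hε1 hδ hR hκ1 hμ0 hμ1 lo tt rec n1 n2 k c hc j
      j' hj hj' hne) hs hfin j0 hj0
  refine ⟨far a, h1 a, ?_, h3 a⟩
  rintro ⟨i, hi⟩ j rfl
  have hja : j.1 = a := hi
  subst hja
  exact h2 j

end Crest.Agent.R096.Sgo_298
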