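import Crest.Agent.R096.Sgo4_298
import Crest.Agent.R096.Nmd1_698

/-!
# Row 96, DOORS (helper298): the numbers of record for joints 6 and 7

`numB_rec` : `NumB` at `l0 = μ/8, mm = 1/2, ra = 1/2 - 5μ/16, h = 1 + μ/16, W1 = 3μ/16,
l = 3μ/16 + Cn κ1`; `num_good` : the inequalities `n1 .. n6` of `good_rec` at
`s₁ = μ/32, s' = μ/4, ε = κ1`.
-/

set_option autoImplicit false

namespace Crest.Agent.R096.Sgo_298

open Crest.Agent.R096.Exa_560 Crest.Agent.R096.Nmd1_698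

variable {δ κ0 R c0 κ2 μ κ1 : ℝ}

theorem numB_rec (hn : NumD δ κ0 R c0 κ2 μ κ1) :
    NumB δ R κ1 (μ / 8) (1 / 2) (1 / 2 - 5 * μ / 16) (1 + μ / 16) (3 * μ / 16)
      (3 * μ / 16 + Cn δ R * κ1) := by
  obtain ⟨n1, n2, n3, n4, n5, n6⟩ := hn.base
  have hq : μ ^ 2 ≤ μ / 64 := by nlinarith
  have hq0 : 0 ≤ μ ^ 2 := by positivity
  refine ⟨by linarith, by linarith, by linarith, ?_, ?_, ?_, ?_, le_rfl, by linarith⟩
  · have e : μ / 8 * (1 + μ / 16) = μ / 8 + μ ^ 2 / 128 := by ring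
    rw [e]
    linarith
  · linarith
  · have e : (1 / 2 - 5 * μ / 16) * (1 + μ / 16) = 1 / 2 - 5 * μ / 16 + μ / 32 - 5 * μ ^ 2 / 256 := by
      ring
    rw [e]
    linarith
  · have e : (1 / 2 - 5 * μ / 16) * (1 + μ / 16) = 1 / 2 - 5 * μ / 16 + μ / 32 - 5 * μ ^ 2 / 256 := by
      ring
    rw [e]
    linarith

/-- `n1 .. n6` of `good_rec` -/
theorem num_good (hn : NumD δ κ0 R c0 κ2 μ κ1) :
    (Cn δ R + 1) * κ1 < μ / 32 ∧ μ / 32 + Cn δ R * κ1 ≤ μ / 2 ∧ (3 * Cn δ R + 1) * κ1 < μ / 2 ∧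
      μ / 4 ≤ μ / 2 - Cn δ R * κ1 ∧ μ / 32 + κ1 ≤ μ / 4 ∧
      3 * μ / 16 + Cn δ R * κ1 + κ1 < μ / 4 := by
  obtain ⟨n1, n2, n3, n4, n5, n6⟩ := hn.base
  exact ⟨by linarith, by linarith, by linarith, by linarith, by linarith, by linarith⟩

end Crest.Agent.R096.Sgo_298
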