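import Crest.Agent.R096.Tl4_4
import Crest.Agent.R96.PnU1_849
import Crest.Agent.R96.Push20_899

/-! # Row 96, NO0 `p ≥ 3`, (S1) of 899 (helper182): `SH3 → SH`, and the push of `SH` by the diagonal
map `Gm k G` in the target. -/

set_option autoImplicit false
set_option linter.unusedSectionVars false

open Set Filter Topology Metric MeasureTheory
open scoped ENNReal NNReal

namespace Crest.Agent.R096.Shb_182

open Crest.Agent.R096.SkC1_961 (E3 Hom3)
open Crest.Agent.R96.En10_199 (P3 P3_mp)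
open Crest.Agent.R096.Er_594
open Crest.Agent.R096.Sk_962 (SH)
open Crest.Agent.R96.PnU_849
open Crest.Agent.R96.Push_899 (LaE)
open Crest.AnalysisR.VecCalc3 Crest.AnalysisR.Sobolev

/-- weak gradients and multiplication by a constant -/
theorem hwg_smul {Om : Set R3} {v : R3 → ℝ} {g : R3 → R3} (h : HasWeakGradOn Om v g) (c : ℝ) :
    HasWeakGradOn Om (fun x => c * v x) (c • g) := by
  obtain ⟨h1, h2, h3⟩ := h
  refine ⟨?_, h2.smul c, ?_⟩
  · have h4 := h1.smul c
    exact h4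
  · intro φ a1 a2 a3 i
    have h4 := h3 φ a1 a2 a3 i
    have e1 : ∫ x in Om, c * v x * pderiv φ i x = c * ∫ x in Om, v x * pderiv φ i x := by
      rw [← integral_const_mul]
      congr 1
      funext x; ring
    have e2 : ∫ x in Om, (c • g) x i * φ x = c * ∫ x in Om, g x i * φ x := by
      rw [← integral_const_mul]
      congr 1
      funext x
      rw [Pi.smul_apply, PiLp.smul_apply, smul_eq_mul]; ring
    rw [e1, e2, h4]; ring

/-- the homeomorphism part -/
theorem homeo_Gm {Om La : Set R3} {f : R3 → R3} (h : IsHomeomorphOn f Om La) (k : Fin 3) {G : ℝ}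
    (hG : G ≠ 0) : IsHomeomorphOn (fun x => Gm k G (f x)) Om (Gm k G '' La) := by
  obtain ⟨fi, a1, a2, a3, a4, a5, a6⟩ := h
  refine ⟨fun y => fi (Gm k G⁻¹ y), ?_, ?_, ?_, ?_, ?_, ?_⟩
  · intro x hx; exact ⟨f x, a1 hx, rfl⟩
  · rintro _ ⟨y, hy, rfl⟩
    change fi (Gm k G⁻¹ (Gm k G y)) ∈ Om
    rw [Gm_Gm (inv_mul_cancel₀ hG)]; exact a2 hy
  · intro x hx
    change fi (Gm k G⁻¹ (Gm k G (f x))) = x
    rw [Gm_Gm (inv_mul_cancel₀ hG)]; exact a3 x hx
  · rintro _ ⟨y, hy, rfl⟩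
    change Gm k G (f (fi (Gm k G⁻¹ (Gm k G y)))) = Gm k G y
    rw [Gm_Gm (inv_mul_cancel₀ hG), a4 y hy]
  · exact (continuous_Gm k G).comp_continuousOn a5
  · refine a6.comp (continuous_Gm k G⁻¹).continuousOn ?_
    rintro _ ⟨y, hy, rfl⟩
    rw [Gm_Gm (inv_mul_cancel₀ hG)]; exact hy

/-- **the push of `SH` by `Gm k G`** (any `k`, any `G ≠ 0`) -/
theorem sh_Gm' {p : ℝ} {Om La : Set R3} {f : R3 → R3} {G₀ : Fin 3 → R3 → R3} (k : Fin 3) {G : ℝ}
    (hG : G ≠ 0) (h : SH p Om La f G₀) :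
    SH p Om (Gm k G '' La) (fun x => Gm k G (f x)) (fun j => if j = k then G • G₀ k else G₀ j) := by
  refine ⟨homeo_Gm h.homeo k hG, ?_, ?_, ?_⟩
  · have h1 := h.mem.continuousLinearMap_comp ((GmL k G hG : R3 ≃L[ℝ] R3) : R3 →L[ℝ] R3)
    exact h1
  · intro j
    by_cases hj : j = k
    · subst hj
      rw [if_pos rfl]
      have e1 : (fun x => Gm j G (f x) j) = fun x => G * f x j := by
        funext x; rw [Gm_k]
      rw [e1]
      exact hwg_smul (h.wg j) G
    · rw [if_neg hj]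
      have e1 : (fun x => Gm k G (f x) j) = fun x => f x j := by
        funext x; rw [Gm_ne _ hj]
      rw [e1]
      exact h.wg j
  · intro j
    by_cases hj : j = k
    · subst hj
      rw [if_pos rfl]
      exact (h.memG j).const_smul G
    · rw [if_neg hj]
      exact h.memG j

/-- **(S1)**, second half: the literal form of 899 -/
theorem sh_Gm {p : ℝ} {Om La : Set R3} {f : R3 → R3} {G₀ : Fin 3 → R3 → R3} {G : ℝ}
    (hG : 1 ≤ G) (h : SH p Om La f G₀) :
    SH p Om (Gm 2 G '' La) (fun x => Gm 2 G (f x)) (fun j => if j = 2 then G • G₀ 2 else G₀ j) :=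
  sh_Gm' 2 (by linarith) h

/-- **(S1)**, first half: 4's `sh_of3` in the `LaE` language -/
theorem sh_of_sh3 {p : ℝ} (hp : 1 ≤ p) {Om La : Set E3} (hO : IsOpen Om) {f : E3 → E3}
    {D : E3 → E3 →L[ℝ] E3} (h : SH3 p Om La f D) :
    SH p (P3.symm ⁻¹' Om) (LaE La) (r3 f) (fun j y => row (D (P3.symm y)) j) :=
  Crest.Agent.R096.Tl_4.sh_of3 hp hO h

/-- both halves together -/
theorem sh_Gm3 {p : ℝ} (hp : 1 ≤ p) {Om La : Set E3} (hO : IsOpen Om) {f : E3 → E3}
    {D : E3 → E3 →L[ℝ] E3} (h : SH3 p Om La f D) {G : ℝ} (hG : 1 ≤ G) :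
    SH p (P3.symm ⁻¹' Om) (Gm 2 G '' LaE La) (fun y => Gm 2 G (r3 f y))
      (fun j y => if j = 2 then G • row (D (P3.symm y)) 2 else row (D (P3.symm y)) j) := by
  have h1 := sh_Gm hG (sh_of_sh3 hp hO h)
  convert h1 using 1
  funext j y
  by_cases hj : j = 2
  · rw [if_pos hj, if_pos hj]; rfl
  · rw [if_neg hj, if_neg hj]

end Crest.Agent.R096.Shb_182
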