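import Crest.Agent.R096.She4_227

/-!
Row 96 (S0127), helper227, COMPOSITE B: **the sum of the errors `er j` of the blocks** from part (ii) of the
energy list.
-/

set_option autoImplicit false
set_option linter.style.longLine false
set_option linter.unusedSectionVars false

open MeasureTheory Set Filter Topology Metric
open scoped ENNReal NNReal

namespace Crest.Agent.R096.She_227

open Crest.AnalysisR.VecCalc3 Crest.AnalysisR.Sobolev
open Crest.Agent.R096.Msh_715 (P I Tiling)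
open Crest.Agent.R096.Mal_874 (CB)
open Crest.Agent.R096.Ca_855
open Crest.Agent.R096.Ca_855.MIn (BQ)

noncomputable section

variable {Om W : Set R3} {ρ₀ : R3 → ℝ} {J : Type} [Finite J] {Qb : J → CB R3 3} {k0 : ℕ} {σ : ℝ}

/-- the zones of different blocks are disjoint -/
theorem kz_disj (h : MIn Om W ρ₀ Qb k0 σ) {κ : ℝ} (hκ : 0 < κ) (hκ1 : κ ≤ 1) {Bs Nn : ℕ}
    (hb : ∀ j, BQ κ Bs Nn (Qb j) k0) {r : ℝ} (hr : 7 ≤ r)
    (hsm : 4 * κ⁻¹ * max 1 (Bs:ℝ) * (r / 2 ^ k0) < σ / 8) {a : R3} (ha : ‖a‖ ≤ σ / 8)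
    {s : Finset (h.ιT a)} {j l : J} {k : s} (hj : k ∈ Kz h a j r s) (hl : k ∈ Kz h a l r s) :
    j = l := by
  have hki : 0 < κ⁻¹ := inv_pos.2 hκ
  have hσ := h.σ0
  have hp : (0:ℝ) < 2 ^ k0 := by positivity
  have hr0 : 0 ≤ r / 2 ^ k0 := by positivity
  have hm1 : (1:ℝ) ≤ max 1 (Bs:ℝ) := le_max_left _ _
  have hle : 4 * κ⁻¹ * (r / 2 ^ k0) ≤ 4 * κ⁻¹ * max 1 (Bs:ℝ) * (r / 2 ^ k0) := by
    refine mul_le_mul_of_nonneg_right ?_ hr0
    exact le_mul_of_one_le_right (by positivity) hm1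
  have hsm' : 4 * κ⁻¹ * (r / 2 ^ k0) < σ / 8 := lt_of_le_of_lt hle hsm
  have hj' := mem_Kz.1 hj
  have hd := diam_zone h hκ hκ1 hb hr hsm' ha hj'
  obtain ⟨y, hy, z, hz, h1⟩ := hj'
  obtain ⟨y', hy', z', hz', h2⟩ := mem_Kz.1 hl
  by_contra hne
  have hn : ∀ (i : J) (x w : R3), ‖((Qb i).tr a).ψ x - ((Qb i).tr a).ψ w‖ ≤ r / 2 ^ k0 →
      ‖x - w‖ < σ / 8 := by
    intro i x w hxw
    have h3 := (hb i).ψ2 hκ (x - w)
    have h4 : ‖(Qb i).ψ (x - w)‖ ≤ r / 2 ^ k0 := by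
      rw [map_sub]; exact hxw
    refine lt_of_le_of_lt (h3.trans (mul_le_mul_of_nonneg_left h4 (by positivity))) hsm'
  have h3 := hn j y z h1
  have h4 := hn l y' z' h2
  have h5 : ‖y - y'‖ < σ / 8 := by
    refine lt_of_le_of_lt (hd y hy y' hy') ?_
    rw [mul_div_assoc]
    exact hsm
  have h6 := h.sep j l hne (z - a)
    ((CB.mem_N_tr (Qb j) a z).1 (((Qb j).tr a).frontier_sub hz)) (z' - a)
    ((CB.mem_N_tr (Qb l) a z').1 (((Qb l).tr a).frontier_sub hz'))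
  rw [dist_sub_right, dist_eq_norm] at h6
  have e1 : z - z' = -(y - z) + (y - y') + (y' - z') := by abel
  rw [e1] at h6
  have h7 := norm_add₃_le (a := -(y - z)) (b := y - y') (c := y' - z')
  rw [norm_neg] at h7
  linarith

/-- **the sum of the errors of the blocks** from part (ii) of the energy list (`B k = CB`, `E = e₀`) -/
theorem er_sum (h : MIn Om W ρ₀ Qb k0 σ) {κ : ℝ} (hκ : 0 < κ) (hκ1 : κ ≤ 1) {Bs Nn : ℕ}
    (hb : ∀ j, BQ κ Bs Nn (Qb j) k0) {r Rl : ℝ} (hr : 7 ≤ r) (hRl : r ≤ Rl)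
    (hsm : 4 * κ⁻¹ * max 1 (Bs:ℝ) * (r / 2 ^ k0) < σ / 8) {a : R3} (ha : ‖a‖ ≤ σ / 8)
    {s : Finset (h.ιT a)} {JQ : Set J} {D B : s → ℝ≥0∞} (hB : ∀ k, 1 ≤ B k) {E : ℝ≥0∞}
    (hii : ∀ s₂ : Finset s, (∀ k ∈ s₂, ∃ j ∈ JQ, ∃ x ∈ P ((h.T a).H k),
        ∃ z ∈ frontier ((Qb j).tr a).N, ‖(Qb j).ψ x - (Qb j).ψ z‖ ≤ Rl / 2 ^ k0) →
      ∑ k ∈ s₂, B k * D k ≤ E) (A C : ℝ≥0∞) (mS : ℕ) (ε : ℝ≥0∞) :
    ∑' j : JQ, A * (mS * ∑ k ∈ Kz h a j r s, (C * D k + ε)) ≤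
      A * (mS * (C * E + s.card * ε)) := by
  classical
  have : Fintype JQ := Fintype.ofFinite _
  rw [tsum_fintype, ← Finset.mul_sum, ← Finset.mul_sum]
  refine mul_le_mul' le_rfl (mul_le_mul' le_rfl ?_)
  have hdis : ∀ j ∈ (Finset.univ : Finset JQ), ∀ l ∈ (Finset.univ : Finset JQ), j ≠ l →
      Disjoint (Kz h a j r s) (Kz h a l r s) := by
    intro j _ l _ hne
    rw [Finset.disjoint_left]
    intro k hj hl
    exact hne (Subtype.ext (kz_disj h hκ hκ1 hb hr hsm ha hj hl))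
  rw [← Finset.sum_biUnion (fun j hj l hl hne => hdis j hj l hl hne)]
  set Z : Finset s := Finset.univ.biUnion fun j : JQ => Kz h a j r s with hZ
  rw [Finset.sum_add_distrib, ← Finset.mul_sum, Finset.sum_const, nsmul_eq_mul]
  refine add_le_add (mul_le_mul' le_rfl ?_) (mul_le_mul' ?_ le_rfl)
  · refine le_trans (Finset.sum_le_sum fun k _ => ?_) (hii Z ?_)
    · calc D k = 1 * D k := (one_mul _).symm
        _ ≤ B k * D k := mul_le_mul' (hB k) le_rfl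
    · intro k hk
      rw [hZ, Finset.mem_biUnion] at hk
      obtain ⟨j, -, hj⟩ := hk
      obtain ⟨x, hx, z, hz, h1⟩ := mem_Kz.1 hj
      refine ⟨j, j.2, x, hx, z, hz, h1.trans ?_⟩
      exact div_le_div_of_nonneg_right hRl (by positivity)
  · have h1 : Z.card ≤ s.card := by
      have h2 := Finset.card_le_univ Z
      rwa [Fintype.card_coe] at h2
    exact_mod_cast h1

/-- the numbers: `e₀` before the position, `ε` after it -/
theorem er_small {A C : ℝ≥0∞} (hA : A ≠ ∞) (hC : C ≠ ∞) (mS : ℕ) {e : ℝ} (he : 0 < e) :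
    ∃ e₀ : ℝ, 0 < e₀ ∧ ∀ n : ℕ, ∃ ε₁ : ℝ≥0∞, ε₁ ≠ 0 ∧ ∀ ε ≤ ε₁,
      A * (mS * (C * ENNReal.ofReal e₀ + n * ε)) ≤ ENNReal.ofReal e := by
  have key : ∀ B : ℝ≥0∞, B ≠ ∞ → ∃ δ : ℝ, 0 < δ ∧ B * ENNReal.ofReal δ ≤ ENNReal.ofReal (e / 2) := by
    intro B hB
    refine ⟨e / (2 * (B.toReal + 1)), by positivity, ?_⟩
    rw [← ENNReal.ofReal_toReal hB, ← ENNReal.ofReal_mul ENNReal.toReal_nonneg]
    refine ENNReal.ofReal_le_ofReal ?_
    have h0 : 0 ≤ B.toReal := ENNReal.toReal_nonneg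
    rw [← mul_div_assoc, ENNReal.toReal_ofReal h0, div_le_div_iff₀ (by positivity) (by norm_num)]
    nlinarith
  obtain ⟨e₀, he₀, h1⟩ := key (A * (mS * C))
    (ENNReal.mul_ne_top hA (ENNReal.mul_ne_top (ENNReal.natCast_ne_top _) hC))
  refine ⟨e₀, he₀, fun n => ?_⟩
  obtain ⟨δ, hδ, h2⟩ := key (A * (mS * n)) (ENNReal.mul_ne_top hA
    (ENNReal.mul_ne_top (ENNReal.natCast_ne_top _) (ENNReal.natCast_ne_top _)))
  refine ⟨ENNReal.ofReal δ, by simpa using hδ, fun ε hε => ?_⟩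
  calc A * (mS * (C * ENNReal.ofReal e₀ + n * ε))
      = A * (mS * C) * ENNReal.ofReal e₀ + A * (mS * n) * ε := by ring
    _ ≤ ENNReal.ofReal (e / 2) + ENNReal.ofReal (e / 2) :=
        add_le_add h1 ((mul_le_mul' le_rfl hε).trans h2)
    _ = ENNReal.ofReal e := by
        rw [← ENNReal.ofReal_add (by positivity) (by positivity)]
        congr 1
        ring

end

end Crest.Agent.R096.She_227
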