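import Crest.Agent.R096.She5_227
import Crest.Agent.R096.Onp3_622
import Crest.Agent.R096.Tub1_821
import Crest.Agent.R096.Cob11_622

/-!
Row 96 (S0127), helper227, COMPOSITE B, (O1): **the SHORT half of `inP_block` over 622's `SetD`**.
-/

set_option autoImplicit false
set_option linter.style.longLine false
set_option linter.unusedSectionVars false

open MeasureTheory Set Filter Topology Metric
open scoped ENNReal NNReal

namespace Crest.Agent.R096.She_227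

open Crest.AnalysisR.VecCalc3 Crest.AnalysisR.Sobolev
open Crest.Agent.R096.Msh_715 (P I Tiling)
open Crest.Agent.R096.Mal_874 (CB)
open Crest.Agent.R096.Sq_55 (E3 Sys w2 GG)
open Crest.Agent.R096.Cob_622
open Crest.Agent.R096.Sq_55 (T2_nonneg T3_nonneg)
open Crest.Agent.R096.Efi_296
open Crest.Agent.R096.Cbs_296
open Crest.Agent.R096.Br_695 (En)
open Crest.Agent.R096.Pin_753 (Ed Tw)
open Crest.Agent.R096.Ca_855
open Crest.Agent.R096.Ca_855.MIn (BQ)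
open Crest.Agent.R096.Gsc_476
open Crest.Agent.R096.Onp_622
open Crest.Agent.R96.Intr_538 (cel par cel_mono)
open Crest.Agent.R96.Coarse_538 (vt Cb mem_cel norm_coord_le)

noncomputable section

/-- the points near a translated block lie in the good cube -/
theorem near_N_cel {Q : CB R3 3} {a z : R3} {r A u : ℝ} (hr : 0 < r) (hN : Q.N ⊆ cel Cb z r)
    (hA0 : 0 ≤ A) (hA : ‖a‖ ≤ A) (hu : 0 ≤ u) {y w : R3} (hw : w ∈ (Q.tr a).N)
    (hy : ‖y - w‖ ≤ u) : y ∈ cel Cb z (r + A + u) := by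
  rw [CB.mem_N_tr] at hw
  have h2 := (mem_cel hr).1 (hN hw)
  rw [mem_cel (by linarith)]
  intro i
  have h3 := h2 i
  have h4 : |(y - w) i| ≤ u := (norm_coord_le _ i).trans hy
  have h5 : |a i| ≤ A := (norm_coord_le a i).trans hA
  have e1 : (w - a) i - z i = w i - a i - z i := rfl
  rw [e1] at h3
  have e2 : y i - z i = (y - w) i + (w i - a i - z i) + a i := by
    show y i - z i = (y i - w i) + (w i - a i - z i) + a i
    ring
  rw [e2]
  refine (abs_add_le _ _).trans ?_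
  have h6 := abs_add_le ((y - w) i) (w i - a i - z i)
  linarith

/-- **the SHORT half of `inP_block` over `SetD`** -/
theorem short_set (Bs : ℕ) : ∃ N' : ℕ, ∀ {κ : ℝ}, 0 < κ → κ ≤ 1 → ∃ K₁ : ℕ, ∀ N : ℕ,
    ∃ (r dm : ℝ), 7 ≤ r ∧ 0 ≤ dm ∧
    ∀ {Om W : Set R3} {ρ₀ : R3 → ℝ} {J : Type} [Finite J] {Qb : J → CB R3 3} {k0 Nn : ℕ} {σ : ℝ}
      (h : MIn Om W ρ₀ Qb k0 σ), (∀ j, BQ κ Bs Nn (Qb j) k0) →
      4 * κ⁻¹ * (r / 2 ^ k0) < σ / 8 → ∀ {a : R3}, ‖a‖ ≤ σ / 8 →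
      ∀ {p : ℝ}, 1 ≤ p → p < 3 → ∀ {kk : J → Fin 3 → ℤ} {Q : Finset (Fin 3 → ℤ)} {K1 K3 : ℕ}
        {vU vI vN : ℝ≥0} {f : R3 → R3} {Φ : R3 ≃ₜ R3} {U K₀ : Set R3} {s : Finset (h.ιT a)}
        {pr : (Te (h.T a)).Cell → Prop} {c : h.ιT a → E3} {κt : h.ιT a → ℕ} {R u : h.ιT a → ℝ≥0}
        {X : Sys s (reps (Te (h.T a)) s pr)}, K₁ ≤ K1 →
        SetD p h a kk Q K1 K3 vU vI vN f Φ U K₀ s pr c κt R u X →
      ∀ {uu : ℝ}, uu = 4 * κ⁻¹ / (5 * 2 ^ k0) →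
        (∀ k ∈ deepT h a kk Q K1, SmallR R (mS (Te (h.T a)) s pr u) uu k) →
      ∀ (j : J), (∀ y : R3, ∀ z ∈ ((Qb j).tr a).N, ‖y - z‖ ≤ 2 * uu → y ∈ K₀) →
      ∀ {G G₂ : Fin 3 → R3 → R3} {D : EF X Om (En p G) (EgS (Te (h.T a)) s) (FcS (Te (h.T a)) s pr)}
        {K : ℝ≥0} {ε : ℝ≥0∞},
        CellsC (h.T a) s pr (mS (Te (h.T a)) s pr u) D K ε G₂ →
        E2C (h.T a) s pr R (mS (Te (h.T a)) s pr u) D K uu ε G₂ →
      ∀ (Sh : Set (R3 × R3)), (∀ e ∈ Ed ((Qb j).tr a) k0 (h.hk j), e ∈ Sh →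
        ∃ y ∈ segment ℝ e.1 e.2, Sht_726.NW ((Qb j).tr a) k0 N y) →
      ∀ {Λ : ℝ} {mI : ℕ} {Rl Cer : ℝ}, r ≤ Rl →
        512 * Hb_82.Ct κ * Λ ^ 2 * mI * (CB p K (GG vN) + N' * CE p K (GG vN) + (N' + 1)) ≤ Cer →
      ∃ (bb : s → ℝ≥0∞) (KS : Finset s) (Z : R3 × R3 → Finset s),
        (∀ e ∈ Ed ((Qb j).tr a) k0 (h.hk j), e ∈ Sh → ∀ k ∈ Z e,
          k ∈ KS ∧ (P ((h.T a).H k) ∩ w2 '' cthickening uu (sE e)).Nonempty) ∧
        (∀ k ∈ KS, ∀ x ∈ P ((h.T a).H k), ∀ y ∈ P ((h.T a).H k), ‖x - y‖ ≤ dm / 2 ^ k0) ∧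
        (∀ e ∈ Ed ((Qb j).tr a) k0 (h.hk j), e ∈ Sh →
          ∫⁻ x in cthickening uu (sE e), En p G₂ (w2 x) ≤ ∑ k ∈ Z e, bb k) ∧
        ENNReal.ofReal (512 * Hb_82.Ct κ * Λ ^ 2) * (mI * ∑ k ∈ KS, bb k) ≤
          erT h a D.J Rl Cer ε j := by
  obtain ⟨N', H1⟩ := exists_short Bs
  refine ⟨N', fun {κ} hκ hκ1 => ?_⟩
  obtain ⟨K₁, H2⟩ := H1 hκ hκ1
  refine ⟨K₁, fun N => ?_⟩
  obtain ⟨r, hr, H3⟩ := H2 N
  have hki : 0 < κ⁻¹ := inv_pos.2 hκ
  refine ⟨r, 4 * κ⁻¹ * max 1 (Bs:ℝ) * r, hr, by positivity, ?_⟩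
  intro Om W ρ₀ J _ Qb k0 Nn σ h hb hsm a ha p hp hp3 kk Q K1 K3 vU vI vN f Φ U K₀ s pr c κt R u X
    hK H uu hu hR j hs G G₂ D K ε hcell hE Sh hSh Λ mI Rl Cer hRl hCer
  obtain ⟨G1, G2, G3, G4⟩ := H3 h hb hsm ha j hu
  have hCt := Hb_82.Ct_pos hκ
  have hmN : ∀ k : h.ιT a, mS (Te (h.T a)) s pr u k ≤ GG vN := fun k =>
    mS_le (H.uN k) fun l _ _ => H.uN l
  have hCB0 : 0 ≤ CB p K (GG vN) := by
    have h2 := T2_nonneg p (GG vN)
    have h3 := T3_nonneg p (GG vN)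
    unfold Cob_622.CB
    positivity
  have hCE0 := CE_nonneg hp3 K (GG vN)
  set Cz : ℝ≥0∞ := ENNReal.ofReal (CB p K (GG vN)) + N' * ENNReal.ofReal (CE p K (GG vN)) with hCz
  have hC : ∀ k ∈ Kz h a j r s, ENNReal.ofReal (CB p K (mS (Te (h.T a)) s pr u k)) +
      N' * ENNReal.ofReal (CE p K (mS (Te (h.T a)) s pr u k)) ≤ Cz := by
    intro k _
    refine add_le_add (ENNReal.ofReal_le_ofReal (CB_mono (by linarith) (hmN k)))
      (mul_le_mul' le_rfl (ENNReal.ofReal_le_ofReal (CE_mono (by linarith) hp3 (hmN k))))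
  refine ⟨fun k => Cz * D.J k + (N' + 1) * ε, Kz h a j r s,
    fun e => Zc (h.T a) s (w2 '' cthickening uu (sE e)), ?_, ?_, ?_, ?_⟩
  · intro e he heS k hk
    have h1 := mem_Zc.1 hk
    exact ⟨mem_Kz.2 (G2 e he (hSh e he heS) k h1), h1⟩
  · intro k hk
    exact G3 k (mem_Kz.1 hk)
  · intro e he heS
    refine G4 hcell hE ?_ (hd_of h hK H.pr_d hR) hC e he (hSh e he heS)
    rintro t ⟨y, hy, z, hz, hyz⟩
    exact H.mem_s t ⟨y, hy, hs y z hz hyz⟩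
  · -- the number
    unfold erT
    have hsub : Kz h a j r s ⊆ zoneS h a s Rl j := by
      intro k hk
      obtain ⟨y, hy, z, hz, h1⟩ := mem_Kz.1 hk
      refine mem_zoneS.2 ⟨y, hy, z, hz, h1.trans ?_⟩
      exact div_le_div_of_nonneg_right hRl (by positivity)
    set B : ℝ := CB p K (GG vN) + N' * CE p K (GG vN) + (N' + 1) with hB
    have hB0 : 0 ≤ B := by positivity
    have h1 : ∀ k : s, Cz * D.J k + (N' + 1) * ε ≤ ENNReal.ofReal B * (D.J k + ε) := by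
      intro k
      rw [mul_add]
      refine add_le_add (mul_le_mul' ?_ le_rfl) (mul_le_mul' ?_ le_rfl)
      · rw [hCz, hB, ENNReal.ofReal_add (by positivity) (by positivity),
          ENNReal.ofReal_add (by positivity) (by positivity), ENNReal.ofReal_mul (by positivity),
          ENNReal.ofReal_natCast]
        exact le_self_add
      · rw [hB, ENNReal.ofReal_add (by positivity) (by positivity),
          ENNReal.ofReal_add (p := (N':ℝ)) (by positivity) (by norm_num), ENNReal.ofReal_natCast,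
          ENNReal.ofReal_one]
        exact le_add_self
    calc ENNReal.ofReal (512 * Hb_82.Ct κ * Λ ^ 2) *
          (mI * ∑ k ∈ Kz h a j r s, (Cz * D.J k + (N' + 1) * ε))
        ≤ ENNReal.ofReal (512 * Hb_82.Ct κ * Λ ^ 2) *
          (mI * ∑ k ∈ zoneS h a s Rl j, ENNReal.ofReal B * (D.J k + ε)) := by
          refine mul_le_mul' le_rfl (mul_le_mul' le_rfl ?_)
          exact (Finset.sum_le_sum_of_subset hsub).trans (Finset.sum_le_sum fun k _ => h1 k)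
      _ = ENNReal.ofReal (512 * Hb_82.Ct κ * Λ ^ 2 * mI * B) *
          ∑ k ∈ zoneS h a s Rl j, (D.J k + ε) := by
          have e1 : ENNReal.ofReal (512 * Hb_82.Ct κ * Λ ^ 2 * mI * B) =
              ENNReal.ofReal (512 * Hb_82.Ct κ * Λ ^ 2) * mI * ENNReal.ofReal B := by
            rw [ENNReal.ofReal_mul (by positivity), ENNReal.ofReal_mul (by positivity),
              ENNReal.ofReal_natCast]
          rw [← Finset.mul_sum, e1]
          ring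
      _ ≤ ENNReal.ofReal Cer * ∑ k ∈ zoneS h a s Rl j, (D.J k + ε) :=
          mul_le_mul' (ENNReal.ofReal_le_ofReal hCer) le_rfl

end

end Crest.Agent.R096.She_227
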