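import Crest.Agent.R096.Arc7_778
import Crest.Agent.R096.Bd15_416

/-!
# R096 (row 96), ARR-SH (helper334), GIANT part 1: one sheet and the giant cells

`GQ B` = the cells `Q` outside the cores and one 3-cell for every core `c : 𝒢` (`B.bq c` = the cells
of the boundary of the core).
* `cplxG` : the complex `GQ B`;
* `cmbG`  : the combinatorics of the ONE sheet `j` (a core has one piece if the sheet meets its
  boundary);
* `invG`  : 416's invariant on the old cells.
-/

set_option autoImplicit false
set_option linter.unusedSectionVars false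

open Set Metric

namespace Crest.Agent.R096.Shg_334

open Crest.Agent.R096.Ce_537 Crest.Agent.R096.Bd_416 Crest.Agent.R096.Shp_334

open scoped Classical

/-- the cells of the boundaries of the cores -/
structure BdD (Q 𝒢 : Type) [PartialOrder Q] where
  bq : 𝒢 → Set Q
  down : ∀ c p q, p ≤ q → q ∈ bq c → p ∈ bq c

/-- old cells and giant cells -/
inductive GQ {Q 𝒢 : Type} [PartialOrder Q] (B : BdD Q 𝒢) : Type
  | old (q : Q) : GQ B
  | big (c : 𝒢) : GQ B

section order

variable {Q 𝒢 : Type} [PartialOrder Q] {B : BdD Q 𝒢}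

/-- the order -/
def GQ.le' : GQ B → GQ B → Prop
  | .old q, .old q' => q ≤ q'
  | .old q, .big c => q ∈ B.bq c
  | .big c, .big c' => c = c'
  | .big _, .old _ => False

instance : PartialOrder (GQ B) where
  le := GQ.le'
  le_refl q := by
    cases q with
    | old q => exact le_refl q
    | big c => exact rfl
  le_trans q q' q'' h h' := by
    cases q with
    | old q =>
      cases q' with
      | old q' =>
        cases q'' with
        | old q'' => exact le_trans (show q ≤ q' from h) h'
        | big c => exact B.down c q q' h h'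
      | big c =>
        cases q'' with
        | old q'' => exact (h' : False).elim
        | big c' =>
          have h1 : c = c' := h'
          subst h1; exact h
    | big c =>
      cases q' with
      | old q' => exact (h : False).elim
      | big c' =>
        have h1 : c = c' := h
        subst h1; exact h'
  le_antisymm q q' h h' := by
    cases q with
    | old q =>
      cases q' with
      | old q' => exact congrArg _ (le_antisymm (show q ≤ q' from h) h')
      | big c => exact (h' : False).elim
    | big c =>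
      cases q' with
      | old q' => exact (h : False).elim
      | big c' => exact congrArg _ h

lemma old_le {q q' : Q} : (GQ.old q : GQ B) ≤ .old q' ↔ q ≤ q' := Iff.rfl
lemma old_le_big {q : Q} {c : 𝒢} : (GQ.old q : GQ B) ≤ .big c ↔ q ∈ B.bq c := Iff.rfl
lemma big_le_big {c c' : 𝒢} : (GQ.big c : GQ B) ≤ .big c' ↔ c = c' := Iff.rfl
lemma not_big_le_old {c : 𝒢} {q : Q} : ¬ ((GQ.big c : GQ B) ≤ .old q) := fun h => h

lemma old_lt {q q' : Q} : (GQ.old q : GQ B) < .old q' ↔ q < q' := by
  rw [lt_iff_le_not_ge, lt_iff_le_not_ge]; exact Iff.rfl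

lemma old_lt_big {q : Q} {c : 𝒢} : (GQ.old q : GQ B) < .big c ↔ q ∈ B.bq c := by
  rw [lt_iff_le_not_ge]
  exact ⟨fun h => h.1, fun h => ⟨h, fun h' => h'⟩⟩

lemma not_big_lt {c : 𝒢} {q : GQ B} : ¬ ((GQ.big c : GQ B) < q) := by
  intro h
  cases q with
  | old q => exact h.le
  | big c' =>
    have h1 : c = c' := h.le
    subst h1; exact lt_irrefl _ h

end order

/-- dimensions -/
def dimG {Q 𝒢 : Type} [PartialOrder Q] (B : BdD Q 𝒢) (dim : Q → ℕ) : GQ B → ℕ
  | .old q => dim q
  | .big _ => 3

/-- the sets -/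
def KG {Q 𝒢 : Type} [PartialOrder Q] (B : BdD Q 𝒢) {E : Type*} (K : Q → Set E) (Kt : 𝒢 → Set E) :
    GQ B → Set E
  | .old q => K q
  | .big c => Kt c

section cplx

variable {Q 𝒢 : Type} [PartialOrder Q] {B : BdD Q 𝒢} {dim : Q → ℕ}
variable {E : Type*} [NormedAddCommGroup E] [NormedSpace ℝ E] {K : Q → Set E} {Kt : 𝒢 → Set E}
  {Ω0 Ω : Set E}

/-- **geometric input**: the cores are PL balls whose boundary is a union of cells -/
structure GC (Ω0 Ω : Set E) (dim : Q → ℕ) (K : Q → Set E) (B : BdD Q 𝒢) (Kt : 𝒢 → Set E) :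
    Prop where
  sub0 : Ω0 ⊆ Ω
  sub : ∀ c, Kt c ⊆ Ω
  cov : Ω ⊆ Ω0 ∪ ⋃ c, Kt c
  ball : ∀ c, IsBall 3 (Kt c) (⋃ q ∈ B.bq c, K q)
  dim_lt : ∀ c, ∀ q ∈ B.bq c, dim q < 3
  inter : ∀ c, Kt c ∩ Ω0 ⊆ ⋃ q ∈ B.bq c, K q
  disj : ∀ c c', c ≠ c' → Kt c ∩ Kt c' ⊆ Ω0
  near : ∀ x ∈ Ω, x ∉ Ω0 → ∃ r > (0:ℝ), Disjoint Ω0 (Metric.ball x r)
  lf : ∀ x ∈ Ω, ∃ r > (0:ℝ), {c | (Kt c ∩ Metric.ball x r).Nonempty}.Finite

lemma below_old {q : Q} : (⋃ j ∈ {j : GQ B | j < .old q}, KG B K Kt j) = ⋃ p ∈ {p | p < q}, K p := by
  ext x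
  simp only [mem_iUnion, mem_ofPred_eq, exists_prop]
  constructor
  · rintro ⟨j, hj, hx⟩
    cases j with
    | old p => exact ⟨p, old_lt.1 hj, hx⟩
    | big c => exact absurd hj not_big_lt
  · rintro ⟨p, hp, hx⟩
    exact ⟨.old p, old_lt.2 hp, hx⟩

lemma below_big {c : 𝒢} : (⋃ j ∈ {j : GQ B | j < .big c}, KG B K Kt j) = ⋃ q ∈ B.bq c, K q := by
  ext x
  simp only [mem_iUnion, mem_ofPred_eq, exists_prop]
  constructor
  · rintro ⟨j, hj, hx⟩
    cases j with
    | old p => exact ⟨p, old_lt_big.1 hj, hx⟩
    | big c => exact absurd hj not_big_lt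
  · rintro ⟨p, hp, hx⟩
    exact ⟨.old p, old_lt_big.2 hp, hx⟩

lemma bdS_old {q : Q} : bdS (KG B K Kt) (.old q) = bdS K q := below_old
lemma bdS_big {c : 𝒢} : bdS (KG B K Kt) (.big c) = ⋃ q ∈ B.bq c, K q := below_big

/-- **the complex with the giant cells** -/
theorem cplxG (X : Cplx Ω0 Q dim K) (G : GC Ω0 Ω dim K B Kt) :
    Cplx Ω (GQ B) (dimG B dim) (KG B K Kt) where
  isBall i := by
    cases i with
    | old q => rw [below_old]; exact X.isBall q
    | big c => rw [below_big]; exact G.ball c
  mono i j h := by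
    cases j with
    | big c => exact absurd h not_big_lt
    | old q =>
      cases i with
      | old p => exact X.mono _ _ (old_lt.1 h)
      | big c => exact G.dim_lt c q (old_lt_big.1 h)
  disj i j x hi hj := by
    have key : ∀ (c : 𝒢), Opn (KG B K Kt) (.big c) x → x ∉ Ω0 := by
      intro c hc h0
      obtain ⟨p, hp, hx⟩ := mem_iUnion₂.1 (G.inter c ⟨hc.1, h0⟩)
      exact hc.2 (.old p) (old_lt_big.2 hp) hx
    cases i with
    | old q =>
      cases j with
      | old q' =>
        refine congrArg _ (X.disj q q' x ⟨hi.1, fun p hp h => hi.2 (.old p) (old_lt.2 hp) h⟩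
          ⟨hj.1, fun p hp h => hj.2 (.old p) (old_lt.2 hp) h⟩)
      | big c => exact absurd (X.sub q hi.1) (key c hj)
    | big c =>
      cases j with
      | old q => exact absurd (X.sub q hj.1) (key c hi)
      | big c' =>
        by_contra hne
        have h1 : c ≠ c' := fun h => hne (congrArg _ h)
        exact key c hi (G.disj c c' h1 ⟨hi.1, hj.1⟩)
  sub i := by
    cases i with
    | old q => exact (X.sub q).trans G.sub0
    | big c => exact G.sub c
  cover x hx := by
    rcases G.cov hx with h | h
    · obtain ⟨q, hq⟩ := X.cover x h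
      exact ⟨.old q, hq⟩
    · obtain ⟨c, hc⟩ := mem_iUnion.1 h
      exact ⟨.big c, hc⟩
  lf x hx := by
    obtain ⟨r, hr, hf⟩ := G.lf x hx
    have h0 : ∃ s > (0:ℝ), {q | (K q ∩ Metric.ball x s).Nonempty}.Finite := by
      by_cases h : x ∈ Ω0
      · exact X.lf x h
      · obtain ⟨s, hs, hd⟩ := G.near x hx h
        refine ⟨s, hs, ?_⟩
        have : {q | (K q ∩ Metric.ball x s).Nonempty} = ∅ := by
          refine eq_empty_of_forall_notMem fun q hq => ?_
          obtain ⟨y, hy1, hy2⟩ := hq
          exact disjoint_left.1 hd (X.sub q hy1) hy2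
        rw [this]; exact finite_empty
    obtain ⟨s, hs, hfs⟩ := h0
    refine ⟨min r s, lt_min hr hs, ?_⟩
    refine ((hfs.image GQ.old).union (hf.image GQ.big)).subset ?_
    rintro i ⟨y, hy1, hy2⟩
    cases i with
    | old q =>
      exact Or.inl ⟨q, ⟨y, hy1, ball_subset_ball (min_le_right _ _) hy2⟩, rfl⟩
    | big c =>
      exact Or.inr ⟨c, ⟨y, hy1, ball_subset_ball (min_le_left _ _) hy2⟩, rfl⟩

end cplx

/-! ### the combinatorics of one sheet -/

section sums

lemma prod_sub {α M : Type*} [CommMonoid M] [Fintype α] {p : α → Prop} [Fintype {a // p a}]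
    {P : {a // p a} → Prop} {P' : α → Prop} (f : α → M)
    (h : ∀ a (ha : p a), P ⟨a, ha⟩ ↔ P' a) (h' : ∀ a, P' a → p a) :
    ∏ y : {a // p a} with P y, f y.1 = ∏ a : α with P' a, f a := by
  refine Finset.prod_bij (fun y _ => y.1) ?_ ?_ ?_ ?_
  · intro y hy
    rw [Finset.mem_filter] at hy ⊢
    exact ⟨Finset.mem_univ _, (h y.1 y.2).1 hy.2⟩
  · intro y _ y' _ he
    exact Subtype.ext he
  · intro a ha
    rw [Finset.mem_filter] at ha
    exact ⟨⟨a, h' a ha.2⟩, Finset.mem_filter.2 ⟨Finset.mem_univ _, (h a _).2 ha.2⟩, rfl⟩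
  · intro y _
    rfl

lemma sum_sub {α M : Type*} [AddCommMonoid M] [Fintype α] {p : α → Prop} [Fintype {a // p a}]
    {P : {a // p a} → Prop} {P' : α → Prop} (f : α → M)
    (h : ∀ a (ha : p a), P ⟨a, ha⟩ ↔ P' a) (h' : ∀ a, P' a → p a) :
    ∑ y : {a // p a} with P y, f y.1 = ∑ a : α with P' a, f a := by
  refine Finset.sum_bij (fun y _ => y.1) ?_ ?_ ?_ ?_
  · intro y hy
    rw [Finset.mem_filter] at hy ⊢
    exact ⟨Finset.mem_univ _, (h y.1 y.2).1 hy.2⟩
  · intro y _ y' _ he
    exact Subtype.ext he
  · intro a ha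
    rw [Finset.mem_filter] at ha
    exact ⟨⟨a, h' a ha.2⟩, Finset.mem_filter.2 ⟨Finset.mem_univ _, (h a _).2 ha.2⟩, rfl⟩
  · intro y _
    rfl

end sums

section cmb

variable {Q 𝒢 : Type} [PartialOrder Q] {dim : Q → ℕ} {J Fam : Type}

/-- the pieces of the sheet `j` -/
def GI (C : Cmb Q dim J Fam) (j : J) (B : BdD Q 𝒢) : GQ B → Type
  | .old q => {x : C.I q // C.col q x = j}
  | .big c => PLift (∃ q ∈ B.bq c, ∃ x : C.I q, C.col q x = j)

noncomputable instance (C : Cmb Q dim J Fam) (j : J) (B : BdD Q 𝒢) (q : GQ B) :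
    Fintype (GI C j B q) :=
  match q with
  | .old q => inferInstanceAs (Fintype {x : C.I q // C.col q x = j})
  | .big c =>
    show Fintype (PLift (∃ q ∈ B.bq c, ∃ x : C.I q, C.col q x = j)) from Fintype.ofFinite _

lemma gi_big_subsingleton {C : Cmb Q dim J Fam} {j : J} {B : BdD Q 𝒢} {c : 𝒢}
    (x x' : GI C j B (.big c)) : x = x' := by
  obtain ⟨x⟩ := x
  obtain ⟨x'⟩ := x'
  rfl

/-- base vertices of the cores, constant labels on cores which do not meet the sheet -/
structure GO (C : Cmb Q dim J Fam) (j : J) (B : BdD Q 𝒢) (o : 𝒢 → Q) : Prop where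
  o_mem : ∀ c, o c ∈ B.bq c
  o_dim : ∀ c, dim (o c) = 0
  const : ∀ c, (∀ q ∈ B.bq c, ∀ x : C.I q, C.col q x ≠ j) →
    ∀ q ∈ B.bq c, C.Lab j q = C.Lab j (o c)

variable (C : Cmb Q dim J Fam) (j : J) (B : BdD Q 𝒢) (o : 𝒢 → Q)

/-- the piece of a bigger cell -/
def upG : ∀ {p q : GQ B}, p < q → GI C j B p → GI C j B q
  | .old _, .old _, h, x => ⟨C.up (old_lt.1 h) x.1, (C.col_up (old_lt.1 h) x.1).trans x.2⟩
  | .old p, .big _, h, x => ⟨⟨p, old_lt_big.1 h, x.1, x.2⟩⟩
  | .big _, _, h, _ => absurd h not_big_lt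

/-- labels of base vertices -/
noncomputable def sG : ∀ {p q : GQ B}, p < q → GI C j B q → ZMod 2
  | .old _, .old _, h, x => C.s (old_lt.1 h) x.1
  | .old p, .big c, _, _ => C.Lab j p + C.Lab j (o c)
  | .big _, _, _, _ => 0

/-- base vertices -/
def oG : GQ B → GQ B
  | .old q => .old (C.o q)
  | .big c => .old (o c)

/-- labels -/
def LabG : GQ B → ZMod 2
  | .old q => C.Lab j q
  | .big c => C.Lab j (o c)

/-- sides -/
def sideG : ∀ q : GQ B, GI C j B q → GI C j B q → ZMod 2
  | .old q, x, x' => C.side q x.1 x'.1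
  | .big _, _, _ => 0

variable {C j B o}

lemma add_self2 (a : ZMod 2) : a + a = 0 := CharTwo.add_self_eq_zero a

/-- **the combinatorics of the sheet `j` with giant cells** -/
noncomputable def cmbG (O : GO C j B o) : Cmb (GQ B) (dimG B dim) Unit Unit where
  I := GI C j B
  fin := fun _ => inferInstance
  col _ _ := ()
  fam _ := ()
  up h x := upG C j B h x
  col_up _ _ := rfl
  up_up := by
    intro p r q h h' y
    cases p with
    | big c => exact absurd h not_big_lt
    | old p =>
      cases r with
      | big c => exact absurd h' not_big_lt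
      | old r =>
        cases q with
        | big c => exact gi_big_subsingleton _ _
        | old q => exact Subtype.ext (C.up_up (old_lt.1 h) (old_lt.1 h') y.1)
  vert := by
    intro q hq
    cases q with
    | old q =>
      have := C.vert q hq
      exact ⟨fun x => this.false x.1⟩
    | big c => exact absurd hq (by show ¬ (3 = 0); norm_num)
  s h x := sG C j B o h x
  coc := by
    intro p r q h h' x
    cases p with
    | big c => exact absurd h not_big_lt
    | old p =>
      cases r with
      | big c => exact absurd h' not_big_lt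
      | old r =>
        cases q with
        | old q =>
          have h1 := C.coc (old_lt.1 h) (old_lt.1 h') x.1
          have h2 := sum_sub (p := fun y : C.I r => C.col r y = j)
            (P := fun y => upG C j B h' y = x) (P' := fun y => C.up (old_lt.1 h') y = x.1)
            (fun y => C.s (old_lt.1 h) y) (fun a ha => by
              constructor
              · intro e; exact congrArg Subtype.val e
              · intro e; exact Subtype.ext e) (fun a ha => by
              rw [← C.col_up (old_lt.1 h') a, ha]; exact x.2)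
          refine h1.trans ?_
          rw [← h2]
          rfl
        | big c =>
          have h1 := C.lab_eq (old_lt.1 h) j
          have h2 := sum_sub (p := fun y : C.I r => C.col r y = j)
            (P := fun y => upG C j B h' y = x) (P' := fun y => C.col r y = j)
            (fun y => C.s (old_lt.1 h) y) (fun a ha => by
              constructor
              · intro _; exact ha
              · intro _; exact gi_big_subsingleton _ _) (fun a ha => ha)
          refine Eq.trans ?_ (congrArg (fun t => C.Lab j r + C.Lab j (o c) + t) h2.symm)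
          show C.Lab j p + C.Lab j (o c) = C.Lab j r + C.Lab j (o c) + _
          rw [h1]
          ring
  o := oG C B o
  o_dim := by
    intro q hq
    cases q with
    | old q => exact C.o_dim q hq
    | big c => exact O.o_dim c
  o_lt := by
    intro q hq
    cases q with
    | old q => exact old_lt.2 (C.o_lt q hq)
    | big c => exact old_lt_big.2 (O.o_mem c)
  s_o := by
    intro q hq x
    cases q with
    | old q => exact C.s_o q hq x.1
    | big c => exact add_self2 _
  Lab _ q := LabG C j B o q
  lab_eq := by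
    intro p q h _
    cases p with
    | big c => exact absurd h not_big_lt
    | old p =>
      cases q with
      | old q =>
        have h1 := C.lab_eq (old_lt.1 h) j
        have h2 := sum_sub (p := fun y : C.I q => C.col q y = j)
          (P := fun _ => () = ()) (P' := fun y => C.col q y = j)
          (fun y => C.s (old_lt.1 h) y) (fun a ha => ⟨fun _ => ha, fun _ => rfl⟩) (fun a ha => ha)
        refine h1.trans ?_
        rw [← h2]
        rfl
      | big c =>
        show C.Lab j p = C.Lab j (o c) + _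
        by_cases hne : ∃ q ∈ B.bq c, ∃ x : C.I q, C.col q x = j
        · let x0 : GI C j B (.big c) := PLift.up hne
          have h2 : ∀ t : Finset (GI C j B (.big c)), x0 ∈ t →
              ∑ x ∈ t, sG C j B o h x = C.Lab j p + C.Lab j (o c) := fun t ht =>
            Finset.sum_eq_single_of_mem x0 ht
              (fun y _ hne' => absurd (gi_big_subsingleton _ _) hne')
          refine Eq.trans ?_ (congrArg (fun t => C.Lab j (o c) + t) (h2 _ ?_).symm)
          · show C.Lab j p = C.Lab j (o c) + (C.Lab j p + C.Lab j (o c))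
            have := add_self2 (C.Lab j (o c))
            linear_combination -this
          · exact (@Finset.mem_filter _ _ (_) _ _).2 ⟨Finset.mem_univ _, rfl⟩
        · have h1 := O.const c (fun q hq x hx => hne ⟨q, hq, x, hx⟩) p (old_lt_big.1 h)
          rw [h1, Finset.sum_eq_zero, add_zero]
          intro y _
          exact absurd y.down hne
  side q x x' := sideG C j B q x x'
  side_up := by
    intro p q h y x' hne _
    cases p with
    | big c => exact absurd h not_big_lt
    | old p =>
      cases q with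
      | big c => exact absurd (gi_big_subsingleton _ _) hne
      | old q =>
        have hne' : x'.1 ≠ C.up (old_lt.1 h) y.1 := fun e => hne (Subtype.ext e)
        have h1 := C.side_up (old_lt.1 h) y.1 x'.1 hne' (by rw [y.2, x'.2])
        have h2 := sum_sub (p := fun y : C.I p => C.col p y = j)
          (P := fun y' => upG C j B h y' = x') (P' := fun y' => C.up (old_lt.1 h) y' = x'.1)
          (fun y' => C.side p y.1 y') (fun a ha => by
            constructor
            · intro e; exact congrArg Subtype.val e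
            · intro e; exact Subtype.ext e) (fun a ha => by
            rw [← C.col_up (old_lt.1 h) a, ha]; exact x'.2)
        refine h1.trans ?_
        rw [← h2]
        rfl
  s_edge := by
    intro v q h hd hne x
    cases v with
    | big c => exact absurd h not_big_lt
    | old v =>
      cases q with
      | old q => exact C.s_edge (old_lt.1 h) hd (fun e => hne (congrArg _ e)) x.1
      | big c => exact absurd hd (by show ¬ (3 = 1); norm_num)

end cmb

/-! ### the invariant on the old cells -/

section inv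

variable {Q 𝒢 : Type} [PartialOrder Q] {dim : Q → ℕ} {J Fam : Type}
variable {E : Type*} [NormedAddCommGroup E] [NormedSpace ℝ E]
variable {C : Cmb Q dim J Fam} {K : Q → Set E} {g : Gd E J}
  {P : ∀ q, C.I q → Set E} {c : ∀ q, C.I q → E → ℝ} {j : J} {B : BdD Q 𝒢} {o : 𝒢 → Q}
  {Kt : 𝒢 → Set E}

/-- the bands of one sheet -/
def gdG (g : Gd E J) (j : J) : Gd E Unit where
  G _ := g.G j
  B _ := g.B j
  lev _ := g.lev j
  tr _ := g.tr j

lemma gdG_is {Z : Set E} (h : g.Is Z) : (gdG g j).Is Z where
  pG _ := h.pG j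
  cB _ := h.cB j
  nB _ := h.nB j
  li _ := h.li j
  ab _ := h.ab j
  pt _ := h.pt j
  tZ _ := h.tZ j
  tB _ := h.tB j
  tl _ := h.tl j
  tG _ := h.tG j
  ts _ := h.ts j
  tt _ := h.tt j
  oG _ _ hab := absurd rfl hab
  oB _ _ hab := absurd rfl hab
  ol _ _ hab := absurd rfl hab
  oc _ _ hab := absurd rfl hab

/-- the pieces -/
def PG (P : ∀ q, C.I q → Set E) (j : J) (B : BdD Q 𝒢) : ∀ q : GQ B, GI C j B q → Set E
  | .old q, x => P q x.1
  | .big _, _ => ∅

/-- the band functions -/
def cG (c : ∀ q, C.I q → E → ℝ) (j : J) (B : BdD Q 𝒢) : ∀ q : GQ B, GI C j B q → E → ℝ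
  | .old q, x => c q x.1
  | .big _, _ => fun _ => 0

/-- the old cells -/
def OldS (B : BdD Q 𝒢) : Set (GQ B) := {q | ∃ p, q = .old p}

/-- **the invariant on the old cells** -/
theorem invG (H : Inv C K univ g P c) (O : GO C j B o) :
    Inv (cmbG O) (KG B K Kt) (OldS B) (gdG g j) (PG P j B) (cG c j B) where
  is := by
    rintro _ ⟨q, rfl⟩
    exact gdG_is (H.is q (mem_univ q))
  PF := by
    rintro _ ⟨q, rfl⟩ _ z hz
    have h1 := H.PF q (mem_univ q) j z hz
    have h2 := prod_sub (p := fun y : C.I q => C.col q y = j)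
      (P := fun _ => () = ()) (P' := fun y => C.col q y = j)
      (fun x => (-2 * c q x z)) (fun a ha => ⟨fun _ => ha, fun _ => rfl⟩) (fun a ha => ha)
    refine h1.trans ?_
    rw [← h2]
    rfl
  cl := by
    rintro _ ⟨q, rfl⟩ x
    exact H.cl q (mem_univ q) x.1
  PK := by
    rintro _ ⟨q, rfl⟩ x
    exact H.PK q (mem_univ q) x.1
  PB := by
    rintro _ ⟨q, rfl⟩ x
    have h1 := H.PB q (mem_univ q) x.1
    rw [x.2] at h1
    exact h1
  cov := by
    rintro _ ⟨q, rfl⟩ _ z hz hB
    obtain ⟨x, hx, hxz⟩ := H.cov q (mem_univ q) j z hz hB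
    exact ⟨⟨x, hx⟩, rfl, hxz⟩
  pc := by
    rintro _ ⟨q, rfl⟩ x
    exact H.pc q (mem_univ q) x.1
  cm := by
    rintro _ ⟨q, rfl⟩ x
    exact H.cm q (mem_univ q) x.1
  cn := by
    rintro _ ⟨q, rfl⟩ x
    exact H.cn q (mem_univ q) x.1
  fd := by
    rintro _ ⟨q, rfl⟩ x x' hne _
    exact H.fd q (mem_univ q) x.1 x'.1 (fun h => hne (Subtype.ext h)) (by rw [x.2, x'.2])
  sd := by
    rintro _ ⟨q, rfl⟩ x x' hne _
    exact H.sd q (mem_univ q) x.1 x'.1 (fun h => hne (Subtype.ext h)) (by rw [x.2, x'.2])
  r1 := by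
    rintro p _ h ⟨q, rfl⟩ x z hz
    cases p with
    | big c => exact absurd h not_big_lt
    | old p =>
      have h1 := H.r1 (old_lt.1 h) (mem_univ q) x.1 z hz
      refine h1.trans ?_
      constructor
      · rintro ⟨y, hy, hyz⟩
        exact ⟨⟨y, by rw [← C.col_up (old_lt.1 h) y, hy]; exact x.2⟩, Subtype.ext hy, hyz⟩
      · rintro ⟨y, hy, hyz⟩
        exact ⟨y.1, congrArg Subtype.val hy, hyz⟩
  r2 := by
    rintro p _ h ⟨q, rfl⟩ x z hz
    cases p with
    | big c => exact absurd h not_big_lt
    | old p =>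
      have h1 := H.r2 (old_lt.1 h) (mem_univ q) x.1 z hz
      have h2 := prod_sub (p := fun y : C.I p => C.col p y = j)
        (P := fun y => upG C j B h y = x) (P' := fun y => C.up (old_lt.1 h) y = x.1)
        (fun y => (-2 * c p y z)) (fun a ha => by
          constructor
          · intro e; exact congrArg Subtype.val e
          · intro e; exact Subtype.ext e) (fun a ha => by
          rw [← C.col_up (old_lt.1 h) a, ha]; exact x.2)
      refine h1.trans ?_
      rw [← h2]
      rfl

end inv

end Crest.Agent.R096.Shg_334
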