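import Crest.Agent.R096.Shg1_334
import Crest.Agent.R096.Shp4_334

/-!
# R096 (row 96), ARR-SH (helper334), GIANT part 2: the giant cells are filled

* `exists_fill` : the sheet `j` extends over the giant cells (416's stage, one piece per giant cell);
* `bls_fill`    : helper778's discs;
* `sheet_sphere_fill` : a PL 2-sphere `S ⊆ Ω` with `S ∩ Ω0 = {z ∈ Ω0 | G_j z = 1/2}`.
-/

set_option autoImplicit false
set_option linter.unusedSectionVars false

open Set Metric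

namespace Crest.Agent.R096.Shg_334

open Crest.Agent.R096.Ce_537 Crest.Agent.R096.Bd_416 Crest.Agent.R096.Shp_334
  Crest.Agent.R096.Arc_778

open scoped Classical

variable {Q 𝒢 : Type} [PartialOrder Q] {dim : Q → ℕ} {J Fam : Type}
variable {E : Type*} [NormedAddCommGroup E] [NormedSpace ℝ E]
variable {C : Cmb Q dim J Fam} {K : Q → Set E} {g : Gd E J}
  {P : ∀ q, C.I q → Set E} {c : ∀ q, C.I q → E → ℝ} {j : J} {B : BdD Q 𝒢} {o : 𝒢 → Q}
  {Kt : 𝒢 → Set E} {Ω0 Ω : Set E}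

/-- the giant cells -/
def BigS (B : BdD Q 𝒢) : Set (GQ B) := {q | ∃ c, q = .big c}

lemma old_union_big : OldS B ∪ BigS B = univ := by
  ext q
  simp only [mem_union, mem_univ, iff_true]
  cases q with
  | old q => exact Or.inl ⟨q, rfl⟩
  | big c => exact Or.inr ⟨c, rfl⟩

/-- what the filling knows -/
structure Filled (O : GO C j B o) (K : Q → Set E) (Kt : 𝒢 → Set E)
    (c : ∀ q, C.I q → E → ℝ) (g1 : Gd E Unit) (P1 : ∀ q, (cmbG O).I q → Set E)
    (c1 : ∀ q, (cmbG O).I q → E → ℝ) : Prop where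
  inv : Inv (cmbG O) (KG B K Kt) univ g1 P1 c1
  old : ∀ (q : Q) (x : {x : C.I q // C.col q x = j}), ∀ z ∈ K q,
    (c1 (.old q) x z = 0 ↔ c q x.1 z = 0)
  big : ∀ k : 𝒢, FCell (Kt k) (⋃ q ∈ B.bq k, K q) (c1 (.big k))

/-- **the filling of the giant cells** -/
theorem exists_fill (H : Inv C K univ g P c) (X : Cplx Ω0 Q dim K) (G : GC Ω0 Ω dim K B Kt)
    (O : GO C j B o) : ∃ g1 P1 c1, Filled O K Kt c g1 P1 c1 := by
  have H0 := invG (Kt := Kt) H O
  have X1 := cplxG X G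
  have hD : ∀ q ∈ OldS B, ∀ p < q, p ∈ OldS B := by
    rintro _ ⟨q, rfl⟩ p hp
    cases p with
    | old p => exact ⟨p, rfl⟩
    | big c => exact absurd hp not_big_lt
  have hDN : ∀ q ∈ BigS B, q ∉ OldS B := by
    rintro _ ⟨k, rfl⟩ ⟨q, hq⟩
    cases hq
  have hN : ∀ τ ∈ BigS B, ∀ σ < τ, σ ∈ OldS B := by
    rintro _ ⟨k, rfl⟩ p hp
    cases p with
    | old p => exact ⟨p, rfl⟩
    | big c => exact absurd hp not_big_lt
  have hb0 : (0:ℝ) < 1/4 := by norm_num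
  have hb2 : (1/4:ℝ) < 1/2 := by norm_num
  have hM : ∀ τ ∈ BigS B, ∃ M : Lam (KG B K Kt τ) ((cmbG O).I τ),
      NewCell (cmbG O) (KG B K Kt) (gdG g j) (cG c j B) (1/4) τ M ∧
        FCell (KG B K Kt τ) (bdS (KG B K Kt) τ) M.c := by
    rintro _ ⟨k, rfl⟩
    obtain ⟨e, he⟩ := X1.isBall (.big k)
    have hs : (1/2:ℝ) * ∑ _x : (cmbG O).I (.big k), (1:ℝ) ≤ 1/2 := by
      have h1 : Fintype.card ((cmbG O).I (.big k)) ≤ 1 :=
        Fintype.card_le_one_iff.2 fun a b => gi_big_subsingleton a b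
      rw [Finset.sum_const, Finset.card_univ, nsmul_eq_mul, mul_one]
      have h2 : ((Fintype.card ((cmbG O).I (.big k)) : ℕ) : ℝ) ≤ 1 := by exact_mod_cast h1
      linarith
    obtain ⟨ρ, Dp, hN'⟩ := exists_newCell_cone H0 X1 (hN _ ⟨k, rfl⟩)
      (by show 2 ≤ 3; norm_num) e he (Cst.mk' hb0 hb2) (fun _ => 1) (fun _ => one_pos)
      (u := 1/2) (by norm_num) hs
    exact ⟨_, hN', FCell.of_fill e he Dp fun a b hab => absurd (gi_big_subsingleton a b) hab.1⟩
  choose M hM1 hM2 using hM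
  have hst := stage H0 X1 hD hDN hN hb0 hb2 hM1
  rw [old_union_big] at hst
  refine ⟨_, _, _, hst, ?_, ?_⟩
  · intro q x z hz
    have h2 : stc (cmbG O) (KG B K Kt) (BigS B) (cG c j B) (1/4) M (.old q) x z =
        cl (c q x.1 z / (2 * (1/4))) := stc_old (C := cmbG O) (hDN' q) x z
    have h3 : cl (c q x.1 z / (2 * (1/4))) = 0 ↔ c q x.1 z = 0 := by
      rw [← sign_eq_zero_iff, sign_cl hb0, sign_eq_zero_iff]
    exact (Iff.of_eq (congrArg (· = 0) h2)).trans h3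
  · intro k
    have h1 := hM2 (.big k) ⟨k, rfl⟩
    rw [bdS_big] at h1
    have h2 : stc (cmbG O) (KG B K Kt) (BigS B) (cG c j B) (1/4) M (.big k) =
        (M (.big k) ⟨k, rfl⟩).c := by
      funext x z
      exact stc_new (C := cmbG O) (q := (.big k : GQ B))
        (show (GQ.big k : GQ B) ∈ BigS B from ⟨k, rfl⟩) x z
    rw [h2]
    exact h1
where
  hDN' (q : Q) : (GQ.old q : GQ B) ∉ BigS B := by
    rintro ⟨k, hk⟩
    cases hk

section facts

variable {O : GO C j B o} {g1 : Gd E Unit} {P1 : ∀ q, (cmbG O).I q → Set E}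
  {c1 : ∀ q, (cmbG O).I q → E → ℝ}

lemma Filled.zer_old (F : Filled O K Kt c g1 P1 c1) (q : Q) (x : {x : C.I q // C.col q x = j}) :
    Zr (C := cmbG O) c1 (KG B K Kt) (.old q) x = Zr c K q x.1 := by
  ext z
  constructor
  · rintro ⟨h1, h2⟩; exact ⟨h1, (F.old q x z h1).1 h2⟩
  · rintro ⟨h1, h2⟩; exact ⟨h1, (F.old q x z h1).2 h2⟩

/-- **the mid level on the old cells** -/
theorem Filled.half (F : Filled O K Kt c g1 P1 c1) (H : Inv C K univ g P c) {q : Q} {z : E}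
    (hz : z ∈ K q) : g1.G () z = 1/2 ↔ g.G j z = 1/2 := by
  rw [half_iff F.inv (q := .old q) (j := ()) hz, half_iff H hz]
  constructor
  · rintro ⟨x, -, hx⟩
    have h1 : z ∈ Zr c K q x.1 := by rw [← F.zer_old q x]; exact hx
    exact ⟨x.1, x.2, h1⟩
  · rintro ⟨x, hxj, hx⟩
    refine ⟨⟨x, hxj⟩, rfl, ?_⟩
    rw [F.zer_old q ⟨x, hxj⟩]; exact hx

/-- **helper778's discs in the giant cells** -/
theorem bls_fill [FiniteDimensional ℝ E] (F : Filled O K Kt c g1 P1 c1)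
    (X : Cplx Ω0 Q dim K) (G : GC Ω0 Ω dim K B Kt) (hB : Bls C K c j)
    (hL : ∀ (k : 𝒢) (x : (cmbG O).I (.big k)), Loop (cmbG O) (.big k) x) :
    Bls (cmbG O) (KG B K Kt) c1 () := by
  have X1 := cplxG X G
  have hE : ∀ e : GQ B, e ∈ OldS B → dimG B dim e = 1 → EdgeG (KG B K Kt e) (c1 e) := by
    rintro _ ⟨e, rfl⟩ he
    have he' : dim e = 1 := he
    constructor
    · intro x
      obtain ⟨z, hz⟩ := exists_pt (c := c) (K := K) hB ⟨⟨e, x.1⟩, he', x.2⟩
      exact ⟨z, (F.zer_old e x).trans hz⟩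
    · intro x x' hne
      refine disjoint_left.2 fun z hz hz' => hne ?_
      exact Zr_unique F.inv (q := .old e) rfl hz hz'
  have hF : ∀ f : GQ B, f ∈ OldS B → dimG B dim f = 2 → ∀ y,
      IsBall 1 (Zer (KG B K Kt f) (c1 f) y) (Gam (bdS (KG B K Kt) f) (c1 f) y) := by
    rintro _ ⟨f, rfl⟩ hf y
    have hf' : dim f = 2 := hf
    have h1 := hB f (by omega) y.1 y.2
    rw [hf'] at h1
    have e1 : Zer (K f) (c1 (.old f)) y = Zr c K f y.1 := F.zer_old f y
    have e2 : Gam (bdS (KG B K Kt) (.old f)) (c1 (.old f)) y = Zr c K f y.1 ∩ bdS K f := by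
      rw [bdS_old]
      ext z
      constructor
      · rintro ⟨h2, h3⟩
        have h4 : z ∈ K f := bdS_sub X h2
        exact ⟨⟨h4, (F.old f y z h4).1 h3⟩, h2⟩
      · rintro ⟨⟨h2, h3⟩, h4⟩
        exact ⟨h4, (F.old f y z h2).2 h3⟩
    show IsBall 1 (Zer (K f) (c1 (.old f)) y) _
    rw [e1, e2]
    exact h1
  intro q hq x _
  cases q with
  | old q =>
    have h1 := hB q hq x.1 x.2
    rw [F.zer_old q x, bdS_old]
    exact h1
  | big k =>
    have hd : dimG B dim (.big k : GQ B) = 3 := rfl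
    have hold : ∀ e : GQ B, e < .big k → e ∈ OldS B := by
      intro e he
      cases e with
      | old e => exact ⟨e, rfl⟩
      | big c => exact absurd he not_big_lt
    have hc := circle_of_loop F.inv X1 hd (fun e he hde => hE e (hold e he) hde)
      (fun f hf hdf => hF f (hold f hf) hdf) (hL k x)
    have hfc : FCell (KG B K Kt (.big k)) (bdS (KG B K Kt) (.big k)) (c1 (.big k)) := by
      rw [bdS_big]; exact F.big k
    have h1 := zer_disc F.inv X1 hd hfc hc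
    have e2 : Zr (C := cmbG O) c1 (KG B K Kt) (.big k) x ∩ bdS (KG B K Kt) (.big k) =
        Gam (bdS (KG B K Kt) (.big k)) (c1 (.big k)) x := by
      ext z
      exact ⟨fun h => ⟨h.2, h.1.2⟩, fun h => ⟨⟨bdS_sub X1 h.1, h.2⟩, h.1⟩⟩
    rw [e2]
    exact h1

end facts

/-- **the sheet, closed by discs in the cores, is a PL 2-sphere** -/
theorem sheet_sphere_fill [FiniteDimensional ℝ E] (hE : Gp_702.ExistStmt) (hN : Gp_702.NormStmt)
    (h3 : Module.finrank ℝ E = 3) (hΩ : IsOpen Ω) (H : Inv C K univ g P c)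
    (X : Cplx Ω0 Q dim K) (G : GC Ω0 Ω dim K B Kt) (O : GO C j B o) (hB : Bls C K c j)
    (htop : Top3 (GQ B) (dimG B dim))
    (hL : ∀ (k : 𝒢) (x : (cmbG O).I (.big k)), Loop (cmbG O) (.big k) x)
    [Finite (Pce (cmbG O) () 3)] (h1 : SH1 (cmbG O) ()) (hc : SConn (cmbG O) ()) :
    ∃ S : Set E, Nonempty (PLEquiv (sph 3) S) ∧ S ⊆ Ω ∧
      ∀ z ∈ Ω0, (z ∈ S ↔ g.G j z = 1/2) := by
  obtain ⟨g1, P1, c1, F⟩ := exists_fill H X G O
  refine ⟨{z | z ∈ Ω ∧ g1.G () z = 1/2}, ?_, fun z hz => hz.1, ?_⟩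
  · exact sheet_sphere hE hN h3 hΩ F.inv (cplxG X G) (bls_fill F X G hB hL) htop h1 hc
  · intro z hz
    obtain ⟨q, hq⟩ := X.cover z hz
    rw [← F.half H hq]
    exact ⟨fun h => h.2, fun h => ⟨G.sub0 hz, h⟩⟩

end Crest.Agent.R096.Shg_334
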