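import Crest.Agent.R096.Shg2_334
import Crest.Agent.R096.Shg0_334

/-!
# R096 (row 96), ARR-SH (helper334), GIANT part 3: the dictionary with giant tiles

* `exists_GO` : base vertices and constant labels;
* `Dic2`      : `Dic` of part 3 with two index sets, `sh1`, `sconn`, `finite1`;
* `Gnt`       : the giant tiles of the merged mesh, (E1) = `one`;
* `dicG`, `loopG`, and the final `sheet_giant`.
-/

set_option autoImplicit false
set_option linter.unusedSectionVars false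

open Set Metric

namespace Crest.Agent.R096.Shg_334

open Crest.Agent.R096.Ce_537 Crest.Agent.R096.Bd_416 Crest.Agent.R096.Shp_334
  Crest.Agent.R096.Arc_778 Crest.Agent.R096.Seq_213 Crest.Agent.R096.St_147

open scoped Classical

/-! ### base vertices -/

section base

variable {Q 𝒢 : Type} [PartialOrder Q] {dim : Q → ℕ} {J Fam : Type}
variable {E : Type*} [NormedAddCommGroup E] [NormedSpace ℝ E]
variable {C : Cmb Q dim J Fam} {K : Q → Set E} {g : Gd E J}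
  {P : ∀ q, C.I q → Set E} {c : ∀ q, C.I q → E → ℝ} {j : J} {B : BdD Q 𝒢}
  {Kt : 𝒢 → Set E} {Ω0 Ω : Set E}

/-- every core has a vertex in its boundary -/
lemma exists_vertex (C : Cmb Q dim J Fam) (G : GC Ω0 Ω dim K B Kt) (k : 𝒢) :
    ∃ v ∈ B.bq k, dim v = 0 := by
  obtain ⟨e, he⟩ := G.ball k
  have h1 : (fun _ => 1 : Fin 3 → ℝ) ∈ sph 3 := by
    rw [mem_sphere_zero_iff_norm, pi_norm_const]; exact norm_one
  have h2 : e.f (fun _ => 1) ∈ ⋃ q ∈ B.bq k, K q := by rw [← he]; exact ⟨_, h1, rfl⟩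
  obtain ⟨q, hq, -⟩ := mem_iUnion₂.1 h2
  by_cases h0 : dim q = 0
  · exact ⟨q, hq, h0⟩
  · have h1 : 1 ≤ dim q := Nat.one_le_iff_ne_zero.2 h0
    exact ⟨C.o q, B.down k _ _ (C.o_lt q h1).le hq, C.o_dim q h1⟩

/-- **base vertices and constant labels exist** -/
theorem exists_GO (H : Inv C K univ g P c) (X : Cplx Ω0 Q dim K) (G : GC Ω0 Ω dim K B Kt) :
    ∃ o : 𝒢 → Q, GO C j B o := by
  choose o ho1 ho2 using exists_vertex C G
  refine ⟨o, ho1, ho2, fun k hk => ?_⟩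
  have X1 := cplxG X G
  -- the boundary sphere
  have hcon : IsPreconnected (⋃ q ∈ B.bq k, K q) := by
    obtain ⟨e, he⟩ := G.ball k
    rw [← he]
    have h1 : 1 < Module.rank ℝ (Fin 3 → ℝ) := by
      rw [rank_fin_fun]; norm_num
    exact (isPreconnected_sphere h1 0 1).image _ (e.pf.1.mono sph_subset_cube)
  have hfin : (B.bq k).Finite := by
    have h1 := X1.finite_below (.big k)
    have h2 : B.bq k ⊆ GQ.old ⁻¹' {i : GQ B | i < .big k} := fun q hq => old_lt_big.2 hq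
    exact (h1.preimage (by intro a _ b _ h; cases h; rfl)).subset h2
  have hval : ∀ q ∈ B.bq k, ∀ z ∈ K q, g.G j z = 1/2 - sg (C.Lab j q) / 2 := by
    intro q hq z hz
    rw [H.PF q (mem_univ q) j z hz, Finset.filter_false_of_mem (fun x _ => hk q hq x)]
    simp
  let A : ZMod 2 → Set E := fun a => ⋃ q ∈ {q | q ∈ B.bq k ∧ C.Lab j q = a}, K q
  have hcl : ∀ a, IsClosed (A a) := fun a =>
    (hfin.subset fun q hq => hq.1).isClosed_biUnion fun q _ => X.isClosed q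
  have hcov : (⋃ q ∈ B.bq k, K q) ⊆ A 0 ∪ A 1 := by
    intro z hz
    obtain ⟨q, hq, hzq⟩ := mem_iUnion₂.1 hz
    rcases z2 (C.Lab j q) with h | h
    · exact Or.inl (mem_biUnion (show q ∈ {q | q ∈ B.bq k ∧ C.Lab j q = 0} from ⟨hq, h⟩) hzq)
    · exact Or.inr (mem_biUnion (show q ∈ {q | q ∈ B.bq k ∧ C.Lab j q = 1} from ⟨hq, h⟩) hzq)
  have hne : ∀ q, (K q).Nonempty := fun q => by
    obtain ⟨e, -⟩ := X.isBall q
    exact ⟨e.f 0, e.mf (by simp [cube])⟩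
  have h01 : ∀ q ∈ B.bq k, ∀ q' ∈ B.bq k, C.Lab j q = 0 → C.Lab j q' = 1 → False := by
    intro q hq q' hq' h h'
    obtain ⟨z, hz⟩ := hne q
    obtain ⟨z', hz'⟩ := hne q'
    obtain ⟨y, -, hy0, hy1⟩ := isPreconnected_closed_iff.1 hcon (A 0) (A 1) (hcl 0) (hcl 1) hcov
      ⟨z, mem_biUnion hq hz,
        mem_biUnion (show q ∈ {q | q ∈ B.bq k ∧ C.Lab j q = 0} from ⟨hq, h⟩) hz⟩
      ⟨z', mem_biUnion hq' hz',
        mem_biUnion (show q' ∈ {q | q ∈ B.bq k ∧ C.Lab j q = 1} from ⟨hq', h'⟩) hz'⟩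
    obtain ⟨p, ⟨hp, hp0⟩, hyp⟩ := mem_iUnion₂.1 hy0
    obtain ⟨p', ⟨hp', hp1⟩, hyp'⟩ := mem_iUnion₂.1 hy1
    have e1 := hval p hp y hyp
    have e2 := hval p' hp' y hyp'
    rw [hp0, sg_zero] at e1
    rw [hp1, sg_one] at e2
    rw [e1] at e2
    norm_num at e2
  intro q hq
  rcases z2 (C.Lab j q) with h | h <;> rcases z2 (C.Lab j (o k)) with h' | h'
  · rw [h, h']
  · exact (h01 q hq (o k) (ho1 k) h h').elim
  · exact (h01 (o k) (ho1 k) q hq h' h).elim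
  · rw [h, h']

end base

/-! ### the dictionary with two index sets -/

section dic

variable {Q : Type} [PartialOrder Q] {dim : Q → ℕ} {J Fam J' Fam' : Type}
variable {ι Φ W : Type} {M : MeshC ι Φ W} {fam : J → Fam}

/-- dictionary between the sheet `j'` of a `Cmb` and the sheet `j` of a state -/
structure Dic2 (C : Cmb Q dim J' Fam') (j' : J') (s : GSt M fam) (j : J) where
  pt : Pce C j' 1 → W
  inj : Function.Injective pt
  mem : ∀ a, pt a ∈ s.P ∧ s.lab (pt a) = j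
  sur : ∀ w ∈ s.P, s.lab w = j → ∃ a, pt a = w
  ch : Φ → W → Pce C j' 2 → Prop
  ch_ex : ∀ F w, s.At F w → s.lab w = j → ∃ y, ch F w y
  ch_un : ∀ F w y y', ch F w y → ch F w y' → y = y'
  ch_sur : ∀ y, ∃ F w, s.At F w ∧ s.lab w = j ∧ ch F w y
  sub : ∀ F w y, s.At F w → s.lab w = j → ch F w y → ∀ a,
    (Sub C a y ↔ pt a = w ∨ pt a = s.mu F w)
  In : ι → W → Pce C j' 3 → Prop
  in_un : ∀ q w t t', In q w t → In q w t' → t = t'
  tile : ∀ q F w y, q ∈ M.side F → s.At F w → s.lab w = j → ch F w y →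
    ∃ t, In q w t ∧ In q (s.mu F w) t ∧ Sub C y t

namespace Dic2

variable {C : Cmb Q dim J' Fam'} {j' : J'} {s : GSt M fam} {j : J} (D : Dic2 C j' s j)
include D

lemma mu_j {F : Φ} {w : W} (h : s.At F w) (hj : s.lab w = j) :
    s.mu F w ∈ s.P ∧ s.lab (s.mu F w) = j :=
  ⟨(s.mu_mem h.1 h.2).1, by rw [s.mu_lab h.1 h.2, hj]⟩

/-- the two ends of a chord -/
lemma ends {F : Φ} {w : W} {y : Pce C j' 2} (h : s.At F w) (hj : s.lab w = j) (hy : D.ch F w y) :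
    ∃ a b, D.pt a = w ∧ D.pt b = s.mu F w ∧ a ≠ b ∧ Sub C a y ∧ Sub C b y := by
  obtain ⟨a, ha⟩ := D.sur w h.1 hj
  obtain ⟨b, hb⟩ := D.sur _ (D.mu_j h hj).1 (D.mu_j h hj).2
  refine ⟨a, b, ha, hb, ?_, (D.sub F w y h hj hy a).2 (Or.inl ha),
    (D.sub F w y h hj hy b).2 (Or.inr hb)⟩
  rintro rfl
  exact s.mu_ne h.1 h.2 (hb.symm.trans ha)

/-- **`H¹ = 0`** -/
theorem sh1 (h1 : s.H1 j) : SH1 C j' := by
  intro κ' hκ'
  choose ψ' hψ' using hκ'
  let κ : Φ → W → ZMod 2 := fun F w => if h : ∃ y, D.ch F w y then κ' h.choose else 0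
  have hκ : ∀ F w y, D.ch F w y → κ F w = κ' y := by
    intro F w y hy
    have h : ∃ y, D.ch F w y := ⟨y, hy⟩
    have e1 : κ F w = κ' h.choose := by simp only [κ]; rw [dif_pos h]
    rw [e1, D.ch_un F w _ _ h.choose_spec hy]
  obtain ⟨Ψ, hΨ⟩ := h1 κ (by
    intro q
    let ψ : W → ZMod 2 := fun w => if h : ∃ ta : Pce C j' 3 × Pce C j' 1, D.In q w ta.1 ∧
      D.pt ta.2 = w then ψ' h.choose.1 h.choose.2 else 0
    have hψ : ∀ w t a, D.In q w t → D.pt a = w → ψ w = ψ' t a := by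
      intro w t a ht ha
      have h : ∃ ta : Pce C j' 3 × Pce C j' 1, D.In q w ta.1 ∧ D.pt ta.2 = w := ⟨(t, a), ht, ha⟩
      have e1 : ψ w = ψ' h.choose.1 h.choose.2 := by simp only [ψ]; rw [dif_pos h]
      rw [e1, D.in_un q w _ t h.choose_spec.1 ht, D.inj (h.choose_spec.2.trans ha.symm)]
    refine ⟨ψ, fun F w hq hAt hj => ?_⟩
    obtain ⟨y, hy⟩ := D.ch_ex F w hAt hj
    obtain ⟨t, ht1, ht2, hty⟩ := D.tile q F w y hq hAt hj hy
    obtain ⟨a, b, ha, hb, hab, hay, hby⟩ := D.ends hAt hj hy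
    rw [hκ F w y hy, hψ w t a ht1 ha, hψ _ t b ht2 hb]
    exact hψ' t y hty a b hay hby hab)
  refine ⟨fun a => Ψ (D.pt a), fun y a b ha hb hab => ?_⟩
  obtain ⟨F, w, hAt, hj, hy⟩ := D.ch_sur y
  have h2 := hΨ F w hAt hj
  rw [hκ F w y hy] at h2
  rw [h2]
  rcases (D.sub F w y hAt hj hy a).1 ha with ha | ha <;>
    rcases (D.sub F w y hAt hj hy b).1 hb with hb | hb
  · exact absurd (D.inj (ha.trans hb.symm)) hab
  · show _ = Ψ (D.pt a) + Ψ (D.pt b)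
    rw [ha, hb]
  · show _ = Ψ (D.pt a) + Ψ (D.pt b)
    rw [ha, hb, add_comm]
  · exact absurd (D.inj (ha.trans hb.symm)) hab

/-- **connectedness** -/
theorem sconn (hc : s.Conn j) : SConn C j' := by
  obtain ⟨⟨w, hw, hwj⟩, hc⟩ := hc
  refine ⟨?_, ?_⟩
  · obtain ⟨a, -⟩ := D.sur w hw hwj
    exact ⟨a⟩
  · intro Z hZ a b haZ
    have h1 := hc {w | ∃ a ∈ Z, D.pt a = w} (by
      rintro F w ⟨a, haZ, ha⟩ hAt hj
      obtain ⟨y, hy⟩ := D.ch_ex F w hAt hj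
      obtain ⟨a', b', ha', hb', hab, hay, hby⟩ := D.ends hAt hj hy
      have e : a = a' := D.inj (ha.trans ha'.symm)
      subst e
      exact ⟨b', hZ y a b' hay hby haZ, hb'⟩) (D.pt a) ⟨a, haZ, rfl⟩ (D.mem a).1 (D.mem a).2
      (D.pt b) (D.mem b).1 (D.mem b).2
    obtain ⟨b', hb'Z, hb'⟩ := h1
    rw [← D.inj hb']
    exact hb'Z

/-- finitely many points -/
theorem finite1 : Finite (Pce C j' 1) := by
  have h1 := s.fin (fam j)
  have h2 : {w | w ∈ s.P ∧ s.lab w = j}.Finite := h1.subset fun w hw => ⟨hw.1, by rw [hw.2]⟩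
  have := h2.to_subtype
  exact Finite.of_injective (β := {w | w ∈ s.P ∧ s.lab w = j}) (fun a => ⟨D.pt a, D.mem a⟩)
    (fun a b hab => D.inj (congrArg Subtype.val hab))

end Dic2

end dic

/-! ### giant tiles -/

section giant

variable {Q 𝒢 : Type} [PartialOrder Q] {dim : Q → ℕ} {J Fam : Type}
variable {ι Φ W : Type} {M : MeshC ι Φ W} {fam : J → Fam}
variable {C : Cmb Q dim J Fam} {s : GSt M fam} {j : J} {B : BdD Q 𝒢} {o : 𝒢 → Q}
  {cf : Φ → Q} {ord : ι → Prop}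

/-- **the giant tiles of the merged mesh**; `one` = (E1): the sheet `j` has at most one cycle on the
boundary of a core -/
structure Gnt (s : GSt M fam) (j : J) (dim : Q → ℕ) (cf : Φ → Q) (ord : ι → Prop)
    (B : BdD Q 𝒢) (tl : 𝒢 → ι) : Prop where
  side : ∀ k F, cf F ∈ B.bq k ↔ tl k ∈ M.side F
  cf_inj : ∀ F F', cf F = cf F' → F = F'
  cell2 : ∀ k, ∀ f ∈ B.bq k, dim f = 2 → ∃ F, cf F = f
  dim2 : ∀ F, dim (cf F) = 2
  dlt : ∀ k, ∀ q ∈ B.bq k, dim q < 3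
  edge : ∀ k, ∀ e ∈ B.bq k, dim e = 1 → ∃ f ∈ B.bq k, dim f = 2 ∧ e < f
  tl_inj : ∀ k k', tl k = tl k' → k = k'
  nord : ∀ k, ¬ ord (tl k)
  giant : ∀ q F, q ∈ M.side F → ¬ ord q → ∃ k, q = tl k
  one : ∀ k, ∀ Z : Set W, (∀ F w, tl k ∈ M.side F → w ∈ Z → s.At F w → s.lab w = j →
    s.mu F w ∈ Z) → ∀ F w F' w', tl k ∈ M.side F → tl k ∈ M.side F' → s.At F w → s.At F' w' →
    s.lab w = j → s.lab w' = j → w ∈ Z → w' ∈ Z

/-- a piece of the sheet as a piece of the giant complex -/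
def eP {k : ℕ} (O : GO C j B o) (y : Pce C j k) : Pce (cmbG O) () k :=
  ⟨⟨.old y.1.1, (⟨y.1.2, y.2.2⟩ : {x : C.I y.1.1 // C.col y.1.1 x = j})⟩, y.2.1, rfl⟩

lemma eP_inj {k : ℕ} (O : GO C j B o) {y y' : Pce C j k} (h : eP O y = eP O y') : y = y' := by
  obtain ⟨⟨q, x⟩, h1, h2⟩ := y
  obtain ⟨⟨q', x'⟩, h1', h2'⟩ := y'
  have h3 := congrArg Subtype.val h
  have h4 : (⟨.old q, (⟨x, h2⟩ : {x : C.I q // C.col q x = j})⟩ : Σ e, (cmbG O).I e) =
      ⟨.old q', (⟨x', h2'⟩ : {x : C.I q' // C.col q' x = j})⟩ := h3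
  obtain ⟨h5, h6⟩ := Sigma.mk.inj h4
  cases h5
  have h7 := eq_of_heq h6
  have h8 : x = x' := congrArg Subtype.val h7
  subst h8
  rfl

lemma eP_sur {k : ℕ} (O : GO C j B o) (hk : k ≠ 3) (y : Pce (cmbG O) () k) :
    ∃ y0, eP O y0 = y := by
  obtain ⟨⟨q, x⟩, h1, h2⟩ := y
  cases q with
  | old q => exact ⟨⟨⟨q, x.1⟩, h1, x.2⟩, rfl⟩
  | big c => exact absurd (show k = 3 from h1.symm) hk

lemma sub_eP {k l : ℕ} (O : GO C j B o) {a : Pce C j k} {y : Pce C j l} :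
    Sub (cmbG O) (eP O a) (eP O y) ↔ Sub C a y := by
  constructor
  · rintro ⟨h, e⟩
    exact ⟨old_lt.1 h, congrArg Subtype.val e⟩
  · rintro ⟨h, e⟩
    exact ⟨old_lt.2 h, Subtype.ext e⟩

/-- the inverse -/
noncomputable def dP {k : ℕ} (O : GO C j B o) (hk : k ≠ 3) (y : Pce (cmbG O) () k) : Pce C j k :=
  (eP_sur O hk y).choose

lemma eP_dP {k : ℕ} (O : GO C j B o) (hk : k ≠ 3) (y : Pce (cmbG O) () k) : eP O (dP O hk y) = y :=
  (eP_sur O hk y).choose_spec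

lemma dP_eP {k : ℕ} (O : GO C j B o) (hk : k ≠ 3) (y : Pce C j k) : dP O hk (eP O y) = y :=
  eP_inj O (eP_dP O hk _)

variable {tl : 𝒢 → ι}

/-- the piece in a giant cell -/
def bigP (O : GO C j B o) (k : 𝒢) {l : ℕ} (y : Pce C j l) (hy : y.1.1 ∈ B.bq k) :
    Pce (cmbG O) () 3 :=
  ⟨⟨.big k, (PLift.up ⟨y.1.1, hy, y.1.2, y.2.2⟩ :
    PLift (∃ q ∈ B.bq k, ∃ x : C.I q, C.col q x = j))⟩, rfl, rfl⟩

lemma sub_bigP (O : GO C j B o) (k : 𝒢) {l : ℕ} (y : Pce C j l) (hy : y.1.1 ∈ B.bq k) :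
    Sub (cmbG O) (eP O y) (bigP O k y hy) := ⟨old_lt_big.2 hy, gi_big_subsingleton _ _⟩

lemma big_unique (O : GO C j B o) {k : 𝒢} {t t' : Pce (cmbG O) () 3} (h : t.1.1 = .big k)
    (h' : t'.1.1 = .big k) : t = t' := by
  obtain ⟨⟨q, x⟩, h1, h2⟩ := t
  obtain ⟨⟨q', x'⟩, h1', h2'⟩ := t'
  have e : q = .big k := h
  have e' : q' = .big k := h'
  subst e
  subst e'
  have : x = x' := gi_big_subsingleton _ _
  subst this
  rfl

/-- **the dictionary with giant tiles** -/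
noncomputable def dicG (D : DicO C s j cf ord) (G : Gnt s j dim cf ord B tl) (O : GO C j B o) :
    Dic2 (cmbG O) () s j where
  pt a := D.pt (dP O (by norm_num) a)
  inj a b h := by
    have h1 := D.inj h
    rw [← eP_dP O (by norm_num) a, ← eP_dP O (by norm_num) b, h1]
  mem a := D.mem _
  sur w hw hj := by
    obtain ⟨a, ha⟩ := D.sur w hw hj
    exact ⟨eP O a, by rw [dP_eP]; exact ha⟩
  ch F w y := D.ch F w (dP O (by norm_num) y)
  ch_ex F w h hj := by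
    obtain ⟨y, hy⟩ := D.ch_ex F w h hj
    exact ⟨eP O y, by rw [dP_eP]; exact hy⟩
  ch_un F w y y' h h' := by
    have h1 := D.ch_un F w _ _ h h'
    rw [← eP_dP O (by norm_num) y, ← eP_dP O (by norm_num) y', h1]
  ch_sur y := D.ch_sur _
  sub F w y h hj hy a := by
    rw [← D.sub F w _ h hj hy, ← sub_eP O, eP_dP, eP_dP]
  In q w t := (ord q ∧ ∃ t0, t = eP O t0 ∧ D.In q w t0) ∨ ∃ k, q = tl k ∧ t.1.1 = .big k
  in_un := by
    rintro q w t t' (⟨h1, t0, rfl, h2⟩ | ⟨k, rfl, h2⟩) (⟨h1', t0', rfl, h2'⟩ | ⟨k', h1', h2'⟩)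
    · rw [D.in_un q h1 w t0 t0' h2 h2']
    · subst h1'; exact absurd h1 (G.nord k')
    · exact absurd h1' (G.nord k)
    · have := G.tl_inj k k' h1'
      subst this
      exact big_unique O h2 h2'
  tile q F w y hq hAt hj hy := by
    by_cases ho : ord q
    · obtain ⟨t, h1, h2, h3⟩ := D.tile q ho F w _ hq hAt hj hy
      refine ⟨eP O t, Or.inl ⟨ho, t, rfl, h1⟩, Or.inl ⟨ho, t, rfl, h2⟩, ?_⟩
      rw [← eP_dP O (by norm_num) y, sub_eP]
      exact h3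
    · obtain ⟨k, rfl⟩ := G.giant q F hq ho
      have h1 : (dP O (by norm_num) y).1.1 ∈ B.bq k := by
        rw [D.ch_cf F w _ hy]
        exact (G.side k F).2 hq
      refine ⟨bigP O k _ h1, Or.inr ⟨k, rfl, rfl⟩, Or.inr ⟨k, rfl, rfl⟩, ?_⟩
      have h2 := sub_bigP O k _ h1
      rwa [eP_dP] at h2

/-- the ends of a chord -/
lemma dic_ends (D : DicO C s j cf ord) (y : Pce C j 2) : ∃ a b : Pce C j 1, a ≠ b ∧
    Sub C a y ∧ Sub C b y ∧ ∀ v, Sub C v y → v = a ∨ v = b := by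
  obtain ⟨F, w, hAt, hj, hy⟩ := D.ch_sur y
  obtain ⟨a, ha⟩ := D.sur w hAt.1 hj
  obtain ⟨b, hb⟩ := D.sur _ (s.mu_mem hAt.1 hAt.2).1 (by rw [s.mu_lab hAt.1 hAt.2, hj])
  refine ⟨a, b, ?_, (D.sub F w y hAt hj hy a).2 (Or.inl ha),
    (D.sub F w y hAt hj hy b).2 (Or.inr hb), fun v hv => ?_⟩
  · rintro rfl
    exact s.mu_ne hAt.1 hAt.2 (hb.symm.trans ha)
  · rcases (D.sub F w y hAt hj hy v).1 hv with h | h
    · exact Or.inl (D.inj (h.trans ha.symm))
    · exact Or.inr (D.inj (h.trans hb.symm))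

/-- pieces in `Blw` -/
lemma mem_blw_old (O : GO C j B o) {f : Q} {y : (cmbG O).I (.old f)} {v : Σ e, (cmbG O).I e}
    (hv : v ∈ Blw (cmbG O) (.old f) y) : ∃ a : Pce C j 1, (eP O a).1 = v ∧
      ∃ h : a.1.1 < f, C.up h a.1.2 = y.1 := by
  obtain ⟨⟨q, x⟩, hd, hlt, he⟩ := v, hv
  cases q with
  | big c => exact absurd hlt not_big_lt
  | old q => exact ⟨⟨⟨q, x.1⟩, hd, x.2⟩, rfl, old_lt.1 hlt, congrArg Subtype.val he⟩

lemma mem_blw_big (O : GO C j B o) {k : 𝒢} {y : (cmbG O).I (.big k)} {v : Σ e, (cmbG O).I e}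
    (hv : v ∈ Blw (cmbG O) (.big k) y) : ∃ a : Pce C j 1, (eP O a).1 = v ∧ a.1.1 ∈ B.bq k := by
  obtain ⟨⟨q, x⟩, hd, hlt, he⟩ := v, hv
  cases q with
  | big c => exact absurd hlt not_big_lt
  | old q => exact ⟨⟨⟨q, x.1⟩, hd, x.2⟩, rfl, old_lt_big.1 hlt⟩

lemma blw_big_of (O : GO C j B o) {k : 𝒢} {y : (cmbG O).I (.big k)} {a : Pce C j 1}
    (ha : a.1.1 ∈ B.bq k) : (eP O a).1 ∈ Blw (cmbG O) (.big k) y :=
  ⟨(eP O a).2.1, old_lt_big.2 ha, gi_big_subsingleton _ _⟩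

/-- an edge point of the sheet on a giant tile -/
lemma at_of (D : DicO C s j cf ord) {a : Pce C j 1} {F : Φ} (h : a.1.1 < cf F) :
    s.At F (D.pt a) := ⟨(D.mem a).1, (D.on a F).1 h⟩

/-- **the curve of the sheet on a giant cell** -/
theorem loopG (D : DicO C s j cf ord) (G : Gnt s j dim cf ord B tl) (O : GO C j B o) (k : 𝒢)
    (x : (cmbG O).I (.big k)) : Loop (cmbG O) (.big k) x where
  ends := by
    intro F hF hlt y
    cases F with
    | big c => exact absurd hlt not_big_lt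
    | old f =>
      have hf : dim f = 2 := hF
      obtain ⟨a, b, hab, ha, hb, hall⟩ := dic_ends D ⟨⟨f, y.1⟩, hf, y.2⟩
      refine ⟨(eP O a).1, (eP O b).1, fun h => hab (eP_inj O (Subtype.ext h)), ?_⟩
      ext v
      constructor
      · intro hv
        obtain ⟨v0, rfl, h1, h2⟩ := mem_blw_old O hv
        rcases hall v0 ⟨h1, h2⟩ with rfl | rfl
        · exact Or.inl rfl
        · exact Or.inr rfl
      · have key : ∀ u : Pce C j 1, Sub C u (⟨⟨f, y.1⟩, hf, y.2⟩ : Pce C j 2) →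
            (eP O u).1 ∈ Blw (cmbG O) (.old f) y := by
          rintro u ⟨h1, h2⟩
          exact ⟨(eP O u).2.1, old_lt.2 h1, Subtype.ext h2⟩
        rintro (rfl | rfl)
        · exact key a ha
        · exact key b hb
  two := by
    rintro e he hlt ⟨u⟩
    cases e with
    | big c => exact absurd hlt not_big_lt
    | old e =>
      have he' : dim e = 1 := he
      have hek : e ∈ B.bq k := old_lt_big.1 hlt
      let a : Pce C j 1 := ⟨⟨e, u.1⟩, he', u.2⟩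
      obtain ⟨f, hf, hfd, hef⟩ := G.edge k e hek he'
      obtain ⟨F, rfl⟩ := G.cell2 k f hf hfd
      have hdeg := M.deg (tl k) (D.pt a)
      have hfin : {F | tl k ∈ M.side F ∧ D.pt a ∈ M.On F}.Finite :=
        (M.fin (D.pt a)).subset fun F hF => hF.2
      have hne : {F | tl k ∈ M.side F ∧ D.pt a ∈ M.On F}.Nonempty :=
        ⟨F, (G.side k F).1 hf, (D.on a F).1 hef⟩
      have h2 : {F | tl k ∈ M.side F ∧ D.pt a ∈ M.On F}.ncard = 2 := by
        rcases hdeg with h | h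
        · rw [Set.ncard_eq_zero hfin] at h
          exact absurd h hne.ne_empty
        · exact h
      obtain ⟨F1, F2, hF12, hset⟩ := Set.ncard_eq_two.1 h2
      refine ⟨.old (cf F1), .old (cf F2), fun h => hF12 (G.cf_inj _ _ (GQ.old.inj h)), ?_⟩
      ext q
      constructor
      · rintro ⟨hq, hq1, hq2⟩
        cases q with
        | big c => exact absurd hq2 not_big_lt
        | old q =>
          have hqk := old_lt_big.1 hq2
          obtain ⟨F', rfl⟩ := G.cell2 k q hqk hq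
          have h3 : F' ∈ {F | tl k ∈ M.side F ∧ D.pt a ∈ M.On F} :=
            ⟨(G.side k F').1 hqk, (D.on a F').1 (old_lt.1 hq1)⟩
          rw [hset] at h3
          rcases h3 with rfl | rfl
          · exact Or.inl rfl
          · exact Or.inr rfl
      · have key : ∀ F', F' ∈ {F | tl k ∈ M.side F ∧ D.pt a ∈ M.On F} →
            (GQ.old (cf F') : GQ B) ∈ {F : GQ B | dimG B dim F = 2 ∧ .old e < F ∧ F < .big k} := by
          rintro F' ⟨h3, h4⟩
          exact ⟨G.dim2 F', old_lt.2 ((D.on a F').2 h4), old_lt_big.2 ((G.side k F').2 h3)⟩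
        rintro (rfl | rfl)
        · exact key F1 (by rw [hset]; simp)
        · exact key F2 (by rw [hset]; simp)
  ne := by
    obtain ⟨q, hq, y, hy⟩ := (show PLift (∃ q ∈ B.bq k, ∃ x : C.I q, C.col q x = j) from x).down
    have h0 : dim q ≠ 0 := fun h => (C.vert q h).false y
    by_cases h1 : dim q = 1
    · exact ⟨_, blw_big_of O (a := ⟨⟨q, y⟩, h1, hy⟩) hq⟩
    · have h2 : dim q = 2 := by have := G.dlt k q hq; omega
      obtain ⟨a, b, -, ⟨ha, -⟩, -⟩ := dic_ends D ⟨⟨q, y⟩, h2, hy⟩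
      exact ⟨_, blw_big_of O (a := a) (B.down k _ _ ha.le hq)⟩
  conn := by
    intro S hS hne hcl
    refine Subset.antisymm hS ?_
    obtain ⟨v0, hv0⟩ := hne
    obtain ⟨a0, rfl, ha0⟩ := mem_blw_big O (hS hv0)
    intro v hv
    obtain ⟨a, rfl, ha⟩ := mem_blw_big O hv
    obtain ⟨f0, hf0, hfd0, hef0⟩ := G.edge k a0.1.1 ha0 a0.2.1
    obtain ⟨F0, rfl⟩ := G.cell2 k f0 hf0 hfd0
    obtain ⟨f, hf, hfd, hef⟩ := G.edge k a.1.1 ha a.2.1
    obtain ⟨F, rfl⟩ := G.cell2 k f hf hfd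
    have h1 := G.one k {w | ∃ a : Pce C j 1, D.pt a = w ∧ (eP O a).1 ∈ S} (by
      rintro F' w' hF' ⟨a', rfl, ha'⟩ hAt hj
      obtain ⟨y, hy⟩ := D.ch_ex F' _ hAt hj
      obtain ⟨b, hb⟩ := D.sur _ (s.mu_mem hAt.1 hAt.2).1 (by rw [s.mu_lab hAt.1 hAt.2, hj])
      refine ⟨b, hb, ?_⟩
      obtain ⟨ha1, ha2⟩ := (D.sub F' _ y hAt hj hy a').2 (Or.inl rfl)
      obtain ⟨hb1, hb2⟩ := (D.sub F' _ y hAt hj hy b).2 (Or.inr hb)
      have hyc : y.1.1 = cf F' := D.ch_cf F' _ y hy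
      have hyk : y.1.1 ∈ B.bq k := by rw [hyc]; exact (G.side k F').2 hF'
      have h2 := hcl (eP O a').1 ha' (.old y.1.1) y.2.1 (old_lt.2 ha1) (old_lt_big.2 hyk)
      refine h2 ⟨(eP O b).2.1, old_lt.2 hb1, Subtype.ext ?_⟩
      show C.up hb1 b.1.2 = C.up ha1 a'.1.2
      rw [ha2, hb2]) F0 (D.pt a0) F (D.pt a)
      ((G.side k F0).1 hf0) ((G.side k F).1 hf) (at_of D hef0) (at_of D hef) (D.mem a0).2
      (D.mem a).2 ⟨a0, rfl, hv0⟩
    obtain ⟨a', ha', hmem⟩ := h1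
    rw [← D.inj ha']
    exact hmem

end giant

end Crest.Agent.R096.Shg_334
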