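import Crest.Agent.R096.Shg3_334
import Crest.Agent.R096.Shp5_334
import Crest.Agent.R096.GpZ_702

/-!
# R096 (row 96), ARR-SH (helper334), GIANT part 4: the sheets with cores as giant cells

* `sheet_giant` : a PL 2-sphere `S ⊆ Ω` which is `{G_j = 1/2}` on the mesh part `Ω0`; the cores are
  no cells of `Q`, the invariant is only on the cells of `Ω0`;
* `sheetData'`, `exact_sheets'` : helper241's `SheetData` from such spheres.
P2-GEN (helper702, helper914) is discharged: no hypotheses.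
-/

set_option autoImplicit false
set_option linter.unusedSectionVars false

open Set Metric Topology Module

namespace Crest.Agent.R096.Shg_334

open Crest.Agent.R096.Ce_537 Crest.Agent.R096.Bd_416 Crest.Agent.R096.Shp_334
  Crest.Agent.R096.Arc_778 Crest.Agent.R096.Seq_213 Crest.Agent.R096.St_147

section giant

variable {Q 𝒢 : Type} [PartialOrder Q] {dim : Q → ℕ} {J Fam : Type}
variable {E : Type*} [NormedAddCommGroup E] [NormedSpace ℝ E]
variable {C : Cmb Q dim J Fam} {K : Q → Set E} {g : Gd E J}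
  {P : ∀ q, C.I q → Set E} {c : ∀ q, C.I q → E → ℝ} {j : J} {B : BdD Q 𝒢}
  {Kt : 𝒢 → Set E} {Ω0 Ω : Set E}
variable {ι Φ W : Type} {M : MeshC ι Φ W} {fam : J → Fam} {s : GSt M fam} {cf : Φ → Q}
  {ord : ι → Prop} {tl : 𝒢 → ι}

/-- every cell of the mesh part lies in a 3-cell or in the boundary of a core -/
def Top3G (B : BdD Q 𝒢) (dim : Q → ℕ) : Prop :=
  ∀ q : Q, (∃ q', q ≤ q' ∧ dim q' = 3) ∨ ∃ k, q ∈ B.bq k

lemma top3G (h : Top3G B dim) : Top3 (GQ B) (dimG B dim) := by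
  intro q
  cases q with
  | old q =>
    rcases h q with ⟨q', hq', h3⟩ | ⟨k, hk⟩
    · exact ⟨.old q', hq', h3⟩
    · exact ⟨.big k, hk, rfl⟩
  | big k => exact ⟨.big k, le_rfl, rfl⟩

/-- **(SH) with giant cells: the sheet `{G_j = 1/2}` of the mesh part is part of a PL 2-sphere** -/
theorem sheet_giant [FiniteDimensional ℝ E] (h3 : finrank ℝ E = 3) (hΩ : IsOpen Ω)
    (H : Inv C K univ g P c) (X : Cplx Ω0 Q dim K) (G : GC Ω0 Ω dim K B Kt) (hB : Bls C K c j)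
    (htop : Top3G B dim) (D : DicO C s j cf ord) (Gn : Gnt s j dim cf ord B tl)
    (h1 : s.H1 j) (hc : s.Conn j) :
    ∃ S : Set E, Nonempty (PLEquiv (sph 3) S) ∧ S ⊆ Ω ∧
      ∀ z ∈ Ω0, (z ∈ S ↔ g.G j z = 1/2) := by
  obtain ⟨o, O⟩ := exists_GO (j := j) H X G
  obtain ⟨g1, P1, c1, F⟩ := exists_fill H X G O
  have hL : ∀ (k : 𝒢) (x : (cmbG O).I (.big k)), Loop (cmbG O) (.big k) x :=
    fun k x => loopG D Gn O k x
  have hB1 := bls_fill F X G hB hL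
  have D2 := dicG D Gn O
  haveI : Finite (Pce (cmbG O) () 1) := D2.finite1
  haveI : Finite (Pce (cmbG O) () 3) := finite3 F.inv (cplxG X G) hB1
  exact sheet_sphere_fill Gp_702.existStmt Gp_702.normStmt h3 hΩ H X G O hB (top3G htop) hL
    (D2.sh1 h1) (D2.sconn hc)

end giant

/-! ### the sheets of the transport structure -/

section main

open Crest.Agent.R096.Mg_441 Crest.Agent.R096.Xp_537 Crest.Agent.R096.Grd_714
open Crest.Agent.R096.Ar_241 (dirW cod Tr0 SheetData CoreData Exact TopC)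

variable {Q : Type} [PartialOrder Q] {dim : Q → ℕ} {J Fam : Type} {Cc : Cmb Q dim J Fam}
variable {E' : Type*} [NormedAddCommGroup E'] [NormedSpace ℝ E'] [FiniteDimensional ℝ E']
variable {K : Q → Set E'} {g : Gd E' J} {P : ∀ q, Cc.I q → Set E'} {c : ∀ q, Cc.I q → E' → ℝ}
  {Ω : Set E'}
variable {E : Type*} [NormedAddCommGroup E] [NormedSpace ℝ E] [FiniteDimensional ℝ E]
  {Λ : Set E} {hfin : ∀ a, {j | Cc.fam j = a}.Finite} {Pf : Fam → Set E}
  {C : CC Λ (Cel Pf (Mg_441.mm hfin))} {T : (Fam → ℝ) → E} {co : E → Fam → ℝ} {G : E' → E}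
variable {X : Tr0 Ω C G} {X0 : Set E'} {ι : Type*} {Kc : ι → Set E'}

/-- **the sheet of an edge of the grid, from spheres which agree with the sheets on the mesh part** -/
theorem sheetData' (hE3 : finrank ℝ E = 3) (hΛ : IsOpen Λ) (H : Inv Cc K univ g P c)
    (hKΩ : ∀ p, K p ⊆ Ω)
    (hS : ∀ j, ∃ S : Set E', Nonempty (PLEquiv (sph 3) S) ∧ S ⊆ Ω ∧
      ∀ z ∈ Ω, z ∈ X0 → (z ∈ S ↔ g.G j z = 1/2))
    {ℓ : J → ℝ} (hO : Ord Cc ℓ) (hℓ : ∀ j j', j ≠ j' → Cc.fam j = Cc.fam j' → ℓ j ≠ ℓ j')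
    (OK : GridOK C T co) (hM : OnMesh X K g T X0)
    (cov : Ω ⊆ X0 ∪ ⋃ i, Kc i) {q : Cel Pf (Mg_441.mm hfin)} (hq : cod C q = 2)
    (hD : CoreData X Kc X0 1 q) : SheetData X Kc X0 q := by
  classical
  obtain ⟨q', rfl, a, ha⟩ := free_of_cod hΛ hE3 OK hq
  have haf : a ∈ q'.free := by rw [ha]; rfl
  have hhi : q'.hi a = q'.lo a + 1 := Gx.hi_eq haf
  have hlt : q'.lo a < Mg_441.mm hfin a := by have := q'.him a; omega
  obtain ⟨j, hja, hjn⟩ := exists_num hfin hℓ a hlt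
  obtain ⟨S, hSs, hSΩ, hSj⟩ := hS j
  have hb : ∀ b, co (C.b (.gr q')) b = if b = a then (q'.lo a : ℝ) + 1/2 else q'.hi b := by
    intro b
    rw [OK.co_b]
    split_ifs with h
    · subst h; rw [hhi]; push_cast; ring
    · have hbf : b ∉ q'.free := by rw [ha]; exact h
      rw [Gx.lo_eq hbf]; ring
  have hba : co (C.b (.gr q')) a = (q'.lo a : ℝ) + 1/2 := by rw [hb, if_pos rfl]
  -- membership in the sheet
  have key : ∀ z ∈ Ω, z ∈ X0 → (co (G z) a = co (C.b (.gr q')) a ↔ z ∈ S) := by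
    intro z hz hz0
    obtain ⟨p, hp, -⟩ := hM.cov z hz hz0
    rw [hM.co_eq OK hz hz0, hba, ← hjn, ← hja, hSj z hz hz0]
    exact half_merge H hfin hO hℓ (mem_univ p) hp
  refine ⟨S, hSs, hSΩ, ?_, ?_, ?_⟩
  · rintro z ⟨⟨hz, hzG⟩, hz0⟩
    exact (key z hz hz0).1 (by rw [hzG])
  · intro z hzS hzc hzG
    have hz := hSΩ hzS
    have hz0 : z ∈ X0 := by
      rcases cov hz with h | h
      · exact h
      · obtain ⟨i, hi⟩ := mem_iUnion.1 h
        exact absurd hi (hzc i)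
    obtain ⟨k1, k2⟩ := OK.co_mem q' _ hzG
    obtain ⟨k3, k4⟩ := OK.co_mem q' _ (C.bmem (.gr q'))
    have h2 : co (G z) = co (C.b (.gr q')) := by
      funext b
      by_cases hbb : b = a
      · subst hbb; exact (key z hz hz0).2 hzS
      · have hbf : b ∉ q'.free := by rw [ha]; exact hbb
        rw [Gx.eq_of_mem hbf k1, Gx.eq_of_mem hbf k3]
    rw [← k2, h2, k4]
  · -- a point of the boundary of the fibre on `X0`
    obtain ⟨s, R, Qc, ⟨i, hi⟩, -, hPi⟩ := hD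
    have hp := hPi.pair i hi
    obtain ⟨x, hx⟩ : (Qc i).Nonempty := by
      obtain ⟨e, he⟩ := hp.ball₁
      rw [← he]
      exact ⟨_, mem_image_of_mem _ (show (fun _ => (1:ℝ)) ∈ sph 1 by
        rw [sph, mem_sphere, dist_zero_right, Pi.norm_def]; simp)⟩
    have hxD : x ∈ X.F (.gr q') ∩ Kc i ∩ X0 ∩ R i := by
      have := hp.inter
      rw [this]; exact hx
    have hxS : x ∈ X.S (.gr q') := by
      have := hPi.inter i hi
      have h2 : x ∈ X.F (.gr q') ∩ Kc i ∩ X.S (.gr q') := by rw [this]; exact hxD.2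
      exact h2.2
    have hxΩ : x ∈ Ω := hxS.1
    have hx0 : x ∈ X0 := hxD.1.2
    obtain ⟨r, hr, hrf, hrb⟩ := hM.top_eq x hxΩ hx0
    have hle : q' ≤ r := by
      have h2 := X.F_top hxD.1.1.1
      rw [hr] at h2
      exact Cel.gr_le_gr.1 h2
    have hlt : q' < r := lt_of_le_of_ne hle fun h => hxS.2.2 (by rw [hr, h])
    obtain ⟨hsub, hns⟩ := Gx.free_lt hlt
    obtain ⟨b, hb1, hb2⟩ := not_subset.1 hns
    have hbB : x ∈ (merge hfin g).B b := by rw [hrf] at hb1; exact hb1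
    have hbane : b ≠ a := by rw [ha] at hb2; exact hb2
    obtain ⟨p, hxp, hpX⟩ := hM.cov x hxΩ hx0
    have hI := inv_merge_is H hfin (mem_univ p)
    -- move in the direction `b`
    obtain ⟨t, ht, htne⟩ : ∃ t ∈ I2, (merge hfin g).lev b x + 1/2 + t ≠ (merge hfin g).G b x := by
      by_cases h0 : (merge hfin g).lev b x + 1/2 + 0 = (merge hfin g).G b x
      · exact ⟨1/2, by constructor <;> norm_num, by rw [← h0]; norm_num⟩
      · exact ⟨0, by constructor <;> norm_num, h0⟩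
    have hz'K := hI.tZ b x hxp hbB t ht
    have hz'Ω : (merge hfin g).tr b (x, t) ∈ Ω := hKΩ p hz'K
    have hz'0 : (merge hfin g).tr b (x, t) ∈ X0 := hpX hz'K
    have hGa : co (G x) a = co (C.b (.gr q')) a := by rw [hxS.2.1]
    refine ⟨(merge hfin g).tr b (x, t), ?_, ?_⟩
    · rw [← key _ hz'Ω hz'0, ← hGa, hM.co_eq OK hz'Ω hz'0, hM.co_eq OK hxΩ hx0]
      exact hI.oG b a hbane x hxp hbB t ht
    · rintro ⟨-, hcon⟩
      apply htne
      have h4 : co (G ((merge hfin g).tr b (x, t))) b = co (G x) b := by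
        rw [hcon, hxS.2.1]
      rw [hM.co_eq OK hz'Ω hz'0, hM.co_eq OK hxΩ hx0] at h4
      exact (hI.tG b x hxp hbB t ht).symm.trans h4

/-- **the sheets of 241's `Exact.balls` / `Exact.trn`, from spheres** -/
theorem exact_sheets' (hE3 : finrank ℝ E = 3) (hΛ : IsOpen Λ) (H : Inv Cc K univ g P c)
    (hKΩ : ∀ p, K p ⊆ Ω)
    (hS : ∀ j, ∃ S : Set E', Nonempty (PLEquiv (sph 3) S) ∧ S ⊆ Ω ∧
      ∀ z ∈ Ω, z ∈ X0 → (z ∈ S ↔ g.G j z = 1/2))
    {ℓ : J → ℝ} (hO : Ord Cc ℓ) (hℓ : ∀ j j', j ≠ j' → Cc.fam j = Cc.fam j' → ℓ j ≠ ℓ j')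
    (OK : GridOK C T co) (hM : OnMesh X K g T X0)
    {κ θ : TopC (Cel Pf (Mg_441.mm hfin)) → ℝ} {Kt : TopC (Cel Pf (Mg_441.mm hfin)) → Set E'}
    (cov : Ω ⊆ X0 ∪ ⋃ i, Kt i) (hX : Exact X κ θ Kt X0) :
    ∀ q, cod C q = 2 → SheetData X Kt X0 q := fun _ hq =>
  sheetData' hE3 hΛ H hKΩ hS hO hℓ OK hM cov hq (hX.coreData hΛ hq)

/-- **the sheets with giant cells, all inputs**: `Ω0 = Ω ∩ X0` is the mesh part -/
theorem exact_sheets_giant {𝒢 : Type} {B : BdD Q 𝒢} {Kb : 𝒢 → Set E'} {Ω0 : Set E'}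
    {τ Φ W : Type} {M : MeshC τ Φ W} {fam : J → Fam} {s : GSt M fam} {cf : Φ → Q}
    {ord : τ → Prop} {tl : 𝒢 → τ}
    (hE3 : finrank ℝ E = 3) (hE3' : finrank ℝ E' = 3) (hΛ : IsOpen Λ) (hΩ : IsOpen Ω)
    (H : Inv Cc K univ g P c) (Xc : Cplx Ω0 Q dim K) (Gc : GC Ω0 Ω dim K B Kb)
    (hX0 : ∀ z ∈ Ω, z ∈ X0 → z ∈ Ω0) (hB : ∀ j, Bls Cc K c j) (htop : Top3G B dim)
    (D : ∀ j, DicO Cc s j cf ord) (Gn : ∀ j, Gnt s j dim cf ord B tl)
    (h1 : ∀ j, s.H1 j) (hc : ∀ j, s.Conn j)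
    {ℓ : J → ℝ} (hO : Ord Cc ℓ) (hℓ : ∀ j j', j ≠ j' → Cc.fam j = Cc.fam j' → ℓ j ≠ ℓ j')
    (OK : GridOK C T co) (hM : OnMesh X K g T X0)
    {κ θ : TopC (Cel Pf (Mg_441.mm hfin)) → ℝ} {Kt : TopC (Cel Pf (Mg_441.mm hfin)) → Set E'}
    (cov : Ω ⊆ X0 ∪ ⋃ i, Kt i) (hX : Exact X κ θ Kt X0) :
    ∀ q, cod C q = 2 → SheetData X Kt X0 q := by
  refine exact_sheets' hE3 hΛ H (fun p => (Xc.sub p).trans Gc.sub0) (fun j => ?_) hO hℓ OK hM cov hX
  obtain ⟨S, h2, h4, h5⟩ := sheet_giant hE3' hΩ H Xc Gc (hB j) htop (D j) (Gn j) (h1 j) (hc j)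
  exact ⟨S, h2, h4, fun z hz hz0 => h5 z (hX0 z hz hz0)⟩

end main

end Crest.Agent.R096.Shg_334
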