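import Crest.Agent.R096.Shp6_432

/-!
# Row 96 (helper432): the tiles of `h.T a` near a closed cell of a tile of small scale of a block:
they meet the cell, they cover its neighbourhood, their number and their diameters are bounded by
constants of `κ`, `Bs`
-/

set_option autoImplicit false
set_option linter.unusedSectionVars false

open Set Metric MeasureTheory Filter
open scoped ENNReal Topology

namespace Crest.Agent.R096.Shp_432

open Crest.AnalysisR.VecCalc3 Crest.AnalysisR.Sobolev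
open Crest.Agent.R096.Msh_715 Crest.Agent.R096.Mal_874

section near

variable {E : Type*} [NormedAddCommGroup E] [NormedSpace ℝ E] {Om : Set E} {ι : Type*}

/-- the tiles with a point at distance at most `r` from a point of `C` -/
def Nt (T : Tiling Om ι) (C : Set E) (r : ℝ) : Set ι :=
  {l | ∃ y ∈ C, ∃ z ∈ P (T.H l), ‖z - y‖ ≤ r}

variable {T : Tiling Om ι}

/-- if the tiles near a compact set `C` meet `C`, they cover the neighbourhood of `C` -/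
theorem near_cover {C : Set E} (hC : IsCompact C) (hCO : C ⊆ Om) {r : ℝ}
    (hm : ∀ l ∈ Nt T C r, (P (T.H l) ∩ C).Nonempty) {y z : E} (hy : y ∈ C) (hz : ‖z - y‖ ≤ r) :
    ∃ l ∈ Nt T C r, z ∈ P (T.H l) := by
  have hAf : {l | (P (T.H l) ∩ C).Nonempty}.Finite := T.finite_tiles hC hCO
  set U : Set E := ⋃ l ∈ {l | (P (T.H l) ∩ C).Nonempty}, P (T.H l) with hU
  have hUc : IsClosed U := hAf.isClosed_biUnion fun l _ => isClosed_P _
  have hseg : ∀ w ∈ segment ℝ y z, ‖w - y‖ ≤ r := by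
    intro w hw
    rw [segment_eq_image'] at hw
    obtain ⟨τ, hτ, rfl⟩ := hw
    rw [add_sub_cancel_left, norm_smul, Real.norm_eq_abs, abs_of_nonneg hτ.1]
    exact (mul_le_of_le_one_left (norm_nonneg _) hτ.2).trans hz
  have key : ∀ w ∈ segment ℝ y z, w ∈ Om → w ∈ interior U := by
    intro w hw hwO
    obtain ⟨r', hr', h1, h2⟩ := T.exists_ball hwO
    refine mem_interior.2 ⟨ball w r', fun y' hy' => ?_, isOpen_ball, mem_ball_self hr'⟩
    obtain ⟨l, hl⟩ := T.cov y' (h1 hy')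
    have h3 : w ∈ P (T.H l) := h2 y' hy' hl
    exact mem_iUnion₂.2 ⟨l, hm l ⟨y, hy, w, h3, hseg w hw⟩, hl⟩
  have hUO : U ⊆ Om := iUnion₂_subset fun l _ => T.sub l
  have h1 : segment ℝ y z ⊆ interior U := by
    refine (convex_segment y z).isPreconnected.subset_left_of_subset_union isOpen_interior
      hUc.isOpen_compl ?_ (fun w hw => ?_) ⟨y, left_mem_segment ℝ y z,
        key y (left_mem_segment ℝ y z) (hCO hy)⟩
    · exact Set.disjoint_left.2 fun w hw hw' => hw' (interior_subset hw)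
    · by_cases hwU : w ∈ U
      · exact Or.inl (key w hw (hUO hwU))
      · exact Or.inr hwU
  obtain ⟨l, hl, hzl⟩ := mem_iUnion₂.1 (interior_subset (h1 (right_mem_segment ℝ y z)))
  exact ⟨l, ⟨y, hy, z, hzl, hz⟩, hzl⟩

/-- the tiles near a closed cell of a tile with the geometry `GeoT` meet it -/
theorem GeoT.near {n : ℕ} {t : ι} {ψ : E ≃L[ℝ] (Fin n → ℝ)} {s : ℕ} {D μ γ : ℝ} {nE : ℕ}
    (hT : GeoT T t ψ s D μ γ nE) {Lo r : ℝ} (hLo : ∀ v, ‖ψ v‖ ≤ Lo * ‖v‖) (hLo0 : 0 ≤ Lo)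
    (hr : Lo * r < γ / 2 ^ s) {x : E} (hx : x ∈ P (T.H t)) {l : ι} (hl : l ∈ Nt T (T.cc x) r) :
    (P (T.H l) ∩ T.cc x).Nonempty := by
  obtain ⟨y, hy, z, hz, hyz⟩ := hl
  by_contra hcon
  rw [Set.not_nonempty_iff_eq_empty, ← Set.disjoint_iff_inter_eq_empty] at hcon
  have h1 := hT.sep x hx l hcon.symm y hy z hz
  have h2 := (hLo (z - y)).trans (mul_le_mul_of_nonneg_left hyz hLo0)
  linarith

end near

/-! ### numbers -/

theorem exists_K (C : ℝ) {γ : ℝ} (hγ : 0 < γ) : ∃ K1 : ℕ, 2 ≤ K1 ∧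
    ∀ {s k0 : ℕ}, s + K1 ≤ k0 → C / 2 ^ k0 < γ / 2 ^ s := by
  obtain ⟨K1, hK1⟩ := pow_unbounded_of_one_lt (C / γ) (one_lt_two (α := ℝ))
  refine ⟨K1 + 2, by omega, fun {s k0} hs => ?_⟩
  rw [div_lt_iff₀ hγ] at hK1
  rw [div_lt_div_iff₀ (by positivity) (by positivity)]
  have h1 : (2:ℝ) ^ s * 2 ^ K1 ≤ 2 ^ k0 := by
    rw [← pow_add]
    exact pow_le_pow_right₀ (by norm_num) (by omega)
  have h2 : (0:ℝ) < 2 ^ s := by positivity
  nlinarith [mul_lt_mul_of_pos_right hK1 h2, mul_le_mul_of_nonneg_left h1 hγ.le]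

section

open Crest.Agent.R096.Ca_855
open Crest.Agent.R096.Ca_855.MIn (BQ)
open Crest.Agent.R096.Pin_753 (BlkP Ed)

/-- **the tiles of `h.T a` near a closed cell of a tile of scale `≤ k0 - K1` of a block**: they meet
the cell, lie in the block, have the geometry `GeoT` at their scale; they cover the neighbourhood of
the cell; all constants depend on `κ`, `Bs`, `Λ` only -/
theorem long_tile (Bs : ℕ) {κ : ℝ} (hκ : 0 < κ) (hκ1 : κ ≤ 1) :
    ∃ (nc nE : ℕ) (D μ γ V : ℝ), 0 < D ∧ 0 < μ ∧ 0 < γ ∧ 0 < V ∧ ∀ Λ : ℝ, ∃ K1 : ℕ, 2 ≤ K1 ∧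
    ∀ {Om W : Set R3} {ρ₀ : R3 → ℝ} {J : Type} [Finite J]
      {Qb : J → CB R3 3} {k0 Nn : ℕ} {σ : ℝ} (h : MIn Om W ρ₀ Qb k0 σ),
      (∀ j, BQ κ Bs Nn (Qb j) k0) → ∀ {a : R3}, ‖a‖ ≤ σ / 8 → ∀ (j : J) (t : h.ιT a),
      P ((h.T a).H t) ⊆ ((Qb j).tr a).N → scT h a t + K1 ≤ k0 →
      ∀ x ∈ P ((h.T a).H t),
        (∀ l ∈ Nt (h.T a) ((h.T a).cc x) (Λ / 2 ^ k0), (P ((h.T a).H l) ∩ (h.T a).cc x).Nonempty ∧
          P ((h.T a).H l) ⊆ ((Qb j).tr a).N ∧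
          Disjoint (P ((h.T a).H l)) (frontier ((Qb j).tr a).N) ∧
          scT h a l ≤ scT h a t + 1 ∧ scT h a t ≤ scT h a l + 1 ∧
          GeoT (h.T a) l (Qb j).ψ (scT h a l) D μ γ nE) ∧
        (Nt (h.T a) ((h.T a).cc x) (Λ / 2 ^ k0)).Finite ∧
        (Nt (h.T a) ((h.T a).cc x) (Λ / 2 ^ k0)).ncard ≤ nc ∧
        (∀ y ∈ (h.T a).cc x, ∀ z, ‖z - y‖ ≤ Λ / 2 ^ k0 →
          ∃ l ∈ Nt (h.T a) ((h.T a).cc x) (Λ / 2 ^ k0), z ∈ P ((h.T a).H l)) ∧
        ∀ e1 e2, (h.T a).cc x = segment ℝ e1 e2 → e1 ≠ e2 →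
          κ * μ / 4 / 2 ^ scT h a t ≤ ‖e2 - e1‖ ∧
          ∀ l ∈ Nt (h.T a) ((h.T a).cc x) (Λ / 2 ^ k0), ∀ y ∈ P ((h.T a).H l),
            ∀ z ∈ P ((h.T a).H l), ‖z - y‖ ≤ V * ‖e2 - e1‖ := by
  obtain ⟨D, μ, γ, nE, hD, hμ, hγ, H⟩ := geo_T Bs
  obtain ⟨D₁, -, nc, hnc, -⟩ := exists_tile hκ hκ1 Bs
  refine ⟨nc, nE, D, μ, γ, 32 * D / (κ ^ 2 * μ), hD, hμ, hγ, by positivity, fun Λ => ?_⟩
  obtain ⟨K1, hK1, hnum⟩ := exists_K (4 * κ⁻¹ * Λ) hγ
  refine ⟨K1, hK1, ?_⟩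
  intro Om W ρ₀ J _ Qb k0 Nn σ h hb a ha j t hN hs x hx
  have hw := T_off_wall h ha j (t := t) (by omega)
  have hG := H hκ hκ1 h hb ha j t hN hw
  have hcnd := (hb j).cnd
  have hcc : (h.T a).cc x ⊆ P ((h.T a).H t) := (h.T a).cc_sub_tile hx
  have hnear : ∀ l ∈ Nt (h.T a) ((h.T a).cc x) (Λ / 2 ^ k0),
      (P ((h.T a).H l) ∩ (h.T a).cc x).Nonempty := by
    intro l hl
    refine hG.near (fun v => (hcnd v).2) (by positivity) ?_ hx hl
    rw [← mul_div_assoc]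
    exact hnum hs
  have hnbr : ∀ l ∈ Nt (h.T a) ((h.T a).cc x) (Λ / 2 ^ k0),
      (P ((h.T a).H t) ∩ P ((h.T a).H l)).Nonempty := by
    intro l hl
    obtain ⟨y, hy1, hy2⟩ := hnear l hl
    exact ⟨y, hcc hy2, hy1⟩
  have hall : ∀ l ∈ Nt (h.T a) ((h.T a).cc x) (Λ / 2 ^ k0),
      P ((h.T a).H l) ⊆ ((Qb j).tr a).N ∧
          Disjoint (P ((h.T a).H l)) (frontier ((Qb j).tr a).N) ∧
          scT h a l ≤ scT h a t + 1 ∧ scT h a t ≤ scT h a l + 1 ∧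
          GeoT (h.T a) l (Qb j).ψ (scT h a l) D μ γ nE := by
    intro l hl
    have h1 := hnbr l hl
    have h2 := scT_nbr h h1
    have h3 := T_nbr_in h ha hN (by omega) h1
    have h4 := T_off_wall h ha j (t := l) (by omega)
    exact ⟨h3, h4, h2, scT_nbr' h h1, H hκ hκ1 h hb ha j l h3 h4⟩
  have hfin : {l | (P ((h.T a).H l) ∩ P ((h.T a).H t)).Nonempty}.Finite :=
    (h.T a).finite_tiles ((h.T a).cpt t) ((h.T a).sub t)
  have hsub : Nt (h.T a) ((h.T a).cc x) (Λ / 2 ^ k0) ⊆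
      {l | (P ((h.T a).H l) ∩ P ((h.T a).H t)).Nonempty} := fun l hl => by
    have := hnbr l hl
    rwa [inter_comm] at this
  refine ⟨fun l hl => ⟨hnear l hl, hall l hl⟩, hfin.subset hsub,
    (Set.ncard_le_ncard hsub hfin).trans ((hnc h hb a).1 t).1, fun y hy z hz => ?_,
    fun e1 e2 he hne => ?_⟩
  · exact near_cover ((h.T a).isCompact_cc ((h.T a).sub t hx)) (hcc.trans ((h.T a).sub t))
      hnear hy hz
  · have h1 := hG.len x hx e1 e2 he hne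
    have h2 := (hcnd (e2 - e1)).2
    have hp : (0:ℝ) < 2 ^ scT h a t := by positivity
    have h3 : κ * μ / 4 / 2 ^ scT h a t ≤ ‖e2 - e1‖ := by
      have h4 := h1.trans h2
      have h5 : κ * μ / 4 / 2 ^ scT h a t = κ / 4 * (μ / 2 ^ scT h a t) := by ring
      rw [h5]
      calc κ / 4 * (μ / 2 ^ scT h a t) ≤ κ / 4 * (4 * κ⁻¹ * ‖e2 - e1‖) :=
            mul_le_mul_of_nonneg_left h4 (by positivity)
        _ = ‖e2 - e1‖ := by field_simp
    refine ⟨h3, fun l hl y hy z hz => ?_⟩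
    obtain ⟨-, -, -, h6, h7⟩ := hall l hl
    have h8 := h7.sz y hy z hz
    have h9 := (hcnd (z - y)).1
    have hpl : (0:ℝ) < 2 ^ scT h a l := by positivity
    have h10 : (2:ℝ) ^ scT h a t ≤ 2 * 2 ^ scT h a l := by
      rw [← pow_succ']
      exact pow_le_pow_right₀ (by norm_num) h6
    have h11 : D / 2 ^ scT h a l ≤ 2 * D / 2 ^ scT h a t := by
      rw [div_le_div_iff₀ hpl hp]
      nlinarith
    have h12 : κ / 4 * ‖z - y‖ ≤ 2 * D / 2 ^ scT h a t := h9.trans (h8.trans h11)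
    calc ‖z - y‖ = 4 / κ * (κ / 4 * ‖z - y‖) := by field_simp
      _ ≤ 4 / κ * (2 * D / 2 ^ scT h a t) := mul_le_mul_of_nonneg_left h12 (by positivity)
      _ = 32 * D / (κ ^ 2 * μ) * (κ * μ / 4 / 2 ^ scT h a t) := by
          field_simp; ring
      _ ≤ 32 * D / (κ ^ 2 * μ) * ‖e2 - e1‖ := mul_le_mul_of_nonneg_left h3 (by positivity)

end

end Crest.Agent.R096.Shp_432
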