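import Mathlib
import Crest.Agent.R096.Sk2_962
import Crest.Agent.R96.Sob7_199

/-!
Row 96 (S0127), helper962.  SKEL96: patching with the weak boundary condition
`g - f → 0` at the frontier of `D` (no rate), using the gluing lemma of helper199.
-/

set_option autoImplicit false
set_option linter.unusedSectionVars false
set_option linter.style.longLine false

open MeasureTheory Set Filter Topology Metric
open scoped ENNReal Gradient NNReal ContDiff
open Crest.AnalysisR.VecCalc3 Crest.AnalysisR.Sobolev
open Crest.Agent.R096.Str_696 (LocPL)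
open Crest.Agent.R96.Acl_392

namespace Crest.Agent.R096.Sk_962

noncomputable section

/-- `g - f → 0` at the frontier of `D` -/
def BdZero (D : Set R3) (g f : R3 → R3) : Prop :=
  ∀ z ∈ frontier D, Tendsto (fun x => g x - f x) (𝓝[D] z) (𝓝 0)

theorem tendsto_pw_sub {f g : R3 → R3} {D : Set R3} (hD : IsOpen D) (hbd : BdZero D g f)
    {x : R3} (hx : x ∉ D) : Tendsto (fun y => pw D g f y - f y) (𝓝 x) (𝓝 0) := by
  by_cases hcl : x ∈ closure D
  · have hfr : x ∈ frontier D := ⟨hcl, by rwa [hD.interior_eq]⟩
    rw [← nhdsWithin_univ, ← union_compl_self D, nhdsWithin_union]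
    apply Tendsto.sup
    · refine (hbd x hfr).congr' ?_
      filter_upwards [self_mem_nhdsWithin] with y hy
      rw [pw_mem hy]
    · apply tendsto_const_nhds.congr'
      filter_upwards [self_mem_nhdsWithin] with y hy
      rw [pw_notMem hy, sub_self]
  · apply tendsto_const_nhds.congr'
    filter_upwards [isClosed_closure.isOpen_compl.mem_nhds hcl] with y hy
    rw [pw_notMem (fun h => hy (subset_closure h)), sub_self]

theorem patch_homeo' {f g : R3 → R3} {Om La D : Set R3} (hOm : IsOpen Om) (hLa : IsOpen La)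
    (H : IsHomeomorphOn f Om La) (hD : IsOpen D) (hDb : Bornology.IsBounded D)
    (hDO : closure D ⊆ Om) (hg : IsHomeomorphOn g D (f '' D)) (hbd : BdZero D g f) :
    IsHomeomorphOn (pw D g f) Om La := by
  classical
  obtain ⟨finv, h1, h2, h3, h4, h5, h6⟩ := H
  obtain ⟨ginv, k1, k2, k3, k4, k5, k6⟩ := hg
  have hDO' : D ⊆ Om := subset_closure.trans hDO
  have himg : f '' D = La ∩ finv ⁻¹' D := image_eq_inter h1 h2 h3 h4 hDO'
  have himo : IsOpen (f '' D) := by
    rw [himg]; exact h6.isOpen_inter_preimage hLa hD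
  have himLa : f '' D ⊆ La := by rw [himg]; exact inter_subset_left
  set f1 : R3 → R3 := pw D g f with hf1
  set finv1 : R3 → R3 := fun z => if z ∈ f '' D then ginv z else finv z with hfinv1
  have m1 : MapsTo f1 Om La := by
    intro x hx
    by_cases hxD : x ∈ D
    · rw [hf1, pw_mem hxD]; exact himLa (k1 hxD)
    · rw [hf1, pw_notMem hxD]; exact h1 hx
  have m2 : MapsTo finv1 La Om := by
    intro z hz
    by_cases hzD : z ∈ f '' D
    · simp only [hfinv1, if_pos hzD]; exact hDO' (k2 hzD)
    · simp only [hfinv1, if_neg hzD]; exact h2 hz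
  have m3 : ∀ x ∈ Om, finv1 (f1 x) = x := by
    intro x hx
    by_cases hxD : x ∈ D
    · rw [hf1, pw_mem hxD]
      simp only [hfinv1, if_pos (k1 hxD)]
      exact k3 x hxD
    · rw [hf1, pw_notMem hxD]
      have : f x ∉ f '' D := by
        rw [himg]
        rintro ⟨-, h⟩
        rw [mem_preimage, h3 x hx] at h
        exact hxD h
      simp only [hfinv1, if_neg this]
      exact h3 x hx
  have hnot : ∀ z ∈ La, z ∉ f '' D → finv z ∉ D := by
    intro z hz hzD h
    exact hzD (by rw [himg]; exact ⟨hz, h⟩)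
  have m4 : ∀ z ∈ La, f1 (finv1 z) = z := by
    intro z hz
    by_cases hzD : z ∈ f '' D
    · simp only [hfinv1, if_pos hzD, hf1, pw_mem (k2 hzD)]
      exact k4 z hzD
    · simp only [hfinv1, if_neg hzD, hf1, pw_notMem (hnot z hz hzD)]
      exact h4 z hz
  have c1 : ∀ x ∈ Om, ContinuousAt f1 x := by
    intro x hx
    by_cases hxD : x ∈ D
    · have e1 : ContinuousAt g x := k5.continuousAt (hD.mem_nhds hxD)
      refine e1.congr ?_
      filter_upwards [hD.mem_nhds hxD] with y hy using (pw_mem hy).symm
    · have e1 : ContinuousAt f x := h5.continuousAt (hOm.mem_nhds hx)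
      have e4 := (tendsto_pw_sub hD hbd hxD).add e1.tendsto
      simp only [sub_add_cancel, zero_add] at e4
      rw [ContinuousAt]
      have e5 : f1 x = f x := pw_notMem hxD
      rw [e5]
      exact e4
  have c2 : ContinuousOn finv1 La := by
    intro z hz
    apply ContinuousAt.continuousWithinAt
    by_cases hzD : z ∈ f '' D
    · have e1 : ContinuousAt ginv z := k6.continuousAt (himo.mem_nhds hzD)
      refine e1.congr ?_
      filter_upwards [himo.mem_nhds hzD] with y hy
      simp only [hfinv1, if_pos hy]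
    · have hz1 : finv1 z = finv z := by simp only [hfinv1, if_neg hzD]
      rw [ContinuousAt, hz1]
      simp only [hfinv1]
      apply Tendsto.if
      · have hcomp : IsCompact (closure D) := hDb.isCompact_closure
        refine hcomp.tendsto_nhds_of_unique_mapClusterPt ?_ ?_
        · rw [eventually_inf_principal]
          exact Eventually.of_forall fun y hy => subset_closure (k2 hy)
        · intro y hy hcl
          have e1 : MapClusterPt (f1 y) (𝓝 z ⊓ 𝓟 {x | x ∈ f '' D}) (f1 ∘ ginv) :=
            hcl.continuousAt_comp (c1 y (hDO hy))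
          have e2 : Tendsto (f1 ∘ ginv) (𝓝 z ⊓ 𝓟 {x | x ∈ f '' D}) (𝓝 z) := by
            have e3 : Tendsto id (𝓝 z ⊓ 𝓟 {x | x ∈ f '' D}) (𝓝 z) := tendsto_id.mono_left inf_le_left
            refine e3.congr' ?_
            rw [EventuallyEq, eventually_inf_principal]
            refine Eventually.of_forall fun w hw => ?_
            simp only [id, Function.comp, hf1, pw_mem (k2 hw)]
            exact (k4 w hw).symm
          have e3 : f1 y = z := by
            have e0 : ClusterPt (f1 y) (map (f1 ∘ ginv) (𝓝 z ⊓ 𝓟 {x | x ∈ f '' D})) := e1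
            have e4 : ClusterPt (f1 y) (𝓝 z) := ClusterPt.mono e0 e2
            exact eq_of_nhds_neBot e4
          rw [← hz1, ← e3, m3 y (hDO hy)]
      · exact (h6.continuousAt (hLa.mem_nhds hz)).tendsto.mono_left inf_le_left
  exact ⟨finv1, m1, m2, m3, m4, fun x hx => (c1 x hx).continuousWithinAt, c2⟩

/-- **LOCALITY, weak boundary condition.** -/
theorem SH.patch' {p : ℝ} (hp : 1 ≤ p) {Om La D : Set R3} {f g : R3 → R3}
    {G : Fin 3 → R3 → R3} (hOm : IsOpen Om) (hOmb : Bornology.IsBounded Om) (hLa : IsOpen La)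
    (hLab : Bornology.IsBounded La) (H : SH p Om La f G) (hD : IsOpen D)
    (hDO : closure D ⊆ Om) (hg : IsHomeomorphOn g D (f '' D)) (hPL : LocPL g D)
    (hbd : BdZero D g f) (hE : ∀ j, MemLp (Gr g j) (ENNReal.ofReal p) (volume.restrict D)) :
    SH p Om La (pw D g f) (fun j => pw D (Gr g j) (G j)) := by
  have hDO' : D ⊆ Om := subset_closure.trans hDO
  have hDb : Bornology.IsBounded D := hOmb.subset hDO'
  have hDm := hD.measurableSet
  have hfinO : IsFiniteMeasure (volume.restrict Om) :=
    ⟨by rw [Measure.restrict_apply_univ]; exact hOmb.measure_lt_top⟩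
  have hp1 : 1 ≤ ENNReal.ofReal p := by
    rw [ENNReal.one_le_ofReal]; exact hp
  have hhom : IsHomeomorphOn (pw D g f) Om La := patch_homeo' hOm hLa H.homeo hD hDb hDO hg hbd
  have hmemG : ∀ j, MemLp (pw D (Gr g j) (G j)) (ENNReal.ofReal p) (volume.restrict Om) :=
    fun j => memLp_pw hDm hDO' (hE j) (H.memG j)
  have hcf : ContinuousOn f Om := by
    obtain ⟨finv, -, -, -, -, h5, -⟩ := H.homeo
    exact h5
  obtain ⟨finv1, m1, -, -, -, c1, -⟩ := hhom
  refine ⟨patch_homeo' hOm hLa H.homeo hD hDb hDO hg hbd, ?_, fun j => ?_, hmemG⟩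
  · obtain ⟨B, hB⟩ := hLab.exists_norm_le
    refine MemLp.of_bound (c1.aestronglyMeasurable hOm.measurableSet) B ?_
    rw [ae_restrict_iff' hOm.measurableSet]
    exact Eventually.of_forall fun x hx => hB _ (m1 hx)
  · have hloc : LocallyIntegrableOn (pw D (Gr g j) (G j)) Om := by
      have h1 : IntegrableOn (pw D (Gr g j) (G j)) Om := (hmemG j).integrable hp1
      exact h1.locallyIntegrableOn
    refine Crest.Agent.R96.Sob7_199.grad_glue hOm hD hDO' (H.wg j) (LocPL.wg hD hPL j)
      (fun x hx => ?_) (fun x _ hx => ?_) (fun x hx => ?_) (fun x _ hx => ?_) ?_ hloc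
    · simp only [pw_mem hx]
    · simp only [pw_notMem hx]
    · simp only [pw_mem hx]
    · simp only [pw_notMem hx]
    · have h1 : ContinuousOn (fun x => pw D g f x - f x) Om := c1.sub hcf
      have h2 := (EuclideanSpace.proj (𝕜 := ℝ) j : R3 →L[ℝ] ℝ).continuous.comp_continuousOn h1
      refine h2.congr fun x _ => ?_
      simp

end

end Crest.Agent.R096.Sk_962
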