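import Crest.Agent.R096.Sk2b_855
import Crest.Agent.R096.Gg1_113

/-!
# Row 96 (S0127), p < 2: lemma 2SK (helper855), part c: the cells of a tiling where it is a grid
-/

set_option autoImplicit false
set_option linter.unusedSectionVars false

open Set Metric

namespace Crest.Agent.R096.Sk2_855

open Crest.Agent.R096.Msh_715 (Tiling)

variable {E : Type*} [NormedAddCommGroup E] [NormedSpace ℝ E] {Om La : Set E} {ι : Type*}

/-- the closed cube of side `N` -/
def InR (N : ℤ) (w : Fin 3 → ℝ) : Prop := ∀ i, 0 ≤ w i ∧ w i ≤ N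

/-- in the chart `δ` the tiling is the integer grid in the cube of side `N` -/
structure Grid (T : Tiling Om ι) (δ : E ≃ᵃ[ℝ] (Fin 3 → ℝ)) (N : ℤ) : Prop where
  mem : ∀ x, InR N (δ x) → x ∈ Om
  cc : ∀ x, InR N (δ x) → T.cc x = {y | ∀ i, (⌊δ x i⌋ : ℝ) ≤ δ y i ∧ δ y i ≤ ⌈δ x i⌉}

namespace Grid

variable {T : Tiling Om ι} {δ : E ≃ᵃ[ℝ] (Fin 3 → ℝ)} {N : ℤ}

theorem inR_of_mem_cc (G : Grid T δ N) {x y : E} (hx : InR N (δ x)) (hy : y ∈ T.cc x) :
    InR N (δ y) := by
  rw [G.cc x hx] at hy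
  intro i
  have h1 : (0 : ℝ) ≤ ⌊δ x i⌋ := by exact_mod_cast Int.floor_nonneg.2 (hx i).1
  have h2 : (⌈δ x i⌉ : ℝ) ≤ N := by exact_mod_cast Int.ceil_le.2 (hx i).2
  exact ⟨h1.trans (hy i).1, (hy i).2.trans h2⟩

theorem mem_oc (G : Grid T δ N) {x y : E} (hx : InR N (δ x)) :
    y ∈ T.oc x ↔ ∀ i, ⌊δ x i⌋ = ⌊δ y i⌋ ∧ ⌈δ x i⌉ = ⌈δ y i⌉ := by
  constructor
  · intro h
    have hy := T.oc_sub_cc x h
    have hR := G.inR_of_mem_cc hx hy
    have hx' : x ∈ T.cc y := by
      rw [T.cc_eq_of_mem_oc (G.mem x hx) h]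
      exact T.self_mem_cc x
    rw [G.cc x hx] at hy
    rw [G.cc y hR] at hx'
    intro i
    refine ⟨le_antisymm (Int.le_floor.2 (hy i).1) (Int.le_floor.2 (hx' i).1),
      le_antisymm (Int.ceil_le.2 (hx' i).2) (Int.ceil_le.2 (hy i).2)⟩
  · intro h
    have hR : InR N (δ y) := by
      intro i
      have h1 : (0 : ℝ) ≤ ⌊δ x i⌋ := by exact_mod_cast Int.floor_nonneg.2 (hx i).1
      have h2 : (⌈δ x i⌉ : ℝ) ≤ N := by exact_mod_cast Int.ceil_le.2 (hx i).2
      rw [(h i).1] at h1
      rw [(h i).2] at h2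
      exact ⟨h1.trans (Int.floor_le _), (Int.le_ceil _).trans h2⟩
    refine T.mem_oc_of_mem_cc ?_ ?_
    · rw [G.cc x hx]
      intro i
      rw [(h i).1, (h i).2]
      exact ⟨Int.floor_le _, Int.le_ceil _⟩
    · rw [G.cc y hR]
      intro i
      rw [← (h i).1, ← (h i).2]
      exact ⟨Int.floor_le _, Int.le_ceil _⟩

/-- the non-integer coordinates -/
def ni (w : Fin 3 → ℝ) : Set (Fin 3) := {i | ∀ z : ℤ, w i ≠ z}

theorem lin_add (x v : E) (i : Fin 3) : δ (x + v) i = δ x i + δ.linear v i := by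
  have := δ.map_vadd x v
  rw [vadd_eq_add, vadd_eq_add, add_comm v x] at this
  rw [this, Pi.add_apply, add_comm]

theorem mem_V (G : Grid T δ N) {x : E} (hx : InR N (δ x)) {v : E} :
    v ∈ T.V x ↔ ∀ i, i ∉ ni (δ x) → δ.linear v i = 0 := by
  have hxO := G.mem x hx
  constructor
  · intro hv i hi
    obtain ⟨r, hr, hb⟩ := T.exists_ball_oc hxO
    by_cases hv0 : v = 0
    · rw [hv0, map_zero]; rfl
    have hvn : 0 < ‖v‖ := norm_pos_iff.2 hv0
    set s : ℝ := r / (2 * ‖v‖) with hs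
    have hs0 : 0 < s := by positivity
    have h1 : x + s • v ∈ T.oc x := by
      refine hb _ ((T.V x).smul_mem s hv) ?_
      rw [norm_smul, Real.norm_of_nonneg hs0.le, hs]
      field_simp
      linarith
    have h2 := (G.mem_oc hx).1 h1 i
    simp only [ni, Set.mem_ofPred_eq, not_forall, not_not] at hi
    obtain ⟨z, hz⟩ := hi
    rw [lin_add, map_smul, Pi.smul_apply, smul_eq_mul, hz, Int.floor_intCast,
      Int.ceil_intCast] at h2
    have h3 : (z : ℝ) ≤ z + s * δ.linear v i := Int.le_floor.1 h2.1.le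
    have h4 : (z : ℝ) + s * δ.linear v i ≤ z := Int.ceil_le.1 h2.2.ge
    have h5 : s * δ.linear v i = 0 := by linarith
    exact (mul_eq_zero.1 h5).resolve_left hs0.ne'
  · intro hv
    -- for small s > 0 the point x + s v is in the open cell
    have hev : ∀ᶠ s : ℝ in nhds 0, ∀ i ∈ ni (δ x),
        (⌊δ x i⌋ : ℝ) < δ (x + s • v) i ∧ δ (x + s • v) i < ⌊δ x i⌋ + 1 := by
      rw [Filter.eventually_all_finite (toFinite _)]
      intro i hi
      have hc : Continuous fun s : ℝ => δ (x + s • v) i := by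
        have : (fun s : ℝ => δ (x + s • v) i) = fun s => δ x i + s * δ.linear v i := by
          funext s
          rw [lin_add, map_smul]
          rfl
        rw [this]
        fun_prop
      have h1 : (⌊δ x i⌋ : ℝ) < δ (x + (0 : ℝ) • v) i := by
        rw [zero_smul, add_zero]
        exact lt_of_le_of_ne (Int.floor_le _) (fun h => hi _ h.symm)
      have h2 : δ (x + (0 : ℝ) • v) i < ⌊δ x i⌋ + 1 := by
        rw [zero_smul, add_zero]
        exact Int.lt_floor_add_one _
      exact ((hc.tendsto 0).eventually (lt_mem_nhds h1)).and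
        ((hc.tendsto 0).eventually (gt_mem_nhds h2))
    obtain ⟨s, hs, hs0⟩ : ∃ s : ℝ, (∀ i ∈ ni (δ x),
        (⌊δ x i⌋ : ℝ) < δ (x + s • v) i ∧ δ (x + s • v) i < ⌊δ x i⌋ + 1) ∧ 0 < s := by
      have h1 := hev.filter_mono (nhdsWithin_le_nhds (s := Ioi (0 : ℝ)))
      exact (h1.and self_mem_nhdsWithin).exists
    have h1 : x + s • v ∈ T.oc x := by
      rw [G.mem_oc hx]
      intro i
      by_cases hi : i ∈ ni (δ x)
      · have h2 := hs i hi
        have h3 : ⌊δ (x + s • v) i⌋ = ⌊δ x i⌋ := by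
          rw [Int.floor_eq_iff]
          exact ⟨h2.1.le, h2.2⟩
        have h4 : ⌈δ (x + s • v) i⌉ = ⌊δ x i⌋ + 1 := by
          rw [Int.ceil_eq_iff]
          push_cast
          exact ⟨by linarith, h2.2.le⟩
        have h5 : ⌈δ x i⌉ = ⌊δ x i⌋ + 1 := by
          rw [Int.ceil_eq_iff]
          push_cast
          exact ⟨by
            have : (⌊δ x i⌋ : ℝ) < δ x i :=
              lt_of_le_of_ne (Int.floor_le _) (fun h => hi _ h.symm)
            linarith, (Int.lt_floor_add_one _).le⟩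
        exact ⟨h3.symm, by rw [h4, h5]⟩
      · have : δ (x + s • v) i = δ x i := by
          rw [lin_add, map_smul, Pi.smul_apply, hv i hi, smul_zero, add_zero]
        rw [this]
        exact ⟨rfl, rfl⟩
    have h2 := T.sub_mem_V (T.oc_sub_cc x h1)
    rw [add_sub_cancel_left] at h2
    have h3 := (T.V x).smul_mem s⁻¹ h2
    rwa [smul_smul, inv_mul_cancel₀ hs0.ne', one_smul] at h3

theorem dim_eq (G : Grid T δ N) {x : E} (hx : InR N (δ x)) :
    T.dim x = (ni (δ x)).ncard := by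
  classical
  have key : T.V x ≃ₗ[ℝ] (ni (δ x) → ℝ) :=
    LinearEquiv.ofBijective
      ((LinearMap.funLeft ℝ ℝ (Subtype.val : ni (δ x) → Fin 3)).comp
        (δ.linear.toLinearMap.comp (T.V x).subtype)) (by
      constructor
      · rw [← LinearMap.ker_eq_bot, LinearMap.ker_eq_bot']
        rintro ⟨v, hv⟩ h
        have h1 : δ.linear v = 0 := by
          funext i
          by_cases hi : i ∈ ni (δ x)
          · exact congrFun h ⟨i, hi⟩
          · exact (G.mem_V hx).1 hv i hi
        have h2 : v = 0 := by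
          have := δ.linear.injective (h1.trans (map_zero δ.linear).symm)
          exact this
        exact Subtype.ext h2
      · intro w
        let w' : Fin 3 → ℝ := fun i => if hi : i ∈ ni (δ x) then w ⟨i, hi⟩ else 0
        refine ⟨⟨δ.linear.symm w', ?_⟩, ?_⟩
        · rw [G.mem_V hx]
          intro i hi
          rw [LinearEquiv.apply_symm_apply]
          simp [w', hi]
        · funext i
          show δ.linear (δ.linear.symm w') i.1 = w i
          rw [LinearEquiv.apply_symm_apply]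
          simp [w', i.2])
  have h1 := key.finrank_eq
  rw [Module.finrank_fintype_fun_eq_card] at h1
  show Module.finrank ℝ (T.V x) = _
  rw [h1, ← Nat.card_eq_fintype_card]
  rfl

/-- a cell which contains an interior point of the grid is a grid cell -/
theorem exists_rep (_ : Grid T δ N) {e : E} (he : ∀ i, 0 < δ e i ∧ δ e i < N) {x : E}
    (hx : x ∈ Om) (h : e ∈ T.cc x) [FiniteDimensional ℝ E] :
    ∃ x', InR N (δ x') ∧ T.cc x' = T.cc x ∧ T.oc x' = T.oc x ∧ T.dim x' = T.dim x ∧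
      x' ∈ T.oc x := by
  rw [← T.closure_oc] at h
  have hc : ∀ i, Continuous fun y : E => δ y i := fun i =>
    (continuous_apply i).comp δ.toAffineMap.continuous_of_finiteDimensional
  have ho : IsOpen {y : E | ∀ i, 0 < δ y i ∧ δ y i < N} := by
    have : {y : E | ∀ i, 0 < δ y i ∧ δ y i < N} = ⋂ i, {y | 0 < δ y i ∧ δ y i < N} := by
      ext; simp
    rw [this]
    exact isOpen_iInter_of_finite fun i =>
      (isOpen_lt continuous_const (hc i)).inter (isOpen_lt (hc i) continuous_const)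
  obtain ⟨x', h1, h2⟩ := mem_closure_iff.1 h _ ho he
  exact ⟨x', fun i => ⟨(h1 i).1.le, (h1 i).2.le⟩, T.cc_eq_of_mem_oc hx h2, T.oc_eq_of_mem hx h2,
    T.dim_eq_of_mem_oc hx h2, h2⟩

end Grid

end Crest.Agent.R096.Sk2_855
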