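import Crest.Agent.R096.Sk2c_855

/-!
# Row 96 (S0127), p < 2: lemma 2SK (helper855), part d: crossing edges of a lattice box
-/

set_option autoImplicit false
set_option linter.unusedSectionVars false

open Set Metric

namespace Crest.Agent.R096.Sk2_855

open Crest.Agent.R096.Msh_715 (Tiling)
open Crest.Agent.R096.Gg_113 (Cr sq mem_sq Adj cr_iff sq_card cr_conn)
open Grid (ni)

/-- the lattice box of half side 5 -/
abbrev lo (c : Fin 3 → ℤ) : Fin 3 → ℤ := fun i => c i - 5

/-- the lattice box of half side 5 -/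
abbrev up (c : Fin 3 → ℤ) : Fin 3 → ℤ := fun i => c i + 5

/-- the crossing edges of the box -/
abbrev KK (c : Fin 3 → ℤ) : Type := {k : (Fin 3 → ℤ) × Fin 3 // Cr (lo c) (up c) k}

theorem kk_spec {c : Fin 3 → ℤ} (k : KK c) :
    (k.1.1 k.1.2 = c k.1.2 + 5 ∨ k.1.1 k.1.2 = c k.1.2 - 6) ∧
      ∀ j, j ≠ k.1.2 → c j - 5 ≤ k.1.1 j ∧ k.1.1 j ≤ c j + 5 := by
  have h := (cr_iff (a := lo c) (b := up c) (x := k.1.1) (i := k.1.2)
    (fun i => by simp only [lo, up]; omega)).1 k.2
  refine ⟨?_, h.2⟩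
  rcases h.1 with h | h
  · exact Or.inl h
  · exact Or.inr (by rw [h]; simp only [lo]; omega)

theorem kk_bd {c : Fin 3 → ℤ} (k : KK c) (j : Fin 3) :
    c j - 6 ≤ k.1.1 j ∧ k.1.1 j ≤ c j + 5 := by
  obtain ⟨h1, h2⟩ := kk_spec k
  by_cases hj : j = k.1.2
  · subst hj
    rcases h1 with h | h <;> omega
  · have := h2 j hj
    omega

instance (c : Fin 3 → ℤ) : Finite (KK c) := by
  have h : {k : (Fin 3 → ℤ) × Fin 3 | Cr (lo c) (up c) k}.Finite := by
    refine ((Set.finite_Icc (fun i => c i - 6) (fun i => c i + 5)).prod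
      (Set.finite_univ (α := Fin 3))).subset ?_
    intro k hk
    refine ⟨⟨fun j => (kk_bd ⟨k, hk⟩ j).1, fun j => (kk_bd ⟨k, hk⟩ j).2⟩, mem_univ _⟩
  exact h.to_subtype

/-- the number of crossing edges is at most 13^3 · 3 -/
theorem card_kk (c : Fin 3 → ℤ) : Nat.card (KK c) ≤ 12 ^ 3 * 3 := by
  classical
  let f : KK c → (Fin 3 → Fin 12) × Fin 3 := fun k =>
    (fun j => ⟨(k.1.1 j - (c j - 6)).toNat, by have := kk_bd k j; omega⟩, k.1.2)
  have hf : Function.Injective f := by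
    intro k k' h
    simp only [f, Prod.mk.injEq] at h
    apply Subtype.ext
    apply Prod.ext
    · funext j
      have h1 := congrFun h.1 j
      simp only [Fin.mk.injEq] at h1
      have h2 := kk_bd k j
      have h3 := kk_bd k' j
      omega
    · exact h.2
  refine (Nat.card_le_card_of_injective f hf).trans ?_
  simp

/-- the point with parameter `θ` of the edge `k`, in coordinates -/
def pt (k : (Fin 3 → ℤ) × Fin 3) (θ : ℝ) : Fin 3 → ℝ :=
  fun j => k.1 j + if j = k.2 then θ else 0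

@[simp] theorem pt_same (k : (Fin 3 → ℤ) × Fin 3) (θ : ℝ) : pt k θ k.2 = k.1 k.2 + θ := by
  simp [pt]

theorem pt_ne {k : (Fin 3 → ℤ) × Fin 3} (θ : ℝ) {j : Fin 3} (h : j ≠ k.2) :
    pt k θ j = k.1 j := by
  simp [pt, h]

theorem fl_add {z : ℤ} {θ : ℝ} (h : θ ∈ Ioo (0 : ℝ) 1) :
    ⌊(z : ℝ) + θ⌋ = z ∧ ⌈(z : ℝ) + θ⌉ = z + 1 := by
  constructor
  · rw [Int.floor_eq_iff]
    exact ⟨by linarith [h.1], by linarith [h.2]⟩
  · rw [Int.ceil_eq_iff]
    push_cast
    exact ⟨by linarith [h.1], by linarith [h.2]⟩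

theorem ni_pt (k : (Fin 3 → ℤ) × Fin 3) {θ : ℝ} (h : θ ∈ Ioo (0 : ℝ) 1) : ni (pt k θ) = {k.2} := by
  ext j
  simp only [ni, Set.mem_ofPred_eq, mem_singleton_iff]
  constructor
  · intro hj
    by_contra hne
    exact hj (k.1 j) (pt_ne θ hne)
  · rintro rfl z hz
    rw [pt_same] at hz
    have h1 : (0 : ℝ) < ((z - k.1 k.2 : ℤ) : ℝ) := by push_cast; linarith [h.1]
    have h2 : ((z - k.1 k.2 : ℤ) : ℝ) < 1 := by push_cast; linarith [h.2]
    norm_cast at h1 h2
    omega

variable {E : Type*} [NormedAddCommGroup E] [NormedSpace ℝ E] {Om La : Set E} {ι : Type*}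
  {T : Tiling Om ι} {δ : E ≃ᵃ[ℝ] (Fin 3 → ℝ)} {N : ℤ} {c : Fin 3 → ℤ}

/-- the box is deep in the cube -/
def Deep (N : ℤ) (c : Fin 3 → ℤ) : Prop := ∀ i, 8 ≤ c i ∧ c i ≤ N - 8

theorem pt_inR (hc : Deep N c) (k : KK c) {θ : ℝ} (h : θ ∈ Icc (0 : ℝ) 1) :
    ∀ i, 1 ≤ pt k.1 θ i ∧ pt k.1 θ i ≤ N - 1 := by
  intro i
  have h1 := kk_bd k i
  have h2 := hc i
  have h3 : (2 : ℝ) ≤ k.1.1 i := by exact_mod_cast (by omega : (2 : ℤ) ≤ k.1.1 i)
  have h4 : (k.1.1 i : ℝ) ≤ N - 3 := by exact_mod_cast (by omega : k.1.1 i ≤ N - 3)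
  by_cases hi : i = k.1.2
  · subst hi
    rw [pt_same]
    exact ⟨by linarith [h.1], by linarith [h.2]⟩
  · rw [pt_ne θ hi]
    exact ⟨by linarith, by linarith⟩

theorem pt_InR (hc : Deep N c) (k : KK c) {θ : ℝ} (h : θ ∈ Icc (0 : ℝ) 1) : InR N (pt k.1 θ) :=
  fun i => ⟨by linarith [(pt_inR hc k h i).1], by linarith [(pt_inR hc k h i).2]⟩

/-- points of the crossing edge -/
noncomputable def ep (δ : E ≃ᵃ[ℝ] (Fin 3 → ℝ)) (k : (Fin 3 → ℤ) × Fin 3) (θ : ℝ) : E :=
  δ.symm (pt k θ)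

@[simp] theorem δ_ep (k : (Fin 3 → ℤ) × Fin 3) (θ : ℝ) : δ (ep δ k θ) = pt k θ :=
  δ.apply_symm_apply _

variable (G : Grid T δ N) (hc : Deep N c)

include G hc

theorem ep_Om (k : KK c) {θ : ℝ} (h : θ ∈ Icc (0 : ℝ) 1) : ep δ k.1 θ ∈ Om :=
  G.mem _ (by rw [δ_ep]; exact pt_InR hc k h)

theorem ep_dim (k : KK c) {θ : ℝ} (h : θ ∈ Ioo (0 : ℝ) 1) : T.dim (ep δ k.1 θ) = 1 := by
  rw [G.dim_eq (by rw [δ_ep]; exact pt_InR hc k (Ioo_subset_Icc_self h)), δ_ep, ni_pt _ h,
    ncard_singleton]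

theorem ep_oc (k : KK c) {θ : ℝ} (h : θ ∈ Ioo (0 : ℝ) 1) {y : E} :
    y ∈ T.oc (ep δ k.1 θ) ↔ ∃ θ' ∈ Ioo (0 : ℝ) 1, y = ep δ k.1 θ' := by
  rw [G.mem_oc (by rw [δ_ep]; exact pt_InR hc k (Ioo_subset_Icc_self h)), δ_ep]
  constructor
  · intro hy
    have h0 := hy k.1.2
    rw [pt_same, (fl_add h).1, (fl_add h).2] at h0
    have h1 : (k.1.1 k.1.2 : ℝ) < δ y k.1.2 := by
      have := Int.ceil_eq_iff.1 h0.2.symm
      push_cast at this
      linarith [this.1]
    have h2 : δ y k.1.2 < k.1.1 k.1.2 + 1 := (Int.floor_eq_iff.1 h0.1.symm).2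
    refine ⟨δ y k.1.2 - k.1.1 k.1.2, ⟨by linarith, by linarith⟩, ?_⟩
    apply δ.injective
    rw [δ_ep]
    funext j
    by_cases hj : j = k.1.2
    · subst hj
      rw [pt_same]
      ring
    · have hyj := hy j
      rw [pt_ne θ hj, Int.floor_intCast, Int.ceil_intCast] at hyj
      rw [pt_ne _ hj]
      exact le_antisymm (Int.ceil_le.1 hyj.2.ge) (Int.le_floor.1 hyj.1.le)
  · rintro ⟨θ', h', rfl⟩ i
    rw [δ_ep]
    by_cases hi : i = k.1.2
    · subst hi
      rw [pt_same, pt_same, (fl_add h).1, (fl_add h).2, (fl_add h').1, (fl_add h').2]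
      exact ⟨rfl, rfl⟩
    · rw [pt_ne θ hi, pt_ne θ' hi]
      exact ⟨rfl, rfl⟩

theorem ep_cc (k : KK c) {θ : ℝ} (h : θ ∈ Ioo (0 : ℝ) 1) {θ' : ℝ} (h' : θ' ∈ Icc (0 : ℝ) 1) :
    ep δ k.1 θ' ∈ T.cc (ep δ k.1 θ) := by
  rw [G.cc _ (by rw [δ_ep]; exact pt_InR hc k (Ioo_subset_Icc_self h)), Set.mem_ofPred_eq,
    δ_ep, δ_ep]
  intro i
  by_cases hi : i = k.1.2
  · subst hi
    rw [pt_same, pt_same, (fl_add h).1, (fl_add h).2]
    push_cast
    exact ⟨by linarith [h'.1], by linarith [h'.2]⟩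
  · rw [pt_ne θ hi, pt_ne θ' hi, Int.floor_intCast, Int.ceil_intCast]
    exact ⟨le_rfl, le_rfl⟩

theorem ep_inj (k k' : KK c) {θ θ' : ℝ} (h : θ ∈ Ioo (0 : ℝ) 1) (h' : θ' ∈ Ioo (0 : ℝ) 1)
    (e : ep δ k'.1 θ' ∈ T.oc (ep δ k.1 θ)) : k' = k := by
  obtain ⟨θ'', h'', e'⟩ := (ep_oc G hc k h).1 e
  have e1 := congrArg δ e'
  rw [δ_ep, δ_ep] at e1
  have e2 := congrArg ni e1
  rw [ni_pt _ h', ni_pt _ h''] at e2
  have e3 : k'.1.2 = k.1.2 := by simpa using e2
  apply Subtype.ext
  refine Prod.ext ?_ e3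
  funext j
  have e4 := congrFun e1 j
  have e5 := congrArg Int.floor e4
  by_cases hj : j = k.1.2
  · subst hj
    rw [pt_same, (fl_add h'').1] at e5
    rw [← e3] at e5 ⊢
    rw [pt_same, (fl_add h').1] at e5
    exact e5
  · rw [pt_ne _ hj, pt_ne _ (by rwa [e3]), Int.floor_intCast, Int.floor_intCast] at e5
    exact e5

theorem ep_vertex (k : KK c) {θ : ℝ} (h : θ = 0 ∨ θ = 1) : T.dim (ep δ k.1 θ) = 0 := by
  have hI : θ ∈ Icc (0 : ℝ) 1 := by rcases h with rfl | rfl <;> simp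
  rw [G.dim_eq (by rw [δ_ep]; exact pt_InR hc k hI), δ_ep]
  have : ni (pt k.1 θ) = ∅ := by
    ext j
    simp only [ni, Set.mem_ofPred_eq, mem_empty_iff_false, iff_false, not_forall, not_not]
    by_cases hj : j = k.1.2
    · subst hj
      rcases h with rfl | rfl
      · exact ⟨k.1.1 k.1.2, by simp⟩
      · exact ⟨k.1.1 k.1.2 + 1, by simp⟩
    · exact ⟨k.1.1 j, pt_ne θ hj⟩
  rw [this, ncard_empty]

omit hc

/-- the crossing edges in a grid square -/
theorem mem_square {x : E} (hx : InR N (δ x)) {i j : Fin 3} (hij : i ≠ j)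
    (hni : ni (δ x) = {i, j}) (k : KK c) :
    ep δ k.1 (1 / 2) ∈ T.cc x ↔ k.1 ∈ sq (fun l => ⌊δ x l⌋) i j := by
  have hce : ∀ l ∈ ni (δ x), ⌈δ x l⌉ = ⌊δ x l⌋ + 1 := by
    intro l hl
    rw [Int.ceil_eq_iff]
    push_cast
    refine ⟨?_, (Int.lt_floor_add_one _).le⟩
    have : (⌊δ x l⌋ : ℝ) < δ x l := lt_of_le_of_ne (Int.floor_le _) (fun h => hl _ h.symm)
    linarith
  have hce' : ∀ l ∉ ni (δ x), ⌈δ x l⌉ = ⌊δ x l⌋ := by
    intro l hl
    simp only [ni, Set.mem_ofPred_eq, not_forall, not_not] at hl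
    obtain ⟨z, hz⟩ := hl
    rw [hz, Int.ceil_intCast, Int.floor_intCast]
  have hi : i ∈ ni (δ x) := by rw [hni]; simp
  have hj : j ∈ ni (δ x) := by rw [hni]; simp
  have ho : ∀ l, l ≠ i → l ≠ j → l ∉ ni (δ x) := by
    intro l h1 h2 h3
    rw [hni] at h3
    rcases h3 with h3 | h3
    · exact h1 h3
    · exact h2 h3
  rw [G.cc x hx, Set.mem_ofPred_eq, δ_ep, mem_sq]
  set z : Fin 3 → ℤ := fun l => ⌊δ x l⌋ with hz
  obtain ⟨⟨y, a⟩, hk⟩ := k
  simp only
  -- the condition coordinate by coordinate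
  have hcoord : (∀ l, (⌊δ x l⌋ : ℝ) ≤ pt (y, a) (1 / 2) l ∧ pt (y, a) (1 / 2) l ≤ ⌈δ x l⌉) ↔
      (a = i ∨ a = j) ∧ y a = z a ∧
        ∀ l, l ≠ a → z l ≤ y l ∧ y l ≤ if l ∈ ({i, j} : Set (Fin 3)) then z l + 1 else z l := by
    classical
    constructor
    · intro h
      have ha := h a
      rw [show pt (y, a) (1 / 2) a = y a + 1 / 2 from pt_same (y, a) _] at ha
      have hani : a ∈ ni (δ x) := by
        by_contra hn
        rw [hce' a hn] at ha
        have h1 : (0 : ℝ) < ((z a - y a : ℤ) : ℝ) := by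
          push_cast; simp only [hz]; linarith [ha.2]
        have h2 : ((z a - y a : ℤ) : ℝ) < 1 := by
          push_cast; simp only [hz]; linarith [ha.1]
        norm_cast at h1 h2
        omega
      refine ⟨by rw [hni] at hani; exact hani, ?_, ?_⟩
      · rw [hce a hani] at ha
        push_cast at ha
        have h1 : (-1 : ℝ) < ((y a - z a : ℤ) : ℝ) := by
          push_cast; simp only [hz]; linarith [ha.1]
        have h2 : ((y a - z a : ℤ) : ℝ) < 1 := by
          push_cast; simp only [hz]; linarith [ha.2]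
        have h1' : (-1 : ℤ) < y a - z a := by exact_mod_cast h1
        have h2' : y a - z a < 1 := by exact_mod_cast h2
        omega
      · intro l hl
        have hl' := h l
        rw [show pt (y, a) (1 / 2) l = y l from pt_ne _ hl] at hl'
        refine ⟨by exact_mod_cast hl'.1, ?_⟩
        split_ifs with hm
        · rw [hce l (by rw [hni]; exact hm)] at hl'
          exact_mod_cast hl'.2
        · rw [hce' l (by rw [hni]; exact hm)] at hl'
          exact_mod_cast hl'.2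
    · rintro ⟨h1, h2, h3⟩ l
      by_cases hl : l = a
      · subst hl
        rw [show pt (y, l) (1 / 2) l = y l + 1 / 2 from pt_same (y, l) _,
          hce l (by rw [hni]; exact h1), h2]
        push_cast
        simp only [hz]
        constructor <;> linarith
      · rw [show pt (y, a) (1 / 2) l = y l from pt_ne _ hl]
        have h4 := h3 l hl
        refine ⟨by exact_mod_cast h4.1, ?_⟩
        split_ifs at h4 with hm
        · rw [hce l (by rw [hni]; exact hm)]
          exact_mod_cast h4.2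
        · rw [hce' l (by rw [hni]; exact hm)]
          exact_mod_cast h4.2
  rw [hcoord]
  classical
  constructor
  · rintro ⟨h1, h2, h3⟩
    rcases h1 with rfl | rfl
    · have h4 := h3 j hij.symm
      simp only [mem_insert_iff, mem_singleton_iff, or_true, if_true] at h4
      have h5 : ∀ l, l ≠ a → l ≠ j → y l = z l := by
        intro l hl1 hl2
        have := h3 l hl1
        rw [if_neg (by simp [hl1, hl2])] at this
        omega
      rcases (by omega : y j = z j ∨ y j = z j + 1) with h | h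
      · left
        refine Prod.ext ?_ rfl
        funext l
        by_cases e1 : l = a
        · rw [e1]; exact h2
        · by_cases e2 : l = j
          · rw [e2]; exact h
          · exact h5 l e1 e2
      · right; right; right
        refine Prod.ext ?_ rfl
        funext l
        simp only [Pi.add_apply]
        by_cases e1 : l = a
        · rw [e1, Gg_113.e_ne hij, add_zero]; exact h2
        · by_cases e2 : l = j
          · rw [e2, Gg_113.e_same]; exact h
          · rw [Gg_113.e_ne e2, add_zero]; exact h5 l e1 e2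
    · have h4 := h3 i hij
      simp only [mem_insert_iff, true_or, if_true] at h4
      have h5 : ∀ l, l ≠ a → l ≠ i → y l = z l := by
        intro l hl1 hl2
        have := h3 l hl1
        rw [if_neg (by simp [hl1, hl2])] at this
        omega
      rcases (by omega : y i = z i ∨ y i = z i + 1) with h | h
      · right; left
        refine Prod.ext ?_ rfl
        funext l
        by_cases e1 : l = a
        · rw [e1]; exact h2
        · by_cases e2 : l = i
          · rw [e2]; exact h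
          · exact h5 l e1 e2
      · right; right; left
        refine Prod.ext ?_ rfl
        funext l
        simp only [Pi.add_apply]
        by_cases e1 : l = a
        · rw [e1, Gg_113.e_ne hij.symm, add_zero]; exact h2
        · by_cases e2 : l = i
          · rw [e2, Gg_113.e_same]; exact h
          · rw [Gg_113.e_ne e2, add_zero]; exact h5 l e1 e2
  · intro h
    have aux : ∀ (b d : Fin 3), b ≠ d → (b = i ∧ d = j ∨ b = j ∧ d = i) →
        (y, a) = (z, b) ∨ (y, a) = (z + Gg_113.e d, b) →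
        (a = i ∨ a = j) ∧ y a = z a ∧
        ∀ l, l ≠ a → z l ≤ y l ∧ y l ≤ if l ∈ ({i, j} : Set (Fin 3)) then z l + 1 else z l := by
      intro b d hbd hbd' h
      rcases h with h | h
      · simp only [Prod.mk.injEq] at h
        obtain ⟨rfl, rfl⟩ := h
        refine ⟨by rcases hbd' with h | h <;> simp [h.1], rfl, fun l _ => ⟨le_rfl, ?_⟩⟩
        split_ifs
        · omega
        · exact le_rfl
      · simp only [Prod.mk.injEq] at h
        obtain ⟨rfl, rfl⟩ := h
        refine ⟨by rcases hbd' with h | h <;> simp [h.1], ?_, fun l _ => ?_⟩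
        · simp [Gg_113.e_ne hbd]
        · simp only [Pi.add_apply]
          by_cases hl : l = d
          · subst hl
            rw [Gg_113.e_same]
            rw [if_pos (by rcases hbd' with h | h <;> simp [h.2])]
            omega
          · rw [Gg_113.e_ne hl, add_zero]
            split_ifs
            · omega
            · exact ⟨le_rfl, le_rfl⟩
    rcases h with h | h | h | h
    · exact aux i j hij (Or.inl ⟨rfl, rfl⟩) (Or.inl h)
    · exact aux j i hij.symm (Or.inr ⟨rfl, rfl⟩) (Or.inl h)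
    · exact aux j i hij.symm (Or.inr ⟨rfl, rfl⟩) (Or.inr h)
    · exact aux i j hij (Or.inl ⟨rfl, rfl⟩) (Or.inr h)

include hc

theorem two_cross [FiniteDimensional ℝ E] {x : E} (hx : x ∈ Om) (hd : T.dim x = 2)
    (h : ∃ k : KK c, ep δ k.1 (1 / 2) ∈ T.cc x) :
    ∃ k k' : KK c, k ≠ k' ∧ ep δ k.1 (1 / 2) ∈ T.cc x ∧ ep δ k'.1 (1 / 2) ∈ T.cc x ∧
      ∀ k'' : KK c, ep δ k''.1 (1 / 2) ∈ T.cc x → k'' = k ∨ k'' = k' := by
  obtain ⟨k0, hk0⟩ := h
  have hh : (1 / 2 : ℝ) ∈ Icc (0 : ℝ) 1 := by constructor <;> norm_num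
  obtain ⟨x', hR, e1, -, e3, -⟩ := G.exists_rep (e := ep δ k0.1 (1 / 2))
    (by
      rw [δ_ep]
      intro i
      have := pt_inR hc k0 hh i
      exact ⟨by linarith, by linarith⟩) hx hk0
  rw [hd, G.dim_eq hR] at e3
  obtain ⟨i, j, hij, hni⟩ := ncard_eq_two.1 e3
  rw [← e1] at hk0 ⊢
  have key := fun k : KK c => mem_square G hR hij hni k
  have h2 : {k | k ∈ sq (fun l => ⌊δ x' l⌋) i j ∧ Cr (lo c) (up c) k}.ncard = 2 := by
    refine (sq_card (lo c) (up c) _ hij).resolve_left ?_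
    intro h0
    have hfin : {k | k ∈ sq (fun l => ⌊δ x' l⌋) i j ∧ Cr (lo c) (up c) k}.Finite :=
      (Set.finite_range _).subset fun k hk => hk.1
    have := (ncard_eq_zero hfin).1 h0
    have h1 : k0.1 ∈ ({k | k ∈ sq (fun l => ⌊δ x' l⌋) i j ∧ Cr (lo c) (up c) k} : Set _) :=
      ⟨(key k0).1 hk0, k0.2⟩
    rw [this] at h1
    exact h1
  obtain ⟨p, p', hpp, hp⟩ := ncard_eq_two.1 h2
  have m1 : p ∈ ({k | k ∈ sq (fun l => ⌊δ x' l⌋) i j ∧ Cr (lo c) (up c) k} : Set _) := by
    rw [hp]; simp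
  have m2 : p' ∈ ({k | k ∈ sq (fun l => ⌊δ x' l⌋) i j ∧ Cr (lo c) (up c) k} : Set _) := by
    rw [hp]; simp
  refine ⟨⟨p, m1.2⟩, ⟨p', m2.2⟩, fun h => hpp (congrArg Subtype.val h), (key _).2 m1.1,
    (key _).2 m2.1, fun k'' hk'' => ?_⟩
  have h3 : k''.1 ∈ ({k | k ∈ sq (fun l => ⌊δ x' l⌋) i j ∧ Cr (lo c) (up c) k} : Set _) :=
    ⟨(key k'').1 hk'', k''.2⟩
  rw [hp] at h3
  rcases h3 with h3 | h3
  · exact Or.inl (Subtype.ext h3)
  · exact Or.inr (Subtype.ext h3)

theorem conn_cross (k k' : KK c) : Relation.ReflTransGen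
    (fun k k' : KK c => ∃ x ∈ Om, T.dim x = 2 ∧ ep δ k.1 (1 / 2) ∈ T.cc x ∧
      ep δ k'.1 (1 / 2) ∈ T.cc x) k k' := by
  have h0 := cr_conn (a := lo c) (b := up c) (fun i => by simp only [lo, up]; omega) k.2 k'.2
  have step : ∀ (p p' : (Fin 3 → ℤ) × Fin 3), Adj (lo c) (up c) p p' →
      ∀ (hp : Cr (lo c) (up c) p) (hp' : Cr (lo c) (up c) p'),
      ∃ x ∈ Om, T.dim x = 2 ∧ ep δ p (1 / 2) ∈ T.cc x ∧ ep δ p' (1 / 2) ∈ T.cc x := by
    rintro p p' ⟨-, -, z, i, j, hij, h1, h2⟩ hp hp'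
    -- the centre of the square
    let w : Fin 3 → ℝ := fun l => z l + if l = i ∨ l = j then (1 / 2 : ℝ) else 0
    have hz : ∀ l, c l - 7 ≤ z l ∧ z l ≤ c l + 5 := by
      intro l
      have hb := kk_bd (⟨p, hp⟩ : KK c) l
      simp only at hb
      have hdiff : p.1 l = z l ∨ p.1 l = z l + 1 := by
        rcases mem_sq.1 h1 with h | h | h | h
        · rw [h]; exact Or.inl rfl
        · rw [h]; exact Or.inl rfl
        · rw [h]
          simp only [Pi.add_apply]
          by_cases hl : l = i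
          · rw [hl, Gg_113.e_same]; exact Or.inr rfl
          · rw [Gg_113.e_ne hl, add_zero]; exact Or.inl rfl
        · rw [h]
          simp only [Pi.add_apply]
          by_cases hl : l = j
          · rw [hl, Gg_113.e_same]; exact Or.inr rfl
          · rw [Gg_113.e_ne hl, add_zero]; exact Or.inl rfl
      omega
    have hfl : ∀ l, ⌊w l⌋ = z l := by
      intro l
      simp only [w]
      split_ifs
      · exact (fl_add (by constructor <;> norm_num)).1
      · rw [add_zero, Int.floor_intCast]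
    have hwR : InR N w := by
      intro l
      have h3 := hz l
      have h4 := hc l
      have h5 : (1 : ℝ) ≤ z l := by exact_mod_cast (by omega : (1 : ℤ) ≤ z l)
      have h6 : (z l : ℝ) ≤ N - 3 := by exact_mod_cast (by omega : z l ≤ N - 3)
      simp only [w]
      split_ifs <;> constructor <;> linarith
    have hwni : ni w = {i, j} := by
      ext l
      simp only [ni, Set.mem_ofPred_eq, mem_insert_iff, mem_singleton_iff]
      constructor
      · intro h
        by_contra hn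
        exact h (z l) (by simp only [w]; rw [if_neg hn, add_zero])
      · intro h m hm
        simp only [w] at hm
        rw [if_pos h] at hm
        have h7 : (0 : ℝ) < ((m - z l : ℤ) : ℝ) := by push_cast; linarith
        have h8 : ((m - z l : ℤ) : ℝ) < 1 := by push_cast; linarith
        norm_cast at h7 h8
        omega
    have hδ : δ (δ.symm w) = w := δ.apply_symm_apply w
    have hR : InR N (δ (δ.symm w)) := by rw [hδ]; exact hwR
    refine ⟨δ.symm w, G.mem _ hR, ?_, ?_, ?_⟩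
    · rw [G.dim_eq hR, hδ, hwni, ncard_pair hij]
    · refine (mem_square G hR hij (by rw [hδ, hwni]) ⟨p, hp⟩).2 ?_
      rw [hδ]
      simpa only [hfl] using h1
    · refine (mem_square G hR hij (by rw [hδ, hwni]) ⟨p', hp'⟩).2 ?_
      rw [hδ]
      simpa only [hfl] using h2
  -- lift the chain
  have lift : ∀ p', Relation.ReflTransGen (Adj (lo c) (up c)) k.1 p' →
      ∀ hp' : Cr (lo c) (up c) p', Relation.ReflTransGen
        (fun k k' : KK c => ∃ x ∈ Om, T.dim x = 2 ∧ ep δ k.1 (1 / 2) ∈ T.cc x ∧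
          ep δ k'.1 (1 / 2) ∈ T.cc x) k ⟨p', hp'⟩ := by
    intro p' h
    induction h with
    | refl => intro _; exact Relation.ReflTransGen.refl
    | tail _ hst ih =>
      intro hp'
      exact (ih hst.1).tail (step _ _ hst hst.1 hp')
  exact lift k'.1 h0 k'.2

end Crest.Agent.R096.Sk2_855
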