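import Crest.Agent.R096.Sk2d_855

/-!
# Row 96 (S0127), p < 2: lemma 2SK (helper855), part e: good cubes, levels, marks
-/

set_option autoImplicit false
set_option linter.unusedSectionVars false

open Set Metric MeasureTheory

namespace Crest.Agent.R096.Sk2_855

open Crest.Agent.R096.Msh_715 (Tiling)
open Crest.Agent.R096.Gg_113 (Cr cr_iff)
open Grid (ni)

variable {E : Type*} [NormedAddCommGroup E] [NormedSpace ℝ E] {Om La : Set E} {ι : Type*}

/-- the middle part of the target cube -/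
def Mid (N m : ℤ) (w : Fin 3 → ℝ) : Prop := ∀ i, (m : ℝ) ≤ w i ∧ w i ≤ N - m

/-- a good cube: charts in the domain and in the target, the mesh is the unit grid, `f` is near the
affine map `lam⁻¹ ∘ δ` on the 1-skeleton, no intruders, most levels are crossed once. -/
structure GoodQ (T : Tiling Om ι) (La : Set E) (f : E → E) (N m : ℤ)
    (δ lam : E ≃ᵃ[ℝ] (Fin 3 → ℝ)) : Prop where
  m0 : 0 ≤ m
  grid : Grid T δ N
  sub : ∀ y, Mid N m (lam y) → y ∈ La
  near : ∀ x ∈ sk1 T, InR N (δ x) → ‖lam (f x) - δ x‖ ≤ 1 / 8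
  out : ∀ x ∈ sk1 T, Mid N m (lam (f x)) → InR N (δ x)
  once : ∀ k : (Fin 3 → ℤ) × Fin 3, InR N (pt k 0) → InR N (pt k 1) →
    volume {s : ℝ | s ∈ Ioo (1 / 4 : ℝ) (3 / 4) ∧ ∃ θ ∈ Icc (0 : ℝ) 1, ∃ θ' ∈ Icc (0 : ℝ) 1, θ ≠ θ' ∧
      lam (f (ep δ k θ)) k.2 = k.1 k.2 + s ∧ lam (f (ep δ k θ')) k.2 = k.1 k.2 + s}
      ≤ ENNReal.ofReal (1 / 20000)

/-- the box is deep -/
def DeepM (N m : ℤ) (c : Fin 3 → ℤ) : Prop := ∀ i, m + 8 ≤ c i ∧ c i ≤ N - m - 8

theorem DeepM.deep {N m : ℤ} (hm : 0 ≤ m) {c : Fin 3 → ℤ} (h : DeepM N m c) : Deep N c :=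
  fun i => ⟨by have := (h i).1; omega, by have := (h i).2; omega⟩

/-- the coordinates centred at the box -/
noncomputable def bL (lam : E ≃ᵃ[ℝ] (Fin 3 → ℝ)) (c : Fin 3 → ℤ) : E ≃ᵃ[ℝ] (Fin 3 → ℝ) :=
  lam.trans (AffineEquiv.constVAdd ℝ (Fin 3 → ℝ) (fun i => -(c i : ℝ)))

theorem bL_apply (lam : E ≃ᵃ[ℝ] (Fin 3 → ℝ)) (c : Fin 3 → ℤ) (y : E) (i : Fin 3) :
    bL lam c y i = lam y i - c i := by
  simp only [bL, AffineEquiv.trans_apply, AffineEquiv.constVAdd_apply, vadd_eq_add, Pi.add_apply]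
  ring

/-- the level of the edge `k` which belongs to the level `5 + s` of the box -/
noncomputable def lev {c : Fin 3 → ℤ} (k : KK c) (s : ℝ) : ℝ :=
  if k.1.1 k.1.2 = c k.1.2 + 5 then s else 1 - s

theorem lev_mem {c : Fin 3 → ℤ} (k : KK c) {s a : ℝ} (h : s ∈ Icc a (1 - a)) :
    lev k s ∈ Icc a (1 - a) := by
  unfold lev
  split_ifs
  · exact h
  · exact ⟨by linarith [h.2], by linarith [h.1]⟩

theorem exists_norm_eq (w : Fin 3 → ℝ) : ∃ i, |w i| = ‖w‖ := by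
  obtain ⟨i, -, hi⟩ := Finset.exists_max_image (Finset.univ : Finset (Fin 3)) (fun i => |w i|)
    ⟨0, Finset.mem_univ _⟩
  refine ⟨i, le_antisymm (norm_le_pi_norm w i) ?_⟩
  exact (pi_norm_le_iff_of_nonneg (abs_nonneg _)).2 fun j => hi j (Finset.mem_univ _)

variable {T : Tiling Om ι} {f : E → E} {N m : ℤ} {δ lam : E ≃ᵃ[ℝ] (Fin 3 → ℝ)}
  {c : Fin 3 → ℤ}

/-- a point of the 1-skeleton whose image is near the level `5 + s` of the box lies on a crossing
edge -/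
theorem GoodQ.localize (Q : GoodQ T La f N m δ lam) (hc : DeepM N m c) {s : ℝ}
    (hs : s ∈ Icc (1 / 4 : ℝ) (3 / 4)) {x : E} (hx : x ∈ sk1 T)
    (h : |‖bL lam c (f x)‖ - (5 + s)| ≤ 1 / 16) :
    ∃ k : KK c, ∃ θ ∈ Ioo (0 : ℝ) 1, x = ep δ k.1 θ ∧
      |lam (f x) k.1.2 - (k.1.1 k.1.2 + lev k s)| = |‖bL lam c (f x)‖ - (5 + s)| := by
  set w := bL lam c (f x) with hw
  have hwi : ∀ i, lam (f x) i = c i + w i := fun i => by rw [hw, bL_apply]; ring
  rw [abs_le] at h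
  have hs1 := hs.1
  have hs2 := hs.2
  have hu1 : (5 : ℝ) + 3 / 16 ≤ ‖w‖ := by linarith [h.1]
  have hu2 : ‖w‖ ≤ 6 - 3 / 16 := by linarith [h.2]
  have hab : ∀ i, |w i| ≤ ‖w‖ := fun i => norm_le_pi_norm w i
  have hR : InR N (δ x) := by
    refine Q.out x hx fun i => ?_
    have h1 := abs_le.1 (hab i)
    have h2 := hc i
    have h3 : (m : ℝ) + 8 ≤ c i := by exact_mod_cast h2.1
    have h4 : (c i : ℝ) ≤ N - m - 8 := by exact_mod_cast h2.2
    rw [hwi]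
    constructor <;> linarith [h1.1, h1.2]
  have hn := Q.near x hx hR
  have hnear : ∀ i, |lam (f x) i - δ x i| ≤ 1 / 8 := fun i =>
    (norm_le_pi_norm (lam (f x) - δ x) i).trans hn
  obtain ⟨i, hi⟩ := exists_norm_eq w
  -- the coordinate `i` is not an integer
  have hfl : (0 ≤ w i → ⌊δ x i⌋ = c i + 5 ∧ ((c i : ℝ) + 5 < δ x i ∧ δ x i < c i + 6)) ∧
      (w i < 0 → ⌊δ x i⌋ = c i - 6 ∧ ((c i : ℝ) - 6 < δ x i ∧ δ x i < c i - 5)) := by
    have h1 := abs_le.1 (hnear i)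
    rw [hwi] at h1
    constructor
    · intro h0
      rw [abs_of_nonneg h0] at hi
      have h2 : (c i : ℝ) + 5 < δ x i := by linarith [h1.2]
      have h3 : δ x i < c i + 6 := by linarith [h1.1]
      refine ⟨?_, h2, h3⟩
      rw [Int.floor_eq_iff]
      push_cast
      exact ⟨h2.le, by linarith⟩
    · intro h0
      rw [abs_of_neg h0] at hi
      have h2 : (c i : ℝ) - 6 < δ x i := by linarith [h1.2]
      have h3 : δ x i < c i - 5 := by linarith [h1.1]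
      refine ⟨?_, h2, h3⟩
      rw [Int.floor_eq_iff]
      push_cast
      exact ⟨h2.le, by linarith⟩
  have hlt : (⌊δ x i⌋ : ℝ) < δ x i ∧ δ x i < ⌊δ x i⌋ + 1 := by
    rcases le_or_gt 0 (w i) with h0 | h0
    · obtain ⟨e, h2, h3⟩ := hfl.1 h0
      rw [e]; push_cast
      exact ⟨h2, by linarith⟩
    · obtain ⟨e, h2, h3⟩ := hfl.2 h0
      rw [e]; push_cast
      exact ⟨h2, by linarith⟩
  have hini : i ∈ ni (δ x) := by
    intro z hz
    rw [hz, Int.floor_intCast] at hlt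
    exact lt_irrefl _ hlt.1
  have hd := hx.2
  rw [Q.grid.dim_eq hR] at hd
  have hni : ∀ j, j ≠ i → ∃ z : ℤ, δ x j = z := by
    intro j hj
    by_contra hn'
    push Not at hn'
    have h1 : ({i, j} : Set (Fin 3)) ⊆ ni (δ x) := by
      rintro l (rfl | rfl)
      · exact hini
      · exact hn'
    have h2 := ncard_le_ncard h1 (toFinite _)
    rw [ncard_pair hj.symm] at h2
    omega
  have hfj : ∀ j, j ≠ i → δ x j = ⌊δ x j⌋ := by
    intro j hj
    obtain ⟨z, hz⟩ := hni j hj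
    rw [hz, Int.floor_intCast]
  set k0 : (Fin 3 → ℤ) × Fin 3 := (fun j => ⌊δ x j⌋, i) with hk0
  have hCr : Cr (lo c) (up c) k0 := by
    rw [hk0, cr_iff (fun i => by simp only [lo, up]; omega)]
    constructor
    · rcases le_or_gt 0 (w i) with h0 | h0
      · exact Or.inl (hfl.1 h0).1
      · right
        show ⌊δ x i⌋ = c i - 5 - 1
        rw [(hfl.2 h0).1]; ring
    · intro j hj
      have h1 := abs_le.1 (hnear j)
      have h2 := abs_le.1 (hab j)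
      rw [hwi, hfj j hj] at h1
      have h3 : (-6 : ℝ) < ((⌊δ x j⌋ - c j : ℤ) : ℝ) := by push_cast; linarith [h1.2, h2.1]
      have h4 : ((⌊δ x j⌋ - c j : ℤ) : ℝ) < 6 := by push_cast; linarith [h1.1, h2.2]
      have h3' : (-6 : ℤ) < ⌊δ x j⌋ - c j := by exact_mod_cast h3
      have h4' : ⌊δ x j⌋ - c j < 6 := by exact_mod_cast h4
      show c j - 5 ≤ ⌊δ x j⌋ ∧ ⌊δ x j⌋ ≤ c j + 5
      omega
  refine ⟨⟨k0, hCr⟩, δ x i - ⌊δ x i⌋, ⟨by linarith [hlt.1], by linarith [hlt.2]⟩, ?_, ?_⟩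
  · apply δ.injective
    rw [δ_ep]
    funext j
    by_cases hj : j = i
    · subst hj
      rw [show pt k0 (δ x j - ⌊δ x j⌋) j = k0.1 j + (δ x j - ⌊δ x j⌋) from pt_same k0 _]
      simp only [hk0]
      ring
    · rw [show pt k0 (δ x i - ⌊δ x i⌋) j = k0.1 j from pt_ne _ hj]
      exact hfj j hj
  · show |lam (f x) i - ((⌊δ x i⌋ : ℤ) + lev (⟨k0, hCr⟩ : KK c) s)| = _
    unfold lev
    simp only [hk0]
    rcases le_or_gt 0 (w i) with h0 | h0
    · rw [if_pos (hfl.1 h0).1, (hfl.1 h0).1, hwi]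
      rw [abs_of_nonneg h0] at hi
      push_cast
      rw [hi]
      congr 1
      ring
    · rw [if_neg (by rw [(hfl.2 h0).1]; omega), (hfl.2 h0).1, hwi]
      rw [abs_of_neg h0] at hi
      push_cast
      rw [← hi, abs_sub_comm]
      congr 1
      ring

/-- values on a crossing edge -/
theorem GoodQ.near_ep (Q : GoodQ T La f N m δ lam) (hc : DeepM N m c) (k : KK c) {θ : ℝ}
    (hθ : θ ∈ Icc (0 : ℝ) 1) (i : Fin 3) : |lam (f (ep δ k.1 θ)) i - pt k.1 θ i| ≤ 1 / 8 := by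
  have hcd := hc.deep Q.m0
  have h1 : ep δ k.1 θ ∈ sk1 T := by
    refine ⟨ep_Om Q.grid hcd k hθ, ?_⟩
    have h2 := ep_cc Q.grid hcd k (θ := 1 / 2) (by constructor <;> norm_num) hθ
    rw [Q.grid.dim_eq (by rw [δ_ep]; exact pt_InR hcd k hθ), δ_ep]
    have : ni (pt k.1 θ) ⊆ {k.1.2} := by
      intro j hj
      by_contra hne
      exact hj (k.1.1 j) (pt_ne θ hne)
    have h3 := ncard_le_ncard this (toFinite _)
    rw [ncard_singleton] at h3
    exact h3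
  have h2 := Q.near _ h1 (by rw [δ_ep]; exact pt_InR hcd k hθ)
  rw [δ_ep] at h2
  exact (norm_le_pi_norm _ i).trans h2

theorem GoodQ.ep_sk1 (Q : GoodQ T La f N m δ lam) (hc : DeepM N m c) (k : KK c) {θ : ℝ}
    (hθ : θ ∈ Icc (0 : ℝ) 1) : ep δ k.1 θ ∈ sk1 T := by
  have hcd := hc.deep Q.m0
  refine ⟨ep_Om Q.grid hcd k hθ, ?_⟩
  rw [Q.grid.dim_eq (by rw [δ_ep]; exact pt_InR hcd k hθ), δ_ep]
  have : ni (pt k.1 θ) ⊆ {k.1.2} := by
    intro j hj
    by_contra hne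
    exact hj (k.1.1 j) (pt_ne θ hne)
  have h3 := ncard_le_ncard this (toFinite _)
  rw [ncard_singleton] at h3
  exact h3

theorem continuous_ep [FiniteDimensional ℝ E] (k : (Fin 3 → ℤ) × Fin 3) :
    Continuous fun θ : ℝ => ep δ k θ := by
  have h1 : Continuous δ.symm := δ.symm.toAffineMap.continuous_of_finiteDimensional
  refine h1.comp (continuous_pi fun j => ?_)
  unfold pt
  split_ifs
  · fun_prop
  · fun_prop

theorem continuous_aff [FiniteDimensional ℝ E] (l : E ≃ᵃ[ℝ] (Fin 3 → ℝ)) : Continuous l :=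
  l.toAffineMap.continuous_of_finiteDimensional

/-- continuity of the values along a crossing edge -/
theorem GoodQ.cont_ep [FiniteDimensional ℝ E] (Q : GoodQ T La f N m δ lam) (hc : DeepM N m c)
    (hf : ContinuousOn f Om) (k : KK c) :
    ContinuousOn (fun θ : ℝ => f (ep δ k.1 θ)) (Icc 0 1) :=
  hf.comp (continuous_ep k.1).continuousOn fun _ hθ => ep_Om Q.grid (hc.deep Q.m0) k hθ

/-- the values at a crossing point -/
theorem GoodQ.norm_of_lev (Q : GoodQ T La f N m δ lam) (hc : DeepM N m c) (k : KK c) {s : ℝ}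
    (hs : s ∈ Icc (1 / 4 : ℝ) (3 / 4)) {θ : ℝ} (hθ : θ ∈ Icc (0 : ℝ) 1)
    (h : lam (f (ep δ k.1 θ)) k.1.2 = k.1.1 k.1.2 + lev k s) :
    |bL lam c (f (ep δ k.1 θ)) k.1.2| = 5 + s ∧
      ∀ j, j ≠ k.1.2 → |bL lam c (f (ep δ k.1 θ)) j| ≤ 5 + 1 / 8 := by
  obtain ⟨h1, h2⟩ := kk_spec k
  constructor
  · rw [bL_apply, h]
    unfold lev
    rcases h1 with e | e
    · rw [if_pos e, e]
      push_cast
      rw [show (c k.1.2 : ℝ) + 5 + s - c k.1.2 = 5 + s by ring,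
        abs_of_nonneg (by linarith [hs.1])]
    · rw [if_neg (by omega), e]
      push_cast
      rw [show (c k.1.2 : ℝ) - 6 + (1 - s) - c k.1.2 = -(5 + s) by ring, abs_neg,
        abs_of_nonneg (by linarith [hs.1])]
  · intro j hj
    have h3 := abs_le.1 (Q.near_ep hc k hθ j)
    rw [pt_ne θ hj] at h3
    have h4 := h2 j hj
    have h5 : (c j : ℝ) - 5 ≤ k.1.1 j := by exact_mod_cast h4.1
    have h6 : (k.1.1 j : ℝ) ≤ c j + 5 := by exact_mod_cast h4.2
    rw [bL_apply, abs_le]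
    constructor <;> linarith [h3.1, h3.2]

theorem GoodQ.norm_eq_of_lev (Q : GoodQ T La f N m δ lam) (hc : DeepM N m c) (k : KK c) {s : ℝ}
    (hs : s ∈ Icc (1 / 4 : ℝ) (3 / 4)) {θ : ℝ} (hθ : θ ∈ Icc (0 : ℝ) 1)
    (h : lam (f (ep δ k.1 θ)) k.1.2 = k.1.1 k.1.2 + lev k s) :
    ‖bL lam c (f (ep δ k.1 θ))‖ = 5 + s := by
  obtain ⟨h1, h2⟩ := Q.norm_of_lev hc k hs hθ h
  refine le_antisymm ((pi_norm_le_iff_of_nonneg (by linarith [hs.1])).2 fun j => ?_) ?_
  · by_cases hj : j = k.1.2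
    · rw [hj]; exact h1.le
    · exact (h2 j hj).trans (by linarith [hs.1])
  · rw [← h1]
    exact norm_le_pi_norm (bL lam c (f (ep δ k.1 θ))) k.1.2

/-- the crossing point exists -/
theorem GoodQ.exists_mark [FiniteDimensional ℝ E] (Q : GoodQ T La f N m δ lam)
    (hc : DeepM N m c) (hf : ContinuousOn f Om) (k : KK c) {s : ℝ}
    (hs : s ∈ Icc (1 / 4 : ℝ) (3 / 4)) :
    ∃ θ ∈ Ioo (0 : ℝ) 1, lam (f (ep δ k.1 θ)) k.1.2 = k.1.1 k.1.2 + lev k s := by
  have hl := lev_mem (a := 1 / 4) k (by norm_num; exact hs)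
  have hcont : ContinuousOn (fun θ : ℝ => lam (f (ep δ k.1 θ)) k.1.2) (Icc 0 1) :=
    (continuous_apply k.1.2).comp_continuousOn
      ((continuous_aff lam).comp_continuousOn (Q.cont_ep hc hf k))
  have h0 := abs_le.1 (Q.near_ep hc k (θ := 0) (by simp) k.1.2)
  have h1 := abs_le.1 (Q.near_ep hc k (θ := 1) (by simp) k.1.2)
  rw [pt_same] at h0 h1
  obtain ⟨θ, hθ, e⟩ := intermediate_value_Icc (zero_le_one' ℝ) hcont
    (show (k.1.1 k.1.2 : ℝ) + lev k s ∈ Icc _ _ from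
      ⟨by linarith [h0.2, hl.1], by linarith [h1.1, hl.2]⟩)
  refine ⟨θ, ⟨lt_of_le_of_ne hθ.1 ?_, lt_of_le_of_ne hθ.2 ?_⟩, e⟩
  · rintro rfl
    simp only at e
    linarith [h0.2, hl.1]
  · rintro rfl
    simp only at e
    linarith [h1.1, hl.2]

/-- the level is crossed once by every edge -/
def Gd (f : E → E) (δ lam : E ≃ᵃ[ℝ] (Fin 3 → ℝ)) (c : Fin 3 → ℤ) (s : ℝ) : Prop :=
  s ∈ Ioo (1 / 4 : ℝ) (3 / 4) ∧ ∀ k : KK c, ∀ θ ∈ Icc (0 : ℝ) 1, ∀ θ' ∈ Icc (0 : ℝ) 1,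
    lam (f (ep δ k.1 θ)) k.1.2 = k.1.1 k.1.2 + lev k s →
    lam (f (ep δ k.1 θ')) k.1.2 = k.1.1 k.1.2 + lev k s → θ = θ'

/-- there are many good levels -/
theorem GoodQ.infinite_gd (Q : GoodQ T La f N m δ lam) (hc : DeepM N m c) :
    {s | Gd f δ lam c s}.Infinite := by
  classical
  have hcd := hc.deep Q.m0
  intro hfin
  let bad : KK c → Set ℝ := fun k =>
    {s : ℝ | s ∈ Ioo (1 / 4 : ℝ) (3 / 4) ∧ ∃ θ ∈ Icc (0 : ℝ) 1, ∃ θ' ∈ Icc (0 : ℝ) 1, θ ≠ θ' ∧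
      lam (f (ep δ k.1 θ)) k.1.2 = k.1.1 k.1.2 + s ∧
      lam (f (ep δ k.1 θ')) k.1.2 = k.1.1 k.1.2 + s}
  have hbad : ∀ k, volume (bad k) ≤ ENNReal.ofReal (1 / 20000) := fun k =>
    Q.once k.1 (pt_InR hcd k (by simp)) (pt_InR hcd k (by simp))
  -- the bad levels of the edge k, in the parameter s
  let bad' : KK c → Set ℝ := fun k => (fun s => lev k s) ⁻¹' bad k
  have hbad' : ∀ k, volume (bad' k) ≤ ENNReal.ofReal (1 / 20000) := by
    intro k
    by_cases h : k.1.1 k.1.2 = c k.1.2 + 5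
    · have : bad' k = bad k := by
        ext s
        show lev k s ∈ bad k ↔ s ∈ bad k
        unfold lev
        rw [if_pos h]
      rw [this]
      exact hbad k
    · have : bad' k = (fun s : ℝ => 1 - s) ⁻¹' bad k := by
        ext s
        show lev k s ∈ bad k ↔ (1 - s) ∈ bad k
        unfold lev
        rw [if_neg h]
      rw [this]
      have h2 : MeasurePreserving (MeasurableEquiv.subLeft (1 : ℝ)) volume volume :=
        Measure.measurePreserving_sub_left volume (1 : ℝ)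
      refine (le_of_eq ?_).trans (hbad k)
      exact h2.measure_preimage_equiv _
  have hcov : Ioo (1 / 4 : ℝ) (3 / 4) ⊆ {s | Gd f δ lam c s} ∪ ⋃ k, bad' k := by
    intro s hs
    by_cases hg : Gd f δ lam c s
    · exact Or.inl hg
    · right
      unfold Gd at hg
      push Not at hg
      obtain ⟨k, θ, hθ, θ', hθ', e, e', hne⟩ := hg hs
      refine mem_iUnion.2 ⟨k, ?_, θ, hθ, θ', hθ', hne, e, e'⟩
      show lev k s ∈ Ioo (1 / 4 : ℝ) (3 / 4)
      unfold lev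
      split_ifs
      · exact hs
      · exact ⟨by linarith [hs.2], by linarith [hs.1]⟩
  have h1 : volume (Ioo (1 / 4 : ℝ) (3 / 4)) ≤
      0 + ∑' _k : KK c, ENNReal.ofReal (1 / 20000) := by
    refine (measure_mono hcov).trans ((measure_union_le _ _).trans ?_)
    rw [hfin.measure_zero]
    exact add_le_add le_rfl ((measure_iUnion_le _).trans (ENNReal.tsum_le_tsum hbad'))
  cases nonempty_fintype (KK c)
  rw [zero_add, tsum_fintype, Finset.sum_const, Finset.card_univ, Real.volume_Ioo,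
    nsmul_eq_mul, ← ENNReal.ofReal_natCast, ← ENNReal.ofReal_mul (by positivity)] at h1
  have h2 := card_kk c
  rw [Nat.card_eq_fintype_card] at h2
  have h3 := (ENNReal.ofReal_le_ofReal_iff (by positivity)).1 h1
  have h4 : (Fintype.card (KK c) : ℝ) ≤ 12 ^ 3 * 3 := by exact_mod_cast h2
  have h5 : (Fintype.card (KK c) : ℝ) * (1 / 20000) ≤ (12 ^ 3 * 3) * (1 / 20000) :=
    mul_le_mul_of_nonneg_right h4 (by norm_num)
  have h6 : ((12 : ℝ) ^ 3 * 3) * (1 / 20000) < 3 / 4 - 1 / 4 := by norm_num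
  linarith

end Crest.Agent.R096.Sk2_855
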