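import Crest.Agent.R096.Sk2e_855

/-!
# Row 96 (S0127), p < 2: lemma 2SK (helper855), part f: the box of a good level
-/

set_option autoImplicit false
set_option linter.unusedSectionVars false

open Set Metric

namespace Crest.Agent.R096.Sk2_855

open Crest.Agent.R096.Msh_715 (Tiling)

variable {E : Type*} [NormedAddCommGroup E] [NormedSpace ℝ E] [FiniteDimensional ℝ E]
  {Om La : Set E} {ι : Type*}
  {T : Tiling Om ι} {f : E → E} {N m : ℤ} {δ lam : E ≃ᵃ[ℝ] (Fin 3 → ℝ)}
  {c : Fin 3 → ℤ}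

/-- level and crossing points of a box -/
structure Mks (f : E → E) (δ lam : E ≃ᵃ[ℝ] (Fin 3 → ℝ)) (c : Fin 3 → ℤ) where
  s : ℝ
  gd : Gd f δ lam c s
  θ : KK c → ℝ
  θmem : ∀ k, θ k ∈ Ioo (0 : ℝ) 1
  θlev : ∀ k, lam (f (ep δ k.1 (θ k))) k.1.2 = k.1.1 k.1.2 + lev k s

namespace Mks

variable (D : Mks f δ lam c)

theorem hs : D.s ∈ Icc (1 / 4 : ℝ) (3 / 4) := Ioo_subset_Icc_self D.gd.1

/-- the crossing point -/
noncomputable def x (k : KK c) : E := ep δ k.1 (D.θ k)

/-- the mark -/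
noncomputable def y (k : KK c) : E := f (D.x k)

/-- the mark set -/
def M (ω : ℝ) (k : KK c) : Set E := {z | ‖lam z - lam (D.y k)‖ ≤ ω}

end Mks

theorem GoodQ.exists_mks (Q : GoodQ T La f N m δ lam) (hc : DeepM N m c)
    (hf : ContinuousOn f Om) {s : ℝ} (hs : Gd f δ lam c s) :
    ∃ D : Mks f δ lam c, D.s = s := by
  choose θ h1 h2 using fun k : KK c => Q.exists_mark hc hf k (Ioo_subset_Icc_self hs.1)
  exact ⟨⟨s, hs, θ, h1, h2⟩, rfl⟩

theorem abs_norm_bL_sub (y y' : E) : |‖bL lam c y‖ - ‖bL lam c y'‖| ≤ ‖lam y - lam y'‖ := by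
  refine (abs_norm_sub_norm_le _ _).trans (le_of_eq ?_)
  congr 1
  funext i
  rw [Pi.sub_apply, Pi.sub_apply, bL_apply, bL_apply]
  ring

/-- (C1) near the level only near the mark -/
theorem GoodQ.c1 (Q : GoodQ T La f N m δ lam) (hc : DeepM N m c) (hf : ContinuousOn f Om)
    (D : Mks f δ lam c) {ω : ℝ} (hω : 0 < ω) :
    ∃ w > 0, ∀ k : KK c, ∀ θ ∈ Icc (0 : ℝ) 1,
      |lam (f (ep δ k.1 θ)) k.1.2 - (k.1.1 k.1.2 + lev k D.s)| ≤ w →
      ‖lam (f (ep δ k.1 θ)) - lam (D.y k)‖ ≤ ω := by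
  have key : ∀ k : KK c, ∃ w > 0, ∀ θ ∈ Icc (0 : ℝ) 1,
      |lam (f (ep δ k.1 θ)) k.1.2 - (k.1.1 k.1.2 + lev k D.s)| ≤ w →
      ‖lam (f (ep δ k.1 θ)) - lam (D.y k)‖ ≤ ω := by
    intro k
    have hc1 := Q.cont_ep hc hf k
    have hc2 : ContinuousOn (fun θ : ℝ => lam (f (ep δ k.1 θ))) (Icc 0 1) :=
      (continuous_aff lam).comp_continuousOn hc1
    have hc3 : ContinuousOn (fun θ : ℝ => ‖lam (f (ep δ k.1 θ)) - lam (D.y k)‖) (Icc 0 1) :=
      (hc2.sub continuousOn_const).norm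
    have hc4 : ContinuousOn (fun θ : ℝ =>
        |lam (f (ep δ k.1 θ)) k.1.2 - (k.1.1 k.1.2 + lev k D.s)|) (Icc 0 1) :=
      (((continuous_apply k.1.2).comp_continuousOn hc2).sub continuousOn_const).abs
    set S : Set ℝ := {θ | θ ∈ Icc (0 : ℝ) 1 ∧ ω ≤ ‖lam (f (ep δ k.1 θ)) - lam (D.y k)‖} with hS
    have hSc : IsCompact S := by
      have : S = Icc (0 : ℝ) 1 ∩
          (fun θ : ℝ => ‖lam (f (ep δ k.1 θ)) - lam (D.y k)‖) ⁻¹' Ici ω := rfl
      rw [this]
      exact isCompact_Icc.of_isClosed_subset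
        (hc3.preimage_isClosed_of_isClosed isClosed_Icc isClosed_Ici) inter_subset_left
    rcases S.eq_empty_or_nonempty with h0 | h0
    · refine ⟨1, one_pos, fun θ hθ _ => ?_⟩
      by_contra hn
      have : θ ∈ S := ⟨hθ, (not_le.1 hn).le⟩
      rw [h0] at this
      exact this
    · obtain ⟨θ0, hθ0, hmin⟩ := hSc.exists_isMinOn h0 (hc4.mono fun θ h => h.1)
      set v := |lam (f (ep δ k.1 θ0)) k.1.2 - (k.1.1 k.1.2 + lev k D.s)| with hv
      have hv0 : 0 < v := by
        rcases (abs_nonneg (lam (f (ep δ k.1 θ0)) k.1.2 - (k.1.1 k.1.2 + lev k D.s))).lt_or_eq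
          with h | h
        · exact h
        · exfalso
          have h1 : lam (f (ep δ k.1 θ0)) k.1.2 = k.1.1 k.1.2 + lev k D.s := by
            have := abs_eq_zero.1 h.symm
            linarith
          have h2 := D.gd.2 k θ0 hθ0.1 (D.θ k) (Ioo_subset_Icc_self (D.θmem k)) h1 (D.θlev k)
          have h3 := hθ0.2
          rw [h2] at h3
          have h4 : ‖lam (f (ep δ k.1 (D.θ k))) - lam (D.y k)‖ = 0 := by
            rw [norm_eq_zero, sub_eq_zero]; rfl
          rw [h4] at h3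
          linarith
      refine ⟨v / 2, by positivity, fun θ hθ hle => ?_⟩
      by_contra hn
      have h1 : v ≤ |lam (f (ep δ k.1 θ)) k.1.2 - (k.1.1 k.1.2 + lev k D.s)| :=
        hmin (show θ ∈ S from ⟨hθ, (not_le.1 hn).le⟩)
      linarith
  choose w hw hw' using key
  cases nonempty_fintype (KK c)
  rcases isEmpty_or_nonempty (KK c) with h0 | h0
  · exact ⟨1, one_pos, fun k => (h0.false k).elim⟩
  · refine ⟨Finset.univ.inf' Finset.univ_nonempty w, ?_, fun k θ hθ hle => ?_⟩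
    · rw [gt_iff_lt, Finset.lt_inf'_iff]
      exact fun k _ => hw k
    · exact hw' k θ hθ (hle.trans (Finset.inf'_le _ (Finset.mem_univ k)))

theorem isCompact_box (l : E ≃ᵃ[ℝ] (Fin 3 → ℝ)) (z : Fin 3 → ℝ) (r : ℝ) :
    IsCompact {y : E | ‖l y - z‖ ≤ r} := by
  have h1 : {y : E | ‖l y - z‖ ≤ r} = l.symm '' closedBall z r := by
    ext y
    simp only [Set.mem_ofPred_eq, mem_image, mem_closedBall, dist_eq_norm]
    constructor
    · intro h
      exact ⟨l y, h, l.symm_apply_apply y⟩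
    · rintro ⟨w, hw, rfl⟩
      rw [l.apply_symm_apply]
      exact hw
  rw [h1]
  exact (isCompact_closedBall z r).image l.symm.toAffineMap.continuous_of_finiteDimensional

/-- (C2) the faces without crossing edges stay away from the marks -/
theorem GoodQ.c2 (Q : GoodQ T La f N m δ lam) (hc : DeepM N m c)
    {fi : E → E} (hf : ContinuousOn f Om) (hfi : ContinuousOn fi La) (mti : MapsTo fi La Om)
    (li : ∀ x ∈ Om, fi (f x) = x) (D : Mks f δ lam c) :
    ∃ ω > 0, ∀ k : KK c, ∀ x ∈ Om, (∀ k' : KK c, ep δ k'.1 (1 / 2) ∉ T.cc x) →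
      ∀ z ∈ T.cc x, ω < ‖lam (f z) - lam (D.y k)‖ := by
  have hcd := hc.deep Q.m0
  have key : ∀ k : KK c, ∃ ω > 0, ∀ x ∈ Om, (∀ k' : KK c, ep δ k'.1 (1 / 2) ∉ T.cc x) →
      ∀ z ∈ T.cc x, ω < ‖lam (f z) - lam (D.y k)‖ := by
    intro k
    have hxk : D.x k ∈ Om := ep_Om Q.grid hcd k (Ioo_subset_Icc_self (D.θmem k))
    -- a compact neighbourhood of the mark
    set C : Set E := {y | ‖lam y - lam (D.y k)‖ ≤ 1 / 8} with hC
    have hCc : IsCompact C := isCompact_box lam _ _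
    have hCL : C ⊆ La := by
      intro y hy
      refine Q.sub y fun i => ?_
      have h1 := (norm_le_pi_norm (lam y - lam (D.y k)) i).trans hy
      rw [Pi.sub_apply, Real.norm_eq_abs, abs_le] at h1
      have h2 : ‖bL lam c (D.y k)‖ = 5 + D.s :=
        Q.norm_eq_of_lev hc k D.hs (Ioo_subset_Icc_self (D.θmem k)) (D.θlev k)
      have h3 := norm_le_pi_norm (bL lam c (D.y k)) i
      rw [h2, bL_apply, Real.norm_eq_abs, abs_le] at h3
      have h4 : (m : ℝ) + 8 ≤ c i := by exact_mod_cast (hc i).1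
      have h5 : (c i : ℝ) ≤ N - m - 8 := by exact_mod_cast (hc i).2
      have h6 := D.hs.2
      constructor <;> linarith [h1.1, h1.2, h3.1, h3.2]
    have hK : IsCompact (fi '' C) := hCc.image_of_continuousOn (hfi.mono hCL)
    have hKO : fi '' C ⊆ Om := by
      rintro _ ⟨y, hy, rfl⟩
      exact mti (hCL hy)
    have hfin := T.finite_cells hK hKO
    -- each such cell has a positive distance
    have hcell : ∀ d ∈ {d : Set E | (∃ x ∈ Om, d = T.cc x) ∧ (d ∩ fi '' C).Nonempty},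
        ∃ ω > 0, D.x k ∉ d → ∀ z ∈ d, ω < ‖lam (f z) - lam (D.y k)‖ := by
      rintro d ⟨⟨x, hx, rfl⟩, -⟩
      by_cases hxd : D.x k ∈ T.cc x
      · exact ⟨1, one_pos, fun h => absurd hxd h⟩
      · have hcont : ContinuousOn (fun z => ‖lam (f z) - lam (D.y k)‖) (T.cc x) :=
          (((continuous_aff lam).comp_continuousOn (hf.mono (T.cc_sub_Om hx))).sub
            continuousOn_const).norm
        obtain ⟨z0, hz0, hmin⟩ := (T.isCompact_cc hx).exists_isMinOn ⟨x, T.self_mem_cc x⟩ hcont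
        have h0 : 0 < ‖lam (f z0) - lam (D.y k)‖ := by
          rw [norm_pos_iff, sub_ne_zero]
          intro e
          have e1 := lam.injective e
          have e2 := congrArg fi e1
          rw [li z0 (T.cc_sub_Om hx hz0), Mks.y, li _ hxk] at e2
          rw [e2] at hz0
          exact hxd hz0
        refine ⟨‖lam (f z0) - lam (D.y k)‖ / 2, by positivity, fun _ z hz => ?_⟩
        have h1 : ‖lam (f z0) - lam (D.y k)‖ ≤ ‖lam (f z) - lam (D.y k)‖ := hmin hz
        linarith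
    choose! w hw hw' using hcell
    obtain ⟨ω, hω0, hω1, hωw⟩ : ∃ ω > 0, ω ≤ 1 / 8 ∧
        ∀ d ∈ {d : Set E | (∃ x ∈ Om, d = T.cc x) ∧ (d ∩ fi '' C).Nonempty}, ω ≤ w d := by
      have := hfin.toFinset
      by_cases hne : hfin.toFinset.Nonempty
      · refine ⟨min (1 / 8) (hfin.toFinset.inf' hne w), ?_, min_le_left _ _, fun d hd => ?_⟩
        · refine lt_min (by norm_num) ?_
          rw [Finset.lt_inf'_iff]
          exact fun d hd => hw d (hfin.mem_toFinset.1 hd)
        · exact (min_le_right _ _).trans (Finset.inf'_le _ (hfin.mem_toFinset.2 hd))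
      · refine ⟨1 / 8, by norm_num, le_rfl, fun d hd => ?_⟩
        exact absurd ⟨d, hfin.mem_toFinset.2 hd⟩ hne
    refine ⟨ω, hω0, fun x hx hn z hz => ?_⟩
    by_contra hle
    rw [not_lt] at hle
    have hzO : z ∈ Om := T.cc_sub_Om hx hz
    have hfz : f z ∈ C := hle.trans hω1
    have hmem : T.cc x ∈ {d : Set E | (∃ x ∈ Om, d = T.cc x) ∧ (d ∩ fi '' C).Nonempty} :=
      ⟨⟨x, hx, rfl⟩, z, hz, f z, hfz, li z hzO⟩
    have hxk' : D.x k ∉ T.cc x := by
      intro h
      have h1 := T.cc_sub_of_mem h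
      have h2 : ep δ k.1 (1 / 2) ∈ T.cc (D.x k) :=
        ep_cc Q.grid hcd k (D.θmem k) (by constructor <;> norm_num)
      exact hn k (h1 h2)
    have := hw' _ hmem hxk' z hz
    linarith [hωw _ hmem]
  choose ω hω hω' using key
  cases nonempty_fintype (KK c)
  rcases isEmpty_or_nonempty (KK c) with h0 | h0
  · exact ⟨1, one_pos, fun k => (h0.false k).elim⟩
  · refine ⟨Finset.univ.inf' Finset.univ_nonempty ω, ?_, fun k x hx hn z hz => ?_⟩
    · rw [gt_iff_lt, Finset.lt_inf'_iff]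
      exact fun k _ => hω k
    · exact lt_of_le_of_lt (Finset.inf'_le _ (Finset.mem_univ k)) (hω' k x hx hn z hz)

/-- different marks are different -/
theorem GoodQ.c3 (Q : GoodQ T La f N m δ lam) (hc : DeepM N m c) (hinj : InjOn f Om)
    (D : Mks f δ lam c) :
    ∃ ω > 0, ∀ k k' : KK c, k ≠ k' → 2 * ω < ‖lam (D.y k) - lam (D.y k')‖ := by
  have hcd := hc.deep Q.m0
  have key : ∀ p : KK c × KK c, ∃ ω > 0, p.1 ≠ p.2 →
      2 * ω < ‖lam (D.y p.1) - lam (D.y p.2)‖ := by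
    rintro ⟨k, k'⟩
    by_cases h : k = k'
    · exact ⟨1, one_pos, fun h' => absurd h h'⟩
    · have h0 : 0 < ‖lam (D.y k) - lam (D.y k')‖ := by
        rw [norm_pos_iff, sub_ne_zero]
        intro e
        have e1 := lam.injective e
        have e2 := hinj (ep_Om Q.grid hcd k (Ioo_subset_Icc_self (D.θmem k)))
          (ep_Om Q.grid hcd k' (Ioo_subset_Icc_self (D.θmem k'))) e1
        refine h (ep_inj Q.grid hcd k' k (D.θmem k') (D.θmem k) ?_)
        rw [e2]
        exact T.self_mem_oc _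
      exact ⟨‖lam (D.y k) - lam (D.y k')‖ / 4, by positivity, fun _ => by
        show 2 * (‖lam (D.y k) - lam (D.y k')‖ / 4) < _
        linarith⟩
  choose ω hω hω' using key
  cases nonempty_fintype (KK c)
  rcases isEmpty_or_nonempty (KK c × KK c) with h0 | h0
  · exact ⟨1, one_pos, fun k k' => (h0.false (k, k')).elim⟩
  · refine ⟨Finset.univ.inf' Finset.univ_nonempty ω, ?_, fun k k' hne => ?_⟩
    · rw [gt_iff_lt, Finset.lt_inf'_iff]
      exact fun k _ => hω k
    · have h1 := hω' (k, k') hne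
      have h2 : Finset.univ.inf' Finset.univ_nonempty ω ≤ ω (k, k') :=
        Finset.inf'_le _ (Finset.mem_univ _)
      simp only at h1
      linarith

end Crest.Agent.R096.Sk2_855
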