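import Crest.Agent.R096.Sk2f_855

/-!
# Row 96 (S0127), p < 2: lemma 2SK (helper855), part g: the box is a `Box` and it is `Ok`
-/

set_option autoImplicit false
set_option linter.unusedSectionVars false

open Set Metric

namespace Crest.Agent.R096.Sk2_855

open Crest.Agent.R096.Msh_715 (Tiling)

variable {E : Type*} [NormedAddCommGroup E] [NormedSpace ℝ E] [FiniteDimensional ℝ E]
  {Om La : Set E} {ι : Type*}
  {T : Tiling Om ι} {f : E → E} {N m : ℤ} {δ lam : E ≃ᵃ[ℝ] (Fin 3 → ℝ)}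
  {c : Fin 3 → ℤ}

/-- values on the mark set -/
theorem GoodQ.on_M (Q : GoodQ T La f N m δ lam) (hc : DeepM N m c) (D : Mks f δ lam c)
    {ω : ℝ} (hω : ω ≤ 1 / 32) (k : KK c) :
    ∃ σ : ℝ, (σ = 1 ∨ σ = -1) ∧ bL lam c (D.y k) k.1.2 = σ * (5 + D.s) ∧
      ∀ z ∈ D.M ω k, ‖bL lam c z‖ = σ * bL lam c z k.1.2 := by
  obtain ⟨h1, h2⟩ := Q.norm_of_lev hc k D.hs (Ioo_subset_Icc_self (D.θmem k)) (D.θlev k)
  change |bL lam c (D.y k) k.1.2| = 5 + D.s at h1
  change ∀ j, j ≠ k.1.2 → |bL lam c (D.y k) j| ≤ 5 + 1 / 8 at h2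
  have hs := D.hs
  have hσ : ∃ σ : ℝ, (σ = 1 ∨ σ = -1) ∧ bL lam c (D.y k) k.1.2 = σ * (5 + D.s) := by
    rcases abs_eq (by linarith [hs.1] : (0 : ℝ) ≤ 5 + D.s) |>.1 h1 with h | h
    · exact ⟨1, Or.inl rfl, by rw [h]; ring⟩
    · exact ⟨-1, Or.inr rfl, by rw [h]; ring⟩
  obtain ⟨σ, hσ, hy⟩ := hσ
  refine ⟨σ, hσ, hy, fun z hz => ?_⟩
  have hd : ∀ j, |bL lam c z j - bL lam c (D.y k) j| ≤ ω := by
    intro j
    have := (norm_le_pi_norm (lam z - lam (D.y k)) j).trans hz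
    rw [bL_apply, bL_apply]
    rw [Pi.sub_apply, Real.norm_eq_abs] at this
    have e : (lam z j - c j) - (lam (D.y k) j - c j) = lam z j - lam (D.y k) j := by ring
    rw [e]
    exact this
  have hmain : 5 + 3 / 16 ≤ σ * bL lam c z k.1.2 := by
    have h3 := abs_le.1 (hd k.1.2)
    rw [hy] at h3
    rcases hσ with rfl | rfl
    · linarith [h3.1, hs.1]
    · linarith [h3.2, hs.1]
  have habs : |bL lam c z k.1.2| = σ * bL lam c z k.1.2 := by
    rcases hσ with rfl | rfl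
    · rw [one_mul] at hmain ⊢
      exact abs_of_nonneg (by linarith)
    · rw [abs_of_nonpos (by linarith)]; ring
  refine le_antisymm ((pi_norm_le_iff_of_nonneg (by linarith)).2 fun j => ?_) ?_
  · by_cases hj : j = k.1.2
    · rw [hj, Real.norm_eq_abs, habs]
    · have h3 := abs_le.1 (hd j)
      have h4 := abs_le.1 (h2 j hj)
      rw [Real.norm_eq_abs, abs_le]
      constructor <;> linarith [h3.1, h3.2, h4.1, h4.2]
  · rw [← habs]
    exact norm_le_pi_norm (bL lam c z) k.1.2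

/-- parameters of the box -/
structure Par (T : Tiling Om ι) (D : Mks f δ lam c) where
  ω : ℝ
  w : ℝ
  η : ℝ
  w0 : 0 < w
  η0 : 0 ≤ η
  wω : w ≤ ω
  ω1 : ω ≤ 1 / 32
  ηω : 2 * η ≤ ω
  p1 : ∀ k : KK c, ∀ θ ∈ Icc (0 : ℝ) 1,
      |lam (f (ep δ k.1 θ)) k.1.2 - (k.1.1 k.1.2 + lev k D.s)| ≤ w + η →
      ‖lam (f (ep δ k.1 θ)) - lam (D.y k)‖ ≤ ω / 2
  p2 : ∀ k : KK c, ∀ x ∈ Om, (∀ k' : KK c, ep δ k'.1 (1 / 2) ∉ T.cc x) →
      ∀ z ∈ T.cc x, 2 * ω < ‖lam (f z) - lam (D.y k)‖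
  p3 : ∀ k k' : KK c, k ≠ k' → 2 * ω < ‖lam (D.y k) - lam (D.y k')‖

/-- the box -/
noncomputable def GoodQ.box (Q : GoodQ T La f N m δ lam) (hc : DeepM N m c) (D : Mks f δ lam c)
    (P : Par T D) : Box T La where
  L := bL lam c
  a := 5 + D.s - P.w
  b := 5 + D.s + P.w
  a_pos := by linarith [D.hs.1, P.wω, P.ω1]
  ab := by linarith [P.w0]
  sub := by
    intro y hy
    refine Q.sub y fun i => ?_
    have h3 := (norm_le_pi_norm (bL lam c y) i).trans hy
    rw [bL_apply, Real.norm_eq_abs, abs_le] at h3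
    have h4 : (m : ℝ) + 8 ≤ c i := by exact_mod_cast (hc i).1
    have h5 : (c i : ℝ) ≤ N - m - 8 := by exact_mod_cast (hc i).2
    have h6 := D.hs.2
    have h7 := P.wω
    have h8 := P.ω1
    constructor <;> linarith [h3.1, h3.2]
  K := KK c
  fin := inferInstance
  e := fun k => ep δ k.1 (1 / 2)
  eOm := fun k => ep_Om Q.grid (hc.deep Q.m0) k (by constructor <;> norm_num)
  edim := fun k => ep_dim Q.grid (hc.deep Q.m0) k (by constructor <;> norm_num)
  einj := fun k k' h => ep_inj Q.grid (hc.deep Q.m0) k k' (by constructor <;> norm_num)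
    (by constructor <;> norm_num) h
  M := D.M P.ω
  Mc := fun k => isCompact_box lam _ _
  Mdisj := by
    intro k k' hne
    rw [Set.disjoint_left]
    intro z hz hz'
    have h1 := P.p3 k k' hne
    have h2 : ‖lam (D.y k) - lam (D.y k')‖ ≤ P.ω + P.ω := by
      have e : lam (D.y k) - lam (D.y k') = (lam z - lam (D.y k')) - (lam z - lam (D.y k)) := by
        abel
      rw [e]
      exact (norm_sub_le _ _).trans (add_le_add hz' hz)
    linarith
  Mlev := by
    intro k t ht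
    obtain ⟨σ, hσ, hy, hM⟩ := Q.on_M hc D P.ω1 k
    have hset : D.M P.ω k ∩ {y | ‖bL lam c y‖ = t} =
        (lam ⁻¹' (closedBall (lam (D.y k)) P.ω ∩ {v : Fin 3 → ℝ | σ * (v k.1.2 - c k.1.2) = t})) := by
      ext z
      simp only [mem_inter_iff, Set.mem_ofPred_eq, mem_preimage, mem_closedBall, dist_eq_norm,
        Mks.M]
      constructor
      · rintro ⟨h1, h2⟩
        rw [hM z h1, bL_apply] at h2
        exact ⟨h1, h2⟩
      · rintro ⟨h1, h2⟩
        refine ⟨h1, ?_⟩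
        rw [hM z h1, bL_apply]
        exact h2
    rw [hset]
    constructor
    · refine Convex.affine_preimage (f := lam.toAffineMap) (Convex.inter (convex_closedBall _ _) ?_)
      intro u hu v hv a b ha hb hab
      simp only [Set.mem_ofPred_eq, Pi.add_apply, Pi.smul_apply, smul_eq_mul] at hu hv ⊢
      calc σ * (a * u k.1.2 + b * v k.1.2 - c k.1.2)
          = a * (σ * (u k.1.2 - c k.1.2)) + b * (σ * (v k.1.2 - c k.1.2)) +
            (a + b - 1) * (σ * c k.1.2) := by ring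
        _ = t := by rw [hu, hv, hab]; linear_combination t * hab
    · -- move the coordinate to the level
      have hσ2 : σ * σ = 1 := by rcases hσ with rfl | rfl <;> norm_num
      refine ⟨lam.symm (Function.update (lam (D.y k)) k.1.2 (c k.1.2 + σ * t)), ?_, ?_⟩
      · rw [AffineEquiv.apply_symm_apply, mem_closedBall, dist_eq_norm]
        refine (pi_norm_le_iff_of_nonneg (P.w0.le.trans P.wω)).2 fun j => ?_
        rw [Pi.sub_apply, Function.update_apply]
        by_cases hj : j = k.1.2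
        · rw [if_pos hj, hj]
          rw [bL_apply] at hy
          have h1 : c k.1.2 + σ * t - lam (D.y k) k.1.2 = σ * (t - (5 + D.s)) := by linarith
          rw [h1, Real.norm_eq_abs, abs_mul]
          have h2 : |σ| = 1 := by rcases hσ with rfl | rfl <;> norm_num
          rw [h2, one_mul, abs_le]
          constructor <;> linarith [ht.1, ht.2, P.wω]
        · rw [if_neg hj, sub_self, norm_zero]
          exact P.w0.le.trans P.wω
      · rw [AffineEquiv.apply_symm_apply, Set.mem_ofPred_eq, Function.update_self]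
        linear_combination t * hσ2
  two := fun x hx hd h => two_cross Q.grid (hc.deep Q.m0) hx hd h
  conn := fun k k' => conn_cross Q.grid (hc.deep Q.m0) k k'

/-- the box is `Ok` for every map near `f` -/
theorem GoodQ.ok (Q : GoodQ T La f N m δ lam) (hc : DeepM N m c) (D : Mks f δ lam c)
    (P : Par T D) {h : E → E} (hη : ∀ x ∈ Om, ‖lam (h x) - lam (f x)‖ ≤ P.η) :
    (Q.box hc D P).Ok h := by
  have hcd := hc.deep Q.m0
  have hs := D.hs
  have hw := P.wω
  have hω := P.ω1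
  have hηω := P.ηω
  have hη0 := P.η0
  have hcmp : ∀ x ∈ Om, |‖bL lam c (h x)‖ - ‖bL lam c (f x)‖| ≤ P.η := fun x hx =>
    (abs_norm_bL_sub _ _).trans (hη x hx)
  refine ⟨fun x hx hsh => ?_, fun k => ?_, fun x hx _ hn k => ?_⟩
  · -- edges
    have h1 : 5 + D.s - P.w ≤ ‖bL lam c (h x)‖ := hsh.1
    have h2 : ‖bL lam c (h x)‖ ≤ 5 + D.s + P.w := hsh.2
    have h3 := abs_le.1 (hcmp x hx.1)
    have h4 : |‖bL lam c (f x)‖ - (5 + D.s)| ≤ P.w + P.η := by
      rw [abs_le]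
      constructor <;> linarith [h3.1, h3.2]
    obtain ⟨k, θ, hθ, e, hval⟩ := Q.localize hc hs hx (h4.trans (by linarith))
    rw [← hval, e] at h4
    have h5 := P.p1 k θ (Ioo_subset_Icc_self hθ) h4
    refine ⟨k, ?_, ?_⟩
    · exact (ep_oc Q.grid hcd k (by constructor <;> norm_num)).2 ⟨θ, hθ, e⟩
    · show ‖lam (h x) - lam (D.y k)‖ ≤ P.ω
      have e1 : lam (h x) - lam (D.y k) =
          (lam (h x) - lam (f x)) + (lam (f x) - lam (D.y k)) := by abel
      rw [e1]
      refine (norm_add_le _ _).trans ?_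
      rw [← e] at h5
      linarith [hη x hx.1]
  · -- ends
    have hI0 : (0 : ℝ) ∈ Icc (0 : ℝ) 1 := by simp
    have hI1 : (1 : ℝ) ∈ Icc (0 : ℝ) 1 := by simp
    have hhalf : (1 / 2 : ℝ) ∈ Ioo (0 : ℝ) 1 := by constructor <;> norm_num
    obtain ⟨k1, k2⟩ := kk_spec k
    -- inner vertex
    have inner : ∀ θ : ℝ, θ = 0 ∨ θ = 1 → (|pt k.1 θ k.1.2 - c k.1.2| ≤ 5) →
        ‖bL lam c (h (ep δ k.1 θ))‖ < 5 + D.s - P.w := by
      intro θ hθ h1
      have hθI : θ ∈ Icc (0 : ℝ) 1 := by rcases hθ with rfl | rfl <;> simp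
      have h3 := abs_le.1 (hcmp _ (ep_Om Q.grid hcd k hθI))
      have h2 : ‖bL lam c (f (ep δ k.1 θ))‖ ≤ 5 + 1 / 8 := by
        refine (pi_norm_le_iff_of_nonneg (by norm_num)).2 fun j => ?_
        have h4 := abs_le.1 (Q.near_ep hc k hθI j)
        rw [bL_apply, Real.norm_eq_abs, abs_le]
        by_cases hj : j = k.1.2
        · subst hj
          rw [abs_le] at h1
          constructor <;> linarith [h4.1, h4.2, h1.1, h1.2]
        · rw [pt_ne θ hj] at h4
          have h5 : (c j : ℝ) - 5 ≤ k.1.1 j := by exact_mod_cast (k2 j hj).1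
          have h6 : (k.1.1 j : ℝ) ≤ c j + 5 := by exact_mod_cast (k2 j hj).2
          constructor <;> linarith [h4.1, h4.2]
      linarith [h3.2, hs.1]
    have outer : ∀ θ : ℝ, θ = 0 ∨ θ = 1 → (|pt k.1 θ k.1.2 - c k.1.2| = 6) →
        5 + D.s + P.w < ‖bL lam c (h (ep δ k.1 θ))‖ := by
      intro θ hθ h1
      have hθI : θ ∈ Icc (0 : ℝ) 1 := by rcases hθ with rfl | rfl <;> simp
      have h3 := abs_le.1 (hcmp _ (ep_Om Q.grid hcd k hθI))
      have h4 := Q.near_ep hc k hθI k.1.2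
      have h5 := norm_le_pi_norm (bL lam c (f (ep δ k.1 θ))) k.1.2
      rw [bL_apply, Real.norm_eq_abs] at h5
      have h6 : 6 - 1 / 8 ≤ |lam (f (ep δ k.1 θ)) k.1.2 - c k.1.2| := by
        have h7 : |pt k.1 θ k.1.2 - c k.1.2| ≤
            |lam (f (ep δ k.1 θ)) k.1.2 - c k.1.2| +
              |lam (f (ep δ k.1 θ)) k.1.2 - pt k.1 θ k.1.2| := by
          have e1 : pt k.1 θ k.1.2 - c k.1.2 = (lam (f (ep δ k.1 θ)) k.1.2 - c k.1.2) -
            (lam (f (ep δ k.1 θ)) k.1.2 - pt k.1 θ k.1.2) := by ring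
          rw [e1]
          exact abs_sub _ _
        rw [h1] at h7
        linarith
      linarith [h3.1, hs.2]
    rcases k1 with e | e
    · refine ⟨ep δ k.1 0, ep_cc Q.grid hcd k hhalf hI0, ep δ k.1 1,
        ep_cc Q.grid hcd k hhalf hI1, ep_vertex Q.grid hcd k (Or.inl rfl),
        ep_vertex Q.grid hcd k (Or.inr rfl), inner 0 (Or.inl rfl) ?_, outer 1 (Or.inr rfl) ?_⟩
      · rw [pt_same, e]; push_cast
        rw [show (c k.1.2 : ℝ) + 5 + 0 - c k.1.2 = 5 by ring, abs_of_pos (by norm_num)]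
      · rw [pt_same, e]; push_cast
        rw [show (c k.1.2 : ℝ) + 5 + 1 - c k.1.2 = 6 by ring, abs_of_pos (by norm_num)]
    · refine ⟨ep δ k.1 1, ep_cc Q.grid hcd k hhalf hI1, ep δ k.1 0,
        ep_cc Q.grid hcd k hhalf hI0, ep_vertex Q.grid hcd k (Or.inr rfl),
        ep_vertex Q.grid hcd k (Or.inl rfl), inner 1 (Or.inr rfl) ?_, outer 0 (Or.inl rfl) ?_⟩
      · rw [pt_same, e]; push_cast
        rw [show (c k.1.2 : ℝ) - 6 + 1 - c k.1.2 = -5 by ring, abs_neg,
          abs_of_pos (by norm_num)]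
      · rw [pt_same, e]; push_cast
        rw [show (c k.1.2 : ℝ) - 6 + 0 - c k.1.2 = -6 by ring, abs_neg,
          abs_of_pos (by norm_num)]
  · -- faces
    rw [Set.disjoint_left]
    rintro _ ⟨z, hz, rfl⟩ hzM
    have hzO := T.cc_sub_Om hx hz
    have h1 := P.p2 k x hx hn z hz
    have h2 : ‖lam (h z) - lam (D.y k)‖ ≤ P.ω := hzM
    have h3 : ‖lam (f z) - lam (D.y k)‖ ≤ ‖lam (h z) - lam (D.y k)‖ + ‖lam (h z) - lam (f z)‖ := by
      have e1 : lam (f z) - lam (D.y k) =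
          (lam (h z) - lam (D.y k)) - (lam (h z) - lam (f z)) := by abel
      rw [e1]
      exact norm_sub_le _ _
    linarith [hη z hzO]

end Crest.Agent.R096.Sk2_855
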