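import Crest.Agent.R096.Sk2g_855

/-!
# Row 96 (S0127), p < 2: lemma 2SK (helper855), part h: the boxes of a finite family of good cubes
-/

set_option autoImplicit false
set_option linter.unusedSectionVars false

open Set Metric

namespace Crest.Agent.R096.Sk2_855

open Crest.Agent.R096.Msh_715 (Tiling)

variable {E : Type*} [NormedAddCommGroup E] [NormedSpace ℝ E] [FiniteDimensional ℝ E]
  {Om La : Set E} {ι : Type*}
  {T : Tiling Om ι} {f : E → E} {N m : ℤ} {δ lam : E ≃ᵃ[ℝ] (Fin 3 → ℝ)}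
  {c : Fin 3 → ℤ}

/-- parameters exist, as small as we want -/
theorem GoodQ.exists_par (Q : GoodQ T La f N m δ lam) (hc : DeepM N m c)
    {fi : E → E} (hf : ContinuousOn f Om) (hfi : ContinuousOn fi La) (mti : MapsTo fi La Om)
    (li : ∀ x ∈ Om, fi (f x) = x) (D : Mks f δ lam c) {ζ : ℝ} (hζ : 0 < ζ) :
    ∃ P : Par T D, P.ω ≤ ζ ∧ 0 < P.η := by
  have hinj : InjOn f Om := fun x hx y hy e => by rw [← li x hx, e, li y hy]
  obtain ⟨ω2, h2, h2'⟩ := Q.c2 hc hf hfi mti li D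
  obtain ⟨ω3, h3, h3'⟩ := Q.c3 hc hinj D
  obtain ⟨ω, hω0, e1, e2, e3, e4⟩ : ∃ ω : ℝ, 0 < ω ∧ ω ≤ ζ ∧ ω ≤ 1 / 32 ∧ 2 * ω ≤ ω2 ∧ ω ≤ ω3 := by
    refine ⟨min (min ζ (1 / 32)) (min (ω2 / 2) ω3),
      lt_min (lt_min hζ (by norm_num)) (lt_min (half_pos h2) h3),
      (min_le_left _ _).trans (min_le_left _ _), (min_le_left _ _).trans (min_le_right _ _), ?_,
      (min_le_right _ _).trans (min_le_right _ _)⟩
    have : min (min ζ (1 / 32)) (min (ω2 / 2) ω3) ≤ ω2 / 2 :=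
      (min_le_right _ _).trans (min_le_left _ _)
    linarith
  obtain ⟨w1, h1, h1'⟩ := Q.c1 hc hf D (half_pos hω0)
  obtain ⟨v, hv0, hv1, hv2⟩ : ∃ v : ℝ, 0 < v ∧ v ≤ w1 ∧ v ≤ ω :=
    ⟨min w1 ω, lt_min h1 hω0, min_le_left _ _, min_le_right _ _⟩
  refine ⟨⟨ω, v / 2, v / 2, by positivity, by positivity, by linarith, e2, by linarith, ?_, ?_, ?_⟩,
    e1, by positivity⟩
  · intro k θ hθ hle
    exact h1' k θ hθ (hle.trans (by linarith))
  · intro k x hx hn z hz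
    exact lt_of_le_of_lt e3 (h2' k x hx hn z hz)
  · intro k k' hne
    have := h3' k k' hne
    linarith

/-- choice of the levels -/
theorem select {J : Type*} [Finite J] (G : J → Set ℝ) (hG : ∀ j, (G j).Infinite)
    (R : J → J → ℝ → ℝ → Prop) (hsymm : ∀ j j' s s', R j j' s s' → R j' j s' s)
    (hfin : ∀ j j', j ≠ j' → ∀ s ∈ G j, {s' | R j j' s s'}.Finite) :
    ∃ s : J → ℝ, (∀ j, s j ∈ G j) ∧ ∀ j j', j ≠ j' → ¬ R j j' (s j) (s j') := by
  classical
  cases nonempty_fintype J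
  have key : ∀ S : Finset J, ∃ s : J → ℝ, (∀ j ∈ S, s j ∈ G j) ∧
      ∀ j ∈ S, ∀ j' ∈ S, j ≠ j' → ¬ R j j' (s j) (s j') := by
    intro S
    induction S using Finset.induction_on with
    | empty => exact ⟨fun _ => 0, by simp, by simp⟩
    | insert a S ha ih =>
      obtain ⟨s, h1, h2⟩ := ih
      have hfinU : (⋃ j ∈ S, {s' | R j a (s j) s'}).Finite :=
        S.finite_toSet.biUnion fun j hj =>
          hfin j a (by rintro rfl; exact ha hj) (s j) (h1 j hj)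
      obtain ⟨t, ht, ht'⟩ := ((hG a).sdiff hfinU).nonempty
      have hta : ∀ j ∈ S, ¬ R j a (s j) t := fun j hj h =>
        ht' (mem_iUnion₂.2 ⟨j, hj, h⟩)
      have hne : ∀ j ∈ S, j ≠ a := by rintro j hj rfl; exact ha hj
      refine ⟨Function.update s a t, fun j hj => ?_, fun j hj j' hj' hjj => ?_⟩
      · rcases Finset.mem_insert.1 hj with rfl | hj
        · rw [Function.update_self]; exact ht
        · rw [Function.update_of_ne (hne j hj)]; exact h1 j hj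
      · rcases Finset.mem_insert.1 hj with e | hj1 <;>
          rcases Finset.mem_insert.1 hj' with e' | hj1'
        · exact absurd (e.trans e'.symm) hjj
        · rw [e, Function.update_self, Function.update_of_ne (hne j' hj1')]
          exact fun h => hta j' hj1' (hsymm _ _ _ _ h)
        · rw [e', Function.update_self, Function.update_of_ne (hne j hj1)]
          exact hta j hj1
        · rw [Function.update_of_ne (hne j hj1), Function.update_of_ne (hne j' hj1')]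
          exact h2 j hj1 j' hj1' hjj
  obtain ⟨s, h1, h2⟩ := key Finset.univ
  exact ⟨s, fun j => h1 j (Finset.mem_univ _), fun j j' => h2 j (Finset.mem_univ _) j'
    (Finset.mem_univ _)⟩

/-- the level has finitely many points in the 1-skeleton -/
theorem GoodQ.finite_lev (Q : GoodQ T La f N m δ lam) (hc : DeepM N m c)
    (hf : ContinuousOn f Om) {s : ℝ} (hs : Gd f δ lam c s) :
    {x | x ∈ sk1 T ∧ ‖bL lam c (f x)‖ = 5 + s}.Finite := by
  obtain ⟨D, rfl⟩ := Q.exists_mks hc hf hs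
  refine (Set.finite_range D.x).subset ?_
  rintro x ⟨hx, h⟩
  obtain ⟨k, θ, hθ, e, hval⟩ := Q.localize hc D.hs hx (by rw [h]; simp)
  refine ⟨k, ?_⟩
  rw [h, sub_self, abs_zero, abs_eq_zero, sub_eq_zero, e] at hval
  show ep δ k.1 (D.θ k) = x
  rw [e, D.gd.2 k θ (Ioo_subset_Icc_self hθ) (D.θ k) (Ioo_subset_Icc_self (D.θmem k)) hval
    (D.θlev k)]

/-- (C4) the marks of one box stay away from the level of another box -/
theorem GoodQ.c4 (Q : GoodQ T La f N m δ lam) {c' : Fin 3 → ℤ} (hc' : DeepM N m c')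
    (D : Mks f δ lam c) (D' : Mks f δ lam c')
    (h : ¬ ∃ x ∈ sk1 T, ‖bL lam c (f x)‖ = 5 + D.s ∧ ‖bL lam c' (f x)‖ = 5 + D'.s) :
    ∃ ζ > 0, ∀ k : KK c', ζ < |‖bL lam c (D'.y k)‖ - (5 + D.s)| := by
  have hpos : ∀ k : KK c', 0 < |‖bL lam c (D'.y k)‖ - (5 + D.s)| := by
    intro k
    rw [abs_pos, sub_ne_zero]
    intro e
    exact h ⟨D'.x k, Q.ep_sk1 hc' k (Ioo_subset_Icc_self (D'.θmem k)), e,
      Q.norm_eq_of_lev hc' k D'.hs (Ioo_subset_Icc_self (D'.θmem k)) (D'.θlev k)⟩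
  cases nonempty_fintype (KK c')
  rcases isEmpty_or_nonempty (KK c') with h0 | h0
  · exact ⟨1, one_pos, fun k => (h0.false k).elim⟩
  · refine ⟨Finset.univ.inf' Finset.univ_nonempty
      (fun k => |‖bL lam c (D'.y k)‖ - (5 + D.s)| / 2), ?_, fun k => ?_⟩
    · rw [gt_iff_lt, Finset.lt_inf'_iff]
      exact fun k _ => half_pos (hpos k)
    · exact lt_of_le_of_lt (Finset.inf'_le _ (Finset.mem_univ k)) (half_lt_self (hpos k))

theorem GoodQ.shell_disj (Q : GoodQ T La f N m δ lam) (hc : DeepM N m c) {c' : Fin 3 → ℤ}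
    (hc' : DeepM N m c') (D : Mks f δ lam c) (D' : Mks f δ lam c') (P : Par T D) (P' : Par T D')
    {ζ : ℝ} (h : ∀ k : KK c', ζ < |‖bL lam c (D'.y k)‖ - (5 + D.s)|)
    (hP : 2 * P.ω ≤ ζ) (hP' : 2 * P'.ω ≤ ζ) (k : KK c') :
    Disjoint (Q.box hc D P).shell ((Q.box hc' D' P').M k) := by
  rw [Set.disjoint_left]
  rintro y ⟨h1, h2⟩ h3
  have h1' : 5 + D.s - P.w ≤ ‖bL lam c y‖ := h1
  have h2' : ‖bL lam c y‖ ≤ 5 + D.s + P.w := h2
  have h3' : ‖lam y - lam (D'.y k)‖ ≤ P'.ω := h3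
  have h4 := abs_le.1 ((abs_norm_bL_sub (lam := lam) (c := c) y (D'.y k)).trans h3')
  have h5 : |‖bL lam c (D'.y k)‖ - (5 + D.s)| ≤ ζ := by
    rw [abs_le]
    constructor <;> linarith [h4.1, h4.2, P.wω]
  exact absurd (h k) (not_lt.2 h5)

theorem GoodQ.Y_sub (Q : GoodQ T La f N m δ lam) (hc : DeepM N m c) (D : Mks f δ lam c)
    (P : Par T D) {y : E} (hy : y ∈ (Q.box hc D P).Y) : Mid N m (lam y) := by
  have hy' : ‖bL lam c y‖ ≤ 5 + D.s + P.w := hy
  intro i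
  have h3 := (norm_le_pi_norm (bL lam c y) i).trans hy'
  rw [bL_apply, Real.norm_eq_abs, abs_le] at h3
  have h4 : (m : ℝ) + 8 ≤ c i := by exact_mod_cast (hc i).1
  have h5 : (c i : ℝ) ≤ N - m - 8 := by exact_mod_cast (hc i).2
  have h6 := D.hs.2
  have h7 := P.wω
  have h8 := P.ω1
  constructor <;> linarith [h3.1, h3.2]

theorem GoodQ.M_sub (Q : GoodQ T La f N m δ lam) (hc : DeepM N m c) (D : Mks f δ lam c)
    (P : Par T D) (k : KK c) {y : E} (hy : y ∈ (Q.box hc D P).M k) : Mid N m (lam y) := by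
  have h3' : ‖lam y - lam (D.y k)‖ ≤ P.ω := hy
  have h2 : ‖bL lam c (D.y k)‖ = 5 + D.s :=
    Q.norm_eq_of_lev hc k D.hs (Ioo_subset_Icc_self (D.θmem k)) (D.θlev k)
  have h9 := abs_le.1 ((abs_norm_bL_sub (lam := lam) (c := c) y (D.y k)).trans h3')
  intro i
  have h3 := norm_le_pi_norm (bL lam c y) i
  rw [bL_apply, Real.norm_eq_abs] at h3
  have h10 := abs_le.1 (h3.trans (by linarith [h9.2] : ‖bL lam c y‖ ≤ 5 + D.s + P.ω))
  have h4 : (m : ℝ) + 8 ≤ c i := by exact_mod_cast (hc i).1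
  have h5 : (c i : ℝ) ≤ N - m - 8 := by exact_mod_cast (hc i).2
  have h6 := D.hs.2
  have h8 := P.ω1
  constructor <;> linarith [h10.1, h10.2]

/-- the boxes of one colour in one cube are disjoint -/
theorem GoodQ.Y_disj (Q : GoodQ T La f N m δ lam) (hc : DeepM N m c) {c' : Fin 3 → ℤ}
    (hc' : DeepM N m c') (D : Mks f δ lam c) (D' : Mks f δ lam c') (P : Par T D) (P' : Par T D')
    {i : Fin 3} (hi : 12 ≤ |c i - c' i|) :
    Disjoint (Q.box hc D P).Y (Q.box hc' D' P').Y := by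
  rw [Set.disjoint_left]
  intro y hy hy'
  have h1 : ‖bL lam c y‖ ≤ 5 + D.s + P.w := hy
  have h2 : ‖bL lam c' y‖ ≤ 5 + D'.s + P'.w := hy'
  have h3 := (norm_le_pi_norm (bL lam c y) i).trans h1
  have h4 := (norm_le_pi_norm (bL lam c' y) i).trans h2
  rw [bL_apply, Real.norm_eq_abs, abs_le] at h3 h4
  have h5 : (12 : ℝ) ≤ |(c i : ℝ) - c' i| := by exact_mod_cast hi
  have h6 : |(c i : ℝ) - c' i| < 12 := by
    rw [abs_lt]
    constructor <;> linarith [h3.1, h3.2, h4.1, h4.2, D.hs.2, D'.hs.2, P.wω, P'.wω, P.ω1, P'.ω1]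
  linarith

/-- a finite family of good cubes -/
structure Fam (T : Tiling Om ι) (La : Set E) (f : E → E) (κ : Type*) where
  N : κ → ℤ
  m : κ → ℤ
  δ : κ → E ≃ᵃ[ℝ] (Fin 3 → ℝ)
  lam : κ → E ≃ᵃ[ℝ] (Fin 3 → ℝ)
  good : ∀ q, GoodQ T La f (N q) (m q) (δ q) (lam q)
  disj : ∀ q q', q ≠ q' →
    Disjoint {y | Mid (N q) (m q) (lam q y)} {y | Mid (N q') (m q') (lam q' y)}

namespace Fam

variable {κ : Type*} (F : Fam T La f κ)

/-- the index set of the boxes -/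
abbrev J : Type _ := Σ q : κ, {c : Fin 3 → ℤ // DeepM (F.N q) (F.m q) c}

instance finite_deep (N m : ℤ) : Finite {c : Fin 3 → ℤ // DeepM N m c} := by
  have h : {c : Fin 3 → ℤ | DeepM N m c} = Set.pi univ fun _ => Icc (m + 8) (N - m - 8) := by
    ext c
    simp only [DeepM, Set.mem_ofPred_eq, Set.mem_pi, mem_univ, true_implies, mem_Icc]
  have h2 : {c : Fin 3 → ℤ | DeepM N m c}.Finite := by
    rw [h]
    exact Set.Finite.pi fun _ => Set.finite_Icc _ _
  exact h2.to_subtype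

instance [Finite κ] : Finite F.J := inferInstance

/-- the colour of a box -/
def col (j : F.J) : Fin (12 ^ 3) :=
  finFunctionFinEquiv fun i : Fin 3 => (⟨(j.2.1 i % 12).toNat, by omega⟩ : Fin 12)

/-- the boxes of a family -/
structure Boxes (η : ℝ) where
  B : F.J → Box T La
  L : ∀ j, (B j).L = bL (F.lam j.1) j.2.1
  a1 : ∀ j, 5 + 1 / 8 < (B j).a
  b1 : ∀ j, (B j).b < 6 - 1 / 8
  M : ∀ j j', j ≠ j' → ∀ k, Disjoint (B j).shell ((B j').M k)
  NC : ∀ j x, (∀ k : KK j.2.1, ep (F.δ j.1) k.1 (1 / 2) ∉ T.cc x) → (B j).NC x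
  Ydisj : ∀ j j', j ≠ j' → F.col j = F.col j' → Disjoint (B j).Y (B j').Y
  ok : ∀ h : E → E, (∀ x ∈ Om, ‖h x - f x‖ ≤ η) → ∀ j, (B j).Ok h

theorem exists_boxes [Finite κ] {fi : E → E} (hf : ContinuousOn f Om) (hfi : ContinuousOn fi La)
    (mti : MapsTo fi La Om) (li : ∀ x ∈ Om, fi (f x) = x) :
    ∃ η > 0, Nonempty (F.Boxes η) := by
  classical
  -- levels
  obtain ⟨s, hs, hR⟩ := select (J := F.J)
    (fun j => {s | Gd f (F.δ j.1) (F.lam j.1) j.2.1 s})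
    (fun j => (F.good j.1).infinite_gd j.2.2)
    (fun j j' s s' => ∃ x ∈ sk1 T, ‖bL (F.lam j.1) j.2.1 (f x)‖ = 5 + s ∧
      ‖bL (F.lam j'.1) j'.2.1 (f x)‖ = 5 + s')
    (fun j j' s s' ⟨x, hx, h1, h2⟩ => ⟨x, hx, h2, h1⟩)
    (by
      intro j j' _ s hs
      have h1 := (F.good j.1).finite_lev j.2.2 hf hs
      refine (h1.image fun x => ‖bL (F.lam j'.1) j'.2.1 (f x)‖ - 5).subset ?_
      rintro s' ⟨x, hx, e1, e2⟩
      exact ⟨x, ⟨hx, e1⟩, by simp only [e2]; ring⟩)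
  -- marks
  choose D hD using fun j : F.J => (F.good j.1).exists_mks j.2.2 hf (hs j)
  -- a common ζ
  have hζ : ∀ p : F.J × F.J, ∃ ζ > 0, p.1 ≠ p.2 → ∀ e : p.2.1 = p.1.1,
      ∀ k : KK p.2.2.1, ζ < |‖bL (F.lam p.1.1) p.1.2.1 ((D p.2).y k)‖ - (5 + (D p.1).s)| := by
    rintro ⟨⟨q, c, hc⟩, ⟨q', c', hc'⟩⟩
    by_cases e : q' = q
    · subst e
      by_cases hne : (⟨q', c, hc⟩ : F.J) = ⟨q', c', hc'⟩
      · exact ⟨1, one_pos, fun h => absurd hne h⟩
      · have h1 := hR _ _ hne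
        rw [← hD, ← hD] at h1
        obtain ⟨ζ, h2, h3⟩ := (F.good q').c4 hc' (D ⟨q', c, hc⟩) (D ⟨q', c', hc'⟩) h1
        exact ⟨ζ, h2, fun _ _ => h3⟩
    · exact ⟨1, one_pos, fun _ h => absurd h e⟩
  choose ζ hζ0 hζ' using hζ
  obtain ⟨ζ0, hz0, hz1⟩ : ∃ ζ0 > 0, ∀ p, ζ0 ≤ ζ p := by
    cases nonempty_fintype (F.J × F.J)
    rcases isEmpty_or_nonempty (F.J × F.J) with h0 | h0
    · exact ⟨1, one_pos, fun p => (h0.false p).elim⟩
    · refine ⟨Finset.univ.inf' Finset.univ_nonempty ζ, ?_, fun p =>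
        Finset.inf'_le _ (Finset.mem_univ p)⟩
      rw [gt_iff_lt, Finset.lt_inf'_iff]
      exact fun p _ => hζ0 p
  -- parameters
  choose P hP hP' using fun j : F.J =>
    (F.good j.1).exists_par j.2.2 hf hfi mti li (D j) (half_pos hz0)
  -- the closeness
  have hηj : ∀ j : F.J, ∃ η > 0, ∀ u v : E, ‖u - v‖ ≤ η →
      ‖F.lam j.1 u - F.lam j.1 v‖ ≤ (P j).η := by
    intro j
    set A : E →L[ℝ] (Fin 3 → ℝ) := LinearMap.toContinuousLinearMap (F.lam j.1).linear.toLinearMap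
    refine ⟨(P j).η / (‖A‖ + 1), by have := hP' j; positivity, fun u v huv => ?_⟩
    have e : F.lam j.1 u - F.lam j.1 v = A (u - v) := by
      have := (F.lam j.1).toAffineMap.linearMap_vsub u v
      rw [vsub_eq_sub, vsub_eq_sub] at this
      exact this.symm
    rw [e]
    have h1 := A.le_opNorm (u - v)
    have h2 : ‖A‖ * ‖u - v‖ ≤ (‖A‖ + 1) * ((P j).η / (‖A‖ + 1)) :=
      mul_le_mul (by linarith) huv (norm_nonneg _) (by positivity)
    rw [mul_div_cancel₀ _ (by positivity)] at h2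
    exact h1.trans h2
  choose ηj hη0 hη1 using hηj
  obtain ⟨η, h0, h1⟩ : ∃ η > 0, ∀ j, η ≤ ηj j := by
    cases nonempty_fintype F.J
    rcases isEmpty_or_nonempty F.J with h0 | h0
    · exact ⟨1, one_pos, fun p => (h0.false p).elim⟩
    · refine ⟨Finset.univ.inf' Finset.univ_nonempty ηj, ?_, fun p =>
        Finset.inf'_le _ (Finset.mem_univ p)⟩
      rw [gt_iff_lt, Finset.lt_inf'_iff]
      exact fun p _ => hη0 p
  refine ⟨η, h0, ⟨{
    B := fun j => (F.good j.1).box j.2.2 (D j) (P j)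
    L := fun j => rfl
    a1 := fun j => ?_
    b1 := fun j => ?_
    M := ?_
    NC := fun j x hx => hx
    Ydisj := ?_
    ok := fun h hh j => (F.good j.1).ok j.2.2 (D j) (P j) fun x hx =>
      hη1 j _ _ ((hh x hx).trans (h1 j)) }⟩⟩
  · show 5 + 1 / 8 < 5 + (D j).s - (P j).w
    linarith [(D j).hs.1, (P j).wω, (P j).ω1]
  · show 5 + (D j).s + (P j).w < 6 - 1 / 8
    linarith [(D j).hs.2, (P j).wω, (P j).ω1]
  · rintro ⟨q, c, hc⟩ ⟨q', c', hc'⟩ hne k
    by_cases e : q' = q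
    · subst e
      have h3 := hζ' (⟨q', c, hc⟩, ⟨q', c', hc'⟩) hne rfl
      have h4 := hz1 (⟨q', c, hc⟩, ⟨q', c', hc'⟩)
      refine (F.good q').shell_disj hc hc' _ _ _ _ (ζ := ζ0) (fun k => lt_of_le_of_lt h4 (h3 k)) ?_ ?_ k
      · have := hP ⟨q', c, hc⟩; linarith
      · have := hP ⟨q', c', hc'⟩; linarith
    · rw [Set.disjoint_left]
      intro y hy hy'
      exact (disjoint_left.1 (F.disj q q' (Ne.symm e)))
        ((F.good q).Y_sub hc _ _ (Box.shell_sub_Y _ hy)) ((F.good q').M_sub hc' _ _ k hy')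
  · rintro ⟨q, c, hc⟩ ⟨q', c', hc'⟩ hne hcol
    by_cases e : q' = q
    · subst e
      have hcc : c ≠ c' := by rintro rfl; exact hne rfl
      obtain ⟨i, hi⟩ := Function.ne_iff.1 hcc
      have h3 := congrFun (finFunctionFinEquiv.injective hcol) i
      have h4 : (c i % 12).toNat = (c' i % 12).toNat := congrArg Fin.val h3
      exact (F.good q').Y_disj hc hc' _ _ _ _ (i := i) (by
        rcases abs_cases (c i - c' i) with ⟨h, _⟩ | ⟨h, _⟩ <;> rw [h] <;> omega)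
    · rw [Set.disjoint_left]
      intro y hy hy'
      exact (disjoint_left.1 (F.disj q q' (Ne.symm e)))
        ((F.good q).Y_sub hc _ _ hy) ((F.good q').Y_sub hc' _ _ hy')

end Fam

end Crest.Agent.R096.Sk2_855
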