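import Crest.Agent.R096.Sk2h_855
import Crest.Agent.R096.Srg4_465

/-!
# Row 96 (S0127), p < 2: lemma 2SK (helper855), part i: **the final theorem**
-/

set_option autoImplicit false
set_option linter.unusedSectionVars false

open Set Metric

namespace Crest.Agent.R096.Sk2_855

open Crest.Agent.R096.Msh_715 (Tiling P I isOpen_I)
open Crest.Agent.R096.Ce_537 (LocPL PLOn)
open Crest.Agent.R096.Srg_465 (exists_cell2)

variable {E : Type*} [NormedAddCommGroup E] [NormedSpace ℝ E] [FiniteDimensional ℝ E]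
  {Om La : Set E} {ι : Type*} {T : Tiling Om ι} {f : E → E}

theorem locPL_cont {h : E → E} {U : Set E} (hh : LocPL h U) : ContinuousOn h U := by
  intro x hx
  obtain ⟨r, hr, h1⟩ := hh x hx
  exact (h1.1.continuousAt (ball_mem_nhds x hr)).continuousWithinAt

/-- (C0) the maximum principle -/
theorem capture {h hi : E → E} (H : HP Om La h hi) (hLa : IsOpen La) (Ψ : E ≃ₜ E)
    (hΨ : MapsTo Ψ Om Om) {P B : Set E} (hP : IsCompact P) (hPO : P ⊆ Om)
    (hB : Convex ℝ B) (hBc : IsClosed B) (hBn : B.Nonempty)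
    (hb : ∀ x ∈ P, x ∉ interior P → h (Ψ x) ∈ B) : ∀ x ∈ P, h (Ψ x) ∈ B := by
  intro x0 hx0
  by_contra hn
  obtain ⟨ℓ, u, h1, h2⟩ := geometric_hahn_banach_closed_point hB hBc hn
  have hcont : ContinuousOn (fun x => ℓ (h (Ψ x))) P :=
    ℓ.continuous.comp_continuousOn
      ((locPL_cont H.pl).comp Ψ.continuous.continuousOn fun x hx => hΨ (hPO hx))
  obtain ⟨x1, hx1, hmax⟩ := hP.exists_isMaxOn ⟨x0, hx0⟩ hcont
  have h3 : u < ℓ (h (Ψ x1)) := lt_of_lt_of_le h2 (hmax hx0)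
  have hint : x1 ∈ interior P := by
    by_contra h4
    exact absurd (h1 _ (hb x1 hx1 h4)) (not_lt.2 h3.le)
  obtain ⟨b, hb'⟩ := hBn
  have h5 : 0 < ℓ (h (Ψ x1) - b) := by rw [map_sub]; linarith [h1 b hb']
  set v := h (Ψ x1) - b with hv
  have hyL : h (Ψ x1) ∈ La := H.mt (hΨ (hPO hx1))
  have e : Ψ.symm (hi (h (Ψ x1))) = x1 := by
    rw [H.li _ (hΨ (hPO hx1)), Ψ.symm_apply_apply]
  have hc : ContinuousAt (fun y => Ψ.symm (hi y)) (h (Ψ x1)) :=
    Ψ.symm.continuous.continuousAt.comp ((locPL_cont H.pli).continuousAt (hLa.mem_nhds hyL))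
  have hev : ∀ᶠ y in nhds (h (Ψ x1)), y ∈ La ∧ Ψ.symm (hi y) ∈ interior P :=
    (hLa.eventually_mem hyL).and
      (hc.eventually_mem (by simp only [e]; exact isOpen_interior.mem_nhds hint))
  have hs : ContinuousAt (fun s : ℝ => h (Ψ x1) + s • v) 0 := by fun_prop
  have hs' : ∀ᶠ s in nhds (0 : ℝ), (h (Ψ x1) + s • v) ∈ La ∧
      Ψ.symm (hi (h (Ψ x1) + s • v)) ∈ interior P := by
    have hev' : ∀ᶠ y in nhds (h (Ψ x1) + (0 : ℝ) • v), y ∈ La ∧ Ψ.symm (hi y) ∈ interior P := by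
      rw [zero_smul, add_zero]
      exact hev
    exact hs.eventually hev'
  obtain ⟨s, ⟨hs1, hs2⟩, hs0⟩ :=
    ((hs'.filter_mono (nhdsWithin_le_nhds (s := Ioi (0 : ℝ)))).and self_mem_nhdsWithin).exists
  have h6 := hmax (interior_subset hs2)
  simp only [Set.mem_ofPred_eq] at h6
  rw [Ψ.apply_symm_apply, H.ri _ hs1, map_add, map_smul, smul_eq_mul] at h6
  have h7 : 0 < s * ℓ v := mul_pos hs0 h5
  linarith

theorem dim_lt_of_notMem_interior (h3 : Module.finrank ℝ E = 3) {x' x : E} (hx' : x' ∈ Om)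
    (hx : x ∈ T.cc x') (hn : x ∉ interior (T.cc x')) : T.dim x < 3 := by
  by_contra hcon
  have h1 : T.dim x ≤ 3 := h3 ▸ T.dim_le_finrank x
  have hxO := T.cc_sub_Om hx' hx
  have hV : T.V x = ⊤ :=
    Submodule.eq_top_of_finrank_eq (by rw [h3]; exact le_antisymm h1 (not_lt.1 hcon))
  obtain ⟨i, hi⟩ := (T.V_eq_top_iff hxO).1 hV
  apply hn
  rw [mem_interior]
  refine ⟨T.oc x, (T.oc_sub_cc x).trans (T.cc_sub_of_mem hx), ?_, T.self_mem_oc x⟩
  rw [T.oc_eq_tile hi]
  exact isOpen_I _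

/-- the capture lemma for a cell -/
theorem capture_cell (h3 : Module.finrank ℝ E = 3) {h hi : E → E} (H : HP Om La h hi)
    (hLa : IsOpen La) {Ψ : E ≃ₜ E} (hΨ : Mv T Ψ) {x' : E} (hx' : x' ∈ Om) {B : Set E}
    (hB : Convex ℝ B) (hBc : IsClosed B) (hBn : B.Nonempty)
    (hb : ∀ z ∈ T.cc x', ∀ y ∈ Om, T.dim y = 2 → z ∈ T.cc y → h '' (Ψ '' T.cc y) ⊆ B) :
    ∀ x ∈ T.cc x', h (Ψ x) ∈ B := by
  refine capture H hLa Ψ hΨ.mapsTo (T.isCompact_cc hx') (T.cc_sub_Om hx') hB hBc hBn ?_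
  intro z hz hn
  have hd := dim_lt_of_notMem_interior h3 hx' hz hn
  obtain ⟨y, hy, hyd, hzy⟩ := exists_cell2 T h3 (T.cc_sub_Om hx' hz) hd
  exact hb z hz y hy hyd hzy ⟨Ψ z, ⟨z, hzy, rfl⟩, rfl⟩

theorem convex_bL (lam : E ≃ᵃ[ℝ] (Fin 3 → ℝ)) (c : Fin 3 → ℤ) (r : ℝ) :
    Convex ℝ {y | ‖bL lam c y‖ ≤ r} ∧ IsClosed {y | ‖bL lam c y‖ ≤ r} := by
  constructor
  · have : {y | ‖bL lam c y‖ ≤ r} = (bL lam c) ⁻¹' (closedBall 0 r) := by
      ext y; simp
    rw [this]
    exact (convex_closedBall _ _).affine_preimage (f := (bL lam c).toAffineMap)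
  · exact isClosed_le (continuous_norm.comp (continuous_aff (bL lam c))) continuous_const

theorem bL_sub (lam : E ≃ᵃ[ℝ] (Fin 3 → ℝ)) (c : Fin 3 → ℤ) (y y' : E) :
    bL lam c y - bL lam c y' = lam y - lam y' := by
  funext i
  rw [Pi.sub_apply, Pi.sub_apply, bL_apply, bL_apply]
  ring

/-- **2SK** -/
theorem two_sk (h3 : Module.finrank ℝ E = 3) (hLa : IsOpen La) (hS : Surg T La)
    {κ : Type*} [Finite κ] (F : Fam T La f κ) {fi : E → E} (hf : ContinuousOn f Om)
    (hfi : ContinuousOn fi La) (mti : MapsTo fi La Om) (li : ∀ x ∈ Om, fi (f x) = x)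
    (happ : ∀ η > 0, ∃ h hi, HP Om La h hi ∧ ∀ x ∈ Om, ‖h x - f x‖ ≤ η)
    {r : ℝ} (hr : 0 < r) (hT : ∀ i, ∀ x ∈ P (T.H i), ∀ y ∈ P (T.H i), ‖f x - f y‖ ≤ r)
    (hl : ∀ q y y', ‖F.lam q y - F.lam q y'‖ ≤ 12 → ‖y - y'‖ ≤ r) :
    ∃ Ψ : E ≃ₜ E, Mv T Ψ ∧
      (∀ q x, (∀ i, (F.m q : ℝ) + 20744 ≤ F.δ q x i ∧ F.δ q x i ≤ F.N q - F.m q - 20744) →
        ‖F.lam q (f (Ψ x)) - F.δ q x‖ ≤ 20744) ∧
      ∀ x ∈ Om, ‖f (Ψ x) - f x‖ ≤ 1736 * r := by
  classical
  obtain ⟨η1, hη1, ⟨D⟩⟩ := F.exists_boxes hf hfi mti li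
  -- the closeness in the charts
  have hηq : ∀ q : κ, ∃ η > 0, ∀ u v : E, ‖u - v‖ ≤ η → ‖F.lam q u - F.lam q v‖ ≤ 1 / 8 := by
    intro q
    set A : E →L[ℝ] (Fin 3 → ℝ) := LinearMap.toContinuousLinearMap (F.lam q).linear.toLinearMap
    refine ⟨1 / 8 / (‖A‖ + 1), by positivity, fun u v huv => ?_⟩
    have e : F.lam q u - F.lam q v = A (u - v) := by
      have := (F.lam q).toAffineMap.linearMap_vsub u v
      rw [vsub_eq_sub, vsub_eq_sub] at this
      exact this.symm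
    rw [e]
    have h1 := A.le_opNorm (u - v)
    have h2 : ‖A‖ * ‖u - v‖ ≤ (‖A‖ + 1) * (1 / 8 / (‖A‖ + 1)) :=
      mul_le_mul (by linarith) huv (norm_nonneg _) (by positivity)
    rw [mul_div_cancel₀ _ (by positivity)] at h2
    exact h1.trans h2
  choose ηq hq0 hq1 using hηq
  obtain ⟨η2, h02, h12⟩ : ∃ η > 0, ∀ q, η ≤ ηq q := by
    cases nonempty_fintype κ
    rcases isEmpty_or_nonempty κ with h0 | h0
    · exact ⟨1, one_pos, fun p => (h0.false p).elim⟩
    · refine ⟨Finset.univ.inf' Finset.univ_nonempty ηq, ?_, fun p =>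
        Finset.inf'_le _ (Finset.mem_univ p)⟩
      rw [gt_iff_lt, Finset.lt_inf'_iff]
      exact fun p _ => hq0 p
  obtain ⟨η, hη0, he1, he2, he3⟩ : ∃ η > 0, η ≤ η1 ∧ η ≤ η2 ∧ η ≤ r :=
    ⟨min η1 (min η2 r), lt_min hη1 (lt_min h02 hr), min_le_left _ _,
      (min_le_right _ _).trans (min_le_left _ _), (min_le_right _ _).trans (min_le_right _ _)⟩
  obtain ⟨h, hi, H, hh⟩ := happ η hη0
  have hnear : ∀ q, ∀ x ∈ Om, ‖F.lam q (h x) - F.lam q (f x)‖ ≤ 1 / 8 := fun q x hx =>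
    hq1 q _ _ ((hh x hx).trans (he2.trans (h12 q)))
  obtain ⟨Ψ, hΨ, hZ⟩ := iterate_col hS D.B F.col D.Ydisj D.M H
    (D.ok h fun x hx => (hh x hx).trans he1)
  have hbox : ∀ j y, y ∈ (D.B j).Y → ‖bL (F.lam j.1) j.2.1 y‖ ≤ 6 := by
    intro j y hy
    have h1 : ‖(D.B j).L y‖ ≤ (D.B j).b := hy
    rw [D.L j] at h1
    linarith [D.b1 j]
  refine ⟨Ψ, hΨ, fun q x hx => ?_, fun x hx => ?_⟩
  · -- the deep part of a good cube
    have Q := F.good q
    set N := F.N q with hN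
    set m := F.m q with hm
    set δ := F.δ q with hδ
    set lam := F.lam q with hlam
    have hm0 : 0 ≤ m := Q.m0
    have hm0' : (0 : ℝ) ≤ m := by exact_mod_cast hm0
    set c : Fin 3 → ℤ := fun i => ⌊δ x i⌋ with hcdef
    have hc1 : ∀ i, (c i : ℝ) ≤ δ x i := fun i => Int.floor_le _
    have hc2 : ∀ i, δ x i < c i + 1 := fun i => Int.lt_floor_add_one _
    have hc3 : ∀ i, m + 20744 ≤ c i := fun i => Int.le_floor.2 (by push_cast; exact (hx i).1)
    have hc4 : ∀ i, c i ≤ N - m - 20744 := by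
      intro i
      have h1 : (c i : ℝ) ≤ ((N - m - 20744 : ℤ) : ℝ) := by
        push_cast
        exact (hc1 i).trans (hx i).2
      exact_mod_cast h1
    have hc3' : ∀ i, (m : ℝ) + 20744 ≤ c i := fun i => by exact_mod_cast hc3 i
    have hc4' : ∀ i, (c i : ℝ) ≤ N - m - 20744 := fun i => (hc1 i).trans (hx i).2
    have hcD : DeepM N m c := fun i => ⟨by linarith [hc3 i], by linarith [hc4 i]⟩
    set j : F.J := ⟨q, c, hcD⟩ with hj
    -- the centre of the cell of `x`
    set x' : E := δ.symm (fun i => (c i : ℝ) + 1 / 2) with hx'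
    have hδx' : ∀ i, δ x' i = c i + 1 / 2 := fun i => by rw [hx', AffineEquiv.apply_symm_apply]
    have hR' : InR N (δ x') := fun i => by
      rw [hδx']
      constructor <;> linarith [hc3' i, hc4' i]
    have hx'O : x' ∈ Om := Q.grid.mem x' hR'
    have hcell : T.cc x' = {y | ∀ i, (c i : ℝ) ≤ δ y i ∧ δ y i ≤ c i + 1} := by
      rw [Q.grid.cc x' hR']
      ext y
      simp only [Set.mem_ofPred_eq]
      refine forall_congr' fun i => ?_
      have e1 : ⌊δ x' i⌋ = c i := by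
        rw [hδx', Int.floor_eq_iff]
        constructor <;> linarith
      have e2 : ⌈δ x' i⌉ = c i + 1 := by
        rw [hδx', Int.ceil_eq_iff]
        push_cast
        constructor <;> linarith
      rw [e1, e2]
      push_cast
      rfl
    have hxc : x ∈ T.cc x' := by
      rw [hcell]
      exact fun i => ⟨hc1 i, (hc2 i).le⟩
    -- the regions
    set Z : ℕ → Set E := fun i => {y | ‖bL lam c y‖ ≤ 6 + 12 * i} with hZdef
    have hZ1 : ∀ i, Z i ⊆ Z (i + 1) := by
      intro i y hy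
      have h1 : ‖bL lam c y‖ ≤ 6 + 12 * i := hy
      show ‖bL lam c y‖ ≤ 6 + 12 * ((i + 1 : ℕ) : ℝ)
      push_cast
      linarith
    have hZ2 : ∀ i < 12 ^ 3, ∀ j', (Z i ∩ (D.B j').Y).Nonempty → (D.B j').Y ⊆ Z (i + 1) := by
      rintro i hi ⟨q', c', hc'⟩ ⟨y0, hy0, hy0'⟩ y hy
      have h1 : ‖bL lam c y0‖ ≤ 6 + 12 * i := hy0
      have hi' : (i : ℝ) ≤ 1727 := by
        have : i ≤ 1727 := by omega
        exact_mod_cast this
      have hmid : Mid N m (lam y0) := by
        intro l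
        have h2 := (norm_le_pi_norm (bL lam c y0) l).trans h1
        rw [bL_apply, Real.norm_eq_abs, abs_le] at h2
        constructor <;> linarith [hc3' l, hc4' l, h2.1, h2.2]
      by_cases e : q' = q
      · subst e
        have h2 := hbox _ _ hy0'
        have h3 := hbox _ _ hy
        simp only at h2 h3
        have h4 : ‖bL lam c y‖ ≤ ‖bL lam c y0‖ + (‖bL lam c' y‖ + ‖bL lam c' y0‖) := by
          have e1 : bL lam c y = bL lam c y0 + (bL lam c' y - bL lam c' y0) := by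
            rw [bL_sub, ← bL_sub lam c]
            abel
          calc ‖bL lam c y‖ = ‖bL lam c y0 + (bL lam c' y - bL lam c' y0)‖ := by rw [← e1]
            _ ≤ _ := (norm_add_le _ _).trans (add_le_add le_rfl (norm_sub_le _ _))
        show ‖bL lam c y‖ ≤ 6 + 12 * ((i + 1 : ℕ) : ℝ)
        push_cast
        linarith
      · exfalso
        have h2 : Mid (F.N q') (F.m q') (F.lam q' y0) := by
          have h3 := hbox _ _ hy0'
          simp only at h3
          intro l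
          have h4 := (norm_le_pi_norm (bL (F.lam q') c' y0) l).trans h3
          rw [bL_apply, Real.norm_eq_abs, abs_le] at h4
          have h5 : (F.m q' : ℝ) + 8 ≤ c' l := by exact_mod_cast (hc' l).1
          have h6 : (c' l : ℝ) ≤ F.N q' - F.m q' - 8 := by exact_mod_cast (hc' l).2
          constructor <;> linarith [h4.1, h4.2]
        exact (disjoint_left.1 (F.disj q q' (Ne.symm e))) hmid h2
    obtain ⟨-, hZb⟩ := hZ Z hZ1 hZ2
    have hY0 : (D.B j).Y ⊆ Z 0 := by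
      intro y hy
      have h1 := hbox _ _ hy
      show ‖bL lam c y‖ ≤ 6 + 12 * ((0 : ℕ) : ℝ)
      simp only [hj] at h1
      push_cast
      linarith
    -- the faces
    have hfaces : ∀ z ∈ T.cc x', ∀ y ∈ Om, T.dim y = 2 → z ∈ T.cc y →
        h '' (Ψ '' T.cc y) ⊆ Z (12 ^ 3) := by
      intro z hz y hy hyd hzy
      rw [hcell] at hz
      have hzI : ∀ i, 0 < δ z i ∧ δ z i < N := fun i =>
        ⟨by linarith [(hz i).1, hc3' i], by linarith [(hz i).2, hc4' i]⟩
      obtain ⟨y', hy'R, hy'c, -⟩ := Q.grid.exists_rep hzI hy hzy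
      have hF : ∀ w ∈ T.cc y, ∀ i, |δ w i - c i| ≤ 2 := by
        intro w hw i
        rw [← hy'c, Q.grid.cc y' hy'R] at hw hzy
        have h1 : (⌈δ y' i⌉ : ℝ) ≤ ⌊δ y' i⌋ + 1 := by exact_mod_cast Int.ceil_le_floor_add_one _
        rw [abs_le]
        constructor <;> linarith [(hw i).1, (hw i).2, (hzy i).1, (hzy i).2, (hz i).1, (hz i).2]
      refine hZb j hY0 y hy hyd (D.NC j y fun k hk => ?_) fun w hw hw1 => ?_
      · have h1 := hF _ hk k.1.2
        rw [δ_ep, pt_same] at h1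
        obtain ⟨h2, -⟩ := kk_spec k
        rw [abs_le] at h1
        rcases h2 with e | e
        · rw [e] at h1
          push_cast at h1
          linarith [h1.2]
        · rw [e] at h1
          push_cast at h1
          linarith [h1.1]
      · have hwR : InR N (δ w) := by
          intro i
          have h1 := abs_le.1 (hF w hw i)
          constructor <;> linarith [h1.1, h1.2, hc3' i, hc4' i]
        have h1 := Q.near w hw1 hwR
        have h2 := hnear q w hw1.1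
        rw [D.L j]
        refine lt_of_le_of_lt ?_ (D.a1 j)
        refine (pi_norm_le_iff_of_nonneg (by norm_num)).2 fun i => ?_
        have h4 := abs_le.1 ((norm_le_pi_norm _ i).trans h1)
        have h5 := abs_le.1 ((norm_le_pi_norm _ i).trans h2)
        have h6 := abs_le.1 (hF w hw i)
        rw [Pi.sub_apply] at h4 h5
        rw [bL_apply, Real.norm_eq_abs, abs_le]
        constructor <;> linarith [h4.1, h4.2, h5.1, h5.2, h6.1, h6.2]
    have hcap := capture_cell h3 H hLa hΨ hx'O (convex_bL lam c (6 + 12 * ((12 ^ 3 : ℕ) : ℝ))).1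
      (convex_bL lam c (6 + 12 * ((12 ^ 3 : ℕ) : ℝ))).2
      ⟨(bL lam c).symm 0, by
        show ‖bL lam c ((bL lam c).symm 0)‖ ≤ 6 + 12 * ((12 ^ 3 : ℕ) : ℝ)
        rw [AffineEquiv.apply_symm_apply, norm_zero]
        positivity⟩ hfaces x hxc
    have hcap' : ‖bL lam c (h (Ψ x))‖ ≤ 6 + 12 * ((12 ^ 3 : ℕ) : ℝ) := hcap
    have hxO : x ∈ Om := T.cc_sub_Om hx'O hxc
    have h2 := hnear q (Ψ x) (hΨ.mapsTo hxO)
    refine (pi_norm_le_iff_of_nonneg (by norm_num)).2 fun i => ?_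
    have h4 := abs_le.1 ((norm_le_pi_norm _ i).trans hcap')
    have h5 := abs_le.1 ((norm_le_pi_norm _ i).trans h2)
    rw [Pi.sub_apply] at h5
    rw [bL_apply] at h4
    rw [Pi.sub_apply, Real.norm_eq_abs, abs_le]
    push_cast at h4
    constructor <;> linarith [h4.1, h4.2, h5.1, h5.2, hc1 i, hc2 i]
  · -- everywhere
    obtain ⟨i, hi⟩ := T.at_nonempty hx
    obtain ⟨z0, hz0⟩ := T.ne i
    have hz0O : z0 ∈ Om := T.sub i (Msh_715.I_sub_P _ hz0)
    have hcc := T.cc_eq_tile hz0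
    have hh2 : ∀ i, ∀ x ∈ P (T.H i), ∀ y ∈ P (T.H i), ‖h x - h y‖ ≤ 3 * r := by
      intro i x hx y hy
      have h1 := hT i x hx y hy
      have h2 := hh x (T.sub i hx)
      have h3 := hh y (T.sub i hy)
      have e : h x - h y = (h x - f x) + (f x - f y) - (h y - f y) := by abel
      rw [e]
      refine (norm_sub_le _ _).trans ?_
      have := norm_add_le (h x - f x) (f x - f y)
      linarith
    set Z : ℕ → Set E := fun n => closedBall (h x) (6 * r + n * r) with hZdef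
    have hZ1 : ∀ i, Z i ⊆ Z (i + 1) := by
      intro i
      refine closedBall_subset_closedBall ?_
      push_cast
      nlinarith
    have hZ2 : ∀ i < 12 ^ 3, ∀ j', (Z i ∩ (D.B j').Y).Nonempty → (D.B j').Y ⊆ Z (i + 1) := by
      rintro n - j' ⟨y0, hy0, hy0'⟩ y hy
      have h1 : ‖y - y0‖ ≤ r := by
        refine hl j'.1 y y0 ?_
        rw [← bL_sub _ j'.2.1]
        refine (norm_sub_le _ _).trans ?_
        linarith [hbox _ _ hy, hbox _ _ hy0']
      rw [hZdef, mem_closedBall, dist_eq_norm] at hy0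
      show y ∈ closedBall (h x) (6 * r + ((n + 1 : ℕ) : ℝ) * r)
      rw [mem_closedBall, dist_eq_norm]
      have e : y - h x = (y - y0) + (y0 - h x) := by abel
      rw [e]
      refine (norm_add_le _ _).trans ?_
      push_cast
      linarith
    obtain ⟨hZa, -⟩ := hZ Z hZ1 hZ2
    have hcap := capture_cell h3 H hLa hΨ hz0O (B := Z (12 ^ 3)) (convex_closedBall _ _)
      isClosed_closedBall ⟨h x, mem_closedBall_self (by positivity)⟩ (by
        intro z hz y hy hyd hzy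
        refine hZa y hy hyd ?_
        rintro _ ⟨w, hw, rfl⟩
        rw [hcc] at hz
        obtain ⟨i', hi'⟩ := T.at_nonempty hy
        have h1 := hh2 i z hz x hi
        have h2 := hh2 i' w (T.cc_sub_tile hi' hw) z (T.cc_sub_tile hi' hzy)
        rw [hZdef, mem_closedBall, dist_eq_norm]
        have e : h w - h x = (h w - h z) + (h z - h x) := by abel
        rw [e]
        refine (norm_add_le _ _).trans ?_
        push_cast
        linarith) x (by rw [hcc]; exact hi)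
    rw [hZdef, mem_closedBall, dist_eq_norm] at hcap
    have h1 := hh (Ψ x) (hΨ.mapsTo hx)
    have h2 := hh x hx
    have e : f (Ψ x) - f x = (h (Ψ x) - h x) - (h (Ψ x) - f (Ψ x)) + (h x - f x) := by abel
    rw [e]
    refine (norm_add_le _ _).trans ?_
    have := norm_sub_le (h (Ψ x) - h x) (h (Ψ x) - f (Ψ x))
    push_cast at hcap
    linarith

end Crest.Agent.R096.Sk2_855
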