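import Mathlib
import Crest.Agent.R096.Sk2_962
import Crest.Agent.R96.Poi2_392

/-!
Row 96 (S0127), helper962.  SKEL96: singular value decomposition in dimension three, orthogonal
frames, transport of Sobolev homeomorphisms; `NO` in arbitrary frames.
-/

set_option autoImplicit false
set_option linter.unusedSectionVars false
set_option linter.style.longLine false

open MeasureTheory Set Filter Topology Metric
open scoped ENNReal Gradient NNReal ContDiff
open Crest.AnalysisR.VecCalc3 Crest.AnalysisR.Sobolev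
open Crest.Agent.R096.Str_696 (LocPL)
open Crest.Agent.R96.Acl_392

namespace Crest.Agent.R096.Sk_962

noncomputable section

/-- the coordinate vectors -/
abbrev ee (i : Fin 3) : R3 := EuclideanSpace.single i (1:ℝ)

theorem inner_ee (a : R3) (i : Fin 3) : inner ℝ a (ee i) = a i := inner_single a i

theorem ee_inner (a : R3) (i : Fin 3) : inner ℝ (ee i) a = a i := by
  rw [real_inner_comm, inner_ee]

theorem ext_inner_ee {a b : R3} (h : ∀ i, inner ℝ a (ee i) = inner ℝ b (ee i)) : a = b := by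
  ext i
  rw [← inner_ee a i, ← inner_ee b i, h]

/-- the linear map with rows `G` -/
def rowMap (G : Fin 3 → R3) : R3 →ₗ[ℝ] R3 where
  toFun v := WithLp.toLp 2 fun k => inner ℝ (G k) v
  map_add' v w := by ext k; simp [inner_add_right]
  map_smul' c v := by ext k; simp [inner_smul_right]

theorem rowMap_apply (G : Fin 3 → R3) (v : R3) (k : Fin 3) :
    rowMap G v k = inner ℝ (G k) v := rfl

/-- **singular value decomposition**, existence of the two frames -/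
theorem svd_lin (A : R3 →ₗ[ℝ] R3) : ∃ (R V : R3 ≃ₗᵢ[ℝ] R3) (s : Fin 3 → ℝ), (∀ i, 0 ≤ s i) ∧
    ∀ i, A (V (ee i)) = s i • R (ee i) := by
  classical
  have hn : Module.finrank ℝ R3 = 3 := by simp
  have hT : (LinearMap.adjoint A ∘ₗ A).IsSymmetric := LinearMap.isSymmetric_adjoint_mul_self A
  set v := hT.eigenvectorBasis hn with hv
  have hin : ∀ i j, i ≠ j → inner ℝ (A (v i)) (A (v j)) = 0 := by
    intro i j hij
    have h1 : inner ℝ (A (v i)) (A (v j)) = inner ℝ ((LinearMap.adjoint A ∘ₗ A) (v i)) (v j) := by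
      rw [LinearMap.comp_apply, LinearMap.adjoint_inner_left]
    rw [h1, hv, hT.apply_eigenvectorBasis hn i, inner_smul_left, ← hv, v.orthonormal.2 hij, mul_zero]
  set S : Set (Fin 3) := {i | A (v i) ≠ 0} with hS
  set w : Fin 3 → R3 := fun i => ‖A (v i)‖⁻¹ • A (v i) with hw
  have hon : Orthonormal ℝ (S.domRestrict w) := by
    constructor
    · rintro ⟨i, hi⟩
      have : ‖A (v i)‖ ≠ 0 := norm_ne_zero_iff.2 hi
      show ‖‖A (v i)‖⁻¹ • A (v i)‖ = 1
      rw [norm_smul, norm_inv, norm_norm]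
      exact inv_mul_cancel₀ this
    · rintro ⟨i, hi⟩ ⟨j, hj⟩ hij
      have hij' : i ≠ j := fun h => hij (Subtype.ext h)
      show inner ℝ (‖A (v i)‖⁻¹ • A (v i)) (‖A (v j)‖⁻¹ • A (v j)) = 0
      rw [inner_smul_left, inner_smul_right, hin i j hij', mul_zero, mul_zero]
  obtain ⟨b, hb⟩ := hon.exists_orthonormalBasis_extension_of_card_eq (ι := Fin 3) (by simp)
  refine ⟨b.repr.symm, v.repr.symm, fun i => ‖A (v i)‖, fun i => norm_nonneg _, fun i => ?_⟩
  have e1 : v.repr.symm (ee i) = v i := v.repr_symm_single i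
  have e2 : b.repr.symm (ee i) = b i := b.repr_symm_single i
  rw [e1, e2]
  by_cases hi : A (v i) = 0
  · simp [hi]
  · rw [hb i hi, hw]
    have : ‖A (v i)‖ ≠ 0 := norm_ne_zero_iff.2 hi
    simp only [smul_smul, mul_inv_cancel₀ this, one_smul]

/-- **singular value decomposition**, in terms of the rows -/
theorem svd (G : Fin 3 → R3) : ∃ (R V : R3 ≃ₗᵢ[ℝ] R3) (s : Fin 3 → ℝ), (∀ i, 0 ≤ s i) ∧
    ∀ i k, inner ℝ (G k) (V (ee i)) = s i * R (ee i) k := by
  obtain ⟨R, V, s, hs, h⟩ := svd_lin (rowMap G)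
  refine ⟨R, V, s, hs, fun i k => ?_⟩
  have := congrArg (fun z : R3 => z k) (h i)
  simpa [rowMap_apply] using this

/-! ### transformed rows -/

/-- the rows in the frames -/
def Tr (R V : R3 ≃ₗᵢ[ℝ] R3) (H : Fin 3 → R3) (j : Fin 3) : R3 :=
  V.symm (∑ k, R (ee j) k • H k)

/-- the inverse transformation -/
def Ti (R V : R3 ≃ₗᵢ[ℝ] R3) (H : Fin 3 → R3) (k : Fin 3) : R3 :=
  ∑ j, R (ee j) k • V (H j)

theorem Tr_sub (R V : R3 ≃ₗᵢ[ℝ] R3) (H H' : Fin 3 → R3) (j : Fin 3) :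
    Tr R V H j - Tr R V H' j = Tr R V (fun k => H k - H' k) j := by
  simp only [Tr, smul_sub, Finset.sum_sub_distrib, map_sub]

theorem Ti_sub (R V : R3 ≃ₗᵢ[ℝ] R3) (H H' : Fin 3 → R3) (k : Fin 3) :
    Ti R V H k - Ti R V H' k = Ti R V (fun j => H j - H' j) k := by
  simp only [Ti, map_sub, smul_sub, Finset.sum_sub_distrib]

theorem abs_ee_le (R : R3 ≃ₗᵢ[ℝ] R3) (j k : Fin 3) : |R (ee j) k| ≤ 1 := by
  have h1 := PiLp.norm_apply_le (R (ee j)) k
  rw [R.norm_map] at h1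
  simpa using h1

theorem norm_Tr_le (R V : R3 ≃ₗᵢ[ℝ] R3) (H : Fin 3 → R3) (j : Fin 3) :
    ‖Tr R V H j‖ ≤ ∑ k, ‖H k‖ := by
  rw [Tr, V.symm.norm_map]
  refine (norm_sum_le _ _).trans (Finset.sum_le_sum fun k _ => ?_)
  rw [norm_smul]
  exact mul_le_of_le_one_left (norm_nonneg _) (abs_ee_le R j k)

theorem norm_Ti_le (R V : R3 ≃ₗᵢ[ℝ] R3) (H : Fin 3 → R3) (k : Fin 3) :
    ‖Ti R V H k‖ ≤ ∑ j, ‖H j‖ := by
  rw [Ti]
  refine (norm_sum_le _ _).trans (Finset.sum_le_sum fun j _ => ?_)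
  rw [norm_smul, V.norm_map]
  exact mul_le_of_le_one_left (norm_nonneg _) (abs_ee_le R j k)

/-- the constant of the change of frame -/
def Cf (p : ℝ) : ℝ≥0∞ := 3 * 3 ^ p

theorem sum_rpow_le {p : ℝ} (hp : 0 ≤ p) {H T : Fin 3 → R3} (h : ∀ j, ‖T j‖ ≤ ∑ k, ‖H k‖) :
    ∑ j, ‖T j‖ₑ ^ p ≤ Cf p * ∑ k, ‖H k‖ₑ ^ p := by
  have h1 : ∀ j, ‖T j‖ₑ ^ p ≤ 3 ^ p * ∑ k, ‖H k‖ₑ ^ p := by
    intro j
    have h2 : ‖T j‖ₑ ≤ ‖H 0‖ₑ + ‖H 1‖ₑ + ‖H 2‖ₑ := by
      have h3 := h j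
      rw [Fin.sum_univ_three] at h3
      simp only [← ofReal_norm]
      rw [← ENNReal.ofReal_add (norm_nonneg _) (norm_nonneg _),
        ← ENNReal.ofReal_add (by positivity) (norm_nonneg _)]
      exact ENNReal.ofReal_le_ofReal h3
    rw [Fin.sum_univ_three]
    exact (ENNReal.rpow_le_rpow h2 hp).trans
      (Crest.Agent.R96.Poi_392.add_three_rpow_le hp _ _ _)
  calc ∑ j, ‖T j‖ₑ ^ p ≤ ∑ _j : Fin 3, 3 ^ p * ∑ k, ‖H k‖ₑ ^ p := Finset.sum_le_sum fun j _ => h1 j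
    _ = Cf p * ∑ k, ‖H k‖ₑ ^ p := by
        rw [Finset.sum_const, Finset.card_univ, Fintype.card_fin, nsmul_eq_mul, Cf, mul_assoc]
        norm_num

theorem Cf_ne_top {p : ℝ} (hp : 0 ≤ p) : Cf p ≠ ⊤ := by
  rw [Cf]
  exact ENNReal.mul_ne_top (by simp) (ENNReal.rpow_ne_top_of_nonneg hp (by simp))

theorem Cf_ne_zero {p : ℝ} : Cf p ≠ 0 := by
  rw [Cf]
  have : (3:ℝ≥0∞) ^ p ≠ 0 := by
    simp [ENNReal.rpow_eq_zero_iff]
  exact mul_ne_zero (by simp) this

end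

end Crest.Agent.R096.Sk_962
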