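import Mathlib
import Crest.Agent.R096.Sk2b_962
import Crest.Agent.R096.Sk3_962
import Crest.Agent.R96.Sob8_199

/-!
Row 96 (S0127), helper962.  SKEL96: frames.  `Φ u = x + r V u`, `f~ = r⁻¹ R⁻¹ f (Φ u)`.
-/

set_option autoImplicit false
set_option linter.unusedSectionVars false
set_option linter.style.longLine false

open MeasureTheory Set Filter Topology Metric
open scoped ENNReal Gradient NNReal ContDiff
open Crest.AnalysisR.VecCalc3 Crest.AnalysisR.Sobolev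
open Crest.Agent.R096.Str_696 (LocPL)
open Crest.Agent.R96.Acl_392
open Crest.Agent.R96.Sob8_199 (aff fac map_aff fac_ne_zero fac_ne_top)

namespace Crest.Agent.R096.Sk_962

noncomputable section

/-! ### homeomorphisms -/

theorem homeo_conj {h : R3 → R3} {A B : Set R3} (H : IsHomeomorphOn h A B) (a b : R3 ≃ₜ R3) :
    IsHomeomorphOn (fun y => b (h (a.symm y))) (a '' A) (b '' B) := by
  obtain ⟨hinv, h1, h2, h3, h4, h5, h6⟩ := H
  refine ⟨fun z => a (hinv (b.symm z)), ?_, ?_, ?_, ?_, ?_, ?_⟩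
  · rintro _ ⟨x, hx, rfl⟩
    simp only [Homeomorph.symm_apply_apply]
    exact ⟨h x, h1 hx, rfl⟩
  · rintro _ ⟨x, hx, rfl⟩
    simp only [Homeomorph.symm_apply_apply]
    exact ⟨hinv x, h2 hx, rfl⟩
  · rintro _ ⟨x, hx, rfl⟩
    simp only [Homeomorph.symm_apply_apply, h3 x hx]
  · rintro _ ⟨x, hx, rfl⟩
    simp only [Homeomorph.symm_apply_apply, h4 x hx]
  · apply b.continuous.comp_continuousOn
    refine h5.comp a.symm.continuous.continuousOn ?_
    rintro _ ⟨x, hx, rfl⟩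
    simpa using hx
  · apply a.continuous.comp_continuousOn
    refine h6.comp b.symm.continuous.continuousOn ?_
    rintro _ ⟨x, hx, rfl⟩
    simpa using hx

theorem homeo_congr {h h' : R3 → R3} {A B : Set R3} (H : IsHomeomorphOn h A B)
    (he : EqOn h' h A) : IsHomeomorphOn h' A B := by
  obtain ⟨hinv, h1, h2, h3, h4, h5, h6⟩ := H
  refine ⟨hinv, fun x hx => ?_, h2, fun x hx => ?_, fun y hy => ?_, h5.congr he, h6⟩
  · rw [he hx]; exact h1 hx
  · rw [he hx]; exact h3 x hx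
  · rw [he (h2 hy)]; exact h4 y hy

/-- restriction of a homeomorphism -/
theorem homeo_restrict {h : R3 → R3} {A B D : Set R3} (H : IsHomeomorphOn h A B) (hD : D ⊆ A) :
    IsHomeomorphOn h D (h '' D) := by
  obtain ⟨hinv, h1, h2, h3, h4, h5, h6⟩ := H
  refine ⟨hinv, mapsTo_image h D, ?_, fun x hx => h3 x (hD hx), ?_, h5.mono hD, h6.mono ?_⟩
  · rintro _ ⟨x, hx, rfl⟩
    rw [h3 x (hD hx)]; exact hx
  · rintro _ ⟨x, hx, rfl⟩
    rw [h3 x (hD hx)]
  · rintro _ ⟨x, hx, rfl⟩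
    exact h1 (hD hx)

/-! ### the frame maps -/

/-- `u ↦ r V u` as a continuous linear equivalence -/
def AL (V : R3 ≃ₗᵢ[ℝ] R3) {r : ℝ} (hr : 0 < r) : R3 ≃L[ℝ] R3 :=
  V.toContinuousLinearEquiv.trans (ContinuousLinearEquiv.smulLeft (Units.mk0 r hr.ne'))

theorem AL_apply (V : R3 ≃ₗᵢ[ℝ] R3) {r : ℝ} (hr : 0 < r) (u : R3) : AL V hr u = r • V u := rfl

theorem AL_symm_apply (V : R3 ≃ₗᵢ[ℝ] R3) {r : ℝ} (hr : 0 < r) (y : R3) :
    (AL V hr).symm y = r⁻¹ • V.symm y := by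
  rw [ContinuousLinearEquiv.symm_apply_eq, AL_apply, map_smul, smul_smul,
    mul_inv_cancel₀ hr.ne', one_smul, LinearIsometryEquiv.apply_symm_apply]

/-- the frame map `u ↦ x + r V u` -/
def Ph (V : R3 ≃ₗᵢ[ℝ] R3) (x : R3) {r : ℝ} (hr : 0 < r) : R3 ≃ₜ R3 := aff x (AL V hr)

theorem Ph_apply (V : R3 ≃ₗᵢ[ℝ] R3) (x : R3) {r : ℝ} (hr : 0 < r) (u : R3) :
    Ph V x hr u = x + r • V u := rfl

theorem Ph_symm_apply (V : R3 ≃ₗᵢ[ℝ] R3) (x : R3) {r : ℝ} (hr : 0 < r) (y : R3) :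
    (Ph V x hr).symm y = r⁻¹ • V.symm (y - x) := by
  rw [Homeomorph.symm_apply_eq, Ph_apply, map_smul, smul_smul, mul_inv_cancel₀ hr.ne', one_smul,
    LinearIsometryEquiv.apply_symm_apply, add_sub_cancel]

theorem image_Q0 (V : R3 ≃ₗᵢ[ℝ] R3) (x : R3) {r : ℝ} (hr : 0 < r) :
    Ph V x hr '' Q0 = Ko V x r := by
  ext y
  simp only [mem_image, Ko, mem_ofPred_eq, Ph_apply]
  exact exists_congr fun u => and_congr_right fun _ => eq_comm

theorem image_Qc0 (V : R3 ≃ₗᵢ[ℝ] R3) (x : R3) {r : ℝ} (hr : 0 < r) :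
    Ph V x hr '' Qc0 = Kc V x r := by
  ext y
  simp only [mem_image, Kc, mem_ofPred_eq, Ph_apply]
  exact exists_congr fun u => and_congr_right fun _ => eq_comm

theorem isOpen_Q0 : IsOpen Q0 := by
  have h : Q0 = ⋂ i : Fin 3, {x : R3 | |x i| < 1} := by
    ext x; simp [Q0]
  rw [h]
  apply isOpen_iInter_of_finite
  intro i
  have h1 : Continuous (fun x : R3 => |x i|) :=
    (EuclideanSpace.proj (𝕜 := ℝ) i : R3 →L[ℝ] ℝ).continuous.abs
  exact isOpen_lt h1 continuous_const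

theorem isClosed_Qc0 : IsClosed Qc0 := by
  have h : Qc0 = ⋂ i : Fin 3, {x : R3 | |x i| ≤ 1} := by
    ext x; simp [Qc0]
  rw [h]
  apply isClosed_iInter
  intro i
  have h1 : Continuous (fun x : R3 => |x i|) :=
    (EuclideanSpace.proj (𝕜 := ℝ) i : R3 →L[ℝ] ℝ).continuous.abs
  exact isClosed_le h1 continuous_const

theorem Q0_subset : Q0 ⊆ Qc0 := fun _ hx i => (hx i).le

theorem norm_le_of_Qc0 {x : R3} (hx : x ∈ Qc0) : ‖x‖ ≤ 2 := by
  rw [EuclideanSpace.norm_eq]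
  apply Real.sqrt_le_iff.2
  refine ⟨by norm_num, ?_⟩
  rw [Fin.sum_univ_three]
  have h : ∀ i, ‖x i‖ ^ 2 ≤ 1 := by
    intro i
    have h1 := hx i
    rw [Real.norm_eq_abs]
    have h2 := abs_nonneg (x i)
    nlinarith
  have h0 := h 0
  have h1 := h 1
  have h2 := h 2
  linarith

theorem isBounded_Qc0 : Bornology.IsBounded Qc0 := by
  rw [isBounded_iff_forall_norm_le]
  exact ⟨2, fun x hx => norm_le_of_Qc0 hx⟩

theorem isCompact_Qc0 : IsCompact Qc0 :=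
  Metric.isCompact_of_isClosed_isBounded isClosed_Qc0 isBounded_Qc0

theorem closure_Q0 : closure Q0 = Qc0 := by
  apply Subset.antisymm (closure_minimal Q0_subset isClosed_Qc0)
  intro x hx
  rw [mem_closure_iff_seq_limit]
  refine ⟨fun n : ℕ => (1 - 1 / ((n:ℝ) + 1)) • x, fun n i => ?_, ?_⟩
  · have h1 : 0 < 1 / ((n:ℝ) + 1) := by positivity
    have h2 : 1 / ((n:ℝ) + 1) ≤ 1 := by
      rw [div_le_one (by positivity)]
      have : (0:ℝ) ≤ n := Nat.cast_nonneg _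
      linarith
    have h3 := hx i
    simp only [PiLp.smul_apply, smul_eq_mul, abs_mul]
    rw [abs_of_nonneg (by linarith)]
    have h4 := abs_nonneg (x i)
    nlinarith
  · have h1 := tendsto_one_div_add_atTop_nhds_zero_nat (𝕜 := ℝ)
    have h2 := (h1.const_sub 1).smul_const x
    simpa using h2

theorem isOpen_Ko (V : R3 ≃ₗᵢ[ℝ] R3) (x : R3) {r : ℝ} (hr : 0 < r) : IsOpen (Ko V x r) := by
  rw [← image_Q0 V x hr]
  exact (Ph V x hr).isOpenMap _ isOpen_Q0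

theorem isCompact_Kc' (V : R3 ≃ₗᵢ[ℝ] R3) (x : R3) {r : ℝ} (hr : 0 < r) : IsCompact (Kc V x r) := by
  rw [← image_Qc0 V x hr]
  exact isCompact_Qc0.image (Ph V x hr).continuous

theorem closure_Ko (V : R3 ≃ₗᵢ[ℝ] R3) (x : R3) {r : ℝ} (hr : 0 < r) :
    closure (Ko V x r) = Kc V x r := by
  rw [← image_Q0 V x hr, ← image_Qc0 V x hr, ← (Ph V x hr).image_closure, closure_Q0]

theorem Ko_subset_Kc (V : R3 ≃ₗᵢ[ℝ] R3) (x : R3) (r : ℝ) : Ko V x r ⊆ Kc V x r := by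
  rintro y ⟨u, hu, rfl⟩
  exact ⟨u, Q0_subset hu, rfl⟩

/-- change of variables, lower integrals, no measurability -/
theorem lintegral_Ph (V : R3 ≃ₗᵢ[ℝ] R3) (x : R3) {r : ℝ} (hr : 0 < r) (S : Set R3)
    (F : R3 → ℝ≥0∞) :
    ∫⁻ u in S, F (Ph V x hr u) = fac (AL V hr) * ∫⁻ y in Ph V x hr '' S, F y := by
  have h1 : Measure.map (Ph V x hr) volume = fac (AL V hr) • volume := map_aff x (AL V hr)
  have h2 : (Ph V x hr) ⁻¹' (Ph V x hr '' S) = S := preimage_image_eq S (Ph V x hr).injective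
  have hme := (Ph V x hr).measurableEmbedding
  have h3 : Measure.map (Ph V x hr) (volume.restrict S) =
      (Measure.map (Ph V x hr) volume).restrict (Ph V x hr '' S) := by
    rw [hme.restrict_map, h2]
  rw [← hme.lintegral_map, h3, h1, Measure.restrict_smul, lintegral_smul_measure, smul_eq_mul]

theorem vol_Ph (V : R3 ≃ₗᵢ[ℝ] R3) (x : R3) {r : ℝ} (hr : 0 < r) (S : Set R3) :
    volume S = fac (AL V hr) * volume (Ph V x hr '' S) := by
  have := lintegral_Ph V x hr S (fun _ => 1)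
  simpa using this

/-! ### the map and the rows in the frame -/

/-- `f~ = (r R)⁻¹ ∘ f ∘ Φ` -/
def ft (R V : R3 ≃ₗᵢ[ℝ] R3) (x : R3) {r : ℝ} (hr : 0 < r) (f : R3 → R3) (u : R3) : R3 :=
  (AL R hr).symm (f (Ph V x hr u))

/-- the rows of `f~` -/
def Gt (R V : R3 ≃ₗᵢ[ℝ] R3) (x : R3) {r : ℝ} (hr : 0 < r) (G : Fin 3 → R3 → R3) (j : Fin 3)
    (u : R3) : R3 :=
  Tr R V (fun k => G k (Ph V x hr u)) j

theorem isom_symm_apply (R : R3 ≃ₗᵢ[ℝ] R3) (w : R3) (j : Fin 3) :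
    R.symm w j = ∑ k, R (ee j) k * w k := by
  rw [← inner_ee, ← R.inner_map_map, R.apply_symm_apply, real_inner_comm]
  simp [PiLp.inner_apply, mul_comm]

theorem isom_apply (R : R3 ≃ₗᵢ[ℝ] R3) (w : R3) (k : Fin 3) :
    R w k = ∑ j, R (ee j) k * w j := by
  have h2 : w = ∑ j, w j • ee j := by
    ext i
    simp [Pi.single_apply]
  conv_lhs => rw [h2, map_sum]
  rw [WithLp.ofLp_sum, Finset.sum_apply]
  apply Finset.sum_congr rfl
  intro j _
  rw [map_smul]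
  simp [mul_comm]

theorem adjoint_AL (V : R3 ≃ₗᵢ[ℝ] R3) {r : ℝ} (hr : 0 < r) (w : R3) :
    ContinuousLinearMap.adjoint (AL V hr : R3 →L[ℝ] R3) w = r • V.symm w := by
  apply ext_inner_right ℝ
  intro z
  rw [ContinuousLinearMap.adjoint_inner_left, inner_smul_left]
  have h1 : (AL V hr : R3 →L[ℝ] R3) z = r • V z := rfl
  rw [h1, inner_smul_right, ← V.inner_map_map (V.symm w) z, V.apply_symm_apply]
  simp

theorem frame_wg {R V : R3 ≃ₗᵢ[ℝ] R3} {x : R3} {r : ℝ} (hr : 0 < r) {Om : Set R3}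
    (hOm : IsOpen Om) {f : R3 → R3} {G : Fin 3 → R3 → R3}
    (h : ∀ j, HasWeakGradOn Om (fun x => f x j) (G j)) (j : Fin 3) :
    HasWeakGradOn (Ph V x hr ⁻¹' Om) (fun u => ft R V x hr f u j) (Gt R V x hr G j) := by
  have h1 := Crest.Agent.R96.Sob8_199.grad_similarity hOm h x 0 (AL V hr)
    ((AL R hr).symm : R3 →L[ℝ] R3) j
  have h2 : (fun u => ft R V x hr f u j) = fun u =>
      (((AL R hr).symm : R3 →L[ℝ] R3) (f (aff x (AL V hr) u)) + (0 : R3)) j := by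
    funext u
    rw [add_zero]
    rfl
  have h3 : Gt R V x hr G j = fun u =>
      ∑ k, ((AL R hr).symm : R3 →L[ℝ] R3) (EuclideanSpace.single k 1) j •
        ContinuousLinearMap.adjoint (AL V hr : R3 →L[ℝ] R3) (G k (aff x (AL V hr) u)) := by
    funext u
    rw [Gt, Tr, map_sum]
    apply Finset.sum_congr rfl
    intro k _
    rw [adjoint_AL, map_smul, smul_smul]
    congr 1
    have h4 : ((AL R hr).symm : R3 →L[ℝ] R3) (EuclideanSpace.single k 1) = r⁻¹ • R.symm (ee k) :=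
      AL_symm_apply R hr (ee k)
    rw [h4, PiLp.smul_apply, smul_eq_mul, isom_symm_apply]
    have h5 : ∑ l, R (ee j) l * (ee k) l = R (ee j) k := by
      simp
    rw [h5]
    field_simp
  rw [h2, h3]
  exact h1

theorem memLp_Ph {F : Type*} [NormedAddCommGroup F] {V : R3 ≃ₗᵢ[ℝ] R3} {x : R3} {r : ℝ}
    (hr : 0 < r) {Om : Set R3} {q : ℝ≥0∞} {g : R3 → F} (hg : MemLp g q (volume.restrict Om)) :
    MemLp (fun u => g (Ph V x hr u)) q (volume.restrict (Ph V x hr ⁻¹' Om)) := by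
  have hme := (Ph V x hr).measurableEmbedding
  have h1 : Measure.map (Ph V x hr) volume = fac (AL V hr) • volume := map_aff x (AL V hr)
  have h3 : Measure.map (Ph V x hr) (volume.restrict (Ph V x hr ⁻¹' Om)) =
      fac (AL V hr) • (volume.restrict Om) := by
    rw [← hme.restrict_map, h1, Measure.restrict_smul]
  have h4 : MemLp g q (Measure.map (Ph V x hr) (volume.restrict (Ph V x hr ⁻¹' Om))) := by
    rw [h3]
    exact hg.smul_measure (fac_ne_top _)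
  exact (hme.memLp_map_measure_iff).1 h4

/-- **transport of a Sobolev homeomorphism to the frame** -/
theorem frame_SH {p : ℝ} {R V : R3 ≃ₗᵢ[ℝ] R3} {x : R3} {r : ℝ} (hr : 0 < r) {Om La : Set R3}
    (hOm : IsOpen Om) {f : R3 → R3} {G : Fin 3 → R3 → R3} (H : SH p Om La f G) :
    SH p (Ph V x hr ⁻¹' Om) ((AL R hr).toHomeomorph ⁻¹' La) (ft R V x hr f)
      (Gt R V x hr G) := by
  refine ⟨?_, ?_, frame_wg hr hOm H.wg, fun j => ?_⟩
  · have h1 := homeo_conj H.homeo (Ph V x hr).symm (AL R hr).toHomeomorph.symm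
    rw [Homeomorph.image_symm, Homeomorph.image_symm] at h1
    exact h1
  · have h1 := memLp_Ph (V := V) (x := x) hr H.mem
    exact ((AL R hr).symm : R3 →L[ℝ] R3).comp_memLp' h1
  · have h1 : ∀ k, MemLp (fun u => R (ee j) k • G k (Ph V x hr u)) (ENNReal.ofReal p)
        (volume.restrict (Ph V x hr ⁻¹' Om)) := fun k =>
      (memLp_Ph (V := V) (x := x) hr (H.memG k)).const_smul (R (ee j) k)
    have h2 : MemLp (fun u => ∑ k, R (ee j) k • G k (Ph V x hr u)) (ENNReal.ofReal p)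
        (volume.restrict (Ph V x hr ⁻¹' Om)) := memLp_finsetSum Finset.univ fun k _ => h1 k
    exact ((V.symm.toContinuousLinearEquiv : R3 ≃L[ℝ] R3) : R3 →L[ℝ] R3).comp_memLp' h2

/-! ### diagonal frames -/

/-- the frames diagonalise the rows `A` -/
def Diag (R V : R3 ≃ₗᵢ[ℝ] R3) (s : Fin 3 → ℝ) (A : Fin 3 → R3) : Prop :=
  ∀ i k, inner ℝ (A k) (V (ee i)) = s i * R (ee i) k

theorem Tr_diag {R V : R3 ≃ₗᵢ[ℝ] R3} {s : Fin 3 → ℝ} {A : Fin 3 → R3} (h : Diag R V s A)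
    (j : Fin 3) : Tr R V A j = dg s j := by
  apply ext_inner_ee
  intro i
  have e1 : inner ℝ (Tr R V A j) (ee i) = ∑ k, R (ee j) k * inner ℝ (A k) (V (ee i)) := by
    rw [Tr, ← V.inner_map_map, V.apply_symm_apply, sum_inner]
    apply Finset.sum_congr rfl
    intro k _
    rw [inner_smul_left]
    simp
  have e2 : ∑ k, R (ee j) k * inner ℝ (A k) (V (ee i)) = s i * inner ℝ (R (ee i)) (R (ee j)) := by
    rw [PiLp.inner_apply, Finset.mul_sum]
    apply Finset.sum_congr rfl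
    intro k _
    rw [h i k]
    simp
    ring
  rw [e1, e2, R.inner_map_map, inner_ee, inner_ee, dg]
  by_cases hij : i = j
  · subst hij; simp
  · simp [hij]

theorem Ti_Tr (R V : R3 ≃ₗᵢ[ℝ] R3) (A : Fin 3 → R3) (k : Fin 3) : Ti R V (Tr R V A) k = A k := by
  have h1 : ∀ j, V (Tr R V A j) = ∑ l, R (ee j) l • A l := fun j => by
    rw [Tr, V.apply_symm_apply]
  simp only [Ti, h1, Finset.smul_sum, smul_smul]
  rw [Finset.sum_comm]
  have h2 : ∀ l, ∑ j, R (ee j) k * R (ee j) l = inner ℝ (ee k) (ee l) := by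
    intro l
    rw [← R.symm.inner_map_map, PiLp.inner_apply]
    apply Finset.sum_congr rfl
    intro j _
    rw [isom_symm_apply, isom_symm_apply]
    have h5 : ∀ m, ∑ i, R (ee j) i * (ee m) i = R (ee j) m := by
      intro m
      simp
    rw [h5, h5]
    simp [mul_comm]
  have h3 : ∀ l, ∑ j, (R (ee j) k * R (ee j) l) • A l = (inner ℝ (ee k) (ee l) : ℝ) • A l := by
    intro l
    rw [← Finset.sum_smul, h2 l]
  simp only [h3]
  rw [Finset.sum_eq_single k]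
  · rw [inner_ee]; simp
  · intro l _ hl
    rw [inner_ee]
    simp [Ne.symm hl]
  · intro h; exact absurd (Finset.mem_univ k) h

theorem Ti_dg {R V : R3 ≃ₗᵢ[ℝ] R3} {s : Fin 3 → ℝ} {A : Fin 3 → R3} (h : Diag R V s A)
    (k : Fin 3) : Ti R V (dg s) k = A k := by
  have h1 : dg s = Tr R V A := by
    funext j
    exact (Tr_diag h j).symm
  rw [h1, Ti_Tr]

/-- **energy, forward** -/
theorem energy_fwd {p : ℝ} (hp : 0 ≤ p) {R V : R3 ≃ₗᵢ[ℝ] R3} {s : Fin 3 → ℝ} {A : Fin 3 → R3}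
    (h : Diag R V s A) {x : R3} {r : ℝ} (hr : 0 < r) (G : Fin 3 → R3 → R3) :
    ∫⁻ u in Q0, ∑ j, ‖Gt R V x hr G j u - dg s j‖ₑ ^ p ≤
      Cf p * (fac (AL V hr) * ∫⁻ y in Ko V x r, ∑ k, ‖G k y - A k‖ₑ ^ p) := by
  have h1 : ∀ u, ∑ j, ‖Gt R V x hr G j u - dg s j‖ₑ ^ p ≤
      Cf p * ∑ k, ‖G k (Ph V x hr u) - A k‖ₑ ^ p := by
    intro u
    have h2 : ∀ j, Gt R V x hr G j u - dg s j =
        Tr R V (fun k => G k (Ph V x hr u) - A k) j := by
      intro j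
      rw [Gt, ← Tr_diag h j, Tr_sub]
    simp only [h2]
    exact sum_rpow_le hp fun j => norm_Tr_le R V _ j
  calc ∫⁻ u in Q0, ∑ j, ‖Gt R V x hr G j u - dg s j‖ₑ ^ p
      ≤ ∫⁻ u in Q0, Cf p * ∑ k, ‖G k (Ph V x hr u) - A k‖ₑ ^ p := lintegral_mono h1
    _ = Cf p * ∫⁻ u in Q0, ∑ k, ‖G k (Ph V x hr u) - A k‖ₑ ^ p :=
        lintegral_const_mul' _ _ (Cf_ne_top hp)
    _ = _ := by
        rw [lintegral_Ph V x hr Q0 (fun y => ∑ k, ‖G k y - A k‖ₑ ^ p), image_Q0]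

/-! ### transport back -/

/-- `g = (r R) ∘ g~ ∘ Φ⁻¹` -/
def gb (R V : R3 ≃ₗᵢ[ℝ] R3) (x : R3) {r : ℝ} (hr : 0 < r) (g : R3 → R3) (y : R3) : R3 :=
  AL R hr (g ((Ph V x hr).symm y))

theorem gb_Ph (R V : R3 ≃ₗᵢ[ℝ] R3) (x : R3) {r : ℝ} (hr : 0 < r) (g : R3 → R3) (u : R3) :
    gb R V x hr g (Ph V x hr u) = AL R hr (g u) := by
  rw [gb, Homeomorph.symm_apply_apply]

theorem AL_ft (R V : R3 ≃ₗᵢ[ℝ] R3) (x : R3) {r : ℝ} (hr : 0 < r) (f : R3 → R3) (u : R3) :
    AL R hr (ft R V x hr f u) = f (Ph V x hr u) := by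
  rw [ft, ContinuousLinearEquiv.apply_symm_apply]

theorem gb_sub (R V : R3 ≃ₗᵢ[ℝ] R3) (x : R3) {r : ℝ} (hr : 0 < r) (f g : R3 → R3) (u : R3) :
    gb R V x hr g (Ph V x hr u) - f (Ph V x hr u) = AL R hr (g u - ft R V x hr f u) := by
  rw [gb_Ph, map_sub, AL_ft]

theorem norm_gb_sub (R V : R3 ≃ₗᵢ[ℝ] R3) (x : R3) {r : ℝ} (hr : 0 < r) (f g : R3 → R3) (u : R3) :
    ‖gb R V x hr g (Ph V x hr u) - f (Ph V x hr u)‖ = r * ‖g u - ft R V x hr f u‖ := by
  rw [gb_sub, AL_apply, norm_smul, R.norm_map, Real.norm_of_nonneg hr.le]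

theorem homeo_back {R V : R3 ≃ₗᵢ[ℝ] R3} {x : R3} {r : ℝ} (hr : 0 < r) {f g : R3 → R3}
    (h : IsHomeomorphOn g Q0 (ft R V x hr f '' Q0)) :
    IsHomeomorphOn (gb R V x hr g) (Ko V x r) (f '' Ko V x r) := by
  have h1 := homeo_conj h (Ph V x hr) (AL R hr).toHomeomorph
  rw [image_Q0] at h1
  have h2 : (AL R hr).toHomeomorph '' (ft R V x hr f '' Q0) = f '' Ko V x r := by
    rw [← image_Q0 V x hr, image_image, image_image]
    apply image_congr
    intro u _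
    exact AL_ft R V x hr f u
  rw [h2] at h1
  exact h1

theorem locPL_back {R V : R3 ≃ₗᵢ[ℝ] R3} {x : R3} {r : ℝ} (hr : 0 < r) {g : R3 → R3}
    (h : LocPL g Q0) : LocPL (gb R V x hr g) (Ko V x r) := by
  classical
  rw [← image_Q0 V x hr]
  rintro _ ⟨u, hu, rfl⟩
  obtain ⟨ρ, hρ, S, hc, hsel⟩ := h u hu
  have h1 : (Ph V x hr).symm ⁻¹' ball u ρ ∈ 𝓝 (Ph V x hr u) := by
    apply (Ph V x hr).symm.continuous.continuousAt.preimage_mem_nhds
    rw [Homeomorph.symm_apply_apply]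
    exact ball_mem_nhds u hρ
  obtain ⟨ρ', hρ', hsub⟩ := Metric.mem_nhds_iff.1 h1
  set a : R3 →ᵃ[ℝ] R3 := AffineMap.mk' (fun y => (Ph V x hr).symm y)
    ((AL V hr).symm : R3 →L[ℝ] R3).toLinearMap x (fun y => by
      simp only [Ph_symm_apply, vsub_eq_sub, vadd_eq_add, sub_self, map_zero, smul_zero, add_zero]
      exact (AL_symm_apply V hr (y - x)).symm) with ha
  set b : R3 →ᵃ[ℝ] R3 := ((AL R hr : R3 →L[ℝ] R3).toLinearMap).toAffineMap with hb
  refine ⟨ρ', hρ', S.image (fun g => b.comp (g.comp a)), ?_, ?_⟩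
  · apply (AL R hr).continuous.comp_continuousOn
    exact hc.comp (Ph V x hr).symm.continuous.continuousOn hsub
  · intro y hy
    obtain ⟨g0, hg0, hg0'⟩ := hsel _ (hsub hy)
    refine ⟨b.comp (g0.comp a), Finset.mem_image_of_mem _ hg0, ?_⟩
    rw [gb, hg0']
    rfl

theorem bdZero_back {R V : R3 ≃ₗᵢ[ℝ] R3} {x : R3} {r : ℝ} (hr : 0 < r) {f g : R3 → R3}
    (h : BdZero Q0 g (ft R V x hr f)) : BdZero (Ko V x r) (gb R V x hr g) f := by
  intro z hz
  rw [← image_Q0 V x hr, ← (Ph V x hr).image_frontier] at hz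
  obtain ⟨u, hu, rfl⟩ := hz
  have h1 := h u hu
  have h2 : Tendsto (Ph V x hr).symm (𝓝[Ko V x r] (Ph V x hr u)) (𝓝[Q0] u) := by
    apply tendsto_nhdsWithin_iff.2
    constructor
    · have := (Ph V x hr).symm.continuous.continuousAt (x := Ph V x hr u)
      rw [ContinuousAt, Homeomorph.symm_apply_apply] at this
      exact this.mono_left nhdsWithin_le_nhds
    · filter_upwards [self_mem_nhdsWithin] with y hy
      rw [← image_Q0 V x hr] at hy
      obtain ⟨w, hw, rfl⟩ := hy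
      simpa using hw
  have h3 := (AL R hr).continuous.continuousAt (x := (0 : R3))
  rw [ContinuousAt, map_zero] at h3
  have h4 := h3.comp (h1.comp h2)
  refine h4.congr fun y => ?_
  have h5 := gb_sub R V x hr f g ((Ph V x hr).symm y)
  rw [Homeomorph.apply_symm_apply] at h5
  simp only [Function.comp]
  rw [h5]

theorem fderiv_comp_apply {h : R3 → R3} {z : R3} (hd : DifferentiableAt ℝ h z) (k : Fin 3)
    (v : R3) : fderiv ℝ (fun y => h y k) z v = fderiv ℝ h z v k := by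
  have h1 : HasFDerivAt (fun y => h y k)
      ((EuclideanSpace.proj (𝕜 := ℝ) k : R3 →L[ℝ] ℝ).comp (fderiv ℝ h z)) z :=
    (EuclideanSpace.proj (𝕜 := ℝ) k : R3 →L[ℝ] ℝ).hasFDerivAt.comp z hd.hasFDerivAt
  rw [h1.fderiv]
  rfl

/-- rows of the map transported back -/
theorem Gr_gb {R V : R3 ≃ₗᵢ[ℝ] R3} {x : R3} {r : ℝ} (hr : 0 < r) {g : R3 → R3} {u : R3}
    (hd : DifferentiableAt ℝ g u) (k : Fin 3) :
    Gr (gb R V x hr g) k (Ph V x hr u) = Ti R V (fun j => Gr g j u) k := by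
  have hsymm : HasFDerivAt (fun y => (Ph V x hr).symm y) ((AL V hr).symm : R3 →L[ℝ] R3)
      (Ph V x hr u) := by
    have h1 : (fun y => (Ph V x hr).symm y) = fun y => ((AL V hr).symm : R3 →L[ℝ] R3) (y - x) := by
      funext y
      rw [Ph_symm_apply]
      exact (AL_symm_apply V hr (y - x)).symm
    rw [h1]
    have h2 : HasFDerivAt (fun y : R3 => y - x) (ContinuousLinearMap.id ℝ R3) (Ph V x hr u) :=
      (hasFDerivAt_id _).sub_const x
    have h3 := ((AL V hr).symm : R3 →L[ℝ] R3).hasFDerivAt (x := Ph V x hr u - x)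
    have h4 := h3.comp (Ph V x hr u) h2
    rw [ContinuousLinearMap.comp_id] at h4
    exact h4
  have hg : HasFDerivAt g (fderiv ℝ g u) ((Ph V x hr).symm (Ph V x hr u)) := by
    rw [Homeomorph.symm_apply_apply]; exact hd.hasFDerivAt
  have h5 := hg.comp (Ph V x hr u) hsymm
  have h6 := ((AL R hr : R3 →L[ℝ] R3).hasFDerivAt
    (x := g ((Ph V x hr).symm (Ph V x hr u)))).comp (Ph V x hr u) h5
  have h7 : HasFDerivAt (gb R V x hr g)
      ((AL R hr : R3 →L[ℝ] R3).comp ((fderiv ℝ g u).comp ((AL V hr).symm : R3 →L[ℝ] R3)))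
      (Ph V x hr u) := h6
  apply ext_inner_right ℝ
  intro v
  rw [Gr, gradient_apply, fderiv_comp_apply h7.differentiableAt, h7.fderiv]
  have h8 : ((AL R hr : R3 →L[ℝ] R3).comp ((fderiv ℝ g u).comp
      ((AL V hr).symm : R3 →L[ℝ] R3))) v = R (fderiv ℝ g u (V.symm v)) := by
    have e1 : ((AL V hr).symm : R3 →L[ℝ] R3) v = r⁻¹ • V.symm v := AL_symm_apply V hr v
    rw [ContinuousLinearMap.comp_apply, ContinuousLinearMap.comp_apply, e1, map_smul, map_smul]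
    have e2 : (AL R hr : R3 →L[ℝ] R3) (fderiv ℝ g u (V.symm v)) =
        r • R (fderiv ℝ g u (V.symm v)) := rfl
    rw [e2, smul_smul, inv_mul_cancel₀ hr.ne', one_smul]
  rw [h8, isom_apply, Ti, sum_inner]
  apply Finset.sum_congr rfl
  intro j _
  have e3 : inner ℝ (V (Gr g j u)) v = inner ℝ (Gr g j u) (V.symm v) := by
    rw [← V.inner_map_map (Gr g j u) (V.symm v), V.apply_symm_apply]
  rw [inner_smul_left, e3, ← fderiv_comp_apply hd j, ← gradient_apply]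
  simp [Gr]

/-- **energy, back** -/
theorem energy_back {p : ℝ} (hp : 0 ≤ p) {R V : R3 ≃ₗᵢ[ℝ] R3} {s : Fin 3 → ℝ} {A : Fin 3 → R3}
    (h : Diag R V s A) {x : R3} {r : ℝ} (hr : 0 < r) {g : R3 → R3} (hg : LocPL g Q0) :
    fac (AL V hr) * ∫⁻ y in Ko V x r, ∑ k, ‖Gr (gb R V x hr g) k y - A k‖ₑ ^ p ≤
      Cf p * ∫⁻ u in Q0, ∑ j, ‖Gr g j u - dg s j‖ₑ ^ p := by
  have h0 := lintegral_Ph V x hr Q0 (fun y => ∑ k, ‖Gr (gb R V x hr g) k y - A k‖ₑ ^ p)
  rw [image_Q0] at h0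
  rw [← h0, ← lintegral_const_mul' _ _ (Cf_ne_top hp)]
  apply lintegral_mono_ae
  rw [ae_restrict_iff' isOpen_Q0.measurableSet]
  filter_upwards [(LocPL.LL hg).ae_diff (μ := volume)] with u hu huQ
  have hd := hu huQ
  have h2 : ∀ k, Gr (gb R V x hr g) k (Ph V x hr u) - A k =
      Ti R V (fun j => Gr g j u - dg s j) k := by
    intro k
    rw [Gr_gb hr hd k, ← Ti_dg h k, Ti_sub]
  simp only [h2]
  exact sum_rpow_le hp fun k => norm_Ti_le R V _ k

end

end Crest.Agent.R096.Sk_962
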