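import Mathlib
import Crest.Agent.R096.Sk3b_962

/-!
Row 96 (S0127), helper962.  SKEL96: singular rows (`det = 0`), determinants in frames,
`NO` in arbitrary frames.
-/

set_option autoImplicit false
set_option linter.unusedSectionVars false
set_option linter.style.longLine false

open MeasureTheory Set Filter Topology Metric
open scoped ENNReal Gradient NNReal ContDiff
open Crest.AnalysisR.VecCalc3 Crest.AnalysisR.Sobolev
open Crest.Agent.R096.Str_696 (LocPL)
open Crest.Agent.R96.Acl_392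
open Crest.Agent.R96.Sob8_199 (aff fac map_aff fac_ne_zero fac_ne_top)

namespace Crest.Agent.R096.Sk_962

noncomputable section

/-! ### determinants -/

theorem rowMap_Tr (R V : R3 ≃ₗᵢ[ℝ] R3) (H : Fin 3 → R3) (w : R3) :
    rowMap (Tr R V H) w = R.symm (rowMap H (V w)) := by
  ext j
  rw [rowMap_apply, isom_symm_apply, Tr, ← V.inner_map_map, V.apply_symm_apply, sum_inner]
  apply Finset.sum_congr rfl
  intro k _
  rw [inner_smul_left, rowMap_apply]
  simp

theorem det_Tr_ne_zero (R V : R3 ≃ₗᵢ[ℝ] R3) (H : Fin 3 → R3) :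
    LinearMap.det (rowMap (Tr R V H)) ≠ 0 ↔ LinearMap.det (rowMap H) ≠ 0 := by
  have h1 : rowMap (Tr R V H) =
      (R.symm.toLinearEquiv : R3 →ₗ[ℝ] R3) ∘ₗ rowMap H ∘ₗ (V.toLinearEquiv : R3 →ₗ[ℝ] R3) := by
    apply LinearMap.ext
    intro w
    exact rowMap_Tr R V H w
  have h2 : LinearMap.det (R.symm.toLinearEquiv : R3 →ₗ[ℝ] R3) ≠ 0 :=
    (LinearEquiv.isUnit_det' _).ne_zero
  have h3 : LinearMap.det (V.toLinearEquiv : R3 →ₗ[ℝ] R3) ≠ 0 :=
    (LinearEquiv.isUnit_det' _).ne_zero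
  rw [h1, LinearMap.det_comp, LinearMap.det_comp]
  constructor
  · intro h h0
    exact h (by rw [h0]; ring)
  · intro h
    exact mul_ne_zero h2 (mul_ne_zero h h3)

/-- the isometry permuting the coordinates -/
def perm (σ : Equiv.Perm (Fin 3)) : R3 ≃ₗᵢ[ℝ] R3 := LinearIsometryEquiv.piLpCongrLeft 2 ℝ ℝ σ

theorem perm_ee (σ : Equiv.Perm (Fin 3)) (i : Fin 3) : perm σ (ee i) = ee (σ i) := by
  ext k
  simp only [perm, ee, LinearIsometryEquiv.piLpCongrLeft_single]

theorem Diag.perm {R V : R3 ≃ₗᵢ[ℝ] R3} {s : Fin 3 → ℝ} {A : Fin 3 → R3} (h : Diag R V s A)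
    (σ : Equiv.Perm (Fin 3)) :
    Diag ((Sk_962.perm σ).trans R) ((Sk_962.perm σ).trans V) (s ∘ σ) A := by
  intro i k
  simp only [LinearIsometryEquiv.trans_apply, perm_ee, Function.comp]
  exact h (σ i) k

/-- **singular value decomposition of singular rows**: the last singular value is zero -/
theorem svd_det {A : Fin 3 → R3} (h0 : LinearMap.det (rowMap A) = 0) :
    ∃ (R V : R3 ≃ₗᵢ[ℝ] R3) (s : Fin 3 → ℝ), (∀ i, 0 ≤ s i) ∧ s 2 = 0 ∧ Diag R V s A := by
  obtain ⟨R, V, s, hs, h⟩ := svd A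
  have h' : Diag R V s A := h
  -- some singular value vanishes
  have hz : ∃ i, s i = 0 := by
    by_contra hcon
    push Not at hcon
    have h1 := (det_Tr_ne_zero R V A).2.mt
    have h2 : LinearMap.det (rowMap (Tr R V A)) ≠ 0 := by
      have hinj : Function.Injective (rowMap (Tr R V A)) := by
        rw [injective_iff_map_eq_zero]
        intro w hw
        ext i
        have h3 := congrArg (fun z : R3 => z i) hw
        simp only [rowMap_apply, Tr_diag h'] at h3
        have h4 : inner ℝ (dg s i) w = s i * w i := by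
          simp [dg, EuclideanSpace.inner_single_left]
        rw [h4] at h3
        simp only [PiLp.zero_apply] at h3 ⊢
        rcases mul_eq_zero.1 h3 with h5 | h5
        · exact absurd h5 (hcon i)
        · exact h5
      have hbij : Function.Bijective (rowMap (Tr R V A)) :=
        ⟨hinj, (LinearMap.injective_iff_surjective).1 hinj⟩
      exact (LinearEquiv.isUnit_det' (LinearEquiv.ofBijective _ hbij)).ne_zero
    exact (det_Tr_ne_zero R V A).1 h2 h0
  obtain ⟨i, hi⟩ := hz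
  refine ⟨_, _, _, fun k => ?_, ?_, h'.perm (Equiv.swap i 2)⟩
  · exact hs _
  · simp [hi]

/-! ### volumes, boundedness, connectedness -/

theorem volQ_pos : 0 < volume Qc0 := by
  have h1 : (0:R3) ∈ Q0 := by intro i; simp
  exact (isOpen_Q0.measure_pos volume ⟨0, h1⟩).trans_le (measure_mono Q0_subset)

theorem volQ_ne_top : volume Qc0 ≠ ⊤ := isBounded_Qc0.measure_lt_top.ne

theorem fac_vol (V : R3 ≃ₗᵢ[ℝ] R3) (x : R3) {r : ℝ} (hr : 0 < r) :
    fac (AL V hr) * volume (Kc V x r) = volume Qc0 := by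
  rw [← image_Qc0 V x hr, ← vol_Ph]

theorem isBounded_preimage_Ph {V : R3 ≃ₗᵢ[ℝ] R3} {x : R3} {r : ℝ} (hr : 0 < r) {Om : Set R3}
    (h : Bornology.IsBounded Om) : Bornology.IsBounded (Ph V x hr ⁻¹' Om) := by
  have h1 : IsCompact ((Ph V x hr).symm '' closure Om) :=
    h.isCompact_closure.image (Ph V x hr).symm.continuous
  refine h1.isBounded.subset ?_
  rw [Homeomorph.image_symm]
  exact preimage_mono subset_closure

theorem isConnected_preimage_Ph {V : R3 ≃ₗᵢ[ℝ] R3} {x : R3} {r : ℝ} (hr : 0 < r) {Om : Set R3}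
    (h : IsConnected Om) : IsConnected (Ph V x hr ⁻¹' Om) := by
  rw [← Homeomorph.image_symm]
  exact h.image _ (Ph V x hr).symm.continuous.continuousOn

theorem isBounded_preimage_AL {R : R3 ≃ₗᵢ[ℝ] R3} {r : ℝ} (hr : 0 < r) {La : Set R3}
    (h : Bornology.IsBounded La) : Bornology.IsBounded ((AL R hr).toHomeomorph ⁻¹' La) := by
  have h1 : IsCompact ((AL R hr).toHomeomorph.symm '' closure La) :=
    h.isCompact_closure.image (AL R hr).toHomeomorph.symm.continuous
  refine h1.isBounded.subset ?_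
  rw [Homeomorph.image_symm]
  exact preimage_mono subset_closure

theorem isConnected_preimage_AL {R : R3 ≃ₗᵢ[ℝ] R3} {r : ℝ} (hr : 0 < r) {La : Set R3}
    (h : IsConnected La) : IsConnected ((AL R hr).toHomeomorph ⁻¹' La) := by
  rw [← Homeomorph.image_symm]
  exact h.image _ (AL R hr).toHomeomorph.symm.continuous.continuousOn

theorem Qc0_subset_preimage {V : R3 ≃ₗᵢ[ℝ] R3} {x : R3} {r : ℝ} (hr : 0 < r) {Om : Set R3}
    (h : Kc V x r ⊆ Om) : Qc0 ⊆ Ph V x hr ⁻¹' Om := by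
  rw [← image_Qc0 V x hr] at h
  exact image_subset_iff.1 h

/-! ### energy budgets -/

theorem budget_fwd {p : ℝ} (hp : 0 ≤ p) {d : ℝ} (hd : 0 < d) : ∃ d' : ℝ, 0 < d' ∧
    ∀ (V : R3 ≃ₗᵢ[ℝ] R3) (x : R3) {r : ℝ} (hr : 0 < r) (I : ℝ≥0∞),
      I ≤ ENNReal.ofReal d' * volume (Kc V x r) →
      Cf p * (fac (AL V hr) * I) ≤ ENNReal.ofReal d := by
  obtain ⟨cf, hcf⟩ : ∃ c : ℝ≥0, (c : ℝ≥0∞) = Cf p := ⟨_, ENNReal.coe_toNNReal (Cf_ne_top hp)⟩
  obtain ⟨v, hv⟩ : ∃ c : ℝ≥0, (c : ℝ≥0∞) = volume Qc0 := ⟨_, ENNReal.coe_toNNReal volQ_ne_top⟩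
  refine ⟨d / (cf * v + 1), by positivity, fun V x r hr I hI => ?_⟩
  calc Cf p * (fac (AL V hr) * I)
      ≤ Cf p * (fac (AL V hr) * (ENNReal.ofReal (d / (cf * v + 1)) * volume (Kc V x r))) := by
        gcongr
    _ = Cf p * (ENNReal.ofReal (d / (cf * v + 1)) * (fac (AL V hr) * volume (Kc V x r))) := by ring
    _ = cf * (ENNReal.ofReal (d / (cf * v + 1)) * v) := by rw [fac_vol, ← hcf, ← hv]
    _ = ENNReal.ofReal (cf * (d / (cf * v + 1) * v)) := by
        rw [ENNReal.ofReal_mul (by positivity), ENNReal.ofReal_mul (by positivity),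
          ENNReal.ofReal_coe_nnreal, ENNReal.ofReal_coe_nnreal]
    _ ≤ ENNReal.ofReal d := by
        apply ENNReal.ofReal_le_ofReal
        have h1 : (0:ℝ) ≤ cf * v := by positivity
        have h2 : (cf:ℝ) * (d / (cf * v + 1) * v) = d * (cf * v / (cf * v + 1)) := by
          field_simp
        rw [h2]
        have h3 : (cf:ℝ) * v / (cf * v + 1) ≤ 1 := by
          rw [div_le_one (by positivity)]
          linarith
        calc d * ((cf:ℝ) * v / (cf * v + 1)) ≤ d * 1 := mul_le_mul_of_nonneg_left h3 hd.le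
          _ = d := mul_one _

theorem budget_back {p : ℝ} (hp : 0 ≤ p) {e : ℝ} (he : 0 < e) : ∃ e' : ℝ, 0 < e' ∧
    ∀ (V : R3 ≃ₗᵢ[ℝ] R3) (x : R3) {r : ℝ} (hr : 0 < r) (I J : ℝ≥0∞),
      fac (AL V hr) * I ≤ Cf p * J → J ≤ ENNReal.ofReal e' →
      I ≤ ENNReal.ofReal e * volume (Kc V x r) := by
  obtain ⟨cf, hcf⟩ : ∃ c : ℝ≥0, (c : ℝ≥0∞) = Cf p := ⟨_, ENNReal.coe_toNNReal (Cf_ne_top hp)⟩
  obtain ⟨v, hv⟩ : ∃ c : ℝ≥0, (c : ℝ≥0∞) = volume Qc0 := ⟨_, ENNReal.coe_toNNReal volQ_ne_top⟩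
  have hv0 : 0 < v := by
    have := volQ_pos
    rw [← hv] at this
    exact_mod_cast this
  refine ⟨e * v / (cf + 1), by positivity, fun V x r hr I J hI hJ => ?_⟩
  have h1 : fac (AL V hr) * I ≤ fac (AL V hr) * (ENNReal.ofReal e * volume (Kc V x r)) := by
    calc fac (AL V hr) * I ≤ Cf p * J := hI
      _ ≤ Cf p * ENNReal.ofReal (e * v / (cf + 1)) := by gcongr
      _ = ENNReal.ofReal (cf * (e * v / (cf + 1))) := by
          rw [ENNReal.ofReal_mul (by positivity), ENNReal.ofReal_coe_nnreal, ← hcf]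
      _ ≤ ENNReal.ofReal (e * v) := by
          apply ENNReal.ofReal_le_ofReal
          have h2 : (cf:ℝ) * (e * v / (cf + 1)) = (e * v) * (cf / (cf + 1)) := by
            field_simp
          rw [h2]
          have h3 : (cf:ℝ) / (cf + 1) ≤ 1 := by
            rw [div_le_one (by positivity)]
            linarith
          have h4 : (0:ℝ) ≤ e * v := by positivity
          calc (e * v) * ((cf:ℝ) / (cf + 1)) ≤ (e * v) * 1 := mul_le_mul_of_nonneg_left h3 h4
            _ = e * v := mul_one _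
      _ = ENNReal.ofReal e * volume Qc0 := by
          rw [ENNReal.ofReal_mul he.le, ENNReal.ofReal_coe_nnreal, hv]
      _ = fac (AL V hr) * (ENNReal.ofReal e * volume (Kc V x r)) := by
          rw [← fac_vol V x hr]; ring
  exact (ENNReal.mul_le_mul_iff_right (fac_ne_zero _) (fac_ne_top _)).1 h1

/-! ### the error function -/

/-- a polynomial, positive on the open cube and zero on its frontier -/
def rho (u : R3) : ℝ := ∏ i, (1 - (u i) ^ 2)

theorem rho_continuous : Continuous rho := by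
  unfold rho
  apply continuous_finsetProd
  intro i _
  have h1 : Continuous (fun x : R3 => x i) :=
    (EuclideanSpace.proj (𝕜 := ℝ) i : R3 →L[ℝ] ℝ).continuous
  fun_prop

theorem rho_pos {u : R3} (hu : u ∈ Q0) : 0 < rho u := by
  apply Finset.prod_pos
  intro i _
  have h1 := hu i
  have h2 : (u i) ^ 2 < 1 := by
    rw [sq_lt_one_iff_abs_lt_one]
    exact h1
  linarith

theorem rho_le_one {u : R3} (hu : u ∈ Qc0) : rho u ≤ 1 := by
  apply Finset.prod_le_one
  · intro i _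
    have h1 := hu i
    have h2 : (u i) ^ 2 ≤ 1 := by
      rw [sq_le_one_iff_abs_le_one]
      exact h1
    linarith
  · intro i _
    have := sq_nonneg (u i)
    linarith

theorem rho_zero {u : R3} (hu : u ∈ frontier Q0) : rho u = 0 := by
  have h1 : u ∈ Qc0 := by rw [← closure_Q0]; exact hu.1
  have h2 : u ∉ Q0 := by
    have := hu.2
    rwa [isOpen_Q0.interior_eq] at this
  have h3 : ∃ i, ¬ |u i| < 1 := by
    by_contra hcon
    push Not at hcon
    exact h2 hcon
  obtain ⟨i, hi⟩ := h3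
  have h4 : |u i| = 1 := le_antisymm (h1 i) (not_lt.1 hi)
  apply Finset.prod_eq_zero (Finset.mem_univ i)
  rw [← sq_abs, h4]
  norm_num

theorem bdZero_of_rho {g f : R3 → R3} {c : ℝ} (h : ∀ u ∈ Q0, ‖g u - f u‖ ≤ c * rho u) :
    BdZero Q0 g f := by
  intro z hz
  have h1 : Tendsto (fun u => c * rho u) (𝓝[Q0] z) (𝓝 0) := by
    have h2 := (rho_continuous.const_mul c).continuousAt (x := z)
    rw [ContinuousAt, rho_zero hz, mul_zero] at h2
    exact h2.mono_left nhdsWithin_le_nhds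
  refine squeeze_zero_norm' ?_ h1
  filter_upwards [self_mem_nhdsWithin] with u hu using h u hu

/-- **`NO` in an arbitrary frame** -/
theorem no_frame {p : ℝ} (hp : 1 ≤ p) (hNO : NO p) (A : Fin 3 → R3) {e : ℝ} (he : 0 < e) :
    ∃ V : R3 ≃ₗᵢ[ℝ] R3, ∃ d : ℝ, 0 < d ∧ ∀ (Om La : Set R3) (f : R3 → R3)
      (G : Fin 3 → R3 → R3), IsOpen Om → IsOpen La → SH p Om La f G → ∀ (x : R3) (r : ℝ), 0 < r →
      Kc V x r ⊆ Om →
      ∫⁻ y in Ko V x r, ∑ j, ‖G j y - A j‖ₑ ^ p ≤ ENNReal.ofReal d * volume (Kc V x r) →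
      ∀ c : ℝ, 0 < c → ∃ g : R3 → R3, IsHomeomorphOn g (Ko V x r) (f '' Ko V x r) ∧
        LocPL g (Ko V x r) ∧ BdZero (Ko V x r) g f ∧ (∀ y ∈ Ko V x r, ‖g y - f y‖ ≤ c) ∧
        ∫⁻ y in Ko V x r, ∑ j, ‖Gr g j y - A j‖ₑ ^ p ≤ ENNReal.ofReal e * volume (Kc V x r) := by
  have hp0 : 0 ≤ p := by linarith
  obtain ⟨R, V, s, hs, hdiag⟩ := svd A
  have hD : Diag R V s A := hdiag
  obtain ⟨e', he', hback⟩ := budget_back hp0 he
  obtain ⟨d', hd', hno⟩ := hNO s hs e' he'
  obtain ⟨d, hd, hfwd⟩ := budget_fwd hp0 hd'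
  refine ⟨V, d, hd, fun Om La f G hOm hLa H x r hr hK hen c hc => ?_⟩
  have h1 := frame_SH (p := p) (R := R) (V := V) (x := x) hr hOm H
  have h2 := (energy_fwd hp0 hD hr G (x := x)).trans (hfwd V x hr _ hen)
  obtain ⟨g, g1, g2, g3, g4⟩ := hno _ _ _ _ (hOm.preimage (Ph V x hr).continuous)
    (hLa.preimage (AL R hr).toHomeomorph.continuous) (Qc0_subset_preimage hr hK) h1 h2
    (fun u => (c / r) * rho u) (rho_continuous.const_mul _).continuousOn
    (fun u hu => mul_pos (div_pos hc hr) (rho_pos hu))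
  refine ⟨gb R V x hr g, homeo_back hr g1, locPL_back hr g2, bdZero_back hr (bdZero_of_rho g3),
    ?_, hback V x hr _ _ (energy_back hp0 hD hr g2) g4⟩
  intro y hy
  rw [← image_Q0 V x hr] at hy
  obtain ⟨u, hu, rfl⟩ := hy
  rw [norm_gb_sub]
  calc r * ‖g u - ft R V x hr f u‖ ≤ r * ((c / r) * rho u) :=
        mul_le_mul_of_nonneg_left (g3 u hu) hr.le
    _ = c * rho u := by field_simp
    _ ≤ c * 1 := mul_le_mul_of_nonneg_left (rho_le_one (Q0_subset hu)) hc.le
    _ = c := mul_one _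

end

end Crest.Agent.R096.Sk_962
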