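import Mathlib
import Crest.Agent.R096.Sk3c_962
import Crest.Agent.R096.Cub2_298

/-!
Row 96 (S0127), helper962.  SKEL96: patching on a finite family, preparation of the assembly.
-/

set_option autoImplicit false
set_option linter.unusedSectionVars false
set_option linter.style.longLine false

open MeasureTheory Set Filter Topology Metric
open scoped ENNReal Gradient NNReal ContDiff
open Crest.AnalysisR.VecCalc3 Crest.AnalysisR.Sobolev
open Crest.Agent.R096.Str_696 (LocPL)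
open Crest.Agent.R96.Sob8_199 (aff fac map_aff fac_ne_zero fac_ne_top)

namespace Crest.Agent.R096.Sk_962

noncomputable section

/-- **patching on a finite disjoint family** -/
theorem patch_family {p : ℝ} (hp : 1 ≤ p) {ι : Type*} {Om La : Set R3} {f : R3 → R3}
    {G : Fin 3 → R3 → R3} (hOm : IsOpen Om) (hOmb : Bornology.IsBounded Om) (hLa : IsOpen La)
    (hLab : Bornology.IsBounded La) (H : SH p Om La f G) (D : ι → Set R3) (g : ι → R3 → R3)
    (T : Finset ι) (hD : ∀ i ∈ T, IsOpen (D i)) (hDO : ∀ i ∈ T, closure (D i) ⊆ Om)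
    (hdis : (T : Set ι).PairwiseDisjoint D)
    (hg : ∀ i ∈ T, IsHomeomorphOn (g i) (D i) (f '' D i)) (hPL : ∀ i ∈ T, LocPL (g i) (D i))
    (hbd : ∀ i ∈ T, BdZero (D i) (g i) f)
    (hE : ∀ i ∈ T, ∀ j, MemLp (Gr (g i) j) (ENNReal.ofReal p) (volume.restrict (D i))) :
    ∃ (f1 : R3 → R3) (G1 : Fin 3 → R3 → R3), SH p Om La f1 G1 ∧
      (∀ i ∈ T, EqOn f1 (g i) (D i)) ∧ (∀ i ∈ T, ∀ j, EqOn (G1 j) (Gr (g i) j) (D i)) ∧
      (∀ x, (∀ i ∈ T, x ∉ D i) → f1 x = f x) ∧
      (∀ x, (∀ i ∈ T, x ∉ D i) → ∀ j, G1 j x = G j x) := by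
  classical
  induction T using Finset.induction_on with
  | empty =>
    exact ⟨f, G, H, by simp, by simp, fun x _ => rfl, fun x _ j => rfl⟩
  | insert a T ha ih =>
    have hsub : ∀ i ∈ T, i ∈ insert a T := fun i hi => Finset.mem_insert_of_mem hi
    obtain ⟨f1, G1, H1, e1, e2, e3, e4⟩ := ih (fun i hi => hD i (hsub i hi))
      (fun i hi => hDO i (hsub i hi)) (hdis.subset (by exact_mod_cast Finset.subset_insert a T))
      (fun i hi => hg i (hsub i hi)) (fun i hi => hPL i (hsub i hi))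
      (fun i hi => hbd i (hsub i hi)) (fun i hi => hE i (hsub i hi))
    have haI : a ∈ insert a T := Finset.mem_insert_self a T
    have hda : ∀ i ∈ T, Disjoint (D a) (D i) := by
      intro i hi
      apply hdis (by exact_mod_cast haI) (by exact_mod_cast hsub i hi)
      rintro rfl
      exact ha hi
    have hnot : ∀ x ∈ D a, ∀ i ∈ T, x ∉ D i := fun x hx i hi h =>
      Set.disjoint_left.1 (hda i hi) hx h
    have hfa : EqOn f1 f (D a) := fun x hx => e3 x (hnot x hx)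
    have hga : IsHomeomorphOn (g a) (D a) (f1 '' D a) := by
      rw [hfa.image_eq]; exact hg a haI
    have hba : BdZero (D a) (g a) f1 := by
      intro z hz
      refine (hbd a haI z hz).congr' ?_
      filter_upwards [self_mem_nhdsWithin] with x hx
      rw [hfa hx]
    have H2 := H1.patch' hp hOm hOmb hLa hLab (hD a haI) (hDO a haI) hga (hPL a haI) hba (hE a haI)
    refine ⟨_, _, H2, ?_, ?_, ?_, ?_⟩
    · intro i hi
      rcases Finset.mem_insert.1 hi with rfl | hi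
      · exact fun x hx => pw_mem hx
      · intro x hx
        rw [pw_notMem (fun h => hnot x h i hi hx)]
        exact e1 i hi hx
    · intro i hi j
      rcases Finset.mem_insert.1 hi with rfl | hi
      · exact fun x hx => pw_mem hx
      · intro x hx
        exact (pw_notMem (fun h => hnot x h i hi hx)).trans (e2 i hi j hx)
    · intro x hx
      exact (pw_notMem (hx a haI)).trans (e3 x fun i hi => hx i (hsub i hi))
    · intro x hx j
      exact (pw_notMem (hx a haI)).trans (e4 x (fun i hi => hx i (hsub i hi)) j)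

/-! ### integrability -/

theorem memLp_of_lint {p : ℝ} (hp : 1 ≤ p) {h : R3 → R3} {D : Set R3}
    (hm : AEStronglyMeasurable h (volume.restrict D)) (hfin : ∫⁻ x in D, ‖h x‖ₑ ^ p ≠ ⊤) :
    MemLp h (ENNReal.ofReal p) (volume.restrict D) := by
  refine ⟨hm, ?_⟩
  have h0 : ENNReal.ofReal p ≠ 0 := by
    rw [Ne, ENNReal.ofReal_eq_zero]; linarith
  rw [eLpNorm_lt_top_iff_lintegral_rpow_enorm_lt_top h0 ENNReal.ofReal_ne_top,
    ENNReal.toReal_ofReal (by linarith)]
  exact hfin.lt_top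

theorem lint_of_memLp {p : ℝ} (hp : 1 ≤ p) {h : R3 → R3} {D : Set R3}
    (hm : MemLp h (ENNReal.ofReal p) (volume.restrict D)) : ∫⁻ x in D, ‖h x‖ₑ ^ p ≠ ⊤ := by
  have h0 : ENNReal.ofReal p ≠ 0 := by
    rw [Ne, ENNReal.ofReal_eq_zero]; linarith
  have h1 := (eLpNorm_lt_top_iff_lintegral_rpow_enorm_lt_top h0 ENNReal.ofReal_ne_top).1 hm.2
  rw [ENNReal.toReal_ofReal (by linarith)] at h1
  exact h1.ne

/-- the gradient rows of a map whose energy relative to constants is finite are in `L^p` -/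
theorem memLp_Gr {p : ℝ} (hp : 1 ≤ p) {g : R3 → R3} {D : Set R3} (hD : volume D ≠ ⊤)
    {A : Fin 3 → R3} (hfin : ∫⁻ x in D, ∑ j, ‖Gr g j x - A j‖ₑ ^ p ≠ ⊤) (j : Fin 3) :
    MemLp (Gr g j) (ENNReal.ofReal p) (volume.restrict D) := by
  have hfinD : IsFiniteMeasure (volume.restrict D) :=
    ⟨by rw [Measure.restrict_apply_univ]; exact hD.lt_top⟩
  have h1 : MemLp (fun x => Gr g j x - A j) (ENNReal.ofReal p) (volume.restrict D) := by
    apply memLp_of_lint hp ((measurable_Gr g j).sub measurable_const).aestronglyMeasurable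
    refine ne_top_of_le_ne_top hfin (lintegral_mono fun x => ?_)
    exact Finset.single_le_sum (f := fun j => ‖Gr g j x - A j‖ₑ ^ p) (fun _ _ => zero_le)
      (Finset.mem_univ j)
  have h2 := h1.add (memLp_const (A j))
  refine h2.ae_eq (Eventually.of_forall fun x => ?_)
  simp

theorem enorm_sub_rpow_le {p : ℝ} (hp : 1 ≤ p) (a b c : R3) :
    ‖a - c‖ₑ ^ p ≤ 2 ^ (p - 1) * (‖a - b‖ₑ ^ p + ‖b - c‖ₑ ^ p) := by
  have h1 : ‖a - c‖ₑ ≤ ‖a - b‖ₑ + ‖b - c‖ₑ := by
    have h2 : a - c = (a - b) + (b - c) := by abel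
    rw [h2]
    exact enorm_add_le _ _
  exact (ENNReal.rpow_le_rpow h1 (by linarith)).trans
    (ENNReal.rpow_add_le_mul_rpow_add_rpow _ _ hp)

theorem sum_enorm_sub_le {p : ℝ} (hp : 1 ≤ p) (a b c : Fin 3 → R3) :
    ∑ j, ‖a j - c j‖ₑ ^ p ≤ 2 ^ (p - 1) * (∑ j, ‖a j - b j‖ₑ ^ p + ∑ j, ‖b j - c j‖ₑ ^ p) := by
  rw [← Finset.sum_add_distrib, Finset.mul_sum]
  exact Finset.sum_le_sum fun j _ => enorm_sub_rpow_le hp _ _ _

theorem c2_ne_top (p : ℝ) : (2:ℝ≥0∞) ^ (p - 1) ≠ ⊤ := by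
  simp [ENNReal.rpow_eq_top_iff]

/-! ### cubes -/

theorem Q0_convex : Convex ℝ Q0 := by
  have h : Q0 = ⋂ i : Fin 3, {x : R3 | |x i| < 1} := by
    ext x; simp [Q0]
  rw [h]
  apply convex_iInter
  intro i
  have h1 : {x : R3 | |x i| < 1} =
      (EuclideanSpace.proj (𝕜 := ℝ) i : R3 →L[ℝ] ℝ) ⁻¹' (Metric.ball 0 1) := by
    ext x; simp
  rw [h1]
  exact (convex_ball (0:ℝ) 1).linear_preimage (EuclideanSpace.proj (𝕜 := ℝ) i : R3 →L[ℝ] ℝ).toLinearMap

theorem Ko_convex (V : R3 ≃ₗᵢ[ℝ] R3) (x : R3) (r : ℝ) : Convex ℝ (Ko V x r) := by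
  have h : Ko V x r = (fun z => x + z) '' ((r • (V.toLinearEquiv : R3 →ₗ[ℝ] R3)) '' Q0) := by
    ext y
    simp only [Ko, mem_ofPred_eq, mem_image, exists_exists_and_eq_and]
    exact exists_congr fun u => and_congr_right fun _ => eq_comm
  rw [h]
  exact (Q0_convex.linear_image _).translate x

theorem vol_Kc_diff (V : R3 ≃ₗᵢ[ℝ] R3) (x : R3) {r : ℝ} (hr : 0 < r) :
    volume (Kc V x r \ Ko V x r) = 0 := by
  have h1 : Kc V x r \ Ko V x r ⊆ frontier (Ko V x r) := by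
    rw [← closure_Ko V x hr, frontier, (isOpen_Ko V x hr).interior_eq]
  exact measure_mono_null h1 ((Ko_convex V x r).addHaar_frontier volume)

theorem Kc_subset_Ko (V : R3 ≃ₗᵢ[ℝ] R3) (x : R3) {r t : ℝ} (ht0 : 0 ≤ t)
    (ht : t < 1) : Kc V x (t * r) ⊆ Ko V x r := by
  rintro y ⟨u, hu, rfl⟩
  refine ⟨t • u, fun i => ?_, ?_⟩
  · have h1 := hu i
    simp only [PiLp.smul_apply, smul_eq_mul, abs_mul, abs_of_nonneg ht0]
    have h2 := abs_nonneg (u i)
    nlinarith
  · rw [map_smul, smul_smul, mul_comm]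

/-- the smaller cubes exhaust the open cube -/
theorem mem_Kc_of_Ko {V : R3 ≃ₗᵢ[ℝ] R3} {x : R3} {r : ℝ} {y : R3} (hy : y ∈ Ko V x r) :
    ∀ᶠ n : ℕ in atTop, y ∈ Kc V x ((1 - 1 / ((n:ℝ) + 2)) * r) := by
  obtain ⟨u, hu, rfl⟩ := hy
  have h1 : ∀ i, ∀ᶠ n : ℕ in atTop, |u i| < 1 - 1 / ((n:ℝ) + 2) := by
    intro i
    have h2 : Tendsto (fun n : ℕ => 1 - 1 / ((n:ℝ) + 2)) atTop (𝓝 (1 - 0)) := by
      apply Tendsto.const_sub
      have h3 := tendsto_one_div_add_atTop_nhds_zero_nat (𝕜 := ℝ)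
      have h4 := (tendsto_add_atTop_iff_nat (f := fun n : ℕ => 1 / ((n:ℝ) + 1)) 1).2 h3
      refine h4.congr fun n => ?_
      push_cast
      ring_nf
    rw [sub_zero] at h2
    exact h2.eventually_const_lt (hu i)
  filter_upwards [eventually_all.2 h1] with n hn
  set t : ℝ := 1 - 1 / ((n:ℝ) + 2) with ht
  have ht0 : 0 < t := by
    rw [ht]
    have h2 : 1 / ((n:ℝ) + 2) ≤ 1 / 2 := by
      apply one_div_le_one_div_of_le (by norm_num)
      have : (0:ℝ) ≤ n := Nat.cast_nonneg _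
      linarith
    linarith
  refine ⟨t⁻¹ • u, fun i => ?_, ?_⟩
  · simp only [PiLp.smul_apply, smul_eq_mul, abs_mul, abs_of_pos (inv_pos.2 ht0)]
    rw [inv_mul_le_iff₀ ht0]
    linarith [hn i]
  · rw [map_smul, smul_smul]
    congr 2
    field_simp

end

end Crest.Agent.R096.Sk_962
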