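import Crest.Agent.R096.Cub1_298

/-!
Row 96 (S0127), helper663.  Finitely many disjoint rotated cubes centred at points of a given set
`S`, with an arbitrary "eventual" property, covering `S` up to small `F`-mass.
-/

set_option autoImplicit false
set_option linter.unusedSectionVars false
set_option linter.style.longLine false

open MeasureTheory Set Metric Filter Topology
open scoped ENNReal NNReal

namespace Crest.Agent.R096.Sk4_663

open Crest.AnalysisR.VecCalc3
open Crest.Agent.R096.Cub_298 (Kc Kc_subset subset_Kc isCompact_Kc vol_ball_comp ae_leb)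

noncomputable section

theorem cubesP {Om : Set R3} (hO : IsOpen Om) {S : Set R3} (hS : S ⊆ Om)
    (V : R3 → (R3 ≃ₗᵢ[ℝ] R3)) {P : R3 → ℝ → Prop}
    (hP : ∀ᵐ x : R3, x ∈ S → ∀ᶠ r in 𝓝[>] (0 : ℝ), P x r)
    {F : R3 → ℝ≥0∞} (hF : ∫⁻ x in Om, F x ≠ ∞) {ε : ℝ≥0∞} (hε : 0 < ε) :
    ∃ T : Finset (R3 × ℝ),
      (∀ a ∈ T, a.1 ∈ S ∧ 0 < a.2 ∧ Kc (V a.1) a.1 a.2 ⊆ Om ∧ P a.1 a.2) ∧
      (T : Set (R3 × ℝ)).PairwiseDisjoint (fun a => Kc (V a.1) a.1 a.2) ∧
      ∫⁻ y in S \ ⋃ a ∈ T, Kc (V a.1) a.1 a.2, F y < ε := by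
  set B : R3 × ℝ → Set R3 := fun a => Kc (V a.1) a.1 a.2 with hB
  have hBc : ∀ a, IsClosed (B a) := fun a => (isCompact_Kc _ _ _).isClosed
  set good : Set R3 := {x | x ∈ S ∧ ∀ᶠ r in 𝓝[>] (0 : ℝ), P x r} with hgd
  have hnull : volume (S \ good) = 0 := by
    refine measure_mono_null ?_ (mem_ae_iff.1 hP)
    rintro x ⟨hx1, hx2⟩ hx3
    exact hx2 ⟨hx1, hx3 hx1⟩
  set t : Set (R3 × ℝ) := {a | a.1 ∈ S ∧ 0 < a.2 ∧ B a ⊆ Om ∧ P a.1 a.2} with ht
  obtain ⟨u, hut, huc, hud, hu0⟩ := Vitali.exists_disjoint_covering_ae (volume : Measure R3) good t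
    216 (fun a => 2 * a.2) (fun a => a.1) B
    (fun a ha => Kc_subset _ _ ha.2.1.le)
    (by
      intro a ha
      have h1 := vol_ball_comp (V a.1) a.1 (r := a.2) (c := 6) ha.2.1 (by norm_num)
      have h2 : 3 * (2 * a.2) = 6 * a.2 := by ring
      rw [h2]
      refine h1.trans (le_of_eq ?_)
      congr 1
      norm_num)
    (by
      intro a ha
      refine ⟨a.1, ?_⟩
      rw [mem_interior_iff_mem_nhds]
      exact mem_of_superset (closedBall_mem_nhds _ ha.2.1) (subset_Kc _ _ ha.2.1))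
    (fun a _ => hBc a)
    (by
      intro x hx η hη
      obtain ⟨ρ, hρ, hρO⟩ := Metric.isOpen_iff.1 hO x (hS hx.1)
      have h2 : ∀ᶠ s in 𝓝[>] (0 : ℝ), s ∈ Ioo 0 (min ρ η / 2) :=
        Ioo_mem_nhdsGT (by have := lt_min hρ hη; linarith)
      obtain ⟨s, hs1, hs2⟩ := (hx.2.and h2).exists
      refine ⟨(x, s), ⟨hx.1, hs2.1, ?_, hs1⟩, ?_, rfl⟩
      · have h3 := Kc_subset (V x) x (r := s) hs2.1.le
        refine h3.trans ((closedBall_subset_ball ?_).trans hρO)
        have := min_le_left ρ η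
        linarith [hs2.2]
      · have := min_le_right ρ η
        change 2 * s ≤ η
        linarith [hs2.2])
  -- the finite measure
  set ν : Measure R3 := (volume.restrict Om).withDensity F with hν
  have hνfin : ν univ ≠ ∞ := by
    rw [hν, withDensity_apply _ MeasurableSet.univ, Measure.restrict_univ]
    exact hF
  have : Countable u := huc.to_subtype
  have hdis : Pairwise (Function.onFun Disjoint (fun a : u => B a.1)) := by
    intro a b hab
    exact hud a.2 b.2 (fun h => hab (Subtype.ext h))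
  have hsum : ∑' a : u, ν (B a.1) ≠ ∞ := by
    rw [← measure_iUnion hdis (fun a => (hBc a.1).measurableSet)]
    exact ne_top_of_le_ne_top hνfin (measure_mono (subset_univ _))
  have htend := ENNReal.tendsto_tsum_compl_atTop_zero hsum
  obtain ⟨S', hS'⟩ := (htend.eventually (gt_mem_nhds hε)).exists
  set T : Finset (R3 × ℝ) := S'.map (Function.Embedding.subtype _) with hT
  have hTu : ∀ a ∈ T, a ∈ u := by
    intro a ha
    rw [hT, Finset.mem_map] at ha
    obtain ⟨b, _, rfl⟩ := ha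
    exact b.2
  have hνOm : ν (S \ ⋃ a ∈ u, B a) = 0 := by
    have h1 : volume (S \ ⋃ a ∈ u, B a) = 0 := by
      refine measure_mono_null ?_ (measure_union_null hnull hu0)
      rintro x ⟨hx1, hx2⟩
      by_cases hg : x ∈ good
      · exact Or.inr ⟨hg, hx2⟩
      · exact Or.inl ⟨hx1, hg⟩
    have h2 : (volume.restrict Om) (S \ ⋃ a ∈ u, B a) = 0 :=
      le_antisymm ((Measure.restrict_apply_le _ _).trans h1.le) bot_le
    exact withDensity_absolutelyContinuous _ _ h2
  have hmain : ν (S \ ⋃ a ∈ T, B a) < ε := by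
    refine lt_of_le_of_lt ?_ hS'
    calc ν (S \ ⋃ a ∈ T, B a)
        ≤ ν ((S \ ⋃ a ∈ u, B a) ∪ ⋃ b : {x // x ∉ S'}, B (b.1.1)) := by
          apply measure_mono
          rintro x ⟨hx1, hx2⟩
          by_cases hx3 : x ∈ ⋃ a ∈ u, B a
          · right
            rw [mem_iUnion₂] at hx3
            obtain ⟨a, ha, hxa⟩ := hx3
            rw [mem_iUnion]
            refine ⟨⟨⟨a, ha⟩, ?_⟩, hxa⟩
            intro hS''
            apply hx2
            rw [mem_iUnion₂]
            refine ⟨a, ?_, hxa⟩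
            rw [hT, Finset.mem_map]
            exact ⟨⟨a, ha⟩, hS'', rfl⟩
          · exact Or.inl ⟨hx1, hx3⟩
      _ ≤ ν (S \ ⋃ a ∈ u, B a) + ν (⋃ b : {x // x ∉ S'}, B (b.1.1)) := measure_union_le _ _
      _ ≤ 0 + ∑' b : {x // x ∉ S'}, ν (B (b.1.1)) := by
          gcongr
          · exact hνOm.le
          · exact measure_iUnion_le _
      _ = _ := by rw [zero_add]
  refine ⟨T, fun a ha => hut (hTu a ha), ?_, ?_⟩
  · intro a ha b hb hab
    exact hud (hTu a (by simpa using ha)) (hTu b (by simpa using hb)) hab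
  · refine lt_of_le_of_lt ?_ hmain
    have h1 := withDensity_apply_le (μ := volume.restrict Om) F (S \ ⋃ a ∈ T, B a)
    rw [Measure.restrict_restrict' hO.measurableSet,
      inter_eq_left.2 (sdiff_subset.trans hS)] at h1
    exact h1

/-- Lebesgue points, on rotated cubes, for three functions. -/
theorem ev_mean {Om : Set R3} (hO : IsOpen Om) (hb : Bornology.IsBounded Om) {p : ℝ} (hp : 1 ≤ p)
    {G : Fin 3 → R3 → R3} (hG : ∀ j, MemLp (G j) (ENNReal.ofReal p) (volume.restrict Om))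
    (V : R3 → (R3 ≃ₗᵢ[ℝ] R3)) (d : R3 → ℝ) (hd : ∀ x, 0 < d x) :
    ∀ᵐ x : R3, x ∈ Om → ∀ᶠ r in 𝓝[>] (0 : ℝ),
      ∫⁻ y in Kc (V x) x r, ∑ j, ‖G j y - G j x‖ₑ ^ p ≤
        ENNReal.ofReal (d x) * volume (Kc (V x) x r) := by
  have hgood : ∀ᵐ x ∂(volume.restrict Om), ∀ j, ∀ δ : ℝ≥0∞, 0 < δ → ∀ᶠ r in 𝓝[>] (0 : ℝ),
      ∫⁻ y in closedBall x r, ‖G j y - G j x‖ₑ ^ p ≤ δ * volume (closedBall x r) :=
    ae_all_iff.2 fun j => ae_leb hO hb hp (hG j)
  rw [ae_restrict_iff' hO.measurableSet] at hgood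
  filter_upwards [hgood] with x hx hxO
  set δ : ℝ≥0∞ := ENNReal.ofReal (d x / 24) with hδ
  have hδ0 : 0 < δ := ENNReal.ofReal_pos.2 (by have := hd x; positivity)
  have h1 : ∀ᶠ s in 𝓝[>] (0 : ℝ), ∀ j,
      ∫⁻ y in closedBall x s, ‖G j y - G j x‖ₑ ^ p ≤ δ * volume (closedBall x s) :=
    eventually_all.2 fun j => hx hxO j δ hδ0
  obtain ⟨ρ, hρ, hρO⟩ := Metric.isOpen_iff.1 hO x hxO
  have ht : Tendsto (fun r : ℝ => 2 * r) (𝓝[>] 0) (𝓝[>] 0) := by
    apply tendsto_nhdsWithin_iff.2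
    constructor
    · have : Tendsto (fun r : ℝ => 2 * r) (𝓝 0) (𝓝 (2 * 0)) :=
        (continuous_const.mul continuous_id).tendsto 0
      rw [mul_zero] at this
      exact this.mono_left nhdsWithin_le_nhds
    · filter_upwards [self_mem_nhdsWithin] with r hr
      have : (0:ℝ) < r := hr
      change (0:ℝ) < 2 * r
      linarith
  have h2 : ∀ᶠ s in 𝓝[>] (0 : ℝ), s ∈ Ioo 0 (ρ / 2) := Ioo_mem_nhdsGT (by linarith)
  filter_upwards [ht.eventually h1, h2] with s hs1 hs2
  have hs0 : 0 < s := hs2.1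
  have h3 := Kc_subset (V x) x (r := s) hs0.le
  have h5 : Kc (V x) x s ⊆ Om := by
    refine h3.trans ((closedBall_subset_ball ?_).trans hρO)
    linarith [hs2.2]
  have h6 : ∫⁻ y in Kc (V x) x s, ∑ j, ‖G j y - G j x‖ₑ ^ p =
      ∑ j, ∫⁻ y in Kc (V x) x s, ‖G j y - G j x‖ₑ ^ p := by
    apply lintegral_finsetSum'
    intro j _
    have h7 : AEMeasurable (G j) (volume.restrict (Kc (V x) x s)) :=
      (hG j).1.aemeasurable.mono_measure (Measure.restrict_mono h5 le_rfl)
    exact ((h7.sub aemeasurable_const).enorm).pow_const _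
  rw [h6]
  have h8 : ∀ j, ∫⁻ y in Kc (V x) x s, ‖G j y - G j x‖ₑ ^ p ≤
      δ * volume (closedBall x (2 * s)) := fun j =>
    (lintegral_mono_set h3).trans (hs1 j)
  have h9 : volume (closedBall x (2 * s)) ≤ ENNReal.ofReal (2 ^ 3) * volume (Kc (V x) x s) :=
    vol_ball_comp (V x) x (r := s) (c := 2) hs0 (by norm_num)
  calc ∑ j, ∫⁻ y in Kc (V x) x s, ‖G j y - G j x‖ₑ ^ p
      ≤ ∑ _j : Fin 3, δ * (ENNReal.ofReal (2 ^ 3) * volume (Kc (V x) x s)) := by
        apply Finset.sum_le_sum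
        intro j _
        refine (h8 j).trans ?_
        gcongr
    _ = ENNReal.ofReal (d x) * volume (Kc (V x) x s) := by
        rw [Finset.sum_const, Finset.card_univ, Fintype.card_fin, nsmul_eq_mul,
          ← mul_assoc, ← mul_assoc, hδ]
        congr 1
        have : ((3 : ℕ) : ℝ≥0∞) = ENNReal.ofReal 3 := by norm_num
        rw [this, ← ENNReal.ofReal_mul (by norm_num), ← ENNReal.ofReal_mul (by
          have := hd x; positivity)]
        congr 1
        ring

/-- density points, on rotated cubes. -/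
theorem ev_dens {S : Set R3} (hS : NullMeasurableSet S)
    (V : R3 → (R3 ≃ₗᵢ[ℝ] R3)) (d : R3 → ℝ) (hd : ∀ x, 0 < d x) :
    ∀ᵐ x : R3, x ∈ S → ∀ᶠ r in 𝓝[>] (0 : ℝ),
      volume (Kc (V x) x r \ S) ≤ ENNReal.ofReal (d x) * volume (Kc (V x) x r) := by
  have h0 := Besicovitch.ae_tendsto_measure_inter_div (volume : Measure R3) S
  rw [ae_restrict_iff'₀ hS] at h0
  filter_upwards [h0] with x hx hxS
  have hx := hx hxS
  have ht : Tendsto (fun r : ℝ => 2 * r) (𝓝[>] 0) (𝓝[>] 0) := by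
    apply tendsto_nhdsWithin_iff.2
    constructor
    · have : Tendsto (fun r : ℝ => 2 * r) (𝓝 0) (𝓝 (2 * 0)) :=
        (continuous_const.mul continuous_id).tendsto 0
      rw [mul_zero] at this
      exact this.mono_left nhdsWithin_le_nhds
    · filter_upwards [self_mem_nhdsWithin] with r hr
      have : (0:ℝ) < r := hr
      change (0:ℝ) < 2 * r
      linarith
  set δ : ℝ≥0∞ := ENNReal.ofReal (d x / 8) with hδ
  have hδ0 : 0 < δ := ENNReal.ofReal_pos.2 (by have := hd x; positivity)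
  have h1 : ∀ᶠ r in 𝓝[>] (0:ℝ), 1 - δ < volume (S ∩ closedBall x r) / volume (closedBall x r) := by
    apply hx.eventually
    apply lt_mem_nhds
    exact ENNReal.sub_lt_self (by simp) (by simp) hδ0.ne'
  filter_upwards [ht.eventually h1, self_mem_nhdsWithin] with r hr hr0
  have hr0 : 0 < r := hr0
  have hv0 : volume (closedBall x (2 * r)) ≠ 0 := (measure_closedBall_pos volume x (by linarith)).ne'
  have hvT : volume (closedBall x (2 * r)) ≠ ∞ := measure_closedBall_lt_top.ne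
  have h2 : (1 - δ) * volume (closedBall x (2 * r)) ≤ volume (S ∩ closedBall x (2 * r)) := by
    rw [← ENNReal.le_div_iff_mul_le (Or.inl hv0) (Or.inl hvT)]
    exact hr.le
  have h3 : volume (closedBall x (2 * r) ∩ S) + volume (closedBall x (2 * r) \ S) =
      volume (closedBall x (2 * r)) := measure_inter_add_sdiff₀ _ hS
  have h4 : volume (closedBall x (2 * r) \ S) ≤ δ * volume (closedBall x (2 * r)) := by
    have h5 : volume (closedBall x (2 * r)) ≤
        (1 - δ) * volume (closedBall x (2 * r)) + δ * volume (closedBall x (2 * r)) := by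
      rw [← add_mul]
      calc volume (closedBall x (2 * r)) = 1 * volume (closedBall x (2 * r)) := (one_mul _).symm
        _ ≤ (1 - δ + δ) * volume (closedBall x (2 * r)) := by
            gcongr
            exact le_tsub_add
    have h6 : volume (closedBall x (2 * r) ∩ S) + volume (closedBall x (2 * r) \ S) ≤
        volume (closedBall x (2 * r) ∩ S) + δ * volume (closedBall x (2 * r)) := by
      rw [h3]
      refine h5.trans ?_
      gcongr
      rwa [inter_comm] at h2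
    refine (ENNReal.add_le_add_iff_left ?_).1 h6
    exact ne_top_of_le_ne_top hvT (measure_mono inter_subset_left)
  have h9 : volume (closedBall x (2 * r)) ≤ ENNReal.ofReal (2 ^ 3) * volume (Kc (V x) x r) :=
    vol_ball_comp (V x) x (r := r) (c := 2) hr0 (by norm_num)
  calc volume (Kc (V x) x r \ S) ≤ volume (closedBall x (2 * r) \ S) :=
        measure_mono (sdiff_subset_sdiff_left (Kc_subset (V x) x hr0.le))
    _ ≤ δ * volume (closedBall x (2 * r)) := h4
    _ ≤ δ * (ENNReal.ofReal (2 ^ 3) * volume (Kc (V x) x r)) := by gcongr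
    _ = ENNReal.ofReal (d x) * volume (Kc (V x) x r) := by
        rw [← mul_assoc, hδ, ← ENNReal.ofReal_mul (by have := hd x; positivity)]
        congr 2
        ring

/-- continuity, on rotated cubes. -/
theorem ev_cont {Om : Set R3} (hO : IsOpen Om) {f : R3 → R3} (hf : ContinuousOn f Om)
    (V : R3 → (R3 ≃ₗᵢ[ℝ] R3)) {η : ℝ} (hη : 0 < η) {x : R3} (hx : x ∈ Om) :
    ∀ᶠ r in 𝓝[>] (0 : ℝ), ∀ y ∈ Kc (V x) x r, ‖f y - f x‖ ≤ η := by
  have h1 : ContinuousAt f x := hf.continuousAt (hO.mem_nhds hx)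
  obtain ⟨ρ, hρ, hρ2⟩ := Metric.continuousAt_iff.1 h1 η hη
  have h2 : ∀ᶠ s in 𝓝[>] (0 : ℝ), s ∈ Ioo 0 (ρ / 2) := Ioo_mem_nhdsGT (by linarith)
  filter_upwards [h2] with s hs y hy
  have h3 := Kc_subset (V x) x hs.1.le hy
  rw [mem_closedBall] at h3
  have h4 := hρ2 (show dist y x < ρ by linarith [hs.2])
  rw [dist_eq_norm] at h4
  exact h4.le

end

end Crest.Agent.R096.Sk4_663
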