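import Crest.Agent.R096.Sk4b_663

/-!
Row 96 (S0127), helper663.  Patching a Sobolev homeomorphism on finitely many disjoint open sets
(LOCALITY) by locally PL homeomorphisms.
-/

set_option autoImplicit false
set_option linter.unusedSectionVars false
set_option linter.style.longLine false

open MeasureTheory Set Filter Topology Metric
open scoped ENNReal Gradient NNReal
open Crest.AnalysisR.VecCalc3 Crest.AnalysisR.Sobolev
open Crest.Agent.R096.Str_696 (LocPL)
open Crest.Agent.R096.Sk_962 (SH Gr Q0 Qc0 Kc Ko dg PLA)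
open Crest.Agent.R96.Lu_538 (Gmat Gmat_apply gmatL)

namespace Crest.Agent.R096.Sk4_663

noncomputable section

theorem measurable_Gr (g : R3 → R3) (j : Fin 3) : Measurable (Gr g j) := by
  unfold Gr gradient
  exact (InnerProductSpace.toDual ℝ R3).symm.continuous.measurable.comp (measurable_fderiv ℝ _)

theorem lintegral_of_memLp {Om : Set R3} {p : ℝ} (hp : 1 ≤ p) {G : R3 → R3}
    (hG : MemLp G (ENNReal.ofReal p) (volume.restrict Om)) : ∫⁻ y in Om, ‖G y‖ₑ ^ p ≠ ∞ := by
  have hp0 : 0 < p := by linarith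
  have h1 := hG.2
  rw [eLpNorm_lt_top_iff_lintegral_rpow_enorm_lt_top (by simpa using hp0)
    ENNReal.ofReal_ne_top] at h1
  rw [ENNReal.toReal_ofReal hp0.le] at h1
  exact h1.ne

theorem memLp_of_lintegral {Om : Set R3} {p : ℝ} (hp : 1 ≤ p) {G : R3 → R3}
    (hm : AEStronglyMeasurable G (volume.restrict Om)) (hG : ∫⁻ y in Om, ‖G y‖ₑ ^ p ≠ ∞) :
    MemLp G (ENNReal.ofReal p) (volume.restrict Om) := by
  have hp0 : 0 < p := by linarith
  refine ⟨hm, ?_⟩
  rw [eLpNorm_lt_top_iff_lintegral_rpow_enorm_lt_top (by simpa using hp0)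
    ENNReal.ofReal_ne_top, ENNReal.toReal_ofReal hp0.le]
  exact lt_top_iff_ne_top.2 hG

/-- **LOCALITY**: the patched map is a Sobolev homeomorphism. -/
theorem pat_SH {p : ℝ} (hp : 1 ≤ p) {Om La U : Set R3} {f g : R3 → R3} {G : Fin 3 → R3 → R3}
    (hO : IsOpen Om) (hOb : Bornology.IsBounded Om) (hLb : Bornology.IsBounded La)
    (H : SH p Om La f G) (hU : IsOpen U) (hUc : IsCompact (closure U))
    (hUO : closure U ⊆ Om) (hg : IsHomeomorphOn g U (f '' U)) (hpl : LocPL g U)
    (hbd : ∀ z ∈ frontier U, Tendsto (fun x => g x - f x) (𝓝[U] z) (𝓝 0))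
    (hE : ∀ j, ∫⁻ x in U, ‖Gr g j x‖ₑ ^ p ≠ ∞) :
    SH p Om La (pat U g f) (fun j => pat U (Gr g j) (G j)) := by
  have hp0 : 0 < p := by linarith
  have hUO' : U ⊆ Om := subset_closure.trans hUO
  have hfin : volume Om ≠ ∞ := hOb.measure_lt_top.ne
  have : IsFiniteMeasure (volume.restrict Om) :=
    ⟨by rw [Measure.restrict_apply_univ]; exact hfin.lt_top⟩
  have hh : IsHomeomorphOn (pat U g f) Om La := pat_homeo hO hU hUc hUO H.homeo hg hbd
  have hcf : ContinuousOn f Om := by
    obtain ⟨fi, f1, f2, f3, f4, f5, f6⟩ := H.homeo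
    exact f5
  have hcg : ContinuousOn g U := by
    obtain ⟨fi, f1, f2, f3, f4, f5, f6⟩ := hg
    exact f5
  have hGm : ∀ j, MemLp (pat U (Gr g j) (G j)) (ENNReal.ofReal p) (volume.restrict Om) := by
    intro j
    apply memLp_of_lintegral hp
    · have h1 : AEStronglyMeasurable (U.indicator (Gr g j)) (volume.restrict Om) :=
        ((measurable_Gr g j).indicator hU.measurableSet).aestronglyMeasurable
      have h2 : AEStronglyMeasurable (Uᶜ.indicator (G j)) (volume.restrict Om) :=
        (H.memG j).1.indicator hU.measurableSet.compl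
      refine (h1.add h2).congr (Eventually.of_forall fun x => ?_)
      by_cases hx : x ∈ U
      · simp [pat_of_mem hx, hx]
      · simp [pat_of_not hx, hx]
    · have h1 : ∫⁻ y in Om, ‖pat U (Gr g j) (G j) y‖ₑ ^ p ≤
          (∫⁻ y in U, ‖pat U (Gr g j) (G j) y‖ₑ ^ p) +
            ∫⁻ y in Om \ U, ‖pat U (Gr g j) (G j) y‖ₑ ^ p := by
        have : Om ⊆ U ∪ (Om \ U) := by
          intro x hx
          by_cases h : x ∈ U
          · exact Or.inl h
          · exact Or.inr ⟨hx, h⟩
        exact (lintegral_mono_set this).trans (lintegral_union_le _ _ _)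
      have h2 : ∫⁻ y in U, ‖pat U (Gr g j) (G j) y‖ₑ ^ p = ∫⁻ y in U, ‖Gr g j y‖ₑ ^ p := by
        apply setLIntegral_congr_fun hU.measurableSet
        intro x hx
        simp only [pat_of_mem hx]
      have h3 : ∫⁻ y in Om \ U, ‖pat U (Gr g j) (G j) y‖ₑ ^ p ≤ ∫⁻ y in Om, ‖G j y‖ₑ ^ p := by
        have h4 : ∫⁻ y in Om \ U, ‖pat U (Gr g j) (G j) y‖ₑ ^ p = ∫⁻ y in Om \ U, ‖G j y‖ₑ ^ p := by
          apply setLIntegral_congr_fun (hO.measurableSet.diff hU.measurableSet)
          intro x hx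
          simp only [pat_of_not hx.2]
        rw [h4]
        exact lintegral_mono_set sdiff_subset
      refine ne_top_of_le_ne_top ?_ h1
      rw [h2]
      exact ENNReal.add_ne_top.2 ⟨hE j, ne_top_of_le_ne_top (lintegral_of_memLp hp (H.memG j)) h3⟩
  refine ⟨hh, ?_, ?_, hGm⟩
  · obtain ⟨fi, f1, f2, f3, f4, f5, f6⟩ := hh
    obtain ⟨M, hM⟩ := hLb.exists_norm_le
    have hm : AEStronglyMeasurable (pat U g f) (volume.restrict Om) :=
      f5.aestronglyMeasurable hO.measurableSet
    refine MemLp.of_bound hm M ?_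
    rw [ae_restrict_iff' hO.measurableSet]
    exact Eventually.of_forall fun x hx => hM _ (f1 hx)
  · intro j
    have hL : LocallyLipschitzOn U g := Crest.Agent.R96.Sob7_199.locallyLipschitzOn_of_locPL hpl
    have hwg := Crest.Agent.R96.Sob7_199.grad_of_loclip' hU hL j
    have hD := pat_sub_cont hO hU hUO hcf hcg hbd
    refine Crest.Agent.R96.Sob7_199.grad_glue hO hU hUO' (H.wg j) hwg
      (fun x hx => by rw [pat_of_mem hx]) (fun x _ hx => by rw [pat_of_not hx])
      (fun x hx => by rw [pat_of_mem hx]; rfl) (fun x _ hx => by rw [pat_of_not hx]) ?_ ?_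
    · have h1 : Continuous fun x => (pat U g f x - f x) j :=
        (EuclideanSpace.proj (𝕜 := ℝ) (ι := Fin 3) j).continuous.comp hD
      exact h1.continuousOn
    · have h1 : Integrable (pat U (Gr g j) (G j)) (volume.restrict Om) :=
        (hGm j).integrable (by simpa using hp)
      exact IntegrableOn.locallyIntegrableOn h1

/-- **finitely many patches**. -/
theorem pat_finset {p : ℝ} (hp : 1 ≤ p) {Om La : Set R3} {f : R3 → R3} {G : Fin 3 → R3 → R3}
    (hO : IsOpen Om) (hOb : Bornology.IsBounded Om) (hLb : Bornology.IsBounded La)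
    (H : SH p Om La f G) {ι : Type*} (T : Finset ι) (U : ι → Set R3) (g : ι → R3 → R3)
    (hU : ∀ a ∈ T, IsOpen (U a)) (hUc : ∀ a ∈ T, IsCompact (closure (U a)))
    (hUO : ∀ a ∈ T, closure (U a) ⊆ Om)
    (hdis : (T : Set ι).PairwiseDisjoint (fun a => closure (U a)))
    (hg : ∀ a ∈ T, IsHomeomorphOn (g a) (U a) (f '' U a)) (hpl : ∀ a ∈ T, LocPL (g a) (U a))
    (hbd : ∀ a ∈ T, ∀ z ∈ frontier (U a), Tendsto (fun x => g a x - f x) (𝓝[U a] z) (𝓝 0))
    (hE : ∀ a ∈ T, ∀ j, ∫⁻ x in U a, ‖Gr (g a) j x‖ₑ ^ p ≠ ∞) :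
    ∃ (f' : R3 → R3) (G' : Fin 3 → R3 → R3), SH p Om La f' G' ∧
      (∀ a ∈ T, ∀ x ∈ U a, f' x = g a x ∧ ∀ j, G' j x = Gr (g a) j x) ∧
      (∀ x, (∀ a ∈ T, x ∉ U a) → f' x = f x ∧ ∀ j, G' j x = G j x) := by
  classical
  induction T using Finset.induction_on with
  | empty =>
    refine ⟨f, G, H, ?_, ?_⟩
    · intro a ha; simp at ha
    · intro x _; exact ⟨rfl, fun _ => rfl⟩
  | insert b T hb ih =>
    have hmem : ∀ a ∈ T, a ∈ insert b T := fun a ha => Finset.mem_insert_of_mem ha
    have hbm : b ∈ insert b T := Finset.mem_insert_self b T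
    obtain ⟨f', G', H', h1, h2⟩ := ih (fun a ha => hU a (hmem a ha))
      (fun a ha => hUc a (hmem a ha)) (fun a ha => hUO a (hmem a ha))
      (hdis.subset (by simp)) (fun a ha => hg a (hmem a ha)) (fun a ha => hpl a (hmem a ha))
      (fun a ha => hbd a (hmem a ha)) (fun a ha => hE a (hmem a ha))
    have hdisb : ∀ a ∈ T, Disjoint (closure (U a)) (closure (U b)) := by
      intro a ha
      exact hdis (by simpa using hmem a ha) (by simp) (fun h => hb (h ▸ ha))
    have hout : ∀ x ∈ closure (U b), ∀ a ∈ T, x ∉ U a := by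
      intro x hx a ha hxa
      exact disjoint_left.1 (hdisb a ha) (subset_closure hxa) hx
    have himg : f' '' U b = f '' U b := by
      apply image_congr
      intro x hx
      exact (h2 x (hout x (subset_closure hx))).1
    have hgb : IsHomeomorphOn (g b) (U b) (f' '' U b) := by
      rw [himg]; exact hg b hbm
    refine ⟨pat (U b) (g b) f', fun j => pat (U b) (Gr (g b) j) (G' j),
      pat_SH hp hO hOb hLb H' (hU b hbm) (hUc b hbm) (hUO b hbm) hgb (hpl b hbm) ?_ (hE b hbm),
      ?_, ?_⟩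
    · intro z hz
      refine (hbd b hbm z hz).congr' ?_
      filter_upwards [self_mem_nhdsWithin] with x hx
      rw [(h2 x (hout x (subset_closure hx))).1]
    · intro a ha x hx
      rcases Finset.mem_insert.1 ha with rfl | ha'
      · exact ⟨pat_of_mem hx, fun j => pat_of_mem hx⟩
      · have hxb : x ∉ U b := fun h =>
          hout x (subset_closure h) a ha' hx
        refine ⟨?_, fun j => ?_⟩
        · rw [pat_of_not hxb]; exact (h1 a ha' x hx).1
        · exact (pat_of_not hxb).trans ((h1 a ha' x hx).2 j)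
    · intro x hx
      have hxb : x ∉ U b := hx b hbm
      have h3 := h2 x (fun a ha => hx a (hmem a ha))
      refine ⟨?_, fun j => ?_⟩
      · rw [pat_of_not hxb]; exact h3.1
      · exact (pat_of_not hxb).trans (h3.2 j)

end

end Crest.Agent.R096.Sk4_663
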