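import Crest.Agent.R096.Sk4b_663

/-!
Row 96 (S0127), helper663.  Frames: the singular value decomposition of a singular matrix and the
conjugation of the rows of a matrix by two isometries.
-/

set_option autoImplicit false
set_option linter.unusedSectionVars false
set_option linter.style.longLine false

open MeasureTheory Set Filter Topology Metric
open scoped ENNReal Gradient NNReal
open Crest.AnalysisR.VecCalc3 Crest.AnalysisR.Sobolev
open Crest.Agent.R096.Str_696 (LocPL)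
open Crest.Agent.R096.Sk_962 (SH Gr Q0 Qc0 Kc Ko dg PLA)
open Crest.Agent.R96.Lu_538 (Gmat Gmat_apply gmatL gmatL_apply)

namespace Crest.Agent.R096.Sk4_663

noncomputable section

/-! ### singular value decomposition -/

theorem svd (A : R3 →L[ℝ] R3) : ∃ (v w : OrthonormalBasis (Fin 3) ℝ R3) (s : Fin 3 → ℝ),
    (∀ i, 0 ≤ s i) ∧ ∀ i, A (v i) = s i • w i := by
  classical
  set T : R3 →L[ℝ] R3 := (ContinuousLinearMap.adjoint A).comp A with hT
  have hsym : (T : R3 →ₗ[ℝ] R3).IsSymmetric := by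
    intro x y
    simp only [hT, ContinuousLinearMap.coe_coe, ContinuousLinearMap.comp_apply]
    rw [ContinuousLinearMap.adjoint_inner_left, ContinuousLinearMap.adjoint_inner_right]
  have hn : Module.finrank ℝ R3 = 3 := by simp
  set v := hsym.eigenvectorBasis hn with hv
  have hAv : ∀ i j, i ≠ j → inner ℝ (A (v i)) (A (v j)) = 0 := by
    intro i j hij
    have h1 : inner ℝ (A (v i)) (A (v j)) = inner ℝ (T (v i)) (v j) := by
      simp only [hT, ContinuousLinearMap.comp_apply]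
      rw [ContinuousLinearMap.adjoint_inner_left]
    rw [h1]
    have h2 : T (v i) = (hsym.eigenvalues hn i : ℝ) • v i := hsym.apply_eigenvectorBasis hn i
    rw [h2, inner_smul_left, v.orthonormal.2 hij, mul_zero]
  set s : Fin 3 → ℝ := fun i => ‖A (v i)‖ with hs
  set w0 : Fin 3 → R3 := fun i => (s i)⁻¹ • A (v i) with hw0
  set S : Set (Fin 3) := {i | s i ≠ 0} with hS
  have hon : Orthonormal ℝ (S.domRestrict w0) := by
    constructor
    · rintro ⟨i, hi⟩
      have hi' : s i ≠ 0 := hi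
      have hi0 : 0 ≤ s i := norm_nonneg _
      change ‖(s i)⁻¹ • A (v i)‖ = 1
      rw [norm_smul, norm_inv, Real.norm_of_nonneg hi0]
      exact inv_mul_cancel₀ hi'
    · rintro ⟨i, hi⟩ ⟨j, hj⟩ hij
      have hij' : i ≠ j := fun h => hij (Subtype.ext h)
      change inner ℝ ((s i)⁻¹ • A (v i)) ((s j)⁻¹ • A (v j)) = 0
      rw [inner_smul_left, inner_smul_right, hAv i j hij', mul_zero, mul_zero]
  obtain ⟨w, hw⟩ := hon.exists_orthonormalBasis_extension_of_card_eq (by simp)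
  refine ⟨v, w, s, fun i => norm_nonneg _, fun i => ?_⟩
  by_cases hi : s i = 0
  · rw [hi, zero_smul]
    exact norm_eq_zero.1 hi
  · rw [hw i hi]
    simp only [hw0, smul_smul]
    rw [mul_inv_cancel₀ hi, one_smul]

/-- a singular matrix has a singular value decomposition with last singular value `0`. -/
theorem svd0 (A : R3 →L[ℝ] R3) (hA : A.det = 0) :
    ∃ (V R : R3 ≃ₗᵢ[ℝ] R3) (s : Fin 3 → ℝ), (∀ i, 0 ≤ s i) ∧ s 2 = 0 ∧
      ∀ i, A (V (EuclideanSpace.single i 1)) = s i • R (EuclideanSpace.single i 1) := by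
  classical
  obtain ⟨v, w, s, hs, hA'⟩ := svd A
  have h0 : ∃ i, s i = 0 := by
    by_contra hcon
    push Not at hcon
    have hker : LinearMap.ker (A : R3 →ₗ[ℝ] R3) ≠ ⊥ := by
      intro hk
      have := LinearMap.isUnit_det (A : R3 →ₗ[ℝ] R3) ((LinearMap.isUnit_iff_ker_eq_bot _).2 hk)
      exact this.ne_zero hA
    obtain ⟨x, hx, hx0⟩ := (Submodule.ne_bot_iff _).1 hker
    have hx : A x = 0 := hx
    apply hx0
    have h1 : x = ∑ i, v.repr x i • v i := (v.sum_repr x).symm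
    have h2 : ∀ k, v.repr x k = 0 := by
      intro k
      have h3 : A x = ∑ i, (v.repr x i * s i) • w i := by
        conv_lhs => rw [h1, map_sum]
        apply Finset.sum_congr rfl
        intro i _
        rw [map_smul, hA', smul_smul]
      have h4 : inner ℝ (w k) (A x) = v.repr x k * s k := by
        rw [h3, w.orthonormal.inner_right_sum _ (Finset.mem_univ k)]
      rw [hx, inner_zero_right] at h4
      exact (mul_eq_zero.1 h4.symm).resolve_right (hcon k)
    rw [h1]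
    simp [h2]
  obtain ⟨i0, hi0⟩ := h0
  set σ : Equiv.Perm (Fin 3) := Equiv.swap i0 2 with hσ
  refine ⟨(v.reindex σ).repr.symm, (w.reindex σ).repr.symm, fun i => s (σ.symm i),
    fun i => hs _, ?_, fun i => ?_⟩
  · have : σ.symm 2 = i0 := by simp [hσ]
    simp only [this, hi0]
  · rw [OrthonormalBasis.repr_symm_single, OrthonormalBasis.repr_symm_single,
      OrthonormalBasis.reindex_apply, OrthonormalBasis.reindex_apply]
    exact hA' _

/-! ### conjugation of rows -/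

theorem gmatL_injective : Function.Injective gmatL := by
  intro g g' h
  funext j
  apply ext_inner_right ℝ
  intro w
  have := congrArg (fun L : R3 →L[ℝ] R3 => L w j) h
  exact this

/-- the rows of `R⁻¹ M V`, where `g` are the rows of `M`. -/
def cj (V R : R3 ≃ₗᵢ[ℝ] R3) (g : Fin 3 → R3) (j : Fin 3) : R3 :=
  ∑ k, R.symm (EuclideanSpace.single k 1) j • V.symm (g k)

theorem gmatL_cj (V R : R3 ≃ₗᵢ[ℝ] R3) (g : Fin 3 → R3) (w : R3) :
    gmatL (cj V R g) w = R.symm (gmatL g (V w)) := by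
  ext j
  rw [gmatL_apply, cj, sum_inner]
  have h1 : gmatL g (V w) = ∑ k, inner ℝ (g k) (V w) • EuclideanSpace.single k (1:ℝ) := by
    ext i
    rw [gmatL_apply]
    simp [Pi.single_apply]
  rw [h1, map_sum]
  have h2 : (∑ k, R.symm (inner ℝ (g k) (V w) • EuclideanSpace.single k (1:ℝ))) j =
      ∑ k, inner ℝ (g k) (V w) * R.symm (EuclideanSpace.single k (1:ℝ)) j := by
    rw [WithLp.ofLp_sum, Finset.sum_apply]
    apply Finset.sum_congr rfl
    intro k _
    rw [map_smul]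
    simp
  rw [h2]
  apply Finset.sum_congr rfl
  intro k _
  rw [inner_smul_left, mul_comm]
  congr 1
  have h3 : inner ℝ (V.symm (g k)) w = inner ℝ (g k) (V w) := by
    rw [← V.inner_map_map, V.apply_symm_apply]
  exact h3

theorem cj_sub (V R : R3 ≃ₗᵢ[ℝ] R3) (g g' : Fin 3 → R3) (j : Fin 3) :
    cj V R g j - cj V R g' j = cj V R (fun k => g k - g' k) j := by
  simp only [cj, ← Finset.sum_sub_distrib, ← smul_sub, map_sub]

theorem norm_cj_le (V R : R3 ≃ₗᵢ[ℝ] R3) (g : Fin 3 → R3) (j : Fin 3) :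
    ‖cj V R g j‖ ≤ ∑ k, ‖g k‖ := by
  refine (norm_sum_le _ _).trans (Finset.sum_le_sum fun k _ => ?_)
  rw [norm_smul, LinearIsometryEquiv.norm_map]
  have h1 : ‖R.symm (EuclideanSpace.single k (1:ℝ)) j‖ ≤ 1 := by
    refine (PiLp.norm_apply_le _ j).trans ?_
    rw [LinearIsometryEquiv.norm_map]
    simp
  calc _ ≤ 1 * ‖g k‖ := mul_le_mul_of_nonneg_right h1 (norm_nonneg _)
    _ = ‖g k‖ := one_mul _

/-- the constant `3 ^ p` -/
def cp (p : ℝ) : ℝ≥0∞ := 3 * 3 ^ (p - 1)

theorem cp_ne_top {p : ℝ} (hp : 1 ≤ p) : cp p ≠ ∞ :=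
  ENNReal.mul_ne_top (by simp) (ENNReal.rpow_ne_top_of_nonneg (by linarith) (by simp))

theorem sum_cj_le (V R : R3 ≃ₗᵢ[ℝ] R3) (g : Fin 3 → R3) {p : ℝ} (hp : 1 ≤ p) :
    ∑ j, ‖cj V R g j‖ₑ ^ p ≤ cp p * ∑ k, ‖g k‖ₑ ^ p := by
  have hp0 : 0 ≤ p := by linarith
  have h1 : ∀ j, ‖cj V R g j‖ₑ ^ p ≤ 3 ^ (p - 1) * ∑ k, ‖g k‖ₑ ^ p := by
    intro j
    have h2 : ‖cj V R g j‖ₑ ≤ ∑ k, ‖g k‖ₑ := by
      have h3 := norm_cj_le V R g j
      have h4 : ‖cj V R g j‖ₑ ≤ ENNReal.ofReal (∑ k, ‖g k‖) := by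
        rw [← ofReal_norm]
        exact ENNReal.ofReal_le_ofReal h3
      refine h4.trans (le_of_eq ?_)
      rw [ENNReal.ofReal_sum_of_nonneg fun _ _ => norm_nonneg _]
      simp only [ofReal_norm]
    refine (ENNReal.rpow_le_rpow h2 hp0).trans ?_
    have h5 := ENNReal.rpow_sum_le_const_mul_sum_rpow Finset.univ (fun k => ‖g k‖ₑ) hp
    simpa using h5
  calc ∑ j, ‖cj V R g j‖ₑ ^ p ≤ ∑ _j : Fin 3, 3 ^ (p - 1) * ∑ k, ‖g k‖ₑ ^ p :=
        Finset.sum_le_sum fun j _ => h1 j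
    _ = 3 * 3 ^ (p - 1) * ∑ k, ‖g k‖ₑ ^ p := by
        rw [Finset.sum_const, Finset.card_univ, Fintype.card_fin, nsmul_eq_mul, mul_assoc]
        norm_num
    _ = cp p * ∑ k, ‖g k‖ₑ ^ p := rfl

end

end Crest.Agent.R096.Sk4_663
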