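import Crest.Agent.R096.Sk4c_663
import Crest.Agent.R096.Sk4d_663

/-!
Row 96 (S0127), helper663.  Transport of Sobolev homeomorphisms by similarities.
-/

set_option autoImplicit false
set_option linter.unusedSectionVars false
set_option linter.style.longLine false

open MeasureTheory Set Filter Topology Metric
open scoped ENNReal Gradient NNReal
open Crest.AnalysisR.VecCalc3 Crest.AnalysisR.Sobolev
open Crest.Agent.R096.Str_696 (LocPL)
open Crest.Agent.R096.Sk_962 (SH Gr Q0 Qc0 Kc Ko dg PLA)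
open Crest.Agent.R96.Lu_538 (Gmat Gmat_apply gmatL gmatL_apply)
open Crest.Agent.R96.Sob8_199 (aff aff_apply aff_symm_apply fac fac_ne_zero fac_ne_top map_aff
  grad_similarity)

namespace Crest.Agent.R096.Sk4_663

noncomputable section

/-- the similarity `u ↦ r V u` -/
def simL (V : R3 ≃ₗᵢ[ℝ] R3) (r : ℝ) (hr : r ≠ 0) : R3 ≃L[ℝ] R3 :=
  ContinuousLinearEquiv.equivOfInverse (r • (V.toContinuousLinearEquiv : R3 →L[ℝ] R3))
    (r⁻¹ • (V.symm.toContinuousLinearEquiv : R3 →L[ℝ] R3))
    (fun u => by simp [smul_smul, hr]) (fun u => by simp [smul_smul, hr])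

theorem simL_apply (V : R3 ≃ₗᵢ[ℝ] R3) (r : ℝ) (hr : r ≠ 0) (u : R3) :
    simL V r hr u = r • V u := rfl

theorem simL_symm_apply (V : R3 ≃ₗᵢ[ℝ] R3) (r : ℝ) (hr : r ≠ 0) (u : R3) :
    (simL V r hr).symm u = r⁻¹ • V.symm u := rfl

theorem lint_aff (a : R3) (A : R3 ≃L[ℝ] R3) (S : Set R3) (F : R3 → ℝ≥0∞) :
    ∫⁻ u in aff a A ⁻¹' S, F (aff a A u) = fac A * ∫⁻ y in S, F y := by
  have hme := (aff a A).measurableEmbedding
  have h1 := hme.lintegral_map (μ := volume.restrict (aff a A ⁻¹' S)) F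
  rw [← h1, ← hme.restrict_map, map_aff, Measure.restrict_smul, lintegral_smul_measure]
  rfl

theorem vol_aff (a : R3) (A : R3 ≃L[ℝ] R3) (S : Set R3) :
    volume (aff a A ⁻¹' S) = fac A * volume S := by
  have := lint_aff a A S (fun _ => 1)
  simpa using this

theorem aesm_aff (a : R3) (A : R3 ≃L[ℝ] R3) {S : Set R3} {F : R3 → R3}
    (hF : AEStronglyMeasurable F (volume.restrict S)) :
    AEStronglyMeasurable (fun u => F (aff a A u)) (volume.restrict (aff a A ⁻¹' S)) := by
  have hme := (aff a A).measurableEmbedding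
  have h1 : Measure.map (aff a A) (volume.restrict (aff a A ⁻¹' S)) = fac A • volume.restrict S := by
    rw [← hme.restrict_map, map_aff, Measure.restrict_smul]
  have h2 : AEStronglyMeasurable F (Measure.map (aff a A) (volume.restrict (aff a A ⁻¹' S))) := by
    rw [h1]
    exact hF.smul_measure _
  exact h2.comp_measurable hme.measurable

theorem homeo_conj {Om La : Set R3} {f : R3 → R3} (φ ψ : R3 ≃ₜ R3) (h : IsHomeomorphOn f Om La) :
    IsHomeomorphOn (fun u => ψ.symm (f (φ u))) (φ ⁻¹' Om) (ψ ⁻¹' La) := by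
  obtain ⟨fi, f1, f2, f3, f4, f5, f6⟩ := h
  refine ⟨fun w => φ.symm (fi (ψ w)), ?_, ?_, ?_, ?_, ?_, ?_⟩
  · intro u hu
    simp only [mem_preimage, Homeomorph.apply_symm_apply]
    exact f1 hu
  · intro w hw
    simp only [mem_preimage, Homeomorph.apply_symm_apply]
    exact f2 hw
  · intro u hu
    simp only [Homeomorph.apply_symm_apply]
    rw [f3 _ hu, Homeomorph.symm_apply_apply]
  · intro w hw
    simp only [Homeomorph.apply_symm_apply]
    rw [f4 _ hw, Homeomorph.symm_apply_apply]
  · exact ψ.symm.continuous.comp_continuousOn (f5.comp φ.continuous.continuousOn fun u hu => hu)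
  · exact φ.symm.continuous.comp_continuousOn (f6.comp ψ.continuous.continuousOn fun u hu => hu)

theorem adjoint_simL (V : R3 ≃ₗᵢ[ℝ] R3) (r : ℝ) (hr : r ≠ 0) (v : R3) :
    ContinuousLinearMap.adjoint (simL V r hr : R3 →L[ℝ] R3) v = r • V.symm v := by
  apply ext_inner_right ℝ
  intro w
  rw [ContinuousLinearMap.adjoint_inner_left]
  change inner ℝ v (r • V w) = inner ℝ (r • V.symm v) w
  rw [inner_smul_left, inner_smul_right]
  congr 1
  rw [← V.inner_map_map (V.symm v) w, V.apply_symm_apply]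

/-- **transport of Sobolev homeomorphisms** by `u ↦ x + r V u` in the domain and `w ↦ r R w` in
the target. -/
theorem SH_conj {p : ℝ} (hp : 1 ≤ p) {Om La : Set R3} {f : R3 → R3} {G : Fin 3 → R3 → R3}
    (hO : IsOpen Om) (H : SH p Om La f G) (V R : R3 ≃ₗᵢ[ℝ] R3) (x : R3) {r : ℝ} (hr : r ≠ 0) :
    SH p (aff x (simL V r hr) ⁻¹' Om) (simL R r hr ⁻¹' La)
      (fun u => (simL R r hr).symm (f (aff x (simL V r hr) u)))
      (fun j u => cj V R (fun k => G k (aff x (simL V r hr) u)) j) := by
  have hp0 : 0 < p := by linarith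
  set φ := aff x (simL V r hr) with hφ
  have hO' : IsOpen (φ ⁻¹' Om) := hO.preimage φ.continuous
  have hh : IsHomeomorphOn (fun u => (simL R r hr).symm (f (φ u))) (φ ⁻¹' Om)
      (simL R r hr ⁻¹' La) := homeo_conj φ (simL R r hr).toHomeomorph H.homeo
  refine ⟨hh, ?_, ?_, ?_⟩
  · apply memLp_of_lintegral hp
    · obtain ⟨fi, f1, f2, f3, f4, f5, f6⟩ := hh
      exact f5.aestronglyMeasurable hO'.measurableSet
    · have h1 : ∀ u, ‖(simL R r hr).symm (f (φ u))‖ₑ ^ p = ‖r⁻¹‖ₑ ^ p * ‖f (φ u)‖ₑ ^ p := by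
        intro u
        rw [simL_symm_apply, enorm_smul, LinearIsometryEquiv.enorm_map,
          ENNReal.mul_rpow_of_nonneg _ _ hp0.le]
      simp only [h1]
      rw [lintegral_const_mul' _ _ (ENNReal.rpow_ne_top_of_nonneg hp0.le (by simp)),
        lint_aff x (simL V r hr) Om (fun y => ‖f y‖ₑ ^ p)]
      exact ENNReal.mul_ne_top (ENNReal.rpow_ne_top_of_nonneg hp0.le (by simp))
        (ENNReal.mul_ne_top (fac_ne_top _) (lintegral_of_memLp hp H.mem))
  · intro j
    have h1 := grad_similarity hO H.wg x 0 (simL V r hr) ((simL R r hr).symm : R3 →L[ℝ] R3) j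
    convert h1 using 1
    · funext u
      simp [hφ]
    · funext u
      simp only [cj]
      apply Finset.sum_congr rfl
      intro k _
      rw [adjoint_simL]
      change _ = (r⁻¹ • R.symm (EuclideanSpace.single k 1)) j • _
      simp [smul_smul, hφ]
      field_simp
  · intro j
    have hm : ∀ k, AEStronglyMeasurable (fun u => G k (φ u)) (volume.restrict (φ ⁻¹' Om)) :=
      fun k => aesm_aff x (simL V r hr) (H.memG k).1
    apply memLp_of_lintegral hp
    · unfold cj
      apply Finset.aestronglyMeasurable_fun_sum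
      intro k _
      exact (V.symm.continuous.comp_aestronglyMeasurable (hm k)).const_smul
        (R.symm (EuclideanSpace.single k (1:ℝ)) j)
    · have h1 : ∀ u, ‖cj V R (fun k => G k (φ u)) j‖ₑ ^ p ≤ cp p * ∑ k, ‖G k (φ u)‖ₑ ^ p := by
        intro u
        refine le_trans ?_ (sum_cj_le V R (fun k => G k (φ u)) hp)
        exact Finset.single_le_sum (f := fun j => ‖cj V R (fun k => G k (φ u)) j‖ₑ ^ p)
          (fun _ _ => zero_le) (Finset.mem_univ j)
      refine ne_top_of_le_ne_top ?_ (lintegral_mono h1)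
      rw [lintegral_const_mul' _ _ (cp_ne_top hp),
        lint_aff x (simL V r hr) Om (fun y => ∑ k, ‖G k y‖ₑ ^ p),
        lintegral_finsetSum' _ fun j _ => ((H.memG j).1.aemeasurable.enorm).pow_const _]
      exact ENNReal.mul_ne_top (cp_ne_top hp) (ENNReal.mul_ne_top (fac_ne_top _)
        (ENNReal.sum_ne_top.2 fun k _ => lintegral_of_memLp hp (H.memG k)))

end

end Crest.Agent.R096.Sk4_663
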