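import Crest.Agent.R096.Sk4a_663
import Crest.Agent.R096.Sk4e_663

/-!
Row 96 (S0127), helper663.  Transport back from the unit cube to a rotated cube, and the
replacement of a Sobolev homeomorphism in one cube, from `NO0`.
-/

set_option autoImplicit false
set_option linter.unusedSectionVars false
set_option linter.style.longLine false

open MeasureTheory Set Filter Topology Metric
open scoped ENNReal Gradient NNReal
open Crest.AnalysisR.VecCalc3 Crest.AnalysisR.Sobolev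
open Crest.Agent.R096.Str_696 (LocPL)
open Crest.Agent.R096.Sk_962 (SH Gr Q0 Qc0 Kc Ko dg PLA)
open Crest.Agent.R96.Lu_538 (Gmat Gmat_apply gmatL gmatL_apply)
open Crest.Agent.R96.Sob8_199 (aff aff_apply aff_symm_apply fac fac_ne_zero fac_ne_top map_aff
  grad_similarity)
open Crest.Agent.R096.DetN_663 (Gmat_Gr ae_Gmat_det)

namespace Crest.Agent.R096.Sk4_663

noncomputable section

/-! ### the cubes -/

theorem isOpen_Q0 : IsOpen Q0 := by
  have : Q0 = ⋂ i : Fin 3, {x : R3 | |x i| < 1} := by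
    ext x; simp [Q0]
  rw [this]
  apply isOpen_iInter_of_finite
  intro i
  exact isOpen_lt ((EuclideanSpace.proj (𝕜 := ℝ) i).continuous.abs) continuous_const

theorem Q0_subset : Q0 ⊆ Qc0 := fun _ hx i => (hx i).le

theorem Ko_eq (V : R3 ≃ₗᵢ[ℝ] R3) (x : R3) {r : ℝ} (hr : r ≠ 0) :
    Ko V x r = (aff x (simL V r hr)).symm ⁻¹' Q0 := by
  ext y
  constructor
  · rintro ⟨u, hu, rfl⟩
    have : (aff x (simL V r hr)).symm (x + r • V u) = u := by
      rw [Homeomorph.symm_apply_eq]; rfl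
    rw [mem_preimage, this]
    exact hu
  · intro hy
    refine ⟨(aff x (simL V r hr)).symm y, hy, ?_⟩
    exact ((aff x (simL V r hr)).apply_symm_apply y).symm

theorem preimage_Ko (V : R3 ≃ₗᵢ[ℝ] R3) (x : R3) {r : ℝ} (hr : r ≠ 0) :
    aff x (simL V r hr) ⁻¹' Ko V x r = Q0 := by
  rw [Ko_eq V x hr, ← preimage_comp]
  simp

theorem preimage_Kc (V : R3 ≃ₗᵢ[ℝ] R3) (x : R3) {r : ℝ} (hr : r ≠ 0) :
    aff x (simL V r hr) ⁻¹' Kc V x r = Qc0 := by
  ext u
  constructor
  · rintro ⟨v, hv, h⟩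
    have h1 : aff x (simL V r hr) u = aff x (simL V r hr) v := h
    rw [(aff x (simL V r hr)).injective h1]
    exact hv
  · intro hu
    exact ⟨u, hu, rfl⟩

theorem isOpen_Ko (V : R3 ≃ₗᵢ[ℝ] R3) (x : R3) {r : ℝ} (hr : r ≠ 0) : IsOpen (Ko V x r) := by
  rw [Ko_eq V x hr]
  exact isOpen_Q0.preimage (aff x (simL V r hr)).symm.continuous

theorem Ko_subset_Kc (V : R3 ≃ₗᵢ[ℝ] R3) (x : R3) (r : ℝ) : Ko V x r ⊆ Kc V x r := by
  rintro y ⟨u, hu, rfl⟩
  exact ⟨u, Q0_subset hu, rfl⟩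

theorem isCompact_Kc' (V : R3 ≃ₗᵢ[ℝ] R3) (x : R3) (r : ℝ) : IsCompact (Kc V x r) :=
  Crest.Agent.R096.Cub_298.isCompact_Kc V x r

theorem closure_Q0 : closure Q0 = Qc0 := by
  apply Subset.antisymm
  · apply closure_minimal Q0_subset
    have : Qc0 = ⋂ i : Fin 3, {x : R3 | |x i| ≤ 1} := by
      ext x; simp [Qc0]
    rw [this]
    apply isClosed_iInter
    intro i
    exact isClosed_le ((EuclideanSpace.proj (𝕜 := ℝ) i).continuous.abs) continuous_const
  · intro x hx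
    have h1 : Tendsto (fun t : ℝ => t • x) (𝓝[<] 1) (𝓝 ((1:ℝ) • x)) :=
      ((continuous_id.smul continuous_const).tendsto 1).mono_left nhdsWithin_le_nhds
    rw [one_smul] at h1
    refine mem_closure_of_tendsto h1 ?_
    have h2 : ∀ᶠ t in 𝓝[<] (1:ℝ), t ∈ Ioo (0:ℝ) 1 := Ioo_mem_nhdsLT (by norm_num)
    filter_upwards [h2] with t ht i
    have h3 := hx i
    have h4 : (t • x) i = t * x i := rfl
    rw [h4, abs_mul, abs_of_pos ht.1]
    have := abs_nonneg (x i)
    nlinarith [ht.2, ht.1]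

theorem closure_Ko (V : R3 ≃ₗᵢ[ℝ] R3) (x : R3) {r : ℝ} (hr : r ≠ 0) :
    closure (Ko V x r) = Kc V x r := by
  rw [Ko_eq V x hr, ← Homeomorph.preimage_closure, closure_Q0, ← preimage_Kc V x hr,
    ← preimage_comp]
  simp

/-! ### transport back -/

theorem dist_aff_symm (V : R3 ≃ₗᵢ[ℝ] R3) (x : R3) {r : ℝ} (hr : 0 < r) (y z : R3) :
    dist ((aff x (simL V r hr.ne')).symm y) ((aff x (simL V r hr.ne')).symm z) =
      r⁻¹ * dist y z := by
  rw [aff_symm_apply, aff_symm_apply, simL_symm_apply, simL_symm_apply, dist_smul₀,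
    LinearIsometryEquiv.dist_map, dist_add_left, Real.norm_of_nonneg (by positivity)]

theorem LocPL_back {h : R3 → R3} {Ω : Set R3} (H : LocPL h Ω) (V R : R3 ≃ₗᵢ[ℝ] R3) (x : R3)
    {r : ℝ} (hr : 0 < r) :
    LocPL (fun y => simL R r hr.ne' (h ((aff x (simL V r hr.ne')).symm y)))
      ((aff x (simL V r hr.ne')).symm ⁻¹' Ω) := by
  classical
  intro y hy
  obtain ⟨ρ, hρ, S, hc, hS⟩ := H _ hy
  have hmaps : MapsTo (aff x (simL V r hr.ne')).symm (ball y (r * ρ))
      (ball ((aff x (simL V r hr.ne')).symm y) ρ) := by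
    intro z hz
    rw [mem_ball] at hz ⊢
    rw [dist_aff_symm V x hr]
    rw [inv_mul_lt_iff₀ hr]
    exact hz
  let α : R3 →ᵃ[ℝ] R3 :=
    { toFun := fun z => (simL V r hr.ne').symm (-x + z)
      linear := ((simL V r hr.ne').symm : R3 →L[ℝ] R3)
      map_vadd' := by
        intro z v
        simp only [vadd_eq_add, ContinuousLinearMap.coe_coe, ContinuousLinearEquiv.coe_coe]
        rw [← map_add]
        congr 1
        abel }
  let β : R3 →ᵃ[ℝ] R3 := ((simL R r hr.ne' : R3 →L[ℝ] R3) : R3 →ₗ[ℝ] R3).toAffineMap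
  refine ⟨r * ρ, by positivity, S.image (fun g => β.comp (g.comp α)), ?_, ?_⟩
  · exact (simL R r hr.ne').continuous.comp_continuousOn
      (hc.comp (aff x (simL V r hr.ne')).symm.continuous.continuousOn hmaps)
  · intro z hz
    obtain ⟨g, hg, hgz⟩ := hS _ (hmaps hz)
    refine ⟨β.comp (g.comp α), Finset.mem_image_of_mem _ hg, ?_⟩
    simp only [hgz]
    rfl

theorem Gr_back {h : R3 → R3} (V R : R3 ≃ₗᵢ[ℝ] R3) (x : R3) {r : ℝ} (hr : 0 < r) {u : R3}
    (hd : DifferentiableAt ℝ h u) (j : Fin 3) :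
    Gr (fun y => simL R r hr.ne' (h ((aff x (simL V r hr.ne')).symm y))) j
      (aff x (simL V r hr.ne') u) = cj V.symm R.symm (fun k => Gr h k u) j := by
  set φ := aff x (simL V r hr.ne') with hφ
  have h1 : HasFDerivAt (fun y => φ.symm y) ((simL V r hr.ne').symm : R3 →L[ℝ] R3) (φ u) := by
    have h2 : HasFDerivAt (fun y : R3 => -x + y) (ContinuousLinearMap.id ℝ R3) (φ u) :=
      (hasFDerivAt_id _).const_add (-x)
    have h3 := ((simL V r hr.ne').symm : R3 →L[ℝ] R3).hasFDerivAt (x := -x + φ u)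
    have h4 := h3.comp (φ u) h2
    rw [ContinuousLinearMap.comp_id] at h4
    exact h4
  have h5 : HasFDerivAt h (fderiv ℝ h u) (φ.symm (φ u)) := by
    rw [Homeomorph.symm_apply_apply]; exact hd.hasFDerivAt
  have h6 := (simL R r hr.ne' : R3 →L[ℝ] R3).hasFDerivAt.comp (φ u) (h5.comp (φ u) h1)
  have h7 : HasFDerivAt (fun y => simL R r hr.ne' (h (φ.symm y)))
      ((simL R r hr.ne' : R3 →L[ℝ] R3).comp
        ((fderiv ℝ h u).comp ((simL V r hr.ne').symm : R3 →L[ℝ] R3))) (φ u) := h6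
  have h8 := Gmat_Gr h7.differentiableAt
  have h9 := Gmat_Gr hd
  have key : (fun j => Gr (fun y => simL R r hr.ne' (h (φ.symm y))) j (φ u)) =
      cj V.symm R.symm (fun k => Gr h k u) := by
    apply gmatL_injective
    ext1 w
    rw [gmatL_cj]
    change Gmat (Gr fun y => simL R r hr.ne' (h (φ.symm y))) (φ u) w =
      R.symm.symm (Gmat (Gr h) u (V.symm w))
    rw [h8, h9, h7.fderiv]
    simp only [ContinuousLinearMap.comp_apply, ContinuousLinearEquiv.coe_coe, simL_apply,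
      simL_symm_apply, map_smul, smul_smul, LinearIsometryEquiv.symm_symm]
    rw [inv_mul_cancel₀ hr.ne', one_smul]
  exact congrFun key j

theorem exists_small {c b : ℝ≥0∞} (hc : c ≠ ∞) (hb : 0 < b) :
    ∃ t : ℝ, 0 < t ∧ c * ENNReal.ofReal t ≤ b := by
  set b' := min b 1 with hb'
  have hb0 : 0 < b' := lt_min hb (by simp)
  have hbT : b' ≠ ∞ := ne_top_of_le_ne_top (by simp) (min_le_right b 1)
  have hc1 : c + 1 ≠ ∞ := by simp [hc]
  have hc0 : c + 1 ≠ 0 := by simp
  have h1 : b' / (c + 1) ≠ ∞ := ENNReal.div_ne_top hbT hc0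
  have h2 : 0 < b' / (c + 1) := ENNReal.div_pos hb0.ne' hc1
  refine ⟨(b' / (c + 1)).toReal, ENNReal.toReal_pos h2.ne' h1, ?_⟩
  rw [ENNReal.ofReal_toReal h1]
  calc c * (b' / (c + 1)) ≤ (c + 1) * (b' / (c + 1)) := by gcongr; exact le_self_add
    _ = b' := ENNReal.mul_div_cancel hc0 hc1
    _ ≤ b := min_le_left _ _

/-! ### one cube -/

theorem vol_Qc0_pos : 0 < volume Qc0 := by
  refine lt_of_lt_of_le ?_ (measure_mono Q0_subset)
  exact isOpen_Q0.measure_pos volume ⟨0, fun i => by simp⟩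

theorem isCompact_Qc0 : IsCompact Qc0 := by
  have h := isCompact_Kc' (LinearIsometryEquiv.refl ℝ R3) 0 1
  have h2 := preimage_Kc (LinearIsometryEquiv.refl ℝ R3) 0 (r := 1) one_ne_zero
  have h3 : Qc0 = Kc (LinearIsometryEquiv.refl ℝ R3) 0 1 := by
    rw [← h2]
    ext u
    have : aff (0:R3) (simL (LinearIsometryEquiv.refl ℝ R3) 1 one_ne_zero) u = u := by
      rw [aff_apply, simL_apply]
      simp
    rw [mem_preimage, this]
  rw [h3]
  exact h

theorem vol_Qc0_ne_top : volume Qc0 ≠ ∞ := isCompact_Qc0.measure_lt_top.ne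

theorem isBounded_preimage {Om : Set R3} (hb : Bornology.IsBounded Om) (φ : R3 ≃ₜ R3) :
    Bornology.IsBounded (φ ⁻¹' Om) := by
  have h1 : IsCompact (closure Om) := hb.isCompact_closure
  have h2 : IsCompact (φ.symm '' closure Om) := h1.image φ.symm.continuous
  refine h2.isBounded.subset ?_
  rintro u hu
  exact ⟨φ u, subset_closure hu, φ.symm_apply_apply u⟩

theorem isConnected_preimage {Om : Set R3} (hc : IsConnected Om) (φ : R3 ≃ₜ R3) :
    IsConnected (φ ⁻¹' Om) := by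
  have h1 := hc.image φ.symm φ.symm.continuous.continuousOn
  have h2 : φ.symm '' Om = φ ⁻¹' Om := φ.symm.image_eq_preimage_symm Om
  rwa [h2] at h1

theorem det_conj {V R : R3 ≃ₗᵢ[ℝ] R3} {M M' : R3 →L[ℝ] R3} (h : ∀ w, M' w = R.symm (M (V w)))
    (h0 : M.det = 0) : M'.det = 0 := by
  have h1 : (M' : R3 →ₗ[ℝ] R3) = (R.symm.toLinearEquiv : R3 →ₗ[ℝ] R3) ∘ₗ
      ((M : R3 →ₗ[ℝ] R3) ∘ₗ (V.toLinearEquiv : R3 →ₗ[ℝ] R3)) := by
    ext1 w
    exact h w
  change LinearMap.det (M' : R3 →ₗ[ℝ] R3) = 0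
  have h2 : LinearMap.det (M : R3 →ₗ[ℝ] R3) = 0 := h0
  rw [h1, LinearMap.det_comp, LinearMap.det_comp, h2, zero_mul, mul_zero]

/-- **replacement in one cube** from `NO0`. -/
theorem cube_repl {p : ℝ} (hp : 1 ≤ p) (hN : NO0 p) (a : Fin 3 → R3) (ha : (gmatL a).det = 0)
    {e : ℝ} (he : 0 < e) : ∃ (V : R3 ≃ₗᵢ[ℝ] R3) (d : ℝ), 0 < d ∧
      ∀ (Om La : Set R3) (f : R3 → R3) (G : Fin 3 → R3 → R3),
        IsOpen Om → Bornology.IsBounded Om → IsConnected Om →
        IsOpen La → Bornology.IsBounded La → IsConnected La → SH p Om La f G →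
        ∀ (x : R3) (r : ℝ), 0 < r → Kc V x r ⊆ Om →
          ∫⁻ y in Kc V x r, ∑ j, ‖G j y - a j‖ₑ ^ p ≤ ENNReal.ofReal d * volume (Kc V x r) →
          volume (Kc V x r \ Zd G) ≤ ENNReal.ofReal d * volume (Kc V x r) →
          ∃ g : R3 → R3, IsHomeomorphOn g (Ko V x r) (f '' Ko V x r) ∧ LocPL g (Ko V x r) ∧
            (∀ z ∈ frontier (Ko V x r),
              Tendsto (fun y => g y - f y) (𝓝[Ko V x r] z) (𝓝 0)) ∧
            ∫⁻ y in Ko V x r, ∑ j, ‖Gr g j y - a j‖ₑ ^ p ≤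
              ENNReal.ofReal e * volume (Kc V x r) := by
  have hp0 : 0 < p := by linarith
  obtain ⟨V, R, s, hs0, hs2, hs⟩ := svd0 (gmatL a) ha
  have hcja : cj V R a = dg s := by
    apply gmatL_injective
    ext1 w
    rw [gmatL_cj]
    have h1 : w = ∑ i, w i • EuclideanSpace.single i (1:ℝ) := by
      ext k; simp [Pi.single_apply]
    have h2 : ∀ i, R.symm (gmatL a (V (EuclideanSpace.single i 1))) =
        gmatL (dg s) (EuclideanSpace.single i 1) := by
      intro i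
      rw [hs i, map_smul, LinearIsometryEquiv.symm_apply_apply]
      ext k
      rw [gmatL_apply]
      rcases eq_or_ne i k with h | h
      · subst h
        simp [dg, EuclideanSpace.inner_single_left]
      · simp [dg, EuclideanSpace.inner_single_left, h.symm]
    conv_lhs => rw [h1]
    conv_rhs => rw [h1]
    simp only [map_sum, map_smul, h2]
  have hcjs : cj V.symm R.symm (dg s) = a := by
    apply gmatL_injective
    ext1 w
    rw [gmatL_cj, ← hcja, gmatL_cj]
    simp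
  obtain ⟨e', he', hee⟩ := exists_small (c := cp p) (b := ENNReal.ofReal e * volume Qc0)
    (cp_ne_top hp) (ENNReal.mul_pos (by simpa using he) vol_Qc0_pos.ne')
  obtain ⟨d', hd', hd''⟩ := hN s hs0 hs2 e' he'
  obtain ⟨d, hd, hdd⟩ := exists_small (c := (cp p + 1) * volume Qc0) (b := ENNReal.ofReal d')
    (ENNReal.mul_ne_top (by simp [cp_ne_top hp]) vol_Qc0_ne_top) (by simpa using hd')
  refine ⟨V, d, hd, ?_⟩
  intro Om La f G hO hOb hOc hL hLb hLc H x r hr hK hE hZ
  have hr0 : r ≠ 0 := hr.ne'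
  set φ := aff x (simL V r hr0) with hφ
  set ψ := (simL R r hr0).toHomeomorph with hψ
  set f' : R3 → R3 := fun u => (simL R r hr0).symm (f (φ u)) with hf'
  set G' : Fin 3 → R3 → R3 := fun j u => cj V R (fun k => G k (φ u)) j with hG'
  have hSH : SH p (φ ⁻¹' Om) (ψ ⁻¹' La) f' G' := SH_conj hp hO H V R x hr0
  have hfac : fac (simL V r hr0) * volume (Kc V x r) = volume Qc0 := by
    rw [← vol_aff x, preimage_Kc]
  have hQU : Qc0 ⊆ φ ⁻¹' Om := by
    rw [← preimage_Kc V x hr0]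
    exact preimage_mono hK
  -- energy
  have hen : ∫⁻ u in Q0, ∑ j, ‖G' j u - dg s j‖ₑ ^ p ≤ ENNReal.ofReal d' := by
    have h1 : ∀ u, ∑ j, ‖G' j u - dg s j‖ₑ ^ p ≤ cp p * ∑ k, ‖G k (φ u) - a k‖ₑ ^ p := by
      intro u
      have h2 : ∀ j, G' j u - dg s j = cj V R (fun k => G k (φ u) - a k) j := by
        intro j
        rw [← hcja, hG']
        exact cj_sub V R _ _ j
      simp only [h2]
      exact sum_cj_le V R _ hp
    calc ∫⁻ u in Q0, ∑ j, ‖G' j u - dg s j‖ₑ ^ p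
        ≤ ∫⁻ u in Qc0, cp p * ∑ k, ‖G k (φ u) - a k‖ₑ ^ p :=
          (lintegral_mono_set Q0_subset).trans (lintegral_mono h1)
      _ = cp p * (fac (simL V r hr0) * ∫⁻ y in Kc V x r, ∑ k, ‖G k y - a k‖ₑ ^ p) := by
          rw [lintegral_const_mul' _ _ (cp_ne_top hp), ← preimage_Kc V x hr0,
            lint_aff x (simL V r hr0) (Kc V x r) (fun y => ∑ k, ‖G k y - a k‖ₑ ^ p)]
      _ ≤ cp p * (fac (simL V r hr0) * (ENNReal.ofReal d * volume (Kc V x r))) := by gcongr
      _ = cp p * volume Qc0 * ENNReal.ofReal d := by rw [← hfac]; ring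
      _ ≤ (cp p + 1) * volume Qc0 * ENNReal.ofReal d := by gcongr; exact le_self_add
      _ ≤ ENNReal.ofReal d' := hdd
  have hvol : volume (Q0 \ Zd G') ≤ ENNReal.ofReal d' := by
    have h1 : Q0 \ Zd G' ⊆ φ ⁻¹' (Kc V x r \ Zd G) := by
      rintro u ⟨hu1, hu2⟩
      refine ⟨?_, ?_⟩
      · have : u ∈ φ ⁻¹' Kc V x r := by rw [hφ, preimage_Kc V x hr0]; exact Q0_subset hu1
        exact this
      · intro hu3
        apply hu2
        exact det_conj (V := V) (R := R) (fun w => gmatL_cj V R (fun k => G k (φ u)) w) hu3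
    calc volume (Q0 \ Zd G') ≤ volume (φ ⁻¹' (Kc V x r \ Zd G)) := measure_mono h1
      _ = fac (simL V r hr0) * volume (Kc V x r \ Zd G) := vol_aff _ _ _
      _ ≤ fac (simL V r hr0) * (ENNReal.ofReal d * volume (Kc V x r)) := by gcongr
      _ = 1 * volume Qc0 * ENNReal.ofReal d := by rw [← hfac]; ring
      _ ≤ (cp p + 1) * volume Qc0 * ENNReal.ofReal d := by gcongr; exact le_add_self
      _ ≤ ENNReal.ofReal d' := hdd
  obtain ⟨g', hg1, hg2, hg3, hg4⟩ := hd'' (φ ⁻¹' Om) (ψ ⁻¹' La) f' G'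
    (hO.preimage φ.continuous) (isBounded_preimage hOb φ) (isConnected_preimage hOc φ)
    (hL.preimage ψ.continuous) (isBounded_preimage hLb ψ) (isConnected_preimage hLc ψ) hQU hSH
    hen hvol
  set g : R3 → R3 := fun y => simL R r hr0 (g' (φ.symm y)) with hg
  have hKo : Ko V x r = φ.symm ⁻¹' Q0 := Ko_eq V x hr0
  have himg : ψ.symm ⁻¹' (f' '' Q0) = f '' Ko V x r := by
    ext w
    constructor
    · rintro ⟨u, hu, hw⟩
      refine ⟨φ u, ?_, ?_⟩
      · rw [hKo, mem_preimage, Homeomorph.symm_apply_apply]; exact hu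
      · have h1 : (simL R r hr0).symm (f (φ u)) = (simL R r hr0).symm w := hw
        exact (simL R r hr0).symm.injective h1
    · rintro ⟨y, hy, rfl⟩
      rw [hKo] at hy
      refine ⟨φ.symm y, hy, ?_⟩
      change (simL R r hr0).symm (f (φ (φ.symm y))) = (simL R r hr0).symm (f y)
      rw [Homeomorph.apply_symm_apply]
  refine ⟨g, ?_, ?_, ?_, ?_⟩
  · have h1 := homeo_conj φ.symm ψ.symm hg1
    rw [himg, ← hKo] at h1
    exact h1
  · rw [hKo]
    exact LocPL_back hg2 V R x hr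
  · intro z hz
    have hz' : φ.symm z ∈ frontier Q0 := by
      rw [hKo, ← Homeomorph.preimage_frontier] at hz
      exact hz
    have h1 := hg3 _ hz'
    have h2 : Tendsto φ.symm (𝓝[Ko V x r] z) (𝓝[Q0] (φ.symm z)) := by
      apply tendsto_nhdsWithin_iff.2
      refine ⟨φ.symm.continuous.continuousAt.mono_left nhdsWithin_le_nhds, ?_⟩
      rw [hKo]
      exact self_mem_nhdsWithin
    have h3 := h1.comp h2
    have h4 : Tendsto (fun y => simL R r hr0 (g' (φ.symm y) - f' (φ.symm y)))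
        (𝓝[Ko V x r] z) (𝓝 (simL R r hr0 0)) :=
      ((simL R r hr0).continuous.tendsto 0).comp h3
    rw [map_zero] at h4
    refine h4.congr fun y => ?_
    rw [map_sub]
    congr 1
    simp only [hf', ContinuousLinearEquiv.apply_symm_apply, Homeomorph.apply_symm_apply]
  · -- energy
    have hdiff : ∀ᵐ u ∂(volume.restrict Q0), DifferentiableAt ℝ g' u := by
      obtain ⟨gi, q1, q2, q3, q4, q5, q6⟩ := hg1
      have hinj : InjOn g' Q0 := fun u hu v hv huv => by
        rw [← q3 u hu, ← q3 v hv, huv]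
      filter_upwards [ae_Gmat_det isOpen_Q0 hg2 hinj] with u hu using hu.1
    have h1 : ∫⁻ u in Q0, ∑ j, ‖Gr g j (φ u) - a j‖ₑ ^ p ≤
        ∫⁻ u in Q0, cp p * ∑ j, ‖Gr g' j u - dg s j‖ₑ ^ p := by
      apply lintegral_mono_ae
      filter_upwards [hdiff] with u hu
      have h2 : ∀ j, Gr g j (φ u) - a j =
          cj V.symm R.symm (fun k => Gr g' k u - dg s k) j := by
        intro j
        have h3 : Gr g j (φ u) = cj V.symm R.symm (fun k => Gr g' k u) j := Gr_back V R x hr hu j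
        rw [h3, ← cj_sub, hcjs]
      simp only [h2]
      exact sum_cj_le _ _ _ hp
    have h2 : fac (simL V r hr0) * ∫⁻ y in Ko V x r, ∑ j, ‖Gr g j y - a j‖ₑ ^ p ≤
        fac (simL V r hr0) * (ENNReal.ofReal e * volume (Kc V x r)) := by
      rw [← lint_aff x (simL V r hr0) (Ko V x r) (fun y => ∑ j, ‖Gr g j y - a j‖ₑ ^ p),
        preimage_Ko V x hr0]
      calc _ ≤ ∫⁻ u in Q0, cp p * ∑ j, ‖Gr g' j u - dg s j‖ₑ ^ p := h1
        _ = cp p * ∫⁻ u in Q0, ∑ j, ‖Gr g' j u - dg s j‖ₑ ^ p :=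
            lintegral_const_mul' _ _ (cp_ne_top hp)
        _ ≤ cp p * ENNReal.ofReal e' := by gcongr
        _ ≤ ENNReal.ofReal e * volume Qc0 := hee
        _ = _ := by rw [← hfac]; ring
    exact (ENNReal.mul_le_mul_iff_right (fac_ne_zero _) (fac_ne_top _)).1 h2

end

end Crest.Agent.R096.Sk4_663
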