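import Crest.Agent.R096.Sk4f_663

/-!
Row 96 (S0127), helper663.  **Assembly**: `BFs p → NO0 p → PLA p`.
-/

set_option autoImplicit false
set_option linter.unusedSectionVars false
set_option linter.style.longLine false

open MeasureTheory Set Filter Topology Metric
open scoped ENNReal Gradient NNReal
open Crest.AnalysisR.VecCalc3 Crest.AnalysisR.Sobolev
open Crest.Agent.R096.Str_696 (LocPL)
open Crest.Agent.R096.Sk_962 (SH Gr Q0 Qc0 Kc Ko dg PLA)
open Crest.Agent.R96.Lu_538 (Gmat Gmat_apply gmatL gmatL_apply aesm_Gmat)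
open Crest.Agent.R096.DetN_663 (Gmat_Gr ae_Gmat_det)
open Crest.Agent.R96.Sob8_199 (aff aff_apply aff_symm_apply fac fac_ne_zero fac_ne_top map_aff
  grad_similarity)

namespace Crest.Agent.R096.Sk4_663

noncomputable section

theorem convex_Q0 : Convex ℝ Q0 := by
  intro x hx y hy a b ha hb hab i
  have h1 : x i ∈ Ioo (-1:ℝ) 1 := abs_lt.1 (hx i)
  have h2 : y i ∈ Ioo (-1:ℝ) 1 := abs_lt.1 (hy i)
  have h3 := (convex_Ioo (-1:ℝ) 1) h1 h2 ha hb hab
  exact abs_lt.2 h3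

theorem vol_bd (V : R3 ≃ₗᵢ[ℝ] R3) (x : R3) {r : ℝ} (hr : r ≠ 0) :
    volume (Kc V x r \ Ko V x r) = 0 := by
  have h1 : volume (Qc0 \ Q0) = 0 := by
    have h2 := convex_Q0.addHaar_frontier volume
    rwa [frontier, closure_Q0, isOpen_Q0.interior_eq] at h2
  have h2 : fac (simL V r hr) * volume (Kc V x r \ Ko V x r) = 0 := by
    rw [← vol_aff x, preimage_sdiff, preimage_Kc, preimage_Ko, h1]
  exact (mul_eq_zero.1 h2).resolve_left (fac_ne_zero _)

theorem nullMeas_Zd {p : ℝ} {Om : Set R3} (hO : IsOpen Om) {G : Fin 3 → R3 → R3}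
    (hG : ∀ j, MemLp (G j) (ENNReal.ofReal p) (volume.restrict Om)) :
    NullMeasurableSet (Om ∩ Zd G) volume := by
  have h1 : AEStronglyMeasurable (Gmat G) (volume.restrict Om) := aesm_Gmat fun j => (hG j).1
  have h2 : Continuous fun M : R3 →L[ℝ] R3 => M.det := ContinuousLinearMap.continuous_det
  have h3 : AEMeasurable (fun x => (Gmat G x).det) (volume.restrict Om) :=
    (h2.comp_aestronglyMeasurable h1).aemeasurable
  have h4 : NullMeasurableSet ((fun x => (Gmat G x).det) ⁻¹' {0}) (volume.restrict Om) :=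
    h3.nullMeasurableSet_preimage (measurableSet_singleton 0)
  rw [nullMeasurableSet_restrict hO.measurableSet.nullMeasurableSet] at h4
  rw [inter_comm]
  exact h4

theorem enorm_sub_rpow_le {p : ℝ} (hp : 1 ≤ p) (a b c : R3) :
    ‖a - c‖ₑ ^ p ≤ 2 ^ (p - 1) * (‖a - b‖ₑ ^ p + ‖b - c‖ₑ ^ p) := by
  refine le_trans ?_ (ENNReal.rpow_add_le_mul_rpow_add_rpow _ _ hp)
  apply ENNReal.rpow_le_rpow _ (by linarith)
  have : a - c = (a - b) + (b - c) := by abel
  rw [this]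
  exact enorm_add_le _ _

theorem sum_sub_rpow_le {p : ℝ} (hp : 1 ≤ p) (a b c : Fin 3 → R3) :
    ∑ j, ‖a j - c j‖ₑ ^ p ≤
      2 ^ (p - 1) * (∑ j, ‖a j - b j‖ₑ ^ p + ∑ j, ‖b j - c j‖ₑ ^ p) := by
  rw [← Finset.sum_add_distrib, Finset.mul_sum]
  exact Finset.sum_le_sum fun j _ => enorm_sub_rpow_le hp _ _ _

theorem pla_of {p : ℝ} (hp : 1 ≤ p) (hB : BFs p) (hN : NO0 p) : PLA p := by
  classical
  intro Om La f G hO hOb hOc hL hLb hLc H ε hε
  have hp0 : 0 < p := by linarith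
  obtain ⟨C, hC⟩ := hB
  have hvO : volume Om ≠ ∞ := hOb.measure_lt_top.ne
  set c : ℝ≥0∞ := 2 ^ (p - 1) with hc
  have hcT : c ≠ ∞ := ENNReal.rpow_ne_top_of_nonneg (by linarith) (by simp)
  have hcf : ContinuousOn f Om := by
    obtain ⟨fi, f1, f2, f3, f4, f5, f6⟩ := H.homeo
    exact f5
  have hmf : MapsTo f Om La := by
    obtain ⟨fi, f1, f2, f3, f4, f5, f6⟩ := H.homeo
    exact f1
  -- the constants
  obtain ⟨t0, ht0, ht0'⟩ := exists_small (c := 5) (b := ε) (by simp) hε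
  set δ : ℝ≥0∞ := ENNReal.ofReal t0 with hδ
  have hδ0 : 0 < δ := by simpa [hδ] using ht0
  obtain ⟨t3, ht3, ht3'⟩ := exists_small (c := volume Om) (b := δ) hvO hδ0
  obtain ⟨t1, ht1, ht1'⟩ := exists_small (c := c) (b := δ) hcT hδ0
  obtain ⟨t2, ht2, ht2'⟩ := exists_small (c := c * C) (b := δ)
    (ENNReal.mul_ne_top hcT (by simp)) hδ0
  obtain ⟨e, he, he'⟩ := exists_small (c := c * (c * (2 * volume Om))) (b := δ)
    (ENNReal.mul_ne_top hcT (ENNReal.mul_ne_top hcT (ENNReal.mul_ne_top (by simp) hvO))) hδ0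
  set η : ℝ := t3 ^ (1 / p) / 3 with hη
  have hη0 : 0 < η := by positivity
  have hη3 : (3 * η) ^ p = t3 := by
    rw [hη, mul_div_cancel₀ _ (by norm_num : (3:ℝ) ≠ 0), ← Real.rpow_mul ht3.le,
      one_div_mul_cancel hp0.ne', Real.rpow_one]
  -- the frames
  have hfr : ∀ x : R3, ∃ (V : R3 ≃ₗᵢ[ℝ] R3) (d : ℝ), 0 < d ∧ d ≤ e ∧ (x ∈ Zd G →
      ∀ (r : ℝ), 0 < r → Kc V x r ⊆ Om →
        ∫⁻ y in Kc V x r, ∑ j, ‖G j y - G j x‖ₑ ^ p ≤ ENNReal.ofReal d * volume (Kc V x r) →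
        volume (Kc V x r \ Zd G) ≤ ENNReal.ofReal d * volume (Kc V x r) →
        ∃ g : R3 → R3, IsHomeomorphOn g (Ko V x r) (f '' Ko V x r) ∧ LocPL g (Ko V x r) ∧
          (∀ z ∈ frontier (Ko V x r),
            Tendsto (fun y => g y - f y) (𝓝[Ko V x r] z) (𝓝 0)) ∧
          ∫⁻ y in Ko V x r, ∑ j, ‖Gr g j y - G j x‖ₑ ^ p ≤
            ENNReal.ofReal e * volume (Kc V x r)) := by
    intro x
    by_cases hx : x ∈ Zd G
    · obtain ⟨V, d, hd, hV⟩ := cube_repl hp hN (fun j => G j x) hx he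
      refine ⟨V, min d e, lt_min hd he, min_le_right _ _, fun _ r hr hK h1 h2 => ?_⟩
      refine hV Om La f G hO hOb hOc hL hLb hLc H x r hr hK (h1.trans ?_) (h2.trans ?_)
      · gcongr; exact min_le_left _ _
      · gcongr; exact min_le_left _ _
    · exact ⟨LinearIsometryEquiv.refl ℝ R3, e, he, le_rfl, fun h => absurd h hx⟩
  choose V d hd hde hV using hfr
  -- the cubes
  set S : Set R3 := Om ∩ Zd G with hS
  set F : R3 → ℝ≥0∞ := fun x => 1 + ∑ j, ‖G j x‖ₑ ^ p with hF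
  have hFfin : ∫⁻ x in Om, F x ≠ ∞ := by
    rw [hF, lintegral_add_left measurable_const,
      lintegral_finsetSum' _ fun j _ => ((H.memG j).1.aemeasurable.enorm).pow_const _]
    refine ENNReal.add_ne_top.2 ⟨?_, ENNReal.sum_ne_top.2 fun j _ => lintegral_of_memLp hp (H.memG j)⟩
    rw [lintegral_one, Measure.restrict_apply_univ]
    exact hvO
  have hSnm : NullMeasurableSet S volume := nullMeas_Zd hO H.memG
  have hPev : ∀ᵐ x : R3, x ∈ S → ∀ᶠ r in 𝓝[>] (0 : ℝ),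
      (∫⁻ y in Kc (V x) x r, ∑ j, ‖G j y - G j x‖ₑ ^ p ≤
        ENNReal.ofReal (d x) * volume (Kc (V x) x r)) ∧
      volume (Kc (V x) x r \ S) ≤ ENNReal.ofReal (d x) * volume (Kc (V x) x r) ∧
      ∀ y ∈ Kc (V x) x r, ‖f y - f x‖ ≤ η := by
    filter_upwards [ev_mean hO hOb hp H.memG V d hd, ev_dens hSnm V d hd] with x h1 h2 hx
    exact (h1 hx.1).and ((h2 hx).and (ev_cont hO hcf V hη0 hx.1))
  obtain ⟨T, hT1, hT2, hT3⟩ := cubesP hO (S := S) inter_subset_left V hPev hFfin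
    (ε := ENNReal.ofReal t2) (by simpa using ht2)
  have hT1' : ∀ a ∈ T, a.1 ∈ S ∧ 0 < a.2 ∧ Kc (V a.1) a.1 a.2 ⊆ Om ∧
      (∫⁻ y in Kc (V a.1) a.1 a.2, ∑ j, ‖G j y - G j a.1‖ₑ ^ p ≤
        ENNReal.ofReal (d a.1) * volume (Kc (V a.1) a.1 a.2)) ∧
      volume (Kc (V a.1) a.1 a.2 \ S) ≤ ENNReal.ofReal (d a.1) * volume (Kc (V a.1) a.1 a.2) ∧
      ∀ y ∈ Kc (V a.1) a.1 a.2, ‖f y - f a.1‖ ≤ η := hT1
  have hT2' : (T : Set (R3 × ℝ)).PairwiseDisjoint (fun a => Kc (V a.1) a.1 a.2) := hT2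
  have hT3' : ∫⁻ y in S \ ⋃ a ∈ T, Kc (V a.1) a.1 a.2, F y < ENNReal.ofReal t2 := hT3
  -- the replacements
  have hex : ∀ a : R3 × ℝ, ∃ g : R3 → R3, a ∈ T →
      (IsHomeomorphOn g (Ko (V a.1) a.1 a.2) (f '' Ko (V a.1) a.1 a.2) ∧
        LocPL g (Ko (V a.1) a.1 a.2) ∧
        (∀ z ∈ frontier (Ko (V a.1) a.1 a.2),
          Tendsto (fun y => g y - f y) (𝓝[Ko (V a.1) a.1 a.2] z) (𝓝 0)) ∧
        ∫⁻ y in Ko (V a.1) a.1 a.2, ∑ j, ‖Gr g j y - G j a.1‖ₑ ^ p ≤
          ENNReal.ofReal e * volume (Kc (V a.1) a.1 a.2)) := by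
    intro a
    by_cases ha : a ∈ T
    · obtain ⟨h1, h2, h3, h4, h5, h6⟩ := hT1' a ha
      obtain ⟨g, hg⟩ := hV a.1 h1.2 a.2 h2 h3 h4 (by
        refine le_trans (measure_mono ?_) h5
        rintro y ⟨hy1, hy2⟩
        exact ⟨hy1, fun h => hy2 h.2⟩)
      exact ⟨g, fun _ => hg⟩
    · exact ⟨f, fun h => absurd h ha⟩
  choose g hg using hex
  have hUc : ∀ a ∈ T, closure (Ko (V a.1) a.1 a.2) = Kc (V a.1) a.1 a.2 := fun a ha =>
    closure_Ko _ _ (hT1' a ha).2.1.ne'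
  obtain ⟨f', G', H', h1, h2⟩ := pat_finset hp hO hOb hLb H T (fun a => Ko (V a.1) a.1 a.2) g
    (fun a ha => isOpen_Ko _ _ (hT1' a ha).2.1.ne')
    (fun a ha => by rw [hUc a ha]; exact isCompact_Kc' _ _ _)
    (fun a ha => by rw [hUc a ha]; exact (hT1' a ha).2.2.1)
    (by
      intro a ha b hb hab
      have ha' : a ∈ T := ha
      have hb' : b ∈ T := hb
      change Disjoint (closure (Ko (V a.1) a.1 a.2)) (closure (Ko (V b.1) b.1 b.2))
      rw [hUc a ha', hUc b hb']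
      exact hT2' ha hb hab)
    (fun a ha => (hg a ha).1) (fun a ha => (hg a ha).2.1) (fun a ha => (hg a ha).2.2.1)
    (by
      intro a ha j
      have hvK : volume (Ko (V a.1) a.1 a.2) ≠ ∞ :=
        ne_top_of_le_ne_top hvO (measure_mono ((Ko_subset_Kc _ _ _).trans (hT1' a ha).2.2.1))
      have hvK2 : volume (Kc (V a.1) a.1 a.2) ≠ ∞ :=
        ne_top_of_le_ne_top hvO (measure_mono (hT1' a ha).2.2.1)
      have h3 : ∀ y, ‖Gr (g a) j y‖ₑ ^ p ≤
          c * (∑ j, ‖Gr (g a) j y - G j a.1‖ₑ ^ p + ‖G j a.1‖ₑ ^ p) := by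
        intro y
        have h4 := enorm_sub_rpow_le hp (Gr (g a) j y) (G j a.1) 0
        rw [sub_zero, sub_zero] at h4
        refine h4.trans ?_
        gcongr
        exact Finset.single_le_sum (f := fun j => ‖Gr (g a) j y - G j a.1‖ₑ ^ p)
          (fun _ _ => zero_le) (Finset.mem_univ j)
      refine ne_top_of_le_ne_top ?_ (lintegral_mono h3)
      rw [lintegral_const_mul' _ _ hcT, lintegral_add_right _ measurable_const, lintegral_const,
        Measure.restrict_apply_univ]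
      refine ENNReal.mul_ne_top hcT (ENNReal.add_ne_top.2 ⟨?_, ?_⟩)
      · exact ne_top_of_le_ne_top (ENNReal.mul_ne_top (by simp) hvK2) (hg a ha).2.2.2
      · exact ENNReal.mul_ne_top (ENNReal.rpow_ne_top_of_nonneg hp0.le (by simp)) hvK)
  -- the second pass
  obtain ⟨h, hh1, hh2, hh3, hh4⟩ := hC Om La f' G' hO hOb hOc hL hLb hLc H' (fun _ => η)
    continuousOn_const (fun _ _ => hη0) (ENNReal.ofReal t1) (by simpa using ht1)
  refine ⟨h, hh1, hh2, ?_⟩
  -- (I) the singular part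
  have hI : ∫⁻ x in Om ∩ Zd G', (1 + ∑ j, ‖G' j x‖ₑ ^ p) ≤ ENNReal.ofReal t2 := by
    set N : Set R3 := ⋃ a ∈ T, ({x | x ∈ Ko (V a.1) a.1 a.2 ∧ ¬ (Gmat (Gr (g a)) x).det ≠ 0} ∪
      (Kc (V a.1) a.1 a.2 \ Ko (V a.1) a.1 a.2)) with hN'
    have hN0 : volume N = 0 := by
      refine (measure_biUnion_null_iff T.countable_toSet).2 fun a ha => ?_
      refine measure_union_null ?_ (vol_bd _ _ (hT1' a ha).2.1.ne')
      obtain ⟨gi, q1, q2, q3, q4, q5, q6⟩ := (hg a ha).1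
      have hinj : InjOn (g a) (Ko (V a.1) a.1 a.2) := fun u hu v hv huv => by
        rw [← q3 u hu, ← q3 v hv, huv]
      have hop := isOpen_Ko (V a.1) a.1 (hT1' a ha).2.1.ne'
      have h3 := ae_Gmat_det hop (hg a ha).2.1 hinj
      rw [ae_restrict_iff' hop.measurableSet] at h3
      refine measure_mono_null ?_ (mem_ae_iff.1 h3)
      rintro x ⟨hx1, hx2⟩ hx3
      exact hx2 (hx3 hx1).2
    have hsub : Om ∩ Zd G' ⊆ (S \ ⋃ a ∈ T, Kc (V a.1) a.1 a.2) ∪ N := by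
      rintro x ⟨hx1, hx2⟩
      by_cases hx : ∃ a ∈ T, x ∈ Kc (V a.1) a.1 a.2
      · right
        obtain ⟨a, ha, hxa⟩ := hx
        refine mem_iUnion₂.2 ⟨a, ha, ?_⟩
        by_cases hxo : x ∈ Ko (V a.1) a.1 a.2
        · left
          refine ⟨hxo, not_not.2 ?_⟩
          have h4 : (fun j => G' j x) = fun j => Gr (g a) j x := funext (h1 a ha x hxo).2
          have h5 : (gmatL fun j => G' j x).det = 0 := hx2
          rw [h4] at h5
          exact h5
        · exact Or.inr ⟨hxa, hxo⟩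
      · left
        push Not at hx
        have h4 : (fun j => G' j x) = fun j => G j x :=
          funext (h2 x fun a ha hxa => hx a ha (Ko_subset_Kc _ _ _ hxa)).2
        have h5 : (gmatL fun j => G' j x).det = 0 := hx2
        rw [h4] at h5
        refine ⟨⟨hx1, h5⟩, ?_⟩
        rw [mem_iUnion₂]
        push Not
        exact hx
    have hM : MeasurableSet (Om \ ⋃ a ∈ T, Kc (V a.1) a.1 a.2) :=
      hO.measurableSet.diff (Finset.measurableSet_biUnion _ fun a _ =>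
        (isCompact_Kc' _ _ _).isClosed.measurableSet)
    have hcongr : ∫⁻ x in S \ ⋃ a ∈ T, Kc (V a.1) a.1 a.2, (1 + ∑ j, ‖G' j x‖ₑ ^ p) =
        ∫⁻ x in S \ ⋃ a ∈ T, Kc (V a.1) a.1 a.2, F x := by
      apply lintegral_congr_ae
      refine ae_restrict_of_ae_restrict_of_subset
        (t := Om \ ⋃ a ∈ T, Kc (V a.1) a.1 a.2) (sdiff_subset_sdiff_left inter_subset_left) ?_
      refine (ae_restrict_iff' hM).2 (Eventually.of_forall fun x hx => ?_)
      have h4 := (h2 x fun a ha hxa => hx.2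
        (mem_iUnion₂.2 ⟨a, ha, Ko_subset_Kc _ _ _ hxa⟩)).2
      simp only [hF, h4]
    calc ∫⁻ x in Om ∩ Zd G', (1 + ∑ j, ‖G' j x‖ₑ ^ p)
        ≤ (∫⁻ x in S \ ⋃ a ∈ T, Kc (V a.1) a.1 a.2, (1 + ∑ j, ‖G' j x‖ₑ ^ p)) +
            ∫⁻ x in N, (1 + ∑ j, ‖G' j x‖ₑ ^ p) :=
          (lintegral_mono_set hsub).trans (lintegral_union_le _ _ _)
      _ = ∫⁻ x in S \ ⋃ a ∈ T, Kc (V a.1) a.1 a.2, F x := by
          rw [setLIntegral_measure_zero _ _ hN0, add_zero, hcongr]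
      _ ≤ ENNReal.ofReal t2 := hT3'.le
  -- (II) the difference of the gradients in the cubes
  have hII : ∫⁻ x in Om, ∑ j, ‖G' j x - G j x‖ₑ ^ p ≤
      c * (2 * volume Om) * ENNReal.ofReal e := by
    have hKom : ∀ a ∈ T, MeasurableSet (Ko (V a.1) a.1 a.2) := fun a ha =>
      (isOpen_Ko _ _ (hT1' a ha).2.1.ne').measurableSet
    have hKod : (T : Set (R3 × ℝ)).PairwiseDisjoint (fun a => Ko (V a.1) a.1 a.2) :=
      fun a ha b hb hab => (hT2' ha hb hab).mono (Ko_subset_Kc _ _ _) (Ko_subset_Kc _ _ _)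
    have hUm : MeasurableSet (⋃ a ∈ T, Ko (V a.1) a.1 a.2) :=
      Finset.measurableSet_biUnion _ hKom
    have hsub : Om ⊆ (⋃ a ∈ T, Ko (V a.1) a.1 a.2) ∪ (Om \ ⋃ a ∈ T, Ko (V a.1) a.1 a.2) := by
      intro x hx
      by_cases h : x ∈ ⋃ a ∈ T, Ko (V a.1) a.1 a.2
      · exact Or.inl h
      · exact Or.inr ⟨hx, h⟩
    have hzero : ∫⁻ x in Om \ ⋃ a ∈ T, Ko (V a.1) a.1 a.2, ∑ j, ‖G' j x - G j x‖ₑ ^ p = 0 := by
      rw [setLIntegral_congr_fun (g := fun _ => 0) (hO.measurableSet.diff hUm), lintegral_zero]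
      intro x hx
      have h4 := (h2 x fun a ha hxa => hx.2 (mem_iUnion₂.2 ⟨a, ha, hxa⟩)).2
      simp [h4, ENNReal.zero_rpow_of_pos hp0]
    have hone : ∀ a ∈ T, ∫⁻ x in Ko (V a.1) a.1 a.2, ∑ j, ‖G' j x - G j x‖ₑ ^ p ≤
        c * (2 * ENNReal.ofReal e) * volume (Kc (V a.1) a.1 a.2) := by
      intro a ha
      have hGm : ∀ j, AEMeasurable (fun x => ‖Gr (g a) j x - G j a.1‖ₑ ^ p)
          (volume.restrict (Ko (V a.1) a.1 a.2)) := fun j =>
        (((measurable_Gr (g a) j).sub_const _).enorm.pow_const _).aemeasurable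
      calc ∫⁻ x in Ko (V a.1) a.1 a.2, ∑ j, ‖G' j x - G j x‖ₑ ^ p
          ≤ ∫⁻ x in Ko (V a.1) a.1 a.2, c * (∑ j, ‖Gr (g a) j x - G j a.1‖ₑ ^ p +
              ∑ j, ‖G j x - G j a.1‖ₑ ^ p) := by
            refine setLIntegral_mono_ae' (hKom a ha) (Eventually.of_forall fun x hx => ?_)
            have h4 := (h1 a ha x hx).2
            have h5 : ∀ j, ‖G j a.1 - G j x‖ₑ = ‖G j x - G j a.1‖ₑ := fun j => enorm_sub_rev _ _
            have h6 := sum_sub_rpow_le hp (fun j => Gr (g a) j x) (fun j => G j a.1)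
              (fun j => G j x)
            simp only [h5] at h6
            simp only [h4]
            exact h6
        _ = c * ((∫⁻ x in Ko (V a.1) a.1 a.2, ∑ j, ‖Gr (g a) j x - G j a.1‖ₑ ^ p) +
              ∫⁻ x in Ko (V a.1) a.1 a.2, ∑ j, ‖G j x - G j a.1‖ₑ ^ p) := by
            rw [lintegral_const_mul' _ _ hcT, lintegral_add_left']
            exact Finset.aemeasurable_fun_sum _ fun j _ => hGm j
        _ ≤ c * (ENNReal.ofReal e * volume (Kc (V a.1) a.1 a.2) +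
              ENNReal.ofReal e * volume (Kc (V a.1) a.1 a.2)) := by
            gcongr
            · exact (hg a ha).2.2.2
            · refine (lintegral_mono_set (Ko_subset_Kc _ _ _)).trans
                ((hT1' a ha).2.2.2.1.trans ?_)
              gcongr
              exact hde a.1
        _ = c * (2 * ENNReal.ofReal e) * volume (Kc (V a.1) a.1 a.2) := by ring
    calc ∫⁻ x in Om, ∑ j, ‖G' j x - G j x‖ₑ ^ p
        ≤ (∫⁻ x in ⋃ a ∈ T, Ko (V a.1) a.1 a.2, ∑ j, ‖G' j x - G j x‖ₑ ^ p) +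
            ∫⁻ x in Om \ ⋃ a ∈ T, Ko (V a.1) a.1 a.2, ∑ j, ‖G' j x - G j x‖ₑ ^ p :=
          (lintegral_mono_set hsub).trans (lintegral_union_le _ _ _)
      _ = ∑ a ∈ T, ∫⁻ x in Ko (V a.1) a.1 a.2, ∑ j, ‖G' j x - G j x‖ₑ ^ p := by
          rw [hzero, add_zero, lintegral_biUnion_finset hKod hKom]
      _ ≤ ∑ a ∈ T, c * (2 * ENNReal.ofReal e) * volume (Kc (V a.1) a.1 a.2) :=
          Finset.sum_le_sum hone
      _ = c * (2 * ENNReal.ofReal e) * volume (⋃ a ∈ T, Kc (V a.1) a.1 a.2) := by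
          rw [← Finset.mul_sum, measure_biUnion_finset hT2' fun a _ =>
            (isCompact_Kc' _ _ _).isClosed.measurableSet]
      _ ≤ c * (2 * ENNReal.ofReal e) * volume Om := by
          gcongr
          exact iUnion₂_subset fun a ha => (hT1' a ha).2.2.1
      _ = c * (2 * volume Om) * ENNReal.ofReal e := by ring
  -- (III) the uniform distance
  have hIII : ∀ x ∈ Om, ‖h x - f x‖ₑ ^ p ≤ ENNReal.ofReal t3 := by
    intro x hx
    have h4 : ‖f' x - f x‖ ≤ 2 * η := by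
      by_cases hxa : ∃ a ∈ T, x ∈ Ko (V a.1) a.1 a.2
      · obtain ⟨a, ha, hxa⟩ := hxa
        rw [(h1 a ha x hxa).1]
        obtain ⟨gi, q1, -⟩ := (hg a ha).1
        obtain ⟨y, hy, hyx⟩ := q1 hxa
        rw [← hyx]
        have h5 := (hT1' a ha).2.2.2.2.2 y (Ko_subset_Kc _ _ _ hy)
        have h6 := (hT1' a ha).2.2.2.2.2 x (Ko_subset_Kc _ _ _ hxa)
        have h7 : f y - f x = (f y - f a.1) - (f x - f a.1) := by abel
        rw [h7]
        exact (norm_sub_le _ _).trans (by linarith)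
      · push Not at hxa
        rw [(h2 x hxa).1, sub_self, norm_zero]
        positivity
    have h5 : ‖h x - f x‖ ≤ 3 * η := by
      have h6 : h x - f x = (h x - f' x) + (f' x - f x) := by abel
      rw [h6]
      have h7 := hh3 x hx
      exact (norm_add_le _ _).trans (by linarith)
    rw [← ofReal_norm, ENNReal.ofReal_rpow_of_nonneg (norm_nonneg _) hp0.le, ← hη3]
    apply ENNReal.ofReal_le_ofReal
    exact Real.rpow_le_rpow (norm_nonneg _) h5 hp0.le
  -- conclusion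
  have hAm : AEMeasurable (fun x => ∑ j, ‖Gr h j x - G' j x‖ₑ ^ p) (volume.restrict Om) :=
    Finset.aemeasurable_fun_sum _ fun j _ =>
      ((((measurable_Gr h j).aemeasurable).sub (H'.memG j).1.aemeasurable).enorm).pow_const _
  calc ∫⁻ x in Om, (‖h x - f x‖ₑ ^ p + ∑ j : Fin 3, ‖Gr h j x - G j x‖ₑ ^ p)
      ≤ ∫⁻ x in Om, (ENNReal.ofReal t3 + c * (∑ j, ‖Gr h j x - G' j x‖ₑ ^ p +
          ∑ j, ‖G' j x - G j x‖ₑ ^ p)) := by
        refine setLIntegral_mono_ae' hO.measurableSet (Eventually.of_forall fun x hx => ?_)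
        exact add_le_add (hIII x hx) (sum_sub_rpow_le hp (fun j => Gr h j x) (fun j => G' j x)
          (fun j => G j x))
    _ = ENNReal.ofReal t3 * volume Om + c * ((∫⁻ x in Om, ∑ j, ‖Gr h j x - G' j x‖ₑ ^ p) +
          ∫⁻ x in Om, ∑ j, ‖G' j x - G j x‖ₑ ^ p) := by
        rw [lintegral_add_left measurable_const, lintegral_const, Measure.restrict_apply_univ,
          lintegral_const_mul' _ _ hcT, lintegral_add_left' hAm]
    _ ≤ ENNReal.ofReal t3 * volume Om + c * ((C * ENNReal.ofReal t2 + ENNReal.ofReal t1) +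
          c * (2 * volume Om) * ENNReal.ofReal e) := by
        gcongr
        refine hh4.trans ?_
        gcongr
    _ = volume Om * ENNReal.ofReal t3 + (c * C * ENNReal.ofReal t2 + c * ENNReal.ofReal t1 +
          c * (c * (2 * volume Om)) * ENNReal.ofReal e) := by ring
    _ ≤ δ + (δ + δ + δ) := by gcongr
    _ = 4 * δ := by ring
    _ < 5 * δ := by
        rw [hδ, show (4 : ℝ≥0∞) = ENNReal.ofReal 4 by norm_num,
          show (5 : ℝ≥0∞) = ENNReal.ofReal 5 by norm_num,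
          ← ENNReal.ofReal_mul (by norm_num), ← ENNReal.ofReal_mul (by norm_num)]
        exact (ENNReal.ofReal_lt_ofReal_iff (by positivity)).2 (by linarith)
    _ ≤ ε := ht0'

end

end Crest.Agent.R096.Sk4_663
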