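import Mathlib
import Crest.Agent.R096.Sk4_962

/-!
Row 96 (S0127), helper962.  SKEL96: the assembly `NO p → BF p → PLA p`.
-/

set_option autoImplicit false
set_option linter.unusedSectionVars false
set_option linter.style.longLine false

open MeasureTheory Set Filter Topology Metric
open scoped ENNReal Gradient NNReal ContDiff
open Crest.AnalysisR.VecCalc3 Crest.AnalysisR.Sobolev
open Crest.Agent.R096.Str_696 (LocPL)

namespace Crest.Agent.R096.Sk_962

noncomputable section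

theorem LocPL.congr_open {h h' : R3 → R3} {Ω : Set R3} (hΩ : IsOpen Ω) (H : LocPL h Ω)
    (he : EqOn h' h Ω) : LocPL h' Ω := by
  intro x hx
  obtain ⟨r, hr, S, hc, hsel⟩ := H x hx
  obtain ⟨r', hr', hsub⟩ := Metric.isOpen_iff.1 hΩ x hx
  have h1 : ball x (min r r') ⊆ Ω := (ball_subset_ball (min_le_right _ _)).trans hsub
  have h2 : ball x (min r r') ⊆ ball x r := ball_subset_ball (min_le_left _ _)
  refine ⟨min r r', lt_min hr hr', S, (hc.mono h2).congr (he.mono h1), fun y hy => ?_⟩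
  obtain ⟨g, hg, hg'⟩ := hsel y (h2 hy)
  exact ⟨g, hg, (he (h1 hy)).trans hg'⟩

theorem locPL_biUnion {ι : Type*} {f : R3 → R3} {T : Finset ι} {D : ι → Set R3}
    (h : ∀ i ∈ T, LocPL f (D i)) : LocPL f (⋃ i ∈ T, D i) := by
  intro x hx
  simp only [mem_iUnion, exists_prop] at hx
  obtain ⟨i, hi, hx⟩ := hx
  exact h i hi x hx

theorem cubeUnion_of (T : Finset (R3 × ℝ)) (V : R3 → (R3 ≃ₗᵢ[ℝ] R3)) {t : ℝ} (ht : 0 < t)
    (hr : ∀ a ∈ T, 0 < a.2)
    (hdis : (T : Set (R3 × ℝ)).PairwiseDisjoint (fun a => Kc (V a.1) a.1 (t * a.2))) :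
    CubeUnion (⋃ a ∈ T, Kc (V a.1) a.1 (t * a.2)) := by
  refine ⟨T.card, fun i => V (T.equivFin.symm i).1.1, fun i => (T.equivFin.symm i).1.1,
    fun i => t * (T.equivFin.symm i).1.2, fun i => mul_pos ht (hr _ (T.equivFin.symm i).2), ?_, ?_⟩
  · intro i j hij
    have hne : (T.equivFin.symm i).1 ≠ (T.equivFin.symm j).1 := by
      intro h
      exact hij (T.equivFin.symm.injective (Subtype.ext h))
    exact hdis (T.equivFin.symm i).2 (T.equivFin.symm j).2 hne
  · ext y
    simp only [mem_iUnion, exists_prop]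
    constructor
    · rintro ⟨a, ha, hy⟩
      refine ⟨T.equivFin ⟨a, ha⟩, ?_⟩
      simpa using hy
    · rintro ⟨i, hy⟩
      exact ⟨(T.equivFin.symm i).1, (T.equivFin.symm i).2, hy⟩

theorem small_mul {M ε : ℝ≥0∞} (hM : M ≠ ⊤) (hε : ε ≠ 0) : ∃ δ : ℝ≥0, 0 < δ ∧ M * δ < ε := by
  obtain ⟨n, hn, h⟩ := ENNReal.exists_nnreal_pos_mul_lt hM hε
  exact ⟨n, hn, by rwa [mul_comm]⟩

/-- equal maps near a point have equal rows there -/
theorem Gr_congr {g g' : R3 → R3} {x : R3} (h : g =ᶠ[𝓝 x] g') (j : Fin 3) :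
    Gr g j x = Gr g' j x := by
  have h1 : (fun y => g y j) =ᶠ[𝓝 x] fun y => g' y j := by
    filter_upwards [h] with y hy
    rw [hy]
  rw [Gr, Gr, gradient, gradient, h1.fderiv_eq]

theorem Gr_congr_open {g g' : R3 → R3} {D : Set R3} (hD : IsOpen D) (h : EqOn g g' D) {x : R3}
    (hx : x ∈ D) (j : Fin 3) : Gr g j x = Gr g' j x := by
  apply Gr_congr
  filter_upwards [hD.mem_nhds hx] with y hy using h hy

/-- choice of the shrinking factor -/
theorem exists_shrink {Om : Set R3} (hOm : IsOpen Om) (T : Finset (R3 × ℝ))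
    (V : R3 → (R3 ≃ₗᵢ[ℝ] R3)) (hr : ∀ a ∈ T, 0 < a.2) {F : R3 → ℝ≥0∞}
    (hFm : AEMeasurable F (volume.restrict Om)) (hF : ∫⁻ x in Om, F x ≠ ⊤) {δ : ℝ≥0∞}
    (hδ : ∫⁻ x in Om \ ⋃ a ∈ T, Ko (V a.1) a.1 a.2, F x < δ) :
    ∃ t : ℝ, 0 < t ∧ t < 1 ∧ ∫⁻ x in Om \ ⋃ a ∈ T, Kc (V a.1) a.1 (t * a.2), F x < δ := by
  classical
  set t : ℕ → ℝ := fun n => 1 - 1 / ((n:ℝ) + 2) with ht
  have ht0 : ∀ n, 0 < t n := by
    intro n
    simp only [ht]
    have h2 : 1 / ((n:ℝ) + 2) ≤ 1 / 2 := by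
      apply one_div_le_one_div_of_le (by norm_num)
      have : (0:ℝ) ≤ n := Nat.cast_nonneg _
      linarith
    linarith
  have ht1 : ∀ n, t n < 1 := by
    intro n
    simp only [ht]
    have : 0 < 1 / ((n:ℝ) + 2) := by positivity
    linarith
  set S : ℕ → Set R3 := fun n => Om \ ⋃ a ∈ T, Kc (V a.1) a.1 (t n * a.2) with hS
  set S' : Set R3 := Om \ ⋃ a ∈ T, Ko (V a.1) a.1 a.2 with hS'
  have hKm : ∀ n, MeasurableSet (⋃ a ∈ T, Kc (V a.1) a.1 (t n * a.2)) := by
    intro n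
    refine Finset.measurableSet_biUnion _ fun a ha => ?_
    exact (isCompact_Kc' _ _ (mul_pos (ht0 n) (hr a ha))).isClosed.measurableSet
  have hSm : ∀ n, MeasurableSet (S n) := fun n => hOm.measurableSet.diff (hKm n)
  have hS'm : MeasurableSet S' := by
    refine hOm.measurableSet.diff (Finset.measurableSet_biUnion _ fun a ha => ?_)
    exact (isOpen_Ko _ _ (hr a ha)).measurableSet
  have e1 : ∀ A : Set R3, MeasurableSet A → A ⊆ Om →
      ∫⁻ x in A, F x = ∫⁻ x in Om, A.indicator F x := by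
    intro A hA hAO
    rw [lintegral_indicator hA, Measure.restrict_restrict_of_subset hAO]
  have hlim : Tendsto (fun n => ∫⁻ x in S n, F x) atTop (𝓝 (∫⁻ x in S', F x)) := by
    simp_rw [e1 _ (hSm _) sdiff_subset, e1 _ hS'm sdiff_subset]
    refine tendsto_lintegral_of_dominated_convergence' F (fun n => hFm.indicator (hSm n)) ?_ hF ?_
    · intro n
      exact Eventually.of_forall fun x => indicator_le_self _ _ x
    · rw [ae_restrict_iff' hOm.measurableSet]
      refine Eventually.of_forall fun x hx => ?_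
      by_cases hxS : x ∈ S'
      · rw [indicator_of_mem hxS]
        apply tendsto_const_nhds.congr
        intro n
        have : x ∈ S n := by
          refine ⟨hx, fun h => hxS.2 ?_⟩
          simp only [mem_iUnion, exists_prop] at h ⊢
          obtain ⟨a, ha, h⟩ := h
          exact ⟨a, ha, Kc_subset_Ko _ _ (ht0 n).le (ht1 n) h⟩
        rw [indicator_of_mem this]
      · rw [indicator_of_notMem hxS]
        apply tendsto_const_nhds.congr'
        have hxK : x ∈ ⋃ a ∈ T, Ko (V a.1) a.1 a.2 := by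
          by_contra h
          exact hxS ⟨hx, h⟩
        simp only [mem_iUnion, exists_prop] at hxK
        obtain ⟨a, ha, hxa⟩ := hxK
        filter_upwards [mem_Kc_of_Ko hxa] with n hn
        rw [indicator_of_notMem]
        rintro ⟨-, h⟩
        apply h
        simp only [mem_iUnion, exists_prop]
        exact ⟨a, ha, hn⟩
  obtain ⟨n, hn⟩ := (hlim.eventually_lt_const hδ).exists
  exact ⟨t n, ht0 n, ht1 n, hn⟩

end

end Crest.Agent.R096.Sk_962
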