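import Mathlib
import Crest.Agent.R096.Sk5_962

/-!
Row 96 (S0127), helper962.  SKEL96: the assembly `NO p → BF p → PLA p`.
-/

set_option autoImplicit false
set_option linter.unusedSectionVars false
set_option linter.style.longLine false

open MeasureTheory Set Filter Topology Metric
open scoped ENNReal Gradient NNReal ContDiff
open Crest.AnalysisR.VecCalc3 Crest.AnalysisR.Sobolev
open Crest.Agent.R096.Str_696 (LocPL)

namespace Crest.Agent.R096.Sk_962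

noncomputable section

theorem aemeas_sum {p : ℝ} {Om : Set R3} {G : Fin 3 → R3 → R3}
    (hG : ∀ j, MemLp (G j) (ENNReal.ofReal p) (volume.restrict Om)) :
    AEMeasurable (fun x => ∑ j, ‖G j x‖ₑ ^ p) (volume.restrict Om) := by
  apply Finset.aemeasurable_fun_sum
  intro j _
  exact (hG j).1.enorm.pow_const p

theorem lint_sum_ne_top {p : ℝ} (hp : 1 ≤ p) {Om : Set R3} {G : Fin 3 → R3 → R3}
    (hG : ∀ j, MemLp (G j) (ENNReal.ofReal p) (volume.restrict Om)) :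
    ∫⁻ x in Om, ∑ j, ‖G j x‖ₑ ^ p ≠ ⊤ := by
  rw [lintegral_finsetSum' _ (fun j _ => (hG j).1.enorm.pow_const p)]
  exact ENNReal.sum_ne_top.2 fun j _ => lint_of_memLp hp (hG j)

set_option maxHeartbeats 2000000 in
/-- **SKEL96**: near-optimal replacement in frames and bounded factor give the approximation by
locally PL homeomorphisms. -/
theorem pla_of {p : ℝ} (hp : 1 ≤ p) (hNO : NO p) (hBF : BF p) : PLA p := by
  classical
  intro Om La f G hOm hOmb hOmc hLa hLab hLac H ε hε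
  obtain ⟨C, hC⟩ := hBF
  have hp0 : 0 ≤ p := by linarith
  set c2 : ℝ≥0∞ := 2 ^ (p - 1) with hc2
  have hc2t : c2 ≠ ⊤ := c2_ne_top p
  have hvt : volume Om ≠ ⊤ := hOmb.measure_lt_top.ne
  have hOmm := hOm.measurableSet
  have hε3 : ε / 3 ≠ 0 := by
    rw [Ne, ENNReal.div_eq_zero_iff]
    push Not
    exact ⟨hε.ne', by norm_num⟩
  -- small numbers
  obtain ⟨δB, hδB, hδB'⟩ := small_mul (M := c2 * 2 * volume Om)
    (ENNReal.mul_ne_top (ENNReal.mul_ne_top hc2t (by norm_num)) hvt) hε3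
  obtain ⟨δC, hδC, hδC'⟩ := small_mul (M := c2 * (C + 2))
    (ENNReal.mul_ne_top hc2t (ENNReal.add_ne_top.2 ⟨ENNReal.coe_ne_top, by norm_num⟩)) hε3
  obtain ⟨δA, hδA, hδA'⟩ := small_mul (M := volume Om) hvt hε3
  set η : ℝ := min (δA / 2) (1 / 2) with hη
  have hη0 : 0 < η := lt_min (by positivity) (by norm_num)
  have hδBr : (0:ℝ) < δB := by exact_mod_cast hδB
  -- frames
  choose V d hd hprop using fun x : R3 => no_frame hp hNO (fun j => G j x) hδBr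
  -- cubes
  set ε' : ℝ≥0∞ := δC / 4 with hε'
  have hε'0 : 0 < ε' := by
    rw [hε']
    exact ENNReal.div_pos (by exact_mod_cast hδC.ne') (by norm_num)
  obtain ⟨T, hT, hTd, hTE, hTv⟩ := Crest.Agent.R096.Cub_298.cubes hOm hOmb hp H.memG V
    (fun x => min (d x) δB) (fun x => lt_min (hd x) hδBr) hε'0
  change (T : Set (R3 × ℝ)).PairwiseDisjoint (fun a => Kc (V a.1) a.1 a.2) at hTd
  change ∫⁻ y in Om \ ⋃ a ∈ T, Kc (V a.1) a.1 a.2, ∑ j, ‖G j y‖ₑ ^ p < ε' at hTE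
  change volume (Om \ ⋃ a ∈ T, Kc (V a.1) a.1 a.2) < ε' at hTv
  have hr : ∀ a ∈ T, 0 < a.2 := fun a ha => (hT a ha).2.1
  have hKO : ∀ a ∈ T, Kc (V a.1) a.1 a.2 ⊆ Om := fun a ha => (hT a ha).2.2.1
  have hen : ∀ a ∈ T, ∫⁻ y in Ko (V a.1) a.1 a.2, ∑ j, ‖G j y - G j a.1‖ₑ ^ p ≤
      ENNReal.ofReal (min (d a.1) δB) * volume (Kc (V a.1) a.1 a.2) := fun a ha =>
    (lintegral_mono_set (Ko_subset_Kc _ _ _)).trans (hT a ha).2.2.2
  -- the replacements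
  have hex : ∀ a : R3 × ℝ, ∃ g : R3 → R3, a ∈ T →
      IsHomeomorphOn g (Ko (V a.1) a.1 a.2) (f '' Ko (V a.1) a.1 a.2) ∧
        LocPL g (Ko (V a.1) a.1 a.2) ∧ BdZero (Ko (V a.1) a.1 a.2) g f ∧
        (∀ y ∈ Ko (V a.1) a.1 a.2, ‖g y - f y‖ ≤ η) ∧
        ∫⁻ y in Ko (V a.1) a.1 a.2, ∑ j, ‖Gr g j y - G j a.1‖ₑ ^ p ≤
          ENNReal.ofReal δB * volume (Kc (V a.1) a.1 a.2) := by
    intro a
    by_cases ha : a ∈ T
    · obtain ⟨g, hg⟩ := hprop a.1 Om La f G hOm hLa H a.1 a.2 (hr a ha) (hKO a ha)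
        ((hen a ha).trans (by gcongr; exact min_le_left _ _)) η hη0
      exact ⟨g, fun _ => hg⟩
    · exact ⟨f, fun h => absurd h ha⟩
  choose g hg using hex
  have hKofin : ∀ a ∈ T, volume (Kc (V a.1) a.1 a.2) ≠ ⊤ := fun a ha =>
    ne_top_of_le_ne_top hvt (measure_mono (hKO a ha))
  have hDdis : (T : Set (R3 × ℝ)).PairwiseDisjoint (fun a => Ko (V a.1) a.1 a.2) :=
    hTd.mono_on fun a _ => Ko_subset_Kc _ _ _
  have hE : ∀ a ∈ T, ∀ j, MemLp (Gr (g a) j) (ENNReal.ofReal p)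
      (volume.restrict (Ko (V a.1) a.1 a.2)) := by
    intro a ha j
    refine memLp_Gr hp (ne_top_of_le_ne_top (hKofin a ha) (measure_mono (Ko_subset_Kc _ _ _)))
      (A := fun j => G j a.1) ?_ j
    exact ne_top_of_le_ne_top (ENNReal.mul_ne_top ENNReal.ofReal_ne_top (hKofin a ha))
      (hg a ha).2.2.2.2
  obtain ⟨f1, G1, H1, q1, q2, q3, q4⟩ := patch_family hp hOm hOmb hLa hLab H
    (fun a => Ko (V a.1) a.1 a.2) g T (fun a ha => isOpen_Ko _ _ (hr a ha))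
    (fun a ha => by rw [closure_Ko _ _ (hr a ha)]; exact hKO a ha) hDdis
    (fun a ha => (hg a ha).1) (fun a ha => (hg a ha).2.1) (fun a ha => (hg a ha).2.2.1) hE
  -- the density
  set F : R3 → ℝ≥0∞ := fun x => 1 + ∑ j, ‖G1 j x‖ₑ ^ p + ∑ j, ‖G j x‖ₑ ^ p with hFdef
  have hmG := aemeas_sum (p := p) H.memG
  have hmG1 := aemeas_sum (p := p) H1.memG
  have hFm : AEMeasurable F (volume.restrict Om) := (aemeasurable_const.add hmG1).add hmG
  have hF : ∫⁻ x in Om, F x ≠ ⊤ := by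
    simp only [hFdef]
    rw [lintegral_add_right' _ hmG, lintegral_add_right' _ hmG1]
    refine ENNReal.add_ne_top.2 ⟨ENNReal.add_ne_top.2 ⟨?_, lint_sum_ne_top hp H1.memG⟩,
      lint_sum_ne_top hp H.memG⟩
    simpa using hvt
  have hFlt : ∫⁻ x in Om \ ⋃ a ∈ T, Ko (V a.1) a.1 a.2, F x < δC := by
    have h1 : Om \ ⋃ a ∈ T, Ko (V a.1) a.1 a.2 ⊆ (Om \ ⋃ a ∈ T, Kc (V a.1) a.1 a.2) ∪
        ⋃ a ∈ T, (Kc (V a.1) a.1 a.2 \ Ko (V a.1) a.1 a.2) := by
      rintro x ⟨hx, hx2⟩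
      by_cases h : x ∈ ⋃ a ∈ T, Kc (V a.1) a.1 a.2
      · right
        simp only [mem_iUnion, exists_prop] at h hx2 ⊢
        obtain ⟨a, ha, hxa⟩ := h
        exact ⟨a, ha, hxa, fun h' => hx2 ⟨a, ha, h'⟩⟩
      · exact Or.inl ⟨hx, h⟩
    have h2 : volume (⋃ a ∈ T, (Kc (V a.1) a.1 a.2 \ Ko (V a.1) a.1 a.2)) = 0 := by
      have h20 : ∀ a ∈ (T : Set (R3 × ℝ)), volume (Kc (V a.1) a.1 a.2 \ Ko (V a.1) a.1 a.2) = 0 :=
        fun a ha => vol_Kc_diff _ _ (hr a ha)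
      exact (measure_biUnion_null_iff T.countable_toSet).2 h20
    have hRm : MeasurableSet (Om \ ⋃ a ∈ T, Kc (V a.1) a.1 a.2) :=
      hOmm.diff (Finset.measurableSet_biUnion _ fun a ha =>
        (isCompact_Kc' _ _ (hr a ha)).isClosed.measurableSet)
    have h3 : ∫⁻ x in Om \ ⋃ a ∈ T, Kc (V a.1) a.1 a.2, F x =
        ∫⁻ x in Om \ ⋃ a ∈ T, Kc (V a.1) a.1 a.2,
          (1 + ∑ j, ‖G j x‖ₑ ^ p + ∑ j, ‖G j x‖ₑ ^ p) := by
      refine setLIntegral_congr_fun hRm fun x hx => ?_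
      have hx' : ∀ a ∈ T, x ∉ Ko (V a.1) a.1 a.2 := by
        intro a ha h
        apply hx.2
        simp only [mem_iUnion, exists_prop]
        exact ⟨a, ha, Ko_subset_Kc _ _ _ h⟩
      simp only [hFdef, q4 x hx']
    have hmGR := hmG.mono_measure (Measure.restrict_mono
      (sdiff_subset (s := Om) (t := ⋃ a ∈ T, Kc (V a.1) a.1 a.2)) le_rfl)
    calc ∫⁻ x in Om \ ⋃ a ∈ T, Ko (V a.1) a.1 a.2, F x
        ≤ ∫⁻ x in (Om \ ⋃ a ∈ T, Kc (V a.1) a.1 a.2) ∪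
            ⋃ a ∈ T, (Kc (V a.1) a.1 a.2 \ Ko (V a.1) a.1 a.2), F x := lintegral_mono_set h1
      _ ≤ (∫⁻ x in Om \ ⋃ a ∈ T, Kc (V a.1) a.1 a.2, F x) +
            ∫⁻ x in ⋃ a ∈ T, (Kc (V a.1) a.1 a.2 \ Ko (V a.1) a.1 a.2), F x :=
          lintegral_union_le _ _ _
      _ = ∫⁻ x in Om \ ⋃ a ∈ T, Kc (V a.1) a.1 a.2, F x := by
          rw [setLIntegral_measure_zero _ _ h2, add_zero]
      _ = volume (Om \ ⋃ a ∈ T, Kc (V a.1) a.1 a.2) +
            (∫⁻ x in Om \ ⋃ a ∈ T, Kc (V a.1) a.1 a.2, ∑ j, ‖G j x‖ₑ ^ p) +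
            (∫⁻ x in Om \ ⋃ a ∈ T, Kc (V a.1) a.1 a.2, ∑ j, ‖G j x‖ₑ ^ p) := by
          rw [h3, lintegral_add_right' _ hmGR, lintegral_add_right' _ hmGR]
          simp
      _ < ε' + ε' + ε' := ENNReal.add_lt_add (ENNReal.add_lt_add hTv hTE) hTE
      _ ≤ ε' + ε' + ε' + ε' := le_self_add
      _ = δC := by
          rw [hε']
          have : (δC:ℝ≥0∞) / 4 + δC / 4 + δC / 4 + δC / 4 = 4 * (δC / 4) := by ring
          rw [this]
          exact ENNReal.mul_div_cancel (by norm_num) (by norm_num)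
  obtain ⟨t, ht0, ht1, htF⟩ := exists_shrink hOm T V hr hFm hF hFlt
  set K : Set R3 := ⋃ a ∈ T, Kc (V a.1) a.1 (t * a.2) with hK
  have hKt : ∀ a ∈ T, Kc (V a.1) a.1 (t * a.2) ⊆ Ko (V a.1) a.1 a.2 := fun a _ =>
    Kc_subset_Ko _ _ ht0.le ht1
  have hrt : ∀ a ∈ T, 0 < t * a.2 := fun a ha => mul_pos ht0 (hr a ha)
  have hKdis : (T : Set (R3 × ℝ)).PairwiseDisjoint (fun a => Kc (V a.1) a.1 (t * a.2)) :=
    hDdis.mono_on fun a ha => hKt a ha
  have hKm : MeasurableSet K := Finset.measurableSet_biUnion _ fun a ha =>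
    (isCompact_Kc' _ _ (hrt a ha)).isClosed.measurableSet
  have hKsub : K ⊆ Om := by
    intro x hx
    simp only [hK, mem_iUnion, exists_prop] at hx
    obtain ⟨a, ha, hx⟩ := hx
    exact hKO a ha (Ko_subset_Kc _ _ _ (hKt a ha hx))
  have hPL1 : ∃ U : Set R3, IsOpen U ∧ K ⊆ U ∧ LocPL f1 U := by
    refine ⟨⋃ a ∈ T, Ko (V a.1) a.1 a.2, ?_, ?_, ?_⟩
    · exact isOpen_biUnion fun a ha => isOpen_Ko _ _ (hr a ha)
    · exact iUnion₂_mono hKt
    · exact locPL_biUnion fun a ha =>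
        LocPL.congr_open (isOpen_Ko _ _ (hr a ha)) (hg a ha).2.1 (q1 a ha)
  have hδC0 : (0:ℝ≥0∞) < δC := by exact_mod_cast hδC
  obtain ⟨h, h1, h2, h3, h4, h5⟩ := hC Om La f1 G1 hOm hOmb hOmc hLa hLab hLac H1 K
    (cubeUnion_of T V ht0 hr hKdis) hKsub hPL1 (fun _ => η) continuousOn_const
    (fun _ _ => hη0) δC hδC0
  refine ⟨h, h1, h2, ?_⟩
  -- closeness of `f1` and `f`
  have hf1 : ∀ x ∈ Om, ‖f1 x - f x‖ ≤ η := by
    intro x hx
    by_cases hxK : ∃ a ∈ T, x ∈ Ko (V a.1) a.1 a.2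
    · obtain ⟨a, ha, hxa⟩ := hxK
      rw [q1 a ha hxa]
      exact (hg a ha).2.2.2.1 x hxa
    · push Not at hxK
      rw [q3 x hxK, sub_self, norm_zero]
      exact hη0.le
  -- part A
  have hA : ∫⁻ x in Om, ‖h x - f x‖ₑ ^ p < ε / 3 := by
    have hb : ∀ x ∈ Om, ‖h x - f x‖ₑ ^ p ≤ (δA : ℝ≥0∞) := by
      intro x hx
      have n1 : ‖h x - f x‖ ≤ 2 * η := by
        have n2 : h x - f x = (h x - f1 x) + (f1 x - f x) := by abel
        rw [n2]
        refine (norm_add_le _ _).trans ?_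
        linarith [h4 x hx, hf1 x hx]
      have n3 : 2 * η ≤ 1 := by
        have := min_le_right ((δA:ℝ) / 2) (1 / 2)
        rw [← hη] at this
        linarith
      have n4 : 2 * η ≤ δA := by
        have := min_le_left ((δA:ℝ) / 2) (1 / 2)
        rw [← hη] at this
        linarith
      have n5 : ‖h x - f x‖ₑ ≤ 1 := by
        rw [← ofReal_norm, ← ENNReal.ofReal_one]
        exact ENNReal.ofReal_le_ofReal (n1.trans n3)
      have n6 : ‖h x - f x‖ₑ ≤ (δA : ℝ≥0∞) := by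
        rw [← ofReal_norm, ← ENNReal.ofReal_coe_nnreal]
        exact ENNReal.ofReal_le_ofReal (n1.trans n4)
      calc ‖h x - f x‖ₑ ^ p ≤ ‖h x - f x‖ₑ ^ (1:ℝ) := ENNReal.rpow_le_rpow_of_exponent_ge n5 hp
        _ = ‖h x - f x‖ₑ := ENNReal.rpow_one _
        _ ≤ δA := n6
    calc ∫⁻ x in Om, ‖h x - f x‖ₑ ^ p ≤ ∫⁻ _ in Om, (δA : ℝ≥0∞) :=
          setLIntegral_mono' hOmm hb
      _ = volume Om * δA := by rw [setLIntegral_const, mul_comm]
      _ < ε / 3 := hδA'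
  -- part B
  have hB : ∫⁻ x in K, ∑ j, ‖Gr h j x - G j x‖ₑ ^ p < ε / 3 := by
    have b1 : ∀ a ∈ T, ∫⁻ x in Kc (V a.1) a.1 (t * a.2), ∑ j, ‖Gr h j x - G j x‖ₑ ^ p ≤
        c2 * 2 * δB * volume (Kc (V a.1) a.1 a.2) := by
      intro a ha
      have b2 : ∫⁻ x in Kc (V a.1) a.1 (t * a.2), ∑ j, ‖Gr h j x - G j x‖ₑ ^ p ≤
          ∫⁻ x in Ko (V a.1) a.1 (t * a.2), ∑ j, ‖Gr h j x - G j x‖ₑ ^ p := by
        calc ∫⁻ x in Kc (V a.1) a.1 (t * a.2), ∑ j, ‖Gr h j x - G j x‖ₑ ^ p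
            ≤ ∫⁻ x in Ko (V a.1) a.1 (t * a.2) ∪
                (Kc (V a.1) a.1 (t * a.2) \ Ko (V a.1) a.1 (t * a.2)),
                ∑ j, ‖Gr h j x - G j x‖ₑ ^ p := by
              apply lintegral_mono_set
              rw [union_sdiff_self]
              exact subset_union_right
          _ ≤ (∫⁻ x in Ko (V a.1) a.1 (t * a.2), ∑ j, ‖Gr h j x - G j x‖ₑ ^ p) +
                (∫⁻ x in Kc (V a.1) a.1 (t * a.2) \ Ko (V a.1) a.1 (t * a.2),
                ∑ j, ‖Gr h j x - G j x‖ₑ ^ p) := lintegral_union_le _ _ _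
          _ = _ := by rw [setLIntegral_measure_zero _ _ (vol_Kc_diff _ _ (hrt a ha)), add_zero]
      have b3 : ∀ x ∈ Ko (V a.1) a.1 (t * a.2), ∑ j, ‖Gr h j x - G j x‖ₑ ^ p ≤
          c2 * (∑ j, ‖Gr (g a) j x - G j a.1‖ₑ ^ p + ∑ j, ‖G j x - G j a.1‖ₑ ^ p) := by
        intro x hx
        have b4 : EqOn h (g a) (Ko (V a.1) a.1 (t * a.2)) := by
          intro y hy
          have hyK : y ∈ Kc (V a.1) a.1 (t * a.2) := Ko_subset_Kc _ _ _ hy
          have hyK' : y ∈ K := by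
            simp only [hK, mem_iUnion, exists_prop]
            exact ⟨a, ha, hyK⟩
          rw [h3 hyK', q1 a ha (hKt a ha hyK)]
        have b5 : ∀ j, Gr h j x = Gr (g a) j x := fun j =>
          Gr_congr_open (isOpen_Ko _ _ (hrt a ha)) b4 hx j
        simp only [b5]
        have b6 := sum_enorm_sub_le hp (fun j => Gr (g a) j x) (fun j => G j a.1)
          (fun j => G j x)
        refine b6.trans (le_of_eq ?_)
        congr 2
        apply Finset.sum_congr rfl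
        intro j _
        rw [← enorm_neg, neg_sub]
      have hKoO : Ko (V a.1) a.1 a.2 ⊆ Om := (Ko_subset_Kc _ _ _).trans (hKO a ha)
      have hKot : Ko (V a.1) a.1 (t * a.2) ⊆ Ko (V a.1) a.1 a.2 :=
        (Ko_subset_Kc _ _ _).trans (hKt a ha)
      have hm1 : AEMeasurable (fun x => ∑ j, ‖G j x - G j a.1‖ₑ ^ p)
          (volume.restrict (Ko (V a.1) a.1 (t * a.2))) := by
        apply Finset.aemeasurable_fun_sum
        intro j _
        have := ((H.memG j).1.mono_measure (Measure.restrict_mono (hKot.trans hKoO) le_rfl))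
        exact (this.sub aestronglyMeasurable_const).enorm.pow_const p
      calc ∫⁻ x in Kc (V a.1) a.1 (t * a.2), ∑ j, ‖Gr h j x - G j x‖ₑ ^ p
          ≤ ∫⁻ x in Ko (V a.1) a.1 (t * a.2), ∑ j, ‖Gr h j x - G j x‖ₑ ^ p := b2
        _ ≤ ∫⁻ x in Ko (V a.1) a.1 (t * a.2),
            c2 * (∑ j, ‖Gr (g a) j x - G j a.1‖ₑ ^ p + ∑ j, ‖G j x - G j a.1‖ₑ ^ p) :=
            setLIntegral_mono' (isOpen_Ko _ _ (hrt a ha)).measurableSet b3
        _ = c2 * ((∫⁻ x in Ko (V a.1) a.1 (t * a.2), ∑ j, ‖Gr (g a) j x - G j a.1‖ₑ ^ p) +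
            (∫⁻ x in Ko (V a.1) a.1 (t * a.2), ∑ j, ‖G j x - G j a.1‖ₑ ^ p)) := by
            rw [lintegral_const_mul' _ _ hc2t, lintegral_add_right' _ hm1]
        _ ≤ c2 * (ENNReal.ofReal δB * volume (Kc (V a.1) a.1 a.2) +
            ENNReal.ofReal δB * volume (Kc (V a.1) a.1 a.2)) := by
            gcongr
            · exact (lintegral_mono_set hKot).trans (hg a ha).2.2.2.2
            · refine (lintegral_mono_set hKot).trans ((hen a ha).trans ?_)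
              gcongr
              exact min_le_right _ _
        _ = c2 * 2 * δB * volume (Kc (V a.1) a.1 a.2) := by
            rw [ENNReal.ofReal_coe_nnreal]; ring
    calc ∫⁻ x in K, ∑ j, ‖Gr h j x - G j x‖ₑ ^ p
        = ∑ a ∈ T, ∫⁻ x in Kc (V a.1) a.1 (t * a.2), ∑ j, ‖Gr h j x - G j x‖ₑ ^ p := by
          rw [hK, lintegral_biUnion_finset hKdis fun a ha =>
            (isCompact_Kc' _ _ (hrt a ha)).isClosed.measurableSet]
      _ ≤ ∑ a ∈ T, c2 * 2 * δB * volume (Kc (V a.1) a.1 a.2) := Finset.sum_le_sum b1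
      _ = c2 * 2 * δB * ∑ a ∈ T, volume (Kc (V a.1) a.1 a.2) := by rw [Finset.mul_sum]
      _ = c2 * 2 * δB * volume (⋃ a ∈ T, Kc (V a.1) a.1 a.2) := by
          rw [measure_biUnion_finset hTd fun a ha =>
            (isCompact_Kc' _ _ (hr a ha)).isClosed.measurableSet]
      _ ≤ c2 * 2 * δB * volume Om := by
          gcongr
          exact iUnion₂_subset hKO
      _ = c2 * 2 * volume Om * δB := by ring
      _ < ε / 3 := hδB'
  -- part C
  have hCp : ∫⁻ x in Om \ K, ∑ j, ‖Gr h j x - G j x‖ₑ ^ p < ε / 3 := by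
    have hmGK := hmG.mono_measure (Measure.restrict_mono (sdiff_subset (s := Om) (t := K)) le_rfl)
    have c1 : ∀ x, ∑ j, ‖Gr h j x - G j x‖ₑ ^ p ≤
        c2 * (∑ j, ‖Gr h j x‖ₑ ^ p + ∑ j, ‖G j x‖ₑ ^ p) := by
      intro x
      have := sum_enorm_sub_le hp (fun j => Gr h j x) (fun _ => 0) (fun j => G j x)
      simpa using this
    have c3 : ∫⁻ x in Om \ K, (1 + ∑ j, ‖G1 j x‖ₑ ^ p) ≤ ∫⁻ x in Om \ K, F x :=
      lintegral_mono fun x => le_self_add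
    have c4 : ∫⁻ x in Om \ K, ∑ j, ‖G j x‖ₑ ^ p ≤ ∫⁻ x in Om \ K, F x :=
      lintegral_mono fun x => le_add_self
    calc ∫⁻ x in Om \ K, ∑ j, ‖Gr h j x - G j x‖ₑ ^ p
        ≤ ∫⁻ x in Om \ K, c2 * (∑ j, ‖Gr h j x‖ₑ ^ p + ∑ j, ‖G j x‖ₑ ^ p) := lintegral_mono c1
      _ = c2 * ((∫⁻ x in Om \ K, ∑ j, ‖Gr h j x‖ₑ ^ p) +
            (∫⁻ x in Om \ K, ∑ j, ‖G j x‖ₑ ^ p)) := by
          rw [lintegral_const_mul' _ _ hc2t, lintegral_add_right' _ hmGK]
      _ ≤ c2 * ((C * δC + δC) + δC) := by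
          gcongr
          · refine h5.trans ?_
            gcongr
            exact c3.trans htF.le
          · exact c4.trans htF.le
      _ = c2 * (C + 2) * δC := by ring
      _ < ε / 3 := hδC'
  -- conclusion
  have hmh : AEMeasurable (fun x => ‖h x - f x‖ₑ ^ p) (volume.restrict Om) := by
    obtain ⟨hinv, -, -, -, -, hcont, -⟩ := h1
    obtain ⟨finv, -, -, -, -, fcont, -⟩ := H.homeo
    exact ((hcont.aestronglyMeasurable hOmm).sub
      (fcont.aestronglyMeasurable hOmm)).enorm.pow_const p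
  calc ∫⁻ x in Om, (‖h x - f x‖ₑ ^ p + ∑ j, ‖Gr h j x - G j x‖ₑ ^ p)
      = (∫⁻ x in Om, ‖h x - f x‖ₑ ^ p) + (∫⁻ x in Om, ∑ j, ‖Gr h j x - G j x‖ₑ ^ p) :=
        lintegral_add_left' hmh _
    _ = (∫⁻ x in Om, ‖h x - f x‖ₑ ^ p) + ((∫⁻ x in K, ∑ j, ‖Gr h j x - G j x‖ₑ ^ p) +
          (∫⁻ x in Om \ K, ∑ j, ‖Gr h j x - G j x‖ₑ ^ p)) := by
        congr 1
        have := lintegral_inter_add_sdiff (μ := volume)
          (fun x => ∑ j, ‖Gr h j x - G j x‖ₑ ^ p) Om hKm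
        rw [inter_eq_self_of_subset_right hKsub] at this
        exact this.symm
    _ < ε / 3 + (ε / 3 + ε / 3) := ENNReal.add_lt_add hA (ENNReal.add_lt_add hB hCp)
    _ = ε := by rw [← add_assoc, ENNReal.add_thirds]

end

end Crest.Agent.R096.Sk_962
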