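import Crest.Agent.R096.SkB1b_662

/-!
# R096 (row 96), bottom, SkB1 (helper662), part 1e: (K4) for all base points

`StO.ex_all` : if `K4In` holds for every choice `y q ∈ Y q`, then `Ex` holds at every `y ∈ Y q`.
-/

set_option autoImplicit false
set_option linter.unusedSectionVars false

open Set

namespace Crest.Agent.R096.SkB_662

open Crest.Agent.R096.St_147 Crest.Agent.R096.Seq_213 Crest.Agent.R096.Seq_213.GSt
  Crest.Agent.R096.Bd_416 Crest.Agent.R096.Mg_441 Crest.Agent.R096.Lm_117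
  Crest.Agent.R096.Grd_714 Crest.Agent.R096.Cp_298 Crest.Agent.R096.Gl_422
  Crest.Agent.R096.On_441

variable {ι Φ W Q J C K : Type} {M : MeshC ι Φ W} [PartialOrder Q] {dim : Q → ℕ}
variable {L : LM M Q dim} {O : Ori M} {τ : Q → ZMod 2} {Rel : W → W → Prop} {V : Set W}
  {Qd : Quads ι C K} {κ : C → ℕ} {fam : J → C} {s₀ : GSt M fam} {far₀ : J → Set W}
  {G : C → Set W} {Z : C → Set Q} {lam₀ : J → Q → ZMod 2} {v₀ v₁ : C → Q}
  {hfin : ∀ a, {j | fam j = a}.Finite} {kap : C → ℕ} {s : GSt M (fam' fam (Rk κ kap))}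
  {far : Nm' fam (Rk κ kap) → Set W} {β : W → W} {lam : Nm' fam (Rk κ kap) → Q → ZMod 2}
  {E' : Type*} [NormedAddCommGroup E'] [NormedSpace ℝ E'] {Pf : C → Set E'}

/-- **(K4) for all base points at once** -/
theorem StO.ex_all (h : StO L O τ Rel V Qd κ s₀ far₀ Z lam₀ v₀ v₁ hfin kap s far β lam)
    (hi : StI L O τ Rel V Qd κ s₀ far₀ G Z lam₀ v₀ v₁) {D : Set Q} {Y : Q → Set (C → ℝ)}
    (hY : ∀ q ∈ D, (Y q).Nonempty)
    (hK : ∀ y : Q → C → ℝ, (∀ q ∈ D, y q ∈ Y q) → K4In L Qd s₀ Z v₀ Pf D y) {q : Q} (hq : q ∈ D)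
    {y : C → ℝ} (hy : y ∈ Y q) : Ex h.cmb Pf q y := by
  classical
  have h0 : ∀ q', ∃ y', q' ∈ D → y' ∈ Y q' := fun q' => by
    by_cases hq' : q' ∈ D
    · obtain ⟨y', hy'⟩ := hY q' hq'
      exact ⟨y', fun _ => hy'⟩
    · exact ⟨fun _ => 0, fun hh => absurd hh hq'⟩
  choose y0 hy0 using h0
  have h1 := h.ex hi (hK (fun q' => if q' = q then y else y0 q') (fun q' hq' => by
    show (if q' = q then y else y0 q') ∈ Y q'
    split_ifs with e
    · rw [e]; exact hy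
    · exact hy0 q' hq')) hq
  simpa using h1

end Crest.Agent.R096.SkB_662
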