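import Crest.Agent.R096.SkC1_961

/-!
Row 96 (S0127), helper961.  **MachBF, version 2** (replaces `SkC1_961.MachBF`, `Levels`, `Words`,
`Out`; `FoamD`, `Psi`, `lev`, `Cfg`, `Exact`, `th`, `Tiny`, `Cores`, `Fine`, `NN` stay in `SkC1_961`).

Changes (874 #9694, 335 #9715 (0), 315 #9765 / #9799, 747 #9777, 337 #9683, 147 #9871):
* the constant is a function of the shape of the tile;
* `Levels.pos` is replaced by the upper density `dens`; `gap` (progressions) added;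
* the machine chooses `m0 c ≤ #(L c)` after the mesh;
* the boundary of an exact core is meshed by the level-aligned `M`-grid (`Words.grid`);
* `Out.core` has relative error `e`.
Definitions only.
-/

set_option autoImplicit false
set_option linter.style.longLine false
set_option linter.unusedSectionVars false

open MeasureTheory Set Filter Topology Metric
open scoped ENNReal

namespace Crest.Agent.R096.SkC2_961

open Crest.Agent.R096.Bsp_628 Crest.Agent.R096.Brk1_582 Crest.Agent.R096.Brk3_582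
open Crest.Agent.R096.Brk5_582
open Crest.Agent.R096.Msh_715
open Crest.Agent.R96.Push_899
open Crest.Agent.R096.SkC1_961 (E3 Hom3 FoamD Cfg th Cores Fine NN Exact Tiny)

noncomputable section

section Levels

variable {δ κ0 R c0 : ℝ} {La Om : Set E3} {ι : Type}

/-- **levels**: finite sets `L c ⊆ (0,1)`, weights `2^(-κ c)`, number of levels ~ size / weight,
upper density, regular with respect to the mesh, off the exceptional null sets `Z c`. -/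
structure Levels (Φ : FoamD δ κ0 R c0 La) (T : Tiling Om ι) (f : E3 → E3) (κ1 : ℝ)
    (Z : Φ.F → Set ℝ) (m0 : Φ.F → ℕ) (κ : Φ.F → ℕ) (L : Φ.F → Finset ℝ) : Prop where
  lf : ∀ m : ℕ, {c | κ c ≤ m}.Finite
  sub : ∀ c, ∀ t ∈ L c, t ∈ Ioo (0 : ℝ) 1
  many : ∀ c, c.1.sz ≤ 8 * ((L c).card * (2 : ℝ)⁻¹ ^ κ c)
  few : ∀ c, (L c).card * (2 : ℝ)⁻¹ ^ κ c ≤ 8 * c.1.sz
  large : ∀ c, m0 c ≤ (L c).card
  large' : ∀ c, 1 ≤ κ1 * (L c).card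
  dens : ∀ c, ∀ u v : ℝ, u ≤ v →
    (((L c).filter fun t => u < t ∧ t < v).card : ℝ) ≤ (1 + κ1) * (v - u) * (L c).card + 1
  gap : ∀ c, ∀ t ∈ L c, ∀ t' ∈ L c, t < t' → 1 ≤ 2 * (L c).card * (t' - t)
  off : ∀ c, ∀ t ∈ L c, t ∉ Z c
  vert : ∀ c, ∀ t ∈ L c, ∀ x ∈ Om, T.dim x = 0 → Φ.lev c (f x) ≠ t
  fin : ∀ c, ∀ t ∈ L c, ∀ x ∈ Om, T.dim x = 1 → {y ∈ T.cc x | Φ.lev c (f y) = t}.Finite
  sep : ∀ c c', c ≠ c' → ∀ t ∈ L c, ∀ t' ∈ L c', ∀ x ∈ Om, T.dim x = 1 →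
    ¬ (Φ.lev c (f x) = t ∧ Φ.lev c' (f x) = t')

/-- the cell `(i, j)` of the level-aligned `M`-grid of the quad of `bd P_c` with zeros `c, d` and
active cells `a, b`. -/
def Mcell (Φ : FoamD δ κ0 R c0 La) (M : ℕ) (c d a b : Φ.F) (i j : ℕ) : Set E3 :=
  {y | y ∈ La ∧
    sc (Pc Φ.F) (bc (F := Φ.F)) y c = 0 ∧ sc (Pc Φ.F) (bc (F := Φ.F)) y d = 0 ∧
    (i : ℝ) ≤ M * sc (Pc Φ.F) (bc (F := Φ.F)) y a ∧
    M * sc (Pc Φ.F) (bc (F := Φ.F)) y a ≤ i + 1 ∧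
    (j : ℝ) ≤ M * sc (Pc Φ.F) (bc (F := Φ.F)) y b ∧
    M * sc (Pc Φ.F) (bc (F := Φ.F)) y b ≤ j + 1 ∧
    ∀ c' : Φ.F, c' ≠ c → c' ≠ d → c' ≠ a → c' ≠ b → sc (Pc Φ.F) (bc (F := Φ.F)) y c' = 1}

/-- **exact words** on the boundary of the exact cores (337 #9683 (1), 124 #9412 (3)): the closed
2-cells of the core are the cells of the `M`-grid pulled back by the exact map, every used level
crosses every mesh edge of the core exactly as the exact map does. -/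
structure Words (Φ : FoamD δ κ0 R c0 La) (T : Tiling Om ι) (f : E3 → E3) (X : Set Φ.F) (ct : Φ.F → ι)
    (A : Φ.F → E3 ≃ᵃ[ℝ] E3) (lam : Φ.F → ℝ) (z : Φ.F → E3) (M : Φ.F → ℕ)
    (L : Φ.F → Finset ℝ) : Prop where
  Mpos : ∀ c ∈ X, 0 < M c
  grid : ∀ c ∈ X, ∀ x ∈ P (T.H (ct c)), T.dim x = 2 →
    ∃ (d a b : Φ.F) (i j : ℕ), d ≠ c ∧ a ≠ c ∧ b ≠ c ∧ a ≠ d ∧ b ≠ d ∧ a ≠ b ∧
      i < M c ∧ j < M c ∧
      (c.1.set ∩ d.1.set ∩ a.1.set ∩ b.1.set).Nonempty ∧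
      (fun y => th (A c) (lam c) (z c) y) '' (T.cc x) = Mcell Φ (M c) c d a b i j
  win : ∀ c ∈ X, ∀ x ∈ P (T.H (ct c)), T.dim x = 0 → ∀ c' : Φ.F, ∀ t ∈ L c',
    (c.1.set ∩ c'.1.set).Nonempty →
    1 ≤ 2 * (L c').card *
      |t - sc (Pc Φ.F) (bc (F := Φ.F)) (th (A c) (lam c) (z c) x) c'|
  word : ∀ c ∈ X, ∀ x ∈ P (T.H (ct c)), T.dim x = 1 → ∀ c' : Φ.F, ∀ t ∈ L c',
    ∀ a b : E3, T.cc x = segment ℝ a b →
    let s := fun y => sc (Pc Φ.F) (bc (F := Φ.F)) (th (A c) (lam c) (z c) y) c'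
    s a ≠ t ∧ s b ≠ t ∧
    ((s a < t ∧ t < s b) ∨ (s b < t ∧ t < s a) → ∃! y, y ∈ T.cc x ∧ Φ.lev c' (f y) = t) ∧
    (¬ ((s a < t ∧ t < s b) ∨ (s b < t ∧ t < s a)) → ∀ y ∈ T.cc x, Φ.lev c' (f y) ≠ t)

end Levels

/-- **output** of the machine -/
structure Out {δ κ0 R c0 : ℝ} {La Om : Set E3} {ι : Type} (C0 : ℝ) (C : Set (Set E3) → ℝ) (e : ℝ)
    (Φ : FoamD δ κ0 R c0 La) (T : Tiling Om ι) (f : E3 → E3) (X : Set Φ.F) (ct : Φ.F → ι)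
    (A : Φ.F → E3 ≃ᵃ[ℝ] E3) (lam : Φ.F → ℝ) (κ : Φ.F → ℕ) (L : Φ.F → Finset ℝ) (tol : ι → ℝ)
    (g : E3 → E3) : Prop where
  homeo : Hom3 g Om La
  pl : Str_696.LocPL g Om
  near : ∀ x ∈ Om, ∀ c : Φ.F, f x ∈ c.1.set → ‖g x - f x‖ ≤ C0 * c.1.sz
  /-- ordinary tiles (`tol i > 0` is the tolerance of EXPLODE); the constant depends on the shape of
  the tile in the affine frame `B` -/
  lip : ∀ i, i ∉ range ct → ∀ B : E3 ≃ᵃ[ℝ] E3, ∀ N : ℝ, 0 ≤ N →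
    NN Φ T f κ L i ≤ ENNReal.ofReal N → ∀ x ∈ I (T.H i), ∀ᶠ y in 𝓝 x,
      ‖g y - g x‖ ≤ C ((fun K => B '' K) '' Cfg T i) * N * ‖B y - B x‖ + tol i * ‖y - x‖
  /-- exact cores: affine up to a set of small relative volume and a relative error `e`, Lipschitz in
  the coordinates `A` -/
  core : ∀ c ∈ X, (∀ x ∈ I (T.H (ct c)), ∀ᶠ y in 𝓝 x,
      ‖g y - g x‖ ≤ C0 * (1 / lam c * ‖A c y - A c x‖)) ∧
    ∃ W : Set E3, volume (W ∩ P (T.H (ct c))) ≤ ENNReal.ofReal e * volume (P (T.H (ct c))) ∧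
      ∀ x ∈ I (T.H (ct c)), x ∉ W → ∀ᶠ y in 𝓝 x,
        ‖(g y - g x) - (1 / lam c) • (A c y - A c x)‖ ≤ e * (1 / lam c * ‖A c y - A c x‖)

/-- **MACHINE, bounded factor + exact cores** (`p`-free, to be proved by the bottom half),
version 2. -/
def MachBF : Prop :=
  ∀ δ κ0 R c0 κ2 : ℝ, 0 < δ → 1 ≤ κ0 → 1 ≤ R → 0 < c0 → 0 < κ2 →
  ∃ (C0 : ℝ) (C : Set (Set E3) → ℝ), 0 < C0 ∧ (∀ S, 0 < C S) ∧
  ∀ e : ℝ, 0 < e → ∃ κ1 : ℝ, 0 < κ1 ∧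
  ∀ (Om La : Set E3) (f : E3 → E3), IsOpen Om → Bornology.IsBounded Om → IsConnected Om →
    IsOpen La → Bornology.IsBounded La → IsConnected La → Hom3 f Om La →
  ∀ (Φ : FoamD δ κ0 R c0 La) (ι : Type) (T : Tiling Om ι) (X : Set Φ.F) (ct : Φ.F → ι)
    (A : Φ.F → E3 ≃ᵃ[ℝ] E3) (lam : Φ.F → ℝ) (z : Φ.F → E3),
    Cores Φ T f κ1 κ2 X ct A lam z → Fine Φ T f κ1 ct →
  ∃ (Z : Φ.F → Set ℝ) (m0 : Φ.F → ℕ), (∀ c, volume (Z c) = 0) ∧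
  ∀ (κ : Φ.F → ℕ) (L : Φ.F → Finset ℝ) (M : Φ.F → ℕ),
    Levels Φ T f κ1 Z m0 κ L → Words Φ T f X ct A lam z M L →
  ∀ tol : ι → ℝ, (∀ i, 0 < tol i) →
  ∃ g : E3 → E3, Out C0 C e Φ T f X ct A lam κ L tol g

end

end Crest.Agent.R096.SkC2_961
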