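import Crest.Agent.R096.SkMv1_362
import Crest.Agent.R096.Gl12_422
import Crest.Agent.R096.Cpo2_642
import Crest.Agent.R096.Csub7_487
import Crest.Agent.R096.Fin4_147

/-!
# R096 (row 96), BOTTOM, vertical slice `X = univ` (helper362, hot spare of SkM_337), part 2

The slice over `Lx` = the labelled mesh of the closed cells which are not exact core tiles: complex
`cplxX`, `StI`, `StO`, `mm > 0`, `Inv`-free data of the placement.
-/

set_option autoImplicit false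
set_option linter.style.longLine false
set_option linter.unusedSectionVars false

open Set Topology Filter Relation MeasureTheory

namespace Crest.Agent.R096.SkMv_362

open Crest.Agent.R096.Coh_184 Crest.Agent.R096.Brk1_582 Crest.Agent.R096.Brk2_582
  Crest.Agent.R096.Brk3_582 Crest.Agent.R096.Brk5_582 Crest.Agent.R096.Bsp_628
  Crest.Agent.R096.Lab_184 Crest.Agent.R096.Main_4 Crest.Agent.R096.Msh_715
  Crest.Agent.R096.Agl4_543 Crest.Agent.R096.Agl5_543 Crest.Agent.R096.Agl6_543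
  Crest.Agent.R096.Ginv_543 Crest.Agent.R096.Seq_213 Crest.Agent.R096.Seq_213.GSt
  Crest.Agent.R096.St_147 Crest.Agent.R96.Push_899
  Crest.Agent.R096.Init_543 Crest.Agent.R096.Leaf_965 Crest.Agent.R096.SkB_662
  Crest.Agent.R096.Lm_117 Crest.Agent.R096.Ac_117 Crest.Agent.R096.Gl_422
  Crest.Agent.R096.Cp_298 Crest.Agent.R096.Ori_543 Crest.Agent.R096.Bd_416 Crest.Agent.R096.Mg_441
  Crest.Agent.R096.Cpo_642 Crest.Agent.R096.Csub_487 Crest.Agent.R096.Ce_537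

open Crest.Agent.R096.SkC1_961 (E3 Hom3 IsPush FoamD Cfg th NN)
open Crest.Agent.R096.Fin_147 (Xout)

section mesh

variable {Om : Set E3} {ι α : Type} (T : Tiling Om ι) (ct : α → ι)

/-- the closed cells which are not one of the tiles `ct a` -/
abbrev Qx : Type := {c : T.Cell // notTile T ct c}

theorem px_down (c d : T.Cell) (h : c ≤ d) (hd : notTile T ct d) : notTile T ct c :=
  notTile_down ct h hd

theorem px_two [Nonempty T.Cell] (c : T.Cell) (h : c.dim ≤ 2) : notTile T ct c :=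
  notTile_of_dim ct fr3 (by omega)

theorem px_ne [Nonempty T.Cell] : ∃ c : T.Cell, notTile T ct c := by
  obtain ⟨c⟩ := (inferInstance : Nonempty T.Cell)
  obtain ⟨v, hv, hd⟩ := exists_vertex T c.pt_mem
  have hvO : v ∈ Om := T.cc_sub_Om c.pt_mem hv
  refine ⟨T.cl hvO, px_two T ct _ ?_⟩
  rw [T.dim_cl, hd]
  norm_num

/-- the labelled mesh over `Qx` -/
noncomputable abbrev Lx [Nonempty T.Cell] : LM (meshC T fr3) (Qx T ct) (fun c => c.1.dim) :=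
  sb (lmT T fr3) (notTile T ct) (px_down T ct) (px_ne T ct) (px_two T ct)

/-- the core tiles -/
abbrev Kx (a : α) : Set E3 := Msh_715.P (T.H (ct a))

/-- **the complex outside the open core tiles** -/
theorem cplxX : Cplx (Om ∩ Xout (Kx T ct)) (Qx T ct) (fun c => c.1.dim) (fun c => c.1.set) := by
  refine cplx_out (KK := fun e : Empty => (e.elim : Set E3)) (Kc := Kx T ct) ct (fun k => k.elim)
    (fun k => k.elim) (fun k => k.elim) (fun k => k.elim) (fun f => Or.inr ⟨f, rfl⟩)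
    (fun k => k.elim) (fun a => ⟨a, rfl⟩) (φ := Subtype.val) Subtype.val_injective
    (fun _ _ => Iff.rfl) (fun c => ?_) (fun _ => rfl) (fun _ => rfl)
  constructor
  · rintro ⟨b, rfl⟩
    refine ⟨?_, b.2⟩
    obtain ⟨i, hi⟩ := T.at_nonempty b.1.pt_mem
    exact ⟨i, fun k => k.elim, by rw [b.1.set_eq]; exact T.cc_sub_tile hi⟩
  · rintro ⟨-, h⟩
    exact ⟨⟨c, h⟩, rfl⟩

/-- the cells of `Qx` are cells of the tiling (487's interface) -/
theorem cellIxX : CellIx T (fun c : Qx T ct => c.1.dim) (fun c => c.1.set) Subtype.val :=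
  cellIx_T.sub (p := notTile T ct) (px_down T ct)

end mesh

section slice

variable {δ κ0 R c0 : ℝ} {La Om : Set E3} {ι : Type} {Φ : FoamD δ κ0 R c0 La}
  {T : Tiling Om ι} {f g : E3 → E3}

/-- the input of the state half over `Lx`, literal -/
abbrev StIx [Nonempty T.Cell] {J0 : Φ.F → Set ι} {ct' : Φ.F → ι} {r₀ : Φ.F → ℝ} {κ1 s₁ : ℝ}
    (hLa : IsOpen La) (hR : InitR Φ T f g J0 ct' r₀)
    (hM : Mesh0 T (Pc Φ.F) (bc (F := Φ.F)) (RF Φ r₀) f (KorJ Φ J0) κ1) (h1 : κ1 < s₁)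
    (h2 : κ1 < 1) (ct : Φ.F → ι) (κ : Φ.F → ℕ) {L : Φ.F → Finset ℝ} [Nonempty (JJ Φ L)]
    (hG : GF Φ r₀ T f L) (D : Φ.F → Set E3) (bp : JJ Φ L → E3) (lam₀ : JJ Φ L → E3 → ZMod 2)
    (v₀ v₁ : Φ.F → E3) (far₀ : JJ Φ L → Set E3) : Prop :=
  StI (Lx T ct) (oriM fr3) (fun c => tauT T c.1) (RelM T) (Cp_298.VM T) (qdF hLa hR hM h1 h2) κ
    (st0 hG bp) far₀ (fun c => {w | w ∈ GT T (D c) ∧ w ∈ (lmT T fr3).W1})
    (fun c => {v | v.1 ∈ ZT T (D c)}) (fun j v => lam₀ j v.1.pt)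
    (fun c => sv (notTile T ct) (px_ne T ct) (edC T (v₀ c)))
    (fun c => sv (notTile T ct) (px_ne T ct) (edC T (v₁ c)))

/-- the output of the state half over `Lx`, literal -/
abbrev StOx [Nonempty T.Cell] {J0 : Φ.F → Set ι} {ct' : Φ.F → ι} {r₀ : Φ.F → ℝ} {κ1 s₁ : ℝ}
    (hLa : IsOpen La) (hR : InitR Φ T f g J0 ct' r₀)
    (hM : Mesh0 T (Pc Φ.F) (bc (F := Φ.F)) (RF Φ r₀) f (KorJ Φ J0) κ1) (h1 : κ1 < s₁)
    (h2 : κ1 < 1) (ct : Φ.F → ι) (κ : Φ.F → ℕ) {L : Φ.F → Finset ℝ} [Nonempty (JJ Φ L)]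
    (hG : GF Φ r₀ T f L) (D : Φ.F → Set E3) (bp : JJ Φ L → E3) (lam₀ : JJ Φ L → E3 → ZMod 2)
    (v₀ v₁ : Φ.F → E3) (far₀ : JJ Φ L → Set E3) (kap : Φ.F → ℕ)
    (s : GSt (meshC T fr3) (fam' (fun j : JJ Φ L => j.1) (Rk κ kap)))
    (far : Nm' (fun j : JJ Φ L => j.1) (Rk κ kap) → Set E3) (β : E3 → E3)
    (lam : Nm' (fun j : JJ Φ L => j.1) (Rk κ kap) → Qx T ct → ZMod 2) : Prop :=
  StO (Lx T ct) (oriM fr3) (fun c => tauT T c.1) (RelM T) (Cp_298.VM T) (qdF hLa hR hM h1 h2) κ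
    (st0 hG bp) far₀ (fun c => {v | v.1 ∈ ZT T (D c)}) (fun j v => lam₀ j v.1.pt)
    (fun c => sv (notTile T ct) (px_ne T ct) (edC T (v₀ c)))
    (fun c => sv (notTile T ct) (px_ne T ct) (edC T (v₁ c))) (jj_fin hG) kap s far β lam

/-- **[F1] - [F4] for exact cores**, over the closed cells outside the open cores -/
theorem exists_sliceO (hOm : IsConnected Om) (hLa : IsOpen La) (hLc : IsConnected La)
    (hf : Hom3 f Om La) {κ1 κ2 μ : ℝ} (hs : Sml δ κ0 R c0 κ1 κ2 μ) {J0 J V : Φ.F → Set ι}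
    {ct : Φ.F → ι} {A : Φ.F → E3 ≃ᵃ[ℝ] E3} {lam : Φ.F → ℝ} {z : Φ.F → E3} {θ : Φ.F → E3 → E3}
    {φ : Φ.F → E3 → ℝ} {M : Φ.F → ℕ} (hS : Mbf_337.Star Φ)
    (hC : Mbf_337.Cores Φ T f κ1 κ2 univ J0 J V ct A lam z θ φ)
    (hF : Mbf_337.Fine Φ T f κ1 J0) :
    ∃ (_ : Nonempty T.Cell) (g : E3 → E3) (ct' : Φ.F → ι) (r₀ : Φ.F → ℝ)
      (hR : InitR Φ T f g J0 ct' r₀)
      (hM : Mesh0 T (Pc Φ.F) (bc (F := Φ.F)) (RF Φ r₀) f (KorJ Φ J0) κ1) (Z : Φ.F → Set ℝ),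
      (∀ c, volume (Z c) = 0) ∧
      ∀ (κp κ3 : ℝ) (m0 κ : Φ.F → ℕ) (L : Φ.F → Finset ℝ),
        Mbf_337.Levels Φ T f κp μ κ3 Z m0 κ L → Mbf_337.Words Φ T f univ ct A lam z M L →
        ∃ (_ : Nonempty (JJ Φ L)) (hG : GF Φ r₀ T f L) (h1 : κ1 < μ / 4) (h2 : κ1 < 1)
          (D : Φ.F → Set E3) (bp : JJ Φ L → E3) (lam₀ : JJ Φ L → E3 → ZMod 2) (v₀ v₁ : Φ.F → E3)
          (far₀ : JJ Φ L → Set E3),
          InitS hLa hR hM h1 h2 hG D bp lam₀ v₀ v₁ ∧ (∀ j, bp j ∈ far₀ j) ∧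
          StIx hLa hR hM h1 h2 ct κ hG D bp lam₀ v₀ v₁ far₀ ∧
          ∃ (kap : Φ.F → ℕ) (s : GSt (meshC T fr3) (fam' (fun j : JJ Φ L => j.1) (Rk κ kap)))
            (far : Nm' (fun j : JJ Φ L => j.1) (Rk κ kap) → Set E3) (β : E3 → E3)
            (lam : Nm' (fun j : JJ Φ L => j.1) (Rk κ kap) → Qx T ct → ZMod 2),
            StOx hLa hR hM h1 h2 ct κ hG D bp lam₀ v₀ v₁ far₀ kap s far β lam := by
  obtain ⟨hne, g, ct', r₀, hR, hM, Z, hZ, h⟩ := exists_slice hOm hLa hLc hf hs (M := M) hS hC hF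
  refine ⟨hne, g, ct', r₀, hR, hM, Z, hZ, fun κp κ3 m0 κ L hL hW => ?_⟩
  obtain ⟨hJ, hG, h1, h2, D, bp, lam₀, v₀, v₁, far₀, hI, hbp, hSt⟩ := h κp κ3 m0 κ L hL hW
  have hSt' : StIx hLa hR hM h1 h2 ct κ hG D bp lam₀ v₀ v₁ far₀ :=
    stI_sub (px_down T ct) (px_ne T ct) (px_two T ct) hSt
  refine ⟨hJ, hG, h1, h2, D, bp, lam₀, v₀, v₁, far₀, hI, hbp, hSt', ?_⟩
  exact exists_out hSt'

/-- every family has a sheet -/
theorem exists_sheet {κp μ κ3 : ℝ} {Z : Φ.F → Set ℝ} {m0 κ : Φ.F → ℕ} {L : Φ.F → Finset ℝ}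
    (hL : Mbf_337.Levels Φ T f κp μ κ3 Z m0 κ L) (a : Φ.F) : ∃ j : JJ Φ L, j.1 = a := by
  have h1 := hL.many a
  have h2 : 0 < a.1.sz := Bx.sz_pos (Φ.bf.pos a.1 a.2)
  have h3 : (L a).card ≠ 0 := by
    intro h0
    rw [h0] at h1
    simp only [Nat.cast_zero, zero_mul, mul_zero] at h1
    linarith
  obtain ⟨t, ht⟩ := Finset.card_pos.1 (Nat.pos_of_ne_zero h3)
  exact ⟨⟨a, t, ht⟩, rfl⟩

end slice

end Crest.Agent.R096.SkMv_362
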