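import Crest.Agent.R096.SkMv3_362
import Crest.Agent.R096.Mi5_117

/-!
# R096 (row 96), BOTTOM, vertical slice `X = univ` (helper362, hot spare of SkM_337), part 4

`mesh_x` : blocks (3), (6), (7b) of 147's `fin_st` over `Lx` from the bases `BaseC` of the cores.
-/

set_option autoImplicit false
set_option linter.style.longLine false
set_option linter.unusedSectionVars false

open Set Topology Filter Relation MeasureTheory

namespace Crest.Agent.R096.SkMv_362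

open Crest.Agent.R096.Coh_184 Crest.Agent.R096.Brk1_582 Crest.Agent.R096.Brk2_582
  Crest.Agent.R096.Brk3_582 Crest.Agent.R096.Brk5_582 Crest.Agent.R096.Bsp_628
  Crest.Agent.R096.Lab_184 Crest.Agent.R096.Main_4 Crest.Agent.R096.Msh_715
  Crest.Agent.R096.Agl4_543 Crest.Agent.R096.Agl5_543 Crest.Agent.R096.Agl6_543
  Crest.Agent.R096.Ginv_543 Crest.Agent.R096.Seq_213 Crest.Agent.R096.Seq_213.GSt
  Crest.Agent.R096.St_147 Crest.Agent.R96.Push_899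
  Crest.Agent.R096.Init_543 Crest.Agent.R096.Leaf_965 Crest.Agent.R096.SkB_662
  Crest.Agent.R096.Lm_117 Crest.Agent.R096.Ac_117 Crest.Agent.R096.Gl_422
  Crest.Agent.R096.Cp_298 Crest.Agent.R096.Ori_543 Crest.Agent.R096.Bd_416 Crest.Agent.R096.Mg_441
  Crest.Agent.R096.Cpo_642 Crest.Agent.R096.Csub_487 Crest.Agent.R096.Ce_537
  Crest.Agent.R096.Ecm_446 Crest.Agent.R096.Be_416 Crest.Agent.R096.Mi_117 Crest.Agent.R096.Arc_778
  Crest.Agent.R096.Nk_955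

open Crest.Agent.R096.SkC1_961 (E3 Hom3 IsPush FoamD Cfg th NN)
open Crest.Agent.R096.Fin_147 (Xout)
open Crest.Agent.R096.Fl_835 (wk)
open Crest.Agent.R96.Nu7_199 (WE)
open Crest.Agent.R096.On_441 (Lf xlf)
open Crest.Agent.R096.Cb_609 Crest.Agent.R096.Pl

section slice

variable {δ κ0 R c0 : ℝ} {La Om : Set E3} {ι : Type} {Φ : FoamD δ κ0 R c0 La}
  {T : Tiling Om ι} {f g : E3 → E3} [Nonempty T.Cell] {J0 : Φ.F → Set ι} {ct' : Φ.F → ι}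
  {r₀ : Φ.F → ℝ} {κ1 s₁ : ℝ} {hLa : IsOpen La} {hR : InitR Φ T f g J0 ct' r₀}
  {hM : Mesh0 T (Pc Φ.F) (bc (F := Φ.F)) (RF Φ r₀) f (KorJ Φ J0) κ1} {h1 : κ1 < s₁}
  {h2 : κ1 < 1} {ct : Φ.F → ι} {κ : Φ.F → ℕ} {L : Φ.F → Finset ℝ} [Nonempty (JJ Φ L)]
  {hG : GF Φ r₀ T f L} {D : Φ.F → Set E3} {bp : JJ Φ L → E3} {lam₀ : JJ Φ L → E3 → ZMod 2}
  {v₀ v₁ : Φ.F → E3} {far₀ : JJ Φ L → Set E3} {kap : Φ.F → ℕ}
  {s : GSt (meshC T fr3) (fam' (fun j : JJ Φ L => j.1) (Rk κ kap))}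
  {far : Nm' (fun j : JJ Φ L => j.1) (Rk κ kap) → Set E3} {β : E3 → E3}
  {lam : Nm' (fun j : JJ Φ L => j.1) (Rk κ kap) → Qx T ct → ZMod 2}

/-- the core tiles are pairwise disjoint -/
theorem disj_x {κ2 : ℝ} {J V : Φ.F → Set ι}
    {A : Φ.F → E3 ≃ᵃ[ℝ] E3} {lm : Φ.F → ℝ} {z : Φ.F → E3} {θ : Φ.F → E3 → E3}
    {φ : Φ.F → E3 → ℝ} (hLa : IsOpen La)
    (hC : Mbf_337.Cores Φ T f κ1 κ2 univ J0 J V ct A lm z θ φ) {a a' : Φ.F} (hne : a ≠ a') :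
    Disjoint (Kx T ct a) (Kx T ct a') := by
  refine Fin_147.disjoint_cores hLa hC (Kc := Kx T ct) (fun c x hx => ?_) hne
  rw [(hC.one c (mem_univ c)).2.2]
  exact mem_biUnion rfl hx

/-- an ordinary tile is a 3-cell of `Qx` -/
theorem tile_x {V : Φ.F → Set ι} (hV : ∀ c, V c = {ct c}) {i : ι} (hi : ∀ c, i ∉ V c) :
    notTile T ct (tcell T i) := by
  intro a ha
  rw [tcell_set] at ha
  have hne : i ≠ ct a := by
    rintro rfl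
    exact hi a (by rw [hV]; rfl)
  have h1 : Msh_715.I (T.H i) = Msh_715.I (T.H (ct a)) := by
    rw [← interior_P (T.ne i), ha, interior_P (T.ne (ct a))]
  obtain ⟨y, hy⟩ := T.ne i
  exact disjoint_left.1 (T.dis i (ct a) hne) hy (by rw [← h1]; exact hy)

open scoped Classical in
/-- **blocks (3), (6), (7b) of `fin_st`** -/
theorem mesh_x {κ2 : ℝ} {J V : Φ.F → Set ι}
    {A : Φ.F → E3 ≃ᵃ[ℝ] E3} {lm : Φ.F → ℝ} {z : Φ.F → E3} {θ : Φ.F → E3 → E3}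
    {φ : Φ.F → E3 → ℝ} (hC : Mbf_337.Cores Φ T f κ1 κ2 univ J0 J V ct A lm z θ φ)
    (hi : StIx hLa hR hM h1 h2 ct κ hG D bp lam₀ v₀ v₁ far₀)
    (h : StOx hLa hR hM h1 h2 ct κ hG D bp lam₀ v₀ v₁ far₀ kap s far β lam)
    {ε Kb : ℝ} {b : ℕ → ℝ} (hb4 : ∀ n, 1/4 ≤ b n) (hb2 : ∀ n, b n < 1/2) (hε0 : 0 < ε)
    (hε1 : ε ≤ 1/2) (hKb : 0 ≤ Kb)
    {gb : Φ.F → Gd E3 (Nm' (fun j : JJ Φ L => j.1) (Rk κ kap))}
    {Pb : Φ.F → ∀ q, h.cmb.I q → Set E3} {cb : Φ.F → ∀ q, h.cmb.I q → E3 → ℝ}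
    (B : ∀ c : Φ.F, BaseC h.cmb (fun q : Qx T ct => q.1.set)
      (wts κ kap (fun j : JJ Φ L => j.1)) Kb (Dk (ct c) (fun c : Qx T ct => c.1)) (gb c) (Pb c)
      (cb c)) :
    ∃ gf P cc, Inv h.cmb (fun q : Qx T ct => q.1.set) univ gf P cc ∧
      MGeo h.lfs (Lf lam) (xlf h.lab.lab) (fun q : Qx T ct => q.1.set)
        (⋃ c : Φ.F, Dk (ct c) (fun c : Qx T ct => c.1)) cc ∧
      (∀ i, (∀ c, i ∉ V c) → ∃ q : Qx T ct, q.1.set = Msh_715.P (T.H i) ∧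
        (∀ e, e < q → e.1.dim = 1 → (Lx T ct).toSk.On1 e ⊆
          {y | y ∈ Msh_715.P (T.H i) ∧ T.dim y ≤ 1}) ∧
        ∀ (B : E3 ≃ᵃ[ℝ] E3) (x : h.cmb.I q), ∀ y ∈ q.1.set,
          LB B (2 * CU Kb 3 ((fun K => B '' K) '' SkC1_961.Cfg T i) *
            WE (cplxX T ct) h.cmb (wk κ kap (fun j : JJ Φ L => j.1)) q /
            wk κ kap (fun j : JJ Φ L => j.1) (h.cmb.col q x)) (cc q x) q.1.set y) ∧
      ∀ c : Φ.F, ∀ q ∈ Dk (ct c) (fun c : Qx T ct => c.1), ∀ z ∈ q.1.set,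
        EqAt (sqs (gb c) b 4) gf z := by
  have hX := cplxX T ct
  have hI := cellIxX T ct
  obtain ⟨δ', hδ, hδ2, gf, P, cc, H, G, hT, hE⟩ := StO.mesh h hX hi.top hI.conv hI.cpt hI.bd
    (fun n => by have := hb4 n; linarith) hb2 hε0 (by linarith) hKb
    (S := fun c : Φ.F => Kx T ct c) (D := fun c : Φ.F => Dk (ct c) (fun c : Qx T ct => c.1))
    (fun i i' hne => disj_x hLa hC hne) (fun i q hq => hq.1) B
  refine ⟨gf, P, cc, H, G, ?_, hE⟩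
  refine tile_clause h hX hI onT_x hb4 hε1 hKb hδ hδ2 hT ?_
  intro i hiV
  exact ⟨i, rfl, fun _ _ => rfl, ⟨tcell T i, tile_x (fun c => (hC.one c (mem_univ c)).2.2) hiV⟩,
    tcell_set i⟩

end slice

end Crest.Agent.R096.SkMv_362
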