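import Crest.Agent.R096.SkB1d_662
import Crest.Agent.R096.SkB1b_662

/-!
# R096 (row 96), BOTTOM, `X = univ` (helper362), part 5: transport of states along an isomorphism of
meshes (tiles relabelled by an injective `π`, faces by a bijection `φ`, cells by `θ`)

`MI` : isomorphism of meshes, `LI` : of labelled meshes; `tr` the state, `trQ` the quads;
`inv_tr`, `one_tr`, `two_tr`, `ni_tr`, `labIn_tr`, `k4In_tr`, `path_tr`, `frE_tr`.
-/

set_option autoImplicit false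
set_option linter.style.longLine false
set_option linter.unusedSectionVars false

open Set Relation

namespace Crest.Agent.R096.SkMv_362

open Crest.Agent.R096.St_147 Crest.Agent.R096.Seq_213 Crest.Agent.R096.Seq_213.GSt
  Crest.Agent.R096.Cp_298 Crest.Agent.R096.Lm_117 Crest.Agent.R096.Grd_714
  Crest.Agent.R096.Gl_422 Crest.Agent.R096.SkB_662 Crest.Agent.R096.Ac_117

variable {ι ι' Φ Φ' W J C K : Type} {M : MeshC ι Φ W} {M' : MeshC ι' Φ' W} {fam : J → C}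
  {π : ι → ι'} {φ : Φ' → Φ}

/-- an isomorphism of meshes -/
structure MI (M : MeshC ι Φ W) (M' : MeshC ι' Φ' W) (π : ι → ι') (φ : Φ' → Φ) : Prop where
  inj : Function.Injective π
  bij : Function.Bijective φ
  side : ∀ F, M'.side F = (M.side (φ F)).map π
  on : ∀ F, M'.On F = M.On (φ F)
  pos : ∀ F, M'.pos F = M.pos (φ F)

namespace MI

variable (h : MI M M' π φ)
include h

theorem mem_side {F : Φ'} {q : ι} : π q ∈ M'.side F ↔ q ∈ M.side (φ F) := by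
  rw [h.side, Sym2.mem_map]
  constructor
  · rintro ⟨q', h1, h2⟩
    rw [← h.inj h2]; exact h1
  · exact fun h1 => ⟨q, h1, rfl⟩

theorem side_ex {F : Φ'} {q' : ι'} (hq : q' ∈ M'.side F) : ∃ q ∈ M.side (φ F), π q = q' := by
  rw [h.side, Sym2.mem_map] at hq
  exact hq

theorem lace {F : Φ'} {u v x y : W} : M'.Lace F u v x y ↔ M.Lace (φ F) u v x y := by
  unfold MeshC.Lace MeshC.Btw
  rw [h.pos]

theorem inner {A : Set ι} {F : Φ'} : Inner M' (π '' A) F ↔ Inner M A (φ F) := by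
  constructor
  · intro h1 q hq
    obtain ⟨q', h2, h3⟩ := h1 (π q) (h.mem_side.2 hq)
    rw [← h.inj h3]; exact h2
  · intro h1 q' hq'
    obtain ⟨q, h2, rfl⟩ := h.side_ex hq'
    exact ⟨q, h1 q h2, rfl⟩

theorem tch {A : Set ι} {F : Φ'} : Tch M' (π '' A) F ↔ Tch M A (φ F) := by
  constructor
  · rintro ⟨q', h1, q, h2, rfl⟩
    exact ⟨q, h.mem_side.1 h1, h2⟩
  · rintro ⟨q, h1, h2⟩
    exact ⟨π q, h.mem_side.2 h1, q, h2, rfl⟩

theorem int {A : Set ι} {w : W} : Int M' (π '' A) w ↔ Int M A w := by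
  constructor
  · rintro ⟨⟨F, h1⟩, h2⟩
    refine ⟨⟨φ F, by rw [← h.on]; exact h1⟩, fun G hG => ?_⟩
    obtain ⟨F', rfl⟩ := h.bij.2 G
    exact h.inner.1 (h2 F' (by rw [h.on]; exact hG))
  · rintro ⟨⟨G, h1⟩, h2⟩
    obtain ⟨F', rfl⟩ := h.bij.2 G
    refine ⟨⟨F', by rw [h.on]; exact h1⟩, fun F hF => ?_⟩
    exact h.inner.2 (h2 _ (by rw [← h.on]; exact hF))

end MI

/-- the state over the isomorphic mesh -/
def tr (h : MI M M' π φ) (s : GSt M fam) : GSt M' fam where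
  P := s.P
  lab := s.lab
  mu F := s.mu (φ F)
  mu_mem {F w} hw hF := by
    rw [h.on] at hF ⊢
    exact s.mu_mem hw hF
  mu_ne {F w} hw hF := by
    rw [h.on] at hF
    exact s.mu_ne hw hF
  mu_mu {F w} hw hF := by
    rw [h.on] at hF
    exact s.mu_mu hw hF
  mu_lab {F w} hw hF := by
    rw [h.on] at hF
    exact s.mu_lab hw hF
  nc {F w x} hw hF hx hF' hf hne hne' hl := by
    rw [h.on] at hF hF'
    exact s.nc hw hF hx hF' hf hne hne' (h.lace.1 hl)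
  fin := s.fin

/-- the quads over the isomorphic mesh -/
def trQ (h : MI M M' π φ) (Qd : Quads ι C K) : Quads ι' C K where
  pr := Qd.pr
  ne := Qd.ne
  Act k := π '' Qd.Act k
  fin k := (Qd.fin k).image π
  disj k l hkl := by
    rw [Set.disjoint_image_iff h.inj]
    exact Qd.disj k l hkl
  finK := Qd.finK

section tr

variable (h : MI M M' π φ) {s : GSt M fam} {Qd : Quads ι C K} {far : J → Set W}

@[simp] theorem tr_P : (tr h s).P = s.P := rfl
@[simp] theorem tr_lab : (tr h s).lab = s.lab := rfl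
@[simp] theorem tr_mu (F : Φ') : (tr h s).mu F = s.mu (φ F) := rfl
@[simp] theorem trQ_Act (k : K) : (trQ h Qd).Act k = π '' Qd.Act k := rfl

theorem trQ_in {k : K} {c : C} : (trQ h Qd).In k c ↔ Qd.In k c := Iff.rfl

theorem at_tr {F : Φ'} {w : W} : (tr h s).At F w ↔ s.At (φ F) w := by
  unfold GSt.At
  rw [h.on]
  exact Iff.rfl

theorem gp_tr (j : J) : gp (tr h s) j = gp s j := rfl

theorem h1_tr {j : J} (h1 : s.H1 j) : (tr h s).H1 j := by
  intro κ hκ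
  obtain ⟨ψ, hψ⟩ := Function.bijective_iff_has_inverse.1 h.bij
  obtain ⟨Ψ, hΨ⟩ := h1 (fun F w => κ (ψ F) w) (fun q => by
    obtain ⟨g, hg⟩ := hκ (π q)
    refine ⟨g, fun F w hq hw hl => ?_⟩
    have e : φ (ψ F) = F := hψ.2 F
    have h2 := hg (ψ F) w (h.mem_side.2 (by rw [e]; exact hq)) ((at_tr h).2 (by rw [e]; exact hw)) hl
    rw [tr_mu, e] at h2
    exact h2)
  refine ⟨Ψ, fun F w hw hl => ?_⟩
  have h3 := hΨ (φ F) w ((at_tr h).1 hw) hl
  have e : ψ (φ F) = F := hψ.1 F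
  simp only [e] at h3
  exact h3

theorem conn_tr {j : J} (h1 : s.Conn j) : (tr h s).Conn j := by
  refine ⟨h1.1, fun X hX => ?_⟩
  refine h1.2 X fun F w hw hat hl => ?_
  obtain ⟨F', rfl⟩ := h.bij.2 F
  exact hX F' w hw ((at_tr h).2 hat) hl

theorem free_tr {k : K} {F : Φ'} {w : W} : (tr h s).Free (trQ h Qd) k F w ↔ s.Free Qd k (φ F) w := by
  constructor
  · intro h1 x hx hin hne hl
    exact h1 x ((at_tr h).2 hx) hin hne (h.lace.2 hl)
  · intro h1 x hx hin hne hl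
    exact h1 x ((at_tr h).1 hx) hin hne (h.lace.1 hl)

theorem ok_tr {F : Φ'} {w : W} : (tr h s).OK (trQ h Qd) F w ↔ s.OK Qd (φ F) w := by
  constructor
  · intro h1 k hk hin
    exact (free_tr h).1 (h1 k hk (h.inner.2 hin))
  · intro h1 k hk hin
    exact (free_tr h).2 (h1 k hk (h.inner.1 hin))

/-- **the invariant** -/
theorem inv_tr (hI : s.Inv Qd far) : (tr h s).Inv (trQ h Qd) far where
  h1 j := h1_tr h (hI.h1 j)
  conn j := conn_tr h (hI.conn j)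
  far_mem hw := hI.far_mem hw
  far_ne := hI.far_ne
  only {k F w} hw hin := hI.only ((at_tr h).1 hw) (h.inner.1 hin)
  loc {w} hw := by
    rcases hI.loc hw with h1 | ⟨k, h1, h2⟩
    · exact Or.inl h1
    · exact Or.inr ⟨k, h1, h.int.2 h2⟩
  gc j X hX := by
    refine hI.gc j X fun F w hw hf hat hm hok => ?_
    obtain ⟨F', rfl⟩ := h.bij.2 F
    exact hX F' w hw hf ((at_tr h).2 hat) hm ((ok_tr h).2 hok)

theorem one_tr {D : Set Φ} {j : J} (h1 : One s D j) : One (tr h s) (φ ⁻¹' D) j := by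
  intro Z hZ F w F' w' hF hF' hw hw' hl hl' hz
  refine h1 Z (fun G u hG hu hat hlu => ?_) (φ F) w (φ F') w' hF hF' ((at_tr h).1 hw)
    ((at_tr h).1 hw') hl hl' hz
  obtain ⟨G', rfl⟩ := h.bij.2 G
  exact hZ G' u hG hu ((at_tr h).2 hat) hlu

theorem xp_tr {F : Φ'} {j j' : J} {x y : W} : XP (tr h s) F j j' x y ↔ XP s (φ F) j j' x y := by
  constructor
  · rintro ⟨a1, a2, a3, a4, a5, a6, a7⟩
    refine ⟨(at_tr h).1 a1, (at_tr h).1 a2, a3, a4, ?_, ?_, h.lace.1 a7⟩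
    · rw [h.pos] at a5; exact a5
    · rw [h.pos] at a6; exact a6
  · rintro ⟨a1, a2, a3, a4, a5, a6, a7⟩
    refine ⟨(at_tr h).2 a1, (at_tr h).2 a2, a3, a4, ?_, ?_, h.lace.2 a7⟩
    · rw [h.pos]; exact a5
    · rw [h.pos]; exact a6

theorem two_tr {A B : Set ι} {j j' : J} (h1 : Two s A B j j') :
    Two (tr h s) (π '' A) (π '' B) j j' := by
  obtain ⟨⟨F, x, y⟩, ⟨a1, a2, q, a3, a4⟩, hu⟩ := h1
  obtain ⟨F', rfl⟩ := h.bij.2 F
  refine ⟨⟨F', x, y⟩, ⟨(xp_tr h).2 a1, h.tch.2 a2, π q, h.mem_side.2 a3, q, a4, rfl⟩, ?_⟩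
  rintro ⟨G, u, v⟩ ⟨b1, b2, q', b3, r, b4, rfl⟩
  have h2 := hu ⟨φ G, u, v⟩ ⟨(xp_tr h).1 b1, h.tch.1 b2, r, h.mem_side.1 b3, b4⟩
  have e1 : φ G = φ F' := congrArg Prod.fst h2
  have e2 : u = x := congrArg (fun t => t.2.1) h2
  have e3 : v = y := congrArg (fun t => t.2.2) h2
  rw [h.bij.1 e1, e2, e3]

theorem ni_tr {k : K} {B : Set ι} (h1 : NI s far Qd k B) : NI (tr h s) far (trQ h Qd) k (π '' B) := by
  intro F hF w w' hw hw' hf hf' hk hk' hne q hq
  obtain ⟨r, hr, rfl⟩ := h.side_ex hq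
  rcases h1 (φ F) (h.tch.1 hF) w w' ((at_tr h).1 hw) ((at_tr h).1 hw') hf hf' hk hk' hne r hr with a | a
  · exact Or.inl ⟨r, a, rfl⟩
  · exact Or.inr ⟨r, a, rfl⟩

end tr

/-! ### labelled meshes -/

variable {Q Q' : Type} [PartialOrder Q] [PartialOrder Q'] {dim : Q → ℕ} {dim' : Q' → ℕ}
  {L : LM M Q dim} {L' : LM M' Q' dim'} {θ : Q' → Q} {θi : Q → Q'}

/-- an isomorphism of labelled meshes -/
structure LI (L : LM M Q dim) (L' : LM M' Q' dim') (φ : Φ' → Φ) (θ : Q' → Q) (θi : Q → Q') :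
    Prop where
  le : ∀ c d, θ c ≤ θ d ↔ c ≤ d
  l : ∀ c, θi (θ c) = c
  r : ∀ c, θ (θi c) = c
  dim : ∀ c, dim (θ c) = dim' c
  W1 : L'.W1 = L.W1
  ed : ∀ w, θ (L'.ed w) = L.ed w
  en : ∀ e b, dim' e = 1 → θ (L'.en e b) = L.en (θ e) b
  cf : ∀ F, θ (L'.cf F) = L.cf (φ F)

namespace LI

variable (g : LI L L' φ θ θi)
include g

theorem inj : Function.Injective θ := fun c d h => by rw [← g.l c, h, g.l]

theorem on1 (e : Q') : L'.On1 e = L.On1 (θ e) := by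
  ext w
  constructor
  · rintro ⟨h1, h2⟩
    have h3 : w ∈ L.W1 := by rw [← g.W1]; exact h1
    exact ⟨h3, by rw [← g.ed w, h2]⟩
  · rintro ⟨h1, h2⟩
    have h3 : w ∈ L'.W1 := by rw [g.W1]; exact h1
    exact ⟨h3, g.inj (by rw [g.ed w, h2])⟩

theorem in_ (c : Q') : L'.toSk.In c = L.toSk.In (θ c) := by
  ext w
  constructor
  · rintro ⟨h1, h2⟩
    have h3 : w ∈ L.W1 := by rw [← g.W1]; exact h1
    exact ⟨h3, by rw [← g.ed w]; exact (g.le _ _).2 h2⟩
  · rintro ⟨h1, h2⟩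
    have h3 : w ∈ L'.W1 := by rw [g.W1]; exact h1
    exact ⟨h3, (g.le _ _).1 (by rw [g.ed w]; exact h2)⟩

theorem glab {Y : Finset W} {lam : Q → ZMod 2} (h : GLab L Y lam) :
    GLab L' Y (fun c => lam (θ c)) := by
  intro e he
  show lam (θ (L'.en e false)) + lam (θ (L'.en e true)) = _
  rw [g.en _ _ he, g.en _ _ he]
  have h1 := g.on1 e
  have h2 := h (θ e) (by rw [g.dim]; exact he)
  rw [h2]
  congr 1
  exact h1.symm

theorem hasLab (h : MI M M' π φ) {G : Set W} {Z : Set Q} (h1 : HasLab L G Z) :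
    HasLab L' G (θ ⁻¹' Z) := by
  intro Y a1 a2 a3
  obtain ⟨lam, b1, b2⟩ := h1 Y (fun w hw => by rw [← g.W1]; exact a1 w hw) a2 (fun F => by
    obtain ⟨F', rfl⟩ := h.bij.2 F
    rw [← h.on]; exact a3 F')
  exact ⟨_, g.glab b1, fun v hv => b2 _ hv⟩

theorem frE (h : MI M M' π φ) {Qd : Quads ι C K} {c : C} {e : Q'} :
    FrE L' (trQ h Qd) c e ↔ FrE L Qd c (θ e) := by
  constructor
  · intro h1 k hk
    obtain ⟨F, a1, q', a2, a3⟩ := h1 k hk
    obtain ⟨q, a4, rfl⟩ := h.side_ex a2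
    refine ⟨φ F, ?_, q, a4, fun a5 => a3 ⟨q, a5, rfl⟩⟩
    rw [← g.cf]; exact (g.le _ _).2 a1
  · intro h1 k hk
    obtain ⟨F, a1, q, a2, a3⟩ := h1 k hk
    obtain ⟨F', rfl⟩ := h.bij.2 F
    refine ⟨F', (g.le _ _).1 (by rw [g.cf]; exact a1), π q, h.mem_side.2 a2, ?_⟩
    rintro ⟨r, a4, a5⟩
    rw [h.inj a5] at a4
    exact a3 a4

theorem ed_ {Z : Set Q} {v v' : Q} (h1 : Ed L Z v v') : Ed L' (θ ⁻¹' Z) (θi v) (θi v') := by
  obtain ⟨e, a1, a2, b, rfl, rfl⟩ := h1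
  have hd : dim' (θi e) = 1 := by rw [← g.dim, g.r]; exact a2
  refine ⟨θi e, by rw [mem_preimage, g.r]; exact a1, hd, b, ?_, ?_⟩
  · apply g.inj
    rw [g.r, g.en _ _ hd, g.r]
  · apply g.inj
    rw [g.r, g.en _ _ hd, g.r]

theorem path {Z : Set Q} {v v' : Q} (h1 : ReflTransGen (Ed L Z) v v') :
    ReflTransGen (Ed L' (θ ⁻¹' Z)) (θi v) (θi v') := h1.lift _ fun _ _ h => g.ed_ h

/-- paths on frozen 1-cells -/
theorem path_fr (h : MI M M' π φ) {Qd : Quads ι C K} {c : C} {v v' : Q}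
    (h1 : ReflTransGen (Ed L {e | FrE L Qd c e}) v v') :
    ReflTransGen (Ed L' {e | FrE L' (trQ h Qd) c e}) (θi v) (θi v') := by
  refine h1.lift _ fun a b hab => Ed.mono ?_ (g.ed_ hab)
  intro e he
  exact (g.frE h).2 he

/-- paths on frozen 1-cells without points -/
theorem path_fre (h : MI M M' π φ) {Qd : Quads ι C K} {s : GSt M fam} {c : C} {v v' : Q}
    (h1 : ReflTransGen (Ed L (Fre L Qd s c)) v v') :
    ReflTransGen (Ed L' (Fre L' (trQ h Qd) (tr h s) c)) (θi v) (θi v') := by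
  refine h1.lift _ fun a b hab => Ed.mono ?_ (g.ed_ hab)
  rintro e ⟨he, he'⟩
  refine ⟨(g.frE h).2 he, fun w hw hl hw1 => he' w hw hl ?_⟩
  have h2 := g.on1 e
  exact h2 ▸ hw1

/-- **label data** -/
theorem labIn (h : MI M M' π φ) {Qd : Quads ι C K} {s : GSt M fam} {G : C → Set W} {Z : C → Set Q}
    {lam₀ : J → Q → ZMod 2} {v₀ v₁ : C → Q} (h1 : LabIn L Qd s G Z lam₀ v₀ v₁) :
    LabIn L' (trQ h Qd) (tr h s) G (fun c => θ ⁻¹' Z c) (fun j v => lam₀ j (θ v))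
      (fun c => θi (v₀ c)) (fun c => θi (v₁ c)) where
  has j := g.hasLab h (h1.has j)
  sat j w hw x hx he := h1.sat j w hw x (by rw [← g.W1]; exact hx) (by rw [← g.ed, ← g.ed, he])
  supp w hw := h1.supp w hw
  act j k hk w hw hi := h1.act j k hk w (by rw [← g.W1]; exact hw) (h.int.1 hi)
  lab j := g.glab (h1.lab j)
  one j := by
    show lam₀ j (θ (θi (v₀ (fam j)))) = 1
    rw [g.r]; exact h1.one j
  zero j := by
    show lam₀ j (θ (θi (v₁ (fam j)))) = 0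
    rw [g.r]; exact h1.zero j
  far j := by
    show θ (θi (v₁ (fam j))) ∈ Z (fam j)
    rw [g.r]; exact h1.far j
  rope j := g.path_fr h (h1.rope j)

/-- **the input of (K4)** -/
theorem k4In (h : MI M M' π φ) {E' : Type*} [NormedAddCommGroup E'] [NormedSpace ℝ E']
    {Pf : C → Set E'} {Qd : Quads ι C K} {s : GSt M fam} {Z : C → Set Q} {v₀ : C → Q} {D : Set Q}
    {y : Q → C → ℝ} (h1 : K4In L Qd s Z v₀ Pf D y) :
    K4In L' (trQ h Qd) (tr h s) (fun c => θ ⁻¹' Z c) (fun c => θi (v₀ c)) Pf (θ ⁻¹' D)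
      (fun q => y (θ q)) where
  mem q hq := h1.mem _ hq
  pt q hq w hw hin := h1.pt _ hq w hw (by have := g.in_ q; exact this ▸ hin)
  act q hq k a hk w hw hin hi := h1.act _ hq k a hk w hw (by have := g.in_ q; exact this ▸ hin)
    (h.int.1 hi)
  zero q hq j hy := by
    obtain ⟨v, a1, a2, a3⟩ := h1.zero _ hq j hy
    exact ⟨θi v, (g.le _ _).1 (by rw [g.r]; exact a1), by rw [← g.dim, g.r]; exact a2,
      g.path_fre h a3⟩
  one q hq j hy := by
    obtain ⟨v, a1, a2, v', a3, a4⟩ := h1.one _ hq j hy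
    exact ⟨θi v, (g.le _ _).1 (by rw [g.r]; exact a1), by rw [← g.dim, g.r]; exact a2, θi v',
      by show θ (θi v') ∈ Z (fam j); rw [g.r]; exact a3, g.path_fre h a4⟩

end LI

end Crest.Agent.R096.SkMv_362
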