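import Crest.Agent.R096.SkMv5_362
import Crest.Agent.R096.Frn1_337

/-!
# R096 (row 96), BOTTOM, `X = univ` (helper362), part 6: without giant cells `meshK` = `meshC` and
`lmK` = `lmT` (isomorphisms of part 5)
-/

set_option autoImplicit false
set_option linter.style.longLine false
set_option linter.unusedSectionVars false

open Set Relation Module

namespace Crest.Agent.R096.SkMv_362

open Crest.Agent.R096.St_147 Crest.Agent.R096.Seq_213 Crest.Agent.R096.Seq_213.GSt
  Crest.Agent.R096.Lm_117 Crest.Agent.R096.Ac_117 Crest.Agent.R096.Msh_715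
  Crest.Agent.R096.Cp_298 Crest.Agent.R096.Gl_422 Crest.Agent.R096.SkB_662
  Crest.Agent.R096.Agl5_543

variable {E : Type} [NormedAddCommGroup E] [NormedSpace ℝ E] [FiniteDimensional ℝ E]
variable {Om : Set E} {ι : Type} {T : Tiling Om ι} {κ : Type} [IsEmpty κ] {Kc : κ → Set E}

/-- without giant cells every closed cell is outside -/
theorem outE (c : T.Cell) : OutK T Kc c := by
  obtain ⟨i, hi⟩ := T.at_nonempty c.pt_mem
  exact ⟨i, fun k => isEmptyElim k, by rw [c.set_eq]; exact T.cc_sub_tile hi⟩

theorem piE : piK T Kc = Sum.inl := by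
  funext q
  exact piK_inl.2 ⟨rfl, fun k => isEmptyElim k⟩

variable (T Kc) in
/-- the cells -/
def thE : QK (belK T Kc) → T.Cell := Sum.elim Subtype.val fun k => isEmptyElim k

variable (T Kc) in
/-- the cells -/
def thE' (c : T.Cell) : QK (belK T Kc) := QK.c _ ⟨c, outE c⟩

@[simp] theorem thE_c (c : {c : T.Cell // OutK T Kc c}) : thE T Kc (QK.c _ c) = c.1 := rfl

@[simp] theorem thE_inl (c : {c : T.Cell // OutK T Kc c}) : thE T Kc (Sum.inl c) = c.1 := rfl

@[simp] theorem thE_th (c : T.Cell) : thE T Kc (thE' T Kc c) = c := rfl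

theorem thE'_th (q : QK (belK T Kc)) : thE' T Kc (thE T Kc q) = q := by
  rcases q with c | k
  · rfl
  · exact isEmptyElim k

theorem setK_E (q : QK (belK T Kc)) : setK T Kc q = (thE T Kc q).set := by
  rcases q with c | k
  · rfl
  · exact isEmptyElim k

variable {h3 : finrank ℝ E = 3} {hH : ∀ c, CoreH T (Kc c)}
  {hdis : ∀ c c', c ≠ c' → Disjoint (Kc c) (Kc c')}

/-- **the meshes are isomorphic** -/
theorem miE [Nonempty T.Cell] : MI (meshC T h3) (mK h3 hH hdis) (Sum.inl : ι → ι ⊕ κ) Subtype.val where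
  inj := Sum.inl_injective
  bij := ⟨Subtype.val_injective, fun F => ⟨⟨F, out_face h3 F (outE F.1)⟩, rfl⟩⟩
  side F := congrArg (fun g : ι → ι ⊕ κ => Sym2.map g ((meshC T h3).side F.1)) piE
  on _ := rfl
  pos _ := rfl

/-- **the labelled meshes are isomorphic** -/
theorem liE [Nonempty T.Cell] {hne : ∃ c, OutK T Kc c} :
    LI (lmT T h3) (lmK h3 hH hdis hne) Subtype.val (thE T Kc) (thE' T Kc) where
  le c d := by
    rcases c with c | k
    · rcases d with d | k
      · exact Iff.rfl
      · exact isEmptyElim k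
    · exact isEmptyElim k
  l := thE'_th
  r _ := rfl
  dim c := by
    rcases c with c | k
    · rfl
    · exact isEmptyElim k
  W1 := by
    ext w
    exact ⟨fun h => h.1, fun h => ⟨h, outE _⟩⟩
  ed w := by
    show (subEd (lmT T h3).toSk (OutK T Kc) hne w).1 = _
    exact subEd_eq (outE _)
  en e b he := by
    rcases e with e | k
    · show (subEn (lmT T h3).toSk (OutK T Kc) outK_down e b).1 = _
      exact subEn_eq he b
    · exact isEmptyElim k
  cf _ := rfl

end Crest.Agent.R096.SkMv_362
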