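import Crest.Agent.R096.Cut2_874
import Crest.Agent.R096.Sk2a_855

/-!
# Row 96, p ≤ 2, leaf of 753 #11008 (helper476): skeleta of a cut tiling

`skel_cut` : the `k`-skeleton of `T` lies in the `k`-skeleton of every cut; `cc_eq_cut` : every closed
cell of `T` is the union of closed cells of the cut; `exists_chain` : a closed 1-cell of `T` is a chain of
closed 1-cells of the cut (partition points `0 = s 0 < .. < s m = 1`), `sum_chain` : integrals over it.
-/

set_option autoImplicit false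
set_option linter.unusedSectionVars false

open Set Filter Topology Metric MeasureTheory
open scoped ENNReal

namespace Crest.Agent.R096.Skc_476

open Msh_715 Cut_874
open Crest.Agent.R096.Sk2_855 (sk1)

section general

variable {E : Type*} [NormedAddCommGroup E] [NormedSpace ℝ E]
variable {Om : Set E} {ι : Type*} {T : Tiling Om ι}
variable {A : ι → Finset ((E →L[ℝ] ℝ) × ℝ)} {hA : ∀ i, ∀ a ∈ A i, a.1 ≠ 0}

/-- the `k`-skeleton -/
def skel (T : Tiling Om ι) (k : ℕ) : Set E := {x | x ∈ Om ∧ T.dim x ≤ k}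

theorem skel_one : skel T 1 = sk1 T := rfl

theorem skel_mono {k l : ℕ} (h : k ≤ l) : skel T k ⊆ skel T l := fun _ hx => ⟨hx.1, hx.2.trans h⟩

/-- a skeleton is a subcomplex -/
theorem isSub_skel [FiniteDimensional ℝ E] (k : ℕ) : IsSub T (skel T k) := fun _ hx _ hy =>
  ⟨T.cc_sub_Om hx.1 hy, (T.dim_le hy).trans hx.2⟩

/-- **the skeleta of a tiling lie in the skeleta of every cut** -/
theorem skel_cut [FiniteDimensional ℝ E] (k : ℕ) : skel T k ⊆ skel (cut T A hA) k := fun x hx =>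
  ⟨hx.1, (dim_cut_le x).trans hx.2⟩

/-- **`sk1 T ⊆ sk1 (cut T A hA)`** -/
theorem sk1_cut [FiniteDimensional ℝ E] : sk1 T ⊆ sk1 (cut T A hA) := fun x hx =>
  ⟨hx.1, (dim_cut_le x).trans hx.2⟩

/-- skeleta only depend on the dimension function -/
theorem skel_eq_of {ι' : Type*} {T' : Tiling Om ι'} (h : ∀ x ∈ Om, T'.dim x = T.dim x) (k : ℕ) :
    skel T' k = skel T k := by
  ext x
  constructor
  · rintro ⟨h1, h2⟩; exact ⟨h1, by rw [← h x h1]; exact h2⟩
  · rintro ⟨h1, h2⟩; exact ⟨h1, by rw [h x h1]; exact h2⟩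

/-- **a subcomplex is the union of the closed cells of the cut at its points** -/
theorem isSub_eq_cut {S : Set E} (h : IsSub T S) : S = ⋃ y ∈ S, (cut T A hA).cc y := by
  apply Subset.antisymm
  · intro y hy
    simp only [mem_iUnion]
    exact ⟨y, hy, (cut T A hA).self_mem_cc y⟩
  · intro y hy
    simp only [mem_iUnion] at hy
    obtain ⟨z, hz, hy⟩ := hy
    exact h z hz (cc_cut_sub z hy)

/-- the closed cells are subcomplexes -/
theorem isSub_cc (x : E) : IsSub T (T.cc x) := fun _ hy => T.cc_sub_of_mem hy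

/-- **every closed cell of `T` is the union of closed cells of the cut** -/
theorem cc_eq_cut (x : E) : T.cc x = ⋃ y ∈ T.cc x, (cut T A hA).cc y := isSub_eq_cut (isSub_cc x)

/-- the closed cell of the cut at a point of an open cell `oc x`: the tiles are those of `x` -/
theorem mem_cc_cut_oc {x y z : E} (hx : x ∈ Om) (hy : y ∈ T.oc x) : z ∈ (cut T A hA).cc y ↔
    z ∈ T.cc x ∧ ∀ i ∈ T.at_ x, ∀ a ∈ A i,
      (a.1 y ≤ a.2 → a.1 z ≤ a.2) ∧ (a.2 ≤ a.1 y → a.2 ≤ a.1 z) := by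
  rw [mem_cc_cut, T.cc_eq_of_mem_oc hx hy, T.at_eq_of_mem_oc hx hy]

theorem mem_V_cut_oc {x y v : E} (hx : x ∈ Om) (hy : y ∈ T.oc x) : v ∈ (cut T A hA).V y ↔
    v ∈ T.V x ∧ ∀ i ∈ T.at_ x, ∀ a ∈ A i, a.1 y = a.2 → a.1 v = 0 := by
  rw [mem_V_cut, T.V_eq_of_mem_oc hx hy, T.at_eq_of_mem_oc hx hy]

/-- **an untouched closed cell (no plane of the tiles at `x` crosses it) is a closed cell of the cut** -/
theorem cc_cut_of_side {x : E}
    (h : ∀ i ∈ T.at_ x, ∀ a ∈ A i, (∀ z ∈ T.cc x, (a.1 x ≤ a.2 → a.1 z ≤ a.2) ∧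
      (a.2 ≤ a.1 x → a.2 ≤ a.1 z))) : (cut T A hA).cc x = T.cc x := by
  ext z
  rw [mem_cc_cut]
  exact ⟨fun hz => hz.1, fun hz => ⟨hz, fun i hi a ha => h i hi a ha z hz⟩⟩

end general

end Crest.Agent.R096.Skc_476
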