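import Crest.Agent.R096.Skc1_476
import Crest.Agent.R096.Cel1_715

/-!
# Row 96, p ≤ 2, leaf of 753 #11008, part 2 (helper476): the 1-cells of `T` are chains of 1-cells of the cut

`exists_part` : partition of `[0, 1]` by a finite set; `exists_chain` : the chain; `lint_part`,
`lint_resc`, `lint_chain`, `lint_chain_rpow` : line integrals over the chain.
-/

set_option autoImplicit false
set_option linter.unusedSectionVars false

open Set Filter Topology Metric MeasureTheory
open scoped ENNReal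

namespace Crest.Agent.R096.Skc_476

open Msh_715 Cut_874

noncomputable section

/-! ### partitions of the unit interval -/

theorem exists_part (Θ : Finset ℝ) : ∃ (m : ℕ) (s : ℕ → ℝ), 0 < m ∧ s 0 = 0 ∧ s m = 1 ∧
    (∀ k < m, s k < s (k + 1)) ∧ (∀ k ≤ m, s k ∈ Icc (0:ℝ) 1) ∧
    (∀ k, 0 < k → k < m → s k ∈ Θ ∧ s k ∈ Ioo (0:ℝ) 1) ∧
    ∀ k < m, ∀ θ ∈ Θ, θ ∉ Ioo (s k) (s (k + 1)) := by
  classical
  set Θ' : Finset ℝ := insert 0 (insert 1 (Θ.filter (· ∈ Ioo (0:ℝ) 1))) with hΘ'
  have m0 : (0:ℝ) ∈ Θ' := Finset.mem_insert_self _ _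
  have m1 : (1:ℝ) ∈ Θ' := Finset.mem_insert_of_mem (Finset.mem_insert_self _ _)
  have hIcc : ∀ θ ∈ Θ', θ ∈ Icc (0:ℝ) 1 := by
    intro θ hθ
    rw [hΘ', Finset.mem_insert, Finset.mem_insert, Finset.mem_filter] at hθ
    rcases hθ with rfl | rfl | h
    · exact ⟨le_rfl, zero_le_one⟩
    · exact ⟨zero_le_one, le_rfl⟩
    · exact ⟨h.2.1.le, h.2.2.le⟩
  have hc : 1 < Θ'.card := Finset.one_lt_card.2 ⟨0, m0, 1, m1, zero_ne_one⟩
  obtain ⟨m, hm⟩ : ∃ m, Θ'.card = m + 1 := ⟨Θ'.card - 1, by omega⟩
  have hm0 : 0 < m := by omega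
  set e := Θ'.orderEmbOfFin hm with he
  have hmem : ∀ k, e k ∈ Θ' := fun k => Finset.orderEmbOfFin_mem _ _ _
  have hsurj : ∀ θ ∈ Θ', ∃ k, e k = θ := by
    intro θ hθ
    have : θ ∈ Set.range e := by rw [he, Finset.range_orderEmbOfFin]; exact hθ
    exact this
  set s : ℕ → ℝ := fun k => if h : k < m + 1 then e ⟨k, h⟩ else 1 with hs
  have hsk : ∀ k (h : k < m + 1), s k = e ⟨k, h⟩ := fun k h => by rw [hs]; simp only [dif_pos h]
  have hsm : ∀ k, k ≤ m → s k ∈ Θ' := fun k h => by rw [hsk k (by omega)]; exact hmem _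
  have h0 : s 0 = 0 := by
    obtain ⟨k, hk⟩ := hsurj 0 m0
    apply le_antisymm _ (hIcc _ (hsm 0 (Nat.zero_le _))).1
    rw [hsk 0 (by omega), ← hk]
    exact e.monotone (Fin.mk_le_of_le_val (Nat.zero_le _))
  have h1 : s m = 1 := by
    obtain ⟨k, hk⟩ := hsurj 1 m1
    apply le_antisymm (hIcc _ (hsm m le_rfl)).2
    rw [hsk m (by omega), ← hk]
    exact e.monotone (Fin.le_def.2 (by simpa using Nat.lt_succ_iff.1 k.2))
  have hlt : ∀ j k, j < k → k ≤ m → s j < s k := by
    intro j k hjk hk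
    rw [hsk j (by omega), hsk k (by omega)]
    exact e.strictMono (Fin.mk_lt_mk.2 hjk)
  refine ⟨m, s, hm0, h0, h1, fun k hk => hlt k (k + 1) (Nat.lt_succ_self k) hk,
    fun k hk => hIcc _ (hsm k hk), ?_, ?_⟩
  · intro k hk0 hkm
    have hI : s k ∈ Ioo (0:ℝ) 1 := ⟨h0 ▸ hlt 0 k hk0 hkm.le, h1 ▸ hlt k m hkm le_rfl⟩
    refine ⟨?_, hI⟩
    have := hsm k hkm.le
    rw [hΘ', Finset.mem_insert, Finset.mem_insert, Finset.mem_filter] at this
    rcases this with h | h | h
    · exact absurd h hI.1.ne'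
    · exact absurd h hI.2.ne
    · exact h.1
  · intro k hk θ hθ hI
    have hI1 : θ ∈ Ioo (0:ℝ) 1 := ⟨(hIcc _ (hsm k hk.le)).1.trans_lt hI.1,
      hI.2.trans_le (hIcc _ (hsm (k + 1) hk)).2⟩
    have hθ' : θ ∈ Θ' := by
      rw [hΘ', Finset.mem_insert, Finset.mem_insert, Finset.mem_filter]
      exact Or.inr (Or.inr ⟨hθ, hI1⟩)
    obtain ⟨j, hj⟩ := hsurj θ hθ'
    rw [hsk k (by omega), hsk (k + 1) (by omega), ← hj] at hI
    have a1 := e.lt_iff_lt.1 hI.1
    have a2 := e.lt_iff_lt.1 hI.2
    rw [Fin.lt_def] at a1 a2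
    simp only at a1 a2
    omega

/-- the integral over `[0, 1]` is the sum over the pieces -/
theorem lint_part {m : ℕ} {s : ℕ → ℝ} (h0 : s 0 = 0) (h1 : s m = 1)
    (hs : ∀ k < m, s k < s (k + 1)) (F : ℝ → ℝ≥0∞) :
    ∫⁻ t in Icc (0:ℝ) 1, F t = ∑ k ∈ Finset.range m, ∫⁻ t in Icc (s k) (s (k + 1)), F t := by
  have hle : ∀ k, k ≤ m → s 0 ≤ s k := by
    intro k
    induction k with
    | zero => intro _; exact le_rfl
    | succ k ih => intro hk; exact (ih (by omega)).trans (hs k (by omega)).le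
  have key : ∀ k, k ≤ m → ∫⁻ t in Ioc (s 0) (s k), F t =
      ∑ j ∈ Finset.range k, ∫⁻ t in Icc (s j) (s (j + 1)), F t := by
    intro k
    induction k with
    | zero => intro _; simp
    | succ k ih =>
      intro hk
      rw [Finset.sum_range_succ, ← ih (by omega),
        ← Ioc_union_Ioc_eq_Ioc (hle k (by omega)) (hs k (by omega)).le,
        lintegral_union measurableSet_Ioc (Ioc_disjoint_Ioc_of_le le_rfl)]
      congr 1
      exact setLIntegral_congr Ioc_ae_eq_Icc
  rw [← key m le_rfl, h0, h1]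
  exact (setLIntegral_congr Ioc_ae_eq_Icc).symm

/-- change of variables on one piece -/
theorem lint_resc {p q : ℝ} (h : p < q) (F : ℝ → ℝ≥0∞) : ∫⁻ t in Icc p q, F t =
    ENNReal.ofReal (q - p) * ∫⁻ τ in Icc (0:ℝ) 1, F (p + τ * (q - p)) := by
  have hq : 0 < q - p := sub_pos.2 h
  have hME : MeasurableEmbedding fun τ : ℝ => p + τ * (q - p) := by
    have e1 : MeasurableEmbedding fun τ : ℝ => τ * (q - p) :=
      (Homeomorph.mulRight₀ (q - p) hq.ne').measurableEmbedding
    have e2 : MeasurableEmbedding fun τ : ℝ => p + τ := (Homeomorph.addLeft p).measurableEmbedding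
    exact e2.comp e1
  have hmap : Measure.map (fun τ : ℝ => p + τ * (q - p)) volume =
      ENNReal.ofReal (q - p)⁻¹ • (volume : Measure ℝ) := by
    have e0 : (fun τ : ℝ => p + τ * (q - p)) = (fun τ => p + τ) ∘ fun τ => τ * (q - p) := rfl
    rw [e0, ← Measure.map_map (measurable_const_add p) (measurable_mul_const (q - p)),
      Real.map_volume_mul_right hq.ne', Measure.map_smul, abs_of_pos (inv_pos.2 hq),
      MeasureTheory.map_add_left_eq_self]
  have hpre : (fun τ : ℝ => p + τ * (q - p)) ⁻¹' Icc p q = Icc (0:ℝ) 1 := by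
    ext τ
    simp only [mem_preimage, mem_Icc]
    constructor
    · rintro ⟨a1, a2⟩
      exact ⟨by nlinarith, by nlinarith⟩
    · rintro ⟨a1, a2⟩
      exact ⟨by nlinarith, by nlinarith⟩
  have h2 := hME.lintegral_map (μ := volume) ((Icc p q).indicator F)
  rw [hmap, lintegral_smul_measure, smul_eq_mul, lintegral_indicator measurableSet_Icc] at h2
  have h3 : ∫⁻ τ, (Icc p q).indicator F (p + τ * (q - p)) =
      ∫⁻ τ in Icc (0:ℝ) 1, F (p + τ * (q - p)) := by
    rw [← lintegral_indicator measurableSet_Icc, ← hpre]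
    rfl
  rw [h3] at h2
  rw [← h2, ← mul_assoc, ← ENNReal.ofReal_mul hq.le, mul_inv_cancel₀ hq.ne', ENNReal.ofReal_one,
    one_mul]

section chain

variable {E : Type*} [NormedAddCommGroup E] [NormedSpace ℝ E]

/-- the points of the line through `a` and `b` -/
def ln (a b : E) (t : ℝ) : E := a + t • (b - a)

theorem ln_zero (a b : E) : ln a b 0 = a := by simp [ln]

theorem ln_one (a b : E) : ln a b 1 = b := by simp [ln]

theorem mem_seg_ln {a b x : E} : x ∈ segment ℝ a b ↔ ∃ t ∈ Icc (0:ℝ) 1, ln a b t = x := by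
  rw [segment_eq_image']
  rfl

theorem mem_oseg_ln {a b x : E} : x ∈ openSegment ℝ a b ↔ ∃ t ∈ Ioo (0:ℝ) 1, ln a b t = x := by
  rw [openSegment_eq_image']
  rfl

theorem ln_ln (a b : E) (p q τ : ℝ) : ln (ln a b p) (ln a b q) τ = ln a b (p + τ * (q - p)) := by
  unfold ln
  module

theorem ln_sub (a b : E) (p q : ℝ) : ln a b q - ln a b p = (q - p) • (b - a) := by
  unfold ln
  module

theorem ln_inj {a b : E} (h : a ≠ b) {s t : ℝ} (e : ln a b s = ln a b t) : s = t := by
  have h1 : ln a b t - ln a b s = 0 := by rw [e, sub_self]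
  rw [ln_sub] at h1
  have h2 := (smul_eq_zero.1 h1).resolve_right (sub_ne_zero.2 h.symm)
  linarith

/-- sub-segments -/
theorem seg_sub_ln {a b : E} (h : a ≠ b) {p q τ : ℝ} (hpq : p < q) :
    ln a b τ ∈ segment ℝ (ln a b p) (ln a b q) ↔ τ ∈ Icc p q := by
  rw [mem_seg_ln]
  constructor
  · rintro ⟨t, ht, e⟩
    rw [ln_ln] at e
    rw [← ln_inj h e]
    exact ⟨by nlinarith [ht.1], by nlinarith [ht.2]⟩
  · intro ht
    refine ⟨(τ - p) / (q - p), ⟨div_nonneg (by linarith [ht.1]) (by linarith),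
      (div_le_one (by linarith)).2 (by linarith [ht.2])⟩, ?_⟩
    rw [ln_ln, div_mul_cancel₀ _ (by linarith)]
    congr 1
    ring

variable {Om : Set E} {ι : Type*} {T : Tiling Om ι} [FiniteDimensional ℝ E]

/-- the ends and the open cell of a 1-cell which is given as a segment -/
theorem edge_of_seg {x a b : E} (hx : x ∈ Om) (hd : T.dim x = 1) (hab : T.cc x = segment ℝ a b) :
    a ≠ b ∧ T.oc x = openSegment ℝ a b ∧ T.dim a = 0 ∧ T.dim b = 0 := by
  obtain ⟨a', b', hne, h1, h2, h3, h4, h5, h6⟩ := T.edge_eq hx hd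
  have ha' := T.vertex_of_edge hx hd hab h5 h3
  have hb' := T.vertex_of_edge hx hd hab h6 h4
  have key : (a = a' ∧ b = b') ∨ (a = b' ∧ b = a') := by
    rcases ha' with ha' | ha' <;> rcases hb' with hb' | hb'
    · exact absurd (ha'.trans hb'.symm) hne
    · exact Or.inl ⟨ha'.symm, hb'.symm⟩
    · exact Or.inr ⟨hb'.symm, ha'.symm⟩
    · exact absurd (ha'.trans hb'.symm) hne
  rcases key with ⟨rfl, rfl⟩ | ⟨rfl, rfl⟩
  · exact ⟨hne, h2, h3, h4⟩
  · exact ⟨hne.symm, by rw [h2, openSegment_symm], h4, h3⟩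

/-- the directions of a 1-cell -/
theorem V_of_seg {x a b : E} (hx : x ∈ Om) (hd : T.dim x = 1) (hab : T.cc x = segment ℝ a b)
    {v : E} (hv : v ∈ T.V x) : ∃ c : ℝ, v = c • (b - a) := by
  obtain ⟨hne, -, -, -⟩ := edge_of_seg hx hd hab
  have hba : b - a ∈ T.V x := T.sub_mem_V' (by rw [hab]; exact right_mem_segment ℝ a b)
    (by rw [hab]; exact left_mem_segment ℝ a b)
  have hb0 : (⟨b - a, hba⟩ : T.V x) ≠ 0 := by
    intro h
    exact hne (sub_eq_zero.1 (congrArg Subtype.val h)).symm
  obtain ⟨c, hc⟩ := (finrank_eq_one_iff_of_nonzero' (⟨b - a, hba⟩ : T.V x) hb0).1 hd ⟨v, hv⟩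
  refine ⟨c, ?_⟩
  have := congrArg Subtype.val hc
  simpa using this.symm

variable {A : ι → Finset ((E →L[ℝ] ℝ) × ℝ)} {hA : ∀ i, ∀ a ∈ A i, a.1 ≠ 0}

/-- **a closed 1-cell of `T` is a chain of closed 1-cells of the cut** -/
theorem exists_chain {x a b : E} (hx : x ∈ Om) (hd : T.dim x = 1) (hab : T.cc x = segment ℝ a b) :
    ∃ (m : ℕ) (s : ℕ → ℝ), 0 < m ∧ s 0 = 0 ∧ s m = 1 ∧ (∀ k < m, s k < s (k + 1)) ∧
      (∀ k ≤ m, s k ∈ Icc (0:ℝ) 1 ∧ (cut T A hA).dim (ln a b (s k)) = 0) ∧
      ∀ k < m, ∀ t ∈ Ioo (s k) (s (k + 1)), ln a b t ∈ T.oc x ∧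
        (cut T A hA).dim (ln a b t) = 1 ∧ (cut T A hA).V (ln a b t) = T.V x ∧
        (cut T A hA).cc (ln a b t) = segment ℝ (ln a b (s k)) (ln a b (s (k + 1))) ∧
        (cut T A hA).oc (ln a b t) = openSegment ℝ (ln a b (s k)) (ln a b (s (k + 1))) := by
  classical
  obtain ⟨hne, hoc, hda, hdb⟩ := edge_of_seg hx hd hab
  -- the planes
  set J : Set ι := T.at_ x with hJ
  have hJf : J.Finite := T.at_finite hx
  set Pl : Finset ((E →L[ℝ] ℝ) × ℝ) := hJf.toFinset.biUnion A with hPl
  have hPlm : ∀ c, c ∈ Pl ↔ ∃ i ∈ T.at_ x, c ∈ A i := by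
    intro c; rw [hPl, Finset.mem_biUnion]; simp [hJ]
  -- thresholds
  set th : (E →L[ℝ] ℝ) × ℝ → ℝ := fun c => (c.2 - c.1 a) / c.1 (b - a) with hth
  set Θ : Finset ℝ := (Pl.filter fun c => c.1 (b - a) ≠ 0).image th with hΘ
  have hev : ∀ (c : (E →L[ℝ] ℝ) × ℝ) (t : ℝ), c.1 (ln a b t) = c.1 a + t * c.1 (b - a) := by
    intro c t; unfold ln; simp only [map_add, map_smul, smul_eq_mul]
  have hev2 : ∀ (c : (E →L[ℝ] ℝ) × ℝ) (t : ℝ), c.1 (b - a) ≠ 0 →
      c.1 (ln a b t) - c.2 = c.1 (b - a) * (t - th c) := by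
    intro c t h
    rw [hev, hth]
    field_simp
    ring
  obtain ⟨m, s, hm, h0, h1, hs, hI, hΘs, hgap⟩ := exists_part Θ
  have hocI : ∀ t ∈ Ioo (0:ℝ) 1, ln a b t ∈ T.oc x := by
    intro t ht; rw [hoc, mem_oseg_ln]; exact ⟨t, ht, rfl⟩
  have hin : ∀ k < m, ∀ t ∈ Ioo (s k) (s (k + 1)), t ∈ Ioo (0:ℝ) 1 := fun k hk t ht =>
    ⟨(hI k hk.le).1.trans_lt ht.1, ht.2.trans_le (hI (k + 1) hk).2⟩
  -- a threshold is not inside a piece
  have hthr : ∀ k < m, ∀ c ∈ Pl, c.1 (b - a) ≠ 0 → th c ≤ s k ∨ s (k + 1) ≤ th c := by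
    intro k hk c hc hb
    by_contra hcon
    push Not at hcon
    exact hgap k hk (th c) (Finset.mem_image.2 ⟨c, Finset.mem_filter.2 ⟨hc, hb⟩, rfl⟩) hcon
  refine ⟨m, s, hm, h0, h1, hs, ?_, ?_⟩
  · intro k hk
    refine ⟨hI k hk, ?_⟩
    rcases Nat.eq_zero_or_pos k with rfl | hk0
    · rw [h0, ln_zero]
      have := dim_cut_le (T := T) (A := A) (hA := hA) a
      omega
    rcases hk.eq_or_lt with rfl | hk1
    · rw [h1, ln_one]
      have := dim_cut_le (T := T) (A := A) (hA := hA) b
      omega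
    obtain ⟨g1, g2⟩ := hΘs k hk0 hk1
    obtain ⟨c, hc, hce⟩ := Finset.mem_image.1 g1
    obtain ⟨hc1, hc2⟩ := Finset.mem_filter.1 hc
    obtain ⟨i, hi, hci⟩ := (hPlm c).1 hc1
    rw [Tiling.dim_eq_zero_iff, Submodule.eq_bot_iff]
    intro v hv
    rw [mem_V_cut_oc hx (hocI _ g2)] at hv
    obtain ⟨r, rfl⟩ := V_of_seg hx hd hab hv.1
    have h3 := hv.2 i hi c hci (by
      have := hev2 c (s k) hc2
      rw [hce, sub_self, mul_zero] at this
      linarith)
    rw [map_smul, smul_eq_mul] at h3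
    rw [(mul_eq_zero.1 h3).resolve_right hc2, zero_smul]
  · intro k hk t ht
    have htI := hin k hk t ht
    have hto := hocI t htI
    have hV : (cut T A hA).V (ln a b t) = T.V x := by
      ext v
      rw [mem_V_cut_oc hx hto]
      refine ⟨fun h => h.1, fun h => ⟨h, fun i hi c hc e => ?_⟩⟩
      obtain ⟨r, rfl⟩ := V_of_seg hx hd hab h
      by_cases hb : c.1 (b - a) = 0
      · rw [map_smul, hb, smul_zero]
      · exfalso
        have h4 := hev2 c t hb
        rw [e, sub_self] at h4
        have h5 := (mul_eq_zero.1 h4.symm).resolve_left hb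
        rcases hthr k hk c ((hPlm c).2 ⟨i, hi, hc⟩) hb with h6 | h6
        · linarith [ht.1]
        · linarith [ht.2]
    have hdim : (cut T A hA).dim (ln a b t) = 1 := by unfold Tiling.dim; rw [hV]; exact hd
    have hcc : (cut T A hA).cc (ln a b t) = segment ℝ (ln a b (s k)) (ln a b (s (k + 1))) := by
      ext z
      rw [mem_cc_cut_oc hx hto]
      constructor
      · rintro ⟨hz, hz2⟩
        rw [hab, mem_seg_ln] at hz
        obtain ⟨τ, hτ, rfl⟩ := hz
        rw [seg_sub_ln hne (hs k hk)]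
        constructor
        · by_contra hcon
          push Not at hcon
          have hk0 : 0 < k := by
            rcases Nat.eq_zero_or_pos k with rfl | h
            · rw [h0] at hcon; exact absurd hτ.1 (not_le.2 hcon)
            · exact h
          obtain ⟨g1, g2⟩ := hΘs k hk0 hk
          obtain ⟨c, hc, hce⟩ := Finset.mem_image.1 g1
          obtain ⟨hc1, hc2⟩ := Finset.mem_filter.1 hc
          obtain ⟨i, hi, hci⟩ := (hPlm c).1 hc1
          obtain ⟨e1, e2⟩ := hz2 i hi c hci
          have f1 := hev2 c t hc2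
          have f2 := hev2 c τ hc2
          rw [hce] at f1 f2
          rcases lt_or_gt_of_ne hc2 with hb | hb
          · have g3 : c.1 (ln a b t) - c.2 < 0 := by
              rw [f1]; exact mul_neg_of_neg_of_pos hb (by linarith [ht.1])
            have g4 : 0 < c.1 (ln a b τ) - c.2 := by
              rw [f2]; exact mul_pos_of_neg_of_neg hb (by linarith)
            linarith [e1 (by linarith)]
          · have g3 : 0 < c.1 (ln a b t) - c.2 := by
              rw [f1]; exact mul_pos hb (by linarith [ht.1])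
            have g4 : c.1 (ln a b τ) - c.2 < 0 := by
              rw [f2]; exact mul_neg_of_pos_of_neg hb (by linarith)
            linarith [e2 (by linarith)]
        · by_contra hcon
          push Not at hcon
          have hk1 : k + 1 < m := by
            rcases Nat.lt_or_ge (k + 1) m with h | h
            · exact h
            · have : k + 1 = m := by omega
              rw [this, h1] at hcon; exact absurd hτ.2 (not_le.2 hcon)
          obtain ⟨g1, g2⟩ := hΘs (k + 1) (Nat.succ_pos k) hk1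
          obtain ⟨c, hc, hce⟩ := Finset.mem_image.1 g1
          obtain ⟨hc1, hc2⟩ := Finset.mem_filter.1 hc
          obtain ⟨i, hi, hci⟩ := (hPlm c).1 hc1
          obtain ⟨e1, e2⟩ := hz2 i hi c hci
          have f1 := hev2 c t hc2
          have f2 := hev2 c τ hc2
          rw [hce] at f1 f2
          rcases lt_or_gt_of_ne hc2 with hb | hb
          · have g3 : 0 < c.1 (ln a b t) - c.2 := by
              rw [f1]; exact mul_pos_of_neg_of_neg hb (by linarith [ht.2])
            have g4 : c.1 (ln a b τ) - c.2 < 0 := by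
              rw [f2]; exact mul_neg_of_neg_of_pos hb (by linarith)
            linarith [e2 (by linarith)]
          · have g3 : c.1 (ln a b t) - c.2 < 0 := by
              rw [f1]; exact mul_neg_of_pos_of_neg hb (by linarith [ht.2])
            have g4 : 0 < c.1 (ln a b τ) - c.2 := by
              rw [f2]; exact mul_pos hb (by linarith)
            linarith [e1 (by linarith)]
      · intro hz
        rw [mem_seg_ln] at hz
        obtain ⟨τ', hτ', rfl⟩ := hz
        rw [ln_ln]
        set τ : ℝ := s k + τ' * (s (k + 1) - s k) with hτdef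
        have hgap0 := hs k hk
        have hτ1 : s k ≤ τ := by rw [hτdef]; nlinarith [hτ'.1]
        have hτ2 : τ ≤ s (k + 1) := by rw [hτdef]; nlinarith [hτ'.2]
        refine ⟨?_, ?_⟩
        · rw [hab, mem_seg_ln]
          exact ⟨τ, ⟨(hI k hk.le).1.trans hτ1, hτ2.trans (hI (k + 1) hk).2⟩, rfl⟩
        · intro i hi c hc
          by_cases hb : c.1 (b - a) = 0
          · rw [hev, hev, hb]
            simp only [mul_zero, add_zero]
            exact ⟨id, id⟩
          · have f1 := hev2 c t hb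
            have f2 := hev2 c τ hb
            have hside := hthr k hk c ((hPlm c).2 ⟨i, hi, hc⟩) hb
            constructor
            · intro h5
              have h6 : c.1 (b - a) * (t - th c) ≤ 0 := by linarith
              have h7 : c.1 (b - a) * (τ - th c) ≤ 0 := by
                rcases hside with h8 | h8
                · have : c.1 (b - a) ≤ 0 := by
                    by_contra hcon
                    push Not at hcon
                    have := mul_pos hcon (show 0 < t - th c by linarith [ht.1])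
                    linarith
                  exact mul_nonpos_of_nonpos_of_nonneg this (by linarith)
                · have : 0 ≤ c.1 (b - a) := by
                    by_contra hcon
                    push Not at hcon
                    have := mul_pos_of_neg_of_neg hcon (show t - th c < 0 by linarith [ht.2])
                    linarith
                  exact mul_nonpos_of_nonneg_of_nonpos this (by linarith)
              linarith
            · intro h5
              have h6 : 0 ≤ c.1 (b - a) * (t - th c) := by linarith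
              have h7 : 0 ≤ c.1 (b - a) * (τ - th c) := by
                rcases hside with h8 | h8
                · have : 0 ≤ c.1 (b - a) := by
                    by_contra hcon
                    push Not at hcon
                    have := mul_neg_of_neg_of_pos hcon (show 0 < t - th c by linarith [ht.1])
                    linarith
                  exact mul_nonneg this (by linarith)
                · have : c.1 (b - a) ≤ 0 := by
                    by_contra hcon
                    push Not at hcon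
                    have := mul_neg_of_pos_of_neg hcon (show t - th c < 0 by linarith [ht.2])
                    linarith
                  exact mul_nonneg_of_nonpos_of_nonpos this (by linarith)
              linarith
    refine ⟨hto, hdim, hV, hcc, ?_⟩
    exact (edge_of_seg (T := cut T A hA) (T.cc_sub_Om hx (T.oc_sub_cc x hto)) hdim hcc).2.1

/-- **the line integral over the chain** (`N v y` = a density, homogeneous of degree one in `v`) -/
theorem lint_chain {N : E → E → ℝ≥0∞} {m : ℕ} {s : ℕ → ℝ} (h0 : s 0 = 0) (h1 : s m = 1)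
    (hs : ∀ k < m, s k < s (k + 1)) (a b w : E)
    (hN : ∀ (t : ℝ) v y, 0 < t → N (t • v) y = ENNReal.ofReal t * N v y) :
    ∫⁻ τ in Icc (0:ℝ) 1, N (b - a) (a + w + τ • (b - a)) =
      ∑ k ∈ Finset.range m, ∫⁻ τ in Icc (0:ℝ) 1,
        N (ln a b (s (k + 1)) - ln a b (s k))
          (ln a b (s k) + w + τ • (ln a b (s (k + 1)) - ln a b (s k))) := by
  rw [lint_part h0 h1 hs]
  refine Finset.sum_congr rfl fun k hk => ?_
  have hk := hs k (Finset.mem_range.1 hk)
  rw [lint_resc hk, ← lintegral_const_mul' _ _ ENNReal.ofReal_ne_top]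
  refine lintegral_congr fun τ => ?_
  rw [ln_sub, hN _ _ _ (sub_pos.2 hk)]
  congr 2
  unfold ln
  module

/-- **the same with degree `p`** -/
theorem lint_chain_rpow {N : E → E → ℝ≥0∞} {m : ℕ} {s : ℕ → ℝ} (h0 : s 0 = 0) (h1 : s m = 1)
    (hs : ∀ k < m, s k < s (k + 1)) (a b w : E) {p : ℝ} (hp : 0 ≤ p)
    (hN : ∀ (t : ℝ) v y, 0 < t → N (t • v) y = ENNReal.ofReal t * N v y) :
    ∫⁻ τ in Icc (0:ℝ) 1, N (b - a) (a + w + τ • (b - a)) ^ p =
      ∑ k ∈ Finset.range m, ENNReal.ofReal ((s (k + 1) - s k) ^ (1 - p)) *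
        ∫⁻ τ in Icc (0:ℝ) 1, N (ln a b (s (k + 1)) - ln a b (s k))
          (ln a b (s k) + w + τ • (ln a b (s (k + 1)) - ln a b (s k))) ^ p := by
  rw [lint_part h0 h1 hs]
  refine Finset.sum_congr rfl fun k hk => ?_
  have hk := hs k (Finset.mem_range.1 hk)
  have hq : 0 < s (k + 1) - s k := sub_pos.2 hk
  rw [lint_resc hk, ← lintegral_const_mul' _ _ ENNReal.ofReal_ne_top,
    ← lintegral_const_mul' _ _ ENNReal.ofReal_ne_top]
  refine lintegral_congr fun τ => ?_
  rw [ln_sub, hN _ _ _ hq, ENNReal.mul_rpow_of_nonneg _ _ hp, ← mul_assoc,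
    ENNReal.ofReal_rpow_of_pos hq, ← ENNReal.ofReal_mul (Real.rpow_nonneg hq.le _),
    ← Real.rpow_add hq, sub_add_cancel, Real.rpow_one]
  congr 3
  unfold ln
  module

end chain

end

end Crest.Agent.R096.Skc_476
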