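import Crest.Agent.R096.Slc5_184
import Crest.Agent.R096.Mrg6_715

/-!
# Row 96, DOORS, leaf SLC in the format of `Mbf_337.Tiny` (helper184), part 1

`Sla T κ` : cores `K c` of a tiling `T` whose frontier `{φ = t 0}` is a subcomplex, the cells of `T`
are products near the frontier (`tr`, `st`); levels `t 0 > t 1 > .. > t n > a` without vertices in
between.  `T` is cut along the levels `t 1, .., t n`, nothing changes outside the cores.

This part: bands, the cell below a cell of the frontier, virtual cells `C`, `O`, `D`.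
-/

set_option autoImplicit false
set_option linter.unusedSectionVars false

open Set Filter Topology Metric
open scoped Classical

namespace Crest.Agent.R096.Sla_184

open Crest.Agent.R096.Msh_715 Crest.Agent.R096.Agl5_543 Crest.Agent.R096.St_147
  Crest.Agent.R096.Slc_184

variable {E : Type} [NormedAddCommGroup E] [NormedSpace ℝ E] [FiniteDimensional ℝ E]
variable {Om : Set E} {ι : Type}

/-- slices of a tiling inside the cores `K c` -/
structure Sla (T : Tiling Om ι) (κ : Type) where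
  K : κ → Set E
  φ : κ → E → ℝ
  a : κ → ℝ
  n : κ → ℕ
  t : κ → ℕ → ℝ
  hH : ∀ c, CoreH T (K c)
  dis : ∀ c c', c ≠ c' → Disjoint (K c) (K c')
  cont : ∀ c, ContinuousOn (φ c) (K c)
  aff : ∀ c i, P (T.H i) ⊆ K c → AffOn (φ c) (P (T.H i))
  le : ∀ c, ∀ x ∈ K c, φ c x ≤ t c 0
  fr : ∀ c, ∀ x ∈ K c, (φ c x = t c 0 ↔ x ∈ frontier (K c))
  vert : ∀ c, ∀ v ∈ K c, T.dim v = 0 → φ c v ≤ a c ∨ φ c v = t c 0
  tr : ∀ c, ∀ x ∈ K c, x ∉ frontier (K c) → (T.cc x ∩ frontier (K c)).Nonempty →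
    ∃ y ∈ T.cc x, T.dim y + 1 = T.dim x ∧ T.cc x ∩ frontier (K c) = T.cc y
  st : ∀ c, ∀ z ∈ frontier (K c), ∃ x ∈ K c, x ∉ frontier (K c) ∧ z ∈ T.cc x ∧
    T.dim x = T.dim z + 1 ∧ ∀ y ∈ K c, y ∉ frontier (K c) → z ∈ T.cc y → x ∈ T.cc y
  npos : ∀ c, 0 < n c
  anti : ∀ c j, j < n c → t c (j + 1) < t c j
  gt : ∀ c, a c < t c (n c)

namespace Sla

variable {T : Tiling Om ι} {κ : Type} (S : Sla T κ)

/-! ### levels -/

theorem t_le {c : κ} : ∀ {j k : ℕ}, j ≤ k → k ≤ S.n c → S.t c k ≤ S.t c j := by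
  intro j k hjk
  induction hjk with
  | refl => intro _; exact le_rfl
  | step h ih => intro hk; exact (S.anti c _ hk).le.trans (ih (by omega))

theorem t_lt {c : κ} {j k : ℕ} (h : j < k) (hk : k ≤ S.n c) : S.t c k < S.t c j :=
  (S.t_le (c := c) (Nat.succ_le_of_lt h) hk).trans_lt (S.anti c j (by omega))

theorem a_lt_t {c : κ} {j : ℕ} (hj : j ≤ S.n c) : S.a c < S.t c j :=
  (S.gt c).trans_le (S.t_le hj le_rfl)

theorem t_inj {c : κ} {j k : ℕ} (hj : j ≤ S.n c) (hk : k ≤ S.n c) (h : S.t c j = S.t c k) :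
    j = k := by
  rcases lt_trichotomy j k with h1 | h1 | h1
  · exact absurd h (S.t_lt h1 hk).ne'
  · exact h1
  · exact absurd h (S.t_lt h1 hj).ne

/-- middle level of a layer -/
noncomputable def mid (c : κ) (j : ℕ) : ℝ := (S.t c j + S.t c (j + 1)) / 2

theorem mid_lt {c : κ} {j : ℕ} (hj : j < S.n c) : S.mid c j < S.t c j := by
  have := S.anti c j hj
  unfold mid; linarith

theorem lt_mid {c : κ} {j : ℕ} (hj : j < S.n c) : S.t c (j + 1) < S.mid c j := by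
  have := S.anti c j hj
  unfold mid; linarith

theorem mid_le {c : κ} {j : ℕ} (hj : j < S.n c) : S.mid c j ≤ S.t c 0 :=
  (S.mid_lt hj).le.trans (S.t_le (Nat.zero_le j) hj.le)

theorem a_lt_mid {c : κ} {j : ℕ} (hj : j < S.n c) : S.a c < S.mid c j :=
  (S.a_lt_t (Nat.succ_le_of_lt hj)).trans (S.lt_mid hj)

/-! ### the cores -/

theorem K_sub (c : κ) : S.K c ⊆ Om := (S.hH c).sub

theorem closed (c : κ) : IsClosed (S.K c) := (S.hH c).core.closed

theorem fr_sub (c : κ) : frontier (S.K c) ⊆ S.K c := (S.closed c).frontier_subset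

theorem core_unique {c c' : κ} {x : E} (h : x ∈ S.K c) (h' : x ∈ S.K c') : c = c' := by
  by_contra hne
  exact Set.disjoint_left.1 (S.dis c c' hne) h h'

/-- inner points -/
def In (c : κ) (x : E) : Prop := x ∈ S.K c ∧ x ∉ frontier (S.K c)

variable {S}
variable {c : κ} {x y z w : E} {j : ℕ}

theorem in_iff : S.In c x ↔ x ∈ interior (S.K c) := by
  unfold In
  rw [(S.closed c).frontier_eq]
  constructor
  · rintro ⟨h1, h2⟩
    by_contra h
    exact h2 ⟨h1, h⟩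
  · intro h
    exact ⟨interior_subset h, fun h' => h'.2 h⟩

theorem In.lt (h : S.In c x) : S.φ c x < S.t c 0 :=
  lt_of_le_of_ne (S.le c x h.1) fun e => h.2 ((S.fr c x h.1).1 e)

theorem in_of_lt (h : x ∈ S.K c) (h' : S.φ c x < S.t c 0) : S.In c x :=
  ⟨h, fun hf => h'.ne ((S.fr c x h).2 hf)⟩

theorem In.mem (h : S.In c x) : x ∈ Om := S.K_sub c h.1

theorem In.tile (h : S.In c x) {i : ι} (hi : x ∈ P (T.H i)) : P (T.H i) ⊆ S.K c :=
  T.sub_of_mem_interior (S.closed c) (S.hH c).cc hi (in_iff.1 h)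

theorem In.cc_sub (h : S.In c x) : T.cc x ⊆ S.K c := by
  obtain ⟨i, hi⟩ := T.cov x h.mem
  exact (T.cc_sub_tile hi).trans (h.tile hi)

theorem In.up (hx : x ∈ Om) (hy : y ∈ T.cc x) (h : S.In c y) : S.In c x :=
  in_iff.2 (mem_int_of_cc (S.closed c) (S.hH c).cc hx hy (in_iff.1 h))

theorem In.oc (h : S.In c x) (hy : y ∈ T.oc x) : S.In c y := by
  have hyO : y ∈ Om := T.cc_sub_Om h.mem (T.oc_sub_cc x hy)
  exact In.up hyO (T.oc_sub_cc _ (oc_symm h.mem hy)) h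

theorem In.aff (h : S.In c x) : AffOn (S.φ c) (T.cc x) := by
  obtain ⟨i, hi⟩ := T.cov x h.mem
  exact (S.aff c i (h.tile hi)).mono (T.cc_sub_tile hi)

/-- the open band -/
def Bo (S : Sla T κ) (c : κ) : Set E := {x | S.In c x ∧ S.a c < S.φ c x}

/-- the band -/
def Bd (S : Sla T κ) (c : κ) : Set E := {x | x ∈ S.K c ∧ S.a c < S.φ c x}

theorem Bo_sub : S.Bo c ⊆ S.Bd c := fun _ h => ⟨h.1.1, h.2⟩

theorem Bd_sub (hx : x ∈ S.Bd c) : x ∈ Om := S.K_sub c hx.1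

theorem fr_Bd (hx : x ∈ frontier (S.K c)) : x ∈ S.Bd c := by
  refine ⟨S.fr_sub c hx, ?_⟩
  rw [(S.fr c x (S.fr_sub c hx)).2 hx]
  exact S.a_lt_t (Nat.zero_le _)

theorem exists_low (hx : x ∈ S.Bo c) : ∃ v ∈ T.cc x, S.φ c v ≤ S.a c := by
  obtain ⟨v, hv, hv0, hmin⟩ := exists_min_vertex hx.1.mem hx.1.aff
  have h1 : S.φ c v < S.t c 0 := (hmin x (T.self_mem_cc x)).trans_lt hx.1.lt
  rcases S.vert c v (hx.1.cc_sub hv) hv0 with h | h
  · exact ⟨v, hv, h⟩
  · exact absurd h h1.ne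

theorem exists_high (hx : x ∈ S.Bo c) : ∃ v ∈ T.cc x, v ∈ frontier (S.K c) := by
  obtain ⟨v, hv, hv0, hmax⟩ := exists_max_vertex hx.1.mem hx.1.aff
  refine ⟨v, hv, ?_⟩
  rcases S.vert c v (hx.1.cc_sub hv) hv0 with h | h
  · have h1 := hmax x (T.self_mem_cc x)
    have h2 := hx.2
    linarith
  · exact (S.fr c v (hx.1.cc_sub hv)).1 h

/-- the top cell of a cell of the open band -/
theorem exists_tp (hx : x ∈ S.Bo c) : ∃ y ∈ T.cc x, T.dim y + 1 = T.dim x ∧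
    T.cc x ∩ frontier (S.K c) = T.cc y := by
  obtain ⟨v, hv, hvf⟩ := exists_high hx
  exact S.tr c x hx.1.1 hx.1.2 ⟨v, hv, hvf⟩

/-- the cell below a cell of the frontier -/
theorem exists_dn (hz : z ∈ frontier (S.K c)) : ∃ x, x ∈ S.Bo c ∧ z ∈ T.cc x ∧
    T.dim x = T.dim z + 1 ∧ (∀ y, S.In c y → z ∈ T.cc y → x ∈ T.cc y) ∧
    T.cc x ∩ frontier (S.K c) = T.cc z := by
  obtain ⟨x0, h0K, h0f, hzx, hd, hst⟩ := S.st c z hz
  have hI0 : S.In c x0 := ⟨h0K, h0f⟩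
  have hφz : S.φ c z = S.t c 0 := (S.fr c z (S.fr_sub c hz)).2 hz
  have ha : S.a c < S.t c 0 := S.a_lt_t (Nat.zero_le _)
  obtain ⟨s, hs0, hs1, hs⟩ : ∃ s : ℝ, 0 < s ∧ s ≤ 1 ∧ S.a c < S.t c 0 + s * (S.φ c x0 - S.t c 0) := by
    have hD : 0 < S.t c 0 - S.φ c x0 := by linarith [hI0.lt]
    refine ⟨min 1 ((S.t c 0 - S.a c) / (2 * (S.t c 0 - S.φ c x0))), ?_, min_le_left _ _, ?_⟩
    · have : 0 < S.t c 0 - S.a c := by linarith
      positivity
    · have h1 : min 1 ((S.t c 0 - S.a c) / (2 * (S.t c 0 - S.φ c x0))) * (S.t c 0 - S.φ c x0) ≤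
          (S.t c 0 - S.a c) / 2 := by
        calc _ ≤ (S.t c 0 - S.a c) / (2 * (S.t c 0 - S.φ c x0)) * (S.t c 0 - S.φ c x0) :=
              mul_le_mul_of_nonneg_right (min_le_right _ _) hD.le
          _ = _ := by field_simp
      nlinarith
  have hx := T.move_mem_oc hzx hs0 hs1
  have hI : S.In c (z + s • (x0 - z)) := hI0.oc hx
  have hφ : S.φ c (z + s • (x0 - z)) = S.t c 0 + s * (S.φ c x0 - S.t c 0) := by
    rw [hI0.aff.line hzx (T.self_mem_cc _) (T.oc_sub_cc _ hx), hφz]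
  have hB : z + s • (x0 - z) ∈ S.Bo c := ⟨hI, by rw [hφ]; exact hs⟩
  have hcc := T.cc_eq_of_mem_oc hI0.mem hx
  have hdim := T.dim_eq_of_mem_oc hI0.mem hx
  refine ⟨_, hB, by rw [hcc]; exact hzx, by rw [hdim, hd], ?_, ?_⟩
  · intro y hy hzy
    exact T.cc_sub_of_mem (hst y hy.1 hy.2 hzy) (T.oc_sub_cc _ hx)
  · obtain ⟨y, hy, hy1, hy2⟩ := exists_tp hB
    rw [hy2]
    have h1 : z ∈ T.cc y := by
      rw [← hy2, hcc]; exact ⟨hzx, hz⟩
    have h2 : T.dim y = T.dim z := by omega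
    have h3 : z ∈ T.oc y := mem_oc_of_dim h1 h2.le
    exact (T.cc_eq_of_mem_oc (T.cc_sub_Om hI.mem hy) h3).symm

/-- the representative of a point in the open band -/
noncomputable def dn (S : Sla T κ) (c : κ) (x : E) : E :=
  if h : x ∈ frontier (S.K c) then (exists_dn h).choose else x

theorem dn_fr (h : x ∈ frontier (S.K c)) : S.dn c x ∈ S.Bo c ∧ x ∈ T.cc (S.dn c x) ∧
    T.dim (S.dn c x) = T.dim x + 1 ∧ (∀ y, S.In c y → x ∈ T.cc y → S.dn c x ∈ T.cc y) ∧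
    T.cc (S.dn c x) ∩ frontier (S.K c) = T.cc x := by
  unfold dn
  rw [dif_pos h]
  exact (exists_dn h).choose_spec

theorem dn_in (h : S.In c x) : S.dn c x = x := dif_neg h.2

theorem cases_Bd (hx : x ∈ S.Bd c) : x ∈ frontier (S.K c) ∨ x ∈ S.Bo c := by
  by_cases h : x ∈ frontier (S.K c)
  · exact Or.inl h
  · exact Or.inr ⟨⟨hx.1, h⟩, hx.2⟩

theorem dn_Bo (hx : x ∈ S.Bd c) : S.dn c x ∈ S.Bo c := by
  rcases cases_Bd hx with h | h
  · exact (dn_fr h).1
  · rw [dn_in h.1]; exact h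

theorem dn_mem (hx : x ∈ S.Bd c) : S.dn c x ∈ Om := (dn_Bo hx).1.mem

/-- virtual closed cell -/
noncomputable def C (S : Sla T κ) (c : κ) (x : E) : Set E := T.cc (S.dn c x)

/-- virtual dimension -/
noncomputable def D (S : Sla T κ) (c : κ) (x : E) : ℕ := T.dim (S.dn c x)

/-- virtual open cell -/
noncomputable def O (S : Sla T κ) (c : κ) (x : E) : Set E :=
  {y | y ∈ S.Bd c ∧ S.dn c y ∈ T.oc (S.dn c x)}

theorem self_C (hx : x ∈ S.Bd c) : x ∈ S.C c x := by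
  unfold C
  rcases cases_Bd hx with h | h
  · exact (dn_fr h).2.1
  · rw [dn_in h.1]; exact T.self_mem_cc x

theorem self_O (hx : x ∈ S.Bd c) : x ∈ S.O c x := ⟨hx, T.self_mem_oc _⟩

theorem C_K (hx : x ∈ S.Bd c) : S.C c x ⊆ S.K c := (dn_Bo hx).1.cc_sub

theorem C_aff (hx : x ∈ S.Bd c) : AffOn (S.φ c) (S.C c x) := (dn_Bo hx).1.aff

theorem C_convex (x : E) : Convex ℝ (S.C c x) := T.convex_cc _

theorem C_Bd (hx : x ∈ S.Bd c) (hy : y ∈ S.C c x) (h : S.a c < S.φ c y) : y ∈ S.Bd c :=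
  ⟨C_K hx hy, h⟩

theorem dn_cc (hx : x ∈ S.Bd c) (hy : S.In c y) (h : x ∈ T.cc y) : S.dn c x ∈ T.cc y := by
  rcases cases_Bd hx with h' | h'
  · exact (dn_fr h').2.2.2.1 y hy h
  · rw [dn_in h'.1]; exact h

theorem C_sub (hx : x ∈ S.Bd c) (hy : y ∈ S.Bd c) (h : y ∈ S.C c x) : S.C c y ⊆ S.C c x :=
  T.cc_sub_of_mem (dn_cc hy (dn_Bo hx).1 h)

theorem O_Bd (hy : y ∈ S.O c x) : y ∈ S.Bd c := hy.1

theorem O_symm (hx : x ∈ S.Bd c) (hy : y ∈ S.O c x) : x ∈ S.O c y :=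
  ⟨hx, oc_symm (dn_mem hx) hy.2⟩

theorem O_trans (hx : x ∈ S.Bd c) (hy : y ∈ S.O c x) (hz : z ∈ S.O c y) : z ∈ S.O c x :=
  ⟨hz.1, oc_trans (dn_mem hx) hy.2 hz.2⟩

theorem C_eq (hx : x ∈ S.Bd c) (hy : y ∈ S.O c x) : S.C c y = S.C c x :=
  T.cc_eq_of_mem_oc (dn_mem hx) hy.2

theorem D_eq (hx : x ∈ S.Bd c) (hy : y ∈ S.O c x) : S.D c y = S.D c x :=
  T.dim_eq_of_mem_oc (dn_mem hx) hy.2

theorem O_C (hx : x ∈ S.Bd c) (hy : y ∈ S.O c x) : y ∈ S.C c x := by
  rw [← C_eq hx hy]; exact self_C hy.1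

theorem O_of_dim (hx : x ∈ S.Bd c) (hy : y ∈ S.Bd c) (h : y ∈ S.C c x)
    (hd : S.D c x ≤ S.D c y) : y ∈ S.O c x :=
  ⟨hy, mem_oc_of_dim (dn_cc hy (dn_Bo hx).1 h) hd⟩

theorem D_fr (h : x ∈ frontier (S.K c)) : S.D c x = T.dim x + 1 := (dn_fr h).2.2.1

theorem D_in (h : S.In c x) : S.D c x = T.dim x := by
  unfold D; rw [dn_in h]

/-- the frontier part of a virtual cell -/
theorem C_fr (h : x ∈ frontier (S.K c)) : S.C c x ∩ frontier (S.K c) = T.cc x := (dn_fr h).2.2.2.2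

theorem O_fr (hx : x ∈ frontier (S.K c)) (hy : y ∈ frontier (S.K c)) :
    y ∈ S.O c x ↔ y ∈ T.oc x := by
  have hxB := fr_Bd hx
  have hyB := fr_Bd hy
  constructor
  · intro h
    have h1 := C_eq hxB h
    have h2 := C_fr hx
    have h3 := C_fr hy
    rw [h1, h2] at h3
    exact (T.cc_eq_iff (Bd_sub hxB)).1 h3.symm
  · intro h
    refine O_of_dim hxB hyB ?_ ?_
    · have h1 : y ∈ T.cc x := T.oc_sub_cc _ h
      rw [← C_fr hx] at h1
      exact h1.1
    · rw [D_fr hx, D_fr hy, T.dim_eq_of_mem_oc (Bd_sub hxB) h]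

theorem O_in (hx : S.In c x) (hy : S.In c y) (ha : S.a c < S.φ c y) :
    y ∈ S.O c x ↔ y ∈ T.oc x := by
  unfold O
  rw [mem_ofPred_eq, dn_in hx, dn_in hy]
  exact ⟨fun h => h.2, fun h => ⟨⟨hy.1, ha⟩, h⟩⟩

/-- segments in virtual open cells -/
theorem O_seg (hx : x ∈ S.Bd c) (hy : y ∈ S.O c x) (hz : z ∈ S.O c x) {s : ℝ}
    (hs : s ∈ Icc (0 : ℝ) 1) : y + s • (z - y) ∈ S.O c x ∧
      S.φ c (y + s • (z - y)) = S.φ c y + s * (S.φ c z - S.φ c y) := by
  have hyC := O_C hx hy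
  have hzC := O_C hx hz
  have hp : y + s • (z - y) ∈ S.C c x := (C_convex x).add_smul_sub_mem hyC hzC hs
  have hφ := (C_aff hx).line hyC hzC hp
  refine ⟨?_, hφ⟩
  have hya := hy.1.2
  have hza := hz.1.2
  have hpa : S.a c < S.φ c (y + s • (z - y)) := by
    rw [hφ]
    obtain ⟨h0, h1⟩ := hs
    nlinarith [mul_nonneg h0 (sub_nonneg.2 hza.le), mul_nonneg (sub_nonneg.2 h1) (sub_nonneg.2 hya.le)]
  rcases eq_or_lt_of_le hs.1 with h0 | h0
  · rw [← h0, zero_smul, add_zero]; exact hy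
  rcases eq_or_lt_of_le hs.2 with h1 | h1
  · rw [h1, one_smul, add_sub_cancel]; exact hz
  have hpB : y + s • (z - y) ∈ S.Bd c := ⟨C_K hx hp, hpa⟩
  rcases cases_Bd hy.1 with h | h
  · rcases cases_Bd hz.1 with h' | h'
    · -- both on the frontier
      have h2 : z ∈ T.oc y := (O_fr h h').1 (O_trans hy.1 (O_symm hx hy) hz)
      have h3 : y + s • (z - y) ∈ T.oc y :=
        (T.convex_oc y).add_smul_sub_mem (T.self_mem_oc y) h2 hs
      have h4 : y + s • (z - y) ∈ frontier (S.K c) := (S.hH c).cc y h (T.oc_sub_cc _ h3)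
      exact O_trans hx hy ((O_fr h h4).2 h3)
    · have h2 : y ∈ T.cc z := by
        have : y ∈ S.C c z := by rw [C_eq hx hz]; exact hyC
        unfold C at this
        rwa [dn_in h'.1] at this
      have h3 := T.move_mem_oc h2 h0 hs.2
      have h4 : S.In c (y + s • (z - y)) := h'.1.oc h3
      exact O_trans hx hz ((O_in h'.1 h4 hpa).2 h3)
  · have h2 : z ∈ T.cc y := by
      have : z ∈ S.C c y := by rw [C_eq hx hy]; exact hzC
      unfold C at this
      rwa [dn_in h.1] at this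
    have h3 := T.move_mem_oc h2 (sub_pos.2 h1) (by linarith : 1 - s ≤ 1)
    have e : z + (1 - s) • (y - z) = y + s • (z - y) := by module
    rw [e] at h3
    have h4 : S.In c (y + s • (z - y)) := h.1.oc h3
    exact O_trans hx hy ((O_in h.1 h4 hpa).2 h3)

/-- every level of the band is attained on every virtual open cell -/
theorem exists_level (hx : x ∈ S.Bd c) {s : ℝ} (hs : S.a c < s) (hs' : s ≤ S.t c 0) :
    ∃ y ∈ S.O c x, S.φ c y = s := by
  have hB := dn_Bo hx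
  -- the top point
  obtain ⟨z, hz, hzd, hzc⟩ := exists_tp hB
  have hzf : z ∈ frontier (S.K c) := by
    have : z ∈ T.cc z := T.self_mem_cc z
    rw [← hzc] at this
    exact this.2
  have hzB := fr_Bd hzf
  have hzO : z ∈ S.O c x := by
    refine O_of_dim hx hzB hz ?_
    rw [D_fr hzf, hzd]; exact le_rfl
  have hφz : S.φ c z = S.t c 0 := (S.fr c z hzB.1).2 hzf
  -- a low point
  obtain ⟨v, hv, hva⟩ := exists_low hB
  have hA := C_aff hx
  have hlt := hB.1.lt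
  -- a point of the open cell just above the level `a`
  obtain ⟨y, hy, hya, hys⟩ : ∃ y ∈ S.O c x, S.a c < S.φ c y ∧ S.φ c y ≤ s := by
    by_cases h : S.φ c (S.dn c x) ≤ s
    · refine ⟨S.dn c x, ⟨Bo_sub hB, ?_⟩, hB.2, h⟩
      rw [dn_in hB.1]; exact T.self_mem_oc _
    · push Not at h
      set r := (s - S.φ c v) / (S.φ c (S.dn c x) - S.φ c v) with hr
      have hd : 0 < S.φ c (S.dn c x) - S.φ c v := by linarith
      have hr0 : 0 < r := div_pos (by linarith) hd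
      have hr1 : r ≤ 1 := by rw [hr, div_le_one hd]; linarith
      have hm := T.move_mem_oc hv hr0 hr1
      have hφ : S.φ c (v + r • (S.dn c x - v)) = s := by
        rw [hA.line hv (T.self_mem_cc _) (T.oc_sub_cc _ hm), hr]
        field_simp
        ring
      have hI := hB.1.oc hm
      refine ⟨_, ⟨⟨hI.1, by rw [hφ]; exact hs⟩, ?_⟩, by rw [hφ]; exact hs, hφ.le⟩
      rw [dn_in hI]; exact hm
  by_cases he : S.φ c y = s
  · exact ⟨y, hy, he⟩
  have hys' : S.φ c y < s := lt_of_le_of_ne hys he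
  have hd : 0 < S.φ c z - S.φ c y := by linarith
  have hr : (s - S.φ c y) / (S.φ c z - S.φ c y) ∈ Icc (0 : ℝ) 1 :=
    ⟨div_nonneg (by linarith) hd.le, by rw [div_le_one hd]; linarith⟩
  obtain ⟨h1, h2⟩ := O_seg hx hy hzO hr
  refine ⟨_, h1, ?_⟩
  rw [h2]
  field_simp
  ring

/-- points of a virtual edge at the same level are equal -/
theorem lv_unique (hx : x ∈ S.Bd c) (hd : S.D c x = 1) (hy : y ∈ S.C c x) (hz : z ∈ S.C c x)
    (h : S.φ c y = S.φ c z) : y = z := by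
  have hB := dn_Bo hx
  obtain ⟨L, hL⟩ := (C_aff hx).exists_lin
  obtain ⟨v, hv, hva⟩ := exists_low hB
  have hvV : v - S.dn c x ∈ T.V (S.dn c x) := T.sub_mem_V hv
  have hLv : L (v - S.dn c x) ≠ 0 := by
    intro h0
    have h1 := hL _ (T.self_mem_cc _) v hv
    rw [h0, add_zero] at h1
    have := hB.2
    linarith
  have h1 := hL y hy z hz
  have h2 : L (z - y) = 0 := by linarith
  have h3 : z - y ∈ T.V (S.dn c x) := T.sub_mem_V' hz hy
  have hv0 : (⟨v - S.dn c x, hvV⟩ : T.V (S.dn c x)) ≠ 0 := fun h => by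
    have h5 : v - S.dn c x = 0 := congrArg Subtype.val h
    rw [h5, map_zero] at hLv
    exact hLv rfl
  obtain ⟨s, hs⟩ := exists_smul_eq_of_finrank_eq_one (K := ℝ) (V := T.V (S.dn c x)) hd hv0
    ⟨z - y, h3⟩
  have hs' : s • (v - S.dn c x) = z - y := congrArg Subtype.val hs
  rw [← hs', map_smul, smul_eq_mul] at h2
  rcases mul_eq_zero.1 h2 with h | h
  · rw [h, zero_smul] at hs'
    exact (sub_eq_zero.1 hs'.symm).symm
  · exact absurd h hLv

/-- a point of the virtual open cell of `x` at the level `s` -/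
noncomputable def lv (S : Sla T κ) (c : κ) (x : E) (s : ℝ) : E :=
  if h : x ∈ S.Bd c ∧ S.a c < s ∧ s ≤ S.t c 0 then (exists_level h.1 h.2.1 h.2.2).choose else x

theorem lv_mem (hx : x ∈ S.Bd c) {s : ℝ} (hs : S.a c < s) (hs' : s ≤ S.t c 0) :
    S.lv c x s ∈ S.O c x ∧ S.φ c (S.lv c x s) = s := by
  unfold lv
  rw [dif_pos ⟨hx, hs, hs'⟩]
  exact (exists_level hx hs hs').choose_spec

end Sla

end Crest.Agent.R096.Sla_184
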