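import Crest.Agent.R096.Sla1_184

/-!
# Row 96, DOORS, leaf SLC in the format of `Mbf_337.Tiny` (helper184), part 2: the sliced tiling
`S.T3` and its cells.
-/

set_option autoImplicit false
set_option linter.unusedSectionVars false

open Set Filter Topology Metric
open scoped Classical

namespace Crest.Agent.R096.Sla_184

open Crest.Agent.R096.Msh_715 Crest.Agent.R096.Agl5_543 Crest.Agent.R096.St_147
  Crest.Agent.R096.Slc_184

variable {E : Type} [NormedAddCommGroup E] [NormedSpace ℝ E] [FiniteDimensional ℝ E]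
variable {Om : Set E} {ι : Type}

namespace Sla

variable {T : Tiling Om ι} {κ : Type} (S : Sla T κ)

/-- the tile `i` meets the open band of `c` -/
def Cut (c : κ) (i : ι) : Prop := (P (T.H i) ∩ S.Bo c).Nonempty

variable {S}
variable {c : κ} {x y z w : E} {j : ℕ}

theorem Cut.sub {i : ι} (h : S.Cut c i) : P (T.H i) ⊆ S.K c := by
  obtain ⟨x, hx, hB⟩ := h
  exact hB.1.tile hx

theorem Cut.aff {i : ι} (h : S.Cut c i) : AffOn (S.φ c) (P (T.H i)) := S.aff c i h.sub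

theorem cut_unique {c c' : κ} {i : ι} (h : S.Cut c i) (h' : S.Cut c' i) : c = c' := by
  obtain ⟨x, hx, hB⟩ := h
  exact S.core_unique hB.1.1 (h'.sub hx)

theorem cut_of_mem (hx : x ∈ S.Bo c) {i : ι} (hi : x ∈ P (T.H i)) : S.Cut c i := ⟨x, hi, hx⟩

variable (S)

/-- the affine function on a cut tile -/
noncomputable def af (c : κ) (i : ι) : E →ᵃ[ℝ] ℝ :=
  if h : AffOn (S.φ c) (P (T.H i)) then h.choose else AffineMap.const ℝ E 0

theorem af_eq {c : κ} {i : ι} (h : AffOn (S.φ c) (P (T.H i))) :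
    EqOn (S.φ c) (S.af c i) (P (T.H i)) := by
  unfold af
  rw [dif_pos h]
  exact h.choose_spec

/-- the plane of the level `s` in the tile `i` -/
noncomputable def pl (c : κ) (i : ι) (s : ℝ) : (E →L[ℝ] ℝ) × ℝ :=
  (LinearMap.toContinuousLinearMap (S.af c i).linear, s - S.af c i 0)

theorem af_apply (c : κ) (i : ι) (y : E) : S.af c i y = (S.af c i).linear y + S.af c i 0 := by
  have := (S.af c i).linearMap_vsub y 0
  rw [vsub_eq_sub, vsub_eq_sub, sub_zero] at this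
  rw [this]; ring

theorem pl_le {c : κ} {i : ι} (h : AffOn (S.φ c) (P (T.H i))) {y : E} (hy : y ∈ P (T.H i))
    (s : ℝ) : (S.pl c i s).1 y ≤ (S.pl c i s).2 ↔ S.φ c y ≤ s := by
  rw [S.af_eq h hy, S.af_apply]
  show (S.af c i).linear y ≤ s - S.af c i 0 ↔ _
  constructor <;> intro h <;> linarith

theorem pl_ge {c : κ} {i : ι} (h : AffOn (S.φ c) (P (T.H i))) {y : E} (hy : y ∈ P (T.H i))
    (s : ℝ) : (S.pl c i s).2 ≤ (S.pl c i s).1 y ↔ s ≤ S.φ c y := by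
  rw [S.af_eq h hy, S.af_apply]
  show s - S.af c i 0 ≤ (S.af c i).linear y ↔ _
  constructor <;> intro h <;> linarith

theorem pl_eq {c : κ} {i : ι} (h : AffOn (S.φ c) (P (T.H i))) {y : E} (hy : y ∈ P (T.H i))
    (s : ℝ) : (S.pl c i s).1 y = (S.pl c i s).2 ↔ S.φ c y = s := by
  rw [le_antisymm_iff, S.pl_le h hy, S.pl_ge h hy, ← le_antisymm_iff]

/-- the cutting planes: the levels `1, .., n` -/
noncomputable def HH (i : ι) : Finset ((E →L[ℝ] ℝ) × ℝ) :=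
  if h : ∃ c, S.Cut c i then
    (Finset.range (S.n h.choose)).image fun j => S.pl h.choose i (S.t h.choose (j + 1))
  else ∅

theorem mem_HH {i : ι} {h : (E →L[ℝ] ℝ) × ℝ} :
    h ∈ S.HH i ↔ ∃ c, S.Cut c i ∧ ∃ j, 0 < j ∧ j ≤ S.n c ∧ S.pl c i (S.t c j) = h := by
  unfold HH
  by_cases hex : ∃ c, S.Cut c i
  · rw [dif_pos hex, Finset.mem_image]
    constructor
    · rintro ⟨j, hj, e⟩
      have := Finset.mem_range.1 hj
      exact ⟨_, hex.choose_spec, j + 1, Nat.succ_pos j, this, e⟩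
    · rintro ⟨c, hc, j, hj0, hj, e⟩
      have : c = hex.choose := cut_unique hc hex.choose_spec
      subst this
      refine ⟨j - 1, Finset.mem_range.2 (by omega), ?_⟩
      rw [Nat.sub_add_cancel hj0]; exact e
  · rw [dif_neg hex]
    simp only [Finset.notMem_empty, false_iff]
    rintro ⟨c, hc, _⟩
    exact hex ⟨c, hc⟩

theorem h0 : ∀ i, ∀ h ∈ S.HH i, h.1 ≠ 0 := by
  intro i h hh e
  obtain ⟨c, hc, j, hj0, hj, rfl⟩ := S.mem_HH.1 hh
  obtain ⟨x, hx, hxB⟩ := hc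
  have hA : AffOn (S.φ c) (P (T.H i)) := Cut.aff ⟨x, hx, hxB⟩
  obtain ⟨v, hv, hva⟩ := exists_low hxB
  have hv' := T.cc_sub_tile hx hv
  have h1 := S.af_apply c i v
  have h2 := S.af_apply c i x
  have e' : ∀ y, (S.af c i).linear y = 0 := fun y => by
    have := congrArg (fun f : E →L[ℝ] ℝ => f y) e
    exact this
  rw [e', zero_add] at h1 h2
  rw [← S.af_eq hA hv'] at h1
  rw [← S.af_eq hA hx] at h2
  have := hxB.2
  linarith

/-- **the sliced tiling** -/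
noncomputable def T3 : Tiling Om (T.RIdx S.HH) := T.refine S.HH S.h0

variable {S}

theorem mem_cc3 : y ∈ S.T3.cc x ↔ y ∈ T.cc x ∧
    ∀ i ∈ T.at_ x, ∀ c, S.Cut c i → ∀ j, 0 < j → j ≤ S.n c →
      (S.φ c x ≤ S.t c j → S.φ c y ≤ S.t c j) ∧ (S.t c j ≤ S.φ c x → S.t c j ≤ S.φ c y) := by
  unfold T3
  rw [mem_refine_cc]
  constructor
  · rintro ⟨h1, h2⟩
    refine ⟨h1, fun i hi c hc j hj0 hj => ?_⟩
    have h3 := h2 i hi _ (S.mem_HH.2 ⟨c, hc, j, hj0, hj, rfl⟩)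
    rw [S.pl_le hc.aff hi, S.pl_le hc.aff (T.cc_sub_tile hi h1), S.pl_ge hc.aff hi,
      S.pl_ge hc.aff (T.cc_sub_tile hi h1)] at h3
    exact h3
  · rintro ⟨h1, h2⟩
    refine ⟨h1, fun i hi h hh => ?_⟩
    obtain ⟨c, hc, j, hj0, hj, rfl⟩ := S.mem_HH.1 hh
    rw [S.pl_le hc.aff hi, S.pl_le hc.aff (T.cc_sub_tile hi h1), S.pl_ge hc.aff hi,
      S.pl_ge hc.aff (T.cc_sub_tile hi h1)]
    exact h2 i hi c hc j hj0 hj

theorem mem_oc3 (hx : x ∈ Om) : y ∈ S.T3.oc x ↔ y ∈ T.oc x ∧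
    ∀ i ∈ T.at_ x, ∀ c, S.Cut c i → ∀ j, 0 < j → j ≤ S.n c →
      (S.φ c y ≤ S.t c j ↔ S.φ c x ≤ S.t c j) ∧ (S.t c j ≤ S.φ c y ↔ S.t c j ≤ S.φ c x) := by
  unfold T3
  rw [mem_refine_oc _ _ hx]
  constructor
  · rintro ⟨h1, h2⟩
    refine ⟨h1, fun i hi c hc j hj0 hj => ?_⟩
    have h3 := h2 i hi _ (S.mem_HH.2 ⟨c, hc, j, hj0, hj, rfl⟩)
    have hy := T.cc_sub_tile hi (T.oc_sub_cc x h1)
    rw [S.pl_le hc.aff hi, S.pl_le hc.aff hy, S.pl_ge hc.aff hi, S.pl_ge hc.aff hy] at h3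
    exact h3
  · rintro ⟨h1, h2⟩
    refine ⟨h1, fun i hi h hh => ?_⟩
    obtain ⟨c, hc, j, hj0, hj, rfl⟩ := S.mem_HH.1 hh
    have hy := T.cc_sub_tile hi (T.oc_sub_cc x h1)
    rw [S.pl_le hc.aff hi, S.pl_le hc.aff hy, S.pl_ge hc.aff hi, S.pl_ge hc.aff hy]
    exact h2 i hi c hc j hj0 hj

theorem cc3_sub (x : E) : S.T3.cc x ⊆ T.cc x := fun _ h => (mem_cc3.1 h).1

theorem oc3_sub (x : E) : S.T3.oc x ⊆ T.oc x := T.refine_oc_sub S.h0 x

/-! ### outer points -/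

/-- a point in no interior of a core -/
def Out (S : Sla T κ) (x : E) : Prop := x ∈ Om ∧ ∀ c, ¬ S.In c x

theorem Out.cut (h : S.Out x) {i : ι} (hi : i ∈ T.at_ x) (hc : S.Cut c i) :
    x ∈ frontier (S.K c) := by
  by_contra hf
  exact h.2 c ⟨hc.sub hi, hf⟩

theorem out_fr (h : x ∈ frontier (S.K c)) : S.Out x := by
  refine ⟨S.K_sub c (S.fr_sub c h), fun c' h' => ?_⟩
  have := S.core_unique (S.fr_sub c h) h'.1
  subst this
  exact h'.2 h

theorem Out.cc (h : S.Out x) : S.T3.cc x = T.cc x := by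
  apply Subset.antisymm (cc3_sub x)
  intro y hy
  refine mem_cc3.2 ⟨hy, fun i hi c hc j hj0 hj => ?_⟩
  have hf := h.cut hi hc
  have hφ : S.φ c x = S.t c 0 := (S.fr c x (S.fr_sub c hf)).2 hf
  have hyf := (S.hH c).cc x hf hy
  have hφ' : S.φ c y = S.t c 0 := (S.fr c y (S.fr_sub c hyf)).2 hyf
  rw [hφ, hφ']
  exact ⟨id, id⟩

theorem Out.oc (h : S.Out x) : S.T3.oc x = T.oc x := by
  apply Subset.antisymm (oc3_sub x)
  intro y hy
  refine (mem_oc3 h.1).2 ⟨hy, fun i hi c hc j hj0 hj => ?_⟩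
  have hf := h.cut hi hc
  have hφ : S.φ c x = S.t c 0 := (S.fr c x (S.fr_sub c hf)).2 hf
  have hyf := (S.hH c).cc x hf (T.oc_sub_cc _ hy)
  have hφ' : S.φ c y = S.t c 0 := (S.fr c y (S.fr_sub c hyf)).2 hyf
  rw [hφ, hφ']
  exact ⟨Iff.rfl, Iff.rfl⟩

theorem mem_V3 {v : E} : v ∈ S.T3.V x ↔ v ∈ T.V x ∧
    ∀ i ∈ T.at_ x, ∀ c, S.Cut c i → ∀ j, 0 < j → j ≤ S.n c → S.φ c x = S.t c j →
      (S.af c i).linear v = 0 := by
  unfold T3
  rw [mem_refine_V]
  constructor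
  · rintro ⟨h1, h2⟩
    refine ⟨h1, fun i hi c hc j hj0 hj e => ?_⟩
    exact h2 i hi _ (S.mem_HH.2 ⟨c, hc, j, hj0, hj, rfl⟩) ((S.pl_eq hc.aff hi _).2 e)
  · rintro ⟨h1, h2⟩
    refine ⟨h1, fun i hi h hh e => ?_⟩
    obtain ⟨c, hc, j, hj0, hj, rfl⟩ := S.mem_HH.1 hh
    exact h2 i hi c hc j hj0 hj ((S.pl_eq hc.aff hi _).1 e)

/-- off the inner slices the dimension does not change -/
theorem dim3_off (h : ∀ c j, 0 < j → j ≤ S.n c → x ∈ S.K c → S.φ c x ≠ S.t c j) :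
    S.T3.dim x = T.dim x := by
  have : S.T3.V x = T.V x := by
    ext v
    rw [mem_V3]
    refine ⟨fun h => h.1, fun hv => ⟨hv, fun i hi c hc j hj0 hj e => ?_⟩⟩
    exact absurd e (h c j hj0 hj (hc.sub hi))
  unfold Tiling.dim
  rw [this]

theorem Out.dim (h : S.Out x) : S.T3.dim x = T.dim x := by
  refine dim3_off fun c j hj0 hj hK e => ?_
  by_cases hf : x ∈ frontier (S.K c)
  · rw [(S.fr c x hK).2 hf] at e
    have := S.t_lt hj0 hj
    linarith
  · exact h.2 c ⟨hK, hf⟩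

/-! ### the slices and the layers -/

/-- a point of a slice -/
def OnS (S : Sla T κ) (c : κ) (j : ℕ) (x : E) : Prop := x ∈ S.K c ∧ j ≤ S.n c ∧ S.φ c x = S.t c j

/-- a point in a layer -/
def InL (S : Sla T κ) (c : κ) (j : ℕ) (x : E) : Prop :=
  x ∈ S.K c ∧ j < S.n c ∧ S.t c (j + 1) < S.φ c x ∧ S.φ c x < S.t c j

theorem OnS.bd (h : S.OnS c j x) : x ∈ S.Bd c := ⟨h.1, by rw [h.2.2]; exact S.a_lt_t h.2.1⟩

theorem InL.bd (h : S.InL c j x) : x ∈ S.Bd c :=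
  ⟨h.1, (S.a_lt_t (Nat.succ_le_of_lt h.2.1)).trans h.2.2.1⟩

theorem OnS.mem (h : S.OnS c j x) : x ∈ Om := Bd_sub h.bd
theorem InL.mem (h : S.InL c j x) : x ∈ Om := Bd_sub h.bd

theorem OnS.fr (h : S.OnS c 0 x) : x ∈ frontier (S.K c) := (S.fr c x h.1).1 h.2.2

theorem onS_fr (h : x ∈ frontier (S.K c)) : S.OnS c 0 x :=
  ⟨S.fr_sub c h, Nat.zero_le _, (S.fr c x (S.fr_sub c h)).2 h⟩

theorem OnS.bo (h : S.OnS c j x) (h0 : 0 < j) : x ∈ S.Bo c :=
  ⟨in_of_lt h.1 (by rw [h.2.2]; exact S.t_lt h0 h.2.1), h.bd.2⟩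

theorem InL.bo (h : S.InL c j x) : x ∈ S.Bo c :=
  ⟨in_of_lt h.1 (h.2.2.2.trans_le (S.t_le (Nat.zero_le j) h.2.1.le)), h.bd.2⟩

/-- cells of the open band -/
theorem mem_cc_band (hx : x ∈ S.Bo c) : y ∈ S.T3.cc x ↔ y ∈ T.cc x ∧
    ∀ j, 0 < j → j ≤ S.n c →
      (S.φ c x ≤ S.t c j → S.φ c y ≤ S.t c j) ∧ (S.t c j ≤ S.φ c x → S.t c j ≤ S.φ c y) := by
  rw [mem_cc3]
  constructor
  · rintro ⟨h1, h2⟩
    obtain ⟨i, hi⟩ := T.cov x hx.1.mem
    exact ⟨h1, h2 i hi c (cut_of_mem hx hi)⟩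
  · rintro ⟨h1, h2⟩
    refine ⟨h1, fun i hi c' hc' => ?_⟩
    rw [cut_unique hc' (cut_of_mem hx hi)]
    exact h2

theorem mem_oc_band (hx : x ∈ S.Bo c) : y ∈ S.T3.oc x ↔ y ∈ T.oc x ∧
    ∀ j, 0 < j → j ≤ S.n c →
      (S.φ c y ≤ S.t c j ↔ S.φ c x ≤ S.t c j) ∧ (S.t c j ≤ S.φ c y ↔ S.t c j ≤ S.φ c x) := by
  rw [mem_oc3 hx.1.mem]
  constructor
  · rintro ⟨h1, h2⟩
    obtain ⟨i, hi⟩ := T.cov x hx.1.mem
    exact ⟨h1, h2 i hi c (cut_of_mem hx hi)⟩
  · rintro ⟨h1, h2⟩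
    refine ⟨h1, fun i hi c' hc' => ?_⟩
    rw [cut_unique hc' (cut_of_mem hx hi)]
    exact h2

theorem OnS.cc (h : S.OnS c j x) : y ∈ S.T3.cc x ↔ y ∈ S.C c x ∧ S.φ c y = S.t c j := by
  rcases Nat.eq_zero_or_pos j with h0 | h0
  · subst h0
    rw [(out_fr h.fr).cc, ← C_fr h.fr, mem_inter_iff]
    constructor
    · rintro ⟨h1, h2⟩
      exact ⟨h1, (S.fr c y (S.fr_sub c h2)).2 h2⟩
    · rintro ⟨h1, h2⟩
      exact ⟨h1, (S.fr c y (C_K h.bd h1)).1 h2⟩
  · have hB := h.bo h0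
    rw [mem_cc_band hB]
    unfold C
    rw [dn_in hB.1]
    constructor
    · rintro ⟨h1, h2⟩
      have := h2 j h0 h.2.1
      rw [h.2.2] at this
      exact ⟨h1, le_antisymm (this.1 le_rfl) (this.2 le_rfl)⟩
    · rintro ⟨h1, h2⟩
      refine ⟨h1, fun k _ _ => ?_⟩
      rw [h2, h.2.2]
      exact ⟨id, id⟩

theorem OnS.oc (h : S.OnS c j x) : y ∈ S.T3.oc x ↔ y ∈ S.O c x ∧ S.φ c y = S.t c j := by
  rcases Nat.eq_zero_or_pos j with h0 | h0
  · subst h0
    rw [(out_fr h.fr).oc]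
    constructor
    · intro h1
      have h2 := (S.hH c).cc x h.fr (T.oc_sub_cc _ h1)
      exact ⟨(O_fr h.fr h2).2 h1, (S.fr c y (S.fr_sub c h2)).2 h2⟩
    · rintro ⟨h1, h2⟩
      exact (O_fr h.fr ((S.fr c y h1.1.1).1 h2)).1 h1
  · have hB := h.bo h0
    rw [mem_oc_band hB]
    constructor
    · rintro ⟨h1, h2⟩
      have := h2 j h0 h.2.1
      rw [h.2.2] at this
      have h3 : S.φ c y = S.t c j := le_antisymm (this.1.2 le_rfl) (this.2.2 le_rfl)
      refine ⟨(O_in hB.1 (hB.1.oc h1) ?_).2 h1, h3⟩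
      rw [h3]; exact S.a_lt_t h.2.1
    · rintro ⟨h1, h2⟩
      have hy : S.In c y := in_of_lt h1.1.1 (by rw [h2]; exact S.t_lt h0 h.2.1)
      refine ⟨(O_in hB.1 hy h1.1.2).1 h1, fun k _ _ => ?_⟩
      rw [h2, h.2.2]
      exact ⟨Iff.rfl, Iff.rfl⟩

theorem InL.cc (h : S.InL c j x) :
    y ∈ S.T3.cc x ↔ y ∈ S.C c x ∧ S.t c (j + 1) ≤ S.φ c y ∧ S.φ c y ≤ S.t c j := by
  have hB := h.bo
  have hC : S.C c x = T.cc x := by unfold C; rw [dn_in hB.1]
  rw [mem_cc_band hB, hC]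
  obtain ⟨_, hj, h1, h2⟩ := h
  constructor
  · rintro ⟨h3, h4⟩
    refine ⟨h3, (h4 (j + 1) (Nat.succ_pos j) (by omega)).2 h1.le, ?_⟩
    rcases Nat.eq_zero_or_pos j with h0 | h0
    · subst h0
      exact S.le c y (hB.1.cc_sub h3)
    · exact (h4 j h0 (by omega)).1 h2.le
  · rintro ⟨h3, h4, h5⟩
    refine ⟨h3, fun k _ hk => ?_⟩
    rcases Nat.lt_or_ge j k with hjk | hjk
    · have h6 : S.t c k ≤ S.t c (j + 1) := S.t_le (by omega) hk
      exact ⟨fun h => by linarith, fun _ => by linarith⟩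
    · have h6 : S.t c j ≤ S.t c k := S.t_le hjk (by omega)
      exact ⟨fun _ => by linarith, fun h => by linarith⟩

theorem InL.oc (h : S.InL c j x) :
    y ∈ S.T3.oc x ↔ y ∈ S.O c x ∧ S.t c (j + 1) < S.φ c y ∧ S.φ c y < S.t c j := by
  have hB := h.bo
  rw [mem_oc_band hB]
  obtain ⟨_, hj, h1, h2⟩ := h
  have hat : S.a c < S.t c (j + 1) := S.a_lt_t hj
  constructor
  · rintro ⟨h3, h4⟩
    have h5 : S.t c (j + 1) < S.φ c y := by
      by_contra hc
      have := (h4 (j + 1) (Nat.succ_pos j) (by omega)).1.1 (not_lt.1 hc)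
      linarith
    refine ⟨(O_in hB.1 (hB.1.oc h3) (hat.trans h5)).2 h3, h5, ?_⟩
    rcases Nat.eq_zero_or_pos j with h0 | h0
    · subst h0
      exact (hB.1.oc h3).lt
    · by_contra hc
      have := (h4 j h0 (by omega)).2.1 (not_lt.1 hc)
      linarith
  · rintro ⟨h3, h4, h5⟩
    have hy : S.In c y := in_of_lt h3.1.1 (h5.trans_le (S.t_le (Nat.zero_le j) hj.le))
    refine ⟨(O_in hB.1 hy h3.1.2).1 h3, fun k _ hk => ?_⟩
    rcases Nat.lt_or_ge j k with hjk | hjk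
    · have h6 : S.t c k ≤ S.t c (j + 1) := S.t_le (by omega) hk
      exact ⟨⟨fun h => by linarith, fun h => by linarith⟩,
        ⟨fun _ => by linarith, fun _ => by linarith⟩⟩
    · have h6 : S.t c j ≤ S.t c k := S.t_le hjk (by omega)
      exact ⟨⟨fun _ => by linarith, fun _ => by linarith⟩,
        ⟨fun h => by linarith, fun h => by linarith⟩⟩

/-- on a slice the dimension is one less than the virtual dimension -/
theorem OnS.dim3 (h : S.OnS c j x) : S.T3.dim x + 1 = S.D c x := by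
  rcases Nat.eq_zero_or_pos j with h0 | h0
  · subst h0
    rw [(out_fr h.fr).dim, D_fr h.fr]
  · have hB := h.bo h0
    rw [D_in hB.1]
    obtain ⟨L, hL⟩ := hB.1.aff.exists_lin
    obtain ⟨v0, hv0, hva⟩ := exists_low hB
    have hv : v0 - x ∈ T.V x := T.sub_mem_V hv0
    have hLv : L (v0 - x) ≠ 0 := by
      intro h
      have := hL x (T.self_mem_cc x) v0 hv0
      rw [h, add_zero] at this
      have := hB.2
      linarith
    have hxO := hB.1.mem
    have hlin : ∀ i ∈ T.at_ x, ∀ w ∈ T.V x, (S.af c i).linear w = L w := by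
      intro i hi w hw
      obtain ⟨r, hr, hb⟩ := T.exists_ball_oc hxO
      by_cases hw0 : w = 0
      · rw [hw0, map_zero, map_zero]
      have hwn : 0 < ‖w‖ := norm_pos_iff.2 hw0
      set ε := r / (2 * ‖w‖) with hε
      have hε0 : 0 < ε := by positivity
      have hm : x + ε • w ∈ T.cc x := T.oc_sub_cc x (hb _ ((T.V x).smul_mem _ hw) (by
        rw [norm_smul, Real.norm_eq_abs, abs_of_pos hε0, hε]
        have : r / (2 * ‖w‖) * ‖w‖ = r / 2 := by field_simp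
        rw [this]; linarith))
      have hA : AffOn (S.φ c) (P (T.H i)) := (cut_of_mem hB hi).aff
      have h1 := hL x (T.self_mem_cc x) _ hm
      rw [add_sub_cancel_left, S.af_eq hA (T.cc_sub_tile hi hm), S.af_eq hA hi, S.af_apply,
        S.af_apply c i x, map_add, map_smul, map_smul, smul_eq_mul, smul_eq_mul] at h1
      have h2 : ε * (S.af c i).linear w = ε * L w := by linarith
      exact mul_left_cancel₀ hε0.ne' h2
    let l : T.V x →ₗ[ℝ] ℝ := L.comp (T.V x).subtype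
    have hker : S.T3.V x = (LinearMap.ker l).map (T.V x).subtype := by
      ext w
      rw [mem_V3, Submodule.mem_map]
      constructor
      · rintro ⟨h1, h2⟩
        obtain ⟨i, hi⟩ := T.cov x hxO
        refine ⟨⟨w, h1⟩, ?_, rfl⟩
        rw [LinearMap.mem_ker]
        show L w = 0
        rw [← hlin i hi w h1]
        exact h2 i hi c (cut_of_mem hB hi) j h0 h.2.1 h.2.2
      · rintro ⟨⟨w', hw'⟩, h1, rfl⟩
        rw [LinearMap.mem_ker] at h1
        refine ⟨hw', fun i hi c' hc' j' _ hj' e => ?_⟩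
        have := cut_unique hc' (cut_of_mem hB hi)
        subst this
        show (S.af _ i).linear w' = 0
        rw [hlin i hi w' hw']
        exact h1
    have h1 := LinearMap.finrank_range_add_finrank_ker l
    have h2 : LinearMap.range l = ⊤ := by
      rw [LinearMap.range_eq_top]
      intro s
      refine ⟨(s / L (v0 - x)) • ⟨v0 - x, hv⟩, ?_⟩
      rw [map_smul]
      show (s / L (v0 - x)) • L (v0 - x) = s
      rw [smul_eq_mul, div_mul_cancel₀ _ hLv]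
    rw [h2, finrank_top, Module.finrank_self] at h1
    have h3 : Module.finrank ℝ (S.T3.V x) = Module.finrank ℝ (LinearMap.ker l) := by
      rw [hker]
      exact Submodule.finrank_map_subtype_eq _ _
    unfold Tiling.dim
    rw [h3]
    omega

theorem InL.dim3 (h : S.InL c j x) : S.T3.dim x = S.D c x := by
  rw [D_in h.bo.1]
  refine dim3_off fun c' k hk0 hk hK e => ?_
  have : c = c' := S.core_unique h.1 hK
  subst this
  obtain ⟨_, hj, h1, h2⟩ := h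
  rw [e] at h1 h2
  rcases Nat.lt_or_ge j k with h4 | h4
  · have := S.t_le (c := c) (show j + 1 ≤ k by omega) hk
    linarith
  · have := S.t_le (c := c) h4 hj.le
    linarith

theorem dim3_le (hx : x ∈ S.Bd c) : S.T3.dim x ≤ S.D c x := by
  rcases cases_Bd hx with h | h
  · have := (onS_fr h).dim3
    omega
  · rw [D_in h.1]
    unfold Tiling.dim
    exact Submodule.finrank_mono fun v hv => (mem_V3.1 hv).1

theorem OnS.core {c' : κ} {j' : ℕ} (h : S.OnS c j x) (h' : S.OnS c' j' x) : c = c' :=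
  S.core_unique h.1 h'.1

theorem InL.not_onS {c' : κ} {j' : ℕ} (h : S.InL c j x) : ¬ S.OnS c' j' x := by
  intro h'
  have : c = c' := S.core_unique h.1 h'.1
  subst this
  obtain ⟨_, hj, h1, h2⟩ := h
  obtain ⟨_, hj', h3⟩ := h'
  rw [h3] at h1 h2
  rcases Nat.lt_or_ge j j' with h4 | h4
  · have := S.t_le (c := c) (show j + 1 ≤ j' by omega) hj'
    linarith
  · have := S.t_le (c := c) h4 hj.le
    linarith

/-- every point above the last slice is on a slice or in a layer -/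
theorem onS_or_inL (hx : x ∈ S.K c) (h1 : S.t c (S.n c) ≤ S.φ c x) :
    (∃ j, S.OnS c j x) ∨ ∃ j, S.InL c j x := by
  have h0 := S.le c x hx
  have key : ∀ m ≤ S.n c, S.t c m ≤ S.φ c x → (∃ j, S.OnS c j x) ∨ ∃ j, S.InL c j x := by
    intro m
    induction m with
    | zero => intro _ h; exact Or.inl ⟨0, hx, Nat.zero_le _, le_antisymm h0 h⟩
    | succ m ih =>
      intro hm h
      rcases lt_or_ge (S.φ c x) (S.t c m) with h2 | h2
      · rcases eq_or_lt_of_le h with h3 | h3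
        · exact Or.inl ⟨m + 1, hx, hm, h3.symm⟩
        · exact Or.inr ⟨m, hx, by omega, h3, h2⟩
      · exact ih (by omega) h2
  exact key _ le_rfl h1

/-- the cells at a point of the open band: levels below -/
theorem cc3_low (hx : x ∈ Om) (hy : y ∈ S.T3.cc x) (hyB : y ∈ S.Bo c) {k : ℕ} (hk : k ≤ S.n c)
    (h : S.φ c y < S.t c k) : S.In c x ∧ S.φ c x < S.t c k := by
  have hy1 := (mem_cc3.1 hy).1
  have hI : S.In c x := In.up hx hy1 hyB.1
  refine ⟨hI, ?_⟩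
  rcases Nat.eq_zero_or_pos k with h0 | h0
  · subst h0; exact hI.lt
  · obtain ⟨i, hi⟩ := T.cov x hx
    have hcut : S.Cut c i := cut_of_mem hyB (T.at_sub_of_mem_cc hy1 hi)
    have h1 := (mem_cc3.1 hy).2 i hi c hcut k h0 hk
    by_contra h3
    have := h1.2 (not_lt.1 h3)
    linarith

theorem cc3_high (hx : x ∈ Om) (hy : y ∈ S.T3.cc x) (hyB : y ∈ S.Bo c) {k : ℕ} (hk0 : 0 < k)
    (hk : k ≤ S.n c) (h : S.t c k < S.φ c y) : S.t c k < S.φ c x := by
  have hy1 := (mem_cc3.1 hy).1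
  obtain ⟨i, hi⟩ := T.cov x hx
  have hcut : S.Cut c i := cut_of_mem hyB (T.at_sub_of_mem_cc hy1 hi)
  have h1 := (mem_cc3.1 hy).2 i hi c hcut k hk0 hk
  by_contra h3
  have := h1.1 (not_lt.1 h3)
  linarith

end Sla

end Crest.Agent.R096.Sla_184
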