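import Crest.Agent.R096.Sla3_184

/-!
# Row 96, DOORS, leaf SLC in the format of `Mbf_337.Tiny` (helper184), part 4: the inner cores, the
merged meshes, the cells and faces of the layers.
-/

set_option autoImplicit false
set_option linter.unusedSectionVars false

open Set Filter Topology Metric
open scoped Classical

namespace Crest.Agent.R096.Sla_184

open Crest.Agent.R096.Msh_715 Crest.Agent.R096.Agl5_543 Crest.Agent.R096.St_147
  Crest.Agent.R096.Slc_184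

variable {E : Type} [NormedAddCommGroup E] [NormedSpace ℝ E] [FiniteDimensional ℝ E]
variable {Om : Set E} {ι : Type}

namespace Sla

variable {T : Tiling Om ι} {κ : Type}

/-- sublevels of a core -/
def KL (S : Sla T κ) (c : κ) (s : ℝ) : Set E := {x | x ∈ interior (S.K c) ∧ S.φ c x ≤ s}

/-- all properties of the sublevels -/
theorem KL_all (S : Sla T κ) (c : κ) {s : ℝ} (hs : S.a c < s) (hs' : s < S.t c 0) :
    IsCompact (S.KL c s) ∧ frontier (S.KL c s) = {x | x ∈ S.K c ∧ S.φ c x = s} ∧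
      interior (S.KL c s) = {x | x ∈ S.K c ∧ S.φ c x < s} ∧ Core (S.KL c s) ∧
      (Module.finrank ℝ E = 3 → PC (frontier (S.KL c s))) := by
  set φ' : E → ℝ := (S.K c).piecewise (S.φ c) (fun _ => S.t c 0) with hφ'
  have hφK : ∀ x ∈ S.K c, φ' x = S.φ c x := fun x hx => Set.piecewise_eq_of_mem _ _ _ hx
  have hcont : Continuous φ' := by
    refine continuous_piecewise (fun x hx => (S.fr c x (S.fr_sub c hx)).2 hx) ?_
      continuousOn_const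
    rw [(S.closed c).closure_eq]; exact S.cont c
  have hcl : closure (interior (S.K c)) ⊆ S.K c :=
    closure_minimal interior_subset (S.closed c)
  have h := Sld_316.core_sub (T := T) (φ := φ') (U := interior (S.K c)) (a := S.a c)
    (b := S.t c 0) (t := s) isOpen_interior (hcl.trans (S.K_sub c))
    ((S.hH c).cpt.of_isClosed_subset isClosed_closure hcl) hcont.continuousOn
    (by
      intro x hx
      have hxK : x ∈ S.K c := hcl (frontier_subset_closure hx)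
      have hxf : x ∈ frontier (S.K c) := by
        rw [(S.closed c).frontier_eq]
        rw [isOpen_interior.frontier_eq] at hx
        exact ⟨hxK, hx.2⟩
      rw [hφK x hxK, (S.fr c x hxK).2 hxf])
    (by
      rintro i ⟨x, hx, hxi⟩
      have hi : P (T.H i) ⊆ S.K c := T.sub_of_mem_interior (S.closed c) (S.hH c).cc hx hxi
      obtain ⟨g, hg⟩ := S.aff c i hi
      exact ⟨g, fun y hy => (hφK y (hi hy)).trans (hg hy)⟩)
    (by
      intro v hv hd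
      rw [hφK v (interior_subset hv)]
      rcases S.vert c v (interior_subset hv) hd with h | h
      · exact Or.inl h
      · exact Or.inr h.ge) hs hs'
  have e0 : {x | x ∈ interior (S.K c) ∧ φ' x ≤ s} = S.KL c s := by
    ext x
    constructor
    · rintro ⟨h1, h2⟩
      exact ⟨h1, by rw [← hφK x (interior_subset h1)]; exact h2⟩
    · rintro ⟨h1, h2⟩
      exact ⟨h1, by rw [hφK x (interior_subset h1)]; exact h2⟩
  have e1 : {x | x ∈ interior (S.K c) ∧ φ' x = s} = {x | x ∈ S.K c ∧ S.φ c x = s} := by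
    ext x
    constructor
    · rintro ⟨h1, h2⟩
      exact ⟨interior_subset h1, by rw [← hφK x (interior_subset h1)]; exact h2⟩
    · rintro ⟨h1, h2⟩
      exact ⟨in_iff.1 (in_of_lt h1 (by rw [h2]; exact hs')), by rw [hφK x h1]; exact h2⟩
  have e2 : {x | x ∈ interior (S.K c) ∧ φ' x < s} = {x | x ∈ S.K c ∧ S.φ c x < s} := by
    ext x
    constructor
    · rintro ⟨h1, h2⟩
      exact ⟨interior_subset h1, by rw [← hφK x (interior_subset h1)]; exact h2⟩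
    · rintro ⟨h1, h2⟩
      exact ⟨in_iff.1 (in_of_lt h1 (h2.trans hs')), by rw [hφK x h1]; exact h2⟩
  rw [e0, e1, e2] at h
  exact h

/-- the inner cores -/
def KK (S : Sla T κ) (c : κ) : Set E := S.KL c (S.t c (S.n c))

variable {S : Sla T κ} {h3 : Module.finrank ℝ E = 3} {c : κ} {x y z w : E} {j : ℕ}

theorem tn_lt (S : Sla T κ) (c : κ) : S.t c (S.n c) < S.t c 0 := S.t_lt (S.npos c) le_rfl

theorem mem_KK : x ∈ S.KK c ↔ x ∈ S.K c ∧ S.φ c x ≤ S.t c (S.n c) := by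
  constructor
  · rintro ⟨h1, h2⟩; exact ⟨interior_subset h1, h2⟩
  · rintro ⟨h1, h2⟩; exact ⟨in_iff.1 (in_of_lt h1 (h2.trans_lt (S.tn_lt c))), h2⟩

theorem KK_K : S.KK c ⊆ S.K c := fun _ h => (mem_KK.1 h).1

theorem KK_sub (c : κ) : S.KK c ⊆ Om := KK_K.trans (S.K_sub c)

theorem core_KK (c : κ) : Core (S.KK c) := (S.KL_all c (S.gt c) (S.tn_lt c)).2.2.2.1

theorem closed_KK (c : κ) : IsClosed (S.KK c) := (core_KK c).closed

theorem pc_KK (h3 : Module.finrank ℝ E = 3) (c : κ) : PC (frontier (S.KK c)) :=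
  (S.KL_all c (S.gt c) (S.tn_lt c)).2.2.2.2 h3

theorem mem_fr_KK : x ∈ frontier (S.KK c) ↔ S.OnS c (S.n c) x := by
  unfold KK
  rw [(S.KL_all c (S.gt c) (S.tn_lt c)).2.1]
  exact ⟨fun h => ⟨h.1, le_rfl, h.2⟩, fun h => ⟨h.1, h.2.2⟩⟩

theorem mem_int_KK : x ∈ interior (S.KK c) ↔ x ∈ S.K c ∧ S.φ c x < S.t c (S.n c) := by
  unfold KK
  rw [(S.KL_all c (S.gt c) (S.tn_lt c)).2.2.1]
  rfl

theorem hs_KK (c : κ) : ∀ x ∈ frontier (S.KK c), S.T3.cc x ⊆ frontier (S.KK c) := by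
  intro x hx y hy
  rw [mem_fr_KK] at hx ⊢
  have h1 := hx.cc.1 hy
  exact onS_of_C hx.bd h1.1 le_rfl h1.2

theorem dis_KK (c c' : κ) (h : c ≠ c') : Disjoint (S.KK c) (S.KK c') :=
  (S.dis c c' h).mono KK_K KK_K

/-- faces of the outer mesh -/
abbrev F0 (S : Sla T κ) (h3 : Module.finrank ℝ E = 3) : Type :=
  {F : C2 T // ¬ (((meshC T h3).side F).map (piK T S.K)).IsDiag}

/-- faces of the inner mesh -/
abbrev Fn (S : Sla T κ) (h3 : Module.finrank ℝ E = 3) : Type :=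
  {F : C2 S.T3 // ¬ (((meshC S.T3 h3).side F).map (piK S.T3 S.KK)).IsDiag}

/-- the outer mesh -/
noncomputable abbrev m0 (S : Sla T κ) (h3 : Module.finrank ℝ E = 3) : MeshC (ι ⊕ κ) (S.F0 h3) E :=
  meshK T h3 S.K (fun c => (S.hH c).core) (fun c => (S.hH c).cc) S.dis

/-- the inner mesh -/
noncomputable abbrev mn (S : Sla T κ) (h3 : Module.finrank ℝ E = 3) :
    MeshC (T.RIdx S.HH ⊕ κ) (S.Fn h3) E :=
  meshK S.T3 h3 S.KK core_KK hs_KK dis_KK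

/-- the shells of the cores -/
noncomputable abbrev sh (S : Sla T κ) (h3 : Module.finrank ℝ E = 3) (c : κ) :
    Door_501.Shell (S.m0 h3) (Sum.inr c) (S.Vx c) (S.Ed c) := shellH h3 S.hH S.dis c

theorem mem_sideN {F : S.Fn h3} {q : T.RIdx S.HH ⊕ κ} :
    q ∈ (S.mn h3).side F ↔ ∃ p ∈ S.T3.at_ F.1.pt, piK S.T3 S.KK p = q := by
  show q ∈ ((meshC S.T3 h3).side F.1).map _ ↔ _
  rw [mem_map_iff]
  constructor
  · rintro ⟨p, hp, h⟩; exact ⟨p, (C2.mem_side (h3 := h3)).1 hp, h⟩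
  · rintro ⟨p, hp, h⟩; exact ⟨p, (C2.mem_side (h3 := h3)).2 hp, h⟩

theorem mem_side0 {F : S.F0 h3} {q : ι ⊕ κ} :
    q ∈ (S.m0 h3).side F ↔ ∃ p ∈ T.at_ F.1.pt, piK T S.K p = q := by
  show q ∈ ((meshC T h3).side F.1).map _ ↔ _
  rw [mem_map_iff]
  constructor
  · rintro ⟨p, hp, h⟩; exact ⟨p, (C2.mem_side (h3 := h3)).1 hp, h⟩
  · rintro ⟨p, hp, h⟩; exact ⟨p, (C2.mem_side (h3 := h3)).2 hp, h⟩

/-- the faces of the outer mesh -/
theorem nd0_iff {F : C2 T} : (¬ (((meshC T h3).side F).map (piK T S.K)).IsDiag) ↔ S.Out F.pt := by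
  rw [diag_iff h3 (fun c => (S.hH c).core) (fun c => (S.hH c).sub) (fun c => (S.hH c).cc) S.dis F]
  push Not
  constructor
  · intro h
    exact ⟨F.pt_mem, fun c hc => h c (in_iff.1 hc)⟩
  · rintro ⟨_, h⟩ c hc
    exact h c (in_iff.2 hc)

/-- when a cell is a face of the inner mesh -/
theorem nd_iff {F : C2 S.T3} (hx : x ∈ Om) (h : F.pt ∈ S.T3.oc x) :
    (¬ (((meshC S.T3 h3).side F).map (piK S.T3 S.KK)).IsDiag) ↔
      ∀ c, ¬ (x ∈ S.K c ∧ S.φ c x < S.t c (S.n c)) := by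
  rw [diag_iff h3 core_KK KK_sub hs_KK dis_KK F]
  push Not
  refine forall_congr' fun c => ?_
  have h1 : F.pt ∈ interior (S.KK c) ↔ x ∈ interior (S.KK c) := by
    constructor
    · intro h2
      exact mem_int_of_cc (closed_KK c) (hs_KK c) hx (S.T3.oc_sub_cc _ h) h2
    · intro h2
      exact mem_int_of_cc (closed_KK c) (hs_KK c) F.pt_mem
        (S.T3.oc_sub_cc _ (oc_symm hx h)) h2
  rw [h1, mem_int_KK, not_and, not_lt]

theorem nd_mk (hx : x ∈ Om) (hd : S.T3.dim x = 2)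
    (h : ∀ c, ¬ (x ∈ S.K c ∧ S.φ c x < S.t c (S.n c))) :
    ¬ (((meshC S.T3 h3).side (mk2 S.T3 hx hd)).map (piK S.T3 S.KK)).IsDiag :=
  (nd_iff hx (mk2_pt hx hd)).2 h

theorem nd_pt (F : S.Fn h3) (c : κ) (h1 : F.1.pt ∈ S.K c) : S.t c (S.n c) ≤ S.φ c F.1.pt := by
  by_contra h
  exact (nd_iff F.1.pt_mem (S.T3.self_mem_oc _)).1 F.2 c ⟨h1, not_le.1 h⟩

theorem OnS.not_int (h : S.OnS c j x) (c' : κ) :
    ¬ (x ∈ S.K c' ∧ S.φ c' x < S.t c' (S.n c')) := by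
  rintro ⟨h1, h2⟩
  have h4 : c = c' := S.core_unique h.1 h1
  subst h4
  rw [h.2.2] at h2
  have := S.t_le h.2.1 le_rfl
  linarith

theorem InL.not_int (h : S.InL c j x) (c' : κ) :
    ¬ (x ∈ S.K c' ∧ S.φ c' x < S.t c' (S.n c')) := by
  rintro ⟨h1, h2⟩
  have h4 : c = c' := S.core_unique h.1 h1
  subst h4
  have h5 := h.2.2.1
  have := S.t_le (c := c) (show j + 1 ≤ S.n c from h.2.1) le_rfl
  linarith

/-! ### faces of the shell -/

theorem fk_sub (G : (S.sh h3 c).Fk) : G.1.1.set ⊆ frontier (S.K c) :=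
  (face_iff h3 (fun c => (S.hH c).core) (fun c => (S.hH c).sub) (fun c => (S.hH c).cc) S.dis
    G.1.1 c).2 ⟨G.1.2, G.2⟩

theorem fk_fr (G : (S.sh h3 c).Fk) : G.1.1.pt ∈ frontier (S.K c) := by
  refine fk_sub G ?_
  rw [G.1.1.set_eq]; exact T.self_mem_cc _

theorem fk_onS (G : (S.sh h3 c).Fk) : S.OnS c 0 G.1.1.pt := onS_fr (fk_fr G)

theorem fk_bd (G : (S.sh h3 c).Fk) : G.1.1.pt ∈ S.Bd c := (fk_onS G).bd

theorem fk_D (G : (S.sh h3 c).Fk) : S.D c G.1.1.pt = 3 := by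
  rw [D_fr (fk_fr G), G.1.1.dim_pt]

theorem mem_set_fk (G : (S.sh h3 c).Fk) :
    y ∈ G.1.1.set ↔ y ∈ S.C c G.1.1.pt ∧ S.φ c y = S.t c 0 := by
  rw [G.1.1.set_eq, ← (out_fr (fk_fr G)).cc, (fk_onS G).cc]

theorem fk_eq {G G' : (S.sh h3 c).Fk} (h : G'.1.1.pt ∈ S.O c G.1.1.pt) : G = G' := by
  apply Subtype.ext
  apply Subtype.ext
  apply C2.ext
  rw [G.1.1.set_eq, G'.1.1.set_eq]
  exact (T.cc_eq_of_mem_oc G.1.1.pt_mem ((O_fr (fk_fr G) (fk_fr G')).1 h)).symm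

/-- the face of a point -/
noncomputable def fx (h3 : Module.finrank ℝ E = 3) (hx : x ∈ frontier (S.K c))
    (hd : T.dim x = 2) : (S.sh h3 c).Fk :=
  ⟨⟨mk2 T (out_fr hx).1 hd, ((face_iff h3 (fun c => (S.hH c).core) (fun c => (S.hH c).sub)
    (fun c => (S.hH c).cc) S.dis (mk2 T (out_fr hx).1 hd) c).1 ((S.hH c).cc x hx)).1⟩,
    ((face_iff h3 (fun c => (S.hH c).core) (fun c => (S.hH c).sub)
    (fun c => (S.hH c).cc) S.dis (mk2 T (out_fr hx).1 hd) c).1 ((S.hH c).cc x hx)).2⟩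

theorem fx_O (hx : x ∈ frontier (S.K c)) (hd : T.dim x = 2) :
    (fx h3 hx hd).1.1.pt ∈ S.O c x :=
  (O_fr hx (fk_fr _)).2 (mk2_pt (out_fr hx).1 hd)

/-! ### the data -/

theorem hf_aux (G : (S.sh h3 c).Fk) (j : ℕ) : S.T3.dim (S.hc c G.1.1.pt j) = 2 := by
  have h1 := hc_dim3 (fk_bd G) j
  have h2 := fk_D G
  omega

/-- the copy of the face `G` on the level `j` -/
noncomputable def hf (G : (S.sh h3 c).Fk) (j : ℕ) : S.Fn h3 :=
  ⟨mk2 S.T3 (hc_onS' (fk_bd G) j).mem (hf_aux G j),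
    nd_mk _ _ fun c' => (hc_onS' (fk_bd G) j).not_int c'⟩

theorem vf_aux (e : S.Ed c) (j : ℕ) : S.T3.dim (S.vc c e.1.pt j) = 2 := by
  rw [vc_dim3 (ed_bd e) j, ed_D e]

/-- the vertical face over the edge `e` in the layer `j` -/
noncomputable def vf (h3 : Module.finrank ℝ E = 3) (e : S.Ed c) (j : ℕ) : S.Fn h3 :=
  ⟨mk2 S.T3 (vc_inL' (ed_bd e) j).mem (vf_aux e j),
    nd_mk _ _ fun c' => (vc_inL' (ed_bd e) j).not_int c'⟩

theorem tg_aux (G : (S.sh h3 c).Fk) (j : ℕ) :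
    S.T3.dim (S.vc c G.1.1.pt j) = Module.finrank ℝ E := by
  rw [vc_dim3 (fk_bd G) j, fk_D G, h3]

/-- the tile over the face `G` in the layer `j` -/
noncomputable def tg (G : (S.sh h3 c).Fk) (j : ℕ) : T.RIdx S.HH :=
  tl S.T3 (vc_inL' (fk_bd G) j).mem (tg_aux G j)

theorem hf_set (G : (S.sh h3 c).Fk) (hj : j ≤ S.n c) :
    y ∈ (hf G j).1.set ↔ y ∈ S.C c G.1.1.pt ∧ S.φ c y = S.t c j :=
  mem_cc_hc (fk_bd G) hj

theorem vf_set (e : S.Ed c) (hj : j < S.n c) :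
    y ∈ (vf h3 e j).1.set ↔ y ∈ S.C c e.1.pt ∧ S.t c (j + 1) ≤ S.φ c y ∧ S.φ c y ≤ S.t c j :=
  mem_cc_vc (ed_bd e) hj

theorem tg_P (G : (S.sh h3 c).Fk) (hj : j < S.n c) :
    y ∈ P (S.T3.H (tg G j)) ↔
      y ∈ S.C c G.1.1.pt ∧ S.t c (j + 1) ≤ S.φ c y ∧ S.φ c y ≤ S.t c j := by
  have h1 := tl_P (T := S.T3) (vc_inL' (fk_bd G) j).mem (tg_aux G j)
  show y ∈ P (S.T3.H (tl S.T3 _ _)) ↔ _
  rw [h1]
  exact mem_cc_vc (fk_bd G) hj

theorem hf_pt (G : (S.sh h3 c).Fk) (hj : j ≤ S.n c) :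
    (hf G j).1.pt ∈ S.O c G.1.1.pt ∧ S.φ c (hf G j).1.pt = S.t c j :=
  (mem_oc_hc (fk_bd G) hj).1 (mk2_pt (T := S.T3) (hc_onS' (fk_bd G) j).mem (hf_aux G j))

theorem vf_pt (e : S.Ed c) (hj : j < S.n c) :
    (vf h3 e j).1.pt ∈ S.O c e.1.pt ∧ S.t c (j + 1) < S.φ c (vf h3 e j).1.pt ∧
      S.φ c (vf h3 e j).1.pt < S.t c j :=
  (mem_oc_vc (ed_bd e) hj).1 (mk2_pt (T := S.T3) (vc_inL' (ed_bd e) j).mem (vf_aux e j))

theorem hf_onS (G : (S.sh h3 c).Fk) (hj : j ≤ S.n c) : S.OnS c j (hf G j).1.pt :=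
  onS_of_C (fk_bd G) (O_C (fk_bd G) (hf_pt G hj).1) hj (hf_pt G hj).2

theorem vf_inL (e : S.Ed c) (hj : j < S.n c) : S.InL c j (vf h3 e j).1.pt :=
  inL_of_C (ed_bd e) (O_C (ed_bd e) (vf_pt e hj).1) hj (vf_pt e hj).2.1 (vf_pt e hj).2.2

/-- recognition of the horizontal faces -/
theorem eq_hf {F : S.Fn h3} {G : (S.sh h3 c).Fk} (hj : j ≤ S.n c)
    (h : F.1.pt ∈ S.O c G.1.1.pt) (h' : S.φ c F.1.pt = S.t c j) : F = hf G j := by
  apply Subtype.ext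
  refine c2_eq_mk (hc_onS' (fk_bd G) j).mem (hf_aux G j) ?_
  rw [F.1.set_eq]
  refine S.T3.oc_sub_cc _ (oc_symm (hc_onS (fk_bd G) hj).mem ?_)
  exact (mem_oc_hc (fk_bd G) hj).2 ⟨h, h'⟩

theorem eq_vf {F : S.Fn h3} {e : S.Ed c} (hj : j < S.n c)
    (h : F.1.pt ∈ S.O c e.1.pt) (h1 : S.t c (j + 1) < S.φ c F.1.pt)
    (h2 : S.φ c F.1.pt < S.t c j) : F = vf h3 e j := by
  apply Subtype.ext
  refine c2_eq_mk (vc_inL' (ed_bd e) j).mem (vf_aux e j) ?_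
  rw [F.1.set_eq]
  refine S.T3.oc_sub_cc _ (oc_symm (vc_inL (ed_bd e) hj).mem ?_)
  exact (mem_oc_vc (ed_bd e) hj).2 ⟨h, h1, h2⟩

/-- every face on a slice is horizontal -/
theorem exists_hf {F : S.Fn h3} (h : S.OnS c j F.1.pt) :
    ∃ G : (S.sh h3 c).Fk, F = hf G j := by
  have hd : S.D c F.1.pt = 3 := by
    have h1 := h.dim3
    have h2 := F.1.dim_pt
    omega
  have hd3 : T.dim (S.hc c F.1.pt 0) = 2 := by
    have := base_dim h.bd; omega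
  refine ⟨fx h3 (base_fr h.bd) hd3, eq_hf h.2.1 ?_ h.2.2⟩
  exact O_symm h.bd (O_trans h.bd (hc_O h.bd 0) (fx_O (base_fr h.bd) hd3))

/-- every face in a layer is vertical -/
theorem exists_vf {F : S.Fn h3} (h : S.InL c j F.1.pt) :
    ∃ e : S.Ed c, e.1.pt ∈ S.O c F.1.pt ∧ F = vf h3 e j := by
  have hd : S.D c F.1.pt = 2 := by
    rw [← h.dim3]; exact F.1.dim_pt
  have hd3 : T.dim (S.hc c F.1.pt 0) = 1 := by
    have := base_dim h.bd; omega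
  have h1 : (edx (base_fr h.bd) hd3).1.pt ∈ S.O c F.1.pt :=
    O_trans h.bd (hc_O h.bd 0) (edx_O (base_fr h.bd) hd3)
  exact ⟨edx (base_fr h.bd) hd3, h1, eq_vf h.2.1 (O_symm h.bd h1) h.2.2.1 h.2.2.2⟩

theorem face_cases {F : S.Fn h3} (h : F.1.pt ∈ S.K c) :
    (∃ j, S.OnS c j F.1.pt) ∨ ∃ j, S.InL c j F.1.pt := onS_or_inL h (nd_pt F c h)

/-! ### sides -/

theorem piK_inl' {q : T.RIdx S.HH} (h : ∀ c, ¬ P (S.T3.H q) ⊆ S.KK c) :
    piK S.T3 S.KK q = Sum.inl q := piK_inl.2 ⟨rfl, h⟩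

theorem tg_not (G : (S.sh h3 c).Fk) (hj : j < S.n c) (c' : κ) :
    ¬ P (S.T3.H (tg G j)) ⊆ S.KK c' := by
  intro h
  have h1 := vc_inL (fk_bd G) hj
  have h2 : S.vc c G.1.1.pt j ∈ P (S.T3.H (tg G j)) := by
    rw [tg_P G hj]
    exact ⟨O_C (fk_bd G) (vc_O (fk_bd G) j), h1.2.2.1.le, h1.2.2.2.le⟩
  have h4 := mem_KK.1 (h h2)
  have h5 : c = c' := S.core_unique h1.1 h4.1
  subst h5
  have h6 := h4.2
  have h7 := h1.2.2.1
  have := S.t_le (c := c) (show j + 1 ≤ S.n c from hj) le_rfl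
  linarith

theorem tg_mem_side {F : S.Fn h3} (G : (S.sh h3 c).Fk) (hj : j < S.n c) :
    (Sum.inl (tg G j) : T.RIdx S.HH ⊕ κ) ∈ (S.mn h3).side F ↔
      F.1.pt ∈ S.C c G.1.1.pt ∧ S.t c (j + 1) ≤ S.φ c F.1.pt ∧ S.φ c F.1.pt ≤ S.t c j := by
  rw [mem_sideN, ← tg_P G hj]
  constructor
  · rintro ⟨p, hp, h⟩
    obtain ⟨h1, _⟩ := piK_inl.1 h
    rw [← h1]; exact hp
  · intro h
    exact ⟨tg G j, h, piK_inl' (tg_not G hj)⟩

theorem tg_inj {G G' : (S.sh h3 c).Fk} {j' : ℕ} (hj : j < S.n c) (hj' : j' < S.n c)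
    (h : tg G j = tg G' j') : G = G' ∧ j = j' := by
  have h1 := vc_inL (fk_bd G') hj'
  have h2 : S.vc c G'.1.1.pt j' ∈ P (S.T3.H (tg G j)) := by
    rw [h, tg_P G' hj']
    exact ⟨O_C (fk_bd G') (vc_O (fk_bd G') j'), h1.2.2.1.le, h1.2.2.2.le⟩
  rw [tg_P G hj] at h2
  obtain ⟨h3', h4, h5⟩ := h2
  constructor
  · have h6 : S.vc c G'.1.1.pt j' ∈ S.O c G.1.1.pt := by
      refine O_of_dim (fk_bd G) h1.bd h3' ?_
      rw [vc_D (fk_bd G') j', fk_D G, fk_D G']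
    exact fk_eq (O_trans (fk_bd G) h6 (O_symm (fk_bd G') (vc_O (fk_bd G') j')))
  · rcases lt_trichotomy j j' with h7 | h7 | h7
    · have := S.t_le (c := c) (show j + 1 ≤ j' by omega) hj'.le
      have := h1.2.2.2
      linarith
    · exact h7
    · have := S.t_le (c := c) (show j' + 1 ≤ j by omega) hj.le
      have := h1.2.2.1
      linarith

theorem hf_inj {G G' : (S.sh h3 c).Fk} {j' : ℕ} (hj : j ≤ S.n c) (hj' : j' ≤ S.n c)
    (h : hf G j = hf G' j') : G = G' ∧ j = j' := by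
  have h1 := hf_pt G hj
  have h2 := hf_pt G' hj'
  rw [← h] at h2
  exact ⟨fk_eq (O_trans (fk_bd G) h1.1 (O_symm (fk_bd G') h2.1)),
    S.t_inj hj hj' (h1.2.symm.trans h2.2)⟩

theorem vf_inj {e e' : S.Ed c} {j' : ℕ} (hj : j < S.n c) (hj' : j' < S.n c)
    (h : vf h3 e j = vf h3 e' j') : e = e' ∧ j = j' := by
  have h1 := vf_pt (h3 := h3) e hj
  have h2 := vf_pt (h3 := h3) e' hj'
  rw [← h] at h2
  refine ⟨ed_eq (O_trans (ed_bd e) h1.1 (O_symm (ed_bd e') h2.1)), ?_⟩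
  have h4 := vf_inL (h3 := h3) e hj
  have h5 := vf_inL (h3 := h3) e' hj'
  rw [← h] at h5
  exact layer_inj h4 h5

theorem side_top (G : (S.sh h3 c).Fk) :
    (Sum.inl (tg G 0) : T.RIdx S.HH ⊕ κ) ∈ (S.mn h3).side (hf G 0) := by
  rw [tg_mem_side G (S.npos c)]
  have h := hf_pt G (Nat.zero_le _)
  exact ⟨O_C (fk_bd G) h.1, by rw [h.2]; exact (S.anti c 0 (S.npos c)).le, h.2.le⟩

theorem side_mid (G : (S.sh h3 c).Fk) (hj : j + 1 < S.n c) :
    (S.mn h3).side (hf G (j + 1)) = s(Sum.inl (tg G j), Sum.inl (tg G (j + 1))) := by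
  have hne : (Sum.inl (tg G j) : T.RIdx S.HH ⊕ κ) ≠ Sum.inl (tg G (j + 1)) := by
    intro h
    have := (tg_inj (by omega) hj (Sum.inl_injective h)).2
    omega
  rw [← Sym2.mem_and_mem_iff hne, tg_mem_side G (by omega), tg_mem_side G hj]
  have h := hf_pt G hj.le
  have h1 := O_C (fk_bd G) h.1
  exact ⟨⟨h1, h.2.ge, by rw [h.2]; exact (S.anti c j (by omega)).le⟩,
    ⟨h1, by rw [h.2]; exact (S.anti c (j + 1) hj).le, h.2.le⟩⟩

theorem kk_mem_side {F : S.Fn h3} (h : S.OnS c (S.n c) F.1.pt) :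
    (Sum.inr c : T.RIdx S.HH ⊕ κ) ∈ (S.mn h3).side F := by
  have h1 : F.1.pt ∈ S.KK c := mem_KK.2 ⟨h.1, h.2.2.le⟩
  obtain ⟨q, hq, hqK⟩ := S.T3.exists_inner (core_KK c) (KK_sub c) (hs_KK c) h1
  rw [mem_sideN]
  exact ⟨q, hq, (piK_inr dis_KK).2 hqK⟩

theorem side_bot (G : (S.sh h3 c).Fk) (hj : j + 1 = S.n c) :
    (S.mn h3).side (hf G (S.n c)) = s(Sum.inl (tg G j), Sum.inr c) := by
  have hne : (Sum.inl (tg G j) : T.RIdx S.HH ⊕ κ) ≠ Sum.inr c := by simp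
  rw [← Sym2.mem_and_mem_iff hne, tg_mem_side G (by omega)]
  have h := hf_pt G (le_refl (S.n c))
  refine ⟨⟨O_C (fk_bd G) h.1, by rw [h.2, hj], ?_⟩, kk_mem_side (hf_onS G le_rfl)⟩
  rw [h.2]; exact S.t_le (by omega) le_rfl

/-- the faces of the shell at an edge -/
theorem fc_C (e : S.Ed c) (b : Bool) :
    e.1.pt ∈ S.C c
      ((⟨(S.sh h3 c).fc e b, (S.sh h3 c).fc_side e b⟩ : (S.sh h3 c).Fk).1.1.pt) := by
  have h := (fcK_sub (h3 := h3) (hK := fun c => (S.hH c).core) (hKO := fun c => (S.hH c).sub)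
    (hs := fun c => (S.hH c).cc) e b).2
  have h1 := h (e.1.opn_sub (T.self_mem_oc _))
  have h2 := (mem_set_fk (⟨(S.sh h3 c).fc e b, (S.sh h3 c).fc_side e b⟩ : (S.sh h3 c).Fk)).1 h1
  exact h2.1

theorem side_vf (e : S.Ed c) (hj : j < S.n c) : (S.mn h3).side (vf h3 e j) =
    s(Sum.inl (tg (⟨(S.sh h3 c).fc e false, (S.sh h3 c).fc_side e false⟩ : (S.sh h3 c).Fk) j),
      Sum.inl (tg (⟨(S.sh h3 c).fc e true, (S.sh h3 c).fc_side e true⟩ : (S.sh h3 c).Fk) j)) := by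
  have hne : (Sum.inl (tg (⟨(S.sh h3 c).fc e false, (S.sh h3 c).fc_side e false⟩ :
      (S.sh h3 c).Fk) j) : T.RIdx S.HH ⊕ κ) ≠
      Sum.inl (tg (⟨(S.sh h3 c).fc e true, (S.sh h3 c).fc_side e true⟩ : (S.sh h3 c).Fk) j) := by
    intro h
    have := (tg_inj hj hj (Sum.inl_injective h)).1
    exact (S.sh h3 c).fc_ne e (congrArg Subtype.val this)
  rw [← Sym2.mem_and_mem_iff hne, tg_mem_side _ hj, tg_mem_side _ hj]
  have h := vf_pt (h3 := h3) e hj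
  have h1 := fun b => C_sub (fk_bd _) (ed_bd e) (fc_C (h3 := h3) e b) (O_C (ed_bd e) h.1)
  exact ⟨⟨h1 false, h.2.1.le, h.2.2.le⟩, ⟨h1 true, h.2.1.le, h.2.2.le⟩⟩

theorem faces_cl {G : (S.sh h3 c).Fk} {F : S.Fn h3} (hj : j < S.n c)
    (h : (Sum.inl (tg G j) : T.RIdx S.HH ⊕ κ) ∈ (S.mn h3).side F) :
    F = hf G j ∨ F = hf G (j + 1) ∨ ∃ e, (∃ b, (S.sh h3 c).fc e b = G.1) ∧ F = vf h3 e j := by
  rw [tg_mem_side G hj] at h
  obtain ⟨h1, h2, h4⟩ := h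
  have hB := bd_of_C (fk_bd G) h1 hj h2
  have key : ∀ {j'}, S.OnS c j' F.1.pt → F = hf G j' := by
    intro j' h5
    have hd : S.D c F.1.pt = 3 := by
      have e1 := h5.dim3
      have e2 := F.1.dim_pt
      omega
    exact eq_hf h5.2.1 (O_of_dim (fk_bd G) hB h1 (by rw [hd, fk_D G])) h5.2.2
  rcases layer_cases hB hj h2 h4 with h5 | h5 | h5
  · exact Or.inl (key h5)
  · exact Or.inr (Or.inl (key h5))
  · refine Or.inr (Or.inr ?_)
    obtain ⟨e, he1, he2⟩ := exists_vf h5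
    refine ⟨e, ?_, he2⟩
    have h6 : e.1.set ⊆ G.1.1.set := by
      intro y hy
      rw [mem_set_ed] at hy
      rw [mem_set_fk]
      refine ⟨C_sub (fk_bd G) hB h1 ?_, hy.2⟩
      rw [← C_eq hB he1]
      exact hy.1
    obtain ⟨b, hb⟩ := (fcK_iff (h3 := h3) (hK := fun c => (S.hH c).core)
      (hKO := fun c => (S.hH c).sub) (hs := fun c => (S.hH c).cc) e G.1.1).1 ⟨fk_sub G, h6⟩
    exact ⟨b, Subtype.ext hb⟩

theorem faces_kk {F : S.Fn h3}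
    (h : (Sum.inr c : T.RIdx S.HH ⊕ κ) ∈ (S.mn h3).side F) :
    ∃ G : (S.sh h3 c).Fk, F = hf G (S.n c) := by
  have h1 : F.1.set ⊆ frontier (S.KK c) :=
    (face_iff h3 core_KK KK_sub hs_KK dis_KK F.1 c).2 ⟨F.2, h⟩
  have h2 : F.1.pt ∈ frontier (S.KK c) := h1 (by rw [F.1.set_eq]; exact S.T3.self_mem_cc _)
  exact exists_hf (mem_fr_KK.1 h2)

end Sla

end Crest.Agent.R096.Sla_184
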