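import Crest.Agent.R096.Sla4_184

/-!
# Row 96, DOORS, leaf SLC in the format of `Mbf_337.Tiny` (helper184), part 5: the points on the
faces, cyclic orders, the collars.
-/

set_option autoImplicit false
set_option linter.unusedSectionVars false

open Set Filter Topology Metric
open scoped Classical

namespace Crest.Agent.R096.Sla_184

open Crest.Agent.R096.Msh_715 Crest.Agent.R096.Agl5_543 Crest.Agent.R096.St_147
  Crest.Agent.R096.Lac_441 Crest.Agent.R096.Slc_184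

variable {E : Type} [NormedAddCommGroup E] [NormedSpace ℝ E] [FiniteDimensional ℝ E]
variable {Om : Set E} {ι : Type}

namespace Sla

variable {T : Tiling Om ι} {κ : Type}
variable {S : Sla T κ} {h3 : Module.finrank ℝ E = 3} {c : κ} {x y z w : E} {j : ℕ}

theorem mem_onK {F : S.Fn h3} : w ∈ (S.mn h3).On F ↔ w ∈ F.1.set ∧ S.T3.dim w = 1 := Iff.rfl

theorem mem_onK0 {F : S.F0 h3} : w ∈ (S.m0 h3).On F ↔ w ∈ F.1.set ∧ T.dim w = 1 := Iff.rfl

theorem mem_onE {e : S.Ed c} : w ∈ (S.sh h3 c).OnE e ↔ w ∈ e.1.opn := Iff.rfl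

theorem ed_opn_fr (e : S.Ed c) (hw : w ∈ e.1.opn) : w ∈ frontier (S.K c) :=
  e.2.2 (e.1.opn_sub hw)

theorem ed_opn_onS (e : S.Ed c) (hw : w ∈ e.1.opn) : S.OnS c 0 w := onS_fr (ed_opn_fr e hw)

theorem ed_opn_bd (e : S.Ed c) (hw : w ∈ e.1.opn) : w ∈ S.Bd c := (ed_opn_onS e hw).bd

theorem ed_opn_O (e : S.Ed c) (hw : w ∈ e.1.opn) : w ∈ S.O c e.1.pt := ((mem_opn_ed e).1 hw).1

theorem ed_opn_dim (e : S.Ed c) (hw : w ∈ e.1.opn) : T.dim w = 1 :=
  (T.dim_eq_of_mem_oc e.1.pt_mem hw).trans e.2.1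

theorem hp_O' (e : S.Ed c) (hw : w ∈ e.1.opn) (hj : j ≤ S.n c) : S.hp c j w ∈ S.O c w :=
  O_trans (ed_opn_bd e hw) (O_symm (ed_bd e) (ed_opn_O e hw)) (hp_O e hw hj)

theorem on_hf {G : (S.sh h3 c).Fk} (hj : j ≤ S.n c) :
    x ∈ (S.mn h3).On (hf G j) ↔ ∃ w ∈ (S.m0 h3).On G.1, x = S.hp c j w := by
  rw [mem_onK, hf_set G hj]
  constructor
  · rintro ⟨⟨h1, h2⟩, h4⟩
    have hS := onS_of_C (fk_bd G) h1 hj h2
    obtain ⟨e, he, -, w, hw, rfl⟩ := exists_hp_of hS h4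
    refine ⟨w, ?_, rfl⟩
    rw [mem_onK0, mem_set_fk]
    refine ⟨⟨?_, (ed_opn_onS e hw).2.2⟩, ed_opn_dim e hw⟩
    exact C_sub (fk_bd G) hS.bd h1 (O_C hS.bd (O_trans hS.bd he (ed_opn_O e hw)))
  · rintro ⟨w, hw, rfl⟩
    rw [mem_onK0, mem_set_fk] at hw
    obtain ⟨⟨h1, h2⟩, h4⟩ := hw
    have hS := onS_of_C (fk_bd G) h1 (Nat.zero_le _) h2
    have hw' := edx_opn hS.fr h4
    exact ⟨⟨C_sub (fk_bd G) hS.bd h1 (O_C hS.bd (hp_O' _ hw' hj)), (hp_onS _ hw' hj).2.2⟩,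
      hp_dim3 _ hw' hj⟩

theorem on_vf_hp {e e' : S.Ed c} {i : ℕ} (hj : j ≤ S.n c) (hi : i < S.n c)
    (hw : w ∈ e.1.opn) : S.hp c j w ∈ (S.mn h3).On (vf h3 e' i) ↔ e' = e ∧ (j = i ∨ j = i + 1) := by
  rw [mem_onK, vf_set e' hi, (hp_onS e hw hj).2.2]
  constructor
  · rintro ⟨⟨h1, h2, h4⟩, _⟩
    constructor
    · have h5 : S.hp c j w ∈ S.O c e'.1.pt := by
        refine O_of_dim (ed_bd e') (hp_onS e hw hj).bd h1 ?_
        rw [hp_D e hw hj, ed_D e']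
      exact ed_eq (O_trans (ed_bd e') h5 (O_symm (ed_bd e) (hp_O e hw hj)))
    · by_contra hne
      push Not at hne
      rcases Nat.lt_or_ge j i with h | h
      · have := S.t_lt h hi.le
        linarith
      · have := S.t_lt (c := c) (show i + 1 < j by omega) hj
        linarith
  · rintro ⟨rfl, h⟩
    refine ⟨⟨O_C (ed_bd _) (hp_O _ hw hj), ?_⟩, hp_dim3 _ hw hj⟩
    rcases h with rfl | rfl
    · exact ⟨(S.anti c j hi).le, le_rfl⟩
    · exact ⟨le_rfl, (S.anti c i hi).le⟩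

theorem on_vf_vp {v : S.Vx c} {e : S.Ed c} {i : ℕ} (hj : j < S.n c) (hi : i < S.n c) :
    S.vc c v.1 j ∈ (S.mn h3).On (vf h3 e i) ↔ j = i ∧ ∃ b, (S.sh h3 c).en e b = v := by
  rw [mem_onK, vf_set e hi]
  have hL := vc_inL (vx_bd v) hj
  have hen : (∃ b, (S.sh h3 c).en e b = v) ↔ v.1 ∈ e.1.set := by
    rw [endp_iff e.2.1 v.2.1]
    exact ⟨fun ⟨b, hb⟩ => ⟨b, congrArg Subtype.val hb⟩, fun ⟨b, hb⟩ => ⟨b, Subtype.ext hb⟩⟩
  rw [hen, mem_set_ed]
  constructor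
  · rintro ⟨⟨h1, h2, h4⟩, _⟩
    constructor
    · rcases lt_trichotomy j i with h7 | h7 | h7
      · have := S.t_le (c := c) (show j + 1 ≤ i by omega) hi.le
        have := hL.2.2.1
        linarith
      · exact h7
      · have := S.t_le (c := c) (show i + 1 ≤ j by omega) hj.le
        have := hL.2.2.2
        linarith
    · refine ⟨?_, (vx_onS v).2.2⟩
      exact C_sub (ed_bd e) hL.bd h1 (O_C hL.bd (O_symm (vx_bd v) (vc_O (vx_bd v) j)))
  · rintro ⟨rfl, h1, _⟩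
    refine ⟨⟨C_sub (ed_bd e) (vx_bd v) h1 (O_C (vx_bd v) (vc_O (vx_bd v) j)), hL.2.2.1.le,
      hL.2.2.2.le⟩, ?_⟩
    rw [vc_dim3 (vx_bd v) j, vx_D v]

theorem faces_hp {e : S.Ed c} {F : S.Fn h3} (h0 : 0 < j) (hj : j ≤ S.n c)
    (hw : w ∈ e.1.opn) (h : S.hp c j w ∈ (S.mn h3).On F) :
    (∃ G : (S.sh h3 c).Fk, F = hf G j) ∨ ∃ e i, i < S.n c ∧ F = vf (c := c) h3 e i := by
  rw [mem_onK, F.1.set_eq] at h
  have hS := hp_onS e hw hj
  obtain ⟨hU, hlt⟩ := cc3_low F.1.pt_mem h.1 (hS.bo h0) (Nat.zero_le _)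
    (by rw [hS.2.2]; exact S.t_lt h0 hj)
  rcases face_cases hU.1 with ⟨i, hi⟩ | ⟨i, hi⟩
  · left
    have h1 := (hi.cc.1 h.1).2
    rw [hS.2.2] at h1
    have : j = i := S.t_inj hj hi.2.1 h1
    subst this
    exact exists_hf hi
  · right
    obtain ⟨e', _, he'⟩ := exists_vf hi
    exact ⟨e', i, hi.2.1, he'⟩

theorem faces_vp {v : S.Vx c} {F : S.Fn h3} (hj : j < S.n c)
    (h : S.vc c v.1 j ∈ (S.mn h3).On F) : ∃ e : S.Ed c, F = vf h3 e j := by
  rw [mem_onK, F.1.set_eq] at h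
  have hL := vc_inL (vx_bd v) hj
  obtain ⟨hU, hlt⟩ := cc3_low F.1.pt_mem h.1 hL.bo hj.le hL.2.2.2
  have hgt := cc3_high F.1.pt_mem h.1 hL.bo (Nat.succ_pos j) hj hL.2.2.1
  obtain ⟨e, _, he⟩ := exists_vf (h3 := h3) (c := c) (j := j) (F := F) ⟨hU.1, hj, hgt, hlt⟩
  exact ⟨e, he⟩

/-! ### the cyclic order on the horizontal faces -/

/-- the copy of the boundary of a face -/
noncomputable def eta (S : Sla T κ) (c : κ) (j : ℕ) (w : E) : E :=
  if T.dim w = 0 then S.hc c w j else S.hp c j w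

theorem eta_zero (h : T.dim w = 0) : S.eta c j w = S.hc c w j := if_pos h

theorem eta_one (h : T.dim w = 1) : S.eta c j w = S.hp c j w := by
  unfold eta
  rw [if_neg (by omega)]

theorem eta_O (hw : w ∈ frontier (S.K c)) (hd : T.dim w ≤ 1) (hj : j ≤ S.n c) :
    S.eta c j w ∈ S.O c w := by
  rcases Nat.lt_or_ge (T.dim w) 1 with h | h
  · rw [eta_zero (by omega)]; exact hc_O (fr_Bd hw) j
  · have h1 : T.dim w = 1 := by omega
    rw [eta_one h1]
    exact hp_O' _ (edx_opn hw h1) hj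

theorem eta_onS (hw : w ∈ frontier (S.K c)) (hd : T.dim w ≤ 1) (hj : j ≤ S.n c) :
    S.OnS c j (S.eta c j w) := by
  rcases Nat.lt_or_ge (T.dim w) 1 with h | h
  · rw [eta_zero (by omega)]; exact hc_onS (fr_Bd hw) hj
  · have h1 : T.dim w = 1 := by omega
    rw [eta_one h1]
    exact hp_onS _ (edx_opn hw h1) hj

theorem eta_dim3 (hw : w ∈ frontier (S.K c)) (hd : T.dim w ≤ 1) (hj : j ≤ S.n c) :
    S.T3.dim (S.eta c j w) = T.dim w := by
  have h1 := (eta_onS hw hd hj).dim3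
  have h4 := D_eq (fr_Bd hw) (eta_O hw hd hj)
  have h5 := D_fr hw
  omega

theorem eta_inj {w' : E} (hw : w ∈ frontier (S.K c)) (hd : T.dim w ≤ 1)
    (hw' : w' ∈ frontier (S.K c)) (hd' : T.dim w' ≤ 1) (hj : j ≤ S.n c)
    (h : S.eta c j w = S.eta c j w') : w = w' := by
  have h1 := eta_O hw hd hj
  have h2 := eta_O hw' hd' hj
  rw [← h] at h2
  have h4 : w' ∈ S.O c w := O_trans (fr_Bd hw) h1 (O_symm (fr_Bd hw') h2)
  have h5 : T.dim w' = T.dim w := by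
    rw [← eta_dim3 hw hd hj, h, eta_dim3 hw' hd' hj]
  rcases Nat.lt_or_ge (T.dim w) 1 with h6 | h6
  · have h7 : S.D c w = 1 := by rw [D_fr hw]; omega
    exact lv_unique (fr_Bd hw) h7 (self_C (fr_Bd hw)) (O_C (fr_Bd hw) h4)
      ((onS_fr hw).2.2.trans (onS_fr hw').2.2.symm)
  · have h7 : T.dim w = 1 := by omega
    have h8 : T.dim w' = 1 := by omega
    rw [eta_one h7, eta_one h8] at h
    exact (hp_inj hj hj (edx_opn hw h7) (edx_opn hw' h8) h).2

/-- `eta` is affine on the closed edges -/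
theorem eta_seg (e : S.Ed c) (j : ℕ) {s : ℝ} (hs : s ∈ Icc (0 : ℝ) 1) :
    S.eta c j (endp e.1 false + s • (endp e.1 true - endp e.1 false)) =
      S.hc c (endp e.1 false) j + s • (S.hc c (endp e.1 true) j - S.hc c (endp e.1 false) j) := by
  rcases eq_or_lt_of_le hs.1 with h | h
  · rw [← h, zero_smul, add_zero, zero_smul, add_zero, eta_zero (endp_mem e.2.1 false).2]
  · rcases eq_or_lt_of_le hs.2 with h' | h'
    · rw [h', one_smul, one_smul, add_sub_cancel, add_sub_cancel,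
        eta_zero (endp_mem e.2.1 true).2]
    · obtain ⟨h1, h2⟩ := par_eq e.2.1 (s := s) ⟨h, h'⟩
      have h4 := hp_eq e h1 j
      rw [h2] at h4
      show S.eta c j (lft e.1 + s • (rgt e.1 - lft e.1)) = _
      rw [eta_one (ed_opn_dim e h1), h4]

theorem eta_cont_ed (e : S.Ed c) (j : ℕ) : ContinuousOn (S.eta c j) e.1.set := by
  obtain ⟨h1, h2, -⟩ := lft_rgt e.2.1
  -- an affine retraction on the parameter
  have hne : rgt e.1 - lft e.1 ≠ 0 := sub_ne_zero.2 h1.symm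
  obtain ⟨l, -, hl⟩ := exists_dual_vector ℝ _ (norm_ne_zero_iff.2 hne)
  have hl' : l (rgt e.1 - lft e.1) = ‖rgt e.1 - lft e.1‖ := by simpa using hl
  set r := ‖rgt e.1 - lft e.1‖ with hr
  have hr0 : r ≠ 0 := norm_ne_zero_iff.2 hne
  have key : ∀ w ∈ e.1.set, S.eta c j w = S.hc c (endp e.1 false) j +
      (l (w - lft e.1) / r) • (S.hc c (endp e.1 true) j - S.hc c (endp e.1 false) j) := by
    intro w hw
    rw [h2, segment_eq_image'] at hw
    obtain ⟨s, hs, rfl⟩ := hw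
    have h4 : l (lft e.1 + s • (rgt e.1 - lft e.1) - lft e.1) / r = s := by
      rw [add_sub_cancel_left, map_smul, smul_eq_mul, hl', mul_div_assoc, div_self hr0, mul_one]
    rw [h4]
    exact eta_seg e j hs
  refine ContinuousOn.congr ?_ key
  apply Continuous.continuousOn
  have : Continuous fun w : E => l (w - lft e.1) / r := by fun_prop
  exact continuous_const.add (this.smul continuous_const)

theorem mem_bd_fk {G : (S.sh h3 c).Fk} :
    y ∈ G.1.1.bd ↔ (y ∈ S.C c G.1.1.pt ∧ S.φ c y = S.t c 0) ∧ T.dim y ≤ 1 := by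
  rw [← mem_set_fk]
  constructor
  · intro h
    exact ⟨h.1, (G.1.1.mem_bd_iff h.1).1 h⟩
  · rintro ⟨h1, h2⟩
    exact (G.1.1.mem_bd_iff h1).2 h2

theorem mem_bd_hf {G : (S.sh h3 c).Fk} (hj : j ≤ S.n c) :
    y ∈ (hf G j).1.bd ↔ (y ∈ S.C c G.1.1.pt ∧ S.φ c y = S.t c j) ∧ S.T3.dim y ≤ 1 := by
  rw [← hf_set G hj]
  constructor
  · intro h
    exact ⟨h.1, ((hf G j).1.mem_bd_iff h.1).1 h⟩
  · rintro ⟨h1, h2⟩
    exact ((hf G j).1.mem_bd_iff h1).2 h2

theorem bd_fk_fr {G : (S.sh h3 c).Fk} (hy : y ∈ G.1.1.bd) :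
    y ∈ frontier (S.K c) ∧ T.dim y ≤ 1 := by
  refine ⟨fk_sub G (G.1.1.bd_sub hy), ?_⟩
  exact (mem_bd_fk.1 hy).2

theorem eta_cont (G : (S.sh h3 c).Fk) (j : ℕ) : ContinuousOn (S.eta c j) G.1.1.bd := by
  -- the edges of the face
  let A := {e : S.Ed c // e.1.set ⊆ G.1.1.set}
  have hfin : Finite A := by
    have h := T.finite_below G.1.1.pt_mem
    have h' : {e : S.Ed c | e.1.set ⊆ G.1.1.set}.Finite := by
      refine Set.Finite.of_finite_image (f := fun e : S.Ed c => e.1.set) (h.subset ?_) ?_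
      · rintro _ ⟨e, he, rfl⟩
        exact ⟨⟨e.1.pt, e.1.pt_mem, e.1.set_eq⟩, by rw [← G.1.1.set_eq]; exact he⟩
      · intro e _ e' _ h
        exact Subtype.ext (Tiling.Cell.ext h)
    exact h'.to_subtype
  have h1 : ContinuousOn (S.eta c j) (⋃ a : A, a.1.1.set) := by
    refine (locallyFinite_of_finite fun a : A => a.1.1.set).continuousOn_iUnion (fun a => ?_)
      fun a => eta_cont_ed a.1 j
    rw [a.1.1.set_eq]; exact T.isClosed_cc _
  refine h1.mono fun y hy => ?_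
  obtain ⟨hf, hd⟩ := bd_fk_fr hy
  have hyG : y ∈ T.cc G.1.1.pt := by rw [← G.1.1.set_eq]; exact G.1.1.bd_sub hy
  rcases Nat.lt_or_ge (T.dim y) 1 with h6 | h6
  · -- a vertex is on an edge
    have h7 : T.dim y = 0 := by omega
    obtain ⟨f, hf⟩ : (T.edgesAt G.1.1.pt y).Nonempty := by
      rw [← ncard_pos (by
        by_contra hcon
        have := Set.Infinite.ncard hcon
        rw [T.two_edges G.1.1.pt_mem G.1.1.dim_pt hyG h7] at this
        omega), T.two_edges G.1.1.pt_mem G.1.1.dim_pt hyG h7]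
      omega
    obtain ⟨hf1, hf2, hf3⟩ := hf
    rw [← G.1.1.set_eq] at hf2
    exact mem_iUnion.2 ⟨⟨⟨f, hf1, hf2.trans (fk_sub G)⟩, hf2⟩, hf3⟩
  · have h7 : T.dim y = 1 := by omega
    refine mem_iUnion.2 ⟨⟨edx hf h7, ?_⟩, (edx hf h7).1.opn_sub (edx_opn hf h7)⟩
    rw [edx_set hf h7, G.1.1.set_eq]
    exact T.cc_sub_of_mem hyG

theorem eta_image (G : (S.sh h3 c).Fk) (hj : j ≤ S.n c) :
    S.eta c j '' G.1.1.bd = (hf G j).1.bd := by
  apply Subset.antisymm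
  · rintro _ ⟨w, hw, rfl⟩
    obtain ⟨hf, hd⟩ := bd_fk_fr hw
    rw [mem_bd_fk] at hw
    rw [mem_bd_hf hj]
    exact ⟨⟨C_sub (fk_bd G) (fr_Bd hf) hw.1.1 (O_C (fr_Bd hf) (eta_O hf hd hj)),
      (eta_onS hf hd hj).2.2⟩, (eta_dim3 hf hd hj).trans_le hd⟩
  · intro y hy
    rw [mem_bd_hf hj] at hy
    obtain ⟨⟨h1, h2⟩, hd⟩ := hy
    have hS := onS_of_C (fk_bd G) h1 hj h2
    rcases Nat.lt_or_ge (S.T3.dim y) 1 with h6 | h6
    · have h7 : S.D c y = 1 := by have := hS.dim3; omega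
      have h8 : T.dim (S.hc c y 0) = 0 := by have := base_dim hS.bd; omega
      have h9 := base_onS hS.bd
      refine ⟨S.hc c y 0, ?_, ?_⟩
      · rw [mem_bd_fk]
        exact ⟨⟨C_sub (fk_bd G) hS.bd h1 (O_C hS.bd (hc_O hS.bd 0)), h9.2.2⟩, by omega⟩
      · rw [eta_zero h8]
        refine lv_unique hS.bd h7 (O_C hS.bd (O_trans hS.bd (hc_O hS.bd 0)
          (hc_O h9.bd j))) (self_C hS.bd) ?_
        rw [(hc_onS h9.bd hj).2.2, h2]
    · have h7 : S.T3.dim y = 1 := by omega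
      have h8 : y ∈ (S.mn h3).On (hf G j) := by
        rw [mem_onK, hf_set G hj]; exact ⟨⟨h1, h2⟩, h7⟩
      obtain ⟨w, hw, rfl⟩ := (on_hf hj).1 h8
      rw [mem_onK0, mem_set_fk] at hw
      refine ⟨w, ?_, eta_one hw.2⟩
      rw [mem_bd_fk]
      exact ⟨hw.1, hw.2.le⟩

theorem lace_hf {G : (S.sh h3 c).Fk} {u v x y : E} (hj : j ≤ S.n c)
    (hu : u ∈ (S.m0 h3).On G.1) (hv : v ∈ (S.m0 h3).On G.1) (hx : x ∈ (S.m0 h3).On G.1)
    (hy : y ∈ (S.m0 h3).On G.1) (hux : u ≠ x) (huy : u ≠ y) (hvx : v ≠ x) (hvy : v ≠ y) :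
    (S.mn h3).Lace (hf G j) (S.hp c j u) (S.hp c j v) (S.hp c j x) (S.hp c j y) ↔
      (S.m0 h3).Lace G.1 u v x y := by
  have hb : ∀ {w : E}, w ∈ (S.m0 h3).On G.1 → w ∈ G.1.1.bd := fun hw => by
    rw [mem_onK0] at hw
    exact (G.1.1.mem_bd_iff hw.1).2 hw.2.le
  have h := lace_homeo h3 h3 G.1.1 (hf G j).1 (eta_cont G j)
    (fun a ha b hb e => eta_inj (bd_fk_fr ha).1 (bd_fk_fr ha).2 (bd_fk_fr hb).1
      (bd_fk_fr hb).2 hj e)
    (eta_image G hj) (hb hu) (hb hv) (hb hx) (hb hy) hux huy hvx hvy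
  rw [eta_one (mem_onK0.1 hu).2, eta_one (mem_onK0.1 hv).2, eta_one (mem_onK0.1 hx).2,
    eta_one (mem_onK0.1 hy).2] at h
  exact h

/-! ### the cyclic order on the vertical faces -/

/-- vertical edge over the end point `b` -/
theorem vert_seg (e : S.Ed c) (b : Bool) (hj : j < S.n c) :
    y ∈ segment ℝ (S.hc c (endp e.1 b) (j + 1)) (S.hc c (endp e.1 b) j) ↔
      y ∈ S.O c (endp e.1 b) ∧ S.t c (j + 1) ≤ S.φ c y ∧ S.φ c y ≤ S.t c j := by
  have hE := endp_bd e b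
  have hP := hc_onS hE hj.le
  have hQ := hc_onS hE hj
  have hPo := hc_O hE j
  have hQo := hc_O hE (j + 1)
  have hlt := S.anti c j hj
  have main : ∀ s ∈ Icc (0 : ℝ) 1,
      S.hc c (endp e.1 b) (j + 1) + s • (S.hc c (endp e.1 b) j - S.hc c (endp e.1 b) (j + 1)) ∈
        S.O c (endp e.1 b) ∧ S.φ c (S.hc c (endp e.1 b) (j + 1) +
          s • (S.hc c (endp e.1 b) j - S.hc c (endp e.1 b) (j + 1))) =
          S.t c (j + 1) + s * (S.t c j - S.t c (j + 1)) := by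
    intro s hs
    have h := O_seg hE hQo hPo hs
    rw [hP.2.2, hQ.2.2] at h
    exact h
  constructor
  · intro hy
    rw [segment_eq_image'] at hy
    obtain ⟨s, hs, rfl⟩ := hy
    obtain ⟨h1, h2⟩ := main s hs
    refine ⟨h1, ?_, ?_⟩
    · show _ ≤ S.φ c (S.hc c (endp e.1 b) (j + 1) +
          s • (S.hc c (endp e.1 b) j - S.hc c (endp e.1 b) (j + 1)))
      rw [h2]; nlinarith [hs.1]
    · show S.φ c (S.hc c (endp e.1 b) (j + 1) +
          s • (S.hc c (endp e.1 b) j - S.hc c (endp e.1 b) (j + 1))) ≤ _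
      rw [h2]; nlinarith [hs.2]
  · rintro ⟨h1, h2, h4⟩
    rw [segment_eq_image']
    have hd : 0 < S.t c j - S.t c (j + 1) := by linarith
    have hs : (S.φ c y - S.t c (j + 1)) / (S.t c j - S.t c (j + 1)) ∈ Icc (0 : ℝ) 1 :=
      ⟨div_nonneg (by linarith) hd.le, by rw [div_le_one hd]; linarith⟩
    refine ⟨_, hs, ?_⟩
    obtain ⟨h5, h6⟩ := main _ hs
    refine lv_unique hE (endp_D e b) (O_C hE h5) (O_C hE h1) ?_
    rw [h6]
    field_simp
    ring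

theorem vert_par (e : S.Ed c) (b : Bool) (hj : j < S.n c) {P Q : E}
    (hP : P ∈ S.O c (endp e.1 b)) (hQ : Q ∈ S.O c (endp e.1 b)) (h1 : S.φ c P < S.mid c j)
    (h2 : S.mid c j < S.φ c Q) :
    ∃ s ∈ Ioo (0 : ℝ) 1, S.vc c (endp e.1 b) j = AffineMap.lineMap P Q s := by
  have hE := endp_bd e b
  have hd : 0 < S.φ c Q - S.φ c P := by linarith
  have hs : (S.mid c j - S.φ c P) / (S.φ c Q - S.φ c P) ∈ Ioo (0 : ℝ) 1 :=
    ⟨div_pos (by linarith) hd, by rw [div_lt_one hd]; linarith⟩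
  refine ⟨_, hs, ?_⟩
  have e1 : (AffineMap.lineMap P Q ((S.mid c j - S.φ c P) / (S.φ c Q - S.φ c P)) : E) =
      P + ((S.mid c j - S.φ c P) / (S.φ c Q - S.φ c P)) • (Q - P) := by
    rw [AffineMap.lineMap_apply, vsub_eq_sub, vadd_eq_add, add_comm]
  obtain ⟨hm, hφ⟩ := O_seg hE hP hQ ⟨hs.1.le, hs.2.le⟩
  rw [e1]
  refine lv_unique hE (endp_D e b) (O_C hE (vc_O hE j)) (O_C hE hm) ?_
  rw [hφ]
  have h4 : S.φ c (S.vc c (endp e.1 b) j) = S.mid c j := by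
    rw [(vc_aux hE j).2, min_eq_left (by omega)]
  rw [h4]
  field_simp
  ring

theorem mem_bd_vf {e : S.Ed c} (hj : j < S.n c) :
    y ∈ (vf h3 e j).1.bd ↔
      (y ∈ S.C c e.1.pt ∧ S.t c (j + 1) ≤ S.φ c y ∧ S.φ c y ≤ S.t c j) ∧ S.T3.dim y ≤ 1 := by
  rw [← vf_set (h3 := h3) e hj]
  constructor
  · intro h
    exact ⟨h.1, ((vf h3 e j).1.mem_bd_iff h.1).1 h⟩
  · rintro ⟨h1, h2⟩
    exact ((vf h3 e j).1.mem_bd_iff h1).2 h2

theorem lvl_seg (e : S.Ed c) (hj : j ≤ S.n c) :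
    y ∈ segment ℝ (S.hc c (endp e.1 false) j) (S.hc c (endp e.1 true) j) ↔
      y ∈ S.C c e.1.pt ∧ S.φ c y = S.t c j := by
  rw [← (lvl_edge e hj).1, mem_cc_hc (ed_bd e) hj]

theorem lvl_dim (e : S.Ed c) (hj : j ≤ S.n c) (hy : y ∈ S.C c e.1.pt) (h : S.φ c y = S.t c j) :
    S.T3.dim y ≤ 1 := by
  have h1 : y ∈ S.T3.cc (S.hc c e.1.pt j) := (mem_cc_hc (ed_bd e) hj).2 ⟨hy, h⟩
  have h2 := S.T3.dim_le h1
  have h4 := hc_dim3 (ed_bd e) j
  have h5 := ed_D e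
  omega

/-- the vertical face is a quadrilateral -/
theorem trap (e : S.Ed c) (hj : j < S.n c) :
    Trap (vf h3 e j).1.bd (S.hc c (endp e.1 false) (j + 1)) (S.hc c (endp e.1 false) j)
      (S.hc c (endp e.1 true) j) (S.hc c (endp e.1 true) (j + 1)) := by
  have hj1 : j + 1 ≤ S.n c := hj
  have hlt := S.anti c j hj
  have hφ : ∀ b, ∀ {k}, k ≤ S.n c → S.φ c (S.hc c (endp e.1 b) k) = S.t c k :=
    fun b k hk => (hc_onS (endp_bd e b) hk).2.2
  have hoc : ∀ b k, S.hc c (endp e.1 b) k ∈ S.O c (endp e.1 b) := fun b k =>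
    hc_O (endp_bd e b) k
  have hv : ∀ b, ∀ {y}, y ∈ segment ℝ (S.hc c (endp e.1 b) (j + 1)) (S.hc c (endp e.1 b) j) ↔
      y ∈ S.O c (endp e.1 b) ∧ S.t c (j + 1) ≤ S.φ c y ∧ S.φ c y ≤ S.t c j :=
    fun b y => vert_seg e b hj
  have corner : ∀ b, ∀ {k}, k ≤ S.n c → ∀ {y}, y ∈ S.O c (endp e.1 b) → S.φ c y = S.t c k →
      y = S.hc c (endp e.1 b) k := fun b k hk y hy h =>
    lv_unique (endp_bd e b) (endp_D e b) (O_C (endp_bd e b) hy) (O_C (endp_bd e b) (hoc b k))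
      (h.trans (hφ b hk).symm)
  refine ⟨?_, ?_, cor_ne e j j, ?_, (cor_ne e (j + 1) (j + 1)).symm, ?_, ?_, ?_, ?_, ?_, ?_⟩
  · ext y
    rw [mem_bd_vf hj, mem_union, mem_union, mem_union, hv false, lvl_seg e hj.le,
      segment_symm ℝ (S.hc c (endp e.1 true) j), hv true,
      segment_symm ℝ (S.hc c (endp e.1 true) (j + 1)), lvl_seg e hj1]
    constructor
    · rintro ⟨⟨h1, h2, h4⟩, hd⟩
      have hB := bd_of_C (ed_bd e) h1 hj h2
      rcases layer_cases hB hj h2 h4 with h5 | h5 | h5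
      · exact Or.inl (Or.inl (Or.inr ⟨h1, h5.2.2⟩))
      · exact Or.inr ⟨h1, h5.2.2⟩
      · -- inside the layer: over a vertex
        have hd1 : S.D c y ≤ 1 := by rw [← h5.dim3]; exact hd
        have hd' : S.D c y = 1 := by have := base_dim hB; omega
        have h6 : T.dim (S.hc c y 0) = 0 := by have := base_dim hB; omega
        have h7 : S.hc c y 0 ∈ e.1.set := by
          rw [mem_set_ed]
          exact ⟨C_sub (ed_bd e) hB h1 (O_C hB (hc_O hB 0)), (base_onS hB).2.2⟩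
        obtain ⟨b, hb⟩ := (endp_iff e.2.1 h6).1 h7
        have h8 : y ∈ S.O c (endp e.1 b) := by
          rw [hb]; exact O_symm hB (hc_O hB 0)
        cases b
        · exact Or.inl (Or.inl (Or.inl ⟨h8, h2, h4⟩))
        · exact Or.inl (Or.inr ⟨h8, h2, h4⟩)
    · have hvert : ∀ b, y ∈ S.O c (endp e.1 b) ∧ S.t c (j + 1) ≤ S.φ c y ∧ S.φ c y ≤ S.t c j →
          (y ∈ S.C c e.1.pt ∧ S.t c (j + 1) ≤ S.φ c y ∧ S.φ c y ≤ S.t c j) ∧
            S.T3.dim y ≤ 1 := by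
        rintro b ⟨h1, h2, h4⟩
        refine ⟨⟨C_sub (ed_bd e) (endp_bd e b) (endp_C e b) (O_C (endp_bd e b) h1), h2, h4⟩, ?_⟩
        have h5 := dim3_le (S := S) h1.1
        rw [D_eq (endp_bd e b) h1, endp_D e b] at h5
        exact h5
      rintro (((h | h) | h) | h)
      · exact hvert false h
      · exact ⟨⟨h.1, by rw [h.2]; exact hlt.le, h.2.le⟩, lvl_dim e hj.le h.1 h.2⟩
      · exact hvert true h
      · exact ⟨⟨h.1, h.2.ge, by rw [h.2]; exact hlt.le⟩, lvl_dim e hj1 h.1 h.2⟩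
  · intro h
    have := congrArg (S.φ c) h
    rw [hφ false hj1, hφ false hj.le] at this
    linarith
  · intro h
    have := congrArg (S.φ c) h
    rw [hφ true hj1, hφ true hj.le] at this
    linarith
  · intro x h1 h2
    rw [hv false] at h1
    rw [lvl_seg e hj.le] at h2
    exact corner false hj.le h1.1 h2.2
  · intro x h1 h2
    rw [segment_symm, hv true] at h2
    rw [lvl_seg e hj.le] at h1
    exact corner true hj.le h2.1 h1.2
  · intro x h1 h2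
    rw [segment_symm, hv true] at h1
    rw [segment_symm, lvl_seg e hj1] at h2
    exact corner true hj1 h1.1 h2.2
  · intro x h1 h2
    rw [segment_symm, lvl_seg e hj1] at h1
    rw [hv false] at h2
    exact corner false hj1 h2.1 h1.2
  · intro x h1 h2
    rw [hv false] at h1
    rw [segment_symm, hv true] at h2
    exact endp_sep e (O_trans (endp_bd e false) h1.1 (O_symm (endp_bd e true) h2.1))
  · intro x h1 h2
    rw [lvl_seg e hj.le] at h1
    rw [segment_symm, lvl_seg e hj1] at h2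
    have := h1.2.symm.trans h2.2
    linarith

theorem lace_vf {e : S.Ed c} {a b p q : (S.sh h3 c).Pnt} (hj : j < S.n c)
    (ha : a ∈ (S.sh h3 c).On (Sum.inr (Sum.inr e))) (hb : b ∈ (S.sh h3 c).On (Sum.inr (Sum.inr e)))
    (hp : p ∈ (S.sh h3 c).On (Sum.inr (Sum.inr e))) (hq : q ∈ (S.sh h3 c).On (Sum.inr (Sum.inr e)))
    (hap : a ≠ p) (haq : a ≠ q) (hbp : b ≠ p) (hbq : b ≠ q) :
    (S.mn h3).Lace (vf h3 e j)
      (Sum.elim (S.hp c j) (Sum.elim (S.hp c (j + 1)) fun v : S.Vx c => S.vc c v.1 j) a)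
      (Sum.elim (S.hp c j) (Sum.elim (S.hp c (j + 1)) fun v : S.Vx c => S.vc c v.1 j) b)
      (Sum.elim (S.hp c j) (Sum.elim (S.hp c (j + 1)) fun v : S.Vx c => S.vc c v.1 j) p)
      (Sum.elim (S.hp c j) (Sum.elim (S.hp c (j + 1)) fun v : S.Vx c => S.vc c v.1 j) q) ↔
      (S.sh h3 c).mesh.Lace (Sum.inr (Sum.inr e)) a b p q := by
  have hj1 : j + 1 ≤ S.n c := hj
  have hφ : ∀ b, ∀ {k}, k ≤ S.n c → S.φ c (S.hc c (endp e.1 b) k) = S.t c k :=
    fun b k hk => (hc_onS (endp_bd e b) hk).2.2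
  have hoc : ∀ b k, S.hc c (endp e.1 b) k ∈ S.O c (endp e.1 b) := fun b k =>
    hc_O (endp_bd e b) k
  obtain ⟨s0, hs0, hv0⟩ := vert_par e false hj (hoc false (j + 1)) (hoc false j)
    (by rw [hφ false hj1]; exact S.lt_mid hj) (by rw [hφ false hj.le]; exact S.mid_lt hj)
  -- on the right from the top
  obtain ⟨s1, hs1, hv1⟩ := vert_par e true hj (hoc true (j + 1)) (hoc true j)
    (by rw [hφ true hj1]; exact S.lt_mid hj) (by rw [hφ true hj.le]; exact S.mid_lt hj)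
  have hv1' : S.vc c (endp e.1 true) j = AffineMap.lineMap (S.hc c (endp e.1 true) j)
      (S.hc c (endp e.1 true) (j + 1)) (1 - s1) := by
    rw [hv1, ← AffineMap.lineMap_apply_one_sub]
  have hline : ∀ {k : ℕ} {w : E}, w ∈ e.1.opn → S.hp c k w =
      AffineMap.lineMap (S.hc c (endp e.1 false) k) (S.hc c (endp e.1 true) k) (par T w) := by
    intro k w hw
    rw [hp_eq e hw, AffineMap.lineMap_apply, vsub_eq_sub, vadd_eq_add, add_comm]
  have h := lace_vert h3 (vf h3 e j).1 (trap e hj) (S.sh h3 c) e (top := S.hp c j)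
    (bot := S.hp c (j + 1)) (vt := fun v : S.Vx c => S.vc c v.1 j) (τ := par T)
    (τ' := par T) (σ := fun b => if b then 1 - s1 else s0)
    (fun w hw => par_mem e hw) (fun w hw => par_mem e hw)
    (fun b => by
      cases b
      · exact hs0
      · show 0 < 1 - s1 ∧ 1 - s1 < 1
        constructor <;> linarith [hs1.1, hs1.2])
    (fun _ _ _ _ => Iff.rfl) (fun _ _ _ _ => Iff.rfl)
    (fun w hw => hline hw) (fun w hw => hline hw) hv0 hv1' ha hb hp hq hap haq hbp hbq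
  exact h

end Sla

end Crest.Agent.R096.Sla_184
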