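import Crest.Agent.R096.Msh4_715
import Crest.Agent.R096.Msh3_715

/-!
# Row 96, DOORS, leaf SLC (helper184), part 1

* the cells of a refined tiling `T.refine HH h0` in terms of the cells of `T`;
* a function which is affine on the tiles through a point: extreme values on a closed cell are
  attained at vertices; levels without vertices.
-/

set_option autoImplicit false
set_option linter.unusedSectionVars false

open Set Filter Topology Metric
open scoped Classical

namespace Crest.Agent.R096.Slc_184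

open Crest.Agent.R096.Msh_715

variable {E : Type*} [NormedAddCommGroup E] [NormedSpace ℝ E]
variable {Om : Set E} {ι : Type*} (T : Tiling Om ι)

section refine

variable {HH : ι → Finset ((E →L[ℝ] ℝ) × ℝ)} (h0 : ∀ i, ∀ h ∈ HH i, h.1 ≠ 0)

/-- closed cells of the refinement -/
theorem mem_refine_cc {x y : E} : y ∈ (T.refine HH h0).cc x ↔
    y ∈ T.cc x ∧ ∀ i ∈ T.at_ x, ∀ h ∈ HH i, (h.1 x ≤ h.2 → h.1 y ≤ h.2) ∧
      (h.2 ≤ h.1 x → h.2 ≤ h.1 y) := by
  constructor
  · intro hy
    exact ⟨T.refine_cc_sub h0 x hy, fun i hi h hh =>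
      ⟨T.le_of_refine_cc h0 hy hi hh, T.ge_of_refine_cc h0 hy hi hh⟩⟩
  · rintro ⟨h1, h2⟩ p hp h hh
    have hi := T.tile_mem_at h0 hp
    rcases Finset.mem_union.1 (show h ∈ T.H p.1.1 ∪ _ from hh) with hh | hh
    · exact h1 _ hi h hh
    · obtain ⟨g, hg, rfl⟩ := Finset.mem_image.1 hh
      have h3 := h2 _ hi g hg
      have h4 := ((T.mem_P_rH HH).1 (show x ∈ P (T.rH HH p.1.1 p.1.2) from hp)).2 g hg
      by_cases hs : g ∈ p.1.2
      · simp only [hs, if_true, opp_fst, opp_snd]
        have h5 := h3.2 (h4.1 hs)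
        refine ⟨by linarith, fun e => ?_⟩
        have h6 := h3.1 (by linarith)
        linarith
      · simp only [hs, if_false]
        have h5 := h3.1 (h4.2 hs)
        refine ⟨h5, fun e => ?_⟩
        have h6 := h3.2 e.ge
        linarith

/-- open cells of the refinement -/
theorem mem_refine_oc {x y : E} (hx : x ∈ Om) : y ∈ (T.refine HH h0).oc x ↔
    y ∈ T.oc x ∧ ∀ i ∈ T.at_ x, ∀ h ∈ HH i, (h.1 y ≤ h.2 ↔ h.1 x ≤ h.2) ∧
      (h.2 ≤ h.1 y ↔ h.2 ≤ h.1 x) := by
  constructor
  · intro hy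
    refine ⟨T.refine_oc_sub h0 x hy, fun i hi h hh => ?_⟩
    have h1 := T.lt_iff_of_refine_oc h0 hy hi hh
    have h2 := T.eq_iff_of_refine_oc h0 hy hi hh
    constructor
    · rw [le_iff_lt_or_eq, le_iff_lt_or_eq, h1, h2]
    · rw [← not_lt, ← not_lt, h1]
  · rintro ⟨h1, h2⟩
    apply (T.refine HH h0).mem_oc_of_mem_cc
    · exact (mem_refine_cc T h0).2 ⟨T.oc_sub_cc x h1, fun i hi h hh =>
        ⟨(h2 i hi h hh).1.2, (h2 i hi h hh).2.2⟩⟩
    · refine (mem_refine_cc T h0).2 ⟨?_, fun i hi h hh => ?_⟩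
      · rw [T.cc_eq_of_mem_oc hx h1]; exact T.self_mem_cc x
      · rw [T.at_eq_of_mem_oc hx h1] at hi
        exact ⟨(h2 i hi h hh).1.1, (h2 i hi h hh).2.1⟩

/-- directions of the cells of the refinement -/
theorem mem_refine_V {x v : E} : v ∈ (T.refine HH h0).V x ↔
    v ∈ T.V x ∧ ∀ i ∈ T.at_ x, ∀ h ∈ HH i, h.1 x = h.2 → h.1 v = 0 := by
  constructor
  · intro hv
    constructor
    · intro i hi h hh e
      obtain ⟨p, rfl, hp⟩ := T.exists_mem_at h0 hi
      exact hv p hp h (T.sub_rH HH _ _ hh) e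
    · intro i hi h hh e
      obtain ⟨p, rfl, hp⟩ := T.exists_mem_at h0 hi
      by_cases hs : h ∈ p.1.2
      · have := hv p hp (opp h) (T.mem_rH_of_mem HH hh hs) (by simp only [opp_fst, opp_snd]; rw [e])
        simpa using this
      · exact hv p hp h (T.mem_rH_of_notMem HH hh hs) e
  · rintro ⟨h1, h2⟩ p hp h hh e
    have hi := T.tile_mem_at h0 hp
    rcases Finset.mem_union.1 (show h ∈ T.H p.1.1 ∪ _ from hh) with hh | hh
    · exact h1 _ hi h hh e
    · obtain ⟨g, hg, rfl⟩ := Finset.mem_image.1 hh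
      have h3 := h2 _ hi g hg
      by_cases hs : g ∈ p.1.2
      · simp only [hs, if_true, opp_fst, opp_snd] at e ⊢
        rw [h3 (by linarith)]; simp
      · simp only [hs, if_false] at e ⊢
        exact h3 e

end refine

section affine

variable {T}

/-- `φ` is affine on the closed cell of `x` -/
def AffOn (φ : E → ℝ) (C : Set E) : Prop := ∃ g : E →ᵃ[ℝ] ℝ, EqOn φ g C

theorem AffOn.mono {φ : E → ℝ} {C D : Set E} (h : AffOn φ C) (hD : D ⊆ C) : AffOn φ D := by
  obtain ⟨g, hg⟩ := h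
  exact ⟨g, hg.mono hD⟩

theorem AffOn.line {φ : E → ℝ} {C : Set E} (h : AffOn φ C) {x y : E} (hx : x ∈ C) (hy : y ∈ C)
    {s : ℝ} (hs : x + s • (y - x) ∈ C) : φ (x + s • (y - x)) = φ x + s * (φ y - φ x) := by
  obtain ⟨g, hg⟩ := h
  rw [hg hs, hg hx, hg hy]
  have e : x + s • (y - x) = AffineMap.lineMap x y s := by
    rw [AffineMap.lineMap_apply, vsub_eq_sub, vadd_eq_add]; abel
  rw [e, AffineMap.apply_lineMap, AffineMap.lineMap_apply, vsub_eq_sub, vadd_eq_add, smul_eq_mul]
  ring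

theorem AffOn.continuousOn [FiniteDimensional ℝ E] {φ : E → ℝ} {C : Set E} (h : AffOn φ C) :
    ContinuousOn φ C := by
  obtain ⟨g, hg⟩ := h
  exact (AffineMap.continuous_of_finiteDimensional g).continuousOn.congr hg

/-- moving along a direction of the open cell -/
theorem AffOn.exists_lin {φ : E → ℝ} {C : Set E} (h : AffOn φ C) :
    ∃ L : E →ₗ[ℝ] ℝ, ∀ x ∈ C, ∀ y ∈ C, φ y = φ x + L (y - x) := by
  obtain ⟨g, hg⟩ := h
  refine ⟨g.linear, fun x hx y hy => ?_⟩
  rw [hg hx, hg hy]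
  have := g.linearMap_vsub y x
  rw [vsub_eq_sub, vsub_eq_sub] at this
  rw [this]; ring

variable [FiniteDimensional ℝ E]

/-- the minimum of an affine function on a closed cell is attained at a vertex -/
theorem exists_min_vertex {φ : E → ℝ} {x : E} (hx : x ∈ Om) (h : AffOn φ (T.cc x)) :
    ∃ v ∈ T.cc x, T.dim v = 0 ∧ ∀ y ∈ T.cc x, φ v ≤ φ y := by
  obtain ⟨m, hm, hmin⟩ := (T.isCompact_cc hx).exists_isMinOn ⟨x, T.self_mem_cc x⟩ h.continuousOn
  -- the minimum set is nonempty; take the smallest dimension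
  have key : ∀ d : ℕ, ∀ z ∈ T.cc x, T.dim z = d → (∀ y ∈ T.cc x, φ z ≤ φ y) →
      ∃ v ∈ T.cc x, T.dim v = 0 ∧ ∀ y ∈ T.cc x, φ v ≤ φ y := by
    intro d
    induction d using Nat.strong_induction_on with
    | _ d ih =>
      intro z hz hd hzm
      rcases Nat.eq_zero_or_pos d with h0 | h0
      · exact ⟨z, hz, hd.trans h0, hzm⟩
      · have hzO := T.cc_sub_Om hx hz
        have hne : T.V z ≠ ⊥ := by
          intro h1
          have := T.dim_eq_zero_iff.2 h1
          omega
        obtain ⟨v, hv, hv0⟩ := Submodule.exists_mem_ne_zero_of_ne_bot hne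
        obtain ⟨t, ht, h1, h2, h3⟩ := T.exists_exit hzO hv hv0
        have hsub := T.cc_sub_of_mem hz
        -- `φ` is constant along `v`
        obtain ⟨r, hr, hb⟩ := T.exists_ball_oc hzO
        obtain ⟨ε, hε, hεt, hεr⟩ : ∃ ε : ℝ, 0 < ε ∧ ε < t ∧ ε * ‖v‖ < r := by
          have hvn : 0 < ‖v‖ := norm_pos_iff.2 hv0
          refine ⟨min (t / 2) (r / (2 * ‖v‖)), by positivity, ?_, ?_⟩
          · exact (min_le_left _ _).trans_lt (by linarith)
          · calc min (t / 2) (r / (2 * ‖v‖)) * ‖v‖ ≤ r / (2 * ‖v‖) * ‖v‖ :=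
                mul_le_mul_of_nonneg_right (min_le_right _ _) hvn.le
              _ = r / 2 := by field_simp
              _ < r := by linarith
        have h4 : z + ε • v ∈ T.cc x := hsub (T.oc_sub_cc z (hb _ ((T.V z).smul_mem _ hv) (by
          rw [norm_smul, Real.norm_eq_abs, abs_of_pos hε]; exact hεr)))
        have h5 : z + (-ε) • v ∈ T.cc x := hsub (T.oc_sub_cc z (hb _ ((T.V z).smul_mem _ hv) (by
          rw [norm_smul, Real.norm_eq_abs, abs_neg, abs_of_pos hε]; exact hεr)))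
        obtain ⟨L, hL⟩ := h.exists_lin
        have h6 := hL z hz _ h4
        have h7 := hL z hz _ h5
        have h8 := hL z hz _ (hsub h1)
        rw [add_sub_cancel_left, map_smul, smul_eq_mul] at h6 h7 h8
        have h9 := hzm _ h4
        have h10 := hzm _ h5
        have hLv : L v = 0 := by
          have a1 : 0 ≤ ε * L v := by linarith
          have a2 : ε * L v ≤ 0 := by linarith
          have a3 : ε * L v = 0 := le_antisymm a2 a1
          rcases mul_eq_zero.1 a3 with h | h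
          · exact absurd h hε.ne'
          · exact h
        rw [hLv, mul_zero, add_zero] at h8
        refine ih _ (hd ▸ T.dim_lt h1 h2) _ (hsub h1) rfl fun y hy => ?_
        rw [h8]; exact hzm y hy
  exact key _ m hm rfl fun y hy => hmin hy

theorem exists_max_vertex {φ : E → ℝ} {x : E} (hx : x ∈ Om) (h : AffOn φ (T.cc x)) :
    ∃ v ∈ T.cc x, T.dim v = 0 ∧ ∀ y ∈ T.cc x, φ y ≤ φ v := by
  obtain ⟨g, hg⟩ := h
  obtain ⟨v, h1, h2, h3⟩ := exists_min_vertex (φ := fun y => -φ y) hx (T := T)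
    ⟨-g, fun y hy => by simp [hg hy]⟩
  exact ⟨v, h1, h2, fun y hy => by have h4 : -φ v ≤ -φ y := h3 y hy; linarith⟩

end affine

end Crest.Agent.R096.Slc_184
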