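import Crest.Agent.R096.Slc1_184

/-!
# Row 96, DOORS, leaf SLC (helper184), part 2

`Slc T κ` : a function `φ`, affine on the tiles, disjoint open sets `U c`, levels
`b > t 0 > t 1 > .. > t n > a` without vertices of `T` in between.
`Slc.T3` : the tiling cut along the levels.
-/

set_option autoImplicit false
set_option linter.unusedSectionVars false

open Set Filter Topology Metric
open scoped Classical

namespace Crest.Agent.R096.Slc_184

open Crest.Agent.R096.Msh_715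

variable {E : Type} [NormedAddCommGroup E] [NormedSpace ℝ E]
variable {Om : Set E} {ι : Type}

/-- slices of a tiling near the cores `c : κ` -/
structure Slc (T : Tiling Om ι) (κ : Type) where
  φ : E → ℝ
  U : κ → Set E
  a : κ → ℝ
  b : κ → ℝ
  n : κ → ℕ
  t : κ → ℕ → ℝ
  cont : ContinuousOn φ Om
  opn : ∀ c, IsOpen (U c)
  subO : ∀ c, closure (U c) ⊆ Om
  cpt : ∀ c, IsCompact (closure (U c))
  fr : ∀ c, ∀ x ∈ frontier (U c), b c ≤ φ x
  dis : ∀ c c', c ≠ c' → Disjoint (U c) (U c')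
  aff : ∀ c i, (P (T.H i) ∩ U c).Nonempty → AffOn φ (P (T.H i))
  vert : ∀ c, ∀ v ∈ U c, T.dim v = 0 → φ v ≤ a c ∨ b c ≤ φ v
  npos : ∀ c, 0 < n c
  anti : ∀ c j, j < n c → t c (j + 1) < t c j
  lt : ∀ c, t c 0 < b c
  gt : ∀ c, a c < t c (n c)

namespace Slc

variable {T : Tiling Om ι} {κ : Type} (S : Slc T κ)

/-- the band of the core `c` -/
def Bd (c : κ) : Set E := {x | x ∈ S.U c ∧ S.a c < S.φ x ∧ S.φ x < S.b c}

theorem t_le {c : κ} : ∀ {j k : ℕ}, j ≤ k → k ≤ S.n c → S.t c k ≤ S.t c j := by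
  intro j k hjk
  induction hjk with
  | refl => intro _; exact le_rfl
  | step h ih => intro hk; exact (S.anti c _ hk).le.trans (ih (by omega))

theorem t_lt {c : κ} {j k : ℕ} (h : j < k) (hk : k ≤ S.n c) : S.t c k < S.t c j :=
  (S.t_le (c := c) (Nat.succ_le_of_lt h) hk).trans_lt (S.anti c j (by omega))

theorem t_lt_b {c : κ} {j : ℕ} (hj : j ≤ S.n c) : S.t c j < S.b c :=
  (S.t_le (Nat.zero_le j) hj).trans_lt (S.lt c)

theorem a_lt_t {c : κ} {j : ℕ} (hj : j ≤ S.n c) : S.a c < S.t c j :=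
  (S.gt c).trans_le (S.t_le hj le_rfl)

theorem t_inj {c : κ} {j k : ℕ} (hj : j ≤ S.n c) (hk : k ≤ S.n c) (h : S.t c j = S.t c k) :
    j = k := by
  rcases lt_trichotomy j k with h1 | h1 | h1
  · exact absurd h (S.t_lt h1 hk).ne'
  · exact h1
  · exact absurd h (S.t_lt h1 hj).ne

/-- middle level of a layer -/
noncomputable def mid (c : κ) (j : ℕ) : ℝ := (S.t c j + S.t c (j + 1)) / 2

theorem mid_lt {c : κ} {j : ℕ} (hj : j < S.n c) : S.mid c j < S.t c j := by
  have := S.anti c j hj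
  unfold mid; linarith

theorem lt_mid {c : κ} {j : ℕ} (hj : j < S.n c) : S.t c (j + 1) < S.mid c j := by
  have := S.anti c j hj
  unfold mid; linarith

theorem mid_lt_b {c : κ} {j : ℕ} (hj : j < S.n c) : S.mid c j < S.b c :=
  (S.mid_lt hj).trans (S.t_lt_b hj.le)

theorem a_lt_mid {c : κ} {j : ℕ} (hj : j < S.n c) : S.a c < S.mid c j :=
  (S.a_lt_t (Nat.succ_le_of_lt hj)).trans (S.lt_mid hj)

theorem sub_U' (c : κ) : S.U c ⊆ Om := subset_closure.trans (S.subO c)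

/-- inside a tile the sublevel set is in one zone -/
theorem mem_U {c : κ} {i : ι} {x : E} (hx : x ∈ P (T.H i)) (hxU : x ∈ S.U c)
    (hxb : S.φ x < S.b c) {y : E} (hy : y ∈ P (T.H i)) (hyb : S.φ y < S.b c) : y ∈ S.U c := by
  obtain ⟨g, hg⟩ := S.aff c i ⟨x, hx, hxU⟩
  set C : Set E := {z | z ∈ P (T.H i) ∧ S.φ z < S.b c} with hC
  have hconv : Convex ℝ C := by
    have : C = P (T.H i) ∩ {z | g z < S.b c} := by
      ext z
      constructor
      · rintro ⟨h1, h2⟩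
        refine ⟨h1, ?_⟩
        show g z < S.b c
        rw [← hg h1]; exact h2
      · rintro ⟨h1, h2⟩
        refine ⟨h1, ?_⟩
        show S.φ z < S.b c
        rw [hg h1]; exact h2
    rw [this]
    refine (convex_P _).inter ?_
    exact (convex_Iio (S.b c)).affine_preimage g
  have hsub : C ⊆ S.U c := by
    refine hconv.isPreconnected.subset_left_of_subset_union (S.opn c)
      (isClosed_closure (s := S.U c)).isOpen_compl ?_ ?_ ⟨x, ⟨hx, hxb⟩, hxU⟩
    · rw [Set.disjoint_left]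
      intro z hz hz'
      exact hz' (subset_closure hz)
    · rintro z ⟨_, hz⟩
      by_cases h1 : z ∈ closure (S.U c)
      · left
        by_contra h2
        have h3 : z ∈ frontier (S.U c) := by
          rw [frontier, (S.opn c).interior_eq]; exact ⟨h1, h2⟩
        exact absurd (S.fr c z h3) (not_le.2 hz)
      · exact Or.inr h1
  exact hsub ⟨hy, hyb⟩

/-- the tile `i` meets the band of `c` -/
def Cut (c : κ) (i : ι) : Prop := (P (T.H i) ∩ S.Bd c).Nonempty

theorem cut_unique {c c' : κ} {i : ι} (h : S.Cut c i) (h' : S.Cut c' i) : c = c' := by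
  obtain ⟨y, hy, hyU, hya, hyb⟩ := h
  obtain ⟨y', hy', hyU', hya', hyb'⟩ := h'
  by_contra hne
  rcases le_total (S.b c) (S.b c') with hb | hb
  · have := S.mem_U hy' hyU' hyb' hy (hyb.trans_le hb)
    exact Set.disjoint_left.1 (S.dis c c' hne) hyU this
  · have := S.mem_U hy hyU hyb hy' (hyb'.trans_le hb)
    exact Set.disjoint_left.1 (S.dis c c' hne) this hyU'

theorem Cut.aff {S : Slc T κ} {c : κ} {i : ι} (h : S.Cut c i) : AffOn S.φ (P (T.H i)) := by
  obtain ⟨y, hy, hyU, _⟩ := h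
  exact S.aff c i ⟨y, hy, hyU⟩

theorem Cut.mem_U {S : Slc T κ} {c : κ} {i : ι} (h : S.Cut c i) {y : E} (hy : y ∈ P (T.H i))
    (hyb : S.φ y < S.b c) : y ∈ S.U c := by
  obtain ⟨x, hx, hxU, _, hxb⟩ := h
  exact S.mem_U hx hxU hxb hy hyb

theorem cut_of_mem {c : κ} {x : E} (hx : x ∈ S.Bd c) {i : ι} (hi : x ∈ P (T.H i)) : S.Cut c i :=
  ⟨x, hi, hx⟩

theorem Bd_sub {c : κ} {x : E} (hx : x ∈ S.Bd c) : x ∈ Om := S.sub_U' c hx.1

/-- `φ` is affine on the cells of the band -/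
theorem aff_cc {c : κ} {x : E} (hx : x ∈ S.Bd c) : AffOn S.φ (T.cc x) := by
  obtain ⟨i, hi⟩ := T.cov x (S.Bd_sub hx)
  exact (S.cut_of_mem hx hi).aff.mono (T.cc_sub_tile hi)

theorem cc_mem_U {c : κ} {x : E} (hx : x ∈ S.Bd c) {y : E} (hy : y ∈ T.cc x)
    (hyb : S.φ y < S.b c) : y ∈ S.U c := by
  obtain ⟨i, hi⟩ := T.cov x (S.Bd_sub hx)
  exact (S.cut_of_mem hx hi).mem_U (T.cc_sub_tile hi hy) hyb

variable [FiniteDimensional ℝ E]

/-- low and high vertices of the cells of the band -/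
theorem exists_low {c : κ} {x : E} (hx : x ∈ S.Bd c) : ∃ v ∈ T.cc x, S.φ v ≤ S.a c := by
  obtain ⟨v, hv, hv0, hmin⟩ := exists_min_vertex (S.Bd_sub hx) (S.aff_cc hx)
  have h1 : S.φ v < S.b c := (hmin x (T.self_mem_cc x)).trans_lt hx.2.2
  rcases S.vert c v (S.cc_mem_U hx hv h1) hv0 with h | h
  · exact ⟨v, hv, h⟩
  · exact absurd h1 (not_lt.2 h)

theorem exists_high {c : κ} {x : E} (hx : x ∈ S.Bd c) : ∃ v ∈ T.cc x, S.b c ≤ S.φ v := by
  obtain ⟨v, hv, hv0, hmax⟩ := exists_max_vertex (S.Bd_sub hx) (S.aff_cc hx)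
  refine ⟨v, hv, ?_⟩
  by_contra h
  push Not at h
  have h2 := hmax x (T.self_mem_cc x)
  rcases S.vert c v (S.cc_mem_U hx hv h) hv0 with h1 | h1
  · have := hx.2.1
    linarith
  · linarith

/-- every level of the band is attained on every open cell of the band -/
theorem exists_level {c : κ} {x : E} (hx : x ∈ S.Bd c) {s : ℝ} (hs : S.a c < s)
    (hs' : s < S.b c) : ∃ y ∈ T.oc x, S.φ y = s := by
  have hA := S.aff_cc hx
  obtain ⟨v, hv, hva⟩ := S.exists_low hx
  obtain ⟨w, hw, hwb⟩ := S.exists_high hx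
  have key : ∀ v ∈ T.cc x, ∀ r : ℝ, 0 < r → ∃ y ∈ T.oc x, |S.φ y - S.φ v| < r := by
    intro v hv r hr
    set D := |S.φ x - S.φ v| + 1 with hD
    have hD0 : 0 < D := by positivity
    set ε := min 1 (r / (2 * D)) with hε
    have hε0 : 0 < ε := by positivity
    have hε1 : ε ≤ 1 := min_le_left _ _
    have hy := T.move_mem_oc hv hε0 hε1
    refine ⟨_, hy, ?_⟩
    rw [hA.line hv (T.self_mem_cc x) (T.oc_sub_cc x hy), add_sub_cancel_left, abs_mul,
      abs_of_pos hε0]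
    calc ε * |S.φ x - S.φ v| ≤ r / (2 * D) * D :=
          mul_le_mul (min_le_right _ _) (by rw [hD]; linarith) (abs_nonneg _) (by positivity)
      _ = r / 2 := by field_simp
      _ < r := by linarith
  obtain ⟨y, hy, h1⟩ := key v hv (s - S.a c) (by linarith)
  obtain ⟨z, hz, h2⟩ := key w hw (S.b c - s) (by linarith)
  rw [abs_lt] at h1 h2
  have h3 : S.φ y < s := by linarith
  have h4 : s < S.φ z := by linarith
  set τ := (s - S.φ y) / (S.φ z - S.φ y) with hτ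
  have hd : 0 < S.φ z - S.φ y := by linarith
  have hτ0 : 0 ≤ τ := div_nonneg (by linarith) hd.le
  have hτ1 : τ ≤ 1 := by rw [hτ, div_le_one hd]; linarith
  have hm : y + τ • (z - y) ∈ T.oc x := (T.convex_oc x).add_smul_sub_mem hy hz ⟨hτ0, hτ1⟩
  refine ⟨_, hm, ?_⟩
  rw [hA.line (T.oc_sub_cc x hy) (T.oc_sub_cc x hz) (T.oc_sub_cc x hm), hτ]
  field_simp
  ring

/-- a point of the open cell of `x` at the level `s` -/
noncomputable def lv (c : κ) (x : E) (s : ℝ) : E :=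
  if h : x ∈ S.Bd c ∧ S.a c < s ∧ s < S.b c then (S.exists_level h.1 h.2.1 h.2.2).choose else x

theorem lv_mem {c : κ} {x : E} (hx : x ∈ S.Bd c) {s : ℝ} (hs : S.a c < s) (hs' : s < S.b c) :
    S.lv c x s ∈ T.oc x ∧ S.φ (S.lv c x s) = s := by
  unfold lv
  rw [dif_pos ⟨hx, hs, hs'⟩]
  exact (S.exists_level hx hs hs').choose_spec

theorem lv_Bd {c : κ} {x : E} (hx : x ∈ S.Bd c) {s : ℝ} (hs : S.a c < s) (hs' : s < S.b c) :
    S.lv c x s ∈ S.Bd c := by
  obtain ⟨h1, h2⟩ := S.lv_mem hx hs hs'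
  exact ⟨S.cc_mem_U hx (T.oc_sub_cc x h1) (by rw [h2]; exact hs'), by rw [h2]; exact hs,
    by rw [h2]; exact hs'⟩

/-- `φ` is not constant along the directions of a cell of the band -/
theorem exists_dir {c : κ} {x : E} (hx : x ∈ S.Bd c) :
    ∃ L : E →ₗ[ℝ] ℝ, (∀ y ∈ T.cc x, ∀ z ∈ T.cc x, S.φ z = S.φ y + L (z - y)) ∧
      ∃ v ∈ T.V x, L v ≠ 0 := by
  obtain ⟨L, hL⟩ := (S.aff_cc hx).exists_lin
  obtain ⟨v, hv, hva⟩ := S.exists_low hx
  refine ⟨L, hL, v - x, T.sub_mem_V hv, fun h => ?_⟩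
  have := hL x (T.self_mem_cc x) v hv
  rw [h, add_zero] at this
  have := hx.2.1
  linarith

end Slc

end Crest.Agent.R096.Slc_184
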