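import Crest.Agent.R096.Slc2_184

/-!
# Row 96, DOORS, leaf SLC (helper184), part 3: the sliced tiling `S.T3` and its cells.
-/

set_option autoImplicit false
set_option linter.unusedSectionVars false

open Set Filter Topology Metric
open scoped Classical

namespace Crest.Agent.R096.Slc_184

open Crest.Agent.R096.Msh_715

variable {E : Type} [NormedAddCommGroup E] [NormedSpace ℝ E] [FiniteDimensional ℝ E]
variable {Om : Set E} {ι : Type}

namespace Slc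

variable {T : Tiling Om ι} {κ : Type} (S : Slc T κ)

/-- the affine function on a cut tile -/
noncomputable def af (i : ι) : E →ᵃ[ℝ] ℝ :=
  if h : AffOn S.φ (P (T.H i)) then h.choose else AffineMap.const ℝ E 0

theorem af_eq {i : ι} (h : AffOn S.φ (P (T.H i))) : EqOn S.φ (S.af i) (P (T.H i)) := by
  unfold af
  rw [dif_pos h]
  exact h.choose_spec

/-- the plane of the level `s` in the tile `i` -/
noncomputable def pl (i : ι) (s : ℝ) : (E →L[ℝ] ℝ) × ℝ :=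
  (LinearMap.toContinuousLinearMap (S.af i).linear, s - S.af i 0)

theorem af_apply (i : ι) (y : E) : S.af i y = (S.af i).linear y + S.af i 0 := by
  have := (S.af i).linearMap_vsub y 0
  rw [vsub_eq_sub, vsub_eq_sub, sub_zero] at this
  rw [this]; ring

theorem pl_le {i : ι} (h : AffOn S.φ (P (T.H i))) {y : E} (hy : y ∈ P (T.H i)) (s : ℝ) :
    (S.pl i s).1 y ≤ (S.pl i s).2 ↔ S.φ y ≤ s := by
  rw [S.af_eq h hy, S.af_apply]
  show (S.af i).linear y ≤ s - S.af i 0 ↔ _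
  constructor <;> intro h <;> linarith

theorem pl_ge {i : ι} (h : AffOn S.φ (P (T.H i))) {y : E} (hy : y ∈ P (T.H i)) (s : ℝ) :
    (S.pl i s).2 ≤ (S.pl i s).1 y ↔ s ≤ S.φ y := by
  rw [S.af_eq h hy, S.af_apply]
  show s - S.af i 0 ≤ (S.af i).linear y ↔ _
  constructor <;> intro h <;> linarith

theorem pl_eq {i : ι} (h : AffOn S.φ (P (T.H i))) {y : E} (hy : y ∈ P (T.H i)) (s : ℝ) :
    (S.pl i s).1 y = (S.pl i s).2 ↔ S.φ y = s := by
  rw [le_antisymm_iff, S.pl_le h hy, S.pl_ge h hy, ← le_antisymm_iff]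

/-- the cutting planes -/
noncomputable def HH (i : ι) : Finset ((E →L[ℝ] ℝ) × ℝ) :=
  if h : ∃ c, S.Cut c i then
    (Finset.range (S.n h.choose + 1)).image fun j => S.pl i (S.t h.choose j)
  else ∅

theorem mem_HH {i : ι} {h : (E →L[ℝ] ℝ) × ℝ} :
    h ∈ S.HH i ↔ ∃ c, S.Cut c i ∧ ∃ j ≤ S.n c, S.pl i (S.t c j) = h := by
  unfold HH
  by_cases hex : ∃ c, S.Cut c i
  · rw [dif_pos hex, Finset.mem_image]
    constructor
    · rintro ⟨j, hj, e⟩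
      exact ⟨_, hex.choose_spec, j, Nat.lt_succ_iff.1 (Finset.mem_range.1 hj), e⟩
    · rintro ⟨c, hc, j, hj, e⟩
      have : c = hex.choose := S.cut_unique hc hex.choose_spec
      subst this
      exact ⟨j, Finset.mem_range.2 (Nat.lt_succ_iff.2 hj), e⟩
  · rw [dif_neg hex]
    simp only [Finset.notMem_empty, false_iff]
    rintro ⟨c, hc, _⟩
    exact hex ⟨c, hc⟩

theorem h0 : ∀ i, ∀ h ∈ S.HH i, h.1 ≠ 0 := by
  intro i h hh e
  obtain ⟨c, hc, j, hj, rfl⟩ := S.mem_HH.1 hh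
  obtain ⟨x, hx, hxB⟩ := hc
  have hA : AffOn S.φ (P (T.H i)) := Cut.aff ⟨x, hx, hxB⟩
  obtain ⟨v, hv, hva⟩ := S.exists_low hxB
  have hv' := T.cc_sub_tile hx hv
  have h1 := S.af_apply i v
  have h2 := S.af_apply i x
  have e' : ∀ y, (S.af i).linear y = 0 := fun y => by
    have := congrArg (fun f : E →L[ℝ] ℝ => f y) e
    exact this
  rw [e', zero_add] at h1 h2
  rw [← S.af_eq hA hv'] at h1
  rw [← S.af_eq hA hx] at h2
  have := hxB.2.1
  linarith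

/-- **the sliced tiling** -/
noncomputable def T3 : Tiling Om (T.RIdx S.HH) := T.refine S.HH S.h0

theorem mem_cc3 {x y : E} : y ∈ S.T3.cc x ↔ y ∈ T.cc x ∧
    ∀ i ∈ T.at_ x, ∀ c, S.Cut c i → ∀ j ≤ S.n c,
      (S.φ x ≤ S.t c j → S.φ y ≤ S.t c j) ∧ (S.t c j ≤ S.φ x → S.t c j ≤ S.φ y) := by
  unfold T3
  rw [mem_refine_cc]
  constructor
  · rintro ⟨h1, h2⟩
    refine ⟨h1, fun i hi c hc j hj => ?_⟩
    have h3 := h2 i hi _ (S.mem_HH.2 ⟨c, hc, j, hj, rfl⟩)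
    rw [S.pl_le hc.aff hi, S.pl_le hc.aff (T.cc_sub_tile hi h1), S.pl_ge hc.aff hi,
      S.pl_ge hc.aff (T.cc_sub_tile hi h1)] at h3
    exact h3
  · rintro ⟨h1, h2⟩
    refine ⟨h1, fun i hi h hh => ?_⟩
    obtain ⟨c, hc, j, hj, rfl⟩ := S.mem_HH.1 hh
    rw [S.pl_le hc.aff hi, S.pl_le hc.aff (T.cc_sub_tile hi h1), S.pl_ge hc.aff hi,
      S.pl_ge hc.aff (T.cc_sub_tile hi h1)]
    exact h2 i hi c hc j hj

theorem mem_oc3 {x y : E} (hx : x ∈ Om) : y ∈ S.T3.oc x ↔ y ∈ T.oc x ∧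
    ∀ i ∈ T.at_ x, ∀ c, S.Cut c i → ∀ j ≤ S.n c,
      (S.φ y ≤ S.t c j ↔ S.φ x ≤ S.t c j) ∧ (S.t c j ≤ S.φ y ↔ S.t c j ≤ S.φ x) := by
  unfold T3
  rw [mem_refine_oc _ _ hx]
  constructor
  · rintro ⟨h1, h2⟩
    refine ⟨h1, fun i hi c hc j hj => ?_⟩
    have h3 := h2 i hi _ (S.mem_HH.2 ⟨c, hc, j, hj, rfl⟩)
    have hy := T.cc_sub_tile hi (T.oc_sub_cc x h1)
    rw [S.pl_le hc.aff hi, S.pl_le hc.aff hy, S.pl_ge hc.aff hi, S.pl_ge hc.aff hy] at h3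
    exact h3
  · rintro ⟨h1, h2⟩
    refine ⟨h1, fun i hi h hh => ?_⟩
    obtain ⟨c, hc, j, hj, rfl⟩ := S.mem_HH.1 hh
    have hy := T.cc_sub_tile hi (T.oc_sub_cc x h1)
    rw [S.pl_le hc.aff hi, S.pl_le hc.aff hy, S.pl_ge hc.aff hi, S.pl_ge hc.aff hy]
    exact h2 i hi c hc j hj

theorem cc3_sub (x : E) : S.T3.cc x ⊆ T.cc x := fun _ h => (S.mem_cc3.1 h).1

theorem oc3_sub (x : E) : S.T3.oc x ⊆ T.oc x := T.refine_oc_sub S.h0 x

/-! ### cells of the band -/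

theorem mem_cc_band {c : κ} {x y : E} (hx : x ∈ S.Bd c) : y ∈ S.T3.cc x ↔ y ∈ T.cc x ∧
    ∀ j ≤ S.n c, (S.φ x ≤ S.t c j → S.φ y ≤ S.t c j) ∧ (S.t c j ≤ S.φ x → S.t c j ≤ S.φ y) := by
  rw [S.mem_cc3]
  constructor
  · rintro ⟨h1, h2⟩
    obtain ⟨i, hi⟩ := T.cov x (S.Bd_sub hx)
    exact ⟨h1, h2 i hi c (S.cut_of_mem hx hi)⟩
  · rintro ⟨h1, h2⟩
    refine ⟨h1, fun i hi c' hc' => ?_⟩
    rw [S.cut_unique hc' (S.cut_of_mem hx hi)]
    exact h2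

theorem mem_oc_band {c : κ} {x y : E} (hx : x ∈ S.Bd c) : y ∈ S.T3.oc x ↔ y ∈ T.oc x ∧
    ∀ j ≤ S.n c, (S.φ y ≤ S.t c j ↔ S.φ x ≤ S.t c j) ∧ (S.t c j ≤ S.φ y ↔ S.t c j ≤ S.φ x) := by
  rw [S.mem_oc3 (S.Bd_sub hx)]
  constructor
  · rintro ⟨h1, h2⟩
    obtain ⟨i, hi⟩ := T.cov x (S.Bd_sub hx)
    exact ⟨h1, h2 i hi c (S.cut_of_mem hx hi)⟩
  · rintro ⟨h1, h2⟩
    refine ⟨h1, fun i hi c' hc' => ?_⟩
    rw [S.cut_unique hc' (S.cut_of_mem hx hi)]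
    exact h2

/-- a point of a slice -/
def OnS (c : κ) (j : ℕ) (x : E) : Prop := x ∈ S.U c ∧ j ≤ S.n c ∧ S.φ x = S.t c j

theorem OnS.bd {S : Slc T κ} {c : κ} {j : ℕ} {x : E} (h : S.OnS c j x) : x ∈ S.Bd c :=
  ⟨h.1, by rw [h.2.2]; exact S.a_lt_t h.2.1, by rw [h.2.2]; exact S.t_lt_b h.2.1⟩

/-- a point in a layer -/
def InL (c : κ) (j : ℕ) (x : E) : Prop :=
  x ∈ S.U c ∧ j < S.n c ∧ S.t c (j + 1) < S.φ x ∧ S.φ x < S.t c j

theorem InL.bd {S : Slc T κ} {c : κ} {j : ℕ} {x : E} (h : S.InL c j x) : x ∈ S.Bd c :=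
  ⟨h.1, (S.a_lt_t (Nat.succ_le_of_lt h.2.1)).trans h.2.2.1, h.2.2.2.trans (S.t_lt_b h.2.1.le)⟩

theorem OnS.cc {S : Slc T κ} {c : κ} {j : ℕ} {x : E} (h : S.OnS c j x) {y : E} :
    y ∈ S.T3.cc x ↔ y ∈ T.cc x ∧ S.φ y = S.t c j := by
  rw [S.mem_cc_band h.bd]
  constructor
  · rintro ⟨h1, h2⟩
    have := h2 j h.2.1
    rw [h.2.2] at this
    exact ⟨h1, le_antisymm (this.1 le_rfl) (this.2 le_rfl)⟩
  · rintro ⟨h1, h2⟩
    refine ⟨h1, fun k _ => ?_⟩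
    rw [h2, h.2.2]
    exact ⟨id, id⟩

theorem OnS.oc {S : Slc T κ} {c : κ} {j : ℕ} {x : E} (h : S.OnS c j x) {y : E} :
    y ∈ S.T3.oc x ↔ y ∈ T.oc x ∧ S.φ y = S.t c j := by
  rw [S.mem_oc_band h.bd]
  constructor
  · rintro ⟨h1, h2⟩
    have := h2 j h.2.1
    rw [h.2.2] at this
    exact ⟨h1, le_antisymm (this.1.2 le_rfl) (this.2.2 le_rfl)⟩
  · rintro ⟨h1, h2⟩
    refine ⟨h1, fun k _ => ?_⟩
    rw [h2, h.2.2]
    exact ⟨Iff.rfl, Iff.rfl⟩

theorem InL.cc {S : Slc T κ} {c : κ} {j : ℕ} {x : E} (h : S.InL c j x) {y : E} :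
    y ∈ S.T3.cc x ↔ y ∈ T.cc x ∧ S.t c (j + 1) ≤ S.φ y ∧ S.φ y ≤ S.t c j := by
  rw [S.mem_cc_band h.bd]
  obtain ⟨_, hj, h1, h2⟩ := h
  constructor
  · rintro ⟨h3, h4⟩
    exact ⟨h3, (h4 (j + 1) (by omega)).2 h1.le, (h4 j (by omega)).1 h2.le⟩
  · rintro ⟨h3, h4, h5⟩
    refine ⟨h3, fun k hk => ?_⟩
    rcases Nat.lt_or_ge j k with hjk | hjk
    · have h6 : S.t c k ≤ S.t c (j + 1) := S.t_le (by omega) hk
      exact ⟨fun h => by linarith, fun _ => by linarith⟩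
    · have h6 : S.t c j ≤ S.t c k := S.t_le hjk (by omega)
      exact ⟨fun _ => by linarith, fun h => by linarith⟩

theorem InL.oc {S : Slc T κ} {c : κ} {j : ℕ} {x : E} (h : S.InL c j x) {y : E} :
    y ∈ S.T3.oc x ↔ y ∈ T.oc x ∧ S.t c (j + 1) < S.φ y ∧ S.φ y < S.t c j := by
  rw [S.mem_oc_band h.bd]
  obtain ⟨_, hj, h1, h2⟩ := h
  constructor
  · rintro ⟨h3, h4⟩
    refine ⟨h3, ?_, ?_⟩
    · by_contra hc
      have := (h4 (j + 1) (by omega)).1.1 (not_lt.1 hc)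
      linarith
    · by_contra hc
      have := (h4 j (by omega)).2.1 (not_lt.1 hc)
      linarith
  · rintro ⟨h3, h4, h5⟩
    refine ⟨h3, fun k hk => ?_⟩
    rcases Nat.lt_or_ge j k with hjk | hjk
    · have h6 : S.t c k ≤ S.t c (j + 1) := S.t_le (by omega) hk
      exact ⟨⟨fun h => by linarith, fun h => by linarith⟩,
        ⟨fun _ => by linarith, fun _ => by linarith⟩⟩
    · have h6 : S.t c j ≤ S.t c k := S.t_le hjk (by omega)
      exact ⟨⟨fun _ => by linarith, fun _ => by linarith⟩,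
        ⟨fun h => by linarith, fun h => by linarith⟩⟩

/-! ### dimensions -/

theorem mem_V3 {x v : E} : v ∈ S.T3.V x ↔ v ∈ T.V x ∧
    ∀ i ∈ T.at_ x, ∀ c, S.Cut c i → ∀ j ≤ S.n c, S.φ x = S.t c j → (S.af i).linear v = 0 := by
  unfold T3
  rw [mem_refine_V]
  constructor
  · rintro ⟨h1, h2⟩
    refine ⟨h1, fun i hi c hc j hj e => ?_⟩
    exact h2 i hi _ (S.mem_HH.2 ⟨c, hc, j, hj, rfl⟩) ((S.pl_eq hc.aff hi _).2 e)
  · rintro ⟨h1, h2⟩
    refine ⟨h1, fun i hi h hh e => ?_⟩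
    obtain ⟨c, hc, j, hj, rfl⟩ := S.mem_HH.1 hh
    exact h2 i hi c hc j hj ((S.pl_eq hc.aff hi _).1 e)

/-- off the slices the dimension does not change -/
theorem dim3_off {x : E} (h : ∀ c j, ¬ S.OnS c j x) : S.T3.dim x = T.dim x := by
  have : S.T3.V x = T.V x := by
    ext v
    rw [S.mem_V3]
    refine ⟨fun h => h.1, fun hv => ⟨hv, fun i hi c hc j hj e => ?_⟩⟩
    exact absurd ⟨hc.mem_U hi (by rw [e]; exact S.t_lt_b hj), hj, e⟩ (h c j)
  unfold Tiling.dim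
  rw [this]

/-- on a slice the dimension drops by one -/
theorem dim3_on {c : κ} {j : ℕ} {x : E} (h : S.OnS c j x) : S.T3.dim x + 1 = T.dim x := by
  obtain ⟨L, hL, v, hv, hLv⟩ := S.exists_dir h.bd
  have hxO := S.Bd_sub h.bd
  -- the linear parts agree with `L` on the directions of the cell
  have hlin : ∀ i ∈ T.at_ x, ∀ w ∈ T.V x, (S.af i).linear w = L w := by
    intro i hi w hw
    obtain ⟨r, hr, hb⟩ := T.exists_ball_oc hxO
    by_cases hw0 : w = 0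
    · rw [hw0, map_zero, map_zero]
    have hwn : 0 < ‖w‖ := norm_pos_iff.2 hw0
    set ε := r / (2 * ‖w‖) with hε
    have hε0 : 0 < ε := by positivity
    have hm : x + ε • w ∈ T.cc x := T.oc_sub_cc x (hb _ ((T.V x).smul_mem _ hw) (by
      rw [norm_smul, Real.norm_eq_abs, abs_of_pos hε0, hε]
      have : r / (2 * ‖w‖) * ‖w‖ = r / 2 := by field_simp
      rw [this]; linarith))
    have hA : AffOn S.φ (P (T.H i)) := (S.cut_of_mem h.bd hi).aff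
    have h1 := hL x (T.self_mem_cc x) _ hm
    rw [add_sub_cancel_left, S.af_eq hA (T.cc_sub_tile hi hm), S.af_eq hA hi, S.af_apply,
      S.af_apply i x, map_add, map_smul, map_smul, smul_eq_mul, smul_eq_mul] at h1
    have h2 : ε * (S.af i).linear w = ε * L w := by linarith
    exact mul_left_cancel₀ hε0.ne' h2
  -- the directions form the kernel of `L` on `V x`
  let l : T.V x →ₗ[ℝ] ℝ := L.comp (T.V x).subtype
  have hker : S.T3.V x = (LinearMap.ker l).map (T.V x).subtype := by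
    ext w
    rw [S.mem_V3, Submodule.mem_map]
    constructor
    · rintro ⟨h1, h2⟩
      obtain ⟨i, hi⟩ := T.cov x hxO
      refine ⟨⟨w, h1⟩, ?_, rfl⟩
      rw [LinearMap.mem_ker]
      show L w = 0
      rw [← hlin i hi w h1]
      exact h2 i hi c (S.cut_of_mem h.bd hi) j h.2.1 h.2.2
    · rintro ⟨⟨w', hw'⟩, h1, rfl⟩
      rw [LinearMap.mem_ker] at h1
      refine ⟨hw', fun i hi c' hc' j' hj' e => ?_⟩
      show (S.af i).linear w' = 0
      rw [hlin i hi w' hw']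
      exact h1
  have h1 := LinearMap.finrank_range_add_finrank_ker l
  have h2 : LinearMap.range l = ⊤ := by
    rw [LinearMap.range_eq_top]
    intro s
    refine ⟨(s / L v) • ⟨v, hv⟩, ?_⟩
    rw [map_smul]
    show (s / L v) • L v = s
    rw [smul_eq_mul, div_mul_cancel₀ _ hLv]
  rw [h2, finrank_top, Module.finrank_self] at h1
  have h3 : Module.finrank ℝ (S.T3.V x) = Module.finrank ℝ (LinearMap.ker l) := by
    rw [hker]
    exact Submodule.finrank_map_subtype_eq _ _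
  unfold Tiling.dim
  rw [h3]
  omega

end Slc

end Crest.Agent.R096.Slc_184
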