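import Crest.Agent.R096.Slc3_184
import Crest.Agent.R096.Mrg4_715

/-!
# Row 96, DOORS, leaf SLC (helper184), part 4: the cores `KK k c`, points of the slices and layers,
diagonal faces.
-/

set_option autoImplicit false
set_option linter.unusedSectionVars false

open Set Filter Topology Metric
open scoped Classical

namespace Crest.Agent.R096.Slc_184

open Crest.Agent.R096.Msh_715 Crest.Agent.R096.Agl5_543 Crest.Agent.R096.St_147

variable {E : Type} [NormedAddCommGroup E] [NormedSpace ℝ E] [FiniteDimensional ℝ E]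
variable {Om : Set E} {ι : Type}

section general

variable {T : Tiling Om ι}

theorem mem_oc_of_dim {x y : E} (hy : y ∈ T.cc x) (hd : T.dim x ≤ T.dim y) :
    y ∈ T.oc x := by
  by_contra h
  have := T.dim_lt hy h
  omega

theorem c2_eq_mk {F : C2 T} {x : E} (hx : x ∈ Om) (hd : T.dim x = 2) (h : x ∈ F.set) :
    F = mk2 T hx hd := by
  apply C2.ext
  rw [F.set_eq] at h ⊢
  have h1 : x ∈ T.oc F.pt := mem_oc_of_dim h (by rw [F.dim_pt, hd])
  rw [mk2_set]
  exact (T.cc_eq_of_mem_oc F.pt_mem h1).symm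

theorem mk2_pt {x : E} (hx : x ∈ Om) (hd : T.dim x = 2) : (mk2 T hx hd).pt ∈ T.oc x := T.pt_cl hx

theorem mk2_eq_iff {x y : E} (hx : x ∈ Om) (hd : T.dim x = 2) (hy : y ∈ Om) (hd' : T.dim y = 2) :
    mk2 T hx hd = mk2 T hy hd' ↔ y ∈ T.oc x := by
  constructor
  · intro h
    have h1 := congrArg C2.set h
    rw [mk2_set, mk2_set] at h1
    exact T.mem_oc_of_mem_cc (by rw [h1]; exact T.self_mem_cc y) (by rw [← h1]; exact T.self_mem_cc x)
  · intro h
    apply C2.ext
    rw [mk2_set, mk2_set, T.cc_eq_of_mem_oc hx h]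

/-- the tile of a point of full dimension -/
noncomputable def tl (T : Tiling Om ι) {x : E} (hx : x ∈ Om)
    (hd : T.dim x = Module.finrank ℝ E) : ι :=
  ((T.V_eq_top_iff hx).1 (Submodule.eq_top_of_finrank_eq hd)).choose

theorem tl_mem {x : E} (hx : x ∈ Om) (hd : T.dim x = Module.finrank ℝ E) :
    x ∈ I (T.H (tl T hx hd)) :=
  ((T.V_eq_top_iff hx).1 (Submodule.eq_top_of_finrank_eq hd)).choose_spec

theorem tl_P {x : E} (hx : x ∈ Om) (hd : T.dim x = Module.finrank ℝ E) :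
    P (T.H (tl T hx hd)) = T.cc x := (T.cc_eq_tile (tl_mem hx hd)).symm

theorem tl_eq {x : E} (hx : x ∈ Om) (hd : T.dim x = Module.finrank ℝ E) {q : ι}
    (hq : x ∈ P (T.H q)) : q = tl T hx hd := by
  have := T.at_eq_singleton (tl_mem hx hd)
  have h1 : q ∈ T.at_ x := hq
  rw [this] at h1
  exact h1

theorem exists_full (T : Tiling Om ι) (q : ι) :
    ∃ x, x ∈ I (T.H q) ∧ x ∈ Om ∧ T.dim x = Module.finrank ℝ E := by
  obtain ⟨x, hx⟩ := T.ne q
  have hO : x ∈ Om := T.sub q (I_sub_P _ hx)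
  refine ⟨x, hx, hO, ?_⟩
  unfold Tiling.dim
  rw [(T.V_eq_top_iff hO).2 ⟨q, hx⟩, finrank_top]

variable {κ : Type} {Kc : κ → Set E}

/-- the faces of the merged mesh: not inside a core -/
theorem diag_iff (h3 : Module.finrank ℝ E = 3) (hK : ∀ c, Core (Kc c)) (hKO : ∀ c, Kc c ⊆ Om)
    (hs : ∀ c, ∀ x ∈ frontier (Kc c), T.cc x ⊆ frontier (Kc c))
    (hdis : ∀ c c', c ≠ c' → Disjoint (Kc c) (Kc c')) (F : C2 T) :
    (((meshC T h3).side F).map (piK T Kc)).IsDiag ↔ ∃ c, F.pt ∈ interior (Kc c) := by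
  obtain ⟨x, hne, hat, -⟩ := F.exists_side h3
  have hm : ∀ q, q ∈ (meshC T h3).side F ↔ q ∈ T.at_ F.pt := fun q => C2.mem_side (h3 := h3)
  rw [map_isDiag_iff]
  constructor
  · intro h
    have h1 : x.1 ∈ T.at_ F.pt := by rw [hat]; exact mem_insert _ _
    have h2 : x.2 ∈ T.at_ F.pt := by rw [hat]; exact mem_insert_of_mem _ rfl
    have h4 := h x.1 ((hm _).2 h1) x.2 ((hm _).2 h2)
    rcases hpi : piK T Kc x.1 with q | c
    · rw [hpi] at h4
      have h5 := (piK_inl.1 hpi).1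
      have h6 := (piK_inl.1 h4.symm).1
      exact absurd (h5.trans h6.symm) hne
    · rw [hpi] at h4
      have h5 := (piK_inr hdis).1 hpi
      have h6 := (piK_inr hdis).1 h4.symm
      refine ⟨c, ?_⟩
      have h7 : F.pt ∈ Kc c := h5 h1
      by_contra h8
      have h9 : F.pt ∈ frontier (Kc c) := by
        rw [(hK c).closed.frontier_eq]; exact ⟨h7, h8⟩
      exact (T.mem_frontier_iff (hK c) (hKO c) (hs c) F.pt_mem hat).1 h9 (iff_of_true h5 h6)
  · rintro ⟨c, hc⟩ q hq q' hq'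
    have h1 := T.sub_of_mem_interior (hK c).closed (hs c) ((hm q).1 hq) hc
    have h2 := T.sub_of_mem_interior (hK c).closed (hs c) ((hm q').1 hq') hc
    rw [(piK_inr hdis).2 h1, (piK_inr hdis).2 h2]

end general

namespace Slc

variable {T : Tiling Om ι} {κ : Type} (S : Slc T κ)

/-- the cores -/
def KK (k : κ → ℕ) (c : κ) : Set E := {x | x ∈ S.U c ∧ S.φ x ≤ S.t c (k c)}

section KK

variable {S}
variable {k : κ → ℕ} (hk : ∀ c, k c ≤ S.n c)

include hk in
theorem isClosed_KK (c : κ) : IsClosed (S.KK k c) := by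
  have h1 : S.KK k c = {x | x ∈ closure (S.U c) ∧ S.φ x ≤ S.t c (k c)} := by
    ext x
    constructor
    · rintro ⟨h1, h2⟩; exact ⟨subset_closure h1, h2⟩
    · rintro ⟨h1, h2⟩
      refine ⟨?_, h2⟩
      by_contra h4
      have h5 : x ∈ frontier (S.U c) := by
        rw [frontier, (S.opn c).interior_eq]; exact ⟨h1, h4⟩
      have h6 := S.fr c x h5
      have h7 := S.t_lt_b (hk c)
      linarith
  rw [h1]
  have h2 : ContinuousOn S.φ (closure (S.U c)) := S.cont.mono (S.subO c)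
  have := h2.preimage_isClosed_of_isClosed isClosed_closure (isClosed_Iic (a := S.t c (k c)))
  exact this

theorem KK_sub (k : κ → ℕ) (c : κ) : S.KK k c ⊆ Om := fun _ h => S.sub_U' c h.1

include hk in
theorem interior_KK (c : κ) : interior (S.KK k c) = {x | x ∈ S.U c ∧ S.φ x < S.t c (k c)} := by
  apply Subset.antisymm
  · intro x hx
    have hxK := interior_subset hx
    refine ⟨hxK.1, lt_of_le_of_ne hxK.2 fun e => ?_⟩
    have hOn : S.OnS c (k c) x := ⟨hxK.1, hk c, e⟩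
    obtain ⟨L, hL, v, hv, hLv⟩ := S.exists_dir hOn.bd
    obtain ⟨r, hr, hb⟩ := T.exists_ball_oc (S.Bd_sub hOn.bd)
    obtain ⟨r', hr', hb'⟩ := Metric.isOpen_iff.1 isOpen_interior x hx
    -- a direction with positive slope
    obtain ⟨w, hw, hLw⟩ : ∃ w ∈ T.V x, 0 < L w := by
      rcases lt_or_gt_of_ne hLv with h | h
      · exact ⟨-v, (T.V x).neg_mem hv, by rw [map_neg]; linarith⟩
      · exact ⟨v, hv, h⟩
    have hw0 : w ≠ 0 := fun h => by rw [h, map_zero] at hLw; exact lt_irrefl _ hLw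
    have hwn : 0 < ‖w‖ := norm_pos_iff.2 hw0
    set ε := min r r' / (2 * ‖w‖) with hε
    have hε0 : 0 < ε := by positivity
    have hnorm : ‖ε • w‖ < min r r' := by
      rw [norm_smul, Real.norm_eq_abs, abs_of_pos hε0, hε]
      have h9 : 0 < min r r' := lt_min hr hr'
      have : min r r' / (2 * ‖w‖) * ‖w‖ = min r r' / 2 := by field_simp
      rw [this]; linarith
    have h1 : x + ε • w ∈ T.cc x :=
      T.oc_sub_cc x (hb _ ((T.V x).smul_mem _ hw) (hnorm.trans_le (min_le_left _ _)))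
    have h2 := interior_subset (hb' (show x + ε • w ∈ ball x r' by
      rw [mem_ball, dist_eq_norm, add_sub_cancel_left]
      exact hnorm.trans_le (min_le_right _ _)))
    have h3 := hL x (T.self_mem_cc x) _ h1
    rw [add_sub_cancel_left, map_smul, smul_eq_mul, e] at h3
    have h4 := h2.2
    have h5 : 0 < ε * L w := mul_pos hε0 hLw
    linarith
  · apply interior_maximal
    · rintro x ⟨h1, h2⟩; exact ⟨h1, h2.le⟩
    · have h1 : ContinuousOn S.φ (S.U c) := S.cont.mono (S.sub_U' c)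
      have := h1.isOpen_inter_preimage (S.opn c) (isOpen_Iio (a := S.t c (k c)))
      exact this

include hk in
theorem frontier_KK (c : κ) : frontier (S.KK k c) = {x | S.OnS c (k c) x} := by
  rw [(isClosed_KK hk c).frontier_eq, interior_KK hk c]
  ext x
  constructor
  · rintro ⟨⟨h1, h2⟩, h4⟩
    refine ⟨h1, hk c, le_antisymm h2 (not_lt.1 fun h5 => h4 ⟨h1, h5⟩)⟩
  · rintro ⟨h1, _, h2⟩
    exact ⟨⟨h1, h2.le⟩, fun h => by have := h.2; linarith⟩

include hk in
theorem hs_KK (c : κ) : ∀ x ∈ frontier (S.KK k c), S.T3.cc x ⊆ frontier (S.KK k c) := by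
  intro x hx y hy
  rw [frontier_KK hk c] at hx ⊢
  have h1 := (OnS.cc hx).1 hy
  exact ⟨S.cc_mem_U hx.bd h1.1 (by rw [h1.2]; exact S.t_lt_b (hk c)), hk c, h1.2⟩

theorem dis_KK (k : κ → ℕ) (c c' : κ) (h : c ≠ c') : Disjoint (S.KK k c) (S.KK k c') :=
  (S.dis c c' h).mono (fun _ h => h.1) (fun _ h => h.1)

end KK

/-! ### points of the slices and layers -/

variable {S}

theorem OnS.mem {c : κ} {j : ℕ} {x : E} (h : S.OnS c j x) : x ∈ Om := S.Bd_sub h.bd
theorem InL.mem {c : κ} {j : ℕ} {x : E} (h : S.InL c j x) : x ∈ Om := S.Bd_sub h.bd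

theorem OnS.core {c c' : κ} {j j' : ℕ} {x : E} (h : S.OnS c j x) (h' : S.OnS c' j' x) : c = c' := by
  by_contra hne
  exact Set.disjoint_left.1 (S.dis c c' hne) h.1 h'.1

theorem core_of_U {c c' : κ} {x : E} (h : x ∈ S.U c) (h' : x ∈ S.U c') : c = c' := by
  by_contra hne
  exact Set.disjoint_left.1 (S.dis c c' hne) h h'

theorem InL.not_onS {c c' : κ} {j j' : ℕ} {x : E} (h : S.InL c j x) : ¬ S.OnS c' j' x := by
  intro h'
  have : c = c' := core_of_U h.1 h'.1
  subst this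
  obtain ⟨_, hj, h1, h2⟩ := h
  obtain ⟨_, hj', h3⟩ := h'
  rw [h3] at h1 h2
  rcases Nat.lt_or_ge j j' with h4 | h4
  · have := S.t_le (c := c) (show j + 1 ≤ j' by omega) hj'
    linarith
  · have := S.t_le (c := c) h4 hj.le
    linarith

theorem InL.dim3 {c : κ} {j : ℕ} {x : E} (h : S.InL c j x) : S.T3.dim x = T.dim x :=
  S.dim3_off fun _ _ => h.not_onS

/-- the point at the level `j` in the open cell of `x` -/
theorem onS_lv {c : κ} {x : E} (hx : x ∈ S.Bd c) {j : ℕ} (hj : j ≤ S.n c) :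
    S.OnS c j (S.lv c x (S.t c j)) := by
  have h1 := S.lv_mem hx (S.a_lt_t hj) (S.t_lt_b hj)
  exact ⟨(S.lv_Bd hx (S.a_lt_t hj) (S.t_lt_b hj)).1, hj, h1.2⟩

theorem lv_oc {c : κ} {x : E} (hx : x ∈ S.Bd c) {j : ℕ} (hj : j ≤ S.n c) :
    S.lv c x (S.t c j) ∈ T.oc x := (S.lv_mem hx (S.a_lt_t hj) (S.t_lt_b hj)).1

theorem inL_lv {c : κ} {x : E} (hx : x ∈ S.Bd c) {j : ℕ} (hj : j < S.n c) :
    S.InL c j (S.lv c x (S.mid c j)) := by
  have h1 := S.lv_mem hx (S.a_lt_mid hj) (S.mid_lt_b hj)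
  exact ⟨(S.lv_Bd hx (S.a_lt_mid hj) (S.mid_lt_b hj)).1, hj, by rw [h1.2]; exact S.lt_mid hj,
    by rw [h1.2]; exact S.mid_lt hj⟩

theorem lvm_oc {c : κ} {x : E} (hx : x ∈ S.Bd c) {j : ℕ} (hj : j < S.n c) :
    S.lv c x (S.mid c j) ∈ T.oc x := (S.lv_mem hx (S.a_lt_mid hj) (S.mid_lt_b hj)).1

/-- every point between the extreme slices is on a slice or in a layer -/
theorem onS_or_inL {c : κ} {x : E} (hx : x ∈ S.U c) (h0 : S.φ x ≤ S.t c 0)
    (h1 : S.t c (S.n c) ≤ S.φ x) : (∃ j, S.OnS c j x) ∨ ∃ j, S.InL c j x := by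
  have key : ∀ m ≤ S.n c, S.t c m ≤ S.φ x → (∃ j, S.OnS c j x) ∨ ∃ j, S.InL c j x := by
    intro m
    induction m with
    | zero => intro _ h; exact Or.inl ⟨0, hx, Nat.zero_le _, le_antisymm h0 h⟩
    | succ m ih =>
      intro hm h
      rcases lt_or_ge (S.φ x) (S.t c m) with h2 | h2
      · rcases eq_or_lt_of_le h with h3 | h3
        · exact Or.inl ⟨m + 1, hx, hm, h3.symm⟩
        · exact Or.inr ⟨m, hx, by omega, h3, h2⟩
      · exact ih (by omega) h2
  exact key _ le_rfl h1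

end Slc

end Crest.Agent.R096.Slc_184
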