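import Crest.Agent.R096.Mrg4_715

/-!
# Row 96, DOORS / SLC (helper316), part (S-d): sublevel sets of a PL function are cores

`core_sub` (statement of helper184, #9813): `φ` affine on the tiles, `t` not a vertex value, then
`{x ∈ U | φ x ≤ t}` is compact, its frontier is the level set, it is a `Core` and its frontier is
locally connected after removing a point (`PC`).
-/

set_option autoImplicit false

open Set Metric Filter Topology Module

namespace Crest.Agent.R096.Sld_316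

open Crest.Agent.R096.Msh_715

variable {E : Type*} [NormedAddCommGroup E] [NormedSpace ℝ E]

/-- `φ` has a local product structure in the direction `v` and is conical at `x` -/
structure LP (φ : E → ℝ) (x v : E) (r : ℝ) : Prop where
  pos : 0 < r
  prod : ∀ y ∈ ball x r, ∀ s : ℝ, |s| < r → φ (y + s • v) = φ y + s
  cone : ∀ y ∈ ball x r, ∀ l : ℝ, 0 ≤ l → l ≤ 1 → φ (x + l • (y - x)) = φ x + l * (φ y - φ x)
  cont : ContinuousOn φ (ball x r)

theorem aff_add (g : E →ᵃ[ℝ] ℝ) (y v : E) (s : ℝ) : g (y + s • v) = g y + s * g.linear v := by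
  rw [add_comm y, ← vadd_eq_add, g.map_vadd, map_smul, vadd_eq_add, smul_eq_mul, add_comm]

theorem LP.mono {φ : E → ℝ} {x v : E} {r r' : ℝ} (h : LP φ x v r) (h0 : 0 < r') (hr : r' ≤ r) :
    LP φ x v r' where
  pos := h0
  prod := fun y hy s hs => h.prod y (ball_subset_ball hr hy) s (hs.trans_le hr)
  cone := fun y hy => h.cone y (ball_subset_ball hr hy)
  cont := h.cont.mono (ball_subset_ball hr)

/-- local product structure at a point where `φ` is not constant on the cell -/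
theorem exists_LP {Om : Set E} {ι : Type*} {T : Tiling Om ι} {φ : E → ℝ} {U : Set E}
    (hU : IsOpen U) (hUO : U ⊆ Om) (hφ : ContinuousOn φ Om)
    (haff : ∀ i, (P (T.H i) ∩ U).Nonempty → ∃ g : E →ᵃ[ℝ] ℝ, EqOn φ g (P (T.H i)))
    {x p : E} (hx : x ∈ U) (hp : p ∈ T.cc x) (hpx : φ p ≠ φ x) :
    ∃ v ∈ T.V x, ∃ r, LP φ x v r ∧ ball x r ⊆ U := by
  have hxO := hUO hx
  obtain ⟨r1, hr1, hO, hat⟩ := T.exists_ball hxO
  obtain ⟨r2, hr2, hU2⟩ := Metric.isOpen_iff.1 hU x hx
  have hd : φ p - φ x ≠ 0 := sub_ne_zero.2 hpx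
  set v : E := (φ p - φ x)⁻¹ • (p - x) with hv
  have hvV : v ∈ T.V x := (T.V x).smul_mem _ (T.sub_mem_V hp)
  have hg : ∀ i ∈ T.at_ x, ∃ g : E →ᵃ[ℝ] ℝ, EqOn φ g (P (T.H i)) ∧ g.linear v = 1 := by
    intro i hi
    obtain ⟨g, hg⟩ := haff i ⟨x, hi, hx⟩
    refine ⟨g, hg, ?_⟩
    have h1 : g p = g x + 1 * g.linear (p - x) := by
      rw [← aff_add, one_smul, add_sub_cancel]
    have h2 : φ p = g p := hg (T.cc_sub_tile hi hp)
    have h3 : φ x = g x := hg hi
    rw [hv, map_smul, smul_eq_mul]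
    have h4 : g.linear (p - x) = φ p - φ x := by rw [h2, h3, h1]; ring
    rw [h4, inv_mul_cancel₀ hd]
  -- small moves stay in the tiles
  have hev : ∀ᶠ q : E × ℝ in 𝓝 (x, (0 : ℝ)), ∀ i ∈ T.at_ x, ∀ h ∈ T.H i, h.1 x < h.2 →
      h.1 (q.1 + q.2 • v) < h.2 := by
    rw [Filter.eventually_all_finite (T.at_finite hxO)]
    intro i _
    rw [Finset.eventually_all]
    intro h _
    by_cases e : h.1 x < h.2
    · simp only [e, forall_const]
      have hc : Continuous fun q : E × ℝ => h.1 (q.1 + q.2 • v) := by fun_prop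
      have := hc.tendsto (x, (0 : ℝ))
      simp only [zero_smul, add_zero] at this
      exact this.eventually (gt_mem_nhds e)
    · simp [e]
  obtain ⟨r3, hr3, h3⟩ := Metric.eventually_nhds_iff.1 hev
  refine ⟨v, hvV, min (min r1 r2) r3, ⟨by positivity, ?_, ?_, ?_⟩, ?_⟩
  · intro y hy s hs
    have hy1 : y ∈ ball x r1 := ball_subset_ball ((min_le_left _ _).trans (min_le_left _ _)) hy
    obtain ⟨i, hi⟩ := T.cov y (hO hy1)
    have hix := hat y hy1 hi
    obtain ⟨g, hg1, hg2⟩ := hg i hix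
    have hys : y + s • v ∈ P (T.H i) := by
      intro h hh
      rcases (hix h hh).lt_or_eq with e | e
      · have : dist (y, s) (x, (0 : ℝ)) < r3 := by
          rw [Prod.dist_eq, max_lt_iff]
          refine ⟨(mem_ball.1 hy).trans_le (min_le_right _ _), ?_⟩
          rw [Real.dist_eq, sub_zero]
          exact hs.trans_le (min_le_right _ _)
        exact (h3 this i hix h hh e).le
      · rw [map_add, map_smul, hvV i hix h hh e, smul_zero, add_zero]
        exact hi h hh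
    rw [hg1 hys, hg1 hi, aff_add, hg2, mul_one]
  · intro y hy l hl0 hl1
    have hy1 : y ∈ ball x r1 := ball_subset_ball ((min_le_left _ _).trans (min_le_left _ _)) hy
    obtain ⟨i, hi⟩ := T.cov y (hO hy1)
    have hix := hat y hy1 hi
    obtain ⟨g, hg1, hg2⟩ := hg i hix
    have hm : x + l • (y - x) ∈ P (T.H i) := (convex_P _).add_smul_sub_mem hix hi ⟨hl0, hl1⟩
    have h4 : g y = g x + 1 * g.linear (y - x) := by
      rw [← aff_add, one_smul, add_sub_cancel]
    rw [hg1 hm, hg1 hi, hg1 hix, aff_add, h4]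
    ring
  · exact hφ.mono ((ball_subset_ball ((min_le_left _ _).trans (min_le_left _ _))).trans hO)
  · exact (ball_subset_ball ((min_le_left _ _).trans (min_le_right _ _))).trans hU2

/-- the one sided neighbourhoods are connected: `c > 0` times `φ - t` -/
theorem LP.side {φ : E → ℝ} {x v : E} {r : ℝ} (h : LP φ x v r) (e : ℝ) (he : e = 1 ∨ e = -1)
    {W : Set E} (hW : W ∈ 𝓝 x) : ∃ V ∈ 𝓝 x, ∃ S, IsPreconnected S ∧
      V ∩ {y | y ∈ ball x r ∧ 0 < e * (φ y - φ x)} ⊆ S ∧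
      S ⊆ W ∩ {y | y ∈ ball x r ∧ 0 < e * (φ y - φ x)} := by
  obtain ⟨δ, hδ, hδW⟩ := Metric.mem_nhds_iff.1 hW
  have hr := h.pos
  set ρ : ℝ := min δ r with hρ
  have hρ0 : 0 < ρ := lt_min hδ hr
  set σ : ℝ := ρ / (2 * (‖v‖ + 1)) with hσ
  have hn := norm_nonneg v
  have hσ0 : 0 < σ := by positivity
  have hσv : σ * ‖v‖ < ρ / 2 := by
    rw [hσ, div_mul_eq_mul_div, div_lt_div_iff₀ (by positivity) (by norm_num)]
    nlinarith
  have hσr : σ < r := by
    have : σ ≤ ρ / 2 := by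
      rw [hσ]
      apply div_le_div_of_nonneg_left hρ0.le (by norm_num)
      linarith
    linarith [min_le_right δ r]
  have hee : e * e = 1 := by rcases he with rfl | rfl <;> norm_num
  have habs : |e| = 1 := by rcases he with rfl | rfl <;> simp
  set D : Set (ℝ × ℝ) := {p | 0 ≤ p.1 ∧ p.1 ≤ 1 ∧ 0 ≤ p.2 ∧ p.2 ≤ σ ∧ 0 < p.1 + p.2} with hD
  have hDc : Convex ℝ D := by
    intro p hp q hq a b ha hb hab
    obtain ⟨p1, p2, p3, p4, p5⟩ := hp
    obtain ⟨q1, q2, q3, q4, q5⟩ := hq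
    refine ⟨?_, ?_, ?_, ?_, ?_⟩
    · show 0 ≤ a * p.1 + b * q.1
      positivity
    · show a * p.1 + b * q.1 ≤ 1
      nlinarith
    · show 0 ≤ a * p.2 + b * q.2
      positivity
    · show a * p.2 + b * q.2 ≤ σ
      nlinarith
    · show 0 < (a * p.1 + b * q.1) + (a * p.2 + b * q.2)
      rcases ha.lt_or_eq with h1 | h1
      · nlinarith [mul_pos h1 p5, mul_nonneg hb q5.le]
      · have : b = 1 := by linarith
        rw [← h1, this]
        linarith
  set f : E → ℝ × ℝ → E := fun y p => x + p.1 • (y - x) + (e * p.2) • v with hf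
  have hfc : ∀ y, Continuous (f y) := by intro y; rw [hf]; fun_prop
  refine ⟨ball x (ρ / 2), ball_mem_nhds x (by positivity),
    ⋃ y ∈ ball x (ρ / 2) ∩ {y | y ∈ ball x r ∧ 0 < e * (φ y - φ x)}, f y '' D, ?_, ?_, ?_⟩
  · apply isPreconnected_of_forall (x + (e * σ) • v)
    intro z hz
    obtain ⟨y, hy, hz⟩ := mem_iUnion₂.1 hz
    refine ⟨f y '' D, ?_, ?_, hz, hDc.isPreconnected.image _ (hfc y).continuousOn⟩
    · exact subset_biUnion_of_mem (u := fun y => f y '' D) hy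
    · refine ⟨(0, σ), ⟨le_rfl, zero_le_one, hσ0.le, le_rfl, by simpa using hσ0⟩, ?_⟩
      show x + (0 : ℝ) • (y - x) + (e * σ) • v = x + (e * σ) • v
      rw [zero_smul, add_zero]
  · rintro y ⟨hy1, hy2⟩
    refine mem_biUnion (show y ∈ ball x (ρ / 2) ∩ {y | y ∈ ball x r ∧ 0 < e * (φ y - φ x)} from
      ⟨hy1, hy2⟩) ⟨(1, 0), ⟨zero_le_one, le_rfl, le_rfl, hσ0.le,
      by norm_num⟩, ?_⟩
    show x + (1 : ℝ) • (y - x) + (e * 0) • v = y
    rw [one_smul, mul_zero, zero_smul, add_zero, add_sub_cancel]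
  · intro z hz
    obtain ⟨y, ⟨hy1, hy2, hy3⟩, ⟨p, ⟨p1, p2, p3, p4, p5⟩, rfl⟩⟩ := mem_iUnion₂.1 hz
    have hd1 : dist (x + p.1 • (y - x)) x < ρ / 2 := by
      rw [dist_eq_norm, add_sub_cancel_left, norm_smul, Real.norm_eq_abs, abs_of_nonneg p1]
      have : ‖y - x‖ < ρ / 2 := by rw [← dist_eq_norm]; exact hy1
      nlinarith [norm_nonneg (y - x)]
    have hd2 : ‖(e * p.2) • v‖ < ρ / 2 := by
      rw [norm_smul, Real.norm_eq_abs, abs_mul, habs, one_mul, abs_of_nonneg p3]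
      exact (mul_le_mul_of_nonneg_right p4 hn).trans_lt hσv
    have hd : dist (f y p) x < ρ := by
      rw [dist_eq_norm]
      have : f y p - x = (x + p.1 • (y - x) - x) + (e * p.2) • v := by
        show x + p.1 • (y - x) + (e * p.2) • v - x = _
        abel
      rw [this]
      have h1 := norm_add_le (x + p.1 • (y - x) - x) ((e * p.2) • v)
      rw [← dist_eq_norm] at h1
      linarith
    refine ⟨hδW (hd.trans_le (min_le_left _ _)), hd.trans_le (min_le_right _ _), ?_⟩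
    have hmem : x + p.1 • (y - x) ∈ ball x r :=
      hd1.trans (by linarith [min_le_right δ r])
    have hs : |e * p.2| < r := by
      rw [abs_mul, habs, one_mul, abs_of_nonneg p3]
      exact p4.trans_lt hσr
    have h1 : φ (f y p) = φ x + p.1 * (φ y - φ x) + e * p.2 := by
      show φ (x + p.1 • (y - x) + (e * p.2) • v) = _
      rw [h.prod _ hmem _ hs, h.cone y hy2 p.1 p1 p2]
    rw [h1]
    have h2 : e * (φ x + p.1 * (φ y - φ x) + e * p.2 - φ x) =
        p.1 * (e * (φ y - φ x)) + (e * e) * p.2 := by ring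
    rw [h2, hee, one_mul]
    rcases p1.lt_or_eq with h3 | h3
    · nlinarith [mul_pos h3 hy3]
    · rw [← h3, zero_mul, zero_add]
      linarith

/-- the level set is locally connected after removing a point -/
theorem LP.punct [FiniteDimensional ℝ E] (h3 : finrank ℝ E = 3) {φ : E → ℝ} {x v : E} {r : ℝ}
    (h : LP φ x v r) {W : Set E} (hW : W ∈ 𝓝 x) : ∃ V ∈ 𝓝 x, ∃ R, IsPreconnected R ∧
      V ∩ ({y | y ∈ ball x r ∧ φ y = φ x} \ {x}) ⊆ R ∧
      R ⊆ W ∩ ({y | y ∈ ball x r ∧ φ y = φ x} \ {x}) := by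
  have hr := h.pos
  have hv0 : v ≠ 0 := by
    intro h0
    have h1 := h.prod x (mem_ball_self hr) (r / 2) (by rw [abs_of_pos (by positivity)]; linarith)
    rw [h0, smul_zero, add_zero] at h1
    linarith
  obtain ⟨l0, hl0⟩ : ∃ l : E →L[ℝ] ℝ, l v = 1 := by
    obtain ⟨l, hl1, hl2⟩ := exists_dual_vector ℝ v (norm_ne_zero_iff.2 hv0)
    have h1 : l v = ‖v‖ := by simpa using hl2
    refine ⟨(‖v‖)⁻¹ • l, ?_⟩
    show (‖v‖)⁻¹ • l v = 1
    rw [h1, smul_eq_mul, inv_mul_cancel₀ (norm_ne_zero_iff.2 hv0)]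
  set W0 : Submodule ℝ E := LinearMap.ker (l0 : E →ₗ[ℝ] ℝ) with hW0
  have hfin : finrank ℝ W0 = 2 := by
    have h1 := LinearMap.finrank_range_add_finrank_ker (l0 : E →ₗ[ℝ] ℝ)
    have h2 : LinearMap.range (l0 : E →ₗ[ℝ] ℝ) = ⊤ := by
      rw [LinearMap.range_eq_top]
      intro c
      refine ⟨c • v, ?_⟩
      show l0 (c • v) = c
      rw [map_smul, hl0, smul_eq_mul, mul_one]
    rw [h2, finrank_top, finrank_self, h3, ← hW0] at h1
    omega
  have hrank : 1 < Module.rank ℝ W0 := by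
    rw [← Module.finrank_eq_rank, hfin]; norm_num
  let Ψ : W0 → E := fun u => x + (u : E) - (φ (x + u) - φ x) • v
  -- small `u`
  have hΨc : ContinuousOn Ψ {u : W0 | ‖u‖ < r} := by
    have h1 : ContinuousOn (fun u : W0 => φ (x + u)) {u : W0 | ‖u‖ < r} := by
      refine h.cont.comp (by fun_prop) ?_
      intro u hu
      rw [mem_ball, dist_eq_norm, add_sub_cancel_left]
      exact hu
    have h2 : ContinuousOn (fun u : W0 => (φ (x + u) - φ x) • v) {u : W0 | ‖u‖ < r} :=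
      (h1.sub continuousOn_const).smul continuousOn_const
    exact ContinuousOn.sub (by fun_prop) h2
  have hΨ0 : Ψ 0 = x := by simp [Ψ]
  have hcat : ContinuousAt Ψ 0 := by
    refine hΨc.continuousAt ?_
    have : {u : W0 | ‖u‖ < r} = ball 0 r := by
      ext u; rw [mem_ball, dist_zero_right]; rfl
    rw [this]
    exact ball_mem_nhds _ hr
  have hφat : ContinuousAt φ x := h.cont.continuousAt (ball_mem_nhds x hr)
  have hev : ∀ᶠ u in 𝓝 (0 : W0), Ψ u ∈ W ∧ Ψ u ∈ ball x r ∧ x + (u : E) ∈ ball x r ∧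
      |φ (x + u) - φ x| < r := by
    have h1 : Tendsto (fun u : W0 => x + (u : E)) (𝓝 0) (𝓝 x) := by
      have hc : Continuous fun u : W0 => x + (u : E) := by fun_prop
      have := hc.tendsto 0
      simpa using this
    have h2 : Tendsto (fun u : W0 => |φ (x + u) - φ x|) (𝓝 0) (𝓝 0) := by
      have h4 : Tendsto (fun u : W0 => φ (x + u)) (𝓝 0) (𝓝 (φ x)) := hφat.tendsto.comp h1
      have h5 := (h4.sub_const (φ x)).abs
      simpa using h5
    have h6 : Tendsto Ψ (𝓝 0) (𝓝 x) := by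
      have := hcat.tendsto
      rwa [hΨ0] at this
    exact (h6.eventually hW).and ((h6.eventually (ball_mem_nhds x hr)).and
      ((h1.eventually (ball_mem_nhds x hr)).and (h2.eventually (gt_mem_nhds hr))))
  obtain ⟨δ, hδ, hδb⟩ := Metric.eventually_nhds_iff.1 hev
  have hδb' : ∀ u : W0, ‖u‖ < δ → Ψ u ∈ W ∧ Ψ u ∈ ball x r ∧ x + (u : E) ∈ ball x r ∧
      |φ (x + u) - φ x| < r := fun u hu => hδb (by rwa [dist_zero_right])
  set δ' : ℝ := min δ r with hδ'
  have hδ0 : 0 < δ' := lt_min hδ hr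
  -- the neighbourhood of `x`
  have hV : {y : E | ‖(y - x) - l0 (y - x) • v‖ < δ' ∧ |l0 (y - x)| < r ∧ y ∈ ball x r} ∈ 𝓝 x := by
    have hc1 : Continuous fun y : E => ‖(y - x) - l0 (y - x) • v‖ := by fun_prop
    have hc2 : Continuous fun y : E => |l0 (y - x)| := by fun_prop
    have e1 : ‖(x - x) - l0 (x - x) • v‖ < δ' := by simpa using hδ0
    have e2 : |l0 (x - x)| < r := by simpa using hr
    exact (hc1.continuousAt.eventually (gt_mem_nhds e1)).and
      ((hc2.continuousAt.eventually (gt_mem_nhds e2)).and (ball_mem_nhds x hr))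
  refine ⟨_, hV, Ψ '' {u : W0 | 0 < ‖u‖ ∧ ‖u‖ < δ'}, ?_, ?_, ?_⟩
  · refine (isPreconnected_annulus hrank δ').image _ (hΨc.mono ?_)
    intro u hu
    exact hu.2.trans_le (min_le_right _ _)
  · rintro y ⟨⟨hy1, hy2, hy3⟩, ⟨hyb, hyt⟩, hyx⟩
    set c : ℝ := l0 (y - x) with hc
    have huW : (y - x) - c • v ∈ W0 := by
      rw [hW0, LinearMap.mem_ker]
      show l0 ((y - x) - c • v) = 0
      rw [map_sub, map_smul, hl0, smul_eq_mul, mul_one, ← hc, sub_self]
    have hxu : x + ((y - x) - c • v) = y + (-c) • v := by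
      rw [neg_smul]; abel
    have hφu : φ (x + ((y - x) - c • v)) - φ x = -c := by
      rw [hxu, h.prod y hyb (-c) (by rwa [abs_neg]), hyt]
      ring
    have hΨu : Ψ ⟨(y - x) - c • v, huW⟩ = y := by
      show x + ((y - x) - c • v) - (φ (x + ((y - x) - c • v)) - φ x) • v = y
      rw [hφu, neg_smul]
      abel
    refine ⟨⟨(y - x) - c • v, huW⟩, ⟨?_, hy1⟩, hΨu⟩
    rw [norm_pos_iff]
    intro h0
    rw [h0, hΨ0] at hΨu
    exact hyx hΨu.symm
  · rintro _ ⟨u, ⟨hu0, hu1⟩, rfl⟩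
    obtain ⟨g1, g2, g3, g4⟩ := hδb' u (hu1.trans_le (min_le_left _ _))
    refine ⟨g1, ⟨g2, ?_⟩, ?_⟩
    · show φ (x + (u : E) - (φ (x + u) - φ x) • v) = φ x
      have h5 := h.prod _ g3 (-(φ (x + u) - φ x)) (by rwa [abs_neg])
      rw [neg_smul, ← sub_eq_add_neg] at h5
      rw [h5]
      ring
    · intro h5
      rw [mem_singleton_iff] at h5
      have h6 : (u : E) = (φ (x + u) - φ x) • v := by
        have h7 : x + (u : E) - (φ (x + u) - φ x) • v = x := h5
        have h8 : (u : E) - (φ (x + u) - φ x) • v = 0 := by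
          have : x + (u : E) - (φ (x + u) - φ x) • v - x = 0 := by rw [h7, sub_self]
          rw [← this]; abel
        exact sub_eq_zero.1 h8
      have h7 : l0 (u : E) = 0 := u.2
      rw [h6, map_smul, hl0, smul_eq_mul, mul_one] at h7
      rw [h7, zero_smul] at h6
      have : u = 0 := Subtype.ext h6
      rw [this, norm_zero] at hu0
      exact lt_irrefl _ hu0

/-- **sublevel sets are cores** (abstract form) -/
theorem core_of_LP {K U : Set E} {φ : E → ℝ} {t : ℝ} (hU : IsOpen U)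
    (hK : K = {x | x ∈ U ∧ φ x ≤ t}) (hKc : IsClosed K) (hc : ContinuousOn φ U)
    (hLP : ∀ x ∈ U, φ x = t → ∃ v r, LP φ x v r ∧ ball x r ⊆ U) :
    frontier K = {x | x ∈ U ∧ φ x = t} ∧ interior K = {x | x ∈ U ∧ φ x < t} ∧ Core K := by
  have hopen : IsOpen {x | x ∈ U ∧ φ x < t} := hc.isOpen_inter_preimage hU isOpen_Iio
  have hint : interior K = {x | x ∈ U ∧ φ x < t} := by
    apply Subset.antisymm
    · intro x hx
      have hxK := interior_subset hx
      rw [hK] at hxK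
      refine ⟨hxK.1, lt_of_le_of_ne hxK.2 fun h => ?_⟩
      obtain ⟨v, r, hl, hb⟩ := hLP x hxK.1 h
      have hr := hl.pos
      have h1 : Tendsto (fun s : ℝ => x + s • v) (𝓝[>] 0) (𝓝 x) := by
        have hcc : Continuous fun s : ℝ => x + s • v := by fun_prop
        have := hcc.tendsto 0
        simp only [zero_smul, add_zero] at this
        exact this.mono_left nhdsWithin_le_nhds
      have h2 : ∀ᶠ s : ℝ in 𝓝[>] 0, s < r :=
        (gt_mem_nhds hr : ∀ᶠ s : ℝ in 𝓝 0, s < r).filter_mono nhdsWithin_le_nhds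
      obtain ⟨s, ⟨hs1, hs2⟩, hs3⟩ :=
        ((h1.eventually (mem_interior_iff_mem_nhds.1 hx)).and h2).and self_mem_nhdsWithin |>.exists
      have hs3' : (0 : ℝ) < s := hs3
      rw [hK] at hs1
      have h3 := hs1.2
      rw [hl.prod x (mem_ball_self hr) s (by rwa [abs_of_pos hs3']), h] at h3
      linarith
    · refine interior_maximal ?_ hopen
      rw [hK]
      exact fun x hx => ⟨hx.1, hx.2.le⟩
  have hfr : frontier K = {x | x ∈ U ∧ φ x = t} := by
    rw [hKc.frontier_eq, hint, hK]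
    ext x
    constructor
    · rintro ⟨⟨h1, h2⟩, h3⟩
      exact ⟨h1, le_antisymm h2 (not_lt.1 fun h => h3 ⟨h1, h⟩)⟩
    · rintro ⟨h1, h2⟩
      exact ⟨⟨h1, h2.le⟩, fun h => absurd h.2 (by rw [h2]; exact lt_irrefl _)⟩
  refine ⟨hfr, hint, ?_⟩
  constructor
  · exact hKc
  · rw [hfr, hint]
    rintro x ⟨hxU, hxt⟩
    obtain ⟨v, r, hl, hb⟩ := hLP x hxU hxt
    have hr := hl.pos
    rw [mem_closure_iff_nhds]
    intro W hW
    obtain ⟨δ, hδ, hδW⟩ := Metric.mem_nhds_iff.1 hW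
    have h1 : Tendsto (fun s : ℝ => x + (-s) • v) (𝓝[>] 0) (𝓝 x) := by
      have hcc : Continuous fun s : ℝ => x + (-s) • v := by fun_prop
      have := hcc.tendsto 0
      simp only [neg_zero, zero_smul, add_zero] at this
      exact this.mono_left nhdsWithin_le_nhds
    have h2 : ∀ᶠ s : ℝ in 𝓝[>] 0, s < r :=
      (gt_mem_nhds hr : ∀ᶠ s : ℝ in 𝓝 0, s < r).filter_mono nhdsWithin_le_nhds
    obtain ⟨s, ⟨⟨hs1, hs2⟩, hs4⟩, hs3⟩ :=
      ((((h1.eventually hW).and (h1.eventually (hU.mem_nhds hxU))).and h2).and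
        self_mem_nhdsWithin).exists
    have hs3' : (0 : ℝ) < s := hs3
    refine ⟨_, hs1, hs2, ?_⟩
    rw [hl.prod x (mem_ball_self hr) (-s) (by rwa [abs_neg, abs_of_pos hs3']), hxt]
    linarith
  · intro x hx W hW
    rw [hfr] at hx
    obtain ⟨v, r, hl, hb⟩ := hLP x hx.1 hx.2
    obtain ⟨V, hV, S, hS, h1, h2⟩ := hl.side (-1) (Or.inr rfl) hW
    rw [hint]
    refine ⟨V ∩ ball x r, inter_mem hV (ball_mem_nhds x hl.pos), S, hS, ?_, ?_⟩
    · rintro y ⟨⟨hy1, hy2⟩, hy3, hy4⟩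
      refine h1 ⟨hy1, hy2, ?_⟩
      rw [hx.2]
      linarith
    · intro y hy
      obtain ⟨h3, h4, h5⟩ := h2 hy
      refine ⟨h3, hb h4, ?_⟩
      rw [hx.2] at h5
      linarith
  · intro x hx W hW
    rw [hfr] at hx
    obtain ⟨v, r, hl, hb⟩ := hLP x hx.1 hx.2
    obtain ⟨V, hV, S, hS, h1, h2⟩ := hl.side 1 (Or.inl rfl) hW
    refine ⟨V ∩ ball x r, inter_mem hV (ball_mem_nhds x hl.pos), S, hS, ?_, ?_⟩
    · rintro y ⟨⟨hy1, hy2⟩, hy3⟩
      refine h1 ⟨hy1, hy2, ?_⟩
      rw [hx.2, one_mul, sub_pos]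
      by_contra h
      apply hy3
      rw [hK]
      exact ⟨hb hy2, not_lt.1 h⟩
    · intro y hy
      obtain ⟨h3, h4, h5⟩ := h2 hy
      refine ⟨h3, fun h => ?_⟩
      rw [hK] at h
      rw [hx.2, one_mul, sub_pos] at h5
      exact absurd h5 (not_lt.2 h.2)

/-- **the level sets are locally connected after removing a point** (abstract form) -/
theorem pc_of_LP [FiniteDimensional ℝ E] (h3 : finrank ℝ E = 3) {S U : Set E} {φ : E → ℝ} {t : ℝ}
    (hS : S = {x | x ∈ U ∧ φ x = t})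
    (hLP : ∀ x ∈ U, φ x = t → ∃ v r, LP φ x v r ∧ ball x r ⊆ U) : PC S := by
  intro x hx W hW
  rw [hS] at hx
  obtain ⟨v, r, hl, hb⟩ := hLP x hx.1 hx.2
  obtain ⟨V, hV, R, hR, h1, h2⟩ := hl.punct h3 hW
  refine ⟨V ∩ ball x r, inter_mem hV (ball_mem_nhds x hl.pos), R, hR, ?_, ?_⟩
  · rintro y ⟨⟨hy1, hy2⟩, hy3, hy4⟩
    rw [hS] at hy3
    exact h1 ⟨hy1, ⟨hy2, by rw [hy3.2, hx.2]⟩, hy4⟩
  · intro y hy
    obtain ⟨h3, ⟨h4, h5⟩, h6⟩ := h2 hy
    refine ⟨h3, ?_, h6⟩
    rw [hS]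
    exact ⟨hb h4, by rw [h5, hx.2]⟩

/-- **(S-d)** the sublevel sets of a PL function between two vertex values are cores -/
theorem core_sub [FiniteDimensional ℝ E] {Om : Set E} {ι : Type*} {T : Tiling Om ι} {φ : E → ℝ}
    {U : Set E} {a b t : ℝ}
    (hU : IsOpen U) (hUO : closure U ⊆ Om) (hUc : IsCompact (closure U)) (hφ : ContinuousOn φ Om)
    (hfr : ∀ x ∈ frontier U, b ≤ φ x)
    (haff : ∀ i, (P (T.H i) ∩ U).Nonempty → ∃ g : E →ᵃ[ℝ] ℝ, EqOn φ g (P (T.H i)))
    (hv : ∀ v ∈ U, T.dim v = 0 → φ v ≤ a ∨ b ≤ φ v) (hat : a < t) (htb : t < b) :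
    IsCompact {x | x ∈ U ∧ φ x ≤ t} ∧
    frontier {x | x ∈ U ∧ φ x ≤ t} = {x | x ∈ U ∧ φ x = t} ∧
    interior {x | x ∈ U ∧ φ x ≤ t} = {x | x ∈ U ∧ φ x < t} ∧
    Core {x | x ∈ U ∧ φ x ≤ t} ∧
    (finrank ℝ E = 3 → PC (frontier {x | x ∈ U ∧ φ x ≤ t})) := by
  have hUO' : U ⊆ Om := subset_closure.trans hUO
  have hcpt : IsCompact {x | x ∈ U ∧ φ x ≤ t} := by
    have e : {x | x ∈ U ∧ φ x ≤ t} = {x | x ∈ closure U ∧ φ x ≤ t} := by
      ext x
      constructor
      · exact fun h => ⟨subset_closure h.1, h.2⟩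
      · rintro ⟨h1, h2⟩
        refine ⟨?_, h2⟩
        by_contra hxU
        have h4 : x ∈ frontier U := by
          rw [hU.frontier_eq]; exact ⟨h1, hxU⟩
        have := hfr x h4
        linarith
    rw [e]
    refine hUc.of_isClosed_subset ?_ fun x hx => hx.1
    exact (hφ.mono hUO).preimage_isClosed_of_isClosed isClosed_closure isClosed_Iic
  have hLP : ∀ x ∈ U, φ x = t → ∃ v r, LP φ x v r ∧ ball x r ⊆ U := by
    intro x hx hxt
    -- some point of the cell has another value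
    obtain ⟨p, hp, hpt⟩ : ∃ p ∈ T.cc x, φ p ≠ φ x := by
      by_contra hcon
      push Not at hcon
      obtain ⟨p, hp, hpd⟩ := T.exists_vertex (hUO' hx)
      have hpt := hcon p hp
      by_cases hpU : p ∈ U
      · rcases hv p hpU hpd with h | h <;> rw [hpt, hxt] at h <;> linarith
      · -- the cell meets the frontier of `U`
        obtain ⟨z, hz1, hz2⟩ : (T.cc x ∩ frontier U).Nonempty := by
          by_contra hne
          have hcov : T.cc x ⊆ U ∪ (closure U)ᶜ := by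
            intro z hz
            by_cases hzU : z ∈ U
            · exact Or.inl hzU
            · right
              intro hzc
              exact hne ⟨z, hz, by rw [hU.frontier_eq]; exact ⟨hzc, hzU⟩⟩
          obtain ⟨z, -, hz1, hz2⟩ := (T.convex_cc x).isPreconnected U (closure U)ᶜ hU
            isClosed_closure.isOpen_compl hcov ⟨x, T.self_mem_cc x, hx⟩
            ⟨p, hp, (hcov hp).resolve_left hpU⟩
          exact hz2 (subset_closure hz1)
        have h1 := hfr z hz2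
        rw [hcon z hz1, hxt] at h1
        linarith
    obtain ⟨v, -, r, hl, hb⟩ := exists_LP hU hUO' hφ haff hx hp hpt
    exact ⟨v, r, hl, hb⟩
  obtain ⟨h1, h2, h3⟩ := core_of_LP hU rfl hcpt.isClosed (hφ.mono hUO') hLP
  refine ⟨hcpt, h1, h2, h3, fun h => ?_⟩
  rw [h1]
  exact pc_of_LP h rfl hLP

end Crest.Agent.R096.Sld_316
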