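import Crest.Agent.R096.Slc4_184
import Crest.Agent.R096.Sld1_316
import Crest.Agent.R096.Lac2_441
import Crest.Agent.R096.Door6_501

/-!
# Row 96, DOORS, leaf SLC (helper184), part 5: level points, level edges, the maps `hc`, `vc`, `hp`.
-/

set_option autoImplicit false
set_option linter.unusedSectionVars false

open Set Filter Topology Metric
open scoped Classical

namespace Crest.Agent.R096.Slc_184

open Crest.Agent.R096.Msh_715 Crest.Agent.R096.Agl5_543 Crest.Agent.R096.St_147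

variable {E : Type} [NormedAddCommGroup E] [NormedSpace ℝ E] [FiniteDimensional ℝ E]
variable {Om : Set E} {ι : Type}

section general

variable {T : Tiling Om ι}

theorem oc_symm {x y : E} (hx : x ∈ Om) (hy : y ∈ T.oc x) : x ∈ T.oc y := by
  rw [T.oc_eq_of_mem hx hy]; exact T.self_mem_oc x

theorem oc_trans {x y z : E} (hx : x ∈ Om) (hy : y ∈ T.oc x) (hz : z ∈ T.oc y) : z ∈ T.oc x := by
  rw [← T.oc_eq_of_mem hx hy]; exact hz

/-- the interior of a subcomplex is a union of open stars -/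
theorem mem_int_of_cc {K : Set E} (hcl : IsClosed K)
    (hs : ∀ x ∈ frontier K, T.cc x ⊆ frontier K) {x y : E} (hx : x ∈ Om) (hy : y ∈ T.cc x)
    (hyi : y ∈ interior K) : x ∈ interior K := by
  obtain ⟨i, hi⟩ := T.cov x hx
  have h1 : P (T.H i) ⊆ K := T.sub_of_mem_interior hcl hs (T.at_sub_of_mem_cc hy hi) hyi
  have h2 : x ∈ K := h1 hi
  by_contra h
  have h3 : x ∈ frontier K := by rw [hcl.frontier_eq]; exact ⟨h2, h⟩
  have h4 := hs x h3 hy
  rw [hcl.frontier_eq] at h4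
  exact h4.2 hyi

end general

namespace Slc

variable {T : Tiling Om ι} {κ : Type} {S : Slc T κ} {c : κ} {x y z w : E} {j : ℕ}

theorem dim3_le (x : E) : S.T3.dim x ≤ T.dim x := by
  by_cases h : ∃ c j, S.OnS c j x
  · obtain ⟨c, j, h⟩ := h
    have := S.dim3_on h
    omega
  · push Not at h
    exact (S.dim3_off h).le

/-- points of an edge of `T` at the same level are equal -/
theorem lv_unique (hx : x ∈ S.Bd c) (hd : T.dim x = 1) (hy : y ∈ T.cc x) (hz : z ∈ T.cc x)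
    (h : S.φ y = S.φ z) : y = z := by
  obtain ⟨L, hL, v, hv, hLv⟩ := S.exists_dir hx
  have h1 := hL y hy z hz
  have h2 : L (z - y) = 0 := by linarith
  have h3 : z - y ∈ T.V x := T.sub_mem_V' hz hy
  have hv0 : (⟨v, hv⟩ : T.V x) ≠ 0 := fun h => by
    have h5 : v = 0 := congrArg Subtype.val h
    rw [h5, map_zero] at hLv
    exact hLv rfl
  obtain ⟨s, hs⟩ := exists_smul_eq_of_finrank_eq_one (K := ℝ) (V := T.V x) hd hv0 ⟨z - y, h3⟩
  have hs' : s • v = z - y := congrArg Subtype.val hs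
  rw [← hs', map_smul, smul_eq_mul] at h2
  rcases mul_eq_zero.1 h2 with h | h
  · rw [h, zero_smul] at hs'
    exact (sub_eq_zero.1 hs'.symm).symm
  · exact absurd h hLv

theorem onS_of_cc (hx : x ∈ S.Bd c) (hy : y ∈ T.cc x) (hj : j ≤ S.n c) (h : S.φ y = S.t c j) :
    S.OnS c j y := ⟨S.cc_mem_U hx hy (by rw [h]; exact S.t_lt_b hj), hj, h⟩

theorem inL_of_cc (hx : x ∈ S.Bd c) (hy : y ∈ T.cc x) (hj : j < S.n c)
    (h : S.t c (j + 1) < S.φ y) (h' : S.φ y < S.t c j) : S.InL c j y :=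
  ⟨S.cc_mem_U hx hy (h'.trans (S.t_lt_b hj.le)), hj, h, h'⟩

/-- the tiles at a point of the band: levels below -/
theorem cc3_low (hx : x ∈ Om) (hy : y ∈ S.T3.cc x) (hyB : y ∈ S.Bd c) {k : ℕ} (hk : k ≤ S.n c)
    (h : S.φ y < S.t c k) : x ∈ S.U c ∧ S.φ x < S.t c k := by
  obtain ⟨i, hi⟩ := T.cov x hx
  have hy1 := (S.mem_cc3.1 hy).1
  have hcut : S.Cut c i := S.cut_of_mem hyB (T.at_sub_of_mem_cc hy1 hi)
  have h1 := (S.mem_cc3.1 hy).2 i hi c hcut k hk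
  have h2 : S.φ x < S.t c k := by
    by_contra h3
    have := h1.2 (not_lt.1 h3)
    linarith
  exact ⟨hcut.mem_U hi (h2.trans (S.t_lt_b hk)), h2⟩

theorem cc3_high (hx : x ∈ Om) (hy : y ∈ S.T3.cc x) (hyB : y ∈ S.Bd c) {k : ℕ} (hk : k ≤ S.n c)
    (h : S.t c k < S.φ y) : S.t c k < S.φ x := by
  obtain ⟨i, hi⟩ := T.cov x hx
  have hy1 := (S.mem_cc3.1 hy).1
  have hcut : S.Cut c i := S.cut_of_mem hyB (T.at_sub_of_mem_cc hy1 hi)
  have h1 := (S.mem_cc3.1 hy).2 i hi c hcut k hk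
  by_contra h3
  have := h1.1 (not_lt.1 h3)
  linarith

/-! ### level points -/

/-- point of the level `j` in the open cell of `x` -/
noncomputable def hc (S : Slc T κ) (c : κ) (x : E) (j : ℕ) : E := S.lv c x (S.t c (min j (S.n c)))

/-- point of the layer `j` in the open cell of `x` -/
noncomputable def vc (S : Slc T κ) (c : κ) (x : E) (j : ℕ) : E :=
  S.lv c x (S.mid c (min j (S.n c - 1)))

theorem hc_onS' (hx : x ∈ S.Bd c) (j : ℕ) : S.OnS c (min j (S.n c)) (S.hc c x j) :=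
  onS_lv hx (min_le_right _ _)

theorem hc_onS (hx : x ∈ S.Bd c) (hj : j ≤ S.n c) : S.OnS c j (S.hc c x j) := by
  have := hc_onS' hx j
  rwa [min_eq_left hj] at this

theorem hc_oc (hx : x ∈ S.Bd c) (j : ℕ) : S.hc c x j ∈ T.oc x := lv_oc hx (min_le_right _ _)

theorem vc_inL' (hx : x ∈ S.Bd c) (j : ℕ) : S.InL c (min j (S.n c - 1)) (S.vc c x j) :=
  inL_lv hx (by have := S.npos c; omega)

theorem vc_inL (hx : x ∈ S.Bd c) (hj : j < S.n c) : S.InL c j (S.vc c x j) := by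
  have := vc_inL' hx j
  rwa [min_eq_left (by omega)] at this

theorem vc_oc (hx : x ∈ S.Bd c) (j : ℕ) : S.vc c x j ∈ T.oc x :=
  lvm_oc hx (by have := S.npos c; omega)

theorem hc_dim (hx : x ∈ S.Bd c) (j : ℕ) : T.dim (S.hc c x j) = T.dim x :=
  T.dim_eq_of_mem_oc (S.Bd_sub hx) (hc_oc hx j)

theorem vc_dim (hx : x ∈ S.Bd c) (j : ℕ) : T.dim (S.vc c x j) = T.dim x :=
  T.dim_eq_of_mem_oc (S.Bd_sub hx) (vc_oc hx j)

theorem hc_dim3 (hx : x ∈ S.Bd c) (j : ℕ) : S.T3.dim (S.hc c x j) + 1 = T.dim x := by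
  rw [S.dim3_on (hc_onS' hx j), hc_dim hx]

theorem vc_dim3 (hx : x ∈ S.Bd c) (j : ℕ) : S.T3.dim (S.vc c x j) = T.dim x := by
  rw [(vc_inL' hx j).dim3, vc_dim hx]

theorem mem_cc_hc (hx : x ∈ S.Bd c) (hj : j ≤ S.n c) :
    y ∈ S.T3.cc (S.hc c x j) ↔ y ∈ T.cc x ∧ S.φ y = S.t c j := by
  rw [(hc_onS hx hj).cc, T.cc_eq_of_mem_oc (S.Bd_sub hx) (hc_oc hx j)]

theorem mem_oc_hc (hx : x ∈ S.Bd c) (hj : j ≤ S.n c) :
    y ∈ S.T3.oc (S.hc c x j) ↔ y ∈ T.oc x ∧ S.φ y = S.t c j := by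
  rw [(hc_onS hx hj).oc, T.oc_eq_of_mem (S.Bd_sub hx) (hc_oc hx j)]

theorem mem_cc_vc (hx : x ∈ S.Bd c) (hj : j < S.n c) :
    y ∈ S.T3.cc (S.vc c x j) ↔ y ∈ T.cc x ∧ S.t c (j + 1) ≤ S.φ y ∧ S.φ y ≤ S.t c j := by
  rw [(vc_inL hx hj).cc, T.cc_eq_of_mem_oc (S.Bd_sub hx) (vc_oc hx j)]

theorem mem_oc_vc (hx : x ∈ S.Bd c) (hj : j < S.n c) :
    y ∈ S.T3.oc (S.vc c x j) ↔ y ∈ T.oc x ∧ S.t c (j + 1) < S.φ y ∧ S.φ y < S.t c j := by
  rw [(vc_inL hx hj).oc, T.oc_eq_of_mem (S.Bd_sub hx) (vc_oc hx j)]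

/-- the layers at a point between the slices -/
theorem layer_cases (hx : x ∈ S.Bd c) (hj : j < S.n c) (h : S.t c (j + 1) ≤ S.φ x)
    (h' : S.φ x ≤ S.t c j) : S.OnS c j x ∨ S.OnS c (j + 1) x ∨ S.InL c j x := by
  rcases eq_or_lt_of_le h with h1 | h1
  · exact Or.inr (Or.inl ⟨hx.1, hj, h1.symm⟩)
  · rcases eq_or_lt_of_le h' with h2 | h2
    · exact Or.inl ⟨hx.1, hj.le, h2⟩
    · exact Or.inr (Or.inr ⟨hx.1, hj, h1, h2⟩)

/-- points of the band below the level `b` of a layer are in the band -/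
theorem bd_of_cc (hx : x ∈ S.Bd c) (hy : y ∈ T.cc x) (hj : j < S.n c)
    (h : S.t c (j + 1) ≤ S.φ y) (h' : S.φ y ≤ S.t c j) : y ∈ S.Bd c :=
  ⟨S.cc_mem_U hx hy (h'.trans_lt (S.t_lt_b hj.le)), (S.a_lt_t hj).trans_le h,
    h'.trans_lt (S.t_lt_b hj.le)⟩

/-! ### the shells -/

theorem k0_le (S : Slc T κ) : ∀ c, (fun _ : κ => 0) c ≤ S.n c := fun _ => Nat.zero_le _

theorem kn_le (S : Slc T κ) : ∀ c, S.n c ≤ S.n c := fun _ => le_rfl

/-- the outer cores -/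
abbrev K0 (S : Slc T κ) : κ → Set E := S.KK fun _ => 0

theorem core_KK {k : κ → ℕ} (hk : ∀ c, k c ≤ S.n c) (c : κ) : Core (S.KK k c) :=
  (Sld_316.core_sub (T := T) (S.opn c) (S.subO c) (S.cpt c) S.cont (S.fr c)
    (fun i h => S.aff c i h) (S.vert c) (S.a_lt_t (hk c)) (S.t_lt_b (hk c))).2.2.2.1

theorem pc_KK (h3 : Module.finrank ℝ E = 3) {k : κ → ℕ} (hk : ∀ c, k c ≤ S.n c) (c : κ) :
    PC (frontier (S.KK k c)) :=
  (Sld_316.core_sub (T := T) (S.opn c) (S.subO c) (S.cpt c) S.cont (S.fr c)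
    (fun i h => S.aff c i h) (S.vert c) (S.a_lt_t (hk c)) (S.t_lt_b (hk c))).2.2.2.2 h3

theorem mem_fr0 : x ∈ frontier (S.K0 c) ↔ S.OnS c 0 x := by
  rw [frontier_KK S.k0_le c]; rfl

/-- edges of the shell -/
abbrev Ed (S : Slc T κ) (c : κ) : Type := EdK S.T3 S.K0 c

/-- vertices of the shell -/
abbrev Vx (S : Slc T κ) (c : κ) : Type := VxK S.T3 S.K0 c

theorem ed_onS (e : S.Ed c) : S.OnS c 0 e.1.pt := by
  have h : e.1.pt ∈ frontier (S.K0 c) := e.2.2 (e.1.opn_sub (S.T3.self_mem_oc _))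
  exact mem_fr0.1 h

theorem ed_dim3 (e : S.Ed c) : S.T3.dim e.1.pt = 1 := e.2.1

theorem ed_dim (e : S.Ed c) : T.dim e.1.pt = 2 := by
  have := S.dim3_on (ed_onS e)
  rw [ed_dim3 e] at this
  omega

theorem vx_onS (v : S.Vx c) : S.OnS c 0 v.1 := mem_fr0.1 v.2.2

theorem vx_dim (v : S.Vx c) : T.dim v.1 = 1 := by
  have h1 := S.dim3_on (vx_onS v)
  have h2 : S.T3.dim v.1 = 0 := v.2.1
  omega

theorem mem_set_ed (e : S.Ed c) : y ∈ e.1.set ↔ y ∈ T.cc e.1.pt ∧ S.φ y = S.t c 0 := by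
  rw [e.1.set_eq, (ed_onS e).cc]

theorem mem_opn_ed (e : S.Ed c) : y ∈ e.1.opn ↔ y ∈ T.oc e.1.pt ∧ S.φ y = S.t c 0 :=
  (ed_onS e).oc

theorem endp_onS (e : S.Ed c) (b : Bool) : S.OnS c 0 (endp e.1 b) :=
  mem_fr0.1 (e.2.2 (endp_mem e.2.1 b).1)

theorem endp_dim (e : S.Ed c) (b : Bool) : T.dim (endp e.1 b) = 1 := by
  have h1 := S.dim3_on (endp_onS e b)
  have h2 := (endp_mem e.2.1 b).2
  omega

theorem endp_cc (e : S.Ed c) (b : Bool) : endp e.1 b ∈ T.cc e.1.pt :=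
  ((mem_set_ed e).1 (endp_mem e.2.1 b).1).1

/-- equality of edges -/
theorem ed_eq {e e' : S.Ed c} (h : e'.1.pt ∈ T.oc e.1.pt) : e = e' := by
  apply Subtype.ext
  apply Tiling.Cell.ext
  rw [e.1.set_eq, e'.1.set_eq]
  refine (S.T3.cc_eq_of_mem_oc e.1.pt_mem ?_).symm
  exact (ed_onS e).oc.2 ⟨h, (ed_onS e').2.2⟩

/-- the edge of a point -/
noncomputable def edx (hx : S.OnS c 0 x) (hd : S.T3.dim x = 1) : S.Ed c :=
  edK S.T3 S.K0 (hs_KK S.k0_le) hx.mem (mem_fr0.2 hx) hd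

theorem edx_pt (hx : S.OnS c 0 x) (hd : S.T3.dim x = 1) : (edx hx hd).1.pt ∈ S.T3.oc x :=
  S.T3.pt_cl hx.mem

theorem edx_opn (hx : S.OnS c 0 x) (hd : S.T3.dim x = 1) : x ∈ (edx hx hd).1.opn := by
  show x ∈ (S.T3.cl hx.mem).opn
  rw [S.T3.opn_cl]; exact S.T3.self_mem_oc x

theorem edx_set (hx : S.OnS c 0 x) (hd : S.T3.dim x = 1) : (edx hx hd).1.set = S.T3.cc x := rfl

theorem edx_pt' (hx : S.OnS c 0 x) (hd : S.T3.dim x = 1) : (edx hx hd).1.pt ∈ T.oc x :=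
  S.oc3_sub x (edx_pt hx hd)

/-- the vertex of a point -/
def vxx (hx : S.OnS c 0 x) (hd : S.T3.dim x = 0) : S.Vx c := ⟨x, hd, mem_fr0.2 hx⟩

theorem vx_eq {v v' : S.Vx c} (h : v'.1 ∈ T.oc v.1) : v = v' := by
  apply Subtype.ext
  exact lv_unique (vx_onS v).bd (vx_dim v) (T.self_mem_cc _) (T.oc_sub_cc _ h)
    ((vx_onS v).2.2.trans (vx_onS v').2.2.symm)

/-- on a vertex the level 0 point is the vertex -/
theorem hc_zero_vx (hx : S.OnS c 0 x) (hd : T.dim x = 1) : S.hc c x 0 = x :=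
  lv_unique hx.bd hd (T.oc_sub_cc _ (hc_oc hx.bd 0)) (T.self_mem_cc _)
    ((hc_onS hx.bd (Nat.zero_le _)).2.2.trans hx.2.2.symm)

/-- corners -/
theorem cor_mem (e : S.Ed c) (b : Bool) (hj : j ≤ S.n c) :
    S.hc c (endp e.1 b) j ∈ S.T3.cc (S.hc c e.1.pt j) := by
  rw [mem_cc_hc (ed_onS e).bd hj]
  exact ⟨T.cc_sub_of_mem (endp_cc e b) (T.oc_sub_cc _ (hc_oc (endp_onS e b).bd j)),
    (hc_onS (endp_onS e b).bd hj).2.2⟩

theorem cor_dim3 (e : S.Ed c) (b : Bool) (j : ℕ) : S.T3.dim (S.hc c (endp e.1 b) j) = 0 := by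
  have h1 := hc_dim3 (endp_onS e b).bd j
  have h2 := endp_dim e b
  omega

theorem endp_sep (e : S.Ed c) (h : endp e.1 true ∈ T.oc (endp e.1 false)) : False := by
  have h1 := lv_unique (endp_onS e false).bd (endp_dim e false) (T.self_mem_cc _)
    (T.oc_sub_cc _ h) ((endp_onS e false).2.2.trans (endp_onS e true).2.2.symm)
  exact (lft_rgt e.2.1).1 h1

theorem cor_ne (e : S.Ed c) (j k : ℕ) :
    S.hc c (endp e.1 false) j ≠ S.hc c (endp e.1 true) k := by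
  intro h
  have h1 := hc_oc (endp_onS e false).bd j
  have h2 := hc_oc (endp_onS e true).bd k
  rw [← h] at h2
  exact endp_sep e (oc_trans (endp_onS e false).mem h1 (oc_symm (endp_onS e true).mem h2))

/-- the level edges -/
theorem lvl_edge (e : S.Ed c) (hj : j ≤ S.n c) :
    S.T3.cc (S.hc c e.1.pt j) = segment ℝ (S.hc c (endp e.1 false) j) (S.hc c (endp e.1 true) j) ∧
    S.T3.oc (S.hc c e.1.pt j) =
      openSegment ℝ (S.hc c (endp e.1 false) j) (S.hc c (endp e.1 true) j) := by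
  have hO : S.hc c e.1.pt j ∈ Om := (hc_onS (ed_onS e).bd hj).mem
  have hd : S.T3.dim (S.hc c e.1.pt j) = 1 := by
    have h1 := hc_dim3 (ed_onS e).bd j
    have h2 := ed_dim e
    omega
  obtain ⟨a, b, -, h1, h2, -, -, -, -⟩ := S.T3.edge_eq hO hd
  have hP := S.T3.vertex_of_edge hO hd h1 (cor_mem e false hj) (cor_dim3 e false j)
  have hQ := S.T3.vertex_of_edge hO hd h1 (cor_mem e true hj) (cor_dim3 e true j)
  have hne := cor_ne e j j
  rcases hP with hP | hP <;> rcases hQ with hQ | hQ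
  · exact absurd (hP.trans hQ.symm) hne
  · rw [hP, hQ]; exact ⟨h1, h2⟩
  · rw [hP, hQ, segment_symm, openSegment_symm]; exact ⟨h1, h2⟩
  · exact absurd (hP.trans hQ.symm) hne

/-! ### the copies of the points of the edges -/

/-- the copy of `w` on the level `j` -/
noncomputable def hp (S : Slc T κ) (c : κ) (j : ℕ) (w : E) : E :=
  if j = 0 then w else if h : w ∈ Om then
    S.hc c (lft (S.T3.cl h)) j +
      par S.T3 w • (S.hc c (rgt (S.T3.cl h)) j - S.hc c (lft (S.T3.cl h)) j)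
  else w

theorem hp_zero (w : E) : S.hp c 0 w = w := if_pos rfl

theorem hp_eq (e : S.Ed c) (hw : w ∈ e.1.opn) (j : ℕ) :
    S.hp c j w = S.hc c (endp e.1 false) j +
      par S.T3 w • (S.hc c (endp e.1 true) j - S.hc c (endp e.1 false) j) := by
  have hO : w ∈ Om := opn_sub_Om e.1 hw
  have he : S.T3.cl hO = e.1 := (S.T3.eq_cl hO hw).symm
  unfold hp
  by_cases hj : j = 0
  · rw [if_pos hj, hj, hc_zero_vx (endp_onS e false) (endp_dim e false),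
      hc_zero_vx (endp_onS e true) (endp_dim e true)]
    obtain ⟨s, hs, e1⟩ := exists_par e.2.1 hw
    have h2 := (par_eq e.2.1 hs).2
    rw [← e1] at h2
    rw [h2]
    exact e1
  · rw [if_neg hj, dif_pos hO, he]
    rfl

theorem par_mem (e : S.Ed c) (hw : w ∈ e.1.opn) : par S.T3 w ∈ Ioo (0 : ℝ) 1 := by
  obtain ⟨s, hs, e1⟩ := exists_par e.2.1 hw
  have h2 := (par_eq e.2.1 hs).2
  rw [← e1] at h2
  rw [h2]; exact hs

theorem hp_mem (e : S.Ed c) (hw : w ∈ e.1.opn) (hj : j ≤ S.n c) :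
    S.hp c j w ∈ S.T3.oc (S.hc c e.1.pt j) := by
  rw [(lvl_edge e hj).2, hp_eq e hw, openSegment_eq_image']
  exact ⟨_, par_mem e hw, rfl⟩

theorem exists_hp (e : S.Ed c) (hj : j ≤ S.n c) (hx : x ∈ S.T3.oc (S.hc c e.1.pt j)) :
    ∃ w ∈ e.1.opn, S.hp c j w = x := by
  rw [(lvl_edge e hj).2, openSegment_eq_image'] at hx
  obtain ⟨s, hs, rfl⟩ := hx
  obtain ⟨h1, h2⟩ := par_eq e.2.1 hs
  refine ⟨_, h1, ?_⟩
  rw [hp_eq e h1, h2]

theorem hp_oc (e : S.Ed c) (hw : w ∈ e.1.opn) (hj : j ≤ S.n c) : S.hp c j w ∈ T.oc e.1.pt :=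
  ((mem_oc_hc (ed_onS e).bd hj).1 (hp_mem e hw hj)).1

theorem hp_onS (e : S.Ed c) (hw : w ∈ e.1.opn) (hj : j ≤ S.n c) : S.OnS c j (S.hp c j w) := by
  have h := (mem_oc_hc (ed_onS e).bd hj).1 (hp_mem e hw hj)
  exact onS_of_cc (ed_onS e).bd (T.oc_sub_cc _ h.1) hj h.2

theorem hp_dim (e : S.Ed c) (hw : w ∈ e.1.opn) (hj : j ≤ S.n c) : T.dim (S.hp c j w) = 2 := by
  rw [T.dim_eq_of_mem_oc e.1.pt_mem (hp_oc e hw hj), ed_dim e]

theorem hp_dim3 (e : S.Ed c) (hw : w ∈ e.1.opn) (hj : j ≤ S.n c) :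
    S.T3.dim (S.hp c j w) = 1 := by
  have h1 := S.dim3_on (hp_onS e hw hj)
  have h2 := hp_dim e hw hj
  omega

theorem hp_inj {e e' : S.Ed c} {w' : E} {j' : ℕ} (hj : j ≤ S.n c) (hj' : j' ≤ S.n c)
    (hw : w ∈ e.1.opn) (hw' : w' ∈ e'.1.opn) (h : S.hp c j w = S.hp c j' w') :
    j = j' ∧ w = w' := by
  have h1 := hp_onS e hw hj
  have h2 := hp_onS e' hw' hj'
  rw [← h] at h2
  have hjj : j = j' := S.t_inj hj hj' (h1.2.2.symm.trans h2.2.2)
  subst hjj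
  refine ⟨rfl, ?_⟩
  have h3 := hp_oc e hw hj
  have h4 := hp_oc e' hw' hj'
  rw [← h] at h4
  have h5 : e'.1.pt ∈ T.oc e.1.pt := oc_trans e.1.pt_mem h3 (oc_symm e'.1.pt_mem h4)
  have he : e = e' := ed_eq h5
  subst he
  rw [hp_eq e hw, hp_eq e hw'] at h
  have h6 : (par S.T3 w - par S.T3 w') •
      (S.hc c (endp e.1 true) j - S.hc c (endp e.1 false) j) = 0 := by
    rw [sub_smul, sub_eq_zero]
    exact add_left_cancel h
  rcases smul_eq_zero.1 h6 with h7 | h7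
  · obtain ⟨s, hs, e1⟩ := exists_par e.2.1 hw
    obtain ⟨s', hs', e1'⟩ := exists_par e.2.1 hw'
    have g1 := (par_eq e.2.1 hs).2
    have g2 := (par_eq e.2.1 hs').2
    rw [← e1] at g1
    rw [← e1'] at g2
    rw [g1, g2, sub_eq_zero] at h7
    rw [e1, e1', h7]
  · exact absurd (sub_eq_zero.1 h7).symm (cor_ne e j j)

/-- the base point of a point of the band -/
theorem base_onS (hx : x ∈ S.Bd c) : S.OnS c 0 (S.hc c x 0) := hc_onS hx (Nat.zero_le _)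

/-- every point of a level edge is a copy -/
theorem exists_hp_of (hx : S.OnS c j x) (hd : S.T3.dim x = 1) :
    ∃ e : S.Ed c, e.1.pt ∈ T.oc x ∧ x ∈ T.oc e.1.pt ∧ ∃ w ∈ e.1.opn, S.hp c j w = x := by
  have hj := hx.2.1
  have hd2 : T.dim x = 2 := by have := S.dim3_on hx; omega
  have hd3 : S.T3.dim (S.hc c x 0) = 1 := by have := hc_dim3 hx.bd 0; omega
  set e : S.Ed c := edx (base_onS hx.bd) hd3 with he
  have h1 : e.1.pt ∈ T.oc x :=
    oc_trans hx.mem (hc_oc hx.bd 0) (edx_pt' (base_onS hx.bd) hd3)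
  have h2 : x ∈ T.oc e.1.pt := oc_symm hx.mem h1
  refine ⟨e, h1, h2, exists_hp e hj ?_⟩
  rw [mem_oc_hc (ed_onS e).bd hj]
  exact ⟨h2, hx.2.2⟩

/-! ### the points of the vertical edges -/

theorem vp_inj {v v' : S.Vx c} {j' : ℕ} (hj : j < S.n c) (hj' : j' < S.n c)
    (h : S.vc c v.1 j = S.vc c v'.1 j') : j = j' ∧ v = v' := by
  have h1 := vc_inL (vx_onS v).bd hj
  have h2 := vc_inL (vx_onS v').bd hj'
  rw [← h] at h2
  constructor
  · rcases lt_trichotomy j j' with h3 | h3 | h3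
    · have := S.t_le (c := c) (show j + 1 ≤ j' by omega) hj'.le
      have := h1.2.2.1
      have := h2.2.2.2
      linarith
    · exact h3
    · have := S.t_le (c := c) (show j' + 1 ≤ j by omega) hj.le
      have := h2.2.2.1
      have := h1.2.2.2
      linarith
  · have h3 := vc_oc (vx_onS v).bd j
    have h4 := vc_oc (vx_onS v').bd j'
    rw [← h] at h4
    exact vx_eq (oc_trans (vx_onS v).mem h3 (oc_symm (vx_onS v').mem h4))

end Slc

end Crest.Agent.R096.Slc_184
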