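import Crest.Agent.R096.Slc5_184

/-!
# Row 96, DOORS, leaf SLC (helper184), part 6: the merged meshes, the cells and faces of the layers.
-/

set_option autoImplicit false
set_option linter.unusedSectionVars false

open Set Filter Topology Metric
open scoped Classical

namespace Crest.Agent.R096.Slc_184

open Crest.Agent.R096.Msh_715 Crest.Agent.R096.Agl5_543 Crest.Agent.R096.St_147

variable {E : Type} [NormedAddCommGroup E] [NormedSpace ℝ E] [FiniteDimensional ℝ E]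
variable {Om : Set E} {ι : Type}

namespace Slc

variable {T : Tiling Om ι} {κ : Type}

/-- faces of the merged mesh -/
abbrev FK (S : Slc T κ) (h3 : Module.finrank ℝ E = 3) (k : κ → ℕ) : Type :=
  {F : C2 S.T3 // ¬ (((meshC S.T3 h3).side F).map (piK S.T3 (S.KK k))).IsDiag}

/-- the merged mesh with the cores cut at the level `k` -/
noncomputable abbrev mK (S : Slc T κ) (h3 : Module.finrank ℝ E = 3) (k : κ → ℕ)
    (hk : ∀ c, k c ≤ S.n c) : MeshC (T.RIdx S.HH ⊕ κ) (S.FK h3 k) E :=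
  meshK S.T3 h3 (S.KK k) (core_KK hk) (hs_KK hk) (dis_KK k)

/-- the outer mesh -/
noncomputable abbrev m0 (S : Slc T κ) (h3 : Module.finrank ℝ E = 3) :
    MeshC (T.RIdx S.HH ⊕ κ) (S.FK h3 fun _ => 0) E := S.mK h3 (fun _ => 0) S.k0_le

/-- the inner mesh -/
noncomputable abbrev mn (S : Slc T κ) (h3 : Module.finrank ℝ E = 3) :
    MeshC (T.RIdx S.HH ⊕ κ) (S.FK h3 S.n) E := S.mK h3 S.n S.kn_le

/-- the shells of the outer cores -/
noncomputable abbrev sh (S : Slc T κ) (h3 : Module.finrank ℝ E = 3) (c : κ) :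
    Door_501.Shell (S.m0 h3) (Sum.inr c) (S.Vx c) (S.Ed c) :=
  shellK S.T3 h3 S.K0 (core_KK S.k0_le) (KK_sub _) (hs_KK S.k0_le) (dis_KK _) c
    (pc_KK h3 S.k0_le c)

variable {S : Slc T κ} {h3 : Module.finrank ℝ E = 3} {c : κ} {x y z w : E} {j : ℕ}

theorem mem_sideK {k : κ → ℕ} {hk : ∀ c, k c ≤ S.n c} {F : S.FK h3 k} {q : T.RIdx S.HH ⊕ κ} :
    q ∈ (S.mK h3 k hk).side F ↔
      ∃ p ∈ S.T3.at_ F.1.pt, piK S.T3 (S.KK k) p = q := by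
  show q ∈ ((meshC S.T3 h3).side F.1).map _ ↔ _
  rw [mem_map_iff]
  constructor
  · rintro ⟨p, hp, h⟩; exact ⟨p, (C2.mem_side (h3 := h3)).1 hp, h⟩
  · rintro ⟨p, hp, h⟩; exact ⟨p, (C2.mem_side (h3 := h3)).2 hp, h⟩

theorem mem_int {k : κ → ℕ} (hk : ∀ c, k c ≤ S.n c) :
    x ∈ interior (S.KK k c) ↔ x ∈ S.U c ∧ S.φ x < S.t c (k c) := by
  rw [interior_KK hk c]; rfl

/-- when a cell is a face of the merged mesh -/
theorem nd_iff {k : κ → ℕ} (hk : ∀ c, k c ≤ S.n c) {F : C2 S.T3} (hx : x ∈ Om)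
    (h : F.pt ∈ S.T3.oc x) :
    (¬ (((meshC S.T3 h3).side F).map (piK S.T3 (S.KK k))).IsDiag) ↔
      ∀ c, ¬ (x ∈ S.U c ∧ S.φ x < S.t c (k c)) := by
  rw [diag_iff h3 (core_KK hk) (KK_sub k) (hs_KK hk) (dis_KK k) F]
  push Not
  refine forall_congr' fun c => ?_
  have h1 : F.pt ∈ interior (S.KK k c) ↔ x ∈ interior (S.KK k c) := by
    constructor
    · intro h2
      exact mem_int_of_cc (isClosed_KK hk c) (hs_KK hk c) hx (S.T3.oc_sub_cc _ h) h2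
    · intro h2
      exact mem_int_of_cc (isClosed_KK hk c) (hs_KK hk c) F.pt_mem
        (S.T3.oc_sub_cc _ (oc_symm hx h)) h2
  rw [h1, mem_int hk, not_and, not_lt]

theorem nd_mk {k : κ → ℕ} (hk : ∀ c, k c ≤ S.n c) (hx : x ∈ Om) (hd : S.T3.dim x = 2)
    (h : ∀ c, ¬ (x ∈ S.U c ∧ S.φ x < S.t c (k c))) :
    ¬ (((meshC S.T3 h3).side (mk2 S.T3 hx hd)).map (piK S.T3 (S.KK k))).IsDiag :=
  (nd_iff hk hx (mk2_pt hx hd)).2 h

theorem nd_pt {k : κ → ℕ} (hk : ∀ c, k c ≤ S.n c) (F : S.FK h3 k) (c : κ)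
    (h1 : F.1.pt ∈ S.U c) : S.t c (k c) ≤ S.φ F.1.pt := by
  by_contra h
  exact (nd_iff hk F.1.pt_mem (S.T3.self_mem_oc _)).1 F.2 c ⟨h1, not_le.1 h⟩

/-- a point of a slice is in no core interior -/
theorem OnS.not_int (h : S.OnS c j x) (c' : κ) : ¬ (x ∈ S.U c' ∧ S.φ x < S.t c' (S.n c')) := by
  rintro ⟨h1, h2⟩
  have h4 : c = c' := core_of_U h.1 h1
  subst h4
  rw [h.2.2] at h2
  have := S.t_le h.2.1 le_rfl
  linarith

theorem InL.not_int (h : S.InL c j x) (c' : κ) : ¬ (x ∈ S.U c' ∧ S.φ x < S.t c' (S.n c')) := by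
  rintro ⟨h1, h2⟩
  have h4 : c = c' := core_of_U h.1 h1
  subst h4
  have h5 := h.2.2.1
  have := S.t_le (c := c) (show j + 1 ≤ S.n c from h.2.1) le_rfl
  linarith

/-! ### faces of the shell -/

theorem fk_sub (G : (S.sh h3 c).Fk) : G.1.1.set ⊆ frontier (S.K0 c) :=
  (face_iff h3 (core_KK S.k0_le) (KK_sub _) (hs_KK S.k0_le) (dis_KK _) G.1.1 c).2 ⟨G.1.2, G.2⟩

theorem fk_onS (G : (S.sh h3 c).Fk) : S.OnS c 0 G.1.1.pt := by
  refine mem_fr0.1 (fk_sub G ?_)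
  rw [G.1.1.set_eq]; exact S.T3.self_mem_cc _

theorem fk_dim3 (G : (S.sh h3 c).Fk) : S.T3.dim G.1.1.pt = 2 := G.1.1.dim_pt

theorem fk_dim (G : (S.sh h3 c).Fk) : T.dim G.1.1.pt = 3 := by
  have := S.dim3_on (fk_onS G)
  rw [fk_dim3 G] at this
  omega

theorem mem_set_fk (G : (S.sh h3 c).Fk) :
    y ∈ G.1.1.set ↔ y ∈ T.cc G.1.1.pt ∧ S.φ y = S.t c 0 := by
  rw [G.1.1.set_eq, (fk_onS G).cc]

theorem fk_eq {G G' : (S.sh h3 c).Fk} (h : G'.1.1.pt ∈ T.oc G.1.1.pt) : G = G' := by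
  apply Subtype.ext
  apply Subtype.ext
  apply C2.ext
  rw [G.1.1.set_eq, G'.1.1.set_eq]
  refine (S.T3.cc_eq_of_mem_oc G.1.1.pt_mem ?_).symm
  exact (fk_onS G).oc.2 ⟨h, (fk_onS G').2.2⟩

/-- the face of a point -/
noncomputable def fx (h3 : Module.finrank ℝ E = 3) (hx : S.OnS c 0 x) (hd : S.T3.dim x = 2) :
    (S.sh h3 c).Fk :=
  ⟨⟨mk2 S.T3 hx.mem hd, ((face_iff h3 (core_KK S.k0_le) (KK_sub _) (hs_KK S.k0_le) (dis_KK _)
    (mk2 S.T3 hx.mem hd) c).1 (hs_KK S.k0_le c x (mem_fr0.2 hx))).1⟩,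
    ((face_iff h3 (core_KK S.k0_le) (KK_sub _) (hs_KK S.k0_le) (dis_KK _)
    (mk2 S.T3 hx.mem hd) c).1 (hs_KK S.k0_le c x (mem_fr0.2 hx))).2⟩

theorem fx_pt (hx : S.OnS c 0 x) (hd : S.T3.dim x = 2) : (fx h3 hx hd).1.1.pt ∈ T.oc x :=
  S.oc3_sub x (mk2_pt hx.mem hd)

/-! ### the data -/

theorem hf_aux (G : (S.sh h3 c).Fk) (j : ℕ) : S.T3.dim (S.hc c G.1.1.pt j) = 2 := by
  have h1 := hc_dim3 (fk_onS G).bd j
  have h2 := fk_dim G
  omega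

/-- the copy of the face `G` on the level `j` -/
noncomputable def hf (G : (S.sh h3 c).Fk) (j : ℕ) : S.FK h3 S.n :=
  ⟨mk2 S.T3 (hc_onS' (fk_onS G).bd j).mem (hf_aux G j),
    nd_mk S.kn_le _ _ fun c' => (hc_onS' (fk_onS G).bd j).not_int c'⟩

theorem vf_aux (e : S.Ed c) (j : ℕ) : S.T3.dim (S.vc c e.1.pt j) = 2 := by
  rw [vc_dim3 (ed_onS e).bd j, ed_dim e]

/-- the vertical face over the edge `e` in the layer `j` -/
noncomputable def vf (h3 : Module.finrank ℝ E = 3) (e : S.Ed c) (j : ℕ) : S.FK h3 S.n :=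
  ⟨mk2 S.T3 (vc_inL' (ed_onS e).bd j).mem (vf_aux e j),
    nd_mk S.kn_le _ _ fun c' => (vc_inL' (ed_onS e).bd j).not_int c'⟩

theorem tg_aux (G : (S.sh h3 c).Fk) (j : ℕ) :
    S.T3.dim (S.vc c G.1.1.pt j) = Module.finrank ℝ E := by
  rw [vc_dim3 (fk_onS G).bd j, fk_dim G, h3]

/-- the tile over the face `G` in the layer `j` -/
noncomputable def tg (G : (S.sh h3 c).Fk) (j : ℕ) : T.RIdx S.HH :=
  tl S.T3 (vc_inL' (fk_onS G).bd j).mem (tg_aux G j)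

theorem hf_set (G : (S.sh h3 c).Fk) (hj : j ≤ S.n c) :
    y ∈ (hf G j).1.set ↔ y ∈ T.cc G.1.1.pt ∧ S.φ y = S.t c j :=
  mem_cc_hc (fk_onS G).bd hj

theorem vf_set (e : S.Ed c) (hj : j < S.n c) :
    y ∈ (vf h3 e j).1.set ↔ y ∈ T.cc e.1.pt ∧ S.t c (j + 1) ≤ S.φ y ∧ S.φ y ≤ S.t c j :=
  mem_cc_vc (ed_onS e).bd hj

theorem tg_P (G : (S.sh h3 c).Fk) (hj : j < S.n c) :
    y ∈ P (S.T3.H (tg G j)) ↔
      y ∈ T.cc G.1.1.pt ∧ S.t c (j + 1) ≤ S.φ y ∧ S.φ y ≤ S.t c j := by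
  have h1 := tl_P (T := S.T3) (vc_inL' (fk_onS G).bd j).mem (tg_aux G j)
  show y ∈ P (S.T3.H (tl S.T3 _ _)) ↔ _
  rw [h1]
  exact mem_cc_vc (fk_onS G).bd hj

theorem hf_pt (G : (S.sh h3 c).Fk) (hj : j ≤ S.n c) :
    (hf G j).1.pt ∈ T.oc G.1.1.pt ∧ S.φ (hf G j).1.pt = S.t c j :=
  (mem_oc_hc (fk_onS G).bd hj).1 (mk2_pt (T := S.T3) (hc_onS' (fk_onS G).bd j).mem (hf_aux G j))

theorem vf_pt (e : S.Ed c) (hj : j < S.n c) :
    (vf h3 e j).1.pt ∈ T.oc e.1.pt ∧ S.t c (j + 1) < S.φ (vf h3 e j).1.pt ∧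
      S.φ (vf h3 e j).1.pt < S.t c j :=
  (mem_oc_vc (ed_onS e).bd hj).1 (mk2_pt (T := S.T3) (vc_inL' (ed_onS e).bd j).mem (vf_aux e j))

theorem hf_onS (G : (S.sh h3 c).Fk) (hj : j ≤ S.n c) : S.OnS c j (hf G j).1.pt :=
  onS_of_cc (fk_onS G).bd (T.oc_sub_cc _ (hf_pt G hj).1) hj (hf_pt G hj).2

theorem vf_inL (e : S.Ed c) (hj : j < S.n c) : S.InL c j (vf h3 e j).1.pt :=
  inL_of_cc (ed_onS e).bd (T.oc_sub_cc _ (vf_pt e hj).1) hj (vf_pt e hj).2.1 (vf_pt e hj).2.2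

/-- recognition of the horizontal faces -/
theorem eq_hf {F : S.FK h3 S.n} {G : (S.sh h3 c).Fk} (hj : j ≤ S.n c)
    (h : F.1.pt ∈ T.oc G.1.1.pt) (h' : S.φ F.1.pt = S.t c j) : F = hf G j := by
  apply Subtype.ext
  refine c2_eq_mk (hc_onS' (fk_onS G).bd j).mem (hf_aux G j) ?_
  rw [F.1.set_eq]
  refine S.T3.oc_sub_cc _ (oc_symm (hc_onS (fk_onS G).bd hj).mem ?_)
  exact (mem_oc_hc (fk_onS G).bd hj).2 ⟨h, h'⟩

theorem eq_vf {F : S.FK h3 S.n} {e : S.Ed c} (hj : j < S.n c)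
    (h : F.1.pt ∈ T.oc e.1.pt) (h1 : S.t c (j + 1) < S.φ F.1.pt) (h2 : S.φ F.1.pt < S.t c j) :
    F = vf h3 e j := by
  apply Subtype.ext
  refine c2_eq_mk (vc_inL' (ed_onS e).bd j).mem (vf_aux e j) ?_
  rw [F.1.set_eq]
  refine S.T3.oc_sub_cc _ (oc_symm (vc_inL (ed_onS e).bd hj).mem ?_)
  exact (mem_oc_vc (ed_onS e).bd hj).2 ⟨h, h1, h2⟩

/-- every face on a slice is horizontal -/
theorem exists_hf {F : S.FK h3 S.n} (h : S.OnS c j F.1.pt) :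
    ∃ G : (S.sh h3 c).Fk, F = hf G j := by
  have hd : T.dim F.1.pt = 3 := by
    have h1 := S.dim3_on h
    have h2 := F.1.dim_pt
    omega
  have hd3 : S.T3.dim (S.hc c F.1.pt 0) = 2 := by
    have := hc_dim3 h.bd 0; omega
  refine ⟨fx h3 (base_onS h.bd) hd3, eq_hf h.2.1 ?_ h.2.2⟩
  exact oc_symm h.mem (oc_trans h.mem (hc_oc h.bd 0) (fx_pt (base_onS h.bd) hd3))

/-- every face in a layer is vertical -/
theorem exists_vf {F : S.FK h3 S.n} (h : S.InL c j F.1.pt) :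
    ∃ e : S.Ed c, e.1.pt ∈ T.oc F.1.pt ∧ F = vf h3 e j := by
  have hd : T.dim F.1.pt = 2 := by
    rw [← h.dim3]; exact F.1.dim_pt
  have hd3 : S.T3.dim (S.hc c F.1.pt 0) = 1 := by
    have := hc_dim3 h.bd 0; omega
  have h1 : (edx (base_onS h.bd) hd3).1.pt ∈ T.oc F.1.pt :=
    oc_trans h.mem (hc_oc h.bd 0) (edx_pt' (base_onS h.bd) hd3)
  exact ⟨edx (base_onS h.bd) hd3, h1, eq_vf h.2.1 (oc_symm h.mem h1) h.2.2.1 h.2.2.2⟩

/-- the faces of the inner mesh at a point of the band of level less than `t 0` -/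
theorem face_cases {F : S.FK h3 S.n} (h : F.1.pt ∈ S.U c) (h0 : S.φ F.1.pt ≤ S.t c 0) :
    (∃ j, S.OnS c j F.1.pt) ∨ ∃ j, S.InL c j F.1.pt :=
  onS_or_inL h h0 (nd_pt S.kn_le F c h)

/-! ### sides -/

theorem piK_inl' {k : κ → ℕ} {q : T.RIdx S.HH} (h : ∀ c, ¬ P (S.T3.H q) ⊆ S.KK k c) :
    piK S.T3 (S.KK k) q = Sum.inl q := piK_inl.2 ⟨rfl, h⟩

/-- the tiles of the layers are not in the inner cores -/
theorem tg_not (G : (S.sh h3 c).Fk) (hj : j < S.n c) (c' : κ) :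
    ¬ P (S.T3.H (tg G j)) ⊆ S.KK S.n c' := by
  intro h
  have h1 := vc_inL (fk_onS G).bd hj
  have h2 : S.vc c G.1.1.pt j ∈ P (S.T3.H (tg G j)) := by
    rw [tg_P G hj]
    exact ⟨T.oc_sub_cc _ (vc_oc (fk_onS G).bd j), h1.2.2.1.le, h1.2.2.2.le⟩
  have h4 := h h2
  have h5 : c = c' := core_of_U h1.1 h4.1
  subst h5
  have h6 := h4.2
  have h7 := h1.2.2.1
  have := S.t_le (c := c) (show j + 1 ≤ S.n c from hj) le_rfl
  linarith

/-- a tile of a layer is on a side of a face -/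
theorem tg_mem_side {F : S.FK h3 S.n} (G : (S.sh h3 c).Fk) (hj : j < S.n c) :
    (Sum.inl (tg G j) : T.RIdx S.HH ⊕ κ) ∈ (S.mn h3).side F ↔
      F.1.pt ∈ T.cc G.1.1.pt ∧ S.t c (j + 1) ≤ S.φ F.1.pt ∧ S.φ F.1.pt ≤ S.t c j := by
  rw [mem_sideK, ← tg_P G hj]
  constructor
  · rintro ⟨p, hp, h⟩
    obtain ⟨h1, _⟩ := piK_inl.1 h
    rw [← h1]; exact hp
  · intro h
    exact ⟨tg G j, h, piK_inl' (tg_not G hj)⟩

theorem tg_inj {G G' : (S.sh h3 c).Fk} {j' : ℕ} (hj : j < S.n c) (hj' : j' < S.n c)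
    (h : tg G j = tg G' j') : G = G' ∧ j = j' := by
  have h1 := vc_inL (fk_onS G').bd hj'
  have h2 : S.vc c G'.1.1.pt j' ∈ P (S.T3.H (tg G j)) := by
    rw [h, tg_P G' hj']
    exact ⟨T.oc_sub_cc _ (vc_oc (fk_onS G').bd j'), h1.2.2.1.le, h1.2.2.2.le⟩
  rw [tg_P G hj] at h2
  obtain ⟨h3', h4, h5⟩ := h2
  constructor
  · have h6 : S.vc c G'.1.1.pt j' ∈ T.oc G.1.1.pt := by
      refine mem_oc_of_dim h3' ?_
      rw [vc_dim (fk_onS G').bd j', fk_dim G, fk_dim G']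
    exact fk_eq (oc_trans (fk_onS G).mem h6 (oc_symm (fk_onS G').mem (vc_oc (fk_onS G').bd j')))
  · rcases lt_trichotomy j j' with h7 | h7 | h7
    · have := S.t_le (c := c) (show j + 1 ≤ j' by omega) hj'.le
      have := h1.2.2.2
      linarith
    · exact h7
    · have := S.t_le (c := c) (show j' + 1 ≤ j by omega) hj.le
      have := h1.2.2.1
      linarith

theorem hf_inj {G G' : (S.sh h3 c).Fk} {j' : ℕ} (hj : j ≤ S.n c) (hj' : j' ≤ S.n c)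
    (h : hf G j = hf G' j') : G = G' ∧ j = j' := by
  have h1 := hf_pt G hj
  have h2 := hf_pt G' hj'
  rw [← h] at h2
  exact ⟨fk_eq (oc_trans (fk_onS G).mem h1.1 (oc_symm (fk_onS G').mem h2.1)),
    S.t_inj hj hj' (h1.2.symm.trans h2.2)⟩

theorem layer_inj {j' : ℕ} (h1 : S.InL c j x) (h2 : S.InL c j' x) : j = j' := by
  rcases lt_trichotomy j j' with h7 | h7 | h7
  · have := S.t_le (c := c) (show j + 1 ≤ j' by omega) h2.2.1.le
    have := h1.2.2.1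
    have := h2.2.2.2
    linarith
  · exact h7
  · have := S.t_le (c := c) (show j' + 1 ≤ j by omega) h1.2.1.le
    have := h2.2.2.1
    have := h1.2.2.2
    linarith

theorem vf_inj {e e' : S.Ed c} {j' : ℕ} (hj : j < S.n c) (hj' : j' < S.n c)
    (h : vf h3 e j = vf h3 e' j') : e = e' ∧ j = j' := by
  have h1 := vf_pt (h3 := h3) e hj
  have h2 := vf_pt (h3 := h3) e' hj'
  rw [← h] at h2
  refine ⟨ed_eq (oc_trans (ed_onS e).mem h1.1 (oc_symm (ed_onS e').mem h2.1)), ?_⟩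
  have h4 := vf_inL (h3 := h3) e hj
  have h5 := vf_inL (h3 := h3) e' hj'
  rw [← h] at h5
  exact layer_inj h4 h5

theorem side_top (G : (S.sh h3 c).Fk) :
    (Sum.inl (tg G 0) : T.RIdx S.HH ⊕ κ) ∈ (S.mn h3).side (hf G 0) := by
  rw [tg_mem_side G (S.npos c)]
  have h := hf_pt G (Nat.zero_le _)
  exact ⟨T.oc_sub_cc _ h.1, by rw [h.2]; exact (S.anti c 0 (S.npos c)).le, h.2.le⟩

theorem side_mid (G : (S.sh h3 c).Fk) (hj : j + 1 < S.n c) :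
    (S.mn h3).side (hf G (j + 1)) = s(Sum.inl (tg G j), Sum.inl (tg G (j + 1))) := by
  have hne : (Sum.inl (tg G j) : T.RIdx S.HH ⊕ κ) ≠ Sum.inl (tg G (j + 1)) := by
    intro h
    have := (tg_inj (by omega) hj (Sum.inl_injective h)).2
    omega
  rw [← Sym2.mem_and_mem_iff hne, tg_mem_side G (by omega), tg_mem_side G hj]
  have h := hf_pt G hj.le
  have h1 := T.oc_sub_cc _ h.1
  exact ⟨⟨h1, h.2.ge, by rw [h.2]; exact (S.anti c j (by omega)).le⟩,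
    ⟨h1, by rw [h.2]; exact (S.anti c (j + 1) hj).le, h.2.le⟩⟩

theorem kk_mem_side {F : S.FK h3 S.n} (h : S.OnS c (S.n c) F.1.pt) :
    (Sum.inr c : T.RIdx S.HH ⊕ κ) ∈ (S.mn h3).side F := by
  have h1 : F.1.pt ∈ S.KK S.n c := ⟨h.1, h.2.2.le⟩
  obtain ⟨q, hq, hqK⟩ := S.T3.exists_inner (core_KK S.kn_le c) (KK_sub S.n c)
    (hs_KK S.kn_le c) h1
  rw [mem_sideK]
  exact ⟨q, hq, (piK_inr (dis_KK S.n)).2 hqK⟩

theorem side_bot (G : (S.sh h3 c).Fk) (hj : j + 1 = S.n c) :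
    (S.mn h3).side (hf G (S.n c)) = s(Sum.inl (tg G j), Sum.inr c) := by
  have hne : (Sum.inl (tg G j) : T.RIdx S.HH ⊕ κ) ≠ Sum.inr c := by simp
  rw [← Sym2.mem_and_mem_iff hne, tg_mem_side G (by omega)]
  have h := hf_pt G (le_refl (S.n c))
  refine ⟨⟨T.oc_sub_cc _ h.1, by rw [h.2, hj], ?_⟩, kk_mem_side (hf_onS G le_rfl)⟩
  rw [h.2]; exact S.t_le (by omega) le_rfl

/-- the faces of the shell at an edge -/
theorem fc_cc (e : S.Ed c) (b : Bool) :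
    e.1.pt ∈ T.cc ((⟨(S.sh h3 c).fc e b, (S.sh h3 c).fc_side e b⟩ : (S.sh h3 c).Fk).1.1.pt) := by
  have h := (fcK_sub (h3 := h3) (hK := core_KK S.k0_le) (hKO := KK_sub _)
    (hs := hs_KK S.k0_le) e b).2
  have h1 := h (e.1.opn_sub (S.T3.self_mem_oc _))
  have h2 := (mem_set_fk (⟨(S.sh h3 c).fc e b, (S.sh h3 c).fc_side e b⟩ : (S.sh h3 c).Fk)).1 h1
  exact h2.1

theorem side_vf (e : S.Ed c) (hj : j < S.n c) : (S.mn h3).side (vf h3 e j) =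
    s(Sum.inl (tg (⟨(S.sh h3 c).fc e false, (S.sh h3 c).fc_side e false⟩ : (S.sh h3 c).Fk) j),
      Sum.inl (tg (⟨(S.sh h3 c).fc e true, (S.sh h3 c).fc_side e true⟩ : (S.sh h3 c).Fk) j)) := by
  have hne : (Sum.inl (tg (⟨(S.sh h3 c).fc e false, (S.sh h3 c).fc_side e false⟩ :
      (S.sh h3 c).Fk) j) : T.RIdx S.HH ⊕ κ) ≠
      Sum.inl (tg (⟨(S.sh h3 c).fc e true, (S.sh h3 c).fc_side e true⟩ : (S.sh h3 c).Fk) j) := by
    intro h
    have := (tg_inj hj hj (Sum.inl_injective h)).1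
    exact (S.sh h3 c).fc_ne e (congrArg Subtype.val this)
  rw [← Sym2.mem_and_mem_iff hne, tg_mem_side _ hj, tg_mem_side _ hj]
  have h := vf_pt (h3 := h3) e hj
  have h1 := fun b => T.cc_sub_of_mem (fc_cc (h3 := h3) e b) (T.oc_sub_cc _ h.1)
  exact ⟨⟨h1 false, h.2.1.le, h.2.2.le⟩, ⟨h1 true, h.2.1.le, h.2.2.le⟩⟩

theorem faces_cl {G : (S.sh h3 c).Fk} {F : S.FK h3 S.n} (hj : j < S.n c)
    (h : (Sum.inl (tg G j) : T.RIdx S.HH ⊕ κ) ∈ (S.mn h3).side F) :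
    F = hf G j ∨ F = hf G (j + 1) ∨ ∃ e, (∃ b, (S.sh h3 c).fc e b = G.1) ∧ F = vf h3 e j := by
  rw [tg_mem_side G hj] at h
  obtain ⟨h1, h2, h4⟩ := h
  have hB := bd_of_cc (fk_onS G).bd h1 hj h2 h4
  have key : ∀ {j'}, S.OnS c j' F.1.pt → F = hf G j' := by
    intro j' h5
    have hd : T.dim F.1.pt = 3 := by
      have e1 := S.dim3_on h5
      have e2 := F.1.dim_pt
      omega
    exact eq_hf h5.2.1 (mem_oc_of_dim h1 (by rw [hd, fk_dim G])) h5.2.2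
  rcases layer_cases hB hj h2 h4 with h5 | h5 | h5
  · exact Or.inl (key h5)
  · exact Or.inr (Or.inl (key h5))
  · refine Or.inr (Or.inr ?_)
    obtain ⟨e, he1, he2⟩ := exists_vf h5
    refine ⟨e, ?_, he2⟩
    have h6 : e.1.set ⊆ G.1.1.set := by
      intro y hy
      rw [mem_set_ed] at hy
      rw [mem_set_fk]
      refine ⟨T.cc_sub_of_mem h1 ?_, hy.2⟩
      rw [← T.cc_eq_of_mem_oc F.1.pt_mem he1]
      exact hy.1
    obtain ⟨b, hb⟩ := (fcK_iff (h3 := h3) (hK := core_KK S.k0_le) (hKO := KK_sub _)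
      (hs := hs_KK S.k0_le) e G.1.1).1 ⟨fk_sub G, h6⟩
    exact ⟨b, Subtype.ext hb⟩

theorem faces_kk {F : S.FK h3 S.n}
    (h : (Sum.inr c : T.RIdx S.HH ⊕ κ) ∈ (S.mn h3).side F) :
    ∃ G : (S.sh h3 c).Fk, F = hf G (S.n c) := by
  have h1 : F.1.set ⊆ frontier (S.KK S.n c) :=
    (face_iff h3 (core_KK S.kn_le) (KK_sub _) (hs_KK S.kn_le) (dis_KK _) F.1 c).2 ⟨F.2, h⟩
  have h2 : F.1.pt ∈ frontier (S.KK S.n c) := h1 (by rw [F.1.set_eq]; exact S.T3.self_mem_cc _)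
  rw [frontier_KK S.kn_le c] at h2
  exact exists_hf h2

end Slc

end Crest.Agent.R096.Slc_184
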