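import Crest.Agent.R096.Slc6_184

/-!
# Row 96, DOORS, leaf SLC (helper184), part 7: the points on the faces, cyclic orders, the collars.
-/

set_option autoImplicit false
set_option linter.unusedSectionVars false

open Set Filter Topology Metric
open scoped Classical

namespace Crest.Agent.R096.Slc_184

open Crest.Agent.R096.Msh_715 Crest.Agent.R096.Agl5_543 Crest.Agent.R096.St_147
  Crest.Agent.R096.Lac_441

variable {E : Type} [NormedAddCommGroup E] [NormedSpace ℝ E] [FiniteDimensional ℝ E]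
variable {Om : Set E} {ι : Type}

namespace Slc

variable {T : Tiling Om ι} {κ : Type}
variable {S : Slc T κ} {h3 : Module.finrank ℝ E = 3} {c : κ} {x y z w : E} {j : ℕ}

theorem mem_onK {k : κ → ℕ} {hk : ∀ c, k c ≤ S.n c} {F : S.FK h3 k} :
    w ∈ (S.mK h3 k hk).On F ↔ w ∈ F.1.set ∧ S.T3.dim w = 1 := Iff.rfl

theorem mem_onE {e : S.Ed c} : w ∈ (S.sh h3 c).OnE e ↔ w ∈ e.1.opn := Iff.rfl

theorem ed_opn_cc (e : S.Ed c) (hw : w ∈ e.1.opn) : w ∈ T.oc e.1.pt := ((mem_opn_ed e).1 hw).1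

theorem ed_opn_onS (e : S.Ed c) (hw : w ∈ e.1.opn) : S.OnS c 0 w :=
  onS_of_cc (ed_onS e).bd (T.oc_sub_cc _ (ed_opn_cc e hw)) (Nat.zero_le _) ((mem_opn_ed e).1 hw).2

theorem ed_opn_dim3 (e : S.Ed c) (hw : w ∈ e.1.opn) : S.T3.dim w = 1 :=
  (S.T3.dim_eq_of_mem_oc e.1.pt_mem hw).trans e.2.1

theorem hp_oc' (e : S.Ed c) (hw : w ∈ e.1.opn) (hj : j ≤ S.n c) : S.hp c j w ∈ T.oc w :=
  oc_trans (ed_opn_onS e hw).mem (oc_symm (ed_onS e).mem (ed_opn_cc e hw)) (hp_oc e hw hj)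

theorem on_hf {G : (S.sh h3 c).Fk} (hj : j ≤ S.n c) :
    x ∈ (S.mn h3).On (hf G j) ↔ ∃ w ∈ (S.m0 h3).On G.1, x = S.hp c j w := by
  rw [mem_onK, hf_set G hj]
  constructor
  · rintro ⟨⟨h1, h2⟩, h4⟩
    have hS := onS_of_cc (fk_onS G).bd h1 hj h2
    obtain ⟨e, he, -, w, hw, rfl⟩ := exists_hp_of hS h4
    refine ⟨w, ?_, rfl⟩
    rw [mem_onK, mem_set_fk]
    refine ⟨⟨?_, (ed_opn_onS e hw).2.2⟩, ed_opn_dim3 e hw⟩
    refine T.cc_sub_of_mem h1 (T.oc_sub_cc _ ?_)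
    exact oc_trans hS.mem he (ed_opn_cc e hw)
  · rintro ⟨w, hw, rfl⟩
    rw [mem_onK, mem_set_fk] at hw
    obtain ⟨⟨h1, h2⟩, h4⟩ := hw
    have hS := onS_of_cc (fk_onS G).bd h1 (Nat.zero_le _) h2
    have hw' := edx_opn hS h4
    refine ⟨⟨T.cc_sub_of_mem h1 (T.oc_sub_cc _ (hp_oc' _ hw' hj)), (hp_onS _ hw' hj).2.2⟩,
      hp_dim3 _ hw' hj⟩

theorem on_vf_hp {e e' : S.Ed c} {i : ℕ} (hj : j ≤ S.n c) (hi : i < S.n c)
    (hw : w ∈ e.1.opn) : S.hp c j w ∈ (S.mn h3).On (vf h3 e' i) ↔ e' = e ∧ (j = i ∨ j = i + 1) := by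
  rw [mem_onK, vf_set e' hi, (hp_onS e hw hj).2.2]
  constructor
  · rintro ⟨⟨h1, h2, h4⟩, _⟩
    constructor
    · have h5 : S.hp c j w ∈ T.oc e'.1.pt := by
        refine mem_oc_of_dim h1 ?_
        rw [hp_dim e hw hj, ed_dim e']
      exact ed_eq (oc_trans e'.1.pt_mem h5 (oc_symm e.1.pt_mem (hp_oc e hw hj)))
    · by_contra hne
      push Not at hne
      rcases Nat.lt_or_ge j i with h | h
      · have := S.t_lt h hi.le
        linarith
      · have := S.t_lt (c := c) (show i + 1 < j by omega) hj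
        linarith
  · rintro ⟨rfl, h⟩
    refine ⟨⟨T.oc_sub_cc _ (hp_oc _ hw hj), ?_⟩, hp_dim3 _ hw hj⟩
    rcases h with rfl | rfl
    · exact ⟨(S.anti c j hi).le, le_rfl⟩
    · exact ⟨le_rfl, (S.anti c i hi).le⟩

theorem on_vf_vp {v : S.Vx c} {e : S.Ed c} {i : ℕ} (hj : j < S.n c) (hi : i < S.n c) :
    S.vc c v.1 j ∈ (S.mn h3).On (vf h3 e i) ↔ j = i ∧ ∃ b, (S.sh h3 c).en e b = v := by
  rw [mem_onK, vf_set e hi]
  have hL := vc_inL (vx_onS v).bd hj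
  have hen : (∃ b, (S.sh h3 c).en e b = v) ↔ v.1 ∈ e.1.set := by
    rw [endp_iff e.2.1 v.2.1]
    exact ⟨fun ⟨b, hb⟩ => ⟨b, congrArg Subtype.val hb⟩, fun ⟨b, hb⟩ => ⟨b, Subtype.ext hb⟩⟩
  rw [hen, mem_set_ed]
  constructor
  · rintro ⟨⟨h1, h2, h4⟩, _⟩
    constructor
    · rcases lt_trichotomy j i with h7 | h7 | h7
      · have := S.t_le (c := c) (show j + 1 ≤ i by omega) hi.le
        have := hL.2.2.1
        linarith
      · exact h7
      · have := S.t_le (c := c) (show i + 1 ≤ j by omega) hj.le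
        have := hL.2.2.2
        linarith
    · refine ⟨?_, (vx_onS v).2.2⟩
      exact T.cc_sub_of_mem h1 (T.oc_sub_cc _ (oc_symm (vx_onS v).mem (vc_oc (vx_onS v).bd j)))
  · rintro ⟨rfl, h1, _⟩
    refine ⟨⟨T.cc_sub_of_mem h1 (T.oc_sub_cc _ (vc_oc (vx_onS v).bd j)), hL.2.2.1.le,
      hL.2.2.2.le⟩, ?_⟩
    rw [vc_dim3 (vx_onS v).bd j, vx_dim v]

theorem faces_hp {e : S.Ed c} {F : S.FK h3 S.n} (h0 : 0 < j) (hj : j ≤ S.n c)
    (hw : w ∈ e.1.opn) (h : S.hp c j w ∈ (S.mn h3).On F) :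
    (∃ G : (S.sh h3 c).Fk, F = hf G j) ∨ ∃ e i, i < S.n c ∧ F = vf (c := c) h3 e i := by
  rw [mem_onK, F.1.set_eq] at h
  have hS := hp_onS e hw hj
  obtain ⟨hU, hlt⟩ := cc3_low F.1.pt_mem h.1 hS.bd (Nat.zero_le _)
    (by rw [hS.2.2]; exact S.t_lt h0 hj)
  rcases face_cases hU hlt.le with ⟨i, hi⟩ | ⟨i, hi⟩
  · left
    have h1 := (hi.cc.1 h.1).2
    rw [hS.2.2] at h1
    have : j = i := S.t_inj hj hi.2.1 h1
    subst this
    exact exists_hf hi
  · right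
    obtain ⟨e', _, he'⟩ := exists_vf hi
    exact ⟨e', i, hi.2.1, he'⟩

theorem faces_vp {v : S.Vx c} {F : S.FK h3 S.n} (hj : j < S.n c)
    (h : S.vc c v.1 j ∈ (S.mn h3).On F) : ∃ e : S.Ed c, F = vf h3 e j := by
  rw [mem_onK, F.1.set_eq] at h
  have hL := vc_inL (vx_onS v).bd hj
  obtain ⟨hU, hlt⟩ := cc3_low F.1.pt_mem h.1 hL.bd hj.le hL.2.2.2
  have hgt := cc3_high F.1.pt_mem h.1 hL.bd hj hL.2.2.1
  obtain ⟨e, _, he⟩ := exists_vf (h3 := h3) (c := c) (j := j) (F := F) ⟨hU, hj, hgt, hlt⟩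
  exact ⟨e, he⟩

/-! ### the cyclic order on the horizontal faces -/

/-- the copy of the boundary of a face -/
noncomputable def eta (S : Slc T κ) (c : κ) (j : ℕ) (w : E) : E :=
  if S.T3.dim w = 0 then S.hc c w j else S.hp c j w

theorem eta_zero (h : S.T3.dim w = 0) : S.eta c j w = S.hc c w j := if_pos h

theorem eta_one (h : S.T3.dim w = 1) : S.eta c j w = S.hp c j w := by
  unfold eta
  rw [if_neg (by omega)]

theorem eta_oc (hw : S.OnS c 0 w) (hd : S.T3.dim w ≤ 1) (hj : j ≤ S.n c) :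
    S.eta c j w ∈ T.oc w := by
  rcases Nat.lt_or_ge (S.T3.dim w) 1 with h | h
  · rw [eta_zero (by omega)]; exact hc_oc hw.bd j
  · have h1 : S.T3.dim w = 1 := by omega
    rw [eta_one h1]
    exact hp_oc' _ (edx_opn hw h1) hj

theorem eta_onS (hw : S.OnS c 0 w) (hd : S.T3.dim w ≤ 1) (hj : j ≤ S.n c) :
    S.OnS c j (S.eta c j w) := by
  rcases Nat.lt_or_ge (S.T3.dim w) 1 with h | h
  · rw [eta_zero (by omega)]; exact hc_onS hw.bd hj
  · have h1 : S.T3.dim w = 1 := by omega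
    rw [eta_one h1]
    exact hp_onS _ (edx_opn hw h1) hj

theorem eta_dim3 (hw : S.OnS c 0 w) (hd : S.T3.dim w ≤ 1) (hj : j ≤ S.n c) :
    S.T3.dim (S.eta c j w) = S.T3.dim w := by
  have h1 := S.dim3_on (eta_onS hw hd hj)
  have h2 := S.dim3_on hw
  have h4 := T.dim_eq_of_mem_oc hw.mem (eta_oc hw hd hj)
  omega

theorem eta_inj {w' : E} (hw : S.OnS c 0 w) (hd : S.T3.dim w ≤ 1) (hw' : S.OnS c 0 w')
    (hd' : S.T3.dim w' ≤ 1) (hj : j ≤ S.n c) (h : S.eta c j w = S.eta c j w') : w = w' := by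
  have h1 := eta_oc hw hd hj
  have h2 := eta_oc hw' hd' hj
  rw [← h] at h2
  have h4 : w' ∈ T.oc w := oc_trans hw.mem h1 (oc_symm hw'.mem h2)
  have h5 : S.T3.dim w' = S.T3.dim w := by
    rw [← eta_dim3 hw hd hj, h, eta_dim3 hw' hd' hj]
  rcases Nat.lt_or_ge (S.T3.dim w) 1 with h6 | h6
  · have h7 : T.dim w = 1 := by have := S.dim3_on hw; omega
    exact lv_unique hw.bd h7 (T.self_mem_cc _) (T.oc_sub_cc _ h4) (hw.2.2.trans hw'.2.2.symm)
  · have h7 : S.T3.dim w = 1 := by omega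
    have h8 : S.T3.dim w' = 1 := by omega
    rw [eta_one h7, eta_one h8] at h
    exact (hp_inj hj hj (edx_opn hw h7) (edx_opn hw' h8) h).2

/-- `eta` is affine on the closed edges -/
theorem eta_seg (e : S.Ed c) (j : ℕ) {s : ℝ} (hs : s ∈ Icc (0 : ℝ) 1) :
    S.eta c j (endp e.1 false + s • (endp e.1 true - endp e.1 false)) =
      S.hc c (endp e.1 false) j + s • (S.hc c (endp e.1 true) j - S.hc c (endp e.1 false) j) := by
  rcases eq_or_lt_of_le hs.1 with h | h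
  · rw [← h, zero_smul, add_zero, zero_smul, add_zero, eta_zero (endp_mem e.2.1 false).2]
  · rcases eq_or_lt_of_le hs.2 with h' | h'
    · rw [h', one_smul, one_smul, add_sub_cancel, add_sub_cancel,
        eta_zero (endp_mem e.2.1 true).2]
    · obtain ⟨h1, h2⟩ := par_eq e.2.1 (s := s) ⟨h, h'⟩
      have h4 := hp_eq e h1 j
      rw [h2] at h4
      show S.eta c j (lft e.1 + s • (rgt e.1 - lft e.1)) = _
      rw [eta_one (ed_opn_dim3 e h1), h4]

theorem eta_cont_ed (e : S.Ed c) (j : ℕ) : ContinuousOn (S.eta c j) e.1.set := by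
  obtain ⟨h1, h2, -⟩ := lft_rgt e.2.1
  -- an affine retraction on the parameter
  have hne : rgt e.1 - lft e.1 ≠ 0 := sub_ne_zero.2 h1.symm
  obtain ⟨l, -, hl⟩ := exists_dual_vector ℝ _ (norm_ne_zero_iff.2 hne)
  have hl' : l (rgt e.1 - lft e.1) = ‖rgt e.1 - lft e.1‖ := by simpa using hl
  set r := ‖rgt e.1 - lft e.1‖ with hr
  have hr0 : r ≠ 0 := norm_ne_zero_iff.2 hne
  have key : ∀ w ∈ e.1.set, S.eta c j w = S.hc c (endp e.1 false) j +
      (l (w - lft e.1) / r) • (S.hc c (endp e.1 true) j - S.hc c (endp e.1 false) j) := by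
    intro w hw
    rw [h2, segment_eq_image'] at hw
    obtain ⟨s, hs, rfl⟩ := hw
    have h4 : l (lft e.1 + s • (rgt e.1 - lft e.1) - lft e.1) / r = s := by
      rw [add_sub_cancel_left, map_smul, smul_eq_mul, hl', mul_div_assoc, div_self hr0, mul_one]
    rw [h4]
    exact eta_seg e j hs
  refine ContinuousOn.congr ?_ key
  apply Continuous.continuousOn
  have : Continuous fun w : E => l (w - lft e.1) / r := by fun_prop
  exact continuous_const.add (this.smul continuous_const)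

theorem mem_bd_fk {G : (S.sh h3 c).Fk} :
    y ∈ G.1.1.bd ↔ (y ∈ T.cc G.1.1.pt ∧ S.φ y = S.t c 0) ∧ S.T3.dim y ≤ 1 := by
  rw [← mem_set_fk]
  constructor
  · intro h
    exact ⟨h.1, (G.1.1.mem_bd_iff h.1).1 h⟩
  · rintro ⟨h1, h2⟩
    exact (G.1.1.mem_bd_iff h1).2 h2

theorem mem_bd_hf {G : (S.sh h3 c).Fk} (hj : j ≤ S.n c) :
    y ∈ (hf G j).1.bd ↔ (y ∈ T.cc G.1.1.pt ∧ S.φ y = S.t c j) ∧ S.T3.dim y ≤ 1 := by
  rw [← hf_set G hj]
  constructor
  · intro h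
    exact ⟨h.1, ((hf G j).1.mem_bd_iff h.1).1 h⟩
  · rintro ⟨h1, h2⟩
    exact ((hf G j).1.mem_bd_iff h1).2 h2

theorem bd_fk_onS {G : (S.sh h3 c).Fk} (hy : y ∈ G.1.1.bd) : S.OnS c 0 y ∧ S.T3.dim y ≤ 1 := by
  rw [mem_bd_fk] at hy
  exact ⟨onS_of_cc (fk_onS G).bd hy.1.1 (Nat.zero_le _) hy.1.2, hy.2⟩

theorem eta_cont (G : (S.sh h3 c).Fk) (j : ℕ) : ContinuousOn (S.eta c j) G.1.1.bd := by
  -- the edges of the face
  let A := {e : S.Ed c // e.1.set ⊆ G.1.1.set}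
  have hfin : Finite A := by
    have h := S.T3.finite_below (fk_onS G).mem
    have h' : {e : S.Ed c | e.1.set ⊆ G.1.1.set}.Finite := by
      refine Set.Finite.of_finite_image (f := fun e : S.Ed c => e.1.set) (h.subset ?_) ?_
      · rintro _ ⟨e, he, rfl⟩
        exact ⟨⟨e.1.pt, e.1.pt_mem, e.1.set_eq⟩, by rw [← G.1.1.set_eq]; exact he⟩
      · intro e _ e' _ h
        exact Subtype.ext (Tiling.Cell.ext h)
    exact h'.to_subtype
  have h1 : ContinuousOn (S.eta c j) (⋃ a : A, a.1.1.set) := by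
    refine (locallyFinite_of_finite fun a : A => a.1.1.set).continuousOn_iUnion (fun a => ?_)
      fun a => eta_cont_ed a.1 j
    rw [a.1.1.set_eq]; exact S.T3.isClosed_cc _
  refine h1.mono fun y hy => ?_
  obtain ⟨hS, hd⟩ := bd_fk_onS hy
  have hyG : y ∈ S.T3.cc G.1.1.pt := by rw [← G.1.1.set_eq]; exact G.1.1.bd_sub hy
  rcases Nat.lt_or_ge (S.T3.dim y) 1 with h6 | h6
  · -- a vertex is on an edge
    have h7 : S.T3.dim y = 0 := by omega
    obtain ⟨f, hf⟩ : (S.T3.edgesAt G.1.1.pt y).Nonempty := by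
      rw [← ncard_pos (by
        by_contra hcon
        have := Set.Infinite.ncard hcon
        rw [S.T3.two_edges G.1.1.pt_mem G.1.1.dim_pt hyG h7] at this
        omega), S.T3.two_edges G.1.1.pt_mem G.1.1.dim_pt hyG h7]
      omega
    obtain ⟨hf1, hf2, hf3⟩ := hf
    rw [← G.1.1.set_eq] at hf2
    exact mem_iUnion.2 ⟨⟨⟨f, hf1, hf2.trans (fk_sub G)⟩, hf2⟩, hf3⟩
  · have h7 : S.T3.dim y = 1 := by omega
    refine mem_iUnion.2 ⟨⟨edx hS h7, ?_⟩, (edx hS h7).1.opn_sub (edx_opn hS h7)⟩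
    rw [edx_set hS h7, G.1.1.set_eq]
    exact S.T3.cc_sub_of_mem hyG

theorem eta_image (G : (S.sh h3 c).Fk) (hj : j ≤ S.n c) :
    S.eta c j '' G.1.1.bd = (hf G j).1.bd := by
  apply Subset.antisymm
  · rintro _ ⟨w, hw, rfl⟩
    obtain ⟨hS, hd⟩ := bd_fk_onS hw
    rw [mem_bd_fk] at hw
    rw [mem_bd_hf hj]
    exact ⟨⟨T.cc_sub_of_mem hw.1.1 (T.oc_sub_cc _ (eta_oc hS hd hj)), (eta_onS hS hd hj).2.2⟩,
      (eta_dim3 hS hd hj).trans_le hd⟩
  · intro y hy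
    rw [mem_bd_hf hj] at hy
    obtain ⟨⟨h1, h2⟩, hd⟩ := hy
    have hS := onS_of_cc (fk_onS G).bd h1 hj h2
    rcases Nat.lt_or_ge (S.T3.dim y) 1 with h6 | h6
    · have h7 : T.dim y = 1 := by have := S.dim3_on hS; omega
      have h8 : S.T3.dim (S.hc c y 0) = 0 := by have := hc_dim3 hS.bd 0; omega
      have h9 := base_onS hS.bd
      refine ⟨S.hc c y 0, ?_, ?_⟩
      · rw [mem_bd_fk]
        exact ⟨⟨T.cc_sub_of_mem h1 (T.oc_sub_cc _ (hc_oc hS.bd 0)), h9.2.2⟩, by omega⟩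
      · rw [eta_zero h8]
        refine lv_unique hS.bd h7 (T.oc_sub_cc _ (oc_trans hS.mem (hc_oc hS.bd 0)
          (hc_oc h9.bd j))) (T.self_mem_cc _) ?_
        rw [(hc_onS h9.bd hj).2.2, h2]
    · have h7 : S.T3.dim y = 1 := by omega
      have h8 : y ∈ (S.mn h3).On (hf G j) := by
        rw [mem_onK, hf_set G hj]; exact ⟨⟨h1, h2⟩, h7⟩
      obtain ⟨w, hw, rfl⟩ := (on_hf hj).1 h8
      rw [mem_onK, mem_set_fk] at hw
      refine ⟨w, ?_, eta_one hw.2⟩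
      rw [mem_bd_fk]
      exact ⟨hw.1, hw.2.le⟩

theorem lace_hf {G : (S.sh h3 c).Fk} {u v x y : E} (hj : j ≤ S.n c)
    (hu : u ∈ (S.m0 h3).On G.1) (hv : v ∈ (S.m0 h3).On G.1) (hx : x ∈ (S.m0 h3).On G.1)
    (hy : y ∈ (S.m0 h3).On G.1) (hux : u ≠ x) (huy : u ≠ y) (hvx : v ≠ x) (hvy : v ≠ y) :
    (S.mn h3).Lace (hf G j) (S.hp c j u) (S.hp c j v) (S.hp c j x) (S.hp c j y) ↔
      (S.m0 h3).Lace G.1 u v x y := by
  have hb : ∀ {w : E}, w ∈ (S.m0 h3).On G.1 → w ∈ G.1.1.bd := fun hw => by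
    rw [mem_onK] at hw
    exact (G.1.1.mem_bd_iff hw.1).2 hw.2.le
  have h := lace_homeo h3 h3 G.1.1 (hf G j).1 (eta_cont G j)
    (fun a ha b hb e => eta_inj (bd_fk_onS ha).1 (bd_fk_onS ha).2 (bd_fk_onS hb).1
      (bd_fk_onS hb).2 hj e)
    (eta_image G hj) (hb hu) (hb hv) (hb hx) (hb hy) hux huy hvx hvy
  rw [eta_one (mem_onK.1 hu).2, eta_one (mem_onK.1 hv).2, eta_one (mem_onK.1 hx).2,
    eta_one (mem_onK.1 hy).2] at h
  exact h

/-! ### the cyclic order on the vertical faces -/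

/-- vertical edge over the end point `b` -/
theorem vert_seg (e : S.Ed c) (b : Bool) (hj : j < S.n c) :
    y ∈ segment ℝ (S.hc c (endp e.1 b) (j + 1)) (S.hc c (endp e.1 b) j) ↔
      y ∈ T.oc (endp e.1 b) ∧ S.t c (j + 1) ≤ S.φ y ∧ S.φ y ≤ S.t c j := by
  have hE := endp_onS e b
  have hP := hc_onS hE.bd hj.le
  have hQ := hc_onS hE.bd hj
  have hPo := hc_oc hE.bd j
  have hQo := hc_oc hE.bd (j + 1)
  have hA := S.aff_cc hE.bd
  have hlt := S.anti c j hj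
  have main : ∀ s ∈ Icc (0 : ℝ) 1,
      S.hc c (endp e.1 b) (j + 1) + s • (S.hc c (endp e.1 b) j - S.hc c (endp e.1 b) (j + 1)) ∈
        T.oc (endp e.1 b) ∧ S.φ (S.hc c (endp e.1 b) (j + 1) +
          s • (S.hc c (endp e.1 b) j - S.hc c (endp e.1 b) (j + 1))) =
          S.t c (j + 1) + s * (S.t c j - S.t c (j + 1)) := by
    intro s hs
    have hm := (T.convex_oc (endp e.1 b)).add_smul_sub_mem hQo hPo hs
    refine ⟨hm, ?_⟩
    rw [hA.line (T.oc_sub_cc _ hQo) (T.oc_sub_cc _ hPo) (T.oc_sub_cc _ hm), hP.2.2, hQ.2.2]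
  constructor
  · intro hy
    rw [segment_eq_image'] at hy
    obtain ⟨s, hs, rfl⟩ := hy
    obtain ⟨h1, h2⟩ := main s hs
    refine ⟨h1, ?_, ?_⟩
    · show _ ≤ S.φ (S.hc c (endp e.1 b) (j + 1) +
          s • (S.hc c (endp e.1 b) j - S.hc c (endp e.1 b) (j + 1)))
      rw [h2]; nlinarith [hs.1]
    · show S.φ (S.hc c (endp e.1 b) (j + 1) +
          s • (S.hc c (endp e.1 b) j - S.hc c (endp e.1 b) (j + 1))) ≤ _
      rw [h2]; nlinarith [hs.2]
  · rintro ⟨h1, h2, h4⟩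
    rw [segment_eq_image']
    have hd : 0 < S.t c j - S.t c (j + 1) := by linarith
    have hs : (S.φ y - S.t c (j + 1)) / (S.t c j - S.t c (j + 1)) ∈ Icc (0 : ℝ) 1 :=
      ⟨div_nonneg (by linarith) hd.le, by rw [div_le_one hd]; linarith⟩
    refine ⟨_, hs, ?_⟩
    obtain ⟨h5, h6⟩ := main _ hs
    refine lv_unique hE.bd (endp_dim e b) (T.oc_sub_cc _ h5) (T.oc_sub_cc _ h1) ?_
    rw [h6]
    field_simp
    ring

theorem vert_par (e : S.Ed c) (b : Bool) (hj : j < S.n c) {P Q : E}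
    (hP : P ∈ T.oc (endp e.1 b)) (hQ : Q ∈ T.oc (endp e.1 b)) (h1 : S.φ P < S.mid c j)
    (h2 : S.mid c j < S.φ Q) :
    ∃ s ∈ Ioo (0 : ℝ) 1, S.vc c (endp e.1 b) j = AffineMap.lineMap P Q s := by
  have hE := endp_onS e b
  have hA := S.aff_cc hE.bd
  have hd : 0 < S.φ Q - S.φ P := by linarith
  have hs : (S.mid c j - S.φ P) / (S.φ Q - S.φ P) ∈ Ioo (0 : ℝ) 1 :=
    ⟨div_pos (by linarith) hd, by rw [div_lt_one hd]; linarith⟩
  refine ⟨_, hs, ?_⟩
  have e1 : (AffineMap.lineMap P Q ((S.mid c j - S.φ P) / (S.φ Q - S.φ P)) : E) =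
      P + ((S.mid c j - S.φ P) / (S.φ Q - S.φ P)) • (Q - P) := by
    rw [AffineMap.lineMap_apply, vsub_eq_sub, vadd_eq_add, add_comm]
  have hm : P + ((S.mid c j - S.φ P) / (S.φ Q - S.φ P)) • (Q - P) ∈ T.oc (endp e.1 b) :=
    (T.convex_oc _).add_smul_sub_mem hP hQ ⟨hs.1.le, hs.2.le⟩
  rw [e1]
  refine lv_unique hE.bd (endp_dim e b) (T.oc_sub_cc _ (vc_oc hE.bd j)) (T.oc_sub_cc _ hm) ?_
  rw [hA.line (T.oc_sub_cc _ hP) (T.oc_sub_cc _ hQ) (T.oc_sub_cc _ hm)]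
  have h4 : S.φ (S.vc c (endp e.1 b) j) = S.mid c j := by
    have := S.lv_mem hE.bd (S.a_lt_mid hj) (S.mid_lt_b hj)
    unfold vc
    rw [min_eq_left (by omega)]
    exact this.2
  rw [h4]
  field_simp
  ring

theorem mem_bd_vf {e : S.Ed c} (hj : j < S.n c) :
    y ∈ (vf h3 e j).1.bd ↔
      (y ∈ T.cc e.1.pt ∧ S.t c (j + 1) ≤ S.φ y ∧ S.φ y ≤ S.t c j) ∧ S.T3.dim y ≤ 1 := by
  rw [← vf_set (h3 := h3) e hj]
  constructor
  · intro h
    exact ⟨h.1, ((vf h3 e j).1.mem_bd_iff h.1).1 h⟩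
  · rintro ⟨h1, h2⟩
    exact ((vf h3 e j).1.mem_bd_iff h1).2 h2

theorem lvl_seg (e : S.Ed c) (hj : j ≤ S.n c) :
    y ∈ segment ℝ (S.hc c (endp e.1 false) j) (S.hc c (endp e.1 true) j) ↔
      y ∈ T.cc e.1.pt ∧ S.φ y = S.t c j := by
  rw [← (lvl_edge e hj).1, mem_cc_hc (ed_onS e).bd hj]

theorem lvl_dim (e : S.Ed c) (hj : j ≤ S.n c) (hy : y ∈ T.cc e.1.pt) (h : S.φ y = S.t c j) :
    S.T3.dim y ≤ 1 := by
  have h1 : y ∈ S.T3.cc (S.hc c e.1.pt j) := (mem_cc_hc (ed_onS e).bd hj).2 ⟨hy, h⟩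
  have h2 := S.T3.dim_le h1
  have h4 := hc_dim3 (ed_onS e).bd j
  have h5 := ed_dim e
  omega

/-- the vertical face is a quadrilateral -/
theorem trap (e : S.Ed c) (hj : j < S.n c) :
    Trap (vf h3 e j).1.bd (S.hc c (endp e.1 false) (j + 1)) (S.hc c (endp e.1 false) j)
      (S.hc c (endp e.1 true) j) (S.hc c (endp e.1 true) (j + 1)) := by
  have hj1 : j + 1 ≤ S.n c := hj
  have hlt := S.anti c j hj
  have hφ : ∀ b, ∀ {k}, k ≤ S.n c → S.φ (S.hc c (endp e.1 b) k) = S.t c k :=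
    fun b k hk => (hc_onS (endp_onS e b).bd hk).2.2
  have hoc : ∀ b k, S.hc c (endp e.1 b) k ∈ T.oc (endp e.1 b) := fun b k =>
    hc_oc (endp_onS e b).bd k
  have hv : ∀ b, ∀ {y}, y ∈ segment ℝ (S.hc c (endp e.1 b) (j + 1)) (S.hc c (endp e.1 b) j) ↔
      y ∈ T.oc (endp e.1 b) ∧ S.t c (j + 1) ≤ S.φ y ∧ S.φ y ≤ S.t c j :=
    fun b y => vert_seg e b hj
  have corner : ∀ b, ∀ {k}, k ≤ S.n c → ∀ {y}, y ∈ T.oc (endp e.1 b) → S.φ y = S.t c k →
      y = S.hc c (endp e.1 b) k := fun b k hk y hy h =>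
    lv_unique (endp_onS e b).bd (endp_dim e b) (T.oc_sub_cc _ hy) (T.oc_sub_cc _ (hoc b k))
      (h.trans (hφ b hk).symm)
  refine ⟨?_, ?_, cor_ne e j j, ?_, (cor_ne e (j + 1) (j + 1)).symm, ?_, ?_, ?_, ?_, ?_, ?_⟩
  · ext y
    rw [mem_bd_vf hj, mem_union, mem_union, mem_union, hv false, lvl_seg e hj.le,
      segment_symm ℝ (S.hc c (endp e.1 true) j), hv true,
      segment_symm ℝ (S.hc c (endp e.1 true) (j + 1)), lvl_seg e hj1]
    constructor
    · rintro ⟨⟨h1, h2, h4⟩, hd⟩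
      have hB := bd_of_cc (ed_onS e).bd h1 hj h2 h4
      rcases layer_cases hB hj h2 h4 with h5 | h5 | h5
      · exact Or.inl (Or.inl (Or.inr ⟨h1, h5.2.2⟩))
      · exact Or.inr ⟨h1, h5.2.2⟩
      · -- inside the layer: over a vertex
        have hd1 : T.dim y ≤ 1 := by rw [← h5.dim3]; exact hd
        have hd0 : T.dim y ≠ 0 := by
          intro h0
          have hB' := hB
          rcases S.vert c y hB.1 h0 with h | h
          · exact absurd hB.2.1 (not_lt.2 h)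
          · exact absurd hB.2.2 (not_lt.2 h)
        have hd' : T.dim y = 1 := by omega
        have h6 : S.T3.dim (S.hc c y 0) = 0 := by have := hc_dim3 hB 0; omega
        have h7 : S.hc c y 0 ∈ e.1.set := by
          rw [mem_set_ed]
          exact ⟨T.cc_sub_of_mem h1 (T.oc_sub_cc _ (hc_oc hB 0)), (base_onS hB).2.2⟩
        obtain ⟨b, hb⟩ := (endp_iff e.2.1 h6).1 h7
        have h8 : y ∈ T.oc (endp e.1 b) := by
          rw [hb]; exact oc_symm (S.Bd_sub hB) (hc_oc hB 0)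
        cases b
        · exact Or.inl (Or.inl (Or.inl ⟨h8, h2, h4⟩))
        · exact Or.inl (Or.inr ⟨h8, h2, h4⟩)
    · have hvert : ∀ b, y ∈ T.oc (endp e.1 b) ∧ S.t c (j + 1) ≤ S.φ y ∧ S.φ y ≤ S.t c j →
          (y ∈ T.cc e.1.pt ∧ S.t c (j + 1) ≤ S.φ y ∧ S.φ y ≤ S.t c j) ∧ S.T3.dim y ≤ 1 := by
        rintro b ⟨h1, h2, h4⟩
        refine ⟨⟨T.cc_sub_of_mem (endp_cc e b) (T.oc_sub_cc _ h1), h2, h4⟩, ?_⟩
        have h5 := dim3_le (S := S) y
        rw [T.dim_eq_of_mem_oc (endp_onS e b).mem h1, endp_dim e b] at h5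
        exact h5
      rintro (((h | h) | h) | h)
      · exact hvert false h
      · exact ⟨⟨h.1, by rw [h.2]; exact hlt.le, h.2.le⟩, lvl_dim e hj.le h.1 h.2⟩
      · exact hvert true h
      · exact ⟨⟨h.1, h.2.ge, by rw [h.2]; exact hlt.le⟩, lvl_dim e hj1 h.1 h.2⟩
  · intro h
    have := congrArg S.φ h
    rw [hφ false hj1, hφ false hj.le] at this
    linarith
  · intro h
    have := congrArg S.φ h
    rw [hφ true hj1, hφ true hj.le] at this
    linarith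
  · intro x h1 h2
    rw [hv false] at h1
    rw [lvl_seg e hj.le] at h2
    exact corner false hj.le h1.1 h2.2
  · intro x h1 h2
    rw [segment_symm, hv true] at h2
    rw [lvl_seg e hj.le] at h1
    exact corner true hj.le h2.1 h1.2
  · intro x h1 h2
    rw [segment_symm, hv true] at h1
    rw [segment_symm, lvl_seg e hj1] at h2
    exact corner true hj1 h1.1 h2.2
  · intro x h1 h2
    rw [segment_symm, lvl_seg e hj1] at h1
    rw [hv false] at h2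
    exact corner false hj1 h2.1 h1.2
  · intro x h1 h2
    rw [hv false] at h1
    rw [segment_symm, hv true] at h2
    exact endp_sep e (oc_trans (endp_onS e false).mem h1.1 (oc_symm (endp_onS e true).mem h2.1))
  · intro x h1 h2
    rw [lvl_seg e hj.le] at h1
    rw [segment_symm, lvl_seg e hj1] at h2
    have := h1.2.symm.trans h2.2
    linarith

theorem lace_vf {e : S.Ed c} {a b p q : (S.sh h3 c).Pnt} (hj : j < S.n c)
    (ha : a ∈ (S.sh h3 c).On (Sum.inr (Sum.inr e))) (hb : b ∈ (S.sh h3 c).On (Sum.inr (Sum.inr e)))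
    (hp : p ∈ (S.sh h3 c).On (Sum.inr (Sum.inr e))) (hq : q ∈ (S.sh h3 c).On (Sum.inr (Sum.inr e)))
    (hap : a ≠ p) (haq : a ≠ q) (hbp : b ≠ p) (hbq : b ≠ q) :
    (S.mn h3).Lace (vf h3 e j)
      (Sum.elim (S.hp c j) (Sum.elim (S.hp c (j + 1)) fun v : S.Vx c => S.vc c v.1 j) a)
      (Sum.elim (S.hp c j) (Sum.elim (S.hp c (j + 1)) fun v : S.Vx c => S.vc c v.1 j) b)
      (Sum.elim (S.hp c j) (Sum.elim (S.hp c (j + 1)) fun v : S.Vx c => S.vc c v.1 j) p)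
      (Sum.elim (S.hp c j) (Sum.elim (S.hp c (j + 1)) fun v : S.Vx c => S.vc c v.1 j) q) ↔
      (S.sh h3 c).mesh.Lace (Sum.inr (Sum.inr e)) a b p q := by
  have hj1 : j + 1 ≤ S.n c := hj
  have hφ : ∀ b, ∀ {k}, k ≤ S.n c → S.φ (S.hc c (endp e.1 b) k) = S.t c k :=
    fun b k hk => (hc_onS (endp_onS e b).bd hk).2.2
  have hoc : ∀ b k, S.hc c (endp e.1 b) k ∈ T.oc (endp e.1 b) := fun b k =>
    hc_oc (endp_onS e b).bd k
  obtain ⟨s0, hs0, hv0⟩ := vert_par e false hj (hoc false (j + 1)) (hoc false j)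
    (by rw [hφ false hj1]; exact S.lt_mid hj) (by rw [hφ false hj.le]; exact S.mid_lt hj)
  -- on the right from the top
  obtain ⟨s1, hs1, hv1⟩ := vert_par e true hj (hoc true (j + 1)) (hoc true j)
    (by rw [hφ true hj1]; exact S.lt_mid hj) (by rw [hφ true hj.le]; exact S.mid_lt hj)
  have hv1' : S.vc c (endp e.1 true) j = AffineMap.lineMap (S.hc c (endp e.1 true) j)
      (S.hc c (endp e.1 true) (j + 1)) (1 - s1) := by
    rw [hv1, ← AffineMap.lineMap_apply_one_sub]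
  have hline : ∀ {k : ℕ} {w : E}, w ∈ e.1.opn → S.hp c k w =
      AffineMap.lineMap (S.hc c (endp e.1 false) k) (S.hc c (endp e.1 true) k) (par S.T3 w) := by
    intro k w hw
    rw [hp_eq e hw, AffineMap.lineMap_apply, vsub_eq_sub, vadd_eq_add, add_comm]
  have h := lace_vert h3 (vf h3 e j).1 (trap e hj) (S.sh h3 c) e (top := S.hp c j)
    (bot := S.hp c (j + 1)) (vt := fun v : S.Vx c => S.vc c v.1 j) (τ := par S.T3)
    (τ' := par S.T3) (σ := fun b => if b then 1 - s1 else s0)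
    (fun w hw => par_mem e hw) (fun w hw => par_mem e hw)
    (fun b => by
      cases b
      · exact hs0
      · show 0 < 1 - s1 ∧ 1 - s1 < 1
        constructor <;> linarith [hs1.1, hs1.2])
    (fun _ _ _ _ => Iff.rfl) (fun _ _ _ _ => Iff.rfl)
    (fun w hw => hline hw) (fun w hw => hline hw) hv0 hv1' ha hb hp hq hap haq hbp hbq
  exact h

end Slc

end Crest.Agent.R096.Slc_184
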