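import Crest.Agent.R096.Slc7_184

/-!
# Row 96, DOORS, leaf SLC (helper184), part 8: **the term `Cols`** of `Door6_501` for the sliced
tiling.

* `S.col h3 c`  : the `n c` layers over the shell of the outer core `c`;
* `S.cols h3`   : the inner mesh is obtained from the outer mesh by inserting the layers.
-/

set_option autoImplicit false
set_option linter.unusedSectionVars false

open Set Filter Topology Metric
open scoped Classical

namespace Crest.Agent.R096.Slc_184

open Crest.Agent.R096.Msh_715 Crest.Agent.R096.Agl5_543 Crest.Agent.R096.St_147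
  Crest.Agent.R096.Lac_441

variable {E : Type} [NormedAddCommGroup E] [NormedSpace ℝ E] [FiniteDimensional ℝ E]
variable {Om : Set E} {ι : Type}

namespace Slc

variable {T : Tiling Om ι} {κ : Type}

/-- **the layers over the shell of the core `c`** -/
noncomputable def col (S : Slc T κ) (h3 : Module.finrank ℝ E = 3) (c : κ) :
    Door_501.Col (S.mn h3) (Sum.inr c) (S.sh h3 c) (S.n c) where
  cl G j := Sum.inl (tg G j)
  hf G j := hf G j
  vf e j := vf h3 e j
  hp j w := S.hp c j w
  vp j v := S.vc c v.1 j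
  npos := S.npos c
  cl_inj hj hj' h := tg_inj hj hj' (Sum.inl_injective h)
  cl_ne _ h := by cases h
  hf_inj hj hj' h := hf_inj hj hj' h
  vf_inj hj hj' h := vf_inj hj hj' h
  hf_ne_vf := by
    intro G e j j' hj hj' h
    have h1 := hf_onS G hj
    rw [h] at h1
    exact (vf_inL e hj').not_onS h1
  hp_zero w := hp_zero w
  hp_inj hj hj' hw hw' h := hp_inj hj hj' hw hw' h
  vp_inj hj hj' h := vp_inj hj hj' h
  hp_ne_vp := by
    intro w e v j j' hj hj' hw h
    have h1 := hp_onS e hw hj
    rw [h] at h1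
    exact (vc_inL (vx_onS v).bd hj').not_onS h1
  side_top G := side_top G
  side_mid G _ hj := side_mid G hj
  side_bot G _ hj := side_bot G hj
  side_vf e _ hj := side_vf e hj
  faces_cl hj h := faces_cl hj h
  faces_kk h := faces_kk h
  on_hf hj := on_hf hj
  on_vf_hp hj hi hw := on_vf_hp hj hi hw
  on_vf_vp hj hi := on_vf_vp hj hi
  faces_hp h0 hj hw h := faces_hp h0 hj hw h
  faces_vp hj h := faces_vp hj h
  lace_hf hj hu hv hx hy _ _ hux huy hvx hvy := lace_hf hj hu hv hx hy hux huy hvx hvy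
  lace_vf hj ha hb hc hd _ _ hac had hbc hbd := lace_vf hj ha hb hc hd hac had hbc hbd

variable {S : Slc T κ} {h3 : Module.finrank ℝ E = 3} {c : κ} {x y z w : E} {j : ℕ}

theorem nd_old (F : S.FK h3 fun _ => 0) :
    ¬ (((meshC S.T3 h3).side F.1).map (piK S.T3 (S.KK S.n))).IsDiag := by
  refine (nd_iff S.kn_le F.1.pt_mem (S.T3.self_mem_oc _)).2 fun c h => ?_
  have h1 := nd_pt S.k0_le F c h.1
  have h2 := S.t_le (c := c) (Nat.zero_le (S.n c)) le_rfl
  have h4 := h.2
  have h5 : S.t c ((fun _ : κ => 0) c) = S.t c 0 := rfl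
  rw [h5] at h1
  linarith

/-- the outer faces are faces -/
def old (F : S.FK h3 fun _ => 0) : S.FK h3 S.n := ⟨F.1, nd_old F⟩

/-- near a point of the band strictly below the level 0 there are no outer faces -/
theorem not_out {F : S.FK h3 fun _ => 0} (hy : y ∈ S.T3.cc F.1.pt) (hB : y ∈ S.Bd c)
    (h : S.φ y < S.t c 0) : False := by
  obtain ⟨h1, h2⟩ := cc3_low F.1.pt_mem hy hB (Nat.zero_le _) h
  have h4 := nd_pt S.k0_le F c h1
  exact absurd h2 (not_lt.2 h4)

/-- **the inner mesh is obtained from the outer mesh by inserting the layers** -/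
noncomputable def cols (S : Slc T κ) (h3 : Module.finrank ℝ E = 3) :
    Door_501.Cols (S.mn h3) (S.m0 h3) (fun c : κ => Sum.inr c) (fun c : κ => Sum.inr c)
      (S.sh h3) S.n where
  old := old
  old_inj := by
    intro F G h
    have h1 : (old F).1 = (old G).1 := congrArg Subtype.val h
    exact Subtype.ext h1
  on_old _ := rfl
  lace_old _ _ _ _ _ _ _ _ _ _ := Iff.rfl
  cl c := S.col h3 c
  hf_zero := by
    intro c G
    refine (eq_hf (F := old G.1) (G := G) (Nat.zero_le _) (T.self_mem_oc _) (fk_onS G).2.2).symm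
  cases := by
    intro F
    by_cases h : ∀ c, ¬ (F.1.pt ∈ S.U c ∧ S.φ F.1.pt < S.t c ((fun _ : κ => 0) c))
    · exact Or.inl ⟨⟨F.1, (nd_iff S.k0_le F.1.pt_mem (S.T3.self_mem_oc _)).2 h⟩, rfl⟩
    · right
      push Not at h
      obtain ⟨c, h1, h2⟩ := h
      rcases face_cases h1 h2.le with ⟨j, hj⟩ | ⟨j, hj⟩
      · left
        obtain ⟨G, hG⟩ := exists_hf (h3 := h3) hj
        refine ⟨c, G, j, ?_, hj.2.1, hG⟩
        rcases Nat.eq_zero_or_pos j with h4 | h4
        · subst h4
          have h5 := hj.2.2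
          have h6 : S.φ F.1.pt < S.t c 0 := h2
          linarith
        · exact h4
      · right
        obtain ⟨e, -, he⟩ := exists_vf (h3 := h3) hj
        exact ⟨c, e, j, hj.2.1, he⟩
  hf_not_old := by
    intro c G j F0 h0 hj h
    have h1 := hf_onS G hj
    have h2 : (hf G j).1 = F0.1 := congrArg Subtype.val h
    rw [h2] at h1
    exact not_out (F := F0) (S.T3.self_mem_cc _) h1.bd (by rw [h1.2.2]; exact S.t_lt h0 hj)
  vf_not_old := by
    intro c e j F0 hj h
    have h1 := vf_inL (h3 := h3) e hj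
    have h2 : (vf h3 e j).1 = F0.1 := congrArg Subtype.val h
    rw [h2] at h1
    exact not_out (F := F0) (S.T3.self_mem_cc _) h1.bd
      (h1.2.2.2.trans_le (S.t_le (Nat.zero_le j) hj.le))
  hf_core := by
    intro c c' G G' j j' hj hj' h
    have h1 := hf_onS G hj
    have h2 : hf G j = hf G' j' := h
    rw [h2] at h1
    exact h1.core (hf_onS G' hj')
  vf_core := by
    intro c c' e e' j j' hj hj' h
    have h1 := vf_inL (h3 := h3) e hj
    have h2 : vf h3 e j = vf h3 e' j' := h
    rw [h2] at h1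
    exact core_of_U h1.1 (vf_inL (h3 := h3) e' hj').1
  hf_ne_vf := by
    intro c c' G e j j' hj hj' h
    have h1 := hf_onS G hj
    have h2 : hf G j = vf h3 e j' := h
    rw [h2] at h1
    exact (vf_inL e hj').not_onS h1
  hp_new := by
    intro c w e j F0 h0 hj hw h
    rw [mem_onK] at h
    have h1 := hp_onS e hw hj
    have h2 : S.hp c j w ∈ F0.1.set := h.1
    rw [F0.1.set_eq] at h2
    exact not_out h2 h1.bd (by rw [h1.2.2]; exact S.t_lt h0 hj)
  vp_new := by
    intro c v j F0 hj h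
    rw [mem_onK] at h
    have h1 := vc_inL (vx_onS v).bd hj
    have h2 : S.vc c v.1 j ∈ F0.1.set := h.1
    rw [F0.1.set_eq] at h2
    exact not_out h2 h1.bd (h1.2.2.2.trans_le (S.t_le (Nat.zero_le j) hj.le))
  hp_core := by
    intro c c' w w' e e' j j' hj hj' hw hw' h
    have h1 := hp_onS e hw hj
    have h2 := hp_onS e' hw' hj'
    have h4 : S.hp c j w = S.hp c' j' w' := h
    rw [h4] at h1
    exact h1.core h2
  vp_core := by
    intro c c' v v' j j' hj hj' h
    have h1 := vc_inL (vx_onS v).bd hj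
    have h2 := vc_inL (vx_onS v').bd hj'
    have h4 : S.vc c v.1 j = S.vc c' v'.1 j' := h
    rw [h4] at h1
    exact core_of_U h1.1 h2.1
  hp_ne_vp := by
    intro c c' w e v j j' hj hj' hw h
    have h1 := hp_onS e hw hj
    have h4 : S.hp c j w = S.vc c' v.1 j' := h
    rw [h4] at h1
    exact (vc_inL (vx_onS v).bd hj').not_onS h1
  on_vf_core := by
    intro c c' w e e' j hne hw hj h
    rw [mem_onK] at h
    have h1 := ed_opn_onS e hw
    obtain ⟨h2, h4, h5⟩ := (vf_set (h3 := h3) e' hj).1 h.1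
    have h6 := S.cc_mem_U (ed_onS e').bd h2 (h5.trans_lt (S.t_lt_b hj.le))
    exact hne (core_of_U h1.1 h6)
  old_vf := by
    intro c F0 w e j h1 h2 hj
    rw [mem_onK] at h1 h2
    obtain ⟨h4, h5, h6⟩ := (vf_set (h3 := h3) e hj).1 h2.1
    have hB := bd_of_cc (ed_onS e).bd h4 hj h5 h6
    have h7 : w ∈ S.T3.cc F0.1.pt := by rw [← F0.1.set_eq]; exact h1.1
    have h8 : S.φ w = S.t c 0 := by
      refine le_antisymm (h6.trans (S.t_le (Nat.zero_le j) hj.le)) (not_lt.1 fun h9 => ?_)
      exact not_out h7 hB h9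
    have hS : S.OnS c 0 w := ⟨hB.1, Nat.zero_le _, h8⟩
    exact ⟨edx hS h1.2, edx_opn hS h1.2⟩
  cells := by
    rintro (q | c)
    · right
      refine ⟨Sum.inl q, fun F0 h => ?_⟩
      obtain ⟨p, hp, hpq⟩ := mem_sideK.1 h
      obtain ⟨rfl, hn⟩ := piK_inl.1 hpq
      refine mem_sideK.2 ⟨p, hp, piK_inl' fun c' h' => hn c' (h'.trans ?_)⟩
      rintro y ⟨h1, h2⟩
      exact ⟨h1, h2.trans (S.t_le (Nat.zero_le _) le_rfl)⟩
    · exact Or.inl ⟨c, rfl⟩

end Slc

end Crest.Agent.R096.Slc_184
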