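import Crest.Agent.R096.Sla2_184

/-!
# Row 96, DOORS, leaf SLC2 (helper316), part 1: the complexes of the slices of a core

Over 184's `Sla`: the slices `{x | S.OnS c j x}`, `j ≤ n`, are PL cell complexes over ONE poset
`FC S c` (the cells of `T` on the frontier of the core), `cplx_sec`; the section of the cell `q` at
the level `j` is `sec S c j q`.
-/

set_option autoImplicit false
set_option linter.unusedSectionVars false

open Set Filter Topology Metric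
open scoped Classical

namespace Crest.Agent.R096.Slp_316

open Crest.Agent.R096.Msh_715 Crest.Agent.R096.Slc_184 Crest.Agent.R096.Sla_184
  Crest.Agent.R096.Ce_537

variable {E : Type} [NormedAddCommGroup E] [NormedSpace ℝ E] [FiniteDimensional ℝ E]
variable {Om : Set E} {ι : Type} {T : Tiling Om ι} {κ : Type}

/-- the cells of `T` on the frontier of the core `c` -/
def FC (S : Sla T κ) (c : κ) : Type := {q : T.Cell // q.set ⊆ frontier (S.K c)}

instance (S : Sla T κ) (c : κ) : PartialOrder (FC S c) := Subtype.partialOrder _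

variable {S : Sla T κ} {c : κ}

/-- dimension -/
noncomputable def FC.dim (q : FC S c) : ℕ := q.1.dim

/-- closed cell -/
def FC.set (q : FC S c) : Set E := q.1.set

/-- a point of the open cell -/
noncomputable def FC.pt (q : FC S c) : E := q.1.pt

theorem FC.set_eq (q : FC S c) : q.set = T.cc q.pt := q.1.set_eq

theorem FC.pt_set (q : FC S c) : q.pt ∈ q.set := by
  rw [q.set_eq]; exact T.self_mem_cc _

theorem FC.pt_fr (q : FC S c) : q.pt ∈ frontier (S.K c) := q.2 q.pt_set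

theorem FC.pt_Bd (q : FC S c) : q.pt ∈ S.Bd c := Sla.fr_Bd q.pt_fr

theorem FC.pt_mem (q : FC S c) : q.pt ∈ Om := q.1.pt_mem

theorem FC.le_iff {q k : FC S c} : q ≤ k ↔ q.set ⊆ k.set := Iff.rfl

theorem FC.ext {q k : FC S c} (h : q.set = k.set) : q = k := Subtype.ext (Tiling.Cell.ext h)

theorem FC.D_pt (q : FC S c) : S.D c q.pt = q.dim + 1 := Sla.D_fr q.pt_fr

theorem FC.dim_lt {q k : FC S c} (h : q < k) : q.dim < k.dim :=
  T.cplx.mono _ _ (show q.1 < k.1 from h)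

/-- the cell of a point of the frontier -/
noncomputable def mkF {z : E} (hz : z ∈ frontier (S.K c)) : FC S c :=
  ⟨T.cl (S.K_sub c (S.fr_sub c hz)), by rw [T.cl_set]; exact (S.hH c).cc z hz⟩

theorem mkF_set {z : E} (hz : z ∈ frontier (S.K c)) : (mkF hz).set = T.cc z :=
  T.cl_set (S.K_sub c (S.fr_sub c hz))

theorem mkF_pt {z : E} (hz : z ∈ frontier (S.K c)) : (mkF hz).pt ∈ T.oc z :=
  T.pt_cl (S.K_sub c (S.fr_sub c hz))

theorem mkF_O {z : E} (hz : z ∈ frontier (S.K c)) : (mkF hz).pt ∈ S.O c z :=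
  (Sla.O_fr hz (mkF hz).pt_fr).2 (mkF_pt hz)

theorem mkF_C {z : E} (hz : z ∈ frontier (S.K c)) : S.C c (mkF hz).pt = S.C c z :=
  Sla.C_eq (Sla.fr_Bd hz) (mkF_O hz)

theorem finite_FC (S : Sla T κ) (c : κ) : Finite (FC S c) := by
  have hK : IsCompact (frontier (S.K c)) :=
    (S.hH c).cpt.of_isClosed_subset isClosed_frontier (S.fr_sub c)
  have h := T.finite_cells hK ((S.fr_sub c).trans (S.K_sub c))
  have h2 : {q : T.Cell | q.set ⊆ frontier (S.K c)}.Finite := by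
    refine Set.Finite.of_finite_image (f := Subtype.val) (h.subset ?_) Subtype.val_injective.injOn
    rintro _ ⟨q, hq, rfl⟩
    refine ⟨q.2, q.pt, ?_, hq ?_⟩
    · show q.pt ∈ q.set
      rw [q.set_eq]; exact T.self_mem_cc _
    · rw [q.set_eq]; exact T.self_mem_cc _
  exact h2.to_subtype

/-! ### sections -/

/-- the section of a cell at the level `j` -/
def sec (S : Sla T κ) (c : κ) (j : ℕ) (q : FC S c) : Set E :=
  {y | y ∈ S.C c q.pt ∧ S.φ c y = S.t c j}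

/-- the slice -/
def sl (S : Sla T κ) (c : κ) (j : ℕ) : Set E := {x | S.OnS c j x}

variable {j : ℕ}

theorem D_le {x y : E} (hx : x ∈ S.Bd c) (hy : y ∈ S.Bd c) (h : y ∈ S.C c x) :
    S.D c y ≤ S.D c x := T.dim_le (Sla.dn_cc hy (Sla.dn_Bo hx).1 h)

theorem sec_onS (hj : j ≤ S.n c) {q : FC S c} {y : E} (hy : y ∈ sec S c j q) : S.OnS c j y :=
  ⟨Sla.C_K q.pt_Bd hy.1, hj, hy.2⟩

theorem sec_Bd (hj : j ≤ S.n c) {q : FC S c} {y : E} (hy : y ∈ sec S c j q) : y ∈ S.Bd c :=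
  (sec_onS hj hy).bd

theorem C_mono {k q : FC S c} (h : k ≤ q) : S.C c k.pt ⊆ S.C c q.pt := by
  refine Sla.C_sub q.pt_Bd k.pt_Bd ?_
  have h1 : k.pt ∈ T.cc q.pt := by rw [← q.set_eq]; exact h k.pt_set
  rw [← Sla.C_fr q.pt_fr] at h1
  exact h1.1

theorem sec_mono {k q : FC S c} (h : k ≤ q) : sec S c j k ⊆ sec S c j q :=
  fun _ hy => ⟨C_mono h hy.1, hy.2⟩

theorem not_O_of_lower (hj : j ≤ S.n c) {k q : FC S c} (h : k < q) {y : E}
    (hy : y ∈ sec S c j k) : y ∉ S.O c q.pt := by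
  intro hO
  have h1 := D_le k.pt_Bd (sec_Bd hj hy) hy.1
  have h2 := Sla.D_eq q.pt_Bd hO
  rw [k.D_pt] at h1
  rw [q.D_pt] at h2
  have := FC.dim_lt h
  omega

/-- the point of the virtual cell of `y` on the frontier -/
theorem top_fr {y : E} (hy : y ∈ S.Bd c) : S.lv c y (S.t c 0) ∈ frontier (S.K c) := by
  obtain ⟨h1, h2⟩ := Sla.lv_mem hy (S.a_lt_t (Nat.zero_le _)) le_rfl
  exact (S.fr c _ h1.1.1).1 h2

/-- the cell of a point of the band -/
noncomputable def cel (S : Sla T κ) (c : κ) {y : E} (hy : y ∈ S.Bd c) : FC S c :=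
  mkF (top_fr hy)

theorem cel_O {y : E} (hy : y ∈ S.Bd c) : y ∈ S.O c (cel S c hy).pt := by
  obtain ⟨h1, -⟩ := Sla.lv_mem hy (S.a_lt_t (Nat.zero_le _)) le_rfl
  have h2 : y ∈ S.O c (S.lv c y (S.t c 0)) := Sla.O_symm hy h1
  have h3 : S.lv c y (S.t c 0) ∈ S.O c (cel S c hy).pt :=
    Sla.O_symm (Sla.fr_Bd (top_fr hy)) (mkF_O (top_fr hy))
  exact Sla.O_trans (cel S c hy).pt_Bd h3 h2

theorem cel_sec {y : E} (hy : S.OnS c j y) : y ∈ sec S c j (cel S c hy.bd) :=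
  ⟨Sla.O_C (cel S c hy.bd).pt_Bd (cel_O hy.bd), hy.2.2⟩

theorem cel_le (hj : j ≤ S.n c) {q : FC S c} {y : E} (hy : y ∈ sec S c j q) :
    cel S c (sec_Bd hj hy) ≤ q := by
  have hB := sec_Bd hj hy
  obtain ⟨h1, -⟩ := Sla.lv_mem hB (S.a_lt_t (Nat.zero_le _)) le_rfl
  rw [FC.le_iff]
  show (mkF (top_fr hB)).set ⊆ q.set
  rw [mkF_set, q.set_eq]
  refine T.cc_sub_of_mem ?_
  rw [← Sla.C_fr q.pt_fr]
  exact ⟨Sla.C_sub q.pt_Bd hB hy.1 (Sla.O_C hB h1), top_fr hB⟩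

/-- the open cells are disjoint -/
theorem eq_of_O {q k : FC S c} {y : E} (h1 : y ∈ S.O c q.pt) (h2 : y ∈ S.O c k.pt) : q = k := by
  have h3 : k.pt ∈ S.O c q.pt := Sla.O_trans q.pt_Bd h1 (Sla.O_symm k.pt_Bd h2)
  have h4 := (Sla.O_fr q.pt_fr k.pt_fr).1 h3
  apply FC.ext
  rw [q.set_eq, k.set_eq]
  exact (T.cc_eq_of_mem_oc q.pt_mem h4).symm

theorem lower_of_not_O (hj : j ≤ S.n c) {q : FC S c} {y : E} (hy : y ∈ sec S c j q)
    (hO : y ∉ S.O c q.pt) : ∃ k < q, y ∈ sec S c j k := by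
  have hB := sec_Bd hj hy
  refine ⟨cel S c hB, lt_of_le_of_ne (cel_le hj hy) fun h => hO ?_, cel_sec (sec_onS hj hy)⟩
  have := cel_O hB
  rwa [h] at this

/-- an open section is the open cell -/
theorem opn_iff (hj : j ≤ S.n c) {q : FC S c} {y : E} :
    Opn (sec S c j) q y ↔ y ∈ S.O c q.pt ∧ S.φ c y = S.t c j := by
  constructor
  · rintro ⟨h1, h2⟩
    refine ⟨?_, h1.2⟩
    by_contra hO
    obtain ⟨k, hk, hyk⟩ := lower_of_not_O hj h1 hO
    exact h2 k hk hyk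
  · rintro ⟨h1, h2⟩
    exact ⟨⟨Sla.O_C q.pt_Bd h1, h2⟩, fun k hk hy => not_O_of_lower hj hk hy h1⟩

/-- a point of the section -/
noncomputable def spt (S : Sla T κ) (c : κ) (j : ℕ) (q : FC S c) : E := S.lv c q.pt (S.t c j)

theorem spt_O (hj : j ≤ S.n c) (q : FC S c) : spt S c j q ∈ S.O c q.pt ∧
    S.φ c (spt S c j q) = S.t c j :=
  Sla.lv_mem q.pt_Bd (S.a_lt_t hj) (S.t_le (Nat.zero_le _) hj)

theorem spt_onS (hj : j ≤ S.n c) (q : FC S c) : S.OnS c j (spt S c j q) :=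
  ⟨(spt_O hj q).1.1.1, hj, (spt_O hj q).2⟩

theorem sec_eq (hj : j ≤ S.n c) (q : FC S c) : sec S c j q = S.T3.cc (spt S c j q) := by
  ext y
  rw [(spt_onS hj q).cc, Sla.C_eq q.pt_Bd (spt_O hj q).1]
  rfl

theorem dim3_spt (hj : j ≤ S.n c) (q : FC S c) : S.T3.dim (spt S c j q) = q.dim := by
  have h1 := (spt_onS hj q).dim3
  have h2 := Sla.D_eq q.pt_Bd (spt_O hj q).1
  rw [q.D_pt] at h2
  omega

theorem sec_bd (hj : j ≤ S.n c) (q : FC S c) :
    sec S c j q \ S.T3.oc (spt S c j q) = ⋃ k ∈ {k | k < q}, sec S c j k := by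
  ext y
  rw [Set.mem_sdiff, (spt_onS hj q).oc, mem_iUnion₂]
  constructor
  · rintro ⟨h1, h2⟩
    have hO : y ∉ S.O c q.pt := fun h =>
      h2 ⟨Sla.O_trans (spt_onS hj q).bd (Sla.O_symm q.pt_Bd (spt_O hj q).1) h, h1.2⟩
    obtain ⟨k, hk, hy⟩ := lower_of_not_O hj h1 hO
    exact ⟨k, hk, hy⟩
  · rintro ⟨k, hk, hy⟩
    refine ⟨sec_mono (le_of_lt hk) hy, fun h => ?_⟩
    exact not_O_of_lower hj hk hy (Sla.O_trans q.pt_Bd (spt_O hj q).1 h.1)

/-- **the slices are complexes over the same poset** -/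
theorem cplx_sec (hj : j ≤ S.n c) :
    Cplx (sl S c j) (FC S c) (fun q => q.dim) (sec S c j) where
  isBall q := by
    rw [← sec_bd hj q, sec_eq hj q, ← dim3_spt hj q]
    exact S.T3.isBall_cell (spt_onS hj q).mem
  mono q k h := FC.dim_lt h
  disj q k x h1 h2 := eq_of_O ((opn_iff hj).1 h1).1 ((opn_iff hj).1 h2).1
  sub q y hy := sec_onS hj hy
  cover x hx := ⟨cel S c (show S.OnS c j x from hx).bd, cel_sec hx⟩
  lf x _ := by
    have := finite_FC S c
    exact ⟨1, one_pos, Set.toFinite _⟩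

/-- sections and `T3` -/
theorem cc_eq_sec {x : E} (hx : S.OnS c j x) :
    S.T3.cc x = sec S c j (cel S c hx.bd) := by
  ext y
  rw [hx.cc, Sla.C_eq (cel S c hx.bd).pt_Bd (cel_O hx.bd)]
  rfl

theorem dim_cel {x : E} (hx : S.OnS c j x) : (cel S c hx.bd).dim = S.T3.dim x := by
  have h1 := hx.dim3
  have h2 := Sla.D_eq (cel S c hx.bd).pt_Bd (cel_O hx.bd)
  rw [FC.D_pt] at h2
  omega

theorem sec_zero (q : FC S c) : sec S c 0 q = q.set := by
  rw [q.set_eq, ← Sla.C_fr q.pt_fr]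
  ext y
  constructor
  · rintro ⟨h1, h2⟩
    exact ⟨h1, (S.fr c y (Sla.C_K q.pt_Bd h1)).1 h2⟩
  · rintro ⟨h1, h2⟩
    exact ⟨h1, (S.fr c y (S.fr_sub c h2)).2 h2⟩

theorem sl_zero : sl S c 0 = frontier (S.K c) := by
  ext x
  exact ⟨fun h => Sla.OnS.fr h, fun h => Sla.onS_fr h⟩

end Crest.Agent.R096.Slp_316
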