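import Crest.Agent.R096.Slp1_316
import Crest.Agent.R096.Mrg4_715

/-!
# Row 96, DOORS, leaf SLC2 (helper316), part 2: the PL homeomorphisms between the slices

`exists_slide` : for `j, j' ≤ n` a PL homeomorphism of the slice `j` onto the slice `j'` which keeps
every virtual open cell, maps cells of `T3` onto cells of `T3` and is affine on the closed 1-cells.
-/

set_option autoImplicit false
set_option linter.unusedSectionVars false

open Set Filter Topology Metric
open scoped Classical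

namespace Crest.Agent.R096.Slp_316

open Crest.Agent.R096.Msh_715 Crest.Agent.R096.Slc_184 Crest.Agent.R096.Sla_184
  Crest.Agent.R096.Ce_537

section aff

variable {E : Type*} [NormedAddCommGroup E] [NormedSpace ℝ E]

/-- an affine map with two prescribed values -/
theorem exists_aff {l r : E} (h : l ≠ r) (l' r' : E) :
    ∃ A : E →ᵃ[ℝ] E, A l = l' ∧ A r = r' := by
  obtain ⟨f, hf⟩ := SeparatingDual.exists_eq_one (R := ℝ) (sub_ne_zero.2 h.symm)
  refine ⟨⟨fun x => l' + f (x - l) • (r' - l'), (f : E →ₗ[ℝ] ℝ).smulRight (r' - l'), ?_⟩, ?_, ?_⟩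
  · intro p v
    show l' + f (v + p - l) • (r' - l') = f v • (r' - l') + (l' + f (p - l) • (r' - l'))
    rw [add_sub_assoc, map_add, add_smul]
    abel
  · show l' + f (l - l) • (r' - l') = l'
    rw [sub_self, map_zero, zero_smul, add_zero]
  · show l' + f (r - l) • (r' - l') = r'
    rw [hf, one_smul, add_sub_cancel]

/-- two affine maps inverse to each other at the ends of a segment -/
theorem aff_inv {A B : E →ᵃ[ℝ] E} {l r : E} (h1 : B (A l) = l) (h2 : B (A r) = r) {x : E}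
    (hx : x ∈ segment ℝ l r) : B (A x) = x := by
  have h3 : B (A x) = (B.comp A) x := rfl
  rw [segment_eq_image_lineMap] at hx
  obtain ⟨s, _, rfl⟩ := hx
  rw [h3, AffineMap.apply_lineMap]
  show AffineMap.lineMap (B (A l)) (B (A r)) s = _
  rw [h1, h2]

theorem aff_seg (A : E →ᵃ[ℝ] E) {l r x : E} (hx : x ∈ segment ℝ l r) :
    A x ∈ segment ℝ (A l) (A r) := by
  rw [← image_segment]
  exact mem_image_of_mem _ hx

end aff

variable {E : Type} [NormedAddCommGroup E] [NormedSpace ℝ E] [FiniteDimensional ℝ E]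
variable {Om : Set E} {ι : Type} {T : Tiling Om ι} {κ : Type} {S : Sla T κ} {c : κ}
variable {j j' : ℕ}

/-! ### vertices -/

/-- a vertex of the complex has one section point -/
theorem vert_unique {k : FC S c} (hk : k.dim = 0) {x y : E}
    (hx : x ∈ sec S c j k) (hy : y ∈ sec S c j k) : x = y := by
  refine Sla.lv_unique k.pt_Bd ?_ hx.1 hy.1 (hx.2.trans hy.2.symm)
  rw [k.D_pt, hk]

theorem spt_sec (hj : j ≤ S.n c) (q : FC S c) : spt S c j q ∈ sec S c j q :=
  ⟨Sla.O_C q.pt_Bd (spt_O hj q).1, (spt_O hj q).2⟩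

theorem vert_O (hj : j ≤ S.n c) {k : FC S c} (hk : k.dim = 0) {x : E} (hx : x ∈ sec S c j k) :
    x ∈ S.O c k.pt := by
  rw [vert_unique hk hx (spt_sec hj k)]
  exact (spt_O hj k).1

/-- the point of the virtual cell of a section point of a vertex -/
theorem lv_vert (hj : j ≤ S.n c) (hj' : j' ≤ S.n c) {k : FC S c} (hk : k.dim = 0) {x : E}
    (hx : x ∈ sec S c j k) : S.lv c x (S.t c j') = spt S c j' k := by
  have h1 := Sla.lv_mem (sec_Bd hj hx) (S.a_lt_t hj') (S.t_le (Nat.zero_le _) hj')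
  refine vert_unique hk ⟨?_, h1.2⟩ (spt_sec hj' k)
  rw [← Sla.C_eq k.pt_Bd (vert_O hj hk hx)]
  exact Sla.O_C (sec_Bd hj hx) h1.1

/-! ### edges -/

/-- the end vertices of an edge of the complex -/
theorem exists_ends (q : FC S c) (hq : q.dim = 1) : ∃ l r : FC S c, l.dim = 0 ∧ r.dim = 0 ∧
    l < q ∧ r < q ∧ l ≠ r ∧ (∀ k < q, k = l ∨ k = r) ∧ ∀ j ≤ S.n c,
      sec S c j q = segment ℝ (spt S c j l) (spt S c j r) := by
  have hlt : ∀ k : FC S c, k < q → k.dim = 0 := fun k hk => by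
    have := FC.dim_lt hk; omega
  -- the lower cells, from the level `0`
  obtain ⟨a, b, hab, hcc, hoc, ha0, hb0, ha, hb⟩ := T.edge_eq q.pt_mem
    (show T.dim q.pt = 1 from hq)
  have hfr : T.cc q.pt ⊆ frontier (S.K c) := by rw [← q.set_eq]; exact q.2
  have hset : ∀ {v : E} (hv : v ∈ T.cc q.pt), T.dim v = 0 → (mkF (hfr hv)).dim = 0 ∧
      mkF (hfr hv) < q ∧ (mkF (hfr hv)).set = {v} := by
    intro v hv hv0
    have h1 : (mkF (hfr hv)).set = {v} := by
      rw [mkF_set]; exact T.cc_eq_singleton (T.dim_eq_zero_iff.1 hv0)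
    have h2 : (mkF (hfr hv)).dim = 0 := by
      show T.dim (mkF (hfr hv)).pt = 0
      rw [T.dim_eq_of_mem_oc (T.cc_sub_Om q.pt_mem hv) (mkF_pt (hfr hv)), hv0]
    refine ⟨h2, lt_of_le_of_ne ?_ fun h => ?_, h1⟩
    · rw [FC.le_iff, h1, q.set_eq, singleton_subset_iff]; exact hv
    · rw [h] at h2; omega
  obtain ⟨hl0, hlq, hls⟩ := hset ha ha0
  obtain ⟨hr0, hrq, hrs⟩ := hset hb hb0
  set l := mkF (hfr ha) with hl
  set r := mkF (hfr hb) with hr
  have hlr : l ≠ r := fun h => hab (by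
    rw [h, hrs] at hls
    exact (singleton_injective hls).symm)
  have hlow : ∀ k < q, k = l ∨ k = r := by
    intro k hk
    have hk0 := hlt k hk
    have h1 : k.set = {k.pt} := by
      rw [k.set_eq]; exact T.cc_eq_singleton (T.dim_eq_zero_iff.1 hk0)
    have h2 : k.pt ∈ T.cc q.pt := by rw [← q.set_eq]; exact (le_of_lt hk) k.pt_set
    have h3 : k.pt = a ∨ k.pt = b := by
      rw [hcc, ← insert_endpoints_openSegment, ← hoc] at h2
      rcases h2 with h2 | h2 | h2
      · exact Or.inl h2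
      · exact Or.inr h2
      · have := T.dim_eq_of_mem_oc q.pt_mem h2
        have h4 : T.dim q.pt = 1 := hq
        have h5 : T.dim k.pt = 0 := hk0
        omega
    rcases h3 with h3 | h3
    · left; apply FC.ext; rw [h1, hls, h3]
    · right; apply FC.ext; rw [h1, hrs, h3]
  refine ⟨l, r, hl0, hr0, hlq, hrq, hlr, hlow, fun j hj => ?_⟩
  -- the section at the level `j`
  have hd : S.T3.dim (spt S c j q) = 1 := by rw [dim3_spt hj, hq]
  obtain ⟨a', b', hab', hcc', hoc', ha0', hb0', ha', hb'⟩ :=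
    S.T3.edge_eq (spt_onS hj q).mem hd
  rw [← sec_eq hj q] at hcc' ha' hb'
  have hend : ∀ {v : E}, v ∈ sec S c j q → S.T3.dim v = 0 →
      v = spt S c j l ∨ v = spt S c j r := by
    intro v hv hv0
    have hO : v ∉ S.O c q.pt := by
      intro h
      have h1 := Sla.D_eq q.pt_Bd h
      have h2 := (sec_onS hj hv).dim3
      rw [q.D_pt] at h1
      omega
    obtain ⟨k, hk, hvk⟩ := lower_of_not_O hj hv hO
    rcases hlow k hk with rfl | rfl
    · left; exact vert_unique hl0 hvk (spt_sec hj _)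
    · right; exact vert_unique hr0 hvk (spt_sec hj _)
  rcases hend ha' ha0' with h1 | h1 <;> rcases hend hb' hb0' with h2 | h2
  · exact absurd (h1.trans h2.symm) hab'
  · rw [hcc', h1, h2]
  · rw [hcc', h1, h2, segment_symm]
  · exact absurd (h1.trans h2.symm) hab'

theorem spt_ne (hj : j ≤ S.n c) {l r : FC S c} (h : l ≠ r) :
    spt S c j l ≠ spt S c j r := by
  intro e
  refine h (eq_of_O (y := spt S c j l) (spt_O hj l).1 ?_)
  rw [e]; exact (spt_O hj r).1

/-- the affine map of an edge -/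
theorem exists_Am (q : FC S c) (hq : q.dim = 1) (hj : j ≤ S.n c) :
    ∃ A : E →ᵃ[ℝ] E, ∀ k < q, A (spt S c j k) = spt S c j' k := by
  obtain ⟨l, r, -, -, -, -, hlr, hlow, -⟩ := exists_ends q hq
  obtain ⟨A, hA1, hA2⟩ := exists_aff (spt_ne hj hlr) (spt S c j' l) (spt S c j' r)
  refine ⟨A, fun k hk => ?_⟩
  rcases hlow k hk with rfl | rfl
  · exact hA1
  · exact hA2

/-- the affine map of an edge, from the level `j` to the level `j'` -/
noncomputable def Am (S : Sla T κ) (c : κ) (j j' : ℕ) (q : FC S c) : E →ᵃ[ℝ] E :=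
  if h : ∃ A : E →ᵃ[ℝ] E, ∀ k < q, A (spt S c j k) = spt S c j' k then h.choose
  else AffineMap.id ℝ E

theorem Am_spt (hj : j ≤ S.n c) {q k : FC S c} (hq : q.dim = 1) (hk : k < q) :
    Am S c j j' q (spt S c j k) = spt S c j' k := by
  have h := exists_Am (j' := j') q hq hj
  unfold Am
  rw [dif_pos h]
  exact h.choose_spec k hk

theorem Am_maps (hj : j ≤ S.n c) (hj' : j' ≤ S.n c) {q : FC S c} (hq : q.dim = 1) {x : E}
    (hx : x ∈ sec S c j q) : Am S c j j' q x ∈ sec S c j' q := by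
  obtain ⟨l, r, -, -, hl, hr, -, -, hseg⟩ := exists_ends q hq
  rw [hseg j hj] at hx
  rw [hseg j' hj', ← Am_spt (j' := j') hj hq hl, ← Am_spt (j' := j') hj hq hr]
  exact aff_seg _ hx

theorem Am_inv (hj : j ≤ S.n c) (hj' : j' ≤ S.n c) {q : FC S c} (hq : q.dim = 1) {x : E}
    (hx : x ∈ sec S c j q) : Am S c j' j q (Am S c j j' q x) = x := by
  obtain ⟨l, r, -, -, hl, hr, -, -, hseg⟩ := exists_ends q hq
  rw [hseg j hj] at hx
  refine aff_inv ?_ ?_ hx
  · rw [Am_spt hj hq hl, Am_spt hj' hq hl]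
  · rw [Am_spt hj hq hr, Am_spt hj' hq hr]

/-! ### the map on the 1-skeleton -/

/-- the map on the 1-skeleton -/
noncomputable def h1 (S : Sla T κ) (c : κ) (j j' : ℕ) (x : E) : E :=
  if h : ∃ q : FC S c, q.dim = 1 ∧ x ∈ sec S c j q then Am S c j j' h.choose x
  else S.lv c x (S.t c j')

theorem Am_vert (hj : j ≤ S.n c) (hj' : j' ≤ S.n c) {q k : FC S c} (hq : q.dim = 1)
    (hk : k < q) {x : E} (hx : x ∈ sec S c j k) : Am S c j j' q x = S.lv c x (S.t c j') := by
  have hk0 : k.dim = 0 := by have := FC.dim_lt hk; omega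
  rw [lv_vert hj hj' hk0 hx, ← Am_spt (j' := j') hj hq hk, vert_unique hk0 hx (spt_sec hj k)]

theorem h1_edge (hj : j ≤ S.n c) (hj' : j' ≤ S.n c) {q : FC S c} (hq : q.dim = 1) {x : E}
    (hx : x ∈ sec S c j q) : h1 S c j j' x = Am S c j j' q x := by
  have h : ∃ q : FC S c, q.dim = 1 ∧ x ∈ sec S c j q := ⟨q, hq, hx⟩
  unfold h1
  rw [dif_pos h]
  obtain ⟨h2, h3⟩ := h.choose_spec
  by_cases he : h.choose = q
  · rw [he]
  obtain ⟨m, hm1, hm2, hxm⟩ := (cplx_sec hj).mem_inter h3 hx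
  have hne1 : m ≠ h.choose := by
    intro e
    rw [e] at hm2
    have := FC.dim_lt (lt_of_le_of_ne hm2 he)
    omega
  have hne2 : m ≠ q := by
    intro e
    rw [e] at hm1
    have := FC.dim_lt (lt_of_le_of_ne hm1 (Ne.symm he))
    omega
  rw [Am_vert hj hj' h2 (lt_of_le_of_ne hm1 hne1) hxm,
    Am_vert hj hj' hq (lt_of_le_of_ne hm2 hne2) hxm]

theorem h1_vert (hj : j ≤ S.n c) (hj' : j' ≤ S.n c) {k : FC S c} (hk : k.dim = 0) {x : E}
    (hx : x ∈ sec S c j k) : h1 S c j j' x = spt S c j' k := by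
  by_cases h : ∃ q : FC S c, q.dim = 1 ∧ x ∈ sec S c j q
  · obtain ⟨q, hq, hxq⟩ := h
    rw [h1_edge hj hj' hq hxq]
    have hkq : k < q := by
      refine lt_of_le_of_ne ?_ fun e => by rw [e] at hk; omega
      refine (cplx_sec hj).opn_le ?_ hxq
      exact (opn_iff hj).2 ⟨vert_O hj hk hx, hx.2⟩
    rw [Am_vert hj hj' hq hkq hx, lv_vert hj hj' hk hx]
  · unfold h1
    rw [dif_neg h, lv_vert hj hj' hk hx]

theorem h1_maps (hj : j ≤ S.n c) (hj' : j' ≤ S.n c) {q : FC S c} (hq : q.dim ≤ 1) :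
    MapsTo (h1 S c j j') (sec S c j q) (sec S c j' q) := by
  intro x hx
  rcases (show q.dim = 0 ∨ q.dim = 1 by omega) with h | h
  · rw [h1_vert hj hj' h hx]; exact spt_sec hj' q
  · rw [h1_edge hj hj' h hx]; exact Am_maps hj hj' h hx

theorem h1_inv (hj : j ≤ S.n c) (hj' : j' ≤ S.n c) {q : FC S c} (hq : q.dim ≤ 1) {x : E}
    (hx : x ∈ sec S c j q) : h1 S c j' j (h1 S c j j' x) = x := by
  have hm := h1_maps hj hj' hq hx
  rcases (show q.dim = 0 ∨ q.dim = 1 by omega) with h | h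
  · rw [h1_vert hj' hj h hm]
    exact vert_unique h (spt_sec hj q) hx
  · rw [h1_edge hj' hj h hm, h1_edge hj hj' h hx]
    exact Am_inv hj hj' h hx

/-- the map is affine on the vertices and edges -/
theorem h1_aff (hj : j ≤ S.n c) (hj' : j' ≤ S.n c) {q : FC S c} (hq : q.dim ≤ 1) :
    ∃ A : E →ᵃ[ℝ] E, EqOn (h1 S c j j') A (sec S c j q) := by
  rcases (show q.dim = 0 ∨ q.dim = 1 by omega) with h | h
  · refine ⟨AffineMap.const ℝ E (spt S c j' q), fun x hx => ?_⟩
    rw [h1_vert hj hj' h hx]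
    rfl
  · exact ⟨Am S c j j' q, fun x hx => h1_edge hj hj' h hx⟩

theorem h1_pl (hj : j ≤ S.n c) (hj' : j' ≤ S.n c) {q : FC S c} (hq : q.dim ≤ 1) :
    PLOn (h1 S c j j') (sec S c j q) := by
  obtain ⟨A, hA⟩ := h1_aff hj hj' hq
  exact (plOn_affine A _).congr hA

/-! ### the slide -/

/-- **SLC2: the slide from the slice `j` to the slice `j'`** -/
theorem exists_slide (S : Sla T κ) (c : κ) (hj : j ≤ S.n c) (hj' : j' ≤ S.n c) :
    ∃ e : PLEquiv (sl S c j) (sl S c j'),
      (∀ q : FC S c, e.f '' sec S c j q = sec S c j' q) ∧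
      (∀ q : FC S c, e.g '' sec S c j' q = sec S c j q) ∧
      (∀ x ∈ sl S c j, e.f x ∈ S.O c x) ∧
      (∀ q : FC S c, q.dim ≤ 1 → EqOn e.f (h1 S c j j') (sec S c j q)) ∧
      (∀ q : FC S c, q.dim ≤ 1 → EqOn e.g (h1 S c j' j) (sec S c j' q)) := by
  classical
  have C := cplx_sec (S := S) (c := c) hj
  have C' := cplx_sec (S := S) (c := c) hj'
  have hb1 := C.isBall
  have hb2 := C'.isBall
  choose a ha using hb1
  choose b hb using hb2
  set J : Set (FC S c) := {q | q.dim ≤ 1} with hJ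
  have hJd : ∀ i ∈ J, ∀ k < i, k ∈ J := fun i hi k hk => by
    have h2 := FC.dim_lt hk
    have h3 : i.dim ≤ 1 := hi
    show k.dim ≤ 1
    omega
  set H := Hf (fun q : FC S c => q.dim) (sec S c j) (sec S c j') a b J (h1 S c j j') with hH
  set H' := Hf (fun q : FC S c => q.dim) (sec S c j') (sec S c j) b a J (h1 S c j' j) with hH'
  have hG : ∀ i, Good (sec S c j) (sec S c j') H H' i :=
    good_all C C' a b ha hb J hJd _ _ (fun i hi => h1_pl hj hj' hi) (fun i hi => h1_pl hj' hj hi)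
      (fun i hi => h1_maps hj hj' hi) (fun i hi => h1_maps hj' hj hi)
      (fun i hi x hx => h1_inv hj hj' hi hx) (fun i hi x hx => h1_inv hj' hj hi hx)
  set h := glob (sec S c j) H with hh
  set g := glob (sec S c j') H' with hg
  have eh : ∀ i, ∀ x ∈ sec S c j i, h x = H i x := fun i x hx =>
    glob_eq C H hx (fun k hk hxk => (hG i).cf k hk x hxk)
  have eg : ∀ i, ∀ y ∈ sec S c j' i, g y = H' i y := fun i y hy =>
    glob_eq C' H' hy (fun k hk hyk => (hG i).cg k hk y hyk)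
  have mh : ∀ i, MapsTo h (sec S c j i) (sec S c j' i) := fun i x hx => by
    rw [eh i x hx]; exact (hG i).mf hx
  have mg' : ∀ i, MapsTo g (sec S c j' i) (sec S c j i) := fun i y hy => by
    rw [eg i y hy]; exact (hG i).mg hy
  have lh : ∀ i, ∀ x ∈ sec S c j i, g (h x) = x := fun i x hx => by
    rw [eg i _ (mh i hx), eh i x hx]; exact (hG i).li x hx
  have rh : ∀ i, ∀ y ∈ sec S c j' i, h (g y) = y := fun i y hy => by
    rw [eh i _ (mg' i hy), eg i y hy]; exact (hG i).ri y hy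
  have hfin := finite_FC S c
  have hcov : sl S c j ⊆ ⋃ i ∈ (univ : Set (FC S c)), sec S c j i := fun x hx => by
    obtain ⟨i, hi⟩ := C.cover x hx
    exact mem_biUnion (mem_univ i) hi
  have hcov' : sl S c j' ⊆ ⋃ i ∈ (univ : Set (FC S c)), sec S c j' i := fun x hx => by
    obtain ⟨i, hi⟩ := C'.cover x hx
    exact mem_biUnion (mem_univ i) hi
  let e : PLEquiv (sl S c j) (sl S c j') :=
    { f := h
      g := g
      pf := (plOn_biUnion _ (Set.toFinite _) (fun i _ => (hG i).pf.congr (eh i))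
        (fun i _ => C.isClosed i)).mono hcov
      pg := (plOn_biUnion _ (Set.toFinite _) (fun i _ => (hG i).pg.congr (eg i))
        (fun i _ => C'.isClosed i)).mono hcov'
      mf := fun x hx => by
        obtain ⟨i, hi⟩ := C.cover x hx
        exact C'.sub i (mh i hi)
      mg := fun x hx => by
        obtain ⟨i, hi⟩ := C'.cover x hx
        exact C.sub i (mg' i hi)
      li := fun x hx => by
        obtain ⟨i, hi⟩ := C.cover x hx
        exact lh i x hi
      ri := fun x hx => by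
        obtain ⟨i, hi⟩ := C'.cover x hx
        exact rh i x hi }
  refine ⟨e, fun i => ?_, fun i => ?_, fun x hx => ?_, fun i hi x hx => ?_, fun i hi y hy => ?_⟩
  · ext y
    constructor
    · rintro ⟨x, hx, rfl⟩; exact mh i hx
    · intro hy; exact ⟨g y, mg' i hy, rh i y hy⟩
  · ext y
    constructor
    · rintro ⟨x, hx, rfl⟩; exact mg' i hx
    · intro hy; exact ⟨h y, mh i hy, lh i y hy⟩
  · obtain ⟨i0, hi0⟩ := C.cover x hx
    obtain ⟨i, -, hi⟩ := C.exists_opn hi0
    have h2 : Opn (sec S c j') i (h x) := by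
      refine ⟨mh i hi.1, fun k hk hyk => hi.2 k hk ?_⟩
      rw [← lh i x hi.1]
      exact mg' k hyk
    have h3 := ((opn_iff hj).1 hi).1
    have h4 := ((opn_iff hj').1 h2).1
    exact Sla.O_trans h3.1 (Sla.O_symm i.pt_Bd h3) h4
  · show h x = _
    rw [eh i x hx, hH, Hf_eq, if_pos (show i ∈ J from hi)]
  · show g y = _
    rw [eg i y hy, hH', Hf_eq, if_pos (show i ∈ J from hi)]

/-- the slide in terms of the sliced tiling -/
theorem exists_slide3 (S : Sla T κ) (c : κ) (hj : j ≤ S.n c) (hj' : j' ≤ S.n c) :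
    ∃ e : PLEquiv (sl S c j) (sl S c j'),
      (∀ x ∈ sl S c j, e.f x ∈ S.O c x) ∧ (∀ y ∈ sl S c j', e.g y ∈ S.O c y) ∧
      (∀ x ∈ sl S c j, e.f '' S.T3.cc x = S.T3.cc (e.f x)) ∧
      (∀ y ∈ sl S c j', e.g '' S.T3.cc y = S.T3.cc (e.g y)) ∧
      (∀ x ∈ sl S c j, S.T3.dim (e.f x) = S.T3.dim x) ∧
      (∀ x ∈ sl S c j, S.T3.dim x ≤ 1 → ∃ A : E →ᵃ[ℝ] E, EqOn e.f A (S.T3.cc x)) ∧
      (∀ y ∈ sl S c j', S.T3.dim y ≤ 1 → ∃ A : E →ᵃ[ℝ] E, EqOn e.g A (S.T3.cc y)) := by
  obtain ⟨e, e1, e2, e3, e4, e5⟩ := exists_slide S c hj hj'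
  have hcel : ∀ {j j' : ℕ} {x y : E} (hx : S.OnS c j x) (hy : S.OnS c j' y), y ∈ S.O c x →
      cel S c hy.bd = cel S c hx.bd := by
    intro j j' x y hx hy h
    have h1 := cel_O hx.bd
    have h2 := cel_O hy.bd
    exact eq_of_O h2 (Sla.O_trans (cel S c hx.bd).pt_Bd h1 h)
  have e3' : ∀ y ∈ sl S c j', e.g y ∈ S.O c y := by
    intro y hy
    have h1 := e3 (e.g y) (e.mg hy)
    rw [e.ri y hy] at h1
    exact Sla.O_symm (show S.OnS c j (e.g y) from e.mg hy).bd h1
  refine ⟨e, e3, e3', fun x hx => ?_, fun y hy => ?_, fun x hx => ?_, fun x hx hd => ?_,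
    fun y hy hd => ?_⟩
  · have hx' : S.OnS c j x := hx
    have hy' : S.OnS c j' (e.f x) := e.mf hx
    rw [cc_eq_sec hx', cc_eq_sec hy', hcel hx' hy' (e3 x hx)]
    exact e1 _
  · have hx' : S.OnS c j (e.g y) := e.mg hy
    have hy' : S.OnS c j' y := hy
    rw [cc_eq_sec hx', cc_eq_sec hy', hcel hy' hx' (e3' y hy)]
    exact e2 _
  · have hx' : S.OnS c j x := hx
    have hy' : S.OnS c j' (e.f x) := e.mf hx
    rw [← dim_cel hx', ← dim_cel hy', hcel hx' hy' (e3 x hx)]
  · have hx' : S.OnS c j x := hx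
    rw [← dim_cel hx'] at hd
    obtain ⟨A, hA⟩ := h1_aff hj hj' hd
    refine ⟨A, ?_⟩
    rw [cc_eq_sec hx']
    exact (e4 _ hd).trans hA
  · have hy' : S.OnS c j' y := hy
    rw [← dim_cel hy'] at hd
    obtain ⟨A, hA⟩ := h1_aff hj' hj hd
    refine ⟨A, ?_⟩
    rw [cc_eq_sec hy']
    exact (e5 _ hd).trans hA

end Crest.Agent.R096.Slp_316
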