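import Crest.Agent.R096.Sph0_560

/-!
# R096 (row 96), DOORS (D6) / SPH: paths (ABS1 of #9446, helper881)

`Place S G` gives an embedded copy of `G` in the 1-skeleton of `S` (nodes and paths).
-/

set_option autoImplicit false

open Set

namespace Crest.Agent.R096.Spa_881

open Crest.Agent.R096.Sph_560

section Walks

variable {V : Type*} {H : SimpleGraph V}

theorem support_take_sub [DecidableEq V] {u v x : V} (p : H.Walk u v) (h : x ∈ p.support) :
    ∀ y ∈ (p.takeUntil x h).support, y ∈ p.support := by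
  intro y hy
  have := congrArg SimpleGraph.Walk.support (p.take_spec h)
  rw [← this, SimpleGraph.Walk.mem_support_append_iff]
  exact Or.inl hy

theorem support_drop_sub [DecidableEq V] {u v x : V} (p : H.Walk u v) (h : x ∈ p.support) :
    ∀ y ∈ (p.dropUntil x h).support, y ∈ p.support := by
  intro y hy
  have := congrArg SimpleGraph.Walk.support (p.take_spec h)
  rw [← this, SimpleGraph.Walk.mem_support_append_iff]
  exact Or.inr hy

theorem isPath_append {u v w : V} {p : H.Walk u v} {q : H.Walk v w} (hp : p.IsPath)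
    (hq : q.IsPath) (hd : ∀ x ∈ p.support, x ∈ q.support → x = v) : (p.append q).IsPath := by
  rw [SimpleGraph.Walk.isPath_def, SimpleGraph.Walk.support_append, List.nodup_append']
  have h2 := hq.support_nodup
  have hs : q.support = v :: q.support.tail := (SimpleGraph.Walk.cons_tail_support q).symm
  rw [hs, List.nodup_cons] at h2
  refine ⟨hp.support_nodup, h2.2, ?_⟩
  intro x hx hx'
  have h3 : x ∈ q.support := List.mem_of_mem_tail hx'
  have := hd x hx h3
  subst this
  exact h2.1 hx'

/-- a shortest path between two sets inside a set -/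
theorem exists_short {W A B : Set V} (n : ℕ) : ∀ (u v : V) (p : H.Walk u v), p.length ≤ n →
    u ∈ A → v ∈ B → (∀ x ∈ p.support, x ∈ W) →
    ∃ (u' v' : V) (q : H.Walk u' v'), u' ∈ A ∧ v' ∈ B ∧ q.IsPath ∧ (∀ x ∈ q.support, x ∈ W) ∧
      (∀ x ∈ q.support, x ∈ A → x = u') ∧ (∀ x ∈ q.support, x ∈ B → x = v') := by
  classical
  induction n with
  | zero =>
    intro u v p hn hu hv hW
    cases p with
    | nil =>
      refine ⟨u, u, SimpleGraph.Walk.nil, hu, hv, SimpleGraph.Walk.IsPath.nil, hW, ?_, ?_⟩ <;>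
      · intro x hx _
        simpa using hx
    | cons h p => simp at hn
  | succ n ih =>
    intro u v p hn hu hv hW
    by_cases hA : ∀ x ∈ p.support, x ∈ A → x = u
    · by_cases hB : ∀ x ∈ p.support, x ∈ B → x = v
      · exact ⟨u, v, p.bypass, hu, hv, p.bypass_isPath,
          fun x hx => hW x (p.support_bypass_subset_support hx),
          fun x hx => hA x (p.support_bypass_subset_support hx),
          fun x hx => hB x (p.support_bypass_subset_support hx)⟩
      · push Not at hB
        obtain ⟨x, hx, hxB, hxv⟩ := hB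
        have hl := SimpleGraph.Walk.length_takeUntil_lt_length hx hxv
        exact ih u x (p.takeUntil x hx) (by omega) hu hxB
          (fun y hy => hW y (support_take_sub p hx y hy))
    · push Not at hA
      obtain ⟨x, hx, hxA, hxu⟩ := hA
      have hl := SimpleGraph.Walk.length_dropUntil_lt_length hx hxu
      exact ih x v (p.dropUntil x hx) (by omega) hxA hv
        (fun y hy => hW y (support_drop_sub p hx y hy))

/-- three points in a connected set are joined by a triod -/
theorem exists_triod {T : Set V} (hT : ∀ x ∈ T, ∀ y ∈ T, ∃ p : H.Walk x y, ∀ z ∈ p.support, z ∈ T)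
    {y₁ y₂ y₃ : V} (h₁ : y₁ ∈ T) (h₂ : y₂ ∈ T) (h₃ : y₃ ∈ T) :
    ∃ (m : V) (p₁ : H.Walk m y₁) (p₂ : H.Walk m y₂) (p₃ : H.Walk m y₃), m ∈ T ∧
      (p₁.IsPath ∧ ∀ z ∈ p₁.support, z ∈ T) ∧ (p₂.IsPath ∧ ∀ z ∈ p₂.support, z ∈ T) ∧
      (p₃.IsPath ∧ ∀ z ∈ p₃.support, z ∈ T) ∧
      (∀ z ∈ p₁.support, z ∈ p₂.support → z = m) ∧ (∀ z ∈ p₁.support, z ∈ p₃.support → z = m) ∧
      (∀ z ∈ p₂.support, z ∈ p₃.support → z = m) := by
  classical
  obtain ⟨q₀, hq₀⟩ := hT y₁ h₁ y₂ h₂
  set q := q₀.bypass with hq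
  have hqp : q.IsPath := q₀.bypass_isPath
  have hqT : ∀ z ∈ q.support, z ∈ T := fun z hz => hq₀ z (q₀.support_bypass_subset_support hz)
  obtain ⟨r₀, hr₀⟩ := hT y₃ h₃ y₁ h₁
  obtain ⟨u, m, r, hu, hm, hrp, hrT, hrA, hrB⟩ := exists_short (W := T) (A := {y₃})
    (B := {z | z ∈ q.support}) r₀.length y₃ y₁ r₀ le_rfl rfl q.start_mem_support hr₀
  obtain rfl : u = y₃ := hu
  have hm' : m ∈ q.support := hm
  refine ⟨m, (q.takeUntil m hm').reverse, q.dropUntil m hm', r.reverse, hqT m hm',
    ⟨(hqp.takeUntil hm').reverse, fun z hz => ?_⟩, ⟨hqp.dropUntil hm', fun z hz => ?_⟩,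
    ⟨hrp.reverse, fun z hz => ?_⟩, ?_, ?_, ?_⟩
  · rw [SimpleGraph.Walk.support_reverse, List.mem_reverse] at hz
    exact hqT z (support_take_sub q hm' z hz)
  · exact hqT z (support_drop_sub q hm' z hz)
  · rw [SimpleGraph.Walk.support_reverse, List.mem_reverse] at hz
    exact hrT z hz
  · intro z hz hz'
    rw [SimpleGraph.Walk.support_reverse, List.mem_reverse] at hz
    by_contra hzm
    have h1 : (((q.takeUntil m hm').append (q.dropUntil m hm')).support).Nodup := by
      rw [q.take_spec hm']; exact hqp.support_nodup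
    rw [SimpleGraph.Walk.support_append, List.nodup_append'] at h1
    refine h1.2.2 hz ?_
    have hs : (q.dropUntil m hm').support = m :: (q.dropUntil m hm').support.tail :=
      (SimpleGraph.Walk.cons_tail_support _).symm
    rw [hs, List.mem_cons] at hz'
    exact hz'.resolve_left hzm
  · intro z hz hz'
    rw [SimpleGraph.Walk.support_reverse, List.mem_reverse] at hz hz'
    exact hrB z hz' (support_take_sub q hm' z hz)
  · intro z hz hz'
    rw [SimpleGraph.Walk.support_reverse, List.mem_reverse] at hz'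
    exact hrB z hz' (support_drop_sub q hm' z hz)

end Walks

section Edges

variable {V E T : Type*} [Fintype E] (S : Surf V E T)

/-- the graph of the 1-skeleton -/
def skel : SimpleGraph V where
  Adj u v := u ≠ v ∧ ∃ e, S.ends e = s(u, v)
  symm := ⟨fun u v h => ⟨h.1.symm, by
    obtain ⟨e, he⟩ := h.2
    exact ⟨e, by rw [he, Sym2.eq_swap]⟩⟩⟩
  loopless := ⟨fun u h => h.1 rfl⟩

variable {S}

theorem walk_of_connIn {A B : Set V} (h : S.ConnIn A B) (hAB : A ⊆ B) {u v : V} (hu : u ∈ A)
    (hv : v ∈ A) : ∃ p : (skel S).Walk u v, ∀ x ∈ p.support, x ∈ B := by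
  have := h {x | ∃ p : (skel S).Walk u x, ∀ y ∈ p.support, y ∈ B} ?_ u hu
    ⟨SimpleGraph.Walk.nil, by
      intro y hy
      rw [SimpleGraph.Walk.support_nil, List.mem_singleton] at hy
      rw [hy]; exact hAB hu⟩ v hv
  · exact this
  · rintro e x y he hx hy ⟨p, hp⟩
    have hadj : (skel S).Adj x y := ⟨by
      rintro rfl
      exact S.nd e (by rw [he]; exact Sym2.mk_isDiag_iff.2 rfl), e, he⟩
    refine ⟨p.concat hadj, ?_⟩
    intro z hz
    rw [SimpleGraph.Walk.support_concat, List.mem_append,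
      List.mem_singleton] at hz
    rcases hz with hz | rfl
    · exact hp z hz
    · exact hy

open Classical in
/-- the edges of a path -/
theorem edges_of_path {u v : V} (p : (skel S).Walk u v) (hp : p.IsPath) :
    ∃ P : Finset E, (∀ e ∈ P, ∀ x ∈ S.ends e, x ∈ p.support) ∧
      (∀ x ∈ p.support, {e | e ∈ P ∧ x ∈ S.ends e}.ncard =
        (if x = u then 0 else 1) + (if x = v then 0 else 1)) ∧
      (∀ Q : Finset E, Q ⊆ P →
        (∀ e ∈ Q, ∀ x ∈ S.ends e, ∀ e' ∈ P, x ∈ S.ends e' → e' ∈ Q) → Q = ∅ ∨ Q = P) := by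
  induction p with
  | nil =>
    refine ⟨∅, by simp, ?_, ?_⟩
    · intro x hx
      simp only [SimpleGraph.Walk.support_nil, List.mem_singleton] at hx
      simp [hx]
    · intro Q hQ _
      exact Or.inl (Finset.subset_empty.1 hQ)
  | @cons u w v h p ih =>
    rw [SimpleGraph.Walk.cons_isPath_iff] at hp
    obtain ⟨P, h1, h2, h3⟩ := ih hp.1
    have hadj : u ≠ w ∧ ∃ e, S.ends e = s(u, w) := h
    obtain ⟨huw, e, he⟩ := hadj
    have hup := hp.2
    have huv : u ≠ v := by
      rintro rfl
      exact hup p.end_mem_support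
    have heP : e ∉ P := fun h' => hup (h1 e h' u (by rw [he]; exact Sym2.mem_mk_left _ _))
    have hfin : ∀ x, {e | e ∈ P ∧ x ∈ S.ends e}.Finite := fun x =>
      (P.finite_toSet).subset fun _ h => h.1
    have hin : ∀ x, (x = u ∨ x = w) → {e' | e' ∈ insert e P ∧ x ∈ S.ends e'} =
        insert e {e' | e' ∈ P ∧ x ∈ S.ends e'} := by
      intro x hx
      ext y
      simp only [Finset.mem_insert, Set.mem_ofPred_eq, Set.mem_insert_iff]
      constructor
      · rintro ⟨hy | hy, hy'⟩
        · exact Or.inl hy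
        · exact Or.inr ⟨hy, hy'⟩
      · rintro (hy | ⟨hy, hy'⟩)
        · refine ⟨Or.inl hy, ?_⟩
          rw [hy, he]
          rcases hx with rfl | rfl
          · exact Sym2.mem_mk_left _ _
          · exact Sym2.mem_mk_right _ _
        · exact ⟨Or.inr hy, hy'⟩
    have hout : ∀ x, x ≠ u → x ≠ w → {e' | e' ∈ insert e P ∧ x ∈ S.ends e'} =
        {e' | e' ∈ P ∧ x ∈ S.ends e'} := by
      intro x hxu hxw
      ext y
      simp only [Finset.mem_insert, Set.mem_ofPred_eq]
      constructor
      · rintro ⟨hy | hy, hy'⟩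
        · exfalso
          rw [hy, he, Sym2.mem_iff] at hy'
          rcases hy' with h' | h'
          · exact hxu h'
          · exact hxw h'
        · exact ⟨hy, hy'⟩
      · rintro ⟨hy, hy'⟩
        exact ⟨Or.inr hy, hy'⟩
    have hcard : ∀ x, (x = u ∨ x = w) → {e' | e' ∈ insert e P ∧ x ∈ S.ends e'}.ncard =
        {e' | e' ∈ P ∧ x ∈ S.ends e'}.ncard + 1 := by
      intro x hx
      rw [hin x hx, Set.ncard_insert_of_notMem (fun h => heP h.1) (hfin x)]
    refine ⟨insert e P, ?_, ?_, ?_⟩
    · intro e' he' x hx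
      rw [SimpleGraph.Walk.support_cons, List.mem_cons]
      rcases Finset.mem_insert.1 he' with rfl | he'
      · rw [he, Sym2.mem_iff] at hx
        rcases hx with rfl | rfl
        · exact Or.inl rfl
        · exact Or.inr p.start_mem_support
      · exact Or.inr (h1 e' he' x hx)
    · intro x hx
      rw [SimpleGraph.Walk.support_cons, List.mem_cons] at hx
      by_cases hxu : x = u
      · rw [hcard x (Or.inl hxu)]
        have h0 : {e' | e' ∈ P ∧ x ∈ S.ends e'} = ∅ := by
          rw [eq_empty_iff_forall_notMem]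
          rintro y ⟨hy, hy'⟩
          rw [hxu] at hy'
          exact hup (h1 y hy u hy')
        rw [h0, Set.ncard_empty, hxu]
        simp [huv]
      · have hxp : x ∈ p.support := hx.resolve_left hxu
        by_cases hxw : x = w
        · rw [hcard x (Or.inr hxw), h2 x hxp]
          simp [hxw, huw.symm, add_comm]
        · rw [hout x hxu hxw, h2 x hxp]
          simp [hxw, hxu]
    · intro Q hQ hcl
      have hsub : Q.erase e ⊆ P := by
        intro y hy
        rw [Finset.mem_erase] at hy
        exact (Finset.mem_insert.1 (hQ hy.2)).resolve_left hy.1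
      have hcl' : ∀ e' ∈ Q.erase e, ∀ x ∈ S.ends e', ∀ e'' ∈ P, x ∈ S.ends e'' →
          e'' ∈ Q.erase e := by
        intro e' he' x hx e'' he'' hx'
        rw [Finset.mem_erase] at he' ⊢
        refine ⟨?_, hcl e' he'.2 x hx e'' (Finset.mem_insert_of_mem he'') hx'⟩
        rintro rfl
        exact heP he''
      by_cases hPe : P = ∅
      · subst hPe
        by_cases heQ : e ∈ Q
        · right
          refine Finset.Subset.antisymm hQ ?_
          intro y hy
          rcases Finset.mem_insert.1 hy with rfl | hy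
          · exact heQ
          · exact absurd hy (Finset.notMem_empty y)
        · left
          rw [Finset.eq_empty_iff_forall_notMem]
          intro y hy
          rcases Finset.mem_insert.1 (hQ hy) with rfl | hy'
          · exact heQ hy
          · exact absurd hy' (Finset.notMem_empty y)
      · -- `w ≠ v`, so there is an edge of `P` at `w`
        have hwv : w ≠ v := by
          intro hwv
          subst hwv
          have hnil : p.support = [w] := by
            have h5 := SimpleGraph.Walk.isPath_iff_nil.1 hp.1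
            cases p with
            | nil => rfl
            | cons h q => simp at h5
          obtain ⟨y, hy⟩ := Finset.nonempty_iff_ne_empty.2 hPe
          have hdeg := h2 w p.start_mem_support
          simp only [if_true] at hdeg
          rw [Nat.add_zero, Set.ncard_eq_zero (hfin w), eq_empty_iff_forall_notMem] at hdeg
          obtain ⟨a, b, hab⟩ : ∃ a b, S.ends y = s(a, b) := by
            induction h : S.ends y using Sym2.ind with
            | _ a b => exact ⟨a, b, rfl⟩
          have ha := h1 y hy a (by rw [hab]; exact Sym2.mem_mk_left _ _)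
          rw [hnil, List.mem_singleton] at ha
          exact hdeg y ⟨hy, by rw [hab, ha]; exact Sym2.mem_mk_left _ _⟩
        have hdeg := h2 w p.start_mem_support
        rw [if_pos rfl, if_neg hwv, Nat.zero_add] at hdeg
        obtain ⟨e', he'⟩ := Set.ncard_eq_one.1 hdeg
        have he'2 : e' ∈ P ∧ w ∈ S.ends e' := by
          have : e' ∈ {e | e ∈ P ∧ w ∈ S.ends e} := by rw [he']; rfl
          exact this
        have hwe : w ∈ S.ends e := by rw [he]; exact Sym2.mem_mk_right _ _
        rcases h3 (Q.erase e) hsub hcl' with h0 | h0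
        · left
          rw [Finset.eq_empty_iff_forall_notMem]
          intro y hy
          by_cases hye : y = e
          · subst hye
            have : e' ∈ Q := hcl y hy w hwe e' (Finset.mem_insert_of_mem he'2.1) he'2.2
            have h4 : e' ∈ Q.erase y := by
              rw [Finset.mem_erase]
              exact ⟨fun h => heP (h ▸ he'2.1), this⟩
            rw [h0] at h4
            exact absurd h4 (Finset.notMem_empty _)
          · have h4 : y ∈ Q.erase e := Finset.mem_erase.2 ⟨hye, hy⟩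
            rw [h0] at h4
            exact absurd h4 (Finset.notMem_empty _)
        · right
          refine Finset.Subset.antisymm hQ ?_
          have hPQ : P ⊆ Q := by
            intro y hy
            rw [← h0] at hy
            exact (Finset.mem_erase.1 hy).2
          intro y hy
          rcases Finset.mem_insert.1 hy with rfl | hy
          · exact hcl e' (hPQ he'2.1) w he'2.2 y (Finset.mem_insert_self _ _) hwe
          · exact hPQ hy

end Edges

section Main

variable {V E T N R X : Type*} [Fintype E] {S : Surf V E T} {G : Cub N R X}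

/-- the component of `Z' a` that contains `Z a` -/
def comp (P : Place S G) (a : N) : Set V :=
  {x | ∃ u ∈ P.Z a, ∃ p : (skel S).Walk u x, ∀ y ∈ p.support, y ∈ P.Z' a}

theorem comp_sub (P : Place S G) (a : N) : comp P a ⊆ P.Z' a := by
  rintro x ⟨u, -, p, hp⟩
  exact hp x p.end_mem_support

theorem sub_comp (P : Place S G) (a : N) : P.Z a ⊆ comp P a := by
  intro x hx
  refine ⟨x, hx, SimpleGraph.Walk.nil, ?_⟩
  intro y hy
  rw [SimpleGraph.Walk.support_nil, List.mem_singleton] at hy
  rw [hy]; exact P.sub a hx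

theorem comp_conn (P : Place S G) (a : N) : ∀ x ∈ comp P a, ∀ y ∈ comp P a,
    ∃ p : (skel S).Walk x y, ∀ z ∈ p.support, z ∈ comp P a := by
  classical
  have key : ∀ (u x : V) (p : (skel S).Walk u x), u ∈ P.Z a → (∀ y ∈ p.support, y ∈ P.Z' a) →
      ∀ z ∈ p.support, z ∈ comp P a := by
    intro u x p hu hp z hz
    exact ⟨u, hu, p.takeUntil z hz, fun y hy => hp y (support_take_sub p hz y hy)⟩
  rintro x ⟨u, hu, p, hp⟩ y ⟨v, hv, q, hq⟩
  obtain ⟨r, hr⟩ := walk_of_connIn (P.zc a) (P.sub a) hu hv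
  refine ⟨(p.reverse.append r).append q, ?_⟩
  intro z hz
  rw [SimpleGraph.Walk.mem_support_append_iff, SimpleGraph.Walk.mem_support_append_iff,
    SimpleGraph.Walk.support_reverse, List.mem_reverse] at hz
  rcases hz with (hz | hz) | hz
  · exact key u x p hu hp z hz
  · exact key u v r hu hr z hz
  · exact key v y q hv hq z hz

theorem comp_disj (P : Place S G) {a b : N} {x : V} (ha : x ∈ comp P a) (hb : x ∈ comp P b) :
    a = b := by
  by_contra h
  exact Set.disjoint_left.1 (P.zd a b h) (comp_sub P a ha) (comp_sub P b hb)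

/-- the middle part of the path of an edge -/
theorem exists_mid (P : Place S G) (r : R) : ∃ (a b : N) (ya yb : V) (p : (skel S).Walk ya yb),
    G.ends r = s(a, b) ∧ a ≠ b ∧ ya ∈ comp P a ∧ yb ∈ comp P b ∧ p.IsPath ∧
    (∀ x ∈ p.support, x ∈ P.Y r) ∧ (∀ x ∈ p.support, x ∈ comp P a → x = ya) ∧
    (∀ x ∈ p.support, x ∈ comp P b → x = yb) := by
  obtain ⟨a, b, hab⟩ : ∃ a b, G.ends r = s(a, b) := by
    induction h : G.ends r using Sym2.ind with
    | _ a b => exact ⟨a, b, rfl⟩
  have hne : a ≠ b := by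
    rintro rfl
    exact G.nd r (by rw [hab]; exact Sym2.mk_isDiag_iff.2 rfl)
  obtain ⟨u, huY, huZ⟩ := P.meet r a (by rw [hab]; exact Sym2.mem_mk_left _ _)
  obtain ⟨v, hvY, hvZ⟩ := P.meet r b (by rw [hab]; exact Sym2.mem_mk_right _ _)
  obtain ⟨p₀, hp₀⟩ := walk_of_connIn (P.yc r) Subset.rfl huY hvY
  obtain ⟨ya, yb, p, h1, h2, h3, h4, h5, h6⟩ := exists_short (W := P.Y r) (A := comp P a)
    (B := comp P b) p₀.length u v p₀ le_rfl (sub_comp P a huZ) (sub_comp P b hvZ) hp₀
  exact ⟨a, b, ya, yb, p, hab, hne, h1, h2, h3, h4, h5, h6⟩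

/-- the legs at a node -/
theorem exists_legs (P : Place S G) (y : R → N → V) (c : N)
    (hy : ∀ r, c ∈ G.ends r → y r c ∈ comp P c) :
    ∃ (m : V) (L : R → Set V), m ∈ comp P c ∧
      (∀ r, c ∈ G.ends r → ∃ p : (skel S).Walk m (y r c), p.IsPath ∧ (∀ x ∈ p.support, x ∈ L r) ∧
        ∀ x ∈ p.support, x ∈ comp P c) ∧
      (∀ r r', r ≠ r' → c ∈ G.ends r → c ∈ G.ends r' → ∀ x ∈ L r, x ∈ L r' → x = m) := by
  classical
  obtain ⟨r₁, r₂, r₃, h12, h13, h23, hr⟩ := Set.ncard_eq_three.1 (G.three c)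
  have hm : ∀ r, c ∈ G.ends r ↔ r = r₁ ∨ r = r₂ ∨ r = r₃ := by
    intro r
    have : r ∈ {r | c ∈ G.ends r} ↔ r ∈ ({r₁, r₂, r₃} : Set R) := by rw [hr]
    simpa using this
  obtain ⟨m, p₁, p₂, p₃, hmc, q1, q2, q3, d12, d13, d23⟩ := exists_triod (comp_conn P c)
    (hy r₁ ((hm r₁).2 (Or.inl rfl))) (hy r₂ ((hm r₂).2 (Or.inr (Or.inl rfl))))
    (hy r₃ ((hm r₃).2 (Or.inr (Or.inr rfl))))
  let L : R → Set V := fun r => if r = r₁ then {x | x ∈ p₁.support} else
    if r = r₂ then {x | x ∈ p₂.support} else {x | x ∈ p₃.support}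
  have L1 : L r₁ = {x | x ∈ p₁.support} := if_pos rfl
  have L2 : L r₂ = {x | x ∈ p₂.support} := by
    show (if r₂ = r₁ then _ else _) = _
    rw [if_neg h12.symm, if_pos rfl]
  have L3 : L r₃ = {x | x ∈ p₃.support} := by
    show (if r₃ = r₁ then _ else _) = _
    rw [if_neg h13.symm, if_neg h23.symm]
  refine ⟨m, L, hmc, ?_, ?_⟩
  · intro r hrc
    rcases (hm r).1 hrc with rfl | rfl | rfl
    · exact ⟨p₁, q1.1, fun x hx => by rw [L1]; exact hx, q1.2⟩
    · exact ⟨p₂, q2.1, fun x hx => by rw [L2]; exact hx, q2.2⟩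
    · exact ⟨p₃, q3.1, fun x hx => by rw [L3]; exact hx, q3.2⟩
  · intro r r' hne hrc hrc' x hx hx'
    rcases (hm r).1 hrc with rfl | rfl | rfl <;> rcases (hm r').1 hrc' with rfl | rfl | rfl
    · exact absurd rfl hne
    · rw [L1] at hx; rw [L2] at hx'; exact d12 x hx hx'
    · rw [L1] at hx; rw [L3] at hx'; exact d13 x hx hx'
    · rw [L2] at hx; rw [L1] at hx'; exact d12 x hx' hx
    · exact absurd rfl hne
    · rw [L2] at hx; rw [L3] at hx'; exact d23 x hx hx'
    · rw [L3] at hx; rw [L1] at hx'; exact d13 x hx' hx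
    · rw [L3] at hx; rw [L2] at hx'; exact d23 x hx' hx
    · exact absurd rfl hne

/-- the nodes and the vertex sets of the paths -/
theorem exists_walks (P : Place S G) : ∃ pt : N → V, (∀ c, pt c ∈ comp P c) ∧
    ∃ W : R → Set V,
      (∀ r, ∃ (a b : N) (p : (skel S).Walk (pt a) (pt b)), G.ends r = s(a, b) ∧ a ≠ b ∧
        p.IsPath ∧ ∀ x, x ∈ p.support ↔ x ∈ W r) ∧
      (∀ r, ∀ x ∈ W r, x ∈ P.Y r ∨ ∃ a ∈ G.ends r, x ∈ P.Z' a) ∧
      (∀ r r', r ≠ r' → ∀ x ∈ W r, x ∈ W r' → ∃ a, a ∈ G.ends r ∧ a ∈ G.ends r' ∧ x = pt a) := by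
  classical
  choose fa fb ya yb mid hab hne hya hyb hmp hmY hma hmb using exists_mid P
  let y : R → N → V := fun r c => if c = fa r then ya r else yb r
  have hyA : ∀ r, y r (fa r) = ya r := fun r => if_pos rfl
  have hyB : ∀ r, y r (fb r) = yb r := fun r => if_neg (hne r).symm
  have hmem : ∀ r c, c ∈ G.ends r ↔ c = fa r ∨ c = fb r := by
    intro r c; rw [hab r, Sym2.mem_iff]
  have hy : ∀ r c, c ∈ G.ends r → y r c ∈ comp P c := by
    intro r c hc
    rcases (hmem r c).1 hc with rfl | rfl
    · rw [hyA]; exact hya r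
    · rw [hyB]; exact hyb r
  have hmid : ∀ r c x, x ∈ (mid r).support → x ∈ comp P c → c ∈ G.ends r ∧ x = y r c := by
    intro r c x hx hxc
    have hc : c ∈ G.ends r := by
      by_contra hc
      exact Set.disjoint_left.1 (P.yz r c hc) (hmY r x hx) (comp_sub P c hxc)
    refine ⟨hc, ?_⟩
    rcases (hmem r c).1 hc with rfl | rfl
    · rw [hyA]; exact hma r x hx hxc
    · rw [hyB]; exact hmb r x hx hxc
  choose pt L hpt hleg hL using fun c => exists_legs P y c (fun r => hy r c)
  choose leg hlp hlL hlT using hleg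
  have hAm : ∀ r, fa r ∈ G.ends r := fun r => (hmem r _).2 (Or.inl rfl)
  have hBm : ∀ r, fb r ∈ G.ends r := fun r => (hmem r _).2 (Or.inr rfl)
  -- the path of `r`
  have hpath : ∀ r, ∃ p : (skel S).Walk (pt (fa r)) (pt (fb r)), p.IsPath ∧
      ∀ x, x ∈ p.support ↔ (x ∈ (mid r).support ∨
        ∃ c, ∃ h : c ∈ G.ends r, x ∈ (leg c r h).support) := by
    intro r
    let q₁ : (skel S).Walk (pt (fa r)) (ya r) := (leg (fa r) r (hAm r)).copy rfl (hyA r)
    let q₂ : (skel S).Walk (pt (fb r)) (yb r) := (leg (fb r) r (hBm r)).copy rfl (hyB r)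
    have s1 : ∀ x, x ∈ q₁.support ↔ x ∈ (leg (fa r) r (hAm r)).support := fun x => by
      show x ∈ ((leg (fa r) r (hAm r)).copy rfl (hyA r)).support ↔ _
      rw [SimpleGraph.Walk.support_copy]
    have s2 : ∀ x, x ∈ q₂.support ↔ x ∈ (leg (fb r) r (hBm r)).support := fun x => by
      show x ∈ ((leg (fb r) r (hBm r)).copy rfl (hyB r)).support ↔ _
      rw [SimpleGraph.Walk.support_copy]
    have p1 : q₁.IsPath := by
      show ((leg (fa r) r (hAm r)).copy rfl (hyA r)).IsPath
      rw [SimpleGraph.Walk.isPath_copy]; exact hlp _ _ _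
    have p2 : q₂.IsPath := by
      show ((leg (fb r) r (hBm r)).copy rfl (hyB r)).IsPath
      rw [SimpleGraph.Walk.isPath_copy]; exact hlp _ _ _
    have t1 : ∀ x ∈ q₁.support, x ∈ comp P (fa r) := fun x hx => hlT _ _ _ x ((s1 x).1 hx)
    have t2 : ∀ x ∈ q₂.support, x ∈ comp P (fb r) := fun x hx => hlT _ _ _ x ((s2 x).1 hx)
    refine ⟨(q₁.append (mid r)).append q₂.reverse, ?_, ?_⟩
    · refine isPath_append (isPath_append p1 (hmp r) ?_) p2.reverse ?_
      · intro x hx hx'
        exact hma r x hx' (t1 x hx)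
      · intro x hx hx'
        rw [SimpleGraph.Walk.support_reverse, List.mem_reverse] at hx'
        rw [SimpleGraph.Walk.mem_support_append_iff] at hx
        rcases hx with hx | hx
        · exact absurd (comp_disj P (t1 x hx) (t2 x hx')) (hne r)
        · exact hmb r x hx (t2 x hx')
    · intro x
      rw [SimpleGraph.Walk.mem_support_append_iff, SimpleGraph.Walk.mem_support_append_iff,
        SimpleGraph.Walk.support_reverse, List.mem_reverse, s1, s2]
      constructor
      · rintro ((h | h) | h)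
        · exact Or.inr ⟨_, _, h⟩
        · exact Or.inl h
        · exact Or.inr ⟨_, _, h⟩
      · rintro (h | ⟨c, hc, h⟩)
        · exact Or.inl (Or.inr h)
        · rcases (hmem r c).1 hc with rfl | rfl
          · exact Or.inl (Or.inl h)
          · exact Or.inr h
  choose pa hpa hpas using hpath
  refine ⟨pt, hpt, fun r => {x | x ∈ (pa r).support}, ?_, ?_, ?_⟩
  · intro r
    exact ⟨fa r, fb r, pa r, hab r, hne r, hpa r, fun x => Iff.rfl⟩
  · intro r x hx
    rcases (hpas r x).1 hx with h | ⟨c, hc, h⟩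
    · exact Or.inl (hmY r x h)
    · exact Or.inr ⟨c, hc, comp_sub P c (hlT c r hc x h)⟩
  · intro r r' hrr x hx hx'
    rcases (hpas r x).1 hx with h | ⟨c, hc, h⟩ <;> rcases (hpas r' x).1 hx' with h' | ⟨c', hc', h'⟩
    · -- both in the middle parts
      obtain ⟨a, ha, ha', hxa⟩ := P.yy r r' hrr x (hmY r x h) (hmY r' x h')
      have hxc := sub_comp P a hxa
      obtain ⟨-, e1⟩ := hmid r a x h hxc
      obtain ⟨-, e2⟩ := hmid r' a x h' hxc
      refine ⟨a, ha, ha', hL a r r' hrr ha ha' x ?_ ?_⟩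
      · refine hlL a r ha x ?_
        rw [e1]; exact SimpleGraph.Walk.end_mem_support _
      · refine hlL a r' ha' x ?_
        rw [e2]; exact SimpleGraph.Walk.end_mem_support _
    · have hxc := hlT c' r' hc' x h'
      obtain ⟨ha, e1⟩ := hmid r c' x h hxc
      refine ⟨c', ha, hc', hL c' r r' hrr ha hc' x ?_ (hlL c' r' hc' x h')⟩
      refine hlL c' r ha x ?_
      rw [e1]; exact SimpleGraph.Walk.end_mem_support _
    · have hxc := hlT c r hc x h
      obtain ⟨ha, e1⟩ := hmid r' c x h' hxc
      refine ⟨c, hc, ha, hL c r r' hrr hc ha x (hlL c r hc x h) ?_⟩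
      refine hlL c r' ha x ?_
      rw [e1]; exact SimpleGraph.Walk.end_mem_support _
    · have hxc := hlT c r hc x h
      have hxc' := hlT c' r' hc' x h'
      obtain rfl := comp_disj P hxc hxc'
      exact ⟨c, hc, hc', hL c r r' hrr hc hc' x (hlL c r hc x h) (hlL c r' hc' x h')⟩

/-- **ABS1**: a placing gives an embedded copy of the graph -/
theorem exists_pemb (P : Place S G) [Finite V] :
    ∃ M : PEmb S G, ∀ r, ∀ v ∈ M.vs r, v ∈ P.Y r ∨ ∃ a ∈ G.ends r, v ∈ P.Z' a := by
  classical
  obtain ⟨pt, hpt, W, hW, hWY, hWm⟩ := exists_walks P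
  have hinj : Function.Injective pt := fun a b h => comp_disj P (hpt a) (by rw [h]; exact hpt b)
  have hdata : ∀ r, ∃ (A : Finset E) (B : Finset V), (∀ x, x ∈ B ↔ x ∈ W r) ∧
      (∀ x, x ∈ B ↔ ∃ e ∈ A, x ∈ S.ends e) ∧ (∀ a ∈ G.ends r, pt a ∈ B) ∧
      (∀ a ∈ G.ends r, {e | e ∈ A ∧ pt a ∈ S.ends e}.ncard = 1) ∧
      (∀ x ∈ B, (∀ a ∈ G.ends r, x ≠ pt a) → {e | e ∈ A ∧ x ∈ S.ends e}.ncard = 2) ∧
      (∀ Q : Finset E, Q ⊆ A → Q.Nonempty →
        (∀ e ∈ Q, ∀ x ∈ S.ends e, ∀ e' ∈ A, x ∈ S.ends e' → e' ∈ Q) → Q = A) := by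
    intro r
    obtain ⟨a, b, p, hab, hne, hp, hs⟩ := hW r
    obtain ⟨A, h1, h2, h3⟩ := edges_of_path p hp
    have hptne : pt a ≠ pt b := fun h => hne (hinj h)
    have hfin : ∀ x, {e | e ∈ A ∧ x ∈ S.ends e}.Finite := fun x =>
      (A.finite_toSet).subset fun _ h => h.1
    refine ⟨A, p.support.toFinset, fun x => by rw [List.mem_toFinset]; exact hs x, ?_, ?_, ?_, ?_,
      ?_⟩
    · intro x
      rw [List.mem_toFinset]
      constructor
      · intro hx
        have hd := h2 x hx
        have hpos : {e | e ∈ A ∧ x ∈ S.ends e}.ncard ≠ 0 := by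
          rw [hd]
          by_cases hxa : x = pt a
          · rw [if_neg (show ¬ x = pt b from fun h => hptne (hxa ▸ h))]
            omega
          · rw [if_neg hxa]; omega
        obtain ⟨e, he⟩ := Set.nonempty_of_ncard_ne_zero hpos
        exact ⟨e, he.1, he.2⟩
      · rintro ⟨e, he, hx⟩
        exact h1 e he x hx
    · intro c hc
      rw [List.mem_toFinset]
      rw [hab, Sym2.mem_iff] at hc
      rcases hc with rfl | rfl
      · exact p.start_mem_support
      · exact p.end_mem_support
    · intro c hc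
      rw [hab, Sym2.mem_iff] at hc
      rcases hc with rfl | rfl
      · rw [h2 _ p.start_mem_support, if_pos rfl, if_neg hptne]
      · rw [h2 _ p.end_mem_support, if_pos rfl, if_neg hptne.symm]
    · intro x hx hxa
      rw [List.mem_toFinset] at hx
      rw [h2 x hx, if_neg (hxa a (by rw [hab]; exact Sym2.mem_mk_left _ _)),
        if_neg (hxa b (by rw [hab]; exact Sym2.mem_mk_right _ _))]
    · intro Q hQ hQne hcl
      exact (h3 Q hQ hcl).resolve_left hQne.ne_empty
  choose A B hB hAB hend hdeg1 hdeg2 hconn using hdata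
  refine ⟨{ pt := pt, inj := hinj, P := A, vs := B, vs_iff := hAB, ends_mem := hend,
            deg_end := hdeg1, deg_in := hdeg2, pconn := hconn, meet := ?_ }, ?_⟩
  · intro r r' hrr v hv hv'
    exact hWm r r' hrr v ((hB r v).1 hv) ((hB r' v).1 hv')
  · intro r v hv
    exact hWY r v ((hB r v).1 hv)

end Main

end Crest.Agent.R096.Spa_881
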