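import Crest.Agent.R096.Ce1_537

/-!
# Row 96, TINY CORES (helper335): levels of a PL ball with a chart onto a star body
`K` is a PL 3-ball with a PL chart `θ` of its boundary onto the boundary of `C = {u ≤ 1}`
(`u` = a PL gauge with centre `z`).  One ball extension `h : K → C` gives a PL function
`φ = u ∘ h` all of whose levels `{φ = t}`, `0 < t < 1`, bound PL balls with the charts
`z + t⁻¹ • (h - z)`.
-/

set_option autoImplicit false
set_option linter.unusedSectionVars false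

open Set Metric Topology Filter

namespace Crest.Agent.R096.Spc_335

open Crest.Agent.R096.Ce_537

variable {E F : Type*} [NormedAddCommGroup E] [NormedSpace ℝ E] [FiniteDimensional ℝ E]
  [NormedAddCommGroup F] [NormedSpace ℝ F] [FiniteDimensional ℝ F]

/-- a PL gauge with centre `z` and unit ball `C` -/
structure GauC (u : F → ℝ) (z : F) (C : Set F) : Prop where
  pl : PLOn u univ
  nonneg : ∀ y, 0 ≤ u y
  hom : ∀ r : ℝ, 0 ≤ r → ∀ y, u (z + r • (y - z)) = r * u y
  one : {y | u y ≤ 1} = C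
  cpt : IsCompact C

variable {u : F → ℝ} {z : F} {C : Set F}

namespace GauC

theorem cont (g : GauC u z C) : Continuous u := continuousOn_univ.1 g.pl.1

theorem center (g : GauC u z C) : u z = 0 := by
  have := g.hom 0 le_rfl z
  simpa using this

theorem mem_iff (g : GauC u z C) {y : F} : y ∈ C ↔ u y ≤ 1 := by rw [← g.one]; rfl

theorem z_mem (g : GauC u z C) : z ∈ C := by rw [g.mem_iff, g.center]; exact zero_le_one

/-- the homothety with centre `z` -/
noncomputable def hh (z : F) (t : ℝ) (y : F) : F := z + t • (y - z)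

omit [FiniteDimensional ℝ F] in
theorem hh_hh (z : F) (s t : ℝ) (y : F) : hh z s (hh z t y) = hh z (s * t) y := by
  unfold hh
  rw [add_sub_cancel_left, smul_smul]

omit [FiniteDimensional ℝ F] in
theorem hh_one (z y : F) : hh z 1 y = y := by unfold hh; rw [one_smul]; abel

theorem plOn_hh (z : F) (t : ℝ) (s : Set F) : PLOn (hh z t) s := by
  have h := plOn_affine (t • (AffineMap.id ℝ F - AffineMap.const ℝ F z) + AffineMap.const ℝ F z) s
  refine h.congr fun y _ => ?_
  show z + t • (y - z) = t • (y - z) + z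
  abel

theorem u_hh (g : GauC u z C) {t : ℝ} (ht : 0 ≤ t) (y : F) : u (hh z t y) = t * u y := g.hom t ht y

/-- the homothety as a PL equivalence between two sets `{u ∈ A}` and `{u ∈ t A}` -/
noncomputable def hE (g : GauC u z C) {t : ℝ} (ht : 0 < t) {A B : Set ℝ}
    (hA : ∀ s ∈ A, t * s ∈ B) (hB : ∀ s ∈ B, t⁻¹ * s ∈ A) :
    PLEquiv {y | u y ∈ A} {y | u y ∈ B} where
  f := hh z t
  g := hh z t⁻¹
  pf := plOn_hh z t _
  pg := plOn_hh z t⁻¹ _
  mf := fun y hy => by
    show u (hh z t y) ∈ B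
    rw [g.u_hh ht.le]
    exact hA _ hy
  mg := fun y hy => by
    show u (hh z t⁻¹ y) ∈ A
    rw [g.u_hh (inv_nonneg.2 ht.le)]
    exact hB _ hy
  li := fun y _ => by rw [hh_hh, inv_mul_cancel₀ ht.ne', hh_one]
  ri := fun y _ => by rw [hh_hh, mul_inv_cancel₀ ht.ne', hh_one]

theorem le_sub (g : GauC u z C) {t : ℝ} (ht : t ≤ 1) : {y | u y ≤ t} ⊆ C := fun _ hy =>
  g.mem_iff.2 (le_trans hy ht)

/-- the levels of the gauge are balls -/
theorem isBall_le (g : GauC u z C) {k : ℕ} (hC : IsBall k C {y | u y = 1}) {t : ℝ} (ht : 0 < t) :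
    IsBall k {y | u y ≤ t} {y | u y = t} := by
  have hC' : IsBall k {y | u y ∈ Iic (1 : ℝ)} {y | u y = 1} := by
    have : {y | u y ∈ Iic (1 : ℝ)} = C := g.one
    rw [this]; exact hC
  have h := hC'.map (g.hE (A := Iic (1 : ℝ)) (B := Iic t) ht (fun s hs => by
      have hs : s ≤ 1 := hs
      show t * s ≤ t
      nlinarith) (fun s hs => by
      have hs : s ≤ t := hs
      show t⁻¹ * s ≤ 1
      rw [inv_mul_le_iff₀ ht]
      linarith))
  have h2 : (hh z t) '' {y | u y = 1} = {y | u y = t} := by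
    ext y
    constructor
    · rintro ⟨w, hw, rfl⟩
      show u (hh z t w) = t
      rw [g.u_hh ht.le, hw, mul_one]
    · intro hy
      refine ⟨hh z t⁻¹ y, ?_, by rw [hh_hh, mul_inv_cancel₀ ht.ne', hh_one]⟩
      show u (hh z t⁻¹ y) = 1
      rw [g.u_hh (inv_nonneg.2 ht.le), hy, inv_mul_cancel₀ ht.ne']
  have h3 : IsBall k {y | u y ∈ Iic t} ((hh z t) '' {y | u y = 1}) := h
  rw [h2] at h3
  exact h3

end GauC

open GauC

/-- **the levels inside one ball** -/
structure Lvl (u : F → ℝ) (z : F) (C : Set F) (K : Set E) (h : PLEquiv K C) (φ : E → ℝ) : Prop where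
  eq : ∀ x ∈ K, φ x = u (h.f x)
  off : ∀ x, x ∉ K → φ x = 1
  pl : PLOn φ univ
  nonneg : ∀ x, 0 ≤ φ x
  le_one : ∀ x, φ x ≤ 1
  lt_iff : ∀ x, φ x < 1 ↔ x ∈ interior K
  ball : ∀ t, 0 < t → t < 1 → IsBall 3 {x | φ x ≤ t} {x | φ x = t}
  fr : ∀ t, 0 < t → t < 1 → frontier {x | φ x ≤ t} = {x | φ x = t}
  th : ∀ t, 0 < t → t < 1 → ∃ e : PLEquiv {x | φ x = t} {y | u y = 1},
    ∀ x, φ x = t → e.f x = z + t⁻¹ • (h.f x - z)

/-- one ball extension gives all the levels -/
theorem exists_lvl (g : GauC u z C) (hC : IsBall 3 C {y | u y = 1}) {K : Set E}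
    (hK : IsBall 3 K (frontier K)) (θ : PLEquiv (frontier K) {y | u y = 1}) :
    ∃ (h : PLEquiv K C) (φ : E → ℝ), EqOn h.f θ.f (frontier K) ∧ EqOn h.g θ.g {y | u y = 1} ∧
      Lvl u z C K h φ := by
  classical
  obtain ⟨h, h1, h2⟩ := hK.extend hC θ
  have hKc : IsClosed K := hK.isClosed
  let φ : E → ℝ := fun x => if x ∈ K then u (h.f x) else 1
  have heq : ∀ x ∈ K, φ x = u (h.f x) := fun x hx => if_pos hx
  have hoff : ∀ x, x ∉ K → φ x = 1 := fun x hx => if_neg hx
  have hfr : ∀ x ∈ frontier K, φ x = 1 := fun x hx => by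
    rw [heq x (hKc.frontier_subset hx), h1 hx]
    exact θ.mf hx
  have hint : ∀ x ∈ K, φ x = 1 → x ∈ frontier K := by
    intro x hx h3
    rw [heq x hx] at h3
    have h4 : h.g (h.f x) = θ.g (h.f x) := h2 h3
    rw [h.li x hx] at h4
    rw [h4]
    exact θ.mg h3
  have hle : ∀ x, φ x ≤ 1 := fun x => by
    by_cases hx : x ∈ K
    · rw [heq x hx]; exact g.mem_iff.1 (h.mf hx)
    · rw [hoff x hx]
  have hlt : ∀ x, φ x < 1 ↔ x ∈ interior K := by
    intro x
    constructor
    · intro h3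
      have hx : x ∈ K := by
        by_contra hx
        rw [hoff x hx] at h3
        exact lt_irrefl _ h3
      by_contra h4
      have h5 : x ∈ frontier K := by
        rw [hKc.frontier_eq]; exact ⟨hx, h4⟩
      rw [hfr x h5] at h3
      exact lt_irrefl _ h3
    · intro h3
      refine lt_of_le_of_ne (hle x) fun h4 => ?_
      have h5 := hint x (interior_subset h3) h4
      exact h5.2 h3
  have hpl : PLOn φ univ := by
    have h3 : PLOn φ K := by
      refine PLOn.congr (f := fun x => u (h.f x)) (g.pl.comp h.pf (mapsTo_univ _ _)) ?_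
      exact fun x hx => heq x hx
    have h4 : PLOn φ (closure Kᶜ) := by
      refine PLOn.congr (f := fun _ : E => (1 : ℝ)) (plOn_const 1 _) ?_
      intro x hx
      show φ x = 1
      by_cases hxK : x ∈ K
      · exact hfr x (by rw [frontier_eq_closure_inter_closure]; exact ⟨subset_closure hxK, hx⟩)
      · exact hoff x hxK
    have h5 := h3.union h4 hKc isClosed_closure
    refine h5.mono fun x _ => ?_
    by_cases hxK : x ∈ K
    · exact Or.inl hxK
    · exact Or.inr (subset_closure hxK)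
  have hcont : Continuous φ := continuousOn_univ.1 hpl.1
  have hKt : ∀ {t : ℝ} {x : E}, t < 1 → φ x ≤ t → x ∈ K := by
    intro t x ht hx
    by_contra h3
    rw [hoff x h3] at hx
    linarith
  refine ⟨h, φ, h1, h2, heq, hoff, hpl, fun x => ?_, hle, hlt, fun t ht ht1 => ?_,
    fun t ht ht1 => ?_, fun t ht ht1 => ?_⟩
  · by_cases hx : x ∈ K
    · rw [heq x hx]; exact g.nonneg _
    · rw [hoff x hx]; exact zero_le_one
  · -- ball
    have hb := g.isBall_le hC ht
    have hsub : {y | u y ≤ t} ⊆ C := g.le_sub ht1.le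
    have himg : h.g '' {y | u y ≤ t} = {x | φ x ≤ t} := by
      ext x
      constructor
      · rintro ⟨y, hy, rfl⟩
        show φ (h.g y) ≤ t
        rw [heq _ (h.mg (hsub hy)), h.ri y (hsub hy)]
        exact hy
      · intro hx
        have hxK := hKt ht1 hx
        refine ⟨h.f x, ?_, h.li x hxK⟩
        show u (h.f x) ≤ t
        rw [← heq x hxK]; exact hx
    have himg2 : h.g '' {y | u y = t} = {x | φ x = t} := by
      ext x
      constructor
      · rintro ⟨y, hy, rfl⟩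
        have hyC : y ∈ C := hsub (le_of_eq hy)
        show φ (h.g y) = t
        rw [heq _ (h.mg hyC), h.ri y hyC]
        exact hy
      · intro hx
        have hxK := hKt ht1 (le_of_eq hx)
        refine ⟨h.f x, ?_, h.li x hxK⟩
        show u (h.f x) = t
        rw [← heq x hxK]; exact hx
    have h3 := hb.map (h.symm.restrImage hsub)
    have h4 : IsBall 3 (h.g '' {y | u y ≤ t}) (h.g '' {y | u y = t}) := h3
    rw [himg, himg2] at h4
    exact h4
  · -- frontier
    apply Subset.antisymm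
    · exact frontier_le_subset_eq hcont continuous_const
    · intro x hx
      have hx : φ x = t := hx
      have hxK := hKt ht1 (le_of_eq hx)
      have hux : u (h.f x) = t := by rw [← heq x hxK]; exact hx
      rw [frontier_eq_closure_inter_closure]
      refine ⟨subset_closure (le_of_eq hx), ?_⟩
      -- approach by `h.g (hh z (1 + s) (h x))`
      have hg : ContinuousOn h.g C := h.pg.1
      have hpath : ContinuousWithinAt (fun s : ℝ => h.g (hh z (1 + s) (h.f x))) (Ioo 0 (1 - t)) 0 := by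
        have hc : ContinuousOn (fun s : ℝ => h.g (hh z (1 + s) (h.f x))) (Icc 0 (1 - t)) := by
          refine hg.comp (f := fun s : ℝ => hh z (1 + s) (h.f x)) ?_ ?_
          · unfold hh; fun_prop
          · intro s hs
            rw [g.mem_iff, g.u_hh (by linarith [hs.1]), hux]
            nlinarith [hs.1, hs.2]
        exact (hc 0 ⟨le_rfl, by linarith⟩).mono Ioo_subset_Icc_self
      have h0 : h.g (hh z (1 + 0) (h.f x)) = x := by
        rw [add_zero, hh_one, h.li x hxK]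
      have hcl : (0 : ℝ) ∈ closure (Ioo (0 : ℝ) (1 - t)) := by
        rw [closure_Ioo (by linarith)]; exact ⟨le_rfl, by linarith⟩
      have h4 := hpath.mem_closure_image hcl
      rw [h0] at h4
      refine closure_mono ?_ h4
      rintro _ ⟨s, hs, rfl⟩
      show ¬ (φ (h.g (hh z (1 + s) (h.f x))) ≤ t)
      have h5 : u (hh z (1 + s) (h.f x)) = (1 + s) * t := by
        rw [g.u_hh (by linarith [hs.1]), hux]
      have h6 : hh z (1 + s) (h.f x) ∈ C := by
        rw [g.mem_iff, h5]; nlinarith [hs.1, hs.2]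
      rw [heq _ (h.mg h6), h.ri _ h6, h5, not_le]
      nlinarith [hs.1]
  · -- the chart
    have hti : 0 < t⁻¹ := inv_pos.2 ht
    have hm : ∀ x, φ x = t → x ∈ K := fun x hx => hKt ht1 (le_of_eq hx)
    have hu : ∀ x, φ x = t → u (h.f x) = t := fun x hx => by rw [← heq x (hm x hx)]; exact hx
    have hyC : ∀ y, u y = 1 → hh z t y ∈ C := fun y hy => by
      rw [g.mem_iff, g.u_hh ht.le, hy]; linarith
    refine ⟨⟨fun x => hh z t⁻¹ (h.f x), fun y => h.g (hh z t y), ?_, ?_, ?_, ?_, ?_, ?_⟩, fun x _ => rfl⟩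
    · exact (plOn_hh z t⁻¹ univ).comp (h.pf.mono fun x hx => hm x hx) (mapsTo_univ _ _)
    · exact h.pg.comp (plOn_hh z t _) (fun y hy => hyC y hy)
    · intro x hx
      show u (hh z t⁻¹ (h.f x)) = 1
      rw [g.u_hh hti.le, hu x hx, inv_mul_cancel₀ ht.ne']
    · intro y hy
      show φ (h.g (hh z t y)) = t
      have hy : u y = 1 := hy
      rw [heq _ (h.mg (hyC y hy)), h.ri _ (hyC y hy), g.u_hh ht.le, hy, mul_one]
    · intro x hx
      show h.g (hh z t (hh z t⁻¹ (h.f x))) = x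
      rw [hh_hh, mul_inv_cancel₀ ht.ne', hh_one, h.li x (hm x hx)]
    · intro y hy
      show hh z t⁻¹ (h.f (h.g (hh z t y))) = y
      rw [h.ri _ (hyC y hy), hh_hh, inv_mul_cancel₀ ht.ne', hh_one]

/-- the levels near 1 are near the boundary -/
theorem Lvl.near_bd {K : Set E} {h : PLEquiv K C} {φ : E → ℝ} (L : Lvl u z C K h φ)
    (hK : IsCompact K) {U : Set E} (hU : IsOpen U) (hfU : frontier K ⊆ U) :
    ∃ a < 1, ∀ x, a < φ x → φ x < 1 → x ∈ U := by
  have hcont : Continuous φ := continuousOn_univ.1 L.pl.1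
  by_cases hne : (K \ U).Nonempty
  · obtain ⟨x0, hx0, hmax⟩ := (hK.diff hU).exists_isMaxOn hne hcont.continuousOn
    have h1 : φ x0 < 1 := by
      rw [L.lt_iff]
      by_contra h2
      exact hx0.2 (hfU (by rw [hK.isClosed.frontier_eq]; exact ⟨hx0.1, h2⟩))
    refine ⟨φ x0, h1, fun x h2 h3 => ?_⟩
    by_contra h4
    have h5 : x ∈ K := interior_subset ((L.lt_iff x).1 h3)
    have h6 : φ x ≤ φ x0 := hmax ⟨h5, h4⟩
    linarith
  · refine ⟨0, zero_lt_one, fun x _ h3 => ?_⟩
    by_contra h4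
    exact hne ⟨x, interior_subset ((L.lt_iff x).1 h3), h4⟩

omit [FiniteDimensional ℝ E] [FiniteDimensional ℝ F] in
/-- uniform continuity at the points of a compact set -/
theorem unif_at {S : Set E} (hS : IsCompact S) {Ψ : E → F} (hΨ : ∀ x ∈ S, ContinuousAt Ψ x)
    {ε : ℝ} (hε : 0 < ε) : ∃ δ > 0, ∀ y ∈ S, ∀ x, ‖x - y‖ < δ → ‖Ψ x - Ψ y‖ < ε := by
  have h1 : ∀ y ∈ S, ∃ r > 0, ∀ x, dist x y < r → dist (Ψ x) (Ψ y) < ε / 2 := fun y hy =>
    Metric.continuousAt_iff.1 (hΨ y hy) (ε / 2) (by linarith)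
  choose! r hr hr' using h1
  obtain ⟨δ, hδ, hδ'⟩ := lebesgue_number_lemma_of_metric (s := S) (ι := S)
    (c := fun y => ball y.1 (r y.1)) hS (fun _ => isOpen_ball) (fun y hy =>
      mem_iUnion.2 ⟨⟨y, hy⟩, mem_ball_self (hr y hy)⟩)
  refine ⟨δ, hδ, fun y hy x hxy => ?_⟩
  obtain ⟨i, hi⟩ := hδ' y hy
  have h2 : y ∈ ball i.1 (r i.1) := hi (mem_ball_self hδ)
  have h3 : x ∈ ball i.1 (r i.1) := hi (by rw [mem_ball, dist_eq_norm]; exact hxy)
  have h4 := hr' i.1 i.2 y h2
  have h5 := hr' i.1 i.2 x h3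
  rw [← dist_eq_norm]
  calc dist (Ψ x) (Ψ y) ≤ dist (Ψ x) (Ψ i.1) + dist (Ψ y) (Ψ i.1) := dist_triangle_right _ _ _
    _ < ε := by linarith

/-- the charts of the levels near 1 are near the chart of the boundary -/
theorem Lvl.near (g : GauC u z C) {K : Set E} {h : PLEquiv K C} {φ : E → ℝ} (L : Lvl u z C K h φ)
    (hK : IsCompact K) (hKb : ∀ y, u y = 1 → h.g y ∈ frontier K) {Ψ : E → F}
    (hΨ : ∀ x ∈ frontier K, ContinuousAt Ψ x) {ε ε' : ℝ} (hε : ε < ε')
    (hn : ∀ x ∈ frontier K, ‖h.f x - Ψ x‖ ≤ ε) :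
    ∃ a < 1, 0 < a ∧ ∀ t, a < t → t < 1 → ∀ x, φ x = t → ‖(z + t⁻¹ • (h.f x - z)) - Ψ x‖ ≤ ε' := by
  have hfc : IsCompact (frontier K) := hK.of_isClosed_subset isClosed_frontier hK.isClosed.frontier_subset
  obtain ⟨δ, hδ, hδ'⟩ := unif_at hfc hΨ (ε := ε' - ε) (by linarith)
  -- uniform continuity of the inverse
  have huc := (g.cpt.uniformContinuousOn_of_continuous h.pg.1)
  rw [Metric.uniformContinuousOn_iff] at huc
  obtain ⟨η, hη, hη'⟩ := huc δ hδ
  obtain ⟨B, hB⟩ := g.cpt.isBounded.exists_norm_le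
  have hB0 : 0 ≤ B := (norm_nonneg _).trans (hB z g.z_mem)
  obtain ⟨a, ha1, ha0, ha⟩ : ∃ a : ℝ, a < 1 ∧ 0 < a ∧ ∀ t, a < t → t < 1 → (t⁻¹ - 1) * (2 * B) < η := by
    have hcont : ContinuousAt (fun t : ℝ => (t⁻¹ - 1) * (2 * B)) 1 := by
      have : ContinuousAt (fun t : ℝ => t⁻¹) 1 := continuousAt_inv₀ one_ne_zero
      exact (this.sub continuousAt_const).mul continuousAt_const
    have h1 : ∀ᶠ t in 𝓝 (1 : ℝ), (t⁻¹ - 1) * (2 * B) < η := by
      refine hcont.eventually (Iio_mem_nhds ?_)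
      simpa using hη
    obtain ⟨r, hr, hr'⟩ := Metric.eventually_nhds_iff.1 h1
    refine ⟨max (1 - r) (1 / 2), by
      rw [max_lt_iff]; constructor <;> linarith, lt_max_of_lt_right (by norm_num), fun t h2 h3 => ?_⟩
    apply hr'
    rw [Real.dist_eq, abs_lt]
    have := (max_lt_iff.1 h2).1
    constructor <;> linarith
  refine ⟨a, ha1, ha0, fun t h1 h2 x hx => ?_⟩
  have ht : 0 < t := ha0.trans h1
  have hxK : x ∈ K := interior_subset ((L.lt_iff x).1 (by rw [hx]; exact h2))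
  have hux : u (h.f x) = t := by rw [← L.eq x hxK]; exact hx
  set w : F := z + t⁻¹ • (h.f x - z) with hw
  have huw : u w = 1 := by
    have := g.hom t⁻¹ (inv_nonneg.2 ht.le) (h.f x)
    rw [← hw, hux, inv_mul_cancel₀ ht.ne'] at this
    exact this
  have hwC : w ∈ C := g.mem_iff.2 (le_of_eq huw)
  have hfxC : h.f x ∈ C := h.mf hxK
  have h3 : dist w (h.f x) < η := by
    rw [dist_eq_norm]
    have e : w - h.f x = (t⁻¹ - 1) • (h.f x - z) := by
      rw [hw, sub_smul, one_smul]; abel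
    rw [e, norm_smul, Real.norm_eq_abs, abs_of_nonneg (by
      rw [sub_nonneg]; exact (one_le_inv₀ ht).2 h2.le)]
    have h4 : ‖h.f x - z‖ ≤ 2 * B := by
      calc ‖h.f x - z‖ ≤ ‖h.f x‖ + ‖z‖ := norm_sub_le _ _
        _ ≤ 2 * B := by linarith [hB _ hfxC, hB z g.z_mem]
    have h5 : 0 ≤ t⁻¹ - 1 := by rw [sub_nonneg]; exact (one_le_inv₀ ht).2 h2.le
    calc (t⁻¹ - 1) * ‖h.f x - z‖ ≤ (t⁻¹ - 1) * (2 * B) := by gcongr
      _ < η := ha t h1 h2
  have h4 := hη' w hwC (h.f x) hfxC h3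
  rw [h.li x hxK] at h4
  set y := h.g w with hy
  have hyf : y ∈ frontier K := hKb w huw
  have h5 : ‖Ψ x - Ψ y‖ < ε' - ε := hδ' y hyf x (by rw [← dist_eq_norm, dist_comm]; exact h4)
  have h6 : h.f y = w := h.ri w hwC
  have h7 := hn y hyf
  rw [h6] at h7
  calc ‖w - Ψ x‖ = ‖(w - Ψ y) - (Ψ x - Ψ y)‖ := by congr 1; abel
    _ ≤ ‖w - Ψ y‖ + ‖Ψ x - Ψ y‖ := norm_sub_le _ _
    _ ≤ ε' := by linarith

end Crest.Agent.R096.Spc_335
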