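import Crest.Agent.R096.Spc1_335
import Crest.Agent.R096.Ub4_113
import Crest.Agent.R096.Brk3_582

/-!
# Row 96, TINY CORES (helper335), part 2: gauges of polytopes and bricks; the level functions of the
foam on the levels of `Spc_335.Lvl`
-/

set_option autoImplicit false
set_option linter.unusedSectionVars false

open Set Metric Topology Filter

namespace Crest.Agent.R096.Spc_335

open Crest.Agent.R096.Ce_537 Crest.Agent.R096.Ub_113 Crest.Agent.R096.Bsp_628
open Crest.Agent.R096.Brk1_582

section poly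

variable {F : Type*} [NormedAddCommGroup F] [NormedSpace ℝ F] [FiniteDimensional ℝ F]
  (G : Finset ((F →L[ℝ] ℝ) × ℝ)) (hG : G.Nonempty) {z : F}

/-- the gauge is homogeneous about a common zero of the affine functions -/
theorem gau_hom (hz : ∀ h ∈ G, h.1 z = h.2) {r : ℝ} (hr : 0 ≤ r) (y : F) :
    gau G hG (z + r • (y - z)) = r * gau G hG y := by
  have key : ∀ h ∈ G, h.1 (z + r • (y - z)) - h.2 = r * (h.1 y - h.2) := by
    intro h hh
    rw [map_add, map_smul, map_sub, smul_eq_mul, hz h hh]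
    ring
  obtain ⟨h, hh, e⟩ := exists_gau G hG y
  apply le_antisymm
  · rw [gau_le_iff]
    intro h' hh'
    rw [key h' hh']
    exact mul_le_mul_of_nonneg_left (le_gau G hG hh') hr
  · rw [e, ← key h hh]
    exact le_gau G hG hh

/-- **gauge of a compact polytope about an interior point** -/
theorem gauC_gau (hz : ∀ h ∈ G, h.1 z = h.2) (hc : IsCompact {y | gau G hG y ≤ 1}) :
    GauC (gau G hG) z {y | gau G hG y ≤ 1} where
  pl := plOn_gau G hG univ
  nonneg := by
    intro y
    by_contra hneg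
    push Not at hneg
    have hyz : y - z ≠ 0 := by
      intro h0
      have h1 : y = z := sub_eq_zero.1 h0
      have h2 := gau_hom G hG hz (le_refl (0 : ℝ)) y
      rw [zero_smul, add_zero, zero_mul] at h2
      rw [h1, h2] at hneg
      exact lt_irrefl _ hneg
    have hn : 0 < ‖y - z‖ := norm_pos_iff.2 hyz
    obtain ⟨B, hB⟩ := hc.isBounded.exists_norm_le
    have hB0 : 0 ≤ B := by
      have h2 := gau_hom G hG hz (le_refl (0 : ℝ)) y
      rw [zero_smul, add_zero, zero_mul] at h2
      exact (norm_nonneg _).trans (hB z (by show gau G hG z ≤ 1; rw [h2]; exact zero_le_one))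
    set r : ℝ := (B + ‖z‖ + 1) / ‖y - z‖ with hr
    have hr0 : 0 ≤ r := by positivity
    have h1 : z + r • (y - z) ∈ {y | gau G hG y ≤ 1} := by
      show gau G hG (z + r • (y - z)) ≤ 1
      rw [gau_hom G hG hz hr0]
      nlinarith
    have h2 := hB _ h1
    have h3 : ‖r • (y - z)‖ ≤ ‖z + r • (y - z)‖ + ‖z‖ := by
      calc ‖r • (y - z)‖ = ‖(z + r • (y - z)) - z‖ := by rw [add_sub_cancel_left]
        _ ≤ _ := norm_sub_le _ _
    rw [norm_smul, Real.norm_eq_abs, abs_of_nonneg hr0, hr, div_mul_cancel₀ _ hn.ne'] at h3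
    linarith
  hom := fun r hr y => gau_hom G hG hz hr y
  one := rfl
  cpt := hc

theorem isBall_one (h3 : Module.finrank ℝ F = 3) (hz : ∀ h ∈ G, h.1 z = h.2)
    (hc : IsCompact {y | gau G hG y ≤ 1}) :
    IsBall 3 {y | gau G hG y ≤ 1} {y | gau G hG y = 1} := by
  have h := isBall_gau G hG (t := 1) hc ⟨z, by
    have h2 := gau_hom G hG hz (le_refl (0 : ℝ)) z
    rw [zero_smul, add_zero, zero_mul] at h2
    rw [h2]; exact zero_lt_one⟩
  rwa [h3] at h

end poly

section brick

variable {κ : Type*} [Fintype κ] [Nonempty κ]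

/-- the functionals of the brick about the point `z` -/
noncomputable def fun1 (c : Bx κ) (z : κ → ℝ) (q : κ × Bool) : ((κ → ℝ) →L[ℝ] ℝ) × ℝ :=
  let r : ℝ := if q.2 then (c.hi q.1 - z q.1)⁻¹ else -(z q.1 - c.lo q.1)⁻¹
  (r • ContinuousLinearMap.proj q.1, r * z q.1)

open Classical in
/-- the functionals of the brick about the point `z` -/
noncomputable def bG (c : Bx κ) (z : κ → ℝ) : Finset (((κ → ℝ) →L[ℝ] ℝ) × ℝ) :=
  Finset.univ.image (fun1 c z)

theorem bG_nonempty (c : Bx κ) (z : κ → ℝ) : (bG c z).Nonempty := by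
  classical
  exact Finset.Nonempty.image ⟨(Classical.arbitrary κ, true), Finset.mem_univ _⟩ _

theorem bG_zero (c : Bx κ) (z : κ → ℝ) : ∀ h ∈ bG c z, h.1 z = h.2 := by
  classical
  intro h hh
  obtain ⟨q, -, rfl⟩ := Finset.mem_image.1 hh
  rfl

/-- the gauge of the brick about `z` -/
noncomputable def bgau (c : Bx κ) (z : κ → ℝ) : (κ → ℝ) → ℝ := gau (bG c z) (bG_nonempty c z)

theorem bgau_le_iff (c : Bx κ) (z : κ → ℝ) {y : κ → ℝ} {t : ℝ} : bgau c z y ≤ t ↔
    ∀ k, (c.hi k - z k)⁻¹ * (y k - z k) ≤ t ∧ (z k - c.lo k)⁻¹ * (z k - y k) ≤ t := by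
  classical
  unfold bgau
  rw [gau_le_iff]
  constructor
  · intro h k
    have h1 := h _ (Finset.mem_image_of_mem (fun1 c z) (Finset.mem_univ (k, true)))
    have h2 := h _ (Finset.mem_image_of_mem (fun1 c z) (Finset.mem_univ (k, false)))
    simp only [fun1, if_true, ContinuousLinearMap.smul_apply, ContinuousLinearMap.proj_apply,
      smul_eq_mul, Bool.false_eq_true, if_false] at h1 h2
    constructor <;> linarith
  · intro h g hg
    obtain ⟨⟨k, b⟩, -, rfl⟩ := Finset.mem_image.1 hg
    cases b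
    · simp only [fun1, ContinuousLinearMap.smul_apply, ContinuousLinearMap.proj_apply,
        smul_eq_mul, Bool.false_eq_true, if_false]
      have := (h k).2
      linarith
    · simp only [fun1, if_true, ContinuousLinearMap.smul_apply, ContinuousLinearMap.proj_apply,
        smul_eq_mul]
      have := (h k).1
      linarith

theorem bgau_le_one (c : Bx κ) {z : κ → ℝ} (hz : ∀ k, c.lo k < z k ∧ z k < c.hi k) :
    {y | bgau c z y ≤ 1} = c.set := by
  ext y
  rw [mem_ofPred_eq, bgau_le_iff, Bx.mem_set]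
  constructor
  · intro h k
    obtain ⟨h1, h2⟩ := h k
    rw [inv_mul_le_iff₀ (by linarith [(hz k).2])] at h1
    rw [inv_mul_le_iff₀ (by linarith [(hz k).1])] at h2
    constructor <;> linarith
  · intro h k
    obtain ⟨h1, h2⟩ := h k
    rw [inv_mul_le_iff₀ (by linarith [(hz k).2]), inv_mul_le_iff₀ (by linarith [(hz k).1])]
    constructor <;> linarith

/-- **the brick has a PL gauge about every interior point** -/
theorem gauC_brick (c : Bx κ) {z : κ → ℝ} (hz : ∀ k, c.lo k < z k ∧ z k < c.hi k) :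
    GauC (bgau c z) z c.set := by
  have h1 := bgau_le_one c hz
  have hc : IsCompact {y | bgau c z y ≤ 1} := by rw [h1]; exact isCompact_Icc
  have h2 := gauC_gau (bG c z) (bG_nonempty c z) (bG_zero c z) hc
  have h3 : {y | gau (bG c z) (bG_nonempty c z) y ≤ 1} = c.set := h1
  rw [h3] at h2
  exact h2

theorem frontier_brick (c : Bx κ) {z : κ → ℝ} (hz : ∀ k, c.lo k < z k ∧ z k < c.hi k) :
    frontier c.set = {y | bgau c z y = 1} := by
  have g := gauC_brick c hz
  have hcont := g.cont
  rw [← g.one]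
  apply Subset.antisymm
  · exact frontier_le_subset_eq hcont continuous_const
  · intro y hy
    have hy : bgau c z y = 1 := hy
    rw [frontier_eq_closure_inter_closure]
    refine ⟨subset_closure (le_of_eq hy), ?_⟩
    have hpath : ContinuousWithinAt (fun s : ℝ => z + (1 + s) • (y - z)) (Ioi 0) 0 :=
      (by fun_prop : Continuous (fun s : ℝ => z + (1 + s) • (y - z))).continuousWithinAt
    have h0 : z + (1 + (0 : ℝ)) • (y - z) = y := by rw [add_zero, one_smul]; abel
    have hcl : (0 : ℝ) ∈ closure (Ioi (0 : ℝ)) := by rw [closure_Ioi]; exact self_mem_Ici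
    have h4 := hpath.mem_closure_image hcl
    rw [h0] at h4
    refine closure_mono ?_ h4
    rintro _ ⟨s, hs, rfl⟩
    have hs : 0 < s := hs
    show ¬ (bgau c z (z + (1 + s) • (y - z)) ≤ 1)
    rw [g.hom _ (by linarith), hy]
    linarith

theorem isBall_brick (c : Bx (Fin 3)) {z : Fin 3 → ℝ} (hz : ∀ k, c.lo k < z k ∧ z k < c.hi k) :
    IsBall 3 c.set {y | bgau c z y = 1} := by
  have h1 := bgau_le_one c hz
  have hc : IsCompact {y | bgau c z y ≤ 1} := by rw [h1]; exact isCompact_Icc
  have h2 := isBall_one (bG c z) (bG_nonempty c z) (by simp) (bG_zero c z) hc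
  have h3 : {y | gau (bG c z) (bG_nonempty c z) y ≤ 1} = c.set := h1
  rw [h3] at h2
  exact h2

end brick

/-- **the level functions of the foam are affine along the rays from the centre** -/
theorem sc_scaled {E : Type*} [NormedAddCommGroup E] [NormedSpace ℝ E] [CompleteSpace E]
    {I : Type*} {La : Set E} {P : I → Set E} {b : Set I → E} {N : ℕ} (F : Foam La P b N) {c a : I}
    (hac : a ≠ c) {w : E} (hw : w ∈ P c) {t : ℝ} (ht : 0 < t) (ht1 : t ≤ 1) :
    sc P b w a = 1 - t⁻¹ * (1 - sc P b (b {c} + t • (w - b {c})) a) := by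
  have hfc : w ∈ fc P {c} := by rw [mem_fc]; rintro _ rfl; exact hw
  have h := F.sc_ray' (A := {c}) (singleton_nonempty c) hfc ht.le ht1 (c := a) (by simpa using hac)
  rw [h]
  field_simp
  ring

/-- the same in the chart of a level: `lin` for all levels from one function -/
theorem sc_chart {E : Type*} [NormedAddCommGroup E] [NormedSpace ℝ E] [CompleteSpace E]
    {I : Type*} {La : Set E} {P : I → Set E} {b : Set I → E} {N : ℕ} (F : Foam La P b N) {c a : I}
    (hac : a ≠ c) {y : E} {t : ℝ} (ht : 0 < t) (ht1 : t ≤ 1)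
    (hw : b {c} + t⁻¹ • (y - b {c}) ∈ P c) :
    sc P b (b {c} + t⁻¹ • (y - b {c})) a = 1 - t⁻¹ * (1 - sc P b y a) := by
  rw [sc_scaled F hac hw ht ht1]
  have e : b {c} + t • (b {c} + t⁻¹ • (y - b {c}) - b {c}) = y := by
    rw [add_sub_cancel_left, smul_smul, mul_inv_cancel₀ ht.ne', one_smul]; abel
  rw [e]

end Crest.Agent.R096.Spc_335
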