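import Crest.Agent.R096.Sph0_560

/-!
# R096 (row 96) SPH: faces of an embedded copy of a cubic graph (helper923)

`PEmb.exists_emb`: an embedded copy of the nonempty cubic graph `G` in the 1-skeleton of the
combinatorial sphere `S` (every tile has an even number of edges at every vertex) has faces.
-/

set_option autoImplicit false

namespace Crest.Agent.R096.Spf_923

open Crest.Agent.R096.Sph_560 Finset
open scoped Classical

variable {V E T N R X : Type*} [Fintype E] {S : Surf V E T} {G : Cub N R X}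

theorem z2 (a : ZMod 2) : a = 0 ∨ a = 1 := by
  revert a; decide

theorem z2_add_self (a : ZMod 2) : a + a = 0 := by
  revert a; decide

theorem z2_eq_of_add {a b : ZMod 2} (h : a + b = 0) : a = b := by
  revert a b; decide

/-- indicator of the paths of `Q` -/
noncomputable def zc (M : PEmb S G) (Q : Finset R) : E → ZMod 2 :=
  fun e => if ∃ r ∈ Q, e ∈ M.P r then 1 else 0

theorem path_disj (M : PEmb S G) {r r' : R} {e : E} (h : e ∈ M.P r) (h' : e ∈ M.P r') :
    r = r' := by
  by_contra hne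
  obtain ⟨u, v, huv⟩ : ∃ u v, S.ends e = s(u, v) := by
    induction hs : S.ends e with
    | _ u v => exact ⟨u, v, rfl⟩
  have hne' : u ≠ v := by
    intro he
    have := S.nd e
    rw [huv, he] at this
    exact this (by simp)
  have hu : u ∈ S.ends e := by rw [huv]; simp
  have hv : v ∈ S.ends e := by rw [huv]; simp
  obtain ⟨a, ha, ha', hua⟩ := M.meet r r' hne u ((M.vs_iff r u).2 ⟨e, h, hu⟩)
    ((M.vs_iff r' u).2 ⟨e, h', hu⟩)
  obtain ⟨b, hb, hb', hvb⟩ := M.meet r r' hne v ((M.vs_iff r v).2 ⟨e, h, hv⟩)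
    ((M.vs_iff r' v).2 ⟨e, h', hv⟩)
  have hab : a ≠ b := by
    rintro rfl
    exact hne' (hua.trans hvb.symm)
  have h1 : G.ends r = s(a, b) := (Sym2.mem_and_mem_iff hab).1 ⟨ha, hb⟩
  have h2 : G.ends r' = s(a, b) := (Sym2.mem_and_mem_iff hab).1 ⟨ha', hb'⟩
  exact hne (G.multi r r' (h1.trans h2.symm))

theorem node_mem (M : PEmb S G) {r : R} {a : N} (h : M.pt a ∈ M.vs r) : a ∈ G.ends r := by
  by_contra hn
  have h3 := G.three a
  obtain ⟨r', hr'⟩ : ({r | a ∈ G.ends r} : Set R).Nonempty := by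
    apply Set.nonempty_of_ncard_ne_zero
    omega
  have hr'' : a ∈ G.ends r' := hr'
  have hne : r' ≠ r := by
    rintro rfl
    exact hn hr''
  obtain ⟨b, _, hb, hab⟩ := M.meet r' r hne (M.pt a) (M.ends_mem r' a hr'') h
  rw [M.inj hab] at hn
  exact hn hb

theorem P_nonempty (M : PEmb S G) (r : R) : (M.P r).Nonempty := by
  obtain ⟨a, ha⟩ : ∃ a, a ∈ G.ends r := by
    induction hs : G.ends r with
    | _ u v => exact ⟨u, by simp⟩
  obtain ⟨e, he, _⟩ := (M.vs_iff r (M.pt a)).1 (M.ends_mem r a ha)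
  exact ⟨e, he⟩

theorem zc_path (M : PEmb S G) (Q : Finset R) {r : R} {e : E} (h : e ∈ M.P r) :
    zc M Q e = if r ∈ Q then 1 else 0 := by
  unfold zc
  by_cases hr : r ∈ Q
  · rw [if_pos ⟨r, hr, h⟩, if_pos hr]
  · rw [if_neg, if_neg hr]
    rintro ⟨r', hr', he⟩
    rw [path_disj M h he] at hr
    exact hr hr'

theorem zc_off (M : PEmb S G) (Q : Finset R) {e : E} (h : ∀ r, e ∉ M.P r) : zc M Q e = 0 := by
  unfold zc
  rw [if_neg]
  rintro ⟨r, _, he⟩
  exact h r he

theorem zc_sum (M : PEmb S G) (Q : Finset R) (e : E) :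
    zc M Q e = ∑ r ∈ Q, if e ∈ M.P r then (1 : ZMod 2) else 0 := by
  by_cases h : ∃ r, e ∈ M.P r
  · obtain ⟨r, hr⟩ := h
    rw [zc_path M Q hr]
    have : ∀ r' ∈ Q, (if e ∈ M.P r' then (1 : ZMod 2) else 0) = if r = r' then 1 else 0 := by
      intro r' _
      by_cases he : e ∈ M.P r'
      · rw [if_pos he, if_pos (path_disj M hr he)]
      · rw [if_neg he, if_neg]
        rintro rfl
        exact he hr
    rw [Finset.sum_congr rfl this, Finset.sum_ite_eq]
  · push Not at h
    rw [zc_off M Q h]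
    symm
    exact Finset.sum_eq_zero (fun r _ => if_neg (h r))

theorem deg_cast (M : PEmb S G) (r : R) (v : V) :
    (∑ e, if v ∈ S.ends e then (if e ∈ M.P r then (1 : ZMod 2) else 0) else 0) =
      if ∃ a ∈ G.ends r, v = M.pt a then 1 else 0 := by
  have h1 : (∑ e, if v ∈ S.ends e then (if e ∈ M.P r then (1 : ZMod 2) else 0) else 0) =
      ((({e | e ∈ M.P r ∧ v ∈ S.ends e} : Set E).ncard : ℕ) : ZMod 2) := by
    have h2 : ({e | e ∈ M.P r ∧ v ∈ S.ends e} : Set E).ncard =
        (Finset.univ.filter fun e => e ∈ M.P r ∧ v ∈ S.ends e).card := by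
      rw [← Set.ncard_coe_finset]
      congr 1
      ext e
      simp
    rw [h2, ← Finset.sum_boole]
    apply Finset.sum_congr rfl
    intro e _
    by_cases h : v ∈ S.ends e
    · by_cases h' : e ∈ M.P r
      · simp [h, h']
      · simp [h, h']
    · simp [h]
  rw [h1]
  by_cases h : ∃ a ∈ G.ends r, v = M.pt a
  · obtain ⟨a, ha, hv⟩ := h
    rw [if_pos ⟨a, ha, hv⟩, hv, M.deg_end r a ha]
    simp
  · rw [if_neg h]
    push Not at h
    by_cases hv : v ∈ M.vs r
    · rw [M.deg_in r v hv (fun a ha => h a ha)]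
      decide
    · have : ({e | e ∈ M.P r ∧ v ∈ S.ends e} : Set E) = ∅ := by
        ext e
        simp only [Set.mem_ofPred_eq, Set.mem_empty_iff_false, iff_false]
        rintro ⟨h1, h2⟩
        exact hv ((M.vs_iff r v).2 ⟨e, h1, h2⟩)
      rw [this]
      simp

/-- degree of `∑_{r ∈ Q} P r` at `v`, mod 2 -/
theorem zc_deg (M : PEmb S G) (Q : Finset R) (v : V) :
    (∑ e, if v ∈ S.ends e then zc M Q e else 0) =
      (((Q.filter fun r => ∃ a ∈ G.ends r, v = M.pt a).card : ℕ) : ZMod 2) := by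
  have h1 : (∑ e, if v ∈ S.ends e then zc M Q e else 0) =
      ∑ e, ∑ r ∈ Q, if v ∈ S.ends e then (if e ∈ M.P r then (1 : ZMod 2) else 0) else 0 := by
    apply Finset.sum_congr rfl
    intro e _
    by_cases h : v ∈ S.ends e
    · simp only [h, if_true]
      exact zc_sum M Q e
    · simp [h]
  rw [h1, Finset.sum_comm, Finset.sum_congr rfl (fun r _ => deg_cast M r v), Finset.sum_boole]

theorem zc_deg_pt (M : PEmb S G) (Q : Finset R) (a : N) :
    (∑ e, if M.pt a ∈ S.ends e then zc M Q e else 0) =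
      ((({r | r ∈ Q ∧ a ∈ G.ends r} : Set R).ncard : ℕ) : ZMod 2) := by
  rw [zc_deg]
  congr 1
  rw [← Set.ncard_coe_finset]
  congr 1
  ext r
  simp only [Finset.coe_filter, Set.mem_ofPred_eq]
  constructor
  · rintro ⟨h, b, hb, hab⟩
    exact ⟨h, by rwa [M.inj hab]⟩
  · rintro ⟨h, ha⟩
    exact ⟨h, a, ha, rfl⟩

/-- the boundary of a face is even -/
theorem zc_bd_even (M : PEmb S G) (x : X) (v : V) :
    (∑ e, if v ∈ S.ends e then zc M (G.bd x) e else 0) = 0 := by
  by_cases h : ∃ a, v = M.pt a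
  · obtain ⟨a, rfl⟩ := h
    rw [zc_deg_pt]
    rcases G.deg x a with h | h
    · rw [h]; simp
    · rw [h]; decide
  · rw [zc_deg]
    have : ((G.bd x).filter fun r => ∃ a ∈ G.ends r, v = M.pt a) = ∅ := by
      apply Finset.filter_eq_empty_iff.2
      rintro r _ ⟨a, _, ha⟩
      exact h ⟨a, ha⟩
    rw [this]
    simp

/-- the boundary of a set of tiles is even -/
theorem bd_even [Finite T] (hev : ∀ (f : T) (v : V), Even {e | S.On f e ∧ v ∈ S.ends e}.ncard)
    {u : T → ZMod 2} {z : E → ZMod 2} (hb : S.Bd u z) (v : V) :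
    (∑ e, if v ∈ S.ends e then z e else 0) = 0 := by
  have := Fintype.ofFinite T
  have hz : ∀ e, z e = ∑ f, if S.On f e then u f else 0 := by
    intro e
    obtain ⟨f, g, hfg, hh⟩ := S.two e
    rw [hb e f g hfg ((hh f).2 (Or.inl rfl)) ((hh g).2 (Or.inr rfl))]
    have : (∑ h, if S.On h e then u h else 0) = ∑ h ∈ ({f, g} : Finset T), u h := by
      rw [← Finset.sum_filter]
      apply Finset.sum_congr _ (fun _ _ => rfl)
      ext h
      simp [hh h]
    rw [this, Finset.sum_pair hfg]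
  have h1 : (∑ e, if v ∈ S.ends e then z e else 0) =
      ∑ e, ∑ f, if (S.On f e ∧ v ∈ S.ends e) then u f else 0 := by
    apply Finset.sum_congr rfl
    intro e _
    by_cases h : v ∈ S.ends e
    · rw [if_pos h, hz e]
      apply Finset.sum_congr rfl
      intro f _
      simp [h]
    · simp [h]
  rw [h1, Finset.sum_comm]
  apply Finset.sum_eq_zero
  intro f _
  rw [← Finset.sum_filter, Finset.sum_const]
  have h2 : (Finset.univ.filter fun e => S.On f e ∧ v ∈ S.ends e).card =
      ({e | S.On f e ∧ v ∈ S.ends e} : Set E).ncard := by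
    rw [← Set.ncard_coe_finset]
    congr 1
    ext e
    simp
  rw [h2]
  obtain ⟨k, hk⟩ := hev f v
  rw [hk, add_smul]
  exact z2_add_self _

/-- propagation along a path -/
theorem prop_path (M : PEmb S G) (A : Set T) (r : R)
    (h1 : ∀ e, (e ∈ M.P r ∨ ∀ r', e ∉ M.P r') → ∀ f g, S.On f e → S.On g e → f ∈ A → g ∈ A)
    {e₀ : E} (he₀ : e₀ ∈ M.P r) {f₀ : T} (hf₀ : S.On f₀ e₀) (hA : f₀ ∈ A) :
    ∀ e ∈ M.P r, ∀ f, S.On f e → f ∈ A := by
  have hQ := M.pconn r ((M.P r).filter fun e => ∀ f, S.On f e → f ∈ A) (Finset.filter_subset _ _)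
    ⟨e₀, Finset.mem_filter.2 ⟨he₀, fun f hf => h1 e₀ (Or.inl he₀) f₀ f hf₀ hf hA⟩⟩ ?_
  · intro e he f hf
    rw [← hQ] at he
    exact (Finset.mem_filter.1 he).2 f hf
  · intro e he v hv e' he' hv'
    obtain ⟨heP, heA⟩ := Finset.mem_filter.1 he
    by_cases hn : ∃ a ∈ G.ends r, v = M.pt a
    · obtain ⟨a, ha, rfl⟩ := hn
      have hc := M.deg_end r a ha
      obtain ⟨e₁, he₁⟩ := Set.ncard_eq_one.1 hc
      have h2 : e ∈ ({e₁} : Set E) := by rw [← he₁]; exact ⟨heP, hv⟩
      have h3 : e' ∈ ({e₁} : Set E) := by rw [← he₁]; exact ⟨he', hv'⟩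
      rw [Set.mem_singleton_iff] at h2 h3
      rw [h3, ← h2]
      exact he
    · push Not at hn
      refine Finset.mem_filter.2 ⟨he', fun g hg => ?_⟩
      obtain ⟨f, _, _, hf⟩ := S.two e
      have hfe : S.On f e := (hf f).2 (Or.inl rfl)
      have hvr : v ∈ M.vs r := (M.vs_iff r v).2 ⟨e, heP, hv⟩
      refine S.link v A ?_ e hv f hfe (heA f hfe) e' hv' g hg
      intro e'' hv'' f' g' hf' hg' hA'
      refine h1 e'' ?_ f' g' hf' hg' hA'
      by_cases hr' : ∃ r', e'' ∈ M.P r'
      · obtain ⟨r', hr'⟩ := hr'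
        left
        by_cases hrr : r = r'
        · rw [hrr]; exact hr'
        · obtain ⟨a, ha, _, hva⟩ := M.meet r r' hrr v hvr ((M.vs_iff r' v).2 ⟨e'', hr', hv''⟩)
          exact absurd hva (hn a ha)
      · right
        push Not at hr'
        exact hr'

/-- propagation at a node -/
theorem prop_node (M : PEmb S G) (A : Set T) (a : N)
    (h1 : ∀ e, ((∃ r, a ∈ G.ends r ∧ e ∈ M.P r) ∨ ∀ r', e ∉ M.P r') →
      ∀ f g, S.On f e → S.On g e → f ∈ A → g ∈ A) {r r' : R} (hr : a ∈ G.ends r)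
    (hr' : a ∈ G.ends r') (hA : ∀ e ∈ M.P r, ∀ f, S.On f e → f ∈ A) :
    ∀ e ∈ M.P r', ∀ f, S.On f e → f ∈ A := by
  obtain ⟨e, heP, hev⟩ := (M.vs_iff r (M.pt a)).1 (M.ends_mem r a hr)
  obtain ⟨e', heP', hev'⟩ := (M.vs_iff r' (M.pt a)).1 (M.ends_mem r' a hr')
  obtain ⟨f, _, _, hf⟩ := S.two e
  have hfe : S.On f e := (hf f).2 (Or.inl rfl)
  obtain ⟨f', _, _, hf'⟩ := S.two e'
  have hfe' : S.On f' e' := (hf' f').2 (Or.inl rfl)
  refine prop_path M A r' ?_ heP' hfe' ?_
  · intro e'' h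
    refine h1 e'' ?_
    rcases h with h | h
    · exact Or.inl ⟨r', hr', h⟩
    · exact Or.inr h
  · refine S.link (M.pt a) A ?_ e hev f hfe (hA e heP f hfe) e' hev' f' hfe'
    intro e'' hv'' f'' g'' hf'' hg'' hA''
    refine h1 e'' ?_ f'' g'' hf'' hg'' hA''
    by_cases hr'' : ∃ r'', e'' ∈ M.P r''
    · obtain ⟨r'', hr''⟩ := hr''
      exact Or.inl ⟨r'', node_mem M ((M.vs_iff r'' _).2 ⟨e'', hr'', hv''⟩), hr''⟩
    · right
      push Not at hr''
      exact hr''

theorem bd_eq {w : T → ZMod 2} {z : E → ZMod 2} (hb : S.Bd w z) {e : E} (hz : z e = 0) {f g : T}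
    (hf : S.On f e) (hg : S.On g e) : w f = w g := by
  by_cases h : f = g
  · rw [h]
  · have := hb e f g h hf hg
    rw [hz] at this
    exact z2_eq_of_add this.symm

/-- the face `x`, normalised -/
theorem exists_w (M : PEmb S G) (x : X) : ∃ w : T → ZMod 2, S.Bd w (zc M (G.bd x)) ∧
    ∀ r, r ∉ G.bd x → ∀ e ∈ M.P r, ∀ f, S.On f e → w f = 0 := by
  obtain ⟨w₀, hw₀⟩ := S.sep (zc M (G.bd x)) (fun v => by convert zc_bd_even M x v)
  obtain ⟨r₀, hr₀⟩ := G.out x
  obtain ⟨e₀, he₀⟩ := P_nonempty M r₀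
  obtain ⟨f₀, _, _, hf₀⟩ := S.two e₀
  have hfe₀ : S.On f₀ e₀ := (hf₀ f₀).2 (Or.inl rfl)
  have hb : S.Bd (fun f => w₀ f + w₀ f₀) (zc M (G.bd x)) := by
    intro e f g hfg hf hg
    rw [hw₀ e f g hfg hf hg]
    show w₀ f + w₀ g = (w₀ f + w₀ f₀) + (w₀ g + w₀ f₀)
    generalize w₀ f₀ = c
    generalize w₀ f = a
    generalize w₀ g = b
    revert a b c
    decide
  refine ⟨fun f => w₀ f + w₀ f₀, hb, ?_⟩
  have key : ∀ (e : E), ((∃ r, r ∉ G.bd x ∧ e ∈ M.P r) ∨ ∀ r', e ∉ M.P r') → ∀ f g, S.On f e →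
      S.On g e → f ∈ {f | w₀ f + w₀ f₀ = 0} → g ∈ {f | w₀ f + w₀ f₀ = 0} := by
    intro e he f g hf hg hA
    have hz : zc M (G.bd x) e = 0 := by
      rcases he with ⟨r, hr, he⟩ | he
      · rw [zc_path M _ he, if_neg hr]
      · exact zc_off M _ he
    have := bd_eq hb hz hf hg
    simp only [Set.mem_ofPred_eq] at hA ⊢
    rw [← this]
    exact hA
  have h0 : r₀ ∈ {r | ∀ e ∈ M.P r, ∀ f, S.On f e → f ∈ {f | w₀ f + w₀ f₀ = 0}} := by
    refine prop_path M _ r₀ ?_ he₀ hfe₀ (z2_add_self _)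
    intro e he
    refine key e ?_
    rcases he with he | he
    · exact Or.inl ⟨r₀, hr₀, he⟩
    · exact Or.inr he
  intro r hr
  exact G.conn x {r | ∀ e ∈ M.P r, ∀ f, S.On f e → f ∈ {f | w₀ f + w₀ f₀ = 0}} (by
    intro a ha r r' har har' hA
    refine prop_node M _ a ?_ har har' hA
    intro e he
    refine key e ?_
    rcases he with ⟨r'', h1, h2⟩ | he
    · exact Or.inl ⟨r'', fun h => ha r'' h h1, h2⟩
    · exact Or.inr he) r₀ r hr₀ hr h0

/-- two faces with the same boundary: impossible -/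
theorem bd_inj (G : Cub N R X) {x y : X} (hxy : x ≠ y) : G.bd x ≠ G.bd y := by
  intro hb
  obtain ⟨r₀, hr₀⟩ := G.bd_ne x
  obtain ⟨a, ha⟩ : ∃ a, a ∈ G.ends r₀ := by
    induction hs : G.ends r₀ with
    | _ u v => exact ⟨u, by simp⟩
  have h3 := G.three a
  have hfin : ({r | a ∈ G.ends r} : Set R).Finite := Set.finite_of_ncard_ne_zero (by omega)
  have h2 : ({r | r ∈ G.bd x ∧ a ∈ G.ends r} : Set R).ncard = 2 := by
    rcases G.deg x a with h | h
    · rw [Set.ncard_eq_zero (hfin.subset (fun r hr => hr.2))] at h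
      have : r₀ ∈ ({r | r ∈ G.bd x ∧ a ∈ G.ends r} : Set R) := ⟨hr₀, ha⟩
      rw [h] at this
      exact absurd this (Set.notMem_empty _)
    · exact h
  -- the third edge
  have h1 : (({r | a ∈ G.ends r} : Set R) \ {r | r ∈ G.bd x ∧ a ∈ G.ends r}).ncard = 1 := by
    rw [Set.ncard_sdiff (fun r hr => hr.2) (hfin.subset (fun r hr => hr.2)), h3, h2]
  obtain ⟨r₂, hr₂⟩ := Set.ncard_eq_one.1 h1
  have hr₂' : r₂ ∈ (({r | a ∈ G.ends r} : Set R) \ {r | r ∈ G.bd x ∧ a ∈ G.ends r}) := by
    rw [hr₂]; rfl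
  have ha₂ : a ∈ G.ends r₂ := hr₂'.1
  have hx₂ : r₂ ∉ G.bd x := fun h => hr₂'.2 ⟨h, ha₂⟩
  obtain ⟨p, _, _, hp⟩ := G.twoF r₂
  have hp₂ : r₂ ∈ G.bd p := (hp p).2 (Or.inl rfl)
  have h4 : ({r | r ∈ G.bd p ∧ a ∈ G.ends r} : Set R).ncard = 2 := by
    rcases G.deg p a with h | h
    · rw [Set.ncard_eq_zero (hfin.subset (fun r hr => hr.2))] at h
      have : r₂ ∈ ({r | r ∈ G.bd p ∧ a ∈ G.ends r} : Set R) := ⟨hp₂, ha₂⟩
      rw [h] at this
      exact absurd this (Set.notMem_empty _)
    · exact h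
  obtain ⟨r₁, hr₁, hne⟩ := Set.exists_ne_of_one_lt_ncard
    (show 1 < ({r | r ∈ G.bd p ∧ a ∈ G.ends r} : Set R).ncard by omega) r₂
  have hx₁ : r₁ ∈ G.bd x := by
    by_contra hn
    have : r₁ ∈ (({r | a ∈ G.ends r} : Set R) \ {r | r ∈ G.bd x ∧ a ∈ G.ends r}) :=
      ⟨hr₁.2, fun h => hn h.1⟩
    rw [hr₂] at this
    exact hne this
  obtain ⟨x', y', _, hh⟩ := G.twoF r₁
  have hpx : p ≠ x := by
    rintro rfl
    exact hx₂ hp₂
  have hpy : p ≠ y := by
    rintro rfl
    rw [hb] at hx₂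
    exact hx₂ hp₂
  have e1 := (hh x).1 hx₁
  have e2 := (hh y).1 (hb ▸ hx₁)
  have e3 := (hh p).1 hr₁.1
  rcases e1 with e1 | e1 <;> rcases e2 with e2 | e2 <;> rcases e3 with e3 | e3
  · exact hxy (e1.trans e2.symm)
  · exact hxy (e1.trans e2.symm)
  · exact hpx (e3.trans e1.symm)
  · exact hpy (e3.trans e2.symm)
  · exact hpy (e3.trans e2.symm)
  · exact hpx (e3.trans e1.symm)
  · exact hxy (e1.trans e2.symm)
  · exact hxy (e1.trans e2.symm)

/-- **(ABS2)** the faces of an embedded copy of `G`. -/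
theorem exists_emb (M : PEmb S G)
    (hev : ∀ (f : T) (v : V), Even {e | S.On f e ∧ v ∈ S.ends e}.ncard)
    [Finite T] [Finite X] [Nonempty X] : ∃ M' : Emb S G, M'.toPEmb = M := by
  have := Fintype.ofFinite X
  choose w hbd hout using exists_w M
  -- the sum of the faces is constant
  have hsum : ∀ f g, ∑ x, w x f = ∑ x, w x g := by
    refine S.conn (fun f => ∑ x, w x f) ?_
    intro e f g hf hg
    by_cases hfg : f = g
    · rw [hfg]
    apply z2_eq_of_add
    rw [← Finset.sum_add_distrib, ← Finset.sum_congr rfl (fun x _ => hbd x e f g hfg hf hg)]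
    by_cases h : ∃ r, e ∈ M.P r
    · obtain ⟨r, hr⟩ := h
      rw [Finset.sum_congr rfl (fun x _ => zc_path M (G.bd x) hr)]
      obtain ⟨x, y, hxy, hh⟩ := G.twoF r
      have : (∑ z, if r ∈ G.bd z then (1 : ZMod 2) else 0) = ∑ z ∈ ({x, y} : Finset X), 1 := by
        rw [← Finset.sum_filter]
        apply Finset.sum_congr _ (fun _ _ => rfl)
        ext z
        simp [hh z]
      rw [this, Finset.sum_pair hxy]
      decide
    · push Not at h
      exact Finset.sum_eq_zero (fun x _ => zc_off M _ h)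
  -- next to a path only its two faces are present
  have hD : ∀ r x y, x ≠ y → r ∈ G.bd x → r ∈ G.bd y → ∀ e ∈ M.P r, ∀ f, S.On f e →
      w x f + w y f = ∑ z, w z f := by
    intro r x y hxy hx hy e he f hf
    rw [← Finset.sum_pair hxy (f := fun z => w z f)]
    apply Finset.sum_subset (Finset.subset_univ _)
    intro z _ hz
    refine hout z r ?_ e he f hf
    intro hrz
    obtain ⟨x', y', _, hh⟩ := G.twoF r
    have e1 := (hh x).1 hx
    have e2 := (hh y).1 hy
    have e3 := (hh z).1 hrz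
    apply hz
    rw [Finset.mem_insert, Finset.mem_singleton]
    rcases e1 with e1 | e1 <;> rcases e2 with e2 | e2 <;> rcases e3 with e3 | e3 <;>
      first
      | exact absurd (e1.trans e2.symm) hxy
      | exact Or.inl (e3.trans e1.symm)
      | exact Or.inr (e3.trans e2.symm)
  have hone : ∀ f, ∑ x, w x f = 1 := by
    intro f
    rcases z2 (∑ x, w x f) with hc | hc
    · exfalso
      obtain ⟨x⟩ := ‹Nonempty X›
      obtain ⟨r₀, hr₀⟩ := G.bd_ne x
      obtain ⟨y, hyx, hy⟩ : ∃ y, y ≠ x ∧ r₀ ∈ G.bd y := by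
        obtain ⟨x', y', hne, hh⟩ := G.twoF r₀
        rcases (hh x).1 hr₀ with h | h
        · exact ⟨y', by rw [h]; exact hne.symm, (hh y').2 (Or.inr rfl)⟩
        · exact ⟨x', by rw [h]; exact hne, (hh x').2 (Or.inl rfl)⟩
      have hb : S.Bd (fun f => w x f * w y f) (zc M (G.bd x ∩ G.bd y)) := by
        intro e g g' hne hg hg'
        show zc M (G.bd x ∩ G.bd y) e = w x g * w y g + w x g' * w y g'
        have h1 := hbd x e g g' hne hg hg'
        have h2 := hbd y e g g' hne hg hg'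
        by_cases h : ∃ r, e ∈ M.P r
        · obtain ⟨r, hr⟩ := h
          rw [zc_path M _ hr] at h1 h2 ⊢
          by_cases hx : r ∈ G.bd x
          · by_cases hy' : r ∈ G.bd y
            · rw [if_pos (Finset.mem_inter.2 ⟨hx, hy'⟩)]
              rw [if_pos hx] at h1
              rw [if_pos hy'] at h2
              have h3 := hD r x y hyx.symm hx hy' e hr g hg
              have h4 := hD r x y hyx.symm hx hy' e hr g' hg'
              rw [hsum g f, hc] at h3
              rw [hsum g' f, hc] at h4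
              revert h1 h2 h3 h4
              generalize w x g = a
              generalize w y g = b
              generalize w x g' = c
              generalize w y g' = d
              revert a b c d
              decide
            · rw [if_neg (fun h => hy' (Finset.mem_inter.1 h).2)]
              rw [hout y r hy' e hr g hg, hout y r hy' e hr g' hg']
              simp
          · rw [if_neg (fun h => hx (Finset.mem_inter.1 h).1)]
            rw [hout x r hx e hr g hg, hout x r hx e hr g' hg']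
            simp
        · push Not at h
          rw [zc_off M _ h] at h1 h2 ⊢
          rw [z2_eq_of_add h1.symm, z2_eq_of_add h2.symm]
          exact (z2_add_self _).symm
      have hq : ∀ a, Even {r | r ∈ G.bd x ∩ G.bd y ∧ a ∈ G.ends r}.ncard := by
        intro a
        have h1 := bd_even hev hb (M.pt a)
        rw [zc_deg_pt] at h1
        rw [ZMod.natCast_eq_zero_iff_even] at h1
        exact h1
      have hne : G.bd x ∩ G.bd y ≠ ∅ :=
        Finset.nonempty_iff_ne_empty.1 ⟨r₀, Finset.mem_inter.2 ⟨hr₀, hy⟩⟩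
      have e1 := (G.simple x _ Finset.inter_subset_left hq).resolve_left hne
      have e2 := (G.simple y _ Finset.inter_subset_right hq).resolve_left hne
      exact bd_inj G hyx.symm (e1.symm.trans e2)
    · exact hc
  -- different faces are disjoint
  have hdis : ∀ x y, x ≠ y → ∀ f, w x f * w y f = 0 := by
    intro x y hxy
    have hcon : ∀ f g, w x f * w y f = w x g * w y g := by
      refine S.conn (fun f => w x f * w y f) ?_
      intro e g g' hg hg'
      show w x g * w y g = w x g' * w y g'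
      by_cases hne : g = g'
      · rw [hne]
      have h1 := hbd x e g g' hne hg hg'
      have h2 := hbd y e g g' hne hg hg'
      by_cases h : ∃ r, e ∈ M.P r
      · obtain ⟨r, hr⟩ := h
        by_cases hx : r ∈ G.bd x
        · by_cases hy' : r ∈ G.bd y
          · have h3 := hD r x y hxy hx hy' e hr g hg
            have h4 := hD r x y hxy hx hy' e hr g' hg'
            rw [hone] at h3 h4
            clear h1 h2
            revert h3 h4
            generalize w x g = a
            generalize w y g = b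
            generalize w x g' = c
            generalize w y g' = d
            revert a b c d
            decide
          · rw [hout y r hy' e hr g hg, hout y r hy' e hr g' hg']
            simp
        · rw [hout x r hx e hr g hg, hout x r hx e hr g' hg']
          simp
      · push Not at h
        rw [zc_off M _ h] at h1 h2
        rw [z2_eq_of_add h1.symm, z2_eq_of_add h2.symm]
    obtain ⟨r, hr⟩ := G.out x
    obtain ⟨e, he⟩ := P_nonempty M r
    obtain ⟨g, _, _, hg⟩ := S.two e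
    intro f
    rw [hcon f g, hout x r hr e he g ((hg g).2 (Or.inl rfl)), zero_mul]
  refine ⟨{ M with
    w := w
    w_bd := fun x => hbd x
    w_one := ?_
    w_out := hout }, rfl⟩
  intro f
  obtain ⟨x, _, hx⟩ := Finset.exists_ne_zero_of_sum_ne_zero
    (show ∑ x, w x f ≠ 0 by rw [hone f]; decide)
  have hx1 : w x f = 1 := (z2 _).resolve_left hx
  refine ⟨x, hx1, ?_⟩
  intro y hy
  by_contra hne
  have := hdis y x hne f
  have hy' : w y f = 1 := hy
  rw [hy', hx1] at this
  exact absurd this (by decide)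

end Crest.Agent.R096.Spf_923
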