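import Crest.Agent.R096.Sph0_560

/-!
# R096 (row 96), DOORS (D6) / SPH, (G2) part 1 (helper560): cutting a face of a cubic graph

`Cut G` : a face `x`, two edges `r i` of it, and sides of the nodes; `Cut.split : Cub _ _ _`
is the graph with the new edge between the middles of `r false` and `r true`.
-/

set_option autoImplicit false

namespace Crest.Agent.R096.Sph_560

variable {N R X : Type*}

/-- two faces have at most one edge in common -/
def Cub.Share (G : Cub N R X) : Prop :=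
  ∀ x y, x ≠ y → ∀ r r', r ∈ G.bd x → r ∈ G.bd y → r' ∈ G.bd x → r' ∈ G.bd y → r = r'

/-- the datum of a cut of the face `x` through its edges `r i` -/
structure Cut (G : Cub N R X) where
  x : X
  r : Bool → R
  ne : r false ≠ r true
  a : Bool → N
  b : Bool → N
  sg : N → Bool
  hends : ∀ i, G.ends (r i) = s(a i, b i)
  ha : ∀ i, sg (a i) = true
  hb : ∀ i, sg (b i) = false
  mem : ∀ i, r i ∈ G.bd x
  cross : ∀ ρ ∈ G.bd x, (∀ i, ρ ≠ r i) → ∀ c ∈ G.ends ρ, ∀ d ∈ G.ends ρ, sg c = sg d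

namespace Cut

variable {G : Cub N R X} (C : Cut G)

theorem rinj {i j : Bool} (h : C.r i = C.r j) : i = j := by
  rcases i with _ | _ <;> rcases j with _ | _
  · rfl
  · exact absurd h C.ne
  · exact absurd h.symm C.ne
  · rfl

theorem aM (i : Bool) : C.a i ∈ G.ends (C.r i) := by rw [C.hends i]; exact Sym2.mem_mk_left _ _

theorem bM (i : Bool) : C.b i ∈ G.ends (C.r i) := by rw [C.hends i]; exact Sym2.mem_mk_right _ _

theorem a_ne_b (i j : Bool) : C.a i ≠ C.b j := by
  intro h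
  have h1 := C.ha i
  rw [h, C.hb j] at h1
  exact Bool.noConfusion h1

open Classical in
/-- the ends of the new edges -/
noncomputable def ends' : R ⊕ Option Bool → Sym2 (N ⊕ Bool)
  | .inl ρ => if h : ∃ i, ρ = C.r i then s(.inl (C.a h.choose), .inr h.choose)
      else (G.ends ρ).map .inl
  | .inr (some i) => s(.inr i, .inl (C.b i))
  | .inr none => s(.inr false, .inr true)

theorem ends'_r (i : Bool) : C.ends' (.inl (C.r i)) = s(.inl (C.a i), .inr i) := by
  have h : ∃ j, C.r i = C.r j := ⟨i, rfl⟩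
  have hi : h.choose = i := (C.rinj h.choose_spec).symm
  simp only [ends', dif_pos h, hi]

theorem ends'_old {ρ : R} (h : ∀ i, ρ ≠ C.r i) : C.ends' (.inl ρ) = (G.ends ρ).map .inl := by
  have h' : ¬ ∃ i, ρ = C.r i := by
    rintro ⟨i, hi⟩; exact h i hi
  simp only [ends', dif_neg h']

theorem inl_mem_inl {c : N} {ρ : R} : Sum.inl c ∈ C.ends' (.inl ρ) ↔
    c ∈ G.ends ρ ∧ ∀ i, ρ = C.r i → c ≠ C.b i := by
  by_cases h : ∃ i, ρ = C.r i
  · obtain ⟨i, rfl⟩ := h
    rw [C.ends'_r i, C.hends i, Sym2.mem_iff, Sym2.mem_iff]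
    constructor
    · rintro (h | h)
      · have h' : c = C.a i := Sum.inl_injective h
        refine ⟨Or.inl h', fun j hj => ?_⟩
        rw [h']; exact C.a_ne_b i j
      · exact absurd h (by simp)
    · rintro ⟨h | h, h2⟩
      · left; rw [h]
      · exact absurd h (h2 i rfl)
  · have h' : ∀ i, ρ ≠ C.r i := fun i hi => h ⟨i, hi⟩
    rw [C.ends'_old h', Sym2.mem_map]
    constructor
    · rintro ⟨d, hd, hdc⟩
      rw [← Sum.inl_injective hdc]
      exact ⟨hd, fun i hi => absurd hi (h' i)⟩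
    · rintro ⟨hc, -⟩
      exact ⟨c, hc, rfl⟩

theorem inr_mem_inl {i : Bool} {ρ : R} : (Sum.inr i : N ⊕ Bool) ∈ C.ends' (.inl ρ) ↔
    ρ = C.r i := by
  by_cases h : ∃ i, ρ = C.r i
  · obtain ⟨j, rfl⟩ := h
    rw [C.ends'_r j, Sym2.mem_iff]
    constructor
    · rintro (h | h)
      · exact absurd h (by simp)
      · rw [Sum.inr_injective h]
    · intro h
      right; rw [C.rinj h]
  · have h' : ∀ i, ρ ≠ C.r i := fun i hi => h ⟨i, hi⟩
    rw [C.ends'_old h', Sym2.mem_map]
    constructor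
    · rintro ⟨d, -, hdc⟩
      exact absurd hdc (by simp)
    · intro hi; exact absurd hi (h' i)

theorem inl_mem_some {c : N} {i : Bool} : Sum.inl c ∈ C.ends' (.inr (some i)) ↔ c = C.b i := by
  show Sum.inl c ∈ (s(.inr i, .inl (C.b i)) : Sym2 (N ⊕ Bool)) ↔ c = C.b i
  rw [Sym2.mem_iff]
  simp

theorem inr_mem_some {j i : Bool} : (Sum.inr j : N ⊕ Bool) ∈ C.ends' (.inr (some i)) ↔ j = i := by
  show Sum.inr j ∈ (s(.inr i, .inl (C.b i)) : Sym2 (N ⊕ Bool)) ↔ j = i
  rw [Sym2.mem_iff]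
  simp

theorem inl_mem_none {c : N} : ¬ Sum.inl c ∈ C.ends' (.inr none) := by
  show ¬ Sum.inl c ∈ (s(.inr false, .inr true) : Sym2 (N ⊕ Bool))
  rw [Sym2.mem_iff]
  simp

theorem inr_mem_none {j : Bool} : (Sum.inr j : N ⊕ Bool) ∈ C.ends' (.inr none) := by
  show Sum.inr j ∈ (s(.inr false, .inr true) : Sym2 (N ⊕ Bool))
  rw [Sym2.mem_iff]
  rcases j with _ | _
  · left; rfl
  · right; rfl

open Classical in
/-- the new edge at the old node `c` which comes from `ρ` -/
noncomputable def φ (c : N) (ρ : R) : R ⊕ Option Bool :=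
  if h : ∃ i, ρ = C.r i ∧ c = C.b i then .inr (some h.choose) else .inl ρ

theorem φ_b (i : Bool) : C.φ (C.b i) (C.r i) = .inr (some i) := by
  have h : ∃ j, C.r i = C.r j ∧ C.b i = C.b j := ⟨i, rfl, rfl⟩
  have hi : h.choose = i := (C.rinj h.choose_spec.1).symm
  unfold φ
  rw [dif_pos h, hi]

theorem φ_old {c : N} {ρ : R} (h : ∀ i, ρ = C.r i → c ≠ C.b i) : C.φ c ρ = .inl ρ := by
  have h' : ¬ ∃ i, ρ = C.r i ∧ c = C.b i := by
    rintro ⟨i, h1, h2⟩; exact h i h1 h2
  unfold φ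
  rw [dif_neg h']

theorem φ_cases (c : N) (ρ : R) : (∃ i, ρ = C.r i ∧ c = C.b i ∧ C.φ c ρ = .inr (some i)) ∨
    ((∀ i, ρ = C.r i → c ≠ C.b i) ∧ C.φ c ρ = .inl ρ) := by
  by_cases h : ∃ i, ρ = C.r i ∧ c = C.b i
  · obtain ⟨i, rfl, rfl⟩ := h
    exact Or.inl ⟨i, rfl, rfl, C.φ_b i⟩
  · have h' : ∀ i, ρ = C.r i → c ≠ C.b i := fun i h1 h2 => h ⟨i, h1, h2⟩
    exact Or.inr ⟨h', C.φ_old h'⟩

theorem φ_inj (c : N) : Function.Injective (C.φ c) := by
  intro ρ ρ' h
  rcases C.φ_cases c ρ with ⟨i, h1, h2, h3⟩ | ⟨h1, h3⟩ <;>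
    rcases C.φ_cases c ρ' with ⟨j, h1', h2', h3'⟩ | ⟨h1', h3'⟩
  · rw [h3, h3'] at h
    have : i = j := by simpa using h
    rw [h1, h1', this]
  · rw [h3, h3'] at h; exact absurd h (by simp)
  · rw [h3, h3'] at h; exact absurd h (by simp)
  · rw [h3, h3'] at h; exact Sum.inl_injective h

/-- the edges at an old node -/
theorem inl_mem {c : N} {q : R ⊕ Option Bool} : Sum.inl c ∈ C.ends' q ↔
    ∃ ρ, c ∈ G.ends ρ ∧ C.φ c ρ = q := by
  constructor
  · intro h
    rcases q with ρ | (_ | i)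
    · have h' := C.inl_mem_inl.1 h
      exact ⟨ρ, h'.1, C.φ_old h'.2⟩
    · exact absurd h C.inl_mem_none
    · have h' := C.inl_mem_some.1 h
      refine ⟨C.r i, ?_, ?_⟩
      · rw [h']; exact C.bM i
      · rw [h']; exact C.φ_b i
  · rintro ⟨ρ, hc, rfl⟩
    rcases C.φ_cases c ρ with ⟨i, h1, h2, h3⟩ | ⟨h1, h3⟩
    · rw [h3, C.inl_mem_some]; exact h2
    · rw [h3, C.inl_mem_inl]; exact ⟨hc, h1⟩

/-- the edges at a new node -/
theorem inr_mem {i : Bool} {q : R ⊕ Option Bool} : (Sum.inr i : N ⊕ Bool) ∈ C.ends' q ↔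
    q = .inl (C.r i) ∨ q = .inr (some i) ∨ q = .inr none := by
  rcases q with ρ | (_ | j)
  · rw [C.inr_mem_inl]; simp
  · simp [C.inr_mem_none]
  · rw [C.inr_mem_some]; simp [eq_comm]

open Classical in
/-- the boundaries of the new faces: `some x` is the positive part, `none` the negative part -/
noncomputable def bd' : Option X → Finset (R ⊕ Option Bool)
  | some y => (if y = C.x then (G.bd y).filter (fun ρ => ∃ c ∈ G.ends ρ, C.sg c = true)
      else G.bd y).disjSum (Finset.univ.filter fun o =>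
        (o = none ∧ y = C.x) ∨ (y ≠ C.x ∧ ∃ i, o = some i ∧ C.r i ∈ G.bd y))
  | none => ((G.bd C.x).filter (fun ρ => ∀ c ∈ G.ends ρ, C.sg c = false)).disjSum Finset.univ

theorem inl_bd_x {ρ : R} : Sum.inl ρ ∈ C.bd' (some C.x) ↔
    ρ ∈ G.bd C.x ∧ ∃ c ∈ G.ends ρ, C.sg c = true := by
  classical
  simp only [bd', if_true, Finset.inl_mem_disjSum, Finset.mem_filter]

theorem inl_bd_some {y : X} (hy : y ≠ C.x) {ρ : R} : Sum.inl ρ ∈ C.bd' (some y) ↔
    ρ ∈ G.bd y := by
  classical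
  simp only [bd', if_neg hy, Finset.inl_mem_disjSum]

theorem inl_bd_none {ρ : R} : Sum.inl ρ ∈ C.bd' none ↔
    ρ ∈ G.bd C.x ∧ ∀ c ∈ G.ends ρ, C.sg c = false := by
  classical
  simp only [bd', Finset.inl_mem_disjSum, Finset.mem_filter]

theorem some_bd_x {i : Bool} : ¬ Sum.inr (some i) ∈ C.bd' (some C.x) := by
  classical
  simp [bd', Finset.inr_mem_disjSum]

theorem none_bd_x : Sum.inr none ∈ C.bd' (some C.x) := by
  classical
  simp [bd', Finset.inr_mem_disjSum]

theorem some_bd_some {y : X} (hy : y ≠ C.x) {i : Bool} : Sum.inr (some i) ∈ C.bd' (some y) ↔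
    C.r i ∈ G.bd y := by
  classical
  rcases i with _ | _ <;> simp [bd', Finset.inr_mem_disjSum, hy]

theorem none_bd_some {y : X} (hy : y ≠ C.x) : ¬ Sum.inr none ∈ C.bd' (some y) := by
  classical
  simp [bd', Finset.inr_mem_disjSum, hy]

theorem some_bd_none {o : Option Bool} : Sum.inr o ∈ C.bd' none := by
  classical
  simp [bd', Finset.inr_mem_disjSum]

/-- the old face of a new face -/
def old : Option X → X
  | some y => y
  | none => C.x

/-- the edge `φ c ρ` on another face -/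
theorem φ_bd {y : X} (hy : y ≠ C.x) (c : N) (ρ : R) :
    C.φ c ρ ∈ C.bd' (some y) ↔ ρ ∈ G.bd y := by
  rcases C.φ_cases c ρ with ⟨i, h1, h2, h3⟩ | ⟨h1, h3⟩
  · rw [h3, C.some_bd_some hy, h1]
  · rw [h3, C.inl_bd_some hy]

/-- the edge `φ c ρ` at a positive node -/
theorem φ_bd_x {c : N} (hc : C.sg c = true) {ρ : R} (hcρ : c ∈ G.ends ρ) :
    C.φ c ρ ∈ C.bd' (some C.x) ↔ ρ ∈ G.bd C.x := by
  rcases C.φ_cases c ρ with ⟨i, h1, h2, h3⟩ | ⟨h1, h3⟩
  · rw [h2, C.hb] at hc; exact Bool.noConfusion hc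
  · rw [h3, C.inl_bd_x]
    exact ⟨fun h => h.1, fun h => ⟨h, c, hcρ, hc⟩⟩

theorem φ_bd_x' {c : N} (hc : C.sg c = false) {ρ : R} (hcρ : c ∈ G.ends ρ) :
    ¬ C.φ c ρ ∈ C.bd' (some C.x) := by
  rcases C.φ_cases c ρ with ⟨i, h1, h2, h3⟩ | ⟨h1, h3⟩
  · rw [h3]; exact C.some_bd_x
  · rw [h3, C.inl_bd_x]
    rintro ⟨hρ, d, hd, hd'⟩
    by_cases h : ∃ i, ρ = C.r i
    · obtain ⟨i, rfl⟩ := h
      rw [C.hends i, Sym2.mem_iff] at hcρ
      rcases hcρ with rfl | rfl
      · rw [C.ha] at hc; exact Bool.noConfusion hc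
      · exact h1 i rfl rfl
    · have := C.cross ρ hρ (fun i hi => h ⟨i, hi⟩) c hcρ d hd
      rw [hc, hd'] at this
      exact Bool.noConfusion this

/-- the edge `φ c ρ` at a negative node -/
theorem φ_bd_none {c : N} (hc : C.sg c = false) {ρ : R} (hcρ : c ∈ G.ends ρ) :
    C.φ c ρ ∈ C.bd' none ↔ ρ ∈ G.bd C.x := by
  rcases C.φ_cases c ρ with ⟨i, h1, h2, h3⟩ | ⟨h1, h3⟩
  · rw [h3, h1]
    exact ⟨fun _ => C.mem i, fun _ => C.some_bd_none⟩
  · rw [h3, C.inl_bd_none]
    refine ⟨fun h => h.1, fun h => ⟨h, fun d hd => ?_⟩⟩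
    by_cases h' : ∃ i, ρ = C.r i
    · obtain ⟨i, rfl⟩ := h'
      rw [C.hends i, Sym2.mem_iff] at hcρ
      rcases hcρ with rfl | rfl
      · rw [C.ha] at hc; exact Bool.noConfusion hc
      · exact absurd rfl (h1 i rfl)
    · rw [← C.cross ρ h (fun i hi => h' ⟨i, hi⟩) c hcρ d hd]; exact hc

theorem φ_bd_none' {c : N} (hc : C.sg c = true) {ρ : R} (hcρ : c ∈ G.ends ρ) :
    ¬ C.φ c ρ ∈ C.bd' none := by
  rcases C.φ_cases c ρ with ⟨i, h1, h2, h3⟩ | ⟨h1, h3⟩
  · rw [h2, C.hb] at hc; exact Bool.noConfusion hc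
  · rw [h3, C.inl_bd_none]
    rintro ⟨-, h⟩
    rw [h c hcρ] at hc; exact Bool.noConfusion hc

/-! ### counting -/

theorem fin3 (c : N) : {r | c ∈ G.ends r}.Finite :=
  Set.finite_of_ncard_ne_zero (by rw [G.three c]; decide)

/-- the edges of a set at an old node -/
theorem ncard_inl (c : N) (A : R → Prop) (A' : R ⊕ Option Bool → Prop)
    (h : ∀ ρ, c ∈ G.ends ρ → (A' (C.φ c ρ) ↔ A ρ)) :
    {q | A' q ∧ Sum.inl c ∈ C.ends' q}.ncard = {ρ | A ρ ∧ c ∈ G.ends ρ}.ncard := by
  have : {q | A' q ∧ Sum.inl c ∈ C.ends' q} = C.φ c '' {ρ | A ρ ∧ c ∈ G.ends ρ} := by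
    ext q
    constructor
    · rintro ⟨hq, hc⟩
      obtain ⟨ρ, hρ, rfl⟩ := C.inl_mem.1 hc
      exact ⟨ρ, ⟨(h ρ hρ).1 hq, hρ⟩, rfl⟩
    · rintro ⟨ρ, ⟨hρA, hρ⟩, rfl⟩
      exact ⟨(h ρ hρ).2 hρA, C.inl_mem.2 ⟨ρ, hρ, rfl⟩⟩
  rw [this, Set.ncard_image_of_injective _ (C.φ_inj c)]

theorem ncard_inl_empty (c : N) (A' : R ⊕ Option Bool → Prop)
    (h : ∀ ρ, c ∈ G.ends ρ → ¬ A' (C.φ c ρ)) :
    {q | A' q ∧ Sum.inl c ∈ C.ends' q}.ncard = 0 := by
  have : {q | A' q ∧ Sum.inl c ∈ C.ends' q} = ∅ := by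
    rw [Set.eq_empty_iff_forall_notMem]
    rintro q ⟨hq, hc⟩
    obtain ⟨ρ, hρ, rfl⟩ := C.inl_mem.1 hc
    exact h ρ hρ hq
  rw [this, Set.ncard_empty]

/-- the edges of a set at a new node -/
theorem inr_set (i : Bool) (A' : R ⊕ Option Bool → Prop) :
    {q | A' q ∧ (Sum.inr i : N ⊕ Bool) ∈ C.ends' q} =
      {q | A' q ∧ (q = .inl (C.r i) ∨ q = .inr (some i) ∨ q = .inr none)} := by
  ext q
  constructor
  · rintro ⟨h1, h2⟩; exact ⟨h1, C.inr_mem.1 h2⟩
  · rintro ⟨h1, h2⟩; exact ⟨h1, C.inr_mem.2 h2⟩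

theorem three' (v : N ⊕ Bool) : {q | v ∈ C.ends' q}.ncard = 3 := by
  rcases v with c | i
  · have := C.ncard_inl c (fun _ => True) (fun _ => True) (fun ρ _ => by simp)
    simp only [true_and] at this
    rw [this, G.three c]
  · have : {q | (Sum.inr i : N ⊕ Bool) ∈ C.ends' q} =
        {.inl (C.r i), .inr (some i), .inr none} := by
      ext q
      exact C.inr_mem
    rw [this, Set.ncard_insert_of_notMem (by simp), Set.ncard_pair (by simp)]

theorem deg' (z : Option X) (v : N ⊕ Bool) :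
    {q | q ∈ C.bd' z ∧ v ∈ C.ends' q}.ncard = 0 ∨ {q | q ∈ C.bd' z ∧ v ∈ C.ends' q}.ncard = 2 := by
  rcases v with c | i
  · rcases z with _ | y
    · rcases h : C.sg c with _ | _
      · rw [C.ncard_inl c (fun ρ => ρ ∈ G.bd C.x) (fun q => q ∈ C.bd' none)
          (fun ρ hρ => C.φ_bd_none h hρ)]
        exact G.deg C.x c
      · left
        exact C.ncard_inl_empty c (fun q => q ∈ C.bd' none) (fun ρ hρ => C.φ_bd_none' h hρ)
    · by_cases hy : y = C.x
      · rw [hy]
        rcases h : C.sg c with _ | _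
        · left
          exact C.ncard_inl_empty c (fun q => q ∈ C.bd' (some C.x)) (fun ρ hρ => C.φ_bd_x' h hρ)
        · rw [C.ncard_inl c (fun ρ => ρ ∈ G.bd C.x) (fun q => q ∈ C.bd' (some C.x))
            (fun ρ hρ => C.φ_bd_x h hρ)]
          exact G.deg C.x c
      · rw [C.ncard_inl c (fun ρ => ρ ∈ G.bd y) (fun q => q ∈ C.bd' (some y))
            (fun ρ _ => C.φ_bd hy c ρ)]
        exact G.deg y c
  · rw [C.inr_set i (fun q => q ∈ C.bd' z)]
    rcases z with _ | y
    · right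
      have : {q | q ∈ C.bd' none ∧ (q = .inl (C.r i) ∨ q = .inr (some i) ∨ q = .inr none)} =
          {.inr (some i), .inr none} := by
        ext q
        constructor
        · rintro ⟨h1, rfl | rfl | rfl⟩
          · exfalso
            have := (C.inl_bd_none.1 h1).2 _ (C.aM i)
            rw [C.ha] at this; exact Bool.noConfusion this
          · exact Or.inl rfl
          · exact Or.inr rfl
        · rintro (rfl | rfl)
          · exact ⟨C.some_bd_none, Or.inr (Or.inl rfl)⟩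
          · exact ⟨C.some_bd_none, Or.inr (Or.inr rfl)⟩
      rw [this, Set.ncard_pair (by simp)]
    · by_cases hy : y = C.x
      · right
        rw [hy]
        have : {q | q ∈ C.bd' (some C.x) ∧
            (q = .inl (C.r i) ∨ q = .inr (some i) ∨ q = .inr none)} =
            {.inl (C.r i), .inr none} := by
          ext q
          constructor
          · rintro ⟨h1, rfl | rfl | rfl⟩
            · exact Or.inl rfl
            · exact absurd h1 C.some_bd_x
            · exact Or.inr rfl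
          · rintro (rfl | rfl)
            · exact ⟨C.inl_bd_x.2 ⟨C.mem i, _, C.aM i, C.ha i⟩, Or.inl rfl⟩
            · exact ⟨C.none_bd_x, Or.inr (Or.inr rfl)⟩
        rw [this, Set.ncard_pair (by simp)]
      · by_cases hi : C.r i ∈ G.bd y
        · right
          have : {q | q ∈ C.bd' (some y) ∧
              (q = .inl (C.r i) ∨ q = .inr (some i) ∨ q = .inr none)} =
              {.inl (C.r i), .inr (some i)} := by
            ext q
            constructor
            · rintro ⟨h1, rfl | rfl | rfl⟩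
              · exact Or.inl rfl
              · exact Or.inr rfl
              · exact absurd h1 (C.none_bd_some hy)
            · rintro (rfl | rfl)
              · exact ⟨(C.inl_bd_some hy).2 hi, Or.inl rfl⟩
              · exact ⟨(C.some_bd_some hy).2 hi, Or.inr (Or.inl rfl)⟩
          rw [this, Set.ncard_pair (by simp)]
        · left
          have : {q | q ∈ C.bd' (some y) ∧
              (q = .inl (C.r i) ∨ q = .inr (some i) ∨ q = .inr none)} = ∅ := by
            rw [Set.eq_empty_iff_forall_notMem]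
            rintro q ⟨h1, rfl | rfl | rfl⟩
            · exact hi ((C.inl_bd_some hy).1 h1)
            · exact hi ((C.some_bd_some hy).1 h1)
            · exact C.none_bd_some hy h1
          rw [this, Set.ncard_empty]

/-! ### simple -/

theorem mem_of_even {α : Type*} {Q : Finset α} {p : α → Prop} {b : α}
    (h : Even {q | q ∈ Q ∧ p q}.ncard) (hb : b ∉ Q) {a : α} (hp : ∀ q, p q → q ∈ Q → q = a ∨ q = b)
    (ha : p a) : a ∉ Q := by
  intro haQ
  have : {q | q ∈ Q ∧ p q} = {a} := by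
    ext q
    constructor
    · rintro ⟨h1, h2⟩
      rcases hp q h2 h1 with rfl | rfl
      · rfl
      · exact absurd h1 hb
    · rintro rfl
      exact ⟨haQ, ha⟩
  rw [this, Set.ncard_singleton] at h
  exact absurd h (by decide)

theorem simple_aux {z : Option X} (hz : z = none ∨ z = some C.x)
    {Q' : Finset (R ⊕ Option Bool)} (hQ : Q' ⊆ C.bd' z)
    (he : ∀ v, Even {q | q ∈ Q' ∧ v ∈ C.ends' q}.ncard) (hn : Sum.inr none ∉ Q') : Q' = ∅ := by
  classical
  have hr : ∀ i, Sum.inl (C.r i) ∉ Q' ∧ Sum.inr (some i) ∉ Q' := by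
    intro i
    rcases hz with rfl | rfl
    · have h1 : Sum.inl (C.r i) ∉ Q' := by
        intro h
        have := (C.inl_bd_none.1 (hQ h)).2 _ (C.aM i)
        rw [C.ha] at this; exact Bool.noConfusion this
      refine ⟨h1, mem_of_even (he (.inr i)) hn (fun q hq hqQ => ?_) (C.inr_mem_some.2 rfl)⟩
      rcases C.inr_mem.1 hq with rfl | rfl | rfl
      · exact absurd hqQ h1
      · exact Or.inl rfl
      · exact Or.inr rfl
    · have h1 : Sum.inr (some i) ∉ Q' := fun h => C.some_bd_x (hQ h)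
      refine ⟨mem_of_even (he (.inr i)) hn (fun q hq hqQ => ?_) (C.inr_mem_inl.2 rfl), h1⟩
      rcases C.inr_mem.1 hq with rfl | rfl | rfl
      · exact Or.inl rfl
      · exact absurd hqQ h1
      · exact Or.inr rfl
  have hx : ∀ ρ, Sum.inl ρ ∈ Q' → ρ ∈ G.bd C.x := by
    intro ρ h
    rcases hz with rfl | rfl
    · exact (C.inl_bd_none.1 (hQ h)).1
    · exact (C.inl_bd_x.1 (hQ h)).1
  have key := G.simple C.x ((G.bd C.x).filter fun ρ => Sum.inl ρ ∈ Q') (Finset.filter_subset _ _)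
    (fun c => by
      have := C.ncard_inl c (fun ρ => ρ ∈ (G.bd C.x).filter fun ρ => Sum.inl ρ ∈ Q')
        (fun q => q ∈ Q') (fun ρ _ => by
          rw [Finset.mem_filter]
          rcases C.φ_cases c ρ with ⟨i, h1, h2, h3⟩ | ⟨h1, h3⟩
          · rw [h3, h1]
            exact ⟨fun h => absurd h (hr i).2, fun h => absurd h.2 (hr i).1⟩
          · rw [h3]
            exact ⟨fun h => ⟨hx ρ h, h⟩, fun h => h.2⟩)
      rw [← this]
      exact he (.inl c))
  rcases key with h | h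
  · rw [Finset.eq_empty_iff_forall_notMem]
    rintro (ρ | (_ | i)) hq
    · have : ρ ∈ (G.bd C.x).filter fun ρ => Sum.inl ρ ∈ Q' := Finset.mem_filter.2 ⟨hx ρ hq, hq⟩
      rw [h] at this
      exact absurd this (Finset.notMem_empty _)
    · exact hn hq
    · exact (hr i).2 hq
  · exfalso
    have : C.r false ∈ (G.bd C.x).filter fun ρ => Sum.inl ρ ∈ Q' := by
      rw [h]; exact C.mem false
    exact (hr false).1 (Finset.mem_filter.1 this).2

theorem even_bd' (z : Option X) (v : N ⊕ Bool) : Even {q | q ∈ C.bd' z ∧ v ∈ C.ends' q}.ncard := by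
  rcases C.deg' z v with h | h
  · rw [h]; exact ⟨0, rfl⟩
  · rw [h]; exact ⟨1, rfl⟩

theorem simple_aux2 {z : Option X} (hz : z = none ∨ z = some C.x)
    {Q' : Finset (R ⊕ Option Bool)} (hQ : Q' ⊆ C.bd' z)
    (he : ∀ v, Even {q | q ∈ Q' ∧ v ∈ C.ends' q}.ncard) : Q' = ∅ ∨ Q' = C.bd' z := by
  classical
  by_cases hn : Sum.inr none ∈ Q'
  · right
    have h1 : C.bd' z \ Q' = ∅ := by
      refine C.simple_aux hz Finset.sdiff_subset (fun v => ?_) (fun h => (Finset.mem_sdiff.1 h).2 hn)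
      have h2 : {q | q ∈ C.bd' z \ Q' ∧ v ∈ C.ends' q} =
          {q | q ∈ C.bd' z ∧ v ∈ C.ends' q} \ {q | q ∈ Q' ∧ v ∈ C.ends' q} := by
        ext q
        constructor
        · rintro ⟨h1, h2⟩
          rw [Finset.mem_sdiff] at h1
          exact ⟨⟨h1.1, h2⟩, fun h => h1.2 h.1⟩
        · rintro ⟨⟨h1, h2⟩, h3⟩
          exact ⟨Finset.mem_sdiff.2 ⟨h1, fun h => h3 ⟨h, h2⟩⟩, h2⟩
      have hfin : {q | q ∈ C.bd' z ∧ v ∈ C.ends' q}.Finite :=
        (C.bd' z).finite_toSet.subset fun q hq => hq.1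
      have h3 := Set.ncard_sdiff_add_ncard_of_subset
        (s := {q | q ∈ Q' ∧ v ∈ C.ends' q}) (t := {q | q ∈ C.bd' z ∧ v ∈ C.ends' q})
        (fun q hq => ⟨hQ hq.1, hq.2⟩) hfin
      rw [h2]
      have h4 := C.even_bd' z v
      rw [← h3] at h4
      exact (Nat.even_add.1 h4).2 (he v)
    exact Finset.Subset.antisymm hQ (Finset.sdiff_eq_empty_iff_subset.1 h1)
  · exact Or.inl (C.simple_aux hz hQ he hn)

theorem simple' (z : Option X) (Q' : Finset (R ⊕ Option Bool)) (hQ : Q' ⊆ C.bd' z)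
    (he : ∀ v, Even {q | q ∈ Q' ∧ v ∈ C.ends' q}.ncard) : Q' = ∅ ∨ Q' = C.bd' z := by
  classical
  rcases z with _ | y
  · exact C.simple_aux2 (Or.inl rfl) hQ he
  by_cases hy : y = C.x
  · rw [hy] at hQ ⊢
    exact C.simple_aux2 (Or.inr rfl) hQ he
  have hn : Sum.inr none ∉ Q' := fun h => C.none_bd_some hy (hQ h)
  have hpar : ∀ i, Sum.inl (C.r i) ∈ Q' ↔ Sum.inr (some i) ∈ Q' := by
    intro i
    constructor
    · intro h
      by_contra hcon
      refine mem_of_even (he (.inr i)) hcon (a := Sum.inl (C.r i)) (fun q hq hqQ => ?_)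
        (C.inr_mem_inl.2 rfl) h
      rcases C.inr_mem.1 hq with rfl | rfl | rfl
      · exact Or.inl rfl
      · exact Or.inr rfl
      · exact absurd hqQ hn
    · intro h
      by_contra hcon
      refine mem_of_even (he (.inr i)) hcon (a := Sum.inr (some i)) (fun q hq hqQ => ?_)
        (C.inr_mem_some.2 rfl) h
      rcases C.inr_mem.1 hq with rfl | rfl | rfl
      · exact Or.inr rfl
      · exact Or.inl rfl
      · exact absurd hqQ hn
  have hx : ∀ ρ, Sum.inl ρ ∈ Q' → ρ ∈ G.bd y := fun ρ h => (C.inl_bd_some hy).1 (hQ h)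
  have key := G.simple y ((G.bd y).filter fun ρ => Sum.inl ρ ∈ Q') (Finset.filter_subset _ _)
    (fun c => by
      have := C.ncard_inl c (fun ρ => ρ ∈ (G.bd y).filter fun ρ => Sum.inl ρ ∈ Q')
        (fun q => q ∈ Q') (fun ρ _ => by
          rw [Finset.mem_filter]
          rcases C.φ_cases c ρ with ⟨i, h1, h2, h3⟩ | ⟨h1, h3⟩
          · rw [h3, h1]
            exact ⟨fun h => ⟨hx _ ((hpar i).2 h), (hpar i).2 h⟩, fun h => (hpar i).1 h.2⟩
          · rw [h3]
            exact ⟨fun h => ⟨hx ρ h, h⟩, fun h => h.2⟩)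
      rw [← this]
      exact he (.inl c))
  rcases key with h | h
  · left
    have hno : ∀ ρ, Sum.inl ρ ∉ Q' := by
      intro ρ hq
      have : ρ ∈ (G.bd y).filter fun ρ => Sum.inl ρ ∈ Q' := Finset.mem_filter.2 ⟨hx ρ hq, hq⟩
      rw [h] at this
      exact absurd this (Finset.notMem_empty _)
    rw [Finset.eq_empty_iff_forall_notMem]
    rintro (ρ | (_ | i)) hq
    · exact hno ρ hq
    · exact hn hq
    · exact hno _ ((hpar i).2 hq)
  · right
    have hall : ∀ ρ ∈ G.bd y, Sum.inl ρ ∈ Q' := by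
      intro ρ hρ
      rw [← h] at hρ
      exact (Finset.mem_filter.1 hρ).2
    refine Finset.Subset.antisymm hQ ?_
    rintro (ρ | (_ | i)) hq
    · exact hall ρ ((C.inl_bd_some hy).1 hq)
    · exact absurd hq (C.none_bd_some hy)
    · exact (hpar i).1 (hall _ ((C.some_bd_some hy).1 hq))

/-! ### the remaining clauses -/

theorem twoF_x {ρ : R} (h : ρ ∈ G.bd C.x) : ∃ y, y ≠ C.x ∧ ∀ z, ρ ∈ G.bd z ↔ z = C.x ∨ z = y := by
  obtain ⟨u, v, huv, hall⟩ := G.twoF ρ
  rcases (hall C.x).1 h with h' | h'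
  · refine ⟨v, fun h => huv (by rw [← h', h]), fun z => ?_⟩
    rw [hall z, h']
  · refine ⟨u, fun h => huv (by rw [← h', h]), fun z => ?_⟩
    rw [hall z, h']; exact or_comm

theorem twoF' (q : R ⊕ Option Bool) : ∃ u v, u ≠ v ∧ ∀ z, q ∈ C.bd' z ↔ z = u ∨ z = v := by
  rcases q with ρ | (_ | i)
  · by_cases hρ : ρ ∈ G.bd C.x
    · obtain ⟨y, hy, hall⟩ := C.twoF_x hρ
      by_cases hc : ∃ c ∈ G.ends ρ, C.sg c = true
      · refine ⟨some C.x, some y, fun h => hy (Option.some_injective _ h).symm, ?_⟩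
        rintro (_ | z)
        · rw [C.inl_bd_none]
          constructor
          · rintro ⟨-, h⟩
            obtain ⟨c, h1, h2⟩ := hc
            rw [h c h1] at h2; exact Bool.noConfusion h2
          · rintro (h | h) <;> exact absurd h (by simp)
        · by_cases hz : z = C.x
          · rw [hz, C.inl_bd_x]
            exact ⟨fun _ => Or.inl rfl, fun _ => ⟨hρ, hc⟩⟩
          · rw [C.inl_bd_some hz, hall z]
            constructor
            · rintro (h | h)
              · exact absurd h hz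
              · exact Or.inr (by rw [h])
            · rintro (h | h)
              · exact absurd (Option.some_injective _ h) hz
              · exact Or.inr (Option.some_injective _ h)
      · have hc' : ∀ c ∈ G.ends ρ, C.sg c = false := by
          intro c h1
          rcases h2 : C.sg c with _ | _
          · rfl
          · exact absurd ⟨c, h1, h2⟩ hc
        refine ⟨none, some y, by simp, ?_⟩
        rintro (_ | z)
        · rw [C.inl_bd_none]
          exact ⟨fun _ => Or.inl rfl, fun _ => ⟨hρ, hc'⟩⟩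
        · by_cases hz : z = C.x
          · rw [hz, C.inl_bd_x]
            constructor
            · rintro ⟨-, h⟩; exact absurd h hc
            · rintro (h | h)
              · exact absurd h (by simp)
              · exact absurd (Option.some_injective _ h).symm hy
          · rw [C.inl_bd_some hz, hall z]
            constructor
            · rintro (h | h)
              · exact absurd h hz
              · exact Or.inr (by rw [h])
            · rintro (h | h)
              · exact absurd h (by simp)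
              · exact Or.inr (Option.some_injective _ h)
    · obtain ⟨u, v, huv, hall⟩ := G.twoF ρ
      refine ⟨some u, some v, fun h => huv (Option.some_injective _ h), ?_⟩
      rintro (_ | z)
      · rw [C.inl_bd_none]
        constructor
        · rintro ⟨h, -⟩; exact absurd h hρ
        · rintro (h | h) <;> exact absurd h (by simp)
      · by_cases hz : z = C.x
        · rw [hz, C.inl_bd_x]
          constructor
          · rintro ⟨h, -⟩; exact absurd h hρ
          · rintro (h | h)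
            · exact absurd ((hall C.x).2 (Or.inl (Option.some_injective _ h))) hρ
            · exact absurd ((hall C.x).2 (Or.inr (Option.some_injective _ h))) hρ
        · rw [C.inl_bd_some hz, hall z]
          simp
  · refine ⟨some C.x, none, by simp, ?_⟩
    rintro (_ | z)
    · exact ⟨fun _ => Or.inr rfl, fun _ => C.some_bd_none⟩
    · by_cases hz : z = C.x
      · rw [hz]; exact ⟨fun _ => Or.inl rfl, fun _ => C.none_bd_x⟩
      · constructor
        · intro h; exact absurd h (C.none_bd_some hz)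
        · rintro (h | h)
          · exact absurd (Option.some_injective _ h) hz
          · exact absurd h (by simp)
  · obtain ⟨y, hy, hall⟩ := C.twoF_x (C.mem i)
    refine ⟨none, some y, by simp, ?_⟩
    rintro (_ | z)
    · exact ⟨fun _ => Or.inl rfl, fun _ => C.some_bd_none⟩
    · by_cases hz : z = C.x
      · rw [hz]
        constructor
        · intro h; exact absurd h C.some_bd_x
        · rintro (h | h)
          · exact absurd h (by simp)
          · exact absurd (Option.some_injective _ h).symm hy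
      · rw [C.some_bd_some hz, hall z]
        constructor
        · rintro (h | h)
          · exact absurd h hz
          · exact Or.inr (by rw [h])
        · rintro (h | h)
          · exact absurd h (by simp)
          · exact Or.inr (Option.some_injective _ h)

theorem nd' (q : R ⊕ Option Bool) : ¬ (C.ends' q).IsDiag := by
  rcases q with ρ | (_ | i)
  · by_cases h : ∃ i, ρ = C.r i
    · obtain ⟨i, rfl⟩ := h
      rw [C.ends'_r i, Sym2.mk_isDiag_iff]; simp
    · rw [C.ends'_old fun i hi => h ⟨i, hi⟩]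
      have := G.nd ρ
      revert this
      induction G.ends ρ using Sym2.ind with
      | _ u v =>
        rw [Sym2.map_mk, Sym2.mk_isDiag_iff, Sym2.mk_isDiag_iff]
        exact fun h1 h2 => h1 (Sum.inl_injective h2)
  · show ¬ (s(.inr false, .inr true) : Sym2 (N ⊕ Bool)).IsDiag
    rw [Sym2.mk_isDiag_iff]; simp
  · show ¬ (s(.inr i, .inl (C.b i)) : Sym2 (N ⊕ Bool)).IsDiag
    rw [Sym2.mk_isDiag_iff]; simp

theorem multi_aux {ρ : R} {o : Option Bool} (h : C.ends' (.inl ρ) = C.ends' (.inr o)) : False := by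
  rcases o with _ | i
  · have h0 : ∀ j, ρ = C.r j := by
      intro j
      have : (Sum.inr j : N ⊕ Bool) ∈ C.ends' (.inl ρ) := by rw [h]; exact C.inr_mem_none
      exact C.inr_mem_inl.1 this
    exact C.ne ((h0 false).symm.trans (h0 true))
  · have h0 : ρ = C.r i := by
      have : (Sum.inr i : N ⊕ Bool) ∈ C.ends' (.inl ρ) := by rw [h]; exact C.inr_mem_some.2 rfl
      exact C.inr_mem_inl.1 this
    have h1 : Sum.inl (C.a i) ∈ C.ends' (.inl ρ) := by
      rw [C.inl_mem_inl, h0]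
      exact ⟨C.aM i, fun j _ => C.a_ne_b i j⟩
    rw [h, C.inl_mem_some] at h1
    exact C.a_ne_b i i h1

theorem multi' (q q' : R ⊕ Option Bool) (h : C.ends' q = C.ends' q') : q = q' := by
  rcases q with ρ | o
  · rcases q' with ρ' | o'
    · by_cases h1 : ∃ i, ρ = C.r i
      · obtain ⟨i, rfl⟩ := h1
        have : (Sum.inr i : N ⊕ Bool) ∈ C.ends' (.inl ρ') := by
          rw [← h]; exact C.inr_mem_inl.2 rfl
        rw [C.inr_mem_inl.1 this]
      · by_cases h2 : ∃ i, ρ' = C.r i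
        · obtain ⟨i, rfl⟩ := h2
          have : (Sum.inr i : N ⊕ Bool) ∈ C.ends' (.inl ρ) := by
            rw [h]; exact C.inr_mem_inl.2 rfl
          rw [C.inr_mem_inl.1 this]
        · rw [C.ends'_old fun i hi => h1 ⟨i, hi⟩, C.ends'_old fun i hi => h2 ⟨i, hi⟩] at h
          rw [G.multi _ _ (Sym2.map.injective Sum.inl_injective h)]
    · exact (C.multi_aux h).elim
  · rcases q' with ρ' | o'
    · exact (C.multi_aux h.symm).elim
    · rcases o with _ | i <;> rcases o' with _ | j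
      · rfl
      · have : Sum.inl (C.b j) ∈ C.ends' (.inr none) := by rw [h]; exact C.inl_mem_some.2 rfl
        exact (C.inl_mem_none this).elim
      · have : Sum.inl (C.b i) ∈ C.ends' (.inr none) := by rw [← h]; exact C.inl_mem_some.2 rfl
        exact (C.inl_mem_none this).elim
      · have : (Sum.inr i : N ⊕ Bool) ∈ C.ends' (.inr (some j)) := by
          rw [← h]; exact C.inr_mem_some.2 rfl
        rw [C.inr_mem_some.1 this]

theorem out' (z : Option X) : ∃ q, q ∉ C.bd' z := by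
  rcases z with _ | y
  · obtain ⟨ρ, hρ⟩ := G.out C.x
    exact ⟨.inl ρ, fun h => hρ (C.inl_bd_none.1 h).1⟩
  · obtain ⟨ρ, hρ⟩ := G.out y
    refine ⟨.inl ρ, fun h => ?_⟩
    by_cases hy : y = C.x
    · rw [hy] at h hρ
      exact hρ (C.inl_bd_x.1 h).1
    · exact hρ ((C.inl_bd_some hy).1 h)

theorem bd_ne' (z : Option X) : (C.bd' z).Nonempty := by
  rcases z with _ | y
  · exact ⟨.inr none, C.some_bd_none⟩
  · by_cases hy : y = C.x
    · rw [hy]; exact ⟨.inr none, C.none_bd_x⟩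
    · obtain ⟨ρ, hρ⟩ := G.bd_ne y
      exact ⟨.inl ρ, (C.inl_bd_some hy).2 hρ⟩

/-! ### connectedness of the rest -/

/-- the third edge at a node of `bd x` -/
theorem exists_third (x : X) (c : N) : ∃ ρ, c ∈ G.ends ρ ∧ ρ ∉ G.bd x := by
  by_contra hcon
  push Not at hcon
  have : {r | r ∈ G.bd x ∧ c ∈ G.ends r} = {r | c ∈ G.ends r} := by
    ext r
    exact ⟨fun h => h.2, fun h => ⟨hcon r h, h⟩⟩
  have h2 := G.deg x c
  rw [this, G.three c] at h2
  omega

/-- closure at an old node -/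
theorem conn_inl {z : Option X} {A' : Set (R ⊕ Option Bool)}
    (hA : ∀ v, (∀ q ∈ C.bd' z, v ∉ C.ends' q) → ∀ q q', v ∈ C.ends' q → v ∈ C.ends' q' →
      q ∈ A' → q' ∈ A') {c : N} (hc : ∀ ρ, c ∈ G.ends ρ → C.φ c ρ ∉ C.bd' z) {ρ ρ' : R}
    (h : c ∈ G.ends ρ) (h' : c ∈ G.ends ρ') : C.φ c ρ ∈ A' → C.φ c ρ' ∈ A' := by
  refine hA (.inl c) (fun q hq hcq => ?_) _ _ (C.inl_mem.2 ⟨ρ, h, rfl⟩) (C.inl_mem.2 ⟨ρ', h', rfl⟩)
  obtain ⟨ρ0, h0, rfl⟩ := C.inl_mem.1 hcq
  exact hc ρ0 h0 hq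

/-- closure at a new node -/
theorem conn_inr {y : X} (hy : y ≠ C.x) {A' : Set (R ⊕ Option Bool)}
    (hA : ∀ v, (∀ q ∈ C.bd' (some y), v ∉ C.ends' q) → ∀ q q', v ∈ C.ends' q → v ∈ C.ends' q' →
      q ∈ A' → q' ∈ A') {i : Bool} (hi : C.r i ∉ G.bd y) {q q' : R ⊕ Option Bool}
    (h : (Sum.inr i : N ⊕ Bool) ∈ C.ends' q) (h' : (Sum.inr i : N ⊕ Bool) ∈ C.ends' q') :
    q ∈ A' → q' ∈ A' := by
  refine hA (.inr i) (fun q hq hcq => ?_) _ _ h h'
  rcases C.inr_mem.1 hcq with rfl | rfl | rfl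
  · exact hi ((C.inl_bd_some hy).1 hq)
  · exact hi ((C.some_bd_some hy).1 hq)
  · exact C.none_bd_some hy hq

theorem conn_y (hS : G.Share) {y : X} (hy : y ≠ C.x) (A' : Set (R ⊕ Option Bool))
    (hA : ∀ v, (∀ q ∈ C.bd' (some y), v ∉ C.ends' q) → ∀ q q', v ∈ C.ends' q → v ∈ C.ends' q' →
      q ∈ A' → q' ∈ A') (q q' : R ⊕ Option Bool) (hq : q ∉ C.bd' (some y))
    (hq' : q' ∉ C.bd' (some y)) (h : q ∈ A') : q' ∈ A' := by
  -- every edge outside has an old edge outside with the same status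
  have hrep : ∀ q, q ∉ C.bd' (some y) → ∃ ρ, ρ ∉ G.bd y ∧ (q ∈ A' ↔ Sum.inl ρ ∈ A') := by
    rintro (ρ | (_ | i)) hq
    · exact ⟨ρ, fun h => hq ((C.inl_bd_some hy).2 h), Iff.rfl⟩
    · obtain ⟨i, hi⟩ : ∃ i, C.r i ∉ G.bd y := by
        by_contra hcon
        push Not at hcon
        exact C.ne (hS C.x y (Ne.symm hy) _ _ (C.mem false) (hcon false) (C.mem true) (hcon true))
      exact ⟨C.r i, hi, C.conn_inr hy hA hi C.inr_mem_none (C.inr_mem_inl.2 rfl),
        C.conn_inr hy hA hi (C.inr_mem_inl.2 rfl) C.inr_mem_none⟩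
    · have hi : C.r i ∉ G.bd y := fun h => hq ((C.some_bd_some hy).2 h)
      exact ⟨C.r i, hi, C.conn_inr hy hA hi (C.inr_mem_some.2 rfl) (C.inr_mem_inl.2 rfl),
        C.conn_inr hy hA hi (C.inr_mem_inl.2 rfl) (C.inr_mem_some.2 rfl)⟩
  have hcl := G.conn y {ρ | Sum.inl ρ ∈ A'} (fun c hc ρ ρ' h1 h2 h3 => by
    have hc' : ∀ ρ, c ∈ G.ends ρ → C.φ c ρ ∉ C.bd' (some y) := fun ρ0 h0 h =>
      hc ρ0 ((C.φ_bd hy c ρ0).1 h) h0
    have hst : ∀ ρ, c ∈ G.ends ρ → (C.φ c ρ ∈ A' ↔ Sum.inl ρ ∈ A') := by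
      intro ρ0 h0
      rcases C.φ_cases c ρ0 with ⟨i, e1, e2, e3⟩ | ⟨e1, e3⟩
      · rw [e3]
        have hi : C.r i ∉ G.bd y := fun h => hc _ h (by rw [e2]; exact C.bM i)
        rw [e1]
        exact ⟨C.conn_inr hy hA hi (C.inr_mem_some.2 rfl) (C.inr_mem_inl.2 rfl),
          C.conn_inr hy hA hi (C.inr_mem_inl.2 rfl) (C.inr_mem_some.2 rfl)⟩
      · rw [e3]
    exact (hst ρ' h2).1 (C.conn_inl hA hc' h1 h2 ((hst ρ h1).2 h3)))
  obtain ⟨ρ, hρ, hst⟩ := hrep q hq
  obtain ⟨ρ', hρ', hst'⟩ := hrep q' hq'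
  exact hst'.2 (hcl ρ ρ' hρ hρ' (hst.1 h))

/-- the two parts of `x` together -/
theorem conn_aux {z : Option X} {s : Bool}
    (hsub : ∀ ρ, Sum.inl ρ ∈ C.bd' z → ρ ∈ G.bd C.x)
    (hsome : ∀ i, Sum.inr (some i) ∈ C.bd' z ∨ s = false)
    (hnone : Sum.inr none ∈ C.bd' z)
    (hside : ∀ c, C.sg c = s → ∀ ρ, c ∈ G.ends ρ → C.φ c ρ ∉ C.bd' z)
    (hout : ∀ ρ ∈ G.bd C.x, Sum.inl ρ ∉ C.bd' z → ∃ c ∈ G.ends ρ, C.sg c = s ∧
      C.φ c ρ = .inl ρ)
    (A' : Set (R ⊕ Option Bool))
    (hA : ∀ v, (∀ q ∈ C.bd' z, v ∉ C.ends' q) → ∀ q q', v ∈ C.ends' q → v ∈ C.ends' q' →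
      q ∈ A' → q' ∈ A') (q q' : R ⊕ Option Bool) (hq : q ∉ C.bd' z)
    (hq' : q' ∉ C.bd' z) (h : q ∈ A') : q' ∈ A' := by
  have hthird : ∀ c, C.sg c = s → ∀ ρ0, c ∈ G.ends ρ0 →
      ∃ ρ, ρ ∉ G.bd C.x ∧ (C.φ c ρ0 ∈ A' ↔ Sum.inl ρ ∈ A') := by
    intro c hc ρ0 h0
    obtain ⟨ρ, h1, h2⟩ := exists_third (G := G) C.x c
    have h3 : C.φ c ρ = .inl ρ := C.φ_old fun i hi => absurd (C.mem i) (by rw [← hi]; exact h2)
    refine ⟨ρ, h2, ?_, ?_⟩
    · intro h; rw [← h3]; exact C.conn_inl hA (hside c hc) h0 h1 h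
    · intro h; rw [← h3] at h; exact C.conn_inl hA (hside c hc) h1 h0 h
  have hrep : ∀ q, q ∉ C.bd' z → ∃ ρ, ρ ∉ G.bd C.x ∧ (q ∈ A' ↔ Sum.inl ρ ∈ A') := by
    rintro (ρ | (_ | i)) hq
    · by_cases hρ : ρ ∈ G.bd C.x
      · obtain ⟨c, h1, h2, h3⟩ := hout ρ hρ hq
        rw [← h3]
        exact hthird c h2 ρ h1
      · exact ⟨ρ, hρ, Iff.rfl⟩
    · exact absurd hnone hq
    · rcases hsome i with h' | h'
      · exact absurd h' hq
      · rw [← C.φ_b i]
        exact hthird (C.b i) (by rw [C.hb, h']) _ (C.bM i)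
  have hcl := G.conn C.x {ρ | Sum.inl ρ ∈ A'} (fun c hc ρ ρ' h1 h2 h3 => by
    have hφ : ∀ ρ, C.φ c ρ = .inl ρ := fun ρ0 => C.φ_old fun i _ e2 =>
      hc _ (C.mem i) (by rw [e2]; exact C.bM i)
    have hc' : ∀ ρ, c ∈ G.ends ρ → C.φ c ρ ∉ C.bd' z := fun ρ0 h0 h => by
      rw [hφ] at h
      exact hc ρ0 (hsub ρ0 h) h0
    have := C.conn_inl hA hc' h1 h2
    rw [hφ, hφ] at this
    exact this h3)
  obtain ⟨ρ, hρ, hst⟩ := hrep q hq
  obtain ⟨ρ', hρ', hst'⟩ := hrep q' hq'
  exact hst'.2 (hcl ρ ρ' hρ hρ' (hst.1 h))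

theorem conn' (hS : G.Share) (z : Option X) (A' : Set (R ⊕ Option Bool))
    (hA : ∀ v, (∀ q ∈ C.bd' z, v ∉ C.ends' q) → ∀ q q', v ∈ C.ends' q → v ∈ C.ends' q' →
      q ∈ A' → q' ∈ A') (q q' : R ⊕ Option Bool) (hq : q ∉ C.bd' z)
    (hq' : q' ∉ C.bd' z) (h : q ∈ A') : q' ∈ A' := by
  rcases z with _ | y
  · refine C.conn_aux (s := true) (fun ρ h => (C.inl_bd_none.1 h).1)
      (fun i => Or.inl C.some_bd_none) C.some_bd_none
      (fun c hc ρ h => C.φ_bd_none' hc h) (fun ρ hρ hn => ?_) A' hA q q' hq hq' h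
    have : ∃ c ∈ G.ends ρ, C.sg c = true := by
      by_contra hcon
      push Not at hcon
      refine hn (C.inl_bd_none.2 ⟨hρ, fun c hc => ?_⟩)
      rcases h : C.sg c with _ | _
      · rfl
      · exact absurd h (hcon c hc)
    obtain ⟨c, hc, hsc⟩ := this
    refine ⟨c, hc, hsc, C.φ_old fun i _ e2 => ?_⟩
    rw [e2, C.hb] at hsc; exact Bool.noConfusion hsc
  · by_cases hy : y = C.x
    · rw [hy] at hA hq hq'
      refine C.conn_aux (s := false) (fun ρ h => (C.inl_bd_x.1 h).1)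
        (fun i => Or.inr rfl) C.none_bd_x
        (fun c hc ρ h => C.φ_bd_x' hc h) (fun ρ hρ hn => ?_) A' hA q q' hq hq' h
      have hr : ∀ i, ρ ≠ C.r i := by
        rintro i rfl
        exact hn (C.inl_bd_x.2 ⟨hρ, _, C.aM i, C.ha i⟩)
      obtain ⟨u, v, huv⟩ : ∃ u v, G.ends ρ = s(u, v) := by
        induction h : G.ends ρ using Sym2.ind with
        | _ a b => exact ⟨a, b, rfl⟩
      have hu : u ∈ G.ends ρ := by rw [huv]; exact Sym2.mem_mk_left _ _
      refine ⟨u, hu, ?_, C.φ_old fun i e1 _ => absurd e1 (hr i)⟩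
      rcases h : C.sg u with _ | _
      · rfl
      · exact absurd (C.inl_bd_x.2 ⟨hρ, u, hu, h⟩) hn
    · exact C.conn_y hS hy A' hA q q' hq hq' h

/-- **the cut graph** -/
noncomputable def split (hS : G.Share) : Cub (N ⊕ Bool) (R ⊕ Option Bool) (Option X) where
  ends := C.ends'
  nd := C.nd'
  multi := C.multi'
  three := C.three'
  bd := C.bd'
  bd_ne := C.bd_ne'
  twoF := C.twoF'
  deg := C.deg'
  simple := C.simple'
  out := C.out'
  conn := fun z A hA q q' hq hq' h => C.conn' hS z A hA q q' hq hq' h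

/-! ### two faces of the new graph have at most one common edge -/

theorem inl_old {z : Option X} {ρ : R} (h : Sum.inl ρ ∈ C.bd' z) : ρ ∈ G.bd (C.old z) := by
  rcases z with _ | y
  · exact (C.inl_bd_none.1 h).1
  · by_cases hy : y = C.x
    · show ρ ∈ G.bd y
      rw [hy] at h ⊢
      exact (C.inl_bd_x.1 h).1
    · exact (C.inl_bd_some hy).1 h

theorem some_old {z : Option X} {i : Bool} (h : Sum.inr (some i) ∈ C.bd' z) :
    C.r i ∈ G.bd (C.old z) := by
  rcases z with _ | y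
  · exact C.mem i
  · by_cases hy : y = C.x
    · rw [hy] at h
      exact absurd h C.some_bd_x
    · exact (C.some_bd_some hy).1 h

theorem none_old {z : Option X} (h : Sum.inr none ∈ C.bd' z) : C.old z = C.x := by
  rcases z with _ | y
  · rfl
  · by_contra hy
    exact C.none_bd_some hy h

theorem mixed {z z' : Option X} (hz : C.old z ≠ C.old z') {i : Bool}
    (h1 : Sum.inl (C.r i) ∈ C.bd' z) (h2 : Sum.inl (C.r i) ∈ C.bd' z')
    (h3 : Sum.inr (some i) ∈ C.bd' z) (h4 : Sum.inr (some i) ∈ C.bd' z') : False := by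
  have aux : ∀ z, C.old z = C.x → Sum.inl (C.r i) ∈ C.bd' z → Sum.inr (some i) ∈ C.bd' z →
      False := by
    rintro (_ | y) h h1 h2
    · have := (C.inl_bd_none.1 h1).2 _ (C.aM i)
      rw [C.ha] at this; exact Bool.noConfusion this
    · have hy : y = C.x := h
      rw [hy] at h2
      exact C.some_bd_x h2
  obtain ⟨y, hy, hall⟩ := C.twoF_x (C.mem i)
  rcases (hall _).1 (C.inl_old h1) with h | h
  · exact aux z h h1 h3
  · rcases (hall _).1 (C.inl_old h2) with h' | h'
    · exact aux z' h' h2 h4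
    · exact hz (h.trans h'.symm)

theorem common_x {q : R ⊕ Option Bool} (h1 : q ∈ C.bd' none) (h2 : q ∈ C.bd' (some C.x)) :
    q = .inr none := by
  rcases q with ρ | (_ | i)
  · obtain ⟨c, h3, h4⟩ := (C.inl_bd_x.1 h2).2
    rw [(C.inl_bd_none.1 h1).2 c h3] at h4; exact Bool.noConfusion h4
  · rfl
  · exact absurd h2 C.some_bd_x

theorem split_share (hS : G.Share) : (C.split hS).Share := by
  intro z z' hzz q q' h1 h2 h3 h4
  have h1 : q ∈ C.bd' z := h1
  have h2 : q ∈ C.bd' z' := h2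
  have h3 : q' ∈ C.bd' z := h3
  have h4 : q' ∈ C.bd' z' := h4
  by_cases hold : C.old z = C.old z'
  · rcases z with _ | y
    · rcases z' with _ | y'
      · exact absurd rfl hzz
      · have hy : C.x = y' := hold
        rw [← hy] at h2 h4
        rw [C.common_x h1 h2, C.common_x h3 h4]
    · rcases z' with _ | y'
      · have hy : y = C.x := hold
        rw [hy] at h1 h3
        rw [C.common_x h2 h1, C.common_x h4 h3]
      · have hy : y = y' := hold
        exact absurd (by rw [hy]) hzz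
  · rcases q with ρ | (_ | i)
    · rcases q' with ρ' | (_ | j)
      · rw [hS _ _ hold ρ ρ' (C.inl_old h1) (C.inl_old h2) (C.inl_old h3) (C.inl_old h4)]
      · exact absurd ((C.none_old h3).trans (C.none_old h4).symm) hold
      · have := hS _ _ hold ρ (C.r j) (C.inl_old h1) (C.inl_old h2) (C.some_old h3) (C.some_old h4)
        rw [this] at h1 h2
        exact (C.mixed hold h1 h2 h3 h4).elim
    · exact absurd ((C.none_old h1).trans (C.none_old h2).symm) hold
    · rcases q' with ρ' | (_ | j)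
      · have := hS _ _ hold ρ' (C.r i) (C.inl_old h3) (C.inl_old h4) (C.some_old h1) (C.some_old h2)
        rw [this] at h3 h4
        exact (C.mixed hold h3 h4 h1 h2).elim
      · exact absurd ((C.none_old h3).trans (C.none_old h4).symm) hold
      · rw [C.rinj (hS _ _ hold _ _ (C.some_old h1) (C.some_old h2) (C.some_old h3)
          (C.some_old h4))]

end Cut

end Crest.Agent.R096.Sph_560
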