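import Crest.Agent.R096.Spg1_560
import Crest.Agent.R096.Sph2_560
import Crest.Agent.R096.Msh3_715

/-!
# R096 (row 96), DOORS (D6) / SPH, (G2) part 2 (helper560): straight drawings and cuts by lines

`Drw G x0 T0 T0'` : straight line drawing of the cubic graph `G` in the plane: all faces but `x0`
are compact convex polygons; `Drw.cut` : cut of one polygon by a line.
-/

set_option autoImplicit false

open Set Metric

namespace Crest.Agent.R096.Sph_560

open Msh_715

variable {F : Type*} [NormedAddCommGroup F] [NormedSpace ℝ F] {N R X : Type*}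

/-- the segment of an edge -/
def seg (ends : R → Sym2 N) (pt : N → F) (r : R) : Set F := convexHull ℝ (pt '' {a | a ∈ ends r})

theorem seg_eq {ends : R → Sym2 N} {pt : N → F} {r : R} {a b : N} (h : ends r = s(a, b)) :
    seg ends pt r = segment ℝ (pt a) (pt b) := by
  have : pt '' {v | v ∈ ends r} = {pt a, pt b} := by
    ext y
    constructor
    · rintro ⟨v, hv, rfl⟩
      have hv : v ∈ ends r := hv
      rw [h, Sym2.mem_iff] at hv
      rcases hv with rfl | rfl
      · exact Or.inl rfl
      · exact Or.inr rfl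
    · rintro (rfl | rfl)
      · exact ⟨a, by rw [mem_ofPred_eq, h]; exact Sym2.mem_mk_left _ _, rfl⟩
      · exact ⟨b, by rw [mem_ofPred_eq, h]; exact Sym2.mem_mk_right _ _, rfl⟩
  rw [seg, this, convexHull_pair]

theorem pt_mem_seg {ends : R → Sym2 N} {pt : N → F} {r : R} {a : N} (h : a ∈ ends r) :
    pt a ∈ seg ends pt r := subset_convexHull _ _ ⟨a, h, rfl⟩

/-! ### halves of a segment -/

/-- the upper half of a segment -/
theorem seg_upper (lam : F →L[ℝ] ℝ) {c : ℝ} {A B p y : F} (hA : c < lam A) (hB : lam B < c)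
    (hp : p ∈ segment ℝ A B) (hpc : lam p = c) :
    y ∈ segment ℝ A p ↔ y ∈ segment ℝ A B ∧ c ≤ lam y := by
  constructor
  · intro hy
    refine ⟨(convex_segment A B).segment_subset (left_mem_segment ℝ A B) hp hy, ?_⟩
    obtain ⟨s, t, hs, ht, hst, rfl⟩ := hy
    rw [map_add, map_smul, map_smul, smul_eq_mul, smul_eq_mul, hpc]
    have e1 : t = 1 - s := by linarith
    rw [e1]
    nlinarith [mul_nonneg hs (sub_nonneg.2 hA.le)]
  · rintro ⟨⟨s, t, hs, ht, hst, rfl⟩, hy⟩
    obtain ⟨s', t', hs', ht', hst', rfl⟩ := hp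
    rw [map_add, map_smul, map_smul, smul_eq_mul, smul_eq_mul] at hpc hy
    have ht0 : 0 < t' := by
      rcases ht'.lt_or_eq with h | h
      · exact h
      · exfalso
        rw [← h] at hpc
        have : s' = 1 := by linarith
        rw [this] at hpc
        linarith
    have htt : t ≤ t' := by
      by_contra hcon
      push Not at hcon
      have e1 : s = 1 - t := by linarith
      have e2 : s' = 1 - t' := by linarith
      rw [e1] at hy
      rw [e2] at hpc
      nlinarith
    refine ⟨1 - t / t', t / t', ?_, by positivity, by ring, ?_⟩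
    · rw [sub_nonneg]; exact (div_le_one ht0).2 htt
    · have e1 : s = 1 - t := by linarith
      have e2 : s' = 1 - t' := by linarith
      rw [e1, e2, smul_add, smul_smul, smul_smul, ← add_assoc, ← add_smul]
      congr 1
      · congr 1
        field_simp
        ring
      · congr 1
        field_simp

/-- the lower half of a segment -/
theorem seg_lower (lam : F →L[ℝ] ℝ) {c : ℝ} {A B p y : F} (hA : c < lam A) (hB : lam B < c)
    (hp : p ∈ segment ℝ A B) (hpc : lam p = c) :
    y ∈ segment ℝ p B ↔ y ∈ segment ℝ A B ∧ lam y ≤ c := by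
  have h := seg_upper (-lam) (c := -c) (A := B) (B := A) (p := p) (y := y)
    (by rw [_root_.neg_apply]; linarith)
    (by rw [_root_.neg_apply]; linarith)
    (by rw [segment_symm]; exact hp) (by rw [_root_.neg_apply, hpc])
  rw [segment_symm, h, segment_symm, _root_.neg_apply]
  constructor
  · rintro ⟨h1, h2⟩; exact ⟨h1, by linarith⟩
  · rintro ⟨h1, h2⟩; exact ⟨h1, by linarith⟩

/-- two points of a segment on the same level -/
theorem seg_inj (lam : F →L[ℝ] ℝ) {A B p q : F} (hAB : lam A ≠ lam B)
    (hp : p ∈ segment ℝ A B) (hq : q ∈ segment ℝ A B) (h : lam p = lam q) : p = q := by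
  obtain ⟨s, t, hs, ht, hst, rfl⟩ := hp
  obtain ⟨s', t', hs', ht', hst', rfl⟩ := hq
  rw [map_add, map_smul, map_smul, smul_eq_mul, smul_eq_mul, map_add, map_smul, map_smul,
    smul_eq_mul, smul_eq_mul] at h
  have e1 : s = 1 - t := by linarith
  have e2 : s' = 1 - t' := by linarith
  rw [e1, e2] at h
  have h3 : (t - t') * (lam B - lam A) = 0 := by linarith
  rcases mul_eq_zero.1 h3 with h4 | h4
  · have : t = t' := by linarith
    rw [e1, e2, this]
  · exact absurd (by linarith) hAB

/-- a point of given level on a segment -/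
theorem seg_level (lam : F →L[ℝ] ℝ) {c : ℝ} {A B : F} (hA : c ≤ lam A) (hB : lam B < c) :
    ∃ t : ℝ, 0 < t ∧ t ≤ 1 ∧ lam (t • A + (1 - t) • B) = c := by
  have h : 0 < lam A - lam B := by linarith
  refine ⟨(c - lam B) / (lam A - lam B), div_pos (by linarith) h, (div_le_one h).2 (by linarith), ?_⟩
  rw [map_add, map_smul, map_smul, smul_eq_mul, smul_eq_mul]
  field_simp
  ring

/-! ### polygons -/

theorem I_comb {H : Finset ((F →L[ℝ] ℝ) × ℝ)} {z y : F} (hz : z ∈ I H) (hy : y ∈ P H) {t : ℝ}
    (h0 : 0 < t) (h1 : t ≤ 1) : t • z + (1 - t) • y ∈ I H := by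
  intro h hh
  have e1 := hz h hh
  have e2 := hy h hh
  rw [map_add, map_smul, map_smul, smul_eq_mul, smul_eq_mul]
  nlinarith

theorem convex_P (H : Finset ((F →L[ℝ] ℝ) × ℝ)) : Convex ℝ (P H) := by
  intro x hx y hy s t hs ht hst h hh
  have e1 := hx h hh
  have e2 := hy h hh
  rw [map_add, map_smul, map_smul, smul_eq_mul, smul_eq_mul]
  have : t = 1 - s := by linarith
  subst this
  nlinarith

theorem isClosed_P (H : Finset ((F →L[ℝ] ℝ) × ℝ)) : IsClosed (P H) := by
  have : P H = ⋂ h ∈ H, {x | h.1 x ≤ h.2} := by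
    ext x
    simp only [P, mem_iInter, mem_ofPred_eq]
  rw [this]
  exact isClosed_biInter fun h _ => isClosed_le h.1.continuous continuous_const

open Classical in
theorem mem_P_insert {H : Finset ((F →L[ℝ] ℝ) × ℝ)} {h : (F →L[ℝ] ℝ) × ℝ} {y : F} :
    y ∈ P (insert h H) ↔ h.1 y ≤ h.2 ∧ y ∈ P H := by
  simp only [P, mem_ofPred_eq, Finset.forall_mem_insert]

open Classical in
theorem mem_I_insert {H : Finset ((F →L[ℝ] ℝ) × ℝ)} {h : (F →L[ℝ] ℝ) × ℝ} {y : F} :
    y ∈ I (insert h H) ↔ h.1 y < h.2 ∧ y ∈ I H := by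
  simp only [I, mem_ofPred_eq, Finset.forall_mem_insert]

/-- a line through the inside of a compact polygon: the two end points -/
theorem exists_ends {H : Finset ((F →L[ℝ] ℝ) × ℝ)} (hc : IsCompact (P H)) {lam : F →L[ℝ] ℝ} {c : ℝ}
    {v : F} (hv : v ≠ 0) (hv0 : lam v = 0) (hker : ∀ y, lam y = 0 → ∃ t : ℝ, y = t • v) {z : F}
    (hz : z ∈ I H) (hzc : lam z = c) :
    ∃ p : Bool → F, p false ≠ p true ∧ (∀ i, lam (p i) = c) ∧ (∀ i, p i ∈ P H \ I H) ∧
      (∀ y, lam y = c → (y ∈ P H ↔ y ∈ segment ℝ (p false) (p true))) ∧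
      ∀ y, lam y = c → y ∈ P H \ I H → ∃ i, y = p i := by
  have hcont : Continuous fun t : ℝ => z + t • v := by fun_prop
  set T : Set ℝ := (fun t : ℝ => z + t • v) ⁻¹' P H with hT
  have h0T : (0 : ℝ) ∈ T := by
    show z + (0 : ℝ) • v ∈ P H
    rw [zero_smul, add_zero]; exact I_sub_P H hz
  have hTc : IsCompact T := by
    refine Metric.isCompact_of_isClosed_isBounded ((isClosed_P H).preimage hcont) ?_
    obtain ⟨M, hM⟩ := hc.isBounded.exists_norm_le
    refine (Metric.isBounded_iff_subset_closedBall (0 : ℝ)).2 ⟨(M + ‖z‖) / ‖v‖, fun t ht => ?_⟩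
    rw [mem_closedBall_zero_iff]
    have h1 : ‖z + t • v‖ ≤ M := hM _ ht
    have h2 : ‖t • v‖ ≤ M + ‖z‖ := by
      calc ‖t • v‖ = ‖(z + t • v) - z‖ := by rw [add_sub_cancel_left]
        _ ≤ ‖z + t • v‖ + ‖z‖ := norm_sub_le _ _
        _ ≤ M + ‖z‖ := by linarith
    rw [norm_smul] at h2
    exact (le_div_iff₀ (norm_pos_iff.2 hv)).2 h2
  obtain ⟨t1, ht1, hmax⟩ := hTc.exists_isGreatest ⟨0, h0T⟩
  obtain ⟨t0, ht0, hmin⟩ := hTc.exists_isLeast ⟨0, h0T⟩
  have hopen : IsOpen ((fun t : ℝ => z + t • v) ⁻¹' I H) := (isOpen_I H).preimage hcont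
  have hn1 : z + t1 • v ∉ I H := by
    intro h
    obtain ⟨ε, hε, hsub⟩ := Metric.isOpen_iff.1 hopen t1 h
    have : t1 + ε / 2 ∈ ball t1 ε := by
      rw [mem_ball, Real.dist_eq, add_sub_cancel_left, abs_of_pos (by positivity)]; linarith
    have h2 := hmax (I_sub_P H (hsub this))
    linarith
  have hn0 : z + t0 • v ∉ I H := by
    intro h
    obtain ⟨ε, hε, hsub⟩ := Metric.isOpen_iff.1 hopen t0 h
    have : t0 - ε / 2 ∈ ball t0 ε := by
      rw [mem_ball, Real.dist_eq, sub_sub_cancel_left, abs_neg, abs_of_pos (by positivity)]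
      linarith
    have h2 := hmin (I_sub_P H (hsub this))
    linarith
  have h1pos : 0 < t1 := by
    rcases (hmax h0T).lt_or_eq with h | h
    · exact h
    · exfalso; apply hn1; rw [← h, zero_smul, add_zero]; exact hz
  have h0neg : t0 < 0 := by
    rcases (hmin h0T).lt_or_eq with h | h
    · exact h
    · exfalso; apply hn0; rw [h, zero_smul, add_zero]; exact hz
  have hlev : ∀ t : ℝ, lam (z + t • v) = c := by
    intro t; rw [map_add, map_smul, hv0, smul_zero, add_zero, hzc]
  have hpar : ∀ y, lam y = c → ∃ t : ℝ, y = z + t • v := by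
    intro y hy
    obtain ⟨t, ht⟩ := hker (y - z) (by rw [map_sub, hy, hzc, sub_self])
    exact ⟨t, by rw [← ht]; abel⟩
  refine ⟨fun i => if i then z + t1 • v else z + t0 • v, ?_, ?_, ?_, ?_, ?_⟩
  · simp only [Bool.false_eq_true, if_false, if_true, ne_eq, add_right_inj]
    intro h
    have : (t0 - t1) • v = 0 := by rw [sub_smul, h, sub_self]
    rcases smul_eq_zero.1 this with h' | h'
    · linarith
    · exact hv h'
  · rintro (_ | _)
    · simpa using hlev t0
    · simpa using hlev t1
  · rintro (_ | _)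
    · simpa using ⟨ht0, hn0⟩
    · simpa using ⟨ht1, hn1⟩
  · intro y hy
    simp only [Bool.false_eq_true, if_false, if_true]
    constructor
    · intro hyP
      obtain ⟨t, rfl⟩ := hpar y hy
      have ha := hmax (show t ∈ T from hyP)
      have hb := hmin (show t ∈ T from hyP)
      have hd : 0 < t1 - t0 := by linarith
      refine ⟨(t1 - t) / (t1 - t0), (t - t0) / (t1 - t0), div_nonneg (by linarith) hd.le,
        div_nonneg (by linarith) hd.le, by field_simp; ring, ?_⟩
      rw [smul_add, smul_add, smul_smul, smul_smul, add_add_add_comm, ← add_smul, ← add_smul]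
      have e1 : (t1 - t) / (t1 - t0) + (t - t0) / (t1 - t0) = 1 := by field_simp; ring
      have e2 : (t1 - t) / (t1 - t0) * t0 + (t - t0) / (t1 - t0) * t1 = t := by
        field_simp; ring
      rw [e1, e2, one_smul]
    · intro hyS
      exact (convex_P H).segment_subset ht0 ht1 hyS
  · intro y hy hyF
    obtain ⟨t, rfl⟩ := hpar y hy
    have ha := hmax (show t ∈ T from hyF.1)
    have hb := hmin (show t ∈ T from hyF.1)
    rcases le_or_gt 0 t with h | h
    · refine ⟨true, ?_⟩
      simp only [if_true]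
      by_contra hne
      have hlt : t < t1 := lt_of_le_of_ne ha fun h => hne (by rw [h])
      apply hyF.2
      have h5 := I_comb hz (show z + t1 • v ∈ P H from ht1) (t := 1 - t / t1)
        (by rw [sub_pos]; exact (div_lt_one h1pos).2 hlt)
        (by have : 0 ≤ t / t1 := by positivity
            linarith)
      have h6 : (1 - t / t1) • z + (1 - (1 - t / t1)) • (z + t1 • v) = z + t • v := by
        rw [smul_add, ← add_assoc, ← add_smul, smul_smul]
        have e1 : 1 - t / t1 + (1 - (1 - t / t1)) = 1 := by ring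
        have e2 : (1 - (1 - t / t1)) * t1 = t := by field_simp; ring
        rw [e1, e2, one_smul]
      rw [h6] at h5
      exact h5
    · refine ⟨false, ?_⟩
      simp only [Bool.false_eq_true, if_false]
      by_contra hne
      have hlt : t0 < t := lt_of_le_of_ne hb fun h => hne (by rw [h])
      apply hyF.2
      have hq : 0 ≤ t / t0 := div_nonneg_of_nonpos h.le h0neg.le
      have h5 := I_comb hz (show z + t0 • v ∈ P H from ht0) (t := 1 - t / t0)
        (by rw [sub_pos]; exact (div_lt_one_of_neg h0neg).2 hlt)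
        (by linarith)
      have h6 : (1 - t / t0) • z + (1 - (1 - t / t0)) • (z + t0 • v) = z + t • v := by
        rw [smul_add, ← add_assoc, ← add_smul, smul_smul]
        have e1 : 1 - t / t0 + (1 - (1 - t / t0)) = 1 := by ring
        have ht00 : t0 ≠ 0 := h0neg.ne
        have e2 : (1 - (1 - t / t0)) * t0 = t := by
          field_simp; ring
        rw [e1, e2, one_smul]
      rw [h6] at h5
      exact h5

end Crest.Agent.R096.Sph_560
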