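import Crest.Agent.R096.Spg2_560

/-!
# R096 (row 96), DOORS (D6) / SPH, (G2) part 3 (helper560): straight drawings, cut by a line
-/

set_option autoImplicit false

open Set Metric

namespace Crest.Agent.R096.Sph_560

open Msh_715

variable {F : Type*} [NormedAddCommGroup F] [NormedSpace ℝ F] {N R X : Type*}

/-- straight line drawing of `G`: all faces but `x0` are compact convex polygons, `T0` is the
union of these faces, `T1` the union of the segments of `x0` -/
structure Drw (G : Cub N R X) (x0 : X) (T0 T1 : Set F) where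
  pt : N → F
  H : X → Finset ((F →L[ℝ] ℝ) × ℝ)
  inj : Function.Injective pt
  pt_seg : ∀ a r, pt a ∈ seg G.ends pt r → a ∈ G.ends r
  seg_seg : ∀ r r', r ≠ r' → ∀ y ∈ seg G.ends pt r, y ∈ seg G.ends pt r' → ∃ a, y = pt a
  cpt : ∀ x, x ≠ x0 → IsCompact (P (H x))
  int : ∀ x, x ≠ x0 → (I (H x)).Nonempty
  fr : ∀ x, x ≠ x0 → P (H x) \ I (H x) = ⋃ r ∈ G.bd x, seg G.ends pt r
  fr0 : T1 = ⋃ r ∈ G.bd x0, seg G.ends pt r
  disj : ∀ x, x ≠ x0 → ∀ y, y ≠ x0 → x ≠ y → Disjoint (I (H x)) (P (H y))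
  cov : T0 = ⋃ x ∈ {x | x ≠ x0}, P (H x)

namespace Drw

variable {G : Cub N R X} {x0 : X} {T0 T1 : Set F} (D : Drw G x0 T0 T1)

/-- the segments of the drawing -/
abbrev sg (r : R) : Set F := seg G.ends D.pt r

theorem sg_sub {x : X} (hx : x ≠ x0) {r : R} (hr : r ∈ G.bd x) :
    D.sg r ⊆ P (D.H x) \ I (D.H x) := by
  rw [D.fr x hx]
  exact subset_biUnion_of_mem (u := fun r => D.sg r) hr

/-- a point of a face on a segment is on the boundary of the face -/
theorem mem_fr {x : X} (hx : x ≠ x0) {r : R} {y : F} (hy : y ∈ P (D.H x)) (hr : y ∈ D.sg r) :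
    y ∈ P (D.H x) \ I (D.H x) := by
  by_cases h : r ∈ G.bd x
  · exact D.sg_sub hx h hr
  · obtain ⟨u, v, huv, hall⟩ := G.twoF r
    have : ∃ w, w ≠ x0 ∧ r ∈ G.bd w := by
      by_cases hu : u = x0
      · exact ⟨v, fun hv => huv (hu.trans hv.symm), (hall v).2 (Or.inr rfl)⟩
      · exact ⟨u, hu, (hall u).2 (Or.inl rfl)⟩
    obtain ⟨w, hw0, hw⟩ := this
    have hxw : x ≠ w := by rintro rfl; exact h hw
    refine ⟨hy, fun hI => ?_⟩
    exact (Set.disjoint_left.1 (D.disj x hx w hw0 hxw)) hI (D.sg_sub hw0 hw hr).1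

/-- existence of the cut: the face `x` and the line `lam = c` through its inside -/
theorem exists_cut {x : X} (hx : x ≠ x0) {lam : F →L[ℝ] ℝ} {c : ℝ} {v : F} (hv : v ≠ 0)
    (hv0 : lam v = 0) (hker : ∀ y, lam y = 0 → ∃ t : ℝ, y = t • v) {z : F} (hz : z ∈ I (D.H x))
    (hzc : lam z = c) (hgen : ∀ a, lam (D.pt a) ≠ c) :
    ∃ (C : Cut G) (p : Bool → F), C.x = x ∧ (∀ n, C.sg n = decide (c < lam (D.pt n))) ∧
      p false ≠ p true ∧ (∀ i, lam (p i) = c) ∧ (∀ i, p i ∈ D.sg (C.r i)) ∧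
      (∀ y, lam y = c → (y ∈ P (D.H x) ↔ y ∈ segment ℝ (p false) (p true))) ∧
      (∀ y, lam y = c → y ∈ P (D.H x) \ I (D.H x) → ∃ i, y = p i) := by
  obtain ⟨p, hne, hpc, hpF, hseg, huniq⟩ := exists_ends (D.cpt x hx) hv hv0 hker hz hzc
  have hr : ∀ i, ∃ r, r ∈ G.bd x ∧ p i ∈ D.sg r := by
    intro i
    have h1 := hpF i
    rw [D.fr x hx] at h1
    obtain ⟨r, hr, hpr⟩ := mem_iUnion₂.1 h1
    exact ⟨r, hr, hpr⟩
  choose r hrb hpr using hr
  have hends : ∀ r, ∃ a b, G.ends r = s(a, b) := by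
    intro r
    induction h : G.ends r using Sym2.ind with
    | _ a b => exact ⟨a, b, rfl⟩
  -- the ends of a segment with a point of level `c` are on different sides
  have hab : ∀ (r : R) (y : F), y ∈ D.sg r → lam y = c →
      ∃ a b, G.ends r = s(a, b) ∧ c < lam (D.pt a) ∧ lam (D.pt b) < c := by
    intro r y hy hyc
    obtain ⟨a, b, hab⟩ := hends r
    rw [Drw.sg, seg_eq hab] at hy
    obtain ⟨s, t, hs, ht, hst, hy'⟩ := hy
    have h1 : s * lam (D.pt a) + t * lam (D.pt b) = c := by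
      rw [← hyc, ← hy', map_add, map_smul, map_smul, smul_eq_mul, smul_eq_mul]
    rcases lt_or_gt_of_ne (hgen a) with ha | ha
    · rcases lt_or_gt_of_ne (hgen b) with hb | hb
      · exfalso
        have e1 : t = 1 - s := by linarith
        rw [e1] at h1 ht
        nlinarith [mul_nonneg hs (sub_nonneg.2 ha.le), mul_nonneg ht (sub_nonneg.2 hb.le),
          mul_pos (sub_pos.2 ha) (sub_pos.2 hb)]
      · exact ⟨b, a, by rw [hab]; exact Sym2.eq_swap, hb, ha⟩
    · rcases lt_or_gt_of_ne (hgen b) with hb | hb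
      · exact ⟨a, b, hab, ha, hb⟩
      · exfalso
        have e1 : t = 1 - s := by linarith
        rw [e1] at h1 ht
        nlinarith [mul_nonneg hs (sub_nonneg.2 ha.le), mul_nonneg ht (sub_nonneg.2 hb.le),
          mul_pos (sub_pos.2 ha) (sub_pos.2 hb)]
  have hex : ∀ i, ∃ a b, G.ends (r i) = s(a, b) ∧ c < lam (D.pt a) ∧ lam (D.pt b) < c :=
    fun i => hab (r i) (p i) (hpr i) (hpc i)
  choose a b hends' ha hb using hex
  have hrne : r false ≠ r true := by
    intro h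
    have h1 := hpr false
    have h2 := hpr true
    rw [← h] at h2
    rw [Drw.sg, seg_eq (hends' false)] at h1 h2
    exact hne (seg_inj lam (by have := ha false; have := hb false; linarith) h1 h2
      ((hpc false).trans (hpc true).symm))
  refine ⟨{ x := x, r := r, ne := hrne, a := a, b := b, sg := fun n => decide (c < lam (D.pt n)),
            hends := hends', ha := fun i => by simpa using ha i,
            hb := fun i => by simpa using (hb i).le, mem := hrb, cross := ?_ },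
    p, rfl, fun _ => rfl, hne, hpc, hpr, hseg, huniq⟩
  intro ρ hρ hρr u hu w hw
  by_contra hcon
  -- then `seg ρ` has a point of level `c`
  have key : ∃ y ∈ D.sg ρ, lam y = c := by
    have aux : ∀ u w, u ∈ G.ends ρ → w ∈ G.ends ρ → c < lam (D.pt u) → lam (D.pt w) < c →
        ∃ y ∈ D.sg ρ, lam y = c := by
      intro u w hu hw h1 h2
      obtain ⟨t, ht0, ht1, hlev⟩ := seg_level lam (A := D.pt u) (B := D.pt w) h1.le h2
      refine ⟨_, (convex_convexHull ℝ _) (pt_mem_seg hu) (pt_mem_seg hw) ht0.le (by linarith)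
        (by ring), hlev⟩
    rcases lt_or_gt_of_ne (hgen u) with h1 | h1 <;> rcases lt_or_gt_of_ne (hgen w) with h2 | h2
    · exact absurd (by simp [not_lt.2 h1.le, not_lt.2 h2.le]) hcon
    · exact aux w u hw hu h2 h1
    · exact aux u w hu hw h1 h2
    · exact absurd (by simp [h1, h2]) hcon
  obtain ⟨y, hy, hyc⟩ := key
  obtain ⟨i, rfl⟩ := huniq y hyc (D.sg_sub hx hρ hy)
  obtain ⟨n, hn⟩ := D.seg_seg ρ (r i) (hρr i) _ hy (hpr i)
  exact hgen n (by rw [← hn]; exact hyc)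

/-- the new points -/
def npt (p : Bool → F) : N ⊕ Bool → F
  | .inl a => D.pt a
  | .inr i => p i

open Classical in
/-- the new polygons -/
noncomputable def nH (x : X) (lam : F →L[ℝ] ℝ) (c : ℝ) : Option X → Finset ((F →L[ℝ] ℝ) × ℝ)
  | some y => if y = x then insert (-lam, -c) (D.H x) else D.H y
  | none => insert (lam, c) (D.H x)

section step

variable {C : Cut G} {lam : F →L[ℝ] ℝ} {c : ℝ} {p : Bool → F}
  (hsg : ∀ n, C.sg n = decide (c < lam (D.pt n))) (hgen : ∀ a, lam (D.pt a) ≠ c)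
  (hpc : ∀ i, lam (p i) = c) (hpr : ∀ i, p i ∈ D.sg (C.r i))

theorem nH_x (x : X) : D.nH x lam c (some x) = (by classical exact insert (-lam, -c) (D.H x)) := by
  simp only [nH, if_true]

theorem nH_y {x y : X} (h : y ≠ x) : D.nH x lam c (some y) = D.H y := by
  simp only [nH, if_neg h]

theorem mem_Px {x : X} {y : F} : y ∈ P (D.nH x lam c (some x)) ↔ c ≤ lam y ∧ y ∈ P (D.H x) := by
  classical
  rw [nH_x]
  have := mem_P_insert (H := D.H x) (h := (-lam, -c)) (y := y)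
  rw [this]
  simp

theorem mem_Ix {x : X} {y : F} : y ∈ I (D.nH x lam c (some x)) ↔ c < lam y ∧ y ∈ I (D.H x) := by
  classical
  rw [nH_x]
  have := mem_I_insert (H := D.H x) (h := (-lam, -c)) (y := y)
  rw [this]
  simp

theorem mem_Pn {x : X} {y : F} : y ∈ P (D.nH x lam c none) ↔ lam y ≤ c ∧ y ∈ P (D.H x) :=
  mem_P_insert

theorem mem_In {x : X} {y : F} : y ∈ I (D.nH x lam c none) ↔ lam y < c ∧ y ∈ I (D.H x) :=
  mem_I_insert

include hsg in
theorem lam_a (i : Bool) : c < lam (D.pt (C.a i)) := by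
  have := C.ha i
  rw [hsg] at this
  simpa using this

include hsg hgen in
theorem lam_b (i : Bool) : lam (D.pt (C.b i)) < c := by
  have := C.hb i
  rw [hsg] at this
  have h : ¬ c < lam (D.pt (C.b i)) := by simpa using this
  exact lt_of_le_of_ne (not_lt.1 h) (hgen _)

/-- the new segments -/
abbrev ns (C : Cut G) (p : Bool → F) (q : R ⊕ Option Bool) : Set F := seg C.ends' (D.npt p) q

include hsg hgen hpc hpr in
theorem ns_a (i : Bool) (y : F) : y ∈ D.ns C p (.inl (C.r i)) ↔ y ∈ D.sg (C.r i) ∧ c ≤ lam y := by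
  have h1 : D.ns C p (.inl (C.r i)) = segment ℝ (D.pt (C.a i)) (p i) := seg_eq (C.ends'_r i)
  rw [h1, Drw.sg, seg_eq (C.hends i)]
  have h2 := hpr i
  rw [Drw.sg, seg_eq (C.hends i)] at h2
  exact seg_upper lam (D.lam_a hsg i) (D.lam_b hsg hgen i) h2 (hpc i)

include hsg hgen hpc hpr in
theorem ns_b (i : Bool) (y : F) :
    y ∈ D.ns C p (.inr (some i)) ↔ y ∈ D.sg (C.r i) ∧ lam y ≤ c := by
  have h1 : D.ns C p (.inr (some i)) = segment ℝ (p i) (D.pt (C.b i)) :=
    seg_eq (ends := C.ends') (pt := D.npt p) (r := .inr (some i)) (a := .inr i) (b := .inl (C.b i)) rfl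
  rw [h1, Drw.sg, seg_eq (C.hends i)]
  have h2 := hpr i
  rw [Drw.sg, seg_eq (C.hends i)] at h2
  exact seg_lower lam (D.lam_a hsg i) (D.lam_b hsg hgen i) h2 (hpc i)

theorem ns_none : D.ns C p (.inr none) = segment ℝ (p false) (p true) :=
  seg_eq (ends := C.ends') (pt := D.npt p) (r := .inr none) (a := .inr false) (b := .inr true) rfl

theorem ns_old {ρ : R} (h : ∀ i, ρ ≠ C.r i) : D.ns C p (.inl ρ) = D.sg ρ := by
  obtain ⟨a, b, hab⟩ : ∃ a b, G.ends ρ = s(a, b) := by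
    induction h : G.ends ρ using Sym2.ind with
    | _ a b => exact ⟨a, b, rfl⟩
  rw [Drw.sg, seg_eq hab]
  refine seg_eq (ends := C.ends') (pt := D.npt p) (a := Sum.inl a) (b := Sum.inl b) ?_
  rw [C.ends'_old h, hab, Sym2.map_mk]

include hsg hgen hpc hpr in
theorem ns_sub (ρ : R) : D.ns C p (.inl ρ) ⊆ D.sg ρ := by
  by_cases h : ∃ i, ρ = C.r i
  · obtain ⟨i, rfl⟩ := h
    intro y hy
    exact ((D.ns_a hsg hgen hpc hpr i y).1 hy).1
  · rw [D.ns_old fun i hi => h ⟨i, hi⟩]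

include hpc in
theorem lam_none {y : F} (hy : y ∈ segment ℝ (p false) (p true)) : lam y = c := by
  obtain ⟨s, t, hs, ht, hst, rfl⟩ := hy
  rw [map_add, map_smul, map_smul, smul_eq_mul, smul_eq_mul, hpc, hpc, ← add_mul, hst, one_mul]

include hsg hgen hpc hpr in
theorem npt_seg (v : N ⊕ Bool) (q : R ⊕ Option Bool) (h : D.npt p v ∈ D.ns C p q) :
    v ∈ C.ends' q := by
  rcases v with n | i
  · have h : D.pt n ∈ D.ns C p q := h
    rcases q with ρ | (_ | j)
    · rw [C.inl_mem_inl]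
      refine ⟨D.pt_seg n ρ (D.ns_sub hsg hgen hpc hpr ρ h), ?_⟩
      rintro i rfl rfl
      have := ((D.ns_a hsg hgen hpc hpr i _).1 h).2
      have h2 := D.lam_b hsg hgen i
      linarith
    · rw [D.ns_none] at h
      exact absurd (lam_none hpc h) (hgen n)
    · have h1 := (D.ns_b hsg hgen hpc hpr j _).1 h
      rw [C.inl_mem_some]
      have h2 := D.pt_seg n _ h1.1
      rw [C.hends j, Sym2.mem_iff] at h2
      rcases h2 with rfl | rfl
      · have := D.lam_a hsg j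
        linarith [h1.2]
      · rfl
  · have h : p i ∈ D.ns C p q := h
    have hnode : ∀ ρ, ρ ≠ C.r i → p i ∉ D.sg ρ := by
      intro ρ hρ hp
      obtain ⟨n, hn⟩ := D.seg_seg ρ (C.r i) hρ _ hp (hpr i)
      exact hgen n (by rw [← hn]; exact hpc i)
    rcases q with ρ | (_ | j)
    · rw [C.inr_mem_inl]
      by_contra hρ
      exact hnode ρ hρ (D.ns_sub hsg hgen hpc hpr ρ h)
    · exact C.inr_mem_none
    · have h1 := (D.ns_b hsg hgen hpc hpr j _).1 h
      rw [C.inr_mem_some]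
      by_contra hij
      exact hnode (C.r j) (fun h => hij (C.rinj h).symm) h1.1

include hsg hgen hpc hpr in
theorem ns_ns (hx : C.x ≠ x0)
    (hseg : ∀ y, lam y = c → (y ∈ P (D.H C.x) ↔ y ∈ segment ℝ (p false) (p true)))
    (huniq : ∀ y, lam y = c → y ∈ P (D.H C.x) \ I (D.H C.x) → ∃ i, y = p i)
    (q q' : R ⊕ Option Bool) (hqq : q ≠ q') (y : F) (hy : y ∈ D.ns C p q)
    (hy' : y ∈ D.ns C p q') : ∃ v, y = D.npt p v := by
  -- a point of a segment of level `c` on the new edge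
  have aux : ∀ ρ, y ∈ D.sg ρ → y ∈ D.ns C p (.inr none) → ∃ v, y = D.npt p v := by
    intro ρ h1 h2
    rw [D.ns_none] at h2
    have h3 := lam_none hpc h2
    obtain ⟨i, hi⟩ := huniq y h3 (D.mem_fr hx ((hseg y h3).2 h2) h1)
    exact ⟨.inr i, hi⟩
  have aux2 : ∀ ρ i, y ∈ D.ns C p (.inl ρ) → y ∈ D.ns C p (.inr (some i)) →
      ∃ v, y = D.npt p v := by
    intro ρ i h1 h2
    by_cases h : ρ = C.r i
    · rw [h] at h1
      have h3 := (D.ns_a hsg hgen hpc hpr i y).1 h1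
      have h4 := (D.ns_b hsg hgen hpc hpr i y).1 h2
      refine ⟨.inr i, ?_⟩
      have h5 := hpr i
      have h6 := h3.1
      rw [Drw.sg, seg_eq (C.hends i)] at h5 h6
      refine seg_inj lam ?_ h6 h5 ?_
      · have := D.lam_a hsg i
        have := D.lam_b hsg hgen i
        linarith
      · show lam y = lam (p i)
        rw [hpc i]; linarith [h3.2, h4.2]
    · obtain ⟨n, hn⟩ := D.seg_seg ρ (C.r i) h y (D.ns_sub hsg hgen hpc hpr ρ h1)
        ((D.ns_b hsg hgen hpc hpr i y).1 h2).1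
      exact ⟨.inl n, hn⟩
  rcases q with ρ | (_ | i) <;> rcases q' with ρ' | (_ | j)
  · obtain ⟨n, hn⟩ := D.seg_seg ρ ρ' (fun h => hqq (by rw [h])) y
      (D.ns_sub hsg hgen hpc hpr ρ hy) (D.ns_sub hsg hgen hpc hpr ρ' hy')
    exact ⟨.inl n, hn⟩
  · exact aux ρ (D.ns_sub hsg hgen hpc hpr ρ hy) hy'
  · exact aux2 ρ j hy hy'
  · exact aux ρ' (D.ns_sub hsg hgen hpc hpr ρ' hy') hy
  · exact absurd rfl hqq
  · exact aux (C.r j) ((D.ns_b hsg hgen hpc hpr j y).1 hy').1 hy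
  · exact aux2 ρ' i hy' hy
  · exact aux (C.r i) ((D.ns_b hsg hgen hpc hpr i y).1 hy).1 hy'
  · obtain ⟨n, hn⟩ := D.seg_seg (C.r i) (C.r j) (fun h => hqq (by rw [C.rinj h])) y
      ((D.ns_b hsg hgen hpc hpr i y).1 hy).1 ((D.ns_b hsg hgen hpc hpr j y).1 hy').1
    exact ⟨.inl n, hn⟩

include hsg hgen hpc hpr in
/-- the union of the segments of an old face -/
theorem union_y {y : X} (hy : y ≠ C.x) :
    (⋃ q ∈ C.bd' (some y), D.ns C p q) = ⋃ r ∈ G.bd y, D.sg r := by
  ext w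
  constructor
  · intro hw
    obtain ⟨q, hq, hwq⟩ := mem_iUnion₂.1 hw
    rcases q with ρ | (_ | i)
    · exact mem_biUnion (x := ρ) ((C.inl_bd_some hy).1 hq) (D.ns_sub hsg hgen hpc hpr ρ hwq)
    · exact absurd hq (C.none_bd_some hy)
    · exact mem_biUnion (x := C.r i) ((C.some_bd_some hy).1 hq)
        ((D.ns_b hsg hgen hpc hpr i w).1 hwq).1
  · intro hw
    obtain ⟨ρ, hρ, hwρ⟩ := mem_iUnion₂.1 hw
    by_cases h : ∃ i, ρ = C.r i
    · obtain ⟨i, rfl⟩ := h
      rcases le_total c (lam w) with h1 | h1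
      · exact mem_biUnion (x := Sum.inl (C.r i)) ((C.inl_bd_some hy).2 hρ)
          ((D.ns_a hsg hgen hpc hpr i w).2 ⟨hwρ, h1⟩)
      · exact mem_biUnion (x := Sum.inr (some i)) ((C.some_bd_some hy).2 hρ)
          ((D.ns_b hsg hgen hpc hpr i w).2 ⟨hwρ, h1⟩)
    · refine mem_biUnion (x := Sum.inl ρ) ((C.inl_bd_some hy).2 hρ) ?_
      rw [D.ns_old fun i hi => h ⟨i, hi⟩]
      exact hwρ

/-- a segment with an end in the upper part and no crossing is in the upper part -/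
theorem sg_le {ρ : R} (hup : ∀ n ∈ G.ends ρ, c ≤ lam (D.pt n)) {w : F} (hw : w ∈ D.sg ρ) :
    c ≤ lam w := by
  have : D.sg ρ ⊆ {w | c ≤ lam w} := by
    refine convexHull_min ?_ ?_
    · rintro _ ⟨n, hn, rfl⟩
      exact hup n hn
    · exact convex_halfSpace_ge lam.isLinear c
  exact this hw

theorem sg_ge {ρ : R} (hup : ∀ n ∈ G.ends ρ, lam (D.pt n) ≤ c) {w : F} (hw : w ∈ D.sg ρ) :
    lam w ≤ c := by
  have : D.sg ρ ⊆ {w | lam w ≤ c} := by
    refine convexHull_min ?_ ?_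
    · rintro _ ⟨n, hn, rfl⟩
      exact hup n hn
    · exact convex_halfSpace_le lam.isLinear c
  exact this hw

include hsg hgen in
/-- an edge of the cut face without crossing which has a point (strictly) above is above -/
theorem side_up {ρ : R} {w : F} (hw : w ∈ D.sg ρ)
    (hcw : c ≤ lam w) : ∃ n ∈ G.ends ρ, C.sg n = true := by
  by_contra hcon
  push Not at hcon
  obtain ⟨a, b, hab⟩ : ∃ a b, G.ends ρ = s(a, b) := by
    induction h : G.ends ρ using Sym2.ind with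
    | _ a b => exact ⟨a, b, rfl⟩
  have hlt : ∀ n ∈ G.ends ρ, lam (D.pt n) < c := by
    intro n hn
    have := hcon n hn
    rw [hsg] at this
    have h : ¬ c < lam (D.pt n) := by simpa using this
    exact lt_of_le_of_ne (not_lt.1 h) (hgen _)
  have ha := hlt a (by rw [hab]; exact Sym2.mem_mk_left _ _)
  have hb := hlt b (by rw [hab]; exact Sym2.mem_mk_right _ _)
  rw [Drw.sg, seg_eq hab] at hw
  obtain ⟨s, t, hs, ht, hst, rfl⟩ := hw
  rw [map_add, map_smul, map_smul, smul_eq_mul, smul_eq_mul] at hcw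
  have e1 : t = 1 - s := by linarith
  rw [e1] at hcw ht
  nlinarith [mul_nonneg hs (sub_nonneg.2 ha.le), mul_nonneg ht (sub_nonneg.2 hb.le)]

include hsg in
theorem side_down {ρ : R} (hρ : ρ ∈ G.bd C.x) (hr : ∀ i, ρ ≠ C.r i) {w : F} (hw : w ∈ D.sg ρ)
    (hcw : lam w ≤ c) : ∀ n ∈ G.ends ρ, C.sg n = false := by
  intro n hn
  rcases h : C.sg n with _ | _
  · rfl
  exfalso
  have hgt : ∀ n ∈ G.ends ρ, c < lam (D.pt n) := by
    intro m hm
    have h1 := C.cross ρ hρ hr n hn m hm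
    rw [h, hsg] at h1
    simpa using h1.symm
  obtain ⟨a, b, hab⟩ : ∃ a b, G.ends ρ = s(a, b) := by
    induction h : G.ends ρ using Sym2.ind with
    | _ a b => exact ⟨a, b, rfl⟩
  have ha := hgt a (by rw [hab]; exact Sym2.mem_mk_left _ _)
  have hb := hgt b (by rw [hab]; exact Sym2.mem_mk_right _ _)
  rw [Drw.sg, seg_eq hab] at hw
  obtain ⟨s, t, hs, ht, hst, rfl⟩ := hw
  rw [map_add, map_smul, map_smul, smul_eq_mul, smul_eq_mul] at hcw
  have e1 : t = 1 - s := by linarith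
  rw [e1] at hcw ht
  nlinarith [mul_nonneg hs (sub_nonneg.2 ha.le), mul_nonneg ht (sub_nonneg.2 hb.le)]

include hsg hgen hpc hpr in
theorem fr_x (hx : C.x ≠ x0)
    (hseg : ∀ y, lam y = c → (y ∈ P (D.H C.x) ↔ y ∈ segment ℝ (p false) (p true))) :
    P (D.nH C.x lam c (some C.x)) \ I (D.nH C.x lam c (some C.x)) =
      ⋃ q ∈ C.bd' (some C.x), D.ns C p q := by
  ext w
  constructor
  · rintro ⟨h1, h2⟩
    rw [mem_Px] at h1
    rw [mem_Ix] at h2
    by_cases hI : w ∈ I (D.H C.x)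
    · have hcw : lam w = c := le_antisymm (not_lt.1 fun h => h2 ⟨h, hI⟩) h1.1
      refine mem_biUnion (x := Sum.inr none) C.none_bd_x ?_
      rw [D.ns_none]
      exact (hseg w hcw).1 h1.2
    · have h3 : w ∈ P (D.H C.x) \ I (D.H C.x) := ⟨h1.2, hI⟩
      rw [D.fr _ hx] at h3
      obtain ⟨ρ, hρ, hwρ⟩ := mem_iUnion₂.1 h3
      by_cases h : ∃ i, ρ = C.r i
      · obtain ⟨i, rfl⟩ := h
        exact mem_biUnion (x := Sum.inl (C.r i)) (C.inl_bd_x.2 ⟨hρ, _, C.aM i, C.ha i⟩)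
          ((D.ns_a hsg hgen hpc hpr i w).2 ⟨hwρ, h1.1⟩)
      · have hr : ∀ i, ρ ≠ C.r i := fun i hi => h ⟨i, hi⟩
        refine mem_biUnion (x := Sum.inl ρ) (C.inl_bd_x.2 ⟨hρ, D.side_up hsg hgen hwρ h1.1⟩) ?_
        rw [D.ns_old hr]
        exact hwρ
  · intro hw
    obtain ⟨q, hq, hwq⟩ := mem_iUnion₂.1 hw
    rcases q with ρ | (_ | i)
    · have hq' := C.inl_bd_x.1 hq
      have h3 := D.sg_sub hx hq'.1 (D.ns_sub hsg hgen hpc hpr ρ hwq)
      have h4 : c ≤ lam w := by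
        by_cases h : ∃ i, ρ = C.r i
        · obtain ⟨i, rfl⟩ := h
          exact ((D.ns_a hsg hgen hpc hpr i w).1 hwq).2
        · have hr : ∀ i, ρ ≠ C.r i := fun i hi => h ⟨i, hi⟩
          refine D.sg_le (ρ := ρ) (fun n hn => ?_) (D.ns_sub hsg hgen hpc hpr ρ hwq)
          obtain ⟨m, hm, hms⟩ := hq'.2
          have h5 := C.cross ρ hq'.1 hr m hm n hn
          rw [hms, hsg] at h5
          have : c < lam (D.pt n) := by simpa using h5.symm
          exact this.le
      exact ⟨D.mem_Px.2 ⟨h4, h3.1⟩, fun h => h3.2 (D.mem_Ix.1 h).2⟩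
    · rw [D.ns_none] at hwq
      have h3 := lam_none hpc hwq
      refine ⟨D.mem_Px.2 ⟨h3.ge, (hseg w h3).2 hwq⟩, fun h => ?_⟩
      exact absurd (D.mem_Ix.1 h).1 (by rw [h3]; exact lt_irrefl _)
    · exact absurd hq C.some_bd_x

include hsg hgen hpc hpr in
theorem fr_none (hx : C.x ≠ x0)
    (hseg : ∀ y, lam y = c → (y ∈ P (D.H C.x) ↔ y ∈ segment ℝ (p false) (p true))) :
    P (D.nH C.x lam c none) \ I (D.nH C.x lam c none) = ⋃ q ∈ C.bd' none, D.ns C p q := by
  ext w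
  constructor
  · rintro ⟨h1, h2⟩
    rw [mem_Pn] at h1
    rw [mem_In] at h2
    by_cases hI : w ∈ I (D.H C.x)
    · have hcw : lam w = c := le_antisymm h1.1 (not_lt.1 fun h => h2 ⟨h, hI⟩)
      refine mem_biUnion (x := Sum.inr none) C.some_bd_none ?_
      rw [D.ns_none]
      exact (hseg w hcw).1 h1.2
    · have h3 : w ∈ P (D.H C.x) \ I (D.H C.x) := ⟨h1.2, hI⟩
      rw [D.fr _ hx] at h3
      obtain ⟨ρ, hρ, hwρ⟩ := mem_iUnion₂.1 h3
      by_cases h : ∃ i, ρ = C.r i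
      · obtain ⟨i, rfl⟩ := h
        exact mem_biUnion (x := Sum.inr (some i)) C.some_bd_none
          ((D.ns_b hsg hgen hpc hpr i w).2 ⟨hwρ, h1.1⟩)
      · have hr : ∀ i, ρ ≠ C.r i := fun i hi => h ⟨i, hi⟩
        refine mem_biUnion (x := Sum.inl ρ) (C.inl_bd_none.2 ⟨hρ, D.side_down hsg hρ hr hwρ h1.1⟩) ?_
        rw [D.ns_old hr]
        exact hwρ
  · intro hw
    obtain ⟨q, hq, hwq⟩ := mem_iUnion₂.1 hw
    rcases q with ρ | (_ | i)
    · have hq' := C.inl_bd_none.1 hq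
      have h3 := D.sg_sub hx hq'.1 (D.ns_sub hsg hgen hpc hpr ρ hwq)
      have h4 : lam w ≤ c := by
        refine D.sg_ge (ρ := ρ) (fun n hn => ?_) (D.ns_sub hsg hgen hpc hpr ρ hwq)
        have h5 := hq'.2 n hn
        rw [hsg] at h5
        exact not_lt.1 (by simpa using h5)
      exact ⟨D.mem_Pn.2 ⟨h4, h3.1⟩, fun h => h3.2 (D.mem_In.1 h).2⟩
    · rw [D.ns_none] at hwq
      have h3 := lam_none hpc hwq
      refine ⟨D.mem_Pn.2 ⟨h3.le, (hseg w h3).2 hwq⟩, fun h => ?_⟩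
      exact absurd (D.mem_In.1 h).1 (by rw [h3]; exact lt_irrefl _)
    · have h1 := (D.ns_b hsg hgen hpc hpr i w).1 hwq
      have h3 := D.sg_sub hx (C.mem i) h1.1
      exact ⟨D.mem_Pn.2 ⟨h1.2, h3.1⟩, fun h => h3.2 (D.mem_In.1 h).2⟩

end step

/-- **one cut** -/
theorem step (hS : G.Share) {x : X} (hx : x ≠ x0) {lam : F →L[ℝ] ℝ} {c : ℝ} {v : F} (hv : v ≠ 0)
    (hv0 : lam v = 0) (hker : ∀ y, lam y = 0 → ∃ t : ℝ, y = t • v)
    (hgen : ∀ a, lam (D.pt a) ≠ c) (hup : ∃ y ∈ P (D.H x), c < lam y)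
    (hdn : ∃ y ∈ P (D.H x), lam y < c) :
    ∃ (C : Cut G) (D' : Drw (C.split hS) (some x0) T0 T1), C.x = x ∧
      (∀ y, y ≠ x → D'.H (some y) = D.H y) ∧
      (∀ w, w ∈ P (D'.H (some x)) ↔ c ≤ lam w ∧ w ∈ P (D.H x)) ∧
      (∀ w, w ∈ P (D'.H none) ↔ lam w ≤ c ∧ w ∈ P (D.H x)) := by
  obtain ⟨yu, hyu, hyu'⟩ := hup
  obtain ⟨yd, hyd, hyd'⟩ := hdn
  obtain ⟨z, hz, hzc⟩ : ∃ z ∈ I (D.H x), lam z = c := by
    obtain ⟨z', hz'⟩ := D.int x hx
    rcases le_or_gt c (lam z') with h | h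
    · obtain ⟨t, ht0, ht1, hlev⟩ := seg_level lam h hyd'
      exact ⟨_, I_comb hz' hyd ht0 ht1, hlev⟩
    · obtain ⟨t, ht0, ht1, hlev⟩ := seg_level (-lam) (c := -c) (A := z') (B := yu)
        (by rw [_root_.neg_apply]; linarith) (by rw [_root_.neg_apply]; linarith)
      refine ⟨_, I_comb hz' hyu ht0 ht1, ?_⟩
      rw [_root_.neg_apply] at hlev
      linarith
  obtain ⟨C, p, rfl, hsg, hpne, hpc, hpr, hseg, huniq⟩ :=
    D.exists_cut hx hv hv0 hker hz hzc hgen
  have hnode : ∀ i n, p i ≠ D.pt n := fun i n h => hgen n (by rw [← h]; exact hpc i)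
  refine ⟨C, ⟨D.npt p, D.nH C.x lam c, ?_, ?_, ?_, ?_, ?_, ?_, ?_, ?_, ?_⟩, rfl,
    fun y hy => D.nH_y hy, fun w => D.mem_Px, fun w => D.mem_Pn⟩
  · rintro (a | i) (b | j) h
    · rw [D.inj (show D.pt a = D.pt b from h)]
    · exact absurd (show D.pt a = p j from h).symm (hnode j a)
    · exact absurd (show p i = D.pt b from h) (hnode i b)
    · have h : p i = p j := h
      rcases i with _ | _ <;> rcases j with _ | _
      · rfl
      · exact absurd h hpne
      · exact absurd h.symm hpne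
      · rfl
  · exact fun v q h => D.npt_seg hsg hgen hpc hpr v q h
  · exact fun q q' hqq y hy hy' => D.ns_ns hsg hgen hpc hpr hx hseg huniq q q' hqq y hy hy'
  · rintro (_ | y) hy
    · refine (D.cpt _ hx).of_isClosed_subset (isClosed_P _) fun w hw => (D.mem_Pn.1 hw).2
    · by_cases hyx : y = C.x
      · rw [hyx]
        refine (D.cpt _ hx).of_isClosed_subset (isClosed_P _) fun w hw => (D.mem_Px.1 hw).2
      · rw [D.nH_y hyx]
        exact D.cpt y fun h => hy (by rw [h])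
  · have hmid : ∀ y ∈ P (D.H C.x), ((1 / 2 : ℝ) • z + (1 - 1 / 2 : ℝ) • y) ∈ I (D.H C.x) ∧
        lam ((1 / 2 : ℝ) • z + (1 - 1 / 2 : ℝ) • y) = (c + lam y) / 2 := by
      intro y hy
      refine ⟨I_comb hz hy (by norm_num) (by norm_num), ?_⟩
      rw [map_add, map_smul, map_smul, smul_eq_mul, smul_eq_mul, hzc]
      ring
    rintro (_ | y) hy
    · exact ⟨_, D.mem_In.2 ⟨by rw [(hmid yd hyd).2]; linarith, (hmid yd hyd).1⟩⟩
    · by_cases hyx : y = C.x
      · rw [hyx]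
        exact ⟨_, D.mem_Ix.2 ⟨by rw [(hmid yu hyu).2]; linarith, (hmid yu hyu).1⟩⟩
      · rw [D.nH_y hyx]
        exact D.int y fun h => hy (by rw [h])
  · rintro (_ | y) hy
    · exact D.fr_none hsg hgen hpc hpr hx hseg
    · by_cases hyx : y = C.x
      · rw [hyx]
        exact D.fr_x hsg hgen hpc hpr hx hseg
      · rw [D.nH_y hyx, D.fr y fun h => hy (by rw [h])]
        exact (D.union_y hsg hgen hpc hpr hyx).symm
  · exact D.fr0.trans (D.union_y hsg hgen hpc hpr (Ne.symm hx)).symm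
  · have hd : ∀ y, y ≠ x0 → y ≠ C.x → Disjoint (I (D.H y)) (P (D.H C.x)) ∧
        Disjoint (I (D.H C.x)) (P (D.H y)) := fun y h1 h2 =>
      ⟨D.disj y h1 _ hx h2, D.disj _ hx y h1 (Ne.symm h2)⟩
    rintro (_ | y) hy (_ | y') hy' hne
    · exact absurd rfl hne
    · by_cases hyx : y' = C.x
      · rw [hyx, Set.disjoint_left]
        intro w h1 h2
        exact absurd (D.mem_In.1 h1).1 (not_lt.2 (D.mem_Px.1 h2).1)
      · rw [D.nH_y hyx, Set.disjoint_left]
        intro w h1 h2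
        exact Set.disjoint_left.1 (hd y' (fun h => hy' (by rw [h])) hyx).2 (D.mem_In.1 h1).2 h2
    · by_cases hyx : y = C.x
      · rw [hyx, Set.disjoint_left]
        intro w h1 h2
        exact absurd (D.mem_Ix.1 h1).1 (not_lt.2 (D.mem_Pn.1 h2).1)
      · rw [D.nH_y hyx, Set.disjoint_left]
        intro w h1 h2
        exact Set.disjoint_left.1 (hd y (fun h => hy (by rw [h])) hyx).1 h1 (D.mem_Pn.1 h2).2
    · by_cases hyx : y = C.x
      · have hyx' : y' ≠ C.x := fun h => hne (by rw [hyx, h])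
        rw [hyx, D.nH_y hyx', Set.disjoint_left]
        intro w h1 h2
        exact Set.disjoint_left.1 (hd y' (fun h => hy' (by rw [h])) hyx').2 (D.mem_Ix.1 h1).2 h2
      · by_cases hyx' : y' = C.x
        · rw [hyx', D.nH_y hyx, Set.disjoint_left]
          intro w h1 h2
          exact Set.disjoint_left.1 (hd y (fun h => hy (by rw [h])) hyx).1 h1 (D.mem_Px.1 h2).2
        · rw [D.nH_y hyx, D.nH_y hyx']
          exact D.disj y (fun h => hy (by rw [h])) y' (fun h => hy' (by rw [h]))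
            fun h => hne (by rw [h])
  · refine D.cov.trans ?_
    ext w
    constructor
    · intro hw
      obtain ⟨y, hy, hwy⟩ := mem_iUnion₂.1 hw
      have hy : y ≠ x0 := hy
      by_cases hyx : y = C.x
      · rw [hyx] at hwy
        rcases le_total c (lam w) with h | h
        · exact mem_biUnion (x := some C.x) (show some C.x ≠ some x0 from
            fun h => hx (Option.some_injective _ h)) (D.mem_Px.2 ⟨h, hwy⟩)
        · exact mem_biUnion (x := none) (show none ≠ some x0 by simp) (D.mem_Pn.2 ⟨h, hwy⟩)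
      · refine mem_biUnion (x := some y) (show some y ≠ some x0 from
            fun h => hy (Option.some_injective _ h)) ?_
        rw [D.nH_y hyx]; exact hwy
    · intro hw
      obtain ⟨z, hz, hwz⟩ := mem_iUnion₂.1 hw
      have hz : z ≠ some x0 := hz
      rcases z with _ | y
      · exact mem_biUnion (x := C.x) hx (D.mem_Pn.1 hwz).2
      · by_cases hyx : y = C.x
        · rw [hyx] at hwz
          exact mem_biUnion (x := C.x) hx (D.mem_Px.1 hwz).2
        · rw [D.nH_y hyx] at hwz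
          exact mem_biUnion (x := y) (show y ≠ x0 from fun h => hz (by rw [h])) hwz

end Drw

end Crest.Agent.R096.Sph_560
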