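import Crest.Agent.R096.Spg3_560

/-!
# R096 (row 96), DOORS (D6) / SPH, (G2) part 4 (helper560): fine drawings by halving
-/

set_option autoImplicit false

open Set Metric

namespace Crest.Agent.R096.Sph_560

open Msh_715

variable {F : Type*} [NormedAddCommGroup F] [NormedSpace ℝ F]

/-- a finite cubic graph with a straight drawing -/
structure Msh (T0 T1 : Set F) where
  N : Type
  R : Type
  X : Type
  fN : Finite N
  fR : Finite R
  fX : Finite X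
  G : Cub N R X
  share : G.Share
  x0 : X
  D : Drw G x0 T0 T1

/-- width of a set in the direction `lam` at most `w` -/
def Wd (lam : F →L[ℝ] ℝ) (w : ℝ) (A : Set F) : Prop := ∀ y ∈ A, ∀ z ∈ A, lam y - lam z ≤ w

theorem Wd.mono {lam : F →L[ℝ] ℝ} {w w' : ℝ} {A B : Set F} (h : Wd lam w A) (hB : B ⊆ A)
    (hw : w ≤ w') : Wd lam w' B := fun y hy z hz => (h y (hB hy) z (hB hz)).trans hw

namespace Msh

variable {T0 T1 : Set F}

/-- the level of a good cut -/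
theorem exists_level (M : Msh T0 T1) {lam : F →L[ℝ] ℝ} {w : ℝ} (hw : 0 < w) {x : M.X}
    (hx : x ≠ M.x0) (h1 : Wd lam w (P (M.D.H x))) (h2 : ¬ Wd lam (3 / 4 * w) (P (M.D.H x))) :
    ∃ c, (∀ a, lam (M.D.pt a) ≠ c) ∧ (∃ y ∈ P (M.D.H x), c < lam y) ∧
      (∃ y ∈ P (M.D.H x), lam y < c) ∧ (∀ y ∈ P (M.D.H x), lam y ≤ c + 3 / 4 * w) ∧
      ∀ y ∈ P (M.D.H x), c - 3 / 4 * w ≤ lam y := by
  have := M.fN
  have hc := M.D.cpt x hx
  have hne : (P (M.D.H x)).Nonempty := (M.D.int x hx).mono (I_sub_P _)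
  obtain ⟨yM, hyM, hmax⟩ := hc.exists_isMaxOn hne lam.continuous.continuousOn
  obtain ⟨ym, hym, hmin⟩ := hc.exists_isMinOn hne lam.continuous.continuousOn
  have hmax : ∀ y ∈ P (M.D.H x), lam y ≤ lam yM := hmax
  have hmin : ∀ y ∈ P (M.D.H x), lam ym ≤ lam y := hmin
  have hgap : 3 / 4 * w < lam yM - lam ym := by
    unfold Wd at h2
    push Not at h2
    obtain ⟨y, hy, z, hz, h⟩ := h2
    have := hmax y hy
    have := hmin z hz
    linarith
  have hle := h1 yM hyM ym hym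
  have hlt : max (lam ym) (lam yM - 3 / 4 * w) < min (lam yM) (lam ym + 3 / 4 * w) := by
    rw [max_lt_iff, lt_min_iff, lt_min_iff]
    exact ⟨⟨by linarith, by linarith⟩, by linarith, by linarith⟩
  obtain ⟨c, hc, hcn⟩ := (Set.Ioo_infinite hlt).exists_notMem_finite
    (Set.finite_range fun a => lam (M.D.pt a))
  obtain ⟨hc1, hc2⟩ := hc
  rw [max_lt_iff] at hc1
  rw [lt_min_iff] at hc2
  refine ⟨c, fun a h => hcn ⟨a, h⟩, ⟨yM, hyM, hc2.1⟩, ⟨ym, hym, hc1.1⟩, fun y hy => ?_,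
    fun y hy => ?_⟩
  · have := hmax y hy
    linarith
  · have := hmin y hy
    linarith

theorem halve_aux {lam : F →L[ℝ] ℝ} {v : F} (hv : v ≠ 0) (hv0 : lam v = 0)
    (hker : ∀ y, lam y = 0 → ∃ t : ℝ, y = t • v) {w : ℝ} (hw : 0 < w)
    (Q : Set F → Prop) (hQ : ∀ A B, A ⊆ B → Q B → Q A) :
    ∀ (n : ℕ) (M : Msh T0 T1), (∀ x, x ≠ M.x0 → Wd lam w (P (M.D.H x))) →
      (∀ x, x ≠ M.x0 → Q (P (M.D.H x))) →
      {x | x ≠ M.x0 ∧ ¬ Wd lam (3 / 4 * w) (P (M.D.H x))}.ncard ≤ n →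
      ∃ M' : Msh T0 T1, (∀ x, x ≠ M'.x0 → Wd lam (3 / 4 * w) (P (M'.D.H x))) ∧
        (∀ x, x ≠ M'.x0 → Q (P (M'.D.H x))) := by
  intro n
  induction n with
  | zero =>
    intro M h1 h2 h3
    have := M.fX
    refine ⟨M, fun x hx => ?_, h2⟩
    by_contra hcon
    have : {x | x ≠ M.x0 ∧ ¬ Wd lam (3 / 4 * w) (P (M.D.H x))} = ∅ :=
      (Set.ncard_eq_zero (toFinite _)).1 (Nat.le_zero.1 h3)
    rw [Set.eq_empty_iff_forall_notMem] at this
    exact this x ⟨hx, hcon⟩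
  | succ n ih =>
    intro M h1 h2 h3
    have := M.fX
    have := M.fR
    have := M.fN
    by_cases hex : ∃ x, x ≠ M.x0 ∧ ¬ Wd lam (3 / 4 * w) (P (M.D.H x))
    swap
    · push Not at hex
      exact ⟨M, hex, h2⟩
    obtain ⟨x, hx, hbad⟩ := hex
    obtain ⟨c, hgen, hup, hdn, hu, hd⟩ := M.exists_level hw hx (h1 x hx) hbad
    obtain ⟨C, D', hCx, hy, hP, hN⟩ := M.D.step M.share hx hv hv0 hker hgen hup hdn
    have hgoodP : Wd lam (3 / 4 * w) (P (D'.H (some x))) := by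
      intro y hy z hz
      have e1 := (hP y).1 hy
      have e2 := (hP z).1 hz
      have := hu y e1.2
      linarith [e2.1]
    have hgoodN : Wd lam (3 / 4 * w) (P (D'.H none)) := by
      intro y hy z hz
      have e1 := (hN y).1 hy
      have e2 := (hN z).1 hz
      have := hd z e2.2
      linarith [e1.1]
    have hsub : ∀ z, z ≠ some M.x0 → ∃ y, y ≠ M.x0 ∧ P (D'.H z) ⊆ P (M.D.H y) := by
      rintro (_ | y) hz
      · exact ⟨x, hx, fun w hw => ((hN w).1 hw).2⟩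
      · by_cases hyx : y = x
        · rw [hyx]
          exact ⟨x, hx, fun w hw => ((hP w).1 hw).2⟩
        · rw [hy y hyx]
          exact ⟨y, fun h => hz (by rw [h]), Subset.rfl⟩
    refine ih ⟨M.N ⊕ Bool, M.R ⊕ Option Bool, Option M.X, inferInstance, inferInstance,
      inferInstance, C.split M.share, C.split_share M.share, some M.x0, D'⟩ ?_ ?_ ?_
    · intro z hz
      obtain ⟨y, hy1, hy2⟩ := hsub z hz
      exact (h1 y hy1).mono hy2 le_rfl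
    · intro z hz
      obtain ⟨y, hy1, hy2⟩ := hsub z hz
      exact hQ _ _ hy2 (h2 y hy1)
    · have hle : {z | z ≠ some M.x0 ∧ ¬ Wd lam (3 / 4 * w) (P (D'.H z))} ⊆
          some '' ({y | y ≠ M.x0 ∧ ¬ Wd lam (3 / 4 * w) (P (M.D.H y))} \ {x}) := by
        rintro (_ | y) ⟨hz, hb⟩
        · exact absurd hgoodN hb
        · by_cases hyx : y = x
          · rw [hyx] at hb
            exact absurd hgoodP hb
          · rw [hy y hyx] at hb
            exact ⟨y, ⟨⟨fun h => hz (by rw [h]), hb⟩, hyx⟩, rfl⟩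
      have h4 := Set.ncard_le_ncard hle (toFinite _)
      have h5 := Set.ncard_image_of_injective
        ({y | y ≠ M.x0 ∧ ¬ Wd lam (3 / 4 * w) (P (M.D.H y))} \ {x}) (Option.some_injective M.X)
      have h6 := Set.ncard_sdiff_singleton_of_mem
        (show x ∈ {y | y ≠ M.x0 ∧ ¬ Wd lam (3 / 4 * w) (P (M.D.H y))} from ⟨hx, hbad⟩)
      show {z | z ≠ some M.x0 ∧ ¬ Wd lam (3 / 4 * w) (P (D'.H z))}.ncard ≤ n
      omega

theorem halve {lam : F →L[ℝ] ℝ} {v : F} (hv : v ≠ 0) (hv0 : lam v = 0)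
    (hker : ∀ y, lam y = 0 → ∃ t : ℝ, y = t • v) {w : ℝ} (hw : 0 < w)
    (Q : Set F → Prop) (hQ : ∀ A B, A ⊆ B → Q B → Q A) (k : ℕ) (M : Msh T0 T1)
    (h1 : ∀ x, x ≠ M.x0 → Wd lam w (P (M.D.H x))) (h2 : ∀ x, x ≠ M.x0 → Q (P (M.D.H x))) :
    ∃ M' : Msh T0 T1, (∀ x, x ≠ M'.x0 → Wd lam ((3 / 4) ^ k * w) (P (M'.D.H x))) ∧
      (∀ x, x ≠ M'.x0 → Q (P (M'.D.H x))) := by
  induction k with
  | zero => exact ⟨M, by simpa using h1, h2⟩
  | succ k ih =>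
    obtain ⟨M', h1', h2'⟩ := ih
    obtain ⟨M'', h1'', h2''⟩ := halve_aux hv hv0 hker (w := (3 / 4) ^ k * w) (by positivity) Q hQ _
      M' h1' h2' le_rfl
    refine ⟨M'', fun x hx => (h1'' x hx).mono Subset.rfl (le_of_eq ?_), h2''⟩
    rw [pow_succ]; ring

theorem fine {lam : F →L[ℝ] ℝ} {v : F} (hv : v ≠ 0) (hv0 : lam v = 0)
    (hker : ∀ y, lam y = 0 → ∃ t : ℝ, y = t • v) {ε : ℝ} (hε : 0 < ε)
    (Q : Set F → Prop) (hQ : ∀ A B, A ⊆ B → Q B → Q A) (hT : IsCompact T0) (M : Msh T0 T1)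
    (h2 : ∀ x, x ≠ M.x0 → Q (P (M.D.H x))) :
    ∃ M' : Msh T0 T1, (∀ x, x ≠ M'.x0 → Wd lam ε (P (M'.D.H x))) ∧
      (∀ x, x ≠ M'.x0 → Q (P (M'.D.H x))) := by
  obtain ⟨B, hB⟩ := (hT.image lam.continuous).isBounded.exists_norm_le
  have hsub : ∀ x, x ≠ M.x0 → P (M.D.H x) ⊆ T0 := by
    intro x hx
    refine Subset.trans ?_ M.D.cov.symm.subset
    exact subset_biUnion_of_mem (u := fun x => P (M.D.H x)) (show x ∈ {x | x ≠ M.x0} from hx)
  set w : ℝ := 2 * |B| + 1 with hwd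
  have hw : 0 < w := by positivity
  have h1 : ∀ x, x ≠ M.x0 → Wd lam w (P (M.D.H x)) := by
    intro x hx y hy z hz
    have e1 := hB _ ⟨y, hsub x hx hy, rfl⟩
    have e2 := hB _ ⟨z, hsub x hx hz, rfl⟩
    rw [Real.norm_eq_abs] at e1 e2
    have := le_abs_self (lam y)
    have := neg_abs_le (lam z)
    have := le_abs_self B
    rw [hwd]
    linarith
  obtain ⟨k, hk⟩ := exists_pow_lt_of_lt_one (div_pos hε hw) (show (3 / 4 : ℝ) < 1 by norm_num)
  obtain ⟨M', h1', h2'⟩ := halve hv hv0 hker hw Q hQ k M h1 h2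
  refine ⟨M', fun x hx => (h1' x hx).mono Subset.rfl ?_, h2'⟩
  rw [lt_div_iff₀ hw] at hk
  exact hk.le

/-- **fine drawings in the plane** -/
theorem exists_fine {T0 T1 : Set (ℝ × ℝ)} (hT : IsCompact T0) (M : Msh T0 T1) {ε : ℝ}
    (hε : 0 < ε) : ∃ M' : Msh T0 T1, ∀ x, x ≠ M'.x0 → ∀ y ∈ P (M'.D.H x), ∀ z ∈ P (M'.D.H x),
      dist y z ≤ ε := by
  obtain ⟨M1, h1, -⟩ := fine (lam := ContinuousLinearMap.fst ℝ ℝ ℝ) (v := ((0, 1) : ℝ × ℝ))
    (by simp) (by simp) (fun y hy => ⟨y.2, by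
      have : y.1 = 0 := hy
      ext <;> simp [this]⟩) hε (fun _ => True) (fun _ _ _ _ => trivial) hT M (fun _ _ => trivial)
  obtain ⟨M2, h2, h3⟩ := fine (lam := ContinuousLinearMap.snd ℝ ℝ ℝ) (v := ((1, 0) : ℝ × ℝ))
    (by simp) (by simp) (fun y hy => ⟨y.1, by
      have : y.2 = 0 := hy
      ext <;> simp [this]⟩) hε (fun A => Wd (ContinuousLinearMap.fst ℝ ℝ ℝ) ε A)
      (fun A B hAB hB => hB.mono hAB le_rfl) hT M1 h1
  refine ⟨M2, fun x hx y hy z hz => ?_⟩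
  rw [Prod.dist_eq, Real.dist_eq, Real.dist_eq]
  refine max_le (abs_le.2 ⟨?_, ?_⟩) (abs_le.2 ⟨?_, ?_⟩)
  · have : z.1 - y.1 ≤ ε := h3 x hx z hz y hy
    linarith
  · exact h3 x hx y hy z hz
  · have : z.2 - y.2 ≤ ε := h2 x hx z hz y hy
    linarith
  · exact h2 x hx y hy z hz

end Msh

end Crest.Agent.R096.Sph_560
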