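import Crest.Agent.R096.Spg4_560

/-!
# R096 (row 96), DOORS (D6) / SPH, (G2) part 5 (helper560): the tetrahedron drawn in a triangle
-/

set_option autoImplicit false

open Set Metric

namespace Crest.Agent.R096.Sph_560

open Msh_715

namespace K4

/-- the edges of the tetrahedron -/
def ends : Fin 6 → Sym2 (Fin 4) := ![s(0, 1), s(0, 2), s(1, 2), s(0, 3), s(1, 3), s(2, 3)]

/-- the face opposite to the node `x` -/
def bd (x : Fin 4) : Finset (Fin 6) := Finset.univ.filter fun r => x ∉ ends r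

theorem three (a : Fin 4) : {r | a ∈ ends r}.ncard = 3 := by
  have : {r | a ∈ ends r} = ((Finset.univ.filter fun r => a ∈ ends r : Finset (Fin 6)) : Set (Fin 6)) := by
    ext r; simp
  rw [this, Set.ncard_coe_finset]
  clear this
  revert a; decide

theorem deg (x a : Fin 4) : {r | r ∈ bd x ∧ a ∈ ends r}.ncard = 0 ∨
    {r | r ∈ bd x ∧ a ∈ ends r}.ncard = 2 := by
  have : {r | r ∈ bd x ∧ a ∈ ends r} =
      ((Finset.univ.filter fun r => r ∈ bd x ∧ a ∈ ends r : Finset (Fin 6)) : Set (Fin 6)) := by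
    ext r; simp
  rw [this, Set.ncard_coe_finset]
  clear this
  revert x a; decide

set_option maxRecDepth 100000 in
set_option maxHeartbeats 4000000 in
theorem simple_aux : ∀ x : Fin 4, ∀ Q ∈ (bd x).powerset,
    (∀ a, Even (Finset.univ.filter fun r => r ∈ Q ∧ a ∈ ends r : Finset (Fin 6)).card) →
    Q = ∅ ∨ Q = bd x := by
  decide

theorem simple (x : Fin 4) (Q : Finset (Fin 6)) (hQ : Q ⊆ bd x)
    (he : ∀ a, Even {r | r ∈ Q ∧ a ∈ ends r}.ncard) : Q = ∅ ∨ Q = bd x := by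
  refine simple_aux x Q (Finset.mem_powerset.2 hQ) fun a => ?_
  have : {r | r ∈ Q ∧ a ∈ ends r} =
      ((Finset.univ.filter fun r => r ∈ Q ∧ a ∈ ends r : Finset (Fin 6)) : Set (Fin 6)) := by
    ext r; simp
  have h := he a
  rw [this, Set.ncard_coe_finset] at h
  exact h

/-- the tetrahedron -/
def G : Cub (Fin 4) (Fin 6) (Fin 4) where
  ends := ends
  nd := by decide
  multi := by decide
  three := three
  bd := bd
  bd_ne := by decide
  twoF := by decide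
  deg := deg
  simple := simple
  out := by decide
  conn := by
    intro x A h r r' hr hr' hrA
    have h1 : x ∈ ends r := by
      by_contra hcon
      exact hr (Finset.mem_filter.2 ⟨Finset.mem_univ _, hcon⟩)
    have h2 : x ∈ ends r' := by
      by_contra hcon
      exact hr' (Finset.mem_filter.2 ⟨Finset.mem_univ _, hcon⟩)
    exact h x (fun q hq => (Finset.mem_filter.1 hq).2) r r' h1 h2 hrA

theorem share : G.Share := by
  unfold Cub.Share
  show ∀ x y, x ≠ y → ∀ r r', r ∈ bd x → r ∈ bd y → r' ∈ bd x → r' ∈ bd y → r = r'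
  decide

/-- the nodes -/
noncomputable def pt : Fin 4 → ℝ × ℝ := ![(1, 0), (0, 1), (0, 0), (1 / 3, 1 / 3)]

/-- the conditions of the segments -/
def Ed (r : Fin 6) (w : ℝ × ℝ) : Prop :=
  match r with
  | 0 => w.1 + w.2 = 1 ∧ 0 ≤ w.1 ∧ 0 ≤ w.2
  | 1 => w.2 = 0 ∧ 0 ≤ w.1 ∧ w.1 ≤ 1
  | 2 => w.1 = 0 ∧ 0 ≤ w.2 ∧ w.2 ≤ 1
  | 3 => w.1 + 2 * w.2 = 1 ∧ 0 ≤ w.2 ∧ w.2 ≤ w.1
  | 4 => 2 * w.1 + w.2 = 1 ∧ 0 ≤ w.1 ∧ w.1 ≤ w.2
  | 5 => w.1 = w.2 ∧ 0 ≤ w.1 ∧ 3 * w.1 ≤ 1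

theorem mem_seg_iff (a b : ℝ × ℝ) (w : ℝ × ℝ) :
    w ∈ segment ℝ a b ↔ ∃ t : ℝ, 0 ≤ t ∧ t ≤ 1 ∧ w.1 = (1 - t) * a.1 + t * b.1 ∧
      w.2 = (1 - t) * a.2 + t * b.2 := by
  constructor
  · rintro ⟨s, t, hs, ht, hst, rfl⟩
    have e : s = 1 - t := by linarith
    exact ⟨t, ht, by linarith, by simp [e], by simp [e]⟩
  · rintro ⟨t, h0, h1, e1, e2⟩
    refine ⟨1 - t, t, by linarith, h0, by ring, ?_⟩
    ext
    · simp [e1]
    · simp [e2]

theorem mem_sg : ∀ (r : Fin 6) (w : ℝ × ℝ), w ∈ seg ends pt r ↔ Ed r w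
  | 0, w => by
    rw [show seg ends pt 0 = segment ℝ (pt 0) (pt 1) from seg_eq rfl, mem_seg_iff]
    simp only [pt, Ed]
    constructor
    · rintro ⟨t, h0, h1, e1, e2⟩
      simp at e1 e2
      rw [e1, e2]
      exact ⟨by ring, by linarith, by linarith⟩
    · rintro ⟨h1, h2, h3⟩
      exact ⟨w.2, h3, by linarith, by simp; linarith, by simp⟩
  | 1, w => by
    rw [show seg ends pt 1 = segment ℝ (pt 0) (pt 2) from seg_eq rfl, mem_seg_iff]
    simp only [pt, Ed]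
    constructor
    · rintro ⟨t, h0, h1, e1, e2⟩
      simp at e1 e2
      rw [e1, e2]
      exact ⟨rfl, by linarith, by linarith⟩
    · rintro ⟨h1, h2, h3⟩
      exact ⟨1 - w.1, by linarith, by linarith, by simp, by simp [h1]⟩
  | 2, w => by
    rw [show seg ends pt 2 = segment ℝ (pt 1) (pt 2) from seg_eq rfl, mem_seg_iff]
    simp only [pt, Ed]
    constructor
    · rintro ⟨t, h0, h1, e1, e2⟩
      simp at e1 e2
      rw [e1, e2]
      exact ⟨rfl, by linarith, by linarith⟩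
    · rintro ⟨h1, h2, h3⟩
      exact ⟨1 - w.2, by linarith, by linarith, by simp [h1], by simp⟩
  | 3, w => by
    rw [show seg ends pt 3 = segment ℝ (pt 0) (pt 3) from seg_eq rfl, mem_seg_iff]
    simp only [pt, Ed]
    constructor
    · rintro ⟨t, h0, h1, e1, e2⟩
      simp at e1 e2
      rw [e1, e2]
      exact ⟨by ring, by linarith, by linarith⟩
    · rintro ⟨h1, h2, h3⟩
      exact ⟨3 * w.2, by linarith, by linarith, by simp; linarith, by simp; ring⟩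
  | 4, w => by
    rw [show seg ends pt 4 = segment ℝ (pt 1) (pt 3) from seg_eq rfl, mem_seg_iff]
    simp only [pt, Ed]
    constructor
    · rintro ⟨t, h0, h1, e1, e2⟩
      simp at e1 e2
      rw [e1, e2]
      exact ⟨by ring, by linarith, by linarith⟩
    · rintro ⟨h1, h2, h3⟩
      exact ⟨3 * w.1, by linarith, by linarith, by simp; ring, by simp; linarith⟩
  | 5, w => by
    rw [show seg ends pt 5 = segment ℝ (pt 2) (pt 3) from seg_eq rfl, mem_seg_iff]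
    simp only [pt, Ed]
    constructor
    · rintro ⟨t, h0, h1, e1, e2⟩
      simp at e1 e2
      rw [e1, e2]
      exact ⟨by ring, by linarith, by linarith⟩
    · rintro ⟨h1, h2, h3⟩
      exact ⟨3 * w.1, by linarith, by linarith, by simp; ring, by simp [← h1]; ring⟩

/-! ### the polygons -/

/-- coordinates -/
noncomputable abbrev fx : ℝ × ℝ →L[ℝ] ℝ := ContinuousLinearMap.fst ℝ ℝ ℝ
noncomputable abbrev fy : ℝ × ℝ →L[ℝ] ℝ := ContinuousLinearMap.snd ℝ ℝ ℝ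

open Classical in
/-- the inequalities of the faces; the last one is the whole triangle -/
noncomputable def H : Fin 4 → Finset ((ℝ × ℝ →L[ℝ] ℝ) × ℝ) :=
  ![{(-fx, 0), (fx - fy, 0), ((2 : ℝ) • fx + fy, 1)},
    {(-fy, 0), (fy - fx, 0), (fx + (2 : ℝ) • fy, 1)},
    {(fx + fy, 1), (-((2 : ℝ) • fx) - fy, -1), (-fx - (2 : ℝ) • fy, -1)},
    {(-fx, 0), (-fy, 0), (fx + fy, 1)}]

/-- the polygons by inequalities -/
def Pc (x : Fin 4) (w : ℝ × ℝ) : Prop :=
  match x with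
  | 0 => 0 ≤ w.1 ∧ w.1 ≤ w.2 ∧ 2 * w.1 + w.2 ≤ 1
  | 1 => 0 ≤ w.2 ∧ w.2 ≤ w.1 ∧ w.1 + 2 * w.2 ≤ 1
  | 2 => w.1 + w.2 ≤ 1 ∧ 1 ≤ 2 * w.1 + w.2 ∧ 1 ≤ w.1 + 2 * w.2
  | 3 => 0 ≤ w.1 ∧ 0 ≤ w.2 ∧ w.1 + w.2 ≤ 1

/-- the open polygons by inequalities -/
def Po (x : Fin 4) (w : ℝ × ℝ) : Prop :=
  match x with
  | 0 => 0 < w.1 ∧ w.1 < w.2 ∧ 2 * w.1 + w.2 < 1
  | 1 => 0 < w.2 ∧ w.2 < w.1 ∧ w.1 + 2 * w.2 < 1
  | 2 => w.1 + w.2 < 1 ∧ 1 < 2 * w.1 + w.2 ∧ 1 < w.1 + 2 * w.2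
  | 3 => 0 < w.1 ∧ 0 < w.2 ∧ w.1 + w.2 < 1

theorem mem_P3 {F : Type*} [NormedAddCommGroup F] [NormedSpace ℝ F] {h1 h2 h3 : (F →L[ℝ] ℝ) × ℝ}
    [DecidableEq ((F →L[ℝ] ℝ) × ℝ)] {w : F} :
    w ∈ P ({h1, h2, h3} : Finset ((F →L[ℝ] ℝ) × ℝ)) ↔ h1.1 w ≤ h1.2 ∧ h2.1 w ≤ h2.2 ∧ h3.1 w ≤ h3.2 := by
  simp [P]

theorem mem_I3 {F : Type*} [NormedAddCommGroup F] [NormedSpace ℝ F] {h1 h2 h3 : (F →L[ℝ] ℝ) × ℝ}
    [DecidableEq ((F →L[ℝ] ℝ) × ℝ)] {w : F} :
    w ∈ I ({h1, h2, h3} : Finset ((F →L[ℝ] ℝ) × ℝ)) ↔ h1.1 w < h1.2 ∧ h2.1 w < h2.2 ∧ h3.1 w < h3.2 := by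
  simp [I]

theorem mem_P : ∀ (x : Fin 4) (w : ℝ × ℝ), w ∈ P (H x) ↔ Pc x w
  | 0, w => by
    classical
    refine mem_P3.trans ?_
    simp only [Pc]
    refine and_congr ?_ (and_congr ?_ ?_)
    · simp
    · simp
    · simp
  | 1, w => by
    classical
    refine mem_P3.trans ?_
    simp only [Pc]
    refine and_congr ?_ (and_congr ?_ ?_)
    · simp
    · simp
    · simp
  | 2, w => by
    classical
    refine mem_P3.trans ?_
    simp only [Pc]
    refine and_congr ?_ (and_congr ?_ ?_)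
    · simp
    · simp
      constructor <;> intro h <;> linarith
    · simp
      constructor <;> intro h <;> linarith
  | 3, w => by
    classical
    refine mem_P3.trans ?_
    simp only [Pc]
    refine and_congr ?_ (and_congr ?_ ?_)
    · simp
    · simp
    · simp

theorem mem_I : ∀ (x : Fin 4) (w : ℝ × ℝ), w ∈ I (H x) ↔ Po x w
  | 0, w => by
    classical
    refine mem_I3.trans ?_
    simp only [Po]
    refine and_congr ?_ (and_congr ?_ ?_)
    · simp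
    · simp
    · simp
  | 1, w => by
    classical
    refine mem_I3.trans ?_
    simp only [Po]
    refine and_congr ?_ (and_congr ?_ ?_)
    · simp
    · simp
    · simp
  | 2, w => by
    classical
    refine mem_I3.trans ?_
    simp only [Po]
    refine and_congr ?_ (and_congr ?_ ?_)
    · simp
    · simp
      constructor <;> intro h <;> linarith
    · simp
      constructor <;> intro h <;> linarith
  | 3, w => by
    classical
    refine mem_I3.trans ?_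
    simp only [Po]
    refine and_congr ?_ (and_congr ?_ ?_)
    · simp
    · simp
    · simp

/-- the triangle -/
def T0 : Set (ℝ × ℝ) := P (H 3)

/-- its boundary -/
def T1 : Set (ℝ × ℝ) := P (H 3) \ I (H 3)

theorem isCompact_T0 : IsCompact T0 := by
  refine Metric.isCompact_of_isClosed_isBounded (isClosed_P _) ?_
  refine (Metric.isBounded_iff_subset_closedBall (0 : ℝ × ℝ)).2 ⟨1, fun w hw => ?_⟩
  have h : Pc 3 w := (mem_P 3 w).1 hw
  obtain ⟨h1, h2, h3⟩ := h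
  rw [mem_closedBall_zero_iff, Prod.norm_def, Real.norm_eq_abs, Real.norm_eq_abs,
    abs_of_nonneg h1, abs_of_nonneg h2]
  exact max_le (by linarith) (by linarith)

theorem Pc_sub : ∀ (x : Fin 4) (w : ℝ × ℝ), Pc x w → Pc 3 w
  | 0, w, ⟨h1, h2, h3⟩ => ⟨h1, by linarith, by linarith⟩
  | 1, w, ⟨h1, h2, h3⟩ => ⟨by linarith, h1, by linarith⟩
  | 2, w, ⟨h1, h2, h3⟩ => ⟨by linarith, by linarith, h1⟩
  | 3, w, h => h

theorem inj : Function.Injective pt := by
  intro a b h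
  fin_cases a <;> fin_cases b <;> simp [pt] at h ⊢

theorem pt_seg (a : Fin 4) (r : Fin 6) (h : pt a ∈ seg ends pt r) : a ∈ ends r := by
  rw [mem_sg] at h
  fin_cases a <;> fin_cases r <;>
    first
    | (exact (by decide))
    | (exfalso; simp [pt, Ed] at h; done)
    | (exfalso; simp [pt, Ed] at h; norm_num at h; done)
    | (exfalso; simp [pt, Ed] at h; linarith)

theorem seg_seg (r r' : Fin 6) (hne : r ≠ r') (y : ℝ × ℝ) (h : Ed r y) (h' : Ed r' y) :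
    ∃ a, y = pt a := by
  obtain ⟨u, v⟩ := y
  have key : (u = 1 ∧ v = 0) ∨ (u = 0 ∧ v = 1) ∨ (u = 0 ∧ v = 0) ∨ (u = 1/3 ∧ v = 1/3) := by
    fin_cases r <;> fin_cases r' <;> simp [Ed] at h h' hne <;>
    first
    | (left; constructor <;> linarith)
    | (right; left; constructor <;> linarith)
    | (right; right; left; constructor <;> linarith)
    | (right; right; right; constructor <;> linarith)
    | (exfalso; linarith)
  rcases key with ⟨rfl, rfl⟩ | ⟨rfl, rfl⟩ | ⟨rfl, rfl⟩ | ⟨rfl, rfl⟩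
  · exact ⟨0, rfl⟩
  · exact ⟨1, rfl⟩
  · exact ⟨2, rfl⟩
  · exact ⟨3, rfl⟩

theorem int : ∀ (x : Fin 4), x ≠ 3 → (I (H x)).Nonempty
  | 0, _ => ⟨(1 / 9, 4 / 9), (mem_I 0 _).2 ⟨by norm_num, by norm_num, by norm_num⟩⟩
  | 1, _ => ⟨(4 / 9, 1 / 9), (mem_I 1 _).2 ⟨by norm_num, by norm_num, by norm_num⟩⟩
  | 2, _ => ⟨(4 / 9, 4 / 9), (mem_I 2 _).2 ⟨by norm_num, by norm_num, by norm_num⟩⟩
  | 3, h => absurd rfl h

theorem mem_bd_iff (x : Fin 4) (w : ℝ × ℝ) :
    (w ∈ ⋃ r ∈ bd x, seg ends pt r) ↔ ∃ r, x ∉ ends r ∧ Ed r w := by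
  constructor
  · intro h
    obtain ⟨r, hr, hw⟩ := mem_iUnion₂.1 h
    exact ⟨r, (Finset.mem_filter.1 hr).2, (mem_sg r w).1 hw⟩
  · rintro ⟨r, hr, hw⟩
    exact mem_biUnion (x := r) (Finset.mem_filter.2 ⟨Finset.mem_univ _, hr⟩) ((mem_sg r w).2 hw)

theorem fr : ∀ (x : Fin 4), P (H x) \ I (H x) = ⋃ r ∈ bd x, seg ends pt r := by
  intro x
  ext w
  rw [mem_bd_iff, mem_sdiff, mem_P, mem_I]
  obtain ⟨u, v⟩ := w
  fin_cases x
  · constructor
    · rintro ⟨⟨h1, h2, h3⟩, h⟩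
      have h1 : 0 ≤ u := h1
      have h2 : u ≤ v := h2
      have h3 : 2 * u + v ≤ 1 := h3
      have h : ¬ (0 < u ∧ u < v ∧ 2 * u + v < 1) := h
      rcases h1.lt_or_eq with h1' | h1'
      · rcases h2.lt_or_eq with h2' | h2'
        · have h3' : 2 * u + v = 1 := by
            by_contra hcon
            exact h ⟨h1', h2', lt_of_le_of_ne h3 hcon⟩
          exact ⟨4, by decide, h3', h1, h2⟩
        · exact ⟨5, by decide, h2', h1, show 3 * u ≤ 1 by linarith⟩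
      · exact ⟨2, by decide, h1'.symm, show 0 ≤ v by linarith, show v ≤ 1 by linarith⟩
    · rintro ⟨r, hr, hE⟩
      show (0 ≤ u ∧ u ≤ v ∧ 2 * u + v ≤ 1) ∧ ¬ (0 < u ∧ u < v ∧ 2 * u + v < 1)
      fin_cases r <;> first | (exact absurd (by decide) hr) | skip
      · obtain ⟨h1, h2, h3⟩ : u = 0 ∧ 0 ≤ v ∧ v ≤ 1 := hE
        exact ⟨⟨by linarith, by linarith, by linarith⟩, fun h => by linarith [h.1]⟩
      · obtain ⟨h1, h2, h3⟩ : 2 * u + v = 1 ∧ 0 ≤ u ∧ u ≤ v := hE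
        exact ⟨⟨by linarith, by linarith, by linarith⟩, fun h => by linarith [h.2.2]⟩
      · obtain ⟨h1, h2, h3⟩ : u = v ∧ 0 ≤ u ∧ 3 * u ≤ 1 := hE
        exact ⟨⟨by linarith, by linarith, by linarith⟩, fun h => by linarith [h.2.1]⟩
  · constructor
    · rintro ⟨⟨h1, h2, h3⟩, h⟩
      have h1 : 0 ≤ v := h1
      have h2 : v ≤ u := h2
      have h3 : u + 2 * v ≤ 1 := h3
      have h : ¬ (0 < v ∧ v < u ∧ u + 2 * v < 1) := h
      rcases h1.lt_or_eq with h1' | h1'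
      · rcases h2.lt_or_eq with h2' | h2'
        · have h3' : u + 2 * v = 1 := by
            by_contra hcon
            exact h ⟨h1', h2', lt_of_le_of_ne h3 hcon⟩
          exact ⟨3, by decide, h3', h1, h2⟩
        · exact ⟨5, by decide, h2'.symm, show 0 ≤ u by linarith, show 3 * u ≤ 1 by linarith⟩
      · exact ⟨1, by decide, h1'.symm, show 0 ≤ u by linarith, show u ≤ 1 by linarith⟩
    · rintro ⟨r, hr, hE⟩
      show (0 ≤ v ∧ v ≤ u ∧ u + 2 * v ≤ 1) ∧ ¬ (0 < v ∧ v < u ∧ u + 2 * v < 1)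
      fin_cases r <;> first | (exact absurd (by decide) hr) | skip
      · obtain ⟨h1, h2, h3⟩ : v = 0 ∧ 0 ≤ u ∧ u ≤ 1 := hE
        exact ⟨⟨by linarith, by linarith, by linarith⟩, fun h => by linarith [h.1]⟩
      · obtain ⟨h1, h2, h3⟩ : u + 2 * v = 1 ∧ 0 ≤ v ∧ v ≤ u := hE
        exact ⟨⟨by linarith, by linarith, by linarith⟩, fun h => by linarith [h.2.2]⟩
      · obtain ⟨h1, h2, h3⟩ : u = v ∧ 0 ≤ u ∧ 3 * u ≤ 1 := hE
        exact ⟨⟨by linarith, by linarith, by linarith⟩, fun h => by linarith [h.2.1]⟩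
  · constructor
    · rintro ⟨⟨h1, h2, h3⟩, h⟩
      have h1 : u + v ≤ 1 := h1
      have h2 : 1 ≤ 2 * u + v := h2
      have h3 : 1 ≤ u + 2 * v := h3
      have h : ¬ (u + v < 1 ∧ 1 < 2 * u + v ∧ 1 < u + 2 * v) := h
      rcases h1.lt_or_eq with h1' | h1'
      · rcases h2.lt_or_eq with h2' | h2'
        · have h3' : 1 = u + 2 * v := by
            by_contra hcon
            exact h ⟨h1', h2', lt_of_le_of_ne h3 hcon⟩
          exact ⟨3, by decide, h3'.symm, show 0 ≤ v by linarith, show v ≤ u by linarith⟩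
        · exact ⟨4, by decide, h2'.symm, show 0 ≤ u by linarith, show u ≤ v by linarith⟩
      · exact ⟨0, by decide, h1', show 0 ≤ u by linarith, show 0 ≤ v by linarith⟩
    · rintro ⟨r, hr, hE⟩
      show (u + v ≤ 1 ∧ 1 ≤ 2 * u + v ∧ 1 ≤ u + 2 * v) ∧
        ¬ (u + v < 1 ∧ 1 < 2 * u + v ∧ 1 < u + 2 * v)
      fin_cases r <;> first | (exact absurd (by decide) hr) | skip
      · obtain ⟨h1, h2, h3⟩ : u + v = 1 ∧ 0 ≤ u ∧ 0 ≤ v := hE
        exact ⟨⟨by linarith, by linarith, by linarith⟩, fun h => by linarith [h.1]⟩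
      · obtain ⟨h1, h2, h3⟩ : u + 2 * v = 1 ∧ 0 ≤ v ∧ v ≤ u := hE
        exact ⟨⟨by linarith, by linarith, by linarith⟩, fun h => by linarith [h.2.2]⟩
      · obtain ⟨h1, h2, h3⟩ : 2 * u + v = 1 ∧ 0 ≤ u ∧ u ≤ v := hE
        exact ⟨⟨by linarith, by linarith, by linarith⟩, fun h => by linarith [h.2.1]⟩
  · constructor
    · rintro ⟨⟨h1, h2, h3⟩, h⟩
      have h1 : 0 ≤ u := h1
      have h2 : 0 ≤ v := h2
      have h3 : u + v ≤ 1 := h3
      have h : ¬ (0 < u ∧ 0 < v ∧ u + v < 1) := h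
      rcases h1.lt_or_eq with h1' | h1'
      · rcases h2.lt_or_eq with h2' | h2'
        · have h3' : u + v = 1 := by
            by_contra hcon
            exact h ⟨h1', h2', lt_of_le_of_ne h3 hcon⟩
          exact ⟨0, by decide, h3', h1, h2⟩
        · exact ⟨1, by decide, h2'.symm, h1, show u ≤ 1 by linarith⟩
      · exact ⟨2, by decide, h1'.symm, h2, show v ≤ 1 by linarith⟩
    · rintro ⟨r, hr, hE⟩
      show (0 ≤ u ∧ 0 ≤ v ∧ u + v ≤ 1) ∧ ¬ (0 < u ∧ 0 < v ∧ u + v < 1)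
      fin_cases r <;> first | (exact absurd (by decide) hr) | skip
      · obtain ⟨h1, h2, h3⟩ : u + v = 1 ∧ 0 ≤ u ∧ 0 ≤ v := hE
        exact ⟨⟨by linarith, by linarith, by linarith⟩, fun h => by linarith [h.2.2]⟩
      · obtain ⟨h1, h2, h3⟩ : v = 0 ∧ 0 ≤ u ∧ u ≤ 1 := hE
        exact ⟨⟨by linarith, by linarith, by linarith⟩, fun h => by linarith [h.2.1]⟩
      · obtain ⟨h1, h2, h3⟩ : u = 0 ∧ 0 ≤ v ∧ v ≤ 1 := hE
        exact ⟨⟨by linarith, by linarith, by linarith⟩, fun h => by linarith [h.1]⟩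

theorem disj : ∀ (x : Fin 4), x ≠ 3 → ∀ (y : Fin 4), y ≠ 3 → x ≠ y →
    Disjoint (I (H x)) (P (H y)) := by
  intro x hx y hy hxy
  rw [Set.disjoint_left]
  rintro ⟨u, v⟩ h1 h2
  rw [mem_I] at h1
  rw [mem_P] at h2
  fin_cases x <;> fin_cases y <;> simp [Po, Pc] at h1 h2 hx hy hxy <;> linarith [h1.1, h1.2.1, h1.2.2, h2.1, h2.2.1, h2.2.2]

theorem cov : T0 = ⋃ x ∈ {x : Fin 4 | x ≠ 3}, P (H x) := by
  ext w
  constructor
  · intro h
    obtain ⟨h1, h2, h3⟩ : Pc 3 w := (mem_P 3 w).1 h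
    by_cases a : w.1 ≤ w.2
    · by_cases b : 2 * w.1 + w.2 ≤ 1
      · exact mem_biUnion (x := (0 : Fin 4)) (show (0 : Fin 4) ≠ 3 by decide)
          ((mem_P 0 w).2 ⟨h1, a, b⟩)
      · push Not at b
        exact mem_biUnion (x := (2 : Fin 4)) (show (2 : Fin 4) ≠ 3 by decide)
          ((mem_P 2 w).2 ⟨h3, b.le, by linarith⟩)
    · push Not at a
      by_cases b : w.1 + 2 * w.2 ≤ 1
      · exact mem_biUnion (x := (1 : Fin 4)) (show (1 : Fin 4) ≠ 3 by decide)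
          ((mem_P 1 w).2 ⟨h2, a.le, b⟩)
      · push Not at b
        exact mem_biUnion (x := (2 : Fin 4)) (show (2 : Fin 4) ≠ 3 by decide)
          ((mem_P 2 w).2 ⟨h3, by linarith, b.le⟩)
  · intro h
    obtain ⟨x, -, hx⟩ := mem_iUnion₂.1 h
    exact (mem_P 3 w).2 (Pc_sub x w ((mem_P x w).1 hx))

/-- **the tetrahedron in the triangle** -/
noncomputable def msh : Msh T0 T1 where
  N := Fin 4
  R := Fin 6
  X := Fin 4
  fN := inferInstance
  fR := inferInstance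
  fX := inferInstance
  G := G
  share := share
  x0 := 3
  D :=
    { pt := pt
      H := H
      inj := inj
      pt_seg := pt_seg
      seg_seg := fun r r' hne y h h' => seg_seg r r' hne y ((mem_sg r y).1 h) ((mem_sg r' y).1 h')
      cpt := fun x _ => isCompact_T0.of_isClosed_subset (isClosed_P _) fun w hw =>
        (mem_P 3 w).2 (Pc_sub x w ((mem_P x w).1 hw))
      int := int
      fr := fun x _ => fr x
      fr0 := fr 3
      disj := disj
      cov := cov }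

end K4

end Crest.Agent.R096.Sph_560
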