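import Crest.Agent.R096.Sph0_560
import Crest.Agent.R096.Ce2_537

/-!
# R096 (row 96), DOORS (D6) / SPH, part 1 (helper560): finite cell by cell assembly

* `exists_equiv_fin` : two finite complexes with the same poset: PL equivalence of the unions.
* `Cub.Cell`         : the poset of cells of a cubic graph.
* `Lay G Σ`          : realisation of `G` as a cell structure of the closed set `Σ`.
* `Lay.cplx`, `Lay.exists_equiv` : two realisations give `θ : Σ → Σ'` with `θ '' cell = cell'`.
-/

set_option autoImplicit false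

open Set Metric

namespace Crest.Agent.R096.Sph_560

open Crest.Agent.R096.Ce_537

variable {E F : Type*} [NormedAddCommGroup E] [NormedSpace ℝ E]
  [NormedAddCommGroup F] [NormedSpace ℝ F]

/-- **finite cell by cell assembly** -/
theorem exists_equiv_fin {S : Set E} {S' : Set F} {I : Type*} [Finite I] [PartialOrder I]
    {dim : I → ℕ} {K : I → Set E} {K' : I → Set F} (C : Cplx S I dim K) (C' : Cplx S' I dim K') :
    ∃ e : PLEquiv S S', (∀ i, e.f '' K i = K' i) ∧ ∀ i, e.g '' K' i = K i := by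
  classical
  have hb1 := C.isBall
  have hb2 := C'.isBall
  choose a ha using hb1
  choose b hb using hb2
  set H := Hf dim K K' a b ∅ (0 : E → F) with hH
  set H' := Hf dim K' K b a ∅ (0 : F → E) with hH'
  have hG : ∀ i, Good K K' H H' i :=
    good_all C C' a b ha hb ∅ (by simp) 0 0 (by simp) (by simp) (by simp) (by simp) (by simp)
      (by simp)
  set h := glob K H with hh
  set g := glob K' H' with hg
  have eh : ∀ i, ∀ x ∈ K i, h x = H i x := fun i x hx =>
    glob_eq C H hx (fun j hj hxj => (hG i).cf j hj x hxj)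
  have eg : ∀ i, ∀ y ∈ K' i, g y = H' i y := fun i y hy =>
    glob_eq C' H' hy (fun j hj hyj => (hG i).cg j hj y hyj)
  have mh : ∀ i, MapsTo h (K i) (K' i) := fun i x hx => by
    rw [eh i x hx]; exact (hG i).mf hx
  have mg' : ∀ i, MapsTo g (K' i) (K i) := fun i y hy => by
    rw [eg i y hy]; exact (hG i).mg hy
  have lh : ∀ i, ∀ x ∈ K i, g (h x) = x := fun i x hx => by
    rw [eg i _ (mh i hx), eh i x hx]; exact (hG i).li x hx
  have rh : ∀ i, ∀ y ∈ K' i, h (g y) = y := fun i y hy => by
    rw [eh i _ (mg' i hy), eg i y hy]; exact (hG i).ri y hy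
  have ph : ∀ i, PLOn h (K i) := fun i => (hG i).pf.congr (eh i)
  have pg2 : ∀ i, PLOn g (K' i) := fun i => (hG i).pg.congr (eg i)
  have hS : S ⊆ ⋃ i ∈ (univ : Set I), K i := fun x hx => by
    obtain ⟨i, hi⟩ := C.cover x hx
    exact mem_biUnion (mem_univ i) hi
  have hS' : S' ⊆ ⋃ i ∈ (univ : Set I), K' i := fun x hx => by
    obtain ⟨i, hi⟩ := C'.cover x hx
    exact mem_biUnion (mem_univ i) hi
  refine ⟨⟨h, g, ?_, ?_, ?_, ?_, ?_, ?_⟩, ?_, ?_⟩
  · exact (plOn_biUnion _ finite_univ (fun i _ => ph i) (fun i _ => C.isClosed i)).mono hS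
  · exact (plOn_biUnion _ finite_univ (fun i _ => pg2 i) (fun i _ => C'.isClosed i)).mono hS'
  · intro x hx
    obtain ⟨i, hi⟩ := C.cover x hx
    exact C'.sub i (mh i hi)
  · intro x hx
    obtain ⟨i, hi⟩ := C'.cover x hx
    exact C.sub i (mg' i hi)
  · intro x hx
    obtain ⟨i, hi⟩ := C.cover x hx
    exact lh i x hi
  · intro x hx
    obtain ⟨i, hi⟩ := C'.cover x hx
    exact rh i x hi
  · intro i
    ext y
    constructor
    · rintro ⟨x, hx, rfl⟩; exact mh i hx
    · intro hy; exact ⟨g y, mg' i hy, rh i y hy⟩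
  · intro i
    ext y
    constructor
    · rintro ⟨x, hx, rfl⟩; exact mg' i hx
    · intro hy; exact ⟨h y, mh i hy, lh i y hy⟩

/-- a point is a 0-ball -/
theorem isBall_zero (p : E) : IsBall 0 {p} (∅ : Set E) := by
  have hsph : sph 0 = ∅ := by
    rw [eq_empty_iff_forall_notMem]
    intro x hx
    have h1 : ‖x‖ = 1 := mem_sphere_zero_iff_norm.1 hx
    have h2 : x = 0 := Subsingleton.elim _ _
    rw [h2, norm_zero] at h1
    exact zero_ne_one h1
  refine ⟨⟨fun _ => p, fun _ => 0, plOn_const _ _, plOn_const _ _, ?_, ?_, ?_, ?_⟩, ?_⟩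
  · intro x _; rfl
  · intro y _; simp [cube]
  · intro x _; exact Subsingleton.elim _ _
  · intro y hy; exact (mem_singleton_iff.1 hy).symm
  · rw [hsph, image_empty]

namespace Cub

variable {N R X : Type*}

/-- the cells of the graph -/
inductive Cell (N R X : Type*)
  | node (a : N) : Cell N R X
  | edge (r : R) : Cell N R X
  | face (x : X) : Cell N R X

/-- dimension -/
def Cell.dim : Cell N R X → ℕ
  | .node _ => 0
  | .edge _ => 1
  | .face _ => 2

instance [Finite N] [Finite R] [Finite X] : Finite (Cell N R X) := by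
  have : Function.Surjective (fun s : N ⊕ R ⊕ X => match s with
    | .inl a => Cell.node a
    | .inr (.inl r) => Cell.edge r
    | .inr (.inr x) => (Cell.face x : Cell N R X)) := by
    rintro (a | r | x)
    · exact ⟨.inl a, rfl⟩
    · exact ⟨.inr (.inl r), rfl⟩
    · exact ⟨.inr (.inr x), rfl⟩
  exact Finite.of_surjective _ this

variable (G : Cub N R X)

/-- the node `a` is on the face `x` -/
def NodeOn (a : N) (x : X) : Prop := ∃ r ∈ G.bd x, a ∈ G.ends r

/-- incidence of cells (the graph is kept in the type) -/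
def CellG (_ : Cub N R X) := Cell N R X

instance [Finite N] [Finite R] [Finite X] : Finite (G.CellG) :=
  inferInstanceAs (Finite (Cell N R X))

/-- the strict order of the cells -/
def clt : Cell N R X → Cell N R X → Prop
  | .node a, .edge r => a ∈ G.ends r
  | .node a, .face x => G.NodeOn a x
  | .edge r, .face x => r ∈ G.bd x
  | _, _ => False

instance : PartialOrder G.CellG where
  le c d := c = d ∨ G.clt c d
  le_refl c := Or.inl rfl
  le_trans c d e h1 h2 := by
    rcases h1 with rfl | h1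
    · exact h2
    rcases h2 with rfl | h2
    · exact Or.inr h1
    right
    match c, d, e, h1, h2 with
    | .node a, .edge r, .face x, h1, h2 => exact ⟨r, h2, h1⟩
  le_antisymm c d h1 h2 := by
    rcases h1 with rfl | h1
    · rfl
    rcases h2 with h2 | h2
    · exact h2.symm
    exfalso
    match c, d, h1, h2 with
    | .node a, .edge r, _, h2 => exact h2
    | .node a, .face x, _, h2 => exact h2
    | .edge r, .face x, _, h2 => exact h2

theorem lt_iff {c d : G.CellG} : c < d ↔ G.clt c d := by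
  rw [lt_iff_le_not_ge]
  constructor
  · rintro ⟨h1 | h1, h2⟩
    · exact (h2 (Or.inl h1.symm)).elim
    · exact h1
  · intro h
    refine ⟨Or.inr h, ?_⟩
    rintro (h2 | h2)
    · subst h2
      match d, h with
      | .node a, h => exact h
      | .edge r, h => exact h
      | .face x, h => exact h
    · match c, d, h, h2 with
      | .node a, .edge r, _, h2 => exact h2
      | .node a, .face x, _, h2 => exact h2
      | .edge r, .face x, _, h2 => exact h2

end Cub

/-- Realisation of `G` as a cell structure of the set `Sg`. -/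
structure Lay {N R X : Type*} (G : Cub N R X) (Sg : Set E) where
  pt : N → E
  arc : R → Set E
  disc : X → Set E
  inj : Function.Injective pt
  arc_ball : ∀ r, IsBall 1 (arc r) (pt '' {a | a ∈ G.ends r})
  disc_ball : ∀ x, IsBall 2 (disc x) (⋃ r ∈ G.bd x, arc r)
  pt_arc : ∀ a r, pt a ∈ arc r → a ∈ G.ends r
  arc_arc : ∀ r r', r ≠ r' → ∀ y ∈ arc r, y ∈ arc r' → ∃ a ∈ G.ends r, y = pt a
  disc_disc : ∀ x x', x ≠ x' → ∀ y ∈ disc x, y ∈ disc x' → y ∈ ⋃ r ∈ G.bd x, arc r
  cov : Sg = ⋃ x, disc x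

namespace Lay

variable {N R X : Type*} {G : Cub N R X} {Sg : Set E} (L : Lay G Sg)

theorem arc_sub_disc {r : R} {x : X} (h : r ∈ G.bd x) : L.arc r ⊆ L.disc x :=
  fun _ hy => (L.disc_ball x).subset (mem_biUnion h hy)

theorem pt_mem_arc {a : N} {r : R} (h : a ∈ G.ends r) : L.pt a ∈ L.arc r :=
  (L.arc_ball r).subset ⟨a, h, rfl⟩

theorem exists_edge (G : Cub N R X) (a : N) : ∃ r, a ∈ G.ends r := by
  have h := G.three a
  have : ({r | a ∈ G.ends r} : Set R).Nonempty := by
    apply Set.nonempty_of_ncard_ne_zero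
    rw [h]; decide
  exact this

/-- an edge which is not on the boundary of `x` meets the face only in the boundary -/
theorem arc_disc {r : R} {x : X} (h : r ∉ G.bd x) {y : E} (h1 : y ∈ L.arc r) (h2 : y ∈ L.disc x) :
    y ∈ ⋃ r ∈ G.bd x, L.arc r := by
  obtain ⟨x1, x2, -, hx⟩ := G.twoF r
  have hx1 : r ∈ G.bd x1 := (hx x1).2 (Or.inl rfl)
  have hne : x ≠ x1 := by rintro rfl; exact h hx1
  exact L.disc_disc x x1 hne y h2 (L.arc_sub_disc hx1 h1)

theorem pt_disc {a : N} {x : X} (h : L.pt a ∈ L.disc x) : L.pt a ∈ ⋃ r ∈ G.bd x, L.arc r := by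
  obtain ⟨r, hr⟩ := exists_edge G a
  by_cases hrx : r ∈ G.bd x
  · exact mem_biUnion hrx (L.pt_mem_arc hr)
  · exact L.arc_disc hrx (L.pt_mem_arc hr) h

/-- the cells as sets -/
def cell : G.CellG → Set E
  | .node a => {L.pt a}
  | .edge r => L.arc r
  | .face x => L.disc x

/-- dimension of the cells -/
def dim (G : Cub N R X) : G.CellG → ℕ := Cub.Cell.dim

theorem bd_node (a : N) : (⋃ j ∈ {j : G.CellG | j < Cub.Cell.node a}, L.cell j) = ∅ := by
  rw [eq_empty_iff_forall_notMem]
  intro y hy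
  obtain ⟨j, hj, -⟩ := mem_iUnion₂.1 hy
  have hj' := G.lt_iff.1 hj
  match j, hj' with
  | .node b, h => exact h
  | .edge r, h => exact h
  | .face x, h => exact h

theorem bd_edge (r : R) : (⋃ j ∈ {j : G.CellG | j < Cub.Cell.edge r}, L.cell j) =
    L.pt '' {a | a ∈ G.ends r} := by
  ext y
  constructor
  · intro hy
    obtain ⟨j, hj, hyj⟩ := mem_iUnion₂.1 hy
    have hj' := G.lt_iff.1 hj
    match j, hj', hyj with
    | .node b, h, hyj => exact ⟨b, h, (mem_singleton_iff.1 hyj).symm⟩
    | .edge r, h, _ => exact h.elim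
    | .face x, h, _ => exact h.elim
  · rintro ⟨a, ha, rfl⟩
    refine mem_iUnion₂.2 ⟨Cub.Cell.node a, G.lt_iff.2 ha, rfl⟩

theorem bd_face (x : X) : (⋃ j ∈ {j : G.CellG | j < Cub.Cell.face x}, L.cell j) =
    ⋃ r ∈ G.bd x, L.arc r := by
  ext y
  constructor
  · intro hy
    obtain ⟨j, hj, hyj⟩ := mem_iUnion₂.1 hy
    have hj' := G.lt_iff.1 hj
    match j, hj', hyj with
    | .node b, ⟨r, hr, hb⟩, hyj =>
      have hyj' : y = L.pt b := mem_singleton_iff.1 hyj
      rw [hyj']
      exact mem_biUnion hr (L.pt_mem_arc hb)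
    | .edge r, h, hyj => exact mem_biUnion h hyj
    | .face x, h, _ => exact h.elim
  · intro hy
    obtain ⟨r, hr, hyr⟩ := mem_iUnion₂.1 hy
    exact mem_iUnion₂.2 ⟨Cub.Cell.edge r, G.lt_iff.2 hr, hyr⟩

/-- **the complex of a realisation** -/
theorem cplx [Finite N] [Finite R] [Finite X] : Cplx Sg G.CellG (dim G) L.cell where
  isBall := by
    rintro (a | r | x)
    · rw [L.bd_node]; exact isBall_zero _
    · rw [L.bd_edge]; exact L.arc_ball r
    · rw [L.bd_face]; exact L.disc_ball x
  mono := by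
    intro i j h
    have h' := G.lt_iff.1 h
    match j, i, h' with
    | .node b, .edge r, _ => exact Nat.zero_lt_one
    | .node b, .face x, _ => exact Nat.zero_lt_two
    | .edge r, .face x, _ => exact Nat.one_lt_two
  disj := by
    have key : ∀ (i j : G.CellG) (y : E), dim G i ≤ dim G j → Opn L.cell i y → Opn L.cell j y →
        i = j := by
      rintro (a | r | x) (b | s | z) y hd ⟨hi, hi'⟩ ⟨hj, hj'⟩
      · have h1 : y = L.pt a := hi
        have h2 : y = L.pt b := hj
        rw [L.inj (h1.symm.trans h2)]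
      · exfalso
        have h1 : y = L.pt a := hi
        have h2 : y ∈ L.arc s := hj
        rw [h1] at h2
        exact hj' _ (G.lt_iff.2 (show G.clt (.node a) (.edge s) from L.pt_arc a s h2)) h1
      · exfalso
        have h1 : y = L.pt a := hi
        have h2 : y ∈ L.disc z := hj
        have h3 : y ∈ ⋃ r ∈ G.bd z, L.arc r := by rw [h1] at h2 ⊢; exact L.pt_disc h2
        obtain ⟨r, hr, hyr⟩ := mem_iUnion₂.1 h3
        exact hj' _ (G.lt_iff.2 (show G.clt (.edge r) (.face z) from hr)) hyr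
      · exact absurd hd (by simp [dim, Cub.Cell.dim])
      · by_contra hne
        have hrs : r ≠ s := fun h => hne (by rw [h])
        obtain ⟨a, ha, hya⟩ := L.arc_arc r s hrs y hi hj
        exact hi' _ (G.lt_iff.2 (show G.clt (.node a) (.edge r) from ha)) hya
      · exfalso
        have h1 : y ∈ L.arc r := hi
        have h2 : y ∈ L.disc z := hj
        by_cases hrz : r ∈ G.bd z
        · exact hj' _ (G.lt_iff.2 (show G.clt (.edge r) (.face z) from hrz)) h1
        · obtain ⟨s, hs, hys⟩ := mem_iUnion₂.1 (L.arc_disc hrz h1 h2)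
          exact hj' _ (G.lt_iff.2 (show G.clt (.edge s) (.face z) from hs)) hys
      · exact absurd hd (by simp [dim, Cub.Cell.dim])
      · exact absurd hd (by simp [dim, Cub.Cell.dim])
      · by_contra hne
        have hxz : x ≠ z := fun h => hne (by rw [h])
        obtain ⟨r, hr, hyr⟩ := mem_iUnion₂.1 (L.disc_disc x z hxz y hi hj)
        exact hi' _ (G.lt_iff.2 (show G.clt (.edge r) (.face x) from hr)) hyr
    intro i j y hi hj
    rcases le_total (dim G i) (dim G j) with h | h
    · exact key i j y h hi hj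
    · exact (key j i y h hj hi).symm
  sub := by
    have hd : ∀ x, L.disc x ⊆ Sg := fun x =>
      (subset_iUnion L.disc x).trans (le_of_eq L.cov.symm)
    have ha : ∀ r, L.arc r ⊆ Sg := fun r => by
      obtain ⟨x1, x2, -, hx⟩ := G.twoF r
      exact (L.arc_sub_disc ((hx x1).2 (Or.inl rfl))).trans (hd x1)
    rintro (a | r | x)
    · obtain ⟨r, hr⟩ := exists_edge G a
      rintro y rfl
      exact ha r (L.pt_mem_arc hr)
    · exact ha r
    · exact hd x
  cover := by
    intro y hy
    rw [L.cov] at hy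
    obtain ⟨x, hx⟩ := mem_iUnion.1 hy
    exact ⟨Cub.Cell.face x, hx⟩
  lf := fun _ _ => ⟨1, one_pos, toFinite _⟩

/-- **two realisations of the same cubic graph are PL equivalent, cell by cell** -/
theorem exists_equiv [Finite N] [Finite R] [Finite X] {Sg' : Set F} (L' : Lay G Sg') :
    ∃ e : PLEquiv Sg Sg', (∀ a, e.f (L.pt a) = L'.pt a) ∧ (∀ r, e.f '' L.arc r = L'.arc r) ∧
      ∀ x, e.f '' L.disc x = L'.disc x := by
  obtain ⟨e, h1, -⟩ := exists_equiv_fin L.cplx L'.cplx
  refine ⟨e, fun a => ?_, fun r => h1 (Cub.Cell.edge r), fun x => h1 (Cub.Cell.face x)⟩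
  have h := h1 (Cub.Cell.node a)
  have h2 : e.f (L.pt a) ∈ e.f '' L.cell (Cub.Cell.node a) := ⟨L.pt a, rfl, rfl⟩
  rw [h] at h2
  exact h2

/-- closeness: if `g` maps every face of `L` near the corresponding face of `L'` then `θ` is
near `g` -/
theorem exists_equiv_near [Finite N] [Finite R] [Finite X] {Sg' : Set F} (L' : Lay G Sg')
    {g : E → F} {ε : ℝ} (hg : ∀ x, ∀ p ∈ L.disc x, ∀ y ∈ L'.disc x, dist y (g p) ≤ ε) :
    ∃ e : PLEquiv Sg Sg', (∀ a, e.f (L.pt a) = L'.pt a) ∧ (∀ r, e.f '' L.arc r = L'.arc r) ∧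
      (∀ x, e.f '' L.disc x = L'.disc x) ∧ ∀ p ∈ Sg, dist (e.f p) (g p) ≤ ε := by
  obtain ⟨e, h1, h2, h3⟩ := L.exists_equiv L'
  refine ⟨e, h1, h2, h3, fun p hp => ?_⟩
  rw [L.cov] at hp
  obtain ⟨x, hx⟩ := mem_iUnion.1 hp
  refine hg x p hx _ ?_
  rw [← h3 x]
  exact ⟨p, hx, rfl⟩

end Lay

end Crest.Agent.R096.Sph_560
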