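import Crest.Agent.R096.Spg5_560
import Crest.Agent.R096.Sph1_560

/-!
# R096 (row 96), DOORS (D6) / SPH, (G2) part 6 (helper560): fine cubic structure on a PL sphere

`exists_small_disc` : a PL sphere is the union of a disc and a small disc.
`exists_fine` : on every PL sphere there is a realisation `Lay G Sg` of a finite cubic graph with
small faces.
-/

set_option autoImplicit false

open Set Metric

namespace Crest.Agent.R096.Sph_560

open Crest.Agent.R096.Ce_537 Crest.Agent.R096.Cb_609 Crest.Agent.R096.Pl Msh_715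

variable {F : Type*} [NormedAddCommGroup F] [NormedSpace ℝ F]

/-- the circle of latitude `-1 + d` -/
theorem circle_lat {d : ℝ} (hd : 0 < d) :
    Nonempty (PLEquiv (S1 ℝ) {p : (ℝ × ℝ) × ℝ | ‖p.1‖ = d ∧ p.2 = -1 + d}) := by
  obtain ⟨c⟩ := circle_of_disc isBall_real2
  let a : (ℝ × ℝ) →ᵃ[ℝ] (ℝ × ℝ) × ℝ :=
    (((d • LinearMap.id : (ℝ × ℝ) →ₗ[ℝ] (ℝ × ℝ)).prod (0 : (ℝ × ℝ) →ₗ[ℝ] ℝ)).toAffineMap) +
      AffineMap.const ℝ (ℝ × ℝ) (((0 : ℝ × ℝ), (-1 + d : ℝ)) : (ℝ × ℝ) × ℝ)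
  let b : (ℝ × ℝ) × ℝ →ᵃ[ℝ] (ℝ × ℝ) :=
    ((d⁻¹ • LinearMap.fst ℝ (ℝ × ℝ) ℝ : (ℝ × ℝ) × ℝ →ₗ[ℝ] (ℝ × ℝ))).toAffineMap
  have ha : ∀ x, a x = (d • x, -1 + d) := by
    intro x
    simp [a]
  have hb : ∀ p, b p = d⁻¹ • p.1 := by
    intro p
    simp [b]
  refine ⟨c.trans ⟨fun x => a x, fun p => b p, plOn_affine a _, plOn_affine b _, ?_, ?_, ?_, ?_⟩⟩
  · intro x hx
    rw [mem_sphere_zero_iff_norm] at hx
    show ‖(a x).1‖ = d ∧ (a x).2 = -1 + d
    rw [ha]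
    refine ⟨?_, rfl⟩
    rw [norm_smul, Real.norm_eq_abs, abs_of_pos hd, hx, mul_one]
  · rintro p ⟨hp, -⟩
    show b p ∈ sphere 0 1
    rw [mem_sphere_zero_iff_norm, hb, norm_smul, Real.norm_eq_abs, abs_of_pos (inv_pos.2 hd), hp,
      inv_mul_cancel₀ hd.ne']
  · intro x _
    show b (a x) = x
    rw [hb, ha, smul_smul, inv_mul_cancel₀ hd.ne', one_smul]
  · rintro p ⟨-, hp⟩
    show a (b p) = p
    rw [ha, hb, smul_smul, mul_inv_cancel₀ hd.ne', one_smul, ← hp]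

/-- **a PL sphere is a disc and a small disc** -/
theorem exists_small_disc {K Sg : Set F} (hK : IsBall 3 K Sg) {η : ℝ} (hη : 0 < η) :
    ∃ A B Γ : Set F, A ∪ B = Sg ∧ A ∩ B = Γ ∧ IsBall 2 A Γ ∧ IsBall 2 B Γ ∧
      ∀ y ∈ B, ∀ z ∈ B, dist y z ≤ η := by
  obtain ⟨e, he, he'⟩ := isBall_space.exists_equiv hK
  have hc : IsCompact {p : (ℝ × ℝ) × ℝ | N1 p ≤ 1} := isBall_space.isCompact
  have hu := hc.uniformContinuousOn_of_continuous e.pf.1
  rw [Metric.uniformContinuousOn_iff] at hu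
  obtain ⟨δ, hδ, hδe⟩ := hu η hη
  set d : ℝ := min (δ / 3) (1 / 2) with hd
  have hd0 : 0 < d := lt_min (by positivity) (by norm_num)
  have hd1 : d ≤ δ / 3 := min_le_left _ _
  have hd2 : d ≤ 1 / 2 := min_le_right _ _
  set A0 : Set ((ℝ × ℝ) × ℝ) := {p | p ∈ S1 (ℝ × ℝ) ∧ -1 + d ≤ p.2} with hA0
  set B0 : Set ((ℝ × ℝ) × ℝ) := {p | p ∈ S1 (ℝ × ℝ) ∧ p.2 ≤ -1 + d} with hB0
  set Γ0 : Set ((ℝ × ℝ) × ℝ) := {p | ‖p.1‖ = d ∧ p.2 = -1 + d} with hΓ0
  have hS : ∀ p : (ℝ × ℝ) × ℝ, p ∈ S1 (ℝ × ℝ) ↔ ‖p.1‖ + |p.2| = 1 := fun p => Iff.rfl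
  have hclS : IsClosed (S1 (ℝ × ℝ)) := isBall_space.isClosed_bdry
  have hAc : IsClosed A0 := hclS.inter (isClosed_le continuous_const continuous_snd)
  have hBc : IsClosed B0 := hclS.inter (isClosed_le continuous_snd continuous_const)
  have hun : A0 ∪ B0 = S1 (ℝ × ℝ) := by
    ext p
    constructor
    · rintro (h | h) <;> exact h.1
    · intro h
      rcases le_total (-1 + d) p.2 with h' | h'
      · exact Or.inl ⟨h, h'⟩
      · exact Or.inr ⟨h, h'⟩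
  have hin : A0 ∩ B0 = Γ0 := by
    ext p
    constructor
    · rintro ⟨⟨h1, h2⟩, -, h3⟩
      have h4 : p.2 = -1 + d := le_antisymm h3 h2
      rw [hS, h4, abs_of_nonpos (by linarith)] at h1
      exact ⟨by linarith, h4⟩
    · rintro ⟨h1, h2⟩
      have h3 : p ∈ S1 (ℝ × ℝ) := by
        rw [hS, h1, h2, abs_of_nonpos (by linarith)]; ring
      exact ⟨⟨h3, h2.ge⟩, h3, h2.le⟩
  have hn1 : (A0 \ Γ0).Nonempty := by
    refine ⟨((0, 0), 1), ⟨by rw [hS]; simp, by show -1 + d ≤ 1; linarith⟩, fun h => ?_⟩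
    have : (1 : ℝ) = -1 + d := h.2
    linarith
  have hn2 : (B0 \ Γ0).Nonempty := by
    refine ⟨((0, 0), -1), ⟨by rw [hS]; simp, by show (-1 : ℝ) ≤ -1 + d; linarith⟩, fun h => ?_⟩
    have : (-1 : ℝ) = -1 + d := h.2
    linarith
  have hA := disc_of_split isBall_space (circle_lat hd0) hAc hBc hun hin hn1 hn2
  have hB := disc_of_split isBall_space (circle_lat hd0) hBc hAc (by rw [union_comm]; exact hun)
    (by rw [inter_comm]; exact hin) hn2 hn1
  have hAs : A0 ⊆ {p : (ℝ × ℝ) × ℝ | N1 p ≤ 1} := fun p hp => isBall_space.subset hp.1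
  have hBs : B0 ⊆ {p : (ℝ × ℝ) × ℝ | N1 p ≤ 1} := fun p hp => isBall_space.subset hp.1
  refine ⟨e.f '' A0, e.f '' B0, e.f '' Γ0, ?_, ?_, hA.map (e.restrImage hAs),
    hB.map (e.restrImage hBs), ?_⟩
  · rw [← image_union, hun, he]
  · rw [← hin, e.injOn.image_inter hAs hBs]
  · rintro _ ⟨p, hp, rfl⟩ _ ⟨q, hq, rfl⟩
    refine (hδe p (hBs hp) q (hBs hq) ?_).le
    have key : ∀ p ∈ B0, ‖p.1‖ ≤ d ∧ -1 ≤ p.2 ∧ p.2 ≤ -1 + d := by
      rintro p ⟨h1, h2⟩
      rw [hS, abs_of_nonpos (by linarith)] at h1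
      have := norm_nonneg p.1
      exact ⟨by linarith, by linarith, h2⟩
    obtain ⟨p1, p2, p3⟩ := key p hp
    obtain ⟨q1, q2, q3⟩ := key q hq
    rw [Prod.dist_eq, dist_eq_norm, Real.dist_eq]
    refine max_lt ?_ ?_
    · calc ‖p.1 - q.1‖ ≤ ‖p.1‖ + ‖q.1‖ := norm_sub_le _ _
        _ ≤ 2 * d := by linarith
        _ < δ := by linarith
    · refine lt_of_le_of_lt (abs_le.2 ⟨?_, ?_⟩) (show d < δ by linarith) <;> linarith

namespace Msh

variable {T0 T1 : Set (ℝ × ℝ)}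

theorem sg_sub_T0 (M : Msh T0 T1) (r : M.R) : M.D.sg r ⊆ T0 := by
  obtain ⟨u, v, huv, hall⟩ := M.G.twoF r
  have : ∃ w, w ≠ M.x0 ∧ r ∈ M.G.bd w := by
    by_cases hu : u = M.x0
    · exact ⟨v, fun hv => huv (hu.trans hv.symm), (hall v).2 (Or.inr rfl)⟩
    · exact ⟨u, hu, (hall u).2 (Or.inl rfl)⟩
  obtain ⟨w, hw0, hw⟩ := this
  refine ((M.D.sg_sub hw0 hw).trans sdiff_subset).trans (Subset.trans ?_ M.D.cov.symm.subset)
  exact subset_biUnion_of_mem (u := fun x => P (M.D.H x)) (show w ∈ {x | x ≠ M.x0} from hw0)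

theorem P_sub_T0 (M : Msh T0 T1) {x : M.X} (hx : x ≠ M.x0) : P (M.D.H x) ⊆ T0 := by
  refine Subset.trans ?_ M.D.cov.symm.subset
  exact subset_biUnion_of_mem (u := fun x => P (M.D.H x)) (show x ∈ {x | x ≠ M.x0} from hx)

open Classical in
/-- a drawing on a sphere -/
noncomputable def lay (M : Msh T0 T1) {A B Γ Sg : Set F} (hu : A ∪ B = Sg) (hi : A ∩ B = Γ)
    (hB : IsBall 2 B Γ) (e : PLEquiv T0 A) (he : e.f '' T1 = Γ) : Lay M.G Sg where
  pt := fun a => e.f (M.D.pt a)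
  arc := fun r => e.f '' M.D.sg r
  disc := fun x => if x = M.x0 then B else e.f '' P (M.D.H x)
  inj := by
    intro a b h
    obtain ⟨r, hr⟩ := Lay.exists_edge M.G a
    obtain ⟨r', hr'⟩ := Lay.exists_edge M.G b
    exact M.D.inj (e.injOn (M.sg_sub_T0 r (pt_mem_seg hr)) (M.sg_sub_T0 r' (pt_mem_seg hr')) h)
  arc_ball := by
    intro r
    obtain ⟨a, b, hab⟩ : ∃ a b, M.G.ends r = s(a, b) := by
      induction h : M.G.ends r using Sym2.ind with
      | _ a b => exact ⟨a, b, rfl⟩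
    have hne : M.D.pt a ≠ M.D.pt b := by
      intro h
      have := M.D.inj h
      exact M.G.nd r (by rw [hab, this]; exact Sym2.mk_isDiag_iff.2 rfl)
    have h1 : IsBall 1 (M.D.sg r) {M.D.pt a, M.D.pt b} := by
      rw [Drw.sg, seg_eq hab]; exact isBall_segment hne
    have h2 := h1.map (e.restrImage (M.sg_sub_T0 r))
    have h3 : (e.restrImage (M.sg_sub_T0 r)).f '' {M.D.pt a, M.D.pt b} =
        (fun a => e.f (M.D.pt a)) '' {a | a ∈ M.G.ends r} := by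
      rw [image_ends hab, image_pair]
      rfl
    rw [h3] at h2
    exact h2
  disc_ball := by
    intro x
    by_cases hx : x = M.x0
    · rw [if_pos hx]
      have : (⋃ r ∈ M.G.bd x, e.f '' M.D.sg r) = Γ := by
        have h1 : e.f '' T1 = e.f '' ⋃ r ∈ M.G.bd M.x0, M.D.sg r :=
          congrArg (fun s => e.f '' s) M.D.fr0
        rw [image_iUnion₂, he] at h1
        rw [h1, hx]
      rw [this]; exact hB
    · rw [if_neg hx]
      have h1 := isBall_P_top (M.D.H x) (M.D.cpt x hx) (M.D.int x hx)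
      have h0 : Module.finrank ℝ (ℝ × ℝ) = 2 := by simp
      rw [h0, M.D.fr x hx] at h1
      have h2 := h1.map (e.restrImage (M.P_sub_T0 hx))
      have h3 : (e.restrImage (M.P_sub_T0 hx)).f '' (⋃ r ∈ M.G.bd x, seg M.G.ends M.D.pt r) =
          ⋃ r ∈ M.G.bd x, e.f '' M.D.sg r := by
        rw [image_iUnion₂]
        rfl
      rw [h3] at h2
      exact h2
  pt_arc := by
    rintro a r ⟨w, hw, hwa⟩
    obtain ⟨r', hr'⟩ := Lay.exists_edge M.G a
    have := e.injOn (M.sg_sub_T0 r hw) (M.sg_sub_T0 r' (pt_mem_seg hr')) hwa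
    rw [this] at hw
    exact M.D.pt_seg a r hw
  arc_arc := by
    rintro r r' hrr _ ⟨w, hw, rfl⟩ ⟨w', hw', hww⟩
    have := e.injOn (M.sg_sub_T0 r' hw') (M.sg_sub_T0 r hw) hww
    rw [this] at hw'
    obtain ⟨a, ha⟩ := M.D.seg_seg r r' hrr w hw hw'
    exact ⟨a, M.D.pt_seg a r (by rw [← ha]; exact hw), by rw [ha]⟩
  disc_disc := by
    intro x x' hxx y hy hy'
    have hTA : e.f '' T0 = A := e.image_eq
    have h10 : T1 ⊆ T0 := by
      have := M.D.fr0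
      intro w hw
      rw [this] at hw
      obtain ⟨r, -, hr⟩ := mem_iUnion₂.1 hw
      exact M.sg_sub_T0 r hr
    by_cases hx : x = M.x0
    · rw [if_pos hx] at hy
      have hx' : x' ≠ M.x0 := fun h => hxx (hx.trans h.symm)
      rw [if_neg hx'] at hy'
      have hyA : y ∈ A := by
        rw [← hTA]; exact image_mono (M.P_sub_T0 hx') hy'
      have hyΓ : y ∈ Γ := by rw [← hi]; exact ⟨hyA, hy⟩
      rw [← he, M.D.fr0, image_iUnion₂] at hyΓ
      rw [hx]; exact hyΓ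
    · rw [if_neg hx] at hy
      obtain ⟨w, hw, rfl⟩ := hy
      have hfr : w ∈ P (M.D.H x) \ I (M.D.H x) := by
        by_cases hx' : x' = M.x0
        · rw [if_pos hx'] at hy'
          have hyA : e.f w ∈ A := e.mf (M.P_sub_T0 hx hw)
          have hyΓ : e.f w ∈ Γ := by rw [← hi]; exact ⟨hyA, hy'⟩
          rw [← he] at hyΓ
          obtain ⟨w', hw', hww⟩ := hyΓ
          have h1 := e.injOn (h10 hw') (M.P_sub_T0 hx hw) hww
          rw [h1, M.D.fr0] at hw'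
          obtain ⟨r, -, hr⟩ := mem_iUnion₂.1 hw'
          exact M.D.mem_fr hx hw hr
        · rw [if_neg hx'] at hy'
          obtain ⟨w', hw', hww⟩ := hy'
          have h1 := e.injOn (M.P_sub_T0 hx' hw') (M.P_sub_T0 hx hw) hww
          rw [h1] at hw'
          exact ⟨hw, fun hI => Set.disjoint_left.1 (M.D.disj x hx x' hx' hxx) hI hw'⟩
      rw [M.D.fr x hx] at hfr
      obtain ⟨r, hr, hwr⟩ := mem_iUnion₂.1 hfr
      exact mem_biUnion (x := r) hr ⟨w, hwr, rfl⟩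
  cov := by
    rw [← hu]
    ext y
    constructor
    · rintro (h | h)
      · rw [← e.image_eq] at h
        obtain ⟨w, hw, rfl⟩ := h
        have := M.D.cov
        rw [this] at hw
        obtain ⟨x, hx, hwx⟩ := mem_iUnion₂.1 hw
        have hx : x ≠ M.x0 := hx
        refine mem_iUnion.2 ⟨x, ?_⟩
        rw [if_neg hx]
        exact ⟨w, hwx, rfl⟩
      · refine mem_iUnion.2 ⟨M.x0, ?_⟩
        rw [if_pos rfl]
        exact h
    · intro h
      obtain ⟨x, hx⟩ := mem_iUnion.1 h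
      by_cases hx0 : x = M.x0
      · rw [if_pos hx0] at hx
        exact Or.inr hx
      · rw [if_neg hx0] at hx
        obtain ⟨w, hw, rfl⟩ := hx
        exact Or.inl (e.mf (M.P_sub_T0 hx0 hw))

end Msh

/-- **(G2): a fine cubic structure on a PL sphere** -/
theorem exists_fine {K Sg : Set F} (hK : IsBall 3 K Sg) {ε : ℝ} (hε : 0 < ε) :
    ∃ (N R X : Type) (_ : Finite N) (_ : Finite R) (_ : Finite X) (G : Cub N R X) (L : Lay G Sg),
      G.Share ∧ ∀ x, ∀ y ∈ L.disc x, ∀ z ∈ L.disc x, dist y z ≤ ε := by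
  classical
  obtain ⟨A, B, Γ, hu, hi, hA, hB, hsm⟩ := exists_small_disc hK hε
  have hT : IsBall 2 K4.T0 K4.T1 := by
    have h1 := isBall_P_top (K4.H 3) K4.isCompact_T0
      ⟨(1 / 3, 1 / 3), (K4.mem_I 3 _).2 ⟨by norm_num, by norm_num, by norm_num⟩⟩
    have h0 : Module.finrank ℝ (ℝ × ℝ) = 2 := by simp
    rw [h0] at h1
    exact h1
  obtain ⟨e, he, -⟩ := hT.exists_equiv hA
  have hun := K4.isCompact_T0.uniformContinuousOn_of_continuous e.pf.1
  rw [Metric.uniformContinuousOn_iff] at hun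
  obtain ⟨δ, hδ, hδe⟩ := hun ε hε
  obtain ⟨M, hM⟩ := Msh.exists_fine K4.isCompact_T0 K4.msh (ε := δ / 2) (by positivity)
  refine ⟨M.N, M.R, M.X, M.fN, M.fR, M.fX, M.G, M.lay hu hi hB e he, M.share, ?_⟩
  intro x y hy z hz
  by_cases hx : x = M.x0
  · have e1 : (M.lay hu hi hB e he).disc x = B := if_pos hx
    rw [e1] at hy hz
    exact hsm y hy z hz
  · have e1 : (M.lay hu hi hB e he).disc x = e.f '' P (M.D.H x) := if_neg hx
    rw [e1] at hy hz
    obtain ⟨w, hw, rfl⟩ := hy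
    obtain ⟨w', hw', rfl⟩ := hz
    refine (hδe w (M.P_sub_T0 hx hw) w' (M.P_sub_T0 hx hw') ?_).le
    exact lt_of_le_of_lt (hM x hx w hw w' hw') (by linarith)

end Crest.Agent.R096.Sph_560
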