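import Crest.Agent.R096.Sph2_560

/-!
# R096 (row 96), DOORS (D6) / SPH-ABS1 (helper976): `Place S G → PEmb S G`

* `SPath ends P W a b` : simple path (possibly trivial) from `a` to `b` with edge set `P`, vertex set `W`.
* `exists_sp`          : simple path between two sets inside a connected set.
* `tripod`             : three legs in a connected set.
* `exists_pemb`        : **SPH-ABS1**.
-/

set_option autoImplicit false

open Set

namespace Crest.Agent.R096.Spq_976

open Crest.Agent.R096.Sph_560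

section Graph

variable {α β : Type*} {ends : β → Sym2 α}

open Classical in
/-- simple paths, the trivial path included -/
inductive SPath (ends : β → Sym2 α) : Finset β → Finset α → α → α → Prop
  | nil (a : α) : SPath ends ∅ {a} a a
  | cons (e : β) (P : Finset β) (W : Finset α) (a v b : α) (h : ends e = s(a, v)) (ha : a ∉ W)
      (hP : SPath ends P W v b) : SPath ends (insert e P) (insert a W) a b

variable {P P' : Finset β} {W W' : Finset α} {a b c : α}

theorem SPath.left_mem (h : SPath ends P W a b) : a ∈ W := by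
  classical
  cases h with
  | nil => exact Finset.mem_singleton_self _
  | cons => exact Finset.mem_insert_self _ _

theorem SPath.right_mem (h : SPath ends P W a b) : b ∈ W := by
  classical
  induction h with
  | nil => exact Finset.mem_singleton_self _
  | cons e P W a v b h ha hP ih => exact Finset.mem_insert_of_mem ih

theorem SPath.edge_mem (h : SPath ends P W a b) : ∀ e ∈ P, ∀ v ∈ ends e, v ∈ W := by
  classical
  induction h with
  | nil => intro e he; exact absurd he (Finset.notMem_empty e)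
  | cons e P W a v b h ha hP ih =>
    intro e' he' u hu
    rcases Finset.mem_insert.1 he' with rfl | he'
    · rw [h, Sym2.mem_iff] at hu
      rcases hu with rfl | rfl
      · exact Finset.mem_insert_self _ _
      · exact Finset.mem_insert_of_mem hP.left_mem
    · exact Finset.mem_insert_of_mem (ih e' he' u hu)

theorem SPath.pathI (h : SPath ends P W a b) (hab : a ≠ b) : PathI ends P a b := by
  classical
  induction h with
  | nil => exact absurd rfl hab
  | cons e P W a v b h ha hP ih =>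
    by_cases hvb : v = b
    · subst hvb
      cases hP with
      | nil =>
        rw [show (insert e (∅ : Finset β)) = {e} from rfl]
        exact PathI.single e a v h hab
      | cons e' P' W' _ u _ h' ha' hP' =>
        exact absurd hP'.right_mem ha'
    · refine PathI.cons e P a v b h ?_ (ih hvb) ?_ hab
      · rintro rfl; exact ha hP.left_mem
      · intro e' he' hae'; exact ha (hP.edge_mem e' he' a hae')

theorem SPath.mem_iff (h : SPath ends P W a b) (hab : a ≠ b) (v : α) :
    v ∈ W ↔ ∃ e ∈ P, v ∈ ends e := by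
  classical
  constructor
  · intro hv
    induction h with
    | nil => exact absurd rfl hab
    | cons e P W a u b h ha hP ih =>
      rcases Finset.mem_insert.1 hv with rfl | hv
      · exact ⟨e, Finset.mem_insert_self _ _, by rw [h]; exact Sym2.mem_mk_left _ _⟩
      · by_cases hub : u = b
        · subst hub
          cases hP with
          | nil =>
            rw [Finset.mem_singleton] at hv
            subst hv
            exact ⟨e, Finset.mem_insert_self _ _, by rw [h]; exact Sym2.mem_mk_right _ _⟩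
          | cons e' P' W' _ w _ h' ha' hP' => exact absurd hP'.right_mem ha'
        · obtain ⟨e', he', hv'⟩ := ih hub hv
          exact ⟨e', Finset.mem_insert_of_mem he', hv'⟩
  · rintro ⟨e, he, hv⟩
    exact h.edge_mem e he v hv

/-- a simple path is connected -/
theorem SPath.pconn (h : SPath ends P W a b) : ∀ Q : Finset β, Q ⊆ P → Q.Nonempty →
    (∀ e ∈ Q, ∀ v ∈ ends e, ∀ e' ∈ P, v ∈ ends e' → e' ∈ Q) → Q = P := by
  classical
  induction h with
  | nil => intro Q hQ hne _; rw [Finset.subset_empty.1 hQ] at hne; exact absurd hne (by simp)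
  | cons e P W a v b h ha hP ih =>
    intro Q hQ hne hcl
    -- an edge of the tail at `v`
    by_cases hPe : P = ∅
    · subst hPe
      refine Finset.Subset.antisymm hQ ?_
      obtain ⟨x, hx⟩ := hne
      have := hQ hx
      intro y hy
      rw [show (insert e (∅ : Finset β)) = {e} from rfl, Finset.mem_singleton] at this hy
      rw [hy, ← this]; exact hx
    · have hvb : v ≠ b := by
        rintro rfl
        cases hP with
        | nil => exact hPe rfl
        | cons e' P' W' _ w _ h' ha' hP' => exact ha' hP'.right_mem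
      obtain ⟨e', he', hve'⟩ := (hP.mem_iff hvb v).1 hP.left_mem
      have hve : v ∈ ends e := by rw [h]; exact Sym2.mem_mk_right _ _
      have key : (Q ∩ P).Nonempty → Q = insert e P := by
        intro hne'
        have h1 : Q ∩ P = P := by
          refine ih (Q ∩ P) Finset.inter_subset_right hne' ?_
          intro x hx u hu y hy huy
          rw [Finset.mem_inter] at hx ⊢
          exact ⟨hcl x hx.1 u hu y (Finset.mem_insert_of_mem hy) huy, hy⟩
        have h2 : P ⊆ Q := by rw [← h1]; exact Finset.inter_subset_left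
        refine Finset.Subset.antisymm hQ (Finset.insert_subset ?_ h2)
        exact hcl e' (h2 he') v hve' e (Finset.mem_insert_self _ _) hve
      obtain ⟨x, hx⟩ := hne
      rcases Finset.mem_insert.1 (hQ hx) with rfl | hxP
      · refine key ⟨e', Finset.mem_inter.2 ⟨?_, he'⟩⟩
        exact hcl x hx v hve e' (Finset.mem_insert_of_mem he') hve'
      · exact key ⟨x, Finset.mem_inter.2 ⟨hx, hxP⟩⟩

open Classical in
theorem SPath.snoc (h : SPath ends P W a b) {e : β} (he : ends e = s(b, c)) (hc : c ∉ W) :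
    SPath ends (insert e P) (insert c W) a c := by
  induction h with
  | nil b =>
    have h1 : b ∉ ({c} : Finset α) := by
      rw [Finset.mem_singleton]; rintro rfl; exact hc (Finset.mem_singleton_self _)
    have := SPath.cons (ends := ends) e ∅ {c} b c c he h1 (SPath.nil c)
    rwa [show insert c ({b} : Finset α) = insert b {c} from Finset.pair_comm c b]
  | cons e' P W a v b h ha hP ih =>
    have hc' : c ∉ W := fun h' => hc (Finset.mem_insert_of_mem h')
    have hac : a ≠ c := by rintro rfl; exact hc (Finset.mem_insert_self _ _)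
    have h1 := ih he hc'
    rw [Finset.insert_comm e e' P, Finset.insert_comm c a W]
    refine SPath.cons e' _ _ a v c h ?_ h1
    rw [Finset.mem_insert]
    rintro (h' | h')
    · exact hac h'
    · exact ha h'

theorem SPath.rev (h : SPath ends P W a b) : SPath ends P W b a := by
  classical
  induction h with
  | nil a => exact SPath.nil a
  | cons e P W a v b h ha hP ih => exact ih.snoc (by rw [h, Sym2.eq_swap]) ha

open Classical in
theorem SPath.append (h : SPath ends P W a b) (h' : SPath ends P' W' b c)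
    (hW : ∀ v ∈ W, v ∈ W' → v = b) : SPath ends (P ∪ P') (W ∪ W') a c := by
  induction h with
  | nil a =>
    have h1 : ({a} : Finset α) ∪ W' = W' := by
      rw [Finset.union_eq_right, Finset.singleton_subset_iff]; exact h'.left_mem
    rw [Finset.empty_union, h1]; exact h'
  | cons e P W a v b h ha hP ih =>
    rw [Finset.insert_union, Finset.insert_union]
    refine SPath.cons e _ _ a v c h ?_ (ih h' fun u hu hu' => hW u (Finset.mem_insert_of_mem hu) hu')
    rw [Finset.mem_union]
    rintro (h1 | h1)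
    · exact ha h1
    · have := hW a (Finset.mem_insert_self _ _) h1
      rw [this] at ha
      exact ha hP.right_mem

/-- the part of a path behind a vertex -/
theorem SPath.split (h : SPath ends P W a b) : ∀ m ∈ W, ∃ P1 W1 P2 W2, SPath ends P1 W1 a m ∧
    SPath ends P2 W2 m b ∧ P1 ⊆ P ∧ W1 ⊆ W ∧ P2 ⊆ P ∧ W2 ⊆ W ∧ ∀ v ∈ W1, v ∈ W2 → v = m := by
  classical
  induction h with
  | nil a =>
    intro m hm
    rw [Finset.mem_singleton] at hm
    subst hm
    exact ⟨∅, {m}, ∅, {m}, SPath.nil m, SPath.nil m, Finset.Subset.refl _, Finset.Subset.refl _,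
      Finset.Subset.refl _, Finset.Subset.refl _, fun v hv _ => Finset.mem_singleton.1 hv⟩
  | cons e P W a v b h ha hP ih =>
    intro m hm
    rcases Finset.mem_insert.1 hm with rfl | hm
    · refine ⟨∅, {m}, insert e P, insert m W, SPath.nil m, SPath.cons e P W m v b h ha hP,
        Finset.empty_subset _, ?_, Finset.Subset.refl _, Finset.Subset.refl _,
        fun v hv _ => Finset.mem_singleton.1 hv⟩
      rw [Finset.singleton_subset_iff]; exact Finset.mem_insert_self _ _
    · obtain ⟨P1, W1, P2, W2, h1, h2, s1, s2, s3, s4, h3⟩ := ih m hm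
      refine ⟨insert e P1, insert a W1, P2, W2,
        SPath.cons e P1 W1 a v m h (fun h' => ha (s2 h')) h1, h2, Finset.insert_subset_insert _ s1,
        Finset.insert_subset_insert _ s2, s3.trans (Finset.subset_insert _ _),
        s4.trans (Finset.subset_insert _ _), ?_⟩
      intro u hu hu'
      rcases Finset.mem_insert.1 hu with rfl | hu
      · exact absurd (s4 hu') ha
      · exact h3 u hu hu'

/-- the part of a path behind its last vertex in `A` -/
theorem SPath.last (h : SPath ends P W a b) (A : Set α) : (∃ x ∈ W, x ∈ A) →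
    ∃ a' ∈ A, ∃ P1 W1, SPath ends P1 W1 a' b ∧ W1 ⊆ W ∧ ∀ x ∈ W1, x ∈ A → x = a' := by
  classical
  induction h with
  | nil a =>
    rintro ⟨x, hx, hxA⟩
    rw [Finset.mem_singleton] at hx
    subst hx
    exact ⟨x, hxA, ∅, {x}, SPath.nil x, Finset.Subset.refl _,
      fun y hy _ => Finset.mem_singleton.1 hy⟩
  | cons e P W a v b h ha hP ih =>
    rintro ⟨x, hx, hxA⟩
    by_cases hex : ∃ y ∈ W, y ∈ A
    · obtain ⟨a', ha', P1, W1, h1, h2, h3⟩ := ih hex
      exact ⟨a', ha', P1, W1, h1, h2.trans (Finset.subset_insert _ _), h3⟩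
    · push Not at hex
      rcases Finset.mem_insert.1 hx with rfl | hx
      · refine ⟨x, hxA, _, _, SPath.cons e P W x v b h ha hP, Finset.Subset.refl _, ?_⟩
        intro y hy hyA
        rcases Finset.mem_insert.1 hy with rfl | hy
        · rfl
        · exact absurd hyA (hex y hy)
      · exact absurd hxA (hex x hx)

end Graph

section Surface

variable {V E T : Type*} [Fintype E] {S : Surf V E T}

/-- simple path between two sets inside a connected set -/
theorem exists_sp {Y A B : Set V} (hY : S.ConnIn Y Y) {a0 b0 : V} (ha : a0 ∈ Y) (haA : a0 ∈ A)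
    (hb : b0 ∈ Y) (hbB : b0 ∈ B) : ∃ a ∈ A, ∃ b ∈ B, ∃ P W, SPath S.ends P W a b ∧
      (∀ v ∈ W, v ∈ Y) ∧ (∀ v ∈ W, v ∈ A → v = a) ∧ ∀ v ∈ W, v ∈ B → v = b := by
  classical
  have key : a0 ∈ {v | ∃ b ∈ B, ∃ P W, SPath S.ends P W v b ∧ (∀ v ∈ W, v ∈ Y) ∧
      ∀ v ∈ W, v ∈ B → v = b} := by
    refine hY _ ?_ b0 hb ?_ a0 ha
    · rintro e u v hev hu hv ⟨b, hbB, P, W, hP, hWY, hWB⟩
      by_cases hvW : v ∈ W
      · obtain ⟨-, -, P2, W2, -, h2, -, -, -, s4, -⟩ := hP.split v hvW
        exact ⟨b, hbB, P2, W2, h2, fun x hx => hWY x (s4 hx), fun x hx => hWB x (s4 hx)⟩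
      · by_cases hvB : v ∈ B
        · exact ⟨v, hvB, ∅, {v}, SPath.nil v, fun x hx => by rwa [Finset.mem_singleton.1 hx],
            fun x hx _ => Finset.mem_singleton.1 hx⟩
        · refine ⟨b, hbB, insert e P, insert v W, SPath.cons e P W v u b (by rw [hev, Sym2.eq_swap])
            hvW hP, ?_, ?_⟩
          · intro x hx
            rcases Finset.mem_insert.1 hx with rfl | hx
            · exact hv
            · exact hWY x hx
          · intro x hx hxB
            rcases Finset.mem_insert.1 hx with rfl | hx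
            · exact absurd hxB hvB
            · exact hWB x hx hxB
    · exact ⟨b0, hbB, ∅, {b0}, SPath.nil b0, fun x hx => by rwa [Finset.mem_singleton.1 hx],
        fun x hx _ => Finset.mem_singleton.1 hx⟩
  obtain ⟨b, hbB, P, W, hP, hWY, hWB⟩ := key
  obtain ⟨a, haA', P1, W1, h1, h2, h3⟩ := hP.last A ⟨a0, hP.left_mem, haA⟩
  exact ⟨a, haA', b, hbB, P1, W1, h1, fun v hv => hWY v (h2 hv), h3, fun v hv => hWB v (h2 hv)⟩

/-- three legs in a connected set -/
theorem tripod {C : Set V} (hC : S.ConnIn C C) {x1 x2 x3 : V} (h1 : x1 ∈ C) (h2 : x2 ∈ C)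
    (h3 : x3 ∈ C) : ∃ m ∈ C, ∃ P1 W1 P2 W2 P3 W3, SPath S.ends P1 W1 m x1 ∧
      SPath S.ends P2 W2 m x2 ∧ SPath S.ends P3 W3 m x3 ∧ (∀ v ∈ W1, v ∈ C) ∧ (∀ v ∈ W2, v ∈ C) ∧
      (∀ v ∈ W3, v ∈ C) ∧ (∀ v ∈ W1, v ∈ W2 → v = m) ∧ (∀ v ∈ W1, v ∈ W3 → v = m) ∧
      ∀ v ∈ W2, v ∈ W3 → v = m := by
  classical
  obtain ⟨a, ha, b, hb, P, W, hP, hWC, -, -⟩ :=
    exists_sp (A := {x1}) (B := {x2}) hC h1 rfl h2 rfl
  rw [mem_singleton_iff] at ha hb
  subst ha; subst hb
  obtain ⟨a', ha', m, hm, P3, W3, hP3, hW3, -, hW3m⟩ :=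
    exists_sp (A := {x3}) (B := {v | v ∈ W}) hC h3 rfl h1 hP.left_mem
  rw [mem_singleton_iff] at ha'
  subst ha'
  obtain ⟨Q1, U1, Q2, U2, hQ1, hQ2, -, s2, -, s4, hU⟩ := hP.split m hm
  refine ⟨m, hWC m hm, Q1, U1, Q2, U2, P3, W3, hQ1.rev, hQ2, hP3.rev, fun v hv => hWC v (s2 hv),
    fun v hv => hWC v (s4 hv), hW3, hU, fun v hv hv' => hW3m v hv' (s2 hv),
    fun v hv hv' => hW3m v hv' (s4 hv)⟩

/-- the component of `Z` in `Z'` -/
def comp (S : Surf V E T) (Z Z' : Set V) : Set V :=
  {v | ∀ X : Set V, (∀ e u v, S.ends e = s(u, v) → u ∈ Z' → v ∈ Z' → u ∈ X → v ∈ X) →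
    Z ⊆ X → v ∈ X}

theorem comp_sub {Z Z' : Set V} (h : Z ⊆ Z') : comp S Z Z' ⊆ Z' := fun v hv =>
  hv Z' (fun _ _ _ _ _ hv _ => hv) h

theorem sub_comp (Z Z' : Set V) : Z ⊆ comp S Z Z' := fun _ hv _ _ hX => hX hv

theorem comp_closed {Z Z' : Set V} {e : E} {u v : V} (he : S.ends e = s(u, v)) (hu : u ∈ Z')
    (hv : v ∈ Z') (huc : u ∈ comp S Z Z') : v ∈ comp S Z Z' := fun X hX hZ =>
  hX e u v he hu hv (huc X hX hZ)

theorem comp_conn {Z Z' : Set V} (h : Z ⊆ Z') (hc : S.ConnIn Z Z') :
    S.ConnIn (comp S Z Z') (comp S Z Z') := by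
  intro X hX u hu huX v hv
  have hsub := comp_sub (S := S) h
  -- `X ∩ comp` is closed
  have h1 : ∀ e u v, S.ends e = s(u, v) → u ∈ Z' → v ∈ Z' → u ∈ X ∩ comp S Z Z' →
      v ∈ X ∩ comp S Z Z' := by
    intro e u v he hu hv ⟨huX, huc⟩
    have hvc := comp_closed he hu hv huc
    exact ⟨hX e u v he huc hvc huX, hvc⟩
  have h2 : ∃ z ∈ Z, z ∈ X ∩ comp S Z Z' := by
    by_contra hne
    push Not at hne
    have := hu {w | w ∉ X ∩ comp S Z Z'} (by
      intro e u v he hu hv hw hv'
      exact hw (h1 e v u (by rw [he, Sym2.eq_swap]) hv hu hv')) (fun z hz => hne z hz)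
    exact this ⟨huX, hu⟩
  obtain ⟨z, hz, hzX⟩ := h2
  have h3 : Z ⊆ X ∩ comp S Z Z' := fun w hw => hc _ h1 z hz hzX w hw
  exact (hv _ h1 h3).1

end Surface

section Main

variable {V E T N R X : Type*} [Fintype E] {S : Surf V E T} {G : Cub N R X}

/-- **SPH-ABS1** -/
theorem exists_pemb (Pl : Place S G) : ∃ M : PEmb S G, ∀ r, ∀ v ∈ M.vs r,
    v ∈ Pl.Y r ∨ ∃ a ∈ G.ends r, v ∈ Pl.Z' a := by
  classical
  set C : N → Set V := fun a => comp S (Pl.Z a) (Pl.Z' a) with hCdef
  have hCsub : ∀ a, C a ⊆ Pl.Z' a := fun a => comp_sub (Pl.sub a)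
  have hZC : ∀ a, Pl.Z a ⊆ C a := fun a => sub_comp _ _
  have hCc : ∀ a, S.ConnIn (C a) (C a) := fun a => comp_conn (Pl.sub a) (Pl.zc a)
  have hCd : ∀ a b v, v ∈ C a → v ∈ C b → a = b := by
    intro a b v ha hb
    by_contra hab
    exact Set.disjoint_left.1 (Pl.zd a b hab) (hCsub a ha) (hCsub b hb)
  have hYC : ∀ r a v, v ∈ Pl.Y r → v ∈ C a → a ∈ G.ends r := by
    intro r a v hv ha
    by_contra hn
    exact Set.disjoint_left.1 (Pl.yz r a hn) hv (hCsub a ha)
  -- the middle paths
  have hN : ∀ r, ∃ (α β : N) (xa xb : V) (P : Finset E) (W : Finset V), G.ends r = s(α, β) ∧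
      α ≠ β ∧ xa ∈ C α ∧ xb ∈ C β ∧ SPath S.ends P W xa xb ∧ (∀ v ∈ W, v ∈ Pl.Y r) ∧
      (∀ v ∈ W, v ∈ C α → v = xa) ∧ ∀ v ∈ W, v ∈ C β → v = xb := by
    intro r
    obtain ⟨α, β, hαβ⟩ : ∃ α β, G.ends r = s(α, β) := by
      induction h : G.ends r with
      | h x y => exact ⟨x, y, rfl⟩
    have hne : α ≠ β := by
      rintro rfl
      exact G.nd r (by rw [hαβ]; exact Sym2.mk_isDiag_iff.2 rfl)
    obtain ⟨a0, ha0, ha0'⟩ := Pl.meet r α (by rw [hαβ]; exact Sym2.mem_mk_left _ _)
    obtain ⟨b0, hb0, hb0'⟩ := Pl.meet r β (by rw [hαβ]; exact Sym2.mem_mk_right _ _)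
    obtain ⟨xa, hxa, xb, hxb, P, W, hP, h1, h2, h3⟩ :=
      exists_sp (Pl.yc r) ha0 (hZC α ha0') hb0 (hZC β hb0')
    exact ⟨α, β, xa, xb, P, W, hαβ, hne, hxa, hxb, hP, h1, h2, h3⟩
  choose α β xa xb PN WN hends hne hxa hxb hPN hWY hWa hWb using hN
  have hmem : ∀ r a, a ∈ G.ends r ↔ a = α r ∨ a = β r := fun r a => by
    rw [hends, Sym2.mem_iff]
  -- the attaching points
  set x : R → N → V := fun r c => if c = α r then xa r else xb r with hx
  have hxα : ∀ r, x r (α r) = xa r := fun r => by simp [hx]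
  have hxβ : ∀ r, x r (β r) = xb r := fun r => by simp [hx, (hne r).symm]
  have hxC : ∀ r a, a ∈ G.ends r → x r a ∈ C a := by
    intro r a ha
    rcases (hmem r a).1 ha with rfl | rfl
    · rw [hxα]; exact hxa r
    · rw [hxβ]; exact hxb r
  have hWx : ∀ r a, a ∈ G.ends r → ∀ v ∈ WN r, v ∈ C a → v = x r a := by
    intro r a ha v hv hva
    rcases (hmem r a).1 ha with rfl | rfl
    · rw [hxα]; exact hWa r v hv hva
    · rw [hxβ]; exact hWb r v hv hva
  have hxW : ∀ r a, a ∈ G.ends r → x r a ∈ WN r := by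
    intro r a ha
    rcases (hmem r a).1 ha with rfl | rfl
    · rw [hxα]; exact (hPN r).left_mem
    · rw [hxβ]; exact (hPN r).right_mem
  -- the legs
  have hL : ∀ a : N, ∃ (m : V) (P : R → Finset E) (W : R → Finset V), m ∈ C a ∧
      (∀ r, a ∈ G.ends r → SPath S.ends (P r) (W r) m (x r a) ∧ ∀ v ∈ W r, v ∈ C a) ∧
      ∀ r r', a ∈ G.ends r → a ∈ G.ends r' → r ≠ r' → ∀ v ∈ W r, v ∈ W r' → v = m := by
    intro a
    obtain ⟨r1, r2, r3, h12, h13, h23, hset⟩ := Set.ncard_eq_three.1 (G.three a)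
    have hr : ∀ r, a ∈ G.ends r ↔ r = r1 ∨ r = r2 ∨ r = r3 := by
      intro r
      have : r ∈ {r | a ∈ G.ends r} ↔ r ∈ ({r1, r2, r3} : Set R) := by rw [hset]
      simpa using this
    have e1 := (hr r1).2 (Or.inl rfl)
    have e2 := (hr r2).2 (Or.inr (Or.inl rfl))
    have e3 := (hr r3).2 (Or.inr (Or.inr rfl))
    obtain ⟨m, hm, P1, W1, P2, W2, P3, W3, p1, p2, p3, c1, c2, c3, d12, d13, d23⟩ :=
      tripod (hCc a) (hxC r1 a e1) (hxC r2 a e2) (hxC r3 a e3)
    refine ⟨m, fun r => if r = r1 then P1 else if r = r2 then P2 else P3,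
      fun r => if r = r1 then W1 else if r = r2 then W2 else W3, hm, ?_, ?_⟩
    · intro r har
      rcases (hr r).1 har with rfl | rfl | rfl
      · simp only [if_true]; exact ⟨p1, c1⟩
      · simp only [if_neg h12.symm, if_true]; exact ⟨p2, c2⟩
      · simp only [if_neg h13.symm, if_neg h23.symm]; exact ⟨p3, c3⟩
    · intro r r' har har' hrr v
      rcases (hr r).1 har with rfl | rfl | rfl <;> rcases (hr r').1 har' with rfl | rfl | rfl
      · exact absurd rfl hrr
      · simp only [if_true, if_neg h12.symm]; exact d12 v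
      · simp only [if_true, if_neg h13.symm, if_neg h23.symm]; exact d13 v
      · simp only [if_true, if_neg h12.symm]; exact fun h h' => d12 v h' h
      · exact absurd rfl hrr
      · simp only [if_true, if_neg h12.symm, if_neg h13.symm, if_neg h23.symm]; exact d23 v
      · simp only [if_true, if_neg h13.symm, if_neg h23.symm]; exact fun h h' => d13 v h' h
      · simp only [if_true, if_neg h12.symm, if_neg h13.symm, if_neg h23.symm]
        exact fun h h' => d23 v h' h
      · exact absurd rfl hrr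
  choose m LP LW hm hLP hLd using hL
  have hα : ∀ r, α r ∈ G.ends r := fun r => (hmem r _).2 (Or.inl rfl)
  have hβ : ∀ r, β r ∈ G.ends r := fun r => (hmem r _).2 (Or.inr rfl)
  -- the paths
  have hP1 : ∀ r, SPath S.ends (LP (α r) r ∪ PN r) (LW (α r) r ∪ WN r) (m (α r)) (xb r) := by
    intro r
    have h1 := (hLP (α r) r (hα r)).1
    rw [hxα] at h1
    refine h1.append (hPN r) fun v hv hv' => ?_
    exact hWa r v hv' ((hLP (α r) r (hα r)).2 v hv)
  have hP2 : ∀ r, SPath S.ends (LP (α r) r ∪ PN r ∪ LP (β r) r) (LW (α r) r ∪ WN r ∪ LW (β r) r)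
      (m (α r)) (m (β r)) := by
    intro r
    have h1 := (hLP (β r) r (hβ r)).1
    rw [hxβ] at h1
    refine (hP1 r).append h1.rev fun v hv hv' => ?_
    have hvβ := (hLP (β r) r (hβ r)).2 v hv'
    rcases Finset.mem_union.1 hv with hv | hv
    · have hvα := (hLP (α r) r (hα r)).2 v hv
      exact absurd (hCd _ _ v hvα hvβ) (hne r)
    · exact hWb r v hv hvβ
  have hmne : ∀ r, m (α r) ≠ m (β r) := fun r h =>
    hne r (hCd _ _ (m (α r)) (hm _) (by rw [h]; exact hm _))
  have hW : ∀ r v, v ∈ LW (α r) r ∪ WN r ∪ LW (β r) r ↔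
      v ∈ WN r ∨ ∃ a ∈ G.ends r, v ∈ LW a r := by
    intro r v
    rw [Finset.mem_union, Finset.mem_union]
    constructor
    · rintro ((h | h) | h)
      · exact Or.inr ⟨_, hα r, h⟩
      · exact Or.inl h
      · exact Or.inr ⟨_, hβ r, h⟩
    · rintro (h | ⟨a, ha, h⟩)
      · exact Or.inl (Or.inr h)
      · rcases (hmem r a).1 ha with rfl | rfl
        · exact Or.inl (Or.inl h)
        · exact Or.inr h
  have hdeg := fun r => ((hP2 r).pathI (hmne r)).deg
  refine ⟨{ pt := m
            inj := fun a b hab => hCd a b (m a) (hm a) (by rw [hab]; exact hm b)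
            P := fun r => LP (α r) r ∪ PN r ∪ LP (β r) r
            vs := fun r => LW (α r) r ∪ WN r ∪ LW (β r) r
            vs_iff := fun r v => (hP2 r).mem_iff (hmne r) v
            ends_mem := ?_
            deg_end := ?_
            deg_in := ?_
            pconn := fun r => (hP2 r).pconn
            meet := ?_ }, ?_⟩
  · intro r a ha
    exact (hW r _).2 (Or.inr ⟨a, ha, (hLP a r ha).1.left_mem⟩)
  · intro r a ha
    rcases (hmem r a).1 ha with rfl | rfl
    · exact (hdeg r).1
    · exact (hdeg r).2.1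
  · intro r v hv hva
    rcases (hdeg r).2.2 v (hva _ (hα r)) (hva _ (hβ r)) with h | h
    · exfalso
      obtain ⟨e, he, hve⟩ := ((hP2 r).mem_iff (hmne r) v).1 hv
      have : e ∈ star S.ends (LP (α r) r ∪ PN r ∪ LP (β r) r) v := ⟨he, hve⟩
      exact Set.ncard_ne_zero_of_mem this (star_finite _ _) h
    · exact h
  · intro r r' hrr v hv hv'
    -- a leg of `r` at `a` and the middle of `r'`
    have key : ∀ r r', r ≠ r' → ∀ a ∈ G.ends r, ∀ v ∈ LW a r, v ∈ WN r' →
        a ∈ G.ends r' ∧ v = m a := by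
      intro r r' hrr a ha v hv hv'
      have hvC := (hLP a r ha).2 v hv
      have ha' := hYC r' a v (hWY r' v hv') hvC
      refine ⟨ha', ?_⟩
      have h1 := hWx r' a ha' v hv' hvC
      have h2 : v ∈ LW a r' := by rw [h1]; exact (hLP a r' ha').1.right_mem
      exact hLd a r r' ha ha' hrr v hv h2
    rcases (hW r v).1 hv with h1 | ⟨a, ha, h1⟩ <;> rcases (hW r' v).1 hv' with h2 | ⟨b, hb, h2⟩
    · obtain ⟨c, hc, hc', hvc⟩ := Pl.yy r r' hrr v (hWY r v h1) (hWY r' v h2)
      have e1 := hWx r c hc v h1 (hZC c hvc)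
      have e2 := hWx r' c hc' v h2 (hZC c hvc)
      have m1 : v ∈ LW c r := by rw [e1]; exact (hLP c r hc).1.right_mem
      have m2 : v ∈ LW c r' := by rw [e2]; exact (hLP c r' hc').1.right_mem
      exact ⟨c, hc, hc', hLd c r r' hc hc' hrr v m1 m2⟩
    · obtain ⟨h3, h4⟩ := key r' r hrr.symm b hb v h2 h1
      exact ⟨b, h3, hb, h4⟩
    · obtain ⟨h3, h4⟩ := key r r' hrr a ha v h1 h2
      exact ⟨a, ha, h3, h4⟩
    · have hab : a = b := hCd a b v ((hLP a r ha).2 v h1) ((hLP b r' hb).2 v h2)
      subst hab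
      exact ⟨a, ha, hb, hLd a r r' ha hb hrr v h1 h2⟩
  · intro r v hv
    rcases (hW r v).1 hv with h | ⟨a, ha, h⟩
    · exact Or.inl (hWY r v h)
    · exact Or.inr ⟨a, ha, hCsub a ((hLP a r ha).2 v h)⟩

end Main

end Crest.Agent.R096.Spq_976
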