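import Crest.Agent.R096.Spp5_333
import Crest.Agent.R096.Spf1_923
import Crest.Agent.R096.Spq1_976
import Crest.Agent.R096.Spg6_560

/-!
# R096 (row 96), DOORS (D6) / SPH, part 7 (helper560): the sphere lemma, unconditional

333's `sph_of` with 976's paths (`exists_pemb`), 923's faces (`exists_emb`) and the fine cubic
structures of `Spg6_560` (`exists_fine`).
-/

set_option autoImplicit false

open Set Metric

namespace Crest.Agent.R096.Sph_560

open Crest.Agent.R096.Ce_537 Crest.Agent.R096.Spp_333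

theorem abs1 : ABS1 := fun {_ _ _ _ _ _} _ _ _ _ P => Spq_976.exists_pemb P

theorem abs2 : ABS2 := fun {_ _ _ _ _ _} _ _ _ _ _ _ _ M hev => Spf_923.exists_emb M hev

theorem fine_560 (F : Type*) [NormedAddCommGroup F] [NormedSpace ℝ F] : FINE F := by
  intro K' Sg' hK ε hε
  obtain ⟨N, R, X, h1, h2, h3, G, L, -, h⟩ := exists_fine hK hε
  exact ⟨N, R, X, h1, h2, h3, G, L, h⟩

variable {F : Type*} [NormedAddCommGroup F] [NormedSpace ℝ F]
  {Em : Type*} [NormedAddCommGroup Em] [NormedSpace ℝ Em]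

/-- **SPH, the sphere lemma** -/
theorem sph {K' Sg' : Set F} (hK' : IsBall 3 K' Sg') {ε : ℝ} (hε : 0 < ε) :
    ∃ δ₀ > 0, ∀ {V E T : Type} [Fintype E] [Finite V] [Finite T] (S : Surf V E T), EvenT S →
      ∀ {K Sg : Set Em} (A : Real S Sg), IsBall 3 K Sg → ∀ (gv : V → F), Carry S gv Sg' δ₀ →
      ∀ (g : Em → F), (∀ f e, S.On f e → ∀ v ∈ S.ends e, ∀ p ∈ A.tile f,
        dist (gv v) (g p) ≤ δ₀) →
      ∃ θ : PLEquiv Sg Sg', ∀ p ∈ Sg, dist (θ.f p) (g p) ≤ ε :=
  sph_of abs1 abs2 (fine_560 F) hK' hε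

end Crest.Agent.R096.Sph_560
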