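import Crest.Agent.R096.Main3_4
import Crest.Agent.R096.Ginv2_543
import Crest.Agent.R096.Lab6_184
import Crest.Agent.R096.Cm3_117

/-! # Row 96, SPHERE (helper4), part 1: the state of ONE regular level (one family, one sheet),
its main class, labels; the input of 117's `cmb`. -/

set_option autoImplicit false

open Set Filter Topology Metric Module

namespace Crest.Agent.R096.Sphs_4

open Crest.Agent.R096.Msh_715 Crest.Agent.R096.Agl4_543 Crest.Agent.R096.Agl5_543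
  Crest.Agent.R096.Coh_184 Crest.Agent.R096.Main_4 Crest.Agent.R096.Ginv_543
  Crest.Agent.R096.Lab_184 Crest.Agent.R096.Seq_213 Crest.Agent.R096.Cm_117

variable {E : Type} [NormedAddCommGroup E] [NormedSpace ℝ E]
variable {Om : Set E} {ι : Type} {T : Tiling Om ι}
variable {u : E → ℝ} {c : ℝ} {S : Set E}

/-- one regular level is a global family -/
theorem gfam1 (h : RegLevel T u c S) :
    GFam T (fun _ : Unit => u) (fun _ => c) (fun _ => S) (fun _ : Unit => ()) where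
  lev := fun _ => h
  sep1 := fun _ _ _ _ _ _ => rfl
  disj := fun i j _ hne => absurd (Subsingleton.elim i j) hne
  finC := fun _ => Set.toFinite _

variable [FiniteDimensional ℝ E]

/-- **the state of one class of one level** -/
noncomputable def s1 (h : RegLevel T u c S) (h3 : finrank ℝ E = 3) (b : E) :
    GSt (meshC T h3) (fun _ : Unit => ()) :=
  gmain ((gfam1 h).gst h3) (fun _ => b)

section s1

variable (h : RegLevel T u c S) (h3 : finrank ℝ E = 3) (b : E)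

theorem s1_mem {w : E} (hw : w ∈ (s1 h h3 b).P) : w ∈ S ∧ T.dim w ≤ 1 := by
  obtain ⟨_, h1⟩ := hw.1
  exact h1

theorem s1_on {w : E} (hw : w ∈ (s1 h h3 b).P) : w ∈ Om ∧ T.dim w = 1 := by
  obtain ⟨h1, h2⟩ := s1_mem h h3 b hw
  have := h.vert w h1
  exact ⟨h.sub h1, by omega⟩

theorem s1_H1 (ht : TrivF (ZMod 2) S) : (s1 h h3 b).H1 () :=
  gH1_main ((gfam1 h).H1 h3 () ht)

theorem s1_Conn (hb : b ∈ S) (hb1 : T.dim b ≤ 1) : (s1 h h3 b).Conn () :=
  gconn_main (fun i => by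
    cases i
    exact ((gfam1 h).mem_pts_iff (w := b) (i := ())).2 ⟨hb, hb1⟩) ()

theorem s1_LF : LF (s1 h h3 b) := fun _ =>
  ((h.finite_P h3)).subset fun _ hw => s1_mem h h3 b hw.1

theorem s1_P (hb : b ∈ S) (hb1 : T.dim b ≤ 1) {P : Finset E}
    (hP : ∀ x, x ∈ P ↔ x ∈ S ∧ T.dim x ≤ 1) {w : E} :
    w ∈ (s1 h h3 b).P ↔ w ∈ cls T S P b := by
  have hbP : b ∈ P := (hP b).2 ⟨hb, hb1⟩
  have key := reflTransGen_gstep_iff (gfam1 h) h3 (i := ()) hP (w := w) hbP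
  constructor
  · intro hw
    obtain ⟨i, hi⟩ := hw.2
    cases i
    exact key.1 hi
  · intro hw
    refine ⟨⟨(), (hP w).1 (cls_sub b hw)⟩, (), key.2 hw⟩

theorem s1_gPts (hb : b ∈ S) (hb1 : T.dim b ≤ 1) {P : Finset E}
    (hP : ∀ x, x ∈ P ↔ x ∈ S ∧ T.dim x ≤ 1) : gPts (s1 h h3 b) () = cls T S P b := by
  ext w
  rw [mem_gPts, ← s1_P h h3 b hb hb1 hP]
  exact ⟨fun h => h.1, fun h => ⟨h, Subsingleton.elim _ _⟩⟩

end s1

/-- the label condition of 117's `cmb` -/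
theorem lam_of_isLab {Q : Finset E} {lam : E → ZMod 2} (h : IsLab T Q lam) {e : E} (he : e ∈ Om)
    (h1 : T.dim e = 1) {a b : E} (hab : T.cc e = segment ℝ a b) :
    lam a + lam b = (((Q : Set E) ∩ T.cc e).ncard : ZMod 2) := by
  classical
  rw [h e he h1 a b hab]
  congr 1
  rw [← Set.ncard_coe_finset]
  congr 1
  ext w; simp

section homeo

open Crest.AnalysisR.VecCalc3 Crest.AnalysisR.Sobolev

variable {f : R3 → R3} {Om La : Set R3} {ι : Type} {T : Tiling Om ι}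

/-- **ONE-SHEET STATE OF A HOMEOMORPHISM.** A level `S = {u = c}` with `u < c` at the vertex `v₀`,
`c ≤ u` at the tiles not inside `f⁻¹ (int D)`: there is a base point `b` whose class has a label
which is `1` at `v₀` and `0` at the far tiles. -/
theorem exists_base1 (hLa : IsOpen La) (hf : IsHomeomorphOn f Om La) {D : Set R3}
    (hD : IsCompact D) (hDc : Convex ℝ D) (hDn : (interior D).Nonempty) (hDL : D ⊆ La)
    {u : R3 → ℝ} {c : ℝ} {S : Set R3} (h : RegLevel T u c S) (hu : ContinuousOn u Om)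
    (hfull : ∀ x ∈ Om, u x = c → x ∈ S)
    (hsupp : ∀ w ∈ S, ∀ q, w ∈ Msh_715.P (T.H q) → Msh_715.P (T.H q) ⊆ f ⁻¹' interior D)
    (hout : ∀ q, ¬ Msh_715.P (T.H q) ⊆ f ⁻¹' interior D → ∀ v ∈ Msh_715.P (T.H q), c ≤ u v)
    {v₀ : R3} (hv₀ : v₀ ∈ Om) (hd₀ : T.dim v₀ = 0) (h0 : u v₀ < c)
    (h3 : finrank ℝ R3 = 3) :
    ∃ b, b ∈ S ∧ T.dim b ≤ 1 ∧ ∃ lam, FarLab T f D (gPts (s1 h h3 b) ()) lam ∧ lam v₀ = 1 := by
  have hfin := h.finite_P h3
  have hP : ∀ x, x ∈ hfin.toFinset ↔ x ∈ S ∧ T.dim x ≤ 1 := fun x => by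
    rw [Set.Finite.mem_toFinset]; rfl
  obtain ⟨p, hp, lam, h1, h2⟩ := exists_main_homeo hLa hf hD hDc hDn hDL h hu hfull hP hsupp hout
    hv₀ hd₀ h0
  obtain ⟨hpS, hp1⟩ := (hP p).1 hp
  refine ⟨p, hpS, hp1, lam, ?_, h2⟩
  rw [s1_gPts h h3 p hpS hp1 hP]
  exact h1

end homeo

end Crest.Agent.R096.Sphs_4
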