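import Mathlib
import Crest.Agent.R096.Sphg3_316
import Crest.Agent.R096.Sphs1_4

/-! # Row 96, SPHERE, front part (helper316): from a fine mesh (976's `exists_mesh1`) and the gauge
`Ng z C` to ONE regular level with a base point and labels (input of helper4's state `s1`) -/

set_option autoImplicit false

open Set Filter Topology Metric NNReal MeasureTheory

namespace Crest.Agent.R096.Sphf_316

open Crest.Agent.R096.Msh_715 Crest.Agent.R096.Agl4_543 Crest.Agent.R096.Coh_184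
  Crest.Agent.R096.Main_4 Crest.Agent.R096.Lab_184 Crest.Agent.R096.Sphs_4
  Crest.Agent.R096.Sphg_316 Crest.AnalysisR.VecCalc3 Crest.AnalysisR.Sobolev

/-- the output of 976's `exists_mesh1`: tiles meeting `K` are `ε`-fine for `id` and `f`, and almost
every level of a Lipschitz function of `f` is finite on every edge -/
structure FMesh {Om : Set R3} {ι : Type} (T : Tiling Om ι) (f : R3 → R3) (K : Set R3) (ε : ℝ) :
    Prop where
  fine : ∀ q, (Msh_715.P (T.H q) ∩ K).Nonempty → ∀ x ∈ Msh_715.P (T.H q),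
    ∀ y ∈ Msh_715.P (T.H q), ‖x - y‖ ≤ ε ∧ ‖f x - f y‖ ≤ ε
  fin : ∀ (L : R3 → ℝ) (c : ℝ≥0), LipschitzWith c L → ∀ x ∈ Om, T.dim x = 1 →
    ∀ᵐ t : ℝ, {y | y ∈ T.cc x ∧ L (f y) = t}.Finite

theorem exists_mem_Ioo_of_ae {p : ℝ → Prop} (h : ∀ᵐ t : ℝ, p t) {a b : ℝ} (hab : a < b) :
    ∃ t ∈ Ioo a b, p t := by
  have h1 : (volume.restrict (Ioo a b) : Measure ℝ) ≠ 0 := by
    rw [Ne, Measure.restrict_eq_zero, Real.volume_Ioo, ENNReal.ofReal_eq_zero, not_le]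
    linarith
  have : NeBot (ae (volume.restrict (Ioo a b) : Measure ℝ)) := ae_neBot.2 h1
  have h2 : ∀ᵐ t ∂(volume.restrict (Ioo a b) : Measure ℝ), p t := ae_restrict_of_ae h
  obtain ⟨t, ht, ht'⟩ := ((ae_restrict_mem measurableSet_Ioo).and h2).exists
  exact ⟨t, ht, ht'⟩

variable {f : R3 → R3} {Om La : Set R3} {ι : Type} {T : Tiling Om ι} {z : R3} {C : Set R3}

theorem continuousOn_u (hf : IsHomeomorphOn f Om La) (hB : Bod z C) :
    ContinuousOn (fun x => Ng z C (f x)) Om := by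
  obtain ⟨g, H⟩ := Init_543.exists_hm hf
  exact hB.continuous.comp_continuousOn H.fc

/-- oscillation of the gauge on a tile -/
theorem osc_u {L : ℝ≥0} (hL : LipschitzWith L (Ng z C)) {K : Set R3} {ε : ℝ}
    (hM : FMesh T f K ε) {q : ι} (hq : (Msh_715.P (T.H q) ∩ K).Nonempty) {x y : R3}
    (hx : x ∈ Msh_715.P (T.H q)) (hy : y ∈ Msh_715.P (T.H q)) :
    Ng z C (f y) ≤ Ng z C (f x) + L * ε := by
  have h1 := hL.dist_le_mul (f y) (f x)
  have h2 := (hM.fine q hq y hy x hx).2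
  rw [Real.dist_eq, dist_eq_norm] at h1
  have h3 : (L : ℝ) * ‖f y - f x‖ ≤ L * ε := mul_le_mul_of_nonneg_left h2 L.2
  have h4 := le_abs_self (Ng z C (f y) - Ng z C (f x))
  linarith

/-- **FRONT.** -/
theorem front (hLa : IsOpen La) (hf : IsHomeomorphOn f Om La) (hB : Bod z C) (hCL : C ⊆ La)
    {x₀ : R3} (hx₀ : x₀ ∈ Om) (hz : f x₀ = z) {r0 r1 : ℝ} (hr0 : 0 < r0) (h01 : r0 < r1)
    (hr1 : r1 ≤ 1) {L : ℝ≥0} (hL : LipschitzWith L (Ng z C)) {ε : ℝ} (hε : 0 ≤ ε)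
    (hLε : L * ε < (r1 - r0) / 3)
    (hM : FMesh T f {x | x ∈ Om ∧ Ng z C (f x) ≤ r1} ε) (h3 : Module.finrank ℝ R3 = 3) :
    ∃ t ∈ Ioo r0 r1, ∃ h : RegLevel T (fun x => Ng z C (f x)) t {x | x ∈ Om ∧ Ng z C (f x) = t},
      TrivF (ZMod 2) {x | x ∈ Om ∧ Ng z C (f x) = t} ∧
      IsPreconnected {x | x ∈ Om ∧ Ng z C (f x) = t} ∧
      (∀ w ∈ {x | x ∈ Om ∧ Ng z C (f x) = t}, ∀ q, w ∈ Msh_715.P (T.H q) →
        Msh_715.P (T.H q) ⊆ f ⁻¹' interior {y | Ng z C y ≤ r1}) ∧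
      ∃ b, b ∈ {x | x ∈ Om ∧ Ng z C (f x) = t} ∧ T.dim b ≤ 1 ∧
        ∃ lam, FarLab T f {y | Ng z C y ≤ r1} (gPts (s1 h h3 b) ()) lam ∧
          ∀ v ∈ VM T {x | x ∈ Om ∧ Ng z C (f x) < r0}, lam v = 1 := by
  obtain ⟨g, H⟩ := Init_543.exists_hm hf
  have hr1' : 0 < r1 := hr0.trans h01
  have hu := continuousOn_u hf hB
  have hreg := Agl8_543.ae_regLevel T hu fun x hx hd => hM.fin (Ng z C) L hL x hx hd
  obtain ⟨t, ht, htr⟩ := exists_mem_Ioo_of_ae hreg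
    (show r0 + (r1 - r0) / 3 < r1 - (r1 - r0) / 3 by linarith)
  have ht0 : 0 < t := by have := ht.1; linarith
  have ht1 : t ≤ 1 := by have := ht.2; linarith
  have ht0' : r0 + L * ε < t := by have := ht.1; linarith
  have ht1' : t + L * ε < r1 := by have := ht.2; linarith
  have hLε0 : 0 ≤ L * ε := mul_nonneg L.2 hε
  have h := htr (hB.isCompact_lev H hCL ht1)
  have hint : interior {y | Ng z C y ≤ r1} = {y | Ng z C y < r1} := hB.interior_le hr1'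
  -- a tile which meets `{u ≤ t}` lies in the interior
  have key : ∀ q, ∀ x ∈ Msh_715.P (T.H q), Ng z C (f x) ≤ t →
      Msh_715.P (T.H q) ⊆ f ⁻¹' interior {y | Ng z C y ≤ r1} := by
    intro q x hx hxt y hy
    rw [mem_preimage, hint]
    have hq : (Msh_715.P (T.H q) ∩ {x | x ∈ Om ∧ Ng z C (f x) ≤ r1}).Nonempty :=
      ⟨x, hx, T.sub q hx, by show Ng z C (f x) ≤ r1; linarith⟩
    have h1 := osc_u hL hM hq hx hy
    show Ng z C (f y) < r1
    linarith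
  have hsupp : ∀ w ∈ {x | x ∈ Om ∧ Ng z C (f x) = t}, ∀ q, w ∈ Msh_715.P (T.H q) →
      Msh_715.P (T.H q) ⊆ f ⁻¹' interior {y | Ng z C y ≤ r1} :=
    fun w hw q hq => key q w hq hw.2.le
  have hout : ∀ q, ¬ Msh_715.P (T.H q) ⊆ f ⁻¹' interior {y | Ng z C y ≤ r1} →
      ∀ v ∈ Msh_715.P (T.H q), t ≤ Ng z C (f v) := by
    intro q hq v hv
    by_contra hlt
    exact hq (key q v hv (not_le.1 hlt).le)
  -- the core vertex
  obtain ⟨q₀, hq₀⟩ := T.cov x₀ hx₀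
  obtain ⟨v₀, hv₀, hd₀⟩ := exists_vertex_tile hq₀
  have hux₀ : Ng z C (f x₀) = 0 := by rw [hz, Ng_self]
  have hq₀K : (Msh_715.P (T.H q₀) ∩ {x | x ∈ Om ∧ Ng z C (f x) ≤ r1}).Nonempty :=
    ⟨x₀, hq₀, hx₀, by show Ng z C (f x₀) ≤ r1; rw [hux₀]; exact hr1'.le⟩
  have huv₀ : Ng z C (f v₀) < t := by
    have h1 := osc_u hL hM hq₀K hq₀ hv₀
    rw [hux₀] at h1
    linarith
  obtain ⟨b, hb, hb1, lam, hlam, hlam1⟩ := exists_base1 hLa hf (hB.isCompact_le r1)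
    (hB.convex_le r1) (by rw [hint]; exact hB.nonempty_lt hr1') ((hB.le_sub hr1).trans hCL)
    (u := fun x => Ng z C (f x)) h hu (fun x hx hxt => ⟨hx, hxt⟩) hsupp hout (T.sub q₀ hv₀) hd₀
    huv₀ h3
  refine ⟨t, ⟨by linarith, by linarith⟩, h, hB.trivF_lev h3 H hCL ht0 ht1,
    hB.preconn_lev h3 H hCL ht0 ht1, hsupp, b, hb, hb1, lam, hlam, fun v hv => ?_⟩
  -- labels inside
  have hK : IsPreconnected {x | x ∈ Om ∧ Ng z C (f x) < r0} :=
    hB.preconn_levlt H hCL (by linarith)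
  have hx₀K : x₀ ∈ {x | x ∈ Om ∧ Ng z C (f x) < r0} :=
    ⟨hx₀, by show Ng z C (f x₀) < r0; rw [hux₀]; exact hr0⟩
  have h5 := hlam.lab.const_geom hK (fun x hx => hx.1) (v := v) (w := v₀) ?_ hv
    (mem_VM hq₀ hx₀K hv₀ hd₀)
  · rw [h5]; exact hlam1
  · rintro i ⟨x, hx, hxO, hxK⟩ w hw hwi
    have hwS := s1_mem h h3 b (mem_gPts.1 hw).1
    have hiK : (Msh_715.P (T.H i) ∩ {x | x ∈ Om ∧ Ng z C (f x) ≤ r1}).Nonempty :=
      ⟨x, hx, hxO, by
        have h6 : Ng z C (f x) < r0 := hxK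
        show Ng z C (f x) ≤ r1
        linarith⟩
    have h6 : Ng z C (f w) ≤ Ng z C (f x) + L * ε := osc_u hL hM hiK hx hwi
    have h7 : Ng z C (f w) = t := hwS.1.2
    have h8 : Ng z C (f x) < r0 := hxK
    linarith

end Crest.Agent.R096.Sphf_316
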