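import Mathlib
import Crest.Agent.R096.Sphf1_316

/-! # Row 96, SPHERE, front part 2 (helper316): small levels, choice of the numbers, the state -/

set_option autoImplicit false

open Set Filter Topology Metric NNReal MeasureTheory

namespace Crest.Agent.R096.Sphf_316

open Crest.Agent.R096.Msh_715 Crest.Agent.R096.Agl4_543 Crest.Agent.R096.Coh_184
  Crest.Agent.R096.Main_4 Crest.Agent.R096.Lab_184 Crest.Agent.R096.Sphs_4
  Crest.Agent.R096.Sphg_316 Crest.AnalysisR.VecCalc3 Crest.AnalysisR.Sobolev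

/-- small sublevels of the gauge are small -/
theorem _root_.Crest.Agent.R096.Sphg_316.Bod.small {V : Type*} [NormedAddCommGroup V]
    [NormedSpace ℝ V] {z : V} {C : Set V} (h : Bod z C) {U : Set V} (hU : U ∈ 𝓝 z) :
    ∃ r : ℝ, 0 < r ∧ r ≤ 1 ∧ ∀ s ≤ r, {y | Ng z C y ≤ s} ⊆ U := by
  obtain ⟨δ, hδ, hb⟩ := Metric.mem_nhds_iff.1 hU
  obtain ⟨R, hR⟩ := h.cpt.isBounded.subset_closedBall z
  have hR0 : 0 ≤ R := by
    have := hR (interior_subset h.int)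
    rw [mem_closedBall, dist_self] at this
    exact this
  refine ⟨min 1 (δ / (2 * (R + 1))), by positivity, min_le_left _ _, fun s hs y hy => hb ?_⟩
  have hs0 : Ng z C y ≤ δ / (2 * (R + 1)) := (le_trans hy hs).trans (min_le_right _ _)
  rw [mem_ball, dist_eq_norm]
  rcases eq_or_ne y z with rfl | hne
  · rw [sub_self, norm_zero]; exact hδ
  · have h1 := h.eq_ray' y
    have h2 : pj z C y ∈ C := h.le_one_iff.1 (h.Ng_pj hne).le
    have h3 := hR h2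
    rw [mem_closedBall, dist_eq_norm] at h3
    have h4 : y - z = Ng z C y • (pj z C y - z) := by
      rw [eq_comm, ← sub_eq_iff_eq_add'.2 h1]
    rw [h4, norm_smul, Real.norm_eq_abs, abs_of_nonneg (Ng_nonneg _ _ _)]
    calc Ng z C y * ‖pj z C y - z‖ ≤ δ / (2 * (R + 1)) * R := by
          exact mul_le_mul hs0 h3 (norm_nonneg _) (by positivity)
      _ = δ * (R / (2 * (R + 1))) := by ring
      _ < δ * 1 := by
          refine mul_lt_mul_of_pos_left ?_ hδ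
          rw [div_lt_one (by positivity)]
          linarith
      _ = δ := mul_one _

variable {f : R3 → R3} {Om La : Set R3} {z : R3} {C : Set R3}

/-- small sublevels of `Ng ∘ f` lie in a given neighbourhood of `x₀` -/
theorem small_lev (hLa : IsOpen La) (hf : IsHomeomorphOn f Om La)
    (hB : Bod z C) (hCL : C ⊆ La) {x₀ : R3} (hx₀ : x₀ ∈ Om) (hz : f x₀ = z) {V : Set R3}
    (hV : V ∈ 𝓝 x₀) :
    ∃ r : ℝ, 0 < r ∧ r ≤ 1 ∧ ∀ s ≤ r, {x | x ∈ Om ∧ Ng z C (f x) ≤ s} ⊆ V := by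
  obtain ⟨g, H⟩ := Init_543.exists_hm hf
  have hzL : z ∈ La := hCL (interior_subset hB.int)
  have hgz : g z = x₀ := by rw [← hz, H.gf x₀ hx₀]
  have hc : ContinuousAt g z := H.gc.continuousAt (hLa.mem_nhds hzL)
  have hU : g ⁻¹' V ∈ 𝓝 z := hc.preimage_mem_nhds (by rw [hgz]; exact hV)
  obtain ⟨r, hr, hr1, h⟩ := hB.small hU
  refine ⟨r, hr, hr1, fun s hs x hx => ?_⟩
  have h1 : g (f x) ∈ V := h s hs hx.2
  rwa [H.gf x hx.1] at h1

/-- the point `x₀` is interior to every level body -/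
theorem lev_mem_nhds (hOm : IsOpen Om) (hf : IsHomeomorphOn f Om La)
    (hB : Bod z C) {x₀ : R3} (hx₀ : x₀ ∈ Om) (hz : f x₀ = z) {r : ℝ} (hr : 0 < r) :
    {x | x ∈ Om ∧ Ng z C (f x) < r} ∈ 𝓝 x₀ := by
  have h1 : ContinuousAt (fun x => Ng z C (f x)) x₀ :=
    (continuousOn_u hf hB).continuousAt (hOm.mem_nhds hx₀)
  have h2 : Ng z C (f x₀) < r := by rw [hz, Ng_self]; exact hr
  exact (hOm.eventually_mem hx₀).and (h1.eventually_lt_const h2)

/-- **FRONT with the choice of the numbers and of the mesh** (`hmesh` = 976's `exists_mesh1`) -/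
theorem exists_front (hLa : IsOpen La) (hf : IsHomeomorphOn f Om La)
    (hmesh : ∀ K : Set R3, IsCompact K → K ⊆ Om → ∀ ε : ℝ, 0 < ε →
      ∃ (ι : Type) (T : Tiling Om ι), FMesh T f K ε)
    (hB : Bod z C) (hCL : C ⊆ La) {x₀ : R3} (hx₀ : x₀ ∈ Om) (hz : f x₀ = z) {V : Set R3}
    (hV : V ∈ 𝓝 x₀) :
    ∃ r0 r1 : ℝ, 0 < r0 ∧ r0 < r1 ∧ r1 < 1 ∧ {x | x ∈ Om ∧ Ng z C (f x) ≤ r1} ⊆ V ∧
    ∀ ε₀ > 0, ∃ ε > 0, ε ≤ ε₀ ∧ ∃ (ι : Type) (T : Tiling Om ι),
      FMesh T f {x | x ∈ Om ∧ Ng z C (f x) ≤ r1} ε ∧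
      ∃ t ∈ Ioo r0 r1, ∃ h : RegLevel T (fun x => Ng z C (f x)) t
          {x | x ∈ Om ∧ Ng z C (f x) = t},
        TrivF (ZMod 2) {x | x ∈ Om ∧ Ng z C (f x) = t} ∧
        IsPreconnected {x | x ∈ Om ∧ Ng z C (f x) = t} ∧
        (∀ w ∈ {x | x ∈ Om ∧ Ng z C (f x) = t}, ∀ q, w ∈ Msh_715.P (T.H q) →
          Msh_715.P (T.H q) ⊆ f ⁻¹' interior {y | Ng z C y ≤ r1}) ∧
        ∃ b, b ∈ {x | x ∈ Om ∧ Ng z C (f x) = t} ∧ T.dim b ≤ 1 ∧
          ∃ lam, FarLab T f {y | Ng z C y ≤ r1} (gPts (s1 h finrank_R3 b) ()) lam ∧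
            ∀ v ∈ VM T {x | x ∈ Om ∧ Ng z C (f x) < r0}, lam v = 1 := by
  obtain ⟨g, H⟩ := Init_543.exists_hm hf
  obtain ⟨r, hr, hr1, hrV⟩ := small_lev hLa hf hB hCL hx₀ hz hV
  obtain ⟨L, hL⟩ := hB.lipschitz
  refine ⟨r / 4, r / 2, by positivity, by linarith, by linarith, hrV _ (by linarith),
    fun ε₀ hε₀ => ?_⟩
  have hL0 : (0 : ℝ) ≤ L := L.2
  refine ⟨min ε₀ (r / 24 / (L + 1)), by positivity, min_le_left _ _, ?_⟩
  obtain ⟨ι, T, hM⟩ := hmesh {x | x ∈ Om ∧ Ng z C (f x) ≤ r / 2}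
    (hB.isCompact_levle H hCL (by linarith)) (fun x hx => hx.1) (min ε₀ (r / 24 / (L + 1)))
    (by positivity)
  refine ⟨ι, T, hM, ?_⟩
  refine front hLa hf hB hCL hx₀ hz (by positivity) (by linarith) (by linarith) hL
    (by positivity) ?_ hM finrank_R3
  have h1 : (L : ℝ) * min ε₀ (r / 24 / (L + 1)) ≤ L * (r / 24 / (L + 1)) :=
    mul_le_mul_of_nonneg_left (min_le_right _ _) hL0
  have h2 : (L : ℝ) * (r / 24 / (L + 1)) ≤ r / 24 := by
    have : (L : ℝ) * (r / 24 / (L + 1)) = r / 24 * (L / (L + 1)) := by ring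
    rw [this]
    refine mul_le_of_le_one_right (by positivity) ?_
    rw [div_le_one (by positivity)]
    linarith
  linarith

end Crest.Agent.R096.Sphf_316
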