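import Crest.Agent.R096.Sphs3_4

/-! # Row 96, SPHERE (helper4), part 4: the extra clauses of the ball of the main class: PL function
`φ`, the frontier lies in tiles of the pattern, connected sets which miss the frontier. -/

set_option autoImplicit false

open Set Filter Topology Metric Module

namespace Crest.Agent.R096.Sphs_4

open Crest.Agent.R096.Msh_715 Crest.Agent.R096.Agl4_543 Crest.Agent.R096.Agl5_543
  Crest.Agent.R096.Coh_184 Crest.Agent.R096.Main_4 Crest.Agent.R096.Ginv_543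
  Crest.Agent.R096.Lab_184 Crest.Agent.R096.Seq_213 Crest.Agent.R096.Cm_117
  Crest.Agent.R096.Bd_416 Crest.Agent.R096.Shp_334 Crest.Agent.R096.Ce_537

open scoped Classical

section cells

variable {E : Type} [NormedAddCommGroup E] [NormedSpace ℝ E] [FiniteDimensional ℝ E]
variable {Om : Set E} {ι : Type} {T : Tiling Om ι} {h3 : finrank ℝ E = 3}
variable {s : GSt (meshC T h3) (fun _ : Unit => ())}
variable {h : LF s} {hon : ∀ w ∈ s.P, w ∈ Om ∧ T.dim w = 1} {Lam : Unit → E → ZMod 2}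
  {hLam : ∀ j, ∀ e ∈ Om, T.dim e = 1 → ∀ a b, T.cc e = segment ℝ a b →
      Lam j a + Lam j b = (((gPts s j : Set E) ∩ T.cc e).ncard : ZMod 2)}
variable {g : Gd E Unit} {P : ∀ q, (cmb h hon Lam hLam).I q → Set E}
  {c : ∀ q, (cmb h hon Lam hLam).I q → E → ℝ}

/-- a tile with a point of `{G = 1/2}` contains a point of the pattern -/
theorem pt_of_half (H : Inv (cmb h hon Lam hLam) (fun c : T.Cell => c.set) univ g P c) {q : ι}
    {z : E} (hz : z ∈ Msh_715.P (T.H q)) (hG : g.G () z = 1/2) :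
    ∃ w ∈ s.P, w ∈ Msh_715.P (T.H q) := by
  by_contra hcon
  push Not at hcon
  have h1 := G_of_empty H (q := q) (fun w hw => hcon w hw) hz
  rw [hG] at h1
  have h2 := sg_sq (Lam () (bv (tcell T q)))
  have h3' : sg (Lam () (bv (tcell T q))) = 0 := by linarith
  rw [h3'] at h2
  norm_num at h2

/-- `G` is PL on compact sets -/
theorem plOn_G (H : Inv (cmb h hon Lam hLam) (fun c : T.Cell => c.set) univ g P c) {K : Set E}
    (hK : IsCompact K) (hKO : K ⊆ Om) : PLOn (g.G ()) K := by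
  have hfin := T.finite_tiles hK hKO
  refine (plOn_biUnion (K := fun q => Msh_715.P (T.H q)) _ hfin (fun q _ => ?_)
    (fun q _ => (isClosed_P _))).mono fun z hz => ?_
  · have := (H.is (tcell T q) (mem_univ _)).pG ()
    rwa [tcell_set] at this
  · obtain ⟨q, hq⟩ := T.cov z (hKO hz)
    exact mem_biUnion (show q ∈ {q | (Msh_715.P (T.H q) ∩ K).Nonempty} from ⟨z, hq, hz⟩) hq

end cells

/-- a connected set which meets the interior of a closed set and misses its frontier -/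
theorem sub_interior {X : Type*} [TopologicalSpace X] {A K : Set X} (hA : IsPreconnected A)
    (hK : IsClosed K) (hd : ∀ x ∈ A, x ∉ frontier K) {x₀ : X} (hx : x₀ ∈ A)
    (hx' : x₀ ∈ interior K) : A ⊆ interior K := by
  have h1 : A ⊆ interior K ∪ Kᶜ := by
    intro x hxA
    by_cases hxK : x ∈ K
    · left
      by_contra hcon
      exact hd x hxA (by rw [hK.frontier_eq]; exact ⟨hxK, hcon⟩)
    · exact Or.inr hxK
  exact hA.subset_left_of_subset_union isOpen_interior hK.isOpen_compl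
    (disjoint_compl_right.mono_left interior_subset) h1 ⟨x₀, hx, hx'⟩

section ball

open Crest.AnalysisR.VecCalc3 Crest.AnalysisR.Sobolev

variable {f : R3 → R3} {Om La : Set R3} {ι : Type} {T : Tiling Om ι} {h3 : finrank ℝ R3 = 3}
variable {s : GSt (meshC T h3) (fun _ : Unit => ())}
variable {h : LF s} {hon : ∀ w ∈ s.P, w ∈ Om ∧ T.dim w = 1} {lam : R3 → ZMod 2}
  {hLam : ∀ j : Unit, ∀ e ∈ Om, T.dim e = 1 → ∀ a b, T.cc e = segment ℝ a b →
      (fun _ : Unit => lam) j a + (fun _ : Unit => lam) j b =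
        (((gPts s j : Set R3) ∩ T.cc e).ncard : ZMod 2)}
variable {g : Gd R3 Unit} {P : ∀ q, (cmb h hon (fun _ => lam) hLam).I q → Set R3}
  {c : ∀ q, (cmb h hon (fun _ => lam) hLam).I q → R3 → ℝ}

/-- **THE BALL OF THE MAIN CLASS, all clauses** -/
theorem ball_of_state' (hBL : BallLvl R3) (hOm : IsOpen Om) (hf : IsHomeomorphOn f Om La)
    (hE : Gp_702.ExistStmt) (hN : Gp_702.NormStmt)
    (H : Inv (cmb h hon (fun _ => lam) hLam) (fun c : T.Cell => c.set) univ g P c)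
    (hB : Bls (cmb h hon (fun _ => lam) hLam) (fun c : T.Cell => c.set) c ())
    (h1 : s.H1 ()) (hc : s.Conn ()) {D : Set R3} (hD : IsCompact D) (hDL : D ⊆ La)
    (hl : FarLab T f D (gPts s ()) lam)
    (hsupp : ∀ w ∈ s.P, ∀ q, w ∈ Msh_715.P (T.H q) → Msh_715.P (T.H q) ⊆ f ⁻¹' interior D)
    {q : ι} (hq : ∀ w ∈ s.P, w ∉ Msh_715.P (T.H q)) {v₀ : R3}
    (hv₀ : v₀ ∈ Msh_715.P (T.H q)) (hd₀ : T.dim v₀ = 0) (h0 : lam v₀ = 1) :
    ∃ K : Set R3, K = {z | z ∈ Om ∧ 1/2 ≤ g.G () z} ∧ IsBall 3 K (frontier K) ∧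
      frontier K = {z | z ∈ Om ∧ g.G () z = 1/2} ∧ Msh_715.P (T.H q) ⊆ interior K ∧
      (∀ z ∈ K, f z ∈ interior D) ∧ K ⊆ Om ∧ IsCompact K ∧
      (∀ z ∈ frontier K, ∀ i, z ∈ Msh_715.P (T.H i) → ∃ w ∈ s.P, w ∈ Msh_715.P (T.H i)) ∧
      (∀ A : Set R3, IsPreconnected A → (∀ x ∈ A, x ∉ frontier K) →
        (A ∩ Msh_715.P (T.H q)).Nonempty → A ⊆ interior K) ∧
      ∃ φ : R3 → ℝ, PLOn φ K ∧ (∀ x ∈ K, φ x ≤ 0) ∧ ∀ x ∈ K, (φ x = 0 ↔ x ∈ frontier K) := by
  obtain ⟨K, k1, k2, k3, k4, k5, k6⟩ := ball_of_state hBL hOm hf hE hN H hB h1 hc hD hDL hl hsupp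
    hq hv₀ hd₀ h0
  have hKc : IsCompact K := k2.isCompact
  refine ⟨K, k1, k2, k3, k4, fun z hz => ?_, k6, hKc, fun z hz i hi => ?_, fun A hA hd hne => ?_,
    fun z => 1/2 - g.G () z, ?_, fun x hx => ?_, fun x hx => ?_⟩
  · obtain ⟨i, hi⟩ := T.cov z (k6 hz)
    exact k5 z hz i hi hi
  · rw [k3] at hz
    exact pt_of_half H hi hz.2
  · obtain ⟨x, hxA, hxq⟩ := hne
    exact sub_interior hA hKc.isClosed hd hxA (k4 hxq)
  · have h5 := plOn_G H hKc k6
    have h6 : PLOn (fun t : ℝ => 1/2 - t) univ := by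
      have := plOn_affine (AffineMap.const ℝ ℝ (1/2 : ℝ) - AffineMap.id ℝ ℝ) (univ : Set ℝ)
      exact this
    exact h6.comp h5 (fun _ _ => mem_univ _)
  · rw [k1] at hx
    have := hx.2
    linarith
  · rw [k3]
    constructor
    · intro h7
      exact ⟨k6 hx, by linarith⟩
    · rintro ⟨-, h7⟩
      show 1/2 - g.G () x = 0
      rw [h7]; norm_num

end ball

end Crest.Agent.R096.Sphs_4
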