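import Crest.Agent.R096.Sphs4_4
import Crest.Agent.R096.Lm7_117

/-! # Row 96, SPHERE (helper4), part 5: every locally finite state over a tiling is realised by a
band structure whose sheets are made of balls. -/

set_option autoImplicit false

open Set Filter Topology Metric Module

namespace Crest.Agent.R096.Sphs_4

open Crest.Agent.R096.Msh_715 Crest.Agent.R096.Agl5_543 Crest.Agent.R096.Cm_117
  Crest.Agent.R096.Bd_416 Crest.Agent.R096.Shp_334 Crest.Agent.R096.Ce_537
  Crest.Agent.R096.Arc_778 Crest.Agent.R096.Seq_213 Crest.Agent.R096.Lm_117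
  Crest.Agent.R096.Lab_184 Crest.Agent.R096.Coh_184

open scoped Classical

variable {E : Type} [NormedAddCommGroup E] [NormedSpace ℝ E] [FiniteDimensional ℝ E]
variable {Om : Set E} {ι : Type} {T : Tiling Om ι} {h3 : finrank ℝ E = 3} {J C : Type}
variable {fam : J → C} {s : GSt (meshC T h3) fam}

/-- **realisation of a state over a tiling (no given part)** -/
theorem exists_state (h : LF s) (hon : ∀ w ∈ s.P, w ∈ Om ∧ T.dim w = 1) (Lam : J → E → ZMod 2)
    (hLam : ∀ j, ∀ e ∈ Om, T.dim e = 1 → ∀ a b, T.cc e = segment ℝ a b →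
      Lam j a + Lam j b = (((gPts s j : Set E) ∩ T.cc e).ncard : ZMod 2)) :
    ∃ g P c, Inv (cmb h hon Lam hLam) (fun c : T.Cell => c.set) univ g P c ∧
      ∀ j, Bls (cmb h hon Lam hLam) (fun c : T.Cell => c.set) c j := by
  refine exists_inv_bls T.cplx (fun q => ?_) (k := ek h)
    (cmbG_T h hon Lam hLam fun q _ hd => ek_inj h q hd) fun τ hd x x' hne _ =>
      cmb_ord h hon Lam hLam τ hd x x' hne
  show q.dim ≤ 3
  rw [← h3]
  exact T.dim_le_finrank q.pt

end Crest.Agent.R096.Sphs_4
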