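import Crest.Agent.R096.Spg7_560
import Crest.Agent.R096.Sps4_333

/-!
# R096 (row 96), DOORS / SPH (helper333), part s5: `θ` for a realised sheet

* `Del Em Sg ε δ₀`   : the conclusion of the sphere lemma for the constant `δ₀`;
* `exists_del`       : it holds for some `δ₀ > 0` (560's `sph`);
* `theta_of_sheet`   : a sheet of 416's band structure which realises the main class of a level
  surface `S`, with cells of `G`-oscillation at most `δ₀`, has a PL equivalence `θ` onto `Sg` which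
  is `ε`-near to `G`.
-/

set_option autoImplicit false

open Set Metric

namespace Crest.Agent.R096.Spp_333

open Crest.Agent.R096.Sph_560 Crest.Agent.R096.Ce_537 Crest.Agent.R096.Bd_416
  Crest.Agent.R096.Shp_334 Crest.Agent.R096.Coh_184 Crest.Agent.R096.Jn_890
  Crest.Agent.R096.Seq_213 Crest.Agent.R096.St_147

/-- the sphere lemma holds with the constant `δ₀` -/
def Del (Em : Type*) [NormedAddCommGroup Em] [NormedSpace ℝ Em] {F : Type*}
    [NormedAddCommGroup F] [NormedSpace ℝ F] (Sg' : Set F) (ε δ₀ : ℝ) : Prop :=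
  ∀ {V E T : Type} [Fintype E] [Finite V] [Finite T] (S : Surf V E T), EvenT S →
    ∀ {K Sg : Set Em} (A : Real S Sg), IsBall 3 K Sg → ∀ (gv : V → F), Carry S gv Sg' δ₀ →
    ∀ (g : Em → F), (∀ f e, S.On f e → ∀ v ∈ S.ends e, ∀ p ∈ A.tile f,
      dist (gv v) (g p) ≤ δ₀) →
    ∃ θ : PLEquiv Sg Sg', ∀ p ∈ Sg, dist (θ.f p) (g p) ≤ ε

theorem exists_del (Em : Type*) [NormedAddCommGroup Em] [NormedSpace ℝ Em] {F : Type*}
    [NormedAddCommGroup F] [NormedSpace ℝ F] {K' Sg' : Set F} (hK' : IsBall 3 K' Sg') {ε : ℝ}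
    (hε : 0 < ε) : ∃ δ₀ > 0, Del Em Sg' ε δ₀ := by
  obtain ⟨δ₀, h1, h2⟩ := sph (Em := Em) hK' hε
  exact ⟨δ₀, h1, h2⟩

section finite

variable {Q : Type} [PartialOrder Q] {dim : Q → ℕ} {J Fam : Type}
variable {E' : Type*} [NormedAddCommGroup E'] [NormedSpace ℝ E']
variable {C : Cmb Q dim J Fam} {K : Q → Set E'} {Ω : Set E'} {j : J}

/-- finitely many chords -/
theorem finite_chords (X : Cplx Ω Q dim K) (htop : Top3 Q dim) [Finite (Pce C j 3)] :
    Finite (Pce C j 2) := by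
  have h4 : (univ : Set (Pce C j 2)).Finite := by
    have h3 : (univ : Set (Pce C j 2)) ⊆ ⋃ t : Pce C j 3, {y | Sub C y t} := by
      intro y _
      obtain ⟨q', hle, hd⟩ := htop y.1.1
      have hlt : y.1.1 < q' := lt_of_le_of_ne hle (fun h => by
        have h2 := y.2.1
        rw [h, hd] at h2
        omega)
      exact mem_iUnion.2 ⟨upP y hlt hd, sub_upP y hlt hd⟩
    exact (Set.finite_iUnion fun t => finite_sub X t).subset h3
  exact finite_univ_iff.1 h4

end finite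

section sheet

open Crest.Agent.R096.Msh_715 Crest.Agent.R096.Agl4_543 Crest.Agent.R096.Agl5_543
  Crest.Agent.R096.Main_4

variable {E : Type} [NormedAddCommGroup E] [NormedSpace ℝ E] [FiniteDimensional ℝ E]
variable {Om : Set E} {ι : Type} {T : Tiling Om ι} (h3 : Module.finrank ℝ E = 3)
variable {J Fam : Type} {fam : J → Fam} {s : GSt (meshC T h3) fam}
variable {Q : Type} [PartialOrder Q] {dim : Q → ℕ}
variable {E' : Type*} [NormedAddCommGroup E'] [NormedSpace ℝ E']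
variable {C : Cmb Q dim J Fam} {K : Q → Set E'} {g : Gd E' J}
  {P' : ∀ q, C.I q → Set E'} {c' : ∀ q, C.I q → E' → ℝ} {Ω : Set E'}
variable (H : Inv C K univ g P' c') (X : Cplx Ω Q dim K) {j : J} (hB : Bls C K c' j)
variable (hM : Mfd Q dim) (htop : Top3 Q dim)
variable {F : Type*} [NormedAddCommGroup F] [NormedSpace ℝ F]

include H X hB hM htop

/-- **`θ` for a realised sheet** -/
theorem theta_of_sheet (h1 : SH1 C j) (hc : SConn C j) (D : Dic C s j)
    {Sg : Set F} {ε δ : ℝ} (hdel : Del E' Sg ε δ)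
    {Kb : Set E'} (hKb : IsBall 3 Kb {z | z ∈ Ω ∧ g.G j z = 1/2})
    {u : E → ℝ} {t : ℝ} {S : Set E} (hS : RegLevel T u t S) {P : Finset E}
    (hP : ∀ x, x ∈ P ↔ x ∈ S ∧ T.dim x ≤ 1) (htriv : TrivAll Bool (ZMod 2) S)
    (hsP : ∀ w ∈ s.P, s.lab w = j → w ∈ S)
    (hstep : ∀ a b, a ∈ s.P → s.lab a = j → a ≠ b → St T S P a b → ∃ F, s.At F a ∧ b = s.mu F a)
    (hcls : ∀ a b, a ∈ s.P → s.lab a = j → b ∈ s.P → s.lab b = j →
      Relation.ReflTransGen (St T S P) a b)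
    {G : E → F} {G' : F → E} (hG : MapsTo G S Sg)
    (hG' : ContinuousOn G' Sg) (hG'S : MapsTo G' Sg S) (hGG' : ∀ y ∈ Sg, G (G' y) = y)
    (hG'G : ∀ x ∈ S, G' (G x) = x)
    (hosc : ∀ q, ∀ x ∈ S, ∀ y ∈ S, x ∈ Msh_715.P (T.H q) → y ∈ Msh_715.P (T.H q) →
      dist (G x) (G y) ≤ δ)
    (hdense : ∀ y ∈ Sg, ∃ w ∈ s.P, s.lab w = j ∧ dist (G w) y ≤ δ)
    {Gm : E' → F} (hGm : ∀ (τ : Pce C j 3) (v : Pce C j 1), Sub C v τ → ∀ p ∈ K τ.1.1,
      dist (G (D.pt v)) (Gm p) ≤ δ) :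
    ∃ θ : PLEquiv {z | z ∈ Ω ∧ g.G j z = 1/2} Sg,
      ∀ p ∈ {z | z ∈ Ω ∧ g.G j z = 1/2}, dist (θ.f p) (Gm p) ≤ ε := by
  have f1 : Finite (Pce C j 1) := D.finite1
  have f3 : Finite (Pce C j 3) := finite3 H X hB
  have f2 : Finite (Pce C j 2) := finite_chords X htop
  have : Fintype (Pce C j 2) := Fintype.ofFinite _
  refine hdel (sheetPoly H X hB hM h1 hc).surf (sheetPoly H X hB hM h1 hc).evenT
    (sheetReal H X hB hM h1 hc htop) hKb (fun v => G (D.pt v))
    (sheet_carry h3 H X hB hM h1 hc D hS hP htriv hsP hstep hcls hG hG' hG'S hGG' hG'G hosc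
      hdense) Gm ?_
  intro τ y hy v hv p hp
  have hv' : Sub C v y := (mem_cends H X hB).1 hv
  exact hGm τ v (hv'.trans hy) p hp.1

end sheet

end Crest.Agent.R096.Spp_333
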