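import Crest.Agent.R096.Sphg1_316
import Crest.Agent.R096.Sphs1_4
import Crest.Agent.R096.Sps5_333

/-!
# R096 (row 96), SPHERE (helper333), part s6: `θ` for the main class of a gauge level of a
homeomorphism (the state `s1` of helper4)

* `Gau z C`       : the facts about the gauge and the radial projection (316's (g1)-(g3));
* `dense_s1`      : the points of the main class are dense over `frontier C`;
* `theta_s1`      : `θ` near `e₀ ∘ pj z C ∘ f`.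
-/

set_option autoImplicit false

open Set Metric

namespace Crest.Agent.R096.Spp_333

open Crest.Agent.R096.Sph_560 Crest.Agent.R096.Ce_537 Crest.Agent.R096.Bd_416
  Crest.Agent.R096.Shp_334 Crest.Agent.R096.Coh_184 Crest.Agent.R096.Jn_890
  Crest.Agent.R096.Seq_213 Crest.Agent.R096.St_147 Crest.Agent.R096.Sphg_316
  Crest.Agent.R096.Msh_715 Crest.Agent.R096.Agl4_543 Crest.Agent.R096.Agl5_543
  Crest.Agent.R096.Main_4 Crest.Agent.R096.Sphs_4 Crest.Agent.R096.Cm_117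
  Crest.AnalysisR.VecCalc3 Crest.AnalysisR.Sobolev Crest.Agent.R096.Ginv_543
  Crest.Agent.R096.Lab_184

/-- facts about the gauge and the radial projection -/
structure Gau (z : R3) (C : Set R3) : Prop where
  pf : ∀ y, y ≠ z → pj z C y ∈ frontier C
  ray : ∀ w ∈ frontier C, ∀ s : ℝ, 0 < s → pj z C (z + s • (w - z)) = w
  one : ∀ w ∈ frontier C, Ng z C w = 1
  eq : ∀ y, ∀ r : ℝ, 0 < r → Ng z C y = r → y = z + r • (pj z C y - z)

variable {f : R3 → R3} {Om La : Set R3} {ι : Type} {T : Tiling Om ι}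

/-- `pj` is near on nearby points, away from `z` -/
def Near (z : R3) (C : Set R3) {F : Type*} [NormedAddCommGroup F] (e₀ : R3 → F) (r ε₁ δ : ℝ) :
    Prop :=
  ∀ a b : R3, Ng z C a = r → ‖a - b‖ ≤ ε₁ → b ≠ z ∧ ‖e₀ (pj z C a) - e₀ (pj z C b)‖ ≤ δ

section dense

/-- the tiles which meet `f⁻¹ C` have small images -/
def Fine1 (T : Tiling Om ι) (f : R3 → R3) (C : Set R3) (ε₁ : ℝ) : Prop :=
  ∀ q, (∃ x ∈ Msh_715.P (T.H q), f x ∈ C) → ∀ x ∈ Msh_715.P (T.H q), ∀ y ∈ Msh_715.P (T.H q),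
    ‖f x - f y‖ ≤ ε₁

/-- **density of the main class** -/
theorem dense_s1 (hf : IsHomeomorphOn f Om La) {C : Set R3} (hC : IsClosed C)
    (hcv : Convex ℝ C) (hCL : C ⊆ La) {z : R3} (hz : z ∈ C) (hG : Gau z C) {F : Type*}
    [NormedAddCommGroup F] {e₀ : R3 → F} {r ε₁ δ : ℝ}
    (hNear : Near z C e₀ r ε₁ δ) (hfine : Fine1 T f C ε₁)
    {Q : Finset R3} (hQ : ∀ w ∈ Q, Ng z C (f w) = r) {lam : R3 → ZMod 2}
    (hl : FarLab T f C Q lam) {x₀ v₀ : R3} {q₀ : ι} (hx₀ : x₀ ∈ Msh_715.P (T.H q₀))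
    (hfx : f x₀ = z) (hv₀ : v₀ ∈ Msh_715.P (T.H q₀)) (hd₀ : T.dim v₀ = 0) (h0 : lam v₀ = 1)
    {y : R3} (hy : y ∈ frontier C) : ∃ w ∈ Q, ‖e₀ (pj z C (f w)) - e₀ y‖ ≤ δ := by
  have hyC : y ∈ C := hC.frontier_subset hy
  obtain ⟨x₁, hx₁, hfx₁⟩ := exists_preimage hf (hCL hyC)
  obtain ⟨q₁, hq₁⟩ := T.cov x₁ hx₁
  have hq₁' : ¬ Msh_715.P (T.H q₁) ⊆ f ⁻¹' interior C := by
    intro h4
    have h5 : f x₁ ∈ interior C := h4 hq₁
    rw [hfx₁] at h5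
    rw [hC.frontier_eq] at hy
    exact hy.2 h5
  obtain ⟨v₁, hv₁, hd₁⟩ := exists_vertex_tile hq₁
  have hseg : segment ℝ z y ⊆ C := hcv.segment_subset hz hyC
  obtain ⟨w, hw, q, hwq, a, ⟨x, hxq, rfl⟩, ha⟩ := hl.reach_target hf (G := segment ℝ z y)
    (convex_segment z y).isPreconnected (hseg.trans hCL) hx₀
    (by rw [hfx]; exact left_mem_segment ℝ z y) hv₀ hd₀ hq₁
    (by rw [hfx₁]; exact right_mem_segment ℝ z y) hv₁ hd₁
    (by rw [h0, hl.far q₁ hq₁' v₁ hv₁]; exact one_ne_zero)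
  refine ⟨w, hw, ?_⟩
  have hxC : f x ∈ C := hseg ha
  have h1 := hfine q ⟨x, hxq, hxC⟩ w hwq x hxq
  obtain ⟨h2, h3⟩ := hNear (f w) (f x) (hQ w hw) h1
  -- the point of the segment
  rw [segment_eq_image'] at ha
  obtain ⟨t, ht, hta⟩ := ha
  have ht0 : 0 < t := by
    rcases lt_or_eq_of_le ht.1 with h | h
    · exact h
    · exfalso
      apply h2
      rw [← hta]
      simp [← h]
  have h4 : pj z C (f x) = y := by
    rw [← hta]
    exact hG.ray y hy t ht0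
  rwa [h4] at h3

end dense

section theta

variable {h3 : Module.finrank ℝ R3 = 3}
variable {Q : Type} [PartialOrder Q] {dim : Q → ℕ}
variable {C : Cmb Q dim Unit Unit} {K : Q → Set R3} {g : Gd R3 Unit}
  {P' : ∀ q, C.I q → Set R3} {c' : ∀ q, C.I q → R3 → ℝ} {Ω : Set R3}
variable (H : Inv C K univ g P' c') (X : Cplx Ω Q dim K) (hB : Bls C K c' ())
variable (hM : Mfd Q dim) (htop : Top3 Q dim)
variable {F : Type*} [NormedAddCommGroup F] [NormedSpace ℝ F]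

include H X hB hM htop

/-- **`θ` for the main class** -/
theorem theta_s1 (hf : IsHomeomorphOn f Om La) {D : Set R3} (hDc : IsClosed D)
    (hcv : Convex ℝ D) (hDL : D ⊆ La) {z : R3} (hz : z ∈ D) (hG : Gau z D)
    {Sg : Set F} {e₀ : R3 → F} {e₁ : F → R3} (he₀ : MapsTo e₀ (frontier D) Sg)
    (he₁ : MapsTo e₁ Sg (frontier D)) (hec : ContinuousOn e₁ Sg)
    (h01 : ∀ y ∈ Sg, e₀ (e₁ y) = y) (h10 : ∀ w ∈ frontier D, e₁ (e₀ w) = w)
    {r ε₁ ε δ : ℝ} (hr : 0 < r) (hr1 : r ≤ 1) (hNear : Near z D e₀ r ε₁ δ)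
    (hfine : Fine1 T f D ε₁) (hdel : Del R3 Sg ε δ)
    {Kb : Set R3} (hKb : IsBall 3 Kb {z | z ∈ Ω ∧ g.G () z = 1/2})
    {u : R3 → ℝ} {t : ℝ} (h : RegLevel T u t {x | x ∈ Om ∧ Ng z D (f x) = r})
    (htriv : TrivF (ZMod 2) {x | x ∈ Om ∧ Ng z D (f x) = r})
    {b : R3} (hb : b ∈ Om) (hbr : Ng z D (f b) = r) (hb1 : T.dim b ≤ 1)
    {lam : R3 → ZMod 2} (hl : FarLab T f D (gPts (s1 h h3 b) ()) lam) {x₀ v₀ : R3} {q₀ : ι}
    (hx₀ : x₀ ∈ Msh_715.P (T.H q₀)) (hfx : f x₀ = z) (hv₀ : v₀ ∈ Msh_715.P (T.H q₀))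
    (hd₀ : T.dim v₀ = 0) (h0 : lam v₀ = 1)
    (h1 : SH1 C ()) (hc : SConn C ()) (Dc : Dic C (s1 h h3 b) ())
    (hcell : ∀ (τ : Pce C () 3) (v : Pce C () 1), Sub C v τ →
      ∃ q, Dc.pt v ∈ Msh_715.P (T.H q) ∧ K τ.1.1 ⊆ Msh_715.P (T.H q)) :
    ∃ θ : PLEquiv {z | z ∈ Ω ∧ g.G () z = 1/2} Sg,
      ∀ p ∈ {z | z ∈ Ω ∧ g.G () z = 1/2}, dist (θ.f p) (e₀ (pj z D (f p))) ≤ ε := by
  classical
  obtain ⟨fi, a1, a2, a3, a4, a5, a6⟩ := id hf
  set S : Set R3 := {x | x ∈ Om ∧ Ng z D (f x) = r} with hS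
  have hfin := h.finite_P h3
  have hP : ∀ x, x ∈ hfin.toFinset ↔ x ∈ S ∧ T.dim x ≤ 1 := fun x => by
    rw [Set.Finite.mem_toFinset]; rfl
  have hne : ∀ x ∈ S, f x ≠ z := by
    rintro x ⟨-, hx⟩ hxz
    rw [hxz, Ng_self] at hx
    exact hr.ne hx
  have hseg : ∀ w ∈ D, z + r • (w - z) ∈ D := by
    intro w hw
    have := hcv hz hw (show (0 : ℝ) ≤ 1 - r by linarith) hr.le (by ring)
    convert this using 1
    module
  have hSD : ∀ x ∈ S, f x ∈ D := by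
    intro x hx
    rw [hG.eq (f x) r hr hx.2]
    exact hseg _ (hDc.frontier_subset (hG.pf _ (hne x hx)))
  have hpj : ∀ w ∈ frontier D, Ng z D (z + r • (w - z)) = r := fun w hw => by
    rw [Ng_ray z D hr.le, hG.one w hw, mul_one]
  have hPS : ∀ w, w ∈ (s1 h h3 b).P → w ∈ S := fun w hw => (s1_mem h h3 b hw).1
  have hkey := fun w => s1_P h h3 b (w := w) ⟨hb, hbr⟩ hb1 hP
  refine theta_of_sheet h3 H X hB hM htop (s := s1 h h3 b) h1 hc Dc hdel hKb h hP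
    (htriv.all Bool) (fun w hw _ => hPS w hw) ?_ ?_
    (G := fun x => e₀ (pj z D (f x))) (G' := fun y => fi (z + r • (e₁ y - z))) ?_ ?_ ?_ ?_ ?_ ?_
    ?_ ?_
  · -- steps
    intro a a' ha _ hne' hst
    obtain ⟨F0, hAt, hmu⟩ := gstep_of_st (gfam1 h) h3 (i := ()) hP hne' hst
    exact ⟨F0, ⟨ha, hAt.2⟩, hmu⟩
  · -- one class
    intro a a' ha _ ha' _
    have e1 := (hkey a).1 ha
    have e2 := (hkey a').1 ha'
    exact (path_symm (mem_cls.1 e1).2).trans (mem_cls.1 e2).2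
  · intro x hx
    exact he₀ (hG.pf _ (hne x hx))
  · refine a6.comp ?_ ?_
    · exact continuousOn_const.add ((hec.sub continuousOn_const).const_smul r)
    · intro y hy
      exact hDL (hseg _ (hDc.frontier_subset (he₁ hy)))
  · intro y hy
    have hyD := hseg _ (hDc.frontier_subset (he₁ hy))
    refine ⟨a2 (hDL hyD), ?_⟩
    show Ng z D (f (fi (z + r • (e₁ y - z)))) = r
    rw [a4 _ (hDL hyD)]
    exact hpj _ (he₁ hy)
  · intro y hy
    have hyD := hseg _ (hDc.frontier_subset (he₁ hy))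
    show e₀ (pj z D (f (fi (z + r • (e₁ y - z))))) = y
    rw [a4 _ (hDL hyD), hG.ray _ (he₁ hy) r hr, h01 y hy]
  · intro x hx
    show fi (z + r • (e₁ (e₀ (pj z D (f x))) - z)) = x
    rw [h10 _ (hG.pf _ (hne x hx)), ← hG.eq (f x) r hr hx.2, a3 x hx.1]
  · intro q x hx y hy hxq hyq
    rw [dist_eq_norm]
    exact (hNear _ _ hx.2 (hfine q ⟨x, hxq, hSD x hx⟩ x hxq y hyq)).2
  · intro y hy
    obtain ⟨w, hw, hd⟩ := dense_s1 hf hDc hcv hDL hz hG hNear hfine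
      (fun w hw => (hPS w (mem_gPts.1 hw).1).2) hl hx₀ hfx hv₀ hd₀ h0 (he₁ hy)
    refine ⟨w, (mem_gPts.1 hw).1, Subsingleton.elim _ _, ?_⟩
    rw [h01 y hy] at hd
    rw [dist_eq_norm]
    exact hd
  · intro τ v hv p hp
    obtain ⟨q, hvq, hKq⟩ := hcell τ v hv
    have hvS : Dc.pt v ∈ S := hPS _ (Dc.mem v).1
    rw [dist_eq_norm]
    exact (hNear _ _ hvS.2 (hfine q ⟨_, hvq, hSD _ hvS⟩ _ hvq p (hKq hp))).2

end theta

section cmb

variable {h3 : Module.finrank ℝ R3 = 3} {s : GSt (meshC T h3) (fun _ : Unit => ())}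

/-- the points of a tile of helper117's `cmb` lie in the tile -/
theorem cmb_cell (h : LF s) (hon : ∀ w ∈ s.P, w ∈ Om ∧ T.dim w = 1) (Lam : Unit → R3 → ZMod 2)
    (hLam : ∀ j, ∀ e ∈ Om, T.dim e = 1 → ∀ a b, T.cc e = segment ℝ a b →
      Lam j a + Lam j b = (((gPts s j : Set R3) ∩ T.cc e).ncard : ZMod 2))
    (τ : Pce (cmb h hon Lam hLam) () 3) (v : Pce (cmb h hon Lam hLam) () 1) (hv : Sub _ v τ) :
    ∃ q, (cmb_dic h hon Lam hLam ()).pt v ∈ Msh_715.P (T.H q) ∧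
      (τ.1.1).set ⊆ Msh_715.P (T.H q) := by
  obtain ⟨q, hq⟩ := exists_tcell h3 τ.2.1
  obtain ⟨hlt, -⟩ := hv
  refine ⟨q, ?_, ?_⟩
  · have h1 : rep h (c := v.1.1) v.1.2 ∈ v.1.1.set := (mem_pts.1 (rep_mem h (c := v.1.1) v.1.2)).1.2.1
    have h2 := Tiling.Cell.le_def.1 hlt.le h1
    rw [hq, tcell_set] at h2
    exact h2
  · rw [hq, tcell_set]

end cmb

end Crest.Agent.R096.Spp_333
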