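import Crest.Agent.R096.Sphs5_4
import Crest.Agent.R096.Sps6_333
import Crest.Agent.R096.Sphf2_316
import Crest.Agent.R096.Sphm1_976

/-! # Row 96, SPHERE (helper4), part 6: **THE THEOREM** -/

set_option autoImplicit false

open Set Filter Topology Metric Module NNReal MeasureTheory

namespace Crest.Agent.R096.Sphs_4

open Crest.Agent.R096.Msh_715 Crest.Agent.R096.Agl4_543 Crest.Agent.R096.Agl5_543
  Crest.Agent.R096.Coh_184 Crest.Agent.R096.Main_4 Crest.Agent.R096.Ginv_543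
  Crest.Agent.R096.Lab_184 Crest.Agent.R096.Seq_213 Crest.Agent.R096.Cm_117
  Crest.Agent.R096.Bd_416 Crest.Agent.R096.Shp_334 Crest.Agent.R096.Ce_537
  Crest.Agent.R096.Spp_333 Crest.Agent.R096.Sphf_316 Crest.Agent.R096.Sphg_316
  Crest.AnalysisR.VecCalc3 Crest.AnalysisR.Sobolev

open scoped Classical

theorem gau {z : R3} {C : Set R3} (hC : Bod z C) : Gau z C where
  pf _ hy := hC.pj_mem hy
  ray _ hw _ hs := hC.pj_ray hw hs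
  one _ hw := hC.eq_one_iff.2 hw
  eq _ _ hr hy := hC.eq_ray hr hy

theorem exists_near {z : R3} {C : Set R3} (hC : Bod z C) {F : Type*} [NormedAddCommGroup F]
    {e₀ : R3 → F} (he₀ : ContinuousOn e₀ (frontier C)) {r₀ : ℝ} (hr₀ : 0 < r₀) {δ : ℝ}
    (hδ : 0 < δ) : ∃ ε₁ > 0, ∀ r, r₀ ≤ r → r ≤ 1 → Near z C e₀ r ε₁ δ := by
  obtain ⟨L, hL⟩ := hC.lipschitz
  have hfc : IsCompact (frontier C) := hC.cpt.of_isClosed_subset isClosed_frontier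
    hC.cpt.isClosed.frontier_subset
  obtain ⟨η, hη, hu⟩ := Metric.uniformContinuousOn_iff.1
    (hfc.uniformContinuousOn_of_continuous he₀) δ hδ
  obtain ⟨ε, hε, h1⟩ := hC.pj_unif hr₀ (half_pos hη)
  have hL0 : (0:ℝ) ≤ L := L.2
  refine ⟨min ε (r₀ / (2 * (L + 1))), by positivity, fun r hr hr1 a b ha hab => ?_⟩
  have hb : b ≠ z := by
    rintro rfl
    have h2 := hL.dist_le_mul a b
    rw [ha, Ng_self, Real.dist_eq, sub_zero, dist_eq_norm, abs_of_pos (lt_of_lt_of_le hr₀ hr)] at h2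
    have h3 : (L:ℝ) * ‖a - b‖ ≤ L * (r₀ / (2 * (L + 1))) :=
      mul_le_mul_of_nonneg_left (hab.trans (min_le_right _ _)) hL0
    have h4 : (L:ℝ) * (r₀ / (2 * (L + 1))) ≤ r₀ / 2 := by
      have : (L:ℝ) * (r₀ / (2 * (L + 1))) = r₀ / 2 * (L / (L + 1)) := by field_simp
      rw [this]
      refine mul_le_of_le_one_right (by positivity) ?_
      rw [div_le_one (by positivity)]; linarith
    linarith
  refine ⟨hb, ?_⟩
  have haz : a ≠ z := by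
    rintro rfl
    rw [Ng_self] at ha
    linarith
  have h5 := h1 a b (by rw [ha]; exact hr) (by rw [ha]; exact hr1) (hab.trans (min_le_left _ _))
  have h6 := hu _ (hC.pj_mem haz) _ (hC.pj_mem hb) (by rw [dist_eq_norm]; linarith)
  rw [dist_eq_norm] at h6
  exact h6.le

theorem FarLab.mono {f : R3 → R3} {Om : Set R3} {ι : Type} {T : Tiling Om ι} {D D' : Set R3}
    {Q : Finset R3} {lam : R3 → ZMod 2} (h : FarLab T f D Q lam) (hD : D ⊆ D') :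
    FarLab T f D' Q lam where
  lab := h.lab
  out v hv := h.out v fun h1 => hv ⟨h1.1, hD h1.2⟩
  far q hq v hv := h.far q (fun h4 => hq (h4.trans (preimage_mono (interior_mono hD)))) v hv

/-- **SPHERE** (with (B) = `BallLvl R3`, EXIST, NORM as hypotheses) -/
theorem sphere_of (hBL : BallLvl R3) (hE : Gp_702.ExistStmt) (hN : Gp_702.NormStmt)
    {p : ℝ} (hp : 1 ≤ p) {Om La : Set R3} {f : R3 → R3} {G : Fin 3 → R3 → R3}
    (hO : IsOpen Om) (hLa : IsOpen La) (hS : Sk_962.SH p Om La f G)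
    {C : Set R3} {z x₀ : R3} (hC : Bod z C) (hCL : C ⊆ La) (hx₀ : x₀ ∈ Om) (hz : f x₀ = z)
    {F : Type*} [NormedAddCommGroup F] [NormedSpace ℝ F] {K' Sg' : Set F}
    (hK' : IsBall 3 K' Sg') {e₀ : R3 → F} {e₁ : F → R3} (he₀ : ContinuousOn e₀ (frontier C))
    (he₀m : MapsTo e₀ (frontier C) Sg') (he₁ : ContinuousOn e₁ Sg')
    (he₁m : MapsTo e₁ Sg' (frontier C)) (h01 : ∀ y ∈ Sg', e₀ (e₁ y) = y)
    (h10 : ∀ y ∈ frontier C, e₁ (e₀ y) = y)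
    {ρ₁ ρ₂ ε : ℝ} (hρ₁ : 0 < ρ₁) (hρ : ρ₁ < ρ₂) (hρ₂ : ρ₂ ≤ 1) (hε : 0 < ε) :
    ∃ (K : Set R3) (θ : PLEquiv (frontier K) Sg') (φ : R3 → ℝ), IsBall 3 K (frontier K) ∧
      K ⊆ Om ∧ x₀ ∈ interior K ∧ (∀ x ∈ K, Ng z C (f x) < ρ₂) ∧
      (∀ x ∈ frontier K, ρ₁ < Ng z C (f x)) ∧
      (∀ x ∈ Om, Ng z C (f x) ≤ ρ₁ → x ∈ interior K) ∧
      (∀ x ∈ frontier K, ‖θ.f x - e₀ (pj z C (f x))‖ ≤ ε) ∧
      PLOn φ K ∧ (∀ x ∈ K, φ x ≤ 0) ∧ (∀ x ∈ K, (φ x = 0 ↔ x ∈ frontier K)) := by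
  have hf := hS.homeo
  obtain ⟨gi, Hm⟩ := Init_543.exists_hm hf
  obtain ⟨δ₀, hδ₀, hdel⟩ := exists_del R3 hK' hε
  obtain ⟨ε₁, hε₁, hnear⟩ := exists_near hC he₀ hρ₁ hδ₀
  obtain ⟨L, hL⟩ := hC.lipschitz
  have hL0 : (0:ℝ) ≤ L := L.2
  have hd : 0 < ρ₂ - ρ₁ := sub_pos.2 hρ
  set ε₂ : ℝ := min ε₁ ((ρ₂ - ρ₁) / (12 * (L + 1))) with hε₂
  have hε₂0 : 0 < ε₂ := by positivity
  have hLε : (L:ℝ) * ε₂ ≤ (ρ₂ - ρ₁) / 12 := by
    have h1 : (L:ℝ) * ε₂ ≤ L * ((ρ₂ - ρ₁) / (12 * (L + 1))) :=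
      mul_le_mul_of_nonneg_left (min_le_right _ _) hL0
    have h2 : (L:ℝ) * ((ρ₂ - ρ₁) / (12 * (L + 1))) = (ρ₂ - ρ₁) / 12 * (L / (L + 1)) := by
      field_simp
    have h3 : (ρ₂ - ρ₁) / 12 * ((L:ℝ) / (L + 1)) ≤ (ρ₂ - ρ₁) / 12 := by
      refine mul_le_of_le_one_right (by positivity) ?_
      rw [div_le_one (by positivity)]; linarith
    linarith
  obtain ⟨ι, T, hfine, hfin⟩ := Sphm_976.exists_mesh1 hp hO hS
    (K := {x | x ∈ Om ∧ Ng z C (f x) ≤ 1}) (hC.isCompact_levle Hm hCL le_rfl)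
    (fun x hx => hx.1) hε₂0
  have hM1 : FMesh T f {x | x ∈ Om ∧ Ng z C (f x) ≤ 1} ε₂ := ⟨hfine, hfin⟩
  have hM : FMesh T f {x | x ∈ Om ∧ Ng z C (f x) ≤ ρ₂} ε₂ :=
    ⟨fun q hq => hfine q (hq.mono (inter_subset_inter_right _ fun x hx => ⟨hx.1, hx.2.trans hρ₂⟩)),
      hfin⟩
  obtain ⟨t, ht, h, htriv, -, hsupp, b, hb, hb1, lam, hlam, hin⟩ := front hLa hf hC hCL hx₀ hz
    (r0 := (ρ₁ + ρ₂) / 2) (r1 := ρ₂) (by linarith) (by linarith) hρ₂ hL hε₂0.le (by linarith) hM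
    finrank_R3
  have ht0 : 0 < t := by have := ht.1; linarith
  have ht1 : t ≤ 1 := by have := ht.2; linarith
  have hsS : ∀ w ∈ (s1 h finrank_R3 b).P, w ∈ {x | x ∈ Om ∧ Ng z C (f x) = t} := fun w hw =>
    (s1_mem h finrank_R3 b hw).1
  have hLam : ∀ j : Unit, ∀ e ∈ Om, T.dim e = 1 → ∀ a b', T.cc e = segment ℝ a b' →
      (fun _ : Unit => lam) j a + (fun _ : Unit => lam) j b' =
        (((gPts (s1 h finrank_R3 b) j : Set R3) ∩ T.cc e).ncard : ZMod 2) :=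
    fun j e he hd a b' hab => lam_of_isLab hlam.lab he hd hab
  obtain ⟨g, P, c, H, hB⟩ := exists_state (s1_LF h finrank_R3 b)
    (fun w hw => s1_on h finrank_R3 b hw) (fun _ => lam) hLam
  -- the core tile
  obtain ⟨q₀, hq₀⟩ := T.cov x₀ hx₀
  obtain ⟨v₀, hv₀, hd₀⟩ := exists_vertex_tile hq₀
  have hux₀ : Ng z C (f x₀) = 0 := by rw [hz, Ng_self]
  have h0 : lam v₀ = 1 := hin v₀ (mem_VM hq₀ (show x₀ ∈ {x | x ∈ Om ∧ Ng z C (f x) < (ρ₁ + ρ₂) / 2}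
    from ⟨hx₀, by show Ng z C (f x₀) < _; rw [hux₀]; linarith⟩) hv₀ hd₀)
  have hqe : ∀ w ∈ (s1 h finrank_R3 b).P, w ∉ Msh_715.P (T.H q₀) := by
    intro w hw hwq
    have h1 := osc_u hL hM (q := q₀) ⟨x₀, hq₀, hx₀, by
      show Ng z C (f x₀) ≤ ρ₂; rw [hux₀]; linarith⟩ hq₀ hwq
    rw [hux₀, (hsS w hw).2] at h1
    have := ht.1
    linarith
  obtain ⟨K, k1, k2, k3, k4, k5, k6, k7, k8, k9, φ, k10, k11, k12⟩ := ball_of_state' hBL hO hf hE hN H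
    (hB ()) (s1_H1 h finrank_R3 b htriv) (s1_Conn h finrank_R3 b hb hb1)
    (D := {y | Ng z C y ≤ ρ₂}) (hC.isCompact_le ρ₂) ((hC.le_sub hρ₂).trans hCL) hlam
    (fun w hw q hq => hsupp w (hsS w hw) q hq) hqe hv₀ hd₀ h0
  have hint : interior {y | Ng z C y ≤ ρ₂} = {y | Ng z C y < ρ₂} := hC.interior_le (hρ₁.trans hρ)
  have hfr : ∀ x ∈ frontier K, ρ₁ < Ng z C (f x) := by
    intro x hx
    have hxO : x ∈ Om := k6 (k7.isClosed.frontier_subset hx)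
    obtain ⟨i, hi⟩ := T.cov x hxO
    obtain ⟨w, hw, hwi⟩ := k8 x hx i hi
    have h1 := osc_u hL hM (q := i) (x := x) (y := w) ⟨w, hwi, (hsS w hw).1, by
      show Ng z C (f w) ≤ ρ₂
      rw [(hsS w hw).2]; exact ht.2.le⟩ hi hwi
    rw [(hsS w hw).2] at h1
    have := ht.1
    linarith
  -- θ
  have hθ := theta_s1 (h3 := finrank_R3) H T.cplx (hB ()) (mfd_cell finrank_R3)
    (top3_cell finrank_R3) hf hC.cpt.isClosed hC.cvx hCL (interior_subset hC.int) (gau hC)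
    (Sg := Sg') (e₀ := e₀) (e₁ := e₁) he₀m he₁m he₁ h01 h10 (r := t) (ε₁ := ε₁) (ε := ε)
    (δ := δ₀) ht0 ht1
    (hnear t (by have := ht.1; linarith) ht1)
    (by
      rintro q ⟨x, hx, hxC⟩ y hy y' hy'
      have h1 := (hM1.fine q ⟨x, hx, T.sub q hx, hC.le_one_iff.2 hxC⟩ y hy y' hy').2
      exact h1.trans (min_le_left _ _))
    hdel (Kb := K) (by rw [← k3]; exact k2) h htriv hb.1 hb.2 hb1
    (FarLab.mono hlam (hC.le_sub hρ₂)) hq₀ hz hv₀ hd₀ h0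
    ((cmb_dic _ _ _ hLam ()).sh1 (s1_H1 h finrank_R3 b htriv))
    ((cmb_dic _ _ _ hLam ()).sconn (s1_Conn h finrank_R3 b hb hb1))
    (cmb_dic _ _ _ hLam ()) (cmb_cell _ _ _ hLam)
  rw [← k3] at hθ
  obtain ⟨θ, hθ⟩ := hθ
  refine ⟨K, θ, φ, k2, k6, k4 hq₀, fun x hx => ?_, hfr, fun x hx hxr => ?_, fun x hx => ?_, k10,
    k11, k12⟩
  · have := k5 x hx
    rw [hint] at this
    exact this
  · refine k9 {x | x ∈ Om ∧ Ng z C (f x) ≤ ρ₁} (hC.preconn_levle Hm hCL (by linarith))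
      (fun y hy hyf => ?_) ⟨x₀, ⟨hx₀, by show Ng z C (f x₀) ≤ ρ₁; rw [hux₀]; exact hρ₁.le⟩, hq₀⟩
      ⟨hx, hxr⟩
    have := hfr y hyf
    exact absurd hy.2 (not_le.2 this)
  · rw [← dist_eq_norm]
    exact hθ x hx

end Crest.Agent.R096.Sphs_4
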