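import Crest.Agent.R096.Sphs6_4

/-! # Row 96, SPHERE (helper4), part 7: all levels of the sheet of the main class: `{t ≤ G}` is a
ball for every `0 < t < 1`, and the transport of the band is a PL equivalence of the levels. -/

set_option autoImplicit false

open Set Filter Topology Metric Module NNReal MeasureTheory

namespace Crest.Agent.R096.Sphs_4

open Crest.Agent.R096.Msh_715 Crest.Agent.R096.Agl4_543 Crest.Agent.R096.Agl5_543
  Crest.Agent.R096.Coh_184 Crest.Agent.R096.Main_4 Crest.Agent.R096.Ginv_543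
  Crest.Agent.R096.Lab_184 Crest.Agent.R096.Seq_213 Crest.Agent.R096.Cm_117
  Crest.Agent.R096.Bd_416 Crest.Agent.R096.Shp_334 Crest.Agent.R096.Ce_537
  Crest.Agent.R096.Spp_333 Crest.Agent.R096.Sphf_316 Crest.Agent.R096.Sphg_316
  Crest.AnalysisR.VecCalc3 Crest.AnalysisR.Sobolev

open scoped Classical

section transport

variable {Q : Type} [PartialOrder Q] {dim : Q → ℕ} {J Fam : Type}
variable {E : Type} [NormedAddCommGroup E] [NormedSpace ℝ E]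
variable {C : Cmb Q dim J Fam} {K : Q → Set E} {g : Gd E J} {P : ∀ q, C.I q → Set E}
  {c : ∀ q, C.I q → E → ℝ}

/-- transport to the level `t` -/
noncomputable def trl (g : Gd E J) (j : J) (t : ℝ) (z : E) : E := g.tr j (z, t - 1/2)

variable (H : Inv C K univ g P c) {j : J} {q : Q} {z : E} {t t' t'' : ℝ}
include H

theorem mem_B_lev (hz : z ∈ K q) (ht : t ∈ Ioo (0:ℝ) 1) (hG : g.G j z = t) : z ∈ g.B j := by
  refine (H.is q (mem_univ q)).nB j z hz fun hi => ?_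
  obtain ⟨n, hn⟩ := mem_Zs.1 hi
  rw [hG] at hn
  have h1 : (0:ℝ) < n := by rw [← hn]; exact ht.1
  have h2 : (n:ℝ) < 1 := by rw [← hn]; exact ht.2
  have h3 : (0:ℤ) < n := by exact_mod_cast h1
  have h4 : n < 1 := by exact_mod_cast h2
  omega

omit H in
theorem sub_mem_I2 (ht : t ∈ Icc (0:ℝ) 1) : t - 1/2 ∈ I2 := by
  constructor
  · have := ht.1; linarith
  · have := ht.2; linarith

theorem trl_mem (hz : z ∈ K q) (hB : z ∈ g.B j) (ht : t ∈ Icc (0:ℝ) 1) : trl g j t z ∈ K q :=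
  (H.is q (mem_univ q)).tZ j z hz hB _ (sub_mem_I2 ht)

theorem trl_B (hz : z ∈ K q) (hB : z ∈ g.B j) (ht : t ∈ Icc (0:ℝ) 1) : trl g j t z ∈ g.B j :=
  (H.is q (mem_univ q)).tB j z hz hB _ (sub_mem_I2 ht)

theorem trl_G (hz : z ∈ K q) (hB : z ∈ g.B j) (ht : t ∈ Icc (0:ℝ) 1) :
    g.G j (trl g j t z) = t := by
  have h1 := (H.is q (mem_univ q)).tG j z hz hB _ (sub_mem_I2 ht)
  rw [H.lev0 (mem_univ q) j hz hB] at h1
  show g.G j (g.tr j (z, t - 1/2)) = t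
  rw [h1]; ring

theorem trl_trl (hz : z ∈ K q) (hB : z ∈ g.B j) (ht : t ∈ Icc (0:ℝ) 1) (ht' : t' ∈ Icc (0:ℝ) 1) :
    trl g j t' (trl g j t z) = trl g j t' z :=
  (H.is q (mem_univ q)).tt j z hz hB _ (sub_mem_I2 ht) _ (sub_mem_I2 ht')

theorem trl_self (hz : z ∈ K q) (hB : z ∈ g.B j) (hG : g.G j z = t) : trl g j t z = z := by
  have h1 := (H.is q (mem_univ q)).ts j z hz hB
  rw [H.lev0 (mem_univ q) j hz hB, hG, sub_zero] at h1
  exact h1

theorem plOn_trl (ht : t ∈ Icc (0:ℝ) 1) [FiniteDimensional ℝ E] :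
    PLOn (trl g j t) (K q ∩ g.B j) := by
  have h1 := (H.is q (mem_univ q)).pt j
  have h2 : PLOn (fun z : E => (z, t - 1/2)) (K q ∩ g.B j) := by
    have := plOn_affine ((AffineMap.id ℝ E).prod (AffineMap.const ℝ E (t - 1/2))) (K q ∩ g.B j)
    exact this
  exact h1.comp h2 fun z hz => ⟨hz, sub_mem_I2 ht⟩

/-- **the levels of a band are PL equivalent** -/
theorem exists_levEquiv [FiniteDimensional ℝ E] {Om : Set E} (hcov : ∀ z ∈ Om, ∃ q, z ∈ K q)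
    (hsub : ∀ q, K q ⊆ Om)
    (ht : t ∈ Ioo (0:ℝ) 1) (ht' : t' ∈ Ioo (0:ℝ) 1) {s : Set Q} (hs : s.Finite)
    (hsc : ∀ z ∈ Om, g.G j z ∈ Ioo (0:ℝ) 1 → ∃ q ∈ s, z ∈ K q) :
    ∃ e : PLEquiv {z | z ∈ Om ∧ g.G j z = t} {z | z ∈ Om ∧ g.G j z = t'},
      (∀ z ∈ Om, g.G j z = t → ∀ q, z ∈ K q → e.f z ∈ K q) ∧
      (∀ z ∈ Om, g.G j z = t' → ∀ q, z ∈ K q → e.g z ∈ K q) ∧
      ∀ z, e.f z = trl g j t' z := by
  have key : ∀ {a b : ℝ}, a ∈ Ioo (0:ℝ) 1 → b ∈ Ioo (0:ℝ) 1 →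
      PLOn (trl g j b) {z | z ∈ Om ∧ g.G j z = a} := by
    intro a b ha hb
    refine (plOn_biUnion (K := fun q => K q ∩ g.B j) s hs
      (fun q _ => plOn_trl H (Ioo_subset_Icc_self hb))
      (fun q _ => (H.is q (mem_univ q)).cB j)).mono ?_
    rintro z ⟨hz, hG⟩
    obtain ⟨q, hq, hzq⟩ := hsc z hz (by rw [hG]; exact ha)
    exact mem_biUnion hq ⟨hzq, mem_B_lev H hzq ha hG⟩
  have hm : ∀ {a b : ℝ}, a ∈ Ioo (0:ℝ) 1 → b ∈ Ioo (0:ℝ) 1 → ∀ z ∈ Om, g.G j z = a →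
      ∀ q, z ∈ K q → trl g j b z ∈ K q := fun ha hb z _ hG q hq =>
    trl_mem H hq (mem_B_lev H hq ha hG) (Ioo_subset_Icc_self hb)
  have hmaps : ∀ {a b : ℝ}, a ∈ Ioo (0:ℝ) 1 → b ∈ Ioo (0:ℝ) 1 →
      MapsTo (trl g j b) {z | z ∈ Om ∧ g.G j z = a} {z | z ∈ Om ∧ g.G j z = b} := by
    rintro a b ha hb z ⟨hz, hG⟩
    obtain ⟨q, hq⟩ := hcov z hz
    exact ⟨hsub q (hm ha hb z hz hG q hq),
      trl_G H hq (mem_B_lev H hq ha hG) (Ioo_subset_Icc_self hb)⟩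
  have hinv : ∀ {a b : ℝ}, a ∈ Ioo (0:ℝ) 1 → b ∈ Ioo (0:ℝ) 1 →
      ∀ z ∈ {z | z ∈ Om ∧ g.G j z = a}, trl g j a (trl g j b z) = z := by
    rintro a b ha hb z ⟨hz, hG⟩
    obtain ⟨q, hq⟩ := hcov z hz
    have hB := mem_B_lev H hq ha hG
    rw [trl_trl H hq hB (Ioo_subset_Icc_self hb) (Ioo_subset_Icc_self ha), trl_self H hq hB hG]
  exact ⟨⟨trl g j t', trl g j t, key ht ht', key ht' ht, hmaps ht ht', hmaps ht' ht,
    hinv ht ht', hinv ht' ht⟩, hm ht ht', hm ht' ht, fun _ => rfl⟩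

/-- the transport is PL on the open band -/
theorem plOn_trl_mid [FiniteDimensional ℝ E] {Om : Set E} (ht : t ∈ Icc (0:ℝ) 1) {s : Set Q}
    (hs : s.Finite) (hsc : ∀ z ∈ Om, g.G j z ∈ Ioo (0:ℝ) 1 → ∃ q ∈ s, z ∈ K q) :
    PLOn (trl g j t) {z | z ∈ Om ∧ g.G j z ∈ Ioo (0:ℝ) 1} := by
  refine (plOn_biUnion (K := fun q => K q ∩ g.B j) s hs
    (fun q _ => plOn_trl H ht) (fun q _ => (H.is q (mem_univ q)).cB j)).mono ?_
  rintro z ⟨hz, hG⟩
  obtain ⟨q, hq, hzq⟩ := hsc z hz hG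
  exact mem_biUnion hq ⟨hzq, mem_B_lev H hzq hG rfl⟩

end transport

section cells

variable {E : Type} [NormedAddCommGroup E] [NormedSpace ℝ E] [FiniteDimensional ℝ E]
variable {Om : Set E} {ι : Type} {T : Tiling Om ι} {h3 : finrank ℝ E = 3}
variable {s : GSt (meshC T h3) (fun _ : Unit => ())}
variable {h : LF s} {hon : ∀ w ∈ s.P, w ∈ Om ∧ T.dim w = 1} {Lam : Unit → E → ZMod 2}
  {hLam : ∀ j, ∀ e ∈ Om, T.dim e = 1 → ∀ a b, T.cc e = segment ℝ a b →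
      Lam j a + Lam j b = (((gPts s j : Set E) ∩ T.cc e).ncard : ZMod 2)}
variable {g : Gd E Unit} {P : ∀ q, (cmb h hon Lam hLam).I q → Set E}
  {c : ∀ q, (cmb h hon Lam hLam).I q → E → ℝ}

/-- a tile with a point of `{0 < G < 1}` contains a point of the pattern -/
theorem pt_of_mid (H : Inv (cmb h hon Lam hLam) (fun c : T.Cell => c.set) univ g P c) {q : ι}
    {z : E} (hz : z ∈ Msh_715.P (T.H q)) (hG : g.G () z ∈ Ioo (0:ℝ) 1) :
    ∃ w ∈ s.P, w ∈ Msh_715.P (T.H q) := by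
  by_contra hcon
  push Not at hcon
  have h1 := G_of_empty H (q := q) (fun w hw => hcon w hw) hz
  have h2 := sg_sq (Lam () (bv (tcell T q)))
  rw [h1] at hG
  have h3' := hG.1
  have h4 := hG.2
  have h5 : sg (Lam () (bv (tcell T q))) < 1 := by linarith
  have h6 : -1 < sg (Lam () (bv (tcell T q))) := by linarith
  nlinarith

end cells

section ball

variable {f : R3 → R3} {Om La : Set R3} {ι : Type} {T : Tiling Om ι} {h3 : finrank ℝ R3 = 3}
variable {s : GSt (meshC T h3) (fun _ : Unit => ())}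
variable {h : LF s} {hon : ∀ w ∈ s.P, w ∈ Om ∧ T.dim w = 1} {lam : R3 → ZMod 2}
  {hLam : ∀ j : Unit, ∀ e ∈ Om, T.dim e = 1 → ∀ a b, T.cc e = segment ℝ a b →
      (fun _ : Unit => lam) j a + (fun _ : Unit => lam) j b =
        (((gPts s j : Set R3) ∩ T.cc e).ncard : ZMod 2)}
variable {g : Gd R3 Unit} {P : ∀ q, (cmb h hon (fun _ => lam) hLam).I q → Set R3}
  {c : ∀ q, (cmb h hon (fun _ => lam) hLam).I q → R3 → ℝ}

/-- **THE BALLS OF ALL LEVELS** -/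
theorem balls_of_state (hBL : BallLvl R3) (hOm : IsOpen Om) (hf : IsHomeomorphOn f Om La)
    (hE : Gp_702.ExistStmt) (hN : Gp_702.NormStmt)
    (H : Inv (cmb h hon (fun _ => lam) hLam) (fun c : T.Cell => c.set) univ g P c)
    (hB : Bls (cmb h hon (fun _ => lam) hLam) (fun c : T.Cell => c.set) c ())
    (h1 : s.H1 ()) (hc : s.Conn ()) {D : Set R3} (hD : IsCompact D) (hDL : D ⊆ La)
    (hl : FarLab T f D (gPts s ()) lam)
    (hsupp : ∀ w ∈ s.P, ∀ q, w ∈ Msh_715.P (T.H q) → Msh_715.P (T.H q) ⊆ f ⁻¹' interior D)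
    {q : ι} (hq : ∀ w ∈ s.P, w ∉ Msh_715.P (T.H q)) {v₀ : R3}
    (hv₀ : v₀ ∈ Msh_715.P (T.H q)) (hd₀ : T.dim v₀ = 0) (h0 : lam v₀ = 1) :
    ∀ t ∈ Ioo (0:ℝ) 1, ∃ K : Set R3, K = {z | z ∈ Om ∧ t ≤ g.G () z} ∧ IsBall 3 K (frontier K) ∧
      frontier K = {z | z ∈ Om ∧ g.G () z = t} ∧ Msh_715.P (T.H q) ⊆ interior K ∧
      (∀ z ∈ K, f z ∈ interior D) ∧ K ⊆ Om ∧ IsCompact K ∧
      (∀ z ∈ frontier K, ∀ i, z ∈ Msh_715.P (T.H i) → ∃ w ∈ s.P, w ∈ Msh_715.P (T.H i)) ∧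
      (∀ A : Set R3, IsPreconnected A → (∀ x ∈ A, x ∉ frontier K) →
        (A ∩ Msh_715.P (T.H q)).Nonempty → A ⊆ interior K) ∧
      ∃ e : PLEquiv {z | z ∈ Om ∧ g.G () z = t} {z | z ∈ Om ∧ g.G () z = 1/2},
        (∀ z ∈ Om, g.G () z = t → ∀ i, z ∈ Msh_715.P (T.H i) → e.f z ∈ Msh_715.P (T.H i)) ∧
        ∀ z, e.f z = trl g () (1/2) z := by
  intro t ht
  have X := T.cplx
  have Dc : Dic (cmb h hon (fun _ => lam) hLam) s () := cmb_dic h hon (fun _ => lam) hLam ()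
  have hfar : ∀ z ∈ Om, ∀ i, z ∈ Msh_715.P (T.H i) → g.G () z ≠ 0 →
      Msh_715.P (T.H i) ⊆ f ⁻¹' interior D := by
    intro z _ i hzi hG
    by_contra hcon
    exact hG (G_far H hl hsupp hcon hzi)
  have f1 : Finite (Pce (cmb h hon (fun _ => lam) hLam) () 1) := Dc.finite1
  have f3 : Finite (Pce (cmb h hon (fun _ => lam) hLam) () 3) := finite3 H X hB
  have hS := sheet_sphere hE hN h3 hOm H X hB (Spp_333.top3_cell h3) (Dc.sh1 h1) (Dc.sconn hc)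
  obtain ⟨fi, a1, a2, a3, a4, a5, a6⟩ := hf
  have hBc : IsCompact (fi '' D) := hD.image_of_continuousOn (a6.mono hDL)
  have hBO : fi '' D ⊆ Om := by
    rintro _ ⟨y, hy, rfl⟩; exact a2 (hDL hy)
  have hG1 : ∀ z ∈ Msh_715.P (T.H q), g.G () z = 1 := fun z hz =>
    G_core H hl.lab hq hv₀ hd₀ h0 hz
  have hoff : ∀ z ∈ Om, z ∉ fi '' D → g.G () z = 0 := by
    intro z hz hzB
    by_contra hG
    obtain ⟨i, hi⟩ := T.cov z hz
    have h4 := hfar z hz i hi hG hi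
    exact hzB ⟨f z, interior_subset h4, a3 z hz⟩
  -- the transport
  have hfin := T.finite_tiles hBc hBO
  have hlv := exists_levEquiv H (j := ()) (Om := Om) (t := t) (t' := 1/2)
    (fun z hz => by
      obtain ⟨i, hi⟩ := T.cov z hz
      exact ⟨tcell T i, by rw [tcell_set]; exact hi⟩)
    (fun q => X.sub q) ht ⟨by norm_num, by norm_num⟩ (s := tcell T '' {i | (Msh_715.P (T.H i) ∩
      fi '' D).Nonempty}) (hfin.image _) (fun z hz hG => by
      obtain ⟨i, hi⟩ := T.cov z hz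
      refine ⟨tcell T i, ⟨i, ⟨z, hi, ?_⟩, rfl⟩, by rw [tcell_set]; exact hi⟩
      by_contra hcon
      exact hG.1.ne' (hoff z hz hcon))
  obtain ⟨e, he1, he2, he3⟩ := hlv
  have ht0 := ht.1
  have hset : ∀ z : R3, g.G () z / (2 * t) = 1/2 ↔ g.G () z = t := fun z => by
    rw [div_eq_iff (by positivity)]
    constructor <;> intro h5 <;> linarith
  have hsetle : ∀ z : R3, 1/2 ≤ g.G () z / (2 * t) ↔ t ≤ g.G () z := fun z => by
    rw [le_div_iff₀ (by positivity)]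
    constructor <;> intro h5 <;> linarith
  have hsetlt : ∀ z : R3, 1/2 < g.G () z / (2 * t) ↔ t < g.G () z := fun z => by
    rw [lt_div_iff₀ (by positivity)]
    constructor <;> intro h5 <;> linarith
  obtain ⟨b1, b2, b3⟩ := hBL hOm (G := fun z => g.G () z / (2 * t))
    ((continuousOn_G H).div_const _) hBc hBO (by
      intro z hz hzB
      show g.G () z / (2 * t) = 0
      rw [hoff z hz hzB, zero_div]) (by
      simp only [hset]
      exact hS.map fun e' => e'.trans e.symm)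
    ⟨v₀, T.sub q hv₀, by
      rw [hsetlt, hG1 v₀ hv₀]; exact ht.2⟩
  simp only [hset, hsetle, hsetlt] at b1 b2 b3
  set K : Set R3 := {z | z ∈ Om ∧ t ≤ g.G () z} with hK
  have hKball : IsBall 3 K (frontier K) := by rw [b2]; exact b1
  have hKc : IsCompact K := hKball.isCompact
  have hqK : Msh_715.P (T.H q) ⊆ interior K := by
    rw [b3]
    intro z hz
    exact ⟨T.sub q hz, by rw [hG1 z hz]; exact ht.2⟩
  refine ⟨K, rfl, hKball, b2, hqK, ?_, fun z hz => hz.1, hKc, ?_, ?_, e, ?_, he3⟩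
  · intro z hz
    obtain ⟨i, hi⟩ := T.cov z hz.1
    refine hfar z hz.1 i hi ?_ hi
    intro h4
    have := hz.2
    rw [h4] at this
    linarith
  · intro z hz i hi
    rw [b2] at hz
    exact pt_of_mid H hi (by rw [hz.2]; exact ht)
  · intro A hA hd hne
    obtain ⟨x, hxA, hxq⟩ := hne
    exact sub_interior hA hKc.isClosed hd hxA (hqK hxq)
  · intro z hz hG i hi
    have := he1 z hz hG (tcell T i) (by rw [tcell_set]; exact hi)
    rwa [tcell_set] at this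

end ball

end Crest.Agent.R096.Sphs_4
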