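import Crest.Agent.R096.Sphs7_4

/-! # Row 96, SPHERE (helper4), part 8: **THE THEOREM WITH ALL LEVELS** (`t₀` may be chosen generic
with respect to the mesh on which `φ` is affine). -/

set_option autoImplicit false

open Set Filter Topology Metric Module NNReal MeasureTheory

namespace Crest.Agent.R096.Sphs_4

open Crest.Agent.R096.Msh_715 Crest.Agent.R096.Agl4_543 Crest.Agent.R096.Agl5_543
  Crest.Agent.R096.Coh_184 Crest.Agent.R096.Main_4 Crest.Agent.R096.Ginv_543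
  Crest.Agent.R096.Lab_184 Crest.Agent.R096.Seq_213 Crest.Agent.R096.Cm_117
  Crest.Agent.R096.Bd_416 Crest.Agent.R096.Shp_334 Crest.Agent.R096.Ce_537
  Crest.Agent.R096.Spp_333 Crest.Agent.R096.Sphf_316 Crest.Agent.R096.Sphg_316
  Crest.AnalysisR.VecCalc3 Crest.AnalysisR.Sobolev

open scoped Classical

/-- the data of one level -/
structure SphLev (Om : Set R3) (f : R3 → R3) (C : Set R3) (z x₀ : R3) (ρ₁ ρ₂ ε : ℝ)
    {F : Type*} [NormedAddCommGroup F] [NormedSpace ℝ F] (Sg' : Set F) (e₀ : R3 → F)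
    (K : Set R3) (θ : PLEquiv (frontier K) Sg') : Prop where
  ball : IsBall 3 K (frontier K)
  sub : K ⊆ Om
  mem : x₀ ∈ interior K
  lt : ∀ x ∈ K, Ng z C (f x) < ρ₂
  gt : ∀ x ∈ frontier K, ρ₁ < Ng z C (f x)
  inn : ∀ x ∈ Om, Ng z C (f x) ≤ ρ₁ → x ∈ interior K
  near : ∀ x ∈ frontier K, ‖θ.f x - e₀ (pj z C (f x))‖ ≤ ε

theorem del_mono {Em : Type*} [NormedAddCommGroup Em] [NormedSpace ℝ Em] {F : Type*}
    [NormedAddCommGroup F] [NormedSpace ℝ F] {Sg' : Set F} {ε δ δ' : ℝ} (h : Del Em Sg' ε δ)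
    (hd : δ' ≤ δ) : Del Em Sg' ε δ' := by
  intro V E T _ _ _ S hS K Sg A hK gv hc g hg
  exact h S hS A hK gv (hc.mono hd) g fun f e he v hv p hp => (hg f e he v hv p hp).trans hd

/-- **SPHERE, ALL LEVELS** (with (B) = `BallLvl R3`, EXIST, NORM as hypotheses): a function `φ`, PL
on the compact set `{Ng ∘ f ≤ ρ₂}`, all of whose levels `-1/2 < t < 1/2` bound a ball with a PL
equivalence `θ` near `e₀ ∘ pj ∘ f` -/
theorem sphere_levels_of (hBL : BallLvl R3) (hE : Gp_702.ExistStmt) (hN : Gp_702.NormStmt)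
    {p : ℝ} (hp : 1 ≤ p) {Om La : Set R3} {f : R3 → R3} {G : Fin 3 → R3 → R3}
    (hO : IsOpen Om) (hLa : IsOpen La) (hS : Sk_962.SH p Om La f G)
    {C : Set R3} {z x₀ : R3} (hC : Bod z C) (hCL : C ⊆ La) (hx₀ : x₀ ∈ Om) (hz : f x₀ = z)
    {F : Type*} [NormedAddCommGroup F] [NormedSpace ℝ F] {K' Sg' : Set F}
    (hK' : IsBall 3 K' Sg') {e₀ : R3 → F} {e₁ : F → R3} (he₀ : ContinuousOn e₀ (frontier C))
    (he₀m : MapsTo e₀ (frontier C) Sg') (he₁ : ContinuousOn e₁ Sg')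
    (he₁m : MapsTo e₁ Sg' (frontier C)) (h01 : ∀ y ∈ Sg', e₀ (e₁ y) = y)
    (h10 : ∀ y ∈ frontier C, e₁ (e₀ y) = y)
    {ρ₁ ρ₂ ε : ℝ} (hρ₁ : 0 < ρ₁) (hρ : ρ₁ < ρ₂) (hρ₂ : ρ₂ ≤ 1) (hε : 0 < ε) :
    ∃ φ : R3 → ℝ, IsCompact {x | x ∈ Om ∧ Ng z C (f x) ≤ ρ₂} ∧
      PLOn φ {x | x ∈ Om ∧ Ng z C (f x) ≤ ρ₂} ∧ ContinuousOn φ Om ∧
      ∀ t ∈ Ioo (-1/2 : ℝ) (1/2), frontier {x | x ∈ Om ∧ φ x ≤ t} = {x | x ∈ Om ∧ φ x = t} ∧
        ∃ θ : PLEquiv (frontier {x | x ∈ Om ∧ φ x ≤ t}) Sg',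
          SphLev Om f C z x₀ ρ₁ ρ₂ ε Sg' e₀ {x | x ∈ Om ∧ φ x ≤ t} θ := by
  have hf := hS.homeo
  obtain ⟨gi, Hm⟩ := Init_543.exists_hm hf
  obtain ⟨δ₁, hδ₁, hdel₁⟩ := exists_del R3 hK' (half_pos hε)
  set δ₀ : ℝ := min δ₁ (ε / 4) with hδ₀'
  have hδ₀ : 0 < δ₀ := by positivity
  have hdel : Del R3 Sg' (ε / 2) δ₀ := del_mono hdel₁ (min_le_left _ _)
  obtain ⟨ε₁, hε₁, hnear⟩ := exists_near hC he₀ hρ₁ hδ₀
  obtain ⟨L, hL⟩ := hC.lipschitz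
  have hL0 : (0:ℝ) ≤ L := L.2
  have hd : 0 < ρ₂ - ρ₁ := sub_pos.2 hρ
  set ε₂ : ℝ := min ε₁ ((ρ₂ - ρ₁) / (12 * (L + 1))) with hε₂
  have hε₂0 : 0 < ε₂ := by positivity
  have hLε : (L:ℝ) * ε₂ ≤ (ρ₂ - ρ₁) / 12 := by
    have h1 : (L:ℝ) * ε₂ ≤ L * ((ρ₂ - ρ₁) / (12 * (L + 1))) :=
      mul_le_mul_of_nonneg_left (min_le_right _ _) hL0
    have h2 : (L:ℝ) * ((ρ₂ - ρ₁) / (12 * (L + 1))) = (ρ₂ - ρ₁) / 12 * (L / (L + 1)) := by
      field_simp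
    have h3 : (ρ₂ - ρ₁) / 12 * ((L:ℝ) / (L + 1)) ≤ (ρ₂ - ρ₁) / 12 := by
      refine mul_le_of_le_one_right (by positivity) ?_
      rw [div_le_one (by positivity)]; linarith
    linarith
  obtain ⟨ι, T, hfine, hfin⟩ := Sphm_976.exists_mesh1 hp hO hS
    (K := {x | x ∈ Om ∧ Ng z C (f x) ≤ 1}) (hC.isCompact_levle Hm hCL le_rfl)
    (fun x hx => hx.1) hε₂0
  have hM1 : FMesh T f {x | x ∈ Om ∧ Ng z C (f x) ≤ 1} ε₂ := ⟨hfine, hfin⟩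
  have hM : FMesh T f {x | x ∈ Om ∧ Ng z C (f x) ≤ ρ₂} ε₂ :=
    ⟨fun q hq => hfine q (hq.mono (inter_subset_inter_right _ fun x hx => ⟨hx.1, hx.2.trans hρ₂⟩)),
      hfin⟩
  obtain ⟨t, ht, h, htriv, -, hsupp, b, hb, hb1, lam, hlam, hin⟩ := front hLa hf hC hCL hx₀ hz
    (r0 := (ρ₁ + ρ₂) / 2) (r1 := ρ₂) (by linarith) (by linarith) hρ₂ hL hε₂0.le (by linarith) hM
    finrank_R3
  have ht0 : 0 < t := by have := ht.1; linarith
  have ht1 : t ≤ 1 := by have := ht.2; linarith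
  have hsS : ∀ w ∈ (s1 h finrank_R3 b).P, w ∈ {x | x ∈ Om ∧ Ng z C (f x) = t} := fun w hw =>
    (s1_mem h finrank_R3 b hw).1
  have hLam : ∀ j : Unit, ∀ e ∈ Om, T.dim e = 1 → ∀ a b', T.cc e = segment ℝ a b' →
      (fun _ : Unit => lam) j a + (fun _ : Unit => lam) j b' =
        (((gPts (s1 h finrank_R3 b) j : Set R3) ∩ T.cc e).ncard : ZMod 2) :=
    fun j e he hd a b' hab => lam_of_isLab hlam.lab he hd hab
  obtain ⟨g, P, c, H, hB⟩ := exists_state (s1_LF h finrank_R3 b)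
    (fun w hw => s1_on h finrank_R3 b hw) (fun _ => lam) hLam
  -- the core tile
  obtain ⟨q₀, hq₀⟩ := T.cov x₀ hx₀
  obtain ⟨v₀, hv₀, hd₀⟩ := exists_vertex_tile hq₀
  have hux₀ : Ng z C (f x₀) = 0 := by rw [hz, Ng_self]
  have h0 : lam v₀ = 1 := hin v₀ (mem_VM hq₀ (show x₀ ∈ {x | x ∈ Om ∧ Ng z C (f x) < (ρ₁ + ρ₂) / 2}
    from ⟨hx₀, by show Ng z C (f x₀) < _; rw [hux₀]; linarith⟩) hv₀ hd₀)
  have hqe : ∀ w ∈ (s1 h finrank_R3 b).P, w ∉ Msh_715.P (T.H q₀) := by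
    intro w hw hwq
    have h1 := osc_u hL hM (q := q₀) ⟨x₀, hq₀, hx₀, by
      show Ng z C (f x₀) ≤ ρ₂; rw [hux₀]; linarith⟩ hq₀ hwq
    rw [hux₀, (hsS w hw).2] at h1
    have := ht.1
    linarith
  have hballs := balls_of_state hBL hO hf hE hN H
    (hB ()) (s1_H1 h finrank_R3 b htriv) (s1_Conn h finrank_R3 b hb hb1)
    (D := {y | Ng z C y ≤ ρ₂}) (hC.isCompact_le ρ₂) ((hC.le_sub hρ₂).trans hCL) hlam
    (fun w hw q hq => hsupp w (hsS w hw) q hq) hqe hv₀ hd₀ h0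
  have hint : interior {y | Ng z C y ≤ ρ₂} = {y | Ng z C y < ρ₂} := hC.interior_le (hρ₁.trans hρ)
  have hcK : IsCompact {x | x ∈ Om ∧ Ng z C (f x) ≤ ρ₂} := hC.isCompact_levle Hm hCL hρ₂
  -- θ at the middle level
  obtain ⟨K0, k1, k2, k3, -⟩ := hballs (1/2) ⟨by norm_num, by norm_num⟩
  obtain ⟨θ₀, hθ₀⟩ := theta_s1 (h3 := finrank_R3) H T.cplx (hB ()) (mfd_cell finrank_R3)
    (top3_cell finrank_R3) hf hC.cpt.isClosed hC.cvx hCL (interior_subset hC.int) (gau hC)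
    (Sg := Sg') (e₀ := e₀) (e₁ := e₁) he₀m he₁m he₁ h01 h10 (r := t) (ε₁ := ε₁) (ε := ε / 2)
    (δ := δ₀) ht0 ht1
    (hnear t (by have := ht.1; linarith) ht1)
    (by
      rintro q ⟨x, hx, hxC⟩ y hy y' hy'
      have h1 := (hM1.fine q ⟨x, hx, T.sub q hx, hC.le_one_iff.2 hxC⟩ y hy y' hy').2
      exact h1.trans (min_le_left _ _))
    hdel (Kb := K0) (by rw [← k3]; exact k2) h htriv hb.1 hb.2 hb1
    (FarLab.mono hlam (hC.le_sub hρ₂)) hq₀ hz hv₀ hd₀ h0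
    ((cmb_dic _ _ _ hLam ()).sh1 (s1_H1 h finrank_R3 b htriv))
    ((cmb_dic _ _ _ hLam ()).sconn (s1_Conn h finrank_R3 b hb hb1))
    (cmb_dic _ _ _ hLam ()) (cmb_cell _ _ _ hLam)
  have hφ : ∀ x r, (1/2 - g.G () x ≤ r ↔ 1/2 - r ≤ g.G () x) := fun x r => by
    constructor <;> intro h5 <;> linarith
  have hφe : ∀ x r, (1/2 - g.G () x = r ↔ g.G () x = 1/2 - r) := fun x r => by
    constructor <;> intro h5 <;> linarith
  refine ⟨fun x => 1/2 - g.G () x, hcK, ?_, continuousOn_const.sub (continuousOn_G H),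
    fun r hr => ?_⟩
  · have h5 := plOn_G H hcK (fun x hx => hx.1)
    have h6 : PLOn (fun t : ℝ => 1/2 - t) univ := by
      have := plOn_affine (AffineMap.const ℝ ℝ (1/2 : ℝ) - AffineMap.id ℝ ℝ) (univ : Set ℝ)
      exact this
    exact h6.comp h5 (fun _ _ => mem_univ _)
  obtain ⟨K, k1, k2, k3, k4, k5, k6, k7, k8, k9, e, he, -⟩ := hballs (1/2 - r)
    ⟨by have := hr.2; linarith, by have := hr.1; linarith⟩
  have hKs : {x | x ∈ Om ∧ 1/2 - g.G () x ≤ r} = K := by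
    rw [k1]
    ext x
    simp only [mem_ofPred_eq, hφ]
  have hKf : {x | x ∈ Om ∧ 1/2 - g.G () x = r} = frontier K := by
    rw [k3]
    ext x
    simp only [mem_ofPred_eq, hφe]
  show frontier {x | x ∈ Om ∧ 1/2 - g.G () x ≤ r} = {x | x ∈ Om ∧ 1/2 - g.G () x = r} ∧
        ∃ θ : PLEquiv (frontier {x | x ∈ Om ∧ 1/2 - g.G () x ≤ r}) Sg',
          SphLev Om f C z x₀ ρ₁ ρ₂ ε Sg' e₀ {x | x ∈ Om ∧ 1/2 - g.G () x ≤ r} θ
  rw [hKs, hKf]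
  refine ⟨rfl, ?_⟩
  have hfr : ∀ x ∈ frontier K, ρ₁ < Ng z C (f x) := by
    intro x hx
    have hxO : x ∈ Om := k6 (k7.isClosed.frontier_subset hx)
    obtain ⟨i, hi⟩ := T.cov x hxO
    obtain ⟨w, hw, hwi⟩ := k8 x hx i hi
    have h1 := osc_u hL hM (q := i) (x := x) (y := w) ⟨w, hwi, (hsS w hw).1, by
      show Ng z C (f w) ≤ ρ₂
      rw [(hsS w hw).2]; exact ht.2.le⟩ hi hwi
    rw [(hsS w hw).2] at h1
    have := ht.1
    linarith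
  -- the near clause
  have hnr : ∀ x ∈ Om, g.G () x = 1/2 - r → ‖θ₀.f (e.f x) - e₀ (pj z C (f x))‖ ≤ ε := by
    intro x hxO hxG
    obtain ⟨i, hi⟩ := T.cov x hxO
    have hxf : x ∈ frontier K := by rw [k3]; exact ⟨hxO, hxG⟩
    obtain ⟨w, hw, hwi⟩ := k8 x hxf i hi
    have hex := he x hxO hxG i hi
    have hem := e.mf (show x ∈ {z | z ∈ Om ∧ g.G () z = 1/2 - r} from ⟨hxO, hxG⟩)
    have h1 := hθ₀ _ hem
    rw [dist_eq_norm] at h1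
    have hN := hnear t (by have := ht.1; linarith) ht1
    have hwC : (Msh_715.P (T.H i) ∩ {x | x ∈ Om ∧ Ng z C (f x) ≤ 1}).Nonempty :=
      ⟨w, hwi, (hsS w hw).1, by
        show Ng z C (f w) ≤ 1
        rw [(hsS w hw).2]; exact ht1⟩
    have h2 := (hN (f w) (f x) (hsS w hw).2
      ((hM1.fine i hwC w hwi x hi).2.trans (min_le_left _ _))).2
    have h3 := (hN (f w) (f (e.f x)) (hsS w hw).2
      ((hM1.fine i hwC w hwi _ hex).2.trans (min_le_left _ _))).2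
    have h4 : δ₀ ≤ ε / 4 := min_le_right _ _
    have e1 : θ₀.f (e.f x) - e₀ (pj z C (f x)) =
        (θ₀.f (e.f x) - e₀ (pj z C (f (e.f x)))) +
        ((e₀ (pj z C (f w)) - e₀ (pj z C (f x))) -
          (e₀ (pj z C (f w)) - e₀ (pj z C (f (e.f x))))) := by abel
    rw [e1]
    calc _ ≤ ‖θ₀.f (e.f x) - e₀ (pj z C (f (e.f x)))‖ +
          ‖(e₀ (pj z C (f w)) - e₀ (pj z C (f x))) -
            (e₀ (pj z C (f w)) - e₀ (pj z C (f (e.f x))))‖ := norm_add_le _ _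
      _ ≤ ε / 2 + (δ₀ + δ₀) := add_le_add h1 ((norm_sub_le _ _).trans (add_le_add h2 h3))
      _ ≤ ε := by linarith
  have hθex : ∀ A : Set R3, A = {z | z ∈ Om ∧ g.G () z = 1/2 - r} →
      ∃ θ : PLEquiv A Sg', ∀ x, θ.f x = θ₀.f (e.f x) := by
    rintro A rfl
    exact ⟨e.trans θ₀, fun x => rfl⟩
  obtain ⟨θ, hθ⟩ := hθex (frontier K) k3
  refine ⟨θ, k2, k6, k4 hq₀, fun x hx => ?_, hfr, fun x hx hxr => ?_, fun x hx => ?_⟩
  · have := k5 x hx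
    rw [hint] at this
    exact this
  · refine k9 {x | x ∈ Om ∧ Ng z C (f x) ≤ ρ₁} (hC.preconn_levle Hm hCL (by linarith))
      (fun y hy hyf => ?_) ⟨x₀, ⟨hx₀, by show Ng z C (f x₀) ≤ ρ₁; rw [hux₀]; exact hρ₁.le⟩, hq₀⟩
      ⟨hx, hxr⟩
    have := hfr y hyf
    exact absurd hy.2 (not_le.2 this)
  · rw [hθ]
    rw [k3] at hx
    exact hnr x hx.1 hx.2

end Crest.Agent.R096.Sphs_4
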