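import Crest.Agent.R096.Lab4_184
import Crest.Agent.R096.Agl5_543

/-! Row 96, SPHM (helper662), part 1: counting on a circle with the end point, and the reversed
parametrisation of the boundary of a 2-cell, which gives `F.pos` exactly. -/

set_option autoImplicit false
set_option linter.unusedSectionVars false

open Set Topology Filter Metric

namespace Crest.Agent.R096.Spm_662

open Crest.Agent.R096.Msh_715 Crest.Agent.R096.Agl1_543 Crest.Agent.R096.Agl5_543
  Crest.Agent.R096.Pat5_543 Crest.Agent.R096.Lab_184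

section loop

variable {X : Type*} [TopologicalSpace X] [T2Space X] {γ : ℝ → X} {C : Set X}

open Classical in
/-- `cnt` as a sum in `ZMod 2` -/
theorem cnt_eq_sum (Q : Finset X) (p : X) : ((cnt γ Q p : ℕ) : ZMod 2) =
    ∑ v ∈ Q, (if lpos γ v < lpos γ p then (1 : ZMod 2) else 0) := by
  have e : cnt γ Q p = (Q.filter fun w => lpos γ w < lpos γ p).card := rfl
  rw [e, Finset.card_filter]
  push_cast
  rfl

open Classical in
/-- an arc seen on the circle, one of whose end points (`w`) may be counted -/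
theorem arc_point (h : Loop γ C) {a w : X} (haw : a ≠ w) {J : Set X} (hJ : IsPreconnected J)
    (ha : a ∈ J) (hw : w ∈ J) (hJC : J ⊆ C) (hJ' : IsPreconnected (J \ {a, w})) :
    ∃ ε δ : ZMod 2, ∀ v ∈ C, v ≠ a →
      (if lpos γ v < lpos γ a then (1 : ZMod 2) else 0) + (if lpos γ v < lpos γ w then 1 else 0) =
        (if v ∈ J then 1 else 0) + (if v = w then ε else 0) + δ := by
  obtain ⟨⟨ha0, ha2⟩, hga⟩ := h.lpos_mem (hJC ha)
  obtain ⟨⟨hw0, hw2⟩, hgw⟩ := h.lpos_mem (hJC hw)
  have hinj : ∀ {u v : X}, u ∈ C → v ∈ C → lpos γ u = lpos γ v → u = v := by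
    intro u v hu hv huv
    rw [← (h.lpos_mem hu).2, ← (h.lpos_mem hv).2, huv]
  have hne : lpos γ a ≠ lpos γ w := fun h1 => haw (hinj (hJC ha) (hJC hw) h1)
  have hvw : ∀ v ∈ C, (v = w ↔ lpos γ v = lpos γ w) := fun v hv =>
    ⟨fun h1 => by rw [h1], fun h1 => hinj hv (hJC hw) h1⟩
  have hva : ∀ v ∈ C, v ≠ a → lpos γ v ≠ lpos γ a := fun v hv h1 h2 => h1 (hinj hv (hJC ha) h2)
  have two : (1 : ZMod 2) + 1 = 0 := by decide
  rcases lt_or_gt_of_ne hne with hlt | hlt
  · rcases h.arc ha0 hlt hw2 hJ (by rw [hga]; exact ha) (by rw [hgw]; exact hw) hJC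
      (by rw [hga, hgw]; exact hJ') with hJe | hJe
    · refine ⟨1, 0, fun v hv hva' => ?_⟩
      have h1 := hva v hv hva'
      have h2 := hvw v hv
      have h3 : v ∈ J ↔ lpos γ a ≤ lpos γ v ∧ lpos γ v ≤ lpos γ w := by
        rw [hJe]; exact h.mem_arc1 ha0 hw2 hv
      rw [if_congr h3 rfl rfl, if_congr h2 rfl rfl]
      rcases lt_or_gt_of_ne h1 with h4 | h4
      · rw [if_pos h4, if_pos (h4.trans hlt), if_neg (fun h5 => absurd h4 (not_lt.2 h5.1)),
          if_neg (fun h5 => by rw [h5] at h4; exact absurd h4 (not_lt.2 hlt.le))]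
        decide
      · rcases lt_trichotomy (lpos γ v) (lpos γ w) with h5 | h5 | h5
        · rw [if_neg (not_lt.2 h4.le), if_pos h5, if_pos ⟨h4.le, h5.le⟩, if_neg h5.ne]
          decide
        · rw [if_neg (not_lt.2 h4.le), if_neg (not_lt.2 h5.ge), if_pos ⟨h4.le, h5.le⟩, if_pos h5]
          decide
        · rw [if_neg (not_lt.2 h4.le), if_neg (not_lt.2 h5.le),
            if_neg (fun h6 => absurd h5 (not_lt.2 h6.2)), if_neg h5.ne']
          decide
    · refine ⟨0, 1, fun v hv hva' => ?_⟩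
      have h1 := hva v hv hva'
      have h3 : v ∈ J ↔ lpos γ v ≤ lpos γ a ∨ lpos γ w ≤ lpos γ v := by
        rw [hJe]; exact h.mem_arc2 ha0 hlt hw2 hv
      rw [if_congr h3 rfl rfl]
      simp only [ite_self, add_zero]
      rcases lt_or_gt_of_ne h1 with h4 | h4
      · rw [if_pos h4, if_pos (h4.trans hlt), if_pos (Or.inl h4.le)]
      · rcases lt_or_ge (lpos γ v) (lpos γ w) with h5 | h5
        · rw [if_neg (not_lt.2 h4.le), if_pos h5, if_neg]
          rintro (h6 | h6)
          · exact absurd h4 (not_lt.2 h6)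
          · exact absurd h5 (not_lt.2 h6)
        · rw [if_neg (not_lt.2 h4.le), if_neg (not_lt.2 h5), if_pos (Or.inr h5)]
          decide
  · have hJ'' : IsPreconnected (J \ {w, a}) := by rw [pair_comm]; exact hJ'
    rcases h.arc hw0 hlt ha2 hJ (by rw [hgw]; exact hw) (by rw [hga]; exact ha) hJC
      (by rw [hgw, hga]; exact hJ'') with hJe | hJe
    · refine ⟨0, 0, fun v hv hva' => ?_⟩
      have h1 := hva v hv hva'
      have h3 : v ∈ J ↔ lpos γ w ≤ lpos γ v ∧ lpos γ v ≤ lpos γ a := by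
        rw [hJe]; exact h.mem_arc1 hw0 ha2 hv
      rw [if_congr h3 rfl rfl]
      simp only [ite_self, add_zero]
      rcases lt_or_gt_of_ne h1 with h4 | h4
      · rcases lt_or_ge (lpos γ v) (lpos γ w) with h5 | h5
        · rw [if_pos h4, if_pos h5, if_neg (fun h6 => absurd h5 (not_lt.2 h6.1))]
          decide
        · rw [if_pos h4, if_neg (not_lt.2 h5), if_pos ⟨h5, h4.le⟩]
          decide
      · rw [if_neg (not_lt.2 h4.le), if_neg (not_lt.2 (hlt.trans h4).le),
          if_neg (fun h6 => absurd h4 (not_lt.2 h6.2))]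
        decide
    · refine ⟨1, 1, fun v hv hva' => ?_⟩
      have h1 := hva v hv hva'
      have h2 := hvw v hv
      have h3 : v ∈ J ↔ lpos γ v ≤ lpos γ w ∨ lpos γ a ≤ lpos γ v := by
        rw [hJe]; exact h.mem_arc2 hw0 hlt ha2 hv
      rw [if_congr h3 rfl rfl, if_congr h2 rfl rfl]
      rcases lt_or_gt_of_ne h1 with h4 | h4
      · rcases lt_trichotomy (lpos γ v) (lpos γ w) with h5 | h5 | h5
        · rw [if_pos h4, if_pos h5, if_pos (Or.inl h5.le), if_neg h5.ne]
          decide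
        · rw [if_pos h4, if_neg (not_lt.2 h5.ge), if_pos (Or.inl h5.le), if_pos h5]
          decide
        · rw [if_pos h4, if_neg (not_lt.2 h5.le), if_neg, if_neg h5.ne']
          · decide
          · rintro (h6 | h6)
            · exact absurd h5 (not_lt.2 h6)
            · exact absurd h4 (not_lt.2 h6)
      · rw [if_neg (not_lt.2 h4.le), if_neg (not_lt.2 (hlt.trans h4).le), if_pos (Or.inr h4.le),
          if_neg (hlt.trans h4).ne']
        decide

open Classical in
/-- **counting with the end point `w`** -/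
theorem arc_count_end (h : Loop γ C) {a w : X} (haw : a ≠ w) {J : Set X} (hJ : IsPreconnected J)
    (ha : a ∈ J) (hw : w ∈ J) (hJC : J ⊆ C) (hJ' : IsPreconnected (J \ {a, w})) :
    ∃ ε : ZMod 2, ∀ Q : Finset X, ↑Q ⊆ C → Even Q.card → a ∉ Q →
      ((cnt γ Q a : ℕ) : ZMod 2) + (cnt γ Q w : ℕ) =
        ((Q.filter (· ∈ J)).card : ZMod 2) + (if w ∈ Q then ε else 0) := by
  obtain ⟨ε, δ, hk⟩ := arc_point h haw hJ ha hw hJC hJ'
  refine ⟨ε, fun Q hQ he haQ => ?_⟩
  rw [cnt_eq_sum, cnt_eq_sum, ← Finset.sum_add_distrib,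
    Finset.sum_congr rfl fun v hv => hk v (hQ hv) (fun h1 => haQ (h1 ▸ hv)),
    Finset.sum_add_distrib, Finset.sum_add_distrib, Finset.sum_ite_eq', Finset.sum_const,
    Finset.card_filter]
  have h7 : ((Q.card : ℕ) : ZMod 2) = 0 := by
    rw [ZMod.natCast_eq_zero_iff]; exact he.two_dvd
  rw [nsmul_eq_mul, h7, zero_mul, add_zero]
  push_cast
  rfl

open Classical in
/-- the points above `w` -/
theorem count_above (h : Loop γ C) {Q : Finset X} (hQ : ↑Q ⊆ C) (he : Even Q.card) {w : X}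
    (hw : w ∈ C) : ((Q.filter fun v => lpos γ w < lpos γ v).card : ZMod 2) =
      (cnt γ Q w : ℕ) + (if w ∈ Q then 1 else 0) := by
  have hinj : ∀ {u v : X}, u ∈ C → v ∈ C → lpos γ u = lpos γ v → u = v := by
    intro u v hu hv huv
    rw [← (h.lpos_mem hu).2, ← (h.lpos_mem hv).2, huv]
  have h7 : ((Q.card : ℕ) : ZMod 2) = 0 := by
    rw [ZMod.natCast_eq_zero_iff]; exact he.two_dvd
  have h8 : ∑ v ∈ Q, (1 : ZMod 2) = 0 := by
    rw [Finset.sum_const, nsmul_eq_mul, h7, zero_mul]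
  have h9 : ∑ v ∈ Q, ((if lpos γ w < lpos γ v then (1 : ZMod 2) else 0) +
      ((if lpos γ v < lpos γ w then (1 : ZMod 2) else 0) + (if v = w then 1 else 0))) = 0 := by
    refine Eq.trans (Finset.sum_congr rfl fun v hv => ?_) h8
    rcases lt_trichotomy (lpos γ v) (lpos γ w) with h5 | h5 | h5
    · rw [if_neg (not_lt.2 h5.le), if_pos h5, if_neg (fun h6 => by rw [h6] at h5; exact lt_irrefl _ h5)]
      decide
    · rw [if_neg (not_lt.2 h5.le), if_neg (not_lt.2 h5.ge), if_pos (hinj (hQ hv) hw h5)]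
      decide
    · rw [if_pos h5, if_neg (not_lt.2 h5.le), if_neg (fun h6 => by rw [h6] at h5; exact lt_irrefl _ h5)]
      decide
  rw [Finset.sum_add_distrib, Finset.sum_add_distrib, Finset.sum_ite_eq', ← cnt_eq_sum] at h9
  rw [Finset.card_filter]
  push_cast
  exact CharTwo.add_eq_zero.1 h9

end loop

section rev

theorem isDisc_rev {X : Type*} [TopologicalSpace X] {e : ℂ → X} {F C : Set X}
    (h : IsDisc e F C) : IsDisc (fun z => e (-(starRingEnd ℂ z))) F C := by
  have hn : ∀ z : ℂ, ‖-(starRingEnd ℂ z)‖ = ‖z‖ := fun z => by rw [norm_neg, RCLike.norm_conj]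
  have hc : ∀ z ∈ closedBall (0 : ℂ) 1, -(starRingEnd ℂ z) ∈ closedBall (0 : ℂ) 1 := by
    intro z hz
    rw [mem_closedBall_zero_iff] at hz ⊢
    rw [hn]; exact hz
  have hs : ∀ z ∈ sphere (0 : ℂ) 1, -(starRingEnd ℂ z) ∈ sphere (0 : ℂ) 1 := by
    intro z hz
    rw [mem_sphere_zero_iff_norm] at hz ⊢
    rw [hn]; exact hz
  have hinv : ∀ z : ℂ, -(starRingEnd ℂ (-(starRingEnd ℂ z))) = z := by
    intro z; rw [map_neg, Complex.conj_conj, neg_neg]
  refine ⟨?_, ?_, ?_, ?_⟩
  · refine h.cont.comp ?_ hc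
    exact (Complex.continuous_conj.neg).continuousOn
  · intro z hz z' hz' hzz
    have h1 := h.inj (hc z hz) (hc z' hz') hzz
    rw [← hinv z, ← hinv z', h1]
  · rw [← h.img]
    apply Subset.antisymm
    · rintro _ ⟨z, hz, rfl⟩; exact ⟨_, hc z hz, rfl⟩
    · rintro _ ⟨z, hz, rfl⟩
      exact ⟨_, hc z hz, by show e _ = e z; rw [hinv]⟩
  · rw [← h.bd]
    apply Subset.antisymm
    · rintro _ ⟨z, hz, rfl⟩; exact ⟨_, hs z hz, rfl⟩
    · rintro _ ⟨z, hz, rfl⟩
      exact ⟨_, hs z hz, by show e _ = e z; rw [hinv]⟩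

variable {E : Type} [NormedAddCommGroup E] [NormedSpace ℝ E] [FiniteDimensional ℝ E]
  {Om : Set E} {ι : Type} {T : Tiling Om ι}

/-- the boundary loop of a 2-cell, in the direction of decreasing `pos` -/
noncomputable def gam (F : C2 T) : ℝ → E :=
  fun θ => F.par (-(starRingEnd ℂ (Complex.exp (Real.pi * θ * Complex.I))))

theorem loop_gam (F : C2 T) : Loop (gam F) F.bd := loop_of_disc (isDisc_rev F.isDisc)

theorem pos_eq (F : C2 T) {p : E} (hp : p ∈ F.bd) :
    F.pos p = Real.pi * (1 - lpos (gam F) p) := by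
  obtain ⟨⟨h0, h2⟩, h3⟩ := (loop_gam F).lpos_mem hp
  set l := lpos (gam F) p with hl
  have e1 : -(starRingEnd ℂ (Complex.exp (Real.pi * l * Complex.I))) =
      Complex.exp ((Real.pi * (1 - l) : ℝ) * Complex.I) := by
    rw [← Complex.exp_conj]
    have e2 : starRingEnd ℂ (Real.pi * l * Complex.I) = -(Real.pi * l * Complex.I) := by
      simp
    rw [e2]
    have e3 : (((Real.pi * (1 - l) : ℝ) : ℂ) * Complex.I) =
        Real.pi * Complex.I + -(Real.pi * l * Complex.I) := by push_cast; ring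
    rw [e3, Complex.exp_add, Complex.exp_pi_mul_I]; ring
  have e4 : F.inv p = Complex.exp ((Real.pi * (1 - l) : ℝ) * Complex.I) := by
    rw [← e1, ← h3]
    refine F.inv_par ?_
    rw [e1, mem_closedBall_zero_iff]
    exact (Complex.norm_exp_ofReal_mul_I _).le
  show Complex.arg (F.inv p) = _
  rw [e4, Complex.exp_mul_I]
  have hpi := Real.pi_pos
  refine Complex.arg_cos_add_sin_mul_I ⟨?_, ?_⟩
  · nlinarith
  · nlinarith

theorem pos_lt_iff (F : C2 T) {p p' : E} (hp : p ∈ F.bd) (hp' : p' ∈ F.bd) :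
    F.pos p < F.pos p' ↔ lpos (gam F) p' < lpos (gam F) p := by
  rw [pos_eq F hp, pos_eq F hp', mul_lt_mul_iff_right₀ Real.pi_pos]
  constructor <;> intro h <;> linarith

end rev

end Crest.Agent.R096.Spm_662
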