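import Crest.Agent.R096.Sph3_560

/-!
# R096 (row 96), DOORS / SPH (helper333), part 1: abstract closeness of the faces

* `Cub.exists_out_edge` : a face has an edge which is not on a given other face;
* `Cub.exists_free_end` : an edge outside `bd x` has an end which is not on `bd x`;
* `Emb.w_path`          : a vertex joined to a path of an edge outside `bd x` off the boundary of
  the face `x` is not in the face `x`.
-/

set_option autoImplicit false

open Set

namespace Crest.Agent.R096.Spp_333

open Crest.Agent.R096.Sph_560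

variable {V E T N R X : Type*} [Fintype E]

/-! ### the cubic graph -/

section cub

variable (G : Cub N R X)

theorem exists_ends (r : R) : ∃ a b, G.ends r = s(a, b) ∧ a ≠ b := by
  obtain ⟨a, b, h⟩ : ∃ a b, G.ends r = s(a, b) := by
    induction h : G.ends r using Sym2.ind with
    | _ a b => exact ⟨a, b, rfl⟩
  refine ⟨a, b, h, ?_⟩
  rintro rfl
  exact G.nd r (by rw [h]; exact Sym2.mk_isDiag_iff.2 rfl)

/-- three edges at a node -/
theorem finite_at (a : N) : {r | a ∈ G.ends r}.Finite := by
  apply Set.finite_of_ncard_ne_zero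
  rw [G.three a]; decide

/-- at a node of the face there are exactly two edges of the face -/
theorem deg_two {x : X} {r : R} (hr : r ∈ G.bd x) {a : N} (ha : a ∈ G.ends r) :
    {r | r ∈ G.bd x ∧ a ∈ G.ends r}.ncard = 2 := by
  rcases G.deg x a with h | h
  · rw [Set.ncard_eq_zero ((finite_at G a).subset fun _ h => h.2)] at h
    exact absurd (show r ∈ ({r | r ∈ G.bd x ∧ a ∈ G.ends r} : Set R) from ⟨hr, ha⟩)
      (by rw [h]; exact notMem_empty r)
  · exact h

/-- at a node of the face there is an edge outside -/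
theorem exists_third {x : X} (a : N) : ∃ r, r ∉ G.bd x ∧ a ∈ G.ends r := by
  by_contra hcon
  push Not at hcon
  have h1 : {r | r ∈ G.bd x ∧ a ∈ G.ends r} = {r | a ∈ G.ends r} := by
    ext r
    constructor
    · exact fun h => h.2
    · intro h
      refine ⟨?_, h⟩
      by_contra h'
      exact hcon r h' h
  have h2 := G.deg x a
  rw [h1, G.three a] at h2
  rcases h2 with h | h <;> omega

/-- a face has an edge which is not on a given other face -/
theorem exists_out_edge {x y : X} (hxy : x ≠ y) : ∃ r ∈ G.bd x, r ∉ G.bd y := by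
  by_contra hcon
  push Not at hcon
  -- then the boundaries are equal
  have hsub : G.bd x ⊆ G.bd y := fun r hr => hcon r hr
  have heq : G.bd x = G.bd y := by
    rcases G.simple y (G.bd x) hsub (fun a => by
      rcases G.deg x a with h | h <;> rw [h]
      · exact Even.zero
      · exact even_two) with h | h
    · exact absurd h (G.bd_ne x).ne_empty
    · exact h
  obtain ⟨r, hr⟩ := G.bd_ne x
  obtain ⟨a, b, hab, -⟩ := exists_ends G r
  have ha : a ∈ G.ends r := by rw [hab]; exact Sym2.mem_mk_left _ _
  -- the third edge at `a`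
  obtain ⟨r3, h3, ha3⟩ := exists_third G (x := x) a
  obtain ⟨u, v, huv, hall⟩ := G.twoF r3
  have hu3 : r3 ∈ G.bd u := (hall u).2 (Or.inl rfl)
  have hux : u ≠ x := by rintro rfl; exact h3 hu3
  have huy : u ≠ y := by
    rintro rfl
    rw [← heq] at hu3
    exact h3 hu3
  -- a second edge of `u` at `a`
  have h2 := deg_two G hu3 ha3
  obtain ⟨r4, ⟨h4, ha4⟩, h43⟩ : ∃ r4, r4 ∈ {r | r ∈ G.bd u ∧ a ∈ G.ends r} ∧ r4 ≠ r3 := by
    by_contra hc
    push Not at hc
    have : {r | r ∈ G.bd u ∧ a ∈ G.ends r} ⊆ {r3} := fun r hr => hc r hr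
    have := Set.ncard_le_ncard this
    rw [h2, Set.ncard_singleton] at this
    omega
  -- `r4` is on `x`
  have h4x : r4 ∈ G.bd x := by
    by_contra hc
    have hsub2 : {r | r ∈ G.bd x ∧ a ∈ G.ends r} ∪ {r3, r4} ⊆ {r | a ∈ G.ends r} := by
      rintro s (hs | hs)
      · exact hs.2
      · rcases hs with rfl | rfl
        · exact ha3
        · exact ha4
    have hle := Set.ncard_le_ncard hsub2 (finite_at G a)
    rw [Set.ncard_union_eq ?_ ((finite_at G a).subset fun _ h => h.2) (by simp),
      deg_two G hr ha, Set.ncard_pair h43.symm, G.three a] at hle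
    · omega
    · rw [Set.disjoint_left]
      rintro s hs hs'
      rcases hs' with rfl | rfl
      · exact h3 hs.1
      · exact hc hs.1
  obtain ⟨p, q, hpq, hall4⟩ := G.twoF r4
  have e1 := (hall4 u).1 h4
  have e2 := (hall4 x).1 h4x
  have e3 := (hall4 y).1 (hsub h4x)
  rcases e1 with rfl | rfl <;> rcases e2 with rfl | rfl <;> rcases e3 with rfl | rfl <;>
    first | exact hux rfl | exact huy rfl | exact hxy rfl

/-- an edge outside `bd x` has an end which is not on `bd x` -/
theorem exists_free_end {x : X} {r : R} (hr : r ∉ G.bd x) :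
    ∃ b ∈ G.ends r, ∀ r' ∈ G.bd x, b ∉ G.ends r' := by
  by_contra hcon
  push Not at hcon
  -- all edges outside are `r`
  have hall : ∀ r', r' ∉ G.bd x → r' = r := by
    intro r' hr'
    have := G.conn x {r} (by
      intro a ha s s' hs hs' hsr
      have hs2 : s = r := hsr
      subst hs2
      obtain ⟨t, ht, hat⟩ := hcon a hs
      exact absurd hat (ha t ht)) r r' hr hr' rfl
    exact this
  obtain ⟨a, b, hab, hne⟩ := exists_ends G r
  have ha : a ∈ G.ends r := by rw [hab]; exact Sym2.mem_mk_left _ _
  have hb : b ∈ G.ends r := by rw [hab]; exact Sym2.mem_mk_right _ _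
  -- every node is an end of `r`
  have hnode : ∀ c, c ∈ G.ends r := by
    intro c
    obtain ⟨s, hs, hc⟩ := exists_third G (x := x) c
    rw [hall s hs] at hc
    exact hc
  -- all edges have the ends `a`, `b`
  have hedge : ∀ s, s = r := by
    intro s
    apply G.multi
    obtain ⟨c, d, hcd, hcd'⟩ := exists_ends G s
    have hc := hnode c
    have hd := hnode d
    rw [hab, Sym2.mem_iff] at hc hd
    rw [hcd, hab]
    rcases hc with rfl | rfl <;> rcases hd with rfl | rfl
    · exact absurd rfl hcd'
    · rfl
    · exact Sym2.eq_swap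
    · exact absurd rfl hcd'
  obtain ⟨s, hs⟩ := G.bd_ne x
  rw [hedge s] at hs
  exact hr hs

end cub

/-! ### closeness -/

section close

variable {S : Surf V E T} {G : Cub N R X} (M : Emb S G)

/-- all tiles at `v` have `w x = 0` -/
def Zero (x : X) (v : V) : Prop := ∀ e, v ∈ S.ends e → ∀ f, S.On f e → M.w x f = 0

/-- one tile at a vertex which is not on the boundary of the face decides -/
theorem zero_of_one {x : X} {v : V} (hv : ∀ r ∈ G.bd x, v ∉ M.vs r) {e : E} (he : v ∈ S.ends e)
    {f : T} (hf : S.On f e) (h0 : M.w x f = 0) : Zero M x v := by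
  intro e' he' g hg
  refine S.link v {f | M.w x f = 0} ?_ e he f hf h0 e' he' g hg
  intro e1 he1 f1 g1 hf1 hg1 h1
  by_cases hfg : f1 = g1
  · rw [← hfg]; exact h1
  · have h2 := M.w_bd x e1 f1 g1 hfg hf1 hg1
    beta_reduce at h2
    rw [if_neg] at h2
    · have h3 : M.w x f1 = 0 := h1
      rw [h3, zero_add] at h2
      exact h2.symm
    · rintro ⟨r, hr, her⟩
      exact hv r hr ((M.vs_iff r v).2 ⟨e1, her, he1⟩)

/-- **closeness, abstract**: `B` is a set of vertices off the boundary of the face `x`; a vertex
which is joined inside `B` to the path of an edge outside `bd x` is not in the face `x`. -/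
theorem w_path {x : X} {B : Set V} (hB : ∀ v ∈ B, ∀ r ∈ G.bd x, v ∉ M.vs r) {u v : V}
    (h : S.ConnIn {u, v} B) (hv : v ∈ B) {r : R} (hr : r ∉ G.bd x) (hvr : v ∈ M.vs r) :
    Zero M x u := by
  have h1 : Zero M x v := by
    obtain ⟨e, he, hve⟩ := (M.vs_iff r v).1 hvr
    obtain ⟨f, g, -, hall⟩ := S.two e
    have hf := (hall f).2 (Or.inl rfl)
    exact zero_of_one M (hB v hv) hve hf (M.w_out x r hr e he f hf)
  refine h {v | Zero M x v} ?_ v (by simp) h1 u (by simp)
  intro e a b hab ha hb hZ
  have hae : a ∈ S.ends e := by rw [hab]; exact Sym2.mem_mk_left _ _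
  have hbe : b ∈ S.ends e := by rw [hab]; exact Sym2.mem_mk_right _ _
  obtain ⟨f, g, -, hall⟩ := S.two e
  have hf := (hall f).2 (Or.inl rfl)
  exact zero_of_one M (hB b hb) hbe hf (hZ e hae f hf)

end close

end Crest.Agent.R096.Spp_333
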