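import Crest.Agent.R096.Spp1_333

/-!
# R096 (row 96), DOORS / SPH (helper333), part 2: topology of a realisation `Lay G Sg`

Local connectedness of `Sg`, separation constants, connected sets off a face.
-/

set_option autoImplicit false

open Set Metric

namespace Crest.Agent.R096.Spp_333

open Crest.Agent.R096.Sph_560 Crest.Agent.R096.Ce_537

variable {F : Type*} [NormedAddCommGroup F] [NormedSpace ℝ F]
variable {N R X : Type*} {G : Cub N R X} {Sg : Set F}

/-! ### balls -/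

/-- local connectedness of a PL ball -/
theorem ball_lc {k : ℕ} {K dK : Set F} (h : IsBall k K dK) {x : F} (hx : x ∈ K) {r : ℝ}
    (hr : 0 < r) : ∃ r1 > 0, ∃ C ⊆ K ∩ closedBall x r, IsPreconnected C ∧
      K ∩ closedBall x r1 ⊆ C ∧ x ∈ C := by
  obtain ⟨e, -⟩ := h
  set x0 := e.g x with hx0
  have hx0c : x0 ∈ cube k := e.mg hx
  have hfx : e.f x0 = x := e.ri x hx
  have c1 : ContinuousWithinAt e.f (cube k) x0 := e.pf.1 x0 hx0c
  have c2 : ContinuousWithinAt e.g K x := e.pg.1 x hx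
  rw [Metric.continuousWithinAt_iff] at c1 c2
  obtain ⟨ρ, hρ, h1⟩ := c1 r hr
  obtain ⟨r1, hr1, h2⟩ := c2 ρ hρ
  refine ⟨r1 / 2, by positivity, e.f '' (cube k ∩ ball x0 ρ), ?_, ?_, ?_, ?_⟩
  · rintro _ ⟨y, ⟨hy, hyb⟩, rfl⟩
    refine ⟨e.mf hy, ?_⟩
    have := h1 hy hyb
    rw [hfx] at this
    exact mem_closedBall.2 this.le
  · apply IsPreconnected.image
    · exact ((convex_closedBall (0 : Fin k → ℝ) 1).inter (convex_ball x0 ρ)).isPreconnected
    · exact e.pf.1.mono inter_subset_left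
  · rintro y ⟨hy, hyb⟩
    refine ⟨e.g y, ⟨e.mg hy, ?_⟩, e.ri y hy⟩
    exact h2 hy (lt_of_le_of_lt (mem_closedBall.1 hyb) (by linarith))
  · exact ⟨x0, ⟨hx0c, mem_ball_self hρ⟩, hfx⟩

theorem ball_preconnected {k : ℕ} {K dK : Set F} (h : IsBall k K dK) : IsPreconnected K := by
  obtain ⟨e, -⟩ := h
  have : K = e.f '' (cube k) := by
    ext y
    exact ⟨fun hy => ⟨e.g y, e.mg hy, e.ri y hy⟩, fun ⟨x, hx, h⟩ => h ▸ e.mf hx⟩
  rw [this]
  exact (convex_closedBall (0 : Fin k → ℝ) 1).isPreconnected.image _ e.pf.1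

/-! ### the sphere -/

section lay

variable (L : Lay G Sg)

include L in
theorem isCompact_Sg [Finite X] : IsCompact Sg := by
  rw [L.cov]
  exact isCompact_iUnion fun x => (L.disc_ball x).isCompact

theorem disc_sub (x : X) : L.disc x ⊆ Sg := by
  conv_rhs => rw [L.cov]
  exact subset_iUnion _ x

theorem exists_face (G : Cub N R X) (r : R) : ∃ x, r ∈ G.bd x := by
  obtain ⟨x, y, -, h⟩ := G.twoF r
  exact ⟨x, (h x).2 (Or.inl rfl)⟩

theorem arc_sub (r : R) : L.arc r ⊆ Sg := by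
  obtain ⟨x, hx⟩ := exists_face G r
  exact (L.arc_sub_disc hx).trans (disc_sub L x)

theorem pt_mem_Sg (a : N) : L.pt a ∈ Sg := by
  obtain ⟨r, hr⟩ := Lay.exists_edge G a
  exact arc_sub L r (L.pt_mem_arc hr)

include L in
/-- **local connectedness** -/
theorem lc [Finite X] {p : F} (hp : p ∈ Sg) {r : ℝ} (hr : 0 < r) :
    ∃ r1 > 0, ∃ C ⊆ Sg ∩ closedBall p r, IsPreconnected C ∧ Sg ∩ closedBall p r1 ⊆ C ∧
      p ∈ C := by
  have key : ∀ x : X, ∃ r1 > 0, ∃ C ⊆ L.disc x ∩ closedBall p r, IsPreconnected C ∧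
      L.disc x ∩ closedBall p r1 ⊆ C ∧ (C.Nonempty → p ∈ C) := by
    intro x
    by_cases hx : p ∈ L.disc x
    · obtain ⟨r1, h1, C, h2, h3, h4, h5⟩ := ball_lc (L.disc_ball x) hx hr
      exact ⟨r1, h1, C, h2, h3, h4, fun _ => h5⟩
    · have hc : IsClosed (L.disc x) := (L.disc_ball x).isCompact.isClosed
      obtain ⟨ρ, hρ, h⟩ := Metric.isOpen_iff.1 hc.isOpen_compl p hx
      refine ⟨ρ / 2, by positivity, ∅, empty_subset _, isPreconnected_empty, ?_, fun h => ?_⟩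
      · rintro y ⟨hy, hyb⟩
        exact absurd hy (h (lt_of_le_of_lt (mem_closedBall.1 hyb) (by linarith)))
      · exact absurd h not_nonempty_empty
  choose r1 h1 C h2 h3 h4 h5 using key
  obtain ⟨x0, hx0⟩ : ∃ x, p ∈ L.disc x := by
    rw [L.cov] at hp
    exact mem_iUnion.1 hp
  have : Nonempty X := ⟨x0⟩
  obtain ⟨m, hm⟩ := Finite.exists_min r1
  refine ⟨r1 m, h1 m, ⋃ x, C x, ?_, ?_, ?_, ?_⟩
  · intro y hy
    obtain ⟨x, hx⟩ := mem_iUnion.1 hy
    exact ⟨disc_sub L x (h2 x hx).1, (h2 x hx).2⟩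
  · refine isPreconnected_of_forall p fun y hy => ?_
    obtain ⟨x, hx⟩ := mem_iUnion.1 hy
    exact ⟨C x, subset_iUnion _ x, h5 x ⟨y, hx⟩, hx, h3 x⟩
  · rintro y ⟨hy, hyb⟩
    rw [L.cov] at hy
    obtain ⟨x, hx⟩ := mem_iUnion.1 hy
    exact mem_iUnion.2 ⟨x, h4 x ⟨hx, closedBall_subset_closedBall (hm x) hyb⟩⟩
  · exact mem_iUnion.2 ⟨x0, h4 x0 ⟨hx0, mem_closedBall_self (h1 x0).le⟩⟩

omit [NormedSpace ℝ F] in
/-- compactness: near two closed sets means near the intersection -/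
theorem near_inter {S A B U : Set F} (hS : IsCompact S) (hA : IsClosed A) (hB : IsClosed B)
    (hU : IsOpen U) (h : A ∩ B ⊆ U) :
    ∃ δ > 0, ∀ y ∈ S, (∃ z ∈ A, dist y z ≤ δ) → (∃ z ∈ B, dist y z ≤ δ) → y ∈ U := by
  rcases A.eq_empty_or_nonempty with rfl | hAne
  · exact ⟨1, one_pos, fun y _ ⟨z, hz, _⟩ => absurd hz (notMem_empty z)⟩
  rcases B.eq_empty_or_nonempty with rfl | hBne
  · exact ⟨1, one_pos, fun y _ _ ⟨z, hz, _⟩ => absurd hz (notMem_empty z)⟩
  rcases (S \ U).eq_empty_or_nonempty with he | hne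
  · exact ⟨1, one_pos, fun y hy _ _ => by
      by_contra hc
      exact absurd (show y ∈ S \ U from ⟨hy, hc⟩) (by rw [he]; exact notMem_empty y)⟩
  · have hc : ContinuousOn (fun y => max (infDist y A) (infDist y B)) (S \ U) :=
      ((continuous_infDist_pt A).max (continuous_infDist_pt B)).continuousOn
    obtain ⟨y0, hy0, hmin⟩ := (hS.diff hU).exists_isMinOn hne hc
    set δ := max (infDist y0 A) (infDist y0 B) with hδ
    have hpos : 0 < δ := by
      by_contra hcon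
      have h1 : infDist y0 A ≤ 0 := (le_max_left _ _).trans (not_lt.1 hcon)
      have h2 : infDist y0 B ≤ 0 := (le_max_right _ _).trans (not_lt.1 hcon)
      have h3 : y0 ∈ A := (hA.mem_iff_infDist_zero hAne).2 (le_antisymm h1 infDist_nonneg)
      have h4 : y0 ∈ B := (hB.mem_iff_infDist_zero hBne).2 (le_antisymm h2 infDist_nonneg)
      exact hy0.2 (h ⟨h3, h4⟩)
    refine ⟨δ / 2, by positivity, ?_⟩
    rintro y hy ⟨z, hz, hyz⟩ ⟨w, hw, hyw⟩
    by_contra hcon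
    have h5 : δ ≤ max (infDist y A) (infDist y B) := hmin ⟨hy, hcon⟩
    have h6 : infDist y A ≤ δ / 2 := (infDist_le_dist_of_mem hz).trans hyz
    have h7 : infDist y B ≤ δ / 2 := (infDist_le_dist_of_mem hw).trans hyw
    have := max_le h6 h7
    linarith

omit [NormedSpace ℝ F] in
/-- two disjoint sets, one compact and one closed, have a positive distance -/
theorem pos_dist {A B : Set F} (hA : IsCompact A) (hB : IsClosed B) (h : Disjoint A B) :
    ∃ δ > 0, ∀ a ∈ A, ∀ b ∈ B, δ ≤ dist a b := by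
  obtain ⟨δ, hδ, h'⟩ := h.exists_thickenings hA hB
  refine ⟨δ, hδ, fun a ha b hb => ?_⟩
  by_contra hcon
  exact (Set.disjoint_left.1 h') (mem_thickening_iff.2 ⟨a, ha, by rw [dist_comm]; exact not_le.1 hcon⟩)
    (self_subset_thickening hδ B hb)

/-- a positive lower bound of a positive function on a finite type -/
theorem exists_pos_le {ι : Type*} [Finite ι] (f : ι → ℝ) (hf : ∀ i, 0 < f i) :
    ∃ δ > 0, ∀ i, δ ≤ f i := by
  rcases isEmpty_or_nonempty ι with h | h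
  · exact ⟨1, one_pos, fun i => h.elim i⟩
  · obtain ⟨m, hm⟩ := Finite.exists_min f
    exact ⟨f m, hf m, hm⟩

/-- **connected sets off a face** -/
theorem star_set {x x' : X} (hne : x' ≠ x) {A : Set F} (hA : IsCompact A)
    (hA1 : A ⊆ L.disc x') (hA2 : Disjoint A (L.disc x)) :
    ∃ C, A ⊆ C ∧ C ⊆ L.disc x' ∧ IsPreconnected C ∧ IsCompact C ∧ Disjoint C (L.disc x) := by
  obtain ⟨e, he⟩ := L.disc_ball x'
  set B := e.g '' A with hB
  have hBc : IsCompact B := hA.image_of_continuousOn (e.pg.1.mono hA1)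
  have hBcube : B ⊆ cube 2 := by
    rintro _ ⟨y, hy, rfl⟩
    exact e.mg (hA1 hy)
  set m : ℝ × (Fin 2 → ℝ) → (Fin 2 → ℝ) := fun q => q.1 • q.2 with hm
  have hmc : Continuous m := continuous_fst.smul continuous_snd
  set D := m '' (Icc (0 : ℝ) 1 ×ˢ B) with hD
  have hDc : IsCompact D := (isCompact_Icc.prod hBc).image hmc
  have hDcube : D ⊆ cube 2 := by
    rintro _ ⟨⟨t, z⟩, ⟨ht, hz⟩, rfl⟩
    have h1 : ‖z‖ ≤ 1 := mem_closedBall_zero_iff.1 (hBcube hz)
    refine mem_closedBall_zero_iff.2 ?_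
    show ‖t • z‖ ≤ 1
    rw [norm_smul, Real.norm_of_nonneg ht.1]
    exact mul_le_one₀ ht.2 (norm_nonneg _) h1
  have hDpre : IsPreconnected D := by
    rcases B.eq_empty_or_nonempty with hBe | ⟨z0, hz0⟩
    · rw [hD, hBe, prod_empty, image_empty]; exact isPreconnected_empty
    · refine isPreconnected_of_forall 0 ?_
      rintro _ ⟨⟨t, z⟩, ⟨ht, hz⟩, rfl⟩
      refine ⟨segment ℝ 0 z, ?_, left_mem_segment ℝ 0 z, ?_,
        (convex_segment 0 z).isPreconnected⟩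
      · rintro _ ⟨a, b, ha, hb, hab, rfl⟩
        refine ⟨(b, z), ⟨⟨hb, by linarith⟩, hz⟩, ?_⟩
        simp [hm]
      · refine ⟨1 - t, t, by linarith [ht.2], ht.1, by ring, ?_⟩
        simp [hm]
  refine ⟨e.f '' D, ?_, ?_, hDpre.image _ (e.pf.1.mono hDcube),
    hDc.image_of_continuousOn (e.pf.1.mono hDcube), ?_⟩
  · intro y hy
    refine ⟨e.g y, ⟨(1, e.g y), ⟨⟨zero_le_one, le_rfl⟩, mem_image_of_mem _ hy⟩, ?_⟩,
      e.ri y (hA1 hy)⟩
    simp [hm]
  · rintro _ ⟨y, hy, rfl⟩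
    exact e.mf (hDcube hy)
  · rw [Set.disjoint_left]
    rintro _ ⟨_, ⟨⟨t, z⟩, ⟨ht, hz⟩, rfl⟩, rfl⟩ hx
    have hmem : m (t, z) ∈ D := ⟨(t, z), ⟨ht, hz⟩, rfl⟩
    have hcube := hDcube hmem
    have hbd := L.disc_disc x' x hne _ (e.mf hcube) hx
    rw [← he] at hbd
    obtain ⟨s, hs, hse⟩ := hbd
    have hs1 : ‖s‖ = 1 := mem_sphere_zero_iff_norm.1 hs
    have hsc : s ∈ cube 2 := sphere_subset_closedBall hs
    have heq : s = m (t, z) := by
      rw [← e.li s hsc, hse, e.li _ hcube]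
    have hz1 : ‖z‖ ≤ 1 := mem_closedBall_zero_iff.1 (hBcube hz)
    have h1 : t * ‖z‖ = 1 := by
      have : ‖m (t, z)‖ = t * ‖z‖ := by
        show ‖t • z‖ = _
        rw [norm_smul, Real.norm_of_nonneg ht.1]
      rw [← this, ← heq, hs1]
    have ht1 : t = 1 := by
      apply le_antisymm ht.2
      nlinarith [ht.1, ht.2, norm_nonneg z]
    obtain ⟨y, hy, rfl⟩ := hz
    have h2 : m (t, e.g y) = e.g y := by simp [hm, ht1]
    rw [h2, e.ri y (hA1 hy)] at hx
    exact (Set.disjoint_left.1 hA2) hy hx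

/-- a node which is not on the face is off the face -/
theorem pt_notMem_disc {a : N} {x : X} (h : ∀ r ∈ G.bd x, a ∉ G.ends r) : L.pt a ∉ L.disc x := by
  intro hx
  obtain ⟨r, hr⟩ := Lay.exists_edge G a
  obtain ⟨x', hx'⟩ := exists_face G r
  have hne : x ≠ x' := by
    rintro rfl
    exact h r hx' hr
  have := L.disc_disc x x' hne _ hx (L.arc_sub_disc hx' (L.pt_mem_arc hr))
  obtain ⟨s, hs, hps⟩ := mem_iUnion₂.1 this
  exact h s hs (L.pt_arc a s hps)

end lay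

end Crest.Agent.R096.Spp_333
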