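import Crest.Agent.R096.Spp2_333

/-!
# R096 (row 96), DOORS / SPH (helper333), part 3: CARRY gives a placing of the graph

* `Carry S gv Sg δ`      : the vertices of `S` are spread over `Sg`, chord paths follow connected
  sets (890's CARRY).
* `exists_place`         : a placing `Place S G` close to a realisation `L : Lay G Sg`.
-/

set_option autoImplicit false

open Set Metric

namespace Crest.Agent.R096.Spp_333

open Crest.Agent.R096.Sph_560 Crest.Agent.R096.Ce_537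

variable {V E T : Type*} [Fintype E]

/-! ### `ConnIn` -/

section connIn

variable {S : Surf V E T}

theorem connIn_mono {A A' B B' : Set V} (hA : A' ⊆ A) (hB : B ⊆ B') (h : S.ConnIn A B) :
    S.ConnIn A' B' := by
  intro X hX u hu huX v hv
  exact h X (fun e a b hab ha hb => hX e a b hab (hB ha) (hB hb)) u (hA hu) huX v (hA hv)

theorem connIn_symm {u v : V} {B : Set V} (h : S.ConnIn {u, v} B) : S.ConnIn {v, u} B := by
  rw [pair_comm]; exact h

theorem connIn_self (u : V) (B : Set V) : S.ConnIn {u, u} B := by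
  intro X _ a ha haX b hb
  have h1 : a = u := by simpa using ha
  have h2 : b = u := by simpa using hb
  rw [h2, ← h1]; exact haX

theorem connIn_trans {u v w : V} {B : Set V} (h : S.ConnIn {u, v} B) (h' : S.ConnIn {v, w} B) :
    S.ConnIn {u, w} B := by
  intro X hX a ha haX b hb
  have hu : u ∈ ({u, v} : Set V) := by simp
  have hv : v ∈ ({u, v} : Set V) := by simp
  have hv' : v ∈ ({v, w} : Set V) := by simp
  have hw' : w ∈ ({v, w} : Set V) := by simp
  rcases ha with rfl | rfl <;> rcases hb with rfl | rfl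
  · exact haX
  · exact h' X hX v hv' (h X hX _ hu haX v hv) _ hw'
  · exact h X hX v hv (h' X hX _ hw' haX v hv') _ hu
  · exact haX

theorem connIn_of_pairs {A B : Set V} (h : ∀ u ∈ A, ∀ v ∈ A, S.ConnIn {u, v} B) :
    S.ConnIn A B := by
  intro X hX u hu huX v hv
  exact h u hu v hv X hX u (by simp) huX v (by simp)

theorem connIn_edge {e : E} {u v : V} {B : Set V} (h : S.ends e = s(u, v)) (hu : u ∈ B)
    (hv : v ∈ B) : S.ConnIn {u, v} B := by
  intro X hX a ha haX b hb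
  have h' : S.ends e = s(v, u) := by rw [h]; exact Sym2.eq_swap
  rcases ha with rfl | rfl <;> rcases hb with rfl | rfl
  · exact haX
  · exact hX e _ _ h hu hv haX
  · exact hX e _ _ h' hv hu haX
  · exact haX

/-- the component of `v0` in `B` -/
def Comp (S : Surf V E T) (B : Set V) (v0 : V) : Set V := {v | v ∈ B ∧ S.ConnIn {v0, v} B}

theorem comp_conn (B : Set V) (v0 : V) : S.ConnIn (Comp S B v0) (Comp S B v0) := by
  apply connIn_of_pairs
  rintro u ⟨hu, hu'⟩ v ⟨hv, hv'⟩ X hX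
  have huv : S.ConnIn {u, v} B := connIn_trans (connIn_symm hu') hv'
  have key := huv (X ∩ Comp S B v0) (by
    rintro e a b hab ha hb ⟨haX, haC⟩
    have hbC : b ∈ Comp S B v0 := ⟨hb, connIn_trans haC.2 (connIn_edge hab ha hb)⟩
    exact ⟨hX e a b hab haC hbC haX, hbC⟩)
  intro a ha haX b hb
  have haC : a ∈ Comp S B v0 := by
    rcases ha with rfl | rfl
    · exact ⟨hu, hu'⟩
    · exact ⟨hv, hv'⟩
  exact (key a ha ⟨haX, haC⟩ b hb).1

end connIn

/-! ### CARRY -/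

variable {F : Type*} [NormedAddCommGroup F] [NormedSpace ℝ F]

/-- the vertices of `S` lie over `Sg`, are `δ`-dense there, and chord paths follow connected
sets. -/
structure Carry (S : Surf V E T) (gv : V → F) (Sg : Set F) (δ : ℝ) : Prop where
  mem : ∀ v, gv v ∈ Sg
  dense : ∀ y ∈ Sg, ∃ v, dist (gv v) y ≤ δ
  carry : ∀ C ⊆ Sg, IsPreconnected C → ∀ u v, gv u ∈ C → gv v ∈ C →
    S.ConnIn {u, v} {w | ∃ y ∈ C, dist (gv w) y ≤ δ}

omit [NormedSpace ℝ F] in
theorem Carry.mono {S : Surf V E T} {gv : V → F} {Sg : Set F} {δ δ' : ℝ} (h : Carry S gv Sg δ)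
    (hδ : δ ≤ δ') : Carry S gv Sg δ' where
  mem := h.mem
  dense := fun y hy => by
    obtain ⟨v, hv⟩ := h.dense y hy
    exact ⟨v, hv.trans hδ⟩
  carry := fun C hC hCp u v hu hv => by
    refine connIn_mono subset_rfl ?_ (h.carry C hC hCp u v hu hv)
    rintro w ⟨y, hy, hwy⟩
    exact ⟨y, hy, hwy.trans hδ⟩

variable {N R X : Type*} {G : Cub N R X} {Sg : Set F}

/-- **PLACE**: a placing of the graph near its realisation -/
theorem exists_place [Finite N] [Finite R] [Finite X] (L : Lay G Sg) {ρ : ℝ} (hρ : 0 < ρ) :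
    ∃ δ₀ > 0, ∀ {V E T : Type*} [Fintype E] (S : Surf V E T) (gv : V → F),
      Carry S gv Sg δ₀ → ∃ P : Place S G,
        (∀ r, ∀ v ∈ P.Y r, ∃ z ∈ L.arc r, dist (gv v) z ≤ ρ) ∧
        (∀ a, ∀ v ∈ P.Z' a, dist (gv v) (L.pt a) ≤ ρ) := by
  classical
  have hSgc := isCompact_Sg L
  -- `r2`
  obtain ⟨d1, hd1, h1⟩ : ∃ d1 > 0, ∀ a b, a ≠ b → d1 ≤ dist (L.pt a) (L.pt b) := by
    obtain ⟨d, hd, h⟩ := exists_pos_le (fun q : N × N =>
      if q.1 = q.2 then 1 else dist (L.pt q.1) (L.pt q.2)) (fun q => by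
        split_ifs with h
        · exact one_pos
        · exact dist_pos.2 fun h' => h (L.inj h'))
    refine ⟨d, hd, fun a b hab => ?_⟩
    have := h (a, b)
    dsimp only at this
    rwa [if_neg hab] at this
  obtain ⟨d2, hd2, h2⟩ : ∃ d2 > 0, ∀ a r, a ∉ G.ends r → ∀ z ∈ L.arc r,
      d2 ≤ dist (L.pt a) z := by
    have key : ∀ q : N × R, ∃ d > 0, q.1 ∉ G.ends q.2 → ∀ z ∈ L.arc q.2,
        d ≤ dist (L.pt q.1) z := by
      rintro ⟨a, r⟩
      by_cases h : a ∈ G.ends r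
      · exact ⟨1, one_pos, fun h' => absurd h h'⟩
      · obtain ⟨d, hd, h'⟩ := pos_dist (A := {L.pt a}) isCompact_singleton
          (L.arc_ball r).isCompact.isClosed (by
            rw [Set.disjoint_singleton_left]
            exact fun h' => h (L.pt_arc a r h'))
        exact ⟨d, hd, fun _ z hz => h' _ rfl z hz⟩
    choose d hd h using key
    obtain ⟨d0, hd0, h0⟩ := exists_pos_le d hd
    exact ⟨d0, hd0, fun a r har z hz => (h0 (a, r)).trans (h (a, r) har z hz)⟩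
  obtain ⟨r2, hr2, hr2ρ, hr2d1, hr2d2⟩ : ∃ r2 > 0, r2 ≤ ρ ∧ 2 * r2 < d1 ∧ 2 * r2 < d2 := by
    refine ⟨min ρ (min (d1 / 3) (d2 / 3)), by positivity, min_le_left _ _, ?_, ?_⟩
    · have := (min_le_right ρ (min (d1 / 3) (d2 / 3))).trans (min_le_left _ _)
      linarith
    · have := (min_le_right ρ (min (d1 / 3) (d2 / 3))).trans (min_le_right _ _)
      linarith
  -- `r1`
  have key1 := fun a => lc L (pt_mem_Sg L a) (show (0 : ℝ) < r2 / 2 by positivity)
  choose s1 hs1 C1 hC1 hC1p hC1s hC1a using key1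
  obtain ⟨s0, hs0, hs0'⟩ := exists_pos_le s1 hs1
  set r1 := min s0 r2 with hr1def
  have hr1 : 0 < r1 := by positivity
  -- `δ1`
  obtain ⟨δ1, hδ1, hyy⟩ : ∃ δ1 > 0, ∀ r r', r ≠ r' → ∀ y ∈ Sg,
      (∃ z ∈ L.arc r, dist y z ≤ δ1) → (∃ z ∈ L.arc r', dist y z ≤ δ1) →
      ∃ a, a ∈ G.ends r ∧ a ∈ G.ends r' ∧ dist y (L.pt a) ≤ r1 := by
    have key : ∀ q : R × R, ∃ d > 0, q.1 ≠ q.2 → ∀ y ∈ Sg,
        (∃ z ∈ L.arc q.1, dist y z ≤ d) → (∃ z ∈ L.arc q.2, dist y z ≤ d) →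
        ∃ a, a ∈ G.ends q.1 ∧ a ∈ G.ends q.2 ∧ dist y (L.pt a) ≤ r1 := by
      rintro ⟨r, r'⟩
      by_cases h : r = r'
      · exact ⟨1, one_pos, fun h' => absurd h h'⟩
      · obtain ⟨d, hd, h'⟩ := near_inter hSgc (L.arc_ball r).isCompact.isClosed
          (L.arc_ball r').isCompact.isClosed
          (U := ⋃ a ∈ {a | a ∈ G.ends r ∧ a ∈ G.ends r'}, ball (L.pt a) r1)
          (isOpen_biUnion fun _ _ => isOpen_ball) (by
            rintro y ⟨hy, hy'⟩
            obtain ⟨a, ha, rfl⟩ := L.arc_arc r r' h y hy hy'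
            exact mem_biUnion (show a ∈ {a | a ∈ G.ends r ∧ a ∈ G.ends r'} from
              ⟨ha, L.pt_arc a r' hy'⟩) (mem_ball_self hr1))
        refine ⟨d, hd, fun _ y hy h1 h2 => ?_⟩
        obtain ⟨a, ha, hya⟩ := mem_iUnion₂.1 (h' y hy h1 h2)
        exact ⟨a, ha.1, ha.2, (mem_ball.1 hya).le⟩
    choose d hd h using key
    obtain ⟨d0, hd0, h0⟩ := exists_pos_le d hd
    exact ⟨d0, hd0, fun r r' hrr y hy ⟨z, hz, hyz⟩ ⟨z', hz', hyz'⟩ =>
      h (r, r') hrr y hy ⟨z, hz, hyz.trans (h0 _)⟩ ⟨z', hz', hyz'.trans (h0 _)⟩⟩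
  -- `η`
  set η := min δ1 r2 / 2 with hη
  have hηpos : 0 < η := by positivity
  have key2 := fun a => lc L (pt_mem_Sg L a) hηpos
  choose t1 ht1 C2 hC2 hC2p hC2s hC2a using key2
  obtain ⟨t0, ht0, ht0'⟩ := exists_pos_le t1 ht1
  refine ⟨min (min t0 η) r1, by positivity, ?_⟩
  intro V E T _ S gv hC
  set δ := min (min t0 η) r1 with hδ
  have hδt : δ ≤ t0 := (min_le_left _ _).trans (min_le_left _ _)
  have hδη : δ ≤ η := (min_le_left _ _).trans (min_le_right _ _)
  have hδr1 : δ ≤ r1 := min_le_right _ _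
  have hr1r2 : r1 ≤ r2 := min_le_right _ _
  have hηr2 : η ≤ r2 / 2 := by
    rw [hη]; have := min_le_right δ1 r2; linarith
  have hηδ1 : η ≤ δ1 / 2 := by
    rw [hη]; have := min_le_left δ1 r2; linarith
  -- the points of the nodes
  choose vn hvn using fun a => hC.dense (L.pt a) (pt_mem_Sg L a)
  have hvnC : ∀ a, gv (vn a) ∈ C2 a := fun a =>
    hC2s a ⟨hC.mem _, mem_closedBall.2 ((hvn a).trans (hδt.trans (ht0' a)))⟩
  -- the connected sets of the edges
  let W : R → Set F := fun r => L.arc r ∪ ⋃ a ∈ {a | a ∈ G.ends r}, C2 a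
  have hWS : ∀ r, W r ⊆ Sg := by
    rintro r y (hy | hy)
    · exact arc_sub L r hy
    · obtain ⟨a, -, hya⟩ := mem_iUnion₂.1 hy
      exact (hC2 a hya).1
  have hWp : ∀ r, IsPreconnected (W r) := by
    intro r
    obtain ⟨a0, b0, hab, -⟩ := exists_ends G r
    have ha0 : a0 ∈ G.ends r := by rw [hab]; exact Sym2.mem_mk_left _ _
    have hA := ball_preconnected (L.arc_ball r)
    refine isPreconnected_of_forall (L.pt a0) ?_
    rintro y (hy | hy)
    · exact ⟨L.arc r, subset_union_left, L.pt_mem_arc ha0, hy, hA⟩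
    · obtain ⟨a, ha, hya⟩ := mem_iUnion₂.1 hy
      refine ⟨L.arc r ∪ C2 a, ?_, Or.inl (L.pt_mem_arc ha0), Or.inr hya, ?_⟩
      · exact union_subset_union subset_rfl (subset_biUnion_of_mem (u := C2) ha)
      · exact IsPreconnected.union (L.pt a) (L.pt_mem_arc ha) (hC2a a) hA (hC2p a)
  have hWnear : ∀ r, ∀ y ∈ W r, ∃ z ∈ L.arc r, dist y z ≤ η := by
    rintro r y (hy | hy)
    · exact ⟨y, hy, by rw [dist_self]; exact hηpos.le⟩
    · obtain ⟨a, ha, hya⟩ := mem_iUnion₂.1 hy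
      exact ⟨L.pt a, L.pt_mem_arc ha, mem_closedBall.1 (hC2 a hya).2⟩
  let B : R → Set V := fun r => {w | ∃ y ∈ W r, dist (gv w) y ≤ δ}
  have hBnear : ∀ r, ∀ w ∈ B r, ∃ z ∈ L.arc r, dist (gv w) z ≤ min δ1 r2 := by
    rintro r w ⟨y, hy, hwy⟩
    obtain ⟨z, hz, hyz⟩ := hWnear r y hy
    refine ⟨z, hz, (dist_triangle _ y _).trans ?_⟩
    have : η + η = min δ1 r2 := by rw [hη]; ring
    linarith
  choose nd hnd using fun r : R => (exists_ends G r)
  have hndm : ∀ r, nd r ∈ G.ends r := fun r => by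
    obtain ⟨b, hb, -⟩ := hnd r
    rw [hb]; exact Sym2.mem_mk_left _ _
  have hvnW : ∀ r, ∀ a ∈ G.ends r, gv (vn a) ∈ W r := fun r a ha =>
    Or.inr (mem_biUnion (show a ∈ {a | a ∈ G.ends r} from ha) (hvnC a))
  have hδ0 : 0 ≤ δ := by positivity
  have hvnB : ∀ r, ∀ a ∈ G.ends r, vn a ∈ B r := fun r a ha =>
    ⟨_, hvnW r a ha, by rw [dist_self]; exact hδ0⟩
  refine ⟨{
    Z := fun a => {v | dist (gv v) (L.pt a) ≤ r1}
    Z' := fun a => {v | dist (gv v) (L.pt a) ≤ r2}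
    Y := fun r => Comp S (B r) (vn (nd r))
    sub := fun a v hv => le_trans hv hr1r2
    zc := ?_
    yc := fun r => comp_conn _ _
    meet := ?_
    zd := ?_
    yz := ?_
    yy := ?_ }, ?_, ?_⟩
  · intro a
    apply connIn_of_pairs
    intro u hu v hv
    have hu' : gv u ∈ C1 a := hC1s a ⟨hC.mem u, mem_closedBall.2
      (le_trans hu ((min_le_left _ _).trans (hs0' a)))⟩
    have hv' : gv v ∈ C1 a := hC1s a ⟨hC.mem v, mem_closedBall.2
      (le_trans hv ((min_le_left _ _).trans (hs0' a)))⟩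
    refine connIn_mono subset_rfl ?_ (hC.carry (C1 a) (fun y hy => (hC1 a hy).1) (hC1p a) u v
      hu' hv')
    rintro w ⟨y, hy, hwy⟩
    have h3 := mem_closedBall.1 (hC1 a hy).2
    show dist (gv w) (L.pt a) ≤ r2
    refine (dist_triangle _ y _).trans ?_
    linarith
  · intro r a ha
    refine ⟨vn a, ⟨hvnB r a ha, ?_⟩, (hvn a).trans hδr1⟩
    exact hC.carry (W r) (hWS r) (hWp r) _ _ (hvnW r _ (hndm r)) (hvnW r a ha)
  · intro a b hab
    rw [Set.disjoint_left]
    intro v hv hv'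
    have h3 : dist (gv v) (L.pt a) ≤ r2 := hv
    have h4 : dist (gv v) (L.pt b) ≤ r2 := hv'
    have h5 := dist_triangle_left (L.pt a) (L.pt b) (gv v)
    linarith [h1 a b hab]
  · intro r a har
    rw [Set.disjoint_left]
    rintro v ⟨hv, -⟩ hv'
    obtain ⟨z, hz, hvz⟩ := hBnear r v hv
    have h4 : dist (gv v) (L.pt a) ≤ r2 := hv'
    have h5 := dist_triangle_left (L.pt a) z (gv v)
    have h6 := min_le_right δ1 r2
    linarith [h2 a r har z hz]
  · rintro r r' hrr v ⟨hv, -⟩ ⟨hv', -⟩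
    obtain ⟨z, hz, hvz⟩ := hBnear r v hv
    obtain ⟨z', hz', hvz'⟩ := hBnear r' v hv'
    exact hyy r r' hrr (gv v) (hC.mem v) ⟨z, hz, hvz.trans (min_le_left _ _)⟩
      ⟨z', hz', hvz'.trans (min_le_left _ _)⟩
  · rintro r v ⟨hv, -⟩
    obtain ⟨z, hz, hvz⟩ := hBnear r v hv
    exact ⟨z, hz, hvz.trans ((min_le_right _ _).trans hr2ρ)⟩
  · intro a v hv
    exact le_trans hv hr2ρ

end Crest.Agent.R096.Spp_333
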