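import Crest.Agent.R096.Spp3_333

/-!
# R096 (row 96), DOORS / SPH (helper333), part 4: closeness of the faces

`exists_close`: if the embedded graph is near the realisation `L`, then every vertex of the region
of the face `x` lies near the disc of `x`.
-/

set_option autoImplicit false

open Set Metric

namespace Crest.Agent.R096.Spp_333

open Crest.Agent.R096.Sph_560 Crest.Agent.R096.Ce_537

variable {F : Type*} [NormedAddCommGroup F] [NormedSpace ℝ F]
variable {N R X : Type*} {G : Cub N R X} {Sg : Set F}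

/-- a point near all the edges of a node is near the node -/
theorem near_node [Finite N] [Finite R] [Finite X] (L : Lay G Sg) {σ : ℝ} (hσ : 0 < σ) :
    ∃ ρ > 0, ∀ b, ∀ y ∈ Sg, (∀ r, b ∈ G.ends r → ∃ z ∈ L.arc r, dist y z ≤ ρ) →
      dist y (L.pt b) ≤ σ := by
  have hSgc := isCompact_Sg L
  have key : ∀ b, ∃ ρ > 0, ∀ y ∈ Sg, (∀ r, b ∈ G.ends r → ∃ z ∈ L.arc r, dist y z ≤ ρ) →
      dist y (L.pt b) ≤ σ := by
    intro b
    obtain ⟨r, r', hr, hr', hrr⟩ : ∃ r r', b ∈ G.ends r ∧ b ∈ G.ends r' ∧ r ≠ r' := by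
      have h3 := G.three b
      have : 1 < {r | b ∈ G.ends r}.ncard := by rw [h3]; decide
      obtain ⟨r, hr, r', hr', h⟩ := (Set.one_lt_ncard (finite_at G b)).1 this
      exact ⟨r, r', hr, hr', h⟩
    obtain ⟨ρ, hρ, h⟩ := near_inter hSgc (L.arc_ball r).isCompact.isClosed
      (L.arc_ball r').isCompact.isClosed (U := ball (L.pt b) σ) isOpen_ball (by
        rintro y ⟨hy, hy'⟩
        obtain ⟨a, ha, rfl⟩ := L.arc_arc r r' hrr y hy hy'
        have ha' := L.pt_arc a r' hy'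
        by_cases hab : a = b
        · rw [hab]; exact mem_ball_self hσ
        · exfalso
          apply hrr
          apply G.multi
          rw [(Sym2.mem_and_mem_iff hab).1 ⟨ha, hr⟩, (Sym2.mem_and_mem_iff hab).1 ⟨ha', hr'⟩])
    exact ⟨ρ, hρ, fun y hy h' => (mem_ball.1 (h y hy (h' r hr) (h' r' hr'))).le⟩
  choose ρ hρ h using key
  obtain ⟨ρ0, hρ0, h0⟩ := exists_pos_le ρ hρ
  refine ⟨ρ0, hρ0, fun b y hy h' => h b y hy fun r hr => ?_⟩
  obtain ⟨z, hz, hyz⟩ := h' r hr
  exact ⟨z, hz, hyz.trans (h0 b)⟩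

/-- **CLOSE** -/
theorem exists_close [Finite N] [Finite R] [Finite X] (L : Lay G Sg) {η : ℝ} (hη : 0 < η) :
    ∃ ρ > 0, ∃ δ₀ > 0, ∀ {V E T : Type*} [Fintype E] (S : Surf V E T) (gv : V → F),
      Carry S gv Sg δ₀ → ∀ M : Emb S G, (∀ r, ∀ v ∈ M.vs r, ∃ z ∈ L.arc r, dist (gv v) z ≤ ρ) →
      ∀ x f, M.w x f = 1 → ∀ e, S.On f e → ∀ v ∈ S.ends e, ∃ z ∈ L.disc x, dist (gv v) z ≤ η := by
  classical
  -- nodes off a face
  obtain ⟨η1, hη1, h1⟩ : ∃ η1 > 0, ∀ b x, (∀ r ∈ G.bd x, b ∉ G.ends r) →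
      ∀ z ∈ L.disc x, η1 ≤ dist (L.pt b) z := by
    have key : ∀ q : N × X, ∃ d > 0, (∀ r ∈ G.bd q.2, q.1 ∉ G.ends r) →
        ∀ z ∈ L.disc q.2, d ≤ dist (L.pt q.1) z := by
      rintro ⟨b, x⟩
      by_cases h : ∀ r ∈ G.bd x, b ∉ G.ends r
      · obtain ⟨d, hd, h'⟩ := pos_dist (A := {L.pt b}) isCompact_singleton
          (L.disc_ball x).isCompact.isClosed (by
            rw [Set.disjoint_singleton_left]
            exact pt_notMem_disc L h)
        exact ⟨d, hd, fun _ z hz => h' _ rfl z hz⟩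
      · exact ⟨1, one_pos, fun h' => absurd h' h⟩
    choose d hd h using key
    obtain ⟨d0, hd0, h0⟩ := exists_pos_le d hd
    exact ⟨d0, hd0, fun b x hb z hz => (h0 (b, x)).trans (h (b, x) hb z hz)⟩
  set η' := min η η1 with hη'
  have hη'pos : 0 < η' := by positivity
  -- connected sets off the faces
  have key : ∀ q : X × X, ∃ C : Set F, ∃ d > 0, q.2 ≠ q.1 →
      (∀ y ∈ L.disc q.2, (∀ z ∈ L.disc q.1, η' ≤ dist y z) → y ∈ C) ∧ C ⊆ L.disc q.2 ∧
      IsPreconnected C ∧ ∀ y ∈ C, ∀ z ∈ L.disc q.1, d ≤ dist y z := by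
    rintro ⟨x, x'⟩
    by_cases hne : x' = x
    · exact ⟨∅, 1, one_pos, fun h => absurd hne h⟩
    · set A := {y | y ∈ L.disc x' ∧ ∀ z ∈ L.disc x, η' ≤ dist y z} with hA
      have hAc : IsCompact A := by
        have hcl : IsClosed {y : F | ∀ z ∈ L.disc x, η' ≤ dist y z} := by
          have : {y : F | ∀ z ∈ L.disc x, η' ≤ dist y z} =
              ⋂ z ∈ L.disc x, {y | η' ≤ dist y z} := by ext; simp
          rw [this]
          exact isClosed_biInter fun z _ =>
            isClosed_le continuous_const (continuous_id.dist continuous_const)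
        exact (L.disc_ball x').isCompact.inter_right hcl
      have hAd : Disjoint A (L.disc x) := by
        rw [Set.disjoint_left]
        rintro y ⟨-, hy⟩ hy'
        have := hy y hy'
        rw [dist_self] at this
        linarith
      obtain ⟨C, hC1, hC2, hC3, hC4, hC5⟩ := star_set L hne hAc (fun y hy => hy.1) hAd
      obtain ⟨d, hd, h⟩ := pos_dist hC4 (L.disc_ball x).isCompact.isClosed hC5
      exact ⟨C, d, hd, fun _ => ⟨fun y hy hy' => hC1 ⟨hy, hy'⟩, hC2, hC3, h⟩⟩
  choose C d hd hCd using key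
  obtain ⟨d0, hd0, hd0'⟩ := exists_pos_le d hd
  have key2 := fun b => lc L (pt_mem_Sg L b) (show (0 : ℝ) < η' / 2 by positivity)
  choose t1 ht1 C2 hC2 hC2p hC2s hC2a using key2
  obtain ⟨σ, hσ, hσ'⟩ := exists_pos_le t1 ht1
  obtain ⟨ρ1, hρ1, hnode⟩ := near_node L hσ
  set m := min d0 (η' / 2) with hm
  have hmpos : 0 < m := by positivity
  refine ⟨min ρ1 (m / 3), by positivity, m / 3, by positivity, ?_⟩
  intro V E T _ S gv hC M hM x f hf e hfe v hv
  by_contra hcon
  push Not at hcon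
  -- the face of `gv v`
  obtain ⟨x', hx'⟩ : ∃ x', gv v ∈ L.disc x' := by
    have h := hC.mem v
    rw [L.cov] at h
    exact mem_iUnion.1 h
  have hne : x' ≠ x := by
    rintro rfl
    have := hcon _ hx'
    rw [dist_self] at this
    linarith
  obtain ⟨r0, hr0, hr0'⟩ := exists_out_edge G hne
  obtain ⟨b, hb, hbx⟩ := exists_free_end G hr0'
  obtain ⟨hA, hCsub, hCp, hCdist⟩ := hCd (x, x') hne
  -- the connected set
  have hvC : gv v ∈ C (x, x') := hA _ hx' fun z hz =>
    (min_le_left _ _).trans (hcon z hz).le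
  have hbC : L.pt b ∈ C (x, x') := hA _ (L.arc_sub_disc hr0 (L.pt_mem_arc hb)) fun z hz =>
    (min_le_right _ _).trans (h1 b x hbx z hz)
  have hMb : gv (M.pt b) ∈ C2 b := by
    refine hC2s b ⟨hC.mem _, mem_closedBall.2 (le_trans ?_ (hσ' b))⟩
    refine hnode b _ (hC.mem _) fun r hr => ?_
    obtain ⟨z, hz, hyz⟩ := hM r _ (M.ends_mem r b hr)
    exact ⟨z, hz, hyz.trans (min_le_left _ _)⟩
  have hpre : IsPreconnected (C (x, x') ∪ C2 b) :=
    IsPreconnected.union (L.pt b) hbC (hC2a b) hCp (hC2p b)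
  have hsub : C (x, x') ∪ C2 b ⊆ Sg :=
    union_subset (hCsub.trans (disc_sub L x')) fun y hy => (hC2 b hy).1
  have hcar := hC.carry _ hsub hpre v (M.pt b) (Or.inl hvC) (Or.inr hMb)
  have hm3 : (0 : ℝ) ≤ m / 3 := by positivity
  have hz := w_path M (x := x) ?_ hcar ⟨_, Or.inr hMb, by rw [dist_self]; exact hm3⟩ hr0'
    (M.ends_mem r0 b hb)
  · have := hz e hv f hfe
    rw [this] at hf
    exact absurd hf (by decide)
  · rintro w ⟨y, hy, hwy⟩ r hr hwr
    obtain ⟨z, hz, hwz⟩ := hM r w hwr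
    have hzx : z ∈ L.disc x := L.arc_sub_disc hr hz
    have hwz' : dist (gv w) z ≤ m / 3 := hwz.trans (min_le_right _ _)
    have hyz : dist y z ≤ m / 3 + m / 3 := by
      refine (dist_triangle_left y z (gv w)).trans ?_
      linarith
    rcases hy with hy | hy
    · have h3 := hCdist y hy z hzx
      have h4 := hd0' (x, x')
      have h5 : m ≤ d0 := min_le_left _ _
      linarith
    · have h3 := h1 b x hbx z hzx
      have h4 := mem_closedBall.1 (hC2 b hy).2
      have h5 : m ≤ η' / 2 := min_le_right _ _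
      have h6 : η' ≤ η1 := min_le_right _ _
      have h7 := dist_triangle_left (L.pt b) z y
      linarith

end Crest.Agent.R096.Spp_333
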