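import Crest.Agent.R096.Tgr4_335

/-!
# Crossing edges at the corners of a tile

* `exists_crs`: at an extreme point of a tile, every cell which leaves the tile contains a crossing
  edge of the tile which starts at the point.
* `two_crs`: two crossing edges which start at corners whose distance is more than half of the
  diameter of the tile.
-/

set_option autoImplicit false
set_option linter.unusedSectionVars false

open Set Metric Topology Filter

namespace Crest.Agent.R096.Spr_113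

open Crest.Agent.R096.Msh_715 Crest.Agent.R096.Tgr_335

variable {E : Type*} [NormedAddCommGroup E] [NormedSpace ℝ E] [FiniteDimensional ℝ E]
variable {Om : Set E} {ι : Type*} {T : Tiling Om ι} {i : ι}

/-- a functional which is positive on a cell seen from a corner of the cell -/
theorem exists_pos_functional {y v : E} (hy : y ∈ Om) (hv : v ∈ T.cc y)
    (hext : ∀ z, v + z ∈ T.cc y → v - z ∈ T.cc y → z = 0) :
    ∃ h : E →L[ℝ] ℝ, ∀ z, v + z ∈ T.cc y → z ≠ 0 → 0 < h z := by
  classical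
  set H := (T.at_finite hy).toFinset.biUnion T.H with hH
  have hmem : ∀ g : (E →L[ℝ] ℝ) × ℝ, g ∈ H ↔ ∃ q ∈ T.at_ y, g ∈ T.H q := by
    intro g; simp [hH]
  have hcc : ∀ x, x ∈ T.cc y ↔ ∀ g ∈ H, g.1 x ≤ g.2 ∧ (g.1 y = g.2 → g.1 x = g.2) := by
    intro x
    constructor
    · intro hx g hg
      obtain ⟨q, hq, hgq⟩ := (hmem g).1 hg
      exact hx q hq g hgq
    · intro hx q hq g hg
      exact hx g ((hmem g).2 ⟨q, hq, hg⟩)
  set K := H.filter fun g => g.1 v = g.2 with hK
  refine ⟨-∑ g ∈ K, g.1, fun z hz hz0 => ?_⟩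
  have hle : ∀ g ∈ K, g.1 z ≤ 0 := by
    intro g hg
    rw [hK, Finset.mem_filter] at hg
    have h1 := ((hcc _).1 hz g hg.1).1
    rw [map_add, hg.2] at h1
    linarith
  have hsum : (-∑ g ∈ K, g.1) z = -∑ g ∈ K, g.1 z := by simp
  rw [hsum]
  by_contra hcon
  have hs0 : ∑ g ∈ K, g.1 z = 0 := by
    have := Finset.sum_nonpos hle
    linarith
  have hz00 : ∀ g ∈ K, g.1 z = 0 := (Finset.sum_eq_zero_iff_of_nonpos hle).1 hs0
  -- small multiples in both directions
  have key : ∀ w : E, (∀ g ∈ K, g.1 w = 0) → ∀ᶠ s in 𝓝[>] (0 : ℝ), v + s • w ∈ T.cc y := by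
    intro w hw
    have h1 : ∀ g ∈ H, ∀ᶠ s in 𝓝[>] (0 : ℝ), g.1 (v + s • w) ≤ g.2 ∧
        (g.1 y = g.2 → g.1 (v + s • w) = g.2) := by
      intro g hg
      have hgv := (hcc v).1 hv g hg
      by_cases e : g.1 v = g.2
      · have hgK : g ∈ K := by rw [hK, Finset.mem_filter]; exact ⟨hg, e⟩
        refine Eventually.of_forall fun s => ?_
        rw [map_add, map_smul, hw g hgK, smul_zero, add_zero, e]
        exact ⟨le_refl _, fun _ => rfl⟩
      · have hlt : g.1 v < g.2 := lt_of_le_of_ne hgv.1 e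
        have hc : Tendsto (fun s : ℝ => g.1 (v + s • w)) (𝓝 0) (𝓝 (g.1 (v + (0 : ℝ) • w))) := by
          apply Continuous.tendsto
          fun_prop
        rw [zero_smul, add_zero] at hc
        have h2 := (hc.eventually (gt_mem_nhds hlt)).filter_mono
          (nhdsWithin_le_nhds (s := Ioi (0 : ℝ)))
        filter_upwards [h2] with s hs
        exact ⟨le_of_lt hs, fun ey => absurd (hgv.2 ey) e⟩
    have h3 : ∀ᶠ s in 𝓝[>] (0 : ℝ), ∀ g ∈ H, g.1 (v + s • w) ≤ g.2 ∧
        (g.1 y = g.2 → g.1 (v + s • w) = g.2) := by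
      rw [Finset.eventually_all]
      exact h1
    filter_upwards [h3] with s hs
    exact (hcc _).2 hs
  have k1 := key z hz00
  have k2 := key (-z) (fun g hg => by rw [map_neg, hz00 g hg, neg_zero])
  obtain ⟨s, ⟨hs1, hs2⟩, hs0'⟩ := ((k1.and k2).and self_mem_nhdsWithin).exists
  have hs0'' : (0 : ℝ) < s := hs0'
  have := hext (s • z) hs1 (by rw [sub_eq_add_neg, ← smul_neg]; exact hs2)
  rcases smul_eq_zero.1 this with h | h
  · exact hs0''.ne' h
  · exact hz0 h

/-- **at a corner of a tile every cell which leaves the tile has an edge which leaves the tile** -/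
theorem exists_crs {v : E} (hv : v ∈ (P (T.H i)).extremePoints ℝ) {y : E} (hy : y ∈ Om)
    (hvy : v ∈ T.cc y) (hn : y ∉ P (T.H i)) : ∃ e ∈ T.cc y, Crs T i e ∧ v ∈ T.cc e := by
  have hvP : v ∈ P (T.H i) := hv.1
  have hvO : v ∈ Om := T.sub i hvP
  have hv0 : T.dim v = 0 := by
    by_contra hd
    have hne : T.V v ≠ ⊥ := fun h => hd (T.dim_eq_zero_iff.2 h)
    obtain ⟨d, hdV, hd0⟩ := Submodule.exists_mem_ne_zero_of_ne_bot hne
    obtain ⟨r, hr, hb⟩ := T.exists_ball_oc hvO
    have hnn : 0 < ‖d‖ := norm_pos_iff.2 hd0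
    set t : ℝ := r / (2 * ‖d‖) with ht
    have ht0 : 0 < t := by positivity
    have hnt : ‖t • d‖ < r := by
      rw [norm_smul, Real.norm_of_nonneg ht0.le, ht]
      have : r / (2 * ‖d‖) * ‖d‖ = r / 2 := by field_simp
      rw [this]; linarith
    have h1 : v + t • d ∈ P (T.H i) := T.cc_sub_tile (x := v) hvP
      (T.oc_sub_cc v (hb _ ((T.V v).smul_mem _ hdV) hnt))
    have h2 : v + -(t • d) ∈ P (T.H i) := by
      refine T.cc_sub_tile (x := v) hvP (T.oc_sub_cc v (hb _ ?_ ?_))
      · exact (T.V v).neg_mem ((T.V v).smul_mem _ hdV)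
      · rw [norm_neg]; exact hnt
    have h3 : v ∈ openSegment ℝ (v + t • d) (v + -(t • d)) := by
      refine ⟨1 / 2, 1 / 2, by norm_num, by norm_num, by norm_num, ?_⟩
      module
    have h4 := hv.2 h1 h2 h3
    have h5 : t • d = 0 := by
      have : v + t • d = v + 0 := by rw [add_zero]; exact h4
      exact add_left_cancel this
    rcases smul_eq_zero.1 h5 with h6 | h6
    · exact ht0.ne' h6
    · exact hd0 h6
  induction hd : T.dim y using Nat.strong_induction_on generalizing y with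
  | _ d ih =>
  rcases Nat.lt_or_ge d 2 with h2 | h2
  · rcases Nat.eq_zero_or_pos d with h0 | h0
    · have h1 := T.cc_eq_singleton (T.dim_eq_zero_iff.1 (hd.trans h0))
      rw [h1, mem_singleton_iff] at hvy
      exact absurd (hvy ▸ hvP) hn
    · exact ⟨y, T.self_mem_cc y, ⟨hy, by omega, hn, v, hvy, hvP⟩, hvy⟩
  by_contra hcon
  -- nearby boundary points are in the tile
  have hev := T.eventually_mem_cc hvO
  obtain ⟨r, hr, hb⟩ := Metric.eventually_nhds_iff_ball.1 hev
  have hin : ∀ p ∈ T.cc y, p ∉ T.oc y → p ∈ ball v r → p ∈ P (T.H i) := by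
    intro p hp hpo hpr
    by_contra hpn
    obtain ⟨e, he, h3, h4⟩ := ih (T.dim p) (hd ▸ T.dim_lt hp hpo) (T.cc_sub_Om hy hp)
      (hb p hpr).2 hpn rfl
    exact hcon ⟨e, T.cc_sub_of_mem hp he, h3, h4⟩
  have hvo : v ∉ T.oc y := by
    intro h
    have := T.dim_eq_of_mem_oc hy h
    omega
  have hdis := disjoint_oc T hy hn
  -- small multiples
  have hsm : ∀ z : E, ∀ᶠ s in 𝓝[>] (0 : ℝ), v + s • z ∈ ball v r := by
    intro z
    have hc : Tendsto (fun s : ℝ => v + s • z) (𝓝 0) (𝓝 (v + (0 : ℝ) • z)) := by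
      apply Continuous.tendsto
      fun_prop
    rw [zero_smul, add_zero] at hc
    exact (hc.eventually (ball_mem_nhds v hr)).filter_mono nhdsWithin_le_nhds
  have hlt1 : ∀ᶠ s in 𝓝[>] (0 : ℝ), s < 1 :=
    (gt_mem_nhds (zero_lt_one' ℝ)).filter_mono nhdsWithin_le_nhds
  -- `v` is a corner of the cell
  have hext : ∀ z, v + z ∈ T.cc y → v - z ∈ T.cc y → z = 0 := by
    intro z h3 h4
    obtain ⟨s, ⟨⟨hs1, hs2⟩, hs3⟩, hs0⟩ :=
      (((hsm z).and (hsm (-z))).and hlt1 |>.and self_mem_nhdsWithin).exists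
    have hs0 : (0 : ℝ) < s := hs0
    have hmem : ∀ z : E, v + z ∈ T.cc y → v + s • z ∈ T.cc y := by
      intro z hz
      have := T.convex_cc y hvy hz (sub_nonneg.2 hs3.le) hs0.le (by ring)
      convert this using 1
      module
    have m1 := hmem z h3
    have m2 := hmem (-z) (by rw [← sub_eq_add_neg]; exact h4)
    have key : ∀ z : E, v + z ∈ T.cc y → v + -z ∈ T.cc y → v + z ∉ T.oc y := by
      intro z h5 h6 h7
      apply hvo
      have h8 : T.cc (v + z) = T.cc y := T.cc_eq_of_mem_oc hy h7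
      have h9 := T.move_mem_oc (x := v + z) (y := v + -z) (by rw [h8]; exact h6)
        (s := 1 / 2) (by norm_num) (by norm_num)
      have e : v + -z + (1 / 2 : ℝ) • (v + z - (v + -z)) = v := by module
      rw [e, T.oc_eq_of_mem hy h7] at h9
      exact h9
    have p1 := hin _ m1 (key _ m1 (by rw [← smul_neg]; exact m2)) hs1
    have p2 := hin _ m2 (key _ m2 (by rw [← smul_neg, neg_neg]; exact m1)) hs2
    have h5 : v ∈ openSegment ℝ (v + s • z) (v + s • (-z)) := by
      refine ⟨1 / 2, 1 / 2, by norm_num, by norm_num, by norm_num, ?_⟩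
      module
    have h6 := hv.2 p1 p2 h5
    have h7 : s • z = 0 := by
      have : v + s • z = v + 0 := by rw [add_zero]; exact h6
      exact add_left_cancel this
    rcases smul_eq_zero.1 h7 with h8 | h8
    · exact absurd h8 hs0.ne'
    · exact h8
  obtain ⟨h, hh⟩ := exists_pos_functional hy hvy hext
  -- a direction in the kernel
  obtain ⟨w, hwV, hw0, hwh⟩ : ∃ w ∈ T.V y, w ≠ 0 ∧ h w = 0 := by
    have hfr : Module.finrank ℝ (T.V y) = d := hd
    have hlt : Module.finrank ℝ ℝ < Module.finrank ℝ (T.V y) := by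
      rw [hfr, Module.finrank_self]; omega
    obtain ⟨w, hw, hw0⟩ := Submodule.exists_mem_ne_zero_of_ne_bot
      (LinearMap.ker_ne_bot_of_finrank_lt (f := (h : E →ₗ[ℝ] ℝ).comp (T.V y).subtype) hlt)
    refine ⟨w, w.2, fun e => hw0 (Subtype.ext e), ?_⟩
    exact hw
  have hnot : ∀ t : ℝ, t ≠ 0 → v + t • w ∉ T.cc y := by
    intro t ht hc
    have h3 := hh _ hc (smul_ne_zero ht hw0)
    rw [map_smul, hwh, smul_zero] at h3
    exact lt_irrefl _ h3
  -- exit points near `v`
  have hwn : 0 < ‖w‖ := norm_pos_iff.2 hw0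
  set δ : ℝ := r / (2 * ‖w‖) with hδ
  have hδ0 : 0 < δ := by positivity
  have hsmall : ∀ t : ℝ, t ≠ 0 → ∀ᶠ s in 𝓝[>] (0 : ℝ), v + s • (y - v) + t • w ∉ T.cc y := by
    intro t ht
    have hc : Tendsto (fun s : ℝ => v + s • (y - v) + t • w) (𝓝 0)
        (𝓝 (v + (0 : ℝ) • (y - v) + t • w)) := by
      apply Continuous.tendsto
      fun_prop
    rw [zero_smul, add_zero] at hc
    exact (hc.eventually ((T.isClosed_cc y).isOpen_compl.mem_nhds (hnot t ht))).filter_mono
      nhdsWithin_le_nhds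
  have hnear : ∀ᶠ s in 𝓝[>] (0 : ℝ), ‖s • (y - v)‖ < r / 2 := by
    have hc : Tendsto (fun s : ℝ => ‖s • (y - v)‖) (𝓝 0) (𝓝 ‖(0 : ℝ) • (y - v)‖) := by
      apply Continuous.tendsto
      fun_prop
    rw [zero_smul, norm_zero] at hc
    exact (hc.eventually (gt_mem_nhds (by positivity : (0 : ℝ) < r / 2))).filter_mono
      nhdsWithin_le_nhds
  obtain ⟨s, ⟨⟨⟨hs1, hs2⟩, hs3⟩, hs4⟩, hs0⟩ :=
    (((hsmall δ hδ0.ne').and (hsmall (-δ) (neg_ne_zero.2 hδ0.ne'))).and hnear
      |>.and hlt1 |>.and self_mem_nhdsWithin).exists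
  have hs0 : (0 : ℝ) < s := hs0
  set x := v + s • (y - v) with hx
  have hxo : x ∈ T.oc y := T.move_mem_oc hvy hs0 hs4.le
  have hxO : x ∈ Om := T.cc_sub_Om hy (T.oc_sub_cc _ hxo)
  have hccx : T.cc x = T.cc y := T.cc_eq_of_mem_oc hy hxo
  have hocx : T.oc x = T.oc y := T.oc_eq_of_mem hy hxo
  have hVx : T.V x = T.V y := T.V_eq_of_mem_oc hy hxo
  have hexit : ∀ w' : E, w' ∈ T.V y → w' ≠ 0 → ‖w'‖ = ‖w‖ → x + δ • w' ∉ T.cc y →
      ∃ t : ℝ, 0 < t ∧ x + t • w' ∈ P (T.H i) := by
    intro w' hw' hw0' hn' hno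
    obtain ⟨t, ht, h3, h4, h5⟩ := T.exists_exit hxO (by rw [hVx]; exact hw') hw0'
    rw [hccx] at h3
    rw [hocx] at h4
    have htδ : t < δ := by
      by_contra hle
      rw [not_lt] at hle
      apply hno
      rcases eq_or_lt_of_le hle with e | hlt
      · rw [e]; exact h3
      · have := h5 δ hδ0.le hlt
        rw [hocx] at this
        exact T.oc_sub_cc _ this
    refine ⟨t, ht, hin _ h3 h4 ?_⟩
    rw [mem_ball, dist_eq_norm]
    have e : x + t • w' - v = s • (y - v) + t • w' := by rw [hx]; abel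
    rw [e]
    have h6 : ‖t • w'‖ ≤ r / 2 := by
      rw [norm_smul, Real.norm_of_nonneg ht.le, hn']
      calc t * ‖w‖ ≤ δ * ‖w‖ := mul_le_mul_of_nonneg_right htδ.le hwn.le
        _ = r / 2 := by rw [hδ]; field_simp
    calc ‖s • (y - v) + t • w'‖ ≤ ‖s • (y - v)‖ + ‖t • w'‖ := norm_add_le _ _
      _ < r / 2 + r / 2 := by linarith
      _ = r := by ring
  obtain ⟨t1, ht1, q1⟩ := hexit w hwV hw0 rfl hs1
  obtain ⟨t2, ht2, q2⟩ := hexit (-w) ((T.V y).neg_mem hwV) (neg_ne_zero.2 hw0) (norm_neg w)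
    (by rw [smul_neg, ← neg_smul]; exact hs2)
  have hxP : x ∈ P (T.H i) := by
    have hab : t2 / (t1 + t2) + t1 / (t1 + t2) = 1 := by field_simp; ring
    have this := convex_P (T.H i) q1 q2 (a := t2 / (t1 + t2)) (b := t1 / (t1 + t2))
      (by positivity) (by positivity) hab
    have e2 : t2 / (t1 + t2) * t1 = t1 / (t1 + t2) * t2 := by ring
    have e : (t2 / (t1 + t2)) • (x + t1 • w) + (t1 / (t1 + t2)) • (x + t2 • -w) =
        (t2 / (t1 + t2) + t1 / (t1 + t2)) • x +
          (t2 / (t1 + t2) * t1 - t1 / (t1 + t2) * t2) • w := by module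
    rw [e, hab, e2, sub_self, one_smul, zero_smul, add_zero] at this
    exact this
  exact disjoint_left.1 hdis hxP hxo

/-- at every corner of a tile a crossing edge starts -/
theorem exists_crs_corner [Nontrivial E] {v : E} (hv : v ∈ (P (T.H i)).extremePoints ℝ) :
    ∃ e, Crs T i e ∧ v ∈ T.cc e := by
  have hvP : v ∈ P (T.H i) := hv.1
  have hvO : v ∈ Om := T.sub i hvP
  have hev := T.eventually_mem_cc hvO
  by_cases hint : ∀ᶠ y in 𝓝 v, y ∈ P (T.H i)
  · exfalso
    obtain ⟨r, hr, hb⟩ := Metric.eventually_nhds_iff_ball.1 hint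
    obtain ⟨d, hd0⟩ := exists_ne (0 : E)
    have hnn : 0 < ‖d‖ := norm_pos_iff.2 hd0
    set t : ℝ := r / (2 * ‖d‖) with ht
    have ht0 : 0 < t := by positivity
    have hnt : ‖t • d‖ < r := by
      rw [norm_smul, Real.norm_of_nonneg ht0.le, ht]
      have : r / (2 * ‖d‖) * ‖d‖ = r / 2 := by field_simp
      rw [this]; linarith
    have h1 : v + t • d ∈ P (T.H i) := hb _ (by rw [mem_ball, dist_eq_norm, add_sub_cancel_left]
                                                exact hnt)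
    have h2 : v + -(t • d) ∈ P (T.H i) := hb _ (by
      rw [mem_ball, dist_eq_norm, add_sub_cancel_left, norm_neg]; exact hnt)
    have h3 : v ∈ openSegment ℝ (v + t • d) (v + -(t • d)) := by
      refine ⟨1 / 2, 1 / 2, by norm_num, by norm_num, by norm_num, ?_⟩
      module
    have h4 := hv.2 h1 h2 h3
    have h5 : t • d = 0 := by
      have : v + t • d = v + 0 := by rw [add_zero]; exact h4
      exact add_left_cancel this
    rcases smul_eq_zero.1 h5 with h6 | h6
    · exact ht0.ne' h6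
    · exact hd0 h6
  · rw [Filter.not_eventually] at hint
    obtain ⟨y, hyn, hyO, hvy⟩ := (hint.and_eventually hev).exists
    obtain ⟨e, -, h1, h2⟩ := exists_crs hv hyO hvy hyn
    exact ⟨e, h1, h2⟩

/-- two corners whose distance is more than half of the diameter -/
theorem two_corners {K : Set E} (hK : IsCompact K) (hc : Convex ℝ K) (hd : 0 < diam K) :
    ∃ v ∈ K.extremePoints ℝ, ∃ w ∈ K.extremePoints ℝ, diam K / 2 < dist v w := by
  by_contra hcon
  push Not at hcon
  have h1 : diam K ≤ diam K / 2 := by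
    conv_lhs => rw [← closure_convexHull_extremePoints hK hc, Metric.diam_closure,
      convexHull_diam]
    exact Metric.diam_le_of_forall_dist_le (by positivity) hcon
  linarith

/-- **two crossing edges which start far from each other** -/
theorem two_crs [Nontrivial E] (T : Tiling Om ι) (i : ι) :
    ∃ v ∈ P (T.H i), ∃ w ∈ P (T.H i), diam (P (T.H i)) / 2 < dist v w ∧
      (∃ e, Crs T i e ∧ v ∈ T.cc e) ∧ ∃ e, Crs T i e ∧ w ∈ T.cc e := by
  have hd : 0 < diam (P (T.H i)) := by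
    obtain ⟨z, hz⟩ := T.ne i
    obtain ⟨r, hr, hb⟩ := Metric.isOpen_iff.1 (isOpen_I (T.H i)) z hz
    obtain ⟨d, hd0⟩ := exists_ne (0 : E)
    have hnn : 0 < ‖d‖ := norm_pos_iff.2 hd0
    set t : ℝ := r / (2 * ‖d‖) with ht
    have ht0 : 0 < t := by positivity
    have hnt : ‖t • d‖ < r := by
      rw [norm_smul, Real.norm_of_nonneg ht0.le, ht]
      have : r / (2 * ‖d‖) * ‖d‖ = r / 2 := by field_simp
      rw [this]; linarith
    have h1 : z + t • d ∈ P (T.H i) := I_sub_P _ (hb (by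
      rw [mem_ball, dist_eq_norm, add_sub_cancel_left]; exact hnt))
    have h2 := Metric.dist_le_diam_of_mem (T.cpt i).isBounded h1 (I_sub_P _ hz)
    rw [dist_eq_norm, add_sub_cancel_left] at h2
    exact lt_of_lt_of_le (norm_pos_iff.2 (smul_ne_zero ht0.ne' hd0)) h2
  obtain ⟨v, hv, w, hw, h⟩ := two_corners (T.cpt i) (convex_P (T.H i)) hd
  exact ⟨v, hv.1, w, hw.1, h, exists_crs_corner hv, exists_crs_corner hw⟩

/-- a crossing edge meets the tile in one point -/
theorem crs_inter {e v z : E} (he : Crs T i e) (hv : v ∈ T.cc e) (hvP : v ∈ P (T.H i))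
    (hz : z ∈ T.cc e) (hzP : z ∈ P (T.H i)) : z = v := by
  obtain ⟨a, b, e1, ha, hb, haP, hbP⟩ := he.ends
  have hdis := disjoint_oc T he.om he.off
  have key : ∀ z ∈ T.cc e, z ∈ P (T.H i) → z = a := by
    intro z hz hzP
    have hzo : z ∉ T.oc e := fun h => disjoint_left.1 hdis hzP h
    have h0 : T.dim z = 0 := by
      have := T.dim_lt hz hzo
      rw [he.dim] at this
      omega
    rcases T.vertex_of_edge he.om he.dim e1 hz h0 with h | h
    · exact h
    · exact absurd (h ▸ hzP) hbP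
  rw [key z hz hzP, key v hv hvP]

/-- a point of a crossing edge close to the tile (in the gauge) is close to the inner end -/
theorem near_vertex {g : E → ℝ} (hg : ContinuousOn g Om) {t : ℝ}
    (h1 : ∀ x ∈ Om, g x ≤ t → x ∈ P (T.H i)) {ε : ℝ} (hε : 0 < ε) :
    ∃ β > 0, ∀ e, Crs T i e → ∀ v ∈ T.cc e, v ∈ P (T.H i) → ∀ z ∈ T.cc e, g z ≤ t + β →
      dist z v ≤ ε := by
  have key : ∀ k : KT T i, ∃ β > 0, ∀ v ∈ T.cc k.e, v ∈ P (T.H i) → ∀ z ∈ T.cc k.e,
      g z ≤ t + β → dist z v ≤ ε := by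
    intro k
    obtain ⟨v0, hv0, hv0P⟩ := k.crs.meet
    have huniq : ∀ v ∈ T.cc k.e, v ∈ P (T.H i) → v = v0 := fun v hv hvP =>
      crs_inter k.crs hv0 hv0P hv hvP
    set S := T.cc k.e ∩ {z | ε ≤ dist z v0} with hS
    have hSc : IsCompact S := (T.isCompact_cc k.crs.om).inter_right
      (isClosed_le continuous_const (continuous_id.dist continuous_const))
    rcases S.eq_empty_or_nonempty with he | hne
    · refine ⟨1, one_pos, fun v hv hvP z hz _ => ?_⟩
      rw [huniq v hv hvP]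
      by_contra hlt
      have : z ∈ S := ⟨hz, (not_le.1 hlt).le⟩
      rw [he] at this
      exact this
    · have hSO : S ⊆ Om := fun z hz => T.cc_sub_Om k.crs.om hz.1
      obtain ⟨m, hm, hmin⟩ := hSc.exists_isMinOn hne (hg.mono hSO)
      have hm1 : t < g m := by
        by_contra hle
        have h2 := huniq m hm.1 (h1 m (hSO hm) (not_lt.1 hle))
        have h3 : ε ≤ dist m v0 := hm.2
        rw [h2, dist_self] at h3
        linarith
      refine ⟨(g m - t) / 2, by linarith, fun v hv hvP z hz hgz => ?_⟩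
      rw [huniq v hv hvP]
      by_contra hlt
      have h2 : g m ≤ g z := hmin (show z ∈ S from ⟨hz, (not_le.1 hlt).le⟩)
      linarith
  choose β hβ hβ' using key
  obtain ⟨β0, hβ0, hle⟩ : ∃ β0 > 0, ∀ k : KT T i, β0 ≤ β k := by
    rcases isEmpty_or_nonempty (KT T i) with he | hne
    · exact ⟨1, one_pos, fun k => he.elim k⟩
    · obtain ⟨k0, hk0⟩ := Finite.exists_min β
      exact ⟨β k0, hβ k0, hk0⟩
  refine ⟨β0, hβ0, fun e he v hv hvP z hz hgz => ?_⟩
  obtain ⟨k, hk⟩ := KT.exists_of he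
  exact hβ' k v (by rw [hk]; exact hv) hvP z (by rw [hk]; exact hz) (hgz.trans (by
    have := hle k
    linarith))

end Crest.Agent.R096.Spr_113
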