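import Crest.Agent.R096.Sq9_55

/-!
# R096 (row 96), SOBSQ, part 10 (helper55): bi-Lipschitz PL charts; transport of homeomorphisms
and of integral estimates
-/

set_option autoImplicit false

open Set Metric Filter Topology MeasureTheory

namespace Crest.Agent.R096.Sq_55

open Crest.Agent.R096.Ce_537 Crest.Agent.R96.Hole_348
open scoped ENNReal NNReal

/-! ### change of variables -/

/-- Lipschitz images -/
lemma vol_image {d : ℕ} {e : (Fin d → ℝ) → (Fin d → ℝ)} {L : ℝ≥0} {A : Set (Fin d → ℝ)}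
    (h : LipschitzOnWith L e A) : volume (e '' A) ≤ (L : ℝ≥0∞)^d * volume A := by
  have h1 := h.hausdorffMeasure_image_le (d := (Fintype.card (Fin d) : ℝ)) (by positivity)
  rw [hausdorffMeasure_pi_real, ENNReal.rpow_natCast, Fintype.card_fin] at h1
  exact h1

lemma measurable_ext {α β : Type*} [TopologicalSpace α] [MeasurableSpace α] [BorelSpace α]
    [TopologicalSpace β] [MeasurableSpace β] [BorelSpace β] [Inhabited β] {e : α → β} {A : Set α}
    (hA : MeasurableSet A) (he : ContinuousOn e A) :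
    ∃ e₁ : α → β, Measurable e₁ ∧ EqOn e₁ e A := by
  classical
  refine ⟨A.piecewise e fun _ => default, he.measurable_piecewise continuousOn_const hA, ?_⟩
  exact piecewise_eqOn _ _ _

/-- the inequality of change of variables, for arbitrary functions -/
lemma lint_chart {d : ℕ} {e e' : (Fin d → ℝ) → (Fin d → ℝ)} {A A' : Set (Fin d → ℝ)} {L' : ℝ≥0}
    (mA : MeasurableSet A) (mA' : MeasurableSet A') (ce : ContinuousOn e A)
    (maps : MapsTo e A A') (inv : ∀ x ∈ A, e' (e x) = x) (lip' : LipschitzOnWith L' e' A')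
    (F : (Fin d → ℝ) → ℝ≥0∞) :
    ∫⁻ x in A, F x ≤ (L' : ℝ≥0∞)^d * ∫⁻ z in A', F (e' z) := by
  obtain ⟨e₁, m1, q1⟩ := measurable_ext mA ce
  obtain ⟨e₂, m2, q2⟩ := measurable_ext mA' lip'.continuousOn
  obtain ⟨g, g1, g2, g3⟩ := exists_measurable_le_lintegral_eq (μ := volume.restrict A) F
  have hν : Measure.map e₁ (volume.restrict A) ≤ ((L' : ℝ≥0∞)^d) • volume.restrict A' := by
    refine Measure.le_iff.2 fun s hs => ?_
    rw [Measure.map_apply m1 hs, Measure.restrict_apply (m1 hs), Measure.smul_apply,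
      Measure.restrict_apply hs, smul_eq_mul]
    refine le_trans (measure_mono ?_) (vol_image (A := s ∩ A') (lip'.mono inter_subset_right))
    rintro x ⟨hx1, hx2⟩
    have h1 : e₁ x = e x := q1 hx2
    have h2 : e₁ x ∈ s := hx1
    rw [h1] at h2
    exact ⟨e x, ⟨h2, maps hx2⟩, inv x hx2⟩
  set Gt : (Fin d → ℝ) → ℝ≥0∞ := A'.indicator fun z => g (e₂ z) with hGt
  have mGt : Measurable Gt := (g1.comp m2).indicator mA'
  calc ∫⁻ x in A, F x = ∫⁻ x in A, g x := g3
    _ = ∫⁻ x in A, Gt (e₁ x) := by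
        refine setLIntegral_congr_fun mA fun x hx => ?_
        have h1 : e₁ x = e x := q1 hx
        show g x = Gt (e₁ x)
        rw [h1, hGt, indicator_of_mem (maps hx), q2 (maps hx), inv x hx]
    _ = ∫⁻ z, Gt z ∂(Measure.map e₁ (volume.restrict A)) := (lintegral_map mGt m1).symm
    _ ≤ ∫⁻ z, Gt z ∂(((L' : ℝ≥0∞)^d) • volume.restrict A') := lintegral_mono' hν le_rfl
    _ = (L' : ℝ≥0∞)^d * ∫⁻ z in A', Gt z := by rw [lintegral_smul_measure, smul_eq_mul]
    _ ≤ (L' : ℝ≥0∞)^d * ∫⁻ z in A', F (e' z) := by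
        refine mul_le_mul' le_rfl (setLIntegral_mono' mA' fun z hz => ?_)
        rw [hGt, indicator_of_mem hz, q2 hz]
        exact g2 _

/-- Lipschitz images of null sets -/
lemma null_image {d : ℕ} {e : (Fin d → ℝ) → (Fin d → ℝ)} {L : ℝ≥0} {A N : Set (Fin d → ℝ)}
    (h : LipschitzOnWith L e A) (hN : volume N = 0) : volume (e '' (A ∩ N)) = 0 := by
  refine le_antisymm ((vol_image (h.mono inter_subset_left)).trans ?_) zero_le
  rw [measure_mono_null inter_subset_right hN, mul_zero]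

/-! ### charts -/

section chart

variable {E E' : Type*} [NormedAddCommGroup E] [NormedSpace ℝ E] [NormedAddCommGroup E']
  [NormedSpace ℝ E']

/-- a bi-Lipschitz PL chart of the closed set `K` (with open part `U`) on the closed model `K'`
(with open part `U'`) -/
structure Cht (K U : Set E) (K' U' : Set E') (e : E → E') (e' : E' → E) (L L' : ℝ≥0) : Prop where
  clK : IsClosed K
  opU : IsOpen U
  sub : U ⊆ K
  clK' : IsClosed K'
  opU' : IsOpen U'
  sub' : U' ⊆ K'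
  maps : MapsTo e K K'
  maps' : MapsTo e' K' K
  inv : ∀ x ∈ K, e' (e x) = x
  inv' : ∀ z ∈ K', e (e' z) = z
  mem : ∀ x ∈ K, (e x ∈ U' ↔ x ∈ U)
  pl : PLOn e K
  pl' : PLOn e' K'
  lip : LipschitzOnWith L e K
  lip' : LipschitzOnWith L' e' K'

variable {K U : Set E} {K' U' : Set E'} {e : E → E'} {e' : E' → E} {L L' : ℝ≥0}

/-- the transported map -/
noncomputable def trf (U : Set E) (e : E → E') (e' : E' → E) (h : E' → E') (x : E) : E :=
  open Classical in if x ∈ U then e' (h (e x)) else x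

lemma trf_in {h : E' → E'} {x : E} (hx : x ∈ U) : trf U e e' h x = e' (h (e x)) := if_pos hx

lemma trf_out {h : E' → E'} {x : E} (hx : x ∉ U) : trf U e e' h x = x := if_neg hx

namespace Cht

variable (c : Cht K U K' U' e e' L L')
include c

lemma mem' {z : E'} (hz : z ∈ K') : e' z ∈ U ↔ z ∈ U' := by
  have := c.mem (e' z) (c.maps' hz)
  rw [c.inv' z hz] at this
  exact this.symm

lemma eU {x : E} (hx : x ∈ U) : e x ∈ U' := (c.mem x (c.sub hx)).2 hx

lemma eU' {z : E'} (hz : z ∈ U') : e' z ∈ U := (c.mem' (c.sub' hz)).2 hz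

lemma symm : Cht K' U' K U e' e L' L where
  clK := c.clK'
  opU := c.opU'
  sub := c.sub'
  clK' := c.clK
  opU' := c.opU
  sub' := c.sub
  maps := c.maps'
  maps' := c.maps
  inv := c.inv'
  inv' := c.inv
  mem _ hz := c.mem' hz
  pl := c.pl'
  pl' := c.pl
  lip := c.lip'
  lip' := c.lip

variable {h : E' → E'}

lemma mapsU (hi : Function.Injective h) (hfix : ∀ z, z ∉ U' → h z = z) {z : E'} (hz : z ∈ U') :
    h z ∈ U' := maps_of_fix hi hfix hz

lemma mapsK (hi : Function.Injective h) (hfix : ∀ z, z ∉ U' → h z = z) {z : E'} (hz : z ∈ K') :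
    h z ∈ K' := by
  by_cases h1 : z ∈ U'
  · exact c.sub' (c.mapsU hi hfix h1)
  · rw [hfix z h1]; exact hz

lemma trf_K (hfix : ∀ z, z ∉ U' → h z = z) {x : E} (hx : x ∈ K) :
    trf U e e' h x = e' (h (e x)) := by
  by_cases h1 : x ∈ U
  · exact trf_in h1
  · rw [trf_out h1, hfix (e x) (fun h2 => h1 ((c.mem x hx).1 h2)), c.inv x hx]

lemma plOn_trf (hpl : PLOn h univ) (hi : Function.Injective h)
    (hfix : ∀ z, z ∉ U' → h z = z) : PLOn (trf U e e' h) univ := by
  have hu : (univ : Set E) = K ∪ Uᶜ := by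
    ext x
    simp only [mem_univ, mem_union, mem_compl_iff, true_iff]
    by_cases h1 : x ∈ U
    · exact Or.inl (c.sub h1)
    · exact Or.inr h1
  rw [hu]
  refine PLOn.union ?_ ?_ c.clK c.opU.isClosed_compl
  · have h1 : PLOn (fun x => e' (h (e x))) K :=
      c.pl'.comp ((hpl.mono (subset_univ K')).comp c.pl c.maps)
        fun x hx => c.mapsK hi hfix (c.maps hx)
    exact h1.congr fun x hx => c.trf_K hfix hx
  · exact (plOn_id _).congr fun x hx => trf_out hx

lemma trf_trf {g : E' → E'} (hi : Function.Injective h) (hfix : ∀ z, z ∉ U' → h z = z)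
    (hg : ∀ z, g (h z) = z) (x : E) : trf U e e' g (trf U e e' h x) = x := by
  by_cases h1 : x ∈ U
  · have h2 := c.mapsU hi hfix (c.eU h1)
    rw [trf_in h1, trf_in (c.eU' h2), c.inv' _ (c.sub' h2), hg, c.inv x (c.sub h1)]
  · rw [trf_out h1, trf_out h1]

/-- the transported homeomorphism -/
lemma exists_homeo (h : E' ≃ₜ E') (h1 : PLOn h univ) (h2 : PLOn h.symm univ)
    (hfix : ∀ z, z ∉ U' → h z = z) :
    ∃ H : E ≃ₜ E, (∀ x, H x = trf U e e' h x) ∧ (∀ x, H.symm x = trf U e e' h.symm x) ∧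
      PLOn H univ ∧ PLOn H.symm univ := by
  have hfix' : ∀ z, z ∉ U' → h.symm z = z := by
    intro z hz
    rw [Homeomorph.symm_apply_eq, hfix z hz]
  have p1 := c.plOn_trf h1 h.injective hfix
  have p2 := c.plOn_trf h2 h.symm.injective hfix'
  refine ⟨{ toFun := trf U e e' h
            invFun := trf U e e' h.symm
            left_inv := c.trf_trf h.injective hfix h.symm_apply_apply
            right_inv := c.trf_trf h.symm.injective hfix' h.apply_symm_apply
            continuous_toFun := continuousOn_univ.1 p1.1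
            continuous_invFun := continuousOn_univ.1 p2.1 }, fun _ => rfl, fun _ => rfl, p1, p2⟩

/-- local Lipschitz constants -/
lemma LLV_trf {x : E} (hx : x ∈ U) {k : ℝ} (hk : 0 ≤ k) (hi : Function.Injective h)
    (hfix : ∀ z, z ∉ U' → h z = z) (hL : LLV k h (e x)) :
    LLV (L' * (k * L)) (trf U e e' h) x := by
  have hxK := c.sub hx
  have h1 : ContinuousAt e x := (c.lip.continuousOn.continuousAt
    (mem_of_superset (c.opU.mem_nhds hx) c.sub))
  filter_upwards [h1.eventually hL, c.opU.mem_nhds hx] with y hy1 hy2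
  have hyK := c.sub hy2
  rw [trf_in hx, trf_in hy2]
  have a1 := c.lip'.dist_le_mul _ (c.mapsK hi hfix (c.maps hyK)) _
    (c.mapsK hi hfix (c.maps hxK))
  have a2 := c.lip.dist_le_mul _ hyK _ hxK
  rw [dist_eq_norm, dist_eq_norm] at a1 a2
  have hL0 : (0:ℝ) ≤ L' := L'.coe_nonneg
  calc ‖e' (h (e y)) - e' (h (e x))‖ ≤ L' * ‖h (e y) - h (e x)‖ := a1
    _ ≤ L' * (k * ‖e y - e x‖) := mul_le_mul_of_nonneg_left hy1 hL0
    _ ≤ L' * (k * (L * ‖y - x‖)) :=
        mul_le_mul_of_nonneg_left (mul_le_mul_of_nonneg_left a2 hk) hL0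
    _ = _ := by ring

end Cht

end chart

/-! ### estimates -/

/-- the energy estimate of the map `h` -/
def Est (p : ℝ) {d : ℕ} (h : (Fin d → ℝ) → (Fin d → ℝ)) (U A B : Set (Fin d → ℝ))
    (a b : ℝ≥0∞) : Prop :=
  ∀ u F : (Fin d → ℝ) → ℝ≥0∞, Measurable u → (∀ᵐ y, u y ≠ ∞) →
    (∀ᵐ x, x ∈ U → ∀ c, 1 ≤ c → LLV c h x → F x ≤ ENNReal.ofReal (c^p) * u (h x)) →
    ∫⁻ x in U, F x ≤ a * (∫⁻ x in A, u x) + b * ∫⁻ x in B, u x

lemma Est.mono {p : ℝ} {d : ℕ} {h : (Fin d → ℝ) → (Fin d → ℝ)} {U A B A' B' : Set (Fin d → ℝ)}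
    {a b : ℝ≥0∞} (H : Est p h U A B a b) (hA : A ⊆ A') (hB : B ⊆ B') : Est p h U A' B' a b := by
  intro u F hu hfin hF
  exact (H u F hu hfin hF).trans (add_le_add (mul_le_mul' le_rfl (lintegral_mono_set hA))
    (mul_le_mul' le_rfl (lintegral_mono_set hB)))

/-- restriction to an invariant set -/
lemma Est.inter {p : ℝ} {d : ℕ} {h : (Fin d → ℝ) → (Fin d → ℝ)} {U A B : Set (Fin d → ℝ)}
    {a b : ℝ≥0∞} (H : Est p h U A B a b) {S : Set (Fin d → ℝ)} (mS : MeasurableSet S)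
    (hS : ∀ x ∈ U, x ∈ S → h x ∈ S) {u F : (Fin d → ℝ) → ℝ≥0∞} (hu : Measurable u)
    (hfin : ∀ᵐ y, u y ≠ ∞)
    (hF : ∀ᵐ x, x ∈ U → ∀ c, 1 ≤ c → LLV c h x → F x ≤ ENNReal.ofReal (c^p) * u (h x)) :
    ∫⁻ x in U ∩ S, F x ≤ a * (∫⁻ x in A ∩ S, u x) + b * ∫⁻ x in B ∩ S, u x := by
  have key := H (S.indicator u) (S.indicator F) (hu.indicator mS) (by
      filter_upwards [hfin] with y hy
      by_cases h1 : y ∈ S
      · rwa [indicator_of_mem h1]
      · rw [indicator_of_notMem h1]; exact ENNReal.zero_ne_top) (by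
      filter_upwards [hF] with x hx hxU c hc hcx
      by_cases h1 : x ∈ S
      · rw [indicator_of_mem h1, indicator_of_mem (hS x hxU h1)]
        exact hx hxU c hc hcx
      · rw [indicator_of_notMem h1]; exact zero_le)
  have e1 : ∀ (V : Set (Fin d → ℝ)) (w : (Fin d → ℝ) → ℝ≥0∞),
      ∫⁻ x in V, S.indicator w x = ∫⁻ x in V ∩ S, w x := by
    intro V w
    rw [lintegral_indicator mS, Measure.restrict_restrict mS, inter_comm]
  rwa [e1, e1, e1] at key

/-- transport of an estimate -/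
lemma Est.trf {p : ℝ} (hp : 0 ≤ p) {d : ℕ} {K U K' U' : Set (Fin d → ℝ)}
    {e e' : (Fin d → ℝ) → (Fin d → ℝ)} {L L' : ℝ≥0} (c : Cht K U K' U' e e' L L')
    (hLL : 1 ≤ L' * L) {h : (Fin d → ℝ) → (Fin d → ℝ)} (hi : Function.Injective h)
    (hfix : ∀ z, z ∉ U' → h z = z) {A B : Set (Fin d → ℝ)} {a b : ℝ≥0∞}
    (mA : MeasurableSet A) (mB : MeasurableSet B) (sA : A ⊆ K') (sB : B ⊆ K')
    (H : Est p h U' A B a b) :
    Est p (trf U e e' h) U (K ∩ e ⁻¹' A) (K ∩ e ⁻¹' B)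
      (ENNReal.ofReal ((L' * L : ℝ)^p) * (L' * L : ℝ≥0∞)^d * a)
      (ENNReal.ofReal ((L' * L : ℝ)^p) * (L' * L : ℝ≥0∞)^d * b) := by
  intro u F hu hfin hF
  have hM : (1:ℝ) ≤ L' * L := by exact_mod_cast hLL
  have hM0 : (0:ℝ) < (L' * L : ℝ)^p := by positivity
  obtain ⟨e₂, m2, q2⟩ := measurable_ext c.clK'.measurableSet c.lip'.continuousOn
  obtain ⟨e₁, m1, q1⟩ := measurable_ext c.clK.measurableSet c.lip.continuousOn
  set ut : (Fin d → ℝ) → ℝ≥0∞ := K'.indicator fun z => u (e₂ z) with hut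
  have mus : Measurable ut := (hu.comp m2).indicator c.clK'.measurableSet
  have ut1 : ∀ z ∈ K', ut z = u (e' z) := fun z hz => by
    rw [hut, indicator_of_mem hz, q2 hz]
  -- null sets
  have hnull : ∀ {P : (Fin d → ℝ) → Prop}, (∀ᵐ x, P x) → ∀ᵐ z, z ∈ K' → P (e' z) := by
    intro P hP
    have h1 := null_image (A := K) c.lip (ae_iff.1 hP)
    refine measure_mono_null ?_ h1
    intro z hz
    have hz' : ¬ (z ∈ K' → P (e' z)) := hz
    push Not at hz'
    exact ⟨e' z, ⟨c.maps' hz'.1, hz'.2⟩, c.inv' z hz'.1⟩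
  have fin' : ∀ᵐ z, ut z ≠ ∞ := by
    filter_upwards [hnull hfin] with z hz
    by_cases h1 : z ∈ K'
    · rw [ut1 z h1]; exact hz h1
    · rw [hut, indicator_of_notMem h1]; exact ENNReal.zero_ne_top
  set Ft : (Fin d → ℝ) → ℝ≥0∞ := fun z => (ENNReal.ofReal ((L' * L : ℝ)^p))⁻¹ * F (e' z) with hFt
  have hc0 : ENNReal.ofReal ((L' * L : ℝ)^p) ≠ 0 := by
    rw [Ne, ENNReal.ofReal_eq_zero, not_le]; exact hM0
  have hF' : ∀ᵐ z, z ∈ U' → ∀ k, 1 ≤ k → LLV k h z → Ft z ≤ ENNReal.ofReal (k^p) * ut (h z) := by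
    filter_upwards [hnull hF] with z hz hzU k hk hkz
    have hzK := c.sub' hzU
    have hk0 : (0:ℝ) ≤ k := by linarith
    have h2 := c.LLV_trf (x := e' z) (c.eU' hzU) hk0 hi hfix (by rw [c.inv' z hzK]; exact hkz)
    have h3 := hz hzK (c.eU' hzU) _ (by nlinarith) h2
    have hU2 := c.mapsU hi hfix hzU
    rw [trf_in (c.eU' hzU), c.inv' z hzK] at h3
    rw [ut1 _ (c.sub' hU2)]
    have e3 : (L' * (k * L) : ℝ)^p = (L' * L : ℝ)^p * k^p := by
      rw [← Real.mul_rpow (by positivity) hk0]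
      congr 1
      ring
    rw [e3, ENNReal.ofReal_mul hM0.le, mul_assoc] at h3
    calc (ENNReal.ofReal ((L' * L : ℝ)^p))⁻¹ * F (e' z)
        ≤ (ENNReal.ofReal ((L' * L : ℝ)^p))⁻¹ * (ENNReal.ofReal ((L' * L : ℝ)^p) *
            (ENNReal.ofReal (k^p) * u (e' (h z)))) := mul_le_mul' le_rfl h3
      _ = ENNReal.ofReal (k^p) * u (e' (h z)) := by
          rw [← mul_assoc, ENNReal.inv_mul_cancel hc0 ENNReal.ofReal_ne_top, one_mul]
  have key := H ut Ft mus fin' hF'
  have s1 : ∫⁻ x in U, F x ≤ (L' : ℝ≥0∞)^d * ∫⁻ z in U', F (e' z) :=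
    lint_chart c.opU.measurableSet c.opU'.measurableSet (c.lip.continuousOn.mono c.sub)
      (fun x hx => c.eU hx) (fun x hx => c.inv x (c.sub hx)) (c.lip'.mono c.sub') F
  have s2 : ∫⁻ z in U', F (e' z) = ENNReal.ofReal ((L' * L : ℝ)^p) * ∫⁻ z in U', Ft z := by
    rw [hFt, lintegral_const_mul' _ _ (ENNReal.inv_ne_top.2 hc0), ← mul_assoc,
      ENNReal.mul_inv_cancel hc0 ENNReal.ofReal_ne_top, one_mul]
  have s3 : ∀ V : Set (Fin d → ℝ), MeasurableSet V → V ⊆ K' →
      ∫⁻ z in V, ut z ≤ (L : ℝ≥0∞)^d * ∫⁻ x in K ∩ e ⁻¹' V, u x := by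
    intro V mV sV
    have mKV : MeasurableSet (K ∩ e ⁻¹' V) := by
      have : K ∩ e ⁻¹' V = K ∩ e₁ ⁻¹' V := by
        ext x
        constructor
        · rintro ⟨h1, h2⟩
          refine ⟨h1, ?_⟩
          show e₁ x ∈ V
          rw [q1 h1]; exact h2
        · rintro ⟨h1, h2⟩
          refine ⟨h1, ?_⟩
          have h3 : e₁ x ∈ V := h2
          rw [q1 h1] at h3; exact h3
      rw [this]
      exact c.clK.measurableSet.inter (m1 mV)
    have h1 := lint_chart (e := e') (e' := e) mV mKV (c.lip'.continuousOn.mono sV)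
      (fun z hz => ⟨c.maps' (sV hz), by
        show e (e' z) ∈ V
        rw [c.inv' z (sV hz)]; exact hz⟩)
      (fun z hz => c.inv' z (sV hz)) (c.lip.mono inter_subset_left) ut
    refine h1.trans (le_of_eq ?_)
    congr 1
    refine setLIntegral_congr_fun mKV fun x hx => ?_
    show ut (e x) = u x
    rw [ut1 _ (c.maps hx.1), c.inv x hx.1]
  calc ∫⁻ x in U, F x ≤ (L' : ℝ≥0∞)^d * (ENNReal.ofReal ((L' * L : ℝ)^p) *
        (a * (∫⁻ z in A, ut z) + b * ∫⁻ z in B, ut z)) := by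
        refine s1.trans (mul_le_mul' le_rfl ?_)
        rw [s2]
        exact mul_le_mul' le_rfl key
    _ ≤ (L' : ℝ≥0∞)^d * (ENNReal.ofReal ((L' * L : ℝ)^p) *
        (a * ((L : ℝ≥0∞)^d * ∫⁻ x in K ∩ e ⁻¹' A, u x) +
          b * ((L : ℝ≥0∞)^d * ∫⁻ x in K ∩ e ⁻¹' B, u x))) :=
        mul_le_mul' le_rfl (mul_le_mul' le_rfl (add_le_add (mul_le_mul' le_rfl (s3 A mA sA))
          (mul_le_mul' le_rfl (s3 B mB sB))))
    _ = _ := by
        rw [mul_pow]
        ring

end Crest.Agent.R096.Sq_55
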