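import Crest.Agent.R096.Sq10_55

/-!
# R096 (row 96), SOBSQ, part 11 (helper55): cells and faces with charts; the squeeze of one cell and
of one face
-/

set_option autoImplicit false

open Set Metric Filter Topology MeasureTheory

namespace Crest.Agent.R096.Sq_55

open Crest.Agent.R096.Ce_537 Crest.Agent.R096.Bd_416 Crest.Agent.R96.Hole_348
open scoped ENNReal NNReal

/-! ### the ratio -/

/-- the ratio -/
noncomputable def qn (n : ℕ) (p : ℝ) : ℝ := (2:ℝ)^((p - n)/2)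

lemma qn_sq (n : ℕ) (p : ℝ) : (qn n p)^2 = (2:ℝ)^(p - n) := by
  rw [qn, ← Real.rpow_natCast, ← Real.rpow_mul (by norm_num)]
  congr 1
  push_cast
  ring

lemma qn_pos (n : ℕ) (p : ℝ) : 0 < qn n p := by unfold qn; positivity

lemma qn_lt {n : ℕ} {p : ℝ} (h : p < n) : qn n p < 1 := by
  unfold qn
  apply Real.rpow_lt_one_of_one_lt_of_neg (by norm_num)
  linarith

lemma gpar {n : ℕ} {p : ℝ} (h : p < n) {η : ℝ} (h0 : 0 < η) (h1 : η ≤ 1/2) :
    GPar (qn n p) (η * (1 - qn n p)) 1 := by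
  have a := qn_pos n p
  have b := qn_lt h
  refine ⟨a, b, mul_pos h0 (by linarith), ?_, le_rfl⟩
  rw [mul_div_assoc, div_self (by linarith : (1:ℝ) - qn n p ≠ 0), mul_one]
  linarith

lemma gpar_eta {n : ℕ} {p : ℝ} (h : p < n) (η : ℝ) :
    η * (1 - qn n p) / (1 - qn n p) = η := by
  have b := qn_lt h
  rw [mul_div_assoc, div_self (by linarith : (1:ℝ) - qn n p ≠ 0), mul_one]

lemma exists_N {n : ℕ} {p : ℝ} (h : p < n) (c : ℝ) {β : ℝ≥0∞} (hβ : β ≠ 0) :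
    ∃ N : ℕ, ENNReal.ofReal (c * (qn n p)^(2*N)) ≤ β := by
  have a := qn_pos n p
  have b := qn_lt h
  have h1 : Tendsto (fun N : ℕ => c * ((qn n p)^2)^N) atTop (𝓝 (c * 0)) :=
    (tendsto_pow_atTop_nhds_zero_of_lt_one (by positivity) (by nlinarith)).const_mul c
  have h2 := (ENNReal.tendsto_ofReal h1)
  rw [mul_zero, ENNReal.ofReal_zero] at h2
  obtain ⟨N, hN⟩ := (h2.eventually (gt_mem_nhds (pos_iff_ne_zero.2 hβ))).exists
  refine ⟨N, ?_⟩
  rw [pow_mul]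
  exact hN.le

/-! ### the models -/

/-- the squeeze of a tile as a homeomorphism -/
noncomputable def Tile.Gh {n : ℕ} (f : Tile n) {q τ : ℝ} (N : ℕ) (hP : GPar q τ 1) :
    (Fin (n+1) → ℝ) ≃ₜ (Fin (n+1) → ℝ) where
  toFun := f.T (cgf q τ N)
  invFun := f.T (cgg q τ N)
  left_inv := f.T_T fun w => (gchi (N := N) hP).symm_apply_apply w
  right_inv := f.T_T fun w => (gchi (N := N) hP).apply_symm_apply w
  continuous_toFun := continuousOn_univ.1 (f.plOn_T (sg_cgf hP)).1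
  continuous_invFun := continuousOn_univ.1 (f.plOn_T (sg_cgg hP)).1

lemma Tile.Gh_apply {n : ℕ} (f : Tile n) {q τ : ℝ} (N : ℕ) (hP : GPar q τ 1)
    (x : Fin (n+1) → ℝ) : f.Gh N hP x = f.T (cgf q τ N) x := rfl

theorem Tile.est {n : ℕ} (f : Tile n) {p : ℝ} (hp : 0 < p) (hn : 0 < n) {q : ℝ}
    (hq : q^2 = (2:ℝ)^(p - n)) (N : ℕ) {τ : ℝ} (h : GPar q τ 1) :
    Est p (f.Gh N h) f.O (f.dn ⁻¹' Lay n (1 - τ / (1 - q))) (f.dn ⁻¹' Tot n)
      (ENNReal.ofReal (3^p * Kg n p / τ)) (ENNReal.ofReal (3^p * (Kg n p * q^(2*N)))) :=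
  fun _ _ hu hfin hF => f.tile_intF hp hn hq h hu hfin hF

theorem Cub.est {d : ℕ} (Q : Cub d) {p : ℝ} (hp : 0 < p) (hd : 0 < d) {q : ℝ}
    (hq : q^2 = (2:ℝ)^(p - d)) (N : ℕ) {τ : ℝ} (h : GPar q τ 1) :
    Est p (Q.S N h) Q.I (Q.L (1 - τ / (1 - q))) Q.K
      (ENNReal.ofReal (Kg d p / τ)) (ENNReal.ofReal (Kg d p * q^(2*N))) :=
  fun _ _ hu hfin hF => Q.cube_intF hp hd hq h hu hfin hF

/-- the space -/
abbrev E3 := Fin 3 → ℝ

/-- the unit cube -/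
noncomputable def Q0 : Cub 3 := ⟨0, 1, one_pos⟩

/-- the standard tile, orthogonal to the axis `0` -/
noncomputable def f0 : Tile 2 := ⟨0, 0, 1, one_pos⟩

lemma Q0_K : Q0.K = closedBall (0 : E3) 1 := by
  ext x
  rw [mem_closedBall_zero_iff]
  show ‖x - 0‖ ≤ 1 ↔ _
  rw [sub_zero]

lemma Q0_I : Q0.I = ball (0 : E3) 1 := by
  ext x
  rw [mem_ball_zero_iff]
  show ‖x - 0‖ < 1 ↔ _
  rw [sub_zero]

lemma f0_fst (z : E3) : (f0.dn z).1 = z 0 := by
  show (1:ℝ)⁻¹ * (z 0 - 0) = z 0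
  rw [inv_one, one_mul, sub_zero]

lemma f0_snd (z : E3) : (f0.dn z).2 = fun j : Fin 2 => z j.succ := by
  funext j
  show (1:ℝ)⁻¹ * (z ((0 : Fin 3).succAbove j) - 0) = z j.succ
  rw [inv_one, one_mul, sub_zero, Fin.zero_succAbove]

/-- the width -/
noncomputable def wid (z : E3) : ℝ := ‖(fun j : Fin 2 => z j.succ : Fin 2 → ℝ)‖

lemma continuous_wid : Continuous wid := by unfold wid; fun_prop

lemma wid_nonneg (z : E3) : 0 ≤ wid z := norm_nonneg _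

/-- the closed diamond -/
def Dc : Set E3 := {z | |z 0| + wid z ≤ 1}

/-- the open diamond -/
def Do : Set E3 := {z | |z 0| + wid z < 1}

lemma f0_Oc : f0.Oc = Dc := by
  ext z
  show |(f0.dn z).1| + ‖(f0.dn z).2‖ ≤ 1 ↔ _
  rw [f0_fst, f0_snd]; rfl

lemma f0_O : f0.O = Do := by
  ext z
  show |(f0.dn z).1| + ‖(f0.dn z).2‖ < 1 ↔ _
  rw [f0_fst, f0_snd]; rfl

/-! ### cells and faces -/

/-- a closed cell `P` with open part `U`, of size `R`, with an `M`-bi-Lipschitz PL chart on the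
unit cube -/
structure Cell where
  P : Set E3
  U : Set E3
  M : ℝ≥0
  R : ℝ≥0
  one : 1 ≤ M
  pos : 0 < R
  e : E3 → E3
  e' : E3 → E3
  cht : Cht P U (closedBall 0 1) (ball 0 1) e e' (M / R) (M * R)

/-- a closed double pyramid `K` with open part `V`, of size `ρ`, with an `M`-bi-Lipschitz PL chart
on the diamond; the face is `{e 0 = 0}` -/
structure Face where
  K : Set E3
  V : Set E3
  M : ℝ≥0
  ρ : ℝ≥0
  one : 1 ≤ M
  pos : 0 < ρ
  e : E3 → E3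
  e' : E3 → E3
  cht : Cht K V Dc Do e e' (M / ρ) (M * ρ)

/-- the boundary of the face -/
def Face.rim (F : Face) : Set E3 := F.e' '' {z | z 0 = 0 ∧ wid z = 1}

/-- the power of the bi-Lipschitz constant -/
noncomputable def mc (p : ℝ) (M : ℝ≥0) : ℝ := ((M:ℝ) * M)^p * ((M:ℝ) * M)^3

lemma mc_pos {p : ℝ} {M : ℝ≥0} (h : 1 ≤ M) : 0 < mc p M := by
  have : (0:ℝ) < M := by
    have : (1:ℝ) ≤ M := by exact_mod_cast h
    linarith
  unfold mc; positivity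

/-- constants -/
noncomputable def c3 (p : ℝ) : ℝ := Kg 3 p / (1 - qn 3 p)
/-- constants -/
noncomputable def c2 (p : ℝ) : ℝ := 3^p * Kg 2 p / (1 - qn 2 p)

lemma const_eq {p : ℝ} {M R : ℝ≥0} (hR : 0 < R) (k : ℝ) :
    ENNReal.ofReal (((M * R : ℝ≥0) * (M / R : ℝ≥0) : ℝ)^p) *
      (((M * R : ℝ≥0) : ℝ≥0∞) * ((M / R : ℝ≥0) : ℝ≥0∞))^3 * ENNReal.ofReal k =
      ENNReal.ofReal (mc p M * k) := by
  have e1 : (M * R) * (M / R) = M * M := by
    field_simp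
  have e2 : (((M * R : ℝ≥0) : ℝ) * ((M / R : ℝ≥0) : ℝ)) = (M:ℝ) * M := by
    rw [← NNReal.coe_mul, e1, NNReal.coe_mul]
  rw [e2, ← ENNReal.coe_mul, e1, mc, ENNReal.ofReal_mul (by positivity),
    ENNReal.ofReal_mul (by positivity)]
  congr 2
  rw [ENNReal.ofReal_pow (by positivity), ← NNReal.coe_mul, ENNReal.ofReal_coe_nnreal]

/-- **the squeeze of one cell** -/
theorem Cell.exists_h (C : Cell) {p : ℝ} (hp : 0 < p) (hp3 : p < 3) {η : ℝ} (h0 : 0 < η)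
    (h1 : η ≤ 1/2) {β : ℝ≥0∞} (hβ : β ≠ 0) :
    ∃ h : E3 ≃ₜ E3, PLOn h univ ∧ PLOn h.symm univ ∧ (∀ x, x ∉ C.U → h x = x) ∧
      Est p h C.U (C.P ∩ C.e ⁻¹' {z | 1 - η < ‖z‖ ∧ ‖z‖ ≤ 1}) C.P
        (ENNReal.ofReal (mc p C.M * (c3 p / η))) β := by
  have hp3' : p < ((3:ℕ):ℝ) := by exact_mod_cast hp3
  have hP := gpar hp3' h0 h1
  obtain ⟨N, hN⟩ := exists_N hp3' (mc p C.M * Kg 3 p) hβ
  have e0 := Q0.est hp (by norm_num) (qn_sq 3 p) N hP
  rw [gpar_eta hp3'] at e0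
  have c := C.cht
  have c' : Cht C.P C.U Q0.K Q0.I C.e C.e' (C.M / C.R) (C.M * C.R) := by
    rw [Q0_K, Q0_I]; exact c
  have hfix : ∀ z, z ∉ Q0.I → Q0.S N hP z = z := fun z hz => Q0.S_out hP hz
  obtain ⟨H, k1, k2, k3, k4⟩ := c'.exists_homeo (Q0.S N hP) (Q0.plOn_S hP) (Q0.plOn_S_symm hP)
    hfix
  refine ⟨H, k3, k4, fun x hx => by rw [k1, trf_out hx], ?_⟩
  have e1 := Est.trf hp.le c' (by
    have := C.one
    have hR := C.pos
    have e1 : (C.M * C.R) * (C.M / C.R) = C.M * C.M := by field_simp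
    rw [e1]
    exact one_le_mul this this) (Q0.S N hP).injective hfix
    (A := Q0.L (1 - η)) (B := Q0.K) (by
      refine MeasurableSet.inter ?_ ?_
      · exact (isOpen_lt continuous_const (continuous_id.sub continuous_const).norm).measurableSet
      · exact (isClosed_le (continuous_id.sub continuous_const).norm
          continuous_const).measurableSet) Q0.isClosed_K.measurableSet
    (fun x hx => hx.2) subset_rfl e0
  have e2 : (H : E3 → E3) = trf C.U C.e C.e' (Q0.S N hP) := funext k1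
  rw [e2]
  rw [const_eq C.pos, const_eq C.pos] at e1
  have e3 : Kg 3 p / (η * (1 - qn 3 p)) = c3 p / η := by
    rw [c3, div_div, mul_comm η]
  rw [e3] at e1
  intro u F hu hfin hF
  refine (e1 u F hu hfin hF).trans (add_le_add (mul_le_mul' le_rfl (lintegral_mono_set ?_))
    (mul_le_mul' ?_ (lintegral_mono_set inter_subset_left)))
  · rintro x ⟨hx1, hx2⟩
    refine ⟨hx1, ?_⟩
    obtain ⟨a, b⟩ := hx2
    have a' : (1 - η) * 1 < ‖C.e x - 0‖ := a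
    have b' : ‖C.e x - 0‖ ≤ 1 := b
    rw [sub_zero] at a' b'
    rw [mul_one] at a'
    exact ⟨a', b'⟩
  · refine le_trans (le_of_eq ?_) hN
    congr 1
    ring

/-- **the squeeze of one face** -/
theorem Face.exists_h (F : Face) {p : ℝ} (hp : 0 < p) (hp2 : p < 2) {η : ℝ} (h0 : 0 < η)
    (h1 : η ≤ 1/2) {β : ℝ≥0∞} (hβ : β ≠ 0) :
    ∃ h : E3 ≃ₜ E3, PLOn h univ ∧ PLOn h.symm univ ∧ (∀ x, x ∉ F.V → h x = x) ∧
      (∀ x ∈ F.V, F.e (h x) 0 = F.e x 0) ∧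
      Est p h F.V (F.K ∩ F.e ⁻¹' {z | (1 - η) * (1 - |z 0|) ≤ wid z ∧ |z 0| + wid z ≤ 1}) F.K
        (ENNReal.ofReal (mc p F.M * (c2 p / η))) β := by
  have hp2' : p < ((2:ℕ):ℝ) := by exact_mod_cast hp2
  have hP := gpar hp2' h0 h1
  obtain ⟨N, hN⟩ := exists_N hp2' (mc p F.M * (3^p * Kg 2 p)) hβ
  have e0 := f0.est hp (by norm_num) (qn_sq 2 p) N hP
  rw [gpar_eta hp2'] at e0
  have c := F.cht
  have c' : Cht F.K F.V f0.Oc f0.O F.e F.e' (F.M / F.ρ) (F.M * F.ρ) := by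
    rw [f0_Oc, f0_O]; exact c
  have hfix : ∀ z, z ∉ f0.O → f0.Gh N hP z = z := fun z hz => f0.T_out (sg_cgf hP) hz
  obtain ⟨H, k1, k2, k3, k4⟩ := c'.exists_homeo (f0.Gh N hP) (f0.plOn_T (sg_cgf hP))
    (f0.plOn_T (sg_cgg hP)) hfix
  refine ⟨H, k3, k4, fun x hx => by rw [k1, trf_out hx], ?_, ?_⟩
  · intro x hx
    have hz := c'.eU hx
    have hz2 : f0.Gh N hP (F.e x) ∈ f0.O := f0.T_mem (sg_cgf hP) hz
    rw [k1, trf_in hx, c'.inv' _ (c'.sub' hz2), Tile.Gh_apply]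
    exact f0.T_i _
  have e1 := Est.trf hp.le c' (by
    have := F.one
    have hR := F.pos
    have e1 : (F.M * F.ρ) * (F.M / F.ρ) = F.M * F.M := by field_simp
    rw [e1]
    exact one_le_mul this this) (f0.Gh N hP).injective hfix
    (A := f0.dn ⁻¹' Lay 2 (1 - η)) (B := f0.dn ⁻¹' Tot 2)
    (f0.continuous_dn.measurable (measurableSet_Lay _))
    (f0.continuous_dn.measurable measurableSet_Tot)
    (fun x hx => by
      obtain ⟨a1, a2, a3⟩ := hx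
      show |(f0.dn x).1| + ‖(f0.dn x).2‖ ≤ 1
      linarith)
    (fun x hx => by
      obtain ⟨a1, a3⟩ := hx
      show |(f0.dn x).1| + ‖(f0.dn x).2‖ ≤ 1
      linarith) e0
  have e2 : (H : E3 → E3) = trf F.V F.e F.e' (f0.Gh N hP) := funext k1
  rw [e2]
  rw [const_eq F.pos, const_eq F.pos] at e1
  have e3 : 3^p * Kg 2 p / (η * (1 - qn 2 p)) = c2 p / η := by
    rw [c2, div_div, mul_comm η]
  rw [e3] at e1
  intro u G hu hfin hG
  refine (e1 u G hu hfin hG).trans (add_le_add (mul_le_mul' le_rfl (lintegral_mono_set ?_))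
    (mul_le_mul' ?_ (lintegral_mono_set inter_subset_left)))
  · rintro x ⟨hx1, hx2⟩
    refine ⟨hx1, ?_⟩
    obtain ⟨a1, a2, a3⟩ := hx2
    rw [f0_fst, f0_snd] at *
    refine ⟨a2.le, ?_⟩
    have : wid (F.e x) ≤ 1 - |F.e x 0| := a3
    linarith
  · refine le_trans (le_of_eq ?_) hN
    congr 1
    ring

end Crest.Agent.R096.Sq_55
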