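import Crest.Agent.R096.Sq11_55

/-!
# R096 (row 96), SOBSQ, part 12 (helper55): energies; one composition step; products; null sets
-/

set_option autoImplicit false

open Set Metric Filter Topology MeasureTheory

namespace Crest.Agent.R096.Sq_55

open Crest.Agent.R096.Ce_537 Crest.Agent.R096.Bd_416 Crest.Agent.R96.Hole_348
open Crest.AnalysisR.VecCalc3 Crest.AnalysisR.Sobolev Crest.Agent.R096.Sk_962
open scoped ENNReal NNReal

/-! ### null sets -/

lemma null_pre {χ : E3 ≃ₜ E3} (h : PLOn χ.symm univ) {P : E3 → Prop} (hP : ∀ᵐ y, P y) :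
    ∀ᵐ x, P (χ x) := by
  obtain ⟨h1, S, h2⟩ := h
  obtain ⟨C, hC⟩ := Crest.Agent.R96.Sob7_199.lip_of_sel (s := univ) convex_univ h1 h2
  have h3 := null_image (A := univ) hC (ae_iff.1 hP)
  refine measure_mono_null ?_ h3
  intro x hx
  exact ⟨χ x, ⟨mem_univ _, hx⟩, χ.symm_apply_apply x⟩

lemma wid_smul {a : ℝ} (ha : 0 ≤ a) (z : E3) : wid (a • z) = a * wid z := by
  have : (fun j : Fin 2 => (a • z) j.succ : Fin 2 → ℝ) = a • (fun j : Fin 2 => z j.succ) := rfl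
  rw [wid, this, norm_smul, Real.norm_eq_abs, abs_of_nonneg ha]
  rfl

lemma wid_add_le (z w : E3) : wid (z + w) ≤ wid z + wid w := by
  have : (fun j : Fin 2 => (z + w) j.succ : Fin 2 → ℝ) =
    (fun j : Fin 2 => z j.succ) + (fun j : Fin 2 => w j.succ) := rfl
  rw [wid, this]
  exact norm_add_le _ _

lemma convex_Dc : Convex ℝ Dc := by
  intro z hz w hw a b ha hb hab
  have h1 : |z 0| + wid z ≤ 1 := hz
  have h2 : |w 0| + wid w ≤ 1 := hw
  show |(a • z + b • w) 0| + wid (a • z + b • w) ≤ 1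
  have h3 := wid_add_le (a • z) (b • w)
  rw [wid_smul ha, wid_smul hb] at h3
  have h4 : |(a • z + b • w) 0| ≤ a * |z 0| + b * |w 0| := by
    have : (a • z + b • w) 0 = a * z 0 + b * w 0 := rfl
    rw [this]
    refine (abs_add_le _ _).trans ?_
    rw [abs_mul, abs_mul, abs_of_nonneg ha, abs_of_nonneg hb]
  nlinarith

lemma null_Dc : volume (Dc \ Do) = 0 := by
  refine measure_mono_null ?_ (convex_Dc.addHaar_frontier volume)
  rintro z ⟨hz, hz2⟩
  have h1 : |z 0| + wid z ≤ 1 := hz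
  have h2 : ¬ (|z 0| + wid z < 1) := hz2
  have h3 : |z 0| + wid z = 1 := le_antisymm h1 (not_lt.1 h2)
  refine ⟨subset_closure hz, fun hi => ?_⟩
  have h4 : Tendsto (fun t : ℝ => (1 + t) • z) (𝓝[>] 0) (𝓝 z) := by
    have : Tendsto (fun t : ℝ => (1 + t) • z) (𝓝 0) (𝓝 ((1 + 0 : ℝ) • z)) := by
      apply Continuous.tendsto
      fun_prop
    rw [add_zero, one_smul] at this
    exact this.mono_left nhdsWithin_le_nhds
  have h5 := h4.eventually (mem_interior_iff_mem_nhds.1 hi)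
  obtain ⟨t, ht, ht0⟩ := (h5.and self_mem_nhdsWithin).exists
  have ht0 : (0:ℝ) < t := ht0
  have h6 : |((1 + t) • z) 0| + wid ((1 + t) • z) ≤ 1 := ht
  have h7 : ((1 + t) • z) 0 = (1 + t) * z 0 := rfl
  rw [wid_smul (by linarith), h7, abs_mul, abs_of_pos (by linarith : 0 < 1 + t), ← mul_add, h3]
    at h6
  linarith

lemma Cht.null {K U K' U' : Set E3} {e e' : E3 → E3} {L L' : ℝ≥0} (c : Cht K U K' U' e e' L L')
    (h : volume (K' \ U') = 0) : volume (K \ U) = 0 := by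
  refine measure_mono_null ?_ (null_image (A := K') c.lip' h)
  rintro x ⟨hx, hx2⟩
  exact ⟨e x, ⟨c.maps hx, c.maps hx, fun h1 => hx2 ((c.mem x hx).1 h1)⟩, c.inv x hx⟩

lemma Cell.null (C : Cell) : volume (C.P \ C.U) = 0 := by
  refine C.cht.null ?_
  rw [closedBall_sdiff_ball]
  exact Measure.addHaar_sphere _ _ _

lemma Face.null (F : Face) : volume (F.K \ F.V) = 0 := F.cht.null null_Dc

/-! ### energies -/

/-- a measurable version of the energy density -/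
structure IsEn (p : ℝ) (Om : Set R3) (G : Fin 3 → R3 → R3) (u : E3 → ℝ≥0∞) : Prop where
  meas : Measurable u
  int : ∫⁻ z, u z ≠ ∞
  eq : ∀ᵐ z, w2 z ∈ Om → u z = En p G (w2 z)

lemma IsEn.fin {p : ℝ} {Om : Set R3} {G : Fin 3 → R3 → R3} {u : E3 → ℝ≥0∞}
    (h : IsEn p Om G u) : ∀ᵐ z, u z ≠ ∞ := by
  filter_upwards [ae_lt_top h.meas h.int] with z hz
  exact hz.ne

lemma IsEn.setInt {p : ℝ} {Om : Set R3} {G : Fin 3 → R3 → R3} {u : E3 → ℝ≥0∞}
    (h : IsEn p Om G u) (hOm : IsOpen Om) {S : Set E3} (hS : ∀ z ∈ S, w2 z ∈ Om) :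
    ∫⁻ z in S, u z = ∫⁻ z in S, En p G (w2 z) := by
  have m : MeasurableSet (w2 ⁻¹' Om) := (hOm.preimage w2.continuous).measurableSet
  have h1 : ∀ᵐ z ∂(volume.restrict (w2 ⁻¹' Om)), u z = En p G (w2 z) :=
    (ae_restrict_iff' m).2 h.eq
  exact lintegral_congr_ae (ae_mono (Measure.restrict_mono hS le_rfl) h1)

lemma exists_isEn {p : ℝ} (hp : 0 < p) {Om La : Set R3} {f : R3 → R3} {G : Fin 3 → R3 → R3}
    (hOm : IsOpen Om) (h : SH p Om La f G) : ∃ u, IsEn p Om G u := by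
  have hm := fun j => (h.memG j).1
  have m : MeasurableSet Om := hOm.measurableSet
  set g : Fin 3 → R3 → R3 := fun j => (hm j).mk (G j) with hg
  have mg : ∀ j, Measurable (g j) := fun j => (hm j).stronglyMeasurable_mk.measurable
  have eg : ∀ j, ∀ᵐ x ∂(volume.restrict Om), G j x = g j x := fun j => (hm j).ae_eq_mk
  set v : R3 → ℝ≥0∞ := Om.indicator fun x => ∑ j : Fin 3, ‖g j x‖ₑ ^ p with hv
  have mv : Measurable v := by
    refine Measurable.indicator ?_ m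
    exact Finset.measurable_sum _ fun j _ => ((mg j).enorm).pow_const p
  refine ⟨fun z => v (w2 z), mv.comp w2.continuous.measurable, ?_, ?_⟩
  · have e1 : ∫⁻ z, v (w2 z) = ∫⁻ x, v x := mp_w2.lintegral_comp mv
    rw [e1, hv, lintegral_indicator m, lintegral_finsetSum _ fun j _ => ((mg j).enorm).pow_const p]
    refine (ENNReal.sum_lt_top.2 fun j _ => ?_).ne
    have h1 : ∫⁻ x in Om, ‖g j x‖ₑ ^ p = ∫⁻ x in Om, ‖G j x‖ₑ ^ p := by
      refine lintegral_congr_ae ?_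
      filter_upwards [eg j] with x hx
      rw [hx]
    rw [h1]
    have h2 := lintegral_rpow_enorm_lt_top_of_eLpNorm_lt_top (μ := volume.restrict Om)
      (p := ENNReal.ofReal p) (f := G j) (by rw [Ne, ENNReal.ofReal_eq_zero]; linarith)
      ENNReal.ofReal_ne_top (h.memG j).2
    rwa [ENNReal.toReal_ofReal hp.le] at h2
  · have h1 : ∀ᵐ x, ∀ j, x ∈ Om → G j x = g j x := by
      rw [ae_all_iff]
      intro j
      exact (ae_restrict_iff' m).1 (eg j)
    filter_upwards [ae_w2.1 h1] with z hz hzO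
    show v (w2 z) = _
    rw [hv, indicator_of_mem hzO, En]
    exact Finset.sum_congr rfl fun j _ => by rw [hz j hzO]

/-- one composition step, with measurable energies -/
theorem comp_step {p : ℝ} (hp : 0 < p) (hS : SobChain p) {Om La : Set R3} {f : R3 → R3}
    {G : Fin 3 → R3 → R3} (hOm : IsOpen Om) (h : SH p Om La f G) {u : E3 → ℝ≥0∞}
    (hu : IsEn p Om G u) (χ : E3 ≃ₜ E3) (h1 : PLOn χ univ) (h2 : PLOn χ.symm univ)
    (hΨ : ∀ z, w2 (χ z) ∈ Om ↔ w2 z ∈ Om) :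
    ∃ (G' : Fin 3 → R3 → R3) (u' : E3 → ℝ≥0∞), SH p Om La (fun x => f (toR χ x)) G' ∧
      IsEn p Om G' u' ∧
      ∀ᵐ z, w2 z ∈ Om → ∀ c : ℝ, 1 ≤ c → LLV c χ z →
        ENNReal.ofReal ((6:ℝ)^(-p)) * u' z ≤ ENNReal.ofReal (c^p) * u (χ z) := by
  obtain ⟨G', k1, k2⟩ := step hp hS hOm h χ h1 h2 hΨ
  obtain ⟨u', hu'⟩ := exists_isEn hp hOm k1
  refine ⟨G', u', k1, hu', ?_⟩
  filter_upwards [k2, hu'.eq, null_pre h2 hu.eq] with z z1 z2 z3 hz c hc hcz
  rw [z2 hz, z3 ((hΨ z).2 hz)]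
  exact z1 hz c hc hcz

/-- the energy on an open set where the map has an estimate -/
lemma Est.energy {p : ℝ} {Om : Set R3} {χ : E3 ≃ₜ E3} {u u' : E3 → ℝ≥0∞}
    (hu : Measurable u) (hfin : ∀ᵐ z, u z ≠ ∞)
    (hstep : ∀ᵐ z, w2 z ∈ Om → ∀ c : ℝ, 1 ≤ c → LLV c χ z →
        ENNReal.ofReal ((6:ℝ)^(-p)) * u' z ≤ ENNReal.ofReal (c^p) * u (χ z))
    {U A B : Set E3} {a b : ℝ≥0∞} (H : Est p χ U A B a b) (hU : ∀ z ∈ U, w2 z ∈ Om)
    {S : Set E3} (mS : MeasurableSet S) (hS : ∀ x ∈ U, x ∈ S → χ x ∈ S) :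
    ∫⁻ x in U ∩ S, u' x ≤
      ENNReal.ofReal ((6:ℝ)^p) * (a * (∫⁻ x in A ∩ S, u x) + b * ∫⁻ x in B ∩ S, u x) := by
  have key := H.inter mS hS (F := fun z => ENNReal.ofReal ((6:ℝ)^(-p)) * u' z) hu hfin (by
    filter_upwards [hstep] with z hz hzU c hc hcz
    exact hz (hU z hzU) c hc hcz)
  rw [lintegral_const_mul' _ _ ENNReal.ofReal_ne_top] at key
  rw [six_cancel p (∫⁻ x in U ∩ S, u' x)]
  exact mul_le_mul' le_rfl key

/-- products -/
lemma Est.prod {p : ℝ} {h H : E3 → E3} {O A B : Set E3} {a b : ℝ≥0∞} (hO : IsOpen O)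
    (h3 : ∀ x ∈ O, H x = h x) (E : Est p h O A B a b) : Est p H O A B a b := by
  intro u F hu hfin hF
  refine E u F hu hfin ?_
  filter_upwards [hF] with x hx hxO c hc hcx
  rw [← h3 x hxO]
  refine hx hxO c hc ?_
  filter_upwards [hcx, hO.mem_nhds hxO] with y hy hyO
  rw [h3 y hyO, h3 x hxO]
  exact hy

end Crest.Agent.R096.Sq_55
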