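import Crest.Agent.R096.Sq12_55

/-!
# R096 (row 96), SOBSQ, part 13 (helper55): geometry of the charts
-/

set_option autoImplicit false

open Set Metric Filter Topology MeasureTheory

namespace Crest.Agent.R096.Sq_55

open Crest.Agent.R096.Ce_537 Crest.Agent.R096.Bd_416 Crest.Agent.R96.Hole_348
open scoped ENNReal NNReal

/-- closed neighbourhoods -/
def nb (δ : ℝ) (S : Set E3) : Set E3 := {x | ∃ y ∈ S, ‖x - y‖ ≤ δ}

lemma nb_mono {δ δ' : ℝ} (h : δ ≤ δ') {S S' : Set E3} (hS : S ⊆ S') : nb δ S ⊆ nb δ' S' := by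
  rintro x ⟨y, hy, hxy⟩
  exact ⟨y, hS hy, hxy.trans h⟩

lemma abs_zero_le (z : E3) : |z 0| ≤ ‖z‖ := by
  rw [← Real.norm_eq_abs]; exact norm_le_pi_norm z 0

lemma wid_le (z : E3) : wid z ≤ ‖z‖ := by
  rw [wid, pi_norm_le_iff_of_nonneg (norm_nonneg _)]
  intro j
  exact norm_le_pi_norm z j.succ

lemma wid_sub_le (z w : E3) : wid z - wid w ≤ ‖z - w‖ := by
  have h1 := wid_add_le (z - w) w
  rw [sub_add_cancel] at h1
  have h2 := wid_le (z - w)
  linarith

lemma norm_le_max {z : E3} {a : ℝ} (h0 : |z 0| ≤ a) (h1 : wid z ≤ a) : ‖z‖ ≤ a := by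
  have ha : 0 ≤ a := (abs_nonneg _).trans h0
  rw [pi_norm_le_iff_of_nonneg ha]
  intro j
  refine Fin.cases ?_ (fun i => ?_) j
  · exact h0
  · exact (norm_le_pi_norm (fun j : Fin 2 => z j.succ) i).trans h1

lemma exists_rim_pt (z : E3) (h : wid z ≤ 1) :
    ∃ r : E3, r 0 = 0 ∧ wid r = 1 ∧ ‖z - r‖ ≤ max |z 0| (1 - wid z) := by
  set w : Fin 2 → ℝ := fun j => z j.succ with hw
  have hwz : wid z = ‖w‖ := rfl
  by_cases h0 : w = 0
  · refine ⟨Fin.cons (α := fun _ => ℝ) 0 (fun _ => 1), rfl, ?_, ?_⟩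
    · show ‖(fun j : Fin 2 => (Fin.cons (α := fun _ => ℝ) 0 (fun _ => 1) : E3) j.succ)‖ = 1
      simp only [Fin.cons_succ]
      rw [pi_norm_const, norm_one]
    · apply norm_le_max
      · refine le_trans (le_of_eq ?_) (le_max_left _ _)
        show |z 0 - 0| = _
        rw [sub_zero]
      · refine le_trans ?_ (le_max_right _ _)
        rw [hwz, h0, norm_zero, sub_zero, wid, pi_norm_le_iff_of_nonneg zero_le_one]
        intro j
        have : z j.succ = 0 := congrFun h0 j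
        show ‖z j.succ - 1‖ ≤ 1
        rw [this]; norm_num
  · have hn : 0 < ‖w‖ := norm_pos_iff.2 h0
    refine ⟨Fin.cons (α := fun _ => ℝ) 0 (‖w‖⁻¹ • w), rfl, ?_, ?_⟩
    · show ‖(fun j : Fin 2 => (Fin.cons (α := fun _ => ℝ) 0 (‖w‖⁻¹ • w) : E3) j.succ)‖ = 1
      simp only [Fin.cons_succ]
      rw [show (fun j => (‖w‖⁻¹ • w) j) = ‖w‖⁻¹ • w from rfl, norm_smul, norm_inv, norm_norm,
        inv_mul_cancel₀ hn.ne']
    · apply norm_le_max
      · refine le_trans (le_of_eq ?_) (le_max_left _ _)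
        show |z 0 - 0| = _
        rw [sub_zero]
      · refine le_trans ?_ (le_max_right _ _)
        have e1 : (fun j : Fin 2 => (z - Fin.cons (α := fun _ => ℝ) 0 (‖w‖⁻¹ • w)) j.succ) =
            (1 - ‖w‖⁻¹) • w := by
          funext j
          show z j.succ - ‖w‖⁻¹ * w j = (1 - ‖w‖⁻¹) * w j
          rw [sub_mul, one_mul]
        rw [wid, e1, norm_smul, hwz, Real.norm_eq_abs, abs_sub_comm, abs_of_nonneg]
        · rw [sub_mul, inv_mul_cancel₀ hn.ne', one_mul]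
        · rw [hwz] at h
          have := (one_le_inv₀ hn).2 h
          linarith

lemma inter_frontier {s V : Set E3} (hs : IsPreconnected s) (hV : IsOpen V)
    (h1 : (s ∩ V).Nonempty) (h2 : (s ∩ Vᶜ).Nonempty) : (s ∩ frontier V).Nonempty := by
  by_contra h
  rw [not_nonempty_iff_eq_empty] at h
  have key : ∀ x ∈ s, x ∉ V → x ∈ (closure V)ᶜ := by
    intro x hx hxV hxc
    have : x ∈ s ∩ frontier V := ⟨hx, hxc, by rwa [hV.interior_eq]⟩
    rw [h] at this
    exact this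
  obtain ⟨x, hx, hxV⟩ := h2
  obtain ⟨y, -, hy1, hy2⟩ := hs V (closure V)ᶜ hV isClosed_closure.isOpen_compl
    (fun x hx => by
      by_cases hxV : x ∈ V
      · exact Or.inl hxV
      · exact Or.inr (key x hx hxV)) h1 ⟨x, hx, key x hx hxV⟩
  exact hy2 (subset_closure hy1)

/-! ### cells -/

namespace Cell

variable (C : Cell)

lemma M_pos : (0:ℝ) < C.M := by
  have : (1:ℝ) ≤ C.M := by exact_mod_cast C.one
  linarith

lemma M_one : (1:ℝ) ≤ C.M := by exact_mod_cast C.one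

lemma R_pos : (0:ℝ) < C.R := by exact_mod_cast C.pos

/-- points of the chart layer are near the boundary -/
lemma layer {η : ℝ} (h0 : η ≤ 1) {x : E3} (hx : x ∈ C.P) (h : 1 - η < ‖C.e x‖) :
    ∃ y ∈ C.P \ C.U, ‖x - y‖ ≤ C.M * C.R * η := by
  set z := C.e x with hz
  have hz1 : ‖z‖ ≤ 1 := mem_closedBall_zero_iff.1 (C.cht.maps hx)
  have hz0 : 0 < ‖z‖ := by linarith
  set z' := ‖z‖⁻¹ • z with hz'
  have n1 : ‖z'‖ = 1 := by rw [hz', norm_smul, norm_inv, norm_norm, inv_mul_cancel₀ hz0.ne']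
  have n2 : ‖z - z'‖ ≤ η := by
    have : z - z' = (1 - ‖z‖⁻¹) • z := by rw [hz', sub_smul, one_smul]
    rw [this, norm_smul, Real.norm_eq_abs, abs_sub_comm, abs_of_nonneg, sub_mul,
      inv_mul_cancel₀ hz0.ne', one_mul]
    · linarith
    · have := (one_le_inv₀ hz0).2 hz1
      linarith
  have m1 : z' ∈ closedBall (0 : E3) 1 := by rw [mem_closedBall_zero_iff, n1]
  have m2 : z ∈ closedBall (0 : E3) 1 := C.cht.maps hx
  refine ⟨C.e' z', ⟨C.cht.maps' m1, fun h1 => ?_⟩, ?_⟩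
  · have := (C.cht.mem' m1).1 h1
    rw [mem_ball_zero_iff, n1] at this
    exact lt_irrefl _ this
  · have h1 := C.cht.lip'.dist_le_mul _ m2 _ m1
    rw [C.cht.inv x hx, dist_eq_norm, dist_eq_norm] at h1
    refine h1.trans ?_
    push_cast
    exact mul_le_mul_of_nonneg_left n2 (by positivity)

/-- the cell is contained in the closure of its open part -/
lemma sub_closure : C.P ⊆ closure C.U := by
  intro x hx
  have hz : C.e x ∈ closedBall (0 : E3) 1 := C.cht.maps hx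
  have h1 : C.e x ∈ closure (ball (0 : E3) 1) := by
    rw [closure_ball _ one_ne_zero]; exact hz
  have h2 : ContinuousWithinAt C.e' (ball 0 1) (C.e x) :=
    (C.cht.pl'.1 _ hz).mono ball_subset_closedBall
  have h3 := h2.mem_closure_image h1
  rw [C.cht.inv x hx] at h3
  refine closure_mono ?_ h3
  rintro _ ⟨z, hz, rfl⟩
  exact C.cht.eU' hz

lemma disjoint_P {C D : Cell} (h : Disjoint C.U D.U) : Disjoint C.P D.U := by
  have h1 : Disjoint (closure C.U) D.U := h.closure_left D.cht.opU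
  exact h1.mono_left C.sub_closure

end Cell

/-! ### faces -/

namespace Face

variable (F : Face)

lemma M_pos : (0:ℝ) < F.M := by
  have : (1:ℝ) ≤ F.M := by exact_mod_cast F.one
  linarith

lemma M_one : (1:ℝ) ≤ F.M := by exact_mod_cast F.one

lemma ρ_pos : (0:ℝ) < F.ρ := by exact_mod_cast F.pos

lemma rim_mem {r : E3} (h0 : r 0 = 0) (h1 : wid r = 1) : r ∈ Dc := by
  show |r 0| + wid r ≤ 1
  rw [h0, h1]; norm_num

lemma near_aux {x : E3} (hx : x ∈ F.K) {d : ℝ} (h0 : |F.e x 0| ≤ d) (h1 : 1 - wid (F.e x) ≤ d) :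
    ∃ r ∈ F.rim, ‖x - r‖ ≤ F.M * F.ρ * d := by
  have hz : |F.e x 0| + wid (F.e x) ≤ 1 := F.cht.maps hx
  obtain ⟨r, r0, r1, r2⟩ := exists_rim_pt (F.e x) (by
    have := abs_nonneg (F.e x 0)
    linarith)
  refine ⟨F.e' r, ⟨r, ⟨r0, r1⟩, rfl⟩, ?_⟩
  have h3 := F.cht.lip'.dist_le_mul _ (F.cht.maps hx) _ (rim_mem r0 r1)
  rw [F.cht.inv x hx, dist_eq_norm, dist_eq_norm] at h3
  refine h3.trans ?_
  push_cast
  exact mul_le_mul_of_nonneg_left (r2.trans (max_le h0 h1)) (by positivity)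

/-- points of the lateral layer at small height are near the rim -/
lemma near {x : E3} (hx : x ∈ F.K) {σ η : ℝ} (hη : 0 ≤ η) (h0 : |F.e x 0| ≤ σ)
    (h1 : (1 - η) * (1 - |F.e x 0|) ≤ wid (F.e x)) :
    ∃ r ∈ F.rim, ‖x - r‖ ≤ F.M * F.ρ * (σ + η) := by
  have := abs_nonneg (F.e x 0)
  refine F.near_aux hx (by linarith) ?_
  nlinarith

/-- a point of the face near the complement of `V` is near the rim -/
lemma exit {x y : E3} (hy : y ∈ F.V) (hy0 : F.e y 0 = 0) (hx : x ∉ F.V) {d : ℝ}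
    (hd : ‖x - y‖ ≤ d) : ∃ r ∈ F.rim, ‖y - r‖ ≤ 2 * (F.M * F.M) * d := by
  have hMρ := F.ρ_pos
  have hM := F.M_pos
  obtain ⟨x', hx1, hx2⟩ := inter_frontier ((convex_segment y x).isPreconnected) F.cht.opU
    ⟨y, left_mem_segment ℝ y x, hy⟩ ⟨x, right_mem_segment ℝ y x, hx⟩
  have hxK : x' ∈ F.K := closure_minimal F.cht.sub F.cht.clK hx2.1
  have hxV : x' ∉ F.V := by
    have := hx2.2
    rwa [F.cht.opU.interior_eq] at this
  have hyK : y ∈ F.K := F.cht.sub hy
  have h1 : ‖x' - y‖ ≤ d := by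
    have h2 : x' ∈ closedBall y d := by
      refine (convex_closedBall y d).segment_subset ?_ ?_ hx1
      · rw [mem_closedBall, dist_self]; exact (norm_nonneg _).trans hd
      · rw [mem_closedBall, dist_eq_norm]; exact hd
    rwa [mem_closedBall, dist_eq_norm] at h2
  have h2 := F.cht.lip.dist_le_mul _ hxK _ hyK
  rw [dist_eq_norm, dist_eq_norm] at h2
  have h3 : ‖F.e x' - F.e y‖ ≤ F.M / F.ρ * d := by
    refine h2.trans ?_
    push_cast
    exact mul_le_mul_of_nonneg_left h1 (by positivity)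
  have h4 : |F.e x' 0| + wid (F.e x') = 1 := by
    have a1 : |F.e x' 0| + wid (F.e x') ≤ 1 := F.cht.maps hxK
    have a2 : ¬ (|F.e x' 0| + wid (F.e x') < 1) := fun h => hxV ((F.cht.mem x' hxK).1 h)
    exact le_antisymm a1 (not_lt.1 a2)
  have h5 : |F.e x' 0| ≤ F.M / F.ρ * d := by
    have := abs_zero_le (F.e x' - F.e y)
    have e : (F.e x' - F.e y) 0 = F.e x' 0 := by
      show F.e x' 0 - F.e y 0 = _
      rw [hy0, sub_zero]
    rw [e] at this
    exact this.trans h3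
  have h6 : wid (F.e x') - wid (F.e y) ≤ F.M / F.ρ * d := (wid_sub_le _ _).trans h3
  obtain ⟨r, hr, hr2⟩ := F.near_aux hyK (d := 2 * (F.M / F.ρ * d)) (by
      rw [hy0, abs_zero]
      have := (norm_nonneg _).trans h3
      linarith) (by linarith)
  refine ⟨r, hr, hr2.trans (le_of_eq ?_)⟩
  field_simp

end Face

end Crest.Agent.R096.Sq_55
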