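import Crest.Agent.R096.Sq14_55

/-!
# R096 (row 96), SOBSQ, part 15 (helper55): the explicit form

`X.H h N` = product of the squeezes of the faces, `X.Y h N` = product of the squeezes of the cells,
`chi = H ∘ Y`.  `Stp κ p O h u u'` : `u' ≤ κ c^p u(h ·)` a.e. on `O` whenever `c` is a local
Lipschitz constant of `h`.  `Sys.est` : the integral estimate for every cell which has no squeezed
face or if `p < 2`.
-/

set_option autoImplicit false
set_option linter.unusedSectionVars false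

open Set Metric Filter Topology MeasureTheory

namespace Crest.Agent.R096.Sq_55

open Crest.Agent.R096.Ce_537 Crest.Agent.R096.Bd_416 Crest.Agent.R96.Hole_348
open Crest.AnalysisR.VecCalc3 Crest.AnalysisR.Sobolev Crest.Agent.R096.Sk_962
open scoped ENNReal NNReal

/-! ### the squeezes of a cell and of a face -/

lemma Q0_S_apply {q τ : ℝ} {N : ℕ} (hP : GPar q τ 1) (x : E3) : Q0.S N hP x = cgf q τ N x := by
  have e1 : ∀ z : E3, Q0.up z = z := fun z => by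
    show (0 : E3) + (1:ℝ) • z = z
    rw [zero_add, one_smul]
  have e2 : ∀ z : E3, Q0.dn z = z := fun z => by
    show ((1:ℝ)⁻¹) • (z - 0) = z
    rw [inv_one, one_smul, sub_zero]
  rw [Q0.S_apply, e1, e2]

lemma Cell.exists_hh (C : Cell) {q τ : ℝ} (N : ℕ) (hP : GPar q τ 1) :
    ∃ h : E3 ≃ₜ E3, (∀ x, h x = trf C.U C.e C.e' (Q0.S N hP) x) ∧
      PLOn h univ ∧ PLOn h.symm univ := by
  have c' : Cht C.P C.U Q0.K Q0.I C.e C.e' (C.M / C.R) (C.M * C.R) := by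
    rw [Q0_K, Q0_I]; exact C.cht
  obtain ⟨H, k1, k2, k3, k4⟩ := c'.exists_homeo (Q0.S N hP) (Q0.plOn_S hP) (Q0.plOn_S_symm hP)
    (fun z hz => Q0.S_out hP hz)
  exact ⟨H, k1, k3, k4⟩

/-- the squeeze of a cell -/
noncomputable def Cell.hh (C : Cell) {q τ : ℝ} (N : ℕ) (hP : GPar q τ 1) : E3 ≃ₜ E3 :=
  (C.exists_hh N hP).choose

lemma Cell.hh_eq (C : Cell) {q τ : ℝ} (N : ℕ) (hP : GPar q τ 1) :
    (C.hh N hP : E3 → E3) = trf C.U C.e C.e' (Q0.S N hP) :=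
  funext (C.exists_hh N hP).choose_spec.1

lemma Cell.hh_in (C : Cell) {q τ : ℝ} (N : ℕ) (hP : GPar q τ 1) {x : E3} (hx : x ∈ C.P) :
    C.hh N hP x = C.e' (cgf q τ N (C.e x)) := by
  have c' : Cht C.P C.U Q0.K Q0.I C.e C.e' (C.M / C.R) (C.M * C.R) := by
    rw [Q0_K, Q0_I]; exact C.cht
  rw [C.hh_eq, c'.trf_K (fun z hz => Q0.S_out hP hz) hx, Q0_S_apply]

lemma Cell.hh_out (C : Cell) {q τ : ℝ} (N : ℕ) (hP : GPar q τ 1) {x : E3} (hx : x ∉ C.U) :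
    C.hh N hP x = x := by rw [C.hh_eq, trf_out hx]

lemma Cell.plOn_hh (C : Cell) {q τ : ℝ} (N : ℕ) (hP : GPar q τ 1) : PLOn (C.hh N hP) univ :=
  (C.exists_hh N hP).choose_spec.2.1

lemma Cell.plOn_hh_symm (C : Cell) {q τ : ℝ} (N : ℕ) (hP : GPar q τ 1) :
    PLOn (C.hh N hP).symm univ := (C.exists_hh N hP).choose_spec.2.2

lemma Face.exists_hh (F : Face) {q τ : ℝ} (N : ℕ) (hP : GPar q τ 1) :
    ∃ h : E3 ≃ₜ E3, (∀ x, h x = trf F.V F.e F.e' (f0.Gh N hP) x) ∧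
      PLOn h univ ∧ PLOn h.symm univ := by
  have c' : Cht F.K F.V f0.Oc f0.O F.e F.e' (F.M / F.ρ) (F.M * F.ρ) := by
    rw [f0_Oc, f0_O]; exact F.cht
  obtain ⟨H, k1, k2, k3, k4⟩ := c'.exists_homeo (f0.Gh N hP) (f0.plOn_T (sg_cgf hP))
    (f0.plOn_T (sg_cgg hP)) (fun z hz => f0.T_out (sg_cgf hP) hz)
  exact ⟨H, k1, k3, k4⟩

/-- the squeeze of a face -/
noncomputable def Face.hh (F : Face) {q τ : ℝ} (N : ℕ) (hP : GPar q τ 1) : E3 ≃ₜ E3 :=
  (F.exists_hh N hP).choose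

lemma Face.hh_eq (F : Face) {q τ : ℝ} (N : ℕ) (hP : GPar q τ 1) :
    (F.hh N hP : E3 → E3) = trf F.V F.e F.e' (f0.Gh N hP) :=
  funext (F.exists_hh N hP).choose_spec.1

lemma Face.hh_in (F : Face) {q τ : ℝ} (N : ℕ) (hP : GPar q τ 1) {x : E3} (hx : x ∈ F.K) :
    F.hh N hP x = F.e' (f0.T (cgf q τ N) (F.e x)) := by
  have c' : Cht F.K F.V f0.Oc f0.O F.e F.e' (F.M / F.ρ) (F.M * F.ρ) := by
    rw [f0_Oc, f0_O]; exact F.cht
  rw [F.hh_eq, c'.trf_K (h := f0.Gh N hP) (fun z hz => f0.T_out (sg_cgf hP) hz) hx]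
  rfl

lemma Face.hh_out (F : Face) {q τ : ℝ} (N : ℕ) (hP : GPar q τ 1) {x : E3} (hx : x ∉ F.V) :
    F.hh N hP x = x := by rw [F.hh_eq, trf_out hx]

lemma Face.plOn_hh (F : Face) {q τ : ℝ} (N : ℕ) (hP : GPar q τ 1) : PLOn (F.hh N hP) univ :=
  (F.exists_hh N hP).choose_spec.2.1

lemma Face.plOn_hh_symm (F : Face) {q τ : ℝ} (N : ℕ) (hP : GPar q τ 1) :
    PLOn (F.hh N hP).symm univ := (F.exists_hh N hP).choose_spec.2.2

lemma Face.hh_mem (F : Face) {q τ : ℝ} (N : ℕ) (hP : GPar q τ 1) {x : E3} (hx : x ∈ F.V) :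
    F.hh N hP x ∈ F.V :=
  maps_of_fix (F.hh N hP).injective (fun _ h => F.hh_out N hP h) hx

lemma Face.hh_zero (F : Face) {q τ : ℝ} (N : ℕ) (hP : GPar q τ 1) {x : E3} (hx : x ∈ F.V) :
    F.e (F.hh N hP x) 0 = F.e x 0 := by
  have c' : Cht F.K F.V f0.Oc f0.O F.e F.e' (F.M / F.ρ) (F.M * F.ρ) := by
    rw [f0_Oc, f0_O]; exact F.cht
  have hz := c'.eU hx
  have hz2 : f0.Gh N hP (F.e x) ∈ f0.O := f0.T_mem (sg_cgf hP) hz
  rw [F.hh_eq, trf_in hx, c'.inv' _ (c'.sub' hz2), Tile.Gh_apply]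
  exact f0.T_i _

/-- **the estimate of one cell** -/
theorem Cell.est (C : Cell) {p : ℝ} (hp : 0 < p) (hp3 : p < 3) {η : ℝ} (N : ℕ)
    (hP : GPar (qn 3 p) (η * (1 - qn 3 p)) 1) :
    Est p (C.hh N hP) C.U (C.P ∩ C.e ⁻¹' {z | 1 - η < ‖z‖ ∧ ‖z‖ ≤ 1}) C.P
      (ENNReal.ofReal (mc p C.M * (c3 p / η)))
      (ENNReal.ofReal (mc p C.M * Kg 3 p * (qn 3 p)^(2*N))) := by
  have hp3' : p < ((3:ℕ):ℝ) := by exact_mod_cast hp3
  have e0 := Q0.est hp (by norm_num) (qn_sq 3 p) N hP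
  rw [gpar_eta hp3'] at e0
  have c' : Cht C.P C.U Q0.K Q0.I C.e C.e' (C.M / C.R) (C.M * C.R) := by
    rw [Q0_K, Q0_I]; exact C.cht
  have hfix : ∀ z, z ∉ Q0.I → Q0.S N hP z = z := fun z hz => Q0.S_out hP hz
  have e1 := Est.trf hp.le c' (by
    have := C.one
    have hR := C.pos
    have e1 : (C.M * C.R) * (C.M / C.R) = C.M * C.M := by field_simp
    rw [e1]
    exact one_le_mul this this) (Q0.S N hP).injective hfix
    (A := Q0.L (1 - η)) (B := Q0.K) (by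
      refine MeasurableSet.inter ?_ ?_
      · exact (isOpen_lt continuous_const (continuous_id.sub continuous_const).norm).measurableSet
      · exact (isClosed_le (continuous_id.sub continuous_const).norm
          continuous_const).measurableSet) Q0.isClosed_K.measurableSet
    (fun x hx => hx.2) subset_rfl e0
  rw [C.hh_eq]
  rw [const_eq C.pos, const_eq C.pos] at e1
  have e3 : Kg 3 p / (η * (1 - qn 3 p)) = c3 p / η := by
    rw [c3, div_div, mul_comm η]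
  rw [e3] at e1
  intro u F hu hfin hF
  refine (e1 u F hu hfin hF).trans (add_le_add (mul_le_mul' le_rfl (lintegral_mono_set ?_))
    (mul_le_mul' (le_of_eq ?_) (lintegral_mono_set inter_subset_left)))
  · rintro x ⟨hx1, hx2⟩
    refine ⟨hx1, ?_⟩
    obtain ⟨a, b⟩ := hx2
    have a' : (1 - η) * 1 < ‖C.e x - 0‖ := a
    have b' : ‖C.e x - 0‖ ≤ 1 := b
    rw [sub_zero] at a' b'
    rw [mul_one] at a'
    exact ⟨a', b'⟩
  · congr 1
    ring

/-- **the estimate of one face** -/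
theorem Face.est (F : Face) {p : ℝ} (hp : 0 < p) (hp2 : p < 2) {q η : ℝ} (hq : q = qn 2 p) (N : ℕ)
    (hP : GPar q (η * (1 - q)) 1) :
    Est p (F.hh N hP) F.V
      (F.K ∩ F.e ⁻¹' {z | (1 - η) * (1 - |z 0|) ≤ wid z ∧ |z 0| + wid z ≤ 1}) F.K
      (ENNReal.ofReal (mc p F.M * (c2 p / η)))
      (ENNReal.ofReal (mc p F.M * (3^p * Kg 2 p) * q^(2*N))) := by
  subst hq
  have hp2' : p < ((2:ℕ):ℝ) := by exact_mod_cast hp2
  have e0 := f0.est hp (by norm_num) (qn_sq 2 p) N hP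
  rw [gpar_eta hp2'] at e0
  have c' : Cht F.K F.V f0.Oc f0.O F.e F.e' (F.M / F.ρ) (F.M * F.ρ) := by
    rw [f0_Oc, f0_O]; exact F.cht
  have hfix : ∀ z, z ∉ f0.O → f0.Gh N hP z = z := fun z hz => f0.T_out (sg_cgf hP) hz
  have e1 := Est.trf hp.le c' (by
    have := F.one
    have hR := F.pos
    have e1 : (F.M * F.ρ) * (F.M / F.ρ) = F.M * F.M := by field_simp
    rw [e1]
    exact one_le_mul this this) (f0.Gh N hP).injective hfix
    (A := f0.dn ⁻¹' Lay 2 (1 - η)) (B := f0.dn ⁻¹' Tot 2)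
    (f0.continuous_dn.measurable (measurableSet_Lay _))
    (f0.continuous_dn.measurable measurableSet_Tot)
    (fun x hx => by
      obtain ⟨a1, a2, a3⟩ := hx
      show |(f0.dn x).1| + ‖(f0.dn x).2‖ ≤ 1
      linarith)
    (fun x hx => by
      obtain ⟨a1, a3⟩ := hx
      show |(f0.dn x).1| + ‖(f0.dn x).2‖ ≤ 1
      linarith) e0
  rw [F.hh_eq]
  rw [const_eq F.pos, const_eq F.pos] at e1
  have e3 : 3^p * Kg 2 p / (η * (1 - qn 2 p)) = c2 p / η := by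
    rw [c2, div_div, mul_comm η]
  rw [e3] at e1
  intro u G hu hfin hG
  refine (e1 u G hu hfin hG).trans (add_le_add (mul_le_mul' le_rfl (lintegral_mono_set ?_))
    (mul_le_mul' (le_of_eq ?_) (lintegral_mono_set inter_subset_left)))
  · rintro x ⟨hx1, hx2⟩
    refine ⟨hx1, ?_⟩
    obtain ⟨a1, a2, a3⟩ := hx2
    rw [f0_fst, f0_snd] at *
    refine ⟨a2.le, ?_⟩
    have : wid (F.e x) ≤ 1 - |F.e x 0| := a3
    linarith
  · congr 1
    ring

/-! ### the maps -/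

/-- the ratio for the faces -/
noncomputable def qF (p : ℝ) : ℝ := open Classical in if p < 2 then qn 2 p else 1/2

lemma qF_eq {p : ℝ} (h : p < 2) : qF p = qn 2 p := if_pos h

lemma qF_pos (p : ℝ) : 0 < qF p := by
  unfold qF
  split_ifs
  · exact qn_pos 2 p
  · norm_num

lemma qF_lt (p : ℝ) : qF p < 1 := by
  unfold qF
  split_ifs with h
  · exact qn_lt (by exact_mod_cast h)
  · norm_num

lemma gparq {q : ℝ} (h0 : 0 < q) (h1 : q < 1) {η : ℝ} (e0 : 0 < η) (e1 : η ≤ 1/2) :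
    GPar q (η * (1 - q)) 1 := by
  refine ⟨h0, h1, mul_pos e0 (by linarith), ?_, le_rfl⟩
  rw [mul_div_assoc, div_self (by linarith : (1:ℝ) - q ≠ 0), mul_one]
  linarith

namespace Sys

variable {κ ι : Type*} [Fintype κ] [Fintype ι] (X : Sys κ ι)

/-- relative thickness of the layer of a cell -/
noncomputable def ηC (δ : ℝ) (k : κ) : ℝ := δ / (3 * (X.m k : ℝ)^3 * (X.C k).R)

/-- relative thickness of the layer of a face -/
noncomputable def ηF (δ : ℝ) (j : ι) : ℝ := δ / (2 * (X.F j).M * (X.F j).ρ)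

/-- admissible parameters -/
structure Adm (p δ : ℝ) : Prop where
  p0 : 0 < p
  p3 : p < 3
  d0 : 0 < δ
  dC : ∀ k, δ ≤ (X.C k).R
  dF : ∀ j, δ ≤ (X.F j).ρ

variable {X} {p δ : ℝ} (h : X.Adm p δ)

lemma m_one (k : κ) : (1:ℝ) ≤ X.m k := by
  have := (X.C k).one.trans (X.mC k)
  exact_mod_cast this

include h

lemma ηC_pos (k : κ) : 0 < X.ηC δ k := by
  have := m_one (X := X) k
  have := (X.C k).R_pos
  have := h.d0
  unfold ηC; positivity

lemma ηC_le (k : κ) : X.ηC δ k ≤ 1/2 := by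
  have h1 := m_one (X := X) k
  have h2 := (X.C k).R_pos
  have h3 := h.dC k
  have h0 := h.d0
  unfold ηC
  have h4 : (1:ℝ) ≤ (X.m k : ℝ)^3 := one_le_pow₀ h1
  rw [div_le_iff₀ (by positivity)]
  nlinarith

lemma ηF_pos (j : ι) : 0 < X.ηF δ j := by
  have := (X.F j).M_pos
  have := (X.F j).ρ_pos
  have := h.d0
  unfold ηF; positivity

lemma ηF_le (j : ι) : X.ηF δ j ≤ 1/2 := by
  have h1 := (X.F j).M_one
  have h2 := (X.F j).ρ_pos
  have h3 := h.dF j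
  have h0 := h.d0
  unfold ηF
  rw [div_le_iff₀ (by positivity)]
  nlinarith

lemma gC (k : κ) : GPar (qn 3 p) (X.ηC δ k * (1 - qn 3 p)) 1 :=
  gpar (by exact_mod_cast h.p3) (ηC_pos h k) (ηC_le h k)

lemma gF (j : ι) : GPar (qF p) (X.ηF δ j * (1 - qF p)) 1 :=
  gparq (qF_pos p) (qF_lt p) (ηF_pos h j) (ηF_le h j)

lemma exists_H (N : ℕ) : ∃ H : E3 ≃ₜ E3, PLOn H univ ∧ PLOn H.symm univ ∧
    (∀ j, ∀ x ∈ (X.F j).V, H x = (X.F j).hh N (gF h j) x) ∧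
    ∀ x, (∀ j, x ∉ (X.F j).V) → H x = x := by
  obtain ⟨H, H1, H2, H3, H4⟩ := exists_prod Finset.univ (fun j => (X.F j).hh N (gF h j))
    (fun j => (X.F j).V) (fun j _ => (X.F j).plOn_hh N (gF h j))
    (fun j _ => (X.F j).plOn_hh_symm N (gF h j))
    (fun j _ x hx => (X.F j).hh_out N (gF h j) hx) (fun i _ j _ hij => X.disF i j hij)
  exact ⟨H, H1, H2, fun j => H3 j (Finset.mem_univ j), fun x hx => H4 x fun j _ => hx j⟩

lemma exists_Y (N : ℕ) : ∃ H : E3 ≃ₜ E3, PLOn H univ ∧ PLOn H.symm univ ∧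
    (∀ k, ∀ x ∈ (X.C k).U, H x = (X.C k).hh N (gC h k) x) ∧
    ∀ x, (∀ k, x ∉ (X.C k).U) → H x = x := by
  obtain ⟨H, H1, H2, H3, H4⟩ := exists_prod Finset.univ (fun k => (X.C k).hh N (gC h k))
    (fun k => (X.C k).U) (fun k _ => (X.C k).plOn_hh N (gC h k))
    (fun k _ => (X.C k).plOn_hh_symm N (gC h k))
    (fun k _ x hx => (X.C k).hh_out N (gC h k) hx) (fun i _ j _ hij => X.disC i j hij)
  exact ⟨H, H1, H2, fun j => H3 j (Finset.mem_univ j), fun x hx => H4 x fun j _ => hx j⟩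

omit h in
/-- **the squeeze of all faces** -/
noncomputable def H (h : X.Adm p δ) (N : ℕ) : E3 ≃ₜ E3 := (exists_H h N).choose

omit h in
/-- **the squeeze of all cells** -/
noncomputable def Y (h : X.Adm p δ) (N : ℕ) : E3 ≃ₜ E3 := (exists_Y h N).choose

omit h in
/-- **the squeeze** `chi x = H (Y x)` -/
noncomputable def chi (h : X.Adm p δ) (N₁ N₂ : ℕ) : E3 ≃ₜ E3 := (Y h N₂).trans (H h N₁)

variable (N : ℕ)

lemma plOn_H : PLOn (H h N) univ := (exists_H h N).choose_spec.1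
lemma plOn_H_symm : PLOn (H h N).symm univ := (exists_H h N).choose_spec.2.1
lemma H_eq {j : ι} {x : E3} (hx : x ∈ (X.F j).V) : H h N x = (X.F j).hh N (gF h j) x :=
  (exists_H h N).choose_spec.2.2.1 j x hx
lemma H_out {x : E3} (hx : ∀ j, x ∉ (X.F j).V) : H h N x = x :=
  (exists_H h N).choose_spec.2.2.2 x hx
lemma plOn_Y : PLOn (Y h N) univ := (exists_Y h N).choose_spec.1
lemma plOn_Y_symm : PLOn (Y h N).symm univ := (exists_Y h N).choose_spec.2.1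
lemma Y_eq {k : κ} {x : E3} (hx : x ∈ (X.C k).U) : Y h N x = (X.C k).hh N (gC h k) x :=
  (exists_Y h N).choose_spec.2.2.1 k x hx
lemma Y_out {x : E3} (hx : ∀ k, x ∉ (X.C k).U) : Y h N x = x :=
  (exists_Y h N).choose_spec.2.2.2 x hx

/-- the formula of `H` -/
lemma H_in {j : ι} {x : E3} (hx : x ∈ (X.F j).V) :
    H h N x = (X.F j).e' (f0.T (cgf (qF p) (X.ηF δ j * (1 - qF p)) N) ((X.F j).e x)) := by
  rw [H_eq h N hx, (X.F j).hh_in N (gF h j) ((X.F j).cht.sub hx)]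

/-- the formula of `Y` -/
lemma Y_in {k : κ} {x : E3} (hx : x ∈ (X.C k).U) :
    Y h N x = (X.C k).e' (cgf (qn 3 p) (X.ηC δ k * (1 - qn 3 p)) N ((X.C k).e x)) := by
  rw [Y_eq h N hx, (X.C k).hh_in N (gC h k) ((X.C k).cht.sub hx)]

lemma H_mem {j : ι} {x : E3} (hx : x ∈ (X.F j).V) : H h N x ∈ (X.F j).V := by
  rw [H_eq h N hx]; exact (X.F j).hh_mem N (gF h j) hx

lemma H_zero {j : ι} {x : E3} (hx : x ∈ (X.F j).V) :
    (X.F j).e (H h N x) 0 = (X.F j).e x 0 := by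
  rw [H_eq h N hx]; exact (X.F j).hh_zero N (gF h j) hx

lemma Y_mem {k : κ} {x : E3} (hx : x ∈ (X.C k).U) : Y h N x ∈ (X.C k).U := by
  rw [Y_eq h N hx]
  exact maps_of_fix ((X.C k).hh N (gC h k)).injective (fun _ hx => (X.C k).hh_out N (gC h k) hx) hx

lemma H_P (k : κ) (x : E3) : H h N x ∈ (X.C k).P ↔ x ∈ (X.C k).P := by
  by_cases hx2 : ∃ j, x ∈ (X.F j).V
  · obtain ⟨j, hj⟩ := hx2
    exact ⟨X.side j k _ (H_mem h N hj) _ hj (H_zero h N hj),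
      X.side j k x hj _ (H_mem h N hj) (H_zero h N hj).symm⟩
  · push Not at hx2
    rw [H_out h N hx2]

lemma Y_P (k : κ) (x : E3) : Y h N x ∈ (X.C k).P ↔ x ∈ (X.C k).P := by
  by_cases hx2 : ∃ l, x ∈ (X.C l).U
  · obtain ⟨l, hl⟩ := hx2
    by_cases hkl : l = k
    · subst hkl
      exact ⟨fun _ => (X.C l).cht.sub hl, fun _ => (X.C l).cht.sub (Y_mem h N hl)⟩
    · have hd := Set.disjoint_left.1 (Cell.disjoint_P (X.disC k l (Ne.symm hkl)))
      exact ⟨fun hx => absurd (Y_mem h N hl) (hd hx), fun hx => absurd hl (hd hx)⟩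
  · push Not at hx2
    rw [Y_out h N hx2]

lemma H_Om {O : Set E3} (hF : ∀ j, (X.F j).K ⊆ O) (z : E3) : H h N z ∈ O ↔ z ∈ O := by
  by_cases hz : ∃ j, z ∈ (X.F j).V
  · obtain ⟨j, hj⟩ := hz
    exact ⟨fun _ => hF j ((X.F j).cht.sub hj), fun _ => hF j ((X.F j).cht.sub (H_mem h N hj))⟩
  · push Not at hz
    rw [H_out h N hz]

lemma Y_Om {O : Set E3} (hC : ∀ k, (X.C k).P ⊆ O) (z : E3) : Y h N z ∈ O ↔ z ∈ O := by
  by_cases hz : ∃ k, z ∈ (X.C k).U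
  · obtain ⟨k, hk⟩ := hz
    exact ⟨fun _ => hC k ((X.C k).cht.sub hk), fun _ => hC k ((X.C k).cht.sub (Y_mem h N hk))⟩
  · push Not at hz
    rw [Y_out h N hz]

end Sys

/-! ### the estimate -/

/-- one step: `u' ≤ κ c^p u(h ·)` a.e. on `O`, `c` a local Lipschitz constant of `h` -/
def Stp (κ : ℝ≥0∞) (p : ℝ) (O : Set E3) (h : E3 → E3) (u u' : E3 → ℝ≥0∞) : Prop :=
  ∀ᵐ z, z ∈ O → ∀ c : ℝ, 1 ≤ c → LLV c h z → u' z ≤ κ * (ENNReal.ofReal (c^p) * u (h z))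

lemma Stp.energy {s : ℝ≥0∞} (hs : s ≠ ∞) {p : ℝ} {O : Set E3} {χ : E3 → E3} {u u' : E3 → ℝ≥0∞}
    (hu : Measurable u) (hfin : ∀ᵐ z, u z ≠ ∞) (hstep : Stp s p O χ u u')
    {U A B : Set E3} {a b : ℝ≥0∞} (H : Est p χ U A B a b) (hU : U ⊆ O)
    {S : Set E3} (mS : MeasurableSet S) (hS : ∀ x ∈ U, x ∈ S → χ x ∈ S) :
    ∫⁻ x in U ∩ S, u' x ≤ s * (a * (∫⁻ x in A ∩ S, u x) + b * ∫⁻ x in B ∩ S, u x) := by
  have key := H.inter mS hS (u := fun z => s * u z) (F := u') (hu.const_mul s) (by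
      filter_upwards [hfin] with z hz
      exact ENNReal.mul_ne_top hs hz) (by
    filter_upwards [hstep] with z hz hzU c hc hcz
    refine (hz (hU hzU) c hc hcz).trans (le_of_eq ?_)
    ring)
  rw [lintegral_const_mul _ hu, lintegral_const_mul _ hu] at key
  refine key.trans (le_of_eq ?_)
  ring

lemma tendsto_err {q : ℝ} (h0 : 0 < q) (h1 : q < 1) (c : ℝ) :
    Tendsto (fun N : ℕ => ENNReal.ofReal (c * q^(2*N))) atTop (𝓝 0) := by
  have h2 : Tendsto (fun N : ℕ => c * (q^2)^N) atTop (𝓝 (c * 0)) :=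
    (tendsto_pow_atTop_nhds_zero_of_lt_one (by positivity) (by nlinarith)).const_mul c
  have h3 := (ENNReal.tendsto_ofReal h2)
  rw [mul_zero, ENNReal.ofReal_zero] at h3
  refine h3.congr fun N => ?_
  rw [pow_mul]

namespace Sys

variable {κ ι : Type*} [Fintype κ] [Fintype ι] {X : Sys κ ι} {p δ : ℝ}

/-- constant of a cell -/
noncomputable def aC (X : Sys κ ι) (p δ : ℝ) (k : κ) : ℝ≥0∞ :=
  ENNReal.ofReal (mc p (X.C k).M * (c3 p / X.ηC δ k))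

/-- error factor of the faces -/
noncomputable def bF (X : Sys κ ι) (p δ : ℝ) (N : ℕ) : ℝ≥0∞ :=
  (∑ k, X.aC p δ k) *
    ∑ j, ENNReal.ofReal (mc p (X.F j).M * (3^p * Kg 2 p) * (qF p)^(2*N))

/-- error factor of the cells -/
noncomputable def bC (X : Sys κ ι) (p : ℝ) (N : ℕ) : ℝ≥0∞ :=
  ∑ k, ENNReal.ofReal (mc p (X.C k).M * Kg 3 p * (qn 3 p)^(2*N))

lemma tendsto_bF (X : Sys κ ι) (p δ : ℝ) : Tendsto (X.bF p δ) atTop (𝓝 0) := by
  have h1 : Tendsto (fun N : ℕ => ∑ j, ENNReal.ofReal (mc p (X.F j).M * (3^p * Kg 2 p) *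
      (qF p)^(2*N))) atTop (𝓝 (∑ j : ι, (0:ℝ≥0∞))) :=
    tendsto_finsetSum _ fun j _ => tendsto_err (qF_pos p) (qF_lt p) _
  rw [Finset.sum_const_zero] at h1
  have h2 : (∑ k, X.aC p δ k) ≠ ∞ :=
    (ENNReal.sum_lt_top.2 fun k _ => ENNReal.ofReal_lt_top).ne
  have h3 := ENNReal.Tendsto.const_mul h1 (Or.inr h2)
  rw [mul_zero] at h3
  exact h3

lemma tendsto_bC (X : Sys κ ι) {p : ℝ} (hp : p < 3) : Tendsto (X.bC p) atTop (𝓝 0) := by
  have h1 : Tendsto (fun N : ℕ => ∑ k, ENNReal.ofReal (mc p (X.C k).M * Kg 3 p *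
      (qn 3 p)^(2*N))) atTop (𝓝 (∑ k : κ, (0:ℝ≥0∞))) :=
    tendsto_finsetSum _ fun j _ => tendsto_err (qn_pos 3 p) (qn_lt (by exact_mod_cast hp)) _
  rwa [Finset.sum_const_zero] at h1

/-- **SOBSQ, the integral estimate** -/
theorem est (h : X.Adm p δ) {O : Set E3} (mO : MeasurableSet O) (hC : ∀ k, (X.C k).P ⊆ O)
    (hF : ∀ j, (X.F j).K ⊆ O) {N₁ N₂ : ℕ} {s : ℝ≥0∞} (hs : s ≠ ∞) {u u₁ u₂ : E3 → ℝ≥0∞}
    (mu : Measurable u) (fu : ∀ᵐ z, u z ≠ ∞) (mu₁ : Measurable u₁) (fu₁ : ∀ᵐ z, u₁ z ≠ ∞)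
    (s₁ : Stp s p O (H h N₁) u u₁) (s₂ : Stp s p O (Y h N₂) u₁ u₂) (k : κ)
    (hk : p < 2 ∨ ∀ j, ¬ ((X.F j).V ∩ (X.C k).P).Nonempty) :
    ∫⁻ x in (X.C k).P, u₂ x ≤
      s * s * (ENNReal.ofReal (T3 p (X.m k) * (1 + T2 p (X.m k))) *
        (ENNReal.ofReal ((X.C k).R / δ) *
            ((∑ j, ENNReal.ofReal ((X.F j).ρ / δ) *
              ∫⁻ x in (X.C k).P ∩ (X.F j).V ∩ nb δ (X.F j).rim, u x) +
            ∫⁻ x in (X.C k).P ∩ (nb δ X.Z ∪ ⋃ j, nb δ (X.F j).rim), u x))) +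
      s * s * (X.bF p δ N₁ * ∫⁻ x, u x) + s * (X.bC p N₂ * ∫⁻ x, u₁ x) := by
  classical
  have hp := h.p0
  have hp3 := h.p3
  have hδ := h.d0
  have hηC0 := ηC_pos h
  have hηC1 := ηC_le h
  have hηF0 := ηF_pos h
  have hηF1 := ηF_le h
  have hm1 := fun k => m_one (X := X) k
  -- (a) the cell step
  set Lk : Set E3 := (X.C k).P ∩ (X.C k).e ⁻¹' {z | 1 - X.ηC δ k < ‖z‖ ∧ ‖z‖ ≤ 1} with hLk
  have qa : ∫⁻ x in (X.C k).U, u₂ x ≤
      s * (X.aC p δ k * (∫⁻ x in Lk, u₁ x) + X.bC p N₂ * ∫⁻ x in (X.C k).P, u₁ x) := by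
    have := Stp.energy (S := univ) hs mu₁ fu₁ s₂
      (Est.prod (X.C k).cht.opU (fun x hx => Y_eq h N₂ hx) ((X.C k).est hp hp3 N₂ (gC h k)))
      (fun z hz => hC k ((X.C k).cht.sub hz)) MeasurableSet.univ (fun x _ _ => mem_univ _)
    rw [inter_univ, inter_univ, inter_univ] at this
    refine this.trans (mul_le_mul' le_rfl (add_le_add le_rfl (mul_le_mul' ?_ le_rfl)))
    exact Finset.single_le_sum (f := fun k => ENNReal.ofReal (mc p (X.C k).M * Kg 3 p *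
      (qn 3 p)^(2*N₂))) (fun _ _ => zero_le) (Finset.mem_univ k)
  have qa' : ∫⁻ x in (X.C k).P, u₂ x ≤
      s * (X.aC p δ k * (∫⁻ x in Lk, u₁ x) + X.bC p N₂ * ∫⁻ x in (X.C k).P, u₁ x) := by
    refine le_trans ?_ qa
    have e1 : (X.C k).P ⊆ (X.C k).U ∪ ((X.C k).P \ (X.C k).U) := by
      intro x hx
      by_cases h1 : x ∈ (X.C k).U
      · exact Or.inl h1
      · exact Or.inr ⟨hx, h1⟩
    refine (lintegral_mono_set e1).trans ((lintegral_union_le _ _ _).trans ?_)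
    rw [setLIntegral_measure_zero _ _ (X.C k).null, add_zero]
  -- (b) off the faces
  have qb : ∀ᵐ z, z ∈ O → (∀ j, z ∉ (X.F j).V) → u₁ z ≤ s * u z := by
    have hn : ∀ᵐ z, ∀ j, z ∉ (X.F j).K \ (X.F j).V := by
      rw [ae_all_iff]
      intro j
      exact measure_eq_zero_iff_ae_notMem.1 (X.F j).null
    filter_upwards [s₁, hn] with z hz hz2 hzO hzV
    have hzK : ∀ j, z ∉ (X.F j).K := fun j hj3 => hz2 j ⟨hj3, hzV j⟩
    have h6 : ∀ᶠ y in 𝓝 z, ∀ j, y ∉ (X.F j).K :=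
      eventually_all.2 fun j => (X.F j).cht.clK.isOpen_compl.mem_nhds (hzK j)
    have h7 : LLV 1 (H h N₁) z := by
      filter_upwards [h6] with y hy
      rw [H_out h N₁ fun j hj3 => hy j ((X.F j).cht.sub hj3), H_out h N₁ hzV, one_mul]
    have h8 := hz hzO 1 le_rfl h7
    rwa [Real.one_rpow, ENNReal.ofReal_one, one_mul, H_out h N₁ hzV] at h8
  -- (c) the faces
  set Ij : ι → ℝ≥0∞ := fun j =>
    ∫⁻ x in (X.C k).P ∩ (X.F j).V ∩ nb δ (X.F j).rim, u x with hIj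
  have hdist : ∀ j, ((X.F j).V ∩ (X.C k).P).Nonempty → ((X.F j).M : ℝ) ≤ X.m k := fun j hj3 => by
    exact_mod_cast X.mF k j hj3
  have hd0 : ((X.C k).M : ℝ) * (X.C k).R * X.ηC δ k ≤ δ / (3 * (X.m k : ℝ)^2) := by
    have h1 := hm1 k
    have h2 := (X.C k).R_pos
    have h3 : ((X.C k).M : ℝ) ≤ X.m k := by exact_mod_cast X.mC k
    show ((X.C k).M : ℝ) * (X.C k).R * (δ / (3 * (X.m k : ℝ)^3 * (X.C k).R)) ≤ _
    have e : ((X.C k).M : ℝ) * (X.C k).R * (δ / (3 * (X.m k : ℝ)^3 * (X.C k).R)) =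
        ((X.C k).M / X.m k) * (δ / (3 * (X.m k : ℝ)^2)) := by
      field_simp
    rw [e]
    have h5 : ((X.C k).M : ℝ) / X.m k ≤ 1 := by rw [div_le_one (by linarith)]; exact h3
    have h6 : 0 ≤ δ / (3 * (X.m k : ℝ)^2) := by positivity
    nlinarith
  have hδ' : δ / (3 * (X.m k : ℝ)^2) ≤ δ := by
    have h1 := hm1 k
    rw [div_le_iff₀ (by positivity)]
    have : (1:ℝ) ≤ (X.m k : ℝ)^2 := one_le_pow₀ h1
    nlinarith
  have qc : ∀ j, ∫⁻ x in Lk ∩ (X.F j).V, u₁ x ≤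
      s * (ENNReal.ofReal (T2 p (X.m k)) * (ENNReal.ofReal ((X.F j).ρ / δ) * Ij j) +
        ENNReal.ofReal (mc p (X.F j).M * (3^p * Kg 2 p) * (qF p)^(2*N₁)) * ∫⁻ x, u x) := by
    intro j
    by_cases hne : ((X.F j).V ∩ (X.C k).P).Nonempty
    · have hp2 : p < 2 := by
        rcases hk with h1 | h1
        · exact h1
        · exact absurd hne (h1 j)
      have hM := hdist j hne
      have hM1 := (X.F j).M_one
      have hρ := (X.F j).ρ_pos
      set S : Set E3 := (X.C k).P ∩ ((X.F j).K ∩ (X.F j).e ⁻¹' {z | |z 0| ≤ X.ηF δ j}) with hSdef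
      have clS : IsClosed S := by
        refine (X.C k).cht.clK.inter ?_
        refine (X.F j).cht.pl.1.preimage_isClosed_of_isClosed (X.F j).cht.clK ?_
        exact isClosed_le (continuous_apply 0).abs continuous_const
      have sub1 : Lk ∩ (X.F j).V ⊆ (X.F j).V ∩ S := by
        rintro x ⟨⟨hx1, hx2⟩, hx3⟩
        refine ⟨hx3, hx1, (X.F j).cht.sub hx3, ?_⟩
        obtain ⟨y, hy, hxy⟩ := (X.C k).layer (by have := hηC1 k; linarith) hx1 hx2.1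
        have h1 := X.slab j k x hx3 hx1 y hy
        show |(X.F j).e x 0| ≤ δ / (2 * (X.F j).M * (X.F j).ρ)
        rw [le_div_iff₀ (by positivity)]
        have h2 : ‖x - y‖ ≤ δ / (3 * (X.m k : ℝ)^2) := hxy.trans hd0
        have h3 : ((X.F j).M : ℝ) * ‖x - y‖ ≤ (X.F j).M * (δ / (3 * (X.m k : ℝ)^2)) :=
          mul_le_mul_of_nonneg_left h2 (by positivity)
        have h4 : (X.F j).ρ * |(X.F j).e x 0| ≤ (X.F j).M * (δ / (3 * (X.m k : ℝ)^2)) :=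
          h1.trans h3
        have h5 : 2 * ((X.F j).M : ℝ) * ((X.F j).M * (δ / (3 * (X.m k : ℝ)^2))) ≤ δ := by
          have h6 := hm1 k
          have e : 2 * ((X.F j).M : ℝ) * ((X.F j).M * (δ / (3 * (X.m k : ℝ)^2))) =
              (2/3) * δ * (((X.F j).M / X.m k) * ((X.F j).M / X.m k)) := by
            field_simp
          rw [e]
          have h7 : ((X.F j).M : ℝ) / X.m k ≤ 1 := by rw [div_le_one (by linarith)]; exact hM
          have h8 : 0 ≤ ((X.F j).M : ℝ) / X.m k := by positivity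
          have h9 : ((X.F j).M / X.m k : ℝ) * ((X.F j).M / X.m k) ≤ 1 := by nlinarith
          nlinarith
        calc |(X.F j).e x 0| * (2 * (X.F j).M * (X.F j).ρ)
            = 2 * ((X.F j).M : ℝ) * ((X.F j).ρ * |(X.F j).e x 0|) := by ring
          _ ≤ 2 * ((X.F j).M : ℝ) * ((X.F j).M * (δ / (3 * (X.m k : ℝ)^2))) :=
              mul_le_mul_of_nonneg_left h4 (by positivity)
          _ ≤ δ := h5
      have key := Stp.energy (S := S) hs mu fu s₁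
        (Est.prod (X.F j).cht.opU (fun x hx => H_eq h N₁ hx)
          ((X.F j).est hp hp2 (qF_eq hp2) N₁ (gF h j)))
        (fun z hz => hF j ((X.F j).cht.sub hz))
        clS.measurableSet (by
          rintro x hxV ⟨hx1, hx2, hx3⟩
          refine ⟨(H_P h N₁ k x).2 hx1, (X.F j).cht.sub (H_mem h N₁ hxV), ?_⟩
          show |(X.F j).e (H h N₁ x) 0| ≤ X.ηF δ j
          rw [H_zero h N₁ hxV]
          exact hx3)
      refine (lintegral_mono_set sub1).trans (key.trans (mul_le_mul' le_rfl (add_le_add ?_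
        (mul_le_mul' le_rfl (setLIntegral_le_lintegral _ _)))))
      rw [← mul_assoc]
      refine mul_le_mul' (aF_le hp.le (X.F j).one (X.F j).pos (X.mF k j hne) hδ) ?_
      have sub2 : ((X.F j).K ∩ (X.F j).e ⁻¹'
          {z | (1 - X.ηF δ j) * (1 - |z 0|) ≤ wid z ∧ |z 0| + wid z ≤ 1}) ∩ S ⊆
          ((X.C k).P ∩ (X.F j).V ∩ nb δ (X.F j).rim) ∪ ((X.F j).K \ (X.F j).V) := by
        rintro x ⟨⟨hx1, hx2⟩, hx3, -, hx4⟩
        by_cases hxV : x ∈ (X.F j).V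
        · left
          refine ⟨⟨hx3, hxV⟩, ?_⟩
          obtain ⟨r, hr, hxr⟩ := (X.F j).near hx1 (hηF0 j).le hx4 hx2.1
          refine ⟨r, hr, hxr.trans (le_of_eq ?_)⟩
          show ((X.F j).M : ℝ) * (X.F j).ρ * (δ / (2 * (X.F j).M * (X.F j).ρ) +
            δ / (2 * (X.F j).M * (X.F j).ρ)) = δ
          field_simp
          ring
        · exact Or.inr ⟨hx1, hxV⟩
      refine (lintegral_mono_set sub2).trans ((lintegral_union_le _ _ _).trans ?_)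
      rw [setLIntegral_measure_zero _ _ (X.F j).null, add_zero]
    · have e1 : Lk ∩ (X.F j).V = ∅ := by
        rw [← not_nonempty_iff_eq_empty]
        rintro ⟨x, hx1, hx2⟩
        exact hne ⟨x, hx2, hx1.1⟩
      rw [e1, Measure.restrict_empty, lintegral_zero_measure]
      exact zero_le
  -- (d) the rest of the layer
  set J : ℝ≥0∞ := ∫⁻ x in (X.C k).P ∩ (nb δ X.Z ∪ ⋃ j, nb δ (X.F j).rim), u x with hJ
  have qd : ∫⁻ x in Lk \ ⋃ j, (X.F j).V, u₁ x ≤ s * J := by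
    have mW : MeasurableSet (O ∩ (⋃ j, (X.F j).V)ᶜ) :=
      mO.inter (isOpen_iUnion fun j => (X.F j).cht.opU).measurableSet.compl
    have h1 : ∀ᵐ z ∂(volume.restrict (O ∩ (⋃ j, (X.F j).V)ᶜ)), u₁ z ≤ s * u z := by
      rw [ae_restrict_iff' mW]
      filter_upwards [qb] with z hz hzW
      exact hz hzW.1 fun j hj3 => hzW.2 (mem_iUnion.2 ⟨j, hj3⟩)
    have h2 : Lk \ (⋃ j, (X.F j).V) ⊆ O ∩ (⋃ j, (X.F j).V)ᶜ :=
      fun x hx => ⟨hC k hx.1.1, hx.2⟩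
    have h3 : Lk \ (⋃ j, (X.F j).V) ⊆ (X.C k).P ∩ (nb δ X.Z ∪ ⋃ j, nb δ (X.F j).rim) := by
      rintro x ⟨⟨hx1, hx2⟩, hx3⟩
      refine ⟨hx1, ?_⟩
      obtain ⟨y, hy, hxy⟩ := (X.C k).layer (by have := hηC1 k; linarith) hx1 hx2.1
      have h4 : ‖x - y‖ ≤ δ / (3 * (X.m k : ℝ)^2) := hxy.trans hd0
      rcases X.hZ k y hy with h5 | ⟨j, hj1, hj2⟩
      · left
        exact ⟨y, h5, h4.trans hδ'⟩
      · right
        have hxV : x ∉ (X.F j).V := fun h6 => hx3 (mem_iUnion.2 ⟨j, h6⟩)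
        obtain ⟨r, hr, hyr⟩ := (X.F j).exit hj1 hj2 hxV h4
        refine mem_iUnion.2 ⟨j, r, hr, ?_⟩
        have hM := hdist j ⟨y, hj1, hy.1⟩
        have hM1 := (X.F j).M_one
        have h6 := hm1 k
        have h7 : ‖x - r‖ ≤ ‖x - y‖ + ‖y - r‖ := norm_sub_le_norm_sub_add_norm_sub _ _ _
        have h8 : (1 + 2 * ((X.F j).M * (X.F j).M : ℝ)) * (δ / (3 * (X.m k : ℝ)^2)) ≤ δ := by
          have h9 : (1 + 2 * ((X.F j).M * (X.F j).M : ℝ)) ≤ 3 * (X.m k : ℝ)^2 := by nlinarith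
          have h10 : 0 ≤ δ / (3 * (X.m k : ℝ)^2) := by positivity
          calc _ ≤ 3 * (X.m k : ℝ)^2 * (δ / (3 * (X.m k : ℝ)^2)) :=
                mul_le_mul_of_nonneg_right h9 h10
            _ = δ := by field_simp
        nlinarith
    calc ∫⁻ x in Lk \ ⋃ j, (X.F j).V, u₁ x ≤ ∫⁻ x in Lk \ ⋃ j, (X.F j).V, s * u x :=
          lintegral_mono_ae (ae_mono (Measure.restrict_mono h2 le_rfl) h1)
      _ = s * ∫⁻ x in Lk \ ⋃ j, (X.F j).V, u x := lintegral_const_mul _ mu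
      _ ≤ s * J := mul_le_mul' le_rfl (lintegral_mono_set h3)
  -- (e) the layer
  set E1 : ℝ≥0∞ := ∑ j, ENNReal.ofReal (mc p (X.F j).M * (3^p * Kg 2 p) * (qF p)^(2*N₁)) with hE1
  have qe : ∫⁻ x in Lk, u₁ x ≤ s * (ENNReal.ofReal (1 + T2 p (X.m k)) *
      ((∑ j, ENNReal.ofReal ((X.F j).ρ / δ) * Ij j) + J)) + s * (E1 * ∫⁻ x, u x) := by
    have e1 : Lk ⊆ (Lk \ ⋃ j, (X.F j).V) ∪ ⋃ j, (Lk ∩ (X.F j).V) := by
      intro x hx
      by_cases h1 : x ∈ ⋃ j, (X.F j).V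
      · obtain ⟨j, hj3⟩ := mem_iUnion.1 h1
        exact Or.inr (mem_iUnion.2 ⟨j, hx, hj3⟩)
      · exact Or.inl ⟨hx, h1⟩
    have e2 : ∫⁻ x in ⋃ j, (Lk ∩ (X.F j).V), u₁ x ≤ ∑ j, ∫⁻ x in Lk ∩ (X.F j).V, u₁ x := by
      refine (lintegral_iUnion_le _ _).trans ?_
      rw [tsum_fintype]
    have t1 : (1:ℝ) ≤ 1 + T2 p (X.m k) := by have := T2_nonneg p (X.m k); linarith
    have t2 : (1:ℝ≥0∞) ≤ ENNReal.ofReal (1 + T2 p (X.m k)) := by
      rw [← ENNReal.ofReal_one]; exact ENNReal.ofReal_le_ofReal t1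
    have t3 : ENNReal.ofReal (T2 p (X.m k)) ≤ ENNReal.ofReal (1 + T2 p (X.m k)) :=
      ENNReal.ofReal_le_ofReal (by linarith)
    calc ∫⁻ x in Lk, u₁ x ≤ s * J + ∑ j, s * (ENNReal.ofReal (T2 p (X.m k)) *
          (ENNReal.ofReal ((X.F j).ρ / δ) * Ij j) +
          ENNReal.ofReal (mc p (X.F j).M * (3^p * Kg 2 p) * (qF p)^(2*N₁)) * ∫⁻ x, u x) :=
          (lintegral_mono_set e1).trans ((lintegral_union_le _ _ _).trans
            (add_le_add qd (e2.trans (Finset.sum_le_sum fun j _ => qc j))))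
      _ = s * J + s * (ENNReal.ofReal (T2 p (X.m k)) *
          (∑ j, ENNReal.ofReal ((X.F j).ρ / δ) * Ij j)) + s * (E1 * ∫⁻ x, u x) := by
          rw [← Finset.mul_sum, Finset.sum_add_distrib, ← Finset.mul_sum, ← Finset.sum_mul,
            mul_add, ← add_assoc]
      _ ≤ s * (ENNReal.ofReal (1 + T2 p (X.m k)) * J) + s * (ENNReal.ofReal (1 + T2 p (X.m k)) *
          (∑ j, ENNReal.ofReal ((X.F j).ρ / δ) * Ij j)) + s * (E1 * ∫⁻ x, u x) := by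
          refine add_le_add (add_le_add (mul_le_mul' le_rfl ?_) (mul_le_mul' le_rfl
            (mul_le_mul' t3 le_rfl))) le_rfl
          calc J = 1 * J := (one_mul _).symm
            _ ≤ _ := mul_le_mul' t2 le_rfl
      _ = _ := by ring
  -- (f) conclusion
  set Sg := (∑ j, ENNReal.ofReal ((X.F j).ρ / δ) * Ij j) + J with hSg
  have haCk : X.aC p δ k ≤ ENNReal.ofReal (T3 p (X.m k)) * ENNReal.ofReal ((X.C k).R / δ) :=
    aC_le hp.le (X.C k).one (X.C k).pos (X.mC k) hδ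
  have haS : X.aC p δ k ≤ ∑ k, X.aC p δ k :=
    Finset.single_le_sum (f := fun k => X.aC p δ k) (fun _ _ => zero_le) (Finset.mem_univ k)
  have hT : ENNReal.ofReal (T3 p (X.m k) * (1 + T2 p (X.m k))) = ENNReal.ofReal (T3 p (X.m k)) *
      ENNReal.ofReal (1 + T2 p (X.m k)) := ENNReal.ofReal_mul (T3_nonneg p (X.m k))
  calc ∫⁻ x in (X.C k).P, u₂ x
      ≤ s * (X.aC p δ k * (∫⁻ x in Lk, u₁ x) + X.bC p N₂ * ∫⁻ x in (X.C k).P, u₁ x) := qa'
    _ ≤ s * (X.aC p δ k * (s * (ENNReal.ofReal (1 + T2 p (X.m k)) * Sg) +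
        s * (E1 * ∫⁻ x, u x)) + X.bC p N₂ * ∫⁻ x, u₁ x) :=
        mul_le_mul' le_rfl (add_le_add (mul_le_mul' le_rfl qe)
          (mul_le_mul' le_rfl (setLIntegral_le_lintegral _ _)))
    _ = X.aC p δ k * (s * s * (ENNReal.ofReal (1 + T2 p (X.m k)) * Sg)) +
        s * s * (X.aC p δ k * E1 * ∫⁻ x, u x) + s * (X.bC p N₂ * ∫⁻ x, u₁ x) := by ring
    _ ≤ (ENNReal.ofReal (T3 p (X.m k)) * ENNReal.ofReal ((X.C k).R / δ)) *
        (s * s * (ENNReal.ofReal (1 + T2 p (X.m k)) * Sg)) +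
        s * s * (X.bF p δ N₁ * ∫⁻ x, u x) + s * (X.bC p N₂ * ∫⁻ x, u₁ x) :=
        add_le_add (add_le_add (mul_le_mul' haCk le_rfl) (mul_le_mul' le_rfl
          (mul_le_mul' (mul_le_mul' haS le_rfl) le_rfl))) le_rfl
    _ = _ := by
        rw [hT]
        ring

end Sys

end Crest.Agent.R096.Sq_55
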