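import Crest.Agent.R096.Sq15_55

/-!
# R096 (row 96), SOBSQ, part 17 (helper55): conical extension of PL maps; charts of cells and faces
-/

set_option autoImplicit false
set_option linter.unusedSectionVars false

open Set Metric Filter Topology

namespace Crest.Agent.R096.Sq_55

open Crest.Agent.R096.Ce_537 Crest.Agent.R096.Bd_416 Crest.Agent.R96.Hole_348
open scoped NNReal

section con

variable {W W' : Type*} [NormedAddCommGroup W] [NormedSpace ℝ W] [NormedAddCommGroup W']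
  [NormedSpace ℝ W']

/-- the conical extension -/
noncomputable def con (σ : W → W') (z : ℝ × W) : W' :=
  open Classical in if 0 < z.1 then z.1 • σ (z.1⁻¹ • z.2) else 0

/-- the cone over `B` -/
def Kc (B : Set W) : Set (ℝ × W) := {z | 0 ≤ z.1 ∧ (0 < z.1 → z.1⁻¹ • z.2 ∈ B) ∧
  (z.1 = 0 → z.2 = 0)}

variable {σ : W → W'} {B : Set W} {B' : Set W'}

lemma con_pos {z : ℝ × W} (h : 0 < z.1) : con σ z = z.1 • σ (z.1⁻¹ • z.2) := if_pos h

lemma con_of_le {z : ℝ × W} (h : z.1 ≤ 0) : con σ z = 0 := if_neg (not_lt.2 h)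

lemma norm_con_le {C : ℝ} (hC : ∀ w ∈ B, ‖σ w‖ ≤ C) {z : ℝ × W} (hz : z ∈ Kc B) :
    ‖con σ z‖ ≤ z.1 * C := by
  rcases hz.1.lt_or_eq with h1 | h1
  · rw [con_pos h1, norm_smul, Real.norm_eq_abs, abs_of_pos h1]
    exact mul_le_mul_of_nonneg_left (hC _ (hz.2.1 h1)) h1.le
  · rw [con_of_le h1.ge, norm_zero, ← h1, zero_mul]

lemma con_mem (h : MapsTo σ B B') {z : ℝ × W} (hz : z ∈ Kc B) : (z.1, con σ z) ∈ Kc B' := by
  refine ⟨hz.1, fun h1 => ?_, fun h1 => ?_⟩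
  · have h1' : 0 < z.1 := h1
    show z.1⁻¹ • con σ z ∈ B'
    rw [con_pos h1', smul_smul, inv_mul_cancel₀ h1'.ne', one_smul]
    exact h (hz.2.1 h1')
  · have h1' : z.1 = 0 := h1
    show con σ z = 0
    exact con_of_le h1'.le

lemma con_con {σ' : W' → W} (h : ∀ w ∈ B, σ' (σ w) = w) {z : ℝ × W} (hz : z ∈ Kc B) :
    con σ' (z.1, con σ z) = z.2 := by
  rcases hz.1.lt_or_eq with h1 | h1
  · have h1' : 0 < (z.1, con σ z).1 := h1
    rw [con_pos h1']
    show z.1 • σ' (z.1⁻¹ • con σ z) = z.2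
    rw [con_pos h1, smul_smul, inv_mul_cancel₀ h1.ne', one_smul, h _ (hz.2.1 h1), smul_smul,
      mul_inv_cancel₀ h1.ne', one_smul]
  · have h1' : (z.1, con σ z).1 ≤ 0 := h1.ge
    rw [con_of_le h1', hz.2.2 h1.symm]

lemma continuousOn_con (hσ : ContinuousOn σ B) {C : ℝ} (hC : ∀ w ∈ B, ‖σ w‖ ≤ C) :
    ContinuousOn (con σ) (Kc B) := by
  intro z hz
  rcases hz.1.lt_or_eq with h1 | h1
  · have h2 : ContinuousWithinAt (fun z : ℝ × W => z.1 • σ (z.1⁻¹ • z.2)) (Kc B ∩ {z | 0 < z.1})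
        z := by
      refine continuousWithinAt_fst.smul ?_
      have h3 : ContinuousWithinAt (fun z : ℝ × W => z.1⁻¹ • z.2) (Kc B ∩ {z | 0 < z.1}) z :=
        (continuousWithinAt_fst.inv₀ h1.ne').smul continuousWithinAt_snd
      exact ContinuousWithinAt.comp (f := fun z : ℝ × W => z.1⁻¹ • z.2) (x := z) (t := B)
        (hσ _ (hz.2.1 h1)) h3 (fun y hy => hy.1.2.1 hy.2)
    have h4 : ContinuousWithinAt (con σ) (Kc B ∩ {z | 0 < z.1}) z := by
      refine h2.congr (fun y hy => con_pos hy.2) (con_pos h1)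
    have h5 : {z : ℝ × W | 0 < z.1} ∈ 𝓝 z := (isOpen_lt continuous_const continuous_fst).mem_nhds h1
    exact (continuousWithinAt_inter h5).1 h4
  · have e0 : con σ z = 0 := con_of_le h1.ge
    rw [ContinuousWithinAt, e0, tendsto_zero_iff_norm_tendsto_zero]
    have h2 : Tendsto (fun y : ℝ × W => y.1 * C) (𝓝[Kc B] z) (𝓝 0) := by
      have h3 : Tendsto (fun y : ℝ × W => y.1 * C) (𝓝 z) (𝓝 (z.1 * C)) :=
        (continuous_fst.mul continuous_const).tendsto z
      rw [← h1, zero_mul] at h3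
      exact h3.mono_left nhdsWithin_le_nhds
    refine squeeze_zero' (Eventually.of_forall fun _ => norm_nonneg _) ?_ h2
    filter_upwards [self_mem_nhdsWithin] with y hy
    exact norm_con_le hC hy

/-- the homogeneous extension of an affine map -/
noncomputable def homc (g : W →ᵃ[ℝ] W') : (ℝ × W) →ᵃ[ℝ] W' :=
  (g.linear ∘ₗ LinearMap.snd ℝ ℝ W + (LinearMap.fst ℝ ℝ W).smulRight (g 0)).toAffineMap

lemma homc_apply (g : W →ᵃ[ℝ] W') (z : ℝ × W) : homc g z = g.linear z.2 + z.1 • g 0 := rfl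

lemma affine_eq' (g : W →ᵃ[ℝ] W') (x : W) : g x = g.linear x + g 0 := by
  have := g.map_vadd 0 x
  simpa using this

lemma plOn_con (hσ : PLOn σ B) {C : ℝ} (hC : ∀ w ∈ B, ‖σ w‖ ≤ C) (hne : B.Nonempty) :
    PLOn (con σ) (Kc B) := by
  classical
  refine ⟨continuousOn_con hσ.1 hC, ?_⟩
  obtain ⟨_, S, hS⟩ := hσ
  refine ⟨S.image homc, fun z hz => ?_⟩
  rcases hz.1.lt_or_eq with h1 | h1
  · obtain ⟨g, hg, e⟩ := hS _ (hz.2.1 h1)
    refine ⟨homc g, Finset.mem_image_of_mem _ hg, ?_⟩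
    rw [con_pos h1, e, homc_apply, affine_eq', map_smul, smul_add, smul_smul,
      mul_inv_cancel₀ h1.ne', one_smul]
  · obtain ⟨w, hw⟩ := hne
    obtain ⟨g, hg, _⟩ := hS w hw
    refine ⟨homc g, Finset.mem_image_of_mem _ hg, ?_⟩
    rw [con_of_le h1.ge, homc_apply, hz.2.2 h1.symm, map_zero, ← h1, zero_smul, add_zero]

lemma convex_Kc (hB : Convex ℝ B) : Convex ℝ (Kc B) := by
  intro z hz w hw a b ha hb hab
  have key : ∀ {z w : ℝ × W}, z ∈ Kc B → w ∈ Kc B → z + w ∈ Kc B := by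
    intro z w hz hw
    refine ⟨add_nonneg hz.1 hw.1, fun h => ?_, fun h => ?_⟩
    · show (z.1 + w.1)⁻¹ • (z.2 + w.2) ∈ B
      have h' : 0 < z.1 + w.1 := h
      rcases hz.1.lt_or_eq with h1 | h1
      · rcases hw.1.lt_or_eq with h2 | h2
        · have h3 := hB (hz.2.1 h1) (hw.2.1 h2) (a := (z.1 + w.1)⁻¹ * z.1)
            (b := (z.1 + w.1)⁻¹ * w.1) (by positivity) (by positivity)
            (by rw [← mul_add, inv_mul_cancel₀ h'.ne'])
          rw [smul_smul, smul_smul, mul_assoc, mul_assoc, mul_inv_cancel₀ h1.ne',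
            mul_inv_cancel₀ h2.ne', mul_one, ← smul_add] at h3
          exact h3
        · rw [hw.2.2 h2.symm, add_zero, ← h2, add_zero]
          exact hz.2.1 h1
      · have h2 : 0 < w.1 := by rw [← h1, zero_add] at h'; exact h'
        rw [hz.2.2 h1.symm, zero_add, ← h1, zero_add]
        exact hw.2.1 h2
    · have h' : z.1 + w.1 = 0 := h
      have h1 : z.1 = 0 := by linarith [hz.1, hw.1]
      have h2 : w.1 = 0 := by linarith [hz.1, hw.1]
      show z.2 + w.2 = 0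
      rw [hz.2.2 h1, hw.2.2 h2, add_zero]
  have key2 : ∀ {z : ℝ × W} {a : ℝ}, 0 ≤ a → z ∈ Kc B → a • z ∈ Kc B := by
    intro z a ha hz
    rcases ha.lt_or_eq with h1 | h1
    · refine ⟨mul_nonneg h1.le hz.1, fun h => ?_, fun h => ?_⟩
      · have h' : 0 < a * z.1 := h
        have h2 : 0 < z.1 := (mul_pos_iff_of_pos_left h1).1 h'
        show (a * z.1)⁻¹ • (a • z.2) ∈ B
        rw [smul_smul]
        have : (a * z.1)⁻¹ * a = z.1⁻¹ := by field_simp
        rw [this]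
        exact hz.2.1 h2
      · have h' : a * z.1 = 0 := h
        have h2 : z.1 = 0 := (mul_eq_zero.1 h').resolve_left h1.ne'
        show a • z.2 = 0
        rw [hz.2.2 h2, smul_zero]
    · rw [← h1, zero_smul]
      exact ⟨le_rfl, fun h => absurd h (lt_irrefl _), fun _ => rfl⟩
  exact key (key2 ha hz) (key2 hb hw)

/-- conical extensions are Lipschitz -/
lemma lip_con [FiniteDimensional ℝ W] (hσ : PLOn σ B) {C : ℝ} (hC : ∀ w ∈ B, ‖σ w‖ ≤ C)
    (hne : B.Nonempty) (hB : Convex ℝ B) : ∃ L : ℝ≥0, LipschitzOnWith L (con σ) (Kc B) := by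
  obtain ⟨h1, S, h2⟩ := plOn_con hσ hC hne
  exact Crest.Agent.R96.Sob7_199.lip_of_sel (convex_Kc hB) h1 h2

end con

/-- PL maps on convex sets are Lipschitz -/
lemma exists_lip {E F : Type*} [NormedAddCommGroup E] [NormedSpace ℝ E] [FiniteDimensional ℝ E]
    [NormedAddCommGroup F] [NormedSpace ℝ F] {T : E → F} {s : Set E} (hs : Convex ℝ s)
    (h : PLOn T s) : ∃ L : ℝ≥0, LipschitzOnWith L T s := by
  obtain ⟨h1, S, h2⟩ := h
  exact Crest.Agent.R96.Sob7_199.lip_of_sel hs h1 h2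

/-! ### the double pyramid -/

/-- the tail -/
def tl (z : E3) : Fin 2 → ℝ := fun j => z j.succ

lemma wid_eq (z : E3) : wid z = ‖tl z‖ := rfl

lemma cons_tl (z : E3) : (Fin.cons (α := fun _ => ℝ) (z 0) (tl z) : E3) = z :=
  Fin.cons_self_tail z

/-- positive part -/
noncomputable def pp (x : ℝ) : ℝ := max x 0

lemma pp_nonneg (x : ℝ) : 0 ≤ pp x := le_max_right _ _

lemma pp_sub (x : ℝ) : pp x - pp (-x) = x := by
  unfold pp
  rcases le_total 0 x with h | h
  · rw [max_eq_left h, max_eq_right (by linarith)]; ring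
  · rw [max_eq_right h, max_eq_left (by linarith)]; ring

lemma pp_add (x : ℝ) : pp x + pp (-x) = |x| := by
  unfold pp
  rcases le_total 0 x with h | h
  · rw [max_eq_left h, max_eq_right (by linarith), abs_of_nonneg h]; ring
  · rw [max_eq_right h, max_eq_left (by linarith), abs_of_nonpos h]; ring

/-- the data of a double pyramid: the plane `{l (y - b) = 0}`, the two apexes, the face -/
structure Dp where
  b : E3
  a : E3
  a' : E3
  l : E3 →L[ℝ] ℝ
  ha : 0 < l (a - b)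
  ha' : l (a' - b) < 0
  F : Set E3
  oF : Set E3
  cF : IsCompact F
  vF : Convex ℝ F
  sF : oF ⊆ F
  pl : ∀ y ∈ F, l (y - b) = 0
  bF : b ∈ oF
  e : PLEquiv (cube 2) F
  sph : e.f '' (sph 2) = F \ oF
  O : Set E3
  hO : IsOpen O
  mO : ∀ y, l (y - b) = 0 → (y ∈ O ↔ y ∈ oF)

namespace Dp

variable (D : Dp)

/-- normalised signed height -/
noncomputable def t (y : E3) : ℝ :=
  pp (D.l (y - D.b)) / D.l (D.a - D.b) - pp (-D.l (y - D.b)) / (-D.l (D.a' - D.b))

/-- the point `h`-above/below -/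
noncomputable def ax (s : ℝ) : E3 := pp s • (D.a - D.b) + pp (-s) • (D.a' - D.b)

/-- the plane component -/
noncomputable def w (y : E3) : E3 := y - D.b - D.ax (D.t y)

lemma pp_pos {x : ℝ} (h : 0 ≤ x) : pp x = x := max_eq_left h
lemma pp_neg {x : ℝ} (h : x ≤ 0) : pp x = 0 := max_eq_right h

lemma pp_mul_neg (x : ℝ) : pp x * pp (-x) = 0 := by
  rcases le_total 0 x with h | h
  · rw [pp_neg (x := -x) (by linarith), mul_zero]
  · rw [pp_neg h, zero_mul]

lemma pp_t (y : E3) : pp (D.t y) = pp (D.l (y - D.b)) / D.l (D.a - D.b) := by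
  have h1 := D.ha
  have h2 := D.ha'
  unfold t
  rcases le_total 0 (D.l (y - D.b)) with h | h
  · rw [pp_neg (x := -D.l (y - D.b)) (by linarith), zero_div, sub_zero]
    exact pp_pos (by have := pp_nonneg (D.l (y - D.b)); positivity)
  · rw [pp_neg h, zero_div, zero_sub]
    apply pp_neg
    have := pp_nonneg (-D.l (y - D.b))
    have h3 : 0 < -D.l (D.a' - D.b) := by linarith
    have : 0 ≤ pp (-D.l (y - D.b)) / (-D.l (D.a' - D.b)) := by positivity
    linarith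

lemma pp_neg_t (y : E3) : pp (-D.t y) = pp (-D.l (y - D.b)) / (-D.l (D.a' - D.b)) := by
  have h1 := pp_sub (D.t y)
  rw [D.pp_t] at h1
  have h2 : D.t y = pp (D.l (y - D.b)) / D.l (D.a - D.b) -
    pp (-D.l (y - D.b)) / (-D.l (D.a' - D.b)) := rfl
  linarith

lemma l_ax_t (y : E3) : D.l (D.ax (D.t y)) = D.l (y - D.b) := by
  have h1 := D.ha
  have h2 := D.ha'
  have h3 : D.l (D.a' - D.b) ≠ 0 := h2.ne
  rw [ax, map_add, map_smul, map_smul, smul_eq_mul, smul_eq_mul, D.pp_t, D.pp_neg_t]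
  have e1 : pp (D.l (y - D.b)) / D.l (D.a - D.b) * D.l (D.a - D.b) = pp (D.l (y - D.b)) := by
    field_simp
  have e2 : pp (-D.l (y - D.b)) / (-D.l (D.a' - D.b)) * D.l (D.a' - D.b) =
      - pp (-D.l (y - D.b)) := by
    field_simp
  rw [e1, e2]
  have := pp_sub (D.l (y - D.b))
  linarith

lemma l_w (y : E3) : D.l (D.w y) = 0 := by
  rw [w, map_sub, D.l_ax_t, sub_self]

/-- a point given by its height and its plane component -/
lemma t_of {s : ℝ} {x : E3} (hx : D.l x = 0) : D.t (D.b + D.ax s + x) = s := by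
  have h1 := D.ha
  have h2 := D.ha'
  have h3 : D.l (D.a' - D.b) ≠ 0 := h2.ne
  have e : D.l (D.b + D.ax s + x - D.b) = pp s * D.l (D.a - D.b) + pp (-s) * D.l (D.a' - D.b) := by
    have : D.b + D.ax s + x - D.b = D.ax s + x := by abel
    rw [this, map_add, hx, add_zero, ax, map_add, map_smul, map_smul]
    rfl
  rw [t, e]
  rcases le_total 0 s with h | h
  · rw [pp_neg (x := -s) (by linarith), zero_mul, add_zero, pp_pos h, pp_pos (by positivity),
      pp_neg (x := -(s * D.l (D.a - D.b))) (by nlinarith), zero_div, sub_zero]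
    field_simp
  · rw [pp_neg h, zero_mul, zero_add, pp_pos (x := -s) (by linarith),
      pp_neg (x := -s * D.l (D.a' - D.b)) (by nlinarith),
      pp_pos (x := -(-s * D.l (D.a' - D.b))) (by nlinarith), zero_div, zero_sub]
    field_simp

lemma w_of {s : ℝ} {x : E3} (hx : D.l x = 0) : D.w (D.b + D.ax s + x) = x := by
  rw [w, D.t_of hx]
  abel

/-- reconstruction -/
lemma recon (y : E3) : D.b + D.ax (D.t y) + D.w y = y := by
  rw [w]; abel

lemma pl_pp {E : Type*} [NormedAddCommGroup E] [NormedSpace ℝ E] {f : E → ℝ} {K : Set E}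
    (h : PLOn f K) : PLOn (fun x => pp (f x)) K := pl_max h (plOn_const 0 K)

lemma pl_l : PLOn (fun y => D.l (y - D.b)) univ := pl_clm (pl_sub_const (plOn_id _) _) D.l

lemma pl_t : PLOn D.t univ :=
  pl_sub (pl_div (pl_pp D.pl_l) _) (pl_div (pl_pp (pl_neg D.pl_l)) _)

lemma pl_ax {E : Type*} [NormedAddCommGroup E] [NormedSpace ℝ E] {f : E → ℝ} {K : Set E}
    (h : PLOn f K) : PLOn (fun x => D.ax (f x)) K := by
  have h1 : ∀ v : E3, PLOn (fun x => pp (f x) • v) K := fun v =>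
    pl_clm (pl_pp h) ((ContinuousLinearMap.id ℝ ℝ).smulRight v)
  have h2 : ∀ v : E3, PLOn (fun x => pp (-f x) • v) K := fun v =>
    pl_clm (pl_pp (pl_neg h)) ((ContinuousLinearMap.id ℝ ℝ).smulRight v)
  exact pl_add (h1 _) (h2 _)

lemma pl_w : PLOn D.w univ := pl_sub (pl_sub_const (plOn_id _) _) (D.pl_ax D.pl_t)

lemma pl_abs {E : Type*} [NormedAddCommGroup E] [NormedSpace ℝ E] {f : E → ℝ} {K : Set E}
    (h : PLOn f K) : PLOn (fun x => |f x|) K :=
  (pl_add (pl_pp h) (pl_pp (pl_neg h))).congr fun x _ => (pp_add (f x)).symm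

/-- the face, centred -/
def B : Set E3 := {x | D.b + x ∈ D.F}

/-- chart of the centred face -/
noncomputable def σ (v : Fin 2 → ℝ) : E3 := D.e.f v - D.b

/-- its inverse -/
noncomputable def σ' (x : E3) : Fin 2 → ℝ := D.e.g (D.b + x)

/-- the double pyramid -/
def K : Set E3 := {y | (1 - |D.t y|, D.w y) ∈ Kc D.B}

/-- its open part -/
def V : Set E3 := {y | 0 < 1 - |D.t y| ∧ D.b + (1 - |D.t y|)⁻¹ • D.w y ∈ D.oF}

/-- the chart -/
noncomputable def ch (y : E3) : E3 :=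
  Fin.cons (α := fun _ => ℝ) (D.t y) (con D.σ' (1 - |D.t y|, D.w y))

/-- its inverse -/
noncomputable def ch' (z : E3) : E3 := D.b + D.ax (z 0) + con D.σ (1 - |z 0|, tl z)

lemma ch_zero (y : E3) : D.ch y 0 = D.t y := rfl

lemma tl_ch (y : E3) : tl (D.ch y) = con D.σ' (1 - |D.t y|, D.w y) := rfl

lemma maps_σ : MapsTo D.σ (cube 2) D.B := fun v hv => by
  show D.b + (D.e.f v - D.b) ∈ D.F
  rw [add_sub_cancel]
  exact D.e.mf hv

lemma maps_σ' : MapsTo D.σ' D.B (cube 2) := fun x hx => D.e.mg hx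

lemma σ'_σ {v : Fin 2 → ℝ} (hv : v ∈ cube 2) : D.σ' (D.σ v) = v := by
  show D.e.g (D.b + (D.e.f v - D.b)) = v
  rw [add_sub_cancel, D.e.li v hv]

lemma σ_σ' {x : E3} (hx : x ∈ D.B) : D.σ (D.σ' x) = x := by
  show D.e.f (D.e.g (D.b + x)) - D.b = x
  rw [D.e.ri _ hx, add_sub_cancel_left]

lemma l_B {x : E3} (hx : x ∈ D.B) : D.l x = 0 := by
  have := D.pl _ hx
  rwa [add_sub_cancel_left] at this

lemma l_con {z : ℝ × (Fin 2 → ℝ)} (hz : z ∈ Kc (cube 2)) : D.l (con D.σ z) = 0 := by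
  rcases hz.1.lt_or_eq with h1 | h1
  · rw [con_pos h1, map_smul, D.l_B (D.maps_σ (hz.2.1 h1)), smul_zero]
  · rw [con_of_le h1.ge, map_zero]

lemma mem_Dc {z : E3} : z ∈ Dc ↔ (1 - |z 0|, tl z) ∈ Kc (cube 2) := by
  constructor
  · intro hz
    have h1 : |z 0| + ‖tl z‖ ≤ 1 := hz
    have h2 := norm_nonneg (tl z)
    refine ⟨by show 0 ≤ 1 - |z 0|; linarith, fun h => ?_, fun h => ?_⟩
    · have h' : 0 < 1 - |z 0| := h
      show (1 - |z 0|)⁻¹ • tl z ∈ closedBall 0 1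
      rw [mem_closedBall_zero_iff, norm_smul, norm_inv, Real.norm_eq_abs, abs_of_pos h',
        inv_mul_le_iff₀ h']
      linarith
    · have h' : 1 - |z 0| = 0 := h
      exact norm_le_zero_iff.1 (by linarith)
  · rintro ⟨h1, h2, h3⟩
    have h1' : 0 ≤ 1 - |z 0| := h1
    show |z 0| + ‖tl z‖ ≤ 1
    rcases h1'.lt_or_eq with h | h
    · have h4 : (1 - |z 0|)⁻¹ • tl z ∈ closedBall 0 1 := h2 h
      rw [mem_closedBall_zero_iff, norm_smul, norm_inv, Real.norm_eq_abs, abs_of_pos h,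
        inv_mul_le_iff₀ h] at h4
      linarith
    · have h4 : tl z = 0 := h3 h.symm
      rw [h4, norm_zero]
      linarith

lemma ch'_spec {z : E3} (hz : z ∈ Dc) :
    D.t (D.ch' z) = z 0 ∧ D.w (D.ch' z) = con D.σ (1 - |z 0|, tl z) := by
  have h1 := D.l_con (mem_Dc.1 hz)
  exact ⟨D.t_of h1, D.w_of h1⟩

lemma ch'_mem {z : E3} (hz : z ∈ Dc) : D.ch' z ∈ D.K := by
  obtain ⟨h1, h2⟩ := D.ch'_spec hz
  show (1 - |D.t (D.ch' z)|, D.w (D.ch' z)) ∈ Kc D.B
  rw [h1, h2]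
  exact con_mem D.maps_σ (mem_Dc.1 hz)

lemma ch_mem {y : E3} (hy : y ∈ D.K) : D.ch y ∈ Dc := by
  rw [mem_Dc, ch_zero, tl_ch]
  exact con_mem D.maps_σ' hy

lemma ch_ch' {z : E3} (hz : z ∈ Dc) : D.ch (D.ch' z) = z := by
  obtain ⟨h1, h2⟩ := D.ch'_spec hz
  rw [ch, h1, h2, con_con (σ' := D.σ') (fun v hv => D.σ'_σ hv) (mem_Dc.1 hz)]
  exact cons_tl z

lemma ch'_ch {y : E3} (hy : y ∈ D.K) : D.ch' (D.ch y) = y := by
  rw [ch', ch_zero, tl_ch, con_con (σ' := D.σ) (fun v hv => D.σ_σ' hv) hy]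
  exact D.recon y

/-- interior of the face in the chart -/
lemma norm_σ' {x : E3} (hx : x ∈ D.B) : ‖D.σ' x‖ < 1 ↔ D.b + x ∈ D.oF := by
  have h1 : ‖D.σ' x‖ ≤ 1 := mem_closedBall_zero_iff.1 (D.maps_σ' hx)
  constructor
  · intro h
    by_contra h2
    have h3 : D.b + x ∈ D.e.f '' (Ce_537.sph 2) := by rw [D.sph]; exact ⟨hx, h2⟩
    obtain ⟨v, hv, hvx⟩ := h3
    have h4 : D.σ' x = v := by
      show D.e.g (D.b + x) = v
      rw [← hvx, D.e.li v (sph_subset_cube hv)]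
    have h5 : ‖v‖ = 1 := mem_sphere_zero_iff_norm.1 hv
    rw [h4, h5] at h
    exact lt_irrefl _ h
  · intro h
    refine lt_of_le_of_ne h1 fun h2 => ?_
    have h3 : D.σ' x ∈ Ce_537.sph 2 := mem_sphere_zero_iff_norm.2 h2
    have h4 : D.e.f (D.σ' x) ∈ D.F \ D.oF := by rw [← D.sph]; exact mem_image_of_mem _ h3
    have h5 : D.e.f (D.σ' x) = D.b + x := D.e.ri _ hx
    rw [h5] at h4
    exact h4.2 h

lemma V_sub : D.V ⊆ D.K := by
  rintro y ⟨h1, h2⟩
  refine ⟨h1.le, fun _ => D.sF h2, fun h => absurd h (ne_of_gt h1)⟩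

lemma ch_mem_Do {y : E3} (hy : y ∈ D.K) : D.ch y ∈ Do ↔ y ∈ D.V := by
  have h0 : 0 ≤ 1 - |D.t y| := hy.1
  have e1 : D.ch y ∈ Do ↔ |D.t y| + ‖con D.σ' (1 - |D.t y|, D.w y)‖ < 1 := Iff.rfl
  rw [e1]
  constructor
  · intro h
    have h1 := norm_nonneg (con D.σ' (1 - |D.t y|, D.w y))
    have h2 : 0 < 1 - |D.t y| := by linarith
    refine ⟨h2, ?_⟩
    have h3 : (1 - |D.t y|)⁻¹ • D.w y ∈ D.B := hy.2.1 h2
    rw [← D.norm_σ' h3]
    rw [con_pos (show 0 < (1 - |D.t y|, D.w y).1 from h2), norm_smul, Real.norm_eq_abs,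
      abs_of_pos (show 0 < (1 - |D.t y|, D.w y).1 from h2)] at h
    have h4 : (1 - |D.t y|) * ‖D.σ' ((1 - |D.t y|)⁻¹ • D.w y)‖ < (1 - |D.t y|) * 1 := by
      have : |D.t y| + (1 - |D.t y|) * ‖D.σ' ((1 - |D.t y|)⁻¹ • D.w y)‖ < 1 := h
      linarith
    exact lt_of_mul_lt_mul_left h4 h2.le
  · rintro ⟨h2, h3⟩
    have h2' : 0 < 1 - |D.t y| := h2
    have h4 : (1 - |D.t y|)⁻¹ • D.w y ∈ D.B := hy.2.1 h2'
    have h5 := (D.norm_σ' h4).2 h3
    rw [con_pos (show 0 < (1 - |D.t y|, D.w y).1 from h2'), norm_smul, Real.norm_eq_abs,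
      abs_of_pos (show 0 < (1 - |D.t y|, D.w y).1 from h2')]
    show |D.t y| + (1 - |D.t y|) * ‖D.σ' ((1 - |D.t y|)⁻¹ • D.w y)‖ < 1
    have h6 : (1 - |D.t y|) * ‖D.σ' ((1 - |D.t y|)⁻¹ • D.w y)‖ < (1 - |D.t y|) * 1 :=
      mul_lt_mul_of_pos_left h5 h2'
    linarith

lemma continuous_t : Continuous D.t := continuousOn_univ.1 D.pl_t.1
lemma continuous_w : Continuous D.w := continuousOn_univ.1 D.pl_w.1

lemma isOpen_V : IsOpen D.V := by
  have e : D.V = {y | 0 < 1 - |D.t y|} ∩ (fun y => D.b + (1 - |D.t y|)⁻¹ • D.w y) ⁻¹' D.O := by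
    ext y
    have h1 : D.l (D.b + (1 - |D.t y|)⁻¹ • D.w y - D.b) = 0 := by
      rw [add_sub_cancel_left, map_smul, D.l_w, smul_zero]
    constructor
    · rintro ⟨h2, h3⟩
      exact ⟨h2, (D.mO _ h1).2 h3⟩
    · rintro ⟨h2, h3⟩
      exact ⟨h2, (D.mO _ h1).1 h3⟩
  rw [e]
  have c1 : Continuous fun y => 1 - |D.t y| := continuous_const.sub D.continuous_t.abs
  have o1 : IsOpen {y | 0 < 1 - |D.t y|} := isOpen_lt continuous_const c1
  refine ContinuousOn.isOpen_inter_preimage ?_ o1 D.hO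
  exact continuousOn_const.add ((c1.continuousOn.inv₀ fun y hy => (ne_of_gt hy)).smul
    D.continuous_w.continuousOn)

lemma bounded_σ : ∃ C, ∀ v ∈ cube 2, ‖D.σ v‖ ≤ C := by
  have h : ContinuousOn D.σ (cube 2) := D.e.pf.1.sub continuousOn_const
  exact (isCompact_closedBall (0 : Fin 2 → ℝ) 1).exists_bound_of_continuousOn h

lemma pl_σ : PLOn D.σ (cube 2) := pl_sub_const D.e.pf D.b

lemma pl_σ' : PLOn D.σ' D.B :=
  D.e.pg.comp (f := fun x => D.b + x) ((pl_add (plOn_const D.b _) (plOn_id _))) fun _ hx => hx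

lemma nonempty_B : D.B.Nonempty := ⟨0, by
  show D.b + 0 ∈ D.F
  rw [add_zero]; exact D.sF D.bF⟩

lemma convex_B : Convex ℝ D.B := by
  have : D.B = (fun x => D.b + x) ⁻¹' D.F := rfl
  rw [this]
  exact D.vF.translate_preimage_right D.b

lemma pl_tl {E : Type*} [NormedAddCommGroup E] [NormedSpace ℝ E] {f : E → E3} {K : Set E}
    (h : PLOn f K) : PLOn (fun x => tl (f x)) K := pl_pi fun j => pl_apply h j.succ

lemma pl_ch' : PLOn D.ch' Dc := by
  obtain ⟨C, hC⟩ := D.bounded_σ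
  have h1 : PLOn (fun z : E3 => z 0) Dc := pl_apply (plOn_id _) 0
  have h2 : PLOn (fun z : E3 => ((1 - |z 0| : ℝ), tl z)) Dc :=
    pl_pair (pl_sub (plOn_const 1 _) (pl_abs h1)) (pl_tl (plOn_id _))
  have h3 := (plOn_con D.pl_σ hC ⟨0, by simp [cube]⟩).comp h2 (fun z hz => mem_Dc.1 hz)
  exact pl_add (pl_add (plOn_const _ _) (D.pl_ax h1)) h3

lemma pl_tw : PLOn (fun y => ((1 - |D.t y| : ℝ), D.w y)) univ :=
  pl_pair (pl_sub (plOn_const 1 _) (pl_abs D.pl_t)) D.pl_w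

lemma bd_σ' : ∀ x ∈ D.B, ‖D.σ' x‖ ≤ 1 := fun x hx => mem_closedBall_zero_iff.1 (D.maps_σ' hx)

lemma pl_ch : PLOn D.ch D.K := by
  have h3 := (plOn_con D.pl_σ' D.bd_σ' D.nonempty_B).comp (D.pl_tw.mono (subset_univ D.K))
    (fun z hz => hz)
  refine pl_pi fun j => ?_
  refine Fin.cases ?_ (fun i => ?_) j
  · exact D.pl_t.mono (subset_univ _)
  · exact pl_apply h3 i

lemma exists_lip_ch : ∃ L : ℝ≥0, LipschitzOnWith L D.ch D.K := by
  obtain ⟨L1, h1⟩ := lip_con D.pl_σ' D.bd_σ' D.nonempty_B D.convex_B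
  obtain ⟨L2, h2⟩ := exists_lip convex_univ D.pl_tw
  obtain ⟨L3, h3⟩ := exists_lip convex_univ D.pl_t
  refine ⟨max L3 (L1 * L2), LipschitzOnWith.of_dist_le_mul fun x hx y hy => ?_⟩
  have k3 := h3.dist_le_mul x (mem_univ _) y (mem_univ _)
  have k1 := h1.dist_le_mul _ hx _ hy
  have k2 := h2.dist_le_mul x (mem_univ _) y (mem_univ _)
  have hd : 0 ≤ dist x y := dist_nonneg
  have m1 : (L3 : ℝ) ≤ (max L3 (L1 * L2) : ℝ≥0) := by exact_mod_cast le_max_left _ _
  have m2 : ((L1 : ℝ) * L2) ≤ (max L3 (L1 * L2) : ℝ≥0) := by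
    exact_mod_cast le_max_right L3 (L1 * L2)
  have hM : (0:ℝ) ≤ (max L3 (L1 * L2) : ℝ≥0) := NNReal.coe_nonneg _
  rw [dist_pi_le_iff (by positivity)]
  intro j
  refine Fin.cases ?_ (fun i => ?_) j
  · exact k3.trans (mul_le_mul_of_nonneg_right m1 hd)
  · have k4 : dist (D.ch x i.succ) (D.ch y i.succ) ≤
        dist (con D.σ' (1 - |D.t x|, D.w x)) (con D.σ' (1 - |D.t y|, D.w y)) :=
      dist_le_pi_dist _ _ i
    calc dist (D.ch x i.succ) (D.ch y i.succ) ≤ L1 * (L2 * dist x y) :=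
          k4.trans (k1.trans (mul_le_mul_of_nonneg_left k2 L1.coe_nonneg))
      _ = (L1 * L2) * dist x y := by ring
      _ ≤ _ := mul_le_mul_of_nonneg_right m2 hd

lemma isCompact_Dc : IsCompact Dc := by
  refine Metric.isCompact_of_isClosed_isBounded ?_ ?_
  · exact isClosed_le ((continuous_apply 0).abs.add continuous_wid) continuous_const
  · refine (isBounded_closedBall (x := (0 : E3)) (r := 1)).subset fun z hz => ?_
    have h1 : |z 0| + wid z ≤ 1 := hz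
    rw [mem_closedBall_zero_iff]
    exact norm_le_max (by have := wid_nonneg z; linarith) (by have := abs_nonneg (z 0); linarith)

lemma isClosed_K : IsClosed D.K := by
  have h : D.K = D.ch' '' Dc := by
    ext y
    constructor
    · intro hy
      exact ⟨D.ch y, D.ch_mem hy, D.ch'_ch hy⟩
    · rintro ⟨z, hz, rfl⟩
      exact D.ch'_mem hz
  rw [h]
  exact (isCompact_Dc.image_of_continuousOn D.pl_ch'.1).isClosed

lemma isOpen_Do : IsOpen Do :=
  isOpen_lt ((continuous_apply 0).abs.add continuous_wid) continuous_const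

lemma isClosed_Dc : IsClosed Dc := isCompact_Dc.isClosed

/-- **the chart of the double pyramid** -/
theorem exists_cht : ∃ L L' : ℝ≥0, Cht D.K D.V Dc Do D.ch D.ch' L L' := by
  obtain ⟨L, hL⟩ := D.exists_lip_ch
  obtain ⟨L', hL'⟩ := exists_lip convex_Dc D.pl_ch'
  refine ⟨L, L', ?_⟩
  exact {
    clK := D.isClosed_K
    opU := D.isOpen_V
    sub := D.V_sub
    clK' := isClosed_Dc
    opU' := isOpen_Do
    sub' := fun z hz => by
      have h1 : |z 0| + wid z < 1 := hz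
      exact h1.le
    maps := fun y hy => D.ch_mem hy
    maps' := fun z hz => D.ch'_mem hz
    inv := fun y hy => D.ch'_ch hy
    inv' := fun z hz => D.ch_ch' hz
    mem := fun y hy => D.ch_mem_Do hy
    pl := D.pl_ch
    pl' := D.pl_ch'
    lip := hL
    lip' := hL' }

end Dp

end Crest.Agent.R096.Sq_55
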