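import Crest.Agent.R096.Sq17_55
import Crest.Agent.R096.Msh3_715

/-!
# R096 (row 96), SOBSQ, part 18 (helper55): charts of the tiles and of the 2-cells of a tiling
-/

set_option autoImplicit false
set_option linter.unusedSectionVars false

open Set Metric Filter Topology

namespace Crest.Agent.R096.Sq_55

open Crest.Agent.R096.Ce_537 Crest.Agent.R096.Bd_416 Crest.Agent.R96.Hole_348
open Crest.Agent.R096.Msh_715 (P I Tiling I_sub_P isOpen_I isClosed_P convex_P mem_I_of_move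
  disjoint_P_I isBall_P_top mem_I_small)
open scoped NNReal

/-- **charts of polytopes** -/
theorem exists_cell_cht {H : Finset ((E3 →L[ℝ] ℝ) × ℝ)} (hc : IsCompact (P H))
    (hI : (I H).Nonempty) : ∃ (e e' : E3 → E3) (L L' : ℝ≥0),
      Cht (P H) (I H) (closedBall 0 1) (ball 0 1) e e' L L' := by
  have h := isBall_P_top H hc hI
  have h3 : Module.finrank ℝ E3 = 3 := by simp
  rw [h3] at h
  obtain ⟨E, hE⟩ := h
  obtain ⟨L, hL⟩ := exists_lip (convex_P H) E.pg
  obtain ⟨L', hL'⟩ := exists_lip (convex_closedBall (0 : E3) 1) E.pf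
  refine ⟨E.g, E.f, L, L', ?_⟩
  exact {
    clK := isClosed_P H
    opU := isOpen_I H
    sub := I_sub_P H
    clK' := isClosed_closedBall
    opU' := isOpen_ball
    sub' := ball_subset_closedBall
    maps := E.mg
    maps' := E.mf
    inv := E.ri
    inv' := E.li
    mem := by
      intro x hx
      have h1 : ‖E.g x‖ ≤ 1 := mem_closedBall_zero_iff.1 (E.mg hx)
      rw [mem_ball_zero_iff]
      constructor
      · intro h2
        by_contra h3
        have h4 : x ∈ E.f '' (sph 3) := by rw [hE]; exact ⟨hx, h3⟩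
        obtain ⟨v, hv, hvx⟩ := h4
        have h5 : E.g x = v := by rw [← hvx, E.li v (sph_subset_cube hv)]
        have h6 : ‖v‖ = 1 := mem_sphere_zero_iff_norm.1 hv
        rw [h5, h6] at h2
        exact lt_irrefl _ h2
      · intro h2
        refine lt_of_le_of_ne h1 fun h3 => ?_
        have h4 : E.f (E.g x) ∈ P H \ I H := by
          rw [← hE]
          exact mem_image_of_mem _ (mem_sphere_zero_iff_norm.2 h3)
        rw [E.ri x hx] at h4
        exact h4.2 h2
    pl := E.pg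
    pl' := E.pf
    lip := hL
    lip' := hL' }

/-- cells of any size -/
theorem exists_cell {H : Finset ((E3 →L[ℝ] ℝ) × ℝ)} (hc : IsCompact (P H))
    (hI : (I H).Nonempty) {R : ℝ≥0} (hR : 0 < R) : ∃ C : Cell, C.P = P H ∧ C.U = I H ∧ C.R = R := by
  obtain ⟨e, e', L, L', h⟩ := exists_cell_cht hc hI
  set M : ℝ≥0 := max 1 (max (L * R) (L' / R)) with hM
  have h1 : L ≤ M / R := by
    rw [le_div_iff₀ hR]; exact (le_max_left _ _).trans (le_max_right _ _)
  have h2 : L' ≤ M * R := by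
    rw [← div_le_iff₀ hR]; exact (le_max_right _ _).trans (le_max_right _ _)
  exact ⟨⟨P H, I H, M, R, le_max_left _ _, hR, e, e',
    { h with lip := h.lip.weaken h1, lip' := h.lip'.weaken h2 }⟩, rfl, rfl, rfl⟩

section tiling

variable {Om : Set E3} {ι : Type*} (T : Tiling Om ι) (c : ι → E3)

/-- the double pyramid over the 2-cell of `x` with apexes `c i`, `c j` -/
structure IsDp (x : E3) (i j : ι) (D : Dp) : Prop where
  ne : i ≠ j
  at_ : T.at_ x = {i, j}
  a : D.a = c i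
  a' : D.a' = c j
  F : D.F = T.cc x
  oF : D.oF = T.oc x

/-- **every 2-cell has a double pyramid** -/
theorem exists_dp (hc : ∀ i, c i ∈ I (T.H i)) {x : E3} (hx : x ∈ Om) (hd : T.dim x = 2) :
    ∃ i j D, IsDp T c x i j D := by
  have h3 : Module.finrank ℝ E3 = 3 := by simp
  obtain ⟨i1, j1, hij1, hat1, -⟩ := T.two_tiles hx (by rw [hd, h3])
  have hactive : ∀ i ∈ T.at_ x, ∃ h ∈ T.H i, h.1 x = h.2 := by
    intro i hi
    by_contra hcon
    push Not at hcon
    have : T.V x = ⊤ := (T.V_eq_top_iff hx).2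
      ⟨i, fun h hh => lt_of_le_of_ne (hi h hh) (hcon h hh)⟩
    have h1 : T.dim x = Module.finrank ℝ E3 := by
      unfold Tiling.dim; rw [this]; exact finrank_top ℝ E3
    omega
  have hi1 : i1 ∈ T.at_ x := by rw [hat1]; exact mem_insert _ _
  have hj1 : j1 ∈ T.at_ x := by rw [hat1]; exact mem_insert_of_mem _ rfl
  obtain ⟨h0, hh0, e0⟩ := hactive i1 hi1
  set l : E3 →L[ℝ] ℝ := -h0.1 with hl
  have hlc : 0 < l (c i1 - x) := by
    have := hc i1 h0 hh0
    show 0 < -(h0.1 (c i1 - x))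
    rw [map_sub, e0]; linarith
  have hne0 : (l : E3 →ₗ[ℝ] ℝ) ≠ 0 := by
    intro h
    have : l (c i1 - x) = 0 := congrArg (fun f : E3 →ₗ[ℝ] ℝ => f (c i1 - x)) h
    linarith
  have hVle : T.V x ≤ LinearMap.ker (l : E3 →ₗ[ℝ] ℝ) := fun v hv => by
    rw [LinearMap.mem_ker]
    show -(h0.1 v) = 0
    rw [hv i1 hi1 h0 hh0 e0, neg_zero]
  have hker : Module.finrank ℝ (LinearMap.ker (l : E3 →ₗ[ℝ] ℝ)) + 1 = Module.finrank ℝ E3 := by
    have h1 := LinearMap.finrank_range_add_finrank_ker (l : E3 →ₗ[ℝ] ℝ)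
    have h2 : LinearMap.range (l : E3 →ₗ[ℝ] ℝ) = ⊤ := LinearMap.range_eq_top.2
      (LinearMap.surjective_of_ne_zero hne0)
    rw [h2, finrank_top, Module.finrank_self] at h1
    omega
  have hVeq : T.V x = LinearMap.ker (l : E3 →ₗ[ℝ] ℝ) := by
    apply Submodule.eq_of_le_of_finrank_eq hVle
    have : Module.finrank ℝ (T.V x) = T.dim x := rfl
    omega
  have hV : ∀ v, v ∈ T.V x ↔ l v = 0 := fun v => by rw [hVeq, LinearMap.mem_ker]; rfl
  -- every active functional is a multiple of `l`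
  set u : E3 := (l (c i1 - x))⁻¹ • (c i1 - x) with hu
  have hlu : l u = 1 := by rw [hu, map_smul, smul_eq_mul, inv_mul_cancel₀ hlc.ne']
  have hmul : ∀ i ∈ T.at_ x, ∀ h ∈ T.H i, h.1 x = h.2 → ∀ v, h.1 v = h.1 u * l v := by
    intro i hi h hh e v
    have h5 : v - l v • u ∈ T.V x := by
      rw [hV, map_sub, map_smul, hlu, smul_eq_mul, mul_one, sub_self]
    have := h5 i hi h hh e
    rw [map_sub, map_smul, smul_eq_mul, sub_eq_zero] at this
    rw [this]; ring
  -- the sign at `j1`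
  have hlj : l (c j1 - x) < 0 := by
    by_contra hcon
    push Not at hcon
    have hneg : ∀ i, i ∈ T.at_ x → 0 ≤ l (c i - x) → ∀ h ∈ T.H i, h.1 x = h.2 → h.1 u < 0 := by
      intro i hi hli h hh e
      have h6 := hmul i hi h hh e (c i - x)
      rw [map_sub, e] at h6
      have h7 := hc i h hh
      by_contra h8
      push Not at h8
      nlinarith
    have hN1 := hneg i1 hi1 hlc.le
    have hN2 := hneg j1 hj1 hcon
    -- a common interior point
    have hsmall : ∀ i, i ∈ T.at_ x → (∀ h ∈ T.H i, h.1 x = h.2 → h.1 u < 0) →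
        ∀ᶠ s in 𝓝[>] (0:ℝ), x + s • u ∈ I (T.H i) := by
      intro i hi hN
      have : ∀ h ∈ T.H i, ∀ᶠ s in 𝓝[>] (0:ℝ), h.1 (x + s • u) < h.2 := by
        intro h hh
        rcases eq_or_lt_of_le (hi h hh) with e | e
        · filter_upwards [self_mem_nhdsWithin] with s hs
          have hs' : (0:ℝ) < s := hs
          rw [map_add, map_smul, smul_eq_mul, e]
          nlinarith [hN h hh e]
        · have hcn : Tendsto (fun s : ℝ => h.1 (x + s • u)) (𝓝 0) (𝓝 (h.1 (x + (0:ℝ) • u))) := by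
            apply Continuous.tendsto
            fun_prop
          rw [zero_smul, add_zero] at hcn
          exact (hcn.eventually (gt_mem_nhds e)).filter_mono nhdsWithin_le_nhds
      exact (Finset.eventually_all (l := 𝓝[>] (0:ℝ)) (T.H i)
        (p := fun h s => h.1 (x + s • u) < h.2)).2 this
    obtain ⟨s, h8, h9⟩ := ((hsmall i1 hi1 hN1).and (hsmall j1 hj1 hN2)).exists
    exact Set.disjoint_left.1 (T.dis i1 j1 hij1) h8 h9
  have hball := T.isBall_cell hx
  rw [hd] at hball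
  obtain ⟨e, he⟩ := hball
  have hfin := T.at_finite hx
  refine ⟨i1, j1, ⟨x, c i1, c j1, l, hlc, hlj, T.cc x, T.oc x, T.isCompact_cc hx, T.convex_cc x,
    T.oc_sub_cc x, fun y hy => (hV _).1 (T.sub_mem_V hy), T.self_mem_oc x, e, he,
    {z | ∀ i ∈ T.at_ x, ∀ h ∈ T.H i, h.1 x < h.2 → h.1 z < h.2}, ?_, ?_⟩,
    hij1, hat1, rfl, rfl, rfl, rfl⟩
  · have e1 : {z | ∀ i ∈ T.at_ x, ∀ h ∈ T.H i, h.1 x < h.2 → h.1 z < h.2} =
        ⋂ i ∈ T.at_ x, ⋂ h ∈ T.H i, {z | h.1 x < h.2 → h.1 z < h.2} := by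
      ext z; simp
    rw [e1]
    refine hfin.isOpen_biInter fun i _ => isOpen_biInter_finset fun h _ => ?_
    by_cases e2 : h.1 x < h.2
    · simp only [e2, forall_const]
      exact isOpen_lt h.1.continuous continuous_const
    · simp [e2]
  · intro y hy
    have hyV : y - x ∈ T.V x := (hV _).2 hy
    have hact : ∀ i ∈ T.at_ x, ∀ h ∈ T.H i, h.1 x = h.2 → h.1 y = h.2 := by
      intro i hi h hh e
      have := hyV i hi h hh e
      rw [map_sub, sub_eq_zero] at this
      rw [this, e]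
    constructor
    · intro h i hi g hg
      rcases eq_or_lt_of_le (hi g hg) with e | e
      · exact ⟨(hact i hi g hg e).le, fun _ => e, fun _ => hact i hi g hg e⟩
      · have := h i hi g hg e
        exact ⟨this.le, fun e' => absurd e' this.ne, fun e' => absurd e' e.ne⟩
    · intro h i hi g hg e
      have h1 := h i hi g hg
      exact lt_of_le_of_ne h1.1 fun e' => e.ne (h1.2.1 e')

variable {T c}

namespace IsDp

variable {x : E3} {i j : ι} {D : Dp}

lemma symm_mem (h : IsDp T c x i j D) : i ∈ T.at_ x ∧ j ∈ T.at_ x := by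
  rw [h.at_]; exact ⟨mem_insert _ _, mem_insert_of_mem _ rfl⟩

lemma t_of_cc (h : IsDp T c x i j D) {y : E3} (hy : y ∈ T.cc x) : D.t y = 0 := by
  have h1 : D.l (y - D.b) = 0 := D.pl y (by rw [h.F]; exact hy)
  rw [Dp.t, h1, neg_zero, Dp.pp_pos le_rfl, zero_div, zero_div, sub_zero]

lemma mem_V_of_oc (h : IsDp T c x i j D) {y : E3} (hy : y ∈ T.oc x) : y ∈ D.V ∧ D.t y = 0 := by
  have h0 := h.t_of_cc (T.oc_sub_cc x hy)
  refine ⟨⟨?_, ?_⟩, h0⟩
  · rw [h0, abs_zero]; norm_num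
  · rw [h0, abs_zero, sub_zero, inv_one, one_smul, Dp.w, h0, Dp.ax, neg_zero, Dp.pp_pos le_rfl,
      zero_smul, zero_smul, add_zero, sub_zero, add_sub_cancel, h.oF]
    exact hy

/-- points of `K` as convex combinations -/
lemma repr_pos (_h : IsDp T c x i j D) {y : E3} (hy : y ∈ D.K) (ht : 0 < D.t y) (ht1 : D.t y < 1) :
    D.b + (1 - D.t y)⁻¹ • D.w y ∈ D.F ∧
      y = (D.b + (1 - D.t y)⁻¹ • D.w y) + D.t y • (D.a - (D.b + (1 - D.t y)⁻¹ • D.w y)) := by
  have h1 : 0 < 1 - D.t y := by linarith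
  have h2 : (1 - |D.t y|)⁻¹ • D.w y ∈ D.B := hy.2.1 (by
    show 0 < 1 - |D.t y|
    rw [abs_of_pos ht]; exact h1)
  rw [abs_of_pos ht] at h2
  refine ⟨h2, ?_⟩
  have h3 := D.recon y
  rw [Dp.ax, Dp.pp_pos ht.le, Dp.pp_neg (x := -D.t y) (by linarith), zero_smul, add_zero] at h3
  set z := (1 - D.t y)⁻¹ • D.w y with hz
  have h4 : D.w y = (1 - D.t y) • z := by
    rw [hz, smul_smul, mul_inv_cancel₀ h1.ne', one_smul]
  rw [h4] at h3
  rw [← h3]
  have : D.t (D.b + D.t y • (D.a - D.b) + (1 - D.t y) • z) = D.t y := by rw [h3]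
  rw [this]
  module

lemma repr_neg (_h : IsDp T c x i j D) {y : E3} (hy : y ∈ D.K) (ht : D.t y < 0)
    (ht1 : -1 < D.t y) :
    D.b + (1 + D.t y)⁻¹ • D.w y ∈ D.F ∧
      y = (D.b + (1 + D.t y)⁻¹ • D.w y) + (-D.t y) • (D.a' - (D.b + (1 + D.t y)⁻¹ • D.w y)) := by
  have h1 : 0 < 1 + D.t y := by linarith
  have e0 : 1 - |D.t y| = 1 + D.t y := by rw [abs_of_neg ht]; ring
  have h2 : (1 - |D.t y|)⁻¹ • D.w y ∈ D.B := hy.2.1 (by
    show 0 < 1 - |D.t y|
    rw [e0]; exact h1)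
  rw [e0] at h2
  refine ⟨h2, ?_⟩
  have h3 := D.recon y
  rw [Dp.ax, Dp.pp_neg ht.le, Dp.pp_pos (x := -D.t y) (by linarith), zero_smul, zero_add] at h3
  set z := (1 + D.t y)⁻¹ • D.w y with hz
  have h4 : D.w y = (1 + D.t y) • z := by
    rw [hz, smul_smul, mul_inv_cancel₀ h1.ne', one_smul]
  rw [h4] at h3
  rw [← h3]
  have : D.t (D.b + (-D.t y) • (D.a' - D.b) + (1 + D.t y) • z) = D.t y := by rw [h3]
  rw [this]
  module

variable (hc : ∀ i, c i ∈ I (T.H i))
include hc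

lemma tile_pos (h : IsDp T c x i j D) {y : E3} (hy : y ∈ D.V) (ht : 0 < D.t y) :
    y ∈ I (T.H i) := by
  have h1 : D.t y < 1 := by
    have : 0 < 1 - |D.t y| := hy.1
    rw [abs_of_pos ht] at this
    linarith
  obtain ⟨h2, h3⟩ := h.repr_pos (D.V_sub hy) ht h1
  rw [h.F] at h2
  rw [h3]
  have h4 := T.cc_sub_tile h.symm_mem.1 h2
  refine mem_I_of_move h4 ?_ ht h1.le
  rw [h.a]; exact hc i

lemma tile_neg (h : IsDp T c x i j D) {y : E3} (hy : y ∈ D.V) (ht : D.t y < 0) :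
    y ∈ I (T.H j) := by
  have h1 : -1 < D.t y := by
    have : 0 < 1 - |D.t y| := hy.1
    rw [abs_of_neg ht] at this
    linarith
  obtain ⟨h2, h3⟩ := h.repr_neg (D.V_sub hy) ht h1
  rw [h.F] at h2
  rw [h3]
  have h4 := T.cc_sub_tile h.symm_mem.2 h2
  refine mem_I_of_move h4 ?_ (by linarith) (by linarith)
  rw [h.a']; exact hc j

omit hc in
lemma cell_zero (h : IsDp T c x i j D) {y : E3} (hy : y ∈ D.V) (ht : D.t y = 0) :
    y ∈ T.oc x := by
  have h1 := hy.2
  have h3 := D.recon y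
  rw [ht, Dp.ax, neg_zero, Dp.pp_pos le_rfl, zero_smul, zero_smul, add_zero, add_zero] at h3
  rw [ht, abs_zero, sub_zero, inv_one, one_smul, h3, h.oF] at h1
  exact h1

/-- membership in a tile depends only on the height -/
lemma side (h : IsDp T c x i j D) (hx : x ∈ Om) {y z : E3} (hy : y ∈ D.V) (hz : z ∈ D.V)
    (e : D.t y = D.t z) {k : ι} (hk : y ∈ P (T.H k)) : z ∈ P (T.H k) := by
  rcases lt_trichotomy (D.t y) 0 with ht | ht | ht
  · have h1 := h.tile_neg hc hy ht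
    have h2 : k = j := by
      by_contra hne
      exact Set.disjoint_left.1 (disjoint_P_I (T.ne k) (T.dis k j hne)) hk h1
    rw [h2]
    exact I_sub_P _ (h.tile_neg hc hz (by rw [← e]; exact ht))
  · have h1 := h.cell_zero hy ht
    have h2 := h.cell_zero hz (by rw [← e]; exact ht)
    have e1 := T.at_eq_of_mem_oc hx h1
    have e2 := T.at_eq_of_mem_oc hx h2
    have h3 : k ∈ T.at_ y := hk
    rw [e1, ← e2] at h3
    exact h3
  · have h1 := h.tile_pos hc hy ht
    have h2 : k = i := by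
      by_contra hne
      exact Set.disjoint_left.1 (disjoint_P_I (T.ne k) (T.dis k i hne)) hk h1
    rw [h2]
    exact I_sub_P _ (h.tile_pos hc hz (by rw [← e]; exact ht))

lemma sub_tiles (h : IsDp T c x i j D) {y : E3} (hy : y ∈ D.V) :
    y ∈ P (T.H i) ∨ y ∈ P (T.H j) := by
  rcases lt_trichotomy (D.t y) 0 with ht | ht | ht
  · exact Or.inr (I_sub_P _ (h.tile_neg hc hy ht))
  · exact Or.inl (T.cc_sub_tile h.symm_mem.1 (T.oc_sub_cc x (h.cell_zero hy ht)))
  · exact Or.inl (I_sub_P _ (h.tile_pos hc hy ht))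

/-- the height is controlled by the distance to the boundary of the tile -/
lemma exists_slab (h : IsDp T c x i j D) (hx : x ∈ Om) : ∃ A : ℝ, 0 ≤ A ∧ ∀ k, ∀ y ∈ D.V,
    y ∈ P (T.H k) → ∀ z ∈ P (T.H k) \ I (T.H k), |D.t y| ≤ A * ‖y - z‖ := by
  have hA : ∀ i, ∃ A : ℝ, 0 ≤ A ∧ ∀ h ∈ T.H i, ‖h.1‖ ≤ A * (h.2 - h.1 (c i)) := by
    intro i
    refine ⟨∑ h ∈ T.H i, ‖h.1‖ / (h.2 - h.1 (c i)), ?_, ?_⟩
    · refine Finset.sum_nonneg fun h hh => ?_
      have := hc i h hh
      exact div_nonneg (norm_nonneg _) (by linarith)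
    · intro h hh
      have h1 : 0 < h.2 - h.1 (c i) := by have := hc i h hh; linarith
      have h2 : ‖h.1‖ / (h.2 - h.1 (c i)) ≤ ∑ h ∈ T.H i, ‖h.1‖ / (h.2 - h.1 (c i)) := by
        refine Finset.single_le_sum (f := fun h : (E3 →L[ℝ] ℝ) × ℝ => ‖h.1‖ / (h.2 - h.1 (c i)))
          (fun g hg => ?_) hh
        have := hc i g hg
        exact div_nonneg (norm_nonneg _) (by linarith)
      rwa [div_le_iff₀ h1] at h2
  obtain ⟨A, hA0, hA1⟩ := hA i
  obtain ⟨A', hA0', hA1'⟩ := hA j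
  refine ⟨max A A', hA0.trans (le_max_left _ _), fun k y hy hk z hz => ?_⟩
  have key : ∀ (k : ι) (A : ℝ), (∀ h ∈ T.H k, ‖h.1‖ ≤ A * (h.2 - h.1 (c k))) →
      ∀ (v : E3) (s : ℝ), 0 < s → s < 1 → v ∈ P (T.H k) → y = v + s • (c k - v) →
      z ∈ P (T.H k) \ I (T.H k) → s ≤ A * ‖y - z‖ := by
    intro k A hA v s hs hs1 hv hyv hz
    obtain ⟨g, hg, hgz⟩ : ∃ g ∈ T.H k, g.1 z = g.2 := by
      by_contra hcon
      push Not at hcon
      exact hz.2 fun g hg => lt_of_le_of_ne (hz.1 g hg) (hcon g hg)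
    have h1 : g.1 y = (1 - s) * g.1 v + s * g.1 (c k) := by
      rw [hyv]
      simp only [map_add, map_smul, map_sub, smul_eq_mul]; ring
    have h2 := hv g hg
    have h3 : s * (g.2 - g.1 (c k)) ≤ g.1 z - g.1 y := by rw [hgz, h1]; nlinarith
    have h4 : g.1 z - g.1 y ≤ ‖g.1‖ * ‖y - z‖ := by
      rw [← map_sub, ← norm_neg (y - z), neg_sub]
      exact (le_abs_self _).trans (g.1.le_opNorm _)
    have h5 := hA g hg
    have h6 : 0 < g.2 - g.1 (c k) := by have := hc k g hg; linarith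
    have h7 : s * (g.2 - g.1 (c k)) ≤ (A * ‖y - z‖) * (g.2 - g.1 (c k)) := by
      have := mul_le_mul_of_nonneg_right h5 (norm_nonneg (y - z))
      nlinarith
    exact le_of_mul_le_mul_right h7 h6
  have hb1 : |D.t y| < 1 := by have : 0 < 1 - |D.t y| := hy.1; linarith
  rcases lt_trichotomy (D.t y) 0 with ht | ht | ht
  · have h1 := h.tile_neg hc hy ht
    have h2 : k = j := by
      by_contra hne
      exact Set.disjoint_left.1 (disjoint_P_I (T.ne k) (T.dis k j hne)) hk h1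
    subst h2
    rw [abs_of_neg ht] at hb1 ⊢
    obtain ⟨h3, h4⟩ := h.repr_neg (D.V_sub hy) ht (by linarith)
    rw [h.F] at h3
    rw [h.a'] at h4
    have := key k A' hA1' _ (-D.t y) (by linarith) hb1
      (T.cc_sub_tile h.symm_mem.2 h3) h4 hz
    exact this.trans (mul_le_mul_of_nonneg_right (le_max_right _ _) (norm_nonneg _))
  · rw [ht, abs_zero]
    exact mul_nonneg (hA0.trans (le_max_left _ _)) (norm_nonneg _)
  · have h1 := h.tile_pos hc hy ht
    have h2 : k = i := by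
      by_contra hne
      exact Set.disjoint_left.1 (disjoint_P_I (T.ne k) (T.dis k i hne)) hk h1
    subst h2
    rw [abs_of_pos ht] at hb1 ⊢
    obtain ⟨h3, h4⟩ := h.repr_pos (D.V_sub hy) ht hb1
    rw [h.F] at h3
    rw [h.a] at h4
    have := key k A hA1 _ (D.t y) ht hb1 (T.cc_sub_tile h.symm_mem.1 h3) h4 hz
    exact this.trans (mul_le_mul_of_nonneg_right (le_max_left _ _) (norm_nonneg _))

end IsDp

end tiling

end Crest.Agent.R096.Sq_55
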