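import Crest.Agent.R96.Hole4_348

/-!
# R096 (row 96), SQUEEZE1, part 1 (helper55): the hole squeeze of helper348 for pieces of arbitrary
shape

`hole_gen`: the pieces `F i` of the boundary of the unit cube are closed sets whose sectors
`sect 0 (F i)` (the points `x`, `1/2 ≤ ‖x‖ ≤ 1`, with foot in `F i`) have volume `≤ V i`;
the energy of the squeezed map is `≤ C ∑ V i * μ i ^ p + ε`.
-/

set_option autoImplicit false

open Set Metric Filter Topology MeasureTheory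

namespace Crest.Agent.R096.Sq_55

open Crest.Agent.R096.Ce_537 Crest.Agent.R096.Bd_416 Crest.Agent.R96.Hole_348

variable {n : ℕ}

/-- the constant -/
noncomputable def Cg (n : ℕ) (p : ℝ) : ℝ := (16:ℝ)^p / (1 - (2:ℝ)^(p - n))

lemma Cg_nonneg {p : ℝ} (hpn : p < n) : 0 ≤ Cg n p := by
  have := q_lt_one hpn
  exact div_nonneg (by positivity) (by linarith)

lemma volume_sect_gen (k : ℕ) (F : Set (Fin n → ℝ)) {V : ENNReal} (h : volume (sect 0 F) ≤ V) :
    volume (sect k F) ≤ ENNReal.ofReal (((2:ℝ)^k)⁻¹^n) * V := by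
  have hp : (0:ℝ) < 2^k := by positivity
  have e : sect k F = (fun x : Fin n → ℝ => (2:ℝ)^k • x) ⁻¹' sect 0 F := by
    ext x
    have e2 : ‖(2:ℝ)^k • x‖ = 2^k * ‖x‖ := by rw [norm_smul]; simp
    show _ ↔ (1/2 ≤ 2^0 * ‖(2:ℝ)^k • x‖ ∧ 2^0 * ‖(2:ℝ)^k • x‖ ≤ 1 ∧ foot 0 ((2:ℝ)^k • x) ∈ F)
    rw [e2, pow_zero, one_mul, ← foot_eq]
    rfl
  rw [e, Measure.addHaar_preimage_smul _ hp.ne']
  refine mul_le_mul' ?_ h
  apply ENNReal.ofReal_le_ofReal
  rw [Module.finrank_fin_fun, abs_of_pos (by positivity), inv_pow]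

/-- **HOLE SQUEEZE, unit cube, pieces of arbitrary shape** -/
theorem hole_gen {p : ℝ} (hp0 : 0 < p) (hpn : p < n)
    {G : Type*} [NormedAddCommGroup G] {ι : Type} [Fintype ι]
    (F : ι → Set (Fin n → ℝ)) (hFc : ∀ i, IsClosed (F i)) {V : ι → ℝ} (hV0 : ∀ i, 0 ≤ V i)
    (hV : ∀ i, volume (sect 0 (F i)) ≤ ENNReal.ofReal (V i)) (hcov : sphere 0 1 ⊆ ⋃ i, F i)
    {μ : ι → ℝ} (hμ : ∀ i, 0 ≤ μ i) (g : (Fin n → ℝ) → G) {τ₀ L : ℝ} (hτ₀ : 0 < τ₀) (hL0 : 0 ≤ L)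
    (hg : ∀ i, ∀ ω ∈ F i, ∀ y, ‖y‖ < 1 → ‖y - ω‖ ≤ τ₀ → LLV (μ i) g y)
    (hL : ∀ y, ‖y‖ < 1 → LLV L g y) {ε : ℝ} (hε : 0 < ε) :
    ∃ χ : (Fin n → ℝ) ≃ₜ (Fin n → ℝ), PLOn χ univ ∧ PLOn χ.symm univ ∧
      (∀ x, 1 ≤ ‖x‖ → χ x = x) ∧ (∀ x, ‖x‖ < 1 → ‖χ x‖ < 1) ∧
      EnCov volume p (fun x => g (χ x)) (closedBall 0 1)
        (ENNReal.ofReal (Cg n p * (∑ i, V i * μ i ^ p) + ε)) := by
  classical
  have hn : 0 < n := by
    have : (0:ℝ) < n := hp0.trans hpn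
    exact_mod_cast this
  have hq1 := q_lt_one (n := n) hpn
  have hq0 := q_pos (n := n) (p := p)
  set q := (2:ℝ)^(p - n) with hq
  -- choice of N and τ
  obtain ⟨N, hN⟩ : ∃ N : ℕ, ((2 * L)^p * 2^n) * q^N ≤ ε := by
    rcases (show (0:ℝ) ≤ (2 * L)^p * 2^n by positivity).eq_or_lt with h | h
    · exact ⟨0, by rw [← h, zero_mul]; exact hε.le⟩
    · obtain ⟨N, hN⟩ := exists_pow_lt_of_lt_one (div_pos hε h) hq1
      refine ⟨N, ?_⟩
      rw [lt_div_iff₀ h] at hN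
      linarith
  set t := min τ₀ 1 with ht
  have ht0 : 0 < t := lt_min hτ₀ one_pos
  set τ := t / (2 * (N + 1)) with hτ
  have hτ0 : 0 < τ := by positivity
  have hNτ : 2 * (N * τ) ≤ t := by
    rw [hτ]
    have h1 : 2 * ((N:ℝ) * (t / (2 * (N + 1)))) = t * (N / (N + 1)) := by field_simp
    rw [h1]
    have h2 : (N:ℝ) / (N + 1) ≤ 1 := by rw [div_le_one (by positivity)]; linarith
    nlinarith
  have hP : Par τ N 1 := ⟨hτ0, by have := min_le_right τ₀ 1; linarith, le_rfl⟩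
  refine ⟨chi hP, plOn_chf hP, plOn_chg hP, fun x hx => chf_out hx,
    fun x hx => norm_chf_lt hP hx, ?_⟩
  set f : (Fin n → ℝ) → G := fun x => g (chf τ N x) with hf
  -- a.e. bounds
  have hsect : ∀ k < N, ∀ i, ∀ᵐ x, x ∈ sect k (F i) →
      LLV (μ i * (16 * 2^k)) f x := by
    intro k hk i
    filter_upwards [ae_norm_ne (((2:ℝ)^k)⁻¹) hn, ae_norm_ne (((2:ℝ)^k)⁻¹ / 2) hn]
      with x hx1 hx2 hxS
    obtain ⟨h1, h2, h3⟩ := hxS
    have hp : (0:ℝ) < 2^k := by positivity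
    have h1' : 1/2 < 2^k * ‖x‖ := by
      refine lt_of_le_of_ne h1 (fun h => hx2 ?_)
      field_simp
      linarith
    have h2' : 2^k * ‖x‖ < 1 := by
      refine lt_of_le_of_ne h2 (fun h => hx1 ?_)
      field_simp
      linarith
    obtain ⟨a1, a2, a3⟩ := chf_near hP hk h1' h2'
    have hgx := hg i _ h3 _ a2 (a3.trans (hNτ.trans (min_le_left _ _)))
    exact LLV_shell hP hk h1' h2' (hμ i) hgx
  have hinn : ∀ᵐ x, x ∈ closedBall (0 : Fin n → ℝ) (((2:ℝ)^N)⁻¹) →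
      LLV (L * (2 * 2^N)) f x := by
    filter_upwards [ae_norm_ne (((2:ℝ)^N)⁻¹) hn, ae_norm_ne (n := n) 1 hn] with x hx1 hx1' hxS
    rw [mem_closedBall_zero_iff] at hxS
    have hp : (0:ℝ) < 2^N := by positivity
    have hp1 : (1:ℝ) ≤ 2^N := one_le_pow₀ (by norm_num)
    have h1 : ‖x‖ < ((2:ℝ)^N)⁻¹ := lt_of_le_of_ne hxS hx1
    have h2 : 2^N * ‖x‖ < 1 := by
      have := mul_lt_mul_of_pos_left h1 hp
      rwa [mul_inv_cancel₀ hp.ne'] at this
    have h3 : ‖x‖ < 1 := by nlinarith [norm_nonneg x]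
    exact LLV_inner hP h2 hL0 (hL _ (norm_chf_lt hP h3))
  -- the cover
  have hcover : closedBall (0 : Fin n → ℝ) 1 ⊆
      (⋃ a : Fin N × ι, sect a.1 (F a.2)) ∪ closedBall 0 (((2:ℝ)^N)⁻¹) := by
    intro x hx
    rw [mem_closedBall_zero_iff] at hx
    by_cases hxN : ‖x‖ ≤ ((2:ℝ)^N)⁻¹
    · exact Or.inr (by rw [mem_closedBall_zero_iff]; exact hxN)
    · left
      have hex : ∃ k, 1/2 ≤ (2:ℝ)^k * ‖x‖ := by
        refine ⟨N, ?_⟩
        have hp : (0:ℝ) < 2^N := by positivity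
        have := mul_lt_mul_of_pos_left (not_le.1 hxN) hp
        rw [mul_inv_cancel₀ hp.ne'] at this
        linarith
      set k := Nat.find hex with hk
      have hk1 := Nat.find_spec hex
      rw [← hk] at hk1
      have hk2 : (2:ℝ)^k * ‖x‖ ≤ 1 := by
        rcases Nat.eq_zero_or_pos k with h | h
        · rw [h]; simpa using hx
        · obtain ⟨m, hm⟩ : ∃ m, k = m + 1 := ⟨k - 1, by omega⟩
          have := Nat.find_min hex (m := m) (by omega)
          rw [hm, pow_succ]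
          linarith [not_le.1 this]
      have hkN : k < N := by
        by_contra hc
        have h1 : (2:ℝ)^N ≤ 2^k := pow_le_pow_right₀ (by norm_num) (not_lt.1 hc)
        have hp : (0:ℝ) < 2^N := by positivity
        have := mul_lt_mul_of_pos_left (not_le.1 hxN) hp
        rw [mul_inv_cancel₀ hp.ne'] at this
        nlinarith [norm_nonneg x]
      have hfoot : ‖foot k x‖ = 1 := by
        have e2 : ‖(2:ℝ)^k • x‖ = 2^k * ‖x‖ := by rw [norm_smul]; simp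
        rw [foot_eq, foot_zero]
        exact norm_cf ⟨by rw [e2]; exact hk1, by rw [e2]; exact hk2⟩
      obtain ⟨i, hi⟩ := mem_iUnion.1 (hcov (show foot k x ∈ sphere 0 1 by simpa using hfoot))
      exact mem_iUnion.2 ⟨(⟨k, hkN⟩, i), hk1, hk2, hi⟩
  have h16 : (0:ℝ) ≤ (16:ℝ)^p := by positivity
  have hstep : ∀ a : Fin N × ι, ENNReal.ofReal ((μ a.2 * (16 * 2^(a.1:ℕ)))^p) *
      volume (sect a.1 (F a.2)) ≤
      ENNReal.ofReal ((16:ℝ)^p * (q^(a.1 : ℕ) * (V a.2 * μ a.2 ^ p))) := by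
    rintro ⟨k, i⟩
    have hnn : 0 ≤ μ i * (16 * 2^(k:ℕ)) := mul_nonneg (hμ i) (by positivity)
    refine (mul_le_mul' le_rfl (volume_sect_gen k (F i) (hV i))).trans ?_
    rw [← ENNReal.ofReal_mul (by positivity), ← ENNReal.ofReal_mul (by positivity)]
    apply le_of_eq
    congr 1
    rw [Real.mul_rpow (hμ i) (by positivity), Real.mul_rpow (by norm_num) (by positivity)]
    have := pow_aux (n := n) (k : ℕ) (p := p)
    rw [← hq] at this
    calc μ i ^ p * ((16:ℝ)^p * ((2:ℝ)^(k:ℕ))^p) * ((((2:ℝ)^(k:ℕ))⁻¹)^n * V i)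
        = (16:ℝ)^p * ((((2:ℝ)^(k:ℕ))^p * (((2:ℝ)^(k:ℕ))⁻¹)^n) * (V i * μ i ^ p)) := by
          ring
      _ = _ := by rw [this]
  have hin : ENNReal.ofReal ((L * (2 * 2^N))^p) *
      volume (closedBall (0 : Fin n → ℝ) (((2:ℝ)^N)⁻¹)) ≤ ENNReal.ofReal ε := by
    rw [Real.volume_pi_closedBall _ (by positivity), Fintype.card_fin,
      ← ENNReal.ofReal_mul (by positivity)]
    apply ENNReal.ofReal_le_ofReal
    refine le_trans (le_of_eq ?_) hN
    have := pow_aux (n := n) N (p := p)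
    rw [← hq] at this
    have e : (L * (2 * 2^N))^p = (2 * L)^p * ((2:ℝ)^N)^p := by
      rw [← Real.mul_rpow (by positivity) (by positivity)]
      congr 1; ring
    rw [e, mul_pow, ← this]
    ring
  refine ⟨Option (Fin N × ι), inferInstance, fun o => o.elim (closedBall 0 (((2:ℝ)^N)⁻¹))
    (fun a => sect a.1 (F a.2)), fun o => o.elim (L * (2 * 2^N))
    (fun a => μ a.2 * (16 * 2^(a.1:ℕ))), ?_, ?_, ?_, ?_, ?_⟩
  · rintro (_ | a)
    · exact isClosed_closedBall.measurableSet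
    · exact (isClosed_sect _ (hFc _)).measurableSet
  · rintro (_ | a)
    · show 0 ≤ L * (2 * 2^N)
      positivity
    · exact mul_nonneg (hμ a.2) (by positivity)
  · intro x hx
    rcases hcover hx with h | h
    · obtain ⟨a, ha⟩ := mem_iUnion.1 h
      exact mem_iUnion.2 ⟨some a, ha⟩
    · exact mem_iUnion.2 ⟨none, h⟩
  · rintro (_ | a)
    · exact hinn
    · exact hsect a.1 a.1.2 a.2
  rw [Fintype.sum_option]
  show ENNReal.ofReal ((L * (2 * 2^N))^p) * volume (closedBall (0 : Fin n → ℝ) (((2:ℝ)^N)⁻¹)) +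
    ∑ a : Fin N × ι, ENNReal.ofReal ((μ a.2 * (16 * 2^(a.1:ℕ)))^p) *
      volume (sect a.1 (F a.2)) ≤ _
  have hnn : ∀ i, 0 ≤ V i * μ i ^ p := fun i => mul_nonneg (hV0 i) (Real.rpow_nonneg (hμ i) p)
  calc _ ≤ ENNReal.ofReal ε +
          (∑ a : Fin N × ι, ENNReal.ofReal ((16:ℝ)^p * (q^(a.1 : ℕ) * (V a.2 * μ a.2 ^ p)))) :=
        add_le_add hin (Finset.sum_le_sum fun a _ => hstep a)
    _ = (∑ a : Fin N × ι, ENNReal.ofReal ((16:ℝ)^p * (q^(a.1 : ℕ) * (V a.2 * μ a.2 ^ p)))) +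
          ENNReal.ofReal ε := add_comm _ _
    _ = ENNReal.ofReal ((∑ a : Fin N × ι, (16:ℝ)^p * (q^(a.1 : ℕ) * (V a.2 * μ a.2 ^ p))) + ε) := by
        rw [ENNReal.ofReal_add (Finset.sum_nonneg fun a _ => ?_) hε.le,
          ENNReal.ofReal_sum_of_nonneg fun a _ => ?_]
        · have := hnn a.2
          positivity
        · have := hnn a.2
          positivity
    _ ≤ _ := by
        apply ENNReal.ofReal_le_ofReal
        have e1 : ∑ a : Fin N × ι, (16:ℝ)^p * (q^(a.1 : ℕ) * (V a.2 * μ a.2 ^ p)) =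
            (16:ℝ)^p * ((∑ k ∈ Finset.range N, q^k) * ∑ i, V i * μ i ^ p) := by
          rw [← Finset.mul_sum, Fintype.sum_prod_type, Finset.sum_mul, Finset.sum_range]
          congr 1
          refine Finset.sum_congr rfl fun k _ => ?_
          rw [Finset.mul_sum]
        rw [e1]
        have h1 := geom_le hq0.le hq1 N
        have h2 : 0 ≤ ∑ i, V i * μ i ^ p := Finset.sum_nonneg fun i _ => hnn i
        have h3 : (16:ℝ)^p * ((∑ k ∈ Finset.range N, q^k) * ∑ i, V i * μ i ^ p) ≤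
            (16:ℝ)^p * ((1 / (1 - q)) * ∑ i, V i * μ i ^ p) := by
          refine mul_le_mul_of_nonneg_left ?_ h16
          exact mul_le_mul_of_nonneg_right h1 h2
        have h4 : (16:ℝ)^p * ((1 / (1 - q)) * ∑ i, V i * μ i ^ p) =
            Cg n p * ∑ i, V i * μ i ^ p := by
          rw [Cg, ← hq]
          ring
        linarith

end Crest.Agent.R096.Sq_55
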