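import Crest.Agent.R096.Sq19_55

/-!
# R096 (row 96), SOBSQ, part 20 (helper55): explicit constants of the charts of the double pyramids
-/

set_option autoImplicit false
set_option linter.unusedSectionVars false

open Set Metric Filter Topology

namespace Crest.Agent.R096.Sq_55

open Crest.Agent.R096.Ce_537 Crest.Agent.R096.Bd_416 Crest.Agent.R96.Hole_348
open Crest.Agent.R096.Msh_715 (P I Tiling I_sub_P isOpen_I isClosed_P convex_P mem_I_of_move
  disjoint_P_I isBall_P_top mem_I_small)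
open scoped NNReal

section con

variable {W W' : Type*} [NormedAddCommGroup W] [NormedSpace ℝ W] [NormedAddCommGroup W']
  [NormedSpace ℝ W'] {σ : W → W'} {B : Set W}

/-- explicit Lipschitz constant of the conical extension -/
lemma norm_con_sub_le {L C ρ : ℝ} (hL : 0 ≤ L) (hσ : ∀ w ∈ B, ∀ w' ∈ B, ‖σ w - σ w'‖ ≤ L * ‖w - w'‖)
    (hC : ∀ w ∈ B, ‖σ w‖ ≤ C) (hρ : ∀ w ∈ B, ‖w‖ ≤ ρ) {z z' : ℝ × W} (hz : z ∈ Kc B)
    (hz' : z' ∈ Kc B) :
    ‖con σ z - con σ z'‖ ≤ L * ‖z.2 - z'.2‖ + (C + L * ρ) * |z.1 - z'.1| := by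
  have key : ∀ {z z' : ℝ × W}, z ∈ Kc B → z' ∈ Kc B → 0 < z.1 →
      ‖con σ z - con σ z'‖ ≤ L * ‖z.2 - z'.2‖ + (C + L * ρ) * |z.1 - z'.1| := by
    intro z z' hz hz' h1
    have hw := hz.2.1 h1
    have c0 : 0 ≤ C := (norm_nonneg _).trans (hC _ hw)
    have r0 : 0 ≤ ρ := (norm_nonneg _).trans (hρ _ hw)
    rcases hz'.1.lt_or_eq with h2 | h2
    · have hw' := hz'.2.1 h2
      have e1 : con σ z - con σ z' = (z.1 - z'.1) • σ (z.1⁻¹ • z.2) +
          z'.1 • (σ (z.1⁻¹ • z.2) - σ (z'.1⁻¹ • z'.2)) := by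
        rw [con_pos h1, con_pos h2]; module
      have e2 : z'.1 • (z.1⁻¹ • z.2 - z'.1⁻¹ • z'.2) = (z.2 - z'.2) +
          (z'.1 - z.1) • (z.1⁻¹ • z.2) := by
        rw [smul_sub, smul_smul, smul_smul, smul_smul, mul_inv_cancel₀ h2.ne', one_smul, sub_mul,
          mul_inv_cancel₀ h1.ne', sub_smul, one_smul]
        abel
      have e3 : z'.1 * ‖z.1⁻¹ • z.2 - z'.1⁻¹ • z'.2‖ ≤ ‖z.2 - z'.2‖ + |z.1 - z'.1| * ρ := by
        calc z'.1 * ‖z.1⁻¹ • z.2 - z'.1⁻¹ • z'.2‖ = ‖z'.1 • (z.1⁻¹ • z.2 - z'.1⁻¹ • z'.2)‖ := by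
              rw [norm_smul, Real.norm_eq_abs, abs_of_pos h2]
          _ = ‖(z.2 - z'.2) + (z'.1 - z.1) • (z.1⁻¹ • z.2)‖ := by rw [e2]
          _ ≤ ‖z.2 - z'.2‖ + ‖(z'.1 - z.1) • (z.1⁻¹ • z.2)‖ := norm_add_le _ _
          _ ≤ ‖z.2 - z'.2‖ + |z.1 - z'.1| * ρ := by
              rw [norm_smul, Real.norm_eq_abs, abs_sub_comm]
              have := mul_le_mul_of_nonneg_left (hρ _ hw) (abs_nonneg (z.1 - z'.1))
              linarith
      calc ‖con σ z - con σ z'‖ ≤ ‖(z.1 - z'.1) • σ (z.1⁻¹ • z.2)‖ +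
            ‖z'.1 • (σ (z.1⁻¹ • z.2) - σ (z'.1⁻¹ • z'.2))‖ := by rw [e1]; exact norm_add_le _ _
        _ = |z.1 - z'.1| * ‖σ (z.1⁻¹ • z.2)‖ +
            z'.1 * ‖σ (z.1⁻¹ • z.2) - σ (z'.1⁻¹ • z'.2)‖ := by
            rw [norm_smul, norm_smul, Real.norm_eq_abs, Real.norm_eq_abs, abs_of_pos h2]
        _ ≤ |z.1 - z'.1| * C + z'.1 * (L * ‖z.1⁻¹ • z.2 - z'.1⁻¹ • z'.2‖) := by
            have a1 := mul_le_mul_of_nonneg_left (hC _ hw) (abs_nonneg (z.1 - z'.1))
            have a2 := mul_le_mul_of_nonneg_left (hσ _ hw _ hw') h2.le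
            linarith
        _ = |z.1 - z'.1| * C + L * (z'.1 * ‖z.1⁻¹ • z.2 - z'.1⁻¹ • z'.2‖) := by ring
        _ ≤ |z.1 - z'.1| * C + L * (‖z.2 - z'.2‖ + |z.1 - z'.1| * ρ) := by
            have := mul_le_mul_of_nonneg_left e3 hL
            linarith
        _ = _ := by ring
    · rw [con_of_le h2.ge, sub_zero, ← h2, sub_zero, abs_of_pos h1]
      have a1 := norm_con_le hC hz
      have a2 : 0 ≤ L * ‖z.2 - z'.2‖ := mul_nonneg hL (norm_nonneg _)
      have a3 : 0 ≤ L * ρ * z.1 := mul_nonneg (mul_nonneg hL r0) h1.le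
      nlinarith
  rcases hz.1.lt_or_eq with h1 | h1
  · exact key hz hz' h1
  · rcases hz'.1.lt_or_eq with h2 | h2
    · have := key hz' hz h2
      rwa [norm_sub_rev, norm_sub_rev z'.2, abs_sub_comm] at this
    · rw [con_of_le h1.ge, con_of_le h2.ge, sub_self, norm_zero, ← h1, ← h2, sub_self, abs_zero,
        mul_zero, add_zero]
      exact mul_nonneg hL (norm_nonneg _)

end con

lemma abs_pp_sub (x y : ℝ) : |pp x - pp y| ≤ |x - y| := by
  unfold pp
  exact abs_max_sub_max_le_abs _ _ _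

namespace Dp

variable (D : Dp)

/-- the height is `1 / r`-Lipschitz if the apexes are far from the plane -/
lemma abs_t_sub_le {r : ℝ} (h1 : ∀ v, r * |D.l v| ≤ D.l (D.a - D.b) * ‖v‖)
    (h2 : ∀ v, r * |D.l v| ≤ -D.l (D.a' - D.b) * ‖v‖) (hr : 0 < r) (y y' : E3) :
    |D.t y - D.t y'| ≤ r⁻¹ * ‖y - y'‖ := by
  have ha := D.ha
  have ha' : 0 < -D.l (D.a' - D.b) := by have := D.ha'; linarith
  set A := D.l (D.a - D.b) with hA
  set A' := -D.l (D.a' - D.b) with hA'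
  set m := min A A' with hm
  have m0 : 0 < m := lt_min ha ha'
  have hl : D.l (y - D.b) - D.l (y' - D.b) = D.l (y - y') := by rw [← map_sub]; congr 1; abel
  have key : r * |D.l (y - y')| ≤ m * ‖y - y'‖ := by
    rcases min_choice A A' with e | e
    · rw [hm, e]; exact h1 _
    · rw [hm, e]; exact h2 _
  have k2 : m * |D.t y - D.t y'| ≤ |D.l (y - y')| := by
    set s := D.l (y - D.b) with hs
    set s' := D.l (y' - D.b) with hs'
    have e1 : D.t y - D.t y' = (pp s - pp s') / A - (pp (-s) - pp (-s')) / A' := by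
      show pp s / A - pp (-s) / A' - (pp s' / A - pp (-s') / A') = _
      ring
    have b1 : |(pp s - pp s') / A| ≤ |pp s - pp s'| / m := by
      rw [abs_div, abs_of_pos ha]
      exact div_le_div_of_nonneg_left (abs_nonneg _) m0 (min_le_left _ _)
    have b2 : |(pp (-s) - pp (-s')) / A'| ≤ |pp (-s) - pp (-s')| / m := by
      rw [abs_div, abs_of_pos ha']
      exact div_le_div_of_nonneg_left (abs_nonneg _) m0 (min_le_right _ _)
    have b3 : |pp s - pp s'| + |pp (-s) - pp (-s')| = |s - s'| := by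
      unfold pp
      rcases le_total 0 s with h | h <;> rcases le_total 0 s' with h' | h'
      · rw [max_eq_left h, max_eq_left h', max_eq_right (by linarith : -s ≤ 0),
          max_eq_right (by linarith : -s' ≤ 0), sub_self, abs_zero, add_zero]
      · rw [max_eq_left h, max_eq_right h', max_eq_right (by linarith : -s ≤ 0),
          max_eq_left (by linarith : 0 ≤ -s'), sub_zero, zero_sub, neg_neg, abs_of_nonneg h,
          abs_of_nonpos h', abs_of_nonneg (by linarith)]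
        ring
      · rw [max_eq_right h, max_eq_left h', max_eq_left (by linarith : 0 ≤ -s),
          max_eq_right (by linarith : -s' ≤ 0), sub_zero, zero_sub, abs_neg, abs_of_nonneg h',
          abs_of_nonneg (by linarith : 0 ≤ -s), abs_of_nonpos (by linarith : s - s' ≤ 0)]
        ring
      · rw [max_eq_right h, max_eq_right h', max_eq_left (by linarith : 0 ≤ -s),
          max_eq_left (by linarith : 0 ≤ -s'), sub_self, abs_zero, zero_add, ← abs_neg]
        congr 1; ring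
    have b4 : |D.t y - D.t y'| ≤ |s - s'| / m := by
      rw [e1, ← b3, add_div]
      exact (abs_sub _ _).trans (add_le_add b1 b2)
    rw [hl] at b4
    rw [le_div_iff₀ m0] at b4
    linarith
  have k3 : m * (r * |D.t y - D.t y'|) ≤ m * ‖y - y'‖ := by
    have := mul_le_mul_of_nonneg_left k2 hr.le
    linarith
  have k4 := le_of_mul_le_mul_left k3 m0
  rw [inv_mul_eq_div, le_div_iff₀ hr]
  linarith

lemma norm_ax_sub_le {d : ℝ} (h1 : ‖D.a - D.b‖ ≤ d) (h2 : ‖D.a' - D.b‖ ≤ d) (s s' : ℝ) :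
    ‖D.ax s - D.ax s'‖ ≤ d * |s - s'| := by
  have e : D.ax s - D.ax s' = (pp s - pp s') • (D.a - D.b) + (pp (-s) - pp (-s')) • (D.a' - D.b) := by
    unfold ax; module
  have b3 : |pp s - pp s'| + |pp (-s) - pp (-s')| = |s - s'| := by
    unfold pp
    rcases le_total 0 s with h | h <;> rcases le_total 0 s' with h' | h'
    · rw [max_eq_left h, max_eq_left h', max_eq_right (by linarith : -s ≤ 0),
        max_eq_right (by linarith : -s' ≤ 0), sub_self, abs_zero, add_zero]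
    · rw [max_eq_left h, max_eq_right h', max_eq_right (by linarith : -s ≤ 0),
        max_eq_left (by linarith : 0 ≤ -s'), sub_zero, zero_sub, neg_neg, abs_of_nonneg h,
        abs_of_nonpos h', abs_of_nonneg (by linarith)]
      ring
    · rw [max_eq_right h, max_eq_left h', max_eq_left (by linarith : 0 ≤ -s),
        max_eq_right (by linarith : -s' ≤ 0), sub_zero, zero_sub, abs_neg, abs_of_nonneg h',
        abs_of_nonneg (by linarith : 0 ≤ -s), abs_of_nonpos (by linarith : s - s' ≤ 0)]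
      ring
    · rw [max_eq_right h, max_eq_right h', max_eq_left (by linarith : 0 ≤ -s),
        max_eq_left (by linarith : 0 ≤ -s'), sub_self, abs_zero, zero_add, ← abs_neg]
      congr 1; ring
  rw [e]
  calc _ ≤ ‖(pp s - pp s') • (D.a - D.b)‖ + ‖(pp (-s) - pp (-s')) • (D.a' - D.b)‖ :=
        norm_add_le _ _
    _ = |pp s - pp s'| * ‖D.a - D.b‖ + |pp (-s) - pp (-s')| * ‖D.a' - D.b‖ := by
        rw [norm_smul, norm_smul, Real.norm_eq_abs, Real.norm_eq_abs]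
    _ ≤ |pp s - pp s'| * d + |pp (-s) - pp (-s')| * d := by
        have := mul_le_mul_of_nonneg_left h1 (abs_nonneg (pp s - pp s'))
        have := mul_le_mul_of_nonneg_left h2 (abs_nonneg (pp (-s) - pp (-s')))
        linarith
    _ = d * |s - s'| := by rw [← b3]; ring

/-- **the chart of the double pyramid, explicit constants** -/
theorem cht_explicit {r d Lf Lg : ℝ≥0} (hr : 0 < r)
    (h1 : ∀ v, r * |D.l v| ≤ D.l (D.a - D.b) * ‖v‖)
    (h2 : ∀ v, r * |D.l v| ≤ -D.l (D.a' - D.b) * ‖v‖)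
    (h3 : ‖D.a - D.b‖ ≤ d) (h4 : ‖D.a' - D.b‖ ≤ d) (h5 : ∀ y ∈ D.F, ‖y - D.b‖ ≤ d)
    (hf : LipschitzOnWith Lf D.e.f (cube 2)) (hg : LipschitzOnWith Lg D.e.g D.F) :
    Cht D.K D.V Dc Do D.ch D.ch' (Lg + 2 * Lg * (d / r) + 1 / r) (2 * d + 2 * Lf) := by
  obtain ⟨L, L', hL⟩ := D.exists_cht
  have hr' : (0:ℝ) < r := by exact_mod_cast hr
  have ht := D.abs_t_sub_le h1 h2 hr'
  have hax := D.norm_ax_sub_le h3 h4
  have hw : ∀ y y', ‖D.w y - D.w y'‖ ≤ (1 + d * (r:ℝ)⁻¹) * ‖y - y'‖ := by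
    intro y y'
    have e : D.w y - D.w y' = (y - y') - (D.ax (D.t y) - D.ax (D.t y')) := by unfold w; abel
    rw [e]
    calc _ ≤ ‖y - y'‖ + ‖D.ax (D.t y) - D.ax (D.t y')‖ := norm_sub_le _ _
      _ ≤ ‖y - y'‖ + d * ((r:ℝ)⁻¹ * ‖y - y'‖) := by
          have a1 := hax (D.t y) (D.t y')
          have a2 := mul_le_mul_of_nonneg_left (ht y y') d.coe_nonneg
          linarith
      _ = _ := by ring
  have hσ' : ∀ x ∈ D.B, ∀ x' ∈ D.B, ‖D.σ' x - D.σ' x'‖ ≤ Lg * ‖x - x'‖ := by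
    intro x hx x' hx'
    have := hg.norm_sub_le hx hx'
    have e : D.b + x - (D.b + x') = x - x' := by abel
    rw [e] at this
    exact this
  have hσ : ∀ x ∈ cube 2, ∀ x' ∈ cube 2, ‖D.σ x - D.σ x'‖ ≤ Lf * ‖x - x'‖ := by
    intro x hx x' hx'
    have := hf.norm_sub_le hx hx'
    have e : D.σ x - D.σ x' = D.e.f x - D.e.f x' := by unfold σ; abel
    rw [e]
    exact this
  have hσC : ∀ x ∈ cube 2, ‖D.σ x‖ ≤ d := fun x hx => h5 _ (D.e.mf hx)
  have hBd : ∀ x ∈ D.B, ‖x‖ ≤ d := fun x hx => by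
    have := h5 _ hx
    rwa [add_sub_cancel_left] at this
  refine { hL with lip := ?_, lip' := ?_ }
  · refine LipschitzOnWith.of_dist_le_mul fun x hx y hy => ?_
    rw [dist_eq_norm, dist_eq_norm]
    have hn := norm_nonneg (x - y)
    have k1 := norm_con_sub_le Lg.coe_nonneg hσ' D.bd_σ' hBd (show (1 - |D.t x|, D.w x) ∈ Kc D.B from hx)
      (show (1 - |D.t y|, D.w y) ∈ Kc D.B from hy)
    have k2 : |(1 - |D.t x|) - (1 - |D.t y|)| ≤ (r:ℝ)⁻¹ * ‖x - y‖ := by
      have e : (1 - |D.t x|) - (1 - |D.t y|) = -(|D.t x| - |D.t y|) := by ring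
      rw [e, abs_neg]
      exact (abs_abs_sub_abs_le _ _).trans (ht x y)
    have k3 : ‖con D.σ' (1 - |D.t x|, D.w x) - con D.σ' (1 - |D.t y|, D.w y)‖ ≤
        (Lg + 2 * Lg * (d / r) + 1 / r) * ‖x - y‖ := by
      refine k1.trans ?_
      show (Lg:ℝ) * ‖D.w x - D.w y‖ + (1 + Lg * d) * |(1 - |D.t x|) - (1 - |D.t y|)| ≤ _
      have a1 := mul_le_mul_of_nonneg_left (hw x y) Lg.coe_nonneg
      have a2 : (1 + Lg * (d:ℝ)) * |(1 - |D.t x|) - (1 - |D.t y|)| ≤
          (1 + Lg * (d:ℝ)) * ((r:ℝ)⁻¹ * ‖x - y‖) :=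
        mul_le_mul_of_nonneg_left k2 (by positivity)
      refine (add_le_add a1 a2).trans (le_of_eq ?_)
      ring
    have hM : 0 ≤ ((Lg:ℝ) + 2 * Lg * (d / r) + 1 / r) * ‖x - y‖ := by positivity
    push_cast
    rw [pi_norm_le_iff_of_nonneg hM]
    intro j
    refine Fin.cases ?_ (fun i => ?_) j
    · show ‖D.t x - D.t y‖ ≤ _
      rw [Real.norm_eq_abs]
      refine (ht x y).trans ?_
      refine mul_le_mul_of_nonneg_right ?_ hn
      rw [inv_eq_one_div]
      have : 0 ≤ (Lg:ℝ) + 2 * Lg * (d / r) := by positivity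
      linarith
    · refine le_trans ?_ k3
      exact norm_le_pi_norm (con D.σ' (1 - |D.t x|, D.w x) - con D.σ' (1 - |D.t y|, D.w y)) i
  · refine LipschitzOnWith.of_dist_le_mul fun z hz z' hz' => ?_
    rw [dist_eq_norm, dist_eq_norm]
    have hn := norm_nonneg (z - z')
    have z0 : |z 0 - z' 0| ≤ ‖z - z'‖ := norm_le_pi_norm (z - z') 0
    have zt : ‖tl z - tl z'‖ ≤ ‖z - z'‖ := by
      rw [pi_norm_le_iff_of_nonneg hn]
      intro j
      exact norm_le_pi_norm (z - z') j.succ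
    have k1 := norm_con_sub_le Lf.coe_nonneg hσ hσC
      (fun v (hv : v ∈ cube 2) => mem_closedBall_zero_iff.1 hv) (mem_Dc.1 hz) (mem_Dc.1 hz')
    have k2 : |(1 - |z 0|) - (1 - |z' 0|)| ≤ ‖z - z'‖ := by
      have e : (1 - |z 0|) - (1 - |z' 0|) = -(|z 0| - |z' 0|) := by ring
      rw [e, abs_neg]
      exact (abs_abs_sub_abs_le _ _).trans z0
    have e : D.ch' z - D.ch' z' = (D.ax (z 0) - D.ax (z' 0)) +
        (con D.σ (1 - |z 0|, tl z) - con D.σ (1 - |z' 0|, tl z')) := by unfold ch'; abel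
    rw [e]
    refine (norm_add_le _ _).trans ?_
    have a1 : ‖D.ax (z 0) - D.ax (z' 0)‖ ≤ d * ‖z - z'‖ :=
      (hax _ _).trans (mul_le_mul_of_nonneg_left z0 d.coe_nonneg)
    have a2 : (Lf:ℝ) * ‖tl z - tl z'‖ ≤ Lf * ‖z - z'‖ :=
      mul_le_mul_of_nonneg_left zt Lf.coe_nonneg
    have a3 : ((d:ℝ) + Lf * 1) * |(1 - |z 0|) - (1 - |z' 0|)| ≤ (d + Lf * 1) * ‖z - z'‖ :=
      mul_le_mul_of_nonneg_left k2 (by positivity)
    have k1' : ‖con D.σ (1 - |z 0|, tl z) - con D.σ (1 - |z' 0|, tl z')‖ ≤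
      (Lf:ℝ) * ‖tl z - tl z'‖ + ((d:ℝ) + Lf * 1) * |(1 - |z 0|) - (1 - |z' 0|)| := k1
    push_cast
    nlinarith [a1, a2, a3, k1']

end Dp

end Crest.Agent.R096.Sq_55
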