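import Crest.Agent.R096.Sq20_55

/-!
# R096 (row 96), SOBSQ, part 21 (helper55): faces of a tiling with explicit constants
-/

set_option autoImplicit false
set_option linter.unusedSectionVars false

open Set Metric Filter Topology

namespace Crest.Agent.R096.Sq_55

open Crest.Agent.R096.Ce_537 Crest.Agent.R096.Bd_416 Crest.Agent.R96.Hole_348
open Crest.Agent.R096.Msh_715 (P I Tiling I_sub_P isOpen_I isClosed_P convex_P mem_I_of_move
  disjoint_P_I isBall_P_top mem_I_small)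
open scoped NNReal

section tiling

variable {Om : Set E3} {ι : Type*} {T : Tiling Om ι} {c : ι → E3} {x : E3} {i j : ι} {D : Dp}

/-- no point of the plane of the 2-cell is in the interior of a tile at the 2-cell -/
lemma IsDp.plane_notMem (h : IsDp T c x i j D) (hx : x ∈ Om) {k : ι} (hk : k ∈ T.at_ x) {p : E3}
    (hp : D.l (p - D.b) = 0) : p ∉ I (T.H k) := by
  intro hpI
  have hb : D.b ∈ P (T.H k) := by
    have : D.b ∈ T.cc x := by rw [← h.F]; exact D.sF D.bF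
    exact T.cc_sub_tile hk this
  have h1 : Tendsto (fun s : ℝ => D.b + s • (p - D.b)) (𝓝 0) (𝓝 (D.b + (0:ℝ) • (p - D.b))) := by
    apply Continuous.tendsto
    fun_prop
  rw [zero_smul, add_zero] at h1
  have hbO : D.b ∈ D.O := (D.mO _ (by rw [sub_self, map_zero])).2 D.bF
  have h2 : ∀ᶠ s in 𝓝[>] (0:ℝ), D.b + s • (p - D.b) ∈ D.O :=
    (h1.eventually (D.hO.mem_nhds hbO)).filter_mono nhdsWithin_le_nhds
  have h3 : ∀ᶠ s in 𝓝[>] (0:ℝ), s < 1 :=
    (gt_mem_nhds (zero_lt_one' ℝ)).filter_mono nhdsWithin_le_nhds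
  obtain ⟨s, ⟨h4, h5⟩, h6⟩ := ((h2.and h3).and self_mem_nhdsWithin).exists
  have h6 : (0:ℝ) < s := h6
  have h7 : D.b + s • (p - D.b) ∈ D.oF := by
    rw [← D.mO _ _]
    · exact h4
    · rw [add_sub_cancel_left, map_smul, hp, smul_zero]
  rw [h.oF] at h7
  exact h.oc_notMem hx h7 k (mem_I_of_move hb hpI h6 h5.le)

/-- a ball in the tile around the apex is on one side of the plane -/
lemma IsDp.ball_pos (h : IsDp T c x i j D) (hx : x ∈ Om) {r : ℝ} (hr : 0 ≤ r)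
    (hB : closedBall (c i) r ⊆ I (T.H i)) (v : E3) : r * |D.l v| ≤ D.l (D.a - D.b) * ‖v‖ := by
  have ha := D.ha
  rcases eq_or_ne v 0 with rfl | hv
  · simp
  have hv' : 0 < ‖v‖ := norm_pos_iff.2 hv
  have key : ∀ σ : ℝ, |σ| = 1 → 0 < D.l (D.a - D.b) + σ * (r / ‖v‖) * D.l v := by
    intro σ hσ
    by_contra hcon
    push Not at hcon
    set w : E3 := (σ * (r / ‖v‖)) • v with hw
    have hwn : ‖w‖ ≤ r := by
      rw [hw, norm_smul, Real.norm_eq_abs, abs_mul, hσ, one_mul, abs_of_nonneg (by positivity),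
        div_mul_cancel₀ _ hv'.ne']
    have hlw : D.l w = σ * (r / ‖v‖) * D.l v := by rw [hw, map_smul, smul_eq_mul]
    rw [← hlw] at hcon
    have hlw0 : D.l w < 0 := by linarith
    -- the point of the plane
    set t : ℝ := D.l (D.a - D.b) / (-D.l w) with ht
    have ht0 : 0 < t := div_pos ha (by linarith)
    have ht1 : t ≤ 1 := by rw [ht, div_le_one (by linarith)]; linarith
    have hp : D.l (D.a + t • w - D.b) = 0 := by
      have : D.a + t • w - D.b = (D.a - D.b) + t • w := by abel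
      have h0 : -D.l w ≠ 0 := by linarith
      have h1 : t * -D.l w = D.l (D.a - D.b) := div_mul_cancel₀ _ h0
      rw [this, map_add, map_smul, smul_eq_mul]
      linarith
    refine h.plane_notMem hx h.symm_mem.1 hp (hB ?_)
    rw [mem_closedBall, dist_eq_norm, h.a, add_sub_cancel_left, norm_smul, Real.norm_eq_abs,
      abs_of_pos ht0]
    calc t * ‖w‖ ≤ 1 * ‖w‖ := mul_le_mul_of_nonneg_right ht1 (norm_nonneg _)
      _ ≤ r := by rw [one_mul]; exact hwn
  have e : r * |D.l v| = (r / ‖v‖ * |D.l v|) * ‖v‖ := by field_simp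
  rw [e]
  refine mul_le_mul_of_nonneg_right ?_ hv'.le
  rcases le_total 0 (D.l v) with h0 | h0
  · have := key (-1) (by norm_num)
    rw [abs_of_nonneg h0]; linarith
  · have := key 1 (by norm_num)
    rw [abs_of_nonpos h0]; linarith

lemma IsDp.ball_neg (h : IsDp T c x i j D) (hx : x ∈ Om) {r : ℝ} (hr : 0 ≤ r)
    (hB : closedBall (c j) r ⊆ I (T.H j)) (v : E3) : r * |D.l v| ≤ -D.l (D.a' - D.b) * ‖v‖ := by
  have ha := D.ha'
  rcases eq_or_ne v 0 with rfl | hv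
  · simp
  have hv' : 0 < ‖v‖ := norm_pos_iff.2 hv
  have key : ∀ σ : ℝ, |σ| = 1 → D.l (D.a' - D.b) + σ * (r / ‖v‖) * D.l v < 0 := by
    intro σ hσ
    by_contra hcon
    push Not at hcon
    set w : E3 := (σ * (r / ‖v‖)) • v with hw
    have hwn : ‖w‖ ≤ r := by
      rw [hw, norm_smul, Real.norm_eq_abs, abs_mul, hσ, one_mul, abs_of_nonneg (by positivity),
        div_mul_cancel₀ _ hv'.ne']
    have hlw : D.l w = σ * (r / ‖v‖) * D.l v := by rw [hw, map_smul, smul_eq_mul]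
    rw [← hlw] at hcon
    have hlw0 : 0 < D.l w := by linarith
    set t : ℝ := -D.l (D.a' - D.b) / D.l w with ht
    have ht0 : 0 < t := div_pos (by linarith) hlw0
    have ht1 : t ≤ 1 := by rw [ht, div_le_one hlw0]; linarith
    have hp : D.l (D.a' + t • w - D.b) = 0 := by
      have : D.a' + t • w - D.b = (D.a' - D.b) + t • w := by abel
      have h1 : t * D.l w = -D.l (D.a' - D.b) := div_mul_cancel₀ _ hlw0.ne'
      rw [this, map_add, map_smul, smul_eq_mul]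
      linarith
    refine h.plane_notMem hx h.symm_mem.2 hp (hB ?_)
    rw [mem_closedBall, dist_eq_norm, h.a', add_sub_cancel_left, norm_smul, Real.norm_eq_abs,
      abs_of_pos ht0]
    calc t * ‖w‖ ≤ 1 * ‖w‖ := mul_le_mul_of_nonneg_right ht1 (norm_nonneg _)
      _ ≤ r := by rw [one_mul]; exact hwn
  have e : r * |D.l v| = (r / ‖v‖ * |D.l v|) * ‖v‖ := by field_simp
  rw [e]
  refine mul_le_mul_of_nonneg_right ?_ hv'.le
  rcases le_total 0 (D.l v) with h0 | h0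
  · have := key 1 (by norm_num)
    rw [abs_of_nonneg h0]; linarith
  · have := key (-1) (by norm_num)
    rw [abs_of_nonpos h0]; linarith

/-- one tile: the distance to the boundary -/
lemma dist_bdry {H : Finset ((E3 →L[ℝ] ℝ) × ℝ)} {a v y z : E3} {r s : ℝ}
    (hB : closedBall a r ⊆ I H) (hs : 0 < s) (hs1 : s ≤ 1) (hv : v ∈ P H)
    (hy : y = v + s • (a - v)) (hz : z ∉ I H) : s * r ≤ ‖y - z‖ := by
  by_contra hcon
  push Not at hcon
  apply hz
  have e : z = v + s • ((a + s⁻¹ • (z - y)) - v) := by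
    rw [hy]
    have : s • ((a + s⁻¹ • (z - (v + s • (a - v)))) - v) = s • (a - v) +
        (s * s⁻¹) • (z - (v + s • (a - v))) := by module
    rw [this, mul_inv_cancel₀ hs.ne', one_smul]
    abel
  rw [e]
  refine mem_I_of_move hv (hB ?_) hs hs1
  rw [mem_closedBall, dist_eq_norm, add_sub_cancel_left, norm_smul, norm_inv, Real.norm_eq_abs,
    abs_of_pos hs, norm_sub_rev, inv_mul_le_iff₀ hs]
  linarith

/-- explicit slab constant -/
lemma IsDp.slab_explicit (h : IsDp T c x i j D) (hx : x ∈ Om) {r : ℝ} (hr : 0 < r)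
    (hB : ∀ k ∈ T.at_ x, closedBall (c k) r ⊆ I (T.H k)) (hc : ∀ i, c i ∈ I (T.H i))
    (k : ι) (y : E3) (hy : y ∈ D.V) (hk : y ∈ P (T.H k)) (z : E3) (hz : z ∈ P (T.H k) \ I (T.H k)) :
    |D.t y| ≤ r⁻¹ * ‖y - z‖ := by
  have hb1 : |D.t y| < 1 := by have : 0 < 1 - |D.t y| := hy.1; linarith
  rcases lt_trichotomy (D.t y) 0 with ht | ht | ht
  · have h1 := h.tile_neg hc hy ht
    have h2 : k = j := by
      by_contra hne
      exact Set.disjoint_left.1 (disjoint_P_I (T.ne k) (T.dis k j hne)) hk h1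
    subst h2
    rw [abs_of_neg ht] at hb1 ⊢
    obtain ⟨h3, h4⟩ := h.repr_neg (D.V_sub hy) ht (by linarith)
    rw [h.F] at h3
    rw [h.a'] at h4
    have := dist_bdry (hB _ h.symm_mem.2) (by linarith : 0 < -D.t y) hb1.le
      (T.cc_sub_tile h.symm_mem.2 h3) h4 hz.2
    rw [inv_mul_eq_div, le_div_iff₀ hr]; exact this
  · rw [ht, abs_zero]
    positivity
  · have h1 := h.tile_pos hc hy ht
    have h2 : k = i := by
      by_contra hne
      exact Set.disjoint_left.1 (disjoint_P_I (T.ne k) (T.dis k i hne)) hk h1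
    subst h2
    rw [abs_of_pos ht] at hb1 ⊢
    obtain ⟨h3, h4⟩ := h.repr_pos (D.V_sub hy) ht hb1
    rw [h.F] at h3
    rw [h.a] at h4
    have := dist_bdry (hB _ h.symm_mem.1) ht hb1.le
      (T.cc_sub_tile h.symm_mem.1 h3) h4 hz.2
    rw [inv_mul_eq_div, le_div_iff₀ hr]; exact this

/-- the double pyramid with a given chart of the face -/
theorem exists_dp_of (T : Tiling Om ι) (c : ι → E3) (hc : ∀ i, c i ∈ I (T.H i)) {x : E3}
    (hx : x ∈ Om) (hd : T.dim x = 2) (e : PLEquiv (cube 2) (T.cc x))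
    (he : e.f '' (Ce_537.sph 2) = T.cc x \ T.oc x) {Lf Lg : ℝ≥0}
    (hf : LipschitzOnWith Lf e.f (cube 2)) (hg : LipschitzOnWith Lg e.g (T.cc x)) :
    ∃ i j D, IsDp T c x i j D ∧ LipschitzOnWith Lf D.e.f (cube 2) ∧
      LipschitzOnWith Lg D.e.g D.F := by
  obtain ⟨i, j, D, h⟩ := exists_dp T c hc hx hd
  obtain ⟨b, a, a', l, ha, ha', F, oF, cF, vF, sF, pl, bF, e0, sph0, O, hO, mO⟩ := D
  obtain ⟨ne, at_, ea, ea', eF, eoF⟩ := h
  dsimp only at ea ea' eF eoF
  subst ea ea' eF eoF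
  exact ⟨i, j, ⟨b, c i, c j, l, ha, ha', T.cc x, T.oc x, cF, vF, sF, pl, bF, e, he, O, hO, mO⟩,
    ⟨ne, at_, rfl, rfl, rfl, rfl⟩, hf, hg⟩

/-- the constant of the face chart -/
noncomputable def MF (ρ r d Lf Lg : ℝ≥0) : ℝ≥0 :=
  max 1 (max ((Lg + 2 * Lg * (d / r) + 1 / r) * ρ) (max ((2 * d + 2 * Lf) / ρ) (ρ / r)))

/-- **charts of the 2-cells, explicit constant** -/
theorem exists_face_of (hc : ∀ i, c i ∈ I (T.H i)) {x : E3} (hx : x ∈ Om) (hd : T.dim x = 2)
    (e : PLEquiv (cube 2) (T.cc x)) (he : e.f '' (Ce_537.sph 2) = T.cc x \ T.oc x)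
    {ρ r d Lf Lg : ℝ≥0} (hρ : 0 < ρ) (hr : 0 < r)
    (hf : LipschitzOnWith Lf e.f (cube 2)) (hg : LipschitzOnWith Lg e.g (T.cc x))
    (hB : ∀ k ∈ T.at_ x, closedBall (c k) r ⊆ I (T.H k))
    (hd1 : ∀ k ∈ T.at_ x, ∀ y ∈ T.cc x, ‖c k - y‖ ≤ d)
    (hd2 : ∀ y ∈ T.cc x, ∀ z ∈ T.cc x, ‖y - z‖ ≤ d) :
    ∃ F : Face, FaceOf T c x F ∧ F.ρ = ρ ∧ F.M = MF ρ r d Lf Lg := by
  obtain ⟨i, j, D, h, hf', hg'⟩ := exists_dp_of T c hc hx hd e he hf hg
  have hr' : (0:ℝ) < r := by exact_mod_cast hr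
  have hbF : D.b ∈ T.cc x := by rw [← h.F]; exact D.sF D.bF
  have hL := D.cht_explicit hr (h.ball_pos hx hr'.le (hB _ h.symm_mem.1))
    (h.ball_neg hx hr'.le (hB _ h.symm_mem.2))
    (by rw [h.a]; exact hd1 _ h.symm_mem.1 _ hbF) (by rw [h.a']; exact hd1 _ h.symm_mem.2 _ hbF)
    (fun y hy => hd2 _ (by rw [← h.F]; exact hy) _ hbF) hf' hg'
  have hA := h.slab_explicit hx hr' hB hc
  set L := Lg + 2 * Lg * (d / r) + 1 / r with hL1
  set L' := 2 * d + 2 * Lf with hL2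
  set M : ℝ≥0 := MF ρ r d Lf Lg with hM
  have h1 : L ≤ M / ρ := by
    rw [le_div_iff₀ hρ]
    exact (le_max_left _ _).trans (le_max_right _ _)
  have h2 : L' ≤ M * ρ := by
    rw [← div_le_iff₀ hρ]
    exact (le_max_left _ _).trans ((le_max_right _ _).trans (le_max_right _ _))
  have h3 : ρ / r ≤ M := (le_max_right _ _).trans ((le_max_right _ _).trans (le_max_right _ _))
  refine ⟨⟨D.K, D.V, M, ρ, le_max_left _ _, hρ, D.ch, D.ch',
    { hL with lip := hL.lip.weaken h1, lip' := hL.lip'.weaken h2 }⟩,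
    ⟨i, j, D, h, rfl, rfl, fun y _ => rfl, fun k y hy hk z hz => ?_⟩, rfl, rfl⟩
  have h5 := hA k y hy hk z hz
  have hρ' : (0:ℝ) ≤ ρ := ρ.coe_nonneg
  have h3' : (ρ:ℝ) / r ≤ M := by exact_mod_cast h3
  calc (ρ : ℝ) * |D.t y| ≤ ρ * ((r:ℝ)⁻¹ * ‖y - z‖) := mul_le_mul_of_nonneg_left h5 hρ'
    _ = (ρ / r) * ‖y - z‖ := by ring
    _ ≤ M * ‖y - z‖ := mul_le_mul_of_nonneg_right h3' (norm_nonneg _)

end tiling

end Crest.Agent.R096.Sq_55
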