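import Crest.Agent.R096.Sq21_55

/-!
# R096 (row 96), SOBSQ, part 22 (helper55): shapes: constants which depend only on the shape
-/

set_option autoImplicit false
set_option linter.unusedSectionVars false

open Set Metric Filter Topology

namespace Crest.Agent.R096.Sq_55

open Crest.Agent.R096.Ce_537 Crest.Agent.R096.Bd_416 Crest.Agent.R96.Hole_348
open Crest.Agent.R096.Msh_715 (P I Tiling I_sub_P isOpen_I isClosed_P convex_P mem_I_of_move
  disjoint_P_I isBall_P_top mem_I_small)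
open scoped NNReal

/-- `B` is a similarity of ratio `1 / R` up to the factor `Λ` -/
structure Frm (Λ R : ℝ≥0) (B : E3 ≃ᵃ[ℝ] E3) : Prop where
  lip : LipschitzWith (Λ / R) B
  lip' : LipschitzWith (Λ * R) B.symm

lemma continuous_aff (B : E3 ≃ᵃ[ℝ] E3) : Continuous B :=
  B.toAffineMap.continuous_of_finiteDimensional

/-- an affine equivalence as a homeomorphism -/
noncomputable def hmB (B : E3 ≃ᵃ[ℝ] E3) : E3 ≃ₜ E3 where
  toEquiv := B.toEquiv
  continuous_toFun := continuous_aff B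
  continuous_invFun := continuous_aff B.symm

lemma image_interior_aff (B : E3 ≃ᵃ[ℝ] E3) (S : Set E3) : B '' interior S = interior (B '' S) :=
  (hmB B).image_interior S

lemma symm_image_image (B : E3 ≃ᵃ[ℝ] E3) (S : Set E3) : B.symm '' (B '' S) = S := by
  rw [← image_comp]
  convert image_id S
  ext y
  simp

lemma affB_mul (B : E3 ≃ᵃ[ℝ] E3) (y x : E3) (s : ℝ) :
    B (y + s • (y - x)) = B y + s • (B y - B x) := by
  have h3 := B.toAffineMap.map_vadd y (s • (y - x))
  have h4 := B.toAffineMap.linearMap_vsub y x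
  simp only [AffineEquiv.coe_toAffineMap, AffineEquiv.linear_toAffineMap, vadd_eq_add,
    vsub_eq_sub, LinearEquiv.coe_coe, map_smul] at h3 h4
  rw [add_comm y, h3, h4, add_comm]

/-! ### the open cell is a function of the closed cell -/

/-- relative interior -/
def rint (S : Set E3) : Set E3 := {y | y ∈ S ∧ ∀ x ∈ S, ∃ s : ℝ, 0 < s ∧ y + s • (y - x) ∈ S}

lemma rint_sub (S : Set E3) : rint S ⊆ S := fun _ h => h.1

lemma image_rint (B : E3 ≃ᵃ[ℝ] E3) (S : Set E3) : B '' rint S = rint (B '' S) := by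
  have key : ∀ (B : E3 ≃ᵃ[ℝ] E3) (S : Set E3), B '' rint S ⊆ rint (B '' S) := by
    rintro B S _ ⟨y, ⟨hy, h⟩, rfl⟩
    refine ⟨mem_image_of_mem _ hy, ?_⟩
    rintro _ ⟨x, hx, rfl⟩
    obtain ⟨s, hs, h1⟩ := h x hx
    exact ⟨s, hs, by rw [← affB_mul]; exact mem_image_of_mem _ h1⟩
  refine (key B S).antisymm ?_
  have h1 := key B.symm (B '' S)
  rw [symm_image_image] at h1
  intro z hz
  have h2 := h1 (mem_image_of_mem _ hz)
  exact ⟨B.symm z, h2, by simp⟩

section tiling

variable {Om : Set E3} {ι : Type*} {T : Tiling Om ι}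

lemma oc_eq_rint {x : E3} (hx : x ∈ Om) : T.oc x = rint (T.cc x) := by
  ext y
  constructor
  · intro hy
    have hyc := T.oc_sub_cc x hy
    refine ⟨hyc, fun z hz => ?_⟩
    have hyO := T.cc_sub_Om hx hyc
    obtain ⟨r, hr, h⟩ := T.exists_ball_oc hyO
    have hV : y - z ∈ T.V y := by
      rw [T.V_eq_of_mem_oc hx hy]; exact T.sub_mem_V' hyc hz
    set s : ℝ := r / (2 * (‖y - z‖ + 1)) with hs
    have hn := norm_nonneg (y - z)
    have hs0 : 0 < s := by positivity
    refine ⟨s, hs0, ?_⟩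
    have h1 := h (s • (y - z)) (Submodule.smul_mem _ _ hV) (by
      rw [norm_smul, Real.norm_eq_abs, abs_of_pos hs0, hs, div_mul_eq_mul_div,
        div_lt_iff₀ (by positivity)]
      nlinarith)
    rw [T.oc_eq_of_mem hx hy] at h1
    exact T.oc_sub_cc x h1
  · rintro ⟨hy, h⟩
    obtain ⟨s, hs, h1⟩ := h x (T.self_mem_cc x)
    have h2 := T.move_mem_oc h1 (s := s / (1 + s)) (by positivity)
      (by rw [div_le_one (by positivity)]; linarith)
    have h3 : (1 + s) ≠ 0 := by positivity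
    have e : y + s • (y - x) + (s / (1 + s)) • (x - (y + s • (y - x))) = y := by
      have e1 : x - (y + s • (y - x)) = -(1 + s) • (y - x) := by module
      rw [e1, smul_smul]
      have e2 : s / (1 + s) * -(1 + s) = -s := by field_simp
      rw [e2]
      module
    rwa [e] at h2

end tiling

lemma interior_P_eq {H : Finset ((E3 →L[ℝ] ℝ) × ℝ)} (hI : (I H).Nonempty) :
    interior (P H) = I H := by
  apply Subset.antisymm
  · intro x hx
    obtain ⟨z, hz⟩ := hI
    have h1 : Tendsto (fun s : ℝ => x - s • (z - x)) (𝓝 0) (𝓝 (x - (0:ℝ) • (z - x))) := by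
      apply Continuous.tendsto
      fun_prop
    rw [zero_smul, sub_zero] at h1
    have h2 : ∀ᶠ s in 𝓝[>] (0:ℝ), x - s • (z - x) ∈ P H :=
      (h1.eventually (mem_interior_iff_mem_nhds.1 hx)).filter_mono nhdsWithin_le_nhds
    obtain ⟨s, h3, hs⟩ := (h2.and self_mem_nhdsWithin).exists
    have hs : (0:ℝ) < s := hs
    have h4 := mem_I_of_move h3 hz (show 0 < s / (1 + s) by positivity)
      (by rw [div_le_one (by positivity)]; linarith)
    have e : x - s • (z - x) + (s / (1 + s)) • (z - (x - s • (z - x))) = x := by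
      have h3 : (1 + s) ≠ 0 := by positivity
      have e1 : z - (x - s • (z - x)) = (1 + s) • (z - x) := by module
      rw [e1, smul_smul]
      have e2 : s / (1 + s) * (1 + s) = s := by field_simp
      rw [e2]
      module
    rwa [e] at h4
  · exact interior_maximal (I_sub_P H) (isOpen_I H)

/-! ### charts of 2-cells -/

/-- `S` has a chart on the square with the constants `Lf`, `Lg` -/
def FC (S : Set E3) (Lf Lg : ℝ≥0) : Prop := ∃ e : PLEquiv (cube 2) S,
  e.f '' (Ce_537.sph 2) = S \ rint S ∧ LipschitzOnWith Lf e.f (cube 2) ∧ LipschitzOnWith Lg e.g S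

lemma FC.mono {S : Set E3} {Lf Lg Lf' Lg' : ℝ≥0} (h : FC S Lf Lg) (h1 : Lf ≤ Lf')
    (h2 : Lg ≤ Lg') : FC S Lf' Lg' := by
  obtain ⟨e, he, hf, hg⟩ := h
  exact ⟨e, he, hf.weaken h1, hg.weaken h2⟩

lemma FC.map {S : Set E3} {Lf Lg a a' : ℝ≥0} (h : FC S Lf Lg) (B : E3 ≃ᵃ[ℝ] E3)
    (ha : LipschitzWith a B) (ha' : LipschitzWith a' B.symm) : FC (B '' S) (a * Lf) (Lg * a') := by
  obtain ⟨e, he, hf, hg⟩ := h
  have hB : ∀ z ∈ B '' S, B.symm z ∈ S := by
    rintro _ ⟨y, hy, rfl⟩; simpa using hy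
  refine ⟨⟨fun v => B (e.f v), fun y => e.g (B.symm y), ?_, ?_, ?_, ?_, ?_, ?_⟩, ?_, ?_, ?_⟩
  · exact pl_affine e.pf B.toAffineMap (continuous_aff B)
  · exact e.pg.comp (f := fun y => B.symm y) (plOn_affine B.symm.toAffineMap _) hB
  · exact fun v hv => mem_image_of_mem _ (e.mf hv)
  · exact fun y hy => e.mg (hB y hy)
  · intro v hv
    show e.g (B.symm (B (e.f v))) = v
    rw [AffineEquiv.symm_apply_apply, e.li v hv]
  · intro y hy
    show B (e.f (e.g (B.symm y))) = y
    rw [e.ri _ (hB y hy), AffineEquiv.apply_symm_apply]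
  · show (fun v => B (e.f v)) '' _ = _
    rw [← image_rint, ← image_sdiff B.injective, ← he, ← image_comp]
    rfl
  · exact ha.comp_lipschitzOnWith hf
  · exact hg.comp (ha'.lipschitzOnWith) hB

section tiling

variable {Om : Set E3} {ι : Type*} {T : Tiling Om ι}

/-- every 2-cell has a chart -/
lemma exists_FC {x : E3} (hx : x ∈ Om) (hd : T.dim x = 2) : ∃ Lf Lg, FC (T.cc x) Lf Lg := by
  have hball := T.isBall_cell hx
  rw [hd] at hball
  obtain ⟨e, he⟩ := hball
  obtain ⟨Lf, hf⟩ := exists_lip (convex_closedBall (0 : Fin 2 → ℝ) 1) e.pf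
  obtain ⟨Lg, hg⟩ := exists_lip (T.convex_cc x) e.pg
  exact ⟨Lf, Lg, e, by rw [he, oc_eq_rint hx], hf, hg⟩

end tiling

open Classical in
/-- the constant of the chart of a 2-cell of shape `S` -/
noncomputable def mF (S : Set E3) : ℝ≥0 := if h : ∃ m, FC S m m then h.choose else 0

lemma FC_mF {S : Set E3} (h : ∃ Lf Lg, FC S Lf Lg) : FC S (mF S) (mF S) := by
  obtain ⟨Lf, Lg, h⟩ := h
  have h1 : ∃ m, FC S m m := ⟨max Lf Lg, h.mono (le_max_left _ _) (le_max_right _ _)⟩
  rw [mF, dif_pos h1]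
  exact h1.choose_spec

section tiling

variable {Om : Set E3} {ι : Type*} {T : Tiling Om ι}

/-- **the chart of a 2-cell, constants from the shape** -/
lemma FC_of_shape {x : E3} (hx : x ∈ Om) (hd : T.dim x = 2) {Λ R : ℝ≥0} {B : E3 ≃ᵃ[ℝ] E3}
    (hB : Frm Λ R B) : FC (T.cc x) (Λ * R * mF (B '' T.cc x)) (mF (B '' T.cc x) * (Λ / R)) := by
  obtain ⟨Lf, Lg, h⟩ := exists_FC hx hd
  have h1 : FC (B '' T.cc x) _ _ := FC_mF ⟨_, _, h.map B hB.lip hB.lip'⟩
  have h2 := h1.map B.symm hB.lip' (a' := Λ / R) hB.lip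
  rwa [symm_image_image] at h2

end tiling

/-! ### charts of tiles -/

/-- `S` has a chart on the cube with the constant `m` -/
def CC3 (S : Set E3) (L L' : ℝ≥0) : Prop := ∃ e e' : E3 → E3,
  Cht S (interior S) (closedBall 0 1) (ball 0 1) e e' L L'

lemma CC3.mono {S : Set E3} {L L' l l' : ℝ≥0} (h : CC3 S L L') (h1 : L ≤ l) (h2 : L' ≤ l') :
    CC3 S l l' := by
  obtain ⟨e, e', h⟩ := h
  exact ⟨e, e', { h with lip := h.lip.weaken h1, lip' := h.lip'.weaken h2 }⟩

lemma CC3.map {S : Set E3} {L L' a a' : ℝ≥0} (h : CC3 S L L') (B : E3 ≃ᵃ[ℝ] E3)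
    (ha : LipschitzWith a B) (ha' : LipschitzWith a' B.symm) : CC3 (B '' S) (L * a') (a * L') := by
  obtain ⟨e, e', h⟩ := h
  have hB : ∀ z ∈ B '' S, B.symm z ∈ S := by
    rintro _ ⟨y, hy, rfl⟩; simpa using hy
  refine ⟨fun y => e (B.symm y), fun z => B (e' z), ?_⟩
  rw [← image_interior_aff]
  exact {
    clK := (hmB B).isClosedMap _ h.clK
    opU := (hmB B).isOpenMap _ h.opU
    sub := image_mono h.sub
    clK' := h.clK'
    opU' := h.opU'
    sub' := h.sub'
    maps := fun y hy => h.maps (hB y hy)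
    maps' := fun z hz => mem_image_of_mem _ (h.maps' hz)
    inv := fun y hy => by
      show B (e' (e (B.symm y))) = y
      rw [h.inv _ (hB y hy), AffineEquiv.apply_symm_apply]
    inv' := fun z hz => by
      show e (B.symm (B (e' z))) = z
      rw [AffineEquiv.symm_apply_apply, h.inv' z hz]
    mem := fun y hy => by
      rw [h.mem _ (hB y hy)]
      constructor
      · intro h1; exact ⟨B.symm y, h1, by simp⟩
      · rintro ⟨z, hz, rfl⟩; simpa using hz
    pl := h.pl.comp (f := fun y => B.symm y) (plOn_affine B.symm.toAffineMap _) hB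
    pl' := pl_affine h.pl' B.toAffineMap (continuous_aff B)
    lip := h.lip.comp (ha'.lipschitzOnWith) hB
    lip' := ha.comp_lipschitzOnWith h.lip' }

open Classical in
/-- the constant of the chart of a tile of shape `S` -/
noncomputable def mC (S : Set E3) : ℝ≥0 := if h : ∃ m, CC3 S m m then h.choose else 0

lemma CC3_mC {S : Set E3} (h : ∃ L L', CC3 S L L') : CC3 S (mC S) (mC S) := by
  obtain ⟨Lf, Lg, h⟩ := h
  have h1 : ∃ m, CC3 S m m := ⟨max Lf Lg, h.mono (le_max_left _ _) (le_max_right _ _)⟩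
  rw [mC, dif_pos h1]
  exact h1.choose_spec

/-- **cells, constants from the shape** -/
theorem exists_cell_of_shape {H : Finset ((E3 →L[ℝ] ℝ) × ℝ)} (hc : IsCompact (P H))
    (hI : (I H).Nonempty) {Λ R : ℝ≥0} (hR : 0 < R) {B : E3 ≃ᵃ[ℝ] E3} (hB : Frm Λ R B) :
    ∃ C : Cell, C.P = P H ∧ C.U = I H ∧ C.R = R ∧ C.M = max 1 (Λ * mC (B '' P H)) := by
  obtain ⟨e0, e0', L, L', h⟩ := exists_cell_cht hc hI
  have h0 : CC3 (P H) L L' := ⟨e0, e0', by rw [interior_P_eq hI]; exact h⟩
  have h1 : CC3 (B '' P H) _ _ := CC3_mC ⟨_, _, h0.map B hB.lip hB.lip'⟩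
  have h2 := h1.map B.symm hB.lip' (a' := Λ / R) hB.lip
  rw [symm_image_image] at h2
  set μ := mC (B '' P H) with hμ
  have h3 : CC3 (P H) (max 1 (Λ * μ) / R) (max 1 (Λ * μ) * R) := by
    refine h2.mono ?_ ?_
    · rw [le_div_iff₀ hR, mul_assoc, div_mul_cancel₀ _ hR.ne', mul_comm]
      exact le_max_right _ _
    · rw [mul_right_comm]
      exact mul_le_mul_left (le_max_right _ _) _
  obtain ⟨e, e', h4⟩ := h3
  rw [interior_P_eq hI] at h4
  exact ⟨⟨P H, I H, max 1 (Λ * μ), R, le_max_left _ _, hR, e, e', h4⟩, rfl, rfl, rfl, rfl⟩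

/-! ### centres -/

/-- inner and outer balls -/
structure TG (S : Set E3) (a : E3) (D E : ℝ≥0) : Prop where
  pos : 0 < E
  inn : closedBall a (E : ℝ)⁻¹ ⊆ interior S
  out : S ⊆ closedBall a D

lemma exists_TG {S : Set E3} (hS : IsCompact S) (hI : (interior S).Nonempty) :
    ∃ a D E, TG S a D E := by
  obtain ⟨a, ha⟩ := hI
  obtain ⟨r, hr, h⟩ := nhds_basis_closedBall.mem_iff.1 (isOpen_interior.mem_nhds ha)
  obtain ⟨D, hD⟩ := hS.isBounded.subset_closedBall a
  refine ⟨a, D.toNNReal, (r.toNNReal)⁻¹, ?_, ?_, hD.trans (closedBall_subset_closedBall ?_)⟩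
  · exact inv_pos.2 (Real.toNNReal_pos.2 hr)
  · rw [NNReal.coe_inv, inv_inv, Real.coe_toNNReal _ hr.le]
    exact h
  · exact Real.le_coe_toNNReal D

open Classical in
/-- the centre of a shape -/
noncomputable def cen (S : Set E3) : E3 := if h : ∃ a D E, TG S a D E then h.choose else 0

open Classical in
/-- outer radius -/
noncomputable def mD (S : Set E3) : ℝ≥0 :=
  if h : ∃ D E, TG S (cen S) D E then h.choose else 0

open Classical in
/-- 1 / inner radius -/
noncomputable def mE (S : Set E3) : ℝ≥0 := if h : ∃ E, TG S (cen S) (mD S) E then h.choose else 0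

lemma TG_spec {S : Set E3} (h : ∃ a D E, TG S a D E) : TG S (cen S) (mD S) (mE S) := by
  have h1 : ∃ D E, TG S (cen S) D E := by
    rw [cen, dif_pos h]; exact h.choose_spec
  have h2 : ∃ E, TG S (cen S) (mD S) E := by
    have := h1.choose_spec
    rw [mD, dif_pos h1]; exact this
  rw [mE, dif_pos h2]
  exact h2.choose_spec

/-- the number of a shape -/
noncomputable def muK (S : Set E3) : ℝ≥0 := max (max (mF S) (mC S)) (max (mD S) (mE S))

end Crest.Agent.R096.Sq_55
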