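import Crest.Agent.R096.Sq22_55

/-!
# R096 (row 96), SOBSQ, part 23 (helper55): the system of a tiling with constants from the shapes
-/

set_option autoImplicit false
set_option linter.unusedSectionVars false

open Set Metric Filter Topology

namespace Crest.Agent.R096.Sq_55

open Crest.Agent.R096.Ce_537 Crest.Agent.R096.Bd_416 Crest.Agent.R96.Hole_348
open Crest.Agent.R096.Msh_715 (P I Tiling I_sub_P isOpen_I isClosed_P convex_P mem_I_of_move
  disjoint_P_I isBall_P_top mem_I_small)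
open scoped NNReal

/-- the bound -/
noncomputable def GG (v : ℝ≥0) : ℝ≥0 := 1 + v^2 + 6 * v^3 + 4 * v^9

lemma GG_mono {v w : ℝ≥0} (h : v ≤ w) : GG v ≤ GG w := by
  unfold GG
  gcongr

lemma one_le_GG (v : ℝ≥0) : 1 ≤ GG v := by
  unfold GG
  rw [add_assoc, add_assoc]
  exact le_self_add

section tiling

variable {Om : Set E3} {ι : Type*} {T : Tiling Om ι}

/-- the tile `i` has size `R` and, in the frame `B`, its cells have shapes with numbers `≤ v` -/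
structure Shp (T : Tiling Om ι) (i : ι) (B : E3 ≃ᵃ[ℝ] E3) (R v : ℝ≥0) : Prop where
  pos : 0 < R
  frm : Frm v R B
  sh : ∀ x ∈ P (T.H i), muK (B '' T.cc x) ≤ v

/-- the centre of a tile -/
noncomputable def ctT (T : Tiling Om ι) (i : ι) (B : E3 ≃ᵃ[ℝ] E3) : E3 :=
  B.symm (cen (B '' P (T.H i)))

namespace Shp

variable {i : ι} {B : E3 ≃ᵃ[ℝ] E3} {R v : ℝ≥0}

lemma tile (h : Shp T i B R v) : muK (B '' P (T.H i)) ≤ v := by
  obtain ⟨x, hx⟩ := T.ne i
  rw [← T.cc_eq_tile hx]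
  exact h.sh x (I_sub_P _ hx)

lemma tg (_h : Shp T i B R v) :
    TG (B '' P (T.H i)) (cen (B '' P (T.H i))) (mD (B '' P (T.H i))) (mE (B '' P (T.H i))) := by
  refine TG_spec (exists_TG ((T.cpt i).image (continuous_aff B)) ?_)
  rw [← image_interior_aff, interior_P_eq (T.ne i)]
  exact (T.ne i).image _

lemma mD_le (h : Shp T i B R v) : mD (B '' P (T.H i)) ≤ v :=
  (le_max_left _ _).trans ((le_max_right _ _).trans h.tile)

lemma mE_le (h : Shp T i B R v) : mE (B '' P (T.H i)) ≤ v :=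
  (le_max_right _ _).trans ((le_max_right _ _).trans h.tile)

lemma mC_le (h : Shp T i B R v) : mC (B '' P (T.H i)) ≤ v :=
  (le_max_right _ _).trans ((le_max_left _ _).trans h.tile)

lemma mF_le (h : Shp T i B R v) {x : E3} (hx : x ∈ P (T.H i)) : mF (B '' T.cc x) ≤ v :=
  (le_max_left _ _).trans ((le_max_left _ _).trans (h.sh x hx))

lemma v_pos (h : Shp T i B R v) : 0 < v := h.tg.pos.trans_le h.mE_le

lemma mono {w : ℝ≥0} (h : Shp T i B R v) (hvw : v ≤ w) : Shp T i B R w where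
  pos := h.pos
  frm := ⟨h.frm.lip.weaken (by gcongr), h.frm.lip'.weaken (by gcongr)⟩
  sh := fun x hx => (h.sh x hx).trans hvw

/-- the ball around the centre -/
lemma ball_sub (h : Shp T i B R v) {r : ℝ≥0} (hr : r * (v * v) ≤ R) :
    closedBall (ctT T i B) r ⊆ I (T.H i) := by
  intro y hy
  have hv := h.v_pos
  have h1 : ‖B y - cen (B '' P (T.H i))‖ ≤ (v / R : ℝ≥0) * ‖y - ctT T i B‖ := by
    have := h.frm.lip.dist_le_mul y (ctT T i B)
    rw [dist_eq_norm, dist_eq_norm, ctT, AffineEquiv.apply_symm_apply] at this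
    exact this
  rw [mem_closedBall, dist_eq_norm] at hy
  have h2 : ‖B y - cen (B '' P (T.H i))‖ ≤ ((mE (B '' P (T.H i)) : ℝ≥0) : ℝ)⁻¹ := by
    have h3 : (v / R : ℝ≥0) * r ≤ (mE (B '' P (T.H i)))⁻¹ := by
      rw [← one_div, le_div_iff₀ h.tg.pos]
      calc v / R * r * mE (B '' P (T.H i)) ≤ v / R * r * v := by
            gcongr; exact h.mE_le
        _ = (r * (v * v)) / R := by ring
        _ ≤ 1 := (div_le_one h.pos).2 hr
    calc _ ≤ (v / R : ℝ≥0) * ‖y - ctT T i B‖ := h1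
      _ ≤ (v / R : ℝ≥0) * (r : ℝ) := mul_le_mul_of_nonneg_left hy (NNReal.coe_nonneg _)
      _ ≤ _ := by exact_mod_cast h3
  have h3 : B y ∈ interior (B '' P (T.H i)) :=
    h.tg.inn (by rw [mem_closedBall, dist_eq_norm]; exact h2)
  rw [← image_interior_aff, interior_P_eq (T.ne i)] at h3
  obtain ⟨z, hz, e⟩ := h3
  rwa [B.injective e] at hz

lemma ctT_mem (h : Shp T i B R v) : ctT T i B ∈ I (T.H i) :=
  h.ball_sub (r := 0) (by rw [zero_mul]; exact h.pos.le) (mem_closedBall_self le_rfl)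

lemma norm_le (h : Shp T i B R v) {y : E3} (hy : y ∈ P (T.H i)) :
    ‖ctT T i B - y‖ ≤ (v * v * R : ℝ≥0) := by
  have h1 := h.tg.out (mem_image_of_mem B hy)
  rw [mem_closedBall, dist_comm] at h1
  have h2 := h.frm.lip'.dist_le_mul (cen (B '' P (T.H i))) (B y)
  rw [AffineEquiv.symm_apply_apply] at h2
  have h3 : ((mD (B '' P (T.H i)) : ℝ≥0) : ℝ) ≤ v := by exact_mod_cast h.mD_le
  calc ‖ctT T i B - y‖ = dist (B.symm (cen (B '' P (T.H i)))) y := by rw [dist_eq_norm]; rfl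
    _ ≤ (v * R : ℝ≥0) * dist (cen (B '' P (T.H i))) (B y) := h2
    _ ≤ (v * R : ℝ≥0) * v := mul_le_mul_of_nonneg_left (h1.trans h3) (NNReal.coe_nonneg _)
    _ = (v * v * R : ℝ≥0) := by push_cast; ring

end Shp

/-- every tile is a shape -/
lemma exists_shp (T : Tiling Om ι) (i : ι) : ∃ v, Shp T i (AffineEquiv.refl ℝ E3) 1 v := by
  obtain ⟨x0, hx0⟩ := T.ne i
  have hx0O : x0 ∈ Om := T.sub i (I_sub_P _ hx0)
  have hfin := T.finite_below hx0O
  rw [T.cc_eq_tile hx0] at hfin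
  have hfin2 := hfin.image fun K => muK (AffineEquiv.refl ℝ E3 '' K)
  obtain ⟨b, hb⟩ := hfin2.bddAbove
  refine ⟨max 1 b, one_pos, ⟨?_, ?_⟩, fun x hx => ?_⟩
  · rw [div_one]
    exact LipschitzWith.id.weaken (le_max_left _ _)
  · rw [mul_one]
    exact LipschitzWith.id.weaken (le_max_left _ _)
  · refine le_trans (hb ?_) (le_max_right _ _)
    exact ⟨T.cc x, ⟨⟨x, T.sub i hx, rfl⟩, T.cc_sub_tile hx⟩, rfl⟩

/-- **charts of the 2-cells, constants from the shapes** -/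
theorem exists_face_of_shape {c : ι → E3} (hc : ∀ i, c i ∈ I (T.H i)) {x : E3} (hx : x ∈ Om)
    (hd : T.dim x = 2) {B : ι → E3 ≃ᵃ[ℝ] E3} {R : ι → ℝ≥0} {ρ v : ℝ≥0}
    (hS : ∀ k ∈ T.at_ x, Shp T k (B k) (R k) v) (hcB : ∀ k ∈ T.at_ x, c k = ctT T k (B k))
    (hR : ∀ k ∈ T.at_ x, R k ≤ v * ρ ∧ ρ ≤ v * R k) :
    ∃ F : Face, FaceOf T c x F ∧ F.ρ = ρ ∧ F.M ≤ GG v := by
  obtain ⟨i, hi⟩ := T.at_nonempty hx
  have hv := (hS i hi).v_pos
  have hρ : 0 < ρ := by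
    rcases eq_or_ne ρ 0 with h | h
    · have := (hR i hi).1
      rw [h, mul_zero] at this
      exact absurd (hS i hi).pos (not_lt.2 this)
    · exact pos_iff_ne_zero.2 h
  obtain ⟨e, he, hf, hg⟩ := FC_of_shape hx hd (hS i hi).frm
  rw [← oc_eq_rint hx] at he
  set w : ℝ≥0 := v^3 with hw
  have hw0 : 0 < w := by positivity
  have k1 : v * R i * mF (B i '' T.cc x) ≤ ρ * w := by
    calc v * R i * mF (B i '' T.cc x) ≤ v * (v * ρ) * v := by
          gcongr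
          · exact (hR i hi).1
          · exact (hS i hi).mF_le hi
      _ = ρ * w := by rw [hw]; ring
  have k2 : mF (B i '' T.cc x) * (v / R i) ≤ w / ρ := by
    have h1 : v / R i ≤ v * v / ρ := by
      rw [div_le_div_iff₀ (hS i hi).pos hρ]
      calc v * ρ ≤ v * (v * R i) := by gcongr; exact (hR i hi).2
        _ = v * v * R i := by ring
    calc mF (B i '' T.cc x) * (v / R i) ≤ v * (v * v / ρ) := by
          gcongr
          exact (hS i hi).mF_le hi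
      _ = w / ρ := by rw [hw]; ring
  have g1 : ∀ k ∈ T.at_ x, closedBall (c k) (ρ / w : ℝ≥0) ⊆ I (T.H k) := by
    intro k hk
    rw [hcB k hk]
    refine (hS k hk).ball_sub ?_
    calc ρ / w * (v * v) ≤ (v * R k) / w * (v * v) := by gcongr; exact (hR k hk).2
      _ = R k := by rw [hw]; field_simp
  have g2 : ∀ k ∈ T.at_ x, ∀ y ∈ T.cc x, ‖c k - y‖ ≤ (2 * (ρ * w) : ℝ≥0) := by
    intro k hk y hy
    rw [hcB k hk]
    refine ((hS k hk).norm_le (T.cc_sub_tile hk hy)).trans ?_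
    have : v * v * R k ≤ 2 * (ρ * w) := by
      calc v * v * R k ≤ v * v * (v * ρ) := by gcongr; exact (hR k hk).1
        _ = ρ * w := by rw [hw]; ring
        _ ≤ 2 * (ρ * w) := by rw [two_mul]; exact le_self_add
    exact_mod_cast this
  have g3 : ∀ y ∈ T.cc x, ∀ z ∈ T.cc x, ‖y - z‖ ≤ (2 * (ρ * w) : ℝ≥0) := by
    intro y hy z hz
    have a1 := (hS i hi).norm_le (T.cc_sub_tile hi hy)
    have a2 := (hS i hi).norm_le (T.cc_sub_tile hi hz)
    have a3 : ‖y - z‖ ≤ ‖ctT T i (B i) - y‖ + ‖ctT T i (B i) - z‖ := by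
      have : y - z = (ctT T i (B i) - z) - (ctT T i (B i) - y) := by abel
      rw [this]
      refine (norm_sub_le _ _).trans (le_of_eq ?_)
      ring
    have : v * v * R i + v * v * R i ≤ 2 * (ρ * w) := by
      have : v * v * R i ≤ ρ * w := by
        calc v * v * R i ≤ v * v * (v * ρ) := by gcongr; exact (hR i hi).1
          _ = ρ * w := by rw [hw]; ring
      rw [two_mul]; exact add_le_add this this
    refine a3.trans ((add_le_add a1 a2).trans ?_)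
    exact_mod_cast this
  obtain ⟨F, h1, h2, h3⟩ := exists_face_of hc hx hd e he (ρ := ρ) (r := ρ / w) (d := 2 * (ρ * w))
    hρ (by positivity) (hf.weaken k1) (hg.weaken k2) g1 g2 g3
  refine ⟨F, h1, h2, ?_⟩
  rw [h3, MF]
  have e1 : 2 * (ρ * w) / (ρ / w) = 2 * w^2 := by field_simp
  have e2 : (w / ρ + 2 * (w / ρ) * (2 * (ρ * w) / (ρ / w)) + 1 / (ρ / w)) * ρ =
      2 * w + 4 * w^3 := by
    rw [e1]; field_simp; ring
  have e3 : (2 * (2 * (ρ * w)) + 2 * (ρ * w)) / ρ = 6 * w := by field_simp; ring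
  have e4 : ρ / (ρ / w) = w := by field_simp
  rw [e2, e3, e4, GG, hw]
  have e9 : (v^3)^3 = v^9 := by ring
  rw [e9]
  refine max_le ?_ (max_le ?_ (max_le ?_ ?_)) <;> rw [← NNReal.coe_le_coe] <;> push_cast <;>
    nlinarith [pow_nonneg v.coe_nonneg 2, pow_nonneg v.coe_nonneg 3, pow_nonneg v.coe_nonneg 9]

/-- **the system of a tiling, constants from the shapes of the tiles** -/
theorem exists_sys_shape (T : Tiling Om ι) (A : Set ι) (B : ι → E3 ≃ᵃ[ℝ] E3) (R u : ι → ℝ≥0)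
    (hS : ∀ i ∈ A, Shp T i (B i) (R i) (u i)) (s : Finset ι) (hsA : ∀ k ∈ s, k ∈ A)
    (Fs : Finset E3) (hFs : ∀ x ∈ Fs, x ∈ Om ∧ T.dim x = 2) (hFA : ∀ x ∈ Fs, ∀ k ∈ T.at_ x, k ∈ A)
    (hne : ∀ x ∈ Fs, ∀ y ∈ Fs, x ≠ y → T.cc x ≠ T.cc y) (ρ : E3 → ℝ≥0)
    (hρ : ∀ x ∈ Fs, ∀ k ∈ T.at_ x, R k ≤ u k * ρ x ∧ ρ x ≤ u k * R k) (m : ι → ℝ≥0)
    (hm : ∀ k ∈ s, u k ≤ m k)
    (hm' : ∀ x ∈ Fs, ∀ k ∈ T.at_ x, k ∈ s → ∀ l ∈ T.at_ x, u l ≤ m k) (Z : Set E3)
    (hZ : ∀ k ∈ s, ∀ y ∈ P (T.H k) \ I (T.H k), y ∈ Z ∨ ∃ x ∈ Fs, y ∈ T.oc x) :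
    ∃ c : ι → E3, (∀ i, c i ∈ I (T.H i)) ∧ ∃ X : Sys s Fs,
      (∀ k : s, (X.C k).P = P (T.H k) ∧ (X.C k).U = I (T.H k) ∧ (X.C k).R = R k) ∧
      (∀ x : Fs, FaceOf T c (x : E3) (X.F x) ∧ (X.F x).ρ = ρ x) ∧ X.Z = Z ∧
      ∀ k : s, X.m k = GG (m k) := by
  classical
  have h0 : ∀ i, ∃ a ∈ I (T.H i), i ∈ A → a = ctT T i (B i) := by
    intro i
    by_cases hi : i ∈ A
    · exact ⟨_, (hS i hi).ctT_mem, fun _ => rfl⟩
    · obtain ⟨a, ha⟩ := T.ne i
      exact ⟨a, ha, fun h => absurd h hi⟩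
  choose c hc hcA using h0
  refine ⟨c, hc, ?_⟩
  have h1 : ∀ k : s, ∃ C : Cell, C.P = P (T.H k) ∧ C.U = I (T.H k) ∧ C.R = R k ∧
      C.M ≤ GG (u k) := by
    intro k
    have hk := hS k (hsA k k.2)
    obtain ⟨C, e1, e2, e3, e4⟩ := exists_cell_of_shape (T.cpt k) (T.ne k) hk.pos hk.frm
    refine ⟨C, e1, e2, e3, ?_⟩
    rw [e4]
    refine max_le (one_le_GG _) ?_
    calc u k * mC (B k '' P (T.H k)) ≤ u k * u k := by gcongr; exact hk.mC_le
      _ = (u k)^2 := by ring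
      _ ≤ GG (u k) := by
        rw [GG, add_assoc, add_assoc, ← add_assoc, add_comm 1, add_assoc]
        exact le_self_add
  choose C hC1 hC2 hC3 hC4 using h1
  have h2 : ∀ x : Fs, ∃ F : Face, FaceOf T c (x : E3) F ∧ F.ρ = ρ x ∧
      ∀ w, (∀ l ∈ T.at_ (x : E3), u l ≤ w) → F.M ≤ GG w := by
    intro x
    obtain ⟨hxO, hxd⟩ := hFs x x.2
    have h3 : Module.finrank ℝ E3 = 3 := by simp
    obtain ⟨i, j, -, hat, -⟩ := T.two_tiles hxO (by rw [hxd, h3])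
    have hi : i ∈ T.at_ (x : E3) := by rw [hat]; exact mem_insert _ _
    have hj : j ∈ T.at_ (x : E3) := by rw [hat]; exact mem_insert_of_mem _ rfl
    have hv : ∀ l ∈ T.at_ (x : E3), u l ≤ max (u i) (u j) := by
      intro l hl
      rw [hat] at hl
      rcases hl with rfl | rfl
      · exact le_max_left _ _
      · exact le_max_right _ _
    obtain ⟨F, e1, e2, e3⟩ := exists_face_of_shape (T := T) hc hxO hxd (B := B) (R := R)
      (ρ := ρ x) (v := max (u i) (u j)) (fun k hk => (hS k (hFA x x.2 k hk)).mono (hv k hk))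
      (fun k hk => hcA k (hFA x x.2 k hk)) (fun k hk => by
        obtain ⟨r1, r2⟩ := hρ x x.2 k hk
        have := hv k hk
        exact ⟨r1.trans (by gcongr), r2.trans (by gcongr)⟩)
    exact ⟨F, e1, e2, fun w hw => e3.trans (GG_mono (max_le (hw i hi) (hw j hj)))⟩
  choose F hF1 hF2 hF3 using h2
  exact ⟨mkSys hc s Fs (fun x hx => (hFs x hx).1) hne C (fun k => ⟨hC1 k, hC2 k⟩) F
    hF1 (fun k => GG (m k)) (fun k => (hC4 k).trans (GG_mono (hm k k.2)))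
    (fun k x hk => hF3 x _ (hm' x x.2 k hk k.2)) Z hZ,
    fun k => ⟨hC1 k, hC2 k, hC3 k⟩, fun x => ⟨hF1 x, hF2 x⟩, rfl, fun _ => rfl⟩

/-- finite lists of shapes -/
lemma exists_muK_le {𝓕 : Set (Set E3)} (h : 𝓕.Finite) : ∃ v₀ : ℝ≥0, ∀ v, v₀ ≤ v →
    ∀ K ∈ 𝓕, muK K ≤ v := by
  obtain ⟨b, hb⟩ := (h.image muK).bddAbove
  exact ⟨b, fun v hv K hK => (hb (mem_image_of_mem _ hK)).trans hv⟩

end tiling

end Crest.Agent.R096.Sq_55
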