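import Crest.Agent.R096.Sqt4_143
import Crest.Agent.R096.Sq16_55

/-!
Row 96 (S0127), helper143.  SQ-TUBE, part 5: **the derivative of `chi` along an edge** for 55's
systems: `chi (x + σ v) = chi x + σ v` for almost all `x` near the edge, off finitely many small
balls.
-/

set_option autoImplicit false

open Set Metric Filter Topology MeasureTheory

namespace Crest.Agent.R096.Sqt_143

open Crest.Agent.R096.Ce_537 Crest.Agent.R096.Bd_416 Crest.Agent.R96.Hole_348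
open Crest.Agent.R096.Sq_55
open scoped NNReal ENNReal

/-- the edge `a + [0,1] v` lies in the boundary of the cell -/
def OnC (C : Cell) (a v : E3) : Prop := ∀ t ∈ Icc (0:ℝ) 1, a + t • v ∈ C.P ∧ a + t • v ∉ C.U

/-- the edge lies in the rim of the face -/
def OnF (F : Face) (a v : E3) : Prop := ∀ t ∈ Icc (0:ℝ) 1,
  a + t • v ∈ F.K ∧ F.e (a + t • v) 0 = 0 ∧ wid (F.e (a + t • v)) = 1

/-- the squeezes of the cell keep the direction `v` at all points at distance `≤ u ≤ u0` from the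
edge, up to `n` intervals of length `2 β u` of parameters -/
def CellT (C : Cell) (a v : E3) (u0 β : ℝ) (n : ℕ) : Prop :=
  ∃ X : Finset ℝ, X.card ≤ n ∧ (∀ s ∈ X, s ∈ Icc (0:ℝ) 1) ∧
    ∀ τ : ℝ, 0 < τ → τ ≤ 1/2 → ∀ x ∈ C.U, ∀ t ∈ Icc (0:ℝ) 1, ∀ u ≤ u0, ‖x - (a + t • v)‖ ≤ u →
      (∀ s ∈ X, β * u < |t - s|) →
      1/2 < ‖C.e x‖ ∧ Tv (fun y => C.e' (outer τ 1 (C.e y))) x v v

/-- the same for a face -/
def FaceT (F : Face) (a v : E3) (u0 β : ℝ) (n : ℕ) : Prop :=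
  ∃ X : Finset ℝ, X.card ≤ n ∧ (∀ s ∈ X, s ∈ Icc (0:ℝ) 1) ∧
    ∀ τ : ℝ, 0 < τ → τ ≤ 1/2 → ∀ x ∈ F.V, ∀ t ∈ Icc (0:ℝ) 1, ∀ u ≤ u0, ‖x - (a + t • v)‖ ≤ u →
      (∀ s ∈ X, β * u < |t - s|) →
      (1/2) * (1 - |F.e x 0|) < wid (F.e x) ∧ Tv (fun y => F.e' (fo τ (F.e y))) x v v

theorem exists_cellT {C : Cell} {a v : E3} (h : OnC C a v) :
    ∃ u0 : ℝ, 0 < u0 ∧ ∃ β : ℝ, 0 < β ∧ ∃ n : ℕ, CellT C a v u0 β n := by
  obtain ⟨c0, h0, B, hB, X, hX, key⟩ := cell_tube C.cht (a := a) (v := v)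
    (fun t ht => (h t ht).1) (fun t ht => (h t ht).2)
  exact ⟨c0, h0, B, hB, X.card, X, le_rfl, hX, key⟩

theorem exists_faceT {F : Face} {a v : E3} (h : OnF F a v) :
    ∃ u0 : ℝ, 0 < u0 ∧ ∃ β : ℝ, 0 < β ∧ ∃ n : ℕ, FaceT F a v u0 β n := by
  obtain ⟨c0, h0, B, hB, X, hX, key⟩ := face_tube F.cht (a := a) (v := v)
    (fun t ht => (h t ht).1) (fun t ht => (h t ht).2.1) (fun t ht => (h t ht).2.2)
  exact ⟨c0, h0, B, hB, X.card, X, le_rfl, hX, key⟩

lemma CellT.mono {C : Cell} {a v : E3} {u0 β u0' β' : ℝ} {n n' : ℕ} (h : CellT C a v u0 β n)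
    (h1 : u0' ≤ u0) (h2 : β ≤ β') (h3 : n ≤ n') : CellT C a v u0' β' n' := by
  obtain ⟨X, hX1, hX2, key⟩ := h
  refine ⟨X, hX1.trans h3, hX2, fun τ a1 a2 x hx t ht u hu hxu hX => ?_⟩
  exact key τ a1 a2 x hx t ht u (hu.trans h1) hxu fun s hs =>
    (mul_le_mul_of_nonneg_right h2 ((norm_nonneg _).trans hxu)).trans_lt (hX s hs)

lemma FaceT.mono {F : Face} {a v : E3} {u0 β u0' β' : ℝ} {n n' : ℕ} (h : FaceT F a v u0 β n)
    (h1 : u0' ≤ u0) (h2 : β ≤ β') (h3 : n ≤ n') : FaceT F a v u0' β' n' := by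
  obtain ⟨X, hX1, hX2, key⟩ := h
  refine ⟨X, hX1.trans h3, hX2, fun τ a1 a2 x hx t ht u hu hxu hX => ?_⟩
  exact key τ a1 a2 x hx t ht u (hu.trans h1) hxu fun s hs =>
    (mul_le_mul_of_nonneg_right h2 ((norm_nonneg _).trans hxu)).trans_lt (hX s hs)

/-! ### how far points are moved -/

/-- the squeeze of the cube moves points by at most four times their depth -/
lemma cgf_sub_le {d : ℕ} {q τ : ℝ} {N : ℕ} (hP : GPar q τ 1) {z : Fin d → ℝ} (hz : ‖z‖ ≤ 1) :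
    ‖cgf q τ (N+1) z - z‖ ≤ 4 * (1 - ‖z‖) := by
  have ht2 : τ ≤ 1/2 := by have := hP.half_le; linarith
  rcases le_total (1/2) ‖z‖ with h | h
  · rw [cgf_in hz, gf_outer h]
    have := outer_sub_le hP.t0 ht2 h hz
    linarith
  · have h1 : ‖cgf q τ (N+1) z‖ ≤ 1 := (sg_cgf hP).le hz
    have h2 := norm_sub_le (cgf q τ (N+1) z) z
    linarith

lemma Cell.move {C : Cell} {q τ : ℝ} {N : ℕ} (hP : GPar q τ 1) {x y : E3} (hx : x ∈ C.P)
    (hy : y ∈ C.P) (hyU : y ∉ C.U) :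
    ‖C.e' (cgf q τ (N+1) (C.e x)) - x‖ ≤ 4 * ((C.M:ℝ) * C.M) * ‖x - y‖ := by
  have hM := C.M_pos
  have hR := C.R_pos
  have hz : ‖C.e x‖ ≤ 1 := mem_closedBall_zero_iff.1 (C.cht.maps hx)
  have hy1 : 1 ≤ ‖C.e y‖ := by
    by_contra hlt
    exact hyU ((C.cht.mem y hy).1 (mem_ball_zero_iff.2 (not_le.1 hlt)))
  have h1 := cgf_sub_le (N := N) hP hz
  have h2 : 1 - ‖C.e x‖ ≤ (C.M / C.R : ℝ) * ‖x - y‖ := by
    have h3 := lip_le C.cht.lip hx hy
    push_cast at h3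
    have h4 : ‖C.e y‖ ≤ ‖C.e x‖ + ‖C.e x - C.e y‖ := by
      calc ‖C.e y‖ = ‖C.e x - (C.e x - C.e y)‖ := by congr 1; abel
        _ ≤ _ := norm_sub_le _ _
    linarith
  have hzK : C.e x ∈ closedBall (0:E3) 1 := C.cht.maps hx
  have hz' : cgf q τ (N+1) (C.e x) ∈ closedBall (0:E3) 1 := by
    rw [mem_closedBall_zero_iff]; exact (sg_cgf hP).le hz
  have h5 := lip_le C.cht.lip' hz' hzK
  rw [C.cht.inv x hx] at h5
  push_cast at h5
  refine h5.trans ?_
  calc (C.M * C.R : ℝ) * ‖cgf q τ (N+1) (C.e x) - C.e x‖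
      ≤ (C.M * C.R : ℝ) * (4 * ((C.M / C.R : ℝ) * ‖x - y‖)) := by
        apply mul_le_mul_of_nonneg_left _ (by positivity)
        linarith
    _ = 4 * ((C.M:ℝ) * C.M) * ‖x - y‖ := by field_simp

variable {κ ι : Type*} [Fintype κ] [Fintype ι] {X : Sys κ ι} {p δ : ℝ}

lemma Y_move (h : X.Adm p δ) (N : ℕ) {k : κ} {x y : E3} (hx : x ∈ (X.C k).U) (hy : y ∈ (X.C k).P)
    (hyU : y ∉ (X.C k).U) :
    ‖Sys.Y h (N+1) x - x‖ ≤ 4 * (((X.C k).M:ℝ) * (X.C k).M) * ‖x - y‖ := by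
  rw [Sys.Y_in h (N+1) hx]
  exact Cell.move (Sys.gC h k) ((X.C k).cht.sub hx) hy hyU

/-! ### the main statement -/

/-- **an edge of a system**: every cell (face) contains the edge in its boundary (rim) or meets the
tube of the edge only near the end points. -/
structure Edge (X : Sys κ ι) (a v : E3) (u0 β : ℝ) (n : ℕ) : Prop where
  pos : 0 < u0
  βpos : 0 < β
  cell : ∀ k, (OnC (X.C k) a v ∧ CellT (X.C k) a v u0 β n) ∨
    ∀ x ∈ (X.C k).P, ∀ t ∈ Icc (0:ℝ) 1, ∀ u ≤ u0, ‖x - (a + t • v)‖ ≤ u →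
      (t ≤ β * u ∧ a ∈ (X.C k).P ∧ a ∉ (X.C k).U) ∨
      (1 - t ≤ β * u ∧ a + v ∈ (X.C k).P ∧ a + v ∉ (X.C k).U)
  face : ∀ j, (OnF (X.F j) a v ∧ FaceT (X.F j) a v u0 β n) ∨
    ∀ x ∈ (X.F j).K, ∀ t ∈ Icc (0:ℝ) 1, ∀ u ≤ u0, ‖x - (a + t • v)‖ ≤ u →
      (t ≤ β * u ∧ a ∈ (X.F j).rim) ∨ (1 - t ≤ β * u ∧ a + v ∈ (X.F j).rim)

lemma Tv.of_id {h : E3 → E3} {x v : E3} (he : ∀ᶠ y in 𝓝 x, h y = y) : Tv h x v v :=
  (Tv.id x v).congr he

lemma ncard_filter {α : Type*} [Fintype α] (P : α → Prop) [DecidablePred P] :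
    {a | P a}.ncard = (Finset.univ.filter P).card := by
  rw [← Set.ncard_coe_finset]
  congr 1
  ext a
  simp

/-- **`chi` keeps the direction of the edge.** -/
theorem chi_tv {a v : E3} {u0 β : ℝ} {n : ℕ} (hE : Edge X a v u0 β n) {m : ℝ} (hm : 1 ≤ m)
    (hmC : ∀ k, OnC (X.C k) a v → ((X.C k).M : ℝ) ≤ m) :
    ∃ W : Finset ℝ, W.card ≤ ({k | OnC (X.C k) a v}.ncard + {j | OnF (X.F j) a v}.ncard) * n + 2 ∧
      (∀ s ∈ W, s ∈ Icc (0:ℝ) 1) ∧
      ∀ (δ p : ℝ) (h : X.Adm p δ) (N₁ N₂ : ℕ), ∀ᵐ x : E3, ∀ t ∈ Icc (0:ℝ) 1,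
        ∀ u : ℝ, (1 + 4 * (m * m)) * u ≤ u0 → ‖x - (a + t • v)‖ ≤ u →
        (∀ s ∈ W, (β * (1 + 4 * (m * m))) * u < |t - s|) →
        Tv (fun y => Sys.chi h (N₁+1) (N₂+1) y) x v v := by
  classical
  have hXC : ∀ k, ∃ Wk : Finset ℝ, Wk.card ≤ (if OnC (X.C k) a v then n else 0) ∧
      (∀ s ∈ Wk, s ∈ Icc (0:ℝ) 1) ∧
      (OnC (X.C k) a v ∧ CellT (X.C k) a v u0 β n → ∀ τ : ℝ, 0 < τ → τ ≤ 1/2 →
      ∀ x ∈ (X.C k).U, ∀ t ∈ Icc (0:ℝ) 1, ∀ u ≤ u0, ‖x - (a + t • v)‖ ≤ u →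
      (∀ s ∈ Wk, β * u < |t - s|) →
      1/2 < ‖(X.C k).e x‖ ∧ Tv (fun y => (X.C k).e' (outer τ 1 ((X.C k).e y))) x v v) := by
    intro k
    by_cases hk : OnC (X.C k) a v ∧ CellT (X.C k) a v u0 β n
    · obtain ⟨W, h1, h2, h3⟩ := hk.2
      exact ⟨W, by rw [if_pos hk.1]; exact h1, h2, fun _ => h3⟩
    · exact ⟨∅, by simp, by simp, fun h => absurd h hk⟩
  have hXF : ∀ j, ∃ Wj : Finset ℝ, Wj.card ≤ (if OnF (X.F j) a v then n else 0) ∧
      (∀ s ∈ Wj, s ∈ Icc (0:ℝ) 1) ∧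
      (OnF (X.F j) a v ∧ FaceT (X.F j) a v u0 β n → ∀ τ : ℝ, 0 < τ → τ ≤ 1/2 →
      ∀ x ∈ (X.F j).V, ∀ t ∈ Icc (0:ℝ) 1, ∀ u ≤ u0, ‖x - (a + t • v)‖ ≤ u →
      (∀ s ∈ Wj, β * u < |t - s|) →
      (1/2) * (1 - |(X.F j).e x 0|) < wid ((X.F j).e x) ∧
        Tv (fun y => (X.F j).e' (fo τ ((X.F j).e y))) x v v) := by
    intro j
    by_cases hj : OnF (X.F j) a v ∧ FaceT (X.F j) a v u0 β n
    · obtain ⟨W, h1, h2, h3⟩ := hj.2
      exact ⟨W, by rw [if_pos hj.1]; exact h1, h2, fun _ => h3⟩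
    · exact ⟨∅, by simp, by simp, fun h => absurd h hj⟩
  choose WC c1 c2 c3 using hXC
  choose WF f1 f2 f3 using hXF
  refine ⟨(Finset.univ.biUnion WC ∪ Finset.univ.biUnion WF) ∪ {0, 1}, ?_, ?_, ?_⟩
  · refine (Finset.card_union_le _ _).trans (add_le_add ((Finset.card_union_le _ _).trans ?_)
      (Finset.card_le_two))
    rw [add_mul]
    refine add_le_add ?_ ?_
    · refine Finset.card_biUnion_le.trans ((Finset.sum_le_sum fun k _ => c1 k).trans ?_)
      rw [← Finset.sum_filter, Finset.sum_const, smul_eq_mul, ncard_filter]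
    · refine Finset.card_biUnion_le.trans ((Finset.sum_le_sum fun k _ => f1 k).trans ?_)
      rw [← Finset.sum_filter, Finset.sum_const, smul_eq_mul, ncard_filter]
  · intro s hs
    rcases Finset.mem_union.1 hs with hs | hs
    · rcases Finset.mem_union.1 hs with hs | hs
      · obtain ⟨k, -, hk⟩ := Finset.mem_biUnion.1 hs
        exact c2 k s hk
      · obtain ⟨k, -, hk⟩ := Finset.mem_biUnion.1 hs
        exact f2 k s hk
    · rcases Finset.mem_insert.1 hs with rfl | hs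
      · exact ⟨le_rfl, zero_le_one⟩
      · rw [Finset.mem_singleton.1 hs]; exact ⟨zero_le_one, le_rfl⟩
  intro δ p h N₁ N₂
  -- the null sets
  have hn1 : ∀ᵐ x : E3, ∀ k, x ∉ (X.C k).P \ (X.C k).U := by
    rw [ae_all_iff]
    intro k
    exact measure_eq_zero_iff_ae_notMem.1 (X.C k).null
  have hn2 : ∀ᵐ x : E3, ∀ j, x ∉ (X.F j).K \ (X.F j).V := by
    rw [ae_all_iff]
    intro k
    exact measure_eq_zero_iff_ae_notMem.1 (X.F k).null
  have hn3 := null_pre (Sys.plOn_Y_symm h (N₂+1)) hn2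
  filter_upwards [hn1, hn3] with x hx1 hx3 t ht u hu hxu hW
  have hu0 : 0 ≤ u := (norm_nonneg _).trans hxu
  have hm2 : 1 ≤ m * m := one_le_mul_of_one_le_of_one_le hm hm
  have huu : u ≤ u0 := by nlinarith
  have hWC : ∀ k, ∀ s ∈ WC k, β * u < |t - s| := by
    intro k s hs
    refine lt_of_le_of_lt ?_ (hW s (Finset.mem_union_left _ (Finset.mem_union_left _
      (Finset.mem_biUnion.2 ⟨k, Finset.mem_univ k, hs⟩))))
    have := hE.βpos
    have h1 : 0 ≤ β * u := by positivity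
    nlinarith
  have h0 : β * u < t := by
    have := hW 0 (Finset.mem_union_right _ (by simp))
    rw [sub_zero, abs_of_nonneg ht.1] at this
    refine lt_of_le_of_lt ?_ this
    have := hE.βpos
    have h1 : 0 ≤ β * u := by positivity
    nlinarith
  have h0' : β * u < 1 - t := by
    have := hW 1 (Finset.mem_union_right _ (by simp))
    rw [abs_sub_comm, abs_of_nonneg (by linarith [ht.2])] at this
    refine lt_of_le_of_lt ?_ this
    have := hE.βpos
    have h1 : 0 ≤ β * u := by positivity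
    nlinarith
  -- the cells
  set y := Sys.Y h (N₂+1) x with hy
  have T1 : Tv (fun z => Sys.Y h (N₂+1) z) x v v ∧ ‖y - x‖ ≤ 4 * (m * m) * u := by
    by_cases hU : ∃ k, x ∈ (X.C k).U
    · obtain ⟨k, hk⟩ := hU
      rcases hE.cell k with hk2 | hk2
      · obtain ⟨k3, k4⟩ := c3 k hk2 _ (Sys.gC h k).t0 (by
          have := (Sys.gC h k).half_le; linarith) x hk t ht u huu hxu (hWC k)
        constructor
        · refine k4.congr_of_open (O := (X.C k).U ∩ (X.C k).e ⁻¹' {z | 1/2 < ‖z‖}) ?_ ⟨hk, k3⟩ ?_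
          · exact ((X.C k).cht.lip.continuousOn.mono (X.C k).cht.sub).isOpen_inter_preimage
              (X.C k).cht.opU (isOpen_lt continuous_const continuous_norm)
          · rintro z ⟨hz1, hz2⟩
            have hz2' : 1/2 < ‖(X.C k).e z‖ := hz2
            show Sys.Y h (N₂+1) z = _
            rw [Sys.Y_in h (N₂+1) hz1, cgf_in (mem_closedBall_zero_iff.1
              ((X.C k).cht.maps ((X.C k).cht.sub hz1))), gf_outer hz2'.le]
        · have h1 := Y_move h N₂ hk (hk2.1 t ht).1 (hk2.1 t ht).2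
          have h2 := hmC k hk2.1
          have h3 := (X.C k).M_pos
          refine h1.trans ?_
          have h4 : ((X.C k).M:ℝ) * (X.C k).M ≤ m * m := by nlinarith
          have h5 := norm_nonneg (x - (a + t • v))
          have h6 : 0 ≤ ((X.C k).M:ℝ) * (X.C k).M := by positivity
          nlinarith
      · exfalso
        rcases hk2 x ((X.C k).cht.sub hk) t ht u huu hxu with h1 | h1
        · linarith [h1.1]
        · linarith [h1.1]
    · push Not at hU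
      have hP : ∀ k, x ∉ (X.C k).P := fun k hk => hx1 k ⟨hk, hU k⟩
      have hyx : y = x := Sys.Y_out h (N₂+1) hU
      constructor
      · refine Tv.of_id ?_
        have : ∀ᶠ z in 𝓝 x, ∀ k, z ∉ (X.C k).P :=
          eventually_all.2 fun k => (X.C k).cht.clK.isOpen_compl.mem_nhds (hP k)
        filter_upwards [this] with z hz
        exact Sys.Y_out h (N₂+1) fun k hk => hz k ((X.C k).cht.sub hk)
      · rw [hyx, sub_self, norm_zero]; positivity
  obtain ⟨T1, hyx⟩ := T1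
  have hyu : ‖y - (a + t • v)‖ ≤ (1 + 4 * (m * m)) * u := by
    have e1 : y - (a + t • v) = (y - x) + (x - (a + t • v)) := by abel
    rw [e1]
    refine (norm_add_le _ _).trans ?_
    linarith
  -- the faces
  have T2 : Tv (fun z => Sys.H h (N₁+1) z) y v v := by
    by_cases hV : ∃ j, y ∈ (X.F j).V
    · obtain ⟨j, hj⟩ := hV
      rcases hE.face j with hj2 | hj2
      · obtain ⟨k3, k4⟩ := f3 j hj2 _ (Sys.gF h j).t0 (by
          have := (Sys.gF h j).half_le; linarith) y hj t ht _ hu hyu (by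
            intro s hs
            have := hW s (Finset.mem_union_left _ (Finset.mem_union_right _
              (Finset.mem_biUnion.2 ⟨j, Finset.mem_univ j, hs⟩)))
            rwa [mul_assoc] at this)
        refine k4.congr_of_open (O := (X.F j).V ∩
          (X.F j).e ⁻¹' {z | (1/2) * (1 - |z 0|) < wid z}) ?_ ⟨hj, k3⟩ ?_
        · exact ((X.F j).cht.lip.continuousOn.mono (X.F j).cht.sub).isOpen_inter_preimage
            (X.F j).cht.opU (isOpen_lt (continuous_const.mul (continuous_const.sub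
              (continuous_apply 0).abs)) continuous_wid)
        · rintro z ⟨hz1, hz2⟩
          have hz2' : (1/2) * (1 - |(X.F j).e z 0|) < wid ((X.F j).e z) := hz2
          have hz3 : |(X.F j).e z 0| + wid ((X.F j).e z) < 1 := (X.F j).cht.eU hz1
          have hz4 := wid_nonneg ((X.F j).e z)
          show Sys.H h (N₁+1) z = _
          rw [Sys.H_in h (N₁+1) hz1, T_eq_fo (by linarith) hz2'.le hz3.le]
      · exfalso
        rcases hj2 y ((X.F j).cht.sub hj) t ht _ hu hyu with h1 | h1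
        · have := hW 0 (Finset.mem_union_right _ (by simp))
          rw [sub_zero, abs_of_nonneg ht.1] at this
          have := h1.1
          nlinarith
        · have := hW 1 (Finset.mem_union_right _ (by simp))
          rw [abs_sub_comm, abs_of_nonneg (by linarith [ht.2])] at this
          have := h1.1
          nlinarith
    · push Not at hV
      have hK : ∀ j, y ∉ (X.F j).K := fun j hj => hx3 j ⟨hj, hV j⟩
      refine Tv.of_id ?_
      have : ∀ᶠ z in 𝓝 y, ∀ j, z ∉ (X.F j).K :=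
        eventually_all.2 fun j => (X.F j).cht.clK.isOpen_compl.mem_nhds (hK j)
      filter_upwards [this] with z hz
      exact Sys.H_out h (N₁+1) fun j hj => hz j ((X.F j).cht.sub hj)
  exact T1.comp (k := fun z => Sys.H h (N₁+1) z) T2

end Crest.Agent.R096.Sqt_143
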