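import Crest.Agent.R096.Sq23_55
import Crest.Agent.R096.Sqt5_143

/-!
# R096 (row 96), SOBSQ, part 24 (helper55): edges of tilings with uniform numbers, charts in a plane

`rel_tube` = 143's `cell_tube` for a chart whose domain need not be open.
-/

set_option autoImplicit false
set_option linter.unusedSectionVars false

open Set Metric Filter Topology

namespace Crest.Agent.R096.Sq_55

open Crest.Agent.R096.Ce_537 Crest.Agent.R096.Bd_416 Crest.Agent.R96.Hole_348
open Crest.Agent.R096.Sqt_143 (Tv map_line aff_sub tv_of_sel aff_large_fin exists_opbound outer_tv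
  outer_sub_le norm_outer_one lip_le piece_near)
open Crest.Agent.R096.Msh_715 (P I Tiling I_sub_P isOpen_I isClosed_P convex_P mem_I_of_move
  disjoint_P_I isBall_P_top mem_I_small)
open scoped NNReal

section rel

variable {n : ℕ} {E F : Type*} [NormedAddCommGroup E] [NormedSpace ℝ E] [NormedAddCommGroup F]
  [NormedSpace ℝ F]

/-- all active pieces have the same derivative in the direction `v` -/
lemma tv_of_sel_rel [FiniteDimensional ℝ E] {h : E → F} {K : Set E} {S : Finset (E →ᵃ[ℝ] F)}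
    (hS : ∀ x ∈ K, ∃ f ∈ S, h x = f x) {x v : E} {w : F}
    (hK : ∀ᶠ σ in 𝓝 (0:ℝ), x + σ • v ∈ K)
    (hc : ContinuousWithinAt h K x) (ha : ∀ f ∈ S, h x = f x → f.linear v = w) : Tv h x v w := by
  have h2 : Tendsto (fun σ : ℝ => x + σ • v) (𝓝 0) (𝓝[K] x) := by
    refine tendsto_nhdsWithin_iff.2 ⟨?_, hK⟩
    have : Continuous fun σ : ℝ => x + σ • v := by fun_prop
    simpa using this.tendsto 0
  have h1 : ∀ᶠ y in 𝓝[K] x, ∀ f ∈ S, h x ≠ f x → h y ≠ f y := by
    rw [eventually_all_finset]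
    intro f _
    by_cases hf : h x = f x
    · exact Eventually.of_forall fun y h => absurd hf h
    · have h3 : ContinuousWithinAt (fun y => h y - f y) K x :=
        hc.sub (AffineMap.continuous_of_finiteDimensional f).continuousAt.continuousWithinAt
      have h4 : h x - f x ≠ 0 := sub_ne_zero.2 hf
      filter_upwards [h3.eventually_ne h4] with y hy _
      exact sub_ne_zero.1 hy
  filter_upwards [h2.eventually h1, hK] with σ h3 h4
  obtain ⟨f, hf, hfx⟩ := hS _ h4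
  have h5 : h x = f x := by
    by_contra hne
    exact h3 f hf hne hfx
  rw [hfx, map_line, ← h5, ha f hf h5]

/-- **the squeeze near an edge**, relative form -/
theorem rel_tube [FiniteDimensional ℝ E] {K U : Set E} {e : E → (Fin n → ℝ)}
    {e' : (Fin n → ℝ) → E} {L L' : ℝ≥0} (pe : PLOn e K) (pe' : PLOn e' (closedBall 0 1))
    (le : LipschitzOnWith L e K) (le' : LipschitzOnWith L' e' (closedBall 0 1))
    (maps : MapsTo e K (closedBall 0 1)) (inv : ∀ x ∈ K, e' (e x) = x) (hsub : U ⊆ K)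
    (mem : ∀ x ∈ K, ‖e x‖ < 1 ↔ x ∈ U) {a v : E}
    (hop : ∀ x ∈ U, ∀ᶠ σ in 𝓝 (0:ℝ), x + σ • v ∈ K)
    (hK : ∀ t ∈ Icc (0:ℝ) 1, a + t • v ∈ K) (hU : ∀ t ∈ Icc (0:ℝ) 1, a + t • v ∉ U) :
    ∃ c0 : ℝ, 0 < c0 ∧ ∃ C : ℝ, 0 < C ∧ ∃ X : Finset ℝ, (∀ s ∈ X, s ∈ Icc (0:ℝ) 1) ∧
      ∀ τ : ℝ, 0 < τ → τ ≤ 1/2 → ∀ x ∈ U, ∀ t ∈ Icc (0:ℝ) 1, ∀ u ≤ c0, ‖x - (a + t • v)‖ ≤ u →
        (∀ s ∈ X, C * u < |t - s|) →
        1/2 < ‖e x‖ ∧ Tv (fun y => e' (outer τ 1 (e y))) x v v := by
  classical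
  obtain ⟨ce, S, hS⟩ := pe
  obtain ⟨ce', S', hS'⟩ := pe'
  obtain ⟨M, hM0, hM⟩ := exists_opbound S
  obtain ⟨M', hM'0, hM'⟩ := exists_opbound S'
  have hL0 : (0:ℝ) ≤ L := L.coe_nonneg
  have hL'0 : (0:ℝ) ≤ L' := L'.coe_nonneg
  -- the three families
  obtain ⟨c1, hc1, C1, hC1, X1, hX1, h1⟩ := aff_large_fin (S ×ˢ S)
    (fun p => p.1 a - p.2 a) (fun p => p.1.linear v - p.2.linear v) (fun _ => M + L)
  obtain ⟨c2, hc2, C2, hC2, X2, hX2, h2⟩ := aff_large_fin (F := ℝ)
    (S ×ˢ ((Finset.univ : Finset (Fin n)) ×ˢ ({1, -1} : Finset ℝ)))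
    (fun p => 1 - p.2.2 * p.1 a p.2.1) (fun p => - (p.2.2 * p.1.linear v p.2.1))
    (fun _ => 6 * (L:ℝ))
  obtain ⟨c3, hc3, C3, hC3, X3, hX3, h3⟩ := aff_large_fin (S ×ˢ S')
    (fun p => p.2 (p.1 a) - a) (fun p => p.2.linear (p.1.linear v) - v)
    (fun _ => (M' + L') * (3 * (L:ℝ)))
  refine ⟨min (min c1 c2) (min c3 (1 / (4 * ((L:ℝ) + 1)))), ?_, max C1 (max C2 C3),
    lt_max_of_lt_left hC1, X1 ∪ (X2 ∪ X3), ?_, ?_⟩
  · exact lt_min (lt_min hc1 hc2) (lt_min hc3 (by positivity))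
  · intro s hs
    rcases Finset.mem_union.1 hs with h | h
    · exact hX1 s h
    · rcases Finset.mem_union.1 h with h | h
      · exact hX2 s h
      · exact hX3 s h
  intro τ hτ0 hτ x hx t ht u hu hxu hX
  have hu0 : 0 ≤ u := (norm_nonneg _).trans hxu
  have hu1 : u ≤ c1 := hu.trans ((min_le_left _ _).trans (min_le_left _ _))
  have hu2 : u ≤ c2 := hu.trans ((min_le_left _ _).trans (min_le_right _ _))
  have hu3 : u ≤ c3 := hu.trans ((min_le_right _ _).trans (min_le_left _ _))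
  have hu4 : u ≤ 1 / (4 * ((L:ℝ) + 1)) := hu.trans ((min_le_right _ _).trans (min_le_right _ _))
  have hY1 : ∀ s ∈ X1, C1 * u < |t - s| := fun s hs =>
    (mul_le_mul_of_nonneg_right (le_max_left _ _) hu0).trans_lt
      (hX s (Finset.mem_union_left _ hs))
  have hY2 : ∀ s ∈ X2, C2 * u < |t - s| := fun s hs =>
    (mul_le_mul_of_nonneg_right ((le_max_left _ _).trans (le_max_right _ _)) hu0).trans_lt
      (hX s (Finset.mem_union_right _ (Finset.mem_union_left _ hs)))
  have hY3 : ∀ s ∈ X3, C3 * u < |t - s| := fun s hs =>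
    (mul_le_mul_of_nonneg_right ((le_max_right _ _).trans (le_max_right _ _)) hu0).trans_lt
      (hX s (Finset.mem_union_right _ (Finset.mem_union_right _ hs)))
  set y := a + t • v with hy
  have hyK : y ∈ K := hK t ht
  have hyU : y ∉ U := hU t ht
  have hxK : x ∈ K := hsub hx
  obtain ⟨g, hg, hgy⟩ := hS y hyK
  set w := g.linear v with hw
  -- the norm of `e y`
  have hey1 : ‖e y‖ ≤ 1 := by simpa using maps hyK
  have hey : ‖e y‖ = 1 := by
    refine le_antisymm hey1 (not_lt.1 fun h => hyU ?_)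
    exact (mem y hyK).1 h
  have hexy : ‖e x - e y‖ ≤ L * u :=
    (lip_le le hxK hyK).trans (mul_le_mul_of_nonneg_left hxu hL0)
  have hLu : (L:ℝ) * u ≤ 1/4 := by
    rw [le_div_iff₀ (by positivity)] at hu4
    nlinarith
  have hex1 : ‖e x‖ < 1 := (mem x hxK).2 hx
  have hex2 : 1 - L * u ≤ ‖e x‖ := by
    have : ‖e y‖ ≤ ‖e x‖ + ‖e x - e y‖ := by
      calc ‖e y‖ = ‖e x - (e x - e y)‖ := by congr 1; abel
        _ ≤ _ := norm_sub_le _ _
    linarith
  have hex3 : 1/2 < ‖e x‖ := by linarith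
  refine ⟨hex3, ?_⟩
  -- step 1
  have T1 : Tv e x v w := by
    refine tv_of_sel_rel hS (hop x hx) (ce x hxK) ?_
    intro f hf hfx
    by_contra hne
    have h4 := h1 t ht u hu0 hu1 hY1 (f, g) (Finset.mem_product.2 ⟨hf, hg⟩) (sub_ne_zero.2 hne)
    have h5 := piece_near le (hM f hf) hM0 hxK hyK hfx hgy hxu
    have e1 : (f a - g a) + t • (f.linear v - g.linear v) = f y - g y := by
      rw [hy, map_line, map_line, smul_sub]; abel
    have h6 : ‖(f a - g a) + t • (f.linear v - g.linear v)‖ ≤ (M + L) * u := by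
      rw [e1]; exact h5
    exact absurd h4 (not_lt.2 h6)
  -- step 2
  have T2 : Tv (outer τ 1) (e x) w w := by
    refine outer_tv hey hτ0 hτ hexy ?_
    intro j hj
    have key : ∀ s : ℝ, s ∈ ({1, -1} : Finset ℝ) → 6 * (L:ℝ) * u < |1 - s * e y j| := by
      intro s hs
      have hs0 : s ≠ 0 := by
        rcases Finset.mem_insert.1 hs with rfl | hs
        · norm_num
        · rw [Finset.mem_singleton.1 hs]; norm_num
      have h4 := h2 t ht u hu0 hu2 hY2 (g, (j, s)) (Finset.mem_product.2 ⟨hg,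
        Finset.mem_product.2 ⟨Finset.mem_univ _, hs⟩⟩) (neg_ne_zero.2 (mul_ne_zero hs0 hj))
      have e1 : (1 - s * g a j) + t • (-(s * g.linear v j)) = 1 - s * e y j := by
        rw [hgy, hy, map_line]
        simp only [Pi.add_apply, Pi.smul_apply, smul_eq_mul]
        ring
      have h5 : 6 * (L:ℝ) * u < ‖(1 - s * g a j) + t • (-(s * g.linear v j))‖ := h4
      rwa [e1, Real.norm_eq_abs] at h5
    have k1 := key 1 (by simp)
    have k2 := key (-1) (by simp)
    have hj1 : |e y j| ≤ 1 := (norm_le_pi_norm (e y) j).trans hey1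
    have hj2 := abs_le.1 hj1
    rw [abs_of_nonneg (by linarith)] at k1
    rw [abs_of_nonneg (by linarith)] at k2
    have : |e y j| < 1 - 6 * L * u := by rw [abs_lt]; constructor <;> linarith
    linarith
  -- step 3
  set z' := outer τ 1 (e x) with hz'
  have hz'1 : ‖z'‖ < 1 := by
    rw [hz', norm_outer_one hτ0 hτ hex3.le hex1.le]
    nlinarith
  have hz'y : ‖z' - e y‖ ≤ 3 * (L:ℝ) * u := by
    have h4 := outer_sub_le hτ0 hτ hex3.le hex1.le
    have e1 : z' - e y = (z' - e x) + (e x - e y) := by abel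
    rw [e1]
    refine (norm_add_le _ _).trans ?_
    linarith
  have hzK : z' ∈ closedBall (0 : Fin n → ℝ) 1 := by simpa using hz'1.le
  have hyK' : e y ∈ closedBall (0 : Fin n → ℝ) 1 := maps hyK
  have T3 : Tv e' z' w v := by
    have hnb : closedBall (0 : Fin n → ℝ) 1 ∈ 𝓝 z' :=
      mem_of_superset (isOpen_ball.mem_nhds (by simpa using hz'1)) ball_subset_closedBall
    refine tv_of_sel hS' hnb (ce'.continuousAt hnb) ?_
    intro k hk hkz
    by_contra hne
    have h4 := h3 t ht u hu0 hu3 hY3 (g, k) (Finset.mem_product.2 ⟨hg, hk⟩) (sub_ne_zero.2 hne)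
    obtain ⟨k', hk', hk'y⟩ := hS' (e y) hyK'
    have h5 := piece_near le' (hM' k hk) hM'0 hzK hyK' hkz hk'y hz'y
    have e1 : (k (g a) - a) + t • (k.linear (g.linear v) - v) = k (e y) - k' (e y) := by
      rw [← hk'y, inv y hyK, hgy, hy, map_line, map_line, smul_sub]; abel
    have h6 : ‖(k (g a) - a) + t • (k.linear (g.linear v) - v)‖ ≤ (M' + L') * (3 * (L:ℝ)) * u := by
      rw [e1]; linarith
    exact absurd h4 (not_lt.2 h6)
  exact (T1.comp (k := outer τ 1) T2).comp (k := e') T3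


end rel

/-- the squeezes keep the direction `v` at all points of `U` at distance `≤ u ≤ u0` from the
edge, up to `N` intervals of length `2 β u` of parameters -/
def CT {n : ℕ} (U : Set E3) (e : E3 → Fin n → ℝ) (e' : (Fin n → ℝ) → E3) (a v : E3) (u0 β : ℝ)
    (N : ℕ) : Prop :=
  ∃ X : Finset ℝ, X.card ≤ N ∧ (∀ s ∈ X, s ∈ Icc (0:ℝ) 1) ∧
    ∀ τ : ℝ, 0 < τ → τ ≤ 1/2 → ∀ x ∈ U, ∀ t ∈ Icc (0:ℝ) 1, ∀ u ≤ u0, ‖x - (a + t • v)‖ ≤ u →
      (∀ s ∈ X, β * u < |t - s|) →
      1/2 < ‖e x‖ ∧ Tv (fun y => e' (outer τ 1 (e y))) x v v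

lemma CT.mono {n : ℕ} {U : Set E3} {e : E3 → Fin n → ℝ} {e' : (Fin n → ℝ) → E3} {a v : E3}
    {u0 β u0' β' : ℝ} {N N' : ℕ} (h : CT U e e' a v u0 β N) (h1 : u0' ≤ u0) (h2 : β ≤ β')
    (h3 : N ≤ N') : CT U e e' a v u0' β' N' := by
  obtain ⟨X, hX1, hX2, key⟩ := h
  refine ⟨X, hX1.trans h3, hX2, fun τ a1 a2 x hx t ht u hu hxu hX => ?_⟩
  exact key τ a1 a2 x hx t ht u (hu.trans h1) hxu fun s hs =>
    (mul_le_mul_of_nonneg_right h2 ((norm_nonneg _).trans hxu)).trans_lt (hX s hs)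

/-- transport by a similarity up to bounded factors -/
lemma CT.pull {n : ℕ} {U : Set E3} {e : E3 → Fin n → ℝ} {e' : (Fin n → ℝ) → E3} {a v : E3}
    {u0 β : ℝ} {N : ℕ} {Λ R : ℝ≥0} {B : E3 ≃ᵃ[ℝ] E3} (hB : Frm Λ R B) (hR : 0 < R) (hΛ : 0 < Λ)
    (h : CT (B '' U) e e' (B a) (B.linear v) u0 β N) :
    CT U (fun y => e (B y)) (fun z => B.symm (e' z)) a v (u0 * (R / Λ)) (β * (Λ / R)) N := by
  obtain ⟨X, hX1, hX2, key⟩ := h
  refine ⟨X, hX1, hX2, fun τ a1 a2 x hx t ht u hu hxu hX => ?_⟩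
  have hR' : (0:ℝ) < R := by exact_mod_cast hR
  have hΛ' : (0:ℝ) < Λ := by exact_mod_cast hΛ
  have e1 : B (a + t • v) = B a + t • B.linear v := map_line B.toAffineMap a v t
  have h1 : ‖B x - (B a + t • B.linear v)‖ ≤ Λ / R * u := by
    rw [← e1]
    have := hB.lip.dist_le_mul x (a + t • v)
    rw [dist_eq_norm, dist_eq_norm] at this
    push_cast at this
    exact this.trans (mul_le_mul_of_nonneg_left hxu (by positivity))
  obtain ⟨k1, k2⟩ := key τ a1 a2 (B x) (mem_image_of_mem _ hx) t ht (Λ / R * u) (by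
    calc (Λ:ℝ) / R * u ≤ Λ / R * (u0 * (R / Λ)) := mul_le_mul_of_nonneg_left hu (by positivity)
      _ = u0 := by field_simp) h1 (fun s hs => by
        have := hX s hs
        rwa [mul_assoc] at this)
  refine ⟨k1, ?_⟩
  filter_upwards [k2] with σ hσ
  have e2 : B (x + σ • v) = B x + σ • B.linear v := map_line B.toAffineMap x v σ
  show B.symm (e' (outer τ 1 (e (B (x + σ • v))))) = B.symm (e' (outer τ 1 (e (B x)))) + σ • v
  rw [e2, hσ]
  apply B.injective
  rw [AffineEquiv.apply_symm_apply, show B (B.symm (e' (outer τ 1 (e (B x)))) + σ • v) =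
    B (B.symm (e' (outer τ 1 (e (B x))))) + σ • B.linear v from map_line B.toAffineMap _ v σ,
    AffineEquiv.apply_symm_apply]

/-- the two parametrisations of a segment -/
lemma segment_param {a v b w : E3} (h : segment ℝ a (a + v) = segment ℝ b (b + w)) :
    (b = a ∧ w = v) ∨ (b = a + v ∧ w = -v) := by
  have hb : b ∈ segment ℝ a (a + v) := by rw [h]; exact left_mem_segment ℝ _ _
  have hbw : b + w ∈ segment ℝ a (a + v) := by rw [h]; exact right_mem_segment ℝ _ _
  have ha : a ∈ segment ℝ b (b + w) := by rw [← h]; exact left_mem_segment ℝ _ _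
  have hav : a + v ∈ segment ℝ b (b + w) := by rw [← h]; exact right_mem_segment ℝ _ _
  rw [segment_eq_image'] at hb hbw ha hav
  obtain ⟨s, hs, es⟩ := hb
  obtain ⟨t, ht, et⟩ := hbw
  obtain ⟨s', hs', es'⟩ := ha
  obtain ⟨t', ht', et'⟩ := hav
  simp only [add_sub_cancel_left] at es et es' et'
  -- `w = (t - s) v`, `v = (t' - s') w`
  have e1 : w = (t - s) • v := by
    have : b + w - b = (a + t • v) - (a + s • v) := by rw [es, et]
    rw [add_sub_cancel_left] at this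
    rw [this]; module
  have e2 : v = (t' - s') • w := by
    have : a + v - a = (b + t' • w) - (b + s' • w) := by rw [es', et']
    rw [add_sub_cancel_left] at this
    rw [this]; module
  rcases eq_or_ne v 0 with hv | hv
  · left
    refine ⟨?_, ?_⟩
    · rw [← es, hv, smul_zero, add_zero]
    · rw [e1, hv, smul_zero]
  · have e3 : (t' - s') * (t - s) = 1 := by
      have h1 : ((t' - s') * (t - s)) • v = (1:ℝ) • v := by
        rw [← smul_smul, ← e1, ← e2, one_smul]
      exact smul_left_injective ℝ hv h1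
    have b1 : |t - s| ≤ 1 := abs_le.2 ⟨by linarith [hs.2, ht.1], by linarith [hs.1, ht.2]⟩
    have b2 : |t' - s'| ≤ 1 := abs_le.2 ⟨by linarith [hs'.2, ht'.1], by linarith [hs'.1, ht'.2]⟩
    have b3 : |t' - s'| * |t - s| = 1 := by rw [← abs_mul, e3, abs_one]
    have b4 : |t - s| = 1 := by nlinarith [abs_nonneg (t - s), abs_nonneg (t' - s')]
    rcases eq_or_eq_neg_of_abs_eq b4 with h1 | h1
    · left
      have hs0 : s = 0 := by linarith [hs.1, ht.2]
      refine ⟨by rw [← es, hs0, zero_smul, add_zero], by rw [e1, h1, one_smul]⟩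
    · right
      have hs1 : s = 1 := by linarith [hs.2, ht.1]
      refine ⟨by rw [← es, hs1, one_smul], by rw [e1, h1, neg_smul, one_smul]⟩

end Crest.Agent.R096.Sq_55
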