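import Crest.Agent.R096.Sq24_55

/-!
# R096 (row 96), SOBSQ, part 25 (helper55): the squeeze of a double pyramid near an edge
-/

set_option autoImplicit false
set_option linter.unusedSectionVars false

open Set Metric Filter Topology

namespace Crest.Agent.R096.Sq_55

open Crest.Agent.R096.Ce_537 Crest.Agent.R096.Bd_416 Crest.Agent.R96.Hole_348
open Crest.Agent.R096.Sqt_143 (Tv map_line aff_sub fo OnC OnF CellT FaceT)
open Crest.Agent.R096.Msh_715 (P I Tiling I_sub_P isOpen_I isClosed_P convex_P mem_I_of_move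
  disjoint_P_I isBall_P_top mem_I_small)
open scoped NNReal

namespace Dp

variable (D : Dp)

lemma l_dir {a v : E3} (h0 : a ∈ D.F) (h1 : a + v ∈ D.F) : D.l v = 0 := by
  have e0 := D.pl _ h0
  have e1 := D.pl _ h1
  have : a + v - D.b = (a - D.b) + v := by abel
  rw [this, map_add, e0, zero_add] at e1
  exact e1

lemma t_add {x v : E3} (hv : D.l v = 0) (s : ℝ) : D.t (x + s • v) = D.t x := by
  have : D.l (x + s • v - D.b) = D.l (x - D.b) := by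
    have : x + s • v - D.b = (x - D.b) + s • v := by abel
    rw [this, map_add, map_smul, hv, smul_zero, add_zero]
  rw [t, t, this]

lemma w_add {x v : E3} (hv : D.l v = 0) (s : ℝ) : D.w (x + s • v) = D.w x + s • v := by
  rw [w, w, D.t_add hv]; abel

lemma t_face {y : E3} (hy : y ∈ D.F) : D.t y = 0 := by
  rw [t, D.pl y hy, neg_zero, pp_pos le_rfl, zero_div, zero_div, sub_zero]

lemma w_face {y : E3} (hy : y ∈ D.F) : D.w y = y - D.b := by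
  rw [w, D.t_face hy, ax, neg_zero, pp_pos le_rfl, zero_smul, zero_smul, add_zero, sub_zero]

/-- the foot of the point in the plane of the face -/
noncomputable def q (x : E3) : E3 := D.b + (1 - |D.t x|)⁻¹ • D.w x

lemma q_add {x v : E3} (hv : D.l v = 0) (s : ℝ) :
    D.q (x + s • v) = D.q x + (s * (1 - |D.t x|)⁻¹) • v := by
  rw [q, q, D.t_add hv, D.w_add hv, smul_add, smul_smul, mul_comm s, add_assoc]

lemma tl_ch' (x : E3) (h : 0 < 1 - |D.t x|) :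
    tl (D.ch x) = (1 - |D.t x|) • D.e.g (D.q x) := by
  rw [tl_ch, con_pos (show 0 < (1 - |D.t x|, D.w x).1 from h)]
  rfl

/-- the squeeze in the chart -/
lemma ch'_fo {x : E3} (h : 0 < 1 - |D.t x|) (τ : ℝ) :
    D.ch' (fo τ (D.ch x)) = D.b + D.ax (D.t x) +
      (1 - |D.t x|) • (D.e.f (outer τ 1 (D.e.g (D.q x))) - D.b) := by
  have e0 : fo τ (D.ch x) 0 = D.t x := rfl
  have e1 : tl (fo τ (D.ch x)) = (1 - |D.t x|) • outer τ 1 (D.e.g (D.q x)) := by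
    show (1 - |D.ch x 0|) • outer τ 1 ((1 - |D.ch x 0|)⁻¹ • tl (D.ch x)) = _
    rw [D.ch_zero, D.tl_ch' x h, smul_smul, inv_mul_cancel₀ h.ne', one_smul]
  rw [ch', e0, e1, con_pos (show 0 < (1 - |D.t x|,
    (1 - |D.t x|) • outer τ 1 (D.e.g (D.q x))).1 from h)]
  show D.b + D.ax (D.t x) + (1 - |D.t x|) • (D.e.f ((1 - |D.t x|)⁻¹ •
    ((1 - |D.t x|) • outer τ 1 (D.e.g (D.q x)))) - D.b) = _
  rw [smul_smul, inv_mul_cancel₀ h.ne', one_smul]

/-- the foot is near the point if the point is near the face -/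
lemma norm_q_sub_le {r d : ℝ} (hr : 0 < r)
    (h1 : ∀ v, r * |D.l v| ≤ D.l (D.a - D.b) * ‖v‖)
    (h2 : ∀ v, r * |D.l v| ≤ -D.l (D.a' - D.b) * ‖v‖)
    (h3 : ‖D.a - D.b‖ ≤ d) (h4 : ‖D.a' - D.b‖ ≤ d) (h5 : ∀ y ∈ D.F, ‖y - D.b‖ ≤ d)
    {x y : E3} (hx : x ∈ D.V) (hy : y ∈ D.F) :
    ‖D.q x - y‖ ≤ (1 + 2 * (d / r)) * ‖x - y‖ := by
  have hx1 : 0 < 1 - |D.t x| := hx.1
  have hd : 0 ≤ d := (norm_nonneg _).trans h3
  have ht := D.abs_t_sub_le h1 h2 hr x y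
  rw [D.t_face hy, sub_zero] at ht
  have hax := D.norm_ax_sub_le h3 h4 (D.t x) (D.t y)
  rw [D.t_face hy, sub_zero] at hax
  have hw : D.w x - D.w y = (x - y) - (D.ax (D.t x) - D.ax 0) := by
    unfold w; rw [D.t_face hy]; abel
  have hq : D.q x - y = (D.w x - D.w y) + |D.t x| • (D.q x - D.b) := by
    rw [D.w_face hy, q, add_sub_cancel_left, smul_smul]
    have e : |D.t x| * (1 - |D.t x|)⁻¹ = (1 - |D.t x|)⁻¹ - 1 := by field_simp; ring
    rw [e, sub_smul, one_smul]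
    abel
  have hqF : ‖D.q x - D.b‖ ≤ d := h5 _ (D.sF hx.2)
  have hn := norm_nonneg (x - y)
  calc ‖D.q x - y‖ ≤ ‖D.w x - D.w y‖ + ‖|D.t x| • (D.q x - D.b)‖ := by
        rw [hq]; exact norm_add_le _ _
    _ ≤ (‖x - y‖ + d * |D.t x|) + |D.t x| * d := by
        refine add_le_add ?_ ?_
        · rw [hw]
          exact (norm_sub_le _ _).trans (add_le_add le_rfl hax)
        · rw [norm_smul, Real.norm_eq_abs, abs_abs]
          exact mul_le_mul_of_nonneg_left hqF (abs_nonneg _)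
    _ ≤ (‖x - y‖ + d * (r⁻¹ * ‖x - y‖)) + (r⁻¹ * ‖x - y‖) * d :=
        add_le_add (add_le_add le_rfl (mul_le_mul_of_nonneg_left ht hd))
          (mul_le_mul_of_nonneg_right ht hd)
    _ = (1 + 2 * (d / r)) * ‖x - y‖ := by ring

/-- **the squeeze of a double pyramid near an edge** from the chart of the face -/
theorem tube {r d : ℝ} (hr : 0 < r)
    (h1 : ∀ v, r * |D.l v| ≤ D.l (D.a - D.b) * ‖v‖)
    (h2 : ∀ v, r * |D.l v| ≤ -D.l (D.a' - D.b) * ‖v‖)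
    (h3 : ‖D.a - D.b‖ ≤ d) (h4 : ‖D.a' - D.b‖ ≤ d) (h5 : ∀ y ∈ D.F, ‖y - D.b‖ ≤ d)
    {a v : E3} (ha : ∀ t ∈ Icc (0:ℝ) 1, a + t • v ∈ D.F) {u0 β : ℝ} {N : ℕ}
    (h : CT D.oF D.e.g D.e.f a v u0 β N) :
    ∃ X : Finset ℝ, X.card ≤ N ∧ (∀ s ∈ X, s ∈ Icc (0:ℝ) 1) ∧
    ∀ τ : ℝ, 0 < τ → τ ≤ 1/2 → ∀ x ∈ D.V, ∀ t ∈ Icc (0:ℝ) 1, ∀ u ≤ u0 / (1 + 2 * (d / r)),
      ‖x - (a + t • v)‖ ≤ u → (∀ s ∈ X, (β * (1 + 2 * (d / r))) * u < |t - s|) →
      (1/2) * (1 - |D.ch x 0|) < wid (D.ch x) ∧ Tv (fun y => D.ch' (fo τ (D.ch y))) x v v := by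
  obtain ⟨X, hX1, hX2, key⟩ := h
  refine ⟨X, hX1, hX2, fun τ a1 a2 x hx t ht u hu hxu hX => ?_⟩
  have hd : 0 ≤ d := (norm_nonneg _).trans h3
  set κ : ℝ := 1 + 2 * (d / r) with hκ
  have hκ0 : 0 < κ := by positivity
  have hx1 : 0 < 1 - |D.t x| := hx.1
  have hlv : D.l v = 0 := D.l_dir (a := a) (by simpa using ha 0 (by simp))
    (by simpa using ha 1 (by simp))
  have hq : ‖D.q x - (a + t • v)‖ ≤ κ * u :=
    (D.norm_q_sub_le hr h1 h2 h3 h4 h5 hx (ha t ht)).trans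
      (mul_le_mul_of_nonneg_left hxu hκ0.le)
  obtain ⟨k1, k2⟩ := key τ a1 a2 (D.q x) hx.2 t ht (κ * u) (by
    rw [le_div_iff₀ hκ0] at hu; linarith) hq (fun s hs => by
      have := hX s hs
      rwa [mul_assoc] at this)
  constructor
  · rw [wid_eq, D.tl_ch' x hx1, D.ch_zero, norm_smul, Real.norm_eq_abs, abs_of_pos hx1]
    nlinarith
  · have h6 : Tendsto (fun s : ℝ => s * (1 - |D.t x|)⁻¹) (𝓝 0) (𝓝 0) := by
      have : Continuous fun s : ℝ => s * (1 - |D.t x|)⁻¹ := by fun_prop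
      simpa using this.tendsto 0
    filter_upwards [h6.eventually k2] with s hs
    have e1 : 0 < 1 - |D.t (x + s • v)| := by rw [D.t_add hlv]; exact hx1
    have hs' : D.e.f (outer τ 1 (D.e.g (D.q x + (s * (1 - |D.t x|)⁻¹) • v))) =
      D.e.f (outer τ 1 (D.e.g (D.q x))) + (s * (1 - |D.t x|)⁻¹) • v := hs
    show D.ch' (fo τ (D.ch (x + s • v))) = D.ch' (fo τ (D.ch x)) + s • v
    rw [D.ch'_fo e1, D.ch'_fo hx1, D.t_add hlv, D.q_add hlv, hs']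
    have e2 : (1 - |D.t x|) • ((s * (1 - |D.t x|)⁻¹) • v) = s • v := by
      rw [smul_smul]
      congr 1
      field_simp
    have e3 : D.e.f (outer τ 1 (D.e.g (D.q x))) + (s * (1 - |D.t x|)⁻¹) • v - D.b =
      (D.e.f (outer τ 1 (D.e.g (D.q x))) - D.b) + (s * (1 - |D.t x|)⁻¹) • v := by abel
    rw [e3, smul_add, e2]
    abel

end Dp

section tiling

variable {Om : Set E3} {ι : Type*} {T : Tiling Om ι} {c : ι → E3} {x : E3} {i j : ι} {D : Dp}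

/-- the double pyramid with a given chart of the face -/
theorem exists_dp_fg (T : Tiling Om ι) (c : ι → E3) (hc : ∀ i, c i ∈ I (T.H i)) {x : E3}
    (hx : x ∈ Om) (hd : T.dim x = 2) (e : PLEquiv (cube 2) (T.cc x))
    (he : e.f '' (Ce_537.sph 2) = T.cc x \ T.oc x) :
    ∃ i j D, IsDp T c x i j D ∧ D.e.f = e.f ∧ D.e.g = e.g := by
  obtain ⟨i, j, D, h⟩ := exists_dp T c hc hx hd
  obtain ⟨b, a, a', l, ha, ha', F, oF, cF, vF, sF, pl, bF, e0, sph0, O, hO, mO⟩ := D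
  obtain ⟨ne, at_, ea, ea', eF, eoF⟩ := h
  dsimp only at ea ea' eF eoF
  subst ea ea' eF eoF
  exact ⟨i, j, ⟨b, c i, c j, l, ha, ha', T.cc x, T.oc x, cF, vF, sF, pl, bF, e, he, O, hO, mO⟩,
    ⟨ne, at_, rfl, rfl, rfl, rfl⟩, rfl, rfl⟩

/-- the tube statement for all edges of the face -/
def FT (T : Tiling Om ι) (x : E3) (e : PLEquiv (cube 2) (T.cc x)) (κ : ℝ) (F : Face) : Prop :=
  ∀ a v : E3, (∀ t ∈ Icc (0:ℝ) 1, a + t • v ∈ T.cc x) → ∀ (u0 β : ℝ) (N : ℕ),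
    CT (T.oc x) e.g e.f a v u0 β N → FaceT F a v (u0 / κ) (β * κ) N

/-- **charts of the 2-cells, explicit constant, with the tube statement** -/
theorem exists_face_tube (hc : ∀ i, c i ∈ I (T.H i)) {x : E3} (hx : x ∈ Om) (hd : T.dim x = 2)
    (e : PLEquiv (cube 2) (T.cc x)) (he : e.f '' (Ce_537.sph 2) = T.cc x \ T.oc x)
    {ρ r d Lf Lg : ℝ≥0} (hρ : 0 < ρ) (hr : 0 < r)
    (hf : LipschitzOnWith Lf e.f (cube 2)) (hg : LipschitzOnWith Lg e.g (T.cc x))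
    (hB : ∀ k ∈ T.at_ x, closedBall (c k) r ⊆ I (T.H k))
    (hd1 : ∀ k ∈ T.at_ x, ∀ y ∈ T.cc x, ‖c k - y‖ ≤ d)
    (hd2 : ∀ y ∈ T.cc x, ∀ z ∈ T.cc x, ‖y - z‖ ≤ d) :
    ∃ F : Face, FaceOf T c x F ∧ F.ρ = ρ ∧ F.M = MF ρ r d Lf Lg ∧
      FT T x e (1 + 2 * (d / r)) F := by
  obtain ⟨i, j, D, h, ef, eg⟩ := exists_dp_fg T c hc hx hd e he
  have hf' : LipschitzOnWith Lf D.e.f (cube 2) := by rw [ef]; exact hf
  have hg' : LipschitzOnWith Lg D.e.g D.F := by rw [eg, h.F]; exact hg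
  have hr' : (0:ℝ) < r := by exact_mod_cast hr
  have hbF : D.b ∈ T.cc x := by rw [← h.F]; exact D.sF D.bF
  have q1 := h.ball_pos hx hr'.le (hB _ h.symm_mem.1)
  have q2 := h.ball_neg hx hr'.le (hB _ h.symm_mem.2)
  have q3 : ‖D.a - D.b‖ ≤ d := by rw [h.a]; exact hd1 _ h.symm_mem.1 _ hbF
  have q4 : ‖D.a' - D.b‖ ≤ d := by rw [h.a']; exact hd1 _ h.symm_mem.2 _ hbF
  have q5 : ∀ y ∈ D.F, ‖y - D.b‖ ≤ d := fun y hy => hd2 _ (by rw [← h.F]; exact hy) _ hbF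
  have hL := D.cht_explicit hr q1 q2 q3 q4 q5 hf' hg'
  have hA := h.slab_explicit hx hr' hB hc
  set L := Lg + 2 * Lg * (d / r) + 1 / r with hL1
  set L' := 2 * d + 2 * Lf with hL2
  set M : ℝ≥0 := MF ρ r d Lf Lg with hM
  have h1 : L ≤ M / ρ := by
    rw [le_div_iff₀ hρ]
    exact (le_max_left _ _).trans (le_max_right _ _)
  have h2 : L' ≤ M * ρ := by
    rw [← div_le_iff₀ hρ]
    exact (le_max_left _ _).trans ((le_max_right _ _).trans (le_max_right _ _))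
  have h3 : ρ / r ≤ M := (le_max_right _ _).trans ((le_max_right _ _).trans (le_max_right _ _))
  refine ⟨⟨D.K, D.V, M, ρ, le_max_left _ _, hρ, D.ch, D.ch',
    { hL with lip := hL.lip.weaken h1, lip' := hL.lip'.weaken h2 }⟩,
    ⟨i, j, D, h, rfl, rfl, fun y _ => rfl, fun k y hy hk z hz => ?_⟩, rfl, rfl, ?_⟩
  · have h5 := hA k y hy hk z hz
    have hρ' : (0:ℝ) ≤ ρ := ρ.coe_nonneg
    have h3' : (ρ:ℝ) / r ≤ M := by exact_mod_cast h3
    calc (ρ : ℝ) * |D.t y| ≤ ρ * ((r:ℝ)⁻¹ * ‖y - z‖) := mul_le_mul_of_nonneg_left h5 hρ'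
      _ = (ρ / r) * ‖y - z‖ := by ring
      _ ≤ M * ‖y - z‖ := mul_le_mul_of_nonneg_right h3' (norm_nonneg _)
  · intro a v hav u0 β N hCT
    refine D.tube hr' q1 q2 q3 q4 q5 (a := a) (v := v) (fun t ht => by rw [h.F]; exact hav t ht)
      (u0 := u0) (β := β) (N := N) ?_
    rw [ef, eg, h.oF]
    exact hCT

end tiling

end Crest.Agent.R096.Sq_55
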