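import Crest.Agent.R096.Sq25_55

/-!
# R096 (row 96), SOBSQ, part 26 (helper55): charts chosen by shape, tube numbers of a shape
-/

set_option autoImplicit false
set_option linter.unusedSectionVars false

open Set Metric Filter Topology

namespace Crest.Agent.R096.Sq_55

open Crest.Agent.R096.Ce_537 Crest.Agent.R096.Bd_416 Crest.Agent.R96.Hole_348
open Crest.Agent.R096.Sqt_143 (Tv map_line aff_sub fo OnC OnF CellT FaceT)
open Crest.Agent.R096.Msh_715 (P I Tiling I_sub_P isOpen_I isClosed_P convex_P mem_I_of_move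
  disjoint_P_I isBall_P_top mem_I_small)
open scoped NNReal

/-! ### the chart of a shape -/

open Classical in
/-- the chart of a solid shape -/
noncomputable def eC (S : Set E3) : (E3 → E3) × (E3 → E3) :=
  if h : ∃ q : (E3 → E3) × (E3 → E3),
    Cht S (interior S) (closedBall 0 1) (ball 0 1) q.1 q.2 (mC S) (mC S) then h.choose else (id, id)

lemma eC_spec {S : Set E3} (h : ∃ L L', CC3 S L L') :
    Cht S (interior S) (closedBall 0 1) (ball 0 1) (eC S).1 (eC S).2 (mC S) (mC S) := by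
  obtain ⟨e, e', h1⟩ := CC3_mC h
  have h2 : ∃ q : (E3 → E3) × (E3 → E3),
    Cht S (interior S) (closedBall 0 1) (ball 0 1) q.1 q.2 (mC S) (mC S) := ⟨(e, e'), h1⟩
  rw [eC, dif_pos h2]
  exact h2.choose_spec

/-- `(f, g)` is the chart of the flat shape `S` -/
def FCp (S : Set E3) (f : (Fin 2 → ℝ) → E3) (g : E3 → Fin 2 → ℝ) (Lf Lg : ℝ≥0) : Prop :=
  ∃ e : PLEquiv (cube 2) S, e.f = f ∧ e.g = g ∧ e.f '' (Ce_537.sph 2) = S \ rint S ∧
    LipschitzOnWith Lf e.f (cube 2) ∧ LipschitzOnWith Lg e.g S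

open Classical in
/-- the chart of a flat shape -/
noncomputable def eF (S : Set E3) : ((Fin 2 → ℝ) → E3) × (E3 → Fin 2 → ℝ) :=
  if h : ∃ q : ((Fin 2 → ℝ) → E3) × (E3 → Fin 2 → ℝ), FCp S q.1 q.2 (mF S) (mF S) then h.choose
  else (fun _ => 0, fun _ => 0)

lemma eF_spec {S : Set E3} (h : ∃ Lf Lg, FC S Lf Lg) : FCp S (eF S).1 (eF S).2 (mF S) (mF S) := by
  obtain ⟨e, h1, h2, h3⟩ := FC_mF h
  have h4 : ∃ q : ((Fin 2 → ℝ) → E3) × (E3 → Fin 2 → ℝ), FCp S q.1 q.2 (mF S) (mF S) :=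
    ⟨(e.f, e.g), e, rfl, rfl, h1, h2, h3⟩
  rw [eF, dif_pos h4]
  exact h4.choose_spec

/-! ### the tube numbers of a shape -/

/-- `w` is a tube number of the solid shape `S` and the edge `E` -/
def NC (S E : Set E3) (w : ℝ≥0) : Prop := 0 < w ∧ ∀ a v, segment ℝ a (a + v) = E →
  CT (interior S) (eC S).1 (eC S).2 a v (w : ℝ)⁻¹ w ⌊w⌋₊

/-- `w` is a tube number of the flat shape `S` and the edge `E` -/
def NF (S E : Set E3) (w : ℝ≥0) : Prop := 0 < w ∧ ∀ a v, segment ℝ a (a + v) = E →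
  CT (rint S) (eF S).2 (eF S).1 a v (w : ℝ)⁻¹ w ⌊w⌋₊

lemma exists_num {n : ℕ} {U : Set E3} {e : E3 → Fin n → ℝ} {e' : (Fin n → ℝ) → E3} {E : Set E3}
    (h : ∀ a v, segment ℝ a (a + v) = E → ∃ c0 : ℝ, 0 < c0 ∧ ∃ C : ℝ, 0 < C ∧ ∃ N,
      CT U e e' a v c0 C N) : ∃ w : ℝ≥0, 0 < w ∧ ∀ a v, segment ℝ a (a + v) = E →
        CT U e e' a v (w : ℝ)⁻¹ w ⌊w⌋₊ := by
  by_cases hE : ∃ a v, segment ℝ a (a + v) = E
  · obtain ⟨a0, v0, hE0⟩ := hE
    obtain ⟨c1, hc1, C1, hC1, N1, h1⟩ := h a0 v0 hE0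
    obtain ⟨c2, hc2, C2, hC2, N2, h2⟩ := h (a0 + v0) (-v0) (by
      rw [add_neg_cancel_right, segment_symm]; exact hE0)
    set w : ℝ := max (max (max (1 / c1) (1 / c2)) (max C1 C2)) (max N1 N2) with hw
    have w1 : 1 / c1 ≤ w := (le_max_left _ _).trans ((le_max_left _ _).trans (le_max_left _ _))
    have w2 : 1 / c2 ≤ w := (le_max_right _ _).trans ((le_max_left _ _).trans (le_max_left _ _))
    have w3 : C1 ≤ w := (le_max_left _ _).trans ((le_max_right _ _).trans (le_max_left _ _))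
    have w4 : C2 ≤ w := (le_max_right _ _).trans ((le_max_right _ _).trans (le_max_left _ _))
    have w5 : (N1 : ℝ) ≤ w := (le_max_left _ _).trans (le_max_right _ _)
    have w6 : (N2 : ℝ) ≤ w := (le_max_right _ _).trans (le_max_right _ _)
    have w0 : 0 < w := hC1.trans_le w3
    have hcoe : ((w.toNNReal : ℝ≥0) : ℝ) = w := Real.coe_toNNReal _ w0.le
    have hfl : ∀ N : ℕ, (N : ℝ) ≤ w → N ≤ ⌊w.toNNReal⌋₊ := by
      intro N hN
      refine Nat.le_floor ?_
      rw [← NNReal.coe_le_coe, hcoe]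
      exact_mod_cast hN
    have hinv : ∀ c : ℝ, 0 < c → 1 / c ≤ w → ((w.toNNReal : ℝ≥0) : ℝ)⁻¹ ≤ c := by
      intro c hc hcw
      rw [hcoe]
      rw [inv_le_comm₀ w0 hc, ← one_div]
      exact hcw
    refine ⟨w.toNNReal, Real.toNNReal_pos.2 w0, fun a v hav => ?_⟩
    rcases segment_param (hE0.trans hav.symm) with ⟨rfl, rfl⟩ | ⟨rfl, rfl⟩
    · exact h1.mono (hinv c1 hc1 w1) (by rw [hcoe]; exact w3) (hfl N1 w5)
    · exact h2.mono (hinv c2 hc2 w2) (by rw [hcoe]; exact w4) (hfl N2 w6)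
  · exact ⟨1, one_pos, fun a v hav => absurd ⟨a, v, hav⟩ hE⟩

lemma seg_mem {a v : E3} {E : Set E3} (h : segment ℝ a (a + v) = E) {t : ℝ} (ht : t ∈ Icc (0:ℝ) 1) :
    a + t • v ∈ E := by
  rw [← h, segment_eq_image']
  exact ⟨t, ht, by simp⟩

lemma exists_NC {S E : Set E3} (h : ∃ L L', CC3 S L L') (hE : E ⊆ S)
    (hE' : Disjoint E (interior S)) : ∃ w, NC S E w := by
  have c := eC_spec h
  refine exists_num fun a v hav => ?_
  obtain ⟨c0, h0, C, hC, X, hX, key⟩ := Sqt_143.cell_tube c (a := a) (v := v)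
    (fun t ht => hE (seg_mem hav ht)) (fun t ht => Set.disjoint_left.1 hE' (seg_mem hav ht))
  exact ⟨c0, h0, C, hC, X.card, X, le_rfl, hX, key⟩

/-- a direction of the shape is allowed at the points of the relative interior -/
lemma rint_dir {S : Set E3} (hS : Convex ℝ S) {a v : E3} (ha : a ∈ S) (hav : a + v ∈ S) {y : E3}
    (hy : y ∈ rint S) : ∀ᶠ σ in 𝓝 (0:ℝ), y + σ • v ∈ S := by
  have key : ∀ {a v : E3}, a ∈ S → a + v ∈ S → ∃ l : ℝ, 0 < l ∧ y + l • v ∈ S := by
    intro a v ha hav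
    obtain ⟨s, hs, h1⟩ := hy.2 a ha
    refine ⟨s / (1 + s), by positivity, ?_⟩
    have h2 := hS h1 hav (a := 1 / (1 + s)) (b := s / (1 + s)) (by positivity) (by positivity)
      (by field_simp)
    have h3 : (1 + s) ≠ 0 := by positivity
    have e : (1 / (1 + s)) • (y + s • (y - a)) + (s / (1 + s)) • (a + v) =
        y + (s / (1 + s)) • v := by
      have e1 : (1 / (1 + s)) • (y + s • (y - a)) + (s / (1 + s)) • (a + v) =
        ((1 / (1 + s)) * (1 + s)) • y + ((s / (1 + s)) - (1 / (1 + s)) * s) • a +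
          (s / (1 + s)) • v := by module
      have e2 : 1 / (1 + s) * (1 + s) = 1 := by field_simp
      have e3 : s / (1 + s) - 1 / (1 + s) * s = 0 := by ring
      rw [e1, e2, e3, one_smul, zero_smul, add_zero]
    rwa [e] at h2
  obtain ⟨l1, hl1, m1⟩ := key ha hav
  obtain ⟨l2, hl2, m2⟩ := key (a := a + v) (v := -v) hav (by simpa using ha)
  have hI : Ioo (-l2) l1 ∈ 𝓝 (0:ℝ) := Ioo_mem_nhds (by linarith) hl1
  filter_upwards [hI] with σ hσ
  rcases le_total 0 σ with h | h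
  · have := hS hy.1 m1 (a := 1 - σ / l1) (b := σ / l1)
      (by rw [sub_nonneg, div_le_one hl1]; exact hσ.2.le) (by positivity) (by ring)
    have e : (1 - σ / l1) • y + (σ / l1) • (y + l1 • v) = y + σ • v := by
      have : (1 - σ / l1) • y + (σ / l1) • (y + l1 • v) = y + (σ / l1 * l1) • v := by module
      rw [this, div_mul_cancel₀ _ hl1.ne']
    rwa [e] at this
  · have := hS hy.1 m2 (a := 1 - (-σ) / l2) (b := (-σ) / l2)
      (by rw [sub_nonneg, div_le_one hl2]; linarith [hσ.1])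
      (div_nonneg (by linarith) hl2.le) (by ring)
    have e : (1 - (-σ) / l2) • y + ((-σ) / l2) • (y + l2 • -v) = y + σ • v := by
      have : (1 - (-σ) / l2) • y + ((-σ) / l2) • (y + l2 • -v) = y + (σ / l2 * l2) • v := by module
      rw [this, div_mul_cancel₀ _ hl2.ne']
    rwa [e] at this

lemma exists_NF {S E : Set E3} (h : ∃ Lf Lg, FC S Lf Lg) (hS : Convex ℝ S) (hE : E ⊆ S)
    (hE' : Disjoint E (rint S)) : ∃ w, NF S E w := by
  obtain ⟨e, ef, eg, hsph, hf, hg⟩ := eF_spec h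
  refine exists_num fun a v hav => ?_
  have hmem : ∀ x ∈ S, ‖e.g x‖ < 1 ↔ x ∈ rint S := by
    intro x hx
    have h1 : ‖e.g x‖ ≤ 1 := mem_closedBall_zero_iff.1 (e.mg hx)
    constructor
    · intro h2
      by_contra h3
      have h4 : x ∈ e.f '' (Ce_537.sph 2) := by rw [hsph]; exact ⟨hx, h3⟩
      obtain ⟨z, hz, hzx⟩ := h4
      have h5 : e.g x = z := by rw [← hzx, e.li z (sph_subset_cube hz)]
      have h6 : ‖z‖ = 1 := mem_sphere_zero_iff_norm.1 hz
      rw [h5, h6] at h2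
      exact lt_irrefl _ h2
    · intro h2
      refine lt_of_le_of_ne h1 fun h3 => ?_
      have h4 : e.f (e.g x) ∈ S \ rint S := by
        rw [← hsph]
        exact mem_image_of_mem _ (mem_sphere_zero_iff_norm.2 h3)
      rw [e.ri x hx] at h4
      exact h4.2 h2
  obtain ⟨c0, h0, C, hC, X, hX, key⟩ := rel_tube (n := 2) (K := S) (U := rint S) (e := e.g)
    (e' := e.f) e.pg e.pf hg hf e.mg e.ri (rint_sub S) hmem (a := a) (v := v)
    (fun x hx => rint_dir hS (hE (by simpa using seg_mem hav (t := 0) (by simp)))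
      (hE (by simpa using seg_mem hav (t := 1) (by simp))) hx)
    (fun t ht => hE (seg_mem hav ht)) (fun t ht => Set.disjoint_left.1 hE' (seg_mem hav ht))
  rw [ef, eg] at key
  exact ⟨c0, h0, C, hC, X.card, X, le_rfl, hX, key⟩

open Classical in
/-- the tube number of a solid shape -/
noncomputable def nuC (S E : Set E3) : ℝ≥0 := if h : ∃ w, NC S E w then h.choose else 0

open Classical in
/-- the tube number of a flat shape -/
noncomputable def nuF (S E : Set E3) : ℝ≥0 := if h : ∃ w, NF S E w then h.choose else 0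

lemma nuC_spec {S E : Set E3} (h : ∃ w, NC S E w) : NC S E (nuC S E) := by
  rw [nuC, dif_pos h]; exact h.choose_spec

lemma nuF_spec {S E : Set E3} (h : ∃ w, NF S E w) : NF S E (nuF S E) := by
  rw [nuF, dif_pos h]; exact h.choose_spec

lemma NC.mono {S E : Set E3} {w w' : ℝ≥0} (h : NC S E w) (hw : w ≤ w') : NC S E w' := by
  have h0 : (0:ℝ) < w := by exact_mod_cast h.1
  refine ⟨h.1.trans_le hw, fun a v hav => (h.2 a v hav).mono ?_ ?_ ?_⟩
  · exact inv_anti₀ h0 (by exact_mod_cast hw)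
  · exact_mod_cast hw
  · exact Nat.floor_mono hw

lemma NF.mono {S E : Set E3} {w w' : ℝ≥0} (h : NF S E w) (hw : w ≤ w') : NF S E w' := by
  have h0 : (0:ℝ) < w := by exact_mod_cast h.1
  refine ⟨h.1.trans_le hw, fun a v hav => (h.2 a v hav).mono ?_ ?_ ?_⟩
  · exact inv_anti₀ h0 (by exact_mod_cast hw)
  · exact_mod_cast hw
  · exact Nat.floor_mono hw

/-! ### real cells -/

lemma image_seg (B : E3 ≃ᵃ[ℝ] E3) (a v : E3) :
    B '' segment ℝ a (a + v) = segment ℝ (B a) (B a + B.linear v) := by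
  have e1 : B (a + v) = B a + B.linear v := by
    have := map_line B.toAffineMap a v 1
    simpa using this
  rw [← e1]
  exact image_segment ℝ B.toAffineMap a (a + v)

/-- from the shape to the real tube -/
lemma CT_real {n : ℕ} {U : Set E3} {e : E3 → Fin n → ℝ} {e' : (Fin n → ℝ) → E3} {a v : E3}
    {Λ R w : ℝ≥0} {B : E3 ≃ᵃ[ℝ] E3} (hB : Frm Λ R B) (hR : 0 < R) (hΛ : 0 < Λ) (hw : 0 < w)
    (hΛw : Λ ≤ w)
    (h : CT (B '' U) e e' (B a) (B.linear v) (w : ℝ)⁻¹ w ⌊w⌋₊) :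
    CT U (fun y => e (B y)) (fun z => B.symm (e' z)) a v (R / w^2) (w^2 / R) ⌊w⌋₊ := by
  have hR' : (0:ℝ) < R := by exact_mod_cast hR
  have hΛ' : (0:ℝ) < Λ := by exact_mod_cast hΛ
  have hw' : (0:ℝ) < w := by exact_mod_cast hw
  have hle : (Λ:ℝ) ≤ w := by exact_mod_cast hΛw
  refine (h.pull hB hR hΛ).mono ?_ ?_ le_rfl
  · rw [div_le_iff₀ (by positivity)]
    have e1 : (w:ℝ)⁻¹ * (R / Λ) * w^2 = R * (w / Λ) := by field_simp
    rw [e1]
    have : 1 ≤ (w:ℝ) / Λ := by rw [le_div_iff₀ hΛ']; linarith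
    nlinarith
  · have e1 : (w:ℝ) * (Λ / R) = (w * Λ) / R := by ring
    rw [e1]
    apply div_le_div_of_nonneg_right _ hR'.le
    nlinarith

/-- **cells with the chart of the shape**: the constants and the tube numbers come from the shape -/
theorem exists_cell_tube {H : Finset ((E3 →L[ℝ] ℝ) × ℝ)} (hc : IsCompact (P H))
    (hI : (I H).Nonempty) {Λ R : ℝ≥0} (hR : 0 < R) (hΛ : 0 < Λ) {B : E3 ≃ᵃ[ℝ] E3}
    (hB : Frm Λ R B) :
    ∃ C : Cell, C.P = P H ∧ C.U = I H ∧ C.R = R ∧ C.M = max 1 (Λ * mC (B '' P H)) ∧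
      ∀ a v : E3, segment ℝ a (a + v) ⊆ P H → Disjoint (segment ℝ a (a + v)) (I H) →
        ∀ w : ℝ≥0, Λ ≤ w → nuC (B '' P H) (B '' segment ℝ a (a + v)) ≤ w →
        CellT C a v (R / w^2) (w^2 / R) ⌊w⌋₊ := by
  obtain ⟨e0, e0', L, L', h⟩ := exists_cell_cht hc hI
  have h0 : CC3 (P H) L L' := ⟨e0, e0', by rw [interior_P_eq hI]; exact h⟩
  have hex : ∃ L L', CC3 (B '' P H) L L' := ⟨_, _, h0.map B hB.lip hB.lip'⟩
  have h1 := eC_spec hex
  set S := B '' P H with hS
  have hint : interior S = B '' I H := by rw [hS, ← image_interior_aff, interior_P_eq hI]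
  have hBS : ∀ {y}, y ∈ P H → B y ∈ S := fun hy => mem_image_of_mem _ hy
  have hS' : ∀ z ∈ S, B.symm z ∈ P H := by
    rintro _ ⟨y, hy, rfl⟩; simpa using hy
  have hcht : Cht (P H) (I H) (closedBall 0 1) (ball 0 1) (fun y => (eC S).1 (B y))
      (fun z => B.symm ((eC S).2 z)) (mC S * (Λ / R)) (Λ * R * mC S) :=
    { clK := isClosed_P H
      opU := isOpen_I H
      sub := I_sub_P H
      clK' := h1.clK'
      opU' := h1.opU'
      sub' := h1.sub'
      maps := fun y hy => h1.maps (hBS hy)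
      maps' := fun z hz => hS' _ (h1.maps' hz)
      inv := fun y hy => by
        show B.symm ((eC S).2 ((eC S).1 (B y))) = y
        rw [h1.inv _ (hBS hy), AffineEquiv.symm_apply_apply]
      inv' := fun z hz => by
        show (eC S).1 (B (B.symm ((eC S).2 z))) = z
        rw [AffineEquiv.apply_symm_apply, h1.inv' z hz]
      mem := fun y hy => by
        rw [h1.mem _ (hBS hy), hint]
        exact B.injective.mem_set_image
      pl := h1.pl.comp (f := fun y => B y) (plOn_affine B.toAffineMap _) fun y hy => hBS hy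
      pl' := pl_affine h1.pl' B.symm.toAffineMap (continuous_aff B.symm)
      lip := h1.lip.comp (hB.lip.lipschitzOnWith) fun y hy => hBS hy
      lip' := hB.lip'.comp_lipschitzOnWith h1.lip' }
  refine ⟨⟨P H, I H, max 1 (Λ * mC S), R, le_max_left _ _, hR, fun y => (eC S).1 (B y),
      fun z => B.symm ((eC S).2 z), { hcht with
        lip := hcht.lip.weaken ?_
        lip' := hcht.lip'.weaken ?_ }⟩, rfl, rfl, rfl, rfl, ?_⟩
  · rw [le_div_iff₀ hR, mul_assoc, div_mul_cancel₀ _ hR.ne', mul_comm]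
    exact le_max_right _ _
  · rw [mul_right_comm]
    exact mul_le_mul_left (le_max_right _ _) _
  · intro a v hseg hdis w hΛw hw
    have hE1 : B '' segment ℝ a (a + v) ⊆ S := image_mono hseg
    have hE2 : Disjoint (B '' segment ℝ a (a + v)) (interior S) := by
      rw [hint]; exact (Set.disjoint_image_iff B.injective).2 hdis
    have h2 := (nuC_spec (exists_NC hex hE1 hE2)).mono hw
    have h3 := h2.2 (B a) (B.linear v) (image_seg B a v).symm
    rw [hint] at h3
    exact CT_real hB hR hΛ h2.1 hΛw h3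

section tiling

variable {Om : Set E3} {ι : Type*} {T : Tiling Om ι}

/-- the real chart of a 2-cell: constants and tube numbers from the shape -/
theorem exists_flat {x : E3} (hx : x ∈ Om) (hd : T.dim x = 2) {Λ R : ℝ≥0} (hR : 0 < R)
    (hΛ : 0 < Λ) {B : E3 ≃ᵃ[ℝ] E3} (hB : Frm Λ R B) :
    ∃ e : PLEquiv (cube 2) (T.cc x), e.f '' (Ce_537.sph 2) = T.cc x \ T.oc x ∧
      LipschitzOnWith (Λ * R * mF (B '' T.cc x)) e.f (cube 2) ∧
      LipschitzOnWith (mF (B '' T.cc x) * (Λ / R)) e.g (T.cc x) ∧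
      ∀ a v : E3, segment ℝ a (a + v) ⊆ T.cc x → Disjoint (segment ℝ a (a + v)) (T.oc x) →
        ∀ w : ℝ≥0, Λ ≤ w → nuF (B '' T.cc x) (B '' segment ℝ a (a + v)) ≤ w →
        CT (T.oc x) e.g e.f a v (R / w^2) (w^2 / R) ⌊w⌋₊ := by
  obtain ⟨Lf, Lg, h0⟩ := exists_FC hx hd
  have hex : ∃ Lf Lg, FC (B '' T.cc x) Lf Lg := ⟨_, _, h0.map B hB.lip hB.lip'⟩
  have hconv : Convex ℝ (B '' T.cc x) := (T.convex_cc x).affine_image B.toAffineMap
  obtain ⟨e, ef, eg, hsph, hf, hg⟩ := eF_spec hex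
  have hBS : ∀ {y}, y ∈ T.cc x → B y ∈ B '' T.cc x := fun hy => mem_image_of_mem _ hy
  have hS' : ∀ z ∈ B '' T.cc x, B.symm z ∈ T.cc x := by
    rintro _ ⟨y, hy, rfl⟩; simpa using hy
  refine ⟨⟨fun z => B.symm (e.f z), fun y => e.g (B y), ?_, ?_, ?_, ?_, ?_, ?_⟩, ?_, ?_, ?_, ?_⟩
  · exact pl_affine e.pf B.symm.toAffineMap (continuous_aff B.symm)
  · exact e.pg.comp (f := fun y => B y) (plOn_affine B.toAffineMap _) fun y hy => hBS hy
  · exact fun v hv => hS' _ (e.mf hv)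
  · exact fun y hy => e.mg (hBS hy)
  · intro v hv
    show e.g (B (B.symm (e.f v))) = v
    rw [AffineEquiv.apply_symm_apply, e.li v hv]
  · intro y hy
    show B.symm (e.f (e.g (B y))) = y
    rw [e.ri _ (hBS hy), AffineEquiv.symm_apply_apply]
  · show (fun v => B.symm (e.f v)) '' _ = _
    have : (fun v => B.symm (e.f v)) '' (Ce_537.sph 2) = B.symm '' (e.f '' (Ce_537.sph 2)) := by
      rw [← image_comp]; rfl
    rw [this, hsph, image_sdiff B.symm.injective, image_rint, symm_image_image, oc_eq_rint hx]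
  · exact hB.lip'.comp_lipschitzOnWith hf
  · exact hg.comp (hB.lip.lipschitzOnWith) fun y hy => hBS hy
  · intro a v hseg hdis w hΛw hw
    have hE1 : B '' segment ℝ a (a + v) ⊆ B '' T.cc x := image_mono hseg
    have hE2 : Disjoint (B '' segment ℝ a (a + v)) (rint (B '' T.cc x)) := by
      rw [← image_rint, ← oc_eq_rint hx]; exact (Set.disjoint_image_iff B.injective).2 hdis
    have h2 := (nuF_spec (exists_NF hex hconv hE1 hE2)).mono hw
    have h3 := h2.2 (B a) (B.linear v) (image_seg B a v).symm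
    rw [← image_rint, ← oc_eq_rint hx, ← ef, ← eg] at h3
    exact CT_real hB hR hΛ h2.1 hΛw h3

end tiling

end Crest.Agent.R096.Sq_55
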