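import Crest.Agent.R096.Sq26_55

/-!
# R096 (row 96), SOBSQ, part 27 (helper55): pairs (closed cell, closed 1-cell) of a tiling; the gap
-/

set_option autoImplicit false
set_option linter.unusedSectionVars false

open Set Metric Filter Topology

namespace Crest.Agent.R096.Sq_55

open Crest.Agent.R096.Ce_537 Crest.Agent.R096.Bd_416 Crest.Agent.R96.Hole_348
open Crest.Agent.R096.Sqt_143 (Tv map_line aff_sub fo OnC OnF CellT FaceT)
open Crest.Agent.R096.Msh_715 (P I Tiling I_sub_P isOpen_I isClosed_P convex_P mem_I_of_move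
  disjoint_P_I isBall_P_top mem_I_small)
open scoped NNReal

/-! ### a polyhedron and a segment which touch only in an end point -/

/-- near or not: one parametrisation -/
def PN1 (S : Set E3) (a v : E3) (w : ℝ) : Prop :=
  ∀ x ∈ S, ∀ t ∈ Icc (0:ℝ) 1, ∀ u ≤ w⁻¹, ‖x - (a + t • v)‖ ≤ u →
    (t ≤ w * u ∧ a ∈ S) ∨ (1 - t ≤ w * u ∧ a + v ∈ S)

lemma PN1.mono {S : Set E3} {a v : E3} {w w' : ℝ} (h : PN1 S a v w) (h0 : 0 < w) (hw : w ≤ w') :
    PN1 S a v w' := by
  intro x hx t ht u hu hxu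
  have hu0 : 0 ≤ u := (norm_nonneg _).trans hxu
  have h1 : w * u ≤ w' * u := mul_le_mul_of_nonneg_right hw hu0
  rcases h x hx t ht u (hu.trans (inv_anti₀ h0 hw)) hxu with h2 | h2
  · exact Or.inl ⟨h2.1.trans h1, h2.2⟩
  · exact Or.inr ⟨h2.1.trans h1, h2.2⟩

lemma PN1.symm {S : Set E3} {a v : E3} {w : ℝ} (h : PN1 S a v w) : PN1 S (a + v) (-v) w := by
  intro x hx t ht u hu hxu
  have e : a + v + t • -v = a + (1 - t) • v := by module
  rw [e] at hxu
  rcases h x hx (1 - t) ⟨by linarith [ht.2], by linarith [ht.1]⟩ u hu hxu with h2 | h2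
  · refine Or.inr ⟨h2.1, ?_⟩
    rw [add_neg_cancel_right]; exact h2.2
  · refine Or.inl ⟨by linarith [h2.1], h2.2⟩

/-- disjoint -/
lemma exists_PN1_disj {S : Set E3} (hS : IsClosed S) {a v : E3}
    (hd : Disjoint (segment ℝ a (a + v)) S) : ∃ w : ℝ, 0 < w ∧ PN1 S a v w := by
  have hc : IsCompact (segment ℝ a (a + v)) := by
    rw [segment_eq_image']
    exact isCompact_Icc.image (by fun_prop)
  obtain ⟨δ, hδ, h⟩ := hd.exists_thickenings hc hS
  refine ⟨2 / δ, by positivity, fun x hx t ht u hu hxu => ?_⟩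
  exfalso
  have h1 : a + t • v ∈ segment ℝ a (a + v) := seg_mem rfl ht
  have h2 : x ∈ thickening δ (segment ℝ a (a + v)) := by
    rw [mem_thickening_iff]
    refine ⟨_, h1, ?_⟩
    rw [dist_eq_norm]
    refine lt_of_le_of_lt (hxu.trans hu) ?_
    rw [inv_div]; linarith
  exact Set.disjoint_left.1 h h2 (self_subset_thickening hδ S hx)

/-- a polyhedron which meets the segment only in `a` -/
lemma exists_PN1_end {H : Finset ((E3 →L[ℝ] ℝ) × ℝ)} {a v : E3} (ha : a ∈ P H)
    (h1 : ∀ t ∈ Icc (0:ℝ) 1, a + t • v ∈ P H → t = 0) : ∃ w : ℝ, 0 < w ∧ PN1 (P H) a v w := by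
  obtain ⟨h, hh, ha1, hv1⟩ : ∃ h ∈ H, h.1 a = h.2 ∧ 0 < h.1 v := by
    by_contra hcon
    push Not at hcon
    have h2 : ∀ h ∈ H, ∀ᶠ t in 𝓝[>] (0:ℝ), h.1 (a + t • v) ≤ h.2 := by
      intro h hh
      rcases (ha h hh).lt_or_eq with e | e
      · have : Tendsto (fun t : ℝ => h.1 (a + t • v)) (𝓝 0) (𝓝 (h.1 (a + (0:ℝ) • v))) := by
          apply Continuous.tendsto
          fun_prop
        rw [zero_smul, add_zero] at this
        exact ((this.eventually (gt_mem_nhds e)).filter_mono nhdsWithin_le_nhds).mono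
          fun t ht => ht.le
      · filter_upwards [self_mem_nhdsWithin] with t ht
        have ht : (0:ℝ) < t := ht
        rw [map_add, map_smul, smul_eq_mul, e]
        nlinarith [hcon h hh e]
    have h3 := (Finset.eventually_all (l := 𝓝[>] (0:ℝ)) H
      (p := fun h t => h.1 (a + t • v) ≤ h.2)).2 h2
    have h4 : ∀ᶠ t in 𝓝[>] (0:ℝ), t < 1 :=
      (gt_mem_nhds (zero_lt_one' ℝ)).filter_mono nhdsWithin_le_nhds
    obtain ⟨t, ⟨h5, h6⟩, h7⟩ := ((h3.and h4).and self_mem_nhdsWithin).exists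
    have h7 : (0:ℝ) < t := h7
    exact h7.ne' (h1 t ⟨h7.le, h6.le⟩ h5)
  have hn : 0 < ‖h.1‖ := by
    rw [norm_pos_iff]
    intro h0
    rw [h0] at hv1
    simp at hv1
  refine ⟨‖h.1‖ / h.1 v, by positivity, fun x hx t ht u _ hxu => Or.inl ⟨?_, ha⟩⟩
  have h2 : t * h.1 v ≤ ‖h.1‖ * u := by
    have e1 : h.1 (a + t • v) - h.1 x = h.1 (a + t • v - x) := by rw [map_sub]
    have e2 : h.1 (a + t • v) = h.2 + t * h.1 v := by rw [map_add, map_smul, smul_eq_mul, ha1]
    have h3 := hx h hh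
    have h4 := (le_abs_self _).trans (h.1.le_opNorm (a + t • v - x))
    rw [norm_sub_rev] at h4
    have h5 := mul_le_mul_of_nonneg_left hxu hn.le
    linarith
  rw [div_mul_eq_mul_div, le_div_iff₀ hv1]
  exact h2

/-- number of the pair -/
def PN (S E : Set E3) (w : ℝ≥0) : Prop := 0 < w ∧ ∀ a v, segment ℝ a (a + v) = E →
  E ⊆ S ∨ PN1 S a v w

/-- distance of disjoint compact sets -/
def GN (S S' : Set E3) (w : ℝ≥0) : Prop := 0 < w ∧ (Disjoint S S' → ∀ x ∈ S, ∀ y ∈ S',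
  (w : ℝ)⁻¹ < ‖x - y‖)

lemma PN.mono {S E : Set E3} {w w' : ℝ≥0} (h : PN S E w) (hw : w ≤ w') : PN S E w' :=
  ⟨h.1.trans_le hw, fun a v hav => (h.2 a v hav).imp id fun h1 =>
    h1.mono (by exact_mod_cast h.1) (by exact_mod_cast hw)⟩

lemma GN.mono {S E : Set E3} {w w' : ℝ≥0} (h : GN S E w) (hw : w ≤ w') : GN S E w' :=
  ⟨h.1.trans_le hw, fun hd x hx y hy =>
    (inv_anti₀ (by exact_mod_cast h.1) (by exact_mod_cast hw)).trans_lt (h.2 hd x hx y hy)⟩

lemma PN.map {S E : Set E3} {w L : ℝ≥0} (h : PN S E w) {B : E3 ≃ᵃ[ℝ] E3} (hL : 0 < L)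
    (hB : LipschitzWith L B.symm) : PN (B '' S) (B '' E) (w * L) := by
  refine ⟨mul_pos h.1 hL, fun a' v' hav => ?_⟩
  have hw : (0:ℝ) < w := by exact_mod_cast h.1
  have hL' : (0:ℝ) < L := by exact_mod_cast hL
  obtain ⟨a, rfl⟩ := B.surjective a'
  obtain ⟨v, rfl⟩ := B.linear.surjective v'
  have hE : segment ℝ a (a + v) = E := by
    rw [← image_seg] at hav
    exact B.injective.image_injective hav
  refine (h.2 a v hE).imp (fun h1 => image_mono h1) fun h1 => ?_
  rintro _ ⟨x, hx, rfl⟩ t ht u hu hxu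
  have e1 : B a + t • B.linear v = B (a + t • v) := (map_line B.toAffineMap a v t).symm
  have e2 : B a + B.linear v = B (a + v) := by
    have := map_line B.toAffineMap a v 1
    simp only [one_smul] at this
    exact this.symm
  rw [e1] at hxu
  have h2 : ‖x - (a + t • v)‖ ≤ L * u := by
    have := hB.dist_le_mul (B x) (B (a + t • v))
    rw [AffineEquiv.symm_apply_apply, AffineEquiv.symm_apply_apply, dist_eq_norm,
      dist_eq_norm] at this
    exact this.trans (mul_le_mul_of_nonneg_left hxu hL'.le)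
  have h3 : (L:ℝ) * u ≤ (w:ℝ)⁻¹ := by
    push_cast at hu
    calc (L:ℝ) * u ≤ L * (w * L : ℝ)⁻¹ := mul_le_mul_of_nonneg_left hu hL'.le
      _ = (w:ℝ)⁻¹ := by field_simp
  rw [e2]
  push_cast
  rcases h1 x hx t ht _ h3 h2 with h4 | h4
  · exact Or.inl ⟨by linarith [h4.1], mem_image_of_mem _ h4.2⟩
  · exact Or.inr ⟨by linarith [h4.1], mem_image_of_mem _ h4.2⟩

lemma GN.map {S E : Set E3} {w L : ℝ≥0} (h : GN S E w) {B : E3 ≃ᵃ[ℝ] E3} (hL : 0 < L)
    (hB : LipschitzWith L B.symm) : GN (B '' S) (B '' E) (w * L) := by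
  have hw : (0:ℝ) < w := by exact_mod_cast h.1
  have hL' : (0:ℝ) < L := by exact_mod_cast hL
  refine ⟨mul_pos h.1 hL, fun hd => ?_⟩
  rintro _ ⟨x, hx, rfl⟩ _ ⟨y, hy, rfl⟩
  have h1 := h.2 ((Set.disjoint_image_iff B.injective).1 hd) x hx y hy
  have h2 := hB.dist_le_mul (B x) (B y)
  rw [AffineEquiv.symm_apply_apply, AffineEquiv.symm_apply_apply, dist_eq_norm,
    dist_eq_norm] at h2
  push_cast
  rw [mul_inv, ← div_eq_mul_inv, div_lt_iff₀ hL']
  linarith

lemma exists_GN {S S' : Set E3} (hS : IsCompact S) (hS' : IsCompact S') : ∃ w, GN S S' w := by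
  by_cases hd : Disjoint S S'
  · obtain ⟨δ, hδ, h⟩ := hd.exists_thickenings hS hS'.isClosed
    refine ⟨Real.toNNReal (2 / δ), Real.toNNReal_pos.2 (by positivity), fun _ x hx y hy => ?_⟩
    rw [Real.coe_toNNReal _ (by positivity), inv_div]
    by_contra hlt
    push Not at hlt
    have h2 : y ∈ thickening δ S := by
      rw [mem_thickening_iff]
      refine ⟨x, hx, ?_⟩
      rw [dist_comm, dist_eq_norm]; linarith
    exact Set.disjoint_left.1 h h2 (self_subset_thickening hδ S' hy)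
  · exact ⟨1, one_pos, fun h => absurd h hd⟩

open Classical in
/-- the pair number -/
noncomputable def nuP (S E : Set E3) : ℝ≥0 := if h : ∃ w, PN S E w then h.choose else 0

open Classical in
/-- the gap number -/
noncomputable def nuG (S E : Set E3) : ℝ≥0 := if h : ∃ w, GN S E w then h.choose else 0

lemma nuP_spec {S E : Set E3} (h : ∃ w, PN S E w) : PN S E (nuP S E) := by
  rw [nuP, dif_pos h]; exact h.choose_spec

lemma nuG_spec {S E : Set E3} (h : ∃ w, GN S E w) : GN S E (nuG S E) := by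
  rw [nuG, dif_pos h]; exact h.choose_spec

/-- the number of a pair of shapes -/
noncomputable def muP (S E : Set E3) : ℝ≥0 :=
  max (max (nuC S E) (nuF S E)) (max (nuP S E) (nuG S E))

/-- finite lists of shapes -/
lemma exists_muP_le {𝓕 : Set (Set E3)} (h : 𝓕.Finite) : ∃ v₀ : ℝ≥0, ∀ v, v₀ ≤ v →
    ∀ S ∈ 𝓕, ∀ E ∈ 𝓕, muP S E ≤ v := by
  obtain ⟨b, hb⟩ := ((h.prod h).image fun q : Set E3 × Set E3 => muP q.1 q.2).bddAbove
  exact ⟨b, fun v hv S hS E hE => (hb ⟨(S, E), ⟨hS, hE⟩, rfl⟩).trans hv⟩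

section tiling

variable {Om : Set E3} {ι : Type*} {T : Tiling Om ι}

lemma cc_poly {y : E3} (hy : y ∈ Om) : ∃ H : Finset ((E3 →L[ℝ] ℝ) × ℝ), T.cc y = P H := by
  classical
  refine ⟨T.Hx hy ∪ ((T.Hx hy).filter fun h => h.1 y = h.2).image fun h => (-h.1, -h.2), ?_⟩
  rw [← T.fc_Hx hy]
  ext z
  constructor
  · intro h g hg
    rcases Finset.mem_union.1 hg with hg | hg
    · exact (h g hg).1
    · obtain ⟨g', hg', rfl⟩ := Finset.mem_image.1 hg
      obtain ⟨h1, h2⟩ := Finset.mem_filter.1 hg'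
      show -(g'.1 z) ≤ -g'.2
      rw [(h g' h1).2 h2]
  · intro h g hg
    refine ⟨h g (Finset.mem_union_left _ hg), fun e => ?_⟩
    have h1 := h (-g.1, -g.2) (Finset.mem_union_right _ (Finset.mem_image_of_mem _
      (Finset.mem_filter.2 ⟨hg, e⟩)))
    have h2 : -(g.1 z) ≤ -g.2 := h1
    exact le_antisymm (h g (Finset.mem_union_left _ hg)) (by linarith)

/-- the open cell of an edge -/
lemma edge_end {x a v : E3} (hx : x ∈ Om) (hd : T.dim x = 1) (hs : T.cc x = segment ℝ a (a + v)) :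
    v ≠ 0 ∧ ∀ y ∈ T.cc x, y ∉ T.oc x → y = a ∨ y = a + v := by
  obtain ⟨b, b', hbb, h1, h2, -⟩ := T.edge_eq hx hd
  have e : b' = b + (b' - b) := by abel
  rw [e] at h1 h2
  have hne : b' - b ≠ 0 := sub_ne_zero.2 hbb.symm
  have key : ∀ y ∈ T.cc x, y ∉ T.oc x → y = b ∨ y = b + (b' - b) := by
    intro y hy hyo
    rw [h1] at hy
    rw [h2] at hyo
    by_contra hcon
    push Not at hcon
    exact hyo (mem_openSegment_of_ne_left_right hcon.1.symm hcon.2.symm hy)
  rcases segment_param (hs.symm.trans h1) with ⟨rfl, e2⟩ | ⟨e1, e2⟩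
  · rw [← e2]; exact ⟨hne, key⟩
  · have e3 : b + (b' - b) = a := by
      calc b + (b' - b) = (a + v) + -v := by rw [← e2, ← e1]
        _ = a := by abel
    refine ⟨fun h => hne (by rw [e2, h, neg_zero]), fun y hy hyo => ?_⟩
    rcases key y hy hyo with h | h
    · exact Or.inr (h.trans e1)
    · exact Or.inl (h.trans e3)

lemma edge_cases {x a v : E3} (hx : x ∈ Om) (hd : T.dim x = 1)
    (hs : T.cc x = segment ℝ a (a + v)) (y : E3) :
    T.cc x ⊆ T.cc y ∨ Disjoint (T.cc x) (T.cc y) ∨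
      (a ∈ T.cc y ∧ ∀ z ∈ T.cc x, z ∈ T.cc y → z = a) ∨
      (a + v ∈ T.cc y ∧ ∀ z ∈ T.cc x, z ∈ T.cc y → z = a + v) := by
  by_cases h0 : T.cc x ⊆ T.cc y
  · exact Or.inl h0
  right
  obtain ⟨hv, he⟩ := edge_end hx hd hs
  have h1 : ∀ z ∈ T.cc x, z ∈ T.cc y → z = a ∨ z = a + v := by
    intro z hz hzy
    refine he z hz fun hzo => h0 ?_
    rw [← T.cc_eq_of_mem_oc hx hzo]
    exact T.cc_sub_of_mem hzy
  by_cases ha : a ∈ T.cc y
  · by_cases hav : a + v ∈ T.cc y
    · exfalso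
      apply h0
      rw [hs]
      exact (T.convex_cc y).segment_subset ha hav
    · right; left
      refine ⟨ha, fun z hz hzy => ?_⟩
      rcases h1 z hz hzy with h | h
      · exact h
      · exact absurd (h ▸ hzy) hav
  · by_cases hav : a + v ∈ T.cc y
    · right; right
      refine ⟨hav, fun z hz hzy => ?_⟩
      rcases h1 z hz hzy with h | h
      · exact absurd (h ▸ hzy) ha
      · exact h
    · left
      rw [Set.disjoint_left]
      intro z hz hzy
      rcases h1 z hz hzy with h | h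
      · exact ha (h ▸ hzy)
      · exact hav (h ▸ hzy)

/-- **pair numbers exist** -/
lemma exists_PN {x y : E3} (hx : x ∈ Om) (hd : T.dim x = 1) (hy : y ∈ Om) :
    ∃ w, PN (T.cc y) (T.cc x) w := by
  obtain ⟨b, b', hbb, h1, -⟩ := T.edge_eq hx hd
  have e : b' = b + (b' - b) := by abel
  rw [e] at h1
  set v0 := b' - b with hv0
  have hv : v0 ≠ 0 := sub_ne_zero.2 hbb.symm
  obtain ⟨H, hH⟩ := cc_poly (T := T) hy
  have key : T.cc x ⊆ T.cc y ∨ ∃ w : ℝ, 0 < w ∧ PN1 (T.cc y) b v0 w := by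
    rcases edge_cases hx hd h1 y with h | h | h | h
    · exact Or.inl h
    · right
      exact exists_PN1_disj (T.isClosed_cc y) (by rw [← h1]; exact h)
    · right
      rw [hH] at h ⊢
      refine exists_PN1_end h.1 fun t ht hmem => ?_
      have h3 := h.2 _ (by rw [h1]; exact seg_mem rfl ht) hmem
      have h4 : t • v0 = 0 := by
        have : b + t • v0 = b + 0 := by rw [h3, add_zero]
        exact add_left_cancel this
      exact (smul_eq_zero.1 h4).resolve_right hv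
    · right
      rw [hH] at h ⊢
      obtain ⟨w, hw, h3⟩ := exists_PN1_end (H := H) (a := b + v0) (v := -v0) h.1
        fun t ht hmem => by
          have e1 : b + v0 + t • -v0 = b + (1 - t) • v0 := by module
          rw [e1] at hmem
          have h3 := h.2 _ (by rw [h1]; exact seg_mem rfl ⟨by linarith [ht.2], by linarith [ht.1]⟩)
            hmem
          have h4 : t • v0 = 0 := by
            have h5 : b + (1 - t) • v0 = b + v0 - t • v0 := by module
            rw [h5] at h3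
            have : b + v0 - t • v0 = b + v0 - 0 := by rw [h3, sub_zero]
            exact sub_right_injective this
          exact (smul_eq_zero.1 h4).resolve_right hv
      refine ⟨w, hw, ?_⟩
      have := h3.symm
      rwa [add_neg_cancel_right, neg_neg] at this
  rcases key with h | ⟨w, hw, h⟩
  · exact ⟨1, one_pos, fun a v hav => Or.inl h⟩
  · refine ⟨w.toNNReal, Real.toNNReal_pos.2 hw, fun a v hav => Or.inr ?_⟩
    rw [Real.coe_toNNReal _ hw.le]
    rcases segment_param (h1.symm.trans hav.symm) with ⟨rfl, rfl⟩ | ⟨rfl, rfl⟩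
    · exact h
    · exact h.symm

/-- `y` is in a tile which meets the tile `i` -/
def StarT (T : Tiling Om ι) (i : ι) (y : E3) : Prop :=
  ∃ l, y ∈ P (T.H l) ∧ (P (T.H l) ∩ P (T.H i)).Nonempty

/-- **the gap lemma**: all tiles at a point near the tile `i` meet the tile `i` -/
theorem gap_tile {i : ι} {g : ℝ} (hg : ∀ y, StarT T i y → Disjoint (T.cc y) (P (T.H i)) →
    ∀ z ∈ T.cc y, ∀ p ∈ P (T.H i), g < ‖z - p‖) {x p : E3} (hp : p ∈ P (T.H i))
    (hxp : ‖x - p‖ ≤ g) {k : ι} (hk : x ∈ P (T.H k)) : (P (T.H k) ∩ P (T.H i)).Nonempty := by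
  have hOi : P (T.H i) ⊆ Om := T.sub i
  have hfin : {l | (P (T.H l) ∩ P (T.H i)).Nonempty}.Finite := T.finite_tiles (T.cpt i) hOi
  set N : Set E3 := ⋃ l ∈ {l | (P (T.H l) ∩ P (T.H i)).Nonempty}, P (T.H l) with hN
  have hNc : IsClosed N := hfin.isClosed_biUnion fun l _ => isClosed_P _
  have hNO : N ⊆ Om := by
    intro z hz
    simp only [hN, Set.mem_iUnion] at hz
    obtain ⟨l, _, hz⟩ := hz
    exact T.sub l hz
  -- points of `N` near the tile are interior points of `N`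
  have key : ∀ z ∈ N, ‖z - p‖ ≤ g → (∀ l, z ∈ P (T.H l) → (P (T.H l) ∩ P (T.H i)).Nonempty) := by
    intro z hz hzp l hl
    by_contra hne
    simp only [hN, Set.mem_iUnion] at hz
    obtain ⟨q, hq, hzq⟩ := hz
    have h1 : T.cc z ⊆ P (T.H l) := T.cc_sub_tile hl
    have h2 : Disjoint (T.cc z) (P (T.H i)) := by
      rw [Set.disjoint_left]
      intro y hy hyi
      exact hne ⟨y, h1 hy, hyi⟩
    have h3 := hg z ⟨q, hzq, hq⟩ h2 z (T.self_mem_cc z) p hp
    linarith
  have hnb : ∀ z ∈ N, ‖z - p‖ ≤ g → N ∈ 𝓝 z := by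
    intro z hz hzp
    obtain ⟨r, hr, hrO, hr2⟩ := T.exists_ball (hNO hz)
    refine mem_of_superset (ball_mem_nhds z hr) fun y hy => ?_
    obtain ⟨l, hl⟩ := T.cov y (hrO hy)
    have h1 : l ∈ T.at_ z := hr2 y hy hl
    simp only [hN, Set.mem_iUnion]
    exact ⟨l, key z hz hzp l h1, hl⟩
  -- the segment
  set γ : ℝ → E3 := fun s => p + s • (x - p) with hγ
  have hγc : Continuous γ := by fun_prop
  have hsub : Icc (0:ℝ) 1 ⊆ γ ⁻¹' N := by
    refine IsClosed.Icc_subset_of_forall_mem_nhdsWithin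
      ((hNc.preimage hγc).inter isClosed_Icc) ?_ ?_
    · show γ 0 ∈ N
      simp only [hγ, zero_smul, add_zero, hN, Set.mem_iUnion]
      exact ⟨i, ⟨p, hp, hp⟩, hp⟩
    · rintro s ⟨hs, hs1⟩
      have h1 : ‖γ s - p‖ ≤ g := by
        simp only [hγ, add_sub_cancel_left, norm_smul, Real.norm_eq_abs, abs_of_nonneg hs1.1]
        have := norm_nonneg (x - p)
        nlinarith [hs1.2]
      exact mem_nhdsWithin_of_mem_nhds (hγc.continuousAt.preimage_mem_nhds (hnb _ hs h1))
  have hx : x ∈ N := by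
    have := hsub (show (1:ℝ) ∈ Icc (0:ℝ) 1 by simp)
    simpa [hγ] using this
  exact key x hx hxp k hk

end tiling

end Crest.Agent.R096.Sq_55
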