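import Crest.Agent.R096.Sq27_55

/-!
# R096 (row 96), SOBSQ, part 28 (helper55): **the system of a tiling with uniform edges**
-/

set_option autoImplicit false
set_option linter.unusedSectionVars false

open Set Metric Filter Topology

namespace Crest.Agent.R096.Sq_55

open Crest.Agent.R096.Ce_537 Crest.Agent.R096.Bd_416 Crest.Agent.R96.Hole_348
open Crest.Agent.R096.Sqt_143 (Tv map_line aff_sub fo OnC OnF CellT FaceT Edge)
open Crest.Agent.R096.Msh_715 (P I Tiling I_sub_P isOpen_I isClosed_P convex_P mem_I_of_move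
  disjoint_P_I isBall_P_top mem_I_small)
open scoped NNReal

section tiling

variable {Om : Set E3} {ι : Type*} {T : Tiling Om ι}

/-- the tile `i` has size `R` and, in the frame `B`, all cells of the tile and all pairs (cell of
the star, cell of the tile) have numbers `≤ v` -/
structure Shp2 (T : Tiling Om ι) (i : ι) (B : E3 ≃ᵃ[ℝ] E3) (R v : ℝ≥0) : Prop
    extends Shp T i B R v where
  st : ∀ y z, StarT T i y → z ∈ P (T.H i) → muP (B '' T.cc y) (B '' T.cc z) ≤ v

lemma starT_self {i : ι} {y : E3} (hy : y ∈ P (T.H i)) : StarT T i y := ⟨i, hy, y, hy, hy⟩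

lemma StarT.om {i : ι} {y : E3} (h : StarT T i y) : y ∈ Om := by
  obtain ⟨l, hl, -⟩ := h; exact T.sub l hl

/-- every tile is a shape -/
lemma exists_shp2 (T : Tiling Om ι) (i : ι) : ∃ v, Shp2 T i (AffineEquiv.refl ℝ E3) 1 v := by
  obtain ⟨v, hv⟩ := exists_shp T i
  have hfin : {l | (P (T.H l) ∩ P (T.H i)).Nonempty}.Finite := T.finite_tiles (T.cpt i) (T.sub i)
  have hc : IsCompact (⋃ l ∈ {l | (P (T.H l) ∩ P (T.H i)).Nonempty}, P (T.H l)) :=
    hfin.isCompact_biUnion fun l _ => T.cpt l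
  have hO : (⋃ l ∈ {l | (P (T.H l) ∩ P (T.H i)).Nonempty}, P (T.H l)) ⊆ Om :=
    Set.iUnion₂_subset fun l _ => T.sub l
  have h1 := T.finite_cells hc hO
  obtain ⟨v₀, h2⟩ := exists_muP_le (h1.image fun K => AffineEquiv.refl ℝ E3 '' K)
  refine ⟨max v v₀, { hv.mono (le_max_left _ _) with st := fun y z hy hz => ?_ }⟩
  refine h2 _ (le_max_right _ _) _ (mem_image_of_mem _ ?_) _ (mem_image_of_mem _ ?_)
  · obtain ⟨l, hl, hli⟩ := hy
    exact ⟨⟨y, T.sub l hl, rfl⟩, y, T.self_mem_cc y, Set.mem_biUnion hli hl⟩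
  · refine ⟨⟨z, T.sub i hz, rfl⟩, z, T.self_mem_cc z, Set.mem_biUnion (x := i) ?_ hz⟩
    exact ⟨z, hz, hz⟩

namespace Shp2

variable {i : ι} {B : E3 ≃ᵃ[ℝ] E3} {R v : ℝ≥0}

lemma nuC_le (h : Shp2 T i B R v) {x : E3} (hx : x ∈ P (T.H i)) :
    nuC (B '' P (T.H i)) (B '' T.cc x) ≤ v := by
  obtain ⟨y, hy⟩ := T.ne i
  rw [← T.cc_eq_tile hy]
  exact ((le_max_left _ _).trans (le_max_left _ _)).trans
    (h.st y x (starT_self (I_sub_P _ hy)) hx)

lemma nuF_le (h : Shp2 T i B R v) {y x : E3} (hy : y ∈ P (T.H i)) (hx : x ∈ P (T.H i)) :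
    nuF (B '' T.cc y) (B '' T.cc x) ≤ v :=
  ((le_max_right _ _).trans (le_max_left _ _)).trans (h.st y x (starT_self hy) hx)

lemma coe_pos (h : Shp2 T i B R v) : (0:ℝ) < R ∧ (0:ℝ) < v :=
  ⟨by exact_mod_cast h.pos, by exact_mod_cast h.v_pos⟩

/-- real pair statement -/
lemma pn (h : Shp2 T i B R v) {x y : E3} (hx : x ∈ P (T.H i)) (hd : T.dim x = 1)
    (hy : StarT T i y) {a w : E3} (hs : T.cc x = segment ℝ a (a + w)) :
    T.cc x ⊆ T.cc y ∨ PN1 (T.cc y) a w (v^2 / R : ℝ≥0) := by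
  have hxO : x ∈ Om := T.sub i hx
  have hv := h.v_pos
  have hR := h.pos
  obtain ⟨w0, h0⟩ := exists_PN hxO hd hy.om
  have h1 : ∃ w, PN (B '' T.cc y) (B '' T.cc x) w :=
    ⟨_, h0.map (L := v * R) (by positivity) h.frm.lip'⟩
  have h2 := (nuP_spec h1).mono (((le_max_left _ _).trans (le_max_right _ _)).trans
    (h.st y x hy hx))
  have h3 := h2.map (B := B.symm) (L := v / R) (by positivity) h.frm.lip
  rw [symm_image_image, symm_image_image] at h3
  have e : v * (v / R) = v^2 / R := by ring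
  rw [e] at h3
  exact h3.2 a w hs.symm

/-- real gap statement -/
lemma gap (h : Shp2 T i B R v) (y : E3) (hy : StarT T i y)
    (hd : Disjoint (T.cc y) (P (T.H i))) (z : E3) (hz : z ∈ T.cc y) (p : E3)
    (hp : p ∈ P (T.H i)) : (R / v^2 : ℝ) < ‖z - p‖ := by
  obtain ⟨x, hx⟩ := T.ne i
  have hv := h.v_pos
  have hR := h.pos
  rw [← T.cc_eq_tile hx] at hd hp
  obtain ⟨w0, h0⟩ := exists_GN (T.isCompact_cc hy.om) (T.isCompact_cc (T.sub i (I_sub_P _ hx)))
  have h1 : ∃ w, GN (B '' T.cc y) (B '' T.cc x) w :=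
    ⟨_, h0.map (L := v * R) (by positivity) h.frm.lip'⟩
  have h2 := (nuG_spec h1).mono (((le_max_right _ _).trans (le_max_right _ _)).trans
    (h.st y x hy (I_sub_P _ hx)))
  have h3 := h2.map (B := B.symm) (L := v / R) (by positivity) h.frm.lip
  rw [symm_image_image, symm_image_image] at h3
  have h4 := h3.2 hd z hz p hp
  have e : ((v * (v / R) : ℝ≥0) : ℝ)⁻¹ = (R / v^2 : ℝ) := by
    push_cast
    rw [← mul_div_assoc, inv_div]
    ring
  rwa [e] at h4

end Shp2

/-- points of a 1-cell are not in the interior of a tile -/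
lemma edge_notMem {x y : E3} (hx : x ∈ Om) (hd : T.dim x = 1) (hy : y ∈ T.cc x) (k : ι) :
    y ∉ I (T.H k) := by
  intro hk
  have h1 := T.dim_le hy
  have h2 : T.V y = ⊤ := (T.V_eq_top_iff (T.cc_sub_Om hx hy)).2 ⟨k, hk⟩
  have h3 : T.dim y = 3 := by
    unfold Tiling.dim; rw [h2, finrank_top]; simp
  omega

lemma edge_notMem_oc {x x' y : E3} (hd : T.dim x = 1) (hx' : x' ∈ Om) (hd' : T.dim x' = 2)
    (hy : y ∈ T.cc x) : y ∉ T.oc x' := by
  intro h
  have h1 := T.dim_le hy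
  have h2 := T.dim_eq_of_mem_oc hx' h
  omega

/-- **charts of the 2-cells, constants and tube numbers from the shapes** -/
theorem exists_face_shape_tube {c : ι → E3} (hc : ∀ i, c i ∈ I (T.H i)) {x : E3} (hx : x ∈ Om)
    (hd : T.dim x = 2) {B : ι → E3 ≃ᵃ[ℝ] E3} {R : ι → ℝ≥0} {ρ v : ℝ≥0}
    (hS : ∀ k ∈ T.at_ x, Shp T k (B k) (R k) v) (hcB : ∀ k ∈ T.at_ x, c k = ctT T k (B k))
    (hR : ∀ k ∈ T.at_ x, R k ≤ v * ρ ∧ ρ ≤ v * R k) {i : ι} (hi : i ∈ T.at_ x) :
    ∃ F : Face, FaceOf T c x F ∧ F.ρ = ρ ∧ F.M ≤ GG v ∧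
      ∀ a v' : E3, segment ℝ a (a + v') ⊆ T.cc x → Disjoint (segment ℝ a (a + v')) (T.oc x) →
        ∀ w : ℝ≥0, v ≤ w → nuF (B i '' T.cc x) (B i '' segment ℝ a (a + v')) ≤ w →
        FaceT F a v' (R i / w^2 / (1 + 4 * v^6)) (w^2 / R i * (1 + 4 * v^6)) ⌊w⌋₊ := by
  have hv := (hS i hi).v_pos
  have hρ : 0 < ρ := by
    rcases eq_or_ne ρ 0 with h | h
    · have := (hR i hi).1
      rw [h, mul_zero] at this
      exact absurd (hS i hi).pos (not_lt.2 this)
    · exact pos_iff_ne_zero.2 h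
  obtain ⟨e, he, hf, hg, htube⟩ := exists_flat hx hd (hS i hi).pos hv (hS i hi).frm
  set w : ℝ≥0 := v^3 with hw
  have hw0 : 0 < w := by positivity
  have k1 : v * R i * mF (B i '' T.cc x) ≤ ρ * w := by
    calc v * R i * mF (B i '' T.cc x) ≤ v * (v * ρ) * v := by
          gcongr
          · exact (hR i hi).1
          · exact (hS i hi).mF_le hi
      _ = ρ * w := by rw [hw]; ring
  have k2 : mF (B i '' T.cc x) * (v / R i) ≤ w / ρ := by
    have h1 : v / R i ≤ v * v / ρ := by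
      rw [div_le_div_iff₀ (hS i hi).pos hρ]
      calc v * ρ ≤ v * (v * R i) := by gcongr; exact (hR i hi).2
        _ = v * v * R i := by ring
    calc mF (B i '' T.cc x) * (v / R i) ≤ v * (v * v / ρ) := by
          gcongr
          exact (hS i hi).mF_le hi
      _ = w / ρ := by rw [hw]; ring
  have g1 : ∀ k ∈ T.at_ x, closedBall (c k) (ρ / w : ℝ≥0) ⊆ I (T.H k) := by
    intro k hk
    rw [hcB k hk]
    refine (hS k hk).ball_sub ?_
    calc ρ / w * (v * v) ≤ (v * R k) / w * (v * v) := by gcongr; exact (hR k hk).2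
      _ = R k := by rw [hw]; field_simp
  have g2 : ∀ k ∈ T.at_ x, ∀ y ∈ T.cc x, ‖c k - y‖ ≤ (2 * (ρ * w) : ℝ≥0) := by
    intro k hk y hy
    rw [hcB k hk]
    refine ((hS k hk).norm_le (T.cc_sub_tile hk hy)).trans ?_
    have : v * v * R k ≤ 2 * (ρ * w) := by
      calc v * v * R k ≤ v * v * (v * ρ) := by gcongr; exact (hR k hk).1
        _ = ρ * w := by rw [hw]; ring
        _ ≤ 2 * (ρ * w) := by rw [two_mul]; exact le_self_add
    exact_mod_cast this
  have g3 : ∀ y ∈ T.cc x, ∀ z ∈ T.cc x, ‖y - z‖ ≤ (2 * (ρ * w) : ℝ≥0) := by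
    intro y hy z hz
    have a1 := (hS i hi).norm_le (T.cc_sub_tile hi hy)
    have a2 := (hS i hi).norm_le (T.cc_sub_tile hi hz)
    have a3 : ‖y - z‖ ≤ ‖ctT T i (B i) - y‖ + ‖ctT T i (B i) - z‖ := by
      have : y - z = (ctT T i (B i) - z) - (ctT T i (B i) - y) := by abel
      rw [this]
      refine (norm_sub_le _ _).trans (le_of_eq ?_)
      ring
    have : v * v * R i + v * v * R i ≤ 2 * (ρ * w) := by
      have : v * v * R i ≤ ρ * w := by
        calc v * v * R i ≤ v * v * (v * ρ) := by gcongr; exact (hR i hi).1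
          _ = ρ * w := by rw [hw]; ring
      rw [two_mul]; exact add_le_add this this
    refine a3.trans ((add_le_add a1 a2).trans ?_)
    exact_mod_cast this
  obtain ⟨F, h1, h2, h3, h4⟩ := exists_face_tube hc hx hd e he (ρ := ρ) (r := ρ / w)
    (d := 2 * (ρ * w)) hρ (by positivity) (hf.weaken k1) (hg.weaken k2) g1 g2 g3
  have e1 : 2 * (ρ * w) / (ρ / w) = 2 * w^2 := by field_simp
  refine ⟨F, h1, h2, ?_, ?_⟩
  · rw [h3, MF]
    have e2 : (w / ρ + 2 * (w / ρ) * (2 * (ρ * w) / (ρ / w)) + 1 / (ρ / w)) * ρ =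
        2 * w + 4 * w^3 := by
      rw [e1]; field_simp; ring
    have e3 : (2 * (2 * (ρ * w)) + 2 * (ρ * w)) / ρ = 6 * w := by field_simp; ring
    have e4 : ρ / (ρ / w) = w := by field_simp
    rw [e2, e3, e4, GG, hw]
    have e9 : (v^3)^3 = v^9 := by ring
    rw [e9]
    refine max_le ?_ (max_le ?_ (max_le ?_ ?_)) <;> rw [← NNReal.coe_le_coe] <;> push_cast <;>
      nlinarith [pow_nonneg v.coe_nonneg 2, pow_nonneg v.coe_nonneg 3, pow_nonneg v.coe_nonneg 9]
  · intro a v' hsub hdis w' hvw hnu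
    have h5 := htube a v' hsub hdis w' hvw hnu
    have h6 := h4 a v' (fun t ht => hsub (seg_mem rfl ht)) _ _ _ h5
    have e5 : (1 + 2 * (((2 * (ρ * w) : ℝ≥0) : ℝ) / ((ρ / w : ℝ≥0) : ℝ))) = 1 + 4 * (v:ℝ)^6 := by
      have := congrArg (fun z : ℝ≥0 => (z:ℝ)) e1
      push_cast at this ⊢
      rw [this, hw]
      push_cast
      ring
    rwa [e5] at h6

/-- the foot of a point of a double pyramid -/
lemma IsDp.foot {c : ι → E3} (hc : ∀ i, c i ∈ I (T.H i)) {x : E3} {i j : ι} {D : Dp}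
    (h : IsDp T c x i j D) {y p : E3} (hy : y ∈ D.K) {u r d : ℝ} (hu : ‖y - p‖ ≤ u)
    (hp : ∀ k, p ∉ I (T.H k))
    (hr : ∀ k ∈ T.at_ x, y ∈ P (T.H k) → u < r ∧ closedBall (c k) r ⊆ I (T.H k) ∧
      ∀ z ∈ T.cc x, ‖c k - z‖ ≤ d) :
    ∃ z ∈ T.cc x, ‖z - p‖ ≤ (1 + d / r) * u ∨ z = y ∧ ‖z - p‖ ≤ u := by
  have hu0 : 0 ≤ u := (norm_nonneg _).trans hu
  have h0 : 0 ≤ 1 - |D.t y| := hy.1
  rcases lt_trichotomy (D.t y) 0 with ht | ht | ht
  · rw [abs_of_neg ht] at h0
    have hj := h.symm_mem.2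
    rcases eq_or_lt_of_le h0 with h1 | h1
    · -- the apex
      exfalso
      have h2 : D.w y = 0 := hy.2.2 (by show 1 - |D.t y| = 0; rw [abs_of_neg ht]; exact h1.symm)
      have h3 := D.recon y
      rw [h2, add_zero, show D.t y = -1 by linarith, Dp.ax, Dp.pp_neg (by norm_num),
        Dp.pp_pos (by norm_num), zero_smul, zero_add, neg_neg, one_smul, add_sub_cancel, h.a'] at h3
      obtain ⟨r1, r2, -⟩ := hr j hj (by rw [← h3]; exact I_sub_P _ (hc j))
      refine hp j (r2 ?_)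
      rw [mem_closedBall, dist_comm, dist_eq_norm, h3]
      exact hu.trans r1.le
    · obtain ⟨h2, h3⟩ := h.repr_neg hy ht (by linarith)
      rw [h.F] at h2
      rw [h.a'] at h3
      set z := D.b + (1 + D.t y)⁻¹ • D.w y with hz
      have hyI : y ∈ I (T.H j) := by
        rw [h3]; exact mem_I_of_move (T.cc_sub_tile hj h2) (hc j) (by linarith) (by linarith)
      obtain ⟨r1, r2, r3⟩ := hr j hj (I_sub_P _ hyI)
      have hr0 : 0 < r := hu0.trans_lt r1
      have h4 := dist_bdry r2 (by linarith : 0 < -D.t y) (by linarith) (T.cc_sub_tile hj h2) h3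
        (hp j)
      refine ⟨z, h2, Or.inl ?_⟩
      have e1 : z - p = (y - p) - (-D.t y) • (c j - z) := by
        rw [show y - p = (z + (-D.t y) • (c j - z)) - p by rw [← h3]]; abel
      have hs : -D.t y ≤ u / r := by rw [le_div_iff₀ hr0]; linarith
      have hd0 : 0 ≤ ‖c j - z‖ := norm_nonneg _
      calc ‖z - p‖ ≤ ‖y - p‖ + ‖(-D.t y) • (c j - z)‖ := by rw [e1]; exact norm_sub_le _ _
        _ ≤ u + u / r * d := by
            refine add_le_add hu ?_
            rw [norm_smul, Real.norm_eq_abs, abs_of_pos (by linarith)]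
            exact mul_le_mul hs (r3 z h2) hd0 (by positivity)
        _ = (1 + d / r) * u := by ring
  · refine ⟨y, ?_, Or.inr ⟨rfl, hu⟩⟩
    have h1 := hy.2.1 (by show 0 < 1 - |D.t y|; rw [ht]; norm_num)
    have h3 := D.recon y
    rw [ht, Dp.ax, neg_zero, Dp.pp_pos le_rfl, zero_smul, zero_smul, add_zero, add_zero] at h3
    have h4 : (1 - |D.t y|)⁻¹ • D.w y = D.w y := by rw [ht, abs_zero, sub_zero, inv_one, one_smul]
    have h5 : D.b + (1 - |D.t y|)⁻¹ • D.w y ∈ D.F := h1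
    rw [h4, h3, h.F] at h5
    exact h5
  · rw [abs_of_pos ht] at h0
    have hi := h.symm_mem.1
    rcases eq_or_lt_of_le h0 with h1 | h1
    · exfalso
      have h2 : D.w y = 0 := hy.2.2 (by show 1 - |D.t y| = 0; rw [abs_of_pos ht]; exact h1.symm)
      have h3 := D.recon y
      rw [h2, add_zero, show D.t y = 1 by linarith, Dp.ax, Dp.pp_pos (by norm_num),
        Dp.pp_neg (by norm_num), zero_smul, add_zero, one_smul, add_sub_cancel, h.a] at h3
      obtain ⟨r1, r2, -⟩ := hr i hi (by rw [← h3]; exact I_sub_P _ (hc i))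
      refine hp i (r2 ?_)
      rw [mem_closedBall, dist_comm, dist_eq_norm, h3]
      exact hu.trans r1.le
    · obtain ⟨h2, h3⟩ := h.repr_pos hy ht (by linarith)
      rw [h.F] at h2
      rw [h.a] at h3
      set z := D.b + (1 - D.t y)⁻¹ • D.w y with hz
      have hyI : y ∈ I (T.H i) := by
        rw [h3]; exact mem_I_of_move (T.cc_sub_tile hi h2) (hc i) (by linarith) (by linarith)
      obtain ⟨r1, r2, r3⟩ := hr i hi (I_sub_P _ hyI)
      have hr0 : 0 < r := hu0.trans_lt r1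
      have h4 := dist_bdry r2 ht (by linarith) (T.cc_sub_tile hi h2) h3 (hp i)
      refine ⟨z, h2, Or.inl ?_⟩
      have e1 : z - p = (y - p) - (D.t y) • (c i - z) := by
        rw [show y - p = (z + (D.t y) • (c i - z)) - p by rw [← h3]]; abel
      have hs : D.t y ≤ u / r := by rw [le_div_iff₀ hr0]; linarith
      have hd0 : 0 ≤ ‖c i - z‖ := norm_nonneg _
      calc ‖z - p‖ ≤ ‖y - p‖ + ‖(D.t y) • (c i - z)‖ := by rw [e1]; exact norm_sub_le _ _
        _ ≤ u + u / r * d := by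
            refine add_le_add hu ?_
            rw [norm_smul, Real.norm_eq_abs, abs_of_pos ht]
            exact mul_le_mul hs (r3 z h2) hd0 (by positivity)
        _ = (1 + d / r) * u := by ring

end tiling

end Crest.Agent.R096.Sq_55
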