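import Crest.Agent.R096.Sq1_55

/-!
# R096 (row 96), SQUEEZE1, part 2 (helper55): sectors over faces; pointwise Lipschitz constants of
helper348's squeeze `chf`
-/

set_option autoImplicit false

open Set Metric Filter Topology MeasureTheory

namespace Crest.Agent.R096.Sq_55

open Crest.Agent.R096.Ce_537 Crest.Agent.R096.Bd_416 Crest.Agent.R96.Hole_348

variable {n : ℕ}

/-! ### volume of the sector over a piece of a face -/

/-- the collar parametrised over the face `x i = s` -/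
noncomputable def psf (i : Fin (n+1)) (s : ℝ) (v : Fin (n+1) → ℝ) : Fin (n+1) → ℝ :=
  fun j => cg (v i) (if j = i then s else v j)

lemma lip_psf (i : Fin (n+1)) (s : ℝ) : LipschitzWith 4 (psf (n := n) i s) := by
  refine LipschitzWith.of_dist_le_mul ?_
  intro v w
  rw [dist_eq_norm, dist_eq_norm, pi_norm_le_iff_of_nonneg (by positivity)]
  intro j
  have h1 := cg_lip (v i) (w i) (if j = i then s else v j) (if j = i then s else w j)
  have h2 := abs_sub_apply_le v w i
  have h3 : |(if j = i then s else v j) - (if j = i then s else w j)| ≤ ‖v - w‖ := by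
    split_ifs
    · simp
    · exact abs_sub_apply_le v w j
  show |cg _ _ - cg _ _| ≤ _
  refine h1.trans ?_
  push_cast
  linarith

lemma volume_image_psf (i : Fin (n+1)) (s : ℝ) (A : Set (Fin (n+1) → ℝ)) :
    volume (psf i s '' A) ≤ (4:ENNReal)^(n+1) * volume A := by
  have h := (lip_psf (n := n) i s).hausdorffMeasure_image_le (d := (Fintype.card (Fin (n+1)) : ℝ))
    (Nat.cast_nonneg _) A
  rw [hausdorffMeasure_pi_real] at h
  simp only [Fintype.card_fin, ENNReal.rpow_natCast] at h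
  exact_mod_cast h

lemma volume_slab (i : Fin (n+1)) (S : Set (Fin n → ℝ)) :
    volume {v : Fin (n+1) → ℝ | v i ∈ Icc (1/2:ℝ) 1 ∧ i.removeNth v ∈ S} =
      ENNReal.ofReal (1/2) * volume S := by
  have h := (volume_preserving_piFinSuccAbove (fun _ : Fin (n+1) => ℝ) i).measure_preimage_equiv
    (Icc (1/2:ℝ) 1 ×ˢ S)
  rw [Measure.volume_eq_prod, Measure.prod_prod, Real.volume_Icc,
    show (1:ℝ) - 1/2 = 1/2 by norm_num] at h
  rw [← h]
  rfl

/-- the volume of the sector over a piece of a face -/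
lemma volume_sect_face (i : Fin (n+1)) (s : ℝ) (S : Set (Fin n → ℝ)) (F : Set (Fin (n+1) → ℝ))
    (hF : ∀ x ∈ F, x i = s ∧ i.removeNth x ∈ S) :
    volume (sect 0 F) ≤ ENNReal.ofReal (4^(n+1) / 2) * volume S := by
  have hsub : sect 0 F ⊆ psf i s '' {v : Fin (n+1) → ℝ | v i ∈ Icc (1/2:ℝ) 1 ∧
      i.removeNth v ∈ S} := by
    intro x hx
    obtain ⟨h1, h2, h3⟩ := hx
    rw [pow_zero, one_mul] at h1 h2
    obtain ⟨h4, h5⟩ := hF _ h3
    refine ⟨i.insertNth ‖x‖ (i.removeNth (foot 0 x)), ⟨?_, ?_⟩, ?_⟩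
    · rw [Fin.insertNth_apply_same]; exact ⟨h1, h2⟩
    · rw [Fin.removeNth_insertNth]; exact h5
    · have e : ∀ j, cg ‖x‖ (foot 0 x j) = x j := fun j => by
        rw [foot_zero]; exact cg_cf h1
      funext j
      show cg (i.insertNth ‖x‖ (i.removeNth (foot 0 x)) i : ℝ)
        (if j = i then s else (i.insertNth ‖x‖ (i.removeNth (foot 0 x)) j : ℝ)) = x j
      rw [Fin.insertNth_apply_same]
      by_cases hj : j = i
      · rw [if_pos hj, ← h4, hj]; exact e i
      · rw [if_neg hj]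
        obtain ⟨k, rfl⟩ := Fin.exists_succAbove_eq hj
        rw [Fin.insertNth_apply_succAbove]
        exact e _
  refine (measure_mono hsub).trans ((volume_image_psf _ _ _).trans (le_of_eq ?_))
  rw [volume_slab, ← mul_assoc]
  congr 1
  rw [show (4:ENNReal)^(n+1) = ENNReal.ofReal (4^(n+1)) by
    rw [ENNReal.ofReal_pow (by norm_num)]; congr 1; norm_num, ← ENNReal.ofReal_mul (by positivity)]
  congr 1
  ring

/-! ### pointwise Lipschitz constants of `chf` -/

lemma LLV_cover {E F : Type*} [NormedAddCommGroup E] [NormedAddCommGroup F] {J : Type*} [Finite J]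
    {C : J → Set E} (hC : ∀ j, IsClosed (C j)) {f : E → F} {K : ℝ} {w : E}
    (hcov : ∀ᶠ z in 𝓝 w, ∃ j, z ∈ C j)
    (h : ∀ j, w ∈ C j → ∀ z ∈ C j, ‖f z - f w‖ ≤ K * ‖z - w‖) : LLV K f w := by
  have h1 : ∀ j, ∀ᶠ z in 𝓝 w, z ∈ C j → w ∈ C j := by
    intro j
    by_cases hw : w ∈ C j
    · exact Eventually.of_forall fun _ _ => hw
    · filter_upwards [(hC j).isOpen_compl.mem_nhds hw] with z hz hz2
      exact absurd hz2 hz
  filter_upwards [hcov, eventually_all.2 h1] with z hz hz1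
  obtain ⟨j, hj⟩ := hz
  exact h j (hz1 j hj) z hj

lemma two_pow_mono {j k : ℕ} (h : j ≤ k) : (2:ℝ)^j ≤ 2^k :=
  pow_le_pow_right₀ (by norm_num) h

lemma continuous_pow_norm (k : ℕ) : Continuous (fun y : Fin n → ℝ => (2:ℝ)^k * ‖y‖) :=
  continuous_const.mul continuous_norm

/-- every point of the unit ball outside `2^-(k+1)` lies in one of the first shells -/
lemma exists_shell {x : ℝ} (hx : x ≤ 1) {k : ℕ} (h : 1/2 ≤ 2^k * x) :
    ∃ j ≤ k, 1/2 ≤ (2:ℝ)^j * x ∧ (2:ℝ)^j * x ≤ 1 := by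
  classical
  have hex : ∃ k, 1/2 ≤ (2:ℝ)^k * x := ⟨k, h⟩
  refine ⟨Nat.find hex, Nat.find_min' hex h, Nat.find_spec hex, ?_⟩
  rcases Nat.eq_zero_or_pos (Nat.find hex) with h0 | h0
  · rw [h0]; simpa using hx
  · obtain ⟨m, hm⟩ : ∃ m, Nat.find hex = m + 1 := ⟨Nat.find hex - 1, by omega⟩
    have := Nat.find_min hex (m := m) (by omega)
    rw [hm, pow_succ]
    linarith [not_le.1 this]

/-- the local Lipschitz constant of the squeeze at points of the first shells -/
lemma LLV_chf_ge {τ : ℝ} {N k : ℕ} (hP : Par τ N 1) (hk : k < N) {w : Fin n → ℝ}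
    (hw : 1/2 < 2^k * ‖w‖) : LLV (16 * 2^k) (chf τ N) w := by
  refine LLV_cover (J := Option (Fin (k+1)))
    (C := fun o => o.elim {z | 1 ≤ ‖z‖} fun j => {z | 1/2 ≤ 2^(j:ℕ) * ‖z‖ ∧ 2^(j:ℕ) * ‖z‖ ≤ 1})
    ?_ ?_ ?_
  · rintro (_ | j)
    · exact isClosed_le continuous_const continuous_norm
    · exact (isClosed_le continuous_const (continuous_pow_norm _)).inter
        (isClosed_le (continuous_pow_norm _) continuous_const)
  · filter_upwards [(isOpen_lt continuous_const (continuous_pow_norm k)).mem_nhds hw] with z hz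
    by_cases h1 : ‖z‖ ≤ 1
    · obtain ⟨j, hj, h2⟩ := exists_shell h1 (k := k) (le_of_lt hz)
      exact ⟨some ⟨j, by omega⟩, h2⟩
    · exact ⟨none, (not_le.1 h1).le⟩
  · rintro (_ | j) hw1 z hz1
    · have h1 : (1:ℝ) ≤ 2^k := one_le_pow₀ (by norm_num)
      rw [chf_out hz1, chf_out hw1]
      nlinarith [norm_nonneg (z - w)]
    · have h1 := chf_shell_lip hP (show (j:ℕ) < N by have := j.2; omega) hz1.1 hz1.2 hw1.1 hw1.2
      refine h1.trans (mul_le_mul_of_nonneg_right ?_ (norm_nonneg _))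
      have := two_pow_mono (show (j:ℕ) ≤ k by have := j.2; omega)
      linarith

/-- the local Lipschitz constant of the squeeze at all points -/
lemma LLV_chf_all {τ : ℝ} {N : ℕ} (hP : Par τ N 1) (w : Fin n → ℝ) :
    LLV (16 * 2^N) (chf τ N) w := by
  refine LLV_cover (J := Option (Option (Fin N)))
    (C := fun o => o.elim {z | 1 ≤ ‖z‖} fun o => o.elim {z | 2^N * ‖z‖ ≤ 1}
      fun j => {z | 1/2 ≤ 2^(j:ℕ) * ‖z‖ ∧ 2^(j:ℕ) * ‖z‖ ≤ 1})
    ?_ ?_ ?_
  · rintro (_ | _ | j)
    · exact isClosed_le continuous_const continuous_norm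
    · exact isClosed_le (continuous_pow_norm _) continuous_const
    · exact (isClosed_le continuous_const (continuous_pow_norm _)).inter
        (isClosed_le (continuous_pow_norm _) continuous_const)
  · refine Eventually.of_forall fun z => ?_
    by_cases h1 : ‖z‖ ≤ 1
    · by_cases h2 : 2^N * ‖z‖ ≤ 1
      · exact ⟨some none, h2⟩
      · rcases N with _ | N
        · exact absurd (by simpa using h1) h2
        · obtain ⟨j, hj, h3⟩ := exists_shell h1 (k := N)
            (by rw [pow_succ] at h2; linarith [not_le.1 h2])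
          exact ⟨some (some ⟨j, by omega⟩), h3⟩
    · exact ⟨none, (not_le.1 h1).le⟩
  · have hN1 : (1:ℝ) ≤ 2^N := one_le_pow₀ (by norm_num)
    rintro (_ | _ | j) hw1 z hz1
    · rw [chf_out hz1, chf_out hw1]
      nlinarith [norm_nonneg (z - w)]
    · have h1 := chf_inner_lip (τ := τ) hz1 hw1
      refine h1.trans (mul_le_mul_of_nonneg_right ?_ (norm_nonneg _))
      linarith
    · have h1 := chf_shell_lip hP j.2 hz1.1 hz1.2 hw1.1 hw1.2
      refine h1.trans (mul_le_mul_of_nonneg_right ?_ (norm_nonneg _))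
      have := two_pow_mono j.2.le
      linarith

/-- the position of the image of a closed shell -/
lemma chf_near' {τ : ℝ} {N k : ℕ} (hP : Par τ N 1) (hk : k < N) {x : Fin n → ℝ}
    (h1 : 1/2 ≤ 2^k * ‖x‖) (h2 : 2^k * ‖x‖ ≤ 1) :
    ‖foot k x‖ = 1 ∧ ‖chf τ N x - foot k x‖ ≤ 2 * (N * τ) := by
  have ht := hP.t0
  have e2 : ‖(2:ℝ)^k • x‖ = 2^k * ‖x‖ := by rw [norm_smul]; simp
  have hf1 : ‖foot k x‖ = 1 := by
    rw [foot_eq, foot_zero]
    exact norm_cf ⟨by rw [e2]; exact h1, by rw [e2]; exact h2⟩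
  have hkN : (k : ℝ) + 1 ≤ N := by exact_mod_cast hk
  have hk0 : (0:ℝ) ≤ k := Nat.cast_nonneg _
  set ρ := 1 - (k + 1) * τ + (2 * (2^k * ‖x‖) - 1) * τ with hρ
  have hρ1 : ρ ≤ 1 := by
    have : (2 * (2^k * ‖x‖) - 1) * τ ≤ τ := by nlinarith
    nlinarith
  have hρ2 : 1 - N * τ ≤ ρ := by
    have : 0 ≤ (2 * (2^k * ‖x‖) - 1) * τ := by
      apply mul_nonneg _ ht.le; linarith
    nlinarith
  refine ⟨hf1, ?_⟩
  rw [chf_shell hk h1 h2, ← hρ, pi_norm_le_iff_of_nonneg
    (by have := mul_nonneg (Nat.cast_nonneg (α := ℝ) N) ht.le; linarith)]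
  intro j
  show |cg ρ (foot k x j) - foot k x j| ≤ _
  have e : foot k x j = cg 1 (foot k x j) :=
    (cg_one (by rw [← hf1]; exact abs_apply_le _ j)).symm
  have h3 := cg_lip ρ 1 (foot k x j) (foot k x j)
  rw [sub_self, abs_zero, mul_zero, zero_add] at h3
  have h4 : |ρ - 1| ≤ N * τ := by
    rw [abs_le]; constructor <;> linarith
  calc |cg ρ (foot k x j) - foot k x j| = |cg ρ (foot k x j) - cg 1 (foot k x j)| := by
        rw [← e]
    _ ≤ 2 * |ρ - 1| := h3
    _ ≤ _ := by linarith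

end Crest.Agent.R096.Sq_55
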