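import Crest.Agent.R096.Sq2_55

/-!
# R096 (row 96), SQUEEZE1, part 3 (helper55): the squeeze of a face, extended conically to the
diamond `|s| + ‖u‖ < 1` over the face
-/

set_option autoImplicit false

open Set Metric Filter Topology MeasureTheory

namespace Crest.Agent.R096.Sq_55

open Crest.Agent.R096.Ce_537 Crest.Agent.R096.Bd_416 Crest.Agent.R96.Hole_348

section dia

variable {W : Type*} [NormedAddCommGroup W] [NormedSpace ℝ W]

/-- the conical extension of `σ` to the diamond -/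
noncomputable def dia (σ : W → W) (z : ℝ × W) : ℝ × W :=
  open Classical in
  if |z.1| < 1 then (z.1, (1 - |z.1|) • σ ((1 - |z.1|)⁻¹ • z.2)) else z

/-- the hypotheses on `σ` -/
structure Sg (σ : W → W) : Prop where
  pl : PLOn σ univ
  out : ∀ w, 1 ≤ ‖w‖ → σ w = w
  inn : ∀ w, ‖w‖ < 1 → ‖σ w‖ < 1

variable {σ : W → W}

lemma Sg.le (h : Sg σ) {w : W} (hw : ‖w‖ ≤ 1) : ‖σ w‖ ≤ 1 := by
  rcases hw.lt_or_eq with h1 | h1
  · exact (h.inn w h1).le
  · rw [h.out w h1.ge]; exact hw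

lemma dia_of_lt {z : ℝ × W} (h : |z.1| < 1) :
    dia σ z = (z.1, (1 - |z.1|) • σ ((1 - |z.1|)⁻¹ • z.2)) := by
  rw [dia, if_pos h]

lemma dia_of_le {z : ℝ × W} (h : 1 ≤ |z.1|) : dia σ z = z := by
  rw [dia, if_neg (not_lt.2 h)]

lemma dia_fst (z : ℝ × W) : (dia σ z).1 = z.1 := by
  unfold dia; split_ifs <;> rfl

lemma norm_inv_smul {a : ℝ} (ha : 0 < a) (u : W) : ‖a⁻¹ • u‖ = ‖u‖ / a := by
  rw [norm_smul, norm_inv, Real.norm_eq_abs, abs_of_pos ha]
  ring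

lemma dia_out (h : Sg σ) {z : ℝ × W} (hz : 1 - |z.1| ≤ ‖z.2‖) : dia σ z = z := by
  by_cases h1 : |z.1| < 1
  · have ha : 0 < 1 - |z.1| := by linarith
    rw [dia_of_lt h1, h.out, smul_smul, mul_inv_cancel₀ ha.ne', one_smul]
    rw [norm_inv_smul ha, le_div_iff₀ ha, one_mul]
    exact hz
  · exact dia_of_le (not_lt.1 h1)

lemma norm_dia_lt (h : Sg σ) {z : ℝ × W} (hz : |z.1| + ‖z.2‖ < 1) :
    |(dia σ z).1| + ‖(dia σ z).2‖ < 1 := by
  have h1 : |z.1| < 1 := by linarith [norm_nonneg z.2]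
  have ha : 0 < 1 - |z.1| := by linarith
  rw [dia_fst, dia_of_lt h1]
  show |z.1| + ‖(1 - |z.1|) • σ ((1 - |z.1|)⁻¹ • z.2)‖ < 1
  rw [norm_smul, Real.norm_eq_abs, abs_of_pos ha]
  have h2 : ‖(1 - |z.1|)⁻¹ • z.2‖ < 1 := by
    rw [norm_inv_smul ha, div_lt_one ha]; linarith
  have h3 := h.inn _ h2
  nlinarith

lemma norm_dia_le (h : Sg σ) {z : ℝ × W} (hz : |z.1| + ‖z.2‖ ≤ 1) :
    |(dia σ z).1| + ‖(dia σ z).2‖ ≤ 1 := by
  rcases hz.lt_or_eq with h1 | h1
  · exact (norm_dia_lt h h1).le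
  · rw [dia_out h (by linarith)]; exact hz

lemma dia_dia {σ' : W → W} (hs : ∀ w, σ' (σ w) = w) (z : ℝ × W) : dia σ' (dia σ z) = z := by
  by_cases h1 : |z.1| < 1
  · have ha : 0 < 1 - |z.1| := by linarith
    have e : dia σ' (dia σ z) = ((dia σ z).1, (1 - |(dia σ z).1|) •
        σ' ((1 - |(dia σ z).1|)⁻¹ • (dia σ z).2)) := dia_of_lt (by rw [dia_fst]; exact h1)
    rw [e, dia_of_lt (σ := σ) h1]
    show (z.1, (1 - |z.1|) • σ' ((1 - |z.1|)⁻¹ • ((1 - |z.1|) • σ ((1 - |z.1|)⁻¹ • z.2)))) = z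
    rw [smul_smul, inv_mul_cancel₀ ha.ne', one_smul, hs, smul_smul, mul_inv_cancel₀ ha.ne',
      one_smul]
  · rw [dia_of_le (σ := σ) (not_lt.1 h1), dia_of_le (not_lt.1 h1)]

lemma dia_sub_le (h : Sg σ) {z : ℝ × W} (hz : |z.1| + ‖z.2‖ ≤ 1) :
    ‖dia σ z - z‖ ≤ 2 * (1 - |z.1|) := by
  have h1 := norm_dia_le h hz
  rw [dia_fst] at h1
  rw [Prod.norm_def]
  apply max_le
  · show ‖(dia σ z).1 - z.1‖ ≤ _
    rw [dia_fst, sub_self, norm_zero]
    have := norm_nonneg z.2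
    linarith
  · show ‖(dia σ z).2 - z.2‖ ≤ _
    have := norm_sub_le (dia σ z).2 z.2
    linarith

lemma continuousOn_dia (h : Sg σ) : ContinuousOn (dia σ) {z : ℝ × W | |z.1| + ‖z.2‖ ≤ 1} := by
  intro z₀ hz₀
  have hcσ : Continuous σ := continuousOn_univ.1 h.pl.1
  by_cases h1 : |z₀.1| < 1
  · have ha : 1 - |z₀.1| ≠ 0 := by linarith
    have hc : Continuous fun z : ℝ × W => |z.1| := continuous_fst.abs
    have h2 : ContinuousAt (fun z : ℝ × W =>
        (z.1, (1 - |z.1|) • σ ((1 - |z.1|)⁻¹ • z.2))) z₀ := by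
      refine continuousAt_fst.prodMk ?_
      refine ContinuousAt.smul (continuous_const.sub hc).continuousAt ?_
      refine hcσ.continuousAt.comp_of_eq ?_ rfl
      exact ((continuous_const.sub hc).continuousAt.inv₀ ha).smul continuousAt_snd
    have h3 : dia σ =ᶠ[𝓝 z₀] fun z : ℝ × W =>
        (z.1, (1 - |z.1|) • σ ((1 - |z.1|)⁻¹ • z.2)) := by
      filter_upwards [(isOpen_lt hc continuous_const).mem_nhds h1] with z hz
      exact dia_of_lt hz
    exact (h2.congr h3.symm).continuousWithinAt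
  · have h1' : 1 ≤ |z₀.1| := not_lt.1 h1
    have e0 : |z₀.1| = 1 := le_antisymm (by
      have := norm_nonneg z₀.2
      have h5 : |z₀.1| + ‖z₀.2‖ ≤ 1 := hz₀
      linarith) h1'
    rw [ContinuousWithinAt, dia_of_le h1']
    have hc : Continuous fun z : ℝ × W => |z.1| := continuous_fst.abs
    have h4 : Tendsto (fun z : ℝ × W => z + (dia σ z - z))
        (𝓝[{z : ℝ × W | |z.1| + ‖z.2‖ ≤ 1}] z₀) (𝓝 (z₀ + 0)) := by
      refine (tendsto_id.mono_left nhdsWithin_le_nhds).add ?_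
      refine squeeze_zero_norm' (a := fun z : ℝ × W => 2 * (1 - |z.1|)) ?_ ?_
      · filter_upwards [self_mem_nhdsWithin] with z hz
        exact dia_sub_le h hz
      · have h5 : Tendsto (fun z : ℝ × W => 2 * (1 - |z.1|)) (𝓝 z₀) (𝓝 (2 * (1 - |z₀.1|))) :=
          (continuous_const.mul (continuous_const.sub hc)).continuousAt
        rw [e0, sub_self, mul_zero] at h5
        exact h5.mono_left nhdsWithin_le_nhds
    rw [add_zero] at h4
    refine h4.congr fun z => ?_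
    abel

/-- the homogeneous extension of an affine map -/
noncomputable def hom (g : W →ᵃ[ℝ] W) (s : ℝ) : (ℝ × W) →ᵃ[ℝ] (ℝ × W) where
  toFun z := (z.1, g.linear z.2 + (1 - s * z.1) • g 0)
  linear := (LinearMap.fst ℝ ℝ W).prod
    (g.linear ∘ₗ LinearMap.snd ℝ ℝ W - (LinearMap.fst ℝ ℝ W).smulRight (s • g 0))
  map_vadd' z v := by
    simp only [vadd_eq_add, Prod.fst_add, Prod.snd_add, map_add, LinearMap.prod_apply]
    ext1
    · rfl
    · show g.linear v.2 + g.linear z.2 + (1 - s * (v.1 + z.1)) • g 0 =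
        (g.linear v.2 - v.1 • (s • g 0)) + (g.linear z.2 + (1 - s * z.1) • g 0)
      rw [smul_smul]
      have : (1 - s * (v.1 + z.1)) • g 0 = (1 - s * z.1) • g 0 - (v.1 * s) • g 0 := by
        rw [← sub_smul]; congr 1; ring
      rw [this]
      abel

lemma hom_apply (g : W →ᵃ[ℝ] W) (s : ℝ) (z : ℝ × W) :
    hom g s z = (z.1, g.linear z.2 + (1 - s * z.1) • g 0) := rfl

lemma affine_eq (g : W →ᵃ[ℝ] W) (x : W) : g x = g.linear x + g 0 := by
  have := g.map_vadd 0 x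
  simpa using this

lemma plOn_dia (h : Sg σ) : PLOn (dia σ) univ := by
  classical
  have hU : (univ : Set (ℝ × W)) = {z : ℝ × W | |z.1| + ‖z.2‖ ≤ 1} ∪
      {z : ℝ × W | 1 ≤ |z.1| + ‖z.2‖} := by
    ext z
    simp only [mem_univ, mem_union, mem_ofPred_eq, true_iff]
    exact le_total _ _
  have hc : Continuous fun z : ℝ × W => |z.1| + ‖z.2‖ := continuous_fst.abs.add
    continuous_snd.norm
  rw [hU]
  refine PLOn.union ⟨continuousOn_dia h, ?_⟩ ((plOn_id _).congr fun z hz => ?_)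
    (isClosed_le hc continuous_const) (isClosed_le continuous_const hc)
  · obtain ⟨_, S, hS⟩ := h.pl
    refine ⟨(S.image fun g => hom g 1) ∪ (S.image fun g => hom g (-1)), fun z hz => ?_⟩
    by_cases h1 : |z.1| < 1
    · have ha : 0 < 1 - |z.1| := by linarith
      obtain ⟨g, hg, e⟩ := hS ((1 - |z.1|)⁻¹ • z.2) (mem_univ _)
      have e2 : dia σ z = (z.1, g.linear z.2 + (1 - |z.1|) • g 0) := by
        rw [dia_of_lt h1, e, affine_eq, map_smul, smul_add, smul_smul, mul_inv_cancel₀ ha.ne',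
          one_smul]
      rcases le_total 0 z.1 with h0 | h0
      · refine ⟨hom g 1, Finset.mem_union_left _ (Finset.mem_image_of_mem _ hg), ?_⟩
        rw [e2, hom_apply, one_mul, abs_of_nonneg h0]
      · refine ⟨hom g (-1), Finset.mem_union_right _ (Finset.mem_image_of_mem _ hg), ?_⟩
        rw [e2, hom_apply, abs_of_nonpos h0]
        congr 3
        ring
    · have h1' := not_lt.1 h1
      obtain ⟨g, hg, _⟩ := hS 0 (mem_univ _)
      have hz' : |z.1| + ‖z.2‖ ≤ 1 := hz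
      have e1 : ‖z.2‖ = 0 := le_antisymm (by linarith) (norm_nonneg _)
      have e1' : z.2 = 0 := norm_eq_zero.1 e1
      have e3 : |z.1| = 1 := by linarith
      rcases le_total 0 z.1 with h0 | h0
      · refine ⟨hom g 1, Finset.mem_union_left _ (Finset.mem_image_of_mem _ hg), ?_⟩
        rw [abs_of_nonneg h0] at e3
        rw [dia_of_le h1', hom_apply, e3, e1', map_zero, mul_one, sub_self, zero_smul, add_zero]
        exact Prod.ext e3 e1'
      · refine ⟨hom g (-1), Finset.mem_union_right _ (Finset.mem_image_of_mem _ hg), ?_⟩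
        rw [abs_of_nonpos h0] at e3
        rw [dia_of_le h1', hom_apply, e1', map_zero,
          show 1 - -1 * z.1 = 0 by linarith, zero_smul, add_zero]
        exact Prod.ext rfl e1'
  · refine dia_out h ?_
    have : 1 ≤ |z.1| + ‖z.2‖ := hz
    linarith

lemma alg1 (a a' : ℝ) (x y : W) : a' • x - a • y = a' • (x - y) + (a' - a) • y := by
  rw [smul_sub, sub_smul]; abel

lemma alg2 {a a' : ℝ} (ha : a ≠ 0) (ha' : a' ≠ 0) (x y : W) :
    a' • (a'⁻¹ • x - a⁻¹ • y) = (x - y) + ((a - a') * a⁻¹) • y := by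
  rw [smul_sub, smul_smul, smul_smul, mul_inv_cancel₀ ha', one_smul, sub_mul,
    mul_inv_cancel₀ ha, sub_smul, one_smul]
  abel

/-- the local Lipschitz constant in the closed diamond, off the apexes -/
lemma LLV_dia (h : Sg σ) {z : ℝ × W} (h1 : |z.1| < 1) (h2 : |z.1| + ‖z.2‖ ≤ 1) {K : ℝ}
    (hK0 : 0 ≤ K) (hK : LLV K σ ((1 - |z.1|)⁻¹ • z.2)) : LLV (1 + 2 * K) (dia σ) z := by
  have hc : Continuous fun z : ℝ × W => |z.1| := continuous_fst.abs
  have ha : 0 < 1 - |z.1| := by linarith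
  have h3 : Tendsto (fun z : ℝ × W => (1 - |z.1|)⁻¹ • z.2) (𝓝 z)
      (𝓝 ((1 - |z.1|)⁻¹ • z.2)) :=
    ((continuous_const.sub hc).continuousAt.inv₀ ha.ne').smul continuousAt_snd
  filter_upwards [h3.eventually hK, (isOpen_lt hc continuous_const).mem_nhds h1] with z' hz' hz'1
  have hz'1' : |z'.1| < 1 := hz'1
  have ha' : 0 < 1 - |z'.1| := by linarith
  have d1 : |z'.1 - z.1| ≤ ‖z' - z‖ := norm_fst_le (z' - z)
  have d2 : ‖z'.2 - z.2‖ ≤ ‖z' - z‖ := norm_snd_le (z' - z)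
  have d3 : |(1 - |z'.1|) - (1 - |z.1|)| ≤ ‖z' - z‖ := by
    have := abs_abs_sub_abs_le_abs_sub z'.1 z.1
    rw [show (1 - |z'.1|) - (1 - |z.1|) = -(|z'.1| - |z.1|) by ring, abs_neg]
    exact this.trans d1
  set a := 1 - |z.1| with hadef
  set a' := 1 - |z'.1| with ha'def
  have hd0 := norm_nonneg (z' - z)
  rw [Prod.norm_def]
  apply max_le
  · show ‖(dia σ z').1 - (dia σ z).1‖ ≤ _
    rw [dia_fst, dia_fst, Real.norm_eq_abs]
    nlinarith
  · show ‖(dia σ z').2 - (dia σ z).2‖ ≤ _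
    rw [dia_of_lt h1, dia_of_lt hz'1']
    show ‖a' • σ (a'⁻¹ • z'.2) - a • σ (a⁻¹ • z.2)‖ ≤ _
    have e1 : a' • σ (a'⁻¹ • z'.2) - a • σ (a⁻¹ • z.2) =
        a' • (σ (a'⁻¹ • z'.2) - σ (a⁻¹ • z.2)) + (a' - a) • σ (a⁻¹ • z.2) := alg1 _ _ _ _
    have e2 : a' • (a'⁻¹ • z'.2 - a⁻¹ • z.2) = (z'.2 - z.2) + ((a - a') * a⁻¹) • z.2 :=
      alg2 ha.ne' ha'.ne' _ _
    have n1 : ‖σ (a⁻¹ • z.2)‖ ≤ 1 := by
      apply h.le
      rw [norm_inv_smul ha, div_le_one ha]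
      linarith
    have n2 : a' * ‖a'⁻¹ • z'.2 - a⁻¹ • z.2‖ ≤ 2 * ‖z' - z‖ := by
      have h5 : a' * ‖a'⁻¹ • z'.2 - a⁻¹ • z.2‖ = ‖a' • (a'⁻¹ • z'.2 - a⁻¹ • z.2)‖ := by
        rw [norm_smul, Real.norm_eq_abs, abs_of_pos ha']
      rw [h5, e2]
      refine (norm_add_le _ _).trans ?_
      have h6 : ‖((a - a') * a⁻¹) • z.2‖ ≤ ‖z' - z‖ := by
        rw [norm_smul, Real.norm_eq_abs, abs_mul, abs_of_pos (inv_pos.2 ha), abs_sub_comm]
        have h7 : a⁻¹ * ‖z.2‖ ≤ 1 := by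
          rw [inv_mul_le_iff₀ ha]; linarith
        calc |a' - a| * a⁻¹ * ‖z.2‖ = |a' - a| * (a⁻¹ * ‖z.2‖) := by ring
          _ ≤ |a' - a| * 1 := mul_le_mul_of_nonneg_left h7 (abs_nonneg _)
          _ ≤ _ := by rw [mul_one]; exact d3
      linarith
    rw [e1]
    refine (norm_add_le _ _).trans ?_
    rw [norm_smul, norm_smul, Real.norm_eq_abs, Real.norm_eq_abs, abs_of_pos ha']
    have n3 : a' * ‖σ (a'⁻¹ • z'.2) - σ (a⁻¹ • z.2)‖ ≤ K * (2 * ‖z' - z‖) := by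
      calc a' * ‖σ (a'⁻¹ • z'.2) - σ (a⁻¹ • z.2)‖ ≤ a' * (K * ‖a'⁻¹ • z'.2 - a⁻¹ • z.2‖) :=
            mul_le_mul_of_nonneg_left hz' ha'.le
        _ = K * (a' * ‖a'⁻¹ • z'.2 - a⁻¹ • z.2‖) := by ring
        _ ≤ _ := mul_le_mul_of_nonneg_left n2 hK0
    have n4 : |a' - a| * ‖σ (a⁻¹ • z.2)‖ ≤ ‖z' - z‖ := by
      calc |a' - a| * ‖σ (a⁻¹ • z.2)‖ ≤ |a' - a| * 1 :=
            mul_le_mul_of_nonneg_left n1 (abs_nonneg _)
        _ ≤ _ := by rw [mul_one]; exact d3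
    linarith

/-- off the closed diamond -/
lemma LLV_dia_out (h : Sg σ) {z : ℝ × W} (h1 : 1 < |z.1| + ‖z.2‖) : LLV 1 (dia σ) z := by
  have hc : Continuous fun z : ℝ × W => |z.1| + ‖z.2‖ := continuous_fst.abs.add
    continuous_snd.norm
  filter_upwards [(isOpen_lt continuous_const hc).mem_nhds h1] with z' hz'
  have hz'' : 1 < |z'.1| + ‖z'.2‖ := hz'
  rw [dia_out h (by linarith), dia_out h (by linarith), one_mul]

end dia

end Crest.Agent.R096.Sq_55
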