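import Crest.Agent.R096.Sq3_55

/-!
# R096 (row 96), SQUEEZE1, part 4 (helper55): tiles (faces) in `ℝ^(n+1)`, the squeeze of a tile,
products of homeomorphisms with disjoint supports
-/

set_option autoImplicit false

open Set Metric Filter Topology MeasureTheory

namespace Crest.Agent.R096.Sq_55

open Crest.Agent.R096.Ce_537 Crest.Agent.R096.Bd_416 Crest.Agent.R96.Hole_348

variable {n : ℕ}

/-- a tile: the axis orthogonal to it, its centre and its half side -/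
structure Tile (n : ℕ) where
  i : Fin (n+1)
  m : Fin (n+1) → ℝ
  ρ : ℝ
  pos : 0 < ρ

namespace Tile

variable (f : Tile n)

/-- coordinates: height over the plane of the tile and position in the tile, normalised -/
noncomputable def dn (x : Fin (n+1) → ℝ) : ℝ × (Fin n → ℝ) :=
  (f.ρ⁻¹ * (x f.i - f.m f.i), fun j => f.ρ⁻¹ * (x (f.i.succAbove j) - f.m (f.i.succAbove j)))

/-- the inverse -/
noncomputable def up (z : ℝ × (Fin n → ℝ)) : Fin (n+1) → ℝ :=
  f.i.insertNth (f.m f.i + f.ρ * z.1) (fun j => f.m (f.i.succAbove j) + f.ρ * z.2 j)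

lemma up_i (z : ℝ × (Fin n → ℝ)) : f.up z f.i = f.m f.i + f.ρ * z.1 := by
  rw [up, Fin.insertNth_apply_same]

lemma up_succ (z : ℝ × (Fin n → ℝ)) (j : Fin n) :
    f.up z (f.i.succAbove j) = f.m (f.i.succAbove j) + f.ρ * z.2 j := by
  rw [up, Fin.insertNth_apply_succAbove]

lemma dn_up (z : ℝ × (Fin n → ℝ)) : f.dn (f.up z) = z := by
  have h := f.pos.ne'
  refine Prod.ext ?_ (funext fun j => ?_)
  · show f.ρ⁻¹ * (f.up z f.i - f.m f.i) = z.1
    rw [up_i]; field_simp; ring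
  · show f.ρ⁻¹ * (f.up z (f.i.succAbove j) - f.m (f.i.succAbove j)) = z.2 j
    rw [up_succ]; field_simp; ring

lemma up_dn (x : Fin (n+1) → ℝ) : f.up (f.dn x) = x := by
  have h := f.pos.ne'
  funext k
  rcases eq_or_ne k f.i with rfl | hk
  · rw [up_i]
    show f.m f.i + f.ρ * (f.ρ⁻¹ * (x f.i - f.m f.i)) = x f.i
    field_simp; ring
  · obtain ⟨j, rfl⟩ := Fin.exists_succAbove_eq hk
    rw [up_succ]
    show _ + f.ρ * (f.ρ⁻¹ * (x (f.i.succAbove j) - f.m (f.i.succAbove j))) = _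
    field_simp; ring

lemma dn_sub_le (x y : Fin (n+1) → ℝ) : ‖f.dn x - f.dn y‖ ≤ f.ρ⁻¹ * ‖x - y‖ := by
  have h := f.pos
  have h' : 0 < f.ρ⁻¹ := inv_pos.2 h
  rw [Prod.norm_def]
  apply max_le
  · show ‖f.ρ⁻¹ * (x f.i - f.m f.i) - f.ρ⁻¹ * (y f.i - f.m f.i)‖ ≤ _
    rw [← mul_sub, sub_sub_sub_cancel_right, Real.norm_eq_abs, abs_mul, abs_of_pos h']
    exact mul_le_mul_of_nonneg_left (abs_sub_apply_le x y _) h'.le
  · rw [pi_norm_le_iff_of_nonneg (by positivity)]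
    intro j
    show ‖f.ρ⁻¹ * (x (f.i.succAbove j) - f.m (f.i.succAbove j)) -
      f.ρ⁻¹ * (y (f.i.succAbove j) - f.m (f.i.succAbove j))‖ ≤ _
    rw [← mul_sub, sub_sub_sub_cancel_right, Real.norm_eq_abs, abs_mul, abs_of_pos h']
    exact mul_le_mul_of_nonneg_left (abs_sub_apply_le x y _) h'.le

lemma up_sub_le (z w : ℝ × (Fin n → ℝ)) : ‖f.up z - f.up w‖ ≤ f.ρ * ‖z - w‖ := by
  have h := f.pos
  rw [pi_norm_le_iff_of_nonneg (by positivity)]
  intro k
  rcases eq_or_ne k f.i with rfl | hk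
  · rw [Pi.sub_apply, up_i, up_i, add_sub_add_left_eq_sub, ← mul_sub, Real.norm_eq_abs, abs_mul,
      abs_of_pos h]
    exact mul_le_mul_of_nonneg_left (norm_fst_le (z - w)) h.le
  · obtain ⟨j, rfl⟩ := Fin.exists_succAbove_eq hk
    rw [Pi.sub_apply, up_succ, up_succ, add_sub_add_left_eq_sub, ← mul_sub, Real.norm_eq_abs,
      abs_mul, abs_of_pos h]
    refine mul_le_mul_of_nonneg_left ?_ h.le
    exact (abs_sub_apply_le z.2 w.2 j).trans (norm_snd_le (z - w))

lemma continuous_dn : Continuous f.dn := by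
  refine (LipschitzWith.of_dist_le_mul (K := ⟨f.ρ⁻¹, (inv_pos.2 f.pos).le⟩) ?_).continuous
  intro x y
  rw [dist_eq_norm, dist_eq_norm]
  exact f.dn_sub_le x y

lemma continuous_up : Continuous f.up := by
  refine (LipschitzWith.of_dist_le_mul (K := ⟨f.ρ, f.pos.le⟩) ?_).continuous
  intro x y
  rw [dist_eq_norm, dist_eq_norm]
  exact f.up_sub_le x y

lemma plOn_dn : PLOn f.dn univ := by
  refine pl_pair (f := fun x : Fin (n+1) → ℝ => f.ρ⁻¹ * (x f.i - f.m f.i))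
    (g := fun (x : Fin (n+1) → ℝ) (j : Fin n) =>
      f.ρ⁻¹ * (x (f.i.succAbove j) - f.m (f.i.succAbove j))) ?_ (pl_pi fun j => ?_)
  · exact pl_mul _ (pl_sub_const (pl_apply (plOn_id _) _) _)
  · exact pl_mul _ (pl_sub_const (pl_apply (plOn_id _) _) _)

lemma plOn_up : PLOn f.up univ := by
  refine pl_pi fun k => ?_
  rcases eq_or_ne k f.i with rfl | hk
  · have h : PLOn (fun z : ℝ × (Fin n → ℝ) => f.ρ * z.1 + f.m f.i) univ :=
      pl_add_const (pl_mul _ (pl_fst (plOn_id _))) _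
    refine h.congr fun z _ => ?_
    show f.up z f.i = _
    rw [up_i, add_comm]
  · obtain ⟨j, rfl⟩ := Fin.exists_succAbove_eq hk
    have h : PLOn (fun z : ℝ × (Fin n → ℝ) => f.ρ * z.2 j + f.m (f.i.succAbove j)) univ :=
      pl_add_const (pl_mul _ (pl_apply (pl_snd (plOn_id _)) j)) _
    refine h.congr fun z _ => ?_
    show f.up z (f.i.succAbove j) = _
    rw [up_succ, add_comm]

/-- the open diamond -/
def O : Set (Fin (n+1) → ℝ) := {x | |(f.dn x).1| + ‖(f.dn x).2‖ < 1}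

/-- the closed diamond -/
def Oc : Set (Fin (n+1) → ℝ) := {x | |(f.dn x).1| + ‖(f.dn x).2‖ ≤ 1}

/-- the tile -/
def sq : Set (Fin (n+1) → ℝ) := {x | (f.dn x).1 = 0 ∧ ‖(f.dn x).2‖ ≤ 1}

/-- the boundary of the tile -/
def rim : Set (Fin (n+1) → ℝ) := {x | (f.dn x).1 = 0 ∧ ‖(f.dn x).2‖ = 1}

lemma isOpen_O : IsOpen f.O :=
  isOpen_lt ((continuous_fst.comp f.continuous_dn).abs.add
    (continuous_snd.comp f.continuous_dn).norm) continuous_const

lemma O_subset_Oc : f.O ⊆ f.Oc := fun x hx => by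
  have : |(f.dn x).1| + ‖(f.dn x).2‖ < 1 := hx
  exact this.le

/-- the squeeze of the tile -/
noncomputable def T (σ : (Fin n → ℝ) → (Fin n → ℝ)) (x : Fin (n+1) → ℝ) : Fin (n+1) → ℝ :=
  f.up (dia σ (f.dn x))

variable {σ : (Fin n → ℝ) → (Fin n → ℝ)}

lemma dn_T (x : Fin (n+1) → ℝ) : f.dn (f.T σ x) = dia σ (f.dn x) := f.dn_up _

lemma T_i (x : Fin (n+1) → ℝ) : f.T σ x f.i = x f.i := by
  have h := f.pos.ne'
  rw [T, up_i, dia_fst]
  show f.m f.i + f.ρ * (f.ρ⁻¹ * (x f.i - f.m f.i)) = x f.i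
  field_simp; ring

lemma T_out (h : Sg σ) {x : Fin (n+1) → ℝ} (hx : x ∉ f.O) : f.T σ x = x := by
  have h1 : ¬ (|(f.dn x).1| + ‖(f.dn x).2‖ < 1) := hx
  rw [T, dia_out h (by linarith), up_dn]

lemma T_mem (h : Sg σ) {x : Fin (n+1) → ℝ} (hx : x ∈ f.O) : f.T σ x ∈ f.O := by
  show |(f.dn (f.T σ x)).1| + ‖(f.dn (f.T σ x)).2‖ < 1
  rw [dn_T]
  exact norm_dia_lt h hx

lemma T_T {σ' : (Fin n → ℝ) → (Fin n → ℝ)} (hs : ∀ w, σ' (σ w) = w) (x : Fin (n+1) → ℝ) :
    f.T σ' (f.T σ x) = x := by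
  rw [T, dn_T, dia_dia hs, up_dn]

lemma T_up_zero (w : Fin n → ℝ) : f.T σ (f.up (0, w)) = f.up (0, σ w) := by
  rw [T, dn_up, dia_of_lt (by simp)]
  simp

lemma plOn_T (h : Sg σ) : PLOn (f.T σ) univ :=
  f.plOn_up.comp ((plOn_dia h).comp f.plOn_dn (mapsTo_univ _ _)) (mapsTo_univ _ _)

lemma LLV_T {K : ℝ} {x : Fin (n+1) → ℝ} (h : LLV K (dia σ) (f.dn x)) :
    LLV K (f.T σ) x := by
  have h' := f.pos
  filter_upwards [f.continuous_dn.continuousAt.eventually h] with y hy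
  calc ‖f.T σ y - f.T σ x‖ ≤ f.ρ * ‖dia σ (f.dn y) - dia σ (f.dn x)‖ := f.up_sub_le _ _
    _ ≤ f.ρ * (K * ‖f.dn y - f.dn x‖) := mul_le_mul_of_nonneg_left hy h'.le
    _ ≤ K * ‖y - x‖ := by
        by_cases hK : 0 ≤ K
        · calc f.ρ * (K * ‖f.dn y - f.dn x‖) ≤ f.ρ * (K * (f.ρ⁻¹ * ‖y - x‖)) := by
                have := mul_le_mul_of_nonneg_left (f.dn_sub_le y x) hK
                exact mul_le_mul_of_nonneg_left this h'.le
            _ = K * ‖y - x‖ := by field_simp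
        · have h1 := norm_nonneg (dia σ (f.dn y) - dia σ (f.dn x))
          have h2 : K * ‖f.dn y - f.dn x‖ ≥ 0 := h1.trans hy
          have h3 := f.up_sub_le (f.dn y) (f.dn x)
          rw [up_dn, up_dn] at h3
          have h4 : ‖f.dn y - f.dn x‖ = 0 := by
            rcases (norm_nonneg (f.dn y - f.dn x)).eq_or_lt with h5 | h5
            · exact h5.symm
            · nlinarith [not_le.1 hK]
          rw [h4] at h3 ⊢
          have h6 : ‖y - x‖ = 0 := le_antisymm (by linarith) (norm_nonneg _)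
          rw [h6]; simp

end Tile

/-! ### the squeeze `chf` -/

lemma sg_chf {τ : ℝ} {N : ℕ} (hP : Par τ N 1) : Sg (chf (n := n) τ N) :=
  ⟨plOn_chf hP, fun _ h => chf_out h, fun _ h => norm_chf_lt hP h⟩

lemma norm_chg_lt {τ : ℝ} {N : ℕ} (hP : Par τ N 1) {x : Fin n → ℝ} (hx : ‖x‖ < 1) :
    ‖chg τ N x‖ < 1 := by
  by_contra h
  have h1 := chf_out (τ := τ) (N := N) (not_lt.1 h)
  have h2 : chf τ N (chg τ N x) = x := (chi hP).apply_symm_apply x
  rw [h2] at h1
  rw [← h1] at h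
  exact h hx

lemma sg_chg {τ : ℝ} {N : ℕ} (hP : Par τ N 1) : Sg (chg (n := n) τ N) :=
  ⟨plOn_chg hP, fun _ h => chg_out hP h, fun _ h => norm_chg_lt hP h⟩

/-- the squeeze of a tile as a homeomorphism -/
noncomputable def Tile.H (f : Tile n) {τ : ℝ} {N : ℕ} (hP : Par τ N 1) :
    (Fin (n+1) → ℝ) ≃ₜ (Fin (n+1) → ℝ) where
  toFun := f.T (chf τ N)
  invFun := f.T (chg τ N)
  left_inv := f.T_T fun w => (chi hP).symm_apply_apply w
  right_inv := f.T_T fun w => (chi hP).apply_symm_apply w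
  continuous_toFun := continuousOn_univ.1 (f.plOn_T (sg_chf hP)).1
  continuous_invFun := continuousOn_univ.1 (f.plOn_T (sg_chg hP)).1

/-! ### products -/

section prod

variable {E : Type*} [NormedAddCommGroup E] [NormedSpace ℝ E]

lemma maps_of_fix {E : Type*} {h : E → E} (hi : Function.Injective h) {O : Set E}
    (hfix : ∀ x, x ∉ O → h x = x) {x : E} (hx : x ∈ O) : h x ∈ O := by
  by_contra h1
  have := hi (hfix _ h1)
  rw [this] at h1
  exact h1 hx

/-- finite products of PL homeomorphisms with disjoint supports -/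
lemma exists_prod {κ : Type*} (s : Finset κ) (h : κ → E ≃ₜ E) (O : κ → Set E)
    (hpl : ∀ j ∈ s, PLOn (h j) univ) (hpl' : ∀ j ∈ s, PLOn (h j).symm univ)
    (hfix : ∀ j ∈ s, ∀ x, x ∉ O j → h j x = x)
    (hdis : ∀ j ∈ s, ∀ k ∈ s, j ≠ k → Disjoint (O j) (O k)) :
    ∃ H : E ≃ₜ E, PLOn H univ ∧ PLOn H.symm univ ∧ (∀ j ∈ s, ∀ x ∈ O j, H x = h j x) ∧
      (∀ x, (∀ j ∈ s, x ∉ O j) → H x = x) := by
  classical
  induction s using Finset.induction_on with
  | empty => exact ⟨Homeomorph.refl E, plOn_id _, plOn_id _, by simp, fun x _ => rfl⟩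
  | insert j s hj ih =>
    obtain ⟨H, h1, h2, h3, h4⟩ := ih (fun k hk => hpl k (Finset.mem_insert_of_mem hk))
      (fun k hk => hpl' k (Finset.mem_insert_of_mem hk))
      (fun k hk => hfix k (Finset.mem_insert_of_mem hk))
      (fun k hk l hl => hdis k (Finset.mem_insert_of_mem hk) l (Finset.mem_insert_of_mem hl))
    have hjs := Finset.mem_insert_self j s
    refine ⟨H.trans (h j), (hpl j hjs).comp h1 (mapsTo_univ _ _),
      h2.comp (hpl' j hjs) (mapsTo_univ _ _), ?_, ?_⟩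
    · intro k hk x hx
      rcases Finset.mem_insert.1 hk with rfl | hk'
      · have : H x = x := h4 x fun l hl hxl =>
          (Set.disjoint_left.1 (hdis k hjs l (Finset.mem_insert_of_mem hl)
            (fun e => hj (e ▸ hl))) hx hxl)
        show h k (H x) = h k x
        rw [this]
      · show h j (H x) = h k x
        rw [h3 k hk' x hx]
        apply hfix j hjs
        have h5 := maps_of_fix (h k).injective (hfix k hk) hx
        exact fun h6 => Set.disjoint_left.1 (hdis j hjs k hk (fun e => hj (e ▸ hk'))) h6 h5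
    · intro x hx
      show h j (H x) = x
      rw [h4 x fun l hl => hx l (Finset.mem_insert_of_mem hl)]
      exact hfix j hjs x (hx j hjs)

/-- local Lipschitz constants of the product -/
lemma LLV_prod {κ : Type*} (s : Finset κ) {h : κ → E → E} {O : κ → Set E} {H : E → E}
    (hO : ∀ j ∈ s, IsOpen (O j))
    (hfix : ∀ j ∈ s, ∀ x, x ∉ O j → h j x = x)
    (h3 : ∀ j ∈ s, ∀ x ∈ O j, H x = h j x) (h4 : ∀ x, (∀ j ∈ s, x ∉ O j) → H x = x)
    {K : ℝ} (hK : 1 ≤ K) {y : E} (hL : ∀ j ∈ s, LLV K (h j) y) : LLV K H y := by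
  by_cases hy : ∃ j ∈ s, y ∈ O j
  · obtain ⟨j, hj, hyj⟩ := hy
    filter_upwards [hL j hj, (hO j hj).mem_nhds hyj] with z hz hz2
    rw [h3 j hj z hz2, h3 j hj y hyj]
    exact hz
  · push Not at hy
    have h5 : ∀ᶠ z in 𝓝 y, ∀ j ∈ s, ‖h j z - h j y‖ ≤ K * ‖z - y‖ :=
      (Filter.eventually_all_finset s).2 hL
    filter_upwards [h5] with z hz
    rw [h4 y hy]
    by_cases hz2 : ∃ j ∈ s, z ∈ O j
    · obtain ⟨j, hj, hzj⟩ := hz2
      have := hz j hj
      rwa [hfix j hj y (hy j hj), ← h3 j hj z hzj] at this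
    · push Not at hz2
      rw [h4 z hz2]
      nlinarith [norm_nonneg (z - y)]

end prod

end Crest.Agent.R096.Sq_55
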