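import Crest.Agent.R096.Sq4_55

/-!
# R096 (row 96), SOBSQ, part 5 (helper55): the squeeze with layers of geometric thickness

`gf q N τ ρ : [-1,1]^n ⟶ [-ρ,ρ]^n` maps the shell `1/2 ≤ ‖x‖ ≤ 1` onto the layer
`ρ - τ ≤ ‖y‖ ≤ ρ` (along the lines of 416's collar) and the cube `‖x‖ ≤ 1/2` by
`gf q (N-1) (q τ) (ρ - τ) (2 x)`.  (Copy of helper348's `hf`, which is the case `q = 1`.)
-/

set_option autoImplicit false

open Set Metric Filter Topology MeasureTheory

namespace Crest.Agent.R096.Sq_55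

open Crest.Agent.R096.Ce_537 Crest.Agent.R096.Bd_416 Crest.Agent.R96.Hole_348

variable {n : ℕ}

/-- forward map -/
noncomputable def gf (q : ℝ) : ℕ → ℝ → ℝ → (Fin n → ℝ) → (Fin n → ℝ)
  | 0, _, ρ, x => fun j => cg ρ (x j)
  | N + 1, τ, ρ, x => if ‖x‖ ≤ 1/2 then gf q N (q * τ) (ρ - τ) ((2:ℝ) • x)
      else fun j => cg (ρ - τ + (2 * ‖x‖ - 1) * τ) (cf ‖x‖ (x j))

/-- backward map -/
noncomputable def gg (q : ℝ) : ℕ → ℝ → ℝ → (Fin n → ℝ) → (Fin n → ℝ)
  | 0, _, ρ, y => fun j => cf ρ (y j)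
  | N + 1, τ, ρ, y => if ‖y‖ ≤ ρ - τ then (1/2 : ℝ) • gg q N (q * τ) (ρ - τ) y
      else fun j => cg ((1 + (‖y‖ - (ρ - τ)) / τ) / 2) (cf ‖y‖ (y j))

/-- the hypotheses on the parameters -/
structure GPar (q τ ρ : ℝ) : Prop where
  q0 : 0 < q
  q1 : q < 1
  t0 : 0 < τ
  lo : 1/2 ≤ ρ - τ / (1 - q)
  hi : ρ ≤ 1

variable {q τ ρ : ℝ}

lemma GPar.le_div (h : GPar q τ ρ) : τ ≤ τ / (1 - q) := by
  have h1 := h.q0
  have h2 := h.q1
  have h3 := h.t0
  rw [le_div_iff₀ (by linarith)]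
  nlinarith

lemma GPar.half_le (h : GPar q τ ρ) : 1/2 ≤ ρ - τ := by
  have := h.le_div
  have := h.lo
  linarith

lemma GPar.half_le' (h : GPar q τ ρ) : 1/2 ≤ ρ := by
  have := h.half_le
  have := h.t0
  linarith

lemma GPar.pred (h : GPar q τ ρ) : GPar q (q * τ) (ρ - τ) := by
  have h1 := h.q0
  have h2 := h.q1
  have h3 := h.t0
  have h4 := h.lo
  have h5 := h.hi
  refine ⟨h1, h2, mul_pos h1 h3, ?_, by linarith⟩
  have e : ρ - τ - q * τ / (1 - q) = ρ - τ / (1 - q) := by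
    have : (1:ℝ) - q ≠ 0 := by linarith
    field_simp
    ring
  rw [e]; exact h4

lemma gf_bd : ∀ {N : ℕ} {τ ρ : ℝ} {x : Fin n → ℝ}, ‖x‖ = 1 →
    gf q N τ ρ x = fun j => cg ρ (x j)
  | 0, τ, ρ, x, _ => rfl
  | N + 1, τ, ρ, x, hx => by
    rw [gf, if_neg (by rw [hx]; norm_num), hx]
    funext j
    rw [cf_one (by rw [← hx]; exact abs_apply_le x j)]
    congr 1
    ring

lemma gg_bd : ∀ {N : ℕ} {τ ρ : ℝ}, GPar q τ ρ → ∀ {y : Fin n → ℝ}, ‖y‖ = ρ →
    gg q N τ ρ y = fun j => cf ρ (y j)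
  | 0, τ, ρ, _, y, _ => rfl
  | N + 1, τ, ρ, h, y, hy => by
    have ht := h.t0
    rw [gg, if_neg (by rw [hy]; linarith), hy]
    funext j
    have e : (1 + (ρ - (ρ - τ)) / τ) / 2 = 1 := by
      rw [sub_sub_cancel, div_self ht.ne']; norm_num
    rw [e, cg_one]
    have := norm_cf_le h.half_le' h.hi (y := y) hy.le
    exact (abs_apply_le (fun j => cf ρ (y j)) j).trans this

lemma norm_gf : ∀ {N : ℕ} {τ ρ : ℝ}, GPar q τ ρ → ∀ {x : Fin n → ℝ}, ‖x‖ ≤ 1 →
    ‖gf q N τ ρ x‖ ≤ ρ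
  | 0, τ, ρ, h, x, hx => norm_cg_le h.half_le' h.hi hx
  | N + 1, τ, ρ, h, x, hx => by
    have ht := h.t0
    by_cases h1 : ‖x‖ ≤ 1/2
    · rw [gf, if_pos h1]
      have := norm_gf (N := N) h.pred (x := (2:ℝ) • x) (by rw [norm_smul]; norm_num; linarith)
      linarith
    · rw [gf, if_neg h1, norm_outer ht h.half_le h.hi (not_le.1 h1).le hx]
      nlinarith

lemma norm_gg : ∀ {N : ℕ} {τ ρ : ℝ}, GPar q τ ρ → ∀ {y : Fin n → ℝ}, ‖y‖ ≤ ρ →
    ‖gg q N τ ρ y‖ ≤ 1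
  | 0, τ, ρ, h, y, hy => norm_cf_le h.half_le' h.hi hy
  | N + 1, τ, ρ, h, y, hy => by
    have ht := h.t0
    by_cases h1 : ‖y‖ ≤ ρ - τ
    · rw [gg, if_pos h1, norm_smul]
      have := norm_gg (N := N) h.pred h1
      norm_num
      linarith
    · rw [gg, if_neg h1, norm_outer_inv ht h.half_le h.hi (not_le.1 h1).le hy]
      have e2 : (‖y‖ - (ρ - τ)) / τ ≤ 1 := by rw [div_le_one ht]; linarith
      linarith

lemma gg_gf : ∀ {N : ℕ} {τ ρ : ℝ}, GPar q τ ρ → ∀ {x : Fin n → ℝ}, ‖x‖ ≤ 1 →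
    gg q N τ ρ (gf q N τ ρ x) = x
  | 0, τ, ρ, h, x, _ => by
    funext j
    exact cf_cg h.half_le'
  | N + 1, τ, ρ, h, x, hx => by
    have ht := h.t0
    by_cases h1 : ‖x‖ ≤ 1/2
    · have h2 : ‖(2:ℝ) • x‖ ≤ 1 := by rw [norm_smul]; norm_num; linarith
      rw [gf, if_pos h1, gg, if_pos (norm_gf h.pred h2), gg_gf h.pred h2, smul_smul]
      norm_num
    · have h1' := not_le.1 h1
      have e := norm_outer ht h.half_le h.hi h1'.le hx
      rw [gf, if_neg h1, gg, e, if_neg (by nlinarith)]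
      funext j
      rw [cf_cg (by nlinarith [h.half_le])]
      have e2 : (1 + (ρ - τ + (2 * ‖x‖ - 1) * τ - (ρ - τ)) / τ) / 2 = ‖x‖ := by
        field_simp; ring
      rw [e2, cg_cf h1'.le]

lemma gf_gg : ∀ {N : ℕ} {τ ρ : ℝ}, GPar q τ ρ → ∀ {y : Fin n → ℝ}, ‖y‖ ≤ ρ →
    gf q N τ ρ (gg q N τ ρ y) = y
  | 0, τ, ρ, h, y, _ => by
    funext j
    exact cg_cf h.half_le'
  | N + 1, τ, ρ, h, y, hy => by
    have ht := h.t0
    by_cases h1 : ‖y‖ ≤ ρ - τ
    · have h2 : ‖(1/2:ℝ) • gg q N (q * τ) (ρ - τ) y‖ ≤ 1/2 := by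
        rw [norm_smul]
        have := norm_gg (N := N) h.pred h1
        norm_num
        linarith
      rw [gg, if_pos h1, gf, if_pos h2, smul_smul]
      norm_num
      exact gf_gg h.pred h1
    · have h1' := not_le.1 h1
      have e := norm_outer_inv ht h.half_le h.hi h1'.le hy
      have e1 : 0 < (‖y‖ - (ρ - τ)) / τ := div_pos (by linarith) ht
      rw [gg, if_neg h1, gf, e, if_neg (by linarith)]
      funext j
      rw [cf_cg (by linarith)]
      have e2 : ρ - τ + (2 * ((1 + (‖y‖ - (ρ - τ)) / τ) / 2) - 1) * τ = ‖y‖ := by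
        field_simp; ring
      rw [e2, cg_cf (by linarith [h.half_le])]

/-- the formula on the outer shell -/
noncomputable def outer (τ ρ : ℝ) (x : Fin n → ℝ) : Fin n → ℝ :=
  fun j => cg (ρ - τ + (2 * ‖x‖ - 1) * τ) (cf ‖x‖ (x j))

lemma gf_outer {N : ℕ} {x : Fin n → ℝ} (hx : 1/2 ≤ ‖x‖) :
    gf q (N+1) τ ρ x = outer τ ρ x := by
  by_cases hx2 : ‖x‖ ≤ 1/2
  · have e : ‖x‖ = 1/2 := le_antisymm hx2 hx
    rw [gf, if_pos hx2, gf_bd (by rw [norm_smul, e]; norm_num)]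
    funext j
    show cg (ρ - τ) (2 * x j) = cg (ρ - τ + (2 * ‖x‖ - 1) * τ) (cf ‖x‖ (x j))
    rw [e, cf_half]
    congr 1
    ring
  · rw [gf, if_neg hx2]; rfl

lemma gf_inner' {N : ℕ} {x : Fin n → ℝ} (hx : ‖x‖ ≤ 1/2) :
    gf q (N+1) τ ρ x = gf q N (q * τ) (ρ - τ) ((2:ℝ) • x) := by
  rw [gf, if_pos hx]

lemma plOn_gf : ∀ {N : ℕ} {τ ρ : ℝ}, GPar q τ ρ →
    PLOn (gf (n := n) q N τ ρ) (closedBall 0 1)
  | 0, τ, ρ, h => pl_pi fun j => pl_cg (plOn_const _ _) (pl_apply (plOn_id _) j)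
  | N + 1, τ, ρ, h => by
    have hA : PLOn (gf (n := n) q (N + 1) τ ρ) (closedBall 0 (1/2)) := by
      have h1 : PLOn (fun x : Fin n → ℝ => gf q N (q * τ) (ρ - τ) ((2:ℝ) • x))
          (closedBall 0 (1/2)) := by
        refine (plOn_gf h.pred).comp (pl_smul 2 (plOn_id _)) ?_
        intro x hx
        rw [mem_closedBall_zero_iff] at hx ⊢
        rw [norm_smul]; norm_num; linarith
      refine h1.congr ?_
      intro x hx
      rw [mem_closedBall_zero_iff] at hx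
      exact gf_inner' hx
    have hB : PLOn (gf (n := n) q (N + 1) τ ρ) (Ann n) := by
      have h1 : PLOn (outer (n := n) τ ρ) (Ann n) := by
        refine pl_pi fun j => pl_cg ?_ (pl_cf (pl_norm _) (pl_apply (plOn_id _) j))
        have h2 : PLOn (fun x : Fin n → ℝ => τ * (2 * ‖x‖ - 1) + (ρ - τ)) (Ann n) :=
          pl_add_const (pl_mul τ (pl_sub_const (pl_mul 2 (pl_norm _)) 1)) _
        refine h2.congr ?_
        intro x _
        show ρ - τ + (2 * ‖x‖ - 1) * τ = _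
        ring
      refine h1.congr ?_
      intro x hx
      exact gf_outer hx.1
    have hU : (closedBall (0 : Fin n → ℝ) 1) = closedBall 0 (1/2) ∪ Ann n := by
      ext x
      simp only [mem_closedBall_zero_iff, mem_union, Ann, mem_ofPred_eq]
      constructor
      · intro hx
        rcases le_total ‖x‖ (1/2) with h1 | h1
        · exact Or.inl h1
        · exact Or.inr ⟨h1, hx⟩
      · rintro (hx | hx)
        · linarith
        · exact hx.2
    rw [hU]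
    exact hA.union hB isClosed_closedBall isClosed_Ann

lemma plOn_gg : ∀ {N : ℕ} {τ ρ : ℝ}, GPar q τ ρ →
    PLOn (gg (n := n) q N τ ρ) (closedBall 0 ρ)
  | 0, τ, ρ, h => pl_pi fun j => pl_cf (plOn_const _ _) (pl_apply (plOn_id _) j)
  | N + 1, τ, ρ, h => by
    have ht := h.t0
    have hA : PLOn (gg (n := n) q (N + 1) τ ρ) (closedBall 0 (ρ - τ)) := by
      have h1 : PLOn (fun y : Fin n → ℝ => (1/2:ℝ) • gg q N (q * τ) (ρ - τ) y)
          (closedBall 0 (ρ - τ)) :=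
        pl_smul _ (plOn_gg h.pred)
      refine h1.congr ?_
      intro x hx
      rw [mem_closedBall_zero_iff] at hx
      show gg q (N + 1) τ ρ x = _
      rw [gg, if_pos hx]
    have hB : PLOn (gg (n := n) q (N + 1) τ ρ) {y | ρ - τ ≤ ‖y‖ ∧ ‖y‖ ≤ ρ} := by
      have h1 : PLOn (fun y : Fin n → ℝ =>
          fun j => cg ((1 + (‖y‖ - (ρ - τ)) / τ) / 2) (cf ‖y‖ (y j)))
            {y | ρ - τ ≤ ‖y‖ ∧ ‖y‖ ≤ ρ} := by
        refine pl_pi fun j => pl_cg ?_ (pl_cf (pl_norm _) (pl_apply (plOn_id _) j))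
        have h2 : PLOn (fun y : Fin n → ℝ => ((‖y‖ - (ρ - τ)) / τ + 1) / 2)
            {y | ρ - τ ≤ ‖y‖ ∧ ‖y‖ ≤ ρ} :=
          pl_div (pl_add_const (pl_div (pl_sub_const (pl_norm _) _) τ) 1) 2
        refine h2.congr ?_
        intro x _
        show (1 + (‖x‖ - (ρ - τ)) / τ) / 2 = _
        ring
      refine h1.congr ?_
      intro y hy
      by_cases hy2 : ‖y‖ ≤ ρ - τ
      · have e : ‖y‖ = ρ - τ := le_antisymm hy2 hy.1
        show gg q (N + 1) τ ρ y = _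
        rw [gg, if_pos hy2, gg_bd h.pred e]
        funext j
        show (1/2) * cf (ρ - τ) (y j) = cg ((1 + (‖y‖ - (ρ - τ)) / τ) / 2) (cf ‖y‖ (y j))
        rw [e, sub_self, zero_div, add_zero, cg_half]
        ring
      · show gg q (N + 1) τ ρ y = _
        rw [gg, if_neg hy2]
    have hU : (closedBall (0 : Fin n → ℝ) ρ) = closedBall 0 (ρ - τ) ∪
        {y | ρ - τ ≤ ‖y‖ ∧ ‖y‖ ≤ ρ} := by
      ext x
      simp only [mem_closedBall_zero_iff, mem_union, mem_ofPred_eq]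
      constructor
      · intro hx
        rcases le_total ‖x‖ (ρ - τ) with h1 | h1
        · exact Or.inl h1
        · exact Or.inr ⟨h1, hx⟩
      · rintro (hx | hx)
        · linarith
        · exact hx.2
    rw [hU]
    exact hA.union hB isClosed_closedBall ((isClosed_le continuous_const continuous_norm).inter
      (isClosed_le continuous_norm continuous_const))

/-! ### the homeomorphism of the space -/

/-- the extension by the identity -/
noncomputable def cgf (q τ : ℝ) (N : ℕ) (x : Fin n → ℝ) : Fin n → ℝ :=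
  if ‖x‖ ≤ 1 then gf q N τ 1 x else x

/-- its inverse -/
noncomputable def cgg (q τ : ℝ) (N : ℕ) (x : Fin n → ℝ) : Fin n → ℝ :=
  if ‖x‖ ≤ 1 then gg q N τ 1 x else x

lemma cgf_in {N : ℕ} {x : Fin n → ℝ} (hx : ‖x‖ ≤ 1) : cgf q τ N x = gf q N τ 1 x := if_pos hx

lemma cgf_out {N : ℕ} {x : Fin n → ℝ} (hx : 1 ≤ ‖x‖) : cgf q τ N x = x := by
  by_cases h : ‖x‖ ≤ 1
  · have e : ‖x‖ = 1 := le_antisymm h hx
    rw [cgf, if_pos h, gf_bd e]
    funext j
    exact cg_one (by rw [← e]; exact abs_apply_le x j)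
  · rw [cgf, if_neg h]

lemma cgg_out {N : ℕ} (hP : GPar q τ 1) {x : Fin n → ℝ} (hx : 1 ≤ ‖x‖) :
    cgg q τ N x = x := by
  by_cases h : ‖x‖ ≤ 1
  · have e : ‖x‖ = 1 := le_antisymm h hx
    rw [cgg, if_pos h, gg_bd hP e]
    funext j
    exact cf_one (by rw [← e]; exact abs_apply_le x j)
  · rw [cgg, if_neg h]

lemma plOn_cgf {N : ℕ} (hP : GPar q τ 1) : PLOn (cgf (n := n) q τ N) univ := by
  rw [univ_eq_union]
  refine PLOn.union ((plOn_gf (N := N) hP).congr ?_) ((plOn_id _).congr ?_) isClosed_closedBall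
    (isClosed_le continuous_const continuous_norm)
  · intro x hx
    rw [mem_closedBall_zero_iff] at hx
    exact if_pos hx
  · intro x hx
    exact cgf_out hx

lemma plOn_cgg {N : ℕ} (hP : GPar q τ 1) : PLOn (cgg (n := n) q τ N) univ := by
  rw [univ_eq_union]
  refine PLOn.union ((plOn_gg (N := N) hP).congr ?_) ((plOn_id _).congr ?_) isClosed_closedBall
    (isClosed_le continuous_const continuous_norm)
  · intro x hx
    rw [mem_closedBall_zero_iff] at hx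
    exact if_pos hx
  · intro x hx
    exact cgg_out hP hx

/-- the squeeze as a homeomorphism of the space -/
noncomputable def gchi {N : ℕ} (hP : GPar q τ 1) : (Fin n → ℝ) ≃ₜ (Fin n → ℝ) where
  toFun := cgf q τ N
  invFun := cgg q τ N
  left_inv x := by
    by_cases h : ‖x‖ ≤ 1
    · have h2 := norm_gf (N := N) hP h
      rw [cgf, if_pos h, cgg, if_pos h2, gg_gf hP h]
    · rw [cgf, if_neg h, cgg, if_neg h]
  right_inv x := by
    by_cases h : ‖x‖ ≤ 1
    · have h2 := norm_gg (N := N) hP h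
      rw [cgg, if_pos h, cgf, if_pos h2, gf_gg hP h]
    · rw [cgg, if_neg h, cgf, if_neg h]
  continuous_toFun := continuousOn_univ.1 (plOn_cgf hP).1
  continuous_invFun := continuousOn_univ.1 (plOn_cgg hP).1

lemma norm_cgf_lt {N : ℕ} (hP : GPar q τ 1) {x : Fin n → ℝ} (hx : ‖x‖ < 1) :
    ‖cgf q τ N x‖ < 1 := by
  by_contra h
  have h1 := cgg_out (N := N) hP (not_lt.1 h)
  have h2 : cgg q τ N (cgf q τ N x) = x := (gchi (N := N) hP).symm_apply_apply x
  rw [h2] at h1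
  rw [← h1] at h
  exact h hx

lemma norm_cgg_lt {N : ℕ} (hP : GPar q τ 1) {x : Fin n → ℝ} (hx : ‖x‖ < 1) :
    ‖cgg q τ N x‖ < 1 := by
  by_contra h
  have h1 := cgf_out (q := q) (τ := τ) (N := N) (not_lt.1 h)
  have h2 : cgf q τ N (cgg q τ N x) = x := (gchi (N := N) hP).apply_symm_apply x
  rw [h2] at h1
  rw [← h1] at h
  exact h hx

lemma sg_cgf {N : ℕ} (hP : GPar q τ 1) : Sg (cgf (n := n) q τ N) :=
  ⟨plOn_cgf hP, fun _ h => cgf_out h, fun _ h => norm_cgf_lt hP h⟩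

lemma sg_cgg {N : ℕ} (hP : GPar q τ 1) : Sg (cgg (n := n) q τ N) :=
  ⟨plOn_cgg hP, fun _ h => cgg_out hP h, fun _ h => norm_cgg_lt hP h⟩

end Crest.Agent.R096.Sq_55
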