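import Crest.Agent.R096.Sq5_55

/-!
# R096 (row 96), SOBSQ, part 6 (helper55): the integral estimate of the geometric squeeze

`gf_int`: for `0 < p < n`, `q² = 2^(p-n)`, every measurable `u ≥ 0` and every weight `w` bounded by
the `p`-th power of the local Lipschitz constant of `gf`,
`∫_{‖x‖<1} u (gf x) w x ≤ (K/τ) ∫_{ρ-τ/(1-q) < ‖y‖ ≤ ρ} u + K q^(2N) ∫_{‖y‖ ≤ ρ} u`.
-/

set_option autoImplicit false

open Set Metric Filter Topology MeasureTheory

namespace Crest.Agent.R096.Sq_55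

open Crest.Agent.R096.Ce_537 Crest.Agent.R096.Bd_416 Crest.Agent.R96.Hole_348
open scoped ENNReal NNReal

variable {n : ℕ}

/-! ### volumes of Lipschitz images -/

lemma volume_lip_image {ι ι' : Type*} [Fintype ι] {f : (ι → ℝ) → (ι → ℝ)} {K : ℝ≥0}
    (h : LipschitzWith K f) (A : Set (ι → ℝ)) :
    volume (f '' A) ≤ (K:ℝ≥0∞)^(Fintype.card ι) * volume A := by
  have h1 := h.hausdorffMeasure_image_le (d := (Fintype.card ι : ℝ)) (Nat.cast_nonneg _) A
  rw [hausdorffMeasure_pi_real] at h1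
  simpa using h1

/-- coordinates of the collar over the faces orthogonal to the axis `i` -/
noncomputable def tht (i : Fin n) (y : Fin n → ℝ) : Fin n → ℝ :=
  Function.update (fun j => cf ‖y‖ (y j)) i ‖y‖

/-- the inverse -/
noncomputable def psi' (i : Fin n) (s : ℝ) (v : Fin n → ℝ) : Fin n → ℝ :=
  fun j => cg (v i) (if j = i then s else v j)

lemma lip_tht (i : Fin n) : LipschitzWith 7 (tht i) := by
  refine LipschitzWith.of_dist_le_mul ?_
  intro v w
  rw [dist_eq_norm, dist_eq_norm, pi_norm_le_iff_of_nonneg (by positivity)]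
  intro j
  have h2 := abs_norm_sub_le' v w
  have h3 := abs_sub_apply_le v w j
  have h0 := norm_nonneg (v - w)
  show |tht i v j - tht i w j| ≤ _
  push_cast
  by_cases hj : j = i
  · subst hj
    simp only [tht, Function.update_self]
    linarith
  · simp only [tht, Function.update_of_ne hj]
    have h1 := cf_lip ‖v‖ ‖w‖ (v j) (w j)
    linarith

lemma lip_psi' (i : Fin n) (s : ℝ) : LipschitzWith 4 (psi' i s) := by
  refine LipschitzWith.of_dist_le_mul ?_
  intro v w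
  rw [dist_eq_norm, dist_eq_norm, pi_norm_le_iff_of_nonneg (by positivity)]
  intro j
  have h1 := cg_lip (v i) (w i) (if j = i then s else v j) (if j = i then s else w j)
  have h2 := abs_sub_apply_le v w i
  have h3 : |(if j = i then s else v j) - (if j = i then s else w j)| ≤ ‖v - w‖ := by
    split_ifs
    · simp
    · exact abs_sub_apply_le v w j
  show |cg _ _ - cg _ _| ≤ _
  refine h1.trans ?_
  push_cast
  linarith

/-- scaling of one coordinate -/
noncomputable def scl (i : Fin n) (a b : ℝ) (v : Fin n → ℝ) : Fin n → ℝ :=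
  Function.update v i (a * v i + b)

lemma volume_scl (i : Fin n) (a b : ℝ) (A : Set (Fin n → ℝ)) :
    volume (scl i a b '' A) = ENNReal.ofReal |a| * volume A := by
  classical
  set d : Fin n → ℝ := fun j => if j = i then a else 1 with hd
  have e : scl i a b '' A = (fun v => v + Pi.single i b) '' ((Matrix.toLin' (Matrix.diagonal d)) '' A) := by
    rw [image_image]
    refine image_congr' fun v => ?_
    funext j
    by_cases hj : j = i
    · subst hj
      simp [scl, Matrix.mulVec_diagonal, hd]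
    · simp [scl, Matrix.mulVec_diagonal, hd, hj]
  rw [e, image_add_right, measure_preimage_add_right, Measure.addHaar_image_linearMap,
    LinearMap.det_toLin', Matrix.det_diagonal]
  congr 2
  rw [hd, Finset.prod_ite_eq']
  simp

/-- the constant -/
noncomputable def kap (n : ℕ) : ℝ := n * 28^n

/-- the measure estimate for the outer shell -/
lemma volume_outer {τ ρ : ℝ} (ht : 0 < τ) (h1 : 1/2 ≤ ρ - τ) (h2 : ρ ≤ 1)
    (A : Set (Fin n → ℝ)) :
    volume {x : Fin n → ℝ | (1/2 < ‖x‖ ∧ ‖x‖ < 1) ∧ outer τ ρ x ∈ A} ≤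
      ENNReal.ofReal (kap n / τ) * volume (A ∩ {y | ρ - τ < ‖y‖ ∧ ‖y‖ ≤ ρ}) := by
  classical
  set L := {y : Fin n → ℝ | ρ - τ < ‖y‖ ∧ ‖y‖ ≤ ρ} with hL
  set B : Fin n × Bool → Set (Fin n → ℝ) := fun a =>
    psi' a.1 (if a.2 then 1 else -1) ''
      (scl a.1 (1/(2*τ)) ((1 - (ρ - τ)/τ)/2) '' (tht a.1 '' (A ∩ L))) with hB
  have hsub : {x : Fin n → ℝ | (1/2 < ‖x‖ ∧ ‖x‖ < 1) ∧ outer τ ρ x ∈ A} ⊆ ⋃ a, B a := by
    rintro x ⟨⟨hx1, hx2⟩, hxA⟩
    set ft : Fin n → ℝ := fun j => cf ‖x‖ (x j) with hft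
    have hft1 : ‖ft‖ = 1 := norm_cf ⟨hx1.le, hx2.le⟩
    have hne : ft ≠ 0 := by
      intro h0
      rw [h0, norm_zero] at hft1
      exact zero_ne_one hft1
    obtain ⟨i, hi⟩ := exists_coord hne
    rw [hft1] at hi
    have hny : ‖outer τ ρ x‖ = ρ - τ + (2 * ‖x‖ - 1) * τ := norm_outer ht h1 h2 hx1.le hx2.le
    have hyL : outer τ ρ x ∈ L := by
      refine ⟨?_, ?_⟩
      · rw [hny]; nlinarith
      · rw [hny]; nlinarith
    set s : Bool := decide (0 ≤ ft i) with hs
    have hsi : (if s then (1:ℝ) else -1) = ft i := by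
      rcases le_or_gt 0 (ft i) with h0 | h0
      · rw [abs_of_nonneg h0] at hi
        rw [hs, if_pos (by simpa using h0)]; exact hi
      · rw [abs_of_neg h0] at hi
        rw [hs, if_neg (by simpa using h0)]; linarith
    have hfty : ∀ j, cf ‖outer τ ρ x‖ (outer τ ρ x j) = ft j := by
      intro j
      rw [hny]
      exact cf_cg (by nlinarith)
    refine mem_iUnion.2 ⟨(i, s), _, ⟨_, ⟨_, ⟨hxA, hyL⟩, rfl⟩, rfl⟩, ?_⟩
    have e1 : scl i (1/(2*τ)) ((1 - (ρ - τ)/τ)/2) (tht i (outer τ ρ x)) =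
        Function.update ft i ‖x‖ := by
      funext j
      by_cases hj : j = i
      · subst hj
        simp only [scl, tht, Function.update_self]
        rw [hny]
        field_simp
        ring
      · simp only [scl, tht, Function.update_of_ne hj]
        exact hfty j
    show psi' i (if s then 1 else -1) (scl i (1/(2*τ)) ((1 - (ρ - τ)/τ)/2)
      (tht i (outer τ ρ x))) = x
    rw [e1]
    funext j
    show cg (Function.update ft i ‖x‖ i) (if j = i then (if s then 1 else -1)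
      else Function.update ft i ‖x‖ j) = x j
    rw [Function.update_self]
    by_cases hj : j = i
    · rw [if_pos hj, hsi, hj]; exact cg_cf hx1.le
    · rw [if_neg hj, Function.update_of_ne hj]; exact cg_cf hx1.le
  have hBv : ∀ a, volume (B a) ≤ ENNReal.ofReal (28^n / (2*τ)) * volume (A ∩ L) := by
    intro a
    have b1 := volume_lip_image (ι' := Fin n) (lip_psi' a.1 (if a.2 then 1 else -1))
      (scl a.1 (1/(2*τ)) ((1 - (ρ - τ)/τ)/2) '' (tht a.1 '' (A ∩ L)))
    have b2 := volume_lip_image (ι' := Fin n) (lip_tht a.1) (A ∩ L)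
    rw [volume_scl] at b1
    rw [Fintype.card_fin] at b1 b2
    refine b1.trans ?_
    calc ((4:ℝ≥0):ℝ≥0∞)^n * (ENNReal.ofReal |1/(2*τ)| * volume (tht a.1 '' (A ∩ L)))
        ≤ ((4:ℝ≥0):ℝ≥0∞)^n * (ENNReal.ofReal |1/(2*τ)| * (((7:ℝ≥0):ℝ≥0∞)^n * volume (A ∩ L))) := by
          gcongr
      _ = ENNReal.ofReal (28^n / (2*τ)) * volume (A ∩ L) := by
          rw [abs_of_pos (by positivity)]
          rw [show ((4:ℝ≥0):ℝ≥0∞)^n = ENNReal.ofReal (4^n) by
              rw [ENNReal.ofReal_pow (by norm_num)]; norm_num,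
            show ((7:ℝ≥0):ℝ≥0∞)^n = ENNReal.ofReal (7^n) by
              rw [ENNReal.ofReal_pow (by norm_num)]; norm_num,
            ← mul_assoc, ← mul_assoc, ← ENNReal.ofReal_mul (by positivity),
            ← ENNReal.ofReal_mul (by positivity)]
          congr 2
          rw [show (28:ℝ) = 4 * 7 by norm_num, mul_pow]
          ring
  calc volume {x : Fin n → ℝ | (1/2 < ‖x‖ ∧ ‖x‖ < 1) ∧ outer τ ρ x ∈ A}
      ≤ volume (⋃ a, B a) := measure_mono hsub
    _ ≤ ∑ a, volume (B a) := by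
        have := measure_iUnion_fintype_le volume B
        exact this
    _ ≤ ∑ _a : Fin n × Bool, ENNReal.ofReal (28^n / (2*τ)) * volume (A ∩ L) :=
        Finset.sum_le_sum fun a _ => hBv a
    _ = _ := by
        rw [Finset.sum_const, Finset.card_univ, Fintype.card_prod, Fintype.card_fin,
          Fintype.card_bool, nsmul_eq_mul, ← mul_assoc]
        congr 1
        rw [← ENNReal.ofReal_natCast, ← ENNReal.ofReal_mul (Nat.cast_nonneg _)]
        congr 1
        unfold kap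
        push_cast
        field_simp

lemma continuous_cg {X : Type*} [TopologicalSpace X] {a b : X → ℝ} (ha : Continuous a)
    (hb : Continuous b) : Continuous fun x => cg (a x) (b x) := by
  unfold cg; fun_prop

lemma continuous_cf {X : Type*} [TopologicalSpace X] {a b : X → ℝ} (ha : Continuous a)
    (hb : Continuous b) : Continuous fun x => cf (a x) (b x) := by
  unfold cf; fun_prop

lemma continuous_outer (τ ρ : ℝ) : Continuous (outer (n := n) τ ρ) := by
  refine continuous_pi fun j => ?_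
  refine continuous_cg ?_ (continuous_cf continuous_norm (continuous_apply j))
  exact continuous_const.add (((continuous_const.mul continuous_norm).sub
    continuous_const).mul continuous_const)

lemma isOpen_shell : IsOpen {x : Fin n → ℝ | 1/2 < ‖x‖ ∧ ‖x‖ < 1} :=
  (isOpen_lt continuous_const continuous_norm).inter (isOpen_lt continuous_norm continuous_const)

lemma measurableSet_layer (a b : ℝ) : MeasurableSet {y : Fin n → ℝ | a < ‖y‖ ∧ ‖y‖ ≤ b} :=
  (isOpen_lt continuous_const continuous_norm).measurableSet.inter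
    (isClosed_le continuous_norm continuous_const).measurableSet

/-- measure inequality ==> integral inequality -/
lemma lint_of_volume {X Y : Type*} [MeasurableSpace X] [MeasurableSpace Y] {μ : Measure X}
    {ν : Measure Y} {φ : X → Y} (hφ : Measurable φ)
    {S : Set X} {T : Set Y} (hT : MeasurableSet T) {c : ℝ≥0∞}
    (h : ∀ A, MeasurableSet A → μ (S ∩ φ ⁻¹' A) ≤ c * ν (A ∩ T)) {u : Y → ℝ≥0∞}
    (hu : Measurable u) : ∫⁻ x in S, u (φ x) ∂μ ≤ c * ∫⁻ y in T, u y ∂ν := by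
  have h1 : Measure.map φ (μ.restrict S) ≤ c • ν.restrict T := by
    refine Measure.le_iff.2 fun A hA => ?_
    rw [Measure.map_apply hφ hA, Measure.restrict_apply (hφ hA), Measure.smul_apply,
      Measure.restrict_apply hA, smul_eq_mul, inter_comm]
    exact h A hA
  rw [← lintegral_map hu hφ, ← smul_eq_mul, ← lintegral_smul_measure]
  exact lintegral_mono' h1 le_rfl

lemma lint_outer {τ ρ : ℝ} (ht : 0 < τ) (h1 : 1/2 ≤ ρ - τ) (h2 : ρ ≤ 1)
    {u : (Fin n → ℝ) → ℝ≥0∞} (hu : Measurable u) :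
    ∫⁻ x in {x : Fin n → ℝ | 1/2 < ‖x‖ ∧ ‖x‖ < 1}, u (outer τ ρ x) ≤
      ENNReal.ofReal (kap n / τ) * ∫⁻ y in {y : Fin n → ℝ | ρ - τ < ‖y‖ ∧ ‖y‖ ≤ ρ}, u y :=
  lint_of_volume (continuous_outer τ ρ).measurable (measurableSet_layer _ _)
    (fun A _ => volume_outer ht h1 h2 A) hu

/-- the innermost cube -/
lemma volume_inner {ρ : ℝ} (h1 : 1/2 ≤ ρ) (h2 : ρ ≤ 1) (A : Set (Fin n → ℝ)) :
    volume (ball (0 : Fin n → ℝ) 1 ∩ (fun x : Fin n → ℝ => fun j => cg ρ (x j)) ⁻¹' A) ≤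
      ENNReal.ofReal (3^n) * volume (A ∩ closedBall 0 ρ) := by
  have hl : LipschitzWith 3 (fun y : Fin n → ℝ => fun j => cf ρ (y j)) := by
    refine LipschitzWith.of_dist_le_mul ?_
    intro v w
    rw [dist_eq_norm, dist_eq_norm, pi_norm_le_iff_of_nonneg (by positivity)]
    intro j
    have h3 := cf_lip ρ ρ (v j) (w j)
    rw [sub_self, abs_zero, mul_zero, add_zero] at h3
    have h4 := abs_sub_apply_le v w j
    show |cf ρ (v j) - cf ρ (w j)| ≤ _
    push_cast
    linarith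
  have hsub : ball (0 : Fin n → ℝ) 1 ∩ (fun x : Fin n → ℝ => fun j => cg ρ (x j)) ⁻¹' A ⊆
      (fun y : Fin n → ℝ => fun j => cf ρ (y j)) '' (A ∩ closedBall 0 ρ) := by
    rintro x ⟨hx, hxA⟩
    rw [mem_ball_zero_iff] at hx
    refine ⟨fun j => cg ρ (x j), ⟨hxA, ?_⟩, ?_⟩
    · rw [mem_closedBall_zero_iff]; exact norm_cg_le h1 h2 hx.le
    · funext j; exact cf_cg h1
  refine (measure_mono hsub).trans ((volume_lip_image (ι' := Fin n) hl _).trans (le_of_eq ?_))
  rw [Fintype.card_fin]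
  congr 1
  rw [ENNReal.ofReal_pow (by norm_num)]
  norm_num

/-! ### Lipschitz constants -/

lemma outer_lip {τ ρ : ℝ} (ht : 0 < τ) (ht2 : τ ≤ 1/2) (x y : Fin n → ℝ) :
    ‖outer τ ρ x - outer τ ρ y‖ ≤ 16 * ‖x - y‖ := by
  rw [pi_norm_le_iff_of_nonneg (by positivity)]
  intro j
  have h3 := cg_lip (ρ - τ + (2 * ‖x‖ - 1) * τ) (ρ - τ + (2 * ‖y‖ - 1) * τ)
    (cf ‖x‖ (x j)) (cf ‖y‖ (y j))
  have h4 := cf_lip ‖x‖ ‖y‖ (x j) (y j)
  have h5 := abs_norm_sub_le' x y
  have h6 := abs_sub_apply_le x y j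
  have e : ρ - τ + (2 * ‖x‖ - 1) * τ - (ρ - τ + (2 * ‖y‖ - 1) * τ) = 2 * τ * (‖x‖ - ‖y‖) := by
    ring
  rw [e, abs_mul, abs_of_pos (by linarith : 0 < 2 * τ)] at h3
  have h7 : 2 * τ * |‖x‖ - ‖y‖| ≤ ‖x - y‖ := by
    have := abs_nonneg (‖x‖ - ‖y‖)
    nlinarith
  show |cg _ _ - cg _ _| ≤ _
  linarith

variable {q τ ρ : ℝ}

lemma LLV_gf_outer {N : ℕ} (h : GPar q τ ρ) {x : Fin n → ℝ} (h1 : 1/2 < ‖x‖) :
    LLV 16 (gf q (N+1) τ ρ) x := by
  have ht2 : τ ≤ 1/2 := by have := h.half_le; have := h.hi; linarith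
  filter_upwards [(isOpen_lt continuous_const continuous_norm).mem_nhds h1] with y hy
  rw [gf_outer (le_of_lt hy), gf_outer h1.le]
  exact outer_lip h.t0 ht2 y x

lemma LLV_gf_zero (x : Fin n → ℝ) : LLV 2 (gf q 0 τ ρ) x := by
  refine Eventually.of_forall fun y => ?_
  rw [pi_norm_le_iff_of_nonneg (by positivity)]
  intro j
  have h3 := cg_lip ρ ρ (y j) (x j)
  rw [sub_self, abs_zero, mul_zero, add_zero] at h3
  have h4 := abs_sub_apply_le y x j
  show |cg ρ (y j) - cg ρ (x j)| ≤ _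
  linarith

lemma LLV_gf_inner {N : ℕ} {x : Fin n → ℝ} (h1 : ‖x‖ < 1/2) {c : ℝ}
    (hc : LLV c (gf q N (q * τ) (ρ - τ)) ((2:ℝ) • x)) :
    LLV (2 * c) (gf q (N+1) τ ρ) x := by
  have h2 : Tendsto (fun y : Fin n → ℝ => (2:ℝ) • y) (𝓝 x) (𝓝 ((2:ℝ) • x)) :=
    (continuous_const_smul (2:ℝ)).continuousAt
  filter_upwards [h2.eventually hc, (isOpen_lt continuous_norm continuous_const).mem_nhds h1]
    with y hy hy2
  rw [gf_inner' (le_of_lt hy2), gf_inner' h1.le]
  refine hy.trans (le_of_eq ?_)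
  rw [← smul_sub, norm_smul]
  norm_num
  ring

/-! ### the estimate -/

/-- the constant -/
noncomputable def Kg (n : ℕ) (p : ℝ) : ℝ := (16:ℝ)^p * (kap n + 3^n)

lemma kap_nonneg : 0 ≤ kap n := by unfold kap; positivity

lemma Kg_nonneg {p : ℝ} : 0 ≤ Kg n p := by
  have := kap_nonneg (n := n)
  unfold Kg; positivity

lemma lint_two (F : (Fin n → ℝ) → ℝ≥0∞) :
    ∫⁻ x in ball (0 : Fin n → ℝ) (1/2), F ((2:ℝ) • x) =
      ENNReal.ofReal ((2:ℝ)^n)⁻¹ * ∫⁻ x in ball (0 : Fin n → ℝ) 1, F x := by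
  set e := (Homeomorph.smulOfNeZero (α := Fin n → ℝ) (2:ℝ) two_ne_zero).toMeasurableEquiv with he
  have h1 : ball (0 : Fin n → ℝ) (1/2) = e ⁻¹' ball (0 : Fin n → ℝ) 1 := by
    ext x
    show x ∈ ball (0 : Fin n → ℝ) (1/2) ↔ (2:ℝ) • x ∈ ball (0 : Fin n → ℝ) 1
    rw [mem_ball_zero_iff, mem_ball_zero_iff, norm_smul]
    norm_num
    constructor <;> intro h <;> linarith
  have h2 : Measure.map e volume = ENNReal.ofReal ((2:ℝ)^n)⁻¹ • (volume : Measure (Fin n → ℝ)) := by
    have := Measure.map_addHaar_smul (volume : Measure (Fin n → ℝ)) (r := (2:ℝ)) two_ne_zero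
    rw [Module.finrank_fin_fun, abs_of_pos (by positivity)] at this
    exact this
  have h3 : (fun x : Fin n → ℝ => F ((2:ℝ) • x)) = fun x => F (e x) := rfl
  rw [h1, h3, ← lintegral_map_equiv F e, ← MeasurableEquiv.restrict_map, h2,
    Measure.restrict_smul, lintegral_smul_measure, smul_eq_mul]

theorem gf_int {p : ℝ} (hp : 0 < p) (hn : 0 < n) {q : ℝ} (hq : q^2 = (2:ℝ)^(p - n)) :
    ∀ {N : ℕ} {τ ρ : ℝ}, GPar q τ ρ → ∀ {u w : (Fin n → ℝ) → ℝ≥0∞}, Measurable u →
      (∀ x c, ‖x‖ < 1 → 1 ≤ c → LLV c (gf q N τ ρ) x → w x ≤ ENNReal.ofReal (c^p)) →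
      ∫⁻ x in ball (0 : Fin n → ℝ) 1, u (gf q N τ ρ x) * w x ≤
        ENNReal.ofReal (Kg n p / τ) *
          (∫⁻ y in {y : Fin n → ℝ | ρ - τ / (1 - q) < ‖y‖ ∧ ‖y‖ ≤ ρ}, u y) +
        ENNReal.ofReal (Kg n p * q^(2*N)) * ∫⁻ y in closedBall (0 : Fin n → ℝ) ρ, u y
  | 0, τ, ρ, h, u, w, hu, hw => by
    have h16 : (0:ℝ) < (16:ℝ)^p := by positivity
    calc ∫⁻ x in ball (0 : Fin n → ℝ) 1, u (gf q 0 τ ρ x) * w x
        ≤ ∫⁻ x in ball (0 : Fin n → ℝ) 1, ENNReal.ofReal ((16:ℝ)^p) * u (gf q 0 τ ρ x) := by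
          refine setLIntegral_mono' measurableSet_ball fun x hx => ?_
          rw [mul_comm]
          refine mul_le_mul' ?_ le_rfl
          refine (hw x 2 (by simpa using hx) (by norm_num) (LLV_gf_zero x)).trans ?_
          exact ENNReal.ofReal_le_ofReal (Real.rpow_le_rpow (by norm_num) (by norm_num) hp.le)
      _ = ENNReal.ofReal ((16:ℝ)^p) * ∫⁻ x in ball (0 : Fin n → ℝ) 1, u (gf q 0 τ ρ x) :=
          lintegral_const_mul' _ _ ENNReal.ofReal_ne_top
      _ ≤ ENNReal.ofReal ((16:ℝ)^p) * (ENNReal.ofReal (3^n) *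
            ∫⁻ y in closedBall (0 : Fin n → ℝ) ρ, u y) := by
          refine mul_le_mul' le_rfl ?_
          refine lint_of_volume (φ := fun x : Fin n → ℝ => fun j => cg ρ (x j)) ?_
            isClosed_closedBall.measurableSet
            (fun A _ => volume_inner h.half_le' h.hi A) hu
          exact (continuous_pi fun j => continuous_cg continuous_const
            (continuous_apply j)).measurable
      _ ≤ ENNReal.ofReal (Kg n p * q^(2*0)) * ∫⁻ y in closedBall (0 : Fin n → ℝ) ρ, u y := by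
          rw [← mul_assoc, ← ENNReal.ofReal_mul (by positivity)]
          refine mul_le_mul' (ENNReal.ofReal_le_ofReal ?_) le_rfl
          have := kap_nonneg (n := n)
          rw [mul_zero, pow_zero, mul_one, Kg]
          nlinarith
      _ ≤ _ := le_add_self
  | N + 1, τ, ρ, h, u, w, hu, hw => by
    have h16 : (0:ℝ) < (16:ℝ)^p := by positivity
    have ht := h.t0
    have hK := Kg_nonneg (n := n) (p := p)
    -- the weight of the inner part
    set w' : (Fin n → ℝ) → ℝ≥0∞ := fun x => ENNReal.ofReal ((2:ℝ)^(-p)) * w ((1/2:ℝ) • x) with hw'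
    have hww' : ∀ x c, ‖x‖ < 1 → 1 ≤ c → LLV c (gf q N (q * τ) (ρ - τ)) x →
        w' x ≤ ENNReal.ofReal (c^p) := by
      intro x c hx hc hxc
      have e2 : (2:ℝ) • ((1/2:ℝ) • x) = x := by rw [smul_smul]; norm_num
      have hx2 : ‖(1/2:ℝ) • x‖ < 1/2 := by rw [norm_smul]; norm_num; linarith
      have h3 := hw ((1/2:ℝ) • x) (2 * c) (by linarith) (by linarith)
        (LLV_gf_inner hx2 (by rw [e2]; exact hxc))
      rw [hw']
      refine (mul_le_mul' le_rfl h3).trans (le_of_eq ?_)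
      rw [← ENNReal.ofReal_mul (by positivity)]
      congr 1
      rw [Real.mul_rpow (by norm_num) (by linarith), ← mul_assoc,
        ← Real.rpow_add (by norm_num), neg_add_cancel, Real.rpow_zero, one_mul]
    have IH := gf_int hp hn hq (N := N) h.pred hu hww'
    have e3 : ρ - τ - q * τ / (1 - q) = ρ - τ / (1 - q) := by
      have : (1:ℝ) - q ≠ 0 := by have := h.q1; linarith
      field_simp
      ring
    rw [e3] at IH
    -- splitting
    have hnull : volume {x : Fin n → ℝ | ‖x‖ = 1/2} = 0 := by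
      have := ae_norm_ne (n := n) (1/2) hn
      rw [ae_iff] at this
      simpa using this
    have hU : ball (0 : Fin n → ℝ) 1 ⊆ (ball (0 : Fin n → ℝ) (1/2) ∪
        {x : Fin n → ℝ | 1/2 < ‖x‖ ∧ ‖x‖ < 1}) ∪ {x : Fin n → ℝ | ‖x‖ = 1/2} := by
      intro x hx
      rw [mem_ball_zero_iff] at hx
      rcases lt_trichotomy ‖x‖ (1/2) with h1 | h1 | h1
      · exact Or.inl (Or.inl (by rw [mem_ball_zero_iff]; exact h1))
      · exact Or.inr h1
      · exact Or.inl (Or.inr ⟨h1, hx⟩)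
    set F : (Fin n → ℝ) → ℝ≥0∞ := fun x => u (gf q (N+1) τ ρ x) * w x with hF
    have hsplit : ∫⁻ x in ball (0 : Fin n → ℝ) 1, F x ≤
        (∫⁻ x in ball (0 : Fin n → ℝ) (1/2), F x) +
        ∫⁻ x in {x : Fin n → ℝ | 1/2 < ‖x‖ ∧ ‖x‖ < 1}, F x := by
      calc ∫⁻ x in ball (0 : Fin n → ℝ) 1, F x
          ≤ ∫⁻ x in (ball (0 : Fin n → ℝ) (1/2) ∪
            {x : Fin n → ℝ | 1/2 < ‖x‖ ∧ ‖x‖ < 1}) ∪ {x : Fin n → ℝ | ‖x‖ = 1/2}, F x :=
            lintegral_mono_set hU
        _ ≤ (∫⁻ x in ball (0 : Fin n → ℝ) (1/2) ∪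
              {x : Fin n → ℝ | 1/2 < ‖x‖ ∧ ‖x‖ < 1}, F x) +
            ∫⁻ x in {x : Fin n → ℝ | ‖x‖ = 1/2}, F x := lintegral_union_le _ _ _
        _ = ∫⁻ x in ball (0 : Fin n → ℝ) (1/2) ∪
              {x : Fin n → ℝ | 1/2 < ‖x‖ ∧ ‖x‖ < 1}, F x := by
            rw [setLIntegral_measure_zero _ _ hnull, add_zero]
        _ ≤ _ := lintegral_union_le _ _ _
    -- the outer shell
    have hout : ∫⁻ x in {x : Fin n → ℝ | 1/2 < ‖x‖ ∧ ‖x‖ < 1}, F x ≤
        ENNReal.ofReal (Kg n p / τ) *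
          ∫⁻ y in {y : Fin n → ℝ | ρ - τ < ‖y‖ ∧ ‖y‖ ≤ ρ}, u y := by
      calc ∫⁻ x in {x : Fin n → ℝ | 1/2 < ‖x‖ ∧ ‖x‖ < 1}, F x
          ≤ ∫⁻ x in {x : Fin n → ℝ | 1/2 < ‖x‖ ∧ ‖x‖ < 1},
              ENNReal.ofReal ((16:ℝ)^p) * u (outer τ ρ x) := by
            refine setLIntegral_mono' isOpen_shell.measurableSet fun x hx => ?_
            rw [hF]
            show u (gf q (N+1) τ ρ x) * w x ≤ _
            rw [gf_outer hx.1.le, mul_comm]
            exact mul_le_mul' (hw x 16 hx.2 (by norm_num) (LLV_gf_outer h hx.1)) le_rfl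
        _ = ENNReal.ofReal ((16:ℝ)^p) *
            ∫⁻ x in {x : Fin n → ℝ | 1/2 < ‖x‖ ∧ ‖x‖ < 1}, u (outer τ ρ x) :=
            lintegral_const_mul' _ _ ENNReal.ofReal_ne_top
        _ ≤ ENNReal.ofReal ((16:ℝ)^p) * (ENNReal.ofReal (kap n / τ) *
            ∫⁻ y in {y : Fin n → ℝ | ρ - τ < ‖y‖ ∧ ‖y‖ ≤ ρ}, u y) :=
            mul_le_mul' le_rfl (lint_outer ht h.half_le h.hi hu)
        _ ≤ _ := by
            rw [← mul_assoc, ← ENNReal.ofReal_mul (by positivity)]
            refine mul_le_mul' (ENNReal.ofReal_le_ofReal ?_) le_rfl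
            rw [← mul_div_assoc]
            apply div_le_div_of_nonneg_right _ ht.le
            unfold Kg
            have : (0:ℝ) ≤ (16:ℝ)^p * 3^n := by positivity
            linarith
    -- the inner part
    have hin : ∫⁻ x in ball (0 : Fin n → ℝ) (1/2), F x ≤
        ENNReal.ofReal (Kg n p / τ) *
          (∫⁻ y in {y : Fin n → ℝ | ρ - τ / (1 - q) < ‖y‖ ∧ ‖y‖ ≤ ρ - τ}, u y) +
        ENNReal.ofReal (Kg n p * q^(2*(N+1))) * ∫⁻ y in closedBall (0 : Fin n → ℝ) ρ, u y := by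
      have e4 : ∀ x ∈ ball (0 : Fin n → ℝ) (1/2), F x =
          (fun z => ENNReal.ofReal ((2:ℝ)^p) * (u (gf q N (q * τ) (ρ - τ) z) * w' z))
            ((2:ℝ) • x) := by
        intro x hx
        rw [mem_ball_zero_iff] at hx
        have e2 : (1/2:ℝ) • ((2:ℝ) • x) = x := by rw [smul_smul]; norm_num
        show u (gf q (N+1) τ ρ x) * w x = ENNReal.ofReal ((2:ℝ)^p) *
          (u (gf q N (q * τ) (ρ - τ) ((2:ℝ) • x)) *
            (ENNReal.ofReal ((2:ℝ)^(-p)) * w ((1/2:ℝ) • ((2:ℝ) • x))))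
        rw [e2, gf_inner' hx.le]
        have e5 : ENNReal.ofReal ((2:ℝ)^p) * ENNReal.ofReal ((2:ℝ)^(-p)) = 1 := by
          rw [← ENNReal.ofReal_mul (by positivity), ← Real.rpow_add (by norm_num),
            add_neg_cancel, Real.rpow_zero, ENNReal.ofReal_one]
        calc _ = (ENNReal.ofReal ((2:ℝ)^p) * ENNReal.ofReal ((2:ℝ)^(-p))) *
              (u (gf q N (q * τ) (ρ - τ) ((2:ℝ) • x)) * w x) := by rw [e5, one_mul]
          _ = _ := by ring
      rw [setLIntegral_congr_fun measurableSet_ball e4]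
      refine (le_of_eq (lint_two (fun z => ENNReal.ofReal ((2:ℝ)^p) *
        (u (gf q N (q * τ) (ρ - τ) z) * w' z)))).trans ?_
      rw [lintegral_const_mul' _ _ ENNReal.ofReal_ne_top, ← mul_assoc,
        ← ENNReal.ofReal_mul (by positivity)]
      have e6 : ((2:ℝ)^n)⁻¹ * (2:ℝ)^p = q^2 := by
        rw [hq, Real.rpow_sub (by norm_num), Real.rpow_natCast]
        field_simp
      rw [e6]
      refine (mul_le_mul' le_rfl IH).trans ?_
      rw [mul_add, ← mul_assoc, ← mul_assoc, ← ENNReal.ofReal_mul (by positivity),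
        ← ENNReal.ofReal_mul (by positivity)]
      refine add_le_add (mul_le_mul' (ENNReal.ofReal_le_ofReal ?_) le_rfl)
        (mul_le_mul' (le_of_eq ?_) (lintegral_mono_set (closedBall_subset_closedBall (by linarith))))
      · have e7 : q^2 * (Kg n p / (q * τ)) = q * (Kg n p / τ) := by
          have := h.q0
          field_simp
        rw [e7]
        have : 0 ≤ Kg n p / τ := div_nonneg hK ht.le
        nlinarith [h.q1]
      · congr 1
        ring
    -- conclusion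
    refine hsplit.trans ((add_le_add hin hout).trans ?_)
    have hlay : {y : Fin n → ℝ | ρ - τ / (1 - q) < ‖y‖ ∧ ‖y‖ ≤ ρ} =
        {y : Fin n → ℝ | ρ - τ / (1 - q) < ‖y‖ ∧ ‖y‖ ≤ ρ - τ} ∪
        {y : Fin n → ℝ | ρ - τ < ‖y‖ ∧ ‖y‖ ≤ ρ} := by
      have := h.le_div
      ext y
      simp only [mem_union, mem_ofPred_eq]
      constructor
      · rintro ⟨a, b⟩
        rcases le_or_gt ‖y‖ (ρ - τ) with h1 | h1
        · exact Or.inl ⟨a, h1⟩
        · exact Or.inr ⟨h1, b⟩
      · rintro (⟨a, b⟩ | ⟨a, b⟩)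
        · exact ⟨a, by linarith⟩
        · exact ⟨by linarith, b⟩
    rw [hlay, lintegral_union (measurableSet_layer _ _) ?_, mul_add]
    · apply le_of_eq
      ring
    · rw [Set.disjoint_left]
      rintro y ⟨_, a⟩ ⟨b, _⟩
      linarith

end Crest.Agent.R096.Sq_55
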