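import Crest.Agent.R096.Sq6_55

/-!
# R096 (row 96), SOBSQ, part 7 (helper55): the integral estimates for cubes and for tiles
-/

set_option autoImplicit false

open Set Metric Filter Topology MeasureTheory

namespace Crest.Agent.R096.Sq_55

open Crest.Agent.R096.Ce_537 Crest.Agent.R096.Bd_416 Crest.Agent.R96.Hole_348
open scoped ENNReal NNReal

variable {n : ℕ}

/-! ### the unit cube -/

theorem cgf_int {p : ℝ} (hp : 0 < p) (hn : 0 < n) {q : ℝ} (hq : q^2 = (2:ℝ)^(p - n))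
    {N : ℕ} {τ : ℝ} (h : GPar q τ 1) {u w : (Fin n → ℝ) → ℝ≥0∞} (hu : Measurable u)
    (hw : ∀ x c, ‖x‖ < 1 → 1 ≤ c → LLV c (cgf q τ N) x → w x ≤ ENNReal.ofReal (c^p)) :
    ∫⁻ x in ball (0 : Fin n → ℝ) 1, u (cgf q τ N x) * w x ≤
      ENNReal.ofReal (Kg n p / τ) *
        (∫⁻ y in {y : Fin n → ℝ | 1 - τ / (1 - q) < ‖y‖ ∧ ‖y‖ ≤ 1}, u y) +
      ENNReal.ofReal (Kg n p * q^(2*N)) * ∫⁻ y in closedBall (0 : Fin n → ℝ) 1, u y := by
  have h1 : ∀ x ∈ ball (0 : Fin n → ℝ) 1, u (cgf q τ N x) * w x = u (gf q N τ 1 x) * w x := by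
    intro x hx
    rw [mem_ball_zero_iff] at hx
    rw [cgf_in hx.le]
  rw [setLIntegral_congr_fun measurableSet_ball h1]
  refine gf_int hp hn hq h hu ?_
  intro x c hx hc hxc
  refine hw x c hx hc ?_
  filter_upwards [hxc, isOpen_ball.mem_nhds (show x ∈ ball (0 : Fin n → ℝ) 1 by simpa using hx)]
    with y hy hy2
  rw [mem_ball_zero_iff] at hy2
  rw [cgf_in hy2.le, cgf_in hx.le]
  exact hy

/-! ### scaling -/

lemma lint_scale {a : ℝ} (ha : 0 < a) (S : Set (Fin n → ℝ)) (F : (Fin n → ℝ) → ℝ≥0∞) :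
    ∫⁻ x in (fun x : Fin n → ℝ => a • x) ⁻¹' S, F (a • x) =
      ENNReal.ofReal (a^n)⁻¹ * ∫⁻ x in S, F x := by
  set e := (Homeomorph.smulOfNeZero (α := Fin n → ℝ) a ha.ne').toMeasurableEquiv with he
  have h2 : Measure.map e volume = ENNReal.ofReal (a^n)⁻¹ • (volume : Measure (Fin n → ℝ)) := by
    have := Measure.map_addHaar_smul (volume : Measure (Fin n → ℝ)) (r := a) ha.ne'
    rw [Module.finrank_fin_fun, abs_of_pos (by positivity)] at this
    exact this
  have h3 : (fun x : Fin n → ℝ => F (a • x)) = fun x => F (e x) := rfl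
  have h4 : (fun x : Fin n → ℝ => a • x) ⁻¹' S = e ⁻¹' S := rfl
  rw [h4, h3, ← lintegral_map_equiv F e, ← MeasurableEquiv.restrict_map, h2,
    Measure.restrict_smul, lintegral_smul_measure, smul_eq_mul]

lemma lint_scale' {a : ℝ} (ha : 0 < a) (S : Set (Fin n → ℝ)) (F : (Fin n → ℝ) → ℝ≥0∞) :
    ∫⁻ x in S, F x = ENNReal.ofReal (a^n) *
      ∫⁻ x in (fun x : Fin n → ℝ => a • x) ⁻¹' S, F (a • x) := by
  rw [lint_scale ha, ← mul_assoc, ← ENNReal.ofReal_mul (by positivity),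
    mul_inv_cancel₀ (by positivity), ENNReal.ofReal_one, one_mul]

/-! ### the diamond -/

/-- the layer of the diamond -/
def Lay (n : ℕ) (η : ℝ) : Set (ℝ × (Fin n → ℝ)) :=
  {z | |z.1| < 1 ∧ η * (1 - |z.1|) < ‖z.2‖ ∧ ‖z.2‖ ≤ 1 - |z.1|}

/-- the diamond without its apexes -/
def Tot (n : ℕ) : Set (ℝ × (Fin n → ℝ)) := {z | |z.1| < 1 ∧ ‖z.2‖ ≤ 1 - |z.1|}

lemma measurableSet_Lay (η : ℝ) : MeasurableSet (Lay n η) := by
  have h1 : Continuous fun z : ℝ × (Fin n → ℝ) => |z.1| := continuous_fst.abs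
  have h2 : Continuous fun z : ℝ × (Fin n → ℝ) => ‖z.2‖ := continuous_snd.norm
  exact (isOpen_lt h1 continuous_const).measurableSet.inter
    ((isOpen_lt (continuous_const.mul (continuous_const.sub h1)) h2).measurableSet.inter
      (isClosed_le h2 (continuous_const.sub h1)).measurableSet)

lemma measurableSet_Tot : MeasurableSet (Tot n) := by
  have h1 : Continuous fun z : ℝ × (Fin n → ℝ) => |z.1| := continuous_fst.abs
  have h2 : Continuous fun z : ℝ × (Fin n → ℝ) => ‖z.2‖ := continuous_snd.norm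
  exact (isOpen_lt h1 continuous_const).measurableSet.inter
      (isClosed_le h2 (continuous_const.sub h1)).measurableSet

/-- **the estimate in a slice** -/
lemma slice_int {p : ℝ} (hp : 0 < p) (hn : 0 < n) {q : ℝ} (hq : q^2 = (2:ℝ)^(p - n))
    {N : ℕ} {τ : ℝ} (h : GPar q τ 1) {u w : ℝ × (Fin n → ℝ) → ℝ≥0∞} (hu : Measurable u)
    (hw : ∀ z c, |z.1| + ‖z.2‖ < 1 → 1 ≤ c → LLV c (dia (cgf q τ N)) z →
      w z ≤ ENNReal.ofReal (c^p)) {s : ℝ} (hs : |s| < 1) :
    ∫⁻ y in ball (0 : Fin n → ℝ) (1 - |s|), u (dia (cgf q τ N) (s, y)) * w (s, y) ≤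
      ENNReal.ofReal (3^p * Kg n p / τ) *
        (∫⁻ y in {y : Fin n → ℝ | (1 - τ / (1 - q)) * (1 - |s|) < ‖y‖ ∧ ‖y‖ ≤ 1 - |s|}, u (s, y)) +
      ENNReal.ofReal (3^p * (Kg n p * q^(2*N))) *
        ∫⁻ y in closedBall (0 : Fin n → ℝ) (1 - |s|), u (s, y) := by
  set a := 1 - |s| with hadef
  have ha : 0 < a := by rw [hadef]; linarith
  have hK := Kg_nonneg (n := n) (p := p)
  have ht := h.t0
  have hq0 := h.q0
  have h3p : (0:ℝ) < (3:ℝ)^p := by positivity
  have e1 : (fun x : Fin n → ℝ => a • x) ⁻¹' ball (0 : Fin n → ℝ) a = ball 0 1 := by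
    ext x
    rw [mem_preimage, mem_ball_zero_iff, mem_ball_zero_iff, norm_smul, Real.norm_eq_abs,
      abs_of_pos ha]
    constructor
    · intro h1; nlinarith
    · intro h1; nlinarith
  have e2 : (fun x : Fin n → ℝ => a • x) ⁻¹' closedBall (0 : Fin n → ℝ) a = closedBall 0 1 := by
    ext x
    rw [mem_preimage, mem_closedBall_zero_iff, mem_closedBall_zero_iff, norm_smul,
      Real.norm_eq_abs, abs_of_pos ha]
    constructor
    · intro h1; nlinarith
    · intro h1; nlinarith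
  have e3 : (fun x : Fin n → ℝ => a • x) ⁻¹'
      {y : Fin n → ℝ | (1 - τ / (1 - q)) * a < ‖y‖ ∧ ‖y‖ ≤ a} =
      {y : Fin n → ℝ | 1 - τ / (1 - q) < ‖y‖ ∧ ‖y‖ ≤ 1} := by
    ext x
    simp only [mem_preimage, mem_ofPred_eq]
    rw [norm_smul, Real.norm_eq_abs, abs_of_pos ha]
    constructor
    · rintro ⟨h1, h2⟩
      exact ⟨by nlinarith, by nlinarith⟩
    · rintro ⟨h1, h2⟩
      exact ⟨by nlinarith, by nlinarith⟩
  set us : (Fin n → ℝ) → ℝ≥0∞ := fun y => u (s, a • y) with hus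
  set ws : (Fin n → ℝ) → ℝ≥0∞ := fun x => ENNReal.ofReal ((3:ℝ)^(-p)) * w (s, a • x) with hws
  have hum : Measurable us := hu.comp (by fun_prop)
  have hwb : ∀ x c, ‖x‖ < 1 → 1 ≤ c → LLV c (cgf q τ N) x → ws x ≤ ENNReal.ofReal (c^p) := by
    intro x c hx hc hxc
    have hz2 : ‖a • x‖ < a := by
      rw [norm_smul, Real.norm_eq_abs, abs_of_pos ha]; nlinarith
    have hz : |(s, a • x).1| + ‖(s, a • x).2‖ < 1 := by
      show |s| + ‖a • x‖ < 1
      rw [hadef] at hz2 ⊢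
      linarith
    have h5 : LLV (1 + 2 * c) (dia (cgf q τ N)) (s, a • x) := by
      refine LLV_dia (sg_cgf h) hs hz.le (by linarith) ?_
      show LLV c (cgf q τ N) ((1 - |s|)⁻¹ • (a • x))
      rw [← hadef, smul_smul, inv_mul_cancel₀ ha.ne', one_smul]
      exact hxc
    have h6 := hw (s, a • x) (1 + 2 * c) hz (by linarith) h5
    have h7 : ENNReal.ofReal ((1 + 2 * c)^p) ≤ ENNReal.ofReal ((3 * c)^p) :=
      ENNReal.ofReal_le_ofReal (Real.rpow_le_rpow (by linarith) (by linarith) hp.le)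
    refine (mul_le_mul' le_rfl (h6.trans h7)).trans (le_of_eq ?_)
    rw [← ENNReal.ofReal_mul (by positivity)]
    congr 1
    rw [Real.mul_rpow (by norm_num) (by linarith), ← mul_assoc,
      ← Real.rpow_add (by norm_num), neg_add_cancel, Real.rpow_zero, one_mul]
  have key := cgf_int hp hn hq (N := N) h hum hwb
  -- the left hand side
  have hL : ∫⁻ y in ball (0 : Fin n → ℝ) a, u (dia (cgf q τ N) (s, y)) * w (s, y) =
      ENNReal.ofReal (a^n) * (ENNReal.ofReal ((3:ℝ)^p) *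
        ∫⁻ x in ball (0 : Fin n → ℝ) 1, us (cgf q τ N x) * ws x) := by
    rw [lint_scale' ha, e1]
    congr 1
    rw [← lintegral_const_mul' _ _ ENNReal.ofReal_ne_top]
    refine lintegral_congr fun x => ?_
    have e5 : ENNReal.ofReal ((3:ℝ)^p) * ENNReal.ofReal ((3:ℝ)^(-p)) = 1 := by
      rw [← ENNReal.ofReal_mul (by positivity), ← Real.rpow_add (by norm_num),
        add_neg_cancel, Real.rpow_zero, ENNReal.ofReal_one]
    have e6 : dia (cgf q τ N) (s, a • x) = (s, a • cgf q τ N x) := by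
      rw [dia_of_lt (show |(s, a • x).1| < 1 from hs)]
      show (s, (1 - |s|) • cgf q τ N ((1 - |s|)⁻¹ • (a • x))) = _
      rw [← hadef, smul_smul, inv_mul_cancel₀ ha.ne', one_smul]
    rw [e6]
    show u (s, a • cgf q τ N x) * w (s, a • x) = ENNReal.ofReal ((3:ℝ)^p) *
      (u (s, a • cgf q τ N x) * (ENNReal.ofReal ((3:ℝ)^(-p)) * w (s, a • x)))
    calc _ = (ENNReal.ofReal ((3:ℝ)^p) * ENNReal.ofReal ((3:ℝ)^(-p))) *
          (u (s, a • cgf q τ N x) * w (s, a • x)) := by rw [e5, one_mul]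
      _ = _ := by ring
  rw [hL, lint_scale' ha {y : Fin n → ℝ | (1 - τ / (1 - q)) * a < ‖y‖ ∧ ‖y‖ ≤ a} (fun y => u (s, y)),
    lint_scale' ha (closedBall (0 : Fin n → ℝ) a) (fun y => u (s, y)), e2, e3]
  refine (mul_le_mul' le_rfl (mul_le_mul' le_rfl key)).trans (le_of_eq ?_)
  rw [show (3:ℝ)^p * Kg n p / τ = 3^p * (Kg n p / τ) by ring,
    ENNReal.ofReal_mul h3p.le, ENNReal.ofReal_mul h3p.le]
  ring

theorem dia_int {p : ℝ} (hp : 0 < p) (hn : 0 < n) {q : ℝ} (hq : q^2 = (2:ℝ)^(p - n))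
    {N : ℕ} {τ : ℝ} (h : GPar q τ 1) {u w : ℝ × (Fin n → ℝ) → ℝ≥0∞} (hu : Measurable u)
    (hw : ∀ z c, |z.1| + ‖z.2‖ < 1 → 1 ≤ c → LLV c (dia (cgf q τ N)) z →
      w z ≤ ENNReal.ofReal (c^p)) :
    ∫⁻ z in {z : ℝ × (Fin n → ℝ) | |z.1| + ‖z.2‖ < 1}, u (dia (cgf q τ N) z) * w z ≤
      ENNReal.ofReal (3^p * Kg n p / τ) * (∫⁻ z in Lay n (1 - τ / (1 - q)), u z) +
      ENNReal.ofReal (3^p * (Kg n p * q^(2*N))) * ∫⁻ z in Tot n, u z := by
  classical
  have h1 : Continuous fun z : ℝ × (Fin n → ℝ) => |z.1| := continuous_fst.abs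
  have h2 : Continuous fun z : ℝ × (Fin n → ℝ) => ‖z.2‖ := continuous_snd.norm
  have hOm : MeasurableSet {z : ℝ × (Fin n → ℝ) | |z.1| + ‖z.2‖ < 1} :=
    (isOpen_lt (h1.add h2) continuous_const).measurableSet
  have hslice : ∀ (B : Set (ℝ × (Fin n → ℝ))), MeasurableSet B → ∀ F : ℝ × (Fin n → ℝ) → ℝ≥0∞,
      ∀ s : ℝ, ∫⁻ y, B.indicator F (s, y) = ∫⁻ y in {y | (s, y) ∈ B}, F (s, y) := by
    intro B hB F s
    have hBs : MeasurableSet {y : Fin n → ℝ | (s, y) ∈ B} := hB.preimage (by fun_prop)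
    rw [← lintegral_indicator hBs]
    rfl
  calc ∫⁻ z in {z : ℝ × (Fin n → ℝ) | |z.1| + ‖z.2‖ < 1}, u (dia (cgf q τ N) z) * w z
      = ∫⁻ z, {z : ℝ × (Fin n → ℝ) | |z.1| + ‖z.2‖ < 1}.indicator
          (fun z => u (dia (cgf q τ N) z) * w z) z := (lintegral_indicator hOm _).symm
    _ ≤ ∫⁻ s : ℝ, ∫⁻ y : Fin n → ℝ, {z : ℝ × (Fin n → ℝ) | |z.1| + ‖z.2‖ < 1}.indicator
          (fun z => u (dia (cgf q τ N) z) * w z) (s, y) := by
        rw [Measure.volume_eq_prod]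
        exact lintegral_prod_le _
    _ ≤ ∫⁻ s : ℝ, (ENNReal.ofReal (3^p * Kg n p / τ) *
          (∫⁻ y : Fin n → ℝ, (Lay n (1 - τ / (1 - q))).indicator u (s, y)) +
          ENNReal.ofReal (3^p * (Kg n p * q^(2*N))) *
            ∫⁻ y : Fin n → ℝ, (Tot n).indicator u (s, y)) := by
        refine lintegral_mono fun s => ?_
        rw [hslice _ hOm, hslice _ (measurableSet_Lay _), hslice _ measurableSet_Tot]
        by_cases hs : |s| < 1
        · have e1 : {y : Fin n → ℝ | (s, y) ∈ {z : ℝ × (Fin n → ℝ) | |z.1| + ‖z.2‖ < 1}} =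
              ball 0 (1 - |s|) := by
            ext y
            simp only [mem_ofPred_eq, mem_ball_zero_iff]
            constructor <;> intro h <;> linarith
          have e2 : {y : Fin n → ℝ | (s, y) ∈ Lay n (1 - τ / (1 - q))} =
              {y : Fin n → ℝ | (1 - τ / (1 - q)) * (1 - |s|) < ‖y‖ ∧ ‖y‖ ≤ 1 - |s|} := by
            ext y
            simp only [Lay, mem_ofPred_eq]
            exact ⟨fun h => h.2, fun h => ⟨hs, h⟩⟩
          have e3 : {y : Fin n → ℝ | (s, y) ∈ Tot n} = closedBall 0 (1 - |s|) := by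
            ext y
            simp only [Tot, mem_ofPred_eq, mem_closedBall_zero_iff]
            exact ⟨fun h => h.2, fun h => ⟨hs, h⟩⟩
          rw [e1, e2, e3]
          exact slice_int hp hn hq h hu hw hs
        · have e1 : {y : Fin n → ℝ | (s, y) ∈ {z : ℝ × (Fin n → ℝ) | |z.1| + ‖z.2‖ < 1}} = ∅ := by
            ext y
            simp only [mem_ofPred_eq, mem_empty_iff_false, iff_false]
            intro h
            linarith [norm_nonneg y, not_lt.1 hs]
          rw [e1]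
          simp
    _ = ENNReal.ofReal (3^p * Kg n p / τ) *
          (∫⁻ s : ℝ, ∫⁻ y : Fin n → ℝ, (Lay n (1 - τ / (1 - q))).indicator u (s, y)) +
          ENNReal.ofReal (3^p * (Kg n p * q^(2*N))) *
            ∫⁻ s : ℝ, ∫⁻ y : Fin n → ℝ, (Tot n).indicator u (s, y) := by
        have hm1 : Measurable fun s : ℝ => ∫⁻ y : Fin n → ℝ,
            (Lay n (1 - τ / (1 - q))).indicator u (s, y) :=
          (hu.indicator (measurableSet_Lay _)).lintegral_prod_right'
        rw [lintegral_add_left (hm1.const_mul _), lintegral_const_mul' _ _ ENNReal.ofReal_ne_top,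
          lintegral_const_mul' _ _ ENNReal.ofReal_ne_top]
    _ = _ := by
        rw [← lintegral_indicator (measurableSet_Lay _), ← lintegral_indicator measurableSet_Tot,
          Measure.volume_eq_prod,
          lintegral_prod _ (hu.indicator (measurableSet_Lay _)).aemeasurable,
          lintegral_prod _ (hu.indicator measurableSet_Tot).aemeasurable]

end Crest.Agent.R096.Sq_55
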