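import Crest.Agent.R096.Sq7_55

/-!
# R096 (row 96), SOBSQ, part 8 (helper55): the integral estimates for tiles and for cubes in
`ℝ^(n+1)`
-/

set_option autoImplicit false

open Set Metric Filter Topology MeasureTheory

namespace Crest.Agent.R096.Sq_55

open Crest.Agent.R096.Ce_537 Crest.Agent.R096.Bd_416 Crest.Agent.R96.Hole_348
open scoped ENNReal NNReal

variable {n : ℕ}

namespace Tile

variable (f : Tile n)

/-- the chart as a homeomorphism -/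
noncomputable def dnH : (Fin (n+1) → ℝ) ≃ₜ ℝ × (Fin n → ℝ) where
  toFun := f.dn
  invFun := f.up
  left_inv := f.up_dn
  right_inv := f.dn_up
  continuous_toFun := f.continuous_dn
  continuous_invFun := f.continuous_up

lemma isAddHaar : (volume : Measure (ℝ × (Fin n → ℝ))).IsAddHaarMeasure := by
  rw [Measure.volume_eq_prod]; infer_instance

/-- the chart scales the measure -/
lemma map_dn : ∃ c : ℝ≥0∞, Measure.map f.dn volume = c • (volume : Measure (ℝ × (Fin n → ℝ))) := by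
  set P : (Fin (n+1) → ℝ) ≃ᵐ ℝ × (Fin n → ℝ) :=
    MeasurableEquiv.piFinSuccAbove (fun _ : Fin (n+1) => ℝ) f.i with hP
  have h1 : f.dn = (fun z : ℝ × (Fin n → ℝ) => f.ρ⁻¹ • z) ∘ (fun z => z + (- P f.m)) ∘ P := by
    funext x
    refine Prod.ext ?_ (funext fun j => ?_)
    · show f.ρ⁻¹ * (x f.i - f.m f.i) = f.ρ⁻¹ * (x f.i + - f.m f.i)
      ring
    · show f.ρ⁻¹ * (x (f.i.succAbove j) - f.m (f.i.succAbove j)) =
        f.ρ⁻¹ * (x (f.i.succAbove j) + - f.m (f.i.succAbove j))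
      ring
  haveI := isAddHaar (n := n)
  have h2 : Measure.map P volume = volume :=
    (volume_preserving_piFinSuccAbove (fun _ : Fin (n+1) => ℝ) f.i).map_eq
  have h3 : Measure.map (fun z : ℝ × (Fin n → ℝ) => z + (- P f.m)) volume = volume :=
    (measurePreserving_add_right (volume : Measure (ℝ × (Fin n → ℝ))) (- P f.m)).map_eq
  have h4 := Measure.map_addHaar_smul (volume : Measure (ℝ × (Fin n → ℝ))) (r := f.ρ⁻¹)
    (inv_ne_zero f.pos.ne')
  refine ⟨ENNReal.ofReal |(f.ρ⁻¹ ^ Module.finrank ℝ (ℝ × (Fin n → ℝ)))⁻¹|, ?_⟩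
  rw [h1, ← Measure.map_map (by fun_prop) (by fun_prop), ← Measure.map_map (by fun_prop)
    P.measurable, h2, h3]
  exact h4

lemma lint_dn (c : ℝ≥0∞) (hc : Measure.map f.dn volume = c • (volume : Measure (ℝ × (Fin n → ℝ))))
    (S : Set (ℝ × (Fin n → ℝ))) (F : ℝ × (Fin n → ℝ) → ℝ≥0∞) :
    ∫⁻ x in f.dn ⁻¹' S, F (f.dn x) = c * ∫⁻ z in S, F z := by
  set e := f.dnH.toMeasurableEquiv with he
  have h3 : (fun x => F (f.dn x)) = fun x => F (e x) := rfl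
  have h4 : f.dn ⁻¹' S = e ⁻¹' S := rfl
  have h2 : Measure.map e volume = c • (volume : Measure (ℝ × (Fin n → ℝ))) := hc
  rw [h4, h3, ← lintegral_map_equiv F e, ← MeasurableEquiv.restrict_map, h2,
    Measure.restrict_smul, lintegral_smul_measure, smul_eq_mul]

/-- **the estimate for one tile** -/
theorem tile_int {p : ℝ} (hp : 0 < p) (hn : 0 < n) {q : ℝ} (hq : q^2 = (2:ℝ)^(p - n))
    {N : ℕ} {τ : ℝ} (h : GPar q τ 1) {u w : (Fin (n+1) → ℝ) → ℝ≥0∞} (hu : Measurable u)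
    (hw : ∀ x ∈ f.O, ∀ c, 1 ≤ c → LLV c (f.T (cgf q τ N)) x → w x ≤ ENNReal.ofReal (c^p)) :
    ∫⁻ x in f.O, u (f.T (cgf q τ N) x) * w x ≤
      ENNReal.ofReal (3^p * Kg n p / τ) *
        (∫⁻ x in f.dn ⁻¹' Lay n (1 - τ / (1 - q)), u x) +
      ENNReal.ofReal (3^p * (Kg n p * q^(2*N))) * ∫⁻ x in f.dn ⁻¹' Tot n, u x := by
  obtain ⟨c, hc⟩ := f.map_dn
  have key := dia_int hp hn hq (N := N) h (u := fun z => u (f.up z)) (w := fun z => w (f.up z))
    (hu.comp f.continuous_up.measurable) (by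
      intro z c hz hc1 hzc
      have hO : f.up z ∈ f.O := by
        show |(f.dn (f.up z)).1| + ‖(f.dn (f.up z)).2‖ < 1
        rw [f.dn_up]; exact hz
      refine hw _ hO c hc1 (f.LLV_T ?_)
      rw [f.dn_up]; exact hzc)
  have e1 : ∫⁻ x in f.O, u (f.T (cgf q τ N) x) * w x =
      c * ∫⁻ z in {z : ℝ × (Fin n → ℝ) | |z.1| + ‖z.2‖ < 1},
        u (f.up (dia (cgf q τ N) z)) * w (f.up z) := by
    rw [← f.lint_dn c hc]
    refine lintegral_congr fun x => ?_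
    rw [f.up_dn]
    rfl
  have e2 : ∀ S : Set (ℝ × (Fin n → ℝ)), ∫⁻ x in f.dn ⁻¹' S, u x =
      c * ∫⁻ z in S, u (f.up z) := by
    intro S
    rw [← f.lint_dn c hc]
    refine lintegral_congr fun x => ?_
    rw [f.up_dn]
  rw [e1, e2, e2]
  refine (mul_le_mul' le_rfl key).trans (le_of_eq ?_)
  ring

end Tile

/-! ### cubes -/

/-- a cube: centre and half side -/
structure Cub (d : ℕ) where
  c : Fin d → ℝ
  R : ℝ
  pos : 0 < R

namespace Cub

variable {d : ℕ} (Q : Cub d)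

/-- normalised coordinates -/
noncomputable def dn (x : Fin d → ℝ) : Fin d → ℝ := Q.R⁻¹ • (x - Q.c)

/-- the inverse -/
noncomputable def up (z : Fin d → ℝ) : Fin d → ℝ := Q.c + Q.R • z

lemma dn_up (z : Fin d → ℝ) : Q.dn (Q.up z) = z := by
  simp [dn, up, smul_smul, inv_mul_cancel₀ Q.pos.ne']

lemma up_dn (x : Fin d → ℝ) : Q.up (Q.dn x) = x := by
  simp [dn, up, smul_smul, mul_inv_cancel₀ Q.pos.ne']

lemma continuous_dn : Continuous Q.dn := by unfold dn; fun_prop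
lemma continuous_up : Continuous Q.up := by unfold up; fun_prop

lemma dn_sub (x y : Fin d → ℝ) : ‖Q.dn x - Q.dn y‖ = Q.R⁻¹ * ‖x - y‖ := by
  rw [dn, dn, ← smul_sub, sub_sub_sub_cancel_right, norm_smul, norm_inv, Real.norm_eq_abs,
    abs_of_pos Q.pos]

lemma up_sub (x y : Fin d → ℝ) : ‖Q.up x - Q.up y‖ = Q.R * ‖x - y‖ := by
  rw [up, up, add_sub_add_left_eq_sub, ← smul_sub, norm_smul, Real.norm_eq_abs,
    abs_of_pos Q.pos]

lemma norm_dn (x : Fin d → ℝ) : ‖Q.dn x‖ = Q.R⁻¹ * ‖x - Q.c‖ := by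
  rw [dn, norm_smul, norm_inv, Real.norm_eq_abs, abs_of_pos Q.pos]

lemma plOn_dn : PLOn Q.dn univ := pl_smul _ (pl_sub_const (plOn_id _) _)

lemma plOn_up : PLOn Q.up univ := by
  have h : PLOn (fun z : Fin d → ℝ => Q.R • z + Q.c) univ :=
    pl_add_const (pl_smul _ (plOn_id _)) _
  refine h.congr fun z _ => ?_
  show Q.c + Q.R • z = _
  rw [add_comm]

/-- the open cube -/
def I : Set (Fin d → ℝ) := {x | ‖x - Q.c‖ < Q.R}

/-- the closed cube -/
def K : Set (Fin d → ℝ) := {x | ‖x - Q.c‖ ≤ Q.R}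

lemma isOpen_I : IsOpen Q.I := isOpen_lt (continuous_id.sub continuous_const).norm continuous_const
lemma isClosed_K : IsClosed Q.K :=
  isClosed_le (continuous_id.sub continuous_const).norm continuous_const
lemma I_subset_K : Q.I ⊆ Q.K := fun x h => by
  have h1 : ‖x - Q.c‖ < Q.R := h
  exact h1.le

lemma mem_I {x : Fin d → ℝ} : x ∈ Q.I ↔ ‖Q.dn x‖ < 1 := by
  rw [norm_dn, inv_mul_lt_iff₀ Q.pos, mul_one]; rfl

lemma mem_K {x : Fin d → ℝ} : x ∈ Q.K ↔ ‖Q.dn x‖ ≤ 1 := by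
  rw [norm_dn, inv_mul_le_iff₀ Q.pos, mul_one]; rfl

/-- the layer at the boundary -/
def L (η : ℝ) : Set (Fin d → ℝ) := {x | η * Q.R < ‖x - Q.c‖ ∧ ‖x - Q.c‖ ≤ Q.R}

/-- transport of a homeomorphism -/
noncomputable def H (χ : (Fin d → ℝ) ≃ₜ (Fin d → ℝ)) : (Fin d → ℝ) ≃ₜ (Fin d → ℝ) where
  toFun x := Q.up (χ (Q.dn x))
  invFun x := Q.up (χ.symm (Q.dn x))
  left_inv x := by
    show Q.up (χ.symm (Q.dn (Q.up (χ (Q.dn x))))) = x
    rw [dn_up, χ.symm_apply_apply, up_dn]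
  right_inv x := by
    show Q.up (χ (Q.dn (Q.up (χ.symm (Q.dn x))))) = x
    rw [dn_up, χ.apply_symm_apply, up_dn]
  continuous_toFun := Q.continuous_up.comp (χ.continuous.comp Q.continuous_dn)
  continuous_invFun := Q.continuous_up.comp (χ.symm.continuous.comp Q.continuous_dn)

lemma H_apply (χ : (Fin d → ℝ) ≃ₜ (Fin d → ℝ)) (x : Fin d → ℝ) :
    Q.H χ x = Q.up (χ (Q.dn x)) := rfl

/-- the squeeze of the cube -/
noncomputable def S {q τ : ℝ} (N : ℕ) (hP : GPar q τ 1) : (Fin d → ℝ) ≃ₜ (Fin d → ℝ) :=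
  Q.H (gchi (N := N) hP)

lemma S_apply {q τ : ℝ} {N : ℕ} (hP : GPar q τ 1) (x : Fin d → ℝ) :
    Q.S N hP x = Q.up (cgf q τ N (Q.dn x)) := rfl

lemma S_out {q τ : ℝ} {N : ℕ} (hP : GPar q τ 1) {x : Fin d → ℝ} (hx : x ∉ Q.I) :
    Q.S N hP x = x := by
  rw [mem_I, not_lt] at hx
  rw [S_apply, cgf_out hx, up_dn]

lemma plOn_S {q τ : ℝ} {N : ℕ} (hP : GPar q τ 1) : PLOn (Q.S N hP) univ :=
  Q.plOn_up.comp ((plOn_cgf (N := N) hP).comp Q.plOn_dn (mapsTo_univ _ _)) (mapsTo_univ _ _)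

lemma plOn_S_symm {q τ : ℝ} {N : ℕ} (hP : GPar q τ 1) : PLOn (Q.S N hP).symm univ :=
  Q.plOn_up.comp ((plOn_cgg (N := N) hP).comp Q.plOn_dn (mapsTo_univ _ _)) (mapsTo_univ _ _)

lemma LLV_S {q τ : ℝ} {N : ℕ} (hP : GPar q τ 1) {c : ℝ} {x : Fin d → ℝ}
    (h : LLV c (cgf q τ N) (Q.dn x)) : LLV c (Q.S N hP) x := by
  have hR := Q.pos
  filter_upwards [Q.continuous_dn.continuousAt.eventually h] with y hy
  rw [S_apply, S_apply, up_sub]
  calc Q.R * ‖cgf q τ N (Q.dn y) - cgf q τ N (Q.dn x)‖ ≤ Q.R * (c * ‖Q.dn y - Q.dn x‖) :=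
        mul_le_mul_of_nonneg_left hy hR.le
    _ = c * ‖y - x‖ := by rw [dn_sub]; field_simp

lemma map_dn : ∃ c : ℝ≥0∞, Measure.map Q.dn volume = c • (volume : Measure (Fin d → ℝ)) := by
  have h1 : Q.dn = (fun z : Fin d → ℝ => Q.R⁻¹ • z) ∘ (fun z => z + (- Q.c)) := by
    funext x
    simp [dn, sub_eq_add_neg]
  have h3 : Measure.map (fun z : Fin d → ℝ => z + (- Q.c)) volume = volume :=
    (measurePreserving_add_right (volume : Measure (Fin d → ℝ)) (- Q.c)).map_eq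
  have h4 := Measure.map_addHaar_smul (volume : Measure (Fin d → ℝ)) (r := Q.R⁻¹)
    (inv_ne_zero Q.pos.ne')
  refine ⟨ENNReal.ofReal |(Q.R⁻¹ ^ Module.finrank ℝ (Fin d → ℝ))⁻¹|, ?_⟩
  rw [h1, ← Measure.map_map (by fun_prop) (by fun_prop), h3]
  exact h4

/-- the chart as a homeomorphism -/
noncomputable def dnH : (Fin d → ℝ) ≃ₜ (Fin d → ℝ) where
  toFun := Q.dn
  invFun := Q.up
  left_inv := Q.up_dn
  right_inv := Q.dn_up
  continuous_toFun := Q.continuous_dn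
  continuous_invFun := Q.continuous_up

lemma lint_dn (c : ℝ≥0∞) (hc : Measure.map Q.dn volume = c • (volume : Measure (Fin d → ℝ)))
    (S : Set (Fin d → ℝ)) (F : (Fin d → ℝ) → ℝ≥0∞) :
    ∫⁻ x in Q.dn ⁻¹' S, F (Q.dn x) = c * ∫⁻ z in S, F z := by
  set e := Q.dnH.toMeasurableEquiv with he
  have h3 : (fun x => F (Q.dn x)) = fun x => F (e x) := rfl
  have h4 : Q.dn ⁻¹' S = e ⁻¹' S := rfl
  have h2 : Measure.map e volume = c • (volume : Measure (Fin d → ℝ)) := hc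
  rw [h4, h3, ← lintegral_map_equiv F e, ← MeasurableEquiv.restrict_map, h2,
    Measure.restrict_smul, lintegral_smul_measure, smul_eq_mul]

/-- **the estimate for one cube** -/
theorem cube_int {p : ℝ} (hp : 0 < p) (hd : 0 < d) {q : ℝ} (hq : q^2 = (2:ℝ)^(p - d))
    {N : ℕ} {τ : ℝ} (h : GPar q τ 1) {u w : (Fin d → ℝ) → ℝ≥0∞} (hu : Measurable u)
    (hw : ∀ x ∈ Q.I, ∀ c, 1 ≤ c → LLV c (Q.S N h) x → w x ≤ ENNReal.ofReal (c^p)) :
    ∫⁻ x in Q.I, u (Q.S N h x) * w x ≤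
      ENNReal.ofReal (Kg d p / τ) * (∫⁻ x in Q.L (1 - τ / (1 - q)), u x) +
      ENNReal.ofReal (Kg d p * q^(2*N)) * ∫⁻ x in Q.K, u x := by
  obtain ⟨c, hc⟩ := Q.map_dn
  have key := cgf_int hp hd hq (N := N) h (u := fun z => u (Q.up z)) (w := fun z => w (Q.up z))
    (hu.comp Q.continuous_up.measurable) (by
      intro z c hz hc1 hzc
      have hI : Q.up z ∈ Q.I := by rw [mem_I, dn_up]; exact hz
      refine hw _ hI c hc1 (Q.LLV_S h ?_)
      rw [dn_up]; exact hzc)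
  have s1 : Q.I = Q.dn ⁻¹' ball 0 1 := by
    ext x; rw [mem_I, mem_preimage, mem_ball_zero_iff]
  have s2 : Q.K = Q.dn ⁻¹' closedBall 0 1 := by
    ext x; rw [mem_K, mem_preimage, mem_closedBall_zero_iff]
  have s3 : Q.L (1 - τ / (1 - q)) =
      Q.dn ⁻¹' {y | 1 - τ / (1 - q) < ‖y‖ ∧ ‖y‖ ≤ 1} := by
    ext x
    have hR := Q.pos
    simp only [L, mem_ofPred_eq, mem_preimage]
    rw [norm_dn, lt_inv_mul_iff₀ hR, inv_mul_le_iff₀ hR, mul_one, mul_comm Q.R]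
  have e1 : ∫⁻ x in Q.I, u (Q.S N h x) * w x =
      c * ∫⁻ z in ball (0 : Fin d → ℝ) 1, u (Q.up (cgf q τ N z)) * w (Q.up z) := by
    rw [← Q.lint_dn c hc, ← s1]
    refine lintegral_congr fun x => ?_
    rw [Q.up_dn]
    rfl
  have e2 : ∀ S : Set (Fin d → ℝ), ∫⁻ x in Q.dn ⁻¹' S, u x =
      c * ∫⁻ z in S, u (Q.up z) := by
    intro S
    rw [← Q.lint_dn c hc]
    refine lintegral_congr fun x => ?_
    rw [Q.up_dn]
  rw [e1, s2, s3, e2, e2]
  refine (mul_le_mul' le_rfl key).trans (le_of_eq ?_)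
  ring

end Cub

end Crest.Agent.R096.Sq_55
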