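import Crest.Agent.R096.Sqt7_143

/-!
Row 96 (S0127), helper143.  SQ-TUBE, part 9: **the integral estimate near the edges** (`tube_int`):
the localised form of 55's estimate, with the thickness `δ` replaced by `C (δ/R) u`.
-/

set_option autoImplicit false

open Set Metric Filter Topology MeasureTheory

namespace Crest.Agent.R096.Sqt_143

open Crest.Agent.R096.Ce_537 Crest.Agent.R096.Bd_416 Crest.Agent.R96.Hole_348
open Crest.Agent.R096.Sq_55
open scoped NNReal ENNReal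

variable {κ ι : Type*} [Fintype κ] [Fintype ι] {X : Sys κ ι} {p δ : ℝ}

/-- **change of variables for `chi` where only the outermost shells act**, with separate targets -/
theorem lint_chi2 (h : X.Adm p δ) (N₁ N₂ : ℕ) (k : κ)
    (hτF : ∀ j, X.ηF δ j * (1 - qF p) ≤ 1/8) {S : Set E3} (mS : MeasurableSet S)
    (hS : S ⊆ CW (X.C k)) {A : Set E3} (mA : MeasurableSet A) {B : ι → Set E3}
    (mB : ∀ j, MeasurableSet (B j))
    (hA : ∀ x ∈ S, (∀ j, Sys.Y h (N₂+1) x ∉ (X.F j).V) → Sys.chi h (N₁+1) (N₂+1) x ∈ A)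
    (hB : ∀ x ∈ S, ∀ j, Sys.Y h (N₂+1) x ∈ (X.F j).V → Sys.Y h (N₂+1) x ∈ FW (X.F j) ∧
      Sys.chi h (N₁+1) (N₂+1) x ∈ B j)
    {g : E3 → ℝ≥0∞} (hg : Measurable g) :
    ∫⁻ x in S, g (Sys.chi h (N₁+1) (N₂+1) x) ≤
      (((X.C k).M * (X.C k).M : ℝ≥0) : ℝ≥0∞)^3 *
        ENNReal.ofReal (kap 3 / (X.ηC δ k * (1 - qn 3 p))) * ((∫⁻ x in A, g x) +
        ∑ j, (((X.F j).M * (X.F j).M : ℝ≥0) : ℝ≥0∞)^3 *
          ENNReal.ofReal (kd / (X.ηF δ j * (1 - qF p))) * ∫⁻ x in (X.F j).V ∩ B j, g x) := by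
  classical
  set Y := Sys.Y h (N₂+1) with hY
  set H := Sys.H h (N₁+1) with hH
  set A0 : Set E3 := ⋂ j, ((X.F j).V)ᶜ with hA0
  have mA0 : MeasurableSet A0 :=
    MeasurableSet.iInter fun j => (X.F j).cht.opU.measurableSet.compl
  set t : ι → E3 → ℝ≥0∞ := fun j => (FW (X.F j)).indicator fun y => (B j).indicator g (H y) with ht
  have mt : ∀ j, Measurable (t j) := fun j =>
    ((hg.indicator (mB j)).comp H.continuous.measurable).indicator (isOpen_FW _).measurableSet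
  set g1 : E3 → ℝ≥0∞ := fun y => A0.indicator (A.indicator g) y + ∑ j, t j y with hg1
  have m0 : Measurable (A0.indicator (A.indicator g)) := (hg.indicator mA).indicator mA0
  have mg1 : Measurable g1 := m0.add (Finset.measurable_sum _ fun j _ => mt j)
  have hpt : ∀ x ∈ S, g (H (Y x)) ≤ g1 (Y x) := by
    intro x hx
    by_cases hV : ∃ j, Y x ∈ (X.F j).V
    · obtain ⟨j, hj⟩ := hV
      obtain ⟨k1, k2⟩ := hB x hx j hj
      have k2' : H (Y x) ∈ B j := k2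
      refine le_trans ?_ le_add_self
      refine le_trans (le_of_eq ?_) (Finset.single_le_sum (f := fun j => t j (Y x))
        (fun _ _ => zero_le) (Finset.mem_univ j))
      show g (H (Y x)) = (FW (X.F j)).indicator (fun y => (B j).indicator g (H y)) (Y x)
      rw [indicator_of_mem k1, indicator_of_mem k2']
    · push Not at hV
      have h1 : H (Y x) = Y x := Sys.H_out h (N₁+1) hV
      have h2 : H (Y x) ∈ A := hA x hx hV
      have h3 : Y x ∈ A0 := mem_iInter.2 hV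
      refine le_trans (le_of_eq ?_) le_self_add
      rw [indicator_of_mem h3]
      rw [h1] at h2 ⊢
      rw [indicator_of_mem h2]
  -- the cell step
  have s1 : ∫⁻ x in S, g (Sys.chi h (N₁+1) (N₂+1) x) ≤
      (((X.C k).M * (X.C k).M : ℝ≥0) : ℝ≥0∞)^3 *
        ENNReal.ofReal (kap 3 / (X.ηC δ k * (1 - qn 3 p))) * ∫⁻ x in (X.C k).P, g1 x := by
    have e1 : ∫⁻ x in S, g (Sys.chi h (N₁+1) (N₂+1) x) ≤
        ∫⁻ x in CW (X.C k), g1 ((X.C k).e' (outer (X.ηC δ k * (1 - qn 3 p)) 1 ((X.C k).e x))) := by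
      refine le_trans (setLIntegral_mono_ae' mS (Eventually.of_forall fun x hx => ?_))
        (lintegral_mono_set hS)
      rw [← Y_outer h N₂ (hS hx)]
      exact hpt x hx
    refine e1.trans (lint_cell (X.C k) (Sys.gC h k).t0 ?_ mg1)
    have := (Sys.gC h k).half_le; linarith
  refine s1.trans (mul_le_mul' le_rfl ((setLIntegral_le_lintegral _ _).trans ?_))
  rw [lintegral_add_left m0, lintegral_finsetSum _ fun j _ => mt j]
  refine add_le_add ?_ (Finset.sum_le_sum fun j _ => ?_)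
  · refine (lintegral_mono (indicator_le_self' fun _ _ => zero_le)).trans ?_
    rw [lintegral_indicator mA]
  · show ∫⁻ x, (FW (X.F j)).indicator (fun y => (B j).indicator g (H y)) x ≤ _
    rw [lintegral_indicator (isOpen_FW _).measurableSet]
    have e1 : ∫⁻ x in FW (X.F j), (B j).indicator g (H x) =
        ∫⁻ x in FW (X.F j), (B j).indicator g
          ((X.F j).e' (fo (X.ηF δ j * (1 - qF p)) ((X.F j).e x))) := by
      refine setLIntegral_congr_fun (isOpen_FW _).measurableSet fun x hx => ?_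
      show (B j).indicator g (H x) = _
      rw [hH, H_fo h N₁ hx]
    rw [e1]
    refine (lint_face (X.F j) (Sys.gF h j).t0 (hτF j) (hg.indicator (mB j))).trans
      (mul_le_mul' le_rfl ?_)
    have e2 : (X.F j).K ⊆ (X.F j).V ∪ ((X.F j).K \ (X.F j).V) := by
      intro x hx
      by_cases h1 : x ∈ (X.F j).V
      · exact Or.inl h1
      · exact Or.inr ⟨hx, h1⟩
    refine (lintegral_mono_set e2).trans ((lintegral_union_le _ _ _).trans ?_)
    rw [setLIntegral_measure_zero _ _ (X.F j).null, add_zero, setLIntegral_indicator (mB j),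
      inter_comm]

/-- the constant of the tube -/
noncomputable def CT (p : ℝ) (m : ℝ≥0) : ℝ :=
  ((m:ℝ)^6 * (3 * (m:ℝ)^3 * (|kap 3| / (1 - qn 3 p)))) *
    (1 + (m:ℝ)^6 * (2 * (m:ℝ) * (|kd| / (1 - qF p))))

lemma inf_pt {E : Set E3} (hE : IsCompact E) {u : ℝ} {x : E3} (hx : x ∈ cthickening u E) (hu : 0 ≤ u) :
    ∃ y ∈ E, ‖x - y‖ ≤ u := by
  rw [hE.cthickening_eq_biUnion_closedBall hu] at hx
  obtain ⟨y, hy, hxy⟩ := mem_iUnion₂.1 hx
  exact ⟨y, hy, by rwa [mem_closedBall, dist_eq_norm] at hxy⟩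

lemma mem_cth {E : Set E3} {u : ℝ} {x y : E3} (hy : y ∈ E) (h : ‖x - y‖ ≤ u) :
    x ∈ cthickening u E := by
  refine mem_cthickening_of_dist_le x y u E hy ?_
  rwa [dist_eq_norm]

/-- **the localised estimate** -/
theorem tube_int (h : X.Adm p δ) (N₁ N₂ : ℕ) (k : κ) (hδ : ∀ j, 4 * δ ≤ (X.F j).ρ)
    (hρ : ∀ j, ((X.F j).V ∩ (X.C k).P).Nonempty → (X.C k).R ≤ X.m k * (X.F j).ρ)
    {E : Set E3} (hE : IsCompact E) (hEU : ∀ y ∈ E, y ∉ (X.C k).U)
    (hEV : ∀ y ∈ E, ∀ j, y ∉ (X.F j).V) {u : ℝ} (hu0 : 0 ≤ u)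
    (hu : 40 * (X.m k : ℝ)^4 * u ≤ (X.C k).R) {g : E3 → ℝ≥0∞} (hg : Measurable g) :
    ∫⁻ x in (X.C k).P ∩ cthickening u E, g (Sys.chi h (N₁+1) (N₂+1) x) ≤
      ENNReal.ofReal (CT p (X.m k)) * (ENNReal.ofReal ((X.C k).R / δ) *
        ((∑ j, ENNReal.ofReal ((X.F j).ρ / δ) *
          ∫⁻ x in (X.C k).P ∩ (X.F j).V ∩ cthickening (25 * (X.m k : ℝ)^4 * u) E ∩
            cthickening (11 * (X.m k : ℝ)^4 * (δ / (X.C k).R) * u) (X.F j).rim, g x) +
        ∫⁻ x in (X.C k).P ∩ cthickening (25 * (X.m k : ℝ)^4 * u) E ∩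
          (cthickening (11 * (X.m k : ℝ)^4 * (δ / (X.C k).R) * u) X.Z ∪
            ⋃ j, cthickening (11 * (X.m k : ℝ)^4 * (δ / (X.C k).R) * u) (X.F j).rim), g x)) := by
  classical
  have hm1 := Sys.m_one (X := X) k
  have hR := (X.C k).R_pos
  have hd := h.d0
  have hm4 : (1:ℝ) ≤ (X.m k : ℝ)^4 := one_le_pow₀ hm1
  have hm24 : (X.m k : ℝ)^2 ≤ (X.m k : ℝ)^4 := pow_le_pow_right₀ hm1 (by norm_num)
  have hm14 : (X.m k : ℝ) ≤ (X.m k : ℝ)^4 := by
    calc (X.m k : ℝ) = (X.m k : ℝ)^1 := (pow_one _).symm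
      _ ≤ _ := pow_le_pow_right₀ hm1 (by norm_num)
  set r1 : ℝ := 25 * (X.m k : ℝ)^4 * u with hr1
  set r2 : ℝ := 11 * (X.m k : ℝ)^4 * (δ / (X.C k).R) * u with hr2
  set Θ : Set E3 := cthickening r2 X.Z ∪ ⋃ j, cthickening r2 (X.F j).rim with hΘ
  have mΘ : MeasurableSet Θ := isClosed_cthickening.measurableSet.union
    (MeasurableSet.iUnion fun j => isClosed_cthickening.measurableSet)
  set S : Set E3 := (X.C k).U ∩ cthickening u E with hS
  have mS : MeasurableSet S := (X.C k).cht.opU.measurableSet.inter isClosed_cthickening.measurableSet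
  have hq3 : 0 < 1 - qn 3 p := by
    have := qn_lt (n := 3) (p := p) (by exact_mod_cast h.p3)
    linarith
  have hqF : 0 < 1 - qF p := by have := qF_lt p; linarith
  have huC : 4 * (X.m k : ℝ) * u ≤ (X.C k).R := by nlinarith
  have huF : ∀ j, ((X.F j).V ∩ (X.C k).P).Nonempty → 40 * (X.m k : ℝ)^3 * u ≤ (X.F j).ρ := by
    intro j hj
    have h1 : (X.C k).R ≤ X.m k * (X.F j).ρ := hρ j hj
    have h2 : ((X.C k).R : ℝ) ≤ (X.m k : ℝ) * (X.F j).ρ := by exact_mod_cast h1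
    have h3 : (X.m k : ℝ) * (40 * (X.m k : ℝ)^3 * u) ≤ (X.m k : ℝ) * (X.F j).ρ := by
      calc (X.m k : ℝ) * (40 * (X.m k : ℝ)^3 * u) = 40 * (X.m k : ℝ)^4 * u := by ring
        _ ≤ _ := hu.trans h2
    exact le_of_mul_le_mul_left h3 (by linarith)
  -- the points
  have pts : ∀ x ∈ S, ∃ y0 ∈ E, ‖x - y0‖ ≤ u ∧ y0 ∉ (X.C k).U ∧ ∀ j, y0 ∉ (X.F j).V := by
    rintro x ⟨hx1, hx2⟩
    obtain ⟨y0, h1, h2⟩ := inf_pt hE hx2 hu0
    exact ⟨y0, h1, h2, hEU y0 h1, hEV y0 h1⟩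
  have near : ∀ x ∈ S, Sys.chi h (N₁+1) (N₂+1) x ∈ (X.C k).P ∩ cthickening r1 E := by
    intro x hx
    obtain ⟨y0, h1, h2, h3, h4⟩ := pts x hx
    obtain ⟨c1, c2, -, -⟩ := chi_pt h N₁ N₂ hx.1 h3 h4 h2 huC huF
    refine ⟨(Sys.chi_P h (N₁+1) (N₂+1) k x).2 ((X.C k).cht.sub hx.1), mem_cth h1 ?_⟩
    have e1 : Sys.chi h (N₁+1) (N₂+1) x - y0 = (Sys.chi h (N₁+1) (N₂+1) x - x) + (x - y0) := by abel
    rw [e1]
    refine (norm_add_le _ _).trans ?_
    have : u ≤ (X.m k : ℝ)^4 * u := by nlinarith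
    rw [hr1]; linarith
  have hτF : ∀ j, X.ηF δ j * (1 - qF p) ≤ 1/8 := by
    intro j
    have h1 := (X.F j).M_one
    have h2 := (X.F j).ρ_pos
    have h3 := hδ j
    have h4 : X.ηF δ j ≤ 1/8 := by
      unfold Sys.ηF
      rw [div_le_iff₀ (by positivity)]
      nlinarith
    have h5 := Sys.ηF_pos h j
    have h6 := qF_pos p
    nlinarith
  have mP : MeasurableSet (X.C k).P := (X.C k).cht.clK.measurableSet
  have key := lint_chi2 h N₁ N₂ k hτF mS (fun x hx => by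
      obtain ⟨y0, h1, h2, h3, h4⟩ := pts x hx
      exact (chi_pt h N₁ N₂ hx.1 h3 h4 h2 huC huF).1)
    (A := (X.C k).P ∩ cthickening r1 E ∩ Θ)
    ((mP.inter isClosed_cthickening.measurableSet).inter mΘ)
    (B := fun j => {x | ((X.F j).V ∩ (X.C k).P).Nonempty} ∩
      ((X.C k).P ∩ cthickening r1 E ∩ cthickening r2 (X.F j).rim))
    (fun j => (MeasurableSet.const _).inter ((mP.inter isClosed_cthickening.measurableSet).inter
      isClosed_cthickening.measurableSet))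
    (fun x hx hV => by
      obtain ⟨y0, h1, h2, h3, h4⟩ := pts x hx
      obtain ⟨-, -, c3, -⟩ := chi_pt h N₁ N₂ hx.1 h3 h4 h2 huC huF
      refine ⟨near x hx, ?_⟩
      rcases c3 hV with ⟨y, hy, hyd⟩ | ⟨j, y, hy, hyd⟩
      · refine Or.inl (mem_cth hy (hyd.trans ?_))
        rw [hr2]
        have : 0 ≤ δ / (X.C k).R * u := by positivity
        calc δ / (X.C k).R * u = 1 * (δ / (X.C k).R * u) := (one_mul _).symm
          _ ≤ 11 * (X.m k : ℝ)^4 * (δ / (X.C k).R * u) :=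
            mul_le_mul_of_nonneg_right (by linarith) this
          _ = _ := by ring
      · refine Or.inr (mem_iUnion.2 ⟨j, mem_cth hy (hyd.trans ?_)⟩)
        rw [hr2]
        have : 0 ≤ δ / (X.C k).R * u := by positivity
        calc 3 * (X.m k : ℝ)^2 * (δ / (X.C k).R) * u =
              3 * (X.m k : ℝ)^2 * (δ / (X.C k).R * u) := by ring
          _ ≤ 11 * (X.m k : ℝ)^4 * (δ / (X.C k).R * u) :=
            mul_le_mul_of_nonneg_right (by linarith) this
          _ = _ := by ring)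
    (fun x hx j hj => by
      obtain ⟨y0, h1, h2, h3, h4⟩ := pts x hx
      obtain ⟨-, -, -, c4⟩ := chi_pt h N₁ N₂ hx.1 h3 h4 h2 huC huF
      obtain ⟨d1, y, hy, hyd⟩ := c4 j hj
      have hne : ((X.F j).V ∩ (X.C k).P).Nonempty :=
        ⟨_, hj, (Sys.Y_P h (N₂+1) k x).2 ((X.C k).cht.sub hx.1)⟩
      refine ⟨d1, hne, near x hx, mem_cth hy (hyd.trans ?_)⟩
      have hρ0 := (X.F j).ρ_pos
      have h7 : ((X.C k).R : ℝ) ≤ (X.m k : ℝ) * (X.F j).ρ := by exact_mod_cast hρ j hne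
      have h8 : δ / (X.F j).ρ ≤ (X.m k : ℝ) * (δ / (X.C k).R) := by
        rw [div_le_iff₀ hρ0]
        calc δ = δ / (X.C k).R * (X.C k).R := by field_simp
          _ ≤ δ / (X.C k).R * ((X.m k : ℝ) * (X.F j).ρ) :=
            mul_le_mul_of_nonneg_left h7 (by positivity)
          _ = _ := by ring
      rw [hr2]
      have : 0 ≤ δ / (X.C k).R * u := by positivity
      have e3 : 10 * (X.m k : ℝ)^3 * (δ / (X.F j).ρ) * u ≤
          10 * (X.m k : ℝ)^4 * (δ / (X.C k).R * u) := by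
        calc 10 * (X.m k : ℝ)^3 * (δ / (X.F j).ρ) * u
            ≤ 10 * (X.m k : ℝ)^3 * ((X.m k : ℝ) * (δ / (X.C k).R)) * u := by gcongr
          _ = _ := by ring
      have e4 : (X.m k : ℝ)^2 * (δ / (X.C k).R) * u ≤ (X.m k : ℝ)^4 * (δ / (X.C k).R * u) := by
        calc (X.m k : ℝ)^2 * (δ / (X.C k).R) * u = (X.m k : ℝ)^2 * (δ / (X.C k).R * u) := by ring
          _ ≤ _ := mul_le_mul_of_nonneg_right hm24 this
      calc _ ≤ (X.m k : ℝ)^4 * (δ / (X.C k).R * u) + 10 * (X.m k : ℝ)^4 * (δ / (X.C k).R * u) :=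
            add_le_add e4 e3
        _ = _ := by ring)
    hg
  -- from `P` to `U`
  have e0 : (X.C k).P ∩ cthickening u E ⊆ S ∪ ((X.C k).P \ (X.C k).U) := by
    rintro x ⟨hx1, hx2⟩
    by_cases h1 : x ∈ (X.C k).U
    · exact Or.inl ⟨h1, hx2⟩
    · exact Or.inr ⟨hx1, h1⟩
  refine (lintegral_mono_set e0).trans ((lintegral_union_le _ _ _).trans ?_)
  rw [setLIntegral_measure_zero _ _ (X.C k).null, add_zero]
  refine key.trans ?_
  -- constants
  have hMk : ((X.C k).M : ℝ) ≤ X.m k := by exact_mod_cast X.mC k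
  have c1 : (((X.C k).M * (X.C k).M : ℝ≥0) : ℝ≥0∞)^3 *
      ENNReal.ofReal (kap 3 / (X.ηC δ k * (1 - qn 3 p))) ≤
      ENNReal.ofReal ((X.m k : ℝ)^6 * (3 * (X.m k : ℝ)^3 * (|kap 3| / (1 - qn 3 p)))) *
        ENNReal.ofReal ((X.C k).R / δ) := by
    rw [← ENNReal.ofReal_coe_nnreal, ← ENNReal.ofReal_pow (by positivity),
      ← ENNReal.ofReal_mul (by positivity), ← ENNReal.ofReal_mul (by positivity)]
    apply ENNReal.ofReal_le_ofReal
    have h0 := Sys.ηC_pos h k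
    have e1 : ((((X.C k).M * (X.C k).M : ℝ≥0) : ℝ))^3 ≤ (X.m k : ℝ)^6 := by
      push_cast
      calc ((X.C k).M * (X.C k).M : ℝ)^3 = ((X.C k).M : ℝ)^6 := by ring
        _ ≤ _ := by gcongr
    have e2 : kap 3 / (X.ηC δ k * (1 - qn 3 p)) ≤
        3 * (X.m k : ℝ)^3 * (|kap 3| / (1 - qn 3 p)) * ((X.C k).R / δ) := by
      have e3 : kap 3 / (X.ηC δ k * (1 - qn 3 p)) =
          3 * (X.m k : ℝ)^3 * (kap 3 / (1 - qn 3 p)) * ((X.C k).R / δ) := by
        unfold Sys.ηC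
        field_simp
      rw [e3]
      have := le_abs_self (kap 3)
      gcongr
    have e4 : 0 ≤ 3 * (X.m k : ℝ)^3 * (|kap 3| / (1 - qn 3 p)) * ((X.C k).R / δ) := by positivity
    calc _ ≤ (((X.C k).M * (X.C k).M : ℝ≥0) : ℝ)^3 *
          (3 * (X.m k : ℝ)^3 * (|kap 3| / (1 - qn 3 p)) * ((X.C k).R / δ)) :=
          mul_le_mul_of_nonneg_left e2 (by positivity)
      _ ≤ (X.m k : ℝ)^6 * (3 * (X.m k : ℝ)^3 * (|kap 3| / (1 - qn 3 p)) * ((X.C k).R / δ)) :=
          mul_le_mul_of_nonneg_right e1 e4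
      _ = _ := by ring
  set K2 : ℝ := (X.m k : ℝ)^6 * (2 * (X.m k : ℝ) * (|kd| / (1 - qF p))) with hK2
  have hK20 : 0 ≤ K2 := by positivity
  have c2 : ∀ j, (((X.F j).M * (X.F j).M : ℝ≥0) : ℝ≥0∞)^3 *
      ENNReal.ofReal (kd / (X.ηF δ j * (1 - qF p))) * ∫⁻ x in (X.F j).V ∩
        ({x | ((X.F j).V ∩ (X.C k).P).Nonempty} ∩
          ((X.C k).P ∩ cthickening r1 E ∩ cthickening r2 (X.F j).rim)), g x ≤
      ENNReal.ofReal K2 * (ENNReal.ofReal ((X.F j).ρ / δ) *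
        ∫⁻ x in (X.C k).P ∩ (X.F j).V ∩ cthickening r1 E ∩ cthickening r2 (X.F j).rim, g x) := by
    intro j
    by_cases hne : ((X.F j).V ∩ (X.C k).P).Nonempty
    · have hMj : ((X.F j).M : ℝ) ≤ X.m k := by exact_mod_cast X.mF k j hne
      have hρ0 := (X.F j).ρ_pos
      have hM1 := (X.F j).M_pos
      rw [← mul_assoc]
      refine mul_le_mul' ?_ (lintegral_mono_set ?_)
      · rw [← ENNReal.ofReal_coe_nnreal, ← ENNReal.ofReal_pow (by positivity),
          ← ENNReal.ofReal_mul (by positivity), ← ENNReal.ofReal_mul (by positivity)]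
        apply ENNReal.ofReal_le_ofReal
        have e1 : ((((X.F j).M * (X.F j).M : ℝ≥0) : ℝ))^3 ≤ (X.m k : ℝ)^6 := by
          push_cast
          calc ((X.F j).M * (X.F j).M : ℝ)^3 = ((X.F j).M : ℝ)^6 := by ring
            _ ≤ _ := by gcongr
        have e2 : kd / (X.ηF δ j * (1 - qF p)) ≤
            2 * (X.m k : ℝ) * (|kd| / (1 - qF p)) * ((X.F j).ρ / δ) := by
          have e3 : kd / (X.ηF δ j * (1 - qF p)) =
              2 * ((X.F j).M : ℝ) * (kd / (1 - qF p)) * ((X.F j).ρ / δ) := by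
            unfold Sys.ηF
            field_simp
          rw [e3]
          have h5 := le_abs_self kd
          have h6 : 2 * ((X.F j).M : ℝ) * (kd / (1 - qF p)) * ((X.F j).ρ / δ) ≤
              2 * ((X.F j).M : ℝ) * (|kd| / (1 - qF p)) * ((X.F j).ρ / δ) := by gcongr
          refine h6.trans ?_
          gcongr
        calc _ ≤ (((X.F j).M * (X.F j).M : ℝ≥0) : ℝ)^3 *
              (2 * (X.m k : ℝ) * (|kd| / (1 - qF p)) * ((X.F j).ρ / δ)) :=
              mul_le_mul_of_nonneg_left e2 (by positivity)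
          _ ≤ (X.m k : ℝ)^6 * (2 * (X.m k : ℝ) * (|kd| / (1 - qF p)) * ((X.F j).ρ / δ)) :=
              mul_le_mul_of_nonneg_right e1 (by positivity)
          _ = _ := by rw [hK2]; ring
      · rintro x ⟨hx1, -, ⟨hx2, hx3⟩, hx4⟩
        exact ⟨⟨⟨hx2, hx1⟩, hx3⟩, hx4⟩
    · have e1 : (X.F j).V ∩ ({x | ((X.F j).V ∩ (X.C k).P).Nonempty} ∩
          ((X.C k).P ∩ cthickening r1 E ∩ cthickening r2 (X.F j).rim)) = ∅ := by
        rw [← not_nonempty_iff_eq_empty]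
        rintro ⟨x, -, hx, -⟩
        exact hne hx
      rw [e1, Measure.restrict_empty, lintegral_zero_measure, mul_zero]
      exact zero_le
  set K1 : ℝ := (X.m k : ℝ)^6 * (3 * (X.m k : ℝ)^3 * (|kap 3| / (1 - qn 3 p))) with hK1
  have hK10 : 0 ≤ K1 := by positivity
  set I0 := ∫⁻ x in (X.C k).P ∩ cthickening r1 E ∩ Θ, g x with hI0
  set Sm := ∑ j, ENNReal.ofReal ((X.F j).ρ / δ) *
    ∫⁻ x in (X.C k).P ∩ (X.F j).V ∩ cthickening r1 E ∩ cthickening r2 (X.F j).rim, g x with hSm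
  have t1 : (1:ℝ≥0∞) ≤ ENNReal.ofReal (1 + K2) := by
    rw [← ENNReal.ofReal_one]; exact ENNReal.ofReal_le_ofReal (by linarith)
  have t2 : ENNReal.ofReal K2 ≤ ENNReal.ofReal (1 + K2) := ENNReal.ofReal_le_ofReal (by linarith)
  calc _ ≤ (ENNReal.ofReal K1 * ENNReal.ofReal ((X.C k).R / δ)) *
        (I0 + ∑ j, ENNReal.ofReal K2 * (ENNReal.ofReal ((X.F j).ρ / δ) *
          ∫⁻ x in (X.C k).P ∩ (X.F j).V ∩ cthickening r1 E ∩ cthickening r2 (X.F j).rim, g x)) :=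
        mul_le_mul' c1 (add_le_add le_rfl (Finset.sum_le_sum fun j _ => c2 j))
    _ = (ENNReal.ofReal K1 * ENNReal.ofReal ((X.C k).R / δ)) * (I0 + ENNReal.ofReal K2 * Sm) := by
        rw [← Finset.mul_sum]
    _ ≤ (ENNReal.ofReal K1 * ENNReal.ofReal ((X.C k).R / δ)) *
        (ENNReal.ofReal (1 + K2) * I0 + ENNReal.ofReal (1 + K2) * Sm) := by
        refine mul_le_mul' le_rfl (add_le_add ?_ (mul_le_mul' t2 le_rfl))
        calc I0 = 1 * I0 := (one_mul _).symm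
          _ ≤ _ := mul_le_mul' t1 le_rfl
    _ = _ := by
        have e : ENNReal.ofReal (CT p (X.m k)) = ENNReal.ofReal K1 * ENNReal.ofReal (1 + K2) := by
          rw [← ENNReal.ofReal_mul hK10]
          rfl
        rw [e]
        ring

end Crest.Agent.R096.Sqt_143
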