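import Crest.Agent.R096.Sqt8_143
import Crest.Agent.R096.Sqt9_143

/-!
Row 96 (S0127), helper143.  SQ-TUBE, part 10: **energies near the edges** (`tube_energy`) and
**near-optimality in the direction of an edge** (`tube_near`) of `f ∘ chi`.
-/

set_option autoImplicit false
set_option linter.unusedSectionVars false

open Set Metric Filter Topology MeasureTheory

namespace Crest.Agent.R096.Sqt_143

open Crest.Agent.R096.Ce_537 Crest.Agent.R096.Bd_416 Crest.Agent.R96.Hole_348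
open Crest.Agent.R096.Sq_55
open Crest.Agent.R96.Acl_392 Crest.Agent.R96.Sob1_199 Crest.Agent.R96.Sob2_199
  Crest.Agent.R96.Sob3_199 Crest.Agent.R96.Sob6_199 Crest.Agent.R96.Sob7_199
  Crest.Agent.R96.Sob8_199
open Crest.AnalysisR.VecCalc3 Crest.AnalysisR.Sobolev
open Crest.Agent.R096.Sk_962
open Crest.Agent.R96.Lu_538
open scoped NNReal ENNReal

variable {κ ι : Type*} [Fintype κ] [Fintype ι] {X : Sys κ ι} {p δ : ℝ}

/-- the right side of `tube_int` -/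
noncomputable def tb (X : Sys κ ι) (δ : ℝ) (k : κ) (E : Set E3) (u : ℝ) (g : E3 → ℝ≥0∞) : ℝ≥0∞ :=
  ENNReal.ofReal ((X.C k).R / δ) *
    ((∑ j, ENNReal.ofReal ((X.F j).ρ / δ) *
      ∫⁻ x in (X.C k).P ∩ (X.F j).V ∩ cthickening (25 * (X.m k : ℝ)^4 * u) E ∩
        cthickening (11 * (X.m k : ℝ)^4 * (δ / (X.C k).R) * u) (X.F j).rim, g x) +
    ∫⁻ x in (X.C k).P ∩ cthickening (25 * (X.m k : ℝ)^4 * u) E ∩
      (cthickening (11 * (X.m k : ℝ)^4 * (δ / (X.C k).R) * u) X.Z ∪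
        ⋃ j, cthickening (11 * (X.m k : ℝ)^4 * (δ / (X.C k).R) * u) (X.F j).rim), g x)

lemma tb_mono {k : κ} {E : Set E3} {u : ℝ} {g g' : E3 → ℝ≥0∞}
    (h : ∀ᵐ x, x ∈ (X.C k).P → g x ≤ g' x) : tb X δ k E u g ≤ tb X δ k E u g' := by
  have h1 : ∀ T : Set E3, T ⊆ (X.C k).P → ∫⁻ x in T, g x ≤ ∫⁻ x in T, g' x := by
    intro T hT
    have h2 : ∀ᵐ x ∂(volume.restrict (X.C k).P), g x ≤ g' x :=
      (ae_restrict_iff' (X.C k).cht.clK.measurableSet).2 h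
    exact lintegral_mono_ae (ae_mono (Measure.restrict_mono hT le_rfl) h2)
  unfold tb
  refine mul_le_mul' le_rfl (add_le_add (Finset.sum_le_sum fun j _ => mul_le_mul' le_rfl
    (h1 _ fun x hx => hx.1.1.1)) (h1 _ fun x hx => hx.1.1))

/-- the hypotheses on the closed set `E` and the radius -/
structure Tb (X : Sys κ ι) (δ : ℝ) (k : κ) (E : Set E3) (u : ℝ) : Prop where
  d4 : ∀ j, 4 * δ ≤ (X.F j).ρ
  sz : ∀ j, ((X.F j).V ∩ (X.C k).P).Nonempty → (X.C k).R ≤ X.m k * (X.F j).ρ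
  cpt : IsCompact E
  EU : ∀ y ∈ E, y ∉ (X.C k).U
  EV : ∀ y ∈ E, ∀ j, y ∉ (X.F j).V
  u0 : 0 ≤ u
  uR : 40 * (X.m k : ℝ)^4 * u ≤ (X.C k).R

/-- `tube_int` for almost everywhere measurable functions -/
theorem tube_int_ae (h : X.Adm p δ) (N₁ N₂ : ℕ) {k : κ} {E : Set E3} {u : ℝ} (H : Tb X δ k E u)
    {g : E3 → ℝ≥0∞} (hg : AEMeasurable g (volume.restrict (X.C k).P)) :
    ∫⁻ x in (X.C k).P ∩ cthickening u E, g (Sys.chi h (N₁+1) (N₂+1) x) ≤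
      ENNReal.ofReal (CT p (X.m k)) * tb X δ k E u g := by
  have mP : MeasurableSet (X.C k).P := (X.C k).cht.clK.measurableSet
  have e1 : ∀ᵐ y, y ∈ (X.C k).P → g y = hg.mk g y := (ae_restrict_iff' mP).1 hg.ae_eq_mk
  have e2 := null_pre (Sys.plOn_chi_symm h (N₁+1) (N₂+1)) e1
  have key := tube_int h N₁ N₂ k H.d4 H.sz H.cpt H.EU H.EV H.u0 H.uR hg.measurable_mk
  refine le_trans (le_of_eq ?_) (key.trans (mul_le_mul' le_rfl ?_))
  · refine setLIntegral_congr_fun_ae (mP.inter isClosed_cthickening.measurableSet) ?_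
    filter_upwards [e2] with x hx hxS
    exact hx ((Sys.chi_P h (N₁+1) (N₂+1) k x).2 hxS.1)
  · refine tb_mono ?_
    filter_upwards [e1] with x hx hxP
    exact (hx hxP).ge

/-- the local Lipschitz constant near `E` -/
theorem ae_llv (h : X.Adm p δ) (N₁ N₂ : ℕ) {k : κ} {E : Set E3} {u : ℝ} (H : Tb X δ k E u) :
    ∀ᵐ x, x ∈ (X.C k).P → x ∈ cthickening u E →
      LLV (528 * (X.m k : ℝ)^4) (Sys.chi h (N₁+1) (N₂+1)) x := by
  have hm1 := Sys.m_one (X := X) k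
  have hm4 : (1:ℝ) ≤ (X.m k : ℝ)^4 := one_le_pow₀ hm1
  have hm14 : (X.m k : ℝ) ≤ (X.m k : ℝ)^4 := by
    calc (X.m k : ℝ) = (X.m k : ℝ)^1 := (pow_one _).symm
      _ ≤ _ := pow_le_pow_right₀ hm1 (by norm_num)
  have hu0 := H.u0
  have huR := H.uR
  have huC : 4 * (X.m k : ℝ) * u ≤ (X.C k).R := by nlinarith
  have huF : ∀ j, ((X.F j).V ∩ (X.C k).P).Nonempty → 40 * (X.m k : ℝ)^3 * u ≤ (X.F j).ρ := by
    intro j hj
    have h2 : ((X.C k).R : ℝ) ≤ (X.m k : ℝ) * (X.F j).ρ := by exact_mod_cast H.sz j hj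
    have h3 : (X.m k : ℝ) * (40 * (X.m k : ℝ)^3 * u) ≤ (X.m k : ℝ) * (X.F j).ρ := by
      calc (X.m k : ℝ) * (40 * (X.m k : ℝ)^3 * u) = 40 * (X.m k : ℝ)^4 * u := by ring
        _ ≤ _ := huR.trans h2
    exact le_of_mul_le_mul_left h3 (by linarith)
  have n1 : ∀ᵐ x : E3, x ∉ (X.C k).P \ (X.C k).U :=
    measure_eq_zero_iff_ae_notMem.1 (X.C k).null
  have n2 : ∀ᵐ x : E3, ∀ j, x ∉ (X.F j).K \ (X.F j).V := by
    rw [ae_all_iff]
    intro j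
    exact measure_eq_zero_iff_ae_notMem.1 (X.F j).null
  have n3 := null_pre (Sys.plOn_Y_symm h (N₂+1)) n2
  filter_upwards [n1, n3] with x a1 a3 hxP hxE
  have hxU : x ∈ (X.C k).U := by
    by_contra hxU
    exact a1 ⟨hxP, hxU⟩
  obtain ⟨y0, h1, h2⟩ := inf_pt H.cpt hxE hu0
  obtain ⟨c1, -, -, c4⟩ := chi_pt h N₁ N₂ hxU (H.EU y0 h1) (H.EV y0 h1) h2 huC huF
  exact chi_llv h N₁ N₂ c1 (fun j hj => (c4 j hj).1) a3

/-- **energies near the edges** -/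
theorem tube_energy (h : X.Adm p δ) (N₁ N₂ : ℕ) {k : κ} {E : Set E3} {u : ℝ} (H : Tb X δ k E u)
    {q : ℝ} {v : E3 → ℝ≥0∞} (hv : AEMeasurable v (volume.restrict (X.C k).P))
    {w : E3 → ℝ≥0∞} (hw : ∀ᵐ x, x ∈ (X.C k).P → ∀ c, 1 ≤ c →
      LLV c (Sys.chi h (N₁+1) (N₂+1)) x →
      w x ≤ ENNReal.ofReal (c^q) * v (Sys.chi h (N₁+1) (N₂+1) x)) :
    ∫⁻ x in (X.C k).P ∩ cthickening u E, w x ≤
      ENNReal.ofReal ((528 * (X.m k : ℝ)^4)^q) *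
        (ENNReal.ofReal (CT p (X.m k)) * tb X δ k E u v) := by
  have hm1 := Sys.m_one (X := X) k
  have hm4 : (1:ℝ) ≤ (X.m k : ℝ)^4 := one_le_pow₀ hm1
  have mP : MeasurableSet (X.C k).P := (X.C k).cht.clK.measurableSet
  have s1 : ∫⁻ x in (X.C k).P ∩ cthickening u E, w x ≤
      ∫⁻ x in (X.C k).P ∩ cthickening u E, ENNReal.ofReal ((528 * (X.m k : ℝ)^4)^q) *
        v (Sys.chi h (N₁+1) (N₂+1) x) := by
    refine setLIntegral_mono_ae' (mP.inter isClosed_cthickening.measurableSet) ?_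
    filter_upwards [hw, ae_llv h N₁ N₂ H] with x h1 h2 hx
    exact h1 hx.1 _ (by linarith) (h2 hx.1 hx.2)
  refine s1.trans ?_
  rw [lintegral_const_mul' _ _ ENNReal.ofReal_ne_top]
  exact mul_le_mul' le_rfl (tube_int_ae h N₁ N₂ H hv)

/-! ### the derivative in one direction -/

/-- the bound of the derivative of a composition in one direction -/
theorem dir_le {Om : Set R3} (hOm : IsOpen Om) {v : R3 → ℝ} {G G' : R3 → R3}
    (h : HasWeakGradOn Om v G) (hv : ContinuousOn v Om) (Ψ : R3 ≃ₜ R3) (h1 : PLOn Ψ univ)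
    (hΨ : ∀ x, Ψ x ∈ Om ↔ x ∈ Om) (hG : LocallyIntegrableOn (fun y => G (Ψ y)) Om)
    (h' : HasWeakGradOn Om (fun x => v (Ψ x)) G') (e : R3) :
    ∀ᵐ x, x ∈ Om → ∀ c : ℝ, LLV c Ψ x → |inner ℝ (G' x) e| ≤ c * ‖e‖ * ‖G (Ψ x)‖ := by
  obtain ⟨-, S, hS'⟩ := h1
  have hS : ∀ x, ∃ a ∈ S, Ψ x = a x := fun x => hS' x (mem_univ x)
  have a1 := (Crest.Agent.R096.Sbc_447.wd_comp_pl hOm h hv Ψ hS hΨ hG e).2
  have a2 := dq_grad hOm h' (hv.comp Ψ.continuous.continuousOn fun x hx => (hΨ x).2 hx) e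
  have a3 : ∀ᵐ x : R3, x ∉ Crest.Agent.R096.Sbc_447.Nn S :=
    measure_eq_zero_iff_ae_notMem.1 (Crest.Agent.R096.Sbc_447.null_Nn _ S)
  filter_upwards [a1, a2, a3] with x b1 b2 b3 hx c hc
  obtain ⟨a, ha, hxa⟩ := hS x
  have hn := Crest.Agent.R096.Sbc_447.near Ψ.continuous hS b3 ha hxa
  have h4 := Crest.Agent.R096.Sbc_447.norm_linear_le hn hc e
  rw [b2 hx]
  refine (b1 hx).trans ?_
  rw [Crest.Agent.R096.Sbc_447.maj_eq b3 ha hxa]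
  refine (abs_real_inner_le_norm _ _).trans ?_
  rw [mul_comm]
  exact mul_le_mul_of_nonneg_right h4 (norm_nonneg _)

theorem Gmat_le {Om La : Set R3} (hOm : IsOpen Om) {p : ℝ} (hp : 1 ≤ p) {f : R3 → R3}
    {G G' : Fin 3 → R3 → R3} (h : SH p Om La f G) (Ψ : R3 ≃ₜ R3) (h1 : PLOn Ψ univ)
    (hΨ : ∀ x, Ψ x ∈ Om ↔ x ∈ Om)
    (h' : ∀ j : Fin 3, HasWeakGradOn Om (fun x => f (Ψ x) j) (G' j)) (e : R3) :
    ∀ᵐ x, x ∈ Om → ∀ c : ℝ, 0 ≤ c → LLV c Ψ x → ‖Gmat G' x e‖ ≤ 2 * c * ‖e‖ * ‖Gmat G (Ψ x)‖ := by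
  obtain ⟨finv, hf1, hf2, hf3, hf4, hf5, hf6⟩ := h.homeo
  have hfj : ∀ j : Fin 3, ContinuousOn (fun x => f x j) Om := fun j =>
    (EuclideanSpace.proj j : R3 →L[ℝ] ℝ).continuous.comp_continuousOn hf5
  have hp' : 1 ≤ ENNReal.ofReal p := by
    rw [← ENNReal.ofReal_one]; exact ENNReal.ofReal_le_ofReal hp
  obtain ⟨-, S, hS'⟩ := id h1
  have hS : ∀ x, ∃ a ∈ S, Ψ x = a x := fun x => hS' x (mem_univ x)
  have hGl : ∀ j, LocallyIntegrableOn (fun x => G j (Ψ x)) Om := fun j =>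
    Crest.Agent.R096.Sbc_447.locInt_of_memLp hOm hp'
      (Crest.Agent.R096.Sbc_447.memLp_comp Ψ hS hΨ (h.memG j))
  have key : ∀ᵐ x, ∀ j : Fin 3, x ∈ Om → ∀ c : ℝ, LLV c Ψ x →
      |inner ℝ (G' j x) e| ≤ c * ‖e‖ * ‖G j (Ψ x)‖ := by
    rw [ae_all_iff]
    intro j
    exact dir_le hOm (h.wg j) (hfj j) Ψ h1 hΨ (hGl j) (h' j) e
  filter_upwards [key] with x hx hxO c hc hcx
  have hj : ∀ j : Fin 3, |Gmat G' x e j| ≤ c * ‖e‖ * ‖Gmat G (Ψ x)‖ := by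
    intro j
    rw [Gmat_apply]
    refine (hx j hxO c hcx).trans ?_
    exact mul_le_mul_of_nonneg_left (norm_row_le (fun j => G j (Ψ x)) j) (by positivity)
  have h0 : 0 ≤ c * ‖e‖ * ‖Gmat G (Ψ x)‖ := by positivity
  have h5 : ‖Gmat G' x e‖ ^ 2 ≤ (2 * c * ‖e‖ * ‖Gmat G (Ψ x)‖) ^ 2 := by
    rw [EuclideanSpace.norm_sq_eq, Fin.sum_univ_three]
    have h6 : ∀ i : Fin 3, ‖Gmat G' x e i‖ ^ 2 ≤ (c * ‖e‖ * ‖Gmat G (Ψ x)‖) ^ 2 := by
      intro i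
      rw [Real.norm_eq_abs]
      exact pow_le_pow_left₀ (abs_nonneg _) (hj i) 2
    have h7 := h6 0
    have h8 := h6 1
    have h9 := h6 2
    have e1 : (2 * c * ‖e‖ * ‖Gmat G (Ψ x)‖) ^ 2 = 4 * (c * ‖e‖ * ‖Gmat G (Ψ x)‖) ^ 2 := by ring
    rw [e1]
    have := sq_nonneg (c * ‖e‖ * ‖Gmat G (Ψ x)‖)
    linarith
  exact le_of_sq_le_sq h5 (by positivity)

end Crest.Agent.R096.Sqt_143
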