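import Crest.Agent.R096.Cob7_622
import Crest.Agent.R096.Efi4_296
import Crest.Agent.R096.Naf1_372

/-!
Row 96 (S0127), helper143.  COMPOSITE B, [L6]: **the right sides of 622's `cob_main` in explicit terms**
(functional `Jt` of a tube at a tile, from the edges of the tile and the unsqueezed faces in the zone).
-/

set_option autoImplicit false
set_option linter.unusedSectionVars false
set_option linter.style.longLine false

open Set Metric Filter Topology MeasureTheory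
open scoped ENNReal NNReal

namespace Crest.Agent.R096.Sqt_143

open Crest.AnalysisR.VecCalc3
open Crest.Agent.R096.Msh_715 (P I Tiling)
open Crest.Agent.R096.Sq_55 (E3 Sys Face FaceOf w2)
open Crest.Agent.R096.Cob_622 (EF Jt zn Tub)
open Crest.Agent.R096.Str_968 (EFN)
open Crest.Agent.R096.Efi_296
open Crest.Agent.R96.Lu_538 (Gmat)
open Crest.Agent.R96.Coarse_538 (seg)
open Crest.Agent.R096.Fce_793 (pt)
open Crest.Agent.R096.Slb_296 (pl)
open Crest.Agent.R096.Br_695 (En)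
open Crest.Agent.R096.Naf_372 (en_le)

noncomputable section

open Classical in
/-- **`Jt` of a tiling** -/
theorem Jt_T {Om : Set E3} {ι : Type*} {T : Tiling Om ι} {s : Finset ι} {pr : T.Cell → Prop}
    {X : Sys s (reps T s pr)} {Om' : Set R3} {g : R3 → ℝ≥0∞}
    (D : EF X Om' g (EgS T s) (FcS T s pr)) {c : ι → E3}
    (hc : ∀ i, c i ∈ I (T.H i)) (hXF : ∀ x : reps T s pr, FaceOf T c (x : E3) (X.F x))
    (hXP : ∀ k : s, (X.C k).P = P (T.H k)) (hfc : ∀ b, D.fc b = w2 '' b.1.set)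
    (hrE : ∀ x, D.rimE x = rimS T s (x : E3)) (k : s) {E : Set E3} {u : ℝ} {r : ℝ≥0}
    {n nE nF : ℕ} {eE eF : ℝ≥0∞}
    (hr : ∀ x : reps T s pr, (k : ι) ∈ T.at_ (x : E3) → (X.F x).ρ ≤ r)
    (hn : (Finset.univ.filter fun x : reps T s pr => (k : ι) ∈ T.at_ (x : E3)).card ≤ n)
    (hnE : (Finset.univ.filter fun c : EgS T s => c.1.set ⊆ P (T.H k)).card ≤ nE)
    (heE : ∀ c : EgS T s, c.1.set ⊆ P (T.H k) → D.Ee c ≤ eE)
    (hnF : (Finset.univ.filter fun b : FcS T s pr =>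
      (b.1.set ∩ zn X k E u).Nonempty).card ≤ nF)
    (heF : ∀ b : FcS T s pr, (b.1.set ∩ zn X k E u).Nonempty → D.Ef b ≤ eF) :
    Jt D k E u ≤ ENNReal.ofReal (1089 * (X.m k : ℝ)^8 * u^2 / (X.C k).R) * ((n * r) * (nE * eE)) +
      ENNReal.ofReal (33 * (X.m k : ℝ)^4 * u) * (nF * eF) := by
  have hR : (0:ℝ) < (X.C k).R := (X.C k).R_pos
  have h0 := JN_le (EFN.ofEF D univ) hc hXF hXP
    (fun b => by rw [inter_univ]; exact hfc b) hrE k
    (cthickening (25 * (X.m k : ℝ)^4 * u) E) (cu X k u) hr hn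
  refine h0.trans ?_
  have e1 : 9 * cu X k u ^ 2 * (X.C k).R = 1089 * (X.m k : ℝ)^8 * u^2 / (X.C k).R := by
    unfold cu; field_simp; ring
  have e2 : 3 * cu X k u * (X.C k).R = 33 * (X.m k : ℝ)^4 * u := by
    unfold cu; field_simp; ring
  rw [e1, e2]
  refine add_le_add (mul_le_mul' le_rfl (mul_le_mul' le_rfl ?_)) (mul_le_mul' le_rfl ?_)
  · refine (Finset.sum_le_card_nsmul _ _ eE fun a ha => heE a (Finset.mem_filter.1 ha).2).trans ?_
    rw [nsmul_eq_mul]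
    gcongr
  · have h1 : (Finset.univ.filter fun b : FcS T s pr => (b.1.set ∩ univ ∩
        (P (T.H k) ∩ cthickening (25 * (X.m k : ℝ)^4 * u) E)).Nonempty) ⊆
        (Finset.univ.filter fun b : FcS T s pr => (b.1.set ∩ zn X k E u).Nonempty) := by
      intro b hb
      rw [Finset.mem_filter] at hb ⊢
      refine ⟨hb.1, ?_⟩
      have h2 := hb.2
      rw [inter_univ] at h2
      unfold zn
      rw [hXP k]
      exact h2
    refine (Finset.sum_le_sum_of_subset h1).trans ?_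
    refine (Finset.sum_le_card_nsmul _ _ eF fun a ha => heF a (Finset.mem_filter.1 ha).2).trans ?_
    rw [nsmul_eq_mul]
    gcongr

/-! ### the edges -/

/-- the density along an edge which lies in `C` -/
theorem edge_near {κe : Type*} {x v : κe → R3} {a : R3} {i : κe} {C Om : Set R3}
    {g : R3 → ℝ≥0∞} {A : ℝ≥0∞} (hseg : seg x v a i ⊆ C)
    (h : ∫⁻ σ in Ioc (0:ℝ) 1, C.indicator g (a + x i + σ • v i) ≤ A) (K : Set ℝ) :
    ∫⁻ σ in Icc (0:ℝ) 1 ∩ K, Om.indicator g (pl (v i) (a + x i) σ) ≤ A := by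
  refine le_trans ?_ h
  refine (lintegral_mono_set inter_subset_left).trans ?_
  rw [restrict_Ioc_eq_restrict_Icc]
  refine setLIntegral_mono' measurableSet_Icc fun σ hσ => ?_
  have h1 : a + x i + σ • v i ∈ C := hseg ⟨σ, hσ, rfl⟩
  rw [indicator_of_mem h1]
  exact indicator_le_self' (fun _ _ => zero_le) _

/-- the energy along an edge which lies in `C` -/
theorem edge_en {p : ℝ} (hp1 : 1 ≤ p) (hp2 : p ≤ 2) {G : Fin 3 → R3 → R3} (L : R3 →L[ℝ] R3)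
    {κe : Type*} {x v : κe → R3} {a : R3} {i : κe} {C Om : Set R3} {A : ℝ≥0∞}
    (hseg : seg x v a i ⊆ C)
    (h : ∫⁻ σ in Ioc (0:ℝ) 1, C.indicator (fun y => ‖Gmat G y - L‖ₑ ^ p)
      (a + x i + σ • v i) ≤ A) (K : Set ℝ) :
    ∫⁻ σ in Icc (0:ℝ) 1 ∩ K, Om.indicator (En p G) (pl (v i) (a + x i) σ) ≤
      6 * ‖L‖ₑ ^ p + 6 * A := by
  have h1 : ∀ σ : ℝ, Om.indicator (En p G) (pl (v i) (a + x i) σ) ≤
      6 * ‖L‖ₑ ^ p + 6 * (univ : Set R3).indicator (fun y => ‖Gmat G y - L‖ₑ ^ p)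
        (pl (v i) (a + x i) σ) := by
    intro σ
    rw [indicator_univ]
    exact (indicator_le_self' (fun _ _ => zero_le) _).trans (en_le hp1 hp2 G _ L)
  refine (lintegral_mono fun σ => h1 σ).trans ?_
  rw [lintegral_add_left measurable_const, setLIntegral_const]
  refine add_le_add ?_ ((lintegral_const_mul' _ _ (by norm_num)).le.trans
    (mul_le_mul' le_rfl (edge_near hseg h K)))
  calc 6 * ‖L‖ₑ ^ p * volume (Icc (0:ℝ) 1 ∩ K) ≤ 6 * ‖L‖ₑ ^ p * 1 := by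
        gcongr
        refine (measure_mono inter_subset_left).trans ?_
        rw [Real.volume_Icc]; simp
    _ = _ := mul_one _

/-! ### the faces -/

/-- the part of a face within `ρ` of a segment, in the coordinates of the face -/
theorem vol_strip {e : Fin 2 → R3} {lam : ℝ} (hlam : 0 < lam)
    (he : ∀ w : ℝ × ℝ, lam * ‖w‖ ≤ ‖w.1 • e 0 + w.2 • e 1‖) (y a v : R3) {ρ : ℝ} (hρ : 0 < ρ) :
    volume {w : ℝ × ℝ | ∃ t ∈ Icc (0:ℝ) 1, ‖pt e y w - (a + t • v)‖ ≤ ρ} ≤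
      ENNReal.ofReal (64 * ρ * (‖v‖ + 3 * ρ) / lam^2) := by
  set N : ℕ := ⌈‖v‖ / ρ⌉₊ + 1 with hN
  have hN0 : (0:ℝ) < N := by rw [hN]; positivity
  have hNv : ‖v‖ ≤ N * ρ := by
    have h1 : ‖v‖ / ρ ≤ ⌈‖v‖ / ρ⌉₊ := Nat.le_ceil _
    rw [div_le_iff₀ hρ] at h1
    rw [hN]; push_cast
    nlinarith
  set W : ℕ → Set (ℝ × ℝ) := fun i => {w | ‖pt e y w - (a + ((i:ℝ) / N) • v)‖ ≤ 2 * ρ} with hW
  have hsub : {w : ℝ × ℝ | ∃ t ∈ Icc (0:ℝ) 1, ‖pt e y w - (a + t • v)‖ ≤ ρ} ⊆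
      ⋃ i ∈ Finset.range (N + 1), W i := by
    rintro w ⟨t, ht, hw⟩
    have h2 : 0 ≤ t * N := by have := ht.1; positivity
    refine mem_iUnion₂.2 ⟨⌊t * N⌋₊, ?_, ?_⟩
    · rw [Finset.mem_range, Nat.lt_succ_iff]
      refine Nat.floor_le_of_le ?_
      nlinarith [ht.2]
    · show ‖pt e y w - (a + ((⌊t * N⌋₊:ℝ) / N) • v)‖ ≤ 2 * ρ
      have e1 : pt e y w - (a + ((⌊t * N⌋₊:ℝ) / N) • v) =
          (pt e y w - (a + t • v)) + (t - (⌊t * N⌋₊:ℝ) / N) • v := by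
        rw [sub_smul]; abel
      rw [e1]
      refine (norm_add_le _ _).trans ?_
      rw [norm_smul, Real.norm_eq_abs]
      have h3 : |t - (⌊t * N⌋₊:ℝ) / N| ≤ 1 / N := by
        have h4 := Nat.floor_le h2
        have h5 := Nat.lt_floor_add_one (t * N)
        have h6 : t - (⌊t * N⌋₊:ℝ) / N = (t * N - ⌊t * N⌋₊) / N := by field_simp
        rw [h6, abs_div, abs_of_pos hN0, abs_of_nonneg (by linarith)]
        gcongr
        linarith
      have h7 : |t - (⌊t * N⌋₊:ℝ) / N| * ‖v‖ ≤ ρ := by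
        calc _ ≤ 1 / N * (N * ρ) := by gcongr
          _ = ρ := by field_simp
      linarith
  have hvol : ∀ i, volume (W i) ≤ ENNReal.ofReal (64 * ρ^2 / lam^2) := by
    intro i
    rcases (W i).eq_empty_or_nonempty with h0 | ⟨w₀, h0⟩
    · rw [h0]; simp
    · have h1 : W i ⊆ closedBall w₀ (4 * ρ / lam) := by
        intro w hw
        rw [mem_closedBall, dist_eq_norm, le_div_iff₀ hlam, mul_comm]
        refine (he _).trans ?_
        have e1 : (w - w₀).1 • e 0 + (w - w₀).2 • e 1 =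
            (pt e y w - (a + ((i:ℝ) / N) • v)) - (pt e y w₀ - (a + ((i:ℝ) / N) • v)) := by
          simp only [pt, Prod.fst_sub, Prod.snd_sub, sub_smul]; abel
        rw [e1]
        refine (norm_sub_le _ _).trans ?_
        have h2 : ‖pt e y w - (a + ((i:ℝ) / N) • v)‖ ≤ 2 * ρ := hw
        have h3 : ‖pt e y w₀ - (a + ((i:ℝ) / N) • v)‖ ≤ 2 * ρ := h0
        linarith
      refine (measure_mono h1).trans (le_of_eq ?_)
      have e2 : closedBall w₀ (4 * ρ / lam) =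
          closedBall w₀.1 (4 * ρ / lam) ×ˢ closedBall w₀.2 (4 * ρ / lam) := by
        rw [closedBall_prod_same]
      rw [e2, Measure.volume_eq_prod, Measure.prod_prod, Real.volume_closedBall,
        Real.volume_closedBall, ← ENNReal.ofReal_mul (by positivity)]
      congr 1
      field_simp
      ring
  refine (measure_mono hsub).trans ((measure_biUnion_finset_le _ _).trans ?_)
  refine (Finset.sum_le_card_nsmul _ _ _ fun i _ => hvol i).trans ?_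
  rw [Finset.card_range, nsmul_eq_mul]
  have h8 : ((N + 1 : ℕ) : ℝ≥0∞) = ENNReal.ofReal ((N:ℝ) + 1) := by
    rw [← ENNReal.ofReal_natCast]; push_cast; rfl
  rw [h8, ← ENNReal.ofReal_mul (by positivity)]
  refine ENNReal.ofReal_le_ofReal ?_
  have h9 : (N:ℝ) * ρ ≤ ‖v‖ + 2 * ρ := by
    have h1 : (⌈‖v‖ / ρ⌉₊ : ℝ) < ‖v‖ / ρ + 1 := Nat.ceil_lt_add_one (by positivity)
    have h2 : (⌈‖v‖ / ρ⌉₊ : ℝ) * ρ ≤ ‖v‖ + ρ := by
      calc (⌈‖v‖ / ρ⌉₊ : ℝ) * ρ ≤ (‖v‖ / ρ + 1) * ρ := by gcongr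
        _ = _ := by field_simp
    rw [hN]; push_cast
    linarith
  rw [mul_div_assoc', div_le_div_iff_of_pos_right (by positivity)]
  nlinarith [sq_nonneg ρ]

/-- the energy of the part of a face near a segment -/
theorem face_en {p : ℝ} (hp1 : 1 ≤ p) (hp2 : p ≤ 2) {G : Fin 3 → R3 → R3} (L : R3 →L[ℝ] R3)
    {e : Fin 2 → R3} {lam : ℝ} (hlam : 0 < lam)
    (he : ∀ w : ℝ × ℝ, lam * ‖w‖ ≤ ‖w.1 • e 0 + w.2 • e 1‖) (y a v : R3) {ρ : ℝ} (hρ : 0 < ρ)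
    {B0 Om : Set R3} (hB0 : ∀ z ∈ B0, ∃ t ∈ Icc (0:ℝ) 1, ‖z - (a + t • v)‖ ≤ ρ)
    {Q : Set (ℝ × ℝ)} {A : ℝ≥0∞} (hA : ∫⁻ w in Q, ‖Gmat G (pt e y w) - L‖ₑ ^ p ≤ A) :
    ∫⁻ w in Q ∩ pt e y ⁻¹' B0, Om.indicator (En p G) (pt e y w) ≤
      6 * ‖L‖ₑ ^ p * ENNReal.ofReal (64 * ρ * (‖v‖ + 3 * ρ) / lam^2) + 6 * A := by
  have h1 : ∀ w, Om.indicator (En p G) (pt e y w) ≤
      6 * ‖L‖ₑ ^ p + 6 * ‖Gmat G (pt e y w) - L‖ₑ ^ p := fun w =>
    (indicator_le_self' (fun _ _ => zero_le) _).trans (en_le hp1 hp2 G _ L)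
  refine (lintegral_mono fun w => h1 w).trans ?_
  rw [lintegral_add_left measurable_const, setLIntegral_const]
  refine add_le_add (mul_le_mul' le_rfl ?_) ((lintegral_const_mul' _ _ (by norm_num)).le.trans
    (mul_le_mul' le_rfl ((lintegral_mono_set inter_subset_left).trans hA)))
  refine le_trans (measure_mono ?_) (vol_strip hlam he y a v hρ)
  rintro w ⟨-, hw⟩
  exact hB0 _ hw

/-- the zone of an edge in `R3` -/
theorem zn_pt {κ ι : Type*} [Fintype κ] [Fintype ι] {X : Sys κ ι} {k : κ} {a v : E3} {u : ℝ}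
    (hu : 0 ≤ u) {z : R3} (hz : z ∈ w2 '' zn X k (sg a v) u) :
    ∃ t ∈ Icc (0:ℝ) 1, ‖z - (w2 a + t • w2 v)‖ ≤ 50 * (X.m k : ℝ)^4 * u := by
  obtain ⟨x, ⟨-, hx⟩, rfl⟩ := hz
  obtain ⟨y, ⟨t, ht, rfl⟩, h1⟩ := inf_pt (isCompact_sg a v) hx (by positivity)
  refine ⟨t, ht, ?_⟩
  have h2 := Cob_622.w2_lip x (a + t • v)
  have e1 : w2 (a + t • v) = w2 a + t • w2 v := by
    simp only [w2_eq_P3]; rw [map_add, map_smul]
  rw [e1] at h2
  calc _ ≤ 2 * ‖x - (a + t • v)‖ := h2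
    _ ≤ 2 * (25 * (X.m k : ℝ)^4 * u) := by gcongr
    _ = _ := by ring

theorem isClosed_zn {κ ι : Type*} [Fintype κ] [Fintype ι] (X : Sys κ ι) (k : κ) (E : Set E3)
    (u : ℝ) : IsClosed (w2 '' zn X k E u) :=
  w2.isClosed_image.2 ((X.C k).cht.clK.inter isClosed_cthickening)

/-! ### the two right sides -/

section final

variable {OmR : Set R3} {ι : Type*} {T : Tiling OmR ι} {s : Finset ι} {pr : (Te T).Cell → Prop}
  {X : Sys s (reps (Te T) s pr)} {Om : Set R3} {κe κf : Type*} {x v : κe → R3}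
  {e : κf → Fin 2 → R3} {xx : κf → R3} {a : R3} {Q : κf → Set (ℝ × ℝ)}
  {me : EgS (Te T) s → κe} {mf : FcS (Te T) s pr → κf} {c : ι → E3}

open Classical in
/-- **[L6], near tubes**: no unsqueezed face in the zone -/
theorem Jt_near {g : R3 → ℝ≥0∞} {B0 : Set R3}
    (D : EF X Om (B0.indicator g) (EgS (Te T) s) (FcS (Te T) s pr))
    (hc : ∀ i, c i ∈ I ((Te T).H i)) (hXF : ∀ x : reps (Te T) s pr, FaceOf (Te T) c (x : E3) (X.F x))
    (hXP : ∀ k : s, (X.C k).P = P ((Te T).H k)) (hfc : ∀ b, D.fc b = w2 '' b.1.set)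
    (hrE : ∀ x, D.rimE x = rimS (Te T) s (x : E3))
    (hDE : ∀ c, D.Ee c = ENNReal.ofReal (32 * ‖v (me c)‖) *
      ∫⁻ σ in Icc 0 1 ∩ pl (v (me c)) (a + x (me c)) ⁻¹' B0,
        Om.indicator g (pl (v (me c)) (a + x (me c)) σ))
    (k : s) {E : Set E3} {u : ℝ} {r : ℝ≥0} {n nE : ℕ} {V η' : ℝ}
    (hr : ∀ x : reps (Te T) s pr, (k : ι) ∈ (Te T).at_ (x : E3) → (X.F x).ρ ≤ r * (X.C k).R)
    (hn : (Finset.univ.filter fun x : reps (Te T) s pr => (k : ι) ∈ (Te T).at_ (x : E3)).card ≤ n)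
    (hnE : (Finset.univ.filter fun c : EgS (Te T) s => c.1.set ⊆ P ((Te T).H k)).card ≤ nE)
    (hV : ∀ c : EgS (Te T) s, c.1.set ⊆ P ((Te T).H k) → ‖v (me c)‖ ≤ V)
    {C : Set R3} (hC : ∀ c : EgS (Te T) s, c.1.set ⊆ P ((Te T).H k) → seg x v a (me c) ⊆ C)
    (hg : ∀ i, ∫⁻ σ in Ioc (0:ℝ) 1, C.indicator g (a + x i + σ • v i) ≤ ENNReal.ofReal η')
    (hno : ∀ b : FcS (Te T) s pr, ¬ (b.1.set ∩ zn X k E u).Nonempty) (hV0 : 0 ≤ V) :
    Jt D k E u ≤ ENNReal.ofReal (34848 * (X.m k : ℝ)^8 * n * r * nE * V * u^2 * η') := by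
  have hR : (0:ℝ) < (X.C k).R := (X.C k).R_pos
  have h1 := Jt_T D hc hXF hXP hfc hrE k (E := E) (u := u) (r := r * (X.C k).R)
    (eE := ENNReal.ofReal (32 * V) * ENNReal.ofReal η') (nF := 0) (eF := 0) hr hn hnE
    (fun c hc => by
      rw [hDE c]
      refine mul_le_mul' (ENNReal.ofReal_le_ofReal ?_) (edge_near (hC c hc) (hg (me c)) _)
      have := hV c hc
      linarith)
    (by rw [Nat.le_zero, Finset.card_eq_zero, Finset.filter_eq_empty_iff]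
        exact fun b _ => hno b)
    (fun b hb => absurd hb (hno b))
  refine h1.trans (le_of_eq ?_)
  rw [Nat.cast_zero, zero_mul, mul_zero, add_zero, ← ENNReal.ofReal_mul (by positivity)]
  have e1 : ((r * (X.C k).R : ℝ≥0) : ℝ≥0∞) = ENNReal.ofReal (r * (X.C k).R) := by
    rw [← NNReal.coe_mul, ENNReal.ofReal_coe_nnreal]
  rw [e1, ← ENNReal.ofReal_natCast n, ← ENNReal.ofReal_natCast nE,
    ← ENNReal.ofReal_mul (by positivity), ← ENNReal.ofReal_mul (by positivity),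
    ← ENNReal.ofReal_mul (by positivity), ← ENNReal.ofReal_mul (by positivity)]
  congr 1
  field_simp
  ring

open Classical in
/-- **[L6], energy tubes** around an edge `(y0, y0 + w0)` -/
theorem Jt_energy {p : ℝ} (hp1 : 1 ≤ p) (hp2 : p ≤ 2) {G : Fin 3 → R3 → R3} (L : R3 →L[ℝ] R3)
    {B0 : Set R3}
    (D : EF X Om (B0.indicator (En p G)) (EgS (Te T) s) (FcS (Te T) s pr))
    (hc : ∀ i, c i ∈ I ((Te T).H i)) (hXF : ∀ x : reps (Te T) s pr, FaceOf (Te T) c (x : E3) (X.F x))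
    (hXP : ∀ k : s, (X.C k).P = P ((Te T).H k)) (hfc : ∀ b, D.fc b = w2 '' b.1.set)
    (hrE : ∀ x, D.rimE x = rimS (Te T) s (x : E3))
    (hDE : ∀ c, D.Ee c = ENNReal.ofReal (32 * ‖v (me c)‖) *
      ∫⁻ σ in Icc 0 1 ∩ pl (v (me c)) (a + x (me c)) ⁻¹' B0,
        Om.indicator (En p G) (pl (v (me c)) (a + x (me c)) σ))
    (hDF : ∀ b, D.Ef b = ENNReal.ofReal (16 * Fce_793.cc (e (mf b)) ^ 2) *
      ∫⁻ w in Q (mf b) ∩ pt (e (mf b)) (a + xx (mf b)) ⁻¹' B0,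
        Om.indicator (En p G) (pt (e (mf b)) (a + xx (mf b)) w))
    (k : s) {y0 w0 : E3} {u : ℝ} (hu : 0 < u) (hB0 : B0 ⊆ w2 '' zn X k (sg y0 w0) u)
    {r : ℝ≥0} {n nE nF : ℕ} {V η' : ℝ}
    (hr : ∀ x : reps (Te T) s pr, (k : ι) ∈ (Te T).at_ (x : E3) → (X.F x).ρ ≤ r * (X.C k).R)
    (hn : (Finset.univ.filter fun x : reps (Te T) s pr => (k : ι) ∈ (Te T).at_ (x : E3)).card ≤ n)
    (hnE : (Finset.univ.filter fun c : EgS (Te T) s => c.1.set ⊆ P ((Te T).H k)).card ≤ nE)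
    (hV : ∀ c : EgS (Te T) s, c.1.set ⊆ P ((Te T).H k) → ‖v (me c)‖ ≤ V)
    {C : Set R3} (hC : ∀ c : EgS (Te T) s, c.1.set ⊆ P ((Te T).H k) → seg x v a (me c) ⊆ C)
    (hg : ∀ i, ∫⁻ σ in Ioc (0:ℝ) 1, C.indicator (fun y => ‖Gmat G y - L‖ₑ ^ p)
      (a + x i + σ • v i) ≤ ENNReal.ofReal η')
    (hnF : (Finset.univ.filter fun b : FcS (Te T) s pr =>
      (b.1.set ∩ zn X k (sg y0 w0) u).Nonempty).card ≤ nF)
    {lam : FcS (Te T) s pr → ℝ} {q A : ℝ} (hlam : ∀ b, 0 < lam b)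
    (he : ∀ b : FcS (Te T) s pr, (b.1.set ∩ zn X k (sg y0 w0) u).Nonempty → ∀ w : ℝ × ℝ,
      lam b * ‖w‖ ≤ ‖w.1 • e (mf b) 0 + w.2 • e (mf b) 1‖)
    (hq : ∀ b : FcS (Te T) s pr, (b.1.set ∩ zn X k (sg y0 w0) u).Nonempty →
      Fce_793.cc (e (mf b)) ≤ q * lam b)
    (hA : ∀ b : FcS (Te T) s pr, (b.1.set ∩ zn X k (sg y0 w0) u).Nonempty →
      ENNReal.ofReal (Fce_793.cc (e (mf b)) ^ 2) * ∫⁻ w in Q (mf b),
        ‖Gmat G (pt (e (mf b)) (a + xx (mf b)) w) - L‖ₑ ^ p ≤ ENNReal.ofReal A) :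
    Jt D k (sg y0 w0) u ≤
      ENNReal.ofReal (34848 * (X.m k : ℝ)^8 * n * r * nE * V * u^2) *
        (6 * ‖L‖ₑ ^ p + 6 * ENNReal.ofReal η') +
      ENNReal.ofReal (33 * (X.m k : ℝ)^4 * u) * (nF *
        (ENNReal.ofReal (16 * q^2 * (64 * (50 * (X.m k : ℝ)^4 * u) *
          (‖w2 w0‖ + 3 * (50 * (X.m k : ℝ)^4 * u)))) * (6 * ‖L‖ₑ ^ p) +
          96 * ENNReal.ofReal A)) := by
  have hR : (0:ℝ) < (X.C k).R := (X.C k).R_pos
  have hm1 := Sys.m_one (X := X) k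
  have hρ : 0 < 50 * (X.m k : ℝ)^4 * u := by positivity
  set ρ := 50 * (X.m k : ℝ)^4 * u with hρd
  refine (Jt_T D hc hXF hXP hfc hrE k (E := sg y0 w0) (u := u) (r := r * (X.C k).R)
    (eE := ENNReal.ofReal (32 * V) * (6 * ‖L‖ₑ ^ p + 6 * ENNReal.ofReal η')) (nF := nF)
    (eF := ENNReal.ofReal (16 * q^2 * (64 * ρ * (‖w2 w0‖ + 3 * ρ))) * (6 * ‖L‖ₑ ^ p) +
          96 * ENNReal.ofReal A) hr hn hnE
    (fun c hc => ?_) hnF (fun b hb => ?_)).trans ?_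
  · rw [hDE c]
    refine mul_le_mul' (ENNReal.ofReal_le_ofReal ?_) (edge_en hp1 hp2 L (hC c hc) (hg (me c)) _)
    have := hV c hc
    linarith
  · rw [hDF b]
    have hl := hlam b
    have h1 := face_en hp1 hp2 (G := G) (Om := Om) L hl (he b hb) (a + xx (mf b)) (w2 y0) (w2 w0) hρ
      (B0 := B0) (fun z hz => zn_pt hu.le (hB0 hz)) (Q := Q (mf b))
      (A := ∫⁻ w in Q (mf b), ‖Gmat G (pt (e (mf b)) (a + xx (mf b)) w) - L‖ₑ ^ p) le_rfl
    refine (mul_le_mul' le_rfl h1).trans ?_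
    rw [mul_add]
    refine add_le_add ?_ ?_
    · rw [mul_comm (6 * ‖L‖ₑ ^ p), ← mul_assoc, ← ENNReal.ofReal_mul (by positivity)]
      refine mul_le_mul' (ENNReal.ofReal_le_ofReal ?_) le_rfl
      have h2 := hq b hb
      have h3 : 0 ≤ Fce_793.cc (e (mf b)) := Fce_793.cc_nonneg _
      have h4 : Fce_793.cc (e (mf b)) ^ 2 / lam b ^ 2 ≤ q^2 := by
        rw [div_le_iff₀ (by positivity), ← mul_pow]
        exact pow_le_pow_left₀ h3 h2 2
      calc 16 * Fce_793.cc (e (mf b)) ^ 2 * (64 * ρ * (‖w2 w0‖ + 3 * ρ) / lam b ^ 2)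
          = 16 * (Fce_793.cc (e (mf b)) ^ 2 / lam b ^ 2) * (64 * ρ * (‖w2 w0‖ + 3 * ρ)) := by ring
        _ ≤ _ := by gcongr
    · calc ENNReal.ofReal (16 * Fce_793.cc (e (mf b)) ^ 2) *
          (6 * ∫⁻ w in Q (mf b), ‖Gmat G (pt (e (mf b)) (a + xx (mf b)) w) - L‖ₑ ^ p)
          = 96 * (ENNReal.ofReal (Fce_793.cc (e (mf b)) ^ 2) *
            ∫⁻ w in Q (mf b), ‖Gmat G (pt (e (mf b)) (a + xx (mf b)) w) - L‖ₑ ^ p) := by
            rw [ENNReal.ofReal_mul (by norm_num), ENNReal.ofReal_ofNat]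
            ring
        _ ≤ _ := mul_le_mul' le_rfl (hA b hb)
  · refine add_le_add (le_of_eq ?_) le_rfl
    have e1 : ((r * (X.C k).R : ℝ≥0) : ℝ≥0∞) = ENNReal.ofReal (r * (X.C k).R) := by
      rw [← NNReal.coe_mul, ENNReal.ofReal_coe_nnreal]
    rw [e1, ← ENNReal.ofReal_natCast n, ← ENNReal.ofReal_natCast nE]
    simp only [← mul_assoc]
    rw [← ENNReal.ofReal_mul (by positivity), ← ENNReal.ofReal_mul (by positivity),
      ← ENNReal.ofReal_mul (by positivity), ← ENNReal.ofReal_mul (by positivity)]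
    congr 2
    field_simp
    ring

end final

end

end Crest.Agent.R096.Sqt_143
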