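import Crest.Agent.R096.Sqt13_143
import Crest.Agent.R096.H2a3_821

/-!
Row 96 (S0127), helper143.  COMPOSITE B, the LONG half of [C5]: **the energy of the translates of one long
edge**, from the energies of the tubes around its pieces.
-/

set_option autoImplicit false
set_option linter.unusedSectionVars false
set_option linter.style.longLine false

open Set Metric Filter Topology MeasureTheory
open scoped ENNReal NNReal

namespace Crest.Agent.R096.Sqt_143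

open Crest.AnalysisR.VecCalc3
open Crest.Agent.R096.Sk_962 (SH)
open Crest.Agent.R096.Sq_55 (E3 w2)
open Crest.Agent.R096.Mal_874 (CB)
open Crest.Agent.R096.Pin_753 (Tw)
open Crest.Agent.R096.Fub_216 (fub_tube dv)
open Crest.Agent.R096.H2a_821 (coef_le tube_pieces aem_Gv)
open Crest.Agent.R096.Br_695 (En)
open Crest.Agent.R96.Lu_538 (Gmat Gmat_apply)

noncomputable section

/-- the derivative in a direction and the energy density -/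
theorem Gv_le {p : ℝ} (hp1 : 1 ≤ p) (hp2 : p ≤ 2) (G : Fin 3 → R3 → R3) (x v : R3) :
    ‖Gmat G x v‖ₑ ^ p ≤ 3 * ‖v‖ₑ ^ p * En p G x := by
  have hp0 : 0 ≤ p := by linarith
  have h0 : ‖Gmat G x v‖ ≤ ∑ j : Fin 3, ‖G j x‖ * ‖v‖ := by
    have h1 : ∀ j : Fin 3, ‖Gmat G x v j‖ ≤ ‖G j x‖ * ‖v‖ := by
      intro j
      rw [Gmat_apply, Real.norm_eq_abs]
      exact abs_real_inner_le_norm _ _
    have h2 : ‖Gmat G x v‖ ≤ ∑ j : Fin 3, ‖Gmat G x v j‖ := by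
      rw [EuclideanSpace.norm_eq, Real.sqrt_le_iff]
      refine ⟨by positivity, ?_⟩
      simp only [Fin.sum_univ_three]
      have a0 := norm_nonneg (Gmat G x v 0)
      have a1 := norm_nonneg (Gmat G x v 1)
      have a2 := norm_nonneg (Gmat G x v 2)
      nlinarith [mul_nonneg a0 a1, mul_nonneg a0 a2, mul_nonneg a1 a2]
    exact h2.trans (Finset.sum_le_sum fun j _ => h1 j)
  have h3 : ‖Gmat G x v‖ₑ ≤ ∑ j : Fin 3, ‖G j x‖ₑ * ‖v‖ₑ := by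
    rw [← ofReal_norm]
    refine (ENNReal.ofReal_le_ofReal h0).trans (le_of_eq ?_)
    rw [ENNReal.ofReal_sum_of_nonneg fun j _ => by positivity]
    refine Finset.sum_congr rfl fun j _ => ?_
    rw [ENNReal.ofReal_mul (norm_nonneg _), ofReal_norm, ofReal_norm]
  calc ‖Gmat G x v‖ₑ ^ p ≤ (∑ j : Fin 3, ‖G j x‖ₑ * ‖v‖ₑ) ^ p := ENNReal.rpow_le_rpow h3 hp0
    _ ≤ ((Finset.univ : Finset (Fin 3)).card : ℝ≥0∞) ^ (p - 1) *
        ∑ j : Fin 3, (‖G j x‖ₑ * ‖v‖ₑ) ^ p :=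
      ENNReal.rpow_sum_le_const_mul_sum_rpow _ _ hp1
    _ ≤ 3 * ∑ j : Fin 3, (‖G j x‖ₑ * ‖v‖ₑ) ^ p := by
        refine mul_le_mul' ?_ le_rfl
        simp only [Finset.card_univ, Fintype.card_fin, Nat.cast_ofNat]
        calc (3:ℝ≥0∞) ^ (p - 1) ≤ 3 ^ (1:ℝ) :=
              ENNReal.rpow_le_rpow_of_exponent_le (by norm_num) (by linarith)
          _ = 3 := ENNReal.rpow_one _
    _ = 3 * ‖v‖ₑ ^ p * En p G x := by
        unfold En
        simp_rw [ENNReal.mul_rpow_of_nonneg _ _ hp0]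
        rw [← Finset.sum_mul]
        ring

lemma lint_bU {γ : Type*} (s : Finset γ) (A : γ → Set E3) (g : E3 → ℝ≥0∞) :
    ∫⁻ y in ⋃ a ∈ s, A a, g y ≤ ∑ a ∈ s, ∫⁻ y in A a, g y := by
  classical
  induction s using Finset.induction_on with
  | empty => simp
  | insert j s hj ih =>
    rw [Finset.set_biUnion_insert, Finset.sum_insert hj]
    exact (lintegral_union_le _ _ _).trans (by gcongr)

variable {Q : CB R3 3} {k0 : ℕ}

/-- **the energy of the translates of one edge** -/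
theorem long_edge {p : ℝ} (hp1 : 1 ≤ p) (hp2 : p ≤ 2) {Om La : Set R3}
    {g : R3 → R3} {G2 : Fin 3 → R3 → R3} (hg : SH p Om La g G2)
    {κ : ℝ} (hκ : 0 < κ) (cnd1 : ∀ v, κ / 4 * ‖v‖ ≤ ‖Q.ψ v‖)
    (cnd2 : ∀ v, ‖Q.ψ v‖ ≤ 4 * κ⁻¹ * ‖v‖) {u : ℝ}
    (hu : 4 * κ⁻¹ / (5 * 2 ^ k0) ≤ u) {x v : R3} (hv : v ≠ 0)
    (hT : cthickening u (sg (w2.symm x) (w2.symm v)) ⊆ w2 ⁻¹' Om)
    {m : ℕ} {t : ℕ → ℝ} (ht0 : t 0 = 0) (htm : t m = 1) (ht : ∀ i < m, t i < t (i + 1))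
    {κX : Type*} {PP : κX → Set (Fin 3 → ℝ)} (s : ℕ → Finset κX)
    (hcov : ∀ i < m, cthickening u (sg (w2.symm x + t i • w2.symm v)
      ((t (i + 1) - t i) • w2.symm v)) ⊆ ⋃ k ∈ s i, PP k)
    (J : ℕ → κX → ℝ≥0∞)
    (E : ∀ i < m, ∀ k ∈ s i, ∫⁻ z in PP k ∩ cthickening u (sg (w2.symm x + t i • w2.symm v)
        ((t (i + 1) - t i) • w2.symm v)), En p G2 (w2 z) ≤ J i k) :
    ∫⁻ w in Tw Q k0, ∫⁻ τ in Icc (0:ℝ) 1, ‖Gmat G2 (x + w + τ • v) v‖ₑ ^ p ≤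
      ENNReal.ofReal (12800 * 4 ^ k0 / (κ ^ 4 * ‖v‖)) *
        (3 * ‖v‖ₑ ^ p * ∑ i ∈ Finset.range m, ∑ k ∈ s i, J i k) * volume (Tw Q k0) := by
  have hp0 : 0 ≤ p := by linarith
  have hu0 : 0 ≤ u := le_trans (by positivity) hu
  set S := cthickening u (sg (w2.symm x) (w2.symm v)) with hS
  have hSO : w2 '' S ⊆ Om := by
    rintro _ ⟨z, hz, rfl⟩
    exact hT hz
  have mF : AEMeasurable (fun y => ‖Gmat G2 y v‖ₑ ^ p) (volume.restrict (w2 '' S)) := by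
    have h1 : AEStronglyMeasurable (Gmat G2) (volume.restrict Om) :=
      Crest.Agent.R96.Lu_538.aesm_Gmat fun j => (hg.memG j).1
    have h2 : AEStronglyMeasurable (fun y => Gmat G2 y v) (volume.restrict Om) :=
      (ContinuousLinearMap.apply ℝ R3 v).continuous.comp_aestronglyMeasurable h1
    exact (h2.enorm.pow_const p).mono_measure (Measure.restrict_mono hSO le_rfl)
  have h1 := fub_tube (Q := Q) (k0 := k0) hκ cnd1 hu hv mF
  refine h1.trans ?_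
  rw [Fub_216.coef_eq]
  have h2 : ∫⁻ z in S, ‖Gmat G2 (w2 z) v‖ₑ ^ p ≤
      3 * ‖v‖ₑ ^ p * ∑ i ∈ Finset.range m, ∑ k ∈ s i, J i k := by
    have hne : (3:ℝ≥0∞) * ‖v‖ₑ ^ p ≠ ∞ :=
      ENNReal.mul_ne_top (by norm_num) (ENNReal.rpow_ne_top_of_nonneg hp0 enorm_ne_top)
    refine (lintegral_mono fun z => Gv_le hp1 hp2 G2 (w2 z) v).trans ?_
    rw [lintegral_const_mul' _ _ hne]
    refine mul_le_mul' le_rfl ?_
    have hsub : S ⊆ ⋃ q ∈ (Finset.range m).sigma s, (PP q.2 ∩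
        cthickening u (sg (w2.symm x + t q.1 • w2.symm v)
          ((t (q.1 + 1) - t q.1) • w2.symm v))) := by
      intro z hz
      obtain ⟨i, hi, hzi⟩ := mem_iUnion₂.1 (tube_pieces ht0 htm ht hu0 hz)
      obtain ⟨k, hk, hzk⟩ := mem_iUnion₂.1 (hcov i (Finset.mem_range.1 hi) hzi)
      exact mem_iUnion₂.2 ⟨⟨i, k⟩, Finset.mem_sigma.2 ⟨hi, hk⟩, hzk, hzi⟩
    refine (lintegral_mono_set hsub).trans ?_
    rw [← Finset.sum_sigma (s := Finset.range m) (t := s) (f := fun q => J q.1 q.2)]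
    refine (lint_bU _ _ _).trans ?_
    refine Finset.sum_le_sum fun q hq => ?_
    have hq' := Finset.mem_sigma.1 hq
    exact E q.1 (Finset.mem_range.1 hq'.1) q.2 hq'.2
  calc _ ≤ ENNReal.ofReal (12800 * 4 ^ k0 / (κ ^ 4 * ‖v‖)) * volume (Tw Q k0) *
        (3 * ‖v‖ₑ ^ p * ∑ i ∈ Finset.range m, ∑ k ∈ s i, J i k) := by
        refine mul_le_mul' (mul_le_mul' (ENNReal.ofReal_le_ofReal ?_) le_rfl) h2
        exact coef_le hκ cnd1 cnd2 hv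
    _ = _ := by ring

/-- **the energy of the translates of one long edge**, structural constant `A`: `N` = number of pairs
(piece, cell) -/
theorem long_num {p : ℝ} (hp1 : 1 ≤ p) (hp2 : p ≤ 2) {Om La : Set R3}
    {g : R3 → R3} {G2 : Fin 3 → R3 → R3} (hg : SH p Om La g G2)
    {κ : ℝ} (hκ : 0 < κ) (cnd1 : ∀ v, κ / 4 * ‖v‖ ≤ ‖Q.ψ v‖)
    (cnd2 : ∀ v, ‖Q.ψ v‖ ≤ 4 * κ⁻¹ * ‖v‖) {u : ℝ}
    (hu : u = 4 * κ⁻¹ / (5 * 2 ^ k0)) {x v : R3} (hv : v ≠ 0)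
    (hT : cthickening u (sg (w2.symm x) (w2.symm v)) ⊆ w2 ⁻¹' Om)
    {m : ℕ} {t : ℕ → ℝ} (ht0 : t 0 = 0) (htm : t m = 1) (ht : ∀ i < m, t i < t (i + 1))
    {κX : Type*} {PP : κX → Set (Fin 3 → ℝ)} (s : ℕ → Finset κX)
    (hcov : ∀ i < m, cthickening u (sg (w2.symm x + t i • w2.symm v)
      ((t (i + 1) - t i) • w2.symm v)) ⊆ ⋃ k ∈ s i, PP k)
    {N : ℕ} (hN : ∑ i ∈ Finset.range m, (s i).card ≤ N) {A : ℝ} (L : R3 →L[ℝ] R3)
    (E : ∀ i < m, ∀ k ∈ s i, ∫⁻ z in PP k ∩ cthickening u (sg (w2.symm x + t i • w2.symm v)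
        ((t (i + 1) - t i) • w2.symm v)), En p G2 (w2 z) ≤
        ENNReal.ofReal (A * u^2 * ‖v‖) * ‖L‖ₑ ^ p) :
    ∫⁻ w in Tw Q k0, ∫⁻ τ in Icc (0:ℝ) 1, ‖Gmat G2 (x + w + τ • v) v‖ₑ ^ p ≤
      ENNReal.ofReal (24576 * A * N / κ ^ 6) * ‖L‖ₑ ^ p * ‖v‖ₑ ^ p * volume (Tw Q k0) := by
  have hv' : 0 < ‖v‖ := norm_pos_iff.2 hv
  refine (long_edge hp1 hp2 hg hκ cnd1 cnd2 hu.ge hv hT ht0 htm ht s hcov
    (fun _ _ => ENNReal.ofReal (A * u^2 * ‖v‖) * ‖L‖ₑ ^ p) E).trans ?_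
  refine mul_le_mul' ?_ le_rfl
  have h1 : ∑ i ∈ Finset.range m, ∑ _k ∈ s i, ENNReal.ofReal (A * u^2 * ‖v‖) * ‖L‖ₑ ^ p ≤
      N * (ENNReal.ofReal (A * u^2 * ‖v‖) * ‖L‖ₑ ^ p) := by
    simp only [Finset.sum_const, nsmul_eq_mul]
    rw [← Finset.sum_mul]
    refine mul_le_mul' ?_ le_rfl
    exact_mod_cast hN
  calc ENNReal.ofReal (12800 * 4 ^ k0 / (κ ^ 4 * ‖v‖)) *
        (3 * ‖v‖ₑ ^ p * ∑ i ∈ Finset.range m, ∑ _k ∈ s i,
          ENNReal.ofReal (A * u^2 * ‖v‖) * ‖L‖ₑ ^ p)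
      ≤ ENNReal.ofReal (12800 * 4 ^ k0 / (κ ^ 4 * ‖v‖)) *
        (3 * ‖v‖ₑ ^ p * (N * (ENNReal.ofReal (A * u^2 * ‖v‖) * ‖L‖ₑ ^ p))) := by gcongr
    _ = ENNReal.ofReal (12800 * 4 ^ k0 / (κ ^ 4 * ‖v‖)) * (3 * (N * ENNReal.ofReal (A * u^2 * ‖v‖))) *
        ‖L‖ₑ ^ p * ‖v‖ₑ ^ p := by ring
    _ = _ := by
        congr 2
        rw [← ENNReal.ofReal_natCast N, ← ENNReal.ofReal_ofNat 3,
          ← ENNReal.ofReal_mul (by positivity), ← ENNReal.ofReal_mul (by positivity),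
          ← ENNReal.ofReal_mul (by positivity)]
        congr 1
        have e1 : (4:ℝ) ^ k0 = (2 ^ k0) ^ 2 := by rw [← pow_mul, mul_comm, pow_mul]; norm_num
        rw [hu, e1]
        field_simp
        ring

end

end Crest.Agent.R096.Sqt_143
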