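import Crest.Agent.R096.Ce1_537

/-!
Row 96 (S0127), helper143.  SQ-TUBE, part 1: a PL map which is affine on a segment has the same
derivative in the direction of the segment at all nearby points, up to finitely many small balls.
-/

set_option autoImplicit false

open Set Metric Filter Topology

namespace Crest.Agent.R096.Sqt_143

open Crest.Agent.R096.Ce_537

variable {E F G : Type*} [NormedAddCommGroup E] [NormedSpace ℝ E]
  [NormedAddCommGroup F] [NormedSpace ℝ F] [NormedAddCommGroup G] [NormedSpace ℝ G]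

/-- `h` is affine at `x` in the direction `v`, with derivative `w`. -/
def Tv (h : E → F) (x v : E) (w : F) : Prop := ∀ᶠ σ in 𝓝 (0:ℝ), h (x + σ • v) = h x + σ • w

lemma Tv.comp {h : E → F} {k : F → G} {x v : E} {w : F} {z : G} (h1 : Tv h x v w)
    (h2 : Tv k (h x) w z) : Tv (fun y => k (h y)) x v z := by
  filter_upwards [h1, h2] with σ h1 h2
  rw [h1, h2]

lemma Tv.id (x v : E) : Tv (fun y => y) x v v := Eventually.of_forall fun _ => rfl

lemma Tv.congr {h k : E → F} {x v : E} {w : F} (h1 : Tv h x v w) (he : k =ᶠ[𝓝 x] h) :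
    Tv k x v w := by
  have h2 : Tendsto (fun σ : ℝ => x + σ • v) (𝓝 0) (𝓝 x) := by
    have : Continuous fun σ : ℝ => x + σ • v := by fun_prop
    simpa using this.tendsto 0
  filter_upwards [h1, h2.eventually he] with σ h1 h2
  rw [h2, he.eq_of_nhds, h1]

lemma Tv.congr_of_open {h k : E → F} {x v : E} {w : F} {O : Set E} (h1 : Tv h x v w)
    (hO : IsOpen O) (hx : x ∈ O) (he : EqOn k h O) : Tv k x v w :=
  h1.congr (eventually_of_mem (hO.mem_nhds hx) he)

/-- affine maps -/
lemma map_line (f : E →ᵃ[ℝ] F) (x v : E) (σ : ℝ) : f (x + σ • v) = f x + σ • f.linear v := by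
  have h := f.map_vadd x (σ • v)
  rw [vadd_eq_add, vadd_eq_add, map_smul] at h
  rw [add_comm x, h, add_comm]

lemma aff_sub (f : E →ᵃ[ℝ] F) (x y : E) : f x - f y = f.linear (x - y) := by
  have h := f.linearMap_vsub x y
  rw [vsub_eq_sub, vsub_eq_sub] at h
  exact h.symm

/-- all active pieces have the same derivative in the direction `v` -/
lemma tv_of_sel [FiniteDimensional ℝ E] {h : E → F} {K : Set E} {S : Finset (E →ᵃ[ℝ] F)}
    (hS : ∀ x ∈ K, ∃ f ∈ S, h x = f x) {x v : E} {w : F} (hK : K ∈ 𝓝 x)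
    (hc : ContinuousAt h x) (ha : ∀ f ∈ S, h x = f x → f.linear v = w) : Tv h x v w := by
  have h2 : Tendsto (fun σ : ℝ => x + σ • v) (𝓝 0) (𝓝 x) := by
    have : Continuous fun σ : ℝ => x + σ • v := by fun_prop
    simpa using this.tendsto 0
  have h1 : ∀ᶠ y in 𝓝 x, ∀ f ∈ S, h x ≠ f x → h y ≠ f y := by
    rw [eventually_all_finset]
    intro f _
    by_cases hf : h x = f x
    · exact Eventually.of_forall fun y h => absurd hf h
    · have h3 : ContinuousAt (fun y => h y - f y) x :=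
        hc.sub (AffineMap.continuous_of_finiteDimensional f).continuousAt
      have h4 : h x - f x ≠ 0 := sub_ne_zero.2 hf
      filter_upwards [h3.eventually_ne h4] with y hy _
      exact sub_ne_zero.1 hy
  filter_upwards [h2.eventually h1, h2.eventually hK] with σ h3 h4
  obtain ⟨f, hf, hfx⟩ := hS _ h4
  have h5 : h x = f x := by
    by_contra hne
    exact h3 f hf hne hfx
  rw [hfx, map_line, ← h5, ha f hf h5]

/-- **(AFF)** a nonconstant affine function on `[0,1]` is large off small intervals round finitely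
many points -/
lemma aff_large (α β : F) (hβ : β ≠ 0) (K : ℝ) :
    ∃ c : ℝ, 0 < c ∧ ∃ C : ℝ, 0 < C ∧ ∃ X : Finset ℝ, (∀ s ∈ X, s ∈ Icc (0:ℝ) 1) ∧
      ∀ t ∈ Icc (0:ℝ) 1, ∀ u : ℝ, 0 ≤ u → u ≤ c → (∀ s ∈ X, C * u < |t - s|) →
        K * u < ‖α + t • β‖ := by
  have hβn : 0 < ‖β‖ := norm_pos_iff.2 hβ
  by_cases hz : ∃ s ∈ Icc (0:ℝ) 1, α + s • β = 0
  · obtain ⟨s, hs, hs0⟩ := hz
    refine ⟨1, one_pos, (|K| + 1) / ‖β‖, by positivity, {s}, by simpa using hs, ?_⟩
    intro t ht u hu0 _ hX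
    have h4 := hX s (Finset.mem_singleton_self s)
    have h2 : α + t • β = (t - s) • β := by
      have : α = - (s • β) := eq_neg_of_add_eq_zero_left hs0
      rw [this, sub_smul]; abel
    rw [h2, norm_smul, Real.norm_eq_abs]
    have h5 : (|K| + 1) / ‖β‖ * u * ‖β‖ < |t - s| * ‖β‖ := mul_lt_mul_of_pos_right h4 hβn
    have h6 : (|K| + 1) / ‖β‖ * u * ‖β‖ = (|K| + 1) * u := by field_simp
    have h7 : K * u ≤ (|K| + 1) * u := mul_le_mul_of_nonneg_right
      ((le_abs_self K).trans (by linarith)) hu0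
    linarith
  · push Not at hz
    have hcont : ContinuousOn (fun t : ℝ => ‖α + t • β‖) (Icc 0 1) := by fun_prop
    obtain ⟨s, hs, hmin⟩ := isCompact_Icc.exists_isMinOn (nonempty_Icc.2 zero_le_one) hcont
    have hm : 0 < ‖α + s • β‖ := norm_pos_iff.2 (hz s hs)
    set m := ‖α + s • β‖ with hmdef
    refine ⟨m / (2 * (|K| + 1)), by positivity, 1, one_pos, ∅, by simp, ?_⟩
    intro t ht u hu0 huc _
    have h2 : m ≤ ‖α + t • β‖ := hmin ht
    have h3 : u * (2 * (|K| + 1)) ≤ m := by rwa [le_div_iff₀ (by positivity)] at huc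
    have h7 : K * u ≤ (|K| + 1) * u := mul_le_mul_of_nonneg_right
      ((le_abs_self K).trans (by linarith)) hu0
    have h8 : 0 ≤ (|K| + 1) * u := by positivity
    nlinarith

/-- finitely many nonconstant affine functions at once -/
theorem aff_large_fin {J : Type*} (S : Finset J) (α β : J → F) (K : J → ℝ) :
    ∃ c : ℝ, 0 < c ∧ ∃ C : ℝ, 0 < C ∧ ∃ X : Finset ℝ, (∀ s ∈ X, s ∈ Icc (0:ℝ) 1) ∧
      ∀ t ∈ Icc (0:ℝ) 1, ∀ u : ℝ, 0 ≤ u → u ≤ c → (∀ s ∈ X, C * u < |t - s|) →
        ∀ j ∈ S, β j ≠ 0 → K j * u < ‖α j + t • β j‖ := by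
  classical
  induction S using Finset.induction_on with
  | empty => exact ⟨1, one_pos, 1, one_pos, ∅, by simp, fun _ _ _ _ _ _ j hj => by simp at hj⟩
  | @insert f S hf ih =>
    obtain ⟨c1, hc1, C1, hC1, X1, hX1, h1⟩ := ih
    by_cases hβ : β f = 0
    · refine ⟨c1, hc1, C1, hC1, X1, hX1, ?_⟩
      intro t ht u hu0 hu hX j hj hj0
      rcases Finset.mem_insert.1 hj with rfl | hj
      · exact absurd hβ hj0
      · exact h1 t ht u hu0 hu hX j hj hj0
    obtain ⟨c2, hc2, C2, hC2, X2, hX2, h2⟩ := aff_large (α f) (β f) hβ (K f)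
    refine ⟨min c1 c2, lt_min hc1 hc2, max C1 C2, lt_max_of_lt_left hC1, X1 ∪ X2, ?_, ?_⟩
    · intro s hs
      rcases Finset.mem_union.1 hs with h | h
      · exact hX1 s h
      · exact hX2 s h
    · intro t ht u hu0 hu hX j hj hj0
      rcases Finset.mem_insert.1 hj with rfl | hj
      · exact h2 t ht u hu0 (hu.trans (min_le_right _ _)) (fun s hs =>
          (mul_le_mul_of_nonneg_right (le_max_right _ _) hu0).trans_lt
            (hX s (Finset.mem_union_right _ hs)))
      · exact h1 t ht u hu0 (hu.trans (min_le_left _ _)) (fun s hs =>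
          (mul_le_mul_of_nonneg_right (le_max_left _ _) hu0).trans_lt
            (hX s (Finset.mem_union_left _ hs))) j hj hj0

/-- a common bound for the linear parts -/
lemma exists_opbound [FiniteDimensional ℝ E] (S : Finset (E →ᵃ[ℝ] F)) :
    ∃ M : ℝ, 0 ≤ M ∧ ∀ f ∈ S, ∀ y, ‖f.linear y‖ ≤ M * ‖y‖ := by
  refine ⟨∑ f ∈ S, ‖LinearMap.toContinuousLinearMap f.linear‖,
    Finset.sum_nonneg fun _ _ => norm_nonneg _, fun f hf y => ?_⟩
  have h1 := (LinearMap.toContinuousLinearMap f.linear).le_opNorm y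
  have h2 : ‖LinearMap.toContinuousLinearMap f.linear‖ ≤
      ∑ f ∈ S, ‖LinearMap.toContinuousLinearMap f.linear‖ :=
    Finset.single_le_sum (f := fun f : E →ᵃ[ℝ] F => ‖LinearMap.toContinuousLinearMap f.linear‖)
      (fun _ _ => norm_nonneg _) hf
  exact h1.trans (mul_le_mul_of_nonneg_right h2 (norm_nonneg _))

end Crest.Agent.R096.Sqt_143
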