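import Crest.Agent.R096.Gam3_968
import Crest.Agent.R096.Dps1_476

/-!
Row 96 (S0127), helper143.  COMPOSITE B, (O1), leaf [G] of 961 #12131: the clause `gam` of one block in the
letters of `DeepS` / `deepJ`, from 968's `gam_T`.
-/

set_option autoImplicit false
set_option linter.unusedSectionVars false
set_option linter.style.longLine false

open Set Metric Filter Topology MeasureTheory
open scoped ENNReal NNReal

namespace Crest.Agent.R096.Sqt_143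

open Crest.AnalysisR.VecCalc3
open Crest.Agent.R096.Msh_715 (P I Tiling)
open Crest.Agent.R096.Mal_874 (CB)
open Crest.Agent.R096.Gsc_476
open Crest.Agent.R096.Ca_855
open Crest.Agent.R096.Ca_855.MIn (BQ)
open Crest.Agent.R096.Sq_55 (E3 Sys w2 toR)
open Crest.Agent.R096.Sk2_855 (sk1 Mv)
open Crest.Agent.R096.Efi_296
open Crest.Agent.R096.Cbs_296
open Crest.Agent.R096.Pin_753
open Crest.Agent.R096.Dps_476 (deepJ)
open Crest.Agent.R096.Gam_968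
open Crest.Agent.R96.Coarse_538 (seg Cb PerfG)
open Crest.Agent.R96.Intr_538 (cel)
open Crest.Agent.R96.Gdt_538 (MeshG)

noncomputable section

variable {Om W : Set R3} {ρ₀ : R3 → ℝ} {J : Type} {Qb : J → CB R3 3} {k0 : ℕ} {σ : ℝ}
  [Finite J]

/-- **[G]**: the clause `gam` of one block -/
theorem gam_dp (h : MIn Om W ρ₀ Qb k0 σ) {a : R3} (ha : ‖a‖ ≤ σ / 8) {κ : ℝ} {Bs Nn : ℕ}
    (hκ : 0 < κ) (hκ1 : κ ≤ 1) {j : J} (hb : BQ κ Bs Nn (Qb j) k0) {K1 : ℕ}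
    {s : Finset (h.ιT a)} {pr : (Te (h.T a)).Cell → Prop} {c : h.ιT a → E3}
    {R m : h.ιT a → ℝ≥0} {ρ : E3 → ℝ≥0} {X : Sys s (reps (Te (h.T a)) s pr)}
    (H : SysOf (Te (h.T a)) s pr c R ρ m X)
    (hρ : ∀ x ∈ reps (Te (h.T a)) s pr, ∀ k ∈ (Te (h.T a)).at_ x, k ∈ s → R k ≤ m k * ρ x)
    {u : ℝ} (hu : u = 4 * κ⁻¹ / (5 * 2 ^ k0)) {M : ℝ≥0} (hM : 1 ≤ M) {nb : ℕ} {C : Set R3}
    (hD : DeepS (h.T a) s pr R m ρ u C M nb (deepJ h a j K1))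
    (hRk : ∀ k ∈ deepJ h a j K1, 1 / 2 ^ (sclT h a k + 1) ≤ (R k : ℝ))
    (hs : ∀ k, P ((h.T a).H k) ⊆ ((Qb j).tr a).N → k ∈ s)
    (hKc : (Qb j).kc + K1 ≤ k0) (hK1 : 416 * κ⁻¹ * (M:ℝ)^4 * (4 * κ⁻¹ / 5) ≤ 2 ^ K1)
    {f : R3 → R3} (hf : ContinuousOn f Om) {Φ : R3 ≃ₜ R3} (hΦ : Mv (h.T a) Φ)
    {κi : Type*} {x v : κi → R3} {a1 : R3} (hme : MeshG (h.T a) x v a1 W)
    {p τ₁ σ₀ η t sz : ℝ} {D : R3 → R3 →L[ℝ] R3} {z b : R3} {L : R3 →L[ℝ] R3}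
    (hP : PerfG x v p Om f D κ τ₁ σ₀ η t sz a1 z b L) (hW : cel Cb z sz ⊆ W)
    (hσ0 : 0 < σ₀) (hσ1 : σ₀ < 1) (hsz : 0 < sz)
    {τ A : ℝ} (hτ : τ < 1) (hN : (Qb j).N ⊆ cel Cb z ((1 - τ) * sz)) (hA : ‖a‖ ≤ A)
    (hA' : A + 60 * (M:ℝ)^4 * u ≤ (τ - σ₀) * sz)
    {e κw σr : ℝ} (he : 0 < e)
    (hnum : 3 * σr + η * t + 100 * κ⁻¹ * (M:ℝ)^4 * u + e ≤ κw * sz) :
    ∃ δ₀ : ℝ, 0 < δ₀ ∧ ∀ (p δ : ℝ) (hA : X.Adm p δ), δ < δ₀ → ∀ (N₁ N₂ : ℕ) (Rr : R3 → R3),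
      (∀ y, ‖Rr y - y‖ ≤ 3 * σr) →
      ∀ x ∈ ((Qb j).tr a).Kc, (((Qb j).tr a).T k0 (h.hk j)).dim x = 1 →
        ∀ y ∈ (((Qb j).tr a).T k0 (h.hk j)).cc x, ∀ w ∈ Tw ((Qb j).tr a) k0,
        ‖Rr (f (Φ (toR (Sys.chi hA (N₁+1) (N₂+1)) (y + w)))) - Bk b L z (y + w)‖ ≤ κw * sz := by
  have hu0 : 0 < u := by rw [hu]; positivity
  have hM' : (1:ℝ) ≤ M := by exact_mod_cast hM
  have hM4 : (0:ℝ) ≤ (M:ℝ)^4 := by positivity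
  have hin : ∀ k, P ((h.T a).H k) ⊆ ((Qb j).tr a).N → sclT h a k = (Qb j).kc →
      k ∈ deepJ h a j K1 := fun k h1 h2 => ⟨h1, by rw [h2]; exact hKc⟩
  have hcel : cel Cb z ((1 - σ₀) * sz) ⊆ W := by
    refine Subset.trans ?_ hW
    have hr : 0 < (1 - σ₀) * sz := mul_pos (by linarith) hsz
    intro y hy
    rw [Crest.Agent.R96.Coarse_538.mem_cel hr] at hy
    rw [Crest.Agent.R96.Coarse_538.mem_cel hsz]
    intro i
    refine (hy i).trans ?_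
    nlinarith
  obtain ⟨δ₀, hδ₀, key⟩ := gam_T h ha hκ hκ1 hb H hρ hf hΦ hσ0 hσ1 hsz hP hme hcel hs
    (fun c hc h1 => hD.hpr c hc fun k hk => hin k (h1 k hk).1 (h1 k hk).2)
    (m₀ := (M:ℝ)) hM'
    (fun k h1 h2 => by
      have h3 := hin k h1 h2
      refine ⟨by exact_mod_cast hD.hM k h3, ?_⟩
      have h4 := hRk k h3
      rwa [h2] at h4)
    hN hτ hu0
    (by
      have h1 : (2:ℝ) ^ (Qb j).kc * 2 ^ K1 ≤ 2 ^ k0 := by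
        rw [← pow_add]
        exact pow_le_pow_right₀ (by norm_num) hKc
      have hp : (0:ℝ) < 2 ^ (Qb j).kc := by positivity
      have hp0 : (0:ℝ) < 2 ^ k0 := by positivity
      rw [le_div_iff₀ hp, hu]
      have e1 : 416 * κ⁻¹ * (M:ℝ)^4 * (4 * κ⁻¹ / (5 * 2 ^ k0)) * 2 ^ (Qb j).kc =
          (416 * κ⁻¹ * (M:ℝ)^4 * (4 * κ⁻¹ / 5)) * 2 ^ (Qb j).kc / 2 ^ k0 := by
        field_simp
      rw [e1, div_le_one hp0]
      refine (mul_le_mul_of_nonneg_right hK1 hp.le).trans ?_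
      rw [mul_comm]
      exact h1)
    (by
      have : 0 ≤ (M:ℝ)^4 * u := by positivity
      nlinarith) he
  refine ⟨δ₀, hδ₀, fun p δ hAd hδ N₁ N₂ Rr hR => ?_⟩
  exact (key p δ hAd hδ N₁ N₂).gam hκ (fun v => (hb.cnd v).1) hu.ge hR (by linarith)

end

end Crest.Agent.R096.Sqt_143
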