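import Crest.Agent.R096.Sqt1_143
import Crest.Agent.R096.Sq11_55

/-!
Row 96 (S0127), helper143.  SQ-TUBE, part 2: the squeezes of the unit cube and of the standard
diamond near a segment of the boundary sphere (of the rim).
-/

set_option autoImplicit false

open Set Metric Filter Topology

namespace Crest.Agent.R096.Sqt_143

open Crest.Agent.R096.Ce_537 Crest.Agent.R096.Bd_416 Crest.Agent.R96.Hole_348
open Crest.Agent.R096.Sq_55

section
variable {E F : Type*} [NormedAddCommGroup E] [NormedSpace ℝ E]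
  [NormedAddCommGroup F] [NormedSpace ℝ F]

lemma Tv.smul {h : E → F} {x v : E} {w : F} (h1 : Tv h x v w) (c : ℝ) :
    Tv h x (c • v) (c • w) := by
  have h2 : Tendsto (fun σ : ℝ => σ * c) (𝓝 0) (𝓝 0) := by
    have : Continuous fun σ : ℝ => σ * c := by fun_prop
    simpa using this.tendsto 0
  filter_upwards [h2.eventually h1] with σ hσ
  rw [smul_smul, smul_smul, hσ]

end

variable {n : ℕ}

lemma cf_id {r x : ℝ} (h : |x| ≤ 2 * r - 1) : cf r x = x := by
  have h1 := abs_le.1 h
  unfold cf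
  rw [max_eq_left (by linarith), max_eq_left (by linarith)]
  ring

lemma cg_id {r x : ℝ} (h : |x| ≤ 2 * r - 1) : cg r x = x := by
  have h1 := abs_le.1 h
  unfold cg
  rw [max_eq_left (by linarith), max_eq_left (by linarith)]
  ring

/-- **the outer shell near a point of the sphere**: directions along the sphere are kept -/
lemma outer_tv {z0 w : Fin n → ℝ} (hz0 : ‖z0‖ = 1) {u τ : ℝ} (hτ0 : 0 < τ) (hτ : τ ≤ 1/2)
    {z : Fin n → ℝ} (hzu : ‖z - z0‖ ≤ u) (hw : ∀ j, w j ≠ 0 → |z0 j| + 6 * u < 1) :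
    Tv (outer τ 1) z w w := by
  have hu0 : 0 ≤ u := (norm_nonneg _).trans hzu
  set r := ‖z‖ with hr
  have hr1 : 1 - u ≤ r := by
    have h2 : ‖z0‖ ≤ ‖z‖ + ‖z - z0‖ := by
      have : z0 = z - (z - z0) := by abel
      calc ‖z0‖ = ‖z - (z - z0)‖ := by rw [← this]
        _ ≤ _ := norm_sub_le _ _
    linarith
  have hzj : ∀ j, w j ≠ 0 → |z j| < 1 - 5 * u := by
    intro j hj
    have h2 : |z j - z0 j| ≤ u := (norm_le_pi_norm (z - z0) j).trans hzu
    have h3 := hw j hj
    have h4 : |z j| ≤ |z j - z0 j| + |z0 j| := by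
      have := abs_add_le (z j - z0 j) (z0 j)
      simpa using this
    linarith
  -- the norm does not change
  have hnb : ∀ᶠ σ : ℝ in 𝓝 0, ∀ j, w j ≠ 0 → |(z + σ • w) j| < 1 - 5 * u := by
    rw [eventually_all]
    intro j
    by_cases hj : w j = 0
    · exact Eventually.of_forall fun σ h => absurd hj h
    · have hc : Continuous fun σ : ℝ => |(z + σ • w) j| := by
        have : (fun σ : ℝ => |(z + σ • w) j|) = fun σ => |z j + σ * w j| := by
          funext σ; simp
        rw [this]; fun_prop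
      have h0 : |(z + (0:ℝ) • w) j| < 1 - 5 * u := by
        have := hzj j hj
        simpa using this
      filter_upwards [hc.continuousAt.eventually_lt continuousAt_const h0] with σ hσ _
      exact hσ
  have hsame : ∀ σ : ℝ, ∀ j, w j = 0 → (z + σ • w) j = z j := by
    intro σ j hj; simp [hj]
  have hnorm : ∀ σ : ℝ, (∀ j, w j ≠ 0 → |(z + σ • w) j| < 1 - 5 * u) → ‖z + σ • w‖ = r := by
    intro σ hσ
    apply le_antisymm
    · rw [pi_norm_le_iff_of_nonneg (norm_nonneg _)]
      intro j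
      by_cases hj : w j = 0
      · rw [hsame σ j hj]; exact norm_le_pi_norm z j
      · have := hσ j hj
        rw [Real.norm_eq_abs]; linarith
    · rw [hr, pi_norm_le_iff_of_nonneg (norm_nonneg _)]
      intro j
      by_cases hj : w j = 0
      · have := norm_le_pi_norm (z + σ • w) j
        rwa [hsame σ j hj] at this
      · -- the maximum is attained at a coordinate with `w j = 0`
        by_contra hlt
        push Not at hlt
        -- use the coordinate realising ‖z‖
        have hne : Nonempty (Fin n) := ⟨j⟩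
        obtain ⟨i, hi⟩ : ∃ i, ‖z i‖ = ‖z‖ := by
          obtain ⟨i, -, hi⟩ := Finset.exists_mem_eq_sup' (Finset.univ_nonempty (α := Fin n))
            (fun i => ‖z i‖)
          refine ⟨i, le_antisymm (norm_le_pi_norm z i) ?_⟩
          rw [pi_norm_le_iff_of_nonneg (norm_nonneg _)]
          intro k
          rw [← hi]
          exact Finset.le_sup' (fun i => ‖z i‖) (Finset.mem_univ k)
        have hi0 : w i = 0 := by
          by_contra hi0
          have h1 := hzj i hi0
          rw [Real.norm_eq_abs] at hi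
          linarith
        have h2 := norm_le_pi_norm (z + σ • w) i
        rw [hsame σ i hi0, hi] at h2
        have h3 := norm_le_pi_norm z j
        linarith
  have key : ∀ σ : ℝ, (∀ j, w j ≠ 0 → |(z + σ • w) j| < 1 - 5 * u) → ∀ j, w j ≠ 0 →
      outer τ 1 (z + σ • w) j = (z + σ • w) j := by
    intro σ hσ j hj
    have h1 := hσ j hj
    have h2 := hnorm σ hσ
    show cg (1 - τ + (2 * ‖z + σ • w‖ - 1) * τ) (cf ‖z + σ • w‖ ((z + σ • w) j)) = _
    rw [h2]
    rw [cf_id (by linarith), cg_id]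
    nlinarith
  filter_upwards [hnb] with σ hσ
  have h0 : ∀ j, w j ≠ 0 → |(z + (0:ℝ) • w) j| < 1 - 5 * u := by
    intro j hj
    have := hzj j hj
    simpa using this
  have key0 := key 0 h0
  funext j
  by_cases hj : w j = 0
  · have h2 := hnorm σ hσ
    show cg (1 - τ + (2 * ‖z + σ • w‖ - 1) * τ) (cf ‖z + σ • w‖ ((z + σ • w) j)) =
      cg (1 - τ + (2 * ‖z‖ - 1) * τ) (cf ‖z‖ (z j)) + σ • w j
    rw [h2, hsame σ j hj, hj, smul_zero, add_zero]
  · rw [key σ hσ j hj]
    have h3 := key0 j hj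
    rw [zero_smul, add_zero] at h3
    show (z + σ • w) j = outer τ 1 z j + (σ • w) j
    rw [h3]; rfl

/-- the outer shell moves points by at most twice the depth -/
lemma outer_sub_le {τ : ℝ} (hτ0 : 0 < τ) (hτ : τ ≤ 1/2) {z : Fin n → ℝ} (h1 : 1/2 ≤ ‖z‖)
    (h2 : ‖z‖ ≤ 1) : ‖outer τ 1 z - z‖ ≤ 2 * (1 - ‖z‖) := by
  rw [pi_norm_le_iff_of_nonneg (by linarith)]
  intro j
  set r := ‖z‖ with hr
  have hj : |z j| ≤ r := norm_le_pi_norm z j
  have hj' := abs_le.1 hj
  show |cg (1 - τ + (2 * r - 1) * τ) (cf r (z j)) - z j| ≤ _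
  have a1 : |cf r (z j) - z j| ≤ 1 - r := by
    unfold cf
    rw [abs_le]
    constructor
    · have b1 : max 0 (-z j + 1 - 2 * r) ≤ 1 - r := max_le (by linarith) (by linarith)
      have b2 := le_max_left 0 (z j + 1 - 2 * r)
      linarith
    · have b1 : max 0 (z j + 1 - 2 * r) ≤ 1 - r := max_le (by linarith) (by linarith)
      have b2 := le_max_left 0 (-z j + 1 - 2 * r)
      linarith
  have a2 : |cf r (z j)| ≤ 1 := by
    have hne : Nonempty (Fin n) := ⟨j⟩
    have := norm_cf_le h1 h2 (y := z) le_rfl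
    exact (norm_le_pi_norm (fun j => cf r (z j)) j).trans this
  set s := 1 - τ + (2 * r - 1) * τ with hs
  have hs1 : 1 - s = 2 * τ * (1 - r) := by rw [hs]; ring
  have hs2 : 1 - s ≤ 1 - r := by rw [hs1]; nlinarith
  have hs3 : 0 ≤ 1 - s := by rw [hs1]; nlinarith
  have a3 : |cg s (cf r (z j)) - cf r (z j)| ≤ 1 - s := by
    set y := cf r (z j) with hy
    have hy' := abs_le.1 a2
    unfold cg
    rw [abs_le]
    constructor
    · have b1 : max 0 ((y + 1 - 2 * s) / 2) ≤ 1 - s := max_le hs3 (by linarith)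
      have b2 := le_max_left 0 ((-y + 1 - 2 * s) / 2)
      linarith
    · have b1 : max 0 ((-y + 1 - 2 * s) / 2) ≤ 1 - s := max_le hs3 (by linarith)
      have b2 := le_max_left 0 ((y + 1 - 2 * s) / 2)
      linarith
  have e : cg s (cf r (z j)) - z j = (cg s (cf r (z j)) - cf r (z j)) + (cf r (z j) - z j) := by ring
  rw [e]
  refine (abs_add_le _ _).trans ?_
  linarith

/-- the norm on the outer shell -/
lemma norm_outer_one {τ : ℝ} (hτ0 : 0 < τ) (hτ : τ ≤ 1/2) {z : Fin n → ℝ} (h1 : 1/2 ≤ ‖z‖)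
    (h2 : ‖z‖ ≤ 1) : ‖outer τ 1 z‖ = 1 - 2 * τ * (1 - ‖z‖) := by
  have := norm_outer (n := n) (τ := τ) (ρ := 1) hτ0 (by linarith) le_rfl h1 h2
  rw [show (outer τ 1 z) = fun j => cg (1 - τ + (2 * ‖z‖ - 1) * τ) (cf ‖z‖ (z j)) from rfl, this]
  ring

end Crest.Agent.R096.Sqt_143
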