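import Crest.Agent.R096.Sqt2_143

/-!
Row 96 (S0127), helper143.  SQ-TUBE, part 3: **the squeeze of a cell near an edge**: for an arbitrary
PL chart the derivative in the direction of the edge is the identity, off finitely many small balls.
-/

set_option autoImplicit false

open Set Metric Filter Topology

namespace Crest.Agent.R096.Sqt_143

open Crest.Agent.R096.Ce_537 Crest.Agent.R096.Bd_416 Crest.Agent.R96.Hole_348
open Crest.Agent.R096.Sq_55
open scoped NNReal

variable {n : ℕ} {E : Type*} [NormedAddCommGroup E] [NormedSpace ℝ E]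

section charts

variable {E' : Type*} [NormedAddCommGroup E'] [NormedSpace ℝ E']
variable {K U : Set E} {K' U' : Set E'} {e : E → E'} {e' : E' → E} {L L' : ℝ≥0}

lemma lip_le {h : E → E'} {K : Set E} {L : ℝ≥0} (hl : LipschitzOnWith L h K) {x y : E}
    (hx : x ∈ K) (hy : y ∈ K) : ‖h x - h y‖ ≤ L * ‖x - y‖ := by
  have := hl.dist_le_mul x hx y hy
  rwa [dist_eq_norm, dist_eq_norm] at this

/-- two active pieces at nearby points -/
lemma piece_near {h : E → E'} {K : Set E} {L : ℝ≥0} (hl : LipschitzOnWith L h K)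
    {f f' : E →ᵃ[ℝ] E'} {M : ℝ} (hM : ∀ y, ‖f.linear y‖ ≤ M * ‖y‖) (hM0 : 0 ≤ M) {x y : E}
    (hx : x ∈ K) (hy : y ∈ K) (hf : h x = f x) (hf' : h y = f' y) {u : ℝ} (hu : ‖x - y‖ ≤ u) :
    ‖f y - f' y‖ ≤ (M + L) * u := by
  have e1 : f y - f' y = (h x - h y) - (f x - f y) := by
    rw [hf, ← hf']
    abel
  rw [e1]
  refine (norm_sub_le _ _).trans ?_
  have h1 := lip_le hl hx hy
  have h2 : ‖f x - f y‖ ≤ M * ‖x - y‖ := by rw [aff_sub]; exact hM _
  have h3 : (0:ℝ) ≤ L := L.coe_nonneg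
  nlinarith [norm_nonneg (x - y)]

end charts

/-- **the squeeze of a cell near an edge** -/
theorem cell_tube [FiniteDimensional ℝ E] {K U : Set E} {e : E → (Fin n → ℝ)}
    {e' : (Fin n → ℝ) → E} {L L' : ℝ≥0}
    (c : Cht K U (closedBall 0 1) (ball 0 1) e e' L L') {a v : E}
    (hK : ∀ t ∈ Icc (0:ℝ) 1, a + t • v ∈ K) (hU : ∀ t ∈ Icc (0:ℝ) 1, a + t • v ∉ U) :
    ∃ c0 : ℝ, 0 < c0 ∧ ∃ C : ℝ, 0 < C ∧ ∃ X : Finset ℝ, (∀ s ∈ X, s ∈ Icc (0:ℝ) 1) ∧
      ∀ τ : ℝ, 0 < τ → τ ≤ 1/2 → ∀ x ∈ U, ∀ t ∈ Icc (0:ℝ) 1, ∀ u ≤ c0, ‖x - (a + t • v)‖ ≤ u →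
        (∀ s ∈ X, C * u < |t - s|) →
        1/2 < ‖e x‖ ∧ Tv (fun y => e' (outer τ 1 (e y))) x v v := by
  classical
  obtain ⟨ce, S, hS⟩ := c.pl
  obtain ⟨ce', S', hS'⟩ := c.pl'
  obtain ⟨M, hM0, hM⟩ := exists_opbound S
  obtain ⟨M', hM'0, hM'⟩ := exists_opbound S'
  have hL0 : (0:ℝ) ≤ L := L.coe_nonneg
  have hL'0 : (0:ℝ) ≤ L' := L'.coe_nonneg
  -- the three families
  obtain ⟨c1, hc1, C1, hC1, X1, hX1, h1⟩ := aff_large_fin (S ×ˢ S)
    (fun p => p.1 a - p.2 a) (fun p => p.1.linear v - p.2.linear v) (fun _ => M + L)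
  obtain ⟨c2, hc2, C2, hC2, X2, hX2, h2⟩ := aff_large_fin (F := ℝ)
    (S ×ˢ ((Finset.univ : Finset (Fin n)) ×ˢ ({1, -1} : Finset ℝ)))
    (fun p => 1 - p.2.2 * p.1 a p.2.1) (fun p => - (p.2.2 * p.1.linear v p.2.1))
    (fun _ => 6 * (L:ℝ))
  obtain ⟨c3, hc3, C3, hC3, X3, hX3, h3⟩ := aff_large_fin (S ×ˢ S')
    (fun p => p.2 (p.1 a) - a) (fun p => p.2.linear (p.1.linear v) - v)
    (fun _ => (M' + L') * (3 * (L:ℝ)))
  refine ⟨min (min c1 c2) (min c3 (1 / (4 * ((L:ℝ) + 1)))), ?_, max C1 (max C2 C3),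
    lt_max_of_lt_left hC1, X1 ∪ (X2 ∪ X3), ?_, ?_⟩
  · exact lt_min (lt_min hc1 hc2) (lt_min hc3 (by positivity))
  · intro s hs
    rcases Finset.mem_union.1 hs with h | h
    · exact hX1 s h
    · rcases Finset.mem_union.1 h with h | h
      · exact hX2 s h
      · exact hX3 s h
  intro τ hτ0 hτ x hx t ht u hu hxu hX
  have hu0 : 0 ≤ u := (norm_nonneg _).trans hxu
  have hu1 : u ≤ c1 := hu.trans ((min_le_left _ _).trans (min_le_left _ _))
  have hu2 : u ≤ c2 := hu.trans ((min_le_left _ _).trans (min_le_right _ _))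
  have hu3 : u ≤ c3 := hu.trans ((min_le_right _ _).trans (min_le_left _ _))
  have hu4 : u ≤ 1 / (4 * ((L:ℝ) + 1)) := hu.trans ((min_le_right _ _).trans (min_le_right _ _))
  have hY1 : ∀ s ∈ X1, C1 * u < |t - s| := fun s hs =>
    (mul_le_mul_of_nonneg_right (le_max_left _ _) hu0).trans_lt
      (hX s (Finset.mem_union_left _ hs))
  have hY2 : ∀ s ∈ X2, C2 * u < |t - s| := fun s hs =>
    (mul_le_mul_of_nonneg_right ((le_max_left _ _).trans (le_max_right _ _)) hu0).trans_lt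
      (hX s (Finset.mem_union_right _ (Finset.mem_union_left _ hs)))
  have hY3 : ∀ s ∈ X3, C3 * u < |t - s| := fun s hs =>
    (mul_le_mul_of_nonneg_right ((le_max_right _ _).trans (le_max_right _ _)) hu0).trans_lt
      (hX s (Finset.mem_union_right _ (Finset.mem_union_right _ hs)))
  set y := a + t • v with hy
  have hyK : y ∈ K := hK t ht
  have hyU : y ∉ U := hU t ht
  have hxK : x ∈ K := c.sub hx
  obtain ⟨g, hg, hgy⟩ := hS y hyK
  set w := g.linear v with hw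
  -- the norm of `e y`
  have hey1 : ‖e y‖ ≤ 1 := by simpa using c.maps hyK
  have hey : ‖e y‖ = 1 := by
    refine le_antisymm hey1 (not_lt.1 fun h => hyU ?_)
    exact (c.mem y hyK).1 (by simpa using h)
  have hexy : ‖e x - e y‖ ≤ L * u :=
    (lip_le c.lip hxK hyK).trans (mul_le_mul_of_nonneg_left hxu hL0)
  have hLu : (L:ℝ) * u ≤ 1/4 := by
    rw [le_div_iff₀ (by positivity)] at hu4
    nlinarith
  have hex1 : ‖e x‖ < 1 := by simpa using c.eU hx
  have hex2 : 1 - L * u ≤ ‖e x‖ := by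
    have : ‖e y‖ ≤ ‖e x‖ + ‖e x - e y‖ := by
      calc ‖e y‖ = ‖e x - (e x - e y)‖ := by congr 1; abel
        _ ≤ _ := norm_sub_le _ _
    linarith
  have hex3 : 1/2 < ‖e x‖ := by linarith
  refine ⟨hex3, ?_⟩
  -- step 1
  have T1 : Tv e x v w := by
    refine tv_of_sel hS (mem_of_superset (c.opU.mem_nhds hx) c.sub)
      (ce.continuousAt (mem_of_superset (c.opU.mem_nhds hx) c.sub)) ?_
    intro f hf hfx
    by_contra hne
    have h4 := h1 t ht u hu0 hu1 hY1 (f, g) (Finset.mem_product.2 ⟨hf, hg⟩) (sub_ne_zero.2 hne)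
    have h5 := piece_near c.lip (hM f hf) hM0 hxK hyK hfx hgy hxu
    have e1 : (f a - g a) + t • (f.linear v - g.linear v) = f y - g y := by
      rw [hy, map_line, map_line, smul_sub]; abel
    have h6 : ‖(f a - g a) + t • (f.linear v - g.linear v)‖ ≤ (M + L) * u := by
      rw [e1]; exact h5
    exact absurd h4 (not_lt.2 h6)
  -- step 2
  have T2 : Tv (outer τ 1) (e x) w w := by
    refine outer_tv hey hτ0 hτ hexy ?_
    intro j hj
    have key : ∀ s : ℝ, s ∈ ({1, -1} : Finset ℝ) → 6 * (L:ℝ) * u < |1 - s * e y j| := by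
      intro s hs
      have hs0 : s ≠ 0 := by
        rcases Finset.mem_insert.1 hs with rfl | hs
        · norm_num
        · rw [Finset.mem_singleton.1 hs]; norm_num
      have h4 := h2 t ht u hu0 hu2 hY2 (g, (j, s)) (Finset.mem_product.2 ⟨hg,
        Finset.mem_product.2 ⟨Finset.mem_univ _, hs⟩⟩) (neg_ne_zero.2 (mul_ne_zero hs0 hj))
      have e1 : (1 - s * g a j) + t • (-(s * g.linear v j)) = 1 - s * e y j := by
        rw [hgy, hy, map_line]
        simp only [Pi.add_apply, Pi.smul_apply, smul_eq_mul]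
        ring
      have h5 : 6 * (L:ℝ) * u < ‖(1 - s * g a j) + t • (-(s * g.linear v j))‖ := h4
      rwa [e1, Real.norm_eq_abs] at h5
    have k1 := key 1 (by simp)
    have k2 := key (-1) (by simp)
    have hj1 : |e y j| ≤ 1 := (norm_le_pi_norm (e y) j).trans hey1
    have hj2 := abs_le.1 hj1
    rw [abs_of_nonneg (by linarith)] at k1
    rw [abs_of_nonneg (by linarith)] at k2
    have : |e y j| < 1 - 6 * L * u := by rw [abs_lt]; constructor <;> linarith
    linarith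
  -- step 3
  set z' := outer τ 1 (e x) with hz'
  have hz'1 : ‖z'‖ < 1 := by
    rw [hz', norm_outer_one hτ0 hτ hex3.le hex1.le]
    nlinarith
  have hz'y : ‖z' - e y‖ ≤ 3 * (L:ℝ) * u := by
    have h4 := outer_sub_le hτ0 hτ hex3.le hex1.le
    have e1 : z' - e y = (z' - e x) + (e x - e y) := by abel
    rw [e1]
    refine (norm_add_le _ _).trans ?_
    linarith
  have hzK : z' ∈ closedBall (0 : Fin n → ℝ) 1 := by simpa using hz'1.le
  have hyK' : e y ∈ closedBall (0 : Fin n → ℝ) 1 := c.maps hyK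
  have T3 : Tv e' z' w v := by
    have hnb : closedBall (0 : Fin n → ℝ) 1 ∈ 𝓝 z' :=
      mem_of_superset (isOpen_ball.mem_nhds (by simpa using hz'1)) ball_subset_closedBall
    refine tv_of_sel hS' hnb (ce'.continuousAt hnb) ?_
    intro k hk hkz
    by_contra hne
    have h4 := h3 t ht u hu0 hu3 hY3 (g, k) (Finset.mem_product.2 ⟨hg, hk⟩) (sub_ne_zero.2 hne)
    obtain ⟨k', hk', hk'y⟩ := hS' (e y) hyK'
    have h5 := piece_near c.lip' (hM' k hk) hM'0 hzK hyK' hkz hk'y hz'y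
    have e1 : (k (g a) - a) + t • (k.linear (g.linear v) - v) = k (e y) - k' (e y) := by
      rw [← hk'y, c.inv y hyK, hgy, hy, map_line, map_line, smul_sub]; abel
    have h6 : ‖(k (g a) - a) + t • (k.linear (g.linear v) - v)‖ ≤ (M' + L') * (3 * (L:ℝ)) * u := by
      rw [e1]; linarith
    exact absurd h4 (not_lt.2 h6)
  exact (T1.comp (k := outer τ 1) T2).comp (k := e') T3

end Crest.Agent.R096.Sqt_143
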