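import Crest.Agent.R096.Sqt3_143

/-!
Row 96 (S0127), helper143.  SQ-TUBE, part 4: **the squeeze of a face near an edge**.
-/

set_option autoImplicit false

open Set Metric Filter Topology

namespace Crest.Agent.R096.Sqt_143

open Crest.Agent.R096.Ce_537 Crest.Agent.R096.Bd_416 Crest.Agent.R96.Hole_348
open Crest.Agent.R096.Sq_55
open scoped NNReal

/-- the last two coordinates -/
def tl (z : E3) : Fin 2 → ℝ := fun j => z j.succ

lemma wid_eq (z : E3) : wid z = ‖tl z‖ := rfl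

lemma tl_add (z w : E3) (σ : ℝ) : tl (z + σ • w) = tl z + σ • tl w := rfl

/-- the squeeze of the diamond on its outer shell -/
noncomputable def fo (τ : ℝ) (z : E3) : E3 :=
  Fin.cons (z 0) ((1 - |z 0|) • outer τ 1 ((1 - |z 0|)⁻¹ • tl z))

lemma fo_zero (τ : ℝ) (z : E3) : fo τ z 0 = z 0 := rfl

lemma tl_fo (τ : ℝ) (z : E3) : tl (fo τ z) = (1 - |z 0|) • outer τ 1 ((1 - |z 0|)⁻¹ • tl z) := rfl

lemma ext_tl {z w : E3} (h0 : z 0 = w 0) (h1 : tl z = tl w) : z = w := by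
  funext j
  refine Fin.cases h0 (fun i => ?_) j
  exact congrFun h1 i

/-- `fo` is the squeeze of 55 on the outer shell of the diamond -/
lemma T_eq_fo {q τ : ℝ} {N : ℕ} {z : E3} (h0 : |z 0| < 1)
    (h1 : (1/2) * (1 - |z 0|) ≤ wid z) (h2 : |z 0| + wid z ≤ 1) :
    f0.T (cgf q τ (N+1)) z = fo τ z := by
  have ha : 0 < 1 - |z 0| := by linarith
  have e1 : f0.dn z = (z 0, tl z) := by
    refine Prod.ext (f0_fst z) (f0_snd z)
  have hn : ‖(1 - |z 0|)⁻¹ • tl z‖ = wid z / (1 - |z 0|) := by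
    rw [norm_smul, norm_inv, Real.norm_eq_abs, abs_of_pos ha, wid_eq]
    field_simp
  have hn1 : ‖(1 - |z 0|)⁻¹ • tl z‖ ≤ 1 := by
    rw [hn, div_le_one ha]; linarith
  have hn2 : 1/2 ≤ ‖(1 - |z 0|)⁻¹ • tl z‖ := by
    rw [hn, le_div_iff₀ ha]; linarith
  have e2 : cgf q τ (N+1) ((1 - |z 0|)⁻¹ • tl z) = outer τ 1 ((1 - |z 0|)⁻¹ • tl z) := by
    rw [cgf_in hn1, gf_outer hn2]
  have e3 : f0.dn (f0.T (cgf q τ (N+1)) z) = f0.dn (fo τ z) := by
    rw [f0.dn_T, e1, dia_of_lt (by simpa using h0)]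
    refine Prod.ext ?_ ?_
    · show z 0 = (f0.dn (fo τ z)).1
      rw [f0_fst]; rfl
    · show (1 - |z 0|) • cgf q τ (N+1) ((1 - |z 0|)⁻¹ • tl z) = (f0.dn (fo τ z)).2
      rw [f0_snd, e2]; rfl
  have := congrArg f0.up e3
  rwa [f0.up_dn, f0.up_dn] at this

/-- the facts about a point near the rim -/
lemma near_rim {z z0 : E3} (hz : |z 0| + wid z < 1) (hz00 : z0 0 = 0) (hz01 : wid z0 = 1) {u : ℝ}
    (hzu : ‖z - z0‖ ≤ u) :
    |z 0| ≤ u ∧ 1 - u ≤ wid z ∧ ‖(1 - |z 0|)⁻¹ • tl z - tl z0‖ ≤ 2 * u := by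
  have h0 : |z 0| ≤ u := by
    have := norm_le_pi_norm (z - z0) 0
    rw [Pi.sub_apply, hz00, sub_zero, Real.norm_eq_abs] at this
    exact this.trans hzu
  have h1 : ‖tl z - tl z0‖ ≤ u := by
    rw [pi_norm_le_iff_of_nonneg ((norm_nonneg _).trans hzu)]
    intro j
    exact (norm_le_pi_norm (z - z0) j.succ).trans hzu
  have h2 : 1 - u ≤ wid z := by
    rw [wid_eq] at hz01 ⊢
    have : ‖tl z0‖ ≤ ‖tl z‖ + ‖tl z - tl z0‖ := by
      calc ‖tl z0‖ = ‖tl z - (tl z - tl z0)‖ := by congr 1; abel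
        _ ≤ _ := norm_sub_le _ _
    linarith
  have hw0 : 0 ≤ wid z := wid_nonneg z
  have ha : 0 < 1 - |z 0| := by linarith
  refine ⟨h0, h2, ?_⟩
  have e1 : (1 - |z 0|)⁻¹ • tl z - tl z0 = ((1 - |z 0|)⁻¹ - 1) • tl z + (tl z - tl z0) := by
    rw [sub_smul, one_smul]; abel
  rw [e1]
  refine (norm_add_le _ _).trans ?_
  have e2 : (1 - |z 0|)⁻¹ - 1 = |z 0| * (1 - |z 0|)⁻¹ := by field_simp; ring
  have h3 : ‖((1 - |z 0|)⁻¹ - 1) • tl z‖ ≤ |z 0| := by
    rw [norm_smul, e2, Real.norm_eq_abs, abs_mul, abs_abs, abs_of_pos (inv_pos.2 ha), mul_assoc]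
    have h4 : (1 - |z 0|)⁻¹ * ‖tl z‖ ≤ 1 := by
      rw [inv_mul_le_iff₀ ha, mul_one, ← wid_eq]; linarith
    calc |z 0| * ((1 - |z 0|)⁻¹ * ‖tl z‖) ≤ |z 0| * 1 :=
          mul_le_mul_of_nonneg_left h4 (abs_nonneg _)
      _ = |z 0| := mul_one _
  linarith

lemma fo_tv {z z0 w : E3} (hz : |z 0| + wid z < 1) (hz00 : z0 0 = 0) (hz01 : wid z0 = 1) {u τ : ℝ}
    (hτ0 : 0 < τ) (hτ : τ ≤ 1/2) (hzu : ‖z - z0‖ ≤ u) (hw0 : w 0 = 0)
    (hw : ∀ j : Fin 2, w j.succ ≠ 0 → |z0 j.succ| + 12 * u < 1) : Tv (fo τ) z w w := by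
  obtain ⟨h0, h1, h2⟩ := near_rim hz hz00 hz01 hzu
  have hwz : 0 ≤ wid z := wid_nonneg z
  have ha : 0 < 1 - |z 0| := by linarith
  have T : Tv (outer (n := 2) τ 1) ((1 - |z 0|)⁻¹ • tl z) (tl w) (tl w) := by
    refine outer_tv (z0 := tl z0) (by rw [← wid_eq]; exact hz01) hτ0 hτ h2 ?_
    intro j hj
    have := hw j hj
    show |z0 j.succ| + 6 * (2 * u) < 1
    linarith
  have T2 := T.smul (1 - |z 0|)⁻¹
  filter_upwards [T2] with σ hσ
  have e0 : (z + σ • w) 0 = z 0 := by simp [hw0]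
  refine ext_tl ?_ ?_
  · rw [fo_zero, e0]
    show z 0 = fo τ z 0 + σ * w 0
    rw [fo_zero, hw0, mul_zero, add_zero]
  · rw [tl_add, tl_fo, tl_fo, e0, tl_add]
    have e1 : (1 - |z 0|)⁻¹ • (tl z + σ • tl w) =
        (1 - |z 0|)⁻¹ • tl z + σ • ((1 - |z 0|)⁻¹ • tl w) := by
      rw [smul_add, smul_comm]
    rw [e1, hσ, smul_add, smul_smul, smul_smul]
    congr 2
    field_simp

/-- `fo` moves little -/
lemma fo_sub_le {z : E3} {τ : ℝ} (hτ0 : 0 < τ) (hτ : τ ≤ 1/2) (h0 : |z 0| < 1)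
    (h1 : (1/2) * (1 - |z 0|) ≤ wid z) (h2 : |z 0| + wid z ≤ 1) :
    ‖fo τ z - z‖ ≤ 2 * (1 - |z 0| - wid z) ∧
      wid (fo τ z) = (1 - |z 0|) - 2 * τ * (1 - |z 0| - wid z) := by
  have ha : 0 < 1 - |z 0| := by linarith
  have hn : ‖(1 - |z 0|)⁻¹ • tl z‖ = wid z / (1 - |z 0|) := by
    rw [norm_smul, norm_inv, Real.norm_eq_abs, abs_of_pos ha, wid_eq]
    field_simp
  have hn1 : ‖(1 - |z 0|)⁻¹ • tl z‖ ≤ 1 := by
    rw [hn, div_le_one ha]; linarith
  have hn2 : 1/2 ≤ ‖(1 - |z 0|)⁻¹ • tl z‖ := by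
    rw [hn, le_div_iff₀ ha]; linarith
  have k1 := outer_sub_le hτ0 hτ hn2 hn1
  have k2 := norm_outer_one hτ0 hτ hn2 hn1
  constructor
  · have e1 : tl (fo τ z) - tl z =
        (1 - |z 0|) • (outer τ 1 ((1 - |z 0|)⁻¹ • tl z) - (1 - |z 0|)⁻¹ • tl z) := by
      rw [tl_fo, smul_sub, smul_smul, mul_inv_cancel₀ ha.ne', one_smul]
    have h3 : ‖tl (fo τ z) - tl z‖ ≤ 2 * (1 - |z 0| - wid z) := by
      rw [e1, norm_smul, Real.norm_eq_abs, abs_of_pos ha]
      calc (1 - |z 0|) * ‖outer τ 1 ((1 - |z 0|)⁻¹ • tl z) - (1 - |z 0|)⁻¹ • tl z‖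
          ≤ (1 - |z 0|) * (2 * (1 - wid z / (1 - |z 0|))) := by
            rw [← hn]; exact mul_le_mul_of_nonneg_left k1 ha.le
        _ = 2 * (1 - |z 0| - wid z) := by field_simp
    rw [pi_norm_le_iff_of_nonneg (by linarith)]
    intro j
    refine Fin.cases ?_ (fun i => ?_) j
    · show ‖fo τ z 0 - z 0‖ ≤ _
      rw [fo_zero, sub_self, norm_zero]; linarith
    · exact (norm_le_pi_norm (tl (fo τ z) - tl z) i).trans h3
  · rw [wid_eq, tl_fo, norm_smul, Real.norm_eq_abs, abs_of_pos ha, k2, hn]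
    field_simp

lemma mem_Dc_nhds {z : E3} (h : |z 0| + wid z < 1) : Dc ∈ 𝓝 z := by
  have h1 : IsOpen {z : E3 | |z 0| + wid z < 1} :=
    isOpen_lt ((continuous_apply 0).abs.add continuous_wid) continuous_const
  refine mem_of_superset (h1.mem_nhds h) fun y hy => ?_
  have : |y 0| + wid y < 1 := hy
  exact this.le

variable {E : Type*} [NormedAddCommGroup E] [NormedSpace ℝ E]

/-- **the squeeze of a face near an edge of its rim** -/
theorem face_tube [FiniteDimensional ℝ E] {K V : Set E} {e : E → E3} {e' : E3 → E} {L L' : ℝ≥0}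
    (c : Cht K V Dc Do e e' L L') {a v : E} (hK : ∀ t ∈ Icc (0:ℝ) 1, a + t • v ∈ K)
    (hr0 : ∀ t ∈ Icc (0:ℝ) 1, e (a + t • v) 0 = 0)
    (hr1 : ∀ t ∈ Icc (0:ℝ) 1, wid (e (a + t • v)) = 1) :
    ∃ c0 : ℝ, 0 < c0 ∧ ∃ C : ℝ, 0 < C ∧ ∃ X : Finset ℝ, (∀ s ∈ X, s ∈ Icc (0:ℝ) 1) ∧
      ∀ τ : ℝ, 0 < τ → τ ≤ 1/2 → ∀ x ∈ V, ∀ t ∈ Icc (0:ℝ) 1, ∀ u ≤ c0, ‖x - (a + t • v)‖ ≤ u →
        (∀ s ∈ X, C * u < |t - s|) →
        (1/2) * (1 - |e x 0|) < wid (e x) ∧ Tv (fun y => e' (fo τ (e y))) x v v := by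
  classical
  obtain ⟨ce, S, hS⟩ := c.pl
  obtain ⟨ce', S', hS'⟩ := c.pl'
  obtain ⟨M, hM0, hM⟩ := exists_opbound S
  obtain ⟨M', hM'0, hM'⟩ := exists_opbound S'
  have hL0 : (0:ℝ) ≤ L := L.coe_nonneg
  have hL'0 : (0:ℝ) ≤ L' := L'.coe_nonneg
  obtain ⟨c1, hc1, C1, hC1, X1, hX1, h1⟩ := aff_large_fin (S ×ˢ S)
    (fun p => p.1 a - p.2 a) (fun p => p.1.linear v - p.2.linear v) (fun _ => M + L)
  obtain ⟨c2, hc2, C2, hC2, X2, hX2, h2⟩ := aff_large_fin (F := ℝ)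
    (S ×ˢ ((Finset.univ : Finset (Fin 3)) ×ˢ ({0, 1, -1} : Finset ℝ)))
    (fun p => if p.2.2 = 0 then p.1 a p.2.1 else 1 - p.2.2 * p.1 a p.2.1)
    (fun p => if p.2.2 = 0 then p.1.linear v p.2.1 else - (p.2.2 * p.1.linear v p.2.1))
    (fun _ => 12 * (L:ℝ))
  obtain ⟨c3, hc3, C3, hC3, X3, hX3, h3⟩ := aff_large_fin (S ×ˢ S')
    (fun p => p.2 (p.1 a) - a) (fun p => p.2.linear (p.1.linear v) - v)
    (fun _ => (M' + L') * (3 * (L:ℝ)))
  refine ⟨min (min c1 c2) (min c3 (1 / (8 * ((L:ℝ) + 1)))), ?_, max C1 (max C2 C3),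
    lt_max_of_lt_left hC1, X1 ∪ (X2 ∪ X3), ?_, ?_⟩
  · exact lt_min (lt_min hc1 hc2) (lt_min hc3 (by positivity))
  · intro s hs
    rcases Finset.mem_union.1 hs with h | h
    · exact hX1 s h
    · rcases Finset.mem_union.1 h with h | h
      · exact hX2 s h
      · exact hX3 s h
  intro τ hτ0 hτ x hx t ht u hu hxu hX
  have hu0 : 0 ≤ u := (norm_nonneg _).trans hxu
  have hu1 : u ≤ c1 := hu.trans ((min_le_left _ _).trans (min_le_left _ _))
  have hu2 : u ≤ c2 := hu.trans ((min_le_left _ _).trans (min_le_right _ _))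
  have hu3 : u ≤ c3 := hu.trans ((min_le_right _ _).trans (min_le_left _ _))
  have hu4 : u ≤ 1 / (8 * ((L:ℝ) + 1)) := hu.trans ((min_le_right _ _).trans (min_le_right _ _))
  have hY1 : ∀ s ∈ X1, C1 * u < |t - s| := fun s hs =>
    (mul_le_mul_of_nonneg_right (le_max_left _ _) hu0).trans_lt
      (hX s (Finset.mem_union_left _ hs))
  have hY2 : ∀ s ∈ X2, C2 * u < |t - s| := fun s hs =>
    (mul_le_mul_of_nonneg_right ((le_max_left _ _).trans (le_max_right _ _)) hu0).trans_lt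
      (hX s (Finset.mem_union_right _ (Finset.mem_union_left _ hs)))
  have hY3 : ∀ s ∈ X3, C3 * u < |t - s| := fun s hs =>
    (mul_le_mul_of_nonneg_right ((le_max_right _ _).trans (le_max_right _ _)) hu0).trans_lt
      (hX s (Finset.mem_union_right _ (Finset.mem_union_right _ hs)))
  set y := a + t • v with hy
  have hyK : y ∈ K := hK t ht
  have hxK : x ∈ K := c.sub hx
  obtain ⟨g, hg, hgy⟩ := hS y hyK
  set w := g.linear v with hw
  have hey0 : e y 0 = 0 := hr0 t ht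
  have hey1 : wid (e y) = 1 := hr1 t ht
  have hexy : ‖e x - e y‖ ≤ L * u :=
    (lip_le c.lip hxK hyK).trans (mul_le_mul_of_nonneg_left hxu hL0)
  have hLu : (L:ℝ) * u ≤ 1/8 := by
    rw [le_div_iff₀ (by positivity)] at hu4
    nlinarith
  have hzD : |e x 0| + wid (e x) < 1 := c.eU hx
  obtain ⟨n0, n1, n2⟩ := near_rim hzD hey0 hey1 hexy
  have ha : |e x 0| < 1 := by have := wid_nonneg (e x); linarith
  have hsh : (1/2) * (1 - |e x 0|) < wid (e x) := by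
    have := abs_nonneg (e x 0)
    linarith
  refine ⟨hsh, ?_⟩
  -- step 1
  have T1 : Tv e x v w := by
    refine tv_of_sel hS (mem_of_superset (c.opU.mem_nhds hx) c.sub)
      (ce.continuousAt (mem_of_superset (c.opU.mem_nhds hx) c.sub)) ?_
    intro f hf hfx
    by_contra hne
    have h4 := h1 t ht u hu0 hu1 hY1 (f, g) (Finset.mem_product.2 ⟨hf, hg⟩) (sub_ne_zero.2 hne)
    have h5 := piece_near c.lip (hM f hf) hM0 hxK hyK hfx hgy hxu
    have e1 : (f a - g a) + t • (f.linear v - g.linear v) = f y - g y := by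
      rw [hy, map_line, map_line, smul_sub]; abel
    have h6 : ‖(f a - g a) + t • (f.linear v - g.linear v)‖ ≤ (M + L) * u := by
      rw [e1]; exact h5
    exact absurd h4 (not_lt.2 h6)
  -- the coordinates
  have hcoord : ∀ j : Fin 3, ∀ s ∈ ({0, 1, -1} : Finset ℝ), w j ≠ 0 →
      12 * (L:ℝ) * u < |if s = 0 then e y j else 1 - s * e y j| := by
    intro j s hs hj
    by_cases hs0 : s = 0
    · subst hs0
      have h4 := h2 t ht u hu0 hu2 hY2 (g, (j, 0)) (Finset.mem_product.2 ⟨hg,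
        Finset.mem_product.2 ⟨Finset.mem_univ _, by simp⟩⟩) (by simpa using hj)
      have e1 : g a j + t • (g.linear v j) = e y j := by
        rw [hgy, hy, map_line]
        simp only [Pi.add_apply, Pi.smul_apply, smul_eq_mul]
      simp only [if_true] at h4 ⊢
      rwa [e1, Real.norm_eq_abs] at h4
    · have h4 := h2 t ht u hu0 hu2 hY2 (g, (j, s)) (Finset.mem_product.2 ⟨hg,
        Finset.mem_product.2 ⟨Finset.mem_univ _, hs⟩⟩) (by
          simp only [if_neg hs0]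
          exact neg_ne_zero.2 (mul_ne_zero hs0 hj))
      have e1 : (1 - s * g a j) + t • (-(s * g.linear v j)) = 1 - s * e y j := by
        rw [hgy, hy, map_line]
        simp only [Pi.add_apply, Pi.smul_apply, smul_eq_mul]
        ring
      simp only [if_neg hs0] at h4 ⊢
      rwa [e1, Real.norm_eq_abs] at h4
  have hLu0 : 0 ≤ 12 * (L:ℝ) * u := by positivity
  have hw0 : w 0 = 0 := by
    by_contra hne
    have := hcoord 0 0 (by simp) hne
    rw [if_pos rfl, hey0, abs_zero] at this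
    linarith
  -- step 2
  have T2 : Tv (fo τ) (e x) w w := by
    refine fo_tv hzD hey0 hey1 hτ0 hτ hexy hw0 ?_
    intro j hj
    have k1 := hcoord j.succ 1 (by simp) hj
    have k2 := hcoord j.succ (-1) (by simp) hj
    rw [if_neg one_ne_zero] at k1
    rw [if_neg (by norm_num)] at k2
    have hj1 : |e y j.succ| ≤ 1 := by
      have := norm_le_pi_norm (tl (e y)) j
      rw [← wid_eq, hey1] at this
      exact this
    have hj2 := abs_le.1 hj1
    rw [abs_of_nonneg (by linarith)] at k1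
    rw [abs_of_nonneg (by linarith)] at k2
    have : |e y j.succ| < 1 - 12 * L * u := by rw [abs_lt]; constructor <;> linarith
    linarith
  -- step 3
  set z' := fo τ (e x) with hz'
  obtain ⟨k3, k4⟩ := fo_sub_le (z := e x) hτ0 hτ ha hsh.le hzD.le
  have hz'D : |z' 0| + wid z' < 1 := by
    rw [hz', fo_zero, k4]
    nlinarith
  have hz'y : ‖z' - e y‖ ≤ 3 * (L:ℝ) * u := by
    have e1 : z' - e y = (z' - e x) + (e x - e y) := by abel
    rw [e1]
    refine (norm_add_le _ _).trans ?_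
    have := abs_nonneg (e x 0)
    linarith
  have hzK : z' ∈ Dc := hz'D.le
  have hyK' : e y ∈ Dc := c.maps hyK
  have T3 : Tv e' z' w v := by
    have hnb := mem_Dc_nhds hz'D
    refine tv_of_sel hS' hnb (ce'.continuousAt hnb) ?_
    intro k hk hkz
    by_contra hne
    have h4 := h3 t ht u hu0 hu3 hY3 (g, k) (Finset.mem_product.2 ⟨hg, hk⟩) (sub_ne_zero.2 hne)
    obtain ⟨k', hk', hk'y⟩ := hS' (e y) hyK'
    have h5 := piece_near c.lip' (hM' k hk) hM'0 hzK hyK' hkz hk'y hz'y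
    have e1 : (k (g a) - a) + t • (k.linear (g.linear v) - v) = k (e y) - k' (e y) := by
      rw [← hk'y, c.inv y hyK, hgy, hy, map_line, map_line, smul_sub]; abel
    have h6 : ‖(k (g a) - a) + t • (k.linear (g.linear v) - v)‖ ≤ (M' + L') * (3 * (L:ℝ)) * u := by
      rw [e1]; linarith
    exact absurd h4 (not_lt.2 h6)
  exact (T1.comp (k := fo τ) T2).comp (k := e') T3

end Crest.Agent.R096.Sqt_143
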