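import Crest.Agent.R096.Sqt5_143

/-!
Row 96 (S0127), helper143.  SQ-TUBE, part 6: change of variables for the outermost shells.
-/

set_option autoImplicit false

open Set Metric Filter Topology MeasureTheory

namespace Crest.Agent.R096.Sqt_143

open Crest.Agent.R096.Ce_537 Crest.Agent.R096.Bd_416 Crest.Agent.R96.Hole_348
open Crest.Agent.R096.Sq_55
open scoped NNReal ENNReal

/-- transport of an inequality for a model map `h'` on `W'` by a chart -/
lemma lint_trans {K U K' U' : Set E3} {e e' : E3 → E3} {L L' : ℝ≥0}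
    (c : Cht K U K' U' e e' L L') {h' : E3 → E3} {W' : Set E3} (hW' : MeasurableSet W')
    (hWU : W' ⊆ K') (hmap : ∀ z ∈ W', h' z ∈ K') {a : ℝ≥0∞}
    (model : ∀ u : E3 → ℝ≥0∞, Measurable u → ∫⁻ z in W', u (h' z) ≤ a * ∫⁻ z in K', u z)
    {W : Set E3} (hW : MeasurableSet W) (hWK : W ⊆ K) (hWW : MapsTo e W W')
    {g : E3 → ℝ≥0∞} (hg : Measurable g) :
    ∫⁻ x in W, g (e' (h' (e x))) ≤ ((L':ℝ≥0∞) * L)^3 * a * ∫⁻ x in K, g x := by
  have hce : ContinuousOn e K := c.lip.continuousOn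
  have hce' : ContinuousOn e' K' := c.lip'.continuousOn
  have mK' : MeasurableSet K' := c.clK'.measurableSet
  have mK : MeasurableSet K := c.clK.measurableSet
  -- into the model
  have s1 : ∫⁻ x in W, g (e' (h' (e x))) ≤ (L':ℝ≥0∞)^3 * ∫⁻ z in W', g (e' (h' z)) := by
    refine (lint_chart (e := e) (e' := e') hW hW' (hce.mono hWK) hWW
      (fun x hx => c.inv x (hWK hx)) (c.lip'.mono hWU) (fun x => g (e' (h' (e x))))).trans ?_
    refine mul_le_mul' le_rfl (le_of_eq ?_)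
    refine setLIntegral_congr_fun hW' fun z hz => ?_
    show g (e' (h' (e (e' z)))) = _
    rw [c.inv' z (hWU hz)]
  -- the model
  obtain ⟨e₂, m2, q2⟩ := measurable_ext mK' hce'
  have s2 : ∫⁻ z in W', g (e' (h' z)) ≤ a * ∫⁻ z in K', g (e' z) := by
    have e1 : ∫⁻ z in W', g (e' (h' z)) = ∫⁻ z in W', g (e₂ (h' z)) :=
      setLIntegral_congr_fun hW' fun z hz => by rw [q2 (hmap z hz)]
    have e2 : ∫⁻ z in K', g (e' z) = ∫⁻ z in K', g (e₂ z) :=
      setLIntegral_congr_fun mK' fun z hz => by rw [q2 hz]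
    rw [e1, e2]
    exact model (fun z => g (e₂ z)) (hg.comp m2)
  -- back
  have s3 : ∫⁻ z in K', g (e' z) ≤ (L:ℝ≥0∞)^3 * ∫⁻ x in K, g x := by
    refine (lint_chart (e := e') (e' := e) mK' mK hce' c.maps' c.inv' c.lip
      (fun z => g (e' z))).trans ?_
    refine mul_le_mul' le_rfl (le_of_eq ?_)
    refine setLIntegral_congr_fun mK fun x hx => ?_
    show g (e' (e x)) = _
    rw [c.inv x hx]
  calc ∫⁻ x in W, g (e' (h' (e x))) ≤ (L':ℝ≥0∞)^3 * (a * ((L:ℝ≥0∞)^3 * ∫⁻ x in K, g x)) :=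
        s1.trans (mul_le_mul' le_rfl (s2.trans (mul_le_mul' le_rfl s3)))
    _ = ((L':ℝ≥0∞) * L)^3 * a * ∫⁻ x in K, g x := by ring

lemma model_cube {τ : ℝ} (h0 : 0 < τ) (h1 : τ ≤ 1/2) {u : E3 → ℝ≥0∞} (hu : Measurable u) :
    ∫⁻ z in {z : E3 | 1/2 < ‖z‖ ∧ ‖z‖ < 1}, u (outer τ 1 z) ≤
      ENNReal.ofReal (kap 3 / τ) * ∫⁻ z in closedBall (0:E3) 1, u z := by
  refine (lint_outer h0 (by linarith) le_rfl hu).trans (mul_le_mul' le_rfl
    (lintegral_mono_set fun z hz => ?_))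
  rw [mem_closedBall_zero_iff]; exact hz.2

lemma q21_le : qn 2 1 ≤ 3/4 := by
  have h1 := qn_sq 2 1
  have h2 := qn_pos 2 1
  have h3 : (2:ℝ)^((1:ℝ) - (2:ℕ)) = 1/2 := by
    have : (1:ℝ) - ((2:ℕ):ℝ) = -1 := by norm_num
    rw [this, Real.rpow_neg_one]; norm_num
  rw [h3] at h1
  nlinarith

/-- the outer region of the diamond -/
def Wd : Set E3 := {z | |z 0| + wid z < 1 ∧ (1/2) * (1 - |z 0|) < wid z}

lemma isOpen_Wd : IsOpen Wd :=
  (isOpen_lt ((continuous_apply 0).abs.add continuous_wid) continuous_const).inter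
    (isOpen_lt (continuous_const.mul (continuous_const.sub (continuous_apply 0).abs))
      continuous_wid)

/-- the constant for the diamond -/
noncomputable def kd : ℝ := 6 * Kg 2 1

lemma model_dia {τ : ℝ} (h0 : 0 < τ) (h1 : τ ≤ 1/8) {u : E3 → ℝ≥0∞} (hu : Measurable u) :
    ∫⁻ z in Wd, u (fo τ z) ≤ ENNReal.ofReal (kd / τ) * ∫⁻ z in Dc, u z := by
  have hq := q21_le
  have hq0 := qn_pos 2 1
  have hP : GPar (qn 2 1) τ 1 := by
    refine ⟨hq0, by linarith, h0, ?_, le_rfl⟩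
    have : τ / (1 - qn 2 1) ≤ 1/2 := by
      rw [div_le_iff₀ (by linarith)]; linarith
    linarith
  have hK := Kg_nonneg (n := 2) (p := 1)
  have key := f0.tile_int (p := 1) one_pos two_pos (qn_sq 2 1) (N := 1) hP
    (w := Wd.indicator fun _ => 1) hu (by
      intro x _ c hc _
      refine (indicator_le_self' (fun _ _ => zero_le) x).trans ?_
      rw [← ENNReal.ofReal_one]
      exact ENNReal.ofReal_le_ofReal (Real.one_le_rpow hc zero_le_one))
  have e1 : ∫⁻ z in Wd, u (fo τ z) ≤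
      ∫⁻ x in f0.O, u (f0.T (cgf (qn 2 1) τ 1) x) * Wd.indicator (fun _ => 1) x := by
    have hsub : Wd ⊆ f0.O := fun z hz => by rw [f0_O]; exact hz.1
    refine le_trans (le_of_eq ?_) (lintegral_mono_set hsub)
    refine setLIntegral_congr_fun isOpen_Wd.measurableSet fun z hz => ?_
    have hw := wid_nonneg z
    have e2 := T_eq_fo (q := qn 2 1) (τ := τ) (N := 0) (z := z) (by linarith [hz.1]) hz.2.le hz.1.le
    rw [indicator_of_mem hz, mul_one]
    show u (fo τ z) = u (f0.T (cgf (qn 2 1) τ 1) z)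
    rw [← e2]
  have sub1 : f0.dn ⁻¹' Lay 2 (1 - τ / (1 - qn 2 1)) ⊆ Dc := fun z hz => by
    obtain ⟨a1, a2, a3⟩ := hz
    rw [← f0_Oc]
    show |(f0.dn z).1| + ‖(f0.dn z).2‖ ≤ 1
    linarith
  have sub2 : f0.dn ⁻¹' Tot 2 ⊆ Dc := fun z hz => by
    obtain ⟨a1, a3⟩ := hz
    rw [← f0_Oc]
    show |(f0.dn z).1| + ‖(f0.dn z).2‖ ≤ 1
    linarith
  refine (e1.trans key).trans ?_
  have b1 : (3:ℝ)^(1:ℝ) * Kg 2 1 / τ ≤ 3 * Kg 2 1 / τ := by rw [Real.rpow_one]
  have b2 : (3:ℝ)^(1:ℝ) * (Kg 2 1 * qn 2 1 ^ (2 * 1)) ≤ 3 * Kg 2 1 / τ := by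
    rw [Real.rpow_one, le_div_iff₀ h0]
    have : qn 2 1 ^ (2 * 1) ≤ 1 := pow_le_one₀ hq0.le (by linarith)
    have h5 : 0 ≤ qn 2 1 ^ (2 * 1) := by positivity
    have h6 : Kg 2 1 * qn 2 1 ^ (2 * 1) ≤ Kg 2 1 := by nlinarith
    nlinarith
  calc _ ≤ ENNReal.ofReal (3 * Kg 2 1 / τ) * (∫⁻ z in Dc, u z) +
        ENNReal.ofReal (3 * Kg 2 1 / τ) * ∫⁻ z in Dc, u z :=
        add_le_add (mul_le_mul' (ENNReal.ofReal_le_ofReal b1) (lintegral_mono_set sub1))
          (mul_le_mul' (ENNReal.ofReal_le_ofReal b2) (lintegral_mono_set sub2))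
    _ = ENNReal.ofReal (kd / τ) * ∫⁻ z in Dc, u z := by
        rw [← add_mul, ← ENNReal.ofReal_add (by positivity) (by positivity)]
        congr 2
        unfold kd; ring

/-! ### cells and faces -/

/-- the outer shell of a cell -/
def CW (C : Cell) : Set E3 := C.U ∩ C.e ⁻¹' {z | 1/2 < ‖z‖}

/-- the outer region of a face -/
def FW (F : Face) : Set E3 := F.V ∩ F.e ⁻¹' {z | (1/2) * (1 - |z 0|) < wid z}

lemma isOpen_CW (C : Cell) : IsOpen (CW C) :=
  (C.cht.lip.continuousOn.mono C.cht.sub).isOpen_inter_preimage C.cht.opU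
    (isOpen_lt continuous_const continuous_norm)

lemma isOpen_FW (F : Face) : IsOpen (FW F) :=
  (F.cht.lip.continuousOn.mono F.cht.sub).isOpen_inter_preimage F.cht.opU
    (isOpen_lt (continuous_const.mul (continuous_const.sub
      (continuous_apply 0).abs)) continuous_wid)

lemma MR_eq {M R : ℝ≥0} (hR : 0 < R) :
    (((M * R : ℝ≥0) : ℝ≥0∞) * ((M / R : ℝ≥0) : ℝ≥0∞)) = ((M * M : ℝ≥0) : ℝ≥0∞) := by
  rw [← ENNReal.coe_mul]
  congr 1
  field_simp

theorem lint_cell (C : Cell) {τ : ℝ} (h0 : 0 < τ) (h1 : τ ≤ 1/2) {g : E3 → ℝ≥0∞}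
    (hg : Measurable g) :
    ∫⁻ x in CW C, g (C.e' (outer τ 1 (C.e x))) ≤
      ((C.M * C.M : ℝ≥0) : ℝ≥0∞)^3 * ENNReal.ofReal (kap 3 / τ) * ∫⁻ x in C.P, g x := by
  rw [← MR_eq C.pos]
  refine lint_trans C.cht (W' := {z : E3 | 1/2 < ‖z‖ ∧ ‖z‖ < 1}) isOpen_shell.measurableSet
    (fun z hz => ?_) (fun z hz => ?_) (fun u hu => model_cube h0 h1 hu)
    (isOpen_CW C).measurableSet (fun x hx => C.cht.sub hx.1) (fun x hx => ?_) hg
  · rw [mem_closedBall_zero_iff]; exact hz.2.le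
  · rw [mem_closedBall_zero_iff, norm_outer_one h0 h1 hz.1.le hz.2.le]
    have := hz.2
    nlinarith
  · exact ⟨hx.2, by simpa using C.cht.eU hx.1⟩

theorem lint_face (F : Face) {τ : ℝ} (h0 : 0 < τ) (h1 : τ ≤ 1/8) {g : E3 → ℝ≥0∞}
    (hg : Measurable g) :
    ∫⁻ x in FW F, g (F.e' (fo τ (F.e x))) ≤
      ((F.M * F.M : ℝ≥0) : ℝ≥0∞)^3 * ENNReal.ofReal (kd / τ) * ∫⁻ x in F.K, g x := by
  rw [← MR_eq F.pos]
  refine lint_trans F.cht (W' := Wd) isOpen_Wd.measurableSet
    (fun z hz => ?_) (fun z hz => ?_) (fun u hu => model_dia h0 h1 hu)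
    (isOpen_FW F).measurableSet (fun x hx => F.cht.sub hx.1) (fun x hx => ?_) hg
  · exact hz.1.le
  · have hw := wid_nonneg z
    have k := fo_sub_le (z := z) h0 (by linarith) (by linarith [hz.1]) hz.2.le hz.1.le
    show |fo τ z 0| + wid (fo τ z) ≤ 1
    rw [fo_zero, k.2]
    have := hz.1
    nlinarith
  · exact ⟨F.cht.eU hx.1, hx.2⟩

variable {κ ι : Type*} [Fintype κ] [Fintype ι] {X : Sys κ ι} {p δ : ℝ}

/-- **change of variables for `chi` where only the outermost shells act** -/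
theorem lint_chi (h : X.Adm p δ) (N₁ N₂ : ℕ) (k : κ) {Kf : ℝ≥0∞}
    (hτF : ∀ j, X.ηF δ j * (1 - qF p) ≤ 1/8) {S : Set E3} (mS : MeasurableSet S)
    (hS : S ⊆ CW (X.C k))
    (hSF : ∀ x ∈ S, ∀ j, Sys.Y h (N₂+1) x ∈ (X.F j).V → Sys.Y h (N₂+1) x ∈ FW (X.F j) ∧
      (((X.F j).M * (X.F j).M : ℝ≥0) : ℝ≥0∞)^3 *
        ENNReal.ofReal (kd / (X.ηF δ j * (1 - qF p))) ≤ Kf)
    {A : Set E3} (mA : MeasurableSet A) (hA : ∀ x ∈ S, Sys.chi h (N₁+1) (N₂+1) x ∈ A)
    {g : E3 → ℝ≥0∞} (hg : Measurable g) :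
    ∫⁻ x in S, g (Sys.chi h (N₁+1) (N₂+1) x) ≤
      (((X.C k).M * (X.C k).M : ℝ≥0) : ℝ≥0∞)^3 *
        ENNReal.ofReal (kap 3 / (X.ηC δ k * (1 - qn 3 p))) * ((1 + Kf) * ∫⁻ x in A, g x) := by
  classical
  set Y := Sys.Y h (N₂+1) with hY
  set H := Sys.H h (N₁+1) with hH
  -- good faces
  set J : ι → Prop := fun j => (((X.F j).M * (X.F j).M : ℝ≥0) : ℝ≥0∞)^3 *
        ENNReal.ofReal (kd / (X.ηF δ j * (1 - qF p))) ≤ Kf with hJ
  set B : Set E3 := (⋂ j, ((X.F j).V)ᶜ) ∪ ⋃ j, ⋃ (_ : J j), FW (X.F j) with hB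
  have mB : MeasurableSet B := by
    refine (MeasurableSet.iInter fun j => (X.F j).cht.opU.measurableSet.compl).union ?_
    exact MeasurableSet.iUnion fun j => MeasurableSet.iUnion fun _ =>
      (isOpen_FW _).measurableSet
  set gA : E3 → ℝ≥0∞ := A.indicator g with hgA
  have mgA : Measurable gA := hg.indicator mA
  set g1 : E3 → ℝ≥0∞ := B.indicator fun y => gA (H y) with hg1
  have mg1 : Measurable g1 := (mgA.comp H.continuous.measurable).indicator mB
  have hSB : ∀ x ∈ S, Y x ∈ B := by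
    intro x hx
    by_cases hV : ∃ j, Y x ∈ (X.F j).V
    · obtain ⟨j, hj⟩ := hV
      obtain ⟨k1, k2⟩ := hSF x hx j hj
      exact Or.inr (mem_iUnion.2 ⟨j, mem_iUnion.2 ⟨k2, k1⟩⟩)
    · push Not at hV
      exact Or.inl (mem_iInter.2 hV)
  -- the cell step
  have s1 : ∫⁻ x in S, g (Sys.chi h (N₁+1) (N₂+1) x) ≤
      (((X.C k).M * (X.C k).M : ℝ≥0) : ℝ≥0∞)^3 *
        ENNReal.ofReal (kap 3 / (X.ηC δ k * (1 - qn 3 p))) * ∫⁻ x in (X.C k).P, g1 x := by
    have e1 : ∫⁻ x in S, g (Sys.chi h (N₁+1) (N₂+1) x) ≤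
        ∫⁻ x in CW (X.C k), g1 ((X.C k).e' (outer (X.ηC δ k * (1 - qn 3 p)) 1 ((X.C k).e x))) := by
      refine le_trans (le_of_eq ?_) (lintegral_mono_set hS)
      refine setLIntegral_congr_fun mS fun x hx => ?_
      have hxC := hS hx
      have e2 : Y x = (X.C k).e' (outer (X.ηC δ k * (1 - qn 3 p)) 1 ((X.C k).e x)) := by
        have hz2 : 1/2 < ‖(X.C k).e x‖ := hxC.2
        rw [hY, Sys.Y_in h (N₂+1) hxC.1, cgf_in (mem_closedBall_zero_iff.1
          ((X.C k).cht.maps ((X.C k).cht.sub hxC.1))), gf_outer hz2.le]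
      have hAx : H (Y x) ∈ A := hA x hx
      show g (H (Y x)) = _
      rw [← e2, hg1, indicator_of_mem (hSB x hx), hgA, indicator_of_mem hAx]
    refine e1.trans (lint_cell (X.C k) (Sys.gC h k).t0 ?_ mg1)
    have := (Sys.gC h k).half_le; linarith
  refine s1.trans (mul_le_mul' le_rfl ?_)
  -- the faces
  have s2 : ∫⁻ x in (X.C k).P, g1 x ≤ ∫⁻ x, g1 x := setLIntegral_le_lintegral _ _
  refine s2.trans ?_
  have s3 : ∀ x, g1 x ≤ A.indicator g x +
      ∑ j, (if J j then (FW (X.F j)).indicator (fun y => gA (H y)) x else 0) := by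
    intro x
    by_cases hxB : x ∈ B
    · rw [hg1, indicator_of_mem hxB]
      rcases hxB with hx | hx
      · have hHx : H x = x := Sys.H_out h (N₁+1) fun j => mem_iInter.1 hx j
        rw [hHx]
        exact le_self_add
      · obtain ⟨j, hj⟩ := mem_iUnion.1 hx
        obtain ⟨hJj, hj⟩ := mem_iUnion.1 hj
        refine le_trans ?_ le_add_self
        refine le_trans (le_of_eq ?_) (Finset.single_le_sum
          (f := fun j => if J j then (FW (X.F j)).indicator (fun y => gA (H y)) x else 0)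
          (fun _ _ => zero_le) (Finset.mem_univ j))
        show gA (H x) = if J j then _ else _
        rw [if_pos hJj, indicator_of_mem hj]
    · rw [hg1, indicator_of_notMem hxB]; exact zero_le
  have s4 : ∀ j, J j → ∫⁻ x, (FW (X.F j)).indicator (fun y => gA (H y)) x ≤
      Kf * ∫⁻ x in (X.F j).V ∩ A, g x := by
    intro j hj
    rw [lintegral_indicator (isOpen_FW _).measurableSet]
    have e1 : ∫⁻ x in FW (X.F j), gA (H x) =
        ∫⁻ x in FW (X.F j), gA ((X.F j).e' (fo (X.ηF δ j * (1 - qF p)) ((X.F j).e x))) := by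
      refine setLIntegral_congr_fun (isOpen_FW _).measurableSet fun x hx => ?_
      have hz3 : |(X.F j).e x 0| + wid ((X.F j).e x) < 1 := (X.F j).cht.eU hx.1
      have hz4 := wid_nonneg ((X.F j).e x)
      have hz2 : (1/2) * (1 - |(X.F j).e x 0|) < wid ((X.F j).e x) := hx.2
      show gA (H x) = _
      rw [hH, Sys.H_in h (N₁+1) hx.1, T_eq_fo (by linarith) hz2.le hz3.le]
    rw [e1]
    refine (lint_face (X.F j) (Sys.gF h j).t0 (hτF j) mgA).trans (mul_le_mul' hj ?_)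
    have e2 : (X.F j).K ⊆ (X.F j).V ∪ ((X.F j).K \ (X.F j).V) := by
      intro x hx
      by_cases h1 : x ∈ (X.F j).V
      · exact Or.inl h1
      · exact Or.inr ⟨hx, h1⟩
    refine (lintegral_mono_set e2).trans ((lintegral_union_le _ _ _).trans ?_)
    rw [setLIntegral_measure_zero _ _ (X.F j).null, add_zero, hgA, setLIntegral_indicator mA,
      inter_comm]
  calc ∫⁻ x, g1 x ≤ ∫⁻ x, (A.indicator g x +
        ∑ j, (if J j then (FW (X.F j)).indicator (fun y => gA (H y)) x else 0)) :=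
        lintegral_mono s3
    _ = (∫⁻ x, A.indicator g x) +
        ∑ j, ∫⁻ x, (if J j then (FW (X.F j)).indicator (fun y => gA (H y)) x else 0) := by
        rw [lintegral_add_left (hg.indicator mA)]
        congr 1
        rw [lintegral_finsetSum]
        intro j _
        by_cases hj : J j
        · simp only [if_pos hj]
          exact (mgA.comp H.continuous.measurable).indicator (isOpen_FW _).measurableSet
        · simp only [if_neg hj]; exact measurable_const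
    _ ≤ (∫⁻ x in A, g x) + ∑ j, Kf * ∫⁻ x in (X.F j).V ∩ A, g x := by
        rw [lintegral_indicator mA]
        refine add_le_add le_rfl (Finset.sum_le_sum fun j _ => ?_)
        by_cases hj : J j
        · simp only [if_pos hj]; exact s4 j hj
        · simp only [if_neg hj, lintegral_zero]; exact zero_le
    _ ≤ (∫⁻ x in A, g x) + Kf * ∫⁻ x in A, g x := by
        refine add_le_add le_rfl ?_
        rw [← Finset.mul_sum]
        refine mul_le_mul' le_rfl ?_
        have hd : Pairwise (Function.onFun Disjoint fun j => (X.F j).V ∩ A) := by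
          intro i j hij
          exact (X.disF i j hij).mono inter_subset_left inter_subset_left
        have e3 := lintegral_iUnion (μ := volume)
          (fun j => ((X.F j).cht.opU.measurableSet.inter mA)) hd g
        rw [tsum_fintype] at e3
        rw [← e3]
        exact lintegral_mono_set (iUnion_subset fun j => inter_subset_right)
    _ = (1 + Kf) * ∫⁻ x in A, g x := by rw [add_mul, one_mul]

end Crest.Agent.R096.Sqt_143
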