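import Crest.Agent.R096.Sqt7_143
import Crest.Agent.R096.Sbc3_447
import Crest.Agent.R96.Lu7_538

/-!
Row 96 (S0127), helper143.  SQ-TUBE, part 8: **the derivative of `f ∘ Ψ` in the direction `e` at a point
where `Ψ` keeps the direction `e`** is the derivative of `f` at `Ψ x` (equality almost everywhere).
-/

set_option autoImplicit false

open Set Metric Filter Topology MeasureTheory

namespace Crest.Agent.R096.Sqt_143

open Crest.Agent.R096.Ce_537 Crest.Agent.R096.Bd_416 Crest.Agent.R96.Hole_348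
open Crest.Agent.R096.Sq_55
open Crest.Agent.R96.Acl_392 Crest.Agent.R96.Sob1_199 Crest.Agent.R96.Sob2_199
  Crest.Agent.R96.Sob3_199 Crest.Agent.R96.Sob6_199 Crest.Agent.R96.Sob7_199
  Crest.Agent.R96.Sob8_199
open Crest.AnalysisR.VecCalc3 Crest.AnalysisR.Sobolev
open Crest.Agent.R096.Sk_962
open scoped NNReal ENNReal

/-- the difference quotient is the weak derivative -/
theorem dq_grad {Om : Set R3} (hOm : IsOpen Om) {v : R3 → ℝ} {G : R3 → R3}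
    (h : HasWeakGradOn Om v G) (hv : ContinuousOn v Om) (e : R3) :
    ∀ᵐ x, x ∈ Om → inner ℝ (G x) e = dq Om v e x := by
  have h1 := wd_of_grad hOm h e
  have h2 := acl hOm h1 hv
  have h4 : LocallyIntegrableOn (fun x => |inner ℝ (G x) e|) Om := by
    intro x hx
    obtain ⟨t, ht1, ht2⟩ := h1.lg x hx
    exact ⟨t, ht1, ht2.abs⟩
  have h3 := wd_of_ug hOm hv h4 (by
    filter_upwards [h2] with x hx
    exact ug_of_acl hx)
  exact wd_unique hOm h1 h3.1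

lemma dq_tv {Om : Set R3} {v : R3 → ℝ} {Ψ : R3 → R3} (hΨ : ∀ x, Ψ x ∈ Om ↔ x ∈ Om) {x e : R3}
    (hx : Tv Ψ x e e) : dq Om (fun x => v (Ψ x)) e x = dq Om v e (Ψ x) := by
  have hi : ∀ y, Om.indicator (fun x => v (Ψ x)) y = Om.indicator v (Ψ y) := by
    intro y
    by_cases hy : y ∈ Om
    · rw [indicator_of_mem hy, indicator_of_mem ((hΨ y).2 hy)]
    · rw [indicator_of_notMem hy, indicator_of_notMem (fun h => hy ((hΨ y).1 h))]
  unfold dq
  apply limsup_congr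
  have h1 : Tendsto (fun n : ℕ => ((n:ℝ) + 1)⁻¹) atTop (𝓝 0) := by
    have := tendsto_one_div_add_atTop_nhds_zero_nat (𝕜 := ℝ)
    simpa only [one_div] using this
  filter_upwards [h1.eventually hx] with n hn
  rw [hi, hi, hn]

/-- `Ψ` pulls back null sets -/
lemma null_sel (Ψ : R3 ≃ₜ R3) (h1 : PLOn Ψ univ) {P : R3 → Prop} (hP : ∀ᵐ y, P y) :
    ∀ᵐ x, P (Ψ x) := by
  obtain ⟨-, S, hS'⟩ := h1
  obtain ⟨K, hK, hle⟩ := Crest.Agent.R096.Sbc_447.map_le (volume : Measure R3) Ψ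
    (S := S) (fun x => hS' x (mem_univ x))
  have h2 : ∀ᵐ y ∂(Measure.map Ψ volume), P y :=
    (Measure.absolutelyContinuous_of_le_smul hle).ae_le hP
  exact (Ψ.measurableEmbedding.ae_map_iff).1 h2

/-- **the direction derivative of a composition** -/
theorem dir_eq {Om : Set R3} (hOm : IsOpen Om) {v : R3 → ℝ} {G G' : R3 → R3}
    (h : HasWeakGradOn Om v G) (hv : ContinuousOn v Om) (Ψ : R3 ≃ₜ R3) (h1 : PLOn Ψ univ)
    (hΨ : ∀ x, Ψ x ∈ Om ↔ x ∈ Om) (h' : HasWeakGradOn Om (fun x => v (Ψ x)) G') (e : R3) :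
    ∀ᵐ x, x ∈ Om → Tv Ψ x e e → inner ℝ (G' x) e = inner ℝ (G (Ψ x)) e := by
  have a1 := null_sel Ψ h1 (dq_grad hOm h hv e)
  have a2 := dq_grad hOm h' (hv.comp Ψ.continuous.continuousOn fun x hx => (hΨ x).2 hx) e
  filter_upwards [a1, a2] with x b1 b2 hx ht
  rw [b2 hx, b1 ((hΨ x).2 hx), dq_tv hΨ ht]

/-- the same for maps -/
theorem Gmat_eq {Om La : Set R3} (hOm : IsOpen Om) {p : ℝ} {f : R3 → R3} {G G' : Fin 3 → R3 → R3}
    (h : SH p Om La f G) (Ψ : R3 ≃ₜ R3) (h1 : PLOn Ψ univ) (hΨ : ∀ x, Ψ x ∈ Om ↔ x ∈ Om)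
    (h' : ∀ j : Fin 3, HasWeakGradOn Om (fun x => f (Ψ x) j) (G' j)) (e : R3) :
    ∀ᵐ x, x ∈ Om → Tv Ψ x e e →
      Crest.Agent.R96.Lu_538.Gmat G' x e = Crest.Agent.R96.Lu_538.Gmat G (Ψ x) e := by
  obtain ⟨finv, hf1, hf2, hf3, hf4, hf5, hf6⟩ := h.homeo
  have hfj : ∀ j : Fin 3, ContinuousOn (fun x => f x j) Om := fun j =>
    (EuclideanSpace.proj j : R3 →L[ℝ] ℝ).continuous.comp_continuousOn hf5
  have key : ∀ᵐ x, ∀ j : Fin 3, x ∈ Om → Tv Ψ x e e →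
      inner ℝ (G' j x) e = inner ℝ (G j (Ψ x)) e := by
    rw [ae_all_iff]
    intro j
    exact dir_eq hOm (h.wg j) (hfj j) Ψ h1 hΨ (h' j) e
  filter_upwards [key] with x hx hxO ht
  ext j
  rw [Crest.Agent.R96.Lu_538.Gmat_apply, Crest.Agent.R96.Lu_538.Gmat_apply]
  exact hx j hxO ht

lemma tv_toR {χ : E3 ≃ₜ E3} {x v w : E3} (h : Tv χ x v w) : Tv (toR χ) (w2 x) (w2 v) (w2 w) := by
  filter_upwards [h] with σ hσ
  show w2 (χ (x + σ • v)) = w2 (χ x) + σ • w2 w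
  rw [hσ]
  rfl

/-- **the same in the coordinates of `E3`** -/
theorem Gmat_chi {Om La : Set R3} (hOm : IsOpen Om) {p : ℝ} {f : R3 → R3}
    {G G' : Fin 3 → R3 → R3} (h : SH p Om La f G) (χ : E3 ≃ₜ E3) (h1 : PLOn χ univ)
    (hΨ : ∀ z, w2 (χ z) ∈ Om ↔ w2 z ∈ Om)
    (h' : ∀ j : Fin 3, HasWeakGradOn Om (fun x => f (toR χ x) j) (G' j)) (v : E3) :
    ∀ᵐ z : E3, w2 z ∈ Om → Tv χ z v v →
      Crest.Agent.R96.Lu_538.Gmat G' (w2 z) (w2 v) =
        Crest.Agent.R96.Lu_538.Gmat G (w2 (χ z)) (w2 v) := by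
  have hΨ' : ∀ x, toR χ x ∈ Om ↔ x ∈ Om := fun x => by
    have := hΨ (w2.symm x)
    rw [w2.apply_symm_apply] at this
    exact this
  have key := ae_w2.1 (Gmat_eq hOm h (toR χ) (plOn_toR h1) hΨ' h' (w2 v))
  filter_upwards [key] with z hz hzO ht
  have := hz hzO (tv_toR ht)
  rwa [toR_apply, w2.symm_apply_apply] at this

end Crest.Agent.R096.Sqt_143
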