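import Crest.Agent.R096.Gsm4_432
import Crest.Agent.R096.Shp1_432

/-!
# Row 96 (helper432), [SH] of helper622, part 1: there are finitely many affine maps between the
polytopes of a finite list; the closed cells of the star of a good tile with good neighbours are in
a finite list
-/

set_option autoImplicit false
set_option linter.unusedSectionVars false

open Set Metric Topology Filter

namespace Crest.Agent.R096.Ssh_432

open Crest.Agent.R096.Msh_715 Crest.Agent.R096.Mal_874 Crest.Agent.R096.Cut_874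
open Crest.Agent.R096.Gsm_432 Crest.Agent.R096.Shp_432

universe u v

section ext

variable {E : Type*} [NormedAddCommGroup E] [NormedSpace ℝ E]

/-- a polyhedron has finitely many extreme points -/
theorem finite_ext (H : Finset ((E →L[ℝ] ℝ) × ℝ)) : ((P H).extremePoints ℝ).Finite := by
  classical
  refine Set.Finite.of_injOn (f := fun x => H.filter fun h => h.1 x = h.2)
    (t := ((H.powerset : Finset _) : Set (Finset ((E →L[ℝ] ℝ) × ℝ)))) ?_ ?_
    (Finset.finite_toSet _)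
  · intro x _
    simp only [Finset.coe_powerset, mem_preimage, mem_powerset_iff, Finset.coe_filter]
    exact fun h hh => hh.1
  · intro x hx y hy hxy
    have hact : ∀ h ∈ H, h.1 x = h.2 → h.1 (y - x) = 0 := by
      intro h hh hx1
      have h1 : h ∈ H.filter fun h => h.1 x = h.2 := Finset.mem_filter.2 ⟨hh, hx1⟩
      have h2 : h ∈ H.filter fun h => h.1 y = h.2 := by
        have h3 : (H.filter fun h => h.1 x = h.2) = H.filter fun h => h.1 y = h.2 := hxy
        rw [← h3]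
        exact h1
      rw [map_sub, (Finset.mem_filter.1 h2).2, hx1, sub_self]
    have h1 := mem_P_small (v := y - x) hx.1 fun h hh e => (hact h hh e).le
    have h2 := mem_P_small (v := -(y - x)) hx.1 fun h hh e => by
      rw [map_neg, hact h hh e, neg_zero]
    obtain ⟨s, hs1, hs2, hs0⟩ := (h1.and (h2.and self_mem_nhdsWithin)).exists
    have hs0' : (0 : ℝ) < s := hs0
    have h3 : x ∈ openSegment ℝ (x + s • (y - x)) (x + s • -(y - x)) := by
      refine ⟨1 / 2, 1 / 2, by norm_num, by norm_num, by norm_num, ?_⟩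
      rw [smul_add, smul_add, smul_neg, smul_neg]
      rw [show (1 / 2 : ℝ) • x + (1 / 2 : ℝ) • s • (y - x) +
        ((1 / 2 : ℝ) • x + -((1 / 2 : ℝ) • s • (y - x))) = (1 / 2 : ℝ) • x + (1 / 2 : ℝ) • x by abel,
        ← add_smul]
      norm_num
    have h4 := (mem_extremePoints.1 hx).2 _ hs1 _ hs2 h3
    have h5 : s • (y - x) = 0 := by
      have := h4.1
      rwa [add_eq_left] at this
    rcases smul_eq_zero.1 h5 with h6 | h6
    · exact absurd h6 hs0'.ne'
    · exact (sub_eq_zero.1 h6).symm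

variable {F : Type*} [NormedAddCommGroup F] [NormedSpace ℝ F]

theorem ext_image (A : E ≃ᵃ[ℝ] F) (S : Set E) :
    (A '' S).extremePoints ℝ ⊆ A '' (S.extremePoints ℝ) := by
  intro y hy
  obtain ⟨x, hx, rfl⟩ := hy.1
  refine ⟨x, mem_extremePoints.2 ⟨hx, fun x₁ h1 x₂ h2 h => ?_⟩, rfl⟩
  have h3 : A x ∈ openSegment ℝ (A x₁) (A x₂) := by
    have h4 := image_openSegment ℝ (A : E →ᵃ[ℝ] F) x₁ x₂
    have h5 : (A : E →ᵃ[ℝ] F) x ∈ (A : E →ᵃ[ℝ] F) '' openSegment ℝ x₁ x₂ :=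
      mem_image_of_mem _ h
    rw [h4] at h5
    exact h5
  have h4 := (mem_extremePoints.1 hy).2 _ (mem_image_of_mem _ h1) _ (mem_image_of_mem _ h2) h3
  exact ⟨A.injective h4.1, A.injective h4.2⟩

/-- **finitely many affine maps between two polytopes** -/
theorem finite_aff [FiniteDimensional ℝ F] {S : Set F} (hc : IsCompact S) (hcv : Convex ℝ S)
    (hi : (interior S).Nonempty) (he : (S.extremePoints ℝ).Finite) (S' : Set F) :
    {A : F ≃ᵃ[ℝ] F | A '' S = S'}.Finite := by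
  classical
  by_cases h0 : ∃ A₀ : F ≃ᵃ[ℝ] F, A₀ '' S = S'
  swap
  · refine Set.finite_empty.subset fun A hA => h0 ⟨A, hA⟩
  obtain ⟨A₀, h0⟩ := h0
  have hK := closure_convexHull_extremePoints hc hcv
  have hext : ∀ A : F ≃ᵃ[ℝ] F, A '' S = S' → ∀ x ∈ S.extremePoints ℝ,
      A x ∈ A₀ '' (S.extremePoints ℝ) := by
    intro A hA x hx
    refine ext_image A₀ S ?_
    rw [h0, ← hA]
    have h1 : A.symm '' (A '' S) = S := by
      rw [image_image]
      simp
    have h2 : x ∈ (A.symm '' (A '' S)).extremePoints ℝ := by rwa [h1]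
    obtain ⟨w, hw, hw2⟩ := ext_image A.symm (A '' S) h2
    rw [← hw2, AffineEquiv.apply_symm_apply]
    exact hw
  have := he.to_subtype
  refine Set.Finite.of_injOn (f := fun (A : F ≃ᵃ[ℝ] F) (x : S.extremePoints ℝ) => A (x : F))
    (t := Set.pi univ fun _ => A₀ '' (S.extremePoints ℝ)) ?_ ?_
    (Set.Finite.pi fun _ => he.image _)
  · intro A hA x _
    exact hext A hA x x.2
  · intro A hA A' hA' hAA
    have h1 : ∀ x ∈ S.extremePoints ℝ, A x = A' x := fun x hx => congrFun hAA ⟨x, hx⟩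
    have hcl : IsClosed {x | A x = A' x} :=
      isClosed_eq (A.toAffineMap.continuous_of_finiteDimensional)
        (A'.toAffineMap.continuous_of_finiteDimensional)
    have hcvx : Convex ℝ {x | A x = A' x} := by
      intro x hx y hy a b _ _ hab
      have e : ∀ B : F ≃ᵃ[ℝ] F, B (a • x + b • y) = a • B x + b • B y := fun B =>
        Convex.combo_affine_apply (f := (B : F →ᵃ[ℝ] F)) hab
      show A _ = A' _
      rw [e, e, show A x = A' x from hx, show A y = A' y from hy]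
    have h2 : S ⊆ {x | A x = A' x} := by
      rw [← hK]
      exact closure_minimal (convexHull_min (fun x hx => h1 x hx) hcvx) hcl
    refine AffineEquiv.ext_on (s := interior S) (isOpen_interior.affineSpan_eq_top hi) _ _
      fun x hx => h2 (interior_subset hx)

end ext

/-! ### the star of a good tile -/

section star

variable {n : ℕ}

/-- compact convex sets with nonempty interior and finitely many extreme points -/
structure Pol (S : Set (Fin n → ℝ)) : Prop where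
  cpt : IsCompact S
  cvx : Convex ℝ S
  int : (interior S).Nonempty
  ext : (S.extremePoints ℝ).Finite

theorem pol_tile {E : Type*} [NormedAddCommGroup E] [NormedSpace ℝ E] [FiniteDimensional ℝ E]
    {Om : Set E} {ι : Type*} (T : Tiling Om ι) (l : ι) (B : E ≃ᵃ[ℝ] (Fin n → ℝ)) :
    Pol (B '' P (T.H l)) where
  cpt := (T.cpt l).image (continuous_aff B)
  cvx := (convex_P _).affine_image (B : E →ᵃ[ℝ] (Fin n → ℝ))
  int := by
    obtain ⟨x, hx⟩ := T.ne l
    rw [← image_interior_aff]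
    exact ⟨B x, mem_image_of_mem _ (interior_maximal (I_sub_P _) (isOpen_I _) hx)⟩
  ext := ((finite_ext _).image B).subset (ext_image B _)

/-- affine maps between the shapes of two lists -/
def affs (𝒜 ℬ : Set (Set (Fin n → ℝ))) : Set ((Fin n → ℝ) ≃ᵃ[ℝ] (Fin n → ℝ)) :=
  ⋃ S ∈ {S ∈ 𝒜 | Pol S}, ⋃ S' ∈ ℬ, {A | A '' S = S'}

theorem affs_finite {𝒜 ℬ : Set (Set (Fin n → ℝ))} (h𝒜 : 𝒜.Finite) (hℬ : ℬ.Finite) :
    (affs 𝒜 ℬ).Finite := by
  refine (h𝒜.subset (sep_subset _ _)).biUnion fun S hS => hℬ.biUnion fun S' _ => ?_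
  exact finite_aff hS.2.cpt hS.2.cvx hS.2.int hS.2.ext S'

/-- the images of the shapes of `𝒜` under these maps -/
def starL (𝒜 ℬ : Set (Set (Fin n → ℝ))) : Set (Set (Fin n → ℝ)) :=
  (fun p : ((Fin n → ℝ) ≃ᵃ[ℝ] (Fin n → ℝ)) × Set (Fin n → ℝ) => p.1 '' p.2) '' (affs 𝒜 ℬ ×ˢ 𝒜)

theorem starL_finite {𝒜 ℬ : Set (Set (Fin n → ℝ))} (h𝒜 : 𝒜.Finite) (hℬ : ℬ.Finite) :
    (starL 𝒜 ℬ).Finite := ((affs_finite h𝒜 hℬ).prod h𝒜).image _

/-- **the closed cells of the star of a good tile** with good neighbours in comparable frames are in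
a finite list (in the frame of the tile) -/
theorem star_list {Ls : Set (Finset (Fin n → ℝ) × ℕ)} (hLs : Ls.Finite) (hpos : ∀ p ∈ Ls, 0 < p.2)
    (hrat : ∀ p ∈ Ls, ∀ ν ∈ p.1, ∀ m, ∃ c : ℤ, ν m = c / p.2) (R L : ℝ) :
    ∃ 𝓕 : Set (Set (Fin n → ℝ)), 𝓕.Finite ∧
      ∀ {E : Type u} [NormedAddCommGroup E] [NormedSpace ℝ E] [FiniteDimensional ℝ E] {Om : Set E}
        {ι : Type v} (T : Tiling Om ι) (t : ι) (χ : E ≃ᵃ[ℝ] (Fin n → ℝ)) (k : ℕ),
        (∃ p ∈ Ls, Good T t χ k p.1 p.2 R) →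
        (∀ l, (P (T.H l) ∩ P (T.H t)).Nonempty → ∃ (χ' : E ≃ᵃ[ℝ] (Fin n → ℝ)) (k' : ℕ),
          (∃ p ∈ Ls, Good T l χ' k' p.1 p.2 R) ∧ ∀ v, ‖χ.linear v‖ ≤ L * ‖χ'.linear v‖) →
        ∃ z : Fin n → ℤ, ∀ l, (P (T.H l) ∩ P (T.H t)).Nonempty → ∀ y ∈ P (T.H l),
          (χ.trans (tz z)) '' T.cc y ∈ 𝓕 := by
  set r : ℝ := |L| * |R| + |R| + 1 with hr
  have hr0 : 0 ≤ r := by positivity
  set ℬ : Set (Set (Fin n → ℝ)) := ⋃ p ∈ Ls, lst p.1 p.2 r with hℬ
  have hℬf : ℬ.Finite := hLs.biUnion fun p _ => lst_finite p.1 p.2 r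
  refine ⟨starL (shL Ls R) ℬ, starL_finite (shL_finite hLs R) hℬf, ?_⟩
  intro E _ _ _ Om ι T t χ k ⟨p, hp, hg⟩ hnb
  obtain ⟨x0, hx0⟩ := T.ne t
  have hx0' := I_sub_P _ hx0
  refine ⟨fun m => ⌊χ x0 m⌋, fun l hl y hy => ?_⟩
  obtain ⟨χ', k', ⟨p', hp', hg'⟩, hL⟩ := hnb l hl
  obtain ⟨y1, hy1, hy1'⟩ := hl
  set B := χ.trans (tz fun m => ⌊χ x0 m⌋) with hB
  have hbd : B '' P (T.H l) ⊆ closedBall (0 : Fin n → ℝ) r := by
    rintro _ ⟨w, hw, rfl⟩
    rw [mem_closedBall_zero_iff, pi_norm_le_iff_of_nonneg hr0]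
    intro m
    rw [hB, AffineEquiv.trans_apply, tz_apply, Real.norm_eq_abs]
    have h1 : |χ w m - χ y1 m| ≤ |L| * |R| := by
      have h2 : ‖χ w - χ y1‖ ≤ L * ‖χ' w - χ' y1‖ := by
        rw [lin_sub, lin_sub]
        exact hL _
      have h3 : ‖χ' w - χ' y1‖ ≤ |R| := by
        rw [pi_norm_le_iff_of_nonneg (abs_nonneg _)]
        intro m'
        rw [Pi.sub_apply, Real.norm_eq_abs]
        exact (hg'.sz y1 hy1 w hw m').trans (le_abs_self R)
      have h4 : |χ w m - χ y1 m| ≤ ‖χ w - χ y1‖ := by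
        have := norm_le_pi_norm (χ w - χ y1) m
        rwa [Pi.sub_apply, Real.norm_eq_abs] at this
      calc |χ w m - χ y1 m| ≤ L * ‖χ' w - χ' y1‖ := h4.trans h2
        _ ≤ |L| * ‖χ' w - χ' y1‖ := mul_le_mul_of_nonneg_right (le_abs_self L) (norm_nonneg _)
        _ ≤ |L| * |R| := mul_le_mul_of_nonneg_left h3 (abs_nonneg _)
    have h2 : |χ y1 m - χ x0 m| ≤ |R| := (hg.sz x0 hx0' y1 hy1' m).trans (le_abs_self R)
    have h3 := Int.floor_le (χ x0 m)
    have h4 := Int.lt_floor_add_one (χ x0 m)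
    have h5 := abs_le.1 h1
    have h6 := abs_le.1 h2
    rw [abs_le]
    constructor <;> simp only [hr] <;> linarith [h5.1, h5.2, h6.1, h6.2]
  have hS' : B '' P (T.H l) ∈ ℬ := by
    have h1 := mem_lst (H := T.H l) (χ := χ) (s := 2 ^ k) (by positivity)
      (z := fun m => ⌊χ x0 m⌋) (hpos p hp) (hrat p hp) hr0 (hg.gf l ⟨y1, hy1, hy1'⟩)
      ⟨y1, hy1, hbd (mem_image_of_mem _ hy1)⟩
    rw [inter_eq_left.2 hbd] at h1
    exact mem_iUnion₂.2 ⟨p, hp, h1⟩
  obtain ⟨z', hz'⟩ := good_cell hp' (hpos p' hp') (hrat p' hp') hg'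
  set B' := χ'.trans (trz z') with hB'
  have hS : B' '' P (T.H l) ∈ shL Ls R := by
    obtain ⟨x1, hx1⟩ := T.ne l
    rw [← T.cc_eq_tile hx1]
    exact hz' x1 (I_sub_P _ hx1)
  have hA : ∀ X : Set E, (B'.symm.trans B) '' (B' '' X) = B '' X := by
    intro X
    rw [image_image]
    refine image_congr fun x _ => ?_
    rw [AffineEquiv.trans_apply, AffineEquiv.symm_apply_apply]
  refine ⟨(B'.symm.trans B, B' '' T.cc y), ⟨?_, hz' y hy⟩, hA _⟩
  exact mem_iUnion₂.2 ⟨B' '' P (T.H l), ⟨hS, pol_tile T l B'⟩,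
    mem_iUnion₂.2 ⟨B '' P (T.H l), hS', hA _⟩⟩

end star

end Crest.Agent.R096.Ssh_432
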