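import Crest.Agent.R096.Ssh1_432
import Crest.Agent.R096.Ca21_855
import Crest.Agent.R096.Onp2_622
import Crest.Agent.R096.Gsc4_476
import Crest.Agent.R096.Sq30_55
import Crest.Agent.R096.Shp6_432

/-!
# Row 96 (helper432), [SH] of helper622, part 2: `exists_shp_T`, the shape numbers of the tiles of
`h.T a` on three levels
-/

set_option autoImplicit false
set_option linter.unusedSectionVars false

open Set Metric Topology Filter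
open scoped NNReal

namespace Crest.Agent.R096.Ssh_432

open Crest.AnalysisR.VecCalc3
open Crest.Agent.R096.Msh_715 Crest.Agent.R096.Mal_874 Crest.Agent.R096.Cut_874
open Crest.Agent.R096.Gsm_432 Crest.Agent.R096.Shp_432
open Crest.Agent.R096.Sq_55 (E3 Shp2 Frm StarT w2 shp2_of_list)
open Crest.Agent.R096.Efi_296 (Te)
open Crest.Agent.R096.Cob_622 (Te_P)
open Crest.Agent.R96.En10_199 (P3)
open Crest.Agent.R096.Ca_855 (norm_P3_symm_le)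
open Crest.Agent.R096.Osc_400 (norm_P3_le)

/-- frame data of a tile -/
def FG {Om : Set R3} {ι : Type} (T : Tiling Om ι) (t : ι) (κ : ℕ) (ψ : R3 ≃L[ℝ] (Fin 3 → ℝ))
    (a' : Fin 3 → ℝ) (Ls : Set (Finset (Fin 3 → ℝ) × ℕ)) (R L1 L2 : ℝ) : Prop :=
  (∃ p ∈ Ls, Good T t (chi ψ a' κ) κ p.1 p.2 R) ∧ (∀ v, ‖ψ v‖ ≤ L1 * ‖v‖) ∧
    ∀ v, ‖v‖ ≤ L2 * ‖ψ v‖

/-- the frame of a tile in `E3` -/
noncomputable def frB (ψ : R3 ≃L[ℝ] (Fin 3 → ℝ)) (a' : Fin 3 → ℝ) (κ : ℕ) (z : Fin 3 → ℤ) :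
    E3 ≃ᵃ[ℝ] E3 :=
  P3.toLinearEquiv.toAffineEquiv.trans ((chi ψ a' κ).trans (tz z))

theorem frB_apply (ψ : R3 ≃L[ℝ] (Fin 3 → ℝ)) (a' : Fin 3 → ℝ) (κ : ℕ) (z : Fin 3 → ℤ) (x : E3) :
    frB ψ a' κ z x = (chi ψ a' κ).trans (tz z) (P3 x) := rfl

theorem frB_lin (ψ : R3 ≃L[ℝ] (Fin 3 → ℝ)) (a' : Fin 3 → ℝ) (κ : ℕ) (z : Fin 3 → ℤ) (v : E3) :
    ‖(frB ψ a' κ z).linear v‖ = 2 ^ κ * ‖ψ (P3 v)‖ := by
  have h1 := lin_sub (frB ψ a' κ z) 0 v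
  rw [sub_zero] at h1
  have h2 : frB ψ a' κ z v - frB ψ a' κ z 0 = (chi ψ a' κ).linear (P3 v) := by
    have h3 := lin_sub (chi ψ a' κ) 0 (P3 v)
    rw [sub_zero] at h3
    rw [← h3]
    funext m
    rw [Pi.sub_apply, Pi.sub_apply, frB_apply, frB_apply, AffineEquiv.trans_apply,
      AffineEquiv.trans_apply, tz_apply, tz_apply, map_zero]
    ring
  rw [← h1, h2, chi_lin]

theorem image_frB {Om : Set R3} {ι : Type} (T : Tiling Om ι) (ψ : R3 ≃L[ℝ] (Fin 3 → ℝ))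
    (a' : Fin 3 → ℝ) (κ : ℕ) (z : Fin 3 → ℤ) (y : E3) :
    frB ψ a' κ z '' (Te T).cc y = ((chi ψ a' κ).trans (tz z)) '' T.cc (P3 y) := by
  have h1 : (Te T).cc y = P3 ⁻¹' T.cc (P3 y) := by
    ext w
    exact Ttr_622.mem_cc_tr (T := T) (P3.symm : R3 ≃L[ℝ] E3)
  rw [h1]
  ext w
  constructor
  · rintro ⟨x, hx, rfl⟩
    exact ⟨P3 x, hx, rfl⟩
  · rintro ⟨x, hx, rfl⟩
    refine ⟨P3.symm x, ?_, ?_⟩
    · rw [mem_preimage, ContinuousLinearEquiv.apply_symm_apply]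
      exact hx
    · rw [frB_apply, ContinuousLinearEquiv.apply_symm_apply]

/-- **one level**: `Shp2` for the tiles with frame data whose neighbours have frame data of the same
level -/
theorem exists_shp_lev {Ls : Set (Finset (Fin 3 → ℝ) × ℕ)} (hLs : Ls.Finite)
    (hpos : ∀ p ∈ Ls, 0 < p.2) (hrat : ∀ p ∈ Ls, ∀ ν ∈ p.1, ∀ m, ∃ c : ℤ, ν m = c / p.2)
    (R L1 L2 : ℝ) :
    ∃ v₀ : ℝ≥0, ∀ v, v₀ ≤ v → ∀ {Om : Set R3} {ι : Type} (T : Tiling Om ι) (t : ι) (κ : ℕ)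
      (ψ : R3 ≃L[ℝ] (Fin 3 → ℝ)) (a' : Fin 3 → ℝ), FG T t κ ψ a' Ls R L1 L2 →
      (∀ l, (P (T.H l) ∩ P (T.H t)).Nonempty → ∃ (κ' : ℕ) (ψ' : R3 ≃L[ℝ] (Fin 3 → ℝ))
        (a'' : Fin 3 → ℝ), κ ≤ κ' + 2 ∧ FG T l κ' ψ' a'' Ls R L1 L2) →
      ∃ B : E3 ≃ᵃ[ℝ] E3, Shp2 (Te T) t B ((2:ℝ≥0) ^ κ)⁻¹ v := by
  obtain ⟨𝓕, h𝓕, H⟩ := star_list.{0, 0} hLs hpos hrat R (4 * |L1| * |L2|)
  obtain ⟨v1, h1⟩ := shp2_of_list h𝓕
  refine ⟨max v1 (max (2 * Real.toNNReal |L1|) (Real.toNNReal |L2|)), ?_⟩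
  intro v hv Om ι T t κ ψ a' hF hnb
  have hv1 : v1 ≤ v := (le_max_left _ _).trans hv
  have hv2 : 2 * |L1| ≤ (v:ℝ) := by
    have h2 : 2 * Real.toNNReal |L1| ≤ v :=
      ((le_max_left _ _).trans (le_max_right _ _)).trans hv
    have h3 : ((2 * Real.toNNReal |L1| : ℝ≥0) : ℝ) ≤ v := by exact_mod_cast h2
    rwa [NNReal.coe_mul, Real.coe_toNNReal _ (abs_nonneg _), NNReal.coe_ofNat] at h3
  have hv3 : |L2| ≤ (v:ℝ) := by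
    have h2 : Real.toNNReal |L2| ≤ v := ((le_max_right _ _).trans (le_max_right _ _)).trans hv
    have h3 : ((Real.toNNReal |L2| : ℝ≥0) : ℝ) ≤ v := by exact_mod_cast h2
    rwa [Real.coe_toNNReal _ (abs_nonneg _)] at h3
  obtain ⟨z, hz⟩ := H T t (chi ψ a' κ) κ hF.1 fun l hl => by
    obtain ⟨κ', ψ', a'', h2, h3, h4, h5⟩ := hnb l hl
    refine ⟨chi ψ' a'' κ', κ', h3, fun w => ?_⟩
    rw [chi_lin, chi_lin]
    have h6 : ‖ψ w‖ ≤ |L1| * (|L2| * ‖ψ' w‖) := by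
      refine (hF.2.1 w).trans ?_
      calc L1 * ‖w‖ ≤ |L1| * ‖w‖ := mul_le_mul_of_nonneg_right (le_abs_self _) (norm_nonneg _)
        _ ≤ |L1| * (|L2| * ‖ψ' w‖) := by
          refine mul_le_mul_of_nonneg_left ((h5 w).trans ?_) (abs_nonneg _)
          exact mul_le_mul_of_nonneg_right (le_abs_self _) (norm_nonneg _)
    have h7 : (2:ℝ) ^ κ ≤ 4 * 2 ^ κ' := by
      have := pow_le_pow_right₀ (one_le_two (α := ℝ)) h2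
      rw [pow_add] at this
      linarith
    calc (2:ℝ) ^ κ * ‖ψ w‖ ≤ (4 * 2 ^ κ') * (|L1| * (|L2| * ‖ψ' w‖)) :=
          mul_le_mul h7 h6 (norm_nonneg _) (by positivity)
      _ = 4 * |L1| * |L2| * (2 ^ κ' * ‖ψ' w‖) := by ring
  refine ⟨frB ψ a' κ z, h1 v hv1 (Te T) t _ _ (by positivity) (Frm.of_norm (fun w => ?_)
    fun w => ?_) fun y hy => ?_⟩
  · rw [frB_lin]
    have h2 := hF.2.1 (P3 w)
    have h3 : ‖P3 w‖ ≤ 2 * ‖w‖ := norm_P3_le w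
    have h4 : ‖ψ (P3 w)‖ ≤ (v:ℝ) * ‖w‖ := by
      calc ‖ψ (P3 w)‖ ≤ L1 * ‖P3 w‖ := h2
        _ ≤ |L1| * ‖P3 w‖ := mul_le_mul_of_nonneg_right (le_abs_self _) (norm_nonneg _)
        _ ≤ |L1| * (2 * ‖w‖) := mul_le_mul_of_nonneg_left h3 (abs_nonneg _)
        _ = 2 * |L1| * ‖w‖ := by ring
        _ ≤ v * ‖w‖ := mul_le_mul_of_nonneg_right hv2 (norm_nonneg _)
    push_cast
    rw [div_inv_eq_mul]
    calc (2:ℝ) ^ κ * ‖ψ (P3 w)‖ ≤ 2 ^ κ * (v * ‖w‖) := by gcongr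
      _ = v * 2 ^ κ * ‖w‖ := by ring
  · rw [frB_lin]
    have h2 := hF.2.2 (P3 w)
    have h3 : ‖w‖ ≤ ‖P3 w‖ := by
      have := norm_P3_symm_le (P3 w)
      rwa [P3.symm_apply_apply] at this
    push_cast
    have hp : (0:ℝ) < 2 ^ κ := by positivity
    calc ‖w‖ ≤ L2 * ‖ψ (P3 w)‖ := h3.trans h2
      _ ≤ v * ‖ψ (P3 w)‖ :=
        mul_le_mul_of_nonneg_right ((le_abs_self _).trans hv3) (norm_nonneg _)
      _ = v * (2 ^ κ)⁻¹ * (2 ^ κ * ‖ψ (P3 w)‖) := by field_simp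
  · obtain ⟨l, hl1, hl2⟩ := hy
    rw [image_frB]
    rw [Te_P] at hl1
    obtain ⟨q, hq1, hq2⟩ := hl2
    rw [Te_P] at hq1 hq2
    exact hz l ⟨w2 q, hq1, hq2⟩ _ hl1

end Crest.Agent.R096.Ssh_432
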