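import Crest.Agent.R096.Ssh2_432

/-!
# Row 96 (helper432), [SH] of helper622, part 3: `exists_shp_T`
-/

set_option autoImplicit false
set_option linter.unusedSectionVars false

open Set Metric Topology Filter
open scoped NNReal

namespace Crest.Agent.R096.Ssh_432

open Crest.AnalysisR.VecCalc3
open Crest.Agent.R096.Msh_715 Crest.Agent.R096.Mal_874 Crest.Agent.R096.Cut_874
open Crest.Agent.R096.Gsm_432 Crest.Agent.R096.Shp_432
open Crest.Agent.R096.Sq_55 (E3 Shp2 Frm StarT w2 shp2_of_list)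
open Crest.Agent.R096.Efi_296 (Te)
open Crest.Agent.R096.Cob_622 (Te_P)
open Crest.Agent.R96.En10_199 (P3)
open Crest.Agent.R096.Ca_855
open Crest.Agent.R096.Ca_855.MIn (BQ)
open Crest.Agent.R096.Osc_400 (norm_P3_le)
open Crest.Agent.R096.Gsc_476 (scl sclT good3 Far)
open Crest.Agent.R096.Dps_476 (deepJ)
open Crest.Agent.R96.Eld_538 (Cl1)
open Crest.Agent.R096.Rmt_816 (Bj)

theorem Good.re {E : Type*} [NormedAddCommGroup E] [NormedSpace ℝ E] {n : ℕ} {Om Om' : Set E}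
    (h : Om = Om') {ι : Type*} {T : Tiling Om ι} {t : ι} {χ : E ≃ᵃ[ℝ] (Fin n → ℝ)} {k : ℕ}
    {𝒩 : Finset (Fin n → ℝ)} {d : ℕ} {R : ℝ} (hT : Good T t χ k 𝒩 d R) :
    Good (reOm T h) t χ k 𝒩 d R := by
  subst h
  exact hT

/-- singleton lists -/
theorem single_data {𝒩 : Finset (Fin 3 → ℝ)} (h : ∀ ν ∈ 𝒩, ∀ m, ∃ c : ℤ, ν m = c / (1:ℕ)) :
    ({(𝒩, 1)} : Set (Finset (Fin 3 → ℝ) × ℕ)).Finite ∧
      (∀ p ∈ ({(𝒩, 1)} : Set (Finset (Fin 3 → ℝ) × ℕ)), 0 < p.2) ∧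
      ∀ p ∈ ({(𝒩, 1)} : Set (Finset (Fin 3 → ℝ) × ℕ)), ∀ ν ∈ p.1, ∀ m,
        ∃ c : ℤ, ν m = c / p.2 := by
  refine ⟨finite_singleton _, ?_, ?_⟩
  · rintro p rfl
    exact one_pos
  · rintro p rfl
    exact h

/-- **[SH]** (helper622 #12068): the shape numbers of the tiles of `h.T a` on three levels -/
theorem exists_shp_T : ∃ vU : ℝ≥0, ∀ (κ : ℝ) (Bs : ℕ), 0 < κ → κ ≤ 1 → ∃ (vI : ℝ≥0) (K3 : ℕ),
    ∀ Nn : ℕ, ∃ vN : ℝ≥0, ∀ {Om W : Set R3} {ρ₀ : R3 → ℝ} {J : Type} [Finite J]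
      {Qb : J → CB R3 3} {k0 : ℕ} {σ : ℝ} (h : MIn Om W ρ₀ Qb k0 σ),
      (∀ j, BQ κ Bs Nn (Qb j) k0) → ∀ a : R3, ‖a‖ ≤ σ / 8 →
      ∃ (B : h.ιT a → E3 ≃ᵃ[ℝ] E3) (κt : h.ιT a → ℕ) (R u : h.ιT a → ℝ≥0),
        (∀ t, Shp2 (Te (h.T a)) t (B t) (R t) (u t)) ∧ (∀ t, sclT h a t ≤ κt t) ∧
        (∀ t, κt t ≤ sclT h a t + 1) ∧ (∀ t, R t = ((2:ℝ≥0) ^ κt t)⁻¹) ∧
        (∀ k l, (P ((h.T a).H k) ∩ P ((h.T a).H l)).Nonempty →
          R k ≤ u k * R l ∧ R l ≤ u k * R k) ∧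
        (∀ t, 1 ≤ u t) ∧ (∀ t, Cl1 h 3 a t → u t ≤ vU) ∧
        (∀ j, ∀ t ∈ deepJ h a j K3, u t ≤ vI) ∧ ∀ t, u t ≤ vN := by
  classical
  -- level U
  obtain ⟨s1, s2, s3⟩ := single_data (𝒩 := N0 3) (N0_rat one_pos)
  obtain ⟨vU₀, HU⟩ := exists_shp_lev s1 s2 s3 2 1 2
  refine ⟨max vU₀ 4, fun κ Bs hκ hκ1 => ?_⟩
  -- level I
  obtain ⟨s1', s2', s3'⟩ := single_data (𝒩 := NB 3 (max 1 Bs)) (NB_rat _ one_pos)
  obtain ⟨vI₀, HI⟩ := exists_shp_lev s1' s2' s3' (max 2 (max 1 (Bs:ℝ))) (4 * κ⁻¹) (4 / κ)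
  refine ⟨max vI₀ (max vU₀ 4), 2, fun Nn => ?_⟩
  -- level N
  obtain ⟨Ls, RN, L1, L2, g1, g2, g3, g4, g5, G⟩ :=
    good3.{0} R3 (MIn.Ps_finite Nn) (4 * κ⁻¹) (max 1 (Bs:ℝ)) 2 (B0 := max 1 Bs)
  obtain ⟨vN₀, HN⟩ := exists_shp_lev g1 g2 g3 RN L1 L2
  refine ⟨max vN₀ (max vI₀ (max vU₀ 4)), ?_⟩
  intro Om W ρ₀ J _ Qb k0 σ h hb a ha
  have hG := G h.M h.sc (0 + h.M.φ (h.cl a)) (h.adm a) (h.X hκ hκ1 hb) (h.rp hκ hκ1 hb a)
    (h.X_Ps hκ hκ1 hb) (fun _ => le_rfl) (fun _ => le_rfl) (fun _ => le_rfl)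
    (fun v => by
      have h1 : ‖h.M.φ v‖ ≤ ‖v‖ := norm_P3_symm_le v
      linarith [norm_nonneg v])
    (fun v => by
      have h1 : ‖P3 (P3.symm v)‖ ≤ 2 * ‖P3.symm v‖ := norm_P3_le _
      rw [P3.apply_symm_apply] at h1
      exact h1)
  choose κt ψ a' hκt hgood hψ1 hψ2 hin hfar using hG
  set u : h.ιT a → ℝ≥0 := fun t => if Cl1 h 3 a t then max vU₀ 4 else
    if ∃ j, t ∈ deepJ h a j 2 then max vI₀ (max vU₀ 4) else max vN₀ (max vI₀ (max vU₀ 4)) with hu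
  have hu4 : ∀ t, 4 ≤ u t := by
    intro t
    simp only [hu]
    split_ifs
    · exact le_max_right _ _
    · exact (le_max_right _ _).trans (le_max_right _ _)
    · exact ((le_max_right _ _).trans (le_max_right _ _)).trans (le_max_right _ _)
  -- scales of neighbours
  have hnb : ∀ t l : h.ιT a, (P ((h.T a).H l) ∩ P ((h.T a).H t)).Nonempty →
      κt t ≤ κt l + 2 := by
    intro t l hl
    have h1 : scT h a t ≤ scT h a l + 1 := scT_nbr h hl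
    have h2 : κt t ≤ scT h a t + 1 := (hκt t).2
    have h3 : scT h a l ≤ κt l := (hκt l).1
    omega
  -- the frame data on the three levels
  have hFN : ∀ t, FG (h.T a) t (κt t) (ψ t) (a' t) Ls RN L1 L2 := by
    intro t
    obtain ⟨p, hp, hg⟩ := hgood t
    exact ⟨⟨p, hp, Good.re h.dom hg⟩, hψ1 t, hψ2 t⟩
  have hFI : ∀ (j : J) (t : h.ιT a), P ((h.T a).H t) ⊆ ((Qb j).tr a).N → scT h a t < k0 →
      FG (h.T a) t (κt t) (ψ t) (a' t) {(NB 3 (max 1 Bs), 1)} (max 2 (max 1 (Bs:ℝ))) (4 * κ⁻¹)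
        (4 / κ) := by
    intro j t hN hs
    have hw := T_off_wall h ha j hs
    rw [← Bk_cl h ha j] at hN hw
    obtain ⟨e1, e2, e3⟩ := hin t j hN hw
    refine ⟨⟨_, rfl, Good.re h.dom e3⟩, fun v => ?_, fun v => ?_⟩
    · rw [e1]
      exact ((hb j).cnd v).2
    · rw [e1]
      have h1 := ((hb j).cnd v).1
      calc ‖v‖ = 4 / κ * (κ / 4 * ‖v‖) := by field_simp
        _ ≤ 4 / κ * ‖(Qb j).ψ v‖ := mul_le_mul_of_nonneg_left h1 (by positivity)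
  have hFU : ∀ (t : h.ιT a), Cl1 h 2 a t →
      FG (h.T a) t (κt t) (ψ t) (a' t) {(N0 3, 1)} 2 1 2 := by
    intro t ht
    have hF : Far h.M h.sc (0 + h.M.φ (h.cl a)) (h.adm a) t := by
      refine ⟨ht.1, fun j y hy => ?_⟩
      obtain ⟨x, hx⟩ := (h.T a).ne t
      exact ⟨x, I_sub_P _ hx, ht.2 j x (I_sub_P _ hx) y hy⟩
    obtain ⟨e1, e2, e3, e4⟩ := hfar t hF
    refine ⟨⟨_, rfl, Good.re h.dom e4⟩, fun v => ?_, fun v => ?_⟩
    · rw [e1, one_mul]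
      exact norm_P3_symm_le v
    · rw [e1]
      have h1 : ‖P3 (P3.symm v)‖ ≤ 2 * ‖P3.symm v‖ := norm_P3_le _
      rw [P3.apply_symm_apply] at h1
      exact h1
  have key : ∀ t, ∃ B : E3 ≃ᵃ[ℝ] E3, Shp2 (Te (h.T a)) t B ((2:ℝ≥0) ^ κt t)⁻¹ (u t) := by
    intro t
    by_cases h1 : Cl1 h 3 a t
    · have h2 : u t = max vU₀ 4 := by simp only [hu]; rw [if_pos h1]
      rw [h2]
      refine HU _ (le_max_left _ _) (h.T a) t (κt t) (ψ t) (a' t)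
        (hFU t ?_) fun l hl => ⟨κt l, ψ l, a' l, hnb t l hl, hFU l ?_⟩
      · refine ⟨h1.1, fun j x hx z hz => lt_of_le_of_lt ?_ (h1.2 j x hx z hz)⟩
        gcongr
        norm_num
      · have h3 := cl1_nbr (by norm_num) h1 (by rwa [inter_comm] at hl)
        norm_num at h3
        exact h3
    · by_cases h3 : ∃ j, t ∈ deepJ h a j 2
      · have h2 : u t = max vI₀ (max vU₀ 4) := by simp only [hu]; rw [if_neg h1, if_pos h3]
        rw [h2]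
        obtain ⟨j, hj1, hj2⟩ := h3
        have hj2' : scT h a t + 2 ≤ k0 := hj2
        refine HI _ (le_max_left _ _) (h.T a) t (κt t) (ψ t) (a' t)
          (hFI j t hj1 (by omega)) fun l hl => ⟨κt l, ψ l, a' l, hnb t l hl, hFI j l ?_ ?_⟩
        · exact T_nbr_in h ha hj1 (by omega) (by rwa [inter_comm] at hl)
        · have h4 : scT h a l ≤ scT h a t + 1 := scT_nbr' h hl
          omega
      · have h2 : u t = max vN₀ (max vI₀ (max vU₀ 4)) := by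
          simp only [hu]; rw [if_neg h1, if_neg h3]
        rw [h2]
        exact HN _ (le_max_left _ _) (h.T a) t (κt t) (ψ t) (a' t) (hFN t)
          fun l hl => ⟨κt l, ψ l, a' l, hnb t l hl, hFN l⟩
  choose B hB using key
  refine ⟨B, κt, fun t => ((2:ℝ≥0) ^ κt t)⁻¹, u, hB, fun t => (hκt t).1, fun t => (hκt t).2,
    fun t => rfl, fun k l hkl => ?_, fun t => le_trans (by norm_num) (hu4 t), fun t ht => ?_,
    fun j t ht => ?_, fun t => ?_⟩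
  · have key2 : ∀ {m m' : ℕ}, m' ≤ m + 2 → ((2:ℝ≥0) ^ m)⁻¹ ≤ u k * ((2:ℝ≥0) ^ m')⁻¹ := by
      intro m m' hm
      have h1 : (2:ℝ≥0) ^ m' ≤ 2 ^ m * 4 := by
        have := pow_le_pow_right₀ (one_le_two (α := ℝ≥0)) hm
        rw [pow_add] at this
        norm_num at this
        exact this
      have h2 : ((2:ℝ≥0) ^ m)⁻¹ ≤ 4 * ((2:ℝ≥0) ^ m')⁻¹ := by
        have hp : (0:ℝ≥0) < 2 ^ m := by positivity
        have hp' : (0:ℝ≥0) < 2 ^ m' := by positivity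
        rw [← div_eq_mul_inv, le_div_iff₀ hp', inv_mul_le_iff₀ hp]
        exact h1
      exact h2.trans (mul_le_mul' (hu4 k) le_rfl)
    have h1 := hnb k l (by rwa [inter_comm])
    have h2 := hnb l k hkl
    exact ⟨key2 h2, key2 h1⟩
  · simp only [hu]
    rw [if_pos ht]
  · simp only [hu]
    have h1 : t ∈ deepJ h a j 2 := ht
    by_cases h2 : Cl1 h 3 a t
    · rw [if_pos h2]
      exact le_max_right _ _
    · rw [if_neg h2, if_pos ⟨j, h1⟩]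
  · simp only [hu]
    split_ifs
    · exact (le_max_right _ _).trans (le_max_right _ _)
    · exact le_max_right _ _
    · exact le_rfl

end Crest.Agent.R096.Ssh_432
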