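import Crest.Agent.R096.Ssh3_432
import Crest.Agent.R096.Onp4_622

/-!
# Row 96 (helper432), [SH] of helper622, part 4: `exists_shp_T` in the form `ShD`
-/

set_option autoImplicit false

open Set
open scoped NNReal

namespace Crest.Agent.R096.Ssh_432

open Crest.AnalysisR.VecCalc3
open Crest.Agent.R096.Mal_874 (CB)
open Crest.Agent.R096.Sq_55 (E3)
open Crest.Agent.R096.Ca_855
open Crest.Agent.R096.Ca_855.MIn (BQ)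
open Crest.Agent.R096.Onp_622 (ShD)

/-- **[SH]** in the form of `one_fix` -/
theorem exists_shD : ∃ vU : ℝ≥0, ∀ (κ : ℝ) (Bs : ℕ), 0 < κ → κ ≤ 1 → ∃ (vI : ℝ≥0) (K3 : ℕ),
    ∀ Nn : ℕ, ∃ vN : ℝ≥0, ∀ {Om W : Set R3} {ρ₀ : R3 → ℝ} {J : Type} [Finite J]
      {Qb : J → CB R3 3} {k0 : ℕ} {σ : ℝ} (h : MIn Om W ρ₀ Qb k0 σ),
      (∀ j, BQ κ Bs Nn (Qb j) k0) → ∀ a : R3, ‖a‖ ≤ σ / 8 →
      ∃ (B : h.ιT a → E3 ≃ᵃ[ℝ] E3) (κt : h.ιT a → ℕ) (R u : h.ιT a → ℝ≥0),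
        ShD h a K3 vU vI vN B κt R u := by
  obtain ⟨vU, H⟩ := exists_shp_T
  refine ⟨vU, fun κ Bs hκ hκ1 => ?_⟩
  obtain ⟨vI, K3, H⟩ := H κ Bs hκ hκ1
  refine ⟨vI, K3, fun Nn => ?_⟩
  obtain ⟨vN, H⟩ := H Nn
  refine ⟨vN, fun {Om W ρ₀ J} _ {Qb k0 σ} h hb a ha => ?_⟩
  obtain ⟨B, κt, R, u, h1, h2, h3, h4, h5, h6, h7, h8, h9⟩ := H h hb a ha
  exact ⟨B, κt, R, u, ⟨h1, h2, h3, h4, h5, h6, h7, h8, h9⟩⟩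

end Crest.Agent.R096.Ssh_432
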