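import Crest.Agent.R096.Mrg4_715

/-!
Row 96, DOORS, leaf (ST) of helper184 #10551 (helper471).  In a core `K` whose inner cells meet the
frontier in one closed cell of dimension one less (`tr`), over every point `z` of the frontier there
is exactly one inner cell of the next dimension, and it lies in every inner cell at `z`.
-/

set_option autoImplicit false
set_option linter.unusedSectionVars false

open Set Metric Filter Topology Module
open scoped Classical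

namespace Crest.Agent.R096.St_471

open Msh_715 Agl5_543 Agl3_543

variable {E : Type} [NormedAddCommGroup E] [NormedSpace ℝ E] [FiniteDimensional ℝ E]
variable {Om : Set E} {ι : Type} {T : Tiling Om ι} {K : Set E}

/-- an inner cell meets the frontier in one closed cell of dimension one less -/
def Tr (T : Tiling Om ι) (K : Set E) : Prop :=
  ∀ x ∈ K, x ∉ frontier K → (T.cc x ∩ frontier K).Nonempty →
    ∃ y ∈ T.cc x, T.dim y + 1 = T.dim x ∧ T.cc x ∩ frontier K = T.cc y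

section
variable (hK : Core K) (hKO : K ⊆ Om) (hs : ∀ x ∈ frontier K, T.cc x ⊆ frontier K)
include hK hKO hs

omit [FiniteDimensional ℝ E] hK hKO hs in
theorem int_of {x : E} (hx : x ∈ K) (hf : x ∉ frontier K) : x ∈ interior K := by
  by_contra h
  exact hf ⟨subset_closure hx, h⟩

omit [FiniteDimensional ℝ E] hKO in
theorem sub_of {x : E} (hx : x ∈ K) (hf : x ∉ frontier K) {i : ι} (hi : i ∈ T.at_ x) :
    P (T.H i) ⊆ K :=
  T.sub_of_mem_interior hK.closed hs hi (int_of hx hf)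

omit [FiniteDimensional ℝ E] in
theorem cc_sub {x : E} (hx : x ∈ K) (hf : x ∉ frontier K) : T.cc x ⊆ K := by
  obtain ⟨i, hi⟩ := T.at_nonempty (hKO hx)
  exact (T.cc_sub_tile hi).trans (sub_of hK hs hx hf hi)

omit [FiniteDimensional ℝ E] hK hKO in
theorem not_oc {x z : E} (hz : z ∈ frontier K) (hf : x ∉ frontier K) : x ∉ T.oc z :=
  fun h => hf (hs z hz (T.oc_sub_cc z h))

omit [FiniteDimensional ℝ E] hK hKO in
theorem not_oc' {x z : E} (hxO : x ∈ Om) (hz : z ∈ frontier K) (hf : x ∉ frontier K) :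
    z ∉ T.oc x := fun h => by
  apply hf
  have h1 : T.cc z = T.cc x := T.cc_eq_of_mem_oc hxO h
  exact hs z hz (h1 ▸ T.self_mem_cc x)

omit [FiniteDimensional ℝ E] hK hKO hs in
/-- the direction from a point of the boundary into the open cell is transversal -/
theorem dir_notMem {x w : E} (hxO : x ∈ Om) (hwO : w ∈ Om) (hw : w ∈ T.cc x) (hn : w ∉ T.oc x) :
    x - w ∉ T.V w := by
  intro h
  obtain ⟨r, hr, hb⟩ := T.exists_ball_oc hwO
  have hc : Tendsto (fun s : ℝ => s • (x - w)) (𝓝[>] 0) (𝓝 0) := by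
    have : Tendsto (fun s : ℝ => s • (x - w)) (𝓝 0) (𝓝 ((0 : ℝ) • (x - w))) := by
      apply Continuous.tendsto
      fun_prop
    rw [zero_smul] at this
    exact this.mono_left nhdsWithin_le_nhds
  have h1 : ∀ᶠ s in 𝓝[>] (0 : ℝ), ‖s • (x - w)‖ < r := by
    have := hc.norm
    rw [norm_zero] at this
    exact this.eventually (gt_mem_nhds hr)
  have h2 : ∀ᶠ s in 𝓝[>] (0 : ℝ), s ≤ 1 :=
    (eventually_le_nhds (by norm_num : (0 : ℝ) < 1)).filter_mono nhdsWithin_le_nhds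
  obtain ⟨s, ⟨h3, h4⟩, h5⟩ := ((h1.and h2).and self_mem_nhdsWithin).exists
  have h5' : (0 : ℝ) < s := h5
  have h6 := hb (s • (x - w)) ((T.V w).smul_mem s h) h3
  have h7 : w + s • (x - w) ∈ T.oc x := T.move_mem_oc hw h5' h4
  rcases T.oc_disjoint_or_eq hwO hxO with h8 | h8
  · exact Set.disjoint_left.1 h8 h6 h7
  · exact hn (h8 ▸ T.self_mem_oc w)

omit hKO hK in
/-- **escape**: if `z` is in the relative boundary of the frontier face of the inner cell of `x`, then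
there are points of the relative boundary of the cell of `x` near `z` off the frontier -/
theorem escape {x w z : E} (hxO : x ∈ Om) (hxf : x ∉ frontier K)
    (hint : T.cc x ∩ frontier K = T.cc w) (hz : z ∈ frontier K) (hzx : z ∈ T.cc x)
    (hzw : z ∉ T.oc w) {r : ℝ} (hr : 0 < r) :
    ∃ e ∈ ball z r, e ∈ T.cc x ∧ e ∉ T.oc x ∧ e ∉ frontier K := by
  have hww : w ∈ T.cc x ∩ frontier K := hint ▸ T.self_mem_cc w
  have hwx : w ∈ T.cc x := hww.1
  have hwO : w ∈ Om := T.cc_sub_Om hxO hwx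
  have hzcw : z ∈ T.cc w := hint ▸ ⟨hzx, hz⟩
  have hwn : w ∉ T.oc x := not_oc' hs hxO hww.2 hxf
  have hzn : z ∉ T.oc x := not_oc' hs hxO hz hxf
  have hA := dir_notMem hxO hwO hwx hwn
  set v := z - w with hv
  have hvV : v ∈ T.V w := T.sub_mem_V hzcw
  have hzwv : z = w + v := by rw [hv]; abel
  have hxz : x - z ∉ T.V w := by
    intro h
    apply hA
    have : x - w = (x - z) + v := by rw [hv]; abel
    rw [this]; exact (T.V w).add_mem h hvV
  -- small parameters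
  have hd : ∀ u : E, ∃ δ : ℝ, 0 < δ ∧ δ ≤ 1 ∧ ‖δ • u‖ < r := by
    intro u
    refine ⟨min 1 (r / (2 * (‖u‖ + 1))), by positivity, min_le_left _ _, ?_⟩
    rw [norm_smul, Real.norm_of_nonneg (by positivity)]
    have h1 : min 1 (r / (2 * (‖u‖ + 1))) * ‖u‖ ≤ r / (2 * (‖u‖ + 1)) * (‖u‖ + 1) := by
      gcongr
      · exact min_le_right _ _
      · linarith
    have h2 : r / (2 * (‖u‖ + 1)) * (‖u‖ + 1) = r / 2 := by
      have : ‖u‖ + 1 ≠ 0 := by positivity
      field_simp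
    rw [h2] at h1
    linarith
  obtain ⟨δ, hδ0, hδ1, hδ⟩ := hd v
  obtain ⟨s, hs0, hs1, hsr⟩ := hd (x - z)
  set q := z + δ • v with hq
  set a := z + s • (x - z) with ha
  have haoc : a ∈ T.oc x := T.move_mem_oc hzx hs0 hs1
  have haO : a ∈ Om := T.cc_sub_Om hxO (T.oc_sub_cc x haoc)
  have hVa : T.V a = T.V x := T.V_eq_of_mem_oc hxO haoc
  have hdir : q - a ∈ T.V a := by
    rw [hVa]
    have : q - a = δ • v - s • (x - z) := by rw [hq, ha]; abel
    rw [this]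
    refine (T.V x).sub_mem ((T.V x).smul_mem δ (T.V_mono hwx hvV)) ((T.V x).smul_mem s ?_)
    exact T.sub_mem_V' (T.self_mem_cc x) hzx
  have hdir0 : q - a ≠ 0 := by
    intro h
    have h1 : s • (x - z) = δ • v := by
      have : δ • v - s • (x - z) = 0 := by rw [← h, hq, ha]; abel
      exact (sub_eq_zero.1 this).symm
    apply hxz
    have h2 : x - z = s⁻¹ • (δ • v) := by
      rw [← h1, smul_smul, inv_mul_cancel₀ hs0.ne', one_smul]
    rw [h2]
    exact (T.V w).smul_mem _ ((T.V w).smul_mem _ hvV)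
  obtain ⟨t, ht, h1, h2, h3⟩ := T.exists_exit haO hdir hdir0
  have hcca : T.cc a = T.cc x := T.cc_eq_of_mem_oc hxO haoc
  have hoca : T.oc a = T.oc x := T.oc_eq_of_mem hxO haoc
  rw [hcca] at h1
  rw [hoca] at h2
  -- `t ≤ 1`
  have ht1 : t ≤ 1 := by
    by_contra hcon
    push Not at hcon
    have h4 := h3 1 zero_le_one hcon
    rw [hoca, one_smul, add_sub_cancel] at h4
    have hqO : q ∈ Om := T.cc_sub_Om hxO (T.oc_sub_cc x h4)
    have h5 : w ∈ T.cc q := by rw [T.cc_eq_of_mem_oc hxO h4]; exact hwx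
    have h6 : w + (1 / (1 + δ)) • (q - w) ∈ T.oc q :=
      T.move_mem_oc h5 (by positivity) (by rw [div_le_one (by positivity)]; linarith)
    have h7 : w + (1 / (1 + δ)) • (q - w) = z := by
      have : q - w = (1 + δ) • v := by rw [hq, hzwv, add_smul, one_smul]; abel
      rw [this, smul_smul, one_div, inv_mul_cancel₀ (by positivity), one_smul, ← hzwv]
    rw [h7, T.oc_eq_of_mem hxO h4] at h6
    exact hzn h6
  refine ⟨a + t • (q - a), ?_, h1, h2, ?_⟩
  · have ha1 : a ∈ ball z r := by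
      rw [mem_ball, dist_eq_norm, ha, add_sub_cancel_left]; exact hsr
    have hq1 : q ∈ ball z r := by
      rw [mem_ball, dist_eq_norm, hq, add_sub_cancel_left]; exact hδ
    exact (convex_ball z r).add_smul_sub_mem ha1 hq1 ⟨ht.le, ht1⟩
  · intro hf
    have he : a + t • (q - a) ∈ T.cc w := hint ▸ ⟨h1, hf⟩
    rcases ht1.lt_or_eq with hlt | heq
    · have h5 : a + t • (q - a) - w ∈ T.V w := T.sub_mem_V he
      have h6 : a + t • (q - a) - w = v + (t * δ) • v + ((1 - t) * s) • (x - z) := by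
        rw [hq, ha, hzwv]
        module
      rw [h6] at h5
      have h7 : ((1 - t) * s) • (x - z) ∈ T.V w := by
        have h8 : v + (t * δ) • v ∈ T.V w := (T.V w).add_mem hvV ((T.V w).smul_mem _ hvV)
        have := (T.V w).sub_mem h5 h8
        rwa [add_sub_cancel_left] at this
      have hc : (1 - t) * s ≠ 0 := by
        have : 0 < (1 - t) * s := mul_pos (by linarith) hs0
        exact this.ne'
      exact hxz (((T.V w).smul_mem_iff hc).1 h7)
    · rw [heq, one_smul, add_sub_cancel] at he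
      have h6 : q + (δ / (1 + δ)) • (w - q) ∈ T.oc w :=
        T.move_mem_oc he (by positivity) (by rw [div_le_one (by positivity)]; linarith)
      have h7 : q + (δ / (1 + δ)) • (w - q) = z := by
        have h8 : w - q = -((1 + δ) • v) := by rw [hq, hzwv, add_smul, one_smul]; abel
        rw [h8, smul_neg, smul_smul, div_mul_cancel₀ _ (by positivity), hq]
        abel
      rw [h7] at h6
      exact hzw h6

/-- **(a)** every inner cell at `z` contains an inner cell at `z` of the next dimension -/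
theorem exists_next (tr : Tr T K) {z : E} (hz : z ∈ frontier K) :
    ∀ (n : ℕ) (x : E), T.dim x = n → x ∈ K → x ∉ frontier K → z ∈ T.cc x →
      ∃ x' ∈ T.cc x, x' ∈ K ∧ x' ∉ frontier K ∧ z ∈ T.cc x' ∧ T.cc x' ∩ frontier K = T.cc z ∧
        T.dim x' = T.dim z + 1 := by
  intro n
  induction n using Nat.strong_induction_on with
  | _ n ih =>
    intro x hn hx hxf hzx
    have hxO := hKO hx
    obtain ⟨w, hw, hd, hint⟩ := tr x hx hxf ⟨z, hzx, hz⟩
    have hwO : w ∈ Om := T.cc_sub_Om hxO hw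
    by_cases hzw : z ∈ T.oc w
    · refine ⟨x, T.self_mem_cc x, hx, hxf, hzx, ?_, ?_⟩
      · rw [hint, T.cc_eq_of_mem_oc hwO hzw]
      · rw [T.dim_eq_of_mem_oc hwO hzw, hd]
    · have hzO : z ∈ Om := hKO (hK.closed.frontier_subset hz)
      obtain ⟨r, hr, hb⟩ := Metric.mem_nhds_iff.1 (T.good_nhds hzO)
      obtain ⟨e, he, he1, he2, he3⟩ := escape hs hxO hxf hint hz hzx hzw hr
      have hlt : T.dim e < n := hn ▸ T.dim_lt he1 he2
      obtain ⟨x', h1, h2⟩ := ih _ hlt e rfl (cc_sub hK hKO hs hx hxf he1) he3 (hb he).2.2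
      exact ⟨x', T.cc_sub_of_mem he1 h1, h2⟩

/-- there are inner points near the frontier -/
theorem exists_inn {z : E} (hz : z ∈ frontier K) : ∃ y ∈ K, y ∉ frontier K ∧ z ∈ T.cc y := by
  have hzO : z ∈ Om := hKO (hK.closed.frontier_subset hz)
  have h1 := hK.reg hz
  obtain ⟨y, hy1, hy2⟩ := mem_closure_iff_nhds.1 h1 _ (T.good_nhds hzO)
  exact ⟨y, interior_subset hy2, fun h => h.2 hy2, hy1.2.2⟩

/-- the frontier face of an inner tile at `z` -/
theorem tile_face (h3 : finrank ℝ E = 3) (tr : Tr T K) {z : E} (hz : z ∈ frontier K) {q : ι}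
    (hq : q ∈ T.at_ z) (hqK : P (T.H q) ⊆ K) :
    ∃ w ∈ frontier K, T.dim w = 2 ∧ z ∈ T.cc w ∧ P (T.H q) ∩ frontier K = T.cc w ∧
      q ∈ T.at_ w ∧ ∀ k ∈ T.at_ w, P (T.H k) ⊆ K → k = q := by
  obtain ⟨y, hy⟩ := T.ne q
  have hyP : y ∈ P (T.H q) := I_sub_P _ hy
  have hyf : y ∉ frontier K := fun h =>
    Set.disjoint_left.1 (T.disjoint_I_frontier hK.closed hs q) hy h
  have hcc : T.cc y = P (T.H q) := T.cc_eq_tile hy
  have hzy : z ∈ T.cc y := hcc ▸ hq
  obtain ⟨w, hw, hd, hint⟩ := tr y (hqK hyP) hyf ⟨z, hzy, hz⟩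
  have hwm : w ∈ T.cc y ∩ frontier K := hint ▸ T.self_mem_cc w
  have hyO : y ∈ Om := hKO (hqK hyP)
  have hdy : T.dim y = 3 := by
    have : T.V y = ⊤ := (T.V_eq_top_iff hyO).2 ⟨q, hy⟩
    unfold Tiling.dim
    rw [this, finrank_top, h3]
  have hdw : T.dim w = 2 := by omega
  have hwO : w ∈ Om := T.cc_sub_Om hyO hw
  have hqw : q ∈ T.at_ w := by
    have := hwm.1
    rw [hcc] at this
    exact this
  refine ⟨w, hwm.2, hdw, hint ▸ ⟨hzy, hz⟩, hcc ▸ hint, hqw, ?_⟩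
  intro k hk hkK
  obtain ⟨i, j, hij, hat, -⟩ := T.two_tiles hwO (by omega)
  have h1 := (T.mem_frontier_iff hK hKO hs hwO hat).1 hwm.2
  rw [hat] at hk hqw
  rcases hk with rfl | hk <;> rcases hqw with rfl | hqw
  · rfl
  · rw [mem_singleton_iff] at hqw; subst hqw
    exact absurd ⟨fun _ => hqK, fun _ => hkK⟩ h1
  · rw [mem_singleton_iff] at hk; subst hk
    exact absurd ⟨fun _ => hkK, fun _ => hqK⟩ h1
  · rw [mem_singleton_iff] at hk hqw
    rw [hk, hqw]

/-- two tiles of an inner 2-cell -/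
theorem inn_two (h3 : finrank ℝ E = 3) {z y : E} (hy : y ∈ K) (hyf : y ∉ frontier K)
    (hzy : z ∈ T.cc y) (hd : T.dim y = 2) :
    ∃ i j, i ≠ j ∧ T.cc y = P (T.H i) ∩ P (T.H j) ∧ i ∈ T.at_ z ∧ j ∈ T.at_ z ∧
      P (T.H i) ⊆ K ∧ P (T.H j) ⊆ K ∧ T.at_ y = {i, j} := by
  obtain ⟨i, j, hij, hat, hcc⟩ := T.two_tiles (hKO hy) (by omega : T.dim y + 1 = finrank ℝ E)
  have hi : i ∈ T.at_ y := by rw [hat]; exact Or.inl rfl
  have hj : j ∈ T.at_ y := by rw [hat]; exact Or.inr rfl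
  exact ⟨i, j, hij, hcc, T.at_sub_of_mem_cc hzy hi, T.at_sub_of_mem_cc hzy hj,
    sub_of hK hs hy hyf hi, sub_of hK hs hy hyf hj, hat⟩

/-- **(c)** at a point of dimension one: an inner 2-cell is in every inner tile -/
theorem mem_tile_one (h3 : finrank ℝ E = 3) (tr : Tr T K) {z : E} (hz : z ∈ frontier K)
    (hd : T.dim z = 1) {x : E} (hx : x ∈ K) (hxf : x ∉ frontier K) (hzx : z ∈ T.cc x)
    (hdx : T.dim x = 2) {k : ι} (hk : k ∈ T.at_ z) (hkK : P (T.H k) ⊆ K) :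
    k ∈ T.at_ x := by
  obtain ⟨i, j, hij, hcc, hi, hj, hiK, hjK, hat⟩ := inn_two hK hKO hs h3 hx hxf hzx hdx
  by_contra hkn
  have hki : k ≠ i := fun h => hkn (by rw [hat, h]; exact Or.inl rfl)
  have hkj : k ≠ j := fun h => hkn (by rw [hat, h]; exact Or.inr rfl)
  have key2 : ∀ q, q ∈ T.at_ z → P (T.H q) ⊆ K → ∃ F : C2 T, (z ∈ F.On ∧ F.set ⊆ frontier K) ∧
      q ∈ T.at_ F.pt ∧ ∀ k' ∈ T.at_ F.pt, P (T.H k') ⊆ K → k' = q := by
    intro q hq hqK
    obtain ⟨w, hw, hdw, hzw, -, hqw, hu⟩ := tile_face hK hKO hs h3 tr hz hq hqK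
    have hwO : w ∈ Om := hKO (hK.closed.frontier_subset hw)
    refine ⟨mk2 T hwO hdw, ⟨⟨hzw, hd⟩, hs w hw⟩, ?_⟩
    have h5 : (mk2 T hwO hdw).pt ∈ T.oc w := T.pt_cl hwO
    rw [T.at_eq_of_mem_oc hwO h5]
    exact ⟨hqw, hu⟩
  obtain ⟨F1, hF1, h1, h1'⟩ := key2 i hi hiK
  obtain ⟨F2, hF2, h2, h2'⟩ := key2 j hj hjK
  obtain ⟨F3, hF3, h4, h4'⟩ := key2 k hk hkK
  have hn := T.two_faces h3 hK hKO hs hz hd
  obtain ⟨G1, G2, hG, hset⟩ := Set.ncard_eq_two.1 hn
  have m1 : F1 ∈ ({G1, G2} : Set (C2 T)) := hset ▸ hF1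
  have m2 : F2 ∈ ({G1, G2} : Set (C2 T)) := hset ▸ hF2
  have m3 : F3 ∈ ({G1, G2} : Set (C2 T)) := hset ▸ hF3
  have n12 : F1 ≠ F2 := fun h => hij (h2' i (h ▸ h1) hiK)
  have n13 : F1 ≠ F3 := fun h => hki (h1' k (h.symm ▸ h4) hkK)
  have n23 : F2 ≠ F3 := fun h => hkj (h2' k (h.symm ▸ h4) hkK)
  simp only [mem_insert_iff, mem_singleton_iff] at m1 m2 m3
  rcases m1 with m1 | m1 <;> rcases m2 with m2 | m2 <;> rcases m3 with m3 | m3
  · exact n12 (m1.trans m2.symm)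
  · exact n12 (m1.trans m2.symm)
  · exact n13 (m1.trans m3.symm)
  · exact n23 (m2.trans m3.symm)
  · exact n23 (m2.trans m3.symm)
  · exact n13 (m1.trans m3.symm)
  · exact n12 (m1.trans m2.symm)
  · exact n12 (m1.trans m2.symm)

/-- **(c')** the inner 2-cell at a point of dimension one is unique -/
theorem cc_eq_one (h3 : finrank ℝ E = 3) (tr : Tr T K) {z : E} (hz : z ∈ frontier K)
    (hd : T.dim z = 1) {x y : E} (hx : x ∈ K) (hxf : x ∉ frontier K) (hzx : z ∈ T.cc x)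
    (hdx : T.dim x = 2) (hy : y ∈ K) (hyf : y ∉ frontier K) (hzy : z ∈ T.cc y)
    (hdy : T.dim y = 2) : T.cc x = T.cc y := by
  obtain ⟨i, j, hij, hcc, hi, hj, hiK, hjK, hat⟩ := inn_two hK hKO hs h3 hx hxf hzx hdx
  obtain ⟨k, l, hkl, hcc', hk, hl, hkK, hlK, hat'⟩ := inn_two hK hKO hs h3 hy hyf hzy hdy
  have h1 := mem_tile_one hK hKO hs h3 tr hz hd hx hxf hzx hdx hk hkK
  have h2 := mem_tile_one hK hKO hs h3 tr hz hd hx hxf hzx hdx hl hlK
  rw [hat] at h1 h2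
  simp only [mem_insert_iff, mem_singleton_iff] at h1 h2
  rw [hcc, hcc']
  rcases h1 with h1 | h1 <;> rcases h2 with h2 | h2
  · exact absurd (h1.trans h2.symm) hkl
  · rw [h1, h2]
  · rw [h1, h2, Set.inter_comm]
  · exact absurd (h1.trans h2.symm) hkl

/-- an edge of the frontier at `z` in the frontier face of an inner tile -/
theorem exists_edge {w z : E} (hw : w ∈ frontier K) (hdw : T.dim w = 2) (hzw : z ∈ T.cc w)
    (hd : T.dim z = 0) : ∃ e : T.Cell, e.dim = 1 ∧ e.set ⊆ T.cc w ∧ z ∈ e.set ∧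
      e.set ⊆ frontier K := by
  have hwO : w ∈ Om := hKO (hK.closed.frontier_subset hw)
  have h1 := T.two_edges hwO hdw hzw hd
  have h2 : (T.edgesAt w z).Nonempty := by
    rw [← Set.ncard_pos (Set.finite_of_ncard_ne_zero (by omega))]
    omega
  obtain ⟨e, he1, he2, he3⟩ := h2
  exact ⟨e, he1, he2, he3, he2.trans (hs w hw)⟩

/-- **(d)** at a vertex: an inner 1-cell is in every inner tile -/
theorem mem_tile_zero (h3 : finrank ℝ E = 3) (hL : PC (frontier K)) (tr : Tr T K) {z : E}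
    (hz : z ∈ frontier K) (hd : T.dim z = 0) {x : E} (hx : x ∈ K) (hxf : x ∉ frontier K)
    (hzx : z ∈ T.cc x) (hdx : T.dim x = 1) {k : ι} (hk : k ∈ T.at_ z) (hkK : P (T.H k) ⊆ K) :
    x ∈ P (T.H k) := by
  have hxO : x ∈ Om := hKO hx
  have hzO : z ∈ Om := hKO (hK.closed.frontier_subset hz)
  have hKu : ∀ _ : Unit, Core K := fun _ => hK
  have hKOu : ∀ _ : Unit, K ⊆ Om := fun _ => hKO
  have hsu : ∀ _ : Unit, ∀ x ∈ frontier K, T.cc x ⊆ frontier K := fun _ => hs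
  set A : Set (C2 T) := {G | G.set ⊆ frontier K ∧ ∃ q, P (T.H q) ⊆ K ∧ G.set ⊆ P (T.H q) ∧
    x ∈ P (T.H q)} with hA
  -- crossing an edge
  have hcross : ∀ e : EdK T (fun _ : Unit => K) (), z ∈ e.1.set → ∀ b,
      fcK h3 hKu hKOu hsu () e b ∈ A → fcK h3 hKu hKOu hsu () e (!b) ∈ A := by
    intro e hze b hb
    obtain ⟨hG, q, hqK, hGq, hxq⟩ := hb
    have hG' := fcK_sub (h3 := h3) (hK := hKu) (hKO := hKOu) (hs := hsu) e (!b)
    have hGe := fcK_sub (h3 := h3) (hK := hKu) (hKO := hKOu) (hs := hsu) e b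
    set G := fcK h3 hKu hKOu hsu () e b with hGdef
    set G' := fcK h3 hKu hKOu hsu () e (!b) with hGdef'
    refine ⟨hG'.1, ?_⟩
    -- a point of the edge
    set m := e.1.pt with hm
    have hmO : m ∈ Om := e.1.pt_mem
    have hmcc : T.cc m = e.1.set := e.1.set_eq.symm
    have hme : m ∈ e.1.set := hmcc ▸ T.self_mem_cc m
    have hmf : m ∈ frontier K := e.2.2 hme
    have hdm : T.dim m = 1 := e.2.1
    have hzm : z ∈ T.cc m := hmcc ▸ hze
    -- the inner tile of `G'`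
    have hG'f : G'.pt ∈ frontier K := hG'.1 (by rw [G'.set_eq]; exact T.self_mem_cc _)
    obtain ⟨q', hq', hq'K⟩ := T.exists_inner hK hKO hs (hK.closed.frontier_subset hG'f)
    have hG'q : G'.set ⊆ P (T.H q') := by rw [G'.set_eq]; exact T.cc_sub_tile hq'
    refine ⟨q', hq'K, hG'q, ?_⟩
    have hmq' : q' ∈ T.at_ m := hG'q (hG'.2 hme)
    have hmq : q ∈ T.at_ m := hGq (hGe.2 hme)
    -- the inner 2-cell at `m`
    obtain ⟨y0, hy0, hy0f, hmy0⟩ := exists_inn hK hKO hs hmf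
    obtain ⟨y, -, hyK, hyf, hmy, -, hdy⟩ := exists_next hK hKO hs tr hmf _ y0 rfl hy0 hy0f hmy0
    rw [hdm] at hdy
    have hyq' := mem_tile_one hK hKO hs h3 tr hmf hdm hyK hyf hmy hdy hmq' hq'K
    suffices hxy : x ∈ T.cc y from T.cc_sub_tile hyq' hxy
    -- the two faces of `q` at `x`
    obtain ⟨x1, hx1, x2, hx2, hd1, hd2, hq1, hq2, hp1, hp2, hne, -⟩ :=
      two_cells T h3 hxO hdx (hxq : q ∈ T.at_ x)
    obtain ⟨w, hw, hdw, hzw, hint, hqw, hu⟩ := tile_face hK hKO hs h3 tr hz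
      (T.cc_sub_tile (hxq : q ∈ T.at_ x) hzx : z ∈ P (T.H q)) hqK
    have hwO : w ∈ Om := hKO (hK.closed.frontier_subset hw)
    -- `G` is the frontier face of `q`
    have hGw : T.cc G.pt = T.cc w := by
      have h1 : G.pt ∈ T.cc w := by
        rw [← hint]
        have : G.pt ∈ G.set := by rw [G.set_eq]; exact T.self_mem_cc _
        exact ⟨hGq this, hG this⟩
      by_contra hcon
      have h2 : G.pt ∉ T.oc w := fun h => hcon (T.cc_eq_of_mem_oc hwO h)
      have h4 := T.dim_lt h1 h2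
      rw [G.dim_pt, hdw] at h4
      exact lt_irrefl _ h4
    have hface : ∀ u : E, u ∈ Om → T.dim u = 2 → q ∈ T.at_ u → x ∈ T.cc u →
        u ∈ K ∧ u ∉ frontier K ∧ ∃ c : T.Cell, c ∈ T.edgesAt w z ∧ c.pt ∈ frontier K ∧
          T.dim c.pt = 1 ∧ c.pt ∈ T.cc u := by
      intro u huO hdu hqu hxu
      have huK : u ∈ K := hqK hqu
      have huf : u ∉ frontier K := fun h => hxf (hs u h hxu)
      refine ⟨huK, huf, ?_⟩
      have hzu : z ∈ T.cc u := T.cc_sub_of_mem hxu hzx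
      obtain ⟨n, hn, hdn, hintn⟩ := tr u huK huf ⟨z, hzu, hz⟩
      have hnm : n ∈ T.cc u ∩ frontier K := hintn ▸ T.self_mem_cc n
      have hnO : n ∈ Om := T.cc_sub_Om huO hn
      have hset : (T.cl hnO).set = T.cc n := rfl
      have hpt : (T.cl hnO).pt ∈ T.oc n := T.pt_cl hnO
      have hptc : (T.cl hnO).pt ∈ T.cc n := T.oc_sub_cc n hpt
      refine ⟨T.cl hnO, ⟨?_, ?_, ?_⟩, ?_, ?_, ?_⟩
      · rw [T.dim_cl]; omega
      · rw [hset, ← hintn, ← hint]
        exact inter_subset_inter_left _ (T.cc_sub_tile hqu)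
      · rw [hset, ← hintn]; exact ⟨hzu, hz⟩
      · exact hs n hnm.2 hptc
      · rw [T.dim_eq_of_mem_oc hnO hpt]; omega
      · exact T.cc_sub_of_mem hn hptc
    obtain ⟨hx1K, hx1f, c1, hc1, hc1f, hc1d, hc1m⟩ := hface x1 hx1 hd1 hq1 hp1
    obtain ⟨hx2K, hx2f, c2, hc2, hc2f, hc2d, hc2m⟩ := hface x2 hx2 hd2 hq2 hp2
    have hc12 : c1 ≠ c2 := by
      rintro rfl
      exact hne (cc_eq_one hK hKO hs h3 tr hc1f hc1d hx1K hx1f hc1m hd1 hx2K hx2f hc2m hd2)
    have hew : e.1 ∈ T.edgesAt w z := ⟨e.2.1, by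
      have := hGe.2
      rw [G.set_eq, hGw] at this
      exact this, hze⟩
    have hn2 := T.two_edges hwO hdw hzw hd
    obtain ⟨g1, g2, hg, hset⟩ := Set.ncard_eq_two.1 hn2
    have m1 : c1 ∈ ({g1, g2} : Set T.Cell) := hset ▸ hc1
    have m2 : c2 ∈ ({g1, g2} : Set T.Cell) := hset ▸ hc2
    have m3 : e.1 ∈ ({g1, g2} : Set T.Cell) := hset ▸ hew
    simp only [mem_insert_iff, mem_singleton_iff] at m1 m2 m3
    have hor : e.1 = c1 ∨ e.1 = c2 := by
      rcases m1 with m1 | m1 <;> rcases m2 with m2 | m2 <;> rcases m3 with m3 | m3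
      · exact absurd (m1.trans m2.symm) hc12
      · exact absurd (m1.trans m2.symm) hc12
      · exact Or.inl (m3.trans m1.symm)
      · exact Or.inr (m3.trans m2.symm)
      · exact Or.inr (m3.trans m2.symm)
      · exact Or.inl (m3.trans m1.symm)
      · exact absurd (m1.trans m2.symm) hc12
      · exact absurd (m1.trans m2.symm) hc12
    rcases hor with h | h
    · have hmx : m ∈ T.cc x1 := by rw [hm, h]; exact hc1m
      rw [cc_eq_one hK hKO hs h3 tr hmf hdm hyK hyf hmy hdy hx1K hx1f hmx hd1]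
      exact hp1
    · have hmx : m ∈ T.cc x2 := by rw [hm, h]; exact hc2m
      rw [cc_eq_one hK hKO hs h3 tr hmf hdm hyK hyf hmy hdy hx2K hx2f hmx hd2]
      exact hp2
  -- all faces at `z` are in `A`
  have hfc : ∀ q, q ∈ T.at_ z → P (T.H q) ⊆ K → ∃ (e : EdK T (fun _ : Unit => K) ()) (b : Bool),
      z ∈ e.1.set ∧ (fcK h3 hKu hKOu hsu () e b).set ⊆ P (T.H q) ∧
      ∀ k' : ι, P (T.H k') ⊆ K → (fcK h3 hKu hKOu hsu () e b).set ⊆ P (T.H k') → k' = q := by
    intro q hq hqK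
    obtain ⟨w, hw, hdw, hzw, hint, hqw, hu⟩ := tile_face hK hKO hs h3 tr hz hq hqK
    have hwO : w ∈ Om := hKO (hK.closed.frontier_subset hw)
    obtain ⟨e, he1, he2, he3, he4⟩ := exists_edge hK hKO hs hw hdw hzw hd
    obtain ⟨b, hb⟩ := (fcK_iff (h3 := h3) (hK := hKu) (hKO := hKOu) (hs := hsu)
      (⟨e, he1, he4⟩ : EdK T (fun _ : Unit => K) ()) (mk2 T hwO hdw)).1 ⟨hs w hw, he2⟩
    refine ⟨⟨e, he1, he4⟩, b, he3, ?_, ?_⟩
    · rw [hb]; exact T.cc_sub_tile hqw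
    · intro k' hk'K hk'
      rw [hb] at hk'
      exact hu k' (hk' (T.self_mem_cc w)) hk'K
  obtain ⟨q, hq⟩ := T.at_nonempty hxO
  have hqz : q ∈ T.at_ z := T.at_sub_of_mem_cc hzx hq
  have hqK := sub_of hK hs hx hxf hq
  obtain ⟨e, b, hze, hsub, -⟩ := hfc q hqz hqK
  obtain ⟨e', b', hze', hsub', huni⟩ := hfc k hk hkK
  have hstart : fcK h3 hKu hKOu hsu () e b ∈ A :=
    ⟨(fcK_sub (h3 := h3) (hK := hKu) (hKO := hKOu) (hs := hsu) e b).1, q, hqK, hsub, hq⟩
  have hend := link_aux h3 hKu hKOu hsu hL hz A hcross e hze b hstart e' hze' b'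
  obtain ⟨-, q', hq'K, hq's, hxq'⟩ := hend
  rw [← huni q' hq'K hq's]
  exact hxq'

/-- **(ST)** (helper184 #10551) -/
theorem st (h3 : finrank ℝ E = 3) (hL : PC (frontier K)) (tr : Tr T K) {z : E}
    (hz : z ∈ frontier K) :
    ∃ x ∈ K, x ∉ frontier K ∧ z ∈ T.cc x ∧ T.dim x = T.dim z + 1 ∧
      ∀ y ∈ K, y ∉ frontier K → z ∈ T.cc y → x ∈ T.cc y := by
  obtain ⟨y0, hy0, hy0f, hzy0⟩ := exists_inn hK hKO hs hz
  obtain ⟨x, -, hxK, hxf, hzx, hxint, hdx⟩ := exists_next hK hKO hs tr hz _ y0 rfl hy0 hy0f hzy0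
  refine ⟨x, hxK, hxf, hzx, hdx, ?_⟩
  have hxO : x ∈ Om := hKO hxK
  have hzO : z ∈ Om := hKO (hK.closed.frontier_subset hz)
  have hd2 : T.dim z ≤ 2 := dim_le_two h3 hK hKO hs hz
  -- `x` is in every inner tile
  have key : ∀ k, k ∈ T.at_ z → P (T.H k) ⊆ K → x ∈ P (T.H k) := by
    intro k hk hkK
    rcases (by omega : T.dim z = 0 ∨ T.dim z = 1 ∨ T.dim z = 2) with h | h | h
    · exact mem_tile_zero hK hKO hs h3 hL tr hz h hxK hxf hzx (by omega) hk hkK
    · exact mem_tile_one hK hKO hs h3 tr hz h hxK hxf hzx (by omega) hk hkK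
    · obtain ⟨w, hw, hdw, hzw, -, hkw, hu⟩ := tile_face hK hKO hs h3 tr hz hk hkK
      have hwO : w ∈ Om := hKO (hK.closed.frontier_subset hw)
      obtain ⟨q, hq⟩ := T.at_nonempty hxO
      have hzoc : z ∈ T.oc w := by
        by_contra hcon
        have := T.dim_lt hzw hcon
        omega
      have hqz : q ∈ T.at_ z := T.at_sub_of_mem_cc hzx hq
      rw [T.at_eq_of_mem_oc hwO hzoc] at hqz
      rw [← hu q hqz (sub_of hK hs hxK hxf hq)]
      exact hq
  intro y hy hyf hzy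
  have hyO : y ∈ Om := hKO hy
  have hlt : T.dim z < T.dim y := T.dim_lt hzy (not_oc' hs hyO hz hyf)
  have hle : T.dim y ≤ 3 := h3 ▸ T.dim_le_finrank y
  rcases (by omega : T.dim y = 1 ∨ T.dim y = 2 ∨ T.dim y = 3) with h | h | h
  · have hz0 : T.dim z = 0 := by omega
    by_contra hcon
    -- three 1-cells in one inner 2-cell
    obtain ⟨q, hq⟩ := T.at_nonempty hxO
    have hqz : q ∈ T.at_ z := T.at_sub_of_mem_cc hzx hq
    have hqK := sub_of hK hs hxK hxf hq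
    obtain ⟨w, hw, hdw, hzw, -, hqw, -⟩ := tile_face hK hKO hs h3 tr hz hqz hqK
    obtain ⟨e, he1, he2, he3, he4⟩ := exists_edge hK hKO hs hw hdw hzw hz0
    set m := e.pt with hm
    have hmO : m ∈ Om := e.pt_mem
    have hmcc : T.cc m = e.set := e.set_eq.symm
    have hmf : m ∈ frontier K := he4 (hmcc ▸ T.self_mem_cc m)
    have hdm : T.dim m = 1 := he1
    have hzm : z ∈ T.cc m := hmcc ▸ he3
    obtain ⟨u0, hu0, hu0f, hmu0⟩ := exists_inn hK hKO hs hmf
    obtain ⟨u, -, huK, huf, hmu, -, hdu⟩ := exists_next hK hKO hs tr hmf _ u0 rfl hu0 hu0f hmu0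
    rw [hdm] at hdu
    obtain ⟨i, j, -, hcc, hi, hj, hiK, hjK, -⟩ := inn_two hK hKO hs h3 huK huf hmu hdu
    have hiz : i ∈ T.at_ z := T.cc_sub_tile hi hzm
    have hjz : j ∈ T.at_ z := T.cc_sub_tile hj hzm
    have hxu : x ∈ T.cc u := by rw [hcc]; exact ⟨key i hiz hiK, key j hjz hjK⟩
    have hyu : y ∈ T.cc u := by
      rw [hcc]
      exact ⟨mem_tile_zero hK hKO hs h3 hL tr hz hz0 hy hyf hzy h hiz hiK,
        mem_tile_zero hK hKO hs h3 hL tr hz hz0 hy hyf hzy h hjz hjK⟩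
    have huO : u ∈ Om := hKO huK
    have hzu : z ∈ T.cc u := T.cc_sub_of_mem hmu hzm
    have hn2 := T.two_edges huO hdu hzu hz0
    obtain ⟨g1, g2, hg, hset⟩ := Set.ncard_eq_two.1 hn2
    have m1 : e ∈ T.edgesAt u z := ⟨he1, by rw [← hmcc]; exact T.cc_sub_of_mem hmu, he3⟩
    have m2 : T.cl hxO ∈ T.edgesAt u z :=
      ⟨by rw [T.dim_cl]; omega, T.cc_sub_of_mem hxu, hzx⟩
    have m3 : T.cl hyO ∈ T.edgesAt u z :=
      ⟨by rw [T.dim_cl]; exact h, T.cc_sub_of_mem hyu, hzy⟩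
    rw [hset] at m1 m2 m3
    simp only [mem_insert_iff, mem_singleton_iff] at m1 m2 m3
    have n1 : e ≠ T.cl hxO := by
      intro h'
      apply hxf
      apply he4
      rw [h']
      exact T.self_mem_cc x
    have n2 : e ≠ T.cl hyO := by
      intro h'
      apply hyf
      apply he4
      rw [h']
      exact T.self_mem_cc y
    have n3 : T.cl hxO ≠ T.cl hyO := by
      intro h'
      apply hcon
      have : T.cc x = T.cc y := congrArg Tiling.Cell.set h'
      rw [← this]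
      exact T.self_mem_cc x
    rcases m1 with m1 | m1 <;> rcases m2 with m2 | m2 <;> rcases m3 with m3 | m3
    · exact n1 (m1.trans m2.symm)
    · exact n1 (m1.trans m2.symm)
    · exact n2 (m1.trans m3.symm)
    · exact n3 (m2.trans m3.symm)
    · exact n3 (m2.trans m3.symm)
    · exact n2 (m1.trans m3.symm)
    · exact n1 (m1.trans m2.symm)
    · exact n1 (m1.trans m2.symm)
  · obtain ⟨i, j, -, hcc, hi, hj, hiK, hjK, -⟩ := inn_two hK hKO hs h3 hy hyf hzy h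
    rw [hcc]
    exact ⟨key i hi hiK, key j hj hjK⟩
  · have hV : T.V y = ⊤ := Submodule.eq_top_of_finrank_eq (h.trans h3.symm)
    obtain ⟨i, hi⟩ := (T.V_eq_top_iff hyO).1 hV
    have hiy : i ∈ T.at_ y := I_sub_P _ hi
    rw [T.cc_eq_tile hi]
    exact key i (T.at_sub_of_mem_cc hzy hiy) (sub_of hK hs hy hyf hiy)

end

/-- the literal statement of #10551 -/
theorem st_of_tr (h3 : finrank ℝ E = 3) {Om : Set E} {ι : Type} {T : Tiling Om ι} {K : Set E}
    (hK : Core K) (hL : PC (frontier K)) (hKO : K ⊆ Om)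
    (hs : ∀ x ∈ frontier K, T.cc x ⊆ frontier K)
    (tr : ∀ x ∈ K, x ∉ frontier K → (T.cc x ∩ frontier K).Nonempty →
      ∃ y ∈ T.cc x, T.dim y + 1 = T.dim x ∧ T.cc x ∩ frontier K = T.cc y)
    {z : E} (hz : z ∈ frontier K) :
    ∃ x ∈ K, x ∉ frontier K ∧ z ∈ T.cc x ∧ T.dim x = T.dim z + 1 ∧
      ∀ y ∈ K, y ∉ frontier K → z ∈ T.cc y → x ∈ T.cc y :=
  st hK hKO hs h3 hL tr hz

/-- every inner point at `z` has `x` -/
theorem exists_inner_cell {Om : Set E} {ι : Type} {T : Tiling Om ι}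
    {K : Set E} (hK : Core K) (hKO : K ⊆ Om)
    (hs : ∀ x ∈ frontier K, T.cc x ⊆ frontier K)
    (tr : ∀ x ∈ K, x ∉ frontier K → (T.cc x ∩ frontier K).Nonempty →
      ∃ y ∈ T.cc x, T.dim y + 1 = T.dim x ∧ T.cc x ∩ frontier K = T.cc y)
    {z : E} (hz : z ∈ frontier K) {x : E} (hx : x ∈ K) (hxf : x ∉ frontier K)
    (hzx : z ∈ T.cc x) :
    ∃ x' ∈ T.cc x, x' ∈ K ∧ x' ∉ frontier K ∧ z ∈ T.cc x' ∧ T.cc x' ∩ frontier K = T.cc z ∧
      T.dim x' = T.dim z + 1 :=
  exists_next hK hKO hs tr hz _ x rfl hx hxf hzx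

end Crest.Agent.R096.St_471
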