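import Crest.Agent.R096.St1_147

/-!
# R096 / P3: `P3` from the exchange step (strong induction on the number of double points)
-/

set_option autoImplicit false

namespace Crest.Agent.R096.St_147

variable {ι Φ W I : Type} {M : MeshC ι Φ W} {col : I → Bool}

open St

theorem St.Dbl.ext' {s : St M col} {z z' : s.Dbl} (hF : z.F = z'.F) (he : ∀ x, z.e x = z'.e x) :
    z = z' := by
  cases z; cases z'
  simp only [St.Dbl.mk.injEq]
  exact ⟨hF, funext he⟩

instance St.finite_dbl (s : St M col) : Finite s.Dbl := by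
  classical
  have hfin : (⋃ w ∈ s.P, {F | w ∈ M.On F}).Finite :=
    Set.Finite.biUnion s.P.finite_toSet (fun w _ => M.fin w)
  have : Finite ((⋃ w ∈ s.P, {F | w ∈ M.On F}) : Set Φ) := hfin
  have : Finite {w // w ∈ s.P} := inferInstance
  refine Finite.of_injective
    (fun z : s.Dbl => ((⟨z.F, ?_⟩, fun x => ⟨z.e x, (z.at_ x).1⟩) :
      ((⋃ w ∈ s.P, {F | w ∈ M.On F}) : Set Φ) × (Bool → {w // w ∈ s.P}))) ?_
  · exact Set.mem_biUnion (z.at_ true).1 (z.at_ true).2
  · intro z z' h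
    simp only [Prod.mk.injEq, Subtype.mk.injEq] at h
    refine St.Dbl.ext' h.1 (fun x => ?_)
    have := congrFun h.2 x
    simpa using this

/-- the relation between a state and a simpler state -/
structure St.Le (Act : Set ι) (far : I → Set W) (s' s : St M col) : Prop where
  P_sub : s'.P ⊆ s.P
  frozen_P : ∀ F w, Frozen M Act F → w ∈ M.On F → (w ∈ s'.P ↔ w ∈ s.P)
  frozen_mu : ∀ F w, Frozen M Act F → s.At F w → s'.mu F w = s.mu F w
  free : ∀ F w, s.At F w → w ∈ far (s.lab w) → s.mu F w ∈ far (s.lab w) → s.Free F w →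
    s'.mu F w = s.mu F w ∧ s'.Free F w
  dbl : ∀ z : s'.Dbl, ∃ z₀ : s.Dbl, z₀.F = z.F ∧ ∀ x, s.lab (z₀.e x) = s'.lab (z.e x)

theorem St.Le.refl (Act : Set ι) (far : I → Set W) (s : St M col) : St.Le Act far s s where
  P_sub := Finset.Subset.refl _
  frozen_P := fun _ _ _ _ => Iff.rfl
  frozen_mu := fun _ _ _ _ => rfl
  free := fun _ _ _ _ _ h => ⟨rfl, h⟩
  dbl := fun z => ⟨z, rfl, fun _ => rfl⟩

theorem St.Le.trans {Act : Set ι} {far : I → Set W} {s'' s' s : St M col}
    (hg : s'.Good Act far) (h : St.Le Act far s'' s') (h' : St.Le Act far s' s) :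
    St.Le Act far s'' s where
  P_sub := h.P_sub.trans h'.P_sub
  frozen_P := fun F w hF hw => (h.frozen_P F w hF hw).trans (h'.frozen_P F w hF hw)
  frozen_mu := fun F w hF hw => by
    rw [h.frozen_mu F w hF ⟨(h'.frozen_P F w hF hw.2).2 hw.1, hw.2⟩, h'.frozen_mu F w hF hw]
  free := fun F w hw h1 h2 h3 => by
    obtain ⟨h4, h5⟩ := h'.free F w hw h1 h2 h3
    obtain ⟨h6, h7⟩ := hg.far_mem h1
    have h8 := h.free F w ⟨h6, hw.2⟩ (by rw [h7]; exact h1) (by rw [h7, h4]; exact h2) h5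
    exact ⟨h8.1.trans h4, h8.2⟩
  dbl := fun z => by
    obtain ⟨z₁, h1, h2⟩ := h.dbl z
    obtain ⟨z₂, h3, h4⟩ := h'.dbl z₁
    exact ⟨z₂, h3.trans h1, fun x => (h4 x).trans (h2 x)⟩

/-- **The exchange step**: a good state with a nonempty closed set of double arcs can be replaced
by a good state with fewer double points. -/
def StepStmt : Prop :=
  ∀ (ι Φ W I : Type) (M : MeshC ι Φ W) (col : I → Bool) (Act : Set ι), Act.Finite →
    ∀ (s : St M col) (far : I → Set W), s.Good Act far →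
    ∀ (A : s.Arcs Act) (G : Set s.Dbl), A.Closed G → G.Nonempty →
    ∃ s' : St M col, s'.Good Act far ∧ St.Le Act far s' s ∧ Nat.card s'.Dbl < Nat.card s.Dbl

theorem P3_of_step (hstep : StepStmt) : P3 := by
  intro ι Φ W I M col Act hAct s₀ far hg₀
  have key : ∀ n : ℕ, ∀ s : St M col, s.Good Act far → St.Le Act far s s₀ →
      Nat.card s.Dbl = n → ∃ s' : St M col, s'.Good Act far ∧ St.Le Act far s' s₀ ∧
        ∀ (A : s'.Arcs Act) (G : Set s'.Dbl), A.Closed G → G = ∅ := by
    intro n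
    induction n using Nat.strong_induction_on with
    | _ n ih =>
      intro s hg hle hn
      by_cases h : ∃ (A : s.Arcs Act) (G : Set s.Dbl), A.Closed G ∧ G.Nonempty
      · obtain ⟨A, G, hcl, hne⟩ := h
        obtain ⟨s', hg', hle', hlt⟩ := hstep ι Φ W I M col Act hAct s far hg A G hcl hne
        exact ih _ (hn ▸ hlt) s' hg' (hle'.trans hg hle) rfl
      · refine ⟨s, hg, hle, fun A G hcl => ?_⟩
        by_contra hG
        exact h ⟨A, G, hcl, Set.nonempty_iff_ne_empty.2 hG⟩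
  obtain ⟨s', hg', hle', hcl⟩ := key _ s₀ hg₀ (St.Le.refl Act far s₀) rfl
  exact ⟨s', hg', hle'.P_sub, hle'.frozen_P, hle'.frozen_mu, hle'.free, hle'.dbl,
    hcl⟩

end Crest.Agent.R096.St_147
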