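import Crest.Agent.R096.Wk2_689

/-!
# R096 / P3 / FACE (3): darts, the re-glued walk `tt G inn`, its orbits, the end darts `ed`
-/

set_option autoImplicit false

namespace Crest.Agent.R096.Wk_689
open St_147 Fx_689

variable {ι Φ W I : Type} {M : MeshC ι Φ W} {col : I → Bool}

/-- a sub-chord `p` of colour `x` with one of its ends (`b = true` : upper end) -/
structure Dart (s : St M col) where
  x : Bool
  p : s.Sub x
  b : Bool

variable {s : St M col}

/-- the other end of the same sub-chord -/
def flip (d : Dart s) : Dart s := ⟨d.x, d.p, !d.b⟩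

lemma flip_flip (d : Dart s) : flip (flip d) = d := by
  obtain ⟨x, p, b⟩ := d
  cases b <;> rfl

lemma flip_ne (d : Dart s) : flip d ≠ d := by
  obtain ⟨x, p, b⟩ := d
  intro h
  have h1 := congrArg Dart.b h
  cases b <;> simp [flip] at h1

/-- the sub-chord above `z` on the chord of colour `x` -/
def abv (z : s.Dbl) (x : Bool) : s.Sub x := Sum.inr z

/-- the dart of colour `x` at the double point `z`: `b = true`: the upper end of the sub-chord
below `z`; `b = false`: the lower end of the sub-chord above `z` -/
noncomputable def dz (z : s.Dbl) (x : Bool) : Bool → Dart s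
  | true => ⟨x, bel z x, true⟩
  | false => ⟨x, abv z x, false⟩

@[simp] lemma dz_x (z : s.Dbl) (x b : Bool) : (dz z x b).x = x := by cases b <;> rfl
@[simp] lemma dz_b (z : s.Dbl) (x b : Bool) : (dz z x b).b = b := by cases b <;> rfl

/-- double point above a sub-chord -/
noncomputable def nxt {x : Bool} (p : s.Sub x) : Option s.Dbl := by
  classical
  exact if h : ∃ z, p.Below z then some h.choose else none

/-- double point below a sub-chord -/
def prv {x : Bool} (p : s.Sub x) : Option s.Dbl :=
  match p with
  | .inl _ => none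
  | .inr z => some z

lemma nxt_some {x : Bool} {p : s.Sub x} {z : s.Dbl} : nxt p = some z ↔ p = bel z x := by
  unfold nxt
  split_ifs with h
  · constructor
    · intro h1
      have h2 : h.choose = z := Option.some.inj h1
      have h3 := h.choose_spec
      rw [h2] at h3
      exact below_iff.1 h3
    · intro h1
      congr 1
      have := below_iff.2 h1
      exact below_inj h.choose_spec this
  · constructor
    · intro h1; exact absurd h1 (by simp)
    · intro h1; exact absurd ⟨z, below_iff.2 h1⟩ h

lemma nxt_none {x : Bool} {p : s.Sub x} : nxt p = none ↔ IsTop p := by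
  unfold nxt
  split_ifs with h
  · constructor
    · intro h1; exact absurd h1 (by simp)
    · intro h1; obtain ⟨z, hz⟩ := h; exact absurd hz (h1 z)
  · constructor
    · intro _ z hz; exact h ⟨z, hz⟩
    · intro _; rfl

lemma prv_some {x : Bool} {p : s.Sub x} {z : s.Dbl} : prv p = some z ↔ p = abv z x := by
  cases p with
  | inl a =>
    constructor
    · intro h; exact absurd h (by simp [prv])
    · intro h; exact absurd h (by simp [abv])
  | inr y =>
    constructor
    · intro h
      have : y = z := Option.some.inj h
      rw [this]; rfl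
    · intro h
      have : y = z := Sum.inr.inj h
      rw [this]; rfl

/-- the double point at which the dart ends (none: an end point of the chord) -/
noncomputable def node (d : Dart s) : Option s.Dbl :=
  match d.b with
  | true => nxt d.p
  | false => prv d.p

lemma node_dz (z : s.Dbl) (x b : Bool) : node (dz z x b) = some z := by
  cases b
  · rfl
  · exact nxt_some.2 rfl

lemma eq_dz {d : Dart s} {z : s.Dbl} (h : node d = some z) : d = dz z d.x d.b := by
  obtain ⟨x, p, b⟩ := d
  cases b
  · have h' : prv p = some z := h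
    rw [prv_some] at h'
    subst h'; rfl
  · have h' : nxt p = some z := h
    rw [nxt_some] at h'
    subst h'; rfl

lemma dz_inj {z z' : s.Dbl} {x x' b b' : Bool} (h : dz z x b = dz z' x' b') :
    z = z' ∧ x = x' ∧ b = b' := by
  refine ⟨?_, ?_, ?_⟩
  · have := congrArg node h
    rw [node_dz, node_dz] at this
    exact Option.some.inj this
  · simpa using congrArg Dart.x h
  · simpa using congrArg Dart.b h

/-- `inn z x = true`: the inner half of the chord of colour `x` at `z` is the one above `z`.
The two darts of colour `x` at `z`: -/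
noncomputable def inD (inn : s.Dbl → Bool → Bool) (z : s.Dbl) (x : Bool) : Dart s :=
  dz z x (!inn z x)

noncomputable def outD (inn : s.Dbl → Bool → Bool) (z : s.Dbl) (x : Bool) : Dart s :=
  dz z x (inn z x)

open Classical in
/-- the walk at the double points: straight on outside `G`; at `z ∈ G` the outer half of each
colour is glued to the inner half of the other colour; fixed at the end points of the chords -/
noncomputable def tt (G : Set s.Dbl) (inn : s.Dbl → Bool → Bool) (d : Dart s) : Dart s :=
  match node d with
  | none => d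
  | some z => if z ∈ G then dz z (!d.x) (!((d.b ^^ inn z d.x) ^^ inn z (!d.x)))
      else dz z d.x (!d.b)

variable {G : Set s.Dbl} {inn : s.Dbl → Bool → Bool}

lemma tt_none {d : Dart s} (h : node d = none) : tt G inn d = d := by
  unfold tt; rw [h]

lemma tt_dz_in {z : s.Dbl} (hz : z ∈ G) (x b : Bool) :
    tt G inn (dz z x b) = dz z (!x) (!((b ^^ inn z x) ^^ inn z (!x))) := by
  unfold tt; rw [node_dz]
  simp only [if_pos hz, dz_x, dz_b]

lemma tt_dz_out {z : s.Dbl} (hz : z ∉ G) (x b : Bool) :
    tt G inn (dz z x b) = dz z x (!b) := by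
  unfold tt; rw [node_dz]
  simp only [if_neg hz, dz_x, dz_b]

lemma tt_outD {z : s.Dbl} (hz : z ∈ G) (x : Bool) :
    tt G inn (outD inn z x) = inD inn z (!x) := by
  unfold outD inD
  rw [tt_dz_in hz]
  simp

lemma tt_inD {z : s.Dbl} (hz : z ∈ G) (x : Bool) :
    tt G inn (inD inn z x) = outD inn z (!x) := by
  unfold outD inD
  rw [tt_dz_in hz]
  simp

lemma tt_tt (d : Dart s) : tt G inn (tt G inn d) = d := by
  rcases hn : node d with _ | z
  · rw [tt_none (d := d) hn, tt_none hn]
  · have key : ∀ x b : Bool, tt G inn (tt G inn (dz z x b)) = dz z x b := by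
      intro x b
      by_cases hz : z ∈ G
      · rw [tt_dz_in hz, tt_dz_in hz, Bool.not_not]
        congr 1
        cases b <;> cases inn z x <;> cases inn z (!x) <;> rfl
      · rw [tt_dz_out hz, tt_dz_out hz, Bool.not_not]
    have := key d.x d.b
    rwa [← eq_dz hn] at this

lemma tt_ne {d : Dart s} {z : s.Dbl} (h : node d = some z) : tt G inn d ≠ d := by
  have key : ∀ x b : Bool, tt G inn (dz z x b) ≠ dz z x b := by
    intro x b
    by_cases hz : z ∈ G
    · rw [tt_dz_in hz]
      intro h'
      have := (dz_inj h').2.1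
      cases x <;> simp at this
    · rw [tt_dz_out hz]
      intro h'
      have := (dz_inj h').2.2
      cases b <;> simp at this
  have := key d.x d.b
  rwa [← eq_dz h] at this

lemma tt_eq_iff {d : Dart s} : tt G inn d = d ↔ node d = none := by
  constructor
  · intro h
    rcases hn : node d with _ | z
    · rfl
    · exact absurd h (tt_ne hn)
  · exact tt_none

/-- the face of a dart -/
def fc (d : Dart s) : Φ := (chd d.p).1

/-- the end point of the chord on the side of the dart -/
def pt (d : Dart s) : W :=
  match d.b with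
  | true => s.mu (chd d.p).1 (chd d.p).2
  | false => (chd d.p).2

lemma fc_flip (d : Dart s) : fc (flip d) = fc d := rfl

lemma fc_dz (z : s.Dbl) (x b : Bool) : fc (dz z x b) = z.F := by
  cases b
  · rfl
  · show (chd (bel z x)).1 = z.F
    rw [below_chd (bel_spec z x)]

lemma fc_tt (d : Dart s) : fc (tt G inn d) = fc d := by
  rcases hn : node d with _ | z
  · rw [tt_none hn]
  · have h := eq_dz hn
    rw [h, fc_dz]
    by_cases hz : z ∈ G
    · rw [tt_dz_in hz, fc_dz]
    · rw [tt_dz_out hz, fc_dz]

lemma pt_at (d : Dart s) : s.At (fc d) (pt d) := by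
  obtain ⟨x, p, b⟩ := d
  cases b
  · exact chd_at p
  · exact At.mu s (chd_at p)

/-- one step of the walk -/
def Step (G : Set s.Dbl) (inn : s.Dbl → Bool → Bool) (d d' : Dart s) : Prop :=
  d' = flip d ∨ d' = tt G inn d

/-- the pieces of the re-glued chords -/
def Orb (G : Set s.Dbl) (inn : s.Dbl → Bool → Bool) : Type := Quot (Step G inn)

def orb (G : Set s.Dbl) (inn : s.Dbl → Bool → Bool) (d : Dart s) : Orb G inn :=
  Quot.mk (Step G inn) d

lemma orb_flip (d : Dart s) : orb G inn (flip d) = orb G inn d :=
  (Quot.sound (r := Step G inn) (Or.inl rfl)).symm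

lemma orb_tt (d : Dart s) : orb G inn (tt G inn d) = orb G inn d :=
  (Quot.sound (r := Step G inn) (Or.inr rfl)).symm

/-- the label of a sub-chord -/
def lb (G : Set s.Dbl) (inn : s.Dbl → Bool → Bool) {x : Bool} (p : s.Sub x) : Orb G inn :=
  orb G inn ⟨x, p, false⟩

lemma orb_eq_lb (d : Dart s) : orb G inn d = lb G inn d.p := by
  obtain ⟨x, p, b⟩ := d
  cases b
  · rfl
  · exact orb_flip (⟨x, p, false⟩ : Dart s)

/-- face of an orbit -/
def Orb.fc : Orb G inn → Φ := Quot.lift Wk_689.fc (by
  rintro d d' (rfl | rfl)
  · rfl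
  · exact (fc_tt d).symm)

lemma fc_orb (d : Dart s) : (orb G inn d).fc = fc d := rfl

/-- there is an end dart -/
lemma exists_ed {F : Φ} {w : W} (h : s.At F w) :
    ∃ d : Dart s, node d = none ∧ fc d = F ∧ pt d = w := by
  rcases lt_or_gt_of_ne (pos_ne s h (At.mu s h) (fun h' => s.mu_ne h.1 h.2 h'.symm)) with hl | hl
  · exact ⟨⟨col (s.lab w), Sum.inl ⟨(F, w), h, hl, rfl⟩, false⟩, rfl, rfl, rfl⟩
  · obtain ⟨p, hp, ht⟩ := exists_top (At.mu s h) (by rw [s.mu_mu h.1 h.2]; exact hl)
    refine ⟨⟨_, p, true⟩, nxt_none.2 ht, ?_, ?_⟩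
    · show (chd p).1 = F
      rw [hp]
    · show s.mu (chd p).1 (chd p).2 = w
      rw [hp]
      exact s.mu_mu h.1 h.2

/-- end darts are determined by their face and their point -/
lemma ed_unique {d d' : Dart s} (h : node d = none) (h' : node d' = none) (hf : fc d = fc d')
    (hp : pt d = pt d') : d = d' := by
  obtain ⟨x, p, b⟩ := d
  obtain ⟨x', p', b'⟩ := d'
  have hlo : ∀ (x : Bool) (p : s.Sub x) (b : Bool),
      s.lo (fc (⟨x, p, b⟩ : Dart s)) (pt (⟨x, p, b⟩ : Dart s)) = (chd p).2 := by
    intro x p b
    cases b
    · exact lo_eq_of_lt (chd_low p)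
    · exact lo_mu_of_lt (chd_at p) (chd_low p)
  have hc : chd p = chd p' := by
    apply Prod.ext
    · exact hf
    · rw [← hlo x p b, ← hlo x' p' b', hf, hp]
  have hx : x = x' := by
    rw [← chd_col p, ← chd_col p', hc]
  subst hx
  have hb : b = b' := by
    have e1 : pt (⟨x, p, b⟩ : Dart s) = pt (⟨x, p', b'⟩ : Dart s) := hp
    have hne : ∀ q : s.Sub x, s.mu (chd q).1 (chd q).2 ≠ (chd q).2 := fun q =>
      s.mu_ne (chd_at q).1 (chd_at q).2
    cases b <;> cases b'
    · rfl
    · exfalso
      have e2 : (chd p).2 = s.mu (chd p').1 (chd p').2 := e1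
      rw [hc] at e2
      exact hne p' e2.symm
    · exfalso
      have e2 : s.mu (chd p).1 (chd p).2 = (chd p').2 := e1
      rw [← hc] at e2
      exact hne p e2
    · rfl
  subst hb
  have hpp : p = p' := by
    cases b
    · cases p with
      | inl a =>
        cases p' with
        | inl a' => congr 1; exact Subtype.ext hc
        | inr z' => exact absurd h' (by simp [node, prv])
      | inr z => exact absurd h (by simp [node, prv])
    · exact top_unique (nxt_none.1 h) (nxt_none.1 h') hc
  rw [hpp]

/-- the end dart of the chord of `w` on `F` at `w` -/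
noncomputable def ed {F : Φ} {w : W} (h : s.At F w) : Dart s := (exists_ed h).choose

lemma node_ed {F : Φ} {w : W} (h : s.At F w) : node (ed h) = none := (exists_ed h).choose_spec.1
lemma fc_ed {F : Φ} {w : W} (h : s.At F w) : fc (ed h) = F := (exists_ed h).choose_spec.2.1
lemma pt_ed {F : Φ} {w : W} (h : s.At F w) : pt (ed h) = w := (exists_ed h).choose_spec.2.2

lemma eq_ed {d : Dart s} (h : node d = none) {F : Φ} {w : W} (hF : fc d = F) (hw : pt d = w)
    (hat : s.At F w) : d = ed hat :=
  ed_unique h (node_ed hat) (hF.trans (fc_ed hat).symm) (hw.trans (pt_ed hat).symm)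

/-- colour of an end dart -/
lemma x_ed {F : Φ} {w : W} (h : s.At F w) : (ed h).x = col (s.lab w) := by
  have h1 := chd_col (ed h).p
  have h2 : s.lab (pt (ed h)) = s.lab (chd (ed h).p).2 := by
    unfold pt
    split
    · exact s.mu_lab (chd_at (ed h).p).1 (chd_at (ed h).p).2
    · rfl
  rw [← h1, ← h2, pt_ed h]

end Crest.Agent.R096.Wk_689
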