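import Crest.Agent.R096.St2_147
import Crest.Agent.R096.Wk3_689

/-!
# R096 / P3: the exchange step by functions on darts: definitions and the four intermediate Props

`SepOf`   : `H1 → Sep` and `Sep → H1` (File B)
`Ref`     : refined Sep (File C)
`DD`      : inner discs (File D)
`Nms`     : names of the new sheets and Sep for them (File E)
-/

set_option autoImplicit false

namespace Crest.Agent.R096.St_147

open Wk_689

variable {ι Φ W I : Type} {M : MeshC ι Φ W} {col : I → Bool}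

/-- faces at a point -/
noncomputable def MeshC.fs (M : MeshC ι Φ W) (w : W) : Finset Φ := (M.fin w).toFinset

theorem MeshC.mem_fs {w : W} {F : Φ} : F ∈ M.fs w ↔ w ∈ M.On F := by
  simp [MeshC.fs]

/-- dual (tile) form of `H1`: a set of chords of sheet `i` (as a function `θ`), even at every point,
is the boundary of a function `c` on the tiles (`c q w` = value of the tile of `w` in the cell `q`). -/
def St.Sep (s : St M col) (i : I) : Prop :=
  ∀ θ : Φ → W → ZMod 2,
    (∀ F w, s.At F w → s.lab w = i → θ F (s.mu F w) = θ F w) →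
    (∀ w ∈ s.P, s.lab w = i → ∑ F ∈ M.fs w, θ F w = 0) →
    ∃ c : ι → W → ZMod 2,
      (∀ q F w, q ∈ M.side F → s.At F w → s.lab w = i → c q (s.mu F w) = c q w) ∧
      ∀ F w q q', M.side F = s(q, q') → s.At F w → s.lab w = i → θ F w = c q w + c q' w

variable {s : St M col}

open Classical in
/-- value of a function on darts at the end dart of `w` on `F` -/
noncomputable def edv (f : Dart s → ZMod 2) (F : Φ) (w : W) : ZMod 2 :=
  if h : s.At F w then f (ed h) else 0

theorem edv_eq {f : Dart s → ZMod 2} {F : Φ} {w : W} (h : s.At F w) : edv f F w = f (ed h) := by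
  unfold edv
  rw [dif_pos h]

/-- functions on pieces which are even at the points of `P` -/
structure Even (t : Dart s → ZMod 2) : Prop where
  fl : ∀ d, t (flip d) = t d
  ev : ∀ w ∈ s.P, ∑ F ∈ M.fs w, edv t F w = 0

/-- a jump function on the double arcs of the active cells -/
structure ArcFn {Act : Set ι} (A : s.Arcs Act) (a : Bool → ι → s.Dbl → ZMod 2) : Prop where
  off : ∀ x q z, q ∉ Act → a x q z = 0
  inv : ∀ x q z, q ∈ Act → q ∈ M.side z.F → a x q (A.arc q z) = a x q z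

/-- `c` = tile functions of the complex refined along the arcs, with jump `a` at the arcs and
boundary `t` -/
structure Ref {Act : Set ι} (A : s.Arcs Act) (τ : Bool → ι → s.Dbl → ZMod 2)
    (t : Dart s → ZMod 2) (a : Bool → ι → s.Dbl → ZMod 2) (c : ι → Dart s → ZMod 2) : Prop where
  fl : ∀ q d, c q (flip d) = c q d
  cont : ∀ (q : ι) (F F' : Φ) (w : W) (h : s.At F w) (h' : s.At F' w), q ∈ M.side F →
    q ∈ M.side F' → c q (ed h) = c q (ed h')
  jump : ∀ q x (z : s.Dbl), q ∈ M.side z.F → c q (dz z x true) + c q (dz z x false) = a x q z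
  bd : ∀ d q q', M.side (fc d) = s(q, q') → t d = c q d + c q' d
  arc : ∀ q x (z : s.Dbl), q ∈ Act → q ∈ M.side z.F →
    c q (dz z x false) + c q (dz (A.arc q z) x false) = a x q z * τ x q z

/-- **refined Sep** (File C) -/
def RefStmt {Act : Set ι} (A : s.Arcs Act) (τ : Bool → ι → s.Dbl → ZMod 2) : Prop :=
  ∀ (t : Dart s → ZMod 2) (a : Bool → ι → s.Dbl → ZMod 2), Even t → ArcFn A a →
    (∀ x (z : s.Dbl) q q', M.side z.F = s(q, q') →
      t (dz z x true) + t (dz z x false) = a x q z + a x q' z) →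
    ∃ c, Ref A τ t a c

/-- the largest closed set of double points -/
def St.Arcs.mx {Act : Set ι} (A : s.Arcs Act) : Set s.Dbl := ⋃₀ {G | A.Closed G}

theorem St.Arcs.mx_closed {Act : Set ι} (A : s.Arcs Act) : A.Closed A.mx := by
  rintro z ⟨G, hG, hz⟩ q hq
  obtain ⟨h1, h2⟩ := hG z hz q hq
  exact ⟨h1, G, hG, h2⟩

theorem St.Arcs.sub_mx {Act : Set ι} (A : s.Arcs Act) {G : Set s.Dbl} (h : A.Closed G) :
    G ⊆ A.mx := fun _ hz => ⟨G, h, hz⟩

/-- the double curve of `z` -/
def St.Arcs.cv {Act : Set ι} (A : s.Arcs Act) (z : s.Dbl) : Set s.Dbl :=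
  {z' | Relation.ReflTransGen (fun u v : s.Dbl => ∃ q ∈ M.side u.F, v = A.arc q u) z z'}

/-- inner discs of the closed double curves in `G` (curves are named by any of their points) -/
structure DD {Act : Set ι} (A : s.Arcs Act) (τ : Bool → ι → s.Dbl → ZMod 2) (G : Set s.Dbl)
    (far : I → Set W) (D : s.Dbl → Bool → Dart s → ZMod 2) : Prop where
  congr : ∀ z ∈ G, ∀ z' ∈ A.cv z, D z' = D z
  supp : ∀ z ∈ G, ∀ x d, D z x d ≠ 0 → d.x = x ∧ s.lab (pt d) = s.lab (z.e x)
  fl : ∀ z ∈ G, ∀ x d, D z x (flip d) = D z x d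
  cont : ∀ z ∈ G, ∀ x (F F' : Φ) (w : W) (h : s.At F w) (h' : s.At F' w),
    D z x (ed h) = D z x (ed h')
  jump_in : ∀ z ∈ G, ∀ u ∈ A.cv z, ∀ x, D z x (dz u x true) + D z x (dz u x false) = 1
  jump_out : ∀ z ∈ G, ∀ u ∉ A.cv z, ∀ x, D z x (dz u x true) = D z x (dz u x false)
  along : ∀ z ∈ G, ∀ u ∉ A.cv z, ∀ x q, q ∈ Act → q ∈ M.side u.F →
    D z x (dz u x false) = D z x (dz (A.arc q u) x false)
  tau : ∀ z ∈ G, ∀ u ∈ A.cv z, ∀ x q, q ∈ M.side u.F →
    D z x (dz u x false) + D z x (dz (A.arc q u) x false) = τ x q u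
  far0 : ∀ z ∈ G, ∀ x i (F : Φ) (w : W) (h : s.At F w), w ∈ far i → D z x (ed h) = 0
  out : ∀ z ∈ G, ∀ u ∉ G, ∀ x b, D z x (dz u x b) = 0
  lam : ∀ z ∈ G, ∀ z' ∈ G, ∀ x d, D z x d = 1 → D z' x d = 1 →
    (∀ d', D z x d' = 1 → D z' x d' = 1) ∨ (∀ d', D z' x d' = 1 → D z x d' = 1)

/-- names of the new sheets (`none` = discarded) and Sep for them -/
structure Nms (s : St M col) (G : Set s.Dbl) (far : I → Set W) (inn : s.Dbl → Bool → Bool)
    (nm : Dart s → Option I) : Prop where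
  fl : ∀ d, nm (flip d) = nm d
  tt : ∀ d, nm (tt G inn d) = nm d
  cont : ∀ (F F' : Φ) (w : W) (h : s.At F w) (h' : s.At F' w), nm (ed h) = nm (ed h')
  out : ∀ z ∉ G, ∀ x b, nm (dz z x b) = some (s.lab (z.e x))
  far : ∀ i (F : Φ) (w : W) (h : s.At F w), w ∈ far i → nm (ed h) = some i
  sep : ∀ t : Dart s → ZMod 2, Even t → (∀ d, t (Wk_689.tt G inn d) = t d) →
    (∀ d, nm d = none → t d = 0) →
    ∃ c : ι → Dart s → ZMod 2, (∀ q d, c q (flip d) = c q d) ∧
      (∀ q d, nm d ≠ none → q ∈ M.side (fc d) → c q (Wk_689.tt G inn d) = c q d) ∧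
      (∀ (q : ι) (F F' : Φ) (w : W) (h : s.At F w) (h' : s.At F' w), q ∈ M.side F →
        q ∈ M.side F' → c q (ed h) = c q (ed h')) ∧
      ∀ d q q', M.side (fc d) = s(q, q') → t d = c q d + c q' d

end Crest.Agent.R096.St_147
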