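import Crest.Agent.R096.St3_147

/-!
# R096 / P3: refined Sep (`RefStmt`) from `Sep` of every sheet and the side functions of `Arcs`
-/

set_option autoImplicit false

namespace Crest.Agent.R096.St_147

open Wk_689

variable {ι Φ W I : Type} {M : MeshC ι Φ W} {col : I → Bool} {s : St M col}

theorem add_self2 (a : ZMod 2) : a + a = 0 := CharTwo.add_self_eq_zero a

theorem eq_of_add2 {a b : ZMod 2} (h : a + b = 0) : a = b := by
  have := congrArg (· + b) h
  simpa [add_assoc, add_self2] using this

theorem add_of_eq2 {a b : ZMod 2} (h : a = b) : a + b = 0 := by rw [h, add_self2]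

/-- sum over the two sides of a face -/
def ss (e : Sym2 ι) (f : ι → ZMod 2) : ZMod 2 :=
  Sym2.lift ⟨fun a b => f a + f b, fun _ _ => add_comm _ _⟩ e

theorem ss_mk (a b : ι) (f : ι → ZMod 2) : ss s(a, b) f = f a + f b := rfl

theorem ss_add (e : Sym2 ι) (f g : ι → ZMod 2) : ss e (fun q => f q + g q) = ss e f + ss e g := by
  induction e with
  | _ a b => simp only [ss_mk]; ring

theorem ss_congr {e : Sym2 ι} {f g : ι → ZMod 2} (h : ∀ q ∈ e, f q = g q) : ss e f = ss e g := by
  induction e with
  | _ a b => simp only [ss_mk]; rw [h a (Sym2.mem_mk_left a b), h b (Sym2.mem_mk_right a b)]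

open Classical in
theorem ss_eq_sum {e : Sym2 ι} (he : ¬ e.IsDiag) (f : ι → ZMod 2) (Q : Finset ι)
    (hQ : ∀ q ∈ e, q ∈ Q) : ss e f = ∑ q ∈ Q, if q ∈ e then f q else 0 := by
  induction e with
  | _ a b =>
    have hab : a ≠ b := by simpa using he
    rw [ss_mk, ← Finset.sum_filter]
    have : Q.filter (fun q => q ∈ s(a, b)) = {a, b} := by
      ext q
      simp only [Finset.mem_filter, Sym2.mem_iff, Finset.mem_insert, Finset.mem_singleton]
      constructor
      · exact fun h => h.2
      · rintro (rfl | rfl)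
        · exact ⟨hQ _ (Sym2.mem_mk_left _ _), Or.inl rfl⟩
        · exact ⟨hQ _ (Sym2.mem_mk_right _ _), Or.inr rfl⟩
    rw [this, Finset.sum_pair hab]

/-- telescoping around a point -/
theorem sum_link (M : MeshC ι Φ W) (w : W) (β : ι → Φ → ZMod 2)
    (hβ : ∀ q F F', q ∈ M.side F → q ∈ M.side F' → w ∈ M.On F → w ∈ M.On F' → β q F = β q F') :
    ∑ F ∈ M.fs w, ss (M.side F) (fun q => β q F) = 0 := by
  classical
  let Q : Finset ι := (M.fs w).biUnion (fun F => (M.side F).toFinset)
  have hQ : ∀ F ∈ M.fs w, ∀ q ∈ M.side F, q ∈ Q := by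
    intro F hF q hq
    exact Finset.mem_biUnion.2 ⟨F, hF, Sym2.mem_toFinset.2 hq⟩
  rw [Finset.sum_congr rfl (fun F hF => ss_eq_sum (M.side_nd F) (fun q => β q F) Q (hQ F hF))]
  rw [Finset.sum_comm]
  apply Finset.sum_eq_zero
  intro q _
  rw [← Finset.sum_filter]
  have hcard : ((M.fs w).filter (fun F => q ∈ M.side F)).card = 0 ∨
      ((M.fs w).filter (fun F => q ∈ M.side F)).card = 2 := by
    have h := M.deg q w
    have e : {F | q ∈ M.side F ∧ w ∈ M.On F} = ↑((M.fs w).filter (fun F => q ∈ M.side F)) := by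
      ext F
      simp only [Set.mem_ofPred_eq, Finset.coe_filter, MeshC.mem_fs]
      tauto
    rwa [e, Set.ncard_coe_finset] at h
  rcases hcard with h | h
  · rw [Finset.card_eq_zero.1 h, Finset.sum_empty]
  · obtain ⟨F, F', hne, hFF⟩ := Finset.card_eq_two.1 h
    have h1 : F ∈ (M.fs w).filter (fun F => q ∈ M.side F) := by rw [hFF]; simp
    have h2 : F' ∈ (M.fs w).filter (fun F => q ∈ M.side F) := by rw [hFF]; simp
    rw [hFF, Finset.sum_pair hne]
    rw [Finset.mem_filter, MeshC.mem_fs] at h1 h2
    rw [hβ q F F' h1.2 h2.2 h1.1 h2.1, add_self2]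

/-! ### darts -/

theorem lo_pt (d : Dart s) : s.lo (fc d) (pt d) = (chd d.p).2 := by
  obtain ⟨x, p, b⟩ := d
  cases b
  · exact lo_eq_of_lt (chd_low p)
  · exact lo_mu_of_lt (chd_at p) (chd_low p)

theorem lab_pt (d : Dart s) : s.lab (pt d) = s.lab (chd d.p).2 := by
  obtain ⟨x, p, b⟩ := d
  cases b
  · rfl
  · exact s.mu_lab (chd_at p).1 (chd_at p).2

theorem pt_flip (d : Dart s) : pt (flip d) = s.mu (fc d) (pt d) := by
  obtain ⟨x, p, b⟩ := d
  cases b
  · rfl
  · exact (s.mu_mu (chd_at p).1 (chd_at p).2).symm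

theorem x_eq (d : Dart s) : d.x = col (s.lab (pt d)) := by
  rw [lab_pt]
  exact (chd_col d.p).symm

theorem chd_ed {F : Φ} {w : W} (h : s.At F w) : chd (ed h).p = (F, s.lo F w) := by
  apply Prod.ext
  · exact fc_ed h
  · have := lo_pt (ed h)
    rw [fc_ed, pt_ed] at this
    exact this.symm

/-- the end dart of `w` on `F`, with its colour and the `End` property -/
theorem ed_form {F : Φ} {w : W} (h : s.At F w) :
    ∃ (p : s.Sub (col (s.lab w))) (b : Bool), ed h = ⟨col (s.lab w), p, b⟩ ∧ p.End F w := by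
  have hx := x_ed h
  have hn := node_ed h
  have hf := fc_ed h
  have hp := pt_ed h
  generalize ed h = d0 at hx hn hf hp
  obtain ⟨x, p, b⟩ := d0
  simp only at hx
  subst hx
  refine ⟨p, b, rfl, h, ?_⟩
  cases b
  · -- lower end
    left
    have h1 : (chd p).2 = w := hp
    have h2 : (chd p).1 = F := hf
    have h3 := chd_low p
    rw [h1, h2] at h3
    refine ⟨h3, ?_⟩
    cases p with
    | inl a => exact ⟨a, rfl, Prod.ext h2 h1⟩
    | inr z => exact absurd hn (by simp [node, prv])
  · right
    have h1 : s.mu (chd p).1 (chd p).2 = w := hp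
    have h2 : (chd p).1 = F := hf
    have h3 := chd_low p
    have h1' : s.mu F (chd p).2 = w := by rw [← h2]; exact h1
    have hat : s.At F (chd p).2 := by rw [← h2]; exact chd_at p
    have h4 : (chd p).2 = s.mu F w := by
      calc (chd p).2 = s.mu F (s.mu F (chd p).2) := (s.mu_mu hat.1 hat.2).symm
        _ = s.mu F w := congrArg (s.mu F) h1'
    have h3' : M.pos F (s.mu F w) < M.pos F w := by
      calc M.pos F (s.mu F w) = M.pos F (chd p).2 := by rw [h4]
        _ = M.pos (chd p).1 (chd p).2 := by rw [h2]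
        _ < M.pos (chd p).1 (s.mu (chd p).1 (chd p).2) := h3
        _ = M.pos F (s.mu (chd p).1 (chd p).2) := by rw [h2]
        _ = M.pos F w := congrArg (M.pos F) h1
    refine ⟨h3', ?_⟩
    have ht : IsTop p := nxt_none.1 hn
    cases p with
    | inl a =>
      refine ⟨Prod.ext h2 h4, ?_⟩
      intro u hu hu2
      have h5 := top_iff.1 ht (Sum.inr u) (Prod.ext (hu.trans h2.symm) (hu2.trans h4.symm))
      have h6 := (key_mem u (col (s.lab w))).1
      simp only [start] at h5
      have e1 : a.1.1 = u.F := h2.trans hu.symm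
      have e2 : a.1.2 = u.e (col (s.lab w)) := h4.trans hu2.symm
      rw [e1, e2] at h5
      exact absurd h6 (not_lt.2 h5)
    | inr z =>
      refine ⟨h2, h4, ?_⟩
      intro u hu hu2 hlt
      have h5 := top_iff.1 ht (Sum.inr u) (Prod.ext (hu.trans h2.symm) (hu2.trans h4.symm))
      simp only [start] at h5
      exact absurd hlt (not_lt.2 h5)

/-- a function on pieces without jumps is constant along chords -/
theorem chord_const {α : Type} {g : Dart s → α} (hfl : ∀ d, g (flip d) = g d) {F : Φ} {x : Bool}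
    {a : W} (hj : ∀ z : s.Dbl, z.F = F → z.e x = a → g (dz z x true) = g (dz z x false))
    {d d' : Dart s} (hd : chd d.p = (F, a)) (hd' : chd d'.p = (F, a)) (hx : d.x = x)
    (hx' : d'.x = x) : g d = g d' := by
  have wf : WellFounded (fun u v : s.Dbl => u.key x < v.key x) := by
    have : IsTrans s.Dbl (fun u v : s.Dbl => u.key x < v.key x) := ⟨fun _ _ _ h h' => h.trans h'⟩
    have : Std.Irrefl (fun u v : s.Dbl => u.key x < v.key x) := ⟨fun _ h => lt_irrefl _ h⟩
    exact Finite.wellFounded_of_trans_of_irrefl _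
  have hb : ∀ (p : s.Sub x) (b b' : Bool), g ⟨x, p, b⟩ = g ⟨x, p, b'⟩ := by
    intro p b b'
    by_cases h : b = b'
    · rw [h]
    · have h1 : b' = !b := by cases b <;> cases b' <;> simp_all
      rw [h1]
      exact (hfl ⟨x, p, b⟩).symm
  have key : ∀ z : s.Dbl, z.F = F → z.e x = a → g ⟨x, Sum.inr z, false⟩ = g ⟨x, fst z x, false⟩ := by
    intro z
    induction z using wf.induction with
    | _ z ih =>
      intro hF ha
      have h1 : g ⟨x, Sum.inr z, false⟩ = g ⟨x, bel z x, true⟩ := (hj z hF ha).symm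
      rw [h1, hb _ true false]
      have h2 := bel_spec z x
      rcases hbel : bel z x with c | y
      · rw [hbel] at h2
        congr 1
        have : (Sum.inl c : s.Sub x) = fst z x := by
          unfold fst
          congr 1
          exact Subtype.ext (Prod.ext h2.1 h2.2.1)
        rw [this]
      · rw [hbel] at h2
        have h3 := ih y h2.2.2.1 (h2.1.symm.trans hF) (h2.2.1.symm.trans ha)
        rw [h3]
        have : fst y x = fst z x := by
          unfold fst
          congr 1
          exact Subtype.ext (Prod.ext h2.1.symm h2.2.1.symm)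
        rw [this]
  have main : ∀ d : Dart s, chd d.p = (F, a) → d.x = x → ∀ f : s.Sub x, (∃ c, f = Sum.inl c) →
      chd f = (F, a) → g d = g ⟨x, f, false⟩ := by
    rintro ⟨x', p, b⟩ hd hx f ⟨c, hc⟩ hf
    simp only at hx
    subst hx
    rw [hb p b false]
    rcases p with c' | z
    · have : (Sum.inl c' : s.Sub x') = f := by
        rw [hc]
        congr 1
        apply Subtype.ext
        rw [hc] at hf
        exact hd.trans hf.symm
      rw [this]
    · have h1 : z.F = F := congrArg Prod.fst hd
      have h2 : z.e x' = a := congrArg Prod.snd hd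
      rw [key z h1 h2]
      have : fst z x' = f := by
        rw [hc]
        unfold fst
        congr 1
        apply Subtype.ext
        rw [hc] at hf
        exact hd.trans hf.symm
      rw [this]
  have hat : s.At F a := by
    have := chd_at d.p
    rw [hd] at this
    exact this
  have hlow : M.pos F a < M.pos F (s.mu F a) := by
    have := chd_low d.p
    rw [hd] at this
    exact this
  have hcol : col (s.lab a) = x := by
    have := chd_col d.p
    rw [hd] at this
    exact this.trans hx
  rw [main d hd hx (Sum.inl ⟨(F, a), hat, hlow, hcol⟩) ⟨_, rfl⟩ rfl,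
    main d' hd' hx' (Sum.inl ⟨(F, a), hat, hlow, hcol⟩) ⟨_, rfl⟩ rfl]

/-- the two end darts of a chord -/
theorem ed_mu_eq {α : Type} {g : Dart s → α} (hfl : ∀ d, g (flip d) = g d) {F : Φ} {w : W}
    (h : s.At F w) (h' : s.At F (s.mu F w))
    (hj : ∀ z : s.Dbl, z.F = F → z.e (col (s.lab w)) = s.lo F w →
      g (dz z (col (s.lab w)) true) = g (dz z (col (s.lab w)) false)) :
    g (ed h) = g (ed h') := by
  have hlo : s.lo F (s.mu F w) = s.lo F w := by
    have h1 := lo_pt (ed h)
    have h2 := lo_pt (flip (ed h))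
    rw [pt_flip, fc_flip, fc_ed, pt_ed] at h2
    rw [fc_ed, pt_ed] at h1
    rw [h1, h2]
    rfl
  refine chord_const hfl hj (chd_ed h) ?_ (x_ed h) ?_
  · rw [chd_ed h', hlo]
  · rw [x_ed h', s.mu_lab h.1 h.2]

end Crest.Agent.R096.St_147
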