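import Crest.Agent.R096.St4_147

/-!
# R096 / P3: `RefStmt` (refined Sep) proved
-/

set_option autoImplicit false

namespace Crest.Agent.R096.St_147

open Wk_689

variable {ι Φ W I : Type} {M : MeshC ι Φ W} {col : I → Bool} {s : St M col}

noncomputable instance St.fintypeDbl (s : St M col) : Fintype s.Dbl := Fintype.ofFinite _

variable {Act : Set ι} (A : s.Arcs Act)

open Classical in
/-- the side function of the arc of `z` in `q` -/
noncomputable def sf (x : Bool) (q : ι) (z : s.Dbl) : s.Sub x → ZMod 2 :=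
  if h : q ∈ Act ∧ q ∈ M.side z.F then (A.side x h.1 h.2).choose else 0

theorem sf_spec (x : Bool) {q : ι} {z : s.Dbl} (hq : q ∈ Act) (hz : q ∈ M.side z.F) :
    (∀ (F F' : Φ) (w : W) (p p' : s.Sub x), q ∈ M.side F → q ∈ M.side F' →
        p.End F w → p'.End F' w → sf A x q z p = sf A x q z p') ∧
      (∀ (u : s.Dbl) (p p' : s.Sub x), q ∈ M.side u.F → p.Below u → p'.Above u →
        ((sf A x q z p ≠ sf A x q z p') ↔ (u = z ∨ u = A.arc q z))) ∧
      (∀ (u : s.Dbl), q ∈ M.side u.F → u ≠ z → u ≠ A.arc q z →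
        sf A x q z (Sum.inr u) = sf A x q z (Sum.inr (A.arc q u))) := by
  unfold sf
  rw [dif_pos ⟨hq, hz⟩]
  exact (A.side x hq hz).choose_spec

open Classical in
theorem sf_jump (x : Bool) {q : ι} {z : s.Dbl} (hq : q ∈ Act) (hz : q ∈ M.side z.F) (u : s.Dbl)
    (hu : q ∈ M.side u.F) :
    sf A x q z (bel u x) + sf A x q z (abv u x) = if u = z ∨ u = A.arc q z then 1 else 0 := by
  have h := (sf_spec A x hq hz).2.1 u (bel u x) (abv u x) hu (bel_spec u x) rfl
  split_ifs with h1
  · have h2 := h.2 h1
    generalize sf A x q z (bel u x) = a at h2 ⊢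
    generalize sf A x q z (abv u x) = b at h2 ⊢
    revert a b
    decide
  · have h2 : ¬ (sf A x q z (bel u x) ≠ sf A x q z (abv u x)) := fun h3 => h1 (h.1 h3)
    exact add_of_eq2 (not_not.1 h2)

/-- numbering of the double points -/
noncomputable def nb (z : s.Dbl) : ℕ := (Finite.equivFin s.Dbl z : ℕ)

theorem nb_inj {z z' : s.Dbl} (h : nb z = nb z') : z = z' :=
  (Finite.equivFin s.Dbl).injective (Fin.ext h)

open Classical in
/-- representative of the arc of `z` in `q` -/
noncomputable def rep (q : ι) (z : s.Dbl) : s.Dbl := if nb z < nb (A.arc q z) then z else A.arc q z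

open Classical in
noncomputable def Rq (q : ι) : Finset s.Dbl :=
  Finset.univ.filter (fun u => q ∈ M.side u.F ∧ nb u < nb (A.arc q u))

theorem mem_Rq {q : ι} {u : s.Dbl} : u ∈ Rq A q ↔ q ∈ M.side u.F ∧ nb u < nb (A.arc q u) := by
  classical
  simp [Rq]

theorem rep_mem {q : ι} {z : s.Dbl} (hq : q ∈ Act) (hz : q ∈ M.side z.F) : rep A q z ∈ Rq A q := by
  rw [mem_Rq]
  unfold rep
  split_ifs with h
  · exact ⟨hz, h⟩
  · refine ⟨A.mem hq hz, ?_⟩
    rw [A.inv hq hz]
    exact lt_of_le_of_ne (not_lt.1 h) (fun h' => A.ne hq hz (nb_inj h'))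

theorem rep_or {q : ι} (z : s.Dbl) : rep A q z = z ∨ rep A q z = A.arc q z := by
  unfold rep
  split_ifs
  · exact Or.inl rfl
  · exact Or.inr rfl

theorem rep_iff {q : ι} {z : s.Dbl} (hq : q ∈ Act) (hz : q ∈ M.side z.F) {u : s.Dbl}
    (hu : u ∈ Rq A q) : (z = u ∨ z = A.arc q u) ↔ u = rep A q z := by
  rw [mem_Rq] at hu
  constructor
  · rintro (h | h)
    · subst h
      unfold rep
      rw [if_pos hu.2]
    · subst h
      unfold rep
      rw [A.inv hq hu.1, if_neg (not_lt.2 hu.2.le)]
  · intro h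
    rcases rep_or A (q := q) z with h' | h'
    · left; rw [h, h']
    · right; rw [h, h', A.inv hq hz]

theorem sum_rep {q : ι} {z : s.Dbl} (hq : q ∈ Act) (hz : q ∈ M.side z.F) (f g : s.Dbl → ZMod 2)
    (h1 : ∀ u ∈ Rq A q, u ≠ rep A q z → g u = 0) (h2 : g (rep A q z) = f (rep A q z)) :
    ∑ u ∈ Rq A q, g u = f (rep A q z) := by
  rw [Finset.sum_eq_single_of_mem (rep A q z) (rep_mem A hq hz) h1, h2]

/-- `b q` = combination of the side functions with the coefficients `a` -/
noncomputable def bb (a : Bool → ι → s.Dbl → ZMod 2) (q : ι) (d : Dart s) : ZMod 2 :=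
  ∑ u ∈ Rq A q, a d.x q u * sf A d.x q u d.p

variable {A} {a : Bool → ι → s.Dbl → ZMod 2}

theorem bb_flip (q : ι) (d : Dart s) : bb A a q (flip d) = bb A a q d := rfl

theorem bb_off (ha : ArcFn A a) {q : ι} (hq : q ∉ Act) (d : Dart s) : bb A a q d = 0 := by
  unfold bb
  apply Finset.sum_eq_zero
  intro u _
  rw [ha.off _ _ _ hq, zero_mul]

theorem bb_cont (ha : ArcFn A a) (q : ι) (F F' : Φ) (w : W) (h : s.At F w) (h' : s.At F' w)
    (hF : q ∈ M.side F) (hF' : q ∈ M.side F') : bb A a q (ed h) = bb A a q (ed h') := by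
  by_cases hq : q ∈ Act
  · obtain ⟨p, b, hd, he⟩ := ed_form h
    obtain ⟨p', b', hd', he'⟩ := ed_form h'
    rw [hd, hd']
    unfold bb
    apply Finset.sum_congr rfl
    intro u hu
    rw [mem_Rq] at hu
    show a _ q u * sf A _ q u p = a _ q u * sf A _ q u p'
    rw [(sf_spec A _ hq hu.1).1 F F' w p p' hF hF' he he']
  · rw [bb_off ha hq, bb_off ha hq]

theorem rep_val (ha : ArcFn A a) {q : ι} {z : s.Dbl} (hq : q ∈ Act) (hz : q ∈ M.side z.F)
    (x : Bool) : a x q (rep A q z) = a x q z := by
  rcases rep_or A (q := q) z with h | h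
  · rw [h]
  · rw [h, ha.inv x q z hq hz]

theorem bb_jump (ha : ArcFn A a) (q : ι) (x : Bool) (z : s.Dbl) (hz : q ∈ M.side z.F) :
    bb A a q (dz z x true) + bb A a q (dz z x false) = a x q z := by
  classical
  by_cases hq : q ∈ Act
  · unfold bb
    show ∑ u ∈ Rq A q, a x q u * sf A x q u (bel z x) + ∑ u ∈ Rq A q, a x q u * sf A x q u (abv z x)
      = a x q z
    rw [← Finset.sum_add_distrib]
    rw [sum_rep A hq hz (fun u => a x q u)]
    · exact rep_val ha hq hz x
    · intro u hu hne
      rw [← mul_add, sf_jump A x hq ((mem_Rq A).1 hu).1 z hz, if_neg, mul_zero]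
      exact fun h => hne ((rep_iff A hq hz hu).1 h)
    · have hr := rep_mem A hq hz
      rw [← mul_add, sf_jump A x hq ((mem_Rq A).1 hr).1 z hz, if_pos, mul_one]
      exact (rep_iff A hq hz hr).2 rfl
  · rw [bb_off ha hq, bb_off ha hq, ha.off _ _ _ hq, add_zero]

theorem bb_arc (ha : ArcFn A a) (q : ι) (x : Bool) (z : s.Dbl) (hq : q ∈ Act)
    (hz : q ∈ M.side z.F) :
    bb A a q (dz z x false) + bb A a q (dz (A.arc q z) x false) =
      a x q z * (sf A x q (rep A q z) (abv z x) + sf A x q (rep A q z) (abv (A.arc q z) x)) := by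
  unfold bb
  show ∑ u ∈ Rq A q, a x q u * sf A x q u (abv z x) +
    ∑ u ∈ Rq A q, a x q u * sf A x q u (abv (A.arc q z) x) = _
  rw [← Finset.sum_add_distrib]
  rw [sum_rep A hq hz (fun u => a x q u * (sf A x q u (abv z x) + sf A x q u (abv (A.arc q z) x)))]
  · rw [rep_val ha hq hz x]
  · intro u hu hne
    have hn := fun h => hne ((rep_iff A hq hz hu).1 h)
    rw [← mul_add]
    have := (sf_spec A x hq ((mem_Rq A).1 hu).1).2.2 z hz (fun h => hn (Or.inl h))
      (fun h => hn (Or.inr h))
    rw [show sf A x q u (abv z x) = sf A x q u (abv (A.arc q z) x) from this, add_self2, mul_zero]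
  · rw [← mul_add]

theorem exists_sep_all (hS : ∀ i, s.Sep i) (θ : Φ → W → ZMod 2)
    (h1 : ∀ F w, s.At F w → θ F (s.mu F w) = θ F w)
    (h2 : ∀ w ∈ s.P, ∑ F ∈ M.fs w, θ F w = 0) :
    ∃ c : ι → W → ZMod 2, (∀ q F w, q ∈ M.side F → s.At F w → c q (s.mu F w) = c q w) ∧
      ∀ F w q q', M.side F = s(q, q') → s.At F w → θ F w = c q w + c q' w := by
  choose c hc using fun i => hS i θ (fun F w h _ => h1 F w h) (fun w h _ => h2 w h)
  refine ⟨fun q w => c (s.lab w) q w, ?_, ?_⟩
  · intro q F w hq hw
    show c (s.lab (s.mu F w)) q (s.mu F w) = c (s.lab w) q w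
    rw [s.mu_lab hw.1 hw.2]
    exact (hc _).1 q F w hq hw rfl
  · intro F w q q' hF hw
    exact (hc _).2 F w q q' hF hw rfl

theorem At.mu' {F : Φ} {w : W} (h : s.At F w) : s.At F (s.mu F w) := s.mu_mem h.1 h.2

/-- **refined Sep** -/
theorem refStmt (A : s.Arcs Act) (hS : ∀ i, s.Sep i) :
    RefStmt A (fun x q z =>
      sf A x q (rep A q z) (abv z x) + sf A x q (rep A q z) (abv (A.arc q z) x)) := by
  classical
  intro t a ht ha hta
  set g : Dart s → ZMod 2 := fun d => t d + ss (M.side (fc d)) (fun q => bb A a q d) with hg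
  have hgf : ∀ d, g (flip d) = g d := by
    intro d
    simp only [hg, ht.fl, fc_flip, bb_flip]
  have hgj : ∀ (z : s.Dbl) (x : Bool), g (dz z x true) = g (dz z x false) := by
    intro z x
    apply eq_of_add2
    simp only [hg, fc_dz]
    have h1 : ss (M.side z.F) (fun q => bb A a q (dz z x true)) +
        ss (M.side z.F) (fun q => bb A a q (dz z x false)) = ss (M.side z.F) (fun q => a x q z) := by
      rw [← ss_add]
      exact ss_congr (fun q hq => bb_jump ha q x z hq)
    have h2 : t (dz z x true) + t (dz z x false) = ss (M.side z.F) (fun q => a x q z) := by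
      rcases hsd : M.side z.F with ⟨q, q'⟩
      exact hta x z q q' hsd
    calc _ = (t (dz z x true) + t (dz z x false)) +
        (ss (M.side z.F) (fun q => bb A a q (dz z x true)) +
          ss (M.side z.F) (fun q => bb A a q (dz z x false))) := by ring
      _ = 0 := by rw [h1, h2, add_self2]
  obtain ⟨c, hc1, hc2⟩ := exists_sep_all hS (fun F w => edv g F w) (by
      intro F w hw
      show edv g F (s.mu F w) = edv g F w
      rw [edv_eq hw, edv_eq (At.mu' hw)]
      exact (ed_mu_eq hgf hw (At.mu' hw) (fun z _ _ => hgj z _)).symm) (by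
      intro w hw
      have h1 : ∀ F ∈ M.fs w, edv g F w =
          edv t F w + ss (M.side F) (fun q => edv (bb A a q) F w) := by
        intro F hF
        have hat : s.At F w := ⟨hw, MeshC.mem_fs.1 hF⟩
        rw [edv_eq hat, edv_eq hat]
        simp only [hg, fc_ed]
        congr 1
        exact ss_congr (fun q _ => (edv_eq hat).symm)
      rw [Finset.sum_congr rfl h1, Finset.sum_add_distrib, ht.ev w hw, zero_add]
      apply sum_link M w (fun q F => edv (bb A a q) F w)
      intro q F F' hq hq' hw1 hw2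
      rw [edv_eq ⟨hw, hw1⟩, edv_eq ⟨hw, hw2⟩]
      exact bb_cont ha q F F' w _ _ hq hq')
  refine ⟨fun q d => c q (chd d.p).2 + bb A a q d, ?_, ?_, ?_, ?_, ?_⟩
  · intro q d
    rfl
  · intro q F F' w h h' hF hF'
    rw [bb_cont ha q F F' w h h' hF hF', chd_ed h, chd_ed h']
    congr 1
    simp only
    have key : ∀ F, q ∈ M.side F → s.At F w → c q (s.lo F w) = c q w := by
      intro F hF h
      unfold St.lo
      split_ifs
      · rfl
      · exact hc1 q F w hF h
    rw [key F hF h, key F' hF' h']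
  · intro q x z hz
    have e1 : (chd (dz z x true).p) = (z.F, z.e x) := below_chd (bel_spec z x)
    have e2 : (chd (dz z x false).p) = (z.F, z.e x) := rfl
    rw [e1, e2, ← bb_jump ha q x z hz]
    have := add_self2 (c q (z.e x))
    linear_combination this
  · intro d q q' hd
    have hat : s.At (fc d) (chd d.p).2 := chd_at d.p
    have hlow : M.pos (fc d) (chd d.p).2 < M.pos (fc d) (s.mu (fc d) (chd d.p).2) := chd_low d.p
    have h1 := hc2 (fc d) (chd d.p).2 q q' hd hat
    rw [edv_eq hat] at h1
    have h2 : g (ed hat) = g d := by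
      refine chord_const hgf (fun z _ _ => hgj z _) (chd_ed hat) ?_ (x_ed hat) ?_
      · have : s.lo (fc d) (chd d.p).2 = (chd d.p).2 := lo_eq_of_lt hlow
        rw [show (fc d, s.lo (fc d) (chd d.p).2) = ((chd d.p).1, (chd d.p).2) from
          Prod.ext rfl this]
      · exact (chd_col d.p).symm
    rw [h2] at h1
    simp only [hg] at h1
    rw [hd, ss_mk] at h1
    have e1 := add_self2 (bb A a q d)
    have e2 := add_self2 (bb A a q' d)
    linear_combination h1 - e1 - e2
  · intro q x z hq hz
    rw [← bb_arc ha q x z hq hz]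
    have h1 := A.same x hq hz (fun p => c q (chd p).2) (by
        intro F F' w p p' hF hF' he he'
        have key : ∀ (F : Φ) (p : s.Sub x), q ∈ M.side F → p.End F w → c q (chd p).2 = c q w := by
          intro F p hF he
          obtain ⟨hat, h | h⟩ := he
          · obtain ⟨_, b, rfl, hb⟩ := h
            simp only [chd, hb]
          · obtain ⟨_, h⟩ := h
            rcases p with b | z
            · simp only [chd]
              rw [h.1]
              exact hc1 q F w hF hat
            · simp only [chd]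
              rw [h.2.1]
              exact hc1 q F w hF hat
        rw [key F p hF he, key F' p' hF' he']) (by
        intro u p p' _ hb ha'
        rw [below_chd hb, ha']
        rfl)
    have h2 : c q (chd (dz z x false).p).2 = c q (chd (dz (A.arc q z) x false).p).2 := h1
    rw [h2]
    have := add_self2 (c q (chd (dz (A.arc q z) x false).p).2)
    linear_combination this

end Crest.Agent.R096.St_147
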