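import Crest.Agent.R096.St5_147
import Crest.Agent.R096.Wk4_689

/-!
# R096 / P3: regions, innermost discs, names (first half of File E)
-/

set_option autoImplicit false

namespace Crest.Agent.R096.St_147

open Wk_689

variable {ι Φ W I : Type} {M : MeshC ι Φ W} {col : I → Bool} {s : St M col}
variable {Act : Set ι} {A : s.Arcs Act} {τ : Bool → ι → s.Dbl → ZMod 2} {G : Set s.Dbl}
variable {far : I → Set W} {D : s.Dbl → Bool → Dart s → ZMod 2}

theorem z2 (a : ZMod 2) : a = 0 ∨ a = 1 := by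
  revert a; decide

theorem z2_ne {a : ZMod 2} (h : a ≠ 1) : a = 0 := (z2 a).resolve_right h

theorem z2_ne0 {a : ZMod 2} (h : a ≠ 0) : a = 1 := (z2 a).resolve_left h

/-! ### double curves -/

theorem cv_refl (A : s.Arcs Act) (z : s.Dbl) : z ∈ A.cv z := Relation.ReflTransGen.refl

theorem cv_trans {z u v : s.Dbl} (h : u ∈ A.cv z) (h' : v ∈ A.cv u) : v ∈ A.cv z :=
  Relation.ReflTransGen.trans h h'

theorem cv_sub (hG : A.Closed G) {z u : s.Dbl} (hz : z ∈ G) (h : u ∈ A.cv z) : u ∈ G := by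
  induction h with
  | refl => exact hz
  | tail _ h ih =>
    obtain ⟨q, hq, rfl⟩ := h
    exact (hG _ ih q hq).2

theorem cv_arc {z : s.Dbl} {q : ι} (hq : q ∈ M.side z.F) : A.arc q z ∈ A.cv z :=
  Relation.ReflTransGen.single ⟨q, hq, rfl⟩

theorem cv_symm (hG : A.Closed G) {z u : s.Dbl} (hz : z ∈ G) (h : u ∈ A.cv z) : z ∈ A.cv u := by
  induction h with
  | refl => exact cv_refl A z
  | @tail u v h1 h ih =>
    obtain ⟨q, hq, rfl⟩ := h
    have hu := cv_sub hG hz h1
    have hA := (hG _ hu q hq).1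
    refine cv_trans ?_ ih
    have := cv_arc (A := A) (z := A.arc q u) (q := q) (A.mem hA hq)
    rwa [A.inv hA hq] at this

theorem cv_eq (hG : A.Closed G) {z u : s.Dbl} (hz : z ∈ G) (h : u ∈ A.cv z) :
    A.cv u = A.cv z := by
  ext v
  exact ⟨fun hv => cv_trans h hv, fun hv => cv_trans (cv_symm hG hz h) hv⟩

theorem arc_notin (hG : A.Closed G) {z : s.Dbl} {q : ι} (hz : z ∉ G) (hA : q ∈ Act)
    (hq : q ∈ M.side z.F) : A.arc q z ∉ G := by
  intro h
  have := (hG _ h q (A.mem hA hq)).2
  rw [A.inv hA hq] at this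
  exact hz this

/-! ### inner and outer darts -/

open Classical in
/-- the inner half at `z` of colour `x` is the piece above `z` -/
noncomputable def innD (D : s.Dbl → Bool → Dart s → ZMod 2) (z : s.Dbl) (x : Bool) : Bool :=
  decide (D z x (dz z x false) = 1)

theorem inD_x (inn : s.Dbl → Bool → Bool) (z : s.Dbl) (x : Bool) : (inD inn z x).x = x := dz_x _ _ _
theorem outD_x (inn : s.Dbl → Bool → Bool) (z : s.Dbl) (x : Bool) : (outD inn z x).x = x :=
  dz_x _ _ _

theorem lab_dz (z : s.Dbl) (x b : Bool) : s.lab (pt (dz z x b)) = s.lab (z.e x) := by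
  rw [lab_pt]
  cases b
  · rfl
  · show s.lab (chd (bel z x)).2 = _
    rw [below_chd (bel_spec z x)]

theorem D_in (hD : DD A τ G far D) {z : s.Dbl} (hz : z ∈ G) (x : Bool) :
    D z x (inD (innD D) z x) = 1 := by
  unfold inD innD
  by_cases h : D z x (dz z x false) = 1
  · simp [h]
  · have h1 := hD.jump_in z hz z (cv_refl A z) x
    rw [z2_ne h, add_zero] at h1
    simpa [h] using h1

theorem D_out (hD : DD A τ G far D) {z : s.Dbl} (hz : z ∈ G) (x : Bool) :
    D z x (outD (innD D) z x) = 0 := by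
  unfold outD innD
  by_cases h : D z x (dz z x false) = 1
  · have h1 := hD.jump_in z hz z (cv_refl A z) x
    rw [h] at h1
    have h2 : D z x (dz z x true) = 0 := by simpa using h1
    simpa [h] using h2
  · have h2 := z2_ne h
    simpa [h] using h2

theorem D_in' (hD : DD A τ G far D) (hG : A.Closed G) {z u : s.Dbl} (hz : z ∈ G)
    (hu : u ∈ A.cv z) (x : Bool) : D z x (inD (innD D) u x) = 1 := by
  rw [← hD.congr z hz u hu]
  exact D_in hD (cv_sub hG hz hu) x

theorem D_out' (hD : DD A τ G far D) (hG : A.Closed G) {z u : s.Dbl} (hz : z ∈ G)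
    (hu : u ∈ A.cv z) (x : Bool) : D z x (outD (innD D) u x) = 0 := by
  rw [← hD.congr z hz u hu]
  exact D_out hD (cv_sub hG hz hu) x

theorem D_any (hD : DD A τ G far D) {z u : s.Dbl} (hz : z ∈ G) (hu : u ∉ A.cv z) (x b b' : Bool) :
    D z x (dz u x b) = D z x (dz u x b') := by
  have h := hD.jump_out z hz u hu x
  cases b <;> cases b'
  · rfl
  · exact h.symm
  · exact h
  · rfl

/-! ### regions -/

/-- same colour, same sheet, in the same inner discs -/
structure Reg (G : Set s.Dbl) (D : s.Dbl → Bool → Dart s → ZMod 2) (d d' : Dart s) : Prop where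
  hx : d'.x = d.x
  hl : s.lab (pt d') = s.lab (pt d)
  hD : ∀ z ∈ G, D z d.x d' = D z d.x d

theorem Reg.symm {d d' : Dart s} (h : Reg G D d d') : Reg G D d' d :=
  ⟨h.hx.symm, h.hl.symm, fun z hz => by rw [h.hx]; exact (h.hD z hz).symm⟩

theorem Reg.trans {d d' d'' : Dart s} (h : Reg G D d d') (h' : Reg G D d' d'') :
    Reg G D d d'' :=
  ⟨h'.hx.trans h.hx, h'.hl.trans h.hl, fun z hz => by
    have := h'.hD z hz
    rw [h.hx] at this
    exact this.trans (h.hD z hz)⟩

theorem reg_flip (hD : DD A τ G far D) (d : Dart s) : Reg G D d (flip d) where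
  hx := rfl
  hl := by rw [lab_pt, lab_pt]; rfl
  hD := fun z hz => hD.fl z hz _ d

theorem reg_ed (hD : DD A τ G far D) {F F' : Φ} {w : W} (h : s.At F w) (h' : s.At F' w) :
    Reg G D (ed h) (ed h') where
  hx := by rw [x_ed, x_ed]
  hl := by rw [pt_ed, pt_ed]
  hD := fun z hz => hD.cont z hz _ F' F w h' h

theorem reg_dz (hD : DD A τ G far D) (hG : A.Closed G) {u : s.Dbl} (hu : u ∉ G) (x b b' : Bool) :
    Reg G D (dz u x b) (dz u x b') where
  hx := by rw [dz_x, dz_x]
  hl := by rw [lab_dz, lab_dz]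
  hD := fun z hz => by
    rw [dz_x]
    exact D_any hD hz (fun h => hu (cv_sub hG hz h)) _ _ _

theorem lab_cv (hD : DD A τ G far D) (hG : A.Closed G) {z u : s.Dbl} (hz : z ∈ G)
    (hu : u ∈ A.cv z) (x : Bool) : s.lab (u.e x) = s.lab (z.e x) := by
  have h := hD.supp z hz x (inD (innD D) u x) (by rw [D_in' hD hG hz hu]; exact one_ne_zero)
  have h2 := h.2
  unfold inD at h2
  rwa [lab_dz] at h2

/-- the value along a curve `z → u` not on the curve of `z₁` -/
theorem D_along (hD : DD A τ G far D) (hG : A.Closed G) {z₁ z u : s.Dbl} (hz₁ : z₁ ∈ G)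
    (hz : z ∈ G) (hn : z ∉ A.cv z₁) (hu : u ∈ A.cv z) (x : Bool) :
    D z₁ x (dz z x false) = D z₁ x (dz u x false) := by
  induction hu with
  | refl => rfl
  | @tail u v h1 h ih =>
    obtain ⟨q, hq, rfl⟩ := h
    have hu : u ∈ G := cv_sub hG hz h1
    have hn' : u ∉ A.cv z₁ := fun h => hn (cv_trans h (cv_symm hG hz h1))
    rw [ih]
    exact hD.along z₁ hz₁ u hn' x q (hG u hu q hq).1 hq

theorem reg_out (hD : DD A τ G far D) (hG : A.Closed G) {z u : s.Dbl} (hz : z ∈ G)
    (hu : u ∈ A.cv z) (x : Bool) : Reg G D (outD (innD D) z x) (outD (innD D) u x) where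
  hx := by rw [outD_x, outD_x]
  hl := by unfold outD; rw [lab_dz, lab_dz, lab_cv hD hG hz hu]
  hD := fun z₁ hz₁ => by
    rw [outD_x]
    by_cases h : z ∈ A.cv z₁
    · rw [D_out' hD hG hz₁ h, D_out' hD hG hz₁ (cv_trans h hu)]
    · have h' : u ∉ A.cv z₁ := fun h1 => h (cv_trans h1 (cv_symm hG hz hu))
      unfold outD
      rw [D_any hD hz₁ h' x _ false, D_any hD hz₁ h x _ false, D_along hD hG hz₁ hz h hu]

theorem reg_in (hD : DD A τ G far D) (hG : A.Closed G) {z u : s.Dbl} (hz : z ∈ G)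
    (hu : u ∈ A.cv z) (x : Bool) : Reg G D (inD (innD D) z x) (inD (innD D) u x) where
  hx := by rw [inD_x, inD_x]
  hl := by unfold inD; rw [lab_dz, lab_dz, lab_cv hD hG hz hu]
  hD := fun z₁ hz₁ => by
    rw [inD_x]
    by_cases h : z ∈ A.cv z₁
    · rw [D_in' hD hG hz₁ h, D_in' hD hG hz₁ (cv_trans h hu)]
    · have h' : u ∉ A.cv z₁ := fun h1 => h (cv_trans h1 (cv_symm hG hz hu))
      unfold inD
      rw [D_any hD hz₁ h' x _ false, D_any hD hz₁ h x _ false, D_along hD hG hz₁ hz h hu]

/-! ### innermost discs -/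

/-- the disc of `z` is the innermost one which contains `d` -/
structure Inm (G : Set s.Dbl) (D : s.Dbl → Bool → Dart s → ZMod 2) (z : s.Dbl) (d : Dart s) :
    Prop where
  mem : z ∈ G
  val : D z d.x d = 1
  le : ∀ z' ∈ G, D z' d.x d = 1 → ∀ d', D z d.x d' = 1 → D z' d.x d' = 1

theorem Inm.congr {z : s.Dbl} {d d' : Dart s} (h : Inm G D z d) (hr : Reg G D d d') :
    Inm G D z d' where
  mem := h.mem
  val := by rw [hr.hx, hr.hD z h.mem]; exact h.val
  le := fun z' hz' h1 d'' h2 => by
    rw [hr.hx] at h1 h2 ⊢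
    rw [hr.hD z' hz'] at h1
    exact h.le z' hz' h1 d'' h2

theorem Inm.cv (hD : DD A τ G far D) {z z' : s.Dbl} {d : Dart s} (h : Inm G D z d)
    (h' : Inm G D z' d) : z' ∈ A.cv z := by
  have heq : ∀ d', D z d.x d' = D z' d.x d' := by
    intro d'
    by_cases h1 : D z d.x d' = 1
    · rw [h1, h.le z' h'.mem h'.val d' h1]
    · by_cases h2 : D z' d.x d' = 1
      · exact absurd (h'.le z h.mem h.val d' h2) h1
      · rw [z2_ne h1, z2_ne h2]
  by_contra hn
  have h1 := hD.jump_in z' h'.mem z' (cv_refl A z') d.x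
  have h2 := hD.jump_out z h.mem z' hn d.x
  rw [← heq, ← heq, h2, add_self2] at h1
  exact zero_ne_one h1

theorem exists_inm (hD : DD A τ G far D) {d : Dart s} (h : ∃ z ∈ G, D z d.x d = 1) :
    ∃ z, Inm G D z d := by
  classical
  obtain ⟨z, hz, hmin⟩ := Set.exists_min_image {z : s.Dbl | z ∈ G ∧ D z d.x d = 1}
    (fun z => {d' : Dart s | D z d.x d' = 1}.ncard) (Set.toFinite _) h
  refine ⟨z, hz.1, hz.2, ?_⟩
  intro z' hz' h' d' hd'
  rcases hD.lam z hz.1 z' hz' d.x d hz.2 h' with h1 | h1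
  · exact h1 d' hd'
  · have h2 : {d' : Dart s | D z' d.x d' = 1} = {d' : Dart s | D z d.x d' = 1} :=
      Set.eq_of_subset_of_ncard_le (fun a ha => h1 a ha) (hmin z' ⟨hz', h'⟩) (Set.toFinite _)
    have h3 : d' ∈ {d' : Dart s | D z d.x d' = 1} := hd'
    rw [← h2] at h3
    exact h3

theorem inm_in (hD : DD A τ G far D) {z : s.Dbl} (hz : z ∈ G) (x : Bool) :
    Inm G D z (inD (innD D) z x) where
  mem := hz
  val := by rw [inD_x]; exact D_in hD hz x
  le := fun z' hz' h1 d' h2 => by
    rw [inD_x] at h1 h2 ⊢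
    rcases hD.lam z hz z' hz' x _ (D_in hD hz x) h1 with h3 | h3
    · exact h3 d' h2
    · by_cases h4 : z ∈ A.cv z'
      · rw [← hD.congr z' hz' z h4]
        exact h2
      · exfalso
        have h5 : D z' x (outD (innD D) z x) = 1 := by
          unfold outD
          unfold inD at h1
          rw [D_any hD hz' h4 x _ (!innD D z x)]
          exact h1
        have h6 := h3 _ h5
        rw [D_out hD hz] at h6
        exact zero_ne_one h6

/-! ### names -/

/-- `Nm d i n`: the parent chain of the region of `d` ends after `n` steps in the root region of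
the sheet `i` -/
inductive Nm (G : Set s.Dbl) (D : s.Dbl → Bool → Dart s → ZMod 2) : Dart s → I → ℕ → Prop
  | root (d : Dart s) (h : ∀ z ∈ G, D z d.x d = 0) : Nm G D d (s.lab (pt d)) 0
  | step (d : Dart s) (z : s.Dbl) (i : I) (n : ℕ) (h : Inm G D z d)
      (h' : Nm G D (outD (innD D) z (!d.x)) i n) : Nm G D d i (n + 1)

theorem Nm.congr {d d' : Dart s} {i : I} {n : ℕ} (h : Nm G D d i n) (hr : Reg G D d d') :
    Nm G D d' i n := by
  cases h with
  | root _ h =>
    rw [← hr.hl]
    exact Nm.root d' (fun z hz => by rw [hr.hx, hr.hD z hz]; exact h z hz)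
  | step _ z _ n h h' => exact Nm.step d' z i n (h.congr hr) (by rw [hr.hx]; exact h')

theorem Nm.unique (hD : DD A τ G far D) (hG : A.Closed G) {d : Dart s} {i j : I} {n m : ℕ}
    (h : Nm G D d i n) (h' : Nm G D d j m) : i = j ∧ n = m := by
  induction h generalizing j m with
  | root d h =>
    cases h' with
    | root _ _ => exact ⟨rfl, rfl⟩
    | step _ z _ m h1 h2 =>
      exfalso
      have := h z h1.mem
      rw [h1.val] at this
      exact one_ne_zero this
  | step d z i n h h1 ih =>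
    cases h' with
    | root _ h2 =>
      exfalso
      have := h2 z h.mem
      rw [h.val] at this
      exact one_ne_zero this
    | step _ z' _ m h2 h3 =>
      have h4 := h2.cv hD h
      have h5 := ih (h3.congr (reg_out hD hG h2.mem h4 _))
      exact ⟨h5.1, by rw [h5.2]⟩

/-- one step of the chain at an inner dart -/
theorem nm_in_iff (hD : DD A τ G far D) (hG : A.Closed G) {z : s.Dbl} (hz : z ∈ G) (x : Bool)
    {i : I} {n : ℕ} :
    Nm G D (inD (innD D) z x) i (n + 1) ↔ Nm G D (outD (innD D) z (!x)) i n := by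
  constructor
  · intro h
    cases h with
    | step _ z' _ n h1 h2 =>
      rw [inD_x] at h2
      have h3 := h1.cv hD (inm_in hD hz x)
      exact h2.congr (reg_out hD hG h1.mem h3 _)
  · intro h
    refine Nm.step _ z i n (inm_in hD hz x) ?_
    rw [inD_x]
    exact h

theorem nm_in_pos (hD : DD A τ G far D) {z : s.Dbl} (hz : z ∈ G) (x : Bool)
    {i : I} {n : ℕ} (h : Nm G D (inD (innD D) z x) i n) : ∃ m, n = m + 1 := by
  generalize hd : inD (innD D) z x = d at h
  cases h with
  | root d h =>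
    exfalso
    subst hd
    have := h z hz
    rw [inD_x, D_in hD hz] at this
    exact one_ne_zero this
  | step _ z' _ n h1 h2 => exact ⟨n, rfl⟩

open Classical in
/-- the new name -/
noncomputable def nmf (G : Set s.Dbl) (D : s.Dbl → Bool → Dart s → ZMod 2) (d : Dart s) :
    Option I :=
  if h : ∃ i n, Nm G D d i n then some h.choose else none

theorem nmf_some (hD : DD A τ G far D) (hG : A.Closed G) {d : Dart s} {i : I} :
    nmf G D d = some i ↔ ∃ n, Nm G D d i n := by
  unfold nmf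
  constructor
  · intro h
    split_ifs at h with h1
    have h2 : h1.choose = i := Option.some.inj h
    rw [← h2]
    exact h1.choose_spec
  · rintro ⟨n, hn⟩
    have h1 : ∃ i n, Nm G D d i n := ⟨i, n, hn⟩
    rw [dif_pos h1]
    obtain ⟨m, hm⟩ := h1.choose_spec
    rw [(hm.unique hD hG hn).1]

theorem nmf_congr (hD : DD A τ G far D) (hG : A.Closed G) {d d' : Dart s}
    (h : ∀ i, (∃ n, Nm G D d i n) ↔ ∃ n, Nm G D d' i n) : nmf G D d = nmf G D d' := by
  have : ∀ i, nmf G D d = some i ↔ nmf G D d' = some i := by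
    intro i
    rw [nmf_some hD hG, nmf_some hD hG, h]
  rcases h1 : nmf G D d with _ | i
  · rcases h2 : nmf G D d' with _ | j
    · rfl
    · have := (this j).2 h2
      rw [h1] at this
      exact this
  · exact ((this i).1 h1).symm

theorem nmf_reg (hD : DD A τ G far D) (hG : A.Closed G) {d d' : Dart s} (h : Reg G D d d') :
    nmf G D d = nmf G D d' :=
  nmf_congr hD hG fun _ => ⟨fun ⟨n, hn⟩ => ⟨n, hn.congr h⟩, fun ⟨n, hn⟩ => ⟨n, hn.congr h.symm⟩⟩

theorem nmf_in (hD : DD A τ G far D) (hG : A.Closed G) {z : s.Dbl} (hz : z ∈ G) (x : Bool) :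
    nmf G D (inD (innD D) z x) = nmf G D (outD (innD D) z (!x)) := by
  apply nmf_congr hD hG
  intro i
  constructor
  · rintro ⟨n, hn⟩
    obtain ⟨m, rfl⟩ := nm_in_pos hD hz x hn
    exact ⟨m, (nm_in_iff hD hG hz x).1 hn⟩
  · rintro ⟨n, hn⟩
    exact ⟨n + 1, (nm_in_iff hD hG hz x).2 hn⟩

/-- every dart at `z` is the inner or the outer one -/
theorem dz_cases (inn : s.Dbl → Bool → Bool) (z : s.Dbl) (x b : Bool) :
    dz z x b = inD inn z x ∨ dz z x b = outD inn z x := by
  unfold inD outD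
  by_cases h : b = inn z x
  · right; rw [h]
  · left
    have : b = !inn z x := by cases b <;> cases h' : inn z x <;> simp_all
    rw [this]

theorem nmf_tt (hD : DD A τ G far D) (hG : A.Closed G) (d : Dart s) :
    nmf G D (tt G (innD D) d) = nmf G D d := by
  rcases hn : node d with _ | z
  · rw [tt_none hn]
  · have hd := eq_dz hn
    rw [hd]
    by_cases hz : z ∈ G
    · rcases dz_cases (innD D) z d.x d.b with h | h
      · rw [h, tt_inD hz, nmf_in hD hG hz]
      · rw [h, tt_outD hz, nmf_in hD hG hz, Bool.not_not]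
    · rw [tt_dz_out hz]
      exact nmf_reg hD hG (reg_dz hD hG hz _ _ _)

end Crest.Agent.R096.St_147
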