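import Crest.Agent.R096.St6_147

/-!
# R096 / P3: counting of the ends of pieces, parity along a curve (File E, second part)
-/

set_option autoImplicit false

namespace Crest.Agent.R096.St_147

open Wk_689

variable {ι Φ W I : Type} {M : MeshC ι Φ W} {col : I → Bool} {s : St M col}

noncomputable instance St.fintypeDart (s : St M col) : Fintype (Dart s) := Fintype.ofFinite _

/-- the sum of a function on pieces over all ends of pieces vanishes: ends at the points of `P` and
ends at the double points -/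
theorem count (f : Dart s → ZMod 2) (hf : ∀ d, f (flip d) = f d) :
    ∑ w ∈ s.P, ∑ F ∈ M.fs w, edv f F w +
      ∑ z : s.Dbl, ∑ x : Bool, (f (dz z x true) + f (dz z x false)) = 0 := by
  classical
  have h0 : ∑ d : Dart s, f d = 0 := by
    apply Finset.sum_involution (fun d _ => flip d)
    · intro d _
      rw [hf, add_self2]
    · intro d _ _
      exact flip_ne d
    · intro d _
      exact Finset.mem_univ _
    · intro d _
      exact flip_flip d
  rw [← Finset.sum_filter_add_sum_filter_not Finset.univ (fun d : Dart s => node d = none)] at h0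
  have h1 : ∑ d ∈ Finset.univ.filter (fun d : Dart s => node d = none), f d =
      ∑ w ∈ s.P, ∑ F ∈ M.fs w, edv f F w := by
    rw [Finset.sum_sigma']
    symm
    refine Finset.sum_bij' (i := fun (a : (_ : W) × Φ) ha => ed (s := s) (F := a.2) (w := a.1)
        ⟨(Finset.mem_sigma.1 ha).1, MeshC.mem_fs.1 (Finset.mem_sigma.1 ha).2⟩)
      (j := fun d _ => ⟨pt d, fc d⟩) ?_ ?_ ?_ ?_ ?_
    · intro a ha
      exact Finset.mem_filter.2 ⟨Finset.mem_univ _, node_ed _⟩
    · intro d hd
      exact Finset.mem_sigma.2 ⟨(pt_at d).1, MeshC.mem_fs.2 (pt_at d).2⟩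
    · intro a ha
      exact Sigma.ext (pt_ed _) (heq_of_eq (fc_ed _))
    · intro d hd
      exact (eq_ed (Finset.mem_filter.1 hd).2 rfl rfl (pt_at d)).symm
    · intro a ha
      exact edv_eq _
  have h2 : ∑ d ∈ Finset.univ.filter (fun d : Dart s => ¬ node d = none), f d =
      ∑ z : s.Dbl, ∑ x : Bool, (f (dz z x true) + f (dz z x false)) := by
    have e : ∑ z : s.Dbl, ∑ x : Bool, (f (dz z x true) + f (dz z x false)) =
        ∑ a : (s.Dbl × Bool × Bool), f (dz a.1 a.2.1 a.2.2) := by
      rw [Fintype.sum_prod_type]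
      apply Finset.sum_congr rfl
      intro z _
      rw [Fintype.sum_prod_type]
      apply Finset.sum_congr rfl
      intro x _
      rw [Fintype.sum_bool]
    rw [e]
    symm
    refine Finset.sum_bij (fun a _ => dz a.1 a.2.1 a.2.2) ?_ ?_ ?_ ?_
    · intro a _
      refine Finset.mem_filter.2 ⟨Finset.mem_univ _, ?_⟩
      rw [node_dz]
      simp
    · intro a _ b _ h
      obtain ⟨h1, h2, h3⟩ := dz_inj h
      exact Prod.ext h1 (Prod.ext h2 h3)
    · intro d hd
      have hd' := (Finset.mem_filter.1 hd).2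
      rcases hn : node d with _ | z
      · exact absurd hn hd'
      · exact ⟨(z, d.x, d.b), Finset.mem_univ _, (eq_dz hn).symm⟩
    · intro a _
      rfl
  rw [h1, h2] at h0
  exact h0

variable {Act : Set ι} {A : s.Arcs Act} {τ : Bool → ι → s.Dbl → ZMod 2} {G : Set s.Dbl}
variable {far : I → Set W} {D : s.Dbl → Bool → Dart s → ZMod 2}

/-- the chain of `d` passes through the disc of `z₀` of colour `x₀` -/
inductive Anc (G : Set s.Dbl) (D : s.Dbl → Bool → Dart s → ZMod 2) (z₀ : s.Dbl) (x₀ : Bool) :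
    Dart s → Prop
  | here (d : Dart s) (hx : d.x = x₀) (h : Inm G D z₀ d) : Anc G D z₀ x₀ d
  | step (d : Dart s) (z : s.Dbl) (h : Inm G D z d)
      (h' : Anc G D z₀ x₀ (outD (innD D) z (!d.x))) : Anc G D z₀ x₀ d

variable {z₀ : s.Dbl} {x₀ : Bool}

theorem Anc.congr {d d' : Dart s} (h : Anc G D z₀ x₀ d) (hr : Reg G D d d') :
    Anc G D z₀ x₀ d' := by
  cases h with
  | here _ hx h => exact Anc.here d' (hr.hx.trans hx) (h.congr hr)
  | step _ z h h' => exact Anc.step d' z (h.congr hr) (by rw [hr.hx]; exact h')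

theorem Anc.depth (hD : DD A τ G far D) (hG : A.Closed G) {i₀ : I} {n₀ : ℕ}
    (h₀ : Nm G D (inD (innD D) z₀ x₀) i₀ n₀) {d : Dart s} (h : Anc G D z₀ x₀ d) :
    ∀ {j : I} {n : ℕ}, Nm G D d j n → n₀ ≤ n := by
  induction h with
  | here d hx h =>
    intro j n hn
    cases hn with
    | root _ h1 =>
      exfalso
      have := h1 z₀ h.mem
      rw [h.val] at this
      exact one_ne_zero this
    | step _ z _ n h1 h2 =>
      obtain ⟨m, rfl⟩ := nm_in_pos hD h.mem x₀ h₀
      rw [nm_in_iff hD hG h.mem] at h₀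
      have h3 := h1.cv hD h
      rw [hx] at h2
      have h4 := (h2.congr (reg_out hD hG h1.mem h3 _)).unique hD hG h₀
      omega
  | step d z h h' ih =>
    intro j n hn
    cases hn with
    | root _ h1 =>
      exfalso
      have := h1 z h.mem
      rw [h.val] at this
      exact one_ne_zero this
    | step _ z' _ n h1 h2 =>
      have h3 := h1.cv hD h
      have := ih (h2.congr (reg_out hD hG h1.mem h3 _))
      omega

theorem anc_in (hD : DD A τ G far D) (hG : A.Closed G) (hz₀ : z₀ ∈ G) {z : s.Dbl}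
    (hz : z ∈ A.cv z₀) : Anc G D z₀ x₀ (inD (innD D) z x₀) :=
  Anc.here _ (inD_x _ _ _) ((inm_in hD hz₀ x₀).congr (reg_in hD hG hz₀ hz x₀))

theorem not_anc_out (hD : DD A τ G far D) (hG : A.Closed G) (hz₀ : z₀ ∈ G) {i₀ : I} {n₀ : ℕ}
    (h₀ : Nm G D (inD (innD D) z₀ x₀) i₀ n₀) {z : s.Dbl} (hz : z ∈ A.cv z₀) :
    ¬ Anc G D z₀ x₀ (outD (innD D) z (!x₀)) := by
  intro h
  obtain ⟨m, rfl⟩ := nm_in_pos hD hz₀ x₀ h₀
  have h1 := (nm_in_iff hD hG hz₀ x₀).1 h₀
  have h2 := h.depth hD hG h₀ (h1.congr (reg_out hD hG hz₀ hz _))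
  omega

theorem anc_iff (hD : DD A τ G far D) (hG : A.Closed G) {z : s.Dbl}
    (hz : z ∈ G) (x : Bool) (hne : ¬ (x = x₀ ∧ z ∈ A.cv z₀)) :
    Anc G D z₀ x₀ (inD (innD D) z x) ↔ Anc G D z₀ x₀ (outD (innD D) z (!x)) := by
  constructor
  · intro h
    generalize hd : inD (innD D) z x = d at h
    cases h with
    | here d hx h =>
      exfalso
      subst hd
      rw [inD_x] at hx
      exact hne ⟨hx, h.cv hD (inm_in hD hz x)⟩
    | step d z' h h' =>
      subst hd
      rw [inD_x] at h'
      exact h'.congr (reg_out hD hG h.mem (h.cv hD (inm_in hD hz x)) _)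
  · intro h
    refine Anc.step _ z (inm_in hD hz x) ?_
    rw [inD_x]
    exact h

theorem sum_dz (inn : s.Dbl → Bool → Bool) (f : Dart s → ZMod 2) (z : s.Dbl) (x : Bool) :
    f (dz z x true) + f (dz z x false) = f (inD inn z x) + f (outD inn z x) := by
  unfold inD outD
  cases inn z x
  · rfl
  · exact add_comm _ _

open Classical in
/-- **parity** -/
theorem parity (hD : DD A τ G far D) (hG : A.Closed G) {t : Dart s → ZMod 2} (ht : Even t)
    (htt : ∀ d, t (Wk_689.tt G (innD D) d) = t d)
    (hsup : ∀ d, nmf G D d = none → t d = 0) (hz₀ : z₀ ∈ G) (x₀ : Bool) :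
    ∑ z : s.Dbl, (if z ∈ A.cv z₀ then t (inD (innD D) z x₀) else 0) = 0 := by
  by_cases halive : ∃ i n, Nm G D (inD (innD D) z₀ x₀) i n
  swap
  · apply Finset.sum_eq_zero
    intro z _
    split_ifs with hz
    · apply hsup
      rw [← nmf_reg hD hG (reg_in hD hG hz₀ hz x₀)]
      rcases h : nmf G D (inD (innD D) z₀ x₀) with _ | i
      · rfl
      · exact absurd ⟨i, (nmf_some hD hG).1 h⟩ halive
    · rfl
  obtain ⟨i₀, n₀, h₀⟩ := halive
  set f : Dart s → ZMod 2 := fun d => if Anc G D z₀ x₀ d then t d else 0 with hf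
  have hff : ∀ d, f (flip d) = f d := by
    intro d
    simp only [hf]
    have : Anc G D z₀ x₀ (flip d) ↔ Anc G D z₀ x₀ d :=
      ⟨fun h => h.congr (reg_flip hD d).symm, fun h => h.congr (reg_flip hD d)⟩
    rw [if_congr this (ht.fl d) rfl]
  have hc := count f hff
  have h1 : ∑ w ∈ s.P, ∑ F ∈ M.fs w, edv f F w = 0 := by
    apply Finset.sum_eq_zero
    intro w hw
    by_cases hA : ∃ F, ∃ h : s.At F w, Anc G D z₀ x₀ (ed h)
    · obtain ⟨F₀, h₁, h₂⟩ := hA
      have : ∀ F ∈ M.fs w, edv f F w = edv t F w := by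
        intro F hF
        have hat : s.At F w := ⟨hw, MeshC.mem_fs.1 hF⟩
        rw [edv_eq hat, edv_eq hat]
        simp only [hf]
        rw [if_pos (h₂.congr (reg_ed hD h₁ hat))]
      rw [Finset.sum_congr rfl this, ht.ev w hw]
    · apply Finset.sum_eq_zero
      intro F hF
      have hat : s.At F w := ⟨hw, MeshC.mem_fs.1 hF⟩
      rw [edv_eq hat]
      simp only [hf]
      rw [if_neg (fun h => hA ⟨F, hat, h⟩)]
  rw [h1, zero_add] at hc
  refine Eq.trans (Finset.sum_congr rfl ?_) hc
  intro z _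
  rw [Fintype.sum_bool]
  by_cases hz : z ∈ G
  · -- the two interfaces at `z`
    have e : ∀ x, f (inD (innD D) z x) + f (outD (innD D) z (!x)) =
        if x = x₀ ∧ z ∈ A.cv z₀ then t (inD (innD D) z x) else 0 := by
      intro x
      have htx : t (outD (innD D) z (!x)) = t (inD (innD D) z x) := by
        have := htt (outD (innD D) z (!x))
        rw [tt_outD hz, Bool.not_not] at this
        exact this.symm
      simp only [hf]
      by_cases h4 : x = x₀ ∧ z ∈ A.cv z₀
      · obtain ⟨rfl, h5⟩ := h4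
        rw [if_pos (anc_in hD hG hz₀ h5), if_neg (not_anc_out hD hG hz₀ h₀ h5), if_pos ⟨rfl, h5⟩,
          add_zero]
      · rw [if_neg h4, if_congr (anc_iff hD hG hz x h4) rfl rfl, htx]
        split_ifs
        · exact add_self2 _
        · exact add_zero _
    have e1 := e true
    have e2 := e false
    rw [sum_dz (innD D), sum_dz (innD D)]
    have e3 : f (inD (innD D) z true) + f (outD (innD D) z true) +
        (f (inD (innD D) z false) + f (outD (innD D) z false)) =
        (f (inD (innD D) z true) + f (outD (innD D) z (!true))) +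
        (f (inD (innD D) z false) + f (outD (innD D) z (!false))) := by
      simp only [Bool.not_true, Bool.not_false]; ring
    rw [e3, e1, e2]
    cases x₀ <;> by_cases h : z ∈ A.cv z₀ <;> simp [h]
  · have hz' : z ∉ A.cv z₀ := fun h => hz (cv_sub hG hz₀ h)
    rw [if_neg hz']
    have e : ∀ x, f (dz z x true) + f (dz z x false) = 0 := by
      intro x
      apply add_of_eq2
      simp only [hf]
      have h2 : t (dz z x true) = t (dz z x false) := by
        have := htt (dz z x true)
        rw [tt_dz_out hz] at this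
        exact this.symm
      have h3 : Anc G D z₀ x₀ (dz z x true) ↔ Anc G D z₀ x₀ (dz z x false) :=
        ⟨fun h => h.congr (reg_dz hD hG hz _ _ _), fun h => h.congr (reg_dz hD hG hz _ _ _)⟩
      rw [if_congr h3 h2 rfl]
    rw [e, e, add_zero]

end Crest.Agent.R096.St_147
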