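import Crest.Agent.R096.St8_147

/-!
# R096 / P3: inner discs `DD` (File D)
-/

set_option autoImplicit false

namespace Crest.Agent.R096.St_147

open Wk_689

variable {ι Φ W I : Type} {M : MeshC ι Φ W} {col : I → Bool} {s : St M col}

/-- every dart is on the chord of its end point -/
theorem val_pt {α : Type} {g : Dart s → α} (hfl : ∀ d, g (flip d) = g d) (d : Dart s)
    (hj : ∀ z : s.Dbl, z.F = fc d → z.e d.x = (chd d.p).2 →
      g (dz z d.x true) = g (dz z d.x false)) : g d = g (ed (pt_at d)) := by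
  refine chord_const hfl hj (Prod.ext rfl rfl) ?_ rfl ?_
  · rw [chd_ed, lo_pt]
  · rw [x_ed]
    exact (x_eq d).symm

/-- a function on pieces of the sheet `i` without any jump is constant -/
theorem sheet_const {i : I} (hc : s.Conn i) {g : Dart s → ZMod 2} (hfl : ∀ d, g (flip d) = g d)
    (hcont : ∀ (F F' : Φ) (w : W) (h : s.At F w) (h' : s.At F' w), g (ed h) = g (ed h'))
    (hj : ∀ (u : s.Dbl) x, s.lab (u.e x) = i → g (dz u x true) = g (dz u x false))
    {d d' : Dart s} (hd : s.lab (pt d) = i) (hd' : s.lab (pt d') = i) : g d = g d' := by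
  have hval : ∀ d : Dart s, s.lab (pt d) = i → g d = g (ed (pt_at d)) := by
    intro d hd
    refine val_pt hfl d (fun z _ hz => hj z _ ?_)
    rw [hz, ← lab_pt, hd]
  rw [hval d hd, hval d' hd']
  have key := hc.2 {w | ∀ (F : Φ) (h : s.At F w), g (ed h) = g (ed (pt_at d))} (by
      intro F w hw hat hlab F' h'
      have h1 : s.At F (s.mu F w) := At.mu' hat
      rw [hcont F' F _ h' h1]
      rw [← ed_mu_eq hfl hat h1 (fun z _ hz => hj z _ (by
        rw [hz]
        have := lo_pt (ed hat)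
        rw [fc_ed, pt_ed] at this
        rw [this, ← lab_pt, pt_ed, hlab]))]
      exact hw F hat) (pt d) (fun F h => hcont F _ _ h (pt_at d)) (pt_at d).1 hd (pt d')
      (pt_at d').1 hd'
  exact (key _ (pt_at d')).symm

variable {Act : Set ι} {A : s.Arcs Act}

/-- both ends of an arc lie on the same sheets -/
theorem lab_arc (A : s.Arcs Act) {z : s.Dbl} {q : ι} (hq : q ∈ Act) (hz : q ∈ M.side z.F)
    (x : Bool) : s.lab ((A.arc q z).e x) = s.lab (z.e x) := by
  classical
  have h := A.same x hq hz (fun p => if s.lab (chd p).2 = s.lab (z.e x) then 1 else 0) (by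
      intro F F' w p p' hF hF' he he'
      have key : ∀ (F : Φ) (p : s.Sub x), p.End F w → s.lab (chd p).2 = s.lab w := by
        intro F p he
        obtain ⟨hat, h | h⟩ := he
        · obtain ⟨_, b, rfl, hb⟩ := h
          simp only [chd, hb]
        · obtain ⟨_, h⟩ := h
          rcases p with b | z
          · simp only [chd]
            rw [h.1]
            exact s.mu_lab hat.1 hat.2
          · simp only [chd]
            rw [h.2.1]
            exact s.mu_lab hat.1 hat.2
      simp only [key F p he, key F' p' he']) (by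
      intro u p p' _ hb ha'
      rw [below_chd hb, ha']
      rfl)
  by_contra hne
  have h1 : (if s.lab (chd (Sum.inr (A.arc q z) : s.Sub x)).2 = s.lab (z.e x) then (1 : ZMod 2)
      else 0) = 0 := if_neg hne
  have h2 : (if s.lab (chd (Sum.inr z : s.Sub x)).2 = s.lab (z.e x) then (1 : ZMod 2)
      else 0) = 1 := if_pos rfl
  exact one_ne_zero (h2.symm.trans (h.trans h1))

theorem lab_cv' (hG : ∀ z ∈ A.mx, ∀ q ∈ M.side z.F, q ∈ Act) {z u : s.Dbl} (hz : z ∈ A.mx)
    (hu : u ∈ A.cv z) (x : Bool) : s.lab (u.e x) = s.lab (z.e x) := by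
  induction hu with
  | refl => rfl
  | @tail u v h1 h ih =>
    obtain ⟨q, hq, rfl⟩ := h
    have hu := cv_sub A.mx_closed hz h1
    rw [lab_arc A (hG u hu q hq) hq, ih]

theorem exists_side (F : Φ) : ∃ q, q ∈ M.side F := by
  rcases h : M.side F with ⟨q, q'⟩
  exact ⟨q, Sym2.mem_mk_left q q'⟩

/-- one side of a face -/
noncomputable def sd1 (M : MeshC ι Φ W) (F : Φ) : ι := (exists_side (M := M) F).choose

theorem sd1_mem (F : Φ) : sd1 M F ∈ M.side F := (exists_side F).choose_spec

/-- the raw disc function -/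
structure Raw (A : s.Arcs Act) (τ : Bool → ι → s.Dbl → ZMod 2) (z₀ : s.Dbl)
    (δ : Dart s → ZMod 2) : Prop where
  fl : ∀ d, δ (flip d) = δ d
  cont : ∀ (F F' : Φ) (w : W) (h : s.At F w) (h' : s.At F' w), δ (ed h) = δ (ed h')
  jin : ∀ u ∈ A.cv z₀, ∀ x, δ (dz u x true) + δ (dz u x false) = 1
  jout : ∀ u ∉ A.cv z₀, ∀ x, δ (dz u x true) = δ (dz u x false)
  along : ∀ u ∉ A.cv z₀, ∀ x q, q ∈ Act → q ∈ M.side u.F →
    δ (dz u x false) = δ (dz (A.arc q u) x false)
  tau : ∀ u ∈ A.cv z₀, ∀ x q, q ∈ M.side u.F →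
    δ (dz u x false) + δ (dz (A.arc q u) x false) = τ x q u

theorem exists_raw {τ : Bool → ι → s.Dbl → ZMod 2} (hR : RefStmt A τ) {z₀ : s.Dbl}
    (hz₀ : z₀ ∈ A.mx) : ∃ δ, Raw A τ z₀ δ := by
  classical
  have hG := A.mx_closed
  have hcl : ∀ u ∈ A.cv z₀, ∀ q ∈ M.side u.F, q ∈ Act := fun u hu q hq =>
    (hG u (cv_sub hG hz₀ hu) q hq).1
  obtain ⟨c, hc⟩ := hR (fun _ => 0) (fun _ q u => if u ∈ A.cv z₀ ∧ q ∈ Act then 1 else 0)
    ⟨fun _ => rfl, fun w _ => Finset.sum_eq_zero fun F _ => by
      unfold edv; split_ifs <;> rfl⟩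
    { off := fun x q z hq => if_neg (fun h => hq h.2)
      inv := fun x q z hq hqz => by
        apply if_congr _ rfl rfl
        constructor
        · rintro ⟨h1, h2⟩
          refine ⟨?_, h2⟩
          have := cv_trans h1 (cv_arc (A := A) (q := q) (A.mem hq hqz))
          rwa [A.inv hq hqz] at this
        · rintro ⟨h1, h2⟩
          exact ⟨cv_trans h1 (cv_arc hqz), h2⟩ }
    (by
      intro x z q q' hqq
      by_cases hz : z ∈ A.cv z₀
      · have h1 := hcl z hz q (by rw [hqq]; exact Sym2.mem_mk_left q q')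
        have h2 := hcl z hz q' (by rw [hqq]; exact Sym2.mem_mk_right q q')
        rw [if_pos ⟨hz, h1⟩, if_pos ⟨hz, h2⟩]
        decide
      · rw [if_neg (fun h => hz h.1), if_neg (fun h => hz h.1)])
  have hq : ∀ (d : Dart s) q, q ∈ M.side (fc d) → c (sd1 M (fc d)) d = c q d := by
    intro d q hq
    by_cases hqq : sd1 M (fc d) = q
    · rw [hqq]
    · have hs : M.side (fc d) = s(sd1 M (fc d), q) :=
        (Sym2.mem_and_mem_iff hqq).1 ⟨sd1_mem _, hq⟩
      have := hc.bd d _ _ hs
      exact eq_of_add2 this.symm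
  refine ⟨fun d => c (sd1 M (fc d)) d, ?_, ?_, ?_, ?_, ?_, ?_⟩
  · intro d
    rw [fc_flip, hc.fl]
  · intro F F' w h h'
    have key := M.link w {q | ∃ (F₁ : Φ) (h₁ : s.At F₁ w), q ∈ M.side F₁ ∧
        c (sd1 M (fc (ed h₁))) (ed h₁) = c (sd1 M (fc (ed h))) (ed h)} (by
        rintro F₂ hF₂ q hq2 q' hq2' ⟨F₁, h₁, hq1, he⟩
        have h₂ : s.At F₂ w := ⟨h.1, hF₂⟩
        refine ⟨F₂, h₂, hq2', ?_⟩
        rw [← he, hq (ed h₂) q (by rw [fc_ed]; exact hq2), hq (ed h₁) q (by rw [fc_ed]; exact hq1)]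
        exact hc.cont q F₂ F₁ w h₂ h₁ hq2 hq1)
      F h.2 (sd1 M F) (sd1_mem F) ⟨F, h, sd1_mem F, rfl⟩ F' h'.2 (sd1 M F') (sd1_mem F')
    obtain ⟨F₁, h₁, hq1, he⟩ := key
    rw [← he, hq (ed h') (sd1 M F') (by rw [fc_ed]; exact sd1_mem F'),
      hq (ed h₁) (sd1 M F') (by rw [fc_ed]; exact hq1)]
    exact hc.cont _ F₁ F' w h₁ h' hq1 (sd1_mem F')
  · intro u hu x
    rw [fc_dz, fc_dz, hc.jump _ x u (sd1_mem _), if_pos ⟨hu, hcl u hu _ (sd1_mem _)⟩]
  · intro u hu x
    rw [fc_dz, fc_dz]
    have := hc.jump (sd1 M u.F) x u (sd1_mem _)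
    rw [if_neg (fun h => hu h.1)] at this
    exact eq_of_add2 this
  · intro u hu x q hqA hqu
    rw [hq (dz u x false) q (by rw [fc_dz]; exact hqu),
      hq (dz (A.arc q u) x false) q (by rw [fc_dz]; exact A.mem hqA hqu)]
    have := hc.arc q x u hqA hqu
    rw [if_neg (fun h => hu h.1), zero_mul] at this
    exact eq_of_add2 this
  · intro u hu x q hqu
    have hqA := hcl u hu q hqu
    rw [hq (dz u x false) q (by rw [fc_dz]; exact hqu),
      hq (dz (A.arc q u) x false) q (by rw [fc_dz]; exact A.mem hqA hqu)]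
    have := hc.arc q x u hqA hqu
    rw [if_pos ⟨hu, hqA⟩, one_mul] at this
    exact this

open Classical in
/-- value of a function on darts at a point -/
noncomputable def dv (f : Dart s → ZMod 2) (w : W) : ZMod 2 :=
  if h : ∃ F, s.At F w then f (ed h.choose_spec) else 0

theorem dv_eq {f : Dart s → ZMod 2}
    (hcont : ∀ (F F' : Φ) (w : W) (h : s.At F w) (h' : s.At F' w), f (ed h) = f (ed h'))
    {F : Φ} {w : W} (h : s.At F w) : dv f w = f (ed h) := by
  unfold dv
  have h1 : ∃ F, s.At F w := ⟨F, h⟩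
  rw [dif_pos h1]
  exact hcont _ _ _ _ _

open Classical in
/-- the normalised disc function -/
noncomputable def DF (A : s.Arcs Act) (m : I → W) (δ : s.Dbl → Dart s → ZMod 2) (z : s.Dbl)
    (x : Bool) (d : Dart s) : ZMod 2 :=
  if d.x = x ∧ s.lab (pt d) = s.lab ((rpt A z).e x) then
    δ (rpt A z) d + dv (δ (rpt A z)) (m (s.lab ((rpt A z).e x))) else 0

/-- **inner discs** -/
theorem exists_DD {far : I → Set W} {τ : Bool → ι → s.Dbl → ZMod 2} (hg : s.Good Act far)
    (A : s.Arcs Act) (hR : RefStmt A τ) : ∃ D, DD A τ A.mx far D := by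
  classical
  have hG := A.mx_closed
  have hact : ∀ z ∈ A.mx, ∀ q ∈ M.side z.F, q ∈ Act := fun z hz q hq => (hG z hz q hq).1
  choose! δ hδ using fun (z : s.Dbl) (hz : z ∈ A.mx) => exists_raw hR hz
  choose m hm using hg.far_ne
  have hr : ∀ z ∈ A.mx, rpt A z ∈ A.mx := fun z hz => cv_sub hG hz (rpt_mem A z)
  have hcv : ∀ z ∈ A.mx, A.cv (rpt A z) = A.cv z := fun z hz => cv_eq hG hz (rpt_mem A z)
  have hlab : ∀ z ∈ A.mx, ∀ x, s.lab ((rpt A z).e x) = s.lab (z.e x) := fun z hz x =>
    lab_cv' hact hz (rpt_mem A z) x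
  -- marked points: the disc function is constant on them
  have hfar : ∀ z ∈ A.mx, ∀ (i : I) (F : Φ) (w : W) (h : s.At F w), w ∈ far i →
      δ z (ed h) = dv (δ z) (m i) := by
    intro z hz i F w h hw
    have hRw := hδ z hz
    have key := hg.far_conn i {w | w ∈ s.P ∧ s.lab w = i ∧ dv (δ z) w = dv (δ z) (m i)} (by
        rintro F' w' ⟨hw1, hw2, hw3⟩ hf hat hfm hff
        have hat' := At.mu' hat
        refine ⟨hat'.1, (s.mu_lab hat.1 hat.2).trans hw2, ?_⟩
        rw [← hw3, dv_eq hRw.cont hat, dv_eq hRw.cont hat']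
        symm
        refine ed_mu_eq hRw.fl hat hat' (fun u hu1 hu2 => ?_)
        by_cases hu : u ∈ A.cv z
        · exfalso
          rcases hff with h1 | h1
          · exact h1 u hu1 _ hu2
          · obtain ⟨q, hq, hqn⟩ := h1
            exact hqn (hact u (cv_sub hG hz hu) q (by rw [hu1]; exact hq))
        · exact hRw.jout u hu _) (m i)
      ⟨(hg.far_mem (hm i)).1, (hg.far_mem (hm i)).2, rfl⟩ (hm i) hw
    rw [← dv_eq hRw.cont h]
    exact key.2.2
  set D := DF A m δ with hD
  have D_pos : ∀ z x (d : Dart s), d.x = x → s.lab (pt d) = s.lab ((rpt A z).e x) →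
      D z x d = δ (rpt A z) d + dv (δ (rpt A z)) (m (s.lab ((rpt A z).e x))) := by
    intro z x d h1 h2
    rw [hD]
    unfold DF
    rw [if_pos ⟨h1, h2⟩]
  have D_neg : ∀ z x (d : Dart s), ¬ (d.x = x ∧ s.lab (pt d) = s.lab ((rpt A z).e x)) →
      D z x d = 0 := by
    intro z x d h
    rw [hD]
    unfold DF
    rw [if_neg h]
  have Dfl : ∀ z ∈ A.mx, ∀ x d, D z x (flip d) = D z x d := by
    intro z hz x d
    have h2 : s.lab (pt (flip d)) = s.lab (pt d) := by rw [lab_pt, lab_pt]; rfl
    by_cases h : d.x = x ∧ s.lab (pt d) = s.lab ((rpt A z).e x)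
    · rw [D_pos z x d h.1 h.2, D_pos z x (flip d) h.1 (h2.trans h.2), (hδ _ (hr z hz)).fl]
    · rw [D_neg z x d h, D_neg z x (flip d) (fun h' => h ⟨h'.1, h2.symm.trans h'.2⟩)]
  have Dcont : ∀ z ∈ A.mx, ∀ x (F F' : Φ) (w : W) (h : s.At F w) (h' : s.At F' w),
      D z x (ed h) = D z x (ed h') := by
    intro z hz x F F' w h h'
    have h2 : s.lab (pt (ed h)) = s.lab (pt (ed h')) := by rw [pt_ed, pt_ed]
    have h3 : (ed h).x = (ed h').x := by rw [x_ed, x_ed]
    by_cases h4 : (ed h).x = x ∧ s.lab (pt (ed h)) = s.lab ((rpt A z).e x)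
    · rw [D_pos z x _ h4.1 h4.2, D_pos z x _ (h3.symm.trans h4.1) (h2.symm.trans h4.2),
        (hδ _ (hr z hz)).cont F F' w h h']
    · rw [D_neg z x _ h4, D_neg z x _ (fun h' => h4 ⟨h3.trans h'.1, h2.trans h'.2⟩)]
  have Djin : ∀ z ∈ A.mx, ∀ u ∈ A.cv z, ∀ x, D z x (dz u x true) + D z x (dz u x false) = 1 := by
    intro z hz u hu x
    have h1 : ∀ b, s.lab (pt (dz u x b)) = s.lab ((rpt A z).e x) := fun b => by
      rw [lab_dz, hlab z hz, lab_cv' hact hz hu]
    rw [D_pos z x _ (dz_x _ _ _) (h1 _), D_pos z x _ (dz_x _ _ _) (h1 _)]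
    have h2 := (hδ _ (hr z hz)).jin u (by rw [hcv z hz]; exact hu) x
    have h3 := add_self2 (dv (δ (rpt A z)) (m (s.lab ((rpt A z).e x))))
    linear_combination h2 + h3
  have Djout : ∀ z ∈ A.mx, ∀ u ∉ A.cv z, ∀ x, D z x (dz u x true) = D z x (dz u x false) := by
    intro z hz u hu x
    have h0 := (hδ _ (hr z hz)).jout u (by rw [hcv z hz]; exact hu) x
    by_cases h : s.lab (u.e x) = s.lab ((rpt A z).e x)
    · rw [D_pos z x _ (dz_x _ _ _) (by rw [lab_dz]; exact h),
        D_pos z x _ (dz_x _ _ _) (by rw [lab_dz]; exact h), h0]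
    · rw [D_neg z x _ (fun h' => h (by rw [← lab_dz u x true]; exact h'.2)),
        D_neg z x _ (fun h' => h (by rw [← lab_dz u x false]; exact h'.2))]
  have Dalong : ∀ z ∈ A.mx, ∀ u ∉ A.cv z, ∀ x q, q ∈ Act → q ∈ M.side u.F →
      D z x (dz u x false) = D z x (dz (A.arc q u) x false) := by
    intro z hz u hu x q hqA hqu
    have h0 := (hδ _ (hr z hz)).along u (by rw [hcv z hz]; exact hu) x q hqA hqu
    have h1 := lab_arc A hqA hqu x
    by_cases h : s.lab (u.e x) = s.lab ((rpt A z).e x)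
    · rw [D_pos z x _ (dz_x _ _ _) (by rw [lab_dz]; exact h),
        D_pos z x _ (dz_x _ _ _) (by rw [lab_dz, h1]; exact h), h0]
    · rw [D_neg z x _ (fun h' => h (by rw [← lab_dz u x false]; exact h'.2)),
        D_neg z x _ (fun h' => h (by rw [← h1, ← lab_dz (A.arc q u) x false]; exact h'.2))]
  have Dfar : ∀ z ∈ A.mx, ∀ x i (F : Φ) (w : W) (h : s.At F w), w ∈ far i →
      D z x (ed h) = 0 := by
    intro z hz x i F w h hw
    by_cases h1 : (ed h).x = x ∧ s.lab (pt (ed h)) = s.lab ((rpt A z).e x)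
    · rw [D_pos z x _ h1.1 h1.2]
      have h2 : s.lab ((rpt A z).e x) = i := by
        rw [← h1.2, pt_ed]
        exact (hg.far_mem hw).2
      rw [h2, hfar _ (hr z hz) i F w h hw, add_self2]
    · exact D_neg z x _ h1
  have Dsupp : ∀ z ∈ A.mx, ∀ x d, D z x d ≠ 0 → d.x = x ∧ s.lab (pt d) = s.lab (z.e x) := by
    intro z hz x d h
    by_contra hn
    exact h (D_neg z x d (fun h' => hn ⟨h'.1, h'.2.trans (hlab z hz x)⟩))
  have Dcongr : ∀ z ∈ A.mx, ∀ z' ∈ A.cv z, D z' = D z := by
    intro z hz z' hz'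
    rw [hD]
    unfold DF
    rw [rpt_eq hG hz hz']
  have Dany : ∀ z ∈ A.mx, ∀ u ∉ A.cv z, ∀ x b, D z x (dz u x b) = D z x (dz u x false) := by
    intro z hz u hu x b
    cases b
    · rfl
    · exact Djout z hz u hu x
  refine ⟨D, Dcongr, Dsupp, Dfl, Dcont, Djin, Djout, Dalong, ?_, Dfar, ?_, ?_⟩
  · -- tau
    intro z hz u hu x q hqu
    have hqA := hact u (cv_sub hG hz hu) q hqu
    have h1 : s.lab (pt (dz u x false)) = s.lab ((rpt A z).e x) := by
      rw [lab_dz, hlab z hz, lab_cv' hact hz hu]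
    have h2 : s.lab (pt (dz (A.arc q u) x false)) = s.lab ((rpt A z).e x) := by
      rw [lab_dz, lab_arc A hqA hqu, ← h1, lab_dz]
    rw [D_pos z x _ (dz_x _ _ _) h1, D_pos z x _ (dz_x _ _ _) h2]
    have h3 := (hδ _ (hr z hz)).tau u (by rw [hcv z hz]; exact hu) x q hqu
    have h4 := add_self2 (dv (δ (rpt A z)) (m (s.lab ((rpt A z).e x))))
    linear_combination h3 + h4
  · -- double points outside the largest closed set
    intro z hz u hu x b
    have hncv : ∀ u, u ∉ A.mx → u ∉ A.cv z := fun u hu h => hu (cv_sub hG hz h)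
    rw [Dany z hz u (hncv u hu)]
    by_contra hne
    set B : Set s.Dbl := {u | u ∉ A.mx ∧ D z x (dz u x false) ≠ 0} with hB
    have huB : u ∈ B := ⟨hu, hne⟩
    by_cases hfro : ∃ v ∈ B, ∃ q ∈ M.side v.F, q ∉ Act
    · obtain ⟨v, hv, q, hq, hqn⟩ := hfro
      apply hv.2
      have hat : s.At v.F (v.e x) := v.at_ x
      have hfz : St.Frozen M Act v.F := ⟨q, hq, hqn⟩
      rw [← Dfar z hz x _ v.F (v.e x) hat (hg.far_frozen hat hfz)]
      refine chord_const (F := v.F) (a := v.e x) (x := x) (Dfl z hz x) ?_ rfl ?_ rfl ?_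
      · intro y hy _
        refine Djout z hz y (fun h => ?_) x
        exact hqn (hact y (cv_sub hG hz h) q (by rw [hy]; exact hq))
      · rw [chd_ed, lo_eq_of_lt (v.low x)]
      · rw [x_ed, v.colr]
    · push Not at hfro
      apply hu
      apply A.sub_mx (G := A.mx ∪ B) _ (Or.inr huB)
      rintro v (hv | hv) q hq
      · exact ⟨(hG v hv q hq).1, Or.inl (hG v hv q hq).2⟩
      · have hqA := hfro v hv q hq
        refine ⟨hqA, Or.inr ⟨arc_notin hG hv.1 hqA hq, ?_⟩⟩
        rw [← Dalong z hz v (hncv v hv.1) x q hqA hq]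
        exact hv.2
  · -- laminar
    intro z hz z' hz' x d h1 h2
    by_cases hzz : z' ∈ A.cv z
    · left
      intro d' hd'
      rw [Dcongr z hz z' hzz]
      exact hd'
    have hzz' : z ∉ A.cv z' := fun h => hzz (cv_symm hG hz' h)
    have hdis : ∀ u ∈ A.cv z, u ∉ A.cv z' := fun u hu hu' =>
      hzz (cv_trans hu (cv_symm hG hz' hu'))
    have hdis' : ∀ u ∈ A.cv z', u ∉ A.cv z := fun u hu hu' => hdis u hu' hu
    set i := s.lab (pt d) with hi
    have hiz : s.lab (z.e x) = i := (Dsupp z hz x d (by rw [h1]; exact one_ne_zero)).2.symm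
    have hiz' : s.lab (z'.e x) = i := (Dsupp z' hz' x d (by rw [h2]; exact one_ne_zero)).2.symm
    -- values along the curves
    have hal : ∀ z ∈ A.mx, ∀ z' ∈ A.mx, (∀ u ∈ A.cv z, u ∉ A.cv z') → ∀ u ∈ A.cv z, ∀ b,
        D z' x (dz u x b) = D z' x (dz z x false) := by
      intro z hz z' hz' hd u hu b
      rw [Dany z' hz' u (hd u hu)]
      induction hu with
      | refl => rfl
      | @tail u v h1 h ih =>
        obtain ⟨q, hq, rfl⟩ := h
        have hu : u ∈ A.mx := cv_sub hG hz h1
        rw [← ih, Dalong z' hz' u (hd u h1) x q (hact u hu q hq) hq]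
    have hg1 := hal z hz z' hz' hdis
    have hg2 := hal z' hz' z hz hdis'
    -- a marked point of the sheet
    have hP : ∃ d₀ : Dart s, s.lab (pt d₀) = i ∧ d₀.x = x ∧ D z x d₀ = 0 ∧ D z' x d₀ = 0 := by
      have hmf : ∃ F, s.At F (m i) := by
        by_contra hn
        push Not at hn
        have hne : m i ≠ z.e x := by
          intro h
          exact hn z.F (by rw [h]; exact z.at_ x)
        have h3 := (hg.conn i).2 {m i} (by
          intro F w hw hat _
          rw [Set.mem_singleton_iff] at hw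
          rw [hw] at hat
          exact absurd hat (hn F)) (m i) rfl (hg.far_mem (hm i)).1 (hg.far_mem (hm i)).2 (z.e x)
          (z.at_ x).1 hiz
        exact hne (Set.mem_singleton_iff.1 h3).symm
      obtain ⟨F, hF⟩ := hmf
      refine ⟨ed hF, by rw [pt_ed]; exact (hg.far_mem (hm i)).2, ?_, Dfar z hz x i F _ hF (hm i),
        Dfar z' hz' x i F _ hF (hm i)⟩
      rw [x_ed, (hg.far_mem (hm i)).2, ← hiz, z.colr]
    obtain ⟨d₀, hd₀, -, hd₀z, hd₀z'⟩ := hP
    -- functions of the two values without jumps are constant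
    have hconst : ∀ p : ZMod 2 → ZMod 2 → ZMod 2,
        (∀ a, p a (D z' x (dz z x false)) = p 0 (D z' x (dz z x false))) →
        (∀ a, p (D z x (dz z' x false)) a = p (D z x (dz z' x false)) 0) →
        ∀ d', s.lab (pt d') = i → p (D z x d') (D z' x d') = p 0 0 := by
      intro p hp1 hp2 d' hd'
      have := sheet_const (hg.conn i) (g := fun d => p (D z x d) (D z' x d)) (by
          intro d
          simp only [Dfl z hz, Dfl z' hz']) (by
          intro F F' w h h'
          rw [Dcont z hz x F F' w h h', Dcont z' hz' x F F' w h h']) (by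
          intro u y hu
          by_cases hy : y = x
          · subst hy
            by_cases hu1 : u ∈ A.cv z
            · rw [hg1 u hu1, hg1 u hu1, hp1, hp1 (D z y (dz u y false))]
            · by_cases hu2 : u ∈ A.cv z'
              · rw [hg2 u hu2, hg2 u hu2, hp2, hp2 (D z' y (dz u y false))]
              · rw [Djout z hz u hu1, Djout z' hz' u hu2]
          · have e : ∀ z ∈ A.mx, ∀ b, D z x (dz u y b) = 0 := by
              intro z hz b
              by_contra h
              exact hy (by rw [← (Dsupp z hz x _ h).1, dz_x])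
            rw [e z hz, e z hz, e z' hz', e z' hz']) hd' hd₀
      rw [this, hd₀z, hd₀z']
    have hout : ∀ d', s.lab (pt d') ≠ i → D z x d' = 0 ∧ D z' x d' = 0 := by
      intro d' hd'
      constructor
      · by_contra h
        exact hd' ((Dsupp z hz x d' h).2.trans hiz)
      · by_contra h
        exact hd' ((Dsupp z' hz' x d' h).2.trans hiz')
    rcases z2 (D z' x (dz z x false)) with hg0 | hg0 <;>
      rcases z2 (D z x (dz z' x false)) with hf0 | hf0
    · -- disjoint
      exfalso
      have := hconst (fun a b => a * b) (by intro a; simp [hg0]) (by intro a; simp [hf0]) d rfl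
      simp only [h1, h2] at this
      exact absurd this (by decide)
    · right
      intro d' hd'
      by_cases hl : s.lab (pt d') = i
      · have := hconst (fun a b => (1 + a) * b) (by intro a; simp [hg0])
          (by intro a; rw [hf0]; rw [show (1 : ZMod 2) + 1 = 0 by decide]; simp) d' hl
        simp only [hd', mul_one, mul_zero, add_zero] at this
        have h5 : D z x d' = 1 := by
          rcases z2 (D z x d') with h | h
          · rw [h] at this; exact absurd this (by decide)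
          · exact h
        exact h5
      · exact absurd ((hout d' hl).2.symm.trans hd') (by decide)
    · left
      intro d' hd'
      by_cases hl : s.lab (pt d') = i
      · have := hconst (fun a b => a * (1 + b)) (by
            intro a; rw [hg0]; rw [show (1 : ZMod 2) + 1 = 0 by decide]; simp)
          (by intro a; simp [hf0]) d' hl
        simp only [hd', one_mul, zero_mul] at this
        rcases z2 (D z' x d') with h | h
        · rw [h] at this; exact absurd this (by decide)
        · exact h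
      · exact absurd ((hout d' hl).1.symm.trans hd') (by decide)
    · exfalso
      have := hconst (fun a b => (1 + a) * (1 + b)) (by
            intro a; rw [hg0]; rw [show (1 : ZMod 2) + 1 = 0 by decide]; simp)
          (by intro a; rw [hf0]; rw [show (1 : ZMod 2) + 1 = 0 by decide]; simp) d rfl
      simp only [h1, h2] at this
      exact absurd this (by decide)

end Crest.Agent.R096.St_147
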