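import Crest.Agent.R096.StE4_816
import Crest.Agent.R096.Mo3_119

/-!
# P5 StageVertex, part 1 (helper119, row 96): radii and the inserted models
-/

set_option autoImplicit false
set_option linter.unusedSectionVars false

open Set Metric MeasureTheory Filter Topology
open scoped NNReal ContDiff
open Crest.Agent.R096.P5Spec_205
open Crest.Agent.R096.Mo_119 (LBB exists_radius)

namespace Crest.Agent.R096.StV_119

section radii
variable {E : Type*} [NormedAddCommGroup E]

/-- prescribing an upper bound at the points of a discrete set -/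
theorem lbb_pts {Om V : Set E} (hVd : ∀ x ∈ Om, ∃ r > 0, ball x r ∩ V ⊆ {x}) {t : E → ℝ}
    (ht : ∀ v ∈ V, 0 < t v) : ∃ b : E → ℝ, LBB Om b ∧ ∀ v ∈ V, b v ≤ t v := by
  classical
  refine ⟨fun x => if x ∈ V then t x else 1, ?_, fun v hv => by simp [hv]⟩
  intro x hx
  obtain ⟨r, hr, hrV⟩ := hVd x hx
  refine ⟨if x ∈ V then min (t x) 1 else 1, ?_, ?_⟩
  · split_ifs with h
    · exact lt_min (ht _ h) one_pos
    · exact one_pos
  · filter_upwards [ball_mem_nhds x hr] with y hy _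
    by_cases hyV : y ∈ V
    · have hyx : y = x := hrV ⟨hy, hyV⟩
      subst hyx
      simp only [hyV, if_true]
      exact min_le_left _ _
    · simp only [hyV, if_false]
      split_ifs with h
      · exact min_le_right _ _
      · exact le_rfl

/-- a locally bounded below function `s` with at most one point of `V` in `ball x (s x)` -/
theorem lbb_sub {Om V : Set E} (hVd : ∀ x ∈ Om, ∃ r > 0, ball x r ∩ V ⊆ {x}) :
    ∃ s : E → ℝ, LBB Om s ∧ ∀ x ∈ Om, (ball x (s x) ∩ V).Subsingleton := by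
  have key : ∀ x ∈ Om, ∃ m : ℕ, ∀ᶠ y in 𝓝 x, (ball y (1 / ((m : ℝ) + 1)) ∩ V).Subsingleton := by
    intro x hx
    obtain ⟨r, hr, hrV⟩ := hVd x hx
    obtain ⟨m, hm⟩ := exists_nat_gt (1 / (r / 2))
    refine ⟨m, ?_⟩
    filter_upwards [ball_mem_nhds x (half_pos hr)] with y hy
    have h1 : 1 / ((m : ℝ) + 1) ≤ r / 2 := by
      rw [div_le_iff₀ (by positivity)]
      rw [div_lt_iff₀ (by positivity)] at hm
      nlinarith
    have hsub : ball y (1 / ((m : ℝ) + 1)) ⊆ ball x r := by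
      refine ball_subset_ball' ?_
      rw [mem_ball] at hy
      linarith
    intro a ha b hb
    have h2 : a = x := hrV ⟨hsub ha.1, ha.2⟩
    have h3 : b = x := hrV ⟨hsub hb.1, hb.2⟩
    rw [h2, h3]
  obtain ⟨m, hm, hmb⟩ := LBB.of_nat (Ω := Om)
    (P := fun x n => (ball x (1 / ((n : ℝ) + 1)) ∩ V).Subsingleton)
    (fun x hx => by
      obtain ⟨m, hm⟩ := key x hx
      exact ⟨m, hm.self_of_nhds⟩) (fun x hx _ _ => by
      obtain ⟨m, hm⟩ := key x hx
      exact ⟨m, hm.mono fun y hy _ => hy⟩)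
  exact ⟨fun x => 1 / ((m x : ℝ) + 1), hmb, hm⟩

end radii

section radii2
variable {E : Type*} [NormedAddCommGroup E] [NormedSpace ℝ E] [FiniteDimensional ℝ E]

/-- the radii: `ρ` is positive on `Om`, `1/4`-Lipschitz, small at the points of `V`, and the balls
`closedBall v (ρ v)` are disjoint and locally finite. -/
theorem exists_rho {Om V : Set E} (hOm : IsOpen Om)
    (hVd : ∀ x ∈ Om, ∃ r > 0, ball x r ∩ V ⊆ {x}) {t : E → ℝ} (ht : ∀ v ∈ V, 0 < t v) :
    ∃ ρ : E → ℝ, (∀ x ∈ Om, 0 < ρ x) ∧ (∀ x y, |ρ x - ρ y| ≤ 1/4 * ‖x - y‖) ∧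
      (∀ v ∈ V, v ∈ Om → ρ v ≤ t v) ∧ ∀ x ∈ Om, (ball x (4 * ρ x) ∩ V).Subsingleton := by
  obtain ⟨b, hb, hbt⟩ := lbb_pts hVd ht
  obtain ⟨s, hs, hsV⟩ := lbb_sub hVd
  have hs4 : LBB Om (fun x => s x / 4) := by
    intro x hx
    obtain ⟨c, hc, h⟩ := hs x hx
    exact ⟨c / 4, by positivity, h.mono fun y hy hyO => by have := hy hyO; linarith⟩
  obtain ⟨ρ, hρ, -, hpos, hle, -, hD⟩ := exists_radius hOm (hb.inf_min hs4)
  have hLip : LipschitzWith (1/4 : ℝ≥0) ρ := by
    refine lipschitzWith_of_nnnorm_fderiv_le (𝕜 := ℝ) (hρ.differentiable (by simp)) fun x => ?_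
    rw [← NNReal.coe_le_coe, coe_nnnorm]
    refine (hD x).trans ?_
    norm_num
  refine ⟨ρ, hpos, fun x y => ?_, fun v hv hvO => (hle v hvO).trans
    ((min_le_left _ _).trans (hbt v hv)), fun x hx => ?_⟩
  · have := hLip.dist_le_mul x y
    rw [Real.dist_eq, dist_eq_norm] at this
    refine this.trans (le_of_eq ?_)
    norm_num
  · refine (hsV x hx).anti (inter_subset_inter_left _ (ball_subset_ball ?_))
    have := (hle x hx).trans (min_le_right _ _)
    linarith

end radii2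

end Crest.Agent.R096.StV_119
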