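import Crest.Agent.R096.StV1_119

/-!
# P5 StageVertex, part 2 (helper119, row 96): the pasted map
-/

set_option autoImplicit false
set_option linter.unusedSectionVars false

open Set Metric MeasureTheory Filter Topology
open scoped NNReal ContDiff
open Crest.Agent.R096.P5Spec_205
open Crest.Agent.R096.StE_816 (LH lh_homeo lh_add lh_sub lh_smul homeoOn_of_nhds nhds_of_homeoOn)

namespace Crest.Agent.R096.StV_119

variable {E : Type*} [NormedAddCommGroup E] [InnerProductSpace ℝ E] [MeasureSpace E]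

/-- the data of the vertex insertion -/
structure Ins (h : E → E) (Om La V : Set E) (K : E → E → E) (Φ : E → E → E) (r ρ : E → ℝ) :
    Prop where
  openOm : IsOpen Om
  openLa : IsOpen La
  hh : HomeoOn h Om La
  sub : V ⊆ Om
  r_ball : ∀ v ∈ V, ball v (r v) ⊆ Om
  germ : ∀ v ∈ V, ∀ u, ‖u‖ < r v → h (v + u) = h v + K v u
  Kh : ∀ v ∈ V, IsHomeomorph (K v)
  conic : ∀ v ∈ V, Conic (K v)
  Φh : ∀ v ∈ V, IsHomeomorph (Φ v)
  Φout : ∀ v ∈ V, ∀ x, 1 ≤ ‖x‖ → Φ v x = K v x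
  ρ_pos : ∀ x ∈ Om, 0 < ρ x
  ρ_lip : ∀ x y, |ρ x - ρ y| ≤ 1/4 * ‖x - y‖
  ρ_lt : ∀ v ∈ V, ρ v < r v
  ρ_sub : ∀ x ∈ Om, (ball x (4 * ρ x) ∩ V).Subsingleton

/-- the scaled model -/
noncomputable def mdl (Φ : E → E → E) (ρ : E → ℝ) (v u : E) : E := ρ v • Φ v ((ρ v)⁻¹ • u)

open Classical in
/-- the pasted map -/
noncomputable def h3 (h : E → E) (V : Set E) (Φ : E → E → E) (ρ : E → ℝ) (x : E) : E :=
  if hx : ∃ v ∈ V, ‖x - v‖ < ρ v then h hx.choose + mdl Φ ρ hx.choose (x - hx.choose) else h x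

variable {h : E → E} {Om La V : Set E} {K Φ : E → E → E} {r ρ : E → ℝ}

namespace Ins

theorem pos (I : Ins h Om La V K Φ r ρ) {v : E} (hv : v ∈ V) : 0 < ρ v := I.ρ_pos v (I.sub hv)

theorem mdl_out (I : Ins h Om La V K Φ r ρ) {v : E} (hv : v ∈ V) {u : E} (hu : ρ v ≤ ‖u‖) :
    mdl Φ ρ v u = K v u := by
  have h0 := I.pos hv
  unfold mdl
  rw [I.Φout v hv, ← I.conic v hv (ρ v) h0.le, smul_smul, mul_inv_cancel₀ h0.ne', one_smul]
  rw [norm_smul, norm_inv, Real.norm_of_nonneg h0.le, le_inv_mul_iff₀ h0, mul_one]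
  exact hu

theorem mdl_homeo (I : Ins h Om La V K Φ r ρ) {v : E} (hv : v ∈ V) : IsHomeomorph (mdl Φ ρ v) := by
  have h0 := I.pos hv
  have h1 : IsHomeomorph (fun u : E => (ρ v)⁻¹ • u) :=
    (Homeomorph.smulOfNeZero (ρ v)⁻¹ (inv_ne_zero h0.ne')).isHomeomorph
  have h2 : IsHomeomorph (fun u : E => ρ v • u) :=
    (Homeomorph.smulOfNeZero (ρ v) h0.ne').isHomeomorph
  exact h2.comp ((I.Φh v hv).comp h1)

/-- inside the small ball the model and the cone have the same image -/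
theorem mdl_image (I : Ins h Om La V K Φ r ρ) {v : E} (hv : v ∈ V) {u : E} (hu : ‖u‖ < ρ v) :
    ∃ u', ‖u'‖ < ρ v ∧ mdl Φ ρ v u = K v u' := by
  obtain ⟨u', hu'⟩ := (I.Kh v hv).surjective (mdl Φ ρ v u)
  refine ⟨u', ?_, hu'.symm⟩
  by_contra hcon
  push Not at hcon
  rw [← I.mdl_out hv hcon] at hu'
  have := (I.mdl_homeo hv).injective hu'
  rw [this] at hcon
  linarith

theorem K_image (I : Ins h Om La V K Φ r ρ) {v : E} (hv : v ∈ V) {u : E} (hu : ‖u‖ < ρ v) :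
    ∃ u', ‖u'‖ < ρ v ∧ mdl Φ ρ v u' = K v u := by
  obtain ⟨u', hu'⟩ := (I.mdl_homeo hv).surjective (K v u)
  refine ⟨u', ?_, hu'⟩
  by_contra hcon
  push Not at hcon
  rw [I.mdl_out hv hcon] at hu'
  have := (I.Kh v hv).injective hu'
  rw [this] at hcon
  linarith

/-- **uniqueness near a point** -/
theorem near (I : Ins h Om La V K Φ r ρ) {x y z v w : E} (hx : x ∈ Om) (hv : v ∈ V) (hw : w ∈ V)
    (hy : ‖y - x‖ < ρ x) (hz : ‖z - x‖ < ρ x) (hyv : ‖y - v‖ ≤ ρ v) (hzw : ‖z - w‖ ≤ ρ w) :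
    v = w := by
  have key : ∀ {y v : E}, v ∈ V → ‖y - x‖ < ρ x → ‖y - v‖ ≤ ρ v → v ∈ ball x (4 * ρ x) ∩ V := by
    intro y v hv hy hyv
    refine ⟨?_, hv⟩
    have h1 : ‖v - x‖ ≤ ‖y - v‖ + ‖y - x‖ := by
      calc ‖v - x‖ = ‖(y - x) - (y - v)‖ := by congr 1; abel
        _ ≤ ‖y - x‖ + ‖y - v‖ := norm_sub_le _ _
        _ = _ := add_comm _ _
    have h2 := abs_le.1 (I.ρ_lip v x)
    have h3 := I.ρ_pos x hx
    rw [mem_ball, dist_eq_norm]
    linarith [h2.1, h2.2]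
  exact I.ρ_sub x hx (key hv hy hyv) (key hw hz hzw)

theorem ball_sub (I : Ins h Om La V K Φ r ρ) {x v : E} (hv : v ∈ V) (hx : ‖x - v‖ ≤ ρ v) :
    x ∈ Om := I.r_ball v hv (by
      rw [mem_ball, dist_eq_norm]
      exact hx.trans_lt (I.ρ_lt v hv))

theorem unique (I : Ins h Om La V K Φ r ρ) {x v w : E} (hv : v ∈ V) (hw : w ∈ V)
    (hxv : ‖x - v‖ ≤ ρ v) (hxw : ‖x - w‖ ≤ ρ w) : v = w := by
  have hx := I.ball_sub hv hxv
  have h0 := I.ρ_pos x hx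
  exact I.near hx hv hw (y := x) (z := x) (by simpa using h0) (by simpa using h0) hxv hxw

theorem h3_in (I : Ins h Om La V K Φ r ρ) {x v : E} (hv : v ∈ V) (hx : ‖x - v‖ < ρ v) :
    h3 h V Φ ρ x = h v + mdl Φ ρ v (x - v) := by
  have hex : ∃ v ∈ V, ‖x - v‖ < ρ v := ⟨v, hv, hx⟩
  unfold h3
  rw [dif_pos hex]
  have := I.unique hex.choose_spec.1 hv hex.choose_spec.2.le hx.le
  rw [this]

theorem h3_out {x : E} (hx : ¬ ∃ v ∈ V, ‖x - v‖ < ρ v) : h3 h V Φ ρ x = h x := dif_neg hx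

/-- near a point of the closed ball the pasted map is the model -/
theorem h3_model (I : Ins h Om La V K Φ r ρ) {x v : E} (hv : v ∈ V) (hx : ‖x - v‖ ≤ ρ v) :
    h3 h V Φ ρ =ᶠ[𝓝 x] fun y => h v + mdl Φ ρ v (y - v) := by
  have hxO := I.ball_sub hv hx
  have h0 := I.ρ_pos x hxO
  have h1 : ball v (r v) ∈ 𝓝 x := isOpen_ball.mem_nhds (by
    rw [mem_ball, dist_eq_norm]; exact hx.trans_lt (I.ρ_lt v hv))
  filter_upwards [h1, ball_mem_nhds x h0] with y hy1 hy2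
  rw [mem_ball, dist_eq_norm] at hy1 hy2
  by_cases hex : ∃ w ∈ V, ‖y - w‖ < ρ w
  · obtain ⟨w, hw, hyw⟩ := hex
    have : v = w := I.near hxO hv hw (y := x) (z := y) (by simpa using h0) hy2 hx hyw.le
    subst this
    exact I.h3_in hv hyw
  · rw [h3_out hex]
    push Not at hex
    rw [I.mdl_out hv (hex v hv), ← I.germ v hv _ hy1, add_sub_cancel]

/-- away from the closed balls the pasted map is locally `h` -/
theorem h3_far (I : Ins h Om La V K Φ r ρ) {x : E} (hx : x ∈ Om)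
    (hfar : ∀ v ∈ V, ρ v < ‖x - v‖) : h3 h V Φ ρ =ᶠ[𝓝 x] h := by
  have h0 := I.ρ_pos x hx
  by_cases hex : ∃ y ∈ ball x (ρ x), ∃ w ∈ V, ‖y - w‖ < ρ w
  · obtain ⟨y, hy, w, hw, hyw⟩ := hex
    have hopen : IsOpen {z : E | ρ w < ‖z - w‖} := isOpen_lt continuous_const (by fun_prop)
    filter_upwards [ball_mem_nhds x h0, hopen.mem_nhds (hfar w hw)] with z hz1 hz2
    refine h3_out ?_
    rintro ⟨w', hw', hzw'⟩
    rw [mem_ball, dist_eq_norm] at hy hz1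
    have : w = w' := I.near hx hw hw' hy hz1 hyw.le hzw'.le
    subst this
    have hz3 : ρ w < ‖z - w‖ := hz2
    linarith
  · filter_upwards [ball_mem_nhds x h0] with z hz
    refine h3_out ?_
    rintro ⟨w', hw', hzw'⟩
    exact hex ⟨z, hz, w', hw', hzw'⟩

/-- comparison point -/
theorem exists_cmp (I : Ins h Om La V K Φ r ρ) {x : E} (hx : x ∈ Om) :
    ∃ x' ∈ Om, h3 h V Φ ρ x = h x' ∧ ∀ v ∈ V, (‖x - v‖ < ρ v ↔ ‖x' - v‖ < ρ v) := by
  by_cases hex : ∃ w ∈ V, ‖x - w‖ < ρ w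
  · obtain ⟨v, hv, hxv⟩ := hex
    obtain ⟨u', hu', hmu⟩ := I.mdl_image hv hxv
    have h1 : ‖v + u' - v‖ < ρ v := by rwa [add_sub_cancel_left]
    refine ⟨v + u', I.ball_sub hv h1.le, ?_, fun w hw => ⟨fun hxw => ?_, fun hxw => ?_⟩⟩
    · rw [I.h3_in hv hxv, hmu, I.germ v hv u' (hu'.trans (I.ρ_lt v hv))]
    · have := I.unique hv hw hxv.le hxw.le
      subst this; exact h1
    · have := I.unique hv hw h1.le hxw.le
      subst this; exact hxv
  · exact ⟨x, hx, h3_out hex, fun v _ => Iff.rfl⟩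

theorem bijOn (I : Ins h Om La V K Φ r ρ) : BijOn (h3 h V Φ ρ) Om La := by
  refine ⟨fun x hx => ?_, fun x hx y hy hxy => ?_, fun z hz => ?_⟩
  · obtain ⟨x', hx', he, -⟩ := I.exists_cmp hx
    rw [he]; exact I.hh.bij.mapsTo hx'
  · obtain ⟨x', hx', hex, hxv⟩ := I.exists_cmp hx
    obtain ⟨y', hy', hey, hyv⟩ := I.exists_cmp hy
    have hxy' : x' = y' := I.hh.bij.injOn hx' hy' (by rw [← hex, ← hey, hxy])
    subst hxy'
    by_cases hc : ∃ w ∈ V, ‖x - w‖ < ρ w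
    · obtain ⟨v, hv, hxv'⟩ := hc
      have hyv' : ‖y - v‖ < ρ v := (hyv v hv).2 ((hxv v hv).1 hxv')
      rw [I.h3_in hv hxv', I.h3_in hv hyv'] at hxy
      have := (I.mdl_homeo hv).injective (add_left_cancel hxy)
      exact sub_left_injective this
    · have hc' : ¬ ∃ w ∈ V, ‖y - w‖ < ρ w := by
        rintro ⟨v, hv, hyv'⟩
        exact hc ⟨v, hv, (hxv v hv).2 ((hyv v hv).1 hyv')⟩
      rw [h3_out hc, h3_out hc'] at hxy
      exact I.hh.bij.injOn hx hy hxy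
  · obtain ⟨x', hx', rfl⟩ := I.hh.bij.surjOn hz
    by_cases hc : ∃ w ∈ V, ‖x' - w‖ < ρ w
    · obtain ⟨v, hv, hxv'⟩ := hc
      obtain ⟨u', hu', hmu⟩ := I.K_image hv hxv'
      have h1 : ‖v + u' - v‖ < ρ v := by rwa [add_sub_cancel_left]
      refine ⟨v + u', I.ball_sub hv h1.le, ?_⟩
      rw [I.h3_in hv h1, add_sub_cancel_left, hmu,
        ← I.germ v hv _ (hxv'.trans (I.ρ_lt v hv)), add_sub_cancel]
    · exact ⟨x', hx', h3_out hc⟩

theorem lh_model (I : Ins h Om La V K Φ r ρ) {v : E} (hv : v ∈ V) (x : E) :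
    LH (fun y => h v + mdl Φ ρ v (y - v)) x :=
  LH.comp (g := fun y => h v + y) (lh_add _ _)
    (LH.comp (g := mdl Φ ρ v) (f := fun y => y - v) (lh_homeo (I.mdl_homeo hv) _) (lh_sub _ _))

theorem homeoOn (I : Ins h Om La V K Φ r ρ) : HomeoOn (h3 h V Φ ρ) Om La := by
  refine homeoOn_of_nhds I.openOm I.bijOn fun x hx => ?_
  by_cases hc : ∃ w ∈ V, ‖x - w‖ ≤ ρ w
  · obtain ⟨v, hv, hxv⟩ := hc
    exact (I.lh_model hv x).congr (I.h3_model hv hxv)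
  · push Not at hc
    exact LH.congr (nhds_of_homeoOn I.openOm I.openLa I.hh hx) (I.h3_far hx hc)

end Ins

end Crest.Agent.R096.StV_119
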