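import Crest.Agent.R096.Mrg4_715

/-!
# R096 (row 96), DOORS leaf (ST) of helper184's #10551: the star of a point of the frontier
(helper316)

If every inner cell of the tiling meets the frontier of the core in one face of codimension one
(or not at all), then over every point `z` of the frontier there is exactly one inner cell of the
next dimension, and it is a face of every inner cell at `z`.
-/

set_option autoImplicit false

open Set Metric Filter Topology Module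
open scoped Classical

namespace Crest.Agent.R096.Sto_316

open Msh_715 Agl5_543

variable {E : Type} [NormedAddCommGroup E] [NormedSpace ℝ E]
variable {Om : Set E} {ι : Type} {T : Tiling Om ι} {K : Set E}

omit [NormedSpace ℝ E] in
theorem inn_iff (hcl : IsClosed K) {y : E} : y ∈ interior K ↔ y ∈ K ∧ y ∉ frontier K := by
  rw [hcl.frontier_eq]
  constructor
  · intro h
    exact ⟨interior_subset h, fun h' => h'.2 h⟩
  · rintro ⟨h1, h2⟩
    by_contra h3
    exact h2 ⟨h1, h3⟩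

/-- cells over inner points are inner -/
theorem up (hcl : IsClosed K) (hs : ∀ x ∈ frontier K, T.cc x ⊆ frontier K) {x y : E}
    (hy : y ∈ Om) (hx : x ∈ interior K) (hxy : x ∈ T.cc y) : y ∈ interior K := by
  rw [inn_iff hcl]
  obtain ⟨i, hi⟩ := T.at_nonempty hy
  have h1 : P (T.H i) ⊆ K := T.sub_of_mem_interior hcl hs (T.at_sub_of_mem_cc hxy hi) hx
  exact ⟨h1 hi, fun h => ((inn_iff hcl).1 hx).2 (hs y h hxy)⟩

variable [FiniteDimensional ℝ E]

/-- faces of the same dimension -/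
theorem cc_eq_of_dim {x y : E} (hy : y ∈ Om) (h : x ∈ T.cc y) (hd : T.dim y ≤ T.dim x) :
    T.cc x = T.cc y := by
  by_cases h1 : x ∈ T.oc y
  · exact T.cc_eq_of_mem_oc hy h1
  · have := T.dim_lt h h1
    omega

/-- the diamond: two cells between `z` and `y` -/
theorem dia (h3 : finrank ℝ E = 3) {y z : E} (hy : y ∈ Om) (hz : z ∈ T.cc y)
    (hd : T.dim y = T.dim z + 2) :
    ∃ a b, a ∈ T.cc y ∧ b ∈ T.cc y ∧ z ∈ T.cc a ∧ z ∈ T.cc b ∧ T.dim a = T.dim z + 1 ∧
      T.dim b = T.dim z + 1 ∧ T.cc a ≠ T.cc b ∧ ∀ c ∈ T.cc y, z ∈ T.cc c →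
        T.dim c = T.dim z + 1 → T.cc c = T.cc a ∨ T.cc c = T.cc b := by
  have hle := T.dim_le_finrank y
  rw [h3] at hle
  have hzO := T.cc_sub_Om hy hz
  have hcases : (T.dim z = 0 ∧ T.dim y = 2) ∨ (T.dim z = 1 ∧ T.dim y = 3) := by omega
  rcases hcases with ⟨hz0, hy2⟩ | ⟨hz1, hy3⟩
  · obtain ⟨e, f, hef, hset⟩ := Set.ncard_eq_two.1 (T.two_edges hy hy2 hz hz0)
    have he : e ∈ T.edgesAt y z := by rw [hset]; exact mem_insert _ _
    have hf : f ∈ T.edgesAt y z := by rw [hset]; exact mem_insert_of_mem _ rfl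
    refine ⟨e.pt, f.pt, he.2.1 ?_, hf.2.1 ?_, ?_, ?_, ?_, ?_, ?_, ?_⟩
    · rw [e.set_eq]; exact T.self_mem_cc _
    · rw [f.set_eq]; exact T.self_mem_cc _
    · rw [← e.set_eq]; exact he.2.2
    · rw [← f.set_eq]; exact hf.2.2
    · rw [hz0]; exact he.1
    · rw [hz0]; exact hf.1
    · intro h
      apply hef
      apply Tiling.Cell.ext
      rw [e.set_eq, f.set_eq, h]
    · intro c hc hzc hdc
      have hcO := T.cc_sub_Om hy hc
      have hm : T.cl hcO ∈ T.edgesAt y z := by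
        refine ⟨?_, ?_, ?_⟩
        · rw [T.dim_cl hcO, hdc, hz0]
        · rw [T.cl_set]; exact T.cc_sub_of_mem hc
        · rw [T.cl_set]; exact hzc
      rw [hset] at hm
      rcases hm with hm | hm
      · left
        rw [← e.set_eq, ← hm, T.cl_set]
      · right
        rw [mem_singleton_iff] at hm
        rw [← f.set_eq, ← hm, T.cl_set]
  · have hV : T.V y = ⊤ := by
      apply Submodule.eq_top_of_finrank_eq
      rw [h3]; exact hy3
    obtain ⟨q, hq⟩ := (T.V_eq_top_iff hy).1 hV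
    have hcc : T.cc y = P (T.H q) := T.cc_eq_tile hq
    have hqz : q ∈ T.at_ z := by
      show z ∈ P (T.H q)
      rw [← hcc]; exact hz
    obtain ⟨x₁, hx1, x₂, hx2, hd1, hd2, hq1, hq2, hp1, hp2, hne, huniq⟩ :=
      Agl3_543.two_cells T h3 hzO hz1 hqz
    refine ⟨x₁, x₂, ?_, ?_, hp1, hp2, ?_, ?_, hne, ?_⟩
    · rw [hcc]; exact hq1
    · rw [hcc]; exact hq2
    · rw [hz1]; exact hd1
    · rw [hz1]; exact hd2
    · intro c hc hzc hdc
      refine huniq c (T.cc_sub_Om hy hc) (by rw [hdc, hz1]) ?_ hzc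
      show c ∈ P (T.H q)
      rw [← hcc]; exact hc

/-- the hypothesis: inner cells meet the frontier in one face of codimension one -/
def Tr (T : Tiling Om ι) (K : Set E) : Prop :=
  ∀ x ∈ K, x ∉ frontier K → (T.cc x ∩ frontier K).Nonempty →
    ∃ y ∈ T.cc x, T.dim y + 1 = T.dim x ∧ T.cc x ∩ frontier K = T.cc y

section key

variable (h3 : finrank ℝ E = 3) (hcl : IsClosed K) (hKO : K ⊆ Om)
  (hs : ∀ x ∈ frontier K, T.cc x ⊆ frontier K) (tr : Tr T K)

include h3 hcl hKO hs tr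

/-- the facet on the frontier and the other cell of a diamond -/
theorem other {y z : E} (hy : y ∈ interior K) (hz : z ∈ T.cc y) (hzF : z ∈ frontier K)
    (hd : T.dim y = T.dim z + 2) : ∃ w ∈ T.cc y, T.dim w = T.dim z + 1 ∧ z ∈ T.cc w ∧
      T.cc y ∩ frontier K = T.cc w ∧ ∃ x ∈ interior K, x ∈ T.cc y ∧ z ∈ T.cc x ∧
        T.dim x = T.dim z + 1 ∧ ∀ c ∈ T.cc y, z ∈ T.cc c → T.dim c = T.dim z + 1 →
          T.cc c = T.cc w ∨ T.cc c = T.cc x := by
  have hy' := (inn_iff hcl).1 hy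
  have hyO : y ∈ Om := hKO hy'.1
  obtain ⟨w, hw, hwd, hwF⟩ := tr y hy'.1 hy'.2 ⟨z, hz, hzF⟩
  have hzw : z ∈ T.cc w := by rw [← hwF]; exact ⟨hz, hzF⟩
  have hwO := T.cc_sub_Om hyO hw
  have hwd' : T.dim w = T.dim z + 1 := by omega
  refine ⟨w, hw, hwd', hzw, hwF, ?_⟩
  obtain ⟨a, b, ha, hb, hza, hzb, hda, hdb, hab, huniq⟩ := dia h3 hyO hz hd
  have main : ∀ x ∈ T.cc y, z ∈ T.cc x → T.dim x = T.dim z + 1 → T.cc x ≠ T.cc w →
      x ∈ interior K := by
    intro x hx hzx hdx hne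
    obtain ⟨i, hi⟩ := T.at_nonempty hyO
    rw [inn_iff hcl]
    refine ⟨T.sub_of_mem_interior hcl hs hi hy (T.cc_sub_tile hi hx), fun hxF => hne ?_⟩
    refine cc_eq_of_dim hwO ?_ (by omega)
    rw [← hwF]
    exact ⟨hx, hxF⟩
  rcases huniq w hw hzw hwd' with h | h
  · refine ⟨b, main b hb hzb hdb ?_, hb, hzb, hdb, ?_⟩
    · rw [h]; exact hab.symm
    · intro c hc hzc hdc
      rw [h]
      exact huniq c hc hzc hdc
  · refine ⟨a, main a ha hza hda ?_, ha, hza, hda, ?_⟩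
    · rw [h]; exact hab
    · intro c hc hzc hdc
      rw [h]
      exact (huniq c hc hzc hdc).symm

/-- **one inner cell of the next dimension over `z` in every inner cell at `z`** -/
theorem key {y z : E} (hy : y ∈ interior K) (hz : z ∈ T.cc y) (hzF : z ∈ frontier K) :
    ∃ x ∈ interior K, z ∈ T.cc x ∧ x ∈ T.cc y ∧ T.dim x = T.dim z + 1 ∧
      ∀ x' ∈ interior K, z ∈ T.cc x' → x' ∈ T.cc y → T.dim x' = T.dim z + 1 →
        T.cc x' = T.cc x := by
  have hy' := (inn_iff hcl).1 hy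
  have hyO : y ∈ Om := hKO hy'.1
  have hzn : z ∉ T.oc y := by
    intro h
    apply hy'.2
    apply hs z hzF
    rw [T.cc_eq_of_mem_oc hyO h]
    exact T.self_mem_cc y
  have hlt := T.dim_lt hz hzn
  have hle := T.dim_le_finrank y
  rw [h3] at hle
  -- cells of codimension two
  have key2 : ∀ y ∈ interior K, z ∈ T.cc y → T.dim y = T.dim z + 2 →
      ∃ x ∈ interior K, z ∈ T.cc x ∧ x ∈ T.cc y ∧ T.dim x = T.dim z + 1 ∧
      ∀ x' ∈ interior K, z ∈ T.cc x' → x' ∈ T.cc y → T.dim x' = T.dim z + 1 →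
        T.cc x' = T.cc x := by
    intro y hy hz hd
    obtain ⟨w, hw, hwd, hzw, hwF, x, hx, hxy, hzx, hdx, huniq⟩ :=
      other h3 hcl hKO hs tr hy hz hzF hd
    refine ⟨x, hx, hzx, hxy, hdx, ?_⟩
    intro x' hx' hzx' hx'y hdx'
    rcases huniq x' hx'y hzx' hdx' with h | h
    · exfalso
      have h1 : x' ∈ T.cc y ∩ frontier K := by
        rw [hwF, ← h]; exact T.self_mem_cc x'
      exact ((inn_iff hcl).1 hx').2 h1.2
    · exact h
  have hcases : T.dim y = T.dim z + 1 ∨ T.dim y = T.dim z + 2 ∨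
      (T.dim z = 0 ∧ T.dim y = 3) := by omega
  rcases hcases with hd | hd | ⟨hz0, hy3⟩
  · refine ⟨y, hy, hz, T.self_mem_cc y, hd, ?_⟩
    intro x' _ _ hx' hdx'
    exact cc_eq_of_dim hyO hx' (by omega)
  · exact key2 y hy hz hd
  · -- a tile at a vertex
    obtain ⟨w, hw, hwd, hwF⟩ := tr y hy'.1 hy'.2 ⟨z, hz, hzF⟩
    have hwO := T.cc_sub_Om hyO hw
    have hw2 : T.dim w = 2 := by omega
    have hzw : z ∈ T.cc w := by rw [← hwF]; exact ⟨hz, hzF⟩
    have hwK : w ∈ frontier K := by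
      have : w ∈ T.cc y ∩ frontier K := by rw [hwF]; exact T.self_mem_cc w
      exact this.2
    obtain ⟨a, b, ha, hb, hza, hzb, hda, hdb, hab, huniqw⟩ := dia h3 hwO hzw (by omega)
    -- the other face at an edge of `w`
    have face : ∀ a ∈ T.cc w, z ∈ T.cc a → T.dim a = T.dim z + 1 →
        ∃ F ∈ interior K, F ∈ T.cc y ∧ z ∈ T.cc F ∧ T.dim F = 2 ∧ ∀ G ∈ interior K,
          G ∈ T.cc y → T.dim G = 2 → a ∈ T.cc G → T.cc G = T.cc F := by
      intro a ha hza hda
      obtain ⟨w', hw', hwd', haw', hwF', F, hF, hFy, haF, hdF, huniq⟩ :=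
        other h3 hcl hKO hs tr (z := a) hy (T.cc_sub_of_mem hw ha) (hs w hwK ha) (by omega)
      refine ⟨F, hF, hFy, T.cc_sub_of_mem haF hza, by omega, ?_⟩
      intro G hG hGy hdG haG
      rcases huniq G hGy haG (by omega) with h | h
      · exfalso
        have h1 : G ∈ T.cc y ∩ frontier K := by
          rw [hwF', ← h]; exact T.self_mem_cc G
        exact ((inn_iff hcl).1 hG).2 h1.2
      · exact h
    obtain ⟨Fa, hFa, hFay, hzFa, hdFa, hFau⟩ := face a ha hza hda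
    obtain ⟨Fb, hFb, hFby, hzFb, hdFb, hFbu⟩ := face b hb hzb hdb
    obtain ⟨x, hx, hzx, hxFa, hdx, hxu⟩ := key2 Fa hFa hzFa (by omega)
    -- the inner faces at `z`
    have hfaces : ∀ G ∈ interior K, G ∈ T.cc y → T.dim G = 2 → z ∈ T.cc G →
        T.cc G = T.cc Fa ∨ T.cc G = T.cc Fb := by
      intro G hG hGy hdG hzG
      obtain ⟨w'', hw'', hwd'', hwF''⟩ := tr G ((inn_iff hcl).1 hG).1 ((inn_iff hcl).1 hG).2
        ⟨z, hzG, hzF⟩
      have h1 : w'' ∈ T.cc G ∩ frontier K := by rw [hwF'']; exact T.self_mem_cc w''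
      have h2 : z ∈ T.cc w'' := by rw [← hwF'']; exact ⟨hzG, hzF⟩
      have h4 : w'' ∈ T.cc w := by
        rw [← hwF]
        exact ⟨T.cc_sub_of_mem hGy h1.1, h1.2⟩
      rcases huniqw w'' h4 h2 (by omega) with h | h
      · left
        refine hFau G hG hGy hdG ?_
        apply T.cc_sub_of_mem h1.1
        rw [h]
        exact T.self_mem_cc a
      · right
        refine hFbu G hG hGy hdG ?_
        apply T.cc_sub_of_mem h1.1
        rw [h]
        exact T.self_mem_cc b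
    refine ⟨x, hx, hzx, T.cc_sub_of_mem hFay hxFa, hdx, ?_⟩
    intro x' hx' hzx' hx'y hdx'
    refine hxu x' hx' hzx' ?_ hdx'
    -- `x'` is in two faces of `y`
    obtain ⟨G₁, G₂, hG1, hG2, hx1, hx2, hd1, hd2, hne, -⟩ := dia h3 hyO hx'y (by omega)
    have hi1 : G₁ ∈ interior K := up hcl hs (T.cc_sub_Om hyO hG1) hx' hx1
    have hi2 : G₂ ∈ interior K := up hcl hs (T.cc_sub_Om hyO hG2) hx' hx2
    rcases hfaces G₁ hi1 hG1 (by omega) (T.cc_sub_of_mem hx1 hzx') with h | h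
    · rw [← h]; exact hx1
    · rcases hfaces G₂ hi2 hG2 (by omega) (T.cc_sub_of_mem hx2 hzx') with h' | h'
      · rw [← h']; exact hx2
      · exact absurd (h.trans h'.symm) hne

end key

/-- **(ST)**: over a point of the frontier there is exactly one inner cell of the next dimension;
it is a face of every inner cell at the point -/
theorem st_of_tr' (h3 : finrank ℝ E = 3) (hK : Core K) (hKO : K ⊆ Om)
    (hs : ∀ x ∈ frontier K, T.cc x ⊆ frontier K) (tr : Tr T K) {z : E} (hz : z ∈ frontier K) :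
    ∃ x ∈ K, x ∉ frontier K ∧ z ∈ T.cc x ∧ T.dim x = T.dim z + 1 ∧
      ∀ y ∈ K, y ∉ frontier K → z ∈ T.cc y → x ∈ T.cc y := by
  have hcl := hK.closed
  have hzO : z ∈ Om := hKO (hcl.frontier_subset hz)
  obtain ⟨V, hV, S, hSc, hVS, hSU⟩ := hK.inn z hz _ (T.good_nhds hzO)
  obtain ⟨y₀, hy0V, hy0i⟩ := mem_closure_iff_nhds.1 (hK.reg hz) V hV
  have hy0S : y₀ ∈ S := hVS ⟨hy0V, hy0i⟩
  obtain ⟨x, hx, hzx, hxy0, hdx, hxu⟩ :=
    key h3 hcl hKO hs tr hy0i (hSU hy0S).1.2.2 hz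
  refine ⟨x, interior_subset hx, ((inn_iff hcl).1 hx).2, hzx, hdx, ?_⟩
  -- the cell is constant on `S`
  set g : E → Bool := fun y => decide (x ∈ T.cc y) with hg
  have hcont : ContinuousOn g S := by
    intro y hy
    have hyU := (hSU hy).1
    have hyi := (hSU hy).2
    have hyO : y ∈ Om := hyU.1
    have hev : ∀ᶠ y' in 𝓝[S] y, g y' = g y := by
      have h1 : ∀ᶠ y' in 𝓝[S] y, y' ∈ Om ∧ y ∈ T.cc y' :=
        (T.eventually_mem_cc hyO).filter_mono nhdsWithin_le_nhds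
      filter_upwards [h1, self_mem_nhdsWithin] with y' hy' hy'S
      have hzy' := (hSU hy'S).1.2.2
      have hiff : x ∈ T.cc y' ↔ x ∈ T.cc y := by
        constructor
        · intro h
          obtain ⟨x1, hx1, hzx1, hx1y, hdx1, hx1u⟩ := key h3 hcl hKO hs tr hyi hyU.2.2 hz
          obtain ⟨x2, hx2, hzx2, hx2y, hdx2, hx2u⟩ :=
            key h3 hcl hKO hs tr (hSU hy'S).2 hzy' hz
          have e1 : T.cc x1 = T.cc x2 :=
            hx2u x1 hx1 hzx1 (T.cc_sub_of_mem hy'.2 hx1y) hdx1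
          have e2 : T.cc x = T.cc x2 := hx2u x hx hzx h hdx
          apply T.cc_sub_of_mem hx1y
          rw [e1, ← e2]
          exact T.self_mem_cc x
        · intro h
          exact T.cc_sub_of_mem hy'.2 h
      rw [hg]
      simp only [hiff]
    exact (continuousWithinAt_const (b := g y)).congr_of_eventuallyEq hev rfl
  have hconst : ∀ y ∈ S, x ∈ T.cc y := by
    intro y hy
    have h := hSc.constant hcont hy hy0S
    have h' : g y₀ = true := decide_eq_true hxy0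
    rw [h'] at h
    exact of_decide_eq_true h
  -- any inner cell at `z`
  intro y hyK hyF hzy
  have hyi : y ∈ interior K := (inn_iff hcl).2 ⟨hyK, hyF⟩
  have hyO : y ∈ Om := hKO hyK
  have hmove : ∀ᶠ s in 𝓝[>] (0 : ℝ), z + s • (y - z) ∈ V := by
    have hc : Tendsto (fun s : ℝ => z + s • (y - z)) (𝓝 0) (𝓝 (z + (0 : ℝ) • (y - z))) := by
      apply Continuous.tendsto
      fun_prop
    rw [zero_smul, add_zero] at hc
    exact (hc.mono_left nhdsWithin_le_nhds) hV
  have hle : ∀ᶠ s in 𝓝[>] (0 : ℝ), 0 < s ∧ s ≤ 1 := by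
    filter_upwards [Ioc_mem_nhdsGT (show (0 : ℝ) < 1 by norm_num)] with s hs'
    exact hs'
  obtain ⟨s, hsV, hs0, hs1⟩ := (hmove.and hle).exists
  have hoc : z + s • (y - z) ∈ T.oc y := T.move_mem_oc hzy hs0 hs1
  have hcc : T.cc (z + s • (y - z)) = T.cc y := T.cc_eq_of_mem_oc hyO hoc
  have hi : z + s • (y - z) ∈ interior K := by
    refine up hcl hs (T.cc_sub_Om hyO (T.oc_sub_cc y hoc)) hyi ?_
    rw [hcc]
    exact T.self_mem_cc y
  rw [← hcc]
  exact hconst _ (hVS ⟨hsV, hi⟩)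

/-- **(ST)** in the form of #10551 -/
theorem st_of_tr (h3 : finrank ℝ E = 3) {Om : Set E} {ι : Type} {T : Tiling Om ι} {K : Set E}
    (hK : Core K) (_hL : PC (frontier K)) (hKO : K ⊆ Om)
    (hs : ∀ x ∈ frontier K, T.cc x ⊆ frontier K)
    (tr : ∀ x ∈ K, x ∉ frontier K → (T.cc x ∩ frontier K).Nonempty →
      ∃ y ∈ T.cc x, T.dim y + 1 = T.dim x ∧ T.cc x ∩ frontier K = T.cc y)
    {z : E} (hz : z ∈ frontier K) :
    ∃ x ∈ K, x ∉ frontier K ∧ z ∈ T.cc x ∧ T.dim x = T.dim z + 1 ∧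
      ∀ y ∈ K, y ∉ frontier K → z ∈ T.cc y → x ∈ T.cc y :=
  st_of_tr' h3 hK hKO hs tr hz

end Crest.Agent.R096.Sto_316
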