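import Crest.Agent.R096.Pst0_465
import Crest.Agent.R096.Ub4_113

/-!
# Row 96, p = 2: the step (helper968; leaf L2 of 753 #10029, literal `Pst_465.Step2`)

* `comp_same`: after the surgery the components of the final levels are the old ones.
* `AroundStmt T`: leaf L4 (some circle surrounds a high point of a face with a low rim).
* `step2_of`: `AroundStmt T → Step2 T La`.
-/

set_option autoImplicit false
set_option linter.unusedSectionVars false

open Set Metric Topology Filter Module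

namespace Crest.Agent.R096.Stp_968

open Ce_537 Pl Cb_609 Msh_715
open Sk2_855 (HP sk1 Mv)
open Srg_465 Ub_113 Pst_465

/-- a component of the smaller level set is a component of the larger one, if the smaller one is
relatively open -/
theorem comp_same {X : Type*} [TopologicalSpace X] {A B : Set X} (hAB : A ⊆ B)
    (hA : IsClosed A) (hop : ∀ x ∈ A, ∃ V, IsOpen V ∧ x ∈ V ∧ B ∩ V ⊆ A) {x : X} (hx : x ∈ A) :
    connectedComponentIn A x = connectedComponentIn B x := by
  apply Subset.antisymm (connectedComponentIn_mono x hAB)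
  apply IsPreconnected.subset_connectedComponentIn isPreconnected_connectedComponentIn
    (mem_connectedComponentIn (hAB hx))
  set C := connectedComponentIn B x with hC
  have hCB : C ⊆ B := connectedComponentIn_subset _ _
  choose! V hVo hxV hV using hop
  set U : Set X := ⋃ y ∈ A, V y with hU
  have hUo : IsOpen U := isOpen_biUnion fun y hy => hVo y hy
  have hcov : C ⊆ U ∪ Aᶜ := by
    intro y hy
    by_cases hyA : y ∈ A
    · exact Or.inl (mem_biUnion hyA (hxV y hyA))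
    · exact Or.inr hyA
  have hdis : C ∩ (U ∩ Aᶜ) = ∅ := by
    rw [eq_empty_iff_forall_notMem]
    rintro y ⟨hy, hyU, hyA⟩
    obtain ⟨z, hz, hyz⟩ := mem_iUnion₂.1 hyU
    exact hyA (hV z hz ⟨hCB hy, hyz⟩)
  rcases isPreconnected_iff_subset_of_disjoint.1 isPreconnected_connectedComponentIn U Aᶜ hUo
    hA.isOpen_compl hcov hdis with h | h
  · intro y hy
    obtain ⟨z, hz, hyz⟩ := mem_iUnion₂.1 (h hy)
    exact hV z hz ⟨hCB hy, hyz⟩
  · exact absurd hx (h (mem_connectedComponentIn (hAB hx)))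

/-- leaf L4 -/
def AroundStmt {E : Type*} [NormedAddCommGroup E] [NormedSpace ℝ E] {Om : Set E} {ι : Type*}
    (T : Tiling Om ι) : Prop :=
  ∀ x ∈ Om, T.dim x = 2 → ∀ (φ : E → ℝ) (I : Set ℝ),
    Lev (T.cc x) (T.cc x ∩ sk1 T) φ I → ∀ t ∈ I, (∀ z ∈ T.cc x, z ∈ sk1 T → φ z < t) →
    ∀ z ∈ T.cc x, t < φ z → ∃ Γ K, Circ (T.cc x) (T.cc x ∩ sk1 T) φ t Γ ∧
      DiscIn (T.cc x) (T.cc x ∩ sk1 T) K Γ ∧ z ∈ K

section Step

variable {E : Type} [NormedAddCommGroup E] [NormedSpace ℝ E] [FiniteDimensional ℝ E]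
variable {Om La : Set E} {ι : Type} {T : Tiling Om ι}

theorem step2_of (h3 : finrank ℝ E = 3) (hDM : DMove E) (hLev : LevStmt T)
    (h4 : AroundStmt T) : Step2 T La := by
  classical
  intro B h hi H hOk hSig
  have M := mesh (T := T) h3 hDM
  set u : E → ℝ := fun y => B.u y with hu
  have huc : Continuous u := B.cont
  let J : Finset (Face T) := (Ub3_113.finite_faces B.toUBox H).toFinset
  have hJ : ∀ k, k ∈ J ↔ ∃ x ∈ k.set, B.u (h x) ≤ B.b := by
    intro k; simp [J]
  -- the regular levels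
  have hlev : ∀ k : Face T, ∃ bad : Set ℝ, bad.Finite ∧ ∀ I : Set ℝ, IsPreconnected I →
      Disjoint I bad →
      Lev k.set (k.set ∩ sk1 T) (fun x => u (h x)) I ∧
        ∃ n : ℕ, ∀ t ∈ I, {Γ | Circ k.set (k.set ∩ sk1 T) (fun x => u (h x)) t Γ}.ncard ≤ n := by
    intro k
    obtain ⟨x, hx, hd, e⟩ := k.exists_pt
    rw [e]
    refine hLev x hx hd _ ?_
    have h1 : PLOn h (T.cc x) := LocPL.plOn H.pl (T.isCompact_cc hx) (T.cc_sub_Om hx)
    have h2 : PLOn u univ := B.pl
    exact h2.comp h1 fun _ _ => mem_univ _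
  choose bad hbad hn' using hlev
  have hBf : (⋃ k ∈ (J : Set (Face T)), bad k).Finite :=
    J.finite_toSet.biUnion fun k _ => hbad k
  obtain ⟨a', b', ha', hab', hb', hdis⟩ : ∃ a' b', B.a ≤ a' ∧ a' < b' ∧ b' ≤ B.b ∧
      Disjoint (Ioo a' b') (⋃ k ∈ (J : Set (Face T)), bad k) := by
    have hop : IsOpen (Ioo B.a B.b ∩ (⋃ k ∈ (J : Set (Face T)), bad k)ᶜ) :=
      isOpen_Ioo.inter hBf.isClosed.isOpen_compl
    have hne : (Ioo B.a B.b ∩ (⋃ k ∈ (J : Set (Face T)), bad k)ᶜ).Nonempty := by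
      have h1 : (Ioo B.a B.b).Infinite := Ioo_infinite B.ab
      obtain ⟨t, ht, ht'⟩ := (h1.sdiff hBf).nonempty
      exact ⟨t, ht, ht'⟩
    obtain ⟨t, ht⟩ := hne
    obtain ⟨l, m, hlm, hsub⟩ := (mem_nhds_iff_exists_Ioo_subset).1 (hop.mem_nhds ht)
    have hlm' : l < m := hlm.1.trans hlm.2
    have h1 : Icc l m ⊆ Icc B.a B.b := by
      rw [← closure_Ioo hlm'.ne, ← closure_Ioo B.ab.ne]
      exact closure_mono fun s hs => (hsub hs).1
    have h2 := h1 (left_mem_Icc.2 hlm'.le)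
    have h4 := h1 (right_mem_Icc.2 hlm'.le)
    refine ⟨l, m, h2.1, hlm', h4.2, ?_⟩
    rw [disjoint_left]
    exact fun s hs => (hsub hs).2
  have hn2 : ∀ k : Face T, ∃ n : ℕ, k ∈ J →
      Lev k.set (k.set ∩ sk1 T) (fun x => u (h x)) (Ioo a' b') ∧
        ∀ t ∈ Ioo a' b', {Γ | Circ k.set (k.set ∩ sk1 T) (fun x => u (h x)) t Γ}.ncard ≤ n := by
    intro k
    by_cases hk : k ∈ J
    · obtain ⟨h1, n, h2⟩ := hn' k (Ioo a' b') isPreconnected_Ioo (hdis.mono_right
        (subset_biUnion_of_mem (u := bad) (show k ∈ (J : Set (Face T)) from hk)))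
      exact ⟨n, fun _ => ⟨h1, h2⟩⟩
    · exact ⟨0, fun hk' => absurd hk' hk⟩
  choose n hn using hn2
  have hI : Ioo a' b' ⊆ Icc B.a B.b := fun t ht => ⟨ha'.trans ht.1.le, ht.2.le.trans hb'⟩
  have hI' : Ioo a' b' ⊆ Ioo B.a B.b := Ioo_subset_Ioo ha' hb'
  have L : Lvls La u (fun t => {y | B.u y ≤ t}) (fun t => {y | B.u y = t}) (Ioo a' b') :=
    { cont := huc.continuousOn
      ball := fun t ht => B.ball t (hI' ht)
      sub := fun t ht y hy => B.sub y (by
        have : B.u y = t := hy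
        rw [this]; exact (hI ht).2)
      eq := fun t ht y _ => Iff.rfl }
  let 𝒜 : ℝ → Set E → Prop := fun t D =>
    Disjoint D (Ub2_113.X B.toUBox h t) ∧ ∃ m, D ⊆ B.c' m
  have hA : ∀ t D D', 𝒜 t D → D' ⊆ D → 𝒜 t D' := fun t D D' h1 h2 =>
    ⟨h1.1.mono_left h2, h1.2.imp fun m hm => h2.trans hm⟩
  have s : St Om La (sk1 T) (fun k : Face T => k.set) J u 𝒜 (Ioo a' b') h hi :=
    { hp := H
      lev := fun k hk => (hn k hk).1
      off := fun k hk x hx hxI => hk ((hJ k).2 ⟨x, hx, (hI hxI).2⟩)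
      rim := by
        rintro k hk t ht x hx hxt ⟨p, hp1, hp2⟩ D hD hxD
        obtain ⟨q, hq, hd, e⟩ := k.exists_pt
        change x ∈ k.set at hx
        change u (h x) = t at hxt
        have hLS : Ls k.set (fun x => u (h x)) t = Ub2_113.LS B.toUBox h t q := by
          rw [e]; rfl
        rw [hLS] at hp1
        have hpL := connectedComponentIn_subset _ _ hp1
        have hsub := Ub2_113.comp_sub_X (B := B.toUBox) (h := h) hq hd hpL hp2.2.2
        rw [← connectedComponentIn_eq hp1] at hsub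
        have hxL : x ∈ Ub2_113.LS B.toUBox h t q := ⟨by rw [← e]; exact hx, hxt⟩
        exact disjoint_left.1 hD.1 hxD (hsub ⟨x, mem_connectedComponentIn hxL, rfl⟩) }
  have hsum : ∀ t ∈ Ioo a' b', (∑ k ∈ J, {Γ | Circ k.set (k.set ∩ sk1 T)
      (fun x => u (h x)) t Γ}.ncard) ≤ ∑ k ∈ J, n k := by
    intro t ht
    exact Finset.sum_le_sum fun k hk => (hn k hk).2 t ht
  obtain ⟨ψ, hψ, c1, c2, a'', b'', ha'', hab'', hb'', e1, s1, g1⟩ :=
    surgery M hA _ a' b' hab' L h hi s hsum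
  have hI2 : Ioo a'' b'' ⊆ Ioo a' b' := Ioo_subset_Ioo ha'' hb''
  have hMv : Mv T ψ := ⟨hψ.plh, hψ.supp⟩
  refine ⟨ψ, hMv, ?_, ?_, ?_⟩
  · intro x hx hd z hz
    rcases c1 (mkFace hx hd) z hz with h1 | ⟨t, ht, D, Γ, hAD, hS, hzD⟩
    · exact Or.inl h1
    · right
      have h2 : B.u (h (ψ z)) = t := hS.sub hzD
      obtain ⟨m, hm⟩ := hAD.2
      refine ⟨⟨?_, ?_⟩, mem_iUnion.2 ⟨m, hm hzD⟩⟩
      · show B.a ≤ B.u (h (ψ z))
        rw [h2]; exact (hI ht).1
      · show B.u (h (ψ z)) ≤ B.b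
        rw [h2]; exact (hI ht).2
  · intro x hx hd hdj
    exact c2 (mkFace hx hd) (fun z hz hzI => disjoint_left.1 hdj ⟨z, hz, rfl⟩ (by
      show B.a ≤ B.u (h z) ∧ B.u (h z) ≤ B.b
      exact hI hzI))
  · intro x hown z hz
    by_contra hno
    rw [not_lt] at hno
    obtain ⟨-, hx, hd, hNC, hrim⟩ := id hown
    obtain ⟨t, ht⟩ := nonempty_Ioo.2 hab''
    have htI := hI (hI2 ht)
    have htI' := hI' (hI2 ht)
    set k : Face T := mkFace hx hd with hk
    have hks : k.set = T.cc x := rfl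
    have hkJ : k ∈ J := by
      obtain ⟨v, hv, hv0⟩ := T.exists_vertex hx
      rw [hJ]
      refine ⟨v, hv, ((hrim v hv ⟨T.cc_sub_Om hx hv, ?_⟩).trans B.ab).le⟩
      rw [hv0]; exact zero_le_one
    have hid : ∀ w ∈ T.cc x, B.u (h (ψ w)) = t → ∀ᶠ y in 𝓝 w, ψ y = y := fun w hw hwt =>
      e1 k w hw (by
        show B.u (h (ψ w)) ∈ Ioo a'' b''
        rw [hwt]; exact ht)
    have hbt1 : t < B.t1 := htI'.2.trans_le B.bt
    -- the point is not moved
    have hzid : ψ z = z := by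
      rcases c1 k z hz with h1 | ⟨t', ht', D, Γ, -, hS, hzD⟩
      · exact h1.self_of_nhds
      · exfalso
        have h2 : B.u (h (ψ z)) = t' := hS.sub hzD
        rw [h2] at hno
        exact absurd (hno.trans_lt ((hI' ht').2.trans_le B.bt)) (lt_irrefl _)
    -- a circle around it
    obtain ⟨Γ, K, hΓ, hK, hzK⟩ := h4 x hx hd (fun w => u (h (ψ w))) (Ioo a'' b'')
      (s1.lev k hkJ) t ht (fun w hw hw1 => by
        show B.u (h (ψ w)) < t
        rw [hψ.eq_on hw1]
        exact (hrim w hw hw1).trans htI'.1) z hz (by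
        show t < B.u (h (ψ z))
        exact hbt1.trans_le hno)
    have hΓL : Γ ⊆ Ls (T.cc x) (fun w => u (h (ψ w))) t := hΓ.subset
    have hΓid : ∀ w ∈ Γ, ψ w = w := fun w hw =>
      (hid w (hΓL hw).1 (hΓL hw).2).self_of_nhds
    have him : (fun w => h (ψ w)) '' Γ = h '' Γ := by
      apply image_congr
      intro w hw
      show h (ψ w) = h w
      rw [hΓid w hw]
    -- it is an old circle
    have hΓold : Circ (T.cc x) (T.cc x ∩ sk1 T) (fun w => u (h w)) t Γ := by
      obtain ⟨⟨w, hw, hwt, rfl⟩, h2⟩ := hΓ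
      refine ⟨⟨w, hw, ?_, ?_⟩, h2⟩
      · show u (h w) = t
        have e := (hid w hw hwt).self_of_nhds
        have hwt' : u (h (ψ w)) = t := hwt
        rw [e] at hwt'
        exact hwt'
      · refine comp_same ?_ ?_ ?_ ⟨hw, hwt⟩
        · rintro y ⟨hy, hyt⟩
          refine ⟨hy, ?_⟩
          show u (h y) = t
          have e := (hid y hy hyt).self_of_nhds
          change u (h (ψ y)) = t at hyt
          rw [e] at hyt
          exact hyt
        · have hc : ContinuousOn (fun w => u (h (ψ w))) (T.cc x) :=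
            huc.comp_continuousOn (s1.hp.contOn.mono (T.cc_sub_Om hx))
          exact hc.preimage_isClosed_of_isClosed (T.isCompact_cc hx).isClosed isClosed_singleton
        · rintro y ⟨hy, hyt⟩
          obtain ⟨V, hV, hVo, hyV⟩ := _root_.mem_nhds_iff.1 (hid y hy hyt)
          refine ⟨V, hVo, hyV, ?_⟩
          rintro y' ⟨⟨hy', hyt'⟩, hyV'⟩
          refine ⟨hy', ?_⟩
          show u (h (ψ y')) = t
          rw [show ψ y' = y' from hV hyV']
          exact hyt'
    obtain ⟨m, hm⟩ := hSig x hown t htI' Γ K hΓold hK ⟨z, hzK, by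
      have h1 := hno
      rw [hzid] at h1
      exact h1⟩
    -- the sides
    obtain ⟨hB, hsub, -⟩ := hK
    have hFO : K ⊆ Om := hsub.trans fun w hw => T.cc_sub_Om hx hw.1
    have hc : Nonempty (PLEquiv (S1 ℝ) ((fun w => h (ψ w)) '' Γ)) :=
      circle_of_disc (HP.ball_image s1.hp hB hFO)
    have hcZ : (fun w => h (ψ w)) '' Γ ⊆ {y | B.u y = t} := by
      rintro _ ⟨w, hw, rfl⟩
      exact (hΓL hw).2
    obtain ⟨A, A', h5, h6⟩ := sphere_sides (L.ball t (hI2 ht)) hc hcZ
    have hSA : Side {y | B.u y ≤ t} {y | B.u y = t} A ((fun w => h (ψ w)) '' Γ) :=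
      ⟨A', h5, h6⟩
    have hSA' : Side {y | B.u y ≤ t} {y | B.u y = t} A' ((fun w => h (ψ w)) '' Γ) :=
      ⟨A, h5.symm, by rw [union_comm]; exact h6⟩
    have hXc : Disjoint (Ub2_113.X B.toUBox h t) ((fun w => h (ψ w)) '' Γ) := by
      refine Disjoint.mono_right ?_ (Ub2_113.nc_disj hOk (HP.injOn H) htI hx hd hNC).symm
      rw [him]
      exact image_mono fun w hw => (hΓL hw).1
    have hXp := Ub2_113.X_preconn hOk H.contOn htI
    have hXs := Ub2_113.X_sub B.toUBox h t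
    obtain ⟨S, hSp, hSc, hSc'⟩ := B.sep t htI' m
    obtain ⟨k', y, hyM, hyt, hyc⟩ := B.far t htI' m
    have hyS : y ∈ S := hSc' ⟨hyt, hyc⟩
    have hyX : y ∈ Ub2_113.X B.toUBox h t := Ub2_113.mark_sub_X k' ⟨hyM, hyt⟩
    have hSΓ : Disjoint S ((fun w => h (ψ w)) '' Γ) := by
      rw [him, disjoint_left]
      exact fun w hw hw' => (hSc hw).2 (hm hw')
    have hSZ : S ⊆ {y | B.u y = t} := fun w hw => (hSc hw).1
    have key : ∀ {D D' : Set E}, Side {y | B.u y ≤ t} {y | B.u y = t} D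
        ((fun w => h (ψ w)) '' Γ) → Side {y | B.u y ≤ t} {y | B.u y = t} D'
        ((fun w => h (ψ w)) '' Γ) → D ∪ D' = {y | B.u y = t} →
        D ∩ D' = (fun w => h (ψ w)) '' Γ → Disjoint (Ub2_113.X B.toUBox h t) D → False := by
      intro D D' hD hD' hU hint hXD
      have hSD : Disjoint S D := by
        rcases split_of_union hD.isBall.isClosed hD'.isBall.isClosed hU hint hSp hSZ hSΓ with
          h7 | h7
        · exact absurd (h7.1 hyS) (disjoint_left.1 hXD hyX)
        · exact h7.2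
      have hDc : D ⊆ B.c' m := by
        intro w hw
        by_contra hwc
        exact disjoint_left.1 hSD (hSc' ⟨hD.sub hw, hwc⟩) hw
      exact g1 t ht k hkJ Γ hΓ D hD ⟨hXD.symm, m, hDc⟩
    rcases split_of_union hSA.isBall.isClosed hSA'.isBall.isClosed h6 h5.inter hXp hXs hXc with
      h7 | h7
    · exact key hSA' hSA (by rw [union_comm]; exact h6) (by rw [inter_comm]; exact h5.inter) h7.2
    · exact key hSA hSA' h6 h5.inter h7.2

end Step

end Crest.Agent.R096.Stp_968
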