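import Crest.Agent.R096.Stp1_968
import Crest.Agent.R096.Dsc2_113

/-!
# Row 96, p = 2: the step, final form (helper968; leaf L2 of 753 #10029)
-/

set_option autoImplicit false
set_option linter.unusedSectionVars false

open Set Metric Topology Filter Module

namespace Crest.Agent.R096.Stp_968

open Msh_715 Srg_465 Pst_465

/-- leaf L4 (113) in the form used here -/
theorem around {E : Type} [NormedAddCommGroup E] [NormedSpace ℝ E] [FiniteDimensional ℝ E]
    {Om : Set E} {ι : Type} (T : Tiling Om ι) : AroundStmt T := by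
  intro x hx hd φ I hL t ht hr z hz hzt
  obtain ⟨Γ, K, hD, hzK⟩ := Dsc_113.exists_circle (φ := φ) hx hd hL ht
    (fun y hy => hr y hy.1 hy.2) hz hzt
  exact ⟨Γ, K, hD.circ, hD.2, hzK⟩

/-- **L2 : the step for p = 2** -/
theorem step2 {E : Type} [NormedAddCommGroup E] [NormedSpace ℝ E] [FiniteDimensional ℝ E]
    (h3 : finrank ℝ E = 3) (hDM : DMove E) {Om La : Set E} {ι : Type} (T : Tiling Om ι) :
    Step2 T La := step2_of h3 hDM (levStmt T) (around T)

end Crest.Agent.R096.Stp_968

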