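import Crest.Agent.R096.Gsim2_812
import Crest.Agent.R096.Mal16_874

/-!
Row 96 (S0127), helper157: the star of a tile is in good form in the frame of the tile
(753 #12106 (S1)): from `Good` of all tiles which meet the tile `i`, each in its own frame and scale.
-/

set_option autoImplicit false
set_option linter.style.longLine false

open Set

namespace Crest.Agent.R096.Str_157

open Crest.Agent.R096.Msh_715 Crest.Agent.R096.Mal_874 Crest.Agent.R096.Sk3_812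

variable {n : ℕ}

theorem exists_den {α : Type*} [Finite α] (f : α → ℚ) :
    ∃ D : ℕ, 0 < D ∧ ∀ a, ∃ c : ℤ, (f a : ℝ) = c / D := by
  classical
  cases nonempty_fintype α
  refine ⟨∏ a, (f a).den, Finset.prod_pos fun a _ => (f a).den_pos, fun a => ?_⟩
  obtain ⟨k, hk⟩ := Finset.dvd_prod_of_mem (fun a => (f a).den) (Finset.mem_univ a)
  have hk0 : (k : ℝ) ≠ 0 := by
    have h1 : 0 < ∏ a, (f a).den := Finset.prod_pos fun a _ => (f a).den_pos
    rw [hk] at h1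
    have h2 : k ≠ 0 := by
      rintro rfl
      simp at h1
    exact_mod_cast h2
  have hd0 : ((f a).den : ℝ) ≠ 0 := by exact_mod_cast (f a).den_pos.ne'
  refine ⟨(f a).num * k, ?_⟩
  rw [hk]
  have h3 : (f a : ℝ) = (f a).num / (f a).den := by
    have h := Rat.num_div_den (f a)
    exact_mod_cast (congrArg (fun q : ℚ => (q : ℝ)) h).symm
  rw [h3]
  push_cast
  field_simp

theorem eq_zero_of_all {E : Type*} [NormedAddCommGroup E] [NormedSpace ℝ E] {Om : Set E}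
    {ι : Type*} (T : Tiling Om ι) (l : ι) {v : E} (hv : ∀ h ∈ T.H l, h.1 v = 0) : v = 0 := by
  by_contra hne
  obtain ⟨x, hx⟩ := T.ne l
  obtain ⟨C, hC⟩ := (T.cpt l).isBounded.exists_norm_le
  have hmem : ∀ t : ℝ, x + t • v ∈ P (T.H l) := by
    intro t h hh
    have h1 := (hx h hh).le
    simpa [hv h hh] using h1
  have hv0 : 0 < ‖v‖ := norm_pos_iff.2 hne
  have h1 := hC _ (hmem ((C + ‖x‖ + 1) / ‖v‖))
  have h2 : ‖((C + ‖x‖ + 1) / ‖v‖) • v‖ ≤ ‖x + ((C + ‖x‖ + 1) / ‖v‖) • v‖ + ‖x‖ := by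
    have h3 := norm_sub_le (x + ((C + ‖x‖ + 1) / ‖v‖) • v) x
    rwa [add_sub_cancel_left] at h3
  have hx0 := hC _ (I_sub_P _ hx)
  have h4 : ‖((C + ‖x‖ + 1) / ‖v‖) • v‖ = C + ‖x‖ + 1 := by
    rw [norm_smul, Real.norm_eq_abs, abs_of_nonneg (by positivity [norm_nonneg x, hx0.trans' (norm_nonneg x)])]
    field_simp
  linarith

theorem gf_lin {E : Type*} [NormedAddCommGroup E] [NormedSpace ℝ E] {χ : E ≃ᵃ[ℝ] (Fin n → ℝ)}
    {s : ℝ} {𝒩 : Finset (Fin n → ℝ)} {d : ℕ} {h : (E →L[ℝ] ℝ) × ℝ} {ν : Fin n → ℝ} {t : ℤ}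
    (G : GF χ s 𝒩 d h ν t) (x y : E) :
    s * h.1 (y - x) = dt ν (fun m => χ y m - χ x m) := by
  have h1 := G.eq y
  have h2 := G.eq x
  rw [dt_sub, map_sub]
  linarith

/-- the vectors of the inequalities of a tile span -/
theorem span_top {E : Type*} [NormedAddCommGroup E] [NormedSpace ℝ E] {Om : Set E} {ι : Type*}
    (T : Tiling Om ι) (l : ι) (χ : E ≃ᵃ[ℝ] (Fin n → ℝ)) {s : ℝ} (hs : 0 < s)
    {𝒩 : Finset (Fin n → ℝ)} {d : ℕ} (vq : 𝒩 → Fin n → ℚ) (hvq : ∀ σ : 𝒩, ∀ j, (vq σ j : ℝ) = σ.1 j)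
    (hg : ∀ h ∈ T.H l, ∃ ν, ∃ c : ℤ, GF χ s 𝒩 d h ν c) :
    Submodule.span ℚ (vq '' {σ | ∃ h ∈ T.H l, ∃ c : ℤ, GF χ s 𝒩 d h σ.1 c}) = ⊤ := by
  classical
  by_contra hne
  obtain ⟨f, hf0, hf⟩ := Submodule.exists_le_ker_of_lt_top _ (lt_top_iff_ne_top.2 hne)
  set w : Fin n → ℚ := fun j => f (Pi.single j 1) with hw
  have hfw : ∀ u : Fin n → ℚ, f u = ∑ j, u j * w j := by
    intro u
    conv_lhs => rw [← Finset.univ_sum_single u]
    rw [map_sum]
    refine Finset.sum_congr rfl fun j _ => ?_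
    have h1 : (Pi.single j (u j) : Fin n → ℚ) = u j • Pi.single j 1 := by
      rw [← Pi.single_smul, smul_eq_mul, mul_one]
    rw [h1, map_smul, smul_eq_mul]
  set v : E := χ.linear.symm (fun j => (w j : ℝ)) with hv
  have hv0 : v = 0 := by
    refine eq_zero_of_all T l fun h hh => ?_
    obtain ⟨ν, c, G⟩ := hg h hh
    have h1 := gf_lin G 0 v
    rw [sub_zero] at h1
    have h2 : (fun m => χ v m - χ 0 m) = fun j => (w j : ℝ) := by
      have h3 : χ v = χ.linear v +ᵥ χ 0 := by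
        have := χ.map_vadd 0 v
        simpa using this
      funext m
      rw [h3]
      simp [hv]
    rw [h2] at h1
    have h4 : dt ν (fun j => (w j : ℝ)) = 0 := by
      have h5 : f (vq ⟨ν, G.mem⟩) = 0 :=
        hf (Submodule.subset_span ⟨⟨ν, G.mem⟩, ⟨h, hh, c, G⟩, rfl⟩)
      rw [hfw] at h5
      unfold dt
      have h6 : ((∑ j, vq ⟨ν, G.mem⟩ j * w j : ℚ) : ℝ) = 0 := by rw [h5]; simp
      push_cast at h6
      rw [← h6]
      refine Finset.sum_congr rfl fun j _ => ?_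
      rw [hvq ⟨ν, G.mem⟩ j]
    rw [h4] at h1
    exact (mul_eq_zero.1 h1).resolve_left hs.ne'
  have hw0 : ∀ j, w j = 0 := by
    intro j
    have h1 : χ.linear v = fun j => (w j : ℝ) := by simp [hv]
    rw [hv0, map_zero] at h1
    have h2 := congrFun h1 j
    simp only [Pi.zero_apply] at h2
    exact_mod_cast h2.symm
  apply hf0
  ext u
  simp [hw0, hfw]

/-- coefficients which depend only on the set of the vectors and on the target -/
theorem exists_coef {V : Type*} [Fintype V] (vq : V → Fin n → ℚ) :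
    ∃ q : Set V → (Fin n → ℚ) → V → ℚ, ∀ S w, Submodule.span ℚ (vq '' S) = ⊤ →
      (∀ σ ∉ S, q S w σ = 0) ∧ ∀ j, ∑ σ, q S w σ * vq σ j = w j := by
  classical
  have h : ∀ (S : Set V) (w : Fin n → ℚ), ∃ q : V → ℚ, Submodule.span ℚ (vq '' S) = ⊤ →
      (∀ σ ∉ S, q σ = 0) ∧ ∀ j, ∑ σ, q σ * vq σ j = w j := by
    intro S w
    by_cases hS : Submodule.span ℚ (vq '' S) = ⊤
    · have hw : w ∈ Submodule.span ℚ (vq '' S) := by rw [hS]; trivial
      obtain ⟨c, hc, e⟩ := (Finsupp.mem_span_image_iff_linearCombination ℚ).1 hw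
      refine ⟨fun σ => c σ, fun _ => ⟨fun σ hσ => ?_, fun j => ?_⟩⟩
      · by_contra h0
        exact hσ (hc (Finsupp.mem_support_iff.2 h0))
      · rw [← e, Finsupp.linearCombination_apply, Finsupp.sum_fintype _ _ (by simp)]
        simp
    · exact ⟨0, fun h => absurd h hS⟩
  choose q hq using h
  exact ⟨q, hq⟩

theorem exists_star {n : ℕ} (𝒩 : Finset (Fin n → ℝ)) {d : ℕ} (hd : 0 < d)
    (h𝒩 : ∀ ν ∈ 𝒩, ∀ j, ∃ c : ℤ, ν j = c / d) (R : ℝ) (m : ℕ) :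
    ∃ (𝒩' : Finset (Fin n → ℝ)) (d' : ℕ) (R' : ℝ), 0 < d' ∧
      (∀ ν ∈ 𝒩', ∀ j, ∃ c : ℤ, ν j = c / d') ∧
      ∀ {E : Type} [NormedAddCommGroup E] [NormedSpace ℝ E] [FiniteDimensional ℝ E]
        {Om : Set E} {ι : Type} (T : Tiling Om ι) (i : ι) (χ : ι → E ≃ᵃ[ℝ] (Fin n → ℝ))
        (κ : ι → ℕ),
        (∀ l, (P (T.H l) ∩ P (T.H i)).Nonempty →
          Good T l (χ l) (κ l) 𝒩 d R ∧ κ l ≤ κ i + m ∧ κ i ≤ κ l + m) →
        GStar T i (χ i) (2 ^ κ i) 𝒩' d' R' := by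
  classical
  have hd0 : (d : ℝ) ≠ 0 := by exact_mod_cast hd.ne'
  -- rational forms
  have hz : ∀ σ : 𝒩, ∃ c : Fin n → ℤ, ∀ j, σ.1 j = c j / d := by
    intro σ
    choose c hc using h𝒩 σ.1 σ.2
    exact ⟨c, hc⟩
  choose cz hcz using hz
  set vq : 𝒩 → Fin n → ℚ := fun σ j => (cz σ j : ℚ) / d with hvqd
  have hvq : ∀ σ : 𝒩, ∀ j, (vq σ j : ℝ) = σ.1 j := by
    intro σ j
    rw [hcz σ j, hvqd]
    push_cast
    rfl
  obtain ⟨q, hq⟩ := exists_coef vq
  obtain ⟨D, hD, hDq⟩ := exists_den (fun p : Set 𝒩 × 𝒩 × 𝒩 => q p.1 (vq p.2.1) p.2.2)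
  have hD0 : (D : ℝ) ≠ 0 := by exact_mod_cast hD.ne'
  choose cq hcq using hDq
  -- bounds
  obtain ⟨C, hC⟩ := (Set.finite_range
    (fun p : Set 𝒩 × Fin n × 𝒩 => |(q p.1 (Pi.single p.2.1 1) p.2.2 : ℝ)|)).bddAbove
  set C1 : ℝ := max C 0 with hC1
  have hC1' : ∀ S j σ, |(q S (Pi.single j 1) σ : ℝ)| ≤ C1 := fun S j σ =>
    (hC ⟨(S, j, σ), rfl⟩).trans (le_max_left _ _)
  set M : ℝ := ∑ ν ∈ 𝒩, n1 ν with hM
  have hM0 : 0 ≤ M := Finset.sum_nonneg fun ν _ => n1_nonneg ν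
  have hM' : ∀ ν ∈ 𝒩, n1 ν ≤ M := fun ν hν =>
    Finset.single_le_sum (f := n1) (fun ν _ => n1_nonneg ν) hν
  set B : ℝ := (Fintype.card 𝒩 : ℝ) * (C1 * (2 ^ m * (|R| * M))) with hB
  -- the list
  set 𝒩' : Finset (Fin n → ℝ) := (Set.finite_range
    (fun (p : Set 𝒩 × 𝒩 × (𝒩 → 𝒩)) (j : Fin n) =>
      ∑ σ, (q p.1 (vq p.2.1) σ : ℝ) * (p.2.2 σ).1 j)).toFinset with h𝒩'
  refine ⟨𝒩', d * D * 2 ^ m, B + |R| + B, by positivity, ?_, ?_⟩
  · intro ν hν j
    rw [h𝒩', Set.Finite.mem_toFinset] at hν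
    obtain ⟨⟨S, ν0, g⟩, rfl⟩ := hν
    refine ⟨2 ^ m * ∑ σ, cq (S, ν0, σ) * cz (g σ) j, ?_⟩
    dsimp only
    push_cast
    rw [Finset.mul_sum, Finset.sum_div]
    refine Finset.sum_congr rfl fun σ _ => ?_
    have h1 := hcq (S, ν0, σ)
    dsimp only at h1
    rw [h1, hcz (g σ) j]
    field_simp
  intro E _ _ _ Om ι T i χ κ hgood
  have hii : (P (T.H i) ∩ P (T.H i)).Nonempty := by
    obtain ⟨x, hx⟩ := T.ne i
    exact ⟨x, I_sub_P _ hx, I_sub_P _ hx⟩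
  have hself : ∀ l, (P (T.H l) ∩ P (T.H l)).Nonempty := by
    intro l
    obtain ⟨x, hx⟩ := T.ne l
    exact ⟨x, I_sub_P _ hx, I_sub_P _ hx⟩
  obtain ⟨Gi, -, -⟩ := hgood i hii
  refine ⟨?_, ?_⟩
  · -- the normals
    intro l hl l' hl' h'' hh''
    obtain ⟨Gl, hk1, hk2⟩ := hgood l hl
    have hgl : ∀ h ∈ T.H l, ∃ ν, ∃ c : ℤ, GF (χ l) (2 ^ κ l) 𝒩 d h ν c := Gl.gf l (hself l)
    have hgi : ∀ h ∈ T.H l, ∃ ν, ∃ c : ℤ, GF (χ i) (2 ^ κ i) 𝒩 d h ν c := Gi.gf l hl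
    obtain ⟨ν'', c'', G''⟩ := Gl.gf l' hl' h'' hh''
    set S : Set 𝒩 := {σ | ∃ h ∈ T.H l, ∃ c : ℤ, GF (χ l) (2 ^ κ l) 𝒩 d h σ.1 c} with hS
    have hsp := span_top T l (χ l) (s := 2 ^ κ l) (by positivity) vq hvq hgl
    obtain ⟨hq0, hqe⟩ := hq S (vq ⟨ν'', G''.mem⟩) hsp
    have hch : ∀ σ : 𝒩, ∃ (g : 𝒩) (ca cb : ℤ) (h : (E →L[ℝ] ℝ) × ℝ), σ ∈ S →
        GF (χ l) (2 ^ κ l) 𝒩 d h σ.1 cb ∧ GF (χ i) (2 ^ κ i) 𝒩 d h g.1 ca := by
      intro σ
      by_cases hσ : σ ∈ S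
      · obtain ⟨h, hh, c, G⟩ := hσ
        obtain ⟨ν, c', G'⟩ := hgi h hh
        exact ⟨⟨ν, G'.mem⟩, c', c, h, fun _ => ⟨G, G'⟩⟩
      · exact ⟨σ, 0, 0, 0, fun h => absurd h hσ⟩
    choose g ca cb hf hGF using hch
    -- the power of two
    obtain ⟨ρ, hρ⟩ : ∃ ρ : ℕ, (2 : ℝ) ^ κ i * 2 ^ m = ρ * 2 ^ κ l := by
      refine ⟨2 ^ (κ i + m - κ l), ?_⟩
      push_cast
      rw [← pow_add, ← pow_add]
      congr 1
      omega
    have hr : (2 : ℝ) ^ κ i = ρ / 2 ^ m * 2 ^ κ l := by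
      field_simp
      linarith
    refine ⟨fun j => ∑ σ, (q S (vq ⟨ν'', G''.mem⟩) σ : ℝ) * (g σ).1 j,
      2 ^ m * ∑ σ, cq (S, ⟨ν'', G''.mem⟩, σ) * ca σ
        - ρ * (∑ σ, cq (S, ⟨ν'', G''.mem⟩, σ) * cb σ - D * c''), ?_, fun y => ?_⟩
    · rw [h𝒩', Set.Finite.mem_toFinset]
      exact ⟨(S, ⟨ν'', G''.mem⟩, g), rfl⟩
    · set Q : 𝒩 → ℝ := fun σ => (q S (vq ⟨ν'', G''.mem⟩) σ : ℝ) with hQ
      have hQc : ∀ σ, Q σ = cq (S, ⟨ν'', G''.mem⟩, σ) / D := fun σ => hcq (S, ⟨ν'', G''.mem⟩, σ)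
      have hQ0 : ∀ σ ∉ S, Q σ = 0 := by
        intro σ hσ
        simp only [hQ, hq0 σ hσ, Rat.cast_zero]
      -- the vector ν''
      have hvec : ∀ j, ∑ σ, Q σ * σ.1 j = ν'' j := by
        intro j
        have h1 := hqe j
        have h2 : ((∑ σ, q S (vq ⟨ν'', G''.mem⟩) σ * vq σ j : ℚ) : ℝ) = (vq ⟨ν'', G''.mem⟩ j : ℝ) := by
          rw [h1]
        push_cast at h2
        rw [hvq ⟨ν'', G''.mem⟩ j] at h2
        refine Eq.trans ?_ h2
        exact Finset.sum_congr rfl fun σ _ => by rw [hvq σ j]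
      have hdt : ∀ u : Fin n → ℝ, dt ν'' u = ∑ σ, Q σ * dt σ.1 u := by
        intro u
        unfold dt
        simp_rw [← hvec, Finset.sum_mul, Finset.mul_sum]
        rw [Finset.sum_comm]
        exact Finset.sum_congr rfl fun σ _ => Finset.sum_congr rfl fun j _ => by ring
      have hdt2 : ∀ u : Fin n → ℝ, dt (fun j => ∑ σ, Q σ * (g σ).1 j) u = ∑ σ, Q σ * dt (g σ).1 u := by
        intro u
        unfold dt
        simp_rw [Finset.sum_mul, Finset.mul_sum]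
        rw [Finset.sum_comm]
        exact Finset.sum_congr rfl fun σ _ => Finset.sum_congr rfl fun j _ => by ring
      have hterm : ∀ σ, Q σ * (ρ / 2 ^ m * (dt σ.1 (χ l y) - cb σ / d))
          = Q σ * (dt (g σ).1 (χ i y) - ca σ / d) := by
        intro σ
        by_cases hσ : σ ∈ S
        · obtain ⟨A1, A2⟩ := hGF σ hσ
          rw [← A1.eq y, ← A2.eq y, hr]
          ring
        · rw [hQ0 σ hσ, zero_mul, zero_mul]
      have e1 := G''.eq y
      have hsum := Finset.sum_congr (rfl : (Finset.univ : Finset 𝒩) = Finset.univ) fun σ _ => hterm σ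
      have e2 : ∑ σ, Q σ * (ρ / 2 ^ m * (dt σ.1 (χ l y) - cb σ / d))
          = ρ / 2 ^ m * (dt ν'' (χ l y) - (∑ σ, Q σ * cb σ) / d) := by
        rw [hdt, mul_sub, Finset.mul_sum, Finset.sum_div, Finset.mul_sum, ← Finset.sum_sub_distrib]
        exact Finset.sum_congr rfl fun σ _ => by ring
      have e3 : ∑ σ, Q σ * (dt (g σ).1 (χ i y) - ca σ / d)
          = dt (fun j => ∑ σ, Q σ * (g σ).1 j) (χ i y) - (∑ σ, Q σ * ca σ) / d := by
        rw [hdt2, Finset.sum_div, ← Finset.sum_sub_distrib]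
        exact Finset.sum_congr rfl fun σ _ => by ring
      rw [e2, e3] at hsum
      have e4 : (∑ σ, Q σ * (ca σ : ℝ)) = (∑ σ, (cq (S, ⟨ν'', G''.mem⟩, σ) : ℝ) * ca σ) / D := by
        rw [Finset.sum_div]
        exact Finset.sum_congr rfl fun σ _ => by rw [hQc]; ring
      have e5 : (∑ σ, Q σ * (cb σ : ℝ)) = (∑ σ, (cq (S, ⟨ν'', G''.mem⟩, σ) : ℝ) * cb σ) / D := by
        rw [Finset.sum_div]
        exact Finset.sum_congr rfl fun σ _ => by rw [hQc]; ring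
      rw [e4, e5] at hsum
      have e6 : (2 : ℝ) ^ κ i * (h''.1 y - h''.2) = ρ / 2 ^ m * (dt ν'' (χ l y) - c'' / d) := by
        rw [← e1, hr]
        ring
      rw [e6]
      have e7 : dt ν'' (χ l y) * (ρ / 2 ^ m)
          = ρ / 2 ^ m * (((∑ σ, (cq (S, ⟨ν'', G''.mem⟩, σ) : ℝ) * cb σ) / D) / d)
            + dt (fun j => ∑ σ, Q σ * (g σ).1 j) (χ i y)
            - ((∑ σ, (cq (S, ⟨ν'', G''.mem⟩, σ) : ℝ) * ca σ) / D) / d := by
        linarith
      rw [mul_sub, mul_comm _ (dt ν'' (χ l y)), e7]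
      push_cast
      field_simp
      ring
  · -- the size
    have key : ∀ l, (P (T.H l) ∩ P (T.H i)).Nonempty → ∀ x ∈ P (T.H l), ∀ y ∈ P (T.H l), ∀ j,
        |χ i y j - χ i x j| ≤ B := by
      intro l hl x hx y hy j
      obtain ⟨Gl, hk1, hk2⟩ := hgood l hl
      have hgi : ∀ h ∈ T.H l, ∃ ν, ∃ c : ℤ, GF (χ i) (2 ^ κ i) 𝒩 d h ν c := Gi.gf l hl
      set S : Set 𝒩 := {σ | ∃ h ∈ T.H l, ∃ c : ℤ, GF (χ i) (2 ^ κ i) 𝒩 d h σ.1 c} with hS
      have hsp := span_top T l (χ i) (s := 2 ^ κ i) (by positivity) vq hvq hgi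
      obtain ⟨hq0, hqe⟩ := hq S (Pi.single j 1) hsp
      have h1 : χ i y j - χ i x j
          = ∑ σ, (q S (Pi.single j 1) σ : ℝ) * dt σ.1 (fun m => χ i y m - χ i x m) := by
        have h2 : ∀ j', ∑ σ, (q S (Pi.single j 1) σ : ℝ) * σ.1 j' = (Pi.single j 1 : Fin n → ℝ) j' := by
          intro j'
          have h3 := hqe j'
          have h4 : ((∑ σ, q S (Pi.single j 1) σ * vq σ j' : ℚ) : ℝ)
              = ((Pi.single j 1 : Fin n → ℚ) j' : ℝ) := by rw [h3]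
          push_cast at h4
          rw [show ((Pi.single j 1 : Fin n → ℝ) j') = (((Pi.single j 1 : Fin n → ℚ) j' : ℚ) : ℝ) by
            by_cases hj : j' = j
            · subst hj; simp
            · simp [hj], ← h4]
          exact Finset.sum_congr rfl fun σ _ => by rw [hvq σ j']
        have h5 : χ i y j - χ i x j
            = ∑ j', (Pi.single j 1 : Fin n → ℝ) j' * (χ i y j' - χ i x j') := by
          rw [Finset.sum_eq_single j]
          · simp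
          · intro b _ hb
            simp [hb]
          · intro h
            exact absurd (Finset.mem_univ j) h
        rw [h5]
        simp_rw [← h2, Finset.sum_mul]
        unfold dt
        simp_rw [Finset.mul_sum]
        rw [Finset.sum_comm]
        exact Finset.sum_congr rfl fun σ _ => Finset.sum_congr rfl fun j' _ => by ring
      rw [h1]
      refine (Finset.abs_sum_le_sum_abs _ _).trans ?_
      have hterm : ∀ σ ∈ (Finset.univ : Finset 𝒩),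
          |(q S (Pi.single j 1) σ : ℝ) * dt σ.1 (fun m => χ i y m - χ i x m)|
            ≤ C1 * (2 ^ m * (|R| * M)) := by
        intro σ _
        by_cases hσ : σ ∈ S
        · obtain ⟨h, hh, c, G⟩ := hσ
          rw [abs_mul]
          refine mul_le_mul (hC1' S j σ) ?_ (abs_nonneg _) (le_max_right _ _)
          rw [← gf_lin G x y]
          obtain ⟨ν', c', G'⟩ := Gl.gf l (hself l) h hh
          have h6 := gf_lin G' x y
          have h7 : |dt ν' (fun m => χ l y m - χ l x m)| ≤ |R| * M := by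
            refine (dt_le (fun m => (Gl.sz x hx y hy m).trans (le_abs_self R))).trans ?_
            exact mul_le_mul_of_nonneg_left (hM' _ G'.mem) (abs_nonneg _)
          have h8 : (2 : ℝ) ^ κ i ≤ 2 ^ m * 2 ^ κ l := by
            rw [← pow_add]
            exact pow_le_pow_right₀ (by norm_num) (by omega)
          have h9 : |(2 : ℝ) ^ κ i * h.1 (y - x)| ≤ 2 ^ m * |(2 : ℝ) ^ κ l * h.1 (y - x)| := by
            rw [abs_mul, abs_mul, abs_of_pos (by positivity : (0 : ℝ) < 2 ^ κ i),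
              abs_of_pos (by positivity : (0 : ℝ) < 2 ^ κ l), ← mul_assoc]
            exact mul_le_mul_of_nonneg_right h8 (abs_nonneg _)
          rw [h6] at h9
          exact h9.trans (mul_le_mul_of_nonneg_left h7 (by positivity))
        · rw [hq0 σ hσ]
          simp only [Rat.cast_zero, zero_mul, abs_zero]
          have : 0 ≤ C1 := le_max_right _ _
          positivity
      refine (Finset.sum_le_card_nsmul _ _ _ hterm).trans ?_
      rw [nsmul_eq_mul, Finset.card_univ]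
    intro l hl l' hl' x hx y hy j
    obtain ⟨z, hz1, hz2⟩ := hl
    obtain ⟨z', hz1', hz2'⟩ := hl'
    have h1 := abs_le.1 (key l ⟨z, hz1, hz2⟩ x hx z hz1 j)
    have h2 := abs_le.1 (key l' ⟨z', hz1', hz2'⟩ z' hz1' y hy j)
    have h3 := abs_le.1 ((Gi.sz z hz2 z' hz2' j).trans (le_abs_self R))
    rw [abs_le]
    constructor <;> linarith

end Crest.Agent.R096.Str_157
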