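import Crest.Agent.R096.Gsim2_812
import Crest.Agent.R096.Mal16_874

/-!
# Row 96, p <= 2, [SH]: the star of a tile is in good form in the frame of the tile (helper434)

Integer linear algebra: a finite list of rational vectors gives a finite list of combinations.
-/

set_option autoImplicit false

open Set Filter Topology Metric

namespace Crest.Agent.R096.Str_434

open Crest.Agent.R096.Msh_715
open Crest.Agent.R096.Mal_874
open Crest.Agent.R096.Sk3_812

variable {n : ℕ}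

/-- rational vectors: a real combination gives an integer combination of a multiple -/
theorem int_comb {ι : Type*} (s : Finset ι) (w : ι → Fin n → ℝ) (v : Fin n → ℝ) {d : ℕ}
    (hd : 0 < d) (hw : ∀ i ∈ s, ∀ j, ∃ c : ℤ, w i j = c / d) (hv : ∀ j, ∃ c : ℤ, v j = c / d)
    (hs : v ∈ Submodule.span ℝ (w '' s)) :
    ∃ D : ℕ, 0 < D ∧ ∃ f : ι → ℤ, ∀ j, ∑ i ∈ s, (f i : ℝ) * w i j = D * v j := by
  classical
  have hdR : (d : ℝ) ≠ 0 := by exact_mod_cast hd.ne'
  choose! cw hcw using hw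
  choose cv hcv using hv
  let W : ι → Fin n → ℚ := fun i j => (cw i j : ℚ)
  let V : Fin n → ℚ := fun j => (cv j : ℚ)
  have hV : V ∈ Submodule.span ℚ (W '' s) := by
    by_contra hcon
    obtain ⟨f, hf, hf0⟩ := Submodule.exists_dual_map_eq_bot_of_notMem hcon inferInstance
    have hf1 : ∀ i ∈ s, f (W i) = 0 := by
      intro i hi
      have h1 : f (W i) ∈ (Submodule.span ℚ (W '' s)).map f :=
        Submodule.mem_map_of_mem (Submodule.subset_span ⟨i, hi, rfl⟩)
      exact (Submodule.mem_bot ℚ).1 (hf0 ▸ h1)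
    have hfe : ∀ u : Fin n → ℚ, f u = ∑ j, u j * f (Pi.single j 1) := by
      intro u
      conv_lhs => rw [← Finset.univ_sum_single u]
      rw [map_sum]
      refine Finset.sum_congr rfl fun j _ => ?_
      have : Pi.single j (u j) = u j • (Pi.single j (1 : ℚ) : Fin n → ℚ) := by
        rw [← Pi.single_smul, smul_eq_mul, mul_one]
      rw [this, map_smul, smul_eq_mul]
    let F : (Fin n → ℝ) →ₗ[ℝ] ℝ :=
      { toFun := fun u => ∑ j, u j * ((f (Pi.single j 1) : ℚ) : ℝ)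
        map_add' := by
          intro a b
          rw [← Finset.sum_add_distrib]
          exact Finset.sum_congr rfl fun j _ => by simp [add_mul]
        map_smul' := by
          intro a b
          rw [RingHom.id_apply, smul_eq_mul, Finset.mul_sum]
          exact Finset.sum_congr rfl fun j _ => by simp [mul_assoc] }
    have hF : ∀ u : Fin n → ℝ, F u = ∑ j, u j * ((f (Pi.single j 1) : ℚ) : ℝ) := fun _ => rfl
    have hF0 : ∀ i ∈ s, F (w i) = 0 := by
      intro i hi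
      have h1 := hf1 i hi
      rw [hfe] at h1
      have h2 : (∑ j, (cw i j : ℝ) * ((f (Pi.single j 1) : ℚ) : ℝ)) = 0 := by
        have := congrArg (fun q : ℚ => (q : ℝ)) h1
        simpa [W] using this
      rw [hF]
      have h3 : ∀ j, w i j * ((f (Pi.single j 1) : ℚ) : ℝ) =
          (1 / d) * ((cw i j : ℝ) * ((f (Pi.single j 1) : ℚ) : ℝ)) := by
        intro j
        rw [hcw i hi j]
        ring
      rw [Finset.sum_congr rfl fun j _ => h3 j, ← Finset.mul_sum, h2, mul_zero]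
    have hFv : F v = 0 := by
      have hle : Submodule.span ℝ (w '' s) ≤ LinearMap.ker F := by
        rw [Submodule.span_le]
        rintro _ ⟨i, hi, rfl⟩
        exact hF0 i hi
      exact hle hs
    apply hf
    rw [hfe]
    have h2 : (∑ j, (cv j : ℝ) * ((f (Pi.single j 1) : ℚ) : ℝ)) = 0 := by
      have h4 : F v = (1 / d) * ∑ j, (cv j : ℝ) * ((f (Pi.single j 1) : ℚ) : ℝ) := by
        rw [hF, Finset.mul_sum]
        refine Finset.sum_congr rfl fun j _ => ?_
        rw [hcv j]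
        ring
      rw [hFv] at h4
      have h5 : (1 / (d : ℝ)) ≠ 0 := by positivity
      exact (mul_eq_zero.1 h4.symm).resolve_left h5
    have h6 : ((∑ j, V j * f (Pi.single j 1) : ℚ) : ℝ) = 0 := by
      push_cast
      simpa [V] using h2
    exact_mod_cast h6
  rw [Submodule.mem_span_image_finset_iff_exists_fun'] at hV
  obtain ⟨c, hc⟩ := hV
  set D : ℕ := ∏ i ∈ s, (c i).den with hD
  have hDc : ∀ i ∈ s, ∃ z : ℤ, (D : ℚ) * c i = z := by
    intro i hi
    obtain ⟨k, hk⟩ := Finset.dvd_prod_of_mem (fun i => (c i).den) hi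
    refine ⟨k * (c i).num, ?_⟩
    rw [hD, hk]
    push_cast
    have := Rat.mul_den_eq_num (c i)
    calc ((c i).den : ℚ) * k * c i = k * (c i * (c i).den) := by ring
      _ = k * (c i).num := by rw [this]
  choose! z hz using hDc
  refine ⟨D, Finset.prod_pos fun i _ => (c i).den_pos, z, fun j => ?_⟩
  have h1 : ∑ i ∈ s, c i * (cw i j : ℚ) = cv j := by
    have := congrFun hc j
    simpa [W, V] using this
  have h2 : ∑ i ∈ s, (z i : ℚ) * (cw i j : ℚ) = D * cv j := by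
    rw [← h1, Finset.mul_sum]
    refine Finset.sum_congr rfl fun i hi => ?_
    rw [← hz i hi]
    ring
  have h3 : ∑ i ∈ s, (z i : ℝ) * (cw i j : ℝ) = D * cv j := by
    exact_mod_cast h2
  rw [hcv j, mul_div_assoc', ← h3, Finset.sum_div]
  refine Finset.sum_congr rfl fun i hi => ?_
  rw [hcw i hi j]
  ring

/-- the normals of a compact polytope span -/
theorem span_nu {E : Type*} [NormedAddCommGroup E] [NormedSpace ℝ E]
    {H : Finset ((E →L[ℝ] ℝ) × ℝ)} (hc : IsCompact (P H)) (hne : (P H).Nonempty)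
    (χ : E ≃ᵃ[ℝ] (Fin n → ℝ)) {s : ℝ} (hs : 0 < s) {d : ℕ} (ν : (E →L[ℝ] ℝ) × ℝ → Fin n → ℝ)
    (c : (E →L[ℝ] ℝ) × ℝ → ℤ)
    (h : ∀ h ∈ H, ∀ y, s * (h.1 y - h.2) = dt (ν h) (χ y) - c h / d) :
    Submodule.span ℝ (ν '' H) = ⊤ := by
  classical
  by_contra hcon
  obtain ⟨f, hf, hker⟩ := Submodule.exists_le_ker_of_lt_top _ (lt_top_iff_ne_top.2 hcon)
  set a : Fin n → ℝ := fun j => f (Pi.single j 1) with ha
  have hfe : ∀ u : Fin n → ℝ, f u = dt u a := by
    intro u
    conv_lhs => rw [← Finset.univ_sum_single u]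
    rw [map_sum]
    refine Finset.sum_congr rfl fun j _ => ?_
    have : Pi.single j (u j) = u j • (Pi.single j (1 : ℝ) : Fin n → ℝ) := by
      rw [← Pi.single_smul, smul_eq_mul, mul_one]
    rw [this, map_smul, smul_eq_mul]
  have ha0 : a ≠ 0 := by
    intro h0
    apply hf
    ext j
    have h1 : f (Pi.single j 1) = 0 := congrFun h0 j
    simpa using h1
  have hd0 : ∀ g ∈ H, dt (ν g) a = 0 := by
    intro g hg
    rw [← hfe]
    exact hker (Submodule.subset_span ⟨g, hg, rfl⟩)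
  obtain ⟨x, hx⟩ := hne
  set w : E := χ.linear.symm a with hw
  have hw0 : w ≠ 0 := by
    intro h0
    apply ha0
    have := congrArg χ.linear h0
    rw [hw, LinearEquiv.apply_symm_apply, map_zero] at this
    exact this
  have hmem : ∀ τ : ℝ, τ • w + x ∈ P H := by
    intro τ g hg
    have h1 : χ (τ • w + x) = τ • a + χ x := by
      have := χ.map_vadd x (τ • w)
      rw [vadd_eq_add, vadd_eq_add, map_smul] at this
      rw [this]
      congr 2
      exact LinearEquiv.apply_symm_apply _ _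
    have h2 : dt (ν g) (χ (τ • w + x)) = dt (ν g) (χ x) := by
      rw [h1]
      have h3 : dt (ν g) (τ • a + χ x) = τ * dt (ν g) a + dt (ν g) (χ x) := by
        unfold dt
        rw [Finset.mul_sum, ← Finset.sum_add_distrib]
        refine Finset.sum_congr rfl fun j _ => ?_
        simp only [Pi.add_apply, Pi.smul_apply, smul_eq_mul]
        ring
      rw [h3, hd0 g hg, mul_zero, zero_add]
    have h4 := h g hg (τ • w + x)
    rw [h2, ← h g hg x] at h4
    have h5 : g.1 (τ • w + x) - g.2 = g.1 x - g.2 := mul_left_cancel₀ hs.ne' h4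
    have h6 := hx g hg
    linarith
  obtain ⟨C, hC⟩ := hc.isBounded.exists_norm_le
  have hwn : 0 < ‖w‖ := norm_pos_iff.2 hw0
  have h7 := hC _ (hmem ((C + ‖x‖ + 1) / ‖w‖))
  have h8 : ‖((C + ‖x‖ + 1) / ‖w‖) • w‖ = |C + ‖x‖ + 1| := by
    rw [norm_smul, Real.norm_eq_abs, abs_div, abs_of_pos hwn, div_mul_cancel₀ _ hwn.ne']
  have h9 : ‖((C + ‖x‖ + 1) / ‖w‖) • w‖ ≤ ‖((C + ‖x‖ + 1) / ‖w‖) • w + x‖ + ‖x‖ := by
    have := norm_sub_le (((C + ‖x‖ + 1) / ‖w‖) • w + x) x
    rwa [add_sub_cancel_right] at this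
  have h10 := le_abs_self (C + ‖x‖ + 1)
  linarith

/-- common integer coefficients -/
theorem exists_coef (𝒩 : Finset (Fin n → ℝ)) {d : ℕ} (hd : 0 < d)
    (h𝒩 : ∀ ν ∈ 𝒩, ∀ j, ∃ c : ℤ, ν j = c / d) :
    ∃ D : ℕ, 0 < D ∧ ∃ cf : Finset ((Fin n → ℝ) × (Fin n → ℝ)) → (Fin n → ℝ) →
      ((Fin n → ℝ) × (Fin n → ℝ)) → ℤ, ∀ S ⊆ 𝒩 ×ˢ 𝒩, ∀ v ∈ 𝒩,
      v ∈ Submodule.span ℝ (Prod.fst '' (S : Set ((Fin n → ℝ) × (Fin n → ℝ)))) →
      ∀ j, ∑ p ∈ S, (cf S v p : ℝ) * p.1 j = D * v j := by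
  classical
  set X := (𝒩 ×ˢ 𝒩).powerset ×ˢ 𝒩 with hX
  have h1 : ∀ x : Finset ((Fin n → ℝ) × (Fin n → ℝ)) × (Fin n → ℝ), ∃ D : ℕ, 0 < D ∧
      ∃ f : ((Fin n → ℝ) × (Fin n → ℝ)) → ℤ, x ∈ X →
      x.2 ∈ Submodule.span ℝ (Prod.fst '' (x.1 : Set ((Fin n → ℝ) × (Fin n → ℝ)))) →
      ∀ j, ∑ p ∈ x.1, (f p : ℝ) * p.1 j = D * x.2 j := by
    intro x
    by_cases hx : x ∈ X ∧
        x.2 ∈ Submodule.span ℝ (Prod.fst '' (x.1 : Set ((Fin n → ℝ) × (Fin n → ℝ))))
    · have h2 := Finset.mem_product.1 hx.1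
      obtain ⟨D, hD, f, hf⟩ := int_comb x.1 Prod.fst x.2 hd
        (fun i hi => h𝒩 _ (Finset.mem_product.1 (Finset.mem_powerset.1 h2.1 hi)).1)
        (h𝒩 _ h2.2) hx.2
      exact ⟨D, hD, f, fun _ _ => hf⟩
    · exact ⟨1, one_pos, 0, fun h2 h3 => absurd ⟨h2, h3⟩ hx⟩
  choose D hD f hf using h1
  refine ⟨∏ x ∈ X, D x, Finset.prod_pos fun x _ => hD x,
    fun S v p => ((∏ x ∈ X.erase (S, v), D x : ℕ) : ℤ) * f (S, v) p, ?_⟩
  intro S hS v hv hsp j
  have hmem : (S, v) ∈ X := Finset.mem_product.2 ⟨Finset.mem_powerset.2 hS, hv⟩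
  have h2 := hf (S, v) hmem hsp j
  have h3 : ∏ x ∈ X, D x = D (S, v) * ∏ x ∈ X.erase (S, v), D x :=
    (Finset.mul_prod_erase X D hmem).symm
  rw [h3]
  push_cast
  rw [mul_right_comm, ← h2, Finset.sum_mul]
  exact Finset.sum_congr rfl fun p _ => by ring

/-- common bound of the coordinates in terms of the second vectors -/
theorem exists_bd (𝒩 : Finset (Fin n → ℝ)) : ∃ C : ℝ, 0 ≤ C ∧
    ∀ S ⊆ 𝒩 ×ˢ 𝒩,
      Submodule.span ℝ (Prod.snd '' (S : Set ((Fin n → ℝ) × (Fin n → ℝ)))) = ⊤ →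
      ∀ m : Fin n, ∃ a : ((Fin n → ℝ) × (Fin n → ℝ)) → ℝ,
        (∀ u : Fin n → ℝ, u m = ∑ p ∈ S, a p * dt p.2 u) ∧ ∑ p ∈ S, |a p| * n1 p.1 ≤ C := by
  classical
  have h1 : ∀ x : Finset ((Fin n → ℝ) × (Fin n → ℝ)) × Fin n,
      ∃ a : ((Fin n → ℝ) × (Fin n → ℝ)) → ℝ,
      Submodule.span ℝ (Prod.snd '' (x.1 : Set ((Fin n → ℝ) × (Fin n → ℝ)))) = ⊤ →
      ∀ u : Fin n → ℝ, u x.2 = ∑ p ∈ x.1, a p * dt p.2 u := by
    intro x
    by_cases hx : Submodule.span ℝ (Prod.snd '' (x.1 : Set ((Fin n → ℝ) × (Fin n → ℝ)))) = ⊤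
    · have h2 : (Pi.single x.2 1 : Fin n → ℝ) ∈
          Submodule.span ℝ (Prod.snd '' (x.1 : Set ((Fin n → ℝ) × (Fin n → ℝ)))) := by
        rw [hx]; trivial
      rw [Submodule.mem_span_image_finset_iff_exists_fun'] at h2
      obtain ⟨a, ha⟩ := h2
      refine ⟨a, fun _ u => ?_⟩
      have h3 : u x.2 = ∑ j, (Pi.single x.2 1 : Fin n → ℝ) j * u j := by
        simp [Pi.single_apply]
      rw [h3]
      have h4 : ∀ j, (Pi.single x.2 1 : Fin n → ℝ) j = ∑ p ∈ x.1, a p * p.2 j := by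
        intro j
        rw [← ha]
        simp
      simp_rw [h4, Finset.sum_mul]
      rw [Finset.sum_comm]
      refine Finset.sum_congr rfl fun p _ => ?_
      unfold dt
      rw [Finset.mul_sum]
      exact Finset.sum_congr rfl fun j _ => by ring
    · exact ⟨0, fun h => absurd h hx⟩
  choose a ha using h1
  refine ⟨∑ x ∈ (𝒩 ×ˢ 𝒩).powerset ×ˢ (Finset.univ : Finset (Fin n)),
    ∑ p ∈ x.1, |a x p| * n1 p.1, ?_, ?_⟩
  · exact Finset.sum_nonneg fun x _ => Finset.sum_nonneg fun p _ =>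
      mul_nonneg (abs_nonneg _) (n1_nonneg _)
  · intro S hS hsp m
    refine ⟨a (S, m), ha (S, m) hsp, ?_⟩
    exact Finset.single_le_sum (f := fun x : Finset ((Fin n → ℝ) × (Fin n → ℝ)) × Fin n =>
        ∑ p ∈ x.1, |a x p| * n1 p.1)
      (fun x _ => Finset.sum_nonneg fun p _ => mul_nonneg (abs_nonneg _) (n1_nonneg _))
      (Finset.mem_product.2 ⟨Finset.mem_powerset.2 hS, Finset.mem_univ m⟩)

theorem dt_sum {α : Type*} (s : Finset α) (f : α → ℝ) (w : α → Fin n → ℝ) (u : Fin n → ℝ) :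
    dt (fun j => ∑ p ∈ s, f p * w p j) u = ∑ p ∈ s, f p * dt (w p) u := by
  unfold dt
  simp_rw [Finset.sum_mul]
  rw [Finset.sum_comm]
  refine Finset.sum_congr rfl fun p _ => ?_
  rw [Finset.mul_sum]
  exact Finset.sum_congr rfl fun j _ => by ring

theorem dt_smul (r : ℝ) (w u : Fin n → ℝ) : dt (fun j => r * w j) u = r * dt w u := by
  unfold dt
  rw [Finset.mul_sum]
  exact Finset.sum_congr rfl fun j _ => by ring

/-- **(S1)** the star of a tile is in good form in the frame of the tile -/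
theorem exists_star {n : ℕ} (𝒩 : Finset (Fin n → ℝ)) {d : ℕ} (hd : 0 < d)
    (h𝒩 : ∀ ν ∈ 𝒩, ∀ j, ∃ c : ℤ, ν j = c / d) (R : ℝ) (m : ℕ) :
    ∃ (𝒩' : Finset (Fin n → ℝ)) (d' : ℕ) (R' : ℝ), 0 < d' ∧
      (∀ ν ∈ 𝒩', ∀ j, ∃ c : ℤ, ν j = c / d') ∧
    ∀ {E : Type} [NormedAddCommGroup E] [NormedSpace ℝ E] [FiniteDimensional ℝ E] {Om : Set E}
      {ι : Type} (T : Tiling Om ι)
      (i : ι) (χ : ι → E ≃ᵃ[ℝ] (Fin n → ℝ)) (κ : ι → ℕ),
      (∀ l, (P (T.H l) ∩ P (T.H i)).Nonempty →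
        Good T l (χ l) (κ l) 𝒩 d R ∧ κ l ≤ κ i + m ∧ κ i ≤ κ l + m) →
      GStar T i (χ i) (2 ^ κ i) 𝒩' d' R' := by
  classical
  obtain ⟨D, hD, cf, hcf⟩ := exists_coef 𝒩 hd h𝒩
  obtain ⟨C, hC, hbd⟩ := exists_bd 𝒩
  have hdR : (0 : ℝ) < d := by exact_mod_cast hd
  have hDR : (0 : ℝ) < D := by exact_mod_cast hD
  refine ⟨((𝒩 ×ˢ 𝒩).powerset ×ˢ 𝒩).image
      (fun x j => (1 / (D : ℝ)) * ∑ p ∈ x.1, (cf x.1 x.2 p : ℝ) * p.2 j),
    D * d * 2 ^ m, 2 * (2 ^ m * R * C) + R, by positivity, ?_, ?_⟩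
  · intro ν hν j
    obtain ⟨x, hx, rfl⟩ := Finset.mem_image.1 hν
    have h1 := Finset.mem_powerset.1 (Finset.mem_product.1 hx).1
    have h2 : ∀ p ∈ x.1, ∃ c : ℤ, p.2 j = c / d := fun p hp =>
      h𝒩 _ (Finset.mem_product.1 (h1 hp)).2 j
    choose! c hc using h2
    refine ⟨2 ^ m * ∑ p ∈ x.1, cf x.1 x.2 p * c p, ?_⟩
    push_cast
    have h3 : ∑ p ∈ x.1, (cf x.1 x.2 p : ℝ) * p.2 j =
        (∑ p ∈ x.1, (cf x.1 x.2 p : ℝ) * c p) / d := by
      rw [Finset.sum_div]
      refine Finset.sum_congr rfl fun p hp => ?_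
      rw [hc p hp]
      ring
    simp only [h3]
    field_simp
  · intro E _ _ _ Om ι T i χ κ hg
    have hne : ∀ l, (P (T.H l)).Nonempty := fun l => (T.ne l).mono (I_sub_P _)
    have hll : ∀ l, (P (T.H l) ∩ P (T.H l)).Nonempty := fun l => by
      rw [inter_self]; exact hne l
    have hGi : Good T i (χ i) (κ i) 𝒩 d R := (hg i (hll i)).1
    -- the data of one tile
    have key : ∀ l, (P (T.H l) ∩ P (T.H i)).Nonempty →
        ∃ (νl νi : (E →L[ℝ] ℝ) × ℝ → Fin n → ℝ) (cl ci : (E →L[ℝ] ℝ) × ℝ → ℤ),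
          ∀ h ∈ T.H l, (νl h ∈ 𝒩 ∧ νi h ∈ 𝒩) ∧
            (∀ y, (2 : ℝ) ^ κ l * (h.1 y - h.2) = dt (νl h) (χ l y) - cl h / d) ∧
            ∀ y, (2 : ℝ) ^ κ i * (h.1 y - h.2) = dt (νi h) (χ i y) - ci h / d := by
      intro l hl
      have h1 := (hg l hl).1.gf l (hll l)
      have h2 := hGi.gf l hl
      choose! νl cl h1 using h1
      choose! νi ci h2 using h2
      exact ⟨νl, νi, cl, ci, fun h hh =>
        ⟨⟨(h1 h hh).mem, (h2 h hh).mem⟩, (h1 h hh).eq, (h2 h hh).eq⟩⟩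
    refine ⟨?_, ?_⟩
    · intro l hl l' hl' h hh
      obtain ⟨νl, νi, cl, ci, hk⟩ := key l hl
      set S : Finset ((Fin n → ℝ) × (Fin n → ℝ)) := (T.H l).image fun h => (νl h, νi h) with hS
      have hSs : S ⊆ 𝒩 ×ˢ 𝒩 := by
        intro p hp
        obtain ⟨g, hg', rfl⟩ := Finset.mem_image.1 hp
        exact Finset.mem_product.2 (hk g hg').1
      have hrep : ∀ p ∈ S, ∃ g ∈ T.H l, (νl g, νi g) = p := fun p hp =>
        Finset.mem_image.1 hp
      choose! g hgm hge using hrep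
      have hspan : Submodule.span ℝ (Prod.fst '' (S : Set ((Fin n → ℝ) × (Fin n → ℝ)))) = ⊤ := by
        rw [eq_top_iff, ← span_nu (T.cpt l) (hne l) (χ l) (s := 2 ^ κ l) (by positivity) νl cl
          (fun h hh => (hk h hh).2.1)]
        apply Submodule.span_mono
        rintro _ ⟨q, hq, rfl⟩
        exact ⟨(νl q, νi q), Finset.mem_coe.2 (Finset.mem_image_of_mem _ hq), rfl⟩
      obtain ⟨ν'', c'', hF⟩ := (hg l hl).1.gf l' hl' h hh
      have h1 := hcf S hSs ν'' hF.mem (by rw [hspan]; trivial)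
      have hκ1 := (hg l hl).2.1
      set ρ : ℕ := 2 ^ (κ i + m - κ l) with hρ
      have hρe : (ρ : ℝ) * 2 ^ κ l = 2 ^ m * 2 ^ κ i := by
        rw [hρ]
        push_cast
        rw [← pow_add, ← pow_add]
        congr 1
        omega
      refine ⟨fun j => (1 / (D : ℝ)) * ∑ p ∈ S, (cf S ν'' p : ℝ) * p.2 j,
        ∑ p ∈ S, cf S ν'' p * (2 ^ m * ci (g p) - ρ * cl (g p)) + D * ρ * c'', ?_, ?_⟩
      · exact Finset.mem_image.2 ⟨(S, ν''),
          Finset.mem_product.2 ⟨Finset.mem_powerset.2 hSs, hF.mem⟩, rfl⟩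
      · intro y
        rw [dt_smul, dt_sum]
        have h2 : (D : ℝ) * dt ν'' (χ l y) = ∑ p ∈ S, (cf S ν'' p : ℝ) * dt p.1 (χ l y) := by
          rw [← dt_sum, ← dt_smul]
          congr 1
          funext j
          exact (h1 j).symm
        have h3 : ∀ p ∈ S, (ρ : ℝ) * dt p.1 (χ l y) =
            2 ^ m * dt p.2 (χ i y) - (2 ^ m * ci (g p) - ρ * cl (g p)) / d := by
          intro p hp
          have e1 := (hk (g p) (hgm p hp)).2.1 y
          have e2 := (hk (g p) (hgm p hp)).2.2 y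
          have e3 := hge p hp
          have e4 : νl (g p) = p.1 := congrArg Prod.fst e3
          have e5 : νi (g p) = p.2 := congrArg Prod.snd e3
          rw [e4] at e1
          rw [e5] at e2
          have e6 : (ρ : ℝ) * (2 ^ κ l * ((g p).1 y - (g p).2)) =
              2 ^ m * (2 ^ κ i * ((g p).1 y - (g p).2)) := by
            rw [← mul_assoc, ← mul_assoc, hρe]
          rw [e1, e2] at e6
          field_simp at e6 ⊢
          linarith
        have h4 : (D : ℝ) * (2 ^ m * (2 ^ κ i * (h.1 y - h.2))) =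
            ∑ p ∈ S, (cf S ν'' p : ℝ) * ((ρ : ℝ) * dt p.1 (χ l y)) - D * ρ * c'' / d := by
          have e1 := hF.eq y
          have e6 : (ρ : ℝ) * (2 ^ κ l * (h.1 y - h.2)) =
              2 ^ m * (2 ^ κ i * (h.1 y - h.2)) := by
            rw [← mul_assoc, ← mul_assoc, hρe]
          rw [← e6, e1]
          have e7 : ∑ p ∈ S, (cf S ν'' p : ℝ) * ((ρ : ℝ) * dt p.1 (χ l y)) =
              ρ * (D * dt ν'' (χ l y)) := by
            rw [h2, Finset.mul_sum]
            exact Finset.sum_congr rfl fun p _ => by ring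
          rw [e7]
          ring
        rw [Finset.sum_congr rfl fun p hp => by rw [h3 p hp]] at h4
        have h5 : ∑ p ∈ S, (cf S ν'' p : ℝ) *
            (2 ^ m * dt p.2 (χ i y) - (2 ^ m * ci (g p) - ρ * cl (g p)) / d) =
            2 ^ m * (∑ p ∈ S, (cf S ν'' p : ℝ) * dt p.2 (χ i y)) -
            (∑ p ∈ S, (cf S ν'' p : ℝ) * (2 ^ m * ci (g p) - ρ * cl (g p))) / d := by
          rw [Finset.mul_sum, Finset.sum_div, ← Finset.sum_sub_distrib]
          exact Finset.sum_congr rfl fun p _ => by ring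
        rw [h5] at h4
        push_cast
        have h6 : (0 : ℝ) < 2 ^ m := by positivity
        generalize (∑ p ∈ S, (cf S ν'' p : ℝ) * dt p.2 (χ i y)) = A at h4 ⊢
        generalize (∑ p ∈ S, (cf S ν'' p : ℝ) * (2 ^ m * ci (g p) - ρ * cl (g p))) = B at h4 ⊢
        generalize (2 : ℝ) ^ κ i * (h.1 y - h.2) = Z at h4 ⊢
        field_simp at h4 ⊢
        linarith
    · -- sizes
      have hone : ∀ l, (P (T.H l) ∩ P (T.H i)).Nonempty → ∀ x ∈ P (T.H l), ∀ y ∈ P (T.H l),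
          ∀ k, |χ i y k - χ i x k| ≤ 2 ^ m * R * C := by
        intro l hl x hx y hy k
        obtain ⟨νl, νi, cl, ci, hk⟩ := key l hl
        set S : Finset ((Fin n → ℝ) × (Fin n → ℝ)) := (T.H l).image fun h => (νl h, νi h) with hS
        have hSs : S ⊆ 𝒩 ×ˢ 𝒩 := by
          intro p hp
          obtain ⟨g, hg', rfl⟩ := Finset.mem_image.1 hp
          exact Finset.mem_product.2 (hk g hg').1
        have hrep : ∀ p ∈ S, ∃ g ∈ T.H l, (νl g, νi g) = p := fun p hp =>
          Finset.mem_image.1 hp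
        choose! g hgm hge using hrep
        have hspan : Submodule.span ℝ
            (Prod.snd '' (S : Set ((Fin n → ℝ) × (Fin n → ℝ)))) = ⊤ := by
          rw [eq_top_iff, ← span_nu (T.cpt l) (hne l) (χ i) (s := 2 ^ κ i) (by positivity) νi ci
            (fun h hh => (hk h hh).2.2)]
          apply Submodule.span_mono
          rintro _ ⟨q, hq, rfl⟩
          exact ⟨(νl q, νi q), Finset.mem_coe.2 (Finset.mem_image_of_mem _ hq), rfl⟩
        obtain ⟨a, ha, haC⟩ := hbd S hSs hspan k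
        have hR0 : 0 ≤ R := by
          have := (hg l hl).1.sz x hx x hx k
          rwa [sub_self, abs_zero] at this
        have h1 := ha (fun j => χ i y j - χ i x j)
        have h2 : ∀ p ∈ S, |dt p.2 (fun j => χ i y j - χ i x j)| ≤ 2 ^ m * R * n1 p.1 := by
          intro p hp
          have e1x := (hk (g p) (hgm p hp)).2.1 x
          have e1y := (hk (g p) (hgm p hp)).2.1 y
          have e2x := (hk (g p) (hgm p hp)).2.2 x
          have e2y := (hk (g p) (hgm p hp)).2.2 y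
          have e3 := hge p hp
          have e4 : νl (g p) = p.1 := congrArg Prod.fst e3
          have e5 : νi (g p) = p.2 := congrArg Prod.snd e3
          rw [e4] at e1x e1y
          rw [e5] at e2x e2y
          have h3 : dt p.2 (fun j => χ i y j - χ i x j) =
              2 ^ κ i * ((g p).1 y - (g p).1 x) := by
            rw [dt_sub]; linarith
          have h4 : dt p.1 (fun j => χ l y j - χ l x j) =
              2 ^ κ l * ((g p).1 y - (g p).1 x) := by
            rw [dt_sub]; linarith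
          have h5 : |dt p.1 (fun j => χ l y j - χ l x j)| ≤ R * n1 p.1 :=
            dt_le ((hg l hl).1.sz x hx y hy)
          rw [h3, abs_mul, abs_of_pos (by positivity)]
          rw [h4, abs_mul, abs_of_pos (by positivity)] at h5
          have h6 : (2 : ℝ) ^ κ i ≤ 2 ^ m * 2 ^ κ l := by
            rw [← pow_add]
            exact pow_le_pow_right₀ (by norm_num) (by have := (hg l hl).2.2; omega)
          calc (2 : ℝ) ^ κ i * |(g p).1 y - (g p).1 x|
              ≤ 2 ^ m * 2 ^ κ l * |(g p).1 y - (g p).1 x| :=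
                mul_le_mul_of_nonneg_right h6 (abs_nonneg _)
            _ = 2 ^ m * (2 ^ κ l * |(g p).1 y - (g p).1 x|) := by ring
            _ ≤ 2 ^ m * (R * n1 p.1) := mul_le_mul_of_nonneg_left h5 (by positivity)
            _ = 2 ^ m * R * n1 p.1 := by ring
        rw [show χ i y k - χ i x k = ∑ p ∈ S, a p * dt p.2 (fun j => χ i y j - χ i x j) from h1]
        calc |∑ p ∈ S, a p * dt p.2 (fun j => χ i y j - χ i x j)|
            ≤ ∑ p ∈ S, |a p * dt p.2 (fun j => χ i y j - χ i x j)| :=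
              Finset.abs_sum_le_sum_abs _ _
          _ ≤ ∑ p ∈ S, 2 ^ m * R * (|a p| * n1 p.1) := by
              refine Finset.sum_le_sum fun p hp => ?_
              rw [abs_mul]
              calc |a p| * |dt p.2 (fun j => χ i y j - χ i x j)|
                  ≤ |a p| * (2 ^ m * R * n1 p.1) :=
                    mul_le_mul_of_nonneg_left (h2 p hp) (abs_nonneg _)
                _ = 2 ^ m * R * (|a p| * n1 p.1) := by ring
          _ = 2 ^ m * R * ∑ p ∈ S, |a p| * n1 p.1 := by rw [Finset.mul_sum]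
          _ ≤ 2 ^ m * R * C := mul_le_mul_of_nonneg_left haC (by positivity)
      intro l hl l' hl' x hx y hy k
      obtain ⟨z, hz, hzi⟩ := hl
      obtain ⟨z', hz', hzi'⟩ := hl'
      have h1 := hone l ⟨z, hz, hzi⟩ x hx z hz k
      have h2 := hGi.sz z hzi z' hzi' k
      have h3 := hone l' ⟨z', hz', hzi'⟩ z' hz' y hy k
      calc |χ i y k - χ i x k|
          = |(χ i y k - χ i z' k) + (χ i z' k - χ i z k) + (χ i z k - χ i x k)| := by ring_nf
        _ ≤ |χ i y k - χ i z' k| + |χ i z' k - χ i z k| + |χ i z k - χ i x k| :=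
            abs_add_three _ _ _
        _ ≤ 2 * (2 ^ m * R * C) + R := by linarith

end Crest.Agent.R096.Str_434
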