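import Crest.Agent.R096.Gsim2_812
import Crest.Agent.R096.Mal16_874

/-!
Row 96 (S0127), helper458.  **(S1)** of 753's #12106: the star of a tile is in good form in the frame
of the tile, if every tile of the star is good in its own frame.
-/

set_option autoImplicit false
set_option linter.unusedSectionVars false

open Set Metric Topology

namespace Crest.Agent.R096.Str_458

open Crest.Agent.R096.Msh_715
open Crest.Agent.R096.Mal_874
open Crest.Agent.R096.Sk3_812 (GStar)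
open Matrix

variable {n : ℕ}

theorem dt_dot (ν u : Fin n → ℝ) : dt ν u = ν ⬝ᵥ u := rfl

/-- common denominator of a finite family of rational numbers -/
theorem exists_den {α : Type*} [Finite α] (f : α → ℝ) (hf : ∀ a, ∃ q : ℚ, f a = q) :
    ∃ D : ℕ, 0 < D ∧ ∀ a, ∃ c : ℤ, f a = c / D := by
  classical
  have := Fintype.ofFinite α
  choose q hq using hf
  refine ⟨∏ a, (q a).den, Finset.prod_pos fun a _ => (q a).den_pos, fun a => ?_⟩
  obtain ⟨k, hk⟩ : (q a).den ∣ ∏ a, (q a).den := Finset.dvd_prod_of_mem _ (Finset.mem_univ a)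
  have hprod : 0 < ∏ a, (q a).den := Finset.prod_pos fun a _ => (q a).den_pos
  have hk0 : (k : ℝ) ≠ 0 := by
    intro h
    have : k = 0 := by exact_mod_cast h
    rw [this, mul_zero] at hk
    omega
  have hd0 : ((q a).den : ℝ) ≠ 0 := by exact_mod_cast (q a).den_ne_zero
  refine ⟨(q a).num * k, ?_⟩
  rw [hk, hq a]
  push_cast
  rw [mul_div_mul_right _ _ hk0]
  exact_mod_cast (Rat.num_div_den (q a)).symm

/-- the solutions of rational systems are rational -/
theorem rat_vecMul_inv {d : ℕ} {N : Matrix (Fin n) (Fin n) ℝ} {ν : Fin n → ℝ}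
    (hN : ∀ a b, ∃ c : ℤ, N a b = c / d) (hν : ∀ j, ∃ c : ℤ, ν j = c / d) (j : Fin n) :
    ∃ q : ℚ, (ν ᵥ* N⁻¹) j = q := by
  choose c hc using hN
  choose e he using hν
  set M : Matrix (Fin n) (Fin n) ℚ := fun a b => (c a b : ℚ) / d with hM
  have hNM : N = M.map (algebraMap ℚ ℝ) := by
    ext a b
    rw [hc, Matrix.map_apply, hM]
    simp
  refine ⟨((fun j => (e j : ℚ) / d) ᵥ* M⁻¹) j, ?_⟩
  have hinv : N⁻¹ = (M⁻¹).map (algebraMap ℚ ℝ) := by
    rw [Matrix.inv_def, Matrix.inv_def, Ring.inverse_eq_inv', Ring.inverse_eq_inv', hNM]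
    have h1 : (M.map (algebraMap ℚ ℝ)).det = algebraMap ℚ ℝ M.det :=
      (RingHom.map_det (algebraMap ℚ ℝ) M).symm
    have h2 : (M.map (algebraMap ℚ ℝ)).adjugate = (M.adjugate).map (algebraMap ℚ ℝ) :=
      (RingHom.map_adjugate (algebraMap ℚ ℝ) M).symm
    rw [h1, h2]
    ext a b
    simp
  rw [hinv]
  simp only [Matrix.vecMul, dotProduct, Matrix.map_apply, he]
  push_cast
  simp

/-- `n` independent inequalities of a tile -/
theorem exists_rows {E : Type*} [NormedAddCommGroup E] [NormedSpace ℝ E] [FiniteDimensional ℝ E]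
    {Om : Set E} {ι : Type*} (T : Tiling Om ι) (l : ι) (χ : E ≃ᵃ[ℝ] (Fin n → ℝ)) {s : ℝ}
    (hs : 0 < s) {𝒩 : Finset (Fin n → ℝ)} {d : ℕ}
    (hg : ∀ h ∈ T.H l, ∃ ν, ∃ c : ℤ, GF χ s 𝒩 d h ν c) :
    ∃ (h : Fin n → (E →L[ℝ] ℝ) × ℝ) (ν : Fin n → Fin n → ℝ) (c : Fin n → ℤ),
      (∀ j, h j ∈ T.H l) ∧ (∀ j, GF χ s 𝒩 d (h j) (ν j) (c j)) ∧ LinearIndependent ℝ ν := by
  classical
  set S : Set (Fin n → ℝ) := {ν | ∃ h ∈ T.H l, ∃ c : ℤ, GF χ s 𝒩 d h ν c} with hS
  have hspan : Submodule.span ℝ S = ⊤ := by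
    by_contra hne
    obtain ⟨f, hf0, hf⟩ := Submodule.exists_le_ker_of_lt_top _ (lt_top_iff_ne_top.2 hne)
    -- the direction
    set v : Fin n → ℝ := fun j => f (Pi.single j 1) with hv
    have hfv : ∀ u : Fin n → ℝ, f u = dt u v := by
      intro u
      have h1 : u = ∑ j, u j • (Pi.single j (1:ℝ) : Fin n → ℝ) := by
        funext k
        simp [Finset.sum_apply, Pi.single_apply]
      conv_lhs => rw [h1]
      rw [map_sum]
      unfold dt
      refine Finset.sum_congr rfl fun j _ => ?_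
      rw [map_smul, smul_eq_mul]
    have hv0 : v ≠ 0 := by
      intro h
      apply hf0
      ext u
      rw [LinearMap.zero_comp, LinearMap.zero_apply, LinearMap.comp_apply, hfv, h]
      simp [dt]
    have hν : ∀ ν ∈ S, dt ν v = 0 := by
      intro ν hν
      have := hf (Submodule.subset_span hν)
      rw [LinearMap.mem_ker, hfv] at this
      exact this
    obtain ⟨x, hx⟩ := T.ne l
    have hxP : x ∈ P (T.H l) := fun h hh => (hx h hh).le
    have hmem : ∀ t : ℝ, χ.symm (χ x + t • v) ∈ P (T.H l) := by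
      intro t h hh
      obtain ⟨ν, c, hGF⟩ := hg h hh
      have h1 := hGF.eq (χ.symm (χ x + t • v))
      have h2 := hGF.eq x
      rw [AffineEquiv.apply_symm_apply] at h1
      have h3 : dt ν (χ x + t • v) = dt ν (χ x) := by
        have h4 : dt ν (χ x + t • v) = dt ν (χ x) + t * dt ν v := by
          simp only [dt_dot, dotProduct_add, dotProduct_smul, smul_eq_mul]
        rw [h4, hν ν ⟨h, hh, c, hGF⟩, mul_zero, add_zero]
      rw [h3, ← h2] at h1
      have h5 := mul_left_cancel₀ hs.ne' h1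
      have h6 := hxP h hh
      linarith
    have hχc : Continuous χ := χ.toAffineMap.continuous_of_finiteDimensional
    have hb := ((T.cpt l).image hχc).isBounded
    obtain ⟨C, hC⟩ := hb.exists_norm_le
    obtain ⟨j, hj⟩ : ∃ j, v j ≠ 0 := by
      by_contra hcon
      push Not at hcon
      exact hv0 (funext hcon)
    have h7 : ∀ t : ℝ, ‖χ x + t • v‖ ≤ C := by
      intro t
      refine hC _ ⟨_, hmem t, ?_⟩
      rw [AffineEquiv.apply_symm_apply]
    have h11 : 0 ≤ C := (norm_nonneg _).trans (h7 0)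
    obtain ⟨B, hB⟩ : ∃ B : ℝ, B = C + 1 + |χ x j| := ⟨_, rfl⟩
    have hB0 : 0 ≤ B := by rw [hB]; positivity
    have h8 := h7 (B / |v j|)
    have h9 := (norm_le_pi_norm (χ x + (B / |v j|) • v) j).trans h8
    rw [Pi.add_apply, Pi.smul_apply, smul_eq_mul, Real.norm_eq_abs] at h9
    have hvj : |v j| ≠ 0 := abs_ne_zero.2 hj
    have h10 : |B / |v j| * v j| = B := by
      rw [abs_mul, abs_div, abs_abs, div_mul_cancel₀ _ hvj, abs_of_nonneg hB0]
    have h13 := abs_sub_abs_le_abs_sub (B / |v j| * v j) (-(χ x j))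
    rw [h10, abs_neg, sub_neg_eq_add, add_comm (B / |v j| * v j)] at h13
    linarith
  obtain ⟨f, hfS, -, hfi⟩ := Submodule.exists_fun_fin_finrank_span_eq ℝ S
  have hfr : Module.finrank ℝ (Submodule.span ℝ S) = n := by
    rw [hspan, finrank_top, Module.finrank_fin_fun]
  set g : Fin n → Fin n → ℝ := f ∘ (finCongr hfr.symm) with hgdef
  have hgS : ∀ j, g j ∈ S := fun j => hfS _
  have hgi : LinearIndependent ℝ g := hfi.comp _ (finCongr hfr.symm).injective
  choose h hh c hc using hgS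
  exact ⟨h, g, c, hh, hc, hgi⟩

/-- the matrix with the given rows -/
def mt {𝒩 : Finset (Fin n → ℝ)} (N : Fin n → 𝒩) : Matrix (Fin n) (Fin n) ℝ :=
  Matrix.of fun a b => (N a).1 b

theorem mt_mulVec {𝒩 : Finset (Fin n → ℝ)} (N : Fin n → 𝒩) (u : Fin n → ℝ) (j : Fin n) :
    (mt N *ᵥ u) j = dt (N j).1 u := rfl

/-- two frames which are both good for the inequalities of the tile `l` -/
theorem frame_rel {E : Type*} [NormedAddCommGroup E] [NormedSpace ℝ E] [FiniteDimensional ℝ E]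
    {Om : Set E} {ι : Type*} (T : Tiling Om ι) (l : ι) (χ χ' : E ≃ᵃ[ℝ] (Fin n → ℝ)) {s s' : ℝ}
    (hs : 0 < s) (hs' : 0 < s') {𝒩 : Finset (Fin n → ℝ)} {d : ℕ}
    (hg : ∀ h ∈ T.H l, ∃ ν, ∃ c : ℤ, GF χ s 𝒩 d h ν c)
    (hg' : ∀ h ∈ T.H l, ∃ ν, ∃ c : ℤ, GF χ' s' 𝒩 d h ν c) :
    ∃ (N N' : Fin n → 𝒩) (c c' : Fin n → ℤ), IsUnit (mt N) ∧ IsUnit (mt N') ∧
      ∀ y j, dt (N j).1 (χ y) - c j / d = (s / s') * (dt (N' j).1 (χ' y) - c' j / d) := by
  obtain ⟨h, ν, c, hh, hc, hi⟩ := exists_rows T l χ hs hg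
  choose ν' c' hc' using fun j => hg' (h j) (hh j)
  set N : Fin n → 𝒩 := fun j => ⟨ν j, (hc j).mem⟩ with hN
  set N' : Fin n → 𝒩 := fun j => ⟨ν' j, (hc' j).mem⟩ with hN'
  have hrel : ∀ y j, dt (N j).1 (χ y) - c j / d = (s / s') * (dt (N' j).1 (χ' y) - c' j / d) := by
    intro y j
    have h1 := (hc j).eq y
    have h2 := (hc' j).eq y
    have h3 : dt (N j).1 (χ y) - c j / d = s * ((h j).1 y - (h j).2) := h1.symm
    have h4 : dt (N' j).1 (χ' y) - c' j / d = s' * ((h j).1 y - (h j).2) := h2.symm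
    rw [h3, h4]
    field_simp
  have hNu : IsUnit (mt N) := by
    rw [← Matrix.linearIndependent_rows_iff_isUnit]
    exact hi
  refine ⟨N, N', c, c', hNu, ?_, hrel⟩
  rw [← Matrix.mulVec_surjective_iff_isUnit]
  have hsurj := Matrix.mulVec_surjective_iff_isUnit.2 hNu
  intro w
  obtain ⟨y0, -⟩ := T.ne l
  have hr : s / s' ≠ 0 := by positivity
  obtain ⟨u, hu⟩ := hsurj ((s / s') • w)
  set y : E := χ.symm (χ y0 + u) with hy
  refine ⟨χ' y - χ' y0, ?_⟩
  have hyy : χ y = χ y0 + u := by rw [hy, AffineEquiv.apply_symm_apply]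
  funext j
  have h1 := hrel y j
  have h2 := hrel y0 j
  have h3 : (mt N' *ᵥ (χ' y - χ' y0)) j = dt (N' j).1 (χ' y) - dt (N' j).1 (χ' y0) := by
    rw [mt_mulVec, dt_dot, dt_dot, dt_dot, dotProduct_sub]
  have h4 : (mt N *ᵥ u) j = dt (N j).1 (χ y) - dt (N j).1 (χ y0) := by
    rw [mt_mulVec, dt_dot, dt_dot, dt_dot, hyy, dotProduct_add]
    ring
  rw [hu, Pi.smul_apply, smul_eq_mul] at h4
  have h5 : (s / s') * ((mt N' *ᵥ (χ' y - χ' y0)) j) = (s / s') * w j := by
    rw [h3, h4]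
    linear_combination h2 - h1
  exact mul_left_cancel₀ hr h5

/-- **(S1): the star of a tile is in good form in the frame of the tile** -/
theorem exists_star {n : ℕ} (𝒩 : Finset (Fin n → ℝ)) {d : ℕ} (hd : 0 < d)
    (h𝒩 : ∀ ν ∈ 𝒩, ∀ j, ∃ c : ℤ, ν j = c / d) (R : ℝ) (m : ℕ) :
    ∃ (𝒩' : Finset (Fin n → ℝ)) (d' : ℕ) (R' : ℝ), 0 < d' ∧
      (∀ ν ∈ 𝒩', ∀ j, ∃ c : ℤ, ν j = c / d') ∧
      ∀ {E : Type} [NormedAddCommGroup E] [NormedSpace ℝ E] [FiniteDimensional ℝ E] {Om : Set E}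
        {ι : Type} (T : Tiling Om ι) (i : ι) (χ : ι → E ≃ᵃ[ℝ] (Fin n → ℝ)) (κ : ι → ℕ),
        (∀ l, (P (T.H l) ∩ P (T.H i)).Nonempty →
          Good T l (χ l) (κ l) 𝒩 d R ∧ κ l ≤ κ i + m ∧ κ i ≤ κ l + m) →
        GStar T i (χ i) (2 ^ κ i) 𝒩' d' R' := by
  classical
  have hdR : (0 : ℝ) < d := by exact_mod_cast hd
  -- common denominator
  obtain ⟨D, hD, hDc⟩ := exists_den
    (fun a : ((Fin n → 𝒩) × 𝒩) × Fin n => ((a.1.2.1 : Fin n → ℝ) ᵥ* (mt a.1.1)⁻¹) a.2)
    (fun a => rat_vecMul_inv (d := d) (fun x y => h𝒩 _ (a.1.1 x).2 y) (h𝒩 _ a.1.2.2) a.2)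
  have hDR : (0 : ℝ) < D := by exact_mod_cast hD
  have h2m : (0 : ℝ) < 2 ^ m := by positivity
  set K : ℝ := ∑ p : (Fin n → 𝒩) × (Fin n → 𝒩), ∑ a, ∑ b, |((mt p.1)⁻¹ * mt p.2) a b| with hK
  have hKle : ∀ (N N' : Fin n → 𝒩) (a : Fin n), ∑ b, |((mt N)⁻¹ * mt N') a b| ≤ K := by
    intro N N' a
    refine le_trans ?_ (Finset.single_le_sum (f := fun p : (Fin n → 𝒩) × (Fin n → 𝒩) =>
      ∑ a, ∑ b, |((mt p.1)⁻¹ * mt p.2) a b|) (fun p _ => Finset.sum_nonneg fun a _ =>
      Finset.sum_nonneg fun b _ => abs_nonneg _) (Finset.mem_univ (N, N')))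
    exact Finset.single_le_sum (f := fun a => ∑ b, |((mt N)⁻¹ * mt N') a b|)
      (fun a _ => Finset.sum_nonneg fun b _ => abs_nonneg _) (Finset.mem_univ a)
  refine ⟨Finset.univ.image fun p : (Fin n → 𝒩) × (Fin n → 𝒩) × 𝒩 =>
      ((p.2.2.1 : Fin n → ℝ) ᵥ* (mt p.2.1)⁻¹) ᵥ* (mt p.1), D * 2 ^ m * d,
    |R| + 2 * (2 ^ m * (K * |R|)), by positivity, ?_, ?_⟩
  · intro μ hμ j
    obtain ⟨⟨N, N', ν⟩, -, rfl⟩ := Finset.mem_image.1 hμ
    choose Q hQ using fun k => hDc ((N', ν), k)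
    choose e he using fun k => h𝒩 _ (N k).2 j
    refine ⟨2 ^ m * ∑ k, Q k * e k, ?_⟩
    have h1 : (((ν.1 : Fin n → ℝ) ᵥ* (mt N')⁻¹) ᵥ* (mt N)) j =
        ∑ k, ((ν.1 : Fin n → ℝ) ᵥ* (mt N')⁻¹) k * (N k).1 j := rfl
    show (((ν.1 : Fin n → ℝ) ᵥ* (mt N')⁻¹) ᵥ* (mt N)) j = _
    rw [h1]
    push_cast
    rw [Finset.mul_sum, Finset.sum_div]
    refine Finset.sum_congr rfl fun k _ => ?_
    have h2 : ((ν.1 : Fin n → ℝ) ᵥ* (mt N')⁻¹) k = Q k / D := hQ k
    rw [h2, he k]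
    field_simp
  · intro E _ _ _ Om ι T i χ κ hgood
    have hii : (P (T.H i) ∩ P (T.H i)).Nonempty := by
      obtain ⟨x, hx⟩ := T.ne i
      exact ⟨x, I_sub_P _ hx, I_sub_P _ hx⟩
    -- the relation of the frames of `i` and `l`
    have hrel : ∀ l, (P (T.H l) ∩ P (T.H i)).Nonempty →
        ∃ (N N' : Fin n → 𝒩) (c c' : Fin n → ℤ), IsUnit (mt N) ∧ IsUnit (mt N') ∧
          ∀ y j, dt (N j).1 (χ i y) - c j / d =
            ((2:ℝ) ^ κ i / 2 ^ κ l) * (dt (N' j).1 (χ l y) - c' j / d) := by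
      intro l hl
      have hll : (P (T.H l) ∩ P (T.H l)).Nonempty := by
        obtain ⟨x, hx⟩ := T.ne l
        exact ⟨x, I_sub_P _ hx, I_sub_P _ hx⟩
      exact frame_rel T l (χ i) (χ l) (by positivity) (by positivity)
        (fun h hh => (hgood i hii).1.gf l hl h hh) (fun h hh => (hgood l hl).1.gf l hll h hh)
    -- the ratio of the scales
    have hrat : ∀ l, (P (T.H l) ∩ P (T.H i)).Nonempty →
        (2:ℝ) ^ κ i / 2 ^ κ l = ((2 ^ (κ i + m - κ l) : ℕ) : ℝ) / 2 ^ m := by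
      intro l hl
      have h1 := (hgood l hl).2.1
      rw [div_eq_div_iff (by positivity) (by positivity)]
      push_cast
      rw [← pow_add, ← pow_add]
      congr 1
      omega
    have hrat2 : ∀ l, (P (T.H l) ∩ P (T.H i)).Nonempty →
        (2:ℝ) ^ κ i / 2 ^ κ l ≤ 2 ^ m := by
      intro l hl
      have h1 := (hgood l hl).2.2
      rw [div_le_iff₀ (by positivity), ← pow_add]
      exact pow_le_pow_right₀ (by norm_num) (by omega)
    refine ⟨?_, ?_⟩
    · intro l hl l' hl' h hh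
      obtain ⟨N, N', c, c', hN, hN', hr⟩ := hrel l hl
      obtain ⟨ν, ch, hν⟩ := (hgood l hl).1.gf l' hl' h hh
      set q : Fin n → ℝ := ν ᵥ* (mt N')⁻¹ with hq
      choose Q hQ using fun k => hDc ((N', ⟨ν, hν.mem⟩), k)
      have hQ' : ∀ k, q k = Q k / D := hQ
      obtain ⟨ρ, hρ⟩ : ∃ ρ : ℕ, ρ = 2 ^ (κ i + m - κ l) := ⟨_, rfl⟩
      have hrl := hrat l hl
      rw [← hρ] at hrl
      refine ⟨q ᵥ* mt N, -(∑ j, Q j * (ρ * c' j - 2 ^ m * c j) - D * ρ * ch), ?_, ?_⟩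
      · exact Finset.mem_image.2 ⟨(N, N', ⟨ν, hν.mem⟩), Finset.mem_univ _, rfl⟩
      intro y
      have h1 := hν.eq y
      set r : ℝ := (2:ℝ) ^ κ i / 2 ^ κ l with hr'
      have h2 : (2:ℝ) ^ κ i * (h.1 y - h.2) = r * (dt ν (χ l y) - ch / d) := by
        rw [← h1, hr']
        field_simp
      have hqN : q ᵥ* mt N' = ν := by
        rw [hq, Matrix.vecMul_vecMul, Matrix.nonsing_inv_mul _
          ((Matrix.isUnit_iff_isUnit_det _).1 hN'), Matrix.vecMul_one]
      have e1 : dt ν (χ l y) = ∑ j, q j * dt (N' j).1 (χ l y) := by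
        have h3 : dt ν (χ l y) = q ⬝ᵥ (mt N' *ᵥ χ l y) := by
          rw [Matrix.dotProduct_mulVec, hqN, dt_dot]
        rw [h3]
        rfl
      have e3 : dt (q ᵥ* mt N) (χ i y) = ∑ j, q j * dt (N j).1 (χ i y) := by
        have h3 : dt (q ᵥ* mt N) (χ i y) = q ⬝ᵥ (mt N *ᵥ χ i y) := by
          rw [Matrix.dotProduct_mulVec, dt_dot]
        rw [h3]
        rfl
      have e2 : r * dt ν (χ l y) = dt (q ᵥ* mt N) (χ i y) +
          ∑ j, q j * ((r * c' j - c j) / d) := by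
        rw [e1, e3, Finset.mul_sum, ← Finset.sum_add_distrib]
        refine Finset.sum_congr rfl fun j _ => ?_
        have h4 := hr y j
        linear_combination (- q j) * h4
      rw [h2, mul_sub, e2]
      have e4 : ∑ j, q j * ((r * c' j - c j) / d) =
          ((∑ j, (Q j : ℝ) * (ρ * c' j - 2 ^ m * c j) : ℝ)) / (D * 2 ^ m * d) := by
        rw [Finset.sum_div]
        refine Finset.sum_congr rfl fun j _ => ?_
        rw [hQ' j, hrl]
        field_simp
      have e5 : r * (ch / d) = (D * ρ * ch : ℝ) / (D * 2 ^ m * d) := by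
        rw [hrl]
        field_simp
      rw [e4, e5]
      push_cast
      ring
    · -- the size
      have hdev : ∀ l, (P (T.H l) ∩ P (T.H i)).Nonempty → ∀ x ∈ P (T.H l), ∀ w ∈ P (T.H l),
          ∀ a, |χ i x a - χ i w a| ≤ 2 ^ m * (K * |R|) := by
        intro l hl x hx w hw a
        obtain ⟨N, N', c, c', hN, hN', hr⟩ := hrel l hl
        set r : ℝ := (2:ℝ) ^ κ i / 2 ^ κ l with hr'
        have hr0 : 0 ≤ r := by positivity
        set δ : Fin n → ℝ := χ l x - χ l w with hδ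
        have hδR : ∀ b, |δ b| ≤ |R| := fun b => by
          have := (hgood l hl).1.sz w hw x hx b
          exact (this.trans (le_abs_self R))
        have h1 : mt N *ᵥ (χ i x - χ i w) = r • (mt N' *ᵥ δ) := by
          funext j
          have h2 := hr x j
          have h3 := hr w j
          have h4 : (mt N *ᵥ (χ i x - χ i w)) j = dt (N j).1 (χ i x) - dt (N j).1 (χ i w) := by
            rw [mt_mulVec, dt_dot, dt_dot, dt_dot, dotProduct_sub]
          have h5 : (mt N' *ᵥ δ) j = dt (N' j).1 (χ l x) - dt (N' j).1 (χ l w) := by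
            rw [mt_mulVec, dt_dot, dt_dot, dt_dot, hδ, dotProduct_sub]
          rw [Pi.smul_apply, smul_eq_mul, h4, h5]
          linear_combination h2 - h3
        have h2 : χ i x - χ i w = r • (((mt N)⁻¹ * mt N') *ᵥ δ) := by
          have h3 := congrArg (fun u => (mt N)⁻¹ *ᵥ u) h1
          simp only [Matrix.mulVec_mulVec, Matrix.mulVec_smul] at h3
          rwa [Matrix.nonsing_inv_mul _ ((Matrix.isUnit_iff_isUnit_det _).1 hN),
            Matrix.one_mulVec] at h3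
        have h3 : χ i x a - χ i w a = r * ∑ b, ((mt N)⁻¹ * mt N') a b * δ b := by
          have := congrFun h2 a
          rw [Pi.sub_apply, Pi.smul_apply, smul_eq_mul] at this
          exact this
        rw [h3, abs_mul, abs_of_nonneg hr0]
        have h4 : |∑ b, ((mt N)⁻¹ * mt N') a b * δ b| ≤ K * |R| := by
          refine (Finset.abs_sum_le_sum_abs _ _).trans ?_
          refine le_trans ?_ (mul_le_mul_of_nonneg_right (hKle N N' a) (abs_nonneg R))
          rw [Finset.sum_mul]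
          refine Finset.sum_le_sum fun b _ => ?_
          rw [abs_mul]
          exact mul_le_mul_of_nonneg_left (hδR b) (abs_nonneg _)
        exact mul_le_mul (hrat2 l hl) h4 (abs_nonneg _) h2m.le
      intro l hl l' hl' x hx y hy a
      obtain ⟨w, hwl, hwi⟩ := hl
      obtain ⟨w', hwl', hwi'⟩ := hl'
      have h1 := hdev l ⟨w, hwl, hwi⟩ w hwl x hx a
      have h2 := hdev l' ⟨w', hwl', hwi'⟩ y hy w' hwl' a
      have h3 := ((hgood i hii).1.sz w hwi w' hwi' a).trans (le_abs_self R)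
      have h4 := abs_le.1 h1
      have h5 := abs_le.1 h2
      have h6 := abs_le.1 h3
      rw [abs_le]
      constructor <;> linarith [h4.1, h4.2, h5.1, h5.2, h6.1, h6.2]

end Crest.Agent.R096.Str_458
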