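import Crest.Agent.R096.Gsim2_812
import Crest.Agent.R096.Mal16_874

/-!
# Row 96 (S0127), helper922: the star of a good tile is in good form in the frame of the tile
-/

set_option autoImplicit false
set_option linter.unusedSectionVars false
set_option linter.style.longLine false

open Set

namespace Crest.Agent.R096.Str_922

open Crest.Agent.R096.Msh_715
open Crest.Agent.R096.Mal_874
open Crest.Agent.R096.Sk3_812 (GStar)

variable {n : ℕ}

/-- a retraction of the reals onto the rationals -/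
theorem exists_ret : ∃ ρ : ℝ →ₗ[ℚ] ℚ, ∀ q : ℚ, ρ (q : ℝ) = q := by
  obtain ⟨g, hg⟩ := LinearMap.exists_leftInverse_of_injective (Algebra.linearMap ℚ ℝ)
    (LinearMap.ker_eq_bot.2 (algebraMap ℚ ℝ).injective)
  exact ⟨g, fun q => by simpa using LinearMap.congr_fun hg q⟩

/-- rational coefficients -/
theorem rat_coef {ι : Type*} (S : Finset ι) (g : ι → Fin n → ℝ)
    (hg : ∀ p ∈ S, ∀ j, ∃ q : ℚ, g p j = q) {μ : Fin n → ℝ} (hμ : ∀ j, ∃ q : ℚ, μ j = q)
    {α : ι → ℝ} (h : ∀ j, ∑ p ∈ S, α p * g p j = μ j) :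
    ∃ β : ι → ℚ, ∀ j, ∑ p ∈ S, (β p : ℝ) * g p j = μ j := by
  obtain ⟨ρ, hρ⟩ := exists_ret
  refine ⟨fun p => ρ (α p), fun j => ?_⟩
  obtain ⟨m, hm⟩ := hμ j
  choose! q hq using hg
  have h1 : ρ (∑ p ∈ S, α p * g p j) = m := by rw [h j, hm, hρ]
  rw [map_sum] at h1
  rw [hm, ← h1]
  push_cast
  refine Finset.sum_congr rfl fun p hp => ?_
  rw [hq p hp j]
  have h2 : α p * (q p j : ℝ) = (q p j) • α p := by
    rw [Rat.smul_def, mul_comm]
  rw [h2, map_smul, smul_eq_mul]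
  push_cast
  ring

/-- spanning families -/
theorem span_coef {ι : Type*} (S : Finset ι) (g : ι → Fin n → ℝ)
    (h : ∀ v : Fin n → ℝ, (∀ p ∈ S, dt (g p) v = 0) → v = 0) (μ : Fin n → ℝ) :
    ∃ α : ι → ℝ, ∀ j, ∑ p ∈ S, α p * g p j = μ j := by
  classical
  have htop : Submodule.span ℝ (g '' (S : Set ι)) = ⊤ := by
    by_contra hne
    obtain ⟨f, hf, hle⟩ := Submodule.exists_le_ker_of_lt_top _ (lt_top_iff_ne_top.2 hne)
    have hfv : ∀ u : Fin n → ℝ, f u = dt u fun j => f (Pi.single j 1) := by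
      intro u
      conv_lhs => rw [← Finset.univ_sum_single u]
      rw [map_sum]
      unfold dt
      refine Finset.sum_congr rfl fun j _ => ?_
      rw [← smul_eq_mul, ← map_smul, ← Pi.single_smul, smul_eq_mul, mul_one]
    have h1 := h (fun j => f (Pi.single j 1)) fun p hp => by
      rw [← hfv]
      exact hle (Submodule.subset_span ⟨p, hp, rfl⟩)
    apply hf
    refine LinearMap.ext fun u => ?_
    rw [hfv, h1]
    simp [dt]
  have h2 : μ ∈ Submodule.span ℝ (g '' (S : Set ι)) := by rw [htop]; trivial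
  obtain ⟨c, hc⟩ := (Submodule.mem_span_image_finset_iff_exists_fun ℝ).1 h2
  refine ⟨fun p => if hp : p ∈ S then c ⟨p, hp⟩ else 0, fun j => ?_⟩
  rw [← hc, Finset.sum_apply, ← Finset.sum_attach]
  refine Finset.sum_congr rfl fun p _ => ?_
  show (if hp : (p : ι) ∈ S then c ⟨p, hp⟩ else 0) * g p j = c p * g p j
  rw [dif_pos p.2]

theorem dt_sum {ι : Type*} (S : Finset ι) (g : ι → Fin n → ℝ) (α : ι → ℝ) (u : Fin n → ℝ) :
    dt (fun j => ∑ p ∈ S, α p * g p j) u = ∑ p ∈ S, α p * dt (g p) u := by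
  unfold dt
  simp only [Finset.sum_mul, Finset.mul_sum]
  rw [Finset.sum_comm]
  refine Finset.sum_congr rfl fun p _ => Finset.sum_congr rfl fun j _ => by ring

section

variable {E : Type*} [NormedAddCommGroup E] [NormedSpace ℝ E]

theorem chi_add (χ : E ≃ᵃ[ℝ] (Fin n → ℝ)) (x w : E) (s : ℝ) (m : Fin n) :
    χ (x + s • w) m = χ x m + s * χ.linear w m := by
  have h := χ.map_vadd x (s • w)
  rw [vadd_eq_add, vadd_eq_add, map_smul] at h
  rw [add_comm x, h, Pi.add_apply, Pi.smul_apply, smul_eq_mul]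
  ring

theorem dt_chi (χ : E ≃ᵃ[ℝ] (Fin n → ℝ)) (ν : Fin n → ℝ) (x w : E) :
    dt ν (χ (x + w)) = dt ν (χ x) + dt ν (χ.linear w) := by
  have h : ∀ m, χ (x + w) m = χ x m + χ.linear w m := fun m => by
    have := chi_add χ x w 1 m
    rwa [one_smul, one_mul] at this
  unfold dt
  rw [← Finset.sum_add_distrib]
  refine Finset.sum_congr rfl fun m _ => ?_
  rw [h m]
  ring

/-- a bounded polytope has no invariant direction -/
theorem eq_zero_of_inv {H : Finset ((E →L[ℝ] ℝ) × ℝ)} (χ : E ≃ᵃ[ℝ] (Fin n → ℝ)) {R : ℝ}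
    (hsz : ∀ x ∈ P H, ∀ y ∈ P H, ∀ m, |χ y m - χ x m| ≤ R) {x : E} (hx : x ∈ P H) {w : E}
    (hw : ∀ h ∈ H, h.1 w = 0) : w = 0 := by
  have h1 : ∀ s : ℝ, x + s • w ∈ P H := by
    intro s h hh
    rw [map_add, map_smul, hw h hh, smul_zero, add_zero]
    exact hx h hh
  have h2 : χ.linear w = 0 := by
    funext m
    by_contra hne
    have hne' : χ.linear w m ≠ 0 := hne
    have h3 := hsz x hx _ (h1 ((|R| + 1) / χ.linear w m)) m
    rw [chi_add, div_mul_cancel₀ _ hne'] at h3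
    have h4 : χ x m + (|R| + 1) - χ x m = |R| + 1 := by ring
    rw [h4, abs_of_pos (by positivity)] at h3
    have := le_abs_self R
    linarith
  exact χ.linear.map_eq_zero_iff.1 h2

/-- the identity of the two frames -/
theorem two_frames {χ χ' : E ≃ᵃ[ℝ] (Fin n → ℝ)} {a b : ℕ} {h : (E →L[ℝ] ℝ) × ℝ} {𝒩 : Finset (Fin n → ℝ)}
    {d : ℕ} {ν ν' : Fin n → ℝ} {t t' : ℤ} (h1 : GF χ (2 ^ a) 𝒩 d h ν t) (h2 : GF χ' (2 ^ b) 𝒩 d h ν' t')
    (y : E) : dt ν (χ y) - t / d = 2 ^ a / 2 ^ b * (dt ν' (χ' y) - t' / d) := by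
  rw [← h1.eq, ← h2.eq]
  field_simp

theorem inv_of_gf {χ : E ≃ᵃ[ℝ] (Fin n → ℝ)} {a : ℕ} {h : (E →L[ℝ] ℝ) × ℝ} {𝒩 : Finset (Fin n → ℝ)}
    {d : ℕ} {ν : Fin n → ℝ} {t : ℤ} (h1 : GF χ (2 ^ a) 𝒩 d h ν t) {v : Fin n → ℝ} (hv : dt ν v = 0) :
    h.1 (χ.linear.symm v) = 0 := by
  have h2 := h1.eq 0
  have h3 := h1.eq (0 + χ.linear.symm v)
  rw [dt_chi, LinearEquiv.apply_symm_apply, hv, add_zero, ← h2, map_add] at h3
  have h4 : (0:ℝ) < 2 ^ a := by positivity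
  have h5 : (2:ℝ) ^ a * h.1 (χ.linear.symm v) = 0 := by linarith
  rcases mul_eq_zero.1 h5 with h6 | h6
  · exact absurd h6 h4.ne'
  · exact h6

end

/-- **the star of a good tile is in good form in the frame of the tile** -/
theorem exists_star {n : ℕ} (𝒩 : Finset (Fin n → ℝ)) {d : ℕ} (hd : 0 < d)
    (h𝒩 : ∀ ν ∈ 𝒩, ∀ j, ∃ c : ℤ, ν j = c / d) (R : ℝ) (m : ℕ) :
    ∃ (𝒩' : Finset (Fin n → ℝ)) (d' : ℕ) (R' : ℝ), 0 < d' ∧
      (∀ ν ∈ 𝒩', ∀ j, ∃ c : ℤ, ν j = c / d') ∧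
    ∀ {E : Type} [NormedAddCommGroup E] [NormedSpace ℝ E] [FiniteDimensional ℝ E] {Om : Set E}
      {ι : Type} (T : Tiling Om ι) (i : ι) (χ : ι → E ≃ᵃ[ℝ] (Fin n → ℝ)) (κ : ι → ℕ),
      (∀ l, (P (T.H l) ∩ P (T.H i)).Nonempty →
        Good T l (χ l) (κ l) 𝒩 d R ∧ κ l ≤ κ i + m ∧ κ i ≤ κ l + m) →
      GStar T i (χ i) (2 ^ κ i) 𝒩' d' R' := by
  classical
  set 𝒬 : Finset ((Fin n → ℝ) × (Fin n → ℝ)) := 𝒩 ×ˢ 𝒩 with hQQ
  have hα : ∀ (S : Finset ((Fin n → ℝ) × (Fin n → ℝ))) (μ : Fin n → ℝ),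
      ∃ α : ((Fin n → ℝ) × (Fin n → ℝ)) → ℚ, S ⊆ 𝒬 → μ ∈ 𝒩 →
        (∀ v, (∀ p ∈ S, dt p.1 v = 0) → v = 0) → ∀ j, ∑ p ∈ S, (α p : ℝ) * p.1 j = μ j := by
    intro S μ
    by_cases h : S ⊆ 𝒬 ∧ μ ∈ 𝒩 ∧ ∀ v, (∀ p ∈ S, dt p.1 v = 0) → v = 0
    · obtain ⟨h1, h2, h3⟩ := h
      have hq : ∀ ν ∈ 𝒩, ∀ j, ∃ q : ℚ, ν j = q := fun ν hν j => by
        obtain ⟨c, hc⟩ := h𝒩 ν hν j
        exact ⟨c / d, by rw [hc]; push_cast; rfl⟩
      obtain ⟨a, ha⟩ := span_coef S (fun p => p.1) h3 μ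
      obtain ⟨b, hb⟩ := rat_coef S (fun p => p.1)
        (fun p hp => hq _ (Finset.mem_product.1 (h1 hp)).1) (hq μ h2) ha
      exact ⟨b, fun _ _ _ => hb⟩
    · exact ⟨0, fun h1 h2 h3 => absurd ⟨h1, h2, h3⟩ h⟩
  choose α hα using hα
  have hβ : ∀ (S : Finset ((Fin n → ℝ) × (Fin n → ℝ))) (j : Fin n),
      ∃ β : ((Fin n → ℝ) × (Fin n → ℝ)) → ℝ,
        (∀ v, (∀ p ∈ S, dt p.2 v = 0) → v = 0) →
          ∀ j', ∑ p ∈ S, β p * p.2 j' = if j' = j then 1 else 0 := by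
    intro S j
    by_cases h : ∀ v, (∀ p ∈ S, dt p.2 v = 0) → v = 0
    · obtain ⟨a, ha⟩ := span_coef S (fun p => p.2) h fun j' => if j' = j then 1 else 0
      exact ⟨a, fun _ => ha⟩
    · exact ⟨0, fun h1 => absurd h1 h⟩
  choose β hβ using hβ
  set D : ℕ := ∏ S ∈ 𝒬.powerset, ∏ μ ∈ 𝒩, ∏ p ∈ 𝒬, (α S μ p).den with hDdef
  have hD : 0 < D := Finset.prod_pos fun S _ => Finset.prod_pos fun μ _ =>
    Finset.prod_pos fun p _ => (α S μ p).den_pos
  have hdvd : ∀ S ∈ 𝒬.powerset, ∀ μ ∈ 𝒩, ∀ p ∈ 𝒬, ∃ a : ℤ, (α S μ p : ℝ) = a / D := by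
    intro S hS μ hμ p hp
    have h1 : (α S μ p).den ∣ D :=
      ((Finset.dvd_prod_of_mem (fun p => (α S μ p).den) hp).trans
        (Finset.dvd_prod_of_mem (fun μ => ∏ p ∈ 𝒬, (α S μ p).den) hμ)).trans
        (Finset.dvd_prod_of_mem (fun S => ∏ μ ∈ 𝒩, ∏ p ∈ 𝒬, (α S μ p).den) hS)
    obtain ⟨e, he⟩ := h1
    have he0 : (e : ℝ) ≠ 0 := by
      have : e ≠ 0 := by rintro rfl; omega
      exact_mod_cast this
    have hden : ((α S μ p).den : ℝ) ≠ 0 := by exact_mod_cast (α S μ p).den_nz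
    refine ⟨(α S μ p).num * e, ?_⟩
    rw [he]
    push_cast
    rw [mul_div_mul_right _ _ he0]
    exact_mod_cast (Rat.num_div_den (α S μ p)).symm
  have hDR : (0:ℝ) < D := by exact_mod_cast hD
  have hdR : (0:ℝ) < d := by exact_mod_cast hd
  set B : ℝ := ∑ S ∈ 𝒬.powerset, ∑ j, ∑ p ∈ S, |β S j p| * (2 ^ m * (|R| * n1 p.1)) with hB
  refine ⟨(𝒬.powerset ×ˢ 𝒩).image fun q j => ∑ p ∈ q.1, (α q.1 q.2 p : ℝ) * p.2 j,
    D * d * 2 ^ m, |R| + 2 * B, by positivity, ?_, ?_⟩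
  · intro ν hν j
    obtain ⟨⟨S, μ⟩, hq, rfl⟩ := Finset.mem_image.1 hν
    obtain ⟨hS, hμ⟩ := Finset.mem_product.1 hq
    have h1 : ∀ p ∈ S, ∃ c : ℤ, (α S μ p : ℝ) * p.2 j = c / (D * d) := by
      intro p hp
      have hp' := Finset.mem_powerset.1 hS hp
      obtain ⟨a, ha⟩ := hdvd S hS μ hμ p hp'
      obtain ⟨c, hc⟩ := h𝒩 p.2 (Finset.mem_product.1 hp').2 j
      exact ⟨a * c, by rw [ha, hc]; push_cast; field_simp⟩
    choose! c hc using h1
    refine ⟨(∑ p ∈ S, c p) * 2 ^ m, ?_⟩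
    show ∑ p ∈ S, (α S μ p : ℝ) * p.2 j = _
    rw [Finset.sum_congr rfl hc, ← Finset.sum_div]
    push_cast
    field_simp
  · intro E _ _ _ Om ι T i χ κ hG
    have hii : (P (T.H i) ∩ P (T.H i)).Nonempty := by
      obtain ⟨x0, hx0⟩ := T.ne i
      exact ⟨x0, I_sub_P _ hx0, I_sub_P _ hx0⟩
    have key : ∀ l, (P (T.H l) ∩ P (T.H i)).Nonempty →
        ∃ S : Finset ((Fin n → ℝ) × (Fin n → ℝ)), S ⊆ 𝒬 ∧
          (∀ v, (∀ p ∈ S, dt p.1 v = 0) → v = 0) ∧ (∀ v, (∀ p ∈ S, dt p.2 v = 0) → v = 0) ∧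
          ∀ p ∈ S, ∃ t t' : ℤ, ∀ y,
            dt p.2 (χ i y) - t / d = 2 ^ κ i / 2 ^ κ l * (dt p.1 (χ l y) - t' / d) := by
      intro l hl
      have hll : (P (T.H l) ∩ P (T.H l)).Nonempty := ⟨hl.some, hl.some_mem.1, hl.some_mem.1⟩
      have g1 := (hG l hl).1.gf l hll
      have g2 := (hG i hii).1.gf l hl
      choose! ν' t' h1 using g1
      choose! ν t h2 using g2
      refine ⟨(T.H l).image fun h => (ν' h, ν h), ?_, ?_, ?_, ?_⟩
      · intro p hp
        obtain ⟨h, hh, rfl⟩ := Finset.mem_image.1 hp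
        exact Finset.mem_product.2 ⟨(h1 h hh).mem, (h2 h hh).mem⟩
      · intro v hv
        have h3 : (χ l).linear.symm v = 0 := eq_zero_of_inv (χ l) (hG l hl).1.sz hll.some_mem.1
          fun h hh => inv_of_gf (h1 h hh) (hv _ (Finset.mem_image_of_mem _ hh))
        exact (χ l).linear.symm.map_eq_zero_iff.1 h3
      · intro v hv
        have h3 : (χ i).linear.symm v = 0 := eq_zero_of_inv (χ l) (hG l hl).1.sz hll.some_mem.1
          fun h hh => inv_of_gf (h2 h hh) (hv _ (Finset.mem_image_of_mem _ hh))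
        exact (χ i).linear.symm.map_eq_zero_iff.1 h3
      · intro p hp
        obtain ⟨h, hh, rfl⟩ := Finset.mem_image.1 hp
        exact ⟨t h, t' h, fun y => two_frames (h2 h hh) (h1 h hh) y⟩
    have hr : ∀ l, (P (T.H l) ∩ P (T.H i)).Nonempty →
        (∃ e : ℕ, (2:ℝ) ^ κ i / 2 ^ κ l = e / 2 ^ m) ∧ (2:ℝ) ^ κ i / 2 ^ κ l ≤ 2 ^ m := by
      intro l hl
      obtain ⟨-, h1, h2⟩ := hG l hl
      constructor
      · refine ⟨2 ^ (κ i + m - κ l), ?_⟩
        rw [div_eq_div_iff (by positivity) (by positivity), ← pow_add]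
        push_cast
        rw [← pow_add]
        congr 1
        omega
      · rw [div_le_iff₀ (by positivity), ← pow_add]
        exact pow_le_pow_right₀ (by norm_num) (by omega)
    have hbd : ∀ l, (P (T.H l) ∩ P (T.H i)).Nonempty → ∀ x ∈ P (T.H l), ∀ z ∈ P (T.H l), ∀ j,
        |χ i z j - χ i x j| ≤ B := by
      intro l hl x hx z hz j
      obtain ⟨S, hS, -, hS2, hS3⟩ := key l hl
      have h1 := hβ S j hS2
      have h2 : ∀ y, χ i y j = ∑ p ∈ S, β S j p * dt p.2 (χ i y) := by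
        intro y
        rw [← dt_sum S (fun p => p.2) (β S j)]
        unfold dt
        rw [Finset.sum_eq_single j]
        · beta_reduce
          rw [h1 j, if_pos rfl, one_mul]
        · intro b _ hb
          beta_reduce
          rw [h1 b, if_neg hb, zero_mul]
        · intro h; exact absurd (Finset.mem_univ _) h
      have h3 : χ i z j - χ i x j =
          ∑ p ∈ S, β S j p * (2 ^ κ i / 2 ^ κ l * (dt p.1 (χ l z) - dt p.1 (χ l x))) := by
        rw [h2 z, h2 x, ← Finset.sum_sub_distrib]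
        refine Finset.sum_congr rfl fun p hp => ?_
        obtain ⟨t, t', ht⟩ := hS3 p hp
        have e1 := ht z
        have e2 := ht x
        rw [← mul_sub]
        congr 1
        linarith
      rw [h3]
      refine (Finset.abs_sum_le_sum_abs _ _).trans ?_
      have h4 : ∑ p ∈ S, |β S j p * (2 ^ κ i / 2 ^ κ l * (dt p.1 (χ l z) - dt p.1 (χ l x)))| ≤
          ∑ p ∈ S, |β S j p| * (2 ^ m * (|R| * n1 p.1)) := by
        refine Finset.sum_le_sum fun p _ => ?_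
        rw [abs_mul, abs_mul, abs_of_nonneg (show (0:ℝ) ≤ 2 ^ κ i / 2 ^ κ l by positivity)]
        refine mul_le_mul_of_nonneg_left ?_ (abs_nonneg _)
        refine mul_le_mul (hr l hl).2 ?_ (abs_nonneg _) (by positivity)
        rw [← dt_sub]
        exact dt_le fun j' => ((hG l hl).1.sz x hx z hz j').trans (le_abs_self R)
      refine h4.trans ?_
      have h0 : ∀ S ∈ 𝒬.powerset, ∀ j, 0 ≤ ∑ p ∈ S, |β S j p| * (2 ^ m * (|R| * n1 p.1)) :=
        fun S _ j => Finset.sum_nonneg fun p _ => mul_nonneg (abs_nonneg _)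
          (mul_nonneg (by positivity) (mul_nonneg (abs_nonneg _) (n1_nonneg _)))
      refine (Finset.single_le_sum (f := fun j => ∑ p ∈ S, |β S j p| * (2 ^ m * (|R| * n1 p.1)))
        (fun j _ => h0 S (Finset.mem_powerset.2 hS) j) (Finset.mem_univ j)).trans ?_
      exact Finset.single_le_sum
        (f := fun S => ∑ j, ∑ p ∈ S, |β S j p| * (2 ^ m * (|R| * n1 p.1)))
        (fun S hS => Finset.sum_nonneg fun j _ => h0 S hS j) (Finset.mem_powerset.2 hS)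
    refine ⟨?_, ?_⟩
    · intro l hl l' hl' h' hh'
      obtain ⟨S, hS, hS1, -, hS3⟩ := key l hl
      obtain ⟨⟨e, he⟩, -⟩ := hr l hl
      obtain ⟨μ, t'', hμ⟩ := (hG l hl).1.gf l' hl' h' hh'
      choose! t t' ht using hS3
      have h1 := hα S μ hS hμ.mem hS1
      have h2 : ∀ p ∈ S, ∃ a : ℤ, (α S μ p : ℝ) = a / D := fun p hp =>
        hdvd S (Finset.mem_powerset.2 hS) μ hμ.mem p (hS hp)
      choose! a ha using h2
      refine ⟨fun j => ∑ p ∈ S, (α S μ p : ℝ) * p.2 j,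
        (∑ p ∈ S, a p * (t p * 2 ^ m - e * t' p)) + D * e * t'', ?_, fun y => ?_⟩
      · exact Finset.mem_image.2 ⟨(S, μ), Finset.mem_product.2
          ⟨Finset.mem_powerset.2 hS, hμ.mem⟩, rfl⟩
      · have h3 : (2:ℝ) ^ κ i * (h'.1 y - h'.2) =
            2 ^ κ i / 2 ^ κ l * (dt μ (χ l y) - t'' / d) := by
          rw [← hμ.eq]
          field_simp
        have h4 : dt μ (χ l y) = ∑ p ∈ S, (α S μ p : ℝ) * dt p.1 (χ l y) := by
          rw [← dt_sum S (fun p => p.1)]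
          unfold dt
          exact Finset.sum_congr rfl fun j _ => by beta_reduce; rw [h1 j]
        have h5 : 2 ^ κ i / 2 ^ κ l * dt μ (χ l y) =
            ∑ p ∈ S, (α S μ p : ℝ) * dt p.2 (χ i y) -
              ∑ p ∈ S, ((a p : ℝ) / D) * (((t p : ℝ) * 2 ^ m - e * t' p) / (2 ^ m * d)) := by
          rw [h4, Finset.mul_sum, ← Finset.sum_sub_distrib]
          refine Finset.sum_congr rfl fun p hp => ?_
          have e1 := ht p hp y
          rw [← ha p hp]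
          rw [he] at e1 ⊢
          have e2 : (e:ℝ) / 2 ^ m * dt p.1 (χ l y) =
              dt p.2 (χ i y) - (t p * 2 ^ m - e * t' p) / (2 ^ m * d) := by
            have e3 : (e:ℝ) / 2 ^ m * dt p.1 (χ l y) =
                dt p.2 (χ i y) - t p / d + e / 2 ^ m * (t' p / d) := by
              rw [e1]; ring
            rw [e3]
            field_simp
            ring
          calc (e:ℝ) / 2 ^ m * ((α S μ p : ℝ) * dt p.1 (χ l y))
              = (α S μ p : ℝ) * ((e:ℝ) / 2 ^ m * dt p.1 (χ l y)) := by ring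
            _ = _ := by rw [e2]; ring
        rw [h3, mul_sub, h5, dt_sum S (fun p => p.2), he]
        have h6 : (((∑ p ∈ S, a p * (t p * 2 ^ m - e * t' p)) + D * e * t'' : ℤ) : ℝ) /
            ((D * d * 2 ^ m : ℕ) : ℝ) =
            ∑ p ∈ S, ((a p : ℝ) / D) * (((t p : ℝ) * 2 ^ m - e * t' p) / (2 ^ m * d)) +
              (e:ℝ) / 2 ^ m * (t'' / d) := by
          push_cast
          rw [add_div, Finset.sum_div]
          congr 1
          · refine Finset.sum_congr rfl fun p _ => ?_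
            field_simp
          · field_simp
        rw [h6]
        ring
    · intro l hl l' hl' x hx y hy j
      obtain ⟨z, hz, hzi⟩ := hl
      obtain ⟨z', hz', hzi'⟩ := hl'
      have h1 := hbd l ⟨z, hz, hzi⟩ x hx z hz j
      have h2 := hbd l' ⟨z', hz', hzi'⟩ z' hz' y hy j
      have h3 := ((hG i hii).1.sz z hzi z' hzi' j).trans (le_abs_self R)
      have e : χ i y j - χ i x j =
          (χ i y j - χ i z' j) + (χ i z' j - χ i z j) + (χ i z j - χ i x j) := by ring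
      rw [e]
      refine (abs_add_three _ _ _).trans ?_
      linarith

end Crest.Agent.R096.Str_922
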