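import Crest.Agent.R096.Sqt5_143

/-!
Row 96 (S0127), helper968, leaf STRIP, part 1: **one cell**.  On the points of the cell at distance
`≤ u ≤ R / (2 M)` of its boundary the squeeze is the explicit map of the outer shell: it does not
depend on `N`, moves points by `≤ 2 M² u`, is locally `16 M²`-Lipschitz and its inverse has Jacobian
`≤ C M⁶ / τ`.
-/

set_option autoImplicit false

open Set Metric Filter Topology MeasureTheory

namespace Crest.Agent.R096.Str_968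

open Crest.Agent.R096.Ce_537 Crest.Agent.R096.Bd_416 Crest.Agent.R96.Hole_348
open Crest.Agent.R096.Sq_55 Crest.Agent.R096.Sqt_143
open scoped ENNReal NNReal

/-! ### general lemmas -/

/-- integrals over the preimage of a set -/
lemma lint_into {d : ℕ} {h : (Fin d → ℝ) → (Fin d → ℝ)} (hh : Measurable h)
    {A B S T : Set (Fin d → ℝ)} {K : ℝ≥0∞}
    (H : ∀ v : (Fin d → ℝ) → ℝ≥0∞, Measurable v → ∫⁻ x in A, v (h x) ≤ K * ∫⁻ x in B, v x)
    (hSA : S ⊆ A) (mT : MeasurableSet T) (hT : ∀ x ∈ S, h x ∈ T)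
    {v : (Fin d → ℝ) → ℝ≥0∞} (hv : Measurable v) :
    ∫⁻ x in S, v (h x) ≤ K * ∫⁻ x in B ∩ T, v x := by
  have h1 : ∫⁻ x in S, v (h x) ≤ ∫⁻ x in S, T.indicator v (h x) := by
    refine lintegral_mono_ae ?_
    have h2 : ∀ᵐ x ∂(volume.restrict S), h x ∈ T :=
      (ae_restrict_iff (hh mT)).2 (Eventually.of_forall hT)
    filter_upwards [h2] with x hx
    rw [indicator_of_mem hx]
  refine h1.trans ((lintegral_mono_set hSA).trans ((H _ (hv.indicator mT)).trans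
    (mul_le_mul' le_rfl (le_of_eq ?_))))
  rw [lintegral_indicator mT, Measure.restrict_restrict mT, inter_comm]

section cell

variable {C : Cell} {q τ : ℝ} {N : ℕ}

/-- the depth of a point near the boundary -/
lemma depth {x y : E3} (hx : x ∈ C.P) (hy : y ∈ C.P) (hyU : y ∉ C.U) :
    1 - ‖C.e x‖ ≤ (C.M / C.R : ℝ) * ‖x - y‖ := by
  have hy1 : 1 ≤ ‖C.e y‖ := by
    by_contra hlt
    exact hyU ((C.cht.mem y hy).1 (mem_ball_zero_iff.2 (not_le.1 hlt)))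
  have h3 := lip_le C.cht.lip hx hy
  push_cast at h3
  have h4 : ‖C.e y‖ ≤ ‖C.e x‖ + ‖C.e x - C.e y‖ := by
    calc ‖C.e y‖ = ‖C.e x - (C.e x - C.e y)‖ := by congr 1; abel
      _ ≤ _ := norm_sub_le _ _
  linarith

lemma depth_lt {x y : E3} (hx : x ∈ C.P) (hy : y ∈ C.P) (hyU : y ∉ C.U) {u : ℝ}
    (hxy : ‖x - y‖ ≤ u) (hu : 2 * C.M * u < C.R) : 1/2 < ‖C.e x‖ := by
  have hM := C.M_pos
  have hR := C.R_pos
  have h1 := depth hx hy hyU
  have h2 : (C.M / C.R : ℝ) * ‖x - y‖ ≤ (C.M / C.R : ℝ) * u :=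
    mul_le_mul_of_nonneg_left hxy (by positivity)
  have h3 : (C.M / C.R : ℝ) * u < 1/2 := by
    rw [div_mul_eq_mul_div, div_lt_iff₀ hR]; linarith
  linarith

/-- the formula on the outer shell -/
lemma hh_outer (hP : GPar q τ 1) {x : E3} (hx : x ∈ C.P) (h : 1/2 ≤ ‖C.e x‖) :
    C.hh (N+1) hP x = C.e' (outer τ 1 (C.e x)) := by
  rw [C.hh_in (N+1) hP hx, cgf_in (mem_closedBall_zero_iff.1 (C.cht.maps hx)), gf_outer h]

lemma tau_le (hP : GPar q τ 1) : τ ≤ 1/2 := by have := hP.half_le; linarith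

lemma e_outer (hP : GPar q τ 1) {x : E3} (hx : x ∈ C.P) (h : 1/2 ≤ ‖C.e x‖) :
    C.e (C.hh (N+1) hP x) = outer τ 1 (C.e x) ∧
      ‖C.e (C.hh (N+1) hP x)‖ = 1 - 2 * τ * (1 - ‖C.e x‖) := by
  have h1 : ‖C.e x‖ ≤ 1 := mem_closedBall_zero_iff.1 (C.cht.maps hx)
  have h2 := norm_outer_one hP.t0 (tau_le hP) h h1
  have h3 : ‖outer τ 1 (C.e x)‖ ≤ 1 := by
    rw [h2]; have := hP.t0; nlinarith
  have h4 : C.e (C.hh (N+1) hP x) = outer τ 1 (C.e x) := by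
    rw [hh_outer hP hx h]
    exact C.cht.inv' _ (mem_closedBall_zero_iff.2 h3)
  exact ⟨h4, by rw [h4, h2]⟩

/-- points are near the boundary -/
lemma near_bd {x : E3} (hx : x ∈ C.P) (h : 0 < ‖C.e x‖) :
    ∃ y ∈ C.P \ C.U, ‖x - y‖ ≤ C.M * C.R * (1 - ‖C.e x‖) := by
  set z := C.e x with hz
  have hz1 : ‖z‖ ≤ 1 := mem_closedBall_zero_iff.1 (C.cht.maps hx)
  set z' := ‖z‖⁻¹ • z with hz'
  have n1 : ‖z'‖ = 1 := by rw [hz', norm_smul, norm_inv, norm_norm, inv_mul_cancel₀ h.ne']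
  have n2 : ‖z - z'‖ = 1 - ‖z‖ := by
    have : z - z' = (1 - ‖z‖⁻¹) • z := by rw [hz', sub_smul, one_smul]
    rw [this, norm_smul, Real.norm_eq_abs, abs_sub_comm, abs_of_nonneg, sub_mul,
      inv_mul_cancel₀ h.ne', one_mul]
    have := (one_le_inv₀ h).2 hz1
    linarith
  have m1 : z' ∈ closedBall (0 : E3) 1 := by rw [mem_closedBall_zero_iff, n1]
  have m2 : z ∈ closedBall (0 : E3) 1 := C.cht.maps hx
  refine ⟨C.e' z', ⟨C.cht.maps' m1, fun h1 => ?_⟩, ?_⟩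
  · have := (C.cht.mem' m1).1 h1
    rw [mem_ball_zero_iff, n1] at this
    exact lt_irrefl _ this
  · have h1 := lip_le C.cht.lip' m2 m1
    rw [C.cht.inv x hx, n2] at h1
    push_cast at h1
    exact h1

lemma hh_P (hP : GPar q τ 1) {x : E3} (hx : x ∈ C.P) : C.hh N hP x ∈ C.P := by
  by_cases h : x ∈ C.U
  · exact C.cht.sub (maps_of_fix (C.hh N hP).injective (fun _ hx => C.hh_out N hP hx) h)
  · rw [C.hh_out N hP h]; exact hx

/-- **(a)** displacement and distance to the boundary -/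
theorem cell_a (hP : GPar q τ 1) {x y : E3} (hx : x ∈ C.P) (hy : y ∈ C.P \ C.U) {u : ℝ}
    (hxy : ‖x - y‖ ≤ u) (hu : 2 * C.M * u ≤ C.R) :
    ‖C.hh (N+1) hP x - x‖ ≤ 2 * (C.M:ℝ)^2 * u ∧
      ∃ y' ∈ C.P \ C.U, ‖C.hh (N+1) hP x - y'‖ ≤ 2 * (C.M:ℝ)^2 * τ * u := by
  have hM := C.M_pos
  have hR := C.R_pos
  have h1 := depth hx hy.1 hy.2
  have h2 : (C.M / C.R : ℝ) * ‖x - y‖ ≤ (C.M / C.R : ℝ) * u :=
    mul_le_mul_of_nonneg_left hxy (by positivity)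
  have h3 : (C.M / C.R : ℝ) * u ≤ 1/2 := by
    rw [div_mul_eq_mul_div, div_le_iff₀ hR]; linarith
  have h4 : 1/2 ≤ ‖C.e x‖ := by linarith
  have h5 : ‖C.e x‖ ≤ 1 := mem_closedBall_zero_iff.1 (C.cht.maps hx)
  have ht := hP.t0
  obtain ⟨k1, k2⟩ := e_outer (N := N) hP hx h4
  have hK : C.hh (N+1) hP x ∈ C.P := hh_P hP hx
  constructor
  · have h6 := outer_sub_le ht (tau_le hP) h4 h5
    have h7 := lip_le C.cht.lip' (C.cht.maps hK) (C.cht.maps hx)
    rw [C.cht.inv _ hK, C.cht.inv x hx, k1] at h7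
    push_cast at h7
    refine h7.trans ?_
    calc (C.M * C.R : ℝ) * ‖outer τ 1 (C.e x) - C.e x‖
        ≤ (C.M * C.R : ℝ) * (2 * ((C.M / C.R : ℝ) * u)) := by
          apply mul_le_mul_of_nonneg_left _ (by positivity)
          linarith
      _ = _ := by field_simp
  · obtain ⟨y', hy', h6⟩ := near_bd hK (by rw [k2]; have := tau_le hP; nlinarith)
    refine ⟨y', hy', h6.trans ?_⟩
    rw [k2]
    calc (C.M * C.R : ℝ) * (1 - (1 - 2 * τ * (1 - ‖C.e x‖)))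
        = (C.M * C.R : ℝ) * (2 * τ) * (1 - ‖C.e x‖) := by ring
      _ ≤ (C.M * C.R : ℝ) * (2 * τ) * ((C.M / C.R : ℝ) * u) := by
          apply mul_le_mul_of_nonneg_left _ (by positivity)
          linarith
      _ = _ := by field_simp

lemma LLV_cgf_outer {d : ℕ} (hP : GPar q τ 1) {z : Fin d → ℝ} (h1 : 1/2 < ‖z‖) (h2 : ‖z‖ < 1) :
    LLV 16 (cgf q τ (N+1)) z := by
  filter_upwards [LLV_gf_outer (N := N) hP h1,
    isOpen_ball.mem_nhds (show z ∈ ball (0 : Fin d → ℝ) 1 by simpa using h2)] with y hy hy2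
  rw [mem_ball_zero_iff] at hy2
  rw [cgf_in hy2.le, cgf_in h2.le]
  exact hy

/-- **(b)** the local Lipschitz constant -/
theorem cell_b (hP : GPar q τ 1) {x : E3} (hx : x ∈ C.U) (h : 1/2 < ‖C.e x‖) :
    LLV (16 * (C.M:ℝ)^2) (C.hh (N+1) hP) x := by
  have c' : Cht C.P C.U Q0.K Q0.I C.e C.e' (C.M / C.R) (C.M * C.R) := by
    rw [Q0_K, Q0_I]; exact C.cht
  have hR := C.R_pos
  have h2 : ‖C.e x‖ < 1 := mem_ball_zero_iff.1 (C.cht.eU hx)
  have h3 : LLV 16 (Q0.S (N+1) hP) (C.e x) := by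
    filter_upwards [LLV_cgf_outer (N := N) hP h h2] with y hy
    rw [Q0_S_apply, Q0_S_apply]
    exact hy
  have h4 := c'.LLV_trf hx (by norm_num) (Q0.S (N+1) hP).injective
    (fun z hz => Q0.S_out hP hz) h3
  rw [← C.hh_eq] at h4
  have e : ((C.M * C.R : ℝ≥0) : ℝ) * (16 * ((C.M / C.R : ℝ≥0) : ℝ)) = 16 * (C.M:ℝ)^2 := by
    push_cast
    field_simp
  rwa [e] at h4

/-- the shell of a cell -/
def shC (C : Cell) : Set E3 := C.U ∩ C.e ⁻¹' {z | 1/2 < ‖z‖}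

lemma isOpen_shC : IsOpen (shC C) :=
  (C.cht.lip.continuousOn.mono C.cht.sub).isOpen_inter_preimage C.cht.opU
    (isOpen_lt continuous_const continuous_norm)

/-- the constant of the change of variables -/
noncomputable def kC (M : ℝ≥0) (τ : ℝ) : ℝ≥0∞ := ENNReal.ofReal ((M:ℝ)^6 * (kap 3 / τ))

/-- **(c)** the change of variables on the shell of a cell -/
theorem cell_c (hP : GPar q τ 1) {v : E3 → ℝ≥0∞} (hv : Measurable v) :
    ∫⁻ x in shC C, v (C.hh (N+1) hP x) ≤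
      kC C.M τ * ∫⁻ x in C.P ∩ C.e ⁻¹' {z | 1 - τ < ‖z‖ ∧ ‖z‖ ≤ 1}, v x := by
  have c := C.cht
  have hR := C.R_pos
  have hM := C.M_pos
  have ht := hP.t0
  obtain ⟨e₂, m2, q2⟩ := measurable_ext c.clK'.measurableSet c.lip'.continuousOn
  obtain ⟨e₁, m1, q1⟩ := measurable_ext c.clK.measurableSet c.lip.continuousOn
  set ut : E3 → ℝ≥0∞ := (closedBall (0:E3) 1).indicator fun z => v (e₂ z) with hut
  have mus : Measurable ut := (hv.comp m2).indicator c.clK'.measurableSet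
  have ut1 : ∀ z ∈ closedBall (0:E3) 1, ut z = v (C.e' z) := fun z hz => by
    rw [hut, indicator_of_mem hz, q2 hz]
  set A' : Set E3 := {z | 1/2 < ‖z‖ ∧ ‖z‖ < 1} with hA'
  have s1 : ∫⁻ x in shC C, v (C.hh (N+1) hP x) ≤
      ((C.M * C.R : ℝ≥0) : ℝ≥0∞)^3 * ∫⁻ z in A', v (C.hh (N+1) hP (C.e' z)) :=
    lint_chart (e := C.e) (e' := C.e') isOpen_shC.measurableSet isOpen_shell.measurableSet
      (c.lip.continuousOn.mono (inter_subset_left.trans c.sub))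
      (fun x hx => ⟨hx.2, mem_ball_zero_iff.1 (c.eU hx.1)⟩) (fun x hx => c.inv x (c.sub hx.1))
      (c.lip'.mono fun z hz => mem_closedBall_zero_iff.2 hz.2.le)
      (fun x => v (C.hh (N+1) hP x))
  have s2 : ∫⁻ z in A', v (C.hh (N+1) hP (C.e' z)) = ∫⁻ z in A', ut (outer τ 1 z) := by
    refine setLIntegral_congr_fun isOpen_shell.measurableSet fun z hz => ?_
    have hz1 : z ∈ closedBall (0:E3) 1 := mem_closedBall_zero_iff.2 hz.2.le
    have e3 : C.e (C.e' z) = z := c.inv' z hz1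
    have h4 := hh_outer (N := N) hP (c.maps' hz1) (by rw [e3]; exact hz.1.le)
    show v (C.hh (N+1) hP (C.e' z)) = ut (outer τ 1 z)
    rw [h4, e3, ut1]
    rw [mem_closedBall_zero_iff, norm_outer_one ht (tau_le hP) hz.1.le hz.2.le]
    have := hz.2
    nlinarith
  have s3 := lint_outer (n := 3) ht hP.half_le le_rfl mus
  set V : Set E3 := {y | 1 - τ < ‖y‖ ∧ ‖y‖ ≤ 1} with hV
  have mV : MeasurableSet V := measurableSet_layer _ _
  have s4 : ∫⁻ z in V, ut z ≤ ((C.M / C.R : ℝ≥0) : ℝ≥0∞)^3 * ∫⁻ x in C.P ∩ C.e ⁻¹' V, v x := by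
    have mKV : MeasurableSet (C.P ∩ C.e ⁻¹' V) := by
      have : C.P ∩ C.e ⁻¹' V = C.P ∩ e₁ ⁻¹' V := by
        ext x
        constructor
        · rintro ⟨h1, h2⟩
          refine ⟨h1, ?_⟩
          show e₁ x ∈ V
          rw [q1 h1]; exact h2
        · rintro ⟨h1, h2⟩
          refine ⟨h1, ?_⟩
          have h3 : e₁ x ∈ V := h2
          rw [q1 h1] at h3; exact h3
      rw [this]
      exact c.clK.measurableSet.inter (m1 mV)
    have sV : V ⊆ closedBall (0:E3) 1 := fun z hz => mem_closedBall_zero_iff.2 hz.2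
    have h1 := lint_chart (e := C.e') (e' := C.e) mV mKV (c.lip'.continuousOn.mono sV)
      (fun z hz => ⟨c.maps' (sV hz), by
        show C.e (C.e' z) ∈ V
        rw [c.inv' z (sV hz)]; exact hz⟩)
      (fun z hz => c.inv' z (sV hz)) (c.lip.mono inter_subset_left) ut
    refine h1.trans (le_of_eq ?_)
    congr 1
    refine setLIntegral_congr_fun mKV fun x hx => ?_
    show ut (C.e x) = v x
    rw [ut1 _ (c.maps hx.1), c.inv x hx.1]
  refine s1.trans ?_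
  rw [s2]
  calc ((C.M * C.R : ℝ≥0) : ℝ≥0∞)^3 * ∫⁻ z in A', ut (outer τ 1 z)
      ≤ ((C.M * C.R : ℝ≥0) : ℝ≥0∞)^3 * (ENNReal.ofReal (kap 3 / τ) *
          (((C.M / C.R : ℝ≥0) : ℝ≥0∞)^3 * ∫⁻ x in C.P ∩ C.e ⁻¹' V, v x)) :=
        mul_le_mul' le_rfl (s3.trans (mul_le_mul' le_rfl s4))
    _ = (((C.M * C.R : ℝ≥0) : ℝ≥0∞) * ((C.M / C.R : ℝ≥0) : ℝ≥0∞))^3 *
          ENNReal.ofReal (kap 3 / τ) * ∫⁻ x in C.P ∩ C.e ⁻¹' V, v x := by
        rw [mul_pow]; ring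
    _ = kC C.M τ * ∫⁻ x in C.P ∩ C.e ⁻¹' V, v x := by
        congr 1
        have e1 : (C.M * C.R) * (C.M / C.R) = C.M * C.M := by
          have := C.pos
          field_simp
        rw [← ENNReal.coe_mul, e1, kC, ENNReal.ofReal_mul (by positivity)]
        congr 1
        rw [show ((C.M:ℝ))^6 = ((C.M * C.M : ℝ≥0) : ℝ)^3 by push_cast; ring,
          ENNReal.ofReal_pow (by positivity), ENNReal.ofReal_coe_nnreal]

/-- **(c')** with a set -/
theorem cell_c' (hP : GPar q τ 1) {S T : Set E3} (hS : S ⊆ shC C) (mT : MeasurableSet T)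
    (hT : ∀ x ∈ S, C.hh (N+1) hP x ∈ T) {v : E3 → ℝ≥0∞} (hv : Measurable v) :
    ∫⁻ x in S, v (C.hh (N+1) hP x) ≤
      kC C.M τ * ∫⁻ x in (C.P ∩ C.e ⁻¹' {z | 1 - τ < ‖z‖ ∧ ‖z‖ ≤ 1}) ∩ T, v x :=
  lint_into (C.hh (N+1) hP).continuous.measurable (fun _ hv => cell_c hP hv) hS mT hT hv

/-- helper622's form: `S` measurable, in the strip of width `u` at the boundary -/
theorem cell_c'' (hP : GPar q τ 1) {S : Set E3} (mS : MeasurableSet S) {u : ℝ}
    (hu : 2 * C.M * u < C.R) (hS : ∀ x ∈ S, x ∈ C.P ∧ ∃ y ∈ C.P \ C.U, ‖x - y‖ ≤ u)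
    {v : E3 → ℝ≥0∞} (hv : Measurable v) :
    ∫⁻ x in S, v (C.hh (N+1) hP x) ≤ kC C.M τ * ∫⁻ x in C.hh (N+1) hP '' S, v x := by
  have e1 : S ⊆ (S ∩ C.U) ∪ (C.P \ C.U) := by
    intro x hx
    by_cases h1 : x ∈ C.U
    · exact Or.inl ⟨hx, h1⟩
    · exact Or.inr ⟨(hS x hx).1, h1⟩
  have h2 : ∫⁻ x in S, v (C.hh (N+1) hP x) ≤ ∫⁻ x in S ∩ C.U, v (C.hh (N+1) hP x) := by
    refine (lintegral_mono_set e1).trans ((lintegral_union_le _ _ _).trans ?_)
    rw [setLIntegral_measure_zero _ _ C.null, add_zero]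
  have mT : MeasurableSet (C.hh (N+1) hP '' S) := by
    rw [Homeomorph.image_eq_preimage_symm]
    exact (C.hh (N+1) hP).symm.continuous.measurable mS
  refine h2.trans ((cell_c' hP (S := S ∩ C.U) ?_ mT (fun x hx => ⟨x, hx.1, rfl⟩) hv).trans
    (mul_le_mul' le_rfl (lintegral_mono_set inter_subset_right)))
  rintro x ⟨hx, hxU⟩
  obtain ⟨h3, y, hy, hxy⟩ := hS x hx
  exact ⟨hxU, depth_lt h3 hy.1 hy.2 hxy hu⟩

end cell

end Crest.Agent.R096.Str_968
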