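import Crest.Agent.R096.Fan4_696

/-!
Row 96 (S0127), helper696.  Local structure of conic selections: affine near almost every point,
two-sided linear (`Two`) off finitely many subspaces of codimension two.
-/

set_option autoImplicit false
set_option linter.unusedSectionVars false
set_option linter.style.longLine false

namespace Crest.Agent.R096.Str_696

open Set Filter Topology Metric Module
open scoped Classical

variable {E F : Type*} [NormedAddCommGroup E] [NormedSpace ℝ E]
  [NormedAddCommGroup F] [NormedSpace ℝ F]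

/-- `h` is affine near `p` with linear part `A`. -/
def AffAt (h : E → F) (p : E) (A : E →L[ℝ] F) : Prop :=
  ∀ᶠ y in 𝓝 p, h y = h p + A (y - p)

/-- `h` is two-sided linear near `p`: linear part `A` where `f ≥ 0`, `B` where `f ≤ 0`. -/
def TwoAt (h : E → F) (p : E) (f : E →L[ℝ] ℝ) (A B : E →L[ℝ] F) : Prop :=
  ∀ᶠ y in 𝓝 p, (0 ≤ f (y - p) → h y = h p + A (y - p)) ∧ (f (y - p) ≤ 0 → h y = h p + B (y - p))

lemma AffAt.hasFDerivAt {h : E → F} {p : E} {A : E →L[ℝ] F} (hA : AffAt h p A) :
    HasFDerivAt h A p := by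
  have h1 : HasFDerivAt (fun y => h p + (A y - A p)) A p :=
    ((A.hasFDerivAt (x := p)).sub_const (A p)).const_add (h p)
  refine h1.congr_of_eventuallyEq ?_
  filter_upwards [hA] with y hy
  rw [hy, map_sub]

lemma AffAt.eventually {h : E → F} {p : E} {A : E →L[ℝ] F} (hA : AffAt h p A) :
    ∀ᶠ q in 𝓝 p, AffAt h q A := by
  have h1 := hA.eventually_nhds
  filter_upwards [h1] with q hq
  have hqq : h q = h p + A (q - p) := hq.self_of_nhds
  unfold AffAt
  filter_upwards [hq] with y hy
  rw [hy, hqq]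
  have : A (y - p) = A (q - p) + A (y - q) := by rw [← map_add]; congr 1; abel
  rw [this]; abel

lemma AffAt.unique {h : E → F} {p : E} {A B : E →L[ℝ] F} (hA : AffAt h p A) (hB : AffAt h p B) :
    A = B := hA.hasFDerivAt.unique hB.hasFDerivAt

/-- transport of the local form from the germ `H` at `x` to the point `x + v`. -/
lemma AffAt.of_germ {h H : E → F} {x : E} {r : ℝ} (hh : ∀ v : E, ‖v‖ < r → h (x + v) = h x + H v)
    {v : E} (hv : ‖v‖ < r) {A : E →L[ℝ] F} (hA : AffAt H v A) : AffAt h (x + v) A := by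
  unfold AffAt at *
  have h1 : Tendsto (fun y : E => y - x) (𝓝 (x + v)) (𝓝 v) := by
    have : Tendsto (fun y : E => y - x) (𝓝 (x + v)) (𝓝 (x + v - x)) :=
      (continuous_id.sub continuous_const).tendsto _
    simpa using this
  have h2 : ∀ᶠ y in 𝓝 (x + v), ‖y - x‖ < r := by
    have := h1.norm
    exact this.eventually_lt_const hv
  filter_upwards [h1.eventually hA, h2] with y hy hy2
  have e1 : h y = h x + H (y - x) := by
    have := hh (y - x) hy2
    simpa using this
  rw [e1, hy, hh v hv]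
  have : y - x - v = y - (x + v) := by abel
  rw [this]; abel

lemma TwoAt.of_germ {h H : E → F} {x : E} {r : ℝ} (hh : ∀ v : E, ‖v‖ < r → h (x + v) = h x + H v)
    {v : E} (hv : ‖v‖ < r) {f : E →L[ℝ] ℝ} {A B : E →L[ℝ] F} (hA : TwoAt H v f A B) :
    TwoAt h (x + v) f A B := by
  unfold TwoAt at *
  have h1 : Tendsto (fun y : E => y - x) (𝓝 (x + v)) (𝓝 v) := by
    have : Tendsto (fun y : E => y - x) (𝓝 (x + v)) (𝓝 (x + v - x)) :=
      (continuous_id.sub continuous_const).tendsto _
    simpa using this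
  have h2 : ∀ᶠ y in 𝓝 (x + v), ‖y - x‖ < r := by
    have := h1.norm
    exact this.eventually_lt_const hv
  filter_upwards [h1.eventually hA, h2] with y hy hy2
  have e1 : h y = h x + H (y - x) := by
    have := hh (y - x) hy2
    simpa using this
  have e2 : y - x - v = y - (x + v) := by abel
  rw [e2] at hy
  rw [e1, hh v hv]
  refine ⟨fun h0 => ?_, fun h0 => ?_⟩
  · rw [hy.1 h0]; abel
  · rw [hy.2 h0]; abel

/-- regular points: all separating forms are nonzero. -/
lemma affAt_of_forms {H : E → F} {S : Finset (E →L[ℝ] F)} (hH : Conic H S)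
    {L : Finset (E →L[ℝ] ℝ)}
    (hL : ∀ A ∈ S, ∀ B ∈ S, A ≠ B → ∃ f ∈ L, f ≠ 0 ∧ ∀ x, A x = B x → f x = 0)
    {v : E} (hv : ∀ f ∈ L, f ≠ 0 → f v ≠ 0) : ∃ A ∈ S, AffAt H v A := by
  obtain ⟨A, hA, hHA⟩ := hH.sel v
  refine ⟨A, hA, ?_⟩
  have h1 : ∀ᶠ y in 𝓝 v, ∀ B ∈ S, B ≠ A → H y ≠ B y := by
    rw [Filter.eventually_all_finset]
    intro B hB
    by_cases hBA : B = A
    · exact Eventually.of_forall fun y h => absurd hBA h
    · obtain ⟨f, hf, hf0, hfz⟩ := hL B hB A hA hBA
      have hne : H v ≠ B v := by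
        intro heq
        exact hv f hf hf0 (hfz v (heq.symm.trans hHA))
      have := (hH.cont.continuousAt (x := v)).ne_iff_eventually_ne B.continuous.continuousAt
      filter_upwards [this.1 hne] with y hy _ using hy
  have h2 : ∀ᶠ y in 𝓝 v, H y = A y := by
    filter_upwards [h1] with y hy
    obtain ⟨B, hB, hHB⟩ := hH.sel y
    by_cases hBA : B = A
    · rw [← hBA]; exact hHB
    · exact absurd hHB (hy B hB hBA)
  unfold AffAt
  filter_upwards [h2] with y hy
  rw [hy, hHA, ← map_add]
  congr 1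
  abel

/-- fold points: all separating forms vanishing at `v` are proportional to one form `f₀`. -/
lemma twoAt_of_forms {H : E → F} {S : Finset (E →L[ℝ] F)} (hH : Conic H S)
    {L : Finset (E →L[ℝ] ℝ)}
    (hL : ∀ A ∈ S, ∀ B ∈ S, A ≠ B → ∃ f ∈ L, f ≠ 0 ∧ ∀ x, A x = B x → f x = 0)
    {v : E} {f₀ : E →L[ℝ] ℝ} (hf₀ : f₀ ≠ 0) (hf₀v : f₀ v = 0)
    (hv : ∀ f ∈ L, f ≠ 0 → f v = 0 → ∃ c : ℝ, f = c • f₀) :
    ∃ A ∈ S, ∃ B ∈ S, TwoAt H v f₀ A B := by
  -- a ball around `v` on which the other forms do not vanish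
  have h1 : ∀ᶠ y in 𝓝 v, ∀ f ∈ L, f v ≠ 0 → f y ≠ 0 := by
    rw [Filter.eventually_all_finset]
    intro f _
    by_cases hfv : f v = 0
    · exact Eventually.of_forall fun y h => absurd hfv h
    · filter_upwards [f.continuous.continuousAt.eventually_ne hfv] with y hy _ using hy
  obtain ⟨r, hr, hball⟩ := Metric.eventually_nhds_iff_ball.1 h1
  -- one open half ball
  have half : ∀ g : E →L[ℝ] ℝ, g ≠ 0 → g v = 0 → (∃ s : ℝ, s ≠ 0 ∧ f₀ = s • g) →
      ∃ A ∈ S, ∀ y ∈ ball v r, 0 ≤ g y → H y = A y := by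
    intro g hg hgv hsg
    set C : Set E := ball v r ∩ {y | 0 < g y} with hC
    have hconv : Convex ℝ C := by
      refine (convex_ball v r).inter ?_
      have : {y : E | 0 < g y} = g ⁻¹' Ioi 0 := rfl
      rw [this]
      exact (convex_Ioi (0 : ℝ)).linear_preimage (g : E →ₗ[ℝ] ℝ)
    obtain ⟨u, hu⟩ : ∃ u, 0 < g u := by
      have : ∃ u, g u ≠ 0 := by
        by_contra hcon
        push Not at hcon
        exact hg (ContinuousLinearMap.ext hcon)
      obtain ⟨u, hu⟩ := this
      rcases lt_or_gt_of_ne hu with h | h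
      · exact ⟨-u, by simpa using h⟩
      · exact ⟨u, h⟩
    have hneL : ∀ f ∈ L, f ≠ 0 → ∀ y ∈ C, f y ≠ 0 := by
      intro f hf hf0 y hy
      by_cases hfv : f v = 0
      · obtain ⟨c, hc⟩ := hv f hf hf0 hfv
        obtain ⟨s, hs0, hs⟩ := hsg
        have hc0 : c ≠ 0 := by
          rintro rfl
          exact hf0 (by rw [hc]; simp)
        rw [hc, hs]
        have : 0 < g y := hy.2
        simp only [FunLike.coe_smul, Pi.smul_apply, smul_eq_mul]
        exact mul_ne_zero hc0 (mul_ne_zero hs0 this.ne')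
      · exact hball y hy.1 f hf hfv
    -- points of `C`
    have hpt : ∀ y ∈ ball v r, 0 ≤ g y → ∃ ε > 0, ∀ t ∈ Ioo (0 : ℝ) ε, y + t • u ∈ C := by
      intro y hy hgy
      have hcont : Tendsto (fun t : ℝ => y + t • u) (𝓝 0) (𝓝 y) := by
        have : Continuous fun t : ℝ => y + t • u :=
          continuous_const.add (continuous_id.smul continuous_const)
        have h2 := this.tendsto 0
        simpa using h2
      have h2 : ∀ᶠ t : ℝ in 𝓝 0, y + t • u ∈ ball v r := hcont.eventually (isOpen_ball.mem_nhds hy)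
      obtain ⟨ε, hε, hε'⟩ := Metric.eventually_nhds_iff_ball.1 h2
      refine ⟨ε, hε, fun t ht => ⟨hε' t ?_, ?_⟩⟩
      · rw [mem_ball_zero_iff, Real.norm_eq_abs, abs_of_pos ht.1]; exact ht.2
      · show 0 < g (y + t • u)
        rw [map_add, map_smul, smul_eq_mul]
        have := mul_pos ht.1 hu
        linarith
    obtain ⟨ε, hε, hεC⟩ := hpt v (mem_ball_self hr) hgv.ge
    have hzC : v + (ε / 2) • u ∈ C := hεC _ ⟨by positivity, by linarith⟩
    obtain ⟨A, hA, hHA⟩ := hH.sel (v + (ε / 2) • u)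
    refine ⟨A, hA, ?_⟩
    have hCA : ∀ x ∈ C, H x = A x := by
      have := Fan_696.sel_const (C := C) hconv.isPreconnected
        (S := S.image fun B : E →L[ℝ] F => (B : E → F)) (H := H) (A := A) ?_
        hH.cont.continuousOn ?_ (Finset.mem_image_of_mem _ hA) ?_ hzC hHA
      · exact this
      · intro B hB
        obtain ⟨B', -, rfl⟩ := Finset.mem_image.1 hB
        exact B'.continuous
      · intro x _
        obtain ⟨B, hB, hHB⟩ := hH.sel x
        exact ⟨B, Finset.mem_image_of_mem _ hB, hHB⟩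
      · intro B hB hex x hx heq
        obtain ⟨B', hB', rfl⟩ := Finset.mem_image.1 hB
        have hne' : B' ≠ A := by
          rintro rfl
          obtain ⟨y, -, hy⟩ := hex
          exact hy rfl
        obtain ⟨f, hf, hf0, hfz⟩ := hL B' hB' A hA hne'
        exact hneL f hf hf0 x hx (hfz x heq)
    intro y hy hgy
    obtain ⟨δ, hδ, hδC⟩ := hpt y hy hgy
    have hlim1 : Tendsto (fun t : ℝ => H (y + t • u)) (𝓝[>] 0) (𝓝 (H y)) := by
      have : Continuous fun t : ℝ => H (y + t • u) :=
        hH.cont.comp (continuous_const.add (continuous_id.smul continuous_const))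
      have h2 := this.tendsto 0
      simp only [zero_smul, add_zero] at h2
      exact h2.mono_left nhdsWithin_le_nhds
    have hlim2 : Tendsto (fun t : ℝ => A (y + t • u)) (𝓝[>] 0) (𝓝 (A y)) := by
      have : Continuous fun t : ℝ => A (y + t • u) :=
        A.continuous.comp (continuous_const.add (continuous_id.smul continuous_const))
      have h2 := this.tendsto 0
      simp only [zero_smul, add_zero] at h2
      exact h2.mono_left nhdsWithin_le_nhds
    refine tendsto_nhds_unique hlim1 (hlim2.congr' ?_)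
    filter_upwards [Ioo_mem_nhdsGT hδ] with t ht
    exact (hCA _ (hδC t ht)).symm
  obtain ⟨A, hA, hHA⟩ := half f₀ hf₀ hf₀v ⟨1, one_ne_zero, by simp⟩
  obtain ⟨B, hB, hHB⟩ := half (-f₀) (neg_ne_zero.2 hf₀) (by simp [hf₀v]) ⟨-1, by norm_num, by simp⟩
  refine ⟨A, hA, B, hB, ?_⟩
  unfold TwoAt
  filter_upwards [isOpen_ball.mem_nhds (mem_ball_self hr)] with y hy
  have hvA : H v = A v := hHA v (mem_ball_self hr) hf₀v.ge
  have hvB : H v = B v := hHB v (mem_ball_self hr) (by simp [hf₀v])
  constructor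
  · intro h0
    rw [map_sub, hf₀v, sub_zero] at h0
    rw [hHA y hy h0, hvA, ← map_add]; congr 1; abel
  · intro h0
    rw [map_sub, hf₀v, sub_zero] at h0
    rw [hHB y hy (by simpa using h0), hvB, ← map_add]; congr 1; abel

end Crest.Agent.R096.Str_696
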