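import Crest.Agent.R096.Str1_968

/-!
Row 96 (S0127), helper968, leaf STRIP, part 2: **one face**.  On the outer shell of the double
pyramid of a face the squeeze is explicit (`fo`), keeps the height, moves points by at most
`2 M ρ` times the depth, is locally `33 M²`-Lipschitz and its inverse has Jacobian `≤ C M⁶ / τ`.
-/

set_option autoImplicit false

open Set Metric Filter Topology MeasureTheory

namespace Crest.Agent.R096.Str_968

open Crest.Agent.R096.Ce_537 Crest.Agent.R096.Bd_416 Crest.Agent.R96.Hole_348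
open Crest.Agent.R096.Sq_55 Crest.Agent.R096.Sqt_143
open scoped ENNReal NNReal

/-! ### the model -/

section model

variable {n : ℕ} {q τ : ℝ} {N : ℕ}

/-- the outer shell of the diamond -/
def shD (n : ℕ) : Set (ℝ × (Fin n → ℝ)) :=
  {z | |z.1| < 1 ∧ (1/2) * (1 - |z.1|) < ‖z.2‖ ∧ ‖z.2‖ < 1 - |z.1|}

lemma isOpen_shD : IsOpen (shD n) := by
  have h1 : Continuous fun z : ℝ × (Fin n → ℝ) => |z.1| := continuous_fst.abs
  have h2 : Continuous fun z : ℝ × (Fin n → ℝ) => ‖z.2‖ := continuous_snd.norm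
  exact (isOpen_lt h1 continuous_const).inter
    ((isOpen_lt (continuous_const.mul (continuous_const.sub h1)) h2).inter
      (isOpen_lt h2 (continuous_const.sub h1)))

lemma dia_shell {s : ℝ} (hs : |s| < 1) {y : Fin n → ℝ} (h1 : (1/2) * (1 - |s|) ≤ ‖y‖)
    (h2 : ‖y‖ ≤ 1 - |s|) : dia (cgf q τ (N+1)) (s, y) =
      (s, (1 - |s|) • outer τ 1 ((1 - |s|)⁻¹ • y)) := by
  have ha : 0 < 1 - |s| := by linarith
  have e1 : ‖(1 - |s|)⁻¹ • y‖ = ‖y‖ / (1 - |s|) := norm_inv_smul ha y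
  have e2 : ‖(1 - |s|)⁻¹ • y‖ ≤ 1 := by rw [e1, div_le_one ha]; exact h2
  have e3 : 1/2 ≤ ‖(1 - |s|)⁻¹ • y‖ := by rw [e1, le_div_iff₀ ha]; exact h1
  rw [dia_of_lt (show |(s, y).1| < 1 from hs)]
  show (s, (1 - |s|) • cgf q τ (N+1) ((1 - |s|)⁻¹ • y)) = _
  rw [cgf_in e2, gf_outer e3]

/-- one slice -/
lemma slice_out (ht : 0 < τ) (h1 : 1/2 ≤ 1 - τ) {u : ℝ × (Fin n → ℝ) → ℝ≥0∞} (hu : Measurable u)
    {s : ℝ} (hs : |s| < 1) :
    ∫⁻ y in {y : Fin n → ℝ | (1/2) * (1 - |s|) < ‖y‖ ∧ ‖y‖ < 1 - |s|},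
        u (s, (1 - |s|) • outer τ 1 ((1 - |s|)⁻¹ • y)) ≤
      ENNReal.ofReal (kap n / τ) *
        ∫⁻ y in {y : Fin n → ℝ | (1 - τ) * (1 - |s|) < ‖y‖ ∧ ‖y‖ ≤ 1 - |s|}, u (s, y) := by
  set a := 1 - |s| with hadef
  have ha : 0 < a := by rw [hadef]; linarith
  have e1 : (fun x : Fin n → ℝ => a • x) ⁻¹' {y : Fin n → ℝ | (1/2) * a < ‖y‖ ∧ ‖y‖ < a} =
      {x : Fin n → ℝ | 1/2 < ‖x‖ ∧ ‖x‖ < 1} := by
    ext x
    simp only [mem_preimage, mem_ofPred_eq]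
    rw [norm_smul, Real.norm_eq_abs, abs_of_pos ha]
    constructor
    · rintro ⟨h1, h2⟩
      exact ⟨by nlinarith, by nlinarith⟩
    · rintro ⟨h1, h2⟩
      exact ⟨by nlinarith, by nlinarith⟩
  have e3 : (fun x : Fin n → ℝ => a • x) ⁻¹' {y : Fin n → ℝ | (1 - τ) * a < ‖y‖ ∧ ‖y‖ ≤ a} =
      {y : Fin n → ℝ | 1 - τ < ‖y‖ ∧ ‖y‖ ≤ 1} := by
    ext x
    simp only [mem_preimage, mem_ofPred_eq]
    rw [norm_smul, Real.norm_eq_abs, abs_of_pos ha]
    constructor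
    · rintro ⟨h1, h2⟩
      exact ⟨by nlinarith, by nlinarith⟩
    · rintro ⟨h1, h2⟩
      exact ⟨by nlinarith, by nlinarith⟩
  set us : (Fin n → ℝ) → ℝ≥0∞ := fun y => u (s, a • y) with hus
  have hum : Measurable us := hu.comp (by fun_prop)
  have key := lint_outer (n := n) ht h1 le_rfl hum
  rw [lint_scale' ha, e1, lint_scale' ha {y : Fin n → ℝ | (1 - τ) * a < ‖y‖ ∧ ‖y‖ ≤ a}, e3,
    mul_left_comm]
  refine mul_le_mul' le_rfl (le_trans (le_of_eq ?_) key)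
  refine lintegral_congr fun x => ?_
  rw [smul_smul, inv_mul_cancel₀ ha.ne', one_smul]

lemma dia_out_int (ht : 0 < τ) (h1 : 1/2 ≤ 1 - τ) {u : ℝ × (Fin n → ℝ) → ℝ≥0∞}
    (hu : Measurable u) :
    ∫⁻ z in shD n, u (dia (cgf q τ (N+1)) z) ≤
      ENNReal.ofReal (kap n / τ) * ∫⁻ z in Lay n (1 - τ), u z := by
  classical
  have hOm : MeasurableSet (shD n) := isOpen_shD.measurableSet
  have hslice : ∀ (B : Set (ℝ × (Fin n → ℝ))), MeasurableSet B → ∀ F : ℝ × (Fin n → ℝ) → ℝ≥0∞,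
      ∀ s : ℝ, ∫⁻ y, B.indicator F (s, y) = ∫⁻ y in {y | (s, y) ∈ B}, F (s, y) := by
    intro B hB F s
    have hBs : MeasurableSet {y : Fin n → ℝ | (s, y) ∈ B} := hB.preimage (by fun_prop)
    rw [← lintegral_indicator hBs]
    rfl
  calc ∫⁻ z in shD n, u (dia (cgf q τ (N+1)) z)
      = ∫⁻ z, (shD n).indicator (fun z => u (dia (cgf q τ (N+1)) z)) z :=
        (lintegral_indicator hOm _).symm
    _ ≤ ∫⁻ s : ℝ, ∫⁻ y : Fin n → ℝ,
          (shD n).indicator (fun z => u (dia (cgf q τ (N+1)) z)) (s, y) := by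
        rw [Measure.volume_eq_prod]
        exact lintegral_prod_le _
    _ ≤ ∫⁻ s : ℝ, (ENNReal.ofReal (kap n / τ) *
          (∫⁻ y : Fin n → ℝ, (Lay n (1 - τ)).indicator u (s, y))) := by
        refine lintegral_mono fun s => ?_
        rw [hslice _ hOm, hslice _ (measurableSet_Lay _)]
        by_cases hs : |s| < 1
        · have e1 : {y : Fin n → ℝ | (s, y) ∈ shD n} =
              {y | (1/2) * (1 - |s|) < ‖y‖ ∧ ‖y‖ < 1 - |s|} := by
            ext y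
            simp only [shD, mem_ofPred_eq]
            exact ⟨fun h => h.2, fun h => ⟨hs, h⟩⟩
          have e2 : {y : Fin n → ℝ | (s, y) ∈ Lay n (1 - τ)} =
              {y : Fin n → ℝ | (1 - τ) * (1 - |s|) < ‖y‖ ∧ ‖y‖ ≤ 1 - |s|} := by
            ext y
            simp only [Lay, mem_ofPred_eq]
            exact ⟨fun h => h.2, fun h => ⟨hs, h⟩⟩
          rw [e1, e2]
          refine le_trans (le_of_eq ?_) (slice_out ht h1 hu hs)
          refine setLIntegral_congr_fun ?_ fun y hy => ?_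
          · exact ((isOpen_lt continuous_const continuous_norm).inter
              (isOpen_lt continuous_norm continuous_const)).measurableSet
          · show u (dia (cgf q τ (N+1)) (s, y)) = _
            rw [dia_shell hs hy.1.le hy.2.le]
        · have e1 : {y : Fin n → ℝ | (s, y) ∈ shD n} = ∅ := by
            ext y
            simp only [shD, mem_ofPred_eq, mem_empty_iff_false, iff_false]
            intro h
            exact hs h.1
          rw [e1]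
          simp
    _ = ENNReal.ofReal (kap n / τ) *
          (∫⁻ s : ℝ, ∫⁻ y : Fin n → ℝ, (Lay n (1 - τ)).indicator u (s, y)) :=
        lintegral_const_mul' _ _ ENNReal.ofReal_ne_top
    _ = _ := by
        rw [← lintegral_indicator (measurableSet_Lay _), Measure.volume_eq_prod,
          lintegral_prod _ (hu.indicator (measurableSet_Lay _)).aemeasurable]

lemma tile_out_int (f : Tile n) (ht : 0 < τ) (h1 : 1/2 ≤ 1 - τ)
    {u : (Fin (n+1) → ℝ) → ℝ≥0∞} (hu : Measurable u) :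
    ∫⁻ x in f.dn ⁻¹' shD n, u (f.T (cgf q τ (N+1)) x) ≤
      ENNReal.ofReal (kap n / τ) * ∫⁻ x in f.dn ⁻¹' Lay n (1 - τ), u x := by
  obtain ⟨c, hc⟩ := f.map_dn
  have key := dia_out_int (q := q) (N := N) ht h1 (u := fun z => u (f.up z))
    (hu.comp f.continuous_up.measurable)
  have e1 : ∫⁻ x in f.dn ⁻¹' shD n, u (f.T (cgf q τ (N+1)) x) =
      c * ∫⁻ z in shD n, u (f.up (dia (cgf q τ (N+1)) z)) := by
    rw [← f.lint_dn c hc]
    rfl
  have e2 : ∫⁻ x in f.dn ⁻¹' Lay n (1 - τ), u x = c * ∫⁻ z in Lay n (1 - τ), u (f.up z) := by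
    rw [← f.lint_dn c hc]
    refine lintegral_congr fun x => ?_
    rw [f.up_dn]
  rw [e1, e2]
  refine (mul_le_mul' le_rfl key).trans (le_of_eq ?_)
  ring

end model

/-! ### one face -/

section face

variable {F : Face} {q τ : ℝ} {N : ℕ}

/-- the outer shell of the model -/
def shM : Set E3 := {z | |z 0| < 1 ∧ (1/2) * (1 - |z 0|) < wid z ∧ |z 0| + wid z < 1}

lemma isOpen_shM : IsOpen shM :=
  (isOpen_lt (continuous_apply 0).abs continuous_const).inter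
    ((isOpen_lt (continuous_const.mul (continuous_const.sub (continuous_apply 0).abs))
      continuous_wid).inter
      (isOpen_lt ((continuous_apply 0).abs.add continuous_wid) continuous_const))

lemma f0_shD : f0.dn ⁻¹' shD 2 = shM := by
  ext z
  show (|(f0.dn z).1| < 1 ∧ (1/2) * (1 - |(f0.dn z).1|) < ‖(f0.dn z).2‖ ∧
    ‖(f0.dn z).2‖ < 1 - |(f0.dn z).1|) ↔ (|z 0| < 1 ∧ (1/2) * (1 - |z 0|) < wid z ∧
    |z 0| + wid z < 1)
  rw [f0_fst, f0_snd]
  have : ‖(fun j : Fin 2 => z j.succ)‖ = wid z := rfl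
  rw [this]
  constructor
  · rintro ⟨h1, h2, h3⟩
    exact ⟨h1, h2, by linarith⟩
  · rintro ⟨h1, h2, h3⟩
    exact ⟨h1, h2, by linarith⟩

/-- the layer of the model -/
def laM (τ : ℝ) : Set E3 := {z | |z 0| < 1 ∧ (1 - τ) * (1 - |z 0|) < wid z ∧ wid z ≤ 1 - |z 0|}

lemma f0_Lay : f0.dn ⁻¹' Lay 2 (1 - τ) = laM τ := by
  ext z
  show (|(f0.dn z).1| < 1 ∧ (1 - τ) * (1 - |(f0.dn z).1|) < ‖(f0.dn z).2‖ ∧
    ‖(f0.dn z).2‖ ≤ 1 - |(f0.dn z).1|) ↔ (|z 0| < 1 ∧ (1 - τ) * (1 - |z 0|) < wid z ∧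
    wid z ≤ 1 - |z 0|)
  rw [f0_fst, f0_snd]
  rfl

lemma measurableSet_laM (τ : ℝ) : MeasurableSet (laM τ) := by
  rw [← f0_Lay]
  exact f0.continuous_dn.measurable (measurableSet_Lay _)

/-- the shell of a face -/
def shF (F : Face) : Set E3 := F.V ∩ F.e ⁻¹' {z | (1/2) * (1 - |z 0|) < wid z}

lemma isOpen_shF : IsOpen (shF F) :=
  (F.cht.lip.continuousOn.mono F.cht.sub).isOpen_inter_preimage F.cht.opU
    (isOpen_lt (continuous_const.mul (continuous_const.sub (continuous_apply 0).abs))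
      continuous_wid)

lemma shF_mem {x : E3} (hx : x ∈ shF F) : F.e x ∈ shM := by
  have h1 : |F.e x 0| + wid (F.e x) < 1 := F.cht.eU hx.1
  have h2 := wid_nonneg (F.e x)
  exact ⟨by linarith, hx.2, h1⟩

/-- the formula on the shell -/
lemma hhF_outer (hP : GPar q τ 1) {x : E3} (hx : x ∈ shF F) :
    F.hh (N+1) hP x = F.e' (fo τ (F.e x)) := by
  obtain ⟨h1, h2, h3⟩ := shF_mem hx
  rw [F.hh_in (N+1) hP (F.cht.sub hx.1), T_eq_fo h1 h2.le h3.le]

lemma fo_mem {z : E3} (ht : 0 < τ) (hτ : τ ≤ 1/2) (hz : z ∈ shM) :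
    |fo τ z 0| = |z 0| ∧ wid (fo τ z) = (1 - |z 0|) - 2 * τ * (1 - |z 0| - wid z) ∧
      (1 - τ) * (1 - |z 0|) < wid (fo τ z) ∧ |fo τ z 0| + wid (fo τ z) < 1 := by
  obtain ⟨h1, h2, h3⟩ := hz
  obtain ⟨-, k2⟩ := fo_sub_le ht hτ h1 h2.le h3.le
  have e0 : |fo τ z 0| = |z 0| := by rw [fo_zero]
  refine ⟨e0, k2, ?_, ?_⟩
  · rw [k2]; nlinarith
  · rw [e0, k2]; nlinarith

/-- **(a)** the image and the displacement -/
theorem face_a (hP : GPar q τ 1) {x : E3} (hx : x ∈ shF F) :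
    F.e (F.hh (N+1) hP x) = fo τ (F.e x) ∧ F.hh (N+1) hP x ∈ F.V ∧
      ‖F.hh (N+1) hP x - x‖ ≤ F.M * F.ρ * (2 * (1 - |F.e x 0| - wid (F.e x))) := by
  have hz := shF_mem hx
  obtain ⟨h1, h2, h3⟩ := shF_mem hx
  obtain ⟨k1, k2, k3, k4⟩ := fo_mem hP.t0 (tau_le hP) hz
  have hm : fo τ (F.e x) ∈ Dc := k4.le
  have hV := F.hh_mem (N+1) hP hx.1
  have e1 : F.e (F.hh (N+1) hP x) = fo τ (F.e x) := by
    rw [hhF_outer hP hx]
    exact F.cht.inv' _ hm
  refine ⟨e1, hV, ?_⟩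
  have hK := F.cht.sub hV
  have hxK := F.cht.sub hx.1
  have h7 := lip_le F.cht.lip' (F.cht.maps hK) (F.cht.maps hxK)
  rw [F.cht.inv _ hK, F.cht.inv x hxK, e1] at h7
  push_cast at h7
  refine h7.trans (mul_le_mul_of_nonneg_left ?_ (by positivity))
  exact (fo_sub_le hP.t0 (tau_le hP) h1 h2.le h3.le).1

/-- **(b)** the local Lipschitz constant -/
theorem face_b (hP : GPar q τ 1) {x : E3} (hx : x ∈ shF F) :
    LLV (33 * (F.M:ℝ)^2) (F.hh (N+1) hP) x := by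
  have c' : Cht F.K F.V f0.Oc f0.O F.e F.e' (F.M / F.ρ) (F.M * F.ρ) := by
    rw [f0_Oc, f0_O]; exact F.cht
  have hρ := F.ρ_pos
  obtain ⟨h1, h2, h3⟩ := shF_mem hx
  have ha : 0 < 1 - |F.e x 0| := by linarith
  have e0 : (f0.dn (F.e x)).1 = F.e x 0 := f0_fst _
  have e1 : ‖(f0.dn (F.e x)).2‖ = wid (F.e x) := by rw [f0_snd]; rfl
  have n1 : ‖(1 - |(f0.dn (F.e x)).1|)⁻¹ • (f0.dn (F.e x)).2‖ =
      wid (F.e x) / (1 - |F.e x 0|) := by
    rw [e0, norm_inv_smul ha, e1]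
  have h4 : LLV 16 (cgf q τ (N+1)) ((1 - |(f0.dn (F.e x)).1|)⁻¹ • (f0.dn (F.e x)).2) := by
    refine LLV_cgf_outer hP ?_ ?_
    · rw [n1, lt_div_iff₀ ha]; exact h2
    · rw [n1, div_lt_one ha]; linarith
  have h5 : LLV (1 + 2 * 16) (dia (cgf q τ (N+1))) (f0.dn (F.e x)) :=
    LLV_dia (sg_cgf hP) (by rw [e0]; exact h1) (by rw [e0, e1]; exact h3.le) (by norm_num) h4
  have h6 : LLV 33 (f0.Gh (N+1) hP) (F.e x) := by
    have := f0.LLV_T h5
    norm_num at this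
    exact this
  have h7 := c'.LLV_trf hx.1 (by norm_num) (f0.Gh (N+1) hP).injective
    (fun z hz => f0.T_out (sg_cgf hP) hz) h6
  rw [← F.hh_eq] at h7
  have e : ((F.M * F.ρ : ℝ≥0) : ℝ) * (33 * ((F.M / F.ρ : ℝ≥0) : ℝ)) = 33 * (F.M:ℝ)^2 := by
    push_cast
    field_simp
  rwa [e] at h7

/-- the constant of the change of variables -/
noncomputable def kF (M : ℝ≥0) (τ : ℝ) : ℝ≥0∞ := ENNReal.ofReal ((M:ℝ)^6 * (kap 2 / τ))

/-- **(c)** the change of variables on the shell of a face -/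
theorem face_c (hP : GPar q τ 1) {v : E3 → ℝ≥0∞} (hv : Measurable v) :
    ∫⁻ x in shF F, v (F.hh (N+1) hP x) ≤ kF F.M τ * ∫⁻ x in F.K ∩ F.e ⁻¹' laM τ, v x := by
  have c := F.cht
  have hρ := F.ρ_pos
  have hM := F.M_pos
  have ht := hP.t0
  obtain ⟨e₂, m2, q2⟩ := measurable_ext c.clK'.measurableSet c.lip'.continuousOn
  obtain ⟨e₁, m1, q1⟩ := measurable_ext c.clK.measurableSet c.lip.continuousOn
  set ut : E3 → ℝ≥0∞ := Dc.indicator fun z => v (e₂ z) with hut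
  have mus : Measurable ut := (hv.comp m2).indicator c.clK'.measurableSet
  have ut1 : ∀ z ∈ Dc, ut z = v (F.e' z) := fun z hz => by
    rw [hut, indicator_of_mem hz, q2 hz]
  have hsub : shM ⊆ Dc := fun z hz => hz.2.2.le
  have s1 : ∫⁻ x in shF F, v (F.hh (N+1) hP x) ≤
      ((F.M * F.ρ : ℝ≥0) : ℝ≥0∞)^3 * ∫⁻ z in shM, v (F.hh (N+1) hP (F.e' z)) :=
    lint_chart (e := F.e) (e' := F.e') isOpen_shF.measurableSet isOpen_shM.measurableSet
      (c.lip.continuousOn.mono (inter_subset_left.trans c.sub))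
      (fun x hx => shF_mem hx) (fun x hx => c.inv x (c.sub hx.1))
      (c.lip'.mono hsub) (fun x => v (F.hh (N+1) hP x))
  have s2 : ∫⁻ z in shM, v (F.hh (N+1) hP (F.e' z)) =
      ∫⁻ z in shM, ut (f0.T (cgf q τ (N+1)) z) := by
    refine setLIntegral_congr_fun isOpen_shM.measurableSet fun z hz => ?_
    have hz1 : z ∈ Dc := hsub hz
    have e3 : F.e (F.e' z) = z := c.inv' z hz1
    obtain ⟨-, -, -, k4⟩ := fo_mem ht (tau_le hP) hz
    have h5 : f0.T (cgf q τ (N+1)) z ∈ Dc := by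
      rw [T_eq_fo hz.1 hz.2.1.le hz.2.2.le]; exact k4.le
    show v (F.hh (N+1) hP (F.e' z)) = ut (f0.T (cgf q τ (N+1)) z)
    rw [F.hh_in (N+1) hP (c.maps' hz1), e3, ut1 _ h5]
  have s3 := tile_out_int (q := q) (N := N) f0 ht hP.half_le mus
  rw [f0_shD, f0_Lay] at s3
  have mV : MeasurableSet (laM τ) := measurableSet_laM τ
  have sV : laM τ ⊆ Dc := fun z hz => by
    show |z 0| + wid z ≤ 1
    have := hz.2.2
    linarith
  have s4 : ∫⁻ z in laM τ, ut z ≤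
      ((F.M / F.ρ : ℝ≥0) : ℝ≥0∞)^3 * ∫⁻ x in F.K ∩ F.e ⁻¹' laM τ, v x := by
    have mKV : MeasurableSet (F.K ∩ F.e ⁻¹' laM τ) := by
      have : F.K ∩ F.e ⁻¹' laM τ = F.K ∩ e₁ ⁻¹' laM τ := by
        ext x
        constructor
        · rintro ⟨h1, h2⟩
          refine ⟨h1, ?_⟩
          show e₁ x ∈ laM τ
          rw [q1 h1]; exact h2
        · rintro ⟨h1, h2⟩
          refine ⟨h1, ?_⟩
          have h3 : e₁ x ∈ laM τ := h2
          rw [q1 h1] at h3; exact h3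
      rw [this]
      exact c.clK.measurableSet.inter (m1 mV)
    have h1 := lint_chart (e := F.e') (e' := F.e) mV mKV (c.lip'.continuousOn.mono sV)
      (fun z hz => ⟨c.maps' (sV hz), by
        show F.e (F.e' z) ∈ laM τ
        rw [c.inv' z (sV hz)]; exact hz⟩)
      (fun z hz => c.inv' z (sV hz)) (c.lip.mono inter_subset_left) ut
    refine h1.trans (le_of_eq ?_)
    congr 1
    refine setLIntegral_congr_fun mKV fun x hx => ?_
    show ut (F.e x) = v x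
    rw [ut1 _ (c.maps hx.1), c.inv x hx.1]
  refine s1.trans ?_
  rw [s2]
  calc ((F.M * F.ρ : ℝ≥0) : ℝ≥0∞)^3 * ∫⁻ z in shM, ut (f0.T (cgf q τ (N+1)) z)
      ≤ ((F.M * F.ρ : ℝ≥0) : ℝ≥0∞)^3 * (ENNReal.ofReal (kap 2 / τ) *
          (((F.M / F.ρ : ℝ≥0) : ℝ≥0∞)^3 * ∫⁻ x in F.K ∩ F.e ⁻¹' laM τ, v x)) :=
        mul_le_mul' le_rfl (s3.trans (mul_le_mul' le_rfl s4))
    _ = (((F.M * F.ρ : ℝ≥0) : ℝ≥0∞) * ((F.M / F.ρ : ℝ≥0) : ℝ≥0∞))^3 *
          ENNReal.ofReal (kap 2 / τ) * ∫⁻ x in F.K ∩ F.e ⁻¹' laM τ, v x := by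
        rw [mul_pow]; ring
    _ = kF F.M τ * ∫⁻ x in F.K ∩ F.e ⁻¹' laM τ, v x := by
        congr 1
        have e1 : (F.M * F.ρ) * (F.M / F.ρ) = F.M * F.M := by
          have := F.pos
          field_simp
        rw [← ENNReal.coe_mul, e1, kF, ENNReal.ofReal_mul (by positivity)]
        congr 1
        rw [show ((F.M:ℝ))^6 = ((F.M * F.M : ℝ≥0) : ℝ)^3 by push_cast; ring,
          ENNReal.ofReal_pow (by positivity), ENNReal.ofReal_coe_nnreal]

/-- **(c')** with a set -/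
theorem face_c' (hP : GPar q τ 1) {S T : Set E3} (hS : S ⊆ shF F) (mT : MeasurableSet T)
    (hT : ∀ x ∈ S, F.hh (N+1) hP x ∈ T) {v : E3 → ℝ≥0∞} (hv : Measurable v) :
    ∫⁻ x in S, v (F.hh (N+1) hP x) ≤ kF F.M τ * ∫⁻ x in (F.K ∩ F.e ⁻¹' laM τ) ∩ T, v x :=
  lint_into (F.hh (N+1) hP).continuous.measurable (fun _ hv => face_c hP hv) hS mT hT hv

end face

end Crest.Agent.R096.Str_968
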