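import Crest.Agent.R096.Str2_696

/-!
Row 96 (S0127), helper696.  Almost every point is affine; complements of finitely many subspaces of
codimension two are preconnected; fold points of injective maps.
-/

set_option autoImplicit false
set_option linter.unusedSectionVars false
set_option linter.style.longLine false

namespace Crest.Agent.R096.Str_696

open Set Filter Topology Metric Module MeasureTheory
open scoped Classical

variable {E F : Type*} [NormedAddCommGroup E] [NormedSpace ℝ E]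
  [NormedAddCommGroup F] [NormedSpace ℝ F]

/-- local data of a locally PL map. -/
lemma LocPL.germ [FiniteDimensional ℝ E] [FiniteDimensional ℝ F] {h : E → F} {Ω : Set E}
    (hh : LocPL h Ω) {x : E} (hx : x ∈ Ω) :
    ∃ (r : ℝ) (S : Finset (E →L[ℝ] F)) (H : E → F) (L : Finset (E →L[ℝ] ℝ)), 0 < r ∧ Conic H S ∧
      (∀ v : E, ‖v‖ < r → h (x + v) = h x + H v) ∧
      (∀ A ∈ S, ∀ B ∈ S, A ≠ B → ∃ f ∈ L, f ≠ 0 ∧ ∀ x, A x = B x → f x = 0) := by
  obtain ⟨r, S, H, hr, hH, hh'⟩ := hh.conic hx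
  obtain ⟨L, hL⟩ := Fan_696.exists_forms S
  exact ⟨r, S, H, L, hr, hH, hh', hL⟩

/-- the points where `h` is not affine are locally in finitely many hyperplanes. -/
theorem LocPL.ae_affine [FiniteDimensional ℝ E] [FiniteDimensional ℝ F] [MeasurableSpace E]
    [BorelSpace E] (μ : Measure E) [μ.IsAddHaarMeasure] {h : E → F} {Ω : Set E}
    (hh : LocPL h Ω) : ∀ᵐ x ∂μ, x ∈ Ω → ∃ A, AffAt h x A := by
  rw [ae_iff]
  apply measure_null_of_locally_null
  intro x hx
  have hxΩ : x ∈ Ω := by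
    by_contra h0
    exact hx fun h1 => absurd h1 h0
  obtain ⟨r, S, H, L, hr, hH, hh', hL⟩ := hh.germ hxΩ
  refine ⟨ball x r ∩ {a | ¬(a ∈ Ω → ∃ A, AffAt h a A)}, ?_, ?_⟩
  · rw [inter_comm]
    exact inter_mem self_mem_nhdsWithin (mem_nhdsWithin_of_mem_nhds (ball_mem_nhds x hr))
  · have hsub : ball x r ∩ {a | ¬(a ∈ Ω → ∃ A, AffAt h a A)} ⊆
        ⋃ f ∈ (L.filter fun f => f ≠ 0),
          ((AffineSubspace.mk' x (LinearMap.ker (f : E →ₗ[ℝ] ℝ)) : AffineSubspace ℝ E) : Set E) := by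
      rintro y ⟨hy, hy2⟩
      by_contra hcon
      apply hy2
      intro _
      have hyv : ‖y - x‖ < r := mem_ball_iff_norm.1 hy
      obtain ⟨A, -, hA⟩ := affAt_of_forms hH hL (v := y - x) (by
        intro f hf hf0 hfy
        apply hcon
        simp only [mem_iUnion]
        refine ⟨f, by simp [hf, hf0], ?_⟩
        rw [SetLike.mem_coe, AffineSubspace.mem_mk']
        simpa using hfy)
      have := hA.of_germ hh' hyv
      exact ⟨A, by simpa using this⟩
    refine measure_mono_null hsub ?_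
    refine (measure_biUnion_null_iff (Finset.countable_toSet (L.filter fun f => f ≠ 0))).2 ?_
    intro f hf
    have hf0 : f ≠ 0 := (Finset.mem_filter.1 hf).2
    apply Measure.addHaar_affineSubspace
    intro htop
    apply hf0
    have hd := congrArg AffineSubspace.direction htop
    rw [AffineSubspace.direction_mk', AffineSubspace.direction_top] at hd
    ext z
    have : z ∈ LinearMap.ker (f : E →ₗ[ℝ] ℝ) := by rw [hd]; trivial
    simpa using this

/-- two-segment lemma. -/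
theorem isPreconnected_diff_codim_two [FiniteDimensional ℝ E] {C : Set E} (hC : Convex ℝ C)
    (hCo : IsOpen C) {α : Type*} (T : Finset α) (W : α → Submodule ℝ E)
    (hW : ∀ a ∈ T, finrank ℝ (W a) + 2 ≤ finrank ℝ E) :
    IsPreconnected (C \ ⋃ a ∈ T, (W a : Set E)) := by
  -- a subspace spanned by `W a` and one vector is proper
  have hprop : ∀ (x : E), ∀ a ∈ T, W a ⊔ Submodule.span ℝ {x} ≠ ⊤ := by
    intro x a ha htop
    have h1 := Submodule.finrank_add_le_finrank_add_finrank (W a) (Submodule.span ℝ {x})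
    rw [htop, finrank_top] at h1
    have h2 : finrank ℝ (Submodule.span ℝ ({x} : Set E)) ≤ 1 := by
      have := finrank_span_finset_le_card (R := ℝ) ({x} : Finset E)
      rw [Finset.coe_singleton, Finset.card_singleton] at this
      exact this
    have := hW a ha
    omega
  apply isPreconnected_of_forall_pair
  rintro x ⟨hxC, hxW⟩ y ⟨hyC, hyW⟩
  -- a generic point
  obtain ⟨z, hzC, hzx, hzy⟩ : ∃ z ∈ C, (∀ a ∈ T, z ∉ W a ⊔ Submodule.span ℝ {x}) ∧
      (∀ a ∈ T, z ∉ W a ⊔ Submodule.span ℝ {y}) := by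
    by_contra hcon
    push Not at hcon
    have hint : interior (⋃ q ∈ (T ×ˢ ({x, y} : Finset E)),
        ((W q.1 ⊔ Submodule.span ℝ {q.2} : Submodule ℝ E) : Set E)) = ∅ := by
      apply Fan_696.interior_biUnion_proper
      intro q hq
      exact hprop q.2 q.1 (Finset.mem_product.1 hq).1
    have hsub : C ⊆ interior (⋃ q ∈ (T ×ˢ ({x, y} : Finset E)),
        ((W q.1 ⊔ Submodule.span ℝ {q.2} : Submodule ℝ E) : Set E)) := by
      apply interior_maximal _ hCo
      intro z hz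
      simp only [mem_iUnion]
      by_cases h1 : ∀ a ∈ T, z ∉ W a ⊔ Submodule.span ℝ {x}
      · obtain ⟨a, ha, hza⟩ := hcon z hz h1
        exact ⟨(a, y), by simp [ha], hza⟩
      · push Not at h1
        obtain ⟨a, ha, hza⟩ := h1
        exact ⟨(a, x), by simp [ha], hza⟩
    rw [hint] at hsub
    exact hsub hxC
  have hseg : ∀ u ∈ C, u ∉ (⋃ a ∈ T, (W a : Set E)) → (∀ a ∈ T, z ∉ W a ⊔ Submodule.span ℝ {u}) →
      segment ℝ u z ⊆ C \ ⋃ a ∈ T, (W a : Set E) := by
    intro u hu huW huz w hw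
    refine ⟨hC.segment_subset hu hzC hw, ?_⟩
    intro hwW
    simp only [mem_iUnion] at hwW
    obtain ⟨a, ha, hwa⟩ := hwW
    obtain ⟨s, t, hs, ht, hst, rfl⟩ := hw
    by_cases ht0 : t = 0
    · subst ht0
      have : s = 1 := by linarith
      subst this
      apply huW
      simp only [mem_iUnion]
      exact ⟨a, ha, by simpa using hwa⟩
    · apply huz a ha
      have e1 : z = t⁻¹ • (s • u + t • z) + (-(t⁻¹ * s)) • u := by
        rw [smul_add, smul_smul, smul_smul, inv_mul_cancel₀ ht0, one_smul, neg_smul]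
        abel
      rw [e1]
      exact Submodule.add_mem_sup (Submodule.smul_mem _ _ hwa)
        (Submodule.smul_mem _ _ (Submodule.mem_span_singleton_self u))
  refine ⟨segment ℝ x z ∪ segment ℝ y z, union_subset (hseg x hxC hxW hzx) (hseg y hyC hyW hzy),
    Or.inl (left_mem_segment ℝ x z), Or.inr (left_mem_segment ℝ y z), ?_⟩
  exact IsPreconnected.union z (right_mem_segment ℝ x z) (right_mem_segment ℝ y z)
    (convex_segment x z).isPreconnected (convex_segment y z).isPreconnected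

lemma dense_diff [FiniteDimensional ℝ E] {C : Set E} (hCo : IsOpen C) {α : Type*} (T : Finset α)
    (W : α → Submodule ℝ E) (hW : ∀ a ∈ T, W a ≠ ⊤) {x : E} (hx : x ∈ C) :
    x ∈ closure (C \ ⋃ a ∈ T, (W a : Set E)) := by
  have hint := Fan_696.interior_biUnion_proper T W hW
  have hd : Dense (⋃ a ∈ T, (W a : Set E))ᶜ := by
    rw [← interior_eq_empty_iff_dense_compl]; exact hint
  have := hd.open_subset_closure_inter hCo hx
  rwa [← sdiff_eq] at this

/-- proportionality of forms. -/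
lemma exists_smul_of_ker {f g : E →L[ℝ] ℝ} (hf : f ≠ 0) (h : ∀ x, f x = 0 → g x = 0) :
    ∃ c : ℝ, g = c • f := by
  obtain ⟨u, hu⟩ : ∃ u, f u ≠ 0 := by
    by_contra hcon
    push Not at hcon
    exact hf (ContinuousLinearMap.ext hcon)
  refine ⟨g u / f u, ?_⟩
  ext x
  have h1 : f (x - (f x / f u) • u) = 0 := by
    rw [map_sub, map_smul, smul_eq_mul, div_mul_cancel₀ _ hu, sub_self]
  have h2 := h _ h1
  rw [map_sub, map_smul, smul_eq_mul, sub_eq_zero] at h2
  rw [h2]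
  simp only [FunLike.coe_smul, Pi.smul_apply, smul_eq_mul]
  ring

lemma finrank_ker_inf [FiniteDimensional ℝ E] {f g : E →L[ℝ] ℝ} (hf : f ≠ 0)
    (hfg : ¬ ∃ c : ℝ, g = c • f) :
    finrank ℝ ((LinearMap.ker (f : E →ₗ[ℝ] ℝ) ⊓ LinearMap.ker (g : E →ₗ[ℝ] ℝ) : Submodule ℝ E)) + 2 ≤
      finrank ℝ E := by
  have h1 : LinearMap.ker (f : E →ₗ[ℝ] ℝ) < ⊤ := by
    rw [lt_top_iff_ne_top]
    intro htop
    apply hf
    ext z
    have : z ∈ LinearMap.ker (f : E →ₗ[ℝ] ℝ) := by rw [htop]; trivial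
    simpa using this
  have h2 : (LinearMap.ker (f : E →ₗ[ℝ] ℝ) ⊓ LinearMap.ker (g : E →ₗ[ℝ] ℝ) : Submodule ℝ E) <
      LinearMap.ker (f : E →ₗ[ℝ] ℝ) := by
    refine lt_of_le_of_ne inf_le_left fun heq => hfg (exists_smul_of_ker hf ?_)
    intro x hx
    have : x ∈ (LinearMap.ker (f : E →ₗ[ℝ] ℝ) ⊓ LinearMap.ker (g : E →ₗ[ℝ] ℝ) : Submodule ℝ E) := by
      rw [heq]; simpa using hx
    simpa using this.2
  have h3 := Submodule.finrank_lt_finrank_of_lt h2
  have h4 := Submodule.finrank_lt_finrank_of_lt h1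
  rw [finrank_top] at h4
  omega

/-- **Off finitely many subspaces of codimension two a conic selection is affine or two-sided.** -/
theorem exists_codim_two [FiniteDimensional ℝ E] {H : E → F} {S : Finset (E →L[ℝ] F)}
    (hH : Conic H S) {L : Finset (E →L[ℝ] ℝ)}
    (hL : ∀ A ∈ S, ∀ B ∈ S, A ≠ B → ∃ f ∈ L, f ≠ 0 ∧ ∀ x, A x = B x → f x = 0) :
    ∃ T : Finset (Submodule ℝ E), (∀ W ∈ T, finrank ℝ W + 2 ≤ finrank ℝ E) ∧
      ∀ v : E, v ∉ (⋃ W ∈ T, (W : Set E)) →
        (∃ A ∈ S, AffAt H v A) ∨ ∃ f : E →L[ℝ] ℝ, f ≠ 0 ∧ ∃ A ∈ S, ∃ B ∈ S, TwoAt H v f A B := by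
  refine ⟨((L ×ˢ L).filter fun q => q.1 ≠ 0 ∧ ¬ ∃ c : ℝ, q.2 = c • q.1).image fun q =>
    (LinearMap.ker (q.1 : E →ₗ[ℝ] ℝ) ⊓ LinearMap.ker (q.2 : E →ₗ[ℝ] ℝ) : Submodule ℝ E), ?_, ?_⟩
  · intro W hW
    obtain ⟨q, hq, rfl⟩ := Finset.mem_image.1 hW
    have hq2 := (Finset.mem_filter.1 hq).2
    exact finrank_ker_inf hq2.1 hq2.2
  · intro v hv
    by_cases hreg : ∀ f ∈ L, f ≠ 0 → f v ≠ 0
    · exact Or.inl (affAt_of_forms hH hL hreg)
    · right
      push Not at hreg
      obtain ⟨f₀, hf₀, hf₀0, hf₀v⟩ := hreg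
      refine ⟨f₀, hf₀0, twoAt_of_forms hH hL hf₀0 hf₀v ?_⟩
      intro f hf hf0 hfv
      by_contra hcon
      apply hv
      simp only [mem_iUnion]
      refine ⟨(LinearMap.ker (f₀ : E →ₗ[ℝ] ℝ) ⊓ LinearMap.ker (f : E →ₗ[ℝ] ℝ) : Submodule ℝ E),
        Finset.mem_image.2 ⟨(f₀, f), Finset.mem_filter.2
          ⟨Finset.mem_product.2 ⟨hf₀, hf⟩, hf₀0, hcon⟩, rfl⟩, ?_⟩
      exact ⟨by simpa using hf₀v, by simpa using hfv⟩

end Crest.Agent.R096.Str_696
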