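import Crest.Agent.R096.Str2_968

/-!
Row 96 (S0127), helper968, leaf STRIP, part 3: **the strips of helper55's systems.**  `E₀` is a
closed subset of the boundary of the cell `k` outside all `V j` (an edge, a vertex, ..).  For
`r ≤ σ · min (R, ρ j)`, `σ ≤ c(m)` the map `chi = H ∘ Y` is on `P k ∩ nb r E₀` the explicit map of
the outer shells: independent of `N₁, N₂ ≥ 1`, `C(m)`-Lipschitz, and (`strip_int`), with
`t = 7 m³ σ δ ≤ δ`,
`∫_(P k ∩ nb r E₀) v (chi x) ≤ C(m) (R/δ) [Σ_j (ρ_j/δ) ∫_(P ∩ V_j ∩ nb t rim_j ∩ nb (C r) E₀) v +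
∫_(P ∩ nb t (∂P) ∩ (nb t Z ∪ ⋃ nb t rim_j) ∩ nb (C r) E₀) v]` without error term, for every `p < 3`.
-/

set_option autoImplicit false
set_option linter.unusedSectionVars false

open Set Metric Filter Topology MeasureTheory

namespace Crest.Agent.R096.Str_968

open Crest.Agent.R096.Ce_537 Crest.Agent.R096.Bd_416 Crest.Agent.R96.Hole_348
open Crest.Agent.R096.Sq_55 Crest.Agent.R096.Sqt_143
open scoped ENNReal NNReal

/-! ### closed neighbourhoods -/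

lemma isClosed_nb {r : ℝ} {E₀ : Set E3} (hE : IsClosed E₀) : IsClosed (nb r E₀) := by
  by_cases hr : 0 ≤ r
  · have e1 : nb r E₀ = cthickening r E₀ := by
      rw [hE.cthickening_eq_biUnion_closedBall hr]
      ext x
      simp only [nb, mem_ofPred_eq, mem_iUnion, mem_closedBall, dist_eq_norm, exists_prop]
    rw [e1]; exact isClosed_cthickening
  · have e1 : nb r E₀ = ∅ := by
      rw [eq_empty_iff_forall_notMem]
      rintro x ⟨y, -, h⟩
      exact hr ((norm_nonneg _).trans h)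
    rw [e1]; exact isClosed_empty

lemma isCompact_rim (F : Face) : IsCompact F.rim := by
  have h1 : IsCompact {z : E3 | z 0 = 0 ∧ wid z = 1} := by
    refine IsCompact.of_isClosed_subset (isCompact_closedBall (0:E3) 1) ?_ ?_
    · exact (isClosed_eq (continuous_apply 0) continuous_const).inter
        (isClosed_eq continuous_wid continuous_const)
    · rintro z ⟨h0, h1⟩
      rw [mem_closedBall_zero_iff]
      exact norm_le_max (by rw [h0, abs_zero]; exact zero_le_one) h1.le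
  refine h1.image_of_continuousOn (F.cht.lip'.continuousOn.mono ?_)
  rintro z ⟨h0, h1⟩
  exact Face.rim_mem h0 h1

/-! ### geometry -/

/-- points of a face near a point outside have small depth -/
lemma face_depth (F : Face) {x y : E3} (hy : y ∈ F.V) (hx : x ∉ F.V) {d : ℝ}
    (hd : ‖x - y‖ ≤ d) : 1 - |F.e y 0| - wid (F.e y) ≤ 2 * (F.M / F.ρ * d) := by
  have hMρ := F.ρ_pos
  have hM := F.M_pos
  obtain ⟨x', hx1, hx2⟩ := inter_frontier ((convex_segment y x).isPreconnected) F.cht.opU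
    ⟨y, left_mem_segment ℝ y x, hy⟩ ⟨x, right_mem_segment ℝ y x, hx⟩
  have hxK : x' ∈ F.K := closure_minimal F.cht.sub F.cht.clK hx2.1
  have hxV : x' ∉ F.V := by
    have := hx2.2
    rwa [F.cht.opU.interior_eq] at this
  have hyK : y ∈ F.K := F.cht.sub hy
  have h1 : ‖x' - y‖ ≤ d := by
    have h2 : x' ∈ closedBall y d := by
      refine (convex_closedBall y d).segment_subset ?_ ?_ hx1
      · rw [mem_closedBall, dist_self]; exact (norm_nonneg _).trans hd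
      · rw [mem_closedBall, dist_eq_norm]; exact hd
    rwa [mem_closedBall, dist_eq_norm] at h2
  have h3 : ‖F.e x' - F.e y‖ ≤ F.M / F.ρ * d := by
    refine (lip_le F.cht.lip hxK hyK).trans ?_
    push_cast
    exact mul_le_mul_of_nonneg_left h1 (by positivity)
  have h4 : |F.e x' 0| + wid (F.e x') = 1 := by
    have a1 : |F.e x' 0| + wid (F.e x') ≤ 1 := F.cht.maps hxK
    have a2 : ¬ (|F.e x' 0| + wid (F.e x') < 1) := fun h => hxV ((F.cht.mem x' hxK).1 h)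
    exact le_antisymm a1 (not_lt.1 a2)
  have h5 : |F.e x' 0| ≤ |F.e y 0| + F.M / F.ρ * d := by
    have h7 := abs_zero_le (F.e x' - F.e y)
    have e : (F.e x' - F.e y) 0 = F.e x' 0 - F.e y 0 := rfl
    rw [e] at h7
    have h8 := abs_sub_abs_le_abs_sub (F.e x' 0) (F.e y 0)
    linarith
  have h6 : wid (F.e x') - wid (F.e y) ≤ F.M / F.ρ * d := (wid_sub_le _ _).trans h3
  linarith

section sys

variable {κ ι : Type*} [Fintype κ] [Fintype ι] {X : Sys κ ι} {p δ : ℝ}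

open Sys

/-- points of the cell near its boundary in `V j` have small height -/
lemma slab_le {k : κ} {j : ι} {z y : E3} (hz : z ∈ (X.C k).P)
    (hzV : z ∈ (X.F j).V) (hy : y ∈ (X.C k).P \ (X.C k).U) {d : ℝ} (hd : ‖z - y‖ ≤ d) :
    |(X.F j).e z 0| ≤ (X.F j).M * d / (X.F j).ρ := by
  have hρ := (X.F j).ρ_pos
  have h1 := X.slab j k z hzV hz y hy
  rw [le_div_iff₀ hρ]
  have h3 : ((X.F j).M : ℝ) * ‖z - y‖ ≤ (X.F j).M * d :=
    mul_le_mul_of_nonneg_left hd (by positivity)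
  linarith

/-- `E₀` is a closed part of the boundary of the cell `k` outside the `V j`; `r ≤ σ · size` -/
structure Edg (X : Sys κ ι) (k : κ) (E₀ : Set E3) (r σ : ℝ) : Prop where
  cl : IsClosed E₀
  bd : E₀ ⊆ (X.C k).P \ (X.C k).U
  dis : ∀ j, Disjoint E₀ (X.F j).V
  r0 : 0 ≤ r
  s1 : 24 * (X.m k : ℝ)^3 * σ < 1
  rC : r ≤ σ * (X.C k).R
  rF : ∀ j, ((X.F j).V ∩ (X.C k).P).Nonempty → r ≤ σ * (X.F j).ρ

variable {k : κ} {E₀ : Set E3} {r σ : ℝ} {N₁ N₂ : ℕ}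

lemma Edg.s0 (hE : Edg X k E₀ r σ) : 0 ≤ σ := by
  have h1 := (X.C k).R_pos
  have h2 := hE.r0.trans hE.rC
  by_contra h
  have := mul_neg_of_neg_of_pos (not_le.1 h) h1
  linarith

lemma Edg.rC' (hE : Edg X k E₀ r σ) : 2 * (X.m k : ℝ) * r < (X.C k).R := by
  have h1 := (X.C k).R_pos
  have hm1 := m_one (X := X) k
  have h0 := hE.s0
  have h2 : (X.m k : ℝ) ≤ (X.m k : ℝ)^3 := by
    calc (X.m k : ℝ) = (X.m k : ℝ)^1 := (pow_one _).symm
      _ ≤ _ := pow_le_pow_right₀ hm1 (by norm_num)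
  have h3 : (X.m k : ℝ) * σ ≤ (X.m k : ℝ)^3 * σ := mul_le_mul_of_nonneg_right h2 h0
  have h4 : 2 * (X.m k : ℝ) * σ < 1 := by linarith [hE.s1]
  calc 2 * (X.m k : ℝ) * r ≤ 2 * (X.m k : ℝ) * (σ * (X.C k).R) :=
        mul_le_mul_of_nonneg_left hE.rC (by positivity)
    _ = (2 * (X.m k : ℝ) * σ) * (X.C k).R := by ring
    _ < 1 * (X.C k).R := mul_lt_mul_of_pos_right h4 h1
    _ = _ := one_mul _

lemma Edg.shC (hE : Edg X k E₀ r σ) {x : E3} (hx : x ∈ (X.C k).U) (hx2 : x ∈ nb r E₀) :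
    x ∈ shC (X.C k) := by
  obtain ⟨y, hy, hxy⟩ := hx2
  refine ⟨hx, depth_lt ((X.C k).cht.sub hx) (hE.bd hy).1 (hE.bd hy).2 hxy ?_⟩
  have h3 : ((X.C k).M : ℝ) ≤ X.m k := by exact_mod_cast X.mC k
  have h1 := hE.r0
  have h2 := hE.rC'
  nlinarith

/-- the distance of the images under `Y` to the boundary -/
noncomputable def dY (X : Sys κ ι) (k : κ) (δ σ : ℝ) : ℝ := 2 * σ * δ / (3 * X.m k)

lemma Edg.Y (hE : Edg X k E₀ r σ) (h : X.Adm p δ) {x : E3} (hx : x ∈ (X.C k).U)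
    (hx2 : x ∈ nb r E₀) : Sys.Y h (N₂+1) x ∈ nb (3 * (X.m k : ℝ)^2 * r) E₀ ∧
      Sys.Y h (N₂+1) x ∈ (X.C k).P ∧
      Sys.Y h (N₂+1) x ∈ nb (dY X k δ σ) ((X.C k).P \ (X.C k).U) := by
  have hm1 := m_one (X := X) k
  have h3 : ((X.C k).M : ℝ) ≤ X.m k := by exact_mod_cast X.mC k
  have h30 := (X.C k).M_pos
  have hR := (X.C k).R_pos
  have hδ := h.d0
  have h1 := hE.r0
  have h2 := hE.rC'
  have hs := hE.shC hx hx2
  obtain ⟨y, hy, hxy⟩ := hx2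
  have hxP := (X.C k).cht.sub hx
  rw [Y_eq h (N₂+1) hx]
  obtain ⟨a1, y', hy', a3⟩ := cell_a (N := N₂) (gC h k) hxP (hE.bd hy) hxy (by nlinarith)
  refine ⟨⟨y, hy, ?_⟩, hh_P _ hxP, ⟨y', hy', a3.trans ?_⟩⟩
  · refine (norm_sub_le_norm_sub_add_norm_sub _ x _).trans ?_
    have h5 : 2 * ((X.C k).M:ℝ)^2 * r ≤ 2 * (X.m k : ℝ)^2 * r := by gcongr
    have h6 : r ≤ (X.m k : ℝ)^2 * r := by
      have : (1:ℝ) ≤ (X.m k : ℝ)^2 := one_le_pow₀ hm1
      nlinarith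
    linarith
  · have b1 := ηC_pos h k
    have b2 := (gC h k).t0
    have b3 : X.ηC δ k * (1 - qn 3 p) ≤ X.ηC δ k := by
      have := qn_pos 3 p
      nlinarith
    have b5 : 2 * ((X.C k).M:ℝ)^2 * (X.ηC δ k * (1 - qn 3 p)) ≤
        2 * (X.m k : ℝ)^2 * X.ηC δ k := by gcongr
    calc 2 * ((X.C k).M:ℝ)^2 * (X.ηC δ k * (1 - qn 3 p)) * r
        ≤ 2 * (X.m k : ℝ)^2 * X.ηC δ k * (σ * (X.C k).R) :=
          mul_le_mul b5 hE.rC h1 (by positivity)
      _ = dY X k δ σ := by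
          unfold Sys.ηC dY
          field_simp

/-- points of the layer in `V j` near a point outside `V j` are in the shell of the face -/
lemma Edg.mem_shF (hE : Edg X k E₀ r σ) (h : X.Adm p δ) {j : ι} {z : E3} (hz : z ∈ (X.C k).P)
    (hzV : z ∈ (X.F j).V) (hz2 : z ∈ nb (dY X k δ σ) ((X.C k).P \ (X.C k).U))
    (hz3 : z ∈ nb (3 * (X.m k : ℝ)^2 * r) E₀) :
    z ∈ shF (X.F j) ∧ |(X.F j).e z 0| ≤ (X.F j).M * dY X k δ σ / (X.F j).ρ ∧
      1 - |(X.F j).e z 0| - wid ((X.F j).e z) ≤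
        2 * (((X.F j).M : ℝ) / (X.F j).ρ * (3 * (X.m k : ℝ)^2 * r)) := by
  have hm1 := m_one (X := X) k
  have hM0 := (X.F j).M_pos
  have hρ := (X.F j).ρ_pos
  have hδ := h.d0
  have hδF := h.dF j
  have hs0 := hE.s0
  have hs1 := hE.s1
  have hr0 := hE.r0
  have hM : ((X.F j).M : ℝ) ≤ X.m k := by exact_mod_cast X.mF k j ⟨z, hzV, hz⟩
  obtain ⟨y, hy, hzy⟩ := hz2
  obtain ⟨x₀, hx₀, hd⟩ := hz3
  have hx₀V : x₀ ∉ (X.F j).V := Set.disjoint_left.1 (hE.dis j) hx₀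
  have h0 := slab_le hz hzV hy hzy
  have h1 := face_depth (X.F j) hzV hx₀V (d := 3 * (X.m k : ℝ)^2 * r)
    (by rw [norm_sub_rev]; exact hd)
  have hσ : (X.m k : ℝ)^3 * σ < 1/24 := by linarith
  have h2 : ((X.F j).M : ℝ) / (X.F j).ρ * (3 * (X.m k : ℝ)^2 * r) ≤ 3 * ((X.m k : ℝ)^3 * σ) := by
    rw [div_mul_eq_mul_div, div_le_iff₀ hρ]
    calc ((X.F j).M : ℝ) * (3 * (X.m k : ℝ)^2 * r) ≤
          X.m k * (3 * (X.m k : ℝ)^2 * (σ * (X.F j).ρ)) := by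
            have := hE.rF j ⟨z, hzV, hz⟩
            gcongr
      _ = _ := by ring
  have h3 : (X.F j).M * dY X k δ σ / (X.F j).ρ ≤ 1/2 := by
    rw [div_le_iff₀ hρ, dY]
    have e : ((X.F j).M : ℝ) * (2 * σ * δ / (3 * X.m k)) =
        ((X.F j).M / X.m k) * ((2/3) * σ * δ) := by field_simp
    rw [e]
    have h7 : ((X.F j).M : ℝ) / X.m k ≤ 1 := by rw [div_le_one (by linarith)]; exact hM
    have h8 : σ ≤ 1/24 := by
      have : (1:ℝ) ≤ (X.m k : ℝ)^3 := one_le_pow₀ hm1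
      nlinarith
    calc ((X.F j).M : ℝ) / X.m k * ((2/3) * σ * δ) ≤ 1 * ((2/3) * (1/24) * (X.F j).ρ) := by
          gcongr
      _ ≤ _ := by linarith
  refine ⟨⟨hzV, ?_⟩, h0, h1⟩
  show (1/2) * (1 - |(X.F j).e z 0|) < wid ((X.F j).e z)
  linarith

/-- the thickness of the layers -/
noncomputable def tT (X : Sys κ ι) (k : κ) (δ σ : ℝ) : ℝ := 7 * (X.m k : ℝ)^3 * σ * δ

/-- the image under `H` of a point of the layer near `E₀` in `V j` -/
lemma Edg.H (hE : Edg X k E₀ r σ) (h : X.Adm p δ) {j : ι} {z : E3} (hz : z ∈ (X.C k).P)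
    (hzV : z ∈ (X.F j).V) (hz2 : z ∈ nb (dY X k δ σ) ((X.C k).P \ (X.C k).U))
    (hz3 : z ∈ nb (3 * (X.m k : ℝ)^2 * r) E₀) :
    z ∈ shF (X.F j) ∧ (X.F j).hh (N₁+1) (gF h j) z ∈ (X.C k).P ∩ (X.F j).V ∩
      nb (tT X k δ σ) (X.F j).rim ∩ nb (15 * (X.m k : ℝ)^4 * r) E₀ := by
  have hm1 := m_one (X := X) k
  have hM0 := (X.F j).M_pos
  have hρ := (X.F j).ρ_pos
  have h1 := hE.r0
  have hδ := h.d0
  have hs0 := hE.s0
  have hM : ((X.F j).M : ℝ) ≤ X.m k := by exact_mod_cast X.mF k j ⟨z, hzV, hz⟩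
  obtain ⟨k1, h0, k2⟩ := hE.mem_shF h hz hzV hz2 hz3
  obtain ⟨x₀, hx₀, hzx⟩ := hz3
  obtain ⟨l1, l2, l3⟩ := face_a (N := N₁) (gF h j) k1
  obtain ⟨m1, m2, m3, m4⟩ := fo_mem (gF h j).t0 (tau_le (gF h j)) (shF_mem k1)
  rw [← l1] at m1 m2 m3 m4
  have hθ0 : 0 ≤ 1 - |(X.F j).e z 0| - wid ((X.F j).e z) := by
    have := (shF_mem k1).2.2
    linarith
  refine ⟨k1, ⟨⟨⟨?_, l2⟩, ?_⟩, ?_⟩⟩
  · rw [← H_eq h (N₁+1) hzV]
    exact (H_P h (N₁+1) k z).2 hz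
  · have b2 := ηF_pos h j
    have b3 : X.ηF δ j * (1 - qF p) ≤ X.ηF δ j := by
      have b1 := qF_pos p
      nlinarith
    have b4 : 2 * (X.ηF δ j * (1 - qF p)) * (1 - |(X.F j).e z 0| - wid ((X.F j).e z)) ≤
        2 * X.ηF δ j * (2 * (((X.F j).M : ℝ) / (X.F j).ρ * (3 * (X.m k : ℝ)^2 * r))) := by
      calc 2 * (X.ηF δ j * (1 - qF p)) * (1 - |(X.F j).e z 0| - wid ((X.F j).e z))
          ≤ 2 * X.ηF δ j * (1 - |(X.F j).e z 0| - wid ((X.F j).e z)) := by gcongr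
        _ ≤ _ := mul_le_mul_of_nonneg_left k2 (by positivity)
    obtain ⟨y, hy, hxy⟩ := (X.F j).near_aux ((X.F j).cht.sub l2)
      (d := (X.F j).M * dY X k δ σ / (X.F j).ρ +
        2 * X.ηF δ j * (2 * (((X.F j).M : ℝ) / (X.F j).ρ * (3 * (X.m k : ℝ)^2 * r))))
      (by
        rw [m1]
        have : 0 ≤ 2 * X.ηF δ j * (2 * (((X.F j).M : ℝ) / (X.F j).ρ *
          (3 * (X.m k : ℝ)^2 * r))) := by positivity
        linarith) (by rw [m2]; linarith)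
    refine ⟨y, hy, hxy.trans ?_⟩
    have e1 : ((X.F j).M : ℝ) * (X.F j).ρ * ((X.F j).M * dY X k δ σ / (X.F j).ρ +
        2 * X.ηF δ j * (2 * (((X.F j).M : ℝ) / (X.F j).ρ * (3 * (X.m k : ℝ)^2 * r)))) =
        ((X.F j).M : ℝ)^2 * dY X k δ σ +
        6 * (X.F j).M * (X.m k : ℝ)^2 * δ * (r / (X.F j).ρ) := by
      unfold Sys.ηF
      field_simp
      ring
    rw [e1]
    have e2 : ((X.F j).M : ℝ)^2 * dY X k δ σ ≤ (X.m k : ℝ)^3 * σ * δ := by
      calc ((X.F j).M : ℝ)^2 * dY X k δ σ ≤ (X.m k : ℝ)^2 * dY X k δ σ := by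
            have : 0 ≤ dY X k δ σ := by unfold dY; positivity
            gcongr
        _ = (2/3) * (X.m k : ℝ) * (σ * δ) := by
            unfold dY; field_simp
        _ ≤ (X.m k : ℝ)^3 * (σ * δ) := by
            apply mul_le_mul_of_nonneg_right _ (by positivity)
            have : (X.m k : ℝ) ≤ (X.m k : ℝ)^3 := by
              calc (X.m k : ℝ) = (X.m k : ℝ)^1 := (pow_one _).symm
                _ ≤ _ := pow_le_pow_right₀ hm1 (by norm_num)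
            linarith
        _ = _ := by ring
    have e3 : r / (X.F j).ρ ≤ σ := by
      rw [div_le_iff₀ hρ]; exact hE.rF j ⟨z, hzV, hz⟩
    have e4 : 6 * ((X.F j).M : ℝ) * (X.m k : ℝ)^2 * δ * (r / (X.F j).ρ) ≤
        6 * (X.m k : ℝ)^3 * σ * δ := by
      calc 6 * ((X.F j).M : ℝ) * (X.m k : ℝ)^2 * δ * (r / (X.F j).ρ) ≤
            6 * (X.m k : ℝ) * (X.m k : ℝ)^2 * δ * σ := by gcongr
        _ = _ := by ring
    rw [tT]
    linarith
  · refine ⟨x₀, hx₀, (norm_sub_le_norm_sub_add_norm_sub _ z _).trans ?_⟩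
    have h5 : ((X.F j).M : ℝ) * (X.F j).ρ * (2 * (1 - |(X.F j).e z 0| -
        wid ((X.F j).e z))) ≤ 12 * (X.m k : ℝ)^4 * r := by
      have h4 : ((X.F j).M : ℝ) * (X.F j).ρ * (2 * (1 - |(X.F j).e z 0| -
          wid ((X.F j).e z))) ≤
          ((X.F j).M : ℝ) * (X.F j).ρ * (2 * (2 * (((X.F j).M : ℝ) / (X.F j).ρ *
            (3 * (X.m k : ℝ)^2 * r)))) :=
        mul_le_mul_of_nonneg_left (by linarith) (by positivity)
      refine h4.trans ?_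
      have e : ((X.F j).M : ℝ) * (X.F j).ρ * (2 * (2 * (((X.F j).M : ℝ) / (X.F j).ρ *
            (3 * (X.m k : ℝ)^2 * r)))) =
          12 * (((X.F j).M : ℝ) * (X.F j).M) * ((X.m k : ℝ)^2 * r) := by
        field_simp
        ring
      rw [e]
      have h5 : ((X.F j).M : ℝ) * (X.F j).M ≤ (X.m k : ℝ)^2 := by nlinarith
      calc 12 * (((X.F j).M : ℝ) * (X.F j).M) * ((X.m k : ℝ)^2 * r)
          ≤ 12 * (X.m k : ℝ)^2 * ((X.m k : ℝ)^2 * r) := by gcongr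
        _ = _ := by ring
    have h6 : (X.m k : ℝ)^2 * r ≤ (X.m k : ℝ)^4 * r := by
      have : (X.m k : ℝ)^2 ≤ (X.m k : ℝ)^4 := pow_le_pow_right₀ hm1 (by norm_num)
      nlinarith
    linarith

/-- a point of the layer outside the faces -/
lemma Edg.Z (hE : Edg X k E₀ r σ) (h : X.Adm p δ) {z : E3} (hz : z ∈ (X.C k).P)
    (hzV : ∀ j, z ∉ (X.F j).V) (hz2 : z ∈ nb (dY X k δ σ) ((X.C k).P \ (X.C k).U))
    (hz3 : z ∈ nb (3 * (X.m k : ℝ)^2 * r) E₀) :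
    z ∈ (X.C k).P ∩ nb (tT X k δ σ) ((X.C k).P \ (X.C k).U) ∩
      (nb (tT X k δ σ) X.Z ∪ ⋃ j, nb (tT X k δ σ) (X.F j).rim) ∩
      nb (15 * (X.m k : ℝ)^4 * r) E₀ := by
  have hm1 := m_one (X := X) k
  have hδ := h.d0
  have h1 := hE.r0
  have hs0 := hE.s0
  obtain ⟨y, hy, h4⟩ := hz2
  have hm13 : (X.m k : ℝ) ≤ (X.m k : ℝ)^3 := by
    calc (X.m k : ℝ) = (X.m k : ℝ)^1 := (pow_one _).symm
      _ ≤ _ := pow_le_pow_right₀ hm1 (by norm_num)
  have hd3 : 3 * (X.m k : ℝ)^2 * dY X k δ σ ≤ tT X k δ σ := by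
    have e : 3 * (X.m k : ℝ)^2 * dY X k δ σ = 2 * (X.m k : ℝ) * (σ * δ) := by
      unfold dY; field_simp
    rw [e, tT]
    calc 2 * (X.m k : ℝ) * (σ * δ) ≤ 7 * (X.m k : ℝ)^3 * (σ * δ) := by
          apply mul_le_mul_of_nonneg_right _ (by positivity)
          linarith
      _ = _ := by ring
  have hd0 : 0 ≤ dY X k δ σ := by unfold dY; positivity
  have hδ' : dY X k δ σ ≤ tT X k δ σ := by
    have : (1:ℝ) ≤ (X.m k : ℝ)^2 := one_le_pow₀ hm1
    nlinarith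
  refine ⟨⟨⟨hz, ⟨y, hy, h4.trans hδ'⟩⟩, ?_⟩, ?_⟩
  · rcases X.hZ k y hy with h5 | ⟨j, hj1, hj2⟩
    · left
      exact ⟨y, h5, h4.trans hδ'⟩
    · right
      obtain ⟨s, hs, hys⟩ := (X.F j).exit hj1 hj2 (hzV j) h4
      refine mem_iUnion.2 ⟨j, s, hs, le_trans ?_ hd3⟩
      have hM : ((X.F j).M : ℝ) ≤ X.m k := by exact_mod_cast X.mF k j ⟨y, hj1, hy.1⟩
      have hM1 := (X.F j).M_one
      have h7 : ‖z - s‖ ≤ ‖z - y‖ + ‖y - s‖ := norm_sub_le_norm_sub_add_norm_sub _ _ _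
      have h9 : (1 + 2 * ((X.F j).M * (X.F j).M : ℝ)) ≤ 3 * (X.m k : ℝ)^2 := by nlinarith
      nlinarith
  · refine nb_mono ?_ (subset_refl _) hz3
    have h6 : (X.m k : ℝ)^2 * r ≤ (X.m k : ℝ)^4 * r := by
      have : (X.m k : ℝ)^2 ≤ (X.m k : ℝ)^4 := pow_le_pow_right₀ hm1 (by norm_num)
      nlinarith
    have h7 : 0 ≤ (X.m k : ℝ)^4 * r := by positivity
    linarith

/-! ### the local Lipschitz constants -/

/-- **(A)** on the strip `Y` is `16 m²`-Lipschitz and `H` is `33 m²`-Lipschitz at `Y x`, a.e. -/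
theorem strip_lip (hE : Edg X k E₀ r σ) (h : X.Adm p δ) (N₁ N₂ : ℕ) :
    ∀ᵐ x, x ∈ (X.C k).P ∩ nb r E₀ → LLV (16 * (X.m k : ℝ)^2) (Sys.Y h (N₂+1)) x ∧
      LLV (33 * (X.m k : ℝ)^2) (Sys.H h (N₁+1)) (Sys.Y h (N₂+1) x) := by
  have hm1 := m_one (X := X) k
  have hn1 : ∀ᵐ x : E3, x ∉ (X.C k).P \ (X.C k).U :=
    measure_eq_zero_iff_ae_notMem.1 (X.C k).null
  have hn2 : ∀ᵐ x : E3, ∀ j, x ∉ (X.F j).K \ (X.F j).V := by
    rw [ae_all_iff]
    intro k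
    exact measure_eq_zero_iff_ae_notMem.1 (X.F k).null
  have hn3 := null_pre (Sys.plOn_Y_symm h (N₂+1)) hn2
  filter_upwards [hn1, hn3] with x hx1 hx3 hx
  have hxU : x ∈ (X.C k).U := by
    by_contra hxU
    exact hx1 ⟨hx.1, hxU⟩
  have hs := hE.shC hxU hx.2
  constructor
  · have h1 := cell_b (N := N₂) (gC h k) hxU hs.2
    have h2 : LLV (16 * ((X.C k).M:ℝ)^2) (Sys.Y h (N₂+1)) x := by
      filter_upwards [h1, (X.C k).cht.opU.mem_nhds hxU] with y hy hyU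
      rw [Y_eq h (N₂+1) hyU, Y_eq h (N₂+1) hxU]
      exact hy
    have h3 : ((X.C k).M : ℝ) ≤ X.m k := by exact_mod_cast X.mC k
    have h30 := (X.C k).M_pos
    filter_upwards [h2] with y hy
    refine hy.trans (mul_le_mul_of_nonneg_right ?_ (norm_nonneg _))
    gcongr
  · obtain ⟨k1, k2, k3⟩ := hE.Y (N₂ := N₂) h hxU hx.2
    set z := Sys.Y h (N₂+1) x with hz
    by_cases hV : ∃ j, z ∈ (X.F j).V
    · obtain ⟨j, hj⟩ := hV
      obtain ⟨l1, -⟩ := hE.H (N₁ := N₁) h k2 hj k3 k1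
      have h1 := face_b (N := N₁) (gF h j) l1
      have h2 : LLV (33 * ((X.F j).M:ℝ)^2) (Sys.H h (N₁+1)) z := by
        filter_upwards [h1, (X.F j).cht.opU.mem_nhds hj] with y hy hyU
        rw [H_eq h (N₁+1) hyU, H_eq h (N₁+1) hj]
        exact hy
      have h3 : ((X.F j).M : ℝ) ≤ X.m k := by exact_mod_cast X.mF k j ⟨z, hj, k2⟩
      have h30 := (X.F j).M_pos
      filter_upwards [h2] with y hy
      refine hy.trans (mul_le_mul_of_nonneg_right ?_ (norm_nonneg _))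
      gcongr
    · push Not at hV
      have hK : ∀ j, z ∉ (X.F j).K := fun j hj => hx3 j ⟨hj, hV j⟩
      have h6 : ∀ᶠ y in 𝓝 z, ∀ j, y ∉ (X.F j).K :=
        eventually_all.2 fun j => (X.F j).cht.clK.isOpen_compl.mem_nhds (hK j)
      filter_upwards [h6] with y hy
      rw [H_out h (N₁+1) fun j hj3 => hy j ((X.F j).cht.sub hj3), H_out h (N₁+1) hV]
      have h7 : (1:ℝ) ≤ 33 * (X.m k : ℝ)^2 := by nlinarith
      have h8 := norm_nonneg (y - z)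
      nlinarith

/-! ### the integrals -/

/-- constant of the cells -/
noncomputable def U3 (p : ℝ) (m : ℝ≥0) : ℝ := 3 * (m:ℝ)^9 * kap 3 / (1 - qn 3 p)
/-- constant of the faces -/
noncomputable def U2 (p : ℝ) (m : ℝ≥0) : ℝ := 2 * (m:ℝ)^7 * kap 2 / (1 - qF p)
/-- **the constant** -/
noncomputable def CS (p : ℝ) (m : ℝ≥0) : ℝ := U3 p m * (1 + U2 p m)

lemma U3_nonneg {p : ℝ} (hp : p < 3) (m : ℝ≥0) : 0 ≤ U3 p m := by
  have h1 : qn 3 p < 1 := qn_lt (by exact_mod_cast hp)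
  have h2 := kap_nonneg (n := 3)
  have h3 : 0 < 1 - qn 3 p := by linarith
  unfold U3; positivity

lemma U2_nonneg (p : ℝ) (m : ℝ≥0) : 0 ≤ U2 p m := by
  have h1 := qF_lt p
  have h2 := kap_nonneg (n := 2)
  have h3 : 0 < 1 - qF p := by linarith
  unfold U2; positivity

lemma kC_le (h : X.Adm p δ) (k : κ) : kC (X.C k).M (X.ηC δ k * (1 - qn 3 p)) ≤
    ENNReal.ofReal (U3 p (X.m k)) * ENNReal.ofReal ((X.C k).R / δ) := by
  have h1 : qn 3 p < 1 := qn_lt (by exact_mod_cast h.p3)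
  have h2 := kap_nonneg (n := 3)
  have h3 : 0 < 1 - qn 3 p := by linarith
  have hm1 := m_one (X := X) k
  have hM : ((X.C k).M : ℝ) ≤ X.m k := by exact_mod_cast X.mC k
  have hM0 := (X.C k).M_pos
  have hR := (X.C k).R_pos
  have hδ := h.d0
  rw [kC, ← ENNReal.ofReal_mul (U3_nonneg h.p3 _)]
  apply ENNReal.ofReal_le_ofReal
  have e : ((X.C k).M:ℝ)^6 * (kap 3 / (X.ηC δ k * (1 - qn 3 p))) =
      (3 * (((X.C k).M:ℝ)^6 * (X.m k : ℝ)^3) * kap 3 / (1 - qn 3 p)) * ((X.C k).R / δ) := by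
    unfold Sys.ηC
    field_simp
  rw [e, U3]
  refine mul_le_mul_of_nonneg_right ?_ (by positivity)
  apply div_le_div_of_nonneg_right _ h3.le
  refine mul_le_mul_of_nonneg_right ?_ h2
  have h5 : ((X.C k).M:ℝ)^6 * (X.m k : ℝ)^3 ≤ (X.m k : ℝ)^6 * (X.m k : ℝ)^3 := by gcongr
  calc 3 * (((X.C k).M:ℝ)^6 * (X.m k : ℝ)^3) ≤ 3 * ((X.m k : ℝ)^6 * (X.m k : ℝ)^3) := by linarith
    _ = _ := by ring

lemma kF_le (h : X.Adm p δ) {k : κ} {j : ι} (hM : (X.F j).M ≤ X.m k) :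
    kF (X.F j).M (X.ηF δ j * (1 - qF p)) ≤
    ENNReal.ofReal (U2 p (X.m k)) * ENNReal.ofReal ((X.F j).ρ / δ) := by
  have h1 := qF_lt p
  have h2 := kap_nonneg (n := 2)
  have h3 : 0 < 1 - qF p := by linarith
  have hM' : ((X.F j).M : ℝ) ≤ X.m k := by exact_mod_cast hM
  have hM0 := (X.F j).M_pos
  have hρ := (X.F j).ρ_pos
  have hδ := h.d0
  rw [kF, ← ENNReal.ofReal_mul (U2_nonneg _ _)]
  apply ENNReal.ofReal_le_ofReal
  have e : ((X.F j).M:ℝ)^6 * (kap 2 / (X.ηF δ j * (1 - qF p))) =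
      (2 * ((X.F j).M:ℝ)^7 * kap 2 / (1 - qF p)) * ((X.F j).ρ / δ) := by
    unfold Sys.ηF
    field_simp
  rw [e, U2]
  refine mul_le_mul_of_nonneg_right ?_ (by positivity)
  apply div_le_div_of_nonneg_right _ h3.le
  refine mul_le_mul_of_nonneg_right ?_ h2
  gcongr

/-- the bound on the strip; `N` is the neighbourhood of the edge, `t` the thickness -/
noncomputable def SB (X : Sys κ ι) (δ t : ℝ) (k : κ) (N : Set E3) (v : E3 → ℝ≥0∞) : ℝ≥0∞ :=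
  ENNReal.ofReal ((X.C k).R / δ) *
    ((∑ j, ENNReal.ofReal ((X.F j).ρ / δ) *
      ∫⁻ x in (X.C k).P ∩ (X.F j).V ∩ nb t (X.F j).rim ∩ N, v x) +
    ∫⁻ x in (X.C k).P ∩ nb t ((X.C k).P \ (X.C k).U) ∩
      (nb t X.Z ∪ ⋃ j, nb t (X.F j).rim) ∩ N, v x)

/-- the thickness is at most `δ` -/
lemma Edg.tT_le (hE : Edg X k E₀ r σ) (h : X.Adm p δ) : tT X k δ σ ≤ δ := by
  have hδ := h.d0
  have hs0 := hE.s0
  have hs1 := hE.s1
  have hm1 := m_one (X := X) k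
  have : 0 ≤ (X.m k : ℝ)^3 * σ := by positivity
  rw [tT]
  nlinarith

/-- **(B) the integral on the strip** -/
theorem strip_int (hE : Edg X k E₀ r σ) (h : X.Adm p δ) (N₁ N₂ : ℕ) {v : E3 → ℝ≥0∞}
    (hv : Measurable v) :
    ∫⁻ x in (X.C k).P ∩ nb r E₀, v (Sys.chi h (N₁+1) (N₂+1) x) ≤
      ENNReal.ofReal (CS p (X.m k)) *
        SB X δ (tT X k δ σ) k (nb (15 * (X.m k : ℝ)^4 * r) E₀) v := by
  classical
  set S : Set E3 := (X.C k).P ∩ nb r E₀ with hS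
  set T : Set E3 := nb (3 * (X.m k : ℝ)^2 * r) E₀ ∩ nb (dY X k δ σ) ((X.C k).P \ (X.C k).U)
    with hT
  have mT0 : MeasurableSet T :=
    (isClosed_nb hE.cl).measurableSet.inter
      (isClosed_nb ((X.C k).cht.clK.inter (X.C k).cht.opU.isClosed_compl)).measurableSet
  set t := tT X k δ σ with ht
  set Nb : Set E3 := nb (15 * (X.m k : ℝ)^4 * r) E₀ with hNb
  set v' : E3 → ℝ≥0∞ := fun x => v (Sys.H h (N₁+1) x) with hv'
  have mv' : Measurable v' := hv.comp (Sys.H h (N₁+1)).continuous.measurable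
  set τ := X.ηC δ k * (1 - qn 3 p) with hτ
  set L : Set E3 := ((X.C k).P ∩ (X.C k).e ⁻¹' {z | 1 - τ < ‖z‖ ∧ ‖z‖ ≤ 1}) ∩ T with hL
  -- the cell
  have qa : ∫⁻ x in S, v (Sys.chi h (N₁+1) (N₂+1) x) ≤
      kC (X.C k).M τ * ∫⁻ x in L, v' x := by
    have e1 : S ⊆ (S ∩ (X.C k).U) ∪ ((X.C k).P \ (X.C k).U) := by
      intro x hx
      by_cases h1 : x ∈ (X.C k).U
      · exact Or.inl ⟨hx, h1⟩
      · exact Or.inr ⟨hx.1, h1⟩
    refine (lintegral_mono_set e1).trans ((lintegral_union_le _ _ _).trans ?_)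
    rw [setLIntegral_measure_zero _ _ (X.C k).null, add_zero]
    have h1 : ∫⁻ x in S ∩ (X.C k).U, v (Sys.chi h (N₁+1) (N₂+1) x) ≤
        ∫⁻ x in S ∩ (X.C k).U, v' ((X.C k).hh (N₂+1) (gC h k) x) := by
      have h2 : ∀ᵐ z ∂(volume.restrict (X.C k).U), v (Sys.chi h (N₁+1) (N₂+1) z) ≤
          v' ((X.C k).hh (N₂+1) (gC h k) z) := by
        rw [ae_restrict_iff' (X.C k).cht.opU.measurableSet]
        refine Eventually.of_forall fun z hz => le_of_eq ?_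
        show v (Sys.H h (N₁+1) (Sys.Y h (N₂+1) z)) = v (Sys.H h (N₁+1) _)
        rw [Y_eq h (N₂+1) hz]
      exact lintegral_mono_ae (ae_mono (Measure.restrict_mono inter_subset_right le_rfl) h2)
    refine h1.trans ?_
    refine cell_c' (N := N₂) (gC h k) (S := S ∩ (X.C k).U) (T := T) ?_ mT0 ?_ mv'
    · rintro x ⟨hx, hxU⟩
      exact hE.shC hxU hx.2
    · rintro x ⟨hx, hxU⟩
      rw [← Y_eq h (N₂+1) hxU]
      exact ⟨(hE.Y h hxU hx.2).1, (hE.Y h hxU hx.2).2.2⟩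
  -- the faces
  set Ij : ι → ℝ≥0∞ := fun j =>
    ∫⁻ x in (X.C k).P ∩ (X.F j).V ∩ nb t (X.F j).rim ∩ Nb, v x with hIj
  set J : ℝ≥0∞ := ∫⁻ x in (X.C k).P ∩ nb t ((X.C k).P \ (X.C k).U) ∩
    (nb t X.Z ∪ ⋃ j, nb t (X.F j).rim) ∩ Nb, v x with hJ
  have qc : ∀ j, ∫⁻ x in L ∩ (X.F j).V, v' x ≤
      ENNReal.ofReal (U2 p (X.m k)) * (ENNReal.ofReal ((X.F j).ρ / δ) * Ij j) := by
    intro j
    by_cases hne : ((X.F j).V ∩ (X.C k).P).Nonempty
    · have h1 : ∫⁻ x in L ∩ (X.F j).V, v' x ≤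
          ∫⁻ x in L ∩ (X.F j).V, v ((X.F j).hh (N₁+1) (gF h j) x) := by
        have h2 : ∀ᵐ z ∂(volume.restrict (X.F j).V), v' z ≤
            v ((X.F j).hh (N₁+1) (gF h j) z) := by
          rw [ae_restrict_iff' (X.F j).cht.opU.measurableSet]
          refine Eventually.of_forall fun z hz => le_of_eq ?_
          show v (Sys.H h (N₁+1) z) = _
          rw [H_eq h (N₁+1) hz]
        exact lintegral_mono_ae (ae_mono (Measure.restrict_mono inter_subset_right le_rfl) h2)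
      refine h1.trans ?_
      have mT : MeasurableSet ((X.C k).P ∩ (X.F j).V ∩ nb t (X.F j).rim ∩ Nb) :=
        (((X.C k).cht.clK.measurableSet.inter (X.F j).cht.opU.measurableSet).inter
          (isClosed_nb (isCompact_rim _).isClosed).measurableSet).inter
          (isClosed_nb hE.cl).measurableSet
      have key := face_c' (N := N₁) (gF h j) (S := L ∩ (X.F j).V) (v := v) (by
          rintro z ⟨hz, hzV⟩
          exact (hE.H (N₁ := N₁) h hz.1.1 hzV hz.2.2 hz.2.1).1) mT (by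
          rintro z ⟨hz, hzV⟩
          exact (hE.H (N₁ := N₁) h hz.1.1 hzV hz.2.2 hz.2.1).2) hv
      refine key.trans ?_
      rw [← mul_assoc]
      exact mul_le_mul' (kF_le h (X.mF k j hne)) (lintegral_mono_set inter_subset_right)
    · have e1 : L ∩ (X.F j).V = ∅ := by
        rw [← not_nonempty_iff_eq_empty]
        rintro ⟨x, hx1, hx2⟩
        exact hne ⟨x, hx2, hx1.1.1⟩
      rw [e1, Measure.restrict_empty, lintegral_zero_measure]
      exact zero_le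
  have qd : ∫⁻ x in L \ ⋃ j, (X.F j).V, v' x ≤ J := by
    have mW : MeasurableSet ((⋃ j, (X.F j).V)ᶜ) :=
      (isOpen_iUnion fun j => (X.F j).cht.opU).measurableSet.compl
    have h1 : ∀ᵐ z ∂(volume.restrict ((⋃ j, (X.F j).V)ᶜ)), v' z ≤ v z := by
      rw [ae_restrict_iff' mW]
      refine Eventually.of_forall fun z hz => le_of_eq ?_
      show v (Sys.H h (N₁+1) z) = v z
      rw [H_out h (N₁+1) fun j hj3 => hz (mem_iUnion.2 ⟨j, hj3⟩)]
    have h2 : L \ (⋃ j, (X.F j).V) ⊆ (⋃ j, (X.F j).V)ᶜ := fun x hx => hx.2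
    refine (lintegral_mono_ae (ae_mono (Measure.restrict_mono h2 le_rfl) h1)).trans
      (lintegral_mono_set ?_)
    rintro z ⟨hz, hzV⟩
    exact hE.Z h hz.1.1 (fun j hj => hzV (mem_iUnion.2 ⟨j, hj⟩)) hz.2.2 hz.2.1
  have t2' := U2_nonneg p (X.m k)
  have qe : ∫⁻ x in L, v' x ≤ ENNReal.ofReal (1 + U2 p (X.m k)) *
      ((∑ j, ENNReal.ofReal ((X.F j).ρ / δ) * Ij j) + J) := by
    have e1 : L ⊆ (L \ ⋃ j, (X.F j).V) ∪ ⋃ j, (L ∩ (X.F j).V) := by
      intro x hx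
      by_cases h1 : x ∈ ⋃ j, (X.F j).V
      · obtain ⟨j, hj3⟩ := mem_iUnion.1 h1
        exact Or.inr (mem_iUnion.2 ⟨j, hx, hj3⟩)
      · exact Or.inl ⟨hx, h1⟩
    have e2 : ∫⁻ x in ⋃ j, (L ∩ (X.F j).V), v' x ≤ ∑ j, ∫⁻ x in L ∩ (X.F j).V, v' x := by
      refine (lintegral_iUnion_le _ _).trans ?_
      rw [tsum_fintype]
    have t1 : (1:ℝ) ≤ 1 + U2 p (X.m k) := by linarith
    have t2 : (1:ℝ≥0∞) ≤ ENNReal.ofReal (1 + U2 p (X.m k)) := by
      rw [← ENNReal.ofReal_one]; exact ENNReal.ofReal_le_ofReal t1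
    have t3 : ENNReal.ofReal (U2 p (X.m k)) ≤ ENNReal.ofReal (1 + U2 p (X.m k)) :=
      ENNReal.ofReal_le_ofReal (by linarith)
    calc ∫⁻ x in L, v' x ≤ J + ∑ j, (ENNReal.ofReal (U2 p (X.m k)) *
          (ENNReal.ofReal ((X.F j).ρ / δ) * Ij j)) :=
          (lintegral_mono_set e1).trans ((lintegral_union_le _ _ _).trans
            (add_le_add qd (e2.trans (Finset.sum_le_sum fun j _ => qc j))))
      _ = J + ENNReal.ofReal (U2 p (X.m k)) *
          (∑ j, ENNReal.ofReal ((X.F j).ρ / δ) * Ij j) := by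
          rw [← Finset.mul_sum]
      _ ≤ ENNReal.ofReal (1 + U2 p (X.m k)) * J + ENNReal.ofReal (1 + U2 p (X.m k)) *
          (∑ j, ENNReal.ofReal ((X.F j).ρ / δ) * Ij j) := by
          refine add_le_add ?_ (mul_le_mul' t3 le_rfl)
          calc J = 1 * J := (one_mul _).symm
            _ ≤ _ := mul_le_mul' t2 le_rfl
      _ = _ := by ring
  have hCC : ENNReal.ofReal (CS p (X.m k)) = ENNReal.ofReal (U3 p (X.m k)) *
      ENNReal.ofReal (1 + U2 p (X.m k)) := by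
    rw [CS, ENNReal.ofReal_mul (U3_nonneg h.p3 _)]
  calc ∫⁻ x in S, v (Sys.chi h (N₁+1) (N₂+1) x) ≤ kC (X.C k).M τ * ∫⁻ x in L, v' x := qa
    _ ≤ (ENNReal.ofReal (U3 p (X.m k)) * ENNReal.ofReal ((X.C k).R / δ)) *
        (ENNReal.ofReal (1 + U2 p (X.m k)) *
          ((∑ j, ENNReal.ofReal ((X.F j).ρ / δ) * Ij j) + J)) :=
        mul_le_mul' (kC_le h k) qe
    _ = _ := by
        rw [hCC, SB]
        ring

end sys

end Crest.Agent.R096.Str_968
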