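import Crest.Agent.R096.Str3_696

/-!
Row 96 (S0127), helper696.  (S4): fold points of injective maps, orientation.
-/

set_option autoImplicit false
set_option linter.unusedSectionVars false
set_option linter.style.longLine false

namespace Crest.Agent.R096.Str_696

open Set Filter Topology Metric Module MeasureTheory
open scoped Classical

variable {E F : Type*} [NormedAddCommGroup E] [NormedSpace ℝ E]
  [NormedAddCommGroup F] [NormedSpace ℝ F]

lemma exists_pos {f : E →L[ℝ] ℝ} (hf : f ≠ 0) : ∃ u, f u = 1 := by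
  obtain ⟨u, hu⟩ : ∃ u, f u ≠ 0 := by
    by_contra hcon
    push Not at hcon
    exact hf (ContinuousLinearMap.ext hcon)
  exact ⟨(f u)⁻¹ • u, by rw [map_smul, smul_eq_mul, inv_mul_cancel₀ hu]⟩

/-- small multiples. -/
lemma eventually_ray {P : E → Prop} {p : E} (h : ∀ᶠ y in 𝓝 p, P y) (v : E) :
    ∀ᶠ s : ℝ in 𝓝[>] 0, P (p + s • v) := by
  have h1 : Tendsto (fun s : ℝ => p + s • v) (𝓝[>] 0) (𝓝 p) := by
    have : Continuous fun s : ℝ => p + s • v :=
      continuous_const.add (continuous_id.smul continuous_const)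
    have h2 := this.tendsto 0
    simp only [zero_smul, add_zero] at h2
    exact h2.mono_left nhdsWithin_le_nhds
  exact h1.eventually h

lemma TwoAt.agree {h : E → F} {p : E} {f : E →L[ℝ] ℝ} {A B : E →L[ℝ] F} (hT : TwoAt h p f A B)
    {k : E} (hk : f k = 0) : A k = B k := by
  obtain ⟨s, hs, hs0⟩ := ((eventually_ray hT k).and self_mem_nhdsWithin).exists
  have hs0' : (0 : ℝ) < s := hs0
  simp only [add_sub_cancel_left, map_smul, hk, smul_zero, le_refl, forall_const] at hs
  have h1 := hs.1.symm.trans hs.2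
  have h2 : s • A k = s • B k := by simpa using h1
  exact smul_right_injective F hs0'.ne' h2

lemma TwoAt.rank_one {h : E → F} {p : E} {f : E →L[ℝ] ℝ} (hf : f ≠ 0) {A B : E →L[ℝ] F}
    (hT : TwoAt h p f A B) : ∃ w : F, ∀ y, B y = A y + f y • w := by
  obtain ⟨u, hu⟩ := exists_pos hf
  refine ⟨B u - A u, fun y => ?_⟩
  have h1 : A (y - f y • u) = B (y - f y • u) := hT.agree (by
    rw [map_sub, map_smul, hu, smul_eq_mul, mul_one, sub_self])
  rw [map_sub, map_sub, map_smul, map_smul] at h1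
  rw [smul_sub]
  have h2 : B y = A y - f y • A u + f y • B u := by rw [h1]; abel
  rw [h2]; abel

lemma TwoAt.affAt {h : E → F} {p : E} {f : E →L[ℝ] ℝ} {A B : E →L[ℝ] F}
    (hT : TwoAt h p f A B) :
    ∀ᶠ y in 𝓝 p, (0 < f (y - p) → AffAt h y A) ∧ (f (y - p) < 0 → AffAt h y B) := by
  have h1 := hT.eventually_nhds
  filter_upwards [h1] with y hy
  have hyy := hy.self_of_nhds
  have hc : Continuous fun z : E => f (z - p) := f.continuous.comp (continuous_id.sub continuous_const)
  constructor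
  · intro h0
    have h2 : ∀ᶠ z in 𝓝 y, 0 < f (z - p) := hc.continuousAt.eventually (lt_mem_nhds h0)
    unfold AffAt
    filter_upwards [hy, h2] with z hz hz2
    rw [hz.1 hz2.le, hyy.1 h0.le]
    have : A (z - p) = A (y - p) + A (z - y) := by rw [← map_add]; congr 1; abel
    rw [this]; abel
  · intro h0
    have h2 : ∀ᶠ z in 𝓝 y, f (z - p) < 0 := hc.continuousAt.eventually (gt_mem_nhds h0)
    unfold AffAt
    filter_upwards [hy, h2] with z hz hz2
    rw [hz.2 hz2.le, hyy.2 h0.le]
    have : B (z - p) = B (y - p) + B (z - y) := by rw [← map_add]; congr 1; abel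
    rw [this]; abel

/-- the derivative at an affine point near a fold point is one of the two. -/
lemma TwoAt.mem_pair {h : E → F} {p : E} {f : E →L[ℝ] ℝ} (hf : f ≠ 0) {A B : E →L[ℝ] F}
    (hT : TwoAt h p f A B) : ∀ᶠ y in 𝓝 p, ∀ A', AffAt h y A' → A' = A ∨ A' = B := by
  obtain ⟨u, hu⟩ := exists_pos hf
  filter_upwards [hT.affAt.eventually_nhds] with y hy A' hA'
  rcases lt_trichotomy (f (y - p)) 0 with h0 | h0 | h0
  · exact Or.inr (hA'.unique (hy.self_of_nhds.2 h0))
  · left
    -- move a little to the positive side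
    obtain ⟨s, ⟨hs, hs'⟩, hs0⟩ := (((eventually_ray hy u).and
      (eventually_ray hA'.eventually u)).and self_mem_nhdsWithin).exists
    have hs0' : (0 : ℝ) < s := hs0
    have h1 : 0 < f (y + s • u - p) := by
      have : y + s • u - p = (y - p) + s • u := by abel
      rw [this, map_add, h0, map_smul, hu]
      simpa using hs0'
    exact hs'.unique (hs.1 h1)
  · exact Or.inl (hA'.unique (hy.self_of_nhds.1 h0))

section endo

variable [FiniteDimensional ℝ E]

lemma AffAt.det_ne {h : E → E} {p : E} {A : E →L[ℝ] E} (hA : AffAt h p A) {U : Set E}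
    (hU : U ∈ 𝓝 p) (hi : InjOn h U) : A.det ≠ 0 := by
  intro h0
  have h1 : LinearMap.det (A : E →ₗ[ℝ] E) = 0 := h0
  have h2 := LinearMap.bot_lt_ker_of_det_eq_zero h1
  obtain ⟨k, hk, hk0⟩ := Submodule.exists_mem_ne_zero_of_ne_bot h2.ne'
  have hk' : A k = 0 := by simpa using hk
  have hU' : ∀ᶠ y in 𝓝 p, y ∈ U := hU
  obtain ⟨s, ⟨hs, hs'⟩, hs0⟩ := (((eventually_ray hA k).and
      (eventually_ray hU' k)).and self_mem_nhdsWithin).exists
  have hs0' : (0 : ℝ) < s := hs0
  rw [add_sub_cancel_left, map_smul, hk', smul_zero, add_zero] at hs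
  have h3 := hi hs' (mem_of_mem_nhds hU) hs
  have h4 : s • k = 0 := by simpa using h3
  rcases smul_eq_zero.1 h4 with h5 | h5
  · exact hs0'.ne' h5
  · exact hk0 h5

lemma det_comp_transvection (A : E →L[ℝ] E) (f : E →L[ℝ] ℝ) (a : E) (B : E →L[ℝ] E)
    (hB : ∀ y, B y = A (y + f y • a)) : B.det = A.det * (1 + f a) := by
  have h1 : (B : E →ₗ[ℝ] E) =
      (A : E →ₗ[ℝ] E) ∘ₗ (LinearMap.transvection (f : E →ₗ[ℝ] ℝ) a) := by
    ext y
    exact hB y
  show LinearMap.det (B : E →ₗ[ℝ] E) = LinearMap.det (A : E →ₗ[ℝ] E) * (1 + f a)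
  rw [h1, LinearMap.det_comp, LinearMap.transvection.det]
  rfl

/-- **Fold points of injective maps: same orientation, and the whole segment is invertible.** -/
lemma TwoAt.det {h : E → E} {p : E} {f : E →L[ℝ] ℝ} (hf : f ≠ 0) {A B : E →L[ℝ] E}
    (hT : TwoAt h p f A B) {U : Set E} (hU : U ∈ 𝓝 p) (hi : InjOn h U) :
    A.det ≠ 0 ∧ ∃ lam : ℝ, 0 < lam ∧ ∀ t : ℝ, ((1 - t) • A + t • B).det =
      A.det * (1 + t * (lam - 1)) := by
  obtain ⟨u, hu⟩ := exists_pos hf
  have hU' : ∀ᶠ y in 𝓝 p, y ∈ U := hU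
  -- `det A ≠ 0`
  have hAdet : A.det ≠ 0 := by
    obtain ⟨s, ⟨hs, hs'⟩, hs0⟩ := (((eventually_ray hT.affAt u).and
      (eventually_ray hU'.eventually_nhds u)).and self_mem_nhdsWithin).exists
    have hs0' : (0 : ℝ) < s := hs0
    refine (hs.1 ?_).det_ne hs' hi
    rw [add_sub_cancel_left, map_smul, hu]
    simpa using hs0'
  have hBdet : B.det ≠ 0 := by
    obtain ⟨s, ⟨hs, hs'⟩, hs0⟩ := (((eventually_ray hT.affAt (-u)).and
      (eventually_ray hU'.eventually_nhds (-u))).and self_mem_nhdsWithin).exists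
    have hs0' : (0 : ℝ) < s := hs0
    refine (hs.2 ?_).det_ne hs' hi
    rw [add_sub_cancel_left, map_smul, map_neg, hu]
    simpa using hs0'
  obtain ⟨w, hw⟩ := hT.rank_one hf
  -- `w = A a`
  obtain ⟨a, ha⟩ : ∃ a, A a = w := by
    have hsurj : Function.Surjective (A : E →ₗ[ℝ] E) := by
      have h1 : IsUnit (LinearMap.det (A : E →ₗ[ℝ] E)) := isUnit_iff_ne_zero.2 hAdet
      have h2 : IsUnit (A : E →ₗ[ℝ] E) := (LinearMap.isUnit_iff_isUnit_det _).2 h1
      exact ((Module.End.isUnit_iff _).1 h2).2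
    exact hsurj w
  have hB : ∀ y, B y = A (y + f y • a) := by
    intro y; rw [hw, map_add, map_smul, ha]
  have hdetB := det_comp_transvection A f a B hB
  refine ⟨hAdet, 1 + f a, ?_, ?_⟩
  · by_contra hneg
    push Not at hneg
    have hlt : 1 + f a < 0 := by
      refine lt_of_le_of_ne hneg fun h0 => hBdet ?_
      rw [hdetB, h0, mul_zero]
    -- two points with the same image
    obtain ⟨s, ⟨⟨hs1, hs2⟩, ⟨hs3, hs4⟩⟩, hs0⟩ := ((((eventually_ray hT (-u)).and
      (eventually_ray hT (-(u + a)))).and ((eventually_ray hU' (-u)).and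
        (eventually_ray hU' (-(u + a))))).and self_mem_nhdsWithin).exists
    have hs0' : (0 : ℝ) < s := hs0
    rw [add_sub_cancel_left] at hs1 hs2
    have e1 : f (s • -u) = -s := by rw [map_smul, map_neg, hu]; simp
    have e2 : f (s • -(u + a)) = -s * (1 + f a) := by
      rw [map_smul, map_neg, map_add, hu, smul_eq_mul]; ring
    have g1 := hs1.2 (by rw [e1]; linarith)
    have g2 := hs2.1 (by rw [e2]; nlinarith)
    have g3 : h (p + s • -u) = h (p + s • -(u + a)) := by
      rw [g1, g2, hB, e1]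
      congr 2
      simp only [smul_neg, smul_add, neg_smul]
      abel
    have g4 := hi hs3 hs4 g3
    have g5 : f (s • -u) = f (s • -(u + a)) := by
      have : s • -u = s • -(u + a) := by simpa using g4
      rw [this]
    rw [e1, e2] at g5
    nlinarith
  · intro t
    have h3 := det_comp_transvection A f (t • a) ((1 - t) • A + t • B) (by
      intro y
      simp only [add_apply, FunLike.coe_smul, Pi.smul_apply, hB, map_add, map_smul, smul_add,
        sub_smul, one_smul, sub_apply]
      rw [smul_comm t (f y)]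
      abel)
    rw [h3, map_smul, smul_eq_mul]
    ring

end endo

end Crest.Agent.R096.Str_696
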