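import Crest.Agent.R096.Str3_968

/-!
Row 96 (S0127), helper968, leaf STRIP, part 4: the forms for densities, for the two composition
steps (`Stp`) and for the energies of Sobolev homeomorphisms.
-/

set_option autoImplicit false
set_option linter.unusedSectionVars false

open Set Metric Filter Topology MeasureTheory

namespace Crest.Agent.R096.Str_968

open Crest.Agent.R096.Ce_537 Crest.Agent.R096.Bd_416 Crest.Agent.R96.Hole_348
open Crest.AnalysisR.VecCalc3 Crest.AnalysisR.Sobolev Crest.Agent.R096.Sk_962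
open Crest.Agent.R096.Sq_55 Crest.Agent.R096.Sqt_143
open scoped ENNReal NNReal

section sys

variable {κ ι : Type*} [Fintype κ] [Fintype ι] {X : Sys κ ι} {p δ : ℝ}

open Sys

variable {k : κ} {E₀ : Set E3} {r σ : ℝ} {N₁ N₂ : ℕ}

lemma measurableSet_strip (hE : Edg X k E₀ r σ) : MeasurableSet ((X.C k).P ∩ nb r E₀) :=
  (X.C k).cht.clK.measurableSet.inter (isClosed_nb hE.cl).measurableSet

/-- **the constant** `(528 m⁴)^p · CS p m` -/
noncomputable def CT (p : ℝ) (m : ℝ≥0) : ℝ := (528 * (m:ℝ)^4)^p * CS p m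

lemma CS_nonneg {p : ℝ} (hp : p < 3) (m : ℝ≥0) : 0 ≤ CS p m := by
  have h1 := U3_nonneg hp m
  have h2 := U2_nonneg p m
  unfold CS; positivity

/-- the strip, for arbitrary pointwise bounds -/
theorem strip_ae (hE : Edg X k E₀ r σ) (h : X.Adm p δ) (N₁ N₂ : ℕ) {s : ℝ≥0∞} (hs : s ≠ ∞)
    {v w : E3 → ℝ≥0∞} (hv : Measurable v)
    (hw : ∀ᵐ x, x ∈ (X.C k).P ∩ nb r E₀ → LLV (16 * (X.m k : ℝ)^2) (Sys.Y h (N₂+1)) x →
      LLV (33 * (X.m k : ℝ)^2) (Sys.H h (N₁+1)) (Sys.Y h (N₂+1) x) →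
      w x ≤ s * v (Sys.chi h (N₁+1) (N₂+1) x)) :
    ∫⁻ x in (X.C k).P ∩ nb r E₀, w x ≤
      s * (ENNReal.ofReal (CS p (X.m k)) * SB X δ (tT X k δ σ) k (nb (15 * (X.m k : ℝ)^4 * r) E₀) v) := by
  have h1 : ∀ᵐ x ∂(volume.restrict ((X.C k).P ∩ nb r E₀)),
      w x ≤ s * v (Sys.chi h (N₁+1) (N₂+1) x) := by
    rw [ae_restrict_iff' (measurableSet_strip hE)]
    filter_upwards [hw, strip_lip hE h N₁ N₂] with x h1 h2 hx
    exact h1 hx (h2 hx).1 (h2 hx).2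
  refine (lintegral_mono_ae h1).trans ?_
  rw [lintegral_const_mul' _ _ hs]
  exact mul_le_mul' le_rfl (strip_int hE h N₁ N₂ hv)

/-- **the strip, for densities** (as in helper622's `sobsq_vw`) -/
theorem strip_vw (hE : Edg X k E₀ r σ) (h : X.Adm p δ) (N₁ N₂ : ℕ) {v w : E3 → ℝ≥0∞}
    (hv : Measurable v)
    (hw : ∀ᵐ x, x ∈ (X.C k).P → ∀ c, 1 ≤ c → LLV c (Sys.chi h (N₁+1) (N₂+1)) x →
      w x ≤ ENNReal.ofReal (c^p) * v (Sys.chi h (N₁+1) (N₂+1) x)) :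
    ∫⁻ x in (X.C k).P ∩ nb r E₀, w x ≤
      ENNReal.ofReal (CT p (X.m k)) * SB X δ (tT X k δ σ) k (nb (15 * (X.m k : ℝ)^4 * r) E₀) v := by
  have hm1 := m_one (X := X) k
  have hm2 : (1:ℝ) ≤ (X.m k : ℝ)^4 := one_le_pow₀ hm1
  have key := strip_ae hE h N₁ N₂ (s := ENNReal.ofReal ((528 * (X.m k:ℝ)^4)^p))
    ENNReal.ofReal_ne_top (w := w) hv (by
      filter_upwards [hw] with x hx hxS h1 h2
      refine hx hxS.1 _ (by linarith) ?_
      have h3 : Tendsto (Sys.Y h (N₂+1)) (𝓝 x) (𝓝 (Sys.Y h (N₂+1) x)) :=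
        (Sys.Y h (N₂+1)).continuous.continuousAt
      filter_upwards [h3.eventually h2, h1] with y hy1 hy2
      show ‖Sys.H h (N₁+1) (Sys.Y h (N₂+1) y) - Sys.H h (N₁+1) (Sys.Y h (N₂+1) x)‖ ≤ _
      calc _ ≤ 33 * (X.m k : ℝ)^2 * ‖Sys.Y h (N₂+1) y - Sys.Y h (N₂+1) x‖ := hy1
        _ ≤ 33 * (X.m k : ℝ)^2 * (16 * (X.m k : ℝ)^2 * ‖y - x‖) :=
            mul_le_mul_of_nonneg_left hy2 (by positivity)
        _ = _ := by ring)
  refine key.trans (le_of_eq ?_)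
  rw [CT, ENNReal.ofReal_mul (by positivity)]
  ring

/-- **the strip, for the two composition steps** -/
theorem strip_stp (hE : Edg X k E₀ r σ) (h : X.Adm p δ) (N₁ N₂ : ℕ) {O : Set E3}
    (hC : (X.C k).P ⊆ O) {s : ℝ≥0∞} (hs : s ≠ ∞) {u u₁ u₂ : E3 → ℝ≥0∞} (mu : Measurable u)
    (s₁ : Stp s p O (Sys.H h (N₁+1)) u u₁) (s₂ : Stp s p O (Sys.Y h (N₂+1)) u₁ u₂) :
    ∫⁻ x in (X.C k).P ∩ nb r E₀, u₂ x ≤
      s * s * (ENNReal.ofReal (CT p (X.m k)) *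
        SB X δ (tT X k δ σ) k (nb (15 * (X.m k : ℝ)^4 * r) E₀) u) := by
  have hm1 := m_one (X := X) k
  have hm2 : (1:ℝ) ≤ (X.m k : ℝ)^2 := one_le_pow₀ hm1
  set c1 : ℝ := 16 * (X.m k:ℝ)^2 with hc1
  set c2 : ℝ := 33 * (X.m k:ℝ)^2 with hc2
  have e : (528 * (X.m k:ℝ)^4)^p = c1^p * c2^p := by
    rw [← Real.mul_rpow (by positivity) (by positivity)]
    congr 1
    rw [hc1, hc2]; ring
  have s₁' := null_pre (Sys.plOn_Y_symm h (N₂+1)) s₁
  have key := strip_ae hE h N₁ N₂ (s := s * s * ENNReal.ofReal ((528 * (X.m k:ℝ)^4)^p))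
    (ENNReal.mul_ne_top (ENNReal.mul_ne_top hs hs) ENNReal.ofReal_ne_top) (w := u₂) mu (by
      filter_upwards [s₂, s₁'] with x hx2 hx1 hxS h1 h2
      have a2 := hx2 (hC hxS.1) c1 (by rw [hc1]; linarith) h1
      have a1 := hx1 (hC ((Y_P h (N₂+1) k x).2 hxS.1)) c2 (by rw [hc2]; linarith) h2
      calc u₂ x ≤ s * (ENNReal.ofReal (c1^p) * u₁ (Sys.Y h (N₂+1) x)) := a2
        _ ≤ s * (ENNReal.ofReal (c1^p) * (s * (ENNReal.ofReal (c2^p) *
              u (Sys.H h (N₁+1) (Sys.Y h (N₂+1) x))))) :=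
            mul_le_mul' le_rfl (mul_le_mul' le_rfl a1)
        _ = s * s * ENNReal.ofReal ((528 * (X.m k:ℝ)^4)^p) *
              u (Sys.chi h (N₁+1) (N₂+1) x) := by
            rw [e, ENNReal.ofReal_mul (by positivity), Sys.chi_apply]
            ring)
  refine key.trans (le_of_eq ?_)
  rw [CT, ENNReal.ofReal_mul (by positivity)]
  ring

lemma SB_congr {Om : Set R3} {G : Fin 3 → R3 → R3} {u : E3 → ℝ≥0∞} (hOm : IsOpen Om)
    (hu : IsEn p Om G u) (hC : (X.C k).P ⊆ w2 ⁻¹' Om) (t : ℝ) (N : Set E3) :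
    SB X δ t k N u = SB X δ t k N (fun x => En p G (w2 x)) := by
  have i1 : ∀ j, ∫⁻ x in (X.C k).P ∩ (X.F j).V ∩ nb t (X.F j).rim ∩ N, u x =
      ∫⁻ x in (X.C k).P ∩ (X.F j).V ∩ nb t (X.F j).rim ∩ N, En p G (w2 x) :=
    fun j => hu.setInt hOm fun z hz => hC hz.1.1.1
  have i2 : ∫⁻ x in (X.C k).P ∩ nb t ((X.C k).P \ (X.C k).U) ∩
      (nb t X.Z ∪ ⋃ j, nb t (X.F j).rim) ∩ N, u x =
      ∫⁻ x in (X.C k).P ∩ nb t ((X.C k).P \ (X.C k).U) ∩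
      (nb t X.Z ∪ ⋃ j, nb t (X.F j).rim) ∩ N, En p G (w2 x) :=
    hu.setInt hOm fun z hz => hC hz.1.1.1
  rw [SB, SB, i2]
  simp only [i1]

/-- **(STRIP) for Sobolev homeomorphisms**: the hypotheses are the conclusions of 55's
`Sys.sobsq`; every `p < 3`, every `N₁, N₂ ≥ 1`, no error term; cells with squeezed faces are
allowed. -/
theorem strip_SH (hE : Edg X k E₀ r σ) (h : X.Adm p δ) (N₁ N₂ : ℕ) {Om : Set R3}
    {G G₂ : Fin 3 → R3 → R3} (hOm : IsOpen Om) (hC : (X.C k).P ⊆ w2 ⁻¹' Om)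
    {u u₁ u₂ : E3 → ℝ≥0∞} (hu : IsEn p Om G u) (hu₂ : IsEn p Om G₂ u₂)
    (s₁ : Stp (s6 p) p (w2 ⁻¹' Om) (Sys.H h (N₁+1)) u u₁)
    (s₂ : Stp (s6 p) p (w2 ⁻¹' Om) (Sys.Y h (N₂+1)) u₁ u₂) :
    ∫⁻ x in (X.C k).P ∩ nb r E₀, En p G₂ (w2 x) ≤
      s6 p * s6 p * (ENNReal.ofReal (CT p (X.m k)) *
        SB X δ (tT X k δ σ) k (nb (15 * (X.m k : ℝ)^4 * r) E₀) (fun x => En p G (w2 x))) := by
  rw [← hu₂.setInt hOm (fun z hz => hC hz.1), ← SB_congr hOm hu hC]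
  exact strip_stp hE h N₁ N₂ hC (s6_top p) hu.meas s₁ s₂

/-- the sum over the faces vanishes in a cell without squeezed faces -/
lemma SB_pure (hk : ∀ j, ¬ ((X.F j).V ∩ (X.C k).P).Nonempty) (t : ℝ) (N : Set E3)
    (v : E3 → ℝ≥0∞) :
    SB X δ t k N v = ENNReal.ofReal ((X.C k).R / δ) *
      ∫⁻ x in (X.C k).P ∩ nb t ((X.C k).P \ (X.C k).U) ∩
        (nb t X.Z ∪ ⋃ j, nb t (X.F j).rim) ∩ N, v x := by
  have e1 : ∀ j, (X.C k).P ∩ (X.F j).V ∩ nb t (X.F j).rim ∩ N = ∅ := by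
    intro j
    rw [← not_nonempty_iff_eq_empty]
    rintro ⟨x, hx⟩
    exact hk j ⟨x, hx.1.1.2, hx.1.1.1⟩
  rw [SB]
  simp only [e1, Measure.restrict_empty, lintegral_zero_measure, mul_zero,
    Finset.sum_const_zero, zero_add]

/-- monotonicity -/
lemma SB_mono {t t' : ℝ} (ht : t ≤ t') {N N' : Set E3} (hN : N ⊆ N') {v : E3 → ℝ≥0∞} :
    SB X δ t k N v ≤ SB X δ t' k N' v := by
  refine mul_le_mul' le_rfl (add_le_add (Finset.sum_le_sum fun j _ => mul_le_mul' le_rfl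
    (lintegral_mono_set (inter_subset_inter (inter_subset_inter_right _
      (nb_mono ht subset_rfl)) hN)))
    (lintegral_mono_set (inter_subset_inter (inter_subset_inter (inter_subset_inter_right _
      (nb_mono ht subset_rfl)) (union_subset_union (nb_mono ht subset_rfl)
        (iUnion_mono fun j => nb_mono ht subset_rfl))) hN)))

end sys

end Crest.Agent.R096.Str_968
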