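import Crest.Agent.R096.Str5_968
import Crest.Agent.R096.Sqt10_143
import Crest.Agent.R096.Cob5_622

/-!
Row 96 (S0127), helper968, leaf TUBE-LIM: the limit `δ → 0` of helper143's bound `tb`, and
helper622's `cob_energy` with a finite list of tubes.
-/

set_option autoImplicit false
set_option linter.unusedSectionVars false

open Set Metric Filter Topology MeasureTheory

namespace Crest.Agent.R096.Str_968

open Crest.Agent.R096.Ce_537 Crest.Agent.R096.Bd_416 Crest.Agent.R96.Hole_348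
open Crest.AnalysisR.VecCalc3 Crest.AnalysisR.Sobolev Crest.Agent.R096.Sk_962
open Crest.Agent.R096.Sq_55 Crest.Agent.R096.Cob_622
open Crest.Agent.R096.Sqt_143 (tb Tb)
open scoped ENNReal NNReal

section tube

variable {κ ι : Type*} [Fintype κ] [Fintype ι] {X : Sys κ ι} {p δ : ℝ}

/-- the neighbourhood seen by the tube -/
def Nt (X : Sys κ ι) (k : κ) (E : Set E3) (u : ℝ) : Set E3 :=
  cthickening (25 * (X.m k : ℝ)^4 * u) E

/-- the relative thickness of the layers seen by the tube -/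
noncomputable def ct (X : Sys κ ι) (k : κ) (u : ℝ) : ℝ := 11 * (X.m k : ℝ)^4 * u / (X.C k).R

lemma ct_pos {k : κ} {u : ℝ} (hu : 0 < u) : 0 < ct X k u := by
  have hm1 := Sys.m_one (X := X) k
  have hR := (X.C k).R_pos
  unfold ct
  have : (0:ℝ) < (X.C k).R := hR
  positivity

lemma tb_eq_SBc (δ : ℝ) (k : κ) (E : Set E3) (u : ℝ) (g : E3 → ℝ≥0∞) :
    tb X δ k E u g = SBc X δ (ct X k u * δ) k (Nt X k E u) g := by
  have e : ct X k u * δ = 11 * (X.m k : ℝ)^4 * (δ / (X.C k).R) * u := by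
    rw [ct]; ring
  rw [SBc, e]
  rfl

/-- **the limit of `tb`** -/
theorem tb_lim {α β : Type*} [Fintype α] [Fintype β] {Om : Set R3} {g : R3 → ℝ≥0∞}
    {N₁ : Set E3} (D : EFN X Om g N₁ α β) {k : κ} (hC : (X.C k).P ⊆ w2 ⁻¹' Om) {E : Set E3}
    {u : ℝ} (hu : 0 < u) {s₀ : ℝ} (hs₀ : 0 < s₀) (hN₁ : nb s₀ ((X.C k).P ∩ Nt X k E u) ⊆ N₁)
    {ε : ℝ≥0∞} (hε : ε ≠ 0) :
    ∀ᶠ δ in 𝓝[>] (0:ℝ), tb X δ k E u (fun x => g (w2 x)) ≤ D.J k (Nt X k E u) (ct X k u) + ε := by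
  filter_upwards [rhs_stripc D hC (N := Nt X k E u) isClosed_cthickening hs₀ hN₁
    (ct_pos (X := X) (k := k) hu) hε] with δ h
  rwa [tb_eq_SBc]

/-- the same, with data for the function cut off outside `B₀` -/
theorem tb_lim_ind {α β : Type*} [Fintype α] [Fintype β] {Om : Set R3} {g : R3 → ℝ≥0∞}
    {B₀ : Set R3} {N₁ : Set E3} (D : EFN X Om (B₀.indicator g) N₁ α β) {k : κ}
    (hC : (X.C k).P ⊆ w2 ⁻¹' Om) {E : Set E3}
    {u : ℝ} (hu : 0 < u) {s₀ : ℝ} (hs₀ : 0 < s₀) (hN₁ : nb s₀ ((X.C k).P ∩ Nt X k E u) ⊆ N₁)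
    (hB : (X.C k).P ∩ Nt X k E u ⊆ w2 ⁻¹' B₀)
    {ε : ℝ≥0∞} (hε : ε ≠ 0) :
    ∀ᶠ δ in 𝓝[>] (0:ℝ), tb X δ k E u (fun x => g (w2 x)) ≤ D.J k (Nt X k E u) (ct X k u) + ε := by
  have mP : MeasurableSet (X.C k).P := (X.C k).cht.clK.measurableSet
  have mN : MeasurableSet (Nt X k E u) := isClosed_cthickening.measurableSet
  have key : ∀ S : Set E3, S ⊆ (X.C k).P ∩ Nt X k E u →
      ∫⁻ x in S, g (w2 x) ≤ ∫⁻ x in S, B₀.indicator g (w2 x) := by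
    intro S hS
    have h1 : ∀ᵐ x ∂(volume.restrict S), g (w2 x) ≤ B₀.indicator g (w2 x) := by
      have h2 : ∀ᵐ x ∂(volume.restrict ((X.C k).P ∩ Nt X k E u)),
          g (w2 x) ≤ B₀.indicator g (w2 x) := by
        rw [ae_restrict_iff' (mP.inter mN)]
        refine Eventually.of_forall fun x hx => ?_
        rw [indicator_of_mem (show w2 x ∈ B₀ from hB hx)]
      exact ae_mono (Measure.restrict_mono hS le_rfl) h2
    exact lintegral_mono_ae h1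
  filter_upwards [tb_lim D hC hu hs₀ hN₁ hε] with δ h
  refine le_trans ?_ h
  rw [tb_eq_SBc, tb_eq_SBc]
  refine mul_le_mul' le_rfl (add_le_add (Finset.sum_le_sum fun j _ => mul_le_mul' le_rfl
    (key _ fun x hx => ⟨hx.1.1.1, hx.1.2⟩)) (key _ fun x hx => ⟨hx.1.1, hx.1.2⟩))

/-- the hypotheses of the tube, without the thickness -/
structure TbS (X : Sys κ ι) (k : κ) (E : Set E3) (u : ℝ) : Prop where
  sz : ∀ j, ((X.F j).V ∩ (X.C k).P).Nonempty → (X.C k).R ≤ X.m k * (X.F j).ρ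
  cpt : IsCompact E
  EU : ∀ y ∈ E, y ∉ (X.C k).U
  EV : ∀ y ∈ E, ∀ j, y ∉ (X.F j).V
  u0 : 0 < u
  uR : 40 * (X.m k : ℝ)^4 * u ≤ (X.C k).R

lemma ev_le {r : ℝ} (hr : 0 < r) : ∀ᶠ δ : ℝ in 𝓝[>] (0:ℝ), δ ≤ r :=
  ((eventually_lt_nhds hr).filter_mono nhdsWithin_le_nhds).mono fun _ h => h.le

lemma ev_d4 (X : Sys κ ι) : ∀ᶠ δ : ℝ in 𝓝[>] (0:ℝ), ∀ j, 4 * δ ≤ (X.F j).ρ := by
  refine eventually_all.2 fun j => ?_
  have : (0:ℝ) < (X.F j).ρ := (X.F j).ρ_pos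
  filter_upwards [ev_le (r := (X.F j).ρ / 4) (by positivity)] with δ hδ
  linarith

lemma TbS.tb {k : κ} {E : Set E3} {u : ℝ} (H : TbS X k E u) (hd : ∀ j, 4 * δ ≤ (X.F j).ρ) :
    Tb X δ k E u :=
  ⟨hd, H.sz, H.cpt, H.EU, H.EV, H.u0.le, H.uR⟩

/-- the layers of the tube are in the `δ`-layers -/
lemma layer_sub {k : κ} {E : Set E3} {u : ℝ} (H : TbS X k E u) (hδ : 0 < δ) (S : Set E3)
    (hS : IsClosed S) : cthickening (ct X k u * δ) S ⊆ nb δ S := by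
  have hR : (0:ℝ) < (X.C k).R := (X.C k).R_pos
  have h1 : ct X k u ≤ 1 := by
    rw [ct, div_le_one hR]
    have hm1 := Sys.m_one (X := X) k
    have := H.uR
    have hu := H.u0
    have : 0 ≤ (X.m k : ℝ)^4 * u := by positivity
    linarith
  rw [nb_eq hδ.le hS]
  refine cthickening_mono ?_ _
  calc ct X k u * δ ≤ 1 * δ := mul_le_mul_of_nonneg_right h1 hδ.le
    _ = δ := one_mul _

/-- **energies near the edges, limit `δ → 0`** (any exponent `q`) -/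
theorem tube_energy_lim {α β : Type*} [Fintype α] [Fintype β] {Om : Set R3} {g : R3 → ℝ≥0∞}
    {N₁ : Set E3} (D : EFN X Om g N₁ α β) {k : κ} (hC : (X.C k).P ⊆ w2 ⁻¹' Om)
    (hg : AEMeasurable (fun x => g (w2 x)) (volume.restrict (X.C k).P)) {E : Set E3}
    {u : ℝ} (H : TbS X k E u) {s₀ : ℝ} (hs₀ : 0 < s₀) (hN₁ : nb s₀ ((X.C k).P ∩ Nt X k E u) ⊆ N₁)
    (p q : ℝ) {ε : ℝ≥0∞} (hε : ε ≠ 0) :
    ∀ᶠ δ in 𝓝[>] (0:ℝ), ∀ (h : X.Adm p δ) (N₁ N₂ : ℕ) (w : E3 → ℝ≥0∞),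
      (∀ᵐ x, x ∈ (X.C k).P → ∀ c, 1 ≤ c → LLV c (Sys.chi h (N₁+1) (N₂+1)) x →
        w x ≤ ENNReal.ofReal (c^q) * g (w2 (Sys.chi h (N₁+1) (N₂+1) x))) →
      ∫⁻ x in (X.C k).P ∩ cthickening u E, w x ≤
        ENNReal.ofReal ((528 * (X.m k : ℝ)^4)^q) *
          (ENNReal.ofReal (Sqt_143.CT p (X.m k)) * (D.J k (Nt X k E u) (ct X k u) + ε)) := by
  filter_upwards [tb_lim D hC H.u0 hs₀ hN₁ hε, ev_d4 X] with δ h1 h2 h N₁ N₂ w hw
  exact (Sqt_143.tube_energy h N₁ N₂ (H.tb h2) hg hw).trans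
    (mul_le_mul' le_rfl (mul_le_mul' le_rfl h1))

/-- the weight of the tube -/
noncomputable def WtT (X : Sys κ ι) (δ : ℝ) (k : κ) : ℝ≥0∞ :=
  ENNReal.ofReal ((X.C k).R / δ) * ((∑ j, ENNReal.ofReal ((X.F j).ρ / δ)) + 1)

lemma WtT_ne_top (X : Sys κ ι) (δ : ℝ) (k : κ) : WtT X δ k ≠ ∞ := by
  refine ENNReal.mul_ne_top ENNReal.ofReal_ne_top
    (ENNReal.add_ne_top.2 ⟨?_, ENNReal.one_ne_top⟩)
  exact (ENNReal.sum_lt_top.2 fun j _ => ENNReal.ofReal_lt_top).ne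

/-- comparison of two densities on the layers of the tube -/
lemma tb_le {k : κ} {E : Set E3} {u : ℝ} {v w : E3 → ℝ≥0∞} {c e : ℝ≥0∞} (hZ : IsClosed X.Z)
    (H : TbS X k E u) (hδ : 0 < δ)
    (h1 : ∀ S, MeasurableSet S → S ⊆ (X.C k).P ∩ (nb δ X.Z ∪ ⋃ j, nb δ (X.F j).rim) →
      ∫⁻ x in S, v x ≤ c * (∫⁻ x in S, w x) + e) :
    tb X δ k E u v ≤ c * tb X δ k E u w + WtT X δ k * e := by
  have mP : MeasurableSet (X.C k).P := (X.C k).cht.clK.measurableSet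
  have mN : MeasurableSet (Nt X k E u) := isClosed_cthickening.measurableSet
  have hr : ∀ j, IsClosed (X.F j).rim := fun j => (isCompact_rim (X.F j)).isClosed
  rw [tb_eq_SBc, tb_eq_SBc]
  unfold SBc WtT
  set B := ENNReal.ofReal ((X.C k).R / δ)
  set t := ct X k u * δ with ht
  set I2 := ∫⁻ x in (X.C k).P ∩ Nt X k E u ∩ (cthickening t X.Z ∪ ⋃ j, cthickening t (X.F j).rim),
    w x with hI2
  have h3 : ∑ j, ENNReal.ofReal ((X.F j).ρ / δ) *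
      ∫⁻ x in (X.C k).P ∩ (X.F j).V ∩ Nt X k E u ∩ cthickening t (X.F j).rim, v x ≤
      c * (∑ j, ENNReal.ofReal ((X.F j).ρ / δ) *
        ∫⁻ x in (X.C k).P ∩ (X.F j).V ∩ Nt X k E u ∩ cthickening t (X.F j).rim, w x) +
        (∑ j, ENNReal.ofReal ((X.F j).ρ / δ)) * e := by
    rw [Finset.mul_sum, Finset.sum_mul, ← Finset.sum_add_distrib]
    refine Finset.sum_le_sum fun j _ => ?_
    refine (mul_le_mul' le_rfl (h1 _ ?_ ?_)).trans (le_of_eq ?_)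
    · exact ((mP.inter (X.F j).cht.opU.measurableSet).inter mN).inter
        isClosed_cthickening.measurableSet
    · rintro x ⟨⟨⟨hx1, -⟩, -⟩, hx3⟩
      exact ⟨hx1, Or.inr (mem_iUnion.2 ⟨j, layer_sub H hδ _ (hr j) hx3⟩)⟩
    · ring
  have h4 : ∫⁻ x in (X.C k).P ∩ Nt X k E u ∩
      (cthickening t X.Z ∪ ⋃ j, cthickening t (X.F j).rim), v x ≤ c * I2 + e := by
    refine h1 _ ?_ ?_
    · exact (mP.inter mN).inter (isClosed_cthickening.measurableSet.union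
        (MeasurableSet.iUnion fun j => isClosed_cthickening.measurableSet))
    · rintro x ⟨⟨hx1, -⟩, hx3⟩
      refine ⟨hx1, ?_⟩
      rcases hx3 with h | h
      · exact Or.inl (layer_sub H hδ _ hZ h)
      · obtain ⟨j, hj⟩ := mem_iUnion.1 h
        exact Or.inr (mem_iUnion.2 ⟨j, layer_sub H hδ _ (hr j) hj⟩)
  calc _ ≤ B * ((c * (∑ j, ENNReal.ofReal ((X.F j).ρ / δ) *
        ∫⁻ x in (X.C k).P ∩ (X.F j).V ∩ Nt X k E u ∩ cthickening t (X.F j).rim, w x) +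
        (∑ j, ENNReal.ofReal ((X.F j).ρ / δ)) * e) + (c * I2 + e)) :=
        mul_le_mul' le_rfl (add_le_add h3 h4)
    _ = _ := by ring

/-- the constant of the tube energies -/
noncomputable def CTB (p : ℝ) (K m : ℝ≥0) : ℝ≥0∞ :=
  ENNReal.ofReal ((528 * (m:ℝ)^4)^p) * (ENNReal.ofReal (Sqt_143.CT p m) *
    (s6 p * ENNReal.ofReal (3 * (9 * K)^p)))

lemma CTB_ne_top (p : ℝ) (K m : ℝ≥0) : CTB p K m ≠ ∞ :=
  ENNReal.mul_ne_top ENNReal.ofReal_ne_top (ENNReal.mul_ne_top ENNReal.ofReal_ne_top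
    (ENNReal.mul_ne_top (s6_top p) ENNReal.ofReal_ne_top))

/-- **the tube, from the outputs of `cob_energy`**: `G1` is bounded by `G` on good points, `G₂` is
the gradient of the composition with `chi` -/
theorem tube_of (hp : 0 < p) {Om La : Set R3} (hOm : IsOpen Om) {F1 : R3 → R3}
    {G G1 G₂ : Fin 3 → R3 → R3} (hG1 : SH p Om La F1 G1) (h : X.Adm p δ) (N₁ N₂ : ℕ) {k : κ}
    (hC : (X.C k).P ⊆ w2 ⁻¹' Om) (hZ : IsClosed X.Z) {E : Set E3} {u : ℝ} (H : TbS X k E u)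
    (hd : ∀ j, 4 * δ ≤ (X.F j).ρ) {Gd : R3 → Prop}
    (hgood : ∀ x ∈ (X.C k).P ∩ (nb δ X.Z ∪ ⋃ j, nb δ (X.F j).rim), Gd (w2 x)) {c e : ℝ≥0∞}
    (b1 : ∀ S : Set R3, MeasurableSet S → S ⊆ Om → (∀ x ∈ S, Gd x) →
      ∫⁻ x in S, En p G1 x ≤ c * (∫⁻ x in S, En p G x) + e)
    (b2 : ∀ᵐ z, w2 z ∈ Om → ∀ c : ℝ, 1 ≤ c → LLV c (Sys.chi h (N₁+1) (N₂+1)) z →
      En p G₂ (w2 z) ≤ s6 p * (ENNReal.ofReal (c^p) *
        En p G1 (w2 (Sys.chi h (N₁+1) (N₂+1) z)))) :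
    ∫⁻ x in (X.C k).P ∩ cthickening u E, En p G₂ (w2 x) ≤
      ENNReal.ofReal ((528 * (X.m k : ℝ)^4)^p) * (ENNReal.ofReal (Sqt_143.CT p (X.m k)) *
        (s6 p * (c * tb X δ k E u (fun x => En p G (w2 x)) + WtT X δ k * e))) := by
  obtain ⟨u1, hu1⟩ := exists_isEn hp hOm hG1
  have hv : AEMeasurable (fun x => s6 p * En p G1 (w2 x)) (volume.restrict (X.C k).P) := by
    refine AEMeasurable.const_mul ?_ _
    refine (hu1.meas.aemeasurable (μ := volume.restrict (X.C k).P)).congr ?_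
    have mP : MeasurableSet (X.C k).P := (X.C k).cht.clK.measurableSet
    rw [Filter.EventuallyEq, ae_restrict_iff' mP]
    filter_upwards [hu1.eq] with x hx hxP
    exact hx (hC hxP)
  have key := Sqt_143.tube_energy h N₁ N₂ (H.tb hd) (q := p) hv
    (w := fun x => En p G₂ (w2 x)) (by
      filter_upwards [b2] with x hx hxP c' hc' hcx
      refine (hx (hC hxP) c' hc' hcx).trans (le_of_eq ?_)
      ring)
  refine key.trans (mul_le_mul' le_rfl (mul_le_mul' le_rfl ?_))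
  have h1 := tb_le (v := fun x => s6 p * En p G1 (w2 x)) (w := fun x => En p G (w2 x))
    (c := s6 p * c) (e := s6 p * e) hZ H h.d0 (fun S mS hS => ?_)
  · refine h1.trans (le_of_eq ?_)
    ring
  · have hSO : ∀ z ∈ S, w2 z ∈ Om := fun z hz => hC (hS hz).1
    rw [lintegral_const_mul' _ _ (s6_top p), int_w2, int_w2]
    have h1 := b1 (w2 '' S) (w2.measurableEmbedding.measurableSet_image.2 mS)
      (by rintro _ ⟨z, hz, rfl⟩; exact hSO z hz)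
      (by rintro _ ⟨z, hz, rfl⟩; exact hgood z (hS hz))
    refine (mul_le_mul' le_rfl h1).trans (le_of_eq ?_)
    ring

set_option maxHeartbeats 1000000 in
/-- **helper622's `cob_energy` with a finite list of tubes `(kk t, EE t, uu t)`** -/
theorem cob_tubes {α β : Type*} [Fintype α] [Fintype β] (X : Sys κ ι) {p : ℝ} (hp : 1 ≤ p)
    (hp3 : p < 3) {Om La : Set R3} {f : R3 → R3} {G : Fin 3 → R3 → R3} (hOm : IsOpen Om)
    (hvol : volume Om ≠ ∞) (hf : SH p Om La f G)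
    (hC : ∀ k, (X.C k).P ⊆ w2 ⁻¹' Om) (hF : ∀ j, (X.F j).K ⊆ w2 ⁻¹' Om)
    (Φ : R3 ≃ₜ R3) (hΦ1 : PLOn Φ univ) (hΦ2 : PLOn Φ.symm univ) (hΦ : ∀ x, Φ x ∈ Om ↔ x ∈ Om)
    (K : ℝ≥0) {U : Set R3} (hU : IsOpen U) (D : EF X Om (En p G) α β)
    (hgood : ∀ z ∈ X.Z ∪ ⋃ j, (X.F j).rim, z ∈ ⋃ k, (X.C k).P → Good Φ f U (w2 z))
    {ε : ℝ≥0∞} (hε : ε ≠ 0)
    {γ : Type*} [Finite γ] {α' β' : γ → Type*} [∀ t, Fintype (α' t)] [∀ t, Fintype (β' t)]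
    (kk : γ → κ) (EE : γ → Set E3) (uu s₀ : γ → ℝ) (B₀ : γ → Set R3) (N' : γ → Set E3)
    (DD : ∀ t, EFN X Om ((B₀ t).indicator (En p G)) (N' t) (α' t) (β' t))
    (hT : ∀ t, TbS X (kk t) (EE t) (uu t)) (hs₀ : ∀ t, 0 < s₀ t)
    (hN' : ∀ t, nb (s₀ t) ((X.C (kk t)).P ∩ Nt X (kk t) (EE t) (uu t)) ⊆ N' t)
    (hB : ∀ t, (X.C (kk t)).P ∩ Nt X (kk t) (EE t) (uu t) ⊆ w2 ⁻¹' B₀ t) :
    ∀ᶠ δ in 𝓝[>] (0:ℝ), ∃ h : X.Adm p δ,
      (∀ k, ∀ x ∈ (X.C k).P ∩ (nb δ X.Z ∪ ⋃ j, nb δ (X.F j).rim), Good Φ f U (w2 x)) ∧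
      (∀ j, 4 * δ ≤ (X.F j).ρ) ∧
      ∀ ε₁ : ℝ, 0 < ε₁ →
      ∃ θ : ℝ, 0 < θ ∧ ∀ (R : R3 ≃ₜ R3), LipschitzWith K R → (∀ y, R y ∈ La ↔ y ∈ La) →
      ∀ C : ℝ, (∀ y, ‖R y - y‖ ≤ C) →
      (∀ y ∈ U, ∀ ε > 0, ∀ᶠ z in 𝓝 y, ‖R z - R y‖ ≤ (θ + ε) * ‖z - y‖) →
      ∃ G1 : Fin 3 → R3 → R3, SH p Om La (fun x => R (f (Φ x))) G1 ∧
        (∀ S : Set R3, MeasurableSet S → S ⊆ Om → (∀ x ∈ S, Good Φ f U x) →
          ∫⁻ x in S, En p G1 x ≤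
            ENNReal.ofReal (3 * (9 * K) ^ p) * (∫⁻ x in S, En p G x) + ENNReal.ofReal ε₁) ∧
        ∃ N₁₀ : ℕ, ∀ N₁, N₁₀ ≤ N₁ → ∃ N₂₀ : ℕ, ∀ N₂, N₂₀ ≤ N₂ →
          ∃ G₂ : Fin 3 → R3 → R3,
            SH p Om La (fun x => R (f (Φ (toR (Sys.chi h (N₁+1) (N₂+1)) x)))) G₂ ∧
            (∀ᵐ z, w2 z ∈ Om → ∀ c : ℝ, 1 ≤ c → LLV c (Sys.chi h (N₁+1) (N₂+1)) z →
              En p G₂ (w2 z) ≤ s6 p * (ENNReal.ofReal (c^p) *
                En p G1 (w2 (Sys.chi h (N₁+1) (N₂+1) z)))) ∧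
            (∀ k, (p < 2 ∨ ∀ j, ¬ ((X.F j).V ∩ (X.C k).P).Nonempty) →
              ∫⁻ x in (X.C k).P, En p G₂ (w2 x) ≤
                ENNReal.ofReal (CB p K (X.m k)) * D.J k + ε) ∧
            ∀ t, ∫⁻ x in (X.C (kk t)).P ∩ cthickening (uu t) (EE t), En p G₂ (w2 x) ≤
              CTB p K (X.m (kk t)) * (DD t).J (kk t) (Nt X (kk t) (EE t) (uu t))
                (ct X (kk t) (uu t)) + ε := by
  classical
  cases nonempty_fintype γ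
  have hp0 : 0 < p := lt_of_lt_of_le one_pos hp
  have hε2 : ε / 2 ≠ 0 := by
    rw [Ne, ENNReal.div_eq_zero_iff]; push Not
    exact ⟨hε, ENNReal.ofNat_ne_top⟩
  set A : ℝ≥0∞ := ∑ t, CTB p K (X.m (kk t)) with hA
  have hAt : A ≠ ∞ := (ENNReal.sum_lt_top.2 fun t _ => (CTB_ne_top p K _).lt_top).ne
  obtain ⟨εa, hεa, hεa'⟩ := exists_small hAt hε2
  have hev : ∀ᶠ δ in 𝓝[>] (0:ℝ), ∀ t, tb X δ (kk t) (EE t) (uu t) (fun x => En p G (w2 x)) ≤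
      (DD t).J (kk t) (Nt X (kk t) (EE t) (uu t)) (ct X (kk t) (uu t)) + εa :=
    eventually_all.2 fun t => tb_lim_ind (DD t) (hC _) (hT t).u0 (hs₀ t) (hN' t) (hB t) hεa
  filter_upwards [cob_energy X hp hp3 hOm hvol hf hC hF Φ hΦ1 hΦ2 hΦ K hU D hgood hε, hev,
    ev_d4 X] with δ ⟨h, hG, hrest⟩ k1 k2
  refine ⟨h, hG, k2, fun ε₁ hε₁ => ?_⟩
  -- the collar error
  set W : ℝ≥0∞ := ∑ t, ENNReal.ofReal ((528 * (X.m (kk t) : ℝ)^4)^p) *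
    (ENNReal.ofReal (Sqt_143.CT p (X.m (kk t))) * (s6 p * WtT X δ (kk t))) with hW
  have hWt : W ≠ ∞ := (ENNReal.sum_lt_top.2 fun t _ => (ENNReal.mul_ne_top ENNReal.ofReal_ne_top
    (ENNReal.mul_ne_top ENNReal.ofReal_ne_top
      (ENNReal.mul_ne_top (s6_top p) (WtT_ne_top X δ (kk t))))).lt_top).ne
  obtain ⟨β', hβ', hβ2⟩ := exists_small hWt hε2
  obtain ⟨e₁, he₁, he₁1, he₁2⟩ : ∃ e₁ : ℝ, 0 < e₁ ∧ e₁ ≤ ε₁ ∧ ENNReal.ofReal e₁ ≤ β' := by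
    by_cases htop : β' = ∞
    · exact ⟨ε₁, hε₁, le_rfl, by rw [htop]; exact le_top⟩
    · refine ⟨min ε₁ β'.toReal, lt_min hε₁ (ENNReal.toReal_pos hβ' htop), min_le_left _ _, ?_⟩
      calc ENNReal.ofReal (min ε₁ β'.toReal) ≤ ENNReal.ofReal β'.toReal :=
            ENNReal.ofReal_le_ofReal (min_le_right _ _)
        _ = β' := ENNReal.ofReal_toReal htop
  obtain ⟨θ, hθ, hr⟩ := hrest e₁ he₁
  refine ⟨θ, hθ, fun R hR hRLa C hRC hRU => ?_⟩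
  obtain ⟨G1, hG1, hb, N₁₀, hN₁⟩ := hr R hR hRLa C hRC hRU
  refine ⟨G1, hG1, fun S hS hSO hSg => (hb S hS hSO hSg).trans
    (add_le_add le_rfl (ENNReal.ofReal_le_ofReal he₁1)), N₁₀, fun N₁ hN => ?_⟩
  obtain ⟨N₂₀, hN₂⟩ := hN₁ (N₁ + 1) (by omega)
  refine ⟨N₂₀, fun N₂ hN' => ?_⟩
  obtain ⟨G₂, l1, l2, l3⟩ := hN₂ (N₂ + 1) (by omega)
  refine ⟨G₂, l1, l2, l3, fun t => ?_⟩
  have key := tube_of hp0 hOm hG1 h N₁ N₂ (hC (kk t)) D.clZ (hT t) k2 (hG (kk t)) hb l2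
  refine key.trans ?_
  have q1 : ENNReal.ofReal ((528 * (X.m (kk t) : ℝ)^4)^p) *
      (ENNReal.ofReal (Sqt_143.CT p (X.m (kk t))) * (s6 p * (WtT X δ (kk t) *
        ENNReal.ofReal e₁))) ≤ ε / 2 := by
    refine le_trans ?_ hβ2
    calc _ = (ENNReal.ofReal ((528 * (X.m (kk t) : ℝ)^4)^p) *
          (ENNReal.ofReal (Sqt_143.CT p (X.m (kk t))) * (s6 p * WtT X δ (kk t)))) *
            ENNReal.ofReal e₁ := by ring
      _ ≤ W * β' := mul_le_mul' (Finset.single_le_sum (f := fun t =>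
          ENNReal.ofReal ((528 * (X.m (kk t) : ℝ)^4)^p) *
          (ENNReal.ofReal (Sqt_143.CT p (X.m (kk t))) * (s6 p * WtT X δ (kk t))))
          (fun _ _ => zero_le) (Finset.mem_univ t)) he₁2
  have q2 : CTB p K (X.m (kk t)) * εa ≤ ε / 2 :=
    (mul_le_mul' (Finset.single_le_sum (f := fun t => CTB p K (X.m (kk t)))
      (fun _ _ => zero_le) (Finset.mem_univ t)) le_rfl).trans hεa'
  calc _ ≤ ENNReal.ofReal ((528 * (X.m (kk t) : ℝ)^4)^p) *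
        (ENNReal.ofReal (Sqt_143.CT p (X.m (kk t))) * (s6 p *
        (ENNReal.ofReal (3 * (9 * K) ^ p) * ((DD t).J (kk t) (Nt X (kk t) (EE t) (uu t))
          (ct X (kk t) (uu t)) + εa) + WtT X δ (kk t) * ENNReal.ofReal e₁))) :=
        mul_le_mul' le_rfl (mul_le_mul' le_rfl (mul_le_mul' le_rfl
          (add_le_add (mul_le_mul' le_rfl (k1 t)) le_rfl)))
    _ = CTB p K (X.m (kk t)) * (DD t).J (kk t) (Nt X (kk t) (EE t) (uu t))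
          (ct X (kk t) (uu t)) + (CTB p K (X.m (kk t)) * εa +
        ENNReal.ofReal ((528 * (X.m (kk t) : ℝ)^4)^p) *
        (ENNReal.ofReal (Sqt_143.CT p (X.m (kk t))) * (s6 p * (WtT X δ (kk t) *
        ENNReal.ofReal e₁)))) := by
        rw [CTB]; ring
    _ ≤ _ + (ε / 2 + ε / 2) := add_le_add le_rfl (add_le_add q2 q1)
    _ = _ := by rw [ENNReal.add_halves]

end tube

end Crest.Agent.R096.Str_968
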