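import Crest.Agent.R096.Shp1_432
import Mathlib.Analysis.Convex.KreinMilman

/-!
# R096 (row 96), helper55: shapes of the cells of the STAR of a good tile, part 1: finitely many
affine maps between two polytopes; comparable scales; the finite list of the star
-/

set_option autoImplicit false
set_option linter.unusedSectionVars false
set_option linter.style.longLine false

open Set Metric Topology Filter

namespace Crest.Agent.R096.Sts_55

open Crest.Agent.R096.Msh_715 Crest.Agent.R096.Mal_874 Crest.Agent.R096.Cut_874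
open Crest.Agent.R096.Msh_810 Crest.Agent.R096.Gsm_432 Crest.Agent.R096.Shp_432

universe u v

/-! ### finitely many affine maps -/

section aff

variable {V W : Type*} [NormedAddCommGroup V] [NormedSpace ℝ V] [NormedAddCommGroup W]
  [NormedSpace ℝ W]

/-- an extreme point of a polytope is determined by its active inequalities -/
lemma ext_inj {H : Finset ((V →L[ℝ] ℝ) × ℝ)} {x y : V} (hx : x ∈ (P H).extremePoints ℝ)
    (hy : y ∈ P H) (h : ∀ h ∈ H, h.1 x = h.2 → h.1 y = h.2) : y = x := by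
  have hx' := mem_extremePoints.1 hx
  have h1 : ∀ᶠ ε in 𝓝[>] (0:ℝ), ∀ g ∈ H, g.1 (x + ε • (x - y)) ≤ g.2 := by
    rw [Finset.eventually_all]
    intro g hg
    by_cases he : g.1 x = g.2
    · refine Eventually.of_forall fun ε => ?_
      rw [map_add, map_smul, map_sub, he, h g hg he]
      simp
    · have h2 : g.1 x < g.2 := lt_of_le_of_ne (hx'.1 g hg) he
      have h3 : Continuous fun ε : ℝ => g.1 (x + ε • (x - y)) := by fun_prop
      have h4 : ∀ᶠ ε in 𝓝 (0:ℝ), g.1 (x + ε • (x - y)) < g.2 := by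
        have h5 := h3.tendsto 0
        simp only [zero_smul, add_zero] at h5
        exact h5.eventually (gt_mem_nhds h2)
      exact (h4.filter_mono nhdsWithin_le_nhds).mono fun ε hε => hε.le
  obtain ⟨ε, hε, h0⟩ := (h1.and self_mem_nhdsWithin).exists
  have h0' : (0:ℝ) < ε := h0
  have hz : x + ε • (x - y) ∈ P H := hε
  refine (hx'.2 _ hz _ hy ⟨1 / (1 + ε), ε / (1 + ε), by positivity, by positivity, by field_simp,
    ?_⟩).2
  have e1 : (1 / (1 + ε)) • (x + ε • (x - y)) + (ε / (1 + ε)) • y =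
      ((1 / (1 + ε)) * (1 + ε)) • x := by
    rw [smul_add, smul_smul, mul_add, mul_one, add_smul, smul_sub]
    have e2 : 1 / (1 + ε) * ε = ε / (1 + ε) := by ring
    rw [e2]
    abel
  rw [e1, one_div, inv_mul_cancel₀ (by positivity), one_smul]

lemma finite_ext (H : Finset ((V →L[ℝ] ℝ) × ℝ)) : ((P H).extremePoints ℝ).Finite := by
  classical
  refine Set.Finite.of_finite_image (f := fun x : V => H.filter fun h => h.1 x = h.2)
    (((H.powerset : Finset _).finite_toSet).subset ?_) ?_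
  · rintro _ ⟨x, -, rfl⟩
    exact Finset.mem_coe.2 (Finset.mem_powerset.2 (Finset.filter_subset _ _))
  · intro x hx y hy hxy
    refine (ext_inj hx hy.1 fun h hh he => ?_).symm
    have h1 : h ∈ H.filter fun h => h.1 x = h.2 := Finset.mem_filter.2 ⟨hh, he⟩
    have h2 : h ∈ H.filter fun h => h.1 y = h.2 := by
      have h3 : (H.filter fun h => h.1 x = h.2) = H.filter fun h => h.1 y = h.2 := hxy
      rwa [h3] at h1
    exact (Finset.mem_filter.1 h2).2

lemma ext_image (B : V ≃ᵃ[ℝ] W) (S : Set V) :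
    (B '' S).extremePoints ℝ = B '' (S.extremePoints ℝ) := by
  have hseg : ∀ (B : V ≃ᵃ[ℝ] W) (a b : V), B '' openSegment ℝ a b = openSegment ℝ (B a) (B b) :=
    fun B a b => image_openSegment ℝ B.toAffineMap a b
  ext w
  constructor
  · intro hw
    rw [mem_extremePoints] at hw
    obtain ⟨⟨x, hx, rfl⟩, hw2⟩ := hw
    refine ⟨x, mem_extremePoints.2 ⟨hx, fun x1 h1 x2 h2 h3 => ?_⟩, rfl⟩
    have h4 := hw2 (B x1) ⟨x1, h1, rfl⟩ (B x2) ⟨x2, h2, rfl⟩ (by
      rw [← hseg]; exact ⟨x, h3, rfl⟩)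
    exact ⟨B.injective h4.1, B.injective h4.2⟩
  · rintro ⟨x, hx, rfl⟩
    rw [mem_extremePoints] at hx ⊢
    refine ⟨⟨x, hx.1, rfl⟩, ?_⟩
    rintro _ ⟨x1, h1, rfl⟩ _ ⟨x2, h2, rfl⟩ h3
    rw [← hseg] at h3
    obtain ⟨x', hx', e⟩ := h3
    obtain rfl := B.injective e
    obtain ⟨h4, h5⟩ := hx.2 x1 h1 x2 h2 hx'
    rw [h4, h5]; exact ⟨rfl, rfl⟩

/-- a full polytope -/
structure Poly (S : Set V) : Prop where
  cpt : IsCompact S
  cvx : Convex ℝ S
  int : (interior S).Nonempty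
  fin : (S.extremePoints ℝ).Finite

/-- **there are finitely many affine maps between two polytopes** -/
lemma fin_aff [FiniteDimensional ℝ V] {S S' : Set V} (hS : Poly S) : {A : V ≃ᵃ[ℝ] V | A '' S = S'}.Finite := by
  rcases Set.eq_empty_or_nonempty {A : V ≃ᵃ[ℝ] V | A '' S = S'} with h0 | ⟨A0, hA0⟩
  · rw [h0]; exact finite_empty
  have hA0' : A0 '' S = S' := hA0
  have hF := hS.fin
  have : Finite (S.extremePoints ℝ) := hF
  refine Set.Finite.of_finite_image (f := fun A : V ≃ᵃ[ℝ] V => fun x : S.extremePoints ℝ => A x)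
    ((Set.Finite.pi' (t := fun _ : S.extremePoints ℝ => A0 '' S.extremePoints ℝ)
      fun _ => hF.image _).subset ?_) ?_
  · rintro _ ⟨A, hA, rfl⟩ x
    have hA' : A '' S = S' := hA
    have h1 : A x ∈ A '' S.extremePoints ℝ := ⟨x, x.2, rfl⟩
    rwa [← ext_image, hA', ← hA0', ext_image] at h1
  · intro A hA A' hA' h
    have h1 : ∀ x ∈ S.extremePoints ℝ, A x = A' x := fun x hx => congrFun h ⟨x, hx⟩
    have hcv : Convex ℝ {x | A x = A' x} := by
      intro x hx y hy a b ha hb hab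
      have hx' : A x = A' x := hx
      have hy' : A y = A' y := hy
      have e : ∀ B : V ≃ᵃ[ℝ] V, B (a • x + b • y) = a • B x + b • B y := fun B =>
        Convex.combo_affine_apply (f := B.toAffineMap) hab
      show A (a • x + b • y) = A' (a • x + b • y)
      rw [e, e, hx', hy']
    have hcl : IsClosed {x | A x = A' x} := by
      have c1 : Continuous A := (A.toHomeomorphOfFiniteDimensional).continuous
      have c2 : Continuous A' := (A'.toHomeomorphOfFiniteDimensional).continuous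
      exact isClosed_eq c1 c2
    have hsub : S ⊆ {x | A x = A' x} := by
      rw [← closure_convexHull_extremePoints hS.cpt hS.cvx]
      exact closure_minimal (convexHull_min h1 hcv) hcl
    obtain ⟨x0, hx0⟩ := hS.int
    refine AffineEquiv.ext fun x => ?_
    have h2 : ∀ᶠ t in 𝓝 (0:ℝ), AffineMap.lineMap x0 x t ∈ interior S := by
      have h3 : Continuous fun t : ℝ => (AffineMap.lineMap x0 x t : V) := AffineMap.lineMap_continuous
      have h4 := h3.tendsto 0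
      rw [AffineMap.lineMap_apply_zero] at h4
      exact h4.eventually (isOpen_interior.mem_nhds hx0)
    obtain ⟨t, ht1, ht2⟩ := ((h2.filter_mono nhdsWithin_le_nhds).and
      (self_mem_nhdsWithin (s := {(0:ℝ)}ᶜ))).exists
    have ht0 : t ≠ 0 := ht2
    have h5 : A (AffineMap.lineMap x0 x t) = A' (AffineMap.lineMap x0 x t) :=
      hsub (interior_subset ht1)
    have h6 : A x0 = A' x0 := hsub (interior_subset hx0)
    rw [AffineEquiv.apply_lineMap, AffineEquiv.apply_lineMap, h6, AffineMap.lineMap_apply,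
      AffineMap.lineMap_apply] at h5
    have h7 : t • (A x - A' x0) = t • (A' x - A' x0) := by
      have := vadd_right_cancel _ h5
      simpa using this
    have h8 := smul_right_injective V ht0 h7
    exact sub_left_injective h8

end aff


/-! ### the star -/

section star

variable {n : ℕ} {E : Type u} [NormedAddCommGroup E] [NormedSpace ℝ E]

/-- membership in the list with an explicit base point -/
lemma shape_mem {Om : Set E} {ι : Type v} {T : Tiling Om ι} {χ : E ≃ᵃ[ℝ] (Fin n → ℝ)} {s : ℝ}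
    (hs : 0 < s) {𝒩 : Finset (Fin n → ℝ)} {d : ℕ} (hd : 0 < d)
    (h𝒩 : ∀ ν ∈ 𝒩, ∀ m, ∃ c : ℤ, ν m = c / d) {R : ℝ} {x x0 : E}
    (hgood : ∀ i ∈ T.at_ x, ∀ h ∈ T.H i, ∃ ν, ∃ t : ℤ, GF χ s 𝒩 d h ν t) {i₀ : ι}
    (hi₀ : i₀ ∈ T.at_ x) (hR : ∀ y ∈ P (T.H i₀), ∀ m, |χ y m - χ x m| ≤ R)
    (h0 : ∀ m, |χ x m - χ x0 m| ≤ R) :
    (χ.trans (trz fun m => ⌊χ x0 m⌋)) '' T.cc x ∈ shpT 𝒩 d R := by
  obtain ⟨S, hS, e⟩ := cc_shape' (x := x) hs hd h𝒩 (R := R) (le_bnd (R := R)) hgood hi₀ hR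
  refine ⟨S, hS, fun m => ⌊χ x m⌋ - ⌊χ x0 m⌋, ?_, ?_⟩
  · intro m
    have h1 := Int.floor_le (χ x m)
    have h2 := Int.lt_floor_add_one (χ x m)
    have h3 := Int.floor_le (χ x0 m)
    have h4 := Int.lt_floor_add_one (χ x0 m)
    have h5 := abs_le.1 (h0 m)
    have h6 := le_abs_self R
    push_cast
    rw [abs_le]
    constructor <;> linarith
  · ext u
    simp only [Set.mem_image, Set.mem_ofPred_eq]
    constructor
    · rintro ⟨y, hy, rfl⟩
      rw [e] at hy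
      have h1 : (fun m => (χ.trans (trz fun m => ⌊χ x0 m⌋)) y m - ((⌊χ x m⌋ - ⌊χ x0 m⌋ : ℤ) : ℝ)) =
          fun m => χ y m - (⌊χ x m⌋ : ℝ) := by
        funext m
        rw [AffineEquiv.trans_apply, trz_apply]
        push_cast
        ring
      rw [h1]
      exact hy
    · intro hu
      refine ⟨(χ.trans (trz fun m => ⌊χ x0 m⌋)).symm u, ?_, by simp⟩
      rw [e]
      simp only [Set.mem_ofPred_eq]
      have h1 : (fun m => χ ((χ.trans (trz fun m => ⌊χ x0 m⌋)).symm u) m - (⌊χ x m⌋ : ℝ)) =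
          fun m => u m - ((⌊χ x m⌋ - ⌊χ x0 m⌋ : ℤ) : ℝ) := by
        funext m
        have h2 : (χ.trans (trz fun m => ⌊χ x0 m⌋)) ((χ.trans (trz fun m => ⌊χ x0 m⌋)).symm u) m
            = u m := by simp
        rw [AffineEquiv.trans_apply, trz_apply] at h2
        push_cast
        linarith
      rw [h1]
      exact hu

lemma chi_diff (φ : E ≃L[ℝ] (Fin n → ℝ)) (a : Fin n → ℝ) (k : ℕ) (x y : E) (m : Fin n) :
    chi φ a k y m - chi φ a k x m = 2 ^ k * φ (y - x) m := by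
  rw [chi_apply, chi_apply, map_sub, Pi.sub_apply]; ring

/-- the size of a set in another frame -/
lemma size_le {φ ψ : E ≃L[ℝ] (Fin n → ℝ)} {a b : Fin n → ℝ} {k l : ℕ} {L1 L2 R : ℝ} (hL1 : 0 ≤ L1)
    (hL2 : 0 ≤ L2) (hR : 0 ≤ R) (h1 : ∀ v, ‖φ v‖ ≤ L1 * ‖v‖) (h2 : ∀ v, ‖v‖ ≤ L2 * ‖ψ v‖) {x y : E}
    (h : ∀ m, |chi ψ b l y m - chi ψ b l x m| ≤ R) (m : Fin n) :
    |chi φ a k y m - chi φ a k x m| ≤ 2 ^ k * (L1 * (L2 * (R / 2 ^ l))) := by
  have hp : (0:ℝ) < 2 ^ l := by positivity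
  have h3 : ‖ψ (y - x)‖ ≤ R / 2 ^ l := by
    rw [pi_norm_le_iff_of_nonneg (by positivity)]
    intro m
    rw [le_div_iff₀ hp, Real.norm_eq_abs, ← abs_of_pos hp, ← abs_mul, mul_comm, ← chi_diff ψ b]
    exact h m
  rw [chi_diff, abs_mul, abs_of_pos (by positivity : (0:ℝ) < 2 ^ k)]
  refine mul_le_mul_of_nonneg_left ?_ (by positivity)
  calc |φ (y - x) m| ≤ ‖φ (y - x)‖ := norm_le_pi_norm (φ (y - x)) m
    _ ≤ L1 * ‖y - x‖ := h1 _
    _ ≤ L1 * (L2 * ‖ψ (y - x)‖) := by gcongr; exact h2 _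
    _ ≤ L1 * (L2 * (R / 2 ^ l)) := by gcongr

/-- a tile is a full polytope in every frame -/
lemma poly_tile [FiniteDimensional ℝ E] {Om : Set E} {ι : Type v} (T : Tiling Om ι) (l : ι)
    (B : E ≃ᵃ[ℝ] (Fin n → ℝ)) : Poly (B '' P (T.H l)) where
  cpt := (T.cpt l).image (AffineEquiv.toHomeomorphOfFiniteDimensional B).continuous
  cvx := (convex_P _).affine_image B.toAffineMap
  int := by
    obtain ⟨x, hx⟩ := T.ne l
    have h1 : x ∈ interior (P (T.H l)) := by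
      have h0 : I (T.H l) ⊆ interior (P (T.H l)) :=
        interior_maximal (I_sub_P _) (isOpen_I _)
      exact h0 hx
    refine ⟨B x, ?_⟩
    have h2 := (AffineEquiv.toHomeomorphOfFiniteDimensional B).image_interior (P (T.H l))
    have h3 : B '' interior (P (T.H l)) = interior (B '' P (T.H l)) := h2
    rw [← h3]
    exact ⟨x, h1, rfl⟩
  fin := by
    rw [ext_image]
    exact (finite_ext _).image _

variable [NeZero n] [FiniteDimensional ℝ E]

/-- a polytope of a finite list is not small -/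
lemma exists_two {Om : Set E} {ι : Type v} (T : Tiling Om ι) (l : ι)
    (B : E ≃ᵃ[ℝ] (Fin n → ℝ)) : 0 < diam (B '' P (T.H l)) := by
  have hP := poly_tile T l B
  obtain ⟨x, hx⟩ := hP.int
  have h1 : ∀ᶠ t in 𝓝 (0:ℝ), x + t • (fun _ : Fin n => (1:ℝ)) ∈ interior (B '' P (T.H l)) := by
    have h3 : Continuous fun t : ℝ => x + t • (fun _ : Fin n => (1:ℝ)) := by fun_prop
    have h4 := h3.tendsto 0
    rw [zero_smul, add_zero] at h4
    exact h4.eventually (isOpen_interior.mem_nhds hx)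
  obtain ⟨t, ht1, ht2⟩ := ((h1.filter_mono nhdsWithin_le_nhds).and
    (self_mem_nhdsWithin (s := {(0:ℝ)}ᶜ))).exists
  have ht0 : t ≠ 0 := ht2
  have h2 := dist_le_diam_of_mem hP.cpt.isBounded (interior_subset ht1) (interior_subset hx)
  refine lt_of_lt_of_le ?_ h2
  rw [dist_pos]
  intro h3
  have h4 := congrFun h3 0
  simp only [Pi.add_apply, Pi.smul_apply, smul_eq_mul, mul_one] at h4
  exact ht0 (by linarith)

/-- **comparable scales and the finite list of the star of a good tile** -/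
theorem star_list (E : Type u) [NormedAddCommGroup E] [NormedSpace ℝ E] [FiniteDimensional ℝ E]
    {Ls : Set (Finset (Fin n → ℝ) × ℕ)} (hLs : Ls.Finite) (hpos : ∀ p ∈ Ls, 0 < p.2)
    (hrat : ∀ p ∈ Ls, ∀ ν ∈ p.1, ∀ m, ∃ c : ℤ, ν m = c / p.2) (R : ℝ) {L1 L2 : ℝ} (hL1 : 0 ≤ L1)
    (hL2 : 0 ≤ L2) :
    ∃ (K : ℝ) (𝓕 : Set (Set (Fin n → ℝ))), 0 < K ∧ 𝓕.Finite ∧
      ∀ {Om : Set E} {ι : Type v} (T : Tiling Om ι) (κ : ι → ℕ) (ψ : ι → E ≃L[ℝ] (Fin n → ℝ))
        (a' : ι → Fin n → ℝ) (x0 : ι → E), (∀ t, x0 t ∈ I (T.H t)) → ∀ G : Set ι,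
        (∀ t ∈ G, ∃ p ∈ Ls, Good T t (chi (ψ t) (a' t) (κ t)) (κ t) p.1 p.2 R) →
        (∀ t ∈ G, ∀ v, ‖ψ t v‖ ≤ L1 * ‖v‖) → (∀ t ∈ G, ∀ v, ‖v‖ ≤ L2 * ‖ψ t v‖) →
          (∀ t ∈ G, ∀ l ∈ G, (P (T.H l) ∩ P (T.H t)).Nonempty → (2:ℝ) ^ κ l ≤ K * 2 ^ κ t) ∧
          ∀ t ∈ G, ∀ l ∈ G, (P (T.H l) ∩ P (T.H t)).Nonempty → ∀ y ∈ P (T.H l),
            ((chi (ψ t) (a' t) (κ t)).trans (trz fun m => ⌊chi (ψ t) (a' t) (κ t) (x0 t) m⌋)) ''
              T.cc y ∈ 𝓕 := by
  obtain ⟨μ, hμ, hlow⟩ := exists_diam_lb (shL_finite hLs 1)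
  set R0 : ℝ := |R| with hR0
  have hR0' : 0 ≤ R0 := abs_nonneg R
  set C : ℝ := L1 * (L2 * R0) with hC
  have hC0 : 0 ≤ C := by positivity
  set μ1 : ℝ := min 1 μ with hμ1
  have hμ1' : 0 < μ1 := lt_min one_pos hμ
  set K : ℝ := (C + 1) / μ1 with hK
  have hK0 : 0 < K := by positivity
  set D : ℝ := K * C + R0 with hD
  set 𝓐 : Set ((Fin n → ℝ) ≃ᵃ[ℝ] (Fin n → ℝ)) :=
    ⋃ S ∈ {S ∈ shL Ls R0 | Poly S}, ⋃ S' ∈ shL Ls D, {A | A '' S = S'} with h𝓐
  have h𝓐f : 𝓐.Finite := ((shL_finite hLs R0).subset (sep_subset _ _)).biUnion fun S hS =>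
    (shL_finite hLs D).biUnion fun S' _ => fin_aff hS.2
  refine ⟨K, Set.image2 (fun (A : (Fin n → ℝ) ≃ᵃ[ℝ] (Fin n → ℝ)) (F : Set (Fin n → ℝ)) => A '' F) 𝓐
    (shL Ls R0), hK0, Set.Finite.image2 _ h𝓐f (shL_finite hLs R0), ?_⟩
  intro Om ι T κ ψ a' x0 hx0 G hG0 h1 h2
  choose! p hp hG using hG0
  set χ : ι → E ≃ᵃ[ℝ] (Fin n → ℝ) := fun t => chi (ψ t) (a' t) (κ t) with hχ
  -- own size
  have hsz : ∀ t ∈ G, ∀ x ∈ P (T.H t), ∀ y ∈ P (T.H t), ∀ m, |χ t y m - χ t x m| ≤ R0 :=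
    fun t ht x hx y hy m => ((hG t ht).sz x hx y hy m).trans (le_abs_self R)
  -- the size in another frame
  have hsz2 : ∀ t ∈ G, ∀ l ∈ G, ∀ x ∈ P (T.H l), ∀ y ∈ P (T.H l), ∀ m,
      |χ t y m - χ t x m| ≤ 2 ^ κ t * (L1 * (L2 * (R0 / 2 ^ κ l))) :=
    fun t ht l hl x hx y hy m =>
      size_le hL1 hL2 hR0' (h1 t ht) (h2 l hl) (hsz l hl x hx y hy) m
  have hCe : ∀ t l, (2:ℝ) ^ κ t * (L1 * (L2 * (R0 / 2 ^ κ l))) = 2 ^ κ t / 2 ^ κ l * C := by
    intro t l; rw [hC]; ring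
  -- scales
  have hsc : ∀ t ∈ G, ∀ l ∈ G, (P (T.H l) ∩ P (T.H t)).Nonempty →
      (2:ℝ) ^ κ l ≤ K * 2 ^ κ t := by
    intro t ht l hl htl
    have hp1 : (0:ℝ) < 2 ^ κ l := by positivity
    have hp2 : (0:ℝ) < 2 ^ κ t := by positivity
    have key : μ1 ≤ 2 ^ κ t / 2 ^ κ l * C := by
      by_contra hcon
      push Not at hcon
      have hs1 : ∀ x ∈ P (T.H l), ∀ y ∈ P (T.H l), ∀ m, |χ t y m - χ t x m| ≤ 1 := by
        intro x hx y hy m
        have := hsz2 t ht l hl x hx y hy m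
        rw [hCe] at this
        exact this.trans (hcon.le.trans (min_le_left _ _))
      have hmem : ((χ t).trans (trz fun m => ⌊χ t (x0 l) m⌋)) '' T.cc (x0 l) ∈
          shpT (p t).1 (p t).2 1 := by
        refine shape_mem (T := T) (s := 2 ^ κ t) hp2 (hpos _ (hp t ht)) (hrat _ (hp t ht)) ?_
          (i₀ := l) (I_sub_P _ (hx0 l)) (hs1 _ (I_sub_P _ (hx0 l))) fun m => by simp
        intro i hi h hh
        rw [T.at_eq_singleton (hx0 l), Set.mem_singleton_iff] at hi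
        subst hi
        exact (hG t ht).gf i htl h hh
      rw [T.cc_eq_tile (hx0 l)] at hmem
      have h3 := hlow _ (mem_iUnion₂.2 ⟨p t, hp t ht, hmem⟩) (exists_two T l _)
      have h4 : diam (((χ t).trans (trz fun m => ⌊χ t (x0 l) m⌋)) '' P (T.H l)) ≤
          2 ^ κ t / 2 ^ κ l * C := by
        refine diam_le_of_forall_dist_le (by positivity) ?_
        rintro _ ⟨x, hx, rfl⟩ _ ⟨y, hy, rfl⟩
        rw [dist_pi_le_iff (by positivity)]
        intro m
        rw [Real.dist_eq, AffineEquiv.trans_apply, AffineEquiv.trans_apply, trz_apply, trz_apply,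
          sub_sub_sub_cancel_right, ← hCe]
        exact hsz2 t ht l hl y hy x hx m
      exact absurd ((h3.trans h4).trans_lt hcon) (not_lt.2 (min_le_right _ _))
    have h5 : μ1 * 2 ^ κ l ≤ 2 ^ κ t * C := by
      rw [div_mul_eq_mul_div, le_div_iff₀ hp1] at key
      exact key
    rw [hK, div_mul_eq_mul_div, le_div_iff₀ hμ1', mul_comm]
    nlinarith
  refine ⟨hsc, fun t ht l hl htl y hy => ?_⟩
  set B : ι → E ≃ᵃ[ℝ] (Fin n → ℝ) := fun t => (χ t).trans (trz fun m => ⌊χ t (x0 t) m⌋) with hB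
  show B t '' T.cc y ∈ _
  -- own cells
  have hown : ∀ t ∈ G, ∀ y ∈ P (T.H t), B t '' T.cc y ∈ shL Ls R0 := by
    intro t ht y hy
    refine mem_iUnion₂.2 ⟨p t, hp t ht, shape_mem (T := T) (s := 2 ^ κ t) (by positivity)
      (hpos _ (hp t ht)) (hrat _ (hp t ht)) (fun i hi h hh => (hG t ht).gf i ⟨y, hi, hy⟩ h hh)
      (i₀ := t) hy (hsz t ht y hy) (hsz t ht _ (I_sub_P _ (hx0 t)) y hy)⟩
  -- the neighbour in the frame of the tile
  have hnb : B t '' P (T.H l) ∈ shL Ls D := by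
    obtain ⟨w, hwl, hwt⟩ := htl
    have htl' : (P (T.H t) ∩ P (T.H l)).Nonempty := ⟨w, hwt, hwl⟩
    have h3 : (2:ℝ) ^ κ t / 2 ^ κ l * C ≤ K * C := by
      refine mul_le_mul_of_nonneg_right ?_ hC0
      rw [div_le_iff₀ (by positivity)]
      exact hsc l hl t ht htl'
    have h4 : ∀ x ∈ P (T.H l), ∀ y ∈ P (T.H l), ∀ m, |χ t y m - χ t x m| ≤ K * C := by
      intro x hx y hy m
      have := hsz2 t ht l hl x hx y hy m
      rw [hCe] at this
      exact this.trans h3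
    have h5 := shape_mem (T := T) (χ := χ t) (s := 2 ^ κ t) (x := x0 l) (x0 := x0 t) (R := D)
      (by positivity) (hpos _ (hp t ht)) (hrat _ (hp t ht)) (fun i hi h hh => by
        rw [T.at_eq_singleton (hx0 l), Set.mem_singleton_iff] at hi
        subst hi
        exact (hG t ht).gf i ⟨w, hwl, hwt⟩ h hh) (i₀ := l) (I_sub_P _ (hx0 l))
      (fun y hy m => (h4 _ (I_sub_P _ (hx0 l)) y hy m).trans (by linarith)) (fun m => by
        have h6 := h4 w hwl _ (I_sub_P _ (hx0 l)) m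
        have h7 := hsz t ht _ (I_sub_P _ (hx0 t)) w hwt m
        calc |χ t (x0 l) m - χ t (x0 t) m|
            = |(χ t (x0 l) m - χ t w m) + (χ t w m - χ t (x0 t) m)| := by ring_nf
          _ ≤ |χ t (x0 l) m - χ t w m| + |χ t w m - χ t (x0 t) m| := abs_add_le _ _
          _ ≤ K * C + R0 := add_le_add h6 h7)
    rw [T.cc_eq_tile (hx0 l)] at h5
    exact mem_iUnion₂.2 ⟨p t, hp t ht, h5⟩
  have hPl := hown l hl (x0 l) (I_sub_P _ (hx0 l))
  rw [T.cc_eq_tile (hx0 l)] at hPl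
  have himg : ∀ S : Set E, ((B l).symm.trans (B t)) '' (B l '' S) = B t '' S := by
    intro S
    have e : ∀ x, ((B l).symm.trans (B t)) (B l x) = B t x := fun x => by
      show B t ((B l).symm (B l x)) = B t x
      rw [AffineEquiv.symm_apply_apply]
    rw [Set.image_image]
    exact Set.image_congr fun x _ => e x
  refine ⟨(B l).symm.trans (B t), ?_, B l '' T.cc y, hown l hl y hy, himg _⟩
  refine mem_iUnion₂.2 ⟨B l '' P (T.H l), ⟨hPl, poly_tile T l (B l)⟩, mem_iUnion₂.2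
    ⟨B t '' P (T.H l), hnb, himg _⟩⟩

end star

end Crest.Agent.R096.Sts_55
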