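import Crest.Agent.R096.Sts2_55
import Crest.Agent.R096.Onp4_622

/-!
# R096 (row 96), helper55: `exists_shp_T` in 622's form `ShD`
-/

set_option autoImplicit false
set_option linter.unusedSectionVars false
set_option linter.style.longLine false

open Set Metric Topology Filter

namespace Crest.Agent.R096.Sts_55

open Crest.AnalysisR.VecCalc3
open Crest.Agent.R096.Mal_874 (CB)
open Crest.Agent.R096.Sq_55 (E3)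
open Crest.Agent.R096.Ca_855 (MIn)
open Crest.Agent.R096.Dps_476 (deepJ)
open Crest.Agent.R096.Onp_622 (ShD)
open scoped NNReal

/-- **[SH] with the bounds of the numbers** -/
theorem exists_shD_num : ∃ vU : ℝ≥0, 1 ≤ vU ∧ ∀ (κ : ℝ) (Bs : ℕ), 0 < κ → κ ≤ 1 →
    ∃ (vI : ℝ≥0) (K3 : ℕ), 1 ≤ vI ∧ 1 ≤ K3 ∧
    ∀ Nn : ℕ, ∃ vN : ℝ≥0, vU ≤ vN ∧ vI ≤ vN ∧
      ∀ {Om W : Set R3} {ρ₀ : R3 → ℝ} {J : Type} [Finite J] {Qb : J → CB R3 3} {k0 : ℕ} {σ : ℝ}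
      (h : MIn Om W ρ₀ Qb k0 σ), (∀ j, MIn.BQ κ Bs Nn (Qb j) k0) → ∀ a : R3, ‖a‖ ≤ σ / 8 →
      ∃ (B : h.ιT a → E3 ≃ᵃ[ℝ] E3) (κt : h.ιT a → ℕ) (R u : h.ιT a → ℝ≥0),
        ShD h a K3 vU vI vN B κt R u := by
  obtain ⟨vU, h1⟩ := exists_shp_T
  refine ⟨max 1 vU, le_max_left _ _, fun κ Bs hκ hκ1 => ?_⟩
  obtain ⟨vI, K3, h2⟩ := h1 κ Bs hκ hκ1
  refine ⟨max 1 vI, K3 + 1, le_max_left _ _, Nat.le_add_left _ _, fun Nn => ?_⟩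
  obtain ⟨vN, h3⟩ := h2 Nn
  refine ⟨max vN (max (max 1 vU) (max 1 vI)), (le_max_left _ _).trans (le_max_right _ _),
    (le_max_right _ _).trans (le_max_right _ _), ?_⟩
  intro Om W ρ₀ J _ Qb k0 σ h hb a ha
  obtain ⟨B, κt, R, u, g1, g2, g3, g4, g5, g6, g7, g8, g9⟩ := h3 h hb a ha
  refine ⟨B, κt, R, u, g1, g2, g3, g4, g5, g6, fun t ht => (g7 t ht).trans (le_max_right _ _),
    fun j t ht => (g8 j t ⟨ht.1, ?_⟩).trans (le_max_right _ _),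
    fun t => (g9 t).trans (le_max_left _ _)⟩
  have := ht.2
  omega

/-- **[SH] in 622's form** -/
theorem exists_shD : ∃ vU : ℝ≥0, ∀ (κ : ℝ) (Bs : ℕ), 0 < κ → κ ≤ 1 → ∃ (vI : ℝ≥0) (K3 : ℕ),
    ∀ Nn : ℕ, ∃ vN : ℝ≥0, ∀ {Om W : Set R3} {ρ₀ : R3 → ℝ} {J : Type} [Finite J]
      {Qb : J → CB R3 3} {k0 : ℕ} {σ : ℝ} (h : MIn Om W ρ₀ Qb k0 σ),
      (∀ j, MIn.BQ κ Bs Nn (Qb j) k0) → ∀ a : R3, ‖a‖ ≤ σ / 8 →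
      ∃ (B : h.ιT a → E3 ≃ᵃ[ℝ] E3) (κt : h.ιT a → ℕ) (R u : h.ιT a → ℝ≥0),
        ShD h a K3 vU vI vN B κt R u := by
  obtain ⟨vU, -, h1⟩ := exists_shD_num
  refine ⟨vU, fun κ Bs hκ hκ1 => ?_⟩
  obtain ⟨vI, K3, -, -, h2⟩ := h1 κ Bs hκ hκ1
  refine ⟨vI, K3, fun Nn => ?_⟩
  obtain ⟨vN, -, -, h3⟩ := h2 Nn
  exact ⟨vN, h3⟩

end Crest.Agent.R096.Sts_55
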