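import Crest.Agent.R096.Fns4_360
import Crest.Agent.R096.Gno5_324

/-!
Row 96 (S0127), helper849.  NO0, `p ≥ 3`, mesh part, leaf [X1] of 962 #11402: **SIZE**: outer Whitney data
whose balls are fine and lie in `HH` or in `R'`; the outer tiles of the capped aligned mesh.
-/

set_option autoImplicit false
set_option linter.style.longLine false
set_option linter.unusedSectionVars false

open MeasureTheory Set Filter Topology Metric

namespace Crest.Agent.R096.Szn_849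

open Crest.Agent.R096.Bsp_628 Crest.Agent.R096.Brk1_582 Crest.Agent.R096.Brk2_582
open Crest.Agent.R096.Brk3_582
open Crest.Agent.R096.Brk5_582
open Crest.Agent.R096.Msh_715
open Crest.Agent.R96.Push_899
open Crest.Agent.R096.SkC1_961 (E3 Hom3 IsPush FoamD)
open Crest.Agent.R096.Mal_874 Crest.Agent.R096.Msh_810
open Crest.Agent.R096.Fns_360 Crest.Agent.R096.Gno_324

noncomputable section

variable {δ κ0 R c0 : ℝ} {La Om : Set E3}

/-- **[X1] SIZE** -/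
theorem exists_size (Φ : FoamD δ κ0 R c0 La) (hOm : IsOpen Om) (hLa : IsOpen La) (hδ : 0 < δ)
    (hR : 0 < R) {f : E3 → E3} (hfm : MapsTo f Om La) (hfc : ContinuousOn f Om) {O : Φ.F → Set E3}
    (hO : ∀ c, IsOpen (O c)) (hB : ∀ c, (Φ.B c).S ⊆ O c) {ε : ℝ} (hε : 0 < ε) {HH R' : Set E3}
    (hHH : IsOpen HH) (hR' : IsOpen R') (hcov : Om ⊆ HH ∪ R') {C : ℝ} (hC : 1 < C) (a : E3) :
    ∃ D : Dat 3, D.C = C ∧ D.a = a ∧ D.Om = Om ∧ ∀ u ∈ Om, closedBall u (D.ρ u) ⊆ Om ∧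
      FineS Φ f ε (closedBall u (D.ρ u) ∩ (Om ∩ offO f O)) ∧
      (closedBall u (D.ρ u) ⊆ HH ∨ closedBall u (D.ρ u) ⊆ R') := by
  obtain ⟨ρ, h1, h2, h3, h4, h5⟩ := exists_rho hOm
    (fun s => FineS Φ f ε (s ∩ (Om ∩ offO f O)) ∧ (s ⊆ HH ∨ s ⊆ R'))
    (fun s t hst h => ⟨h.1.mono (inter_subset_inter_left _ hst),
      h.2.imp hst.trans hst.trans⟩) (by
      intro x hx
      obtain ⟨r, hr, hF⟩ := fineS_loc Φ hLa hδ hR hfm hfc (offO_closed hOm hfc hO)
        (fun _ _ hx c hc => hx c (hB c hc)) hε hx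
      have h6 : ∃ r1 > 0, closedBall x r1 ⊆ HH ∨ closedBall x r1 ⊆ R' := by
        rcases hcov hx with h | h
        · obtain ⟨r1, hr1, h7⟩ := Metric.nhds_basis_closedBall.mem_iff.1 (hHH.mem_nhds h)
          exact ⟨r1, hr1, Or.inl h7⟩
        · obtain ⟨r1, hr1, h7⟩ := Metric.nhds_basis_closedBall.mem_iff.1 (hR'.mem_nhds h)
          exact ⟨r1, hr1, Or.inr h7⟩
      obtain ⟨r1, hr1, h7⟩ := h6
      refine ⟨min r r1, lt_min hr hr1, hF.mono (inter_subset_inter_left _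
        (closedBall_subset_closedBall (min_le_left _ _))), ?_⟩
      exact h7.imp (closedBall_subset_closedBall (min_le_right _ _)).trans
        (closedBall_subset_closedBall (min_le_right _ _)).trans)
  refine ⟨⟨ρ, C, a, h1, h2, h3, hC⟩, rfl, rfl, ?_, fun u hu => ?_⟩
  · ext x; exact h4 x
  · obtain ⟨h6, h7, h8⟩ := h5 u hu
    exact ⟨h6, h7, h8⟩

section mesh

variable {J : Type*} (M : MD E3 3 J) {c : ℝ} (hc : 0 < c) {k : J → ℕ} (hk : (cap M c hc).Sc k)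
  (a : Fin 3 → ℝ) {v : J → E3} (hv : (cap M c hc).Adm v)

/-- an outer tile of the capped mesh lies in the ball of each of its points -/
theorem outer_ball (hφ : ∀ x, M.φ x = x) (p : (cap M c hc).OIx hk a hv) {x : E3}
    (hx : x ∈ P (((cap M c hc).mesh hk a hv).H (Sum.inl p))) :
    x ∈ M.D0.Om ∧ P (((cap M c hc).mesh hk a hv).H (Sum.inl p)) ⊆ closedBall x (M.D0.ρ x) := by
  have hxO : x ∈ M.D0.Om := by
    have h1 := ((cap M c hc).mesh hk a hv).sub _ hx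
    have h2 : (cap M c hc).φ x ∈ (cap M c hc).D0.Om := h1
    have h3 : (cap M c hc).D0.Om = M.D0.Om := capD_Om M.D0 c hc
    rw [h3] at h2
    have h4 : (cap M c hc).φ x = x := hφ x
    rwa [h4] at h2
  refine ⟨hxO, fun y hy => ?_⟩
  have h1 := (cap M c hc).outer_size hk a hv p hx hy
  have h4 : (cap M c hc).φ x = x := hφ x
  have h5 : (cap M c hc).φ y = y := hφ y
  rw [h4, h5] at h1
  have hC := (cap M c hc).hC
  rw [mem_closedBall, dist_comm]
  refine h1.trans ?_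
  refine (div_le_self ((cap M c hc).D0.nonneg _) (by linarith)).trans ?_
  exact min_le_left _ _

/-- **outer tiles: `P_i ⊆ HH` or `P_i ⊆ R'`** -/
theorem outer_HR (hφ : ∀ x, M.φ x = x) {HH R' : Set E3}
    (h : ∀ u ∈ M.D0.Om, closedBall u (M.D0.ρ u) ⊆ HH ∨ closedBall u (M.D0.ρ u) ⊆ R')
    (p : (cap M c hc).OIx hk a hv) :
    P (((cap M c hc).mesh hk a hv).H (Sum.inl p)) ⊆ HH ∨
      P (((cap M c hc).mesh hk a hv).H (Sum.inl p)) ⊆ R' := by
  obtain ⟨x, hx⟩ := ((cap M c hc).mesh hk a hv).ne (Sum.inl p)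
  obtain ⟨h1, h2⟩ := outer_ball M hc hk a hv hφ p (I_sub_P _ hx)
  exact (h x h1).imp h2.trans h2.trans

/-- **outer tiles are fine** -/
theorem outer_fine (hφ : ∀ x, M.φ x = x) {Φ : FoamD δ κ0 R c0 La} {f : E3 → E3} {ε : ℝ} {Y : Set E3}
    (h : ∀ u ∈ M.D0.Om, FineS Φ f ε (closedBall u (M.D0.ρ u) ∩ Y))
    (p : (cap M c hc).OIx hk a hv) :
    FineS Φ f ε (P (((cap M c hc).mesh hk a hv).H (Sum.inl p)) ∩ Y) := by
  obtain ⟨x, hx⟩ := ((cap M c hc).mesh hk a hv).ne (Sum.inl p)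
  obtain ⟨h1, h2⟩ := outer_ball M hc hk a hv hφ p (I_sub_P _ hx)
  exact (h x h1).mono (inter_subset_inter_left _ h2)

/-- the hypothesis of `fineS_outer` / `fine_MD` for the capped mesh (`ρ := M.D0.ρ`) -/
theorem fineS_hyp (hφ : ∀ x, M.φ x = x) {Φ : FoamD δ κ0 R c0 La} {f : E3 → E3} {ε : ℝ} {Y : Set E3}
    (h : ∀ u ∈ M.D0.Om, FineS Φ f ε (closedBall u (M.D0.ρ u) ∩ Y)) :
    (∀ u, (cap M c hc).D0.ρ u ≤ M.D0.ρ u) ∧
    ∀ x, (cap M c hc).φ x ∈ (cap M c hc).D0.Om →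
      FineS Φ f ε ((cap M c hc).φ ⁻¹' closedBall ((cap M c hc).φ x) (M.D0.ρ ((cap M c hc).φ x)) ∩ Y) := by
  refine ⟨fun u => min_le_left _ _, fun x hx => ?_⟩
  have h3 : (cap M c hc).D0.Om = M.D0.Om := capD_Om M.D0 c hc
  have h4 : ∀ y, (cap M c hc).φ y = y := hφ
  rw [h3, h4] at hx
  have e : (cap M c hc).φ ⁻¹' closedBall ((cap M c hc).φ x) (M.D0.ρ ((cap M c hc).φ x)) =
      closedBall x (M.D0.ρ x) := by
    ext y
    rw [mem_preimage, h4, h4]
  rw [e]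
  exact h x hx

/-- the domain of the capped mesh -/
theorem cap_Om (hφ : ∀ x, M.φ x = x) : (cap M c hc).φ ⁻¹' (cap M c hc).D0.Om = M.D0.Om := by
  have h3 : (cap M c hc).D0.Om = M.D0.Om := capD_Om M.D0 c hc
  rw [h3]
  ext y
  have h4 : (cap M c hc).φ y = y := hφ y
  rw [mem_preimage, h4]

end mesh

end

end Crest.Agent.R096.Szn_849
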