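import Crest.Agent.R96.HoL1_899

/-!
Row 96 (S0127), helper764, PRE3 [U2] (962 #10559, 627 #10669): **hole opening with the τ clause**:
off the balls `B(P_c, 4 R_c)` the map `Th` is as close to `th` as we like, and locally almost as
Lipschitz as `th`.  Proof: the pull towards the identity in 627's implicit equation is at most
(distance to the complement of `L`) / 32, which becomes small if everything is scaled by a small
factor.
-/

set_option autoImplicit false
set_option linter.unusedSectionVars false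
set_option linter.unusedVariables false
set_option linter.style.longLine false

open Set Filter Metric Topology

namespace Crest.Agent.R096.Tau_764

open Crest.Agent.R096.Ho_627 Crest.Agent.R096.ThC6_766 Crest.Agent.R096
open Crest.Agent.R96.HoL_899

variable {V : Type*} [NormedAddCommGroup V] [InnerProductSpace ℝ V] {ι : Type*}
variable {L : Set V} {C : ℝ} {e : V → ℝ} {th : V → V} {yc : ι → V} {R : ι → ℝ}

/-! ### the solutions off the balls -/

/-- off the balls `4 R` -/
theorem off_balls (h : Holes L C e th yc R) {y q : V} (hq : FF L th yc R y q = q)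
    (hy : ∀ c, 4 * R c ≤ ‖th y - th (yc c)‖) :
    (∀ c, R c / 4 < ‖y - yc c‖) ∧ (∀ c, 2 * R c < ‖q - th (yc c)‖) ∧
      q = th y + del (ZZ L th yc R) q • (y - q) := by
  have h1 : ∀ c, 2 * R c ≤ ‖y - yc c‖ := by
    intro c
    have a1 := h.lip y (yc c)
    have a2 : C * ‖y - yc c‖ ≤ 2 * ‖y - yc c‖ := mul_le_mul_of_nonneg_right h.C2 (norm_nonneg _)
    have a3 := hy c
    linarith
  have c1 : col yc (fun c => R c / 8) univ y = y := col_out fun c _ => by
    have := h1 c
    have := h.pos c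
    linarith
  obtain ⟨-, e1⟩ := sol_eq h hq
  rw [c1] at e1
  have hn := sol_near h hq
  have h2 : ∀ c, 2 * R c < ‖q - th (yc c)‖ := by
    intro c
    by_contra hcon
    push Not at hcon
    have hR := h.pos c
    have hT : ‖TT th yc R q y‖ ≤ R c / 8 := by
      by_cases hlt : ‖q - th (yc c)‖ < 2 * R c
      · refine (TT_le_act h hlt y).trans ?_
        have a1 := om_le_one (R c) ‖q - th (yc c)‖
        have a2 : om (R c) ‖q - th (yc c)‖ * R c ≤ 1 * R c := mul_le_mul_of_nonneg_right a1 hR.le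
        linarith
      · rw [TT_none, norm_zero]
        · positivity
        · intro c'
          by_contra hcon'
          push Not at hcon'
          have := h.uniq hcon' hcon
          rw [this] at hcon'
          exact hlt hcon'
    have hd : del (ZZ L th yc R) q ≤ R c / 16 := by
      have hp : th (yc c) ∈ ZZ L th yc R := Or.inr (mem_iUnion.2 ⟨c, by
        rw [mem_closedBall, dist_self]; positivity⟩)
      have := del_le_dist hp q
      linarith
    have hd0 := del_nonneg (ZZ L th yc R) q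
    have h3 : ‖del (ZZ L th yc R) q • (y - q)‖ ≤ R c / 8 := by
      rw [norm_smul, Real.norm_eq_abs, abs_of_nonneg hd0, norm_sub_rev]
      have a1 := h.sc.le_one y
      have a2 : ‖q - y‖ ≤ 2 := by linarith
      calc del (ZZ L th yc R) q * ‖q - y‖ ≤ R c / 16 * 2 :=
            mul_le_mul hd a2 (norm_nonneg _) (by positivity)
        _ = R c / 8 := by ring
    have h4 : th y - th (yc c) = (q - th (yc c)) - del (ZZ L th yc R) q • (y - q) -
        TT th yc R q y := by
      have : th y = q - del (ZZ L th yc R) q • (y - q) - TT th yc R q y := by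
        rw [eq_sub_iff_add_eq, eq_sub_iff_add_eq]
        conv_rhs => rw [e1]
        abel
      rw [this]; abel
    have h5 := hy c
    rw [h4] at h5
    have h6 := norm_sub_le (q - th (yc c) - del (ZZ L th yc R) q • (y - q)) (TT th yc R q y)
    have h7 := norm_sub_le (q - th (yc c)) (del (ZZ L th yc R) q • (y - q))
    linarith
  refine ⟨fun c => ?_, h2, ?_⟩
  · have := h1 c
    have := h.pos c
    linarith
  · rw [TT_none fun c => (h2 c).le, add_zero] at e1
    exact e1

/-- distance of the solution from `th y` -/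
theorem tau_base (h : Holes L C e th yc R) {y q : V} (hq : FF L th yc R y q = q)
    (hy : ∀ c, 4 * R c ≤ ‖th y - th (yc c)‖) {z0 : V} (hz0 : z0 ∉ L) {d : ℝ}
    (hd : ∀ q ∈ L, ‖q - z0‖ ≤ d) : ‖q - th y‖ ≤ d / 25 * e y := by
  obtain ⟨-, -, h3⟩ := off_balls h hq hy
  by_cases hqL : q ∈ L
  · have h4 : q - th y = del (ZZ L th yc R) q • (y - q) := by
      rw [sub_eq_iff_eq_add']
      exact h3
    have hd0 := del_nonneg (ZZ L th yc R) q
    have hd1 : del (ZZ L th yc R) q ≤ d / 32 := by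
      have := del_le_dist (Z := ZZ L th yc R) (Or.inl hz0) q
      have := hd q hqL
      linarith
    have hd2 : 0 ≤ d := (norm_nonneg _).trans (hd q hqL)
    have hn := sol_near h hq
    have he := h.sc.nonneg y
    rw [h4, norm_smul, Real.norm_eq_abs, abs_of_nonneg hd0, norm_sub_rev]
    calc del (ZZ L th yc R) q * ‖q - y‖ ≤ d / 32 * (5 / 4 * e y) :=
          mul_le_mul hd1 hn (norm_nonneg _) (by positivity)
      _ ≤ d / 25 * e y := by nlinarith [mul_nonneg hd2 he]
  · have h4 := sol_off h hq hqL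
    have h5 : th y = q := by rw [h4]; exact h.off hqL
    have h6 : e y = 0 := by rw [h4]; exact h.sc.off q hqL
    rw [h5, h6, sub_self, norm_zero, mul_zero]

/-! ### the homeomorphism with its equation -/

/-- 627's `hole_opening` together with the implicit equation. -/
theorem hole_opening_FF [FiniteDimensional ℝ V] (h : Holes L C e th yc R) :
    ∃ Th : V ≃ₜ V, (∀ y, y ∉ L → Th y = y) ∧ (∀ y, Th y ∈ L ↔ y ∈ L) ∧
      (∀ y, ‖Th y - y‖ ≤ 5 / 4 * e y) ∧
      (∀ y y', ‖Th y - Th y'‖ ≤ 25 / 2 * ‖y - y'‖) ∧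
      (∀ c y, ‖y - yc c‖ ≤ R c / 16 → Th y = th (yc c) + (y - yc c)) ∧
      (∀ c y, ‖Th y - th (yc c)‖ ≤ R c / 16 → y = yc c + (Th y - th (yc c))) ∧
      (∀ y, th y = y → (∀ c, R c / 4 ≤ ‖y - yc c‖) → (∀ c, 2 * R c ≤ ‖y - th (yc c)‖) →
        Th y = y) ∧
      ∀ y, FF L th yc R y (Th y) = Th y := by
  have hcomp : CompleteSpace V := FiniteDimensional.complete ℝ V
  have hprop : ProperSpace V := FiniteDimensional.proper_real V
  choose T hT using exists_fix h
  have hlip : ∀ y y', ‖T y - T y'‖ ≤ 25 / 2 * ‖y - y'‖ := fun y y' => fix_lip h (hT y) (hT y')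
  have hcont : Continuous T := by
    have : LipschitzWith (25 / 2 : ℝ).toNNReal T := by
      apply LipschitzWith.of_dist_le_mul
      intro y y'
      rw [dist_eq_norm, dist_eq_norm, Real.coe_toNNReal _ (by norm_num)]
      exact hlip y y'
    exact this.continuous
  have hnear : ∀ y, ‖T y - y‖ ≤ 5 / 4 * e y := fun y => sol_near h (hT y)
  have hnear2 : ∀ y, ‖T y - y‖ ≤ 2 := fun y => by
    have := hnear y
    have := h.sc.le_one y
    linarith
  have hinj : Function.Injective T := fun y y' hyy => sol_inj h (hT y) (by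
    rw [hyy]; exact hT y')
  have hsurj : Function.Surjective T := by
    intro q0
    obtain ⟨x, hx⟩ := R332.Full.exists_zero_of_inner_pos (fun x => T x - q0)
      (hcont.sub continuous_const) (‖q0‖ + 3) (by positivity) (by
      intro x hx
      have e1 : T x - q0 = x + ((T x - x) - q0) := by abel
      rw [e1, inner_add_left, real_inner_self_eq_norm_sq]
      have e2 : |inner ℝ ((T x - x) - q0) x| ≤ ‖(T x - x) - q0‖ * ‖x‖ := abs_real_inner_le_norm _ _
      have e3 : ‖(T x - x) - q0‖ ≤ 2 + ‖q0‖ := (norm_sub_le _ _).trans (by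
        have := hnear2 x
        linarith)
      have e4 : ‖(T x - x) - q0‖ * ‖x‖ ≤ (2 + ‖q0‖) * ‖x‖ :=
        mul_le_mul_of_nonneg_right e3 (norm_nonneg _)
      have e5 := (abs_le.1 e2).1
      have e6 := norm_nonneg q0
      nlinarith)
    exact ⟨x, sub_eq_zero.1 hx⟩
  have hclosed : IsClosedMap T := by
    have hp : IsProperMap T := by
      rw [isProperMap_iff_tendsto_cocompact]
      refine ⟨hcont, ?_⟩
      rw [← Metric.cobounded_eq_cocompact, ← tendsto_norm_atTop_iff_cobounded]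
      have e1 : Tendsto (fun y : V => ‖y‖ - 2) (Bornology.cobounded V) atTop :=
        tendsto_atTop_add_const_right _ (-2 : ℝ) tendsto_norm_cobounded_atTop
      refine tendsto_atTop_mono (fun y => ?_) e1
      have e2 := hnear2 y
      have e3 := norm_sub_norm_le y (y - T y)
      rw [sub_sub_cancel] at e3
      rw [norm_sub_rev] at e2
      linarith
    exact hp.isClosedMap
  let Eq : V ≃ V := Equiv.ofBijective T ⟨hinj, hsurj⟩
  have huniq : ∀ y q, FF L th yc R y q = q → T y = q := fun y q hq => fix_uniq h (hT y) hq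
  have hoff : ∀ y, y ∉ L → T y = y := fun y hy => huniq y y (free_sol (h.off hy) (fun c => by
      by_contra hcon
      have := h.pos c
      exact hy (h.bally (c := c) (by linarith))) (fun c => by
      by_contra hcon
      exact hy (h.ballp (not_le.1 hcon).le)))
  have hmem : ∀ y, T y ∈ L ↔ y ∈ L := by
    intro y
    constructor
    · intro hy
      by_contra hcon
      rw [hoff y hcon] at hy
      exact hcon hy
    · intro hy
      by_contra hcon
      have := hinj (hoff _ hcon)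
      rw [this] at hcon
      exact hcon hy
  refine ⟨Eq.toHomeomorphOfContinuousClosed hcont hclosed, hoff, hmem, hnear, hlip, ?_, ?_, ?_, hT⟩
  · intro c y hy
    exact huniq y _ (core_sol h hy)
  · intro c y hy
    exact sol_core h (hT y) hy
  · intro y h1 h2 h3
    exact huniq y y (free_sol h1 h2 h3)

/-- the local Lipschitz clause off the balls `4 R`, from the equation -/
theorem loc_base (h : Holes L C e th yc R) (hC1 : 1 ≤ C) {T : V → V} (hcont : Continuous T)
    (hT : ∀ y, FF L th yc R y (T y) = T y) {κ : ℝ} (hκ : κ ≤ 1) {y : V} (hyL : y ∈ L)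
    (he : ∀ y, e y ≤ κ) (hy : ∀ c, 4 * R c < ‖th y - th (yc c)‖) :
    ∀ᶠ y' in 𝓝 y, ‖T y' - T y‖ ≤ C * (1 + κ) * ‖y' - y‖ := by
  have hthc : Continuous th := by
    have : LipschitzWith (Real.toNNReal C) th := by
      apply LipschitzWith.of_dist_le_mul
      intro y y'
      rw [dist_eq_norm, dist_eq_norm, Real.coe_toNNReal _ (by linarith)]
      exact h.lip y y'
    exact this.continuous
  obtain ⟨b1, b2, -⟩ := off_balls h (hT y) fun c => (hy c).le
  have hTL : T y ∈ L := by
    by_contra hcon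
    have h4 := sol_off h (hT y) hcon
    rw [← h4] at hcon
    exact hcon hyL
  -- the images are off the balls `2 R`
  obtain ⟨r, hr, hfin⟩ := h.fin (T y) hTL
  have ev1 : ∀ᶠ y' in 𝓝 y, ∀ c, 2 * R c ≤ ‖T y' - th (yc c)‖ := by
    have e1 : ∀ᶠ y' in 𝓝 y, T y' ∈ ball (T y) r :=
      hcont.continuousAt.eventually (ball_mem_nhds _ hr)
    have e2 : ∀ᶠ y' in 𝓝 y,
        ∀ c ∈ {c | (closedBall (th (yc c)) (2 * R c) ∩ ball (T y) r).Nonempty},
          2 * R c < ‖T y' - th (yc c)‖ := by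
      rw [Filter.eventually_all_finite hfin]
      intro c _
      exact (hcont.continuousAt.sub continuousAt_const).norm.eventually (lt_mem_nhds (b2 c))
    filter_upwards [e1, e2] with y' h3 h4 c
    by_contra hcon
    push Not at hcon
    have h5 := h4 c ⟨T y', by rw [mem_closedBall, dist_eq_norm]; exact hcon.le, h3⟩
    linarith
  -- the points are off the balls `R / 4`
  obtain ⟨r', hr', hfin'⟩ := h.fin (th y) (h.memL hyL)
  have ev2 : ∀ᶠ y' in 𝓝 y, ∀ c, R c / 4 ≤ ‖y' - yc c‖ := by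
    have e1 : ∀ᶠ y' in 𝓝 y, th y' ∈ ball (th y) r' :=
      hthc.continuousAt.eventually (ball_mem_nhds _ hr')
    have e2 : ∀ᶠ y' in 𝓝 y,
        ∀ c ∈ {c | (closedBall (th (yc c)) (2 * R c) ∩ ball (th y) r').Nonempty},
          R c / 4 < ‖y' - yc c‖ := by
      rw [Filter.eventually_all_finite hfin']
      intro c _
      exact (continuousAt_id.sub continuousAt_const).norm.eventually (lt_mem_nhds (b1 c))
    filter_upwards [e1, e2] with y' h3 h4 c
    by_contra hcon
    push Not at hcon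
    have h5 := h4 c ⟨th y', by
      rw [mem_closedBall, dist_eq_norm]
      have h6 := h.lip y' (yc c)
      have h7 : C * ‖y' - yc c‖ ≤ 2 * ‖y' - yc c‖ := mul_le_mul_of_nonneg_right h.C2 (norm_nonneg _)
      have h8 := h.pos c
      linarith, h3⟩
    linarith
  filter_upwards [ev1, ev2] with y' h3 h4
  exact fix_loc h hC1 (hT y') (hT y) h4 (fun c => (b1 c).le) h3 (fun c => (b2 c).le) hκ (he y)

/-! ### scaling -/

/-- scaled data -/
theorem Holes_scale (h : Holes L C e th yc R) {t : ℝ} (ht : 0 < t) (ht1 : t ≤ 1) :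
    Holes {x | t⁻¹ • x ∈ L} C (fun x => t * e (t⁻¹ • x)) (fun x => t • th (t⁻¹ • x))
      (fun c => t • yc c) (fun c => t * R c) := by
  have hti : ∀ x : V, t⁻¹ • (t • x) = x := fun x => inv_smul_smul₀ ht.ne' x
  have hnt : ∀ x y : V, t * ‖t⁻¹ • x - t⁻¹ • y‖ = ‖x - y‖ := by
    intro x y
    rw [← smul_sub, norm_smul, Real.norm_eq_abs, abs_of_pos (inv_pos.2 ht), ← mul_assoc,
      mul_inv_cancel₀ ht.ne', one_mul]
  refine
    { op := h.op.preimage (continuous_const_smul t⁻¹)
      sc :=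
        { nonneg := fun x => mul_nonneg ht.le (h.sc.nonneg _)
          lip := fun x y => ?_
          pos := fun x hx => mul_pos ht (h.sc.pos _ hx)
          off := fun x hx => by
            show t * e (t⁻¹ • x) = 0
            rw [h.sc.off _ hx, mul_zero]
          le_one := fun x => ?_ }
      C2 := h.C2
      mono := fun x y => ?_
      lip := fun x y => ?_
      near := fun x => ?_
      pos := fun c => mul_pos ht (h.pos c)
      small := fun c => ?_
      disj := fun c c' hne => ?_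
      fin := fun p hp => ?_ }
  · have h1 := h.sc.lip (t⁻¹ • x) (t⁻¹ • y)
    have h2 := mul_le_mul_of_nonneg_left h1 ht.le
    have h3 := hnt x y
    calc t * e (t⁻¹ • x) ≤ t * (e (t⁻¹ • y) + ‖t⁻¹ • x - t⁻¹ • y‖ / 8) := h2
      _ = t * e (t⁻¹ • y) + (t * ‖t⁻¹ • x - t⁻¹ • y‖) / 8 := by ring
      _ = _ := by rw [h3]
  · have h1 := h.sc.le_one (t⁻¹ • x)
    have h2 := h.sc.nonneg (t⁻¹ • x)
    show t * e (t⁻¹ • x) ≤ 1
    nlinarith
  · have h1 := h.mono (t⁻¹ • x) (t⁻¹ • y)
    have h2 : x - y = t • (t⁻¹ • x - t⁻¹ • y) := by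
      rw [← smul_sub, smul_inv_smul₀ ht.ne']
    show 0 ≤ inner ℝ (t • th (t⁻¹ • x) - t • th (t⁻¹ • y)) (x - y)
    rw [h2, ← smul_sub, real_inner_smul_left, real_inner_smul_right]
    positivity
  · show ‖t • th (t⁻¹ • x) - t • th (t⁻¹ • y)‖ ≤ C * ‖x - y‖
    rw [← smul_sub, norm_smul, Real.norm_eq_abs, abs_of_pos ht, ← hnt x y]
    have h1 := mul_le_mul_of_nonneg_left (h.lip (t⁻¹ • x) (t⁻¹ • y)) ht.le
    linarith
  · show ‖t • th (t⁻¹ • x) - x‖ ≤ t * e (t⁻¹ • x)
    have h2 : t • th (t⁻¹ • x) - x = t • (th (t⁻¹ • x) - t⁻¹ • x) := by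
      rw [smul_sub, smul_inv_smul₀ ht.ne']
    rw [h2, norm_smul, Real.norm_eq_abs, abs_of_pos ht]
    exact mul_le_mul_of_nonneg_left (h.near _) ht.le
  · show t * R c ≤ t * e (t⁻¹ • (t • th (t⁻¹ • (t • yc c)))) / 8
    rw [hti, hti]
    have := mul_le_mul_of_nonneg_left (h.small c) ht.le
    linarith
  · show 2 * (t * R c) + 2 * (t * R c') < ‖t • th (t⁻¹ • (t • yc c)) - t • th (t⁻¹ • (t • yc c'))‖
    rw [hti, hti, ← smul_sub, norm_smul, Real.norm_eq_abs, abs_of_pos ht]
    have := mul_lt_mul_of_pos_left (h.disj c c' hne) ht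
    linarith
  · obtain ⟨r, hr, hfin⟩ := h.fin (t⁻¹ • p) hp
    refine ⟨t * r, by positivity, hfin.subset ?_⟩
    rintro c ⟨x, hx1, hx2⟩
    refine ⟨t⁻¹ • x, ?_, ?_⟩
    · have h1 : ‖x - t • th (t⁻¹ • (t • yc c))‖ ≤ 2 * (t * R c) := by
        rw [mem_closedBall, dist_eq_norm] at hx1
        exact hx1
      rw [hti] at h1
      rw [mem_closedBall, dist_eq_norm]
      have h2 := hnt x (t • th (yc c))
      rw [hti] at h2
      rw [← h2] at h1
      have h3 : t * ‖t⁻¹ • x - th (yc c)‖ ≤ t * (2 * R c) := by linarith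
      exact le_of_mul_le_mul_left h3 ht
    · rw [mem_ball, dist_eq_norm] at hx2 ⊢
      rw [← hnt x p] at hx2
      exact lt_of_mul_lt_mul_left hx2 ht.le

/-- **HOLE OPENING WITH THE τ CLAUSE.** -/
theorem hole_opening_tau [FiniteDimensional ℝ V] (h : Holes L C e th yc R) (hC1 : 1 ≤ C) {z0 : V}
    (hz0 : z0 ∉ L) (hLb : Bornology.IsBounded L) {τ κ : ℝ} (hτ : 0 < τ) (hκ : 0 < κ) :
    ∃ Th : V ≃ₜ V, (∀ y, y ∉ L → Th y = y) ∧ (∀ y, Th y ∈ L ↔ y ∈ L) ∧
      (∀ y, ‖Th y - y‖ ≤ 5 / 4 * e y) ∧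
      (∀ y y', ‖Th y - Th y'‖ ≤ 25 / 2 * ‖y - y'‖) ∧
      (∀ c y, ‖y - yc c‖ ≤ R c / 16 → Th y = th (yc c) + (y - yc c)) ∧
      (∀ c y, ‖Th y - th (yc c)‖ ≤ R c / 16 → y = yc c + (Th y - th (yc c))) ∧
      (∀ y, th y = y → (∀ c, R c / 4 ≤ ‖y - yc c‖) → (∀ c, 2 * R c ≤ ‖y - th (yc c)‖) →
        Th y = y) ∧
      (∀ y, (∀ c, 4 * R c ≤ ‖th y - th (yc c)‖) →
        ‖Th y - th y‖ ≤ τ * e y ∧ ∀ c, 2 * R c < ‖Th y - th (yc c)‖) ∧
      (∀ y ∈ L, (∀ c, 4 * R c < ‖th y - th (yc c)‖) →
        ∀ᶠ y' in 𝓝 y, ‖Th y' - Th y‖ ≤ C * (1 + κ) * ‖y' - y‖) := by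
  obtain ⟨ρ, hρ⟩ := hLb.subset_closedBall z0
  set d : ℝ := max ρ 1 with hd
  have hd0 : 0 < d := lt_of_lt_of_le one_pos (le_max_right _ _)
  have hdL : ∀ q ∈ L, ‖q - z0‖ ≤ d := by
    intro q hq
    have := hρ hq
    rw [mem_closedBall, dist_eq_norm] at this
    exact this.trans (le_max_left _ _)
  set t : ℝ := min (min 1 κ) (25 * τ / d) with ht
  have ht0 : 0 < t := lt_min (lt_min one_pos hκ) (by positivity)
  have ht1 : t ≤ 1 := (min_le_left _ _).trans (min_le_left _ _)
  have htκ : t ≤ κ := (min_le_left _ _).trans (min_le_right _ _)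
  have htτ : t * d / 25 ≤ τ := by
    have : t ≤ 25 * τ / d := min_le_right _ _
    rw [le_div_iff₀ hd0] at this
    linarith
  have hS := Holes_scale h ht0 ht1
  have hti : ∀ x : V, t⁻¹ • (t • x) = x := fun x => inv_smul_smul₀ ht0.ne' x
  have hit : ∀ x : V, t • (t⁻¹ • x) = x := fun x => smul_inv_smul₀ ht0.ne' x
  have hnt : ∀ x y : V, ‖t • x - t • y‖ = t * ‖x - y‖ := by
    intro x y
    rw [← smul_sub, norm_smul, Real.norm_eq_abs, abs_of_pos ht0]
  obtain ⟨T, h1, h2, h3, h4, h5, h6, h7, h8⟩ := hole_opening_FF hS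
  simp only [hti] at h5 h6 h7
  have hmem : ∀ y : V, t • y ∈ {x : V | t⁻¹ • x ∈ L} ↔ y ∈ L := by
    intro y
    show t⁻¹ • (t • y) ∈ L ↔ _
    rw [hti]
  set Th : V ≃ₜ V := ((Homeomorph.smulOfNeZero t ht0.ne').trans T).trans
    (Homeomorph.smulOfNeZero t ht0.ne').symm with hTh
  have hThe : ∀ y, Th y = t⁻¹ • T (t • y) := fun y => rfl
  have hTt : ∀ y, t • Th y = T (t • y) := fun y => by rw [hThe, hit]
  refine ⟨Th, ?_, ?_, ?_, ?_, ?_, ?_, ?_, ?_, ?_⟩
  · intro y hy
    rw [hThe, h1 _ (by rwa [hmem]), hti]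
  · intro y
    have := h2 (t • y)
    rw [hmem] at this
    rw [hThe]
    exact this
  · intro y
    have h9 := h3 (t • y)
    rw [hti, ← hTt, hnt] at h9
    have : t * ‖Th y - y‖ ≤ t * (5 / 4 * e y) := by linarith
    exact le_of_mul_le_mul_left this ht0
  · intro y y'
    have h9 := h4 (t • y) (t • y')
    rw [← hTt, ← hTt, hnt, hnt] at h9
    have : t * ‖Th y - Th y'‖ ≤ t * (25 / 2 * ‖y - y'‖) := by linarith
    exact le_of_mul_le_mul_left this ht0
  · intro c y hy
    have h9 := h5 c (t • y) (by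
      rw [hnt]
      have := mul_le_mul_of_nonneg_left hy ht0.le
      linarith)
    rw [hThe, h9, ← smul_sub, ← smul_add, hti]
  · intro c y hy
    have h9 := h6 c (t • y) (by
      rw [← hTt, hnt]
      have := mul_le_mul_of_nonneg_left hy ht0.le
      linarith)
    rw [← hTt, ← smul_sub, ← smul_add] at h9
    have := congrArg (fun z => t⁻¹ • z) h9
    simpa only [hti] using this
  · intro y hy1 hy2 hy3
    have h9 := h7 (t • y) (by rw [hti, hy1]) (fun c => by
      rw [hnt]
      have := mul_le_mul_of_nonneg_left (hy2 c) ht0.le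
      linarith) (fun c => by
      rw [hnt]
      have := mul_le_mul_of_nonneg_left (hy3 c) ht0.le
      linarith)
    rw [hThe, h9, hti]
  · intro y hy
    have hy' : ∀ c, 4 * (t * R c) ≤ ‖(fun x => t • th (t⁻¹ • x)) (t • y) -
        (fun x => t • th (t⁻¹ • x)) (t • yc c)‖ := by
      intro c
      simp only [hti]
      rw [hnt]
      have := mul_le_mul_of_nonneg_left (hy c) ht0.le
      linarith
    have h9 := tau_base hS (h8 (t • y)) hy' (z0 := t • z0) (by rwa [hmem]) (d := t * d) (by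
      intro q hq
      have h10 := hdL _ hq
      have h11 : q - t • z0 = t • (t⁻¹ • q - z0) := by rw [smul_sub, hit]
      rw [h11, norm_smul, Real.norm_eq_abs, abs_of_pos ht0]
      exact mul_le_mul_of_nonneg_left h10 ht0.le)
    simp only [hti] at h9
    rw [← hTt, hnt] at h9
    have he := h.sc.nonneg y
    constructor
    · have h10 : t * ‖Th y - th y‖ ≤ t * (τ * e y) := by
        calc t * ‖Th y - th y‖ ≤ t * d / 25 * (t * e y) := h9
          _ ≤ τ * (t * e y) := mul_le_mul_of_nonneg_right htτ (by positivity)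
          _ = t * (τ * e y) := by ring
      exact le_of_mul_le_mul_left h10 ht0
    · intro c
      obtain ⟨-, h10, -⟩ := off_balls hS (h8 (t • y)) hy'
      have h11 := h10 c
      simp only [hti] at h11
      rw [← hTt, hnt] at h11
      have : t * (2 * R c) < t * ‖Th y - th (yc c)‖ := by linarith
      exact lt_of_mul_lt_mul_left this ht0.le
  · intro y hyL hy
    have hy' : ∀ c, 4 * (t * R c) < ‖(fun x => t • th (t⁻¹ • x)) (t • y) -
        (fun x => t • th (t⁻¹ • x)) (t • yc c)‖ := by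
      intro c
      simp only [hti]
      rw [hnt]
      have := mul_lt_mul_of_pos_left (hy c) ht0
      linarith
    have h9 := loc_base hS hC1 T.continuous h8 (κ := t) ht1 (y := t • y) (by rwa [hmem])
      (fun x => by
        have a1 := h.sc.le_one (t⁻¹ • x)
        have a2 := mul_le_mul_of_nonneg_left a1 ht0.le
        linarith) hy'
    have hc : Tendsto (fun y : V => t • y) (𝓝 y) (𝓝 (t • y)) :=
      (continuous_const_smul t).continuousAt
    filter_upwards [hc.eventually h9] with y' h10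
    rw [← hTt, ← hTt, hnt, hnt] at h10
    have h11 : t * ‖Th y' - Th y‖ ≤ t * (C * (1 + t) * ‖y' - y‖) := by linarith
    refine (le_of_mul_le_mul_left h11 ht0).trans ?_
    have : C * (1 + t) ≤ C * (1 + κ) := mul_le_mul_of_nonneg_left (by linarith) (by linarith)
    exact mul_le_mul_of_nonneg_right this (norm_nonneg _)

/-- the same for holes given by their images -/
theorem hole_opening_image_tau [FiniteDimensional ℝ V] {ι : Type*} (hL : IsOpen L) (he : Scale L e)
    (hC1 : 1 ≤ C) (hC2 : C ≤ 2) (mono : ∀ y y', 0 ≤ inner ℝ (th y - th y') (y - y'))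
    (lip : ∀ y y', ‖th y - th y'‖ ≤ C * ‖y - y'‖) (near : ∀ y, ‖th y - y‖ ≤ e y)
    {z0 : V} (hz0 : z0 ∉ L) (hLb : Bornology.IsBounded L) {τ κ : ℝ} (hτ : 0 < τ) (hκ : 0 < κ)
    {Q : V → Prop} (p : ι → V) (R : ι → ℝ) (hex : ∀ i, ∃ y, th y = p i ∧ Q y)
    (pos : ∀ i, 0 < R i) (small : ∀ i, R i ≤ e (p i) / 8)
    (disj : ∀ i j, i ≠ j → 2 * R i + 2 * R j < ‖p i - p j‖)
    (fin : ∀ q ∈ L, ∃ r : ℝ, 0 < r ∧ {i | (closedBall (p i) (2 * R i) ∩ ball q r).Nonempty}.Finite) :
    ∃ (yc : ι → V) (Th : V ≃ₜ V), (∀ i, th (yc i) = p i ∧ Q (yc i)) ∧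
      (∀ y, y ∉ L → Th y = y) ∧ (∀ y, Th y ∈ L ↔ y ∈ L) ∧
      (∀ y, ‖Th y - y‖ ≤ 5 / 4 * e y) ∧
      (∀ y y', ‖Th y - Th y'‖ ≤ 25 / 2 * ‖y - y'‖) ∧
      (∀ i y, ‖y - yc i‖ ≤ R i / 16 → Th y = p i + (y - yc i)) ∧
      (∀ i y, ‖Th y - p i‖ ≤ R i / 16 → y = yc i + (Th y - p i)) ∧
      (∀ y, th y = y → (∀ i, R i / 4 ≤ ‖y - yc i‖) → (∀ i, 2 * R i ≤ ‖y - p i‖) → Th y = y) ∧
      (∀ y, (∀ i, 4 * R i ≤ ‖th y - p i‖) →
        ‖Th y - th y‖ ≤ τ * e y ∧ ∀ i, 2 * R i < ‖Th y - p i‖) ∧
      (∀ y ∈ L, (∀ i, 4 * R i < ‖th y - p i‖) →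
        ∀ᶠ y' in 𝓝 y, ‖Th y' - Th y‖ ≤ C * (1 + κ) * ‖y' - y‖) := by
  choose yc hyc using hex
  have hp : ∀ i, th (yc i) = p i := fun i => (hyc i).1
  have H : Holes L C e th yc R :=
    { op := hL, sc := he, C2 := hC2, mono := mono, lip := lip, near := near, pos := pos
      small := fun i => by rw [hp]; exact small i
      disj := fun i j hij => by rw [hp, hp]; exact disj i j hij
      fin := fun q hq => by
        obtain ⟨r, hr, hf⟩ := fin q hq
        refine ⟨r, hr, ?_⟩
        simp only [hp]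
        exact hf }
  obtain ⟨Th, h1, h2, h3, h4, h5, h6, h7, h8, h9⟩ := hole_opening_tau H hC1 hz0 hLb hτ hκ
  simp only [hp] at h5 h6 h7 h8 h9
  exact ⟨yc, Th, hyc, h1, h2, h3, h4, h5, h6, h7, h8, h9⟩

end Crest.Agent.R096.Tau_764
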