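import Crest.Agent.R096.Xq6_537
import Crest.Agent.R096.Ar9_241

/-!
# R096 (row 96), TR0-GLUE, part 1 (helper219)

Gluing of local transport structures (537's `TrnOn`) into a global one.

* `glue_trnOn` : pieces `Ks i` with local structures `(G i, top i, tr i)` which agree on the
  overlaps ⟹ one global `(G, top, tr)`.
* `Tr0.ofPieces` : 241's `Tr0 Ω C G`, from a cover by closed pieces.
* `lf_of_pieces`, `hfin_of_pieces` : the finiteness conditions.
-/

set_option autoImplicit false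
set_option linter.unusedSectionVars false
set_option linter.unusedVariables false

open Set Metric Topology Module

namespace Crest.Agent.R096.Tg_219

open Crest.Agent.R096.Xp_537
open Crest.Agent.R096.Ar_241
open Crest.Agent.R096.Ce_537 (PLOn PLEquiv cube sph IsBall)

variable {E : Type*} [NormedAddCommGroup E] [NormedSpace ℝ E] [FiniteDimensional ℝ E]
  {Q : Type*} [PartialOrder Q] {Λ : Set E}
  {E' : Type*} [NormedAddCommGroup E'] [NormedSpace ℝ E']
  {Ω : Set E'} {C : CC Λ Q}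

/-- agreement of two transport structures at a point -/
def AgreeAt (C : CC Λ Q) (G G' : E' → E) (top top' : E' → Q) (tr tr' : E' → E → E') (x : E') :
    Prop :=
  G' x = G x ∧ top' x = top x ∧ ∀ t ∈ C.cell (top x), tr' x t = tr x t

lemma AgreeAt.symm {G G' : E' → E} {top top' : E' → Q} {tr tr' : E' → E → E'} {x : E'}
    (h : AgreeAt C G G' top top' tr tr' x) : AgreeAt C G' G top' top tr' tr x :=
  ⟨h.1.symm, h.2.1.symm, fun t ht => (h.2.2 t (by rw [← h.2.1]; exact ht)).symm⟩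

open Classical in
/-- **gluing**: local transport structures which agree on the overlaps -/
theorem glue_trnOn {ι : Type*} (Ks : ι → Set E') (Gs : ι → E' → E) (tops : ι → E' → Q)
    (trs : ι → E' → E → E') (h : ∀ i, TrnOn (Ks i) C (Gs i) (tops i) (trs i))
    (agree : ∀ i j, ∀ x ∈ Ks i, x ∈ Ks j → AgreeAt C (Gs i) (Gs j) (tops i) (tops j) (trs i) (trs j) x)
    (q0 : Q) :
    ∃ (G : E' → E) (top : E' → Q) (tr : E' → E → E'),
      (∀ i, ∀ x ∈ Ks i, AgreeAt C (Gs i) G (tops i) top (trs i) tr x) ∧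
      ∀ i, TrnOn (Ks i) C G top tr := by
  let G : E' → E := fun x => if hx : ∃ i, x ∈ Ks i then Gs hx.choose x else 0
  let top : E' → Q := fun x => if hx : ∃ i, x ∈ Ks i then tops hx.choose x else q0
  let tr : E' → E → E' := fun x t => if hx : ∃ i, x ∈ Ks i then trs hx.choose x t else x
  have hA : ∀ i, ∀ x ∈ Ks i, AgreeAt C (Gs i) G (tops i) top (trs i) tr x := by
    intro i x hx
    have hex : ∃ i, x ∈ Ks i := ⟨i, hx⟩
    obtain ⟨a1, a2, a3⟩ := agree i hex.choose x hx hex.choose_spec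
    refine ⟨?_, ?_, fun t ht => ?_⟩
    · show (if hx : ∃ i, x ∈ Ks i then Gs hx.choose x else 0) = _
      rw [dif_pos hex]; exact a1
    · show (if hx : ∃ i, x ∈ Ks i then tops hx.choose x else q0) = _
      rw [dif_pos hex]; exact a2
    · show (if hx : ∃ i, x ∈ Ks i then trs hx.choose x t else x) = _
      rw [dif_pos hex]; exact a3 t ht
  exact ⟨G, top, tr, hA, fun i => (h i).congr (fun x hx => (hA i x hx).1)
    (fun x hx => (hA i x hx).2.1) (fun x hx => (hA i x hx).2.2)⟩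

/-- **241's `Tr0` from pieces** -/
def Tr0.ofPieces {G : E' → E} {top : E' → Q} {tr : E' → E → E'}
    {ι : Type*} (Ks : ι → Set E') (hcl : ∀ i, IsClosed (Ks i)) (hsub : ∀ i, Ks i ⊆ Ω)
    (hcov : ∀ x ∈ Ω, ∃ i, x ∈ Ks i) (hT : ∀ i, TrnOn (Ks i) C G top tr)
    (hfin : ∀ q, {i | (Ks i ∩ {x | G x ∈ C.cell q}).Nonempty}.Finite)
    (lf : ∀ x ∈ Ω, ∃ r > 0,
      {q | ({x | x ∈ Ω ∧ q ≤ top x ∧ G x ∈ C.cell q} ∩ Metric.ball x r).Nonempty}.Finite) :
    Tr0 Ω C G where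
  top := top
  tr := tr
  G_mem := fun x hx => by
    obtain ⟨i, hi⟩ := hcov x hx
    exact (hT i).G_mem x hi
  tr_mem := fun x hx t ht => by
    obtain ⟨i, hi⟩ := hcov x hx
    exact hsub i ((hT i).tr_mem x hi t ht)
  tr_G := fun x hx t ht => by
    obtain ⟨i, hi⟩ := hcov x hx
    exact (hT i).tr_G x hi t ht
  tr_top := fun x hx t ht => by
    obtain ⟨i, hi⟩ := hcov x hx
    exact (hT i).tr_top x hi t ht
  tr_self := fun x hx => by
    obtain ⟨i, hi⟩ := hcov x hx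
    exact (hT i).tr_self x hi
  tr_tr := fun x hx t ht s hs => by
    obtain ⟨i, hi⟩ := hcov x hx
    exact (hT i).tr_tr x hi t ht s hs
  plG := fun q => by
    refine plOn_cover (hfin q) hcl (fun x hx => ?_) (fun i => ?_)
    · obtain ⟨i, hi⟩ := hcov x hx.1
      exact ⟨i, ⟨x, hi, hx.2.2⟩, hi⟩
    · exact ((hT i).plG q).mono (fun x hx => ⟨hx.2, hx.1.2⟩)
  plc := fun q => by
    refine plOn_cover (hfin q) hcl (fun x hx => ?_) (fun i => ?_)
    · obtain ⟨i, hi⟩ := hcov x hx.1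
      exact ⟨i, ⟨x, hi, hx.2.2⟩, hi⟩
    · exact ((hT i).plc q).mono (fun x hx => ⟨hx.2, hx.1.2⟩)
  pltr := fun q => by
    refine plOn_cover (Ks := fun i => Ks i ×ˢ (univ : Set E)) (hfin q)
      (fun i => (hcl i).prod isClosed_univ) ?_ (fun i => ?_)
    · rintro ⟨x, t⟩ ⟨hx, ht⟩
      obtain ⟨i, hi⟩ := hcov x hx.1
      refine ⟨i, ⟨x, hi, ?_⟩, hi, mem_univ _⟩
      show G x ∈ C.cell q
      rw [show G x = C.b q from hx.2]
      exact C.bmem q
    · refine ((hT i).pltr q).mono ?_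
      rintro ⟨x, t⟩ ⟨⟨hx, ht⟩, hi, -⟩
      exact ⟨⟨hi, hx.2⟩, ht⟩
  lf := lf

/-- a compact set meets only finitely many cells -/
lemma finite_cells (C : CC Λ Q) {A : Set E} (hA : IsCompact A) (hAL : A ⊆ Λ) :
    {q | (C.cell q ∩ A).Nonempty}.Finite := by
  choose! r hr hf using C.lf
  obtain ⟨t, htA, ht⟩ := hA.elim_nhds_subcover (fun y => ball y (r y))
    (fun y hy => ball_mem_nhds y (hr y (hAL hy)))
  refine (t.finite_toSet.biUnion (fun y hy => hf y (hAL (htA y hy)))).subset ?_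
  rintro q ⟨y, hyq, hyA⟩
  obtain ⟨z, hz, hyz⟩ := mem_iUnion₂.1 (ht hyA)
  exact mem_biUnion hz ⟨y, hyq, hyz⟩

/-- **local finiteness** of the pieces of the cells, from locally finite compact pieces -/
theorem lf_of_pieces {G : E' → E} {top : E' → Q} {ι : Type*} (Ks : ι → Set E')
    (hcpt : ∀ i, IsCompact (Ks i)) (hcov : ∀ x ∈ Ω, ∃ i, x ∈ Ks i)
    (hlf : ∀ x ∈ Ω, ∃ r > 0, {i | (Ks i ∩ ball x r).Nonempty}.Finite)
    (hG : ∀ i, ContinuousOn G (Ks i)) (hGL : ∀ i, MapsTo G (Ks i) Λ) :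
    ∀ x ∈ Ω, ∃ r > 0,
      {q | ({x | x ∈ Ω ∧ q ≤ top x ∧ G x ∈ C.cell q} ∩ Metric.ball x r).Nonempty}.Finite := by
  intro x hx
  obtain ⟨r, hr, hf⟩ := hlf x hx
  refine ⟨r, hr, (hf.biUnion (t := fun i => {q | (C.cell q ∩ G '' (Ks i)).Nonempty})
    (fun i _ => finite_cells C ((hcpt i).image_of_continuousOn (hG i))
      (by rintro _ ⟨z, hz, rfl⟩; exact hGL i hz))).subset ?_⟩
  rintro q ⟨z, ⟨hz, -, hzq⟩, hzr⟩
  obtain ⟨i, hi⟩ := hcov z hz
  exact mem_biUnion (show i ∈ {i | (Ks i ∩ ball x r).Nonempty} from ⟨z, hi, hzr⟩)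
    ⟨G z, hzq, z, hi, rfl⟩

/-- the fibres over the cells meet only finitely many pieces, if they are contained in compact
subsets of `Ω` -/
theorem hfin_of_pieces {G : E' → E} {ι : Type*} (Ks : ι → Set E') (hsub : ∀ i, Ks i ⊆ Ω)
    (hlf : ∀ x ∈ Ω, ∃ r > 0, {i | (Ks i ∩ ball x r).Nonempty}.Finite)
    (hprop : ∀ q, ∃ A : Set E', IsCompact A ∧ A ⊆ Ω ∧ ∀ x ∈ Ω, G x ∈ C.cell q → x ∈ A) (q : Q) :
    {i | (Ks i ∩ {x | G x ∈ C.cell q}).Nonempty}.Finite := by
  obtain ⟨A, hA, hAO, hAq⟩ := hprop q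
  choose! r hr hf using hlf
  obtain ⟨t, htA, ht⟩ := hA.elim_nhds_subcover (fun y => ball y (r y))
    (fun y hy => ball_mem_nhds y (hr y (hAO hy)))
  refine (t.finite_toSet.biUnion (fun y hy => hf y (hAO (htA y hy)))).subset ?_
  rintro i ⟨x, hxi, hxq⟩
  obtain ⟨z, hz, hxz⟩ := mem_iUnion₂.1 (ht (hAq x (hsub i hxi) hxq))
  exact mem_biUnion hz ⟨x, hxi, hxz⟩

/-- the glued map is continuous on the pieces and on `Ω` -/
theorem continuousOn_of_pieces {G : E' → E} {ι : Type*} (Ks : ι → Set E')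
    (hcl : ∀ i, IsClosed (Ks i)) (hcov : ∀ x ∈ Ω, ∃ i, x ∈ Ks i)
    (hlf : ∀ x ∈ Ω, ∃ r > 0, {i | (Ks i ∩ ball x r).Nonempty}.Finite)
    (hG : ∀ i, ContinuousOn G (Ks i)) : ContinuousOn G Ω := by
  rw [continuousOn_iff_continuous_restrict]
  have hlf' : LocallyFinite (fun i => (Subtype.val ⁻¹' Ks i : Set Ω)) := by
    rintro ⟨x, hx⟩
    obtain ⟨r, hr, hf⟩ := hlf x hx
    refine ⟨Subtype.val ⁻¹' ball x r, ?_, hf.subset ?_⟩
    · exact continuous_subtype_val.continuousAt.preimage_mem_nhds (ball_mem_nhds x hr)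
    · rintro i ⟨z, hz1, hz2⟩
      exact ⟨z.1, hz1, hz2⟩
  refine hlf'.continuous ?_ (fun i => (hcl i).preimage continuous_subtype_val) (fun i => ?_)
  · ext ⟨x, hx⟩
    simp only [mem_iUnion, mem_preimage, mem_univ, iff_true]
    exact hcov x hx
  · exact (hG i).comp continuous_subtype_val.continuousOn (fun x hx => hx)

end Crest.Agent.R096.Tg_219
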