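import Crest.Agent.R096.Cel1_715

/-!
# Row 96, 2SK for arbitrary tilings (helper335), part 1: the boundary of a convex body minus a
convex set is connected; functions on the vertices outside a tile
-/

set_option autoImplicit false
set_option linter.unusedSectionVars false

open Set Metric Topology Filter

namespace Crest.Agent.R096.Tgr_335

open Crest.Agent.R096.Msh_715

section Radial

variable {W : Type*} [NormedAddCommGroup W] [NormedSpace ℝ W]

/-- **the frontier of a convex body minus a convex set which misses the interior is connected** -/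
theorem frontier_diff {C K : Set W} (hC : Convex ℝ C) (hC0 : C ∈ 𝓝 (0 : W))
    (hCb : Bornology.IsBounded C) (hK : Convex ℝ K) (hKi : Disjoint K (interior C)) {c0 : W}
    (hc0 : c0 ∈ K) (hc0' : c0 ∈ frontier C) : IsPreconnected (frontier C \ K) := by
  have habs : Absorbent ℝ C := absorbent_nhds_zero hC0
  have hcont : Continuous (gauge C) := continuous_gauge hC hC0
  have hbv : Bornology.IsVonNBounded ℝ C := NormedSpace.isVonNBounded_iff ℝ |>.2 hCb
  have hpos : ∀ v : W, v ≠ 0 → 0 < gauge C v := fun v hv => (gauge_pos habs hbv).2 hv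
  have hfr : ∀ v : W, v ∈ frontier C ↔ gauge C v = 1 := fun v =>
    (gauge_eq_one_iff_mem_frontier hC hC0).symm
  have hin : ∀ v : W, v ∈ interior C ↔ gauge C v < 1 := fun v =>
    (gauge_lt_one_iff_mem_interior hC hC0).symm
  have hge : ∀ v ∈ K, 1 ≤ gauge C v := by
    intro v hv
    by_contra h
    exact (disjoint_left.1 hKi) hv ((hin v).2 (not_le.1 h))
  have hsm : ∀ (r : ℝ) (v : W), 0 ≤ r → gauge C (r • v) = r * gauge C v := fun r v hr => by
    rw [gauge_smul_of_nonneg hr, smul_eq_mul]
  have g0 : gauge C c0 = 1 := (hfr c0).1 hc0'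
  have hc0n : c0 ≠ 0 := by
    rintro rfl
    rw [gauge_zero] at g0
    exact one_ne_zero g0.symm
  let pst : W := (gauge C (-c0))⁻¹ • (-c0)
  refine isPreconnected_of_forall pst ?_
  intro x hx
  have gx : gauge C x = 1 := (hfr x).1 hx.1
  have hw : ∀ τ ∈ Icc (0 : ℝ) 1, (1 - τ) • x - τ • c0 ≠ 0 := by
    intro τ hτ h
    have h1 : (1 - τ) • x = τ • c0 := sub_eq_zero.1 h
    have h2 := congrArg (gauge C) h1
    rw [hsm _ _ (by linarith [hτ.2]), hsm _ _ hτ.1, gx, g0] at h2
    have h3 : τ = 1 / 2 := by linarith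
    rw [h3] at h1
    have h4 : x = c0 := by
      have h5 : (1 : ℝ) - 1 / 2 = 1 / 2 := by norm_num
      rw [h5] at h1
      exact smul_right_injective W (by norm_num : (1 / 2 : ℝ) ≠ 0) h1
    exact hx.2 (h4 ▸ hc0)
  let w : ℝ → W := fun τ => (1 - τ) • x - τ • c0
  have hwc : Continuous w := by fun_prop
  let F : ℝ → W := fun τ => (gauge C (w τ))⁻¹ • w τ
  have hFc : ContinuousOn F (Icc 0 1) := by
    refine ContinuousOn.smul ?_ hwc.continuousOn
    exact ((hcont.comp hwc).continuousOn).inv₀ fun τ hτ => (hpos _ (hw τ hτ)).ne'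
  refine ⟨F '' Icc 0 1, ?_, ⟨1, ⟨zero_le_one, le_refl _⟩, ?_⟩, ⟨0, ⟨le_refl _, zero_le_one⟩, ?_⟩,
    isPreconnected_Icc.image _ hFc⟩
  · rintro _ ⟨τ, hτ, rfl⟩
    have hg := hpos _ (hw τ hτ)
    refine ⟨(hfr _).2 ?_, ?_⟩
    · show gauge C ((gauge C (w τ))⁻¹ • w τ) = 1
      rw [hsm _ _ (inv_nonneg.2 hg.le)]
      exact inv_mul_cancel₀ hg.ne'
    · intro hy0
      obtain ⟨l, hl⟩ : ∃ l, l = gauge C (w τ) := ⟨_, rfl⟩
      obtain ⟨y, hyd⟩ : ∃ y, y = F τ := ⟨_, rfl⟩
      have hy : y ∈ K := by rw [hyd]; exact hy0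
      have hlp : 0 < l := by rw [hl]; exact hg
      have hly : l • y = (1 - τ) • x - τ • c0 := by
        rw [hyd, hl]
        show gauge C (w τ) • ((gauge C (w τ))⁻¹ • w τ) = w τ
        rw [smul_smul, mul_inv_cancel₀ hg.ne', one_smul]
      have gy : gauge C y = 1 := by
        rw [hyd]
        show gauge C ((gauge C (w τ))⁻¹ • w τ) = 1
        rw [hsm _ _ (inv_nonneg.2 hg.le)]
        exact inv_mul_cancel₀ hg.ne'
      have hsum : (1 - τ) • x = l • y + τ • c0 := by rw [hly]; abel
      have hlt : 0 < l + τ := by linarith [hτ.1]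
      have hm : (l / (l + τ)) • y + (τ / (l + τ)) • c0 ∈ K :=
        hK hy hc0 (by positivity) (div_nonneg hτ.1 hlt.le) (by field_simp)
      obtain ⟨m, hmd⟩ : ∃ m, m = (l / (l + τ)) • y + (τ / (l + τ)) • c0 := ⟨_, rfl⟩
      rw [← hmd] at hm
      have hm2 : (l + τ) • m = (1 - τ) • x := by
        rw [hmd, smul_add, smul_smul, smul_smul, mul_div_cancel₀ _ hlt.ne',
          mul_div_cancel₀ _ hlt.ne', hsum]
      rcases eq_or_lt_of_le hτ.2 with e | e
      · rw [e, sub_self, zero_smul] at hm2
        have hm0 : m = 0 := by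
          rcases smul_eq_zero.1 hm2 with h | h
          · rw [e] at hlt; exact absurd h hlt.ne'
          · exact h
        have h1 := hge m hm
        rw [hm0, gauge_zero] at h1
        linarith
      · have h1 := hge m hm
        have h2 := congrArg (gauge C) hm2
        rw [hsm _ _ hlt.le, hsm _ _ (by linarith), gx, mul_one] at h2
        have h3 : gauge C m ≤ 1 := by
          rw [hmd]
          have h4 := gauge_add_le hC habs ((l / (l + τ)) • y) ((τ / (l + τ)) • c0)
          rw [hsm _ _ (by positivity), hsm _ _ (div_nonneg hτ.1 hlt.le), gy, g0, mul_one,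
            mul_one, ← add_div, div_self hlt.ne'] at h4
          exact h4
        have h5 : gauge C m = 1 := le_antisymm h3 h1
        rw [h5, mul_one] at h2
        rw [h2] at hm2
        have h6 : (1 - τ) ≠ 0 := (sub_pos.2 e).ne'
        have h7 : m = x := smul_right_injective W h6 hm2
        exact hx.2 (h7 ▸ hm)
  · show (gauge C ((1 - (1 : ℝ)) • x - (1 : ℝ) • c0))⁻¹ • ((1 - (1 : ℝ)) • x - (1 : ℝ) • c0) = pst
    have : (1 - (1 : ℝ)) • x - (1 : ℝ) • c0 = -c0 := by rw [sub_self, zero_smul, one_smul, zero_sub]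
    rw [this]
  · show (gauge C ((1 - (0 : ℝ)) • x - (0 : ℝ) • c0))⁻¹ • ((1 - (0 : ℝ)) • x - (0 : ℝ) • c0) = x
    have : (1 - (0 : ℝ)) • x - (0 : ℝ) • c0 = x := by rw [sub_zero, zero_smul, one_smul, sub_zero]
    rw [this, gx, inv_one, one_smul]

end Radial

variable {E : Type*} [NormedAddCommGroup E] [NormedSpace ℝ E] [FiniteDimensional ℝ E]
variable {Om : Set E} {ι : Type*} (T : Tiling Om ι)

/-- a closed cell in the coordinates of its direction space, centred at `x` -/
def body (x : E) : Set (T.V x) := {v | x + (v : E) ∈ T.cc x}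

theorem isClosed_body (x : E) : IsClosed (body T x) :=
  (T.isClosed_cc x).preimage (by fun_prop)

theorem convex_body (x : E) : Convex ℝ (body T x) := by
  intro u hu v hv a b ha hb hab
  have h := T.convex_cc x hu hv ha hb hab
  show x + ((a • u + b • v : T.V x) : E) ∈ T.cc x
  have e : x + ((a • u + b • v : T.V x) : E) = a • (x + (u : E)) + b • (x + (v : E)) := by
    have e1 : x = a • x + b • x := by rw [← add_smul, hab, one_smul]
    push_cast
    rw [smul_add, smul_add]
    nth_rewrite 1 [e1]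
    abel
  rw [e]
  exact h

theorem isBounded_body {x : E} (hx : x ∈ Om) : Bornology.IsBounded (body T x) := by
  obtain ⟨B, hB⟩ := (T.isCompact_cc hx).isBounded.exists_norm_le
  rw [isBounded_iff_forall_norm_le]
  refine ⟨B + ‖x‖, fun v hv => ?_⟩
  have h1 := hB _ hv
  have h2 : ‖(v : E)‖ ≤ ‖x + (v : E)‖ + ‖x‖ := by
    have : (v : E) = x + (v : E) - x := by abel
    conv_lhs => rw [this]
    exact norm_sub_le _ _
  have h3 : ‖v‖ = ‖(v : E)‖ := rfl
  rw [h3]
  linarith

theorem body_nhds {x : E} (hx : x ∈ Om) : body T x ∈ 𝓝 (0 : T.V x) := by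
  obtain ⟨r, hr, h⟩ := T.exists_ball_oc hx
  refine Metric.mem_nhds_iff.2 ⟨r, hr, fun v hv => ?_⟩
  rw [mem_ball_zero_iff] at hv
  exact T.oc_sub_cc x (h v v.2 hv)

theorem mem_interior_body {x : E} (hx : x ∈ Om) (v : T.V x) :
    v ∈ interior (body T x) ↔ x + (v : E) ∈ T.oc x := by
  constructor
  · intro hv
    have hc : ContinuousAt (fun s : ℝ => (1 + s) • v) 0 := by fun_prop
    have hev : ∀ᶠ s in 𝓝 (0 : ℝ), (1 + s) • v ∈ interior (body T x) := by
      refine hc.eventually_mem (isOpen_interior.mem_nhds ?_)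
      simpa using hv
    obtain ⟨r, hr, hr'⟩ := Metric.eventually_nhds_iff.1 hev
    have h1 : (1 + r / 2) • v ∈ body T x := interior_subset (hr' (by
      rw [Real.dist_eq, sub_zero, abs_of_pos (by positivity)]; linarith))
    have hpos : 0 < 1 + r / 2 := by positivity
    have h2 := T.move_mem_oc (x := x) (y := x + (((1 + r / 2) • v : T.V x) : E)) h1
      (s := (r / 2) / (1 + r / 2)) (by positivity) (by
        rw [div_le_one hpos]; linarith)
    have e : x + (((1 + r / 2) • v : T.V x) : E) + ((r / 2) / (1 + r / 2)) •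
        (x - (x + (((1 + r / 2) • v : T.V x) : E))) = x + (v : E) := by
      push_cast
      rw [sub_add_cancel_left, smul_neg, smul_smul, add_assoc, ← sub_eq_add_neg, ← sub_smul,
        div_mul_cancel₀ _ hpos.ne']
      simp
    rwa [e] at h2
  · intro hv
    obtain ⟨r, hr, h⟩ := T.exists_ball_oc (T.cc_sub_Om hx (T.oc_sub_cc x hv))
    refine mem_interior.2 ⟨ball v r, fun u hu => ?_, isOpen_ball, mem_ball_self hr⟩
    have h1 : ((u - v : T.V x) : E) ∈ T.V (x + (v : E)) := by
      rw [T.V_eq_of_mem_oc hx hv]; exact (u - v).2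
    have h2 := h _ h1 (by rw [mem_ball_iff_norm] at hu; exact hu)
    rw [T.oc_eq_of_mem hx hv] at h2
    have e : x + (v : E) + ((u - v : T.V x) : E) = x + (u : E) := by push_cast; abel
    rw [e] at h2
    exact T.oc_sub_cc x h2

theorem mem_frontier_body {x : E} (hx : x ∈ Om) (v : T.V x) :
    v ∈ frontier (body T x) ↔ x + (v : E) ∈ T.cc x \ T.oc x := by
  rw [frontier, (isClosed_body T x).closure_eq, Set.mem_sdiff, mem_interior_body T hx]
  rfl

/-- **the relative boundary of a cell minus a convex set which misses the open cell** -/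
theorem bdry_diff {K : Set E} (hK : Convex ℝ K) {x : E} (hx : x ∈ Om) (hd : 2 ≤ T.dim x)
    (hKx : Disjoint K (T.oc x)) : IsPreconnected ((T.cc x \ T.oc x) \ K) := by
  by_cases hne : (K ∩ (T.cc x \ T.oc x)).Nonempty
  · obtain ⟨c, hcK, hc⟩ := hne
    let f : T.V x → E := fun v => x + (v : E)
    have hf : Continuous f := by fun_prop
    have hmem : ∀ y ∈ T.cc x, ∃ v : T.V x, f v = y := fun y hy =>
      ⟨⟨y - x, T.sub_mem_V hy⟩, by simp [f]⟩
    obtain ⟨c0, hc0⟩ := hmem c hc.1
    have hK' : Convex ℝ (f ⁻¹' K) := by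
      intro u hu v hv a b ha hb hab
      have h := hK hu hv ha hb hab
      show x + ((a • u + b • v : T.V x) : E) ∈ K
      have e : x + ((a • u + b • v : T.V x) : E) = a • (x + (u : E)) + b • (x + (v : E)) := by
        have e1 : x = a • x + b • x := by rw [← add_smul, hab, one_smul]
        push_cast
        rw [smul_add, smul_add]
        nth_rewrite 1 [e1]
        abel
      rw [e]
      exact h
    have h1 := frontier_diff (convex_body T x) (body_nhds T hx) (isBounded_body T hx) hK'
      (by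
        rw [disjoint_left]
        intro v hv hv'
        exact (disjoint_left.1 hKx) hv ((mem_interior_body T hx v).1 hv'))
      (c0 := c0) (by show f c0 ∈ K; rw [hc0]; exact hcK)
      ((mem_frontier_body T hx c0).2 (by show f c0 ∈ _; rw [hc0]; exact hc))
    have h2 : (T.cc x \ T.oc x) \ K = f '' (frontier (body T x) \ f ⁻¹' K) := by
      ext y
      constructor
      · rintro ⟨hy, hyK⟩
        obtain ⟨v, rfl⟩ := hmem y hy.1
        exact ⟨v, ⟨(mem_frontier_body T hx v).2 hy, hyK⟩, rfl⟩
      · rintro ⟨v, ⟨hv, hvK⟩, rfl⟩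
        exact ⟨(mem_frontier_body T hx v).1 hv, hvK⟩
    rw [h2]
    exact h1.image _ hf.continuousOn
  · have h1 : (T.cc x \ T.oc x) \ K = T.cc x \ T.oc x := by
      ext y
      constructor
      · exact fun h => h.1
      · exact fun h => ⟨h, fun hyK => hne ⟨y, hyK, h⟩⟩
    rw [h1]
    exact T.isPreconnected_bdry hx hd

end Crest.Agent.R096.Tgr_335
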