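import Crest.Agent.R096.Tgr1_335
import Crest.Agent.R096.Lab5_184
import Crest.Agent.R096.Mrg3_715

/-!
# Row 96, 2SK for arbitrary tilings (helper335), part 2: functions on the vertices outside a tile
-/

set_option autoImplicit false
set_option linter.unusedSectionVars false

open Set Metric Topology Filter

namespace Crest.Agent.R096.Tgr_335

open Crest.Agent.R096.Msh_715 Crest.Agent.R096.Coh_184

variable {E : Type*} [NormedAddCommGroup E] [NormedSpace ℝ E] [FiniteDimensional ℝ E]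
variable {Om : Set E} {ι : Type*} (T : Tiling Om ι)

/-- a linear function does not decrease towards some vertex -/
theorem exists_vertex_ge (h : E →L[ℝ] ℝ) {x : E} (hx : x ∈ Om) :
    ∃ p ∈ T.cc x, T.dim p = 0 ∧ h x ≤ h p := by
  induction hd : T.dim x using Nat.strong_induction_on generalizing x with
  | _ d ih =>
    rcases Nat.eq_zero_or_pos d with h0 | h0
    · exact ⟨x, T.self_mem_cc x, hd.trans h0, le_refl _⟩
    · have hne : T.V x ≠ ⊥ := by
        intro h
        have := T.dim_eq_zero_iff.2 h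
        omega
      obtain ⟨v, hv, hv0⟩ := Submodule.exists_mem_ne_zero_of_ne_bot hne
      obtain ⟨v, hv, hv0, hv1⟩ : ∃ v ∈ T.V x, v ≠ 0 ∧ 0 ≤ h v := by
        rcases le_total 0 (h v) with h1 | h1
        · exact ⟨v, hv, hv0, h1⟩
        · exact ⟨-v, (T.V x).neg_mem hv, neg_ne_zero.2 hv0, by rw [map_neg]; linarith⟩
      obtain ⟨t, ht, h1, h2, -⟩ := T.exists_exit hx hv hv0
      have hlt := T.dim_lt h1 h2
      obtain ⟨p, hp, hp0, hp1⟩ := ih _ (hd ▸ hlt) (T.cc_sub_Om hx h1) rfl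
      refine ⟨p, T.cc_sub_of_mem h1 hp, hp0, ?_⟩
      rw [map_add, map_smul, smul_eq_mul] at hp1
      nlinarith [mul_nonneg ht.le hv1]

/-- a cell outside a tile has a vertex outside the tile -/
theorem exists_vertex_off {i : ι} {x : E} (hx : x ∈ Om) (hn : x ∉ P (T.H i)) :
    ∃ p ∈ T.cc x, T.dim p = 0 ∧ p ∉ P (T.H i) := by
  have h1 : ∃ h ∈ T.H i, h.2 < h.1 x := by
    by_contra hcon
    push Not at hcon
    exact hn hcon
  obtain ⟨h, hh, hlt⟩ := h1
  obtain ⟨p, hp, hp0, hp1⟩ := exists_vertex_ge T h.1 hx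
  exact ⟨p, hp, hp0, fun hpK => by have := hpK h hh; linarith⟩

/-- the closed cell of a point of a tile is in the tile -/
theorem cc_sub_P {i : ι} {x : E} (hx : x ∈ P (T.H i)) : T.cc x ⊆ P (T.H i) := T.cc_sub_tile hx

theorem disjoint_oc {i : ι} {x : E} (hx : x ∈ Om) (hn : x ∉ P (T.H i)) :
    Disjoint (P (T.H i)) (T.oc x) := by
  rw [disjoint_left]
  intro y hy hy'
  have h1 := cc_sub_P T hy
  rw [T.cc_eq_of_mem_oc hx hy'] at h1
  exact hn (h1 (T.self_mem_cc x))

/-- the key step: agreement cell by cell, off a tile -/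
theorem const_of_cells_off {A : Type*} {φ : E → A} {C : Set E} {i : ι} (hC : IsPreconnected C)
    (hCO : C ⊆ Om) (hCn : ∀ x ∈ C, x ∉ P (T.H i))
    (hcell : ∀ x ∈ C, ∀ v ∈ T.cc x, ∀ w ∈ T.cc x, T.dim v = 0 → T.dim w = 0 →
      v ∉ P (T.H i) → w ∉ P (T.H i) → φ v = φ w) :
    ∀ x ∈ C, ∀ y ∈ C, ∀ v ∈ T.cc x, ∀ w ∈ T.cc y, T.dim v = 0 → T.dim w = 0 →
      v ∉ P (T.H i) → w ∉ P (T.H i) → φ v = φ w := by
  have hvert : ∀ x ∈ C, ∃ v ∈ T.cc x, T.dim v = 0 ∧ v ∉ P (T.H i) := fun x hx =>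
    exists_vertex_off T (hCO hx) (hCn x hx)
  choose! g hg hg0 hgn using hvert
  have hlc : LC (fun x => φ (g x)) C := by
    intro x hx
    have h1 : ∀ᶠ y in 𝓝[C] x, y ∈ Om ∧ x ∈ T.cc y :=
      (T.eventually_mem_cc (hCO hx)).filter_mono nhdsWithin_le_nhds
    filter_upwards [h1, self_mem_nhdsWithin] with y hy hyC
    exact hcell y hyC _ (hg y hyC) _ (T.cc_sub_of_mem hy.2 (hg x hx)) (hg0 y hyC) (hg0 x hx)
      (hgn y hyC) (hgn x hx)
  intro x hx y hy v hv w hw hv0 hw0 hvn hwn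
  have h1 := hcell x hx v hv (g x) (hg x hx) hv0 (hg0 x hx) hvn (hgn x hx)
  have h2 := hcell y hy w hw (g y) (hg y hy) hw0 (hg0 y hy) hwn (hgn y hy)
  rw [h1, h2]
  exact hlc.eq_of_preconnected hC hx hy

/-- `φ` is constant along the edges of `C` with both ends outside the tile -/
def OffConst {A : Type*} (i : ι) (φ : E → A) (C : Set E) : Prop :=
  ∀ e ∈ C, T.dim e = 1 → ∀ a b, T.cc e = segment ℝ a b → a ∉ P (T.H i) → b ∉ P (T.H i) → φ a = φ b

/-- **in a cell the vertices outside a tile are joined by edges outside the tile** -/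
theorem const_cell_off {A : Type*} {φ : E → A} {i : ι} {x : E} (hx : x ∈ Om)
    (hφ : OffConst T i φ (T.cc x)) :
    ∀ v ∈ T.cc x, ∀ w ∈ T.cc x, T.dim v = 0 → T.dim w = 0 → v ∉ P (T.H i) → w ∉ P (T.H i) →
      φ v = φ w := by
  induction hd : T.dim x using Nat.strong_induction_on generalizing x with
  | _ d ih =>
    intro v hv w hw hv0 hw0 hvn hwn
    rcases Nat.lt_or_ge d 2 with h2 | h2
    · rcases Nat.eq_zero_or_pos d with h0 | h0
      · have h1 := T.cc_eq_singleton (T.dim_eq_zero_iff.1 (hd.trans h0))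
        rw [h1, mem_singleton_iff] at hv hw
        rw [hv, hw]
      · have h1 : T.dim x = 1 := by omega
        obtain ⟨a, b, -, e1, -, -, -, -, -⟩ := T.edge_eq hx h1
        have hab := hφ x (T.self_mem_cc x) h1 a b e1
        rcases T.vertex_of_edge hx h1 e1 hv hv0 with rfl | rfl <;>
          rcases T.vertex_of_edge hx h1 e1 hw hw0 with rfl | rfl
        · rfl
        · exact hab hvn hwn
        · exact (hab hwn hvn).symm
        · rfl
    · have hxn : x ∉ P (T.H i) := fun hxK => hvn (cc_sub_P T hxK hv)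
      have hb := bdry_diff T (convex_P (T.H i)) hx (by rw [hd]; exact h2) (disjoint_oc T hx hxn)
      have hbO : (T.cc x \ T.oc x) \ P (T.H i) ⊆ Om := fun y hy => T.cc_sub_Om hx hy.1.1
      have hmem : ∀ {v : E}, v ∈ T.cc x → T.dim v = 0 → v ∉ P (T.H i) →
          v ∈ (T.cc x \ T.oc x) \ P (T.H i) := by
        intro v hv hv0 hvn
        refine ⟨⟨hv, fun h => ?_⟩, hvn⟩
        have := T.dim_eq_of_mem_oc hx h
        omega
      refine const_of_cells_off T hb hbO (fun y hy => hy.2) (fun y hy => ?_) v (hmem hv hv0 hvn)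
        w (hmem hw hw0 hwn) v (T.self_mem_cc v) w (T.self_mem_cc w) hv0 hw0 hvn hwn
      exact ih (T.dim y) (hd ▸ T.dim_lt hy.1.1 hy.1.2) (hbO hy)
        (fun e he => hφ e (T.cc_sub_of_mem hy.1.1 he)) rfl

/-- the complement of a compact convex body in a connected open set is connected -/
theorem compl_preconnected {O C : Set E} (h3 : Module.finrank ℝ E = 3) (hO : IsOpen O)
    (hOc : IsPreconnected O) (hC : Convex ℝ C) (hCc : IsCompact C) (hCO : C ⊆ O)
    {z : E} (hz : z ∈ interior C) : IsPreconnected (O \ C) := by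
  obtain ⟨r, hr, hrO⟩ : ∃ r : ℝ, 0 < r ∧ ∀ s : ℝ, 0 ≤ s → s ≤ r → ∀ x ∈ C, x + s • (x - z) ∈ O := by
    obtain ⟨ε, hε, hε'⟩ := hCc.exists_thickening_subset_open hO hCO
    obtain ⟨B, hB⟩ := hCc.isBounded.exists_norm_le
    have hB0 : 0 ≤ B := (norm_nonneg _).trans (hB z (interior_subset hz))
    refine ⟨ε / (2 * (2 * B + 1)), by positivity, fun s hs0 hs x hx => hε' ?_⟩
    rw [mem_thickening_iff]
    refine ⟨x, hx, ?_⟩
    rw [dist_eq_norm, add_sub_cancel_left, norm_smul, Real.norm_eq_abs, abs_of_nonneg hs0]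
    have h1 : ‖x - z‖ ≤ 2 * B := by
      calc ‖x - z‖ ≤ ‖x‖ + ‖z‖ := norm_sub_le _ _
        _ ≤ 2 * B := by linarith [hB x hx, hB z (interior_subset hz)]
    calc s * ‖x - z‖ ≤ ε / (2 * (2 * B + 1)) * (2 * B) := by gcongr
      _ < ε := by
        rw [div_mul_eq_mul_div, div_lt_iff₀ (by positivity)]
        nlinarith
  -- the gauge
  let τ : E ≃ₜ E := Homeomorph.addLeft z
  let C0 : Set E := τ ⁻¹' C
  have hτ : ∀ v, τ v = z + v := fun v => rfl
  have hC0i : interior C0 = τ ⁻¹' interior C := (τ.preimage_interior C).symm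
  have hC0f : frontier C0 = τ ⁻¹' frontier C := (τ.preimage_frontier C).symm
  have hC0c : IsClosed C0 := hCc.isClosed.preimage τ.continuous
  have hC0 : Convex ℝ C0 := by
    intro u hu v hv a b ha hb hab
    have h := hC hu hv ha hb hab
    show z + (a • u + b • v) ∈ C
    have e : z + (a • u + b • v) = a • (z + u) + b • (z + v) := by
      have e1 : z = a • z + b • z := by rw [← add_smul, hab, one_smul]
      rw [smul_add, smul_add]
      nth_rewrite 1 [e1]
      abel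
    rw [e]
    exact h
  have hC00 : C0 ∈ 𝓝 (0 : E) := by
    rw [_root_.mem_nhds_iff]
    refine ⟨interior C0, interior_subset, isOpen_interior, ?_⟩
    rw [hC0i]
    show z + 0 ∈ interior C
    rwa [add_zero]
  have hg1 : ∀ v, v ∈ frontier C0 ↔ gauge C0 v = 1 := fun v =>
    (gauge_eq_one_iff_mem_frontier hC0 hC00).symm
  have hg2 : ∀ v, v ∈ interior C0 ↔ gauge C0 v < 1 := fun v =>
    (gauge_lt_one_iff_mem_interior hC0 hC00).symm
  have hg3 : ∀ v, v ∈ C0 ↔ gauge C0 v ≤ 1 := fun v => by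
    rw [gauge_le_one_iff_mem_closure hC0 hC00, hC0c.closure_eq]
  have hsm : ∀ (c : ℝ) (v : E), 0 ≤ c → gauge C0 (c • v) = c * gauge C0 v := fun c v hc => by
    rw [gauge_smul_of_nonneg hc, smul_eq_mul]
  -- the shell
  let F : E × ℝ → E := fun q => q.1 + q.2 • (q.1 - z)
  have hF : Continuous F := by fun_prop
  let A : Set E := F '' (frontier C ×ˢ Ioo 0 r)
  have hA : IsPreconnected A :=
    ((Lab_184.isPreconnected_frontier h3 hCc hC ⟨z, hz⟩).prod isPreconnected_Ioo).image _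
      hF.continuousOn
  have hgF : ∀ x s, 0 ≤ s → gauge C0 (F (x, s) - z) = (1 + s) * gauge C0 (x - z) := by
    intro x s hs
    have e : F (x, s) - z = (1 + s) • (x - z) := by
      show x + s • (x - z) - z = _
      rw [add_smul, one_smul]; abel
    rw [e, hsm _ _ (by linarith)]
  have hmemC : ∀ y, y ∈ C ↔ gauge C0 (y - z) ≤ 1 := fun y => by
    rw [← hg3]
    show y ∈ C ↔ z + (y - z) ∈ C
    rw [add_sub_cancel]
  have hmemf : ∀ y, y ∈ frontier C ↔ gauge C0 (y - z) = 1 := fun y => by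
    rw [← hg1, hC0f]
    show y ∈ frontier C ↔ z + (y - z) ∈ frontier C
    rw [add_sub_cancel]
  have hAO : A ⊆ O \ C := by
    rintro _ ⟨⟨x, s⟩, ⟨hx, hs⟩, rfl⟩
    have hx : x ∈ frontier C := hx
    have hs : s ∈ Ioo 0 r := hs
    refine ⟨hrO s hs.1.le hs.2.le x (hCc.isClosed.frontier_subset hx), fun h => ?_⟩
    rw [hmemC, hgF x s hs.1.le, (hmemf x).1 hx] at h
    linarith [hs.1]
  -- the neighbourhood
  let N : Set E := {y | gauge C0 (y - z) < 1 + r}
  have hN : IsOpen N :=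
    isOpen_lt ((continuous_gauge hC0 hC00).comp (by fun_prop)) continuous_const
  have hNC : ∀ y ∈ N, y ∉ C → y ∈ A := by
    intro y hy hyC
    have h1 : 1 < gauge C0 (y - z) := by
      by_contra hcon
      exact hyC ((hmemC y).2 (not_lt.1 hcon))
    have hy : gauge C0 (y - z) < 1 + r := hy
    set γ := gauge C0 (y - z) with hγ
    have hγ0 : 0 < γ := by linarith
    refine ⟨(z + γ⁻¹ • (y - z), γ - 1), ⟨?_, ?_, ?_⟩, ?_⟩
    · show z + γ⁻¹ • (y - z) ∈ frontier C
      rw [hmemf, add_sub_cancel_left, hsm _ _ (inv_nonneg.2 hγ0.le), ← hγ,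
        inv_mul_cancel₀ hγ0.ne']
    · show 0 < γ - 1
      linarith
    · show γ - 1 < r
      linarith
    · show z + γ⁻¹ • (y - z) + (γ - 1) • (z + γ⁻¹ • (y - z) - z) = y
      rw [add_sub_cancel_left, smul_smul, add_assoc, ← add_smul]
      have : γ⁻¹ + (γ - 1) * γ⁻¹ = 1 := by field_simp; ring
      rw [this, one_smul, add_sub_cancel]
  have hCN : C ⊆ N := fun y hy => by
    have := (hmemC y).1 hy
    show gauge C0 (y - z) < 1 + r
    linarith
  have key : ∀ U V : Set E, IsOpen U → IsOpen V → O \ C ⊆ U ∪ V → ((O \ C) ∩ U).Nonempty →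
      ((O \ C) ∩ V).Nonempty → A ∩ V = ∅ → ((O \ C) ∩ (U ∩ V)).Nonempty := by
    intro U V hU hV hUV hnU hnV hAV
    have h1 : O ⊆ (U ∪ N) ∪ (V \ C) := by
      intro y hy
      by_cases hyC : y ∈ C
      · exact Or.inl (Or.inr (hCN hyC))
      · rcases hUV ⟨hy, hyC⟩ with h | h
        · exact Or.inl (Or.inl h)
        · exact Or.inr ⟨h, hyC⟩
    obtain ⟨y, hyO, hy1, hy2⟩ := hOc (U ∪ N) (V \ C) (hU.union hN) (hV.sdiff hCc.isClosed) h1
      (by obtain ⟨y, hy, hyU⟩ := hnU; exact ⟨y, hy.1, Or.inl hyU⟩)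
      (by obtain ⟨y, hy, hyV⟩ := hnV; exact ⟨y, hy.1, hyV, hy.2⟩)
    rcases hy1 with hy1 | hy1
    · exact ⟨y, ⟨hyO, hy2.2⟩, hy1, hy2.1⟩
    · have h2 : y ∈ A ∩ V := ⟨hNC y hy1 hy2.2, hy2.1⟩
      rw [hAV] at h2
      exact h2.elim
  intro U V hU hV hUV hnU hnV
  by_cases h1 : (A ∩ V).Nonempty
  · by_cases h2 : (A ∩ U).Nonempty
    · obtain ⟨y, hy, hy'⟩ := hA U V hU hV (hAO.trans hUV) h2 h1
      exact ⟨y, hAO hy, hy'⟩
    · rw [Set.not_nonempty_iff_eq_empty] at h2
      obtain ⟨y, hy, hy'⟩ := key V U hV hU (by rwa [union_comm]) hnV hnU h2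
      exact ⟨y, hy, hy'.2, hy'.1⟩
  · rw [Set.not_nonempty_iff_eq_empty] at h1
    exact key U V hU hV hUV hnU hnV h1

/-- **the vertices outside a tile are joined by edges outside the tile** -/
theorem const_off {A : Type*} {φ : E → A} {i : ι} (h3 : Module.finrank ℝ E = 3)
    (hOm : IsPreconnected Om) (hφ : OffConst T i φ Om) :
    ∀ v ∈ Om, ∀ w ∈ Om, T.dim v = 0 → T.dim w = 0 → v ∉ P (T.H i) → w ∉ P (T.H i) → φ v = φ w := by
  have hpc : IsPreconnected (Om \ P (T.H i)) := by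
    obtain ⟨z, hz⟩ := T.ne i
    have hz' : z ∈ interior (P (T.H i)) :=
      mem_interior.2 ⟨I (T.H i), fun y hy h hh => (hy h hh).le, isOpen_I _, hz⟩
    exact compl_preconnected h3 T.op hOm (convex_P _) (T.cpt i) (T.sub i) hz'
  intro v hv w hw hv0 hw0 hvn hwn
  exact const_of_cells_off T hpc sdiff_subset (fun x hx => hx.2)
    (fun x hx => const_cell_off T hx.1 (fun e he => hφ e (T.cc_sub_Om hx.1 he)))
    v ⟨hv, hvn⟩ w ⟨hw, hwn⟩ v (T.self_mem_cc v) w (T.self_mem_cc w) hv0 hw0 hvn hwn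

/-- the vertices of a cell in a tile are joined by edges in the tile -/
theorem const_in {A : Type*} {φ : E → A} {i : ι} {x : E}
    (hφ : T.EdgeConst φ (T.cc x ∩ P (T.H i))) :
    ∀ v ∈ T.cc x, ∀ w ∈ T.cc x, T.dim v = 0 → T.dim w = 0 → v ∈ P (T.H i) → w ∈ P (T.H i) →
      φ v = φ w := by
  intro v hv w hw hv0 hw0 hvn hwn
  exact T.const_of_preconnected (((T.convex_cc x).inter (convex_P _)).isPreconnected)
    (fun y hy => T.sub i hy.2) (fun y hy => subset_inter (T.cc_sub_of_mem hy.1) (cc_sub_P T hy.2))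
    hφ v ⟨hv, hvn⟩ w ⟨hw, hwn⟩ hv0 hw0

end Crest.Agent.R096.Tgr_335
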