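import Mathlib

/-!
Row 96 (S0127), helper766.  Theorem C of #4068, step (1): the semi-discrete mass lemma.
For a finite measure `μ` on `Q`, bounded measurable functions `c j` (`j` in a finite type) and
positive masses `m j` of total mass `μ Q` there are weights `w` such that for every set `J` of
indices the closed Laguerre cells `{c j - w j = max}` with `j ∈ J` cover mass at least `∑_J m j`.
-/

set_option autoImplicit false
set_option linter.unusedSectionVars false
set_option linter.style.longLine false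

namespace Crest.Agent.R096.ThC1_766

open MeasureTheory Set Filter Topology

variable {Q ι : Type*} [MeasurableSpace Q] [Fintype ι] [Nonempty ι]

/-- the maximum `max_j (c j q - w j)`. -/
noncomputable def S (c : ι → Q → ℝ) (w : ι → ℝ) (q : Q) : ℝ :=
  Finset.univ.sup' Finset.univ_nonempty (fun j => c j q - w j)

lemma le_S (c : ι → Q → ℝ) (w : ι → ℝ) (q : Q) (j : ι) : c j q - w j ≤ S c w q :=
  Finset.le_sup' (fun j => c j q - w j) (Finset.mem_univ j)

lemma S_le {c : ι → Q → ℝ} {w : ι → ℝ} {q : Q} {b : ℝ} (h : ∀ j, c j q - w j ≤ b) : S c w q ≤ b :=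
  Finset.sup'_le _ _ (fun j _ => h j)

lemma exists_S (c : ι → Q → ℝ) (w : ι → ℝ) (q : Q) : ∃ j, S c w q = c j q - w j := by
  obtain ⟨j, -, hj⟩ := Finset.exists_mem_eq_sup' Finset.univ_nonempty (fun j => c j q - w j)
  exact ⟨j, hj⟩

lemma S_lip (c : ι → Q → ℝ) (w w' : ι → ℝ) (q : Q) : S c w q ≤ S c w' q + ‖w - w'‖ := by
  refine S_le fun j => ?_
  have h1 := le_S c w' q j
  have h2 : |(w - w') j| ≤ ‖w - w'‖ := by
    simpa [Real.norm_eq_abs] using norm_le_pi_norm (w - w') j
  have h3 := (abs_le.1 h2).1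
  simp only [Pi.sub_apply] at h3
  linarith

lemma S_abs {c : ι → Q → ℝ} {B : ℝ} (hB : ∀ j q, |c j q| ≤ B) (w : ι → ℝ) (q : Q) :
    |S c w q| ≤ B + ‖w‖ := by
  have hw : ∀ j, |w j| ≤ ‖w‖ := fun j => by simpa [Real.norm_eq_abs] using norm_le_pi_norm w j
  rw [abs_le]
  constructor
  · obtain ⟨j⟩ := (inferInstance : Nonempty ι)
    have h1 := le_S c w q j
    have h2 := abs_le.1 (hB j q)
    have h3 := abs_le.1 (hw j)
    linarith
  · refine S_le fun j => ?_
    have h2 := abs_le.1 (hB j q)
    have h3 := abs_le.1 (hw j)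
    linarith

lemma measurable_S {c : ι → Q → ℝ} (hc : ∀ j, Measurable (c j)) (w : ι → ℝ) :
    Measurable (S c w) := by
  have : S c w = Finset.univ.sup' Finset.univ_nonempty (fun j q => c j q - w j) := by
    funext q
    simp [S, Finset.sup'_apply]
  rw [this]
  refine Finset.measurable_sup' _ fun j _ => (hc j).sub_const _

lemma integrable_S {μ : Measure Q} [IsFiniteMeasure μ] {c : ι → Q → ℝ} {B : ℝ}
    (hc : ∀ j, Measurable (c j)) (hB : ∀ j q, |c j q| ≤ B) (w : ι → ℝ) :
    Integrable (S c w) μ :=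
  Integrable.of_bound (measurable_S hc w).aestronglyMeasurable (B + ‖w‖)
    (Eventually.of_forall fun q => by simpa [Real.norm_eq_abs] using S_abs hB w q)

/-- the Kantorovich functional. -/
noncomputable def VV (μ : Measure Q) (c : ι → Q → ℝ) (m w : ι → ℝ) : ℝ :=
  ∫ q, S c w q ∂μ + ∑ j, m j * w j

lemma VV_cont {μ : Measure Q} [IsFiniteMeasure μ] {c : ι → Q → ℝ} {B : ℝ}
    (hc : ∀ j, Measurable (c j)) (hB : ∀ j q, |c j q| ≤ B) (m : ι → ℝ) :
    Continuous (VV μ c m) := by
  have h1 : LipschitzWith (μ.real univ).toNNReal (fun w : ι → ℝ => ∫ q, S c w q ∂μ) := by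
    apply LipschitzWith.of_le_add_mul
    intro w w'
    have h2 : ∫ q, S c w q ∂μ ≤ ∫ q, (S c w' q + ‖w - w'‖) ∂μ :=
      integral_mono (integrable_S hc hB w) ((integrable_S hc hB w').add (integrable_const _))
        (fun q => S_lip c w w' q)
    rw [integral_add (integrable_S hc hB w') (integrable_const _), integral_const] at h2
    rw [Real.coe_toNNReal _ measureReal_nonneg, dist_eq_norm]
    simpa [smul_eq_mul] using h2
  exact h1.continuous.add (by fun_prop)

lemma VV_shift {μ : Measure Q} [IsFiniteMeasure μ] {c : ι → Q → ℝ} {B : ℝ}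
    (hc : ∀ j, Measurable (c j)) (hB : ∀ j q, |c j q| ≤ B) {m : ι → ℝ}
    (hm : ∑ j, m j = μ.real univ) (w : ι → ℝ) (t : ℝ) :
    VV μ c m (fun j => w j + t) = VV μ c m w := by
  have h1 : ∀ q, S c (fun j => w j + t) q = S c w q + -t := by
    intro q
    apply le_antisymm
    · refine S_le fun j => ?_
      have := le_S c w q j
      linarith
    · obtain ⟨j, hj⟩ := exists_S c w q
      have := le_S c (fun j => w j + t) q j
      rw [hj]
      linarith
  unfold VV
  simp only [h1]
  rw [integral_add (integrable_S hc hB w) (integrable_const _), integral_const]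
  have h2 : ∑ j, m j * (w j + t) = ∑ j, m j * w j + μ.real univ * t := by
    simp only [mul_add, Finset.sum_add_distrib, ← Finset.sum_mul, hm]
  rw [h2]
  simp only [smul_eq_mul]
  ring

/-- existence of a global minimiser of the Kantorovich functional. -/
lemma exists_min {μ : Measure Q} [IsFiniteMeasure μ] {c : ι → Q → ℝ} {B : ℝ}
    (hc : ∀ j, Measurable (c j)) (hB : ∀ j q, |c j q| ≤ B) {m : ι → ℝ} (hmp : ∀ j, 0 < m j)
    (hm : ∑ j, m j = μ.real univ) :
    ∃ w : ι → ℝ, ∀ w', VV μ c m w ≤ VV μ c m w' := by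
  obtain ⟨j0, hj0⟩ := Finite.exists_min m
  have hB0 : 0 ≤ B := by
    by_contra hneg
    push Not at hneg
    by_cases hQ : Nonempty Q
    · obtain ⟨q⟩ := hQ
      have := hB j0 q
      linarith [abs_nonneg (c j0 q)]
    · rw [not_nonempty_iff] at hQ
      have h0 : μ.real univ = 0 := by
        rw [Set.univ_eq_empty_iff.2 hQ]; simp
      have h1 : 0 < ∑ j, m j := Finset.sum_pos (fun j _ => hmp j) Finset.univ_nonempty
      linarith
  set K : ℝ := (2 * B * μ.real univ + 1) / m j0 with hK
  have hμ : 0 ≤ μ.real univ := measureReal_nonneg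
  have hK0 : 0 < K := by
    have := hmp j0
    positivity
  obtain ⟨w, hw, hwmin⟩ := (isCompact_Icc (a := (0 : ι → ℝ)) (b := fun _ => K)).exists_isMinOn
    ⟨0, by simp [Pi.le_def, hK0.le]⟩ (VV_cont hc hB m).continuousOn (f := VV μ c m)
  have hV0 : VV μ c m 0 ≤ B * μ.real univ := by
    unfold VV
    have h1 : ∫ q, S c 0 q ∂μ ≤ ∫ _q, B ∂μ :=
      integral_mono (integrable_S hc hB 0) (integrable_const _) (fun q => S_le fun j => by
        have := (abs_le.1 (hB j q)).2
        simpa using this)
    rw [integral_const, smul_eq_mul] at h1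
    simp only [Pi.zero_apply, mul_zero, Finset.sum_const_zero, add_zero]
    linarith
  refine ⟨w, fun w' => ?_⟩
  obtain ⟨i0, hi0⟩ := Finite.exists_min w'
  set w'' : ι → ℝ := fun j => w' j + (- w' i0) with hw''
  have hs : VV μ c m w'' = VV μ c m w' := VV_shift hc hB hm w' (- w' i0)
  rw [← hs]
  have hnn : ∀ j, 0 ≤ w'' j := fun j => by
    have := hi0 j
    simp only [hw'']
    linarith
  by_cases hbox : ∀ j, w'' j ≤ K
  · exact hwmin (a := w'') ⟨fun j => hnn j, fun j => hbox j⟩
  · push Not at hbox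
    obtain ⟨k, hk⟩ := hbox
    have h1 : -B * μ.real univ ≤ ∫ q, S c w'' q ∂μ := by
      have h2 : ∫ _q, (-B) ∂μ ≤ ∫ q, S c w'' q ∂μ :=
        integral_mono (integrable_const _) (integrable_S hc hB w'') (fun q => by
          have h3 := le_S c w'' q i0
          have h4 : w'' i0 = 0 := by simp [hw'']
          have h5 := (abs_le.1 (hB i0 q)).1
          simp only
          linarith)
      rw [integral_const, smul_eq_mul] at h2
      linarith
    have h6 : m k * w'' k ≤ ∑ j, m j * w'' j :=
      Finset.single_le_sum (f := fun j => m j * w'' j) (fun j _ => mul_nonneg (hmp j).le (hnn j))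
        (Finset.mem_univ k)
    have h7 : 2 * B * μ.real univ + 1 ≤ m k * w'' k := by
      have h8 : m j0 * K = 2 * B * μ.real univ + 1 := by
        rw [hK]; field_simp [(hmp j0).ne']
      have h9 : m j0 * K ≤ m k * w'' k :=
        mul_le_mul (hj0 k) hk.le hK0.le (hmp k).le
      linarith
    have h10 : VV μ c m w ≤ VV μ c m 0 := hwmin (a := 0) (by simp [Pi.le_def, hK0.le])
    have h11 : VV μ c m w'' = ∫ q, S c w'' q ∂μ + ∑ j, m j * w'' j := rfl
    linarith

/-- **semi-discrete mass lemma**, equality of total masses. -/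
theorem mass_eq {μ : Measure Q} [IsFiniteMeasure μ] {c : ι → Q → ℝ} {B : ℝ}
    (hc : ∀ j, Measurable (c j)) (hB : ∀ j q, |c j q| ≤ B) {m : ι → ℝ} (hmp : ∀ j, 0 < m j)
    (hm : ∑ j, m j = μ.real univ) :
    ∃ w : ι → ℝ, ∀ J : Finset ι,
      ∑ j ∈ J, m j ≤ μ.real {q | ∃ j ∈ J, ∀ k, c k q - w k ≤ c j q - w j} := by
  classical
  obtain ⟨w, hw⟩ := exists_min hc hB hmp hm
  refine ⟨w, fun J => ?_⟩
  rcases J.eq_empty_or_nonempty with rfl | hJ
  · simp
  set G : Q → ℝ := fun q => J.sup' hJ (fun j => c j q - w j) with hG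
  have hGm : Measurable G := by
    have : G = J.sup' hJ (fun j q => c j q - w j) := by
      funext q
      simp [hG, Finset.sup'_apply]
    rw [this]
    exact Finset.measurable_sup' _ fun j _ => (hc j).sub_const _
  have hSm := measurable_S hc w
  -- the comparison at scale s
  have key : ∀ s : ℝ, 0 < s → ∑ j ∈ J, m j ≤ μ.real {q | S c w q ≤ G q + s} := by
    intro s hs
    set w' : ι → ℝ := fun j => if j ∈ J then w j - s else w j with hw'
    have hA : MeasurableSet {q | S c w q ≤ G q + s} := measurableSet_le hSm (hGm.add_const _)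
    have h1 : ∀ q, S c w' q ≤ S c w q + ({q | S c w q ≤ G q + s}.indicator (fun _ => s)) q := by
      intro q
      by_cases hq : S c w q ≤ G q + s
      · rw [indicator_of_mem (show q ∈ {q | S c w q ≤ G q + s} from hq)]
        refine S_le fun j => ?_
        have := le_S c w q j
        by_cases hj : j ∈ J
        · simp only [hw', hj, if_true]; linarith
        · simp only [hw', hj, if_false]; linarith
      · rw [indicator_of_notMem (show q ∉ {q | S c w q ≤ G q + s} from hq), add_zero]
        push Not at hq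
        refine S_le fun j => ?_
        have := le_S c w q j
        by_cases hj : j ∈ J
        · simp only [hw', hj, if_true]
          have h2 : c j q - w j ≤ G q := Finset.le_sup' (fun j => c j q - w j) hj
          linarith
        · simp only [hw', hj, if_false]; linarith
    have hind : Integrable ({q | S c w q ≤ G q + s}.indicator (fun _ => s)) μ :=
      (integrable_const s).indicator hA
    have h2 : ∫ q, S c w' q ∂μ ≤ ∫ q, S c w q ∂μ + s * μ.real {q | S c w q ≤ G q + s} := by
      have h3 := integral_mono (μ := μ) (integrable_S hc hB w') ((integrable_S hc hB w).add hind)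
        (fun q => h1 q)
      simp only [Pi.add_apply] at h3
      rw [integral_add (integrable_S hc hB w) hind, integral_indicator hA, setIntegral_const,
        smul_eq_mul] at h3
      linarith
    have h4 : ∑ j, m j * w' j = ∑ j, m j * w j - s * ∑ j ∈ J, m j := by
      have h5 : ∀ j, m j * w' j = m j * w j - (if j ∈ J then s * m j else 0) := by
        intro j
        by_cases hj : j ∈ J
        · simp only [hw', hj, if_true]; ring
        · simp only [hw', hj, if_false]; ring
      simp only [h5, Finset.sum_sub_distrib, Finset.sum_ite_mem, Finset.univ_inter]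
      rw [Finset.mul_sum]
    have h6 := hw w'
    unfold VV at h6
    have h7 : s * ∑ j ∈ J, m j ≤ s * μ.real {q | S c w q ≤ G q + s} := by linarith
    exact le_of_mul_le_mul_left h7 hs
  -- pass to the limit s → 0
  have hset : {q | ∃ j ∈ J, ∀ k, c k q - w k ≤ c j q - w j} = ⋂ n : ℕ, {q | S c w q ≤ G q + 1 / ((n : ℝ) + 1)} := by
    ext q
    simp only [mem_ofPred_eq, mem_iInter]
    constructor
    · rintro ⟨j, hj, hk⟩ n
      have h1 : S c w q ≤ c j q - w j := S_le hk
      have h2 : c j q - w j ≤ G q := Finset.le_sup' (fun j => c j q - w j) hj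
      have h3 : 0 < 1 / ((n : ℝ) + 1) := by positivity
      linarith
    · intro h
      have h1 : S c w q ≤ G q := by
        refine le_of_forall_pos_le_add fun ε hε => ?_
        obtain ⟨n, hn⟩ := exists_nat_one_div_lt hε
        exact (h n).trans (by linarith)
      obtain ⟨j, hj, hj2⟩ := Finset.exists_mem_eq_sup' hJ (fun j => c j q - w j)
      refine ⟨j, hj, fun k => ?_⟩
      have h2 := le_S c w q k
      have h3 : G q = c j q - w j := hj2
      linarith
  rw [hset]
  have hmeas : ∀ n : ℕ, MeasurableSet {q | S c w q ≤ G q + 1 / ((n : ℝ) + 1)} := fun n =>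
    measurableSet_le hSm (hGm.add_const _)
  have hanti : Antitone fun n : ℕ => {q | S c w q ≤ G q + 1 / ((n : ℝ) + 1)} := by
    intro n n' hn q hq
    have h1 : (1 : ℝ) / ((n' : ℝ) + 1) ≤ 1 / ((n : ℝ) + 1) := by
      apply one_div_le_one_div_of_le (by positivity)
      have : (n : ℝ) ≤ n' := by exact_mod_cast hn
      linarith
    simp only [mem_ofPred_eq] at hq ⊢
    linarith
  have hlim := tendsto_measure_iInter_atTop (μ := μ) (fun n => (hmeas n).nullMeasurableSet) hanti
    ⟨0, measure_ne_top μ _⟩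
  have hlim2 : Tendsto (fun n : ℕ => μ.real {q | S c w q ≤ G q + 1 / ((n : ℝ) + 1)}) atTop
      (𝓝 (μ.real (⋂ n : ℕ, {q | S c w q ≤ G q + 1 / ((n : ℝ) + 1)}))) :=
    (ENNReal.tendsto_toReal (measure_ne_top μ _)).comp hlim
  exact ge_of_tendsto' hlim2 fun n => key _ (by positivity)

/-- **semi-discrete mass lemma**, total mass at most the mass of the measure. -/
theorem mass_le {μ : Measure Q} [IsFiniteMeasure μ] {c : ι → Q → ℝ} {B : ℝ}
    (hc : ∀ j, Measurable (c j)) (hB : ∀ j q, |c j q| ≤ B) {m : ι → ℝ} (hmp : ∀ j, 0 < m j)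
    (hm : ∑ j, m j ≤ μ.real univ) :
    ∃ w : ι → ℝ, ∀ J : Finset ι,
      ∑ j ∈ J, m j ≤ μ.real {q | ∃ j ∈ J, ∀ k, c k q - w k ≤ c j q - w j} := by
  have hpos : 0 < ∑ j, m j := Finset.sum_pos (fun j _ => hmp j) Finset.univ_nonempty
  set r : ℝ := μ.real univ / ∑ j, m j with hr
  have hr1 : 1 ≤ r := by rw [hr, le_div_iff₀ hpos]; linarith
  obtain ⟨w, hw⟩ := mass_eq (μ := μ) (m := fun j => r * m j) hc hB
    (fun j => mul_pos (by linarith) (hmp j)) (by
      rw [← Finset.mul_sum, hr]; field_simp)
  refine ⟨w, fun J => (le_trans ?_ (hw J))⟩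
  rw [← Finset.mul_sum]
  have : 0 ≤ ∑ j ∈ J, m j := Finset.sum_nonneg fun j _ => (hmp j).le
  nlinarith

end Crest.Agent.R096.ThC1_766
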