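import Crest.Agent.R096.ThC1_766

/-!
Row 96 (S0127), helper766.  Theorem C of #4068, steps (1) and (4): a convex function `phi` with
slopes at most `rho` whose Monge-Ampere mass on small balls of `W` is at least `H` times their
volume; if `H = (3A)^n` then `phi` is nowhere touched from above by a paraboloid of opening `A`.
-/

set_option autoImplicit false
set_option linter.unusedSectionVars false
set_option linter.style.haveILetI false
set_option linter.style.longLine false

namespace Crest.Agent.R096.ThC2_766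

open MeasureTheory Set Filter Topology Metric
open Crest.Agent.R096.ThC1_766

variable {V : Type*} [NormedAddCommGroup V] [InnerProductSpace ℝ V] [FiniteDimensional ℝ V]
  [MeasurableSpace V] [BorelSpace V]

/-- `q` is a subgradient of `phi` at `x`. -/
def Sub (phi : V → ℝ) (x q : V) : Prop := ∀ y, phi x + inner ℝ q (y - x) ≤ phi y

/-- Convex function with prescribed lower bounds for the mass of the subdifferential. -/
theorem exists_phi {ι : Type*} [Fintype ι] [Nonempty ι] {ρ : ℝ} (hρ : 0 < ρ) (u : ι → V)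
    {m : ι → ℝ} (hmp : ∀ j, 0 < m j)
    (hm : ∑ j, m j ≤ (volume : Measure V).real (closedBall 0 ρ)) :
    ∃ phi : V → ℝ, (∀ x, ∃ q, ‖q‖ ≤ ρ ∧ Sub phi x q) ∧
      ∀ J : Finset ι, ∑ j ∈ J, m j ≤
        (volume : Measure V).real {q | ‖q‖ ≤ ρ ∧ ∃ j ∈ J, Sub phi (u j) q} := by
  classical
  set μ : Measure V := (volume : Measure V).restrict (closedBall 0 ρ) with hμ
  have : IsFiniteMeasure μ := ⟨by
    rw [hμ, Measure.restrict_apply_univ]; exact measure_closedBall_lt_top⟩
  set c : ι → V → ℝ := fun j => (closedBall (0 : V) ρ).indicator (fun q => inner ℝ q (u j)) with hc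
  have hcm : ∀ j, Measurable (c j) := fun j => by
    refine Measurable.indicator ?_ isClosed_closedBall.measurableSet
    fun_prop
  obtain ⟨B, hB⟩ : ∃ B : ℝ, ∀ j q, |c j q| ≤ B := by
    refine ⟨ρ * ∑ j, ‖u j‖, fun j q => ?_⟩
    have h1 : ‖u j‖ ≤ ∑ j, ‖u j‖ :=
      Finset.single_le_sum (f := fun j => ‖u j‖) (fun j _ => norm_nonneg _) (Finset.mem_univ j)
    by_cases hq : q ∈ closedBall (0 : V) ρ
    · simp only [hc, indicator_of_mem hq]
      have h2 : ‖q‖ ≤ ρ := by simpa using hq
      calc |inner ℝ q (u j)| ≤ ‖q‖ * ‖u j‖ := abs_real_inner_le_norm _ _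
        _ ≤ ρ * ∑ j, ‖u j‖ := by gcongr
    · simp only [hc, indicator_of_notMem hq, abs_zero]
      have : 0 ≤ ∑ j, ‖u j‖ := (norm_nonneg (u j)).trans h1
      positivity
  have hmu : μ.real univ = (volume : Measure V).real (closedBall 0 ρ) := by
    simp [hμ, Measure.real]
  obtain ⟨w, hw⟩ := mass_le (μ := μ) hcm hB hmp (by rw [hmu]; exact hm)
  -- the convex dual
  set Mq : V → ℝ := fun q => S (fun j q => inner ℝ q (u j)) w q with hMq
  have hMc : Continuous Mq := by
    have : Mq = Finset.univ.sup' Finset.univ_nonempty (fun j (q : V) => inner ℝ q (u j) - w j) := by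
      funext q
      simp [hMq, S, Finset.sup'_apply]
    rw [this]
    exact Continuous.finset_sup' _ fun j _ => by fun_prop
  have hex : ∀ x : V, ∃ q ∈ closedBall (0 : V) ρ, ∀ q' ∈ closedBall (0 : V) ρ,
      inner ℝ q' x - Mq q' ≤ inner ℝ q x - Mq q := by
    intro x
    obtain ⟨q, hq, hmax⟩ := (isCompact_closedBall (0 : V) ρ).exists_isMaxOn
      ⟨0, by simp [hρ.le]⟩ (f := fun q => inner ℝ q x - Mq q) (by fun_prop)
    exact ⟨q, hq, fun q' hq' => hmax hq'⟩
  choose qx hqx hqmax using hex
  refine ⟨fun x => inner ℝ (qx x) x - Mq (qx x), fun x => ⟨qx x, by simpa using hqx x, fun y => ?_⟩,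
    fun J => (hw J).trans ?_⟩
  · have h1 := hqmax y (qx x) (hqx x)
    have h2 : inner ℝ (qx x) (y - x) = inner ℝ (qx x) y - inner ℝ (qx x) x := inner_sub_right _ _ _
    simp only
    linarith
  · have hsub : {q | ∃ j ∈ J, ∀ k, c k q - w k ≤ c j q - w j} ∩ closedBall (0 : V) ρ ⊆
        {q | ‖q‖ ≤ ρ ∧ ∃ j ∈ J, Sub (fun x => inner ℝ (qx x) x - Mq (qx x)) (u j) q} := by
      rintro q ⟨⟨j, hj, hk⟩, hq⟩
      refine ⟨by simpa using hq, j, hj, fun y => ?_⟩
      simp only
      have h1 := hqmax y q hq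
      have h2 : inner ℝ q (y - u j) = inner ℝ q y - inner ℝ q (u j) := inner_sub_right _ _ _
      have h3 : Mq q ≤ inner ℝ q (u j) - w j := by
        refine S_le fun k => ?_
        have := hk k
        simpa only [hc, indicator_of_mem hq] using this
      have h4 : inner ℝ (qx (u j)) (u j) - w j ≤ Mq (qx (u j)) :=
        le_S (fun j q => inner ℝ q (u j)) w (qx (u j)) j
      linarith
    have h5 : μ.real {q | ∃ j ∈ J, ∀ k, c k q - w k ≤ c j q - w j} =
        (volume : Measure V).real
          ({q | ∃ j ∈ J, ∀ k, c k q - w k ≤ c j q - w j} ∩ closedBall (0 : V) ρ) := by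
      rw [hμ, measureReal_restrict_apply' isClosed_closedBall.measurableSet]
    rw [h5]
    refine measureReal_mono hsub ?_
    refine ne_top_of_le_ne_top (measure_closedBall_lt_top (x := (0 : V)) (r := ρ)).ne
      (measure_mono ?_)
    rintro q ⟨hq, -⟩
    simpa using hq

/-- a finite valued measurable map close to the identity on a ball. -/
lemma exists_net (R : ℝ) {h : ℝ} (hh : 0 < h) :
    ∃ T : V → V, Measurable T ∧ (range T).Finite ∧ ∀ x ∈ closedBall (0 : V) R, dist (T x) x < h := by
  have : ProperSpace V := FiniteDimensional.proper_real V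
  set e := TopologicalSpace.denseSeq V with he
  have hcov : closedBall (0 : V) R ⊆ ⋃ k, ball (e k) h := by
    intro x _
    obtain ⟨k, hk⟩ := (TopologicalSpace.denseRange_denseSeq V).exists_dist_lt x hh
    exact mem_iUnion.2 ⟨k, by simpa [mem_ball] using hk⟩
  obtain ⟨t, ht⟩ := (isCompact_closedBall (0 : V) R).elim_finite_subcover _
    (fun k => isOpen_ball) hcov
  refine ⟨SimpleFunc.nearestPt e (t.sup id), (SimpleFunc.nearestPt e (t.sup id)).measurable,
    (SimpleFunc.nearestPt e (t.sup id)).finite_range, fun x hx => ?_⟩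
  obtain ⟨k, hk⟩ := mem_iUnion.1 (ht hx)
  obtain ⟨hkt, hk2⟩ := mem_iUnion.1 hk
  have h1 := SimpleFunc.edist_nearestPt_le e x (k := k) (N := t.sup id)
    (Finset.le_sup (f := id) hkt)
  rw [edist_dist, edist_dist] at h1
  have h2 := (ENNReal.ofReal_le_ofReal_iff dist_nonneg).1 h1
  rw [mem_ball, dist_comm] at hk2
  exact h2.trans_lt hk2

/-- the convex function with large Monge-Ampere mass in all balls of `W` of radius at least `s`. -/
theorem exists_phi_mass {ρ R s H : ℝ} (hρ : 0 < ρ) (hs : 0 < s) (hH : 0 ≤ H) {W : Set V}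
    (hW : MeasurableSet W) (hWR : W ⊆ closedBall 0 R)
    (hvol : H * (volume : Measure V).real W < (volume : Measure V).real (closedBall 0 ρ)) :
    ∃ phi : V → ℝ, (∀ x, ∃ q, ‖q‖ ≤ ρ ∧ Sub phi x q) ∧
      ∀ x0, ball x0 s ⊆ W →
        H * (volume : Measure V).real (ball x0 (3 / 4 * s)) ≤
          (volume : Measure V).real {q | ‖q‖ ≤ ρ ∧ ∃ x ∈ ball x0 s, Sub phi x q} := by
  classical
  obtain ⟨T, hTm, hTf, hT⟩ := exists_net (V := V) R (h := s / 4) (by positivity)
  set F : Finset V := hTf.toFinset with hF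
  have hTF : ∀ x, T x ∈ F := fun x => by simp [hF]
  have : Nonempty F := ⟨⟨T 0, hTF 0⟩⟩
  have hWfin : (volume : Measure V) W ≠ ⊤ :=
    ne_top_of_le_ne_top (measure_closedBall_lt_top (x := (0 : V)) (r := R)).ne (measure_mono hWR)
  set vol : Measure V := volume with hvoldef
  set P : V → Set V := fun v => W ∩ T ⁻¹' {v} with hP
  have hPm : ∀ v, MeasurableSet (P v) := fun v => hW.inter (hTm (measurableSet_singleton v))
  have hPfin : ∀ v, vol (P v) ≠ ⊤ := fun v => ne_top_of_le_ne_top hWfin (measure_mono inter_subset_left)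
  set τ : ℝ := (vol.real (closedBall 0 ρ) - H * vol.real W) / Fintype.card F with hτ
  have hcard : (0 : ℝ) < Fintype.card F := by exact_mod_cast Fintype.card_pos
  have hτ0 : 0 < τ := div_pos (by linarith) hcard
  set m : F → ℝ := fun v => H * vol.real (P v) + τ with hm
  have hsumP : ∑ v ∈ F, vol.real (P v) ≤ vol.real W := by
    rw [← measureReal_biUnion_finset (μ := vol) (s := F) (f := P) ?_ (fun v _ => hPm v)
      (fun v _ => hPfin v)]
    · exact measureReal_mono (iUnion₂_subset fun v _ => inter_subset_left) hWfin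
    · intro v _ v' _ hvv
      refine Set.disjoint_left.2 fun x hx hx' => hvv ?_
      have h1 : T x = v := hx.2
      have h2 : T x = v' := hx'.2
      rw [← h1, ← h2]
  have hmsum : ∑ j, m j ≤ vol.real (closedBall 0 ρ) := by
    have h1 : ∑ j : F, m j = H * ∑ v ∈ F, vol.real (P v) + Fintype.card F * τ := by
      simp only [hm, Finset.sum_add_distrib, ← Finset.mul_sum, Finset.sum_const, Finset.card_univ,
        nsmul_eq_mul]
      congr 2
      exact Finset.sum_coe_sort F (fun v => vol.real (P v))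
    rw [h1]
    have h2 : (Fintype.card F : ℝ) * τ = vol.real (closedBall 0 ρ) - H * vol.real W := by
      rw [hτ]; field_simp
    rw [h2]
    have h3 : H * ∑ v ∈ F, vol.real (P v) ≤ H * vol.real W := by gcongr
    linarith
  obtain ⟨phi, hphi, hmass⟩ := exists_phi (V := V) (ι := F) hρ (fun v => (v : V)) (m := m)
    (fun v => by
      have : 0 ≤ vol.real (P v) := measureReal_nonneg
      simp only [hm]
      positivity) hmsum
  refine ⟨phi, hphi, fun x0 hx0 => ?_⟩
  set J : Finset F := Finset.univ.filter (fun v => (v : V) ∈ ball x0 s) with hJ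
  have h1 := hmass J
  have h2 : vol.real {q | ‖q‖ ≤ ρ ∧ ∃ j ∈ J, Sub phi (j : V) q} ≤
      vol.real {q | ‖q‖ ≤ ρ ∧ ∃ x ∈ ball x0 s, Sub phi x q} := by
    refine measureReal_mono ?_ ?_
    · rintro q ⟨hq, j, hj, hjs⟩
      refine ⟨hq, j, ?_, hjs⟩
      simpa [hJ] using hj
    · refine ne_top_of_le_ne_top (measure_closedBall_lt_top (x := (0 : V)) (r := ρ)).ne
        (measure_mono ?_)
      rintro q ⟨hq, -⟩
      simpa using hq
  refine le_trans ?_ (h1.trans h2)
  have h3 : vol.real (ball x0 (3 / 4 * s)) ≤ ∑ j ∈ J, vol.real (P (j : V)) := by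
    refine le_trans (measureReal_mono (?_ : ball x0 (3 / 4 * s) ⊆ ⋃ j ∈ J, P (j : V)) ?_)
      (measureReal_biUnion_finset_le _ _)
    · intro x hx
      rw [mem_ball] at hx
      have hxs : x ∈ ball x0 s := by rw [mem_ball]; linarith
      have hxW := hx0 hxs
      have hTx := hT x (hWR hxW)
      have hTs : T x ∈ ball x0 s := by
        rw [mem_ball]
        have := dist_triangle (T x) x x0
        linarith
      simp only [mem_iUnion]
      exact ⟨⟨T x, hTF x⟩, by simp only [hJ, Finset.mem_filter, Finset.mem_univ, true_and]; exact hTs,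
        hxW, rfl⟩
    · exact ne_top_of_le_ne_top hWfin (measure_mono (iUnion₂_subset fun v _ => inter_subset_left))
  calc H * vol.real (ball x0 (3 / 4 * s)) ≤ H * ∑ j ∈ J, vol.real (P (j : V)) := by gcongr
    _ = ∑ j ∈ J, H * vol.real (P (j : V)) := by rw [Finset.mul_sum]
    _ ≤ ∑ j ∈ J, m j := Finset.sum_le_sum fun j _ => by simp only [hm]; linarith

/-- at a point of touching by a paraboloid of opening `1` the subgradients near the point are
confined to a ball of radius `2 s`. -/
lemma sub_confined {phi : V → ℝ} (hphi : ∀ x, ∃ q, Sub phi x q) {x0 p : V} {s A : ℝ} (hs : 0 < s)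
    (hA : 0 < A)
    (htouch : ∀ y ∈ closedBall x0 (2 * s),
      phi y ≤ phi x0 + inner ℝ p (y - x0) + A / 2 * ‖y - x0‖ ^ 2)
    {x q : V} (hx : x ∈ ball x0 s) (hq : Sub phi x q) : q ∈ closedBall p (2 * A * s) := by
  -- the subgradient at x0 is p
  obtain ⟨p', hp'⟩ := hphi x0
  have hpp : p' = p := by
    by_contra hne
    have hn : 0 < ‖p' - p‖ := norm_pos_iff.2 (sub_ne_zero.2 hne)
    set t : ℝ := min (1 / A) (2 * s / ‖p' - p‖) with ht
    have ht0 : 0 < t := lt_min (by positivity) (by positivity)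
    have ht1 : A * t ≤ 1 := by
      have : t ≤ 1 / A := min_le_left _ _
      rwa [le_div_iff₀ hA, mul_comm] at this
    have ht2 : t * ‖p' - p‖ ≤ 2 * s := by
      have : t ≤ 2 * s / ‖p' - p‖ := min_le_right _ _
      rwa [le_div_iff₀ hn] at this
    have h1 := htouch (x0 + t • (p' - p)) (by
      rw [mem_closedBall, dist_eq_norm, add_sub_cancel_left, norm_smul, Real.norm_eq_abs,
        abs_of_pos ht0]
      exact ht2)
    have h2 := hp' (x0 + t • (p' - p))
    rw [add_sub_cancel_left, real_inner_smul_right] at h1 h2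
    rw [norm_smul, Real.norm_eq_abs, abs_of_pos ht0] at h1
    have h3 : inner ℝ p' (p' - p) - inner ℝ p (p' - p) = ‖p' - p‖ ^ 2 := by
      rw [← inner_sub_left, real_inner_self_eq_norm_sq]
    have h4 : t * (inner ℝ p' (p' - p) - inner ℝ p (p' - p)) ≤ A / 2 * (t * ‖p' - p‖) ^ 2 := by
      linarith
    rw [h3] at h4
    have h5 : t * ‖p' - p‖ ^ 2 ≤ t * ‖p' - p‖ ^ 2 / 2 := by
      calc t * ‖p' - p‖ ^ 2 ≤ A / 2 * (t * ‖p' - p‖) ^ 2 := h4
        _ = (A * t) * (t * ‖p' - p‖ ^ 2) / 2 := by ring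
        _ ≤ 1 * (t * ‖p' - p‖ ^ 2) / 2 := by gcongr
        _ = t * ‖p' - p‖ ^ 2 / 2 := by ring
    have h6 : 0 < t * ‖p' - p‖ ^ 2 := by positivity
    linarith
  rw [hpp] at hp'
  rw [mem_closedBall, dist_eq_norm]
  by_cases hqp : q = p
  · rw [hqp, sub_self, norm_zero]; positivity
  have hn : 0 < ‖q - p‖ := norm_pos_iff.2 (sub_ne_zero.2 hqp)
  set v : V := (s / ‖q - p‖) • (q - p) with hv
  have hvn : ‖v‖ = s := by
    rw [hv, norm_smul, Real.norm_eq_abs, abs_of_pos (by positivity)]
    field_simp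
  have hxn : ‖x - x0‖ < s := by simpa [mem_ball, dist_eq_norm] using hx
  have hyn : ‖x + v - x0‖ ≤ 2 * s := by
    have : x + v - x0 = (x - x0) + v := by abel
    rw [this]
    have := norm_add_le (x - x0) v
    linarith
  have h1 := htouch (x + v) (by rw [mem_closedBall, dist_eq_norm]; exact hyn)
  have h2 := hq (x + v)
  have h3 := hp' x
  have h4 : x + v - x = v := by abel
  rw [h4] at h2
  have h5 : inner ℝ p (x + v - x0) = inner ℝ p (x - x0) + inner ℝ p v := by
    rw [← inner_add_right]; congr 1; abel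
  rw [h5] at h1
  have h6 : inner ℝ q v - inner ℝ p v = s * ‖q - p‖ := by
    rw [← inner_sub_left, hv, real_inner_smul_right, real_inner_self_eq_norm_sq]
    field_simp
  have h7 : ‖x + v - x0‖ ^ 2 ≤ (2 * s) ^ 2 := by gcongr
  have h9 : A / 2 * ‖x + v - x0‖ ^ 2 ≤ A / 2 * (2 * s) ^ 2 := by gcongr
  have h8 : s * ‖q - p‖ ≤ s * (2 * A * s) := by nlinarith
  exact le_of_mul_le_mul_left h8 hs

/-- **no touching from above**. -/
theorem no_touch [Nontrivial V] {phi : V → ℝ} {ρ : ℝ} {x0 : V} {s A : ℝ} (hs : 0 < s) (hA : 0 < A)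
    (hphi : ∀ x, ∃ q, Sub phi x q)
    (hmass : (3 * A) ^ (Module.finrank ℝ V) * (volume : Measure V).real (ball x0 (3 / 4 * s)) ≤
          (volume : Measure V).real {q | ‖q‖ ≤ ρ ∧ ∃ x ∈ ball x0 s, Sub phi x q}) (p : V) :
    ¬ ∀ y ∈ closedBall x0 (2 * s), phi y ≤ phi x0 + inner ℝ p (y - x0) + A / 2 * ‖y - x0‖ ^ 2 := by
  intro htouch
  have h1 : (volume : Measure V).real {q | ‖q‖ ≤ ρ ∧ ∃ x ∈ ball x0 s, Sub phi x q} ≤
      (volume : Measure V).real (closedBall p (2 * A * s)) := by
    refine measureReal_mono ?_ measure_closedBall_lt_top.ne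
    rintro q ⟨-, x, hx, hq⟩
    exact sub_confined hphi hs hA htouch hx hq
  have h2 := hmass.trans h1
  rw [← Measure.addHaar_real_closedBall_eq_addHaar_real_ball,
    Measure.addHaar_real_closedBall _ _ (by positivity),
    Measure.addHaar_real_closedBall _ _ (by positivity)] at h2
  have hb : 0 < (volume : Measure V).real (ball (0 : V) 1) := by
    rw [Measure.real, ENNReal.toReal_pos_iff]
    exact ⟨measure_ball_pos _ _ one_pos, measure_ball_lt_top⟩
  have hN : 0 < Module.finrank ℝ V := Module.finrank_pos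
  have h3 : (2 * A * s) ^ Module.finrank ℝ V <
      (3 * A) ^ Module.finrank ℝ V * (3 / 4 * s) ^ Module.finrank ℝ V := by
    rw [← mul_pow]
    apply pow_lt_pow_left₀ _ (by positivity) hN.ne'
    have : 0 < A * s := by positivity
    linarith
  nlinarith

end Crest.Agent.R096.ThC2_766
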