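import Crest.Agent.R094.Env

/-!
Row 96 (S0127), helper766.  Theorem C of #4068, step (3): convex functions of class `C^{1,1}`
(a pair `Phi`, `th` with two sided quadratic bounds) and the convex envelope of `|x|^2/2 + g`
for a `β`-semiconcave function `g`.
-/

set_option autoImplicit false
set_option linter.unusedSectionVars false
set_option linter.style.haveILetI false
set_option linter.unusedVariables false
set_option linter.style.longLine false

namespace Crest.Agent.R096.ThC3_766

open Set Filter Topology Metric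
open Crest.Agent.R094.Env

variable {V : Type*} [NormedAddCommGroup V] [InnerProductSpace ℝ V]

/-- `th` is the gradient of the convex `C^{1,1}` function `Phi` (constant `C`). -/
structure CT (C : ℝ) (Phi : V → ℝ) (th : V → V) : Prop where
  lower : ∀ x y, Phi x + inner ℝ (th x) (y - x) ≤ Phi y
  upper : ∀ x y, Phi y ≤ Phi x + inner ℝ (th x) (y - x) + C / 2 * ‖y - x‖ ^ 2

lemma eq_zero_of_quad {v : V} {K : ℝ} (h : ∀ z : V, inner ℝ v z ≤ K * ‖z‖ ^ 2) : v = 0 := by
  by_contra hv
  have hn : 0 < ‖v‖ := norm_pos_iff.2 hv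
  set t : ℝ := 1 / (|K| + 1) with ht
  have hK : 0 < |K| + 1 := by positivity
  have ht0 : 0 < t := by positivity
  have h1 := h (t • v)
  rw [real_inner_smul_right, real_inner_self_eq_norm_sq, norm_smul, Real.norm_eq_abs,
    abs_of_pos ht0] at h1
  have h2 : K * (t * ‖v‖) ^ 2 ≤ (|K| * t) * (t * ‖v‖ ^ 2) := by
    have : K * (t * ‖v‖) ^ 2 ≤ |K| * (t * ‖v‖) ^ 2 := by
      gcongr; exact le_abs_self K
    nlinarith
  have h3 : |K| * t < 1 := by
    rw [ht, mul_one_div, div_lt_one hK]; linarith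
  have h4 : 0 < t * ‖v‖ ^ 2 := by positivity
  nlinarith

namespace CT

variable {C : ℝ} {Phi : V → ℝ} {th : V → V}

lemma slope_unique (h : CT C Phi th) {x p : V} (hp : ∀ y, Phi x + inner ℝ p (y - x) ≤ Phi y) :
    p = th x := by
  have h1 : ∀ z : V, inner ℝ (p - th x) z ≤ C / 2 * ‖z‖ ^ 2 := by
    intro z
    have h2 := hp (x + z)
    have h3 := h.upper x (x + z)
    rw [add_sub_cancel_left] at h2 h3
    rw [inner_sub_left]
    linarith
  exact sub_eq_zero.1 (eq_zero_of_quad h1)

/-- cocoercivity (Baillon-Haddad). -/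
lemma half (h : CT C Phi th) (hC : 0 < C) (x y : V) :
    Phi x + inner ℝ (th x) (y - x) + ‖th x - th y‖ ^ 2 / (2 * C) ≤ Phi y := by
  set z : V := y + (1 / C) • (th x - th y) with hz
  have h1 := h.lower x z
  have h2 := h.upper y z
  have h3 : z - y = (1 / C) • (th x - th y) := by rw [hz]; abel
  have h4 : z - x = (y - x) + (1 / C) • (th x - th y) := by rw [hz]; abel
  rw [h4, inner_add_right, real_inner_smul_right] at h1
  rw [h3, real_inner_smul_right, norm_smul, Real.norm_eq_abs, abs_of_pos (by positivity)] at h2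
  have h5 : inner ℝ (th x) (th x - th y) - inner ℝ (th y) (th x - th y) = ‖th x - th y‖ ^ 2 := by
    rw [← inner_sub_left, real_inner_self_eq_norm_sq]
  have h6 : C / 2 * (1 / C * ‖th x - th y‖) ^ 2 = ‖th x - th y‖ ^ 2 / (2 * C) := by
    field_simp
  have h7 : 1 / C * (inner ℝ (th x) (th x - th y) - inner ℝ (th y) (th x - th y))
      = ‖th x - th y‖ ^ 2 / (2 * C) + ‖th x - th y‖ ^ 2 / (2 * C) := by
    rw [h5]; field_simp; ring
  rw [h6] at h2
  linarith

lemma coco (h : CT C Phi th) (hC : 0 < C) (x y : V) :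
    ‖th x - th y‖ ^ 2 ≤ C * inner ℝ (th x - th y) (x - y) := by
  have h1 := h.half hC x y
  have h2 := h.half hC y x
  have h3 : ‖th y - th x‖ = ‖th x - th y‖ := norm_sub_rev _ _
  have h4 : inner ℝ (th x - th y) (x - y) = - inner ℝ (th x) (y - x) - inner ℝ (th y) (x - y) := by
    rw [inner_sub_left, ← neg_sub y x, inner_neg_right]
  rw [h3] at h2
  have h5 : ‖th x - th y‖ ^ 2 / (2 * C) + ‖th x - th y‖ ^ 2 / (2 * C) = ‖th x - th y‖ ^ 2 / C := by
    field_simp; ring
  have h6 : ‖th x - th y‖ ^ 2 / C ≤ inner ℝ (th x - th y) (x - y) := by rw [h4]; linarith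
  rw [div_le_iff₀ hC] at h6
  linarith

lemma mono (h : CT C Phi th) (x y : V) : 0 ≤ inner ℝ (th x - th y) (x - y) := by
  have h1 := h.lower x y
  have h2 := h.lower y x
  have h4 : inner ℝ (th x - th y) (x - y) = - inner ℝ (th x) (y - x) - inner ℝ (th y) (x - y) := by
    rw [inner_sub_left, ← neg_sub y x, inner_neg_right]
  rw [h4]; linarith

lemma lip (h : CT C Phi th) (hC : 0 < C) (x y : V) : ‖th x - th y‖ ≤ C * ‖x - y‖ := by
  have h1 := h.coco hC x y
  have h2 : inner ℝ (th x - th y) (x - y) ≤ ‖th x - th y‖ * ‖x - y‖ := real_inner_le_norm _ _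
  by_cases h0 : ‖th x - th y‖ = 0
  · rw [h0]; positivity
  · have hp : 0 < ‖th x - th y‖ := lt_of_le_of_ne (norm_nonneg _) (Ne.symm h0)
    have h3 : ‖th x - th y‖ * ‖th x - th y‖ ≤ ‖th x - th y‖ * (C * ‖x - y‖) := by
      calc ‖th x - th y‖ * ‖th x - th y‖ = ‖th x - th y‖ ^ 2 := by ring
        _ ≤ C * inner ℝ (th x - th y) (x - y) := h1
        _ ≤ C * (‖th x - th y‖ * ‖x - y‖) := by gcongr
        _ = _ := by ring
    exact le_of_mul_le_mul_left h3 hp

lemma lipschitz (h : CT C Phi th) (hC : 0 < C) : LipschitzWith C.toNNReal th := by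
  refine LipschitzWith.of_dist_le_mul fun x y => ?_
  rw [Real.coe_toNNReal _ hC.le, dist_eq_norm, dist_eq_norm]
  exact h.lip hC x y

lemma hasFDerivAt (h : CT C Phi th) (x : V) : HasFDerivAt Phi (innerSL ℝ (th x)) x := by
  rw [hasFDerivAt_iff_isLittleO_nhds_zero]
  have h1 : (fun z => Phi (x + z) - Phi x - (innerSL ℝ (th x)) z) =O[𝓝 0] fun z : V => ‖z‖ ^ 2 := by
    refine Asymptotics.IsBigO.of_bound (C / 2) (Eventually.of_forall fun z => ?_)
    have h2 := h.lower x (x + z)
    have h3 := h.upper x (x + z)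
    rw [add_sub_cancel_left] at h2 h3
    rw [innerSL_apply_apply, Real.norm_eq_abs, abs_le, Real.norm_of_nonneg (by positivity)]
    constructor
    · have : 0 ≤ C / 2 * ‖z‖ ^ 2 := by linarith
      linarith
    · linarith
  refine h1.trans_isLittleO ?_
  have h4 : (fun z : V => ‖z‖ ^ 2) =o[𝓝 0] fun z : V => z := by
    have := Asymptotics.isLittleO_norm_pow_id (E' := V) one_lt_two
    simpa using this
  exact h4

lemma continuous (h : CT C Phi th) : Continuous Phi :=
  continuous_iff_continuousAt.2 fun x => (h.hasFDerivAt x).continuousAt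

lemma convexOn (h : CT C Phi th) : ConvexOn ℝ univ Phi := by
  refine ⟨convex_univ, fun x _ y _ a b ha hb hab => ?_⟩
  have h1 := h.lower (a • x + b • y) x
  have h2 := h.lower (a • x + b • y) y
  have h3 : a * (Phi (a • x + b • y) + inner ℝ (th (a • x + b • y)) (x - (a • x + b • y))) +
      b * (Phi (a • x + b • y) + inner ℝ (th (a • x + b • y)) (y - (a • x + b • y)))
      = Phi (a • x + b • y) := by
    have h4 : a * inner ℝ (th (a • x + b • y)) (x - (a • x + b • y)) +
      b * inner ℝ (th (a • x + b • y)) (y - (a • x + b • y)) = 0 := by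
      rw [← real_inner_smul_right, ← real_inner_smul_right, ← inner_add_right]
      have : a • (x - (a • x + b • y)) + b • (y - (a • x + b • y)) = 0 := by
        have hb' : b = 1 - a := by linarith
        subst hb'
        module
      rw [this, inner_zero_right]
    have h5 : a * Phi (a • x + b • y) + b * Phi (a • x + b • y) = Phi (a • x + b • y) := by
      rw [← add_mul, hab, one_mul]
    linarith
  simp only [smul_eq_mul]
  have h6 := mul_le_mul_of_nonneg_left h1 ha
  have h7 := mul_le_mul_of_nonneg_left h2 hb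
  linarith

/-- deviation from the identity. -/
lemma near_id (h : CT C Phi th) {m : ℝ} (h0 : ∀ x, ‖x‖ ^ 2 / 2 ≤ Phi x)
    (h1 : ∀ x, Phi x ≤ ‖x‖ ^ 2 / 2 + m) (x : V) : ‖th x - x‖ ^ 2 ≤ 2 * m := by
  set v : V := th x - x with hv
  have h2 := h.lower x (x + v)
  have h3 := h1 (x + v)
  have h4 := h0 x
  rw [add_sub_cancel_left] at h2
  have h5 : ‖x + v‖ ^ 2 = ‖x‖ ^ 2 + 2 * inner ℝ x v + ‖v‖ ^ 2 := norm_add_sq_real x v
  have h6 : inner ℝ (th x) v = inner ℝ x v + ‖v‖ ^ 2 := by
    have : th x = x + v := by rw [hv]; abel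
    rw [this, inner_add_left, real_inner_self_eq_norm_sq]
  linarith

/-- identity at contact points with `|x|^2/2`. -/
lemma eq_self (h : CT C Phi th) (h0 : ∀ x, ‖x‖ ^ 2 / 2 ≤ Phi x) {x : V} (hx : Phi x = ‖x‖ ^ 2 / 2) :
    th x = x := by
  symm
  apply h.slope_unique
  intro y
  have h1 := h0 y
  have h2 : ‖y‖ ^ 2 = ‖x‖ ^ 2 + 2 * inner ℝ x (y - x) + ‖y - x‖ ^ 2 := by
    have := norm_add_sq_real x (y - x)
    rwa [add_sub_cancel] at this
  have h3 : 0 ≤ ‖y - x‖ ^ 2 := by positivity
  rw [hx]; linarith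

/-- the gradient is constant on a segment or hull on which `Phi` is below a supporting affine
function. -/
lemma const_of_le (h : CT C Phi th) {x z : V} (hz : Phi z ≤ Phi x + inner ℝ (th x) (z - x)) :
    th z = th x := by
  symm
  apply h.slope_unique
  intro y
  have h1 := h.lower x y
  have h2 : inner ℝ (th x) (y - z) = inner ℝ (th x) (y - x) - inner ℝ (th x) (z - x) := by
    rw [← inner_sub_right]; congr 1; abel
  linarith

lemma const_on_hull (h : CT C Phi th) {x : V} {s : Set V}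
    (hs : ∀ a ∈ s, Phi a ≤ Phi x + inner ℝ (th x) (a - x)) {z : V} (hz : z ∈ convexHull ℝ s) :
    th z = th x ∧ Phi z = Phi x + inner ℝ (th x) (z - x) := by
  have h1 : Convex ℝ {z | Phi z ≤ Phi x + inner ℝ (th x) (z - x)} := by
    intro a ha b hb t r ht hr htr
    simp only [mem_ofPred_eq] at ha hb ⊢
    have h2 := h.convexOn.2 (mem_univ a) (mem_univ b) ht hr htr
    simp only [smul_eq_mul] at h2
    have h3 : inner ℝ (th x) (t • a + r • b - x) = t * inner ℝ (th x) (a - x) + r * inner ℝ (th x) (b - x) := by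
      rw [← real_inner_smul_right, ← real_inner_smul_right, ← inner_add_right]
      congr 1
      have hr' : r = 1 - t := by linarith
      subst hr'
      module
    rw [h3]
    have h4 := mul_le_mul_of_nonneg_left ha ht
    have h5 := mul_le_mul_of_nonneg_left hb hr
    have h6 : t * Phi x + r * Phi x = Phi x := by rw [← add_mul, htr, one_mul]
    linarith
  have h2 : z ∈ {z | Phi z ≤ Phi x + inner ℝ (th x) (z - x)} := convexHull_min hs h1 hz
  exact ⟨h.const_of_le h2, le_antisymm h2 (h.lower x z)⟩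

/-- `th + δ id` is a homeomorphism with explicit bounds. -/
lemma anti (h : CT C Phi th) {δ : ℝ} (hδ : 0 < δ) (x y : V) :
    δ * ‖x - y‖ ≤ ‖(th x + δ • x) - (th y + δ • y)‖ := by
  have h1 := h.mono x y
  have h2 : inner ℝ ((th x + δ • x) - (th y + δ • y)) (x - y) =
      inner ℝ (th x - th y) (x - y) + δ * ‖x - y‖ ^ 2 := by
    have : (th x + δ • x) - (th y + δ • y) = (th x - th y) + δ • (x - y) := by module
    rw [this, inner_add_left, real_inner_smul_left, real_inner_self_eq_norm_sq]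
  have h3 : inner ℝ ((th x + δ • x) - (th y + δ • y)) (x - y) ≤
      ‖(th x + δ • x) - (th y + δ • y)‖ * ‖x - y‖ := real_inner_le_norm _ _
  by_cases h0 : ‖x - y‖ = 0
  · rw [h0, mul_zero]; exact norm_nonneg _
  · have hp : 0 < ‖x - y‖ := lt_of_le_of_ne (norm_nonneg _) (Ne.symm h0)
    have h4 : (δ * ‖x - y‖) * ‖x - y‖ ≤ ‖(th x + δ • x) - (th y + δ • y)‖ * ‖x - y‖ := by
      nlinarith
    exact le_of_mul_le_mul_right h4 hp

lemma upper_lip (h : CT C Phi th) (hC : 0 < C) {δ : ℝ} (hδ : 0 < δ) (x y : V) :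
    ‖(th x + δ • x) - (th y + δ • y)‖ ≤ (C + δ) * ‖x - y‖ := by
  have : (th x + δ • x) - (th y + δ • y) = (th x - th y) + δ • (x - y) := by module
  rw [this]
  have h1 := h.lip hC x y
  have h2 := norm_add_le (th x - th y) (δ • (x - y))
  rw [norm_smul, Real.norm_eq_abs, abs_of_pos hδ] at h2
  linarith

lemma surj [FiniteDimensional ℝ V] (h : CT C Phi th) {δ : ℝ} (hδ : 0 < δ) (p : V) :
    ∃ x, th x + δ • x = p := by
  have : ProperSpace V := FiniteDimensional.proper_real V
  -- minimise Phi + δ|x|²/2 - <p,x>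
  set F : V → ℝ := fun x => Phi x + δ / 2 * ‖x‖ ^ 2 - inner ℝ p x with hF
  have hFc : Continuous F := by
    have := h.continuous
    fun_prop
  have hlow : ∀ x, Phi 0 - ‖th 0 - p‖ * ‖x‖ + δ / 2 * ‖x‖ ^ 2 ≤ F x := by
    intro x
    have h1 := h.lower 0 x
    rw [sub_zero] at h1
    have h2 : inner ℝ (th 0 - p) x = inner ℝ (th 0) x - inner ℝ p x := inner_sub_left _ _ _
    have h3 := (abs_le.1 (abs_real_inner_le_norm (th 0 - p) x)).1
    simp only [hF]
    linarith
  have htend : Tendsto F (cocompact V) atTop := by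
    have h1 : Tendsto (fun x : V => ‖x‖) (cocompact V) atTop := tendsto_norm_cocompact_atTop
    have h2 : Tendsto (fun t : ℝ => Phi 0 - ‖th 0 - p‖ * t + δ / 2 * t ^ 2) atTop atTop := by
      have h3 : Tendsto (fun t : ℝ => t * (δ / 2 * t - ‖th 0 - p‖)) atTop atTop := by
        apply Tendsto.atTop_mul_atTop₀ tendsto_id
        apply tendsto_atTop_add_const_right
        exact Tendsto.const_mul_atTop (by positivity) tendsto_id
      refine (tendsto_atTop_add_const_left _ (Phi 0) h3).congr fun t => ?_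
      ring
    exact tendsto_atTop_mono hlow (h2.comp h1)
  obtain ⟨x, hx⟩ := hFc.exists_forall_le htend
  refine ⟨x, ?_⟩
  have h1 : ∀ z : V, inner ℝ (p - (th x + δ • x)) z ≤ (C / 2 + δ / 2) * ‖z‖ ^ 2 := by
    intro z
    have h2 := hx (x + z)
    have h3 := h.upper x (x + z)
    rw [add_sub_cancel_left] at h3
    simp only [hF] at h2
    rw [norm_add_sq_real, inner_add_right] at h2
    rw [inner_sub_left, inner_add_left, real_inner_smul_left]
    linarith
  have h2 := eq_zero_of_quad h1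
  exact (sub_eq_zero.1 h2).symm

end CT

/-- `β`-semiconcavity (touching paraboloids from above). -/
def SC (β : ℝ) (g : V → ℝ) : Prop :=
  ∀ x, ∃ p : V, ∀ y, g y ≤ g x + inner ℝ p (y - x) + β / 2 * ‖y - x‖ ^ 2

/-- the contact relation of the envelope. -/
def Contact (g : V → ℝ) (a p : V) : Prop :=
  ∀ y, g a + ‖a‖ ^ 2 / 2 + inner ℝ p (y - a) ≤ g y + ‖y‖ ^ 2 / 2

lemma contact_iff (g : V → ℝ) (a p : V) :
    Contact g a p ↔ ∀ b, g a + ‖a - p‖ ^ 2 / (2 * 1) ≤ g b + ‖b - p‖ ^ 2 / (2 * 1) := by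
  have h : ∀ b : V, ‖b - p‖ ^ 2 = ‖b‖ ^ 2 - 2 * inner ℝ p b + ‖p‖ ^ 2 := fun b => by
    rw [norm_sub_sq_real, real_inner_comm]
  constructor
  · intro h1 b
    have h2 := h1 b
    rw [inner_sub_right] at h2
    rw [h a, h b]; linarith
  · intro h1 b
    have h2 := h1 b
    rw [h a, h b] at h2
    rw [inner_sub_right]; linarith

/-- a semiconcave function is above no paraboloid smaller than the touching one at contacts. -/
lemma contact_upper {g : V → ℝ} {β : ℝ} (hSC : SC β g) {a p : V} (hc : Contact g a p) (w : V) :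
    g (a + w) ≤ g a + inner ℝ (p - a) w + β / 2 * ‖w‖ ^ 2 := by
  obtain ⟨q, hq⟩ := hSC a
  have h1 : ∀ z : V, inner ℝ ((p - a) - q) z ≤ ((1 + β) / 2) * ‖z‖ ^ 2 := by
    intro z
    have h2 := hq (a + z)
    have h3 := hc (a + z)
    rw [add_sub_cancel_left] at h2 h3
    rw [norm_add_sq_real] at h3
    rw [inner_sub_left, inner_sub_left]
    linarith
  have h2 : q = p - a := (sub_eq_zero.1 (eq_zero_of_quad h1)).symm
  have h3 := hq (a + w)
  rw [add_sub_cancel_left, h2] at h3
  exact h3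

/-- **the convex envelope of `|x|²/2 + g`**. -/
theorem envelope [FiniteDimensional ℝ V] {g : V → ℝ} {β : ℝ} (hg : Continuous g) (hgs : SubQ g)
    (hSC : SC β g) :
    ∃ (Phi : V → ℝ) (th : V → V), CT (1 + β) Phi th ∧
      (∀ x, Phi x ≤ g x + ‖x‖ ^ 2 / 2) ∧
      (∀ (p : V) (c : ℝ), (∀ y, inner ℝ p y + c ≤ g y + ‖y‖ ^ 2 / 2) → ∀ x, inner ℝ p x + c ≤ Phi x) ∧
      ∀ x, ∃ (ι : Type) (_ : Fintype ι) (w : ι → ℝ) (a : ι → V),
        (∀ i, 0 < w i) ∧ ∑ i, w i = 1 ∧ ∑ i, w i • a i = x ∧
        ∀ i, Contact g (a i) (th x) ∧ Phi (a i) = g (a i) + ‖a i‖ ^ 2 / 2 ∧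
          Phi (a i) = Phi x + inner ℝ (th x) (a i - x) := by
  have hone : (0 : ℝ) < 1 := one_pos
  have hex := fun x => exists_contact hg hgs hone x
  choose th ι' hι' w a hw0 hw1 hwa hcon henv henv2 using hex
  set Phi : V → ℝ := fun x => Env 1 g x + ‖x‖ ^ 2 / 2 with hPhi
  have hcon' : ∀ x i, Contact g (a x i) (th x) := fun x i => (contact_iff _ _ _).2 (hcon x i)
  have hlow : ∀ x y, Phi x + inner ℝ (th x) (y - x) ≤ Phi y := by
    intro x y
    have h1 := le_Env hgs hone y (th x)
    have h2 := henv2 x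
    have h3 : ‖y - th x‖ ^ 2 = ‖y‖ ^ 2 - 2 * inner ℝ (th x) y + ‖th x‖ ^ 2 := by
      rw [norm_sub_sq_real, real_inner_comm]
    have h4 : ‖x - th x‖ ^ 2 = ‖x‖ ^ 2 - 2 * inner ℝ (th x) x + ‖th x‖ ^ 2 := by
      rw [norm_sub_sq_real, real_inner_comm]
    simp only [hPhi]
    rw [inner_sub_right]
    rw [h3] at h1
    rw [h4] at h2
    linarith
  have hup : ∀ x y, Phi y ≤ Phi x + inner ℝ (th x) (y - x) + (1 + β) / 2 * ‖y - x‖ ^ 2 := by
    intro x y
    set v : V := y - x with hv
    have hy : y = x + v := by rw [hv]; abel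
    letI := hι' x
    have h1 : Env 1 g y ≤ ∑ i, w x i * (g (a x i + v) + ‖(a x i + v) - y‖ ^ 2 / (2 * 1)) := by
      refine Env_le_sum hgs hone (hw0 x) (hw1 x) ?_
      rw [hy]
      simp only [smul_add, Finset.sum_add_distrib, ← Finset.sum_smul, hw1 x, one_smul, hwa x]
    have h2 : ∀ i, g (a x i + v) + ‖(a x i + v) - y‖ ^ 2 / (2 * 1) ≤
        g (a x i) + ‖a x i - x‖ ^ 2 / (2 * 1) + inner ℝ (th x - a x i) v + β / 2 * ‖v‖ ^ 2 := by
      intro i
      have h3 := contact_upper hSC (hcon' x i) v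
      have h4 : (a x i + v) - y = a x i - x := by rw [hy]; abel
      rw [h4]; linarith
    have h5 : ∑ i, w x i * (g (a x i + v) + ‖(a x i + v) - y‖ ^ 2 / (2 * 1)) ≤
        ∑ i, w x i * (g (a x i) + ‖a x i - x‖ ^ 2 / (2 * 1) + inner ℝ (th x - a x i) v + β / 2 * ‖v‖ ^ 2) :=
      Finset.sum_le_sum fun i _ => mul_le_mul_of_nonneg_left (h2 i) (hw0 x i)
    have h6 : ∑ i, w x i * (g (a x i) + ‖a x i - x‖ ^ 2 / (2 * 1) + inner ℝ (th x - a x i) v + β / 2 * ‖v‖ ^ 2)
        = Env 1 g x + inner ℝ (th x - x) v + β / 2 * ‖v‖ ^ 2 := by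
      rw [henv x]
      simp only [mul_add, Finset.sum_add_distrib]
      have h7 : ∑ i, w x i * inner ℝ (th x - a x i) v = inner ℝ (th x - x) v := by
        simp only [← real_inner_smul_left]
        rw [← sum_inner]
        congr 1
        simp only [smul_sub, Finset.sum_sub_distrib, ← Finset.sum_smul, hw1 x, one_smul, hwa x]
      have h8 : ∑ i, w x i * (β / 2 * ‖v‖ ^ 2) = β / 2 * ‖v‖ ^ 2 := by
        rw [← Finset.sum_mul, hw1 x, one_mul]
      rw [h7, h8]
    have h9 : ‖y‖ ^ 2 = ‖x‖ ^ 2 + 2 * inner ℝ x v + ‖v‖ ^ 2 := by rw [hy]; exact norm_add_sq_real x v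
    have h10 : inner ℝ (th x - x) v = inner ℝ (th x) v - inner ℝ x v := inner_sub_left _ _ _
    simp only [hPhi]
    rw [h9]
    linarith
  have hCT : CT (1 + β) Phi th := ⟨hlow, hup⟩
  have hle : ∀ x, Phi x ≤ g x + ‖x‖ ^ 2 / 2 := fun x => by
    simp only [hPhi]
    have := Env_le_self hgs hone x
    linarith
  refine ⟨Phi, th, hCT, hle, ?_, fun x => ?_⟩
  · intro p c hpc x
    have h1 : c - ‖p‖ ^ 2 / 2 + ‖p‖ ^ 2 ≤ Qi 1 g p := by
      refine le_Qi fun b => ?_
      have h2 := hpc b
      have h3 : ‖b - p‖ ^ 2 = ‖b‖ ^ 2 - 2 * inner ℝ p b + ‖p‖ ^ 2 := by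
        rw [norm_sub_sq_real, real_inner_comm]
      rw [h3]; linarith
    have h2 := le_Env hgs hone x p
    have h3 : ‖x - p‖ ^ 2 = ‖x‖ ^ 2 - 2 * inner ℝ p x + ‖p‖ ^ 2 := by
      rw [norm_sub_sq_real, real_inner_comm]
    rw [h3] at h2
    simp only [hPhi]
    linarith
  · letI := hι' x
    -- all terms are contact points, equality of Phi with the affine function
    have hA : ∀ i, Phi (a x i) ≤ g (a x i) + ‖a x i‖ ^ 2 / 2 := fun i => hle _
    have hB : ∀ i, Phi x + inner ℝ (th x) (a x i - x) ≤ Phi (a x i) := fun i => hlow x _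
    have hsum : ∑ i, w x i * (g (a x i) + ‖a x i‖ ^ 2 / 2) = Phi x := by
      simp only [hPhi]
      rw [henv x]
      have h1 : ∀ i, w x i * (g (a x i) + ‖a x i - x‖ ^ 2 / (2 * 1)) =
          w x i * (g (a x i) + ‖a x i‖ ^ 2 / 2) - inner ℝ (w x i • a x i) x + w x i * (‖x‖ ^ 2 / 2) := by
        intro i
        rw [norm_sub_sq_real, real_inner_smul_left]; ring
      simp only [h1, Finset.sum_add_distrib, Finset.sum_sub_distrib]
      rw [← sum_inner, hwa x, ← Finset.sum_mul, hw1 x, real_inner_self_eq_norm_sq]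
      ring
    have haff : ∑ i, w x i * (Phi x + inner ℝ (th x) (a x i - x)) = Phi x := by
      simp only [mul_add, Finset.sum_add_distrib, ← Finset.sum_mul, hw1 x, one_mul]
      have h1 : ∑ i, w x i * inner ℝ (th x) (a x i - x) = 0 := by
        simp only [← real_inner_smul_right]
        rw [← inner_sum]
        simp only [smul_sub, Finset.sum_sub_distrib, ← Finset.sum_smul, hw1 x, one_smul, hwa x,
          sub_self, inner_zero_right]
      rw [h1, add_zero]
    -- g(a)+|a|²/2 equals Phi x + <th, a - x> at contacts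
    have hC : ∀ i, g (a x i) + ‖a x i‖ ^ 2 / 2 = Phi x + inner ℝ (th x) (a x i - x) := by
      intro i
      -- the contact property: g(a_i)+|a_i|²/2 - <th, a_i> is the same minimal value for all i
      have h1 : ∀ j, g (a x j) + ‖a x j‖ ^ 2 / 2 + inner ℝ (th x) (a x i - a x j) =
          g (a x i) + ‖a x i‖ ^ 2 / 2 := by
        intro j
        have h2 := hcon' x j (a x i)
        have h3 := hcon' x i (a x j)
        have h4 : inner ℝ (th x) (a x j - a x i) = - inner ℝ (th x) (a x i - a x j) := by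
          rw [← inner_neg_right, neg_sub]
        linarith
      have h5 : ∑ j, w x j * (g (a x j) + ‖a x j‖ ^ 2 / 2) =
          ∑ j, w x j * (g (a x i) + ‖a x i‖ ^ 2 / 2 - inner ℝ (th x) (a x i - a x j)) := by
        refine Finset.sum_congr rfl fun j _ => ?_
        rw [← h1 j]; ring
      have h6 : ∑ j, w x j * (g (a x i) + ‖a x i‖ ^ 2 / 2 - inner ℝ (th x) (a x i - a x j)) =
          g (a x i) + ‖a x i‖ ^ 2 / 2 - inner ℝ (th x) (a x i - x) := by
        simp only [mul_sub, Finset.sum_sub_distrib, ← Finset.sum_mul, hw1 x, one_mul]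
        congr 1
        simp only [← real_inner_smul_right]
        rw [← inner_sum]
        congr 1
        simp only [smul_sub, Finset.sum_sub_distrib, ← Finset.sum_smul, hw1 x, one_smul, hwa x]
      rw [hsum] at h5
      linarith
    refine ⟨{i // 0 < w x i}, Subtype.fintype _, fun i => w x i, fun i => a x i, fun i => i.2, ?_, ?_,
      fun i => ⟨hcon' x i, ?_, ?_⟩⟩
    · rw [← hw1 x]
      rw [← Finset.sum_subtype (p := fun i => 0 < w x i) (Finset.univ.filter fun i => 0 < w x i)
        (by simp) (fun i => w x i)]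
      rw [Finset.sum_filter]
      refine Finset.sum_congr rfl fun i _ => ?_
      by_cases hi : 0 < w x i
      · rw [if_pos hi]
      · rw [if_neg hi]; exact le_antisymm (hw0 x i) (not_lt.1 hi)
    · refine Eq.trans ?_ (hwa x)
      rw [← Finset.sum_subtype (p := fun i => 0 < w x i) (Finset.univ.filter fun i => 0 < w x i)
        (by simp) (fun i => w x i • a x i)]
      rw [Finset.sum_filter]
      refine Finset.sum_congr rfl fun i _ => ?_
      by_cases hi : 0 < w x i
      · rw [if_pos hi]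
      · rw [if_neg hi]
        have : w x i = 0 := le_antisymm (not_lt.1 hi) (hw0 x i)
        rw [this, zero_smul]
    · have h1 := hA i
      have h2 := hB i
      have h3 := hC i
      linarith
    · have h1 := hA i
      have h2 := hB i
      have h3 := hC i
      linarith

end Crest.Agent.R096.ThC3_766
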