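import Crest.Agent.R096.ThC2_766
import Crest.Agent.R096.ThC3_766

/-!
Row 96 (S0127), helper766.  **Theorem C of #4068** (bounded version).
-/

set_option autoImplicit false
set_option linter.unusedSectionVars false
set_option linter.style.longLine false
set_option linter.style.haveILetI false
set_option linter.unusedVariables false

namespace Crest.Agent.R096.ThC4_766

open MeasureTheory Set Filter Topology Metric
open Crest.Agent.R094.Env
open Crest.Agent.R096.ThC2_766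
open Crest.Agent.R096.ThC3_766

variable {V : Type*} [NormedAddCommGroup V] [InnerProductSpace ℝ V]

/-- the distance to the complement of the ball `B(c,R)`. -/
noncomputable def dc (c : V) (R : ℝ) (x : V) : ℝ := max (R - ‖x - c‖) 0

lemma dc_nonneg (c : V) (R : ℝ) (x : V) : 0 ≤ dc c R x := le_max_right _ _

lemma dc_le (c : V) {R : ℝ} (hR : 0 ≤ R) (x : V) : dc c R x ≤ R :=
  max_le (by linarith [norm_nonneg (x - c)]) hR

lemma dc_cont (c : V) (R : ℝ) : Continuous (dc c R) := by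
  unfold dc; fun_prop

lemma dc_zero {c : V} {R : ℝ} {x : V} (h : R ≤ ‖x - c‖) : dc c R x = 0 :=
  max_eq_right (by linarith)

lemma dc_touch [Nontrivial V] (c : V) {R : ℝ} (hR : 0 ≤ R) (x : V) :
    ∃ a, dc c R x = ‖x - a‖ ∧ ∀ y, dc c R y ≤ ‖y - a‖ := by
  by_cases hx : R ≤ ‖x - c‖
  · refine ⟨x, by rw [dc_zero hx]; simp, fun y => max_le ?_ (norm_nonneg _)⟩
    have : ‖x - c‖ ≤ ‖y - x‖ + ‖y - c‖ := by
      have h1 := norm_sub_le (y - c) (y - x)
      have h2 : (y - c) - (y - x) = x - c := by abel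
      rw [h2] at h1
      linarith
    linarith
  · push Not at hx
    obtain ⟨e, he, hxe⟩ : ∃ e : V, ‖e‖ = 1 ∧ x - c = ‖x - c‖ • e := by
      by_cases h0 : x - c = 0
      · obtain ⟨v, hv⟩ := exists_norm_eq V (zero_le_one (α := ℝ))
        exact ⟨v, hv, by rw [h0]; simp⟩
      · refine ⟨‖x - c‖⁻¹ • (x - c), ?_, ?_⟩
        · rw [norm_smul, norm_inv, norm_norm]
          exact inv_mul_cancel₀ (norm_ne_zero_iff.2 h0)
        · rw [smul_smul, mul_inv_cancel₀ (norm_ne_zero_iff.2 h0), one_smul]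
    refine ⟨c + R • e, ?_, fun y => max_le ?_ (norm_nonneg _)⟩
    · have h1 : x - (c + R • e) = (‖x - c‖ - R) • e := by
        have : x - (c + R • e) = (x - c) - R • e := by abel
        rw [this, sub_smul, ← hxe]
      rw [h1, norm_smul, he, mul_one, Real.norm_eq_abs, abs_of_neg (by linarith)]
      unfold dc
      rw [max_eq_left (by linarith)]
      ring
    · have h1 := norm_add_le (y - (c + R • e)) (c - y)
      have h2 : (y - (c + R • e)) + (c - y) = -(R • e) := by abel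
      rw [h2, norm_neg, norm_smul, he, mul_one, Real.norm_eq_abs, abs_of_nonneg hR,
        norm_sub_rev c y] at h1
      linarith

/-- touching paraboloid of a squared distance. -/
lemma dsq_touch [Nontrivial V] (c : V) {R β : ℝ} (hR : 0 ≤ R) (hβ : 0 ≤ β) (x : V) :
    ∃ p : V, ∀ y, β / 2 * dc c R y ^ 2 ≤
      β / 2 * dc c R x ^ 2 + inner ℝ p (y - x) + β / 2 * ‖y - x‖ ^ 2 := by
  obtain ⟨a, ha, hy⟩ := dc_touch c hR x
  refine ⟨β • (x - a), fun y => ?_⟩
  rw [ha, real_inner_smul_left]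
  have h1 : dc c R y ^ 2 ≤ ‖y - a‖ ^ 2 := pow_le_pow_left₀ (dc_nonneg _ _ _) (hy y) 2
  have h2 : ‖y - a‖ ^ 2 = ‖x - a‖ ^ 2 + 2 * inner ℝ (x - a) (y - x) + ‖y - x‖ ^ 2 := by
    have h3 : y - a = (x - a) + (y - x) := by abel
    rw [h3]; exact norm_add_sq_real _ _
  have h4 : β / 2 * dc c R y ^ 2 ≤ β / 2 * ‖y - a‖ ^ 2 := by gcongr
  rw [h2] at h4
  linarith

lemma phi_bounds {phi : V → ℝ} {ρ : ℝ} (hphi : ∀ x, ∃ q, ‖q‖ ≤ ρ ∧ Sub phi x q) (x y : V) :
    phi x ≤ phi y + ρ * ‖x - y‖ := by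
  obtain ⟨q, hq, hs⟩ := hphi x
  have h1 := hs y
  have h2 := (abs_le.1 (abs_real_inner_le_norm q (y - x))).1
  have h3 : ‖q‖ * ‖y - x‖ ≤ ρ * ‖x - y‖ := by
    rw [norm_sub_rev y x]; gcongr
  linarith

lemma phi_cont {phi : V → ℝ} {ρ : ℝ} (hphi : ∀ x, ∃ q, ‖q‖ ≤ ρ ∧ Sub phi x q) (hρ : 0 ≤ ρ) :
    Continuous phi := by
  have : LipschitzWith ρ.toNNReal phi := by
    apply LipschitzWith.of_le_add_mul
    intro x y
    rw [Real.coe_toNNReal _ hρ, dist_eq_norm]
    exact phi_bounds hphi x y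
  exact this.continuous

/-- the semiconcave bump built from `phi` on the ball `B(c,R)`. -/
noncomputable def bump (phi : V → ℝ) (ρ β : ℝ) (c : V) (R : ℝ) (x : V) : ℝ :=
  min (max (phi c + 2 * ρ * R - phi x) 0) (β / 2 * dc c R x ^ 2)

lemma bump_nonneg (phi : V → ℝ) (ρ : ℝ) {β : ℝ} (hβ : 0 ≤ β) (c : V) (R : ℝ) (x : V) :
    0 ≤ bump phi ρ β c R x := by
  have := dc_nonneg c R x
  exact le_min (le_max_right _ _) (by positivity)

lemma bump_zero {phi : V → ℝ} {ρ β : ℝ} (hβ : 0 ≤ β) {c : V} {R : ℝ} {x : V} (h : R ≤ ‖x - c‖) :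
    bump phi ρ β c R x = 0 := by
  apply le_antisymm _ (bump_nonneg phi ρ hβ c R x)
  refine (min_le_right _ _).trans ?_
  rw [dc_zero h]; simp

lemma bump_cont {phi : V → ℝ} {ρ : ℝ} (hphi : ∀ x, ∃ q, ‖q‖ ≤ ρ ∧ Sub phi x q) (hρ : 0 ≤ ρ)
    (β : ℝ) (c : V) (R : ℝ) : Continuous (bump phi ρ β c R) := by
  have h1 := phi_cont hphi hρ
  have h2 := dc_cont c R
  unfold bump
  fun_prop

lemma bump_le {phi : V → ℝ} {ρ : ℝ} (hphi : ∀ x, ∃ q, ‖q‖ ≤ ρ ∧ Sub phi x q) (hρ : 0 ≤ ρ)
    {β : ℝ} (hβ : 0 ≤ β) (c : V) {R : ℝ} (hR : 0 ≤ R) (x : V) :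
    bump phi ρ β c R x ≤ 3 * ρ * R := by
  by_cases hx : R ≤ ‖x - c‖
  · rw [bump_zero hβ hx]; positivity
  · push Not at hx
    refine (min_le_left _ _).trans (max_le ?_ (by positivity))
    have h1 := phi_bounds hphi c x
    rw [norm_sub_rev] at h1
    have h2 : ρ * ‖x - c‖ ≤ ρ * R := by gcongr
    linarith

lemma bump_SC [Nontrivial V] {phi : V → ℝ} {ρ : ℝ} (hphi : ∀ x, ∃ q, ‖q‖ ≤ ρ ∧ Sub phi x q)
    (hρ : 0 ≤ ρ) {β : ℝ} (hβ : 0 ≤ β) (c : V) {R : ℝ} (hR : 0 ≤ R) (hρR : ρ ≤ β * R / 2) :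
    SC β (bump phi ρ β c R) := by
  intro x
  by_cases h : β / 2 * dc c R x ^ 2 ≤ max (phi c + 2 * ρ * R - phi x) 0
  · obtain ⟨p, hp⟩ := dsq_touch c hR hβ x
    refine ⟨p, fun y => ?_⟩
    have h1 : bump phi ρ β c R x = β / 2 * dc c R x ^ 2 := min_eq_right h
    rw [h1]
    exact (min_le_right _ _).trans (hp y)
  · push Not at h
    have hxR : ‖x - c‖ < R := by
      by_contra hcon
      push Not at hcon
      rw [dc_zero hcon] at h
      have := le_max_right (phi c + 2 * ρ * R - phi x) 0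
      simp only [ne_eq, OfNat.ofNat_ne_zero, not_false_eq_true, zero_pow, mul_zero] at h
      linarith
    have hin : ∀ y, ‖y - c‖ ≤ 2 * R → 0 ≤ phi c + 2 * ρ * R - phi y := by
      intro y hy
      have h1 := phi_bounds hphi y c
      have h2 : ρ * ‖y - c‖ ≤ ρ * (2 * R) := by gcongr
      linarith
    have hx0 : 0 ≤ phi c + 2 * ρ * R - phi x := hin x (by linarith)
    have h1 : bump phi ρ β c R x = phi c + 2 * ρ * R - phi x := by
      unfold bump
      rw [min_eq_left h.le, max_eq_left hx0]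
    obtain ⟨q, hq, hs⟩ := hphi x
    refine ⟨-q, fun y => ?_⟩
    rw [h1, inner_neg_left]
    have h2 := hs y
    have h3 : 0 ≤ β / 2 * ‖y - x‖ ^ 2 := by positivity
    refine (min_le_left _ _).trans (max_le (by linarith) ?_)
    by_cases hy : ‖y - c‖ ≤ 2 * R
    · have := hin y hy
      linarith
    · push Not at hy
      have h4 : R ≤ ‖y - x‖ := by
        have h5 := norm_add_le (y - x) (x - c)
        have h6 : (y - x) + (x - c) = y - c := by abel
        rw [h6] at h5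
        linarith
      have h7 := (abs_le.1 (abs_real_inner_le_norm q (y - x))).2
      have h8 : ‖q‖ * ‖y - x‖ ≤ (β * R / 2) * ‖y - x‖ := by gcongr; linarith
      have h9 : (β * R / 2) * ‖y - x‖ ≤ β / 2 * ‖y - x‖ ^ 2 := by
        have : β * R / 2 * ‖y - x‖ ≤ β * ‖y - x‖ / 2 * ‖y - x‖ := by gcongr
        nlinarith
      linarith

lemma bump_eq {phi : V → ℝ} {ρ : ℝ} (hphi : ∀ x, ∃ q, ‖q‖ ≤ ρ ∧ Sub phi x q)
    (hρ : 0 ≤ ρ) {β : ℝ} {c : V} {r R : ℝ} (hR : 0 ≤ R) (hrR : r ≤ R)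
    (hρR : 3 * ρ * R ≤ β / 2 * (R - r) ^ 2) (hβ : 0 ≤ β) {x : V} (hx : ‖x - c‖ ≤ r) :
    bump phi ρ β c R x = phi c + 2 * ρ * R - phi x := by
  have h1 := phi_bounds hphi c x
  have h2 := phi_bounds hphi x c
  rw [norm_sub_rev] at h1
  have h3 : ρ * ‖x - c‖ ≤ ρ * R := by gcongr; linarith
  have h0 : 0 ≤ phi c + 2 * ρ * R - phi x := by
    have : 0 ≤ ρ * R := by positivity
    linarith
  unfold bump
  rw [max_eq_left h0, min_eq_left]
  have h4 : R - r ≤ dc c R x := (by linarith : R - r ≤ R - ‖x - c‖).trans (le_max_left _ _)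
  have h5 : (R - r) ^ 2 ≤ dc c R x ^ 2 := pow_le_pow_left₀ (by linarith) h4 2
  have h6 : β / 2 * (R - r) ^ 2 ≤ β / 2 * dc c R x ^ 2 := by gcongr
  linarith

lemma subQ_of_bounded {f : V → ℝ} {M : ℝ} (h : ∀ x, |f x| ≤ M) : SubQ f := by
  intro ε hε
  refine ⟨M, fun a => (h a).trans ?_⟩
  have : 0 ≤ ε * ‖a‖ ^ 2 := by positivity
  linarith

/-- a point with a nontrivial contact representation lies inside a segment of the hull. -/
lemma exists_dir {s : Set V} {ι : Type} [Fintype ι] {w : ι → ℝ} {a : ι → V} (hw : ∀ i, 0 < w i)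
    (hw1 : ∑ i, w i = 1) {x : V} (hx : ∑ i, w i • a i = x) (ha : ∀ i, a i ∈ s)
    (hne : ∃ i, a i ≠ x) : ∃ v : V, v ≠ 0 ∧ ∀ t ∈ Icc (-1 : ℝ) 1, x + t • v ∈ convexHull ℝ s := by
  classical
  obtain ⟨i0, hi0⟩ := hne
  have hwle : w i0 ≤ 1 := by
    rw [← hw1]
    exact Finset.single_le_sum (f := w) (fun j _ => (hw j).le) (Finset.mem_univ i0)
  have hmemA : a i0 ∈ convexHull ℝ s := subset_convexHull ℝ s (ha i0)
  have hmemB : x + w i0 • (x - a i0) ∈ convexHull ℝ s := by
    refine mem_convexHull_iff_exists_fintype.2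
      ⟨ι, inferInstance, fun i => (1 + w i0) * w i - (if i = i0 then w i0 else 0), a, ?_, ?_, ha, ?_⟩
    · intro i
      by_cases hi : i = i0
      · subst hi; simp only [if_true]; nlinarith [hw i]
      · simp only [hi, if_false, sub_zero]
        have := hw i
        have := hw i0
        positivity
    · simp only [Finset.sum_sub_distrib, ← Finset.mul_sum, hw1, Finset.sum_ite_eq', Finset.mem_univ,
        if_true]
      ring
    · simp only [sub_smul, Finset.sum_sub_distrib, ite_smul, zero_smul, Finset.sum_ite_eq',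
        Finset.mem_univ, if_true, mul_smul, ← Finset.smul_sum, hx]
      module
  refine ⟨w i0 • (a i0 - x), smul_ne_zero (hw i0).ne' (sub_ne_zero.2 hi0), fun t ht => ?_⟩
  have hseg : segment ℝ (a i0) (x + w i0 • (x - a i0)) ⊆ convexHull ℝ s :=
    (convex_convexHull ℝ s).segment_subset hmemA hmemB
  apply hseg
  have hpos : 0 < 1 + w i0 := by have := hw i0; linarith
  refine ⟨(w i0 * (1 + t)) / (1 + w i0), (1 - t * w i0) / (1 + w i0), ?_, ?_, ?_, ?_⟩
  · have := hw i0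
    have : 0 ≤ 1 + t := by linarith [ht.1]
    positivity
  · have h1 : t * w i0 ≤ 1 := by
      have h2 := ht.2
      have := hw i0
      nlinarith
    apply div_nonneg (by linarith) hpos.le
  · field_simp; ring
  · rw [smul_add, smul_smul]
    have hA : (w i0 * (1 + t)) / (1 + w i0) + (1 - t * w i0) / (1 + w i0) = 1 := by
      field_simp; ring
    have hB : (w i0 * (1 + t)) / (1 + w i0) - (1 - t * w i0) / (1 + w i0) * w i0 = t * w i0 := by
      field_simp; ring
    have h3 : ((w i0 * (1 + t)) / (1 + w i0)) • a i0 +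
        (((1 - t * w i0) / (1 + w i0)) • x + ((1 - t * w i0) / (1 + w i0) * w i0) • (x - a i0)) =
        ((w i0 * (1 + t)) / (1 + w i0) + (1 - t * w i0) / (1 + w i0)) • x +
        ((w i0 * (1 + t)) / (1 + w i0) - (1 - t * w i0) / (1 + w i0) * w i0) • (a i0 - x) := by
      module
    rw [h3, hA, hB]
    module

variable [FiniteDimensional ℝ V] [MeasurableSpace V] [BorelSpace V]

/-- The output of Theorem C: `th` is the gradient of the convex `C^{1,1}` function `Phi`, the convex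
envelope of `|x|²/2 + g`; there is no contact point in `K`. -/
structure Collapse (β ε : ℝ) (c : V) (R : ℝ) (K : Set V) (g Phi : V → ℝ) (th : V → V) : Prop where
  cont : Continuous g
  sc : SC β g
  nonneg : ∀ x, 0 ≤ g x
  small : ∀ x, g x ≤ ε ^ 2 / 2
  supp : ∀ x, R ≤ ‖x - c‖ → g x = 0
  ct : CT (1 + β) Phi th
  ge : ∀ x, ‖x‖ ^ 2 / 2 ≤ Phi x
  le : ∀ x, Phi x ≤ g x + ‖x‖ ^ 2 / 2
  outside : ∀ x, R ≤ ‖x - c‖ → th x = x
  near : ∀ x, ‖th x - x‖ ≤ ε
  repr : ∀ x, ∃ (ι : Type) (_ : Fintype ι) (w : ι → ℝ) (a : ι → V),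
        (∀ i, 0 < w i) ∧ ∑ i, w i = 1 ∧ ∑ i, w i • a i = x ∧
        ∀ i, Contact g (a i) (th x) ∧ Phi (a i) = g (a i) + ‖a i‖ ^ 2 / 2 ∧
          Phi (a i) = Phi x + inner ℝ (th x) (a i - x)
  noContact : ∀ x ∈ K, Phi x < g x + ‖x‖ ^ 2 / 2

/-- every point of `K` is the midpoint of a nondegenerate segment on which `th` is constant. -/
theorem Collapse.seg {β ε : ℝ} {c : V} {R : ℝ} {K : Set V} {g Phi : V → ℝ} {th : V → V}
    (h : Collapse β ε c R K g Phi th) {x : V} (hx : x ∈ K) :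
    ∃ v : V, v ≠ 0 ∧ ∀ t ∈ Icc (-1 : ℝ) 1, th (x + t • v) = th x := by
  obtain ⟨ι, hι, w, a, hw, hw1, hwx, hc⟩ := h.repr x
  have hne : ∃ i, a i ≠ x := by
    have : Nonempty ι := by
      by_contra hcon
      rw [not_nonempty_iff] at hcon
      simp at hw1
    obtain ⟨i⟩ := this
    refine ⟨i, fun hi => ?_⟩
    have h1 := (hc i).2.1
    have h2 := h.noContact x hx
    rw [hi] at h1
    linarith
  obtain ⟨v, hv, hvt⟩ := exists_dir hw hw1 hwx (s := range a) (fun i => ⟨i, rfl⟩) hne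
  refine ⟨v, hv, fun t ht => (h.ct.const_on_hull (s := range a) ?_ (hvt t ht)).1⟩
  rintro _ ⟨i, rfl⟩
  exact (hc i).2.2.le

/-- **Theorem C** of #4068. -/
theorem thmC [Nontrivial V] {β ε r R : ℝ} (hβ : 0 < β) (hε : 0 < ε) (hr : 0 ≤ r) (hrR : r < R) :
    ∃ η : ℝ, 0 < η ∧ ∀ (c : V) (W K : Set V), IsOpen W → W ⊆ closedBall c r →
      (volume : Measure V).real W < η → IsCompact K → K ⊆ W →
      ∃ (g Phi : V → ℝ) (th : V → V), Collapse β ε c R K g Phi th := by
  have hR : 0 < R := lt_of_le_of_lt hr hrR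
  set ρ : ℝ := min (β * R / 2) (min (β * (R - r) ^ 2 / (6 * R)) (ε ^ 2 / (6 * R))) with hρdef
  have hRr : 0 < R - r := by linarith
  have hρ : 0 < ρ := lt_min (by positivity) (lt_min (by positivity) (by positivity))
  have hρ1 : ρ ≤ β * R / 2 := min_le_left _ _
  have hρ2 : 3 * ρ * R ≤ β / 2 * (R - r) ^ 2 := by
    have h1 : ρ ≤ β * (R - r) ^ 2 / (6 * R) := (min_le_right _ _).trans (min_le_left _ _)
    rw [le_div_iff₀ (by positivity)] at h1
    linarith
  have hρ3 : 3 * ρ * R ≤ ε ^ 2 / 2 := by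
    have h1 : ρ ≤ ε ^ 2 / (6 * R) := (min_le_right _ _).trans (min_le_right _ _)
    rw [le_div_iff₀ (by positivity)] at h1
    linarith
  set N := Module.finrank ℝ V with hN
  have hb : 0 < (volume : Measure V).real (closedBall (0 : V) ρ) := by
    rw [Measure.real, ENNReal.toReal_pos_iff]
    exact ⟨measure_closedBall_pos _ _ hρ, measure_closedBall_lt_top⟩
  refine ⟨(volume : Measure V).real (closedBall (0 : V) ρ) / (3 * 1) ^ N, by positivity,
    fun c W K hWo hWr hWv hK hKW => ?_⟩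
  obtain ⟨δ, hδ, hδW⟩ := hK.exists_cthickening_subset_open hWo hKW
  set s : ℝ := δ / 2 with hs
  have hs0 : 0 < s := by positivity
  have hballK : ∀ x ∈ K, closedBall x (2 * s) ⊆ W := by
    intro x hx
    have h1 : 2 * s = δ := by rw [hs]; ring
    rw [h1]
    exact (closedBall_subset_cthickening hx δ).trans hδW
  have hvol : (3 * 1) ^ N * (volume : Measure V).real W < (volume : Measure V).real (closedBall 0 ρ) := by
    rw [lt_div_iff₀ (by positivity)] at hWv
    linarith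
  obtain ⟨phi, hphi, hmass⟩ := exists_phi_mass (V := V) (R := ‖c‖ + r) (s := s) (H := (3 * 1) ^ N) hρ hs0
    (by positivity) hWo.measurableSet (hWr.trans (fun x hx => by
      rw [mem_closedBall, dist_eq_norm] at hx
      rw [mem_closedBall, dist_zero_right]
      have := norm_add_le (x - c) c
      rw [sub_add_cancel] at this
      linarith)) hvol
  set g : V → ℝ := bump phi ρ β c R with hg
  have hgc : Continuous g := bump_cont hphi hρ.le β c R
  have hgSC : SC β g := bump_SC hphi hρ.le hβ.le c hR.le hρ1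
  have hg0 : ∀ x, 0 ≤ g x := bump_nonneg phi ρ hβ.le c R
  have hgle : ∀ x, g x ≤ ε ^ 2 / 2 := fun x => (bump_le hphi hρ.le hβ.le c hR.le x).trans hρ3
  have hgW : ∀ x ∈ W, g x = phi c + 2 * ρ * R - phi x := fun x hx =>
    bump_eq hphi hρ.le hR.le hrR.le hρ2 hβ.le (by
      have := hWr hx
      rwa [mem_closedBall, dist_eq_norm] at this)
  have hgs : SubQ g := subQ_of_bounded (M := ε ^ 2 / 2) fun x => by
    rw [abs_of_nonneg (hg0 x)]; exact hgle x
  obtain ⟨Phi, th, hCT, hle, hmax, hrepr⟩ := envelope hgc hgs hgSC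
  have hge : ∀ x, ‖x‖ ^ 2 / 2 ≤ Phi x := by
    intro x
    have h1 := hmax x (-(‖x‖ ^ 2 / 2)) (fun y => by
      have h2 : 0 ≤ ‖y - x‖ ^ 2 := by positivity
      rw [norm_sub_sq_real, real_inner_comm] at h2
      have := hg0 y
      linarith) x
    rw [real_inner_self_eq_norm_sq] at h1
    linarith
  refine ⟨g, Phi, th, ⟨hgc, hgSC, hg0, hgle, fun x hx => bump_zero hβ.le hx, hCT, hge, hle, ?_, ?_,
    hrepr, ?_⟩⟩
  · intro x hx
    apply hCT.eq_self hge
    have h1 := hle x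
    have h2 : g x = 0 := bump_zero hβ.le hx
    have h3 := hge x
    linarith
  · intro x
    have h1 := hCT.near_id hge (m := ε ^ 2 / 2) (fun y => by
      have := hle y
      have := hgle y
      linarith) x
    have h2 : ‖th x - x‖ ^ 2 ≤ ε ^ 2 := by linarith
    exact abs_le_of_sq_le_sq' h2 hε.le |>.2
  · intro x hx
    refine lt_of_le_of_ne (hle x) fun heq => ?_
    have hcon : ∀ y ∈ closedBall x (2 * s),
        phi y ≤ phi x + inner ℝ (x - th x) (y - x) + 1 / 2 * ‖y - x‖ ^ 2 := by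
      intro y hy
      have h1 := hCT.lower x y
      have h2 := hle y
      have hyW := hballK x hx hy
      have h3 := hgW y hyW
      have h4 := hgW x (hKW hx)
      have h5 : ‖y‖ ^ 2 = ‖x‖ ^ 2 + 2 * inner ℝ x (y - x) + ‖y - x‖ ^ 2 := by
        have := norm_add_sq_real x (y - x)
        rwa [add_sub_cancel] at this
      rw [inner_sub_left]
      linarith
    exact no_touch hs0 one_pos (fun x => (hphi x).imp fun q hq => hq.2)
      (hmass x ((ball_subset_closedBall.trans (closedBall_subset_closedBall (by linarith))).trans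
        (hballK x hx))) (x - th x) hcon

end Crest.Agent.R096.ThC4_766
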