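import Crest.Agent.R096.ThC4_766

/-!
Row 96 (S0127), helper766.  Theorem C of #4068 in the non-compact (locally small) form of #6574 (3):
infinite sums of semiconcave bumps.
-/

set_option autoImplicit false
set_option linter.unusedSectionVars false
set_option linter.style.longLine false
set_option linter.style.haveILetI false
set_option linter.unusedVariables false

namespace Crest.Agent.R096.ThC5_766

open MeasureTheory Set Filter Topology Metric
open Crest.Agent.R094.Env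
open Crest.Agent.R096.ThC2_766
open Crest.Agent.R096.ThC3_766
open Crest.Agent.R096.ThC4_766

variable {V : Type*} [NormedAddCommGroup V] [InnerProductSpace ℝ V]

/-- slopes of touching paraboloids of a nonnegative function are small. -/
lemma slope_le {g : V → ℝ} {β m : ℝ} (hβ : 0 ≤ β) (hm : 0 ≤ m) (h0 : ∀ y, 0 ≤ g y) {x p : V}
    (hgm : g x ≤ m) (hp : ∀ y, g y ≤ g x + inner ℝ p (y - x) + β / 2 * ‖y - x‖ ^ 2) :
    ‖p‖ ≤ β + m := by
  by_contra hcon
  push Not at hcon
  have hpn : 0 < ‖p‖ := by linarith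
  rcases hβ.eq_or_lt with hb | hb
  · -- β = 0
    subst hb
    have h1 := hp (x - ((m + 1) / ‖p‖ ^ 2) • p)
    have h2 := h0 (x - ((m + 1) / ‖p‖ ^ 2) • p)
    rw [sub_sub_cancel_left, inner_neg_right, real_inner_smul_right, real_inner_self_eq_norm_sq] at h1
    have h3 : (m + 1) / ‖p‖ ^ 2 * ‖p‖ ^ 2 = m + 1 := by field_simp
    rw [h3] at h1
    linarith
  · have h1 := hp (x - (1 / β) • p)
    have h2 := h0 (x - (1 / β) • p)
    rw [sub_sub_cancel_left, inner_neg_right, real_inner_smul_right, real_inner_self_eq_norm_sq,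
      norm_neg, norm_smul, Real.norm_eq_abs, abs_of_pos (by positivity)] at h1
    have h3 : β / 2 * (1 / β * ‖p‖) ^ 2 = 1 / β * ‖p‖ ^ 2 / 2 := by field_simp
    rw [h3] at h1
    have h4 : 1 / β * ‖p‖ ^ 2 / 2 ≤ m := by linarith
    have h5 : ‖p‖ ^ 2 ≤ 2 * β * m := by
      rw [div_le_iff₀ (by norm_num), one_div, inv_mul_le_iff₀ hb] at h4
      linarith
    nlinarith [sq_nonneg (β - m)]

lemma SC_zero {β : ℝ} (hβ : 0 ≤ β) : SC β (fun _ : V => (0 : ℝ)) := by
  intro x
  refine ⟨0, fun y => ?_⟩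
  rw [inner_zero_left]; positivity

/-- infinite sums of semiconcave functions. -/
lemma SC_tsum [CompleteSpace V] {g : ℕ → V → ℝ} {β m : ℕ → ℝ} (hβ : ∀ k, 0 ≤ β k) (hm : ∀ k, 0 ≤ m k)
    (hβs : Summable β) (hms : Summable m) (h0 : ∀ k y, 0 ≤ g k y) (hgm : ∀ k y, g k y ≤ m k)
    (hSC : ∀ k, SC (β k) (g k)) : SC (∑' k, β k) (fun x => ∑' k, g k x) := by
  intro x
  choose p hp using fun k => hSC k x
  have hpn : ∀ k, ‖p k‖ ≤ β k + m k := fun k => slope_le (hβ k) (hm k) (h0 k) (hgm k x) (hp k)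
  have hps : Summable p := Summable.of_norm_bounded (hβs.add hms) hpn
  have hgs : ∀ y, Summable fun k => g k y := fun y =>
    Summable.of_nonneg_of_le (fun k => h0 k y) (fun k => hgm k y) hms
  refine ⟨∑' k, p k, fun y => ?_⟩
  have hin : HasSum (fun k => inner ℝ (p k) (y - x)) (inner ℝ (∑' k, p k) (y - x)) := by
    have h1 := (hps.hasSum).mapL (innerSL ℝ (y - x))
    simp only [innerSL_apply_apply] at h1
    simpa only [real_inner_comm (y - x)] using h1
  have h2 : HasSum (fun k => g k x + inner ℝ (p k) (y - x) + β k * (‖y - x‖ ^ 2 / 2))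
      (∑' k, g k x + inner ℝ (∑' k, p k) (y - x) + (∑' k, β k) * (‖y - x‖ ^ 2 / 2)) :=
    ((hgs x).hasSum.add hin).add (hβs.hasSum.mul_right _)
  have h3 := hasSum_le (fun k => (by
    have := hp k y
    linarith : g k y ≤ g k x + inner ℝ (p k) (y - x) + β k * (‖y - x‖ ^ 2 / 2))) (hgs y).hasSum h2
  simp only
  linarith

lemma cont_tsum {g : ℕ → V → ℝ} {m : ℕ → ℝ} (hms : Summable m) (h0 : ∀ k y, 0 ≤ g k y)
    (hgm : ∀ k y, g k y ≤ m k) (hc : ∀ k, Continuous (g k)) : Continuous fun x => ∑' k, g k x :=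
  continuous_tsum hc hms fun k y => by
    rw [Real.norm_eq_abs, abs_of_nonneg (h0 k y)]; exact hgm k y

/-- local deviation from the identity. -/
lemma near_id_loc {C : ℝ} {Phi : V → ℝ} {th : V → V} (h : CT C Phi th) {e : V → ℝ}
    (he0 : ∀ x, 0 ≤ e x) (he : ∀ x y, e x ≤ e y + ‖x - y‖ / 2) (h0 : ∀ x, ‖x‖ ^ 2 / 2 ≤ Phi x)
    (h1 : ∀ x, Phi x ≤ ‖x‖ ^ 2 / 2 + e x ^ 2 / 2) (x : V) : ‖th x - x‖ ≤ 2 * e x := by
  set v : V := th x - x with hv
  have h2 := h.lower x (x + v)
  have h3 := h1 (x + v)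
  have h4 := h0 x
  rw [add_sub_cancel_left] at h2
  have h5 : ‖x + v‖ ^ 2 = ‖x‖ ^ 2 + 2 * inner ℝ x v + ‖v‖ ^ 2 := norm_add_sq_real x v
  have h6 : inner ℝ (th x) v = inner ℝ x v + ‖v‖ ^ 2 := by
    have : th x = x + v := by rw [hv]; abel
    rw [this, inner_add_left, real_inner_self_eq_norm_sq]
  have h7 : ‖v‖ ^ 2 ≤ e (x + v) ^ 2 := by linarith
  have h8 : ‖v‖ ≤ e (x + v) := le_of_sq_le_sq h7 (he0 _) |> fun h => h
  have h9 := he (x + v) x
  rw [add_sub_cancel_left] at h9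
  linarith

theorem exists_cover [SecondCountableTopology V] {L : Set V} (hL : IsOpen L) (hne : L.Nonempty) :
    ∃ (z : ℕ → V) (r : ℕ → ℝ), (∀ k, 0 < r k) ∧ (∀ k, closedBall (z k) (2 * r k) ⊆ L) ∧
      L ⊆ ⋃ k, ball (z k) (r k) := by
  have h1 : ∀ x : L, ∃ r : ℝ, 0 < r ∧ closedBall (x : V) (2 * r) ⊆ L := by
    intro x
    obtain ⟨δ, hδ, h⟩ := Metric.nhds_basis_closedBall.mem_iff.1 (hL.mem_nhds x.2)
    refine ⟨δ / 2, by positivity, ?_⟩
    have : 2 * (δ / 2) = δ := by ring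
    rwa [this]
  choose r hr hrL using h1
  obtain ⟨T, hT, hTU⟩ := TopologicalSpace.isOpen_iUnion_countable
    (fun x : L => ball (x : V) (r x)) (fun x => isOpen_ball)
  have hTne : T.Nonempty := by
    obtain ⟨x, hx⟩ := hne
    have h2 : x ∈ ⋃ i : L, ball (i : V) (r i) := mem_iUnion.2 ⟨⟨x, hx⟩, mem_ball_self (hr _)⟩
    rw [← hTU] at h2
    obtain ⟨i, hi⟩ := mem_iUnion.1 h2
    obtain ⟨hiT, -⟩ := mem_iUnion.1 hi
    exact ⟨i, hiT⟩
  obtain ⟨u, hu⟩ := hT.exists_eq_range hTne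
  refine ⟨fun k => u k, fun k => r (u k), fun k => hr _, fun k => hrL _, fun x hx => ?_⟩
  have h2 : x ∈ ⋃ i : L, ball (i : V) (r i) := mem_iUnion.2 ⟨⟨x, hx⟩, mem_ball_self (hr _)⟩
  rw [← hTU] at h2
  obtain ⟨i, hi⟩ := mem_iUnion.1 h2
  obtain ⟨hiT, hxi⟩ := mem_iUnion.1 hi
  rw [hu] at hiT
  obtain ⟨k, hk⟩ := hiT
  exact mem_iUnion.2 ⟨k, by simp only; rw [hk]; exact hxi⟩

variable [FiniteDimensional ℝ V] [MeasurableSpace V] [BorelSpace V]

/-- one bump of the family. -/
lemma one_bump [Nontrivial V] {z : V} {r b m : ℝ} (hr : 0 < r) (hb : 0 < b) (hm : 0 < m) :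
    ∃ η : ℝ, 0 < η ∧ ∀ W D : Set V, IsOpen W → (volume : Measure V).real (W ∩ ball z (3 / 2 * r)) < η →
      IsClosed D → D ∩ closedBall z r ⊆ W →
      ∃ g : V → ℝ, Continuous g ∧ SC b g ∧ (∀ x, 0 ≤ g x) ∧ (∀ x, g x ≤ m) ∧
        (∀ x, 2 * r ≤ ‖x - z‖ → g x = 0) ∧
        ∀ x ∈ D ∩ closedBall z r, ∃ s : ℝ, 0 < s ∧ ∀ p : V,
          ¬ ∀ y ∈ closedBall x (2 * s), g x + inner ℝ p (y - x) - 2 / 2 * ‖y - x‖ ^ 2 ≤ g y := by
  set R : ℝ := 2 * r with hR
  have hR0 : 0 < R := by positivity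
  set ρ : ℝ := min (b * R / 2) (min (b * (R - 3 / 2 * r) ^ 2 / (6 * R)) (m / (3 * R))) with hρdef
  have hRr : 0 < R - 3 / 2 * r := by rw [hR]; linarith
  have hρ : 0 < ρ := lt_min (by positivity) (lt_min (by positivity) (by positivity))
  have hρ1 : ρ ≤ b * R / 2 := min_le_left _ _
  have hρ2 : 3 * ρ * R ≤ b / 2 * (R - 3 / 2 * r) ^ 2 := by
    have h1 : ρ ≤ b * (R - 3 / 2 * r) ^ 2 / (6 * R) := (min_le_right _ _).trans (min_le_left _ _)
    rw [le_div_iff₀ (by positivity)] at h1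
    linarith
  have hρ3 : 3 * ρ * R ≤ m := by
    have h1 : ρ ≤ m / (3 * R) := (min_le_right _ _).trans (min_le_right _ _)
    rw [le_div_iff₀ (by positivity)] at h1
    linarith
  set N := Module.finrank ℝ V with hN
  have hbv : 0 < (volume : Measure V).real (closedBall (0 : V) ρ) := by
    rw [Measure.real, ENNReal.toReal_pos_iff]
    exact ⟨measure_closedBall_pos _ _ hρ, measure_closedBall_lt_top⟩
  refine ⟨(volume : Measure V).real (closedBall (0 : V) ρ) / (3 * 2) ^ N, by positivity,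
    fun W D hWo hWv hD hDW => ?_⟩
  have hK : IsCompact (D ∩ closedBall z r) := (isCompact_closedBall z r).inter_left hD
  have hW' : IsOpen (W ∩ ball z (3 / 2 * r)) := hWo.inter isOpen_ball
  obtain ⟨δ, hδ, hδW⟩ := hK.exists_cthickening_subset_open hW'
    (subset_inter hDW (inter_subset_right.trans (closedBall_subset_ball (by linarith))))
  set s : ℝ := δ / 2 with hs
  have hs0 : 0 < s := by positivity
  have hballK : ∀ x ∈ D ∩ closedBall z r, closedBall x (2 * s) ⊆ W ∩ ball z (3 / 2 * r) := by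
    intro x hx
    have h1 : 2 * s = δ := by rw [hs]; ring
    rw [h1]
    exact (closedBall_subset_cthickening hx δ).trans hδW
  have hvol : (3 * 2) ^ N * (volume : Measure V).real (W ∩ ball z (3 / 2 * r))
      < (volume : Measure V).real (closedBall 0 ρ) := by
    rw [lt_div_iff₀ (by positivity)] at hWv
    linarith
  obtain ⟨phi, hphi, hmass⟩ := exists_phi_mass (V := V) (R := ‖z‖ + 3 / 2 * r) (s := s)
    (H := (3 * 2) ^ N) hρ hs0 (by positivity) hW'.measurableSet (fun x hx => by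
      have hx2 := hx.2
      rw [mem_ball, dist_eq_norm] at hx2
      rw [mem_closedBall, dist_zero_right]
      have := norm_add_le (x - z) z
      rw [sub_add_cancel] at this
      linarith) hvol
  refine ⟨bump phi ρ b z R, bump_cont hphi hρ.le b z R, bump_SC hphi hρ.le hb.le z hR0.le hρ1,
    bump_nonneg phi ρ hb.le z R, fun x => (bump_le hphi hρ.le hb.le z hR0.le x).trans hρ3,
    fun x hx => bump_zero hb.le hx, fun x hx => ⟨s, hs0, fun p hp => ?_⟩⟩
  have heq : ∀ y ∈ W ∩ ball z (3 / 2 * r), bump phi ρ b z R y = phi z + 2 * ρ * R - phi y := by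
    intro y hy
    have hy2 := hy.2
    rw [mem_ball, dist_eq_norm] at hy2
    exact bump_eq hphi hρ.le hR0.le (r := 3 / 2 * r) (by linarith) hρ2 hb.le hy2.le
  have hxW : x ∈ W ∩ ball z (3 / 2 * r) := hballK x hx (mem_closedBall_self (by positivity))
  refine no_touch hs0 two_pos (fun x => (hphi x).imp fun q hq => hq.2)
      (hmass x ((ball_subset_closedBall.trans (closedBall_subset_closedBall (by linarith))).trans
        (hballK x hx))) (-p) fun y hy => ?_
  have h1 := hp y hy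
  rw [heq y (hballK x hx hy), heq x hxW] at h1
  rw [inner_neg_left]
  linarith

/-- **Theorem C, locally small version** (semiconcave function without contact points). -/
theorem thmC_loc [Nontrivial V] {L : Set V} (hL : IsOpen L) (hne : L.Nonempty) {β : ℝ} (hβ : 0 < β)
    (hβ1 : β ≤ 1) {e : V → ℝ} (hec : Continuous e) (he : ∀ x ∈ L, 0 < e x) :
    ∃ (z : ℕ → V) (r η : ℕ → ℝ), (∀ k, 0 < r k) ∧ (∀ k, 0 < η k) ∧
      (∀ k, closedBall (z k) (2 * r k) ⊆ L) ∧ L ⊆ ⋃ k, ball (z k) (r k) ∧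
      ∀ W D : Set V, IsOpen W → (∀ k, (volume : Measure V).real (W ∩ ball (z k) (3 / 2 * r k)) < η k) →
        IsClosed D → D ∩ L ⊆ W →
        ∃ g : V → ℝ, Continuous g ∧ SC β g ∧ (∀ x, 0 ≤ g x) ∧ (∀ x, g x ≤ e x ^ 2 / 2) ∧
          (∀ x, g x ≤ 1) ∧ (∀ x ∉ L, g x = 0) ∧ ∀ x ∈ D ∩ L, ∀ p, ¬ Contact g x p := by
  obtain ⟨z, r, hr, hrL, hcov⟩ := exists_cover hL hne
  -- lower bounds of e on the balls
  have hmin : ∀ k, ∃ m : ℝ, 0 < m ∧ ∀ x ∈ closedBall (z k) (2 * r k), m ≤ e x := by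
    intro k
    obtain ⟨x, hx, hxm⟩ := (isCompact_closedBall (z k) (2 * r k)).exists_isMinOn
      ⟨z k, mem_closedBall_self (by have := hr k; positivity)⟩ hec.continuousOn
    exact ⟨e x, he x (hrL k hx), fun y hy => hxm hy⟩
  choose μ hμ hμe using hmin
  set b : ℕ → ℝ := fun k => β / 2 / 2 ^ k with hb
  set m : ℕ → ℝ := fun k => min 1 (μ k ^ 2 / 2) / 2 / 2 ^ k with hm
  have hb0 : ∀ k, 0 < b k := fun k => by positivity
  have hm0 : ∀ k, 0 < m k := fun k => by
    have : 0 < min 1 (μ k ^ 2 / 2) := lt_min one_pos (by have := hμ k; positivity)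
    positivity
  have hbs : HasSum b β := hasSum_geometric_two' β
  have h1s : HasSum (fun k : ℕ => (1 : ℝ) / 2 / 2 ^ k) 1 := hasSum_geometric_two' 1
  have hm1 : ∀ k, m k ≤ 1 / 2 / 2 ^ k := fun k => by
    have : min 1 (μ k ^ 2 / 2) ≤ 1 := min_le_left _ _
    simp only [hm]; gcongr
  have hms : Summable m := Summable.of_nonneg_of_le (fun k => (hm0 k).le) hm1 h1s.summable
  choose η hη hηall using fun k => one_bump (V := V) (z := z k) (hr k) (hb0 k) (hm0 k)
  refine ⟨z, r, η, hr, hη, hrL, hcov, fun W D hW hWv hD hDW => ?_⟩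
  have hsub : ∀ k, D ∩ closedBall (z k) (r k) ⊆ W := fun k x hx => hDW ⟨hx.1, hrL k
    (closedBall_subset_closedBall (by have := hr k; linarith) hx.2)⟩
  choose g hgc hgSC hg0 hgm hgz hgn using fun k => hηall k W D hW (hWv k) hD (hsub k)
  have hgs : ∀ y, Summable fun k => g k y := fun y =>
    Summable.of_nonneg_of_le (fun k => hg0 k y) (fun k => hgm k y) hms
  have hzero : ∀ k, ∀ x ∉ L, g k x = 0 := by
    intro k x hx
    apply hgz k
    by_contra hcon
    push Not at hcon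
    apply hx
    apply hrL k
    rw [mem_closedBall, dist_eq_norm]
    exact hcon.le
  have hSC : SC β (fun x => ∑' k, g k x) := by
    rw [← hbs.tsum_eq]
    exact SC_tsum (fun k => (hb0 k).le) (fun k => (hm0 k).le) hbs.summable hms hg0 hgm hgSC
  refine ⟨fun x => ∑' k, g k x, cont_tsum hms hg0 hgm hgc, hSC, fun x => tsum_nonneg fun k => hg0 k x,
    ?_, ?_, ?_, ?_⟩
  · intro x
    have h1 : ∀ k, g k x ≤ (e x ^ 2 / 2) / 2 / 2 ^ k := by
      intro k
      by_cases hx : x ∈ closedBall (z k) (2 * r k)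
      · refine (hgm k x).trans ?_
        have h2 : min 1 (μ k ^ 2 / 2) ≤ e x ^ 2 / 2 := by
          refine (min_le_right _ _).trans ?_
          have := hμe k x hx
          have := (hμ k).le
          gcongr
        simp only [hm]
        gcongr
      · rw [mem_closedBall, dist_eq_norm] at hx
        push Not at hx
        rw [hgz k x hx.le]
        positivity
    exact hasSum_le h1 (hgs x).hasSum (hasSum_geometric_two' (e x ^ 2 / 2))
  · intro x
    exact hasSum_le (fun k => (hgm k x).trans (hm1 k)) (hgs x).hasSum h1s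
  · intro x hx
    simp only [hzero _ x hx, tsum_zero]
  · intro x hx p hp
    obtain ⟨k, hk⟩ := mem_iUnion.1 (hcov hx.2)
    obtain ⟨s, hs, hns⟩ := hgn k x ⟨hx.1, ball_subset_closedBall hk⟩
    -- the other bumps
    set g' : ℕ → V → ℝ := fun j x => if j = k then 0 else g j x with hg'
    have hSC' : SC β (fun x => ∑' j, g' j x) := by
      rw [← hbs.tsum_eq]
      refine SC_tsum (fun k => (hb0 k).le) (fun k => (hm0 k).le) hbs.summable hms ?_ ?_ ?_
      · intro j y
        by_cases hj : j = k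
        · simp [hg', hj]
        · simp only [hg', hj, if_false]; exact hg0 j y
      · intro j y
        by_cases hj : j = k
        · simp only [hg', hj, if_true]; exact (hm0 k).le
        · simp only [hg', hj, if_false]; exact hgm j y
      · intro j
        by_cases hj : j = k
        · simp only [hg', hj, if_true]; exact SC_zero (hb0 k).le
        · simp only [hg', hj, if_false]; exact hgSC j
    have hdec : ∀ y, ∑' j, g j y = g k y + ∑' j, g' j y := fun y => (hgs y).tsum_eq_add_tsum_ite k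
    obtain ⟨q, hq⟩ := hSC' x
    refine hns (p - x - q) fun y hy => ?_
    have h1 := hp y
    simp only at h1 hq
    rw [hdec x, hdec y] at h1
    have h2 := hq y
    have h5 : ‖y‖ ^ 2 = ‖x‖ ^ 2 + 2 * inner ℝ x (y - x) + ‖y - x‖ ^ 2 := by
      have := norm_add_sq_real x (y - x)
      rwa [add_sub_cancel] at this
    rw [inner_sub_left, inner_sub_left]
    have h6 : β / 2 * ‖y - x‖ ^ 2 ≤ 1 / 2 * ‖y - x‖ ^ 2 := by gcongr
    linarith

end Crest.Agent.R096.ThC5_766
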