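import Crest.Agent.R096.ThC7_766

/-!
Row 96 (S0127), helper766.  Final form of the PL version of Theorem C (#4068, #6574 (3)).
-/

set_option autoImplicit false
set_option linter.unusedSectionVars false
set_option linter.style.longLine false

namespace Crest.Agent.R096.ThC8_766

open MeasureTheory Set Filter Topology Metric
open Crest.Agent.R096.ThC3_766
open Crest.Agent.R096.ThC5_766
open Crest.Agent.R096.ThC6_766
open Crest.Agent.R096.ThC7_766

variable {V : Type*} [NormedAddCommGroup V] [InnerProductSpace ℝ V]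

section api

variable {L : Set V} {C : ℝ} {e : V → ℝ} {D S : Set V} {a : S → V} {c : S → ℝ}
    {Phi : V → ℝ} {th : V → V}

/-- the bad set is collapsed into the 2-skeleton of the diagram. -/
lemma two_active (h : Lag L C e D S a c Phi th) {y : V} (hy : y ∈ D) (hyL : y ∈ L) :
    ∃ k ∈ act a c (th y), ∃ l ∈ act a c (th y), k ≠ l := by
  by_contra hcon
  push Not at hcon
  have hsub : (act a c (th y)).Subsingleton := fun k hk l hl => hcon k hk l hl
  obtain ⟨k, hk⟩ := h.ne (th y) (h.mem y hyL)
  obtain ⟨z, hz, hyz⟩ := h.fib y hyL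
  have h1 : a '' act a c (th y) = {a k} := by
    rw [hsub.eq_singleton_of_mem hk, image_singleton]
  rw [h1, convexHull_singleton, mem_singleton_iff] at hz
  have h2 := h.avoid (th y) (h.mem y hyL) k hk
  rw [← hz, ← hyz] at h2
  exact h2 hy

/-- the open cell of `k`, a core: `th` is a similarity there. -/
lemma core (h : Lag L C e D S a c Phi th) {p : V} (hp : p ∈ L) {k : S}
    (hk : act a c p = {k}) {y : V} : th y = p ∧ y ∈ L ↔ y = (1 / C) • p + a k := by
  constructor
  · rintro ⟨hy, hyL⟩
    obtain ⟨z, hz, hyz⟩ := h.fib y hyL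
    rw [hy, hk, image_singleton, convexHull_singleton, mem_singleton_iff] at hz
    rw [hyz, hy, hz]
  · rintro rfl
    have := h.fib' p hp (a k) (by
      rw [hk, image_singleton, convexHull_singleton]; exact mem_singleton _)
    exact ⟨this.2, this.1⟩

/-- the cells. -/
def cell (L : Set V) (a : S → V) (c : S → ℝ) (k : S) : Set V := {p | p ∈ L ∧ k ∈ act a c p}

lemma isClosed_act (a : S → V) (c : S → ℝ) (k : S) : IsClosed {p | k ∈ act a c p} := by
  have : {p | k ∈ act a c p} = ⋂ j, {p | inner ℝ (a j) p - c j ≤ inner ℝ (a k) p - c k} := by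
    ext p; simp [act]
  rw [this]
  exact isClosed_iInter fun j => isClosed_le (by fun_prop) (by fun_prop)

lemma convex_act (a : S → V) (c : S → ℝ) (k : S) : Convex ℝ {p | k ∈ act a c p} := by
  intro x hx y hy s t hs ht hst j
  have h1 := mul_le_mul_of_nonneg_left (hx j) hs
  have h2 := mul_le_mul_of_nonneg_left (hy j) ht
  rw [inner_add_right, inner_add_right, real_inner_smul_right, real_inner_smul_right,
    real_inner_smul_right, real_inner_smul_right]
  have h3 : s * c j + t * c j = c j := by rw [← add_mul, hst, one_mul]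
  have h4 : s * c k + t * c k = c k := by rw [← add_mul, hst, one_mul]
  linarith

lemma cell_near (he : Scale L e) (h : Lag L C e D S a c Phi th) {k : S} {p : V}
    (hp : p ∈ cell L a c k) : ‖p - k‖ ≤ e k / 2 := by
  have h1 := h.near_ctr p hp.1 k hp.2
  have h2 := he.lip p k
  have h3 := he.nonneg p
  linarith

lemma cell_subset (he : Scale L e) (h : Lag L C e D S a c Phi th) (k : S) :
    closedBall (k : V) (e k / 2) ⊆ L := fun y hy => he.mem (h.sub k.2) (by
  rw [mem_closedBall, dist_eq_norm] at hy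
  have := he.pos k (h.sub k.2)
  linarith)

lemma cell_eq (he : Scale L e) (h : Lag L C e D S a c Phi th) (k : S) :
    cell L a c k = {p | k ∈ act a c p} ∩ closedBall (k : V) (e k / 2) := by
  ext p
  constructor
  · intro hp
    exact ⟨hp.2, by rw [mem_closedBall, dist_eq_norm]; exact cell_near he h hp⟩
  · rintro ⟨h1, h2⟩
    exact ⟨cell_subset he h k h2, h1⟩

lemma cell_convex (he : Scale L e) (h : Lag L C e D S a c Phi th) (k : S) :
    Convex ℝ (cell L a c k) := by
  rw [cell_eq he h]
  exact (convex_act a c k).inter (convex_closedBall _ _)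

lemma cell_compact [ProperSpace V] (he : Scale L e) (h : Lag L C e D S a c Phi th) (k : S) :
    IsCompact (cell L a c k) := by
  rw [cell_eq he h, inter_comm]
  exact (isCompact_closedBall _ _).inter_right (isClosed_act a c k)

/-- locally only finitely many linear functions matter. -/
lemma act_local (he : Scale L e) (h : Lag L C e D S a c Phi th) {p : V} (hp : p ∈ L) :
    ∃ F : Finset S, ∀ p' ∈ closedBall p (e p), p' ∈ L ∧ act a c p' ⊆ F ∧
      ∀ k, (k ∈ act a c p' ↔ k ∈ F ∧ ∀ j ∈ F, inner ℝ (a j) p' - c j ≤ inner ℝ (a k) p' - c k) := by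
  refine ⟨(h.locfin p hp).toFinset, fun p' hp' => ?_⟩
  have hp'L : p' ∈ L := he.mem hp (by
    rw [mem_closedBall, dist_eq_norm] at hp'
    have := he.pos p hp
    linarith)
  have hsub : act a c p' ⊆ (h.locfin p hp).toFinset := fun k hk => by
    simp only [Set.Finite.coe_toFinset, mem_ofPred_eq]
    exact ⟨p', hp', hk⟩
  refine ⟨hp'L, hsub, fun k => ⟨fun hk => ⟨hsub hk, fun j _ => hk j⟩, fun ⟨hk, hmax⟩ j => ?_⟩⟩
  obtain ⟨k0, hk0⟩ := h.ne p' hp'L
  exact (hk0 j).trans (hmax k0 (hsub hk0))

end api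

variable [FiniteDimensional ℝ V] [MeasurableSpace V] [BorelSpace V]

/-- **PL version of Theorem C.** -/
theorem exists_lag [Nontrivial V] {L : Set V} (hL : IsOpen L) (hne : L.Nonempty) {e : V → ℝ}
    (he : Scale L e) {β : ℝ} (hβ : 0 < β) (hβ1 : β ≤ 1 / 2) :
    ∃ (z : ℕ → V) (r η : ℕ → ℝ), (∀ k, 0 < r k) ∧ (∀ k, 0 < η k) ∧
      (∀ k, closedBall (z k) (2 * r k) ⊆ L) ∧ L ⊆ ⋃ k, ball (z k) (r k) ∧
      ∀ W D : Set V, IsOpen W → (∀ k, (volume : Measure V).real (W ∩ ball (z k) (3 / 2 * r k)) < η k) →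
        IsClosed D → D ∩ L ⊆ W →
        ∃ (S : Set V) (a : S → V) (c : S → ℝ) (Phi : V → ℝ) (th : V → V),
          Lag L (1 + 2 * β) e D S a c Phi th := by
  have hsq : 0 < Real.sqrt (β / 64) := Real.sqrt_pos.2 (by positivity)
  obtain ⟨z, r, η, hr, hη, hrL, hcov, hmain⟩ := thmC_loc hL hne hβ (by linarith)
    (e := fun x => Real.sqrt (β / 64) * e x) (by have := he.cont; fun_prop)
    (fun x hx => mul_pos hsq (he.pos x hx))
  refine ⟨z, r, η, hr, hη, hrL, hcov, fun W D hW hWv hD hDW => ?_⟩
  obtain ⟨g, hg, hgSC, hg0, hge, -, -, hcon⟩ := hmain W D hW hWv hD hDW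
  refine exists_lag_of hL he hβ hβ1 hg hgSC hg0 (fun x => (hge x).trans ?_) hD hcon
  rw [mul_pow, Real.sq_sqrt (by positivity)]
  apply le_of_eq
  ring

end Crest.Agent.R096.ThC8_766
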