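import Crest.Agent.R096.ThC8_766

/-!
Row 96 (S0127), helper766.  Theorem C and the Laguerre system for an arbitrary given countable
cover; locally finite covers.
-/

set_option autoImplicit false
set_option linter.unusedSectionVars false
set_option linter.style.longLine false
set_option linter.style.haveILetI false
set_option linter.unusedVariables false

namespace Crest.Agent.R096.ThC9_766

open MeasureTheory Set Filter Topology Metric
open scoped ENNReal
open Crest.Agent.R096.ThC2_766 Crest.Agent.R096.ThC3_766 Crest.Agent.R096.ThC4_766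
open Crest.Agent.R096.ThC5_766 Crest.Agent.R096.ThC6_766 Crest.Agent.R096.ThC7_766
open Crest.Agent.R096.ThC8_766

variable {V : Type*} [NormedAddCommGroup V] [InnerProductSpace ℝ V]
variable [FiniteDimensional ℝ V] [MeasurableSpace V] [BorelSpace V]

/-- **Theorem C, locally small version, for a given countable cover.** -/
theorem thmC_cov [Nontrivial V] {L : Set V} {z : ℕ → V} {r : ℕ → ℝ} (hr : ∀ k, 0 < r k)
    (hrL : ∀ k, closedBall (z k) (2 * r k) ⊆ L) (hcov : L ⊆ ⋃ k, ball (z k) (r k))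
    {β : ℝ} (hβ : 0 < β)
    (hβ1 : β ≤ 1) {e : V → ℝ} (hec : Continuous e) (he : ∀ x ∈ L, 0 < e x) :
    ∃ (η : ℕ → ℝ), (∀ k, 0 < η k) ∧
      ∀ W D : Set V, IsOpen W → (∀ k, (volume : Measure V).real (W ∩ ball (z k) (3 / 2 * r k)) < η k) →
        IsClosed D → D ∩ L ⊆ W →
        ∃ g : V → ℝ, Continuous g ∧ SC β g ∧ (∀ x, 0 ≤ g x) ∧ (∀ x, g x ≤ e x ^ 2 / 2) ∧
          (∀ x, g x ≤ 1) ∧ (∀ x ∉ L, g x = 0) ∧ ∀ x ∈ D ∩ L, ∀ p, ¬ Contact g x p := by
  -- lower bounds of e on the balls
  have hmin : ∀ k, ∃ m : ℝ, 0 < m ∧ ∀ x ∈ closedBall (z k) (2 * r k), m ≤ e x := by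
    intro k
    obtain ⟨x, hx, hxm⟩ := (isCompact_closedBall (z k) (2 * r k)).exists_isMinOn
      ⟨z k, mem_closedBall_self (by have := hr k; positivity)⟩ hec.continuousOn
    exact ⟨e x, he x (hrL k hx), fun y hy => hxm hy⟩
  choose μ hμ hμe using hmin
  set b : ℕ → ℝ := fun k => β / 2 / 2 ^ k with hb
  set m : ℕ → ℝ := fun k => min 1 (μ k ^ 2 / 2) / 2 / 2 ^ k with hm
  have hb0 : ∀ k, 0 < b k := fun k => by positivity
  have hm0 : ∀ k, 0 < m k := fun k => by
    have : 0 < min 1 (μ k ^ 2 / 2) := lt_min one_pos (by have := hμ k; positivity)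
    positivity
  have hbs : HasSum b β := hasSum_geometric_two' β
  have h1s : HasSum (fun k : ℕ => (1 : ℝ) / 2 / 2 ^ k) 1 := hasSum_geometric_two' 1
  have hm1 : ∀ k, m k ≤ 1 / 2 / 2 ^ k := fun k => by
    have : min 1 (μ k ^ 2 / 2) ≤ 1 := min_le_left _ _
    simp only [hm]; gcongr
  have hms : Summable m := Summable.of_nonneg_of_le (fun k => (hm0 k).le) hm1 h1s.summable
  choose η hη hηall using fun k => one_bump (V := V) (z := z k) (hr k) (hb0 k) (hm0 k)
  refine ⟨η, hη, fun W D hW hWv hD hDW => ?_⟩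
  have hsub : ∀ k, D ∩ closedBall (z k) (r k) ⊆ W := fun k x hx => hDW ⟨hx.1, hrL k
    (closedBall_subset_closedBall (by have := hr k; linarith) hx.2)⟩
  choose g hgc hgSC hg0 hgm hgz hgn using fun k => hηall k W D hW (hWv k) hD (hsub k)
  have hgs : ∀ y, Summable fun k => g k y := fun y =>
    Summable.of_nonneg_of_le (fun k => hg0 k y) (fun k => hgm k y) hms
  have hzero : ∀ k, ∀ x ∉ L, g k x = 0 := by
    intro k x hx
    apply hgz k
    by_contra hcon
    push Not at hcon
    apply hx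
    apply hrL k
    rw [mem_closedBall, dist_eq_norm]
    exact hcon.le
  have hSC : SC β (fun x => ∑' k, g k x) := by
    rw [← hbs.tsum_eq]
    exact SC_tsum (fun k => (hb0 k).le) (fun k => (hm0 k).le) hbs.summable hms hg0 hgm hgSC
  refine ⟨fun x => ∑' k, g k x, cont_tsum hms hg0 hgm hgc, hSC, fun x => tsum_nonneg fun k => hg0 k x,
    ?_, ?_, ?_, ?_⟩
  · intro x
    have h1 : ∀ k, g k x ≤ (e x ^ 2 / 2) / 2 / 2 ^ k := by
      intro k
      by_cases hx : x ∈ closedBall (z k) (2 * r k)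
      · refine (hgm k x).trans ?_
        have h2 : min 1 (μ k ^ 2 / 2) ≤ e x ^ 2 / 2 := by
          refine (min_le_right _ _).trans ?_
          have := hμe k x hx
          have := (hμ k).le
          gcongr
        simp only [hm]
        gcongr
      · rw [mem_closedBall, dist_eq_norm] at hx
        push Not at hx
        rw [hgz k x hx.le]
        positivity
    exact hasSum_le h1 (hgs x).hasSum (hasSum_geometric_two' (e x ^ 2 / 2))
  · intro x
    exact hasSum_le (fun k => (hgm k x).trans (hm1 k)) (hgs x).hasSum h1s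
  · intro x hx
    simp only [hzero _ x hx, tsum_zero]
  · intro x hx p hp
    obtain ⟨k, hk⟩ := mem_iUnion.1 (hcov hx.2)
    obtain ⟨s, hs, hns⟩ := hgn k x ⟨hx.1, ball_subset_closedBall hk⟩
    -- the other bumps
    set g' : ℕ → V → ℝ := fun j x => if j = k then 0 else g j x with hg'
    have hSC' : SC β (fun x => ∑' j, g' j x) := by
      rw [← hbs.tsum_eq]
      refine SC_tsum (fun k => (hb0 k).le) (fun k => (hm0 k).le) hbs.summable hms ?_ ?_ ?_
      · intro j y
        by_cases hj : j = k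
        · simp [hg', hj]
        · simp only [hg', hj, if_false]; exact hg0 j y
      · intro j y
        by_cases hj : j = k
        · simp only [hg', hj, if_true]; exact (hm0 k).le
        · simp only [hg', hj, if_false]; exact hgm j y
      · intro j
        by_cases hj : j = k
        · simp only [hg', hj, if_true]; exact SC_zero (hb0 k).le
        · simp only [hg', hj, if_false]; exact hgSC j
    have hdec : ∀ y, ∑' j, g j y = g k y + ∑' j, g' j y := fun y => (hgs y).tsum_eq_add_tsum_ite k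
    obtain ⟨q, hq⟩ := hSC' x
    refine hns (p - x - q) fun y hy => ?_
    have h1 := hp y
    simp only at h1 hq
    rw [hdec x, hdec y] at h1
    have h2 := hq y
    have h5 : ‖y‖ ^ 2 = ‖x‖ ^ 2 + 2 * inner ℝ x (y - x) + ‖y - x‖ ^ 2 := by
      have := norm_add_sq_real x (y - x)
      rwa [add_sub_cancel] at this
    rw [inner_sub_left, inner_sub_left]
    have h6 : β / 2 * ‖y - x‖ ^ 2 ≤ 1 / 2 * ‖y - x‖ ^ 2 := by gcongr
    linarith


/-- Laguerre system for a given cover. -/
theorem exists_lag_cov [Nontrivial V] {L : Set V} {z : ℕ → V} {r : ℕ → ℝ} (hr : ∀ k, 0 < r k)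
    (hrL : ∀ k, closedBall (z k) (2 * r k) ⊆ L) (hcov : L ⊆ ⋃ k, ball (z k) (r k))
    (hL : IsOpen L) {e : V → ℝ}
    (he : Scale L e) {β : ℝ} (hβ : 0 < β) (hβ1 : β ≤ 1 / 2) :
    ∃ (η : ℕ → ℝ), (∀ k, 0 < η k) ∧
      ∀ W D : Set V, IsOpen W → (∀ k, (volume : Measure V).real (W ∩ ball (z k) (3 / 2 * r k)) < η k) →
        IsClosed D → D ∩ L ⊆ W →
        ∃ (S : Set V) (a : S → V) (c : S → ℝ) (Phi : V → ℝ) (th : V → V),
          Lag L (1 + 2 * β) e D S a c Phi th := by
  have hsq : 0 < Real.sqrt (β / 64) := Real.sqrt_pos.2 (by positivity)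
  obtain ⟨η, hη, hmain⟩ := thmC_cov hr hrL hcov hβ (by linarith)
    (e := fun x => Real.sqrt (β / 64) * e x) (by have := he.cont; fun_prop)
    (fun x hx => mul_pos hsq (he.pos x hx))
  refine ⟨η, hη, fun W D hW hWv hD hDW => ?_⟩
  obtain ⟨g, hg, hgSC, hg0, hge, -, -, hcon⟩ := hmain W D hW hWv hD hDW
  refine exists_lag_of hL he hβ hβ1 hg hgSC hg0 (fun x => (hge x).trans ?_) hD hcon
  rw [mul_pow, Real.sq_sqrt (by positivity)]
  apply le_of_eq
  ring

/-- a locally finite countable cover by balls whose doubles are compact in `L`. -/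
theorem exists_cover_lf [Nontrivial V] {L : Set V} (hL : IsOpen L) (hne : L.Nonempty) {w : V → ℝ}
    (hw : Scale L w) :
    ∃ (z : ℕ → V) (r : ℕ → ℝ), (∀ k, 0 < r k) ∧ (∀ k, closedBall (z k) (2 * r k) ⊆ L) ∧
      L ⊆ ⋃ k, ball (z k) (r k) ∧ (∀ k, r k ≤ 3 / 2 * w (z k)) ∧
      ∀ K : Set V, IsCompact K → K ⊆ L → {k | (closedBall (z k) (2 * r k) ∩ K).Nonempty}.Finite := by
  obtain ⟨S, hSL, hSc, hSnet, hSfin⟩ := exists_net' hw
  -- finiteness for compact sets
  have hfinK : ∀ K : Set V, IsCompact K → K ⊆ L →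
      {x : V | x ∈ S ∧ (closedBall x (3 * w x) ∩ K).Nonempty}.Finite := by
    intro K hK hKL
    set K' : Set V := (fun q : V × V => q.1 + (24 / 5 * w q.1) • q.2) '' (K ×ˢ closedBall 0 1) with hK'
    have hK'c : IsCompact K' := by
      apply (hK.prod (isCompact_closedBall 0 1)).image
      have := hw.cont
      fun_prop
    have hK'L : K' ⊆ L := by
      rintro _ ⟨⟨x, u⟩, ⟨hx, hu⟩, rfl⟩
      apply hw.mem (hKL hx)
      have h1 : ‖u‖ ≤ 1 := by simpa using hu
      have h2 := hw.pos x (hKL hx)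
      simp only [add_sub_cancel_left]
      rw [norm_smul, Real.norm_of_nonneg (by positivity)]
      nlinarith
    -- S ∩ K' finite
    have hSK' : (S ∩ K').Finite := by
      obtain ⟨t, htK, htf⟩ := hK'c.elim_nhds_subcover (fun x => closedBall x (w x))
        (fun x hx => closedBall_mem_nhds x (hw.pos x (hK'L hx)))
      have : S ∩ K' ⊆ ⋃ x ∈ t, (S ∩ closedBall x (w x)) := by
        rintro x ⟨hxS, hxK⟩
        obtain ⟨y, hy⟩ := mem_iUnion.1 (htf hxK)
        obtain ⟨hyt, hxy⟩ := mem_iUnion.1 hy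
        exact mem_iUnion.2 ⟨y, mem_iUnion.2 ⟨hyt, hxS, hxy⟩⟩
      exact (t.finite_toSet.biUnion fun x hx => hSfin x (hK'L (htK x hx))).subset this
    refine hSK'.subset ?_
    rintro x ⟨hxS, y, hyx, hyK⟩
    refine ⟨hxS, ⟨(y, (24 / 5 * w y)⁻¹ • (x - y)), ⟨hyK, ?_⟩, ?_⟩⟩
    · have h2 := hw.pos y (hKL hyK)
      have h3 := hw.lip x y
      rw [mem_closedBall, dist_eq_norm, norm_sub_rev] at hyx
      rw [mem_closedBall, dist_zero_right, norm_smul, norm_inv, Real.norm_of_nonneg (by positivity),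
        inv_mul_le_iff₀ (by positivity)]
      linarith
    · have h2 := hw.pos y (hKL hyK)
      simp only
      rw [smul_smul, mul_inv_cancel₀ (by positivity), one_smul, add_sub_cancel]
  -- S is infinite
  have hball : ∀ x ∈ S, closedBall x (3 * w x) ⊆ L := by
    intro x hx y hy
    apply hw.mem (hSL hx)
    rw [mem_closedBall, dist_eq_norm] at hy
    have := hw.pos x (hSL hx)
    linarith
  have hcovS : L ⊆ ⋃ x ∈ S, ball x (3 / 2 * w x) := by
    intro y hy
    obtain ⟨x, hxS, hxy⟩ := hSnet y hy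
    refine mem_iUnion.2 ⟨x, mem_iUnion.2 ⟨hxS, ?_⟩⟩
    rw [mem_ball, dist_eq_norm]
    have h1 := hw.lip y x
    have h2 := hw.pos x (hSL hxS)
    linarith
  have hinf : S.Infinite := by
    intro hfin
    have hLc : IsCompact L := by
      have h1 : L = ⋃ x ∈ S, closedBall x (3 * w x) := by
        apply Subset.antisymm
        · refine hcovS.trans (iUnion₂_mono fun x hx => ?_)
          apply ball_subset_closedBall.trans (closedBall_subset_closedBall _)
          have := hw.pos x (hSL hx)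
          linarith
        · exact iUnion₂_subset hball
      rw [h1]
      exact hfin.isCompact_biUnion fun x _ => isCompact_closedBall _ _
    rcases isClopen_iff.1 ⟨hLc.isClosed, hL⟩ with h | h
    · exact hne.ne_empty h
    · rw [h] at hLc
      exact noncompact_univ V hLc
  haveI : Infinite S := hinf.to_subtype
  haveI : Countable S := hSc.to_subtype
  obtain ⟨e⟩ : Nonempty (ℕ ≃ S) := by
    haveI := Encodable.ofCountable S
    haveI := Denumerable.ofEncodableOfInfinite S
    exact ⟨(Denumerable.eqv S).symm⟩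
  refine ⟨fun k => e k, fun k => 3 / 2 * w (e k), fun k => ?_, fun k => ?_, ?_, fun k => le_rfl, ?_⟩
  · have := hw.pos _ (hSL (e k).2)
    positivity
  · have : 2 * (3 / 2 * w (e k)) = 3 * w (e k) := by ring
    rw [this]
    exact hball _ (e k).2
  · intro y hy
    obtain ⟨x, hx⟩ := mem_iUnion.1 (hcovS hy)
    obtain ⟨hxS, hyx⟩ := mem_iUnion.1 hx
    refine mem_iUnion.2 ⟨e.symm ⟨x, hxS⟩, ?_⟩
    simpa using hyx
  · intro K hK hKL
    have h1 := hfinK K hK hKL
    have h2 : {k | (closedBall (e k : V) (2 * (3 / 2 * w (e k))) ∩ K).Nonempty} ⊆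
        (fun k => (e k : V)) ⁻¹' {x : V | x ∈ S ∧ (closedBall x (3 * w x) ∩ K).Nonempty} := by
      intro k hk
      have : 2 * (3 / 2 * w (e k)) = 3 * w (e k) := by ring
      rw [mem_ofPred_eq, this] at hk
      exact ⟨(e k).2, hk⟩
    refine Set.Finite.subset ?_ h2
    exact h1.preimage (fun i _ j _ hij => e.injective (Subtype.ext hij))

end Crest.Agent.R096.ThC9_766
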