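import Crest.Agent.R096.ThC9_766

/-!
Row 96 (S0127), helper766.  Tools for the scale invariant localised Theorem C: packing numbers,
sums of semiconcave functions with bounded overlap, the bump with explicit threshold, separated nets.
-/

set_option autoImplicit false
set_option linter.unusedSectionVars false
set_option linter.style.longLine false
set_option linter.style.haveILetI false
set_option linter.unusedVariables false

namespace Crest.Agent.R096.ThCi1_766

open MeasureTheory Set Filter Topology Metric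
open scoped ENNReal
open Crest.Agent.R096.ThC2_766 Crest.Agent.R096.ThC3_766 Crest.Agent.R096.ThC4_766
open Crest.Agent.R096.ThC5_766 Crest.Agent.R096.ThC6_766 Crest.Agent.R096.ThC7_766

variable {V : Type*} [NormedAddCommGroup V] [InnerProductSpace ℝ V]

/-- packing numbers. -/
theorem packing [FiniteDimensional ℝ V] (K : ℝ) : ∃ N : ℕ, ∀ (x : V) (t : ℝ), 0 < t → ∀ S : Set V,
    (∀ a ∈ S, ∀ b ∈ S, a ≠ b → t ≤ ‖a - b‖) → (∀ a ∈ S, ‖a - x‖ ≤ K * t) → S.Finite ∧ S.ncard ≤ N := by
  classical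
  have : ProperSpace V := FiniteDimensional.proper_real V
  obtain ⟨T, -, hTf, hT⟩ := (isCompact_closedBall (0 : V) K).finite_cover_balls
    (e := 1 / 2) (by norm_num)
  refine ⟨T.ncard, fun x t ht S hsep hK => ?_⟩
  have h1 : ∀ a ∈ S, ∃ y ∈ T, (1 / t) • (a - x) ∈ ball y (1 / 2) := by
    intro a ha
    have h2 : (1 / t) • (a - x) ∈ closedBall (0 : V) K := by
      rw [mem_closedBall, dist_zero_right, norm_smul, Real.norm_of_nonneg (by positivity)]
      rw [one_div, inv_mul_le_iff₀ ht, mul_comm]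
      exact hK a ha
    obtain ⟨y, hy⟩ := mem_iUnion.1 (hT h2)
    obtain ⟨hyT, hy⟩ := mem_iUnion.1 hy
    exact ⟨y, hyT, hy⟩
  choose! F hFT hF using h1
  have hinj : InjOn F S := by
    intro a ha b hb hab
    by_contra hne
    have h2 := hF a ha
    have h3 := hF b hb
    rw [← hab] at h3
    rw [mem_ball, dist_eq_norm] at h2 h3
    have h4 : (1 / t) • (a - b) = ((1 / t) • (a - x) - F a) - ((1 / t) • (b - x) - F a) := by
      rw [sub_sub_sub_cancel_right, ← smul_sub, sub_sub_sub_cancel_right]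
    have h5 : ‖(1 / t) • (a - b)‖ < 1 := by
      rw [h4]
      have := norm_sub_le ((1 / t) • (a - x) - F a) ((1 / t) • (b - x) - F a)
      linarith
    rw [norm_smul, Real.norm_of_nonneg (by positivity), one_div, inv_mul_lt_iff₀ ht, mul_one] at h5
    exact absurd (hsep a ha b hb hne) (not_le.2 h5)
  exact ⟨Set.Finite.of_finite_image (hTf.subset (by rintro _ ⟨a, ha, rfl⟩; exact hFT a ha)) hinj,
    Set.ncard_le_ncard_of_injOn F hFT hinj hTf⟩

/-- sums of nonnegative semiconcave functions with bounded overlap. -/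
theorem SC_finsum {ι : Type*} {g : ι → V → ℝ} {β : ℝ} {N : ℕ} (hβ : 0 < β) (hSC : ∀ k, SC β (g k))
    (h0 : ∀ k x, 0 ≤ g k x) (hfin : ∀ x, (Function.support fun k => g k x).Finite)
    (hN : ∀ x, (Function.support fun k => g k x).ncard ≤ N) :
    SC (2 * N * β) (fun x => ∑ᶠ k, g k x) := by
  classical
  intro x
  choose p hp using fun k => hSC k x
  have hp0 : ∀ k, g k x = 0 → p k = 0 := by
    intro k hk
    have h1 := slope_sq hβ (h0 k) (hp k)
    rw [hk, mul_zero] at h1
    have h2 : ‖p k‖ = 0 := by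
      have := norm_nonneg (p k)
      nlinarith
    exact norm_eq_zero.1 h2
  set F : V → Finset ι := fun y => (hfin y).toFinset with hF
  have hFc : ∀ y, (F y).card ≤ N := fun y => by
    have := hN y
    rwa [Set.ncard_eq_toFinset_card _ (hfin y)] at this
  refine ⟨∑ k ∈ F x, p k, fun y => ?_⟩
  set s : Finset ι := F x ∪ F y with hs
  have e1 : ∑ᶠ k, g k y = ∑ k ∈ s, g k y := by
    apply finsum_eq_sum_of_support_subset
    intro k hk
    simp only [hs, Finset.coe_union, mem_union, Finset.mem_coe]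
    exact Or.inr ((hfin y).mem_toFinset.2 hk)
  have e2 : ∑ᶠ k, g k x = ∑ k ∈ s, g k x := by
    apply finsum_eq_sum_of_support_subset
    intro k hk
    simp only [hs, Finset.coe_union, mem_union, Finset.mem_coe]
    exact Or.inl ((hfin x).mem_toFinset.2 hk)
  have e3 : ∑ k ∈ F x, p k = ∑ k ∈ s, p k := by
    apply Finset.sum_subset Finset.subset_union_left
    intro k _ hk
    apply hp0
    by_contra h
    exact hk ((hfin x).mem_toFinset.2 h)
  simp only
  rw [e1, e2, e3, sum_inner]
  have h1 : ∑ k ∈ s, g k y ≤ ∑ k ∈ s, (g k x + inner ℝ (p k) (y - x) + β / 2 * ‖y - x‖ ^ 2) :=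
    Finset.sum_le_sum fun k _ => hp k y
  rw [Finset.sum_add_distrib, Finset.sum_add_distrib, Finset.sum_const, nsmul_eq_mul] at h1
  have h2 : (s.card : ℝ) ≤ 2 * N := by
    have h3 : s.card ≤ 2 * N := (Finset.card_union_le _ _).trans (by have := hFc x; have := hFc y; omega)
    exact_mod_cast h3
  have h3 : (s.card : ℝ) * (β / 2 * ‖y - x‖ ^ 2) ≤ 2 * N * (β / 2 * ‖y - x‖ ^ 2) :=
    mul_le_mul_of_nonneg_right h2 (by positivity)
  linarith

/-- separated nets. -/
theorem exists_net_sep {L : Set V} {w : V → ℝ} (hw : Scale L w) :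
    ∃ S : Set V, S ⊆ L ∧ (∀ z ∈ L, ∃ x ∈ S, ‖z - x‖ ≤ w z) ∧
      ∀ x ∈ S, ∀ y ∈ S, x ≠ y → w x / 2 ≤ ‖x - y‖ := by
  set F : Set (Set V) := {S | S ⊆ L ∧ ∀ x ∈ S, ∀ y ∈ S, x ≠ y → w x / 2 ≤ ‖x - y‖} with hF
  obtain ⟨S, hSmax⟩ := zorn_subset F (by
    intro c hc hchain
    refine ⟨⋃₀ c, ⟨?_, ?_⟩, fun s hs => subset_sUnion_of_mem hs⟩
    · exact sUnion_subset fun s hs => (hc hs).1
    · rintro x ⟨s, hs, hxs⟩ y ⟨t, ht, hyt⟩ hxy
      rcases hchain.total hs ht with h | h
      · exact (hc ht).2 x (h hxs) y hyt hxy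
      · exact (hc hs).2 x hxs y (h hyt) hxy)
  have hS : S ∈ F := hSmax.prop
  have hsep : ∀ x ∈ S, ∀ y ∈ S, x ≠ y → w x / 2 ≤ ‖x - y‖ := hS.2
  refine ⟨S, hS.1, ?_, hsep⟩
  intro z hz
  by_contra hcon
  push Not at hcon
  have hzS : z ∉ S := fun h => by
    have := hcon z h
    rw [sub_self, norm_zero] at this
    exact absurd this (not_lt.2 (hw.nonneg z))
  have hins : insert z S ∈ F := by
    refine ⟨insert_subset hz hS.1, ?_⟩
    intro x hx y hy hxy
    rcases hx with rfl | hx
    · rcases hy with rfl | hy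
      · exact absurd rfl hxy
      · have := hcon y hy
        have := hw.nonneg x
        linarith
    · rcases hy with rfl | hy
      · have h1 := hcon x hx
        have h2 := hw.lip x y
        rw [norm_sub_rev] at h1
        have h3 := hw.nonneg y
        linarith
      · exact hsep x hx y hy hxy
  have := hSmax.eq_of_subset hins (subset_insert z S)
  exact hzS (this ▸ mem_insert z S)

variable [FiniteDimensional ℝ V] [MeasurableSpace V] [BorelSpace V]

/-- the bump with explicit threshold. -/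
lemma one_bump' [Nontrivial V] {z : V} {r b : ℝ} (hr : 0 < r) (hb : 0 < b) {W D : Set V}
    (hWo : IsOpen W)
    (hvol0 : (3 * 2) ^ (Module.finrank ℝ V) * (volume : Measure V).real (W ∩ ball z (3 / 2 * r))
      < (volume : Measure V).real (closedBall 0 (b * r / 48)))
    (hD : IsClosed D) (hDW : D ∩ closedBall z r ⊆ W) :
      ∃ g : V → ℝ, Continuous g ∧ SC b g ∧ (∀ x, 0 ≤ g x) ∧ (∀ x, g x ≤ b * r ^ 2 / 8) ∧
        (∀ x, 2 * r ≤ ‖x - z‖ → g x = 0) ∧
        ∀ x ∈ D ∩ closedBall z r, ∃ s : ℝ, 0 < s ∧ ∀ p : V,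
          ¬ ∀ y ∈ closedBall x (2 * s), g x + inner ℝ p (y - x) - 2 / 2 * ‖y - x‖ ^ 2 ≤ g y := by
  have : ProperSpace V := FiniteDimensional.proper_real V
  set R : ℝ := 2 * r with hR
  have hR0 : 0 < R := by positivity
  set ρ : ℝ := b * r / 48 with hρdef
  have hRr : 0 < R - 3 / 2 * r := by rw [hR]; linarith
  have hρ : 0 < ρ := by positivity
  have hbr : 0 < b * r := by positivity
  have hρ1 : ρ ≤ b * R / 2 := by
    rw [hρdef, hR]; linarith
  have hρ2 : 3 * ρ * R ≤ b / 2 * (R - 3 / 2 * r) ^ 2 := by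
    rw [hρdef, hR]
    apply le_of_eq
    ring
  have hρ3 : 3 * ρ * R ≤ b * r ^ 2 / 8 := by
    rw [hρdef, hR]
    apply le_of_eq
    ring
  set N := Module.finrank ℝ V with hN
  have hK : IsCompact (D ∩ closedBall z r) := (isCompact_closedBall z r).inter_left hD
  have hW' : IsOpen (W ∩ ball z (3 / 2 * r)) := hWo.inter isOpen_ball
  obtain ⟨δ, hδ, hδW⟩ := hK.exists_cthickening_subset_open hW'
    (subset_inter hDW (inter_subset_right.trans (closedBall_subset_ball (by linarith))))
  set s : ℝ := δ / 2 with hs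
  have hs0 : 0 < s := by positivity
  have hballK : ∀ x ∈ D ∩ closedBall z r, closedBall x (2 * s) ⊆ W ∩ ball z (3 / 2 * r) := by
    intro x hx
    have h1 : 2 * s = δ := by rw [hs]; ring
    rw [h1]
    exact (closedBall_subset_cthickening hx δ).trans hδW
  obtain ⟨phi, hphi, hmass⟩ := exists_phi_mass (V := V) (R := ‖z‖ + 3 / 2 * r) (s := s)
    (H := (3 * 2) ^ N) hρ hs0 (by positivity) hW'.measurableSet (fun x hx => by
      have hx2 := hx.2
      rw [mem_ball, dist_eq_norm] at hx2
      rw [mem_closedBall, dist_zero_right]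
      have := norm_add_le (x - z) z
      rw [sub_add_cancel] at this
      linarith) hvol0
  refine ⟨bump phi ρ b z R, bump_cont hphi hρ.le b z R, bump_SC hphi hρ.le hb.le z hR0.le hρ1,
    bump_nonneg phi ρ hb.le z R, fun x => (bump_le hphi hρ.le hb.le z hR0.le x).trans hρ3,
    fun x hx => bump_zero hb.le hx, fun x hx => ⟨s, hs0, fun p hp => ?_⟩⟩
  have heq : ∀ y ∈ W ∩ ball z (3 / 2 * r), bump phi ρ b z R y = phi z + 2 * ρ * R - phi y := by
    intro y hy
    have hy2 := hy.2
    rw [mem_ball, dist_eq_norm] at hy2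
    exact bump_eq hphi hρ.le hR0.le (r := 3 / 2 * r) (by linarith) hρ2 hb.le hy2.le
  have hxW : x ∈ W ∩ ball z (3 / 2 * r) := hballK x hx (mem_closedBall_self (by positivity))
  refine no_touch hs0 two_pos (fun x => (hphi x).imp fun q hq => hq.2)
      (hmass x ((ball_subset_closedBall.trans (closedBall_subset_closedBall (by linarith))).trans
        (hballK x hx))) (-p) fun y hy => ?_
  have h1 := hp y hy
  rw [heq y (hballK x hx hy), heq x hxW] at h1
  rw [inner_neg_left]
  linarith

end Crest.Agent.R096.ThCi1_766
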