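import Crest.Agent.R096.ThCi1_766

/-!
Row 96 (S0127), helper766.  The set `OO` of the points where an open set `W` has density `> η` at
some scale `< w`: openness, comparison, measure (Vitali), the scale function of `OO`.
-/

set_option autoImplicit false
set_option linter.unusedSectionVars false
set_option linter.style.longLine false
set_option linter.style.haveILetI false
set_option linter.unusedVariables false

namespace Crest.Agent.R096.ThCi2_766

open MeasureTheory Set Filter Topology Metric
open scoped ENNReal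
open Crest.Agent.R096.ThC2_766 Crest.Agent.R096.ThC3_766 Crest.Agent.R096.ThC4_766
open Crest.Agent.R096.ThC5_766 Crest.Agent.R096.ThC6_766 Crest.Agent.R096.ThC7_766

variable {V : Type*} [NormedAddCommGroup V] [InnerProductSpace ℝ V]
variable [FiniteDimensional ℝ V] [MeasurableSpace V] [BorelSpace V]

/-- volume of the unit ball. -/
lemma v1_pos : 0 < (volume : Measure V).real (ball (0 : V) 1) := by
  rw [Measure.real, ENNReal.toReal_pos_iff]
  exact ⟨measure_ball_pos _ _ one_pos, measure_ball_lt_top⟩

lemma vb [Nontrivial V] (x : V) {r : ℝ} (hr : 0 ≤ r) :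
    (volume : Measure V).real (ball x r) =
      r ^ (Module.finrank ℝ V) * (volume : Measure V).real (ball (0 : V) 1) := by
  rw [Measure.real, Measure.addHaar_ball volume x hr, ENNReal.toReal_mul,
    ENNReal.toReal_ofReal (by positivity)]
  rfl

lemma vb_mono {A : Set V} {x y : V} {r s : ℝ} (h : r + ‖x - y‖ ≤ s) :
    (volume : Measure V).real (A ∩ ball x r) ≤ (volume : Measure V).real (A ∩ ball y s) := by
  apply measureReal_mono
  · apply inter_subset_inter_right
    intro z hz
    rw [mem_ball, dist_eq_norm] at hz ⊢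
    have := norm_add_le (z - x) (x - y)
    rw [sub_add_sub_cancel] at this
    linarith
  · exact ((measure_mono inter_subset_right).trans_lt measure_ball_lt_top).ne

/-- the points where `W` has density `> η` at some scale `< w`. -/
def OO (η : ℝ) (w : V → ℝ) (W : Set V) : Set V :=
  {y | ∃ ρ : ℝ, 0 < ρ ∧ ρ < w y ∧
    η * (volume : Measure V).real (ball y ρ) < (volume : Measure V).real (W ∩ ball y ρ)}

lemma OO_subset {L : Set V} {w : V → ℝ} (hw : Scale L w) (η : ℝ) (W : Set V) : OO η w W ⊆ L := by
  rintro y ⟨ρ, h0, h1, -⟩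
  by_contra hy
  rw [hw.off y hy] at h1
  linarith

lemma subset_OO {L : Set V} {w : V → ℝ} (hw : Scale L w) {η : ℝ} (hη : η < 1) {W : Set V}
    (hW : IsOpen W) (hWL : W ⊆ L) : W ⊆ OO η w W := by
  intro y hy
  obtain ⟨ε, hε, hεW⟩ := Metric.isOpen_iff.1 hW y hy
  have hwy := hw.pos y (hWL hy)
  refine ⟨min ε (w y / 2), lt_min hε (by positivity), (min_le_right _ _).trans_lt (by linarith), ?_⟩
  have h1 : ball y (min ε (w y / 2)) ⊆ W := (ball_subset_ball (min_le_left _ _)).trans hεW
  rw [inter_eq_self_of_subset_right h1]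
  have h2 : 0 < (volume : Measure V).real (ball y (min ε (w y / 2))) := by
    rw [Measure.real, ENNReal.toReal_pos_iff]
    exact ⟨measure_ball_pos _ _ (lt_min hε (by positivity)), measure_ball_lt_top⟩
  nlinarith

lemma le_of_notMem {η : ℝ} {w : V → ℝ} {W : Set V} {y : V} (hy : y ∉ OO η w W) {ρ : ℝ} (h0 : 0 < ρ)
    (h1 : ρ < w y) :
    (volume : Measure V).real (W ∩ ball y ρ) ≤ η * (volume : Measure V).real (ball y ρ) := by
  by_contra h
  push Not at h
  exact hy ⟨ρ, h0, h1, h⟩

lemma isOpen_OO [Nontrivial V] {L : Set V} {w : V → ℝ} (hw : Scale L w) (η : ℝ) (W : Set V) :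
    IsOpen (OO η w W) := by
  rw [isOpen_iff_mem_nhds]
  rintro y ⟨ρ, h0, h1, h2⟩
  have hwc := hw.cont
  have c1 : ContinuousAt (fun z : V => w z - (ρ + ‖z - y‖)) y := by fun_prop
  have c2 : ContinuousAt (fun z : V => (volume : Measure V).real (W ∩ ball y ρ) -
      η * ((ρ + ‖z - y‖) ^ (Module.finrank ℝ V) * (volume : Measure V).real (ball (0 : V) 1))) y := by
    fun_prop
  have e1 : ∀ᶠ z in 𝓝 y, 0 < w z - (ρ + ‖z - y‖) := by
    apply c1.eventually (lt_mem_nhds _)
    simp only [sub_self, norm_zero, add_zero]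
    linarith
  have e2 : ∀ᶠ z in 𝓝 y, 0 < (volume : Measure V).real (W ∩ ball y ρ) -
      η * ((ρ + ‖z - y‖) ^ (Module.finrank ℝ V) * (volume : Measure V).real (ball (0 : V) 1)) := by
    apply c2.eventually (lt_mem_nhds _)
    simp only [sub_self, norm_zero, add_zero]
    rw [← vb y h0.le]
    linarith
  filter_upwards [e1, e2] with z hz1 hz2
  have h3 := norm_nonneg (z - y)
  refine ⟨ρ + ‖z - y‖, by positivity, by linarith, ?_⟩
  rw [vb z (by positivity)]
  have h4 := vb_mono (A := W) (x := y) (y := z) (r := ρ) (s := ρ + ‖z - y‖) (by rw [norm_sub_rev])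
  linarith

/-- measure of `OO` (Vitali). -/
theorem volume_OO_le [Nontrivial V] {L : Set V} {w : V → ℝ} (hw : Scale L w) {η : ℝ} (hη : 0 < η)
    {W : Set V} (hW : MeasurableSet W) (K : Set V) :
    volume (OO η w W ∩ K) ≤ ENNReal.ofReal (5 ^ (Module.finrank ℝ V) / η) *
      volume (W ∩ ⋃ y ∈ K, ball y (w y)) := by
  classical
  set n := Module.finrank ℝ V with hn
  have hex : ∀ y ∈ OO η w W ∩ K, ∃ ρ : ℝ, 0 < ρ ∧ ρ < w y ∧
    η * (volume : Measure V).real (ball y ρ) < (volume : Measure V).real (W ∩ ball y ρ) :=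
    fun y hy => hy.1
  choose! r hr0 hrw hr using hex
  obtain ⟨u, hut, hud, hcov⟩ := Vitali.exists_disjoint_subfamily_covering_enlargement_closedBall
    (OO η w W ∩ K) (fun y => y) r 1 (fun y hy => (hrw y hy).le.trans (hw.le_one y)) 5 (by norm_num)
  have huc : u.Countable := by
    apply Set.PairwiseDisjoint.countable_of_nonempty_interior hud
    intro y hy
    exact ⟨y, ball_subset_interior_closedBall (mem_ball_self (hr0 y (hut hy)))⟩
  have hudb : u.PairwiseDisjoint fun y => W ∩ ball y (r y) := hud.mono fun y z hz =>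
    ball_subset_closedBall hz.2
  have hball : ∀ y ∈ u, volume (closedBall y (5 * r y)) ≤ ENNReal.ofReal (5 ^ n / η) *
      volume (W ∩ ball y (r y)) := by
    intro y hy
    have h0 := hr0 y (hut hy)
    have h1 := hr y (hut hy)
    have hf : volume (W ∩ ball y (r y)) ≠ ∞ :=
      ((measure_mono inter_subset_right).trans_lt measure_ball_lt_top).ne
    have e1 : volume (closedBall y (5 * r y)) = ENNReal.ofReal
        (5 ^ n * (volume : Measure V).real (ball y (r y))) := by
      rw [Measure.addHaar_closedBall_eq_addHaar_ball, ← ENNReal.ofReal_toReal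
        (measure_ball_lt_top (μ := volume) (x := y) (r := 5 * r y)).ne]
      congr 1
      have := vb y (r := 5 * r y) (by positivity)
      rw [Measure.real] at this
      rw [this, vb y h0.le, mul_pow, mul_assoc]
    rw [e1, ← ENNReal.ofReal_toReal hf, ← ENNReal.ofReal_mul (by positivity)]
    apply ENNReal.ofReal_le_ofReal
    rw [div_mul_eq_mul_div, le_div_iff₀ hη]
    have h2 : (volume (W ∩ ball y (r y))).toReal = (volume : Measure V).real (W ∩ ball y (r y)) := rfl
    rw [h2]
    have h3 : (0 : ℝ) < 5 ^ n := by positivity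
    nlinarith
  calc volume (OO η w W ∩ K) ≤ volume (⋃ y ∈ u, closedBall y (5 * r y)) := by
        apply measure_mono
        intro y hy
        obtain ⟨b, hbu, hb⟩ := hcov y hy
        exact mem_iUnion.2 ⟨b, mem_iUnion.2 ⟨hbu, hb (mem_closedBall_self (hr0 y hy).le)⟩⟩
    _ ≤ ∑' y : u, volume (closedBall (y : V) (5 * r y)) := measure_biUnion_le _ huc _
    _ ≤ ∑' y : u, ENNReal.ofReal (5 ^ n / η) * volume (W ∩ ball (y : V) (r y)) :=
        ENNReal.tsum_le_tsum fun y => hball y y.2
    _ = ENNReal.ofReal (5 ^ n / η) * ∑' y : u, volume (W ∩ ball (y : V) (r y)) := ENNReal.tsum_mul_left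
    _ = ENNReal.ofReal (5 ^ n / η) * volume (⋃ y ∈ u, W ∩ ball y (r y)) := by
        rw [measure_biUnion huc hudb fun y _ => hW.inter measurableSet_ball]
    _ ≤ ENNReal.ofReal (5 ^ n / η) * volume (W ∩ ⋃ y ∈ K, ball y (w y)) := by
        gcongr
        intro z hz
        obtain ⟨y, hy⟩ := mem_iUnion.1 hz
        obtain ⟨hyu, hzW, hzy⟩ := mem_iUnion.1 hy
        exact ⟨hzW, mem_iUnion.2 ⟨y, mem_iUnion.2 ⟨(hut hyu).2,
          ball_subset_ball (hrw y (hut hyu)).le hzy⟩⟩⟩

/-- the scale function of an open subset below a given one. -/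
theorem scale_min {L O : Set V} {w : V → ℝ} (hw : Scale L w) (hO : IsOpen O) (hOL : O ⊆ L)
    (hne : (Oᶜ).Nonempty) : Scale O (fun x => min (infDist x Oᶜ / 8) (w x / 16)) := by
  refine ⟨fun x => le_min (by have := infDist_nonneg (x := x) (s := Oᶜ); positivity)
    (by have := hw.nonneg x; positivity), fun x y => ?_, fun x hx => ?_, fun x hx => ?_, fun x => ?_⟩
  · have h1 := infDist_le_infDist_add_dist (s := Oᶜ) (x := x) (y := y)
    rw [dist_eq_norm] at h1
    have h2 := hw.lip x y
    have h3 := norm_nonneg (x - y)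
    rcases min_cases (infDist y Oᶜ / 8) (w y / 16) with h | h
    · rw [h.1]
      exact (min_le_left _ _).trans (by linarith)
    · rw [h.1]
      exact (min_le_right _ _).trans (by linarith)
  · have h1 : 0 < infDist x Oᶜ := by
      rw [← hO.isClosed_compl.notMem_iff_infDist_pos hne]
      exact fun h => h hx
    have h2 := hw.pos x (hOL hx)
    exact lt_min (by positivity) (by positivity)
  · have h1 : infDist x Oᶜ = 0 := infDist_zero_of_mem hx
    rw [h1]
    have := hw.nonneg x
    rw [zero_div]
    exact min_eq_left (by positivity)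
  · have := hw.le_one x
    exact (min_le_right _ _).trans (by linarith)

/-- density of `W` in the Whitney balls of `OO`. -/
theorem density [Nontrivial V] {L : Set V} {w : V → ℝ} (hw : Scale L w) (hLc : (Lᶜ).Nonempty)
    {η : ℝ} (hη : 0 < η) {W : Set V}
    (hden : ∀ y ∈ L, (volume : Measure V).real (W ∩ ball y (w y)) ≤
      η * (volume : Measure V).real (ball y (w y))) {x : V} (hx : x ∈ OO η w W) {t : ℝ}
    (ht : t ≤ min (infDist x (OO η w W)ᶜ / 8) (w x / 16)) (ht0 : 0 < t) :
    (volume : Measure V).real (W ∩ ball x t) ≤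
      η * ((16 * min (infDist x (OO η w W)ᶜ / 8) (w x / 16)) ^ (Module.finrank ℝ V) *
        (volume : Measure V).real (ball (0 : V) 1)) := by
  have : ProperSpace V := FiniteDimensional.proper_real V
  set O := OO η w W with hOdef
  have hO : IsOpen O := isOpen_OO hw η W
  have hOL : O ⊆ L := OO_subset hw η W
  have hne : (Oᶜ).Nonempty := hLc.mono (compl_subset_compl.2 hOL)
  set e : ℝ := min (infDist x Oᶜ / 8) (w x / 16) with he
  have he0 : 0 < e := (scale_min hw hO hOL hne).pos x hx
  have hv := v1_pos (V := V)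
  rcases le_or_gt (infDist x Oᶜ / 8) (w x / 16) with hc | hc
  · have hee : e = infDist x Oᶜ / 8 := min_eq_left hc
    obtain ⟨y, hy, hxy⟩ := hO.isClosed_compl.exists_infDist_eq_dist hne x
    rw [dist_eq_norm] at hxy
    have h1 : ‖x - y‖ = 8 * e := by rw [hee, ← hxy]; ring
    have h2 := hw.lip x y
    have h3 : 9 * e < w y := by
      have : 16 * e ≤ w x := by rw [hee]; linarith
      linarith
    calc (volume : Measure V).real (W ∩ ball x t)
        ≤ (volume : Measure V).real (W ∩ ball y (9 * e)) := vb_mono (by linarith)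
      _ ≤ η * (volume : Measure V).real (ball y (9 * e)) := le_of_notMem hy (by positivity) h3
      _ = η * ((9 * e) ^ (Module.finrank ℝ V) * (volume : Measure V).real (ball (0 : V) 1)) := by
          rw [vb y (by positivity)]
      _ ≤ η * ((16 * e) ^ (Module.finrank ℝ V) * (volume : Measure V).real (ball (0 : V) 1)) := by
          gcongr
          norm_num
  · have hee : e = w x / 16 := min_eq_right hc.le
    have h3 : w x = 16 * e := by rw [hee]; ring
    have h4 := hden x (hOL hx)
    rw [vb x (hw.nonneg x), h3] at h4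
    refine le_trans (vb_mono ?_) h4
    rw [sub_self, norm_zero]
    linarith

end Crest.Agent.R096.ThCi2_766
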