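import Crest.Agent.R096.Ecm4_446
import Crest.Agent.R096.Bin9_181
import Crest.Agent.R096.Grd8_714

/-!
# R096 (row 96), BASE-DISC-2 (helper78; task 2560 of helper446)

`wall_iff` : a point of the core tile is not in the open tile iff the exact map sends it to another
brick; `thE_exists` : the exact map is a PL equivalence of the boundary of the core tile onto the
boundary of the brick.
-/

set_option autoImplicit false
set_option linter.unusedSectionVars false

open Set Metric Topology Filter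

namespace Crest.Agent.R096.The_78

open Crest.Agent.R096.Bsp_628 Crest.Agent.R096.Brk1_582 Crest.Agent.R096.Brk3_582
open Crest.Agent.R096.Brk5_582 Crest.Agent.R096.Msh_715 Crest.Agent.R096.Ce_537
open Crest.Agent.R096.SkC1_961 (E3 FoamD th)
open Crest.Agent.R096.Mbf_337 Crest.Agent.R096.Ecm_446
open Crest.Agent.R096.Grd_714 Crest.Agent.R096.Bin_181

section general

variable {E : Type*} [NormedAddCommGroup E] [NormedSpace ℝ E]

/-- near a point of an open set one can move away a little -/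
theorem exists_move {S : Set E} {x : E} (hx : x ∈ interior S) (v : E) :
    ∃ s : ℝ, 0 < s ∧ x + s • v ∈ S := by
  have hc : Tendsto (fun s : ℝ => x + s • v) (𝓝 0) (𝓝 (x + (0 : ℝ) • v)) := by
    apply Continuous.tendsto
    fun_prop
  rw [zero_smul, add_zero] at hc
  have h1 : ∀ᶠ s in 𝓝[>] (0 : ℝ), x + s • v ∈ S :=
    (hc.eventually (mem_interior_iff_mem_nhds.1 hx)).filter_mono nhdsWithin_le_nhds
  have h2 : ∀ᶠ s in 𝓝[>] (0 : ℝ), 0 < s := self_mem_nhdsWithin
  obtain ⟨s, hs, hs0⟩ := (h1.and h2).exists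
  exact ⟨s, hs0, hs⟩

/-- the open tile is the interior of the closed tile -/
theorem interior_P {H : Finset ((E →L[ℝ] ℝ) × ℝ)} (hne : (I H).Nonempty) :
    interior (P H) = I H := by
  apply Subset.antisymm
  · intro x hx
    obtain ⟨z, hz⟩ := hne
    obtain ⟨s, hs0, hs⟩ := exists_move hx (x - z)
    have h3 : (1 + s) ≠ 0 := by positivity
    have h2 := mem_I_of_move (s := s / (1 + s)) hs hz (by positivity)
      (by rw [div_le_one (by positivity)]; linarith)
    have e1 : z - (x + s • (x - z)) = (1 + s) • (z - x) := by module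
    have e : x + s • (x - z) + (s / (1 + s)) • (z - (x + s • (x - z))) = x := by
      rw [e1, smul_smul, div_mul_cancel₀ _ h3]
      module
    rwa [e] at h2
  · exact interior_maximal (I_sub_P H) (isOpen_I H)

variable {J : Type*} {La : Set E} {Q : J → Set E} {b : Set J → E} {N : ℕ}

/-- the interior of a cell of a foam = the points which are in no other cell -/
theorem mem_interior_cell (F : Foam La Q b N) {c : J} {y : E} (hy : y ∈ Q c) :
    y ∈ interior (Q c) ↔ ∀ d, d ≠ c → y ∉ Q d := by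
  constructor
  · intro hi d hd hyd
    obtain ⟨s, hs0, hs⟩ := exists_move hi (y - b {c})
    have h3 : (1 + s) ≠ 0 := by positivity
    have hfc : y + s • (y - b {c}) ∈ Brk1_582.fc Q {c} :=
      Brk1_582.mem_fc.2 fun d' hd' => by rw [mem_singleton_iff.1 hd']; exact hs
    have h2 := F.rel {c} (singleton_nonempty c) (y + s • (y - b {c})) hfc
      (1 / (1 + s)) ⟨by positivity, by rw [div_lt_one (by positivity)]; linarith⟩
    have e1 : y + s • (y - b {c}) - b {c} = (1 + s) • (y - b {c}) := by module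
    have e : b {c} + (1 / (1 + s)) • (y + s • (y - b {c}) - b {c}) = y := by
      rw [e1, smul_smul, div_mul_cancel₀ _ h3]
      module
    rw [e] at h2
    have h4 : d ∈ act Q y := hyd
    rw [h2] at h4
    exact hd h4
  · intro h
    have hyL := F.sub c hy
    obtain ⟨r, hr, hf⟩ := F.lf y hyL
    obtain ⟨r', hr', hO⟩ := Metric.isOpen_iff.1 F.op y hyL
    have hopen : IsOpen (⋂ d ∈ ({d | (Q d ∩ ball y r).Nonempty} \ {c}), (Q d)ᶜ) :=
      (hf.subset sdiff_subset).isOpen_biInter fun d _ => (F.cpt d).isClosed.isOpen_compl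
    have hmem : y ∈ (⋂ d ∈ ({d | (Q d ∩ ball y r).Nonempty} \ {c}), (Q d)ᶜ) := by
      simp only [mem_iInter]
      intro d hd
      exact h d hd.2
    rw [mem_interior_iff_mem_nhds]
    filter_upwards [hopen.mem_nhds hmem, ball_mem_nhds y hr, ball_mem_nhds y hr'] with w h1 h2 h3
    obtain ⟨d, hd⟩ := F.cov w (hO h3)
    by_cases e : d = c
    · rwa [← e]
    · exact absurd hd (mem_iInter₂.1 h1 d ⟨⟨w, hd, h2⟩, e⟩)

end general

/-- the exact map is an affine equivalence -/
theorem exists_aff (A : E3 ≃ᵃ[ℝ] E3) {lam : ℝ} (hlam : 0 < lam) (z : E3) :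
    ∃ B : E3 ≃ᵃ[ℝ] E3, ∀ x, B x = th A lam z x := by
  refine ⟨(A.trans (AffineEquiv.constVAdd ℝ E3 (-z))).trans
    (LinearEquiv.smulOfNeZero ℝ E3 (1 / lam) (by positivity)).toAffineEquiv, fun x => ?_⟩
  funext k
  simp only [AffineEquiv.trans_apply, AffineEquiv.constVAdd_apply, vadd_eq_add, th,
    LinearEquiv.coe_toAffineEquiv, LinearEquiv.smulOfNeZero_apply, Pi.smul_apply, Pi.add_apply,
    Pi.neg_apply, smul_eq_mul]
  ring

variable {δ κ0 R c0 : ℝ} {La Om : Set E3} {ι : Type} {Φ : FoamD δ κ0 R c0 La} {T : Tiling Om ι}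
  {f : E3 → E3}
variable {κ1 κ2 : ℝ} {c : Φ.F} {i : ι} {A : E3 ≃ᵃ[ℝ] E3} {lam : ℝ} {z : E3} {M : ℕ}

/-- the open tile is the preimage of the open brick -/
theorem mem_I_iff (h : Exact Φ T f κ1 κ2 c i A lam z) {x : E3} :
    x ∈ I (T.H i) ↔ th A lam z x ∈ interior (Pc Φ.F c) := by
  obtain ⟨B, hB⟩ := exists_aff A h.lam0 z
  have h1 : P (T.H i) = B ⁻¹' (Pc Φ.F c) := by
    ext w
    rw [mem_preimage, hB]
    exact th_mem h
  have h2 : interior (P (T.H i)) = B ⁻¹' (interior (Pc Φ.F c)) := by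
    rw [h1]
    exact (B.toHomeomorphOfFiniteDimensional.preimage_interior (Pc Φ.F c)).symm
  rw [← interior_P (T.ne i), h2, mem_preimage, hB]

/-- the walls of the core tile -/
theorem wall_iff (hLa : IsOpen La) (h : Exact Φ T f κ1 κ2 c i A lam z) {x : E3}
    (hx : x ∈ P (T.H i)) : x ∉ I (T.H i) ↔ ∃ d, d ≠ c ∧ th A lam z x ∈ Pc Φ.F d := by
  have F := foamΦ hLa Φ
  rw [mem_I_iff h, mem_interior_cell F ((th_mem h).1 hx)]
  push Not
  rfl

theorem thE_exists (hLa : IsOpen La) (h : Exact Φ T f κ1 κ2 c i A lam z) (hM : 0 < M) :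
    ∃ e : PLEquiv {x | x ∈ P (T.H i) ∧ x ∉ I (T.H i)} (bdP (Pc Φ.F) (bc (F := Φ.F)) (fun _ => M) c),
      ∀ x, e.f x = th A lam z x := by
  have F := foamΦ hLa Φ
  obtain ⟨B, hB⟩ := exists_aff A h.lam0 z
  have hbd : bdP (Pc Φ.F) (bc (F := Φ.F)) (fun _ => M) c =
      {y | y ∈ Pc Φ.F c ∧ ∃ c1, c1 ≠ c ∧ y ∈ Pc Φ.F c1} :=
    bdP_eq F (quads_box Φ.bf rfl) (fun _ => hM)
  refine ⟨⟨th A lam z, B.symm, ?_, ?_, ?_, ?_, ?_, ?_⟩, fun x => rfl⟩
  · exact (plOn_affine B.toAffineMap _).congr fun x _ => (hB x).symm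
  · exact plOn_affine B.symm.toAffineMap _
  · intro x hx
    rw [hbd]
    exact ⟨(th_mem h).1 hx.1, (wall_iff hLa h hx.1).1 hx.2⟩
  · intro y hy
    rw [hbd] at hy
    have e : th A lam z (B.symm y) = y := by rw [← hB, AffineEquiv.apply_symm_apply]
    have h1 : B.symm y ∈ P (T.H i) := (th_mem h).2 (by rw [e]; exact hy.1)
    exact ⟨h1, (wall_iff hLa h h1).2 (by rw [e]; exact hy.2)⟩
  · intro x _
    rw [← hB]
    exact AffineEquiv.symm_apply_apply _ _
  · intro y _
    rw [← hB]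
    exact AffineEquiv.apply_symm_apply _ _

end Crest.Agent.R096.The_78
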