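/-
helper622, row 96, leaf THIN, part 1: thick averages over translates and selection by Fatou.
-/
import Mathlib

set_option autoImplicit false
set_option linter.unusedSectionVars false

open MeasureTheory Set Filter Metric
open scoped ENNReal Topology

namespace Crest.Agent.R096.Thk_622

noncomputable section

section Select

variable {α : Type*} [MeasurableSpace α] {μ : Measure α}

/-- **selection**: countably many functionals `H i j`, uniformly (in `j`) small in mean: off a small
set, for infinitely many `j` all of them are small simultaneously. -/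
theorem exists_select {D : Set α} {I : Type*} [Countable I] {H : I → ℕ → α → ℝ≥0∞}
    (hH : ∀ i j, AEMeasurable (H i j) (μ.restrict D)) {c N : I → ℝ≥0∞} {θ : ℝ≥0∞}
    (hc : ∀ i, c i ≠ 0)
    (hN : ∀ i j, ∫⁻ a in D, H i j a ∂μ ≤ N i) (hθ : ∑' i, (c i)⁻¹ * N i ≤ θ) :
    ∃ B : Set α, (μ.restrict D) B ≤ θ ∧
      ∀ a ∉ B, ∃ᶠ j in atTop, ∀ i, H i j a ≤ c i := by
  set Φ : ℕ → α → ℝ≥0∞ := fun j a => ∑' i, (c i)⁻¹ * H i j a with hΦ
  have hΦm : ∀ j, AEMeasurable (Φ j) (μ.restrict D) := fun j =>
    AEMeasurable.tsum fun i => (hH i j).const_mul _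
  have hint : ∀ j, ∫⁻ a in D, Φ j a ∂μ ≤ θ := by
    intro j
    calc ∫⁻ a in D, Φ j a ∂μ = ∑' i, ∫⁻ a in D, (c i)⁻¹ * H i j a ∂μ :=
          lintegral_tsum fun i => (hH i j).const_mul _
      _ = ∑' i, (c i)⁻¹ * ∫⁻ a in D, H i j a ∂μ := by
          congr 1
          funext i
          exact lintegral_const_mul'' _ (hH i j)
      _ ≤ ∑' i, (c i)⁻¹ * N i := ENNReal.tsum_le_tsum fun i => by
          gcongr
          exact hN i j
      _ ≤ θ := hθ
  have hlim : ∫⁻ a in D, liminf (fun j => Φ j a) atTop ∂μ ≤ θ := by
    refine (lintegral_liminf_le' hΦm).trans ?_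
    refine (liminf_le_liminf (v := fun _ : ℕ => θ) (Eventually.of_forall hint)).trans ?_
    simp
  have hlm : AEMeasurable (fun a => liminf (fun j => Φ j a) atTop) (μ.restrict D) := by
    simp only [liminf_eq_iSup_iInf_of_nat]
    exact AEMeasurable.iSup fun n => AEMeasurable.biInf _ (to_countable _) fun j _ => hΦm j
  refine ⟨{a | 1 ≤ liminf (fun j => Φ j a) atTop}, ?_, ?_⟩
  · have := mul_meas_ge_le_lintegral₀ hlm 1
    rw [one_mul] at this
    exact this.trans hlim
  · intro a ha
    have ha' : liminf (fun j => Φ j a) atTop < 1 := not_le.1 ha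
    refine (frequently_lt_of_liminf_lt (by isBoundedDefault) ha').mono fun j hj i => ?_
    have h1 : (c i)⁻¹ * H i j a < 1 := (ENNReal.le_tsum i).trans_lt hj
    by_contra hcon
    rw [not_le] at hcon
    by_cases hct : c i = ∞
    · rw [hct] at hcon
      exact absurd hcon (not_lt_of_ge le_top)
    · have : (1 : ℝ≥0∞) ≤ (c i)⁻¹ * H i j a := by
        rw [← ENNReal.inv_mul_cancel (hc i) hct]
        gcongr
      exact absurd h1 (not_lt_of_ge this)

end Select

section Mean

variable {E : Type*} [AddCommGroup E] [MeasurableSpace E] [MeasurableAdd₂ E] [MeasurableNeg E]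
  {μ : Measure E} {ι : Type*}

/-- weighted sum over the pieces of the integrals over the translated thick pieces -/
def thick (μ : Measure E) (w : ι → ℝ≥0∞) (U : ι → Set E) (g : E → ℝ≥0∞) (a : E) : ℝ≥0∞ :=
  ∑' e, w e * ∫⁻ x in {x | x - a ∈ U e}, g x ∂μ

theorem measurableSet_trans {U : Set E} (hU : MeasurableSet U) (a : E) :
    MeasurableSet {x | x - a ∈ U} := by
  have : Measurable fun x : E => x - a := by
    simp only [sub_eq_add_neg]
    exact measurable_id.add measurable_const
  exact this hU

theorem aemeasurable_piece [SFinite μ] {U : Set E} (hU : MeasurableSet U) {g : E → ℝ≥0∞}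
    (hg : AEMeasurable g μ) (D : Set E) :
    AEMeasurable (fun p : E × E => {x : E | x - p.1 ∈ U}.indicator g p.2)
      ((μ.restrict D).prod μ) := by
  have h1 : MeasurableSet {p : E × E | p.2 - p.1 ∈ U} := by
    have : Measurable fun p : E × E => p.2 - p.1 := by
      simp only [sub_eq_add_neg]
      exact measurable_snd.add measurable_fst.neg
    exact this hU
  have h2 : AEMeasurable (fun p : E × E => g p.2) ((μ.restrict D).prod μ) :=
    hg.comp_quasiMeasurePreserving Measure.quasiMeasurePreserving_snd
  have h3 : (fun p : E × E => {x : E | x - p.1 ∈ U}.indicator g p.2) =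
      {p : E × E | p.2 - p.1 ∈ U}.indicator (fun p => g p.2) := by
    funext p
    by_cases h : p.2 - p.1 ∈ U <;> simp [indicator, h]
  rw [h3]
  exact h2.indicator h1

theorem aemeasurable_thick [SFinite μ] [Countable ι] (w : ι → ℝ≥0∞) {U : ι → Set E}
    (hU : ∀ e, MeasurableSet (U e)) {g : E → ℝ≥0∞} (hg : AEMeasurable g μ) (D : Set E) :
    AEMeasurable (thick μ w U g) (μ.restrict D) := by
  refine AEMeasurable.tsum fun e => AEMeasurable.const_mul ?_ _
  have h := (aemeasurable_piece (hU e) hg D).lintegral_prod_right'
  refine h.congr (Eventually.of_forall fun a => ?_)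
  simp only
  rw [lintegral_indicator (measurableSet_trans (hU e) a)]

/-- **mean value of the thick functional** -/
theorem thick_mean [SFinite μ] [μ.IsAddLeftInvariant] [μ.IsNegInvariant] [Countable ι]
    (w : ι → ℝ≥0∞)
    {U : ι → Set E} (hU : ∀ e, MeasurableSet (U e)) {g : E → ℝ≥0∞} (hg : AEMeasurable g μ)
    {D : Set E} {M n : ℝ≥0∞} (hM : ∀ e, w e * μ (U e) ≤ M)
    (hn : ∀ y : E, (({e | ∃ a ∈ D, y - a ∈ U e}.encard : ℕ∞) : ℝ≥0∞) ≤ n) :
    ∫⁻ a in D, thick μ w U g a ∂μ ≤ n * M * ∫⁻ x, g x ∂μ := by
  have hsub : ∀ x : E, Measurable fun a : E => x - a := fun x => by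
    simp only [sub_eq_add_neg]
    exact measurable_const.add measurable_neg
  have hme : ∀ e, AEMeasurable (fun a => ∫⁻ x in {x | x - a ∈ U e}, g x ∂μ) (μ.restrict D) := by
    intro e
    have h := (aemeasurable_piece (hU e) hg D).lintegral_prod_right'
    refine h.congr (Eventually.of_forall fun a => ?_)
    simp only
    rw [lintegral_indicator (measurableSet_trans (hU e) a)]
  -- the counting functions
  set c : ι → E → ℝ≥0∞ := fun e x => (μ.restrict D) {a | x - a ∈ U e} with hc
  have hcm : ∀ e, Measurable (c e) := by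
    intro e
    have h1 : MeasurableSet {p : E × E | p.1 - p.2 ∈ U e} := by
      have : Measurable fun p : E × E => p.1 - p.2 := by
        simp only [sub_eq_add_neg]
        exact measurable_fst.add measurable_snd.neg
      exact this (hU e)
    exact measurable_measure_prodMk_left h1
  have hpc : ∀ e, ∫⁻ a in D, (w e * ∫⁻ x in {x | x - a ∈ U e}, g x ∂μ) ∂μ =
      ∫⁻ x, g x * (w e * c e x) ∂μ := by
    intro e
    rw [lintegral_const_mul'' _ (hme e)]
    have h1 : ∫⁻ a in D, (∫⁻ x in {x | x - a ∈ U e}, g x ∂μ) ∂μ =
        ∫⁻ a in D, (∫⁻ x, {x : E | x - a ∈ U e}.indicator g x ∂μ) ∂μ := by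
      congr 1
      funext a
      rw [lintegral_indicator (measurableSet_trans (hU e) a)]
    rw [h1, lintegral_lintegral_swap (aemeasurable_piece (hU e) hg D)]
    have h2 : ∀ x, ∫⁻ a in D, {x : E | x - a ∈ U e}.indicator g x ∂μ = g x * c e x := by
      intro x
      have h3 : ∀ a, {x : E | x - a ∈ U e}.indicator g x =
          {a : E | x - a ∈ U e}.indicator (fun _ => g x) a := by
        intro a
        by_cases h : x - a ∈ U e <;> simp [indicator, h]
      simp only [h3]
      have hs : MeasurableSet {a : E | x - a ∈ U e} := hsub x (hU e)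
      rw [lintegral_indicator hs, setLIntegral_const]
    simp only [h2]
    have hgc : AEMeasurable (fun x => g x * c e x) μ := hg.mul (hcm e).aemeasurable
    rw [← lintegral_const_mul'' _ hgc]
    congr 1
    funext x
    ring
  calc ∫⁻ a in D, thick μ w U g a ∂μ
      = ∑' e, ∫⁻ a in D, (w e * ∫⁻ x in {x | x - a ∈ U e}, g x ∂μ) ∂μ := by
        unfold thick
        exact lintegral_tsum fun e => (hme e).const_mul _
    _ = ∑' e, ∫⁻ x, g x * (w e * c e x) ∂μ := by
        congr 1
        funext e
        exact hpc e
    _ = ∫⁻ x, ∑' e, g x * (w e * c e x) ∂μ :=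
        (lintegral_tsum fun e => hg.mul ((hcm e).const_mul _).aemeasurable).symm
    _ ≤ ∫⁻ x, (n * M) * g x ∂μ := by
        refine lintegral_mono fun x => ?_
        simp only
        rw [ENNReal.tsum_mul_left, mul_comm (n * M)]
        gcongr
        classical
        calc ∑' e, w e * c e x
            ≤ ∑' e, {e | ∃ a ∈ D, x - a ∈ U e}.indicator (1 : ι → ℝ≥0∞) e * M := by
              refine ENNReal.tsum_le_tsum fun e => ?_
              by_cases he : ∃ a ∈ D, x - a ∈ U e
              · have he' : e ∈ {e | ∃ a ∈ D, x - a ∈ U e} := he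
                rw [indicator_of_mem he', Pi.one_apply, one_mul]
                refine le_trans ?_ (hM e)
                gcongr
                calc c e x ≤ μ {a | x - a ∈ U e} := Measure.restrict_apply_le _ _
                  _ = μ (U e) :=
                    (Measure.measurePreserving_sub_left μ x).measure_preimage
                      (hU e).nullMeasurableSet
              · have h0 : c e x = 0 := by
                  show (μ.restrict D) {a | x - a ∈ U e} = 0
                  have hs : MeasurableSet {a : E | x - a ∈ U e} := hsub x (hU e)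
                  rw [Measure.restrict_apply hs]
                  convert measure_empty (μ := μ)
                  ext a
                  constructor
                  · rintro ⟨h1, h2⟩
                    exact absurd ⟨a, h2, h1⟩ he
                  · exact fun h => absurd h (notMem_empty a)
                rw [h0, mul_zero]
                exact zero_le
          _ = (∑' e, {e | ∃ a ∈ D, x - a ∈ U e}.indicator (1 : ι → ℝ≥0∞) e) * M :=
              ENNReal.tsum_mul_right
          _ = (({e | ∃ a ∈ D, x - a ∈ U e}.encard : ℕ∞) : ℝ≥0∞) * M := by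
              rw [← tsum_subtype, ← ENNReal.tsum_set_one]
              rfl
          _ ≤ n * M := by
              gcongr
              exact hn x
    _ = n * M * ∫⁻ x, g x ∂μ := lintegral_const_mul'' _ hg

end Mean

end

end Crest.Agent.R096.Thk_622
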