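/-
helper622, row 96, leaf THIN, part 2: volume of thickenings of segments and plane pieces, and the
selection of a translate with infinitely many good thicknesses.
-/
import Mathlib
import Crest.Agent.R096.Thk1_622

set_option autoImplicit false
set_option linter.unusedSectionVars false

open MeasureTheory Set Filter Metric Module
open scoped ENNReal Topology

namespace Crest.Agent.R096.Thk_622

noncomputable section

section Trans

variable {E : Type*} [SeminormedAddCommGroup E]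

/-- the translated thickening is the thickening of the translated set -/
theorem trans_thickening (δ : ℝ) (K : Set E) (a : E) :
    {x | x - a ∈ thickening δ K} = thickening δ ((fun x => a + x) '' K) := by
  ext x
  show x - a ∈ thickening δ K ↔ x ∈ thickening δ ((fun x => a + x) '' K)
  rw [mem_thickening_iff, mem_thickening_iff]
  constructor
  · rintro ⟨z, hz, h⟩
    refine ⟨a + z, mem_image_of_mem _ hz, ?_⟩
    rw [dist_eq_norm] at h ⊢
    convert h using 2
    abel
  · rintro ⟨z, ⟨w, hw, rfl⟩, h⟩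
    refine ⟨w, hw, ?_⟩
    rw [dist_eq_norm] at h ⊢
    have h3 : x - a - w = x - (a + w) := by abel
    rw [h3]
    exact h

/-- the multiplicity hypothesis of `thick_mean` for thickenings -/
theorem mult_thickening {ι : Type*} {K : ι → Set E} {D : Set E} {δ δ' : ℝ} (hδ : δ ≤ δ') {n : ℝ≥0∞}
    (h : ∀ y : E, (({e | ∃ k ∈ K e, y - k ∈ thickening δ' D}.encard : ℕ∞) : ℝ≥0∞) ≤ n) (y : E) :
    (({e | ∃ a ∈ D, y - a ∈ thickening δ (K e)}.encard : ℕ∞) : ℝ≥0∞) ≤ n := by
  refine le_trans ?_ (h y)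
  have : {e | ∃ a ∈ D, y - a ∈ thickening δ (K e)} ⊆ {e | ∃ k ∈ K e, y - k ∈ thickening δ' D} := by
    rintro e ⟨a, ha, h1⟩
    rw [mem_thickening_iff] at h1
    obtain ⟨k, hk, h2⟩ := h1
    refine ⟨k, hk, ?_⟩
    rw [mem_thickening_iff]
    refine ⟨a, ha, ?_⟩
    rw [dist_eq_norm] at h2 ⊢
    have h3 : y - k - a = y - a - k := by abel
    rw [h3]
    exact h2.trans_le hδ
  exact_mod_cast Set.encard_le_encard this

end Trans

section Vol

variable {E : Type*} [NormedAddCommGroup E] [NormedSpace ℝ E] [MeasurableSpace E] [BorelSpace E]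
  [FiniteDimensional ℝ E] (μ : Measure E) [μ.IsAddHaarMeasure]

/-- volume of a thickening from a cover by balls -/
theorem vol_cover {K : Set E} {m : ℕ} {z : Fin m → E} {δ : ℝ} (hδ : 0 < δ)
    (h : K ⊆ ⋃ i, closedBall (z i) δ) :
    μ (thickening δ K) ≤ m * (ENNReal.ofReal ((2 * δ) ^ finrank ℝ E) * μ (ball 0 1)) := by
  have h1 : thickening δ K ⊆ ⋃ i, ball (z i) (2 * δ) := by
    intro x hx
    rw [mem_thickening_iff] at hx
    obtain ⟨y, hy, hxy⟩ := hx
    obtain ⟨i, hi⟩ := mem_iUnion.1 (h hy)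
    refine mem_iUnion.2 ⟨i, ?_⟩
    rw [mem_closedBall] at hi
    rw [mem_ball]
    calc dist x (z i) ≤ dist x y + dist y (z i) := dist_triangle _ _ _
      _ < 2 * δ := by linarith
  calc μ (thickening δ K) ≤ μ (⋃ i, ball (z i) (2 * δ)) := measure_mono h1
    _ ≤ ∑ i, μ (ball (z i) (2 * δ)) := measure_iUnion_fintype_le _ _
    _ = ∑ _i : Fin m, ENNReal.ofReal ((2 * δ) ^ finrank ℝ E) * μ (ball 0 1) := by
        refine Finset.sum_congr rfl fun i _ => ?_
        rw [Measure.addHaar_ball_of_pos μ (z i) (by positivity)]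
    _ = m * (ENNReal.ofReal ((2 * δ) ^ finrank ℝ E) * μ (ball 0 1)) := by
        simp

/-- parallelotope spanned by `k` vectors (`k = 1` segment, `k = 2` parallelogram) -/
def pbox {k : ℕ} (x : E) (u : Fin k → E) : Set E :=
  (fun σ : Fin k → ℝ => x + ∑ i, σ i • u i) '' Icc 0 1

/-- volume of the thickening of a subset of a parallelotope -/
theorem vol_pbox {k : ℕ} {x : E} {u : Fin k → E} {K : Set E} (hK : K ⊆ pbox x u) {t δ : ℝ}
    (hu : ∀ i, ‖u i‖ ≤ t) (hδ : 0 < δ) (hδt : δ ≤ t) :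
    μ (thickening δ K) ≤
      ENNReal.ofReal (((k + 3) * t / δ) ^ k * (2 * δ) ^ finrank ℝ E) * μ (ball 0 1) := by
  have ht : 0 < t := hδ.trans_le hδt
  set m : ℕ := ⌈k * t / δ⌉₊ + 1 with hm
  have hm0 : (0 : ℝ) < m := by rw [hm]; positivity
  have hmk : k * t / δ ≤ m := (Nat.le_ceil _).trans (by rw [hm]; push_cast; linarith)
  -- centres
  have hcov : K ⊆ ⋃ i : Fin ((m + 1) ^ k), closedBall
      (x + ∑ l, (((finFunctionFinEquiv.symm i) l : ℕ) / m : ℝ) • u l) δ := by
    intro y hy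
    obtain ⟨σ, hσ, rfl⟩ := hK hy
    have hσ0 : ∀ l, 0 ≤ σ l := fun l => hσ.1 l
    have hσ1 : ∀ l, σ l ≤ 1 := fun l => hσ.2 l
    let q : Fin k → Fin (m + 1) := fun l => ⟨⌊σ l * m⌋₊, by
      have h1 : ⌊σ l * m⌋₊ ≤ m := by
        apply Nat.floor_le_of_le
        have := mul_le_mul_of_nonneg_right (hσ1 l) hm0.le
        linarith
      omega⟩
    refine mem_iUnion.2 ⟨finFunctionFinEquiv q, ?_⟩
    rw [mem_closedBall, dist_eq_norm, Equiv.symm_apply_apply]
    have h1 : (x + ∑ l, σ l • u l) - (x + ∑ l, (((q l : ℕ) : ℝ) / m) • u l) =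
        ∑ l, (σ l - ((q l : ℕ) : ℝ) / m) • u l := by
      rw [add_sub_add_left_eq_sub, ← Finset.sum_sub_distrib]
      refine Finset.sum_congr rfl fun l _ => ?_
      rw [sub_smul]
    rw [h1]
    have h2 : ∀ l, |σ l - ((q l : ℕ) : ℝ) / m| ≤ 1 / m := by
      intro l
      have ha : ((q l : ℕ) : ℝ) ≤ σ l * m :=
        Nat.floor_le (mul_nonneg (hσ0 l) hm0.le)
      have hb : σ l * m < ((q l : ℕ) : ℝ) + 1 := Nat.lt_floor_add_one _
      have hc : σ l - ((q l : ℕ) : ℝ) / m = (σ l * m - ((q l : ℕ) : ℝ)) / m := by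
        field_simp
      rw [hc, abs_div, abs_of_pos hm0, abs_of_nonneg (by linarith)]
      gcongr
      linarith
    calc ‖∑ l, (σ l - ((q l : ℕ) : ℝ) / m) • u l‖
        ≤ ∑ l, ‖(σ l - ((q l : ℕ) : ℝ) / m) • u l‖ := norm_sum_le _ _
      _ ≤ ∑ _l : Fin k, 1 / m * t := by
          refine Finset.sum_le_sum fun l _ => ?_
          rw [norm_smul, Real.norm_eq_abs]
          exact mul_le_mul (h2 l) (hu l) (norm_nonneg _) (by positivity)
      _ = k * t / m := by
          rw [Finset.sum_const, Finset.card_univ, Fintype.card_fin, nsmul_eq_mul]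
          ring
      _ ≤ δ := by
          rw [div_le_iff₀ hm0]
          have := (div_le_iff₀ hδ).1 hmk
          linarith
  refine (vol_cover μ hδ hcov).trans ?_
  rw [← mul_assoc]
  gcongr
  rw [ENNReal.ofReal_mul (by positivity)]
  gcongr
  rw [ENNReal.le_ofReal_iff_toReal_le (by simp) (by positivity)]
  rw [ENNReal.toReal_natCast]
  push_cast
  gcongr
  have hce : (⌈(k : ℝ) * t / δ⌉₊ : ℝ) < k * t / δ + 1 := Nat.ceil_lt_add_one (by positivity)
  have h5 : (1 : ℝ) ≤ t / δ := by rw [le_div_iff₀ hδ]; linarith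
  have h6 : ((k : ℝ) + 3) * t / δ = k * t / δ + 3 * (t / δ) := by ring
  rw [hm, h6]
  push_cast
  linarith

end Vol

section Final

variable {E : Type*} [AddCommGroup E] [MeasurableSpace E] [MeasurableAdd₂ E] [MeasurableNeg E]
  {μ : Measure E}

/-- `exists_select` with a bad subset of `D` -/
theorem exists_select_sub {α : Type*} [MeasurableSpace α] {μ : Measure α} {D : Set α}
    (hD : MeasurableSet D) {I : Type*} [Countable I] {H : I → ℕ → α → ℝ≥0∞}
    (hH : ∀ i j, AEMeasurable (H i j) (μ.restrict D)) {c N : I → ℝ≥0∞} {θ : ℝ≥0∞}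
    (hc : ∀ i, c i ≠ 0)
    (hN : ∀ i j, ∫⁻ a in D, H i j a ∂μ ≤ N i) (hθ : ∑' i, (c i)⁻¹ * N i ≤ θ) :
    ∃ B ⊆ D, μ B ≤ θ ∧ ∀ a ∈ D \ B, ∃ᶠ j in atTop, ∀ i, H i j a ≤ c i := by
  obtain ⟨B, hB, h⟩ := exists_select hH hc hN hθ
  refine ⟨B ∩ D, inter_subset_right, ?_, fun a ha => h a fun hB' => ha.2 ⟨hB', ha.1⟩⟩
  rwa [Measure.restrict_apply' hD] at hB

/-- **THIN**: a translate off a small set of `D` has infinitely many thicknesses `j` for which all
(countably many) weighted thick functionals are small at once. -/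
theorem thin_select [SFinite μ] [μ.IsAddLeftInvariant] [μ.IsNegInvariant]
    {I : Type*} [Countable I] {ι : I → Type*} [∀ i, Countable (ι i)]
    {w : ∀ i, ℕ → ι i → ℝ≥0∞} {U : ∀ i, ℕ → ι i → Set E} (hU : ∀ i j e, MeasurableSet (U i j e))
    {g : I → E → ℝ≥0∞} (hg : ∀ i, AEMeasurable (g i) μ) {D : Set E} (hD : MeasurableSet D)
    {M n c : I → ℝ≥0∞} {θ : ℝ≥0∞} (hM : ∀ i j e, w i j e * μ (U i j e) ≤ M i)
    (hn : ∀ i j, ∀ y : E, (({e | ∃ a ∈ D, y - a ∈ U i j e}.encard : ℕ∞) : ℝ≥0∞) ≤ n i)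
    (hc : ∀ i, c i ≠ 0) (hθ : ∑' i, (c i)⁻¹ * (n i * M i * ∫⁻ x, g i x ∂μ) ≤ θ) :
    ∃ B ⊆ D, μ B ≤ θ ∧ ∀ a ∈ D \ B, ∃ᶠ j in atTop, ∀ i, thick μ (w i j) (U i j) (g i) a ≤ c i :=
  exists_select_sub hD (fun i j => aemeasurable_thick (w i j) (hU i j) (hg i) D) hc
    (fun i j => thick_mean (w i j) (hU i j) (hg i) (hM i j) (hn i j)) hθ

end Final

section Use

variable {E : Type*} [AddCommGroup E] [MeasurableSpace E] {μ : Measure E} {ι : Type*}

theorem thick_mono (w : ι → ℝ≥0∞) (U : ι → Set E) {g g' : E → ℝ≥0∞} (h : ∀ x, g x ≤ g' x) (a : E) :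
    thick μ w U g a ≤ thick μ w U g' a :=
  ENNReal.tsum_le_tsum fun e => by
    gcongr
    exact h _

theorem thick_add (w : ι → ℝ≥0∞) (U : ι → Set E) {g g' : E → ℝ≥0∞} (hg : AEMeasurable g μ) (a : E) :
    thick μ w U (fun x => g x + g' x) a = thick μ w U g a + thick μ w U g' a := by
  unfold thick
  rw [← ENNReal.tsum_add]
  congr 1
  funext e
  rw [lintegral_add_left' hg.restrict, mul_add]

/-- the thick functional restricted to the pieces of a set `S` of indices and of a bounded function: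
number of pieces times the mass bound -/
theorem thick_const_le {w : ι → ℝ≥0∞} {U : ι → Set E} (S : Finset ι)
    {M C : ℝ≥0∞} {a : E}
    (hM : ∀ e ∈ S, w e * μ {x | x - a ∈ U e} ≤ M) :
    ∑ e ∈ S, w e * ∫⁻ _x in {x | x - a ∈ U e}, C ∂μ ≤ S.card * M * C := by
  calc ∑ e ∈ S, w e * ∫⁻ _x in {x | x - a ∈ U e}, C ∂μ
      ≤ ∑ _e ∈ S, M * C := by
        refine Finset.sum_le_sum fun e he => ?_
        rw [setLIntegral_const]
        calc w e * (C * μ {x | x - a ∈ U e}) = (w e * μ {x | x - a ∈ U e}) * C := by ring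
          _ ≤ M * C := by
              gcongr
              exact hM e he
    _ = S.card * M * C := by rw [Finset.sum_const, nsmul_eq_mul, mul_assoc]

end Use

end

end Crest.Agent.R096.Thk_622
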