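import Crest.Agent.R096.Tig2_438

/-! Row 96, P3-TIGHT (helper438), part 3: (T1) refinement: `H¹ = 0` (also in the local form
"every cocycle of the tiles `F` is exact on the edges `E`") passes from the chords to the fine
surface, if the arcs in every cell disc do not cross. -/

set_option autoImplicit false

namespace Crest.Agent.R096.Tig_438

/-- local form of `H1`: cocycles of the tiles `F` are exact on the edges `E` -/
def H1r {M : Type*} (a0 a1 a2 : M → M) (S F E : M → Prop) : Prop :=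
  ∀ θ : M → ZMod 2, (∀ m, F m → θ (a1 m) = θ m) →
    (∀ m, F m → F (a2 m) → θ m + θ (a0 m) + (θ (a2 m) + θ (a0 (a2 m))) = 0) →
    ∃ ψ : M → ZMod 2, (∀ m, S m → ψ (a1 m) = ψ m) ∧ (∀ m, S m → ψ (a2 m) = ψ m) ∧
      ∀ m, E m → θ m + θ (a0 m) = ψ m + ψ (a0 m)

theorem H1.toH1r {M : Type*} {a0 a1 a2 : M → M} {S : M → Prop} (h : H1 a0 a1 a2 S)
    (h0 : ∀ m, S m → S (a0 m)) (h2 : ∀ m, S m → S (a2 m)) : H1r a0 a1 a2 S S S := by
  intro θ t1 t2
  obtain ⟨ψ, χ, a, b, c, d, e⟩ := h θ t1 fun m hm => t2 m hm (h2 m hm)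
  refine ⟨ψ, a, b, fun m hm => ?_⟩
  rw [e m hm, e _ (h0 m hm), c m hm]
  have : ψ m + χ m + (ψ (a0 m) + χ m) = ψ m + ψ (a0 m) + (χ m + χ m) := by ring
  rw [this, CharTwo.add_self_eq_zero, add_zero]

theorem H1r.toH1 {M : Type*} {a0 a1 a2 : M → M} {S : M → Prop} (h : H1r a0 a1 a2 S S S) :
    H1 a0 a1 a2 S := by
  intro θ t1 t2
  obtain ⟨ψ, a, b, c⟩ := h θ t1 fun m hm _ => t2 m hm
  refine ⟨ψ, fun m => θ m + ψ m, a, b, fun m hm => ?_, fun m hm => ?_, fun m _ => ?_⟩
  · have := c m hm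
    have h1 : θ (a0 m) + ψ (a0 m) + (θ m + ψ m) = (θ m + θ (a0 m)) + (ψ m + ψ (a0 m)) := by ring
    rw [this, CharTwo.add_self_eq_zero] at h1
    exact CharTwo.add_eq_zero.1 h1
  · simp only [t1 m hm, a m hm]
  · have : ψ m + (θ m + ψ m) = θ m + (ψ m + ψ m) := by ring
    rw [this, CharTwo.add_self_eq_zero, add_zero]

theorem H1r.mono {M : Type*} {a0 a1 a2 : M → M} {S F E F' E' : M → Prop}
    (h : H1r a0 a1 a2 S F E) (hF : ∀ m, F m → F' m) (hE : ∀ m, E' m → E m) :
    H1r a0 a1 a2 S F' E' := fun θ t1 t2 => by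
  obtain ⟨ψ, a, b, c⟩ := h θ (fun m hm => t1 m (hF m hm)) fun m hm hm' =>
    t2 m (hF m hm) (hF _ hm')
  exact ⟨ψ, a, b, fun m hm => c m (hE m hm)⟩

namespace Pic

variable {D : Type*} (K : Pic D)

/-- a set of cell discs -/
structure Discs (F : D × Bool → Prop) : Prop where
  s : ∀ m, F m → F (K.s m.1, m.2)
  t : ∀ m, F m → F (K.t m.1, m.2)
  r : ∀ m, F m → K.t m.1 = m.1 → F (K.r m)
  mu : ∀ m, F m → K.cut m.1 → F (K.mu m)

/-- the two ends of an arc lie on the same cell disc -/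
def SameDisc (G : D × Bool → Prop) : Prop :=
  ∀ χ : D × Bool → ZMod 2, (∀ m, G m → χ (K.s m.1, m.2) = χ m) →
    (∀ m, G m → χ (K.t m.1, m.2) = χ m) → (∀ m, G m → K.t m.1 = m.1 → χ (K.r m) = χ m) →
    ∀ m, G m → K.cut m.1 → χ (K.mu m) = χ m

/-- the arcs of every cell disc do not cross: every function on arcs is the jump of a function of
the pieces -/
def Tree (F : D × Bool → Prop) : Prop :=
  ∀ δ : D × Bool → ZMod 2, (∀ m, F m → K.cut m.1 → δ (K.mu m) = δ m) →
    (∀ m, F m → K.cut m.1 → δ (K.t m.1, m.2) = δ m) →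
    ∃ χ : (D × Bool) × Bool → ZMod 2,
      (∀ m, F m → χ ((K.s m.1, m.2), false) = χ (m, false)) ∧
      (∀ m, F m → K.cut m.1 → χ (K.mu m, true) = χ (m, true)) ∧
      (∀ m, F m → K.cut m.1 → χ (m, true) = χ (m, false)) ∧
      (∀ m, F m → K.t m.1 ≠ m.1 → ¬ K.cut m.1 → χ ((K.t m.1, m.2), false) = χ (m, false)) ∧
      (∀ m, F m → K.t m.1 = m.1 → χ (K.r m, false) = χ (m, false)) ∧
      ∀ m, F m → K.cut m.1 → χ (m, true) + χ ((K.t m.1, m.2), true) = δ m

/-- fine tiles in the discs `F` -/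
def FT (F : D × Bool → Prop) (m : (D × Bool) × Bool) : Prop := F m.1 ∧ (m.2 = true → K.cut m.1.1)

/-- fine edges: pieces of the chords `E`, arcs in the discs `G` -/
def FE (E : D → Prop) (G : D × Bool → Prop) (m : (D × Bool) × Bool) : Prop :=
  (m.2 = false ∧ E m.1.1) ∨ (m.2 = true ∧ G m.1 ∧ K.cut m.1.1)

variable {K} {S : D → Prop} {F G : D × Bool → Prop} {E : D → Prop}

/-- **(T1) refinement**, local form -/
theorem fine_of_coarse_rel [Finite D] (hS : K.Sheet S) (hF : K.Discs F) (hG : K.Discs G)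
    (hFS : ∀ m, F m → S m.1) (hEs : ∀ d, E d → E (K.s d)) (hEt : ∀ d, E d → E (K.t d))
    (hEF : ∀ d b, E d → F (d, b)) (hGE : ∀ m, G m → E m.1)
    (hend : ∀ d, E d → ∃ p, Conn K.s K.t d p ∧ K.t p = p)
    (hdisc : K.SameDisc G) (htree : K.Tree F)
    (h : H1r K.A0 K.r (Pic.A2 (D := D)) (K.CS S) (fun m => F m ∧ K.t m.1 = m.1)
      (fun m => E m.1 ∧ K.t m.1 = m.1)) :
    H1r K.B0 K.B1 K.B2 (K.FS S) (K.FT F) (K.FE E G) := by
  classical
  intro θ' h1 h2
  -- consequences of the hypotheses on `θ'`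
  have c1 : ∀ m : D × Bool, F m → K.cut m.1 → θ' (m, true) = θ' (m, false) := fun m hm hc => by
    have := h1 (m, false) ⟨hm, by simp⟩
    rwa [B1_cut hc] at this
  have c2 : ∀ m : D × Bool, F m → K.t m.1 ≠ m.1 → ¬ K.cut m.1 →
      θ' ((K.t m.1, m.2), false) = θ' (m, false) := fun m hm hp hc => by
    have := h1 (m, false) ⟨hm, by simp⟩
    rwa [B1_not hp hc] at this
  have c3 : ∀ m : D × Bool, F m → K.t m.1 = m.1 → θ' (K.r m, false) = θ' (m, false) :=
    fun m hm hp => by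
      have := h1 (m, false) ⟨hm, by simp⟩
      rwa [B1_P hp] at this
  have c4 : ∀ m : D × Bool, F m → F (m.1, !m.2) →
      θ' (m, false) + θ' ((K.s m.1, m.2), false) + (θ' ((m.1, !m.2), false) +
        θ' ((K.s m.1, !m.2), false)) = 0 := fun m hm hm' => by
    have := h2 (m, false) ⟨hm, by simp⟩ (by rw [B2_false]; exact ⟨hm', by simp⟩)
    rwa [B2_false, B0_false, B0_false] at this
  have c5 : ∀ m : D × Bool, F m → K.cut m.1 →
      θ' (m, true) + θ' (K.mu m, true) + (θ' ((K.t m.1, m.2), true) +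
        θ' ((K.t (K.mu m).1, (K.mu m).2), true)) = 0 := fun m hm hc => by
    have := h2 (m, true) ⟨hm, fun _ => hc⟩
      (by rw [B2_true]; exact ⟨hF.t _ hm, fun _ => K.cut_t _ hc⟩)
    rwa [B2_true, B0_true, B0_true, K.mu_t _ hc] at this
  -- jumps of `θ'` across the arcs
  obtain ⟨χ₀, x1, x2, x3, x4, x5, x6⟩ := htree
    (fun m => θ' (m, true) + θ' ((K.t m.1, m.2), true))
    (by
      intro m hm hc
      have := c5 m hm hc
      have e : θ' (m, true) + θ' (K.mu m, true) + (θ' ((K.t m.1, m.2), true) +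
        θ' ((K.t (K.mu m).1, (K.mu m).2), true)) =
        (θ' (K.mu m, true) + θ' ((K.t (K.mu m).1, (K.mu m).2), true)) +
        (θ' (m, true) + θ' ((K.t m.1, m.2), true)) := by ring
      rw [e] at this
      exact CharTwo.add_eq_zero.1 this)
    (by
      intro m hm hc
      simp only [K.t_t]
      exact add_comm _ _)
  -- corrected potential: no jump across the arcs
  set ω : D × Bool → ZMod 2 := fun m => θ' (m, false) + χ₀ (m, false) with hω
  have ωt : ∀ m : D × Bool, F m → ω (K.t m.1, m.2) = ω m := by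
    intro m hm
    by_cases hp : K.t m.1 = m.1
    · rw [hp]
    by_cases hc : K.cut m.1
    · have h3 := x6 m hm hc
      have hm' := hF.t m hm
      have hc' := K.cut_t _ hc
      rw [x3 m hm hc, x3 _ hm' hc', c1 m hm hc, c1 _ hm' hc'] at h3
      simp only [hω]
      have e : θ' ((K.t m.1, m.2), false) + χ₀ ((K.t m.1, m.2), false) +
          (θ' (m, false) + χ₀ (m, false)) =
          (χ₀ (m, false) + χ₀ ((K.t m.1, m.2), false)) +
          (θ' (m, false) + θ' ((K.t m.1, m.2), false)) := by ring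
      rw [h3, z2] at e
      exact CharTwo.add_eq_zero.1 e
    · simp only [hω, x4 m hm hp hc, c2 m hm hp hc]
  have ωr : ∀ m : D × Bool, F m → K.t m.1 = m.1 → ω (K.r m) = ω m := fun m hm hp => by
    simp only [hω, x5 m hm hp, c3 m hm hp]
  have ωc : ∀ m : D × Bool, F m → F (m.1, !m.2) →
      ω (K.s m.1, m.2) + ω (K.s m.1, !m.2) = ω m + ω (m.1, !m.2) := fun m hm hm' => by
    simp only [hω]
    have e1 := x1 m hm
    have e2 := x1 (m.1, !m.2) hm'
    simp only at e2
    rw [e1, e2]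
    have e3 := c4 m hm hm'
    have e4 : (θ' ((K.s m.1, m.2), false) + χ₀ (m, false) + (θ' ((K.s m.1, !m.2), false) +
        χ₀ ((m.1, !m.2), false))) + (θ' (m, false) + χ₀ (m, false) + (θ' ((m.1, !m.2), false) +
        χ₀ ((m.1, !m.2), false))) = (θ' (m, false) + θ' ((K.s m.1, m.2), false) +
        (θ' ((m.1, !m.2), false) + θ' ((K.s m.1, !m.2), false))) + ((χ₀ (m, false) +
        χ₀ (m, false)) + (χ₀ ((m.1, !m.2), false) + χ₀ ((m.1, !m.2), false))) := by ring
    rw [e3, z2, z2, add_zero, add_zero] at e4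
    exact CharTwo.add_eq_zero.1 e4
  -- the coarse surface
  obtain ⟨ψ, p1, p2, p3⟩ := h ω (fun m hm => ωr m hm.1 hm.2) (by
    rintro ⟨p, b⟩ ⟨hm, hp⟩ ⟨hm', _⟩
    simp only [A2] at hm'
    simp only at hm hp
    have hbb : ∀ x, F (x, b) ∧ F (x, !b) → F (K.s x, b) ∧ F (K.s x, !b) := fun x hx =>
      ⟨hF.s _ hx.1, hF.s _ hx.2⟩
    have := (conn_pr K.s K.t p).eq_on (f := fun x => ω (x, b) + ω (x, !b))
      (S := fun x => F (x, b) ∧ F (x, !b)) hbb
      (fun x hx => ⟨hF.t _ hx.1, hF.t _ hx.2⟩)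
      (fun x hx => ωc (x, b) hx.1 hx.2)
      (fun x hx => by
        have e1 := ωt (x, b) hx.1
        have e2 := ωt (x, !b) hx.2
        simp only at e1 e2
        rw [e1, e2]) ⟨hm, hm'⟩
    simp only [A0, A2]
    have e : ω (p, b) + ω (pr K.s K.t p, b) + (ω (p, !b) + ω (pr K.s K.t p, !b)) =
      (ω (pr K.s K.t p, b) + ω (pr K.s K.t p, !b)) + (ω (p, b) + ω (p, !b)) := by ring
    rw [e, this, z2])
  -- the end of the chord of `d`
  choose! e he hep using hend
  set χ : D × Bool → ZMod 2 := fun m => ω m + ψ m with hχ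
  have χA : ∀ p b, E p → K.t p = p → χ (pr K.s K.t p, b) = χ (p, b) := by
    intro p b hE hp
    have := p3 (p, b) ⟨hE, hp⟩
    simp only [A0] at this
    simp only [hχ]
    have e1 : ω (pr K.s K.t p, b) + ψ (pr K.s K.t p, b) + (ω (p, b) + ψ (p, b)) =
      (ω (p, b) + ω (pr K.s K.t p, b)) + (ψ (p, b) + ψ (pr K.s K.t p, b)) := by ring
    rw [this, z2] at e1
    exact CharTwo.add_eq_zero.1 e1
  have χe : ∀ d d' b, E d → Conn K.s K.t d d' → χ (e d', b) = χ (e d, b) := by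
    intro d d' b hd hc
    have hd' : E d' := hc.mem hEs hEt hd
    have h3 : Conn K.s K.t (e d) (e d') :=
      (((he d hd).symm K.s_s K.t_t).trans hc).trans (he d' hd')
    have hEe : E (e d) := (he d hd).mem hEs hEt hd
    rcases end_unique K.s_s K.t_t K.s_ne (hep d hd) (hep d' hd') h3 with h4 | h4
    · rw [h4]
    · rw [h4, χA _ _ hEe (hep d hd)]
  have χeP : ∀ p b, E p → K.t p = p → χ (e p, b) = χ (p, b) := by
    intro p b hp ht
    rcases end_unique K.s_s K.t_t K.s_ne ht (hep p hp) (he p hp) with h4 | h4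
    · rw [h4]
    · rw [h4, χA _ _ hp ht]
  -- the vertex function
  set Ψ : D × Bool → ZMod 2 := fun m =>
    if K.t m.1 = m.1 then ψ m else if E m.1 then ω m + χ (e m.1, m.2) else 0 with hΨ
  have ΨE : ∀ m : D × Bool, E m.1 → Ψ m = ω m + χ (e m.1, m.2) := by
    rintro ⟨d, b⟩ hd
    simp only at hd
    by_cases hp : K.t d = d
    · simp only [hΨ, if_pos hp]
      rw [χeP d b hd hp]
      simp only [hχ]
      rw [← add_assoc, z2, zero_add]
    · simp only [hΨ, if_neg hp, if_pos hd]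
  have ΨP : ∀ m : D × Bool, K.t m.1 = m.1 → Ψ m = ψ m := fun m hm => by
    simp only [hΨ, if_pos hm]
  have ΨN : ∀ m : D × Bool, K.t m.1 ≠ m.1 → ¬ E m.1 → Ψ m = 0 := fun m hm hE => by
    simp only [hΨ, if_neg hm, if_neg hE]
  have hEt' : ∀ d, E (K.t d) ↔ E d := fun d =>
    ⟨fun h => by have := hEt _ h; rwa [K.t_t] at this, hEt d⟩
  have hEs' : ∀ d, E (K.s d) ↔ E d := fun d =>
    ⟨fun h => by have := hEs _ h; rwa [K.s_s] at this, hEs d⟩
  -- `Ψ` across the crossing point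
  have Ψt : ∀ m : D × Bool, Ψ (K.t m.1, m.2) = Ψ m := by
    rintro ⟨d, b⟩
    by_cases hp : K.t d = d
    · simp only [hp]
    show Ψ (K.t d, b) = Ψ (d, b)
    by_cases hE : E d
    · rw [ΨE (d, b) hE, ΨE (K.t d, b) ((hEt' d).2 hE)]
      have e1 := ωt (d, b) (hEF _ _ hE)
      have e2 := χe d (K.t d) b hE (Conn.refl _ _ _).t
      simp only at e1 e2 ⊢
      rw [e1, e2]
    · have hpt : K.t (K.t d) ≠ K.t d := fun h => hp (by rw [K.t_t] at h; exact h.symm)
      rw [ΨN (d, b) hp hE, ΨN (K.t d, b) hpt (by simpa only [hEt'] using hE)]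
  -- `Ψ` in the two cells of the face
  have Ψ2 : ∀ d b, S d → Ψ (d, !b) = Ψ (d, b) := by
    intro d b hd
    by_cases hE : E d
    · have hc := he d hE
      have h5 := hc.eq_on (f := fun x => Ψ (x, !b) + Ψ (x, b)) (S := E) hEs hEt ?_ ?_ hE
      · have hEe : E (e d) := hc.mem hEs hEt hE
        rw [ΨP (e d, !b) (hep d hE), ΨP (e d, b) (hep d hE)] at h5
        have h6 := p2 (e d, b) ⟨hc.mem hS.s hS.t hd, hep d hE⟩
        simp only [A2] at h6
        rw [h6, z2] at h5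
        exact CharTwo.add_eq_zero.1 h5.symm
      · intro x hx
        have e1 := χe x (K.s x) b hx (Conn.refl _ _ _).s
        have e2 := χe x (K.s x) (!b) hx (Conn.refl _ _ _).s
        rw [ΨE _ (hEs _ hx), ΨE _ (hEs _ hx), ΨE _ hx, ΨE _ hx]
        simp only at e1 e2 ⊢
        rw [e1, e2]
        have e3 := ωc (x, b) (hEF _ _ hx) (hEF _ _ hx)
        simp only at e3
        have e4 : ω (K.s x, !b) + χ (e x, !b) + (ω (K.s x, b) + χ (e x, b)) =
          (ω (K.s x, b) + ω (K.s x, !b)) + (χ (e x, !b) + χ (e x, b)) := by ring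
        rw [e4, e3]; ring
      · intro x hx
        have e1 := Ψt (x, b)
        have e2 := Ψt (x, !b)
        simp only at e1 e2
        simp only [e1, e2]
    · by_cases hp : K.t d = d
      · rw [ΨP _ hp, ΨP _ hp]
        exact p2 (d, b) ⟨hd, hp⟩
      · rw [ΨN _ hp hE, ΨN _ hp hE]
  refine ⟨fun m => Ψ m.1, ?_, ?_, ?_⟩
  · rintro ⟨⟨d, b⟩, γ⟩ ⟨hd, hc⟩
    simp only at hd hc
    by_cases hp : K.t d = d
    · rw [B1_P (m := (d, b)) hp]
      simp only
      rw [ΨP _ (K.t_r (d, b) hp), ΨP (d, b) hp]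
      exact p1 (d, b) ⟨hd, hp⟩
    by_cases hcut : K.cut d
    · rw [B1_cut (m := (d, b)) hcut]
    · rw [B1_not (m := (d, b)) hp hcut]
      exact Ψt (d, b)
  · rintro ⟨⟨d, b⟩, γ⟩ ⟨hd, hc⟩
    simp only at hd hc
    cases γ with
    | false =>
      rw [B2_false]
      exact Ψ2 d b hd
    | true =>
      rw [B2_true]
      exact Ψt (d, b)
  · rintro ⟨⟨d, b⟩, γ⟩ hm
    rcases hm with ⟨hγ, hE⟩ | ⟨hγ, hG', hc⟩
    · simp only at hγ hE
      subst hγ
      rw [B0_false]
      simp only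
      rw [ΨE _ hE, ΨE _ (hEs _ hE)]
      simp only
      rw [χe d (K.s d) b hE (Conn.refl _ _ _).s]
      simp only [hω]
      have e1 := x1 (d, b) (hEF _ _ hE)
      simp only at e1
      rw [e1]
      have e2 : θ' ((d, b), false) + χ₀ ((d, b), false) + χ (e d, b) + (θ' ((K.s d, b), false) +
        χ₀ ((d, b), false) + χ (e d, b)) = θ' ((d, b), false) + θ' ((K.s d, b), false) +
        (χ₀ ((d, b), false) + χ₀ ((d, b), false)) + (χ (e d, b) + χ (e d, b)) := by ring
      rw [e2, z2, z2, add_zero, add_zero]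
    · simp only at hγ hG' hc
      subst hγ
      rw [B0_true]
      simp only
      have hE := hGE _ hG'
      simp only at hE
      have hGm := hG.mu _ hG' hc
      have hEm := hGE _ hGm
      have hcm := K.cut_mu (d, b) hc
      rw [ΨE _ hE, ΨE _ hEm]
      simp only
      -- the two ends of the arc lie on the same disc
      have h7 := hdisc (fun m => χ (e m.1, m.2))
        (fun m hm => χe m.1 (K.s m.1) m.2 (hGE _ hm) (Conn.refl _ _ _).s)
        (fun m hm => χe m.1 (K.t m.1) m.2 (hGE _ hm) (Conn.refl _ _ _).t)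
        (by
          intro m hm hp
          rw [χeP _ _ (hGE _ hm) hp, χeP _ _ (hGE _ (hG.r _ hm hp)) (K.t_r _ hp)]
          simp only [hχ]
          have hFm : F m := hEF m.1 m.2 (hGE _ hm)
          have e1 := p1 m ⟨hFS _ hFm, hp⟩
          have e2 := ωr m hFm hp
          simp only [Prod.mk.eta]
          rw [e1, e2])
        (d, b) hG' hc
      rw [h7]
      simp only [hω]
      have e1 := x2 (d, b) (hEF _ _ hE) hc
      have e2 := x3 (d, b) (hEF _ _ hE) hc
      have e3 := x3 _ (hEF _ (K.mu (d, b)).2 hEm) hcm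
      have e4 := c1 (d, b) (hEF _ _ hE) hc
      have e5 := c1 _ (hEF _ (K.mu (d, b)).2 hEm) hcm
      simp only [Prod.mk.eta] at e3 e5
      rw [← e2, ← e3, e1, e4, e5, e2]
      have e6 : θ' ((d, b), false) + χ₀ ((d, b), false) + χ (e d, b) + (θ' (K.mu (d, b), false) +
        χ₀ ((d, b), false) + χ (e d, b)) = θ' ((d, b), false) + θ' (K.mu (d, b), false) +
        (χ₀ ((d, b), false) + χ₀ ((d, b), false)) + (χ (e d, b) + χ (e d, b)) := by ring
      rw [e6, z2, z2, add_zero, add_zero]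

/-- **(T1) refinement**: `H¹ = 0` for the chords implies `H¹ = 0` for the fine surface -/
theorem fine_of_coarse [Finite D] (hS : K.Sheet S)
    (hend : ∀ d, S d → ∃ p, Conn K.s K.t d p ∧ K.t p = p)
    (hdisc : K.SameDisc (fun m => S m.1)) (htree : K.Tree (fun m => S m.1))
    (h : K.coarse S) : K.fine S := by
  classical
  have hD : K.Discs (fun m => S m.1) := ⟨fun m hm => hS.s _ hm, fun m hm => hS.t _ hm,
    fun m hm hp => hS.r _ hm hp, fun m hm hc => hS.mu _ hm hc⟩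
  have h0 : ∀ m, K.CS S m → K.CS S (K.A0 m) := fun m hm =>
    ⟨(conn_pr _ _ _).mem hS.s hS.t hm.1, t_pr K.s_s K.t_t K.s_ne hm.2⟩
  have h2 : ∀ m, K.CS S m → K.CS S (A2 m) := fun m hm => hm
  have key := fine_of_coarse_rel hS hD hD (fun m hm => hm) (fun d hd => hS.s d hd)
    (fun d hd => hS.t d hd) (fun d b hd => hd) (fun m hm => hm) hend hdisc htree (h.toH1r h0 h2)
  apply H1r.toH1
  apply key.mono
  · rintro m hm; exact hm
  · rintro ⟨⟨d, b⟩, γ⟩ ⟨hm, hc⟩
    cases γ with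
    | false => exact Or.inl ⟨rfl, hm⟩
    | true => exact Or.inr ⟨rfl, hm, hc rfl⟩

end Pic

end Crest.Agent.R096.Tig_438
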