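import Crest.Agent.R096.Tig4_438
import Crest.Agent.R096.Wk3_689

/-! Row 96, P3-TIGHT (helper438), part 5: the picture of a state `s`, arcs `A` and a closed set
`G` of double points: cells of a face, the other face, the twist of an arc, `r`, `mu`. -/

set_option autoImplicit false

namespace Crest.Agent.R096.Tig_438

open St_147 Wk_689 Classical

variable {ι Φ W I : Type} {M : MeshC ι Φ W} {col : I → Bool} {s : St M col}

/-! ### the mesh -/

/-- the two cells of a face -/
noncomputable def cellOf (M : MeshC ι Φ W) (F : Φ) (β : Bool) : ι :=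
  if β = true then (Quot.out (M.side F)).1 else (Quot.out (M.side F)).2

theorem side_eq (F : Φ) : M.side F = s(cellOf M F true, cellOf M F false) := by
  have h := Quot.out_eq (M.side F)
  simp only [cellOf, if_true]
  exact h.symm

theorem mem_side {F : Φ} {q : ι} : q ∈ M.side F ↔ q = cellOf M F true ∨ q = cellOf M F false := by
  rw [side_eq F, Sym2.mem_iff]

theorem cellOf_mem (F : Φ) (β : Bool) : cellOf M F β ∈ M.side F := by
  rw [mem_side]; cases β
  · exact Or.inr rfl
  · exact Or.inl rfl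

theorem cellOf_ne (F : Φ) : cellOf M F true ≠ cellOf M F false := by
  intro h
  apply M.side_nd F
  rw [side_eq F, h]
  exact (Sym2.mk_isDiag_iff).2 rfl

/-- which cell of the face -/
noncomputable def sb (M : MeshC ι Φ W) (F : Φ) (q : ι) : Bool := decide (cellOf M F true = q)

theorem sb_cellOf (F : Φ) (β : Bool) : sb M F (cellOf M F β) = β := by
  unfold sb
  cases β
  · simp [cellOf_ne]
  · simp

theorem cellOf_sb {F : Φ} {q : ι} (h : q ∈ M.side F) : cellOf M F (sb M F q) = q := by
  rcases mem_side.1 h with h | h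
  · rw [h, sb_cellOf]
  · rw [h, sb_cellOf]

theorem cellOf_not_ne (F : Φ) (β : Bool) : cellOf M F (!β) ≠ cellOf M F β := by
  cases β
  · exact cellOf_ne F
  · exact (cellOf_ne F).symm

/-- the other face of the cell `q` at `w` -/
noncomputable def oth (M : MeshC ι Φ W) (q : ι) (w : W) (F : Φ) : Φ :=
  if h : ∃ F', F' ≠ F ∧ q ∈ M.side F' ∧ w ∈ M.On F' then h.choose else F

theorem oth_spec {q : ι} {w : W} {F : Φ} (hq : q ∈ M.side F) (hw : w ∈ M.On F) :
    oth M q w F ≠ F ∧ q ∈ M.side (oth M q w F) ∧ w ∈ M.On (oth M q w F) := by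
  have h : ∃ F', F' ≠ F ∧ q ∈ M.side F' ∧ w ∈ M.On F' := by
    rcases M.deg q w with h0 | h0
    · exfalso
      have hfin : {F | q ∈ M.side F ∧ w ∈ M.On F}.Finite :=
        (M.fin w).subset fun F h => h.2
      rw [Set.ncard_eq_zero hfin] at h0
      have : F ∈ {F | q ∈ M.side F ∧ w ∈ M.On F} := ⟨hq, hw⟩
      rw [h0] at this
      exact this
    · obtain ⟨a, b, hab, he⟩ := Set.ncard_eq_two.1 h0
      have hF : F ∈ {F | q ∈ M.side F ∧ w ∈ M.On F} := ⟨hq, hw⟩
      have ha : a ∈ {F | q ∈ M.side F ∧ w ∈ M.On F} := by rw [he]; simp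
      have hb : b ∈ {F | q ∈ M.side F ∧ w ∈ M.On F} := by rw [he]; simp
      rw [he] at hF
      rcases hF with h1 | h1
      · exact ⟨b, fun h2 => hab (by rw [← h1, h2]), hb.1, hb.2⟩
      · exact ⟨a, fun h2 => hab (by rw [h2]; exact h1), ha.1, ha.2⟩
  unfold oth
  rw [dif_pos h]
  exact h.choose_spec

theorem oth_unique {q : ι} {w : W} {F F' : Φ} (hq : q ∈ M.side F) (hw : w ∈ M.On F)
    (hq' : q ∈ M.side F') (hw' : w ∈ M.On F') (hne : F' ≠ F) : F' = oth M q w F := by
  obtain ⟨h1, h2, h3⟩ := oth_spec hq hw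
  rcases M.deg q w with h0 | h0
  · exfalso
    have hfin : {F | q ∈ M.side F ∧ w ∈ M.On F}.Finite := (M.fin w).subset fun F h => h.2
    rw [Set.ncard_eq_zero hfin] at h0
    have : F ∈ {F | q ∈ M.side F ∧ w ∈ M.On F} := ⟨hq, hw⟩
    rw [h0] at this
    exact this
  · obtain ⟨a, b, hab, he⟩ := Set.ncard_eq_two.1 h0
    have e1 : F ∈ {F | q ∈ M.side F ∧ w ∈ M.On F} := ⟨hq, hw⟩
    have e2 : F' ∈ {F | q ∈ M.side F ∧ w ∈ M.On F} := ⟨hq', hw'⟩
    have e3 : oth M q w F ∈ {F | q ∈ M.side F ∧ w ∈ M.On F} := ⟨h2, h3⟩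
    rw [he] at e1 e2 e3
    simp only [Set.mem_insert_iff, Set.mem_singleton_iff] at e1 e2 e3
    rcases e1 with e1 | e1 <;> rcases e2 with e2 | e2 <;> rcases e3 with e3 | e3
    · exact absurd (e2.trans e1.symm) hne
    · exact absurd (e2.trans e1.symm) hne
    · exact absurd (e3.trans e1.symm) h1
    · rw [e2, e3]
    · rw [e2, e3]
    · exact absurd (e3.trans e1.symm) h1
    · exact absurd (e2.trans e1.symm) hne
    · exact absurd (e2.trans e1.symm) hne

theorem oth_oth {q : ι} {w : W} {F : Φ} (hq : q ∈ M.side F) (hw : w ∈ M.On F) :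
    oth M q w (oth M q w F) = F := by
  obtain ⟨h1, h2, h3⟩ := oth_spec hq hw
  exact (oth_unique h2 h3 hq hw h1.symm).symm

/-! ### the twist of an arc -/

variable {Act : Set ι}

/-- `g` is continuous at the points of `P` on the boundary of the cell `q` -/
def ContP (s : St M col) (q : ι) {x : Bool} (g : s.Sub x → ZMod 2) : Prop :=
  ∀ (F F' : Φ) (w : W) (p p' : s.Sub x), q ∈ M.side F → q ∈ M.side F' →
    p.End F w → p'.End F' w → g p = g p'

/-- jump of `g` at `z` -/
noncomputable def jmp {x : Bool} (g : s.Sub x → ZMod 2) (z : s.Dbl) : ZMod 2 :=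
  g (bel z x) + g (abv z x)

theorem jmp_eq_zero {x : Bool} {g : s.Sub x → ZMod 2} {z : s.Dbl} :
    jmp g z = 0 ↔ g (bel z x) = g (abv z x) := by
  unfold jmp
  exact CharTwo.add_eq_zero

theorem z2_cases (a : ZMod 2) : a = 0 ∨ a = 1 := by
  revert a; decide

theorem jmp_eq_one {x : Bool} {g : s.Sub x → ZMod 2} {z : s.Dbl} :
    jmp g z = 1 ↔ g (bel z x) ≠ g (abv z x) := by
  rw [Ne, ← jmp_eq_zero]
  constructor
  · intro h h'; rw [h] at h'; exact one_ne_zero h'
  · intro h
    rcases z2_cases (jmp g z) with h1 | h1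
    · exact absurd h1 h
    · exact h1

variable (A : s.Arcs Act)

/-- the side function of the arc at `z` -/
theorem exists_sf {q : ι} {z : s.Dbl} (x : Bool) (hq : q ∈ Act) (hz : q ∈ M.side z.F) :
    ∃ g : s.Sub x → ZMod 2, ContP s q g ∧
      (∀ u : s.Dbl, q ∈ M.side u.F → jmp g u = if u = z ∨ u = A.arc q z then 1 else 0) ∧
      ∀ u : s.Dbl, q ∈ M.side u.F → u ≠ z → u ≠ A.arc q z →
        g (abv u x) = g (abv (A.arc q u) x) := by
  obtain ⟨φ, h1, h2, h3⟩ := A.side x hq hz
  refine ⟨φ, h1, fun u hu => ?_, h3⟩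
  have h4 := h2 u (bel u x) (abv u x) hu (bel_spec u x) rfl
  by_cases h : u = z ∨ u = A.arc q z
  · rw [if_pos h, jmp_eq_one]; exact h4.2 h
  · rw [if_neg h, jmp_eq_zero]
    by_contra h5
    exact h (h4.1 h5)

theorem same' {q : ι} {z : s.Dbl} {x : Bool} (hq : q ∈ Act) (hz : q ∈ M.side z.F)
    {g : s.Sub x → ZMod 2} (hg : ContP s q g) (hj : ∀ u : s.Dbl, q ∈ M.side u.F → jmp g u = 0) :
    g (abv z x) = g (abv (A.arc q z) x) := by
  refine A.same x hq hz g hg fun u p p' hu hp hp' => ?_
  have h1 := below_iff.1 hp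
  have h2 : p' = abv u x := hp'
  rw [h1, h2]
  exact jmp_eq_zero.1 (hj u hu)

/-- the side function -/
noncomputable def sf (q : ι) (z : s.Dbl) (x : Bool) : s.Sub x → ZMod 2 :=
  if h : q ∈ Act ∧ q ∈ M.side z.F then (exists_sf A x h.1 h.2).choose else 0

theorem sf_spec {q : ι} {z : s.Dbl} (x : Bool) (hq : q ∈ Act) (hz : q ∈ M.side z.F) :
    ContP s q (sf A q z x) ∧
      (∀ u : s.Dbl, q ∈ M.side u.F → jmp (sf A q z x) u = if u = z ∨ u = A.arc q z then 1 else 0) ∧
      ∀ u : s.Dbl, q ∈ M.side u.F → u ≠ z → u ≠ A.arc q z →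
        (sf A q z x) (abv u x) = (sf A q z x) (abv (A.arc q u) x) := by
  unfold sf
  rw [dif_pos (⟨hq, hz⟩ : q ∈ Act ∧ q ∈ M.side z.F)]
  exact (exists_sf A x hq hz).choose_spec

/-- the twist of the arc: `true` if "below `z`" and "above `arc q z`" are on the same side -/
noncomputable def tw (q : ι) (z : s.Dbl) (x : Bool) : Bool :=
  decide (sf A q z x (bel z x) ≠ sf A q z x (bel (A.arc q z) x))

theorem b2_iff {a b : ZMod 2} : a + b = 0 ↔ a = b := CharTwo.add_eq_zero

/-- value of a Boolean in `Z/2` -/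
def bz (b : Bool) : ZMod 2 := if b = true then 1 else 0

@[simp] theorem bz_true : bz true = 1 := rfl
@[simp] theorem bz_false : bz false = 0 := rfl

theorem bz_xor (a b : Bool) : bz (a ^^ b) = bz a + bz b := by
  cases a <;> cases b <;> simp
  decide

theorem bz_inj {a b : Bool} (h : bz a = bz b) : a = b := by
  cases a <;> cases b <;> simp_all

theorem bz_not (a : Bool) : bz (!a) = bz a + 1 := by
  cases a
  · simp
  · simp; decide

theorem tw_spec (q : ι) (z : s.Dbl) (x : Bool) :
    bz (tw A q z x) = sf A q z x (bel z x) + sf A q z x (bel (A.arc q z) x) := by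
  unfold tw
  by_cases h : sf A q z x (bel z x) = sf A q z x (bel (A.arc q z) x)
  · rw [h, z2s]; simp
  · have h1 : sf A q z x (bel z x) + sf A q z x (bel (A.arc q z) x) = 1 := by
      rcases z2_cases (sf A q z x (bel z x) + sf A q z x (bel (A.arc q z) x)) with h2 | h2
      · exact absurd (b2_iff.1 h2) h
      · exact h2
    rw [h1]
    simp [h]
where
  z2s {a : ZMod 2} : a + a = 0 := CharTwo.add_self_eq_zero a

theorem sum_aux (a b c d : ZMod 2) (h : a + b = c + d) : a + c = b + d := by
  have : a + c + (b + d) = (a + b) + (c + d) := by ring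
  rw [h, CharTwo.add_self_eq_zero] at this
  exact CharTwo.add_eq_zero.1 this

/-- every function which jumps exactly at the two ends of the arc sees the twist -/
theorem tw_eq {q : ι} {z : s.Dbl} {x : Bool} (hq : q ∈ Act) (hz : q ∈ M.side z.F)
    {g : s.Sub x → ZMod 2} (hg : ContP s q g)
    (hj : ∀ u : s.Dbl, q ∈ M.side u.F → jmp g u = if u = z ∨ u = A.arc q z then 1 else 0) :
    bz (tw A q z x) = g (bel z x) + g (bel (A.arc q z) x) := by
  obtain ⟨h1, h2, -⟩ := sf_spec A x hq hz
  rw [tw_spec]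
  set f := sf A q z x with hf
  have hz' : q ∈ M.side (A.arc q z).F := A.mem hq hz
  have hc : ContP s q (fun p => f p + g p) := fun F F' w p p' e1 e2 e3 e4 => by
    simp only [h1 F F' w p p' e1 e2 e3 e4, hg F F' w p p' e1 e2 e3 e4]
  have hj0 : ∀ u : s.Dbl, q ∈ M.side u.F → jmp (fun p => f p + g p) u = 0 := fun u hu => by
    have e1 := h2 u hu
    have e2 := hj u hu
    unfold jmp at e1 e2 ⊢
    have : f (bel u x) + g (bel u x) + (f (abv u x) + g (abv u x)) =
      (f (bel u x) + f (abv u x)) + (g (bel u x) + g (abv u x)) := by ring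
    rw [this, e1, e2, CharTwo.add_self_eq_zero]
  have h3 := same' A hq hz hc hj0
  have h4 := jmp_eq_zero.1 (hj0 z hz)
  have h5 := jmp_eq_zero.1 (hj0 _ hz')
  have h6 : f (bel z x) + g (bel z x) = f (bel (A.arc q z) x) + g (bel (A.arc q z) x) := by
    rw [h4, h5, h3]
  exact sum_aux _ _ _ _ h6

theorem tw_arc {q : ι} {z : s.Dbl} {x : Bool} (hq : q ∈ Act) (hz : q ∈ M.side z.F) :
    tw A q (A.arc q z) x = tw A q z x := by
  have hz' : q ∈ M.side (A.arc q z).F := A.mem hq hz
  obtain ⟨h1, h2, -⟩ := sf_spec A x hq hz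
  have h3 := tw_eq A (z := A.arc q z) hq hz' h1 (fun u hu => by
    rw [h2 u hu, A.inv hq hz]
    congr 1
    exact propext or_comm)
  apply bz_inj
  rw [h3, tw_spec, A.inv hq hz, add_comm]

/-- a function without jump at `z`, `arc q z` and with jumps at other arcs only (the same at both
ends) has the same value at `z` and `arc q z` -/
theorem val_arc [Finite s.Dbl] {q : ι} {z : s.Dbl} {x : Bool} (hq : q ∈ Act) (hz : q ∈ M.side z.F)
    {g : s.Sub x → ZMod 2} (hg : ContP s q g)
    (hj : ∀ u : s.Dbl, q ∈ M.side u.F → jmp g (A.arc q u) = jmp g u) (hjz : jmp g z = 0) :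
    g (abv z x) = g (abv (A.arc q z) x) := by
  have _ : Fintype s.Dbl := Fintype.ofFinite _
  obtain ⟨n, ⟨e⟩⟩ := Finite.exists_equiv_fin s.Dbl
  -- one representative of every arc
  set R : s.Dbl → Prop := fun u => q ∈ M.side u.F ∧ e u < e (A.arc q u) with hR
  set f : s.Sub x → ZMod 2 := fun p => g p +
    ∑ u : s.Dbl, (if R u then jmp g u * sf A q u x p else 0) with hf
  have hc : ContP s q f := by
    intro F F' w p p' e1 e2 e3 e4
    simp only [hf, hg F F' w p p' e1 e2 e3 e4]
    congr 1
    refine Finset.sum_congr rfl fun u _ => ?_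
    by_cases hu : R u
    · rw [if_pos hu, if_pos hu, (sf_spec A x hq hu.1).1 F F' w p p' e1 e2 e3 e4]
    · rw [if_neg hu, if_neg hu]
  have hj0 : ∀ v : s.Dbl, q ∈ M.side v.F → jmp f v = 0 := by
    intro v hv
    have e1 : jmp f v = jmp g v + ∑ u : s.Dbl, (if R u then jmp g u * jmp (sf A q u x) v else 0) := by
      show f (bel v x) + f (abv v x) = (g (bel v x) + g (abv v x)) +
        ∑ u : s.Dbl, (if R u then jmp g u * (sf A q u x (bel v x) + sf A q u x (abv v x)) else 0)
      simp only [hf]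
      have : ∀ a b c d : ZMod 2, a + b + (c + d) = (a + c) + (b + d) := fun a b c d => by ring
      rw [this, ← Finset.sum_add_distrib]
      congr 1
      refine Finset.sum_congr rfl fun u _ => ?_
      by_cases hu : R u
      · simp only [if_pos hu]; ring
      · simp only [if_neg hu]; simp
    rw [e1]
    have e2 : ∀ u : s.Dbl, (if R u then jmp g u * jmp (sf A q u x) v else 0) =
        if R u ∧ (v = u ∨ v = A.arc q u) then jmp g v else 0 := by
      intro u
      by_cases hu : R u
      · rw [if_pos hu, (sf_spec A x hq hu.1).2.1 v hv]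
        by_cases hvu : v = u ∨ v = A.arc q u
        · rw [if_pos hvu, if_pos ⟨hu, hvu⟩, mul_one]
          rcases hvu with h | h
          · rw [h]
          · rw [h, hj u hu.1]
        · rw [if_neg hvu, if_neg (fun h => hvu h.2), mul_zero]
      · rw [if_neg hu, if_neg (fun h => hu h.1)]
    rw [Finset.sum_congr rfl fun u _ => e2 u]
    have hav := A.mem hq hv
    have hne := A.ne hq hv
    -- exactly one representative
    have e3 : ∑ u : s.Dbl, (if R u ∧ (v = u ∨ v = A.arc q u) then jmp g v else 0) = jmp g v := by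
      rcases lt_or_gt_of_ne (fun h => hne (e.injective h).symm : e v ≠ e (A.arc q v)) with h | h
      · rw [Finset.sum_eq_single v]
        · rw [if_pos ⟨⟨hv, h⟩, Or.inl rfl⟩]
        · intro u _ hu
          rw [if_neg]
          rintro ⟨⟨h1, h2⟩, h3 | h3⟩
          · exact hu h3.symm
          · have h4 : A.arc q v = u := by rw [h3, A.inv hq h1]
            rw [← h3, ← h4] at h2
            exact lt_asymm h h2
        · intro h1; exact absurd (Finset.mem_univ _) h1
      · rw [Finset.sum_eq_single (A.arc q v)]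
        · rw [if_pos ⟨⟨hav, by rw [A.inv hq hv]; exact h⟩, Or.inr (A.inv hq hv).symm⟩]
        · intro u _ hu
          rw [if_neg]
          rintro ⟨⟨h1, h2⟩, h3 | h3⟩
          · rw [← h3] at h2
            exact lt_asymm h h2
          · exact hu (by rw [h3, A.inv hq h1])
        · intro h1; exact absurd (Finset.mem_univ _) h1
    rw [e3, CharTwo.add_self_eq_zero]
  have h1 := same' A hq hz hc hj0
  simp only [hf] at h1
  have hz' := A.mem hq hz
  have h2 : ∀ u : s.Dbl, (if R u then jmp g u * sf A q u x (abv z x) else 0) =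
      if R u then jmp g u * sf A q u x (abv (A.arc q z) x) else 0 := by
    intro u
    by_cases hu : R u
    · rw [if_pos hu, if_pos hu]
      by_cases h3 : z = u ∨ z = A.arc q u
      · have h4 : jmp g u = 0 := by
          rcases h3 with h3 | h3
          · rw [← h3]; exact hjz
          · rw [← hj u hu.1, ← h3]; exact hjz
        rw [h4, zero_mul, zero_mul]
      · push Not at h3
        rw [(sf_spec A x hq hu.1).2.2 z hz h3.1 h3.2]
    · rw [if_neg hu, if_neg hu]
  rw [Finset.sum_congr rfl fun u _ => h2 u] at h1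
  exact add_right_cancel h1

end Crest.Agent.R096.Tig_438
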