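import Crest.Agent.R096.Tig5_438

/-! Row 96, P3-TIGHT (helper438), part 6: the picture of a state. -/

set_option autoImplicit false

namespace Crest.Agent.R096.Tig_438

open St_147 Wk_689 Classical

variable {ι Φ W I : Type} {M : MeshC ι Φ W} {col : I → Bool} {s : St M col} {Act : Set ι}

/-- the piece of colour `x` at `z`: `b = true` below, `b = false` above -/
noncomputable def pc (z : s.Dbl) (x : Bool) : Bool → s.Sub x
  | true => bel z x
  | false => abv z x

theorem dz_eq (z : s.Dbl) (x b : Bool) : dz z x b = ⟨x, pc z x b, b⟩ := by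
  cases b <;> rfl

theorem pc_jmp {x : Bool} (g : s.Sub x → ZMod 2) (z : s.Dbl) (b : Bool) :
    g (pc z x b) + g (pc z x (!b)) = jmp g z := by
  cases b
  · show g (abv z x) + g (bel z x) = g (bel z x) + g (abv z x)
    exact add_comm _ _
  · rfl

theorem pc_val {x : Bool} (g : s.Sub x → ZMod 2) (z : s.Dbl) (b : Bool) :
    g (pc z x b) = g (abv z x) + bz b * jmp g z := by
  cases b
  · show g (abv z x) = _
    simp
  · show g (bel z x) = g (abv z x) + 1 * (g (bel z x) + g (abv z x))
    rw [one_mul, ← add_assoc, add_comm (g (abv z x)) (g (bel z x)), add_assoc,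
      CharTwo.add_self_eq_zero, add_zero]

variable (A : s.Arcs Act)

/-- a function on the pieces of the boundary of `q`, continuous at `P` and with the same jump at
the two ends of every arc, is the same on corresponding sides of the two ends of an arc -/
theorem val_mu {q : ι} {z : s.Dbl} {x : Bool} (hq : q ∈ Act) (hz : q ∈ M.side z.F)
    {g : s.Sub x → ZMod 2} (hg : ContP s q g)
    (hj : ∀ u : s.Dbl, q ∈ M.side u.F → jmp g (A.arc q u) = jmp g u) (b : Bool) :
    g (pc (A.arc q z) x (b ^^ tw A q z x)) = g (pc z x b) := by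
  obtain ⟨h1, h2, h3⟩ := sf_spec A x hq hz
  set f := sf A q z x with hf
  have hz' := A.mem hq hz
  set c := jmp g z with hc
  have hjf : ∀ u : s.Dbl, jmp (fun p => g p + c * f p) u = jmp g u + c * jmp f u := by
    intro u
    unfold jmp; ring
  have h4 := val_arc A (x := x) (g := fun p => g p + c * f p) hq hz
    (fun F F' w p p' e1 e2 e3 e4 => by
      simp only [hg F F' w p p' e1 e2 e3 e4, h1 F F' w p p' e1 e2 e3 e4])
    (fun u hu => by
      rw [hjf, hjf, hj u hu, h2 u hu, h2 _ (A.mem hq hu)]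
      congr 2
      have : (A.arc q u = z ∨ A.arc q u = A.arc q z) ↔ (u = z ∨ u = A.arc q z) := by
        constructor
        · rintro (h | h)
          · right; rw [← h, A.inv hq hu]
          · left
            have := congrArg (A.arc q) h
            rwa [A.inv hq hu, A.inv hq hz] at this
        · rintro (h | h)
          · right; rw [h]
          · left; rw [h, A.inv hq hz]
      simp only [this])
    (by
      rw [hjf, h2 z hz, if_pos (Or.inl rfl), mul_one, ← hc, CharTwo.add_self_eq_zero])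
  -- the side function at the two ends
  have h5 : bz (tw A q z x) = f (bel z x) + f (bel (A.arc q z) x) := tw_spec A q z x
  have h6 : jmp f z = 1 := by rw [h2 z hz, if_pos (Or.inl rfl)]
  have h7 : jmp f (A.arc q z) = 1 := by rw [h2 _ hz', if_pos (Or.inr rfl)]
  have h8 : jmp g (A.arc q z) = c := hj z hz
  rw [pc_val g (A.arc q z), pc_val g z b, h8, ← hc, bz_xor, h5]
  have h9 : f (bel z x) = 1 + f (abv z x) := by
    rw [← h6]; unfold jmp
    rw [add_assoc, CharTwo.add_self_eq_zero, add_zero]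
  have h10 : f (bel (A.arc q z) x) = 1 + f (abv (A.arc q z) x) := by
    rw [← h7]; unfold jmp
    rw [add_assoc, CharTwo.add_self_eq_zero, add_zero]
  rw [h9, h10]
  have h11 : g (abv (A.arc q z) x) = g (abv z x) + c * f (abv z x) +
      c * f (abv (A.arc q z) x) := by
    rw [h4, add_assoc, CharTwo.add_self_eq_zero, add_zero]
  rw [h11]
  have h12 : (2 : ZMod 2) = 0 := by decide
  linear_combination (c * f (abv z x) + c * f (abv (A.arc q z) x) + c) * h12

/-! ### the walk along a chord -/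

omit A in
theorem conn_down (d : Dart s) : ∃ p : Dart s, node p = none ∧ p.b = false ∧ p.x = d.x ∧
    chd p.p = chd d.p ∧ ∀ inn, Conn flip (tt (∅ : Set s.Dbl) inn) d p := by
  obtain ⟨x, p, b⟩ := d
  -- enough for the lower dart of the piece
  suffices h : ∀ n : ℕ, ∀ p : s.Sub x, Set.ncard {u : s.Dbl | chd (Sum.inr u : s.Sub x) = chd p ∧
      u.key x ≤ start p} = n →
      ∃ p' : Dart s, node p' = none ∧ p'.b = false ∧ p'.x = x ∧ chd p'.p = chd p ∧
        ∀ inn, Conn flip (tt (∅ : Set s.Dbl) inn) ⟨x, p, false⟩ p' by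
    obtain ⟨p', h1, h2, h3, h4, h5⟩ := h _ p rfl
    refine ⟨p', h1, h2, h3, h4, fun inn => ?_⟩
    cases b
    · exact h5 inn
    · exact (Conn.refl _ _ _).s.trans (h5 inn)
  intro n
  induction n using Nat.strong_induction_on with
  | _ n ih =>
    intro p hp
    cases p with
    | inl a => exact ⟨⟨x, Sum.inl a, false⟩, rfl, rfl, rfl, rfl, fun inn => Conn.refl _ _ _⟩
    | inr z =>
      have hb := below_start (bel_spec z x)
      have hbc : chd (bel z x) = chd (Sum.inr z : s.Sub x) := below_chd (bel_spec z x)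
      have hlt : Set.ncard {u : s.Dbl | chd (Sum.inr u : s.Sub x) = chd (bel z x) ∧
          u.key x ≤ start (bel z x)} < n := by
        rw [← hp]
        apply Set.ncard_lt_ncard
        · refine ⟨fun u hu => ⟨hu.1.trans hbc, hu.2.trans hb.1.le⟩, fun hsub => ?_⟩
          have hz : z ∈ {u : s.Dbl | chd (Sum.inr u : s.Sub x) = chd (Sum.inr z : s.Sub x) ∧
            u.key x ≤ start (Sum.inr z : s.Sub x)} := ⟨rfl, le_rfl⟩
          exact absurd (hsub hz).2 (not_le.2 hb.1)
        · exact Set.toFinite _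
      obtain ⟨p', h1, h2, h3, h4, h5⟩ := ih _ hlt (bel z x) rfl
      refine ⟨p', h1, h2, h3, h4.trans hbc, fun inn => ?_⟩
      have e1 : tt (∅ : Set s.Dbl) inn (⟨x, Sum.inr z, false⟩ : Dart s) = ⟨x, bel z x, true⟩ := by
        have := tt_dz_out (G := (∅ : Set s.Dbl)) (inn := inn) (z := z) (Set.notMem_empty z) x false
        exact this
      have e2 : Conn flip (tt (∅ : Set s.Dbl) inn) (⟨x, Sum.inr z, false⟩ : Dart s)
          ⟨x, bel z x, true⟩ := by
        have := (Conn.refl flip (tt (∅ : Set s.Dbl) inn) (⟨x, Sum.inr z, false⟩ : Dart s)).t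
        rwa [e1] at this
      exact (e2.s).trans (h5 inn)

omit A in
/-- all darts of one chord are connected by the straight walk -/
theorem conn_chd {d d' : Dart s} (_hx : d.x = d'.x) (hc : chd d.p = chd d'.p)
    (inn : s.Dbl → Bool → Bool) : Conn flip (tt (∅ : Set s.Dbl) inn) d d' := by
  obtain ⟨p, h1, h2, h3, h4, h5⟩ := conn_down d
  obtain ⟨p', h1', h2', h3', h4', h5'⟩ := conn_down d'
  have hpp : p = p' := by
    apply ed_unique h1 h1'
    · show (chd p.p).1 = (chd p'.p).1
      rw [h4, h4', hc]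
    · unfold pt
      rw [h2, h2']
      show (chd p.p).2 = (chd p'.p).2
      rw [h4, h4', hc]
  rw [← hpp] at h5'
  exact (h5 inn).trans ((h5' inn).symm flip_flip tt_tt)

omit A in
/-- the chord of a dart from its end point -/
theorem chd_dart (d : Dart s) : chd d.p = (fc d, s.lo (fc d) (pt d)) := by
  obtain ⟨x, p, b⟩ := d
  apply Prod.ext
  · rfl
  · cases b
    · exact (lo_eq_of_lt (chd_low p)).symm
    · exact (lo_mu_of_lt (chd_at p) (chd_low p)).symm

omit A in
/-- the two ends of a chord are connected -/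
theorem conn_ed {F : Φ} {w : W} (h : s.At F w) (h' : s.At F (s.mu F w))
    (inn : s.Dbl → Bool → Bool) : Conn flip (tt (∅ : Set s.Dbl) inn) (ed h) (ed h') := by
  have key : ∀ {F : Φ} {w : W} (h : s.At F w), chd (ed h).p = (F, s.lo F w) := by
    intro F w h
    rw [chd_dart, fc_ed, pt_ed]
  apply conn_chd
  · rw [x_ed, x_ed, s.mu_lab h.1 h.2]
  · rw [key, key]
    have : s.lo F (s.mu F w) = s.lo F w := by
      rcases lt_or_gt_of_ne (pos_ne s h h' (fun h'' => s.mu_ne h.1 h.2 h''.symm)) with hl | hl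
      · rw [lo_mu_of_lt h hl, lo_eq_of_lt hl]
      · have e1 : M.pos F (s.mu F w) < M.pos F (s.mu F (s.mu F w)) := by
          rw [s.mu_mu h.1 h.2]; exact hl
        have e2 := lo_mu_of_lt h' e1
        rw [s.mu_mu h.1 h.2] at e2
        rw [lo_eq_of_lt e1, e2]
    rw [this]

omit A in
instance finite_sub (x : Bool) : Finite (s.Sub x) := by
  have hfin : {F : Φ | ∃ w ∈ s.P, w ∈ M.On F}.Finite := by
    have : {F : Φ | ∃ w ∈ s.P, w ∈ M.On F} = ⋃ w ∈ s.P, {F | w ∈ M.On F} := by
      ext F; simp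
    rw [this]
    exact s.P.finite_toSet.biUnion (fun w _ => M.fin w)
  have := hfin.to_subtype
  have h1 : Finite {p : Φ × W // s.At p.1 p.2 ∧ M.pos p.1 p.2 < M.pos p.1 (s.mu p.1 p.2) ∧
      col (s.lab p.2) = x} := by
    apply Finite.of_injective
      (fun p => ((⟨p.1.1, ⟨p.1.2, p.2.1.1, p.2.1.2⟩⟩, ⟨p.1.2, p.2.1.1⟩) :
        (↥{F : Φ | ∃ w ∈ s.P, w ∈ M.On F}) × {a // a ∈ s.P}))
    intro p p' h
    simp only [Prod.mk.injEq, Subtype.mk.injEq] at h
    exact Subtype.ext (Prod.ext h.1 h.2)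
  unfold St.Sub
  infer_instance

omit A in
instance finite_dart : Finite (Dart s) := by
  apply Finite.of_injective (fun d : Dart s => ((⟨d.x, d.p, d.b⟩ : Σ x : Bool, s.Sub x × Bool)))
  intro d d' h
  obtain ⟨x, p, b⟩ := d
  obtain ⟨x', p', b'⟩ := d'
  simp only [Sigma.mk.injEq] at h
  obtain ⟨h1, h2⟩ := h
  subst h1
  simp only [heq_eq_eq, Prod.mk.injEq] at h2
  rw [h2.1, h2.2]

/-! ### the involutions `r`, `mu` on the flags -/

omit A in
/-- same cell, same point, other face -/
noncomputable def rF (m : Dart s × Bool) : Dart s × Bool :=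
  if h : s.At (oth M (cellOf M (fc m.1) m.2) (pt m.1) (fc m.1)) (pt m.1) then
    (ed h, sb M (oth M (cellOf M (fc m.1) m.2) (pt m.1) (fc m.1)) (cellOf M (fc m.1) m.2)) else m

omit A in
theorem at_oth (m : Dart s × Bool) :
    s.At (oth M (cellOf M (fc m.1) m.2) (pt m.1) (fc m.1)) (pt m.1) :=
  ⟨(pt_at m.1).1, (oth_spec (cellOf_mem _ _) (pt_at m.1).2).2.2⟩

omit A in
theorem rF_eq (m : Dart s × Bool) : rF m = (ed (at_oth m),
    sb M (oth M (cellOf M (fc m.1) m.2) (pt m.1) (fc m.1)) (cellOf M (fc m.1) m.2)) := by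
  unfold rF
  rw [dif_pos (at_oth m)]

omit A in
theorem node_rF (m : Dart s × Bool) : node (rF m).1 = none := by
  rw [rF_eq]; exact node_ed (at_oth m)
omit A in
theorem pt_rF (m : Dart s × Bool) : pt (rF m).1 = pt m.1 := by
  rw [rF_eq]; exact pt_ed (at_oth m)
omit A in
theorem fc_rF (m : Dart s × Bool) :
    fc (rF m).1 = oth M (cellOf M (fc m.1) m.2) (pt m.1) (fc m.1) := by
  rw [rF_eq]; exact fc_ed (at_oth m)
omit A in
theorem cell_rF (m : Dart s × Bool) :
    cellOf M (fc (rF m).1) (rF m).2 = cellOf M (fc m.1) m.2 := by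
  rw [fc_rF, rF_eq]
  exact cellOf_sb (oth_spec (cellOf_mem _ _) (pt_at m.1).2).2.1

omit A in
theorem cellOf_inj {F : Φ} {β β' : Bool} (h : cellOf M F β = cellOf M F β') : β = β' := by
  rw [← sb_cellOf (M := M) F β, h, sb_cellOf]

omit A in
/-- a flag at an end point is determined by its face, point and cell -/
theorem flag_ext {m m' : Dart s × Bool} (h : node m.1 = none) (h' : node m'.1 = none)
    (hf : fc m.1 = fc m'.1) (hp : pt m.1 = pt m'.1)
    (hc : cellOf M (fc m.1) m.2 = cellOf M (fc m'.1) m'.2) : m = m' := by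
  apply Prod.ext
  · exact ed_unique h h' hf hp
  · rw [hf] at hc
    exact cellOf_inj hc

omit A in
theorem rF_rF {m : Dart s × Bool} (h : node m.1 = none) : rF (rF m) = m := by
  apply flag_ext (node_rF _) h
  · rw [fc_rF, cell_rF, pt_rF, fc_rF]
    exact oth_oth (cellOf_mem _ _) (pt_at m.1).2
  · rw [pt_rF, pt_rF]
  · rw [cell_rF, cell_rF]

omit A in
theorem fc_rF_ne (m : Dart s × Bool) : fc (rF m).1 ≠ fc m.1 := by
  rw [fc_rF]
  exact (oth_spec (cellOf_mem _ _) (pt_at m.1).2).1

omit A in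
/-- two flags at the same point with the same cell and different faces are exchanged by `rF` -/
theorem eq_rF {m m' : Dart s × Bool} (h' : node m'.1 = none) (hp : pt m'.1 = pt m.1)
    (hc : cellOf M (fc m'.1) m'.2 = cellOf M (fc m.1) m.2) (hf : fc m'.1 ≠ fc m.1) :
    m' = rF m := by
  apply flag_ext h' (node_rF _)
  · rw [fc_rF]
    refine oth_unique (cellOf_mem _ _) (pt_at m.1).2 ?_ ?_ hf
    · rw [← hc]; exact cellOf_mem _ _
    · rw [← hp]; exact (pt_at m'.1).2
  · rw [pt_rF, hp]
  · rw [cell_rF, hc]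

/-- other end of the arc, same side -/
noncomputable def muF (m : Dart s × Bool) : Dart s × Bool :=
  match node m.1 with
  | none => m
  | some z => (dz (A.arc (cellOf M z.F m.2) z) m.1.x (m.1.b ^^ tw A (cellOf M z.F m.2) z m.1.x),
      sb M (A.arc (cellOf M z.F m.2) z).F (cellOf M z.F m.2))

theorem muF_dz (z : s.Dbl) (x b β : Bool) : muF A (dz z x b, β) =
    (dz (A.arc (cellOf M z.F β) z) x (b ^^ tw A (cellOf M z.F β) z x),
      sb M (A.arc (cellOf M z.F β) z).F (cellOf M z.F β)) := by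
  unfold muF
  simp only [node_dz, dz_x, dz_b]

/-- resolved darts -/
def cutD (G : Set s.Dbl) (d : Dart s) : Prop := ∃ z ∈ G, node d = some z

omit A in
theorem cutD_dz {G : Set s.Dbl} {z : s.Dbl} {x b : Bool} : cutD G (dz z x b) ↔ z ∈ G := by
  unfold cutD
  rw [node_dz]
  constructor
  · rintro ⟨u, hu, h⟩
    rw [Option.some.inj h]; exact hu
  · intro h; exact ⟨z, h, rfl⟩

omit A in
theorem cutD_cases {G : Set s.Dbl} {d : Dart s} (h : cutD G d) :
    ∃ z ∈ G, ∃ x b, d = dz z x b := by
  obtain ⟨z, hz, h⟩ := h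
  exact ⟨z, hz, _, _, eq_dz h⟩

/-- gluing data: `H = ∅` gives the old chords, `H = G` the new ones -/
structure Glue (G H : Set s.Dbl) (inn : s.Dbl → Bool → Bool) : Prop where
  cG : A.Closed G
  cH : A.Closed H
  sub : H ⊆ G
  tw : ∀ z ∈ H, ∀ q ∈ M.side z.F, ∀ x, inn (A.arc q z) x = (inn z x ^^ tw A q z x)

variable {A} {G H : Set s.Dbl} {inn : s.Dbl → Bool → Bool}

theorem Glue.mem_H (h : Glue A G H inn) {z : s.Dbl} {q : ι} (hz : z ∈ G) (hq : q ∈ M.side z.F) :
    A.arc q z ∈ H ↔ z ∈ H := by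
  obtain ⟨h1, h2⟩ := h.cG z hz q hq
  constructor
  · intro h3
    have h4 := (h.cH _ h3 q (A.mem h1 hq)).2
    rwa [A.inv h1 hq] at h4
  · intro h3
    exact (h.cH z h3 q hq).2

theorem glue_empty (hG : A.Closed G) (inn : s.Dbl → Bool → Bool) : Glue A G ∅ inn :=
  ⟨hG, fun z hz => absurd hz (Set.notMem_empty z), Set.empty_subset _,
    fun z hz => absurd hz (Set.notMem_empty z)⟩

/-- **the picture of a state** -/
noncomputable def pic (h : Glue A G H inn) : Pic (Dart s) where
  s := flip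
  t := tt H inn
  r := rF
  cut := cutD G
  mu := muF A
  s_s := flip_flip
  s_ne := flip_ne
  t_t := tt_tt
  r_r := fun m hm => rF_rF (tt_eq_iff.1 hm)
  t_r := fun m _ => tt_none (node_rF m)
  cut_ne := fun d ⟨_, _, hz⟩ => tt_ne hz
  cut_t := by
    intro d hd
    obtain ⟨z, hz, x, b, rfl⟩ := cutD_cases hd
    by_cases hH : z ∈ H
    · rw [tt_dz_in hH, cutD_dz]; exact hz
    · rw [tt_dz_out hH, cutD_dz]; exact hz
  cut_mu := by
    rintro ⟨d, β⟩ hd
    obtain ⟨z, hz, x, b, rfl⟩ := cutD_cases hd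
    rw [muF_dz, cutD_dz]
    exact (h.cG z hz _ (cellOf_mem _ _)).2
  mu_mu := by
    rintro ⟨d, β⟩ hd
    obtain ⟨z, hz, x, b, rfl⟩ := cutD_cases hd
    have hq : cellOf M z.F β ∈ M.side z.F := cellOf_mem _ _
    have hA := (h.cG z hz _ hq).1
    have hq' := A.mem hA hq
    rw [muF_dz, muF_dz, cellOf_sb hq', A.inv hA hq, tw_arc A hA hq, sb_cellOf]
    congr 2
    cases b <;> cases tw A (cellOf M z.F β) z x <;> rfl
  mu_t := by
    rintro ⟨d, β⟩ hd
    obtain ⟨z, hz, x, b, rfl⟩ := cutD_cases hd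
    have hq : cellOf M z.F β ∈ M.side z.F := cellOf_mem _ _
    have hA := (h.cG z hz _ hq).1
    simp only
    by_cases hH : z ∈ H
    · have hH' := (h.mem_H hz hq).2 hH
      rw [tt_dz_in hH, muF_dz, muF_dz]
      simp only
      rw [tt_dz_in hH', h.tw z hH _ hq x, h.tw z hH _ hq (!x)]
      congr 2
      cases b <;> cases inn z x <;> cases inn z (!x) <;> cases tw A (cellOf M z.F β) z x <;>
        cases tw A (cellOf M z.F β) z (!x) <;> rfl
    · have hH' := fun h' => hH ((h.mem_H hz hq).1 h')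
      rw [tt_dz_out hH, muF_dz, muF_dz]
      simp only
      rw [tt_dz_out hH']
      congr 2
      cases b <;> cases tw A (cellOf M z.F β) z x <;> rfl

end Crest.Agent.R096.Tig_438
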