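import Crest.Agent.R096.Tig6_438

/-! Row 96, P3-TIGHT (helper438), part 7: `SameDisc`, `Tree`, and `H¹ = 0` of the refined surface
of a state. -/

set_option autoImplicit false

namespace Crest.Agent.R096.Tig_438

open St_147 Wk_689 Classical

variable {ι Φ W I : Type} {M : MeshC ι Φ W} {col : I → Bool} {s : St M col} {Act : Set ι}
  {A : s.Arcs Act} {G H : Set s.Dbl} {inn : s.Dbl → Bool → Bool}

/-- the end piece is the piece of the end dart -/
theorem end_ed {x : Bool} {p : s.Sub x} {F : Φ} {w : W} (h : p.End F w) :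
    ∃ b, (⟨x, p, b⟩ : Dart s) = ed h.1 := by
  obtain ⟨h0, h1⟩ := h
  rcases h1 with ⟨hl, a, rfl, ha⟩ | ⟨hl, h2⟩
  · refine ⟨false, eq_ed (d := ⟨x, Sum.inl a, false⟩) rfl ?_ ?_ h0⟩
    · show a.1.1 = F
      rw [ha]
    · show a.1.2 = w
      rw [ha]
  · cases p with
    | inl a =>
      obtain ⟨ha, h3⟩ := h2
      have htop : IsTop (Sum.inl a : s.Sub x) := fun z hz => by
        have h4 := below_chd hz
        have h5 : a.1 = (z.F, z.e x) := h4
        rw [ha] at h5
        exact h3 z (Prod.mk.inj h5).1.symm (Prod.mk.inj h5).2.symm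
      refine ⟨true, eq_ed (d := ⟨x, Sum.inl a, true⟩) (nxt_none.2 htop) ?_ ?_ h0⟩
      · show a.1.1 = F
        rw [ha]
      · show s.mu a.1.1 a.1.2 = w
        rw [ha]
        exact s.mu_mu h0.1 h0.2
    | inr z =>
      obtain ⟨hF, he, h3⟩ := h2
      have htop : IsTop (Sum.inr z : s.Sub x) := fun u hu => by
        obtain ⟨e1, e2, e3, -⟩ := hu
        exact h3 u (e1.trans hF) (e2.trans he) e3
      refine ⟨true, eq_ed (d := ⟨x, Sum.inr z, true⟩) (nxt_none.2 htop) ?_ ?_ h0⟩
      · exact hF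
      · show s.mu z.F (z.e x) = w
        rw [hF, he]
        exact s.mu_mu h0.1 h0.2

/-- the piece of an end dart is the end piece -/
theorem ed_end {F : Φ} {w : W} (h : s.At F w) : (ed h).p.End F w := by
  have hn := node_ed h
  have hf := fc_ed h
  have hp := pt_ed h
  rcases hd : ed h with ⟨x, p, b⟩
  rw [hd] at hn hf hp
  show p.End F w
  refine ⟨h, ?_⟩
  cases b with
  | false =>
    left
    have h1 : prv p = none := hn
    have h2 : (chd p).1 = F := hf
    have h3 : (chd p).2 = w := hp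
    have h4 := chd_low p
    rw [h2, h3] at h4
    refine ⟨h4, ?_⟩
    cases p with
    | inl a => exact ⟨a, rfl, Prod.ext h2 h3⟩
    | inr z => exact absurd h1 (by simp [prv])
  | true =>
    right
    have h1 : IsTop p := nxt_none.1 hn
    have h2 : (chd p).1 = F := hf
    have h3 : s.mu (chd p).1 (chd p).2 = w := hp
    have h4 := chd_low p
    have h5 := s.mu_mu (chd_at p).1 (chd_at p).2
    rw [h3, h2] at h4
    rw [h3, h2] at h5
    rw [← h5] at h4
    refine ⟨h4, ?_⟩
    cases p with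
    | inl a =>
      refine ⟨Prod.ext h2 h5.symm, fun u hu he => ?_⟩
      -- the lowest double point of the chord
      have h6 := (top_iff.1 h1) (Sum.inr u) (Prod.ext (hu.trans h2.symm) (he.trans h5))
      have h7 := (key_mem u x).1
      have h8 : M.pos u.F (u.e x) = start (Sum.inl a : s.Sub x) := by
        show _ = M.pos a.1.1 a.1.2
        have e1 : a.1.1 = F := h2
        have e2 : a.1.2 = s.mu F w := h5.symm
        rw [hu, he, e1, e2]
      rw [h8] at h7
      exact absurd h6 (not_le.2 h7)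
    | inr z =>
      refine ⟨h2, h5.symm, fun u hu he hk => ?_⟩
      have h6 := (top_iff.1 h1) (Sum.inr u) (Prod.ext (hu.trans h2.symm) (he.trans h5))
      exact absurd h6 (not_le.2 hk)

/-- the cell of a flag -/
noncomputable def cl (m : Dart s × Bool) : ι := cellOf M (fc m.1) m.2

theorem cl_flip (d : Dart s) (β : Bool) : cl (flip d, β) = cl (d, β) := rfl
theorem cl_tt (d : Dart s) (β : Bool) : cl (tt H inn d, β) = cl (d, β) := by
  unfold cl; rw [fc_tt]
theorem cl_rF (m : Dart s × Bool) : cl (rF m) = cl m := cell_rF m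
theorem cl_dz (z : s.Dbl) (x b β : Bool) : cl (dz z x b, β) = cellOf M z.F β := by
  unfold cl
  show cellOf M (fc (dz z x b)) β = _
  rw [fc_dz]

/-- functions on flags which are invariant under `flip` and `rF` are continuous at `P` -/
theorem contP_of_flags {χ : Dart s × Bool → ZMod 2} (h1 : ∀ m, χ (flip m.1, m.2) = χ m)
    (h3 : ∀ m, node m.1 = none → χ (rF m) = χ m) (q : ι) (x : Bool) :
    ContP s q (fun p : s.Sub x => χ (⟨x, p, false⟩, sb M (chd p).1 q)) := by
  intro F F' w p p' hq hq' hp hp'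
  obtain ⟨b, hb⟩ := end_ed hp
  obtain ⟨b', hb'⟩ := end_ed hp'
  have key : ∀ (p : s.Sub x) (b : Bool) (F : Φ) (h : s.At F w), (⟨x, p, b⟩ : Dart s) = ed h →
      χ (⟨x, p, false⟩, sb M (chd p).1 q) = χ (ed h, sb M F q) := by
    intro p b F h hb
    have hF : (chd p).1 = F := by
      have := fc_ed h
      rw [← hb] at this
      exact this
    rw [hF]
    cases b
    · rw [← hb]
    · rw [← hb]
      exact h1 (⟨x, p, true⟩, sb M F q)
  show χ (⟨x, p, false⟩, sb M (chd p).1 q) = χ (⟨x, p', false⟩, sb M (chd p').1 q)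
  rw [key p b F hp.1 hb, key p' b' F' hp'.1 hb']
  by_cases hF : F' = F
  · subst hF; rfl
  · have : (ed hp'.1, sb M F' q) = rF (ed hp.1, sb M F q) := by
      apply eq_rF (node_ed hp'.1)
      · simp only [pt_ed]
      · simp only [fc_ed]
        rw [cellOf_sb hq, cellOf_sb hq']
      · simp only [fc_ed]
        exact hF
    rw [this, h3 _ (node_ed hp.1)]

/-- (2) -/
theorem sameDisc (h : Glue A G ∅ inn) : (pic h).SameDisc (fun _ => True) := by
  intro χ h1 h2 h3 m _ hc
  obtain ⟨d, β⟩ := m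
  obtain ⟨z, hz, x, b, rfl⟩ := cutD_cases hc
  have hq : cellOf M z.F β ∈ M.side z.F := cellOf_mem _ _
  have hA := (h.cG z hz _ hq).1
  have hq' := A.mem hA hq
  have hfl : ∀ m, χ (flip m.1, m.2) = χ m := fun m => h1 m trivial
  have htt : ∀ m, χ (tt ∅ inn m.1, m.2) = χ m := fun m => h2 m trivial
  have hr : ∀ m, node m.1 = none → χ (rF m) = χ m := fun m hm => h3 m trivial (tt_none hm)
  set q := cellOf M z.F β with hqd
  have hcont := contP_of_flags hfl hr q x
  have hval : ∀ (u : s.Dbl) (b : Bool) (β : Bool), q ∈ M.side u.F → β = sb M u.F q →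
      χ (dz u x b, β) = χ (⟨x, abv u x, false⟩, sb M (chd (abv u x)).1 q) := by
    intro u b β hu hβ
    have e1 : (chd (abv u x)).1 = u.F := rfl
    rw [e1, ← hβ]
    cases b
    · rfl
    · have := htt (dz u x true, β)
      simp only at this
      rw [tt_dz_out (Set.notMem_empty u)] at this
      exact this.symm
  have hj : ∀ u : s.Dbl, q ∈ M.side u.F →
      jmp (fun p : s.Sub x => χ (⟨x, p, false⟩, sb M (chd p).1 q)) u = 0 := by
    intro u hu
    rw [jmp_eq_zero]
    have e1 := hval u true (sb M u.F q) hu rfl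
    have e2 : χ (⟨x, bel u x, false⟩, sb M (chd (bel u x)).1 q) =
        χ (dz u x true, sb M u.F q) := by
      rw [below_chd (bel_spec u x)]
      exact hfl (⟨x, bel u x, true⟩, sb M u.F q)
    show χ (⟨x, bel u x, false⟩, sb M (chd (bel u x)).1 q) = _
    rw [e2, e1]
  have h5 := same' A hA hq hcont hj
  show χ (muF A (dz z x b, β)) = χ (dz z x b, β)
  rw [muF_dz, hval z b β hq (sb_cellOf _ _).symm]
  rw [hval _ _ _ hq' rfl]
  exact h5.symm

/-- value of the tile function -/
theorem tree_sum [Fintype s.Dbl] {q : ι} {x : Bool} (hG : A.Closed G) (δ : s.Dbl → ZMod 2)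
    (hδ : ∀ z ∈ G, q ∈ M.side z.F → δ (A.arc q z) = δ z) :
    ∃ g : s.Sub x → ZMod 2, ContP s q g ∧
      ∀ z : s.Dbl, q ∈ M.side z.F → jmp g z = if z ∈ G then δ z else 0 := by
  obtain ⟨n, ⟨e⟩⟩ := Finite.exists_equiv_fin s.Dbl
  set R : s.Dbl → Prop := fun u => u ∈ G ∧ q ∈ M.side u.F ∧ e u < e (A.arc q u) with hR
  have hAct : ∀ u, R u → q ∈ Act := fun u hu => (hG u hu.1 q hu.2.1).1
  refine ⟨fun p => ∑ u : s.Dbl, (if R u then δ u * sf A q u x p else 0), ?_, ?_⟩
  · intro F F' w p p' e1 e2 e3 e4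
    refine Finset.sum_congr rfl fun u _ => ?_
    by_cases hu : R u
    · rw [if_pos hu, if_pos hu, (sf_spec A x (hAct u hu) hu.2.1).1 F F' w p p' e1 e2 e3 e4]
    · rw [if_neg hu, if_neg hu]
  · intro v hv
    have e1 : jmp (fun p => ∑ u : s.Dbl, (if R u then δ u * sf A q u x p else 0)) v =
        ∑ u : s.Dbl, (if R u ∧ (v = u ∨ v = A.arc q u) then δ v else 0) := by
      unfold jmp
      rw [← Finset.sum_add_distrib]
      refine Finset.sum_congr rfl fun u _ => ?_
      by_cases hu : R u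
      · rw [if_pos hu, if_pos hu, ← mul_add]
        have h2 : sf A q u x (bel v x) + sf A q u x (abv v x) = _ :=
          (sf_spec A x (hAct u hu) hu.2.1).2.1 v hv
        rw [h2]
        by_cases hvu : v = u ∨ v = A.arc q u
        · rw [if_pos hvu, if_pos ⟨hu, hvu⟩, mul_one]
          rcases hvu with h | h
          · rw [h]
          · rw [h, hδ u hu.1 hu.2.1]
        · rw [if_neg hvu, if_neg (fun h => hvu h.2), mul_zero]
      · rw [if_neg hu, if_neg hu, if_neg (fun h => hu h.1)]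
        simp
    rw [e1]
    by_cases hvG : v ∈ G
    · rw [if_pos hvG]
      obtain ⟨hA, hav⟩ := hG v hvG q hv
      have hmem := A.mem hA hv
      have hne := A.ne hA hv
      rcases lt_or_gt_of_ne (fun h => hne (e.injective h).symm : e v ≠ e (A.arc q v)) with h | h
      · rw [Finset.sum_eq_single v]
        · rw [if_pos ⟨⟨hvG, hv, h⟩, Or.inl rfl⟩]
        · intro u _ hu
          rw [if_neg]
          rintro ⟨⟨h0, h1, h2⟩, h3 | h3⟩
          · exact hu h3.symm
          · have h4 : A.arc q v = u := by rw [h3, A.inv hA h1]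
            rw [← h3, ← h4] at h2
            exact lt_asymm h h2
        · intro h1; exact absurd (Finset.mem_univ _) h1
      · rw [Finset.sum_eq_single (A.arc q v)]
        · rw [if_pos ⟨⟨hav, hmem, by rw [A.inv hA hv]; exact h⟩, Or.inr (A.inv hA hv).symm⟩]
        · intro u _ hu
          rw [if_neg]
          rintro ⟨⟨h0, h1, h2⟩, h3 | h3⟩
          · rw [← h3] at h2
            exact lt_asymm h h2
          · exact hu (by rw [h3, A.inv hA h1])
        · intro h1; exact absurd (Finset.mem_univ _) h1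
    · rw [if_neg hvG]
      refine Finset.sum_eq_zero fun u _ => ?_
      rw [if_neg]
      rintro ⟨⟨h0, h1, -⟩, h3 | h3⟩
      · exact hvG (h3 ▸ h0)
      · exact hvG (by rw [h3]; exact (hG u h0 q h1).2)

/-- (3) -/
theorem tree (h : Glue A G ∅ inn) : (pic h).Tree (fun _ => True) := by
  intro δ h1 h2
  have _ : Fintype s.Dbl := Fintype.ofFinite _
  -- the jump at `z` in the cell `q`, colour `x`
  have hδ : ∀ q x, ∀ z ∈ G, q ∈ M.side z.F →
      δ (dz (A.arc q z) x true, sb M (A.arc q z).F q) = δ (dz z x true, sb M z.F q) := by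
    intro q x z hz hq
    have e1 := h1 (dz z x true, sb M z.F q) trivial (show cutD G (dz z x true) from cutD_dz.2 hz)
    have e2 : muF A (dz z x true, sb M z.F q) = _ := muF_dz A z x true (sb M z.F q)
    have e3 : δ (muF A (dz z x true, sb M z.F q)) = δ (dz z x true, sb M z.F q) := e1
    rw [e2, cellOf_sb hq] at e3
    rw [← e3]
    obtain ⟨hA, haG⟩ := h.cG z hz q hq
    have e4 := h2 (dz (A.arc q z) x true, sb M (A.arc q z).F q) trivial
      (show cutD G (dz (A.arc q z) x true) from cutD_dz.2 haG)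
    have e5 : δ (tt ∅ inn (dz (A.arc q z) x true), sb M (A.arc q z).F q) =
      δ (dz (A.arc q z) x true, sb M (A.arc q z).F q) := e4
    rw [tt_dz_out (Set.notMem_empty _)] at e5
    cases htw : (true ^^ tw A q z x)
    · exact e5.symm
    · rfl
  have hex : ∀ q x, ∃ g : s.Sub x → ZMod 2, ContP s q g ∧ ∀ z : s.Dbl, q ∈ M.side z.F →
      jmp g z = if z ∈ G then δ (dz z x true, sb M z.F q) else 0 := fun q x =>
    tree_sum (x := x) h.cG (fun z => δ (dz z x true, sb M z.F q)) (hδ q x)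
  choose g hg1 hg2 using hex
  -- value on flags
  set X : (Dart s × Bool) × Bool → ZMod 2 := fun m => g (cl m.1) m.1.1.x m.1.1.p with hX
  have hXdz : ∀ (z : s.Dbl) (x b β γ : Bool), X ((dz z x b, β), γ) =
      g (cellOf M z.F β) x (pc z x b) := by
    intro z x b β γ
    show g (cl (dz z x b, β)) (dz z x b).x (dz z x b).p = _
    rw [cl_dz]
    cases b <;> rfl
  have hj : ∀ q x, ∀ u : s.Dbl, q ∈ Act → q ∈ M.side u.F →
      jmp (g q x) (A.arc q u) = jmp (g q x) u := by
    intro q x u hA hu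
    rw [hg2 q x u hu, hg2 q x _ (A.mem hA hu)]
    by_cases hG : u ∈ G
    · have h3 := (h.cG u hG q hu).2
      rw [if_pos hG, if_pos h3, hδ q x u hG hu]
    · have h3 : A.arc q u ∉ G := fun h3 => hG (by
        have := (h.cG _ h3 q (A.mem hA hu)).2
        rwa [A.inv hA hu] at this)
      rw [if_neg hG, if_neg h3]
  refine ⟨X, ?_, ?_, ?_, ?_, ?_, ?_⟩
  · rintro ⟨d, β⟩ _; rfl
  · rintro ⟨d, β⟩ _ hc
    obtain ⟨z, hz, x, b, rfl⟩ := cutD_cases hc
    have hq : cellOf M z.F β ∈ M.side z.F := cellOf_mem _ _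
    have hA := (h.cG z hz _ hq).1
    have e1 : X ((pic h).mu (dz z x b, β), true) = X (muF A (dz z x b, β), true) := rfl
    rw [e1, muF_dz, hXdz, hXdz, cellOf_sb (A.mem hA hq)]
    exact val_mu A hA hq (hg1 _ x) (fun u hu => hj _ x u hA hu) b
  · rintro ⟨d, β⟩ _ hc; rfl
  · rintro ⟨d, β⟩ _ hp hc
    have hn : ∃ z, node d = some z := by
      rcases hn : node d with _ | z
      · exact absurd (tt_none hn) hp
      · exact ⟨z, rfl⟩
    obtain ⟨z, hz⟩ := hn
    have hzG : z ∉ G := fun hzG => hc ⟨z, hzG, hz⟩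
    have hd := eq_dz hz
    rw [hd]
    show X ((tt ∅ inn (dz z d.x d.b), β), false) = X ((dz z d.x d.b, β), false)
    rw [tt_dz_out (Set.notMem_empty z), hXdz, hXdz]
    have h3 := hg2 (cellOf M z.F β) d.x z (cellOf_mem _ _)
    rw [if_neg hzG, ← pc_jmp _ z d.b] at h3
    exact (CharTwo.add_eq_zero.1 h3).symm
  · rintro ⟨d, β⟩ _ hp
    have hn : node d = none := tt_eq_iff.1 hp
    show X (rF (d, β), false) = X ((d, β), false)
    show g (cl (rF (d, β))) (rF (d, β)).1.x (rF (d, β)).1.p = g (cl (d, β)) d.x d.p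
    rw [cl_rF]
    -- both are end pieces at the same point
    have h3 : (rF (d, β)).1 = ed (at_oth (d, β)) := by rw [rF_eq]
    have h4 : d = ed (pt_at d) := eq_ed hn rfl rfl (pt_at d)
    have hx : (rF (d, β)).1.x = d.x := by
      rw [h3]
      conv_rhs => rw [h4]
      rw [x_ed, x_ed]
    have key : ∀ (e e' : Dart s), e.x = e'.x → ∀ q F F' w, q ∈ M.side F → q ∈ M.side F' →
        e.p.End F w → e'.p.End F' w → g q e.x e.p = g q e'.x e'.p := by
      rintro ⟨x, p, b⟩ ⟨x', p', b'⟩ hxx q F F' w hq hq' h1 h2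
      simp only at hxx
      subst hxx
      exact hg1 q x F F' w p p' hq hq' h1 h2
    refine key _ _ hx (cl (d, β)) (oth M (cellOf M (fc d) β) (pt d) (fc d)) (fc d) (pt d)
      ?_ ?_ ?_ ?_
    · exact (oth_spec (cellOf_mem _ _) (pt_at d).2).2.1
    · exact cellOf_mem _ _
    · rw [h3]; exact ed_end _
    · have h5 := ed_end (pt_at d)
      rw [← h4] at h5
      exact h5
  · rintro ⟨d, β⟩ _ hc
    obtain ⟨z, hz, x, b, rfl⟩ := cutD_cases hc
    show X ((dz z x b, β), true) + X ((tt ∅ inn (dz z x b), β), true) = δ (dz z x b, β)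
    rw [tt_dz_out (Set.notMem_empty z), hXdz, hXdz, pc_jmp, hg2 _ x z (cellOf_mem _ _), if_pos hz,
      sb_cellOf]
    cases b
    · have h3 := h2 (dz z x true, β) trivial (show cutD G (dz z x true) from cutD_dz.2 hz)
      have h4 : δ (tt ∅ inn (dz z x true), β) = δ (dz z x true, β) := h3
      rw [tt_dz_out (Set.notMem_empty z)] at h4
      exact h4.symm
    · rfl

/-- (4) -/
theorem coarse_of_H1 (h : Glue A G ∅ inn) (hH : ∀ i, s.H1 i) : (pic h).coarse (fun _ => True) := by
  intro θ h1 h2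
  have hpr : ∀ {F : Φ} {w : W} (hw : s.At F w) (hw' : s.At F (s.mu F w)),
      pr flip (tt ∅ inn) (ed hw) = ed hw' := by
    intro F w hw hw'
    have hc := conn_ed hw hw' inn
    rcases end_unique flip_flip tt_tt flip_ne (tt_none (node_ed hw)) (tt_none (node_ed hw')) hc
      with h3 | h3
    · exfalso
      have := congrArg pt h3
      rw [pt_ed, pt_ed] at this
      exact s.mu_ne hw.1 hw.2 this
    · exact h3.symm
  -- closedness
  have hcl : ∀ {F : Φ} {w : W} (hw : s.At F w) (hw' : s.At F (s.mu F w)) (β : Bool),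
      θ (ed hw, β) + θ (ed hw', β) = θ (ed hw, !β) + θ (ed hw', !β) := by
    intro F w hw hw' β
    have h3 := h2 (ed hw, β) ⟨trivial, tt_none (node_ed hw)⟩
    have h4 : θ (ed hw, β) + θ (pr flip (tt ∅ inn) (ed hw), β) + (θ (ed hw, !β) +
      θ (pr flip (tt ∅ inn) (ed hw), !β)) = 0 := h3
    rw [hpr hw hw'] at h4
    exact CharTwo.add_eq_zero.1 h4
  have hr : ∀ m : Dart s × Bool, node m.1 = none → θ (rF m) = θ m := fun m hm =>
    h1 m ⟨trivial, tt_none hm⟩
  -- the cochain of the state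
  set κ : Φ → W → ZMod 2 := fun F w => if hw : s.At F w then
    θ (ed hw, true) + θ (ed (At.mu s hw), true) else 0 with hκ
  have hκv : ∀ {F : Φ} {w : W} (hw : s.At F w) (β : Bool),
      κ F w = θ (ed hw, β) + θ (ed (At.mu s hw), β) := by
    intro F w hw β
    simp only [hκ, dif_pos hw]
    cases β
    · exact hcl hw (At.mu s hw) true
    · rfl
  -- potentials in the cells
  set ψ : ι → W → ZMod 2 := fun q w => if hF : ∃ F, q ∈ M.side F ∧ s.At F w then
    θ (ed hF.choose_spec.2, sb M hF.choose q) else 0 with hψ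
  have hψv : ∀ {q : ι} {F : Φ} {w : W} (hq : q ∈ M.side F) (hw : s.At F w),
      ψ q w = θ (ed hw, sb M F q) := by
    intro q F w hq hw
    have hex : ∃ F, q ∈ M.side F ∧ s.At F w := ⟨F, hq, hw⟩
    simp only [hψ, dif_pos hex]
    have e1 := hex.choose_spec
    by_cases hF : hex.choose = F
    · have : ∀ (F' : Φ) (hw' : s.At F' w), F' = F → θ (ed hw', sb M F' q) = θ (ed hw, sb M F q) := by
        intro F' hw' hF'
        subst hF'
        rfl
      exact this _ e1.2 hF
    · have : (ed e1.2, sb M hex.choose q) = rF (ed hw, sb M F q) := by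
        apply eq_rF (node_ed e1.2)
        · simp only [pt_ed]
        · simp only [fc_ed]
          rw [cellOf_sb hq, cellOf_sb e1.1]
        · simp only [fc_ed]
          exact hF
      rw [this, hr _ (node_ed hw)]
  have hΨ : ∀ i, ∃ Ψ : W → ZMod 2, ∀ F w, s.At F w → s.lab w = i →
      κ F w = Ψ w + Ψ (s.mu F w) := by
    intro i
    refine hH i κ fun q => ⟨ψ q, fun F w hq hw _ => ?_⟩
    rw [hκv hw (sb M F q), hψv hq hw, hψv hq (At.mu s hw)]
  choose Ψ hΨ using hΨ
  set P : Dart s × Bool → ZMod 2 := fun m => Ψ (s.lab (pt m.1)) (pt m.1) with hP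
  refine ⟨P, fun m => θ m + P m, ?_, ?_, ?_, ?_, ?_⟩
  · rintro m ⟨-, hm⟩
    show Ψ (s.lab (pt (rF m).1)) (pt (rF m).1) = _
    rw [pt_rF]
  · rintro m ⟨-, hm⟩; rfl
  · rintro ⟨d, β⟩ ⟨-, hm⟩
    have hn : node d = none := tt_eq_iff.1 hm
    have hd : d = ed (pt_at d) := eq_ed hn rfl rfl (pt_at d)
    have hw := pt_at d
    have e1 : (pic h).A0 (d, β) = (ed (At.mu s (pt_at d)), β) := by
      show (pr flip (tt ∅ inn) d, β) = _
      rw [← hpr (pt_at d) (At.mu s (pt_at d)), ← hd]
    show θ ((pic h).A0 (d, β)) + P ((pic h).A0 (d, β)) = θ (d, β) + P (d, β)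
    rw [e1]
    have e2 := hκv hw β
    have e3 := hΨ (s.lab (pt d)) (fc d) (pt d) hw rfl
    have e4 : P (ed (At.mu s (pt_at d)), β) = Ψ (s.lab (pt d)) (s.mu (fc d) (pt d)) := by
      show Ψ (s.lab (pt (ed (At.mu s (pt_at d))))) (pt (ed (At.mu s (pt_at d)))) = _
      rw [pt_ed, s.mu_lab hw.1 hw.2]
    rw [e4]
    show _ = θ (d, β) + Ψ (s.lab (pt d)) (pt d)
    rw [e2, ← hd] at e3
    have e5 : θ (ed (At.mu s (pt_at d)), β) + Ψ (s.lab (pt d)) (s.mu (fc d) (pt d)) +
      (θ (d, β) + Ψ (s.lab (pt d)) (pt d)) = (θ (d, β) + θ (ed (At.mu s (pt_at d)), β)) +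
      (Ψ (s.lab (pt d)) (pt d) + Ψ (s.lab (pt d)) (s.mu (fc d) (pt d))) := by ring
    rw [e3, CharTwo.add_self_eq_zero] at e5
    exact CharTwo.add_eq_zero.1 e5
  · rintro m ⟨-, hm⟩
    show θ (rF m) + Ψ (s.lab (pt (rF m).1)) (pt (rF m).1) = _
    rw [pt_rF, hr m (tt_eq_iff.1 hm)]
  · rintro m -
    show θ m = P m + (θ m + P m)
    rw [add_comm (θ m), ← add_assoc, CharTwo.add_self_eq_zero, zero_add]

/-- (5) `H¹ = 0` of the refined surface of the state (all sheets at once) -/
theorem fine_of_H1 (h : Glue A G ∅ inn) (hH : ∀ i, s.H1 i) : (pic h).fine (fun _ => True) := by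
  refine Pic.fine_of_coarse ⟨fun _ _ => trivial, fun _ _ => trivial, fun _ _ _ => trivial,
    fun _ _ _ => trivial⟩ ?_ (sameDisc h) (tree h) (coarse_of_H1 h hH)
  intro d _
  obtain ⟨p, h1, -, -, -, h5⟩ := conn_down d
  exact ⟨p, h5 inn, tt_none h1⟩

end Crest.Agent.R096.Tig_438
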