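import Crest.Agent.R096.Tig7_438
import Crest.Agent.R096.Tig4_438
import Crest.Agent.R096.St4_147

/-! Row 96, P3-TIGHT (helper438), part 8: the flags of a state as an `FC`. -/

set_option autoImplicit false

namespace Crest.Agent.R096.Tig_438

namespace Pic

variable {D : Type*} (K : Pic D)

/-- admissible flags -/
def Ok (m : (D × Bool) × Bool) : Prop := m.2 = true → K.cut m.1.1

variable {K}

theorem ok_false (m : D × Bool) : K.Ok (m, false) := fun h => absurd h (by simp)
theorem ok_cut {m : D × Bool} (h : K.cut m.1) (b : Bool) : K.Ok (m, b) := fun _ => h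

theorem B0_ok {m : (D × Bool) × Bool} (hm : K.Ok m) : K.Ok (K.B0 m) := by
  obtain ⟨m, γ⟩ := m
  cases γ
  · rw [B0_false]; exact ok_false _
  · rw [B0_true]; exact fun _ => K.cut_mu m (hm rfl)

theorem B2_ok {m : (D × Bool) × Bool} (hm : K.Ok m) : K.Ok (K.B2 m) := by
  obtain ⟨m, γ⟩ := m
  cases γ
  · rw [B2_false]; exact ok_false _
  · rw [B2_true]; exact fun _ => K.cut_t m.1 (hm rfl)

theorem B1_ok {m : (D × Bool) × Bool} (hm : K.Ok m) : K.Ok (K.B1 m) := by
  obtain ⟨m, γ⟩ := m
  by_cases hp : K.t m.1 = m.1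
  · rw [B1_P hp]
    intro h
    exact absurd (hm h) (not_cut_of_P hp)
  by_cases hc : K.cut m.1
  · rw [B1_cut hc]; exact ok_cut hc _
  · rw [B1_not hp hc]
    intro h
    exact absurd (hm h) hc

theorem B0_B0 {m : (D × Bool) × Bool} (hm : K.Ok m) : K.B0 (K.B0 m) = m := by
  obtain ⟨m, γ⟩ := m
  cases γ
  · rw [B0_false, B0_false]; simp only [K.s_s]
  · rw [B0_true, B0_true, K.mu_mu m (hm rfl)]

theorem B2_B2 (m : (D × Bool) × Bool) : K.B2 (K.B2 m) = m := by
  obtain ⟨m, γ⟩ := m
  cases γ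
  · rw [B2_false, B2_false]; simp
  · rw [B2_true, B2_true]; simp [K.t_t]

theorem B1_B1 (m : (D × Bool) × Bool) : K.B1 (K.B1 m) = m := by
  obtain ⟨m, γ⟩ := m
  by_cases hp : K.t m.1 = m.1
  · rw [B1_P hp, B1_P (K.t_r m hp), K.r_r m hp]
  by_cases hc : K.cut m.1
  · rw [B1_cut hc, B1_cut hc, Bool.not_not]
  · have hp' : K.t (K.t m.1) ≠ K.t m.1 := fun h => hp (by rw [K.t_t] at h; exact h.symm)
    have hc' : ¬ K.cut (K.t m.1) := fun h => hc ((cut_iff m.1).1 h)
    rw [B1_not hp hc, B1_not (m := (K.t m.1, m.2)) hp' hc']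
    simp [K.t_t]

theorem B0_B2 {m : (D × Bool) × Bool} (hm : K.Ok m) : K.B0 (K.B2 m) = K.B2 (K.B0 m) := by
  obtain ⟨m, γ⟩ := m
  cases γ
  · rw [B2_false, B0_false, B0_false, B2_false]
  · rw [B2_true, B0_true, B0_true, B2_true, K.mu_t m (hm rfl)]

theorem B1_ne (hr : ∀ m : D × Bool, K.t m.1 = m.1 → K.r m ≠ m) (m : (D × Bool) × Bool) :
    K.B1 m ≠ m := by
  obtain ⟨m, γ⟩ := m
  by_cases hp : K.t m.1 = m.1
  · rw [B1_P hp]
    intro h
    exact hr m hp (congrArg Prod.fst h)
  by_cases hc : K.cut m.1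
  · rw [B1_cut hc]
    intro h
    have := congrArg Prod.snd h
    simp at this
  · rw [B1_not hp hc]
    intro h
    exact hp (congrArg (fun x => x.1.1) h)

end Pic

open St_147 Wk_689 Classical

variable {ι Φ W I : Type} {M : MeshC ι Φ W} {col : I → Bool} {s : St M col} {Act : Set ι}
  {A : s.Arcs Act} {G H : Set s.Dbl} {inn : s.Dbl → Bool → Bool}

/-! ### the sheet of a dart -/

/-- the sheet of a dart -/
def shD (d : Dart s) : I := s.lab (pt d)

theorem shD_eq (d : Dart s) : shD d = s.lab (chd d.p).2 := lab_pt d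

theorem shD_flip (d : Dart s) : shD (flip d) = shD d := by
  rw [shD_eq, shD_eq]; rfl

theorem shD_dz (z : s.Dbl) (x b : Bool) : shD (dz z x b) = s.lab (z.e x) := by
  rw [shD_eq]
  cases b
  · rfl
  · show s.lab (chd (bel z x)).2 = _
    rw [below_chd (bel_spec z x)]

theorem col_shD (d : Dart s) : col (shD d) = d.x := (x_eq d).symm

theorem shD_tt (d : Dart s) : shD (tt ∅ inn d) = shD d := by
  rcases hn : node d with _ | z
  · rw [tt_none hn]
  · rw [eq_dz hn, tt_dz_out (Set.notMem_empty z), shD_dz, shD_dz]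

theorem shD_rF (m : Dart s × Bool) : shD (rF m).1 = shD m.1 := by
  unfold shD; rw [pt_rF]

/-- both ends of an arc lie on the same sheets -/
theorem lab_arc (A : s.Arcs Act) {q : ι} {z : s.Dbl} (hq : q ∈ Act) (hz : q ∈ M.side z.F)
    (x : Bool) : s.lab ((A.arc q z).e x) = s.lab (z.e x) := by
  have h := A.same x hq hz
    (fun p => if s.lab (chd p).2 = s.lab (z.e x) then (1 : ZMod 2) else 0) ?_ ?_
  · by_contra hne
    have h1 : (if s.lab (z.e x) = s.lab (z.e x) then (1 : ZMod 2) else 0) =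
      if s.lab ((A.arc q z).e x) = s.lab (z.e x) then (1 : ZMod 2) else 0 := h
    rw [if_pos rfl, if_neg hne] at h1
    exact one_ne_zero h1
  · intro F F' w p p' _ _ h1 h2
    have key : ∀ (F : Φ) (p : s.Sub x), p.End F w → s.lab (chd p).2 = s.lab w := by
      intro F p hp
      obtain ⟨b, hb⟩ := end_ed hp
      have h3 : shD (⟨x, p, b⟩ : Dart s) = s.lab (chd p).2 := shD_eq _
      rw [hb] at h3
      unfold shD at h3
      rw [pt_ed] at h3
      exact h3.symm
    simp only [key F p h1, key F' p' h2]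
  · intro u p p' _ hb ha
    have h1 := below_chd hb
    have h2 : p' = Sum.inr u := ha
    rw [h2]
    show (if s.lab (chd p).2 = s.lab (z.e x) then (1 : ZMod 2) else 0) =
      if s.lab (u.e x) = s.lab (z.e x) then (1 : ZMod 2) else 0
    rw [h1]

/-! ### names of the vertices and edges -/

theorem bel_ne_abv (z : s.Dbl) (x : Bool) : bel z x ≠ abv z x := by
  intro h
  have h1 := bel_spec z x
  rw [h] at h1
  have h2 : St.Dbl.Next x z z := h1
  exact lt_irrefl _ h2.2.2.1

theorem node_flip_ne {d : Dart s} {z : s.Dbl} (h : node d = some z) : node (flip d) ≠ some z := by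
  intro h'
  obtain ⟨x, p, b⟩ := d
  cases b
  · have h1 := prv_some.1 (show prv p = some z from h)
    have h2 := nxt_some.1 (show nxt p = some z from h')
    exact bel_ne_abv z x (h2.symm.trans h1)
  · have h1 := prv_some.1 (show prv p = some z from h')
    have h2 := nxt_some.1 (show nxt p = some z from h)
    exact bel_ne_abv z x (h2.symm.trans h1)

/-- the vertex of a dart -/
noncomputable def vxD (G : Set s.Dbl) (d : Dart s) : W ⊕ (s.Dbl × Bool) :=
  match node d with
  | none => Sum.inl (pt d)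
  | some z => if z ∈ G then Sum.inr (z, false) else Sum.inr (z, d.x)

theorem vxD_none {d : Dart s} (h : node d = none) : vxD G d = Sum.inl (pt d) := by
  unfold vxD; rw [h]

theorem vxD_in {z : s.Dbl} (hz : z ∈ G) (x b : Bool) : vxD G (dz z x b) = Sum.inr (z, false) := by
  unfold vxD; simp only [node_dz, if_pos hz]

theorem vxD_out {z : s.Dbl} (hz : z ∉ G) (x b : Bool) : vxD G (dz z x b) = Sum.inr (z, x) := by
  unfold vxD; simp only [node_dz, if_neg hz, dz_x]

theorem vxD_flip (d : Dart s) : vxD G (flip d) ≠ vxD G d := by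
  rcases h : node d with _ | z <;> rcases h' : node (flip d) with _ | z'
  · rw [vxD_none h, vxD_none h']
    intro e
    have e1 := Sum.inl.inj e
    rw [pt_flip] at e1
    exact s.mu_ne (pt_at d).1 (pt_at d).2 e1
  · rw [vxD_none h]
    unfold vxD
    rw [h']
    simp only
    split_ifs <;> simp
  · rw [vxD_none h']
    unfold vxD
    rw [h]
    simp only
    split_ifs <;> simp
  · have hne : z' ≠ z := fun e => node_flip_ne h (e ▸ h')
    unfold vxD
    rw [h, h']
    simp only
    split_ifs <;> simp [hne]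

/-- the edge of a flag -/
noncomputable def egR (A : s.Arcs Act) (m : (Dart s × Bool) × Bool) :
    (Σ x : Bool, s.Sub x) ⊕ (ι × Sym2 s.Dbl) :=
  match m.2, node m.1.1 with
  | true, some z => Sum.inr (cellOf M z.F m.1.2, s(z, A.arc (cellOf M z.F m.1.2) z))
  | _, _ => Sum.inl ⟨m.1.1.x, m.1.1.p⟩

theorem egR_false (m : Dart s × Bool) : egR A (m, false) = Sum.inl ⟨m.1.x, m.1.p⟩ := rfl

theorem egR_dz (z : s.Dbl) (x b β : Bool) : egR A ((dz z x b, β), true) =
    Sum.inr (cellOf M z.F β, s(z, A.arc (cellOf M z.F β) z)) := by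
  unfold egR; simp only [node_dz]

theorem dart_eq {d d' : Dart s} (h : (⟨d.x, d.p⟩ : Σ x : Bool, s.Sub x) = ⟨d'.x, d'.p⟩) :
    d' = d ∨ d' = flip d := by
  obtain ⟨x, p, b⟩ := d
  obtain ⟨x', p', b'⟩ := d'
  simp only [Sigma.mk.injEq] at h
  obtain ⟨h1, h2⟩ := h
  subst h1
  simp only [heq_eq_eq] at h2
  subst h2
  cases b <;> cases b'
  · exact Or.inl rfl
  · exact Or.inr rfl
  · exact Or.inr rfl
  · exact Or.inl rfl

/-! ### the involutions on flags -/

theorem flag_cases {m : (Dart s × Bool) × Bool} (hm : m.2 = true → cutD G m.1.1)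
    {C : (Dart s × Bool) × Bool → Prop}
    (hP : ∀ d β, node d = none → C ((d, β), false))
    (hN : ∀ z ∉ G, ∀ x b β, C ((dz z x b, β), false))
    (hC : ∀ z ∈ G, ∀ x b β γ, C ((dz z x b, β), γ)) : C m := by
  obtain ⟨⟨d, β⟩, γ⟩ := m
  rcases hn : node d with _ | z
  · cases γ
    · exact hP d β hn
    · obtain ⟨z, -, hz⟩ := hm rfl
      rw [show node ((d, β), true).1.1 = node d from rfl, hn] at hz
      exact absurd hz (by simp)
  · rw [eq_dz hn]
    by_cases hz : z ∈ G
    · exact hC z hz _ _ _ _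
    · cases γ
      · exact hN z hz _ _ _
      · obtain ⟨z', hz', h⟩ := hm rfl
        rw [show node ((d, β), true).1.1 = node d from rfl, hn] at h
        exact absurd (Option.some.inj h ▸ hz') hz

section

variable (h : Glue A G H inn)

theorem b1P {d : Dart s} (hn : node d = none) (β γ : Bool) :
    (pic h).B1 ((d, β), γ) = (rF (d, β), γ) :=
  Pic.B1_P (K := pic h) (m := (d, β)) (tt_none hn) γ

theorem b1C {z : s.Dbl} (hz : z ∈ G) (x b β γ : Bool) :
    (pic h).B1 ((dz z x b, β), γ) = ((dz z x b, β), !γ) :=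
  Pic.B1_cut (K := pic h) (m := (dz z x b, β)) (cutD_dz.2 hz) γ

theorem b1N {z : s.Dbl} (hz : z ∉ G) (x b β γ : Bool) :
    (pic h).B1 ((dz z x b, β), γ) = ((dz z x (!b), β), γ) := by
  have h1 : (pic h).t (dz z x b) ≠ dz z x b := tt_ne (node_dz z x b)
  have h2 : ¬ (pic h).cut (dz z x b) := fun hc => hz (cutD_dz.1 hc)
  have h3 := Pic.B1_not (K := pic h) (m := (dz z x b, β)) h1 h2 γ
  rw [h3]
  have h4 : (pic h).t (dz z x b) = dz z x (!b) := tt_dz_out (fun hH => hz (h.sub hH)) x b
  simp only [h4]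

theorem b0F (d : Dart s) (β : Bool) : (pic h).B0 ((d, β), false) = ((flip d, β), false) :=
  Pic.B0_false _

theorem b0T (z : s.Dbl) (x b β : Bool) : (pic h).B0 ((dz z x b, β), true) =
    ((dz (A.arc (cellOf M z.F β) z) x (b ^^ tw A (cellOf M z.F β) z x),
      sb M (A.arc (cellOf M z.F β) z).F (cellOf M z.F β)), true) := by
  have h1 : (pic h).B0 ((dz z x b, β), true) = (muF A (dz z x b, β), true) := Pic.B0_true _
  rw [h1, muF_dz]

theorem b2F (d : Dart s) (β : Bool) : (pic h).B2 ((d, β), false) = ((d, !β), false) :=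
  Pic.B2_false _

theorem b2T (h : Glue A G ∅ inn) (z : s.Dbl) (x b β : Bool) :
    (pic h).B2 ((dz z x b, β), true) = ((dz z x (!b), β), true) := by
  have h1 : (pic h).B2 ((dz z x b, β), true) = ((tt ∅ inn (dz z x b), β), true) :=
    Pic.B2_true _
  rw [h1, tt_dz_out (Set.notMem_empty z)]

end

section

variable (h : Glue A G ∅ inn)

theorem raw_v1 {m : (Dart s × Bool) × Bool} (hm : m.2 = true → cutD G m.1.1) :
    vxD G ((pic h).B1 m).1.1 = vxD G m.1.1 := by
  refine flag_cases hm (C := fun m => vxD G ((pic h).B1 m).1.1 = vxD G m.1.1) ?_ ?_ ?_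
  · intro d β hn
    rw [b1P h hn, vxD_none (node_rF _), vxD_none hn, pt_rF]
  · intro z hz x b β
    rw [b1N h hz, vxD_out hz, vxD_out hz]
  · intro z hz x b β γ
    rw [b1C h hz]

theorem raw_v2 {m : (Dart s × Bool) × Bool} (hm : m.2 = true → cutD G m.1.1) :
    vxD G ((pic h).B2 m).1.1 = vxD G m.1.1 := by
  refine flag_cases hm (C := fun m => vxD G ((pic h).B2 m).1.1 = vxD G m.1.1) ?_ ?_ ?_
  · intro d β hn
    rw [b2F]
  · intro z hz x b β
    rw [b2F]
  · intro z hz x b β γ
    cases γ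
    · rw [b2F]
    · rw [b2T, vxD_in hz, vxD_in hz]

theorem raw_v0 {m : (Dart s × Bool) × Bool} (hm : m.2 = true → cutD G m.1.1) :
    vxD G ((pic h).B0 m).1.1 ≠ vxD G m.1.1 := by
  obtain ⟨⟨d, β⟩, γ⟩ := m
  cases γ
  · rw [b0F]; exact vxD_flip d
  · obtain ⟨z, hz, x, b, hd⟩ := cutD_cases (hm rfl)
    simp only at hd
    subst hd
    have hq := cellOf_mem (M := M) z.F β
    obtain ⟨hA, hz'⟩ := h.cG z hz _ hq
    rw [b0T, vxD_in hz, vxD_in hz']
    intro e
    exact A.ne hA hq (Prod.mk.inj (Sum.inr.inj e)).1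

theorem raw_e0 {m : (Dart s × Bool) × Bool} (hm : m.2 = true → cutD G m.1.1) :
    egR A ((pic h).B0 m) = egR A m := by
  obtain ⟨⟨d, β⟩, γ⟩ := m
  cases γ
  · rw [b0F]; rfl
  · obtain ⟨z, hz, x, b, hd⟩ := cutD_cases (hm rfl)
    simp only at hd
    subst hd
    have hq := cellOf_mem (M := M) z.F β
    obtain ⟨hA, hz'⟩ := h.cG z hz _ hq
    rw [b0T, egR_dz, egR_dz, cellOf_sb (A.mem hA hq), A.inv hA hq, Sym2.eq_swap]

theorem raw_e2 {m : (Dart s × Bool) × Bool} (hm : m.2 = true → cutD G m.1.1) :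
    egR A ((pic h).B2 m) = egR A m := by
  obtain ⟨⟨d, β⟩, γ⟩ := m
  cases γ
  · rw [b2F]; rfl
  · obtain ⟨z, hz, x, b, hd⟩ := cutD_cases (hm rfl)
    simp only at hd
    subst hd
    rw [b2T, egR_dz, egR_dz]

theorem raw_s0 {m : (Dart s × Bool) × Bool} (hm : m.2 = true → cutD G m.1.1) :
    shD ((pic h).B0 m).1.1 = shD m.1.1 := by
  obtain ⟨⟨d, β⟩, γ⟩ := m
  cases γ
  · rw [b0F]; exact shD_flip d
  · obtain ⟨z, hz, x, b, hd⟩ := cutD_cases (hm rfl)
    simp only at hd
    subst hd
    have hq := cellOf_mem (M := M) z.F β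
    obtain ⟨hA, hz'⟩ := h.cG z hz _ hq
    rw [b0T]
    simp only
    rw [shD_dz, shD_dz, lab_arc A hA hq]

theorem raw_s1 {m : (Dart s × Bool) × Bool} (hm : m.2 = true → cutD G m.1.1) :
    shD ((pic h).B1 m).1.1 = shD m.1.1 := by
  refine flag_cases hm (C := fun m => shD ((pic h).B1 m).1.1 = shD m.1.1) ?_ ?_ ?_
  · intro d β hn
    rw [b1P h hn, shD_rF]
  · intro z hz x b β
    rw [b1N h hz, shD_dz, shD_dz]
  · intro z hz x b β γ
    rw [b1C h hz]

theorem raw_s2 {m : (Dart s × Bool) × Bool} (hm : m.2 = true → cutD G m.1.1) :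
    shD ((pic h).B2 m).1.1 = shD m.1.1 := by
  obtain ⟨⟨d, β⟩, γ⟩ := m
  cases γ
  · rw [b2F]
  · obtain ⟨z, hz, x, b, hd⟩ := cutD_cases (hm rfl)
    simp only at hd
    subst hd
    rw [b2T]
    simp only
    rw [shD_dz, shD_dz]

theorem raw_e_eq {m m' : (Dart s × Bool) × Bool} (hm : m.2 = true → cutD G m.1.1)
    (hm' : m'.2 = true → cutD G m'.1.1) (he : egR A m = egR A m')
    (hs : shD m.1.1 = shD m'.1.1) :
    m' = m ∨ m' = (pic h).B0 m ∨ m' = (pic h).B2 m ∨ m' = (pic h).B0 ((pic h).B2 m) := by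
  obtain ⟨⟨d, β⟩, γ⟩ := m
  obtain ⟨⟨d', β'⟩, γ'⟩ := m'
  cases γ with
  | false =>
    cases γ' with
    | false =>
      rw [egR_false, egR_false] at he
      rcases dart_eq (Sum.inl.inj he) with e | e <;> simp only at e <;> subst e <;>
        rw [b0F, b2F, b0F] <;> cases β <;> cases β' <;> simp
    | true =>
      obtain ⟨z', hz', x', b', hd'⟩ := cutD_cases (hm' rfl)
      simp only at hd'
      subst hd'
      rw [egR_false, egR_dz] at he
      exact absurd he (by simp)
  | true =>
    obtain ⟨z, hz, x, b, hd⟩ := cutD_cases (hm rfl)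
    simp only at hd
    subst hd
    cases γ' with
    | false =>
      rw [egR_false, egR_dz] at he
      exact absurd he (by simp)
    | true =>
      obtain ⟨z', hz', x', b', hd'⟩ := cutD_cases (hm' rfl)
      simp only at hd'
      subst hd'
      rw [egR_dz, egR_dz] at he
      have hx : x' = x := by
        have e1 := col_shD (dz z x b)
        have e2 := col_shD (dz z' x' b')
        rw [dz_x] at e1 e2
        exact e2.symm.trans ((congrArg col hs.symm).trans e1)
      subst hx
      obtain ⟨e1, e2⟩ := Prod.mk.inj (Sum.inr.inj he)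
      have hq := cellOf_mem (M := M) z.F β
      obtain ⟨hA, hza⟩ := h.cG z hz _ hq
      rw [← e1] at e2
      rw [b0T, b2T, b0T]
      rcases Sym2.eq_iff.1 e2 with ⟨e3, -⟩ | ⟨-, e3⟩
      · subst e3
        have hβ := cellOf_inj e1
        subst hβ
        cases b <;> cases b' <;> simp
      · right
        have hβ : β' = sb M (A.arc (cellOf M z.F β) z).F (cellOf M z.F β) := by
          rw [e3, e1, sb_cellOf]
        rw [← e3, ← hβ]
        rcases Bool.eq_or_eq_not b' (b ^^ tw A (cellOf M z.F β) z x') with e4 | e4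
        · left; rw [e4]
        · right; right
          rw [e4]
          congr 3
          cases b <;> cases tw A (cellOf M z.F β) z x' <;> rfl

theorem raw_e_vx {m m' : (Dart s × Bool) × Bool} (hm : m.2 = true → cutD G m.1.1)
    (hm' : m'.2 = true → cutD G m'.1.1) (he : egR A m = egR A m') :
    vxD G m'.1.1 = vxD G m.1.1 ∨ vxD G m'.1.1 = vxD G ((pic h).B0 m).1.1 := by
  obtain ⟨⟨d, β⟩, γ⟩ := m
  obtain ⟨⟨d', β'⟩, γ'⟩ := m'
  cases γ with
  | false =>
    cases γ' with
    | false =>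
      rw [egR_false, egR_false] at he
      rcases dart_eq (Sum.inl.inj he) with e | e <;> simp only at e <;> subst e
      · exact Or.inl rfl
      · right; rw [b0F]
    | true =>
      obtain ⟨z', hz', x', b', hd'⟩ := cutD_cases (hm' rfl)
      simp only at hd'
      subst hd'
      rw [egR_false, egR_dz] at he
      exact absurd he (by simp)
  | true =>
    obtain ⟨z, hz, x, b, hd⟩ := cutD_cases (hm rfl)
    simp only at hd
    subst hd
    cases γ' with
    | false =>
      rw [egR_false, egR_dz] at he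
      exact absurd he (by simp)
    | true =>
      obtain ⟨z', hz', x', b', hd'⟩ := cutD_cases (hm' rfl)
      simp only at hd'
      subst hd'
      rw [egR_dz, egR_dz] at he
      obtain ⟨e1, e2⟩ := Prod.mk.inj (Sum.inr.inj he)
      have hq := cellOf_mem (M := M) z.F β
      obtain ⟨hA, hza⟩ := h.cG z hz _ hq
      rw [← e1] at e2
      rw [b0T]
      simp only
      rw [vxD_in hz, vxD_in hz', vxD_in hza]
      rcases Sym2.eq_iff.1 e2 with ⟨e3, -⟩ | ⟨-, e3⟩
      · left; rw [e3]
      · right; rw [e3]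

/-- tiles on the two sides of an edge are different -/
theorem raw_t_ne {m : (Dart s × Bool) × Bool} (hm : m.2 = true → cutD G m.1.1) :
    ∃ X : (Dart s × Bool) × Bool → Prop,
      (∀ x, (x.2 = true → cutD G x.1.1) → X x → X ((pic h).B0 x)) ∧
      (∀ x, (x.2 = true → cutD G x.1.1) → X x → X ((pic h).B1 x)) ∧ X m ∧
      ¬ X ((pic h).B2 m) := by
  obtain ⟨⟨d, β⟩, γ⟩ := m
  cases γ with
  | false =>
    refine ⟨fun x => cl x.1 = cl (d, β), ?_, ?_, rfl, ?_⟩
    · rintro ⟨⟨d1, β1⟩, γ1⟩ hx h1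
      cases γ1
      · rw [b0F]; exact h1
      · obtain ⟨z, hz, x, b, hd⟩ := cutD_cases (hx rfl)
        simp only at hd
        subst hd
        have hq := cellOf_mem (M := M) z.F β1
        obtain ⟨hA, hza⟩ := h.cG z hz _ hq
        rw [b0T, ← h1]
        show cl _ = cl (dz z x b, β1)
        rw [cl_dz, cl_dz, cellOf_sb (A.mem hA hq)]
    · intro x hx
      refine flag_cases hx (C := fun x => cl x.1 = cl (d, β) → cl ((pic h).B1 x).1 = cl (d, β))
        ?_ ?_ ?_
      · intro d1 β1 hn h1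
        rw [b1P h hn, cl_rF]
        exact h1
      · intro z hz x b β1 h1
        rw [b1N h hz, ← h1]
        show cl _ = cl (dz z x b, β1)
        rw [cl_dz, cl_dz]
      · intro z hz x b β1 γ1 h1
        rw [b1C h hz]; exact h1
    · rw [b2F]
      show ¬ cellOf M (fc d) (!β) = cellOf M (fc d) β
      exact cellOf_not_ne _ _
  | true =>
    obtain ⟨z, hz, x, b, hd⟩ := cutD_cases (hm rfl)
    simp only at hd
    subst hd
    set q := cellOf M z.F β with hqd
    have hq : q ∈ M.side z.F := cellOf_mem (M := M) z.F β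
    obtain ⟨hA, hza⟩ := h.cG z hz _ hq
    obtain ⟨s1, s2, s3⟩ := sf_spec A x hA hq
    set f := sf A q z x with hf
    have hj : ∀ u : s.Dbl, q ∈ M.side u.F → jmp f (A.arc q u) = jmp f u := by
      intro u hu
      rw [s2 u hu, s2 _ (A.mem hA hu)]
      have : (A.arc q u = z ∨ A.arc q u = A.arc q z) ↔ (u = z ∨ u = A.arc q z) := by
        constructor
        · rintro (h | h)
          · right; rw [← h, A.inv hA hu]
          · left
            have := congrArg (A.arc q) h
            rwa [A.inv hA hu, A.inv hA hq] at this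
        · rintro (h | h)
          · right; rw [h]
          · left; rw [h, A.inv hA hq]
      simp only [this]
    -- value of `f` on darts
    set g : Dart s → ZMod 2 := fun d => if hx : d.x = x then f (hx ▸ d.p) else 0 with hg
    have hgx : ∀ (p : s.Sub x) (b : Bool), g ⟨x, p, b⟩ = f p := by
      intro p b
      simp only [hg]
      rw [dif_pos trivial]
    have hgd : ∀ (u : s.Dbl) (b : Bool), g (dz u x b) = f (pc u x b) := by
      intro u b
      rw [dz_eq, hgx]
    refine ⟨fun y => cl y.1 = q ∧ y.1.1.x = x ∧ g y.1.1 = g (dz z x b), ?_, ?_, ?_, ?_⟩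
    · rintro ⟨⟨d1, β1⟩, γ1⟩ hx1 ⟨h1, h2, h3⟩
      simp only at h1 h2 h3
      cases γ1
      · rw [b0F]
        refine ⟨h1, h2, ?_⟩
        show g (flip d1) = _
        rw [← h3]
        obtain ⟨x1, p1, b1⟩ := d1
        simp only at h2
        subst h2
        show g ⟨_, p1, !b1⟩ = g ⟨_, p1, b1⟩
        rw [hgx]
      · obtain ⟨u, hu, x1, b1, hd⟩ := cutD_cases (hx1 rfl)
        simp only at hd
        subst hd
        rw [cl_dz] at h1
        rw [dz_x] at h2
        subst h2
        have hqu : q ∈ M.side u.F := by rw [← h1]; exact cellOf_mem _ _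
        rw [b0T, h1]
        refine ⟨?_, dz_x _ _ _, ?_⟩
        · show cl _ = q
          rw [cl_dz, cellOf_sb (A.mem hA hqu)]
        · show g _ = _
          rw [hgd, val_mu A hA hqu s1 hj, ← h3, hgd]
    · intro y hy
      refine flag_cases hy (C := fun y => (cl y.1 = q ∧ y.1.1.x = x ∧ g y.1.1 = g (dz z x b)) →
        (cl ((pic h).B1 y).1 = q ∧ ((pic h).B1 y).1.1.x = x ∧
          g ((pic h).B1 y).1.1 = g (dz z x b))) ?_ ?_ ?_
      · rintro d1 β1 hn ⟨h1, h2, h3⟩
        simp only at h1 h2 h3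
        rw [b1P h hn]
        have e3 : (rF (d1, β1)).1 = ed (at_oth (d1, β1)) := by rw [rF_eq]
        have e4 : d1 = ed (pt_at d1) := eq_ed hn rfl rfl (pt_at d1)
        have ex : (rF (d1, β1)).1.x = d1.x := by
          have e1 := col_shD (rF (d1, β1)).1
          have e2 := col_shD d1
          rw [shD_rF] at e1
          exact e1.symm.trans e2
        refine ⟨by simp only; rw [cl_rF]; exact h1, ex.trans h2, ?_⟩
        simp only
        rw [← h3]
        have key : ∀ (e e' : Dart s), e.x = x → e'.x = x → ∀ F F' w, q ∈ M.side F →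
            q ∈ M.side F' → e.p.End F w → e'.p.End F' w → g e = g e' := by
          rintro ⟨x1, p, b⟩ ⟨x1', p', b'⟩ hx1 hx2 F F' w hq hq' k1 k2
          simp only at hx1 hx2
          subst hx1
          subst hx2
          rw [hgx, hgx]
          exact s1 F F' w p p' hq hq' k1 k2
        refine key _ _ (ex.trans h2) h2 (oth M (cellOf M (fc d1) β1) (pt d1) (fc d1)) (fc d1)
          (pt d1) ?_ ?_ ?_ ?_
        · rw [← h1]
          exact (oth_spec (cellOf_mem _ _) (pt_at d1).2).2.1
        · rw [← h1]; exact cellOf_mem _ _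
        · rw [e3]; exact ed_end _
        · have h5 := ed_end (pt_at d1)
          rw [← e4] at h5
          exact h5
      · rintro u hu x1 b1 β1 ⟨h1, h2, h3⟩
        simp only at h1 h2 h3
        rw [dz_x] at h2
        subst h2
        rw [cl_dz] at h1
        have hqu : q ∈ M.side u.F := by rw [← h1]; exact cellOf_mem _ _
        rw [b1N h hu]
        simp only
        refine ⟨by rw [cl_dz]; exact h1, dz_x _ _ _, ?_⟩
        rw [← h3, hgd, hgd]
        have h4 := s2 u hqu
        rw [if_neg (by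
          rintro (h | h)
          · exact hu (h ▸ hz)
          · exact hu (h ▸ hza))] at h4
        rw [← pc_jmp _ _ b1] at h4
        exact (CharTwo.add_eq_zero.1 h4).symm
      · rintro u hu x1 b1 β1 γ1 h1
        rw [b1C h hu]
        exact h1
    · exact ⟨cl_dz _ _ _ _, dz_x _ _ _, rfl⟩
    · rw [b2T]
      rintro ⟨-, -, h3⟩
      simp only at h3
      rw [hgd, hgd] at h3
      have h4 := s2 z hq
      rw [if_pos (Or.inl rfl), ← pc_jmp _ _ b, ← h3, CharTwo.add_self_eq_zero] at h4
      exact zero_ne_one h4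


/-! ### connectedness -/

section

variable {X : (Dart s × Bool) × Bool → Prop}

/-- the flags at a point -/
theorem x_point (h1 : ∀ m, X m → X ((pic h).B1 m)) (h2 : ∀ m, X m → X ((pic h).B2 m)) {w : W}
    {F : Φ} (hF : s.At F w) {β : Bool} (hX : X ((ed hF, β), false)) {F' : Φ} (hF' : s.At F' w)
    (β' : Bool) : X ((ed hF', β'), false) := by
  have c0 : ∀ {F : Φ} (hF : s.At F w) (q : ι), q ∈ M.side F → X ((ed hF, sb M F q), false) →
      ∀ (F' : Φ) (hF' : s.At F' w), q ∈ M.side F' → X ((ed hF', sb M F' q), false) := by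
    intro F hF q hq hX F' hF' hq'
    by_cases e : F' = F
    · subst e; exact hX
    · have e1 : (ed hF', sb M F' q) = rF (ed hF, sb M F q) := by
        apply eq_rF (node_ed hF')
        · simp only [pt_ed]
        · simp only [fc_ed]
          rw [cellOf_sb hq, cellOf_sb hq']
        · simp only [fc_ed]
          exact e
      have e2 := h1 _ hX
      rw [b1P h (node_ed hF)] at e2
      rw [e1]
      exact e2
  have c2 : ∀ {F : Φ} (hF : s.At F w) (β β' : Bool), X ((ed hF, β), false) →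
      X ((ed hF, β'), false) := by
    intro F hF β β' hX
    by_cases e : β' = β
    · rw [e]; exact hX
    · have e1 : β' = !β := by cases β <;> cases β' <;> simp_all
      have e2 := h2 _ hX
      rw [b2F] at e2
      rw [e1]; exact e2
  have key := M.link w {q | ∀ (F : Φ) (hF : s.At F w), q ∈ M.side F → X ((ed hF, sb M F q), false)}
    (fun F hF q hq q' hq' hY F' hF' hq'' =>
      c0 ⟨hF'.1, hF⟩ q' hq' (c2 ⟨hF'.1, hF⟩ _ _ (hY F ⟨hF'.1, hF⟩ hq)) F' hF' hq'')
    F hF.2 (cellOf M F β) (cellOf_mem _ _)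
    (fun F'' hF'' hq'' => c0 hF _ (cellOf_mem _ _) (by rw [sb_cellOf]; exact hX) F'' hF'' hq'')
    F' hF'.2 (cellOf M F' β') (cellOf_mem _ _) F' hF' (cellOf_mem _ _)
  rw [sb_cellOf] at key
  exact key

/-- the flags of the pieces of a chord -/
theorem x_chd (h0 : ∀ m, X m → X ((pic h).B0 m)) (h1 : ∀ m, X m → X ((pic h).B1 m))
    (h2 : ∀ m, X m → X ((pic h).B2 m)) {d d' : Dart s} (hc : Conn flip (tt ∅ inn) d d')
    {β : Bool} (hX : X ((d, β), false)) : X ((d', β), false) := by
  refine hc.mem (S := fun d => X ((d, β), false)) ?_ ?_ hX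
  · intro d hd
    have := h0 _ hd
    rwa [b0F] at this
  · intro d hd
    rcases hn : node d with _ | z
    · rw [tt_none hn]; exact hd
    · rw [eq_dz hn] at hd ⊢
      rw [tt_dz_out (Set.notMem_empty z)]
      by_cases hz : z ∈ G
      · have e1 := h1 _ hd
        rw [b1C h hz] at e1
        have e2 := h2 _ e1
        simp only [Bool.not_false] at e2
        rw [b2T] at e2
        have e3 := h1 _ e2
        rw [b1C h hz] at e3
        exact e3
      · have e1 := h1 _ hd
        rw [b1N h hz] at e1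
        exact e1

theorem x_fl (h1 : ∀ m, X m → X ((pic h).B1 m)) {m : (Dart s × Bool) × Bool}
    (hm : m.2 = true → cutD G m.1.1) (γ' : Bool) (hγ : γ' = true → cutD G m.1.1) (hX : X m) :
    X (m.1, γ') := by
  obtain ⟨⟨d, β⟩, γ⟩ := m
  by_cases e : γ' = γ
  · rw [e]; exact hX
  · have hc : cutD G d := by
      cases γ
      · exact hγ (by cases γ' <;> simp_all)
      · exact hm rfl
    obtain ⟨z, hz, x, b, rfl⟩ := cutD_cases hc
    have e1 := h1 _ hX
    rw [b1C h hz] at e1
    have e2 : γ' = !γ := by cases γ <;> cases γ' <;> simp_all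
    rw [e2]; exact e1

theorem raw_conn (hc : ∀ i, s.Conn i) (h0 : ∀ m, X m → X ((pic h).B0 m))
    (h1 : ∀ m, X m → X ((pic h).B1 m)) (h2 : ∀ m, X m → X ((pic h).B2 m))
    {m m' : (Dart s × Bool) × Bool} (hm : m.2 = true → cutD G m.1.1)
    (hm' : m'.2 = true → cutD G m'.1.1) (hs : shD m'.1.1 = shD m.1.1) (hX : X m) : X m' := by
  obtain ⟨⟨d, β⟩, γ⟩ := m
  obtain ⟨⟨d', β'⟩, γ'⟩ := m'
  simp only at hs
  have a1 : X ((d, β), false) := x_fl h h1 hm false (fun h => absurd h (by simp)) hX
  obtain ⟨p, n1, -, n3, n4, n5⟩ := conn_down d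
  obtain ⟨p', n1', -, n3', n4', n5'⟩ := conn_down d'
  have a2 : X ((p, β), false) := x_chd h h0 h1 h2 (n5 inn) a1
  have ep : p = ed (pt_at p) := eq_ed n1 rfl rfl (pt_at p)
  have ep' : p' = ed (pt_at p') := eq_ed n1' rfl rfl (pt_at p')
  have l1 : s.lab (pt p) = shD d := by
    have := shD_eq p
    rw [n4, ← shD_eq] at this
    exact this
  have l2 : s.lab (pt p') = shD d := by
    have := shD_eq p'
    rw [n4', ← shD_eq, hs] at this
    exact this
  have key := (hc (shD d)).2 {w | ∃ (F : Φ) (hF : s.At F w) (β : Bool), X ((ed hF, β), false)}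
    (by
      rintro F w ⟨F', hF', β', hX'⟩ hF hl
      have b1 : X ((ed hF, β'), false) := x_point h h1 h2 hF' hX' hF β'
      have b2 := conn_ed hF (At.mu s hF) inn
      exact ⟨F, At.mu s hF, β', x_chd h h0 h1 h2 b2 b1⟩)
    (pt p) ⟨fc p, pt_at p, β, by rw [← ep]; exact a2⟩ (pt_at p).1 l1 (pt p') (pt_at p').1 l2
  obtain ⟨F, hF, β'', hX''⟩ := key
  have a3 : X ((ed (pt_at p'), β'), false) := x_point h h1 h2 hF hX'' (pt_at p') β'
  rw [← ep'] at a3
  have a4 : X ((d', β'), false) :=
    x_chd h h0 h1 h2 ((n5' inn).symm flip_flip tt_tt) a3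
  exact x_fl h h1 (m := ((d', β'), false)) (fun h => absurd h (by simp)) γ' hm' a4

theorem raw_link (h1 : ∀ m, X m → X ((pic h).B1 m)) (h2 : ∀ m, X m → X ((pic h).B2 m))
    {m m' : (Dart s × Bool) × Bool} (hm : m.2 = true → cutD G m.1.1)
    (hm' : m'.2 = true → cutD G m'.1.1) (hv : vxD G m'.1.1 = vxD G m.1.1)
    (hs : shD m'.1.1 = shD m.1.1) (hX : X m) : X m' := by
  revert hX hv hs
  refine flag_cases hm (C := fun m => vxD G m'.1.1 = vxD G m.1.1 → shD m'.1.1 = shD m.1.1 →
    X m → X m') ?_ ?_ ?_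
  · intro d β hn hv hs hX
    simp only at hv hs
    rw [vxD_none hn] at hv
    revert hv hs
    refine flag_cases hm' (C := fun m' => vxD G m'.1.1 = Sum.inl (pt d) →
      shD m'.1.1 = shD d → X m') ?_ ?_ ?_
    · intro d' β' hn' hv hs
      simp only at hv hs
      rw [vxD_none hn'] at hv
      have e1 := Sum.inl.inj hv
      have ep : d = ed (pt_at d) := eq_ed hn rfl rfl (pt_at d)
      have hF' : s.At (fc d') (pt d) := by rw [← e1]; exact pt_at d'
      have ep' : d' = ed hF' := eq_ed hn' rfl e1 hF'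
      rw [ep']
      rw [ep] at hX
      exact x_point h h1 h2 (pt_at d) hX hF' β'
    · intro z hz x b β' hv
      simp only at hv
      rw [vxD_out hz] at hv
      exact absurd hv (by simp)
    · intro z hz x b β' γ' hv
      simp only at hv
      rw [vxD_in hz] at hv
      exact absurd hv (by simp)
  · intro z hz x b β hv hs hX
    simp only at hv hs
    rw [vxD_out hz] at hv
    revert hv hs
    refine flag_cases hm' (C := fun m' => vxD G m'.1.1 = Sum.inr (z, x) →
      shD m'.1.1 = shD (dz z x b) → X m') ?_ ?_ ?_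
    · intro d' β' hn' hv
      simp only at hv
      rw [vxD_none hn'] at hv
      exact absurd hv (by simp)
    · intro z' hz' x' b' β' hv _
      simp only at hv
      rw [vxD_out hz'] at hv
      obtain ⟨e1, e2⟩ := Prod.mk.inj (Sum.inr.inj hv)
      subst e1 e2
      have e3 := h1 _ hX
      rw [b1N h hz] at e3
      have e4 : ∀ b' : Bool, X ((dz z' x' b', β), false) := by
        intro b'
        rcases Bool.eq_or_eq_not b' b with e | e
        · rw [e]; exact hX
        · rw [e]; exact e3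
      rcases Bool.eq_or_eq_not β' β with e | e
      · rw [e]; exact e4 b'
      · have e5 := h2 _ (e4 b')
        rw [b2F] at e5
        rw [e]; exact e5
    · intro z' hz' x' b' β' γ' hv
      simp only at hv
      rw [vxD_in hz'] at hv
      have e1 := (Prod.mk.inj (Sum.inr.inj hv)).1
      exact absurd (e1 ▸ hz') hz
  · intro z hz x b β γ hv hs hX
    simp only at hv hs
    rw [vxD_in hz] at hv
    revert hv hs
    refine flag_cases hm' (C := fun m' => vxD G m'.1.1 = Sum.inr (z, false) →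
      shD m'.1.1 = shD (dz z x b) → X m') ?_ ?_ ?_
    · intro d' β' hn' hv
      simp only at hv
      rw [vxD_none hn'] at hv
      exact absurd hv (by simp)
    · intro z' hz' x' b' β' hv
      simp only at hv
      rw [vxD_out hz'] at hv
      have e1 := (Prod.mk.inj (Sum.inr.inj hv)).1
      exact absurd (e1 ▸ hz) hz'
    · intro z' hz' x' b' β' γ' hv hs
      simp only at hv hs
      rw [vxD_in hz'] at hv
      have e1 := (Prod.mk.inj (Sum.inr.inj hv)).1
      subst e1
      have hx : x' = x := by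
        have e1 := col_shD (dz z' x b)
        have e2 := col_shD (dz z' x' b')
        rw [dz_x] at e1 e2
        exact e2.symm.trans ((congrArg col hs).trans e1)
      subst hx
      have a1 : X ((dz z' x' b, β), true) :=
        x_fl h h1 (m := ((dz z' x' b, β), γ)) (fun _ => cutD_dz.2 hz) true
          (fun _ => cutD_dz.2 hz) hX
      have a2 := h2 _ a1
      rw [b2T] at a2
      have e4 : X ((dz z' x' b', β), true) := by
        rcases Bool.eq_or_eq_not b' b with e | e
        · rw [e]; exact a1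
        · rw [e]; exact a2
      have a3 : X ((dz z' x' b', β), false) :=
        x_fl h h1 (m := ((dz z' x' b', β), true)) (fun _ => cutD_dz.2 hz) false
          (fun _ => cutD_dz.2 hz) e4
      have a4 : X ((dz z' x' b', β'), false) := by
        rcases Bool.eq_or_eq_not β' β with e | e
        · rw [e]; exact a3
        · have e5 := h2 _ a3
          rw [b2F] at e5
          rw [e]; exact e5
      exact x_fl h h1 (m := ((dz z' x' b', β'), false)) (fun h => absurd h (by simp)) γ'
        (fun _ => cutD_dz.2 hz) a4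

end

/-! ### the flag complex of a state -/

/-- flags of the refined surface -/
def Fl (G : Set s.Dbl) : Type := {m : (Dart s × Bool) × Bool // m.2 = true → cutD G m.1.1}

instance : Finite (Fl G) := by unfold Fl; infer_instance

/-- edges of the refined surface -/
def Eg (A : s.Arcs Act) (G : Set s.Dbl) : Type := Set.range (fun m : Fl G => egR A m.1)

/-- the edge of a flag -/
noncomputable def eg (A : s.Arcs Act) (m : Fl G) : Eg A G := ⟨egR A m.1, m, rfl⟩

theorem eg_eq {m m' : Fl G} : eg A m = eg A m' ↔ egR A m.1 = egR A m'.1 :=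
  ⟨fun h => congrArg Subtype.val h, fun h => Subtype.ext h⟩

instance : Finite (Eg A G) := by unfold Eg; infer_instance

/-- `H¹ = 0` of a sheet -/
theorem raw_h1 (hH : ∀ i, s.H1 i) (i : I) :
    H1 (fun m : Fl G => (⟨(pic h).B0 m.1, Pic.B0_ok (K := pic h) m.2⟩ : Fl G))
      (fun m => ⟨(pic h).B1 m.1, Pic.B1_ok (K := pic h) m.2⟩)
      (fun m => ⟨(pic h).B2 m.1, Pic.B2_ok (K := pic h) m.2⟩) (fun m => shD m.1.1.1 = i) := by
  intro θ h1 h2
  set T : (Dart s × Bool) × Bool → ZMod 2 := fun m =>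
    if hm : (m.2 = true → cutD G m.1.1) ∧ shD m.1.1 = i then θ ⟨m, hm.1⟩ else 0 with hT
  have hTv : ∀ m : Fl G, shD m.1.1.1 = i → T m.1 = θ m := by
    intro m hm
    simp only [hT]
    rw [dif_pos (⟨m.2, hm⟩ : (m.1.2 = true → cutD G m.1.1.1) ∧ shD m.1.1.1 = i)]
    rfl
  have hTn : ∀ m : (Dart s × Bool) × Bool, shD m.1.1 ≠ i → T m = 0 := by
    intro m hm
    simp only [hT]
    rw [dif_neg fun h => hm h.2]
  obtain ⟨ψ, χ, a1, a2, a3, a4, a5⟩ := fine_of_H1 h hH T (by
    rintro m ⟨-, hm⟩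
    by_cases hi : shD m.1.1 = i
    · have e1 := hTv ⟨m, hm⟩ hi
      have e2 := hTv ⟨(pic h).B1 m, Pic.B1_ok (K := pic h) hm⟩ ((raw_s1 h hm).trans hi)
      have e3 := h1 ⟨m, hm⟩ hi
      simp only at e1 e2 e3
      rw [e1, e2, e3]
    · rw [hTn m hi, hTn _ (by rw [raw_s1 h hm]; exact hi)]) (by
    rintro m ⟨-, hm⟩
    have hm0 := Pic.B0_ok (K := pic h) hm
    have hm2 := Pic.B2_ok (K := pic h) hm
    have hm02 := Pic.B0_ok (K := pic h) hm2
    by_cases hi : shD m.1.1 = i
    · have e1 := hTv ⟨m, hm⟩ hi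
      have e2 := hTv ⟨(pic h).B0 m, hm0⟩ ((raw_s0 h hm).trans hi)
      have e3 := hTv ⟨(pic h).B2 m, hm2⟩ ((raw_s2 h hm).trans hi)
      have e4 := hTv ⟨(pic h).B0 ((pic h).B2 m), hm02⟩
        ((raw_s0 h hm2).trans ((raw_s2 h hm).trans hi))
      have e5 := h2 ⟨m, hm⟩ hi
      simp only at e1 e2 e3 e4 e5
      rw [e1, e2, e3, e4, e5]
    · rw [hTn m hi, hTn _ (by rw [raw_s0 h hm]; exact hi), hTn _ (by rw [raw_s2 h hm]; exact hi),
        hTn _ (by rw [raw_s0 h hm2, raw_s2 h hm]; exact hi)]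
      simp)
  refine ⟨fun m => ψ m.1, fun m => χ m.1, ?_, ?_, ?_, ?_, ?_⟩
  · intro m _; exact a1 m.1 ⟨trivial, m.2⟩
  · intro m _; exact a2 m.1 ⟨trivial, m.2⟩
  · intro m _; exact a3 m.1 ⟨trivial, m.2⟩
  · intro m _; exact a4 m.1 ⟨trivial, m.2⟩
  · intro m hm
    rw [← hTv m hm]
    exact a5 m.1 ⟨trivial, m.2⟩

/-- **the flag complex of a state** -/
noncomputable def stFC (hH : ∀ i, s.H1 i) (hc : ∀ i, s.Conn i) :
    FC (Fl G) (W ⊕ (s.Dbl × Bool)) (Eg A G) I where
  a0 := fun m => ⟨(pic h).B0 m.1, Pic.B0_ok (K := pic h) m.2⟩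
  a1 := fun m => ⟨(pic h).B1 m.1, Pic.B1_ok (K := pic h) m.2⟩
  a2 := fun m => ⟨(pic h).B2 m.1, Pic.B2_ok (K := pic h) m.2⟩
  i0 := fun m => Subtype.ext (Pic.B0_B0 (K := pic h) m.2)
  i1 := fun m => Subtype.ext (Pic.B1_B1 (K := pic h) m.1)
  i2 := fun m => Subtype.ext (Pic.B2_B2 (K := pic h) m.1)
  c02 := fun m => Subtype.ext (Pic.B0_B2 (K := pic h) m.2)
  n1 := fun m e => Pic.B1_ne (K := pic h)
    (fun m' _ e' => fc_rF_ne m' (congrArg (fun x => fc x.1) e')) m.1 (congrArg Subtype.val e)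
  vx := fun m => vxD G m.1.1.1
  v1 := fun m => raw_v1 h m.2
  v2 := fun m => raw_v2 h m.2
  v0 := fun m => raw_v0 h m.2
  eg := eg A
  e0 := fun m => eg_eq.2 (raw_e0 h m.2)
  e2 := fun m => eg_eq.2 (raw_e2 h m.2)
  esurj := by
    rintro ⟨e, m, hm⟩
    exact ⟨m, Subtype.ext hm⟩
  sh := fun m => shD m.1.1.1
  s0 := fun m => raw_s0 h m.2
  s1 := fun m => raw_s1 h m.2
  s2 := fun m => raw_s2 h m.2
  col := col
  e_eq := fun m m' he hs => by
    rcases raw_e_eq h m.2 m'.2 (eg_eq.1 he) hs with e | e | e | e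
    · exact Or.inl (Subtype.ext e)
    · exact Or.inr (Or.inl (Subtype.ext e))
    · exact Or.inr (Or.inr (Or.inl (Subtype.ext e)))
    · exact Or.inr (Or.inr (Or.inr (Subtype.ext e)))
  e_vx := fun m m' he => raw_e_vx h m.2 m'.2 (eg_eq.1 he)
  t_ne := fun m => by
    obtain ⟨X, x0, x1, x2, x3⟩ := raw_t_ne h m.2
    exact ⟨fun y => X y.1, fun y hy => x0 y.1 y.2 hy, fun y hy => x1 y.1 y.2 hy, x2, x3⟩
  sep := by
    intro m m' hv hcol
    revert hv hcol
    refine flag_cases m.2 (C := fun y => vxD G y.1.1 = vxD G m'.1.1.1 →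
      col (shD y.1.1) = col (shD m'.1.1.1) → shD y.1.1 = shD m'.1.1.1) ?_ ?_ ?_
    · intro d β hn
      simp only
      rw [vxD_none hn]
      refine flag_cases m'.2 (C := fun y => Sum.inl (pt d) = vxD G y.1.1 →
        col (shD d) = col (shD y.1.1) → shD d = shD y.1.1) ?_ ?_ ?_
      · intro d' β' hn' hv _
        simp only at hv ⊢
        rw [vxD_none hn'] at hv
        unfold shD
        rw [Sum.inl.inj hv]
      · intro z hz x b β' hv
        simp only at hv
        rw [vxD_out hz] at hv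
        exact absurd hv (by simp)
      · intro z hz x b β' γ' hv
        simp only at hv
        rw [vxD_in hz] at hv
        exact absurd hv (by simp)
    · intro z hz x b β
      simp only
      rw [vxD_out hz]
      refine flag_cases m'.2 (C := fun y => Sum.inr (z, x) = vxD G y.1.1 →
        col (shD (dz z x b)) = col (shD y.1.1) → shD (dz z x b) = shD y.1.1) ?_ ?_ ?_
      · intro d' β' hn' hv
        simp only at hv
        rw [vxD_none hn'] at hv
        exact absurd hv (by simp)
      · intro z' hz' x' b' β' hv _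
        simp only at hv ⊢
        rw [vxD_out hz'] at hv
        obtain ⟨e1, e2⟩ := Prod.mk.inj (Sum.inr.inj hv)
        rw [shD_dz, shD_dz, e1, e2]
      · intro z' hz' x' b' β' γ' hv
        simp only at hv
        rw [vxD_in hz'] at hv
        have e1 := (Prod.mk.inj (Sum.inr.inj hv)).1
        exact absurd (e1 ▸ hz') hz
    · intro z hz x b β γ
      simp only
      rw [vxD_in hz]
      refine flag_cases m'.2 (C := fun y => Sum.inr (z, false) = vxD G y.1.1 →
        col (shD (dz z x b)) = col (shD y.1.1) → shD (dz z x b) = shD y.1.1) ?_ ?_ ?_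
      · intro d' β' hn' hv
        simp only at hv
        rw [vxD_none hn'] at hv
        exact absurd hv (by simp)
      · intro z' hz' x' b' β' hv
        simp only at hv
        rw [vxD_out hz'] at hv
        have e1 := (Prod.mk.inj (Sum.inr.inj hv)).1
        exact absurd (e1 ▸ hz) hz'
      · intro z' hz' x' b' β' γ' hv hcol
        simp only at hv hcol ⊢
        rw [vxD_in hz'] at hv
        have e1 := (Prod.mk.inj (Sum.inr.inj hv)).1
        have k1 := col_shD (dz z x b)
        have k2 := col_shD (dz z' x' b')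
        rw [dz_x] at k1 k2
        rw [shD_dz, shD_dz, e1, k1.symm.trans (hcol.trans k2)]
  conn := by
    intro X x0 x1 x2 m m' hX hs
    obtain ⟨hm', hr⟩ := raw_conn (X := fun y => ∃ hy : (y.2 = true → cutD G y.1.1), X ⟨y, hy⟩) h hc
      (by rintro y ⟨hy, hXy⟩; exact ⟨Pic.B0_ok (K := pic h) hy, x0 _ hXy⟩)
      (by rintro y ⟨hy, hXy⟩; exact ⟨Pic.B1_ok (K := pic h) hy, x1 _ hXy⟩)
      (by rintro y ⟨hy, hXy⟩; exact ⟨Pic.B2_ok (K := pic h) hy, x2 _ hXy⟩) m.2 m'.2 hs ⟨m.2, hX⟩
    exact hr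
  link := by
    intro X x1 x2 m m' hX hv hs
    obtain ⟨hm', hr⟩ := raw_link (X := fun y => ∃ hy : (y.2 = true → cutD G y.1.1), X ⟨y, hy⟩) h
      (by rintro y ⟨hy, hXy⟩; exact ⟨Pic.B1_ok (K := pic h) hy, x1 _ hXy⟩)
      (by rintro y ⟨hy, hXy⟩; exact ⟨Pic.B2_ok (K := pic h) hy, x2 _ hXy⟩) m.2 m'.2 hv hs ⟨m.2, hX⟩
    exact hr
  h1 := fun i => raw_h1 h hH i

end

end Crest.Agent.R096.Tig_438
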