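import Crest.Agent.R096.Ex0_914
import Crest.Agent.R096.Exl2_161

/-!
# R096 (row 96), P2-GEN (X45), part 1 (helper324): tilings by integer boxes

`boxTiling B` : the tiling of `Fin 3 → ℝ` by a locally finite family of integer boxes with disjoint
interiors; `bxs` : all its cells are integer boxes.
-/

set_option autoImplicit false

open Set Metric Topology

namespace Crest.Agent.R096.Til_324

open Msh_715 Gp_702 Ex_914

/-- the half spaces of a box -/
noncomputable def HB (b : Bx) : Finset ((E3 →L[ℝ] ℝ) × ℝ) := by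
  classical
  exact (Finset.univ.image fun j : Fin 3 =>
      ((ContinuousLinearMap.proj j : E3 →L[ℝ] ℝ), (b.2 j : ℝ))) ∪
    (Finset.univ.image fun j : Fin 3 =>
      (-(ContinuousLinearMap.proj j : E3 →L[ℝ] ℝ), -(b.1 j : ℝ)))

theorem forall_HB {b : Bx} {Q : (E3 →L[ℝ] ℝ) × ℝ → Prop} :
    (∀ p ∈ HB b, Q p) ↔ ∀ j : Fin 3, Q (ContinuousLinearMap.proj j, (b.2 j : ℝ)) ∧
      Q (-ContinuousLinearMap.proj j, -(b.1 j : ℝ)) := by
  classical
  constructor
  · intro h j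
    refine ⟨h _ ?_, h _ ?_⟩
    · unfold HB
      exact Finset.mem_union_left _ (Finset.mem_image_of_mem _ (Finset.mem_univ j))
    · unfold HB
      exact Finset.mem_union_right _ (Finset.mem_image_of_mem _ (Finset.mem_univ j))
  · intro h p hp
    unfold HB at hp
    rcases Finset.mem_union.1 hp with hp | hp
    · obtain ⟨j, -, rfl⟩ := Finset.mem_image.1 hp
      exact (h j).1
    · obtain ⟨j, -, rfl⟩ := Finset.mem_image.1 hp
      exact (h j).2

theorem P_HB (b : Bx) : P (HB b) = zcl b.1 b.2 := by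
  ext x
  show (∀ p ∈ HB b, p.1 x ≤ p.2) ↔ _
  rw [forall_HB (Q := fun p => p.1 x ≤ p.2)]
  refine forall_congr' fun j => ?_
  show (x j ≤ (b.2 j : ℝ) ∧ -x j ≤ -(b.1 j : ℝ)) ↔ _
  rw [neg_le_neg_iff, and_comm]

theorem mem_I_HB {b : Bx} {x : E3} : x ∈ I (HB b) ↔ ∀ j, (b.1 j : ℝ) < x j ∧ x j < (b.2 j : ℝ) := by
  show (∀ p ∈ HB b, p.1 x < p.2) ↔ _
  rw [forall_HB (Q := fun p => p.1 x < p.2)]
  refine forall_congr' fun j => ?_
  show (x j < (b.2 j : ℝ) ∧ -x j < -(b.1 j : ℝ)) ↔ _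
  rw [neg_lt_neg_iff, and_comm]

theorem isCompact_zcl (l h : Fin 3 → ℤ) : IsCompact (zcl l h) := by
  have : zcl l h = Icc (fun j => (l j : ℝ)) (fun j => (h j : ℝ)) := by
    ext x
    exact ⟨fun hx => ⟨fun j => (hx j).1, fun j => (hx j).2⟩, fun hx j => ⟨hx.1 j, hx.2 j⟩⟩
  rw [this]
  exact isCompact_Icc

/-- locally finite families of integer boxes with disjoint interiors -/
structure Fam (B : Set Bx) : Prop where
  nd : ∀ b ∈ B, ∀ j, b.1 j < b.2 j
  dis : ∀ b ∈ B, ∀ b' ∈ B, b ≠ b' → ∃ j, b.2 j ≤ b'.1 j ∨ b'.2 j ≤ b.1 j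
  cov : ∀ x : E3, ∃ b ∈ B, x ∈ zcl b.1 b.2
  lf : ∀ x : E3, ∃ r > 0, {b | b ∈ B ∧ (zcl b.1 b.2 ∩ ball x r).Nonempty}.Finite

/-- the tiling -/
noncomputable def boxTiling {B : Set Bx} (h : Fam B) : Tiling (univ : Set E3) B where
  H := fun b => HB b.1
  cpt := fun b => by rw [P_HB]; exact isCompact_zcl _ _
  ne := fun b => by
    refine ⟨fun j => ((b.1.1 j : ℝ) + b.1.2 j) / 2, mem_I_HB.2 fun j => ?_⟩
    have h1 : (b.1.1 j : ℝ) < b.1.2 j := by exact_mod_cast h.nd b.1 b.2 j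
    constructor <;> linarith
  sub := fun b => subset_univ _
  cov := fun x _ => by
    obtain ⟨b, hb, hx⟩ := h.cov x
    exact ⟨⟨b, hb⟩, by rw [P_HB]; exact hx⟩
  dis := fun b b' hne => by
    rw [Set.disjoint_left]
    intro x hx hx'
    rw [mem_I_HB] at hx hx'
    obtain ⟨j, hj⟩ := h.dis b.1 b.2 b'.1 b'.2 fun e => hne (Subtype.ext e)
    rcases hj with hj | hj
    · have h1 : (b.1.2 j : ℝ) ≤ b'.1.1 j := by exact_mod_cast hj
      linarith [(hx j).2, (hx' j).1]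
    · have h1 : (b'.1.2 j : ℝ) ≤ b.1.1 j := by exact_mod_cast hj
      linarith [(hx j).1, (hx' j).2]
  lf := fun x _ => by
    obtain ⟨r, hr, hf⟩ := h.lf x
    refine ⟨r, hr, ?_⟩
    refine (hf.preimage (f := (Subtype.val : B → Bx)) Subtype.val_injective.injOn).subset ?_
    intro b hb
    have hb' : (P (HB b.1) ∩ ball x r).Nonempty := hb
    rw [P_HB] at hb'
    exact ⟨b.2, hb'⟩
  op := isOpen_univ

section

variable {B : Set Bx} (h : Fam B)

theorem mem_at' {x : E3} {b : B} : b ∈ (boxTiling h).at_ x ↔ x ∈ zcl b.1.1 b.1.2 := by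
  show x ∈ P (HB b.1) ↔ _
  rw [P_HB]

theorem mem_cc' {x y : E3} : y ∈ (boxTiling h).cc x ↔ ∀ b ∈ (boxTiling h).at_ x, ∀ j,
    (y j ≤ (b.1.2 j : ℝ) ∧ (x j = (b.1.2 j : ℝ) → y j = (b.1.2 j : ℝ))) ∧
    ((b.1.1 j : ℝ) ≤ y j ∧ (x j = (b.1.1 j : ℝ) → y j = (b.1.1 j : ℝ))) := by
  show (∀ b ∈ (boxTiling h).at_ x, ∀ p ∈ HB b.1, p.1 y ≤ p.2 ∧ (p.1 x = p.2 → p.1 y = p.2)) ↔ _
  refine forall_congr' fun b => forall_congr' fun _ => ?_
  rw [forall_HB (Q := fun p => p.1 y ≤ p.2 ∧ (p.1 x = p.2 → p.1 y = p.2))]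
  refine forall_congr' fun j => ?_
  show ((y j ≤ (b.1.2 j : ℝ) ∧ (x j = (b.1.2 j : ℝ) → y j = (b.1.2 j : ℝ))) ∧
    (-y j ≤ -(b.1.1 j : ℝ) ∧ (-x j = -(b.1.1 j : ℝ) → -y j = -(b.1.1 j : ℝ)))) ↔ _
  rw [neg_le_neg_iff, neg_inj, neg_inj]

theorem mem_oc' {x y : E3} : y ∈ (boxTiling h).oc x ↔ ∀ b ∈ (boxTiling h).at_ x, ∀ j,
    (y j ≤ (b.1.2 j : ℝ) ∧ (y j = (b.1.2 j : ℝ) ↔ x j = (b.1.2 j : ℝ))) ∧
    ((b.1.1 j : ℝ) ≤ y j ∧ (y j = (b.1.1 j : ℝ) ↔ x j = (b.1.1 j : ℝ))) := by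
  show (∀ b ∈ (boxTiling h).at_ x, ∀ p ∈ HB b.1, p.1 y ≤ p.2 ∧ (p.1 y = p.2 ↔ p.1 x = p.2)) ↔ _
  refine forall_congr' fun b => forall_congr' fun _ => ?_
  rw [forall_HB (Q := fun p => p.1 y ≤ p.2 ∧ (p.1 y = p.2 ↔ p.1 x = p.2))]
  refine forall_congr' fun j => ?_
  show ((y j ≤ (b.1.2 j : ℝ) ∧ (y j = (b.1.2 j : ℝ) ↔ x j = (b.1.2 j : ℝ))) ∧
    (-y j ≤ -(b.1.1 j : ℝ) ∧ (-y j = -(b.1.1 j : ℝ) ↔ -x j = -(b.1.1 j : ℝ)))) ↔ _
  rw [neg_le_neg_iff, neg_inj, neg_inj]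

/-- **all cells are integer boxes** -/
theorem bxs : Bxs (boxTiling h) := by
  classical
  intro x
  have hA := (boxTiling h).at_finite (mem_univ x)
  have hne := (boxTiling h).at_nonempty (mem_univ x)
  have h1 : ∀ j : Fin 3, ∃ b ∈ (boxTiling h).at_ x, ∀ b' ∈ (boxTiling h).at_ x,
      b'.1.1 j ≤ b.1.1 j := fun j => Set.exists_max_image _ (fun b : B => b.1.1 j) hA hne
  have h2 : ∀ j : Fin 3, ∃ b ∈ (boxTiling h).at_ x, ∀ b' ∈ (boxTiling h).at_ x,
      b.1.2 j ≤ b'.1.2 j := fun j => Set.exists_min_image _ (fun b : B => b.1.2 j) hA hne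
  choose bm hbm hbm' using h1
  choose bn hbn hbn' using h2
  have hxm : ∀ j, ((bm j).1.1 j : ℝ) ≤ x j := fun j => ((mem_at' h).1 (hbm j) j).1
  have hxn : ∀ j, x j ≤ ((bn j).1.2 j : ℝ) := fun j => ((mem_at' h).1 (hbn j) j).2
  -- the two corners
  let l : Fin 3 → ℤ := fun j => if x j = ((bm j).1.1 j : ℝ) then (bm j).1.1 j else
    if x j = ((bn j).1.2 j : ℝ) then (bn j).1.2 j else (bm j).1.1 j
  let u : Fin 3 → ℤ := fun j => if x j = ((bm j).1.1 j : ℝ) then (bm j).1.1 j else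
    if x j = ((bn j).1.2 j : ℝ) then (bn j).1.2 j else (bn j).1.2 j
  -- three cases in every direction
  have hcase : ∀ j, (l j = u j ∧ x j = (l j : ℝ)) ∨
      (l j = (bm j).1.1 j ∧ u j = (bn j).1.2 j ∧ ((bm j).1.1 j : ℝ) < x j ∧
        x j < ((bn j).1.2 j : ℝ)) := by
    intro j
    by_cases e1 : x j = ((bm j).1.1 j : ℝ)
    · left
      refine ⟨by simp only [l, u, if_pos e1], ?_⟩
      simp only [l, if_pos e1]
      exact e1
    · by_cases e2 : x j = ((bn j).1.2 j : ℝ)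
      · left
        refine ⟨by simp only [l, u, if_neg e1, if_pos e2], ?_⟩
        simp only [l, if_neg e1, if_pos e2]
        exact e2
      · right
        exact ⟨by simp only [l, if_neg e1, if_neg e2], by simp only [u, if_neg e1, if_neg e2],
          lt_of_le_of_ne (hxm j) (Ne.symm e1), lt_of_le_of_ne (hxn j) e2⟩
  -- in the first case every point of the closed cell has the coordinate of `x`
  have hfix : ∀ j, l j = u j → x j = (l j : ℝ) → ∃ b ∈ (boxTiling h).at_ x,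
      x j = (b.1.1 j : ℝ) ∨ x j = (b.1.2 j : ℝ) := by
    intro j e e'
    by_cases e1 : x j = ((bm j).1.1 j : ℝ)
    · exact ⟨bm j, hbm j, Or.inl e1⟩
    · by_cases e2 : x j = ((bn j).1.2 j : ℝ)
      · exact ⟨bn j, hbn j, Or.inr e2⟩
      · exfalso
        simp only [l, u, if_neg e1, if_neg e2] at e
        have h3 := lt_of_le_of_ne (hxm j) (Ne.symm e1)
        have h4 := lt_of_le_of_ne (hxn j) e2
        rw [e] at h3
        linarith
  refine ⟨l, u, ?_, ?_, ?_⟩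
  · intro j
    rcases hcase j with ⟨e, -⟩ | ⟨e1, e2, e3, e4⟩
    · exact e.le
    · rw [e1, e2]
      have : ((bm j).1.1 j : ℝ) < ((bn j).1.2 j : ℝ) := e3.trans e4
      exact_mod_cast this.le
  · ext y
    rw [mem_cc']
    constructor
    · intro hy j
      rcases hcase j with ⟨e, e'⟩ | ⟨e1, e2, e3, e4⟩
      · obtain ⟨b, hb, hxb⟩ := hfix j e e'
        have hyj : y j = (l j : ℝ) := by
          rcases hxb with hxb | hxb
          · rw [(hy b hb j).2.2 hxb, ← hxb, e']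
          · rw [(hy b hb j).1.2 hxb, ← hxb, e']
        exact ⟨hyj.ge, by rw [← e]; exact hyj.le⟩
      · rw [e1, e2]
        exact ⟨(hy (bm j) (hbm j) j).2.1, (hy (bn j) (hbn j) j).1.1⟩
    · intro hy b hb j
      have hb' := (mem_at' h).1 hb j
      rcases hcase j with ⟨e, e'⟩ | ⟨e1, e2, e3, e4⟩
      · have hyj : y j = x j := by
          have := hy j
          rw [← e, ← e'] at this
          exact le_antisymm this.2 this.1
        rw [hyj]
        exact ⟨⟨hb'.2, fun t => t⟩, hb'.1, fun t => t⟩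
      · have hyj := hy j
        rw [e1, e2] at hyj
        have h5 : (b.1.1 j : ℝ) ≤ (bm j).1.1 j := by exact_mod_cast hbm' j b hb
        have h6 : ((bn j).1.2 j : ℝ) ≤ b.1.2 j := by exact_mod_cast hbn' j b hb
        refine ⟨⟨hyj.2.trans h6, fun t => ?_⟩, h5.trans hyj.1, fun t => ?_⟩
        · linarith
        · linarith
  · ext y
    rw [mem_oc']
    constructor
    · intro hy j
      rcases hcase j with ⟨e, e'⟩ | ⟨e1, e2, e3, e4⟩
      · left
        obtain ⟨b, hb, hxb⟩ := hfix j e e'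
        refine ⟨e, ?_⟩
        rcases hxb with hxb | hxb
        · rw [(hy b hb j).2.2.2 hxb, ← hxb, e']
        · rw [(hy b hb j).1.2.2 hxb, ← hxb, e']
      · right
        rw [e1, e2]
        refine ⟨lt_of_le_of_ne (hy (bm j) (hbm j) j).2.1 fun t => ?_,
          lt_of_le_of_ne (hy (bn j) (hbn j) j).1.1 fun t => ?_⟩
        · exact e3.ne' ((hy (bm j) (hbm j) j).2.2.1 t.symm)
        · exact e4.ne ((hy (bn j) (hbn j) j).1.2.1 t)
    · intro hy b hb j
      have hb' := (mem_at' h).1 hb j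
      rcases hcase j with ⟨e, e'⟩ | ⟨e1, e2, e3, e4⟩
      · have hyj : y j = x j := by
          rcases hy j with ⟨-, t⟩ | ⟨t1, t2⟩
          · rw [t, e']
          · rw [← e] at t2
            linarith
        rw [hyj]
        exact ⟨⟨hb'.2, Iff.rfl⟩, hb'.1, Iff.rfl⟩
      · have hyj : ((bm j).1.1 j : ℝ) < y j ∧ y j < ((bn j).1.2 j : ℝ) := by
          rcases hy j with ⟨t, -⟩ | t
          · rw [e1, e2] at t
            rw [t] at e3
            linarith
          · rwa [e1, e2] at t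
        have h5 : (b.1.1 j : ℝ) ≤ (bm j).1.1 j := by exact_mod_cast hbm' j b hb
        have h6 : ((bn j).1.2 j : ℝ) ≤ b.1.2 j := by exact_mod_cast hbn' j b hb
        refine ⟨⟨by linarith [hyj.2], ?_⟩, by linarith [hyj.1], ?_⟩
        · constructor
          · intro t; linarith [hyj.2]
          · intro t; linarith
        · constructor
          · intro t; linarith [hyj.1]
          · intro t; linarith

end

end Crest.Agent.R096.Til_324
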