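import Crest.Agent.R096.Til1_324
import Crest.Agent.R096.GpK1_702

/-!
# R096 (row 96), P2-GEN (X45), part 2 (helper324): the tiling of the macros is adapted

`til : RayStmt → TilStmt`.
-/

set_option autoImplicit false

open Set Metric Topology

namespace Crest.Agent.R096.Til_324

open Msh_715 Gp_702 Ex_914

/-- the macros and all unit cubes which are not contained in a macro -/
def fam (M : Finset Bx) : Set Bx :=
  {b | b ∈ M ∨ ((b.2 = fun j => b.1 j + 1) ∧ ∀ c ∈ M, ¬ Sub1 b.1 c)}

theorem fam_fam {M : Finset Bx} (nd : ∀ b ∈ M, ∀ j, b.1 j < b.2 j)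
    (dis : ∀ b ∈ M, ∀ b' ∈ M, b ≠ b' → ∃ j, b.2 j ≤ b'.1 j ∨ b'.2 j ≤ b.1 j) : Fam (fam M) where
  nd := by
    rintro b (hb | ⟨hb, -⟩) j
    · exact nd b hb j
    · rw [hb]; simp
  dis := by
    have key : ∀ b c : Bx, (b.2 = fun j => b.1 j + 1) → ¬ Sub1 b.1 c →
        ∃ j, b.2 j ≤ c.1 j ∨ c.2 j ≤ b.1 j := by
      intro b c hb hbc
      unfold Sub1 at hbc
      push Not at hbc
      obtain ⟨j, hj⟩ := hbc
      refine ⟨j, ?_⟩
      rw [hb]
      by_cases h1 : c.1 j ≤ b.1 j
      · right
        have := hj h1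
        omega
      · left
        show b.1 j + 1 ≤ c.1 j
        omega
    rintro b (hb | ⟨hb, hb'⟩) c (hc | ⟨hc, hc'⟩) hne
    · exact dis b hb c hc hne
    · obtain ⟨j, hj⟩ := key c b hc (hc' b hb)
      exact ⟨j, hj.symm⟩
    · exact key b c hb (hb' c hc)
    · have h1 : b.1 ≠ c.1 := by
        intro h
        apply hne
        refine Prod.ext h ?_
        rw [hb, hc, h]
      obtain ⟨j, hj⟩ := Function.ne_iff.1 h1
      refine ⟨j, ?_⟩
      rw [hb, hc]
      show b.1 j + 1 ≤ c.1 j ∨ c.1 j + 1 ≤ b.1 j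
      omega
  cov := by
    intro x
    by_cases h : ∃ c ∈ M, Sub1 (fun j => ⌊x j⌋) c
    · obtain ⟨c, hc, hs⟩ := h
      refine ⟨c, Or.inl hc, fun j => ?_⟩
      have h1 := (hs j).1
      have h2 := (hs j).2
      constructor
      · have : (c.1 j : ℝ) ≤ ⌊x j⌋ := by exact_mod_cast h1
        exact this.trans (Int.floor_le _)
      · have : ((⌊x j⌋ + 1 : ℤ) : ℝ) ≤ c.2 j := by exact_mod_cast h2
        push_cast at this
        exact (Int.lt_floor_add_one (x j)).le.trans this
    · push Not at h
      refine ⟨(fun j => ⌊x j⌋, fun j => ⌊x j⌋ + 1), Or.inr ⟨rfl, h⟩, fun j => ⟨Int.floor_le _, ?_⟩⟩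
      have := (Int.lt_floor_add_one (x j)).le
      push_cast
      exact this
  lf := by
    intro x
    refine ⟨1, one_pos, ?_⟩
    refine (M.finite_toSet.union ((Set.finite_Icc (fun j => ⌊x j⌋ - 2)
      (fun j => ⌊x j⌋ + 2)).image (fun l : Fin 3 → ℤ => ((l, fun j => l j + 1) : Bx)))).subset ?_
    rintro b ⟨hb | ⟨hb, -⟩, y, hy, hyx⟩
    · exact Or.inl hb
    · right
      refine ⟨b.1, ⟨fun j => ?_, fun j => ?_⟩, Prod.ext rfl hb.symm⟩
      · show ⌊x j⌋ - 2 ≤ b.1 j
        have h1 : |y j - x j| < 1 := by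
          rw [mem_ball, dist_eq_norm] at hyx
          exact (norm_le_pi_norm (y - x) j).trans_lt hyx
        have h2 := (hy j).2
        rw [hb] at h2
        push_cast at h2
        have h3 := Int.floor_le (x j)
        have h4 := (abs_lt.1 h1).1
        have h5 : ((⌊x j⌋ - 2 : ℤ) : ℝ) ≤ b.1 j := by push_cast; linarith
        exact_mod_cast h5
      · show b.1 j ≤ ⌊x j⌋ + 2
        have h1 : |y j - x j| < 1 := by
          rw [mem_ball, dist_eq_norm] at hyx
          exact (norm_le_pi_norm (y - x) j).trans_lt hyx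
        have h2 := (hy j).1
        have h3 := Int.lt_floor_add_one (x j)
        have h4 := (abs_lt.1 h1).2
        have h5 : (b.1 j : ℝ) ≤ ((⌊x j⌋ + 2 : ℤ) : ℝ) := by push_cast; linarith
        exact_mod_cast h5

theorem continuous_ev (f : Af) : Continuous (ev f) := f.1.continuous.add continuous_const

/-- points off all planes are not in `S` -/
theorem rank0 {F : Finset Af} {S : Set E3} (hD : Det F S)
    (hT : ∀ x ∈ S, Ax_914.TwoSidedAt S x) {x : E3} (hx : ∀ f ∈ F, ev f x ≠ 0) : x ∉ S := by
  intro hxS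
  have hev : ∀ f ∈ F, ∀ᶠ y in 𝓝 x, SignType.sign (ev f x) = SignType.sign (ev f y) := by
    intro f hf
    rcases lt_or_gt_of_ne (hx f hf) with h | h
    · have := (continuous_ev f).continuousAt.eventually (gt_mem_nhds h)
      filter_upwards [this] with y hy
      rw [sign_neg h, sign_neg hy]
    · have := (continuous_ev f).continuousAt.eventually (lt_mem_nhds h)
      filter_upwards [this] with y hy
      rw [sign_pos h, sign_pos hy]
  have h1 := (Filter.eventually_all_finset F).2 hev
  obtain ⟨U, hUs, hUo, hxU⟩ := _root_.mem_nhds_iff.1 h1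
  exact not_open_of_twoSided (hT x hxS) hUo hxU fun y hy => hD x y (hUs hy) hxS

/-- a function without zero on a convex set has constant sign there -/
theorem sign_const {C : Set E3} (hC : Convex ℝ C) {f : Af} (hf : ¬ ∃ y ∈ C, ev f y = 0) {x y : E3}
    (hx : x ∈ C) (hy : y ∈ C) : SignType.sign (ev f x) = SignType.sign (ev f y) := by
  by_contra hne
  have h0 : ∀ y ∈ C, ev f y ≠ 0 := fun y hy h => hf ⟨y, hy, h⟩
  have hpc : IsPreconnected C := hC.isPreconnected
  have hx0 := h0 x hx
  have hy0 := h0 y hy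
  rcases lt_or_gt_of_ne hx0 with h1 | h1 <;> rcases lt_or_gt_of_ne hy0 with h2 | h2
  · exact hne (by rw [sign_neg h1, sign_neg h2])
  · obtain ⟨w, hw, hw0⟩ := hpc.intermediate_value hx hy (continuous_ev f).continuousOn
      ⟨h1.le, h2.le⟩
    exact h0 w hw hw0
  · obtain ⟨w, hw, hw0⟩ := hpc.intermediate_value hy hx (continuous_ev f).continuousOn
      ⟨h2.le, h1.le⟩
    exact h0 w hw hw0
  · exact hne (by rw [sign_pos h1, sign_pos h2])

theorem ev_cone (f : Af) (z y : E3) (t : ℝ) :
    ev f (z + t • (y - z)) = (1 - t) * ev f z + t * ev f y := by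
  simp only [ev, map_add, map_smul, map_sub, smul_eq_mul]; ring

/-- the cone property from a common zero -/
theorem cone_of {F : Finset Af} {S C : Set E3} (hD : Det F S) (hC : Convex ℝ C) {z : E3}
    (hz : z ∈ C) (hzF : ∀ f ∈ F, (∃ y ∈ C, ev f y = 0) → ev f z = 0) {y : E3} (hy : y ∈ C) {t : ℝ}
    (ht : 0 < t) (ht1 : t ≤ 1) : (z + t • (y - z) ∈ S ↔ y ∈ S) := by
  have hs : ∀ f ∈ F, SignType.sign (ev f (z + t • (y - z))) = SignType.sign (ev f y) := by
    intro f hf
    by_cases h : ∃ y ∈ C, ev f y = 0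
    · rw [ev_cone, hzF f hf h, mul_zero, zero_add, sign_mul, sign_pos ht, one_mul]
    · exact sign_const hC h (hC.add_smul_sub_mem hz hy ⟨ht.le, ht1⟩) hy
  exact ⟨fun h => hD _ _ hs h, fun h => hD _ _ (fun f hf => (hs f hf).symm) h⟩

/-- the common zero is in `S` -/
theorem zero_mem {F : Finset Af} {S C : Set E3} (hD : Det F S) (hSc : IsClosed S)
    (hC : Convex ℝ C) {z : E3} (hz : z ∈ C) (hzF : ∀ f ∈ F, (∃ y ∈ C, ev f y = 0) → ev f z = 0)
    (hne : (C ∩ S).Nonempty) : z ∈ S := by
  obtain ⟨y, hyC, hyS⟩ := hne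
  have h1 : ∀ t : ℝ, 0 < t → t ≤ 1 → z + t • (y - z) ∈ S := fun t ht ht1 =>
    (cone_of hD hC hz hzF hyC ht ht1).2 hyS
  have hc : Filter.Tendsto (fun t : ℝ => z + t • (y - z)) (𝓝[>] 0) (𝓝 z) := by
    have : Filter.Tendsto (fun t : ℝ => z + t • (y - z)) (𝓝 0) (𝓝 (z + (0 : ℝ) • (y - z))) := by
      apply Continuous.tendsto
      fun_prop
    rw [zero_smul, add_zero] at this
    exact this.mono_left nhdsWithin_le_nhds
  refine hSc.mem_of_tendsto hc ?_
  have h2 : ∀ᶠ t : ℝ in 𝓝[>] 0, t < 1 :=
    (gt_mem_nhds (zero_lt_one' ℝ)).filter_mono nhdsWithin_le_nhds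
  filter_upwards [h2, self_mem_nhdsWithin] with t ht ht0
  exact h1 t ht0 ht.le

section

variable {F : Finset Af} {M : Finset Bx} {K : ℝ} {S : Set E3}

/-- the three kinds of cells that meet `S` -/
theorem kinds (hM : Mac F M K) (hK : ∀ x ∈ S, ∀ j, |x j| ≤ K - 1) {x : E3}
    (hx : ((boxTiling (fam_fam hM.nd hM.dis)).cc x ∩ S).Nonempty) :
    -- a cell of a unit cube
    (∀ f ∈ F, ∀ g ∈ F, (∃ y ∈ (boxTiling (fam_fam hM.nd hM.dis)).cc x, ev f y = 0) →
      (∃ y ∈ (boxTiling (fam_fam hM.nd hM.dis)).cc x, ev g y = 0) →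
      ∃ c : ℝ, c ≠ 0 ∧ g.1 = c • f.1 ∧ g.2 = c * f.2) ∨
    -- the interior of a macro
    ((∃ i, x ∈ I ((boxTiling (fam_fam hM.nd hM.dis)).H i)) ∧
      ∃ z ∈ (boxTiling (fam_fam hM.nd hM.dis)).oc x,
      ∀ f ∈ F, (∃ y ∈ (boxTiling (fam_fam hM.nd hM.dis)).cc x, ev f y = 0) → ev f z = 0) ∨
    -- the common face of two macros
    (∃ j, ∃ z d : E3, z ∈ (boxTiling (fam_fam hM.nd hM.dis)).oc x ∧ d j ≠ 0 ∧
      (∀ y ∈ (boxTiling (fam_fam hM.nd hM.dis)).cc x, y j = z j) ∧
      ∀ f ∈ F, (∃ y ∈ (boxTiling (fam_fam hM.nd hM.dis)).cc x, ev f y = 0) →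
        ev f z = 0 ∧ f.1 d = 0) := by
  classical
  set hF := fam_fam hM.nd hM.dis with hFdef
  set T := boxTiling hF with hT
  obtain ⟨y0, hy0, hy0S⟩ := hx
  by_cases hu : ∃ i ∈ T.at_ x, i.1 ∉ M
  · -- a unit cube
    left
    obtain ⟨i, hi, hiM⟩ := hu
    rcases i.2 with hb | ⟨hb, hb'⟩
    · exact absurd hb hiM
    have hsub : T.cc x ⊆ zcl i.1.1 (fun j => i.1.1 j + 1) := by
      have h1 := T.cc_sub_tile hi
      have h2 : P (T.H i) = zcl i.1.1 i.1.2 := P_HB i.1
      rw [h2, hb] at h1
      exact h1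
    have hl : ∀ j, |(i.1.1 j : ℝ)| ≤ K := by
      intro j
      have h1 := hsub hy0 j
      have h2 := abs_le.1 (hK y0 hy0S j)
      push_cast at h1
      rw [abs_le]
      constructor <;> linarith [h1.1, h1.2, h2.1, h2.2]
    intro f hf g hg ⟨y, hy, hyf⟩ ⟨y', hy', hyg⟩
    exact hM.small i.1.1 hb' hl f hf g hg ⟨y, hsub hy, hyf⟩ ⟨y', hsub hy', hyg⟩
  · push Not at hu
    right
    -- every tile at `x` is a macro
    obtain ⟨b, hb⟩ := T.at_nonempty (mem_univ x)
    have hbM := hu b hb
    have hxb : x ∈ zcl b.1.1 b.1.2 := (mem_at' hF).1 hb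
    obtain ⟨r, hr, -, hball⟩ := T.exists_ball (mem_univ x)
    by_cases h1 : ∀ b' ∈ T.at_ x, b' = b
    · -- only one macro
      left
      have hin : ∀ j, x j ≠ (b.1.1 j : ℝ) ∧ x j ≠ (b.1.2 j : ℝ) := by
        intro j
        constructor
        · intro e
          -- move down a little
          have hy : Function.update x j (x j - r / 2) ∈ ball x r := by
            rw [mem_ball, dist_pi_lt_iff hr]
            intro k
            by_cases hk : k = j
            · subst hk
              rw [Function.update_self, Real.dist_eq]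
              rw [show x k - r / 2 - x k = -(r / 2) by ring, abs_neg, abs_of_pos (by linarith)]
              linarith
            · rw [Function.update_of_ne hk, dist_self]; exact hr
          obtain ⟨i, hi⟩ := T.cov _ (mem_univ (Function.update x j (x j - r / 2)))
          have hib := h1 i (hball _ hy hi)
          subst hib
          have h2 := ((mem_at' hF).1 hi j).1
          rw [Function.update_self, e] at h2
          linarith
        · intro e
          have hy : Function.update x j (x j + r / 2) ∈ ball x r := by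
            rw [mem_ball, dist_pi_lt_iff hr]
            intro k
            by_cases hk : k = j
            · subst hk
              rw [Function.update_self, Real.dist_eq]
              rw [show x k + r / 2 - x k = r / 2 by ring, abs_of_pos (by linarith)]
              linarith
            · rw [Function.update_of_ne hk, dist_self]; exact hr
          obtain ⟨i, hi⟩ := T.cov _ (mem_univ (Function.update x j (x j + r / 2)))
          have hib := h1 i (hball _ hy hi)
          subst hib
          have h2 := ((mem_at' hF).1 hi j).2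
          rw [Function.update_self, e] at h2
          linarith
      obtain ⟨z, hz, hzF⟩ := hM.big b.1 hbM
      refine ⟨⟨b, ?_⟩, z, ?_, ?_⟩
      · show x ∈ I (HB b.1)
        rw [mem_I_HB]
        exact fun j => ⟨lt_of_le_of_ne (hxb j).1 (hin j).1.symm, lt_of_le_of_ne (hxb j).2 (hin j).2⟩
      · rw [mem_oc']
        intro b' hb' j
        rw [h1 b' hb']
        refine ⟨⟨(hz j).2.le, ?_⟩, (hz j).1.le, ?_⟩
        · exact ⟨fun e => absurd e (hz j).2.ne, fun e => absurd e (hin j).2⟩
        · exact ⟨fun e => absurd e (hz j).1.ne', fun e => absurd e (hin j).1⟩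
      · rintro f hf ⟨y, hy, hyf⟩
        have hsub : T.cc x ⊆ zcl b.1.1 b.1.2 := by
          have h2 := T.cc_sub_tile hb
          rwa [show P (T.H b) = zcl b.1.1 b.1.2 from P_HB b.1] at h2
        exact hzF f hf ⟨y, hsub hy, hyf⟩
    · -- two macros
      right
      push Not at h1
      obtain ⟨b', hb', hne⟩ := h1
      have hb'M := hu b' hb'
      have hxb' : x ∈ zcl b'.1.1 b'.1.2 := (mem_at' hF).1 hb'
      have hnev : b.1 ≠ b'.1 := fun e => hne (Subtype.ext e.symm)
      have hall : ∀ c ∈ T.at_ x, c = b ∨ c = b' := by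
        intro c hc
        by_contra hcon
        push Not at hcon
        have h2 := hM.triple b.1 hbM b'.1 hb'M c.1 (hu c hc) hnev
          (fun e => hcon.2 (Subtype.ext e.symm)) (fun e => hcon.1 (Subtype.ext e.symm))
        have h3 : x ∈ zcl b.1.1 b.1.2 ∩ zcl b'.1.1 b'.1.2 ∩ zcl c.1.1 c.1.2 :=
          ⟨⟨hxb, hxb'⟩, (mem_at' hF).1 hc⟩
        rw [h2] at h3
        exact h3
      obtain ⟨j, z, d, hzi, hzj, hdj, hzF⟩ := hM.pair b.1 hbM b'.1 hb'M hnev ⟨x, hxb, hxb'⟩
      have hcc : T.cc x ⊆ zcl b.1.1 b.1.2 ∩ zcl b'.1.1 b'.1.2 := by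
        have h2 := T.cc_sub_tile hb
        have h3 := T.cc_sub_tile hb'
        rw [show P (T.H b) = zcl b.1.1 b.1.2 from P_HB b.1] at h2
        rw [show P (T.H b') = zcl b'.1.1 b'.1.2 from P_HB b'.1] at h3
        exact subset_inter h2 h3
      have hxj : x j = z j := by
        have h2 := hxb j
        have h3 := hxb' j
        rcases hzj with ⟨e1, e2⟩ | ⟨e1, e2⟩
        · have e3 : (b.1.2 j : ℝ) = b'.1.1 j := by exact_mod_cast e1
          linarith [h2.2, h3.1]
        · have e3 : (b'.1.2 j : ℝ) = b.1.1 j := by exact_mod_cast e1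
          linarith [h2.1, h3.2]
      have hyj : ∀ y ∈ T.cc x, y j = z j := by
        intro y hy
        have h2 := (hcc hy).1 j
        have h3 := (hcc hy).2 j
        rcases hzj with ⟨e1, e2⟩ | ⟨e1, e2⟩
        · have e3 : (b.1.2 j : ℝ) = b'.1.1 j := by exact_mod_cast e1
          linarith [h2.2, h3.1]
        · have e3 : (b'.1.2 j : ℝ) = b.1.1 j := by exact_mod_cast e1
          linarith [h2.1, h3.2]
      -- the other coordinates of `x` are interior for both
      have hcov : ∀ y ∈ ball x r, y ∈ zcl b.1.1 b.1.2 ∨ y ∈ zcl b'.1.1 b'.1.2 := by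
        intro y hy
        obtain ⟨i, hi⟩ := T.cov y (mem_univ y)
        rcases hall i (hball y hy hi) with rfl | rfl
        · exact Or.inl ((mem_at' hF).1 hi)
        · exact Or.inr ((mem_at' hF).1 hi)
      -- a point which is moved in the directions `i` and `j`
      have hmv : ∀ (i : Fin 3), i ≠ j → ∀ s t : ℝ, |s| ≤ r / 2 → |t| ≤ r / 2 →
          ∃ y ∈ ball x r, y i = x i + s ∧ y j = x j + t ∧ ∀ k, k ≠ i → k ≠ j → y k = x k := by
        intro i hij s t hs ht
        refine ⟨fun k => if k = i then x i + s else if k = j then x j + t else x k, ?_, by simp,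
          by simp [hij.symm], fun k hk hk' => by simp [hk, hk']⟩
        rw [mem_ball, dist_pi_lt_iff hr]
        intro k
        rw [Real.dist_eq]
        by_cases hk : k = i
        · subst hk
          simp only [if_true]
          rw [add_sub_cancel_left]; linarith
        · by_cases hk' : k = j
          · subst hk'
            simp only [hk, if_false, if_true]
            rw [add_sub_cancel_left]; linarith
          · simp only [hk, hk', if_false, sub_self, abs_zero]; exact hr
      have hint : ∀ i, i ≠ j → (x i ≠ (b.1.1 i : ℝ) ∧ x i ≠ (b.1.2 i : ℝ)) ∧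
          (x i ≠ (b'.1.1 i : ℝ) ∧ x i ≠ (b'.1.2 i : ℝ)) := by
        intro i hij
        have h5 : |r / 2| ≤ r / 2 := by rw [abs_of_pos (by linarith)]
        have h6 : |-(r / 2)| ≤ r / 2 := by rw [abs_neg]; exact h5
        -- sign of the move in direction `j` towards `b`, resp. `b'`
        rcases hzj with ⟨e1, e2⟩ | ⟨e1, e2⟩
        · have e3 : (b.1.2 j : ℝ) = b'.1.1 j := by exact_mod_cast e1
          refine ⟨⟨?_, ?_⟩, ?_, ?_⟩
          · intro e
            obtain ⟨y, hy, hy1, hy2, -⟩ := hmv i hij (-(r / 2)) (-(r / 2)) h6 h6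
            rcases hcov y hy with h7 | h7
            · have := (h7 i).1; linarith
            · have := (h7 j).1; linarith
          · intro e
            obtain ⟨y, hy, hy1, hy2, -⟩ := hmv i hij (r / 2) (-(r / 2)) h5 h6
            rcases hcov y hy with h7 | h7
            · have := (h7 i).2; linarith
            · have := (h7 j).1; linarith
          · intro e
            obtain ⟨y, hy, hy1, hy2, -⟩ := hmv i hij (-(r / 2)) (r / 2) h6 h5
            rcases hcov y hy with h7 | h7
            · have := (h7 j).2; linarith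
            · have := (h7 i).1; linarith
          · intro e
            obtain ⟨y, hy, hy1, hy2, -⟩ := hmv i hij (r / 2) (r / 2) h5 h5
            rcases hcov y hy with h7 | h7
            · have := (h7 j).2; linarith
            · have := (h7 i).2; linarith
        · have e3 : (b'.1.2 j : ℝ) = b.1.1 j := by exact_mod_cast e1
          refine ⟨⟨?_, ?_⟩, ?_, ?_⟩
          · intro e
            obtain ⟨y, hy, hy1, hy2, -⟩ := hmv i hij (-(r / 2)) (r / 2) h6 h5
            rcases hcov y hy with h7 | h7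
            · have := (h7 i).1; linarith
            · have := (h7 j).2; linarith
          · intro e
            obtain ⟨y, hy, hy1, hy2, -⟩ := hmv i hij (r / 2) (r / 2) h5 h5
            rcases hcov y hy with h7 | h7
            · have := (h7 i).2; linarith
            · have := (h7 j).2; linarith
          · intro e
            obtain ⟨y, hy, hy1, hy2, -⟩ := hmv i hij (-(r / 2)) (-(r / 2)) h6 h6
            rcases hcov y hy with h7 | h7
            · have := (h7 j).1; linarith
            · have := (h7 i).1; linarith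
          · intro e
            obtain ⟨y, hy, hy1, hy2, -⟩ := hmv i hij (r / 2) (-(r / 2)) h5 h6
            rcases hcov y hy with h7 | h7
            · have := (h7 j).1; linarith
            · have := (h7 i).2; linarith
      refine ⟨j, z, d, ?_, hdj, hyj, ?_⟩
      · rw [mem_oc']
        intro c hc k
        have hcx := (mem_at' hF).1 hc k
        by_cases hk : k = j
        · rw [hk] at hcx ⊢
          rw [← hxj]
          exact ⟨⟨hcx.2, Iff.rfl⟩, hcx.1, Iff.rfl⟩
        · have h7 := hint k hk
          have h8 := hzi k hk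
          rcases hall c hc with rfl | rfl
          · refine ⟨⟨h8.1.2.le, ?_⟩, h8.1.1.le, ?_⟩
            · exact ⟨fun e => absurd e h8.1.2.ne, fun e => absurd e h7.1.2⟩
            · exact ⟨fun e => absurd e h8.1.1.ne', fun e => absurd e h7.1.1⟩
          · refine ⟨⟨h8.2.2.le, ?_⟩, h8.2.1.le, ?_⟩
            · exact ⟨fun e => absurd e h8.2.2.ne, fun e => absurd e h7.2.2⟩
            · exact ⟨fun e => absurd e h8.2.1.ne', fun e => absurd e h7.2.1⟩
      · rintro f hf ⟨y, hy, hyf⟩
        exact hzF f hf ⟨y, hcc hy, hyf⟩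

end

end Crest.Agent.R096.Til_324
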