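import Crest.Agent.R096.Mbf_337
import Crest.Agent.R096.Pse3_316
import Crest.Agent.R096.Nr1_527
import Crest.Agent.R096.Vb9_965
import Crest.Agent.R096.Dic2_582

/-! # Row 96, TINY-LOC (helper4), part 1: `Psi ∘ f`, the levels and the gauge are uniformly
continuous off a ball round the preimage of a point hole. -/

set_option autoImplicit false
set_option linter.unusedSectionVars false

open Set Filter Topology Metric MeasureTheory

namespace Crest.Agent.R096.Tl_4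

open Crest.Agent.R096.Brk1_582 Crest.Agent.R096.Brk2_582 Crest.Agent.R096.Brk3_582
open Crest.Agent.R096.Brk5_582 Crest.Agent.R096.Bsp_628
open Crest.Agent.R096.SkC1_961 (E3 Hom3 FoamD)
open Crest.Agent.R096.Msh_715 Crest.Agent.R096.Vb_965
open Crest.Agent.R096.Mbf_337 (gau KJ)
open Crest.Agent.R096.Sphg_316
open Crest.Agent.R96.Push_899

variable {δ κ0 Rc c0 : ℝ} {La Om : Set E3} (Φ : FoamD δ κ0 Rc c0 La)

/-- finitely many cells touch `c` -/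
theorem finite_N (hLa : IsOpen La) (c : Φ.F) :
    {c' : Φ.F | (Pc Φ.F c' ∩ Pc Φ.F c).Nonempty}.Finite := by
  have FF := foam Φ.bf hLa
  exact Nr_527.finite_meet Φ.bf hLa (FF.cpt c) (FF.sub c)

/-- the interior of the cell `c` -/
def inn (c : Φ.F) : Set E3 := {y | ∀ k, c.1.lo k < y k ∧ y k < c.1.hi k}

theorem inn_sub {c : Φ.F} : inn Φ c ⊆ Pc Φ.F c := fun _ hy =>
  Bx.mem_set.2 fun k => ⟨(hy k).1.le, (hy k).2.le⟩

/-- the cell of a point of the interior -/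
theorem inn_only (hLa : IsOpen La) {c c' : Φ.F} {y : E3} (hy : y ∈ inn Φ c) (hy' : y ∈ c'.1.set) :
    c' = c := by
  by_contra hne
  exact (wall_iff Φ hLa (inn_sub Φ hy)).1 ⟨c', hne, hy'⟩ (fun k => hy k)

/-- the hole is in the interior of the brick -/
theorem hole_inn {c : Φ.F} {y : E3} (hy : y ∈ (Φ.B c).S) : y ∈ inn Φ c := by
  intro i
  rcases Φ.push c with ⟨P, κ, ρ, hS, -⟩ | ⟨P, κ, ρ, C, hS, hI, -⟩
  · have h1 := hS.nest.lo i
    have h2 := hS.nest.hi i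
    have h3 := hy i
    exact ⟨lt_of_lt_of_le h1 h3.1, lt_of_le_of_lt h3.2 h2⟩
  · have h1 := hS.nest.lo i
    have h2 := hS.nest.hi i
    have h4 := hI.nest.lo i
    have h5 := hI.nest.hi i
    have h3 := hy i
    exact ⟨(h1.trans h4).trans_le h3.1, (h3.2.trans_lt h5).trans h2⟩

/-- off the point hole of `c` there are no holes in the interior of `c` -/
theorem not_hole (hLa : IsOpen La) {c : Φ.F} (hpt : (Φ.B c).lo = (Φ.B c).hi) {y : E3}
    (hy : y ∈ inn Φ c) (hne : y ≠ (Φ.B c).lo) (c' : Φ.F) : y ∉ (Φ.B c').S := by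
  intro h
  have h1 := inn_only Φ hLa hy (inn_sub Φ (hole_inn Φ h))
  subst h1
  apply hne
  funext k
  have h2 := h k
  rw [← hpt] at h2
  exact le_antisymm h2.2 h2.1

/-- **uniform continuity** -/
theorem exists_osc (hLa : IsOpen La) {f : E3 → E3} {c : Φ.F} (hpt : (Φ.B c).lo = (Φ.B c).hi)
    {A : Set E3} (hA : IsCompact A) (hf : ContinuousOn f A) (hin : ∀ x ∈ A, f x ∈ inn Φ c)
    (hne : ∀ x ∈ A, f x ≠ (Φ.B c).lo) {e : ℝ} (he : 0 < e) :
    ∃ μ > 0, ∀ x ∈ A, ∀ y ∈ A, ‖x - y‖ ≤ μ →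
      |gau c.1 (Φ.B c).lo (f x) - gau c.1 (Φ.B c).lo (f y)| ≤ e ∧
      ‖Φ.Psi (f x) - Φ.Psi (f y)‖ ≤ e ∧ ∀ c' : Φ.F, |Φ.lev c' (f x) - Φ.lev c' (f y)| ≤ e ∧
        (Φ.Psi (f x) ∈ c'.1.set → ‖Φ.Psi (f y) - Φ.Psi (f x)‖ ≤ e * c'.1.sz) := by
  have FF := foam Φ.bf hLa
  have hb := Pse_316.bod_brick Φ c hpt
  have hLaf : ∀ x ∈ A, f x ∈ {y | y ∈ La ∧ ∀ c, y ∉ (Φ.B c).S} := fun x hx =>
    ⟨FF.sub c (inn_sub Φ (hin x hx)), not_hole Φ hLa hpt (hin x hx) (hne x hx)⟩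
  have hPm : ∀ x ∈ A, Φ.Psi (f x) ∈ Pc Φ.F c := fun x hx =>
    ((pushD Φ hLa).mem c (f x) (inn_sub Φ (hin x hx))
      ((muD_pos Φ hLa (inn_sub Φ (hin x hx))).2 ((hLaf x hx).2 c))).1
  -- `Psi ∘ f`
  have hPsi : ContinuousOn (fun x => Φ.Psi (f x)) A := by
    refine ContinuousOn.comp ((pushD Φ hLa).cont.mono ?_) hf hLaf
    rintro y ⟨hy, hh⟩
    obtain ⟨c', hc'⟩ := FF.cov y hy
    exact ⟨hy, (muD_pos Φ hLa hc').2 (hh c')⟩
  have hlev : ∀ c' : Φ.F, ContinuousOn (fun x => Φ.lev c' (f x)) A := fun c' =>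
    (continuousOn_sc_apply FF c').comp hPsi fun x hx => FF.sub c (hPm x hx)
  have hgau : ContinuousOn (fun x => gau c.1 (Φ.B c).lo (f x)) A := by
    have : (fun x => gau c.1 (Φ.B c).lo (f x)) = fun x => Ng (Φ.B c).lo c.1.set (f x) :=
      funext fun x => Pse_316.gau_eq _ _ _
    rw [this]
    exact hb.continuous.comp_continuousOn hf
  -- the sizes of the neighbours
  have hN := finite_N Φ hLa c
  obtain ⟨s, hs, hs'⟩ : ∃ s > 0, ∀ c' ∈ {c' : Φ.F | (Pc Φ.F c' ∩ Pc Φ.F c).Nonempty},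
      s ≤ c'.1.sz := by
    rcases Set.eq_empty_or_nonempty {c' : Φ.F | (Pc Φ.F c' ∩ Pc Φ.F c).Nonempty} with h0 | h0
    · exact ⟨1, one_pos, fun c' hc' => by rw [h0] at hc'; exact hc'.elim⟩
    · obtain ⟨c1, hc1, hmin⟩ := hN.exists_minimalFor (fun c' : Φ.F => c'.1.sz) _ h0
      refine ⟨c1.1.sz, Bx.sz_pos (Φ.bf.pos _ c1.2), fun c' hc' => ?_⟩
      rcases le_total c1.1.sz c'.1.sz with h1 | h1
      · exact h1
      · exact hmin hc' h1
  -- moduli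
  have hu : ∀ {g : E3 → ℝ}, ContinuousOn g A → ∀ r > 0, ∀ᶠ μ in 𝓝[>] (0:ℝ), ∀ x ∈ A, ∀ y ∈ A,
      ‖x - y‖ ≤ μ → |g x - g y| ≤ r := by
    intro g hg r hr
    obtain ⟨μ, hμ, h1⟩ := Metric.uniformContinuousOn_iff.1
      (hA.uniformContinuousOn_of_continuous hg) r hr
    filter_upwards [Ioo_mem_nhdsGT hμ] with μ' hμ' x hx y hy hxy
    have := h1 x hx y hy (by rw [dist_eq_norm]; exact lt_of_le_of_lt hxy hμ'.2)
    rw [Real.dist_eq] at this
    exact this.le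
  have hu3 : ∀ r > 0, ∀ᶠ μ in 𝓝[>] (0:ℝ), ∀ x ∈ A, ∀ y ∈ A,
      ‖x - y‖ ≤ μ → ‖Φ.Psi (f x) - Φ.Psi (f y)‖ ≤ r := by
    intro r hr
    obtain ⟨μ, hμ, h1⟩ := Metric.uniformContinuousOn_iff.1
      (hA.uniformContinuousOn_of_continuous hPsi) r hr
    filter_upwards [Ioo_mem_nhdsGT hμ] with μ' hμ' x hx y hy hxy
    have := h1 x hx y hy (by rw [dist_eq_norm]; exact lt_of_le_of_lt hxy hμ'.2)
    rw [dist_eq_norm] at this
    exact this.le
  have hfinal := (((hu hgau e he).and (hu3 (min e (e * s)) (lt_min he (mul_pos he hs)))).and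
    ((Filter.eventually_all_finite hN).2 fun c' _ => hu (hlev c') e he)).and
      (self_mem_nhdsWithin (s := Ioi (0:ℝ)) (a := (0:ℝ)))
  obtain ⟨μ, ⟨⟨h1, h2⟩, h3⟩, hμ⟩ := hfinal.exists
  refine ⟨μ, hμ, fun x hx y hy hxy => ⟨h1 x hx y hy hxy, (h2 x hx y hy hxy).trans (min_le_left _ _),
    fun c' => ⟨?_, fun hc' => ?_⟩⟩⟩
  · by_cases hc' : (Pc Φ.F c' ∩ Pc Φ.F c).Nonempty
    · exact h3 c' hc' x hx y hy hxy
    · have e1 : Φ.lev c' (f x) = 1 := Dic2_582.sc_eq_one_of_not_touch FF hc' (hPm x hx)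
      have e2 : Φ.lev c' (f y) = 1 := Dic2_582.sc_eq_one_of_not_touch FF hc' (hPm y hy)
      rw [e1, e2, sub_self, abs_zero]
      exact he.le
  · have h4 : (Pc Φ.F c' ∩ Pc Φ.F c).Nonempty := ⟨_, hc', hPm x hx⟩
    have h5 := (h2 x hx y hy hxy).trans (min_le_right _ _)
    rw [norm_sub_rev] at h5
    exact h5.trans (mul_le_mul_of_nonneg_left (hs' c' h4) he.le)

end Crest.Agent.R096.Tl_4
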