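import Crest.Agent.R096.Tlo1_715
import Crest.Agent.R096.Exs3_260

/-!
# R096 (row 96), TMESH-T2 (helper715), part 2: the finite mesh of a tiny core and its transfer to
every tiling which looks like it in the zone (interface #10623 of helper4)
-/

set_option autoImplicit false
set_option linter.unusedSectionVars false

open Set Metric Filter Topology Module
open scoped Classical

namespace Crest.Agent.R096.Tlo_715

open Crest.Agent.R096.Msh_715 Crest.Agent.R096.Msh_810 Crest.Agent.R096.Tms_582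
open Crest.Agent.R096.SkC1_961 (E3)
open Crest.Agent.R096.Ce_537 (PLOn PLEquiv IsBall)
open Crest.Agent.R096.Mbf_337 (KJ)

/-- **what the machine needs at a tiny core** (`w` = translation, `t` = level, `J` = tiles of the core) -/
structure ZoneOK {Om : Set E3} {ι : Type} (T : Tiling Om ι) (J : Set ι) (φ : E3 → ℝ)
    (Fs : Finset (E3 → ℝ)) (x₀ : E3) (R : ℝ) (k : ℕ) (w : E3) (a' t : ℝ) : Prop where
  KJ_eq : KJ T J = {x | φ (x - w) ≤ t}
  fr : frontier (KJ T J) = {x | φ (x - w) = t}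
  cc_sub : ∀ x, φ (x - w) = t → T.cc x ⊆ {y | φ (y - w) = t}
  aff : ∀ F ∈ Fs, ∀ x, φ (x - w) = t → ∃ g : E3 →ᵃ[ℝ] ℝ, ∀ y ∈ T.cc x, F (y - w) = g y
  tr : ∀ x, φ (x - w) ≤ t → φ (x - w) ≠ t → (∃ y ∈ T.cc x, φ (y - w) = t) →
    ∃ y, φ (y - w) = t ∧ T.cc x ∩ {y | φ (y - w) = t} = T.cc y ∧ T.dim y + 1 = T.dim x
  st : ∀ z, φ (z - w) = t → ∃ x, φ (x - w) < t ∧ z ∈ T.cc x ∧ T.dim x = T.dim z + 1 ∧
    ∀ y, φ (y - w) < t → z ∈ T.cc y → x ∈ T.cc y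
  sl1 : ∀ i ∈ J, ∃ g : E3 →ᵃ[ℝ] ℝ, EqOn (fun x => φ (x - w)) g (P (T.H i))
  sl2 : ∀ v, φ (v - w) ≤ t → T.dim v = 0 → φ (v - w) ≤ a' ∨ φ (v - w) = t
  far : ∀ i, (P (T.H i) ∩ closedBall x₀ R).Nonempty → ∀ x ∈ P (T.H i), ∀ y ∈ P (T.H i),
    dist x y ≤ (2 : ℝ)⁻¹ ^ k

theorem dist_Cu {a : E3} {k : ℕ} {z : Fin 3 → ℤ} {x y : E3} (hx : x ∈ Cu a k z) (hy : y ∈ Cu a k z) :
    dist x y ≤ (2 : ℝ)⁻¹ ^ k := by
  have h := dist_le_of_mem_Cu hx hy
  rw [inv_pow, inv_eq_one_div, le_div_iff₀' (by positivity)]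
  exact h

/-- the cubes near a ball -/
theorem exists_Zc (x₀ : E3) {R : ℝ} {k : ℕ} (hk : (2 : ℝ)⁻¹ ^ k < R / 8) :
    ∃ Zc : Finset (Fin 3 → ℤ), (∀ z ∈ Zc, Cu (0 : E3) k z ⊆ ball x₀ (R / 4)) ∧
      closedBall x₀ (R / 8) ⊆ ⋃ z ∈ Zc, Cu (0 : E3) k z := by
  have hfin : {z | (P ((lat k).H z) ∩ closedBall x₀ (R / 8)).Nonempty}.Finite :=
    (lat k).finite_tiles (isCompact_closedBall x₀ (R / 8)) (subset_univ _)
  refine ⟨hfin.toFinset, fun z hz x hx => ?_, fun x hx => ?_⟩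
  · obtain ⟨y, hy1, hy2⟩ := hfin.mem_toFinset.1 hz
    rw [P_lat] at hy1
    have h1 := dist_Cu hx hy1
    have h2 : dist y x₀ ≤ R / 8 := hy2
    rw [mem_ball]
    linarith [dist_triangle x y x₀]
  · obtain ⟨z, hz⟩ := (lat k).cov x (mem_univ x)
    refine mem_biUnion (hfin.mem_toFinset.2 ⟨x, hz, hx⟩) ?_
    rw [← P_lat]
    exact hz

theorem mem_KJ {Om : Set E3} {ι : Type} {T : Tiling Om ι} {J : Set ι} {x : E3} :
    x ∈ KJ T J ↔ ∃ i ∈ J, x ∈ P (T.H i) := by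
  unfold KJ
  simp only [mem_iUnion, exists_prop]

/-- **the mesh of a tiny core** -/
theorem exists_mesh_loc (x₀ : E3) {R : ℝ} (hR : 0 < R) {a b : ℝ} (hab : a < b) {φ : E3 → ℝ}
    (hφ : PLOn φ univ) (hsub : {x | φ x ≤ b} ⊆ ball x₀ (R / 8)) (Fs : Finset (E3 → ℝ))
    (hFs : ∀ F ∈ Fs, PLOn F {x | a ≤ φ x ∧ φ x ≤ b}) :
    ∃ k0 : ℕ, ∀ k : ℕ, k0 ≤ k → ∃ (Zc : Finset (Fin 3 → ℤ)) (κ : Type)
      (H : κ → Finset ((E3 →L[ℝ] ℝ) × ℝ)) (J : Set κ) (a' t : ℝ),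
      a ≤ a' ∧ a' < t ∧ t < b ∧ LatRepl k Zc H ∧ (∀ z ∈ Zc, Cu (0 : E3) k z ⊆ ball x₀ (R / 4)) ∧
      (∀ j, ∃ z ∈ Zc, P (H j) ⊆ Cu 0 k z) ∧
      (∀ j ∈ J, ∀ x ∈ P (H j), φ x ≤ t) ∧ (∀ j, j ∉ J → ∀ x ∈ P (H j), t ≤ φ x) ∧
      (⋃ j ∈ J, P (H j)) = {x | φ x ≤ t} ∧
      ∀ w : E3, (∀ i, 0 ≤ w i ∧ w i ≤ (2 : ℝ)⁻¹ ^ k) → ∀ (Om : Set E3) (ι : Type) (T : Tiling Om ι)
        (e : κ → ι), closedBall x₀ R ⊆ Om → InZone T x₀ R k w Zc H e →
        ZoneOK T (e '' J) φ Fs x₀ R k w a' t := by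
  obtain ⟨k0, hk0⟩ := exists_pow_lt_of_lt_one (by positivity : (0 : ℝ) < R / 8)
    (by norm_num : (2 : ℝ)⁻¹ < 1)
  refine ⟨k0, fun k hk => ?_⟩
  have hk' : (2 : ℝ)⁻¹ ^ k < R / 8 := lt_of_le_of_lt
    (pow_le_pow_of_le_one (by norm_num) (by norm_num) hk) hk0
  obtain ⟨Zc, hZc1, hZc2⟩ := exists_Zc x₀ hk'
  -- the planes
  have hpl : ∀ F : E3 → ℝ, ∃ D : Finset ((E3 →L[ℝ] ℝ) × ℝ), F ∈ Fs →
      ∀ Z ⊆ {x | a ≤ φ x ∧ φ x ≤ b}, Convex ℝ Z →
      (∀ h ∈ D, (∀ z ∈ Z, h.1 z ≤ h.2) ∨ ∀ z ∈ Z, h.2 ≤ h.1 z) →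
      ∃ g : E3 →ᵃ[ℝ] ℝ, EqOn F g Z := by
    intro F
    by_cases hF : F ∈ Fs
    · obtain ⟨D, -, hD⟩ := Exs_260.exists_planes (hFs F hF)
      exact ⟨D, fun _ => hD⟩
    · exact ⟨∅, fun h => absurd h hF⟩
  choose D hD using hpl
  have hφc : Continuous φ := continuousOn_univ.1 hφ.1
  obtain ⟨C⟩ := exists_cut (T := lat k) (κ := Unit) (W := fun _ => (Zc : Set (Fin 3 → ℤ)))
    (fun _ => Zc.finite_toSet) (fun c c' h => absurd (Subsingleton.elim c c') h)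
    (ε := fun _ => 1) (fun _ => one_pos) (fun _ => Fs.biUnion D) (φ := fun _ => φ)
    (fun _ i _ => hφ.mono (subset_univ _)) (a := fun _ => a) (b := fun _ => b) (fun _ => hab)
  have hsubW : {x | φ x < b} ⊆ ⋃ i ∈ (Zc : Set (Fin 3 → ℤ)), P ((lat k).H i) := by
    intro x hx
    have h1 := hZc2 (ball_subset_closedBall (hsub (show φ x ≤ b from le_of_lt hx)))
    obtain ⟨z, hz, hxz⟩ := mem_iUnion₂.1 h1
    refine mem_biUnion (show z ∈ (Zc : Set _) from hz) ?_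
    rw [P_lat]; exact hxz
  set t := C.t () with ht
  have hta : C.a' () < t := C.hat ()
  have htb : t < b := (C.htb ()).trans_le (C.hbb ())
  let κ : Type := {p : C.J // C.π p ∈ Zc}
  let H : κ → Finset ((E3 →L[ℝ] ℝ) × ℝ) := fun p => C.T'.H p.1
  let J : Set κ := {j | j.1 ∈ C.In ()}
  have hKK : C.K () = ⋃ p ∈ C.In (), P (C.T'.H p) := C.K_eq () hsubW
  have hKset : C.K () = {x | φ x ≤ t} := rfl
  have hcube : ∀ j : κ, P (H j) ⊆ Cu 0 k (C.π j.1) := fun j => by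
    have := C.sub j.1
    rwa [P_lat] at this
  have hRepl : LatRepl k Zc H := by
    refine ⟨?_, fun j => C.T'.cpt j.1, fun j => C.T'.ne j.1, fun i j hij => C.T'.dis _ _ fun h =>
      hij (Subtype.ext h), ?_⟩
    · have h1 : (⋃ z ∈ (Zc : Set (Fin 3 → ℤ)), {p | C.π p = z}).Finite :=
        Zc.finite_toSet.biUnion fun z _ => C.fin z
      have h2 : {p | C.π p ∈ Zc}.Finite := h1.subset fun p hp => mem_biUnion
        (show C.π p ∈ (Zc : Set _) from hp) rfl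
      exact h2.to_subtype
    · apply Subset.antisymm
      · exact iUnion_subset fun j => (hcube j).trans (subset_biUnion_of_mem (u := fun z => Cu (0 : E3) k z) j.2)
      · refine iUnion₂_subset fun z hz x hx => ?_
        obtain ⟨p, hp, hxp⟩ := C.cov z x (by rw [P_lat]; exact hx)
        exact mem_iUnion.2 ⟨⟨p, by rw [hp]; exact hz⟩, hxp⟩
  have hJu : (⋃ j ∈ J, P (H j)) = {x | φ x ≤ t} := by
    rw [← hKset, hKK]
    apply Subset.antisymm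
    · exact iUnion₂_subset fun j hj => subset_biUnion_of_mem (u := fun p => P (C.T'.H p)) hj
    · refine iUnion₂_subset fun p hp => ?_
      have h1 : C.π p ∈ Zc := hp.1
      exact subset_biUnion_of_mem (u := fun j : κ => P (H j)) (show (⟨p, h1⟩ : κ) ∈ J from hp)
  refine ⟨Zc, κ, H, J, C.a' (), t, C.haa (), hta, htb, hRepl, hZc1,
    fun j => ⟨C.π j.1, j.2, hcube j⟩, fun j hj x hx => hj.2 hx, fun j hj x hx => ?_, hJu, ?_⟩
  · exact (C.notMem_In_iff () hsubW hφc).1 hj x hx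
  intro w hw Om ι T e hOm hZ
  have hOm' : ball x₀ R ⊆ Om := ball_subset_closedBall.trans hOm
  have hwn : ‖w‖ ≤ (2 : ℝ)⁻¹ ^ k := by
    rw [pi_norm_le_iff_of_nonneg (by positivity)]
    intro i
    rw [Real.norm_eq_abs, abs_of_nonneg (hw i).1]
    exact (hw i).2
  have hS : ∀ x ∈ ball x₀ R, Same T C.T' w x := fun x hx =>
    same_of_zone (π := C.π) hRepl (fun j => ⟨j.1, rfl⟩) (fun p hp => ⟨⟨p, hp⟩, rfl⟩)
      (fun p hp => by
        obtain ⟨p', h1, h2, h3⟩ := C.off (C.π p) (fun _ h => hp h)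
        rw [← h3 p rfl] at h2; exact h2)
      (fun z hz => by
        obtain ⟨p', h1, -, -⟩ := C.off z (fun _ h => hz h)
        exact ⟨p', h1⟩) hZ hOm' hx
  have hSK : ∀ x, φ (x - w) ≤ b → x ∈ ball x₀ R := by
    intro x hx
    have h1 : dist (x - w) x₀ < R / 8 := hsub hx
    have h2 : dist x (x - w) ≤ (2 : ℝ)⁻¹ ^ k := by
      rw [dist_eq_norm]; simpa using hwn
    rw [mem_ball]
    linarith [dist_triangle x (x - w) x₀]
  have hfrK : frontier (C.K ()) = {x | φ x = t} := C.frontier_K () hφc hsubW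
  have hccK : ∀ x, φ x = t → C.T'.cc x ⊆ {y | φ y = t} := by
    intro x hx
    have h1 := C.T'.frontier_tiles hKK (C.isClosed_K () hφc)
    rw [hfrK] at h1
    exact h1 x hx
  have hKJ : KJ T (e '' J) = {x | φ (x - w) ≤ t} := by
    ext x
    rw [mem_KJ]
    have h1 : φ (x - w) ≤ t ↔ x - w ∈ ⋃ j ∈ J, P (H j) := by rw [hJu]; rfl
    rw [mem_ofPred_eq, h1]
    simp only [mem_iUnion, exists_prop]
    constructor
    · rintro ⟨_, ⟨j, hj, rfl⟩, hx⟩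
      rw [hZ.loc, mem_P_trH] at hx
      exact ⟨j, hj, hx⟩
    · rintro ⟨j, hj, hx⟩
      refine ⟨e j, ⟨j, hj, rfl⟩, ?_⟩
      rw [hZ.loc, mem_P_trH]
      exact hx
  have htrans : Continuous fun x : E3 => x - w := by fun_prop
  have hfr : frontier (KJ T (e '' J)) = {x | φ (x - w) = t} := by
    have h1 : KJ T (e '' J) = (Homeomorph.subRight w) ⁻¹' (C.K ()) := by rw [hKJ]; rfl
    rw [h1, ← Homeomorph.preimage_frontier, hfrK]
    rfl
  refine ⟨hKJ, hfr, ?_, ?_, ?_, ?_, ?_, ?_, ?_⟩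
  · intro x hx y hy
    have hxb : x ∈ ball x₀ R := hSK x (by rw [hx]; exact htb.le)
    exact hccK _ hx ((hS x hxb).mem_cc.1 hy)
  · intro F hF x hx
    have hxb : x ∈ ball x₀ R := hSK x (by rw [hx]; exact htb.le)
    -- the tile of the core
    have h1 : x - w ∈ ⋃ p ∈ C.In (), P (C.T'.H p) := by
      rw [← hKK, hKset]; exact hx.le
    obtain ⟨p, hp, hxp⟩ := mem_iUnion₂.1 h1
    have hpat : p ∈ C.T'.at_ (x - w) := hxp
    obtain ⟨g, hg⟩ := hD F hF (C.T'.cc (x - w)) (fun y hy => by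
        have h2 : φ y = t := hccK _ hx hy
        show a ≤ φ y ∧ φ y ≤ b
        rw [h2]
        exact ⟨(C.haa ()).trans hta.le, htb.le⟩) (C.T'.convex_cc _) (fun h hh => by
        have h3 := C.data () p hp.1 h (Finset.mem_biUnion.2 ⟨F, hF, hh⟩)
        rcases h3 with h3 | h3
        · exact Or.inl fun y hy => h3 y (C.T'.cc_sub_tile hpat hy)
        · exact Or.inr fun y hy => h3 y (C.T'.cc_sub_tile hpat hy))
    refine ⟨g.comp (AffineMap.id ℝ E3 - AffineMap.const ℝ E3 w), fun y hy => ?_⟩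
    have h4 := hg ((hS x hxb).mem_cc.1 hy)
    simpa using h4
  · rintro x hx hxn ⟨y, hy, hyt⟩
    have hxb : x ∈ ball x₀ R := hSK x (hx.trans htb.le)
    have hy' := (hS x hxb).mem_cc.1 hy
    obtain ⟨z, hz1, hz2, hz3, hz4⟩ := C.tr_K () hφc hsubW (x := x - w) (y := y - w) hx
      (by rw [hfrK]; exact hxn) hy' (by rw [hfrK]; exact hyt)
    rw [hfrK] at hz2 hz4
    have hz2' : φ z = t := hz2
    have hzw : z + w - w = z := by simp
    have hzb : z + w ∈ ball x₀ R := hSK _ (by rw [hzw, hz2']; exact htb.le)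
    have hSz := hS _ hzb
    refine ⟨z + w, by rw [hzw]; exact hz2, ?_, ?_⟩
    · ext u
      rw [hSz.mem_cc, hzw, ← hz4]
      constructor
      · rintro ⟨hu1, hu2⟩
        exact ⟨(hS x hxb).mem_cc.1 hu1, hu2⟩
      · rintro ⟨hu1, hu2⟩
        exact ⟨(hS x hxb).mem_cc.2 hu1, hu2⟩
    · rw [hSz.dim_eq, hzw, (hS x hxb).dim_eq]
      exact hz3
  · intro z hz
    have hzb : z ∈ ball x₀ R := hSK z (by rw [hz]; exact htb.le)
    obtain ⟨x, hx1, hx2, hx3, hx4, hx5⟩ := C.st_K () hφc hsubW (z := z - w) (by rw [hfrK]; exact hz)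
    rw [hfrK] at hx2 hx5
    have hx1' : φ x ≤ t := hx1
    have hlt : φ x < t := lt_of_le_of_ne hx1' fun h => hx2 h
    have hxw : x + w - w = x := by simp
    have hxb : x + w ∈ ball x₀ R := hSK _ (by rw [hxw]; exact (hlt.trans htb).le)
    refine ⟨x + w, by rw [hxw]; exact hlt, ?_, ?_, fun y hy hzy => ?_⟩
    · rw [(hS _ hxb).mem_cc, hxw]; exact hx3
    · rw [(hS _ hxb).dim_eq, hxw, (hS z hzb).dim_eq]; exact hx4
    · have hyb : y ∈ ball x₀ R := hSK y (hy.trans htb).le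
      rw [(hS y hyb).mem_cc] at hzy ⊢
      rw [hxw]
      exact hx5 (y - w) (le_of_lt hy) (fun h => hy.ne h) hzy
  · rintro _ ⟨j, hj, rfl⟩
    obtain ⟨g, hg⟩ := C.aff () j.1 j.2
    refine ⟨g.comp (AffineMap.id ℝ E3 - AffineMap.const ℝ E3 w), fun y hy => ?_⟩
    rw [hZ.loc, mem_P_trH] at hy
    have h4 := hg hy
    simpa using h4
  · intro v hv hv0
    have hvb : v ∈ ball x₀ R := hSK v (hv.trans htb.le)
    rw [(hS v hvb).dim_eq] at hv0
    exact C.vert_K () hsubW (show v - w ∈ C.K () from hv) hv0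
  · intro i hi x hx y hy
    by_cases hie : i ∈ range e
    · obtain ⟨j, rfl⟩ := hie
      rw [hZ.loc, mem_P_trH] at hx hy
      have h1 := dist_Cu (hcube j hx) (hcube j hy)
      simpa using h1
    · obtain ⟨z, -, he⟩ := hZ.lat i hi hie
      rw [he, P_Hc] at hx hy
      exact dist_Cu (a := w) (k := k) (z := z) hx hy

end Crest.Agent.R096.Tlo_715
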