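import Crest.Agent.R096.Tl1_4
import Crest.Agent.R096.Tlo2_715
import Crest.Agent.R096.Exs2_647
import Crest.Agent.R096.Sphf2_316

/-! # Row 96, TINY-LOC (helper4), part 2: the function side of a tiny core. -/

set_option autoImplicit false
set_option linter.unusedSectionVars false

open Set Filter Topology Metric MeasureTheory

namespace Crest.Agent.R096.Tl_4

open Crest.Agent.R096.Brk1_582 Crest.Agent.R096.Brk2_582 Crest.Agent.R096.Brk3_582
open Crest.Agent.R096.Brk5_582 Crest.Agent.R096.Bsp_628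
open Crest.Agent.R096.SkC1_961 (E3 Hom3 FoamD)
open Crest.Agent.R096.Msh_715 Crest.Agent.R096.Vb_965
open Crest.Agent.R096.Mbf_337 (gau KJ RayTo Tiny sb)
open Crest.Agent.R096.Ce_537 (PLOn PLEquiv IsBall)
open Crest.Agent.R096.Sphg_316 Crest.Agent.R096.Tms_582 Crest.Agent.R096.Msh_810
open Crest.Agent.R096.Tlo_715
open Crest.Agent.R96.Push_899

variable {δ κ0 Rc c0 : ℝ} {La Om : Set E3}

/-- SPHERE data in `E3` (539 #10454 (A)) -/
structure SphE (Φ : FoamD δ κ0 Rc c0 La) (c : Φ.F) (Om : Set E3) (f : E3 → E3) (ρ₁ ρ₂ ε : ℝ)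
    (φ : E3 → ℝ) (a b : ℝ) (Θ : E3 → E3) : Prop where
  ab : a < b
  pl : PLOn φ univ
  plT : PLOn Θ {x | a ≤ φ x ∧ φ x ≤ b}
  lt : ∀ x, φ x ≤ b → x ∈ Om ∧ gau c.1 (Φ.B c).lo (f x) < ρ₂
  inn : ∀ x ∈ Om, gau c.1 (Φ.B c).lo (f x) ≤ ρ₁ → φ x < a
  near : ∀ x, a ≤ φ x → φ x ≤ b → ‖Θ x - Φ.Psi (f x)‖ ≤ ε
  ball : ∀ t ∈ Icc a b, IsBall 3 {x | φ x ≤ t} {x | φ x = t}
  bij : ∀ t ∈ Icc a b, ∃ θ : PLEquiv {x | φ x = t} (frontier c.1.set), EqOn θ.f Θ {x | φ x = t}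

section tr

/-- translation as a PL equivalence -/
def trE (w : E3) (A : Set E3) : PLEquiv ((fun x => x - w) ⁻¹' A) A where
  f x := x - w
  g y := y + w
  pf := by
    have := Ce_537.plOn_affine (AffineMap.id ℝ E3 - AffineMap.const ℝ E3 w) ((fun x => x - w) ⁻¹' A)
    exact this
  pg := by
    have := Ce_537.plOn_affine (AffineMap.id ℝ E3 + AffineMap.const ℝ E3 w) A
    exact this
  mf _ hx := hx
  mg y hy := by
    show y + w - w ∈ A
    rw [add_sub_cancel_right]; exact hy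
  li x _ := sub_add_cancel x w
  ri y _ := add_sub_cancel_right y w

theorem isBall_tr {k : ℕ} {K dK : Set E3} (h : IsBall k K dK) (w : E3) :
    IsBall k ((fun x => x - w) ⁻¹' K) ((fun x => x - w) ⁻¹' dK) := by
  have h1 := h.map (trE w K).symm
  have h2 : (trE w K).symm.f '' dK = (fun x => x - w) ⁻¹' dK := by
    ext x
    constructor
    · rintro ⟨y, hy, rfl⟩
      show y + w - w ∈ dK
      rw [add_sub_cancel_right]; exact hy
    · intro hx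
      exact ⟨x - w, hx, sub_add_cancel x w⟩
  rwa [h2] at h1

end tr

/-- small sublevels of the gauge are near `x₀` -/
theorem small_gau (Φ : FoamD δ κ0 Rc c0 La) (hLa : IsOpen La) {f : E3 → E3} (hf : Hom3 f Om La)
    {c : Φ.F} (hpt : (Φ.B c).lo = (Φ.B c).hi) {x₀ : E3} (hx₀ : x₀ ∈ Om)
    (hfx : f x₀ = (Φ.B c).lo) {r : ℝ} (hr : 0 < r) :
    ∃ s > 0, ∀ x ∈ Om, gau c.1 (Φ.B c).lo (f x) ≤ s → x ∈ ball x₀ r := by
  obtain ⟨fi, a1, a2, a3, a4, a5, a6⟩ := hf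
  have hlo : (Φ.B c).lo ∈ La := hfx ▸ a1 hx₀
  have hc : ContinuousAt fi (Φ.B c).lo := a6.continuousAt (hLa.mem_nhds hlo)
  have hfi : fi (Φ.B c).lo = x₀ := by rw [← hfx, a3 x₀ hx₀]
  have hU : fi ⁻¹' ball x₀ r ∈ 𝓝 (Φ.B c).lo :=
    hc.preimage_mem_nhds (by rw [hfi]; exact ball_mem_nhds _ hr)
  obtain ⟨s, hs, -, h⟩ := (Pse_316.bod_brick Φ c hpt).small hU
  refine ⟨s, hs, fun x hx hxs => ?_⟩
  have h1 : f x ∈ fi ⁻¹' ball x₀ r := h s le_rfl (by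
    show Ng (Φ.B c).lo c.1.set (f x) ≤ s
    rw [← Pse_316.gau_eq]; exact hxs)
  rw [mem_preimage, a3 x hx] at h1
  exact h1

end Crest.Agent.R096.Tl_4
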