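import Crest.Agent.R096.Tl2_4

/-! # Row 96, TINY-LOC (helper4), part 3: `TinyLoc` from SPHERE in `E3`. -/

set_option autoImplicit false
set_option linter.unusedSectionVars false

open Set Filter Topology Metric MeasureTheory

namespace Crest.Agent.R096.Tl_4

open Crest.Agent.R096.Brk1_582 Crest.Agent.R096.Brk2_582 Crest.Agent.R096.Brk3_582
open Crest.Agent.R096.Brk5_582 Crest.Agent.R096.Bsp_628
open Crest.Agent.R096.SkC1_961 (E3 Hom3 FoamD)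
open Crest.Agent.R096.Msh_715 Crest.Agent.R096.Vb_965
open Crest.Agent.R096.Mbf_337 (gau KJ RayTo Tiny sb)
open Crest.Agent.R096.Ce_537 (PLOn PLEquiv IsBall)
open Crest.Agent.R096.Sphg_316 Crest.Agent.R096.Tms_582 Crest.Agent.R096.Msh_810
open Crest.Agent.R096.Tlo_715
open Crest.Agent.R96.Push_899

variable {δ κ0 Rc c0 : ℝ} {La Om : Set E3}

/-- the functions which must be affine on the cells of the boundary of the core -/
theorem exists_Fs (Φ : FoamD δ κ0 Rc c0 La) (hLa : IsOpen La) {f : E3 → E3} {c : Φ.F}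
    {ρ₁ ρ₂ ε a b : ℝ} {φ : E3 → ℝ} {Θ : E3 → E3} (hS : SphE Φ c Om f ρ₁ ρ₂ ε φ a b Θ) :
    ∃ Fs : Finset (E3 → ℝ), (∀ F ∈ Fs, PLOn F {x | a ≤ φ x ∧ φ x ≤ b}) ∧
      (∀ k, (fun y => Θ y k) ∈ Fs) ∧
      ∀ a' : Φ.F, (fun y => sb Φ (Θ y) a') ∈ Fs ∨ ∀ x ∈ {x | a ≤ φ x ∧ φ x ≤ b}, sb Φ (Θ x) a' = 1 := by
  classical
  have FF := foam Φ.bf hLa
  have hN := finite_N Φ hLa c
  have hm : ∀ x ∈ {x | a ≤ φ x ∧ φ x ≤ b}, Θ x ∈ Pc Φ.F c := by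
    intro x hx
    obtain ⟨θ, hθ⟩ := hS.bij (φ x) hx
    have h1 := θ.mf (show x ∈ {y | φ y = φ x} from rfl)
    rw [hθ (show x ∈ {y | φ y = φ x} from rfl)] at h1
    exact (FF.cpt c).isClosed.frontier_subset h1
  refine ⟨Finset.univ.image (fun k : Fin 3 => fun y => Θ y k) ∪
    hN.toFinset.image (fun a' : Φ.F => fun y => sb Φ (Θ y) a'), ?_, ?_, ?_⟩
  · intro F hF
    rcases Finset.mem_union.1 hF with h | h
    · obtain ⟨k, -, rfl⟩ := Finset.mem_image.1 h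
      have h1 : PLOn (fun y : E3 => y k) univ := Ce_537.plOn_affine
        (ContinuousLinearMap.proj (R := ℝ) (φ := fun _ : Fin 3 => ℝ) k).toLinearMap.toAffineMap univ
      exact h1.comp hS.plT (mapsTo_univ _ _)
    · obtain ⟨a', -, rfl⟩ := Finset.mem_image.1 h
      exact (Exs2_647.plon_sc FF c a').comp hS.plT hm
  · intro k
    exact Finset.mem_union_left _ (Finset.mem_image_of_mem _ (Finset.mem_univ k))
  · intro a'
    by_cases h : (Pc Φ.F a' ∩ Pc Φ.F c).Nonempty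
    · left
      exact Finset.mem_union_right _ (Finset.mem_image_of_mem _ (hN.mem_toFinset.2 h))
    · right
      intro x hx
      exact Dic2_582.sc_eq_one_of_not_touch FF h (hm x hx)

/-- the data of a tiny core on the side of the function -/
structure Core (Φ : FoamD δ κ0 Rc c0 La) (Om : Set E3) (f : E3 → E3) (κ1 : ℝ) (c : Φ.F) (x₀ : E3)
    (R ρ d η μ a b : ℝ) (φ : E3 → ℝ) (Θ : E3 → E3) : Prop where
  hR : 0 < R
  hOm : closedBall x₀ R ⊆ Om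
  pt : (Φ.B c).lo = (Φ.B c).hi
  fx : f x₀ = (Φ.B c).lo
  inn : ∀ x ∈ closedBall x₀ R, f x ∈ inn Φ c
  d0 : 0 < d
  dκ : d ≤ κ1
  dρ : d ≤ ρ / 256
  ρ0 : 0 < ρ
  ρ1 : ρ < 1
  ray : RayTo Φ c ρ
  sm : ∀ x ∈ Om, gau c.1 (Φ.B c).lo (f x) ≤ ρ → x ∈ ball x₀ (R / 16)
  S : SphE Φ c Om f (5 * ρ / 16) (7 * ρ / 16) (d * c.1.sz / 2) φ a b Θ
  η0 : 0 < η
  ηR : 4 * η ≤ R / 8
  ηg : ∀ x ∈ closedBall x₀ (4 * η), gau c.1 (Φ.B c).lo (f x) < ρ / 8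
  μ0 : 0 < μ
  osc : ∀ x ∈ closedBall x₀ R \ ball x₀ (η / 2), ∀ y ∈ closedBall x₀ R \ ball x₀ (η / 2),
    ‖x - y‖ ≤ μ →
      |gau c.1 (Φ.B c).lo (f x) - gau c.1 (Φ.B c).lo (f y)| ≤ d ∧
      ‖Φ.Psi (f x) - Φ.Psi (f y)‖ ≤ d * c.1.sz / 2 ∧ ∀ c' : Φ.F, |Φ.lev c' (f x) - Φ.lev c' (f y)| ≤ d ∧
        (Φ.Psi (f x) ∈ c'.1.set → ‖Φ.Psi (f y) - Φ.Psi (f x)‖ ≤ d * c'.1.sz)

theorem exists_core (Φ : FoamD δ κ0 Rc c0 La) (hLa : IsOpen La) {f : E3 → E3} (hf : Hom3 f Om La)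
    {c : Φ.F} (hpt : (Φ.B c).lo = (Φ.B c).hi) {x₀ : E3} (hfx : f x₀ = (Φ.B c).lo)
    {R : ℝ} (hR : 0 < R) (hOm : closedBall x₀ R ⊆ Om) (hin : ∀ x ∈ closedBall x₀ R, f x ∈ inn Φ c)
    {κ1 : ℝ} (hκ : 0 < κ1)
    (SPH : ∃ r > 0, ∀ ρ₁ ρ₂ ε : ℝ, 0 < ρ₁ → ρ₁ < ρ₂ → ρ₂ ≤ r → 0 < ε →
      ∃ φ a b Θ, SphE Φ c Om f ρ₁ ρ₂ ε φ a b Θ) :
    ∃ ρ d η μ a b φ Θ, Core Φ Om f κ1 c x₀ R ρ d η μ a b φ Θ := by
  have hx₀R : x₀ ∈ closedBall x₀ R := mem_closedBall_self hR.le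
  have hx₀ : x₀ ∈ Om := hOm hx₀R
  have hsz : 0 < c.1.sz := Bx.sz_pos (Φ.bf.pos _ c.2)
  obtain ⟨r0, hr0, hr01, hray⟩ := Pse_316.rayTo Φ hLa c hpt
  obtain ⟨r, hr, hSPH⟩ := SPH
  obtain ⟨r1, hr1, hsm⟩ := small_gau Φ hLa hf hpt hx₀ hfx (show 0 < R / 16 by positivity)
  set ρ := min (min r0 r) (min r1 (1 / 2)) with hρd
  have hρ : 0 < ρ := lt_min (lt_min hr0 hr) (lt_min hr1 (by norm_num))
  have hρ0 : ρ ≤ r0 := (min_le_left _ _).trans (min_le_left _ _)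
  have hρr : ρ ≤ r := (min_le_left _ _).trans (min_le_right _ _)
  have hρ1 : ρ ≤ r1 := (min_le_right _ _).trans (min_le_left _ _)
  have hρh : ρ ≤ 1 / 2 := (min_le_right _ _).trans (min_le_right _ _)
  set d := min κ1 (ρ / 256) with hd
  have hd0 : 0 < d := lt_min hκ (by positivity)
  obtain ⟨φ, a, b, Θ, hS⟩ := hSPH (5 * ρ / 16) (7 * ρ / 16) (d * c.1.sz / 2) (by positivity)
    (by linarith) (by linarith) (by positivity)
  -- continuity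
  obtain ⟨fi, a1, a2, a3, a4, a5, a6⟩ := id hf
  have hfc : ContinuousOn f (closedBall x₀ R) := a5.mono hOm
  have hb := Pse_316.bod_brick Φ c hpt
  have hg0 : gau c.1 (Φ.B c).lo (f x₀) < ρ / 8 := by
    rw [Pse_316.gau_eq, hfx, Ng_self]; positivity
  have hgc : ContinuousOn (fun x => gau c.1 (Φ.B c).lo (f x)) (closedBall x₀ R) := by
    have : (fun x => gau c.1 (Φ.B c).lo (f x)) = fun x => Ng (Φ.B c).lo c.1.set (f x) :=
      funext fun x => Pse_316.gau_eq _ _ _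
    rw [this]
    exact hb.continuous.comp_continuousOn hfc
  have hgx : ContinuousAt (fun x => gau c.1 (Φ.B c).lo (f x)) x₀ :=
    hgc.continuousAt (closedBall_mem_nhds x₀ hR)
  obtain ⟨q, hq, hq'⟩ := Metric.mem_nhds_iff.1 (hgx.preimage_mem_nhds (Iio_mem_nhds hg0))
  set η := min (q / 8) (R / 32) with hη
  have hη0 : 0 < η := lt_min (by positivity) (by positivity)
  have hηq : η ≤ q / 8 := min_le_left _ _
  have hηR : η ≤ R / 32 := min_le_right _ _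
  -- the compact set
  have hA : IsCompact (closedBall x₀ R \ ball x₀ (η / 2)) :=
    (isCompact_closedBall x₀ R).diff isOpen_ball
  obtain ⟨μ, hμ, hosc⟩ := exists_osc Φ hLa hpt hA (hfc.mono sdiff_subset) (fun x hx => hin x hx.1)
    (fun x hx hxe => hx.2 (by
      have : x = x₀ := by rw [← a3 x (hOm hx.1), hxe, ← hfx, a3 x₀ hx₀]
      rw [this]; exact mem_ball_self (by positivity)))
    (show 0 < min d (d * c.1.sz / 2) from lt_min hd0 (by positivity))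
  refine ⟨ρ, d, η, μ, a, b, φ, Θ, ⟨hR, hOm, hpt, hfx, hin, hd0, min_le_left _ _, min_le_right _ _, hρ,
    by linarith, fun y hy hyr => hray ρ hρ hρ0 y hy hyr, fun x hx hxr => hsm x hx (hxr.trans hρ1),
    hS, hη0, by linarith, fun x hx => hq' ?_, hμ, fun x hx y hy hxy => ?_⟩⟩
  · rw [mem_ball]
    rw [mem_closedBall] at hx
    linarith
  · obtain ⟨h1, h2, h3⟩ := hosc x hx y hy hxy
    exact ⟨h1.trans (min_le_left _ _), h2.trans (min_le_right _ _), fun c' =>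
      ⟨(h3 c').1.trans (min_le_left _ _), fun hc' => ((h3 c').2 hc').trans
        (mul_le_mul_of_nonneg_right (min_le_left _ _) (Bx.sz_pos (Φ.bf.pos _ c'.2)).le)⟩⟩

section zone

variable {Φ : FoamD δ κ0 Rc c0 La} {f : E3 → E3} {κ1 : ℝ} {c : Φ.F} {x₀ : E3}
    {R ρ d η μ a b : ℝ} {φ : E3 → ℝ} {Θ : E3 → E3}

theorem Core.lt_a (C : Core Φ Om f κ1 c x₀ R ρ d η μ a b φ Θ) {x : E3}
    (hx : x ∈ closedBall x₀ (4 * η)) : φ x < a := by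
  have h0 := C.ηR
  have hR := C.hR
  have hx' : x ∈ closedBall x₀ R := closedBall_subset_closedBall (by linarith) hx
  have h1 := C.ηg x hx
  have h2 := C.ρ0
  exact C.S.inn x (C.hOm hx') (by linarith)

theorem Core.sub (C : Core Φ Om f κ1 c x₀ R ρ d η μ a b φ Θ) {x : E3} (hx : φ x ≤ b) :
    x ∈ ball x₀ (R / 16) := by
  have h1 := C.S.lt x hx
  have h2 := C.ρ0
  exact C.sm x h1.1 (by linarith [h1.2])

theorem Core.sub8 (C : Core Φ Om f κ1 c x₀ R ρ d η μ a b φ Θ) : {x | φ x ≤ b} ⊆ ball x₀ (R / 8) :=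
  fun _ hx => ball_subset_ball (by linarith [C.hR]) (C.sub hx)

variable {ι : Type} {T : Tiling Om ι} {κ : Type} {H : κ → Finset ((E3 →L[ℝ] ℝ) × ℝ)}
  {Zc : Finset (Fin 3 → ℤ)} {e : κ → ι} {k : ℕ} {w : E3} {Fs : Finset (E3 → ℝ)} {a' t : ℝ}
  {J : Set κ}

theorem norm_w (hw : ∀ i, 0 ≤ w i ∧ w i ≤ (2 : ℝ)⁻¹ ^ k) : ‖w‖ ≤ (2 : ℝ)⁻¹ ^ k := by
  rw [pi_norm_le_iff_of_nonneg (by positivity)]
  intro i
  rw [Real.norm_eq_abs, abs_of_nonneg (hw i).1]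
  exact (hw i).2

/-- the tiles near the hole -/
def JJ0 (H : κ → Finset ((E3 →L[ℝ] ℝ) × ℝ)) (J : Set κ) (x₀ : E3) (η : ℝ) : Set κ :=
  {j | j ∈ J ∧ (P (H j) ∩ closedBall x₀ η).Nonempty}

/-- open tiles near `x₀` are in `J0` -/
theorem Core.mem_J0 (C : Core Φ Om f κ1 c x₀ R ρ d η μ a b φ Θ)
    (hkη : (2 : ℝ)⁻¹ ^ k ≤ η / 4) (hw : ‖w‖ ≤ (2 : ℝ)⁻¹ ^ k)
    (hZ : InZone T x₀ R k w Zc H e) (Z : ZoneOK T (e '' J) φ Fs x₀ R k w a' t) (hta : a ≤ t)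
    {i : ι} {x : E3} (hxi : x ∈ I (T.H i)) (hx : x ∈ ball x₀ (η / 2)) :
    i ∈ e '' (JJ0 H J x₀ η) := by
  have hη := C.η0
  have hxw : ‖x - w - x₀‖ < η / 2 + η / 4 := by
    have : x - w - x₀ = (x - x₀) - w := by abel
    rw [this]
    have h1 : ‖x - x₀‖ < η / 2 := by rwa [mem_ball, dist_eq_norm] at hx
    linarith [norm_sub_le (x - x₀) w]
  have h1 : φ (x - w) < a := C.lt_a (by rw [mem_closedBall, dist_eq_norm]; linarith)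
  have h2 : x ∈ KJ T (e '' J) := by rw [Z.KJ_eq]; exact h1.le.trans hta
  obtain ⟨i', ⟨j, hj, rfl⟩, hxi'⟩ := mem_KJ.1 h2
  have h3 := T.at_eq_singleton hxi
  have h4 : e j ∈ T.at_ x := hxi'
  rw [h3] at h4
  have h5 : e j = i := h4
  refine ⟨j, ⟨hj, x - w, ?_, ?_⟩, h5⟩
  · rw [hZ.loc j] at hxi'
    exact mem_P_trH.1 hxi'
  · rw [mem_closedBall, dist_eq_norm]; linarith

/-- tiles in the ball off `J0` are off the small ball -/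
theorem Core.tile_A (C : Core Φ Om f κ1 c x₀ R ρ d η μ a b φ Θ)
    (hkη : (2 : ℝ)⁻¹ ^ k ≤ η / 4) (hw : ‖w‖ ≤ (2 : ℝ)⁻¹ ^ k)
    (hZ : InZone T x₀ R k w Zc H e) (Z : ZoneOK T (e '' J) φ Fs x₀ R k w a' t) (hta : a ≤ t)
    {i : ι} (hi : i ∉ e '' (JJ0 H J x₀ η)) (hiR : P (T.H i) ⊆ closedBall x₀ R)
    {x : E3} (hx : x ∈ P (T.H i)) : x ∈ closedBall x₀ R \ ball x₀ (η / 2) := by
  refine ⟨hiR hx, fun hxb => hi ?_⟩
  have h1 := P_sub_closure_I (T.ne i) hx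
  obtain ⟨y, hy1, hy2⟩ := mem_closure_iff.1 h1 _ isOpen_ball hxb
  exact C.mem_J0 hkη hw hZ Z hta hy2 hy1

/-- estimates on a tile off `J0` -/
theorem Core.tile_osc (C : Core Φ Om f κ1 c x₀ R ρ d η μ a b φ Θ) (hkμ : (2 : ℝ)⁻¹ ^ k ≤ μ)
    (hkη : (2 : ℝ)⁻¹ ^ k ≤ η / 4) (hw : ‖w‖ ≤ (2 : ℝ)⁻¹ ^ k)
    (hZ : InZone T x₀ R k w Zc H e) (Z : ZoneOK T (e '' J) φ Fs x₀ R k w a' t) (hta : a ≤ t)
    {i : ι} (hi : i ∉ e '' (JJ0 H J x₀ η)) (hiR : P (T.H i) ⊆ closedBall x₀ R)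
    {x y : E3} (hx : x ∈ P (T.H i)) (hy : y ∈ P (T.H i)) :
      |gau c.1 (Φ.B c).lo (f x) - gau c.1 (Φ.B c).lo (f y)| ≤ d ∧
      ‖Φ.Psi (f x) - Φ.Psi (f y)‖ ≤ d * c.1.sz / 2 ∧ ∀ c' : Φ.F, |Φ.lev c' (f x) - Φ.lev c' (f y)| ≤ d ∧
        (Φ.Psi (f x) ∈ c'.1.set → ‖Φ.Psi (f y) - Φ.Psi (f x)‖ ≤ d * c'.1.sz) :=
  C.osc x (C.tile_A hkη hw hZ Z hta hi hiR hx) y (C.tile_A hkη hw hZ Z hta hi hiR hy)
    (by
      have := Z.far i ⟨x, hx, hiR hx⟩ x hx y hy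
      rw [dist_eq_norm] at this
      exact this.trans hkμ)

/-- estimates on the slices -/
theorem Core.slice_osc (C : Core Φ Om f κ1 c x₀ R ρ d η μ a b φ Θ) (hkμ : (2 : ℝ)⁻¹ ^ k ≤ μ)
    (hkη : (2 : ℝ)⁻¹ ^ k ≤ η / 4) (hw : ‖w‖ ≤ (2 : ℝ)⁻¹ ^ k) {x : E3} (hxa : a ≤ φ (x - w))
    (hxb : φ (x - w) ≤ b) :
      (ρ / 4 ≤ gau c.1 (Φ.B c).lo (f x) ∧ gau c.1 (Φ.B c).lo (f x) ≤ ρ / 2) ∧
      ‖Θ (x - w) - Φ.Psi (f x)‖ ≤ d * c.1.sz := by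
  have hη := C.η0
  have hηR := C.ηR
  have hR := C.hR
  have hρ := C.ρ0
  have hdρ := C.dρ
  have h1 := C.sub hxb
  rw [mem_ball, dist_eq_norm] at h1
  have h2 : 4 * η < ‖x - w - x₀‖ := by
    by_contra h
    have h3 := C.lt_a (x := x - w) (by rw [mem_closedBall, dist_eq_norm]; linarith)
    linarith
  have h3 : x - x₀ = (x - w - x₀) + w := by abel
  have h4 : ‖x - x₀‖ ≤ R / 16 + η / 4 := by
    rw [h3]; linarith [norm_add_le (x - w - x₀) w]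
  have h5 : η / 2 ≤ ‖x - x₀‖ := by
    rw [h3]
    have := norm_sub_norm_le (x - w - x₀) (-w)
    rw [sub_neg_eq_add, norm_neg] at this
    linarith
  have hxA : x ∈ closedBall x₀ R \ ball x₀ (η / 2) :=
    ⟨by rw [mem_closedBall, dist_eq_norm]; linarith, by rw [mem_ball, dist_eq_norm]; linarith⟩
  have hxA' : x - w ∈ closedBall x₀ R \ ball x₀ (η / 2) :=
    ⟨by rw [mem_closedBall, dist_eq_norm]; linarith, by rw [mem_ball, dist_eq_norm]; linarith⟩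
  obtain ⟨o1, o2, -⟩ := C.osc x hxA (x - w) hxA' (by rw [sub_sub_cancel]; exact hw.trans hkμ)
  have l1 := (C.S.lt (x - w) hxb).2
  have l2 : 5 * ρ / 16 < gau c.1 (Φ.B c).lo (f (x - w)) := by
    by_contra h
    have := C.S.inn (x - w) (C.hOm hxA'.1) (not_lt.1 h)
    linarith
  rw [abs_le] at o1
  refine ⟨⟨by linarith [o1.1], by linarith [o1.2]⟩, ?_⟩
  have h6 := C.S.near (x - w) hxa hxb
  have h7 : Θ (x - w) - Φ.Psi (f x) = (Θ (x - w) - Φ.Psi (f (x - w))) -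
      (Φ.Psi (f x) - Φ.Psi (f (x - w))) := by abel
  rw [h7]
  linarith [norm_sub_le (Θ (x - w) - Φ.Psi (f (x - w))) (Φ.Psi (f x) - Φ.Psi (f (x - w)))]

theorem Core.tiny (C : Core Φ Om f κ1 c x₀ R ρ d η μ a b φ Θ)
    (hkμ : (2 : ℝ)⁻¹ ^ k ≤ μ)
    (hkη : (2 : ℝ)⁻¹ ^ k ≤ η / 4) (hw : ‖w‖ ≤ (2 : ℝ)⁻¹ ^ k) (hzc : ∀ j, ∀ x ∈ P (H j), ∀ y ∈ P (H j),
      dist x y ≤ (2 : ℝ)⁻¹ ^ k)
    (hFs1 : ∀ i, (fun y => Θ y i) ∈ Fs) (hFs2 : ∀ a' : Φ.F, (fun y => sb Φ (Θ y) a') ∈ Fs ∨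
      ∀ x ∈ {x | a ≤ φ x ∧ φ x ≤ b}, sb Φ (Θ x) a' = 1)
    (haa : a ≤ a') (hat : a' < t) (htb : t < b)
    (hZ : InZone T x₀ R k w Zc H e) (Z : ZoneOK T (e '' J) φ Fs x₀ R k w a' t)
    {V : Set ι} (hVe : range e ⊆ V) (hVR : ∀ i ∈ V, P (T.H i) ⊆ closedBall x₀ R)
    (hVR' : ∀ i, (P (T.H i) ∩ closedBall x₀ (R / 2)).Nonempty → i ∈ V)
    (hreg : RegV T f V) (hx₀ : ∃ i, x₀ ∈ I (T.H i)) :
    Tiny Φ T f κ1 c (e '' JJ0 H J x₀ η) (e '' J) V (fun x => Θ (x - w)) (fun x => φ (x - w)) := by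
  have hR := C.hR
  have hη := C.η0
  have hηR := C.ηR
  have hρ := C.ρ0
  have hρ1 := C.ρ1
  have hd0 := C.d0
  have hdρ := C.dρ
  have hta : a ≤ t := haa.trans hat.le
  have htI : t ∈ Icc a b := ⟨hta, htb.le⟩
  have hsz : 0 < c.1.sz := Bx.sz_pos (Φ.bf.pos _ c.2)
  have hfr : ∀ x, x ∈ frontier (KJ T (e '' J)) ↔ φ (x - w) = t := fun x => by
    rw [Z.fr]; rfl
  have hKJ : ∀ x, x ∈ KJ T (e '' J) ↔ φ (x - w) ≤ t := fun x => by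
    rw [Z.KJ_eq]; rfl
  have hccf : ∀ x, φ (x - w) = t → ∀ y ∈ T.cc x, φ (y - w) = t := fun x hx y hy => Z.cc_sub x hx hy
  refine
  { pt := C.pt
    finV := (T.finite_tiles (isCompact_closedBall x₀ R) C.hOm).subset fun i hi => by
      obtain ⟨z, hz⟩ := T.ne i
      exact ⟨z, I_sub_P _ hz, hVR i hi (I_sub_P _ hz)⟩
    sub0 := image_mono fun j hj => hj.1
    sub := (image_subset_range e J).trans hVe
    ball := ?_, mem := ?_, inside := ?_, room := ?_, bij := ?_, aff := ?_, lin := ?_, tr := ?_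
    st := ?_, reg := hreg, slice := ?_ }
  · -- ball
    rw [Z.fr, Z.KJ_eq]
    exact isBall_tr (C.S.ball t htI) w
  · -- mem
    obtain ⟨i, hi⟩ := hx₀
    exact ⟨i, C.mem_J0 hkη hw hZ Z hta hi (mem_ball_self (by positivity)), x₀, hi, C.fx⟩
  · -- inside
    intro x hx
    obtain ⟨i, hi, hxi⟩ := mem_KJ.1 hx
    exact C.inn x (hVR i hi hxi)
  · -- room
    refine ⟨ρ / 8, ρ / 4, ρ / 2, ρ, d, hd0, C.dκ, by positivity, by linarith, by linarith, by linarith,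
      hρ1, C.ray, ?_, ?_, ?_, ?_, ?_⟩
    · intro x hx
      obtain ⟨-, ⟨j, ⟨hj, y, hy1, hy2⟩, rfl⟩, hxj⟩ := mem_KJ.1 hx
      apply C.ηg
      rw [hZ.loc j, mem_P_trH] at hxj
      have h1 := hzc j _ hxj _ hy1
      rw [dist_eq_norm] at h1
      rw [mem_closedBall, dist_eq_norm] at hy2 ⊢
      have h2 : x - x₀ = (x - w - y) + (y - x₀) + w := by abel
      rw [h2]
      have h3 := norm_add_le ((x - w - y) + (y - x₀)) w
      have h4 := norm_add_le (x - w - y) (y - x₀)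
      linarith
    · intro x hx
      rw [hfr] at hx
      exact (C.slice_osc hkμ hkη hw (x := x) (by rw [hx]; exact hta) (by rw [hx]; exact htb.le)).1
    · rintro i ⟨x, hx, hxρ⟩
      have h1 := C.sm x (T.sub i hx) hxρ
      exact hVR' i ⟨x, hx, (ball_subset_ball (by linarith)).trans ball_subset_closedBall h1⟩
    · intro i hi hi0 x hx y hy
      obtain ⟨o1, o2, o3⟩ := C.tile_osc hkμ hkη hw hZ Z hta hi0 (hVR i hi) hx hy
      exact ⟨o1, by linarith [mul_pos hd0 hsz], fun c' => (o3 c').1⟩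
    · intro x hx
      rw [hfr] at hx
      exact (C.slice_osc hkμ hkη hw (x := x) (by rw [hx]; exact hta) (by rw [hx]; exact htb.le)).2
  · -- bij
    obtain ⟨θ, hθ⟩ := C.S.bij t htI
    rw [Z.fr]
    exact ⟨(trE w {x | φ x = t}).trans θ, fun x hx => hθ hx⟩
  · -- aff
    intro x hx _
    rw [hfr] at hx
    have h1 : ∀ i : Fin 3, ∃ g : E3 →ᵃ[ℝ] ℝ, ∀ y ∈ T.cc x, Θ (y - w) i = g y :=
      fun i => Z.aff _ (hFs1 i) x hx
    choose g hg using h1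
    refine ⟨AffineMap.pi g, fun y hy => ?_⟩
    funext i
    exact hg i y hy
  · -- lin
    intro x hx _ a₁
    rw [hfr] at hx
    rcases hFs2 a₁ with h | h
    · exact Z.aff _ h x hx
    · refine ⟨AffineMap.const ℝ E3 1, fun y hy => ?_⟩
      have h1 := hccf x hx y hy
      exact h (y - w) ⟨by rw [h1]; exact hta, by rw [h1]; exact htb.le⟩
  · -- tr
    intro x hx _ hne
    rw [hKJ] at hx
    by_cases hxt : φ (x - w) = t
    · left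
      intro y hy
      rw [hfr]
      exact hccf x hxt y hy
    · right
      obtain ⟨y, hy, hyf⟩ := hne
      rw [hfr] at hyf
      obtain ⟨z, hz1, hz2, hz3⟩ := Z.tr x hx hxt ⟨y, hy, hyf⟩
      refine ⟨z, (hfr z).2 hz1, ?_, hz3⟩
      rw [Z.fr]; exact hz2
  · -- st
    intro z hz
    rw [hfr] at hz
    obtain ⟨x, h1, h2, h3, h4⟩ := Z.st z hz
    refine ⟨x, (hKJ x).2 h1.le, fun h => h1.ne ((hfr x).1 h), h2, h3, fun y hy hyf hzy => ?_⟩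
    rw [hKJ] at hy
    rw [hfr] at hyf
    exact h4 y (lt_of_le_of_ne hy hyf) hzy
  · -- slice
    have hφc : Continuous φ := continuousOn_univ.1 C.S.pl.1
    refine ⟨a', t, hat, (hφc.comp (continuous_id.sub continuous_const)).continuousOn, Z.sl1,
      fun x hx => ⟨(hKJ x).1 hx, (hfr x).symm⟩, fun v hv hv0 => Z.sl2 v ((hKJ v).1 hv) hv0⟩

end zone

/-- **TINY-LOC from SPHERE in `E3`** -/
theorem tiny_loc_of (Φ : FoamD δ κ0 Rc c0 La) (hLa : IsOpen La) {f : E3 → E3} (hf : Hom3 f Om La)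
    {c : Φ.F} (hpt : (Φ.B c).lo = (Φ.B c).hi) {x₀ : E3} (hfx : f x₀ = (Φ.B c).lo)
    {R : ℝ} (hR : 0 < R) (hOm : closedBall x₀ R ⊆ Om)
    (hin : ∀ x ∈ closedBall x₀ R, ∀ k, c.1.lo k < f x k ∧ f x k < c.1.hi k)
    {κ1 : ℝ} (hκ : 0 < κ1)
    (SPH : ∃ r > 0, ∀ ρ₁ ρ₂ ε : ℝ, 0 < ρ₁ → ρ₁ < ρ₂ → ρ₂ ≤ r → 0 < ε →
      ∃ φ a b Θ, SphE Φ c Om f ρ₁ ρ₂ ε φ a b Θ) : TinyLoc Φ Om f κ1 c x₀ R := by
  obtain ⟨ρ, d, η, μ, a, b, φ, Θ, C⟩ := exists_core Φ hLa hf hpt hfx hR hOm hin hκ SPH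
  obtain ⟨Fs, hFs, hFs1, hFs2⟩ := exists_Fs Φ hLa C.S
  obtain ⟨k0, hk0⟩ := exists_mesh_loc x₀ hR C.S.ab C.S.pl C.sub8 Fs hFs
  obtain ⟨k1, hk1⟩ := exists_pow_lt_of_lt_one (lt_min C.μ0 (show 0 < η / 4 by linarith [C.η0]))
    (by norm_num : (2 : ℝ)⁻¹ < 1)
  refine ⟨max k0 k1, fun k hk => ?_⟩
  have hk' : (2 : ℝ)⁻¹ ^ k ≤ min μ (η / 4) :=
    (pow_le_pow_of_le_one (by norm_num) (by norm_num) ((le_max_right _ _).trans hk)).trans hk1.le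
  have hkμ := hk'.trans (min_le_left _ _)
  have hkη := hk'.trans (min_le_right _ _)
  obtain ⟨Zc, κ, H, J, a', t, haa, hat, htb, hrepl, hcu, hjz, -, -, -, hZZ⟩ :=
    hk0 k ((le_max_left _ _).trans hk)
  refine ⟨Zc, κ, H, JJ0 H J x₀ η, J, Θ, φ, hrepl, hcu, fun w hw ι T e hZ V hVe hVR hVR' hreg hx₀ => ?_⟩
  have Z := hZZ w hw Om ι T e hOm hZ
  have hwn := norm_w hw
  have hta : a ≤ t := haa.trans hat.le
  refine ⟨C.tiny hkμ hkη hwn ?_ hFs1 hFs2 haa hat htb hZ Z hVe hVR hVR' hreg hx₀,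
    fun i hi hi0 x hx y hy c' => ?_⟩
  · intro j x hx y hy
    obtain ⟨z, -, hz⟩ := hjz j
    exact dist_Cu (hz hx) (hz hy)
  · obtain ⟨-, -, o3⟩ := C.tile_osc hkμ hkη hwn hZ Z hta hi0 (hVR i hi) hx hy
    refine ⟨fun hc' => ((o3 c').2 hc').trans (mul_le_mul_of_nonneg_right C.dκ
      (Bx.sz_pos (Φ.bf.pos _ c'.2)).le), ?_⟩
    rw [abs_sub_comm]
    exact (o3 c').1.trans C.dκ

end Crest.Agent.R096.Tl_4
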