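import Crest.Agent.R096.Mcc1_715

/-!
Row 96 (S0127), helper212.  **[TMAP]** (753 #11141): a core block of 874 seen through a linear
homeomorphism `e : E ≃L[ℝ] F` (`P3 : E3 ≃L R3`): `CB.mp e Q := {ψ := e.symm.trans Q.ψ, rest the same}`.

* `Tra e T T' σ`: two tilings with corresponding inequalities: `at_`, `cc`, `oc`, `V`, `dim`;
* `N`, `Kc`, `frontier N`, tilings `T0`, `T`, core tile of the block;
* `Ed`, `Ly`, `Tw`: Tmap2.
-/

set_option autoImplicit false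
set_option linter.unusedSectionVars false

open Set Filter Metric Topology MeasureTheory

namespace Crest.Agent.R096.Tmap_212

open Crest.Agent.R096.Msh_715 Crest.Agent.R096.Msh_810
open Crest.Agent.R096.Mal_874

/-! ### tilings with corresponding inequalities -/

section gen

variable {E F : Type*} [NormedAddCommGroup E] [NormedSpace ℝ E]
  [NormedAddCommGroup F] [NormedSpace ℝ F] {Om : Set E} {Om' : Set F} {ι ι' : Type*}

/-- the inequalities of `T'` are those of `T`, carried by `e` -/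
structure Tra (e : E ≃L[ℝ] F) (T : Tiling Om ι) (T' : Tiling Om' ι') (σ : ι → ι') : Prop where
  sur : Function.Surjective σ
  H : ∀ i, ∀ q : (F →L[ℝ] ℝ) × ℝ → Prop, (∀ g ∈ T'.H (σ i), q g) ↔
    ∀ h ∈ T.H i, q (h.1.comp (e.symm : F →L[ℝ] E), h.2)

namespace Tra

variable {e : E ≃L[ℝ] F} {T : Tiling Om ι} {T' : Tiling Om' ι'} {σ : ι → ι'} (h : Tra e T T' σ)

include h

theorem mem_P {i : ι} {y : F} : y ∈ P (T'.H (σ i)) ↔ e.symm y ∈ P (T.H i) := h.H i _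

theorem mem_I {i : ι} {y : F} : y ∈ I (T'.H (σ i)) ↔ e.symm y ∈ I (T.H i) := h.H i _

theorem mem_P' {i : ι} {x : E} : e x ∈ P (T'.H (σ i)) ↔ x ∈ P (T.H i) := by
  rw [h.mem_P, e.symm_apply_apply]

theorem P_eq (i : ι) : P (T'.H (σ i)) = e '' P (T.H i) := by
  ext y
  rw [h.mem_P, ← mem_preimage (f := e.symm), ← e.image_eq_preimage_symm]

theorem at_iff {i : ι} {y : F} : σ i ∈ T'.at_ y ↔ i ∈ T.at_ (e.symm y) := h.mem_P

theorem forall_at {y : F} {q : ι' → Prop} :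
    (∀ j ∈ T'.at_ y, q j) ↔ ∀ i ∈ T.at_ (e.symm y), q (σ i) := by
  constructor
  · exact fun H i hi => H _ (h.at_iff.2 hi)
  · intro H j hj
    obtain ⟨i, rfl⟩ := h.sur j
    exact H i (h.at_iff.1 hj)

theorem mem_cc {y z : F} : z ∈ T'.cc y ↔ e.symm z ∈ T.cc (e.symm y) := by
  change (∀ j ∈ T'.at_ y, ∀ g ∈ T'.H j, g.1 z ≤ g.2 ∧ (g.1 y = g.2 → g.1 z = g.2)) ↔
    ∀ i ∈ T.at_ (e.symm y), ∀ g ∈ T.H i, _
  rw [h.forall_at]
  refine forall₂_congr fun i _ => ?_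
  rw [h.H i]
  rfl

theorem mem_oc {y z : F} : z ∈ T'.oc y ↔ e.symm z ∈ T.oc (e.symm y) := by
  change (∀ j ∈ T'.at_ y, ∀ g ∈ T'.H j, g.1 z ≤ g.2 ∧ (g.1 z = g.2 ↔ g.1 y = g.2)) ↔
    ∀ i ∈ T.at_ (e.symm y), ∀ g ∈ T.H i, _
  rw [h.forall_at]
  refine forall₂_congr fun i _ => ?_
  rw [h.H i]
  rfl

theorem mem_V {y v : F} : v ∈ T'.V y ↔ e.symm v ∈ T.V (e.symm y) := by
  change (∀ j ∈ T'.at_ y, ∀ g ∈ T'.H j, g.1 y = g.2 → g.1 v = 0) ↔
    ∀ i ∈ T.at_ (e.symm y), ∀ g ∈ T.H i, _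
  rw [h.forall_at]
  refine forall₂_congr fun i _ => ?_
  rw [h.H i]
  rfl

theorem cc_eq (x : E) : T'.cc (e x) = e '' T.cc x := by
  ext y
  rw [h.mem_cc, e.symm_apply_apply, ← mem_preimage (f := e.symm), ← e.image_eq_preimage_symm]

theorem oc_eq (x : E) : T'.oc (e x) = e '' T.oc x := by
  ext y
  rw [h.mem_oc, e.symm_apply_apply, ← mem_preimage (f := e.symm), ← e.image_eq_preimage_symm]

theorem dim_eq (x : E) : T'.dim (e x) = T.dim x := by
  have e1 : T'.V (e x) = (T.V x).map (e.toLinearEquiv : E →ₗ[ℝ] F) := by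
    ext v
    rw [h.mem_V, e.symm_apply_apply, Submodule.mem_map]
    constructor
    · intro hv
      exact ⟨e.symm v, hv, by simp⟩
    · rintro ⟨w, hw, rfl⟩
      simpa using hw
  unfold Tiling.dim
  rw [e1]
  exact LinearEquiv.finrank_map_eq e.toLinearEquiv _

end Tra

end gen

/-! ### blocks -/

section blocks

variable {n : ℕ} {E F : Type*} [NormedAddCommGroup E] [NormedSpace ℝ E]
  [NormedAddCommGroup F] [NormedSpace ℝ F] (e : E ≃L[ℝ] F)

theorem hc_comp (φ : E ≃L[ℝ] (Fin n → ℝ)) (a : Fin n → ℝ) (k : ℕ) (z : Fin n → ℤ)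
    (p : Fin n × Bool) : hc (e.symm.trans φ) a k z p =
      ((hc φ a k z p).1.comp (e.symm : F →L[ℝ] E), (hc φ a k z p).2) := by
  unfold hc
  split_ifs
  · refine Prod.ext ?_ rfl
    ext x
    rfl
  · refine Prod.ext ?_ rfl
    ext x
    rfl

theorem iq_comp (φ : E ≃L[ℝ] (Fin n → ℝ)) (a : Fin n → ℝ) (k : ℕ) (p : (Fin n → ℤ) × ℤ) :
    iq (e.symm.trans φ) a k p =
      ((iq φ a k p).1.comp (e.symm : F →L[ℝ] E), (iq φ a k p).2) := by
  refine Prod.ext ?_ rfl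
  ext x
  rw [Crest.Agent.R096.Mcc_715.iq_fst]
  change _ = (iq φ a k p).1 (e.symm x)
  rw [Crest.Agent.R096.Mcc_715.iq_fst]
  rfl

theorem forall_Hc {φ : E ≃L[ℝ] (Fin n → ℝ)} {a : Fin n → ℝ} {k : ℕ} {z : Fin n → ℤ}
    {q : (E →L[ℝ] ℝ) × ℝ → Prop} : (∀ h ∈ Hc φ a k z, q h) ↔ ∀ p, q (hc φ a k z p) := by
  classical
  unfold Hc
  simp only [Finset.mem_image, Finset.mem_univ, true_and, forall_exists_index,
    forall_apply_eq_imp_iff]

/-- the tilings by dyadic cubes in two frames -/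
theorem tra_tiling (φ : E ≃L[ℝ] (Fin n → ℝ)) (D : Dat n) :
    Tra e (tiling φ D) (tiling (e.symm.trans φ) D) id where
  sur := Function.surjective_id
  H τ q := by
    change (∀ g ∈ Hc (e.symm.trans φ) D.a τ.1.1.k τ.1.1.z, q g) ↔
      ∀ h ∈ Hc φ D.a τ.1.1.k τ.1.1.z, q (h.1.comp (e.symm : F →L[ℝ] E), h.2)
    rw [forall_Hc, forall_Hc (q := fun h => q (h.1.comp (e.symm : F →L[ℝ] E), h.2))]
    refine forall_congr' fun p => ?_
    rw [hc_comp]

end blocks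

section blocks2

variable {n : ℕ} {E F : Type*} [NormedAddCommGroup E] [NormedSpace ℝ E]
  [NormedAddCommGroup F] [NormedSpace ℝ F] (e : E ≃L[ℝ] F) (Q : CB E n)

/-- **the block in the space `F`** -/
def mp (Q : CB E n) : CB F n where
  ψ := e.symm.trans Q.ψ
  a' := Q.a'
  kc := Q.kc
  S := Q.S
  w := Q.w
  hkc := Q.hkc
  hw := Q.hw

@[simp] theorem mp_ψ (y : F) : (mp e Q).ψ y = Q.ψ (e.symm y) := rfl

@[simp] theorem mp_a' : (mp e Q).a' = Q.a' := rfl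

@[simp] theorem mp_kc : (mp e Q).kc = Q.kc := rfl

@[simp] theorem mp_S : (mp e Q).S = Q.S := rfl

@[simp] theorem mp_w : (mp e Q).w = Q.w := rfl

theorem mem_N_mp {y : F} : y ∈ (mp e Q).N ↔ e.symm y ∈ Q.N := by
  rw [CB.mem_N, CB.mem_N]
  rfl

theorem mem_N_mp' {x : E} : e x ∈ (mp e Q).N ↔ x ∈ Q.N := by
  rw [mem_N_mp, e.symm_apply_apply]

theorem N_mp : (mp e Q).N = e '' Q.N := by
  ext y
  rw [mem_N_mp, ← mem_preimage (f := e.symm), ← e.image_eq_preimage_symm]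

theorem pre_N_mp : e ⁻¹' (mp e Q).N = Q.N := by
  ext x
  exact mem_N_mp' e Q

theorem mem_Kc_mp {y : F} : y ∈ (mp e Q).Kc ↔ e.symm y ∈ Q.Kc := Iff.rfl

theorem mem_Kc_mp' {x : E} : e x ∈ (mp e Q).Kc ↔ x ∈ Q.Kc := by
  rw [mem_Kc_mp, e.symm_apply_apply]

theorem Kc_mp : (mp e Q).Kc = e '' Q.Kc := by
  ext y
  rw [mem_Kc_mp, ← mem_preimage (f := e.symm), ← e.image_eq_preimage_symm]

theorem pre_Kc_mp : e ⁻¹' (mp e Q).Kc = Q.Kc := by
  ext x
  exact mem_Kc_mp' e Q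

theorem frontier_mp : frontier (mp e Q).N = e '' frontier Q.N := by
  rw [N_mp]
  exact (e.toHomeomorph.image_frontier _).symm

theorem mem_frontier_mp {y : F} : y ∈ frontier (mp e Q).N ↔ e.symm y ∈ frontier Q.N := by
  rw [frontier_mp, ← mem_preimage (f := e.symm), ← e.image_eq_preimage_symm]

theorem mem_frontier_mp' {x : E} : e x ∈ frontier (mp e Q).N ↔ x ∈ frontier Q.N := by
  rw [mem_frontier_mp, e.symm_apply_apply]

theorem mp_tr (v : E) : mp e (Q.tr v) = (mp e Q).tr (e v) := by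
  have h : (e.symm.trans Q.ψ) (e v) = Q.ψ v := by
    change Q.ψ (e.symm (e v)) = Q.ψ v
    rw [e.symm_apply_apply]
  unfold mp CB.tr
  simp only [h]

theorem mp_mp_symm : mp e.symm (mp e Q) = Q := by
  have h : e.symm.symm.trans (e.symm.trans Q.ψ) = Q.ψ := by
    ext x l
    change Q.ψ (e.symm (e x)) l = Q.ψ x l
    rw [e.symm_apply_apply]
  cases Q
  unfold mp
  simp only at h ⊢
  rw [h]

variable (k : ℕ) (hk : Q.kc ≤ k)

/-- the graded cubes correspond -/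
theorem tra_T0 : Tra e (Q.T0 k hk) ((mp e Q).T0 k hk) id := tra_tiling e Q.ψ (Q.D k hk)

theorem mem_bp_mp {y : F} : y ∈ (mp e Q).S.bp (mp e Q).ψ (mp e Q).a' (mp e Q).kc ↔
    e.symm y ∈ Q.S.bp Q.ψ Q.a' Q.kc := by
  rw [PS.mem_bp, PS.mem_bp]
  rfl

/-- the cubes inside the enlarged box correspond -/
theorem inBp_iff (i : Top (Q.D k hk)) :
    P (((mp e Q).T0 k hk).H i) ⊆ (mp e Q).S.bp (mp e Q).ψ (mp e Q).a' (mp e Q).kc ↔
    P ((Q.T0 k hk).H i) ⊆ Q.S.bp Q.ψ Q.a' Q.kc := by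
  have hT := tra_T0 e Q k hk
  constructor
  · intro h x hx
    have h1 : e x ∈ P (((mp e Q).T0 k hk).H i) := (hT.mem_P' (i := i)).2 hx
    have h2 := (mem_bp_mp e Q).1 (h h1)
    rwa [e.symm_apply_apply] at h2
  · intro h y hy
    have h1 : e.symm y ∈ P ((Q.T0 k hk).H i) := (hT.mem_P (i := i)).1 hy
    exact (mem_bp_mp e Q).2 (h h1)

/-- the index map of the tilings of the block -/
noncomputable def ix : ({i // i ∉ {i | P ((Q.T0 k hk).H i) ⊆ Q.S.bp Q.ψ Q.a' Q.kc}} ⊕ Q.S.Ix) →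
    ({i // i ∉ {i | P (((mp e Q).T0 k hk).H i) ⊆
      (mp e Q).S.bp (mp e Q).ψ (mp e Q).a' (mp e Q).kc}} ⊕ (mp e Q).S.Ix) :=
  Sum.map (fun i => ⟨i.1, fun h => i.2 ((inBp_iff e Q k hk i.1).1 h)⟩) id

theorem ix_cix : ix e Q k hk (Q.cix k hk) = (mp e Q).cix k hk := rfl

/-- **the tilings of the block correspond** -/
theorem tra_T : Tra e (Q.T k hk) ((mp e Q).T k hk) (ix e Q k hk) where
  sur := by
    rintro (i | i)
    · exact ⟨Sum.inl ⟨i.1, fun h => i.2 ((inBp_iff e Q k hk i.1).2 h)⟩, rfl⟩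
    · exact ⟨Sum.inr i, rfl⟩
  H i q := by
    rcases i with i | i
    · exact (tra_T0 e Q k hk).H i.1 q
    · change (∀ g ∈ iH (mp e Q).ψ (mp e Q).a' (mp e Q).kc ((mp e Q).S.GG i), q g) ↔
        ∀ g ∈ iH Q.ψ Q.a' Q.kc (Q.S.GG i), q (g.1.comp (e.symm : F →L[ℝ] E), g.2)
      rw [forall_iH, forall_iH (Q := fun g => q (g.1.comp (e.symm : F →L[ℝ] E), g.2))]
      refine forall₂_congr fun p _ => ?_
      exact iff_of_eq (congrArg q (iq_comp e Q.ψ Q.a' Q.kc p))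

theorem T_cc (x : E) : ((mp e Q).T k hk).cc (e x) = e '' (Q.T k hk).cc x := (tra_T e Q k hk).cc_eq x

theorem T_mem_cc {y z : F} : z ∈ ((mp e Q).T k hk).cc y ↔ e.symm z ∈ (Q.T k hk).cc (e.symm y) :=
  (tra_T e Q k hk).mem_cc

theorem T_oc (x : E) : ((mp e Q).T k hk).oc (e x) = e '' (Q.T k hk).oc x := (tra_T e Q k hk).oc_eq x

theorem T_dim (x : E) : ((mp e Q).T k hk).dim (e x) = (Q.T k hk).dim x := (tra_T e Q k hk).dim_eq x

theorem T_dim' (y : F) : ((mp e Q).T k hk).dim y = (Q.T k hk).dim (e.symm y) := by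
  have := T_dim e Q k hk (e.symm y)
  rwa [e.apply_symm_apply] at this

theorem mem_I_core {y : F} : y ∈ I (((mp e Q).T k hk).H ((mp e Q).cix k hk)) ↔
    e.symm y ∈ I ((Q.T k hk).H (Q.cix k hk)) := (tra_T e Q k hk).mem_I (i := Q.cix k hk)

end blocks2

end Crest.Agent.R096.Tmap_212
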