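import Crest.Agent.R096.Tms1_582

/-!
Row 96 (S0127), helper234.  TMESH-END: from the local statements `TinyLoc` (one for every brick) and a
tiling which is in the standard form `InZone` in the pairwise disjoint balls `closedBall (x c) (R c)`
to the clauses `Cores` (with `X = ∅`) and `Fine` of the literal machine Prop (`Mbf_337`).
-/

set_option autoImplicit false
set_option linter.style.longLine false
set_option linter.unusedSectionVars false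

open MeasureTheory Set Filter Topology Metric
open scoped ENNReal

namespace Crest.Agent.R096.Tme_234

open Crest.Agent.R096.Msh_715
open Crest.Agent.R096.Msh_810 (Cu Hc ps mem_Cu P_Hc)
open Crest.Agent.R096.SkC1_961 (E3 Hom3 FoamD Cfg)
open Crest.Agent.R096.Mbf_337 Crest.Agent.R096.Tms_582

noncomputable section

theorem norm_sub_Cu {a : E3} {k : ℕ} {z : Fin 3 → ℤ} {p q : E3} (hp : p ∈ Cu a k z)
    (hq : q ∈ Cu a k z) : ‖p - q‖ ≤ (2 : ℝ)⁻¹ ^ k := by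
  rw [mem_Cu] at hp hq
  refine (pi_norm_le_iff_of_nonneg (by positivity)).2 fun i => ?_
  obtain ⟨h1, h2⟩ := hp i
  obtain ⟨h3, h4⟩ := hq i
  unfold ps at h1 h2 h3 h4
  have hk : (0 : ℝ) < 2 ^ k := by positivity
  have e : (2 : ℝ) ^ k * (2 : ℝ)⁻¹ ^ k = 1 := by
    rw [← mul_pow]; norm_num
  rw [Pi.sub_apply, Real.norm_eq_abs, abs_le]
  constructor
  · have : (2 : ℝ) ^ k * (-(2 : ℝ)⁻¹ ^ k) ≤ 2 ^ k * (p i - q i) := by
      have : (2 : ℝ) ^ k * (-(2 : ℝ)⁻¹ ^ k) = -1 := by linarith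
      rw [this]
      nlinarith
    exact le_of_mul_le_mul_left this hk
  · have : (2 : ℝ) ^ k * (p i - q i) ≤ 2 ^ k * (2 : ℝ)⁻¹ ^ k := by
      rw [e]
      nlinarith
    exact le_of_mul_le_mul_left this hk

/-- the fineness clause for the tile `i` -/
def FineAt {δ κ0 R0 c0 : ℝ} {La Om : Set E3} {ι : Type} (Φ : FoamD δ κ0 R0 c0 La) (T : Tiling Om ι)
    (f : E3 → E3) (ε : ℝ) (i : ι) : Prop :=
  ∀ x ∈ P (T.H i), ∀ y ∈ P (T.H i), ∀ c' : Φ.F,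
    (Φ.Psi (f x) ∈ c'.1.set → ‖Φ.Psi (f y) - Φ.Psi (f x)‖ ≤ ε * c'.1.sz) ∧
    |Φ.lev c' (f y) - Φ.lev c' (f x)| ≤ ε

/-- the tiles which meet the half ball -/
def Vz {La Om : Set E3} {δ κ0 R0 c0 : ℝ} {Φ : FoamD δ κ0 R0 c0 La} {ι : Type} (T : Tiling Om ι)
    (x : Φ.F → E3) (R : Φ.F → ℝ) (c : Φ.F) : Set ι :=
  {i | (P (T.H i) ∩ closedBall (x c) (R c / 2)).Nonempty}

/-- one zone: the tiles of the patch are in the quarter ball (translated), the tiles which meet the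
half ball are in the ball -/
theorem zone_sub {Om : Set E3} {ι : Type} {T : Tiling Om ι} {x₀ : E3} {R : ℝ} {k : ℕ} {w : E3}
    {Zc : Finset (Fin 3 → ℤ)} {κ : Type} {H : κ → Finset ((E3 →L[ℝ] ℝ) × ℝ)} {e : κ → ι}
    (hk : (2 : ℝ)⁻¹ ^ k ≤ R / 4) (hL : LatRepl k Zc H)
    (hZ : ∀ z ∈ Zc, Cu (0 : E3) k z ⊆ ball x₀ (R / 4)) (hw : ∀ i, 0 ≤ w i ∧ w i ≤ (2 : ℝ)⁻¹ ^ k)
    (hz : InZone T x₀ R k w Zc H e) :
    (∀ j, P (T.H (e j)) ⊆ closedBall x₀ (R / 2)) ∧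
    (∀ i, (P (T.H i) ∩ closedBall x₀ (R / 2)).Nonempty → P (T.H i) ⊆ closedBall x₀ R) := by
  have h2k : (0 : ℝ) < (2 : ℝ)⁻¹ ^ k := by positivity
  have hwn : ‖w‖ ≤ (2 : ℝ)⁻¹ ^ k := by
    refine (pi_norm_le_iff_of_nonneg h2k.le).2 fun i => ?_
    rw [Real.norm_eq_abs, abs_of_nonneg (hw i).1]
    exact (hw i).2
  have h1 : ∀ j, P (T.H (e j)) ⊆ closedBall x₀ (R / 2) := by
    intro j y hy
    rw [hz.loc j, mem_P_trH] at hy
    have h2 : y - w ∈ ⋃ j, P (H j) := mem_iUnion.2 ⟨j, hy⟩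
    rw [hL.eq] at h2
    obtain ⟨z, hzc, hz'⟩ := mem_iUnion₂.1 h2
    have h3 := hZ z hzc hz'
    rw [mem_ball_iff_norm] at h3
    rw [mem_closedBall_iff_norm]
    calc ‖y - x₀‖ = ‖(y - w - x₀) + w‖ := by congr 1; abel
      _ ≤ ‖y - w - x₀‖ + ‖w‖ := norm_add_le _ _
      _ ≤ R / 2 := by linarith
  refine ⟨h1, fun i hi => ?_⟩
  have hR : 0 < R := by linarith
  by_cases hie : i ∈ range e
  · obtain ⟨j, rfl⟩ := hie
    exact (h1 j).trans (closedBall_subset_closedBall (by linarith))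
  · obtain ⟨p, hp, hp'⟩ := hi
    obtain ⟨z, -, hz'⟩ := hz.lat i ⟨p, hp, closedBall_subset_closedBall (by linarith) hp'⟩ hie
    rw [hz', P_Hc] at hp ⊢
    intro y hy
    have h3 := norm_sub_Cu (p := y) (q := p) hy hp
    rw [mem_closedBall_iff_norm] at hp' ⊢
    calc ‖y - x₀‖ = ‖(y - p) + (p - x₀)‖ := by congr 1; abel
      _ ≤ ‖y - p‖ + ‖p - x₀‖ := norm_add_le _ _
      _ ≤ R := by linarith

/-- **TMESH-END** -/
theorem cores_fine {δ κ0 R0 c0 : ℝ} {La Om : Set E3} (Φ : FoamD δ κ0 R0 c0 La) (f : E3 → E3)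
    {κ1 : ℝ} (κ2 : ℝ) (x : Φ.F → E3) (R : Φ.F → ℝ) (hR : ∀ c, 0 < R c)
    (hdis : ∀ c c', c ≠ c' → Disjoint (closedBall (x c) (R c)) (closedBall (x c') (R c')))
    (hloc : ∀ c, TinyLoc Φ Om f κ1 c (x c) (R c)) :
    ∃ k0 : Φ.F → ℕ, ∀ k : Φ.F → ℕ, (∀ c, k0 c ≤ k c) →
    ∃ (Zc : Φ.F → Finset (Fin 3 → ℤ)) (κ : Φ.F → Type)
      (H : ∀ c, κ c → Finset ((E3 →L[ℝ] ℝ) × ℝ)),
      (∀ c, LatRepl (k c) (Zc c) (H c)) ∧
      (∀ c, ∀ z ∈ Zc c, Cu (0 : E3) (k c) z ⊆ ball (x c) (R c / 4)) ∧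
      ∀ w : Φ.F → E3, (∀ c i, 0 ≤ w c i ∧ w c i ≤ (2 : ℝ)⁻¹ ^ k c) →
      ∀ (ι : Type) (T : Tiling Om ι) (e : ∀ c, κ c → ι),
      (∀ c, InZone T (x c) (R c) (k c) (w c) (Zc c) (H c) (e c)) →
      (∀ i, (∀ c, i ∉ Vz T x R c) → FineAt Φ T f κ1 i) →
      (∀ c, RegV T f (Vz T x R c)) → (∀ c, ∃ i, x c ∈ I (T.H i)) →
      ∃ (J0 J : Φ.F → Set ι) (θ : Φ.F → E3 → E3) (φ : Φ.F → E3 → ℝ),
        (∀ (ct : Φ.F → ι) (A : Φ.F → E3 ≃ᵃ[ℝ] E3) (lam : Φ.F → ℝ) (z : Φ.F → E3),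
          Cores Φ T f κ1 κ2 ∅ J0 J (Vz T x R) ct A lam z θ φ) ∧ Fine Φ T f κ1 J0 ∧
        (∀ c, J0 c ⊆ range (e c) ∧ J c ⊆ range (e c) ∧ range (e c) ⊆ Vz T x R c) ∧
        ∀ c, ∀ i ∈ Vz T x R c, P (T.H i) ⊆ closedBall (x c) (R c) := by
  have hk1 : ∀ c, ∃ k1 : ℕ, (2 : ℝ)⁻¹ ^ k1 ≤ R c / 4 := fun c => by
    obtain ⟨n, hn⟩ := exists_pow_lt_of_lt_one (show (0 : ℝ) < R c / 4 by have := hR c; linarith)
      (show (2 : ℝ)⁻¹ < 1 by norm_num)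
    exact ⟨n, hn.le⟩
  choose k1 hk1 using hk1
  choose k2 hk2 using hloc
  refine ⟨fun c => max (k1 c) (k2 c), fun k hk => ?_⟩
  have h3 : ∀ c, (2 : ℝ)⁻¹ ^ k c ≤ R c / 4 := fun c =>
    (pow_le_pow_of_le_one (by norm_num) (by norm_num) ((le_max_left _ _).trans (hk c))).trans
      (hk1 c)
  choose Zc κ H J0 J θ φ hL hZ hmain using fun c => hk2 c (k c) ((le_max_right _ _).trans (hk c))
  refine ⟨Zc, κ, H, hL, hZ, fun w hw ι T e hz hfine hreg hxi => ?_⟩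
  have hsub := fun c => zone_sub (h3 c) (hL c) (hZ c) (hw c) (hz c)
  have hrange : ∀ c, range (e c) ⊆ Vz T x R c := by
    rintro c _ ⟨j, rfl⟩
    obtain ⟨p, hp⟩ := T.ne (e c j)
    have hp' := I_sub_P _ hp
    exact ⟨p, hp', (hsub c).1 j hp'⟩
  have key := fun c => hmain c (w c) (hw c) ι T (e c) (hz c) (Vz T x R c) (hrange c)
    (fun i hi => (hsub c).2 i hi) (fun i hi => hi) (hreg c) (hxi c)
  refine ⟨fun c => e c '' J0 c, fun c => e c '' J c, fun c y => θ c (y - w c),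
    fun c y => φ c (y - w c), fun ct A lam z => ?_, ?_, fun c => ?_, fun c i hi => (hsub c).2 i hi⟩
  · refine ⟨fun c c' hcc => ?_, fun c hc => hc.elim, fun c hc => hc.elim, fun c _ => (key c).1⟩
    rw [Set.disjoint_left]
    intro i hi hi'
    obtain ⟨p, hp⟩ := T.ne i
    have hp' := I_sub_P _ hp
    exact (Set.disjoint_left.1 (hdis c c' hcc)) ((hsub c).2 i hi hp') ((hsub c').2 i hi' hp')
  · have hall : ∀ i, (∀ c, i ∉ e c '' J0 c) → FineAt Φ T f κ1 i := by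
      intro i hi
      by_cases h : ∃ c, i ∈ Vz T x R c
      · obtain ⟨c, hc⟩ := h
        exact (key c).2 i hc (hi c)
      · push Not at h
        exact hfine i h
    exact ⟨fun i hi y hy y' hy' c => (hall i hi y hy y' hy' c).1,
      fun i hi y hy y' hy' c => (hall i hi y hy y' hy' c).2⟩
  · exact ⟨image_subset_range _ _, image_subset_range _ _, hrange c⟩

end

end Crest.Agent.R096.Tme_234
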