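import Crest.Agent.R096.Sk0_962

/-!
Row 96 (S0127), helper696.  TOP: `PLA p` and `P5 p` give the statement S0127 for the exponent `p`.
-/

set_option autoImplicit false
set_option linter.unusedSectionVars false
set_option linter.style.longLine false

open MeasureTheory Set Filter Topology Metric
open scoped ENNReal Gradient NNReal
open Crest.AnalysisR.VecCalc3 Crest.AnalysisR.Sobolev
open Crest.Agent.R096.Sk_962

namespace Crest.Agent.R096.Top_696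

lemma measurable_Gr (g : R3 → R3) (j : Fin 3) : Measurable (Gr g j) := by
  have h1 : Measurable (fun x => fderiv ℝ (fun y => g y j) x) := measurable_fderiv ℝ _
  have h2 : Measurable (fun L : R3 →L[ℝ] ℝ => (InnerProductSpace.toDual ℝ R3).symm L) :=
    (InnerProductSpace.toDual ℝ R3).symm.continuous.measurable
  exact h2.comp h1

lemma pow_sub_le {E : Type*} [NormedAddCommGroup E] {p : ℝ} (hp : 1 ≤ p) (a b c : E) :
    ‖a - c‖ₑ ^ p ≤ 2 ^ (p - 1) * (‖a - b‖ₑ ^ p + ‖b - c‖ₑ ^ p) := by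
  have h1 : ‖a - c‖ₑ ≤ ‖a - b‖ₑ + ‖b - c‖ₑ := by
    have : a - c = (a - b) + (b - c) := by abel
    rw [this]; exact enorm_add_le (a - b) (b - c)
  exact (ENNReal.rpow_le_rpow h1 (by linarith)).trans
    (ENNReal.rpow_add_le_mul_rpow_add_rpow _ _ hp)

/-- the `W^{1,p}` error density. -/
noncomputable def er (p : ℝ) (g f : R3 → R3) (A B : Fin 3 → R3 → R3) (x : R3) : ℝ≥0∞ :=
  ‖g x - f x‖ₑ ^ p + ∑ j : Fin 3, ‖A j x - B j x‖ₑ ^ p

lemma er_triangle {p : ℝ} (hp : 1 ≤ p) (g h f : R3 → R3) (A B C : Fin 3 → R3 → R3) (x : R3) :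
    er p g f A C x ≤ 2 ^ (p - 1) * (er p g h A B x + er p h f B C x) := by
  unfold er
  have h1 := pow_sub_le hp (g x) (h x) (f x)
  have h2 : ∑ j : Fin 3, ‖A j x - C j x‖ₑ ^ p ≤
      ∑ j : Fin 3, 2 ^ (p - 1) * (‖A j x - B j x‖ₑ ^ p + ‖B j x - C j x‖ₑ ^ p) :=
    Finset.sum_le_sum fun j _ => pow_sub_le hp _ _ _
  rw [← Finset.mul_sum, Finset.sum_add_distrib] at h2
  calc _ ≤ 2 ^ (p - 1) * (‖g x - h x‖ₑ ^ p + ‖h x - f x‖ₑ ^ p) +
        2 ^ (p - 1) * (∑ j : Fin 3, ‖A j x - B j x‖ₑ ^ p + ∑ j : Fin 3, ‖B j x - C j x‖ₑ ^ p) :=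
        add_le_add h1 h2
    _ = _ := by ring

lemma memLp_of_sub {E : Type*} [NormedAddCommGroup E] {p : ℝ} (hp : 1 ≤ p)
    {μ : Measure R3} {u v : R3 → E} (hu : AEStronglyMeasurable u μ)
    (hv : MemLp v (ENNReal.ofReal p) μ) (hfin : ∫⁻ x, ‖u x - v x‖ₑ ^ p ∂μ < ⊤) :
    MemLp u (ENNReal.ofReal p) μ := by
  have hp0 : 0 < p := by linarith
  have h1 : MemLp (fun x => u x - v x) (ENNReal.ofReal p) μ := by
    refine ⟨hu.sub hv.1, ?_⟩
    rw [eLpNorm_lt_top_iff_lintegral_rpow_enorm_lt_top (by simpa using hp0) ENNReal.ofReal_ne_top,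
      ENNReal.toReal_ofReal hp0.le]
    exact hfin
  have h2 := h1.add hv
  have h3 : ((fun x => u x - v x) + v) = u := by
    funext x; simp
  rwa [h3] at h2

/-- **TOP.** -/
theorem s0127_of_p {p : ℝ} (hp : 1 ≤ p) (hPLA : PLA p) (hP5 : P5 p)
    (Ω Λ : Set R3) (hΩo : IsOpen Ω) (hΩb : Bornology.IsBounded Ω) (hΩc : IsConnected Ω)
    (hΛo : IsOpen Λ) (hΛb : Bornology.IsBounded Λ) (hΛc : IsConnected Λ)
    (f : R3 → R3) (hf : IsHomeomorphOn f Ω Λ)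
    (hfp : MemLp f (ENNReal.ofReal p) (volume.restrict Ω))
    (G : Fin 3 → R3 → R3) (hG : ∀ j : Fin 3, HasWeakGradOn Ω (fun x => f x j) (G j))
    (hGp : ∀ j : Fin 3, MemLp (G j) (ENNReal.ofReal p) (volume.restrict Ω))
    (ε : ℝ≥0∞) (hε : 0 < ε) :
    ∃ g : R3 → R3, IsSmoothDiffeoOn g Ω Λ ∧ MemLp g (ENNReal.ofReal p) (volume.restrict Ω) ∧
      (∀ j : Fin 3, MemLp (fun x => ∇ (fun y => g y j) x) (ENNReal.ofReal p) (volume.restrict Ω)) ∧
      ∫⁻ x in Ω, (‖g x - f x‖ₑ ^ p + ∑ j : Fin 3, ‖∇ (fun y => g y j) x - G j x‖ₑ ^ p) < ε := by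
  have hp0 : 0 < p := by linarith
  -- the constant
  set K : ℝ≥0∞ := 2 ^ (p - 1) with hK
  have hK0 : K ≠ 0 := by
    rw [hK]
    exact (ENNReal.rpow_pos (by norm_num) (by norm_num)).ne'
  have hKt : K ≠ ⊤ := by
    rw [hK]
    exact ENNReal.rpow_ne_top_of_nonneg (by linarith) (by norm_num)
  set ε' : ℝ≥0∞ := min ε 1 with hε'
  have hε'0 : ε' ≠ 0 := (lt_min hε (by norm_num)).ne'
  have hε't : ε' ≠ ⊤ := ((min_le_right ε 1).trans_lt ENNReal.one_lt_top).ne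
  set ε₁ : ℝ≥0∞ := K⁻¹ * (ε' / 2) with hε₁
  have hε₁0 : 0 < ε₁ := by
    rw [hε₁]
    refine ENNReal.mul_pos (ENNReal.inv_ne_zero.2 hKt) (ENNReal.div_pos hε'0 (by norm_num)).ne'
  have hKε : K * (ε₁ + ε₁) = ε' := by
    rw [← two_mul, hε₁]
    calc K * (2 * (K⁻¹ * (ε' / 2))) = (K * K⁻¹) * (2 * (ε' / 2)) := by ring
      _ = ε' := by
        rw [ENNReal.mul_inv_cancel hK0 hKt, one_mul, ENNReal.mul_div_cancel (by norm_num) (by norm_num)]
  obtain ⟨h, hh, hhPL, hhε⟩ := hPLA Ω Λ f G hΩo hΩb hΩc hΛo hΛb hΛc ⟨hf, hfp, hG, hGp⟩ ε₁ hε₁0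
  obtain ⟨g, hg, hgε⟩ := hP5 Ω Λ h hΩo hΩb hΩc hΛo hΛb hΛc hh hhPL ε₁ hε₁0
  -- continuity
  have hgc : ContinuousOn g Ω := by
    obtain ⟨_, -, -, -, -, h1, -⟩ := hg
    exact h1.continuousOn
  have hhc : ContinuousOn h Ω := by
    obtain ⟨_, -, -, -, -, h1, -⟩ := hh
    exact h1
  have hgm : AEStronglyMeasurable g (volume.restrict Ω) :=
    hgc.aestronglyMeasurable hΩo.measurableSet
  have hhm : AEStronglyMeasurable h (volume.restrict Ω) :=
    hhc.aestronglyMeasurable hΩo.measurableSet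
  have hmeas : AEMeasurable (er p g h (Gr g) (Gr h)) (volume.restrict Ω) := by
    unfold er
    refine AEMeasurable.add ?_ ?_
    · exact ((hgm.sub hhm).enorm).pow_const p
    · refine Finset.aemeasurable_fun_sum _ fun j _ => ?_
      exact (((measurable_Gr g j).sub (measurable_Gr h j)).enorm.pow_const p).aemeasurable
  have htot : ∫⁻ x in Ω, er p g f (Gr g) G x < ε' := by
    calc ∫⁻ x in Ω, er p g f (Gr g) G x
        ≤ ∫⁻ x in Ω, K * (er p g h (Gr g) (Gr h) x + er p h f (Gr h) G x) :=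
          lintegral_mono fun x => er_triangle hp g h f (Gr g) (Gr h) G x
      _ = K * ((∫⁻ x in Ω, er p g h (Gr g) (Gr h) x) + ∫⁻ x in Ω, er p h f (Gr h) G x) := by
          rw [lintegral_const_mul' _ _ hKt, lintegral_add_left' hmeas]
      _ < K * (ε₁ + ε₁) := by
          refine (ENNReal.mul_lt_mul_iff_right hK0 hKt).2 ?_
          exact ENNReal.add_lt_add hgε hhε
      _ = ε' := hKε
  have hfin : ∫⁻ x in Ω, er p g f (Gr g) G x < ⊤ := htot.trans_le le_top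
  refine ⟨g, hg, ?_, ?_, ?_⟩
  · refine memLp_of_sub hp hgm hfp (lt_of_le_of_lt (lintegral_mono fun x => ?_) hfin)
    exact le_self_add
  · intro j
    refine memLp_of_sub (u := Gr g j) hp (measurable_Gr g j).aestronglyMeasurable (hGp j)
      (lt_of_le_of_lt (lintegral_mono fun x => ?_) hfin)
    unfold er
    refine le_add_left ?_
    exact Finset.single_le_sum (f := fun j : Fin 3 => ‖Gr g j x - G j x‖ₑ ^ p)
      (fun _ _ => zero_le) (Finset.mem_univ j)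
  · exact lt_of_lt_of_le htot (min_le_left _ _)

/-- S0127 from `PLA` and `P5` for all exponents. -/
theorem s0127_of (hPLA : ∀ p : ℝ, 1 ≤ p → PLA p) (hP5 : ∀ p : ℝ, 1 ≤ p → P5 p)
    (Ω Λ : Set R3) (hΩo : IsOpen Ω) (hΩb : Bornology.IsBounded Ω) (hΩc : IsConnected Ω)
    (hΛo : IsOpen Λ) (hΛb : Bornology.IsBounded Λ) (hΛc : IsConnected Λ)
    (p : ℝ) (hp : 1 ≤ p) (f : R3 → R3) (hf : IsHomeomorphOn f Ω Λ)
    (hfp : MemLp f (ENNReal.ofReal p) (volume.restrict Ω))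
    (G : Fin 3 → R3 → R3) (hG : ∀ j : Fin 3, HasWeakGradOn Ω (fun x => f x j) (G j))
    (hGp : ∀ j : Fin 3, MemLp (G j) (ENNReal.ofReal p) (volume.restrict Ω))
    (ε : ℝ≥0∞) (hε : 0 < ε) :
    ∃ g : R3 → R3, IsSmoothDiffeoOn g Ω Λ ∧ MemLp g (ENNReal.ofReal p) (volume.restrict Ω) ∧
      (∀ j : Fin 3, MemLp (fun x => ∇ (fun y => g y j) x) (ENNReal.ofReal p) (volume.restrict Ω)) ∧
      ∫⁻ x in Ω, (‖g x - f x‖ₑ ^ p + ∑ j : Fin 3, ‖∇ (fun y => g y j) x - G j x‖ₑ ^ p) < ε :=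
  s0127_of_p hp (hPLA p hp) (hP5 p hp) Ω Λ hΩo hΩb hΩc hΛo hΛb hΛc f hf hfp G hG hGp ε hε

end Crest.Agent.R096.Top_696
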