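import Crest.Agent.R096.Top2_961
import Crest.Agent.R096.Br6_695
import Crest.Agent.R096.Rg3h_766
import Crest.Agent.R096.Eau1_365
import Crest.Agent.R096.No10_276

/-!
Row 96 (S0127), helper961.  **The top of the row, second form**: the ranges `2 < p < 3` (695) and
`p ≥ 3` (766) are proved; `EA p` is reduced to `PreX p` (365), `NOS` to `MachNO` and `NOPre` (276).
-/

set_option autoImplicit false
set_option linter.style.longLine false

namespace Crest.Agent.R096.Top_961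

open MeasureTheory Metric Set Filter Topology
open scoped ENNReal Gradient NNReal
open Crest.AnalysisR.VecCalc3 Crest.AnalysisR.Sobolev
open Crest.Agent.R096.Sk_962 Crest.Agent.R096.Sk4_663

/-- **S0127 from the open nodes** (09:45Z): `MachBF`, `MachNO`, `PreX` (`p > 2`), `EA0` and its
consumer (`p ≤ 2`), `NOPre`. -/
theorem s0127_final2 (hM : Mbf_337.MachBF) (hMN : ∀ p : ℝ, 1 ≤ p → SkN2_477.MachNO p)
    (preX : ∀ p : ℝ, 2 < p → Eau_365.PreX p)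
    (ea0 : Mbf_337.MachBF → ∀ p : ℝ, 1 ≤ p → p ≤ 2 → Ea0_961.EA0 p)
    (r12 : ∀ p : ℝ, 1 ≤ p → p ≤ 2 → Ea0_961.EA0 p → Br_695.BFk p)
    (pre : ∀ p : ℝ, 1 ≤ p → No_276.NOPre p)
    (Ω Λ : Set R3) (hΩo : IsOpen Ω) (hΩb : Bornology.IsBounded Ω) (hΩc : IsConnected Ω)
    (hΛo : IsOpen Λ) (hΛb : Bornology.IsBounded Λ) (hΛc : IsConnected Λ)
    (p : ℝ) (hp : 1 ≤ p) (f : R3 → R3) (hf : IsHomeomorphOn f Ω Λ)
    (hfp : MemLp f (ENNReal.ofReal p) (volume.restrict Ω))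
    (G : Fin 3 → R3 → R3) (hG : ∀ j : Fin 3, HasWeakGradOn Ω (fun x => f x j) (G j))
    (hGp : ∀ j : Fin 3, MemLp (G j) (ENNReal.ofReal p) (volume.restrict Ω))
    (ε : ℝ≥0∞) (hε : 0 < ε) :
    ∃ g : R3 → R3, IsSmoothDiffeoOn g Ω Λ ∧ MemLp g (ENNReal.ofReal p) (volume.restrict Ω) ∧
      (∀ j : Fin 3, MemLp (fun x => ∇ (fun y => g y j) x) (ENNReal.ofReal p) (volume.restrict Ω)) ∧
      ∫⁻ x in Ω, (‖g x - f x‖ₑ ^ p + ∑ j : Fin 3, ‖∇ (fun y => g y j) x - G j x‖ₑ ^ p) < ε :=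
  s0127_final hM hMN
    (fun hM p hp => Eau_365.ea_of_pre (by linarith) hM (preX p hp)) ea0 r12
    (fun _ h2 h3 H => Br_695.bfk_of_ea h2 h3 H) (fun _ h3 H => Rg3_766.bfk_of_ea h3 H) pre
    (fun _ hp h1 h2 => No_276.nos_of hp h1 h2)
    Ω Λ hΩo hΩb hΩc hΛo hΛb hΛc p hp f hf hfp G hG hGp ε hε

end Crest.Agent.R096.Top_961
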