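import Crest.Agent.R096.Acc5_365
import Crest.Agent.R096.Ea0_961

/-!
Row 96 (S0127), helper447.  **EA0, accounting [Z9]**: the original core `K` against the shifted core
`K + v` (`v` in the room `Tw` of the block), with an energy bound `B` (no pointwise bound) on
`K \ (K + v)`.
-/

set_option autoImplicit false
set_option linter.style.longLine false
set_option linter.unusedSectionVars false
set_option linter.unusedVariables false

open MeasureTheory Set Filter Topology Metric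
open scoped ENNReal NNReal

namespace Crest.Agent.R096.Zac_447

open Crest.Agent.R096.SkC1_961 (E3 Hom3)
open Crest.Agent.R096.Bsp_628 Crest.Agent.R096.Brk5_582
open Crest.Agent.R096.EaX_766 (lin cbx Kor)
open Crest.Agent.R096.Mal_874 (CB)
open Crest.Agent.R096.Acc_365
open Crest.Agent.R096.Exa_365

noncomputable section

variable {p : ℝ} {Om : Set E3} {A : E3 ≃ᵃ[ℝ] E3}

section one

variable {Q : Bx (Fin 3)} {lam κ0 τ e1 : ℝ} {v : E3} {h : E3 → E3 →L[ℝ] E3}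

/-- **core clause on the original core** from the core clause on the shifted core and the energy of the
difference -/
theorem core_shiftB (hp : 1 ≤ p) (hQ : Q.Pos) (hl : 0 < lam) (hκ0 : 0 ≤ κ0)
    (hκ : ∀ k, Q.sz ≤ κ0 * Q.side k) (hτ : 0 ≤ τ) (hv : ∀ k, |lin A v k| ≤ τ * (lam * Q.sz))
    (he1 : 0 ≤ e1)
    (hcore : ∫⁻ x in K2 A Q lam v, ‖h x - lam⁻¹ • lin A‖ₑ ^ p ≤
      ENNReal.ofReal e1 * (‖lin A‖ₑ ^ p * volume (K2 A Q lam v))) {B : ℝ≥0∞}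
    (hin : ∫⁻ x in K1 A Q lam \ K2 A Q lam v, ‖h x‖ₑ ^ p ≤ B) :
    ∫⁻ x in K1 A Q lam, ‖h x - lam⁻¹ • lin A‖ₑ ^ p ≤
      ENNReal.ofReal (e1 + 2 ^ (p - 1) * ((1 / lam) ^ p * (3 * κ0 * τ))) *
        (‖lin A‖ₑ ^ p * volume (K1 A Q lam)) + ENNReal.ofReal (2 ^ (p - 1)) * B := by
  have hp0 : 0 ≤ p := zero_le_one.trans hp
  have hll : ‖(0 : E3 →L[ℝ] E3) - lam⁻¹ • lin A‖ₑ = ENNReal.ofReal (1 / lam) * ‖lin A‖ₑ := by
    rw [zero_sub, enorm_neg, enorm_smul, one_div, ← Real.enorm_of_nonneg (inv_nonneg.2 hl.le)]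
  have h1 : ∫⁻ x in K1 A Q lam \ K2 A Q lam v, ‖h x - lam⁻¹ • lin A‖ₑ ^ p ≤
      ENNReal.ofReal (2 ^ (p - 1)) * B +
        ENNReal.ofReal (2 ^ (p - 1) * ((1 / lam) ^ p * (3 * κ0 * τ))) *
          (‖lin A‖ₑ ^ p * volume (K1 A Q lam)) := by
    have h2 := energy_shift hp (h := h) (a := 0) (b := lam⁻¹ • lin A)
      (S := K1 A Q lam \ K2 A Q lam v) (T := K1 A Q lam \ K2 A Q lam v) subset_rfl
    simp only [sub_zero] at h2
    refine h2.trans ?_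
    rw [hll, ENNReal.mul_rpow_of_nonneg _ _ hp0, ENNReal.ofReal_rpow_of_nonneg (by positivity) hp0,
      mul_add]
    refine add_le_add (mul_le_mul_right hin _) ?_
    calc ENNReal.ofReal (2 ^ (p - 1)) * (ENNReal.ofReal ((1 / lam) ^ p) * ‖lin A‖ₑ ^ p *
            volume (K1 A Q lam \ K2 A Q lam v))
          ≤ ENNReal.ofReal (2 ^ (p - 1)) * (ENNReal.ofReal ((1 / lam) ^ p) * ‖lin A‖ₑ ^ p *
            (ENNReal.ofReal (3 * κ0 * τ) * volume (K1 A Q lam))) := by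
            gcongr; exact (vol_shift hQ hl hκ0 hκ hτ hv).1
        _ = ENNReal.ofReal (2 ^ (p - 1) * ((1 / lam) ^ p * (3 * κ0 * τ))) *
            (‖lin A‖ₑ ^ p * volume (K1 A Q lam)) := by
            rw [ENNReal.ofReal_mul (p := 2 ^ (p - 1)) (by positivity),
              ENNReal.ofReal_mul (p := (1 / lam) ^ p) (by positivity)]
            ring
  calc ∫⁻ x in K1 A Q lam, ‖h x - lam⁻¹ • lin A‖ₑ ^ p
      ≤ ∫⁻ x in K2 A Q lam v ∪ (K1 A Q lam \ K2 A Q lam v), ‖h x - lam⁻¹ • lin A‖ₑ ^ p := by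
        refine lintegral_mono_set fun x hx => ?_
        by_cases hx2 : x ∈ K2 A Q lam v
        · exact Or.inl hx2
        · exact Or.inr ⟨hx, hx2⟩
    _ ≤ (∫⁻ x in K2 A Q lam v, ‖h x - lam⁻¹ • lin A‖ₑ ^ p) +
          ∫⁻ x in K1 A Q lam \ K2 A Q lam v, ‖h x - lam⁻¹ • lin A‖ₑ ^ p := lintegral_union_le _ _ _
    _ ≤ ENNReal.ofReal e1 * (‖lin A‖ₑ ^ p * volume (K1 A Q lam)) +
          (ENNReal.ofReal (2 ^ (p - 1)) * B +
        ENNReal.ofReal (2 ^ (p - 1) * ((1 / lam) ^ p * (3 * κ0 * τ))) *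
          (‖lin A‖ₑ ^ p * volume (K1 A Q lam))) := by
        gcongr
        rw [volume_K2] at hcore
        exact hcore
    _ = _ := by
        rw [ENNReal.ofReal_add he1 (by positivity), add_mul]
        ring

/-- **energy of the part of the shifted core outside the original core** -/
theorem zone_shiftB (hp : 1 ≤ p) (hQ : Q.Pos) (hl : 0 < lam) (hκ0 : 0 ≤ κ0)
    (hκ : ∀ k, Q.sz ≤ κ0 * Q.side k) (hτ : 0 ≤ τ) (hv : ∀ k, |lin A v k| ≤ τ * (lam * Q.sz))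
    (he1 : 0 ≤ e1)
    (hcore : ∫⁻ x in K2 A Q lam v, ‖h x - lam⁻¹ • lin A‖ₑ ^ p ≤
      ENNReal.ofReal e1 * (‖lin A‖ₑ ^ p * volume (K2 A Q lam v))) :
    ∫⁻ x in K2 A Q lam v \ K1 A Q lam, ‖h x‖ₑ ^ p ≤
      ENNReal.ofReal (2 ^ (p - 1) * (e1 + (1 / lam) ^ p * (3 * κ0 * τ))) *
        (‖lin A‖ₑ ^ p * volume (K1 A Q lam)) := by
  have h1 := zone_energy (W := K2 A Q lam v) hp hQ hl hκ0 hκ hτ hv (C1 := 0) le_rfl he1
    (measurableSet_K2 A Q lam v) hcore (by rw [sdiff_self, Measure.restrict_empty]; simp)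
  rw [Real.zero_rpow (by linarith), ENNReal.ofReal_zero, zero_mul, zero_add] at h1
  exact h1

end one

/-- the data of the accounting with shifted cores -/
structure ShiftD (p c0 κ0 τ e1 : ℝ) (F : Set (Bx (Fin 3))) (X : Set F) (A : F → E3 ≃ᵃ[ℝ] E3)
    (lam : F → ℝ) (v : F → E3) (g : E3 → E3 →L[ℝ] E3) : Prop where
  cnt : F.Countable
  pos : ∀ c ∈ X, c.1.Pos
  asp : ∀ c ∈ X, ∀ k, c.1.sz ≤ κ0 * c.1.side k
  hc0 : 0 < c0
  hκ0 : 0 ≤ κ0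
  hτ : 0 ≤ τ
  he1 : 0 ≤ e1
  hlam : ∀ c ∈ X, c0 ≤ lam c
  shift : ∀ c ∈ X, ∀ k, |lin (A c) (v c) k| ≤ τ * (lam c * c.1.sz)
  core : ∀ c ∈ X, ∫⁻ x in K2 (A c) c.1 (lam c) (v c), ‖g x - (lam c)⁻¹ • lin (A c)‖ₑ ^ p ≤
    ENNReal.ofReal e1 * (‖lin (A c)‖ₑ ^ p * volume (K2 (A c) c.1 (lam c) (v c)))

/-- the constants of `SHIFT` -/
def Score (p c0 κ0 τ e1 : ℝ) : ℝ := e1 + 2 ^ (p - 1) * ((1 / c0) ^ p * (3 * κ0 * τ))

def Szone (p c0 κ0 τ e1 : ℝ) : ℝ := 2 ^ (p - 1) * (e1 + (1 / c0) ^ p * (3 * κ0 * τ))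

variable {c0 κ0 τ e1 : ℝ} {F : Set (Bx (Fin 3))} {X : Set F}
  {A : F → E3 ≃ᵃ[ℝ] E3} {lam : F → ℝ} {v : F → E3} {g : E3 → E3 →L[ℝ] E3}

/-- **core clause** -/
theorem ShiftD.core1 (hp : 1 ≤ p) (H : ShiftD p c0 κ0 τ e1 F X A lam v g) {c : F} (hc : c ∈ X)
    {B : ℝ≥0∞} (hin : ∫⁻ x in Kor F A lam c \ K2 (A c) c.1 (lam c) (v c), ‖g x‖ₑ ^ p ≤ B) :
    ∫⁻ x in Kor F A lam c, ‖g x - (lam c)⁻¹ • lin (A c)‖ₑ ^ p ≤
      ENNReal.ofReal (Score p c0 κ0 τ e1) * (‖lin (A c)‖ₑ ^ p * volume (Kor F A lam c)) +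
        ENNReal.ofReal (2 ^ (p - 1)) * B := by
  have hl : 0 < lam c := H.hc0.trans_le (H.hlam c hc)
  refine (core_shiftB hp (H.pos c hc) hl H.hκ0 (H.asp c hc) H.hτ (H.shift c hc) H.he1
    (H.core c hc) hin).trans ?_
  change _ ≤ ENNReal.ofReal (Score p c0 κ0 τ e1) *
    (‖lin (A c)‖ₑ ^ p * volume (K1 (A c) c.1 (lam c))) + _
  have h2 : (1 / lam c) ^ p ≤ (1 / c0) ^ p :=
    Real.rpow_le_rpow (by positivity) (one_div_le_one_div_of_le H.hc0 (H.hlam c hc))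
      (zero_le_one.trans hp)
  have h3 := H.hκ0
  have h4 := H.hτ
  unfold Score
  gcongr

theorem ShiftD.zone1 (hp : 1 ≤ p) (H : ShiftD p c0 κ0 τ e1 F X A lam v g) {c : F} (hc : c ∈ X) :
    ∫⁻ x in K2 (A c) c.1 (lam c) (v c) \ Kor F A lam c, ‖g x‖ₑ ^ p ≤
      ENNReal.ofReal (Szone p c0 κ0 τ e1) * (‖lin (A c)‖ₑ ^ p * volume (Kor F A lam c)) := by
  have hl : 0 < lam c := H.hc0.trans_le (H.hlam c hc)
  refine (zone_shiftB hp (H.pos c hc) hl H.hκ0 (H.asp c hc) H.hτ (H.shift c hc) H.he1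
    (H.core c hc)).trans ?_
  change _ ≤ ENNReal.ofReal (Szone p c0 κ0 τ e1) * (‖lin (A c)‖ₑ ^ p * volume (K1 (A c) c.1 (lam c)))
  have h2 : (1 / lam c) ^ p ≤ (1 / c0) ^ p :=
    Real.rpow_le_rpow (by positivity) (one_div_le_one_div_of_le H.hc0 (H.hlam c hc))
      (zero_le_one.trans hp)
  have h3 := H.hκ0
  have h4 := H.hτ
  unfold Szone
  gcongr

theorem ShiftD.Szone_nonneg (H : ShiftD p c0 κ0 τ e1 F X A lam v g) : 0 ≤ Szone p c0 κ0 τ e1 := by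
  have h1 := H.hκ0
  have h2 := H.he1
  have h3 := H.hc0
  have h5 := H.hτ
  have h4 : 0 ≤ (1 / c0) ^ p := Real.rpow_nonneg (by positivity) _
  unfold Szone
  positivity

/-- **energy off the original cores from the energy off the shifted cores** -/
theorem ShiftD.acc (hp : 1 ≤ p) (H : ShiftD p c0 κ0 τ e1 F X A lam v g) {J0 : ℝ≥0∞}
    (hout : ∫⁻ x in Om \ ⋃ c ∈ X, K2 (A c) c.1 (lam c) (v c), ‖g x‖ₑ ^ p ≤ J0) :
    ∫⁻ x in Om \ ⋃ c ∈ X, Kor F A lam c, ‖g x‖ₑ ^ p ≤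
      J0 + ENNReal.ofReal (Szone p c0 κ0 τ e1) *
        (∑' c : X, (1 + ‖lin (A c)‖ₑ ^ p) * volume (Kor F A lam c)) := by
  classical
  have : Countable F := H.cnt.to_subtype
  set Z : X → Set E3 := fun c => K2 (A c) c.1.1 (lam c) (v c) \ Kor F A lam c with hZ
  have hsub : Om \ ⋃ c ∈ X, Kor F A lam c ⊆
      (Om \ ⋃ c ∈ X, K2 (A c) c.1 (lam c) (v c)) ∪ ⋃ c : X, Z c := by
    rintro x ⟨hx1, hx2⟩
    by_cases hx3 : x ∈ ⋃ c ∈ X, K2 (A c) c.1 (lam c) (v c)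
    · simp only [mem_iUnion] at hx3
      obtain ⟨c, hc, hxc⟩ := hx3
      refine Or.inr (mem_iUnion.2 ⟨⟨c, hc⟩, hxc, fun h => hx2 ?_⟩)
      exact mem_iUnion₂.2 ⟨c, hc, h⟩
    · exact Or.inl ⟨hx1, hx3⟩
  calc ∫⁻ x in Om \ ⋃ c ∈ X, Kor F A lam c, ‖g x‖ₑ ^ p
      ≤ ∫⁻ x in (Om \ ⋃ c ∈ X, K2 (A c) c.1 (lam c) (v c)) ∪ ⋃ c : X, Z c, ‖g x‖ₑ ^ p :=
        lintegral_mono_set hsub
    _ ≤ (∫⁻ x in Om \ ⋃ c ∈ X, K2 (A c) c.1 (lam c) (v c), ‖g x‖ₑ ^ p) +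
          ∫⁻ x in ⋃ c : X, Z c, ‖g x‖ₑ ^ p := lintegral_union_le _ _ _
    _ ≤ J0 + ∑' c : X, ∫⁻ x in Z c, ‖g x‖ₑ ^ p := add_le_add hout (lintegral_iUnion_le _ _)
    _ ≤ J0 + ∑' c : X, ENNReal.ofReal (Szone p c0 κ0 τ e1) *
            ((1 + ‖lin (A c)‖ₑ ^ p) * volume (Kor F A lam c)) := by
        gcongr with c
        refine (H.zone1 hp c.2).trans ?_
        gcongr
        exact le_add_self
    _ = _ := by rw [ENNReal.tsum_mul_left]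

/-- **the constants are as small as we like** -/
theorem shift_choice (p : ℝ) {c0 κ0 e : ℝ} (hc0 : 0 < c0) (hκ0 : 0 ≤ κ0) (he : 0 < e) :
    ∃ e1 τ0 : ℝ, 0 < e1 ∧ 0 < τ0 ∧ ∀ τ, 0 ≤ τ → τ ≤ τ0 →
      Score p c0 κ0 τ e1 ≤ e ∧ Szone p c0 κ0 τ e1 ≤ e := by
  set P : ℝ := 2 ^ (p - 1) with hP
  have hPp : 0 < P := Real.rpow_pos_of_pos (by norm_num) _
  set b : ℝ := (1 / c0) ^ p with hb
  have hb0 : 0 < b := Real.rpow_pos_of_pos (by positivity) _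
  refine ⟨min (e / 2) (e / (2 * P)), e / (2 * (P * (b * (3 * κ0)) + 1)), by positivity,
    by positivity, fun τ h0 h1 => ?_⟩
  have h2 : P * (b * (3 * κ0 * τ)) ≤ e / 2 := by
    have h3 : 0 ≤ P * (b * (3 * κ0)) := by positivity
    calc P * (b * (3 * κ0 * τ)) = P * (b * (3 * κ0)) * τ := by ring
      _ ≤ P * (b * (3 * κ0)) * (e / (2 * (P * (b * (3 * κ0)) + 1))) := by gcongr
      _ ≤ e / 2 := by
          rw [mul_div_assoc', div_le_div_iff₀ (by positivity) (by norm_num)]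
          nlinarith
  have h3 : P * min (e / 2) (e / (2 * P)) ≤ e / 2 := by
    calc P * min (e / 2) (e / (2 * P)) ≤ P * (e / (2 * P)) := by
          gcongr; exact min_le_right _ _
      _ = e / 2 := by field_simp
  constructor
  · unfold Score
    rw [← hP, ← hb]
    have := min_le_left (e / 2) (e / (2 * P))
    linarith
  · unfold Szone
    rw [← hP, ← hb, mul_add]
    linarith

/-- the shifts of the room `Tw` are small in the coordinates `A` -/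
theorem shift_small {F : Set (Bx (Fin 3))} {u Cc κ2 κt : ℝ} {Bs M Nn : ℕ} {c : F} {A : E3 ≃ᵃ[ℝ] E3}
    {lam : ℝ} {Q : CB E3 3} {k0 : ℕ} {hk : Q.kc ≤ k0}
    (hB : Ea0_961.Blk F u Cc κ2 κt Bs M Nn c A lam Q k0 hk) (hu : 0 < u) (hκt : 0 < κt) {w : E3}
    (hw : w ∈ Ea0_961.Tw Q k0) (k : Fin 3) :
    |lin A w k| ≤ κt / 10 * (lam * c.1.sz) ∧ |lin A w k| ≤ u / (10 * 2 ^ k0) := by
  have h1 : lin A w k = u * Q.ψ w k := by
    have h := hB.lin_eq w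
    change A.linear w k = _
    rw [h]
    rfl
  obtain ⟨h2, h3⟩ := hw k
  have hp : (0 : ℝ) < 2 ^ k0 := by positivity
  have h4 : |lin A w k| ≤ u / (10 * 2 ^ k0) := by
    rw [h1, abs_of_nonneg (mul_nonneg hu.le h2)]
    calc u * Q.ψ w k ≤ u * (1 / (10 * 2 ^ k0)) := by gcongr
      _ = _ := by ring
  refine ⟨h4.trans ?_, h4⟩
  have h5 := hB.thin
  have h6 : 0 < u / 2 ^ k0 := by positivity
  have h7 : 0 < κt * (lam * c.1.sz) / M := h6.trans_le h5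
  have hM : (0 : ℝ) < M := by
    rcases Nat.eq_zero_or_pos M with h | h
    · rw [h, Nat.cast_zero, div_zero] at h7
      exact absurd h7 (lt_irrefl _)
    · exact_mod_cast h
  have hM1 : (1 : ℝ) ≤ M := by
    have : 0 < M := by exact_mod_cast hM
    exact_mod_cast this
  have h8 : 0 < κt * (lam * c.1.sz) := by
    have := mul_pos h7 hM
    rwa [div_mul_cancel₀ _ hM.ne'] at this
  calc u / (10 * 2 ^ k0) = (u / 2 ^ k0) / 10 := by rw [mul_comm (10:ℝ), div_div]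
    _ ≤ (κt * (lam * c.1.sz) / M) / 10 := by gcongr
    _ ≤ (κt * (lam * c.1.sz)) / 10 := by
        gcongr
        exact div_le_self h8.le hM1
    _ = _ := by ring

end

end Crest.Agent.R096.Zac_447
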