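import Crest.Agent.R096.Top3_961
import Crest.Agent.R096.Mch3_534
import Crest.Agent.R096.Nsl7_552
import Crest.Agent.R96.Ea0q_348

/-!
Row 96 (S0127), helper961.  **The top of the row, fourth form**: `MachBF`, `MachNO` from `FrontP` (337, 534),
`NOPre p` for `p < 3` proved (552), `EA0` from `Pre0` (348).
-/

set_option autoImplicit false
set_option linter.style.longLine false

namespace Crest.Agent.R096.Top_961

open MeasureTheory Metric Set Filter Topology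
open scoped ENNReal Gradient NNReal
open Crest.AnalysisR.VecCalc3 Crest.AnalysisR.Sobolev
open Crest.Agent.R096.Sk_962 Crest.Agent.R096.Sk4_663

/-- **S0127 from the open nodes** (10:08Z): `FrontP` (INIT + DOORS), `PreX` (`p > 2`), `Pre0` and the
consumer of `EA0` (`p ≤ 2`), `NOPre` (`p ≥ 3`). -/
theorem s0127_final4 (hF : Mno_534.FrontP)
    (preX : ∀ p : ℝ, 2 < p → Eau_365.PreX p)
    (pre0 : ∀ p : ℝ, 1 ≤ p → p ≤ 2 → Crest.Agent.R96.Ea0p_348.Pre0 p)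
    (r12 : ∀ p : ℝ, 1 ≤ p → p ≤ 2 → Ea0_961.EA0 p → Br_695.BFk p)
    (pre3 : ∀ p : ℝ, 3 ≤ p → No_276.NOPre p)
    (Ω Λ : Set R3) (hΩo : IsOpen Ω) (hΩb : Bornology.IsBounded Ω) (hΩc : IsConnected Ω)
    (hΛo : IsOpen Λ) (hΛb : Bornology.IsBounded Λ) (hΛc : IsConnected Λ)
    (p : ℝ) (hp : 1 ≤ p) (f : R3 → R3) (hf : IsHomeomorphOn f Ω Λ)
    (hfp : MemLp f (ENNReal.ofReal p) (volume.restrict Ω))
    (G : Fin 3 → R3 → R3) (hG : ∀ j : Fin 3, HasWeakGradOn Ω (fun x => f x j) (G j))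
    (hGp : ∀ j : Fin 3, MemLp (G j) (ENNReal.ofReal p) (volume.restrict Ω))
    (ε : ℝ≥0∞) (hε : 0 < ε) :
    ∃ g : R3 → R3, IsSmoothDiffeoOn g Ω Λ ∧ MemLp g (ENNReal.ofReal p) (volume.restrict Ω) ∧
      (∀ j : Fin 3, MemLp (fun x => ∇ (fun y => g y j) x) (ENNReal.ofReal p) (volume.restrict Ω)) ∧
      ∫⁻ x in Ω, (‖g x - f x‖ₑ ^ p + ∑ j : Fin 3, ‖∇ (fun y => g y j) x - G j x‖ₑ ^ p) < ε :=
  s0127_final2 (Mno_534.machBF_of_front hF) (fun p hp => Mno_534.machNO_of_front hF hp) preX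
    (fun hM p hp h2 => Crest.Agent.R96.Ea0p_348.ea0_of_pre hp (by linarith) hM (pre0 p hp h2)) r12
    (fun p hp => (lt_or_ge p 3).elim (fun h => Nsl_552.noPre_lt hp h) (fun h => pre3 p h))
    Ω Λ hΩo hΩb hΩc hΛo hΛb hΛc p hp f hf hfp G hG hGp ε hε

end Crest.Agent.R096.Top_961
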