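import Crest.Agent.R096.Asm5_119
import Crest.Agent.R096.Sk4g_663
import Crest.Agent.R096.Na1_477
import Crest.Agent.R096.No1_276

/-!
Row 96 (S0127), helper961.  **The top of the row**: S0127 from the literal Props of the nodes.

* `s0127_of` : from `BFs p`, `NO0 p` for all `p ≥ 1`;
* `s0127_of_nodes` : from the ranges and the machines.  The Props `MachBF : Prop`, `MachNO : ℝ → Prop`,
  `EA : ℝ → Prop` are variables here; they are instantiated in `Crest/Agent/S0127.lean`.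
-/

set_option autoImplicit false
set_option linter.style.longLine false

namespace Crest.Agent.R096.Top_961

open MeasureTheory Metric Set Filter Topology
open scoped ENNReal Gradient NNReal
open Crest.AnalysisR.VecCalc3 Crest.AnalysisR.Sobolev
open Crest.Agent.R096.Sk_962 Crest.Agent.R096.Sk4_663

/-- **S0127 from `BFs` and `NO0`.** -/
theorem s0127_of (hB : ∀ p : ℝ, 1 ≤ p → BFs p) (hN : ∀ p : ℝ, 1 ≤ p → NO0 p)
    (Ω Λ : Set R3) (hΩo : IsOpen Ω) (hΩb : Bornology.IsBounded Ω) (hΩc : IsConnected Ω)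
    (hΛo : IsOpen Λ) (hΛb : Bornology.IsBounded Λ) (hΛc : IsConnected Λ)
    (p : ℝ) (hp : 1 ≤ p) (f : R3 → R3) (hf : IsHomeomorphOn f Ω Λ)
    (hfp : MemLp f (ENNReal.ofReal p) (volume.restrict Ω))
    (G : Fin 3 → R3 → R3) (hG : ∀ j : Fin 3, HasWeakGradOn Ω (fun x => f x j) (G j))
    (hGp : ∀ j : Fin 3, MemLp (G j) (ENNReal.ofReal p) (volume.restrict Ω))
    (ε : ℝ≥0∞) (hε : 0 < ε) :
    ∃ g : R3 → R3, IsSmoothDiffeoOn g Ω Λ ∧ MemLp g (ENNReal.ofReal p) (volume.restrict Ω) ∧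
      (∀ j : Fin 3, MemLp (fun x => ∇ (fun y => g y j) x) (ENNReal.ofReal p) (volume.restrict Ω)) ∧
      ∫⁻ x in Ω, (‖g x - f x‖ₑ ^ p + ∑ j : Fin 3, ‖∇ (fun y => g y j) x - G j x‖ₑ ^ p) < ε :=
  Asm_119.s0127_of_pla (fun _ h => pla_of h (hB _ h) (hN _ h)) Ω Λ hΩo hΩb hΩc hΛo hΛb hΛc p hp f hf
    hfp G hG hGp ε hε

/-- `BFs p` for all `p ≥ 1` from the four ranges. -/
theorem bfs_of_ranges {MachBF : Prop} {EA : ℝ → Prop}
    (hEA : ∀ p : ℝ, 1 ≤ p → MachBF → EA p)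
    (h12 : ∀ p : ℝ, 1 ≤ p → p < 2 → EA p → BFs p) (h2 : EA 2 → BFs 2)
    (h23 : ∀ p : ℝ, 2 < p → p < 3 → EA p → BFs p) (h3 : ∀ p : ℝ, 3 ≤ p → EA p → BFs p)
    (hM : MachBF) (p : ℝ) (hp : 1 ≤ p) : BFs p := by
  rcases lt_trichotomy p 2 with h | h | h
  · exact h12 p hp h (hEA p hp hM)
  · subst h
    exact h2 (hEA 2 hp hM)
  · rcases lt_or_ge p 3 with h' | h'
    · exact h23 p h h' (hEA p hp hM)
    · exact h3 p h' (hEA p hp hM)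

/-- `NO0 p` from 276's `NOS p`. -/
theorem no0_of_nos {p : ℝ} (hp : 1 ≤ p) (h : No_276.NOS p) : NO0 p :=
  Sq_477.no0_of_nol (by linarith) (No_276.nol_of_nos (by linarith) h)

/-- **S0127 from the nodes.** -/
theorem s0127_of_nodes {MachBF : Prop} {MachNO EA : ℝ → Prop}
    (hEA : ∀ p : ℝ, 1 ≤ p → MachBF → EA p)
    (h12 : ∀ p : ℝ, 1 ≤ p → p < 2 → EA p → BFs p) (h2 : EA 2 → BFs 2)
    (h23 : ∀ p : ℝ, 2 < p → p < 3 → EA p → BFs p) (h3 : ∀ p : ℝ, 3 ≤ p → EA p → BFs p)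
    (hno : ∀ p : ℝ, 1 ≤ p → MachNO p → No_276.NOS p)
    (hM : MachBF) (hMN : ∀ p : ℝ, 1 ≤ p → MachNO p)
    (Ω Λ : Set R3) (hΩo : IsOpen Ω) (hΩb : Bornology.IsBounded Ω) (hΩc : IsConnected Ω)
    (hΛo : IsOpen Λ) (hΛb : Bornology.IsBounded Λ) (hΛc : IsConnected Λ)
    (p : ℝ) (hp : 1 ≤ p) (f : R3 → R3) (hf : IsHomeomorphOn f Ω Λ)
    (hfp : MemLp f (ENNReal.ofReal p) (volume.restrict Ω))
    (G : Fin 3 → R3 → R3) (hG : ∀ j : Fin 3, HasWeakGradOn Ω (fun x => f x j) (G j))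
    (hGp : ∀ j : Fin 3, MemLp (G j) (ENNReal.ofReal p) (volume.restrict Ω))
    (ε : ℝ≥0∞) (hε : 0 < ε) :
    ∃ g : R3 → R3, IsSmoothDiffeoOn g Ω Λ ∧ MemLp g (ENNReal.ofReal p) (volume.restrict Ω) ∧
      (∀ j : Fin 3, MemLp (fun x => ∇ (fun y => g y j) x) (ENNReal.ofReal p) (volume.restrict Ω)) ∧
      ∫⁻ x in Ω, (‖g x - f x‖ₑ ^ p + ∑ j : Fin 3, ‖∇ (fun y => g y j) x - G j x‖ₑ ^ p) < ε :=
  s0127_of (bfs_of_ranges hEA h12 h2 h23 h3 hM) (fun p hp => no0_of_nos hp (hno p hp (hMN p hp)))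
    Ω Λ hΩo hΩb hΩc hΛo hΛb hΛc p hp f hf hfp G hG hGp ε hε

end Crest.Agent.R096.Top_961
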