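import Crest.Agent.R096.Toph1_766

/-!
Row 96 (S0127), helper766.  TOPH, part 2: existence of the scale functions used in `toph`; measure of
the bad bricks (Vitali); `SEL` with small total volume of the complement of the good image.
-/

set_option autoImplicit false
set_option linter.unusedSectionVars false
set_option linter.style.longLine false
set_option linter.style.haveILetI false
set_option linter.unusedVariables false

namespace Crest.Agent.R096.Toph_766

open MeasureTheory Set Filter Topology Metric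
open scoped ENNReal NNReal RealInnerProductSpace
open Crest.AnalysisR.VecCalc3 Crest.AnalysisR.Sobolev
open Crest.Agent.R096.Osc_802 Crest.Agent.R096.LusN_766 Crest.Agent.R096.VolC_766
open Crest.Agent.R096.VolC2_766 Crest.Agent.R096.VolC3_766 Crest.Agent.R96.Lu_538
open Crest.Agent.R096.ThC6_766 Crest.Agent.R096.ThCi2_766 Crest.Agent.R096.ThCi3_766
open Crest.Agent.R096.Sel_766

section Scales

variable {V : Type*} [NormedAddCommGroup V] [InnerProductSpace ℝ V]

/-- `exists_scale` with a lower bound. -/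
theorem exists_scale' {L : Set V} (hL : IsOpen L) {h : V → ℝ}
    (hh : ∀ x ∈ L, ∃ r : ℝ, 0 < r ∧ ∃ m : ℝ, 0 < m ∧ ∀ y ∈ ball x r, m ≤ h y) :
    ∃ w : V → ℝ, Scale L w ∧ (∀ x ∈ L, w x ≤ h x) ∧
      ∀ (x : V) (m : ℝ), 0 ≤ m → m ≤ 1 → ball x (8 * m) ⊆ L → (∀ y ∈ ball x (8 * m), m ≤ h y) → m ≤ w x := by
  classical
  set H : V → ℝ := fun y => if y ∈ L then min 1 (h y) else 0 with hH
  have hpos : ∀ y ∈ L, 0 < h y := by
    intro y hy
    obtain ⟨r, hr, m, hm, hb⟩ := hh y hy
    exact hm.trans_le (hb y (mem_ball_self hr))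
  have hH0 : ∀ y, 0 ≤ H y := by
    intro y
    by_cases hy : y ∈ L
    · simp only [hH, hy, if_true]; exact le_min zero_le_one (hpos y hy).le
    · simp [hH, hy]
  have hbdd : ∀ x, BddBelow (range fun y => H y + ‖x - y‖ / 8) := fun x =>
    ⟨0, by rintro _ ⟨y, rfl⟩; have := hH0 y; positivity⟩
  set w : V → ℝ := fun x => ⨅ y, (H y + ‖x - y‖ / 8) with hw
  have hwle : ∀ x y, w x ≤ H y + ‖x - y‖ / 8 := fun x y => ciInf_le (hbdd x) y
  have hlew : ∀ x c, (∀ y, c ≤ H y + ‖x - y‖ / 8) → c ≤ w x := fun x c hc => le_ciInf hc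
  have hself : ∀ x, w x ≤ H x := fun x => by
    have := hwle x x
    simpa using this
  have hlow : ∀ (x : V) (m : ℝ), 0 ≤ m → m ≤ 1 → ball x (8 * m) ⊆ L →
      (∀ y ∈ ball x (8 * m), m ≤ h y) → m ≤ w x := by
    intro x m hm hm1 hb hmh
    refine hlew x _ fun y => ?_
    by_cases hy : y ∈ ball x (8 * m)
    · have hyL := hb hy
      have h1 : m ≤ H y := by
        simp only [hH, hyL, if_true]
        exact le_min hm1 (hmh y hy)
      have h2 : 0 ≤ ‖x - y‖ / 8 := by positivity
      linarith
    · have h0 := hH0 y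
      rw [mem_ball, dist_comm, dist_eq_norm, not_lt] at hy
      linarith
  refine ⟨w, ⟨fun x => hlew x 0 fun y => by have := hH0 y; positivity, ?_, ?_, ?_, ?_⟩, ?_, hlow⟩
  · intro x y
    have : w x - ‖x - y‖ / 8 ≤ w y := by
      refine hlew y _ fun z => ?_
      have h1 := hwle x z
      have h2 : ‖x - z‖ ≤ ‖x - y‖ + ‖y - z‖ := by
        have := norm_add_le (x - y) (y - z)
        rwa [sub_add_sub_cancel] at this
      linarith
    linarith
  · intro x hx
    obtain ⟨r, hr, m, hm, hb⟩ := hh x hx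
    obtain ⟨r', hr', hrL⟩ := Metric.isOpen_iff.1 hL x hx
    have h1 : 0 < min (min 1 m) (min r r' / 8) := by positivity
    refine h1.trans_le (hlow x _ h1.le ((min_le_left _ _).trans (min_le_left _ _)) ?_ ?_)
    · refine (ball_subset_ball ?_).trans hrL
      have : min (min 1 m) (min r r' / 8) ≤ min r r' / 8 := min_le_right _ _
      have h3 : min r r' ≤ r' := min_le_right _ _
      linarith
    · intro y hy
      refine ((min_le_left _ _).trans (min_le_right _ _)).trans (hb y (ball_subset_ball ?_ hy))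
      have : min (min 1 m) (min r r' / 8) ≤ min r r' / 8 := min_le_right _ _
      have h3 : min r r' ≤ r := min_le_left _ _
      linarith
  · intro x hx
    apply le_antisymm
    · have := hself x
      simpa [hH, hx] using this
    · exact hlew x 0 fun y => by have := hH0 y; positivity
  · intro x
    refine (hself x).trans ?_
    by_cases hx : x ∈ L
    · simp only [hH, hx, if_true]; exact min_le_left _ _
    · simp [hH, hx]
  · intro x hx
    refine (hself x).trans ?_
    simp only [hH, hx, if_true]; exact min_le_right _ _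

/-- local finiteness of balls gives finiteness in compact sets. -/
lemma finite_of_locfin {L : Set V} {ι : Type*} {P : ι → V} {R : ι → ℝ} (hR : ∀ i, 0 < R i)
    (hfin : ∀ q ∈ L, ∃ r : ℝ, 0 < r ∧ {i | (closedBall (P i) (2 * R i) ∩ ball q r).Nonempty}.Finite)
    {K : Set V} (hK : IsCompact K) (hKL : K ⊆ L) : {i | P i ∈ K}.Finite := by
  choose! r hr hrf using hfin
  obtain ⟨t, htK, ht⟩ := hK.elim_nhds_subcover (fun q => ball q (r q)) fun q hq =>
    ball_mem_nhds q (hr q (hKL hq))
  refine (t.finite_toSet.biUnion fun q hq => hrf q (hKL (htK q hq))).subset ?_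
  intro i hi
  obtain ⟨q, hq⟩ := mem_iUnion.1 (ht hi)
  obtain ⟨hqt, hqi⟩ := mem_iUnion.1 hq
  refine mem_iUnion.2 ⟨q, mem_iUnion.2 ⟨hqt, ⟨P i, mem_closedBall_self ?_, hqi⟩⟩⟩
  have := hR i
  positivity

/-- the scale function of the sets `D`, `W` from the family. -/
theorem exists_sigma [FiniteDimensional ℝ V] {L : Set V} (hL : IsOpen L) {w : V → ℝ} (hw : Scale L w)
    {ι : Type*} {P : ι → V} {R : ι → ℝ} (hR : ∀ i, 0 < R i)
    (hfin : ∀ q ∈ L, ∃ r : ℝ, 0 < r ∧ {i | (closedBall (P i) (2 * R i) ∩ ball q r).Nonempty}.Finite) :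
    ∃ σ : V → ℝ, Scale L σ ∧ (∀ i y, ‖P i - y‖ ≤ w (P i) / 16 → σ y ≤ R i) ∧
      ∀ (y : V) (m : ℝ), 0 ≤ m → m ≤ 1 → ball y (8 * m) ⊆ L →
        (∀ i, ‖P i - y‖ ≤ w (P i) / 16 + 8 * m → m ≤ R i) → m ≤ σ y := by
  classical
  have : ProperSpace V := FiniteDimensional.proper_real V
  set h : V → ℝ := fun y => ⨅ k : Option ι, (match k with
    | none => 1
    | some i => if ‖P i - y‖ ≤ w (P i) / 16 then R i else 1) with hh
  have hbdd : ∀ y, BddBelow (range fun k : Option ι => (match k with
    | none => 1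
    | some i => if ‖P i - y‖ ≤ w (P i) / 16 then R i else 1 : ℝ)) := by
    intro y
    refine ⟨0, ?_⟩
    rintro _ ⟨k, rfl⟩
    rcases k with _ | i
    · simp
    · simp only
      split_ifs
      · exact (hR i).le
      · exact zero_le_one
  have hlow : ∀ y m, m ≤ 1 → (∀ i, ‖P i - y‖ ≤ w (P i) / 16 → m ≤ R i) → m ≤ h y := by
    intro y m hm1 hm
    refine le_ciInf fun k => ?_
    rcases k with _ | i
    · exact hm1
    · simp only
      split_ifs with hi
      · exact hm i hi
      · exact hm1
  obtain ⟨σ, hσ, hσh, hσl⟩ := exists_scale' hL (h := h) (by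
    intro x hx
    have hwx := hw.pos x hx
    have hKL : closedBall x (2 * w x) ⊆ L := fun z hz => hw.mem hx (by
      rw [mem_closedBall, dist_eq_norm] at hz; linarith)
    have hfin' := finite_of_locfin hR hfin (isCompact_closedBall x (2 * w x)) hKL
    obtain ⟨m, hm, hmR⟩ : ∃ m : ℝ, 0 < m ∧ ∀ i, P i ∈ closedBall x (2 * w x) → m ≤ R i := by
      rcases hfin'.toFinset.eq_empty_or_nonempty with hem | hne
      · refine ⟨1, one_pos, fun i hi => ?_⟩
        have : i ∈ hfin'.toFinset := hfin'.mem_toFinset.2 hi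
        rw [hem] at this
        exact absurd this (Finset.notMem_empty i)
      · obtain ⟨i0, -, hi0⟩ := hfin'.toFinset.exists_min_image R hne
        exact ⟨R i0, hR i0, fun i hi => hi0 i (hfin'.mem_toFinset.2 hi)⟩
    refine ⟨w x, hwx, min 1 m, lt_min one_pos hm, fun y hy => ?_⟩
    rw [mem_ball, dist_eq_norm] at hy
    refine hlow y _ (min_le_left _ _) fun i hi => (min_le_right _ _).trans (hmR i ?_)
    rw [mem_closedBall, dist_eq_norm]
    have h1 : ‖P i - x‖ ≤ ‖P i - y‖ + ‖y - x‖ := by
      have := norm_add_le (P i - y) (y - x)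
      rwa [sub_add_sub_cancel] at this
    have h2 := hw.lip (P i) x
    linarith)
  refine ⟨σ, hσ, fun i y hy => ?_, fun y m hm hm1 hb hmR => ?_⟩
  · by_cases hyL : y ∈ L
    · refine (hσh y hyL).trans ((ciInf_le (hbdd y) (some i)).trans ?_)
      simp only
      rw [if_pos hy]
    · rw [hσ.off y hyL]; exact (hR i).le
  · refine hσl y m hm hm1 hb fun z hz => hlow z m hm1 fun i hi => hmR i ?_
    rw [mem_ball, dist_eq_norm] at hz
    have h1 : ‖P i - y‖ ≤ ‖P i - z‖ + ‖z - y‖ := by
      have := norm_add_le (P i - z) (z - y)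
      rwa [sub_add_sub_cancel] at this
    linarith

end Scales

/-- the scale of the bricks. -/
theorem exists_s1 {Ω Λ : Set R3} (hΩ : IsOpen Ω) (hΛ : IsOpen Λ) {f : R3 → R3}
    (hf : IsHomeomorphOn f Ω Λ) {w : R3 → ℝ} (hw : Scale Λ w) {h : R3 → ℝ} (hc : ContinuousOn h Ω)
    (hpos : ∀ x ∈ Ω, 0 < h x) :
    ∃ s₁ : R3 → ℝ, Scale Λ s₁ ∧ ∀ q ∈ Λ, s₁ q ≤ w q / 8 ∧
      ∀ x ∈ Ω, ‖f x - q‖ ≤ w q → s₁ q ≤ h x := by
  classical
  obtain ⟨g, hfm, hgm, hgf, hfg, hfc, hgc⟩ := hf
  set H : R3 → ℝ := fun q => ⨅ k : Option R3, (match k with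
    | none => 1
    | some x => if x ∈ Ω ∧ ‖f x - q‖ ≤ w q then h x else 1) with hH
  have hbdd : ∀ q, BddBelow (range fun k : Option R3 => (match k with
    | none => 1
    | some x => if x ∈ Ω ∧ ‖f x - q‖ ≤ w q then h x else 1 : ℝ)) := by
    intro q
    refine ⟨0, ?_⟩
    rintro _ ⟨k, rfl⟩
    rcases k with _ | x
    · simp
    · simp only
      split_ifs with hx
      · exact (hpos x hx.1).le
      · exact zero_le_one
  obtain ⟨s₁, hs₁, hs₁h⟩ := exists_scale hΛ (h := fun q => min (w q / 8) (H q)) (by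
    intro q hq
    have hwq := hw.pos q hq
    have hKL : closedBall q (3 * w q) ⊆ Λ := fun z hz => hw.mem hq (by
      rw [mem_closedBall, dist_eq_norm] at hz; linarith)
    have hKc : IsCompact (g '' closedBall q (3 * w q)) :=
      (isCompact_closedBall _ _).image_of_continuousOn (hgc.mono hKL)
    have hKΩ : g '' closedBall q (3 * w q) ⊆ Ω := by
      rintro _ ⟨z, hz, rfl⟩; exact hgm (hKL hz)
    obtain ⟨x0, hx0, hmin⟩ := hKc.exists_isMinOn
      ⟨_, mem_image_of_mem g (mem_closedBall_self (by positivity))⟩ (hc.mono hKΩ)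
    refine ⟨w q, hwq, min (7 / 64 * w q) (min 1 (h x0)),
      lt_min (by positivity) (lt_min one_pos (hpos x0 (hKΩ hx0))), fun y hy => ?_⟩
    rw [mem_ball, dist_eq_norm] at hy
    have h1 := hw.lip q y
    have h2 := hw.lip y q
    rw [norm_sub_rev] at h1
    refine min_le_min (by linarith) (le_ciInf fun k => ?_)
    rcases k with _ | x
    · exact min_le_left _ _
    · simp only
      split_ifs with hx
      · refine (min_le_right _ _).trans ?_
        have h3 : x ∈ g '' closedBall q (3 * w q) := by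
          refine ⟨f x, ?_, hgf x hx.1⟩
          rw [mem_closedBall, dist_eq_norm]
          have h4 := norm_add_le (f x - y) (y - q)
          rw [sub_add_sub_cancel] at h4
          linarith [hx.2]
        exact hmin h3
      · exact min_le_left _ _)
  refine ⟨s₁, hs₁, fun q hq => ⟨(hs₁h q hq).trans (min_le_left _ _), fun x hx hxq => ?_⟩⟩
  refine (hs₁h q hq).trans ((min_le_right _ _).trans ((ciInf_le (hbdd q) (some x)).trans ?_))
  simp only
  rw [if_pos ⟨hx, hxq⟩]

section Vitali

variable {V : Type*} [NormedAddCommGroup V] [InnerProductSpace ℝ V]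
variable [FiniteDimensional ℝ V] [MeasurableSpace V] [BorelSpace V]

/-- Vitali: the points where `A` has density `> η` at some scale. -/
theorem vitali_le [Nontrivial V] {A M : Set V} {η R₀ : ℝ} (hη : 0 < η)
    (h : ∀ y ∈ M, ∃ ρ : ℝ, 0 < ρ ∧ ρ ≤ R₀ ∧
      η * (volume : Measure V).real (ball y ρ) < (volume : Measure V).real (A ∩ ball y ρ)) :
    volume M ≤ ENNReal.ofReal (5 ^ (Module.finrank ℝ V) / η) * volume A := by
  classical
  set n := Module.finrank ℝ V with hn
  set A' : Set V := toMeasurable volume A with hA'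
  have hA'm : MeasurableSet A' := measurableSet_toMeasurable _ _
  choose! r hr0 hrR hr using h
  obtain ⟨u, hut, hud, hcov⟩ := Vitali.exists_disjoint_subfamily_covering_enlargement_closedBall
    M (fun y => y) r R₀ hrR 5 (by norm_num)
  have huc : u.Countable := by
    apply Set.PairwiseDisjoint.countable_of_nonempty_interior hud
    intro y hy
    exact ⟨y, ball_subset_interior_closedBall (mem_ball_self (hr0 y (hut hy)))⟩
  have hudb : u.PairwiseDisjoint fun y => A' ∩ ball y (r y) := hud.mono fun y z hz =>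
    ball_subset_closedBall hz.2
  have hball : ∀ y ∈ u, volume (closedBall y (5 * r y)) ≤ ENNReal.ofReal (5 ^ n / η) *
      volume (A' ∩ ball y (r y)) := by
    intro y hy
    have h0 := hr0 y (hut hy)
    have h1 := hr y (hut hy)
    have hf : volume (A' ∩ ball y (r y)) ≠ ∞ :=
      ((measure_mono inter_subset_right).trans_lt measure_ball_lt_top).ne
    have h1' : (volume : Measure V).real (A ∩ ball y (r y)) ≤ (volume : Measure V).real (A' ∩ ball y (r y)) :=
      measureReal_mono (inter_subset_inter_left _ (subset_toMeasurable _ _)) hf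
    have e1 : volume (closedBall y (5 * r y)) = ENNReal.ofReal
        (5 ^ n * (volume : Measure V).real (ball y (r y))) := by
      rw [Measure.addHaar_closedBall_eq_addHaar_ball, ← ENNReal.ofReal_toReal
        (measure_ball_lt_top (μ := volume) (x := y) (r := 5 * r y)).ne]
      congr 1
      have := vb y (r := 5 * r y) (by positivity)
      rw [Measure.real] at this
      rw [this, vb y h0.le, mul_pow, mul_assoc]
    rw [e1, ← ENNReal.ofReal_toReal hf, ← ENNReal.ofReal_mul (by positivity)]
    apply ENNReal.ofReal_le_ofReal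
    rw [div_mul_eq_mul_div, le_div_iff₀ hη]
    have h2 : (volume (A' ∩ ball y (r y))).toReal = (volume : Measure V).real (A' ∩ ball y (r y)) := rfl
    rw [h2]
    have h3 : (0 : ℝ) < 5 ^ n := by positivity
    nlinarith
  calc volume M ≤ volume (⋃ y ∈ u, closedBall y (5 * r y)) := by
        apply measure_mono
        intro y hy
        obtain ⟨b, hbu, hb⟩ := hcov y hy
        exact mem_iUnion.2 ⟨b, mem_iUnion.2 ⟨hbu, hb (mem_closedBall_self (hr0 y hy).le)⟩⟩
    _ ≤ ∑' y : u, volume (closedBall (y : V) (5 * r y)) := measure_biUnion_le _ huc _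
    _ ≤ ∑' y : u, ENNReal.ofReal (5 ^ n / η) * volume (A' ∩ ball (y : V) (r y)) :=
        ENNReal.tsum_le_tsum fun y => hball y y.2
    _ = ENNReal.ofReal (5 ^ n / η) * ∑' y : u, volume (A' ∩ ball (y : V) (r y)) := ENNReal.tsum_mul_left
    _ = ENNReal.ofReal (5 ^ n / η) * volume (⋃ y ∈ u, A' ∩ ball y (r y)) := by
        rw [measure_biUnion huc hudb fun y _ => hA'm.inter measurableSet_ball]
    _ ≤ ENNReal.ofReal (5 ^ n / η) * volume A := by
        rw [← measure_toMeasurable A]
        gcongr
        intro z hz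
        obtain ⟨y, hy⟩ := mem_iUnion.1 hz
        obtain ⟨hyu, hzW, hzy⟩ := mem_iUnion.1 hy
        exact hzW

/-- **density of the complement of the good image in the bad bricks.** -/
theorem bad_density [Nontrivial V] {L F W : Set V} {w σ : V → ℝ} (hw : Scale L w) (hσ : Scale L σ)
    (hWdef : W = {y | y ∈ L ∧ σ y / 2 < infDist y F}) {η c : ℝ} (hη : 0 < η) (hc : 0 < c) (hc1 : c ≤ 1)
    {q : V} {s : ℝ} (hs : 0 < s) (hs1 : s ≤ 1) (hcσ : ∀ y, ‖y - q‖ ≤ 5 * s → c * s ≤ σ y) {z : V}
    (hz : ‖z - q‖ ≤ 4 * s) (hzO : z ∈ OO η w W) :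
    ∀ y, ‖y - q‖ ≤ s → ∃ ρ : ℝ, 0 < ρ ∧ ρ ≤ 7 ∧
      (min (η / 6 ^ (Module.finrank ℝ V)) ((c / 28) ^ (Module.finrank ℝ V)) / 2) *
        (volume : Measure V).real (ball y ρ) < (volume : Measure V).real ((L \ F) ∩ ball y ρ) := by
  intro y hy
  set n := Module.finrank ℝ V with hn
  have hv := v1_pos (V := V)
  have hWLF : W ⊆ L \ F := by
    intro x hx
    rw [hWdef] at hx
    refine ⟨hx.1, fun h => ?_⟩
    have h1 := hx.2
    rw [infDist_zero_of_mem h] at h1
    have h2 := hσ.pos x hx.1
    linarith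
  obtain ⟨ρ, hρ0, hρw, hρ⟩ := hzO
  have hyz : ‖z - y‖ ≤ 5 * s := by
    have h1 : z - y = (z - q) - (y - q) := by abel
    rw [h1]
    refine (norm_sub_le _ _).trans ?_
    linarith
  set η' : ℝ := min (η / 6 ^ n) ((c / 28) ^ n) / 2 with hη'
  have hm0 : 0 < min (η / 6 ^ n) ((c / 28) ^ n) := by positivity
  have hη'1 : η' < η / 6 ^ n := by
    have := min_le_left (η / 6 ^ n) ((c / 28) ^ n)
    rw [hη']; linarith
  have hη'2 : η' < (c / 28) ^ n := by
    have := min_le_right (η / 6 ^ n) ((c / 28) ^ n)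
    rw [hη']; linarith
  rcases le_or_gt s ρ with hsρ | hsρ
  · refine ⟨6 * ρ, by positivity, ?_, ?_⟩
    · have := hw.le_one z
      linarith
    · have h1 : (volume : Measure V).real (W ∩ ball z ρ) ≤
          (volume : Measure V).real (W ∩ ball y (6 * ρ)) := vb_mono (by linarith)
      have h2 : (volume : Measure V).real (W ∩ ball y (6 * ρ)) ≤
          (volume : Measure V).real ((L \ F) ∩ ball y (6 * ρ)) :=
        measureReal_mono (inter_subset_inter_left _ hWLF)
          ((measure_mono inter_subset_right).trans_lt measure_ball_lt_top).ne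
      rw [vb z hρ0.le] at hρ
      rw [vb y (by positivity)]
      have h3 : η' * ((6 * ρ) ^ n * (volume : Measure V).real (ball (0 : V) 1)) ≤
          η / 6 ^ n * ((6 * ρ) ^ n * (volume : Measure V).real (ball (0 : V) 1)) := by gcongr
      have h4 : η / 6 ^ n * ((6 * ρ) ^ n * (volume : Measure V).real (ball (0 : V) 1)) =
          η * (ρ ^ n * (volume : Measure V).real (ball (0 : V) 1)) := by
        rw [mul_pow]; field_simp
      linarith
  · -- a point of `W` near
    obtain ⟨z1, hz1W, hz1⟩ : (W ∩ ball z ρ).Nonempty := by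
      by_contra hcon
      rw [not_nonempty_iff_eq_empty] at hcon
      rw [hcon, measureReal_empty] at hρ
      have : 0 ≤ η * (volume : Measure V).real (ball z ρ) := by positivity
      linarith
    rw [mem_ball, dist_eq_norm] at hz1
    have hz1q : ‖z1 - q‖ ≤ 5 * s := by
      have := norm_add_le (z1 - z) (z - q)
      rw [sub_add_sub_cancel] at this
      linarith
    have hz1y : ‖z1 - y‖ ≤ 6 * s := by
      have := norm_add_le (z1 - z) (z - y)
      rw [sub_add_sub_cancel] at this
      linarith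
    have hcs := hcσ z1 hz1q
    rw [hWdef] at hz1W
    obtain ⟨hz1L, hz1F⟩ := hz1W
    have hcs0 : 0 < c * s := by positivity
    have hsub : ball z1 (c * s / 4) ⊆ (L \ F) ∩ ball y (7 * s) := by
      intro x hx
      rw [mem_ball, dist_eq_norm] at hx
      refine ⟨⟨hσ.mem hz1L (by linarith), fun hxF => ?_⟩, ?_⟩
      · have h1 := infDist_le_infDist_add_dist (s := F) (x := z1) (y := x)
        rw [infDist_zero_of_mem hxF, dist_comm, dist_eq_norm] at h1
        linarith
      · rw [mem_ball, dist_eq_norm]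
        have := norm_add_le (x - z1) (z1 - y)
        rw [sub_add_sub_cancel] at this
        have h5 : c * s ≤ 1 * s := by gcongr
        linarith
    refine ⟨7 * s, by positivity, by linarith, ?_⟩
    have h1 : (volume : Measure V).real (ball z1 (c * s / 4)) ≤
        (volume : Measure V).real ((L \ F) ∩ ball y (7 * s)) :=
      measureReal_mono hsub ((measure_mono inter_subset_right).trans_lt measure_ball_lt_top).ne
    rw [vb z1 (by positivity)] at h1
    rw [vb y (by positivity)]
    have h2 : (c / 28) ^ n * ((7 * s) ^ n * (volume : Measure V).real (ball (0 : V) 1)) =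
        (c * s / 4) ^ n * (volume : Measure V).real (ball (0 : V) 1) := by
      rw [← mul_assoc, ← mul_pow]
      congr 2
      ring
    have h3 : η' * ((7 * s) ^ n * (volume : Measure V).real (ball (0 : V) 1)) <
        (c / 28) ^ n * ((7 * s) ^ n * (volume : Measure V).real (ball (0 : V) 1)) := by
      gcongr
    linarith

end Vitali

end Crest.Agent.R096.Toph_766
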