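import Crest.Agent.R96.Eld1_538

/-!
Row 96 (S0127), helper465.  [TRI] of 538's energy list: every tile of `h.T a` is of class (1), of class
(2) or of class (3); the tiles of 753's layer are of class (2); the blocks at the position `a ∈ Dt`.
-/

set_option autoImplicit false
set_option linter.unusedSectionVars false
set_option linter.style.longLine false

open MeasureTheory Set Filter Metric
open scoped ENNReal NNReal Topology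

namespace Crest.Agent.R096.Tri_465

open Crest.AnalysisR.VecCalc3 (R3)
open Crest.Agent.R96.Coarse_538 (Dt)
open Crest.Agent.R096.Msh_715 (P I Tiling)
open Crest.Agent.R096.Mal_874 (CB)
open Crest.Agent.R096.Ca_855 (MIn dist_le_P3s)
open Crest.Agent.R096.Rmt_816 (Bj Cl2 Cl3 norm_D0)
open Crest.Agent.R96.En10_199 (P3)
open Crest.Agent.R96.Eld_538 (Cl1)

variable {Om W : Set R3} {ρ₀ : R3 → ℝ} {J : Type} [Finite J] {Qb : J → CB R3 3} {k0 : ℕ} {σ : ℝ}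

/-- **the block at the position `a`** -/
theorem Bj_eq' (h : MIn Om W ρ₀ Qb k0 σ) {a : R3} (ha : ‖a‖ ≤ σ / 8) (j : J) :
    Bj h a j = (Qb j).tr a := by
  show (Qb j).tr (h.cl a) = (Qb j).tr a
  rw [h.cl_eq ha]

theorem Bj_eq (h : MIn Om W ρ₀ Qb k0 σ) {a : R3} (ha : a ∈ Dt (1 / 2 ^ k0)) (j : J) :
    Bj h a j = (Qb j).tr a :=
  Bj_eq' h (norm_D0 h a ha).le j

theorem Bj_N (h : MIn Om W ρ₀ Qb k0 σ) {a : R3} (ha : a ∈ Dt (1 / 2 ^ k0)) (j : J) :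
    (Bj h a j).N = ((Qb j).tr a).N := by
  rw [Bj_eq h ha j]

theorem Bj_frontier (h : MIn Om W ρ₀ Qb k0 σ) {a : R3} (ha : a ∈ Dt (1 / 2 ^ k0)) (j : J) :
    frontier (Bj h a j).N = frontier ((Qb j).tr a).N := by
  rw [Bj_eq h ha j]

theorem Bj_Kc (h : MIn Om W ρ₀ Qb k0 σ) {a : R3} (ha : a ∈ Dt (1 / 2 ^ k0)) (j : J) :
    (Bj h a j).Kc = ((Qb j).tr a).Kc := by
  rw [Bj_eq h ha j]

theorem Bj_W (h : MIn Om W ρ₀ Qb k0 σ) {a : R3} (ha : a ∈ Dt (1 / 2 ^ k0)) (j : J) :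
    (Bj h a j).W = ((Qb j).tr a).W := by
  rw [Bj_eq h ha j]

/-- a tile with a point near the wall of a block, in block coordinates, is of class (2) -/
theorem cl2_of_near (h : MIn Om W ρ₀ Qb k0 σ) {r : ℝ} {a : R3} {i : h.ιT a} {j : J} {x z : R3}
    (hx : x ∈ P ((h.T a).H i)) (hz : z ∈ frontier (Bj h a j).N)
    (hd : ‖(Qb j).ψ x - (Qb j).ψ z‖ ≤ r / 2 ^ k0) : Cl2 h r a i := by
  refine ⟨j, x, hx, ?_⟩
  have hz' := hz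
  rw [(Bj h a j).frontier_N, mem_preimage] at hz'
  refine (infDist_le_dist_of_mem hz').trans ?_
  rw [dist_eq_norm]
  exact hd

theorem Cl2.mono {h : MIn Om W ρ₀ Qb k0 σ} {r r' : ℝ} (hr : r ≤ r') {a : R3} {i : h.ιT a}
    (H : Cl2 h r a i) : Cl2 h r' a i := by
  obtain ⟨j, y, hy, hd⟩ := H
  exact ⟨j, y, hy, hd.trans (by gcongr)⟩

/-- **(2)** the tiles of 753's layer are of class (2) -/
theorem cl2_of_layer (h : MIn Om W ρ₀ Qb k0 σ) {r Rl : ℝ} (hr : Rl ≤ r) {a : R3}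
    (ha : a ∈ Dt (1 / 2 ^ k0)) {i : h.ιT a} {j : J} {x z : R3}
    (hx : x ∈ P ((h.T a).H i)) (hz : z ∈ frontier ((Qb j).tr a).N)
    (hd : ‖(Qb j).ψ x - (Qb j).ψ z‖ ≤ Rl / 2 ^ k0) : Cl2 h r a i := by
  rw [← Bj_frontier h ha j] at hz
  exact cl2_of_near h hx hz (hd.trans (by gcongr))

/-- 753's layer `s₂` -/
theorem cl2_of_s2 (h : MIn Om W ρ₀ Qb k0 σ) {r Rl : ℝ} (hr : Rl ≤ r) {a : R3}
    (ha : a ∈ Dt (1 / 2 ^ k0)) {i : h.ιT a} {JQ : Set J}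
    (H : ∃ j ∈ JQ, ∃ x ∈ P ((h.T a).H i), ∃ z ∈ frontier ((Qb j).tr a).N,
      ‖(Qb j).ψ x - (Qb j).ψ z‖ ≤ Rl / 2 ^ k0) : Cl2 h r a i := by
  obtain ⟨j, -, x, hx, z, hz, hd⟩ := H
  exact cl2_of_layer h hr ha hx hz hd

/-- **(1) THE TRICHOTOMY** -/
theorem trichotomy (h : MIn Om W ρ₀ Qb k0 σ) {κ : ℝ} (hκ : 0 < κ) {Bs Nn : ℕ}
    (hb : ∀ j, MIn.BQ κ Bs Nn (Qb j) k0) {r : ℝ} (hr : 32 * κ⁻¹ ≤ r) {a : R3} (i : h.ιT a) :
    Cl1 h 4 a i ∨ Cl2 h r a i ∨ Cl3 h a i := by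
  by_cases h3 : ∃ j, P ((h.T a).H i) ⊆ (Bj h a j).N
  · exact Or.inr (Or.inr h3)
  by_cases h1 : ∀ j, ∀ x ∈ P ((h.T a).H i), ∀ z ∈ frontier (Bj h a j).N,
      4 / 2 ^ k0 < dist (P3.symm x) (P3.symm z)
  · exact Or.inl ⟨fun j hj => h3 ⟨j, hj⟩, h1⟩
  · push Not at h1
    obtain ⟨j, x, hx, z, hz, hd⟩ := h1
    refine Or.inr (Or.inl (cl2_of_near h hx hz ?_))
    have e1 := dist_le_P3s x z
    have e2 := ((hb j).cnd (x - z)).2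
    rw [map_sub, ← dist_eq_norm x z] at e2
    have hκ' : 0 < κ⁻¹ := inv_pos.2 hκ
    have hp0 : (0:ℝ) < 2 ^ k0 := by positivity
    calc ‖(Qb j).ψ x - (Qb j).ψ z‖ ≤ 4 * κ⁻¹ * dist x z := e2
      _ ≤ 4 * κ⁻¹ * (2 * (4 / 2 ^ k0)) := by
          refine mul_le_mul_of_nonneg_left ?_ (by positivity)
          linarith
      _ = 32 * κ⁻¹ / 2 ^ k0 := by ring
      _ ≤ r / 2 ^ k0 := by gcongr

/-- the outer tiles are of class (1) or (2) -/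
theorem dichotomy (h : MIn Om W ρ₀ Qb k0 σ) {κ : ℝ} (hκ : 0 < κ) {Bs Nn : ℕ}
    (hb : ∀ j, MIn.BQ κ Bs Nn (Qb j) k0) {r : ℝ} (hr : 32 * κ⁻¹ ≤ r) {a : R3} {i : h.ιT a}
    (hi : ∀ j, ¬ P ((h.T a).H i) ⊆ (Bj h a j).N) : Cl1 h 4 a i ∨ Cl2 h r a i := by
  rcases trichotomy h hκ hb hr i with h1 | h2 | ⟨j, hj⟩
  · exact Or.inl h1
  · exact Or.inr h2
  · exact absurd hj (hi j)

/-- the tiles of a position in `Dt` outside the blocks of `JQ`: class (1), (2) or inside a block which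
does not belong to `JQ` -/
theorem trichotomy_JQ (h : MIn Om W ρ₀ Qb k0 σ) {κ : ℝ} (hκ : 0 < κ) {Bs Nn : ℕ}
    (hb : ∀ j, MIn.BQ κ Bs Nn (Qb j) k0) {r : ℝ} (hr : 32 * κ⁻¹ ≤ r) {a : R3}
    (ha : a ∈ Dt (1 / 2 ^ k0)) {JQ : Set J} {i : h.ιT a}
    (hi : ∀ j ∈ JQ, ¬ P ((h.T a).H i) ⊆ ((Qb j).tr a).N) :
    Cl1 h 4 a i ∨ Cl2 h r a i ∨ (Cl3 h a i ∧ ∃ j ∉ JQ, P ((h.T a).H i) ⊆ ((Qb j).tr a).N) := by
  rcases trichotomy h hκ hb hr i with h1 | h2 | ⟨j, hj⟩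
  · exact Or.inl h1
  · exact Or.inr (Or.inl h2)
  · refine Or.inr (Or.inr ⟨⟨j, hj⟩, j, fun hJ => hi j hJ ?_, ?_⟩)
    · rwa [← Bj_N h ha j]
    · rwa [← Bj_N h ha j]

end Crest.Agent.R096.Tri_465
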