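import Crest.Agent.R096.Tri1_465
import Crest.Agent.R096.Gsc1_476

/-!
Row 96 (S0127), helper465.  [TRI] of 538's energy list, part 2: the neighbours of a tile of class (3)
which is not of class (2) are of class (3).
-/

set_option autoImplicit false
set_option linter.unusedSectionVars false
set_option linter.style.longLine false

open MeasureTheory Set Filter Metric
open scoped ENNReal NNReal Topology

namespace Crest.Agent.R096.Tri_465

open Crest.AnalysisR.VecCalc3 (R3)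
open Crest.Agent.R96.Coarse_538 (Dt)
open Crest.Agent.R096.Msh_715 (P I Tiling)
open Crest.Agent.R096.Mal_874 (CB)
open Crest.Agent.R096.Ca_855 (MIn dist_le_P3s)
open Crest.Agent.R096.Rmt_816 (Bj Cl2 Cl3 norm_D0)
open Crest.Agent.R96.En10_199 (P3)
open Crest.Agent.R96.Eld_538 (Cl1)

variable {Om W : Set R3} {ρ₀ : R3 → ℝ} {J : Type} [Finite J] {Qb : J → CB R3 3} {k0 : ℕ} {σ : ℝ}

/-- a point of the wall of a block makes a tile of class (2) -/
theorem cl2_of_frontier (h : MIn Om W ρ₀ Qb k0 σ) {r : ℝ} (hr : 0 ≤ r) {a : R3} {i : h.ιT a} {j : J}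
    {y : R3} (hy : y ∈ P ((h.T a).H i)) (hf : y ∈ frontier (Bj h a j).N) : Cl2 h r a i :=
  cl2_of_near h hy hf (by rw [sub_self, norm_zero]; positivity)

/-- a tile of `h.T a` is of class (3) or it meets every block in wall points only -/
theorem cl3_or (h : MIn Om W ρ₀ Qb k0 σ) {a : R3} (i : h.ιT a) :
    Cl3 h a i ∨ ∀ j, ∀ y ∈ P ((h.T a).H i), y ∈ (Bj h a j).N → y ∈ frontier (Bj h a j).N := by
  rcases Crest.Agent.R096.Gsc_476.outer_or h.M h.sc (0 + h.M.φ (h.cl a)) (h.adm a) i with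
    ⟨p, hp, e⟩ | ⟨j, hj⟩
  · subst e
    exact Or.inr fun j y hy hyN =>
      h.M.outer_touch h.sc (0 + h.M.φ (h.cl a)) (h.adm a) p hy hyN
  · exact Or.inl ⟨j, hj⟩

/-- **the neighbours of a tile inside the block `j` which is not of class (2) lie in the block `j`** -/
theorem nbr_sub (h : MIn Om W ρ₀ Qb k0 σ) {r : ℝ} (hr : 0 ≤ r) {a : R3} {i : h.ιT a} {j : J}
    (h2 : ¬ Cl2 h r a i) (hj : P ((h.T a).H i) ⊆ (Bj h a j).N) {i' : h.ιT a}
    (hm : (P ((h.T a).H i) ∩ P ((h.T a).H i')).Nonempty) :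
    P ((h.T a).H i') ⊆ (Bj h a j).N := by
  obtain ⟨y, hy, hy'⟩ := hm
  rcases cl3_or h i' with ⟨j', hj'⟩ | h1
  · obtain rfl : j = j' := by
      by_contra hne
      exact Set.disjoint_left.1 ((h.M.ad h.sc (0 + h.M.φ (h.cl a)) (h.adm a)).dis j j' hne)
        (hj hy) (hj' hy')
    exact hj'
  · exact absurd (cl2_of_frontier h hr hy (h1 j y hy' (hj hy))) h2

/-- **the neighbours of a tile of class (3) which is not of class (2) are of class (3)** -/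
theorem cl3_nbr (h : MIn Om W ρ₀ Qb k0 σ) {r : ℝ} (hr : 0 ≤ r) {a : R3} {i : h.ιT a}
    (h2 : ¬ Cl2 h r a i) (h3 : Cl3 h a i) {i' : h.ιT a}
    (hm : (P ((h.T a).H i) ∩ P ((h.T a).H i')).Nonempty) : Cl3 h a i' := by
  obtain ⟨j, hj⟩ := h3
  exact ⟨j, nbr_sub h hr h2 hj hm⟩

/-- the form of the hypothesis of `Cls3` -/
theorem cl3_all (h : MIn Om W ρ₀ Qb k0 σ) {r : ℝ} (hr : 0 ≤ r) {a : R3} {i : h.ιT a}
    (h2 : ¬ Cl2 h r a i) (h3 : Cl3 h a i) :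
    Cl3 h a i ∧ ∀ i' : h.ιT a, (P ((h.T a).H i) ∩ P ((h.T a).H i')).Nonempty → Cl3 h a i' :=
  ⟨h3, fun _ hm => cl3_nbr h hr h2 h3 hm⟩

/-- the neighbours of a tile of class (1) are outer tiles off the walls -/
theorem cl1_nbr (h : MIn Om W ρ₀ Qb k0 σ) {r : ℝ} (hr : 0 ≤ r) {a : R3} {i : h.ιT a}
    (h1 : Cl1 h r a i) {i' : h.ιT a} (hm : (P ((h.T a).H i) ∩ P ((h.T a).H i')).Nonempty) (j : J) :
    ¬ P ((h.T a).H i') ⊆ (Bj h a j).N := by
  intro hj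
  obtain ⟨y, hy, hy'⟩ := hm
  rcases cl3_or h i with ⟨l, hl⟩ | h3
  · exact h1.1 l hl
  · have h4 := h1.2 j y hy y (h3 j y hy (hj hy'))
    rw [dist_self] at h4
    have h5 : (0:ℝ) ≤ r / 2 ^ k0 := by positivity
    linarith

/-- **a tile of class (1) does not meet any block** -/
theorem cl1_disj (h : MIn Om W ρ₀ Qb k0 σ) {r : ℝ} (hr : 0 ≤ r) {a : R3} {i : h.ιT a}
    (h1 : Cl1 h r a i) (j : J) : Disjoint (P ((h.T a).H i)) (Bj h a j).N := by
  rw [Set.disjoint_left]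
  intro y hy hyN
  rcases cl3_or h i with ⟨l, hl⟩ | h3
  · exact h1.1 l hl
  · have h4 := h1.2 j y hy y (h3 j y hy hyN)
    rw [dist_self] at h4
    have h5 : (0:ℝ) ≤ r / 2 ^ k0 := by positivity
    linarith

/-- **every tile is of class (1), of class (2), or of class (3) with all its neighbours** -/
theorem trichotomy' (h : MIn Om W ρ₀ Qb k0 σ) {κ : ℝ} (hκ : 0 < κ) {Bs Nn : ℕ}
    (hb : ∀ j, MIn.BQ κ Bs Nn (Qb j) k0) {r : ℝ} (hr : 32 * κ⁻¹ ≤ r) {a : R3} (i : h.ιT a) :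
    Cl1 h 4 a i ∨ Cl2 h r a i ∨
      (Cl3 h a i ∧ ∀ i' : h.ιT a, (P ((h.T a).H i) ∩ P ((h.T a).H i')).Nonempty → Cl3 h a i') := by
  by_cases h2 : Cl2 h r a i
  · exact Or.inr (Or.inl h2)
  have hr0 : 0 ≤ r := le_trans (by positivity) hr
  rcases trichotomy h hκ hb hr i with h1 | h2' | h3
  · exact Or.inl h1
  · exact absurd h2' h2
  · exact Or.inr (Or.inr (cl3_all h hr0 h2 h3))

/-- **the same for the tiles outside the blocks of `JQ`** (hypothesis of (i) of `Els`) -/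
theorem trichotomy_JQ' (h : MIn Om W ρ₀ Qb k0 σ) {κ : ℝ} (hκ : 0 < κ) {Bs Nn : ℕ}
    (hb : ∀ j, MIn.BQ κ Bs Nn (Qb j) k0) {r : ℝ} (hr : 32 * κ⁻¹ ≤ r) {a : R3}
    (ha : a ∈ Dt (1 / 2 ^ k0)) {JQ : Set J} {i : h.ιT a}
    (hi : ∀ j ∈ JQ, ¬ P ((h.T a).H i) ⊆ ((Qb j).tr a).N) :
    Cl1 h 4 a i ∨ Cl2 h r a i ∨
      ((Cl3 h a i ∧ ∀ i' : h.ιT a, (P ((h.T a).H i) ∩ P ((h.T a).H i')).Nonempty → Cl3 h a i') ∧
        ∃ j ∉ JQ, ∀ i' : h.ιT a, (P ((h.T a).H i) ∩ P ((h.T a).H i')).Nonempty →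
          P ((h.T a).H i') ⊆ ((Qb j).tr a).N) := by
  by_cases h2 : Cl2 h r a i
  · exact Or.inr (Or.inl h2)
  have hr0 : 0 ≤ r := le_trans (by positivity) hr
  rcases trichotomy_JQ h hκ hb hr ha hi with h1 | h2' | ⟨h3, j, hj, hj'⟩
  · exact Or.inl h1
  · exact absurd h2' h2
  · refine Or.inr (Or.inr ⟨cl3_all h hr0 h2 h3, j, hj, fun i' hm => ?_⟩)
    rw [← Bj_N h ha j] at hj' ⊢
    exact nbr_sub h hr0 h2 hj' hm

end Crest.Agent.R096.Tri_465
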