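import Crest.Agent.R096.Sgo1_298
import Crest.Agent.R096.Sec13_892
import Crest.Agent.R096.Cnp1_824

/-!
# Row 96, DOORS-INV (helper543), Tro 1: the clause `tr` of `DoorInv` outside the doors, for old and
new points of the state after CUT (route P of 337: 18's recipe + 824's `TrN`)

* `KF`      : 18's predicate on chords;
* `tr_old`  : common points, through 892's `CutR.pb`;
* `tr_new`  : new points, through 824's `TrN`;
* `hout_K`  : the outer points of `s₂` are joined with the root by `KF`-chords (298's `out_in`).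
-/

set_option autoImplicit false
set_option linter.unusedSectionVars false

open Set Module

namespace Crest.Agent.R096.Tro_543

open Crest.Agent.R096.St_147 Crest.Agent.R096.Seq_213 Crest.Agent.R096.Sec_892
  Crest.Agent.R096.Cg_501 Crest.Agent.R096.Sgd_298 Crest.Agent.R096.SecW_892
  Crest.Agent.R096.Dinv_106 Crest.Agent.R096.Cnp_824

section abstr

variable {ι Φ W J C Mo K : Type} {M : MeshC ι Φ W} {fam : J → C} {am : Mo → C}
  {s : GSt M (Sum.map fam (id : Mo → Mo))} {hs : BSep s am}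
  {hm : ∀ a, {m | am m = a}.Finite} {j0 : C → J} {hj0 : ∀ a, fam (j0 a) = a}
  {Act : C → Set ι} {far : ∀ a, PN fam am a → Set W} {t : ∀ a, St M (pcol fam am a)}
  {Ph : C → Finset W} {s₃ : GSt M fam} {Q : Quads ι C K} {j : J} {k : K}

/-- the chord `(F,w)` is free in the quad `k` if it is a chord of `j` in `s₃` (18's predicate) -/
def KF (s₃ : GSt M fam) (Q : Quads ι C K) (k : K) (j : J) (F : Φ) (w : W) : Prop :=
  s₃.At F w → s₃.lab w = j → KFree s₃ Q k F w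

/-- **old points** -/
theorem tr_old (D : CutR s hs hm j0 hj0 Act far t Ph s₃)
    (hK : ∀ q F F' h m, q ∈ M.side F → q ∈ M.side F' → s.At F' h → s.lab h = Sum.inr m →
      am m = fam j → ∀ w, KF s₃ Q k j F w) {b : W} (hb : b ∈ s.P ∧ s.lab b = Sum.inl j)
    (hb₃ : b ∈ s₃.P) {Outer : W → Prop}
    (hout : ∀ X : Set W, b ∈ X → (∀ F w, w ∈ X → s.At F w → s.lab w = Sum.inl j →
      KF s₃ Q k j F w → s.mu F w ∈ X) → ∀ w ∈ s.P, s.lab w = Sum.inl j → Outer w → w ∈ X)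
    {X : Set W} (hbX : b ∈ X) (hX : Dinv_106.KCl s₃ Q j k X) :
    ∀ w ∈ s₃.P, s₃.lab w = j → w ∈ s.P → Outer w → w ∈ X := by
  obtain ⟨X₂, h1, h2⟩ := D.pb (K := KF s₃ Q k j) hK (X' := X)
    (fun F w hA hl hf => (hX.iff hA hl (hf hA hl)).symm)
  intro w hw hl hws ho
  have hl' : s.lab w = Sum.inl j := by rw [D.old hw hws, hl]
  refine (h2 w hws hl' hw).1 (hout X₂ ((h2 b hb.1 hb.2 hb₃).2 hbX) ?_ w hws hl' ho)
  intro F y hy hA hyl hf
  exact (h1 F y hA hyl hf).1 hy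

/-- **new points** -/
theorem tr_new (D : CutR s hs hm j0 hj0 Act far t Ph s₃)
    (htn : TrN (Act (fam j)) (far (fam j)) (t (fam j)) (prS s hs hm j0 hj0 (fam j)))
    (hK : ∀ q F F' h m, q ∈ M.side F → q ∈ M.side F' → s.At F' h → s.lab h = Sum.inr m →
      am m = fam j → ∀ w, KF s₃ Q k j F w) {b : W} (hbf : b ∈ far (fam j) (nL am j))
    {Outer : W → Prop}
    (hout : ∀ X : Set W, b ∈ X → (∀ F w, w ∈ X → s.At F w → s.lab w = Sum.inl j →
      KF s₃ Q k j F w → s.mu F w ∈ X) → ∀ w ∈ s.P, s.lab w = Sum.inl j → Outer w → w ∈ X)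
    {Rf : Set Φ} (hcn : ConnS (Act (fam j)) (far (fam j)) (prS s hs hm j0 hj0 (fam j)) Rf)
    (hR : ∀ F ∈ Rf, ∀ w, s.At F w → s.lab w = Sum.inl j → Outer w)
    {X : Set W} (hbX : b ∈ X) (hX : Dinv_106.KCl s₃ Q j k X) :
    ∀ w ∈ s₃.P, s₃.lab w = j → (∃ F ∈ Rf, w ∈ M.On F) → w ∈ X := by
  have hT : TrP (prS s hs hm j0 hj0 (fam j)) (nL am j) (KF s₃ Q k j) b Rf := by
    intro Y hbY hY F hF w hA hl
    obtain ⟨h1, h2⟩ := D.pr_of' hA.1 hl
    refine hout Y hbY ?_ w h1 h2 (hR F hF w ⟨h1, hA.2⟩ h2)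
    intro G y hy hAy hyl hf
    obtain ⟨h3, h4⟩ := D.pr_of hAy.1 hyl
    exact (hY G y ⟨h3, hAy.2⟩ h4 hf).1 hy
  have hT' := htn (nL am j) rfl (KF s₃ Q k j) (fun q F F' h hq hq' hh hF' w => by
    obtain ⟨h3, m, h4, h5⟩ := pr_hp.1 hh
    exact hK q F F' h m hq hq' ⟨h3, hF'⟩ h5 h4 w) b hbf Rf hcn hT
  rintro w hw hl ⟨F, hF, hwF⟩
  obtain ⟨h1, h2⟩ := D.at_iff.1 ⟨⟨hw, hwF⟩, hl⟩
  refine hT' X hbX ?_ F hF w h1 h2
  intro G y hA hyl hf
  obtain ⟨e1, e2⟩ := D.at_iff.2 ⟨hA, hyl⟩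
  rw [← D.mu' e1.1 e2]
  exact (hX.iff e1 e2 (hf e1 e2)).symm

end abstr

/-! ### the state `s₂` -/

open Crest.Agent.R096.Msh_715 Crest.Agent.R096.Agl5_543 Crest.Agent.R096.Door_501
  Crest.Agent.R096.Sla_184 Crest.Agent.R096.Twr_438 Crest.Agent.R096.Ess3_95
  Crest.Agent.R096.Dfi_539 Crest.Agent.R096.Dfi_471 Crest.Agent.R096.Ginv_543
  Crest.Agent.R096.Sgo_298
open Crest.Agent.R096.Sla_184.Sla (hf vf old tg F0 Fn Out OnS InL In)

section s2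

variable {E : Type} [NormedAddCommGroup E] [NormedSpace ℝ E] [FiniteDimensional ℝ E]
variable {Om : Set E} {ι : Type} {T : Tiling Om ι} {κ : Type} {S : Sla T κ}
  {h3 : finrank ℝ E = 3} {J C Mo K : Type} {fam : J → C} [Nonempty (J ⊕ Mo)]
  {s : GSt (meshC T h3) (Sum.map fam (id : Mo → Mo))} {r : J ⊕ Mo → E}
  {Tw : Twrs (S.sh h3) S.n (outK S.hH S.dis s r)} {l0 : E → J ⊕ Mo}
  {s₃ : GSt (S.mn h3) fam} {Q : Quads (T.RIdx S.HH ⊕ κ) C K} {j : J} {k : K}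

/-- **the outer points of `s₂` are joined with the root by `KF`-chords** -/
theorem hout_K (hconn : s.Conn (Sum.inl j)) {N R : Set ι}
    (hloc : (gSht s (Sum.inl j)).LocH1 N R) (hNR : N ⊆ R)
    (hKN : ∀ q, q ∉ N → ∀ c, ¬ P (T.H q) ⊆ S.K c)
    (hr : r (Sum.inl j) ∈ s.P ∧ s.lab (r (Sum.inl j)) = Sum.inl j)
    (hrR : ∃ F : C2 T, r (Sum.inl j) ∈ F.On ∧ ∃ q ∈ F.side h3, q ∉ R)
    (hfree : ∀ (G : S.F0 h3) w, (∃ q ∈ G.1.side h3, q ∉ N) → s₃.At (old G) w → s₃.lab w = j →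
      KFree s₃ Q k (old G) w)
    (X : Set E) (hrX : r (Sum.inl j) ∈ X)
    (hX : ∀ F w, w ∈ X → (s2 S h3 Tw l0).At F w → (s2 S h3 Tw l0).lab w = Sum.inl j →
      KF s₃ Q k j F w → (s2 S h3 Tw l0).mu F w ∈ X) :
    ∀ w ∈ (s2 S h3 Tw l0).P, (s2 S h3 Tw l0).lab w = Sum.inl j →
      (∃ F : C2 T, w ∈ F.On ∧ ∃ q ∈ F.side h3, q ∉ R) → w ∈ X :=
  out_in hconn hloc hNR hKN hr hrR X hrX fun G w hw hA hl hq =>
    hX (old G) w hw hA hl fun hA₃ hl₃ => hfree G w hq hA₃ hl₃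

end s2

end Crest.Agent.R096.Tro_543
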