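import Crest.Agent.R096.Sgo1_298
import Crest.Agent.R096.Tlh3_543
import Crest.Agent.R096.Cnp2_824
import Crest.Agent.R096.Frk1_441
import Crest.Agent.R096.Civ1_662
import Crest.Agent.R096.Leaf3_965

/-!
# R096 (row 96), DOORS (helper914): (T1), the truthful points outside, part 1

`free_tile`, `k3_out` : chords of a sheet on a face with a side outside `Act0 (s_b + ε)` are free in
the quad; `hT_tile` : all points of the sheet `j` of `s₂` on a tile outside `Rtl s_b` are joined with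
the root (input `hT` of 824's `tr_cut`).
-/

set_option autoImplicit false
set_option linter.unusedSectionVars false
set_option linter.unusedVariables false
set_option linter.style.longLine false

open Set Relation Module Topology Filter Metric

namespace Crest.Agent.R096.Tro_914

open Crest.Agent.R096.Brk1_582 Crest.Agent.R096.Brk2_582 Crest.Agent.R096.Brk3_582
open Crest.Agent.R096.Brk5_582 Crest.Agent.R096.Bsp_628
open Crest.Agent.R096.St_147 Crest.Agent.R096.Seq_213 Crest.Agent.R096.Seq_213.GSt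
open Crest.Agent.R096.Lm_117 Crest.Agent.R096.Msh_715 Crest.Agent.R096.Ginv_543
open Crest.Agent.R096.Agl5_543 Crest.Agent.R096.Init_543
open Crest.Agent.R096.SkC1_961 (E3 Hom3 FoamD)
open Crest.Agent.R096.Mbf_337 (KJ sb gau Cores Tiny Words)
open Crest.Agent.R096.Frn_337 (Ti cti Lay)
open Crest.Agent.R096.SkB_662 Crest.Agent.R096.Qdl_662 Crest.Agent.R096.Dinv_106
open Crest.Agent.R096.Sla_184 Crest.Agent.R096.Dfi_471 Crest.Agent.R096.Twr_438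
open Crest.Agent.R096.Ess3_95 Crest.Agent.R096.Dis_184 Crest.Agent.R096.Cnp_824
open Crest.Agent.R096.Frk_441 Crest.Agent.R096.Door_501
open Crest.Agent.R096.Sla_184.Sla (hf vf old tg F0 Fn Out OnS InL In)

variable {δ κ0 R c0 : ℝ} {La Om : Set E3} {ι : Type} {Φ : FoamD δ κ0 R c0 La}
  {T : Tiling Om ι} {f g : E3 → E3} {κ1 κ2 s₁ σ' tb ε : ℝ} {X : Set Φ.F} {J0 J V : Φ.F → Set ι}
  {ct : Φ.F → ι}
  {A : Φ.F → E3 ≃ᵃ[ℝ] E3} {lam : Φ.F → ℝ} {z : Φ.F → E3} {θ : Φ.F → E3 → E3} {φ : Φ.F → E3 → ℝ}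
  {ct' : Φ.F → ι} {r₀ : Φ.F → ℝ} {S : Sla T (Ti X)}
  {L : Φ.F → Finset ℝ} [Nonempty (JJ Φ L)]
  {hLa : IsOpen La} {hR : InitR Φ T f g J0 ct' r₀}
  {hM : Mesh0 T (Pc Φ.F) (bc (F := Φ.F)) (RF Φ r₀) f (KorJ Φ J0) ε} {hε : ε < s₁} {hε1 : ε < 1}
  {s₃ : GSt (S.mn fr3) (fun j : JJ Φ L => j.1)}

/-- the quads of record over the slices -/
noncomputable abbrev qS (S : Sla T (Ti X)) (hLa : IsOpen La) (hR : InitR Φ T f g J0 ct' r₀)
    (hM : Mesh0 T (Pc Φ.F) (bc (F := Φ.F)) (RF Φ r₀) f (KorJ Φ J0) ε) (hε : ε < s₁)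
    (hε1 : ε < 1) : Quads (T.RIdx S.HH ⊕ Ti X) Φ.F (Init_543.QK (Pc Φ.F)) :=
  qdT (fun p : T.RIdx S.HH => p.tile) (sla_sub S) S.KK hLa hR hM hε hε1

/-- **(B) with a bigger margin** for the state after CUT -/
def PosT (T : Tiling Om ι) (f : E3 → E3) (J0 : Φ.F → Set ι) (S : Sla T (Ti X))
    (s₃ : GSt (S.mn fr3) (fun j : JJ Φ L => j.1)) (σ' : ℝ) : Prop :=
  ∀ w ∈ s₃.P, ∀ i3 : T.RIdx S.HH, (∀ k', ¬ P (S.T3.H i3) ⊆ S.KK k') →
    w ∈ P (S.T3.H i3) → i3.tile ∉ KorJ Φ J0 →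
    ∃ x ∈ P (T.H i3.tile), Φ.lev (s₃.lab w).1 (f x) ∈ Icc σ' (1 - σ')

/-- two families of a quad with points on a cell of `Act`: the tile is in `Act0 s_b` -/
theorem act_two {k : Init_543.QK (Pc Φ.F)} (hσ : tb + ε ≤ σ') (posσ : PosT T f J0 S s₃ σ')
    {p : T.RIdx S.HH} (hpA : Sum.inl p ∈ (qS S hLa hR hM hε hε1).Act k) {x w : E3}
    (hx : x ∈ s₃.P) (hw : w ∈ s₃.P) (hxp : x ∈ P (S.T3.H p)) (hwp : w ∈ P (S.T3.H p))
    (hxk : (s₃.lab x).1 ∈ k.B) (hwk : (s₃.lab w).1 ∈ k.B)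
    (hne : (s₃.lab x).1 ≠ (s₃.lab w).1) :
    p.tile ∈ Act0 T (Pc Φ.F) (bc (F := Φ.F)) (RF Φ r₀) f (KorJ Φ J0) tb k := by
  classical
  obtain ⟨⟨hK, x₀, hx₀, h1, h2⟩, hpK⟩ := inl_act.1 hpA
  refine ⟨hK, x₀, hx₀, fun a ha => ?_, h2⟩
  have hB : a = (s₃.lab x).1 ∨ a = (s₃.lab w).1 := by
    by_contra hcon
    push Not at hcon
    have h3 : ({a, (s₃.lab x).1, (s₃.lab w).1} : Set Φ.F) ⊆ k.B := by
      rintro e (rfl | rfl | rfl)
      · exact ha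
      · exact hxk
      · exact hwk
    have h4 := Set.ncard_le_ncard h3 (Set.finite_of_ncard_ne_zero (by rw [k.cB]; norm_num))
    rw [k.cB, Set.ncard_eq_three.2 ⟨a, (s₃.lab x).1, (s₃.lab w).1, hcon.1, hcon.2, hne, rfl⟩] at h4
    norm_num at h4
  have key : ∀ y ∈ s₃.P, y ∈ P (S.T3.H p) → a = (s₃.lab y).1 →
      va (Pc Φ.F) (bc (F := Φ.F)) (RF Φ r₀) f a x₀ ∈ Icc tb (1 - tb) := by
    rintro y hy hyp rfl
    obtain ⟨x', hx', h5⟩ := posσ y hy p hpK hyp hK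
    rw [← At_241.va_lev hLa hR hK hx'] at h5
    have h6 := abs_le.1 (hM.osc p.tile hK x₀ hx₀ x' hx' (s₃.lab y).1)
    constructor
    · linarith [h5.1, h6.1]
    · linarith [h5.2, h6.2]
  rcases hB with h | h
  · exact key x hx hxp h
  · exact key w hw hwp h

/-- a point on a face lies in the tiles at the face -/
theorem sideN_tile {F : S.Fn fr3} {w : E3} (hw : w ∈ (S.mn fr3).On F) {p : T.RIdx S.HH}
    (hp : Sum.inl p ∈ (S.mn fr3).side F) :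
    w ∈ P (S.T3.H p) ∧ (∀ k, ¬ P (S.T3.H p) ⊆ S.KK k) ∧ w ∈ P (T.H p.tile) := by
  have h1 : Sum.inl p ∈ ((meshC S.T3 fr3).side F.1).map (piK S.T3 S.KK) := hp
  rw [mem_map_iff] at h1
  obtain ⟨q', h2, h4⟩ := h1
  obtain ⟨rfl, h5⟩ := piK_inl.1 h4
  have h6 := C2.sub_tile (h3 := fr3) h2 hw.1
  exact ⟨h6, h5, sla_sub S q' h6⟩

/-- a point on a face lies in the giants at the face -/
theorem sideN_core {F : S.Fn fr3} {w : E3} (hw : w ∈ (S.mn fr3).On F) {c : Ti X}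
    (hc : Sum.inr c ∈ (S.mn fr3).side F) : w ∈ S.K c := by
  have h1 : Sum.inr c ∈ ((meshC S.T3 fr3).side F.1).map (piK S.T3 S.KK) := hc
  rw [mem_map_iff] at h1
  obtain ⟨q', h2, h4⟩ := h1
  have h5 := (piK_inr Sla.dis_KK).1 h4
  exact Sla.KK_K (h5 (C2.sub_tile (h3 := fr3) h2 hw.1))

/-- **free chords**: on a face with a side outside `Act0 s_b` no chord of the other family of the
quad crosses -/
theorem kfree_side {k : Init_543.QK (Pc Φ.F)} (hσ : tb + ε ≤ σ') (posσ : PosT T f J0 S s₃ σ')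
    {F : S.Fn fr3} {w : E3} {p : T.RIdx S.HH} (hpF : Sum.inl p ∈ (S.mn fr3).side F)
    (hpT : p.tile ∉ Act0 T (Pc Φ.F) (bc (F := Φ.F)) (RF Φ r₀) f (KorJ Φ J0) tb k)
    (hA : s₃.At F w) (hk : (qS S hLa hR hM hε hε1).In k (s₃.lab w).1) :
    KFree s₃ (qS S hLa hR hM hε hε1) k F w := by
  intro hin x hxA hxk hne _
  exact hpT (act_two (hLa := hLa) (hR := hR) (hM := hM) (hε := hε) (hε1 := hε1) hσ posσ
    (hin _ hpF) hxA.1 hA.1 (sideN_tile hxA.2 hpF).1 (sideN_tile hA.2 hpF).1 ((qin k _).1 hxk)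
    ((qin k _).1 hk) hne)

/-! ### the truthful points of `s₂` -/

section hT

variable {hG : GF Φ r₀ T f L} {bp : JJ Φ L → E3} {Mo : Type}
  {s : GSt (meshC T fr3) (Sum.map (fun j : JJ Φ L => j.1) (id : Mo → Mo))}
  {r : JJ Φ L ⊕ Mo → E3} {Tw : Twrs (S.sh fr3) S.n (outK S.hH S.dis s r)}
  {l0 : E3 → JJ Φ L ⊕ Mo} {rt d : Φ.F → ℝ} {j : JJ Φ L} {k : Init_543.QK (Pc Φ.F)}

/-- **the points of the sheet `j` of `s₂` on the tiles outside the strip and outside the small discs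
are joined with the root** by chords which are free in the quad `k` -/
theorem hT_tile (hδ : 0 < δ) (hR0 : 0 < R) (hκ1 : 0 ≤ κ1) (hκ2 : 0 < κ2) (h12 : 2 * κ0 * κ1 ≤ κ2)
    (h0 : 0 ≤ ε) (hC : Cores Φ T f κ1 κ2 X J0 J V ct A lam z θ φ) {M : Φ.F → ℕ}
    (hW : Words Φ T f X ct A lam z M L) (hK : ∀ k, S.K k = KJ T (J k.1))
    (hp : Part (st0 hG bp) s Sum.inl)
    (hconn : (st0 hG bp).Conn j) (hT : Tlr Φ T f J0 Xᶜ rt d)
    (hJ : ∀ e ∉ X, ∀ i ∈ J e, ∃ x ∈ P (T.H i), gau e.1 (Φ.B e).lo (f x) ≤ rt e - d e)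
    (htb : 0 < tb) (hsb : s₁ ≤ tb + ε) (hσ : tb + 2 * ε ≤ σ') (hη : Leaf_965.Chl δ κ0 R c0 κ2 * κ1 < tb)
    (hk : j.1 ∈ k.B) (ht : j.2.1 ∈ Icc tb (1 - tb)) (posσ : PosT T f J0 S s₃ σ')
    (hr : r (Sum.inl j) ∈ s.P ∧ s.lab (r (Sum.inl j)) = Sum.inl j)
    {q₀ : ι} (hrq : r (Sum.inl j) ∈ P (T.H q₀)) (hq₀ : q₀ ∉ Rtl r₀ T f J0 Xᶜ rt tb k)
    (Y : Set E3) (hbY : r (Sum.inl j) ∈ Y)
    (hY : ∀ F w, (s2 S fr3 Tw l0).At F w → (s2 S fr3 Tw l0).lab w = Sum.inl j →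
      K3 s₃ (qS S hLa hR hM hε hε1) j k F w → (w ∈ Y ↔ (s2 S fr3 Tw l0).mu F w ∈ Y)) :
    ∀ w ∈ (s2 S fr3 Tw l0).P, (s2 S fr3 Tw l0).lab w = Sum.inl j →
      (∃ q, w ∈ P (T.H q) ∧ q ∉ Rtl r₀ T f J0 Xᶜ rt tb k) → w ∈ Y := by
  classical
  have hNR : Ntl r₀ T f J0 Xᶜ rt d (tb + ε) k ⊆ Rtl r₀ T f J0 Xᶜ rt tb k :=
    hT.ntl_sub (by linarith) k
  have hKN : ∀ q, q ∉ Ntl r₀ T f J0 Xᶜ rt d (tb + ε) k → ∀ c, ¬ P (T.H q) ⊆ S.K c := by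
    intro q hq c hc
    rw [hK c] at hc
    have h1 : q ∈ J c.1 := Slt_471.sub_KJ_iff.1 hc
    obtain ⟨x, hx, h2⟩ := hJ c.1 c.2 q h1
    exact hq (Or.inr ⟨c.1, c.2, Or.inr ⟨x, hx, h2⟩⟩)
  have hloc := locH1_tiny (hR := hR) hLa hM h0 hε1 hT hG bp htb le_rfl j k hk ht (by
    rintro q ⟨c, hc⟩ hcX hne
    by_cases hcx : c ∈ X
    · rw [(hC.one c hcx).1] at hc
      obtain rfl : q = ct c := hc
      refine Leaf_965.hleaf_exact (s' := tb) hLa hδ hR0 hκ1 hκ2 h12 hcx (hC.exact_ c hcx) hW hη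
        (fun x hx hd e => hR.v_eq' Φ hLa hx (hd.trans (by norm_num)) e) (fun j => j.2.2) fr3 hG j k hk
    · exact absurd hc (hcX c hcx))
  have hface : ∀ w ∈ Om, T.dim w = 1 → ∀ q, w ∈ P (T.H q) →
      q ∉ Rtl r₀ T f J0 Xᶜ rt tb k →
      ∃ F : C2 T, w ∈ F.On ∧ ∃ q ∈ F.side fr3, q ∉ Rtl r₀ T f J0 Xᶜ rt tb k := by
    intro w hw hd q hq hqR
    obtain ⟨F, h1, h2⟩ := Gm_298.exists_face_out hw hd hq
    exact ⟨F, h1, q, h2, hqR⟩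
  have hrs : r (Sum.inl j) ∈ (outK S.hH S.dis s r).P := by
    refine ⟨hr.1, ?_⟩
    rw [hr.2]
  have hrd := s_out hrs Tw
  intro w hw hl ⟨q, hwq, hqR⟩
  have hqK := hKN q fun h => hqR (hNR h)
  obtain ⟨h1, -⟩ := s2_out hw (Sla.out_of_tile hqK hwq)
  have hwd := s_out h1 Tw
  refine Sgo_298.out_in (S := S) (h3 := fr3) (Tw := Tw) (l0 := l0) (i := Sum.inl j)
    (hp.conn hconn) (Sgo_298.locH1_part hp hloc) hNR hKN hr
    (hface _ hrd.1.1 hrd.2 q₀ hrq hq₀) Y hbY ?_ w hw hl (hface w hwd.1.1 hwd.2 q hwq hqR)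
  rintro G y hyY hA hyl ⟨p, hpG, hpN⟩
  have hpK := hKN p hpN
  refine (hY (old G) y hA hyl ?_).1 hyY
  intro hA3 hl3
  have hside := Sgo_298.side_old hpG hpK
  refine kfree_side (tb := tb + ε) (by linarith) posσ hside (fun h => hpN (Or.inl h)) hA3 ?_
  rw [hl3]
  exact (qin k _).2 hk

end hT

end Crest.Agent.R096.Tro_914
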