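import Crest.Agent.R096.Tro1_914
import Crest.Agent.R096.Pbn3_147
import Crest.Agent.R096.Hdr2_334
import Crest.Agent.R096.Dfo2_539

/-!
# R096 (row 96), DOORS (helper147): (T1), `TrOut` of 662's `Civ1` for the state after CUT

* `RmO`      : the radii (`Tiny.room`): hole tiles below `ρ1`, tiles below `ρ4` in `V`, oscillation;
* `out_rtl`  : a point off `UT` which is not inside the quad is on a tile outside `Rtl`;
* `bar_rtl`  : a tile with a barrier point and a point with `r'' ≤ gau` is outside `Rtl`;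
* `bar_kfree`: separation;  `new_ss` : barrier points next to new points off `UT`;
* `trOut`    : **`TrOut`**.
-/

set_option autoImplicit false
set_option linter.unusedSectionVars false
set_option linter.unusedVariables false
set_option linter.style.longLine false

open Set Relation Module Topology Filter Metric
open scoped Classical

namespace Crest.Agent.R096.Tro_147

open Crest.Agent.R096.Brk1_582 Crest.Agent.R096.Brk2_582 Crest.Agent.R096.Brk3_582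
open Crest.Agent.R096.Brk5_582 Crest.Agent.R096.Bsp_628
open Crest.Agent.R096.St_147 Crest.Agent.R096.Seq_213 Crest.Agent.R096.Seq_213.GSt
open Crest.Agent.R096.Lm_117 Crest.Agent.R096.Msh_715 Crest.Agent.R096.Ginv_543
open Crest.Agent.R096.Agl5_543 Crest.Agent.R096.Init_543
open Crest.Agent.R096.SkC1_961 (E3 Hom3 FoamD)
open Crest.Agent.R096.Mbf_337 (KJ sb gau Cores Tiny Words)
open Crest.Agent.R096.Frn_337 (Ti cti Lay)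
open Crest.Agent.R096.SkB_662 Crest.Agent.R096.Qdl_662 Crest.Agent.R096.Dinv_106
open Crest.Agent.R096.Sla_184 Crest.Agent.R096.Dfi_471 Crest.Agent.R096.Twr_438
open Crest.Agent.R096.Ess3_95 Crest.Agent.R096.Dis_184
open Crest.Agent.R096.Frk_441 Crest.Agent.R096.Door_501
open Crest.Agent.R096.Sla_184.Sla (hf vf old tg F0 Fn Out OnS InL In)
open Crest.Agent.R096.Tro_914 Crest.Agent.R096.Pbn_147 Crest.Agent.R096.Sec_892
  Crest.Agent.R096.SecW_892 Crest.Agent.R096.Cg_501 Crest.Agent.R096.Sgd_298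
  Crest.Agent.R096.Sgo_298

variable {δ κ0 R c0 : ℝ} {La Om : Set E3} {ι : Type} {Φ : FoamD δ κ0 R c0 La}
  {T : Tiling Om ι} {f g : E3 → E3} {κ1 κ2 s₁ σ' tb ε : ℝ} {X : Set Φ.F} {J0 J V : Φ.F → Set ι}
  {ct : Φ.F → ι}
  {A : Φ.F → E3 ≃ᵃ[ℝ] E3} {lam : Φ.F → ℝ} {z : Φ.F → E3} {θ : Φ.F → E3 → E3} {φ : Φ.F → E3 → ℝ}
  {ct' : Φ.F → ι} {r₀ : Φ.F → ℝ} {S : Sla T (Ti X)}
  {L : Φ.F → Finset ℝ} [Nonempty (JJ Φ L)]
  {hLa : IsOpen La} {hR : InitR Φ T f g J0 ct' r₀}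
  {hM : Mesh0 T (Pc Φ.F) (bc (F := Φ.F)) (RF Φ r₀) f (KorJ Φ J0) ε} {hε : ε < s₁} {hε1 : ε < 1}
  {s₃ : GSt (S.mn fr3) (fun j : JJ Φ L => j.1)}
  {ρ1 ρ4 rt d rU rS : Φ.F → ℝ}

/-- **radii of the tiny cores** (`Tiny.room` as functions): tiles of the hole below `ρ1`, tiles which
meet `{gau ≤ ρ4}` in `V`, oscillation `d` on the tiles of `V \ J0` -/
structure RmO (Φ : FoamD δ κ0 R c0 La) (T : Tiling Om ι) (f : E3 → E3) (X : Set Φ.F)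
    (J0 V : Φ.F → Set ι) (ρ1 ρ4 d : Φ.F → ℝ) : Prop where
  j0 : ∀ e ∉ X, ∀ x ∈ KJ T (J0 e), gau e.1 (Φ.B e).lo (f x) < ρ1 e
  v : ∀ e ∉ X, ∀ i, (∃ x ∈ P (T.H i), gau e.1 (Φ.B e).lo (f x) ≤ ρ4 e) → i ∈ V e
  osc : ∀ e ∉ X, ∀ i ∈ V e, i ∉ J0 e → ∀ x ∈ P (T.H i), ∀ y ∈ P (T.H i),
    |gau e.1 (Φ.B e).lo (f x) - gau e.1 (Φ.B e).lo (f y)| ≤ d e

/-- oscillation of the gauge on a tile -/
theorem RmO.ga (H : RmO Φ T f X J0 V ρ1 ρ4 d) {e : Φ.F} (he : e ∉ X) {q : ι} {x y : E3}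
    (hx : x ∈ P (T.H q)) (hy : y ∈ P (T.H q)) (h1 : ρ1 e ≤ gau e.1 (Φ.B e).lo (f x))
    (h4 : gau e.1 (Φ.B e).lo (f y) ≤ ρ4 e) :
    gau e.1 (Φ.B e).lo (f x) ≤ gau e.1 (Φ.B e).lo (f y) + d e := by
  have hq : q ∈ V e := H.v e he q ⟨y, hy, h4⟩
  have hq0 : q ∉ J0 e := fun h => absurd (H.j0 e he x (mem_biUnion h hx)) (not_lt.2 h1)
  have := (abs_le.1 (H.osc e he q hq hq0 x hx y hy)).2
  linarith

/-- **(i)** a point off `UT` which is not inside the quad is on a tile outside `Rtl` -/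
theorem out_rtl (H : RmO Φ T f X J0 V ρ1 ρ4 d) (hK : ∀ k, S.K k = KJ T (J k.1))
    (hs : s₁ ≤ tb) (h1U : ∀ e ∉ X, ρ1 e ≤ rU e) (h4 : ∀ e ∉ X, rt e ≤ ρ4 e)
    (hd : ∀ e ∉ X, 0 ≤ d e) (hrU : ∀ e ∉ X, rt e + d e ≤ rU e)
    (hJ : ∀ e ∉ X, ∀ i ∈ J e, ∃ x ∈ P (T.H i), gau e.1 (Φ.B e).lo (f x) ≤ rt e - d e)
    {k : Init_543.QK (Pc Φ.F)} {w : E3} {F : S.Fn fr3} (hwF : w ∈ (S.mn fr3).On F)
    (hU : ∀ e ∉ X, rU e < gau e.1 (Φ.B e).lo (f w))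
    (hI : ¬ Int (S.mn fr3) ((qS S hLa hR hM hε hε1).Act k) w) :
    ∃ q, w ∈ P (T.H q) ∧ q ∉ Rtl r₀ T f J0 Xᶜ rt tb k := by
  have h1 : ∃ F', w ∈ (S.mn fr3).On F' ∧ ∃ q ∈ (S.mn fr3).side F',
      q ∉ (qS S hLa hR hM hε hε1).Act k := by
    by_contra hcon
    push Not at hcon
    exact hI ⟨⟨F, hwF⟩, fun F' hF' q hq => hcon F' hF' q hq⟩
  obtain ⟨F', hF', q, hq, hqA⟩ := h1
  rcases q with p | c
  · obtain ⟨-, hpK, hwq⟩ := sideN_tile hF' hq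
    refine ⟨p.tile, hwq, ?_⟩
    rintro (hA | ⟨e, he, x, hx, hxr⟩)
    · refine hqA (inl_act.2 ⟨?_, hpK⟩)
      obtain ⟨g1, x, g2, g3, g4⟩ := hA
      exact ⟨g1, x, g2, fun a ha => ⟨hs.trans (g3 a ha).1, (g3 a ha).2.trans (by linarith)⟩, g4⟩
    · have h2 := H.ga he hwq hx ((h1U e he).trans (hU e he).le) (hxr.trans (h4 e he))
      have h3 := hU e he
      have h5 := hrU e he
      linarith
  · exfalso
    have h2 := sideN_core hF' hq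
    rw [hK c] at h2
    obtain ⟨i, hi, hwi⟩ := mem_iUnion₂.1 h2
    obtain ⟨x, hx, hxr⟩ := hJ c.1 c.2 i hi
    have h5 := hd c.1 c.2
    have h3 := H.ga c.2 hwi hx ((h1U c.1 c.2).trans (hU c.1 c.2).le)
      (by have := h4 c.1 c.2; linarith)
    have h6 := hU c.1 c.2
    have h7 := hrU c.1 c.2
    linarith

/-- tiles with a barrier point of a family of the quad are not in `Act0` -/
theorem bar_act (hLa : IsOpen La) (hR : InitR Φ T f g J0 ct' r₀)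
    (hM : Mesh0 T (Pc Φ.F) (bc (F := Φ.F)) (RF Φ r₀) f (KorJ Φ J0) ε) {lb : ℝ}
    (hlb : lb + ε < tb) {k : Init_543.QK (Pc Φ.F)} {a : Φ.F} (ha : a ∈ k.B) {q : ι}
    (h : q ∉ KorJ Φ J0 → ∀ e, e ≠ a → ∃ x ∈ P (T.H q), Φ.lev e (f x) ≤ lb ∨ 1 - lb ≤ Φ.lev e (f x)) :
    q ∉ Act0 T (Pc Φ.F) (bc (F := Φ.F)) (RF Φ r₀) f (KorJ Φ J0) tb k := by
  rintro ⟨g1, x₀, g2, g3, -⟩
  obtain ⟨b, hb, hba⟩ : ∃ b ∈ k.B, b ≠ a := by
    by_contra hcon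
    push Not at hcon
    have h1 : k.B ⊆ {a} := fun b hb => hcon b hb
    have h2 := Set.ncard_le_ncard h1 (Set.finite_singleton a)
    rw [k.cB, Set.ncard_singleton] at h2
    norm_num at h2
  obtain ⟨x, hx, hx2⟩ := h g1 b hba
  have h3 := g3 b hb
  rw [At_241.va_lev hLa hR g1 g2] at h3
  have h4 := abs_le.1 (hM.osc q g1 x₀ g2 x hx b)
  rw [At_241.va_lev hLa hR g1 g2, At_241.va_lev hLa hR g1 hx] at h4
  rcases hx2 with h5 | h5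
  · linarith [h3.1, h4.2]
  · linarith [h3.2, h4.1]

/-- **(ii)** a tile with a barrier point and a point with `r'' ≤ gau ≤ ρ4` is outside `Rtl` -/
theorem bar_rtl (H : RmO Φ T f X J0 V ρ1 ρ4 d) (hdis : ∀ c c', c ≠ c' → Disjoint (V c) (V c'))
    (h1S : ∀ e ∉ X, ρ1 e ≤ rS e) (h4 : ∀ e ∉ X, rt e ≤ ρ4 e)
    (hrS : ∀ e ∉ X, rt e + d e < rS e) (hLa : IsOpen La) (hR : InitR Φ T f g J0 ct' r₀)
    (hM : Mesh0 T (Pc Φ.F) (bc (F := Φ.F)) (RF Φ r₀) f (KorJ Φ J0) ε) {lb : ℝ}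
    (hlb : lb + ε < tb) {k : Init_543.QK (Pc Φ.F)} {a : Φ.F} (ha : a ∈ k.B) {q : ι}
    (h : q ∉ KorJ Φ J0 → ∀ e, e ≠ a → ∃ x ∈ P (T.H q), Φ.lev e (f x) ≤ lb ∨ 1 - lb ≤ Φ.lev e (f x))
    {e : Φ.F} (he : e ∉ X) {y : E3} (hy : y ∈ P (T.H q))
    (hy1 : rS e ≤ gau e.1 (Φ.B e).lo (f y)) (hy4 : gau e.1 (Φ.B e).lo (f y) ≤ ρ4 e) :
    q ∉ Rtl r₀ T f J0 Xᶜ rt tb k := by
  rintro (hA | ⟨e', he', x, hx, hxr⟩)
  · exact bar_act hLa hR hM hlb ha h hA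
  · have h2 : q ∈ V e' := H.v e' he' q ⟨x, hx, hxr.trans (h4 e' he')⟩
    have h3 : q ∈ V e := H.v e he q ⟨y, hy, hy4⟩
    obtain rfl : e = e' := by
      by_contra hne
      exact disjoint_left.1 (hdis e e' hne) h3 h2
    have h5 := H.ga he hy hx ((h1S e he).trans hy1) (hxr.trans (h4 e he))
    have h6 := hrS e he
    linarith

/-- **(iii)** separation: no chord of the other family of the quad on the cells with barrier points -/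
theorem bar_kfree (hlb' : tb + ε ≤ σ') (posσ : PosT T f J0 S s₃ σ') {lb : ℝ}
    (hlb : lb + ε < tb) {k : Init_543.QK (Pc Φ.F)} {a : Φ.F} (ha : a ∈ k.B)
    {q : T.RIdx S.HH ⊕ Ti X} {F F' : S.Fn fr3} {h : E3}
    (hq : q ∈ (S.mn fr3).side F) (hq' : q ∈ (S.mn fr3).side F') (hh : h ∈ (S.mn fr3).On F')
    (hp : ∀ p : T.RIdx S.HH, (∀ k', ¬ P (S.T3.H p) ⊆ S.KK k') → h ∈ P (S.T3.H p) →
      p.tile ∉ KorJ Φ J0 → ∀ e, e ≠ a → ∃ x ∈ P (T.H p.tile),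
        Φ.lev e (f x) ≤ lb ∨ 1 - lb ≤ Φ.lev e (f x)) {w : E3} (hA : s₃.At F w)
    (hk : (qS S hLa hR hM hε hε1).In k (s₃.lab w).1) :
    KFree s₃ (qS S hLa hR hM hε hε1) k F w := by
  rcases q with p | c
  · obtain ⟨g1, g2, -⟩ := sideN_tile hh hq'
    exact kfree_side hlb' posσ hq (bar_act hLa hR hM hlb ha fun h3 => hp p g2 g1 h3) hA hk
  · exact fun hin => absurd (hin _ hq) inr_act

/-- the tile of a face -/
theorem face_tile {F : S.Fn fr3} {w : E3} (hw : w ∈ (S.mn fr3).On F) {h : E3}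
    (hh : h ∈ (S.mn fr3).On F) : ∃ q, w ∈ P (T.H q) ∧ h ∈ P (T.H q) := by
  obtain ⟨p, hp⟩ := side_ex (meshC S.T3 fr3) F.1
  exact ⟨p.tile, sla_sub S p (C2.sub_tile (h3 := fr3) hp hw.1),
    sla_sub S p (C2.sub_tile (h3 := fr3) hp hh.1)⟩

/-- **(v)** barrier points next to new points off `UT` have `r'' ≤ gau` -/
theorem new_ss (H : RmO Φ T f X J0 V ρ1 ρ4 d) (h1U : ∀ e ∉ X, ρ1 e ≤ rU e)
    (hS4 : ∀ e ∉ X, rS e ≤ ρ4 e) (hSU : ∀ e ∉ X, rS e + d e ≤ rU e) {F : S.Fn fr3} {w h : E3}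
    (hw : w ∈ (S.mn fr3).On F) (hh : h ∈ (S.mn fr3).On F) {e : Φ.F} (he : e ∉ X)
    (hU : rU e < gau e.1 (Φ.B e).lo (f w)) : rS e ≤ gau e.1 (Φ.B e).lo (f h) := by
  obtain ⟨q, h1, h2⟩ := face_tile hw hh
  by_contra hcon
  push Not at hcon
  have h3 := H.ga he h1 h2 ((h1U e he).trans hU.le) (hcon.le.trans (hS4 e he))
  have h4 := hSU e he
  linarith

/-! ### the composition -/

section main

variable {hG : GF Φ r₀ T f L} {bp : JJ Φ L → E3} {Mo : Type}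
  {s : GSt (meshC T fr3) (Sum.map (fun j : JJ Φ L => j.1) (id : Mo → Mo))}
  {r : JJ Φ L ⊕ Mo → E3} {Tw : Twrs (S.sh fr3) S.n (outK S.hH S.dis s r)}
  {l0 : E3 → JJ Φ L ⊕ Mo} {am : Mo → Φ.F}
  {hs : BSep (s2 S fr3 Tw l0) am} {hm : ∀ a, {m | am m = a}.Finite} {j0 : Φ.F → JJ Φ L}
  {hj0 : ∀ a, (j0 a).1 = a} {Rt' : Set ι}
  {far : ∀ a, PN (fun j : JJ Φ L => j.1) am a → Set E3}
  {t : ∀ a, St (S.mn fr3) (pcol (fun j : JJ Φ L => j.1) am a)} {Ph : Φ.F → Finset E3}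

/-- **`TrOut` FOR THE STATE AFTER CUT** -/
theorem trOut (hKK : ∀ k, CoreH S.T3 (S.KK k)) (hδ : 0 < δ) (hR0 : 0 < R) (hκ1 : 0 ≤ κ1)
    (hκ2 : 0 < κ2) (h12 : 2 * κ0 * κ1 ≤ κ2) (h0 : 0 ≤ ε)
    (hC : Cores Φ T f κ1 κ2 X J0 J V ct A lam z θ φ) {M : Φ.F → ℕ}
    (hW : Words Φ T f X ct A lam z M L) (hK : ∀ k, S.K k = KJ T (J k.1))
    (hp : Part (st0 hG bp) s Sum.inl) (hconn : ∀ j, (st0 hG bp).Conn j)
    (hT : Tlr Φ T f J0 Xᶜ rt d)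
    (hJ : ∀ e ∉ X, ∀ i ∈ J e, ∃ x ∈ P (T.H i), gau e.1 (Φ.B e).lo (f x) ≤ rt e - d e)
    (htb : 0 < tb) (hs1 : s₁ ≤ tb) (hσ : tb + 2 * ε ≤ σ')
    (hη : Leaf_965.Chl δ κ0 R c0 κ2 * κ1 < tb)
    (ht : ∀ j : JJ Φ L, j.2.1 ∈ Icc tb (1 - tb)) (posσ : PosT T f J0 S s₃ σ')
    (hr : ∀ j, r (Sum.inl j) ∈ s.P ∧ s.lab (r (Sum.inl j)) = Sum.inl j)
    (hroot : ∀ (j : JJ Φ L) (k : Init_543.QK (Pc Φ.F)), j.1 ∈ k.B →
      ∃ q₀, r (Sum.inl j) ∈ P (T.H q₀) ∧ q₀ ∉ Rtl r₀ T f J0 Xᶜ rt tb k)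
    (H : RmO Φ T f X J0 V ρ1 ρ4 d) (h1t : ∀ e ∉ X, ρ1 e ≤ rt e) (hd : ∀ e ∉ X, 0 ≤ d e)
    (hrS : ∀ e ∉ X, rt e + d e < rS e) (hS4 : ∀ e ∉ X, rS e ≤ ρ4 e)
    (hSU : ∀ e ∉ X, rS e + d e ≤ rU e) {lb : ℝ} (hlb : lb + ε < tb)
    (posM : ∀ m, Hdr_334.PosM (hH := hKK) (hdis := Sla.dis_KK) T f J0
      (fun p : T.RIdx S.HH => p.tile) (s2 S fr3 Tw l0) (Sum.inr m) (am m) lb)
    (D : CutR (s2 S fr3 Tw l0) hs hm j0 hj0 (fun _ => ActR S Rt') far t Ph s₃)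
    (hN : ∀ a, PBN (ActR S Rt') (far a) (Ph a) (t a) (prS (s2 S fr3 Tw l0) hs hm j0 hj0 a))
    (hfar : ∀ a, ∀ i : PN (fun j : JJ Φ L => j.1) am a, ∀ j, i.1 = Sum.inl j →
      r (Sum.inl j) ∈ far a i)
    {RR : Φ.F → Set (S.Fn fr3)} {SS : Φ.F → Set E3}
    (hRS : ∀ a, ConnT (ActR S Rt') (far a) (prS (s2 S fr3 Tw l0) hs hm j0 hj0 a) (RR a) (SS a))
    (hRR : ∀ a, ∀ F ∈ RR a, ∃ p, Sum.inl p ∈ (S.mn fr3).side F ∧ ∃ e ∉ X, ∃ y ∈ P (T.H p.tile),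
      rS e ≤ gau e.1 (Φ.B e).lo (f y) ∧ gau e.1 (Φ.B e).lo (f y) ≤ ρ4 e)
    (hSS : ∀ a m h, h ∈ (s2 S fr3 Tw l0).P → (s2 S fr3 Tw l0).lab h = Sum.inr m → am m = a →
      (∀ e ∉ X, rS e ≤ gau e.1 (Φ.B e).lo (f h)) → h ∈ SS a) :
    Civ_662.TrOut (hH := hKK) (hdis := Sla.dis_KK)
      (qdT (fun p : T.RIdx S.HH => p.tile) (sla_sub S) S.KK hLa hR hM hε hε1) s₃
      (fun j => r (Sum.inl j)) {w | ∃ c : Ti X, gau c.1.1 (Φ.B c.1).lo (f w) ≤ rU c.1} := by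
  have h4 : ∀ e ∉ X, rt e ≤ ρ4 e := fun e he => by
    have := hrS e he; have := hS4 e he; have := hd e he; linarith
  have h1U : ∀ e ∉ X, ρ1 e ≤ rU e := fun e he => by
    have := hrS e he; have := hSU e he; have := hd e he; have := h1t e he; linarith
  have h1S : ∀ e ∉ X, ρ1 e ≤ rS e := fun e he => by
    have := hrS e he; have := hd e he; have := h1t e he; linarith
  have hrU : ∀ e ∉ X, rt e + d e ≤ rU e := fun e he => by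
    have := hrS e he; have := hSU e he; have := hd e he; linarith
  intro j k hk Y hbY hY w hw hl hwU hwI
  have hkB : j.1 ∈ k.B := (qin k _).1 hk
  obtain ⟨q₀, hrq, hq₀⟩ := hroot j k hkB
  have hbs : r (Sum.inl j) ∈ (s2 S fr3 Tw l0).P := by
    refine mem_s2.2 (Or.inl ⟨(hr j).1, ?_⟩)
    rw [(hr j).2]
  have hface : ∀ {v : E3}, v ∈ (s2 S fr3 Tw l0).P → ∃ F, v ∈ (S.mn fr3).On F := by
    intro v hv
    obtain ⟨q, h1, h2⟩ := Dfo_539.s2_tile hv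
    obtain ⟨F, h3, -⟩ := Dfo_539.exists_faceK (h3 := fr3) (hH := hKK) (hdis := S.dis_KK)
      (s2_dim hv).1 (s2_dim hv).2 h1 h2
    exact ⟨F, h3⟩
  refine tr_cutG D hN (j := j) (k := k) (R := RR j.1) (S := SS j.1)
    (b := r (Sum.inl j)) (U := {w | ∃ c : Ti X, gau c.1.1 (Φ.B c.1).lo (f w) ≤ rU c.1})
    (Q := qS S hLa hR hM hε hε1) ?_ (hfar j.1 (nL am j) j rfl) hbs (hRS j.1) ?_ ?_
    Y hbY hY w hw hl hwU hwI
  · intro q F F' h m hq hq' hh hhl hma v hv hvl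
    refine bar_kfree (a := j.1) (by linarith) posσ hlb hkB hq hq' hh.2 (fun p hpK hhp hkor e he => ?_)
      hv ?_
    · rw [← hma] at he
      exact posM m h hh.1 hhl p hpK hhp hkor e he
    · rw [hvl]; exact hk
  · intro Y' hbY' hY' v hv hvl hcase
    refine hT_tile hδ hR0 hκ1 hκ2 h12 h0 hC hW hK hp (hconn j) hT hJ htb (by linarith) hσ hη hkB
      (ht j) posσ (hr j) hrq hq₀ Y' hbY' hY' v hv hvl ?_
    rcases hcase with ⟨hvU, hvI⟩ | ⟨F, hF, hvF, x, m, hx, hxl, hxa, -⟩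
    · obtain ⟨F, hF⟩ := hface hv
      refine out_rtl H hK hs1 h1U h4 hd hrU hJ hF (fun e he => ?_) hvI
      by_contra hcon
      exact hvU ⟨⟨e, he⟩, not_lt.1 hcon⟩
    · obtain ⟨p, hp1, e, he, y, hy, hy1, hy4⟩ := hRR j.1 F hF
      obtain ⟨-, hpK, hvp⟩ := sideN_tile hvF hp1
      obtain ⟨hxp, -, -⟩ := sideN_tile hx.2 hp1
      refine ⟨p.tile, hvp, bar_rtl H hC.disj h1S h4 hrS hLa hR hM hlb hkB
        (fun hkor e' he' => ?_) he hy hy1 hy4⟩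
      rw [← hxa] at he'
      exact posM m x hx.1 hxl p hpK hxp hkor e' he'
  · intro v hv hvl hvs hvU hvI h hh m hhl hha hsame
    obtain ⟨F, hF⟩ := hface hh
    refine hSS j.1 m h hh hhl hha fun e he => ?_
    refine new_ss H h1U hS4 hSU ((hsame F).2 hF) hF he ?_
    by_contra hcon
    exact hvU ⟨⟨e, he⟩, not_lt.1 hcon⟩

end main

end Crest.Agent.R096.Tro_147
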