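import Crest.Agent.R096.Pst1_465
import Crest.Agent.R096.Sk3b_270

/-!
# Row 96 (S0127), p = 2: lemma 2SK2 (helper879, for 753 #10340 [B]), part 1

`Out2`: the conclusion of 465's `iterate2_col`.  `Out2.tiles`: the set form on tiles.
`Out2.near`: the metric form, for a map `f` near `h`.
-/

set_option autoImplicit false
set_option linter.unusedSectionVars false

open Set Metric Topology Filter Module

namespace Crest.Agent.R096.Tsk_879

open Crest.Agent.R096.Msh_715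
open Crest.Agent.R096.Sk2_855 (sk1 HP Mv)
open Crest.Agent.R096.Ub_113 (UBox)
open Crest.Agent.R096.Pst_465
open Crest.Agent.R096.Sk3_270 (capture_tile exists_min)

variable {E : Type*} [NormedAddCommGroup E] [NormedSpace ℝ E] {Om La : Set E} {ι : Type*}

/-- the conclusion of the iteration (465's `iterate2_col`) for one map `h` -/
structure Out2 (T : Tiling Om ι) {J : Type*} (B : J → PBox T La) (n : ℕ) (h : E → E)
    (Ψ : E ≃ₜ E) : Prop where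
  mv : Mv T Ψ
  nr : Near T h Ψ (⋃ j, (B j).pat)
  gr : ∀ Z : ℕ → Set E, (∀ m, Z m ⊆ Z (m + 1)) →
    (∀ m < n, ∀ j, (Z m ∩ (B j).Y).Nonempty → (B j).Y ⊆ Z (m + 1)) →
    (∀ x ∈ Om, T.dim x = 2 → h '' T.cc x ⊆ Z 0 → h '' (Ψ '' T.cc x) ⊆ Z n) ∧
    (∀ j, (B j).Y1 ⊆ Z 0 → ∀ x, (B j).Own h x → h '' (Ψ '' T.cc x) ⊆ Z n)

variable [FiniteDimensional ℝ E] {T : Tiling Om ι} {f : E → E} {J : Type*} {B : J → PBox T La}
  {n : ℕ} {h hi : E → E} {Ψ : E ≃ₜ E} {Y : J → Set E}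

/-- the set form -/
theorem Out2.tiles (O : Out2 T B n h Ψ) (h3 : finrank ℝ E = 3) (hLa : IsOpen La)
    (H : HP Om La h hi) (i : J → ι) (hY : ∀ j, (B j).Y ⊆ Y j) (hY1 : ∀ j, (B j).Y1 ⊆ Y j)
    (hOwn : ∀ j, ∀ x ∈ Om, T.dim x = 2 → T.cc x ⊆ P (T.H (i j)) → (B j).Own h x)
    (Z : ℕ → Set E) (hZ : ∀ m, Z m ⊆ Z (m + 1))
    (hZY : ∀ m < n, ∀ j, (Z m ∩ Y j).Nonempty → Y j ⊆ Z (m + 1)) (hC : Convex ℝ (Z n))
    (hCc : IsClosed (Z n)) :
    (∀ j, Y j ⊆ Z 0 → ∀ x ∈ P (T.H (i j)), h (Ψ x) ∈ Z n) ∧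
    (∀ k, (∀ x ∈ P (T.H k), T.dim x ≤ 2 → h x ∈ Z 0) → ∀ x ∈ P (T.H k), h (Ψ x) ∈ Z n) ∧
    (∀ x ∈ Om, T.dim x = 2 → h '' T.cc x ⊆ Z 0 → ∀ z ∈ T.cc x, h (Ψ z) ∈ Z n) := by
  obtain ⟨g1, g2⟩ := O.gr Z hZ fun m hm j hne =>
    (hY j).trans (hZY m hm j (hne.mono (inter_subset_inter_right _ (hY j))))
  refine ⟨fun j hj => capture_tile h3 H hLa O.mv (i j) hC hCc fun y hy hyd hyi =>
    g2 j ((hY1 j).trans hj) y (hOwn j y hy hyd hyi), fun k hk =>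
      capture_tile h3 H hLa O.mv k hC hCc fun y hy hyd hyi => ?_, fun x hx hd h0 z hz =>
        g1 x hx hd h0 ⟨Ψ z, ⟨z, hz, rfl⟩, rfl⟩⟩
  refine g1 y hy hyd ?_
  rintro _ ⟨x, hx, rfl⟩
  refine hk x (hyi hx) ?_
  have h1 : T.dim x ≤ T.dim y := T.dim_le hx
  omega

/-- the metric form for a map `f` near `h` -/
theorem Out2.near (O : Out2 T B n h Ψ) (h3 : finrank ℝ E = 3) (hLa : IsOpen La)
    (H : HP Om La h hi) (i : J → ι) (hY : ∀ j, (B j).Y ⊆ Y j) (hY1 : ∀ j, (B j).Y1 ⊆ Y j)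
    (hOwn : ∀ j, ∀ x ∈ Om, T.dim x = 2 → T.cc x ⊆ P (T.H (i j)) → (B j).Own h x)
    {e : ℝ} (he : 0 ≤ e) (hh : ∀ x ∈ Om, ‖h x - f x‖ ≤ e / 2) :
    (∀ j (y0 : E) (R D : ℝ), 0 ≤ D → Y j ⊆ closedBall y0 R →
      (∀ j', (Y j' ∩ closedBall y0 (R + n * D + e)).Nonempty →
        ∀ y ∈ Y j', ∀ y' ∈ Y j', ‖y - y'‖ ≤ D) →
      ∀ x ∈ P (T.H (i j)), ‖f (Ψ x) - y0‖ ≤ R + n * D + e) ∧
    (∀ k (y0 : E) (R D : ℝ), 0 ≤ D → (∀ x ∈ P (T.H k), T.dim x ≤ 2 → f x ∈ closedBall y0 R) →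
      (∀ j', (Y j' ∩ closedBall y0 (R + n * D + e)).Nonempty →
        ∀ y ∈ Y j', ∀ y' ∈ Y j', ‖y - y'‖ ≤ D) →
      ∀ x ∈ P (T.H k), ‖f (Ψ x) - y0‖ ≤ R + n * D + e) ∧
    (∀ x ∈ Om, T.dim x = 2 → ∀ (y0 : E) (R D : ℝ), 0 ≤ D →
      (∀ z ∈ T.cc x, f z ∈ closedBall y0 R) →
      (∀ j', (Y j' ∩ closedBall y0 (R + n * D + e)).Nonempty →
        ∀ y ∈ Y j', ∀ y' ∈ Y j', ‖y - y'‖ ≤ D) →
      ∀ z ∈ T.cc x, ‖f (Ψ z) - y0‖ ≤ R + n * D + e) := by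
  -- balls
  have key : ∀ (y0 : E) (R D : ℝ), 0 ≤ D →
      (∀ j', (Y j' ∩ closedBall y0 (R + n * D)).Nonempty → ∀ y ∈ Y j', ∀ y' ∈ Y j', ‖y - y'‖ ≤ D) →
      (∀ j, Y j ⊆ closedBall y0 R → ∀ x ∈ P (T.H (i j)), ‖h (Ψ x) - y0‖ ≤ R + n * D) ∧
      (∀ k, (∀ x ∈ P (T.H k), T.dim x ≤ 2 → h x ∈ closedBall y0 R) →
        ∀ x ∈ P (T.H k), ‖h (Ψ x) - y0‖ ≤ R + n * D) ∧
      (∀ x ∈ Om, T.dim x = 2 → (∀ z ∈ T.cc x, h z ∈ closedBall y0 R) →
        ∀ z ∈ T.cc x, ‖h (Ψ z) - y0‖ ≤ R + n * D) := by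
    intro y0 R D hD hdiam
    obtain ⟨g1, g2, g3⟩ := O.tiles h3 hLa H i hY hY1 hOwn (fun m => closedBall y0 (R + m * D))
      (by
        intro m
        refine closedBall_subset_closedBall ?_
        push_cast
        nlinarith)
      (by
        rintro m hm j' ⟨y', hy'', hy'⟩ y hy
        have hmn : (m : ℝ) * D ≤ n * D :=
          mul_le_mul_of_nonneg_right (by exact_mod_cast hm.le) hD
        have h1 := hdiam j' ⟨y', hy', closedBall_subset_closedBall (by linarith) hy''⟩ y hy y' hy'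
        have h2 : ‖y' - y0‖ ≤ R + m * D := by
          rw [← dist_eq_norm]; exact hy''
        show y ∈ closedBall y0 (R + ((m + 1 : ℕ) : ℝ) * D)
        rw [mem_closedBall, dist_eq_norm]
        have e1 : y - y0 = (y - y') + (y' - y0) := by abel
        rw [e1]
        refine (norm_add_le _ _).trans ?_
        push_cast
        linarith)
      (convex_closedBall _ _) isClosed_closedBall
    refine ⟨fun j hj x hx => ?_, fun k hk x hx => ?_, fun x hx hd hk z hz => ?_⟩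
    · have := g1 j (by simpa using hj) x hx
      rwa [mem_closedBall, dist_eq_norm] at this
    · have := g2 k (by simpa using hk) x hx
      rwa [mem_closedBall, dist_eq_norm] at this
    · have := g3 x hx hd (by
        rintro _ ⟨w, hw, rfl⟩
        simpa using hk w hw) z hz
      rwa [mem_closedBall, dist_eq_norm] at this
  have hfΨ : ∀ x ∈ Om, ∀ y0 : E, ‖f (Ψ x) - y0‖ ≤ ‖h (Ψ x) - y0‖ + e / 2 := by
    intro x hx y0
    have h1 := hh (Ψ x) (O.mv.mapsTo hx)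
    have e1 : f (Ψ x) - y0 = (h (Ψ x) - y0) - (h (Ψ x) - f (Ψ x)) := by abel
    rw [e1]
    exact (norm_sub_le _ _).trans (by linarith)
  have hfh : ∀ x ∈ Om, ∀ (y0 : E) (R : ℝ), f x ∈ closedBall y0 R →
      h x ∈ closedBall y0 (R + e / 2) := by
    intro z hz y0 R h4
    have h5 := hh z hz
    rw [mem_closedBall, dist_eq_norm] at h4 ⊢
    have e1 : h z - y0 = (h z - f z) + (f z - y0) := by abel
    rw [e1]
    exact (norm_add_le _ _).trans (by linarith)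
  refine ⟨fun j y0 R D hD hj hdiam x hx => ?_, fun k y0 R D hD hk hdiam x hx => ?_,
    fun x hx hd y0 R D hD hk hdiam z hz => ?_⟩
  · have h1 := (key y0 R D hD fun j' hj' => hdiam j' (hj'.mono (inter_subset_inter_right _
      (closedBall_subset_closedBall (by linarith))))).1 j hj x hx
    have h2 := hfΨ x (T.sub _ hx) y0
    linarith
  · have h1 := (key y0 (R + e / 2) D hD fun j' hj' => hdiam j' (hj'.mono
      (inter_subset_inter_right _ (closedBall_subset_closedBall (by linarith))))).2.1 k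
      (fun z hz hzd => hfh z (T.sub _ hz) y0 R (hk z hz hzd)) x hx
    have h2 := hfΨ x (T.sub _ hx) y0
    linarith
  · have h1 := (key y0 (R + e / 2) D hD fun j' hj' => hdiam j' (hj'.mono
      (inter_subset_inter_right _ (closedBall_subset_closedBall (by linarith))))).2.2 x hx hd
      (fun w hw => hfh w (T.cc_sub_Om hx hw) y0 R (hk w hw)) z hz
    have h2 := hfΨ z (T.cc_sub_Om hx hz) y0
    linarith

/-- the points of the faces: `Ψ` is the identity nearby, or the image is near a patch of a shell -/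
theorem Out2.patch (O : Out2 T B n h Ψ) {e : ℝ} (hh : ∀ x ∈ Om, ‖h x - f x‖ ≤ e) {x : E}
    (hx : x ∈ Om) (hd : T.dim x = 2) {z : E} (hz : z ∈ T.cc x) :
    (∀ᶠ y in 𝓝 z, Ψ y = y) ∨
      ∃ j m, ∃ w ∈ (B j).shell, w ∈ (B j).c' m ∧ ‖f (Ψ z) - w‖ ≤ e := by
  refine (O.nr x hx hd z hz).imp_right fun h1 => ?_
  obtain ⟨j, hj⟩ := mem_iUnion.1 h1
  obtain ⟨h2, h4⟩ := hj
  obtain ⟨m, hm⟩ := mem_iUnion.1 h4
  refine ⟨j, m, h (Ψ z), h2, hm, ?_⟩
  rw [norm_sub_rev]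
  exact hh _ (O.mv.mapsTo (T.cc_sub_Om hx hz))

end Crest.Agent.R096.Tsk_879
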