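import Crest.Agent.R096.Tsk2_879
import Crest.Agent.R096.Pst4_465

/-!
# Row 96 (S0127), p = 2: lemma 2SK2 (helper879, for 753 #10340 [B]), part 3: unconditional

`Fam2.ofN`: `Fam2` from 565's literal interface (#10287 (i)-(v), field `N`).
`Fam2.two_sk2_final`: `two_sk2_ball` without `Step2`.
-/

set_option autoImplicit false
set_option linter.unusedSectionVars false

open Set Metric Topology Filter Module

namespace Crest.Agent.R096.Tsk_879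

open Crest.Agent.R096.Msh_715
open Crest.Agent.R096.Sk2_855 (sk1 HP Mv)
open Crest.Agent.R096.Pst_465

section

variable {E : Type*} [NormedAddCommGroup E] [NormedSpace ℝ E] [FiniteDimensional ℝ E]
  {Om La : Set E} {ι : Type*} {T : Tiling Om ι} {f : E → E} {J : Type*}

/-- `Fam2` from 565's literal interface -/
def Fam2.ofN {i : J → ι} {Y : J → Set E} {n : ℕ} {col : J → Fin n} (B : J → PBox T La)
    (hN : ∀ j, (B j).N = {x | T.cc x ⊆ P (T.H (i j))}) (θ : J → ℝ) (η : ℝ) (hη : 0 < η)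
    (hM : ∀ j j', j ≠ j' → ∀ k, Disjoint (B j).shell ((B j').M k))
    (hpat : ∀ j j', col j < col j' → Disjoint (B j).pat (B j').shell)
    (hθ : ∀ j, θ j ≤ (B j).t1)
    (hosc : ∀ j, ∀ S ⊆ ⋃ j', (B j').pat, IsPreconnected S → (∃ y ∈ S, (B j).t1 ≤ (B j).u y) →
      ∀ z ∈ S, θ j ≤ (B j).u z)
    (hOk : ∀ h : E → E, (∀ x ∈ Om, ‖h x - f x‖ ≤ η) → ∀ j, (B j).Ok h ∧ (B j).Sig h (θ j) ∧
      ∀ x ∈ Om, T.dim x = 2 → T.cc x ⊆ P (T.H (i j)) →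
        (B j).NC x ∧ ∀ z ∈ T.cc x, z ∈ sk1 T → (B j).u (h z) < (B j).a)
    (hY : ∀ j, {y | (B j).u y ≤ (B j).t1} ⊆ Y j)
    (hcol : ∀ j j', j ≠ j' → col j = col j' → Disjoint (Y j) (Y j')) :
    Fam2 T La f i Y col where
  B := B
  θ := θ
  η := η
  hη := hη
  hM := hM
  hpat := hpat
  hθ := hθ
  hthr := hosc
  ok := fun h hh j => ⟨(hOk h hh j).1, (hOk h hh j).2.1, fun x hx hd hF =>
    ⟨by rw [hN]; exact hF, hx, hd, (hOk h hh j).2.2 x hx hd hF⟩⟩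
  hY := hY
  hcol := hcol

end

variable {E : Type} [NormedAddCommGroup E] [NormedSpace ℝ E] [FiniteDimensional ℝ E]
  {Om La : Set E} {ι : Type} {T : Tiling Om ι} {f : E → E} {J : Type*}

/-- **2SK2**, unconditional -/
theorem Fam2.two_sk2_final {i : J → ι} {Y : J → Set E} {n : ℕ} {col : J → Fin n}
    (F : Fam2 T La f i Y col) (h3 : finrank ℝ E = 3) (hLa : IsOpen La) [Finite J]
    (happ : ∀ η > 0, ∃ h hi, HP Om La h hi ∧ ∀ x ∈ Om, ‖h x - f x‖ ≤ η)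
    {yc : ∀ j, Fin (F.B j).n → E} {r : ∀ j, Fin (F.B j).n → ℝ} (hr : ∀ j m, 0 < r j m)
    (hc : ∀ j m, (F.B j).c' m ⊆ closedBall (yc j m) (r j m)) {e : ℝ} (he : 0 < e) :
    ∃ Ψ : E ≃ₜ E, Mv T Ψ ∧
      (∀ x ∈ Om, T.dim x = 2 → ∀ z ∈ T.cc x, (∀ᶠ y in 𝓝 z, Ψ y = y) ∨
        ∃ j m, f (Ψ z) ∈ closedBall (yc j m) (2 * r j m) ∧
          ∃ w ∈ (F.B j).shell, w ∈ (F.B j).c' m ∧ ‖f (Ψ z) - w‖ ≤ e) ∧
      (∀ j (y0 : E) (R D : ℝ), 0 ≤ D → Y j ⊆ closedBall y0 R →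
        (∀ j', (Y j' ∩ closedBall y0 (R + n * D + e)).Nonempty →
          ∀ y ∈ Y j', ∀ y' ∈ Y j', ‖y - y'‖ ≤ D) →
        ∀ x ∈ P (T.H (i j)), ‖f (Ψ x) - y0‖ ≤ R + n * D + e) ∧
      (∀ k (y0 : E) (R D : ℝ), 0 ≤ D → (∀ x ∈ P (T.H k), T.dim x ≤ 2 → f x ∈ closedBall y0 R) →
        (∀ j', (Y j' ∩ closedBall y0 (R + n * D + e)).Nonempty →
          ∀ y ∈ Y j', ∀ y' ∈ Y j', ‖y - y'‖ ≤ D) →
        ∀ x ∈ P (T.H k), ‖f (Ψ x) - y0‖ ≤ R + n * D + e) ∧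
      (∀ x ∈ Om, T.dim x = 2 → ∀ (y0 : E) (R D : ℝ), 0 ≤ D →
        (∀ z ∈ T.cc x, f z ∈ closedBall y0 R) →
        (∀ j', (Y j' ∩ closedBall y0 (R + n * D + e)).Nonempty →
          ∀ y ∈ Y j', ∀ y' ∈ Y j', ‖y - y'‖ ≤ D) →
        ∀ z ∈ T.cc x, ‖f (Ψ z) - y0‖ ≤ R + n * D + e) :=
  F.two_sk2_ball h3 hLa (step2_final h3 T) happ hr hc he

end Crest.Agent.R096.Tsk_879
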