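import Crest.Agent.R096.Tsk1_879
import Crest.Agent.R096.Pst3_465

/-!
# Row 96 (S0127), p = 2: the colour-specific growth clause (helper879, for 855 #10997), part 1

`reach_sorted`: a list sorted by colours, the chain `Z` absorbs at step `m` only the bodies of
colour `m`.  `iterate2_colC`: 465's `iterate2_col'` with this clause.
-/

set_option autoImplicit false
set_option linter.unusedSectionVars false

open Set Metric Topology Filter Module

namespace Crest.Agent.R096.Tsk_879

open Crest.Agent.R096.Msh_715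
open Crest.Agent.R096.Sk2_855
open Crest.Agent.R096.Pst_465

section Reach

variable {E : Type*} [NormedAddCommGroup E] [NormedSpace ℝ E]

/-- **a list sorted by colours**, colour-specific clause -/
theorem reach_sorted {J : Type*} (Y : J → Set E) (col : J → ℕ) {n : ℕ} (hn : ∀ j, col j < n)
    (Z : ℕ → Set E) (hZ : ∀ m, Z m ⊆ Z (m + 1))
    (hZY : ∀ m < n, ∀ j, col j = m → (Z m ∩ Y j).Nonempty → Y j ⊆ Z (m + 1)) :
    ∀ L : List J, L.Pairwise (fun j j' => col j ≤ col j' ∧ (col j = col j' → Disjoint (Y j) (Y j'))) →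
    ∀ (c : ℕ) (S W : Set E), c ≤ n → S ⊆ Z c ∪ W → W ⊆ Z (c + 1) → W ⊆ Z n →
    (∀ j ∈ L, c ≤ col j ∧ (col j = c → Disjoint W (Y j))) → reach S (L.map Y) ⊆ Z n := by
  have hmono : ∀ {a b : ℕ}, a ≤ b → Z a ⊆ Z b := fun h => monotone_nat_of_le_succ hZ h
  intro L
  induction L with
  | nil =>
    intro _ c S W hc hS _ hW _
    exact hS.trans (union_subset (hmono hc) hW)
  | cons j L ih =>
    intro hp c S W hc hS hW1 hWn hL
    rw [List.pairwise_cons] at hp
    obtain ⟨hcj, hdj⟩ := hL j List.mem_cons_self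
    have hex : ∃ W0, S ⊆ Z (col j) ∪ W0 ∧ W0 ⊆ Z (col j + 1) ∧ W0 ⊆ Z n ∧
        ∀ i ∈ j :: L, col i = col j → Disjoint W0 (Y i) := by
      rcases hcj.eq_or_lt with h1 | h1
      · refine ⟨W, by rw [← h1]; exact hS, by rw [← h1]; exact hW1, hWn, fun i hi e => ?_⟩
        exact (hL i hi).2 (by rw [e, h1])
      · refine ⟨∅, ?_, empty_subset _, empty_subset _, fun i _ _ => empty_disjoint _⟩
        rw [union_empty]
        exact hS.trans (union_subset (hmono hcj) (hW1.trans (hmono h1)))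
    obtain ⟨W0, k1, k2, k3, k4⟩ := hex
    have hb : {y | y ∈ Y j ∧ (Z (col j) ∩ Y j).Nonempty} ⊆ Z (col j + 1) := by
      rintro y ⟨hy, hne⟩
      exact hZY _ (hn j) j rfl hne hy
    rw [List.map_cons]
    show reach (grow S (Y j)) (L.map Y) ⊆ Z n
    refine ih hp.2 (col j) _ (W0 ∪ {y | y ∈ Y j ∧ (Z (col j) ∩ Y j).Nonempty}) (hn j).le ?_
      (union_subset k2 hb) (union_subset k3 (hb.trans (hmono (hn j)))) fun i hi => ?_
    · rintro y (hy | ⟨hy, z, hz, hzY⟩)
      · rcases k1 hy with h1 | h1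
        · exact Or.inl h1
        · exact Or.inr (Or.inl h1)
      · rcases k1 hz with h1 | h1
        · exact Or.inr (Or.inr ⟨hy, z, h1, hzY⟩)
        · exact absurd hzY (disjoint_left.1 (k4 j List.mem_cons_self rfl) h1)
    · obtain ⟨h1, h2⟩ := hp.1 i hi
      refine ⟨h1, fun e => ?_⟩
      refine disjoint_union_left.2 ⟨k4 i (List.mem_cons_of_mem _ hi) e, ?_⟩
      exact (h2 e.symm).mono_left fun y hy => hy.1

/-- a list of all indices, sorted by colours -/
theorem exists_sorted {J : Type*} [Finite J] {n : ℕ} (col : J → Fin n) :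
    ∃ L : List J, (∀ j, j ∈ L) ∧ L.Pairwise (fun j j' => j ≠ j' ∧ col j ≤ col j') := by
  classical
  cases nonempty_fintype J
  let cl : Fin n → List J := fun c => (Finset.univ.filter fun j => col j = c).toList
  let cls : List (List J) := (List.finRange n).map cl
  have hmemcl : ∀ c j, j ∈ cl c ↔ col j = c := by
    intro c j
    simp only [cl, Finset.mem_toList, Finset.mem_filter, Finset.mem_univ, true_and]
  refine ⟨cls.flatten, fun j => ?_, ?_⟩
  · rw [List.mem_flatten]
    exact ⟨_, List.mem_map.2 ⟨col j, List.mem_finRange _, rfl⟩, (hmemcl _ _).2 rfl⟩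
  · rw [List.pairwise_flatten]
    refine ⟨fun l hl => ?_, ?_⟩
    · obtain ⟨c, -, rfl⟩ := List.mem_map.1 hl
      have h1 : (cl c).Pairwise (fun j j' => j ≠ j') := Finset.nodup_toList _
      refine h1.imp_of_mem ?_
      intro j j' hj hj' hne
      rw [hmemcl] at hj hj'
      exact ⟨hne, by rw [hj, hj']⟩
    · rw [List.pairwise_map]
      refine (List.pairwise_lt_finRange n).imp ?_
      intro c c' hcc j hj j' hj'
      rw [hmemcl] at hj hj'
      refine ⟨?_, by rw [hj, hj']; exact hcc.le⟩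
      rintro rfl
      rw [hj] at hj'
      exact hcc.ne hj'

end Reach

variable {E : Type*} [NormedAddCommGroup E] [NormedSpace ℝ E] {Om La : Set E} {ι : Type*}

/-- the conclusion of the iteration for one map `h`, colour-specific growth clause -/
structure Out2C (T : Tiling Om ι) {J : Type*} (B : J → PBox T La) {n : ℕ} (col : J → Fin n)
    (h : E → E) (Ψ : E ≃ₜ E) : Prop where
  mv : Mv T Ψ
  nr : Near T h Ψ (⋃ j, (B j).pat)
  gr : ∀ Z : ℕ → Set E, (∀ m, Z m ⊆ Z (m + 1)) →
    (∀ m < n, ∀ j, (col j : ℕ) = m → (Z m ∩ (B j).Y).Nonempty → (B j).Y ⊆ Z (m + 1)) →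
    (∀ x ∈ Om, T.dim x = 2 → h '' T.cc x ⊆ Z 0 → h '' (Ψ '' T.cc x) ⊆ Z n) ∧
    (∀ j, (B j).Y1 ⊆ Z (col j) → ∀ x, (B j).Own h x → h '' (Ψ '' T.cc x) ⊆ Z n)

/-- **many boxes with patches, with colours**, colour-specific growth clause -/
theorem iterate2_colC {T : Tiling Om ι} (hS : Step2 T La) {J : Type*} [Finite J]
    (B : J → PBox T La) {n : ℕ} (col : J → Fin n)
    (hcol : ∀ j j', j ≠ j' → col j = col j' → Disjoint (B j).Y (B j').Y)
    (hM : ∀ j j', j ≠ j' → ∀ k, Disjoint (B j).shell ((B j').M k))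
    (hpat : ∀ i j, col i < col j → Disjoint (B i).pat (B j).shell)
    {h hi : E → E} (H : HP Om La h hi) (hOk : ∀ j, (B j).Ok h)
    (θ : J → ℝ) (hθ : ∀ j, θ j ≤ (B j).t1)
    (hosc : ∀ j, Thr (B j).u (⋃ i, (B i).pat) (B j).t1 (θ j))
    (hSig : ∀ j, (B j).Sig h (θ j)) :
    ∃ Ψ : E ≃ₜ E, Out2C T B col h Ψ := by
  have hrel : ∀ j j', j ≠ j' → col j ≤ col j' → Rel (B j) (B j') := by
    intro i j hne hle
    have hps : (B i).pat ⊆ (B i).shell := inter_subset_left
    refine ⟨?_, fun k => (hM i j hne k).mono_left hps⟩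
    rcases hle.lt_or_eq with h1 | h1
    · exact hpat i j h1
    · exact (hcol i j hne h1).mono (hps.trans (B i).shell_sub_Y) (B j).shell_sub_Y
  obtain ⟨L, hmem, hpw⟩ := exists_sorted col
  obtain ⟨Ψ, hΨ, g0, g1, g2⟩ := iterate2' hS H B (PP := ⋃ j, (B j).pat) θ L
    (hpw.imp fun hne => hrel _ _ hne.1 hne.2)
    (fun j _ => ⟨hOk j, subset_iUnion (fun j => (B j).pat) j, hosc j, hθ j, hSig j⟩)
    (Homeomorph.refl E) ∅ Mv.refl (empty_subset _)
    (fun x _ _ z _ => Or.inl (Eventually.of_forall fun _ => rfl))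
    (fun b _ => ⟨empty_disjoint _, fun k => empty_disjoint _⟩)
  have hrefl : ∀ s : Set E, h '' ((Homeomorph.refl E) '' s) = h '' s := by
    intro s
    have : (Homeomorph.refl E) '' s = s := by ext z; simp
    rw [this]
  have hpw' : L.Pairwise (fun j j' => (col j : ℕ) ≤ col j' ∧
      ((col j : ℕ) = col j' → Disjoint (B j).Y (B j').Y)) :=
    hpw.imp fun {j j'} hne => ⟨hne.2, fun e => hcol j j' hne.1 (Fin.ext e)⟩
  refine ⟨Ψ, hΨ, fun x hx hd z hz => ?_, fun Z hZ hZY => ⟨fun x hx hd h0 => ?_,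
    fun j hj x hOwn => ?_⟩⟩
  · refine (g0 x hx hd z hz).imp_right ?_
    rintro (q | ⟨j, hb, q⟩)
    · exact absurd q (notMem_empty _)
    · exact mem_iUnion.2 ⟨j, q⟩
  · refine (g1 x hx hd).trans ?_
    exact reach_sorted (fun j => (B j).Y) (fun j => (col j : ℕ)) (fun j => (col j).2) Z hZ hZY L
      hpw' 0 _ ∅ (Nat.zero_le _) (by rw [hrefl, union_empty]; exact h0) (empty_subset _)
      (empty_subset _) fun i _ => ⟨Nat.zero_le _, fun _ => empty_disjoint _⟩
  · obtain ⟨m1, m2, e⟩ := List.append_of_mem (hmem j)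
    refine (g2 m1 j m2 e x hOwn).trans ?_
    rw [e, List.pairwise_append, List.pairwise_cons] at hpw'
    exact reach_sorted (fun j => (B j).Y) (fun j => (col j : ℕ)) (fun j => (col j).2) Z hZ hZY m2
      hpw'.2.1.2 (col j) _ ∅ (col j).2.le (by rw [union_empty]; exact hj) (empty_subset _)
      (empty_subset _) fun i hi => ⟨(hpw'.2.1.1 i hi).1, fun _ => empty_disjoint _⟩

end Crest.Agent.R096.Tsk_879
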