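import Crest.Agent.R096.Tsk5_879
import Crest.Agent.R096.Tsk2_879

/-!
# Row 96 (S0127), p = 2: the colour-specific growth clause (helper879, for 855 #10997), part 2

`Out2C.tiles`, `Out2C.near`: set form and metric form; the diameters of the bodies of colour `m`
are at most `D m`, the growth is `∑ m < n, D m`.  `Fam2.two_sk2C`: the end of the chain.
-/

set_option autoImplicit false
set_option linter.unusedSectionVars false

open Set Metric Topology Filter Module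

namespace Crest.Agent.R096.Tsk_879

open Crest.Agent.R096.Msh_715
open Crest.Agent.R096.Sk2_855 (sk1 HP Mv)
open Crest.Agent.R096.Pst_465
open Crest.Agent.R096.Sk3_270 (capture_tile exists_min)

variable {E : Type*} [NormedAddCommGroup E] [NormedSpace ℝ E] {Om La : Set E} {ι : Type*}

/-- the growth clauses (C0), colour-specific: `D m` bounds the diameters of the bodies of colour
`m` near the ball -/
def GrowC (T : Tiling Om ι) (f : E → E) {J : Type*} (i : J → ι) (Y : J → Set E) {n : ℕ}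
    (col : J → Fin n) (e : ℝ) (Ψ : E ≃ₜ E) : Prop :=
  (∀ j (y0 : E) (R : ℝ) (D : ℕ → ℝ), (∀ m, 0 ≤ D m) → Y j ⊆ closedBall y0 R →
    (∀ j', (Y j' ∩ closedBall y0 (R + ∑ m ∈ Finset.range n, D m + e)).Nonempty →
      ∀ y ∈ Y j', ∀ y' ∈ Y j', ‖y - y'‖ ≤ D (col j')) →
    ∀ x ∈ P (T.H (i j)), ‖f (Ψ x) - y0‖ ≤ R + ∑ m ∈ Finset.range n, D m + e) ∧
  (∀ k (y0 : E) (R : ℝ) (D : ℕ → ℝ), (∀ m, 0 ≤ D m) →
    (∀ x ∈ P (T.H k), T.dim x ≤ 2 → f x ∈ closedBall y0 R) →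
    (∀ j', (Y j' ∩ closedBall y0 (R + ∑ m ∈ Finset.range n, D m + e)).Nonempty →
      ∀ y ∈ Y j', ∀ y' ∈ Y j', ‖y - y'‖ ≤ D (col j')) →
    ∀ x ∈ P (T.H k), ‖f (Ψ x) - y0‖ ≤ R + ∑ m ∈ Finset.range n, D m + e) ∧
  (∀ x ∈ Om, T.dim x = 2 → ∀ (y0 : E) (R : ℝ) (D : ℕ → ℝ), (∀ m, 0 ≤ D m) →
    (∀ z ∈ T.cc x, f z ∈ closedBall y0 R) →
    (∀ j', (Y j' ∩ closedBall y0 (R + ∑ m ∈ Finset.range n, D m + e)).Nonempty →
      ∀ y ∈ Y j', ∀ y' ∈ Y j', ‖y - y'‖ ≤ D (col j')) →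
    ∀ z ∈ T.cc x, ‖f (Ψ z) - y0‖ ≤ R + ∑ m ∈ Finset.range n, D m + e)

variable [FiniteDimensional ℝ E] {T : Tiling Om ι} {f : E → E} {J : Type*} {B : J → PBox T La}
  {n : ℕ} {col : J → Fin n} {h hi : E → E} {Ψ : E ≃ₜ E} {Y : J → Set E}

theorem GrowC.mono {i : J → ι} {e e' : ℝ} (h : GrowC T f i Y col e Ψ) (he : e ≤ e') :
    GrowC T f i Y col e' Ψ := by
  have hb : ∀ (y0 : E) (R s : ℝ), closedBall y0 (R + s + e) ⊆
      closedBall y0 (R + s + e') := fun y0 R s => closedBall_subset_closedBall (by linarith)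
  obtain ⟨k3, k4, k5⟩ := h
  refine ⟨fun j y0 R D hD hj hdi x hx => ?_,
    fun k y0 R D hD hj hdi x hx => ?_, fun x hx hd y0 R D hD hj hdi z hz => ?_⟩
  · have := k3 j y0 R D hD hj (fun j' hj' => hdi j'
      (hj'.mono (inter_subset_inter_right _ (hb y0 R _)))) x hx
    linarith
  · have := k4 k y0 R D hD hj (fun j' hj' => hdi j'
      (hj'.mono (inter_subset_inter_right _ (hb y0 R _)))) x hx
    linarith
  · have := k5 x hx hd y0 R D hD hj (fun j' hj' => hdi j'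
      (hj'.mono (inter_subset_inter_right _ (hb y0 R _)))) z hz
    linarith

/-- the set form -/
theorem Out2C.tiles (O : Out2C T B col h Ψ) (h3 : finrank ℝ E = 3) (hLa : IsOpen La)
    (H : HP Om La h hi) (i : J → ι) (hY : ∀ j, (B j).Y ⊆ Y j) (hY1 : ∀ j, (B j).Y1 ⊆ Y j)
    (hOwn : ∀ j, ∀ x ∈ Om, T.dim x = 2 → T.cc x ⊆ P (T.H (i j)) → (B j).Own h x)
    (Z : ℕ → Set E) (hZ : ∀ m, Z m ⊆ Z (m + 1))
    (hZY : ∀ m < n, ∀ j, (col j : ℕ) = m → (Z m ∩ Y j).Nonempty → Y j ⊆ Z (m + 1))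
    (hC : Convex ℝ (Z n)) (hCc : IsClosed (Z n)) :
    (∀ j, Y j ⊆ Z (col j) → ∀ x ∈ P (T.H (i j)), h (Ψ x) ∈ Z n) ∧
    (∀ k, (∀ x ∈ P (T.H k), T.dim x ≤ 2 → h x ∈ Z 0) → ∀ x ∈ P (T.H k), h (Ψ x) ∈ Z n) ∧
    (∀ x ∈ Om, T.dim x = 2 → h '' T.cc x ⊆ Z 0 → ∀ z ∈ T.cc x, h (Ψ z) ∈ Z n) := by
  obtain ⟨g1, g2⟩ := O.gr Z hZ fun m hm j hj hne =>
    (hY j).trans (hZY m hm j hj (hne.mono (inter_subset_inter_right _ (hY j))))
  refine ⟨fun j hj => capture_tile h3 H hLa O.mv (i j) hC hCc fun y hy hyd hyi =>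
    g2 j ((hY1 j).trans hj) y (hOwn j y hy hyd hyi), fun k hk =>
      capture_tile h3 H hLa O.mv k hC hCc fun y hy hyd hyi => ?_, fun x hx hd h0 z hz =>
        g1 x hx hd h0 ⟨Ψ z, ⟨z, hz, rfl⟩, rfl⟩⟩
  refine g1 y hy hyd ?_
  rintro _ ⟨x, hx, rfl⟩
  refine hk x (hyi hx) ?_
  have h1 : T.dim x ≤ T.dim y := T.dim_le hx
  omega

/-- the metric form for a map `f` near `h` -/
theorem Out2C.near (O : Out2C T B col h Ψ) (h3 : finrank ℝ E = 3) (hLa : IsOpen La)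
    (H : HP Om La h hi) (i : J → ι) (hY : ∀ j, (B j).Y ⊆ Y j) (hY1 : ∀ j, (B j).Y1 ⊆ Y j)
    (hOwn : ∀ j, ∀ x ∈ Om, T.dim x = 2 → T.cc x ⊆ P (T.H (i j)) → (B j).Own h x)
    {e : ℝ} (he : 0 ≤ e) (hh : ∀ x ∈ Om, ‖h x - f x‖ ≤ e / 2) : GrowC T f i Y col e Ψ := by
  -- balls
  have key : ∀ (y0 : E) (R : ℝ) (D : ℕ → ℝ), (∀ m, 0 ≤ D m) →
      (∀ j', (Y j' ∩ closedBall y0 (R + ∑ m ∈ Finset.range n, D m)).Nonempty →
        ∀ y ∈ Y j', ∀ y' ∈ Y j', ‖y - y'‖ ≤ D (col j')) →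
      (∀ j, Y j ⊆ closedBall y0 R → ∀ x ∈ P (T.H (i j)),
        ‖h (Ψ x) - y0‖ ≤ R + ∑ m ∈ Finset.range n, D m) ∧
      (∀ k, (∀ x ∈ P (T.H k), T.dim x ≤ 2 → h x ∈ closedBall y0 R) →
        ∀ x ∈ P (T.H k), ‖h (Ψ x) - y0‖ ≤ R + ∑ m ∈ Finset.range n, D m) ∧
      (∀ x ∈ Om, T.dim x = 2 → (∀ z ∈ T.cc x, h z ∈ closedBall y0 R) →
        ∀ z ∈ T.cc x, ‖h (Ψ z) - y0‖ ≤ R + ∑ m ∈ Finset.range n, D m) := by
    intro y0 R D hD hdiam
    have hs : ∀ {a b : ℕ}, a ≤ b → ∑ m ∈ Finset.range a, D m ≤ ∑ m ∈ Finset.range b, D m :=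
      fun {a b} hab => Finset.sum_le_sum_of_subset_of_nonneg (Finset.range_mono hab)
        fun m _ _ => hD m
    obtain ⟨g1, g2, g3⟩ := O.tiles h3 hLa H i hY hY1 hOwn
      (fun m => closedBall y0 (R + ∑ k ∈ Finset.range m, D k))
      (by
        intro m
        refine closedBall_subset_closedBall ?_
        have := hs (Nat.le_succ m)
        simp only [Nat.succ_eq_add_one] at this
        linarith)
      (by
        rintro m hm j' hjm ⟨y', hy'', hy'⟩ y hy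
        have hmn := hs hm.le
        have h1 := hdiam j' ⟨y', hy', closedBall_subset_closedBall (by linarith) hy''⟩ y hy y' hy'
        have h2 : ‖y' - y0‖ ≤ R + ∑ k ∈ Finset.range m, D k := by
          rw [← dist_eq_norm]; exact hy''
        show y ∈ closedBall y0 (R + ∑ k ∈ Finset.range (m + 1), D k)
        rw [mem_closedBall, dist_eq_norm, Finset.sum_range_succ]
        have e1 : y - y0 = (y - y') + (y' - y0) := by abel
        rw [e1]
        refine (norm_add_le _ _).trans ?_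
        rw [hjm] at h1
        linarith)
      (convex_closedBall _ _) isClosed_closedBall
    refine ⟨fun j hj x hx => ?_, fun k hk x hx => ?_, fun x hx hd hk z hz => ?_⟩
    · have := g1 j (hj.trans (closedBall_subset_closedBall (by
        have h0 : 0 ≤ ∑ k ∈ Finset.range (col j : ℕ), D k :=
          Finset.sum_nonneg fun m _ => hD m
        linarith))) x hx
      rwa [mem_closedBall, dist_eq_norm] at this
    · have := g2 k (by simpa using hk) x hx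
      rwa [mem_closedBall, dist_eq_norm] at this
    · have := g3 x hx hd (by
        rintro _ ⟨w, hw, rfl⟩
        simpa using hk w hw) z hz
      rwa [mem_closedBall, dist_eq_norm] at this
  have hfΨ : ∀ x ∈ Om, ∀ y0 : E, ‖f (Ψ x) - y0‖ ≤ ‖h (Ψ x) - y0‖ + e / 2 := by
    intro x hx y0
    have h1 := hh (Ψ x) (O.mv.mapsTo hx)
    have e1 : f (Ψ x) - y0 = (h (Ψ x) - y0) - (h (Ψ x) - f (Ψ x)) := by abel
    rw [e1]
    exact (norm_sub_le _ _).trans (by linarith)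
  have hfh : ∀ x ∈ Om, ∀ (y0 : E) (R : ℝ), f x ∈ closedBall y0 R →
      h x ∈ closedBall y0 (R + e / 2) := by
    intro z hz y0 R h4
    have h5 := hh z hz
    rw [mem_closedBall, dist_eq_norm] at h4 ⊢
    have e1 : h z - y0 = (h z - f z) + (f z - y0) := by abel
    rw [e1]
    exact (norm_add_le _ _).trans (by linarith)
  refine ⟨fun j y0 R D hD hj hdiam x hx => ?_, fun k y0 R D hD hk hdiam x hx => ?_,
    fun x hx hd y0 R D hD hk hdiam z hz => ?_⟩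
  · have h1 := (key y0 R D hD fun j' hj' => hdiam j' (hj'.mono (inter_subset_inter_right _
      (closedBall_subset_closedBall (by linarith))))).1 j hj x hx
    have h2 := hfΨ x (T.sub _ hx) y0
    linarith
  · have h1 := (key y0 (R + e / 2) D hD fun j' hj' => hdiam j' (hj'.mono
      (inter_subset_inter_right _ (closedBall_subset_closedBall (by linarith))))).2.1 k
      (fun z hz hzd => hfh z (T.sub _ hz) y0 R (hk z hz hzd)) x hx
    have h2 := hfΨ x (T.sub _ hx) y0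
    linarith
  · have h1 := (key y0 (R + e / 2) D hD fun j' hj' => hdiam j' (hj'.mono
      (inter_subset_inter_right _ (closedBall_subset_closedBall (by linarith))))).2.2 x hx hd
      (fun w hw => hfh w (T.cc_sub_Om hx hw) y0 R (hk w hw)) z hz
    have h2 := hfΨ z (T.cc_sub_Om hx hz) y0
    linarith

/-- the points of the faces: `Ψ` is the identity nearby, or the image is near a patch of a shell -/
theorem Out2C.patch (O : Out2C T B col h Ψ) {e : ℝ} (hh : ∀ x ∈ Om, ‖h x - f x‖ ≤ e) {x : E}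
    (hx : x ∈ Om) (hd : T.dim x = 2) {z : E} (hz : z ∈ T.cc x) :
    (∀ᶠ y in 𝓝 z, Ψ y = y) ∨
      ∃ j m, ∃ w ∈ (B j).shell, w ∈ (B j).c' m ∧ ‖f (Ψ z) - w‖ ≤ e := by
  refine (O.nr x hx hd z hz).imp_right fun h1 => ?_
  obtain ⟨j, hj⟩ := mem_iUnion.1 h1
  obtain ⟨h2, h4⟩ := hj
  obtain ⟨m, hm⟩ := mem_iUnion.1 h4
  refine ⟨j, m, h (Ψ z), h2, hm, ?_⟩
  rw [norm_sub_rev]
  exact hh _ (O.mv.mapsTo (T.cc_sub_Om hx hz))

namespace Fam2

variable {i : J → ι} (F : Fam2 T La f i Y col)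

/-- one map `h`, colour-specific -/
theorem outC (hS : Step2 T La) [Finite J] {h hi : E → E} (H : HP Om La h hi)
    (hh : ∀ x ∈ Om, ‖h x - f x‖ ≤ F.η) : ∃ Ψ : E ≃ₜ E, Out2C T F.B col h Ψ :=
  iterate2_colC hS F.B col
    (fun j j' hne e => (F.hcol j j' hne e).mono (F.Y_sub j) (F.Y_sub j')) F.hM F.hpat H
    (fun j => (F.ok h hh j).1) F.θ F.hθ F.hthr (fun j => (F.ok h hh j).2.1)

/-- **2SK2 for a finite family of tiles, colour-specific growth** -/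
theorem two_sk2C (h3 : finrank ℝ E = 3) (hLa : IsOpen La) (hS : Step2 T La) [Finite J]
    (happ : ∀ η > 0, ∃ h hi, HP Om La h hi ∧ ∀ x ∈ Om, ‖h x - f x‖ ≤ η) {e : ℝ} (he : 0 < e) :
    ∃ Ψ : E ≃ₜ E, Mv T Ψ ∧
      (∀ x ∈ Om, T.dim x = 2 → ∀ z ∈ T.cc x, (∀ᶠ y in 𝓝 z, Ψ y = y) ∨
        ∃ j m, ∃ w ∈ (F.B j).shell, w ∈ (F.B j).c' m ∧ ‖f (Ψ z) - w‖ ≤ e) ∧
      GrowC T f i Y col e Ψ := by
  obtain ⟨h, hi, H, hh⟩ := happ (min F.η (e / 2)) (lt_min F.hη (by positivity))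
  have hh1 : ∀ x ∈ Om, ‖h x - f x‖ ≤ F.η := fun x hx => (hh x hx).trans (min_le_left _ _)
  have hh2 : ∀ x ∈ Om, ‖h x - f x‖ ≤ e / 2 := fun x hx => (hh x hx).trans (min_le_right _ _)
  obtain ⟨Ψ, O⟩ := F.outC hS H hh1
  exact ⟨Ψ, O.mv, fun x hx hd z hz => O.patch (fun y hy => (hh2 y hy).trans (by linarith)) hx hd hz,
    O.near h3 hLa H i F.Y_sub F.Y1_sub (fun j => (F.ok h hh1 j).2.2) he.le hh2⟩

end Fam2

end Crest.Agent.R096.Tsk_879
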