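import Mathlib

/-!
Target squeeze (row 96, p = 2): a homeomorphism of `EuclideanSpace ℝ ι` with Lipschitz constant
close to one, close to the identity, which contracts a finite family of boxes of small total
width by an arbitrarily small factor.
-/

set_option autoImplicit false
set_option linter.unusedSectionVars false
set_option linter.unusedVariables false
set_option linter.unusedSimpArgs false

open MeasureTheory Set
open scoped NNReal ENNReal

namespace Crest.Agent.R096.Tsq_753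

section one

/-- length of the part of `P` to the left of `x` -/
noncomputable def ml (P : Set ℝ) (x : ℝ) : ℝ := (volume (P ∩ Iic x)).toReal

variable {P : Set ℝ}

theorem ml_nonneg (x : ℝ) : 0 ≤ ml P x := ENNReal.toReal_nonneg

theorem ml_le {σ : ℝ} (hσ : 0 ≤ σ) (hP : volume P ≤ ENNReal.ofReal σ) (x : ℝ) : ml P x ≤ σ := by
  unfold ml
  have h : volume (P ∩ Iic x) ≤ ENNReal.ofReal σ := (measure_mono inter_subset_left).trans hP
  exact ENNReal.toReal_le_of_le_ofReal hσ h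

theorem ml_diff (hPf : volume P ≠ ⊤) {x y : ℝ} (hxy : x ≤ y) :
    ml P y - ml P x = (volume (P ∩ Ioc x y)).toReal := by
  unfold ml
  have e : P ∩ Iic y = (P ∩ Iic x) ∪ (P ∩ Ioc x y) := by
    rw [← inter_union_distrib_left, Iic_union_Ioc_eq_Iic hxy]
  have hd : Disjoint (P ∩ Iic x) (P ∩ Ioc x y) :=
    (Iic_disjoint_Ioc le_rfl).mono inter_subset_right inter_subset_right
  have hfin : ∀ S : Set ℝ, volume (P ∩ S) ≠ ⊤ := fun S =>
    ne_top_of_le_ne_top hPf (measure_mono inter_subset_left)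
  have h1 : volume (P ∩ Iic y) = volume (P ∩ Iic x) + volume (P ∩ Ioc x y) := by
    have hm : MeasurableSet (Iic x : Set ℝ) := measurableSet_Iic
    have := measure_inter_add_sdiff (μ := volume) (P ∩ Iic y) hm
    have a1 : P ∩ Iic y ∩ Iic x = P ∩ Iic x := by
      rw [inter_assoc, Iic_inter_Iic, min_eq_right hxy]
    have a2 : (P ∩ Iic y) \ Iic x = P ∩ Ioc x y := by
      ext z; simp only [mem_sdiff, mem_inter_iff, mem_Iic, mem_Ioc, not_le]; tauto
    rw [a1, a2] at this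
    exact this.symm
  rw [h1, ENNReal.toReal_add (hfin _) (hfin _)]
  ring

theorem ml_mono_diff (hPf : volume P ≠ ⊤) {x y : ℝ} (hxy : x ≤ y) :
    0 ≤ ml P y - ml P x ∧ ml P y - ml P x ≤ y - x := by
  rw [ml_diff hPf hxy]
  refine ⟨ENNReal.toReal_nonneg, ?_⟩
  have h : volume (P ∩ Ioc x y) ≤ ENNReal.ofReal (y - x) := by
    refine (measure_mono inter_subset_right).trans ?_
    rw [Real.volume_Ioc]
  exact ENNReal.toReal_le_of_le_ofReal (by linarith) h

theorem ml_full (hPf : volume P ≠ ⊤) {x y : ℝ} (hxy : x ≤ y) (h : Ioc x y ⊆ P) :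
    ml P y - ml P x = y - x := by
  rw [ml_diff hPf hxy, inter_eq_self_of_subset_right h, Real.volume_Ioc,
    ENNReal.toReal_ofReal (by linarith)]

/-- the difference of `ml` at two points is a multiple of the difference of the points -/
theorem ml_theta (hPf : volume P ≠ ⊤) (x y : ℝ) :
    ∃ θ : ℝ, 0 ≤ θ ∧ θ ≤ 1 ∧ ml P x - ml P y = θ * (x - y) := by
  rcases lt_trichotomy x y with h | h | h
  · obtain ⟨h1, h2⟩ := ml_mono_diff hPf h.le
    refine ⟨(ml P y - ml P x) / (y - x), div_nonneg h1 (by linarith), ?_, ?_⟩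
    · rw [div_le_one (by linarith)]; exact h2
    · have : y - x ≠ 0 := by linarith
      field_simp
      ring
  · exact ⟨0, le_rfl, zero_le_one, by simp [h]⟩
  · obtain ⟨h1, h2⟩ := ml_mono_diff hPf h.le
    refine ⟨(ml P x - ml P y) / (x - y), div_nonneg h1 (by linarith), ?_, ?_⟩
    · rw [div_le_one (by linarith)]; exact h2
    · have : x - y ≠ 0 := by linarith
      field_simp

end one

section vec

variable {ι : Type*} [Fintype ι]

local notation "E" => EuclideanSpace ℝ ι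

theorem norm_le_coord {v w : EuclideanSpace ℝ ι} {c : ℝ} (hc : 0 ≤ c)
    (h : ∀ a, |v a| ≤ c * |w a|) : ‖v‖ ≤ c * ‖w‖ := by
  rw [EuclideanSpace.norm_eq, EuclideanSpace.norm_eq]
  have h1 : ∑ i, ‖v i‖ ^ 2 ≤ c ^ 2 * ∑ i, ‖w i‖ ^ 2 := by
    rw [Finset.mul_sum]
    refine Finset.sum_le_sum fun i _ => ?_
    rw [← mul_pow]
    exact pow_le_pow_left₀ (norm_nonneg _) (h i) 2
  calc √(∑ i, ‖v i‖ ^ 2) ≤ √(c ^ 2 * ∑ i, ‖w i‖ ^ 2) := Real.sqrt_le_sqrt h1
    _ = c * √(∑ i, ‖w i‖ ^ 2) := by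
        rw [Real.sqrt_mul (sq_nonneg c), Real.sqrt_sq hc]

theorem norm_le_const {v : EuclideanSpace ℝ ι} {c : ℝ} (hc : 0 ≤ c) (h : ∀ a, |v a| ≤ c) :
    ‖v‖ ≤ Fintype.card ι * c := by
  rw [EuclideanSpace.norm_eq]
  rw [Real.sqrt_le_left (by positivity)]
  have h1 : ∑ i, ‖v i‖ ^ 2 ≤ ∑ _i : ι, c ^ 2 :=
    Finset.sum_le_sum fun i _ => pow_le_pow_left₀ (norm_nonneg _) (h i) 2
  refine h1.trans ?_
  rw [Finset.sum_const, Finset.card_univ, nsmul_eq_mul, mul_pow]
  rcases Nat.eq_zero_or_pos (Fintype.card ι) with h0 | h0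
  · simp [h0]
  · have : (1 : ℝ) ≤ Fintype.card ι := by exact_mod_cast h0
    have h2 : (Fintype.card ι : ℝ) ≤ (Fintype.card ι : ℝ) ^ 2 := by nlinarith
    exact mul_le_mul_of_nonneg_right h2 (sq_nonneg c)

/-- displacement of one step -/
noncomputable def psi (P : ι → Set ℝ) (y : EuclideanSpace ℝ ι) : EuclideanSpace ℝ ι :=
  WithLp.toLp 2 (fun a => -(ml (P a) (y a) / 2))

@[simp] theorem psi_apply (P : ι → Set ℝ) (y : EuclideanSpace ℝ ι) (a : ι) :
    psi P y a = -(ml (P a) (y a) / 2) := rfl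

/-- one step -/
noncomputable def stp (χ : EuclideanSpace ℝ ι → ℝ) (P : ι → Set ℝ) (y : EuclideanSpace ℝ ι) :
    EuclideanSpace ℝ ι := y + χ y • psi P y

variable {χ : EuclideanSpace ℝ ι → ℝ} {P : ι → Set ℝ} {σ L : ℝ}

theorem norm_psi (hσ : 0 ≤ σ) (hP : ∀ a, volume (P a) ≤ ENNReal.ofReal σ)
    (y : EuclideanSpace ℝ ι) : ‖psi P y‖ ≤ Fintype.card ι * (σ / 2) := by
  refine norm_le_const (by linarith) fun a => ?_
  rw [psi_apply, abs_neg, abs_of_nonneg (div_nonneg (ml_nonneg _) zero_le_two)]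
  linarith [ml_le hσ (hP a) (y a)]

theorem fin_of {a : ι} (hP : ∀ a, volume (P a) ≤ ENNReal.ofReal σ) : volume (P a) ≠ ⊤ :=
  ne_top_of_le_ne_top ENNReal.ofReal_ne_top (hP a)

/-- the three estimates for one step -/
theorem stp_est (hσ : 0 ≤ σ) (hP : ∀ a, volume (P a) ≤ ENNReal.ofReal σ)
    (h01 : ∀ y, 0 ≤ χ y ∧ χ y ≤ 1) (hL : ∀ y z, |χ y - χ z| ≤ L * ‖y - z‖)
    (y z : EuclideanSpace ℝ ι) :
    ‖stp χ P y - stp χ P z‖ ≤ (1 + L * (Fintype.card ι * (σ / 2))) * ‖y - z‖ ∧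
    ‖(stp χ P y - stp χ P z) - (y - z)‖ ≤ (1 / 2 + L * (Fintype.card ι * (σ / 2))) * ‖y - z‖ := by
  choose θ h0 h1 he using fun a => ml_theta (fin_of (a := a) hP) (y a) (z a)
  have e1 : stp χ P y - stp χ P z =
      ((y - z) + χ y • (psi P y - psi P z)) + (χ y - χ z) • psi P z := by
    unfold stp; module
  have e2 : (stp χ P y - stp χ P z) - (y - z) =
      χ y • (psi P y - psi P z) + (χ y - χ z) • psi P z := by
    rw [e1]; abel
  have b2 : ‖(χ y - χ z) • psi P z‖ ≤ L * (Fintype.card ι * (σ / 2)) * ‖y - z‖ := by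
    rw [norm_smul, Real.norm_eq_abs]
    have := mul_le_mul (hL y z) (norm_psi hσ hP z) (norm_nonneg _)
      ((abs_nonneg _).trans (hL y z))
    calc _ ≤ _ := this
      _ = _ := by ring
  have hc : ∀ a, (psi P y - psi P z) a = -(θ a / 2) * (y a - z a) := by
    intro a
    have := he a
    simp only [PiLp.sub_apply, psi_apply]
    linarith
  have b1 : ‖(y - z) + χ y • (psi P y - psi P z)‖ ≤ 1 * ‖y - z‖ := by
    refine norm_le_coord zero_le_one fun a => ?_
    have : ((y - z) + χ y • (psi P y - psi P z)) a = (1 - χ y * (θ a / 2)) * (y a - z a) := by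
      simp only [PiLp.add_apply, PiLp.smul_apply, smul_eq_mul, hc a]
      simp only [PiLp.sub_apply]
      ring
    rw [this, abs_mul, PiLp.sub_apply]
    refine mul_le_mul_of_nonneg_right ?_ (abs_nonneg _)
    rw [abs_le]
    have := h01 y
    constructor <;> nlinarith [h0 a, h1 a, mul_nonneg this.1 (h0 a),
      mul_le_mul this.2 (h1 a) (h0 a) zero_le_one]
  have b3 : ‖χ y • (psi P y - psi P z)‖ ≤ 1 / 2 * ‖y - z‖ := by
    refine norm_le_coord (by norm_num) fun a => ?_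
    have : (χ y • (psi P y - psi P z)) a = -(χ y * (θ a / 2)) * (y a - z a) := by
      simp only [PiLp.smul_apply, smul_eq_mul, hc a]
      ring
    rw [this, abs_mul, PiLp.sub_apply]
    refine mul_le_mul_of_nonneg_right ?_ (abs_nonneg _)
    rw [abs_neg, abs_of_nonneg (mul_nonneg (h01 y).1 (by linarith [h0 a]))]
    have := h01 y
    nlinarith [h0 a, h1 a, mul_le_mul this.2 (h1 a) (h0 a) zero_le_one]
  constructor
  · rw [e1]
    calc _ ≤ _ := norm_add_le _ _
      _ ≤ 1 * ‖y - z‖ + L * (Fintype.card ι * (σ / 2)) * ‖y - z‖ := add_le_add b1 b2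
      _ = _ := by ring
  · rw [e2]
    calc _ ≤ _ := norm_add_le _ _
      _ ≤ 1 / 2 * ‖y - z‖ + L * (Fintype.card ι * (σ / 2)) * ‖y - z‖ := add_le_add b3 b2
      _ = _ := by ring

theorem stp_dist (hσ : 0 ≤ σ) (hP : ∀ a, volume (P a) ≤ ENNReal.ofReal σ)
    (h01 : ∀ y, 0 ≤ χ y ∧ χ y ≤ 1) (y : EuclideanSpace ℝ ι) :
    ‖stp χ P y - y‖ ≤ Fintype.card ι * (σ / 2) := by
  have : stp χ P y - y = χ y • psi P y := by unfold stp; abel
  rw [this, norm_smul, Real.norm_eq_abs, abs_of_nonneg (h01 y).1]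
  calc _ ≤ 1 * ‖psi P y‖ := mul_le_mul_of_nonneg_right (h01 y).2 (norm_nonneg _)
    _ ≤ _ := by rw [one_mul]; exact norm_psi hσ hP y

/-- one step is a homeomorphism -/
theorem exists_stp_homeo (hσ : 0 ≤ σ) (hP : ∀ a, volume (P a) ≤ ENNReal.ofReal σ)
    (h01 : ∀ y, 0 ≤ χ y ∧ χ y ≤ 1) (hL : ∀ y z, |χ y - χ z| ≤ L * ‖y - z‖)
    (hs : L * (Fintype.card ι * σ) ≤ 1 / 4) :
    ∃ R : EuclideanSpace ℝ ι ≃ₜ EuclideanSpace ℝ ι, ∀ y, R y = stp χ P y := by
  set c : ℝ≥0 := 5 / 8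
  have hA : ApproximatesLinearOn (stp χ P)
      ((ContinuousLinearEquiv.refl ℝ (EuclideanSpace ℝ ι) :
        EuclideanSpace ℝ ι ≃L[ℝ] EuclideanSpace ℝ ι) :
        EuclideanSpace ℝ ι →L[ℝ] EuclideanSpace ℝ ι) univ c := by
    intro y _ z _
    have := (stp_est hσ hP h01 hL y z).2
    have hc : ((c : ℝ≥0) : ℝ) = 5 / 8 := by simp [c]
    rw [hc]
    refine (le_of_eq ?_).trans (this.trans ?_)
    · congr 1
    · refine mul_le_mul_of_nonneg_right ?_ (norm_nonneg _)
      have : L * (Fintype.card ι * (σ / 2)) = L * (Fintype.card ι * σ) / 2 := by ring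
      rw [this]; linarith
  have hc' : Subsingleton (EuclideanSpace ℝ ι) ∨
      c < ‖((ContinuousLinearEquiv.refl ℝ (EuclideanSpace ℝ ι)).symm :
        EuclideanSpace ℝ ι →L[ℝ] EuclideanSpace ℝ ι)‖₊⁻¹ := by
    rcases subsingleton_or_nontrivial (EuclideanSpace ℝ ι) with h | h
    · exact Or.inl h
    · right
      have : ‖((ContinuousLinearEquiv.refl ℝ (EuclideanSpace ℝ ι)).symm :
        EuclideanSpace ℝ ι →L[ℝ] EuclideanSpace ℝ ι)‖₊ = 1 := by
        have h1 : ((ContinuousLinearEquiv.refl ℝ (EuclideanSpace ℝ ι)).symm :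
          EuclideanSpace ℝ ι →L[ℝ] EuclideanSpace ℝ ι) = ContinuousLinearMap.id ℝ _ := rfl
        rw [h1]
        ext
        simp [ContinuousLinearMap.norm_id]
      rw [this, inv_one]
      have : (c : ℝ) < 1 := by simp [c]; norm_num
      exact_mod_cast this
  exact ⟨hA.toHomeomorph _ hc', fun y => rfl⟩

end vec

end Crest.Agent.R096.Tsq_753
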