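import Crest.Agent.R096.Tsq1_753

/-!
The target squeeze: a bi-Lipschitz homeomorphism of `EuclideanSpace ℝ ι`, close to the identity,
supported in `{χ ≠ 0}`, with Lipschitz constant close to one, which contracts every box of a
finite family of small total width by the factor `(1/2)^n`, for any given `n`.
-/

set_option autoImplicit false

open MeasureTheory Set
open scoped NNReal ENNReal

namespace Crest.Agent.R096.Tsq_753

variable {ι : Type*} [Fintype ι]

/-- the box with corners `lo`, `hi` -/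
def bx (lo hi : ι → ℝ) : Set (EuclideanSpace ℝ ι) := {y | ∀ a, lo a ≤ y a ∧ y a ≤ hi a}

theorem volume_union_le {J : Type*} [Fintype J] (lo hi : J → ℝ) {σ : ℝ}
    (hlh : ∀ j, lo j ≤ hi j) (hs : ∑ j, (hi j - lo j) ≤ σ) :
    volume (⋃ j, Icc (lo j) (hi j)) ≤ ENNReal.ofReal σ := by
  calc volume (⋃ j, Icc (lo j) (hi j)) ≤ ∑ j, volume (Icc (lo j) (hi j)) :=
        measure_iUnion_fintype_le _ _
    _ = ∑ j, ENNReal.ofReal (hi j - lo j) := by simp only [Real.volume_Icc]
    _ = ENNReal.ofReal (∑ j, (hi j - lo j)) := by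
        rw [ENNReal.ofReal_sum_of_nonneg fun j _ => sub_nonneg.2 (hlh j)]
    _ ≤ _ := ENNReal.ofReal_le_ofReal hs

/-- lower bound for one step -/
theorem stp_lower {χ : EuclideanSpace ℝ ι → ℝ} {P : ι → Set ℝ} {σ L : ℝ} (hσ : 0 ≤ σ)
    (hP : ∀ a, volume (P a) ≤ ENNReal.ofReal σ)
    (h01 : ∀ y, 0 ≤ χ y ∧ χ y ≤ 1) (hL : ∀ y z, |χ y - χ z| ≤ L * ‖y - z‖)
    (hs : L * (Fintype.card ι * σ) ≤ 1 / 4) (y z : EuclideanSpace ℝ ι) :
    1 / 4 * ‖y - z‖ ≤ ‖stp χ P y - stp χ P z‖ := by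
  have h := (stp_est hσ hP h01 hL y z).2
  have h2 : ‖y - z‖ ≤ ‖stp χ P y - stp χ P z‖ + ‖(stp χ P y - stp χ P z) - (y - z)‖ := by
    calc ‖y - z‖ = ‖(stp χ P y - stp χ P z) - ((stp χ P y - stp χ P z) - (y - z))‖ := by
          congr 1; abel
      _ ≤ _ := norm_sub_le _ _
  have h3 : L * (Fintype.card ι * (σ / 2)) ≤ 1 / 8 := by
    have : L * (Fintype.card ι * (σ / 2)) = L * (Fintype.card ι * σ) / 2 := by ring
    rw [this]; linarith
  nlinarith [norm_nonneg (y - z)]

/-- on the set where the cut-off is one, a step is the coordinatewise map -/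
theorem stp_apply_of_one {χ : EuclideanSpace ℝ ι → ℝ} {P : ι → Set ℝ}
    {y : EuclideanSpace ℝ ι} (h : χ y = 1) (a : ι) :
    stp χ P y a = y a - ml (P a) (y a) / 2 := by
  unfold stp
  rw [h, one_smul, PiLp.add_apply, psi_apply]
  ring

theorem phi_mono {P : Set ℝ} (hPf : volume P ≠ ⊤) {x y : ℝ} (hxy : x ≤ y) :
    x - ml P x / 2 ≤ y - ml P y / 2 := by
  have := (ml_mono_diff hPf hxy).2
  linarith

theorem phi_full {P : Set ℝ} (hPf : volume P ≠ ⊤) {lo hi x y : ℝ} (h : Icc lo hi ⊆ P)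
    (hx : lo ≤ x) (hx' : x ≤ hi) (hy : lo ≤ y) (hy' : y ≤ hi) :
    (x - ml P x / 2) - (y - ml P y / 2) = (x - y) / 2 := by
  rcases le_total x y with hxy | hxy
  · have := ml_full hPf hxy (fun z hz => h ⟨hx.trans hz.1.le, hz.2.trans hy'⟩)
    linarith
  · have := ml_full hPf hxy (fun z hz => h ⟨hy.trans hz.1.le, hz.2.trans hx'⟩)
    linarith

theorem clamp_exists {lo hi : ι → ℝ} (hlh : ∀ a, lo a ≤ hi a) {δ : ℝ} (hδ : 0 ≤ δ)
    {x' : EuclideanSpace ℝ ι} (h : ∀ a, lo a - δ ≤ x' a ∧ x' a ≤ hi a) :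
    ∃ x ∈ bx lo hi, ‖x' - x‖ ≤ Fintype.card ι * δ := by
  refine ⟨WithLp.toLp 2 (fun a => max (lo a) (x' a)), ?_, ?_⟩
  · intro a
    exact ⟨le_max_left _ _, max_le (hlh a) (h a).2⟩
  · refine norm_le_const hδ fun a => ?_
    rw [PiLp.sub_apply]
    show |x' a - max (lo a) (x' a)| ≤ δ
    rcases le_total (lo a) (x' a) with h1 | h1
    · rw [max_eq_right h1, sub_self, abs_zero]; exact hδ
    · rw [max_eq_left h1, abs_sub_comm, abs_of_nonneg (by linarith)]
      linarith [(h a).1]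

/-- **Target squeeze.** -/
theorem exists_squeeze {J : Type*} [Fintype J] {χ : EuclideanSpace ℝ ι → ℝ} {L : ℝ}
    (hL0 : 0 ≤ L)
    (h01 : ∀ y, 0 ≤ χ y ∧ χ y ≤ 1) (hL : ∀ y z, |χ y - χ z| ≤ L * ‖y - z‖) (n : ℕ) :
    ∀ {σ : ℝ} (_ : 0 ≤ σ) (lo hi : J → ι → ℝ) (_ : ∀ j a, lo j a ≤ hi j a)
      (_ : ∀ a, ∑ j, (hi j a - lo j a) ≤ σ) (_ : L * (Fintype.card ι * σ) ≤ 1 / 4)
      (_ : ∀ j, ∀ x ∈ bx (lo j) (hi j), ∀ y, ‖y - x‖ ≤ Fintype.card ι * σ → χ y = 1),
    ∃ R : EuclideanSpace ℝ ι ≃ₜ EuclideanSpace ℝ ι,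
      (∀ y, χ y = 0 → R y = y) ∧ (∀ y, ‖R y - y‖ ≤ Fintype.card ι * σ) ∧
      (∀ y z, ‖R y - R z‖ ≤ (1 + 2 * (L * (Fintype.card ι * σ))) * ‖y - z‖) ∧
      (∀ y z, (1 / 4) ^ n * ‖y - z‖ ≤ ‖R y - R z‖) ∧
      ∀ j, ∀ y ∈ bx (lo j) (hi j), ∀ z ∈ bx (lo j) (hi j),
        ‖R y - R z‖ ≤ (1 / 2) ^ n * ‖y - z‖ := by
  induction n with
  | zero =>
    intro σ hσ lo hi hlh hsum hs h1
    refine ⟨Homeomorph.refl _, fun _ _ => rfl, fun y => ?_, fun y z => ?_, fun y z => ?_,
      fun j y _ z _ => ?_⟩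
    · have e : (Homeomorph.refl (EuclideanSpace ℝ ι)) y = y := rfl
      rw [e, sub_self, norm_zero]; positivity
    · have e : ∀ y, (Homeomorph.refl (EuclideanSpace ℝ ι)) y = y := fun _ => rfl
      rw [e, e]
      have : 0 ≤ L * (Fintype.card ι * σ) := by positivity
      nlinarith [norm_nonneg (y - z)]
    · simp
    · simp
  | succ n ih =>
    intro σ hσ lo hi hlh hsum hs h1
    set P : ι → Set ℝ := fun a => ⋃ j, Icc (lo j a) (hi j a) with hPdef
    have hP : ∀ a, volume (P a) ≤ ENNReal.ofReal σ := fun a =>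
      volume_union_le (fun j => lo j a) (fun j => hi j a) (fun j => hlh j a) (hsum a)
    have hPf : ∀ a, volume (P a) ≠ ⊤ := fun a => fin_of (a := a) hP
    have hsub : ∀ j a, Icc (lo j a) (hi j a) ⊆ P a := fun j a =>
      subset_iUnion (fun j => Icc (lo j a) (hi j a)) j
    obtain ⟨R1, hR1⟩ := exists_stp_homeo (P := P) hσ hP h01 hL hs
    set lo' : J → ι → ℝ := fun j a => lo j a - ml (P a) (lo j a) / 2 with hlo'
    set hi' : J → ι → ℝ := fun j a => hi j a - ml (P a) (hi j a) / 2 with hhi'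
    have hw : ∀ j a, hi' j a - lo' j a = (hi j a - lo j a) / 2 := fun j a =>
      phi_full (hPf a) (hsub j a) (hlh j a) le_rfl le_rfl (hlh j a)
    have hx0 : 0 ≤ L * (Fintype.card ι * σ) := by positivity
    have hσ2 : 0 ≤ σ / 2 := by linarith
    have key : ∀ j, ∀ x' ∈ bx (lo' j) (hi' j), ∀ y,
        ‖y - x'‖ ≤ Fintype.card ι * (σ / 2) → χ y = 1 := by
      intro j x' hx' y hy
      obtain ⟨x, hx, hxx⟩ := clamp_exists (hlh j) hσ2 (x' := x') (fun a => by
        have ha := hx' a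
        have e1 := ml_le hσ (hP a) (lo j a)
        have e2 := ml_nonneg (P := P a) (hi j a)
        simp only [hlo', hhi'] at ha
        constructor <;> linarith [ha.1, ha.2])
      refine h1 j x hx y ?_
      calc ‖y - x‖ ≤ ‖y - x'‖ + ‖x' - x‖ := by
            have := norm_sub_le_norm_sub_add_norm_sub y x' x
            exact this
        _ ≤ Fintype.card ι * (σ / 2) + Fintype.card ι * (σ / 2) := add_le_add hy hxx
        _ = _ := by ring
    obtain ⟨R2, a1, a2, a3, a4, a5⟩ := ih (σ := σ / 2) hσ2 lo' hi'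
      (fun j a => by
        have := hw j a
        have := hlh j a
        linarith)
      (fun a => by
        have : ∑ j, (hi' j a - lo' j a) = (∑ j, (hi j a - lo j a)) / 2 := by
          rw [Finset.sum_div]
          exact Finset.sum_congr rfl fun j _ => hw j a
        rw [this]; linarith [hsum a])
      (by
        have : L * (Fintype.card ι * (σ / 2)) = L * (Fintype.card ι * σ) / 2 := by ring
        rw [this]; linarith) key
    have hone : ∀ j, ∀ y ∈ bx (lo j) (hi j), χ y = 1 := fun j y hy =>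
      h1 j y hy y (by rw [sub_self, norm_zero]; positivity)
    refine ⟨R1.trans R2, fun y hy => ?_, fun y => ?_, fun y z => ?_, fun y z => ?_,
      fun j y hy z hz => ?_⟩
    · have : R1 y = y := by rw [hR1]; unfold stp; rw [hy, zero_smul, add_zero]
      rw [Homeomorph.trans_apply, this, a1 y hy]
    · rw [Homeomorph.trans_apply]
      have b1 := stp_dist hσ hP h01 y
      rw [← hR1] at b1
      have b2 := a2 (R1 y)
      calc ‖R2 (R1 y) - y‖ ≤ ‖R2 (R1 y) - R1 y‖ + ‖R1 y - y‖ :=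
            norm_sub_le_norm_sub_add_norm_sub _ _ _
        _ ≤ Fintype.card ι * (σ / 2) + Fintype.card ι * (σ / 2) := add_le_add b2 b1
        _ = _ := by ring
    · rw [Homeomorph.trans_apply, Homeomorph.trans_apply]
      have b1 := (stp_est hσ hP h01 hL y z).1
      rw [← hR1, ← hR1] at b1
      have b2 := a3 (R1 y) (R1 z)
      set X := L * (Fintype.card ι * σ) with hX
      have e1 : L * (Fintype.card ι * (σ / 2)) = X / 2 := by rw [hX]; ring
      rw [e1] at b1 b2
      have c1 : 1 + 2 * (X / 2) = 1 + X := by ring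
      rw [c1] at b2
      have c2 : (1 + X) * ‖R1 y - R1 z‖ ≤ (1 + X) * ((1 + X / 2) * ‖y - z‖) :=
        mul_le_mul_of_nonneg_left b1 (by linarith)
      refine b2.trans (c2.trans ?_)
      rw [← mul_assoc]
      refine mul_le_mul_of_nonneg_right ?_ (norm_nonneg _)
      nlinarith
    · rw [Homeomorph.trans_apply, Homeomorph.trans_apply]
      have b1 := stp_lower hσ hP h01 hL hs y z
      rw [← hR1, ← hR1] at b1
      have b2 := a4 (R1 y) (R1 z)
      refine le_trans ?_ b2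
      rw [pow_succ, mul_assoc]
      exact mul_le_mul_of_nonneg_left b1 (by positivity)
    · rw [Homeomorph.trans_apply, Homeomorph.trans_apply]
      have hm : ∀ y ∈ bx (lo j) (hi j), R1 y ∈ bx (lo' j) (hi' j) := by
        intro y hy a
        rw [hR1, stp_apply_of_one (hone j y hy)]
        exact ⟨phi_mono (hPf a) (hy a).1, phi_mono (hPf a) (hy a).2⟩
      have b2 := a5 j _ (hm y hy) _ (hm z hz)
      have b1 : ‖R1 y - R1 z‖ ≤ 1 / 2 * ‖y - z‖ := by
        refine norm_le_coord (by norm_num) fun a => ?_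
        rw [PiLp.sub_apply, PiLp.sub_apply, hR1, hR1, stp_apply_of_one (hone j y hy),
          stp_apply_of_one (hone j z hz),
          phi_full (hPf a) (hsub j a) (hy a).1 (hy a).2 (hz a).1 (hz a).2, abs_div, abs_two]
        linarith
      refine b2.trans ?_
      rw [pow_succ, mul_assoc]
      exact mul_le_mul_of_nonneg_left b1 (by positivity)

end Crest.Agent.R096.Tsq_753
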