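import Crest.Agent.R096.Cwr2_527

/-!
# Row 96 (S0127), p = 2: the target squeeze for a finite family of groups with disjoint cut-offs
(helper753)
-/

set_option autoImplicit false
set_option linter.unusedSectionVars false

open Set Metric Filter Topology
open scoped NNReal ENNReal

namespace Crest.Agent.R096.Tsq_753

section glue

variable {E : Type*} [NormedAddCommGroup E] [NormedSpace ℝ E] {κ : Type*}

open Classical in
/-- gluing of maps which are the identity off `{χ q ≠ 0}` -/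
noncomputable def glu (χ : κ → E → ℝ) (g : κ → E → E) (y : E) : E :=
  if h : ∃ q, χ q y ≠ 0 then g h.choose y else y

variable {χ : κ → E → ℝ} {g : κ → E → E}

theorem glu_zero {y : E} (h : ∀ q, χ q y = 0) : glu χ g y = y := by
  unfold glu
  rw [dif_neg]
  rintro ⟨q, hq⟩
  exact hq (h q)

theorem glu_eq (hdisj : ∀ q q', q ≠ q' → ∀ y, χ q y ≠ 0 → χ q' y = 0) {q : κ} {y : E}
    (h : χ q y ≠ 0) : glu χ g y = g q y := by
  have h' : ∃ q, χ q y ≠ 0 := ⟨q, h⟩
  unfold glu
  rw [dif_pos h']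
  have e : h'.choose = q := by
    by_contra hne
    exact h (hdisj _ _ hne y h'.choose_spec)
  rw [e]

/-- a common zero on a segment -/
theorem exists_zero (hc : ∀ q, Continuous (χ q))
    (hdisj : ∀ q q', q ≠ q' → ∀ y, χ q y ≠ 0 → χ q' y = 0) {q : κ} {y z : E} (hy : χ q y ≠ 0)
    (hz : χ q z = 0) :
    ∃ w : E, (∀ q', χ q' w = 0) ∧ ‖y - w‖ + ‖w - z‖ = ‖y - z‖ := by
  set γ : ℝ → E := fun t => y + t • (z - y) with hγ
  have hγc : Continuous γ := by fun_prop
  have h0 : γ 0 = y := by simp [hγ]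
  have h1 : γ 1 = z := by simp [hγ]
  set S : Set ℝ := Icc 0 1 ∩ {t | χ q (γ t) = 0} with hS
  have hSc : IsCompact S :=
    isCompact_Icc.inter_right (isClosed_eq ((hc q).comp hγc) continuous_const)
  have hSne : S.Nonempty := ⟨1, ⟨zero_le_one, le_rfl⟩, by
    show χ q (γ 1) = 0
    rw [h1]; exact hz⟩
  obtain ⟨t, ht, hmin⟩ := hSc.exists_isLeast hSne
  have ht0 : 0 < t := by
    rcases ht.1.1.lt_or_eq with h | h
    · exact h
    · exfalso
      have := ht.2
      rw [← h] at this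
      have e : χ q (γ 0) = 0 := this
      rw [h0] at e
      exact hy e
  refine ⟨γ t, fun q' => ?_, ?_⟩
  · by_cases hq : q' = q
    · rw [hq]; exact ht.2
    · have hlt : ∀ s ∈ Ico 0 t, χ q' (γ s) = 0 := by
        intro s hs
        refine hdisj q q' (Ne.symm hq) _ fun h => ?_
        exact absurd (hmin ⟨⟨hs.1, hs.2.le.trans ht.1.2⟩, h⟩) (not_le.2 hs.2)
      have hcl : IsClosed {s | χ q' (γ s) = 0} :=
        isClosed_eq ((hc q').comp hγc) continuous_const
      have h2 : closure (Ico 0 t) ⊆ {s | χ q' (γ s) = 0} := hcl.closure_subset_iff.2 hlt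
      rw [closure_Ico ht0.ne] at h2
      exact h2 ⟨ht0.le, le_rfl⟩
  · have e1 : y - γ t = t • (y - z) := by
      simp only [hγ]
      rw [← neg_sub y z, smul_neg]
      abel
    have e2 : γ t - z = (1 - t) • (y - z) := by
      simp only [hγ]
      rw [sub_smul, one_smul, ← neg_sub y z, smul_neg]
      abel
    rw [e1, e2, norm_smul, norm_smul, Real.norm_of_nonneg ht.1.1,
      Real.norm_of_nonneg (sub_nonneg.2 ht.1.2)]
    ring

theorem glu_lip (hc : ∀ q, Continuous (χ q))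
    (hdisj : ∀ q q', q ≠ q' → ∀ y, χ q y ≠ 0 → χ q' y = 0)
    (hid : ∀ q y, χ q y = 0 → g q y = y) {K : ℝ} (hK : 1 ≤ K)
    (hg : ∀ q y z, ‖g q y - g q z‖ ≤ K * ‖y - z‖) (y z : E) :
    ‖glu χ g y - glu χ g z‖ ≤ K * ‖y - z‖ := by
  -- one point is a common zero
  have key : ∀ y w : E, (∀ q, χ q w = 0) → ‖glu χ g y - glu χ g w‖ ≤ K * ‖y - w‖ := by
    intro y w hw
    rw [glu_zero hw]
    by_cases h : ∃ q, χ q y ≠ 0
    · obtain ⟨q, hq⟩ := h
      rw [glu_eq hdisj hq]
      have := hg q y w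
      rwa [hid q w (hw q)] at this
    · push Not at h
      rw [glu_zero h]
      nlinarith [norm_nonneg (y - w)]
  by_cases h : ∃ q, χ q y ≠ 0
  · obtain ⟨q, hq⟩ := h
    by_cases hz : χ q z = 0
    · obtain ⟨w, hw, e⟩ := exists_zero hc hdisj hq hz
      have h1 := key y w hw
      have h2 := key z w hw
      have h3 : glu χ g y - glu χ g z = (glu χ g y - glu χ g w) - (glu χ g z - glu χ g w) := by
        abel
      rw [h3]
      refine (norm_sub_le _ _).trans ?_
      rw [← e, mul_add]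
      rw [norm_sub_rev z w] at h2
      linarith
    · rw [glu_eq hdisj hq, glu_eq hdisj hz]
      exact hg q y z
  · push Not at h
    have := key z y h
    rw [norm_sub_rev, norm_sub_rev y z]
    exact this

end glue

variable {ι : Type*} [Fintype ι]

/-- **The target squeeze for many groups.** -/
theorem squeeze_family {κ : Type*} {A : κ → Type*} [∀ q, Fintype (A q)]
    (χ : κ → EuclideanSpace ℝ ι → ℝ) (L σ : κ → ℝ) (hL0 : ∀ q, 0 ≤ L q) (hσ : ∀ q, 0 ≤ σ q)
    (h01 : ∀ q y, 0 ≤ χ q y ∧ χ q y ≤ 1)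
    (hL : ∀ q y z, |χ q y - χ q z| ≤ L q * ‖y - z‖)
    (hdisj : ∀ q q', q ≠ q' → ∀ y, χ q y ≠ 0 → χ q' y = 0)
    (lo hi : ∀ q, A q → ι → ℝ) (hlh : ∀ q m a, lo q m a ≤ hi q m a)
    (hsum : ∀ q a, ∑ m, (hi q m a - lo q m a) ≤ σ q)
    (hLσ : ∀ q, L q * (Fintype.card ι * σ q) ≤ 1 / 4)
    (hone : ∀ q m, ∀ x ∈ bx (lo q m) (hi q m), ∀ y, ‖y - x‖ ≤ Fintype.card ι * σ q → χ q y = 1)
    (n : ℕ) :
    ∃ R : EuclideanSpace ℝ ι ≃ₜ EuclideanSpace ℝ ι,
      (∀ y, (∀ q, χ q y = 0) → R y = y) ∧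
      (∀ q y, χ q y ≠ 0 → χ q (R y) ≠ 0 ∧ ‖R y - y‖ ≤ Fintype.card ι * σ q) ∧
      (∀ y z, ‖R y - R z‖ ≤ 3 / 2 * ‖y - z‖) ∧
      (∀ q m, ∀ y ∈ bx (lo q m) (hi q m), ∀ z ∈ bx (lo q m) (hi q m),
        ‖R y - R z‖ ≤ (1 / 2) ^ n * ‖y - z‖) ∧
      ∃ ψ : κ → ι → ℝ → ℝ, (∀ q a, Monotone (ψ q a)) ∧
        (∀ q a x y, |ψ q a x - ψ q a y| ≤ |x - y|) ∧
        (∀ q a x, 0 ≤ ψ q a x) ∧ (∀ q a x, ψ q a x ≤ σ q) ∧
        ∀ q y, (∀ z, ‖z - y‖ ≤ Fintype.card ι * σ q → χ q z = 1) →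
          ∀ a, R y a = y a - ψ q a (y a) := by
  have hex := fun q => Cwr_527.exists_squeeze_coord (hL0 q) (h01 q) (hL q) n (hσ q) (lo q) (hi q)
    (hlh q) (hsum q) (hLσ q) (hone q)
  choose R hid hnear hlip hlow hsq ψ hψ1 hψ2 hψ3 hψ4 hψ5 using hex
  have hc : ∀ q, Continuous (χ q) := fun q =>
    (LipschitzWith.of_dist_le_mul (K := (L q).toNNReal) fun y z => by
      rw [Real.dist_eq, dist_eq_norm, Real.coe_toNNReal _ (hL0 q)]
      exact hL q y z).continuous
  have hidS : ∀ q y, χ q y = 0 → (R q).symm y = y := fun q y h => by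
    rw [Homeomorph.symm_apply_eq]; exact (hid q y h).symm
  have hpres : ∀ q y, χ q y ≠ 0 → χ q (R q y) ≠ 0 := by
    intro q y h h'
    have h1 := hid q _ h'
    have h2 := (R q).injective h1
    rw [h2] at h'
    exact h h'
  have hpresS : ∀ q y, χ q y ≠ 0 → χ q ((R q).symm y) ≠ 0 := by
    intro q y h h'
    have h1 := hid q _ h'
    rw [(R q).apply_symm_apply] at h1
    rw [← h1] at h'
    exact h h'
  have hK1 : ∀ q y z, ‖R q y - R q z‖ ≤ 3 / 2 * ‖y - z‖ := by
    intro q y z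
    refine (hlip q y z).trans ?_
    have := hLσ q
    have h2 : 1 + 2 * (L q * (Fintype.card ι * σ q)) ≤ 3 / 2 := by linarith
    exact mul_le_mul_of_nonneg_right h2 (norm_nonneg _)
  have hK2 : ∀ q y z, ‖(R q).symm y - (R q).symm z‖ ≤ 4 ^ n * ‖y - z‖ := by
    intro q y z
    have h1 := hlow q ((R q).symm y) ((R q).symm z)
    rw [(R q).apply_symm_apply, (R q).apply_symm_apply] at h1
    have h2 : (4 : ℝ) ^ n * ((1 / 4) ^ n * ‖(R q).symm y - (R q).symm z‖) ≤ 4 ^ n * ‖y - z‖ :=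
      mul_le_mul_of_nonneg_left h1 (by positivity)
    rw [← mul_assoc, ← mul_pow] at h2
    norm_num at h2
    exact h2
  have hl1 := glu_lip (g := fun q y => R q y) hc hdisj hid (by norm_num : (1:ℝ) ≤ 3 / 2) hK1
  have hl2 := glu_lip (g := fun q y => (R q).symm y) hc hdisj hidS
    (one_le_pow₀ (by norm_num : (1:ℝ) ≤ 4) : (1:ℝ) ≤ 4 ^ n) hK2
  have hc1 : Continuous (glu χ fun q y => R q y) :=
    (LipschitzWith.of_dist_le_mul (K := (3 / 2 : ℝ).toNNReal) fun y z => by
      rw [dist_eq_norm, dist_eq_norm, Real.coe_toNNReal _ (by norm_num)]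
      exact hl1 y z).continuous
  have hc2 : Continuous (glu χ fun q y => (R q).symm y) :=
    (LipschitzWith.of_dist_le_mul (K := (4 ^ n : ℝ).toNNReal) fun y z => by
      rw [dist_eq_norm, dist_eq_norm, Real.coe_toNNReal _ (by positivity)]
      exact hl2 y z).continuous
  have hone' : ∀ q m, ∀ y ∈ bx (lo q m) (hi q m), χ q y ≠ 0 := by
    intro q m y hy
    rw [hone q m y hy y (by
      rw [sub_self, norm_zero]
      exact mul_nonneg (Nat.cast_nonneg _) (hσ q))]
    exact one_ne_zero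
  refine ⟨{ toFun := glu χ fun q y => R q y
            invFun := glu χ fun q y => (R q).symm y
            left_inv := ?_
            right_inv := ?_
            continuous_toFun := hc1
            continuous_invFun := hc2 }, ?_, ?_, ?_, ?_, ψ, hψ1, hψ2, hψ3, hψ4, ?_⟩
  · intro y
    by_cases h : ∃ q, χ q y ≠ 0
    · obtain ⟨q, hq⟩ := h
      rw [glu_eq hdisj hq, glu_eq hdisj (hpres q y hq)]
      exact (R q).symm_apply_apply y
    · push Not at h
      rw [glu_zero h, glu_zero h]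
  · intro y
    by_cases h : ∃ q, χ q y ≠ 0
    · obtain ⟨q, hq⟩ := h
      rw [glu_eq hdisj hq, glu_eq hdisj (hpresS q y hq)]
      exact (R q).apply_symm_apply y
    · push Not at h
      rw [glu_zero h, glu_zero h]
  · intro y h
    show glu χ (fun q y => R q y) y = y
    exact glu_zero h
  · intro q y h
    show χ q (glu χ (fun q y => R q y) y) ≠ 0 ∧ ‖glu χ (fun q y => R q y) y - y‖ ≤ _
    rw [glu_eq hdisj h]
    exact ⟨hpres q y h, hnear q y⟩
  · exact hl1
  · intro q m y hy z hz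
    show ‖glu χ (fun q y => R q y) y - glu χ (fun q y => R q y) z‖ ≤ _
    rw [glu_eq hdisj (hone' q m y hy), glu_eq hdisj (hone' q m z hz)]
    exact hsq q m y hy z hz
  · intro q y h a
    show (glu χ (fun q y => R q y) y) a = _
    have h1 : χ q y ≠ 0 := by
      rw [h y (by
        rw [sub_self, norm_zero]
        exact mul_nonneg (Nat.cast_nonneg _) (hσ q))]
      exact one_ne_zero
    rw [glu_eq hdisj h1]
    exact hψ5 q y h a

end Crest.Agent.R096.Tsq_753
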