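import Crest.Agent.R096.Tsq3_753
import Crest.Prelude.Def_VecCalc3

/-!
# Row 96 (S0127), p = 2: the map `R` for all patches of all good cubes (helper753)
-/

set_option autoImplicit false
set_option linter.unusedSectionVars false

open Set Metric Filter Topology
open scoped NNReal ENNReal

namespace Crest.Agent.R096.Tsq_753

open Crest.AnalysisR.VecCalc3

/-- the cut-off -/
noncomputable def cut {E : Type*} [PseudoMetricSpace E] (K : Set E) (r : ℝ) (y : E) : ℝ :=
  max 0 (min 1 (2 - 2 / r * infDist y K))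

section cut

variable {E : Type*} [PseudoMetricSpace E] {K : Set E} {r : ℝ}

theorem cut_mem (y : E) : 0 ≤ cut K r y ∧ cut K r y ≤ 1 :=
  ⟨le_max_left _ _, max_le zero_le_one (min_le_left _ _)⟩

theorem cut_lip (hr : 0 < r) (y z : E) : |cut K r y - cut K r z| ≤ 2 / r * dist y z := by
  have h1 : |infDist y K - infDist z K| ≤ dist y z := by
    have := (lipschitz_infDist_pt K).dist_le_mul y z
    rw [NNReal.coe_one, one_mul, Real.dist_eq] at this
    exact this
  unfold cut
  calc |max 0 (min 1 (2 - 2 / r * infDist y K)) - max 0 (min 1 (2 - 2 / r * infDist z K))|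
      ≤ |min 1 (2 - 2 / r * infDist y K) - min 1 (2 - 2 / r * infDist z K)| := by
        have := abs_max_sub_max_le_max 0 (min 1 (2 - 2 / r * infDist y K)) 0
          (min 1 (2 - 2 / r * infDist z K))
        refine this.trans (le_of_eq ?_)
        rw [sub_self, abs_zero]
        exact max_eq_right (abs_nonneg _)
    _ ≤ |(2 - 2 / r * infDist y K) - (2 - 2 / r * infDist z K)| := by
        have := abs_min_sub_min_le_max 1 (2 - 2 / r * infDist y K) 1 (2 - 2 / r * infDist z K)
        rwa [sub_self, abs_zero, max_eq_right (abs_nonneg _)] at this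
    _ = 2 / r * |infDist y K - infDist z K| := by
        have e : (2 - 2 / r * infDist y K) - (2 - 2 / r * infDist z K) =
            (2 / r) * -(infDist y K - infDist z K) := by ring
        rw [e, abs_mul, abs_neg, abs_of_pos (by positivity : (0:ℝ) < 2 / r)]
    _ ≤ 2 / r * dist y z := by gcongr

theorem cut_one (hr : 0 < r) {y : E} (h : infDist y K ≤ r / 2) : cut K r y = 1 := by
  unfold cut
  have h1 : 2 / r * infDist y K ≤ 1 := by
    calc 2 / r * infDist y K ≤ 2 / r * (r / 2) := by gcongr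
      _ = 1 := by field_simp
  rw [min_eq_left (by linarith), max_eq_right zero_le_one]

theorem cut_ne (hr : 0 < r) {y : E} (h : cut K r y ≠ 0) : infDist y K < r := by
  by_contra hcon
  apply h
  have h1 : 2 ≤ 2 / r * infDist y K := by
    calc 2 = 2 / r * r := by field_simp
      _ ≤ 2 / r * infDist y K := by
          have := not_lt.1 hcon
          gcongr
  unfold cut
  rw [max_eq_left]
  exact (min_le_right _ _).trans (by linarith)

end cut

theorem norm_le_sqrt3 {v : R3} {ρ : ℝ} (hρ : 0 ≤ ρ) (h : ∀ a, |v a| ≤ ρ) : ‖v‖ ≤ 2 * ρ := by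
  rw [EuclideanSpace.norm_eq]
  have h1 : ∑ i : Fin 3, ‖v i‖ ^ 2 ≤ (2 * ρ) ^ 2 := by
    have h2 : ∀ i : Fin 3, ‖v i‖ ^ 2 ≤ ρ ^ 2 := fun i => by
      have := h i
      rw [Real.norm_eq_abs]
      exact pow_le_pow_left₀ (abs_nonneg _) this 2
    rw [Fin.sum_univ_three]
    have := h2 0
    have := h2 1
    have := h2 2
    nlinarith [sq_nonneg ρ]
  calc Real.sqrt (∑ i : Fin 3, ‖v i‖ ^ 2) ≤ Real.sqrt ((2 * ρ) ^ 2) := Real.sqrt_le_sqrt h1
    _ = 2 * ρ := Real.sqrt_sq (by positivity)

/-- **The map `R`.** -/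
theorem exists_R {κ : Type*} {A : κ → Type*} [∀ q, Fintype (A q)] {La : Set R3}
    (K : κ → Set R3) (r σ : κ → ℝ) (hK : ∀ q, (K q).Nonempty) (hr : ∀ q, 0 < r q)
    (hσ0 : ∀ q, 0 ≤ σ q) (hσ : ∀ q, 24 * σ q ≤ r q)
    (hdisj : ∀ q q', q ≠ q' → Disjoint (thickening (r q) (K q)) (thickening (r q') (K q')))
    (hLa : ∀ q, thickening (r q) (K q) ⊆ La)
    (y : ∀ q, A q → R3) (ρ : ∀ q, A q → ℝ) (hρ : ∀ q m, 0 ≤ ρ q m)
    (hsum : ∀ q, ∑ m, 2 * ρ q m ≤ σ q) (hy : ∀ q m, y q m ∈ K q) (n : ℕ) :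
    ∃ R : R3 ≃ₜ R3, LipschitzWith (3 / 2) R ∧ (∀ y, R y ∈ La ↔ y ∈ La) ∧
      (∀ y, (∀ q, y ∉ thickening (r q) (K q)) → R y = y) ∧
      (∀ q, ∀ y ∈ thickening (r q) (K q), R y ∈ thickening (r q) (K q) ∧ ‖R y - y‖ ≤ 3 * σ q) ∧
      (∀ q m, ∀ z ∈ ball (y q m) (ρ q m), ∀ᶠ z' in 𝓝 z, ‖R z' - R z‖ ≤ (1 / 2) ^ n * ‖z' - z‖) ∧
      ∃ ψ : κ → Fin 3 → ℝ → ℝ, (∀ q a, Monotone (ψ q a)) ∧
        (∀ q a x y, |ψ q a x - ψ q a y| ≤ |x - y|) ∧
        (∀ q a x, 0 ≤ ψ q a x) ∧ (∀ q a x, ψ q a x ≤ σ q) ∧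
        ∀ q, ∀ y ∈ thickening (r q / 4) (K q), ∀ a, R y a = y a - ψ q a (y a) := by
  have hmem : ∀ q (δ : ℝ) (y : R3), y ∈ thickening δ (K q) ↔ infDist y (K q) < δ :=
    fun q δ y => by rw [mem_thickening_iff_infDist_lt (hK q)]
  have hcard : (Fintype.card (Fin 3) : ℝ) = 3 := by norm_num
  obtain ⟨R, h1, h2, h3, h4, ψ, g1, g2, g3, g4, g5⟩ := squeeze_family
    (fun q => cut (K q) (r q)) (fun q => 2 / r q) σ
    (fun q => (div_pos two_pos (hr q)).le) hσ0 (fun q y => cut_mem y)
    (fun q y z => by rw [← dist_eq_norm]; exact cut_lip (hr q) y z)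
    (by
      intro q q' hne y hy
      by_contra hcon
      have a1 := (hmem q _ y).2 (cut_ne (hr q) hy)
      have a2 := (hmem q' _ y).2 (cut_ne (hr q') hcon)
      exact Set.disjoint_left.1 (hdisj q q' hne) a1 a2)
    (fun q m a => y q m a - ρ q m) (fun q m a => y q m a + ρ q m)
    (fun q m a => by
      have := hρ q m
      show y q m a - ρ q m ≤ y q m a + ρ q m
      linarith)
    (fun q a => by
      refine le_trans (le_of_eq ?_) (hsum q)
      refine Finset.sum_congr rfl fun m _ => ?_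
      ring)
    (fun q => by
      rw [hcard]
      have a1 := hσ q
      have a2 := hr q
      rw [div_mul_eq_mul_div, div_le_iff₀ a2]
      linarith)
    (by
      intro q m x hx z hz
      rw [hcard] at hz
      refine cut_one (hr q) ?_
      have a1 : ‖x - y q m‖ ≤ 2 * ρ q m := by
        refine norm_le_sqrt3 (hρ q m) fun a => ?_
        have a2 := hx a
        rw [PiLp.sub_apply, abs_le]
        exact ⟨by linarith [a2.1], by linarith [a2.2]⟩
      have a2 : 2 * ρ q m ≤ σ q := by
        refine le_trans ?_ (hsum q)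
        exact Finset.single_le_sum (f := fun m => 2 * ρ q m)
          (fun m _ => mul_nonneg two_pos.le (hρ q m)) (Finset.mem_univ m)
      have a3 : infDist z (K q) ≤ dist z (y q m) := infDist_le_dist_of_mem (hy q m)
      have a4 : dist z (y q m) ≤ ‖z - x‖ + ‖x - y q m‖ := by
        rw [dist_eq_norm]
        have e : z - y q m = (z - x) + (x - y q m) := by abel
        rw [e]; exact norm_add_le _ _
      have a5 := hσ q
      have a6 := hσ0 q
      have a7 := hr q
      linarith) n
  rw [hcard] at h2 g5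
  have hid : ∀ y, (∀ q, y ∉ thickening (r q) (K q)) → R y = y := by
    intro y hy
    refine h1 y fun q => ?_
    by_contra hcon
    exact hy q ((hmem q _ y).2 (cut_ne (hr q) hcon))
  -- points of the thickening where the cut-off vanishes: none
  have hpos : ∀ q, ∀ y ∈ thickening (r q) (K q), cut (K q) (r q) y ≠ 0 := by
    intro q y hy
    have a1 := (hmem q _ y).1 hy
    have a2 : 2 / r q * infDist y (K q) < 2 := by
      calc 2 / r q * infDist y (K q) < 2 / r q * r q := by
            have := hr q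
            gcongr
        _ = 2 := by have := (hr q).ne'; field_simp
    unfold cut
    have a3 : 0 < min 1 (2 - 2 / r q * infDist y (K q)) := lt_min one_pos (by linarith)
    rw [max_eq_right a3.le]
    exact a3.ne'
  have hmaps : ∀ q, ∀ y ∈ thickening (r q) (K q),
      R y ∈ thickening (r q) (K q) ∧ ‖R y - y‖ ≤ 3 * σ q := by
    intro q y hy
    obtain ⟨a1, a2⟩ := h2 q y (hpos q y hy)
    exact ⟨(hmem q _ _).2 (cut_ne (hr q) a1), a2⟩
  refine ⟨R, ?_, ?_, hid, hmaps, ?_, ψ, g1, g2, g3, g4, ?_⟩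
  · refine LipschitzWith.of_dist_le_mul fun y z => ?_
    rw [dist_eq_norm, dist_eq_norm]
    have := h3 y z
    norm_num at this ⊢
    exact this
  · intro y
    by_cases hq : ∃ q, y ∈ thickening (r q) (K q)
    · obtain ⟨q, hq⟩ := hq
      exact ⟨fun _ => hLa q hq, fun _ => hLa q (hmaps q y hq).1⟩
    · push Not at hq
      rw [hid y hq]
  · intro q m z hz
    have hzb : ∀ z' ∈ ball (y q m) (ρ q m), z' ∈ bx (fun a => y q m a - ρ q m)
        (fun a => y q m a + ρ q m) := by
      intro z' hz' a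
      have a1 : ‖z' - y q m‖ < ρ q m := by rw [← dist_eq_norm]; exact hz'
      have a2 : |(z' - y q m) a| ≤ ‖z' - y q m‖ := by
        rw [← Real.norm_eq_abs]
        exact PiLp.norm_apply_le _ a
      rw [PiLp.sub_apply] at a2
      have a3 := abs_le.1 (a2.trans a1.le)
      exact ⟨by linarith [a3.1], by linarith [a3.2]⟩
    filter_upwards [isOpen_ball.mem_nhds hz] with z' hz'
    exact h4 q m z' (hzb z' hz') z (hzb z hz)
  · intro q y hy a
    refine g5 q y (fun z hz => cut_one (hr q) ?_) a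
    have a1 := (hmem q _ y).1 hy
    have a2 : infDist z (K q) ≤ infDist y (K q) + dist z y := by
      exact infDist_le_infDist_add_dist
    rw [dist_eq_norm] at a2
    have a3 := hσ q
    have a4 := hr q
    linarith

end Crest.Agent.R096.Tsq_753
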