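import Mathlib

/-!
Row 96, P5-TUTTE (helper334), part 1: triangulated convex polygons in the plane, combinatorial form.
Neighbours, one-sided edges, cycle and path lemmas, cover lemma.
-/

set_option autoImplicit false

namespace Crest.Agent.R096.Tut_334

open Finset Filter Topology

/-- planar determinant -/
def dt (u x : ℝ × ℝ) : ℝ := u.1 * x.2 - u.2 * x.1

theorem dt_self (u : ℝ × ℝ) : dt u u = 0 := by simp [dt]; ring
theorem dt_neg_left (u x : ℝ × ℝ) : dt (-u) x = - dt u x := by simp [dt]; ring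
theorem dt_neg_right (u x : ℝ × ℝ) : dt u (-x) = - dt u x := by simp [dt]; ring
theorem dt_comm (u x : ℝ × ℝ) : dt u x = - dt x u := by simp [dt]; ring
theorem dt_add_left (u v x : ℝ × ℝ) : dt (u + v) x = dt u x + dt v x := by simp [dt]; ring
theorem dt_add_right (u v x : ℝ × ℝ) : dt u (v + x) = dt u v + dt u x := by simp [dt]; ring
theorem dt_sub_left (u v x : ℝ × ℝ) : dt (u - v) x = dt u x - dt v x := by simp [dt]; ring
theorem dt_sub_right (u v x : ℝ × ℝ) : dt u (v - x) = dt u v - dt u x := by simp [dt]; ring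
theorem dt_smul_left (c : ℝ) (u x : ℝ × ℝ) : dt (c • u) x = c * dt u x := by simp [dt]; ring
theorem dt_smul_right (c : ℝ) (u x : ℝ × ℝ) : dt u (c • x) = c * dt u x := by simp [dt]; ring
theorem dt_zero_left (x : ℝ × ℝ) : dt 0 x = 0 := by simp [dt]
theorem dt_zero_right (x : ℝ × ℝ) : dt x 0 = 0 := by simp [dt]

/-- Pluecker relation -/
theorem dt_plk (a b c d : ℝ × ℝ) : dt a b * dt c d = dt a c * dt b d - dt a d * dt b c := by
  simp [dt]; ring

theorem dt_plk' (a b d : ℝ × ℝ) : dt a b • d = dt d b • a + dt a d • b := by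
  ext <;> simp [dt] <;> ring

/-- A triangulated convex polygon (positively oriented triples). -/
structure TP (V : Type*) where
  /-- vertices -/
  p : V → ℝ × ℝ
  /-- oriented triples -/
  T : Finset (V × V × V)
  rot : ∀ {a b c : V}, (a, b, c) ∈ T → (b, c, a) ∈ T
  pos : ∀ {a b c : V}, (a, b, c) ∈ T → 0 < dt (p b - p a) (p c - p a)
  disj : ∀ {v w x w' x' : V} (d : ℝ × ℝ), (v, w, x) ∈ T → (v, w', x') ∈ T →
    0 < dt (p w - p v) d → 0 < dt d (p x - p v) →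
    0 < dt (p w' - p v) d → 0 < dt d (p x' - p v) → w = w'
  edge : ∀ {a b c : V}, (a, b, c) ∈ T →
    (∃ d, (b, a, d) ∈ T) ∨ ∀ z, 0 ≤ dt (p b - p a) (p z - p a)
  used : ∀ v : V, ∃ w x, (v, w, x) ∈ T

theorem exists_pre {V : Type*} {S : Finset V} {R : V → V → Prop}
    (h1 : ∀ w ∈ S, ∃ x ∈ S, R w x)
    (h2 : ∀ w w' x, R w x → R w' x → w = w') : ∀ x ∈ S, ∃ w ∈ S, R w x := by
  classical
  choose! g hgS hgR using h1
  have hinj : Set.InjOn g S := fun a ha b hb hab => h2 _ _ _ (hgR a ha) (hab ▸ hgR b hb)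
  have hsurj : Set.SurjOn g S S :=
    Finset.surjOn_of_injOn_of_card_le g (fun a ha => hgS a ha) hinj le_rfl
  intro x hx
  obtain ⟨w, hw, rfl⟩ := hsurj hx
  exact ⟨w, hw, hgR w hw⟩

/-- no positively turning closed sequence in an open half plane -/
theorem noHalf {V : Type*} {S : Finset V} (hS : S.Nonempty) (a : V → ℝ × ℝ) (d : ℝ × ℝ)
    (h : ∀ w ∈ S, ∃ x ∈ S, 0 < dt (a w) (a x) ∧ 0 < dt (a w) d * dt (a x) d) : False := by
  obtain ⟨w, hw, hmax⟩ := S.exists_max_image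
    (fun w => ((a w).1 * d.1 + (a w).2 * d.2) / dt (a w) d) hS
  obtain ⟨x, hx, h1, h2⟩ := h w hw
  have h3 := hmax x hx
  have hyw : dt (a w) d ≠ 0 := left_ne_zero_of_mul h2.ne'
  have hyx : dt (a x) d ≠ 0 := right_ne_zero_of_mul h2.ne'
  have h4 := mul_le_mul_of_nonneg_right h3 h2.le
  have e1 : ((a x).1 * d.1 + (a x).2 * d.2) / dt (a x) d * (dt (a w) d * dt (a x) d)
      = ((a x).1 * d.1 + (a x).2 * d.2) * dt (a w) d := by field_simp
  have e2 : ((a w).1 * d.1 + (a w).2 * d.2) / dt (a w) d * (dt (a w) d * dt (a x) d)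
      = ((a w).1 * d.1 + (a w).2 * d.2) * dt (a x) d := by field_simp
  rw [e1, e2] at h4
  have e3 : (d.1 ^ 2 + d.2 ^ 2) * dt (a w) (a x)
      = ((a x).1 * d.1 + (a x).2 * d.2) * dt (a w) d
        - ((a w).1 * d.1 + (a w).2 * d.2) * dt (a x) d := by
    simp only [dt]; ring
  have h5 : (d.1 ^ 2 + d.2 ^ 2) * dt (a w) (a x) ≤ 0 := by linarith
  have h6 : d.1 ^ 2 + d.2 ^ 2 ≤ 0 := by
    by_contra hc
    push Not at hc
    have := mul_pos hc h1
    linarith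
  have h7 : d.1 = 0 := by nlinarith [sq_nonneg d.1, sq_nonneg d.2]
  have h8 : d.2 = 0 := by nlinarith [sq_nonneg d.1, sq_nonneg d.2]
  apply hyw
  simp [dt, h7, h8]

/-- a closed positively turning set of vectors covers every direction by closed cones -/
theorem cover_cone {V : Type*} {S : Finset V} (hS : S.Nonempty) (a : V → ℝ × ℝ)
    (R : V → V → Prop)
    (h : ∀ w ∈ S, ∃ x ∈ S, R w x ∧ 0 < dt (a w) (a x)) (d : ℝ × ℝ) :
    ∃ w ∈ S, ∃ x ∈ S, R w x ∧ 0 < dt (a w) (a x) ∧ 0 ≤ dt (a w) d ∧ 0 ≤ dt d (a x) := by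
  classical
  by_contra hn
  push Not at hn
  by_cases hc : ∃ w0 ∈ S, 0 ≤ dt (a w0) d
  · obtain ⟨w0, hw0, h0⟩ := hc
    have step : ∀ w ∈ S, 0 ≤ dt (a w) d → ∃ x ∈ S, 0 < dt (a w) (a x) ∧ 0 < dt (a x) d := by
      intro w hw hd
      obtain ⟨x, hx, hR, hp⟩ := h w hw
      refine ⟨x, hx, hp, ?_⟩
      have := hn w hw x hx hR hp hd
      rw [dt_comm]; linarith
    obtain ⟨x0, hx0, -, hx0d⟩ := step w0 hw0 h0
    refine noHalf (S := S.filter fun w => 0 < dt (a w) d) ⟨x0, by simp [hx0, hx0d]⟩ a d ?_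
    intro w hw
    rw [mem_filter] at hw
    obtain ⟨x, hx, hp, hxd⟩ := step w hw.1 hw.2.le
    exact ⟨x, by simp [hx, hxd], hp, mul_pos hw.2 hxd⟩
  · push Not at hc
    refine noHalf hS a d ?_
    intro w hw
    obtain ⟨x, hx, -, hp⟩ := h w hw
    exact ⟨x, hx, hp, mul_pos_of_neg_of_neg (hc w hw) (hc x hx)⟩

/-- a generic vector near a given one -/
theorem exists_generic (F : Finset (ℝ × ℝ)) (hF : ∀ r ∈ F, r ≠ 0) (U : Set (ℝ × ℝ))
    (hU : IsOpen U) (d0 : ℝ × ℝ) (hd0 : d0 ∈ U) : ∃ d ∈ U, ∀ r ∈ F, dt d r ≠ 0 := by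
  have hcont : Continuous fun s : ℝ => d0 + (s, s ^ 2) := by fun_prop
  have h1 : ∀ᶠ s : ℝ in 𝓝[>] 0, d0 + (s, s ^ 2) ∈ U := by
    have : ∀ᶠ s : ℝ in 𝓝 0, d0 + (s, s ^ 2) ∈ U := by
      apply hcont.continuousAt.eventually_mem
      apply hU.mem_nhds
      simpa [Prod.mk_zero_zero] using hd0
    exact this.filter_mono nhdsWithin_le_nhds
  have h2 : ∀ᶠ s : ℝ in 𝓝[>] 0, ∀ r ∈ F, dt (d0 + (s, s ^ 2)) r ≠ 0 := by
    rw [Filter.eventually_all_finset]
    intro r hr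
    have hr0 := hF r hr
    by_cases hz : dt d0 r = 0
    · -- s * (r.2 - s * r.1) ≠ 0
      have h3 : ∀ᶠ s : ℝ in 𝓝[>] 0, r.2 - s * r.1 ≠ 0 := by
        by_cases h2z : r.2 = 0
        · have h1z : r.1 ≠ 0 := by
            intro h1z; exact hr0 (Prod.ext h1z h2z)
          filter_upwards [self_mem_nhdsWithin] with s hs
          have hs' : (0:ℝ) < s := hs
          rw [h2z, zero_sub, neg_ne_zero]
          exact mul_ne_zero hs'.ne' h1z
        · have hc : Continuous fun s : ℝ => r.2 - s * r.1 := by fun_prop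
          have : ∀ᶠ s : ℝ in 𝓝 0, r.2 - s * r.1 ≠ 0 :=
            hc.continuousAt.eventually_ne (by simpa using h2z)
          exact this.filter_mono nhdsWithin_le_nhds
      filter_upwards [h3, self_mem_nhdsWithin] with s hs hs0
      have hs' : (0:ℝ) < s := hs0
      have e : dt (d0 + (s, s ^ 2)) r = s * (r.2 - s * r.1) := by
        rw [dt_add_left, hz]; simp [dt]; ring
      rw [e]
      exact mul_ne_zero hs'.ne' hs
    · have hc : Continuous fun s : ℝ => dt (d0 + (s, s ^ 2)) r := by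
        unfold dt; fun_prop
      have : ∀ᶠ s : ℝ in 𝓝 0, dt (d0 + (s, s ^ 2)) r ≠ 0 :=
        hc.continuousAt.eventually_ne (by simpa [Prod.mk_zero_zero] using hz)
      exact this.filter_mono nhdsWithin_le_nhds
  obtain ⟨s, hs1, hs2⟩ := (h1.and h2).exists
  exact ⟨_, hs1, hs2⟩

namespace TP

variable {V : Type*} (P : TP V)

theorem rot2 {a b c : V} (h : (a, b, c) ∈ P.T) : (c, a, b) ∈ P.T := P.rot (P.rot h)

/-- the predecessor in the link is unique -/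
theorem pre_uniq {v w w' x : V} (h : (v, w, x) ∈ P.T) (h' : (v, w', x) ∈ P.T) : w = w' := by
  set A := dt (P.p w' - P.p v) (P.p x - P.p v) with hA
  set C := dt (P.p w' - P.p v) (P.p w - P.p v) with hC
  have hApos : 0 < A := P.pos h'
  have hwx : 0 < dt (P.p w - P.p v) (P.p x - P.p v) := P.pos h
  have hden : 0 < |C| + 1 := by positivity
  have hδ : 0 < A / (|C| + 1) := by positivity
  set δ := A / (|C| + 1) with hδdef
  refine P.disj ((P.p x - P.p v) + δ • (P.p w - P.p v)) h h' ?_ ?_ ?_ ?_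
  · rw [dt_add_right, dt_smul_right, dt_self]; linarith
  · rw [dt_add_left, dt_smul_left, dt_self]
    have := mul_pos hδ hwx
    linarith
  · rw [dt_add_right, dt_smul_right, ← hA, ← hC]
    have h1 : A = δ * (|C| + 1) := by rw [hδdef]; field_simp
    have h2 : -|C| ≤ C := neg_abs_le C
    nlinarith
  · rw [dt_add_left, dt_smul_left, dt_self]
    have := mul_pos hδ hwx
    linarith

/-- the successor in the link is unique -/
theorem suc_uniq {v w x x' : V} (h : (v, w, x) ∈ P.T) (h' : (v, w, x') ∈ P.T) : x = x' :=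
  P.pre_uniq (P.rot h) (P.rot h')

theorem ne_of_mem {a b c : V} (h : (a, b, c) ∈ P.T) : P.p b - P.p a ≠ 0 := by
  intro h0
  have := P.pos h
  rw [h0, dt_zero_left] at this
  exact lt_irrefl _ this

theorem ne_of_mem' {a b c : V} (h : (a, b, c) ∈ P.T) : P.p c - P.p a ≠ 0 := by
  intro h0
  have := P.pos h
  rw [h0, dt_zero_right] at this
  exact lt_irrefl _ this

/-- `w0` starts the link of `b`: the edge `b w0` is one-sided -/
def Start (b w0 : V) : Prop := ∃ x, (b, w0, x) ∈ P.T ∧ ∀ y, (b, y, w0) ∉ P.T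

/-- `x1` ends the link of `b`: the edge `x1 b` is one-sided -/
def End (b x1 : V) : Prop := ∃ w, (b, w, x1) ∈ P.T ∧ ∀ y, (b, x1, y) ∉ P.T

/-- boundary vertices -/
def Bd (b : V) : Prop := ∃ w0, P.Start b w0

theorem start_left {b w0 : V} (h : P.Start b w0) (z : V) :
    0 ≤ dt (P.p w0 - P.p b) (P.p z - P.p b) := by
  obtain ⟨x, hx, hn⟩ := h
  rcases P.edge hx with ⟨d, hd⟩ | h
  · exact absurd (P.rot hd) (hn d)
  · exact h z

theorem end_left {b x1 : V} (h : P.End b x1) (z : V) :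
    0 ≤ dt (P.p z - P.p b) (P.p x1 - P.p b) := by
  obtain ⟨w, hw, hn⟩ := h
  rcases P.edge (P.rot2 hw) with ⟨d, hd⟩ | h
  · exact absurd hd (hn d)
  · have := h z
    have e : dt (P.p b - P.p x1) (P.p z - P.p x1) = dt (P.p z - P.p b) (P.p x1 - P.p b) := by
      simp [dt]; ring
    rwa [e] at this

theorem start_end {b w0 : V} (h : P.Start b w0) : P.End w0 b := by
  obtain ⟨x, hx, hn⟩ := h
  exact ⟨x, P.rot hx, fun y hy => hn y (P.rot hy)⟩

theorem end_start {b x1 : V} (h : P.End b x1) : P.Start x1 b := by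
  obtain ⟨w, hw, hn⟩ := h
  exact ⟨w, P.rot2 hw, fun y hy => hn y (P.rot (P.rot hy))⟩

theorem end_bd {b x1 : V} (h : P.End b x1) : P.Bd x1 := ⟨b, P.end_start h⟩

theorem pre_of_int {v w x : V} (hv : ¬ P.Bd v) (h : (v, w, x) ∈ P.T) : ∃ y, (v, y, w) ∈ P.T := by
  by_contra hn
  push Not at hn
  exact hv ⟨w, x, h, hn⟩

variable [Fintype V]

open Classical in
/-- the neighbours of `v` having a successor -/
noncomputable def N (v : V) : Finset V := univ.filter fun w => ∃ x, (v, w, x) ∈ P.T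

theorem mem_N {v w : V} : w ∈ P.N v ↔ ∃ x, (v, w, x) ∈ P.T := by simp [N]

theorem suc_of_int {v w x : V} (hv : ¬ P.Bd v) (h : (v, w, x) ∈ P.T) : ∃ y, (v, x, y) ∈ P.T := by
  have h1 : ∀ w ∈ P.N v, ∃ y ∈ P.N v, (v, y, w) ∈ P.T := by
    intro w hw
    obtain ⟨x, hx⟩ := P.mem_N.1 hw
    obtain ⟨y, hy⟩ := P.pre_of_int hv hx
    exact ⟨y, P.mem_N.2 ⟨w, hy⟩, hy⟩
  have h2 : ∀ w w' y, (v, y, w) ∈ P.T → (v, y, w') ∈ P.T → w = w' :=
    fun w w' y h h' => P.suc_uniq h h'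
  obtain ⟨w', hw', hw2⟩ := exists_pre (R := fun w y => (v, y, w) ∈ P.T) h1 h2 w (P.mem_N.2 ⟨x, h⟩)
  have : x = w' := P.suc_uniq h hw2
  subst this
  exact P.mem_N.1 hw'

theorem start_bd {b w0 : V} (h : P.Start b w0) : P.Bd w0 := by
  by_contra hv
  obtain ⟨x, hx, hn⟩ := P.start_end h
  obtain ⟨y, hy⟩ := P.suc_of_int hv hx
  exact hn y hy

theorem bd_exists_end {b : V} (hb : P.Bd b) : ∃ x1, P.End b x1 := by
  obtain ⟨w0, x0, hx0, hn⟩ := hb
  by_contra hc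
  push Not at hc
  have h1 : ∀ w ∈ P.N b, ∃ y ∈ P.N b, (b, w, y) ∈ P.T := by
    intro w hw
    obtain ⟨x, hx⟩ := P.mem_N.1 hw
    have := hc x
    unfold End at this
    push Not at this
    obtain ⟨y, hy⟩ := this w hx
    exact ⟨x, P.mem_N.2 ⟨y, hy⟩, hx⟩
  obtain ⟨w, -, hw⟩ := exists_pre (R := fun w y => (b, w, y) ∈ P.T) h1
    (fun w w' x h h' => P.pre_uniq h h') w0 (P.mem_N.2 ⟨x0, hx0⟩)
  exact hn w hw

/-- path lemma: a set containing the start but no end is left somewhere -/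
theorem path_lemma {b w0 : V} (hs : P.Start b w0) (S : V → Prop) (h0 : S w0)
    (hE : ∀ x1, P.End b x1 → ¬ S x1) : ∃ w x, (b, w, x) ∈ P.T ∧ S w ∧ ¬ S x := by
  classical
  by_contra hc
  push Not at hc
  obtain ⟨x0, hx0, hn⟩ := hs
  have h1 : ∀ w ∈ (P.N b).filter S, ∃ y ∈ (P.N b).filter S, (b, w, y) ∈ P.T := by
    intro w hw
    rw [mem_filter] at hw
    obtain ⟨x, hx⟩ := P.mem_N.1 hw.1
    have hSx := hc w x hx hw.2
    refine ⟨x, ?_, hx⟩
    rw [mem_filter]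
    refine ⟨?_, hSx⟩
    rw [P.mem_N]
    by_contra hno
    push Not at hno
    exact hE x ⟨w, hx, hno⟩ hSx
  obtain ⟨w, -, hw⟩ := exists_pre (R := fun w y => (b, w, y) ∈ P.T) h1
    (fun w w' x h h' => P.pre_uniq h h') w0 (by
      rw [mem_filter]; exact ⟨P.mem_N.2 ⟨x0, hx0⟩, h0⟩)
  exact hn w hw

/-- all the edge vectors -/
noncomputable def dirs : Finset (ℝ × ℝ) :=
  letI := Classical.decEq (ℝ × ℝ)
  P.T.image fun t => P.p t.2.1 - P.p t.1

/-- `d` is not parallel to an edge -/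
def Gn (d : ℝ × ℝ) : Prop := ∀ {a b c : V}, (a, b, c) ∈ P.T → dt d (P.p b - P.p a) ≠ 0

omit [Fintype V] in
theorem exists_Gn (U : Set (ℝ × ℝ)) (hU : IsOpen U) (d0 : ℝ × ℝ) (hd0 : d0 ∈ U) :
    ∃ d ∈ U, P.Gn d := by
  classical
  obtain ⟨d, hd, h⟩ := exists_generic (P.T.image fun t => P.p t.2.1 - P.p t.1) (by
    intro r hr
    rw [mem_image] at hr
    obtain ⟨⟨a, b, c⟩, ht, rfl⟩ := hr
    exact P.ne_of_mem ht) U hU d0 hd0
  refine ⟨d, hd, ?_⟩
  intro a b c ht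
  exact h _ (mem_image.2 ⟨(a, b, c), ht, rfl⟩)

omit [Fintype V] in
theorem Gn.right {P : TP V} {d : ℝ × ℝ} (hd : P.Gn d) {a b c : V} (h : (a, b, c) ∈ P.T) :
    dt d (P.p c - P.p a) ≠ 0 := by
  have := hd (P.rot2 h)
  intro h0
  apply this
  have : P.p a - P.p c = - (P.p c - P.p a) := by abel
  rw [this, dt_neg_right, h0, neg_zero]

/-- cycle lemma: the link of an interior vertex is connected -/
theorem cycle_lemma {v : V} (hv : ¬ P.Bd v) (S : V → Prop) {w0 w1 : V} (h0 : w0 ∈ P.N v)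
    (h1 : w1 ∈ P.N v) (hS0 : S w0) (hS1 : ¬ S w1) :
    ∃ w x, (v, w, x) ∈ P.T ∧ S w ∧ ¬ S x := by
  classical
  by_contra hc
  push Not at hc
  have c0 : ∀ w ∈ (P.N v).filter S, ∃ y ∈ (P.N v).filter S, (v, w, y) ∈ P.T := by
    intro w hw
    rw [mem_filter] at hw
    obtain ⟨x, hx⟩ := P.mem_N.1 hw.1
    exact ⟨x, mem_filter.2 ⟨P.mem_N.2 (P.suc_of_int hv hx), hc w x hx hw.2⟩, hx⟩
  have c1 : ∀ w ∈ (P.N v).filter (fun w => ¬ S w), ∃ y ∈ (P.N v).filter (fun w => ¬ S w),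
      (v, w, y) ∈ P.T := by
    intro w hw
    rw [mem_filter] at hw
    obtain ⟨x, hx⟩ := P.mem_N.1 hw.1
    have hxN := P.mem_N.2 (P.suc_of_int hv hx)
    refine ⟨x, mem_filter.2 ⟨hxN, ?_⟩, hx⟩
    intro hSx
    obtain ⟨w', hw', hw'2⟩ := exists_pre (R := fun w y => (v, w, y) ∈ P.T) c0
      (fun w w' x h h' => P.pre_uniq h h') x (mem_filter.2 ⟨hxN, hSx⟩)
    have := P.pre_uniq hx hw'2
    subst this
    exact hw.2 (mem_filter.1 hw').2
  obtain ⟨d, -, hd⟩ := P.exists_Gn Set.univ isOpen_univ 0 trivial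
  have d0 : ∀ w ∈ (P.N v).filter S, ∃ y ∈ (P.N v).filter S, (v, w, y) ∈ P.T ∧
      0 < dt (P.p w - P.p v) (P.p y - P.p v) := fun w hw => by
    obtain ⟨y, hy, h⟩ := c0 w hw; exact ⟨y, hy, h, P.pos h⟩
  have d1 : ∀ w ∈ (P.N v).filter (fun w => ¬ S w), ∃ y ∈ (P.N v).filter (fun w => ¬ S w),
      (v, w, y) ∈ P.T ∧ 0 < dt (P.p w - P.p v) (P.p y - P.p v) := fun w hw => by
    obtain ⟨y, hy, h⟩ := c1 w hw; exact ⟨y, hy, h, P.pos h⟩
  obtain ⟨w, hw, x, -, hR, -, h3, h4⟩ := cover_cone (S := (P.N v).filter S)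
    ⟨w0, mem_filter.2 ⟨h0, hS0⟩⟩ (fun w => P.p w - P.p v) (fun w y => (v, w, y) ∈ P.T) d0 d
  obtain ⟨w', hw', x', -, hR', -, h3', h4'⟩ := cover_cone (S := (P.N v).filter (fun w => ¬ S w))
    ⟨w1, mem_filter.2 ⟨h1, hS1⟩⟩ (fun w => P.p w - P.p v) (fun w y => (v, w, y) ∈ P.T) d1 d
  have e1 : dt (P.p w - P.p v) d ≠ 0 := by rw [dt_comm]; exact neg_ne_zero.2 (hd hR)
  have e2 : dt (P.p w' - P.p v) d ≠ 0 := by rw [dt_comm]; exact neg_ne_zero.2 (hd hR')
  have := P.disj d hR hR' (lt_of_le_of_ne h3 e1.symm) (lt_of_le_of_ne h4 (hd.right hR).symm)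
    (lt_of_le_of_ne h3' e2.symm) (lt_of_le_of_ne h4' (hd.right hR').symm)
  subst this
  exact (mem_filter.1 hw').2 (mem_filter.1 hw).2

/-- an interior vertex has neighbours in every open half plane, for every positive map `q` -/
theorem exists_half {v : V} (hv : ¬ P.Bd v) (q : V → ℝ × ℝ)
    (hq : ∀ {w x : V}, (v, w, x) ∈ P.T → 0 < dt (q w - q v) (q x - q v)) {e : ℝ × ℝ}
    (he : e ≠ 0) : ∃ w x, (v, w, x) ∈ P.T ∧ 0 < dt e (q w - q v) := by
  by_contra hn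
  push Not at hn
  have c0 : ∀ w ∈ P.N v, ∃ y ∈ P.N v, (v, w, y) ∈ P.T ∧ 0 < dt (q w - q v) (q y - q v) := by
    intro w hw
    obtain ⟨x, hx⟩ := P.mem_N.1 hw
    exact ⟨x, P.mem_N.2 (P.suc_of_int hv hx), hx, hq hx⟩
  have hne : (P.N v).Nonempty := by
    obtain ⟨w, x, h⟩ := P.used v
    exact ⟨w, P.mem_N.2 ⟨x, h⟩⟩
  obtain ⟨w, hw, x, hx, hR, h2, h3, h4⟩ := cover_cone hne (fun w => q w - q v)
    (fun w y => (v, w, y) ∈ P.T) c0 (-e.2, e.1)
  obtain ⟨y, hy⟩ := P.mem_N.1 hx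
  have k1 := hn w x hR
  have k2 := hn x y hy
  have id1 := dt_plk' (q w - q v) (q x - q v) (-e.2, e.1)
  have id2 := congrArg (dt e) id1
  rw [dt_smul_right, dt_add_right, dt_smul_right, dt_smul_right] at id2
  have hee : 0 < dt e (-e.2, e.1) := by
    have : dt e (-e.2, e.1) = e.1 ^ 2 + e.2 ^ 2 := by simp [dt]; ring
    rw [this]
    by_contra hc
    push Not at hc
    apply he
    have h7 : e.1 = 0 := by nlinarith [sq_nonneg e.1, sq_nonneg e.2]
    have h8 : e.2 = 0 := by nlinarith [sq_nonneg e.1, sq_nonneg e.2]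
    exact Prod.ext h7 h8
  have h5 := mul_pos h2 hee
  have h6 := mul_nonpos_of_nonneg_of_nonpos h4 k1
  have h7 := mul_nonpos_of_nonneg_of_nonpos h3 k2
  linarith

end TP

end Crest.Agent.R096.Tut_334
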