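import Crest.Agent.R096.Tut1_334

/-!
Row 96, P5-TUTTE (helper334), part 2: the counting lemma.
Every triangle has exactly one middle vertex, so the sum over the vertices of the number of
triangles in which the vertex is the middle one does not depend on the order.
-/

set_option autoImplicit false

namespace Crest.Agent.R096.Tut_334

open Finset Filter Topology

/-- the first vertex of the triple is the middle one -/
def Mid {V : Type*} (h : V → ℝ) (t : V × V × V) : Prop :=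
  (h t.2.1 < h t.1 ∧ h t.1 < h t.2.2) ∨ (h t.2.2 < h t.1 ∧ h t.1 < h t.2.1)

namespace TP

variable {V : Type*} (P : TP V)

/-- `h` is injective on edges -/
def Inj (h : V → ℝ) : Prop := ∀ {a b c : V}, (a, b, c) ∈ P.T → h a ≠ h b

open Classical in
/-- number of triangles in which `v` is the middle vertex -/
noncomputable def sc (h : V → ℝ) (v : V) : ℕ := (P.T.filter fun t => t.1 = v ∧ Mid h t).card

theorem Inj.right {P : TP V} {h : V → ℝ} (hi : P.Inj h) {a b c : V} (ht : (a, b, c) ∈ P.T) :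
    h a ≠ h c := (hi (P.rot2 ht)).symm

open Classical in
theorem three_mul (h : V → ℝ) (hi : P.Inj h) : 3 * (P.T.filter (Mid h)).card = P.T.card := by
  set r : V × V × V → V × V × V := fun t => (t.2.1, t.2.2, t.1) with hr
  have rT : ∀ t ∈ P.T, r t ∈ P.T := fun ⟨a, b, c⟩ ht => P.rot ht
  have r3 : ∀ t, r (r (r t)) = t := fun ⟨a, b, c⟩ => rfl
  have hbij : ∀ F : V × V × V → ℕ, ∑ t ∈ P.T, F (r t) = ∑ t ∈ P.T, F t := by
    intro F
    refine Finset.sum_nbij' r (fun t => r (r t)) rT (fun t ht => rT _ (rT _ ht)) ?_ ?_ ?_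
    · intro t _; exact r3 t
    · intro t _; exact r3 t
    · intro t _; rfl
  have key : ∀ t ∈ P.T, (1 : ℕ) = (if Mid h t then 1 else 0) + (if Mid h (r t) then 1 else 0)
      + (if Mid h (r (r t)) then 1 else 0) := by
    rintro ⟨a, b, c⟩ ht
    have h1 : h a ≠ h b := hi ht
    have h2 : h b ≠ h c := hi (P.rot ht)
    have h3 : h c ≠ h a := hi (P.rot2 ht)
    simp only [Mid, hr]
    rcases lt_or_gt_of_ne h1 with h1 | h1 <;> rcases lt_or_gt_of_ne h2 with h2 | h2 <;>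
      rcases lt_or_gt_of_ne h3 with h3 | h3
    · exact absurd (h1.trans (h2.trans h3)) (lt_irrefl _)
    · simp [h1, h2, h3, h1.not_gt, h2.not_gt, h3.not_gt]
    · simp [h1, h2, h3, h1.not_gt, h2.not_gt, h3.not_gt]
    · simp [h1, h2, h3, h1.not_gt, h2.not_gt, h3.not_gt]
    · simp [h1, h2, h3, h1.not_gt, h2.not_gt, h3.not_gt]
    · simp [h1, h2, h3, h1.not_gt, h2.not_gt, h3.not_gt]
    · simp [h1, h2, h3, h1.not_gt, h2.not_gt, h3.not_gt]
    · exact absurd (h1.trans (h3.trans h2)) (lt_irrefl _)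
  have e1 : P.T.card = ∑ t ∈ P.T, (1 : ℕ) := by simp
  rw [e1, Finset.sum_congr rfl key, Finset.sum_add_distrib, Finset.sum_add_distrib,
    hbij (fun t => if Mid h t then 1 else 0), hbij (fun t => if Mid h (r t) then 1 else 0),
    hbij (fun t => if Mid h t then 1 else 0), ← Finset.card_filter]
  ring

theorem sum_sc [Fintype V] (h : V → ℝ) (hi : P.Inj h) : 3 * ∑ v, P.sc h v = P.T.card := by
  classical
  rw [← P.three_mul h hi]
  congr 1
  rw [Finset.card_eq_sum_card_fiberwise (f := fun t : V × V × V => t.1) (t := univ)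
    (fun _ _ => by simp)]
  refine Finset.sum_congr rfl fun v _ => ?_
  unfold sc
  congr 1
  ext t
  simp only [mem_filter]
  tauto

theorem sc_eq_of_le [Fintype V] {h h' : V → ℝ} (hi : P.Inj h) (hi' : P.Inj h')
    (hle : ∀ v, P.sc h' v ≤ P.sc h v) (v : V) : P.sc h v = P.sc h' v := by
  have h1 := P.sum_sc h hi
  have h2 := P.sum_sc h' hi'
  have h3 : ∑ v, P.sc h' v = ∑ v, P.sc h v := by omega
  have := (Finset.sum_eq_sum_iff_of_le (fun v _ => hle v)).1 h3 v (mem_univ v)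
  exact this.symm

/-- the reference order -/
def ref (d : ℝ × ℝ) (v : V) : ℝ := dt d (P.p v)

theorem ref_inj {d : ℝ × ℝ} (hd : P.Gn d) : P.Inj (P.ref d) := by
  intro a b c h h0
  apply hd h
  rw [dt_sub_right]
  unfold ref at h0
  linarith

theorem ref_lt {d : ℝ × ℝ} {a b : V} : P.ref d a < P.ref d b ↔ 0 < dt d (P.p b - P.p a) := by
  rw [dt_sub_right]; unfold ref; constructor <;> intro h <;> linarith

theorem ref_gt {d : ℝ × ℝ} {a b : V} : P.ref d b < P.ref d a ↔ 0 < dt (P.p b - P.p a) d := by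
  rw [dt_comm, dt_sub_right]; unfold ref; constructor <;> intro h <;> linarith

open Classical in
/-- triangles at `v` whose open cone contains `d` -/
noncomputable def cn (d : ℝ × ℝ) (v : V) : Finset (V × V × V) :=
  P.T.filter fun t => t.1 = v ∧ 0 < dt (P.p t.2.1 - P.p t.1) d ∧ 0 < dt d (P.p t.2.2 - P.p t.1)

theorem cn_le (d : ℝ × ℝ) (v : V) : (P.cn d v).card ≤ 1 := by
  rw [Finset.card_le_one]
  rintro ⟨a, w, x⟩ h ⟨a', w', x'⟩ h'
  simp only [cn, mem_filter] at h h'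
  obtain ⟨h1, rfl, h2, h3⟩ := h
  obtain ⟨h1', rfl, h2', h3'⟩ := h'
  have e := P.disj d h1 h1' h2 h3 h2' h3'
  subst e
  have := P.suc_uniq h1 h1'
  subst this
  rfl

open Classical in
theorem sc_ref_le (d : ℝ × ℝ) (v : V) :
    P.sc (P.ref d) v ≤ (P.cn d v).card + (P.cn (-d) v).card := by
  unfold sc
  have : (P.T.filter fun t => t.1 = v ∧ Mid (P.ref d) t) ⊆ P.cn d v ∪ P.cn (-d) v := by
    intro t h
    rw [mem_filter] at h
    obtain ⟨a, w, x⟩ := t
    simp only [Mid] at h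
    simp only [mem_union, cn, mem_filter]
    obtain ⟨h1, rfl, h | h⟩ := h
    · left
      exact ⟨h1, rfl, P.ref_gt.1 h.1, P.ref_lt.1 h.2⟩
    · right
      refine ⟨h1, rfl, ?_, ?_⟩
      · rw [dt_neg_right, ← dt_comm]; exact P.ref_lt.1 h.2
      · rw [dt_neg_left, ← dt_comm]; exact P.ref_gt.1 h.1
  exact (card_le_card this).trans (card_union_le _ _)

theorem sc_ref_le_two (d : ℝ × ℝ) (v : V) : P.sc (P.ref d) v ≤ 2 := by
  have := P.sc_ref_le d v
  have h1 := P.cn_le d v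
  have h2 := P.cn_le (-d) v
  omega

/-- cones at a boundary vertex lie on the left of the first edge -/
theorem start_cn {b w0 : V} (hs : P.Start b w0) {d : ℝ × ℝ} (hd : P.Gn d)
    (hc : (P.cn d b).Nonempty) : 0 < dt (P.p w0 - P.p b) d := by
  classical
  obtain ⟨⟨a, w, x⟩, ht⟩ := hc
  simp only [cn, mem_filter] at ht
  obtain ⟨h1, rfl, h2, h3⟩ := ht
  have hp := P.pos h1
  have id1 := congrArg (dt (P.p w0 - P.p a)) (dt_plk' (P.p w - P.p a) (P.p x - P.p a) d)
  rw [dt_smul_right, dt_add_right, dt_smul_right, dt_smul_right] at id1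
  have k1 := P.start_left hs w
  have k2 := P.start_left hs x
  have k3 := mul_nonneg h3.le k1
  have k4 := mul_nonneg h2.le k2
  have k5 : 0 ≤ dt (P.p w0 - P.p a) d := by
    by_contra hneg
    push Not at hneg
    have := mul_neg_of_pos_of_neg hp hneg
    linarith
  obtain ⟨x0, hx0, -⟩ := hs
  have k6 := hd hx0
  rw [dt_comm] at k6
  exact lt_of_le_of_ne k5 (neg_ne_zero.1 k6).symm

theorem end_cn {b x1 : V} (hs : P.End b x1) {d : ℝ × ℝ} (hd : P.Gn d)
    (hc : (P.cn d b).Nonempty) : 0 < dt d (P.p x1 - P.p b) := by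
  classical
  obtain ⟨⟨a, w, x⟩, ht⟩ := hc
  simp only [cn, mem_filter] at ht
  obtain ⟨h1, rfl, h2, h3⟩ := ht
  have hp := P.pos h1
  have id1 := congrArg (fun y => dt y (P.p x1 - P.p a))
    (dt_plk' (P.p w - P.p a) (P.p x - P.p a) d)
  simp only [dt_smul_left, dt_add_left] at id1
  have k1 := P.end_left hs w
  have k2 := P.end_left hs x
  have k3 := mul_nonneg h3.le k1
  have k4 := mul_nonneg h2.le k2
  have k5 : 0 ≤ dt d (P.p x1 - P.p a) := by
    by_contra hneg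
    push Not at hneg
    have := mul_neg_of_pos_of_neg hp hneg
    linarith
  obtain ⟨w1, hw1, -⟩ := hs
  exact lt_of_le_of_ne k5 (hd.right hw1).symm

theorem Gn.neg {P : TP V} {d : ℝ × ℝ} (hd : P.Gn d) : P.Gn (-d) := by
  intro a b c h
  rw [dt_neg_left]
  exact neg_ne_zero.2 (hd h)

/-- the boundary count -/
theorem sc_ref_bd {b w0 : V} (hs : P.Start b w0) {d : ℝ × ℝ} (hd : P.Gn d) :
    P.sc (P.ref d) b ≤ 1 ∧ (P.sc (P.ref d) b ≠ 0 →
      (P.ref d w0 < P.ref d b ∧ ∀ x1, P.End b x1 → P.ref d b < P.ref d x1) ∨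
      (P.ref d b < P.ref d w0 ∧ ∀ x1, P.End b x1 → P.ref d x1 < P.ref d b)) := by
  have h0 := P.sc_ref_le d b
  have h1 := P.cn_le d b
  have h2 := P.cn_le (-d) b
  have a1 : (P.cn d b).Nonempty → (P.ref d w0 < P.ref d b ∧
      ∀ x1, P.End b x1 → P.ref d b < P.ref d x1) := by
    intro hne
    refine ⟨P.ref_gt.2 (P.start_cn hs hd hne), fun x1 hx1 => P.ref_lt.2 (P.end_cn hx1 hd hne)⟩
  have a2 : (P.cn (-d) b).Nonempty → (P.ref d b < P.ref d w0 ∧
      ∀ x1, P.End b x1 → P.ref d x1 < P.ref d b) := by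
    intro hne
    refine ⟨P.ref_lt.2 ?_, fun x1 hx1 => P.ref_gt.2 ?_⟩
    · have := P.start_cn hs hd.neg hne
      rwa [dt_neg_right, ← dt_comm] at this
    · have := P.end_cn hx1 hd.neg hne
      rwa [dt_neg_left, ← dt_comm] at this
  by_cases c1 : (P.cn d b).Nonempty
  · by_cases c2 : (P.cn (-d) b).Nonempty
    · exact absurd ((a1 c1).1.trans (a2 c2).1) (lt_irrefl _)
    · rw [not_nonempty_iff_eq_empty] at c2
      rw [c2, card_empty] at h0
      exact ⟨by omega, fun _ => Or.inl (a1 c1)⟩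
  · rw [not_nonempty_iff_eq_empty] at c1
    rw [c1, card_empty] at h0
    by_cases c2 : (P.cn (-d) b).Nonempty
    · exact ⟨by omega, fun _ => Or.inr (a2 c2)⟩
    · rw [not_nonempty_iff_eq_empty] at c2
      rw [c2, card_empty] at h0
      exact ⟨by omega, fun h => absurd (by omega) h⟩

/-- upward transition at `v` -/
def Up (h : V → ℝ) (v w x : V) : Prop := (v, w, x) ∈ P.T ∧ h w < h v ∧ h v < h x

/-- downward transition at `v` -/
def Dn (h : V → ℝ) (v w x : V) : Prop := (v, w, x) ∈ P.T ∧ h x < h v ∧ h v < h w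

theorem Up.mid {P : TP V} {h : V → ℝ} {v w x : V} (hu : P.Up h v w x) : Mid h (v, w, x) :=
  Or.inl ⟨hu.2.1, hu.2.2⟩

theorem Dn.mid {P : TP V} {h : V → ℝ} {v w x : V} (hu : P.Dn h v w x) : Mid h (v, w, x) :=
  Or.inr ⟨hu.2.1, hu.2.2⟩

theorem one_le_sc {h : V → ℝ} {v w x : V} (ht : (v, w, x) ∈ P.T) (hm : Mid h (v, w, x)) :
    1 ≤ P.sc h v := by
  classical
  unfold sc
  rw [Nat.one_le_iff_ne_zero, ← Nat.pos_iff_ne_zero, card_pos]
  exact ⟨(v, w, x), by simp [ht, hm]⟩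

theorem two_le_sc {h : V → ℝ} {v w x w' x' : V} (ht : (v, w, x) ∈ P.T) (hm : Mid h (v, w, x))
    (ht' : (v, w', x') ∈ P.T) (hm' : Mid h (v, w', x')) (hne : w ≠ w') : 2 ≤ P.sc h v := by
  classical
  unfold sc
  have : ({(v, w, x), (v, w', x')} : Finset (V × V × V)) ⊆
      P.T.filter fun t => t.1 = v ∧ Mid h t := by
    intro t h
    rw [mem_insert, mem_singleton] at h
    rcases h with rfl | rfl
    · simp [ht, hm]
    · simp [ht', hm']
  have h2 := card_le_card this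
  rwa [card_pair (by simp [hne])] at h2

theorem three_le_sc {h : V → ℝ} {v w x w' x' w'' x'' : V} (ht : (v, w, x) ∈ P.T)
    (hm : Mid h (v, w, x)) (ht' : (v, w', x') ∈ P.T) (hm' : Mid h (v, w', x'))
    (ht'' : (v, w'', x'') ∈ P.T) (hm'' : Mid h (v, w'', x''))
    (h1 : w ≠ w') (h2 : w ≠ w'') (h3 : w' ≠ w'') : 3 ≤ P.sc h v := by
  classical
  unfold sc
  have : ({(v, w, x), (v, w', x'), (v, w'', x'')} : Finset (V × V × V)) ⊆
      P.T.filter fun t => t.1 = v ∧ Mid h t := by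
    intro t h
    rw [mem_insert, mem_insert, mem_singleton] at h
    rcases h with rfl | rfl | rfl
    · simp [ht, hm]
    · simp [ht', hm']
    · simp [ht'', hm'']
  have h4 := card_le_card this
  rwa [card_eq_three.2 ⟨_, _, _, by simp [h1], by simp [h2], by simp [h3], rfl⟩] at h4

theorem Up.not_dn {P : TP V} {h : V → ℝ} {v w x w' x' : V} (hu : P.Up h v w x)
    (hd : P.Dn h v w' x') : w ≠ w' := by
  rintro rfl
  exact absurd (hu.2.1.trans hd.2.2) (lt_irrefl _)

variable [Fintype V]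

/-- both transitions occur round an interior vertex with neighbours on both sides -/
theorem exists_dn {h : V → ℝ} (hi : P.Inj h) {v : V} (hv : ¬ P.Bd v) {w0 w1 x0 x1 : V}
    (h0 : (v, w0, x0) ∈ P.T) (h1 : (v, w1, x1) ∈ P.T) (hl : h w0 < h v) (hu : h v < h w1) :
    ∃ w x, P.Dn h v w x := by
  obtain ⟨w, x, ht, hw, hx⟩ := P.cycle_lemma hv (fun w => h v < h w) (P.mem_N.2 ⟨x1, h1⟩)
    (P.mem_N.2 ⟨x0, h0⟩) hu (not_lt.2 hl.le)
  exact ⟨w, x, ht, lt_of_le_of_ne (not_lt.1 hx) (hi.right ht).symm, hw⟩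

theorem exists_up {h : V → ℝ} (hi : P.Inj h) {v : V} (hv : ¬ P.Bd v) {w0 w1 x0 x1 : V}
    (h0 : (v, w0, x0) ∈ P.T) (h1 : (v, w1, x1) ∈ P.T) (hl : h w0 < h v) (hu : h v < h w1) :
    ∃ w x, P.Up h v w x := by
  obtain ⟨w, x, ht, hw, hx⟩ := P.cycle_lemma hv (fun w => h w < h v) (P.mem_N.2 ⟨x0, h0⟩)
    (P.mem_N.2 ⟨x1, h1⟩) hl (not_lt.2 hu.le)
  exact ⟨w, x, ht, hw, lt_of_le_of_ne (not_lt.1 hx) (hi.right ht)⟩

/-- THE COMPARISON: a function with the boundary values of a generic linear functional and with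
higher and lower neighbours at every interior vertex has the same number of sign changes. -/
theorem sc_eq_ref {h : V → ℝ} (hi : P.Inj h) {d : ℝ × ℝ} (hd : P.Gn d)
    (hb : ∀ b, P.Bd b → h b = P.ref d b)
    (hl : ∀ v, ¬ P.Bd v → ∃ w x, (v, w, x) ∈ P.T ∧ h w < h v)
    (hu : ∀ v, ¬ P.Bd v → ∃ w x, (v, w, x) ∈ P.T ∧ h v < h w) (v : V) :
    P.sc h v = P.sc (P.ref d) v := by
  refine P.sc_eq_of_le hi (P.ref_inj hd) ?_ v
  intro v
  by_cases hv : P.Bd v
  · obtain ⟨w0, hs⟩ := hv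
    have hvB : P.Bd v := ⟨w0, hs⟩
    obtain ⟨h1, h2⟩ := P.sc_ref_bd hs hd
    by_cases hz : P.sc (P.ref d) v = 0
    · omega
    · refine h1.trans ?_
      have e0 : h v = P.ref d v := hb v hvB
      have e1 : h w0 = P.ref d w0 := hb w0 (P.start_bd hs)
      rcases h2 hz with ⟨k1, k2⟩ | ⟨k1, k2⟩
      · obtain ⟨w, x, ht, hw, hx⟩ := P.path_lemma hs (fun w => h w < h v) (by
          simp only [e0, e1]; exact k1) (by
          intro x1 hx1
          simp only [e0, hb x1 (P.end_bd hx1)]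
          exact not_lt.2 (k2 x1 hx1).le)
        exact P.one_le_sc ht (Or.inl ⟨hw, lt_of_le_of_ne (not_lt.1 hx) (hi.right ht)⟩)
      · obtain ⟨w, x, ht, hw, hx⟩ := P.path_lemma hs (fun w => h v < h w) (by
          simp only [e0, e1]; exact k1) (by
          intro x1 hx1
          simp only [e0, hb x1 (P.end_bd hx1)]
          exact not_lt.2 (k2 x1 hx1).le)
        exact P.one_le_sc ht (Or.inr ⟨lt_of_le_of_ne (not_lt.1 hx) (hi.right ht).symm, hw⟩)
  · refine (P.sc_ref_le_two d v).trans ?_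
    obtain ⟨w0, x0, h0, hl0⟩ := hl v hv
    obtain ⟨w1, x1, h1, hu1⟩ := hu v hv
    obtain ⟨w, x, hdn⟩ := P.exists_dn hi hv h0 h1 hl0 hu1
    obtain ⟨w', x', hup⟩ := P.exists_up hi hv h0 h1 hl0 hu1
    exact P.two_le_sc hup.1 hup.mid hdn.1 hdn.mid (hup.not_dn hdn)

theorem dn_uniq {h : V → ℝ} (hi : P.Inj h) {v : V} (hv : ¬ P.Bd v) (hs : P.sc h v ≤ 2)
    {w x w' x' : V} (h1 : P.Dn h v w x) (h2 : P.Dn h v w' x') : w = w' := by
  by_contra hne
  obtain ⟨y, hy⟩ := P.suc_of_int hv h1.1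
  obtain ⟨u, z, hu⟩ := P.exists_up hi hv hy h1.1 h1.2.1 h1.2.2
  have := P.three_le_sc h1.1 h1.mid h2.1 h2.mid hu.1 hu.mid hne (hu.not_dn h1).symm
    (hu.not_dn h2).symm
  omega

theorem up_uniq {h : V → ℝ} (hi : P.Inj h) {v : V} (hv : ¬ P.Bd v) (hs : P.sc h v ≤ 2)
    {w x w' x' : V} (h1 : P.Up h v w x) (h2 : P.Up h v w' x') : w = w' := by
  by_contra hne
  obtain ⟨y, hy⟩ := P.suc_of_int hv h1.1
  obtain ⟨u, z, hu⟩ := P.exists_dn hi hv h1.1 hy h1.2.1 h1.2.2
  have := P.three_le_sc h1.1 h1.mid h2.1 h2.mid hu.1 hu.mid hne (h1.not_dn hu)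
    (h2.not_dn hu)
  omega

end TP

end Crest.Agent.R096.Tut_334
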