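import Crest.Agent.R096.Tut2_334

/-!
Row 96, P5-TUTTE (helper334), part 3: a balanced map with the boundary values of the reference has
no degenerate triangle.
-/

set_option autoImplicit false

namespace Crest.Agent.R096.Tut_334

open Finset Filter Topology

namespace TP

variable {V : Type*} (P : TP V) [Fintype V]

/-- two orders, one transition read down by `h₁` and up by `h₂`: no common upper and lower
neighbour -/
theorem two_orders {h₁ h₂ : V → ℝ} (i₁ : P.Inj h₁) (i₂ : P.Inj h₂) {v : V} (hv : ¬ P.Bd v)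
    (s₁ : P.sc h₁ v ≤ 2) (s₂ : P.sc h₂ v ≤ 2) {w x : V} (d₁ : P.Dn h₁ v w x)
    (u₂ : P.Up h₂ v w x) {yp xp ym xm : V} (hyp : (v, yp, xp) ∈ P.T) (hym : (v, ym, xm) ∈ P.T)
    (p₁ : h₁ v < h₁ yp) (p₂ : h₂ v < h₂ yp) (m₁ : h₁ ym < h₁ v) (m₂ : h₂ ym < h₂ v) : False := by
  classical
  set Z : Finset V := (P.N v).filter fun y => h₁ y < h₁ v ∧ h₂ v < h₂ y with hZ
  -- entries
  have entry : ∀ y z, (v, y, z) ∈ P.T → z ∈ Z → y ∉ Z → y = w := by
    intro y z ht hz hy
    rw [hZ, mem_filter] at hz hy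
    push Not at hy
    have hyN : y ∈ P.N v := P.mem_N.2 ⟨z, ht⟩
    rcases lt_or_gt_of_ne (i₁ ht) with h | h
    · exact P.dn_uniq i₁ hv s₁ ⟨ht, hz.2.1, h⟩ d₁
    · have h2 := hy hyN h
      exact P.up_uniq i₂ hv s₂ ⟨ht, lt_of_le_of_ne h2 (i₂ ht).symm, hz.2.2⟩ u₂
  -- first exit
  obtain ⟨y, z, ht, hy, hz⟩ := P.cycle_lemma hv (fun y => ¬ (h₁ y < h₁ v ∧ h₂ y < h₂ v))
    (P.mem_N.2 ⟨xp, hyp⟩) (P.mem_N.2 ⟨xm, hym⟩) (fun h => absurd (h.1.trans p₁) (lt_irrefl _))
    (by rw [not_not]; exact ⟨m₁, m₂⟩)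
  rw [not_not] at hz
  have hyZ : y ∈ Z := by
    rw [hZ, mem_filter]
    refine ⟨P.mem_N.2 ⟨z, ht⟩, ?_⟩
    have h1 : h₁ y < h₁ v := by
      rcases lt_or_gt_of_ne (i₁ ht) with h | h
      · exfalso
        have := P.dn_uniq i₁ hv s₁ ⟨ht, hz.1, h⟩ d₁
        subst this
        have := P.suc_uniq ht d₁.1
        subst this
        exact absurd (hz.2.trans u₂.2.2) (lt_irrefl _)
      · exact h
    refine ⟨h1, ?_⟩
    by_contra h2
    exact hy ⟨h1, lt_of_le_of_ne (not_lt.1 h2) (i₂ ht).symm⟩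
  -- second exit
  obtain ⟨y', z', ht', hy', hz'⟩ := P.cycle_lemma hv (fun y => ¬ (h₁ v < h₁ y ∧ h₂ v < h₂ y))
    (P.mem_N.2 ⟨xm, hym⟩) (P.mem_N.2 ⟨xp, hyp⟩) (fun h => absurd (h.1.trans m₁) (lt_irrefl _))
    (by rw [not_not]; exact ⟨p₁, p₂⟩)
  rw [not_not] at hz'
  have hyZ' : y' ∈ Z := by
    rw [hZ, mem_filter]
    refine ⟨P.mem_N.2 ⟨z', ht'⟩, ?_⟩
    have h1 : h₂ v < h₂ y' := by
      rcases lt_or_gt_of_ne (i₂ ht') with h | h
      · exact h
      · exfalso
        have := P.up_uniq i₂ hv s₂ ⟨ht', h, hz'.2⟩ u₂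
        subst this
        have := P.suc_uniq ht' d₁.1
        subst this
        exact absurd (hz'.1.trans d₁.2.1) (lt_irrefl _)
    refine ⟨?_, h1⟩
    by_contra h2
    exact hy' ⟨lt_of_le_of_ne (not_lt.1 h2) (i₁ ht'), h1⟩
  have hne : y' ≠ y := by
    rintro rfl
    have := P.suc_uniq ht ht'
    subst this
    exact absurd (hz.1.trans hz'.1) (lt_irrefl _)
  -- the predecessor map
  have hpre : ∀ u ∈ Z.erase x, ∃ t ∈ (Z.erase y).erase y', (v, t, u) ∈ P.T := by
    intro u hu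
    rw [mem_erase] at hu
    obtain ⟨q, hq⟩ := P.mem_N.1 (mem_filter.1 hu.2).1
    obtain ⟨t, ht2⟩ := P.pre_of_int hv hq
    have htZ : t ∈ Z := by
      by_contra hc
      have := entry t u ht2 hu.2 hc
      subst this
      exact hu.1 (P.suc_uniq ht2 d₁.1)
    have huZ := (mem_filter.1 hu.2).2
    refine ⟨t, ?_, ht2⟩
    rw [mem_erase, mem_erase]
    refine ⟨?_, ?_, htZ⟩
    · rintro rfl
      have := P.suc_uniq ht2 ht'
      subst this
      exact absurd (hz'.1.trans huZ.1) (lt_irrefl _)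
    · rintro rfl
      have := P.suc_uniq ht2 ht
      subst this
      exact absurd (hz.2.trans huZ.2) (lt_irrefl _)
  choose! g hg hgT using hpre
  have hcard : (Z.erase x).card ≤ ((Z.erase y).erase y').card := by
    apply Finset.card_le_card_of_injOn g hg
    intro a ha b hb hab
    have h1 := hgT a ha
    have h2 := hgT b hb
    rw [hab] at h1
    exact P.suc_uniq h1 h2
  have c1 : (Z.erase y).card = Z.card - 1 := card_erase_of_mem hyZ
  have c2 : ((Z.erase y).erase y').card = (Z.erase y).card - 1 :=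
    card_erase_of_mem (mem_erase.2 ⟨hne, hyZ'⟩)
  have c3 : Z.card - 1 ≤ (Z.erase x).card := pred_card_le_card_erase
  have c4 : 2 ≤ Z.card := by
    have : ({y', y} : Finset V) ⊆ Z := by
      intro t ht; rw [mem_insert, mem_singleton] at ht
      rcases ht with rfl | rfl
      · exact hyZ'
      · exact hyZ
    have h2 := card_le_card this
    rwa [card_pair hne] at h2
  omega

theorem pert (f g : V → ℝ) :
    ∀ᶠ s : ℝ in 𝓝[>] 0, ∀ v w, f v < f w → f v + s * g v < f w + s * g w := by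
  rw [Filter.eventually_all]
  intro v
  rw [Filter.eventually_all]
  intro w
  by_cases h : f v < f w
  · have hc : Continuous fun s : ℝ => (f w + s * g w) - (f v + s * g v) := by fun_prop
    have : ∀ᶠ s : ℝ in 𝓝 0, 0 < (f w + s * g w) - (f v + s * g v) :=
      (hc.tendsto 0).eventually (lt_mem_nhds (by simpa using h))
    exact (this.filter_mono nhdsWithin_le_nhds).mono fun s hs _ => by linarith
  · exact Eventually.of_forall fun s h' => absurd h' h

/-- balanced map with the boundary values of the reference -/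
structure Bal (φ : V → ℝ × ℝ) : Prop where
  bd : ∀ b, P.Bd b → φ b = P.p b
  bal : ∀ v, ¬ P.Bd v → ∀ e : ℝ × ℝ, (∀ w x, (v, w, x) ∈ P.T → dt e (φ w) = dt e (φ v)) ∨
    ((∃ w x, (v, w, x) ∈ P.T ∧ dt e (φ v) < dt e (φ w)) ∧
      (∃ w x, (v, w, x) ∈ P.T ∧ dt e (φ w) < dt e (φ v)))


/-- the perturbed function -/
def hh (φ : V → ℝ × ℝ) (e n : ℝ × ℝ) (s : ℝ) (v : V) : ℝ := dt e (φ v) + s * dt n (P.p v)

omit [Fintype V] in
theorem hh_neg (φ : V → ℝ × ℝ) (e n : ℝ × ℝ) (s : ℝ) (v : V) :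
    P.hh φ e (-n) s v = dt e (φ v) - s * dt n (P.p v) := by
  unfold hh; rw [dt_neg_left]; ring

/-- what one gets from a small perturbation -/
structure Good (φ : V → ℝ × ℝ) (e n : ℝ × ℝ) (s : ℝ) : Prop where
  s_pos : 0 < s
  gn : P.Gn (e + s • n)
  inj : P.Inj (P.hh φ e n s)
  lt : ∀ v w, dt e (φ v) < dt e (φ w) → P.hh φ e n s v < P.hh φ e n s w
  sc_eq : ∀ v, P.sc (P.hh φ e n s) v = P.sc (P.ref (e + s • n)) v
  bd : ∀ b, P.Bd b → P.hh φ e n s b = P.ref (e + s • n) b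

theorem good {φ : V → ℝ × ℝ} (hφ : P.Bal φ) {e n : ℝ × ℝ} (hn : P.Gn n) :
    ∀ᶠ s : ℝ in 𝓝[>] 0, P.Good φ e n s := by
  filter_upwards [pert (fun v => dt e (φ v)) (fun v => dt n (P.p v)),
    pert (fun v => dt e (P.p v)) (fun v => dt n (P.p v)), self_mem_nhdsWithin] with s h1 h2 hs
  have hs : 0 < s := hs
  have hn0 : ∀ v : V, n ≠ 0 := by
    intro v h0
    obtain ⟨w, x, ht⟩ := P.used v
    apply hn ht
    rw [h0, dt_zero_left]
  have hinj : ∀ (g : V → ℝ), (∀ v w, g v < g w → g v + s * dt n (P.p v) < g w + s * dt n (P.p w)) →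
      ∀ {a b c : V}, (a, b, c) ∈ P.T → g a + s * dt n (P.p a) ≠ g b + s * dt n (P.p b) := by
    intro g hg a b c ht h0
    rcases lt_trichotomy (g a) (g b) with h | h | h
    · exact absurd h0 (hg _ _ h).ne
    · rw [h] at h0
      have h3 : s * dt n (P.p a) = s * dt n (P.p b) := by linarith
      have h4 := mul_left_cancel₀ hs.ne' h3
      apply hn ht
      rw [dt_sub_right, h4, sub_self]
    · exact absurd h0 (hg _ _ h).ne'
  have hgn : P.Gn (e + s • n) := by
    intro a b c ht h0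
    apply hinj (fun v => dt e (P.p v)) h2 ht
    rw [dt_add_left, dt_smul_left, dt_sub_right, dt_sub_right] at h0
    linarith
  have hI : P.Inj (P.hh φ e n s) := fun {a b c} ht => hinj (fun v => dt e (φ v)) h1 ht
  have hbd : ∀ b, P.Bd b → P.hh φ e n s b = P.ref (e + s • n) b := by
    intro b hb
    unfold hh ref
    rw [hφ.bd b hb, dt_add_left, dt_smul_left]
  have hlt : ∀ v w, dt e (φ v) < dt e (φ w) → P.hh φ e n s v < P.hh φ e n s w :=
    fun v w h => h1 v w h
  refine ⟨hs, hgn, hI, hlt, ?_, hbd⟩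
  refine P.sc_eq_ref hI hgn hbd ?_ ?_
  · intro v hv
    rcases hφ.bal v hv e with h | h
    · obtain ⟨w, x, ht, hw⟩ := P.exists_half hv P.p (fun h => P.pos h) (neg_ne_zero.2 (hn0 v))
      refine ⟨w, x, ht, ?_⟩
      unfold hh
      rw [h w x ht]
      rw [dt_neg_left, dt_sub_right] at hw
      have : dt n (P.p w) < dt n (P.p v) := by linarith
      have := mul_lt_mul_of_pos_left this hs
      linarith
    · obtain ⟨w, x, ht, hw⟩ := h.2
      exact ⟨w, x, ht, hlt _ _ hw⟩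
  · intro v hv
    rcases hφ.bal v hv e with h | h
    · obtain ⟨w, x, ht, hw⟩ := P.exists_half hv P.p (fun h => P.pos h) (hn0 v)
      refine ⟨w, x, ht, ?_⟩
      unfold hh
      rw [h w x ht]
      rw [dt_sub_right] at hw
      have : dt n (P.p v) < dt n (P.p w) := by linarith
      have := mul_lt_mul_of_pos_left this hs
      linarith
    · obtain ⟨w, x, ht, hw⟩ := h.1
      exact ⟨w, x, ht, hlt _ _ hw⟩

omit [Fintype V] in
/-- generic direction separating two consecutive neighbours -/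
theorem exists_sep {v w x : V} (ht : (v, w, x) ∈ P.T) : ∃ n, P.Gn n ∧
    0 < dt n (P.p w - P.p v) ∧ dt n (P.p x - P.p v) < 0 := by
  have hc1 : Continuous fun n : ℝ × ℝ => dt n (P.p w - P.p v) := by unfold dt; fun_prop
  have hc2 : Continuous fun n : ℝ × ℝ => dt n (P.p x - P.p v) := by unfold dt; fun_prop
  have hU : IsOpen {n : ℝ × ℝ | 0 < dt n (P.p w - P.p v) ∧ dt n (P.p x - P.p v) < 0} :=
    (isOpen_lt continuous_const hc1).inter (isOpen_lt hc2 continuous_const)
  have hp := P.pos ht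
  obtain ⟨n, hn, hg⟩ := P.exists_Gn _ hU (-((P.p w - P.p v) + (P.p x - P.p v))) (by
    refine ⟨?_, ?_⟩
    · rw [dt_neg_left, dt_add_left, dt_self, dt_comm (P.p x - P.p v)]; linarith
    · rw [dt_neg_left, dt_add_left, dt_self]; linarith)
  exact ⟨n, hg, hn.1, hn.2⟩

omit [Fintype V] in
/-- a tied consecutive pair at `v` is a transition for the two perturbations -/
theorem trans_of_tie {φ : V → ℝ × ℝ} {e n : ℝ × ℝ} {s : ℝ} (hs : 0 < s) {v w x : V}
    (ht : (v, w, x) ∈ P.T) (hw : dt e (φ w) = dt e (φ v)) (hx : dt e (φ x) = dt e (φ v))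
    (h1 : 0 < dt n (P.p w - P.p v)) (h2 : dt n (P.p x - P.p v) < 0) :
    P.Dn (P.hh φ e n s) v w x ∧ P.Up (P.hh φ e (-n) s) v w x := by
  rw [dt_sub_right] at h1 h2
  have k1 : s * dt n (P.p v) < s * dt n (P.p w) := mul_lt_mul_of_pos_left (by linarith) hs
  have k2 : s * dt n (P.p x) < s * dt n (P.p v) := mul_lt_mul_of_pos_left (by linarith) hs
  refine ⟨⟨ht, ?_, ?_⟩, ⟨ht, ?_, ?_⟩⟩
  · unfold hh; rw [hx]; linarith
  · unfold hh; rw [hw]; linarith
  · rw [hh_neg, hh_neg, hw]; linarith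
  · rw [hh_neg, hh_neg, hx]; linarith

theorem no_tie_int {φ : V → ℝ × ℝ} (hφ : P.Bal φ) {e : ℝ × ℝ} {v : V} (hv : ¬ P.Bd v)
    (hu : ∃ w x, (v, w, x) ∈ P.T ∧ dt e (φ v) < dt e (φ w))
    (hl : ∃ w x, (v, w, x) ∈ P.T ∧ dt e (φ w) < dt e (φ v))
    {w x : V} (ht : (v, w, x) ∈ P.T) (hw : dt e (φ w) = dt e (φ v))
    (hx : dt e (φ x) = dt e (φ v)) : False := by
  obtain ⟨n, hn, h1, h2⟩ := P.exists_sep ht
  obtain ⟨s, g1, g2⟩ := ((P.good hφ (e := e) hn).and (P.good hφ (e := e) hn.neg)).exists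
  obtain ⟨hd, hup⟩ := P.trans_of_tie g1.s_pos ht hw hx h1 h2
  obtain ⟨yp, xp, hyp, kp⟩ := hu
  obtain ⟨ym, xm, hym, km⟩ := hl
  have s1 : P.sc (P.hh φ e n s) v ≤ 2 := by rw [g1.sc_eq]; exact P.sc_ref_le_two _ _
  have s2 : P.sc (P.hh φ e (-n) s) v ≤ 2 := by rw [g2.sc_eq]; exact P.sc_ref_le_two _ _
  exact P.two_orders g1.inj g2.inj hv s1 s2 hd hup hyp hym (g1.lt _ _ kp) (g2.lt _ _ kp)
    (g1.lt _ _ km) (g2.lt _ _ km)

/-- strict maximum principle -/
theorem max_principle {φ : V → ℝ × ℝ} (hφ : P.Bal φ) {e : ℝ × ℝ} (he : e ≠ 0) {c : ℝ}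
    (hc : ∀ z, c ≤ dt e (P.p z)) {v : V} (hv : ¬ P.Bd v) : c < dt e (φ v) := by
  classical
  obtain ⟨v0, -, hmin⟩ := (univ : Finset V).exists_min_image (fun v => dt e (φ v))
    ⟨v, mem_univ v⟩
  set m := dt e (φ v0) with hm
  by_cases hM : ∃ v1, ¬ P.Bd v1 ∧ dt e (φ v1) = m
  · obtain ⟨v1, hv1, h1⟩ := hM
    obtain ⟨k, hk, hmax⟩ := ((univ : Finset V).filter
      fun v => ¬ P.Bd v ∧ dt e (φ v) = m).exists_max_image (fun v => dt e (P.p v))
      ⟨v1, by simp [hv1, h1]⟩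
    simp only [mem_filter, mem_univ, true_and] at hk hmax
    have tied : ∀ w x, (k, w, x) ∈ P.T → dt e (φ w) = dt e (φ k) := by
      rcases hφ.bal k hk.1 e with h | ⟨-, w, x, ht, hlt⟩
      · exact h
      · have := hmin w (mem_univ w)
        rw [hk.2] at hlt
        exact absurd (lt_of_le_of_lt this hlt) (lt_irrefl _)
    obtain ⟨w, x, ht, hw⟩ := P.exists_half hk.1 P.p (fun h => P.pos h) he
    rw [dt_sub_right] at hw
    have hfw : dt e (φ w) = m := (tied w x ht).trans hk.2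
    have hwB : P.Bd w := by
      by_contra hwB
      have := hmax w ⟨hwB, hfw⟩
      linarith
    rw [hφ.bd w hwB] at hfw
    have h3 := hc k
    have h4 := hmin v (mem_univ v)
    linarith
  · push Not at hM
    have h0 : P.Bd v0 := by
      by_contra h
      exact hM v0 h rfl
    have h1 : c ≤ m := by rw [hm, hφ.bd v0 h0]; exact hc v0
    exact lt_of_le_of_ne (h1.trans (hmin v (mem_univ v))) (by
      intro h
      apply hM v hv
      exact le_antisymm (h ▸ h1) (hmin v (mem_univ v)))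

theorem parallel {e r : ℝ × ℝ} (hr : r ≠ 0) (h : dt e r = 0) : ∃ c : ℝ, e = c • r := by
  unfold dt at h
  by_cases h1 : r.1 = 0
  · have h2 : r.2 ≠ 0 := fun h2 => hr (Prod.ext h1 h2)
    refine ⟨e.2 / r.2, Prod.ext ?_ ?_⟩
    · rw [h1, mul_zero, sub_zero] at h
      have : e.1 = 0 := by
        rcases mul_eq_zero.1 h with h | h
        · exact h
        · exact absurd h h2
      simp [this, h1]
    · simp only [Prod.smul_snd, smul_eq_mul]; field_simp
  · refine ⟨e.1 / r.1, Prod.ext ?_ ?_⟩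
    · simp only [Prod.smul_fst, smul_eq_mul]; field_simp
    · simp only [Prod.smul_snd, smul_eq_mul]
      field_simp
      linarith

/-- (T): no zero triangle in a star with a tied side -/
theorem no_tie_side {φ : V → ℝ × ℝ} (hφ : P.Bal φ) {e : ℝ × ℝ} (he : e ≠ 0) {b : V}
    (hb : P.Bd b) {r : ℝ × ℝ} (hr : r ≠ 0) (her : dt e r = 0)
    (hside : (∀ z, 0 ≤ dt r (P.p z - P.p b)) ∨ (∀ z, dt r (P.p z - P.p b) ≤ 0))
    {w x : V} (ht : (b, w, x) ∈ P.T) (hw : dt e (φ w) = dt e (φ b))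
    (hx : dt e (φ x) = dt e (φ b)) : False := by
  obtain ⟨c, rfl⟩ := parallel hr her
  have hc0 : c ≠ 0 := by rintro rfl; simp at he
  -- all vertices on one side
  have hside2 : (∀ z, dt (c • r) (P.p b) ≤ dt (c • r) (P.p z)) ∨
      (∀ z, dt (-(c • r)) (P.p b) ≤ dt (-(c • r)) (P.p z)) := by
    rcases hside with h | h <;> rcases lt_or_gt_of_ne hc0 with hc | hc
    · right; intro z
      have := h z
      rw [dt_sub_right] at this
      rw [dt_neg_left, dt_neg_left, dt_smul_left, dt_smul_left]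
      nlinarith
    · left; intro z
      have := h z
      rw [dt_sub_right] at this
      rw [dt_smul_left, dt_smul_left]
      nlinarith
    · left; intro z
      have := h z
      rw [dt_sub_right] at this
      rw [dt_smul_left, dt_smul_left]
      nlinarith
    · right; intro z
      have := h z
      rw [dt_sub_right] at this
      rw [dt_neg_left, dt_neg_left, dt_smul_left, dt_smul_left]
      nlinarith
  set e := c • r with hedef
  have hfb : φ b = P.p b := hφ.bd b hb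
  have hint : ∀ v, ¬ P.Bd v → dt e (φ v) ≠ dt e (φ b) := by
    intro v hv
    rcases hside2 with h | h
    · have := P.max_principle hφ he h hv
      rw [hfb]; exact this.ne'
    · have := P.max_principle hφ (neg_ne_zero.2 he) h hv
      rw [dt_neg_left, dt_neg_left] at this
      rw [hfb]
      intro h0; linarith
  have hwB : P.Bd w := by
    by_contra h; exact hint w h hw
  have hxB : P.Bd x := by
    by_contra h; exact hint x h hx
  rw [hφ.bd w hwB, hfb] at hw
  rw [hφ.bd x hxB, hfb] at hx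
  have hp := P.pos ht
  have e1 : dt e (P.p w - P.p b) = 0 := by rw [dt_sub_right, hw, sub_self]
  have e2 : dt e (P.p x - P.p b) = 0 := by rw [dt_sub_right, hx, sub_self]
  have hid := dt_plk' (P.p w - P.p b) (P.p x - P.p b) e
  rw [dt_comm _ e, e2, e1] at hid
  simp at hid
  rcases hid with h | h
  · exact hp.ne' h
  · exact he h

theorem no_tie_bd {φ : V → ℝ × ℝ} (hφ : P.Bal φ) {e : ℝ × ℝ} (he : e ≠ 0) {b : V}
    (hb : P.Bd b) {w x : V} (ht : (b, w, x) ∈ P.T) (hw : dt e (φ w) = dt e (φ b))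
    (hx : dt e (φ x) = dt e (φ b)) : False := by
  have hb0 := hb
  obtain ⟨w0, hs⟩ := hb0
  have hfb : φ b = P.p b := hφ.bd b hb
  have hfw0 : φ w0 = P.p w0 := hφ.bd w0 (P.start_bd hs)
  by_cases c1 : dt e (φ w0) = dt e (φ b)
  · obtain ⟨x0, hx0, hn0⟩ := id hs
    refine P.no_tie_side hφ he hb (P.ne_of_mem hx0) ?_ (Or.inl (P.start_left hs)) ht hw hx
    rw [dt_sub_right, ← hfb, ← hfw0, c1, sub_self]
  by_cases c2 : ∃ x1, P.End b x1 ∧ dt e (φ x1) = dt e (φ b)
  · obtain ⟨x1, hx1, c2⟩ := c2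
    have hfx1 : φ x1 = P.p x1 := hφ.bd x1 (P.end_bd hx1)
    obtain ⟨w1, hw1, hn1⟩ := id hx1
    refine P.no_tie_side hφ he hb (P.ne_of_mem' hw1) ?_ (Or.inr fun z => ?_) ht hw hx
    · rw [dt_sub_right, ← hfb, ← hfx1, c2, sub_self]
    · have := P.end_left hx1 z
      rw [dt_comm] at this
      linarith
  push Not at c2
  obtain ⟨n, hn, h1, h2⟩ := P.exists_sep ht
  obtain ⟨s, g1, g2⟩ := ((P.good hφ (e := e) hn).and (P.good hφ (e := e) hn.neg)).exists
  obtain ⟨hd, hup⟩ := P.trans_of_tie g1.s_pos ht hw hx h1 h2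
  obtain ⟨k1, k2⟩ := P.sc_ref_bd hs g1.gn
  have k3 : P.sc (P.ref (e + s • n)) b ≠ 0 := by
    rw [← g1.sc_eq]
    have := P.one_le_sc hd.1 hd.mid
    omega
  -- signs at the ends do not depend on the perturbation
  have sgn : ∀ z, P.Bd z → dt e (φ z) ≠ dt e (φ b) →
      (P.ref (e + s • n) z < P.ref (e + s • n) b → dt e (φ z) < dt e (φ b)) ∧
      (P.ref (e + s • n) b < P.ref (e + s • n) z → dt e (φ b) < dt e (φ z)) := by
    intro z hz hne
    rw [← g1.bd z hz, ← g1.bd b hb]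
    constructor
    · intro h
      rcases lt_or_gt_of_ne hne with h' | h'
      · exact h'
      · exact absurd (h.trans (g1.lt _ _ h')) (lt_irrefl _)
    · intro h
      rcases lt_or_gt_of_ne hne with h' | h'
      · exact absurd (h.trans (g1.lt _ _ h')) (lt_irrefl _)
      · exact h'
  rcases k2 k3 with ⟨l1, l2⟩ | ⟨l1, l2⟩
  · -- start below, ends above: an upward transition besides the downward one
    obtain ⟨y, z, hyz, hy, hz⟩ := P.path_lemma hs
      (fun w => P.hh φ e n s w < P.hh φ e n s b) (by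
        exact g1.lt _ _ ((sgn w0 (P.start_bd hs) c1).1 l1)) (by
        intro x1 hx1
        have := g1.lt _ _ ((sgn x1 (P.end_bd hx1) (c2 x1 hx1)).2 (l2 x1 hx1))
        exact not_lt.2 this.le)
    have hup2 : P.Up (P.hh φ e n s) b y z := ⟨hyz, hy, lt_of_le_of_ne (not_lt.1 hz)
      (Inj.right g1.inj hyz)⟩
    have := P.two_le_sc hup2.1 hup2.mid hd.1 hd.mid (hup2.not_dn hd)
    rw [g1.sc_eq] at this
    omega
  · obtain ⟨y, z, hyz, hy, hz⟩ := P.path_lemma hs
      (fun w => P.hh φ e (-n) s b < P.hh φ e (-n) s w) (by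
        exact g2.lt _ _ ((sgn w0 (P.start_bd hs) c1).2 l1)) (by
        intro x1 hx1
        have := g2.lt _ _ ((sgn x1 (P.end_bd hx1) (c2 x1 hx1)).1 (l2 x1 hx1))
        exact not_lt.2 this.le)
    have hdn2 : P.Dn (P.hh φ e (-n) s) b y z := ⟨hyz, lt_of_le_of_ne (not_lt.1 hz)
      (Inj.right g2.inj hyz).symm, hy⟩
    have := P.two_le_sc hup.1 hup.mid hdn2.1 hdn2.mid (hup.not_dn hdn2)
    rw [g2.sc_eq] at this
    have k4 := (P.sc_ref_bd hs g2.gn).1
    omega

/-- **no degenerate triangle** -/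
theorem nondeg {φ : V → ℝ × ℝ} (hφ : P.Bal φ) {a b c : V} (ht : (a, b, c) ∈ P.T) :
    dt (φ b - φ a) (φ c - φ a) ≠ 0 := by
  classical
  intro h0
  obtain ⟨e, he, h1, h2⟩ : ∃ e : ℝ × ℝ, e ≠ 0 ∧ dt e (φ b) = dt e (φ a) ∧
      dt e (φ c) = dt e (φ a) := by
    by_cases hb : φ b - φ a = 0
    · have hb' : φ b = φ a := sub_eq_zero.1 hb
      by_cases hc : φ c - φ a = 0
      · have hc' : φ c = φ a := sub_eq_zero.1 hc
        exact ⟨(1, 0), by simp, by rw [hb'], by rw [hc']⟩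
      · refine ⟨φ c - φ a, hc, by rw [hb'], ?_⟩
        have := dt_self (φ c - φ a)
        rw [dt_sub_right] at this
        linarith
    · refine ⟨φ b - φ a, hb, ?_, ?_⟩
      · have := dt_self (φ b - φ a)
        rw [dt_sub_right] at this
        linarith
      · rw [dt_sub_right] at h0
        linarith
  obtain ⟨k, hk, hmax⟩ := ((univ : Finset V).filter fun k => ∃ w x, (k, w, x) ∈ P.T ∧
      dt e (φ w) = dt e (φ k) ∧ dt e (φ x) = dt e (φ k)).exists_max_image
      (fun v => dt ((1 : ℝ), (0 : ℝ)) (P.p v)) ⟨a, by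
        simp only [mem_filter, mem_univ, true_and]
        exact ⟨b, c, ht, h1, h2⟩⟩
  simp only [mem_filter, mem_univ, true_and] at hk hmax
  obtain ⟨w, x, hwx, hw, hx⟩ := hk
  by_cases hkB : P.Bd k
  · exact P.no_tie_bd hφ he hkB hwx hw hx
  · rcases hφ.bal k hkB e with h | ⟨hu, hl⟩
    · obtain ⟨w', x', ht', hw'⟩ := P.exists_half hkB P.p (fun h => P.pos h)
        (e := ((1 : ℝ), (0 : ℝ))) (by simp)
      have hx' : dt e (φ x') = dt e (φ k) := by
        obtain ⟨y, hy⟩ := P.suc_of_int hkB ht'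
        exact h _ _ hy
      have := hmax w' ⟨x', k, P.rot ht', by rw [hx', h _ _ ht'], by rw [h _ _ ht']⟩
      rw [dt_sub_right] at hw'
      linarith
    · exact P.no_tie_int hφ hkB hu hl hwx hw hx

end TP

end Crest.Agent.R096.Tut_334
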