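import Crest.Agent.R096.Tut3_334

/-!
Row 96, P5-TUTTE (helper334), part 4: weights, the linear system and THE PATH
(`TP.exists_path`): two simplexwise linear embeddings of a triangulated convex polygon with the
same boundary values are joined by a smooth path of such embeddings.
-/

set_option autoImplicit false

namespace Crest.Agent.R096.Tut_334

open Finset Filter Topology
open scoped ContDiff

namespace TP

variable {V : Type*} (P : TP V) [Fintype V]

/-- positive weights with mean zero -/
theorem exists_weights {v : V} (hv : ¬ P.Bd v) (q : V → ℝ × ℝ)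
    (hq : ∀ {w x : V}, (v, w, x) ∈ P.T → 0 < dt (q w - q v) (q x - q v)) :
    ∃ μ : V → ℝ, (∀ w, w ∈ P.N v → 0 < μ w) ∧ (∀ w, w ∉ P.N v → μ w = 0) ∧
      ∑ w, μ w • (q w - q v) = 0 := by
  classical
  have c0 : ∀ w ∈ P.N v, ∃ y ∈ P.N v, True ∧ 0 < dt (q w - q v) (q y - q v) := by
    intro w hw
    obtain ⟨x, hx⟩ := P.mem_N.1 hw
    exact ⟨x, P.mem_N.2 (P.suc_of_int hv hx), trivial, hq hx⟩
  have single : ∀ (i : V) (c : ℝ), ∑ w, (Pi.single i c : V → ℝ) w • (q w - q v)
      = c • (q i - q v) := by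
    intro i c
    rw [Finset.sum_eq_single i]
    · simp
    · intro j _ hj; simp [hj]
    · intro h; exact absurd (mem_univ _) h
  have key : ∀ i ∈ P.N v, ∃ ν : V → ℝ, (∀ w, 0 ≤ ν w) ∧ 0 < ν i ∧ (∀ w, w ∉ P.N v → ν w = 0) ∧
      ∑ w, ν w • (q w - q v) = 0 := by
    intro i hi
    obtain ⟨w, hw, x, hx, -, h2, h3, h4⟩ := cover_cone ⟨i, hi⟩ (fun w => q w - q v)
      (fun _ _ => True) c0 (-(q i - q v))
    set D := dt (q w - q v) (q x - q v) with hD
    set α := dt (-(q i - q v)) (q x - q v) / D with hα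
    set β := dt (q w - q v) (-(q i - q v)) / D with hβ
    have hα0 : 0 ≤ α := div_nonneg h4 h2.le
    have hβ0 : 0 ≤ β := div_nonneg h3 h2.le
    have hsum : (q i - q v) + α • (q w - q v) + β • (q x - q v) = 0 := by
      have hid := dt_plk' (q w - q v) (q x - q v) (-(q i - q v))
      rw [← hD] at hid
      have h5 : -(q i - q v) = α • (q w - q v) + β • (q x - q v) := by
        have h6 : (D⁻¹ * D) • (-(q i - q v)) = D⁻¹ • (D • (-(q i - q v))) := by rw [smul_smul]
        rw [inv_mul_cancel₀ h2.ne', one_smul] at h6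
        rw [h6, hid, smul_add, smul_smul, smul_smul, hα, hβ, div_eq_inv_mul, div_eq_inv_mul]
      rw [add_assoc, ← h5]; abel
    refine ⟨Pi.single i 1 + Pi.single w α + Pi.single x β, ?_, ?_, ?_, ?_⟩
    · intro u
      have s1 : ∀ (j : V) (c : ℝ), 0 ≤ c → 0 ≤ (Pi.single j c : V → ℝ) u := by
        intro j c hc
        by_cases h : u = j
        · subst h; simpa using hc
        · simp [h]
      simp only [Pi.add_apply]
      have := s1 i 1 zero_le_one
      have := s1 w α hα0
      have := s1 x β hβ0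
      linarith
    · have s1 : ∀ (j : V) (c : ℝ), 0 ≤ c → 0 ≤ (Pi.single j c : V → ℝ) i := by
        intro j c hc
        by_cases h : i = j
        · subst h; simpa using hc
        · simp [h]
      simp only [Pi.add_apply, Pi.single_eq_same]
      have := s1 w α hα0
      have := s1 x β hβ0
      linarith
    · intro u hu
      have e1 : u ≠ i := fun h => hu (h ▸ hi)
      have e2 : u ≠ w := fun h => hu (h ▸ hw)
      have e3 : u ≠ x := fun h => hu (h ▸ hx)
      simp [e1, e2, e3]
    · simp only [Pi.add_apply, add_smul, Finset.sum_add_distrib]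
      rw [single, single, single, one_smul]
      exact hsum
  choose! ν h1 h2 h3 h4 using key
  refine ⟨fun w => ∑ i ∈ P.N v, ν i w, ?_, ?_, ?_⟩
  · intro w hw
    exact lt_of_lt_of_le (h2 w hw) (Finset.single_le_sum (f := fun i => ν i w)
      (fun i hi => h1 i hi w) hw)
  · intro w hw
    exact Finset.sum_eq_zero fun i hi => h3 i hi w hw
  · simp only [Finset.sum_smul]
    rw [Finset.sum_comm]
    exact Finset.sum_eq_zero fun i hi => h4 i hi

/-- admissible weights -/
structure Wt (lam : V → V → ℝ) : Prop where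
  pos : ∀ v, ¬ P.Bd v → ∀ w, w ∈ P.N v → 0 < lam v w
  off : ∀ v, ¬ P.Bd v → ∀ w, w ∉ P.N v → lam v w = 0

/-- `φ` has the mean value property at the interior vertices -/
def Harm (lam : V → V → ℝ) (φ : V → ℝ × ℝ) : Prop :=
  ∀ v, ¬ P.Bd v → ∑ w, lam v w • (φ w - φ v) = 0

theorem exists_Wt (q : V → ℝ × ℝ)
    (hq : ∀ {v w x : V}, (v, w, x) ∈ P.T → 0 < dt (q w - q v) (q x - q v)) :
    ∃ lam, P.Wt lam ∧ P.Harm lam q := by
  classical
  have : ∀ v, ∃ μ : V → ℝ, ¬ P.Bd v → ((∀ w, w ∈ P.N v → 0 < μ w) ∧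
      (∀ w, w ∉ P.N v → μ w = 0) ∧ ∑ w, μ w • (q w - q v) = 0) := by
    intro v
    by_cases hv : P.Bd v
    · exact ⟨0, fun h => absurd hv h⟩
    · obtain ⟨μ, h⟩ := P.exists_weights hv q (fun h => hq h)
      exact ⟨μ, fun _ => h⟩
  choose lam h using this
  exact ⟨lam, ⟨fun v hv => (h v hv).1, fun v hv => (h v hv).2.1⟩, fun v hv => (h v hv).2.2⟩

theorem dt_sum {ι : Type*} (s : Finset ι) (e : ℝ × ℝ) (f : ι → ℝ × ℝ) :
    dt e (∑ i ∈ s, f i) = ∑ i ∈ s, dt e (f i) := by
  classical
  induction s using Finset.induction_on with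
  | empty => simp [dt_zero_right]
  | insert a s ha ih => rw [sum_insert ha, sum_insert ha, dt_add_right, ih]

theorem Bal.of_harm {P : TP V} {lam : V → V → ℝ} (hl : P.Wt lam) {φ : V → ℝ × ℝ}
    (hb : ∀ b, P.Bd b → φ b = P.p b) (hh : P.Harm lam φ) : P.Bal φ := by
  classical
  refine ⟨hb, fun v hv e => ?_⟩
  have h0 : ∑ w, lam v w * (dt e (φ w) - dt e (φ v)) = 0 := by
    have := congrArg (dt e) (hh v hv)
    rw [dt_sum, dt_zero_right] at this
    rw [← this]
    refine Finset.sum_congr rfl fun w _ => ?_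
    rw [dt_smul_right, dt_sub_right]
  have nn : ∀ w, 0 ≤ lam v w := by
    intro w
    by_cases hw : w ∈ P.N v
    · exact (hl.pos v hv w hw).le
    · rw [hl.off v hv w hw]
  by_cases c1 : ∃ w x, (v, w, x) ∈ P.T ∧ dt e (φ v) < dt e (φ w)
  · by_cases c2 : ∃ w x, (v, w, x) ∈ P.T ∧ dt e (φ w) < dt e (φ v)
    · exact Or.inr ⟨c1, c2⟩
    · exfalso
      push Not at c2
      obtain ⟨w, x, ht, hw⟩ := c1
      have hwN : w ∈ P.N v := P.mem_N.2 ⟨x, ht⟩
      have : 0 < ∑ w, lam v w * (dt e (φ w) - dt e (φ v)) := by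
        apply Finset.sum_pos'
        · intro u _
          by_cases hu : u ∈ P.N v
          · obtain ⟨y, hy⟩ := P.mem_N.1 hu
            exact mul_nonneg (nn u) (by linarith [c2 u y hy])
          · rw [hl.off v hv u hu, zero_mul]
        · exact ⟨w, mem_univ w, mul_pos (hl.pos v hv w hwN) (by linarith)⟩
      linarith
  · by_cases c2 : ∃ w x, (v, w, x) ∈ P.T ∧ dt e (φ w) < dt e (φ v)
    · exfalso
      push Not at c1
      obtain ⟨w, x, ht, hw⟩ := c2
      have hwN : w ∈ P.N v := P.mem_N.2 ⟨x, ht⟩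
      have : 0 < ∑ w, - (lam v w * (dt e (φ w) - dt e (φ v))) := by
        apply Finset.sum_pos'
        · intro u _
          by_cases hu : u ∈ P.N v
          · obtain ⟨y, hy⟩ := P.mem_N.1 hu
            have := mul_nonneg (nn u) (sub_nonneg.2 (c1 u y hy))
            linarith
          · rw [hl.off v hv u hu, zero_mul, neg_zero]
        · refine ⟨w, mem_univ w, ?_⟩
          have := mul_pos (hl.pos v hv w hwN) (sub_pos.2 hw)
          linarith
      rw [Finset.sum_neg_distrib] at this
      linarith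
    · left
      push Not at c1 c2
      exact fun w x ht => le_antisymm (c1 w x ht) (c2 w x ht)

open Classical in
/-- matrix of the linear system -/
noncomputable def mat (lam : V → V → ℝ) : Matrix V V ℝ := fun v w =>
  if P.Bd v then (if v = w then 1 else 0)
  else (if v = w then ∑ u, lam v u else 0) - lam v w

open Classical in
theorem mat_mulVec (lam : V → V → ℝ) (φ : V → ℝ) (v : V) :
    ((P.mat lam).mulVec φ) v = if P.Bd v then φ v else - ∑ w, lam v w * (φ w - φ v) := by
  classical
  unfold Matrix.mulVec mat dotProduct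
  by_cases hv : P.Bd v
  · simp [hv]
  · simp only [hv, if_false, sub_mul, Finset.sum_sub_distrib, ite_mul, zero_mul,
      Finset.sum_ite_eq, mem_univ, if_true, mul_sub, Finset.sum_mul]
    ring

theorem le_zero {lam : V → V → ℝ} (hl : P.Wt lam) {φ : V → ℝ}
    (hφ : (P.mat lam).mulVec φ = 0) (v : V) : φ v ≤ 0 := by
  classical
  by_contra hpos
  push Not at hpos
  obtain ⟨v0, -, hmax⟩ := (univ : Finset V).exists_max_image φ ⟨v, mem_univ v⟩
  have hm : 0 < φ v0 := lt_of_lt_of_le hpos (hmax v (mem_univ v))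
  have hB : ∀ b, P.Bd b → φ b = 0 := by
    intro b hb
    have := congrFun hφ b
    rw [mat_mulVec] at this
    simpa [hb] using this
  obtain ⟨k, hk, hkmax⟩ := ((univ : Finset V).filter fun v => φ v = φ v0).exists_max_image
    (fun v => dt ((1 : ℝ), (0 : ℝ)) (P.p v)) ⟨v0, by simp⟩
  simp only [mem_filter, mem_univ, true_and] at hk hkmax
  have hkB : ¬ P.Bd k := by
    intro h
    rw [hB k h] at hk
    exact hm.ne hk
  have h0 := congrFun hφ k
  rw [mat_mulVec] at h0
  simp only [hkB, if_false, Pi.zero_apply, neg_eq_zero] at h0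
  have hterm : ∀ w, w ∈ (univ : Finset V) → lam k w * (φ w - φ k) = 0 := by
    apply (Finset.sum_eq_zero_iff_of_nonpos _).1 h0
    intro w _
    by_cases hw : w ∈ P.N k
    · apply mul_nonpos_of_nonneg_of_nonpos (hl.pos k hkB w hw).le
      have := hmax w (mem_univ w)
      linarith
    · rw [hl.off k hkB w hw, zero_mul]
  obtain ⟨w, x, ht, hw⟩ := P.exists_half hkB P.p (fun h => P.pos h)
    (e := ((1 : ℝ), (0 : ℝ))) (by simp)
  have hwN : w ∈ P.N k := P.mem_N.2 ⟨x, ht⟩
  have h1 := hterm w (mem_univ w)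
  rcases mul_eq_zero.1 h1 with h1 | h1
  · exact absurd h1 (hl.pos k hkB w hwN).ne'
  · have := hkmax w (by linarith)
    rw [dt_sub_right] at hw
    linarith

theorem det_ne_zero {lam : V → V → ℝ} [DecidableEq V] (hl : P.Wt lam) : (P.mat lam).det ≠ 0 := by
  intro h
  obtain ⟨φ, hφ0, hφ⟩ := Matrix.exists_mulVec_eq_zero_iff.2 h
  apply hφ0
  ext v
  apply le_antisymm (P.le_zero hl hφ v)
  have := P.le_zero hl (φ := -φ) (by rw [Matrix.mulVec_neg, hφ, neg_zero]) v
  simpa using this

open Classical in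
/-- right-hand side -/
noncomputable def rhs (g : V → ℝ) (v : V) : ℝ := if P.Bd v then g v else 0

open Classical in
/-- the solution -/
noncomputable def sol (lam : V → V → ℝ) (v : V) : ℝ × ℝ :=
  ((P.mat lam)⁻¹.mulVec (P.rhs fun v => (P.p v).1) v,
    (P.mat lam)⁻¹.mulVec (P.rhs fun v => (P.p v).2) v)

theorem sol_spec {lam : V → V → ℝ} (hl : P.Wt lam) :
    (∀ b, P.Bd b → P.sol lam b = P.p b) ∧ P.Harm lam (P.sol lam) := by
  classical
  have hdet : IsUnit (P.mat lam).det := isUnit_iff_ne_zero.2 (P.det_ne_zero hl)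
  have h : ∀ g : V → ℝ, (P.mat lam).mulVec ((P.mat lam)⁻¹.mulVec g) = g := by
    intro g
    rw [Matrix.mulVec_mulVec, Matrix.mul_nonsing_inv _ hdet, Matrix.one_mulVec]
  constructor
  · intro b hb
    have e1 := congrFun (h (P.rhs fun v => (P.p v).1)) b
    have e2 := congrFun (h (P.rhs fun v => (P.p v).2)) b
    rw [mat_mulVec] at e1 e2
    simp only [hb, if_true, rhs] at e1 e2
    exact Prod.ext e1 e2
  · intro v hv
    have e1 := congrFun (h (P.rhs fun v => (P.p v).1)) v
    have e2 := congrFun (h (P.rhs fun v => (P.p v).2)) v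
    rw [mat_mulVec] at e1 e2
    simp only [hv, if_false, rhs, neg_eq_zero] at e1 e2
    apply Prod.ext
    · rw [Prod.fst_sum]
      simpa [sol, rhs] using e1
    · rw [Prod.snd_sum]
      simpa [sol, rhs] using e2

theorem sol_eq {lam : V → V → ℝ} (hl : P.Wt lam) {φ : V → ℝ × ℝ}
    (hb : ∀ b, P.Bd b → φ b = P.p b) (hh : P.Harm lam φ) : P.sol lam = φ := by
  classical
  have hdet : IsUnit (P.mat lam).det := isUnit_iff_ne_zero.2 (P.det_ne_zero hl)
  have h : ∀ g x : V → ℝ, (P.mat lam).mulVec x = g → (P.mat lam)⁻¹.mulVec g = x := by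
    rintro g x rfl
    rw [Matrix.mulVec_mulVec, Matrix.nonsing_inv_mul _ hdet, Matrix.one_mulVec]
  have h1 : (P.mat lam).mulVec (fun v => (φ v).1) = P.rhs fun v => (P.p v).1 := by
    ext v
    rw [mat_mulVec]
    by_cases hv : P.Bd v
    · simp [hv, rhs, hb v hv]
    · have := congrArg Prod.fst (hh v hv)
      rw [Prod.fst_sum] at this
      simp only [hv, if_false, rhs, neg_eq_zero]
      simpa using this
  have h2 : (P.mat lam).mulVec (fun v => (φ v).2) = P.rhs fun v => (P.p v).2 := by
    ext v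
    rw [mat_mulVec]
    by_cases hv : P.Bd v
    · simp [hv, rhs, hb v hv]
    · have := congrArg Prod.snd (hh v hv)
      rw [Prod.snd_sum] at this
      simp only [hv, if_false, rhs, neg_eq_zero]
      simpa using this
  ext v
  · exact congrFun (h _ _ h1) v
  · exact congrFun (h _ _ h2) v

theorem contDiff_det {n : WithTop ℕ∞} [DecidableEq V] (M : ℝ → Matrix V V ℝ)
    (h : ∀ i j, ContDiff ℝ n fun t => M t i j) : ContDiff ℝ n fun t => (M t).det := by
  simp only [Matrix.det_apply]
  refine ContDiff.sum fun σ _ => ?_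
  refine ContDiff.const_smul _ ?_
  exact contDiff_prod fun i _ => h _ _

theorem contDiff_sol {lam : ℝ → V → V → ℝ} (hl : ∀ t, P.Wt (lam t))
    (hc : ∀ v w, ContDiff ℝ ∞ fun t => lam t v w) : ContDiff ℝ ∞ fun t => P.sol (lam t) := by
  classical
  have hmat : ∀ i j, ContDiff ℝ ∞ fun t => P.mat (lam t) i j := by
    intro i j
    unfold mat
    by_cases hi : P.Bd i
    · simp only [hi, if_true]
      exact contDiff_const
    · simp only [hi, if_false]
      refine ContDiff.sub ?_ (hc _ _)
      by_cases hij : i = j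
      · simp only [hij, if_true]
        exact ContDiff.sum fun u _ => hc _ _
      · simp only [hij, if_false]
        exact contDiff_const
  have hinv : ∀ i j, ContDiff ℝ ∞ fun t => (P.mat (lam t))⁻¹ i j := by
    intro i j
    have e : ∀ t, (P.mat (lam t))⁻¹ i j
        = ((P.mat (lam t)).det)⁻¹ * (P.mat (lam t)).adjugate i j := by
      intro t
      rw [Matrix.inv_def, Ring.inverse_eq_inv', Matrix.smul_apply, smul_eq_mul]
    simp only [e]
    refine ContDiff.mul ?_ ?_
    · exact (contDiff_det _ hmat).inv fun t => P.det_ne_zero (hl t)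
    · simp only [Matrix.adjugate_apply]
      refine contDiff_det _ fun k l => ?_
      simp only [Matrix.updateRow_apply]
      by_cases hk : k = j
      · simp only [hk, if_true]
        exact contDiff_const
      · simp only [hk, if_false]
        exact hmat _ _
  rw [contDiff_pi]
  intro v
  unfold sol
  refine ContDiff.prodMk ?_ ?_
  · unfold Matrix.mulVec dotProduct
    exact ContDiff.sum fun j _ => (hinv _ _).mul contDiff_const
  · unfold Matrix.mulVec dotProduct
    exact ContDiff.sum fun j _ => (hinv _ _).mul contDiff_const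

/-- **TUTTE PATH**: the reference triangulation and any positive map with the same boundary values
are joined by a smooth path of positive maps with the same boundary values. -/
theorem exists_path (q : V → ℝ × ℝ) (hqb : ∀ b, P.Bd b → q b = P.p b)
    (hq : ∀ {a b c : V}, (a, b, c) ∈ P.T → 0 < dt (q b - q a) (q c - q a)) :
    ∃ Q : ℝ → V → ℝ × ℝ, ContDiff ℝ ∞ Q ∧ (∀ t ≤ 0, Q t = P.p) ∧ (∀ t, 1 ≤ t → Q t = q) ∧
      (∀ t b, P.Bd b → Q t b = P.p b) ∧
      ∀ t {a b c : V}, (a, b, c) ∈ P.T → 0 < dt (Q t b - Q t a) (Q t c - Q t a) := by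
  classical
  obtain ⟨l0, hl0, hh0⟩ := P.exists_Wt P.p (fun h => P.pos h)
  obtain ⟨l1, hl1, hh1⟩ := P.exists_Wt q (fun h => hq h)
  set τ := Real.smoothTransition with hτ
  set lam : ℝ → V → V → ℝ := fun t v w => (1 - τ t) * l0 v w + τ t * l1 v w with hlam
  have hτ0 : ∀ t, 0 ≤ τ t := fun t => Real.smoothTransition.nonneg t
  have hτ1 : ∀ t, τ t ≤ 1 := fun t => Real.smoothTransition.le_one t
  have hWt : ∀ t, P.Wt (lam t) := by
    intro t
    refine ⟨fun v hv w hw => ?_, fun v hv w hw => ?_⟩
    · have k0 := hl0.pos v hv w hw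
      have k1 := hl1.pos v hv w hw
      simp only [hlam]
      rcases (hτ0 t).eq_or_lt with h | h
      · rw [← h]; linarith
      · have h1 := mul_pos h k1
        have h2 := mul_nonneg (sub_nonneg.2 (hτ1 t)) k0.le
        linarith
    · simp only [hlam]
      rw [hl0.off v hv w hw, hl1.off v hv w hw]; ring
  have hsm : ∀ v w, ContDiff ℝ ∞ fun t => lam t v w := by
    intro v w
    simp only [hlam]
    have h1 : ContDiff ℝ ∞ τ := Real.smoothTransition.contDiff
    exact ((contDiff_const.sub h1).mul contDiff_const).add (h1.mul contDiff_const)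
  have hQ := P.contDiff_sol hWt hsm
  have hp : ∀ t ≤ 0, P.sol (lam t) = P.p := by
    intro t ht
    have e : lam t = l0 := by
      funext v w
      simp only [hlam, hτ, Real.smoothTransition.zero_of_nonpos ht]; ring
    rw [e]
    exact P.sol_eq hl0 (fun _ _ => rfl) hh0
  refine ⟨fun t => P.sol (lam t), hQ, hp, ?_, fun t => (P.sol_spec (hWt t)).1, ?_⟩
  · intro t ht
    have e : lam t = l1 := by
      funext v w
      simp only [hlam, hτ, Real.smoothTransition.one_of_one_le ht]; ring
    simp only [e]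
    exact P.sol_eq hl1 hqb hh1
  · intro t a b c ht
    set F : ℝ → ℝ := fun t => dt (P.sol (lam t) b - P.sol (lam t) a)
      (P.sol (lam t) c - P.sol (lam t) a) with hF
    have hcont : Continuous F := by
      have hc := hQ.continuous
      have ha : Continuous fun t => P.sol (lam t) a := (continuous_apply a).comp hc
      have hb : Continuous fun t => P.sol (lam t) b := (continuous_apply b).comp hc
      have hc' : Continuous fun t => P.sol (lam t) c := (continuous_apply c).comp hc
      have k : Continuous fun y : (ℝ × ℝ) × (ℝ × ℝ) => dt y.1 y.2 := by unfold dt; fun_prop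
      exact k.comp ((hb.sub ha).prodMk (hc'.sub ha))
    have hne : ∀ t, F t ≠ 0 := fun t =>
      P.nondeg (Bal.of_harm (hWt t) (P.sol_spec (hWt t)).1 (P.sol_spec (hWt t)).2) ht
    have h0 : 0 < F 0 := by
      simp only [hF]
      rw [hp 0 le_rfl]
      exact P.pos ht
    by_contra hneg
    have hneg' : F t ≤ 0 := not_lt.1 hneg
    obtain ⟨s, hs⟩ := mem_range_of_exists_le_of_exists_ge hcont ⟨t, hneg'⟩ ⟨0, h0.le⟩
    exact hne s hs

end TP

end Crest.Agent.R096.Tut_334
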