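import Crest.Agent.R096.Tut4_334

/-!
Row 96, P5-TUTTE (helper334), part 5: the triangulated polygon `TP` from geometric data
(triangles cover a convex set, barycentric coordinates are unique).
-/

set_option autoImplicit false

namespace Crest.Agent.R096.Tut_334

open Finset Filter Topology

/-- barycentric coordinates by determinants, in a positive triangle -/
theorem bary_of_dt {A B C z : ℝ × ℝ} (hD : 0 < dt (B - A) (C - A))
    (hc : 0 ≤ dt (B - A) (z - A)) (ha : 0 ≤ dt (C - B) (z - B)) (hb : 0 ≤ dt (A - C) (z - C)) :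
    ∃ α β γ : ℝ, 0 ≤ α ∧ 0 ≤ β ∧ 0 ≤ γ ∧ α + β + γ = 1 ∧ z = α • A + β • B + γ • C := by
  refine ⟨dt (C - B) (z - B) / dt (B - A) (C - A), dt (A - C) (z - C) / dt (B - A) (C - A),
    dt (B - A) (z - A) / dt (B - A) (C - A), div_nonneg ha hD.le, div_nonneg hb hD.le,
    div_nonneg hc hD.le, ?_, ?_⟩
  · rw [← add_div, ← add_div, div_eq_one_iff_eq hD.ne']
    simp [dt]; ring
  · have e : ∀ x y w : ℝ, x / dt (B - A) (C - A) * y = x * y / dt (B - A) (C - A) := by
      intro x y w; ring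
    apply Prod.ext
    · simp only [Prod.fst_add, Prod.smul_fst, smul_eq_mul]
      rw [e _ _ 0, e _ _ 0, e _ _ 0, ← add_div, ← add_div, eq_div_iff hD.ne']
      simp [dt]; ring
    · simp only [Prod.snd_add, Prod.smul_snd, smul_eq_mul]
      rw [e _ _ 0, e _ _ 0, e _ _ 0, ← add_div, ← add_div, eq_div_iff hD.ne']
      simp [dt]; ring

theorem dt_comb {A B C : ℝ × ℝ} {α β γ : ℝ} (h : α + β + γ = 1) (e u : ℝ × ℝ) :
    dt e (α • A + β • B + γ • C - u) = α * dt e (A - u) + β * dt e (B - u) + γ * dt e (C - u) := by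
  have hα : α = 1 - β - γ := by linarith
  subst hα
  simp [dt]; ring

variable {V : Type*}

/-- geometric triangulation of a convex set -/
structure Geo (D : Set (ℝ × ℝ)) (p : V → ℝ × ℝ) (T : Finset (V × V × V)) : Prop where
  conv : Convex ℝ D
  rot : ∀ {a b c : V}, (a, b, c) ∈ T → (b, c, a) ∈ T
  pos : ∀ {a b c : V}, (a, b, c) ∈ T → 0 < dt (p b - p a) (p c - p a)
  memD : ∀ v, p v ∈ D
  cover : ∀ z ∈ D, ∃ a b c : V, (a, b, c) ∈ T ∧ ∃ α β γ : ℝ, 0 ≤ α ∧ 0 ≤ β ∧ 0 ≤ γ ∧
    α + β + γ = 1 ∧ z = α • p a + β • p b + γ • p c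
  uniq : ∀ {a b c a' b' c' : V}, (a, b, c) ∈ T → (a', b', c') ∈ T → ∀ α β γ α' β' γ' : ℝ,
    0 ≤ α → 0 ≤ β → 0 ≤ γ → 0 ≤ α' → 0 ≤ β' → 0 ≤ γ' → α + β + γ = 1 → α' + β' + γ' = 1 →
    α • p a + β • p b + γ • p c = α' • p a' + β' • p b' + γ' • p c' →
    (0 < α → a = a' ∨ a = b' ∨ a = c')
  used : ∀ v : V, ∃ w x, (v, w, x) ∈ T

namespace Geo

variable {D : Set (ℝ × ℝ)} {p : V → ℝ × ℝ} {T : Finset (V × V × V)}

theorem disj_aux (G : Geo D p T) {v w x w' x' : V} (d : ℝ × ℝ) (h : (v, w, x) ∈ T)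
    (h' : (v, w', x') ∈ T) (h1 : 0 < dt (p w - p v) d) (h2 : 0 < dt d (p x - p v))
    (h1' : 0 < dt (p w' - p v) d) (h2' : 0 < dt d (p x' - p v)) :
    (w = w' ∨ w = x') ∧ (x = w' ∨ x = x') := by
  have hD := G.pos h
  have hD' := G.pos h'
  set Δ := dt (p w - p v) (p x - p v) with hΔ
  set Δ' := dt (p w' - p v) (p x' - p v) with hΔ'
  set α := dt d (p x - p v) / Δ with hα
  set β := dt (p w - p v) d / Δ with hβ
  set α' := dt d (p x' - p v) / Δ' with hα'
  set β' := dt (p w' - p v) d / Δ' with hβ'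
  have a0 : 0 < α := div_pos h2 hD
  have b0 : 0 < β := div_pos h1 hD
  have a0' : 0 < α' := div_pos h2' hD'
  have b0' : 0 < β' := div_pos h1' hD'
  have hd : d = α • (p w - p v) + β • (p x - p v) := by
    have h6 : (Δ⁻¹ * Δ) • d = Δ⁻¹ • (Δ • d) := by rw [smul_smul]
    rw [inv_mul_cancel₀ hD.ne', one_smul] at h6
    rw [h6, hΔ, dt_plk', smul_add, smul_smul, smul_smul, hα, hβ, div_eq_inv_mul, div_eq_inv_mul]
  have hd' : d = α' • (p w' - p v) + β' • (p x' - p v) := by
    have h6 : (Δ'⁻¹ * Δ') • d = Δ'⁻¹ • (Δ' • d) := by rw [smul_smul]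
    rw [inv_mul_cancel₀ hD'.ne', one_smul] at h6
    rw [h6, hΔ', dt_plk', smul_add, smul_smul, smul_smul, hα', hβ', div_eq_inv_mul,
      div_eq_inv_mul]
  set S := α + β + α' + β' with hS
  have hSpos : 0 < S := by positivity
  set δ := 1 / S with hδ
  have hδpos : 0 < δ := by positivity
  have hδS : δ * S = 1 := by rw [hδ]; field_simp
  have k1 : 0 ≤ 1 - δ * (α + β) := by nlinarith
  have k2 : 0 ≤ 1 - δ * (α' + β') := by nlinarith
  have e1 : (1 - δ * (α + β)) • p v + (δ * α) • p w + (δ * β) • p x = p v + δ • d := by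
    rw [hd]; module
  have e2 : (1 - δ * (α' + β')) • p v + (δ * α') • p w' + (δ * β') • p x' = p v + δ • d := by
    rw [hd']; module
  have hvw : v ≠ w := by
    rintro rfl
    rw [hΔ, sub_self, dt_zero_left] at hD
    exact lt_irrefl _ hD
  have hvx : v ≠ x := by
    rintro rfl
    rw [hΔ, sub_self, dt_zero_right] at hD
    exact lt_irrefl _ hD
  have eq : (δ * α) • p w + (δ * β) • p x + (1 - δ * (α + β)) • p v
      = (δ * α') • p w' + (δ * β') • p x' + (1 - δ * (α' + β')) • p v := by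
    have t1 : (δ * α) • p w + (δ * β) • p x + (1 - δ * (α + β)) • p v = p v + δ • d := by
      rw [← e1]; abel
    have t2 : (δ * α') • p w' + (δ * β') • p x' + (1 - δ * (α' + β')) • p v = p v + δ • d := by
      rw [← e2]; abel
    rw [t1, t2]
  have eq2 : (δ * β) • p x + (1 - δ * (α + β)) • p v + (δ * α) • p w
      = (δ * α') • p w' + (δ * β') • p x' + (1 - δ * (α' + β')) • p v := by
    rw [← eq]; abel
  constructor
  · rcases G.uniq (G.rot h) (G.rot h') (δ * α) (δ * β) (1 - δ * (α + β)) (δ * α') (δ * β')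
      (1 - δ * (α' + β')) (by positivity) (by positivity) k1 (by positivity) (by positivity) k2
      (by ring) (by ring) eq (by positivity) with h | h | h
    · exact Or.inl h
    · exact Or.inr h
    · exact absurd h.symm hvw
  · rcases G.uniq (G.rot (G.rot h)) (G.rot h') (δ * β) (1 - δ * (α + β)) (δ * α) (δ * α') (δ * β')
      (1 - δ * (α' + β')) (by positivity) k1 (by positivity) (by positivity) (by positivity) k2
      (by ring) (by ring) eq2 (by positivity) with h | h | h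
    · exact Or.inl h
    · exact Or.inr h
    · exact absurd h.symm hvx

theorem disj (G : Geo D p T) {v w x w' x' : V} (d : ℝ × ℝ) (h : (v, w, x) ∈ T)
    (h' : (v, w', x') ∈ T) (h1 : 0 < dt (p w - p v) d) (h2 : 0 < dt d (p x - p v))
    (h1' : 0 < dt (p w' - p v) d) (h2' : 0 < dt d (p x' - p v)) : w = w' := by
  obtain ⟨a, b⟩ := G.disj_aux d h h' h1 h2 h1' h2'
  rcases a with a | a
  · exact a
  · rcases b with b | b
    · exfalso
      subst a; subst b
      have k1 := G.pos h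
      have k2 := G.pos h'
      rw [dt_comm] at k2
      linarith
    · exfalso
      subst a
      have k1 := G.pos h
      rw [b, dt_self] at k1
      exact lt_irrefl _ k1

theorem edge (G : Geo D p T) {a b c : V} (h : (a, b, c) ∈ T) :
    (∃ d, (b, a, d) ∈ T) ∨ ∀ z, 0 ≤ dt (p b - p a) (p z - p a) := by
  classical
  by_contra hcon
  push Not at hcon
  obtain ⟨hno, z0, hz0⟩ := hcon
  set m0 : ℝ × ℝ := (1 / 2 : ℝ) • p a + (1 / 2 : ℝ) • p b with hm0
  have hm0D : m0 ∈ D := G.conv (G.memD a) (G.memD b) (by norm_num) (by norm_num) (by norm_num)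
  set y : ℝ → ℝ × ℝ := fun ε => (1 - ε) • m0 + ε • p z0 with hy
  have hyc : Continuous y := by simp only [hy]; fun_prop
  have hy0 : y 0 = m0 := by simp [hy]
  have hyD : ∀ ε, 0 ≤ ε → ε ≤ 1 → y ε ∈ D := fun ε h0 h1 =>
    G.conv hm0D (G.memD z0) (by linarith) h0 (by ring)
  have hyr : ∀ ε, 0 < ε → dt (p b - p a) (y ε - p a) < 0 := by
    intro ε hε
    have e : dt (p b - p a) (y ε - p a) = ε * dt (p b - p a) (p z0 - p a) := by
      simp only [hy, hm0]
      simp [dt]; ring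
    rw [e]
    exact mul_neg_of_pos_of_neg hε hz0
  -- the closed triangles
  let K : V × V × V → Set (ℝ × ℝ) := fun t => {z | 0 ≤ dt (p t.2.1 - p t.1) (z - p t.1) ∧
    0 ≤ dt (p t.2.2 - p t.2.1) (z - p t.2.1) ∧ 0 ≤ dt (p t.1 - p t.2.2) (z - p t.2.2)}
  have hKc : ∀ t, IsClosed (K t) := by
    intro t
    have hcont : ∀ e u : ℝ × ℝ, Continuous fun z : ℝ × ℝ => dt e (z - u) := by
      intro e u; unfold dt; fun_prop
    exact (isClosed_le continuous_const (hcont _ _)).inter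
      ((isClosed_le continuous_const (hcont _ _)).inter
        (isClosed_le continuous_const (hcont _ _)))
  have ev : ∀ᶠ ε : ℝ in 𝓝[>] 0, ∀ t ∈ T, m0 ∉ K t → y ε ∉ K t := by
    rw [Filter.eventually_all_finset]
    intro t _
    by_cases hm : m0 ∈ K t
    · exact Eventually.of_forall fun ε h => absurd hm h
    · have hO : IsOpen (K t)ᶜ := (hKc t).isOpen_compl
      have : ∀ᶠ ε : ℝ in 𝓝 0, y ε ∈ (K t)ᶜ := by
        apply hyc.continuousAt.eventually_mem
        rw [hy0]
        exact hO.mem_nhds hm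
      exact (this.filter_mono nhdsWithin_le_nhds).mono fun ε hε _ => hε
  have ev1 : ∀ᶠ ε : ℝ in 𝓝[>] 0, ε < 1 :=
    (eventually_lt_nhds (by norm_num : (0:ℝ) < 1)).filter_mono nhdsWithin_le_nhds
  obtain ⟨ε, ⟨hε1, hε2⟩, hε3⟩ := ((ev.and ev1).and self_mem_nhdsWithin).exists
  have hε3 : 0 < ε := hε3
  obtain ⟨a', b', c', ht', α, β, γ, hα, hβ, hγ, hs, hz⟩ := G.cover (y ε) (hyD ε hε3.le hε2.le)
  have hyK : y ε ∈ K (a', b', c') := by
    have hp := G.pos ht'
    have hp2 := G.pos (G.rot ht')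
    have hp3 := G.pos (G.rot (G.rot ht'))
    refine ⟨?_, ?_, ?_⟩
    · simp only
      rw [hz, dt_comb hs, sub_self, dt_self, dt_zero_right]
      have := mul_nonneg hγ hp.le
      linarith
    · simp only
      rw [hz, dt_comb hs, sub_self, dt_self, dt_zero_right]
      have := mul_nonneg hα hp2.le
      linarith
    · simp only
      rw [hz, dt_comb hs, sub_self, dt_self, dt_zero_right]
      have := mul_nonneg hβ hp3.le
      linarith
  have hmK : m0 ∈ K (a', b', c') := by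
    by_contra hm
    exact hε1 _ ht' hm hyK
  obtain ⟨α', β', γ', hα', hβ', hγ', hs', hz'⟩ := bary_of_dt (G.pos ht') hmK.1 hmK.2.1 hmK.2.2
  have hab : a ≠ b := by
    rintro rfl
    have := G.pos h
    rw [sub_self, dt_zero_left] at this
    exact lt_irrefl _ this
  have ha : a = a' ∨ a = b' ∨ a = c' := by
    refine G.uniq h ht' (1 / 2) (1 / 2) 0 α' β' γ' (by norm_num) (by norm_num) le_rfl hα' hβ' hγ'
      (by norm_num) hs' ?_ (by norm_num)
    rw [← hz', hm0, zero_smul, add_zero]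
  have hb : b = a' ∨ b = b' ∨ b = c' := by
    refine G.uniq (G.rot h) ht' (1 / 2) 0 (1 / 2) α' β' γ' (by norm_num) le_rfl (by norm_num)
      hα' hβ' hγ' (by norm_num) hs' ?_ (by norm_num)
    rw [← hz', hm0, zero_smul, add_zero, add_comm]
  have left : ∀ x, (a, b, x) ∈ T → (∀ z, z = y ε → ∃ α β γ : ℝ, 0 ≤ γ ∧ α + β + γ = 1 ∧
      z = α • p a + β • p b + γ • p x) → False := by
    intro x hx hh
    obtain ⟨α, β, γ, hγ, hs, hz⟩ := hh _ rfl
    have := hyr ε hε3
    rw [hz, dt_comb hs, sub_self, dt_self, dt_zero_right] at this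
    have h2 := mul_nonneg hγ (G.pos hx).le
    linarith
  rcases ha with rfl | rfl | rfl
  · rcases hb with rfl | rfl | rfl
    · exact hab rfl
    · exact left c' ht' fun z hz2 => ⟨α, β, γ, hγ, hs, by rw [hz2, hz]⟩
    · exact hno b' (G.rot (G.rot ht'))
  · rcases hb with rfl | rfl | rfl
    · exact hno c' ht'
    · exact hab rfl
    · exact left a' (G.rot ht') fun z hz2 => ⟨β, γ, α, hα, by linarith, by rw [hz2, hz]; abel⟩
  · rcases hb with rfl | rfl | rfl
    · exact left b' (G.rot (G.rot ht')) fun z hz2 => ⟨γ, α, β, hβ, by linarith, by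
        rw [hz2, hz]; abel⟩
    · exact hno a' (G.rot ht')
    · exact hab rfl

/-- the triangulated polygon -/
def tp (G : Geo D p T) : TP V where
  p := p
  T := T
  rot := G.rot
  pos := G.pos
  disj := fun d h h' h1 h2 h1' h2' => G.disj d h h' h1 h2 h1' h2'
  edge := fun h => G.edge h
  used := G.used

@[simp] theorem tp_p (G : Geo D p T) : G.tp.p = p := rfl
@[simp] theorem tp_T (G : Geo D p T) : G.tp.T = T := rfl

/-- (B1) a boundary vertex lies on a supporting line of `D` -/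
theorem bd_support (G : Geo D p T) {v : V} (hv : G.tp.Bd v) :
    ∃ e : ℝ × ℝ, e ≠ 0 ∧ ∀ z ∈ D, dt e (p v) ≤ dt e z := by
  obtain ⟨w0, hs⟩ := hv
  have hl := G.tp.start_left hs
  obtain ⟨x, hx, -⟩ := hs
  refine ⟨p w0 - p v, G.tp.ne_of_mem hx, ?_⟩
  intro z hz
  obtain ⟨a, b, c, -, α, β, γ, hα, hβ, hγ, hsum, rfl⟩ := G.cover z hz
  have h1 := mul_nonneg hα (hl a)
  have h2 := mul_nonneg hβ (hl b)
  have h3 := mul_nonneg hγ (hl c)
  have h4 := dt_comb hsum (A := p a) (B := p b) (C := p c) (p w0 - p v) (p v)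
  rw [dt_sub_right] at h4
  simp only [tp_p] at h1 h2 h3
  linarith

theorem bd_not_interior (G : Geo D p T) {v : V} (hv : G.tp.Bd v) : p v ∉ interior D := by
  obtain ⟨e, he, h⟩ := G.bd_support hv
  intro hint
  have hc : Continuous fun s : ℝ => p v + s • (e.2, -e.1) := by fun_prop
  have ev : ∀ᶠ s : ℝ in 𝓝[>] 0, p v + s • (e.2, -e.1) ∈ interior D := by
    have : ∀ᶠ s : ℝ in 𝓝 0, p v + s • (e.2, -e.1) ∈ interior D := by
      apply hc.continuousAt.eventually_mem
      apply isOpen_interior.mem_nhds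
      simpa using hint
    exact this.filter_mono nhdsWithin_le_nhds
  obtain ⟨s, hs1, hs2⟩ := (ev.and self_mem_nhdsWithin).exists
  have hs2 : 0 < s := hs2
  have h1 := h _ (interior_subset hs1)
  rw [dt_add_right, dt_smul_right] at h1
  have h2 : dt e (e.2, -e.1) = -(e.1 ^ 2 + e.2 ^ 2) := by simp [dt]; ring
  rw [h2] at h1
  have h3 : s * (e.1 ^ 2 + e.2 ^ 2) ≤ 0 := by linarith
  have h4 : e.1 ^ 2 + e.2 ^ 2 ≤ 0 := by
    by_contra hc
    push Not at hc
    have := mul_pos hs2 hc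
    linarith
  apply he
  have h7 : e.1 = 0 := by nlinarith [sq_nonneg e.1, sq_nonneg e.2]
  have h8 : e.2 = 0 := by nlinarith [sq_nonneg e.1, sq_nonneg e.2]
  exact Prod.ext h7 h8

theorem bd_frontier (G : Geo D p T) {v : V} (hv : G.tp.Bd v) : p v ∈ frontier D :=
  ⟨subset_closure (G.memD v), G.bd_not_interior hv⟩

/-- (B2) an interior vertex has a neighbour strictly higher for every linear form -/
theorem int_higher [Fintype V] (G : Geo D p T) {v : V} (hv : ¬ G.tp.Bd v)
    (l : (ℝ × ℝ) →ₗ[ℝ] ℝ) (hl : l ≠ 0) : ∃ w x, (v, w, x) ∈ T ∧ l (p v) < l (p w) := by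
  have hdt : ∀ z : ℝ × ℝ, l z = dt (l (0, 1), - l (1, 0)) z := by
    intro z
    have : z = z.1 • ((1 : ℝ), (0 : ℝ)) + z.2 • ((0 : ℝ), (1 : ℝ)) := by
      ext <;> simp
    conv_lhs => rw [this]
    rw [map_add, map_smul, map_smul]
    simp [dt]; ring
  have he : ((l (0, 1), - l (1, 0)) : ℝ × ℝ) ≠ 0 := by
    intro h0
    apply hl
    refine LinearMap.ext fun z => ?_
    rw [hdt z, h0, dt_zero_left]; rfl
  obtain ⟨w, x, ht, hw⟩ := G.tp.exists_half hv p (fun h => G.pos h) he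
  refine ⟨w, x, ht, ?_⟩
  rw [dt_sub_right] at hw
  have a1 := hdt (p v)
  have a2 := hdt (p w)
  linarith

/-- a vertex on a supporting line is a boundary vertex -/
theorem bd_of_support [Fintype V] (G : Geo D p T) {v : V} (l : (ℝ × ℝ) →ₗ[ℝ] ℝ) (hl : l ≠ 0)
    (h : ∀ z ∈ D, l z ≤ l (p v)) : G.tp.Bd v := by
  by_contra hv
  obtain ⟨w, x, -, hw⟩ := G.int_higher hv l hl
  exact absurd (h _ (G.memD w)) (not_le.2 hw)

end Geo

/-- the coordinate form of uniqueness (as in `Fp_812.Fan`) -/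
theorem Geo.mk' [Fintype V] [DecidableEq V] {D : Set (ℝ × ℝ)} {p : V → ℝ × ℝ}
    {T : Finset (V × V × V)}
    (conv : Convex ℝ D)
    (rot : ∀ {a b c : V}, (a, b, c) ∈ T → (b, c, a) ∈ T)
    (pos : ∀ {a b c : V}, (a, b, c) ∈ T → 0 < dt (p b - p a) (p c - p a))
    (memD : ∀ v, p v ∈ D)
    (cover : ∀ z ∈ D, ∃ a b c : V, (a, b, c) ∈ T ∧ ∃ α β γ : ℝ, 0 ≤ α ∧ 0 ≤ β ∧ 0 ≤ γ ∧
      α + β + γ = 1 ∧ z = α • p a + β • p b + γ • p c)
    (uniq : ∀ t ∈ T, ∀ t' ∈ T, ∀ m m' : V → ℝ, (∀ v, 0 ≤ m v) → (∀ v, 0 ≤ m' v) →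
      (∀ v, v ≠ t.1 → v ≠ t.2.1 → v ≠ t.2.2 → m v = 0) →
      (∀ v, v ≠ t'.1 → v ≠ t'.2.1 → v ≠ t'.2.2 → m' v = 0) →
      ∑ v, m v = 1 → ∑ v, m' v = 1 → ∑ v, m v • p v = ∑ v, m' v • p v → m = m')
    (used : ∀ v : V, ∃ w x, (v, w, x) ∈ T) : Geo D p T := by
  refine ⟨conv, rot, pos, memD, cover, ?_, used⟩
  intro a b c a' b' c' h h' α β γ α' β' γ' hα hβ hγ hα' hβ' hγ' hs hs' heq ha
  set m : V → ℝ := Pi.single a α + Pi.single b β + Pi.single c γ with hm
  set m' : V → ℝ := Pi.single a' α' + Pi.single b' β' + Pi.single c' γ' with hm'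
  have s1 : ∀ (j : V) (c : ℝ), 0 ≤ c → ∀ u, 0 ≤ (Pi.single j c : V → ℝ) u := by
    intro j c hc u
    by_cases h : u = j
    · subst h; simpa using hc
    · simp [h]
  have single : ∀ (i : V) (c : ℝ), ∑ w, (Pi.single i c : V → ℝ) w • p w = c • p i := by
    intro i c
    rw [Finset.sum_eq_single i]
    · simp
    · intro j _ hj; simp [hj]
    · intro h; exact absurd (mem_univ _) h
  have single1 : ∀ (i : V) (c : ℝ), ∑ w, (Pi.single i c : V → ℝ) w = c := by
    intro i c
    rw [Finset.sum_eq_single i]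
    · simp
    · intro j _ hj; simp [hj]
    · intro h; exact absurd (mem_univ _) h
  have key := uniq _ h _ h' m m' (fun v => by
      simp only [hm, Pi.add_apply]
      have := s1 a α hα v
      have := s1 b β hβ v
      have := s1 c γ hγ v
      linarith) (fun v => by
      simp only [hm', Pi.add_apply]
      have := s1 a' α' hα' v
      have := s1 b' β' hβ' v
      have := s1 c' γ' hγ' v
      linarith) (fun v h1 h2 h3 => by simp only at h1 h2 h3; simp [hm, h1, h2, h3])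
      (fun v h1 h2 h3 => by simp only at h1 h2 h3; simp [hm', h1, h2, h3])
      (by simp only [hm, Pi.add_apply, Finset.sum_add_distrib, single1]; exact hs)
      (by simp only [hm', Pi.add_apply, Finset.sum_add_distrib, single1]; exact hs')
      (by simp only [hm, hm', Pi.add_apply, add_smul, Finset.sum_add_distrib, single]
          exact heq)
  by_contra hn
  push Not at hn
  have h0 : m' a = 0 := by simp [hm', hn.1, hn.2.1, hn.2.2]
  have h1 : α ≤ m a := by
    simp only [hm, Pi.add_apply, Pi.single_eq_same]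
    have := s1 b β hβ a
    have := s1 c γ hγ a
    linarith
  rw [key, h0] at h1
  linarith

end Crest.Agent.R096.Tut_334
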