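import Crest.Agent.R096.Tut5_334
import Crest.Agent.R096.Fp5_812

/-!
Row 96, P5-TUTTE (helper334), part 6: `Fp_812.TutteStmt`.
-/

set_option autoImplicit false

namespace Crest.Agent.R096.Tut_334

open Finset Filter Topology
open scoped ContDiff

namespace Geo

variable {V : Type*} {D : Set (ℝ × ℝ)} {p : V → ℝ × ℝ} {T : Finset (V × V × V)}

theorem interior_nonempty (G : Geo D p T) (v : V) : (interior D).Nonempty := by
  obtain ⟨w, x, h⟩ := G.used v
  have hp := G.pos h
  have hcont : ∀ e u : ℝ × ℝ, Continuous fun z : ℝ × ℝ => dt e (z - u) := by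
    intro e u; unfold dt; fun_prop
  set U : Set (ℝ × ℝ) := {z | 0 < dt (p w - p v) (z - p v)} ∩
    ({z | 0 < dt (p x - p w) (z - p w)} ∩ {z | 0 < dt (p v - p x) (z - p x)}) with hU
  have hUo : IsOpen U := (isOpen_lt continuous_const (hcont _ _)).inter
    ((isOpen_lt continuous_const (hcont _ _)).inter (isOpen_lt continuous_const (hcont _ _)))
  have hUD : U ⊆ D := by
    rintro z ⟨h1, h2, h3⟩
    obtain ⟨α, β, γ, hα, hβ, hγ, hs, rfl⟩ := bary_of_dt hp (le_of_lt h1) (le_of_lt h2)
      (le_of_lt h3)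
    by_cases hαβ : α + β = 0
    · have e1 : α = 0 := by linarith
      have e2 : β = 0 := by linarith
      have e3 : γ = 1 := by linarith
      rw [e1, e2, e3]
      simpa using G.memD x
    · have hpos : 0 < α + β := lt_of_le_of_ne (by linarith) (Ne.symm hαβ)
      have h4 : (α / (α + β)) • p v + (β / (α + β)) • p w ∈ D :=
        G.conv (G.memD v) (G.memD w) (by positivity) (by positivity) (by field_simp)
      have h5 := G.conv h4 (G.memD x) hpos.le hγ hs
      have e : (α + β) • ((α / (α + β)) • p v + (β / (α + β)) • p w) = α • p v + β • p w := by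
        rw [smul_add, smul_smul, smul_smul]
        congr 2 <;> field_simp
      rwa [e] at h5
  refine ⟨(1 / 3 : ℝ) • p v + (1 / 3 : ℝ) • p w + (1 / 3 : ℝ) • p x,
    interior_maximal hUD hUo ?_⟩
  have hp' := hp
  simp only [dt, Prod.fst_sub, Prod.snd_sub] at hp'
  refine ⟨?_, ?_, ?_⟩
  · show 0 < dt _ _
    simp only [dt, Prod.fst_sub, Prod.snd_sub, Prod.fst_add, Prod.snd_add, Prod.smul_fst,
      Prod.smul_snd, smul_eq_mul]
    nlinarith
  · show 0 < dt _ _
    simp only [dt, Prod.fst_sub, Prod.snd_sub, Prod.fst_add, Prod.snd_add, Prod.smul_fst,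
      Prod.smul_snd, smul_eq_mul]
    nlinarith
  · show 0 < dt _ _
    simp only [dt, Prod.fst_sub, Prod.snd_sub, Prod.fst_add, Prod.snd_add, Prod.smul_fst,
      Prod.smul_snd, smul_eq_mul]
    nlinarith

/-- a vertex on the frontier is a boundary vertex -/
theorem bd_of_frontier [Fintype V] (G : Geo D p T) {v : V} (hv : p v ∈ frontier D) :
    G.tp.Bd v := by
  have hne := G.interior_nonempty v
  have hni : p v ∉ interior D := hv.2
  obtain ⟨f, hf⟩ := geometric_hahn_banach_open_point G.conv.interior isOpen_interior hni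
  have hf0 : (f : (ℝ × ℝ) →ₗ[ℝ] ℝ) ≠ 0 := by
    intro h0
    obtain ⟨y, hy⟩ := hne
    have h1 := hf y hy
    have e : ∀ z, f z = 0 := fun z => by
      have := congrArg (fun g : (ℝ × ℝ) →ₗ[ℝ] ℝ => g z) h0
      simpa using this
    rw [e, e] at h1
    exact lt_irrefl _ h1
  refine G.bd_of_support (f : (ℝ × ℝ) →ₗ[ℝ] ℝ) hf0 ?_
  intro z hz
  have hz2 : z ∈ closure (interior D) := by
    rw [G.conv.closure_interior_eq_closure_of_nonempty_interior hne]
    exact subset_closure hz
  have hcl : IsClosed {z | f z ≤ f (p v)} := isClosed_le f.continuous continuous_const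
  exact (closure_minimal (fun y hy => (hf y hy).le) hcl) hz2

end Geo

/-- the planar statement of 812 -/
theorem tutteStmt : Fp_812.TutteStmt := by
  classical
  intro P _ D p q T hconv _ hrot hpos hmem hcover huniq hused hqb hq
  have G : Geo D p T := Geo.mk' hconv (fun h => hrot _ _ _ h) (fun h => hpos _ _ _ h) hmem
    hcover (fun t ht t' ht' m m' h1 h2 h3 h4 h5 h6 h7 =>
      huniq t.1 t.2.1 t.2.2 t'.1 t'.2.1 t'.2.2 ht ht' m m' h1 h2 h3 h4 h5 h6 h7) hused
  obtain ⟨Q, hQ, h0, h1, hb, hp⟩ := G.tp.exists_path q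
    (fun b hb => hqb b (G.bd_frontier hb)) (fun h => hq _ _ _ h)
  refine ⟨Q, fun v => ?_, h0 0 le_rfl, h1 1 le_rfl, ?_, ?_⟩
  · exact ((continuous_apply v).comp hQ.continuous).continuousOn
  · intro t _ v hv
    exact hb t v (G.bd_of_frontier hv)
  · intro t _ a b c h
    exact hp t h

end Crest.Agent.R096.Tut_334
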