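import Crest.Agent.R096.Qp4_106
import Crest.Agent.R096.Door6_501

/-!
# Row 96, DOORS-TOWER, part 1 (helper438): closed curves on the boundary sphere, labels, sides

* `Crv S`      : finitely many closed curves (a finite set of points with partners on the faces).
* `IsLab A a`  : vertex labels of `A` (side of `A`), `A.val a e τ` = side of the position `τ` of `e`.
* `exists_lab` : labels exist (`S.Sph`).
* `side_const` : the side of a connected curve with respect to a curve which it does not cross.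
* `prod_rule`  : two disjoint curves are nested or disjoint (algebraic form).
-/

set_option autoImplicit false

namespace Crest.Agent.R096.Twr_438

open Crest.Agent.R096.St_147 Crest.Agent.R096.Door_501 Crest.Agent.R096.Qp_106 Classical

variable {ι Φ W : Type} {M : MeshC ι Φ W} {k : ι} {Vx Ed : Type}

/-- closed curves on the sphere -/
structure Crv (S : Shell M k Vx Ed) where
  C : Finset W
  mu : Φ → W → W
  on : ∀ {w}, w ∈ C → ∃ e, w ∈ S.OnE e
  mem : ∀ {F w}, k ∈ M.side F → w ∈ C → w ∈ M.On F → mu F w ∈ C ∧ mu F w ∈ M.On F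
  ne : ∀ {F w}, k ∈ M.side F → w ∈ C → w ∈ M.On F → mu F w ≠ w
  inv : ∀ {F w}, k ∈ M.side F → w ∈ C → w ∈ M.On F → mu F (mu F w) = w

/-- labels of a curve -/
def IsLab {S : Shell M k Vx Ed} (A : Crv S) (a : Vx → ZMod 2) : Prop :=
  ∀ e, a (S.en e false) + a (S.en e true) = ((A.C.filter fun w => w ∈ S.OnE e).card : ZMod 2)

variable {S : Shell M k Vx Ed}

/-- connectedness of the curve -/
def Cn (A : Crv S) : Prop :=
  ∀ X : Set W, (∀ F w, k ∈ M.side F → w ∈ M.On F → w ∈ A.C → w ∈ X → A.mu F w ∈ X) →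
    ∀ w ∈ X, w ∈ A.C → ∀ w' ∈ A.C, w' ∈ X

/-- the side of the position `τ` on the edge `e` -/
noncomputable def val (A : Crv S) (a : Vx → ZMod 2) (e : Ed) (τ : ℝ) : ZMod 2 :=
  a (S.en e false) + ((A.C.filter fun x => x ∈ S.OnE e ∧ S.t x < τ).card : ZMod 2)

/-- the two curves do not cross -/
def NLC (A B : Crv S) : Prop := ∀ F w x, k ∈ M.side F → w ∈ A.C → w ∈ M.On F →
  x ∈ B.C → x ∈ M.On F → ¬ M.Lace F w (A.mu F w) x (B.mu F x)

theorem Crv.even (A : Crv S) {F : Φ} (hF : k ∈ M.side F) :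
    ((A.C.filter fun w => w ∈ M.On F).card : ZMod 2) = 0 := by
  have h := sum_inv (A.C.filter fun w => w ∈ M.On F) (fun _ => (1 : ZMod 2)) (A.mu F)
    (fun x hx => Finset.mem_filter.2
      (A.mem hF (Finset.mem_filter.1 hx).1 (Finset.mem_filter.1 hx).2))
    (fun x hx => A.ne hF (Finset.mem_filter.1 hx).1 (Finset.mem_filter.1 hx).2)
    (fun x hx => A.inv hF (Finset.mem_filter.1 hx).1 (Finset.mem_filter.1 hx).2)
    (fun _ _ => rfl)
  rwa [Finset.sum_const, nsmul_eq_mul, mul_one] at h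

/-- labels exist -/
theorem exists_lab [Fintype Ed] (hS : S.Sph) (A : Crv S) (v0 : Vx) :
    ∃ a : Vx → ZMod 2, IsLab A a ∧ a v0 = 0 := by
  obtain ⟨ψ, hψ⟩ := hS (fun e => ((A.C.filter fun w => w ∈ S.OnE e).card : ZMod 2)) (by
    intro F hF
    have h1 := S.wsum hF A.C (fun _ => (1 : ZMod 2))
    have h2 : ∀ e ∈ S.EF F, ((A.C.filter fun w => w ∈ S.OnE e).card : ZMod 2) =
        ∑ w ∈ A.C.filter (fun w => w ∈ S.OnE e), (1 : ZMod 2) := by
      intro e _
      rw [Finset.sum_const, nsmul_eq_mul, mul_one]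
    rw [Finset.sum_congr rfl h2, h1, Finset.sum_const, nsmul_eq_mul, mul_one, A.even hF])
  refine ⟨fun v => ψ v + ψ v0, fun e => ?_, zz_self _⟩
  show ψ (S.en e false) + ψ v0 + (ψ (S.en e true) + ψ v0) = _
  rw [y3]
  exact (hψ e).symm

/-- the side of a point of a face, in terms of the positions on the boundary of the face -/
theorem side_face (hC : S.Circ) (A : Crv S) {a : Vx → ZMod 2} (ha : IsLab A a) {F : Φ}
    (hF : k ∈ M.side F) : ∃ g : ZMod 2, ∀ e, (∃ b, S.fc e b = F) → ∀ w ∈ S.OnE e, w ∉ A.C →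
      val A a e (S.t w) = g + S.cnt F (A.C.filter fun x => x ∈ M.On F) (M.pos F w) := by
  obtain ⟨pv, h1, h2⟩ := hC.circ F hF
  set y := A.C.filter fun x => x ∈ M.On F with hy
  have hyF : ∀ w ∈ y, w ∈ M.On F := fun w hw => (Finset.mem_filter.1 hw).2
  have hev : Even y.card := (ZMod.natCast_eq_zero_iff_even).1 (A.even hF)
  have hsub : ∀ e, (∃ b, S.fc e b = F) → ∀ x ∈ S.OnE e, x ∈ M.On F := by
    rintro e ⟨b, rfl⟩ x hx
    exact S.on_of_onE hx b
  by_cases hne : ∃ e, ∃ b, S.fc e b = F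
  · obtain ⟨e0, he0⟩ := hne
    refine ⟨a (S.en e0 false) + S.cnt F y (pv (S.en e0 false)), fun e he w hw hwC => ?_⟩
    have h3 := hC.vconn F hF {v | a v + S.cnt F y (pv v) =
      a (S.en e0 false) + S.cnt F y (pv (S.en e0 false))} (by
        intro e' he'
        have h4 := h1 e' he' y hyF hev
        have h5 := ha e'
        have h6 : (y.filter fun w => w ∈ S.OnE e') = A.C.filter fun w => w ∈ S.OnE e' := by
          ext w
          simp only [hy, Finset.mem_filter]
          exact ⟨fun h => ⟨h.1.1, h.2⟩, fun h => ⟨⟨h.1, hsub e' he' w h.2⟩, h.2⟩⟩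
        rw [h6, ← h5] at h4
        have z : ∀ p q r s : ZMod 2, p + q = r + s → r + p = s + q := by decide
        show a (S.en e' false) + S.cnt F y (pv (S.en e' false)) = _ ↔
          a (S.en e' true) + S.cnt F y (pv (S.en e' true)) = _
        rw [z _ _ _ _ h4]) e0 he0 false rfl e he false
    have h3' : a (S.en e false) + S.cnt F y (pv (S.en e false)) =
      a (S.en e0 false) + S.cnt F y (pv (S.en e0 false)) := h3
    obtain ⟨ε, h4⟩ := h2 e he w hw
    have h5 := h4 y hyF hev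
    rw [if_neg (fun h => hwC (Finset.mem_filter.1 h).1), add_zero] at h5
    have h6 : (y.filter fun x => x ∈ S.OnE e ∧ S.t x < S.t w) =
        A.C.filter fun x => x ∈ S.OnE e ∧ S.t x < S.t w := by
      ext x
      simp only [hy, Finset.mem_filter]
      exact ⟨fun h => ⟨h.1.1, h.2⟩, fun h => ⟨⟨h.1, hsub e he x h.2.1⟩, h.2⟩⟩
    rw [h6] at h5
    unfold val
    rw [← h3', ← h5]
    have z : ∀ p q r : ZMod 2, p + (q + r) = p + q + r := by decide
    exact z _ _ _
  · exact ⟨0, fun e he => (hne ⟨e, he⟩).elim⟩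

/-- a chord which does not interlace the chords of `B` has an even number of points of `B` on
either side -/
theorem cnt_chord (A B : Crv S) (hd : Disjoint A.C B.C) (hNL : NLC A B) {F : Φ}
    (hF : k ∈ M.side F) {w : W} (hw : w ∈ A.C) (hwF : w ∈ M.On F) :
    S.cnt F (B.C.filter fun x => x ∈ M.On F) (M.pos F w) =
      S.cnt F (B.C.filter fun x => x ∈ M.On F) (M.pos F (A.mu F w)) := by
  have hw' := A.mem hF hw hwF
  have key : ∀ u v : W, u ∈ A.C → u ∈ M.On F → v ∈ A.C → v ∈ M.On F →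
      M.pos F u < M.pos F v →
      (∀ x ∈ B.C, x ∈ M.On F → (M.pos F u < M.pos F x ∧ M.pos F x < M.pos F v ↔
        M.pos F u < M.pos F (B.mu F x) ∧ M.pos F (B.mu F x) < M.pos F v)) →
      S.cnt F (B.C.filter fun x => x ∈ M.On F) (M.pos F u) =
        S.cnt F (B.C.filter fun x => x ∈ M.On F) (M.pos F v) := by
    intro u v hu huF hv hvF huv hb
    set y := B.C.filter fun x => x ∈ M.On F with hy
    set J := y.filter fun x => M.pos F u < M.pos F x ∧ M.pos F x < M.pos F v with hJ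
    have h1 : y.filter (fun x => M.pos F x < M.pos F v) =
        y.filter (fun x => M.pos F x < M.pos F u) ∪ J := by
      ext x
      simp only [hJ, Finset.mem_filter, Finset.mem_union]
      constructor
      · rintro ⟨h1, h2⟩
        rcases lt_trichotomy (M.pos F x) (M.pos F u) with h3 | h3 | h3
        · exact Or.inl ⟨h1, h3⟩
        · exfalso
          have h4 := Finset.mem_filter.1 h1
          have h5 := M.pos_inj F h4.2 huF h3
          rw [h5] at h4
          exact Finset.disjoint_left.1 hd hu h4.1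
        · exact Or.inr ⟨h1, h3, h2⟩
      · rintro (⟨h1, h2⟩ | ⟨h1, h2, h3⟩)
        · exact ⟨h1, h2.trans huv⟩
        · exact ⟨h1, h3⟩
    have h2 : Disjoint (y.filter fun x => M.pos F x < M.pos F u) J := by
      rw [Finset.disjoint_left]
      intro x a1 a2
      exact lt_asymm (Finset.mem_filter.1 a1).2 (Finset.mem_filter.1 a2).2.1
    have h3 : (J.card : ZMod 2) = 0 := by
      have h := sum_inv J (fun _ => (1 : ZMod 2)) (B.mu F)
        (fun x hx => by
          obtain ⟨a1, a2⟩ := Finset.mem_filter.1 hx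
          obtain ⟨b1, b2⟩ := Finset.mem_filter.1 a1
          exact Finset.mem_filter.2 ⟨Finset.mem_filter.2 (B.mem hF b1 b2), (hb x b1 b2).1 a2⟩)
        (fun x hx => by
          obtain ⟨b1, b2⟩ := Finset.mem_filter.1 (Finset.mem_filter.1 hx).1
          exact B.ne hF b1 b2)
        (fun x hx => by
          obtain ⟨b1, b2⟩ := Finset.mem_filter.1 (Finset.mem_filter.1 hx).1
          exact B.inv hF b1 b2)
        (fun _ _ => rfl)
      rwa [Finset.sum_const, nsmul_eq_mul, mul_one] at h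
    unfold Shell.cnt
    rw [h1, Finset.card_union_of_disjoint h2]
    push_cast
    rw [h3, add_zero]
  have hlace : ∀ x ∈ B.C, x ∈ M.On F → (M.Btw F w (A.mu F w) x ↔ M.Btw F w (A.mu F w) (B.mu F x)) :=
    fun x hx hxF => not_not.1 (hNL F w x hF hw hwF hx hxF)
  rcases lt_trichotomy (M.pos F w) (M.pos F (A.mu F w)) with h | h | h
  · refine key w _ hw hwF hw'.1 hw'.2 h fun x hx hxF => ?_
    have h1 := hlace x hx hxF
    unfold MeshC.Btw at h1
    have h2 : ∀ z, ¬ (M.pos F (A.mu F w) < M.pos F z ∧ M.pos F z < M.pos F w) :=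
      fun z hz => lt_asymm h (hz.1.trans hz.2)
    simpa [h2] using h1
  · exact absurd (M.pos_inj F hwF hw'.2 h) (A.ne hF hw hwF).symm
  · refine (key _ w hw'.1 hw'.2 hw hwF h fun x hx hxF => ?_).symm
    have h1 := hlace x hx hxF
    unfold MeshC.Btw at h1
    have h2 : ∀ z, ¬ (M.pos F w < M.pos F z ∧ M.pos F z < M.pos F (A.mu F w)) :=
      fun z hz => lt_asymm h (hz.1.trans hz.2)
    simpa [h2] using h1

/-- a connected curve lies on one side of a curve which it does not cross -/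
theorem side_const (hC : S.Circ) (A B : Crv S) (hcn : Cn A) (hd : Disjoint A.C B.C)
    (hNL : NLC A B) {b : Vx → ZMod 2} (hb : IsLab B b) :
    ∃ p : ZMod 2, ∀ e w, w ∈ S.OnE e → w ∈ A.C → val B b e (S.t w) = p := by
  by_cases hne : A.C.Nonempty
  · obtain ⟨w0, hw0⟩ := hne
    obtain ⟨e0, he0⟩ := A.on hw0
    refine ⟨val B b e0 (S.t w0), fun e w he hw => ?_⟩
    refine hcn {u | ∀ e, u ∈ S.OnE e → val B b e (S.t u) = val B b e0 (S.t w0)} ?_ w0
      (fun e he => by rw [S.onE_disj he he0]) hw0 w hw e he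
    intro F u hF huF hu hX e1 he1
    obtain ⟨g, hg⟩ := side_face hC B hb hF
    have hu' := A.mem hF hu huF
    obtain ⟨e2, b2, h2, he2⟩ := (S.onE hF).1 huF
    obtain ⟨b1, h1⟩ := S.fc_of_on he1 hF hu'.2
    rw [hg e1 ⟨b1, h1⟩ _ he1 (Finset.disjoint_left.1 hd hu'.1),
      ← cnt_chord A B hd hNL hF hu huF,
      ← hg e2 ⟨b2, h2⟩ _ he2 (Finset.disjoint_left.1 hd hu)]
    exact hX e2 he2
  · exact ⟨0, fun e w _ hw => (hne ⟨w, hw⟩).elim⟩

/-- crossing one position -/
theorem val_step (A : Crv S) (a : Vx → ZMod 2) (e : Ed) {w : W} (hw : w ∈ S.OnE e) {τ : ℝ}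
    (hτ : S.t w < τ) (hgap : ∀ x ∈ A.C, x ∈ S.OnE e → S.t w < S.t x → τ ≤ S.t x) :
    val A a e τ = val A a e (S.t w) + if w ∈ A.C then 1 else 0 := by
  unfold val
  by_cases hwC : w ∈ A.C
  · rw [if_pos hwC]
    have h1 : (A.C.filter fun x => x ∈ S.OnE e ∧ S.t x < τ) =
        insert w (A.C.filter fun x => x ∈ S.OnE e ∧ S.t x < S.t w) := by
      ext x
      simp only [Finset.mem_filter, Finset.mem_insert]
      constructor
      · rintro ⟨h1, h2, h3⟩
        rcases lt_trichotomy (S.t x) (S.t w) with h4 | h4 | h4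
        · exact Or.inr ⟨h1, h2, h4⟩
        · exact Or.inl (S.t_inj e h2 hw h4)
        · exact absurd h3 (not_lt.2 (hgap x h1 h2 h4))
      · rintro (rfl | ⟨h1, h2, h3⟩)
        · exact ⟨hwC, hw, hτ⟩
        · exact ⟨h1, h2, h3.trans hτ⟩
    rw [h1, Finset.card_insert_of_notMem (fun h => lt_irrefl _ (Finset.mem_filter.1 h).2.2)]
    push_cast
    rw [add_assoc]
  · rw [if_neg hwC, add_zero]
    congr 3
    ext x
    simp only [Finset.mem_filter]
    constructor
    · rintro ⟨h1, h2, h3⟩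
      rcases lt_trichotomy (S.t x) (S.t w) with h4 | h4 | h4
      · exact ⟨h1, h2, h4⟩
      · exact absurd (S.t_inj e h2 hw h4 ▸ h1) hwC
      · exact absurd h3 (not_lt.2 (hgap x h1 h2 h4))
    · rintro ⟨h1, h2, h3⟩
      exact ⟨h1, h2, h3.trans hτ⟩

theorem val_zero (A : Crv S) (a : Vx → ZMod 2) (e : Ed) {τ : ℝ}
    (h : ∀ x ∈ A.C, x ∈ S.OnE e → τ ≤ S.t x) : val A a e τ = a (S.en e false) := by
  unfold val
  have h1 : (A.C.filter fun x => x ∈ S.OnE e ∧ S.t x < τ) = ∅ := by
    rw [Finset.filter_eq_empty_iff]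
    rintro x hx ⟨h2, h3⟩
    exact absurd h3 (not_lt.2 (h x hx h2))
  rw [h1, Finset.card_empty]
  simp

theorem val_one (A : Crv S) {a : Vx → ZMod 2} (ha : IsLab A a) (e : Ed) {τ : ℝ}
    (h : ∀ x ∈ A.C, x ∈ S.OnE e → S.t x < τ) : val A a e τ = a (S.en e true) := by
  unfold val
  have h1 : (A.C.filter fun x => x ∈ S.OnE e ∧ S.t x < τ) =
      A.C.filter fun x => x ∈ S.OnE e := by
    refine Finset.filter_congr fun x hx => ?_
    exact ⟨fun h => h.1, fun h' => ⟨h', h x hx h'⟩⟩
  rw [h1, ← ha e]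
  have z : ∀ p q : ZMod 2, p + (p + q) = q := by decide
  exact z _ _

end Crest.Agent.R096.Twr_438
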