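import Crest.Agent.R096.Twr1_438

/-!
# Row 96, DOORS-TOWER, part 2 (helper438): two disjoint curves are nested or disjoint
-/

set_option autoImplicit false

namespace Crest.Agent.R096.Twr_438

open Crest.Agent.R096.St_147 Crest.Agent.R096.Door_501 Crest.Agent.R096.Qp_106 Classical

variable {ι Φ W : Type} {M : MeshC ι Φ W} {k : ι} {Vx Ed : Type} {S : Shell M k Vx Ed}

theorem z_stepA : ∀ p q A : ZMod 2, (A + 1) * p + p * (A + 1) + q * p = A * p + p * A + q * p := by
  decide

theorem z_stepB : ∀ p q B : ZMod 2, q * (B + 1) + p * q + q * (B + 1) = q * B + p * q + q * B := by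
  decide

/-- the product combination does not change along an edge -/
theorem prod_edge (A B : Crv S) (a b : Vx → ZMod 2) (hd : Disjoint A.C B.C) {p q : ZMod 2}
    (hp : ∀ e w, w ∈ S.OnE e → w ∈ A.C → val B b e (S.t w) = p)
    (hq : ∀ e w, w ∈ S.OnE e → w ∈ B.C → val A a e (S.t w) = q) (e : Ed) :
    ∀ (n : ℕ) (τ : ℝ), ((A.C ∪ B.C).filter fun x => x ∈ S.OnE e ∧ S.t x < τ).card = n →
      val A a e τ * val B b e τ + p * val A a e τ + q * val B b e τ =
        a (S.en e false) * b (S.en e false) + p * a (S.en e false) + q * b (S.en e false) := by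
  intro n
  induction n with
  | zero =>
    intro τ hn
    have h1 := Finset.filter_eq_empty_iff.1 (Finset.card_eq_zero.1 hn)
    rw [val_zero A a e (fun x hx hxe => not_lt.1 fun h =>
        h1 (Finset.mem_union_left _ hx) ⟨hxe, h⟩),
      val_zero B b e (fun x hx hxe => not_lt.1 fun h =>
        h1 (Finset.mem_union_right _ hx) ⟨hxe, h⟩)]
  | succ n ih =>
    intro τ hn
    set Y := (A.C ∪ B.C).filter fun x => x ∈ S.OnE e ∧ S.t x < τ with hY
    have hne : Y.Nonempty := Finset.card_pos.1 (by omega)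
    obtain ⟨w, hwY, hmax⟩ := Y.exists_max_image S.t hne
    obtain ⟨hw, hwe, hwτ⟩ := Finset.mem_filter.1 hwY
    have hgap : ∀ x ∈ A.C ∪ B.C, x ∈ S.OnE e → S.t w < S.t x → τ ≤ S.t x := by
      intro x hx hxe hlt
      by_contra h
      exact absurd (hmax x (Finset.mem_filter.2 ⟨hx, hxe, not_le.1 h⟩)) (not_le.2 hlt)
    have hcard : ((A.C ∪ B.C).filter fun x => x ∈ S.OnE e ∧ S.t x < S.t w).card = n := by
      have h1 : Y = insert w ((A.C ∪ B.C).filter fun x => x ∈ S.OnE e ∧ S.t x < S.t w) := by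
        ext x
        simp only [hY, Finset.mem_filter, Finset.mem_insert]
        constructor
        · rintro ⟨h1, h2, h3⟩
          rcases lt_trichotomy (S.t x) (S.t w) with h4 | h4 | h4
          · exact Or.inr ⟨h1, h2, h4⟩
          · exact Or.inl (S.t_inj e h2 hwe h4)
          · exact absurd h3 (not_lt.2 (hgap x h1 h2 h4))
        · rintro (rfl | ⟨h1, h2, h3⟩)
          · exact ⟨hw, hwe, hwτ⟩
          · exact ⟨h1, h2, h3.trans hwτ⟩
      rw [h1, Finset.card_insert_of_notMem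
        (fun h => lt_irrefl _ (Finset.mem_filter.1 h).2.2)] at hn
      omega
    rw [← ih (S.t w) hcard,
      val_step A a e hwe hwτ (fun x hx => hgap x (Finset.mem_union_left _ hx)),
      val_step B b e hwe hwτ (fun x hx => hgap x (Finset.mem_union_right _ hx))]
    rcases Finset.mem_union.1 hw with h | h
    · rw [if_pos h, if_neg (Finset.disjoint_left.1 hd h), add_zero, hp e w hwe h]
      exact z_stepA _ _ _
    · rw [if_pos h, if_neg (Finset.disjoint_right.1 hd h), add_zero, hq e w hwe h]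
      exact z_stepB _ _ _

/-- **product rule** -/
theorem prod_rule (hCon : S.Con) (A B : Crv S) {a b : Vx → ZMod 2} (ha : IsLab A a)
    (hb : IsLab B b) {v0 : Vx} (hv0 : ∃ e b, S.en e b = v0) (ha0 : a v0 = 0) (hb0 : b v0 = 0)
    (hd : Disjoint A.C B.C) {p q : ZMod 2}
    (hp : ∀ e w, w ∈ S.OnE e → w ∈ A.C → val B b e (S.t w) = p)
    (hq : ∀ e w, w ∈ S.OnE e → w ∈ B.C → val A a e (S.t w) = q) :
    (∀ e τ, val A a e τ * val B b e τ = p * val A a e τ + q * val B b e τ) ∧
    ∀ e c, a (S.en e c) * b (S.en e c) = p * a (S.en e c) + q * b (S.en e c) := by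
  have hE := prod_edge A B a b hd hp hq
  have h1 : ∀ e, a (S.en e true) * b (S.en e true) + p * a (S.en e true) + q * b (S.en e true) =
      a (S.en e false) * b (S.en e false) + p * a (S.en e false) + q * b (S.en e false) := by
    intro e
    have h2 := hE e _ 1 rfl
    rw [val_one A ha e (fun x _ hx => S.t_lt hx), val_one B hb e (fun x _ hx => S.t_lt hx)] at h2
    exact h2
  have z : ∀ x y z : ZMod 2, x + y + z = 0 ↔ x = y + z := by decide
  have h2 : ∀ e c, a (S.en e c) * b (S.en e c) + p * a (S.en e c) + q * b (S.en e c) = 0 := by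
    obtain ⟨e0, c0, h0⟩ := hv0
    intro e c
    refine hCon {v | a v * b v + p * a v + q * b v = 0} (fun e => ?_) e0 c0 e c ?_
    · show _ = _ ↔ _ = _
      rw [h1 e]
    · show a (S.en e0 c0) * b (S.en e0 c0) + p * a (S.en e0 c0) + q * b (S.en e0 c0) = 0
      rw [h0, ha0, hb0]
      have : ∀ p q : ZMod 2, 0 * 0 + p * 0 + q * 0 = 0 := by decide
      exact this p q
  refine ⟨fun e τ => ?_, fun e c => (z _ _ _).1 (h2 e c)⟩
  rw [← z, hE e _ τ rfl]
  exact h2 e false

/-- a curve is on both of its sides -/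
theorem exists_one (A : Crv S) (a : Vx → ZMod 2) {w : W} (hw : w ∈ A.C) :
    ∃ e τ, val A a e τ = 1 ∧ (val A a e τ = val A a e (S.t w) ∨
      val A a e τ = val A a e (S.t w) + 1) := by
  obtain ⟨e, he⟩ := A.on hw
  -- a position just after `w`
  obtain ⟨τ, hτ, hgap⟩ : ∃ τ, S.t w < τ ∧ ∀ x ∈ A.C, x ∈ S.OnE e → S.t w < S.t x → τ ≤ S.t x := by
    by_cases hne : (A.C.filter fun x => x ∈ S.OnE e ∧ S.t w < S.t x).Nonempty
    · obtain ⟨x, hx, hmin⟩ := Finset.exists_min_image _ S.t hne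
      refine ⟨S.t x, (Finset.mem_filter.1 hx).2.2, fun y hy hye hlt => ?_⟩
      exact hmin y (Finset.mem_filter.2 ⟨hy, hye, hlt⟩)
    · refine ⟨S.t w + 1, by linarith, fun x hx hxe hlt => ?_⟩
      exact (hne ⟨x, Finset.mem_filter.2 ⟨hx, hxe, hlt⟩⟩).elim
  have h1 := val_step A a e he hτ hgap
  rw [if_pos hw] at h1
  have z : ∀ x : ZMod 2, x = 1 ∨ x + 1 = 1 := by decide
  rcases z (val A a e (S.t w)) with h | h
  · exact ⟨e, S.t w, h, Or.inl rfl⟩
  · exact ⟨e, τ, by rw [h1, h], Or.inr h1⟩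

/-- two disjoint curves, both nonempty, are not inside each other -/
theorem not_both (hCon : S.Con) (A B : Crv S) {a b : Vx → ZMod 2} (ha : IsLab A a)
    (hb : IsLab B b) {v0 : Vx} (hv0 : ∃ e b, S.en e b = v0) (ha0 : a v0 = 0) (hb0 : b v0 = 0)
    (hd : Disjoint A.C B.C) (hA : A.C.Nonempty)
    (hp : ∀ e w, w ∈ S.OnE e → w ∈ A.C → val B b e (S.t w) = 1)
    (hq : ∀ e w, w ∈ S.OnE e → w ∈ B.C → val A a e (S.t w) = 1) : False := by
  obtain ⟨h1, _⟩ := prod_rule hCon A B ha hb hv0 ha0 hb0 hd hp hq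
  obtain ⟨w, hw⟩ := hA
  obtain ⟨e, τ, h2, _⟩ := exists_one A a hw
  have h3 := h1 e τ
  rw [h2] at h3
  have z : ∀ x : ZMod 2, 1 * x = 1 * 1 + 1 * x → False := by decide
  exact z _ h3

end Crest.Agent.R096.Twr_438
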