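import Crest.Agent.R096.Twr3_438

/-!
# Row 96, DOORS-TOWER, part 4 (helper438): minimal discs and the death move
-/

set_option autoImplicit false

namespace Crest.Agent.R096.Twr_438

open Crest.Agent.R096.St_147 Crest.Agent.R096.Door_501 Crest.Agent.R096.Qp_106 Classical

variable {ι Φ W : Type} {M : MeshC ι Φ W} {k : ι} {Vx Ed : Type} {S : Shell M k Vx Ed}
variable {I : Type} {col : I → Bool}

theorem zz_cases : ∀ a : ZMod 2, a = 0 ∨ a = 1 := by decide

/-- number of points inside the component of `w` -/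
noncomputable def nIn (S : Shell M k Vx Ed) (v0 : Vx) (s : St M col) (w : W) : ℕ :=
  (s.P.filter fun x => x ∉ comp k s w ∧ sd S v0 (comp k s w) x = 1).card

/-- a curve inside a confined curve is confined, and contains fewer points -/
theorem inner_lt [Fintype Ed] (hS : S.Sph) (hC : S.Circ) (hCon : S.Con) {v0 v1 : Vx}
    (hv0 : ∃ e b, S.en e b = v0) (hv1 : ∃ e b, S.en e b = v1) {s : St M col}
    (hcol : ∀ i j : I, col i = col j) (hs : ∀ w ∈ s.P, ∃ e, w ∈ S.OnE e) {w x : W}
    (hw : w ∈ s.P) (hwc : lbl S v0 (comp k s w) v1 = 0) (hx : x ∈ s.P) (hxw : x ∉ comp k s w)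
    (hin : sd S v0 (comp k s w) x = 1) :
    lbl S v0 (comp k s x) v1 = 0 ∧ nIn S v0 s x < nIn S v0 s w := by
  have hd := comp_disj hx hxw
  obtain ⟨q, hq⟩ := sd_const hS hC v0 (cc S s hs x) (cc S s hs w) (cn_cc hs x) hd
    (nlc_cc hcol hs hd)
  obtain ⟨p, hp⟩ := sd_const hS hC v0 (cc S s hs w) (cc S s hs x) (cn_cc hs w) hd.symm
    (nlc_cc hcol hs hd.symm)
  have hq1 : q = 1 := by rw [← hq x (self_mem hx)]; exact hin
  have hq' : ∀ y ∈ (cc S s hs x).C, sd S v0 (cc S s hs w).C y = 1 := fun y hy => by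
    rw [hq y hy, hq1]
  have hp0 : p = 0 := by
    rcases zz_cases p with h | h
    · exact h
    · exfalso
      exact sd_not_both hS hCon hv0 (cc S s hs w) (cc S s hs x) hd.symm ⟨w, self_mem hw⟩
        (fun y hy => by rw [hp y hy, h]) hq'
  obtain ⟨r1, r2⟩ := sd_rule hS hCon hv0 (cc S s hs w) (cc S s hs x) hd.symm hp hq'
  rw [hp0] at r1 r2
  constructor
  · have h1 := r2 v1 hv1
    change lbl S v0 (comp k s w) v1 * lbl S v0 (comp k s x) v1 =
      0 * lbl S v0 (comp k s w) v1 + 1 * lbl S v0 (comp k s x) v1 at h1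
    rw [hwc] at h1
    have z : ∀ b : ZMod 2, 0 * b = 0 * 0 + 1 * b → b = 0 := by decide
    exact z _ h1
  · unfold nIn
    refine Finset.card_lt_card ((Finset.ssubset_iff_of_subset ?_).2 ⟨x, ?_, ?_⟩)
    · intro y hy
      obtain ⟨h1, h2, h3⟩ := Finset.mem_filter.1 hy
      refine Finset.mem_filter.2 ⟨h1, ?_, ?_⟩
      · intro h4
        have h5 := hp y h4
        change sd S v0 (comp k s x) y = p at h5
        rw [h3, hp0] at h5
        exact absurd h5 (by decide)
      · have h5 := r1 y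
        change sd S v0 (comp k s w) y * sd S v0 (comp k s x) y =
          0 * sd S v0 (comp k s w) y + 1 * sd S v0 (comp k s x) y at h5
        rw [h3] at h5
        have z : ∀ a : ZMod 2, a * 1 = 0 * a + 1 * 1 → a = 1 := by decide
        exact z _ h5
    · exact Finset.mem_filter.2 ⟨hx, hxw, hin⟩
    · intro h1
      exact (Finset.mem_filter.1 h1).2.1 (self_mem hx)

/-- if there is a confined curve, there is one with nothing inside -/
theorem exists_min [Fintype Ed] (hS : S.Sph) (hC : S.Circ) (hCon : S.Con) {v0 v1 : Vx}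
    (hv0 : ∃ e b, S.en e b = v0) (hv1 : ∃ e b, S.en e b = v1) {s : St M col}
    (hcol : ∀ i j : I, col i = col j) (hs : ∀ w ∈ s.P, ∃ e, w ∈ S.OnE e)
    (hex : ∃ w ∈ s.P, lbl S v0 (comp k s w) v1 = 0) :
    ∃ w ∈ s.P, lbl S v0 (comp k s w) v1 = 0 ∧
      ∀ x ∈ s.P, x ∉ comp k s w → sd S v0 (comp k s w) x = 0 := by
  obtain ⟨w0, hw0, hc0⟩ := hex
  obtain ⟨w, hw, hmin⟩ := (s.P.filter fun w => lbl S v0 (comp k s w) v1 = 0).exists_min_image
    (nIn S v0 s) ⟨w0, Finset.mem_filter.2 ⟨hw0, hc0⟩⟩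
  obtain ⟨hwP, hwc⟩ := Finset.mem_filter.1 hw
  refine ⟨w, hwP, hwc, fun x hx hxw => ?_⟩
  rcases zz_cases (sd S v0 (comp k s w) x) with h | h
  · exact h
  · exfalso
    obtain ⟨h1, h2⟩ := inner_lt hS hC hCon hv0 hv1 hcol hs hwP hwc hx hxw h
    exact absurd (hmin x (Finset.mem_filter.2 ⟨hx, h1⟩)) (not_le.2 h2)

theorem par_empty (e : Ed) : S.par (∅ : Finset W) e = 0 := by
  unfold Shell.par
  simp

theorem bel_empty (e : Ed) (x : W) : S.bel (∅ : Finset W) e x = 0 := by
  unfold Shell.bel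
  simp

/-- **death** of a component with nothing inside -/
noncomputable def death [Fintype Ed] (hS : S.Sph) (v0 : Vx) {s : St M col}
    (hs : ∀ w ∈ s.P, ∃ e, w ∈ S.OnE e) {w : W} (hw : w ∈ s.P)
    (hmin : ∀ x ∈ s.P, x ∉ comp k s w → sd S v0 (comp k s w) x = 0) : MvD S s where
  i0 := s.lab w
  C := comp k s w
  D := ∅
  nuD := fun _ x => x
  q := lbl S v0 (comp k s w)
  C_P := fun h => (mem_comp.1 h).1
  C_lab := fun h => (mem_comp.1 h).2.lab
  C_on := fun h => hs _ (mem_comp.1 h).1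
  C_mu := fun hF h hwF => comp_mu hF h hwF
  C_conn := conn_comp
  C_ne := ⟨w, self_mem hw⟩
  D_new := fun h => absurd h (Finset.notMem_empty _)
  D_on := fun h => absurd h (Finset.notMem_empty _)
  D_mem := fun _ h => absurd h (Finset.notMem_empty _)
  D_ne := fun _ h => absurd h (Finset.notMem_empty _)
  D_inv := fun _ h => absurd h (Finset.notMem_empty _)
  D_nc := fun _ h => absurd h (Finset.notMem_empty _)
  D_old := fun _ h => absurd h (Finset.notMem_empty _)
  q_edge := fun e => by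
    rw [par_empty, add_zero]
    exact (lbl_spec hS (cc S s hs w) v0).1 e
  free := by
    intro e x hxe hx hxC _
    rw [bel_empty, add_zero, ← sd_eq v0 _ hxe]
    exact hmin x hx hxC

/-- restriction of a state to a closed set of points -/
noncomputable def restr (s : St M col) (A : Finset W) (hA : A ⊆ s.P)
    (hmu : ∀ {F w}, w ∈ A → w ∈ M.On F → s.mu F w ∈ A) : St M col where
  P := A
  lab := s.lab
  mu := s.mu
  mu_mem := fun h hF => ⟨hmu h hF, (s.mu_mem (hA h) hF).2⟩
  mu_ne := fun h hF => s.mu_ne (hA h) hF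
  mu_mu := fun h hF => s.mu_mu (hA h) hF
  mu_lab := fun h hF => s.mu_lab (hA h) hF
  nc := fun h hF h' hF' hc h1 h2 => s.nc (hA h) hF (hA h') hF' hc h1 h2

/-- two states with the same points, names and partners -/
theorem st_ext {s t : St M col} (h1 : s.P = t.P) (h2 : s.lab = t.lab) (h3 : s.mu = t.mu) :
    s = t := by
  cases s; cases t
  simp only at h1 h2 h3
  subst h1; subst h2; subst h3
  rfl

end Crest.Agent.R096.Twr_438
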