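import Crest.Agent.R096.Twr4_438
import Crest.Agent.R096.Qp6_106

/-!
# Row 96, DOORS-TOWER, part 5 (helper438): chains of moves; **the deaths of all confined curves**
-/

set_option autoImplicit false

namespace Crest.Agent.R096.Twr_438

open Crest.Agent.R096.St_147 Crest.Agent.R096.Door_501 Crest.Agent.R096.Qp_106 Classical

variable {ι Φ W : Type} {M : MeshC ι Φ W} {k : ι} {Vx Ed : Type} {S : Shell M k Vx Ed}
variable {I : Type} {col : I → Bool}

/-- the conditions on a move -/
structure Good {s : St S.sph col} (m : Move S.sphSh s) : Prop where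
  par : m.Par
  qp : m.QP par
  tc : m.TC
  qc : m.QC par

/-- chains of moves -/
inductive Chn (R : ∀ s : St S.sph col, Move S.sphSh s → Prop) :
    ℕ → St S.sph col → St S.sph col → Prop
  | nil (s : St S.sph col) : Chn R 0 s s
  | cons {n : ℕ} {s t : St S.sph col} (m : Move S.sphSh s) (hm : R s m)
      (h : Chn R n m.botS t) : Chn R (n + 1) s t

theorem Chn.trans {R : ∀ s : St S.sph col, Move S.sphSh s → Prop} {n m : ℕ}
    {s t u : St S.sph col} (h : Chn R n s t) (h' : Chn R m t u) : Chn R (n + m) s u := by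
  induction h with
  | nil s => rw [Nat.zero_add]; exact h'
  | cons mv hm _ ih =>
    have h1 := Chn.cons mv hm (ih h')
    rwa [Nat.add_right_comm] at h1

theorem Chn.mono {R R' : ∀ s : St S.sph col, Move S.sphSh s → Prop}
    (hR : ∀ s m, R s m → R' s m) {n : ℕ} {s t : St S.sph col} (h : Chn R n s t) :
    Chn R' n s t := by
  induction h with
  | nil s => exact Chn.nil s
  | cons mv hm _ ih => exact Chn.cons mv (hR _ _ hm) ih

theorem rch_restr {s t : St M col} (hP : t.P ⊆ s.P) (hmu : t.mu = s.mu)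
    (hcl : ∀ F w, k ∈ M.side F → w ∈ t.P → w ∈ M.On F → s.mu F w ∈ t.P) {w : W} (hw : w ∈ t.P)
    (x : W) : Rch k t w x ↔ Rch k s w x := by
  constructor
  · intro h
    induction h with
    | refl => exact Relation.ReflTransGen.refl
    | tail _ h2 ih =>
      obtain ⟨F, g1, g2, g3, rfl⟩ := h2
      exact Relation.ReflTransGen.tail ih ⟨F, g1, hP g2, g3, by rw [hmu]⟩
  · intro h
    have h' : Rch k t w x ∧ x ∈ t.P := by
      induction h with
      | refl => exact ⟨Relation.ReflTransGen.refl, hw⟩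
      | tail _ h2 ih =>
        obtain ⟨F, g1, g2, g3, rfl⟩ := h2
        exact ⟨Relation.ReflTransGen.tail ih.1 ⟨F, g1, ih.2, g3, by rw [hmu]⟩,
          hcl F _ g1 ih.2 g3⟩
    exact h'.1

/-- components of a closed part -/
theorem comp_restr {s t : St M col} (hP : t.P ⊆ s.P) (hmu : t.mu = s.mu)
    (hcl : ∀ F w, k ∈ M.side F → w ∈ t.P → w ∈ M.On F → s.mu F w ∈ t.P) {w : W} (hw : w ∈ t.P) :
    comp k t w = comp k s w := by
  ext x
  rw [mem_comp, mem_comp, rch_restr hP hmu hcl hw]
  constructor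
  · rintro ⟨h1, h2⟩
    exact ⟨hP h1, h2⟩
  · rintro ⟨h1, h2⟩
    refine ⟨?_, h2⟩
    have h3 := (rch_restr hP hmu hcl hw x).2 h2
    exact h3.mem hw

section deaths

variable [Fintype Ed]

/-- the pattern after a death -/
theorem death_bot (hS : S.sphSh.Sph) (v0 : Vx) {s : St S.sph col}
    (hs : ∀ w ∈ s.P, ∃ e, w ∈ S.sphSh.OnE e) {w : W} (hw : w ∈ s.P)
    (hmin : ∀ x ∈ s.P, x ∉ comp true s w → sd S.sphSh v0 (comp true s w) x = 0) :
    (death hS v0 hs hw hmin).move.botS.P = s.P.filter (fun x => x ∉ comp true s w) ∧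
    (death hS v0 hs hw hmin).move.botS.lab = s.lab ∧
    (death hS v0 hs hw hmin).move.botS.mu = s.mu := by
  refine ⟨?_, ?_, ?_⟩
  · ext x
    rw [Finset.mem_filter]
    show x ∈ (death hS v0 hs hw hmin).B ↔ _
    rw [MvD.mem_B]
    constructor
    · rintro (⟨h1, _, h3⟩ | h)
      · exact ⟨h1, h3⟩
      · exact absurd h (Finset.notMem_empty _)
    · rintro ⟨h1, h3⟩
      exact Or.inl ⟨h1, hs x h1, h3⟩
  · funext x
    exact (death hS v0 hs hw hmin).lab0_P (Finset.notMem_empty x)
  · funext F x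
    exact (death hS v0 hs hw hmin).mu0_P (Finset.notMem_empty x)

/-- a death is a good move -/
theorem death_good (hS : S.sphSh.Sph) (hC : S.sphSh.Circ) (hCon : S.sphSh.Con) (v0 : Vx)
    {s : St S.sph col} (hs : ∀ w ∈ s.P, ∃ e, w ∈ S.sphSh.OnE e) {w : W} (hw : w ∈ s.P)
    (hmin : ∀ x ∈ s.P, x ∉ comp true s w → sd S.sphSh v0 (comp true s w) x = 0) :
    Good (death hS v0 hs hw hmin).move where
  par := (death hS v0 hs hw hmin).par
  qp := (death hS v0 hs hw hmin).qp hS hC
  tc := (death hS v0 hs hw hmin).tc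
  qc := (death hS v0 hs hw hmin).qc_death hCon rfl

/-- what is known about a move of the tower: `R i v` = the vertex `v` may be used by the name `i`;
`L s` = a property of the patterns -/
def Tame (R : I → Vx → Prop) (L : St S.sph col → Prop) (s : St S.sph col)
    (m : Move S.sphSh s) : Prop :=
  Good m ∧ L s ∧ (∀ v ∈ m.Qv, R m.i0 v) ∧ (∃ w ∈ s.P, m.i0 = s.lab w)

/-- **the deaths of all confined curves** -/
theorem deaths (hS : S.sphSh.Sph) (hC : S.sphSh.Circ) (hCon : S.sphSh.Con) {v0 v1 : Vx}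
    (hv0 : ∃ e b, S.en e b = v0) (hv1 : ∃ e b, S.en e b = v1) (hcol : ∀ i j : I, col i = col j)
    (R : I → Vx → Prop) (L : St S.sph col → Prop) : ∀ (n : ℕ) (s : St S.sph col), s.P.card ≤ n →
      (∀ w ∈ s.P, ∃ e, w ∈ S.OnE e) →
      (∀ s' : St S.sph col, s'.P ⊆ s.P → s'.lab = s.lab → s'.mu = s.mu → L s') →
      (∀ w ∈ s.P, lbl S.sphSh v0 (comp true s w) v1 = 0 → ∀ v, (∃ e b, S.en e b = v) →
        lbl S.sphSh v0 (comp true s w) v = 1 → R (s.lab w) v) →
      ∃ m t, Chn (Tame R L) m s t ∧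
        t.P = s.P.filter (fun w => lbl S.sphSh v0 (comp true s w) v1 = 1) ∧
        t.lab = s.lab ∧ t.mu = s.mu := by
  intro n
  induction n with
  | zero =>
    intro s hn _ _ _
    have h0 : s.P = ∅ := Finset.card_eq_zero.1 (by omega)
    refine ⟨0, s, Chn.nil s, ?_, rfl, rfl⟩
    rw [h0, Finset.filter_empty]
  | succ n ih =>
    intro s hn hs hL hR
    by_cases hex : ∃ w ∈ s.P, lbl S.sphSh v0 (comp true s w) v1 = 0
    · obtain ⟨w, hw, hwc, hmin⟩ := exists_min hS hC hCon hv0 hv1 hcol hs hex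
      obtain ⟨b1, b2, b3⟩ := death_bot hS v0 hs hw hmin
      set s1 := (death hS v0 hs hw hmin).move.botS with hs1
      have hsub : s1.P ⊆ s.P := by
        rw [b1]; exact Finset.filter_subset _ _
      have hcl : ∀ F x, true ∈ S.sph.side F → x ∈ s1.P → x ∈ S.sph.On F → s.mu F x ∈ s1.P := by
        intro F x hF hx hxF
        rw [b1] at hx ⊢
        obtain ⟨h1, h2⟩ := Finset.mem_filter.1 hx
        refine Finset.mem_filter.2 ⟨(s.mu_mem h1 hxF).1, fun h3 => h2 ?_⟩
        have h4 := comp_mu hF h3 (s.mu_mem h1 hxF).2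
        rwa [s.mu_mu h1 hxF] at h4
      have hcomp : ∀ x ∈ s1.P, comp true s1 x = comp true s x := fun x hx =>
        comp_restr hsub b3 hcl hx
      have hcard : s1.P.card ≤ n := by
        have h1 : s1.P ⊂ s.P := by
          refine (Finset.ssubset_iff_of_subset hsub).2 ⟨w, hw, fun h => ?_⟩
          rw [b1] at h
          exact (Finset.mem_filter.1 h).2 (self_mem hw)
        have := Finset.card_lt_card h1
        omega
      obtain ⟨m, t, ht, t1, t2, t3⟩ := ih s1 hcard (fun x hx => hs x (hsub hx))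
        (fun s' h1 h2 h3 => hL s' (h1.trans hsub) (h2.trans b2) (h3.trans b3))
        (fun x hx h1 v hv h2 => by
          rw [hcomp x hx] at h1 h2
          rw [b2]
          exact hR x (hsub hx) h1 v hv h2)
      refine ⟨m + 1, t, Chn.cons (death hS v0 hs hw hmin).move ⟨death_good hS hC hCon v0 hs hw hmin,
        hL s (Finset.Subset.refl _) rfl rfl, ?_, w, hw, rfl⟩ ht, ?_, t2.trans b2, t3.trans b3⟩
      · intro v hv
        obtain ⟨h1, h2⟩ := (S.sphSh.mem_vset).1 hv
        exact hR w hw hwc v h2 h1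
      · rw [t1]
        ext x
        rw [Finset.mem_filter, Finset.mem_filter]
        constructor
        · rintro ⟨h1, h2⟩
          rw [hcomp x h1] at h2
          exact ⟨hsub h1, h2⟩
        · rintro ⟨h1, h2⟩
          have h3 : x ∈ s1.P := by
            rw [b1]
            refine Finset.mem_filter.2 ⟨h1, fun h => ?_⟩
            rw [comp_eq h, hwc] at h2
            exact absurd h2 (by decide)
          refine ⟨h3, ?_⟩
          rw [hcomp x h3]
          exact h2
    · refine ⟨0, s, Chn.nil s, ?_, rfl, rfl⟩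
      refine (Finset.filter_true_of_mem fun w hw => ?_).symm
      rcases zz_cases (lbl S.sphSh v0 (comp true s w) v1) with h | h
      · exact (hex ⟨w, hw, h⟩).elim
      · exact h

end deaths

end Crest.Agent.R096.Twr_438
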