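import Crest.Agent.R096.Twr5_438

/-!
# Row 96, DOORS-TOWER, part 6 (helper438): **the slides** `γ_i → δ_i`
-/

set_option autoImplicit false

namespace Crest.Agent.R096.Twr_438

open Crest.Agent.R096.St_147 Crest.Agent.R096.Door_501 Crest.Agent.R096.Qp_106 Classical

variable {ι Φ W : Type} {M : MeshC ι Φ W} {k : ι} {Vx Ed : Type} {S : Shell M k Vx Ed}
variable {I : Type} {col : I → Bool}

/-- The target pattern `d` of the essential pattern `t` (`t` = `s` after all deaths):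
the sheets of `t` and of `d` are single curves which separate the far vertices `v0`, `v1`;
`rk` = order of the curves of `d` and of the curves of `t` (`exists_rk` of Twr10); every curve of
`t` lies below the curves of `d` of the same or of higher rank (560 #10528: the exact curves may all
be packed above the curves of `t`). -/
structure Tgt (S : Shell M k Vx Ed) (v0 v1 : Vx) (t d : St S.sph col) (rk : I → ℝ) : Prop where
  on_s : ∀ w ∈ t.P, ∃ e, w ∈ S.OnE e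
  on_d : ∀ w ∈ d.P, ∃ e, w ∈ S.OnE e
  disj : Disjoint t.P d.P
  conn_s : ∀ w ∈ t.P, ∀ w' ∈ t.P, t.lab w' = t.lab w → w' ∈ comp true t w
  conn_d : ∀ w ∈ d.P, ∀ w' ∈ d.P, d.lab w' = d.lab w → w' ∈ comp true d w
  ess_s : ∀ w ∈ t.P, lbl S.sphSh v0 (comp true t w) v1 = 1
  ess_d : ∀ w ∈ d.P, lbl S.sphSh v0 (comp true d w) v1 = 1
  ex_s : ∀ w ∈ d.P, ∃ w' ∈ t.P, t.lab w' = d.lab w
  ex_d : ∀ w ∈ t.P, ∃ w' ∈ d.P, d.lab w' = t.lab w
  nl : ∀ F w x, w ∈ t.P → w ∈ S.sph.On F → x ∈ d.P → x ∈ S.sph.On F →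
    ¬ S.sph.Lace F w (t.mu F w) x (d.mu F x)
  rk_inj : ∀ w ∈ d.P, ∀ w' ∈ d.P, rk (d.lab w) = rk (d.lab w') → d.lab w = d.lab w'
  ord_t : ∀ x ∈ t.P, ∀ w ∈ t.P, rk (t.lab x) < rk (t.lab w) →
    sd S.sphSh v0 (comp true t w) x = 0
  ord_s : ∀ x ∈ t.P, ∀ w ∈ d.P, rk (t.lab x) ≤ rk (d.lab w) →
    sd S.sphSh v0 (comp true d w) x = 0
  ord_d : ∀ x ∈ d.P, ∀ w ∈ d.P, x ∉ comp true d w →
    sd S.sphSh v0 (comp true d w) x = if rk (d.lab w) < rk (d.lab x) then 1 else 0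

theorem lace_symm' {F : S.Fk} {u v x y : W} (hu : u ∈ S.sph.On F) (hv : v ∈ S.sph.On F)
    (hx : x ∈ S.sph.On F) (hy : y ∈ S.sph.On F) (h1 : u ≠ x) (h2 : u ≠ y) (h3 : v ≠ x)
    (h4 : v ≠ y) (h : ¬ S.sph.Lace F u v x y) : ¬ S.sph.Lace F x y u v := by
  intro h'
  exact h (Crest.Agent.R096.Seq_213.lace_symm S.sph F hx hy hu hv h1.symm h3.symm h2.symm
    h4.symm h')

namespace Tgt

variable {v0 v1 : Vx} {t d : St S.sph col} {rk : I → ℝ}

/-- `A` = curve of `t`, `B` = curve of `d` -/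
theorem nlc (h : Tgt S v0 v1 t d rk) (w x : W) :
    NLC (cc S.sphSh t h.on_s w) (cc S.sphSh d h.on_d x) := by
  intro F a b _ ha haF hb hbF
  exact h.nl F a b (mem_comp.1 ha).1 haF (mem_comp.1 hb).1 hbF

theorem nlc' (h : Tgt S v0 v1 t d rk) (w x : W) :
    NLC (cc S.sphSh d h.on_d x) (cc S.sphSh t h.on_s w) := by
  intro F a b hF ha haF hb hbF
  have ha' : a ∈ comp true d x := ha
  have hb' : b ∈ comp true t w := hb
  have a1 := (mem_comp.1 ha').1
  have b1 := (mem_comp.1 hb').1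
  have a2 := d.mu_mem a1 haF
  have b2 := t.mu_mem b1 hbF
  have hne : ∀ p ∈ t.P, ∀ q ∈ d.P, p ≠ q := fun p hp q hq hpq => by
    rw [hpq] at hp
    exact Finset.disjoint_left.1 h.disj hp hq
  exact lace_symm' hbF b2.2 haF a2.2 (hne _ b1 _ a1) (hne _ b1 _ a2.1) (hne _ b2.1 _ a1)
    (hne _ b2.1 _ a2.1) (h.nl F b a b1 hbF a1 haF)

theorem disj_cc (h : Tgt S v0 v1 t d rk) (w x : W) :
    Disjoint (cc S.sphSh t h.on_s w).C (cc S.sphSh d h.on_d x).C := by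
  rw [Finset.disjoint_left]
  intro y h1 h2
  have h1' : y ∈ comp true t w := h1
  have h2' : y ∈ comp true d x := h2
  exact Finset.disjoint_left.1 h.disj (mem_comp.1 h1').1 (mem_comp.1 h2').1

/-- a `d`-curve of the same or of higher rank lies above the `t`-curve of `w` -/
theorem side_dt [Fintype Ed] (h : Tgt S v0 v1 t d rk) (hS : S.sphSh.Sph) (hC : S.sphSh.Circ)
    (hCon : S.sphSh.Con) (hv0 : ∃ e b, S.en e b = v0) (hv1 : ∃ e b, S.en e b = v1)
    {w x : W} (hw : w ∈ t.P) (hx : x ∈ d.P) (hrk : rk (t.lab w) ≤ rk (d.lab x)) :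
    ∀ y ∈ comp true d x, sd S.sphSh v0 (comp true t w) y = 1 := by
  obtain ⟨q, hq⟩ := sd_const hS hC v0 (cc S.sphSh d h.on_d x) (cc S.sphSh t h.on_s w)
    (cn_cc h.on_d x) (h.disj_cc w x).symm (h.nlc' w x)
  have hp : ∀ y ∈ (cc S.sphSh t h.on_s w).C, sd S.sphSh v0 (cc S.sphSh d h.on_d x).C y = 0 := by
    intro y hy
    have hy' : y ∈ comp true t w := hy
    refine h.ord_s y (mem_comp.1 hy').1 x hx ?_
    rw [(mem_comp.1 hy').2.lab]
    exact hrk
  obtain ⟨_, r2⟩ := sd_rule hS hCon hv0 (cc S.sphSh t h.on_s w) (cc S.sphSh d h.on_d x)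
    (h.disj_cc w x) hp hq
  have h1 := r2 v1 hv1
  have h2 : lbl S.sphSh v0 (cc S.sphSh t h.on_s w).C v1 = 1 := h.ess_s w hw
  have h3 : lbl S.sphSh v0 (cc S.sphSh d h.on_d x).C v1 = 1 := h.ess_d x hx
  rw [h2, h3] at h1
  have z : ∀ q : ZMod 2, 1 * 1 = 0 * 1 + q * 1 → q = 1 := by decide
  have h4 := z q h1
  intro y hy
  rw [← h4]
  exact hq y hy

/-- **no lower curve of `t` and no higher curve of `d` between `γ_i` and `δ_i`** -/
theorem between [Fintype Ed] (h : Tgt S v0 v1 t d rk) (hS : S.sphSh.Sph) (hC : S.sphSh.Circ)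
    (hCon : S.sphSh.Con) (hv0 : ∃ e b, S.en e b = v0) (hv1 : ∃ e b, S.en e b = v1)
    {w w' : W} (hw : w ∈ t.P) (hw' : w' ∈ d.P) (hl : d.lab w' = t.lab w) {x : W}
    (hx : (x ∈ t.P ∧ rk (t.lab x) < rk (t.lab w)) ∨ (x ∈ d.P ∧ rk (t.lab w) < rk (d.lab x))) :
    sd S.sphSh v0 (comp true t w) x = sd S.sphSh v0 (comp true d w') x := by
  rcases hx with ⟨hx, hlt⟩ | ⟨hx, hlt⟩
  · rw [h.ord_t x hx w hw hlt, h.ord_s x hx w' hw' (by rw [hl]; exact hlt.le)]
  · have hxc : x ∉ comp true d w' := by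
      intro h1
      have h2 := (mem_comp.1 h1).2.lab.trans hl
      rw [h2] at hlt
      exact lt_irrefl _ hlt
    have h1 := h.ord_d x hx w' hw' hxc
    rw [hl, if_pos hlt] at h1
    rw [h1, h.side_dt hS hC hCon hv0 hv1 hw hx hlt.le x (self_mem hx)]

/-- different names of `t` have different ranks -/
theorem rk_ne (h : Tgt S v0 v1 t d rk) {x w : W} (hx : x ∈ t.P) (hw : w ∈ t.P)
    (hne : t.lab x ≠ t.lab w) : rk (t.lab x) ≠ rk (t.lab w) := by
  intro h1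
  obtain ⟨x', hx', hlx⟩ := h.ex_d x hx
  obtain ⟨w', hw', hlw⟩ := h.ex_d w hw
  rw [← hlx, ← hlw] at h1
  exact hne (hlx.symm.trans ((h.rk_inj x' hx' w' hw' h1).trans hlw))

end Tgt

end Crest.Agent.R096.Twr_438
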