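import Crest.Agent.R096.Twr6_438

/-!
# Row 96, DOORS-TOWER, part 7 (helper438): the slide move and the chain of all slides
-/

set_option autoImplicit false

namespace Crest.Agent.R096.Twr_438

open Crest.Agent.R096.St_147 Crest.Agent.R096.Door_501 Crest.Agent.R096.Qp_106 Classical

variable {ι Φ W : Type} {M : MeshC ι Φ W} {k : ι} {Vx Ed : Type} {S : Shell M k Vx Ed}
variable {I : Type} {col : I → Bool}

/-- a pattern between `t` and `d` -/
structure Mid (t d u : St S.sph col) : Prop where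
  sub : ∀ w ∈ u.P,
    (w ∈ t.P ∧ u.lab w = t.lab w ∧ ∀ F, w ∈ S.sph.On F → u.mu F w = t.mu F w) ∨
    (w ∈ d.P ∧ u.lab w = d.lab w ∧ ∀ F, w ∈ S.sph.On F → u.mu F w = d.mu F w)
  alt : ∀ i, (∀ w, (w ∈ u.P ∧ u.lab w = i) ↔ (w ∈ t.P ∧ t.lab w = i)) ∨
    ∀ w, (w ∈ u.P ∧ u.lab w = i) ↔ (w ∈ d.P ∧ d.lab w = i)

theorem Mid.refl (t d : St S.sph col) : Mid t d t :=
  ⟨fun w hw => Or.inl ⟨hw, rfl, fun _ _ => rfl⟩, fun _ => Or.inl fun _ => Iff.rfl⟩

/-- the names which are already moved are higher than the others -/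
def Hi (t d : St S.sph col) (rk : I → ℝ) (u : St S.sph col) : Prop :=
  ∀ w ∈ u.P, w ∈ d.P → ∀ x ∈ u.P, x ∈ t.P → rk (t.lab x) < rk (d.lab w)

namespace Tgt

variable {v0 v1 : Vx} {t d u : St S.sph col} {rk : I → ℝ}

/-- the sheet of a remaining `t`-point is not yet moved -/
theorem alt_of (h : Tgt S v0 v1 t d rk) (hm : Mid t d u) {w : W} (hw : w ∈ t.P) (hwu : w ∈ u.P) :
    ∀ x, (x ∈ u.P ∧ u.lab x = t.lab w) ↔ (x ∈ t.P ∧ t.lab x = t.lab w) := by
  have hl : u.lab w = t.lab w := by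
    rcases hm.sub w hwu with ⟨_, h2, _⟩ | ⟨h1, _, _⟩
    · exact h2
    · exact (Finset.disjoint_left.1 h.disj hw h1).elim
  rcases hm.alt (t.lab w) with h1 | h1
  · exact h1
  · exact (Finset.disjoint_left.1 h.disj hw ((h1 w).1 ⟨hwu, hl⟩).1).elim

/-- **the slide** of the highest curve of `t` -/
noncomputable def slide [Fintype Ed] (h : Tgt S v0 v1 t d rk) (hS : S.sphSh.Sph)
    (hC : S.sphSh.Circ) (hCon : S.sphSh.Con) (hv0 : ∃ e b, S.en e b = v0)
    (hv1 : ∃ e b, S.en e b = v1) (hcol : ∀ i j : I, col i = col j) (hm : Mid t d u)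
    (hT : Hi t d rk u) {w w' : W} (hmax : ∀ x ∈ u.P, x ∈ t.P → rk (t.lab x) ≤ rk (t.lab w))
    (hw : w ∈ t.P) (hwu : w ∈ u.P) (hw' : w' ∈ d.P) (hl : d.lab w' = t.lab w) :
    MvD S.sphSh u :=
  have halt := h.alt_of hm hw hwu
  have hC_P : ∀ x, x ∈ comp true t w → x ∈ u.P ∧ u.lab x = t.lab w := fun x hx =>
    (halt x).2 ⟨(mem_comp.1 hx).1, (mem_comp.1 hx).2.lab⟩
  have hmuC : ∀ F x, x ∈ comp true t w → x ∈ S.sph.On F → u.mu F x = t.mu F x := by
    intro F x hx hxF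
    rcases hm.sub x (hC_P x hx).1 with ⟨_, _, h3⟩ | ⟨h1, _, _⟩
    · exact h3 F hxF
    · exact (Finset.disjoint_left.1 h.disj (mem_comp.1 hx).1 h1).elim
  have hDd : ∀ x, x ∈ d.P → x ∈ u.P → d.lab x ≠ t.lab w := by
    intro x hx hxu hlx
    rcases hm.sub x hxu with ⟨h1, _, _⟩ | ⟨_, h2, _⟩
    · exact Finset.disjoint_left.1 h.disj h1 hx
    · exact Finset.disjoint_left.1 h.disj ((halt x).1 ⟨hxu, h2.trans hlx⟩).1 hx
  have hDl : ∀ x, x ∈ comp true d w' → d.lab x = t.lab w := fun x hx =>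
    (mem_comp.1 hx).2.lab.trans hl
  { i0 := t.lab w
    C := comp true t w
    D := comp true d w'
    nuD := d.mu
    q := fun v => lbl S.sphSh v0 (comp true t w) v + lbl S.sphSh v0 (comp true d w') v
    C_P := fun hx => (hC_P _ hx).1
    C_lab := fun hx => (hC_P _ hx).2
    C_on := fun hx => h.on_s _ (mem_comp.1 hx).1
    C_mu := fun {F x} hF hx hxF => by
      rw [hmuC F x hx hxF]
      exact comp_mu hF hx hxF
    C_conn := fun X hX => conn_comp (k := true) (s := t) X fun F x h1 h2 h3 h4 => by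
      have h5 := hX F x h1 h2 h3 h4
      rwa [hmuC F x h3 h2] at h5
    C_ne := ⟨w, self_mem hw⟩
    D_new := fun {x} hx hxu => hDd x (mem_comp.1 hx).1 hxu (hDl x hx)
    D_on := fun hx => h.on_d _ (mem_comp.1 hx).1
    D_mem := fun hF hx hxF => ⟨comp_mu hF hx hxF, (d.mu_mem (mem_comp.1 hx).1 hxF).2⟩
    D_ne := fun _ hx hxF => d.mu_ne (mem_comp.1 hx).1 hxF
    D_inv := fun _ hx hxF => d.mu_mu (mem_comp.1 hx).1 hxF
    D_nc := fun _ hx hxF hy hyF h1 h2 =>
      d.nc (mem_comp.1 hx).1 hxF (mem_comp.1 hy).1 hyF (hcol _ _) h1 h2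
    D_old := by
      intro F a x hF ha haF hx hxF _
      have a1 := (mem_comp.1 ha).1
      have a2 := d.mu_mem a1 haF
      have hne : ∀ p ∈ t.P, ∀ q ∈ d.P, p ≠ q := fun p hp q hq hpq => by
        rw [hpq] at hp
        exact Finset.disjoint_left.1 h.disj hp hq
      rcases hm.sub x hx with ⟨x1, _, x3⟩ | ⟨x1, _, x3⟩
      · rw [x3 F hxF]
        have x2 := t.mu_mem x1 hxF
        have h1 := h.nl F x a x1 hxF a1 haF
        exact ⟨lace_symm' hxF x2.2 haF a2.2 (hne _ x1 _ a1) (hne _ x1 _ a2.1) (hne _ x2.1 _ a1)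
          (hne _ x2.1 _ a2.1) h1, h1⟩
      · rw [x3 F hxF]
        have hlx := hDd x x1 hx
        have hla := hDl a ha
        have h1 : x ≠ a := by rintro rfl; exact hlx hla
        have h2 : x ≠ d.mu F a := by
          rintro rfl
          exact hlx ((d.mu_lab a1 haF).trans hla)
        have h3 : a ≠ d.mu F x := by
          rintro rfl
          exact hlx ((d.mu_lab x1 hxF).symm.trans hla)
        exact ⟨d.nc a1 haF x1 hxF (hcol _ _) h1 h2, d.nc x1 hxF a1 haF (hcol _ _) h1.symm h3⟩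
    q_edge := fun e => by
      have h1 := (lbl_spec hS (cc S.sphSh t h.on_s w) v0).1 e
      have h2 := (lbl_spec hS (cc S.sphSh d h.on_d w') v0).1 e
      change lbl S.sphSh v0 (comp true t w) (S.sphSh.en e false) +
        lbl S.sphSh v0 (comp true t w) (S.sphSh.en e true) = S.sphSh.par (comp true t w) e at h1
      change lbl S.sphSh v0 (comp true d w') (S.sphSh.en e false) +
        lbl S.sphSh v0 (comp true d w') (S.sphSh.en e true) = S.sphSh.par (comp true d w') e at h2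
      rw [← h1, ← h2]
      have z : ∀ p q r s : ZMod 2, (p + q) + (r + s) = p + r + (q + s) := by decide
      exact z _ _ _ _
    free := by
      intro e x hxe hx hxC _
      have h1 : (x ∈ t.P ∧ rk (t.lab x) < rk (t.lab w)) ∨
          (x ∈ d.P ∧ rk (t.lab w) < rk (d.lab x)) := by
        rcases hm.sub x hx with ⟨x1, _, _⟩ | ⟨x1, _, _⟩
        · exact Or.inl ⟨x1, lt_of_le_of_ne (hmax x hx x1)
            (h.rk_ne x1 hw fun h2 => hxC (h.conn_s w hw x x1 h2))⟩
        · exact Or.inr ⟨x1, hT x hx x1 w hwu hw⟩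
      have h2 := h.between hS hC hCon hv0 hv1 hw hw' hl h1
      have e1 := sd_eq (S := S.sphSh) v0 (comp true t w) hxe
      have e2 := sd_eq (S := S.sphSh) v0 (comp true d w') hxe
      rw [e1, e2] at h2
      have z : ∀ p q r s : ZMod 2, p + q = r + s → p + r + q + s = 0 := by decide
      exact z _ _ _ _ h2 }

theorem slide_good [Fintype Ed] (h : Tgt S v0 v1 t d rk) (hS : S.sphSh.Sph)
    (hC : S.sphSh.Circ) (hCon : S.sphSh.Con) (hv0 : ∃ e b, S.en e b = v0)
    (hv1 : ∃ e b, S.en e b = v1) (hcol : ∀ i j : I, col i = col j) (hm : Mid t d u)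
    (hT : Hi t d rk u) {w w' : W} (hmax : ∀ x ∈ u.P, x ∈ t.P → rk (t.lab x) ≤ rk (t.lab w))
    (hw : w ∈ t.P) (hwu : w ∈ u.P) (hw' : w' ∈ d.P) (hl : d.lab w' = t.lab w) :
    Good (h.slide hS hC hCon hv0 hv1 hcol hm hT hmax hw hwu hw' hl).move where
  par := (h.slide hS hC hCon hv0 hv1 hcol hm hT hmax hw hwu hw' hl).par
  qp := (h.slide hS hC hCon hv0 hv1 hcol hm hT hmax hw hwu hw' hl).qp hS hC
  tc := (h.slide hS hC hCon hv0 hv1 hcol hm hT hmax hw hwu hw' hl).tc
  qc := by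
    obtain ⟨e0, b0, h0⟩ := hv0
    obtain ⟨e1, b1, h1⟩ := hv1
    have a0 := (lbl_spec hS (cc S.sphSh t h.on_s w) v0).2
    have a1 := (lbl_spec hS (cc S.sphSh d h.on_d w') v0).2
    change lbl S.sphSh v0 (comp true t w) v0 = 0 at a0
    change lbl S.sphSh v0 (comp true d w') v0 = 0 at a1
    have a2 := h.ess_s w hw
    have a3 := h.ess_d w' hw'
    refine (h.slide hS hC hCon ⟨e0, b0, h0⟩ ⟨e1, b1, h1⟩ hcol hm hT hmax hw hwu hw' hl).qc_slide hCon
      ?_ (lbl S.sphSh v0 (comp true t w)) (fun e => (lbl_spec hS (cc S.sphSh t h.on_s w) v0).1 e)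
      (e := e0) (e' := e1) (b := b0) (b' := b1) ?_ ?_ ?_
    · intro X hX x hxX hx y hy
      exact conn_comp (k := true) (s := d) (w := w') X hX x hxX hx y hy
    · show lbl S.sphSh v0 (comp true t w) (S.en e0 b0) +
        lbl S.sphSh v0 (comp true d w') (S.en e0 b0) = 0
      rw [h0, a0, a1, add_zero]
    · show lbl S.sphSh v0 (comp true t w) (S.en e1 b1) +
        lbl S.sphSh v0 (comp true d w') (S.en e1 b1) = 0
      rw [h1, a2, a3]
      decide
    · show lbl S.sphSh v0 (comp true t w) (S.en e0 b0) ≠ lbl S.sphSh v0 (comp true t w) (S.en e1 b1)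
      rw [h0, h1, a0, a2]
      decide

/-- the pattern after a slide is again between `t` and `d` -/
theorem slide_mid [Fintype Ed] (h : Tgt S v0 v1 t d rk) (hS : S.sphSh.Sph)
    (hC : S.sphSh.Circ) (hCon : S.sphSh.Con) (hv0 : ∃ e b, S.en e b = v0)
    (hv1 : ∃ e b, S.en e b = v1) (hcol : ∀ i j : I, col i = col j) (hm : Mid t d u)
    (hT : Hi t d rk u) {w w' : W} (hmax : ∀ x ∈ u.P, x ∈ t.P → rk (t.lab x) ≤ rk (t.lab w))
    (hw : w ∈ t.P) (hwu : w ∈ u.P) (hw' : w' ∈ d.P) (hl : d.lab w' = t.lab w) :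
    Mid t d (h.slide hS hC hCon hv0 hv1 hcol hm hT hmax hw hwu hw' hl).move.botS ∧
    (∀ x, x ∈ (h.slide hS hC hCon hv0 hv1 hcol hm hT hmax hw hwu hw' hl).move.botS.P ↔
      (x ∈ u.P ∧ x ∉ comp true t w) ∨ x ∈ comp true d w') := by
  obtain ⟨D, hDdef⟩ : ∃ D : MvD S.sphSh u,
      D = h.slide hS hC hCon hv0 hv1 hcol hm hT hmax hw hwu hw' hl := ⟨_, rfl⟩
  rw [← hDdef]
  have dC : D.C = comp true t w := by rw [hDdef]; rfl
  have dD : D.D = comp true d w' := by rw [hDdef]; rfl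
  have di : D.i0 = t.lab w := by rw [hDdef]; rfl
  have dn : D.nuD = d.mu := by rw [hDdef]; rfl
  have halt := h.alt_of hm hw hwu
  have hon : ∀ x ∈ u.P, ∃ e, x ∈ S.sphSh.OnE e := by
    intro x hx
    rcases hm.sub x hx with ⟨h1, _⟩ | ⟨h1, _⟩
    · exact h.on_s x h1
    · exact h.on_d x h1
  have hP : ∀ x, x ∈ D.move.botS.P ↔ (x ∈ u.P ∧ x ∉ comp true t w) ∨ x ∈ comp true d w' := by
    intro x
    show x ∈ D.B ↔ _
    rw [D.mem_B, dC, dD]
    constructor
    · rintro (⟨h1, _, h3⟩ | h1)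
      · exact Or.inl ⟨h1, h3⟩
      · exact Or.inr h1
    · rintro (⟨h1, h3⟩ | h1)
      · exact Or.inl ⟨h1, hon x h1, h3⟩
      · exact Or.inr h1
  have hlD : ∀ x, x ∈ comp true d w' → D.move.botS.lab x = t.lab w := by
    intro x hx
    show D.lab0 x = _
    rw [D.lab0_D (by rw [dD]; exact hx), di]
  have hmD : ∀ F x, x ∈ comp true d w' → D.move.botS.mu F x = d.mu F x := by
    intro F x hx
    show D.mu0 F x = _
    rw [D.mu0_D (by rw [dD]; exact hx), dn]
  have hlP : ∀ x ∈ u.P, D.move.botS.lab x = u.lab x := fun x hx => D.lab0_P (D.not_D hx)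
  have hmP : ∀ F, ∀ x ∈ u.P, D.move.botS.mu F x = u.mu F x := fun F x hx => D.mu0_P (D.not_D hx)
  refine ⟨⟨?_, ?_⟩, hP⟩
  · intro x hx
    rcases (hP x).1 hx with ⟨h1, h2⟩ | h1
    · rcases hm.sub x h1 with ⟨g1, g2, g3⟩ | ⟨g1, g2, g3⟩
      · exact Or.inl ⟨g1, (hlP x h1).trans g2, fun F hF => (hmP F x h1).trans (g3 F hF)⟩
      · exact Or.inr ⟨g1, (hlP x h1).trans g2, fun F hF => (hmP F x h1).trans (g3 F hF)⟩
    · obtain ⟨g1, g2⟩ := mem_comp.1 h1
      exact Or.inr ⟨g1, (hlD x h1).trans (g2.lab.trans hl).symm, fun F _ => hmD F x h1⟩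
  · intro j
    by_cases hj : j = t.lab w
    · right
      intro x
      constructor
      · rintro ⟨h1, h2⟩
        rcases (hP x).1 h1 with ⟨g1, g2⟩ | g1
        · exfalso
          rw [hlP x g1, hj] at h2
          have g3 := (halt x).1 ⟨g1, h2⟩
          exact g2 (h.conn_s w hw x g3.1 g3.2)
        · exact ⟨(mem_comp.1 g1).1, ((mem_comp.1 g1).2.lab.trans hl).trans hj.symm⟩
      · rintro ⟨h1, h2⟩
        have g1 := h.conn_d w' hw' x h1 ((h2.trans hj).trans hl.symm)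
        exact ⟨(hP x).2 (Or.inr g1), (hlD x g1).trans hj.symm⟩
    · have key : ∀ x, (x ∈ D.move.botS.P ∧ D.move.botS.lab x = j) ↔ (x ∈ u.P ∧ u.lab x = j) := by
        intro x
        constructor
        · rintro ⟨h1, h2⟩
          rcases (hP x).1 h1 with ⟨g1, g2⟩ | g1
          · rw [hlP x g1] at h2
            exact ⟨g1, h2⟩
          · exact (hj (h2.symm.trans (hlD x g1))).elim
        · rintro ⟨h1, h2⟩
          refine ⟨(hP x).2 (Or.inl ⟨h1, fun g1 => hj ?_⟩), (hlP x h1).trans h2⟩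
          have g2 := (halt x).2 ⟨(mem_comp.1 g1).1, (mem_comp.1 g1).2.lab⟩
          exact h2.symm.trans g2.2
      rcases hm.alt j with h1 | h1
      · exact Or.inl fun x => (key x).trans (h1 x)
      · exact Or.inr fun x => (key x).trans (h1 x)

/-- **all slides** -/
theorem slides [Fintype Ed] (h : Tgt S v0 v1 t d rk) (hS : S.sphSh.Sph)
    (hC : S.sphSh.Circ) (hCon : S.sphSh.Con) (hv0 : ∃ e b, S.en e b = v0)
    (hv1 : ∃ e b, S.en e b = v1) (hcol : ∀ i j : I, col i = col j)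
    (R : I → Vx → Prop) (L : St S.sph col → Prop) (hL : ∀ u, Mid t d u → L u)
    (hR : ∀ w ∈ t.P, ∀ w' ∈ d.P, d.lab w' = t.lab w → ∀ v, (∃ e b, S.en e b = v) →
      lbl S.sphSh v0 (comp true t w) v + lbl S.sphSh v0 (comp true d w') v = 1 →
        R (t.lab w) v) : ∀ (n : ℕ) (u : St S.sph col), Mid t d u → Hi t d rk u →
      (u.P.filter fun x => x ∈ t.P).card ≤ n →
      ∃ m u', Chn (Tame R L) m u u' ∧ u'.P = d.P ∧ (∀ w ∈ d.P, u'.lab w = d.lab w) ∧
        ∀ F, ∀ w ∈ d.P, w ∈ S.sph.On F → u'.mu F w = d.mu F w := by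
  have hdone : ∀ u : St S.sph col, Mid t d u → (∀ w ∈ u.P, w ∉ t.P) →
      ∃ m u', Chn (Tame R L) m u u' ∧ u'.P = d.P ∧ (∀ w ∈ d.P, u'.lab w = d.lab w) ∧
        ∀ F, ∀ w ∈ d.P, w ∈ S.sph.On F → u'.mu F w = d.mu F w := by
    intro u hm hno
    have hP : u.P = d.P := by
      ext x
      constructor
      · intro hx
        rcases hm.sub x hx with ⟨h1, _⟩ | ⟨h1, _⟩
        · exact (hno x hx h1).elim
        · exact h1
      · intro hx
        rcases hm.alt (d.lab x) with h1 | h1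
        · exfalso
          obtain ⟨w', hw', hl'⟩ := h.ex_s x hx
          exact hno w' ((h1 w').2 ⟨hw', hl'⟩).1 hw'
        · exact ((h1 x).2 ⟨hx, rfl⟩).1
    refine ⟨0, u, Chn.nil u, hP, fun w hw => ?_, fun F w hw hF => ?_⟩
    · rcases hm.sub w (by rw [hP]; exact hw) with ⟨h1, _⟩ | ⟨_, h2, _⟩
      · exact (Finset.disjoint_left.1 h.disj h1 hw).elim
      · exact h2
    · rcases hm.sub w (by rw [hP]; exact hw) with ⟨h1, _⟩ | ⟨_, _, h3⟩
      · exact (Finset.disjoint_left.1 h.disj h1 hw).elim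
      · exact h3 F hF
  intro n
  induction n with
  | zero =>
    intro u hm _ hn
    have h0 := Finset.filter_eq_empty_iff.1 (Finset.card_eq_zero.1 (Nat.le_zero.1 hn))
    exact hdone u hm fun w hw => h0 hw
  | succ n ih =>
    intro u hm hT hn
    by_cases hex : ∃ w ∈ u.P, w ∈ t.P
    · obtain ⟨w0, hw0u, hw0⟩ := hex
      obtain ⟨w, hwf, hmx⟩ := (u.P.filter fun x => x ∈ t.P).exists_max_image
        (fun x => rk (t.lab x)) ⟨w0, Finset.mem_filter.2 ⟨hw0u, hw0⟩⟩
      obtain ⟨hwu, hw⟩ := Finset.mem_filter.1 hwf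
      have hmax : ∀ x ∈ u.P, x ∈ t.P → rk (t.lab x) ≤ rk (t.lab w) := fun x hx hx' =>
        hmx x (Finset.mem_filter.2 ⟨hx, hx'⟩)
      obtain ⟨w', hw', hl⟩ := h.ex_d w hw
      obtain ⟨g1, g2⟩ := h.slide_mid hS hC hCon hv0 hv1 hcol hm hT hmax hw hwu hw' hl
      have g0 : Hi t d rk
          (h.slide hS hC hCon hv0 hv1 hcol hm hT hmax hw hwu hw' hl).move.botS := by
        intro y hy hyd x hx hxt
        rcases (g2 x).1 hx with ⟨x1, x2⟩ | x1
        · rcases (g2 y).1 hy with ⟨y1, _⟩ | y1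
          · exact hT y y1 hyd x x1 hxt
          · rw [(mem_comp.1 y1).2.lab, hl]
            exact lt_of_le_of_ne (hmax x x1 hxt)
              (h.rk_ne hxt hw fun e => x2 (h.conn_s w hw x hxt e))
        · exact (Finset.disjoint_left.1 h.disj hxt (mem_comp.1 x1).1).elim
      obtain ⟨m, u', c1, c2, c3, c4⟩ := ih _ g1 g0 (by
        have h1 : ((h.slide hS hC hCon hv0 hv1 hcol hm hT hmax hw hwu hw'
            hl).move.botS.P.filter fun x => x ∈ t.P) ⊂ u.P.filter fun x => x ∈ t.P := by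
          refine (Finset.ssubset_iff_of_subset ?_).2 ⟨w, Finset.mem_filter.2 ⟨hwu, hw⟩, ?_⟩
          · intro x hx
            obtain ⟨a1, a2⟩ := Finset.mem_filter.1 hx
            rcases (g2 x).1 a1 with ⟨b1, _⟩ | b1
            · exact Finset.mem_filter.2 ⟨b1, a2⟩
            · exact (Finset.disjoint_left.1 h.disj a2 (mem_comp.1 b1).1).elim
          · intro hx
            rcases (g2 w).1 (Finset.mem_filter.1 hx).1 with ⟨_, b2⟩ | b1
            · exact b2 (self_mem hw)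
            · exact Finset.disjoint_left.1 h.disj hw (mem_comp.1 b1).1
        have := Finset.card_lt_card h1
        omega)
      refine ⟨m + 1, u', Chn.cons _ ⟨h.slide_good hS hC hCon hv0 hv1 hcol hm hT hmax hw hwu hw' hl,
        hL u hm, ?_, w, hwu, ?_⟩ c1, c2, c3, c4⟩
      · intro v hv
        obtain ⟨a1, a2⟩ := (S.sphSh.mem_vset).1 hv
        exact hR w hw w' hw' hl v a2 a1
      · show t.lab w = u.lab w
        rcases hm.sub w hwu with ⟨_, h2, _⟩ | ⟨h1, _, _⟩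
        · exact h2.symm
        · exact (Finset.disjoint_left.1 h.disj hw h1).elim
    · exact hdone u hm fun w hw h1 => hex ⟨w, hw, h1⟩

end Tgt

end Crest.Agent.R096.Twr_438
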