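import Crest.Agent.R096.Twr7_438
import Crest.Agent.R096.Door8_501

/-!
# Row 96, DOORS-TOWER, part 8 (helper438): **towers exist** (one core, one family)
-/

set_option autoImplicit false

namespace Crest.Agent.R096.Twr_438

open Crest.Agent.R096.St_147 Crest.Agent.R096.Door_501 Crest.Agent.R096.Qp_106 Classical

variable {ι Φ W : Type} {M : MeshC ι Φ W} {k : ι} {Vx Ed : Type} {S : Shell M k Vx Ed}

section one

variable {I : Type} {col : I → Bool}

/-- the essential part of a pattern -/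
noncomputable def essSt (S : Shell M k Vx Ed) (v0 v1 : Vx) (s : St S.sph col) : St S.sph col :=
  restr s (s.P.filter fun w => lbl S.sphSh v0 (comp true s w) v1 = 1) (Finset.filter_subset _ _)
    (by
      intro F w hw hF
      obtain ⟨h1, h2⟩ := Finset.mem_filter.1 hw
      refine Finset.mem_filter.2 ⟨(s.mu_mem h1 hF).1, ?_⟩
      rw [comp_eq (comp_mu (k := true) (Shell.mem_bool_side _) (self_mem h1) hF)]
      exact h2)

theorem mem_ess {v0 v1 : Vx} {s : St S.sph col} {w : W} : w ∈ (essSt S v0 v1 s).P ↔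
    w ∈ s.P ∧ lbl S.sphSh v0 (comp true s w) v1 = 1 := Finset.mem_filter

theorem comp_ess {v0 v1 : Vx} {s : St S.sph col} {w : W} (hw : w ∈ (essSt S v0 v1 s).P) :
    comp true (essSt S v0 v1 s) w = comp true s w :=
  comp_restr (s := s) (t := essSt S v0 v1 s) (Finset.filter_subset _ _) rfl
    (fun _ _ _ hx hxF => ((essSt S v0 v1 s).mu_mem hx hxF).1) hw

/-- the patterns of the tower consist of points and chords of `s` and of `d` -/
def Fits (s d u : St S.sph col) : Prop := ∀ w ∈ u.P,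
  (w ∈ s.P ∧ u.lab w = s.lab w ∧ ∀ F, w ∈ S.sph.On F → u.mu F w = s.mu F w) ∨
  (w ∈ d.P ∧ u.lab w = d.lab w ∧ ∀ F, w ∈ S.sph.On F → u.mu F w = d.mu F w)

/-- the vertices used by the moves of the name `i`: inside a confined curve of `s`, or between the
essential curve of `s` and the curve of `d` -/
def Rgn (S : Shell M k Vx Ed) (v0 v1 : Vx) (s d : St S.sph col) (i : I) (v : Vx) : Prop :=
  (∃ w ∈ s.P, s.lab w = i ∧ lbl S.sphSh v0 (comp true s w) v1 = 0 ∧
    lbl S.sphSh v0 (comp true s w) v = 1) ∨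
  ∃ w ∈ s.P, ∃ w' ∈ d.P, s.lab w = i ∧ d.lab w' = i ∧ lbl S.sphSh v0 (comp true s w) v1 = 1 ∧
    lbl S.sphSh v0 (comp true s w) v + lbl S.sphSh v0 (comp true d w') v = 1

/-- **existence of the tower of one family at one core** -/
theorem exists_chain [Fintype Ed] (hS : S.sphSh.Sph) (hC : S.sphSh.Circ) (hCon : S.sphSh.Con)
    {v0 v1 : Vx} (hv0 : ∃ e b, S.en e b = v0) (hv1 : ∃ e b, S.en e b = v1)
    (hcol : ∀ i j : I, col i = col j) (s d : St S.sph col) (hs : ∀ w ∈ s.P, ∃ e, w ∈ S.OnE e)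
    {rk : I → ℝ} (h : Tgt S v0 v1 (essSt S v0 v1 s) d rk) :
    ∃ n u, Chn (Tame (Rgn S v0 v1 s d) (Fits s d)) n s u ∧ Fits s d u ∧ u.P = d.P ∧
      (∀ w ∈ d.P, u.lab w = d.lab w) ∧ ∀ F, ∀ w ∈ d.P, w ∈ S.sph.On F → u.mu F w = d.mu F w := by
  obtain ⟨m, t, c1, t1, t2, t3⟩ := deaths hS hC hCon hv0 hv1 hcol (Rgn S v0 v1 s d) (Fits s d)
    s.P.card s le_rfl hs
    (fun s' h1 h2 h3 w hw => Or.inl ⟨h1 hw, by rw [h2], fun F _ => by rw [h3]⟩)
    (fun w hw h1 v _ h2 => Or.inl ⟨w, hw, rfl, h1, h2⟩)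
  have ht : t = essSt S v0 v1 s := st_ext t1 t2 t3
  rw [ht] at c1
  obtain ⟨m', u, c2, u1, u2, u3⟩ := h.slides hS hC hCon hv0 hv1 hcol (Rgn S v0 v1 s d)
    (Fits s d) (fun u hm w hw => by
      rcases hm.sub w hw with ⟨h1, h2, h3⟩ | h1
      · exact Or.inl ⟨(mem_ess.1 h1).1, h2, h3⟩
      · exact Or.inr h1)
    (fun w hw w' hw' hl v _ h1 => by
      rw [comp_ess hw] at h1
      exact Or.inr ⟨w, (mem_ess.1 hw).1, w', hw', rfl, hl, (mem_ess.1 hw).2, h1⟩)
    _ (essSt S v0 v1 s) (Mid.refl _ _)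
    (fun w hw hwd => (Finset.disjoint_left.1 h.disj hw hwd).elim) le_rfl
  refine ⟨m + m', u, c1.trans c2, fun w hw => Or.inr ?_, u1, u2, u3⟩
  rw [u1] at hw
  exact ⟨hw, u2 w hw, fun F hF => u3 F w hw hF⟩

end one

/-! ### from chains to 501's towers -/

section seq

variable {J : Type}

/-- what is known about the layer `j` -/
def Tm (R : J → Vx → Prop) (L : St S.sph (fun _ : J => true) → Prop)
    (s : St S.sph (fun _ : J => true)) (m : Move S.sphSh s) : Prop :=
  L s ∧ ∀ v ∈ m.Qv, R m.i0 v ∧ ∃ w ∈ s.P, m.i0 = s.lab w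

/-- one more layer on the top -/
noncomputable def consT {s : St S.sph (fun _ : J => true)} (m : Move S.sphSh s) (hm : Good m)
    (T : Twr S J) (h : T.pat 0 = m.botS) : Twr S J where
  pat := fun j => match j with
    | 0 => s
    | j + 1 => T.pat j
  mv := fun j => match j with
    | 0 => m
    | j + 1 => T.mv j
  par := fun j => match j with
    | 0 => hm.par
    | j + 1 => T.par j
  qp := fun j => match j with
    | 0 => hm.qp
    | j + 1 => T.qp j
  tc := fun j => match j with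
    | 0 => hm.tc
    | j + 1 => T.tc j
  qc := fun j => match j with
    | 0 => hm.qc
    | j + 1 => T.qc j
  next := fun j => match j with
    | 0 => h
    | j + 1 => T.next j

/-- nothing happens -/
noncomputable def idle (s : St S.sph (fun _ : J => true)) (i : J)
    (hs : ∀ w ∈ s.P, ∃ e, w ∈ S.OnE e) : Twr S J where
  pat := fun _ => s
  mv := fun _ => Move.triv s i hs
  par := fun _ => Move.triv_par s i hs
  qp := fun _ => Move.triv_QP s i hs _
  tc := fun _ => Move.triv_TC s i hs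
  qc := fun _ => Move.triv_QC s i hs _
  next := fun _ => rfl

theorem triv_good (s : St S.sph (fun _ : J => true)) (i : J)
    (hs : ∀ w ∈ s.P, ∃ e, w ∈ S.OnE e) : Good (Move.triv s i hs) :=
  ⟨Move.triv_par s i hs, Move.triv_QP s i hs _, Move.triv_TC s i hs, Move.triv_QC s i hs _⟩

theorem triv_tm {R : J → Vx → Prop} {L : St S.sph (fun _ : J => true) → Prop}
    (s : St S.sph (fun _ : J => true)) (i : J) (hs : ∀ w ∈ s.P, ∃ e, w ∈ S.OnE e) (hL : L s) :
    Tm R L s (Move.triv s i hs) :=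
  ⟨hL, fun v hv => absurd hv (Finset.notMem_empty v)⟩

/-- a chain gives a tower -/
theorem exists_twr (i0 : J) {R : J → Vx → Prop} {L : St S.sph (fun _ : J => true) → Prop} {n : ℕ}
    {s t : St S.sph (fun _ : J => true)} (h : Chn (Tame R L) n s t) (hL : L t)
    (hs : ∀ w ∈ s.P, ∃ e, w ∈ S.OnE e) :
    ∃ T : Twr S J, T.pat 0 = s ∧ (∀ j, n ≤ j → T.pat j = t ∧ (T.mv j).Qv = ∅) ∧
      ∀ j, Tm R L (T.pat j) (T.mv j) := by
  induction h with
  | nil s =>
    exact ⟨idle s i0 hs, rfl, fun _ _ => ⟨rfl, rfl⟩, fun _ => triv_tm s i0 hs hL⟩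
  | cons m hm _ ih =>
    obtain ⟨T, t1, t2, t3⟩ := ih hL (fun w hw => m.B_on hw)
    refine ⟨consT m hm.1 T t1, rfl, ?_, ?_⟩
    · intro j hj
      cases j with
      | zero => omega
      | succ j => exact t2 j (by omega)
    · intro j
      cases j with
      | zero => exact ⟨hm.2.1, fun v hv => ⟨hm.2.2.1 v hv, hm.2.2.2⟩⟩
      | succ j => exact t3 j

/-- the tower placed in the window `[N, N + n)` -/
theorem exists_window (i0 : J) {R : J → Vx → Prop} {L : St S.sph (fun _ : J => true) → Prop}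
    {n : ℕ} {s t : St S.sph (fun _ : J => true)} (h : Chn (Tame R L) n s t) (hLs : L s) (hL : L t)
    (hs : ∀ w ∈ s.P, ∃ e, w ∈ S.OnE e) (N : ℕ) :
    ∃ T : Twr S J, T.pat 0 = s ∧ (∀ j, N + n ≤ j → T.pat j = t ∧ (T.mv j).Qv = ∅) ∧
      (∀ j, j < N → (T.mv j).Qv = ∅) ∧ ∀ j, Tm R L (T.pat j) (T.mv j) := by
  induction N with
  | zero =>
    obtain ⟨T, t1, t2, t3⟩ := exists_twr i0 h hL hs
    exact ⟨T, t1, fun j hj => t2 j (by omega), fun j hj => absurd hj (Nat.not_lt_zero j), t3⟩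
  | succ N ih =>
    obtain ⟨T, t1, t2, t3, t4⟩ := ih
    refine ⟨consT (Move.triv s i0 hs) (triv_good s i0 hs) T t1, rfl, ?_, ?_, ?_⟩
    · intro j hj
      cases j with
      | zero => omega
      | succ j => exact t2 j (by omega)
    · intro j hj
      cases j with
      | zero => rfl
      | succ j => exact t3 j (by omega)
    · intro j
      cases j with
      | zero => exact triv_tm s i0 hs hLs
      | succ j => exact t4 j

end seq

end Crest.Agent.R096.Twr_438
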