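import Crest.Agent.R096.Cb6_609
import Crest.Agent.R096.Ax9_914

/-!
# Local two-sidedness of PL surfaces, part 1 (helper662, row 96, `twoSided_of_sphere`)

`twoSidedAt_cone`: the cone over a closed polygon of the open lower half space whose points lie on
different rays is two-sided at the origin.
-/

set_option autoImplicit false

namespace Crest.Agent.R096.Tws_662

open Set Metric Function Topology
open Crest.Agent.R096.Pl Crest.Agent.R096.Ax_914

abbrev V3 : Type := (ℝ × ℝ) × ℝ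

/-! ### conic sets -/

section Conic

variable {E : Type*} [NormedAddCommGroup E] [NormedSpace ℝ E]

/-- a conic preconnected set meets every ball round the origin in a preconnected set -/
theorem isPreconnected_inter_ball {P : Set E} (hP : IsPreconnected P)
    (hc : ∀ z ∈ P, ∀ t : ℝ, 0 < t → t • z ∈ P) {ε : ℝ} (hε : 0 < ε) :
    IsPreconnected (P ∩ ball 0 ε) := by
  have h0 : ∀ z : E, 0 < 1 + ‖z‖ := fun z => by positivity
  have hcont : Continuous fun z : E => (ε / (1 + ‖z‖)) • z :=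
    (continuous_const.div (by fun_prop) fun z => (h0 z).ne').smul continuous_id
  have : P ∩ ball 0 ε = (fun z : E => (ε / (1 + ‖z‖)) • z) '' P := by
    ext z
    constructor
    · rintro ⟨hz, hb⟩
      have hb' : ‖z‖ < ε := by simpa using hb
      have h1 : 0 < ε - ‖z‖ := by linarith
      refine ⟨(ε - ‖z‖)⁻¹ • z, hc z hz _ (by positivity), ?_⟩
      show (ε / (1 + ‖(ε - ‖z‖)⁻¹ • z‖)) • ((ε - ‖z‖)⁻¹ • z) = z
      rw [norm_smul, smul_smul, Real.norm_eq_abs, abs_of_pos (by positivity)]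
      have h2 : ε / (1 + (ε - ‖z‖)⁻¹ * ‖z‖) * (ε - ‖z‖)⁻¹ = 1 := by
        field_simp
        ring
      rw [h2, one_smul]
    · rintro ⟨w, hw, rfl⟩
      refine ⟨hc w hw _ (by have := h0 w; positivity), ?_⟩
      have h1 := h0 w
      simp only [mem_ball, dist_zero_right, norm_smul, Real.norm_eq_abs]
      rw [abs_of_pos (by positivity), div_mul_eq_mul_div, div_lt_iff₀ h1]
      nlinarith [norm_nonneg w]
  rw [this]
  exact hP.image _ hcont.continuousOn

/-- the origin is in the closure of a nonempty conic set -/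
theorem zero_mem_closure {P : Set E} {ε : ℝ} (hε : 0 < ε) (hn : P.Nonempty)
    (hc : ∀ z ∈ P, ∀ t : ℝ, 0 < t → t • z ∈ P) : (0 : E) ∈ closure (P ∩ ball 0 ε) := by
  obtain ⟨z, hz⟩ := hn
  rw [Metric.mem_closure_iff]
  intro δ hδ
  set m := min δ ε with hm
  have hm0 : 0 < m := lt_min hδ hε
  have h1 : 0 < 1 + ‖z‖ := by positivity
  have h2 : ‖(m / (1 + ‖z‖)) • z‖ < m := by
    rw [norm_smul, Real.norm_eq_abs, abs_of_pos (by positivity), div_mul_eq_mul_div,
      div_lt_iff₀ h1]
    nlinarith [norm_nonneg z]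
  refine ⟨(m / (1 + ‖z‖)) • z, ⟨hc z hz _ (by positivity), ?_⟩, ?_⟩
  · simpa using h2.trans_le (min_le_right _ _)
  · rw [dist_comm, dist_zero_right]
    exact h2.trans_le (min_le_left _ _)

/-- two complementary conic open preconnected sets -/
theorem twoSidedAt_of_conic {C P N : Set E} (hP : IsOpen P) (hN : IsOpen N)
    (hPc : IsPreconnected P) (hNc : IsPreconnected N) (hd : Disjoint P N) (hu : Cᶜ = P ∪ N)
    (hPn : P.Nonempty) (hNn : N.Nonempty)
    (cP : ∀ z ∈ P, ∀ t : ℝ, 0 < t → t • z ∈ P) (cN : ∀ z ∈ N, ∀ t : ℝ, 0 < t → t • z ∈ N) :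
    TwoSidedAt C 0 := by
  intro ε hε
  refine ⟨ball 0 ε, P ∩ ball 0 ε, N ∩ ball 0 ε, isOpen_ball, hP.inter isOpen_ball,
    hN.inter isOpen_ball, mem_ball_self hε, Subset.rfl, isPreconnected_inter_ball hPc cP hε,
    isPreconnected_inter_ball hNc cN hε, hd.mono inter_subset_left inter_subset_left, ?_,
    zero_mem_closure hε hPn cP, zero_mem_closure hε hNn cN⟩
  rw [← union_inter_distrib_right, ← hu, sdiff_eq, inter_comm]

end Conic

/-! ### central projection to the plane `z = -1` -/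

/-- central projection of the lower half space -/
noncomputable def pr (z : V3) : ℝ × ℝ := (-z.2)⁻¹ • z.1

theorem pr_smul {t : ℝ} (ht : 0 < t) (z : V3) : pr (t • z) = pr z := by
  simp only [pr, Prod.smul_snd, Prod.smul_fst, smul_eq_mul, smul_smul]
  congr 1
  rcases eq_or_ne z.2 0 with h | h
  · simp [h]
  · field_simp

theorem eq_of_pr {z z' : V3} (hz : z.2 < 0) (hz' : z'.2 < 0) (h : pr z = pr z') :
    z = (z.2 / z'.2) • z' := by
  have h1 : z.2 ≠ 0 := hz.ne
  have h2 : z'.2 ≠ 0 := hz'.ne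
  have h3 : z.1 = (z.2 / z'.2) • z'.1 := by
    have : (-z.2) • pr z = (-z.2) • pr z' := by rw [h]
    rw [pr, smul_smul, mul_inv_cancel₀ (by simpa using h1), one_smul, pr, smul_smul] at this
    rw [this]
    congr 1
    field_simp
  ext1
  · rw [Prod.smul_fst]; exact h3
  · rw [Prod.smul_snd, smul_eq_mul, div_mul_cancel₀ _ h2]

theorem continuousOn_pr : ContinuousOn pr {z : V3 | z.2 < 0} := by
  have : ContinuousOn (fun z : V3 => (-z.2)⁻¹) {z : V3 | z.2 < 0} :=
    (by fun_prop : Continuous fun z : V3 => -z.2).continuousOn.inv₀ fun z hz => by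
      have : z.2 < 0 := hz
      linarith
  exact this.smul continuous_fst.continuousOn

theorem isOpen_lower : IsOpen {z : V3 | z.2 < 0} := isOpen_lt continuous_snd continuous_const

theorem pr_segment {x y : V3} (hx : x.2 < 0) (hy : y.2 < 0) :
    pr '' segment ℝ x y = segment ℝ (pr x) (pr y) := by
  obtain ⟨x1, x2⟩ := x
  obtain ⟨y1, y2⟩ := y
  obtain ⟨p, rfl⟩ : ∃ p, x2 = -p := ⟨-x2, by ring⟩
  obtain ⟨q, rfl⟩ : ∃ q, y2 = -q := ⟨-y2, by ring⟩
  have hp : 0 < p := by simpa using hx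
  have hq : 0 < q := by simpa using hy
  have hsum : ∀ a b : ℝ, a * -p + b * -q = -(a * p + b * q) := fun a b => by ring
  ext z
  constructor
  · rintro ⟨w, ⟨a, b, ha, hb, hab, rfl⟩, rfl⟩
    have hD : 0 < a * p + b * q := by
      rcases ha.lt_or_eq with h | h
      · have := mul_pos h hp
        have := mul_nonneg hb hq.le
        linarith
      · have hb1 : b = 1 := by linarith
        rw [← h, hb1]; linarith
    refine ⟨a * p / (a * p + b * q), b * q / (a * p + b * q),
      div_nonneg (mul_nonneg ha hp.le) hD.le,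
      div_nonneg (mul_nonneg hb hq.le) hD.le, ?_, ?_⟩
    · rw [← add_div, div_self hD.ne']
    · simp only [pr, Prod.snd_add, Prod.smul_snd, smul_eq_mul, Prod.fst_add, Prod.smul_fst,
        smul_add, smul_smul, neg_neg, hsum]
      congr 2
      · field_simp
      · field_simp
  · rintro ⟨a, b, ha, hb, hab, rfl⟩
    have hD : 0 < a / p + b / q := by
      rcases ha.lt_or_eq with h | h
      · have := div_pos h hp
        have := div_nonneg hb hq.le
        linarith
      · have hb1 : b = 1 := by linarith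
        rw [← h, hb1]; positivity
    refine ⟨(a / p / (a / p + b / q)) • (x1, -p) + (b / q / (a / p + b / q)) • (y1, -q),
      ⟨_, _, div_nonneg (div_nonneg ha hp.le) hD.le, div_nonneg (div_nonneg hb hq.le) hD.le,
        ?_, rfl⟩, ?_⟩
    · rw [← add_div, div_self hD.ne']
    · have h3 : (a / p / (a / p + b / q)) * p + (b / q / (a / p + b / q)) * q
          = (a / p + b / q)⁻¹ := by
        have h4 : a / p * p = a := div_mul_cancel₀ _ hp.ne'
        have h5 : b / q * q = b := div_mul_cancel₀ _ hq.ne'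
        rw [div_mul_eq_mul_div (a / p), div_mul_eq_mul_div (b / q), h4, h5, ← add_div, hab,
          one_div]
      simp only [pr, Prod.snd_add, Prod.smul_snd, smul_eq_mul, Prod.fst_add, Prod.smul_fst,
        smul_add, smul_smul, neg_neg, hsum]
      rw [h3, inv_inv]
      congr 2
      · rw [mul_div_cancel₀ _ hD.ne', div_eq_mul_inv]
      · rw [mul_div_cancel₀ _ hD.ne', div_eq_mul_inv]

/-- the projected polygon -/
theorem poly_pr {n : ℕ} {v : ℤ → V3} (hv : Poly n v) (hneg : ∀ i, (v i).2 < 0)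
    (hray : ∀ x ∈ polySet v, ∀ y ∈ polySet v, ∀ t : ℝ, 0 < t → x = t • y → x = y) :
    Poly n (fun i => pr (v i)) ∧ polySet (fun i => pr (v i)) = pr '' polySet v ∧
      ∀ x ∈ polySet v, x.2 < 0 := by
  have hedge : ∀ i, edge (fun i => pr (v i)) i = pr '' edge v i := fun i =>
    (pr_segment (hneg i) (hneg (i + 1))).symm
  have hlow : ∀ x ∈ polySet v, x.2 < 0 := by
    intro x hx
    obtain ⟨i, hi⟩ := mem_polySet.1 hx
    obtain ⟨a, b, ha, hb, hab, rfl⟩ := hi
    have h1 := hneg i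
    have h2 := hneg (i + 1)
    simp only [Prod.snd_add, Prod.smul_snd, smul_eq_mul]
    rcases ha.lt_or_eq with h | h
    · nlinarith
    · have hb1 : b = 1 := by linarith
      rw [← h, hb1]; linarith
  have hinj : ∀ x ∈ polySet v, ∀ y ∈ polySet v, pr x = pr y → x = y := by
    intro x hx y hy h
    exact hray x hx y hy _ (div_pos_of_neg_of_neg (hlow x hx) (hlow y hy))
      (eq_of_pr (hlow x hx) (hlow y hy) h)
  have hvm : ∀ i, v i ∈ polySet v := fun i => mem_polySet.2 ⟨i, left_mem_edge v i⟩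
  refine ⟨⟨hv.three, fun i => by rw [hv.per], fun i j h => hv.inj i j (hinj _ (hvm i) _ (hvm j) h),
    ?_⟩, ?_, hlow⟩
  · intro i j hij x hx hx'
    rw [hedge] at hx hx'
    obtain ⟨y, hy, rfl⟩ := hx
    obtain ⟨y', hy', he⟩ := hx'
    have : y' = y := hinj _ (mem_polySet.2 ⟨j, hy'⟩) _ (mem_polySet.2 ⟨i, hy⟩) he
    subst this
    obtain ⟨h1, h2⟩ := hv.simple i j hij _ hy hy'
    refine ⟨h1.imp (fun h => ?_) (fun h => ?_), h2.imp (fun h => ?_) (fun h => ?_)⟩ <;>
      · show pr y' = _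
        rw [h]
  · simp only [polySet, hedge, image_iUnion]

/-! ### the cone over a polygon -/

/-- the closed cone over `A` -/
def coneOf {E : Type*} [NormedAddCommGroup E] [NormedSpace ℝ E] (A : Set E) : Set E :=
  {z | ∃ t : ℝ, 0 ≤ t ∧ ∃ y ∈ A, z = t • y}

theorem twoSidedAt_cone {n : ℕ} {v : ℤ → V3} (hv : Poly n v) (hneg : ∀ i, (v i).2 < 0)
    (hray : ∀ x ∈ polySet v, ∀ y ∈ polySet v, ∀ t : ℝ, 0 < t → x = t • y → x = y) :
    TwoSidedAt (coneOf (polySet v)) (0 : V3) := by
  obtain ⟨hw, hws, hlow⟩ := poly_pr hv hneg hray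
  obtain ⟨H, hH, hHS⟩ := hw.stdC
  -- membership in the cone
  have hC : ∀ z : V3, z ∈ coneOf (polySet v) ↔ z = 0 ∨ (z.2 < 0 ∧ pr z ∈ H '' S1 ℝ) := by
    intro z
    rw [hHS, hws]
    constructor
    · rintro ⟨t, ht, y, hy, rfl⟩
      rcases ht.lt_or_eq with h | h
      · right
        refine ⟨?_, y, hy, (pr_smul h y).symm⟩
        rw [Prod.smul_snd, smul_eq_mul]
        exact mul_neg_of_pos_of_neg h (hlow y hy)
      · left; rw [← h, zero_smul]
    · rintro (rfl | ⟨hz, y, hy, h⟩)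
      · exact ⟨0, le_rfl, v 0, mem_polySet.2 ⟨0, left_mem_edge v 0⟩, by simp⟩
      · exact ⟨z.2 / y.2, (div_pos_of_neg_of_neg hz (hlow y hy)).le, y, hy,
          eq_of_pr hz (hlow y hy) h.symm⟩
  -- a bound of the inside
  have hBc : IsCompact (H '' {p : ℝ × ℝ | N1 p ≤ 1}) := isCompact_le.image H.continuous
  obtain ⟨R, hR⟩ := hBc.isBounded.exists_norm_le
  have hR0 : 0 ≤ R := (norm_nonneg _).trans
    (hR (H 0) ⟨0, by show N1 _ ≤ 1; rw [N1_zero]; norm_num, rfl⟩)
  have htri : ∀ x : ℝ × ℝ, x ∈ H '' U1 ℝ ∨ x ∈ H '' S1 ℝ ∨ x ∈ H '' X1 ℝ := by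
    intro x
    obtain ⟨p, rfl⟩ := H.surjective x
    rcases lt_trichotomy (N1 p) 1 with h | h | h
    · exact Or.inl ⟨p, h, rfl⟩
    · exact Or.inr (Or.inl ⟨p, h, rfl⟩)
    · exact Or.inr (Or.inr ⟨p, h, rfl⟩)
  have hX : ∀ x : ℝ × ℝ, R < ‖x‖ → x ∈ H '' X1 ℝ := by
    intro x hx
    rcases htri x with h | h | h
    · obtain ⟨p, hp, rfl⟩ := h
      have h2 : N1 p < 1 := hp
      exact absurd (hR _ ⟨p, h2.le, rfl⟩) (not_le.2 hx)
    · obtain ⟨p, hp, rfl⟩ := h
      have h2 : N1 p = 1 := hp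
      exact absurd (hR _ ⟨p, h2.le, rfl⟩) (not_le.2 hx)
    · exact h
  have hdUX : Disjoint (H '' U1 ℝ) (H '' X1 ℝ) := by
    rw [disjoint_image_iff H.injective, disjoint_left]
    intro p hp hp'
    have h1 : N1 p < 1 := hp
    have h2 : 1 < N1 p := hp'
    linarith
  have hdSX : Disjoint (H '' S1 ℝ) (H '' X1 ℝ) := by
    rw [disjoint_image_iff H.injective, disjoint_left]
    intro p hp hp'
    have h1 : N1 p = 1 := hp
    have h2 : 1 < N1 p := hp'
    linarith
  have hdUS : Disjoint (H '' U1 ℝ) (H '' S1 ℝ) := Cb_609.disjoint_U1_S1 H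
  -- the sets
  let P : Set V3 := {z | z.2 < 0 ∧ pr z ∈ H '' U1 ℝ}
  let N₁ : Set V3 := {z | z.2 < 0 ∧ pr z ∈ H '' X1 ℝ}
  let N₂ : Set V3 := {z | 0 ≤ z.2 ∧ z ≠ 0}
  have opn : ∀ A : Set (ℝ × ℝ), IsOpen A → IsOpen {z : V3 | z.2 < 0 ∧ pr z ∈ A} := fun A hA =>
    continuousOn_pr.isOpen_inter_preimage isOpen_lower hA
  have con : ∀ A : Set (ℝ × ℝ), IsPreconnected A →
      IsPreconnected {z : V3 | z.2 < 0 ∧ pr z ∈ A} := by
    intro A hA
    have : {z : V3 | z.2 < 0 ∧ pr z ∈ A} =
        (fun p : (ℝ × ℝ) × ℝ => (p.2 • p.1, -p.2)) '' (A ×ˢ Ioi (0 : ℝ)) := by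
      ext z
      constructor
      · rintro ⟨h1, h2⟩
        have h1' : z.2 ≠ 0 := h1.ne
        refine ⟨(pr z, -z.2), ⟨h2, by simpa using h1⟩, ?_⟩
        ext1
        · show (-z.2) • pr z = z.1
          rw [pr, smul_smul, mul_inv_cancel₀ (by simpa using h1'), one_smul]
        · simp
      · rintro ⟨p, ⟨h1, h2⟩, rfl⟩
        have h2' : 0 < p.2 := h2
        refine ⟨by simpa using h2', ?_⟩
        have : pr (p.2 • p.1, -p.2) = p.1 := by
          simp only [pr, neg_neg, smul_smul]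
          rw [inv_mul_cancel₀ h2'.ne', one_smul]
        rw [this]; exact h1
    rw [this]
    exact (hA.prod isPreconnected_Ioi).image _ (by fun_prop)
  have cconic : ∀ A : Set (ℝ × ℝ), ∀ z ∈ {z : V3 | z.2 < 0 ∧ pr z ∈ A}, ∀ t : ℝ, 0 < t →
      t • z ∈ {z : V3 | z.2 < 0 ∧ pr z ∈ A} := by
    rintro A z ⟨h1, h2⟩ t ht
    refine ⟨?_, ?_⟩
    · rw [Prod.smul_snd, smul_eq_mul]; exact mul_neg_of_pos_of_neg ht h1
    · rw [pr_smul ht]; exact h2
  have hU1n : (U1 ℝ).Nonempty := ⟨0, by show N1 _ < 1; rw [N1_zero]; norm_num⟩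
  have hPn : P.Nonempty := by
    obtain ⟨p, hp⟩ := hU1n
    refine ⟨(H p, -1), by norm_num, p, hp, ?_⟩
    simp [pr]
  have hz0 : (((1 : ℝ), (0 : ℝ)), (0 : ℝ)) ∈ N₂ := by
    refine ⟨le_rfl, fun h => ?_⟩
    have := congrArg (fun z : V3 => z.1.1) h
    simp at this
  have hz0c : (((1 : ℝ), (0 : ℝ)), (0 : ℝ)) ∈ closure N₁ := by
    rw [Metric.mem_closure_iff]
    intro δ hδ
    set m := min (δ / 2) (1 / (R + 1) / 2) with hm
    have hR1 : 0 < R + 1 := by linarith
    have hm0 : 0 < m := lt_min (by linarith) (by positivity)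
    have hm1 : m < δ := lt_of_le_of_lt (min_le_left _ _) (by linarith)
    have hm2 : m < 1 / (R + 1) := lt_of_le_of_lt (min_le_right _ _) (by
      have : 0 < 1 / (R + 1) := by positivity
      linarith)
    refine ⟨((1, 0), -m), ⟨by simpa using hm0, hX _ ?_⟩, ?_⟩
    · have h2 : pr ((1, 0), -m) = (m⁻¹, 0) := by simp [pr]
      rw [h2, Prod.norm_def]
      have h3 : R < m⁻¹ := by
        rw [lt_div_iff₀ hR1] at hm2
        rw [← one_div, lt_div_iff₀ hm0]
        nlinarith
      exact lt_of_lt_of_le (h3.trans_le (le_abs_self _)) (le_max_left _ _)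
    · rw [Prod.dist_eq]
      simp only [dist_self, dist_zero_left, norm_neg, Real.norm_eq_abs, abs_of_pos hm0]
      exact max_lt hδ hm1
  have hN₂ : IsPreconnected N₂ := by
    have h1 : IsPreconnected {z : V3 | 0 < z.2} := by
      apply Convex.isPreconnected
      exact convex_halfSpace_gt (LinearMap.isLinear (LinearMap.snd ℝ (ℝ × ℝ) ℝ)) 0
    refine h1.subset_closure ?_ ?_
    · intro z hz
      have hz' : 0 < z.2 := hz
      exact ⟨hz'.le, fun h => by rw [h] at hz'; simp at hz'⟩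
    · rintro z ⟨hz, -⟩
      rw [Metric.mem_closure_iff]
      intro δ hδ
      refine ⟨(z.1, z.2 + δ / 2), by show 0 < z.2 + δ / 2; linarith, ?_⟩
      rw [Prod.dist_eq]
      simp only [dist_self]
      refine max_lt hδ ?_
      rw [Real.dist_eq]
      have : z.2 - (z.2 + δ / 2) = -(δ / 2) := by ring
      rw [this, abs_neg, abs_of_pos (by linarith)]
      linarith
  have hN : IsPreconnected (N₁ ∪ N₂) := by
    have h1 : IsPreconnected (N₁ ∪ {(((1 : ℝ), (0 : ℝ)), (0 : ℝ))}) :=
      (con _ (isConnected_X1.isPreconnected.image _ H.continuous.continuousOn)).subset_closure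
        subset_union_left (union_subset subset_closure (singleton_subset_iff.2 hz0c))
    have h2 := h1.union (((1 : ℝ), (0 : ℝ)), (0 : ℝ)) (Or.inr rfl) hz0 hN₂
    have : N₁ ∪ {(((1 : ℝ), (0 : ℝ)), (0 : ℝ))} ∪ N₂ = N₁ ∪ N₂ := by
      rw [union_assoc]
      congr 1
      exact union_eq_right.2 (singleton_subset_iff.2 hz0)
    rwa [this] at h2
  refine twoSidedAt_of_conic (P := P) (N := N₁ ∪ N₂) (opn _ (H.isOpenMap _ isOpen_U1)) ?_
    (con _ (Cb_609.isPreconnected_U1.image _ H.continuous.continuousOn)) hN ?_ ?_ hPn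
    ⟨_, Or.inr hz0⟩ (cconic _) ?_
  · -- open
    have : N₁ ∪ N₂ = {z : V3 | R * |z.2| < ‖z.1‖} ∪ {z : V3 | 0 < z.2} ∪ N₁ := by
      ext z
      constructor
      · rintro (h | ⟨h1, h2⟩)
        · exact Or.inr h
        · left
          rcases h1.lt_or_eq with h | h
          · exact Or.inr h
          · left
            show R * |z.2| < ‖z.1‖
            rw [← h, abs_zero, mul_zero, norm_pos_iff]
            intro h3
            exact h2 (Prod.ext h3 h.symm)
      · rintro ((h | h) | h)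
        · have h' : R * |z.2| < ‖z.1‖ := h
          rcases lt_or_ge z.2 0 with h1 | h1
          · left
            refine ⟨h1, hX _ ?_⟩
            rw [pr, norm_smul, norm_inv, norm_neg, Real.norm_eq_abs]
            have h2 : 0 < |z.2| := abs_pos.2 h1.ne
            rw [inv_mul_eq_div, lt_div_iff₀ h2]
            exact h'
          · right
            refine ⟨h1, fun h3 => ?_⟩
            rw [h3] at h'
            simp at h'
        · have h' : 0 < z.2 := h
          exact Or.inr ⟨h'.le, fun h3 => by rw [h3] at h'; simp at h'⟩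
        · exact Or.inl h
    rw [this]
    refine ((isOpen_lt ?_ ?_).union (isOpen_lt continuous_const continuous_snd)).union
      (opn _ (H.isOpenMap _ isOpen_X1))
    · fun_prop
    · fun_prop
  · rw [disjoint_left]
    rintro z ⟨h1, h2⟩ (h3 | h3)
    · exact disjoint_left.1 hdUX h2 h3.2
    · exact absurd h1 (not_lt.2 h3.1)
  · ext z
    rw [mem_compl_iff, hC]
    constructor
    · intro h
      push Not at h
      rcases lt_or_ge z.2 0 with h1 | h1
      · rcases htri (pr z) with h2 | h2 | h2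
        · exact Or.inl ⟨h1, h2⟩
        · exact absurd h2 (h.2 h1)
        · exact Or.inr (Or.inl ⟨h1, h2⟩)
      · exact Or.inr (Or.inr ⟨h1, h.1⟩)
    · rintro (⟨h1, h2⟩ | ⟨h1, h2⟩ | ⟨h1, h2⟩) (h3 | ⟨h3, h4⟩)
      · rw [h3] at h1; simp at h1
      · exact disjoint_left.1 hdUS h2 h4
      · rw [h3] at h1; simp at h1
      · exact disjoint_left.1 hdSX h4 h2
      · exact h2 h3
      · exact absurd h3 (not_lt.2 h1)
  · rintro z (h | ⟨h1, h2⟩) t ht
    · exact Or.inl (cconic _ z h t ht)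
    · refine Or.inr ⟨?_, fun h => ?_⟩
      · rw [Prod.smul_snd, smul_eq_mul]; exact mul_nonneg ht.le h1
      · exact h2 ((smul_eq_zero.1 h).resolve_left ht.ne')

end Crest.Agent.R096.Tws_662
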