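import Crest.Agent.R096.Tws1_662

/-!
# Local two-sidedness of PL surfaces, part 2 (helper662, row 96, `twoSided_of_sphere`)

`twoSidedAt_range`: the image of an injective positively homogeneous PL map `ℝ² → ℝ³` is two-sided
at the origin.
-/

set_option autoImplicit false

namespace Crest.Agent.R096.Tws_662

open Set Metric Function Topology MeasureTheory
open Crest.Agent.R096.Pl Crest.Agent.R096.Ax_914

/-- a PL map `ℝ² → ℝ³` is not surjective -/
theorem range_ne_univ {Ψ : ℝ × ℝ → V3} (hΨ : PLMap Ψ) : range Ψ ≠ univ := by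
  obtain ⟨-, G, hG, h⟩ := hΨ
  intro hu
  have h1 : (univ : Set V3) ⊆ ⋃ g ∈ G, ((AffineSubspace.map g ⊤ : AffineSubspace ℝ V3) : Set V3) := by
    rw [← hu]
    rintro _ ⟨y, rfl⟩
    obtain ⟨g, hg, e⟩ := h y
    refine mem_iUnion₂.2 ⟨g, hg, ?_⟩
    rw [AffineSubspace.coe_map, e]
    exact ⟨y, trivial, rfl⟩
  have h2 : (Measure.addHaar : Measure V3) univ = 0 := by
    refine measure_mono_null h1 ((measure_biUnion_null_iff hG.countable).2 fun g _ => ?_)
    refine Measure.addHaar_affineSubspace _ _ fun h3 => ?_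
    have h4 : Surjective g := by
      intro z
      have : z ∈ (AffineSubspace.map g ⊤ : AffineSubspace ℝ V3) := by
        rw [h3]; exact AffineSubspace.mem_top ℝ V3 z
      obtain ⟨y, -, hy⟩ := (AffineSubspace.mem_map).1 this
      exact ⟨y, hy⟩
    have h5 : Surjective g.linear := (AffineMap.linear_surjective_iff g).2 h4
    have h6 := LinearMap.finrank_le_finrank_of_surjective h5
    simp at h6
  exact (NeZero.ne (Measure.addHaar : Measure V3)) (Measure.measure_univ_eq_zero.1 h2)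

/-- a conic PL homeo of `ℝ³` moving a closed proper subset of the octahedral sphere down -/
theorem exists_conic_push {A : Set V3} (hA : IsClosed A) (hAS : A ⊆ S1 (ℝ × ℝ))
    (hne : A ≠ S1 (ℝ × ℝ)) :
    ∃ K : V3 ≃ₜ V3, PLH K ∧ K 0 = 0 ∧ (∀ z : V3, ∀ t : ℝ, 0 < t → K (t • z) = t • K z) ∧
      ∀ p ∈ A, (K p).2 < 0 := by
  obtain ⟨K, hK, hKS, hKA⟩ := push_off hA hAS hne
  have hm : MapsTo K (S1 (ℝ × ℝ)) (S1 (ℝ × ℝ)) := fun x hx => by
    rw [← hKS]; exact mem_image_of_mem _ hx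
  have hm' : MapsTo K.symm (S1 (ℝ × ℝ)) (S1 (ℝ × ℝ)) := fun x hx => by
    rw [← hKS] at hx
    obtain ⟨y, hy, rfl⟩ := hx
    rwa [K.symm_apply_apply]
  have hl : ∀ x ∈ S1 (ℝ × ℝ), K.symm (K x) = x := fun x _ => K.symm_apply_apply x
  have hr : ∀ x ∈ S1 (ℝ × ℝ), K (K.symm x) = x := fun x _ => K.apply_symm_apply x
  have p1 : PLMap (coneExt K) :=
    PLMap_coneExt polyNorm_plane hK.1.continuous.continuousOn (hK.1.selOn _)
  have p2 : PLMap (coneExt K.symm) :=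
    PLMap_coneExt polyNorm_plane hK.2.continuous.continuousOn (hK.2.selOn _)
  refine ⟨mkH (coneExt K) (coneExt K.symm) p1 p2 (coneExt_leftInv hm hl) (coneExt_leftInv hm' hr),
    PLH_mkH _ _ _ _ _ _, ?_, ?_, ?_⟩
  · rw [mkH_apply, coneExt_zero]
  · intro z t ht
    rw [mkH_apply, mkH_apply]
    unfold coneExt
    rw [N1_smul, abs_of_pos ht, mul_smul]
    congr 3
    rw [smul_smul, mul_inv, mul_comm t⁻¹, mul_assoc, inv_mul_cancel₀ ht.ne', mul_one]
  · intro p hp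
    rw [mkH_apply, coneExt_of_mem (hAS hp)]
    exact hKA p hp

/-- **the image of an injective positively homogeneous PL map `ℝ² → ℝ³` is two-sided at `0`** -/
theorem twoSidedAt_range {Ψ : ℝ × ℝ → V3} (hΨ : PLMap Ψ)
    (hh : ∀ y : ℝ × ℝ, ∀ t : ℝ, 0 ≤ t → Ψ (t • y) = t • Ψ y) (hi : Injective Ψ) :
    TwoSidedAt (range Ψ) (0 : V3) := by
  have h0 : Ψ 0 = 0 := by
    have := hh 0 0 le_rfl
    simpa using this
  have hne0 : ∀ y, y ≠ 0 → Ψ y ≠ 0 := fun y hy h => hy (hi (h.trans h0.symm))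
  have hS0 : ∀ y ∈ S1 ℝ, y ≠ 0 := by
    rintro y hy rfl
    have : N1 (0 : ℝ × ℝ) = 1 := hy
    rw [N1_zero] at this
    norm_num at this
  -- the trace on the octahedral sphere
  let A : Set V3 := (fun y => (N1 (Ψ y))⁻¹ • Ψ y) '' S1 ℝ
  have hAc : IsClosed A := by
    refine (isCompact_S1.image_of_continuousOn ?_).isClosed
    have h1 : ContinuousOn (fun y => N1 (Ψ y)) (S1 ℝ) :=
      (N1_continuous.comp hΨ.continuous).continuousOn
    exact (h1.inv₀ fun y hy => (N1_pos (hne0 y (hS0 y hy))).ne').smul hΨ.continuous.continuousOn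
  have hAS : A ⊆ S1 (ℝ × ℝ) := by
    rintro _ ⟨y, hy, rfl⟩
    exact normalize_mem (hne0 y (hS0 y hy))
  have hA : A ≠ S1 (ℝ × ℝ) := by
    intro h
    refine range_ne_univ hΨ (eq_univ_of_forall fun z => ?_)
    by_cases hz : z = 0
    · exact ⟨0, by rw [h0, hz]⟩
    · obtain ⟨y, hy, e⟩ := (h ▸ normalize_mem hz : (N1 z)⁻¹ • z ∈ A)
      have e' : (N1 (Ψ y))⁻¹ • Ψ y = (N1 z)⁻¹ • z := e
      have hz' := N1_pos hz
      refine ⟨(N1 z * (N1 (Ψ y))⁻¹) • y, ?_⟩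
      have h2 := N1_pos (hne0 y (hS0 y hy))
      rw [hh _ _ (by positivity), mul_smul, e', smul_smul, mul_inv_cancel₀ hz'.ne', one_smul]
  obtain ⟨K, hK, hK0, hKh, hKA⟩ := exists_conic_push hAc hAS hA
  let Φ : ℝ × ℝ → V3 := fun y => K (Ψ y)
  have hΦ : PLMap Φ := hK.1.comp hΨ
  have hΦi : Injective Φ := K.injective.comp hi
  have hΦh : ∀ y : ℝ × ℝ, ∀ t : ℝ, 0 ≤ t → Φ (t • y) = t • Φ y := by
    intro y t ht
    rcases ht.lt_or_eq with h | h
    · show K (Ψ (t • y)) = t • K (Ψ y)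
      rw [hh _ _ ht, hKh _ _ h]
    · show K (Ψ (t • y)) = t • K (Ψ y)
      rw [← h, zero_smul, zero_smul, h0, hK0]
  have hΦn : ∀ y ∈ S1 ℝ, (Φ y).2 < 0 := by
    intro y hy
    have h1 := hKA _ (mem_image_of_mem (fun y => (N1 (Ψ y))⁻¹ • Ψ y) hy)
    have h2 := N1_pos (hne0 y (hS0 y hy))
    rw [hKh _ _ (by positivity), Prod.smul_snd, smul_eq_mul] at h1
    by_contra h3
    exact absurd h1 (not_lt.2 (mul_nonneg (by positivity) (not_lt.1 h3)))
  obtain ⟨n, v, hv, hset⟩ := exists_poly_of_injOn hΦ hΦi.injOn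
  have hvn : ∀ i, (v i).2 < 0 := by
    intro i
    have : v i ∈ polySet v := mem_polySet.2 ⟨i, left_mem_edge v i⟩
    rw [hset] at this
    obtain ⟨y, hy, e⟩ := this
    rw [← e]; exact hΦn y hy
  have hray : ∀ x ∈ polySet v, ∀ y ∈ polySet v, ∀ t : ℝ, 0 < t → x = t • y → x = y := by
    rw [hset]
    rintro _ ⟨y, hy, rfl⟩ _ ⟨y', hy', rfl⟩ t ht e
    rw [← hΦh _ _ ht.le] at e
    have h1 := hΦi e
    have h2 : N1 y = 1 := hy
    have h3 : N1 y' = 1 := hy'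
    rw [h1, N1_smul, h3, mul_one, abs_of_pos ht] at h2
    rw [h1, h2, one_smul]
  have key := twoSidedAt_cone hv hvn hray
  have hcone : coneOf (polySet v) = K '' range Ψ := by
    rw [hset]
    ext z
    constructor
    · rintro ⟨t, ht, _, ⟨y, hy, rfl⟩, rfl⟩
      rw [← hΦh _ _ ht]
      exact ⟨Ψ (t • y), ⟨_, rfl⟩, rfl⟩
    · rintro ⟨_, ⟨y, rfl⟩, rfl⟩
      by_cases hy : y = 0
      · refine ⟨0, le_rfl, Φ (1, 0), ⟨(1, 0), ?_, rfl⟩, ?_⟩
        · show N1 _ = 1; simp [N1]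
        · rw [hy, h0, hK0, zero_smul]
      · have h1 := N1_pos hy
        refine ⟨N1 y, h1.le, Φ ((N1 y)⁻¹ • y), ⟨_, normalize_mem hy, rfl⟩, ?_⟩
        rw [← hΦh _ _ h1.le, smul_smul, mul_inv_cancel₀ h1.ne', one_smul]
  rw [hcone, ← hK0] at key
  exact (TwoSidedAt.map_iff K).1 key

end Crest.Agent.R096.Tws_662
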