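import Crest.Agent.R096.Ent1_527
import Crest.Agent.R096.Sde4_422
import Crest.Agent.R096.Rgb2_527
import Crest.Agent.R096.Bcf1_4
import Crest.Agent.R096.Dtf1_117

/-!
# Row 96, DOORS, NEWIN (helper567): UPDOWN for the barriers over the zones of the two ends

* `ends_region` : 527's walk (`ends_hp`, `ends_vp`) over a compact connected part `A` of the sphere
  with one vertex which is never moved;
* `reg_m`       : 471's `Reg` for the barriers of record (`t = μ / 4`);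
* `updown_lo`, `updown_hi` : a point of `X` in the layers over `{s_a ≤ t}` (`{1 - t ≤ s_a}`) is
  joined with a point of the level `0` or with a point of the boundary of the shrunk core.
-/

set_option autoImplicit false
set_option linter.unusedSectionVars false
set_option linter.unusedVariables false
set_option linter.style.longLine false

open Set Topology Filter Metric Module Relation
open scoped Classical

namespace Crest.Agent.R096.Upd_567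

open Crest.Agent.R096.Msh_715 Crest.Agent.R096.Agl5_543 Crest.Agent.R096.St_147
  Crest.Agent.R096.Seq_213 Crest.Agent.R096.Door_501 Crest.Agent.R096.Sla_184
  Crest.Agent.R096.Twr_438 Crest.Agent.R096.Exa_560 Crest.Agent.R096.Ess3_95
  Crest.Agent.R096.Ess4_95 Crest.Agent.R096.Dfi_539 Crest.Agent.R096.Dfi_471
  Crest.Agent.R096.Ac_117 Crest.Agent.R096.Lm_117 Crest.Agent.R096.Cp_298
  Crest.Agent.R096.Coh_184 Crest.Agent.R096.Gm_298
  Crest.Agent.R096.Dfo_539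
open Crest.Agent.R096.Brk1_582 Crest.Agent.R096.Brk2_582 Crest.Agent.R096.Brk3_582
  Crest.Agent.R096.Brk5_582 Crest.Agent.R096.Bsp_628 Crest.Agent.R096.Init_543
  Crest.Agent.R096.Bar_106 Crest.Agent.R096.Dib_438
  Crest.Agent.R096.Ess5_95 Crest.Agent.R096.Bgf_4 Crest.Agent.R096.Ebr1_95
  Crest.Agent.R096.Ebr4_95 Crest.Agent.R096.Rop_441 Crest.Agent.R096.Nmd1_698
open Crest.Agent.R096.Mbf_337 (sb KJ Tiny gau Cores Fine)
open Crest.Agent.R096.SkC1_961 (E3 FoamD Hom3)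
open Crest.Agent.R096.Frn_337 (Ti)
open Crest.Agent.R096.Frs_662 (slC)
open Crest.Agent.R096.Ess7_95 (KT Sh)
open Crest.Agent.R096.Dff_539 (vS)
open Crest.Agent.R096.Bmf_416 (coT)
open Crest.Agent.R096.Yl_471 (Vcl EA VA Stp)
open Crest.Agent.R096.Ent_527 (Ends ends_hp ends_vp)

section abstract_

variable {E : Type} [NormedAddCommGroup E] [NormedSpace ℝ E] [FiniteDimensional ℝ E]
variable {Om : Set E} {ι : Type} {T : Tiling Om ι} {κ : Type} {S : Sla T κ}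
  {h3 : finrank ℝ E = 3} {J C : Type} {fam : J → C}
variable [Nonempty J] {s : GSt (meshC T h3) fam} {r : J → E}
  {v0 v1 : ∀ c, C → VxK T S.K c} {L : ∀ c, C → Lev T (frontier (S.K c)) J}
  {Tw : Twrs (S.sh h3) S.n (outK S.hH S.dis s r)} {l0 : E → J}
  {c : κ} {a : C} {i : J} {A X : Set E} {h : E}

/-- **UPDOWN over a connected region** -/
theorem ends_region (tt : TwOut S h3 s r v0 v1 L Tw)
    (hmon : Yl_471.Mon Tw c a {w | w ∈ (exa h3 S.hH S.dis (L c a)).P})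
    (hmonT : Ent_527.MonT Tw c a {w | w ∈ (trc S.hH S.dis s r c a).P})
    (hA : IsCompact A) (hAc : IsPreconnected A) (hAf : A ⊆ frontier (S.K c))
    {v' : S.Vx c} (hv' : v'.1 ∈ A)
    (hR : ∀ i, ¬ Rgn (S.sh h3 c) (v0 c a) (v1 c a) (trc S.hH S.dis s r c a)
      (exa h3 S.hH S.dis (L c a)) i v')
    (hX : Vcl Tw l0 c (EA S c A) i X) (hhX : h ∈ X) (hl : (s2 S h3 Tw l0).lab h = i)
    (hh : (∃ e ∈ EA S c A, ∃ j w, j ≤ S.n c ∧ w ∈ e.1.opn ∧ w ∈ ((Tw.tw c a).pat j).P ∧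
        h = S.hp c j w) ∨
      ∃ j, ∃ v ∈ VA S c A, j < S.n c ∧ v ∈ ((Tw.tw c a).mv j).Qv ∧ h = S.vc c v.1 j) :
    Ends Tw l0 c a (EA S c A) i X := by
  have hD : ∀ j, ∀ w ∈ ((Tw.tw c a).pat j).P, w ∈ {w | w ∈ (exa h3 S.hH S.dis (L c a)).P} ∨
      w ∈ {w | w ∈ (trc S.hH S.dis s r c a).P} := by
    intro j w hw
    rcases tt.fits c a j w hw with h1 | h1
    · exact Or.inr h1.1
    · exact Or.inl h1.1
  have hvt : v' ∈ VA S c A := by
    have hO : v'.1 ∈ Om := (S.hH c).sub ((S.hH c).cpt.isClosed.frontier_subset v'.2.2)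
    refine ⟨T.cl hO, ?_, ?_, v'.1, ?_, hv'⟩
    · rw [T.cl_set]; exact (S.hH c).cc _ v'.2.2
    · rw [T.cl_set]; exact T.self_mem_cc _
    · rw [T.cl_set]; exact T.self_mem_cc _
  rcases hh with ⟨e, he, j, w, hj, hwe, hw, rfl⟩ | ⟨j, v, hvA, hj, hv, rfl⟩
  · exact ends_hp hmon hmonT hD hX he hwe hj hw hhX hl
  · exact ends_vp hmon hmonT hD hX hj (Yl_471.join (h3 := h3) hA hAc hAf hvA hvt)
      (fun h1 => hR _ (tt.rgn c a j v' h1)) hv hhX hl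

end abstract_

variable {δ κ0 R c0 : ℝ} {La Om : Set E3} {ι : Type} {Φ : FoamD δ κ0 R c0 La} {T : Tiling Om ι}
  {f g : E3 → E3} {κ1 κ2 μ : ℝ} {X : Set Φ.F} {J0 J V : Φ.F → Set ι}
  {ct ct' : Φ.F → ι} {A : Φ.F → E3 ≃ᵃ[ℝ] E3} {lam : Φ.F → ℝ} {z : Φ.F → E3}
  {θ : Φ.F → E3 → E3} {φ : Φ.F → E3 → ℝ} {r₀ : Φ.F → ℝ}
  {L : Φ.F → Finset ℝ} [Nonempty (JJ Φ L)] {hG : GF Φ r₀ T f L} {bp : JJ Φ L → E3}
  {N' : BM Φ X → Set ℝ} {ρ1 ρ2 ρ3 ρ4 d : Φ.F → ℝ} {q₀ : BM Φ X → E3} {ε : BM Φ X → ℝ}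
  {bm : BM Φ X → E3} {hGB : GFB Φ r₀ T f L (lRc Φ X μ ρ1 ρ3 d) ε}
  {v0F v1F : ∀ c, Φ.F → VxK T (KT T J X) c} {v0B v1B : ∀ c, BM Φ X → VxK T (KT T J X) c}
  {hLa : IsOpen La} {hC : Cores Φ T f κ1 κ2 X J0 J V ct A lam z θ φ}
  {n : Ti X → ℕ} {hn : ∀ c, 0 < n c} {r : JJ Φ L ⊕ BM Φ X → E3}
  {Sf : JJ Φ L ⊕ BM Φ X → Set E3}
  {Lv : ∀ c, Φ.F ⊕ BM Φ X → Lev T (frontier ((slC hLa hC n hn).K c)) (JJ Φ L ⊕ BM Φ X)}
  {Tw : Twrs ((slC hLa hC n hn).sh fr3) (slC hLa hC n hn).n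
    (outK (slC hLa hC n hn).hH (slC hLa hC n hn).dis (stB hGB bp bm) r)}
  {l0' : E3 → JJ Φ L ⊕ BM Φ X}

/-- the zone of the low end on the frontier of the core of the barrier `m` -/
def ZLo (Φ : FoamD δ κ0 R c0 La) (T : Tiling Om ι) {X : Set Φ.F} (J : Φ.F → Set ι)
    (θ : Φ.F → E3 → E3) (m : BM Φ X) (t : ℝ) : Set E3 :=
  {x | x ∈ frontier (KJ T (J m.co)) ∧ sb Φ (θ m.co x) m.am ≤ t}

/-- the zone of the high end on the frontier of the core of the barrier `m` -/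
def ZHi (Φ : FoamD δ κ0 R c0 La) (T : Tiling Om ι) {X : Set Φ.F} (J : Φ.F → Set ι)
    (θ : Φ.F → E3 → E3) (m : BM Φ X) (t : ℝ) : Set E3 :=
  {x | x ∈ frontier (KJ T (J m.co)) ∧ 1 - t ≤ sb Φ (θ m.co x) m.am}

section s2

variable (N : NumD δ κ0 R c0 κ2 μ κ1) (H : Hm f g Om La)
  (bar : BarOut Φ T f κ1 μ X J0 J V θ hG bp N' ρ1 ρ2 ρ3 ρ4 d q₀ ε bm hGB v0B v1B)
  (D : DIn (slC hLa hC n hn).hH (stB hGB bp bm) r Sf (nbA Φ X) (vS v0F v0B) (vS v1F v1B)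
    (uA Φ hLa X θ) (AA Φ X μ κ1) (BA Φ X μ))
  (lo : LevOut (Kc := (slC hLa hC n hn).K) (stB hGB bp bm) (nbA Φ X) (uA Φ hLa X θ)
    (AA Φ X μ κ1) (BA Φ X μ) Lv)
  (tt : TwOut (slC hLa hC n hn) fr3 (stB hGB bp bm) r (vS v0F v0B) (vS v1F v1B) Lv Tw)
  (mon : Dff_539.Mon (slC hLa hC n hn) fr3 Lv Tw)
  (monT : ∀ c a j, ∀ w ∈ (trc (slC hLa hC n hn).hH (slC hLa hC n hn).dis (stB hGB bp bm)
      r c a).P, w ∈ ((Tw.tw c a).pat (j + 1)).P → w ∈ ((Tw.tw c a).pat j).P)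
include N H bar D lo

/-- **471's `Reg` for the barriers of record** -/
theorem reg_m (m : BM Φ X) :
    Lv3_471.Reg (S := slC hLa hC n hn) (stB hGB bp bm) (vS v0F v0B) (vS v1F v1B) Lv r (coT m) m
      (fun x => sb Φ (θ m.co x) m.am) (fun x => Φ.lev m.am (f x)) (μ / 4) (Cn δ R * κ1)
      ((2 * Cn δ R + 1) * κ1) := by
  have hμ := N.hμ
  have hμb := N.hμb
  have hcn := N.cn0
  have h4 := N.cn4
  have hκ := N.hκ
  have hr := (bar.rm m.co m.co_notMem).2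
  have hT := hC.tiny m.co m.co_notMem
  refine Rgb_527.reg_moat (X := X) (J0 := J0) (Jt := J) (V := V) (n := n) (hn := hn)
    (s := stB hGB bp bm) (r := r) hLa N.hδ N.hR N.hκ.le N.cn1 hC D lo (c := coT m) (m := m)
    (show coT m = coT m from rfl) (mo_pq m) (N := Nb Φ hLa m.co) (mo_p (mo_pq m)) (mo_m (mo_pq m))
    (fun e he => mem_Nb.2 he) rfl ?_ (α := 9 * μ / 32) (β := 1 - 9 * μ / 32)
    (l := μ / 8 * (1 + μ / 16)) ?_ ?_ ?_ ?_ ?_ (t := μ / 4) (by linarith) (by linarith)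
    (by nlinarith) (by nlinarith) (by nlinarith)
  · intro w hw hwf e
    have hcl : IsClosed (KJ T (J m.co)) :=
      (hT.finV.subset hT.sub).isClosed_biUnion fun i _ => isClosed_P _
    have hwK : w ∈ KJ T (J m.co) := hcl.frontier_subset hwf
    obtain ⟨i, hi, hwi⟩ := mem_iUnion₂.1 hwK
    obtain ⟨h1, h2⟩ := hr.fr w hwf
    exact Dup_534.BarsO.lev01_tile hLa H hT hr (T.sub i hwi) (by linarith [hr.r12, hr.d0])
      (by linarith [hr.r34, hr.d0]) e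
  · intro w hw hwf hl
    obtain ⟨g1, g2⟩ := bar.lev m w hw hl
    have e1 : Fm m.am m.Zm (fun e => Φ.lev e (f w)) / (μ / 8) ≤ 1 + μ / 16 :=
      (le_max_left _ _).trans g2
    have e2 : |Φ.lev m.am (f w) - 1 / 2| / (1 / 2 - 5 * μ / 16) ≤ 1 + μ / 16 :=
      (le_max_right _ _).trans g2
    rw [div_le_iff₀ N.l0] at e1
    rw [div_le_iff₀ N.ra0] at e2
    have e3 := abs_le.1 e2
    refine ⟨?_, ?_, by linarith⟩
    · nlinarith [e3.1]
    · nlinarith [e3.2]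
  · show 0 < 3 * μ / 16
    linarith
  · show μ / 8 * (1 + μ / 16) + (3 * Cn δ R + 1) * κ1 < 3 * μ / 16
    nlinarith
  · show 3 * μ / 16 ≤ 1 - (2 * Cn δ R + 1) * κ1
    nlinarith
  · show 3 * μ / 16 < 1
    linarith

include tt mon monT

/-- **UPDOWN over the zone of the low end** -/
theorem updown_lo (m : BM Φ X) {t : ℝ} (ht : μ / 4 ≤ t) (ht1 : t < 1) {Y : Set E3}
    (hY : Vcl Tw l0' (coT m) (EA (slC hLa hC n hn) (coT m) (ZLo Φ T J θ m t)) (Sum.inr m) Y)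
    {h : E3} (hh : h ∈ Y) (hl : (s2 (slC hLa hC n hn) fr3 Tw l0').lab h = Sum.inr m)
    (hf : (∃ e ∈ EA (slC hLa hC n hn) (coT m) (ZLo Φ T J θ m t), ∃ j w,
        j ≤ (slC hLa hC n hn).n (coT m) ∧ w ∈ e.1.opn ∧
        w ∈ ((Tw.tw (coT m) (Sum.inr m)).pat j).P ∧ h = (slC hLa hC n hn).hp (coT m) j w) ∨
      ∃ j, ∃ v ∈ VA (slC hLa hC n hn) (coT m) (ZLo Φ T J θ m t),
        j < (slC hLa hC n hn).n (coT m) ∧ v ∈ ((Tw.tw (coT m) (Sum.inr m)).mv j).Qv ∧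
        h = (slC hLa hC n hn).vc (coT m) v.1 j) :
    Ends Tw l0' (coT m) (Sum.inr m) (EA (slC hLa hC n hn) (coT m) (ZLo Φ T J θ m t))
      (Sum.inr m) Y := by
  have hμ := N.hμ
  have hT := hC.tiny m.co m.co_notMem
  obtain ⟨v', g1, g2⟩ := (reg_m (r := r) (Lv := Lv) N H bar D lo m).vlo
  obtain ⟨e1, e2⟩ := Rgl_527.lo_set hLa hT m.am (t := t) (by linarith) ht1
  exact ends_region (A := ZLo Φ T J θ m t) tt (fun j w h1 h2 => mon (coT m) (Sum.inr m) j w h2 h1)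
    (fun j w h1 h2 => monT (coT m) (Sum.inr m) j w h2 h1) e1 e2 (fun x hx => hx.1)
    (v' := v') ⟨v'.2.2, le_trans g1 ht⟩ g2 hY hh hl hf

/-- **UPDOWN over the zone of the high end** -/
theorem updown_hi (m : BM Φ X) {t : ℝ} (ht : μ / 4 ≤ t) (ht1 : t < 1) {Y : Set E3}
    (hY : Vcl Tw l0' (coT m) (EA (slC hLa hC n hn) (coT m) (ZHi Φ T J θ m t)) (Sum.inr m) Y)
    {h : E3} (hh : h ∈ Y) (hl : (s2 (slC hLa hC n hn) fr3 Tw l0').lab h = Sum.inr m)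
    (hf : (∃ e ∈ EA (slC hLa hC n hn) (coT m) (ZHi Φ T J θ m t), ∃ j w,
        j ≤ (slC hLa hC n hn).n (coT m) ∧ w ∈ e.1.opn ∧
        w ∈ ((Tw.tw (coT m) (Sum.inr m)).pat j).P ∧ h = (slC hLa hC n hn).hp (coT m) j w) ∨
      ∃ j, ∃ v ∈ VA (slC hLa hC n hn) (coT m) (ZHi Φ T J θ m t),
        j < (slC hLa hC n hn).n (coT m) ∧ v ∈ ((Tw.tw (coT m) (Sum.inr m)).mv j).Qv ∧
        h = (slC hLa hC n hn).vc (coT m) v.1 j) :
    Ends Tw l0' (coT m) (Sum.inr m) (EA (slC hLa hC n hn) (coT m) (ZHi Φ T J θ m t))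
      (Sum.inr m) Y := by
  have hμ := N.hμ
  have hT := hC.tiny m.co m.co_notMem
  have hac : m.am ≠ m.co := fun h => (mo_pq m).aZ (h ▸ (mo_pq m).cZ)
  obtain ⟨v', g1, g2⟩ := (reg_m (r := r) (Lv := Lv) N H bar D lo m).vhi
  obtain ⟨e1, e2⟩ := Rgl_527.hi_set hLa hT hac (t := 1 - t) (by linarith) (by linarith)
  exact ends_region (A := ZHi Φ T J θ m t) tt (fun j w h1 h2 => mon (coT m) (Sum.inr m) j w h2 h1)
    (fun j w h1 h2 => monT (coT m) (Sum.inr m) j w h2 h1) e1 e2 (fun x hx => hx.1)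
    (v' := v') ⟨v'.2.2, le_trans (by linarith) g1⟩ g2 hY hh hl hf

end s2

end Crest.Agent.R096.Upd_567
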