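import Crest.Agent.R096.Lv4_471
import Crest.Agent.R096.Ne1_892

/-!
# R096 (row 96), DOORS, NEWIN (helper645), piece B6: UPDOWN over the end zones

* `PosF`     : the positions of the points of the families only (levels in `[σ₁, 1 - σ₁]`), so that
  `σ₁` may be close to `μ / 2`;
* `on_vf_levF` : 471's `on_vf_lev` over `PosF`;
* `updown_lo`, `updown_hi` : a barrier point in the layers whose foot has level `≤ σ`
  (`≥ 1 - σ`), in a set closed under the barrier chords on the faces without points of its family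
  and without frozen points: the set contains a trace point near the zone.
-/

set_option autoImplicit false
set_option linter.unusedSectionVars false
set_option linter.style.longLine false

open Set Module
open scoped Classical

namespace Crest.Agent.R096.Upd_645

open Crest.Agent.R096.Msh_715 Crest.Agent.R096.Agl5_543 Crest.Agent.R096.St_147
  Crest.Agent.R096.Seq_213 Crest.Agent.R096.Door_501 Crest.Agent.R096.Sla_184
  Crest.Agent.R096.Twr_438 Crest.Agent.R096.Exa_560 Crest.Agent.R096.Ess3_95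
  Crest.Agent.R096.Ess4_95 Crest.Agent.R096.Dfi_539 Crest.Agent.R096.Dfi_471
  Crest.Agent.R096.Yl_471 Crest.Agent.R096.Dfo_539 Crest.Agent.R096.Lv3_471
  Crest.Agent.R096.Ne_892
open Crest.Agent.R096.Sla_184.Sla (hf vf old tg F0 Fn Out OnS InL In)
open Crest.Agent.R096.St_147.St (Frozen)

variable {E : Type} [NormedAddCommGroup E] [NormedSpace ℝ E] [FiniteDimensional ℝ E]
variable {Om : Set E} {ι : Type} {T : Tiling Om ι} {κ : Type} {S : Sla T κ}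
  {h3 : finrank ℝ E = 3} {J C Mo : Type} {fam : J → C} [Nonempty (J ⊕ Mo)]
  {s : GSt (meshC T h3) (Sum.map fam (id : Mo → Mo))} {r : J ⊕ Mo → E} {Sf : J ⊕ Mo → Set E}
  {nb : κ → C ⊕ Mo → Prop}
  {v0 v1 : ∀ c, C ⊕ Mo → VxK T S.K c} {u : κ → C ⊕ Mo → E → ℝ} {A B : κ → C ⊕ Mo → ℝ}
  {L : ∀ c, C ⊕ Mo → Lev T (frontier (S.K c)) (J ⊕ Mo)}
  {Tw : Twrs (S.sh h3) S.n (outK S.hH S.dis s r)} {l0 : E → J ⊕ Mo}
  {c : κ} {a : C} {m : Mo} {j : ℕ} {w x y : E}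

/-- the positions of the points of the families in the state with barriers (471's `Pos` without
the clause for the barriers) -/
structure PosF (s : GSt (meshC T h3) (Sum.map fam (id : Mo → Mo))) (nb : κ → C ⊕ Mo → Prop)
    (v0 v1 : ∀ c, C ⊕ Mo → VxK T S.K c) (u : κ → C ⊕ Mo → E → ℝ) (A B : κ → C ⊕ Mo → ℝ)
    (L : ∀ c, C ⊕ Mo → Lev T (frontier (S.K c)) (J ⊕ Mo)) (r : J ⊕ Mo → E) (lv : C → E → ℝ)
    (σ₁ e : ℝ) : Prop where
  tr : ∀ w ∈ s.P, ∀ j, s.lab w = Sum.inl j → σ₁ ≤ lv (fam j) w ∧ lv (fam j) w ≤ 1 - σ₁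
  nr : ∀ c a, nb c (Sum.inl a) → ∀ x ∈ frontier (S.K c), |u c (Sum.inl a) x - lv a x| ≤ e
  win : ∀ c a, nb c (Sum.inl a) → σ₁ + e ≤ A c (Sum.inl a) ∧ B c (Sum.inl a) ≤ 1 - (σ₁ + e)
  rg : ∀ c a, nb c (Sum.inl a) → ∀ i, ∀ v : S.Vx c,
    Rgn (S.sh h3 c) (v0 c (Sum.inl a)) (v1 c (Sum.inl a)) (trc S.hH S.dis s r c (Sum.inl a))
      (exa h3 S.hH S.dis (L c (Sum.inl a))) i v → σ₁ ≤ lv a v.1 ∧ lv a v.1 ≤ 1 - σ₁

variable {lv : C → E → ℝ} {am : Mo → C} {σ σ₁ e ε t : ℝ}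

/-- **the points of a family on a vertical face**: the edge carries a point with level in
`[σ₁, 1 - σ₁]` -/
theorem on_vf_levF (D : DIn S.hH s r Sf nb v0 v1 u A B) (lo : LevOut s nb u A B L)
    (tt : TwOut S h3 s r v0 v1 L Tw) (hp : PosF (S := S) s nb v0 v1 u A B L r lv σ₁ e)
    {e' : S.Ed c} (hj : j < S.n c) (hy : y ∈ (s2 S h3 Tw l0).P)
    (hF : y ∈ (S.mn h3).On (vf h3 e' j)) {i : J} (hl : (s2 S h3 Tw l0).lab y = Sum.inl i) :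
    ∃ q ∈ e'.1.set, q ∈ frontier (S.K c) ∧ σ₁ ≤ lv (fam i) q ∧ lv (fam i) q ≤ 1 - σ₁ := by
  obtain ⟨a', x0, h1, h2, h4, -⟩ := on_vf hj hy hF
  -- points of the patterns
  have key : ∀ j', j' ≤ S.n c → ∀ q, q ∈ ((Tw.tw c a').pat j').P → q ∈ e'.1.opn →
      (s2 S h3 Tw l0).lab (S.hp c j' q) = Sum.inl i →
      ∃ q ∈ e'.1.set, q ∈ frontier (S.K c) ∧ σ₁ ≤ lv (fam i) q ∧ lv (fam i) q ≤ 1 - σ₁ := by
    intro j' hj' q hq hqe hlq
    have h5 := lab_hp (l0 := l0) hj' hq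
    rw [hlq] at h5
    have h6 := Tw.labj hq
    rw [← h5] at h6
    have h7 : a' = Sum.inl (fam i) := h6.symm
    subst h7
    have hqf : q ∈ frontier (S.K c) := Sla.ed_opn_fr e' hqe
    refine ⟨q, e'.1.opn_sub hqe, hqf, ?_⟩
    rcases tt.fits c _ j' q hq with ⟨g1, g2, -⟩ | ⟨g1, g2, -⟩
    · obtain ⟨k1, -, -⟩ := trc_P g1
      have k2 : s.lab q = Sum.inl i := by
        have : (trc S.hH S.dis s r c (Sum.inl (fam i))).lab q = s.lab q := rfl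
        rw [← this, ← g2, ← h5]
      exact hp.tr q k1 i k2
    · obtain ⟨k1, k2⟩ := exa_lab (L c _) g1
      have k4 := lo.win c _ _ k1
      have k5 := ((lo.mem c _ _).1 k1).2
      have k6 := hp.nr c _ k5 q hqf
      have k7 := hp.win c _ k5
      rw [← k2, lo.u c] at k4
      rw [abs_le] at k6
      constructor <;> linarith [k4.1, k4.2, k6.1, k6.2, k7.1, k7.2]
  rcases x0 with q | q | v
  · have g1 := ((Tw.tw c a').mv j).top_mem_P'.1 h1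
    have g2 : q ∈ e'.1.opn := (S.sh h3 c).top_mem_vert.1 h2
    have e1 : y = S.hp c j q := h4
    rw [e1] at hl
    exact key j hj.le q g1 g2 hl
  · have g1 := Twrs.mem_B.1 (((Tw.tw c a').mv j).bot_mem_P'.1 h1)
    have g2 : q ∈ e'.1.opn := (S.sh h3 c).bot_mem_vert.1 h2
    have e1 : y = S.hp c (j + 1) q := h4
    rw [e1] at hl
    exact key (j + 1) hj q g1 g2 hl
  · have g1 := ((Tw.tw c a').mv j).vert_mem_P'.1 h1
    have e1 : y = S.vc c v.1 j := h4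
    rw [e1] at hl
    have h5 := lab_vp (l0 := l0) hj g1
    rw [hl] at h5
    have h6 := Tw.labv g1
    rw [← h5] at h6
    have h7 : a' = Sum.inl (fam i) := h6.symm
    subst h7
    have g2 : ∃ b, (S.sh h3 c).en e' b = v := by
      rcases h2 with ⟨_, _, h⟩ | ⟨_, _, h⟩ | ⟨b', h⟩
      · cases h
      · cases h
      · exact ⟨b', (Sum.inr.inj (Sum.inr.inj h)).symm⟩
    refine ⟨v.1, (endK_iff e' v).1 g2, v.2.2, ?_⟩
    exact hp.rg c _ (qv_nb D tt g1) _ v (tt.rgn c _ j v g1)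

/-- the giant point over an exact point of the bottom is on a frozen face -/
theorem bot_frozen {Act : Set (T.RIdx S.HH ⊕ κ)} (hgi : Sum.inr c ∉ Act) {e' : S.Ed c}
    (h1 : w ∈ e'.1.opn) :
    ∃ G : (S.sh h3 c).Fk, S.hp c (S.n c) w ∈ (S.mn h3).On (hf G (S.n c)) ∧
      Frozen (S.mn h3) Act (hf G (S.n c)) := by
  let G : (S.sh h3 c).Fk := ⟨(S.sh h3 c).fc e' false, (S.sh h3 c).fc_side e' false⟩
  have hG : S.hp c (S.n c) w ∈ (S.mn h3).On (hf G (S.n c)) :=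
    (Sla.on_hf le_rfl).2 ⟨w, (S.sh h3 c).on_of_onE (e := e') h1 false, rfl⟩
  refine ⟨G, hG, Sum.inr c, ?_, hgi⟩
  have h7 : (S.n c - 1) + 1 = S.n c := by
    have := S.npos c
    omega
  have h8 : (S.mn h3).side (hf G (S.n c)) = s(Sum.inl (tg G (S.n c - 1)), Sum.inr c) :=
    ((S.cols h3).cl c).side_bot G h7
  rw [h8]
  exact Sym2.mem_mk_right _ _

/-- **UPDOWN over a region** `Y` of the sphere (compact, connected, no point of the family over it,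
a vertex which never moves) -/
theorem updown_Y (D : DIn S.hH s r Sf nb v0 v1 u A B) (lo : LevOut s nb u A B L)
    (tt : TwOut S h3 s r v0 v1 L Tw) (hp : PosF (S := S) s nb v0 v1 u A B L r lv σ₁ e)
    (hmon : Mon Tw c (Sum.inr m) {w | w ∈ (exa h3 S.hH S.dis (L c (Sum.inr m))).P})
    (hmonT : Mon0 Tw c (Sum.inr m) {w | w ∈ (trc S.hH S.dis s r c (Sum.inr m)).P})
    {Act : Set (T.RIdx S.HH ⊕ κ)} (hgi : Sum.inr c ∉ Act)
    (hl : (s2 S h3 Tw l0).lab y = Sum.inr m)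
    {X : Set E} (hyX : y ∈ X)
    (hXc : ∀ F x, x ∈ X → (s2 S h3 Tw l0).At F x → (s2 S h3 Tw l0).lab x = Sum.inr m →
      (∀ z, (s2 S h3 Tw l0).At F z → ∀ i, (s2 S h3 Tw l0).lab z = Sum.inl i → fam i ≠ am m) →
      (s2 S h3 Tw l0).mu F x ∈ X)
    (hXf : ∀ F x, x ∈ X → (s2 S h3 Tw l0).At F x → (s2 S h3 Tw l0).lab x = Sum.inr m →
      ¬ Frozen (S.mn h3) Act F)
    {Y : Set E} (hY : IsCompact Y) (hYc : IsPreconnected Y) (hYf : Y ⊆ frontier (S.K c))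
    (hclean : ∀ q : T.Cell, q.set ⊆ frontier (S.K c) → (q.set ∩ Y).Nonempty → ∀ x ∈ q.set,
        ¬ (σ₁ ≤ lv (am m) x ∧ lv (am m) x ≤ 1 - σ₁))
    {v' : S.Vx c} (hv' : v'.1 ∈ Y)
    (hR : ∀ i, ¬ Rgn (S.sh h3 c) (v0 c (Sum.inr m)) (v1 c (Sum.inr m))
        (trc S.hH S.dis s r c (Sum.inr m)) (exa h3 S.hH S.dis (L c (Sum.inr m))) i v')
    (hh : (∃ j w, j ≤ S.n c ∧ w ∈ ((Tw.tw c (Sum.inr m)).pat j).P ∧ w ∈ Y ∧ y = S.hp c j w) ∨
        ∃ j, ∃ v : S.Vx c, j < S.n c ∧ v ∈ ((Tw.tw c (Sum.inr m)).mv j).Qv ∧ v.1 ∈ Y ∧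
          y = S.vc c v.1 j) :
    ∃ e' ∈ EA S c Y, ∃ w, w ∈ e'.1.opn ∧ w ∈ (trc S.hH S.dis s r c (Sum.inr m)).P ∧ w ∈ X ∧
      (s2 S h3 Tw l0).lab w = Sum.inr m := by
  have hX : Vcl Tw l0 c (EA S c Y) (Sum.inr m) X := by
    rintro e' ⟨q, hq, heq, hqY⟩ j hj x hx hxP hxl hxF
    refine hXc _ x hx ⟨hxP, hxF⟩ hxl ?_
    rintro z ⟨hz, hzF⟩ i hzl hzi
    obtain ⟨q', h1, h2, h4⟩ := on_vf_levF D lo tt hp hj hz hzF hzl
    rw [hzi] at h4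
    exact hclean q hq hqY q' (heq h1) h4
  obtain ⟨e', he', w, h1, h2⟩ := y_three tt hmon hmonT hY hYc hYf hv' hR hX hyX hl hh
  rcases h2 with ⟨h2, h4, h5, h6⟩ | ⟨h2, h4, h5⟩
  · exfalso
    obtain ⟨G, hG, hfr⟩ := bot_frozen (h3 := h3) (S := S) hgi h1
    exact hXf _ _ h4 ⟨h5, hG⟩ h6 hfr
  · exact ⟨e', he', w, h1, h2, h4, h5⟩

/-- **UPDOWN, low end**: all points of the sphere on the tile of the barrier point have level
`≤ σ` -/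
theorem updown_lo (D : DIn S.hH s r Sf nb v0 v1 u A B) (lo : LevOut s nb u A B L)
    (tt : TwOut S h3 s r v0 v1 L Tw) (hp : PosF (S := S) s nb v0 v1 u A B L r lv σ₁ e)
    (hmon : Mon Tw c (Sum.inr m) {w | w ∈ (exa h3 S.hH S.dis (L c (Sum.inr m))).P})
    (hmonT : Mon0 Tw c (Sum.inr m) {w | w ∈ (trc S.hH S.dis s r c (Sum.inr m)).P})
    {ua : E → ℝ} (hr : Reg (S := S) s v0 v1 L r c m ua (lv (am m)) t e ε)
    (ht : σ + e ≤ t) (htε : t + ε + e < σ₁)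
    {Act : Set (T.RIdx S.HH ⊕ κ)} (hgi : Sum.inr c ∉ Act)
    (hy : y ∈ (s2 S h3 Tw l0).P) (hl : (s2 S h3 Tw l0).lab y = Sum.inr m) (hc : S.In c y)
    {X : Set E} (hyX : y ∈ X)
    (hXc : ∀ F x, x ∈ X → (s2 S h3 Tw l0).At F x → (s2 S h3 Tw l0).lab x = Sum.inr m →
      (∀ z, (s2 S h3 Tw l0).At F z → ∀ i, (s2 S h3 Tw l0).lab z = Sum.inl i → fam i ≠ am m) →
      (s2 S h3 Tw l0).mu F x ∈ X)
    (hXf : ∀ F x, x ∈ X → (s2 S h3 Tw l0).At F x → (s2 S h3 Tw l0).lab x = Sum.inr m →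
      ¬ Frozen (S.mn h3) Act F) {p : T.RIdx S.HH} (hyp : y ∈ P (S.T3.H p))
    (hz : ∀ x ∈ P (T.H p.tile), x ∈ frontier (S.K c) → lv (am m) x ≤ σ) :
    ∃ e' : S.Ed c, ∃ w, w ∈ e'.1.opn ∧ w ∈ (trc S.hH S.dis s r c (Sum.inr m)).P ∧ w ∈ X ∧
      (s2 S h3 Tw l0).lab w = Sum.inr m ∧ lv (am m) w ≤ t + ε + e := by
  have hfam : Sum.map fam (id : Mo → Mo) ((s2 S h3 Tw l0).lab y) = Sum.inr m := by
    rw [hl]; rfl
  have hclean : ∀ q : T.Cell, q.set ⊆ frontier (S.K c) →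
      (q.set ∩ {x | x ∈ frontier (S.K c) ∧ ua x ≤ t}).Nonempty → ∀ x ∈ q.set,
        lv (am m) x ≤ t + ε + e := by
    rintro q hq ⟨z, hz, -, hzt⟩ x hx
    have h2 := abs_le.1 (hr.osc q hq x hx z hz)
    have h4 := abs_le.1 (hr.nr x (hq hx))
    linarith [h2.1, h2.2, h4.1, h4.2]
  obtain ⟨v', k1, k2⟩ := hr.vlo
  have fin : ∀ q, q ∈ frontier (S.K c) → q ∈ P (T.H p.tile) →
      q ∈ {x | x ∈ frontier (S.K c) ∧ ua x ≤ t} := by
    intro q hq hqp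
    have h1 := abs_le.1 (hr.nr q hq)
    have h2 := hz q hqp hq
    exact ⟨hq, by linarith [h1.1, h1.2]⟩
  have hin := (in2 D lo tt hy hc).2
  rw [hfam] at hin
  have hh : (∃ j w, j ≤ S.n c ∧ w ∈ ((Tw.tw c (Sum.inr m)).pat j).P ∧
      w ∈ {x | x ∈ frontier (S.K c) ∧ ua x ≤ t} ∧ y = S.hp c j w) ∨
        ∃ j, ∃ v : S.Vx c, j < S.n c ∧ v ∈ ((Tw.tw c (Sum.inr m)).mv j).Qv ∧
          v.1 ∈ {x | x ∈ frontier (S.K c) ∧ ua x ≤ t} ∧ y = S.vc c v.1 j := by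
    rcases hin with ⟨j, q, h1, h2, h4, h5, h6, -, -⟩ | ⟨j, v, h1, h2, h4, -⟩
    · obtain ⟨e', he'⟩ := pat_onE h4
      obtain ⟨g1, g2, g4, g5⟩ := at_hp e' he' h1 h2
      have hqp : q ∈ P (T.H p.tile) := (at3_O g2 (h5 ▸ g4) hc hyp).1
      exact Or.inl ⟨j, q, h2, h4, fin q h6 hqp, h5⟩
    · obtain ⟨g1, g2, g4, g5⟩ := at_vc (S := S) v h1
      have hqp : v.1 ∈ P (T.H p.tile) := (at3_O g2 (h4 ▸ g4) hc hyp).1
      exact Or.inr ⟨j, v, h1, h2, fin v.1 g2 hqp, h4⟩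
  obtain ⟨e', ⟨q, hq, heq, hqY⟩, w, h1, h2, h4, h5⟩ := updown_Y D lo tt hp hmon hmonT hgi hl hyX
    hXc hXf hr.lo.1 hr.lo.2 (fun x hx => hx.1)
    (fun q hq hqY x hx h => by linarith [hclean q hq hqY x hx, h.1])
    (v' := v') ⟨v'.2.2, k1⟩ k2 hh
  exact ⟨e', w, h1, h2, h4, h5, hclean q hq hqY w (heq (e'.1.opn_sub h1))⟩

/-- **UPDOWN, high end** -/
theorem updown_hi (D : DIn S.hH s r Sf nb v0 v1 u A B) (lo : LevOut s nb u A B L)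
    (tt : TwOut S h3 s r v0 v1 L Tw) (hp : PosF (S := S) s nb v0 v1 u A B L r lv σ₁ e)
    (hmon : Mon Tw c (Sum.inr m) {w | w ∈ (exa h3 S.hH S.dis (L c (Sum.inr m))).P})
    (hmonT : Mon0 Tw c (Sum.inr m) {w | w ∈ (trc S.hH S.dis s r c (Sum.inr m)).P})
    {ua : E → ℝ} (hr : Reg (S := S) s v0 v1 L r c m ua (lv (am m)) t e ε)
    (ht : σ + e ≤ t) (htε : t + ε + e < σ₁)
    {Act : Set (T.RIdx S.HH ⊕ κ)} (hgi : Sum.inr c ∉ Act)
    (hy : y ∈ (s2 S h3 Tw l0).P) (hl : (s2 S h3 Tw l0).lab y = Sum.inr m) (hc : S.In c y)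
    {X : Set E} (hyX : y ∈ X)
    (hXc : ∀ F x, x ∈ X → (s2 S h3 Tw l0).At F x → (s2 S h3 Tw l0).lab x = Sum.inr m →
      (∀ z, (s2 S h3 Tw l0).At F z → ∀ i, (s2 S h3 Tw l0).lab z = Sum.inl i → fam i ≠ am m) →
      (s2 S h3 Tw l0).mu F x ∈ X)
    (hXf : ∀ F x, x ∈ X → (s2 S h3 Tw l0).At F x → (s2 S h3 Tw l0).lab x = Sum.inr m →
      ¬ Frozen (S.mn h3) Act F) {p : T.RIdx S.HH} (hyp : y ∈ P (S.T3.H p))
    (hz : ∀ x ∈ P (T.H p.tile), x ∈ frontier (S.K c) → 1 - σ ≤ lv (am m) x) :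
    ∃ e' : S.Ed c, ∃ w, w ∈ e'.1.opn ∧ w ∈ (trc S.hH S.dis s r c (Sum.inr m)).P ∧ w ∈ X ∧
      (s2 S h3 Tw l0).lab w = Sum.inr m ∧ 1 - (t + ε + e) ≤ lv (am m) w := by
  have hfam : Sum.map fam (id : Mo → Mo) ((s2 S h3 Tw l0).lab y) = Sum.inr m := by
    rw [hl]; rfl
  have hclean : ∀ q : T.Cell, q.set ⊆ frontier (S.K c) →
      (q.set ∩ {x | x ∈ frontier (S.K c) ∧ 1 - t ≤ ua x}).Nonempty → ∀ x ∈ q.set,
        1 - (t + ε + e) ≤ lv (am m) x := by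
    rintro q hq ⟨z, hz, -, hzt⟩ x hx
    have h2 := abs_le.1 (hr.osc q hq x hx z hz)
    have h4 := abs_le.1 (hr.nr x (hq hx))
    linarith [h2.1, h2.2, h4.1, h4.2]
  obtain ⟨v', k1, k2⟩ := hr.vhi
  have fin : ∀ q, q ∈ frontier (S.K c) → q ∈ P (T.H p.tile) →
      q ∈ {x | x ∈ frontier (S.K c) ∧ 1 - t ≤ ua x} := by
    intro q hq hqp
    have h1 := abs_le.1 (hr.nr q hq)
    have h2 := hz q hqp hq
    exact ⟨hq, by linarith [h1.1, h1.2]⟩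
  have hin := (in2 D lo tt hy hc).2
  rw [hfam] at hin
  have hh : (∃ j w, j ≤ S.n c ∧ w ∈ ((Tw.tw c (Sum.inr m)).pat j).P ∧
      w ∈ {x | x ∈ frontier (S.K c) ∧ 1 - t ≤ ua x} ∧ y = S.hp c j w) ∨
        ∃ j, ∃ v : S.Vx c, j < S.n c ∧ v ∈ ((Tw.tw c (Sum.inr m)).mv j).Qv ∧
          v.1 ∈ {x | x ∈ frontier (S.K c) ∧ 1 - t ≤ ua x} ∧ y = S.vc c v.1 j := by
    rcases hin with ⟨j, q, h1, h2, h4, h5, h6, -, -⟩ | ⟨j, v, h1, h2, h4, -⟩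
    · obtain ⟨e', he'⟩ := pat_onE h4
      obtain ⟨g1, g2, g4, g5⟩ := at_hp e' he' h1 h2
      have hqp : q ∈ P (T.H p.tile) := (at3_O g2 (h5 ▸ g4) hc hyp).1
      exact Or.inl ⟨j, q, h2, h4, fin q h6 hqp, h5⟩
    · obtain ⟨g1, g2, g4, g5⟩ := at_vc (S := S) v h1
      have hqp : v.1 ∈ P (T.H p.tile) := (at3_O g2 (h4 ▸ g4) hc hyp).1
      exact Or.inr ⟨j, v, h1, h2, fin v.1 g2 hqp, h4⟩
  obtain ⟨e', ⟨q, hq, heq, hqY⟩, w, h1, h2, h4, h5⟩ := updown_Y D lo tt hp hmon hmonT hgi hl hyX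
    hXc hXf hr.hi.1 hr.hi.2 (fun x hx => hx.1)
    (fun q hq hqY x hx h => by linarith [hclean q hq hqY x hx, h.2])
    (v' := v') ⟨v'.2.2, k1⟩ k2 hh
  exact ⟨e', w, h1, h2, h4, h5, hclean q hq hqY w (heq (e'.1.opn_sub h1))⟩

end Crest.Agent.R096.Upd_645
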