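import Crest.Agent.R096.Vb9_965

/-! Row 96, P1-TRIV (helper965), part 10: one threshold `e c` for every brick: reparametrisation of
the gauge (`ε = 1/2` afterwards), and the final statements for the foam of 961 with any gauge -/

set_option autoImplicit false
set_option linter.unusedSectionVars false
set_option linter.style.haveILetI false

open Set Topology Filter

namespace Crest.Agent.R096.Vb_965

open Crest.Agent.R096.Coh_184 Crest.Agent.R096.Brk1_582 Crest.Agent.R096.Brk2_582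
open Crest.Agent.R096.Bsp_628 Crest.Agent.R096.Brk3_582
open Crest.Agent.R96.Push_899 Crest.Agent.R096.SkC1_961

/-- piecewise linear homeomorphism of `[0,1]` with `φ e = 1/2` -/
noncomputable def phi (e m : ℝ) : ℝ := min (m / (2 * e)) (1 / 2) + max 0 (m - e) / (2 * (1 - e))

section phi

variable {e m : ℝ} (he : 0 < e) (he1 : e < 1)
include he he1

theorem phi_le (h : m ≤ e) : phi e m = m / (2 * e) := by
  unfold phi
  rw [max_eq_left (by linarith), zero_div, add_zero]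
  refine min_eq_left ?_
  rw [div_le_div_iff₀ (by linarith) (by norm_num)]; linarith

theorem phi_ge (h : e ≤ m) : phi e m = 1 / 2 + (m - e) / (2 * (1 - e)) := by
  unfold phi
  rw [max_eq_right (by linarith), min_eq_right]
  rw [div_le_div_iff₀ (by norm_num) (by linarith)]; linarith

theorem phi_zero : phi e 0 = 0 := by rw [phi_le he he1 he.le]; simp

theorem phi_one : phi e 1 = 1 := by
  rw [phi_ge he he1 he1.le]
  have : (1 - e) ≠ 0 := by linarith
  field_simp; norm_num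

theorem phi_lt {m' : ℝ} (h : m < m') : phi e m < phi e m' := by
  have h1 : 0 < 2 * e := by linarith
  have h2 : 0 < 2 * (1 - e) := by linarith
  rcases le_total m' e with h3 | h3
  · rw [phi_le he he1 h3, phi_le he he1 (h.le.trans h3)]
    exact div_lt_div_of_pos_right h h1
  · rcases le_total m e with h4 | h4
    · rw [phi_le he he1 h4, phi_ge he he1 h3]
      have h5 : m / (2 * e) ≤ 1 / 2 := by
        rw [div_le_div_iff₀ h1 (by norm_num)]; linarith
      have h6 : 0 ≤ (m' - e) / (2 * (1 - e)) := div_nonneg (by linarith) h2.le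
      rcases h4.lt_or_eq with h7 | h7
      · have : m / (2 * e) < 1 / 2 := by
          rw [div_lt_div_iff₀ h1 (by norm_num)]; linarith
        linarith
      · have : 0 < (m' - e) / (2 * (1 - e)) := div_pos (by linarith) h2
        linarith
    · rw [phi_ge he he1 h4, phi_ge he he1 h3]
      have : (m - e) / (2 * (1 - e)) < (m' - e) / (2 * (1 - e)) :=
        div_lt_div_of_pos_right (by linarith) h2
      linarith

theorem phi_strictMono : StrictMono (phi e) := fun _ _ h => phi_lt he he1 h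

omit he he1 in
theorem continuous_phi : Continuous (phi e) := by
  unfold phi
  exact ((continuous_id.div_const _).min continuous_const).add
    ((continuous_const.max (continuous_id.sub continuous_const)).div_const _)

theorem phi_half : phi e e = 1 / 2 := by
  rw [phi_ge he he1 le_rfl]; simp

theorem phi_surj {t : ℝ} (ht : t ∈ Ioc (0 : ℝ) 1) : ∃ m ∈ Ioc (0 : ℝ) 1, phi e m = t := by
  have h1 : t ∈ phi e '' Icc 0 1 := by
    refine intermediate_value_Icc zero_le_one (continuous_phi (e := e)).continuousOn ?_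
    rw [phi_zero he he1, phi_one he he1]
    exact ⟨ht.1.le, ht.2⟩
  obtain ⟨m, hm, rfl⟩ := h1
  refine ⟨m, ⟨lt_of_le_of_ne hm.1 ?_, hm.2⟩, rfl⟩
  intro h
  rw [← h, phi_zero he he1] at ht
  exact lt_irrefl _ ht.1

theorem two_mul_phi : min 1 (phi e m / (1 / 2)) = min 1 (m / e) := by
  rcases le_total m e with h | h
  · rw [phi_le he he1 h]
    congr 1; field_simp
  · rw [min_eq_left, min_eq_left]
    · rw [le_div_iff₀ he]; linarith
    · rw [phi_ge he he1 h, le_div_iff₀ (by norm_num)]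
      have : 0 ≤ (m - e) / (2 * (1 - e)) := div_nonneg (by linarith) (by linarith)
      linarith

end phi

section reparam

variable {E : Type*} [NormedAddCommGroup E] [NormedSpace ℝ E] [CompleteSpace E] {I : Type*}
variable {La : Set E} {P : I → Set E} {b : Set I → E} {N : ℕ} {Ψ : E → E} {μ : E → ℝ}

open Classical in
/-- the reparametrised gauge: `1/2` where `μ = e c` -/
noncomputable def mue (P : I → Set E) (μ : E → ℝ) (e : I → ℝ) (y : E) : ℝ :=
  if h : ∃ c, y ∈ P c then phi (e h.choose) (μ y) else 1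

variable (F : Foam La P b N) (hp : Push La P Ψ μ) {e : I → ℝ} (he : ∀ c, 0 < e c)
  (he1 : ∀ c, e c < 1)
include F hp he he1

theorem mue_eq {c : I} {y : E} (hy : y ∈ P c) : mue P μ e y = phi (e c) (μ y) := by
  have h : ∃ c, y ∈ P c := ⟨c, hy⟩
  have e1 : mue P μ e y = phi (e h.choose) (μ y) := by unfold mue; rw [dif_pos h]
  rw [e1]
  by_cases hc : h.choose = c
  · rw [hc]
  · have h1 := (hp.wall c h.choose hc y hy h.choose_spec).1
    rw [h1, phi_one (he _) (he1 _), phi_one (he _) (he1 _)]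

/-- **one threshold per cell**: the reparametrised gauge is again a push -/
theorem Push.reparam : Push La P Ψ (mue P μ e) := by
  have hpos : ∀ c, ∀ y ∈ P c, 0 < mue P μ e y ↔ 0 < μ y := by
    intro c y hy
    rw [mue_eq F hp he he1 hy]
    have h := (phi_strictMono (he c) (he1 c)).lt_iff_lt (a := 0) (b := μ y)
    rwa [phi_zero (he c) (he1 c)] at h
  refine ⟨?_, ?_, ?_, ?_, ?_, ?_, ?_⟩
  · exact glue_cont F Subset.rfl (gc := fun c y => phi (e c) (μ y))
      (fun c y hy => mue_eq F hp he he1 hy) fun c =>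
        continuous_phi.comp_continuousOn (hp.mu_cont.mono inter_subset_right)
  · intro y hy
    obtain ⟨c, hc⟩ := F.cov y hy
    rw [mue_eq F hp he he1 hc]
    obtain ⟨h1, h2⟩ := hp.mu_mem y hy
    have hm := (phi_strictMono (he c) (he1 c)).monotone
    have h3 := hm h1
    have h4 := hm h2
    rw [phi_zero (he c) (he1 c)] at h3
    rw [phi_one (he c) (he1 c)] at h4
    exact ⟨h3, h4⟩
  · intro c c' hne y hy hy'
    obtain ⟨h1, h2⟩ := hp.wall c c' hne y hy hy'
    exact ⟨by rw [mue_eq F hp he he1 hy, h1, phi_one (he c) (he1 c)], h2⟩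
  · refine hp.cont.mono ?_
    rintro y ⟨hy, hy2⟩
    obtain ⟨c, hc⟩ := F.cov y hy
    exact ⟨hy, (hpos c y hc).1 hy2⟩
  · intro c y hy h0
    exact hp.mem c y hy ((hpos c y hy).1 h0)
  · intro c y hy z hz h0 hm hΨ
    rw [mue_eq F hp he he1 hy, mue_eq F hp he he1 hz] at hm
    exact hp.inj c y hy z hz ((hpos c y hy).1 h0)
      ((phi_strictMono (he c) (he1 c)).injective hm) hΨ
  · intro c c' hne p hpc hpc' t ht
    obtain ⟨m, hm, hmt⟩ := phi_surj (he c) (he1 c) ht
    obtain ⟨y, hy, h1, h2⟩ := hp.surj c c' hne p hpc hpc' m hm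
    exact ⟨y, hy, h1, by rw [mue_eq F hp he he1 hy, h2, hmt]⟩

theorem mue_half_le {c : I} {y : E} (hy : y ∈ P c) : 1 / 2 ≤ mue P μ e y ↔ e c ≤ μ y := by
  rw [mue_eq F hp he he1 hy, ← phi_half (he c) (he1 c)]
  exact (phi_strictMono (he c) (he1 c)).le_iff_le

theorem mue_pos {c : I} {y : E} (hy : y ∈ P c) : 0 < mue P μ e y ↔ 0 < μ y := by
  rw [mue_eq F hp he he1 hy]
  have h := (phi_strictMono (he c) (he1 c)).lt_iff_lt (a := 0) (b := μ y)
  rwa [phi_zero (he c) (he1 c)] at h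

end reparam

/-! ### final statements for `FoamD`, gauge `μ` with `ε = 1/2` -/

section final

variable {δ κ0 R c0 : ℝ} {La : Set E3} (Φ : FoamD δ κ0 R c0 La) (e : Φ.F → ℝ)

/-- the gauge with thresholds `e c` -/
noncomputable def muE : E3 → ℝ := mue (Pc Φ.F) (muD Φ) e

/-- **the map `R` with the threshold `e c` in the brick `c`** -/
noncomputable def RE : E3 → E3 := RR (Pc Φ.F) (bc (F := Φ.F)) Φ.Psi (muE Φ e) (1 / 2)

/-- **the function of the family `c`** -/
noncomputable def vE (c : Φ.F) (y : E3) : ℝ := sc (Pc Φ.F) (bc (F := Φ.F)) (RE Φ e y) c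

variable {e} (hLa : IsOpen La) (he : ∀ c, 0 < e c) (he1 : ∀ c, e c < 1)
include hLa he he1

theorem pushE : Push La (Pc Φ.F) Φ.Psi (muE Φ e) :=
  Push.reparam (Brk3_582.foam Φ.bf hLa) (pushD Φ hLa) he he1

theorem muE_half_le {c : Φ.F} {y : E3} (hy : y ∈ c.1.set) : 1 / 2 ≤ muE Φ e y ↔ e c ≤ muD Φ y :=
  mue_half_le (Brk3_582.foam Φ.bf hLa) (pushD Φ hLa) he he1 hy

theorem continuousOn_RE : ContinuousOn (RE Φ e) La :=
  continuousOn_RR (Brk3_582.foam Φ.bf hLa) (pushE Φ hLa he he1) (by norm_num) (by norm_num)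

theorem RE_mem_cell {c : Φ.F} {y : E3} (hy : y ∈ c.1.set) : RE Φ e y ∈ c.1.set :=
  RR_mem (Brk3_582.foam Φ.bf hLa) (pushE Φ hLa he he1) (by norm_num) (by norm_num)
    (d := c) hy

theorem RE_mem {y : E3} (hy : y ∈ La) : RE Φ e y ∈ La :=
  RR_mem_La (Brk3_582.foam Φ.bf hLa) (pushE Φ hLa he he1) (by norm_num) (by norm_num) hy

theorem continuousOn_vE (c : Φ.F) : ContinuousOn (vE Φ e c) La :=
  (continuousOn_sc_apply (Brk3_582.foam Φ.bf hLa) c).comp (continuousOn_RE Φ hLa he he1)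
    fun _ hy => RE_mem Φ hLa he he1 hy

theorem RE_eq_Psi {c : Φ.F} {y : E3} (hy : y ∈ c.1.set) (h : e c ≤ muD Φ y) :
    RE Φ e y = Φ.Psi y :=
  RR_eq_Psi (Brk3_582.foam Φ.bf hLa) (pushE Φ hLa he he1) (by norm_num) (by norm_num)
    (Φ.bf.sub c.1 c.2 hy) ((muE_half_le Φ hLa he he1 hy).2 h)

/-- off `{μ < e c}` the function is 961's level function -/
theorem vE_eq_lev {c : Φ.F} {y : E3} (hy : y ∈ c.1.set) (h : e c ≤ muD Φ y) (c' : Φ.F) :
    vE Φ e c' y = Φ.lev c' y := by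
  unfold vE
  rw [RE_eq_Psi Φ hLa he he1 hy h]
  rfl

/-- formula near the centre: `R y = b_c + (μ/e) (Ψ y - b_c)` -/
theorem RE_eq {c : Φ.F} {y : E3} (hy : y ∈ c.1.set) : RE Φ e y =
    bc (F := Φ.F) {c} + min 1 (muD Φ y / e c) • (Φ.Psi y - bc (F := Φ.F) {c}) := by
  unfold RE
  rw [RR_eq (Brk3_582.foam Φ.bf hLa) (pushE Φ hLa he he1) (by norm_num) (by norm_num) (d := c) hy]
  unfold Rd rr
  rw [show muE Φ e y = phi (e c) (muD Φ y) from
    mue_eq (Brk3_582.foam Φ.bf hLa) (pushD Φ hLa) he he1 (c := c) hy,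
    two_mul_phi (he c) (he1 c)]

/-- **the exact sheets in `Om`** -/
theorem trivF_sheetE {A : Type*} [AddCommGroup A] {f : E3 → E3} {Om : Set E3}
    (hf : Hom3 f Om La) (c : Φ.F) {t : ℝ} (ht0 : 0 < t) (ht1 : t < 1) :
    TrivF A {x ∈ Om | vE Φ e c (f x) = t} ∧ IsCompact {x ∈ Om | vE Φ e c (f x) = t} ∧
      IsPreconnected {x ∈ Om | vE Φ e c (f x) = t} := by
  have F := Brk3_582.foam Φ.bf hLa
  have hp := pushE Φ hLa he he1
  have hε : (0 : ℝ) < 1 / 2 := by norm_num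
  have hε1 : (1 / 2 : ℝ) ≤ 1 := by norm_num
  have h3 : Module.finrank ℝ E3 = 3 := by simp [E3]
  have e1 := sheet_eq F hp hε hε1 (a := c) ht0
  have hL := isCompact_Lset F c ht0.le ht1
  have hb := b_not_mem_Lset F hp hε hε1 (a := c) ht0 ht1 (cell_nonempty Φ)
  have hsub : Lset La (Pc Φ.F) (bc (F := Φ.F)) c t ⊆ La := fun _ h => h.1
  have g1 := trivF_sheet (A := A) F hp hε hε1 h3 (cell_nonempty Φ) (a := c) ht0 ht1
  have g2 := isCompact_RR F hp hε hε1 hL hsub
  have g3 := isPreconnected_RR F hp hε hε1 hL hsub hb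
    (isPreconnected_Lset F h3 (cell_nonempty Φ c) ht0.le ht1)
  rw [e1] at g1 g2 g3
  obtain ⟨g, a1, a2, a3, a4, -⟩ := id hf
  have e2 : {x ∈ Om | vE Φ e c (f x) = t} =
      {x ∈ Om | f x ∈ {y ∈ La | sc (Pc Φ.F) (bc (F := Φ.F)) (RR (Pc Φ.F) (bc (F := Φ.F)) Φ.Psi
        (muE Φ e) (1 / 2) y) c = t}} := by
    ext x
    exact ⟨fun h => ⟨h.1, a1 h.1, h.2⟩, fun h => ⟨h.1, h.2.2⟩⟩
  rw [e2]
  exact ⟨trivF_hom hf g2 (fun _ h => h.1) g1, isCompact_hom hf g2 fun _ h => h.1,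
    isPreconnected_hom hf g3 fun _ h => h.1⟩

/-- **the strips in `Om`** (zero cells `Z`, active cells `a a'`): `R`-preimage of the arc -/
theorem trivF_stripE {A : Type*} [AddCommGroup A] {f : E3 → E3} {Om : Set E3}
    (hf : Hom3 f Om La) {Z : Set Φ.F} (hZ : Z.ncard = 2) {a a' : Φ.F} (haa : a ≠ a') (ha : a ∉ Z)
    (ha' : a' ∉ Z) (hne : (fc (Pc Φ.F) (insert a (insert a' Z))).Nonempty)
    {t β₁ β₂ : ℝ} (ht0 : 0 < t) (ht1 : t < 1) (hβ0 : 0 ≤ β₁) (hβ1 : β₂ < 1) :
    TrivF A {x ∈ Om | RE Φ e (f x) ∈ arcQ La (Pc Φ.F) (bc (F := Φ.F)) Z a a' t β₁ β₂} ∧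
    IsCompact {x ∈ Om | RE Φ e (f x) ∈ arcQ La (Pc Φ.F) (bc (F := Φ.F)) Z a a' t β₁ β₂} ∧
    ((β₁ ≤ β₂) → IsPreconnected
      {x ∈ Om | RE Φ e (f x) ∈ arcQ La (Pc Φ.F) (bc (F := Φ.F)) Z a a' t β₁ β₂}) := by
  have F := Brk3_582.foam Φ.bf hLa
  have hp := pushE Φ hLa he he1
  have hε : (0 : ℝ) < 1 / 2 := by norm_num
  have hε1 : (1 / 2 : ℝ) ≤ 1 := by norm_num
  have hZf : Z.Finite := finite_of_ncard_ne_zero (by omega)
  have hZn : Z.Nonempty := nonempty_of_ncard_ne_zero (by omega)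
  have hN : (insert a (insert a' Z)).ncard = Fintype.card (Fin 3) + 1 := by
    rw [ncard_insert_of_notMem _ (hZf.insert a'), ncard_insert_of_notMem ha' hZf, hZ]
    · simp
    · rintro (h | h)
      · exact haa h
      · exact ha h
  have g1 := trivF_strip (A := A) F hp hε hε1 (cell_nonempty Φ) hZn hN hne haa ha ha' ht0 ht1
    hβ0 hβ1
  have g0 := isClosed_arcQ F hZn (a := a) (a' := a') (t := t) (β₁ := β₁) (β₂ := β₂)
  have g2 := isCompact_RR F hp hε hε1 g0 (fun _ h => h.1)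
  have g3 := isPreconnected_RR F hp hε hε1 g0 (fun _ h => h.1)
    (b_not_mem_arcQ F (cell_nonempty Φ) ht0 ht1)
    (arcQ_spec (A := A) F hZn hN hne haa ha ha' ht0.le ht1 hβ0 hβ1).1
  obtain ⟨g, a1, a2, a3, a4, -⟩ := id hf
  have e2 : {x ∈ Om | RE Φ e (f x) ∈ arcQ La (Pc Φ.F) (bc (F := Φ.F)) Z a a' t β₁ β₂} =
      {x ∈ Om | f x ∈ {y ∈ La | RR (Pc Φ.F) (bc (F := Φ.F)) Φ.Psi (muE Φ e) (1 / 2) y ∈
        arcQ La (Pc Φ.F) (bc (F := Φ.F)) Z a a' t β₁ β₂}} := by
    ext x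
    exact ⟨fun h => ⟨h.1, a1 h.1, h.2⟩, fun h => ⟨h.1, h.2.2⟩⟩
  rw [e2]
  exact ⟨trivF_hom hf g2 (fun _ h => h.1) g1, isCompact_hom hf g2 fun _ h => h.1,
    fun _ => isPreconnected_hom hf g3 fun _ h => h.1⟩

end final

end Crest.Agent.R096.Vb_965
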