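import Crest.Agent.R096.Coh2_184

/-! Row 96, P1-TRIV (helper965), part 1: Vietoris-Begle for 184's `TrivAll`:
if `π : S → T` is a continuous surjection of compact sets with preconnected fibres on which every
locally constant cocycle is trivial, and the same holds for `T`, then it holds for `S`. -/

set_option autoImplicit false
set_option linter.unusedSectionVars false

open Set Topology Filter

namespace Crest.Agent.R096.Vb_965

open Crest.Agent.R096.Coh_184

variable {X : Type*} [PseudoMetricSpace X] {ι A : Type*} [AddCommGroup A]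

/-- a locally constant function on a compact set is uniformly locally constant -/
theorem LC.uniform {f : X → A} {K : Set X} (hf : LC f K) (hK : IsCompact K) :
    ∃ δ > 0, ∀ x ∈ K, ∀ y ∈ K, dist x y < δ → f x = f y := by
  have h1 : ∀ x ∈ K, {y | y ∈ K → f y = f x} ∈ 𝓝 x := by
    intro x hx
    have := hf x hx
    rw [eventually_nhdsWithin_iff] at this
    exact this
  obtain ⟨V, hV, hleb⟩ := lebesgue_number_lemma_nhds' hK (fun x hx => h1 x hx)
  obtain ⟨δ, hδ, hδV⟩ := Metric.mem_uniformity_dist.1 hV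
  refine ⟨δ, hδ, fun x hx y hy hxy => ?_⟩
  obtain ⟨z, hz⟩ := hleb x hx
  have h2 : x ∈ {y | y ∈ K → f y = f z} := hz (hδV (by rw [dist_self]; exact hδ))
  have h3 : y ∈ {y | y ∈ K → f y = f z} := hz (hδV hxy)
  rw [h2 hx, h3 hy]

/-- extension to an open neighbourhood -/
theorem LC.exists_ext {f : X → A} {K : Set X} (hf : LC f K) (hK : IsCompact K) :
    ∃ (U : Set X) (g : X → A), IsOpen U ∧ K ⊆ U ∧ LC g U ∧ ∀ x ∈ K, g x = f x := by
  classical
  obtain ⟨δ, hδ, hu⟩ := LC.uniform hf hK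
  let U : Set X := ⋃ x ∈ K, Metric.ball x (δ / 3)
  have hU : ∀ y, y ∈ U ↔ ∃ x ∈ K, dist y x < δ / 3 := by
    intro y; simp [U, Metric.mem_ball]
  let g : X → A := fun y => if h : ∃ x ∈ K, dist y x < δ / 3 then f h.choose else 0
  have hg : ∀ y x, x ∈ K → dist y x < 2 * (δ / 3) → (∃ x ∈ K, dist y x < δ / 3) → g y = f x := by
    intro y x hx hyx h
    have e1 : g y = f h.choose := dif_pos h
    rw [e1]
    refine hu _ h.choose_spec.1 _ hx ?_
    have h2 := h.choose_spec.2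
    have := dist_triangle_left h.choose x y
    linarith
  refine ⟨U, g, isOpen_biUnion fun x _ => Metric.isOpen_ball, ?_, ?_, ?_⟩
  · intro x hx
    exact (hU x).2 ⟨x, hx, by rw [dist_self]; positivity⟩
  · intro y hy
    obtain ⟨x, hx, hyx⟩ := (hU y).1 hy
    have hball : ∀ᶠ z in 𝓝[U] y, dist z y < δ / 3 := by
      have : ∀ᶠ z in 𝓝 y, dist z y < δ / 3 := Metric.ball_mem_nhds y (by positivity)
      exact this.filter_mono nhdsWithin_le_nhds
    filter_upwards [hball, self_mem_nhdsWithin] with z hz hzU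
    rw [hg y x hx (by linarith [hyx]) ⟨x, hx, hyx⟩, hg z x hx ?_ ((hU z).1 hzU)]
    have := dist_triangle z y x
    linarith
  · intro x hx
    exact hg x x hx (by rw [dist_self]; positivity) ⟨x, hx, by rw [dist_self]; positivity⟩

/-- a trivialisation over a compact subset extends to a neighbourhood -/
theorem Triv.exists_open [Finite ι] {C : ι → Set X} {d : ι → ι → X → A} {S Y : Set X}
    (h : Coc C d S) (hY : IsCompact Y) (hYS : Y ⊆ S) (ht : Triv C d Y) :
    ∃ U : Set X, IsOpen U ∧ Y ⊆ U ∧ Triv C d (S ∩ U) := by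
  obtain ⟨χ, hχ, hχd⟩ := ht
  have h1 : ∀ i, ∃ (U : Set X) (g : X → A), IsOpen U ∧ C i ∩ Y ⊆ U ∧ LC g U ∧
      ∀ x ∈ C i ∩ Y, g x = χ i x := fun i => LC.exists_ext (hχ i) (hY.inter_left (h.closed i))
  choose U g hUo hYU hgU hgχ using h1
  let G : Set X := {y | (∀ i, y ∈ C i → y ∈ U i) ∧
    ∀ i j, y ∈ C i → y ∈ C j → y ∈ S → g i y - g j y = d i j y}
  have hG : ∀ x ∈ Y, G ∈ 𝓝 x := by
    intro x hx
    have hxS := hYS hx
    have a1 : ∀ i, ∀ᶠ y in 𝓝 x, y ∈ C i → (x ∈ C i ∧ y ∈ U i ∧ g i y = χ i x) := by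
      intro i
      by_cases hi : x ∈ C i
      · have hxU : x ∈ U i := hYU i ⟨hi, hx⟩
        have e1 : ∀ᶠ y in 𝓝 x, y ∈ U i := (hUo i).mem_nhds hxU
        have e2 : ∀ᶠ y in 𝓝 x, g i y = g i x := by
          have := hgU i x hxU
          rwa [(hUo i).nhdsWithin_eq hxU] at this
        filter_upwards [e1, e2] with y h1 h2 _
        exact ⟨hi, h1, by rw [h2, hgχ i x ⟨hi, hx⟩]⟩
      · filter_upwards [(h.closed i).isOpen_compl.mem_nhds hi] with y hy h2
        exact (hy h2).elim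
    have a2 : ∀ i j, ∀ᶠ y in 𝓝 x, y ∈ C i → y ∈ C j → y ∈ S → d i j y = d i j x := by
      intro i j
      by_cases hxi : x ∈ C i
      · by_cases hxj : x ∈ C j
        · have := h.lc i j x ⟨⟨hxi, hxj⟩, hxS⟩
          rw [eventually_nhdsWithin_iff] at this
          filter_upwards [this] with y hy a b c
          exact hy ⟨⟨a, b⟩, c⟩
        · filter_upwards [(h.closed j).isOpen_compl.mem_nhds hxj] with y hy _ hy2 _
          exact (hy hy2).elim
      · filter_upwards [(h.closed i).isOpen_compl.mem_nhds hxi] with y hy hy2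
        exact (hy hy2).elim
    have a1' := eventually_all.2 a1
    have a2' := eventually_all.2 fun i => eventually_all.2 fun j => a2 i j
    filter_upwards [a1', a2'] with y h1 h2
    refine ⟨fun i hi => (h1 i hi).2.1, fun i j hi hj hyS => ?_⟩
    rw [(h1 i hi).2.2, (h1 j hj).2.2, h2 i j hi hj hyS]
    exact hχd i j x (h1 i hi).1 (h1 j hj).1 hx
  refine ⟨interior G, isOpen_interior, fun x hx => mem_interior_iff_mem_nhds.2 (hG x hx), g, ?_, ?_⟩
  · intro i
    refine (hgU i).mono ?_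
    rintro y ⟨hyC, _, hyG⟩
    exact (interior_subset hyG).1 i hyC
  · rintro i j x hi hj ⟨hxS, hxG⟩
    exact (interior_subset hxG).2 i j hi hj hxS

/-- tube lemma for `π` on a compact set -/
theorem tube {X Z : Type*} [TopologicalSpace X] [TopologicalSpace Z] [T2Space Z] {S : Set X}
    (hS : IsCompact S) {π : X → Z} (hπ : ContinuousOn π S) {w : Z} {N : Set X} (hN : IsOpen N)
    (hw : ∀ x ∈ S, π x = w → x ∈ N) : ∀ᶠ v in 𝓝 w, ∀ x ∈ S, π x = v → x ∈ N := by
  have hc : IsCompact (π '' (S \ N)) := (hS.diff hN).image_of_continuousOn (hπ.mono sdiff_subset)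
  have hn : w ∉ π '' (S \ N) := by
    rintro ⟨x, ⟨hx, hxN⟩, hxw⟩
    exact hxN (hw x hx hxw)
  filter_upwards [hc.isClosed.isOpen_compl.mem_nhds hn] with v hv x hx hxv
  by_contra hxN
  exact hv ⟨x, ⟨hx, hxN⟩, hxv⟩

theorem TrivAll.reindex {X : Type*} [TopologicalSpace X] {ι ι' : Type*} (e : ι ≃ ι') {S : Set X}
    (h : TrivAll ι A S) : TrivAll ι' A S := by
  intro C d hc
  obtain ⟨χ, h1, h2⟩ := h (fun i => C (e i)) (fun i j => d (e i) (e j))
    ⟨fun i => hc.closed (e i), fun x hx => by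
      obtain ⟨i, hi⟩ := mem_iUnion.1 (hc.cov hx)
      exact mem_iUnion.2 ⟨e.symm i, by simpa using hi⟩,
      fun i j => hc.lc (e i) (e j), fun i j k x hi hj hk hx => hc.coc _ _ _ x hi hj hk hx⟩
  refine ⟨fun i => χ (e.symm i), fun i => ?_, fun i j x hi hj hx => ?_⟩
  · have := h1 (e.symm i)
    simpa using this
  · have := h2 (e.symm i) (e.symm j) x (by simpa using hi) (by simpa using hj) hx
    simpa using this

/-- VIETORIS-BEGLE for torsors -/
theorem TrivAll.of_fibres [Finite ι] {Z : Type*} [MetricSpace Z] {S : Set X} {T : Set Z}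
    (hS : IsCompact S) (hScl : IsClosed S) {π : X → Z} (hπ : ContinuousOn π S)
    (hST : π '' S = T)
    (hpre : ∀ z ∈ T, IsPreconnected (S ∩ π ⁻¹' {z}))
    (hfib : ∀ z ∈ T, TrivAll ι A (S ∩ π ⁻¹' {z}))
    (hT : ∀ n : ℕ, TrivAll (Fin n) A T) : TrivAll ι A S := by
  classical
  intro C d h
  rcases S.eq_empty_or_nonempty with hemp | ⟨x00, hx00⟩
  · rw [hemp]; exact Triv.empty
  have _ : Nonempty X := ⟨x00⟩
  have hTc : IsCompact T := hST ▸ hS.image_of_continuousOn hπ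
  have hmem : ∀ x ∈ S, π x ∈ T := fun x hx => hST ▸ mem_image_of_mem π hx
  -- local trivialisations
  have h1 : ∀ z ∈ T, ∃ r > 0, Triv C d (S ∩ π ⁻¹' (Metric.closedBall z r)) := by
    intro z hz
    have hcl : IsClosed (S ∩ π ⁻¹' {z}) := hπ.preimage_isClosed_of_isClosed hScl isClosed_singleton
    have hcomp : IsCompact (S ∩ π ⁻¹' {z}) := hS.of_isClosed_subset hcl inter_subset_left
    obtain ⟨U, hU, hYU, hUt⟩ := Triv.exists_open h hcomp inter_subset_left
      (hfib z hz C d (h.mono inter_subset_left))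
    have ht := tube hS hπ (w := z) hU fun x hx hxz => hYU ⟨hx, hxz⟩
    obtain ⟨r, hr, hrt⟩ := Metric.nhds_basis_closedBall.eventually_iff.1 ht
    refine ⟨r, hr, hUt.mono ?_⟩
    rintro x ⟨hx, hxz⟩
    exact ⟨hx, hrt hxz x hx rfl⟩
  choose! r hr hrt using h1
  obtain ⟨t, htT, htc⟩ := hTc.elim_nhds_subcover (fun z => Metric.closedBall z (r z))
    fun z hz => Metric.closedBall_mem_nhds z (hr z hz)
  choose! χ hχ hχd using hrt
  -- the differences
  have hex : ∀ x ∈ S, ∃ i, x ∈ C i := fun x hx => mem_iUnion.1 (h.cov hx)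
  let D : Z → Set Z := fun z => Metric.closedBall z (r z)
  have hDcl : ∀ z, IsClosed (D z) := fun z => Metric.isClosed_closedBall
  have hpcl : ∀ z, IsClosed (S ∩ π ⁻¹' D z) := fun z =>
    hπ.preimage_isClosed_of_isClosed hScl (hDcl z)
  let ε : Z → Z → X → A := fun z z' x =>
    if hx : ∃ i, x ∈ C i then χ z hx.choose x - χ z' hx.choose x else 0
  have hε : ∀ z ∈ T, ∀ z' ∈ T, ∀ x ∈ S, π x ∈ D z → π x ∈ D z' → ∀ i, x ∈ C i →
      ε z z' x = χ z i x - χ z' i x := by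
    intro z hz z' hz' x hx hxz hxz' i hi
    have hh : ∃ i, x ∈ C i := ⟨i, hi⟩
    have e1 : ε z z' x = χ z hh.choose x - χ z' hh.choose x := dif_pos hh
    have a := hχd z hz hh.choose i x hh.choose_spec hi ⟨hx, hxz⟩
    have b := hχd z' hz' hh.choose i x hh.choose_spec hi ⟨hx, hxz'⟩
    rw [e1]
    have : χ z hh.choose x - χ z i x = χ z' hh.choose x - χ z' i x := by rw [a, b]
    rw [sub_eq_sub_iff_add_eq_add] at this ⊢
    rw [this]; abel
  have hεLC : ∀ z ∈ T, ∀ z' ∈ T, LC (ε z z') (S ∩ π ⁻¹' (D z ∩ D z')) := by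
    intro z hz z' hz'
    have hcl : IsClosed (S ∩ π ⁻¹' (D z ∩ D z')) :=
      hπ.preimage_isClosed_of_isClosed hScl ((hDcl z).inter (hDcl z'))
    have hEq : S ∩ π ⁻¹' (D z ∩ D z') = ⋃ i, (C i ∩ (S ∩ π ⁻¹' (D z ∩ D z'))) := by
      rw [← iUnion_inter]
      exact (inter_eq_self_of_subset_right fun x hx => h.cov hx.1).symm
    rw [hEq]
    apply LC.iUnion
    · intro i; exact (h.closed i).inter hcl
    · intro i
      have a : LC (fun x => χ z i x - χ z' i x) (C i ∩ (S ∩ π ⁻¹' (D z ∩ D z'))) := by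
        apply LC.comp₂ (F := fun a b => a - b)
        · exact (hχ z hz i).mono fun x hx => ⟨hx.1, hx.2.1, hx.2.2.1⟩
        · exact (hχ z' hz' i).mono fun x hx => ⟨hx.1, hx.2.1, hx.2.2.2⟩
      exact a.congr fun x hx => hε z hz z' hz' x hx.2.1 hx.2.2.1 hx.2.2.2 i hx.1
  have hfc : ∀ z ∈ T, ∀ z' ∈ T, ∀ x ∈ S, ∀ y ∈ S, π x = π y → π x ∈ D z → π x ∈ D z' →
      ε z z' x = ε z z' y := by
    intro z hz z' hz' x hx y hy hxy hxz hxz'
    have hsub : S ∩ π ⁻¹' {π x} ⊆ S ∩ π ⁻¹' (D z ∩ D z') := by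
      rintro u ⟨hu, hux⟩
      have hux' : π u = π x := hux
      exact ⟨hu, by show π u ∈ D z; rw [hux']; exact hxz, by show π u ∈ D z'; rw [hux']; exact hxz'⟩
    exact ((hεLC z hz z' hz').mono hsub).eq_of_preconnected (hpre _ (hmem x hx)) ⟨hx, rfl⟩
      ⟨hy, hxy.symm⟩
  -- a section of `π`
  have hsec : ∀ w ∈ T, ∃ x ∈ S, π x = w := fun w hw => by
    rw [← hST] at hw
    obtain ⟨x, hx, hxw⟩ := hw
    exact ⟨x, hx, hxw⟩
  choose! s hsS hsπ using hsec
  let e : t → t → Z → A := fun z z' w => ε z z' (s w)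
  have he : ∀ z z' : t, ∀ x ∈ S, π x ∈ D z → π x ∈ D z' → e z z' (π x) = ε z z' x := by
    intro z z' x hx h1 h2
    have hw := hmem x hx
    exact hfc z (htT z z.2) z' (htT z' z'.2) _ (hsS _ hw) x hx (hsπ _ hw)
      (by rw [hsπ _ hw]; exact h1) (by rw [hsπ _ hw]; exact h2)
  have hcoc : Coc (fun z : t => D z) e T := by
    refine ⟨fun z => hDcl z, fun w hw => ?_, ?_, ?_⟩
    · obtain ⟨z, hz, hwz⟩ := mem_iUnion₂.1 (htc hw)
      exact mem_iUnion.2 ⟨⟨z, hz⟩, hwz⟩
    · rintro z z' w ⟨⟨hwz, hwz'⟩, hwT⟩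
      have hLC := hεLC z (htT z z.2) z' (htT z' z'.2)
      -- neighbourhood of the fibre
      have hnb : ∀ x ∈ S, π x = w → ∃ N : Set X, IsOpen N ∧ x ∈ N ∧
          ∀ y ∈ N, y ∈ S → π y ∈ D z → π y ∈ D z' → ε z z' y = ε z z' x := by
        intro x hx hxw
        have a := hLC x ⟨hx, by show π x ∈ D z; rw [hxw]; exact hwz,
          by show π x ∈ D z'; rw [hxw]; exact hwz'⟩
        rw [eventually_nhdsWithin_iff] at a
        obtain ⟨N, hN, hNo, hxN⟩ := eventually_nhds_iff.1 a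
        exact ⟨N, hNo, hxN, fun y hy hyS h1 h2 => hN y hy ⟨hyS, h1, h2⟩⟩
      choose! N hNo hxN hN using hnb
      have htube := tube hS hπ (w := w) (N := ⋃ x ∈ {x | x ∈ S ∧ π x = w}, N x)
        (isOpen_biUnion fun x hx => hNo x hx.1 hx.2)
        (fun x hx hxw => mem_biUnion (show x ∈ {x | x ∈ S ∧ π x = w} from ⟨hx, hxw⟩)
          (hxN x hx hxw))
      have htube' : ∀ᶠ v in 𝓝[D z ∩ D z' ∩ T] w,
          ∀ x ∈ S, π x = v → x ∈ ⋃ x ∈ {x | x ∈ S ∧ π x = w}, N x :=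
        htube.filter_mono nhdsWithin_le_nhds
      filter_upwards [htube', self_mem_nhdsWithin] with v hv hvD
      have hvS := hsS v hvD.2
      have hvπ := hsπ v hvD.2
      obtain ⟨x, ⟨hxS, hxw⟩, hvx⟩ := mem_iUnion₂.1 (hv (s v) hvS hvπ)
      have a1 : ε z z' (s v) = ε z z' x :=
        hN x hxS hxw (s v) hvx hvS (by rw [hvπ]; exact hvD.1.1) (by rw [hvπ]; exact hvD.1.2)
      have a2 : ε z z' x = ε z z' (s w) :=
        hfc z (htT z z.2) z' (htT z' z'.2) x hxS (s w) (hsS w hwT) (by rw [hxw, hsπ w hwT])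
          (by rw [hxw]; exact hwz) (by rw [hxw]; exact hwz')
      show ε z z' (s v) = ε z z' (s w)
      rw [a1, a2]
    · intro z z' z'' w h1 h2 h3 hw
      obtain ⟨i, hi⟩ := hex (s w) (hsS w hw)
      have hπw := hsπ w hw
      have b1 : π (s w) ∈ D z := by rw [hπw]; exact h1
      have b2 : π (s w) ∈ D z' := by rw [hπw]; exact h2
      have b3 : π (s w) ∈ D z'' := by rw [hπw]; exact h3
      show ε z z' (s w) + ε z' z'' (s w) = ε z z'' (s w)
      rw [hε z (htT z z.2) z' (htT z' z'.2) _ (hsS w hw) b1 b2 i hi,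
        hε z' (htT z' z'.2) z'' (htT z'' z''.2) _ (hsS w hw) b2 b3 i hi,
        hε z (htT z z.2) z'' (htT z'' z''.2) _ (hsS w hw) b1 b3 i hi]
      abel
  obtain ⟨n, ⟨en⟩⟩ := Finite.exists_equiv_fin t
  obtain ⟨η, hη, hηd⟩ := TrivAll.reindex en.symm (hT n) _ _ hcoc
  -- the global trivialisation
  have hex2 : ∀ x ∈ S, ∃ z : t, π x ∈ D z := fun x hx => by
    obtain ⟨z, hz, hwz⟩ := mem_iUnion₂.1 (htc (hmem x hx))
    exact ⟨⟨z, hz⟩, hwz⟩
  let Θ : ι → X → A := fun i x =>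
    if hx : ∃ z : t, π x ∈ D z then χ hx.choose i x - η hx.choose (π x) else 0
  have hΘ : ∀ i x, x ∈ C i → x ∈ S → ∀ z : t, π x ∈ D z → Θ i x = χ z i x - η z (π x) := by
    intro i x hi hx z hz
    have hh : ∃ z : t, π x ∈ D z := ⟨z, hz⟩
    have e1 : Θ i x = χ hh.choose i x - η hh.choose (π x) := dif_pos hh
    have a := hηd hh.choose z (π x) hh.choose_spec hz (hmem x hx)
    rw [he _ _ x hx hh.choose_spec hz, hε _ (htT _ hh.choose.2) _ (htT _ z.2) x hx
      hh.choose_spec hz i hi] at a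
    rw [e1]
    rw [sub_eq_sub_iff_add_eq_add] at a ⊢
    rw [← a, add_comm]
  refine ⟨Θ, fun i => ?_, fun i j x hi hj hx => ?_⟩
  · have hEq : C i ∩ S = ⋃ z : t, (C i ∩ (S ∩ π ⁻¹' D z)) := by
      ext x
      constructor
      · rintro ⟨hi, hx⟩
        obtain ⟨z, hz⟩ := hex2 x hx
        exact mem_iUnion.2 ⟨z, hi, hx, hz⟩
      · intro hx
        obtain ⟨z, hi, hx, _⟩ := mem_iUnion.1 hx
        exact ⟨hi, hx⟩
    rw [hEq]
    apply LC.iUnion
    · intro z; exact (h.closed i).inter (hpcl z)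
    · intro z
      have b1 : LC (fun x => η z (π x)) (C i ∩ (S ∩ π ⁻¹' D z)) := by
        rintro x ⟨hi, hx, hxz⟩
        have a := hη z (π x) ⟨hxz, hmem x hx⟩
        have b : Tendsto π (𝓝[C i ∩ (S ∩ π ⁻¹' D z)] x) (𝓝[D z ∩ T] (π x)) := by
          apply tendsto_nhdsWithin_of_tendsto_nhds_of_eventually_within
          · exact (hπ x hx).mono_left (nhdsWithin_mono _ fun y hy => hy.2.1)
          · filter_upwards [self_mem_nhdsWithin] with y hy
            exact ⟨hy.2.2, hmem y hy.2.1⟩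
        exact b.eventually a
      have b2 : LC (fun x => χ z i x - η z (π x)) (C i ∩ (S ∩ π ⁻¹' D z)) :=
        LC.comp₂ (hχ z (htT z z.2) i) b1 (fun a b => a - b)
      exact b2.congr fun x hx => hΘ i x hx.1 hx.2.1 z hx.2.2
  · obtain ⟨z, hz⟩ := hex2 x hx
    rw [hΘ i x hi hx z hz, hΘ j x hj hx z hz, ← hχd z (htT z z.2) i j x hi hj ⟨hx, hz⟩]
    abel

end Crest.Agent.R096.Vb_965
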