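import Crest.Agent.R096.Vb1_965
import Crest.Agent.R096.Coh6_184

/-! Row 96, P1-TRIV (helper965), part 3: arcs, stars of arcs, preimages of preconnected sets -/

set_option autoImplicit false
set_option linter.unusedSectionVars false

open Set Topology Filter

namespace Crest.Agent.R096.Vb_965

open Crest.Agent.R096.Coh_184

/-- a closed map with preconnected fibres: preimages of preconnected sets are preconnected -/
theorem preconn_of_fibres {X Z : Type*} [TopologicalSpace X] [TopologicalSpace Z] [T2Space Z]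
    [T2Space X] {S : Set X} {T : Set Z} (hS : IsCompact S) {π : X → Z} (hπ : ContinuousOn π S)
    (hST : π '' S = T) (hpre : ∀ z ∈ T, IsPreconnected (S ∩ π ⁻¹' {z})) (hT : IsPreconnected T) :
    IsPreconnected S := by
  rw [isPreconnected_closed_iff]
  intro C D hC hD hcov hSC hSD
  by_contra hne
  have hempty : S ∩ (C ∩ D) = ∅ := not_nonempty_iff_eq_empty.1 hne
  -- every fibre lies in one of them
  have hfib : ∀ z ∈ T, (S ∩ π ⁻¹' {z} ∩ C).Nonempty → (S ∩ π ⁻¹' {z} ∩ D).Nonempty → False := by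
    intro z hz h1 h2
    have h3 := isPreconnected_closed_iff.1 (hpre z hz) C D hC hD
      (fun x hx => hcov hx.1) h1 h2
    obtain ⟨x, hx, hxCD⟩ := h3
    have : x ∈ S ∩ (C ∩ D) := ⟨hx.1, hxCD⟩
    rw [hempty] at this
    exact this
  have hcC : IsClosed (π '' (S ∩ C)) :=
    ((hS.inter_right hC).image_of_continuousOn (hπ.mono inter_subset_left)).isClosed
  have hcD : IsClosed (π '' (S ∩ D)) :=
    ((hS.inter_right hD).image_of_continuousOn (hπ.mono inter_subset_left)).isClosed
  have h4 := isPreconnected_closed_iff.1 hT _ _ hcC hcD ?_ ?_ ?_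
  · obtain ⟨z, hz, ⟨x, ⟨hx, hxC⟩, rfl⟩, ⟨y, ⟨hy, hyD⟩, hyx⟩⟩ := h4
    exact hfib (π x) hz ⟨x, ⟨hx, rfl⟩, hxC⟩ ⟨y, ⟨hy, hyx⟩, hyD⟩
  · rw [← hST]
    rintro _ ⟨x, hx, rfl⟩
    rcases hcov hx with h | h
    · exact Or.inl ⟨x, ⟨hx, h⟩, rfl⟩
    · exact Or.inr ⟨x, ⟨hx, h⟩, rfl⟩
  · obtain ⟨x, hx, hxC⟩ := hSC
    exact ⟨π x, hST ▸ mem_image_of_mem π hx, x, ⟨hx, hxC⟩, rfl⟩
  · obtain ⟨x, hx, hxD⟩ := hSD
    exact ⟨π x, hST ▸ mem_image_of_mem π hx, x, ⟨hx, hxD⟩, rfl⟩

section arc

variable {X : Type*} [MetricSpace X] {A : Type*} [AddCommGroup A]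

theorem trivF_singleton (q : X) : TrivF A ({q} : Set X) := by
  intro n C d h
  obtain ⟨W, hW, ht⟩ := h.local_triv (mem_singleton q)
  refine ht.mono ?_
  rintro x rfl
  exact ⟨rfl, mem_of_mem_nhds hW⟩

theorem trivF_empty : TrivF A (∅ : Set X) := fun _ _ _ _ => Triv.empty

theorem trivF_Icc {a b : ℝ} : TrivF A (Icc a b : Set ℝ) := by
  intro n
  have h1 : IsCompact ((fun x : ℝ => (fun _ : Fin 1 => x)) '' Icc a b) :=
    isCompact_Icc.image (by fun_prop)
  have h2 : Convex ℝ ((fun x : ℝ => (fun _ : Fin 1 => x)) '' Icc a b) := by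
    have := (convex_Icc a b).linear_image (LinearMap.pi fun _ : Fin 1 => (LinearMap.id : ℝ →ₗ[ℝ] ℝ))
    exact this
  have h3 : TrivAll (Fin n) A _ := trivAll_convex h1 h2
  have h4 := h3.of_image_compact h1 h1.isClosed (g := fun v : Fin 1 → ℝ => v 0)
    (by fun_prop) (by
      rintro _ ⟨x, hx, rfl⟩ _ ⟨y, hy, rfl⟩ hxy
      exact congrArg (fun (t : ℝ) => (fun _ : Fin 1 => t)) hxy)
  have h5 : (fun v : Fin 1 → ℝ => v 0) '' ((fun x : ℝ => (fun _ : Fin 1 => x)) '' Icc a b) =
      Icc a b := by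
    rw [image_image]; simp
  rwa [h5] at h4

/-- a compact set with a continuous injective function onto an interval -/
theorem arc_of_injOn {F : Set X} (hF : IsCompact F) {μ : X → ℝ} (hμ : ContinuousOn μ F)
    (hinj : InjOn μ F) {a b : ℝ} (him : μ '' F = Icc a b) : IsPreconnected F ∧ TrivF A F := by
  have _ : CompactSpace F := isCompact_iff_compactSpace.1 hF
  let g : F → Icc a b := fun y => ⟨μ y.1, him ▸ mem_image_of_mem μ y.2⟩
  have hg : Continuous g :=
    (continuousOn_iff_continuous_domRestrict.1 hμ).subtype_mk _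
  have hb : Function.Bijective g := by
    constructor
    · intro y z h
      exact Subtype.ext (hinj y.2 z.2 (congrArg Subtype.val h))
    · rintro ⟨t, ht⟩
      rw [← him] at ht
      obtain ⟨y, hy, rfl⟩ := ht
      exact ⟨⟨y, hy⟩, rfl⟩
  let e : F ≃ₜ Icc a b := (Equiv.ofBijective g hb).toHomeomorphOfContinuousClosed hg hg.isClosedMap
  constructor
  · have h1 : IsPreconnected (univ : Set F) := by
      have h2 : IsPreconnected (univ : Set (Icc a b)) :=
        isPreconnected_iff_preconnectedSpace.1 isPreconnected_Icc |>.isPreconnected_univ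
      have := h2.image e.symm e.symm.continuous.continuousOn
      rwa [image_univ, e.symm.surjective.range_eq] at this
    have := h1.image Subtype.val continuous_subtype_val.continuousOn
    rwa [image_univ, Subtype.range_coe] at this
  · exact trivF_Icc.of_homeo isClosed_Icc e.symm

/-- a star: finitely many closed sets which meet pairwise in one common point only -/
theorem trivF_star {κ : Type*} (s : Finset κ) (F : κ → Set X) (q : X) (hs : s.Nonempty)
    (hq : ∀ e ∈ s, q ∈ F e) (hcl : ∀ e ∈ s, IsClosed (F e))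
    (hpre : ∀ e ∈ s, IsPreconnected (F e)) (htr : ∀ e ∈ s, TrivF A (F e))
    (hint : ∀ e ∈ s, ∀ e' ∈ s, e ≠ e' → F e ∩ F e' ⊆ {q}) :
    IsPreconnected (⋃ e ∈ s, F e) ∧ TrivF A (⋃ e ∈ s, F e) := by
  classical
  induction hs using Finset.Nonempty.cons_induction with
  | singleton a =>
    simp only [Finset.mem_singleton, iUnion_iUnion_eq_left]
    exact ⟨hpre a (by simp), htr a (by simp)⟩
  | cons a s ha hs ih =>
    obtain ⟨ih1, ih2⟩ := ih (fun e he => hq e (Finset.mem_cons_of_mem he))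
      (fun e he => hcl e (Finset.mem_cons_of_mem he))
      (fun e he => hpre e (Finset.mem_cons_of_mem he))
      (fun e he => htr e (Finset.mem_cons_of_mem he))
      (fun e he e' he' => hint e (Finset.mem_cons_of_mem he) e' (Finset.mem_cons_of_mem he'))
    have ha' : a ∈ Finset.cons a s ha := Finset.mem_cons_self a s
    have hu : (⋃ e ∈ Finset.cons a s ha, F e) = F a ∪ ⋃ e ∈ s, F e := by
      ext x; simp
    have hqU : q ∈ ⋃ e ∈ s, F e := by
      obtain ⟨e, he⟩ := hs
      exact mem_biUnion he (hq e (Finset.mem_cons_of_mem he))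
    have hI : F a ∩ (⋃ e ∈ s, F e) = {q} := by
      apply Subset.antisymm
      · rintro x ⟨hx, hx2⟩
        obtain ⟨e, he, hxe⟩ := mem_iUnion₂.1 hx2
        have hne : a ≠ e := by rintro rfl; exact ha he
        exact hint a ha' e (Finset.mem_cons_of_mem he) hne ⟨hx, hxe⟩
      · rintro x rfl
        exact ⟨hq a ha', hqU⟩
    rw [hu]
    refine ⟨(hpre a ha').union q (hq a ha') hqU ih1, fun n => ?_⟩
    have hUc : IsClosed (⋃ e ∈ s, F e) :=
      s.finite_toSet.isClosed_biUnion fun e he => hcl e (Finset.mem_cons_of_mem he)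
    refine TrivAll.union (hcl a ha') hUc ?_ (htr a ha' n) (ih2 n)
    rw [hI]; exact isPreconnected_singleton

end arc

end Crest.Agent.R096.Vb_965
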