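import Crest.Agent.R096.Vb4_965

/-! Row 96, P1-TRIV (helper965), part 5: pushes, the functions `uh`, the exact sheets -/

set_option autoImplicit false
set_option linter.unusedSectionVars false
set_option linter.style.haveILetI false

open Set Topology Filter

namespace Crest.Agent.R096.Vb_965

open Crest.Agent.R096.Coh_184 Crest.Agent.R096.Brk1_582 Crest.Agent.R096.Brk2_582

variable {E : Type*} [NormedAddCommGroup E] [NormedSpace ℝ E] [CompleteSpace E] {I : Type*}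

/-- push data of a foam: `μ = 1` and `Ψ = id` on the walls, `Ψ` pushes `{μ > 0}` to the walls,
`(Ψ, μ)` are coordinates of a cell minus its centre -/
structure Push (La : Set E) (P : I → Set E) (Ψ : E → E) (μ : E → ℝ) : Prop where
  mu_cont : ContinuousOn μ La
  mu_mem : ∀ y ∈ La, 0 ≤ μ y ∧ μ y ≤ 1
  wall : ∀ c c', c' ≠ c → ∀ y ∈ P c, y ∈ P c' → μ y = 1 ∧ Ψ y = y
  cont : ContinuousOn Ψ (La ∩ {y | 0 < μ y})
  mem : ∀ c, ∀ y ∈ P c, 0 < μ y → Ψ y ∈ P c ∧ ∃ c', c' ≠ c ∧ Ψ y ∈ P c'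
  inj : ∀ c, ∀ y ∈ P c, ∀ z ∈ P c, 0 < μ y → μ y = μ z → Ψ y = Ψ z → y = z
  surj : ∀ c c', c' ≠ c → ∀ p ∈ P c, p ∈ P c' → ∀ m ∈ Ioc (0 : ℝ) 1, ∃ y ∈ P c, Ψ y = p ∧ μ y = m

/-- `s_c ∘ Ψ`, closed near the centres -/
noncomputable def Gx (P : I → Set E) (b : Set I → E) (Ψ : E → E) (μ : E → ℝ) (ε : ℝ) (c : I)
    (y : E) : ℝ := max (sc P b (Ψ y) c) (1 - μ y / ε)

open Classical in
/-- the function of the family `c` -/
noncomputable def uh (P : I → Set E) (b : Set I → E) (Ψ : E → E) (μ : E → ℝ) (ε : ℝ) (c : I)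
    (y : E) : ℝ := if y ∈ P c then 0 else Gx P b Ψ μ ε c y

/-- the exact sheet -/
def Tsh (La : Set E) (P : I → Set E) (b : Set I → E) (Ψ : E → E) (μ : E → ℝ) (ε : ℝ) (c : I)
    (s : ℝ) : Set E := {y ∈ La | uh P b Ψ μ ε c y = s}

variable {La : Set E} {P : I → Set E} {b : Set I → E} {N : ℕ} {Ψ : E → E} {μ : E → ℝ} {ε : ℝ}
variable {c d : I} {y : E}

theorem sc_mem_Icc (z : E) (c : I) : 0 ≤ sc P b z c ∧ sc P b z c ≤ 1 := by
  unfold sc
  split_ifs with h
  · exact h.choose_spec.1.1 c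
  · simp

theorem Gx_nonneg : 0 ≤ Gx P b Ψ μ ε c y := le_max_of_le_left (sc_mem_Icc _ _).1

theorem uh_nonneg : 0 ≤ uh P b Ψ μ ε c y := by
  unfold uh; split_ifs
  · exact le_rfl
  · exact Gx_nonneg

theorem uh_of_mem (h : y ∈ P c) : uh P b Ψ μ ε c y = 0 := by unfold uh; rw [if_pos h]

theorem uh_of_not_mem (h : y ∉ P c) : uh P b Ψ μ ε c y = Gx P b Ψ μ ε c y := by
  unfold uh; rw [if_neg h]

variable (F : Foam La P b N) (hp : Push La P Ψ μ) (hε : 0 < ε) (hε1 : ε ≤ 1)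

include F hp hε hε1

theorem Gx_wall (hdc : d ≠ c) {e : I} (hy : y ∈ P c) (hy' : y ∈ P d) :
    Gx P b Ψ μ ε e y = sc P b y e := by
  obtain ⟨h1, h2⟩ := hp.wall c d hdc y hy hy'
  unfold Gx
  rw [h1, h2]
  refine max_eq_left (le_trans ?_ (sc_mem_Icc y e).1)
  have : (1 : ℝ) ≤ 1 / ε := by rw [le_div_iff₀ hε]; linarith
  linarith

theorem continuousOn_Gx (e : I) : ContinuousOn (Gx P b Ψ μ ε e) La := by
  intro y0 hy0
  have hμc : ContinuousWithinAt (fun y => 1 - μ y / ε) La y0 :=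
    continuousWithinAt_const.sub ((hp.mu_cont y0 hy0).div_const ε)
  rcases (hp.mu_mem y0 hy0).1.eq_or_lt with h0 | h0
  · -- `μ = 0`
    have hG0 : Gx P b Ψ μ ε e y0 = 1 := by
      unfold Gx
      rw [← h0]
      simpa using (sc_mem_Icc (P := P) (b := b) (Ψ y0) e).2
    have hle : ∀ y ∈ La, Gx P b Ψ μ ε e y ≤ 1 := by
      intro y hy
      refine max_le (sc_mem_Icc _ _).2 ?_
      have : 0 ≤ μ y / ε := div_nonneg (hp.mu_mem y hy).1 hε.le
      linarith
    have hlim : Tendsto (fun y => 1 - μ y / ε) (𝓝[La] y0) (𝓝 1) := by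
      have h7 : Tendsto (fun y => 1 - μ y / ε) (𝓝[La] y0) (𝓝 (1 - μ y0 / ε)) := hμc
      rw [← h0] at h7
      simpa using h7
    unfold ContinuousWithinAt
    rw [hG0]
    refine tendsto_of_tendsto_of_tendsto_of_le_of_le' hlim tendsto_const_nhds
      (Eventually.of_forall fun y => le_max_right _ _) ?_
    filter_upwards [self_mem_nhdsWithin] with y hy using hle y hy
  · obtain ⟨c0, hc0⟩ := F.cov y0 hy0
    have hΨL : Ψ y0 ∈ La := F.sub c0 (hp.mem c0 y0 hc0 h0).1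
    have hΨ : ContinuousWithinAt Ψ La y0 := by
      have h1 := hp.cont y0 ⟨hy0, h0⟩
      refine h1.mono_of_mem_nhdsWithin ?_
      have h2 : ∀ᶠ y in 𝓝[La] y0, 0 < μ y := (hp.mu_cont y0 hy0).eventually_const_lt h0
      filter_upwards [h2, self_mem_nhdsWithin] with y h2 h3 using ⟨h3, h2⟩
    have hsc : ContinuousAt (fun y => sc P b y e) (Ψ y0) :=
      (continuousOn_sc_apply F e).continuousAt (F.op.mem_nhds hΨL)
    have h4 : ContinuousWithinAt (fun y => sc P b (Ψ y) e) La y0 :=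
      ContinuousAt.comp_continuousWithinAt (f := Ψ) (g := fun y => sc P b y e) hsc hΨ
    exact h4.max hμc

theorem uh_le_Gx (e : I) : uh P b Ψ μ ε e y ≤ Gx P b Ψ μ ε e y := by
  unfold uh
  split_ifs
  · exact Gx_nonneg
  · exact le_rfl

theorem continuousOn_uh (e : I) : ContinuousOn (uh P b Ψ μ ε e) La := by
  classical
  intro y0 hy0
  by_cases h : y0 ∈ P e
  · by_cases h2 : ∃ d, d ≠ e ∧ y0 ∈ P d
    · obtain ⟨d, hde, hd⟩ := h2
      have h3 : Gx P b Ψ μ ε e y0 = 0 := by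
        rw [Gx_wall F hp hε hε1 hde h hd]
        exact (F.sc_eq_zero hy0).2 h
      have h4 := continuousOn_Gx F hp hε hε1 e y0 hy0
      unfold ContinuousWithinAt at h4 ⊢
      rw [h3] at h4
      rw [uh_of_mem h]
      exact tendsto_of_tendsto_of_tendsto_of_le_of_le tendsto_const_nhds h4
        (fun y => uh_nonneg) (fun y => uh_le_Gx F hp hε hε1 e)
    · push Not at h2
      have h5 : ∀ᶠ z in 𝓝 y0, uh P b Ψ μ ε e z = 0 := by
        filter_upwards [only_cell_nhds F hy0 fun d hd => by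
          by_contra hne
          exact h2 d hne hd] with z hz using uh_of_mem hz
      have h6 : ContinuousAt (uh P b Ψ μ ε e) y0 :=
        (continuousAt_const (y := (0 : ℝ))).congr (h5.mono fun z hz => hz.symm)
      exact h6.continuousWithinAt
  · have h5 : ∀ᶠ z in 𝓝[La] y0, Gx P b Ψ μ ε e z = uh P b Ψ μ ε e z := by
      refine nhdsWithin_le_nhds ?_
      filter_upwards [(F.cpt e).isClosed.isOpen_compl.mem_nhds h] with z hz
      exact (uh_of_not_mem hz).symm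
    exact (continuousOn_Gx F hp hε hε1 e y0 hy0).congr_of_eventuallyEq
      (h5.mono fun z hz => hz.symm) (uh_of_not_mem h)

omit hε1 in
/-- the basic facts about a point of an exact sheet -/
theorem Tsh_facts {s : ℝ} (hs0 : 0 < s) (hs1 : s < 1) (hy : y ∈ Tsh La P b Ψ μ ε c s)
    (hd : y ∈ P d) : d ≠ c ∧ 0 < μ y ∧ Ψ y ∈ P d ∧ Ψ y ∈ La ∧ sc P b (Ψ y) c ≤ s ∧
      1 - μ y / ε ≤ s ∧ (sc P b (Ψ y) c = s ∨ μ y = ε * (1 - s)) ∧ y ∉ P c ∧
      (P d ∩ P c).Nonempty := by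
  have hyc : y ∉ P c := by
    intro h
    have := hy.2
    rw [uh_of_mem h] at this
    exact hs0.ne this
  have hG : Gx P b Ψ μ ε c y = s := by rw [← uh_of_not_mem hyc]; exact hy.2
  have h1 : sc P b (Ψ y) c ≤ s := by rw [← hG]; exact le_max_left _ _
  have h2 : 1 - μ y / ε ≤ s := by rw [← hG]; exact le_max_right _ _
  have h0 : 0 < μ y := by
    have : 0 < μ y / ε := by linarith
    exact (div_pos_iff_of_pos_right hε).1 this
  have h3 := hp.mem d y hd h0
  have hL := F.sub d h3.1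
  refine ⟨fun h => hyc (h ▸ hd), h0, h3.1, hL, h1, h2, ?_, hyc, ?_⟩
  · rcases max_choice (sc P b (Ψ y) c) (1 - μ y / ε) with h | h
    · left; rw [← hG]; exact h.symm
    · right
      have h5 : 1 - μ y / ε = s := by rw [← hG]; exact h.symm
      have h6 : μ y / ε = 1 - s := by linarith
      field_simp at h6
      linarith
  · obtain ⟨z, hz⟩ := F.sc_lt_one_fc hL
    have h5 := mem_fc.1 hz
    refine ⟨z, h5 d ?_, h5 c ?_⟩
    · show sc P b (Ψ y) d < 1
      rw [(F.sc_eq_zero hL).2 h3.1]; exact one_pos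
    · show sc P b (Ψ y) c < 1
      linarith

theorem isCompact_Tsh {s : ℝ} (hs0 : 0 < s) (hs1 : s < 1) :
    IsCompact (Tsh La P b Ψ μ ε c s) := by
  have hK : IsCompact (⋃ d ∈ {d | (P d ∩ P c).Nonempty}, P d) :=
    (finite_touch F c).isCompact_biUnion fun d _ => F.cpt d
  have hKL : (⋃ d ∈ {d | (P d ∩ P c).Nonempty}, P d) ⊆ La := iUnion₂_subset fun d _ => F.sub d
  have h1 : Tsh La P b Ψ μ ε c s =
      (⋃ d ∈ {d | (P d ∩ P c).Nonempty}, P d) ∩ uh P b Ψ μ ε c ⁻¹' {s} := by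
    ext y
    constructor
    · intro hy
      obtain ⟨d, hd⟩ := F.cov y hy.1
      exact ⟨mem_biUnion (Tsh_facts F hp hε hs0 hs1 hy hd).2.2.2.2.2.2.2.2 hd, hy.2⟩
    · rintro ⟨hy, hy2⟩
      exact ⟨hKL hy, hy2⟩
  rw [h1]
  have h2 : IsClosed ((⋃ d ∈ {d | (P d ∩ P c).Nonempty}, P d) ∩ uh P b Ψ μ ε c ⁻¹' {s}) :=
    ((continuousOn_uh F hp hε hε1 c).mono hKL).preimage_isClosed_of_isClosed hK.isClosed
      isClosed_singleton
  exact hK.of_isClosed_subset h2 inter_subset_left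

end Crest.Agent.R096.Vb_965
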