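import Crest.Agent.R096.Vb5_965

/-! Row 96, P1-TRIV (helper965), part 6: the retraction of an exact sheet onto the level sphere -/

set_option autoImplicit false
set_option linter.unusedSectionVars false
set_option linter.style.haveILetI false

open Set Topology Filter

namespace Crest.Agent.R096.Vb_965

open Crest.Agent.R096.Coh_184 Crest.Agent.R096.Brk1_582 Crest.Agent.R096.Brk2_582

variable {E : Type*} [NormedAddCommGroup E] [NormedSpace ℝ E] [CompleteSpace E] {I : Type*}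

/-- the scaling factor -/
noncomputable def lam (P : I → Set E) (b : Set I → E) (Ψ : E → E) (c : I) (s : ℝ) (y : E) : ℝ :=
  (1 - s) / (1 - sc P b (Ψ y) c)

/-- the retraction on the cell `d` -/
noncomputable def Phd (P : I → Set E) (b : Set I → E) (Ψ : E → E) (c : I) (s : ℝ) (d : I)
    (y : E) : E := b {d} + lam P b Ψ c s y • (Ψ y - b {d})

open Classical in
/-- **the retraction `Φ` of the exact sheet `(c, s)` onto the level sphere `{s_c = s}`** -/
noncomputable def Phi (P : I → Set E) (b : Set I → E) (Ψ : E → E) (c : I) (s : ℝ) (y : E) : E :=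
  if h : ∃ d, y ∈ P d then Phd P b Ψ c s h.choose y else y

variable {La : Set E} {P : I → Set E} {b : Set I → E} {N : ℕ} {Ψ : E → E} {μ : E → ℝ} {ε : ℝ}
variable {c d : I} {y : E} {s : ℝ}

theorem Phd_of_lam (h : lam P b Ψ c s y = 1) : Phd P b Ψ c s d y = Ψ y := by
  unfold Phd; rw [h]; simp

variable (F : Foam La P b N) (hp : Push La P Ψ μ) (hε : 0 < ε) (hε1 : ε ≤ 1)
  (hs0 : 0 < s) (hs1 : s < 1)

include F hp hε hε1 hs0 hs1

theorem lam_mem (hy : y ∈ Tsh La P b Ψ μ ε c s) : 0 < lam P b Ψ c s y ∧ lam P b Ψ c s y ≤ 1 := by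
  obtain ⟨d, hd⟩ := F.cov y hy.1
  obtain ⟨-, -, -, -, h1, -⟩ := Tsh_facts F hp hε hs0 hs1 hy hd
  have h2 : 0 < 1 - sc P b (Ψ y) c := by linarith
  unfold lam
  exact ⟨div_pos (by linarith) h2, by rw [div_le_one h2]; linarith⟩

theorem lam_eq_one_iff (hy : y ∈ Tsh La P b Ψ μ ε c s) :
    lam P b Ψ c s y = 1 ↔ sc P b (Ψ y) c = s := by
  obtain ⟨d, hd⟩ := F.cov y hy.1
  obtain ⟨-, -, -, -, h1, -⟩ := Tsh_facts F hp hε hs0 hs1 hy hd
  have h2 : 0 < 1 - sc P b (Ψ y) c := by linarith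
  unfold lam
  rw [div_eq_one_iff_eq h2.ne']
  constructor <;> intro h <;> linarith

theorem ep_lt : ε * (1 - s) < 1 := by nlinarith

theorem wall_sc (hy : y ∈ Tsh La P b Ψ μ ε c s) {e : I} (hde : e ≠ d) (hd : y ∈ P d)
    (he : y ∈ P e) : sc P b (Ψ y) c = s ∧ Ψ y = y := by
  obtain ⟨h1, h2⟩ := hp.wall d e hde y hd he
  obtain ⟨-, -, -, -, -, -, h3, -⟩ := Tsh_facts F hp hε hs0 hs1 hy hd
  refine ⟨h3.resolve_right fun h => ?_, h2⟩
  have := ep_lt (E := E) (I := I) F hp hε hε1 hs0 hs1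
  rw [h1] at h
  linarith

theorem Phi_eq (hy : y ∈ Tsh La P b Ψ μ ε c s) (hd : y ∈ P d) :
    Phi P b Ψ c s y = Phd P b Ψ c s d y := by
  have h : ∃ d, y ∈ P d := ⟨d, hd⟩
  unfold Phi
  rw [dif_pos h]
  by_cases hde : h.choose = d
  · rw [hde]
  · have h1 := (wall_sc F hp hε hε1 hs0 hs1 hy hde hd h.choose_spec).1
    have h2 := (lam_eq_one_iff F hp hε hε1 hs0 hs1 hy).2 h1
    rw [Phd_of_lam h2, Phd_of_lam h2]

theorem Phd_mem (hy : y ∈ Tsh La P b Ψ μ ε c s) (hd : y ∈ P d) :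
    Phd P b Ψ c s d y ∈ P d ∧ sc P b (Phd P b Ψ c s d y) c = s := by
  obtain ⟨hdc, h0, hΨ, hΨL, h1, -⟩ := Tsh_facts F hp hε hs0 hs1 hy hd
  have hl := lam_mem F hp hε hε1 hs0 hs1 hy
  have hb : b {d} ∈ P d := (cell_nonempty_of_b F ⟨y, hd⟩).1
  constructor
  · exact (F.cvx d).add_smul_sub_mem hb hΨ ⟨hl.1.le, hl.2⟩
  · unfold Phd
    rw [F.sc_ray' (singleton_nonempty d) (by simpa [fc] using hΨ) hl.1.le hl.2
      (show c ∉ ({d} : Set I) from fun h => hdc h.symm)]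
    have h2 : 0 < 1 - sc P b (Ψ y) c := by linarith
    have h3 : lam P b Ψ c s y * (1 - sc P b (Ψ y) c) = 1 - s := by
      unfold lam; field_simp
    linarith

theorem Phi_mem (hy : y ∈ Tsh La P b Ψ μ ε c s) : Phi P b Ψ c s y ∈ Lset La P b c s := by
  obtain ⟨d, hd⟩ := F.cov y hy.1
  rw [Phi_eq F hp hε hε1 hs0 hs1 hy hd]
  obtain ⟨h1, h2⟩ := Phd_mem F hp hε hε1 hs0 hs1 hy hd
  exact mem_Lset_of_pos F hs0.ne' (F.sub d h1) h2

theorem continuousOn_Phd : ContinuousOn (Phd P b Ψ c s d) (Tsh La P b Ψ μ ε c s ∩ P d) := by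
  have h1 : ContinuousOn Ψ (Tsh La P b Ψ μ ε c s ∩ P d) :=
    hp.cont.mono fun y hy => ⟨hy.1.1, (Tsh_facts F hp hε hs0 hs1 hy.1 hy.2).2.1⟩
  have h2 : ContinuousOn (fun y => sc P b (Ψ y) c) (Tsh La P b Ψ μ ε c s ∩ P d) :=
    (continuousOn_sc_apply F c).comp h1 fun y hy =>
      (Tsh_facts F hp hε hs0 hs1 hy.1 hy.2).2.2.2.1
  have h3 : ContinuousOn (lam P b Ψ c s) (Tsh La P b Ψ μ ε c s ∩ P d) := by
    refine continuousOn_const.div (continuousOn_const.sub h2) fun y hy => ?_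
    have := (Tsh_facts F hp hε hs0 hs1 hy.1 hy.2).2.2.2.2.1
    have h4 : 0 < 1 - sc P b (Ψ y) c := by linarith
    exact h4.ne'
  exact continuousOn_const.add (h3.smul (h1.sub continuousOn_const))

theorem continuousOn_Phi : ContinuousOn (Phi P b Ψ c s) (Tsh La P b Ψ μ ε c s) := by
  intro y0 hy0
  have hfin := finite_touch F c
  have hT : Tsh La P b Ψ μ ε c s =
      ⋃ d ∈ {d | (P d ∩ P c).Nonempty}, (Tsh La P b Ψ μ ε c s ∩ P d) := by
    ext y
    constructor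
    · intro hy
      obtain ⟨d, hd⟩ := F.cov y hy.1
      exact mem_biUnion (Tsh_facts F hp hε hs0 hs1 hy hd).2.2.2.2.2.2.2.2 ⟨hy, hd⟩
    · intro hy
      obtain ⟨d, -, hd⟩ := mem_iUnion₂.1 hy
      exact hd.1
  unfold ContinuousWithinAt
  have hnh : 𝓝[Tsh La P b Ψ μ ε c s] y0 =
      ⨆ d ∈ {d | (P d ∩ P c).Nonempty}, 𝓝[Tsh La P b Ψ μ ε c s ∩ P d] y0 := by
    conv_lhs => rw [hT]
    exact nhdsWithin_biUnion hfin _ _
  rw [hnh]
  simp only [tendsto_iSup]
  intro d hd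
  by_cases hyd : y0 ∈ P d
  · have h1 := continuousOn_Phd F hp hε hε1 hs0 hs1 (c := c) (d := d) y0 ⟨hy0, hyd⟩
    unfold ContinuousWithinAt at h1
    rw [Phi_eq F hp hε hε1 hs0 hs1 hy0 hyd]
    refine h1.congr' ?_
    filter_upwards [self_mem_nhdsWithin] with y hy
    exact (Phi_eq F hp hε hε1 hs0 hs1 hy.1 hy.2).symm
  · have h2 : 𝓝[Tsh La P b Ψ μ ε c s ∩ P d] y0 = ⊥ := by
      rw [← notMem_closure_iff_nhdsWithin_eq_bot]
      intro h
      exact hyd ((F.cpt d).isClosed.closure_subset (closure_mono inter_subset_right h))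
    rw [h2]; exact tendsto_bot

/-- the arc over a wall point in the cell `e` -/
def arcF (P : I → Set E) (Ψ : E → E) (μ : E → ℝ) (m : ℝ) (q : E) (e : I) : Set E :=
  {y ∈ P e | Ψ y = q ∧ m ≤ μ y}

omit hε hε1 hs0 hs1 in
theorem isCompact_arcF {m : ℝ} (hm : 0 < m) (q : E) (e : I) : IsCompact (arcF P Ψ μ m q e) := by
  have h1 : IsCompact (P e ∩ μ ⁻¹' Ici m) :=
    (F.cpt e).of_isClosed_subset ((hp.mu_cont.mono (F.sub e)).preimage_isClosed_of_isClosed
      (F.cpt e).isClosed isClosed_Ici) inter_subset_left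
  have h2 : ContinuousOn Ψ (P e ∩ μ ⁻¹' Ici m) :=
    hp.cont.mono fun y hy => ⟨F.sub e hy.1, hm.trans_le hy.2⟩
  have h3 : arcF P Ψ μ m q e = (P e ∩ μ ⁻¹' Ici m) ∩ Ψ ⁻¹' {q} := by
    ext y
    exact ⟨fun h => ⟨⟨h.1, h.2.2⟩, h.2.1⟩, fun h => ⟨h.1.1, h.2, h.1.2⟩⟩
  rw [h3]
  exact h1.of_isClosed_subset (h2.preimage_isClosed_of_isClosed h1.isClosed isClosed_singleton)
    inter_subset_left

omit hε hε1 hs0 hs1 in
theorem arcF_spec {A : Type*} [AddCommGroup A] {m : ℝ} (hm : 0 < m) {q : E} {e e' : I}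
    (hne : e' ≠ e) (hq : q ∈ P e) (hq' : q ∈ P e') : IsPreconnected (arcF P Ψ μ m q e) ∧
      TrivF A (arcF P Ψ μ m q e) := by
  refine arc_of_injOn (isCompact_arcF F hp hm q e)
    (hp.mu_cont.mono fun y hy => F.sub e hy.1) (a := m) (b := 1) ?_ ?_
  · intro y hy z hz h
    exact hp.inj e y hy.1 z hz.1 (hm.trans_le hy.2.2) h (hy.2.1.trans hz.2.1.symm)
  · ext t
    constructor
    · rintro ⟨y, hy, rfl⟩
      exact ⟨hy.2.2, (hp.mu_mem y (F.sub e hy.1)).2⟩
    · intro ht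
      obtain ⟨y, hy, h1, h2⟩ := hp.surj e e' hne q hq hq' t ⟨hm.trans_le ht.1, ht.2⟩
      exact ⟨y, ⟨hy, h1, h2 ▸ ht.1⟩, h2⟩

/-- the fibre over a wall point -/
theorem fibre_wall {q : E} (hq : q ∈ Lset La P b c s) {e e' : I} (hne : e' ≠ e) (he : q ∈ P e)
    (he' : q ∈ P e') : Tsh La P b Ψ μ ε c s ∩ Phi P b Ψ c s ⁻¹' {q} =
      ⋃ e ∈ (F.finite_act hq.1).toFinset, arcF P Ψ μ (ε * (1 - s)) q e := by
  ext y
  constructor
  · rintro ⟨hy, hyq⟩
    have hyq' : Phi P b Ψ c s y = q := hyq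
    obtain ⟨d, hd⟩ := F.cov y hy.1
    obtain ⟨-, -, hΨ, -, -, h2, -⟩ := Tsh_facts F hp hε hs0 hs1 hy hd
    rw [Phi_eq F hp hε hε1 hs0 hs1 hy hd] at hyq'
    have hl := lam_mem F hp hε hε1 hs0 hs1 hy
    have hl1 : lam P b Ψ c s y = 1 := by
      by_contra h
      have h4 := F.rel {d} (singleton_nonempty d) (Ψ y) (by simpa [fc] using hΨ)
        (lam P b Ψ c s y) ⟨hl.1.le, lt_of_le_of_ne hl.2 h⟩
      have h5 : act P q = {d} := by rw [← hyq']; exact h4
      have h6 : e ∈ act P q := he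
      have h7 : e' ∈ act P q := he'
      rw [h5] at h6 h7
      exact hne (h7.trans h6.symm)
    rw [Phd_of_lam hl1] at hyq'
    refine mem_biUnion (x := d) ?_ ⟨hd, hyq', ?_⟩
    · show d ∈ (F.finite_act hq.1).toFinset
      rw [Finite.mem_toFinset]
      show q ∈ P d
      rw [← hyq']; exact hΨ
    · have h8 : 1 - s ≤ μ y / ε := by linarith
      rw [le_div_iff₀ hε] at h8
      linarith
  · intro hy
    obtain ⟨d, hd, hy⟩ := mem_iUnion₂.1 hy
    have hd' : q ∈ P d := (Finite.mem_toFinset (F.finite_act hq.1)).1 hd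
    obtain ⟨hyd, hΨ, hm⟩ := hy
    have hm0 : 0 < ε * (1 - s) := mul_pos hε (by linarith)
    have hμ : 0 < μ y := hm0.trans_le hm
    have hyc : y ∉ P c := by
      intro h
      have h1 := (hp.mem c y h hμ).1
      rw [hΨ] at h1
      have h2 := (F.sc_eq_zero hq.1).2 h1
      rw [hq.2.1] at h2
      exact hs0.ne' h2
    have hT : y ∈ Tsh La P b Ψ μ ε c s := by
      refine ⟨F.sub d hyd, ?_⟩
      rw [uh_of_not_mem hyc]
      unfold Gx
      rw [hΨ, hq.2.1]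
      refine max_eq_left ?_
      have : 1 - s ≤ μ y / ε := by rw [le_div_iff₀ hε]; linarith
      linarith
    refine ⟨hT, ?_⟩
    show Phi P b Ψ c s y = q
    rw [Phi_eq F hp hε hε1 hs0 hs1 hT hyd, Phd_of_lam, hΨ]
    rw [lam_eq_one_iff F hp hε hε1 hs0 hs1 hT, hΨ, hq.2.1]

/-- the fibre over a point of one cell only -/
theorem fibre_cell {q : E} (hq : q ∈ Lset La P b c s) (hd : q ∈ P d)
    (hone : ∀ e, q ∈ P e → e = d) : ∃ y0, Tsh La P b Ψ μ ε c s ∩ Phi P b Ψ c s ⁻¹' {q} = {y0} := by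
  have hact : act P q = {d} := by
    ext e; exact ⟨fun h => hone e h, fun h => by rw [mem_singleton_iff.1 h]; exact hd⟩
  have hcd : c ≠ d := by
    rintro rfl
    have := (F.sc_eq_zero hq.1).2 hd
    rw [hq.2.1] at this
    exact hs0.ne' this
  have hqb : q ≠ b (act P q) := by
    rw [hact]
    intro h
    classical
    have h1 := F.sc_b (singleton_nonempty d) (A := {d}) ⟨q, by simpa [fc] using hd⟩ c
    rw [if_neg (show c ∉ ({d} : Set I) from hcd), ← h, hq.2.1] at h1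
    exact hs1.ne h1
  obtain ⟨z, hz, l0, hl0, hzact, hqz⟩ := F.exists_exit hq.1 hqb
  rw [hact] at hz hzact hqz
  have hzd : z ∈ P d := by simpa [fc] using hz
  have hz2 : ∃ c', c' ≠ d ∧ z ∈ P c' := by
    by_contra hno
    push Not at hno
    apply hzact
    ext e
    exact ⟨fun h => by by_contra hne; exact hno e hne h,
      fun h => by rw [mem_singleton_iff.1 h]; exact hzd⟩
  obtain ⟨c', hc'd, hzc'⟩ := hz2
  have hsc : s = (1 - l0) + l0 * sc P b z c := by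
    rw [← hq.2.1]
    conv_lhs => rw [hqz]
    exact F.sc_ray' (singleton_nonempty d) hz hl0.1.le hl0.2.le fun h => hcd h
  have hzs : sc P b z c < s := by nlinarith [hl0.1, hl0.2, (sc_mem_Icc (P := P) (b := b) z c).2]
  have hm0 : 0 < ε * (1 - s) := mul_pos hε (by linarith)
  have hm1 := ep_lt (E := E) (I := I) F hp hε hε1 hs0 hs1
  obtain ⟨y0, hy0, hΨ0, hμ0⟩ := hp.surj d c' hc'd z hzd hzc' (ε * (1 - s)) ⟨hm0, hm1.le⟩
  refine ⟨y0, ?_⟩
  ext y
  constructor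
  · rintro ⟨hy, hyq⟩
    have hyq' : Phi P b Ψ c s y = q := hyq
    obtain ⟨e, he⟩ := F.cov y hy.1
    have hP := Phi_eq F hp hε hε1 hs0 hs1 hy he
    have hed : e = d := by
      apply hone
      rw [← hyq', hP]
      exact (Phd_mem F hp hε hε1 hs0 hs1 hy he).1
    subst hed
    rw [hP] at hyq'
    obtain ⟨-, hμ, hΨ, hΨL, h1, -, h3, -⟩ := Tsh_facts F hp hε hs0 hs1 hy he
    have hl := lam_mem F hp hε hε1 hs0 hs1 hy
    have heq : b {e} + lam P b Ψ c s y • (Ψ y - b {e}) = b {e} + l0 • (z - b {e}) := by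
      rw [← hqz]; exact hyq'
    have hrel := F.rel {e} (singleton_nonempty e)
    have hΨact : act P (Ψ y) ≠ {e} := by
      obtain ⟨c2, hc2, h⟩ := (hp.mem e y he hμ).2
      intro h4
      have : c2 ∈ act P (Ψ y) := h
      rw [h4] at this
      exact hc2 this
    have a1 : l0 ≤ lam P b Ψ c s y :=
      Foam.smul_unique hrel (by simpa [fc] using hΨ) hzact hl.1.le hl0.1 heq
    have a2 : lam P b Ψ c s y ≤ l0 :=
      Foam.smul_unique hrel hz hΨact hl0.1.le hl.1 heq.symm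
    have a3 : lam P b Ψ c s y = l0 := le_antisymm a2 a1
    rw [a3] at heq
    have a4 : Ψ y = z := by
      have h5 := add_left_cancel heq
      have h6 := smul_right_injective E hl0.1.ne' h5
      exact sub_left_injective h6
    have a5 : μ y = ε * (1 - s) := by
      refine h3.resolve_left fun h => ?_
      rw [a4] at h
      exact hzs.ne h
    exact hp.inj e y he y0 hy0 hμ (a5.trans hμ0.symm) (a4.trans hΨ0.symm)
  · intro hy
    rw [mem_singleton_iff.1 hy]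
    have hyc : y0 ∉ P c := by
      intro h
      have := (hp.wall d c hcd y0 hy0 h).1
      rw [hμ0] at this
      exact hm1.ne this
    have hT : y0 ∈ Tsh La P b Ψ μ ε c s := by
      refine ⟨F.sub d hy0, ?_⟩
      rw [uh_of_not_mem hyc]
      unfold Gx
      rw [hΨ0, hμ0]
      have : 1 - ε * (1 - s) / ε = s := by field_simp; ring
      rw [this]
      exact max_eq_right hzs.le
    refine ⟨hT, ?_⟩
    show Phi P b Ψ c s y0 = q
    rw [Phi_eq F hp hε hε1 hs0 hs1 hT hy0, hqz]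
    unfold Phd lam
    rw [hΨ0]
    congr 2
    have : 0 < 1 - sc P b z c := by linarith
    rw [div_eq_iff this.ne']
    linarith

/-- all fibres: nonempty, connected, trivial torsors -/
theorem fibre_spec {A : Type*} [AddCommGroup A] {q : E} (hq : q ∈ Lset La P b c s) :
    (Tsh La P b Ψ μ ε c s ∩ Phi P b Ψ c s ⁻¹' {q}).Nonempty ∧
    IsPreconnected (Tsh La P b Ψ μ ε c s ∩ Phi P b Ψ c s ⁻¹' {q}) ∧
      TrivF A (Tsh La P b Ψ μ ε c s ∩ Phi P b Ψ c s ⁻¹' {q}) := by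
  obtain ⟨d, hd⟩ := F.cov q hq.1
  by_cases h : ∃ e, e ≠ d ∧ q ∈ P e
  · obtain ⟨e, hed, he⟩ := h
    rw [fibre_wall F hp hε hε1 hs0 hs1 hq hed hd he]
    have hm0 : 0 < ε * (1 - s) := mul_pos hε (by linarith)
    have hm1 := ep_lt (E := E) (I := I) F hp hε hε1 hs0 hs1
    have key : ∀ e ∈ (F.finite_act hq.1).toFinset, q ∈ P e ∧ ∃ e', e' ≠ e ∧ q ∈ P e' := by
      intro e1 he1
      have he1' : q ∈ P e1 := (Finite.mem_toFinset (F.finite_act hq.1)).1 he1
      refine ⟨he1', ?_⟩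
      by_cases h : e1 = d
      · exact ⟨e, by rw [h]; exact hed, he⟩
      · exact ⟨d, fun h' => h h'.symm, hd⟩
    have hqa : ∀ e ∈ (F.finite_act hq.1).toFinset, q ∈ arcF P Ψ μ (ε * (1 - s)) q e := by
      intro e1 he1
      obtain ⟨h1, e', hne, h2⟩ := key e1 he1
      obtain ⟨h4, h5⟩ := hp.wall e1 e' hne q h1 h2
      exact ⟨h1, h5, by rw [h4]; exact hm1.le⟩
    have hdm : d ∈ (F.finite_act hq.1).toFinset := (Finite.mem_toFinset _).2 hd
    have h7 := trivF_star (A := A) (F.finite_act hq.1).toFinset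
      (fun e => arcF P Ψ μ (ε * (1 - s)) q e) q ⟨d, hdm⟩ hqa
      (fun e _ => (isCompact_arcF F hp hm0 q e).isClosed)
      (fun e he => by
        obtain ⟨h1, e', hne, h2⟩ := key e he
        exact (arcF_spec (A := A) F hp hm0 hne h1 h2).1)
      (fun e he => by
        obtain ⟨h1, e', hne, h2⟩ := key e he
        exact (arcF_spec (A := A) F hp hm0 hne h1 h2).2)
      (by
        rintro e1 - e2 - hne y ⟨hy1, hy2⟩
        have h8 := (hp.wall e1 e2 hne.symm y hy1.1 hy2.1).2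
        show y = q
        rw [← h8]; exact hy1.2.1)
    exact ⟨⟨q, mem_biUnion hdm (hqa d hdm)⟩, h7⟩
  · push Not at h
    obtain ⟨y0, hy0⟩ := fibre_cell F hp hε hε1 hs0 hs1 hq hd fun e he => by
      by_contra hne
      exact h e hne he
    rw [hy0]
    exact ⟨singleton_nonempty y0, isPreconnected_singleton, trivF_singleton y0⟩

variable {A : Type*} [AddCommGroup A]

/-- **TRIV**: the part of the exact sheet over a closed part `D` of the level sphere has trivial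
torsors as soon as `D` has -/
theorem trivF_preim {D : Set E} (hDL : D ⊆ Lset La P b c s) (hDc : IsClosed D)
    (hD : TrivF A D) : TrivF A (Tsh La P b Ψ μ ε c s ∩ Phi P b Ψ c s ⁻¹' D) := by
  intro n
  have hT := isCompact_Tsh F hp hε hε1 (c := c) hs0 hs1
  have hS : IsCompact (Tsh La P b Ψ μ ε c s ∩ Phi P b Ψ c s ⁻¹' D) :=
    hT.of_isClosed_subset ((continuousOn_Phi F hp hε hε1 hs0 hs1).preimage_isClosed_of_isClosed
      hT.isClosed hDc) inter_subset_left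
  have hfib : ∀ z ∈ D, (Tsh La P b Ψ μ ε c s ∩ Phi P b Ψ c s ⁻¹' D) ∩ Phi P b Ψ c s ⁻¹' {z} =
      Tsh La P b Ψ μ ε c s ∩ Phi P b Ψ c s ⁻¹' {z} := by
    intro z hz
    ext y
    refine ⟨fun h => ⟨h.1.1, h.2⟩, fun h => ⟨⟨h.1, ?_⟩, h.2⟩⟩
    have : Phi P b Ψ c s y = z := h.2
    show Phi P b Ψ c s y ∈ D
    rw [this]; exact hz
  refine TrivAll.of_fibres hS hS.isClosed (T := D) ((continuousOn_Phi F hp hε hε1 hs0 hs1).mono
    inter_subset_left) ?_ ?_ ?_ hD
  · ext z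
    constructor
    · rintro ⟨y, hy, rfl⟩; exact hy.2
    · intro hz
      obtain ⟨y, hy, hyz⟩ := (fibre_spec (A := A) F hp hε hε1 hs0 hs1 (hDL hz)).1
      have hyz' : Phi P b Ψ c s y = z := hyz
      exact ⟨y, ⟨hy, by show Phi P b Ψ c s y ∈ D; rw [hyz']; exact hz⟩, hyz'⟩
  · intro z hz
    rw [hfib z hz]
    exact (fibre_spec (A := A) F hp hε hε1 hs0 hs1 (hDL hz)).2.1
  · intro z hz
    rw [hfib z hz]
    exact (fibre_spec (A := A) F hp hε hε1 hs0 hs1 (hDL hz)).2.2 n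

theorem isCompact_preim {D : Set E} (hDc : IsClosed D) :
    IsCompact (Tsh La P b Ψ μ ε c s ∩ Phi P b Ψ c s ⁻¹' D) := by
  have hT := isCompact_Tsh F hp hε hε1 (c := c) hs0 hs1
  exact hT.of_isClosed_subset ((continuousOn_Phi F hp hε hε1 hs0 hs1).preimage_isClosed_of_isClosed
      hT.isClosed hDc) inter_subset_left

theorem isPreconnected_preim {D : Set E} (hDL : D ⊆ Lset La P b c s) (hDc : IsClosed D)
    (hD : IsPreconnected D) :
    IsPreconnected (Tsh La P b Ψ μ ε c s ∩ Phi P b Ψ c s ⁻¹' D) := by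
  refine preconn_of_fibres (T := D) (isCompact_preim F hp hε hε1 hs0 hs1 hDc)
    ((continuousOn_Phi F hp hε hε1 hs0 hs1).mono inter_subset_left) ?_ ?_ hD
  · ext z
    constructor
    · rintro ⟨y, hy, rfl⟩; exact hy.2
    · intro hz
      obtain ⟨y, hy, hyz⟩ := (fibre_spec (A := ℤ) F hp hε hε1 hs0 hs1 (hDL hz)).1
      have hyz' : Phi P b Ψ c s y = z := hyz
      exact ⟨y, ⟨hy, by show Phi P b Ψ c s y ∈ D; rw [hyz']; exact hz⟩, hyz'⟩
  · intro z hz
    have : (Tsh La P b Ψ μ ε c s ∩ Phi P b Ψ c s ⁻¹' D) ∩ Phi P b Ψ c s ⁻¹' {z} =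
        Tsh La P b Ψ μ ε c s ∩ Phi P b Ψ c s ⁻¹' {z} := by
      ext y
      refine ⟨fun h => ⟨h.1.1, h.2⟩, fun h => ⟨⟨h.1, ?_⟩, h.2⟩⟩
      have : Phi P b Ψ c s y = z := h.2
      show Phi P b Ψ c s y ∈ D
      rw [this]; exact hz
    rw [this]
    exact (fibre_spec (A := ℤ) F hp hε hε1 hs0 hs1 (hDL hz)).2.1

theorem Tsh_eq_preim : Tsh La P b Ψ μ ε c s =
    Tsh La P b Ψ μ ε c s ∩ Phi P b Ψ c s ⁻¹' (Lset La P b c s) :=
  (inter_eq_left.2 fun _ hy => Phi_mem F hp hε hε1 hs0 hs1 hy).symm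

/-- **the exact sheets have trivial torsors** -/
theorem trivF_Tsh [FiniteDimensional ℝ E] (h3 : Module.finrank ℝ E = 3) (hc : (P c).Nonempty) :
    TrivF A (Tsh La P b Ψ μ ε c s) := by
  rw [Tsh_eq_preim F hp hε hε1 hs0 hs1]
  exact trivF_preim F hp hε hε1 hs0 hs1 Subset.rfl (isCompact_Lset F c hs0.le hs1).isClosed
    (trivF_Lset F h3 hc hs0.le hs1)

theorem isPreconnected_Tsh [FiniteDimensional ℝ E] (h3 : Module.finrank ℝ E = 3)
    (hc : (P c).Nonempty) : IsPreconnected (Tsh La P b Ψ μ ε c s) := by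
  rw [Tsh_eq_preim F hp hε hε1 hs0 hs1]
  exact isPreconnected_preim F hp hε hε1 hs0 hs1 Subset.rfl
    (isCompact_Lset F c hs0.le hs1).isClosed (isPreconnected_Lset F h3 hc hs0.le hs1)

end Crest.Agent.R096.Vb_965
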