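import Crest.Agent.R096.Vb6_965

/-! Row 96, P1-TRIV (helper965), part 7: ONE continuous map `RR : La → La` (form of 543 #9494):
`RR y = b {d} + min 1 (μ y / ε) • (Ψ y - b {d})` on the cell `d`; preimages of compact sets with
trivial torsors have trivial torsors -/

set_option autoImplicit false
set_option linter.unusedSectionVars false
set_option linter.style.haveILetI false

open Set Topology Filter

namespace Crest.Agent.R096.Vb_965

open Crest.Agent.R096.Coh_184 Crest.Agent.R096.Brk1_582 Crest.Agent.R096.Brk2_582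

variable {E : Type*} [NormedAddCommGroup E] [NormedSpace ℝ E] [CompleteSpace E] {I : Type*}

/-- the radius on the image side -/
noncomputable def rr (μ : E → ℝ) (ε : ℝ) (y : E) : ℝ := min 1 (μ y / ε)

/-- the map on the cell `d` -/
noncomputable def Rd (b : Set I → E) (Ψ : E → E) (μ : E → ℝ) (ε : ℝ) (d : I) (y : E) : E :=
  b {d} + rr μ ε y • (Ψ y - b {d})

open Classical in
/-- **the map `R`** -/
noncomputable def RR (P : I → Set E) (b : Set I → E) (Ψ : E → E) (μ : E → ℝ) (ε : ℝ) (y : E) : E :=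
  if h : ∃ d, y ∈ P d then Rd b Ψ μ ε h.choose y else y

variable {La : Set E} {P : I → Set E} {b : Set I → E} {N : ℕ} {Ψ : E → E} {μ : E → ℝ} {ε : ℝ}
variable {c d : I} {y : E}

theorem Rd_of_rr (h : rr μ ε y = 1) : Rd b Ψ μ ε d y = Ψ y := by
  unfold Rd; rw [h]; simp

variable (F : Foam La P b N) (hp : Push La P Ψ μ) (hε : 0 < ε) (hε1 : ε ≤ 1)

include F hp hε hε1

theorem rr_mem (hy : y ∈ La) : 0 ≤ rr μ ε y ∧ rr μ ε y ≤ 1 :=
  ⟨le_min zero_le_one (div_nonneg (hp.mu_mem y hy).1 hε.le), min_le_left _ _⟩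

theorem rr_wall {c' : I} (h : c' ≠ c) (hy : y ∈ P c) (hy' : y ∈ P c') :
    rr μ ε y = 1 ∧ Ψ y = y := by
  obtain ⟨h1, h2⟩ := hp.wall c c' h y hy hy'
  refine ⟨?_, h2⟩
  unfold rr
  rw [h1]
  exact min_eq_left (by rw [le_div_iff₀ hε]; linarith)

theorem RR_eq (hd : y ∈ P d) : RR P b Ψ μ ε y = Rd b Ψ μ ε d y := by
  have h : ∃ d, y ∈ P d := ⟨d, hd⟩
  unfold RR
  rw [dif_pos h]
  by_cases hde : h.choose = d
  · rw [hde]
  · have h2 := (rr_wall F hp hε hε1 hde hd h.choose_spec).1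
    rw [Rd_of_rr h2, Rd_of_rr h2]

theorem RR_wall {c' : I} (h : c' ≠ c) (hy : y ∈ P c) (hy' : y ∈ P c') :
    RR P b Ψ μ ε y = y := by
  obtain ⟨h1, h2⟩ := rr_wall F hp hε hε1 h hy hy'
  rw [RR_eq F hp hε hε1 hy, Rd_of_rr h1, h2]

/-- off the centres (`μ ≥ ε`) `RR = Ψ` -/
theorem RR_eq_Psi (hy : y ∈ La) (h : ε ≤ μ y) : RR P b Ψ μ ε y = Ψ y := by
  obtain ⟨d, hd⟩ := F.cov y hy
  rw [RR_eq F hp hε hε1 hd, Rd_of_rr]
  exact min_eq_left (by rw [le_div_iff₀ hε]; linarith)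

theorem Rd_mem (hd : y ∈ P d) : Rd b Ψ μ ε d y ∈ P d := by
  have hb : b {d} ∈ P d := (cell_nonempty_of_b F ⟨y, hd⟩).1
  have h1 := rr_mem F hp hε hε1 (F.sub d hd)
  by_cases h0 : 0 < μ y
  · exact (F.cvx d).add_smul_sub_mem hb (hp.mem d y hd h0).1 h1
  · have h2 : μ y = 0 := le_antisymm (not_lt.1 h0) (hp.mu_mem y (F.sub d hd)).1
    have h3 : rr μ ε y = 0 := by unfold rr; rw [h2]; simp
    unfold Rd; rw [h3]; simpa using hb

theorem RR_mem (hd : y ∈ P d) : RR P b Ψ μ ε y ∈ P d := by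
  rw [RR_eq F hp hε hε1 hd]; exact Rd_mem F hp hε hε1 hd

theorem RR_mem_La (hy : y ∈ La) : RR P b Ψ μ ε y ∈ La := by
  obtain ⟨d, hd⟩ := F.cov y hy
  exact F.sub d (RR_mem F hp hε hε1 hd)

theorem continuousOn_rr : ContinuousOn (rr μ ε) La :=
  fun y hy => (continuousWithinAt_const (b := (1 : ℝ))).min ((hp.mu_cont y hy).div_const ε)

theorem continuousOn_Rd : ContinuousOn (Rd b Ψ μ ε d) (P d) := by
  intro y0 hy0
  have hL := F.sub d hy0
  have hr : ContinuousWithinAt (rr μ ε) (P d) y0 :=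
    (continuousOn_rr F hp hε hε1 y0 hL).mono (F.sub d)
  have hb : b {d} ∈ P d := (cell_nonempty_of_b F ⟨y0, hy0⟩).1
  rcases (hp.mu_mem y0 hL).1.eq_or_lt with h0 | h0
  · -- `μ = 0`
    have h1 : rr μ ε y0 = 0 := by unfold rr; rw [← h0]; simp
    obtain ⟨R, hR⟩ := (F.cpt d).isBounded.exists_norm_le
    have hval : Rd b Ψ μ ε d y0 = b {d} := by unfold Rd; rw [h1]; simp
    unfold ContinuousWithinAt
    rw [hval, tendsto_iff_norm_sub_tendsto_zero]
    have h2 : Tendsto (fun y => rr μ ε y * (R + ‖b {d}‖)) (𝓝[P d] y0) (𝓝 0) := by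
      have h3 : Tendsto (rr μ ε) (𝓝[P d] y0) (𝓝 (rr μ ε y0)) := hr
      rw [h1] at h3
      simpa using h3.mul_const (R + ‖b {d}‖)
    refine squeeze_zero' (Eventually.of_forall fun y => norm_nonneg _) ?_ h2
    filter_upwards [self_mem_nhdsWithin] with y hy
    have h4 := rr_mem F hp hε hε1 (F.sub d hy)
    have h5 : Rd b Ψ μ ε d y - b {d} = rr μ ε y • (Ψ y - b {d}) := by unfold Rd; abel
    rw [h5, norm_smul, Real.norm_of_nonneg h4.1]
    by_cases h6 : 0 < μ y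
    · refine mul_le_mul_of_nonneg_left ?_ h4.1
      exact (norm_sub_le _ _).trans (add_le_add (hR _ (hp.mem d y hy h6).1) le_rfl)
    · have h7 : μ y = 0 := le_antisymm (not_lt.1 h6) (hp.mu_mem y (F.sub d hy)).1
      have h8 : rr μ ε y = 0 := by unfold rr; rw [h7]; simp
      rw [h8]; simp
  · have hΨ : ContinuousWithinAt Ψ (P d) y0 := by
      have h1 := hp.cont y0 ⟨hL, h0⟩
      refine h1.mono_of_mem_nhdsWithin ?_
      have h2 : ∀ᶠ y in 𝓝[P d] y0, 0 < μ y :=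
        ((hp.mu_cont y0 hL).mono (F.sub d)).eventually_const_lt h0
      filter_upwards [h2, self_mem_nhdsWithin] with y h2 h3 using ⟨F.sub d h3, h2⟩
    exact continuousWithinAt_const.add (hr.smul (hΨ.sub continuousWithinAt_const))

/-- **`RR` is continuous** -/
theorem continuousOn_RR : ContinuousOn (RR P b Ψ μ ε) La := by
  intro y0 hy0
  obtain ⟨r, hr, hfin⟩ := F.lf y0 hy0
  have hnh0 : La ∩ Metric.ball y0 r ∈ 𝓝[La] y0 :=
    inter_mem self_mem_nhdsWithin (nhdsWithin_le_nhds (Metric.ball_mem_nhds y0 hr))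
  have h0 : ContinuousWithinAt (RR P b Ψ μ ε)
      (⋃ d ∈ {d | (P d ∩ Metric.ball y0 r).Nonempty}, P d) y0 := by
    unfold ContinuousWithinAt
    rw [nhdsWithin_biUnion hfin]
    simp only [tendsto_iSup]
    intro d hd
    by_cases hyd : y0 ∈ P d
    · have h1 := continuousOn_Rd F hp hε hε1 (d := d) y0 hyd
      unfold ContinuousWithinAt at h1
      rw [RR_eq F hp hε hε1 hyd]
      refine h1.congr' ?_
      filter_upwards [self_mem_nhdsWithin] with y hy
      exact (RR_eq F hp hε hε1 hy).symm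
    · have h2 : 𝓝[P d] y0 = ⊥ := by
        rw [← notMem_closure_iff_nhdsWithin_eq_bot]
        intro h
        exact hyd ((F.cpt d).isClosed.closure_subset h)
      rw [h2]; exact tendsto_bot
  refine h0.mono_of_mem_nhdsWithin ?_
  filter_upwards [hnh0] with y hy
  obtain ⟨d, hd⟩ := F.cov y hy.1
  exact mem_biUnion (show d ∈ {d | (P d ∩ Metric.ball y0 r).Nonempty} from ⟨y, hd, hy.2⟩) hd

theorem RR_eq_b_iff (hd : y ∈ P d) : RR P b Ψ μ ε y = b {d} → μ y = 0 := by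
  intro h
  by_contra hne
  have h0 : 0 < μ y := lt_of_le_of_ne (hp.mu_mem y (F.sub d hd)).1 (Ne.symm hne)
  obtain ⟨h1, c', hc', h2⟩ := hp.mem d y hd h0
  rw [RR_eq F hp hε hε1 hd] at h
  unfold Rd at h
  have hr : 0 < rr μ ε y := lt_min one_pos (div_pos h0 hε)
  have h3 : rr μ ε y • (Ψ y - b {d}) = 0 := by
    have h9 : b {d} + rr μ ε y • (Ψ y - b {d}) - b {d} = 0 := by rw [h, sub_self]
    simpa using h9
  have h4 : Ψ y = b {d} := by
    rcases smul_eq_zero.1 h3 with h5 | h5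
    · exact absurd h5 hr.ne'
    · exact sub_eq_zero.1 h5
  rw [h4] at h2
  exact hc' ((cell_nonempty_of_b F ⟨y, hd⟩).2 c' h2)

/-- the fibre over a wall point -/
theorem fibreR_wall {q : E} {e e' : I} (hne : e' ≠ e) (he : q ∈ P e)
    (he' : q ∈ P e') : {y ∈ La | RR P b Ψ μ ε y = q} =
      ⋃ e1 ∈ (F.finite_act (F.sub e he)).toFinset, arcF P Ψ μ ε q e1 := by
  ext y
  constructor
  · rintro ⟨hy, hyq⟩
    obtain ⟨d, hd⟩ := F.cov y hy
    have hqd : q ∈ P d := by rw [← hyq]; exact RR_mem F hp hε hε1 hd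
    rw [RR_eq F hp hε hε1 hd] at hyq
    have hr := rr_mem F hp hε hε1 hy
    have h0 : 0 < μ y := by
      by_contra h6
      have h7 : μ y = 0 := le_antisymm (not_lt.1 h6) (hp.mu_mem y hy).1
      have h8 : rr μ ε y = 0 := by unfold rr; rw [h7]; simp
      have h9 : q = b {d} := by rw [← hyq]; unfold Rd; rw [h8]; simp
      have h10 := (cell_nonempty_of_b F ⟨y, hd⟩).2
      rw [← h9] at h10
      exact hne ((h10 e' he').trans (h10 e he).symm)
    have hΨ := (hp.mem d y hd h0).1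
    have hr1 : rr μ ε y = 1 := by
      by_contra h
      have h4 := F.rel {d} (singleton_nonempty d) (Ψ y) (by simpa [fc] using hΨ)
        (rr μ ε y) ⟨hr.1, lt_of_le_of_ne hr.2 h⟩
      have h5 : act P q = {d} := by rw [← hyq]; exact h4
      have h6 : e ∈ act P q := he
      have h7 : e' ∈ act P q := he'
      rw [h5] at h6 h7
      exact hne (h7.trans h6.symm)
    rw [Rd_of_rr hr1] at hyq
    refine mem_biUnion (x := d) ?_ ⟨hd, hyq, ?_⟩
    · show d ∈ (F.finite_act (F.sub e he)).toFinset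
      rw [Finite.mem_toFinset]
      exact hqd
    · have h8 : 1 ≤ μ y / ε := by
        have : min 1 (μ y / ε) = 1 := hr1
        exact min_eq_left_iff.1 this
      rw [le_div_iff₀ hε] at h8
      linarith
  · intro hy
    obtain ⟨d, hd, hyd, hΨ, hm⟩ := mem_iUnion₂.1 hy
    refine ⟨F.sub d hyd, ?_⟩
    rw [RR_eq_Psi F hp hε hε1 (F.sub d hyd) hm, hΨ]

/-- the fibre over a point of one cell only, different from the centre -/
theorem fibreR_cell {q : E} (hd : q ∈ P d) (hone : ∀ e, q ∈ P e → e = d) (hqb : q ≠ b {d}) :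
    ∃ y0, {y ∈ La | RR P b Ψ μ ε y = q} = {y0} := by
  have hqL := F.sub d hd
  have hact : act P q = {d} := by
    ext e; exact ⟨fun h => hone e h, fun h => by rw [mem_singleton_iff.1 h]; exact hd⟩
  have hqb' : q ≠ b (act P q) := by rw [hact]; exact hqb
  obtain ⟨z, hz, l0, hl0, hzact, hqz⟩ := F.exists_exit hqL hqb'
  rw [hact] at hz hzact hqz
  have hzd : z ∈ P d := by simpa [fc] using hz
  have hz2 : ∃ c', c' ≠ d ∧ z ∈ P c' := by
    by_contra hno
    push Not at hno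
    apply hzact
    ext e
    exact ⟨fun h => by by_contra hne; exact hno e hne h,
      fun h => by rw [mem_singleton_iff.1 h]; exact hzd⟩
  obtain ⟨c', hc'd, hzc'⟩ := hz2
  have hm : ε * l0 ∈ Ioc (0 : ℝ) 1 := ⟨mul_pos hε hl0.1, by nlinarith [hl0.1, hl0.2]⟩
  obtain ⟨y0, hy0, hΨ0, hμ0⟩ := hp.surj d c' hc'd z hzd hzc' (ε * l0) hm
  have hr0 : rr μ ε y0 = l0 := by
    unfold rr
    rw [hμ0, mul_div_cancel_left₀ _ hε.ne']
    exact min_eq_right hl0.2.le
  refine ⟨y0, ?_⟩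
  ext y
  constructor
  · rintro ⟨hy, hyq⟩
    obtain ⟨e, he⟩ := F.cov y hy
    have hP := RR_eq F hp hε hε1 he
    have hed : e = d := by
      apply hone
      rw [← hyq]
      exact RR_mem F hp hε hε1 he
    subst hed
    rw [hP] at hyq
    have h0 : 0 < μ y := by
      by_contra h6
      have h7 : μ y = 0 := le_antisymm (not_lt.1 h6) (hp.mu_mem y hy).1
      have h8 : rr μ ε y = 0 := by unfold rr; rw [h7]; simp
      apply hqb
      rw [← hyq]; unfold Rd; rw [h8]; simp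
    have hr : 0 < rr μ ε y := lt_min one_pos (div_pos h0 hε)
    have heq : b {e} + rr μ ε y • (Ψ y - b {e}) = b {e} + l0 • (z - b {e}) := by
      rw [← hqz]; exact hyq
    have hrel := F.rel {e} (singleton_nonempty e)
    obtain ⟨hΨ, c2, hc2, hΨ2⟩ := hp.mem e y he h0
    have hΨact : act P (Ψ y) ≠ {e} := by
      intro h4
      have : c2 ∈ act P (Ψ y) := hΨ2
      rw [h4] at this
      exact hc2 this
    have a1 : l0 ≤ rr μ ε y :=
      Foam.smul_unique hrel (by simpa [fc] using hΨ) hzact hr.le hl0.1 heq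
    have a2 : rr μ ε y ≤ l0 :=
      Foam.smul_unique hrel hz hΨact hl0.1.le hr heq.symm
    have a3 : rr μ ε y = l0 := le_antisymm a2 a1
    rw [a3] at heq
    have a4 : Ψ y = z := by
      have h5 := add_left_cancel heq
      have h6 := smul_right_injective E hl0.1.ne' h5
      exact sub_left_injective h6
    have a5 : μ y = ε * l0 := by
      have h6 : min 1 (μ y / ε) = l0 := a3
      rcases min_choice 1 (μ y / ε) with h7 | h7
      · rw [h7] at h6
        exact absurd h6.symm hl0.2.ne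
      · rw [h7] at h6
        rw [← h6]; field_simp
    exact hp.inj e y he y0 hy0 h0 (a5.trans hμ0.symm) (a4.trans hΨ0.symm)
  · intro hy
    rw [mem_singleton_iff.1 hy]
    refine ⟨F.sub d hy0, ?_⟩
    rw [RR_eq F hp hε hε1 hy0, hqz]
    unfold Rd
    rw [hr0, hΨ0]

theorem fibreR_spec {A : Type*} [AddCommGroup A] {q : E} (hq : q ∈ La) (hqb : ∀ d, q ≠ b {d}) :
    ({y ∈ La | RR P b Ψ μ ε y = q}).Nonempty ∧
    IsPreconnected {y ∈ La | RR P b Ψ μ ε y = q} ∧
      TrivF A {y ∈ La | RR P b Ψ μ ε y = q} := by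
  obtain ⟨d, hd⟩ := F.cov q hq
  by_cases h : ∃ e, e ≠ d ∧ q ∈ P e
  · obtain ⟨e, hed, he⟩ := h
    rw [fibreR_wall F hp hε hε1 hed hd he]
    have key : ∀ e ∈ (F.finite_act hq).toFinset, q ∈ P e ∧ ∃ e', e' ≠ e ∧ q ∈ P e' := by
      intro e1 he1
      have he1' : q ∈ P e1 := (Finite.mem_toFinset (F.finite_act hq)).1 he1
      refine ⟨he1', ?_⟩
      by_cases h : e1 = d
      · exact ⟨e, by rw [h]; exact hed, he⟩
      · exact ⟨d, fun h' => h h'.symm, hd⟩
    have hqa : ∀ e ∈ (F.finite_act hq).toFinset, q ∈ arcF P Ψ μ ε q e := by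
      intro e1 he1
      obtain ⟨h1, e', hne, h2⟩ := key e1 he1
      obtain ⟨h4, h5⟩ := hp.wall e1 e' hne q h1 h2
      exact ⟨h1, h5, by rw [h4]; exact hε1⟩
    have hdm : d ∈ (F.finite_act hq).toFinset := (Finite.mem_toFinset _).2 hd
    have h7 := trivF_star (A := A) (F.finite_act hq).toFinset
      (fun e => arcF P Ψ μ ε q e) q ⟨d, hdm⟩ hqa
      (fun e _ => (isCompact_arcF F hp hε q e).isClosed)
      (fun e he => by
        obtain ⟨h1, e', hne, h2⟩ := key e he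
        exact (arcF_spec (A := A) F hp hε hne h1 h2).1)
      (fun e he => by
        obtain ⟨h1, e', hne, h2⟩ := key e he
        exact (arcF_spec (A := A) F hp hε hne h1 h2).2)
      (by
        rintro e1 - e2 - hne y ⟨hy1, hy2⟩
        have h8 := (hp.wall e1 e2 hne.symm y hy1.1 hy2.1).2
        show y = q
        rw [← h8]; exact hy1.2.1)
    exact ⟨⟨q, mem_biUnion hdm (hqa d hdm)⟩, h7⟩
  · push Not at h
    obtain ⟨y0, hy0⟩ := fibreR_cell F hp hε hε1 hd (fun e he => by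
      by_contra hne
      exact h e hne he) (hqb d)
    rw [hy0]
    exact ⟨singleton_nonempty y0, isPreconnected_singleton, trivF_singleton y0⟩

theorem isCompact_RR {D : Set E} (hD : IsCompact D) (hDL : D ⊆ La) :
    IsCompact {y ∈ La | RR P b Ψ μ ε y ∈ D} := by
  have hfin : {d | (P d ∩ D).Nonempty}.Finite := F.finite_meet hD hDL
  have hK : IsCompact (⋃ d ∈ {d | (P d ∩ D).Nonempty}, P d) :=
    hfin.isCompact_biUnion fun d _ => F.cpt d
  have hKL : (⋃ d ∈ {d | (P d ∩ D).Nonempty}, P d) ⊆ La := iUnion₂_subset fun d _ => F.sub d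
  have h1 : {y ∈ La | RR P b Ψ μ ε y ∈ D} =
      (⋃ d ∈ {d | (P d ∩ D).Nonempty}, P d) ∩ RR P b Ψ μ ε ⁻¹' D := by
    ext y
    constructor
    · rintro ⟨hy, hyD⟩
      obtain ⟨d, hd⟩ := F.cov y hy
      exact ⟨mem_biUnion (show d ∈ {d | (P d ∩ D).Nonempty} from
        ⟨_, RR_mem F hp hε hε1 hd, hyD⟩) hd, hyD⟩
    · rintro ⟨hy, hy2⟩
      exact ⟨hKL hy, hy2⟩
  rw [h1]
  exact hK.of_isClosed_subset (((continuousOn_RR F hp hε hε1).mono hKL).preimage_isClosed_of_isClosed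
    hK.isClosed hD.isClosed) inter_subset_left

variable {A : Type*} [AddCommGroup A]

/-- **TRIV for `RR`** -/
theorem trivF_RR {D : Set E} (hD : IsCompact D) (hDL : D ⊆ La) (hb : ∀ d, b {d} ∉ D)
    (hT : TrivF A D) : TrivF A {y ∈ La | RR P b Ψ μ ε y ∈ D} := by
  intro n
  have hS := isCompact_RR F hp hε hε1 hD hDL
  have hfib : ∀ z ∈ D, {y ∈ La | RR P b Ψ μ ε y ∈ D} ∩ RR P b Ψ μ ε ⁻¹' {z} =
      {y ∈ La | RR P b Ψ μ ε y = z} := by
    intro z hz
    ext y
    refine ⟨fun h => ⟨h.1.1, h.2⟩, fun h => ⟨⟨h.1, ?_⟩, h.2⟩⟩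
    rw [h.2]; exact hz
  have hzb : ∀ z ∈ D, ∀ d, z ≠ b {d} := fun z hz d h => hb d (h ▸ hz)
  refine TrivAll.of_fibres hS hS.isClosed (T := D) ((continuousOn_RR F hp hε hε1).mono
    fun y hy => hy.1) ?_ ?_ ?_ hT
  · ext z
    constructor
    · rintro ⟨y, hy, rfl⟩; exact hy.2
    · intro hz
      obtain ⟨y, hy, hyz⟩ := (fibreR_spec (A := A) F hp hε hε1 (hDL hz) (hzb z hz)).1
      exact ⟨y, ⟨hy, by rw [hyz]; exact hz⟩, hyz⟩
  · intro z hz
    rw [hfib z hz]
    exact (fibreR_spec (A := A) F hp hε hε1 (hDL hz) (hzb z hz)).2.1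
  · intro z hz
    rw [hfib z hz]
    exact (fibreR_spec (A := A) F hp hε hε1 (hDL hz) (hzb z hz)).2.2 n

theorem isPreconnected_RR {D : Set E} (hD : IsCompact D) (hDL : D ⊆ La) (hb : ∀ d, b {d} ∉ D)
    (hT : IsPreconnected D) : IsPreconnected {y ∈ La | RR P b Ψ μ ε y ∈ D} := by
  have hS := isCompact_RR F hp hε hε1 hD hDL
  have hfib : ∀ z ∈ D, {y ∈ La | RR P b Ψ μ ε y ∈ D} ∩ RR P b Ψ μ ε ⁻¹' {z} =
      {y ∈ La | RR P b Ψ μ ε y = z} := by
    intro z hz
    ext y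
    refine ⟨fun h => ⟨h.1.1, h.2⟩, fun h => ⟨⟨h.1, ?_⟩, h.2⟩⟩
    rw [h.2]; exact hz
  have hzb : ∀ z ∈ D, ∀ d, z ≠ b {d} := fun z hz d h => hb d (h ▸ hz)
  refine preconn_of_fibres (T := D) hS ((continuousOn_RR F hp hε hε1).mono
    fun y hy => hy.1) ?_ ?_ hT
  · ext z
    constructor
    · rintro ⟨y, hy, rfl⟩; exact hy.2
    · intro hz
      obtain ⟨y, hy, hyz⟩ := (fibreR_spec (A := ℤ) F hp hε hε1 (hDL hz) (hzb z hz)).1
      exact ⟨y, ⟨hy, by rw [hyz]; exact hz⟩, hyz⟩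
  · intro z hz
    rw [hfib z hz]
    exact (fibreR_spec (A := ℤ) F hp hε hε1 (hDL hz) (hzb z hz)).2.1

theorem b_not_mem_Lset {a : I} {t : ℝ} (ht0 : 0 < t) (ht1 : t < 1) (hne : ∀ d, (P d).Nonempty)
    (d : I) : b {d} ∉ Lset La P b a t := by
  classical
  intro h
  have h1 := F.sc_b (singleton_nonempty d) (A := {d}) (by simpa [fc] using hne d) a
  rw [h.2.1] at h1
  split_ifs at h1
  · exact ht0.ne' h1
  · exact ht1.ne h1

/-- **the sheets `{sc (RR y) a = t}`** -/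
theorem trivF_sheet [FiniteDimensional ℝ E] (h3 : Module.finrank ℝ E = 3)
    (hne : ∀ d, (P d).Nonempty) {a : I} {t : ℝ} (ht0 : 0 < t) (ht1 : t < 1) :
    TrivF A {y ∈ La | RR P b Ψ μ ε y ∈ Lset La P b a t} :=
  trivF_RR F hp hε hε1 (isCompact_Lset F a ht0.le ht1) (fun _ h => h.1)
    (b_not_mem_Lset F hp hε hε1 ht0 ht1 hne) (trivF_Lset F h3 (hne a) ht0.le ht1)

theorem sheet_eq {a : I} {t : ℝ} (ht0 : 0 < t) :
    {y ∈ La | RR P b Ψ μ ε y ∈ Lset La P b a t} = {y ∈ La | sc P b (RR P b Ψ μ ε y) a = t} := by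
  rw [Lset_eq_of_pos F ht0.ne']
  ext y
  exact ⟨fun h => ⟨h.1, h.2.2⟩, fun h => ⟨h.1, RR_mem_La F hp hε hε1 h.1, h.2⟩⟩

end Crest.Agent.R096.Vb_965
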