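import Crest.Agent.R096.Lbc1_334
import Crest.Agent.R096.Vin3_527
import Crest.Agent.R096.Dfn1_416

/-!
# R096 (row 96), DOORS (helper416): `VIn` for the machine

`ga_s2`  : the barrier points of `s2` have gauge `≤ ρ3 + 15 d`;
`vIn_m`  : 662's `VIn` for the state after CUT over `slC`, from 527's `vIn_mach` and the side
functions `lam m` of the barriers (`GLab`, 0 outside the body `Dm m`).
-/

set_option autoImplicit false
set_option linter.unusedSectionVars false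
set_option linter.unusedVariables false
set_option linter.style.longLine false

open Set Topology Filter Metric Module Relation
open scoped Classical

namespace Crest.Agent.R096.Vim_416

open Crest.Agent.R096.Msh_715 Crest.Agent.R096.Coh_184 Crest.Agent.R096.Lab_184
  Crest.Agent.R096.Main_4 Crest.Agent.R096.Agl5_543
  Crest.Agent.R096.Seq_213 Crest.Agent.R096.St_147 Crest.Agent.R096.Door_501
  Crest.Agent.R096.Twr_438 Crest.Agent.R096.Exa_560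
  Crest.Agent.R096.Ess3_95 Crest.Agent.R096.Ess4_95 Crest.Agent.R096.Ac_117 Crest.Agent.R096.Lm_117
  Crest.Agent.R096.Dfi_539 Crest.Agent.R096.Dfi_471 Crest.Agent.R096.Dfo_539
  Crest.Agent.R096.Sla_184 Crest.Agent.R096.Gm_298
  Crest.Agent.R096.Brk1_582 Crest.Agent.R096.Brk2_582 Crest.Agent.R096.Brk3_582
  Crest.Agent.R096.Brk5_582 Crest.Agent.R096.Bsp_628 Crest.Agent.R096.Init_543
  Crest.Agent.R096.Lv3_471 Crest.Agent.R096.Lv4_471 Crest.Agent.R096.Slt_471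
  Crest.Agent.R096.Dib_438 Crest.Agent.R096.Rop_441 Crest.Agent.R096.Frk_441
  Crest.Agent.R096.Dff_539 Crest.Agent.R096.Frs_662 Crest.Agent.R096.Qdl_662
  Crest.Agent.R096.Cg_501 Crest.Agent.R096.SecW_892 Crest.Agent.R096.Sgd_298
  Crest.Agent.R096.Dfg_539 Crest.Agent.R096.Nmd1_698 Crest.Agent.R096.Civ_662
  Crest.Agent.R096.Lbc_334 Crest.Agent.R096.Vin_527 Crest.Agent.R096.Gl_422
open Crest.Agent.R096.Sgo_298 (RmA rout ActR)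
open Crest.Agent.R096.Bse_344 (BoxP RadV)
open Crest.Agent.R096.Mbf_337 (KJ Tiny Cores Fine sb gau)
open Crest.Agent.R096.SkC1_961 (E3 FoamD Hom3)
open Crest.Agent.R096.Frn_337 (Ti)
open Crest.Agent.R096.Ess7_95 (KT)
open Crest.Agent.R096.Dia_316 (nbT)
open Crest.Agent.R096.Bar_106 (Fs Fm Gm)
open Crest.Agent.R096.Bgf_4 (Ext)

variable {δ κ0 R c0 : ℝ} {La Om : Set E3} {ι : Type} {Φ : FoamD δ κ0 R c0 La} {T : Tiling Om ι}
  {f g : E3 → E3} {κ1 κ2 μ : ℝ} {X : Set Φ.F} {J0 J V : Φ.F → Set ι}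
  {ct ct' : Φ.F → ι} {Aj : Φ.F → E3 ≃ᵃ[ℝ] E3} {lam' : Φ.F → ℝ} {z : Φ.F → E3}
  {θ : Φ.F → E3 → E3} {φ : Φ.F → E3 → ℝ} {r₀ : Φ.F → ℝ} {ρ1 ρ2 ρ3 ρ4 d : Φ.F → ℝ}
  {L : Φ.F → Finset ℝ} [Nonempty (JJ Φ L)] {hG : GF Φ r₀ T f L} {bp : JJ Φ L → E3}
  {Mo : Type} {co : Mo → Ti X} {am : Mo → Φ.F} {Zm : Mo → Set Φ.F} [Nonempty (JJ Φ L ⊕ Mo)]
  {sB : GSt (meshC T fr3) (Sum.map (fun j : JJ Φ L => j.1) (id : Mo → Mo))}
  {r : JJ Φ L ⊕ Mo → E3} {Sf : JJ Φ L ⊕ Mo → Set E3} {nb : Ti X → Φ.F ⊕ Mo → Prop}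
  {hLa : IsOpen La} {hC : Cores Φ T f κ1 κ2 X J0 J V ct Aj lam' z θ φ}
  {n : Ti X → ℕ} {hn : ∀ c, 0 < n c}
  {v0 v1 : ∀ c, Φ.F ⊕ Mo → VxK T (slC hLa hC n hn).K c} {u : Ti X → Φ.F ⊕ Mo → E3 → ℝ}
  {A B : Ti X → Φ.F ⊕ Mo → ℝ}
  {Lx : ∀ c, Φ.F ⊕ Mo → Lev T (frontier ((slC hLa hC n hn).K c)) (JJ Φ L ⊕ Mo)}
  {Tw : Twrs ((slC hLa hC n hn).sh fr3) (slC hLa hC n hn).n
    (outK (slC hLa hC n hn).hH (slC hLa hC n hn).dis sB r)} {l0' : E3 → JJ Φ L ⊕ Mo}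

/-- **the gauge of the barrier points of `s2`** -/
theorem ga_s2 (H : Hm f g Om La) (hRm : RmA Φ T f X J0 J V θ ρ1 ρ2 ρ3 ρ4 d)
    (D : DIn (slC hLa hC n hn).hH sB r Sf nb v0 v1 u A B)
    (lo : LevOut (Kc := (slC hLa hC n hn).K) sB nb u A B Lx)
    (tt : TwOut (slC hLa hC n hn) fr3 sB r v0 v1 Lx Tw)
    (hnbM : ∀ c m, nb c (Sum.inr m) → co m = c)
    (hga : ∀ w ∈ sB.P, ∀ m, sB.lab w = Sum.inr m →
      Ess5_95.ga Φ (co m).1 (f w) ≤ ρ3 (co m).1 + 15 * d (co m).1) {m : Mo} {w : E3}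
    (hw : w ∈ (s2 (slC hLa hC n hn) fr3 Tw l0').P)
    (hl : (s2 (slC hLa hC n hn) fr3 Tw l0').lab w = Sum.inr m) :
    w ∈ Om ∧ Ess5_95.ga Φ (co m).1 (f w) ≤ ρ3 (co m).1 + 15 * d (co m).1 := by
  have hO : w ∈ Om := (s2_dim hw).1
  refine ⟨hO, ?_⟩
  rcases Sla.out_or (S := slC hLa hC n hn) hO with ho | ⟨c, hc⟩
  · obtain ⟨h1, h2, -⟩ := out2 hw ho
    exact hga w h1 m (h2.symm.trans hl)
  · have h1 := Bse_344.core2 D lo tt hw hl hc.1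
    have h2 := hnbM c m h1
    subst h2
    have h3 := Sgo_298.ga_core hLa H hC hRm (co m).2 (x := w) hc.1
    linarith [(hRm (co m).1 (co m).2).d0]

/-- **`VIn` FOR THE MACHINE** -/
theorem vIn_m [Nonempty (slC hLa hC n hn).T3.Cell] (N : NumD δ κ0 R c0 κ2 μ κ1)
    (hRm : RmA Φ T f X J0 J V θ ρ1 ρ2 ρ3 ρ4 d)
    {hI : InitR Φ T f g J0 ct' r₀}
    {hM : Mesh0 T (Pc Φ.F) (bc (F := Φ.F)) (RF Φ r₀) f (KorJ Φ J0) κ1} {h1 : κ1 < μ / 32}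
    {h2 : κ1 < 1}
    (hnC : ∃ c, OutK (slC hLa hC n hn).T3 (slC hLa hC n hn).KK c)
    (D : DIn (slC hLa hC n hn).hH sB r Sf nb v0 v1 u A B)
    (lo : LevOut (Kc := (slC hLa hC n hn).K) sB nb u A B Lx)
    (tt : TwOut (slC hLa hC n hn) fr3 sB r v0 v1 Lx Tw)
    (rec : BR hLa sB f X J θ co am Zm nb v0 v1 u A B μ κ1)
    (hga : ∀ w ∈ sB.P, ∀ m, sB.lab w = Sum.inr m →
      Ess5_95.ga Φ (co m).1 (f w) ≤ ρ3 (co m).1 + 15 * d (co m).1)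
    (hrV : ∀ j : JJ Φ L, ∃ q, r (Sum.inl j) ∈ P (T.H q) ∧ ∀ c ∉ X, q ∉ V c)
    {hmf : ∀ a, {m | am m = a}.Finite}
    {j0 : Φ.F → JJ Φ L} {hj0 : ∀ a, (j0 a).1 = a}
    {hs : BSep (s2 (slC hLa hC n hn) fr3 Tw l0') am}
    {far : ∀ a, PN (fun j : JJ Φ L => j.1) am a → Set E3}
    {t : ∀ a, St ((slC hLa hC n hn).mn fr3) (pcol (fun j : JJ Φ L => j.1) am a)}
    {Ph : Φ.F → Finset E3} {s₃ : GSt ((slC hLa hC n hn).mn fr3) (fun j : JJ Φ L => j.1)}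
    (hfar : ∀ a, ∀ i : PN (fun j : JJ Φ L => j.1) am a, ∀ j, i.1 = Sum.inl j →
        r (Sum.inl j) ∈ far a i)
    (DR : CutR (s2 (slC hLa hC n hn) fr3 Tw l0') hs hmf j0 hj0
        (fun _ => ActR (slC hLa hC n hn) (Rdc T f Xᶜ (rout ρ3 d))) far t Ph s₃)
    (hB : PosS (hH := (Lay_316.lay_sla hLa hC n hn).core) Φ T f (μ / 4) J0 (slC hLa hC n hn) s₃)
    -- the side functions (G4)
    {lam : Mo → QK (belK (slC hLa hC n hn).T3 (slC hLa hC n hn).KK) → ZMod 2}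
    (hGL : ∀ m, GLab (lmK fr3 (Lay_316.lay_sla hLa hC n hn).core Sla.dis_KK hnC)
      (gp (s2 (slC hLa hC n hn) fr3 Tw l0') (Sum.inr m)) (lam m))
    {Dm : Mo → Set E3}
    (hZ : ∀ m, ∀ v ∈ ZK (slC hLa hC n hn).T3 (slC hLa hC n hn).KK (Dm m), lam m v = 0)
    (hD1 : ∀ m, ∀ x ∈ Om, Ess5_95.ga Φ (co m).1 (f x) ≤ ρ3 (co m).1 + 15 * d (co m).1 →
      x ∈ Dm m)
    (hD2 : ∀ m, ∀ x ∈ Dm m, Ess5_95.ga Φ (co m).1 (f x) ≤ ρ4 (co m).1) :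
    VIn (hH := (Lay_316.lay_sla hLa hC n hn).core) (hdis := Sla.dis_KK)
      (qdT (fun p : T.RIdx (slC hLa hC n hn).HH => p.tile) (sla_sub (slC hLa hC n hn))
        (slC hLa hC n hn).KK hLa hI hM h1 h2) s₃ (fun j => r (Sum.inl j)) am
      (sdm (lmK fr3 (Lay_316.lay_sla hLa hC n hn).core Sla.dis_KK hnC)
        (s2 (slC hLa hC n hn) fr3 Tw l0') lam) := by
  have hbase : ∀ j : JJ Φ L, r (Sum.inl j) ∈ s₃.P ∧ s₃.lab (r (Sum.inl j)) = j :=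
    fun j => base_S3 DR hfar j
  have D3 : CutOut (s2 (slC hLa hC n hn) fr3 Tw l0') am
      (fun _ => ActR (slC hLa hC n hn) (Rdc T f Xᶜ (rout ρ3 d))) s₃ := Dff_539.cutOut_of DR
  refine vIn_mach (T := T) (Φ := Φ) (f := f) (g := g) (J0 := J0) (ct' := ct') (r₀ := r₀)
    (til := fun p : T.RIdx (slC hLa hC n hn).HH => p.tile) (ε := κ1) (s' := μ / 4)
    (l := 3 * μ / 16 + Cn δ R * κ1)
    DR hnC _ (b := fun j => r (Sum.inl j)) hGL hZ ?_ hbase ?_ ?_ hLa hI hM ?_ ?_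
    (fun m => posM_m N hRm D lo tt rec hga m) ?_ ?_ ?_
  · intro m y hy hl
    obtain ⟨g1, g2⟩ := ga_s2 hI.hm hRm D lo tt (fun c m h => (rec.nbm c m).1 h) hga hy hl
    exact hD1 m y g1 g2
  · intro j
    exact Dfn_416.on_S3 D3 _ (hbase j).1
  · intro j m
    obtain ⟨q, g1, g2⟩ := hrV j
    have g3 : ∀ c, ¬ P (T.H q) ⊆ (slC hLa hC n hn).K c := fun c =>
      Dfn_416.outS hC (fun _ => rfl) (fun k => g2 k.1 k.2) c
    refine ⟨(slC hLa hC n hn).ot q g3, not_KK_ot g3, ?_, ?_⟩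
    · rw [Sla.ot_P g3]; exact g1
    · intro x hx hxD
      rw [Sla.ot_P g3] at hx
      exact g2 _ (co m).2 ((hRm _ (co m).2).v q ⟨x, hx, hD2 m x hxD⟩)
  · have := N.bxs
    linarith [this.1, this.2, N.hκ]
  · exact hB
  · intro h hh m hl p hp hhp
    obtain ⟨x, hx, hbx⟩ := box_m N hRm D lo tt rec hga m hh hl hhp
    rintro ⟨c, hc⟩
    exact Bse_344.kor_s2 hLa hC n hn p hp ⟨(co m).1, (co m).2,
      (hRm _ (co m).2).v _ ⟨x, hx, hbx.1.trans (hRm _ (co m).2).r34⟩⟩ c hc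
  · intro a c
    exact Sgo_298.inr_ActR
  · refine hfr_s2 lo tt (am := am) (co := co) (fun c m h => (rec.nbm c m).1 h)
      (N := fun _ => Ndc T f J0 Xᶜ (rout ρ3 d) d) (R := fun _ => Rdc T f Xᶜ (rout ρ3 d))
      (fun _ => (Sgo_298.tlr_out hC hRm).ndc_sub)
      (fun _ q hq c => Sgo_298.core_ndc hLa hI.hm hC hRm hq c) ?_
    intro m w hw hl q hq
    exact Sgo_298.ndc_of (co m).2 hq (hga w hw m hl)

end Crest.Agent.R096.Vim_416
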