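import Crest.Agent.R096.Dinv4_106
import Crest.Agent.R096.Dinv5_106
import Crest.Agent.R096.Sec13_892

/-!
# Row 96, DOORS-INV (helper527): the field `v_in` of `DoorInv` for the state after CUT

`v_in_cut` : `s` = state with barriers, `s₃` = state after CUT (892's `CutR`), `m` = a barrier of the
family of the sheet `j`, `sd w` = "`w` is inside the barrier `m`".  All points of `j` inside `m` are
joined with the base point by chords which are not crossed in the quad `k`.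
-/

set_option autoImplicit false
set_option linter.unusedSectionVars false

namespace Crest.Agent.R096.Vin_527

open Crest.Agent.R096.St_147 Crest.Agent.R096.Seq_213 Crest.Agent.R096.Sec_892
  Crest.Agent.R096.SecW_892 Crest.Agent.R096.Cg_501 Crest.Agent.R096.Dinv_106

section door

open Crest.Agent.R096.Wk_689

variable {ι Φ W I : Type} {M : MeshC ι Φ W} {col : I → Bool} {s : St M col} {Act : Set ι}

/-- 106's `moat_door` with `hR1` for active cells only (a giant is not small) -/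
theorem moat_doorA (A : s.Arcs Act) (hno : ∀ G : Set s.Dbl, A.Closed G → G = ∅) {i j : I}
    (hi : col i = true) (hj : col j = false) (hconn : s.Conn i) (lam : W → Prop)
    (hlam : ∀ F w, s.At F w → s.lab w = i →
      (∀ x, s.At F x → s.lab x = j → ¬ M.Lace F w (s.mu F w) x (s.mu F x)) → lam w →
        lam (s.mu F w))
    (hout : ∃ v ∈ s.P, s.lab v = i ∧ ¬ lam v) (Rg : Set Φ)
    (hR1 : ∀ z ∈ DD2 s i j, ∀ q ∈ Act, ∀ F, q ∈ M.side z.F → q ∈ M.side F → F ∈ Rg)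
    (hR2 : ∀ F w, s.At F w → s.lab w = i → lam w → F ∈ Rg) (X : Set W)
    (hX : ∀ F w, F ∈ Rg → w ∈ X → s.At F w → s.lab w = i → s.mu F w ∈ X)
    (hdoor : ∀ z ∈ DD2 s i j, St.Frozen M Act z.F → z.e true ∈ X)
    {w : W} (hwP : w ∈ s.P) (hwi : s.lab w = i) (hwl : lam w) : w ∈ X := by
  classical
  by_contra hcon
  -- the complement is closed
  have hXc : ∀ F w, F ∈ Rg → w ∈ Xᶜ → s.At F w → s.lab w = i → s.mu F w ∈ Xᶜ := by
    intro F v hF hv hA hvi h
    have h1 := hX F _ hF h (s.mu_mem hA.1 hA.2) (by rw [s.mu_lab hA.1 hA.2]; exact hvi)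
    rw [s.mu_mu hA.1 hA.2] at h1
    exact hv h1
  -- the double points whose chord is not in `X`
  have hmeet : ∃ z ∈ DD2 s i j, z.e true ∈ Xᶜ := by
    by_contra hcon2
    push Not at hcon2
    obtain ⟨u, huP, hui, hul⟩ := hout
    have := hconn.2 {v | v ∈ Xᶜ ∧ lam v} ?_ w ⟨hcon, hwl⟩ hwP hwi u huP hui
    · exact hul this.2
    · rintro F y ⟨hyY, hyl⟩ hyA hyi
      have hF := hR2 F y hyA hyi hyl
      refine ⟨hXc F y hF hyY hyA hyi, hlam F y hyA hyi ?_ hyl⟩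
      intro x hxA hxj hl
      obtain ⟨z, hzF, hz1, hz2⟩ := Seq_213.exists_dbl s hyA hxA
        (by rw [hxj, hyi, hi, hj]; decide) hl
      rw [hyi, hi] at hz1
      rw [hxj, hj] at hz2
      have hzD : z ∈ DD2 s i j := by
        refine ⟨?_, ?_⟩
        · rw [hz1, Seq_213.lo_lab s hyA]; exact hyi
        · rw [hz2, Seq_213.lo_lab s hxA]; exact hxj
      refine hcon2 z hzD ?_
      rw [hz1]
      rcases Seq_213.lo_cases s F y with e | e
      · rw [e]; exact hyY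
      · rw [e]; exact hXc F y hF hyY hyA hyi
  have hZ : ArcClosed A {z | z ∈ DD2 s i j ∧ z.e true ∈ Xᶜ} := by
    rintro z ⟨hz, hzX⟩ q hq hqA
    have hz' := arc_DD2 A z hz q hq hqA
    refine ⟨hz', ?_⟩
    have h := A.same (z := z) true hqA hq
      (fun p => if s.lab (chd p).2 = i ∧ (chd p).2 ∈ Xᶜ then 1 else 0) ?_ ?_
    · have e1 : (s.lab (chd (Sum.inr z : s.Sub true)).2 = i ∧
          (chd (Sum.inr z : s.Sub true)).2 ∈ Xᶜ) := ⟨hz.1, hzX⟩
      rw [if_pos e1] at h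
      by_contra hne
      rw [if_neg (fun h' => hne h'.2)] at h
      exact one_ne_zero h
    · intro F F' v p p' hqF hqF' hp hp'
      have hFR := hR1 z hz q hqA F hq hqF
      have hFR' := hR1 z hz q hqA F' hq hqF'
      have key : ∀ F (p : s.Sub true), F ∈ Rg → p.End F v →
          ((s.lab (chd p).2 = i ∧ (chd p).2 ∈ Xᶜ) ↔ (s.lab v = i ∧ v ∈ Xᶜ)) := by
        intro F p hF hp
        have hA := hp.1
        rw [Cp_298.end_chd hp]
        show (s.lab (s.lo F v) = i ∧ s.lo F v ∈ Xᶜ) ↔ _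
        rw [Seq_213.lo_lab s hA]
        constructor
        · rintro ⟨h1, h2⟩
          refine ⟨h1, ?_⟩
          rcases Seq_213.lo_cases s F v with e | e
          · rw [e] at h2; exact h2
          · rw [e] at h2
            have h3 := hXc F _ hF h2 (s.mu_mem hA.1 hA.2) (by rw [s.mu_lab hA.1 hA.2]; exact h1)
            rw [s.mu_mu hA.1 hA.2] at h3
            exact h3
        · rintro ⟨h1, h2⟩
          refine ⟨h1, ?_⟩
          rcases Seq_213.lo_cases s F v with e | e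
          · rw [e]; exact h2
          · rw [e]; exact hXc F v hF h2 hA h1
      exact if_congr ((key F p hFR hp).trans (key F' p' hFR' hp').symm) rfl rfl
    · intro u p p' _ hb ha
      have e1 := below_chd hb
      have e2 : p' = Sum.inr u := ha
      have e3 : chd p' = (u.F, u.e true) := by rw [e2]; rfl
      show (if s.lab (chd p).2 = i ∧ (chd p).2 ∈ Xᶜ then (1 : ZMod 2) else 0) =
        (if s.lab (chd p').2 = i ∧ (chd p').2 ∈ Xᶜ then (1 : ZMod 2) else 0)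
      rw [e1, e3]
  -- an arc closed nonempty set contains a frozen point
  obtain ⟨z, hz, hzX⟩ := hmeet
  have hc : A.Closed {z | z ∈ DD2 s i j ∧ z.e true ∈ Xᶜ} := by
    intro y hy q hq
    have hqA : q ∈ Act := by
      by_contra h
      exact hy.2 (hdoor y hy.1 ⟨q, hq, h⟩)
    exact ⟨hqA, hZ y hy q hq hqA⟩
  have h1 : z ∈ {z | z ∈ DD2 s i j ∧ z.e true ∈ Xᶜ} := ⟨hz, hzX⟩
  rw [hno _ hc] at h1
  exact h1


end door

variable {ι Φ W J C K Mo : Type} {M : MeshC ι Φ W} {fam : J → C} {am : Mo → C}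
variable {s : GSt M (Sum.map fam (id : Mo → Mo))} {hs : BSep s am}
  {hm : ∀ a, {m | am m = a}.Finite} {j0 : C → J} {hj0 : ∀ a, fam (j0 a) = a}
  {Act : C → Set ι} {far : ∀ a, PN fam am a → Set W} {t : ∀ a, St M (pcol fam am a)}
  {Ph : C → Finset W} {s₃ : GSt M fam}

/-- the name of a barrier in the pair state -/
def nR (fam : J → C) {am : Mo → C} (m : Mo) : PN fam am (am m) := ⟨Sum.inr m, rfl⟩

/-- barrier points of the pair state after CUT are the barrier points before CUT -/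
theorem bar_t (D : CutR s hs hm j0 hj0 Act far t Ph s₃) {F : Φ} {x : W} {m : Mo} :
    ((t (am m)).At F x ∧ (t (am m)).lab x = nR fam m) ↔ (s.At F x ∧ s.lab x = Sum.inr m) := by
  have hc := (D.cl2 (am m)).cle
  constructor
  · rintro ⟨h1, h2⟩
    have h3 : HP (t (am m)) x := ⟨h1.1, by rw [h2]; rfl⟩
    have h4 := (hc.hp x).1 h3
    obtain ⟨h5, m', h6, h7⟩ := pr_hp.1 h4
    have h8 := hc.hlab x h4
    rw [h2] at h8
    have h9 := (pr_lab_iff (hs := hs) (hm := hm) (i0 := ⟨Sum.inl (j0 (am m)), hj0 _⟩)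
      (by rw [h7]; exact h6)).1 h8.symm
    exact ⟨⟨h5, h1.2⟩, h9⟩
  · rintro ⟨h1, h2⟩
    have h3 : HP (prS s hs hm j0 hj0 (am m)) x := pr_hp.2 ⟨h1.1, m, rfl, h2⟩
    have h4 := (hc.hp x).2 h3
    have h5 := hc.hlab x h3
    have h6 : (prS s hs hm j0 hj0 (am m)).lab x = nR fam m :=
      (pr_lab_iff (by rw [h2]; rfl)).2 h2
    exact ⟨⟨h4.1, h1.2⟩, h5.trans h6⟩

/-- their chords are the same -/
theorem bar_mu (D : CutR s hs hm j0 hj0 Act far t Ph s₃) {F : Φ} {x : W} {m : Mo}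
    (h1 : x ∈ s.P) (h2 : s.lab x = Sum.inr m) : (t (am m)).mu F x = s.mu F x := by
  have h3 : HP (prS s hs hm j0 hj0 (am m)) x := pr_hp.2 ⟨h1, m, rfl, h2⟩
  exact (D.cl2 (am m)).cle.hmu x F h3

variable {Q : Quads ι C K} {j : J} {m : Mo} {k : K}

/-- **the sheet inside the barrier `m`** -/
theorem v_in_cut (D : CutR s hs hm j0 hj0 Act far t Ph s₃) (hAr : Nonempty ((t (fam j)).Arcs (Act (fam j))))
    (ham : am m = fam j) (sd : W → Prop)
    (hlam : ∀ F w, s₃.At F w → s₃.lab w = j →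
      (∀ x, s.At F x → s.lab x = Sum.inr m → ¬ M.Lace F w (s₃.mu F w) x (s.mu F x)) →
      sd w → sd (s₃.mu F w))
    (hsd : ∀ F w w', s₃.At F w → s₃.At F w' → (∀ x, s.At F x → s.lab x ≠ Sum.inr m) → sd w → sd w')
    (hroot : ∀ i, ∃ v ∈ s₃.P, s₃.lab v = i ∧ ¬ sd v)
    (hsep1 : ∀ F h w, s.At F h → s.lab h = Sum.inr m → s₃.At F w → fam (s₃.lab w) = fam j)
    (hsep2 : ∀ q ∈ Act (fam j), ∀ F F' h w, q ∈ M.side F → q ∈ M.side F' → s.At F h →
      s.lab h = Sum.inr m → s₃.At F' w → fam (s₃.lab w) = fam j) (X : Set W)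
    (hX : KCl s₃ Q j k X)
    (hdoor : ∀ F w h, s₃.At F w → s₃.lab w = j → s.At F h → s.lab h = Sum.inr m →
      St.Frozen M (Act (fam j)) F → w ∈ X) :
    ∀ w ∈ s₃.P, s₃.lab w = j → sd w → w ∈ X := by
  classical
  obtain ⟨A⟩ := hAr
  -- the barrier in `t (fam j)`
  obtain ⟨nr, hnr, hcol, hbar, hbmu⟩ : ∃ nr : PN fam am (fam j), nr.1 = Sum.inr m ∧
      pcol fam am (fam j) nr = false ∧
      (∀ F x, ((t (fam j)).At F x ∧ (t (fam j)).lab x = nr) ↔ (s.At F x ∧ s.lab x = Sum.inr m)) ∧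
      ∀ F x, x ∈ s.P → s.lab x = Sum.inr m → (t (fam j)).mu F x = s.mu F x := by
    have key : ∀ a, ∀ e : am m = a, ∃ nr : PN fam am a, nr.1 = Sum.inr m ∧
        pcol fam am a nr = false ∧
        (∀ F x, ((t a).At F x ∧ (t a).lab x = nr) ↔ (s.At F x ∧ s.lab x = Sum.inr m)) ∧
        ∀ F x, x ∈ s.P → s.lab x = Sum.inr m → (t a).mu F x = s.mu F x := by
      rintro a rfl
      exact ⟨nR fam m, rfl, rfl, fun F x => bar_t D, fun F x h1 h2 => bar_mu D h1 h2⟩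
    exact key _ ham
  -- the other families are outside
  have hoth : ∀ x ∈ s₃.P, fam (s₃.lab x) ≠ fam j → ¬ sd x := by
    intro x hx hne hsx
    obtain ⟨v, hv, hvl, hvs⟩ := hroot (s₃.lab x)
    refine hvs ((D.conn (s₃.lab x)).2 {y | sd y} ?_ x hsx hx rfl v hv hvl)
    intro F y hy hA hl
    refine hsd F y _ hA (s₃.mu_mem hA.1 hA.2) ?_ hy
    intro h hh hhl
    exact hne (by rw [← hl]; exact hsep1 F h y hh hhl hA)
  refine fun w hw hl hsw => ?_
  obtain ⟨hwt, hwl⟩ := D.mem.1 ⟨hw, hl⟩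
  let Rg : Set Φ := {F | (∃ q ∈ Act (fam j), ∃ F' h, q ∈ M.side F ∧ q ∈ M.side F' ∧ s.At F' h ∧
    s.lab h = Sum.inr m) ∨ ∃ w, s₃.At F w ∧ s₃.lab w = j ∧ sd w}
  refine moat_doorA (i := nL am j) (j := nr) A (D.noc (fam j) A) rfl hcol
    ((D.good (fam j)).conn (nL am j)) sd ?_ ?_ Rg ?_ ?_ X ?_ ?_ hwt hwl hsw
  · -- `hlam`
    intro F y hA hyl hno hsy
    obtain ⟨h1, h2⟩ := D.at_iff.2 ⟨hA, hyl⟩
    rw [← D.mu' h1.1 h2]
    refine hlam F y h1 h2 (fun x hx hxl => ?_) hsy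
    obtain ⟨h3, h4⟩ := (hbar F x).2 ⟨hx, hxl⟩
    have h5 := hno x h3 h4
    rw [hbmu F x hx.1 hxl, ← D.mu' h1.1 h2] at h5
    exact h5
  · -- `hout`
    obtain ⟨v, hv, hvl, hvs⟩ := hroot j
    obtain ⟨h1, h2⟩ := D.mem.1 ⟨hv, hvl⟩
    exact ⟨v, h1, h2, hvs⟩
  · -- `hR1`
    intro z hz q hqA F hq hqF
    obtain ⟨-, h2⟩ := hz
    obtain ⟨h3, h4⟩ := (hbar z.F (z.e false)).1 ⟨z.at_ false, h2⟩
    exact Or.inl ⟨q, hqA, z.F, z.e false, hqF, hq, h3, h4⟩
  · -- `hR2`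
    intro F y hA hyl hsy
    obtain ⟨h1, h2⟩ := D.at_iff.2 ⟨hA, hyl⟩
    exact Or.inr ⟨y, h1, h2, hsy⟩
  · -- `hX`
    intro F y hF hyX hA hyl
    obtain ⟨h1, h2⟩ := D.at_iff.2 ⟨hA, hyl⟩
    rw [← D.mu' h1.1 h2]
    refine hX F y hyX h1 h2 fun _ x hx _ hne _ => ?_
    rw [h2] at hne
    rcases hF with ⟨q, hqA, F', h, hq, hq', hh, hhl⟩ | ⟨y', h3, -, h5⟩
    · exact hne (hsep2 q hqA F' F h x hq' hq hh hhl hx)
    · by_cases hex : ∃ h, s.At F h ∧ s.lab h = Sum.inr m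
      · obtain ⟨h, hh, hhl⟩ := hex
        exact hne (hsep1 F h x hh hhl hx)
      · exact hoth x hx.1 hne (hsd F y' x h3 hx (fun h hh hhl => hex ⟨h, hh, hhl⟩) h5)
  · -- `hdoor`
    intro z hz hfr
    obtain ⟨h1, h2⟩ := hz
    obtain ⟨h3, h4⟩ := (hbar z.F (z.e false)).1 ⟨z.at_ false, h2⟩
    obtain ⟨h5, h6⟩ := D.at_iff.2 ⟨z.at_ true, h1⟩
    exact hdoor z.F (z.e true) (z.e false) h5 h6 h3 h4 hfr

end Crest.Agent.R096.Vin_527
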