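import Crest.Agent.R096.ThC9_766

/-!
Row 96 (S0127), helper766.  Volume form of the choice of the exact cubes: for a homeomorphism
`f : Ω → Λ` with Lusin's condition (N), a decreasing sequence `B m` of sets with null intersection
(`B m` = points which are not good at scale `1/(m+1)`), there is a scale function `δ` on `Ω` such
that the Laguerre system of Theorem C exists for `D = closure (f '' X)`, for EVERY relatively closed
`X` which consists of points bad at scale `δ`, of a set with null image and of thin collars.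
-/

set_option autoImplicit false
set_option linter.unusedSectionVars false
set_option linter.style.longLine false
set_option linter.style.haveILetI false
set_option linter.unusedVariables false

namespace Crest.Agent.R096.VolC_766

open MeasureTheory Set Filter Topology Metric
open scoped ENNReal
open Crest.Agent.R096.ThC6_766 Crest.Agent.R096.ThC7_766 Crest.Agent.R096.ThC9_766

section Gen

/-- absolute continuity in `ε`-`τ` form, arbitrary sets. -/
lemma small_of_ac {E : Type*} [MeasurableSpace E] {μ ν : Measure E} [SigmaFinite μ]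
    [IsFiniteMeasure ν] (h : ν ≪ μ) {ε : ℝ≥0∞} (hε : ε ≠ 0) :
    ∃ τ : ℝ≥0∞, 0 < τ ∧ ∀ C : Set E, μ C < τ → ν C < ε := by
  have h1 : μ.withDensity (ν.rnDeriv μ) = ν := Measure.withDensity_rnDeriv_eq ν μ h
  have h2 : ∫⁻ x, ν.rnDeriv μ x ∂μ ≠ ∞ := (Measure.lintegral_rnDeriv_lt_top ν μ).ne
  obtain ⟨τ, hτ, hτ2⟩ := exists_pos_setLIntegral_lt_of_measure_lt h2 hε
  refine ⟨τ, hτ, fun C hC => ?_⟩
  calc ν C ≤ ν (toMeasurable μ C) := measure_mono (subset_toMeasurable _ _)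
    _ = ∫⁻ x in toMeasurable μ C, ν.rnDeriv μ x ∂μ := by
        conv_lhs => rw [← h1]
        rw [withDensity_apply _ (measurableSet_toMeasurable _ _)]
    _ < ε := hτ2 _ (by rwa [measure_toMeasurable])

open Classical in
/-- a countable family of positive numbers below finite minima, with small weighted sums. -/
lemma exists_weights {ι κ : Type*} [Countable ι] (R : ι → κ → Prop)
    (hR : ∀ i, {k | R i k}.Finite) (η : κ → ℝ≥0∞) (hη : ∀ k, 0 < η k) (hηt : ∀ k, η k ≠ ∞) :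
    ∃ s : ι → ℝ≥0∞, (∀ i, 0 < s i) ∧ (∀ i, s i ≠ ∞) ∧
      (∀ k, ∑' i, (if R i k then s i else 0) ≤ η k) ∧ ∑' i, s i < 1 := by
  classical
  obtain ⟨u, hu, hus⟩ := ENNReal.exists_pos_sum_of_countable' (one_ne_zero (α := ℝ≥0∞)) ι
  have hu1 : ∀ i, u i ≤ 1 := fun i => (ENNReal.le_tsum i).trans hus.le
  set c : ι → ℝ≥0∞ := fun i => min 1 ((hR i).toFinset.inf η) with hc
  have hc0 : ∀ i, 0 < c i := by
    intro i
    apply lt_min one_pos
    rw [Finset.lt_inf_iff (by simp)]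
    exact fun k _ => hη k
  have hc1 : ∀ i, c i ≤ 1 := fun i => min_le_left _ _
  have hck : ∀ i k, R i k → c i ≤ η k := fun i k h =>
    (min_le_right _ _).trans (Finset.inf_le ((hR i).mem_toFinset.2 h))
  refine ⟨fun i => u i * c i, fun i => ENNReal.mul_pos (hu i).ne' (hc0 i).ne', fun i => ?_, fun k => ?_, ?_⟩
  · exact ENNReal.mul_ne_top ((hu1 i).trans_lt ENNReal.one_lt_top).ne
      ((hc1 i).trans_lt ENNReal.one_lt_top).ne
  · calc ∑' i, (if R i k then u i * c i else 0) ≤ ∑' i, u i * η k := by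
          apply ENNReal.tsum_le_tsum fun i => ?_
          split_ifs with h
          · gcongr; exact hck i k h
          · exact zero_le
      _ = (∑' i, u i) * η k := ENNReal.tsum_mul_right
      _ ≤ 1 * η k := by gcongr
      _ = η k := one_mul _
  · refine lt_of_le_of_lt (ENNReal.tsum_le_tsum fun i => ?_) hus
    calc u i * c i ≤ u i * 1 := by gcongr; exact hc1 i
      _ = u i := mul_one _

end Gen

variable {V : Type*} [NormedAddCommGroup V] [InnerProductSpace ℝ V]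
variable [FiniteDimensional ℝ V] [MeasurableSpace V] [BorelSpace V]

/-- an open neighbourhood small in every ball of a locally finite family. -/
lemma exists_open_small {L : Set V} (hL : IsOpen L) {z : ℕ → V} {r : ℕ → ℝ}
    (hr : ∀ k, 0 < r k) (hrL : ∀ k, closedBall (z k) (2 * r k) ⊆ L) (hcov : L ⊆ ⋃ k, ball (z k) (r k))
    (hlf : ∀ K : Set V, IsCompact K → K ⊆ L → {k | (closedBall (z k) (2 * r k) ∩ K).Nonempty}.Finite)
    {η : ℕ → ℝ≥0∞} (hη : ∀ k, 0 < η k) (hηt : ∀ k, η k ≠ ∞) {A : Set V} (hA : MeasurableSet A)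
    (hAL : A ⊆ L)
    (hvol : ∀ k, volume (A ∩ closedBall (z k) (2 * r k)) ≤ η k / 2) :
    ∃ W : Set V, IsOpen W ∧ A ⊆ W ∧ ∀ k, volume (W ∩ ball (z k) (3 / 2 * r k)) < η k := by
  classical
  obtain ⟨s, hs, hst, hsk, -⟩ := exists_weights
    (fun k l : ℕ => (closedBall (z l) (2 * r l) ∩ closedBall (z k) (2 * r k)).Nonempty)
    (fun k => hlf _ (isCompact_closedBall _ _) (hrL k)) (fun k => η k / 4)
    (fun k => ENNReal.div_pos (hη k).ne' (by norm_num)) (fun k => ENNReal.div_ne_top (hηt k) (by norm_num))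
  set A' : ℕ → Set V := fun k => A ∩ closedBall (z k) (2 * r k) with hA'
  have hA'm : ∀ k, MeasurableSet (A' k) := fun k => hA.inter isClosed_closedBall.measurableSet
  have hA'f : ∀ k, volume (A' k) ≠ ∞ := fun k =>
    ((measure_mono inter_subset_right).trans_lt measure_closedBall_lt_top).ne
  have h1 : ∀ k, ∃ U, A' k ⊆ U ∧ IsOpen U ∧ volume U ≤ volume (A' k) + s k := fun k =>
    Set.exists_isOpen_le_add (A' k) volume (hs k).ne'
  choose U hU hUo hUv using h1
  have hdiff : ∀ k, volume (U k \ A' k) ≤ s k := by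
    intro k
    rw [measure_sdiff (hU k) (hA'm k).nullMeasurableSet (hA'f k)]
    exact tsub_le_iff_left.2 (hUv k)
  refine ⟨⋃ k, U k ∩ ball (z k) (3 / 2 * r k), isOpen_iUnion fun k => (hUo k).inter isOpen_ball,
    fun x hx => ?_, fun l => ?_⟩
  · obtain ⟨k, hk⟩ := mem_iUnion.1 (hcov (hAL hx))
    refine mem_iUnion.2 ⟨k, hU k ⟨hx, ?_⟩, ?_⟩
    · exact ball_subset_closedBall.trans (closedBall_subset_closedBall (by have := hr k; linarith)) hk
    · exact ball_subset_ball (by have := hr k; linarith) hk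
  · have hsub : (⋃ k, U k ∩ ball (z k) (3 / 2 * r k)) ∩ ball (z l) (3 / 2 * r l) ⊆
        A' l ∪ ⋃ k, (if (closedBall (z l) (2 * r l) ∩ closedBall (z k) (2 * r k)).Nonempty then
          U k \ A' k else ∅) := by
      rintro x ⟨hx, hxl⟩
      obtain ⟨k, hxU, hxk⟩ := mem_iUnion.1 hx
      have hxl' : x ∈ closedBall (z l) (2 * r l) :=
        ball_subset_closedBall.trans (closedBall_subset_closedBall (by have := hr l; linarith)) hxl
      have hxk' : x ∈ closedBall (z k) (2 * r k) :=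
        ball_subset_closedBall.trans (closedBall_subset_closedBall (by have := hr k; linarith)) hxk
      by_cases hxA : x ∈ A
      · exact Or.inl ⟨hxA, hxl'⟩
      · refine Or.inr (mem_iUnion.2 ⟨k, ?_⟩)
        rw [if_pos ⟨x, hxl', hxk'⟩]
        exact ⟨hxU, fun h => hxA h.1⟩
    have hη4 : η l / 2 + η l / 4 < η l := by
      have h0 := hηt l
      have h00 := (hη l)
      have e2 : η l / 2 + η l / 4 + η l / 4 = η l := by
        have e1 : η l / 4 + η l / 4 = η l / 2 := by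
          rw [← ENNReal.add_div, ← two_mul]
          rw [show (4 : ℝ≥0∞) = 2 * 2 by norm_num]
          rw [ENNReal.mul_div_mul_left _ _ (by norm_num) (by norm_num)]
        rw [add_assoc, e1, ENNReal.add_halves]
      conv_rhs => rw [← e2]
      apply ENNReal.lt_add_right
      · exact ENNReal.add_ne_top.2 ⟨ENNReal.div_ne_top h0 (by norm_num), ENNReal.div_ne_top h0 (by norm_num)⟩
      · exact (ENNReal.div_pos h00.ne' (by norm_num)).ne'
    calc volume ((⋃ k, U k ∩ ball (z k) (3 / 2 * r k)) ∩ ball (z l) (3 / 2 * r l))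
        ≤ volume (A' l) + ∑' k, volume (if (closedBall (z l) (2 * r l) ∩
            closedBall (z k) (2 * r k)).Nonempty then U k \ A' k else ∅) :=
          (measure_mono hsub).trans ((measure_union_le _ _).trans (by gcongr; exact measure_iUnion_le _))
      _ ≤ η l / 2 + ∑' k, (if (closedBall (z l) (2 * r l) ∩
            closedBall (z k) (2 * r k)).Nonempty then s k else 0) := by
          gcongr with k
          · exact hvol l
          · split_ifs with h
            · exact hdiff k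
            · simp
      _ ≤ η l / 2 + η l / 4 := by gcongr; exact hsk l
      _ < η l := hη4

section Main

variable {E : Type*} [NormedAddCommGroup E] [InnerProductSpace ℝ E]
variable [FiniteDimensional ℝ E] [MeasurableSpace E] [BorelSpace E]

/-- points which are bad at the scale `δ`. -/
def Bad (Ω : Set E) (B : ℕ → Set E) (δ : E → ℝ) : Set E :=
  {x | x ∈ Ω ∧ ∀ m : ℕ, δ x ≤ 1 / ((m : ℝ) + 1) → x ∈ B m}

/-- the measure `A ↦ volume (f '' A)` on `Ω`. -/
lemma exists_image_measure {Ω : Set E} {Λ : Set V} (hΩ : IsOpen Ω) (hΛ : IsOpen Λ)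
    {f : E → V} {g : V → E} (hfm : MapsTo f Ω Λ) (hgm : MapsTo g Λ Ω) (hgf : ∀ x ∈ Ω, g (f x) = x)
    (hfg : ∀ y ∈ Λ, f (g y) = y) (hfc : ContinuousOn f Ω) (hgc : ContinuousOn g Λ) {μ : Measure E}
    (hN : ∀ N : Set E, μ N = 0 → (volume : Measure V) (f '' (N ∩ Ω)) = 0) :
    ∃ ν : Measure E, ν ≪ μ ∧ (∀ A : Set E, volume (f '' (A ∩ Ω)) ≤ ν A) ∧
      (∀ K : Set E, IsCompact K → K ⊆ Ω → ν K ≠ ∞) := by
  have hga : AEMeasurable g ((volume : Measure V).restrict Λ) := hgc.aemeasurable hΛ.measurableSet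
  set ν : Measure E := ((volume : Measure V).restrict Λ).map g with hν
  have hpre : ∀ A : Set E, g ⁻¹' A ∩ Λ = f '' (A ∩ Ω) := by
    intro A
    ext y
    constructor
    · rintro ⟨hy, hyΛ⟩
      exact ⟨g y, ⟨hy, hgm hyΛ⟩, hfg y hyΛ⟩
    · rintro ⟨x, ⟨hx, hxΩ⟩, rfl⟩
      exact ⟨by rw [mem_preimage, hgf x hxΩ]; exact hx, hfm hxΩ⟩
  have hνA : ∀ A : Set E, MeasurableSet A → ν A = volume (f '' (A ∩ Ω)) := by
    intro A hA
    rw [hν, Measure.map_apply_of_aemeasurable hga hA, Measure.restrict_apply' hΛ.measurableSet, hpre]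
  refine ⟨ν, Measure.AbsolutelyContinuous.mk fun A hA h0 => ?_, fun A => ?_, fun K hK hKΩ => ?_⟩
  · rw [hνA A hA]; exact hN A h0
  · calc volume (f '' (A ∩ Ω)) ≤ volume (f '' (toMeasurable ν A ∩ Ω)) :=
          measure_mono (image_mono (inter_subset_inter_left _ (subset_toMeasurable _ _)))
      _ = ν (toMeasurable ν A) := (hνA _ (measurableSet_toMeasurable _ _)).symm
      _ = ν A := measure_toMeasurable _
  · rw [hνA K hK.measurableSet, inter_eq_self_of_subset_left hKΩ]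
    exact (hK.image_of_continuousOn (hfc.mono hKΩ)).measure_lt_top.ne

/-- **Volume form of the choice of the exact cubes.** -/
theorem exists_volc [Nontrivial V] {Ω : Set E} {Λ : Set V} (hΩ : IsOpen Ω) (hΛ : IsOpen Λ)
    (hne : Λ.Nonempty)
    {f : E → V} {g : V → E} (hfm : MapsTo f Ω Λ) (hgm : MapsTo g Λ Ω) (hgf : ∀ x ∈ Ω, g (f x) = x)
    (hfg : ∀ y ∈ Λ, f (g y) = y) (hfc : ContinuousOn f Ω) (hgc : ContinuousOn g Λ)
    {μ : Measure E} [SigmaFinite μ]
    (hN : ∀ N : Set E, μ N = 0 → (volume : Measure V) (f '' (N ∩ Ω)) = 0)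
    {Z : Set E} (hZ : (volume : Measure V) (f '' (Z ∩ Ω)) = 0)
    {B : ℕ → Set E} (hB : ∀ m, NullMeasurableSet (B m) μ) (hBa : Antitone B) (hB0 : μ (⋂ m, B m) = 0)
    {ρ : Measure E} [IsFiniteMeasure ρ] (hρ : ρ ≪ μ) {ε : ℝ≥0∞} (hε : 0 < ε) (hεt : ε ≠ ∞)
    {h₀ : E → ℝ} (hh₀ : ∀ x ∈ Ω, ∃ r : ℝ, 0 < r ∧ ∃ m : ℝ, 0 < m ∧ ∀ y ∈ ball x r, m ≤ h₀ y)
    {e : V → ℝ} (he : Scale Λ e) {β : ℝ} (hβ : 0 < β) (hβ1 : β ≤ 1 / 2) :
    ∃ δ : E → ℝ, Scale Ω δ ∧ (∀ x ∈ Ω, δ x ≤ h₀ x) ∧ ρ (Bad Ω B δ) < ε ∧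
      ∀ (ι : Type) [Countable ι] (Q : ι → Set E), (∀ i, IsCompact (Q i)) → (∀ i, Q i ⊆ Ω) →
        (∀ K : Set E, IsCompact K → K ⊆ Ω → {i | (Q i ∩ K).Nonempty}.Finite) →
        ∃ τ : ι → ℝ≥0∞, (∀ i, 0 < τ i) ∧ ∀ C : ι → Set E, (∀ i, C i ⊆ Q i) → (∀ i, μ (C i) < τ i) →
          ρ (⋃ i, C i) < ε ∧ ∀ X : Set E, X ⊆ Ω → closure X ∩ Ω ⊆ X →
            X ⊆ Z ∪ Bad Ω B δ ∪ ⋃ i, C i →
            ∃ (S : Set V) (a : S → V) (c : S → ℝ) (Phi : V → ℝ) (th : V → V),
              Lag Λ (1 + 2 * β) e (closure (f '' X)) S a c Phi th := by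
  classical
  obtain ⟨z, r, hr, hrL, hcov, -, hlf⟩ := exists_cover_lf hΛ hne he
  obtain ⟨η, hη, hmain⟩ := exists_lag_cov hr hrL hcov hΛ he hβ hβ1
  obtain ⟨ν, hνμ, hνle, hνK⟩ := exists_image_measure hΩ hΛ hfm hgm hgf hfg hfc hgc hN
  set η' : ℕ → ℝ≥0∞ := fun k => ENNReal.ofReal (η k) with hη'
  have hη'0 : ∀ k, 0 < η' k := fun k => ENNReal.ofReal_pos.2 (hη k)
  have hη't : ∀ k, η' k ≠ ∞ := fun k => ENNReal.ofReal_ne_top
  set K : ℕ → Set E := fun k => g '' closedBall (z k) (2 * r k) with hK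
  have hKc : ∀ k, IsCompact (K k) := fun k =>
    (isCompact_closedBall _ _).image_of_continuousOn (hgc.mono (hrL k))
  have hKΩ : ∀ k, K k ⊆ Ω := by
    rintro k _ ⟨y, hy, rfl⟩
    exact hgm (hrL k hy)
  have hmemK : ∀ k, ∀ x ∈ Ω, (x ∈ K k ↔ f x ∈ closedBall (z k) (2 * r k)) := by
    intro k x hx
    constructor
    · rintro ⟨y, hy, rfl⟩
      rwa [hfg y (hrL k hy)]
    · intro h
      exact ⟨f x, h, hgf x hx⟩
  -- choice of m k
  have hlim : ∀ (σ : Measure E), σ ≪ μ → σ univ ≠ ∞ → Tendsto (fun m => σ (B m)) atTop (𝓝 0) := by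
    intro σ hσ hσf
    have h1 := tendsto_measure_iInter_atTop (μ := σ) (s := B) (fun m => (hB m).mono_ac hσ) hBa
      ⟨0, ((measure_mono (subset_univ _)).trans_lt (lt_top_iff_ne_top.2 hσf)).ne⟩
    rwa [hσ hB0] at h1
  have hmk : ∀ k, ∃ m : ℕ, ν (B m ∩ K k) < η' k / 4 := by
    intro k
    have h1 := hlim (ν.restrict (K k)) (Measure.absolutelyContinuous_of_le Measure.restrict_le_self |>.trans hνμ)
      (by rw [Measure.restrict_apply_univ]; exact hνK _ (hKc k) (hKΩ k))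
    have h2 : 0 < η' k / 4 := ENNReal.div_pos (hη'0 k).ne' (by norm_num)
    obtain ⟨m, hm⟩ := (h1.eventually (gt_mem_nhds h2)).exists
    refine ⟨m, ?_⟩
    rwa [Measure.restrict_apply' (hKc k).measurableSet] at hm
  choose m hm using hmk
  obtain ⟨M, hM⟩ : ∃ M : ℕ, ρ (B M) < ε :=
    ((hlim ρ hρ (measure_ne_top _ _)).eventually (gt_mem_nhds hε)).exists
  -- the scale
  set h : E → ℝ := fun y => min (min (h₀ y) (1 / ((M : ℝ) + 1)))
    (⨅ k : ℕ, if y ∈ K k then 1 / ((m k : ℝ) + 1) else 1) with hh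
  have hbdd : ∀ y, BddBelow (range fun k : ℕ => if y ∈ K k then 1 / ((m k : ℝ) + 1) else 1) := by
    intro y
    refine ⟨0, ?_⟩
    rintro _ ⟨k, rfl⟩
    simp only
    split_ifs <;> positivity
  have hfinK : ∀ N : Set E, IsCompact N → N ⊆ Ω → {k | (K k ∩ N).Nonempty}.Finite := by
    intro N hN hNΩ
    refine (hlf (f '' N) (hN.image_of_continuousOn (hfc.mono hNΩ)) ?_).subset ?_
    · rintro _ ⟨x, hx, rfl⟩; exact hfm (hNΩ hx)
    · rintro k ⟨x, hxK, hxN⟩
      exact ⟨f x, (hmemK k x (hNΩ hxN)).1 hxK, mem_image_of_mem f hxN⟩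
  obtain ⟨δ, hδ, hδh⟩ := exists_scale hΩ (h := h) (by
    intro x hx
    obtain ⟨r₀, hr₀, m₀, hm₀, hm₀b⟩ := hh₀ x hx
    obtain ⟨r₁, hr₁, hr₁Ω⟩ := Metric.nhds_basis_closedBall.mem_iff.1 (hΩ.mem_nhds hx)
    have hfin := hfinK (closedBall x r₁) (isCompact_closedBall _ _) hr₁Ω
    set c : ℝ := (insert M (hfin.toFinset.image m)).inf' (Finset.insert_nonempty _ _)
      (fun n : ℕ => 1 / ((n : ℝ) + 1)) with hc
    have hcpos : 0 < c := by
      rw [hc, Finset.lt_inf'_iff]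
      intro n _
      positivity
    have hcM : c ≤ 1 / ((M : ℝ) + 1) := Finset.inf'_le _ (Finset.mem_insert_self _ _)
    refine ⟨min r₀ r₁, lt_min hr₀ hr₁, min m₀ c, lt_min hm₀ hcpos, fun y hy => ?_⟩
    have hy₀ : y ∈ ball x r₀ := ball_subset_ball (min_le_left _ _) hy
    have hy₁ : y ∈ closedBall x r₁ := ball_subset_closedBall (ball_subset_ball (min_le_right _ _) hy)
    refine le_min (le_min ((min_le_left _ _).trans (hm₀b y hy₀)) ((min_le_right _ _).trans hcM)) ?_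
    refine (min_le_right _ _).trans (le_ciInf fun k => ?_)
    split_ifs with hk
    · refine Finset.inf'_le _ (Finset.mem_insert_of_mem (Finset.mem_image_of_mem _ ?_))
      exact hfin.mem_toFinset.2 ⟨y, hk, hy₁⟩
    · refine hcM.trans ?_
      rw [div_le_one (by positivity)]
      have : (0 : ℝ) ≤ M := Nat.cast_nonneg _
      linarith)
  have hδK : ∀ k, ∀ x ∈ Ω, x ∈ K k → δ x ≤ 1 / ((m k : ℝ) + 1) := by
    intro k x hx hxK
    refine (hδh x hx).trans ((min_le_right _ _).trans ?_)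
    refine (ciInf_le (hbdd x) k).trans ?_
    rw [if_pos hxK]
  have hδM : ∀ x ∈ Ω, δ x ≤ 1 / ((M : ℝ) + 1) := fun x hx =>
    (hδh x hx).trans ((min_le_left _ _).trans (min_le_right _ _))
  have hbadK : ∀ k, Bad Ω B δ ∩ K k ⊆ B (m k) ∩ K k := fun k x hx =>
    ⟨hx.1.2 (m k) (hδK k x hx.1.1 hx.2), hx.2⟩
  have hbadM : Bad Ω B δ ⊆ B M := fun x hx => hx.2 M (hδM x hx.1)
  refine ⟨δ, hδ, fun x hx => (hδh x hx).trans ((min_le_left _ _).trans (min_le_left _ _)),
    (measure_mono hbadM).trans_lt hM, ?_⟩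
  intro ι _ Q hQc hQΩ hQlf
  obtain ⟨s, hs, hst, hsk, hs1⟩ := exists_weights (fun (i : ι) (k : ℕ) => (K k ∩ Q i).Nonempty)
    (fun i => hfinK (Q i) (hQc i) (hQΩ i)) (fun k => η' k / 4)
    (fun k => ENNReal.div_pos (hη'0 k).ne' (by norm_num))
    (fun k => ENNReal.div_ne_top (hη't k) (by norm_num))
  have hτ1 : ∀ i, ∃ τ : ℝ≥0∞, 0 < τ ∧ ∀ C : Set E, μ C < τ → (ν.restrict (Q i)) C < s i := by
    intro i
    haveI : IsFiniteMeasure (ν.restrict (Q i)) := ⟨by
      rw [Measure.restrict_apply_univ]; exact lt_top_iff_ne_top.2 (hνK _ (hQc i) (hQΩ i))⟩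
    exact small_of_ac (Measure.absolutelyContinuous_of_le Measure.restrict_le_self |>.trans hνμ) (hs i).ne'
  choose τ₁ hτ₁ hτ₁s using hτ1
  have hτ2 : ∀ i, ∃ τ : ℝ≥0∞, 0 < τ ∧ ∀ C : Set E, μ C < τ → ρ C < s i * ε := fun i =>
    small_of_ac hρ (mul_ne_zero (hs i).ne' hε.ne')
  choose τ₂ hτ₂ hτ₂s using hτ2
  refine ⟨fun i => min (τ₁ i) (τ₂ i), fun i => lt_min (hτ₁ i) (hτ₂ i), fun C hCQ hCμ => ⟨?_, ?_⟩⟩
  · calc ρ (⋃ i, C i) ≤ ∑' i, ρ (C i) := measure_iUnion_le _
      _ ≤ ∑' i, s i * ε := ENNReal.tsum_le_tsum fun i => (hτ₂s i _ ((hCμ i).trans_le (min_le_right _ _))).le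
      _ = (∑' i, s i) * ε := ENNReal.tsum_mul_right
      _ < 1 * ε := by
          rw [ENNReal.mul_lt_mul_iff_left hε.ne' hεt]
          exact hs1
      _ = ε := one_mul _
  intro X hXΩ hXcl hXsub
  -- D ∩ Λ = f '' X
  have hfX : f '' X ⊆ Λ := by rintro _ ⟨x, hx, rfl⟩; exact hfm (hXΩ hx)
  have hgfX : g '' (f '' X) = X := by
    ext x
    constructor
    · rintro ⟨_, ⟨x', hx', rfl⟩, rfl⟩
      rwa [hgf x' (hXΩ hx')]
    · intro hx
      exact ⟨f x, mem_image_of_mem f hx, hgf x (hXΩ hx)⟩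
  have hD : closure (f '' X) ∩ Λ = f '' X := by
    apply Subset.antisymm
    · rintro y ⟨hy, hyΛ⟩
      have h1 : g y ∈ closure (g '' (f '' X)) := ((hgc y hyΛ).mono hfX).mem_closure_image hy
      rw [hgfX] at h1
      exact ⟨g y, hXcl ⟨h1, hgm hyΛ⟩, hfg y hyΛ⟩
    · exact fun y hy => ⟨subset_closure hy, hfX hy⟩
  have hmeas : MeasurableSet (f '' X) := by
    rw [← hD]; exact isClosed_closure.measurableSet.inter hΛ.measurableSet
  -- volume of the image in the balls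
  have hvol : ∀ k, volume (f '' X ∩ closedBall (z k) (2 * r k)) ≤ η' k / 2 := by
    intro k
    have hsub : f '' X ∩ closedBall (z k) (2 * r k) ⊆ f '' (Z ∩ Ω) ∪
        (f '' ((B (m k) ∩ K k) ∩ Ω) ∪ ⋃ i, (if (K k ∩ Q i).Nonempty then f '' (C i ∩ Ω) else ∅)) := by
      rintro _ ⟨⟨x, hx, rfl⟩, hxk⟩
      have hxΩ := hXΩ hx
      have hxK : x ∈ K k := (hmemK k x hxΩ).2 hxk
      rcases hXsub hx with (h1 | h1) | h1
      · exact Or.inl ⟨x, ⟨h1, hxΩ⟩, rfl⟩
      · exact Or.inr (Or.inl ⟨x, ⟨hbadK k ⟨h1, hxK⟩, hxΩ⟩, rfl⟩)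
      · obtain ⟨i, hi⟩ := mem_iUnion.1 h1
        refine Or.inr (Or.inr (mem_iUnion.2 ⟨i, ?_⟩))
        rw [if_pos ⟨x, hxK, hCQ i hi⟩]
        exact ⟨x, ⟨hi, hxΩ⟩, rfl⟩
    have hCi : ∀ i, volume (f '' (C i ∩ Ω)) ≤ s i := by
      intro i
      refine (hνle (C i)).trans ?_
      have h1 := hτ₁s i (C i) ((hCμ i).trans_le (min_le_left _ _))
      rw [Measure.restrict_apply' (hQc i).measurableSet, inter_eq_self_of_subset_left (hCQ i)] at h1
      exact h1.le
    have e1 : η' k / 4 + η' k / 4 = η' k / 2 := by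
      rw [← ENNReal.add_div, ← two_mul]
      rw [show (4 : ℝ≥0∞) = 2 * 2 by norm_num]
      rw [ENNReal.mul_div_mul_left _ _ (by norm_num) (by norm_num)]
    calc volume (f '' X ∩ closedBall (z k) (2 * r k))
        ≤ volume (f '' (Z ∩ Ω)) + (volume (f '' ((B (m k) ∩ K k) ∩ Ω)) +
            ∑' i, volume (if (K k ∩ Q i).Nonempty then f '' (C i ∩ Ω) else ∅)) := by
          refine (measure_mono hsub).trans ((measure_union_le _ _).trans ?_)
          gcongr
          refine (measure_union_le _ _).trans ?_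
          gcongr
          exact measure_iUnion_le _
      _ ≤ 0 + (η' k / 4 + ∑' i, (if (K k ∩ Q i).Nonempty then s i else 0)) := by
          gcongr with i
          · exact hZ.le
          · exact (hνle _).trans (hm k).le
          · split_ifs with h1
            · exact hCi i
            · simp
      _ ≤ 0 + (η' k / 4 + η' k / 4) := by gcongr; exact hsk k
      _ = η' k / 2 := by rw [zero_add, e1]
  obtain ⟨W, hWo, hWX, hWv⟩ := exists_open_small hΛ hr hrL hcov hlf hη'0 hη't hmeas hfX hvol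
  exact hmain W (closure (f '' X)) hWo (fun k => ENNReal.toReal_lt_of_lt_ofReal (hWv k))
    isClosed_closure (by rw [hD]; exact hWX)

end Main

end Crest.Agent.R096.VolC_766
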