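import Crest.Agent.R096.LusN_766
import Crest.Agent.R096.VolC_766
import Crest.Agent.R96.Lu7_538

/-!
Row 96 (S0127), helper766.  Good points of a Sobolev homeomorphism (`p > 2`) at all small scales:
measurability, a.e. point is good; critical values are null (`p ≥ 3`).
-/

set_option autoImplicit false
set_option linter.unusedSectionVars false
set_option linter.style.longLine false
set_option linter.style.haveILetI false
set_option linter.unusedVariables false

namespace Crest.Agent.R096.VolC2_766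

open MeasureTheory Set Filter Topology Metric
open scoped ENNReal NNReal RealInnerProductSpace Pointwise
open Crest.AnalysisR.VecCalc3 Crest.AnalysisR.Sobolev
open Crest.Agent.R096.Osc_802 Crest.Agent.R096.LusN_766 Crest.Agent.R096.VolC_766
open Crest.Agent.R96.Lu_538

lemma rowMap_eq_Gmat (G : Fin 3 → R3 → R3) (x : R3) : rowMap (fun j => G j x) = Gmat G x := by
  ext w j
  rfl

/-- critical values are null, `p ≥ 3`. -/
theorem crit_image_null {Ω Λ : Set R3} (hΩ : IsOpen Ω) (hΛ : IsOpen Λ) {f : R3 → R3}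
    (hf : IsHomeomorphOn f Ω Λ) {G : Fin 3 → R3 → R3}
    (hG : ∀ j, HasWeakGradOn Ω (fun x => f x j) (G j)) {p : ℝ} (hp : 3 ≤ p)
    (hGp : ∀ j, MemLp (G j) (ENNReal.ofReal p) (volume.restrict Ω)) :
    volume (f '' ({x | (Gmat G x).det = 0} ∩ Ω)) = 0 := by
  have h1 := homeo_ae_diff hΩ hΛ hf hG (p := p) (by linarith) hGp
  set N : Set R3 := {x | ¬ (x ∈ Ω → (∀ j, LebPt p (Ω.indicator (G j)) x) ∧
      HasFDerivAt f (rowMap fun j => G j x) x)} with hN
  have hN0 : volume N = 0 := h1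
  have hsub : f '' ({x | (Gmat G x).det = 0} ∩ Ω) ⊆
      f '' (({x | (Gmat G x).det = 0} ∩ Ω) ∩ Nᶜ) ∪ f '' (N ∩ Ω) := by
    rintro _ ⟨x, hx, rfl⟩
    by_cases hxN : x ∈ N
    · exact Or.inr ⟨x, ⟨hxN, hx.2⟩, rfl⟩
    · exact Or.inl ⟨x, ⟨hx, hxN⟩, rfl⟩
  refine measure_mono_null hsub (measure_union_null ?_ (lusinN hΩ hΛ hf hG hp hGp hN0))
  apply addHaar_image_eq_zero_of_det_fderivWithin_eq_zero volume (f' := fun x => Gmat G x)
  · rintro x ⟨⟨hx0, hxΩ⟩, hxN⟩
    have h2 : x ∈ Ω → (∀ j, LebPt p (Ω.indicator (G j)) x) ∧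
      HasFDerivAt f (rowMap fun j => G j x) x := by
      by_contra hcon
      exact hxN hcon
    have h3 := (h2 hxΩ).2
    rw [rowMap_eq_Gmat] at h3
    exact h3.hasFDerivWithinAt
  · rintro x ⟨⟨hx0, hxΩ⟩, hxN⟩
    exact hx0

/-- good points at the scale `s`. -/
structure GoodAt (Ω : Set R3) (f : R3 → R3) (G : Fin 3 → R3 → R3) (p : ℝ) (κ : R3 → ℝ) (x : R3)
    (s : ℝ) : Prop where
  sub : cube x (2 * s) ⊆ Ω
  aff : ∀ y ∈ cube x s, ∀ y' ∈ cube x s, ‖f y - f y' - Gmat G x (y - y')‖ ≤ κ x * s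
  int : ∫⁻ y in cube x s, ∑ j, ‖G j y - G j x‖ₑ ^ p ≤ ENNReal.ofReal (κ x * s ^ 3)

/-- a.e. point is good at all small scales. -/
theorem ae_good {Ω Λ : Set R3} (hΩ : IsOpen Ω) (hΛ : IsOpen Λ) {f : R3 → R3}
    (hf : IsHomeomorphOn f Ω Λ) {G : Fin 3 → R3 → R3}
    (hG : ∀ j, HasWeakGradOn Ω (fun x => f x j) (G j)) {p : ℝ} (hp : 2 < p)
    (hGp : ∀ j, MemLp (G j) (ENNReal.ofReal p) (volume.restrict Ω)) {κ : R3 → ℝ}
    (hκ : ∀ x ∈ Ω, 0 < κ x) :
    ∀ᵐ x, x ∈ Ω → ∃ r₀ > 0, ∀ s : ℝ, 0 < s → s < r₀ → GoodAt Ω f G p κ x s := by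
  filter_upwards [homeo_ae_diff hΩ hΛ hf hG hp hGp] with x hx hxΩ
  obtain ⟨hL, -⟩ := hx hxΩ
  obtain ⟨r₀, hr₀, h1⟩ := homeo_affine_at_lebPt hΩ hΛ hf hG hp hxΩ hL (hκ x hxΩ)
  -- integral
  set v : ℝ := (volume : Measure R3).real (closedBall 0 1) with hv
  have hv0 : 0 < v := by
    rw [hv, Measure.real, ENNReal.toReal_pos_iff]
    exact ⟨measure_closedBall_pos _ _ one_pos, measure_closedBall_lt_top⟩
  set a : ℝ := κ x / (24 * v) with ha
  have ha0 : 0 < a := by have := hκ x hxΩ; positivity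
  have h2 : ∀ j, ∀ᶠ r : ℝ in 𝓝[>] 0, (∫⁻ y in closedBall x r, ‖Ω.indicator (G j) y - Ω.indicator (G j) x‖ₑ ^ p) /
      volume (closedBall x r) < ENNReal.ofReal a := fun j =>
    (hL j).eventually (gt_mem_nhds (ENNReal.ofReal_pos.2 ha0))
  have h3 := eventually_all.2 h2
  obtain ⟨r₁, hr₁, h4⟩ := (nhdsGT_basis (0 : ℝ)).mem_iff.1 h3
  refine ⟨min r₀ (r₁ / 2), lt_min hr₀ (by have : (0 : ℝ) < r₁ := hr₁; positivity), fun s hs hss => ?_⟩
  have hs0 : s < r₀ := hss.trans_le (min_le_left _ _)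
  have hs1 : 2 * s < r₁ := by
    have := hss.trans_le (min_le_right _ _)
    linarith
  obtain ⟨hsub, haff⟩ := h1 s hs hs0
  refine ⟨hsub, fun y hy y' hy' => ?_, ?_⟩
  · rw [← rowMap_eq_Gmat]; exact haff y hy y' hy'
  · have hcs : cube x s ⊆ Ω := fun y hy => hsub (fun i => by have := hy i; linarith)
    have hj : ∀ j, ∫⁻ y in cube x s, ‖G j y - G j x‖ₑ ^ p ≤ ENNReal.ofReal (a * ((2 * s) ^ 3 * v)) := by
      intro j
      have h5 := h4 (show 2 * s ∈ Ioo (0 : ℝ) r₁ from ⟨by positivity, hs1⟩) j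
      rw [ENNReal.div_lt_iff (Or.inl (measure_closedBall_pos _ _ (by positivity)).ne')
        (Or.inl measure_closedBall_lt_top.ne), volume_closedBall_le _ (by positivity),
        ← ENNReal.ofReal_mul ha0.le] at h5
      refine le_trans ?_ h5.le
      calc ∫⁻ y in cube x s, ‖G j y - G j x‖ₑ ^ p
          = ∫⁻ y in cube x s, ‖Ω.indicator (G j) y - Ω.indicator (G j) x‖ₑ ^ p := by
            apply setLIntegral_congr_fun (measurable_cube _ _)
            intro y hy
            simp only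
            rw [indicator_of_mem (hcs hy), indicator_of_mem hxΩ]
        _ ≤ _ := lintegral_mono_set (cube_subset_closedBall hs.le)
    have hmeas : ∀ j, AEMeasurable (fun y => ‖G j y - G j x‖ₑ ^ p) (volume.restrict (cube x s)) := by
      intro j
      have h6 : AEStronglyMeasurable (G j) (volume.restrict (cube x s)) :=
        (hGp j).1.mono_measure (Measure.restrict_mono hcs le_rfl)
      exact (h6.sub aestronglyMeasurable_const).enorm.pow_const _
    rw [lintegral_finsetSum' _ (fun j _ => hmeas j)]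
    calc ∑ j, ∫⁻ y in cube x s, ‖G j y - G j x‖ₑ ^ p
        ≤ ∑ j : Fin 3, ENNReal.ofReal (a * ((2 * s) ^ 3 * v)) := Finset.sum_le_sum fun j _ => hj j
      _ = ENNReal.ofReal (κ x * s ^ 3) := by
          rw [Finset.sum_const, Finset.card_univ, Fintype.card_fin, nsmul_eq_mul]
          rw [show ((3 : ℕ) : ℝ≥0∞) = ENNReal.ofReal 3 by simp, ← ENNReal.ofReal_mul (by norm_num)]
          congr 1
          rw [ha]
          field_simp
          ring

/-! ### measurability -/

lemma isOpen_cubeSub {Ω : Set R3} (hΩ : IsOpen Ω) {R : ℝ} (hR : 0 ≤ R) :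
    IsOpen {x : R3 | cube x R ⊆ Ω} := by
  have h1 : {x : R3 | cube x R ⊆ Ω} = (Ωᶜ + cube 0 R)ᶜ := by
    ext x
    rw [mem_compl_iff, Set.mem_add]
    constructor
    · rintro h ⟨y, hy, u, hu, rfl⟩
      apply hy
      apply h
      intro i
      have := hu i
      simp only [PiLp.add_apply, PiLp.zero_apply, sub_zero] at this ⊢
      rwa [show y i - (y i + u i) = -u i by ring, abs_neg]
    · intro h y hy
      by_contra hcon
      refine h ⟨y, hcon, x - y, fun i => ?_, by abel⟩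
      have := hy i
      simp only [PiLp.sub_apply, PiLp.zero_apply, sub_zero]
      rwa [abs_sub_comm]
  rw [h1]
  exact (hΩ.isClosed_compl.add_right_of_isCompact (isCompact_cube 0 hR)).isOpen_compl

/-- points whose open cube of half side `2R` is in `Ω`. -/
def UU (Ω : Set R3) (R : ℝ) : Set R3 := {x | ∀ s : ℝ, 0 < s → s < R → cube x (2 * s) ⊆ Ω}

lemma measurable_UU {Ω : Set R3} (hΩ : IsOpen Ω) (R : ℝ) : MeasurableSet (UU Ω R) := by
  have h1 : UU Ω R = ⋂ q : ℚ, {x | 0 < (q : ℝ) → (q : ℝ) < R → cube x (2 * (q : ℝ)) ⊆ Ω} := by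
    ext x
    simp only [UU, mem_ofPred_eq, mem_iInter]
    constructor
    · exact fun h q h1 h2 => h q h1 h2
    · intro h s hs hsR
      obtain ⟨q, hq1, hq2⟩ := exists_rat_btwn hsR
      exact fun y hy => h q (hs.trans hq1) hq2 (fun i => by have := hy i; linarith)
  rw [h1]
  refine MeasurableSet.iInter fun q => ?_
  by_cases hq : 0 < (q : ℝ)
  · by_cases hqR : (q : ℝ) < R
    · simp only [hq, hqR, true_imp_iff]
      exact (isOpen_cubeSub hΩ (by positivity)).measurableSet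
    · simp [hqR]
  · simp [hq]

lemma UU_subset {Ω : Set R3} {R : ℝ} (hR : 0 < R) : UU Ω R ⊆ Ω := by
  intro x hx
  exact hx (R / 2) (by positivity) (by linarith) (mem_cube_self x (by positivity))

/-- affine part. -/
def AA (f : R3 → R3) (G : Fin 3 → R3 → R3) (κ : R3 → ℝ) (R : ℝ) : Set R3 :=
  {x | ∀ s : ℝ, 0 < s → s < R → ∀ y ∈ cube x s, ∀ y' ∈ cube x s,
    ‖f y - f y' - Gmat G x (y - y')‖ ≤ κ x * s}

lemma measurable_Gmat {G : Fin 3 → R3 → R3} (hG : ∀ j, Measurable (G j)) : Measurable (Gmat G) :=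
  continuous_gmatL.measurable.comp (measurable_pi_lambda _ hG)

lemma mem_cube_smul {x u : R3} {s : ℝ} (hs : 0 ≤ s) (hu : u ∈ cube 0 1) : x + s • u ∈ cube x s := by
  intro i
  have := hu i
  simp only [PiLp.zero_apply, sub_zero] at this
  simp only [PiLp.add_apply, PiLp.smul_apply, smul_eq_mul, add_sub_cancel_left]
  rw [abs_mul, abs_of_nonneg hs]
  nlinarith

lemma measurable_AA {Ω : Set R3} (hΩ : IsOpen Ω) {f : R3 → R3} (hf : ContinuousOn f Ω)
    {G : Fin 3 → R3 → R3} (hG : ∀ j, Measurable (G j)) {κ : R3 → ℝ} (hκ : Measurable κ) {R : ℝ}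
    (hR : 0 < R) : MeasurableSet (UU Ω R ∩ AA f G κ R) := by
  set Y : Set (ℝ × R3 × R3) := {y | 0 < y.1 ∧ y.1 < R ∧ y.2.1 ∈ cube 0 1 ∧ y.2.2 ∈ cube 0 1} with hY
  haveI : Nonempty Y := ⟨⟨(R / 2, 0, 0), by
    refine ⟨by positivity, by simp only; linarith, ?_, ?_⟩ <;> exact mem_cube_self 0 zero_le_one⟩⟩
  set H : R3 → ℝ × R3 × R3 → Prop := fun x y =>
    ‖f (x + y.1 • y.2.1) - f (x + y.1 • y.2.2) - Gmat G x (y.1 • y.2.1 - y.1 • y.2.2)‖ ≤ κ x * y.1
    with hH
  have hmemΩ : ∀ x ∈ UU Ω R, ∀ y ∈ Y, x + y.1 • y.2.1 ∈ Ω ∧ x + y.1 • y.2.2 ∈ Ω := by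
    intro x hx y hy
    have h1 : cube x y.1 ⊆ Ω := fun w hw =>
      hx y.1 hy.1 hy.2.1 (fun i => by have := hw i; have := hy.1; linarith)
    exact ⟨h1 (mem_cube_smul hy.1.le hy.2.2.1), h1 (mem_cube_smul hy.1.le hy.2.2.2)⟩
  have key : UU Ω R ∩ AA f G κ R = ⋂ n : ℕ, {x | x ∈ UU Ω R ∧ H x (TopologicalSpace.denseSeq Y n : Y)} := by
    ext x
    simp only [mem_iInter, mem_ofPred_eq]
    constructor
    · rintro ⟨hx, hA⟩ n
      refine ⟨hx, ?_⟩
      set y := (TopologicalSpace.denseSeq Y n) with hy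
      have h1 := hA y.1.1 y.2.1 y.2.2.1 _ (mem_cube_smul (x := x) y.2.1.le y.2.2.2.1) _
        (mem_cube_smul (x := x) y.2.1.le y.2.2.2.2)
      rw [add_sub_add_left_eq_sub] at h1
      exact h1
    · intro h
      have hx : x ∈ UU Ω R := (h 0).1
      refine ⟨hx, ?_⟩
      -- closed condition
      have hcl : IsClosed {y : Y | H x y} := by
        have hc1 : Continuous fun y : Y => f (x + y.1.1 • y.1.2.1) := by
          rw [← continuousOn_univ]
          refine hf.comp (by fun_prop) fun y _ => (hmemΩ x hx y y.2).1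
        have hc2 : Continuous fun y : Y => f (x + y.1.1 • y.1.2.2) := by
          rw [← continuousOn_univ]
          refine hf.comp (by fun_prop) fun y _ => (hmemΩ x hx y y.2).2
        apply isClosed_le
        · apply Continuous.norm
          apply (hc1.sub hc2).sub
          apply (Gmat G x).continuous.comp
          fun_prop
        · fun_prop
      have hall : ∀ y : Y, H x y := by
        have h1 : closure (range (TopologicalSpace.denseSeq Y)) ⊆ {y : Y | H x y} :=
          closure_minimal (by rintro _ ⟨n, rfl⟩; exact (h n).2) hcl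
        rw [(TopologicalSpace.denseRange_denseSeq Y).closure_range] at h1
        exact fun y => h1 (mem_univ y)
      intro s hs hsR y hy y' hy'
      have hu : ∀ w ∈ cube x s, s⁻¹ • (w - x) ∈ cube (0 : R3) 1 := by
        intro w hw i
        have := hw i
        simp only [PiLp.smul_apply, PiLp.sub_apply, smul_eq_mul, PiLp.zero_apply, sub_zero]
        rw [abs_mul, abs_inv, abs_of_pos hs, inv_mul_le_iff₀ hs]
        linarith
      have h2 := hall ⟨(s, s⁻¹ • (y - x), s⁻¹ • (y' - x)), hs, hsR, hu y hy, hu y' hy'⟩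
      simp only [hH] at h2
      rw [smul_smul, smul_smul, mul_inv_cancel₀ hs.ne', one_smul, one_smul, add_sub_cancel,
        add_sub_cancel, sub_sub_sub_cancel_right] at h2
      exact h2
  rw [key]
  refine MeasurableSet.iInter fun n => ?_
  set y := (TopologicalSpace.denseSeq Y n) with hy
  have hU := measurable_UU hΩ R
  have h1 : {x | x ∈ UU Ω R ∧ H x y} = Subtype.val '' {x : UU Ω R | H x y} := by
    ext x
    constructor
    · rintro ⟨hx, hxH⟩
      exact ⟨⟨x, hx⟩, hxH, rfl⟩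
    · rintro ⟨⟨x', hx'⟩, hxH, rfl⟩
      exact ⟨hx', hxH⟩
  rw [h1]
  apply hU.subtype_image
  apply measurableSet_le
  · apply Measurable.norm
    apply Measurable.sub
    · apply Measurable.sub
      · apply Continuous.measurable
        rw [← continuousOn_univ]
        exact hf.comp (by fun_prop) fun x _ => (hmemΩ x x.2 y y.2).1
      · apply Continuous.measurable
        rw [← continuousOn_univ]
        exact hf.comp (by fun_prop) fun x _ => (hmemΩ x x.2 y y.2).2
    · have h2 : Measurable fun x : R3 => Gmat G x (y.1.1 • y.1.2.1 - y.1.1 • y.1.2.2) :=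
        (ContinuousLinearMap.apply ℝ R3 (y.1.1 • y.1.2.1 - y.1.1 • y.1.2.2)).continuous.measurable.comp
          (measurable_Gmat hG)
      exact h2.comp measurable_subtype_coe
  · exact (hκ.comp measurable_subtype_coe).mul_const _

/-- integral part. -/
def II (G : Fin 3 → R3 → R3) (p : ℝ) (κ : R3 → ℝ) (R : ℝ) : Set R3 :=
  {x | ∀ s : ℝ, 0 < s → s < R →
    ∫⁻ y in cube x s, ∑ j, ‖G j y - G j x‖ₑ ^ p ≤ ENNReal.ofReal (κ x * s ^ 3)}

lemma measurable_II {G : Fin 3 → R3 → R3} (hG : ∀ j, Measurable (G j)) {p : ℝ} {κ : R3 → ℝ}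
    (hκ : Measurable κ) {R : ℝ} : MeasurableSet (II G p κ R) := by
  have key : II G p κ R = ⋂ q : ℚ, {x | 0 < (q : ℝ) → (q : ℝ) < R →
      ∫⁻ y in cube x q, ∑ j, ‖G j y - G j x‖ₑ ^ p ≤ ENNReal.ofReal (κ x * (q : ℝ) ^ 3)} := by
    ext x
    simp only [II, mem_ofPred_eq, mem_iInter]
    constructor
    · exact fun h q h1 h2 => h q h1 h2
    · intro h s hs hsR
      by_contra hcon
      push Not at hcon
      have hc : ContinuousAt (fun t : ℝ => ENNReal.ofReal (κ x * t ^ 3)) s := by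
        apply Continuous.continuousAt
        exact ENNReal.continuous_ofReal.comp (by fun_prop)
      obtain ⟨ε, hε, h1⟩ := Metric.eventually_nhds_iff.1 (hc.eventually (gt_mem_nhds hcon))
      obtain ⟨q, hq1, hq2⟩ := exists_rat_btwn (show s < min R (s + ε) from lt_min hsR (by linarith))
      have h2 := h q (hs.trans hq1) (hq2.trans_le (min_le_left _ _))
      have h3 := @h1 (q : ℝ) (by
        rw [Real.dist_eq, abs_of_pos (by linarith)]
        have := hq2.trans_le (min_le_right _ _)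
        linarith)
      have h4 : ∫⁻ y in cube x s, ∑ j, ‖G j y - G j x‖ₑ ^ p ≤
          ∫⁻ y in cube x q, ∑ j, ‖G j y - G j x‖ₑ ^ p :=
        lintegral_mono_set fun y hy i => (hy i).trans hq1.le
      exact absurd (h4.trans h2) (not_le.2 h3)
  rw [key]
  refine MeasurableSet.iInter fun q => ?_
  by_cases hq : 0 < (q : ℝ)
  swap
  · simp [hq]
  by_cases hqR : (q : ℝ) < R
  swap
  · simp [hqR]
  simp only [hq, hqR, true_imp_iff]
  have hcl : MeasurableSet {z : R3 × R3 | z.2 ∈ cube z.1 q} := by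
    apply IsClosed.measurableSet
    have : {z : R3 × R3 | z.2 ∈ cube z.1 q} = ⋂ i, {z : R3 × R3 | |z.2 i - z.1 i| ≤ q} := by
      ext z; simp [cube]
    rw [this]
    refine isClosed_iInter fun i => isClosed_le ?_ continuous_const
    fun_prop
  have hint : Measurable fun x : R3 => ∫⁻ y in cube x q, ∑ j, ‖G j y - G j x‖ₑ ^ p := by
    have h1 : (fun x : R3 => ∫⁻ y in cube x q, ∑ j, ‖G j y - G j x‖ₑ ^ p) = fun x : R3 =>
        ∫⁻ y, ({z : R3 × R3 | z.2 ∈ cube z.1 q}.indicator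
          (fun z : R3 × R3 => ∑ j, ‖G j z.2 - G j z.1‖ₑ ^ p)) (x, y) := by
      funext x
      rw [← lintegral_indicator (measurable_cube _ _)]
      rfl
    rw [h1]
    apply Measurable.lintegral_prod_right'
    apply Measurable.indicator _ hcl
    have := hG
    fun_prop
  exact measurableSet_le hint (by fun_prop)

end Crest.Agent.R096.VolC2_766
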