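import Crest.Agent.R096.VolC2_766

/-!
Row 96 (S0127), helper766.  Volume form of the choice of the exact cubes for a Sobolev
homeomorphism of open subsets of `ℝ³`, `p ≥ 3`.
-/

set_option autoImplicit false
set_option linter.unusedSectionVars false
set_option linter.style.longLine false
set_option linter.style.haveILetI false
set_option linter.unusedVariables false

namespace Crest.Agent.R096.VolC3_766

open MeasureTheory Set Filter Topology Metric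
open scoped ENNReal NNReal RealInnerProductSpace
open Crest.AnalysisR.VecCalc3 Crest.AnalysisR.Sobolev
open Crest.Agent.R096.Osc_802 Crest.Agent.R096.LusN_766 Crest.Agent.R096.VolC_766
open Crest.Agent.R096.VolC2_766 Crest.Agent.R96.Lu_538
open Crest.Agent.R096.ThC6_766 Crest.Agent.R096.ThC7_766

/-- regular points which are not good at all scales `< R`. -/
def BB (Ω : Set R3) (f : R3 → R3) (G : Fin 3 → R3 → R3) (p : ℝ) (κ : R3 → ℝ) (R : ℝ) : Set R3 :=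
  {x | x ∈ Ω ∧ (Gmat G x).det ≠ 0 ∧ ¬ ∀ s : ℝ, 0 < s → s < R → GoodAt Ω f G p κ x s}

lemma measurable_BB {Ω : Set R3} (hΩ : IsOpen Ω) {f : R3 → R3} (hf : ContinuousOn f Ω)
    {G : Fin 3 → R3 → R3} (hG : ∀ j, Measurable (G j)) {p : ℝ} {κ : R3 → ℝ} (hκ : Measurable κ)
    {R : ℝ} (hR : 0 < R) : MeasurableSet (BB Ω f G p κ R) := by
  have h1 : BB Ω f G p κ R = Ω ∩ ({x | (Gmat G x).det = 0}ᶜ ∩
      ((UU Ω R ∩ AA f G κ R) ∩ II G p κ R)ᶜ) := by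
    ext x
    constructor
    · rintro ⟨hx, hx0, hg⟩
      refine ⟨hx, hx0, fun h => hg fun s hs hsR => ⟨h.1.1 s hs hsR, h.1.2 s hs hsR, h.2 s hs hsR⟩⟩
    · rintro ⟨hx, hx0, hg⟩
      refine ⟨hx, hx0, fun h => hg ⟨⟨fun s hs hsR => (h s hs hsR).sub, fun s hs hsR => (h s hs hsR).aff⟩,
        fun s hs hsR => (h s hs hsR).int⟩⟩
  rw [h1]
  refine hΩ.measurableSet.inter (MeasurableSet.inter ?_ ?_)
  · apply MeasurableSet.compl
    have h2 : Measurable fun x => (Gmat G x).det :=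
      (ContinuousLinearMap.continuous_det).measurable.comp (measurable_Gmat hG)
    exact h2 (measurableSet_singleton 0)
  · exact ((measurable_AA hΩ hf hG hκ hR).inter (measurable_II hG hκ)).compl

/-- the choice of measurable representatives does not matter. -/
lemma nullMeasurable_BB {Ω : Set R3} (hΩ : IsOpen Ω) {f : R3 → R3} (hf : ContinuousOn f Ω)
    {G : Fin 3 → R3 → R3} (hG : ∀ j, AEStronglyMeasurable (G j) (volume.restrict Ω)) {p : ℝ}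
    {κ : R3 → ℝ} (hκ : Measurable κ) {R : ℝ} (hR : 0 < R) :
    NullMeasurableSet (BB Ω f G p κ R) volume := by
  set G' : Fin 3 → R3 → R3 := fun j => (hG j).mk (G j) with hG'
  have hG'm : ∀ j, Measurable (G' j) := fun j => (hG j).stronglyMeasurable_mk.measurable
  have hae : ∀ᵐ x, x ∈ Ω → ∀ j, G j x = G' j x := by
    have h1 : ∀ j, ∀ᵐ x, x ∈ Ω → G j x = G' j x := fun j =>
      (ae_restrict_iff' hΩ.measurableSet).1 (hG j).ae_eq_mk
    filter_upwards [ae_all_iff.2 h1] with x hx hxΩ j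
    exact hx j hxΩ
  refine (measurable_BB hΩ hf hG'm hκ hR (p := p)).nullMeasurableSet.congr ?_
  filter_upwards [hae] with x hx
  apply propext
  by_cases hxΩ : x ∈ Ω
  swap
  · constructor
    · exact fun h => absurd h.1 hxΩ
    · exact fun h => absurd h.1 hxΩ
  have hGx := hx hxΩ
  have e1 : Gmat G' x = Gmat G x := by
    simp only [Gmat]
    congr 1
    funext j
    exact (hGx j).symm
  have e2 : ∀ s : ℝ, cube x (2 * s) ⊆ Ω → 0 < s → ∫⁻ y in cube x s, ∑ j, ‖G' j y - G' j x‖ₑ ^ p =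
      ∫⁻ y in cube x s, ∑ j, ‖G j y - G j x‖ₑ ^ p := by
    intro s hs hs0
    apply setLIntegral_congr_fun_ae (measurable_cube _ _)
    filter_upwards [hae] with y hy hyc
    have hyΩ : y ∈ Ω := hs (fun i => by have := hyc i; linarith)
    simp only [hy hyΩ, hGx]
  have e3 : ∀ s : ℝ, 0 < s → (GoodAt Ω f G' p κ x s ↔ GoodAt Ω f G p κ x s) := by
    intro s hs
    constructor
    · intro h
      refine ⟨h.sub, ?_, ?_⟩
      · have := h.aff; rwa [e1] at this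
      · have := h.int; rwa [e2 s h.sub hs] at this
    · intro h
      refine ⟨h.sub, ?_, ?_⟩
      · rw [e1]; exact h.aff
      · rw [e2 s h.sub hs]; exact h.int
  constructor
  · rintro ⟨h1, h2, h3⟩
    refine ⟨h1, by rwa [← e1], fun h => h3 fun s hs hsR => (e3 s hs).2 (h s hs hsR)⟩
  · rintro ⟨h1, h2, h3⟩
    refine ⟨h1, by rwa [e1], fun h => h3 fun s hs hsR => (e3 s hs).1 (h s hs hsR)⟩

/-- regular points which are bad at the scale `δ`. -/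
def BadG (Ω : Set R3) (f : R3 → R3) (G : Fin 3 → R3 → R3) (p : ℝ) (κ δ : R3 → ℝ) : Set R3 :=
  {x | x ∈ Ω ∧ (Gmat G x).det ≠ 0 ∧ ¬ ∀ s : ℝ, 0 < s → s < δ x → GoodAt Ω f G p κ x s}

/-- **Volume form of the choice of the exact cubes**, `p ≥ 3`: see the header. -/
theorem exists_exact {Ω Λ : Set R3} (hΩ : IsOpen Ω) (hΛ : IsOpen Λ) (hne : Λ.Nonempty)
    {f : R3 → R3} (hf : IsHomeomorphOn f Ω Λ) {G : Fin 3 → R3 → R3}
    (hG : ∀ j, HasWeakGradOn Ω (fun x => f x j) (G j)) {p : ℝ} (hp : 3 ≤ p)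
    (hGp : ∀ j, MemLp (G j) (ENNReal.ofReal p) (volume.restrict Ω)) {κ : R3 → ℝ}
    (hκm : Measurable κ) (hκ : ∀ x ∈ Ω, 0 < κ x)
    {ρ : Measure R3} [IsFiniteMeasure ρ] (hρ : ρ ≪ volume) {ε : ℝ≥0∞} (hε : 0 < ε) (hεt : ε ≠ ∞)
    {h₀ : R3 → ℝ} (hh₀ : ∀ x ∈ Ω, ∃ r : ℝ, 0 < r ∧ ∃ m : ℝ, 0 < m ∧ ∀ y ∈ ball x r, m ≤ h₀ y)
    {e : R3 → ℝ} (he : Scale Λ e) {β : ℝ} (hβ : 0 < β) (hβ1 : β ≤ 1 / 2) :
    ∃ δ : R3 → ℝ, Scale Ω δ ∧ (∀ x ∈ Ω, δ x ≤ h₀ x) ∧ ρ (BadG Ω f G p κ δ) < ε ∧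
      ∀ (ι : Type) [Countable ι] (Q : ι → Set R3), (∀ i, IsCompact (Q i)) → (∀ i, Q i ⊆ Ω) →
        (∀ K : Set R3, IsCompact K → K ⊆ Ω → {i | (Q i ∩ K).Nonempty}.Finite) →
        ∃ τ : ι → ℝ≥0∞, (∀ i, 0 < τ i) ∧ ∀ C : ι → Set R3, (∀ i, C i ⊆ Q i) →
          (∀ i, volume (C i) < τ i) →
          ρ (⋃ i, C i) < ε ∧ ∀ X : Set R3, X ⊆ Ω → closure X ∩ Ω ⊆ X →
            (∀ x ∈ X, (Gmat G x).det = 0 ∨ x ∈ BadG Ω f G p κ δ ∨ x ∈ ⋃ i, C i) →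
            ∃ (S : Set R3) (a : S → R3) (c : S → ℝ) (Phi : R3 → ℝ) (th : R3 → R3),
              Lag Λ (1 + 2 * β) e (closure (f '' X)) S a c Phi th := by
  have hf' := hf
  obtain ⟨g, hfm, hgm, hgf, hfg, hfc, hgc⟩ := hf'
  set B : ℕ → Set R3 := fun m => BB Ω f G p κ (1 / ((m : ℝ) + 1)) with hB
  have hBn : ∀ m, NullMeasurableSet (B m) volume := fun m =>
    nullMeasurable_BB hΩ hfc (fun j => (hGp j).1) hκm (by positivity)
  have hBa : Antitone B := by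
    intro m m' hmm x hx
    refine ⟨hx.1, hx.2.1, fun h => hx.2.2 fun s hs hsR => h s hs (hsR.trans_le ?_)⟩
    apply one_div_le_one_div_of_le (by positivity)
    have : (m : ℝ) ≤ m' := by exact_mod_cast hmm
    linarith
  have hB0 : volume (⋂ m, B m) = 0 := by
    have h1 := ae_good hΩ hΛ hf hG (p := p) (by linarith) hGp hκ
    refine measure_mono_null (fun x hx => ?_) h1
    rw [mem_iInter] at hx
    intro hcon
    obtain ⟨r₀, hr₀, h2⟩ := hcon (hx 0).1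
    obtain ⟨m, hm⟩ := exists_nat_one_div_lt hr₀
    exact (hx m).2.2 fun s hs hsR => h2 s hs (hsR.trans hm)
  obtain ⟨δ, hδ, hδh, hδρ, hmain⟩ := exists_volc hΩ hΛ hne hfm hgm hgf hfg hfc hgc (μ := volume)
    (fun N hN => lusinN hΩ hΛ hf hG hp hGp hN) (crit_image_null hΩ hΛ hf hG hp hGp) hBn hBa hB0 hρ hε
    hεt hh₀ he hβ hβ1
  have hsub : BadG Ω f G p κ δ ⊆ Bad Ω B δ := by
    rintro x ⟨hx, hx0, hxb⟩
    exact ⟨hx, fun m hm => ⟨hx, hx0, fun h => hxb fun s hs hsδ => h s hs (hsδ.trans_le hm)⟩⟩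
  refine ⟨δ, hδ, hδh, (measure_mono hsub).trans_lt hδρ, fun ι _ Q hQc hQΩ hQlf => ?_⟩
  obtain ⟨τ, hτ, h1⟩ := hmain ι Q hQc hQΩ hQlf
  refine ⟨τ, hτ, fun C hCQ hCτ => ⟨(h1 C hCQ hCτ).1, fun X hXΩ hXcl hX => ?_⟩⟩
  refine (h1 C hCQ hCτ).2 X hXΩ hXcl fun x hx => ?_
  rcases hX x hx with h | h | h
  · exact Or.inl (Or.inl h)
  · exact Or.inl (Or.inr (hsub h))
  · exact Or.inr h

/-- a cell which contains a regular point that is good at all scales `< δ`. -/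
def GoodCell (Ω : Set R3) (f : R3 → R3) (G : Fin 3 → R3 → R3) (p : ℝ) (κ δ : R3 → ℝ) (Q : Set R3) :
    Prop :=
  ∃ x ∈ Q, x ∈ Ω ∧ (Gmat G x).det ≠ 0 ∧ ∀ s : ℝ, 0 < s → s < δ x → GoodAt Ω f G p κ x s

/-- **The exact cells**: cell form of `exists_exact`, for every locally finite family of compact
cells `Q i ⊆ Ω` and all thin closed collars `C i ⊆ Q i`. -/
theorem exists_exact_cells {Ω Λ : Set R3} (hΩ : IsOpen Ω) (hΛ : IsOpen Λ) (hne : Λ.Nonempty)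
    {f : R3 → R3} (hf : IsHomeomorphOn f Ω Λ) {G : Fin 3 → R3 → R3}
    (hG : ∀ j, HasWeakGradOn Ω (fun x => f x j) (G j)) {p : ℝ} (hp : 3 ≤ p)
    (hGp : ∀ j, MemLp (G j) (ENNReal.ofReal p) (volume.restrict Ω)) {κ : R3 → ℝ}
    (hκm : Measurable κ) (hκ : ∀ x ∈ Ω, 0 < κ x)
    {ρ : Measure R3} [IsFiniteMeasure ρ] (hρ : ρ ≪ volume) {ε : ℝ≥0∞} (hε : 0 < ε) (hεt : ε ≠ ∞)
    {h₀ : R3 → ℝ} (hh₀ : ∀ x ∈ Ω, ∃ r : ℝ, 0 < r ∧ ∃ m : ℝ, 0 < m ∧ ∀ y ∈ ball x r, m ≤ h₀ y)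
    {e : R3 → ℝ} (he : Scale Λ e) {β : ℝ} (hβ : 0 < β) (hβ1 : β ≤ 1 / 2) :
    ∃ δ : R3 → ℝ, Scale Ω δ ∧ (∀ x ∈ Ω, δ x ≤ h₀ x) ∧
      ∀ (ι : Type) [Countable ι] (Q : ι → Set R3), (∀ i, IsCompact (Q i)) → (∀ i, Q i ⊆ Ω) →
        (∀ K : Set R3, IsCompact K → K ⊆ Ω → {i | (Q i ∩ K).Nonempty}.Finite) →
        ρ {x | (Gmat G x).det ≠ 0 ∧ ∃ i, x ∈ Q i ∧ ¬ GoodCell Ω f G p κ δ (Q i)} < ε ∧
        ∃ τ : ι → ℝ≥0∞, (∀ i, 0 < τ i) ∧ ∀ C : ι → Set R3, (∀ i, IsClosed (C i)) →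
          (∀ i, C i ⊆ Q i) → (∀ i, volume (C i) < τ i) →
          ρ (⋃ i, C i) < ε ∧
            ∃ (S : Set R3) (a : S → R3) (c : S → ℝ) (Phi : R3 → ℝ) (th : R3 → R3),
              Lag Λ (1 + 2 * β) e (closure (f '' {x | ∃ i, x ∈ C i ∨
                (x ∈ Q i ∧ ¬ GoodCell Ω f G p κ δ (Q i))})) S a c Phi th := by
  obtain ⟨δ, hδ, hδh, hδρ, hmain⟩ := exists_exact hΩ hΛ hne hf hG hp hGp hκm hκ hρ hε hεt hh₀ he hβ hβ1
  have hbad : ∀ Q : Set R3, Q ⊆ Ω → ¬ GoodCell Ω f G p κ δ Q → ∀ x ∈ Q, (Gmat G x).det ≠ 0 →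
      x ∈ BadG Ω f G p κ δ := fun Q hQ hng x hx hx0 =>
    ⟨hQ hx, hx0, fun h => hng ⟨x, hx, hQ hx, hx0, h⟩⟩
  refine ⟨δ, hδ, hδh, fun ι _ Q hQc hQΩ hQlf => ⟨?_, ?_⟩⟩
  · refine (measure_mono ?_).trans_lt hδρ
    rintro x ⟨hx0, i, hxi, hng⟩
    exact hbad (Q i) (hQΩ i) hng x hxi hx0
  · obtain ⟨τ, hτ, h1⟩ := hmain ι Q hQc hQΩ hQlf
    refine ⟨τ, hτ, fun C hCc hCQ hCτ => ⟨(h1 C hCQ hCτ).1, ?_⟩⟩
    refine (h1 C hCQ hCτ).2 _ ?_ ?_ ?_
    · rintro x ⟨i, hx | hx⟩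
      · exact hQΩ i (hCQ i hx)
      · exact hQΩ i hx.1
    · rintro x ⟨hx, hxΩ⟩
      -- a compact neighbourhood meets finitely many cells
      obtain ⟨r, hr, hrΩ⟩ := Metric.nhds_basis_closedBall.mem_iff.1 (hΩ.mem_nhds hxΩ)
      have hfin := hQlf (closedBall x r) (isCompact_closedBall _ _) hrΩ
      set F : ι → Set R3 := fun i => C i ∪ {y | y ∈ Q i ∧ ¬ GoodCell Ω f G p κ δ (Q i)} with hF
      have hFc : ∀ i, IsClosed (F i) := by
        intro i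
        apply (hCc i).union
        by_cases hg : GoodCell Ω f G p κ δ (Q i)
        · simp [hg]
        · simp only [hg, not_false_eq_true, and_true]
          exact (hQc i).isClosed
      have hFQ : ∀ i, F i ⊆ Q i := by
        rintro i y (hy | hy)
        · exact hCQ i hy
        · exact hy.1
      have hclF : IsClosed (⋃ i ∈ {i | (Q i ∩ closedBall x r).Nonempty}, F i) :=
        hfin.isClosed_biUnion fun i _ => hFc i
      have h2 : x ∈ closure (⋃ i ∈ {i | (Q i ∩ closedBall x r).Nonempty}, F i) := by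
        rw [mem_closure_iff_nhds] at hx ⊢
        intro t ht
        obtain ⟨y, ⟨hyt, hyr⟩, i, hyi⟩ := hx (t ∩ closedBall x r)
          (inter_mem ht (closedBall_mem_nhds x hr))
        have hyF : y ∈ F i := hyi
        exact ⟨y, hyt, mem_iUnion.2 ⟨i, mem_iUnion.2 ⟨⟨y, hFQ i hyF, hyr⟩, hyF⟩⟩⟩
      rw [hclF.closure_eq] at h2
      obtain ⟨i, hi⟩ := mem_iUnion.1 h2
      obtain ⟨-, hxi⟩ := mem_iUnion.1 hi
      exact ⟨i, hxi⟩
    · rintro x ⟨i, hx | hx⟩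
      · exact Or.inr (Or.inr (mem_iUnion.2 ⟨i, hx⟩))
      · by_cases h0 : (Gmat G x).det = 0
        · exact Or.inl h0
        · exact Or.inr (Or.inl (hbad (Q i) (hQΩ i) hx.2 x hx.1 h0))

end Crest.Agent.R096.VolC3_766
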