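import Crest.Agent.R096.Sla6_184
import Crest.Agent.R096.Gl11_422
import Crest.Agent.R096.SkB1c_662

/-!
# R096 (row 96), DOORS (helper422): vertical paths of the layered mesh, part 1: the column of copies
of a vertex of the frontier of a core as a path of 1-cells of 184's layered tiling `S.T3`.
-/

set_option autoImplicit false
set_option linter.unusedSectionVars false

open Set Relation Module

namespace Crest.Agent.R096.Vrt_422

open Crest.Agent.R096.St_147 Crest.Agent.R096.Seq_213 Crest.Agent.R096.Seq_213.GSt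
  Crest.Agent.R096.Lm_117 Crest.Agent.R096.Ac_117
  Crest.Agent.R096.Cp_298 Crest.Agent.R096.Msh_715 Crest.Agent.R096.Agl5_543
  Crest.Agent.R096.Ori_543 Crest.Agent.R096.Coh_184 Crest.Agent.R096.Gl_422
  Crest.Agent.R096.Sla_184 Crest.Agent.R096.Sla_184.Sla

variable {E : Type} [NormedAddCommGroup E] [NormedSpace ℝ E] [FiniteDimensional ℝ E]
variable {Om : Set E} {ι κ : Type}

section ends

variable {T : Tiling Om ι} [Nonempty T.Cell]

/-- two different vertices of a 1-cell are its ends -/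
theorem ends_eq {x p q : E} (hx : x ∈ Om) (hd : T.dim x = 1) (hp : p ∈ T.cc x)
    (hp0 : T.dim p = 0) (hq : q ∈ T.cc x) (hq0 : T.dim q = 0) (hne : p ≠ q) :
    ∃ b : Bool, enC (edC T x) b = edC T p ∧ enC (edC T x) (!b) = edC T q := by
  have he : (edC T x).dim = 1 := edC_dim ⟨hx, hd⟩
  obtain ⟨q1, q2, q3⟩ := ep_spec he
  rw [edC_set hx] at q2
  have h1 := T.vertex_of_edge hx hd q2 hp hp0
  have h2 := T.vertex_of_edge hx hd q2 hq hq0
  have key : ∀ b, enC (edC T x) b = edC T (epE (edC T x) b) := by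
    intro b
    have hO := Crest.Agent.R096.Cm_117.cell_sub (edC T x) (q3 b).2
    unfold enC
    rw [dif_pos hO, ← edC_cl hO]
  rcases h1 with h1 | h1 <;> rcases h2 with h2 | h2
  · exact absurd (h1.trans h2.symm) hne
  · exact ⟨false, by rw [key, ← h1], by rw [Bool.not_false, key, ← h2]⟩
  · exact ⟨true, by rw [key, ← h1], by rw [Bool.not_true, key, ← h2]⟩
  · exact absurd (h1.trans h2.symm) hne

end ends

variable {T : Tiling Om ι} {S : Sla T κ} {c : κ} {v x : E} {j : ℕ}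

theorem hc_Om (hv : v ∈ S.Bd c) (hj : j ≤ S.n c) : S.hc c v j ∈ Om := (hc_onS hv hj).mem
theorem vc_Om (hv : v ∈ S.Bd c) (hj : j < S.n c) : S.vc c v j ∈ Om := (vc_inL hv hj).mem

theorem D_vx (hv : v ∈ frontier (S.K c)) (h0 : T.dim v = 0) : S.D c v = 1 := by
  rw [D_fr hv, h0]

theorem hc_dim (hv : v ∈ S.Bd c) (hD : S.D c v = 1) (j : ℕ) : S.T3.dim (S.hc c v j) = 0 := by
  have := hc_dim3 hv j
  omega

theorem vc_dim (hv : v ∈ S.Bd c) (hD : S.D c v = 1) (j : ℕ) : S.T3.dim (S.vc c v j) = 1 := by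
  rw [vc_dim3 hv j, hD]

theorem hc_vc (hv : v ∈ S.Bd c) (hj : j < S.n c) : S.hc c v j ∈ S.T3.cc (S.vc c v j) := by
  have h := hc_onS hv hj.le
  refine (mem_cc_vc hv hj).2 ⟨O_C hv (hc_O hv j), ?_, ?_⟩
  · rw [h.2.2]; exact S.t_le (Nat.le_succ j) hj
  · rw [h.2.2]

theorem hc_vc' (hv : v ∈ S.Bd c) (hj : j < S.n c) : S.hc c v (j + 1) ∈ S.T3.cc (S.vc c v j) := by
  have h := hc_onS hv hj
  refine (mem_cc_vc hv hj).2 ⟨O_C hv (hc_O hv (j + 1)), ?_, ?_⟩
  · rw [h.2.2]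
  · rw [h.2.2]; exact S.t_le (Nat.le_succ j) hj

theorem hc_ne (hv : v ∈ S.Bd c) (hj : j < S.n c) : S.hc c v j ≠ S.hc c v (j + 1) := by
  intro h
  have h1 := (hc_onS hv hj.le).2.2
  rw [h, (hc_onS hv hj).2.2] at h1
  have h2 := S.t_lt (c := c) (Nat.lt_succ_self j) hj
  rw [h1] at h2
  exact lt_irrefl _ h2

/-- the ends of the vertical 1-cell over `v` -/
theorem vc_ends [Nonempty S.T3.Cell] (hv : v ∈ S.Bd c) (hD : S.D c v = 1) (hj : j < S.n c) :
    ∃ b : Bool, enC (edC S.T3 (S.vc c v j)) b = edC S.T3 (S.hc c v j) ∧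
      enC (edC S.T3 (S.vc c v j)) (!b) = edC S.T3 (S.hc c v (j + 1)) :=
  ends_eq (vc_Om hv hj) (vc_dim hv hD j) (hc_vc hv hj) (hc_dim hv hD j) (hc_vc' hv hj)
    (hc_dim hv hD (j + 1)) (hc_ne hv hj)

/-- a point of `T3` above the last slice is not in a shrunk core -/
theorem not_KK (hx : x ∈ S.K c) (h : S.t c (S.n c) < S.φ c x) (k : κ) : x ∉ S.KK k := by
  intro hk
  obtain ⟨h1, h2⟩ := mem_KK.1 hk
  have : c = k := S.core_unique hx h1
  subst this
  exact absurd h2 (not_le.2 h)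

theorem InL.not_KK (h : S.InL c j x) (k : κ) : x ∉ S.KK k :=
  Vrt_422.not_KK h.1 ((S.t_le (Nat.succ_le_of_lt h.2.1) le_rfl).trans_lt h.2.2.1) k

/-- the cells of the layers are outside of the shrunk cores -/
theorem outK_InL [Nonempty S.T3.Cell] (h : S.InL c j x) : OutK S.T3 S.KK (edC S.T3 x) := by
  obtain ⟨q, hq⟩ := S.T3.cov x h.mem
  refine ⟨q, fun k hk => InL.not_KK h k (hk hq), ?_⟩
  rw [edC_set h.mem]
  exact fun y hy => S.T3.cc_sub_tile hq hy

end Crest.Agent.R096.Vrt_422
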