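import Mathlib

/-!
# Slow radial interpolation of a conic family of bi-Lipschitz homeomorphisms (row 96, P5-VERTEX)

`Gauge E` : a positively homogeneous, `1`-Lipschitz function `N` with `‖x‖ ≤ 2 * N x`.
`Fam E` : a family `K t` of positively homogeneous bi-Lipschitz homeomorphisms of a normed space,
Lipschitz in `t`, with inverses `J t`.  For `τ : ℝ → ℝ` slowly varying the map
`x ↦ K (τ (log (N x))) x` is a bi-Lipschitz homeomorphism with constants that do not depend on `τ`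
(only on a bound of its slope).
-/

namespace Crest.Agent.R096.Vx_270

open Set Metric Filter Topology

variable {E : Type*} [NormedAddCommGroup E] [NormedSpace ℝ E]

/-- A gauge: positively homogeneous, `1`-Lipschitz and comparable to the norm. -/
structure Gauge (E : Type*) [NormedAddCommGroup E] [NormedSpace ℝ E] where
  N : E → ℝ
  hom : ∀ (c : ℝ) x, 0 < c → N (c • x) = c * N x
  lip : ∀ x y, |N x - N y| ≤ ‖x - y‖
  low : ∀ x, ‖x‖ ≤ 2 * N x

namespace Gauge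

variable (G : Gauge E)

lemma zero : G.N 0 = 0 := by
  have h := G.hom 2 0 two_pos
  rw [smul_zero] at h
  linarith

lemma le_norm (x : E) : G.N x ≤ ‖x‖ := by
  have h := G.lip x 0
  rw [G.zero, sub_zero, sub_zero] at h
  exact (le_abs_self _).trans h

lemma nonneg (x : E) : 0 ≤ G.N x := by
  have := G.low x
  linarith [norm_nonneg x]

lemma pos {x : E} (hx : x ≠ 0) : 0 < G.N x := by
  have := G.low x
  linarith [norm_pos_iff.2 hx]

lemma continuous : Continuous G.N :=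
  (LipschitzWith.of_dist_le_mul (K := 1) fun x y => by
    rw [Real.dist_eq, dist_eq_norm, NNReal.coe_one, one_mul]; exact G.lip x y).continuous

/-- the norm as a gauge -/
@[simps] def ofNorm (E : Type*) [NormedAddCommGroup E] [NormedSpace ℝ E] : Gauge E where
  N x := ‖x‖
  hom c x hc := by rw [norm_smul, Real.norm_eq_abs, abs_of_pos hc]
  lip x y := abs_norm_sub_norm_le x y
  low x := by linarith [norm_nonneg x]

end Gauge

/-- A Lipschitz family of positively homogeneous bi-Lipschitz homeomorphisms. -/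
structure Fam (E : Type*) [NormedAddCommGroup E] [NormedSpace ℝ E] where
  K : ℝ → E → E
  J : ℝ → E → E
  M : ℝ
  hM : 1 ≤ M
  hom : ∀ t (c : ℝ) x, 0 < c → K t (c • x) = c • K t x
  JK : ∀ t x, J t (K t x) = x
  KJ : ∀ t x, K t (J t x) = x
  lipK : ∀ t x y, ‖K t x - K t y‖ ≤ M * ‖x - y‖
  lipJ : ∀ t x y, ‖J t x - J t y‖ ≤ M * ‖x - y‖
  lipt : ∀ s t x, ‖K s x - K t x‖ ≤ M * |s - t| * ‖x‖
  G : Gauge E

namespace Fam

variable (F : Fam E)

lemma M_pos : 0 < F.M := lt_of_lt_of_le one_pos F.hM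

lemma K_zero (t : ℝ) : F.K t 0 = 0 := by
  have h := F.hom t 2 0 two_pos
  rw [smul_zero, two_smul] at h
  have h2 : F.K t 0 + 0 = F.K t 0 + F.K t 0 := by rw [add_zero]; exact h
  exact (add_left_cancel h2).symm

lemma J_zero (t : ℝ) : F.J t 0 = 0 := by
  have := F.JK t 0
  rwa [F.K_zero] at this

lemma homJ (t : ℝ) (c : ℝ) (x : E) (hc : 0 < c) : F.J t (c • x) = c • F.J t x := by
  have h : F.K t (c • F.J t x) = c • x := by rw [F.hom t c _ hc, F.KJ]
  rw [← h, F.JK]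

lemma norm_K_le (t : ℝ) (x : E) : ‖F.K t x‖ ≤ F.M * ‖x‖ := by
  have := F.lipK t x 0
  simpa [F.K_zero] using this

lemma norm_J_le (t : ℝ) (x : E) : ‖F.J t x‖ ≤ F.M * ‖x‖ := by
  have := F.lipJ t x 0
  simpa [F.J_zero] using this

lemma le_norm_J (t : ℝ) (x : E) : ‖x‖ / F.M ≤ ‖F.J t x‖ := by
  have h := F.norm_K_le t (F.J t x)
  rw [F.KJ] at h
  rw [div_le_iff₀ F.M_pos]
  linarith [mul_comm F.M ‖F.J t x‖]

lemma le_norm_K (t : ℝ) (x : E) : ‖x‖ / F.M ≤ ‖F.K t x‖ := by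
  have h := F.norm_J_le t (F.K t x)
  rw [F.JK] at h
  rw [div_le_iff₀ F.M_pos]
  linarith [mul_comm F.M ‖F.K t x‖]

lemma J_ne {t : ℝ} {y : E} (hy : y ≠ 0) : F.J t y ≠ 0 := by
  intro h
  apply hy
  have := F.KJ t y
  rw [h, F.K_zero] at this
  exact this.symm

lemma lipJt (s t : ℝ) (y : E) : ‖F.J s y - F.J t y‖ ≤ F.M ^ 3 * |s - t| * ‖y‖ := by
  have h1 : F.J t y = F.J s (F.K s (F.J t y)) := (F.JK s _).symm
  have h2 : ‖F.J s y - F.J t y‖ ≤ F.M * ‖y - F.K s (F.J t y)‖ := by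
    conv_lhs => rw [h1]
    exact F.lipJ s _ _
  have h3 : ‖y - F.K s (F.J t y)‖ ≤ F.M * |s - t| * ‖F.J t y‖ := by
    have := F.lipt t s (F.J t y)
    rw [F.KJ] at this
    rwa [abs_sub_comm] at this
  have h4 := F.norm_J_le t y
  have hM := F.M_pos
  have h5 : F.M * |s - t| * ‖F.J t y‖ ≤ F.M * |s - t| * (F.M * ‖y‖) :=
    mul_le_mul_of_nonneg_left h4 (by positivity)
  calc ‖F.J s y - F.J t y‖ ≤ F.M * ‖y - F.K s (F.J t y)‖ := h2
    _ ≤ F.M * (F.M * |s - t| * (F.M * ‖y‖)) :=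
        mul_le_mul_of_nonneg_left (h3.trans h5) hM.le
    _ = F.M ^ 3 * |s - t| * ‖y‖ := by ring

end Fam

/-- elementary: `|log a - log b| ≤ |a - b| / min a b`. -/
lemma abs_log_sub_le {a b m : ℝ} (hm : 0 < m) (ha : m ≤ a) (hb : m ≤ b) :
    |Real.log a - Real.log b| ≤ |a - b| / m := by
  wlog hab : b ≤ a generalizing a b with H
  · have := H hb ha (le_of_not_ge hab)
    rwa [abs_sub_comm, abs_sub_comm b a] at this
  have hb0 : 0 < b := lt_of_lt_of_le hm hb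
  have ha0 : 0 < a := lt_of_lt_of_le hm ha
  have h1 : 0 ≤ Real.log a - Real.log b := sub_nonneg.2 (Real.log_le_log hb0 hab)
  rw [abs_of_nonneg h1, abs_of_nonneg (sub_nonneg.2 hab)]
  rw [← Real.log_div ha0.ne' hb0.ne']
  have h2 : Real.log (a / b) ≤ a / b - 1 := Real.log_le_sub_one_of_pos (div_pos ha0 hb0)
  have h3 : a / b - 1 = (a - b) / b := by field_simp
  have h4 : (a - b) / b ≤ (a - b) / m :=
    div_le_div_of_nonneg_left (sub_nonneg.2 hab) hm hb
  linarith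

/-- A slowly varying parameter. -/
structure Slow (τ : ℝ → ℝ) (ε : ℝ) : Prop where
  nonneg : 0 ≤ ε
  lip : ∀ a b, |τ a - τ b| ≤ ε * |a - b|

namespace Fam

variable (F : Fam E)

/-- the parameter at a point -/
noncomputable def par (τ : ℝ → ℝ) (x : E) : ℝ := τ (Real.log (F.G.N x))

/-- the interpolated map -/
noncomputable def phi (τ : ℝ → ℝ) (x : E) : E := F.K (F.par τ x) x

lemma par_sub_le {τ : ℝ → ℝ} {ε : ℝ} (hτ : Slow τ ε) {x y : E} {m : ℝ} (hm : 0 < m)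
    (hx : m ≤ ‖x‖) (hy : m ≤ ‖y‖) : |F.par τ x - F.par τ y| ≤ 2 * ε * (‖x - y‖ / m) := by
  have h1 : m / 2 ≤ F.G.N x := by linarith [F.G.low x]
  have h2 : m / 2 ≤ F.G.N y := by linarith [F.G.low y]
  have h3 : |Real.log (F.G.N x) - Real.log (F.G.N y)| ≤ ‖x - y‖ / (m / 2) :=
    (abs_log_sub_le (half_pos hm) h1 h2).trans
      (div_le_div_of_nonneg_right (F.G.lip x y) (half_pos hm).le)
  calc |F.par τ x - F.par τ y| ≤ ε * |Real.log (F.G.N x) - Real.log (F.G.N y)| := hτ.lip _ _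
    _ ≤ ε * (‖x - y‖ / (m / 2)) := mul_le_mul_of_nonneg_left h3 hτ.nonneg
    _ = 2 * ε * (‖x - y‖ / m) := by field_simp

lemma phi_zero (τ : ℝ → ℝ) : F.phi τ 0 = 0 := F.K_zero _

lemma phi_lip {τ : ℝ → ℝ} {ε : ℝ} (hτ : Slow τ ε) (x y : E) :
    ‖F.phi τ x - F.phi τ y‖ ≤ F.M * (1 + 2 * ε) * ‖x - y‖ := by
  wlog hxy : ‖y‖ ≤ ‖x‖ generalizing x y with H
  · have := H y x (le_of_not_ge hxy)
    rwa [norm_sub_rev, norm_sub_rev y x] at this
  have hM := F.M_pos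
  have hε := hτ.nonneg
  have h1 : ‖F.K (F.par τ x) x - F.K (F.par τ x) y‖ ≤ F.M * ‖x - y‖ := F.lipK _ _ _
  have h2 : ‖F.K (F.par τ x) y - F.K (F.par τ y) y‖ ≤ F.M * (2 * ε * ‖x - y‖) := by
    rcases eq_or_ne y 0 with hy | hy
    · subst hy
      rw [F.K_zero, F.K_zero]; simp only [sub_self, norm_zero]; positivity
    · have hy0 : 0 < ‖y‖ := norm_pos_iff.2 hy
      have h3 := F.par_sub_le hτ hy0 hxy le_rfl
      have h4 := F.lipt (F.par τ x) (F.par τ y) y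
      calc _ ≤ F.M * |F.par τ x - F.par τ y| * ‖y‖ := h4
        _ ≤ F.M * (2 * ε * (‖x - y‖ / ‖y‖)) * ‖y‖ := by gcongr
        _ = F.M * (2 * ε * ‖x - y‖) := by field_simp
  calc ‖F.phi τ x - F.phi τ y‖
      = ‖(F.K (F.par τ x) x - F.K (F.par τ x) y) + (F.K (F.par τ x) y - F.K (F.par τ y) y)‖ := by
        simp only [phi]; congr 1; abel
    _ ≤ F.M * ‖x - y‖ + F.M * (2 * ε * ‖x - y‖) := (norm_add_le _ _).trans (add_le_add h1 h2)
    _ = _ := by ring

/-- the equation for the parameter of the preimage of `y` -/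
noncomputable def gy (τ : ℝ → ℝ) (y : E) (t : ℝ) : ℝ := F.par τ (F.J t y)

lemma gy_lip {τ : ℝ → ℝ} {ε : ℝ} (hτ : Slow τ ε) {y : E} (hy : y ≠ 0) (s t : ℝ) :
    |F.gy τ y s - F.gy τ y t| ≤ 2 * ε * F.M ^ 4 * |s - t| := by
  have hy0 : 0 < ‖y‖ := norm_pos_iff.2 hy
  have hM := F.M_pos
  have h := F.par_sub_le hτ (div_pos hy0 hM) (F.le_norm_J s y) (F.le_norm_J t y)
  have h1 := F.lipJt s t y
  refine h.trans ?_
  rw [mul_assoc (2 * ε)]
  refine mul_le_mul_of_nonneg_left ?_ (mul_nonneg zero_le_two hτ.nonneg)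
  rw [div_le_iff₀ (div_pos hy0 hM)]
  calc _ ≤ F.M ^ 3 * |s - t| * ‖y‖ := h1
    _ = F.M ^ 4 * |s - t| * (‖y‖ / F.M) := by field_simp

lemma exists_fix {τ : ℝ → ℝ} {ε : ℝ} (hτ : Slow τ ε) (hε : ε * F.M ^ 4 ≤ 1 / 4) {y : E}
    (hy : y ≠ 0) : ∃ t, F.gy τ y t = t := by
  have hc : ContractingWith (1 / 2 : NNReal) (F.gy τ y) := by
    refine ⟨by
      rw [← NNReal.coe_lt_coe]; norm_num, ?_⟩
    refine LipschitzWith.of_dist_le_mul fun s t => ?_
    rw [Real.dist_eq, Real.dist_eq]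
    refine (F.gy_lip hτ hy s t).trans ?_
    have : ((1 / 2 : NNReal) : ℝ) = 1 / 2 := by norm_num
    rw [this]
    exact mul_le_mul_of_nonneg_right (by linarith) (abs_nonneg _)
  exact ⟨_, hc.fixedPoint_isFixedPt⟩

lemma fix_unique {τ : ℝ → ℝ} {ε : ℝ} (hτ : Slow τ ε) (hε : ε * F.M ^ 4 ≤ 1 / 4) {y : E}
    (hy : y ≠ 0) {s t : ℝ} (hs : F.gy τ y s = s) (ht : F.gy τ y t = t) : s = t := by
  have h := F.gy_lip hτ hy s t
  rw [hs, ht] at h
  have h2 : |s - t| ≤ 1 / 2 * |s - t| :=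
    h.trans (mul_le_mul_of_nonneg_right (by linarith) (abs_nonneg _))
  have h3 : |s - t| = 0 := le_antisymm (by linarith [abs_nonneg (s - t)]) (abs_nonneg _)
  exact sub_eq_zero.1 (abs_eq_zero.1 h3)

open Classical in
/-- the parameter of the preimage -/
noncomputable def T (τ : ℝ → ℝ) (y : E) : ℝ :=
  if h : ∃ t, F.gy τ y t = t then h.choose else 0

lemma T_spec {τ : ℝ → ℝ} {ε : ℝ} (hτ : Slow τ ε) (hε : ε * F.M ^ 4 ≤ 1 / 4) {y : E}
    (hy : y ≠ 0) : F.gy τ y (F.T τ y) = F.T τ y := by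
  have h := F.exists_fix hτ hε hy
  rw [T, dif_pos h]
  exact h.choose_spec

/-- the inverse map -/
noncomputable def psi (τ : ℝ → ℝ) (y : E) : E := F.J (F.T τ y) y

lemma phi_psi {τ : ℝ → ℝ} {ε : ℝ} (hτ : Slow τ ε) (hε : ε * F.M ^ 4 ≤ 1 / 4) (y : E) :
    F.phi τ (F.psi τ y) = y := by
  rcases eq_or_ne y 0 with hy | hy
  · subst hy; rw [psi, F.J_zero, F.phi_zero]
  · have h := F.T_spec hτ hε hy
    have h2 : F.par τ (F.psi τ y) = F.T τ y := h
    rw [phi, h2, psi, F.KJ]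

lemma psi_phi {τ : ℝ → ℝ} {ε : ℝ} (hτ : Slow τ ε) (hε : ε * F.M ^ 4 ≤ 1 / 4) (x : E) :
    F.psi τ (F.phi τ x) = x := by
  rcases eq_or_ne x 0 with hx | hx
  · subst hx; rw [F.phi_zero, psi, F.J_zero]
  · have hne : F.phi τ x ≠ 0 := by
      intro h
      apply hx
      have := F.JK (F.par τ x) x
      rw [show F.K (F.par τ x) x = 0 from h, F.J_zero] at this
      exact this.symm
    have h1 : F.gy τ (F.phi τ x) (F.par τ x) = F.par τ x := by
      show F.par τ (F.J (F.par τ x) (F.K (F.par τ x) x)) = _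
      rw [F.JK]
    have h2 := F.fix_unique hτ hε hne (F.T_spec hτ hε hne) h1
    rw [psi, h2]
    exact F.JK _ _

lemma psi_lip {τ : ℝ → ℝ} {ε : ℝ} (hτ : Slow τ ε) (hε : ε * F.M ^ 4 ≤ 1 / 4) (y z : E) :
    ‖F.psi τ y - F.psi τ z‖ ≤ (F.M + F.M) * F.M * ‖y - z‖ := by
  wlog hyz : ‖z‖ ≤ ‖y‖ generalizing y z with H
  · have := H z y (le_of_not_ge hyz)
    rwa [norm_sub_rev, norm_sub_rev z y] at this
  have hM := F.M_pos
  have hM1 := F.hM
  have hε0 := hτ.nonneg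
  rcases eq_or_ne z 0 with hz | hz
  · subst hz
    rw [show F.psi τ 0 = 0 from F.J_zero _, sub_zero, sub_zero]
    refine (F.norm_J_le _ y).trans ?_
    refine mul_le_mul_of_nonneg_right ?_ (norm_nonneg _)
    nlinarith
  · have hz0 : 0 < ‖z‖ := norm_pos_iff.2 hz
    have hy : y ≠ 0 := by
      intro h; subst h; rw [norm_zero] at hyz; linarith
    set a := F.T τ y with ha
    set b := F.T τ z with hb
    have e1 : F.gy τ y a = a := F.T_spec hτ hε hy
    have e2 : F.gy τ z b = b := F.T_spec hτ hε hz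
    have h1 : |F.gy τ y a - F.gy τ y b| ≤ 1 / 2 * |a - b| :=
      (F.gy_lip hτ hy a b).trans (mul_le_mul_of_nonneg_right (by linarith) (abs_nonneg _))
    have h2 : |F.gy τ y b - F.gy τ z b| ≤ 2 * ε * (F.M * ‖y - z‖ / (‖z‖ / F.M)) := by
      have hm : 0 < ‖z‖ / F.M := div_pos hz0 hM
      have hyb : ‖z‖ / F.M ≤ ‖F.J b y‖ :=
        (div_le_div_of_nonneg_right hyz hM.le).trans (F.le_norm_J b y)
      refine (F.par_sub_le hτ hm hyb (F.le_norm_J b z)).trans ?_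
      exact mul_le_mul_of_nonneg_left
        (div_le_div_of_nonneg_right (F.lipJ b y z) hm.le) (mul_nonneg zero_le_two hε0)
    have h3 : |a - b| ≤ 1 / 2 * |a - b| + 2 * ε * (F.M * ‖y - z‖ / (‖z‖ / F.M)) := by
      have : a - b = (F.gy τ y a - F.gy τ y b) + (F.gy τ y b - F.gy τ z b) := by
        rw [e1, e2]; ring
      calc |a - b| = |(F.gy τ y a - F.gy τ y b) + (F.gy τ y b - F.gy τ z b)| := by rw [← this]
        _ ≤ _ := (abs_add_le _ _).trans (add_le_add h1 h2)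
    have h4 : |a - b| ≤ 4 * (ε * (F.M ^ 2 * ‖y - z‖ / ‖z‖)) := by
      have : F.M * ‖y - z‖ / (‖z‖ / F.M) = F.M ^ 2 * ‖y - z‖ / ‖z‖ := by field_simp
      rw [this] at h3
      linarith
    have h5 : ‖F.J a z - F.J b z‖ ≤ F.M * ‖y - z‖ := by
      refine (F.lipJt a b z).trans ?_
      calc F.M ^ 3 * |a - b| * ‖z‖ ≤ F.M ^ 3 * (4 * (ε * (F.M ^ 2 * ‖y - z‖ / ‖z‖))) * ‖z‖ := by
            gcongr
        _ = F.M * (4 * (ε * F.M ^ 4)) * ‖y - z‖ := by field_simp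
        _ ≤ F.M * 1 * ‖y - z‖ := by
            gcongr
            linarith
        _ = F.M * ‖y - z‖ := by ring
    calc ‖F.psi τ y - F.psi τ z‖ = ‖(F.J a y - F.J a z) + (F.J a z - F.J b z)‖ := by
          simp only [psi, ← ha, ← hb]; congr 1; abel
      _ ≤ F.M * ‖y - z‖ + F.M * ‖y - z‖ :=
          (norm_add_le _ _).trans (add_le_add (F.lipJ _ _ _) h5)
      _ = (F.M + F.M) * ‖y - z‖ := by ring
      _ ≤ (F.M + F.M) * F.M * ‖y - z‖ := by
          refine mul_le_mul_of_nonneg_right ?_ (norm_nonneg _)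
          nlinarith

/-- The interpolated map as a homeomorphism. -/
noncomputable def homeo {τ : ℝ → ℝ} {ε : ℝ} (hτ : Slow τ ε) (hε : ε * F.M ^ 4 ≤ 1 / 4) :
    E ≃ₜ E where
  toFun := F.phi τ
  invFun := F.psi τ
  left_inv := F.psi_phi hτ hε
  right_inv := F.phi_psi hτ hε
  continuous_toFun := by
    have : LipschitzWith ⟨F.M * (1 + 2 * ε), by
        have := F.M_pos; have := hτ.nonneg; positivity⟩ (F.phi τ) :=
      LipschitzWith.of_dist_le_mul fun x y => by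
        rw [dist_eq_norm, dist_eq_norm]; exact F.phi_lip hτ x y
    exact this.continuous
  continuous_invFun := by
    have : LipschitzWith ⟨(F.M + F.M) * F.M, by have := F.M_pos; positivity⟩ (F.psi τ) :=
      LipschitzWith.of_dist_le_mul fun x y => by
        rw [dist_eq_norm, dist_eq_norm]; exact F.psi_lip hτ hε x y
    exact this.continuous

@[simp] lemma homeo_apply {τ : ℝ → ℝ} {ε : ℝ} (hτ : Slow τ ε) (hε : ε * F.M ^ 4 ≤ 1 / 4)
    (x : E) : F.homeo hτ hε x = F.K (τ (Real.log (F.G.N x))) x := rfl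

lemma homeo_symm_apply {τ : ℝ → ℝ} {ε : ℝ} (hτ : Slow τ ε) (hε : ε * F.M ^ 4 ≤ 1 / 4)
    (y : E) : (F.homeo hτ hε).symm y = F.psi τ y := rfl

end Fam

end Crest.Agent.R096.Vx_270
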