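import Crest.Agent.R096.Vx1_270
import Crest.Agent.R096.Mo4_119

/-!
# Slow radial interpolation: the derivative, the class `MollAt`, and one step of `CORE3`

* `Fam.fderiv_close` : where both maps are differentiable, the derivative of the interpolated map
  is `3 M ε`-close to the derivative of the frozen map;
* `Fam.mollAt_phi` : `MollAt` at every good point;
* `Fam.Mo` : a family which is `MollAt` off `0`, uniformly; `Fam.Mo.exists_unif`;
* `CoreAt μ K` : `K` extends from the complement of the unit ball to a homeomorphism which is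
  `MollAt` everywhere; `coreAt_linear`, `Fam.Mo.coreAt` (one step along a family).
-/

set_option autoImplicit false

open MeasureTheory Metric Set Filter Topology
open scoped ENNReal NNReal

namespace Crest.Agent.R096.Vx_270

open Crest.Agent.R096.Mo_119 (MollAt)

section basic

variable {E : Type*} [NormedAddCommGroup E] [NormedSpace ℝ E]

/-- the derivative of a positively homogeneous map is homogeneous of degree `0` -/
lemma fderiv_smul_of_hom {H : E → E} (hom : ∀ (c : ℝ) x, 0 < c → H (c • x) = c • H x) {c : ℝ}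
    (hc : 0 < c) (x : E) : fderiv ℝ H (c • x) = fderiv ℝ H x := by
  have h1 : fderiv ℝ (fun y => H (c • y)) x = c • fderiv ℝ H (c • x) := fderiv_comp_smul c
  have h2 : (fun y => H (c • y)) = c • H := by
    funext y; exact hom c y hc
  rw [h2, fderiv_const_smul_field] at h1
  have h3 := congrArg (fun D => c⁻¹ • D) h1
  simp only [Pi.smul_apply, smul_smul, inv_mul_cancel₀ hc.ne', one_smul] at h3
  exact h3.symm

namespace Fam

variable (F : Fam E)

/-- local comparison of the interpolated map with the frozen map -/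
lemma phi_sub_frozen {τ : ℝ → ℝ} {ε : ℝ} (hτ : Slow τ ε) {x : E} (hx : x ≠ 0) :
    ∀ᶠ y in 𝓝 x, ‖(F.phi τ y - F.K (F.par τ x) y) - (F.phi τ x - F.K (F.par τ x) x)‖ ≤
      3 * F.M * ε * ‖y - x‖ := by
  have hx0 : 0 < ‖x‖ := norm_pos_iff.2 hx
  have hM := F.M_pos
  have hε := hτ.nonneg
  filter_upwards [ball_mem_nhds x (ε := ‖x‖ / 5) (by positivity)] with y hy
  rw [mem_ball_iff_norm] at hy
  have h1 : ‖y‖ ≤ 6 / 5 * ‖x‖ := by
    have : ‖y‖ ≤ ‖x‖ + ‖y - x‖ := by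
      calc ‖y‖ = ‖x + (y - x)‖ := by congr 1; abel
        _ ≤ _ := norm_add_le _ _
    linarith
  have h2 : 4 / 5 * ‖x‖ ≤ ‖y‖ := by
    have : ‖x‖ ≤ ‖y‖ + ‖y - x‖ := by
      calc ‖x‖ = ‖y - (y - x)‖ := by congr 1; abel
        _ ≤ _ := norm_sub_le _ _
    linarith
  have h3 : |F.par τ y - F.par τ x| ≤ 2 * ε * (‖y - x‖ / (4 / 5 * ‖x‖)) :=
    F.par_sub_le hτ (by positivity) h2 (by linarith)
  have h4 : F.phi τ x - F.K (F.par τ x) x = 0 := sub_self _
  rw [h4, sub_zero]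
  calc ‖F.phi τ y - F.K (F.par τ x) y‖ ≤ F.M * |F.par τ y - F.par τ x| * ‖y‖ := F.lipt _ _ _
    _ ≤ F.M * (2 * ε * (‖y - x‖ / (4 / 5 * ‖x‖))) * (6 / 5 * ‖x‖) := by gcongr
    _ = 3 * F.M * ε * ‖y - x‖ := by field_simp; ring

lemma fderiv_close {τ : ℝ → ℝ} {ε : ℝ} (hτ : Slow τ ε) {x : E} (hx : x ≠ 0)
    (h1 : DifferentiableAt ℝ (F.phi τ) x) (h2 : DifferentiableAt ℝ (F.K (F.par τ x)) x) :
    ‖fderiv ℝ (F.phi τ) x - fderiv ℝ (F.K (F.par τ x)) x‖ ≤ 3 * F.M * ε := by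
  have hM := F.M_pos
  have hε := hτ.nonneg
  exact (h1.hasFDerivAt.sub h2.hasFDerivAt).le_of_lip' (by positivity) (F.phi_sub_frozen hτ hx)

lemma lipschitz_phi {τ : ℝ → ℝ} {ε : ℝ} (hτ : Slow τ ε) :
    LipschitzWith ⟨F.M * (1 + 2 * ε), by
      have := F.M_pos; have := hτ.nonneg; positivity⟩ (F.phi τ) :=
  LipschitzWith.of_dist_le_mul fun x y => by
    rw [dist_eq_norm, dist_eq_norm]; exact F.phi_lip hτ x y

lemma continuousAt_par {τ : ℝ → ℝ} {ε : ℝ} (hτ : Slow τ ε) {x : E} (hx : x ≠ 0) :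
    ContinuousAt (F.par τ) x := by
  have hx0 : 0 < ‖x‖ := norm_pos_iff.2 hx
  have hε := hτ.nonneg
  have h : ∀ᶠ y in 𝓝 x, ‖F.par τ y - F.par τ x‖ ≤ 2 * ε * (‖y - x‖ / (4 / 5 * ‖x‖)) := by
    filter_upwards [ball_mem_nhds x (ε := ‖x‖ / 5) (by positivity)] with y hy
    rw [mem_ball_iff_norm] at hy
    have h2 : 4 / 5 * ‖x‖ ≤ ‖y‖ := by
      have : ‖x‖ ≤ ‖y‖ + ‖y - x‖ := by
        calc ‖x‖ = ‖y - (y - x)‖ := by congr 1; abel
          _ ≤ _ := norm_sub_le _ _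
      linarith
    rw [Real.norm_eq_abs]
    exact F.par_sub_le hτ (by positivity) h2 (by linarith)
  have h0 : Tendsto (fun y => F.par τ y - F.par τ x) (𝓝 x) (𝓝 0) := by
    refine squeeze_zero_norm' h ?_
    have : Tendsto (fun y : E => 2 * ε * (‖y - x‖ / (4 / 5 * ‖x‖))) (𝓝 x)
        (𝓝 (2 * ε * (‖x - x‖ / (4 / 5 * ‖x‖)))) := by
      apply ContinuousAt.tendsto
      fun_prop
    simpa using this
  have h3 := h0.add_const (F.par τ x)
  simp only [sub_add_cancel, zero_add] at h3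
  exact h3

end Fam

end basic

section moll

variable {E : Type*} [NormedAddCommGroup E] [NormedSpace ℝ E] [FiniteDimensional ℝ E]
  [MeasurableSpace E] [BorelSpace E]

omit [FiniteDimensional ℝ E] [BorelSpace E] in
lemma MollAt.congr {μ : Measure E} {f g : E → E} {x : E} (hf : MollAt μ f x)
    (h : f =ᶠ[𝓝 x] g) : MollAt μ g x := by
  obtain ⟨r, hr, K, h1, h2, h3, ⟨L, hL⟩, h4⟩ := hf
  obtain ⟨r', hr', hb⟩ := Metric.eventually_nhds_iff_ball.1 h
  have hsub : ball x (min r r') ⊆ ball x r := ball_subset_ball (min_le_left _ _)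
  have hsub' : ball x (min r r') ⊆ ball x r' := ball_subset_ball (min_le_right _ _)
  refine ⟨min r r', lt_min hr hr', K, h1, h2, h3, ⟨L, ?_⟩, ?_⟩
  · intro y hy z hz
    rw [← hb y (hsub' hy), ← hb z (hsub' hz)]
    exact hL (hsub hy) (hsub hz)
  · filter_upwards [h4] with y hy hy'
    have : f =ᶠ[𝓝 y] g := by
      filter_upwards [isOpen_ball.mem_nhds (hsub' hy')] with z hz using hb z hz
    rw [← this.fderiv_eq]
    exact hy (hsub hy')

omit [FiniteDimensional ℝ E] [BorelSpace E] in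
lemma mollAt_linear {μ : Measure E} {L : E →L[ℝ] E} (hL : 0 < L.det) (x : E) :
    MollAt μ (fun y => L y) x := by
  refine ⟨1, one_pos, {L}, convex_singleton L, isCompact_singleton, ?_, ⟨‖L‖₊, ?_⟩, ?_⟩
  · intro A hA; rw [mem_singleton_iff] at hA; subst hA; exact hL
  · exact L.lipschitz.lipschitzOnWith
  · refine Eventually.of_forall fun y _ => ?_
    rw [mem_singleton_iff]
    exact L.fderiv

/-- `MollAt` is invariant under rescaling -/
lemma MollAt.rescale {μ : Measure E} [μ.IsAddHaarMeasure] {f : E → E} {ρ : ℝ} (hρ : 0 < ρ)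
    {x : E} (hf : MollAt μ f (ρ⁻¹ • x)) : MollAt μ (fun y => ρ • f (ρ⁻¹ • y)) x := by
  obtain ⟨r, hr, K, h1, h2, h3, ⟨L, hL⟩, h4⟩ := hf
  have hm : ∀ y, y ∈ ball x (ρ * r) → ρ⁻¹ • y ∈ ball (ρ⁻¹ • x) r := by
    intro y hy
    rw [mem_ball_iff_norm] at hy ⊢
    rw [← smul_sub, norm_smul, Real.norm_eq_abs, abs_of_pos (inv_pos.2 hρ)]
    rw [inv_mul_lt_iff₀ hρ]
    exact hy
  refine ⟨ρ * r, mul_pos hρ hr, K, h1, h2, h3, ⟨L, ?_⟩, ?_⟩
  · refine LipschitzOnWith.of_dist_le_mul fun y hy z hz => ?_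
    have h := hL.dist_le_mul _ (hm y hy) _ (hm z hz)
    rw [dist_eq_norm, dist_eq_norm] at h ⊢
    rw [← smul_sub, norm_smul, Real.norm_eq_abs, abs_of_pos hρ]
    rw [← smul_sub, norm_smul, Real.norm_eq_abs, abs_of_pos (inv_pos.2 hρ)] at h
    calc ρ * ‖f (ρ⁻¹ • y) - f (ρ⁻¹ • z)‖ ≤ ρ * (L * (ρ⁻¹ * ‖y - z‖)) :=
          mul_le_mul_of_nonneg_left h hρ.le
      _ = L * ‖y - z‖ := by field_simp
  · have h5 := Mo_119.ae_comp h4 0 (c := -ρ⁻¹) (neg_ne_zero.2 (inv_pos.2 hρ).ne')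
    filter_upwards [h5] with y hy hy'
    have e : (0 : E) - (-ρ⁻¹) • y = ρ⁻¹ • y := by rw [neg_smul, zero_sub, neg_neg]
    rw [e] at hy
    have h6 := hy (hm y hy')
    have : fderiv ℝ (fun y => ρ • f (ρ⁻¹ • y)) y = fderiv ℝ f (ρ⁻¹ • y) := by
      have h7 : fderiv ℝ (fun y => f (ρ⁻¹ • y)) y = ρ⁻¹ • fderiv ℝ f (ρ⁻¹ • y) :=
        fderiv_comp_smul ρ⁻¹
      have h8 : (fun y => ρ • f (ρ⁻¹ • y)) = ρ • (fun y => f (ρ⁻¹ • y)) := rfl
      rw [h8, fderiv_const_smul_field]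
      simp only [Pi.smul_apply]
      rw [h7, smul_smul, mul_inv_cancel₀ hρ.ne', one_smul]
    rw [this]
    exact h6

end moll

end Crest.Agent.R096.Vx_270
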