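import Crest.Agent.R096.Vx3_270

/-!
# The segment form of the class `MollAt`

`Seg C f B` : for all `a b ∈ B` there is `A ∈ C` with `f a - f b = A (a - b)`.  For `C` convex,
compact and of positive determinant this is (locally) the same as `MollAt`, but no null set and no
derivative occurs: `seg_of_ae`, `mollAt_of_seg`.  `seg_of_sel`: continuous selections of finitely
many `C¹` maps.  `seg_phi`: the slow radial interpolation.
-/

set_option autoImplicit false
set_option linter.unusedSectionVars false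

open MeasureTheory Metric Set Filter Topology
open scoped ENNReal NNReal ContDiff

namespace Crest.Agent.R096.Vx_270

open Crest.Agent.R096.Mo_119 (MollAt)

section basic

variable {E : Type*} [NormedAddCommGroup E] [NormedSpace ℝ E]

/-- the segment condition -/
def Seg (C : Set (E →L[ℝ] E)) (f : E → E) (B : Set E) : Prop :=
  ∀ a ∈ B, ∀ b ∈ B, ∃ A ∈ C, f a - f b = A (a - b)

/-- a compact convex set of linear maps of positive determinant -/
structure Good (C : Set (E →L[ℝ] E)) : Prop where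
  conv : Convex ℝ C
  cpt : IsCompact C
  pos : ∀ A ∈ C, 0 < A.det

lemma Seg.mono {C C' : Set (E →L[ℝ] E)} {f : E → E} {B B' : Set E} (h : Seg C f B) (hC : C ⊆ C')
    (hB : B' ⊆ B) : Seg C' f B' := fun a ha b hb =>
  let ⟨A, hA, e⟩ := h a (hB ha) b (hB hb)
  ⟨A, hC hA, e⟩

lemma Seg.congr {C : Set (E →L[ℝ] E)} {f g : E → E} {B : Set E} (h : Seg C f B)
    (hfg : ∀ x ∈ B, f x = g x) : Seg C g B := fun a ha b hb => by
  rw [← hfg a ha, ← hfg b hb]
  exact h a ha b hb

/-- values at a vector -/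
lemma convex_eval {C : Set (E →L[ℝ] E)} (hC : Convex ℝ C) (v : E) :
    Convex ℝ ((fun A : E →L[ℝ] E => A v) '' C) :=
  hC.linear_image ((ContinuousLinearMap.apply ℝ E v : (E →L[ℝ] E) →L[ℝ] E) :
    (E →L[ℝ] E) →ₗ[ℝ] E)

lemma compact_eval {C : Set (E →L[ℝ] E)} (hC : IsCompact C) (v : E) :
    IsCompact ((fun A : E →L[ℝ] E => A v) '' C) :=
  hC.image (ContinuousLinearMap.apply ℝ E v).continuous

/-- the pointwise hull of `C` -/
def star (C : Set (E →L[ℝ] E)) : Set (E →L[ℝ] E) := {D | ∀ v, ∃ A ∈ C, D v = A v}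

lemma subset_star (C : Set (E →L[ℝ] E)) : C ⊆ star C := fun A hA _ => ⟨A, hA, rfl⟩

lemma convex_star {C : Set (E →L[ℝ] E)} (hC : Convex ℝ C) : Convex ℝ (star C) := by
  intro D₁ h1 D₂ h2 a b ha hb hab v
  obtain ⟨A₁, hA₁, e1⟩ := h1 v
  obtain ⟨A₂, hA₂, e2⟩ := h2 v
  refine ⟨a • A₁ + b • A₂, hC hA₁ hA₂ ha hb hab, ?_⟩
  show a • D₁ v + b • D₂ v = a • A₁ v + b • A₂ v
  rw [e1, e2]

lemma isClosed_star {C : Set (E →L[ℝ] E)} (hC : IsCompact C) : IsClosed (star C) := by
  have : star C = ⋂ v : E, (fun D : E →L[ℝ] E => D v) ⁻¹' ((fun A : E →L[ℝ] E => A v) '' C) := by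
    ext D
    simp only [star, mem_ofPred_eq, mem_iInter, mem_preimage, mem_image]
    constructor
    · intro h v
      obtain ⟨A, hA, e⟩ := h v
      exact ⟨A, hA, e.symm⟩
    · intro h v
      obtain ⟨A, hA, e⟩ := h v
      exact ⟨A, hA, e.symm⟩
  rw [this]
  exact isClosed_iInter fun v => (compact_eval hC v).isClosed.preimage
    (ContinuousLinearMap.apply ℝ E v).continuous

lemma exists_norm_le {C : Set (E →L[ℝ] E)} (hC : IsCompact C) : ∃ L : ℝ≥0, ∀ A ∈ C, ‖A‖ ≤ L := by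
  obtain ⟨M, hM⟩ := hC.isBounded.exists_norm_le
  exact ⟨⟨max M 0, le_max_right _ _⟩, fun A hA => (hM A hA).trans (le_max_left _ _)⟩

lemma norm_star_le {C : Set (E →L[ℝ] E)} {L : ℝ≥0} (hL : ∀ A ∈ C, ‖A‖ ≤ L) {D : E →L[ℝ] E}
    (hD : D ∈ star C) : ‖D‖ ≤ L := by
  refine D.opNorm_le_bound L.2 fun v => ?_
  obtain ⟨A, hA, e⟩ := hD v
  rw [e]
  exact (A.le_opNorm v).trans (mul_le_mul_of_nonneg_right (hL A hA) (norm_nonneg _))

lemma Seg.lipschitz {C : Set (E →L[ℝ] E)} {f : E → E} {B : Set E} (h : Seg C f B) {L : ℝ≥0}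
    (hL : ∀ A ∈ C, ‖A‖ ≤ L) : LipschitzOnWith L f B := by
  refine LipschitzOnWith.of_dist_le_mul fun a ha b hb => ?_
  obtain ⟨A, hA, e⟩ := h a ha b hb
  rw [dist_eq_norm, dist_eq_norm, e]
  exact (A.le_opNorm _).trans (mul_le_mul_of_nonneg_right (hL A hA) (norm_nonneg _))

/-- a derivative at an interior point lies in the pointwise hull -/
lemma Seg.deriv_mem {C : Set (E →L[ℝ] E)} (hC : IsCompact C) {f : E → E} {B : Set E}
    (h : Seg C f B) {x : E} (hx : B ∈ 𝓝 x) {D : E →L[ℝ] E} (hD : HasFDerivAt f D x) :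
    D ∈ star C := by
  intro v
  have h1 : HasDerivAt (fun t : ℝ => f (x + t • v)) (D v) 0 := by
    have h0 : HasFDerivAt f D (x + (0 : ℝ) • v) := by simpa using hD
    have hl : HasDerivAt (fun t : ℝ => x + t • v) v 0 := by
      have := ((hasDerivAt_id (0 : ℝ)).smul_const v).const_add x
      simpa using this
    exact h0.comp_hasDerivAt (0 : ℝ) hl
  have h2 := h1.tendsto_slope_zero_right
  have hcl := (compact_eval hC v).isClosed
  have hev : ∀ᶠ t in 𝓝[>] (0 : ℝ), t⁻¹ • (f (x + (0 + t) • v) - f (x + (0 : ℝ) • v)) ∈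
      (fun A : E →L[ℝ] E => A v) '' C := by
    have hc : Tendsto (fun t : ℝ => x + t • v) (𝓝 0) (𝓝 x) := by
      have : Continuous fun t : ℝ => x + t • v := by fun_prop
      simpa using this.tendsto 0
    have h3 : ∀ᶠ t in 𝓝 (0 : ℝ), x + t • v ∈ B := hc.eventually hx
    filter_upwards [h3.filter_mono nhdsWithin_le_nhds, self_mem_nhdsWithin] with t ht ht0
    have ht0 : (0 : ℝ) < t := ht0
    obtain ⟨A, hA, e⟩ := h _ ht x (mem_of_mem_nhds hx)
    refine ⟨A, hA, ?_⟩
    rw [zero_add, zero_smul, add_zero, e, add_sub_cancel_left, map_smul, smul_smul,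
      inv_mul_cancel₀ ht0.ne', one_smul]
  obtain ⟨A, hA, e⟩ := hcl.mem_of_tendsto h2 hev
  exact ⟨A, hA, e.symm⟩

/-- a rank one map with prescribed value and small norm -/
lemma exists_rank_one (v e : E) (hv : v ≠ 0) :
    ∃ B : E →L[ℝ] E, B v = e ∧ ‖B‖ ≤ ‖e‖ / ‖v‖ := by
  have hv0 : ‖v‖ ≠ 0 := norm_ne_zero_iff.2 hv
  obtain ⟨g, hg, hgv⟩ := exists_dual_vector ℝ v hv0
  refine ⟨(‖v‖⁻¹ : ℝ) • g.smulRight e, ?_, ?_⟩
  · have : g v = ‖v‖ := by simpa using hgv
    show (‖v‖⁻¹ : ℝ) • (g v • e) = e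
    rw [this, smul_smul, inv_mul_cancel₀ hv0, one_smul]
  · rw [norm_smul, norm_inv, norm_norm, ContinuousLinearMap.norm_smulRight_apply, hg, one_mul]
    rw [div_eq_inv_mul]

/-- fencing lemma: a continuous real function on `[0,1]` which at every point equals one of
finitely many functions with nonpositive derivative does not increase -/
lemma sel_antitone {ι : Type*} [Finite ι] {u : ℝ → ℝ} {w : ι → ℝ → ℝ} {w' : ι → ℝ → ℝ}
    (hu : ContinuousOn u (Icc 0 1)) (hw : ∀ j, ∀ t ∈ Icc (0 : ℝ) 1, HasDerivAt (w j) (w' j t) t)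
    (hw' : ∀ j, ∀ t ∈ Icc (0 : ℝ) 1, w' j t ≤ 0)
    (hsel : ∀ t ∈ Icc (0 : ℝ) 1, ∃ j, u t = w j t) : u 1 ≤ u 0 := by
  -- every right slope is frequently nonpositive
  have hant : ∀ j, AntitoneOn (w j) (Icc 0 1) := by
    intro j
    refine antitoneOn_of_deriv_nonpos (convex_Icc 0 1)
      (fun t ht => (hw j t ht).continuousAt.continuousWithinAt) ?_ ?_
    · intro t ht
      rw [interior_Icc] at ht
      exact (hw j t (Ioo_subset_Icc_self ht)).differentiableAt.differentiableWithinAt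
    · intro t ht
      rw [interior_Icc] at ht
      rw [(hw j t (Ioo_subset_Icc_self ht)).deriv]
      exact hw' j t (Ioo_subset_Icc_self ht)
  have key : ∀ r : ℝ, 0 < r → u 1 ≤ u 0 + r * 1 := by
    intro r hr
    have := image_le_of_liminf_slope_right_lt_deriv_boundary' (f := u) (f' := fun _ => 0)
      (a := 0) (b := 1) hu ?_ (B := fun t => u 0 + r * t) (B' := fun _ => r) (by simp)
      (by fun_prop) ?_ ?_ (right_mem_Icc.2 zero_le_one)
    · simpa using this
    · intro x hx s hs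
      -- pigeonhole
      have hx1 : x ∈ Icc (0 : ℝ) 1 := Ico_subset_Icc_self hx
      have hcov : ∀ᶠ z in 𝓝[>] x, z ∈ Icc (0 : ℝ) 1 := by
        have : Ioo x 1 ∈ 𝓝[>] x := Ioo_mem_nhdsGT hx.2
        filter_upwards [this] with z hz
        exact ⟨hx.1.trans hz.1.le, hz.2.le⟩
      have hex : ∃ j, ∃ᶠ z in 𝓝[>] x, z ∈ Icc (0 : ℝ) 1 ∧ u z = w j z := by
        by_contra hcon
        push Not at hcon
        have h1 : ∀ j, ∀ᶠ z in 𝓝[>] x, ¬ (z ∈ Icc (0 : ℝ) 1 ∧ u z = w j z) := fun j => by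
          filter_upwards [hcon j] with z hz h using hz h.1 h.2
        have h2 : ∀ᶠ z in 𝓝[>] x, ∀ j, ¬ (z ∈ Icc (0 : ℝ) 1 ∧ u z = w j z) :=
          Filter.eventually_all.2 h1
        obtain ⟨z, hz1, hz2⟩ := (hcov.and h2).exists
        obtain ⟨j, hj⟩ := hsel z hz1
        exact hz2 j ⟨hz1, hj⟩
      obtain ⟨j, hj⟩ := hex
      -- `u x = w j x` by continuity
      have hux : u x = w j x := by
        by_contra hne
        have hcu : Tendsto (fun z => u z - w j z) (𝓝[Icc 0 1] x) (𝓝 (u x - w j x)) :=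
          (hu x hx1).sub (hw j x hx1).continuousAt.continuousWithinAt
        have hne' : ∀ᶠ z in 𝓝[Icc 0 1] x, u z - w j z ≠ 0 :=
          hcu.eventually_ne (sub_ne_zero.2 hne)
        have hle : 𝓝[>] x ≤ 𝓝[Icc 0 1] x := by
          refine le_inf (nhdsWithin_le_nhds) ?_
          exact le_principal_iff.2 hcov
        obtain ⟨z, hz1, hz2⟩ := (hj.and_eventually (hne'.filter_mono hle)).exists
        exact hz2 (sub_eq_zero.2 hz1.2)
      refine (hj.and_eventually self_mem_nhdsWithin).mono ?_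
      rintro z ⟨⟨hz1, hz2⟩, hz3⟩
      have hz3 : x < z := hz3
      have h3 : slope u x z ≤ 0 := by
        rw [slope_def_field, hz2, hux]
        exact div_nonpos_of_nonpos_of_nonneg
          (sub_nonpos.2 (hant j hx1 hz1 hz3.le)) (sub_nonneg.2 hz3.le)
      exact lt_of_le_of_lt h3 hs
    · intro x _
      have h4 : HasDerivAt (fun t : ℝ => u 0 + r * t) (r * 1) x :=
        ((hasDerivAt_id x).const_mul r).const_add (u 0)
      rw [mul_one] at h4
      exact h4.hasDerivWithinAt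
    · intro x _ _
      exact hr
  have h2 : Tendsto (fun r : ℝ => u 0 + r * 1) (𝓝[>] 0) (𝓝 (u 0)) := by
    have : Continuous fun r : ℝ => u 0 + r * 1 := by fun_prop
    have h3 := this.tendsto 0
    simp only [zero_mul, add_zero] at h3
    exact h3.mono_left nhdsWithin_le_nhds
  exact ge_of_tendsto h2 (eventually_nhdsWithin_of_forall fun r hr => key r hr)

/-- **Continuous selections of finitely many differentiable maps with derivatives in `C`.** -/
theorem seg_of_sel {ι : Type*} [Finite ι] {C : Set (E →L[ℝ] E)} (hC : Convex ℝ C)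
    (hCc : IsCompact C) {B : Set E} (hB : Convex ℝ B) {f : E → E} (hf : ContinuousOn f B)
    {g : ι → E → E} {g' : ι → E → E →L[ℝ] E} (hg : ∀ j, ∀ x ∈ B, HasFDerivAt (g j) (g' j x) x)
    (hg' : ∀ j, ∀ x ∈ B, g' j x ∈ C) (hsel : ∀ x ∈ B, ∃ j, f x = g j x) : Seg C f B := by
  intro a ha b hb
  by_contra hcon
  push Not at hcon
  have hnot : f a - f b ∉ (fun A : E →L[ℝ] E => A (a - b)) '' C := by
    rintro ⟨A, hA, e⟩
    exact hcon A hA e.symm
  obtain ⟨l, s, hs1, hs2⟩ := geometric_hahn_banach_closed_point (convex_eval hC (a - b))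
    (compact_eval hCc (a - b)).isClosed hnot
  -- the fencing function
  have hseg : ∀ t ∈ Icc (0:ℝ) 1, b + t • (a - b) ∈ B := fun t ht =>
    hB.add_smul_sub_mem hb ha ht
  have hline : ∀ t : ℝ, HasDerivAt (fun t : ℝ => b + t • (a - b)) (a - b) t := by
    intro t
    have := ((hasDerivAt_id t).smul_const (a - b)).const_add b
    simpa using this
  have hc : ContinuousOn (fun t : ℝ => b + t • (a - b)) (Icc 0 1) := by fun_prop
  have h := sel_antitone (u := fun t => l (f (b + t • (a - b))) - s * t)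
    (w := fun j t => l (g j (b + t • (a - b))) - s * t)
    (w' := fun j t => l (g' j (b + t • (a - b)) (a - b)) - s)
    ((l.continuous.comp_continuousOn (hf.comp hc hseg)).sub (by fun_prop)) ?_ ?_ ?_
  · simp only [one_smul, zero_smul, add_zero, mul_one, mul_zero, sub_zero] at h
    rw [add_sub_cancel] at h
    have h3 : l (f a - f b) ≤ s := by rw [map_sub]; linarith
    linarith
  · intro j t ht
    have h1 : HasDerivAt (fun t : ℝ => g j (b + t • (a - b)))
        (g' j (b + t • (a - b)) (a - b)) t := (hg j _ (hseg t ht)).comp_hasDerivAt t (hline t)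
    have h2 : HasDerivAt (fun t : ℝ => l (g j (b + t • (a - b))))
        (l (g' j (b + t • (a - b)) (a - b))) t := l.hasFDerivAt.comp_hasDerivAt t h1
    have h3 : HasDerivAt (fun t : ℝ => s * t) s t := by
      simpa using (hasDerivAt_id t).const_mul s
    exact h2.sub h3
  · intro j t ht
    have := hs1 _ ⟨_, hg' j _ (hseg t ht), rfl⟩
    linarith
  · intro t ht
    obtain ⟨j, hj⟩ := hsel _ (hseg t ht)
    exact ⟨j, by rw [hj]⟩

end basic

section finite

variable {E : Type*} [NormedAddCommGroup E] [NormedSpace ℝ E] [FiniteDimensional ℝ E]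

lemma isCompact_star {C : Set (E →L[ℝ] E)} (hC : IsCompact C) : IsCompact (star C) := by
  have : ProperSpace (E →L[ℝ] E) := FiniteDimensional.proper_real _
  obtain ⟨L, hL⟩ := exists_norm_le hC
  refine (isCompact_closedBall (0 : E →L[ℝ] E) L).of_isClosed_subset (isClosed_star hC) ?_
  intro D hD
  rw [mem_closedBall_zero_iff]
  exact norm_star_le hL hD

lemma injective_of_det {A : E →L[ℝ] E} (hA : 0 < A.det) : Function.Injective A := by
  intro a b hab
  apply (A.toContinuousLinearEquivOfDetNeZero hA.ne').injective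
  rw [ContinuousLinearMap.toContinuousLinearEquivOfDetNeZero_apply,
    ContinuousLinearMap.toContinuousLinearEquivOfDetNeZero_apply]
  exact hab

lemma det_ne_of_injective {A : E →L[ℝ] E} (hA : ∀ v, A v = 0 → v = 0) : A.det ≠ 0 := by
  intro h
  have h1 : LinearMap.det (A : E →ₗ[ℝ] E) = 0 := h
  have h2 := LinearMap.bot_lt_ker_of_det_eq_zero h1
  obtain ⟨v, hv, hv0⟩ := (Submodule.ne_bot_iff _).1 h2.ne'
  exact hv0 (hA v hv)

/-- the pointwise hull of a good set is good -/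
lemma Good.star {C : Set (E →L[ℝ] E)} (hC : Good C) : Good (star C) := by
  refine ⟨convex_star hC.conv, isCompact_star hC.cpt, fun D hD => ?_⟩
  have hne : ∀ D' ∈ Vx_270.star C, D'.det ≠ 0 := by
    intro D' hD'
    apply det_ne_of_injective
    intro v hv
    obtain ⟨A, hA, e⟩ := hD' v
    rw [hv] at e
    exact injective_of_det (hC.pos A hA) (by rw [← e, map_zero])
  obtain ⟨A, hA, -⟩ := hD 0
  have hA' := subset_star C hA
  by_contra hcon
  push Not at hcon
  have hcont : ContinuousOn (fun t : ℝ => ((1 - t) • D + t • A).det) (Icc 0 1) := by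
    have : Continuous fun t : ℝ => ((1 - t) • D + t • A).det :=
      ContinuousLinearMap.continuous_det.comp (by fun_prop)
    exact this.continuousOn
  have h0 : ((1 - (0:ℝ)) • D + (0:ℝ) • A).det ≤ 0 := by simpa using hcon
  have h1 : 0 ≤ ((1 - (1:ℝ)) • D + (1:ℝ) • A).det := by simpa using (hC.pos A hA).le
  obtain ⟨t, ht, h2⟩ := intermediate_value_Icc zero_le_one hcont ⟨h0, h1⟩
  exact hne _ (convex_star hC.conv hD hA' (sub_nonneg.2 ht.2) ht.1 (by ring)) h2

variable [MeasurableSpace E] [BorelSpace E]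

/-- **From the segment form to `MollAt`.** -/
theorem mollAt_of_seg {μ : Measure E} [μ.IsAddHaarMeasure] {C : Set (E →L[ℝ] E)} (hC : Good C)
    {f : E → E} {x : E} {r : ℝ} (hr : 0 < r) (h : Seg C f (ball x r)) : MollAt μ f x := by
  obtain ⟨L, hL⟩ := exists_norm_le hC.cpt
  have hlip := h.lipschitz hL
  refine ⟨r, hr, star C, hC.star.conv, hC.star.cpt, hC.star.pos, ⟨L, hlip⟩, ?_⟩
  filter_upwards [hlip.ae_differentiableWithinAt_of_mem (μ := μ)] with y hy hyb
  have hn : ball x r ∈ 𝓝 y := isOpen_ball.mem_nhds hyb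
  have hd : DifferentiableAt ℝ f y := (hy hyb).differentiableAt hn
  exact h.deriv_mem hC.cpt hn hd.hasFDerivAt

/-- **From the almost everywhere form to the segment form.** -/
theorem seg_of_ae {μ : Measure E} [μ.IsAddHaarMeasure] {C : Set (E →L[ℝ] E)} (hC : Convex ℝ C)
    (hCc : IsCompact C) {f : E → E} {L : ℝ≥0} {x : E} {R : ℝ} (hL : LipschitzOnWith L f (ball x R))
    (hae : ∀ᵐ y ∂μ, y ∈ ball x R → fderiv ℝ f y ∈ C) : Seg C f (ball x R) := by
  intro a ha b hb
  obtain ⟨ρ, hd⟩ := Mo_119.exists_dens μ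
  have hk := hd.ker
  rw [mem_ball_iff_norm] at ha hb
  obtain ⟨R', hR'1, hR'2⟩ := exists_between (max_lt ha hb)
  have ha' : a ∈ ball x R' := by
    rw [mem_ball_iff_norm]; exact (le_max_left _ _).trans_lt hR'1
  have hb' : b ∈ ball x R' := by
    rw [mem_ball_iff_norm]; exact (le_max_right _ _).trans_lt hR'1
  -- smooth approximations
  have key : ∀ δ : ℝ, 0 < δ → δ < R - R' →
      Mo_119.avg (Mo_119.kerM μ ρ) f (fun _ => δ) a - Mo_119.avg (Mo_119.kerM μ ρ) f (fun _ => δ) b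
        ∈ (fun A : E →L[ℝ] E => A (a - b)) '' C := by
    intro δ hδ hδR
    have hx : ∀ z ∈ ball x R', ‖z - x‖ + (fun _ : E => δ) z < R := by
      intro z hz
      rw [mem_ball_iff_norm] at hz
      show ‖z - x‖ + δ < R
      linarith
    obtain ⟨A, hA, e⟩ := Mo_119.exists_seg (g := Mo_119.avg (Mo_119.kerM μ ρ) f (fun _ => δ))
      (convex_ball x R') hC hCc.isClosed
      (fun z hz => (hd.contDiffAt_avg_loc hL contDiff_const (x := z) hδ (hx z hz)).of_le
        (by norm_cast)) (fun z hz => by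
        have h1 := hk.fderiv_avg_loc hL (η := fun _ => δ) contDiff_const (x := z) hδ (hx z hz)
        have h2 : fderiv ℝ (fun _ : E => δ) z = 0 := by simp
        rw [h2, norm_zero, mul_zero] at h1
        have h3 := sub_eq_zero.1 (norm_le_zero_iff.1 h1)
        rw [h3]
        exact hk.avgD_mem_loc hL hC hCc.isClosed hae hδ (hx z hz)) ha' hb'
    exact ⟨A, hA, e.symm⟩
  have hlim : ∀ z ∈ ball x R', Tendsto
      (fun δ : ℝ => Mo_119.avg (Mo_119.kerM μ ρ) f (fun _ => δ) z) (𝓝[>] 0) (𝓝 (f z)) := by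
    intro z hz
    rw [mem_ball_iff_norm] at hz
    rw [tendsto_iff_norm_sub_tendsto_zero]
    have hev : ∀ᶠ δ : ℝ in 𝓝[>] 0, ‖Mo_119.avg (Mo_119.kerM μ ρ) f (fun _ => δ) z - f z‖ ≤
        Mo_119.κE E * L * δ := by
      have : Ioo 0 (R - R') ∈ 𝓝[>] (0 : ℝ) := Ioo_mem_nhdsGT (by linarith)
      filter_upwards [this] with δ hδ
      exact hk.norm_avg_sub_le_loc hL (η := fun _ => δ) hδ.1 (by
        show ‖z - x‖ + δ < R
        linarith [hδ.2])
    have h0 : Tendsto (fun δ : ℝ => (Mo_119.κE E * L * δ : ℝ)) (𝓝[>] 0) (𝓝 0) := by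
      have : Continuous fun δ : ℝ => (Mo_119.κE E * L * δ : ℝ) := by fun_prop
      have h := this.tendsto 0
      rw [mul_zero] at h
      exact h.mono_left nhdsWithin_le_nhds
    exact squeeze_zero' (Eventually.of_forall fun _ => norm_nonneg _) hev h0
  have hmem : f a - f b ∈ (fun A : E →L[ℝ] E => A (a - b)) '' C := by
    refine (compact_eval hCc (a - b)).isClosed.mem_of_tendsto ((hlim a ha').sub (hlim b hb')) ?_
    have : Ioo 0 (R - R') ∈ 𝓝[>] (0 : ℝ) := Ioo_mem_nhdsGT (by linarith)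
    filter_upwards [this] with δ hδ using key δ hδ.1 hδ.2
  obtain ⟨A, hA, e⟩ := hmem
  exact ⟨A, hA, e.symm⟩

/-- `MollAt` in segment form -/
theorem exists_seg_of_mollAt {μ : Measure E} [μ.IsAddHaarMeasure] {f : E → E} {x : E}
    (h : MollAt μ f x) : ∃ r > 0, ∃ C : Set (E →L[ℝ] E), Good C ∧ Seg C f (ball x r) := by
  obtain ⟨r, hr, K, h1, h2, h3, ⟨L, hL⟩, h4⟩ := h
  exact ⟨r, hr, K, ⟨h1, h2, h3⟩, seg_of_ae h1 h2 hL h4⟩

end finite

/-- **The slow radial interpolation in segment form.** -/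
theorem Fam.seg_phi {E : Type*} [NormedAddCommGroup E] [NormedSpace ℝ E] (F : Fam E)
    {τ : ℝ → ℝ} {ε : ℝ} (hτ : Slow τ ε) {x₀ : E} (h0 : x₀ ≠ 0) {r : ℝ} (hr : 0 < r)
    {C : Set (E →L[ℝ] E)} (hC : ∀ t, |t - F.par τ x₀| < r → Seg C (F.K t) (ball x₀ r)) :
    ∃ r' > 0, Seg (cthickening (3 * F.M * ε) C) (F.phi τ) (ball x₀ r') := by
  have hn : 0 < ‖x₀‖ := norm_pos_iff.2 h0
  have hM := F.M_pos
  have hε := hτ.nonneg
  have hpar : ∀ᶠ y in 𝓝 x₀, |F.par τ y - F.par τ x₀| < r := by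
    have := (F.continuousAt_par hτ h0).tendsto
    have h := this.eventually (Metric.ball_mem_nhds _ hr)
    filter_upwards [h] with y hy
    rwa [Real.dist_eq] at hy
  obtain ⟨r₁, hr₁, hb⟩ := Metric.eventually_nhds_iff_ball.1 hpar
  refine ⟨min (min r r₁) (‖x₀‖ / 5), lt_min (lt_min hr hr₁) (by positivity), ?_⟩
  have hn1 : ∀ y ∈ ball x₀ (min (min r r₁) (‖x₀‖ / 5)), 4 / 5 * ‖x₀‖ ≤ ‖y‖ ∧
      ‖y‖ ≤ 6 / 5 * ‖x₀‖ := by
    intro y hy
    rw [mem_ball_iff_norm] at hy
    have hy' : ‖y - x₀‖ < ‖x₀‖ / 5 := hy.trans_le (min_le_right _ _)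
    constructor
    · have : ‖x₀‖ ≤ ‖y‖ + ‖y - x₀‖ := by
        calc ‖x₀‖ = ‖y - (y - x₀)‖ := by congr 1; abel
          _ ≤ _ := norm_sub_le _ _
      linarith
    · have : ‖y‖ ≤ ‖x₀‖ + ‖y - x₀‖ := by
        calc ‖y‖ = ‖x₀ + (y - x₀)‖ := by congr 1; abel
          _ ≤ _ := norm_add_le _ _
      linarith
  intro a ha b hb'
  have har : a ∈ ball x₀ r := ball_subset_ball ((min_le_left _ _).trans (min_le_left _ _)) ha
  have hbr : b ∈ ball x₀ r := ball_subset_ball ((min_le_left _ _).trans (min_le_left _ _)) hb'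
  have har₁ : a ∈ ball x₀ r₁ := ball_subset_ball ((min_le_left _ _).trans (min_le_right _ _)) ha
  obtain ⟨A, hA, e⟩ := hC _ (hb a har₁) a har b hbr
  rcases eq_or_ne a b with hab | hab
  · subst hab
    exact ⟨A, self_subset_cthickening C hA, by simp⟩
  have hv : a - b ≠ 0 := sub_ne_zero.2 hab
  have hv0 : 0 < ‖a - b‖ := norm_pos_iff.2 hv
  set err := F.K (F.par τ a) b - F.K (F.par τ b) b with herr
  have h1 : ‖err‖ ≤ 3 * F.M * ε * ‖a - b‖ := by
    have h2 : |F.par τ a - F.par τ b| ≤ 2 * ε * (‖a - b‖ / (4 / 5 * ‖x₀‖)) :=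
      F.par_sub_le hτ (by positivity) (hn1 a ha).1 (hn1 b hb').1
    calc ‖err‖ ≤ F.M * |F.par τ a - F.par τ b| * ‖b‖ := F.lipt _ _ _
      _ ≤ F.M * (2 * ε * (‖a - b‖ / (4 / 5 * ‖x₀‖))) * (6 / 5 * ‖x₀‖) := by
          gcongr
          exact (hn1 b hb').2
      _ = 3 * F.M * ε * ‖a - b‖ := by field_simp; ring
  obtain ⟨B, hB1, hB2⟩ := exists_rank_one (a - b) err hv
  refine ⟨A + B, ?_, ?_⟩
  · refine mem_cthickening_of_dist_le _ A _ _ hA ?_
    rw [dist_eq_norm, add_sub_cancel_left]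
    refine hB2.trans ?_
    rw [div_le_iff₀ hv0]
    exact h1
  · show F.phi τ a - F.phi τ b = A (a - b) + B (a - b)
    rw [hB1, ← e, herr]
    simp only [Fam.phi]
    abel

end Crest.Agent.R096.Vx_270
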