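import Crest.Agent.R096.Vx4_270

/-!
# Path theorem for conic maps in the segment class

* `seg_surj` : local surjectivity of maps in the segment class;
* `Unif q K` : the segment condition with one quality `q` near the unit sphere; bounds, surjectivity,
  uniform antilipschitz constant of injective maps;
* `MPath K M` : a path of conic maps on `[0,1]`; `MPath.injective_all`.
-/

set_option autoImplicit false
set_option linter.unusedSectionVars false

open MeasureTheory Metric Set Filter Topology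
open scoped ENNReal NNReal ContDiff

namespace Crest.Agent.R096.Vx_270

open Crest.Agent.R096.Mo_119 (MollAt)

variable {E : Type*} [NormedAddCommGroup E] [NormedSpace ℝ E] [FiniteDimensional ℝ E]

section surj

variable [MeasurableSpace E] [BorelSpace E]

lemma Seg.ae_mem {μ : Measure E} [μ.IsAddHaarMeasure] {C : Set (E →L[ℝ] E)} (hC : IsCompact C)
    {f : E → E} {x : E} {r : ℝ} (h : Seg C f (ball x r)) :
    ∀ᵐ y ∂μ, y ∈ ball x r → fderiv ℝ f y ∈ star C := by
  obtain ⟨L, hL⟩ := exists_norm_le hC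
  have hlip := h.lipschitz hL
  filter_upwards [hlip.ae_differentiableWithinAt_of_mem (μ := μ)] with y hy hyb
  have hn : ball x r ∈ 𝓝 y := isOpen_ball.mem_nhds hyb
  exact h.deriv_mem hC hn ((hy hyb).differentiableAt hn).hasFDerivAt

/-- a local minimum of the distance to `z` of a map with invertible derivative is a solution -/
lemma eq_of_isLocalMin {g : E → E} {y z : E} {D : E →L[ℝ] E} (hD : D.det ≠ 0)
    (hg : HasStrictFDerivAt g D y) (hmin : IsLocalMin (fun y => ‖g y - z‖) y) : g y = z := by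
  by_contra hne
  have hn : 0 < ‖g y - z‖ := norm_pos_iff.2 (sub_ne_zero.2 hne)
  set e := D.toContinuousLinearEquivOfDetNeZero hD with he
  have hg' : HasStrictFDerivAt g (e : E →L[ℝ] E) y := by
    have : (e : E →L[ℝ] E) = D := by
      ext v; simp [he]
    rw [this]; exact hg
  have h1 := hg'.map_nhds_eq_of_equiv
  have h2 : ∀ᶠ w in 𝓝 (g y), ‖g y - z‖ ≤ ‖w - z‖ := by
    rw [← h1, eventually_map]
    exact hmin
  have h3 : Tendsto (fun s : ℝ => g y + s • (z - g y)) (𝓝[>] 0) (𝓝 (g y)) := by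
    have : Continuous fun s : ℝ => g y + s • (z - g y) := by fun_prop
    have h := this.tendsto 0
    rw [zero_smul, add_zero] at h
    exact h.mono_left nhdsWithin_le_nhds
  have h4 : ∀ᶠ s : ℝ in 𝓝[>] 0, s ∈ Ioo (0:ℝ) 1 := Ioo_mem_nhdsGT one_pos
  obtain ⟨s, hs1, hs2⟩ := ((h3.eventually h2).and h4).exists
  have h5 : g y + s • (z - g y) - z = (1 - s) • (g y - z) := by
    rw [sub_smul, one_smul, smul_sub, smul_sub]; abel
  rw [h5, norm_smul, Real.norm_eq_abs, abs_of_pos (by linarith [hs2.2])] at hs1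
  nlinarith [hs2.1]

/-- **Local surjectivity.** -/
theorem seg_surj {C : Set (E →L[ℝ] E)} (hC : Good C) {q : ℝ} (hq : 0 < q)
    (low : ∀ A ∈ C, ∀ v, q * ‖v‖ ≤ ‖A v‖) {f : E → E} {x₀ : E} {R : ℝ}
    (h : Seg C f (ball x₀ R)) {ρ : ℝ} (hρ : 0 < ρ) (hρR : ρ < R) {z : E}
    (hz : ‖z - f x₀‖ ≤ q * ρ / 4) : ∃ y ∈ closedBall x₀ ρ, f y = z := by
  have : ProperSpace E := FiniteDimensional.proper_real _
  let μ : Measure E := Measure.addHaar
  obtain ⟨L, hL⟩ := exists_norm_le hC.cpt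
  have hlip := h.lipschitz hL
  have hae : ∀ᵐ y ∂μ, y ∈ ball x₀ R → fderiv ℝ f y ∈ star C := h.ae_mem hC.cpt
  obtain ⟨dd, hd⟩ := Mo_119.exists_dens μ
  have hk := hd.ker
  obtain ⟨R', hR'1, hR'2⟩ := exists_between hρR
  set κ : ℝ := Mo_119.κE E * L with hκ
  have hκ0 : 0 ≤ κ := by positivity
  have hstar := hC.star
  have key : ∀ δ : ℝ, 0 < δ → δ < R - R' → κ * δ < q * ρ / 4 →
      ∃ y ∈ closedBall x₀ ρ, ‖f y - z‖ ≤ κ * δ := by
    intro δ hδ hδR hδq
    set g := Mo_119.avg (Mo_119.kerM μ dd) f (fun _ => δ) with hg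
    have hx : ∀ w ∈ ball x₀ R', ‖w - x₀‖ + (fun _ : E => δ) w < R := by
      intro w hw
      rw [mem_ball_iff_norm] at hw
      show ‖w - x₀‖ + δ < R
      linarith
    have hcd : ∀ w ∈ ball x₀ R', ContDiffAt ℝ 1 g w := fun w hw =>
      (hd.contDiffAt_avg_loc hlip contDiff_const (x := w) hδ (hx w hw)).of_le (by norm_cast)
    have hder : ∀ w ∈ ball x₀ R', fderiv ℝ g w ∈ star C := by
      intro w hw
      have h1 := hk.fderiv_avg_loc hlip (η := fun _ => δ) contDiff_const (x := w) hδ (hx w hw)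
      have h2 : fderiv ℝ (fun _ : E => δ) w = 0 := by simp
      rw [h2, norm_zero, mul_zero] at h1
      have h3 := sub_eq_zero.1 (norm_le_zero_iff.1 h1)
      rw [hg, h3]
      exact hk.avgD_mem_loc hlip hstar.conv hstar.cpt.isClosed hae hδ (hx w hw)
    have hclose : ∀ w ∈ ball x₀ R', ‖g w - f w‖ ≤ κ * δ := fun w hw =>
      hk.norm_avg_sub_le_loc hlip (η := fun _ => δ) hδ (hx w hw)
    have hsub : closedBall x₀ ρ ⊆ ball x₀ R' := closedBall_subset_ball hR'1
    have hcont : ContinuousOn (fun y => ‖g y - z‖) (closedBall x₀ ρ) := fun w hw =>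
      ((hcd w (hsub hw)).continuousAt.sub continuousAt_const).norm.continuousWithinAt
    obtain ⟨y, hy, hymin⟩ := (isCompact_closedBall x₀ ρ).exists_isMinOn
      ⟨x₀, mem_closedBall_self hρ.le⟩ hcont
    have hx₀m : x₀ ∈ closedBall x₀ ρ := mem_closedBall_self hρ.le
    -- the minimum is interior
    have hyint : y ∈ ball x₀ ρ := by
      by_contra hyn
      have hyn' : ‖y - x₀‖ = ρ := by
        rw [mem_closedBall_iff_norm] at hy
        rw [mem_ball_iff_norm, not_lt] at hyn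
        exact le_antisymm hy hyn
      have h1 : ‖g y - z‖ ≤ ‖g x₀ - z‖ := hymin hx₀m
      have h2 : ‖g x₀ - z‖ ≤ κ * δ + q * ρ / 4 := by
        calc ‖g x₀ - z‖ = ‖(g x₀ - f x₀) - (z - f x₀)‖ := by congr 1; abel
          _ ≤ ‖g x₀ - f x₀‖ + ‖z - f x₀‖ := norm_sub_le _ _
          _ ≤ _ := add_le_add (hclose x₀ (hsub hx₀m)) hz
      obtain ⟨A, hA, e⟩ := Mo_119.exists_seg (convex_ball x₀ R') hstar.conv hstar.cpt.isClosed
        hcd hder (hsub hy) (hsub hx₀m)
      obtain ⟨A', hA', e'⟩ := hA (y - x₀)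
      have h3 : q * ρ ≤ ‖g y - g x₀‖ := by
        rw [e, e', ← hyn']
        exact low A' hA' _
      have h4 : ‖g y - g x₀‖ ≤ ‖g y - z‖ + ‖g x₀ - z‖ := by
        calc ‖g y - g x₀‖ = ‖(g y - z) - (g x₀ - z)‖ := by congr 1; abel
          _ ≤ _ := norm_sub_le _ _
      linarith
    have hloc : IsLocalMin (fun y => ‖g y - z‖) y :=
      hymin.isLocalMin (Filter.mem_of_superset (isOpen_ball.mem_nhds hyint) ball_subset_closedBall)
    have hyz : g y = z := by
      refine eq_of_isLocalMin (D := fderiv ℝ g y) (hstar.pos _ (hder y (hsub hy))).ne' ?_ hloc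
      exact (hcd y (hsub hy)).hasStrictFDerivAt one_ne_zero
    refine ⟨y, hy, ?_⟩
    rw [← hyz, norm_sub_rev]
    exact hclose y (hsub hy)
  -- the minimum of the distance vanishes
  have hcontf : ContinuousOn (fun y => ‖f y - z‖) (closedBall x₀ ρ) :=
    ((hlip.continuousOn.mono (closedBall_subset_ball hρR)).sub continuousOn_const).norm
  obtain ⟨y, hy, hymin⟩ := (isCompact_closedBall x₀ ρ).exists_isMinOn
    ⟨x₀, mem_closedBall_self hρ.le⟩ hcontf
  refine ⟨y, hy, ?_⟩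
  have hlim : ∀ᶠ δ : ℝ in 𝓝[>] 0, ‖f y - z‖ ≤ κ * δ := by
    have h1 : Ioo 0 (R - R') ∈ 𝓝[>] (0 : ℝ) := Ioo_mem_nhdsGT (by linarith)
    have h2 : ∀ᶠ δ : ℝ in 𝓝[>] 0, κ * δ < q * ρ / 4 := by
      have : Continuous fun δ : ℝ => κ * δ := by fun_prop
      have h := this.tendsto 0
      rw [mul_zero] at h
      exact (h.mono_left nhdsWithin_le_nhds).eventually_lt_const (by positivity)
    filter_upwards [h1, h2] with δ hδ1 hδ2
    obtain ⟨w, hw, hwz⟩ := key δ hδ1.1 hδ1.2 hδ2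
    exact (hymin hw).trans hwz
  have h0 : Tendsto (fun δ : ℝ => κ * δ) (𝓝[>] 0) (𝓝 0) := by
    have : Continuous fun δ : ℝ => κ * δ := by fun_prop
    have h := this.tendsto 0
    rw [mul_zero] at h
    exact h.mono_left nhdsWithin_le_nhds
  have h1 : ‖f y - z‖ ≤ 0 := ge_of_tendsto h0 hlim
  exact sub_eq_zero.1 (norm_le_zero_iff.1 h1)

end surj

/-! ### quality -/

/-- a good set with quality `q` -/
structure GoodQ (q : ℝ) (C : Set (E →L[ℝ] E)) : Prop where
  conv : Convex ℝ C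
  cpt : IsCompact C
  thick : ∀ B ∈ cthickening q C, 0 < B.det
  low : ∀ A ∈ C, ∀ v, q * ‖v‖ ≤ ‖A v‖
  up : ∀ A ∈ C, ∀ v, q * ‖A v‖ ≤ ‖v‖

lemma GoodQ.good {q : ℝ} {C : Set (E →L[ℝ] E)} (h : GoodQ q C) : Good C :=
  ⟨h.conv, h.cpt, fun A hA => h.thick A (self_subset_cthickening C hA)⟩

lemma GoodQ.mono {q q' : ℝ} {C : Set (E →L[ℝ] E)} (h : GoodQ q C) (hq : q' ≤ q) :
    GoodQ q' C :=
  ⟨h.conv, h.cpt, fun B hB => h.thick B (cthickening_mono hq _ hB),
    fun A hA v => (mul_le_mul_of_nonneg_right hq (norm_nonneg _)).trans (h.low A hA v),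
    fun A hA v => (mul_le_mul_of_nonneg_right hq (norm_nonneg _)).trans (h.up A hA v)⟩

lemma Good.exists_q {C : Set (E →L[ℝ] E)} (hC : Good C) : ∃ q > 0, GoodQ q C := by
  obtain ⟨t, ht, h⟩ := Mo_119.exists_tol hC.cpt hC.pos
  obtain ⟨L, hL⟩ := exists_norm_le hC.cpt
  refine ⟨min t (1 / (L + 1)), lt_min ht (by positivity), hC.conv, hC.cpt, ?_, ?_, ?_⟩
  · intro B hB
    exact (h B (cthickening_mono (min_le_left _ _) _ hB)).1
  · intro A hA v
    refine le_trans ?_ ((h A (self_subset_cthickening C hA)).2 v)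
    exact mul_le_mul_of_nonneg_right (min_le_left _ _) (norm_nonneg _)
  · intro A hA v
    have h1 : ‖A v‖ ≤ (L + 1) * ‖v‖ :=
      (A.le_opNorm v).trans (mul_le_mul_of_nonneg_right ((hL A hA).trans (by simp))
        (norm_nonneg _))
    have h2 : (0 : ℝ) < L + 1 := by positivity
    calc min t (1 / ((L : ℝ) + 1)) * ‖A v‖ ≤ 1 / ((L : ℝ) + 1) * ((L + 1) * ‖v‖) :=
          mul_le_mul (min_le_right _ _) h1 (norm_nonneg _) (by positivity)
      _ = ‖v‖ := by field_simp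

/-- the segment condition near the unit sphere with quality `q` -/
def Unif (q : ℝ) (K : E → E) : Prop :=
  ∀ x₀ : E, ‖x₀‖ = 1 → ∃ C : Set (E →L[ℝ] E), GoodQ q C ∧ Seg C K (ball x₀ q)

/-- positively homogeneous of degree one -/
def Hom (K : E → E) : Prop := ∀ (c : ℝ) x, 0 < c → K (c • x) = c • K x

lemma Hom.zero {K : E → E} (h : Hom K) : K 0 = 0 := by
  have h1 := h 2 0 two_pos
  rw [smul_zero, two_smul] at h1
  have h2 : K 0 + 0 = K 0 + K 0 := by rw [add_zero]; exact h1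
  exact (add_left_cancel h2).symm

lemma Seg.scale {C : Set (E →L[ℝ] E)} {K : E → E} (hK : Hom K) {x : E} {r c : ℝ} (hc : 0 < c)
    (h : Seg C K (ball x r)) : Seg C K (ball (c • x) (c * r)) := by
  have hm : ∀ a ∈ ball (c • x) (c * r), c⁻¹ • a ∈ ball x r := by
    intro a ha
    rw [mem_ball_iff_norm] at ha ⊢
    have : c⁻¹ • a - x = c⁻¹ • (a - c • x) := by
      rw [smul_sub, smul_smul, inv_mul_cancel₀ hc.ne', one_smul]
    rw [this, norm_smul, Real.norm_eq_abs, abs_of_pos (inv_pos.2 hc), inv_mul_lt_iff₀ hc]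
    exact ha
  intro a ha b hb
  obtain ⟨A, hA, e⟩ := h _ (hm a ha) _ (hm b hb)
  refine ⟨A, hA, ?_⟩
  rw [hK _ _ (inv_pos.2 hc), hK _ _ (inv_pos.2 hc), ← smul_sub, ← smul_sub, map_smul] at e
  have := congrArg (fun z => c • z) e
  simpa only [smul_smul, mul_inv_cancel₀ hc.ne', one_smul] using this

section unif

variable {q : ℝ} {K : E → E}

lemma Unif.at_ne (hq : 0 < q) (hK : Hom K) (h : Unif q K) {x : E} (hx : x ≠ 0) :
    ∃ C : Set (E →L[ℝ] E), GoodQ q C ∧ Seg C K (ball x (‖x‖ * q)) := by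
  have hn : 0 < ‖x‖ := norm_pos_iff.2 hx
  obtain ⟨C, hC, hs⟩ := h (‖x‖⁻¹ • x) (by
    rw [norm_smul, norm_inv, norm_norm, inv_mul_cancel₀ hn.ne'])
  refine ⟨C, hC, ?_⟩
  have := hs.scale hK hn
  rwa [smul_smul, mul_inv_cancel₀ hn.ne', one_smul] at this

lemma Unif.val (hq : 0 < q) (hq1 : q ≤ 1) (hK : Hom K) (h : Unif q K) {x : E} (hx : x ≠ 0) :
    ∃ C : Set (E →L[ℝ] E), GoodQ q C ∧ ∃ A ∈ C, K x = A x := by
  have hn : 0 < ‖x‖ := norm_pos_iff.2 hx
  obtain ⟨C, hC, hs⟩ := h.at_ne hq hK hx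
  refine ⟨C, hC, ?_⟩
  have h1 : x ∈ ball x (‖x‖ * q) := mem_ball_self (by positivity)
  have h2 : (1 - q / 2) • x ∈ ball x (‖x‖ * q) := by
    rw [mem_ball_iff_norm]
    have : (1 - q / 2) • x - x = -((q / 2) • x) := by rw [sub_smul, one_smul]; abel
    rw [this, norm_neg, norm_smul, Real.norm_eq_abs, abs_of_pos (by positivity)]
    nlinarith
  obtain ⟨A, hA, e⟩ := hs _ h1 _ h2
  refine ⟨A, hA, ?_⟩
  have e1 : x - (1 - q / 2) • x = (q / 2) • x := by rw [sub_smul, one_smul]; abel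
  rw [hK _ _ (by linarith), e1, map_smul] at e
  have e2 : K x - (1 - q / 2) • K x = (q / 2) • K x := by rw [sub_smul, one_smul]; abel
  rw [e2] at e
  have := congrArg (fun z => (q / 2)⁻¹ • z) e
  simpa only [smul_smul, inv_mul_cancel₀ (half_pos hq).ne', one_smul] using this

lemma Unif.low (hq : 0 < q) (hq1 : q ≤ 1) (hK : Hom K) (h : Unif q K) (x : E) :
    q * ‖x‖ ≤ ‖K x‖ := by
  rcases eq_or_ne x 0 with hx | hx
  · subst hx; simp
  · obtain ⟨C, hC, A, hA, e⟩ := h.val hq hq1 hK hx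
    rw [e]; exact hC.low A hA x

lemma Unif.up (hq : 0 < q) (hq1 : q ≤ 1) (hK : Hom K) (h : Unif q K) (x : E) :
    q * ‖K x‖ ≤ ‖x‖ := by
  rcases eq_or_ne x 0 with hx | hx
  · subst hx; simp [hK.zero]
  · obtain ⟨C, hC, A, hA, e⟩ := h.val hq hq1 hK hx
    rw [e]; exact hC.up A hA x

/-- reduction to `‖x‖ = 1`, `‖y‖ ≤ 1` -/
lemma Hom.reduce (hK : Hom K) {P : ℝ → ℝ → Prop} (hP : ∀ (c s t : ℝ), 0 < c → P s t →
    P (c * s) (c * t)) (hPs : ∀ x y : E, P ‖K x - K y‖ ‖x - y‖ → P ‖K y - K x‖ ‖y - x‖)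
    (h0 : P 0 0) (h : ∀ x y : E, ‖x‖ = 1 → ‖y‖ ≤ 1 → P ‖K x - K y‖ ‖x - y‖) (x y : E) :
    P ‖K x - K y‖ ‖x - y‖ := by
  have main : ∀ x y : E, ‖y‖ ≤ ‖x‖ → P ‖K x - K y‖ ‖x - y‖ := by
    intro x y hxy
    rcases eq_or_ne x 0 with hx | hx
    · subst hx
      rw [norm_zero] at hxy
      have : y = 0 := norm_le_zero_iff.1 hxy
      subst this
      simpa using h0
    · have hn : 0 < ‖x‖ := norm_pos_iff.2 hx
      have h1 := h (‖x‖⁻¹ • x) (‖x‖⁻¹ • y)
        (by rw [norm_smul, norm_inv, norm_norm, inv_mul_cancel₀ hn.ne'])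
        (by rw [norm_smul, norm_inv, norm_norm, inv_mul_le_iff₀ hn, mul_one]; exact hxy)
      rw [hK _ _ (inv_pos.2 hn), hK _ _ (inv_pos.2 hn), ← smul_sub, ← smul_sub, norm_smul,
        norm_smul, norm_inv, norm_norm] at h1
      have h2 := hP ‖x‖ _ _ hn h1
      rwa [← mul_assoc, ← mul_assoc, mul_inv_cancel₀ hn.ne', one_mul, one_mul] at h2
  rcases le_total ‖y‖ ‖x‖ with hxy | hxy
  · exact main x y hxy
  · exact hPs y x (main y x hxy)

lemma Unif.lip (hq : 0 < q) (hq1 : q ≤ 1) (hK : Hom K) (h : Unif q K) (x y : E) :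
    ‖K x - K y‖ ≤ 2 / q ^ 2 * ‖x - y‖ := by
  refine hK.reduce (P := fun s t => s ≤ 2 / q ^ 2 * t) ?_ ?_ (by simp) ?_ x y
  · intro c s t hc hst
    have := mul_le_mul_of_nonneg_left hst hc.le
    linarith [mul_left_comm c (2 / q ^ 2) t]
  · intro x y hxy
    rwa [norm_sub_rev, norm_sub_rev y x]
  · intro x y hx hy
    have hx0 : x ≠ 0 := by
      intro h; rw [h, norm_zero] at hx; norm_num at hx
    have hq2 : 1 / q ≤ 2 / q ^ 2 := by
      rw [div_le_div_iff₀ hq (by positivity)]; nlinarith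
    rcases lt_or_ge ‖x - y‖ q with hxy | hxy
    · obtain ⟨C, hC, hs⟩ := h.at_ne hq hK hx0
      rw [hx, one_mul] at hs
      obtain ⟨A, hA, e⟩ := hs x (mem_ball_self hq) y (by rw [mem_ball_iff_norm, norm_sub_rev]; exact hxy)
      rw [e]
      have h1 := hC.up A hA (x - y)
      have h2 : ‖A (x - y)‖ ≤ 1 / q * ‖x - y‖ := by
        rw [div_mul_eq_mul_div, one_mul, le_div_iff₀ hq]; linarith [mul_comm q ‖A (x - y)‖]
      exact h2.trans (mul_le_mul_of_nonneg_right hq2 (norm_nonneg _))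
    · have h1 := h.up hq hq1 hK x
      have h2 := h.up hq hq1 hK y
      have h3 : ‖K x - K y‖ ≤ ‖K x‖ + ‖K y‖ := norm_sub_le _ _
      have h4 : q * ‖K x - K y‖ ≤ 2 := by nlinarith
      have h5 : ‖K x - K y‖ ≤ 2 / q := by
        rw [le_div_iff₀ hq]; linarith [mul_comm q ‖K x - K y‖]
      refine h5.trans ?_
      calc 2 / q = 2 / q ^ 2 * q := by field_simp
        _ ≤ 2 / q ^ 2 * ‖x - y‖ := mul_le_mul_of_nonneg_left hxy (by positivity)

lemma Unif.continuous (hq : 0 < q) (hq1 : q ≤ 1) (hK : Hom K) (h : Unif q K) :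
    Continuous K := by
  have : LipschitzWith ⟨2 / q ^ 2, by positivity⟩ K := LipschitzWith.of_dist_le_mul fun x y => by
    rw [dist_eq_norm, dist_eq_norm]; exact h.lip hq hq1 hK x y
  exact this.continuous

variable [MeasurableSpace E] [BorelSpace E]

lemma Unif.surj_near (hq : 0 < q) (hK : Hom K) (h : Unif q K) {x : E} (hx : x ≠ 0) {ρ : ℝ}
    (hρ : 0 < ρ) (hρq : ρ < ‖x‖ * q) {z : E} (hz : ‖z - K x‖ ≤ q * ρ / 4) :
    ∃ y ∈ closedBall x ρ, K y = z := by
  obtain ⟨C, hC, hs⟩ := h.at_ne hq hK hx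
  exact seg_surj hC.good hq hC.low hs hρ hρq hz

/-- **Surjectivity.** -/
theorem Unif.surjective (hE : 1 < Module.finrank ℝ E) (hq : 0 < q) (hq1 : q ≤ 1) (hK : Hom K)
    (h : Unif q K) : Function.Surjective K := by
  have : ProperSpace E := FiniteDimensional.proper_real _
  have hrank : 1 < Module.rank ℝ E := by
    rw [← Module.finrank_eq_rank]
    exact_mod_cast hE
  have hconn : IsPreconnected ({0}ᶜ : Set E) :=
    (isConnected_compl_singleton_of_one_lt_rank hrank 0).isPreconnected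
  have : Nontrivial E := Module.nontrivial_of_finrank_pos (R := ℝ) (by linarith)
  set U : Set E := K '' {0}ᶜ with hU
  have hne : ∀ x : E, x ≠ 0 → K x ≠ 0 := by
    intro x hx h0
    have := h.low hq hq1 hK x
    rw [h0, norm_zero] at this
    have hn : 0 < ‖x‖ := norm_pos_iff.2 hx
    nlinarith
  have hopen : IsOpen U := by
    rw [Metric.isOpen_iff]
    rintro _ ⟨x, hx, rfl⟩
    have hx0 : x ≠ 0 := hx
    have hn : 0 < ‖x‖ := norm_pos_iff.2 hx0
    refine ⟨q * (‖x‖ * q / 2) / 4, by positivity, ?_⟩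
    intro z hz
    rw [mem_ball_iff_norm] at hz
    obtain ⟨y, hy, e⟩ := h.surj_near hq hK hx0 (ρ := ‖x‖ * q / 2) (by positivity)
      (by nlinarith [mul_pos hn hq]) hz.le
    refine ⟨y, ?_, e⟩
    rintro rfl
    rw [mem_closedBall_iff_norm, zero_sub, norm_neg] at hy
    nlinarith
  have hclosed : closure U ∩ {0}ᶜ ⊆ U := by
    rintro z ⟨hz1, hz2⟩
    obtain ⟨u, hu1, hu2⟩ := mem_closure_iff_seq_limit.1 hz1
    choose x hx1 hx2 using hu1
    -- the preimages are bounded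
    obtain ⟨M, hM⟩ := (hu2.norm).bddAbove_range
    have hbd : ∀ n, x n ∈ closedBall (0 : E) (M / q) := by
      intro n
      rw [mem_closedBall_zero_iff, le_div_iff₀ hq]
      have h1 := h.low hq hq1 hK (x n)
      rw [hx2] at h1
      have h2 : ‖u n‖ ≤ M := hM ⟨n, rfl⟩
      linarith [mul_comm q ‖x n‖]
    obtain ⟨y, -, φ, hφ, hy⟩ := (isCompact_closedBall (0 : E) (M / q)).tendsto_subseq hbd
    have h3 : Tendsto (fun n => K (x (φ n))) atTop (𝓝 (K y)) :=
      ((h.continuous hq hq1 hK).tendsto y).comp hy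
    have h4 : Tendsto (fun n => K (x (φ n))) atTop (𝓝 z) := by
      have := hu2.comp hφ.tendsto_atTop
      refine this.congr fun n => ?_
      exact (hx2 (φ n)).symm
    have h5 := tendsto_nhds_unique h3 h4
    refine ⟨y, ?_, h5⟩
    rintro rfl
    rw [hK.zero] at h5
    exact hz2 h5.symm
  have hsub : ({0}ᶜ : Set E) ⊆ U := by
    refine hconn.subset_of_closure_inter_subset hopen ?_ hclosed
    obtain ⟨x, hx⟩ := exists_ne (0 : E)
    exact ⟨K x, hne x hx, ⟨x, hx, rfl⟩⟩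
  intro z
  rcases eq_or_ne z 0 with hz | hz
  · exact ⟨0, by rw [hK.zero, hz]⟩
  · obtain ⟨x, -, e⟩ := hsub hz
    exact ⟨x, e⟩

/-- separation of far points by an injective map, quantitative -/
lemma Unif.far (hq : 0 < q) (hq1 : q ≤ 1) (hK : Hom K) (h : Unif q K)
    (hinj : Function.Injective K) {x y : E} (hx : ‖x‖ = 1) (hxy : q / 2 ≤ ‖x - y‖) :
    q ^ 2 / 16 ≤ ‖K x - K y‖ := by
  by_contra hcon
  push Not at hcon
  have hx0 : x ≠ 0 := by
    intro h; rw [h, norm_zero] at hx; norm_num at hx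
  obtain ⟨w, hw, e⟩ := h.surj_near hq hK hx0 (ρ := q / 4) (by positivity) (by rw [hx]; linarith)
    (z := K y) (by rw [norm_sub_rev]; nlinarith)
  have hwy := hinj e
  subst hwy
  rw [mem_closedBall_iff_norm, norm_sub_rev] at hw
  linarith

lemma Unif.near (hq : 0 < q) (hK : Hom K) (h : Unif q K) {x y : E} (hx : ‖x‖ = 1)
    (hxy : ‖x - y‖ < q) : q * ‖x - y‖ ≤ ‖K x - K y‖ := by
  have hx0 : x ≠ 0 := by
    intro h; rw [h, norm_zero] at hx; norm_num at hx
  obtain ⟨C, hC, hs⟩ := h.at_ne hq hK hx0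
  rw [hx, one_mul] at hs
  obtain ⟨A, hA, e⟩ := hs x (mem_ball_self hq) y (by rw [mem_ball_iff_norm, norm_sub_rev]; exact hxy)
  rw [e]
  exact hC.low A hA _

/-- **Uniform antilipschitz constant.** -/
theorem Unif.antilip (hq : 0 < q) (hq1 : q ≤ 1) (hK : Hom K) (h : Unif q K)
    (hinj : Function.Injective K) (x y : E) : q ^ 2 / 32 * ‖x - y‖ ≤ ‖K x - K y‖ := by
  refine hK.reduce (P := fun s t => q ^ 2 / 32 * t ≤ s) ?_ ?_ (by simp) ?_ x y
  · intro c s t hc hst
    have := mul_le_mul_of_nonneg_left hst hc.le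
    linarith [mul_left_comm c (q ^ 2 / 32) t]
  · intro x y hxy
    rwa [norm_sub_rev, norm_sub_rev (K y)]
  · intro x y hx hy
    rcases lt_or_ge ‖x - y‖ (q / 2) with hxy | hxy
    · refine le_trans ?_ (h.near hq hK hx (by linarith))
      exact mul_le_mul_of_nonneg_right (by nlinarith) (norm_nonneg _)
    · refine le_trans ?_ (h.far hq hq1 hK hinj hx hxy)
      have : ‖x - y‖ ≤ 2 := (norm_sub_le _ _).trans (by linarith)
      nlinarith [sq_nonneg q]

end unif

/-! ### paths -/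

/-- a path of conic maps in the segment class -/
structure MPath (K : ℝ → E → E) (M : ℝ) : Prop where
  hom : ∀ t ∈ Icc (0 : ℝ) 1, Hom (K t)
  lipt : ∀ s ∈ Icc (0 : ℝ) 1, ∀ t ∈ Icc (0 : ℝ) 1, ∀ x, ‖K s x - K t x‖ ≤ M * |s - t| * ‖x‖
  seg : ∀ t₀ ∈ Icc (0 : ℝ) 1, ∀ x₀ : E, ‖x₀‖ = 1 → ∃ r > 0, ∃ C : Set (E →L[ℝ] E), Good C ∧
    ∀ t ∈ Icc (0 : ℝ) 1, |t - t₀| < r → Seg C (K t) (ball x₀ r)

/-- one quality along the path -/
theorem MPath.unif {K : ℝ → E → E} {M : ℝ} (h : MPath K M) : ∃ q, 0 < q ∧ q ≤ 1 ∧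
    ∀ t ∈ Icc (0 : ℝ) 1, ∀ x₀ : E, ‖x₀‖ = 1 → ∃ C : Set (E →L[ℝ] E), GoodQ q C ∧
      ∀ s ∈ Icc (0 : ℝ) 1, |s - t| < q → Seg C (K s) (ball x₀ q) := by
  classical
  have : ProperSpace E := FiniteDimensional.proper_real _
  have hseg : ∀ t₀ ∈ Icc (0 : ℝ) 1, ∀ x₀ : E, ‖x₀‖ = 1 → ∃ r > 0, ∃ C : Set (E →L[ℝ] E),
      GoodQ r C ∧ ∀ t ∈ Icc (0 : ℝ) 1, |t - t₀| < r → Seg C (K t) (ball x₀ r) := by
    intro t₀ ht₀ x₀ hx₀
    obtain ⟨r, hr, C, hC, hs⟩ := h.seg t₀ ht₀ x₀ hx₀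
    obtain ⟨q, hq, hCq⟩ := hC.exists_q
    refine ⟨min r q, lt_min hr hq, C, hCq.mono (min_le_right _ _), fun t ht htt => ?_⟩
    exact (hs t ht (htt.trans_le (min_le_left _ _))).mono subset_rfl
      (ball_subset_ball (min_le_left _ _))
  choose! r hr C hC hs using hseg
  set Q : Set (ℝ × E) := Icc (0 : ℝ) 1 ×ˢ sphere (0 : E) 1 with hQ
  have hQc : IsCompact Q := isCompact_Icc.prod (isCompact_sphere 0 1)
  have hmem : ∀ q ∈ Q, q.1 ∈ Icc (0 : ℝ) 1 ∧ ‖q.2‖ = 1 := by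
    rintro ⟨t, x⟩ ⟨h1, h2⟩
    exact ⟨h1, by simpa using h2⟩
  obtain ⟨s, hcov⟩ := hQc.elim_nhds_subcover' (fun q _ => ball q (r q.1 q.2 / 2))
    (fun q hq => ball_mem_nhds q (half_pos (hr _ (hmem q hq).1 _ (hmem q hq).2)))
  obtain ⟨q₀, hq₀, hle⟩ : ∃ q₀ > 0, ∀ p ∈ s, q₀ ≤ r p.1.1 p.1.2 / 2 := by
    rcases s.eq_empty_or_nonempty with hs0 | hs0
    · exact ⟨1, one_pos, by simp [hs0]⟩
    · refine ⟨s.inf' hs0 fun p => r p.1.1 p.1.2 / 2, ?_, fun p hp => Finset.inf'_le _ hp⟩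
      rw [gt_iff_lt, Finset.lt_inf'_iff]
      intro p _
      exact half_pos (hr _ (hmem p.1 p.2).1 _ (hmem p.1 p.2).2)
  refine ⟨min q₀ 1, lt_min hq₀ one_pos, min_le_right _ _, fun t ht x₀ hx₀ => ?_⟩
  have hq₁ : (t, x₀) ∈ Q := ⟨ht, by simpa using hx₀⟩
  have hc := hcov hq₁
  simp only [mem_iUnion] at hc
  obtain ⟨p, hp, hball⟩ := hc
  rw [mem_ball, Prod.dist_eq] at hball
  have hb1 : dist t p.1.1 < r p.1.1 p.1.2 / 2 := (le_max_left _ _).trans_lt hball
  have hb2 : dist x₀ p.1.2 < r p.1.1 p.1.2 / 2 := (le_max_right _ _).trans_lt hball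
  have hpm := hmem p.1 p.2
  have hrp := hr _ hpm.1 _ hpm.2
  have hple := hle p hp
  refine ⟨C p.1.1 p.1.2, (hC _ hpm.1 _ hpm.2).mono ((min_le_left _ _).trans (by linarith)), ?_⟩
  intro s' hs' hss
  have h1 : |s' - p.1.1| < r p.1.1 p.1.2 := by
    rw [Real.dist_eq] at hb1
    calc |s' - p.1.1| = |(s' - t) + (t - p.1.1)| := by congr 1; ring
      _ ≤ |s' - t| + |t - p.1.1| := abs_add_le _ _
      _ < r p.1.1 p.1.2 / 2 + r p.1.1 p.1.2 / 2 :=
          add_lt_add ((hss.trans_le (min_le_left _ _)).trans_le hple) hb1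
      _ = _ := by ring
  refine (hs _ hpm.1 _ hpm.2 s' hs' h1).mono subset_rfl ?_
  intro y hy
  rw [mem_ball] at hy ⊢
  calc dist y p.1.2 ≤ dist y x₀ + dist x₀ p.1.2 := dist_triangle _ _ _
    _ < r p.1.1 p.1.2 / 2 + r p.1.1 p.1.2 / 2 :=
        add_lt_add ((hy.trans_le (min_le_left _ _)).trans_le hple) hb2
    _ = _ := by ring

/-- **Path theorem**: injectivity is preserved along a path. -/
theorem MPath.injective_all [MeasurableSpace E] [BorelSpace E] {K : ℝ → E → E} {M : ℝ}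
    (h : MPath K M) {t₁ : ℝ} (ht₁ : t₁ ∈ Icc (0 : ℝ) 1) (hinj : Function.Injective (K t₁)) :
    ∀ t ∈ Icc (0 : ℝ) 1, Function.Injective (K t) := by
  obtain ⟨q, hq, hq1, hu⟩ := h.unif
  have hU : ∀ t ∈ Icc (0 : ℝ) 1, Unif q (K t) := fun t ht x₀ hx₀ => by
    obtain ⟨C, hC, hs⟩ := hu t ht x₀ hx₀
    exact ⟨C, hC, hs t ht (by rw [sub_self, abs_zero]; exact hq)⟩
  set δ : ℝ := q ^ 2 / (32 * (|M| + 1)) with hδ
  have hδ0 : 0 < δ := by positivity
  -- one step
  have step : ∀ s ∈ Icc (0 : ℝ) 1, ∀ t ∈ Icc (0 : ℝ) 1, |t - s| < δ →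
      Function.Injective (K s) → Function.Injective (K t) := by
    intro s hs t ht hts hinj x y hxy
    by_contra hne
    have hK := h.hom t ht
    have hcon : ∀ x y : E, ‖x‖ = 1 → ‖y‖ ≤ 1 → x ≠ y → K t x ≠ K t y := by
      intro x y hx hy hne e
      rcases lt_or_ge ‖x - y‖ (q / 2) with h1 | h1
      · have h2 := (hU t ht).near hq hK hx (y := y) (by linarith)
        rw [e, sub_self, norm_zero] at h2
        have h3 : 0 < ‖x - y‖ := norm_pos_iff.2 (sub_ne_zero.2 hne)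
        nlinarith
      · have h2 := (hU s hs).far hq hq1 (h.hom s hs) hinj hx h1
        have h3 : ‖K s x - K s y‖ ≤ 2 * (|M| * δ) := by
          have e1 : K s x - K s y = (K s x - K t x) + (K t y - K s y) := by rw [← e]; abel
          have h4 : ‖K s x - K t x‖ ≤ |M| * δ := by
            refine (h.lipt s hs t ht x).trans ?_
            rw [hx, mul_one]
            refine (mul_le_mul_of_nonneg_right (le_abs_self M) (abs_nonneg _)).trans ?_
            rw [abs_sub_comm]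
            exact mul_le_mul_of_nonneg_left hts.le (abs_nonneg _)
          have h5 : ‖K t y - K s y‖ ≤ |M| * δ := by
            refine (h.lipt t ht s hs y).trans ?_
            calc M * |t - s| * ‖y‖ ≤ |M| * |t - s| * 1 :=
                  mul_le_mul (mul_le_mul_of_nonneg_right (le_abs_self M) (abs_nonneg _)) hy
                    (norm_nonneg _) (by positivity)
              _ ≤ |M| * δ := by
                  rw [mul_one]
                  exact mul_le_mul_of_nonneg_left hts.le (abs_nonneg _)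
          rw [e1]
          exact (norm_add_le _ _).trans (by linarith)
        have h6 : 2 * (|M| * δ) < q ^ 2 / 16 := by
          have h7 : |M| * δ < q ^ 2 / 32 := by
            rw [hδ, mul_div_assoc', div_lt_div_iff₀ (by positivity) (by norm_num)]
            have : 0 < q ^ 2 := by positivity
            nlinarith [abs_nonneg M]
          linarith
        linarith
    -- scaling
    have main : ∀ x y : E, ‖y‖ ≤ ‖x‖ → x ≠ y → K t x ≠ K t y := by
      intro x y hyx hne e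
      have hx : x ≠ 0 := by
        rintro rfl
        rw [norm_zero] at hyx
        exact hne (norm_le_zero_iff.1 hyx).symm
      have hn : 0 < ‖x‖ := norm_pos_iff.2 hx
      refine hcon (‖x‖⁻¹ • x) (‖x‖⁻¹ • y)
        (by rw [norm_smul, norm_inv, norm_norm, inv_mul_cancel₀ hn.ne'])
        (by rw [norm_smul, norm_inv, norm_norm, inv_mul_le_iff₀ hn, mul_one]; exact hyx) ?_ ?_
      · intro h1
        apply hne
        have := congrArg (fun z => ‖x‖ • z) h1
        simpa only [smul_smul, mul_inv_cancel₀ hn.ne', one_smul] using this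
      · rw [hK _ _ (inv_pos.2 hn), hK _ _ (inv_pos.2 hn), e]
    rcases le_total ‖y‖ ‖x‖ with h1 | h1
    · exact main x y h1 hne hxy
    · exact main y x h1 (Ne.symm hne) hxy.symm
  -- finitely many steps
  intro t ht
  obtain ⟨N, hN⟩ := exists_nat_gt (1 / δ)
  have hN0 : (0 : ℝ) < N := lt_trans (by positivity) hN
  have hpt : ∀ k : ℕ, k ≤ N → t₁ + (k / N : ℝ) * (t - t₁) ∈ Icc (0 : ℝ) 1 := by
    intro k hk
    have h1 : (k / N : ℝ) ∈ Icc (0 : ℝ) 1 := by
      refine ⟨by positivity, ?_⟩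
      rw [div_le_one hN0]
      exact_mod_cast hk
    have := (convex_Icc (0 : ℝ) 1).add_smul_sub_mem ht₁ ht h1
    simpa [smul_eq_mul] using this
  have hind : ∀ k : ℕ, k ≤ N → Function.Injective (K (t₁ + (k / N : ℝ) * (t - t₁))) := by
    intro k
    induction k with
    | zero => intro _; simpa using hinj
    | succ k ih =>
      intro hk
      refine step _ (hpt k (by omega)) _ (hpt (k + 1) hk) ?_ (ih (by omega))
      have e : t₁ + ((k + 1 : ℕ) / N : ℝ) * (t - t₁) - (t₁ + (k / N : ℝ) * (t - t₁)) =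
          (1 / N) * (t - t₁) := by
        push_cast; field_simp; ring
      rw [e, abs_mul, abs_of_pos (by positivity)]
      have h1 : |t - t₁| ≤ 1 := by
        rw [abs_le]; constructor <;> linarith [ht.1, ht.2, ht₁.1, ht₁.2]
      have h2 : 1 / (N : ℝ) < δ := by
        rw [div_lt_comm₀ hN0 hδ0]; exact hN
      calc 1 / (N : ℝ) * |t - t₁| ≤ 1 / (N : ℝ) * 1 := by gcongr
        _ < δ := by rw [mul_one]; exact h2
  have := hind N le_rfl
  have e : t₁ + ((N : ℝ) / N) * (t - t₁) = t := by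
    rw [div_self hN0.ne']; ring
  rwa [e] at this

end Crest.Agent.R096.Vx_270
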