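import Crest.Agent.R096.Vx6_270

/-!
# Service lemmas for `CoreAt`

* `MPath.of_smooth` : conic families with jointly continuous derivative of positive determinant;
* `coreAt_comp_left`, `coreAt_comp_right` : composition with linear maps of positive determinant;
* `sim_of_near` : `Sim` for two maps which near every point of the sphere agree or are both close to
  one matrix.
-/

set_option autoImplicit false
set_option linter.unusedSectionVars false

open MeasureTheory Metric Set Filter Topology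
open scoped ENNReal NNReal ContDiff

namespace Crest.Agent.R096.Vx_270

open Crest.Agent.R096.Mo_119 (MollAt)

section lin

variable {E : Type*} [NormedAddCommGroup E] [NormedSpace ℝ E] [FiniteDimensional ℝ E]

/-- a small closed ball around a map of positive determinant is good -/
lemma exists_good_closedBall {D : E →L[ℝ] E} (hD : 0 < D.det) :
    ∃ δ > 0, Good (closedBall D δ) := by
  have : ProperSpace (E →L[ℝ] E) := FiniteDimensional.proper_real _
  have hU : IsOpen {B : E →L[ℝ] E | 0 < B.det} :=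
    isOpen_lt continuous_const ContinuousLinearMap.continuous_det
  obtain ⟨δ, hδ, hsub⟩ := Metric.isOpen_iff.1 hU D hD
  refine ⟨δ / 2, half_pos hδ, convex_closedBall D _, isCompact_closedBall D _, fun A hA => ?_⟩
  exact hsub (closedBall_subset_ball (half_lt_self hδ) hA)

/-- a differentiable map with derivatives in `C` -/
lemma seg_of_deriv {C : Set (E →L[ℝ] E)} (hC : Convex ℝ C) (hCc : IsCompact C) {B : Set E}
    (hB : Convex ℝ B) {f : E → E} {f' : E → E →L[ℝ] E}
    (hf : ∀ x ∈ B, HasFDerivAt f (f' x) x) (hf' : ∀ x ∈ B, f' x ∈ C) : Seg C f B :=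
  seg_of_sel (ι := Unit) hC hCc hB (fun x hx => (hf x hx).continuousAt.continuousWithinAt)
    (g := fun _ => f) (g' := fun _ => f') (fun _ => hf) (fun _ => hf') (fun _ _ => ⟨(), rfl⟩)

/-- **Smooth conic families.** -/
theorem MPath.of_smooth {K : ℝ → E → E} {K' : ℝ → E → E →L[ℝ] E} {M : ℝ}
    (hom : ∀ t ∈ Icc (0 : ℝ) 1, Hom (K t))
    (hder : ∀ t ∈ Icc (0 : ℝ) 1, ∀ x, x ≠ 0 → HasFDerivAt (K t) (K' t x) x)
    (hcont : ContinuousOn (fun p : ℝ × E => K' p.1 p.2) (Icc (0 : ℝ) 1 ×ˢ {0}ᶜ))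
    (hdet : ∀ t ∈ Icc (0 : ℝ) 1, ∀ x, x ≠ 0 → 0 < (K' t x).det)
    (hlip : ∀ s ∈ Icc (0 : ℝ) 1, ∀ t ∈ Icc (0 : ℝ) 1, ∀ x, ‖x‖ = 1 →
      ‖K s x - K t x‖ ≤ M * |s - t|) : MPath K M := by
  refine ⟨hom, ?_, ?_⟩
  · intro s hs t ht x
    rcases eq_or_ne x 0 with hx | hx
    · subst hx
      rw [(hom s hs).zero, (hom t ht).zero]; simp
    · have hn : 0 < ‖x‖ := norm_pos_iff.2 hx
      have h1 := hlip s hs t ht (‖x‖⁻¹ • x) (by
        rw [norm_smul, norm_inv, norm_norm, inv_mul_cancel₀ hn.ne'])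
      rw [hom s hs _ _ (inv_pos.2 hn), hom t ht _ _ (inv_pos.2 hn), ← smul_sub, norm_smul,
        norm_inv, norm_norm, inv_mul_le_iff₀ hn] at h1
      linarith [mul_comm ‖x‖ (M * |s - t|)]
  · intro t₀ ht₀ x₀ hx₀
    have hx0 : x₀ ≠ 0 := by
      intro h; rw [h, norm_zero] at hx₀; norm_num at hx₀
    obtain ⟨δ, hδ, hG⟩ := exists_good_closedBall (hdet t₀ ht₀ x₀ hx0)
    have hmem : ((t₀, x₀) : ℝ × E) ∈ Icc (0 : ℝ) 1 ×ˢ ({0}ᶜ : Set E) := ⟨ht₀, hx0⟩
    have h1 := hcont _ hmem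
    have h2 : ∀ᶠ p in 𝓝[Icc (0 : ℝ) 1 ×ˢ ({0}ᶜ : Set E)] ((t₀, x₀) : ℝ × E),
        K' p.1 p.2 ∈ closedBall (K' t₀ x₀) δ := h1.eventually (closedBall_mem_nhds _ hδ)
    rw [eventually_nhdsWithin_iff, Metric.eventually_nhds_iff_ball] at h2
    obtain ⟨r, hr, hb⟩ := h2
    refine ⟨min r 1, lt_min hr one_pos, closedBall (K' t₀ x₀) δ, hG, fun t ht htt => ?_⟩
    have hne : ∀ x ∈ ball x₀ (min r 1), x ≠ 0 := by
      rintro x hx rfl
      rw [mem_ball_iff_norm, zero_sub, norm_neg, hx₀] at hx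
      exact absurd (hx.trans_le (min_le_right _ _)) (lt_irrefl _)
    refine seg_of_deriv hG.conv hG.cpt (convex_ball _ _) (f' := K' t)
      (fun x hx => hder t ht x (hne x hx)) (fun x hx => ?_)
    refine hb (t, x) ?_ ⟨ht, hne x hx⟩
    rw [mem_ball, Prod.dist_eq]
    refine max_lt ?_ (ball_subset_ball (min_le_left _ _) hx)
    rw [Real.dist_eq]
    exact htt.trans_le (min_le_left _ _)

/-- a smooth conic map of positive determinant satisfies the segment condition on the sphere -/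
lemma seg_at_of_contDiff {H : E → E} {x₀ : E} {H' : E → E →L[ℝ] E}
    (hder : ∀ᶠ x in 𝓝 x₀, HasFDerivAt H (H' x) x) (hcont : ContinuousAt H' x₀)
    (hdet : 0 < (H' x₀).det) : ∃ r > 0, ∃ C : Set (E →L[ℝ] E), Good C ∧ Seg C H (ball x₀ r) := by
  obtain ⟨δ, hδ, hG⟩ := exists_good_closedBall hdet
  have h2 : ∀ᶠ x in 𝓝 x₀, H' x ∈ closedBall (H' x₀) δ :=
    hcont.eventually (closedBall_mem_nhds _ hδ)
  obtain ⟨r, hr, hb⟩ := Metric.eventually_nhds_iff_ball.1 (hder.and h2)
  exact ⟨r, hr, _, hG, seg_of_deriv hG.conv hG.cpt (convex_ball _ _) (f' := H')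
    (fun x hx => (hb x hx).1) (fun x hx => (hb x hx).2)⟩

/-- composition with linear maps, good sets -/
lemma Good.comp_left {C : Set (E →L[ℝ] E)} (hC : Good C) {A : E →L[ℝ] E} (hA : 0 < A.det) :
    Good ((fun B : E →L[ℝ] E => A.comp B) '' C) := by
  have hlin : IsLinearMap ℝ (fun B : E →L[ℝ] E => A.comp B) :=
    ⟨fun B B' => by ext v; simp, fun c B => by ext v; simp⟩
  refine ⟨hC.conv.is_linear_image hlin, hC.cpt.image ?_, ?_⟩
  · exact (ContinuousLinearMap.compL ℝ E E E A).continuous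
  · rintro _ ⟨B, hB, rfl⟩
    have : (A.comp B).det = A.det * B.det := by
      simp only [ContinuousLinearMap.det, ContinuousLinearMap.toLinearMap_comp,
        LinearMap.det_comp]
    rw [this]
    exact mul_pos hA (hC.pos B hB)

lemma Good.comp_right {C : Set (E →L[ℝ] E)} (hC : Good C) {A : E →L[ℝ] E} (hA : 0 < A.det) :
    Good ((fun B : E →L[ℝ] E => B.comp A) '' C) := by
  have hlin : IsLinearMap ℝ (fun B : E →L[ℝ] E => B.comp A) :=
    ⟨fun B B' => by ext v; simp, fun c B => by ext v; simp⟩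
  refine ⟨hC.conv.is_linear_image hlin, hC.cpt.image ?_, ?_⟩
  · exact ((ContinuousLinearMap.compL ℝ E E E).flip A).continuous
  · rintro _ ⟨B, hB, rfl⟩
    have : (B.comp A).det = B.det * A.det := by
      simp only [ContinuousLinearMap.det, ContinuousLinearMap.toLinearMap_comp,
        LinearMap.det_comp]
    rw [this]
    exact mul_pos (hC.pos B hB) hA

lemma Seg.comp_left {C : Set (E →L[ℝ] E)} {f : E → E} {B : Set E} (h : Seg C f B)
    (A : E →L[ℝ] E) :
    Seg ((fun B : E →L[ℝ] E => A.comp B) '' C) (fun x => A (f x)) B := by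
  intro a ha b hb
  obtain ⟨D, hD, e⟩ := h a ha b hb
  refine ⟨A.comp D, ⟨D, hD, rfl⟩, ?_⟩
  rw [ContinuousLinearMap.comp_apply, ← e, map_sub]

lemma Seg.comp_right {C : Set (E →L[ℝ] E)} {f : E → E} {A : E →L[ℝ] E} {B B' : Set E}
    (h : Seg C f B) (hB : ∀ x ∈ B', A x ∈ B) :
    Seg ((fun B : E →L[ℝ] E => B.comp A) '' C) (fun x => f (A x)) B' := by
  intro a ha b hb
  obtain ⟨D, hD, e⟩ := h (A a) (hB a ha) (A b) (hB b hb)
  refine ⟨D.comp A, ⟨D, hD, rfl⟩, ?_⟩
  rw [ContinuousLinearMap.comp_apply, map_sub]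
  exact e

end lin

section core

variable {E : Type*} [NormedAddCommGroup E] [NormedSpace ℝ E] [FiniteDimensional ℝ E]
  [MeasurableSpace E] [BorelSpace E] {μ : Measure E} [μ.IsAddHaarMeasure]

lemma MollAt.comp_left {f : E → E} {x : E} (h : MollAt μ f x) {A : E →L[ℝ] E}
    (hA : 0 < A.det) : MollAt μ (fun y => A (f y)) x := by
  obtain ⟨r, hr, C, hC, hs⟩ := exists_seg_of_mollAt h
  exact mollAt_of_seg (hC.comp_left hA) hr (hs.comp_left A)

lemma MollAt.comp_right {f : E → E} {x : E} {A : E →L[ℝ] E} (h : MollAt μ f (A x))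
    (hA : 0 < A.det) : MollAt μ (fun y => f (A y)) x := by
  obtain ⟨r, hr, C, hC, hs⟩ := exists_seg_of_mollAt h
  have h1 : ∀ᶠ y in 𝓝 x, A y ∈ ball (A x) r := A.continuous.continuousAt (ball_mem_nhds _ hr)
  obtain ⟨r', hr', hb⟩ := Metric.eventually_nhds_iff_ball.1 h1
  exact mollAt_of_seg (hC.comp_right hA) hr' (hs.comp_right hb)

lemma isHomeomorph_of_det {A : E →L[ℝ] E} (hA : 0 < A.det) : IsHomeomorph (fun x => A x) := by
  have h : (fun x => A x) = (A.toContinuousLinearEquivOfDetNeZero hA.ne') := by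
    funext x; simp
  rw [h]
  exact (A.toContinuousLinearEquivOfDetNeZero hA.ne').toHomeomorph.isHomeomorph

theorem coreAt_comp_left {K : E → E} (h : CoreAt μ K) {A : E →L[ℝ] E} (hA : 0 < A.det) :
    CoreAt μ (fun x => A (K x)) := by
  obtain ⟨Φ, h1, h2, h3, C, h4⟩ := h
  exact ⟨fun x => A (Φ x), (isHomeomorph_of_det hA).comp h1, fun x hx => by
    show A (Φ x) = A (K x)
    rw [h2 x hx], fun x => MollAt.comp_left (h3 x) hA, _, A.lipschitz.comp h4⟩

theorem coreAt_comp_right {K : E → E} (hK : Hom K) (h : CoreAt μ K) {A : E →L[ℝ] E}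
    (hA : 0 < A.det) : CoreAt μ (fun x => K (A x)) := by
  obtain ⟨Φ, h1, h2, h3, C, h4⟩ := h
  set e := A.toContinuousLinearEquivOfDetNeZero hA.ne' with he
  have heA : ∀ x, e x = A x := fun x => by simp [he]
  set R : ℝ := ‖(e.symm : E →L[ℝ] E)‖ + 1 with hR
  have hR0 : 0 < R := by positivity
  refine coreAt_of_radius (K := fun x => K (A x)) (R := R) (fun c x hc => ?_) hR0
    (Φ := fun x => Φ (A x)) (h1.comp (isHomeomorph_of_det hA)) ?_
    (fun x => MollAt.comp_right (h3 (A x)) hA) (h4.comp A.lipschitz)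
  · show K (A (c • x)) = c • K (A x)
    rw [map_smul, hK _ _ hc]
  · intro x hx
    show Φ (A x) = K (A x)
    refine h2 _ ?_
    have h5 : ‖x‖ ≤ ‖(e.symm : E →L[ℝ] E)‖ * ‖A x‖ := by
      have h6 := (e.symm : E →L[ℝ] E).le_opNorm (A x)
      have h7 : (e.symm : E →L[ℝ] E) (A x) = x := by
        rw [← heA]; exact e.symm_apply_apply x
      rwa [h7] at h6
    by_contra hcon
    push Not at hcon
    have h8 : ‖(e.symm : E →L[ℝ] E)‖ * ‖A x‖ ≤ ‖(e.symm : E →L[ℝ] E)‖ * 1 :=
      mul_le_mul_of_nonneg_left hcon.le (norm_nonneg _)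
    linarith

end core

section sim

variable {E : Type*} [NormedAddCommGroup E] [NormedSpace ℝ E] [FiniteDimensional ℝ E]

/-- `Sim` for two maps which, near every point of the unit sphere, either agree (and satisfy the
segment condition) or have both their derivatives in one good set. -/
theorem sim_of_near {K K' : E → E}
    (h : ∀ x₀ : E, ‖x₀‖ = 1 →
      (K =ᶠ[𝓝 x₀] K' ∧ ∃ r > 0, ∃ C : Set (E →L[ℝ] E), Good C ∧ Seg C K (ball x₀ r)) ∨
      (∃ r > 0, ∃ C : Set (E →L[ℝ] E), Good C ∧ Seg C K (ball x₀ r) ∧ Seg C K' (ball x₀ r))) :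
    Sim K K' := by
  intro x₀ hx₀
  rcases h x₀ hx₀ with ⟨he, r, hr, C, hC, hs⟩ | h1
  · obtain ⟨r', hr', hb⟩ := Metric.eventually_nhds_iff_ball.1 he
    refine ⟨min r r', lt_min hr hr', C, hC, hs.mono subset_rfl
      (ball_subset_ball (min_le_left _ _)), ?_⟩
    exact (hs.mono subset_rfl (ball_subset_ball (min_le_left _ _))).congr
      (fun x hx => hb x (ball_subset_ball (min_le_right _ _) hx))
  · exact h1

end sim

end Crest.Agent.R096.Vx_270
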