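import Crest.Agent.R096.Wy1_664

/-!
# Row 96, DOORS, NE1 / G1 (helper801): the chart of a transversal strip over the moat

* `exists_chart_pol` : over polar coordinates; * `exists_chart` : over `BarF`.
The strip `{ga = s, Psi = gam (t0, w)}`, `s ∈ [s0, s1]`, `w ∈ [0, w1]`, is a compact disc in `Om` with
trivial torsors; `lev a = t0` on all of it.
-/

set_option autoImplicit false
set_option linter.unusedSectionVars false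
set_option linter.unusedVariables false

open Set Topology Filter Metric Module
open scoped Classical

namespace Crest.Agent.R096.Wch_801

open Crest.Agent.R096.Msh_715 Crest.Agent.R096.Coh_184 Crest.Agent.R096.Bsp_628
  Crest.Agent.R096.Brk1_582 Crest.Agent.R096.Brk2_582 Crest.Agent.R096.Brk3_582
  Crest.Agent.R096.Brk5_582 Crest.Agent.R096.Init_543 Crest.Agent.R096.Mbf_337
  Crest.Agent.R96.Push_899 Crest.Agent.R096.Ess1_95 Crest.Agent.R096.Ess4_95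
  Crest.Agent.R096.Ess5_95 Crest.Agent.R096.Ess6_95 Crest.Agent.R096.Ess7_95
  Crest.Agent.R096.Lab_184 Crest.Agent.R096.Seq_213 Crest.Agent.R096.Seq_213.GSt
  Crest.Agent.R096.Main_4 Crest.Agent.R096.Exa_560 Crest.Agent.R096.Agl4_543
  Crest.Agent.R096.Agl5_543 Crest.Agent.R096.Agl6_543 Crest.Agent.R096.Agl8_543
  Crest.Agent.R096.Ebr1_95 Crest.Agent.R096.Ebr2_95
  Crest.Agent.R096.Ebr3_95 Crest.Agent.R096.Ebr4_95 Crest.Agent.R096.Ebr5_95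
  Crest.Agent.R096.Ebr6_95 Crest.Agent.R096.Bar_106
  Crest.Agent.R096.Bgf_4 Crest.Agent.R096.Dib_438 Crest.Agent.R096.Sphg_316

open Crest.Agent.R096.SkC1_961 (E3 Hom3 IsPush FoamD)
open Crest.Agent.R096.Ce_537 (PLEquiv IsBall)

variable {δ κ0 R c0 : ℝ} {La Om : Set E3} {Φ : FoamD δ κ0 R c0 La}
  {f g : E3 → E3}

/-- **G1** over polar coordinates -/
theorem exists_chart_pol (hLa : IsOpen La) (H : Hm f g Om La) {c : Φ.F} {ρ : ℝ}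
    {pl : ℝ × E3 → E3} (hPol : Pol Φ c ρ pl) (hsub : ∀ y, ga Φ c y ≤ ρ → y ∈ La)
    {a p q : Φ.F} {Z : Set Φ.F} (hM : Mo (Pc Φ.F) c a Z p q) {l0 mm ra : ℝ}
    {s0 s1 t0 w1 : ℝ} (h0 : 0 < s0) (h01 : s0 ≤ s1) (h1 : s1 ≤ ρ) (ht : t0 ∈ Icc (0 : ℝ) 1)
    (hw : 0 ≤ w1) (hw1 : w1 ≤ 1) :
    ∃ Wz : ℝ × ℝ → E3, ContinuousOn Wz (Icc s0 s1 ×ˢ Icc 0 w1) ∧
      InjOn Wz (Icc s0 s1 ×ˢ Icc 0 w1) ∧
      (∀ z ∈ Icc s0 s1 ×ˢ Icc 0 w1, Wz z ∈ Om ∧ ga Φ c (f (Wz z)) = z.1 ∧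
        Φ.Psi (f (Wz z)) = gam (bc (F := Φ.F)) a Z p q (t0, z.2) ∧ Φ.lev a (f (Wz z)) = t0 ∧
        gmf Φ l0 mm ra a Z (Φ.Psi (f (Wz z))) = max (z.2 / l0) (|t0 - mm| / ra)) ∧
      IsCompact (Wz '' (Icc s0 s1 ×ˢ Icc 0 w1)) ∧
      TrivF (ZMod 2) (Wz '' (Icc s0 s1 ×ˢ Icc 0 w1)) := by
  have FF := foam Φ.bf hLa
  have hR : ∀ z : ℝ × ℝ, z ∈ Icc s0 s1 ×ˢ Icc 0 w1 → ((t0, z.2) : ℝ × ℝ) ∈ Rct := fun z hz =>
    ⟨ht, ⟨by linarith [hz.2.1], by linarith [hz.2.2]⟩⟩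
  have hS : ∀ z : ℝ × ℝ, z ∈ Icc s0 s1 ×ˢ Icc 0 w1 → z.1 ∈ Ioc 0 ρ := fun z hz =>
    ⟨h0.trans_le hz.1.1, hz.1.2.trans h1⟩
  have hF : ∀ z : ℝ × ℝ, z ∈ Icc s0 s1 ×ˢ Icc 0 w1 →
      gam (bc (F := Φ.F)) a Z p q (t0, z.2) ∈ frontier c.1.set := fun z hz =>
    gam_fr hLa hM (hR z hz)
  -- the map into `La`
  set Yz : ℝ × ℝ → E3 := fun z => pl (z.1, gam (bc (F := Φ.F)) a Z p q (t0, z.2)) with hY
  have hYg : ∀ z : ℝ × ℝ, z ∈ Icc s0 s1 ×ˢ Icc 0 w1 → ga Φ c (Yz z) = z.1 := fun z hz =>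
    hPol.gau z.1 (hS z hz) _ (hF z hz)
  have hYp : ∀ z : ℝ × ℝ, z ∈ Icc s0 s1 ×ˢ Icc 0 w1 →
      Φ.Psi (Yz z) = gam (bc (F := Φ.F)) a Z p q (t0, z.2) := fun z hz =>
    hPol.psi z.1 (hS z hz) _ (hF z hz)
  have hYL : ∀ z : ℝ × ℝ, z ∈ Icc s0 s1 ×ˢ Icc 0 w1 → Yz z ∈ La := fun z hz =>
    hsub _ (by rw [hYg z hz]; exact (hS z hz).2)
  have hYc : ContinuousOn Yz (Icc s0 s1 ×ˢ Icc 0 w1) := by
    refine hPol.cont.comp (continuous_fst.continuousOn.prodMk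
      ((hM.continuousOn_gam FF).comp (Continuous.continuousOn (by fun_prop)) fun z hz => hR z hz))
      fun z hz => ⟨mem_univ _, hF z hz⟩
  have hYi : InjOn Yz (Icc s0 s1 ×ˢ Icc 0 w1) := by
    intro z hz z' hz' he
    have e1 := hYg z hz
    rw [he, hYg z' hz'] at e1
    have e2 := hYp z hz
    rw [he, hYp z' hz'] at e2
    have e3 := hM.gam_injOn FF (hR z' hz') (hR z hz) e2
    exact Prod.ext e1.symm (congrArg Prod.snd e3).symm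
  have hWc : ContinuousOn (fun z => g (Yz z)) (Icc s0 s1 ×ˢ Icc 0 w1) :=
    H.gc.comp hYc fun z hz => hYL z hz
  have hWi : InjOn (fun z => g (Yz z)) (Icc s0 s1 ×ˢ Icc 0 w1) := fun z hz z' hz' he =>
    hYi hz hz' (H.injOn (hYL z hz) (hYL z' hz') he)
  have hK : IsCompact (Icc s0 s1 ×ˢ Icc 0 w1 : Set (ℝ × ℝ)) := isCompact_Icc.prod isCompact_Icc
  refine ⟨fun z => g (Yz z), hWc, hWi, fun z hz => ?_, hK.image_of_continuousOn hWc,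
    trivF_convex hK ((convex_Icc _ _).prod (convex_Icc _ _)) hWc hWi⟩
  have e0 : f (g (Yz z)) = Yz z := H.fg _ (hYL z hz)
  refine ⟨H.gm (hYL z hz), ?_, ?_, ?_, ?_⟩
  · show ga Φ c (f (g (Yz z))) = z.1
    rw [e0]; exact hYg z hz
  · show Φ.Psi (f (g (Yz z))) = _
    rw [e0]; exact hYp z hz
  · show Φ.lev a (f (g (Yz z))) = t0
    rw [e0]
    show sc (Pc Φ.F) (bc (F := Φ.F)) (Φ.Psi (Yz z)) a = t0
    rw [hYp z hz, hM.sc_gam FF (hR z hz), uu_a]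
  · show gmf Φ l0 mm ra a Z (Φ.Psi (f (g (Yz z)))) = _
    rw [e0, hYp z hz, gmf_gam hLa hM (hR z hz)]
    show max (|z.2| / l0) (|t0 - mm| / ra) = _
    rw [abs_of_nonneg hz.2.1]

/-- the sublevels of the gauge lie in `La` -/
theorem ga_sub_La (hLa : IsOpen La) {c : Φ.F} (hpt : (Φ.B c).lo = (Φ.B c).hi) {ρ : ℝ}
    (hρ : ρ < 1) : ∀ y, ga Φ c y ≤ ρ → y ∈ La := by
  intro y hy
  have hb : Bod (Φ.B c).lo (Pc Φ.F c) := Pse_316.bod_brick Φ c hpt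
  have hgf : ga Φ c = Ng (Φ.B c).lo (Pc Φ.F c) := funext (Etg_163.gg_eq Φ c)
  have hcL : c.1.set ⊆ La := Φ.bf.sub c.1 c.2
  exact hcL (hb.le_sub hρ.le (show y ∈ {y | Ng _ _ y ≤ ρ} by rw [← hgf]; exact hy))

section bar

variable {ι : Type} {T : Tiling Om ι} {J0 J V : Φ.F → Set ι} {θ : Φ.F → E3 → E3}
  {Mo' : Type} {co : Mo' → Φ.F} {ρ1 ρ2 ρ3 ρ4 d : Mo' → ℝ} {G : Mo' → E3 → ℝ}
  {rm h lo hi ω : Mo' → ℝ} {q₀ : Mo' → E3} {g0 : Mo' → ℝ}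

/-- **G1** over `BarF` -/
theorem exists_chart (hLa : IsOpen La) (H : Hm f g Om La)
    (hB : BarF Φ T f J0 J V θ co ρ1 ρ2 ρ3 ρ4 d G rm h lo hi ω q₀ g0) (m : Mo')
    {a p q : Φ.F} {Z : Set Φ.F} (hM : Mo (Pc Φ.F) (co m) a Z p q) {l0 mm ra : ℝ}
    {s0 s1 t0 w1 : ℝ} (h0 : 0 < s0) (h01 : s0 ≤ s1) (h1 : s1 ≤ ρ4 m) (ht : t0 ∈ Icc (0 : ℝ) 1)
    (hw : 0 ≤ w1) (hw1 : w1 ≤ 1) :
    ∃ Wz : ℝ × ℝ → E3, ContinuousOn Wz (Icc s0 s1 ×ˢ Icc 0 w1) ∧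
      InjOn Wz (Icc s0 s1 ×ˢ Icc 0 w1) ∧
      (∀ z ∈ Icc s0 s1 ×ˢ Icc 0 w1, Wz z ∈ Om ∧ ga Φ (co m) (f (Wz z)) = z.1 ∧
        Φ.Psi (f (Wz z)) = gam (bc (F := Φ.F)) a Z p q (t0, z.2) ∧ Φ.lev a (f (Wz z)) = t0 ∧
        gmf Φ l0 mm ra a Z (Φ.Psi (f (Wz z))) = max (z.2 / l0) (|t0 - mm| / ra)) ∧
      IsCompact (Wz '' (Icc s0 s1 ×ˢ Icc 0 w1)) ∧
      TrivF (ZMod 2) (Wz '' (Icc s0 s1 ×ˢ Icc 0 w1)) := by
  obtain ⟨pl, hPol⟩ := hB.pol hLa m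
  exact exists_chart_pol hLa H hPol (ga_sub_La hLa (hB.pt m) (hB.room m).r4) hM h0 h01 h1 ht hw hw1

end bar

end Crest.Agent.R096.Wch_801
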