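import Crest.Agent.R096.Wd9_120
import Crest.Agent.R096.Mbf_337

/-!
Row 96, exact cores (helper120), part 10: `Mbf_337.Words` for all exact cores (112 #10679 (B)).
-/

set_option autoImplicit false
set_option linter.unusedSectionVars false

open Set Filter Topology Metric MeasureTheory
open scoped ENNReal

namespace Crest.Agent.R096.Wd_120

open Crest.Agent.R096.Bsp_628 Crest.Agent.R096.Bxs_627 Crest.Agent.R096.Brk1_582
open Crest.Agent.R096.Brk3_582 Crest.Agent.R096.Brk5_582 Crest.Agent.R096.Core_124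
open Crest.Agent.R096.Msh_715 Crest.Agent.R096.Ls_222 Crest.Agent.R96.Sg1_199
open Crest.Agent.R096.SkC1_961 (FoamD th)
open Crest.Agent.R096.Mbf_337 (sb)

section ends

variable {Om : Set (Fin 3 → ℝ)} {ι : Type} {T : Tiling Om ι}

/-- the ends of a closed 1-cell are vertices of it -/
theorem dim_ends {x a b : Fin 3 → ℝ} (hx : x ∈ Om) (hd : T.dim x = 1)
    (hab : T.cc x = segment ℝ a b) : T.dim a = 0 ∧ T.dim b = 0 := by
  obtain ⟨a', b', hne, -, -, ha0, hb0, ha, hb⟩ := T.edge_eq hx hd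
  have h1 := T.vertex_of_edge hx hd hab ha ha0
  have h2 := T.vertex_of_edge hx hd hab hb hb0
  rcases h1 with h1 | h1 <;> rcases h2 with h2 | h2
  · exact absurd (h1.trans h2.symm) hne
  · exact ⟨h1 ▸ ha0, h2 ▸ hb0⟩
  · exact ⟨h2 ▸ hb0, h1 ▸ ha0⟩
  · exact absurd (h1.trans h2.symm) hne

end ends

section card

variable {δ κ0 R c0 : ℝ} {La Om : Set (Fin 3 → ℝ)} {ι : Type} {Φ : FoamD δ κ0 R c0 La}
  {T : Tiling Om ι} {c : Φ.F} {i : ι} {A : (Fin 3 → ℝ) ≃ᵃ[ℝ] (Fin 3 → ℝ)} {lam : ℝ} {z : Fin 3 → ℝ}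

/-- **the number of edges of an exact core** -/
theorem card_eIn_le (hLa : IsOpen La) (hκ : 0 < κ0) (hR : 0 < R) (hl : 0 < lam) {M : ℕ}
    (ht : P (T.H i) = A ⁻¹' {y | ∀ k, z k + lam * c.1.lo k ≤ y k ∧ y k ≤ z k + lam * c.1.hi k})
    (hg : GridC Φ T M i (fun y => sb Φ (th A lam z y))) :
    (eIn T i).card ≤ ((M + 1) * (M + 1)) ^ Nb (Fin 3) (R * κ0) := by
  classical
  have FF := foam Φ.bf hLa
  have hfin := touch_finite Φ.bf hκ hR Φ.cmp c
  set S : Finset Φ.F := hfin.toFinset with hS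
  have hcard : S.card ≤ Nb (Fin 3) (R * κ0) := touch_finset Φ.bf hκ hR Φ.cmp c S fun d hd =>
    (Set.Finite.mem_toFinset hfin).1 hd
  have hx : ∀ e : Edg T, ∃ x ∈ Om, T.dim x = 1 ∧ e.1 = T.cc x := fun e => e.2
  choose x xO xd xe using hx
  have hxP : ∀ e ∈ eIn T i, x e ∈ P (T.H i) := fun e he => by
    apply mem_eIn.1 he
    rw [xe e]
    exact T.self_mem_cc _
  have hb : ∀ e ∈ eIn T i, ∀ a, 0 ≤ sb Φ (th A lam z (x e)) a ∧ sb Φ (th A lam z (x e)) a ≤ 1 :=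
    fun e he a =>
      (FF.sc_mem_K (FF.sub c (th_mem (c := c) hl ht (hxP e he)))).1 a
  let fl : Edg T → S → Fin (M + 1) × Fin (M + 1) := fun e a =>
    (Fin.ofNat (M + 1) ⌊M * sb Φ (th A lam z (x e)) a⌋₊,
      Fin.ofNat (M + 1) ⌈M * sb Φ (th A lam z (x e)) a⌉₊)
  have hM1 : ∀ e ∈ eIn T i, ∀ a, ⌊M * sb Φ (th A lam z (x e)) a⌋₊ < M + 1 ∧
      ⌈M * sb Φ (th A lam z (x e)) a⌉₊ < M + 1 := by
    intro e he a
    have h := hb e he a
    have hM : (0 : ℝ) ≤ M := Nat.cast_nonneg _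
    have h1 : M * sb Φ (th A lam z (x e)) a ≤ M := by nlinarith
    have h2 : ⌈M * sb Φ (th A lam z (x e)) a⌉₊ ≤ M := Nat.ceil_le.2 h1
    have h3 := Nat.floor_le_ceil (M * sb Φ (th A lam z (x e)) a)
    constructor <;> omega
  have hinj : Set.InjOn fl (eIn T i : Set (Edg T)) := by
    intro e he e' he' hee
    have he1 : e ∈ eIn T i := he
    have he1' : e' ∈ eIn T i := he'
    have key : ∀ a : Φ.F, ⌊M * sb Φ (th A lam z (x e)) a⌋₊ = ⌊M * sb Φ (th A lam z (x e')) a⌋₊ ∧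
        ⌈M * sb Φ (th A lam z (x e)) a⌉₊ = ⌈M * sb Φ (th A lam z (x e')) a⌉₊ := by
      intro a
      by_cases ha : (Pc Φ.F c ∩ Pc Φ.F a).Nonempty
      · have haS : a ∈ S := (Set.Finite.mem_toFinset hfin).2 ha
        have h1 := congrFun hee ⟨a, haS⟩
        have h2 := hM1 e he1 a
        have h3 := hM1 e' he1' a
        simp only [fl, Prod.mk.injEq, Fin.ext_iff, Fin.ofNat_eq_cast, Fin.val_natCast] at h1
        rw [Nat.mod_eq_of_lt h2.1, Nat.mod_eq_of_lt h3.1, Nat.mod_eq_of_lt h2.2,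
          Nat.mod_eq_of_lt h3.2] at h1
        exact h1
      · have ha' : ¬ (Pc Φ.F a ∩ Pc Φ.F c).Nonempty := by rwa [inter_comm]
        have e1 : sb Φ (th A lam z (x e)) a = 1 :=
          Dic2_582.sc_eq_one_of_not_touch FF ha' (th_mem (c := c) hl ht (hxP e he1))
        have e2 : sb Φ (th A lam z (x e')) a = 1 :=
          Dic2_582.sc_eq_one_of_not_touch FF ha' (th_mem (c := c) hl ht (hxP e' he1'))
        rw [e1, e2]
        exact ⟨rfl, rfl⟩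
    have g1 := (hg (x e) (hxP e he1) (not_mem_I_of_dim (xO e) (by have := xd e; omega))).1
    have g2 := (hg (x e') (hxP e' he1') (not_mem_I_of_dim (xO e') (by have := xd e'; omega))).1
    apply Subtype.ext
    rw [xe e, xe e', g1, g2]
    ext y
    simp only [mem_ofPred_eq]
    refine and_congr Iff.rfl (forall_congr' fun a => ?_)
    rw [(key a).1, (key a).2]
  have h1 : (eIn T i).card ≤ (Finset.univ : Finset (S → Fin (M + 1) × Fin (M + 1))).card :=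
    Finset.card_le_card_of_injOn fl (fun _ _ => Finset.mem_coe.2 (Finset.mem_univ _)) hinj
  refine h1.trans ?_
  rw [Finset.card_univ, Fintype.card_fun, Fintype.card_prod, Fintype.card_fin, Fintype.card_coe]
  exact Nat.pow_le_pow_right (by positivity) hcard

end card

section all

/-- **WORDS for all exact cores** (112 #10679 (B)): the literal `Mbf_337.Words`. -/
theorem words_all {δ κ0 R : ℝ} (hδ : 0 < δ) (hκ : 1 ≤ κ0) (hR : 1 ≤ R) {κb lam0 lam1 : ℝ}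
    (hκb : 0 < κb) (hl0 : 0 < lam0) (hl1 : lam1 < 1) (Mx : ℕ) :
    ∃ κw : ℝ, 0 < κw ∧ ∀ (La Om : Set (Fin 3 → ℝ)), IsOpen La → ∀ (c0 : ℝ)
      (Φ : FoamD δ κ0 R c0 La) (ι : Type) (T : Tiling Om ι) (f : (Fin 3 → ℝ) → Fin 3 → ℝ)
      (X : Set Φ.F) (ct : Φ.F → ι) (A : Φ.F → (Fin 3 → ℝ) ≃ᵃ[ℝ] (Fin 3 → ℝ)) (lam : Φ.F → ℝ)
      (M : Φ.F → ℕ),
      (∀ c ∈ X, 0 < M c ∧ ∀ x ∈ P (T.H (ct c)), x ∉ I (T.H (ct c)) →
        T.cc x = {y | y ∈ P (T.H (ct c)) ∧ ∀ a : Φ.F,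
          (⌊M c * sb Φ (th (A c) (lam c) (zz c.1 (lam c)) x) a⌋₊ : ℝ) ≤
            M c * sb Φ (th (A c) (lam c) (zz c.1 (lam c)) y) a ∧
          M c * sb Φ (th (A c) (lam c) (zz c.1 (lam c)) y) a ≤
            ⌈M c * sb Φ (th (A c) (lam c) (zz c.1 (lam c)) x) a⌉₊} ∧
        T.dim x = {a : Φ.F | ⌊M c * sb Φ (th (A c) (lam c) (zz c.1 (lam c)) x) a⌋₊ <
          ⌈M c * sb Φ (th (A c) (lam c) (zz c.1 (lam c)) x) a⌉₊}.ncard) →
      (∀ c ∈ X, M c ≤ Mx) → (∀ c ∈ X, lam0 ≤ lam c ∧ lam c ≤ lam1) →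
      (∀ c ∈ X, ∀ y ∈ Pc Φ.F c, 3 / 4 * lam c ≤ mu c.1 y → Φ.pu c y = rp c.1 y) →
      (∀ c ∈ X, P (T.H (ct c)) = A c ⁻¹' {y | ∀ k, zz c.1 (lam c) k + lam c * c.1.lo k ≤ y k ∧
        y k ≤ zz c.1 (lam c) k + lam c * c.1.hi k}) →
      (∀ c ∈ X, ∀ x ∈ P (T.H (ct c)), T.dim x = 0 → ‖f x - A c x‖ ≤ κw * c.1.sz) →
      (∀ c ∈ X, ∀ e ∈ eIn T (ct c), ∃ g : ℝ → ℝ,
        NearSeg (fun τ => f (ea e + τ • ev e)) g (A c (ea e)) (A c (ea e + ev e) - A c (ea e))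
          (κw * c.1.sz) ∧ ∫ τ in (0:ℝ)..1, g τ ≤ κw * c.1.sz) →
      ∃ Bad : Φ.F → Set ℝ, (∀ c', MeasurableSet (Bad c')) ∧
        (∀ c', volume (Bad c') ≤ ENNReal.ofReal κb) ∧
        ∀ L : Φ.F → Finset ℝ, (∀ c', ∀ t ∈ L c', t ∈ Ioo (0 : ℝ) 1 ∧ t ∉ Bad c') →
          Mbf_337.Words Φ T f X ct A lam (fun c => zz c.1 (lam c)) M L := by
  classical
  set n : ℕ := ((Mx + 1) * (Mx + 1)) ^ Nb (Fin 3) (R * κ0) with hn
  obtain ⟨kw, hkw, H⟩ := words (κ0 := κ0) (R := R) hδ hκ hR hκb hl1 (M := Mx + 1) (by omega) n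
  refine ⟨kw * lam0 / (n + 1), by positivity, ?_⟩
  intro La Om hLa c0 Φ ι T f X ct A lam M hgrid hM hlam hpush htile hvx hed
  choose! g hg1 hg2 using hed
  have hn1 : (0 : ℝ) < n + 1 := by positivity
  have hsz : ∀ c : Φ.F, 0 < c.1.sz := fun c => Bx.sz_pos (Φ.bf.pos _ c.2)
  have hle1 : ∀ c ∈ X, (n + 1) * (kw * lam0 / (n + 1) * c.1.sz) ≤ kw * (lam c * c.1.sz) := by
    intro c hc
    have e : (n + 1 : ℝ) * (kw * lam0 / (n + 1) * c.1.sz) = kw * (lam0 * c.1.sz) := by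
      field_simp
    rw [e]
    exact mul_le_mul_of_nonneg_left (mul_le_mul_of_nonneg_right (hlam c hc).1 (hsz c).le) hkw.le
  have hle : ∀ c ∈ X, kw * lam0 / (n + 1) * c.1.sz ≤ kw * (lam c * c.1.sz) := by
    intro c hc
    refine le_trans ?_ (hle1 c hc)
    have h0 : 0 ≤ kw * lam0 / (n + 1) * c.1.sz := mul_nonneg (by positivity) (hsz c).le
    have hn0 : (0 : ℝ) ≤ n := Nat.cast_nonneg n
    nlinarith
  have hcard : ∀ c ∈ X, (eIn T (ct c)).card ≤ n := by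
    intro c hc
    have h1 := card_eIn_le (c := c) hLa (by linarith) (by linarith) (hl0.trans_le (hlam c hc).1)
      (htile c hc) (fun x hx hxI => (hgrid c hc).2 x hx hxI)
    refine h1.trans (Nat.pow_le_pow_left ?_ _)
    have := hM c hc
    exact Nat.mul_le_mul (by omega) (by omega)
  have hX : ∀ c ∈ X, CoreW Φ T f c (ct c) (A c) (lam c) (M c) (kw * (lam c * c.1.sz)) (g c) :=
    fun c hc =>
      { lam0 := hl0.trans_le (hlam c hc).1
        lam1 := (hlam c hc).2.trans_lt hl1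
        M0 := (hgrid c hc).1
        ε0 := mul_nonneg hkw.le (mul_nonneg (hl0.le.trans (hlam c hc).1) (hsz c).le)
        tile := htile c hc
        push := hpush c hc
        grid := fun x hx hxI => (hgrid c hc).2 x hx hxI
        close := fun x hx hd => (hvx c hc x hx hd).trans (hle c hc)
        seg := fun e he =>
          ⟨(hg1 c hc e he).cont, (hg1 c hc e he).int, (hg1 c hc e he).nonneg,
            (hg1 c hc e he).inc, fun t ht => ((hg1 c hc e he).close t ht).trans (hle c hc)⟩ }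
  have hsum : ∀ c ∈ X, ∑ e ∈ eIn T (ct c), ∫ τ in (0:ℝ)..1, g c e τ ≤ kw * (lam c * c.1.sz) := by
    intro c hc
    calc ∑ e ∈ eIn T (ct c), ∫ τ in (0:ℝ)..1, g c e τ
        ≤ ∑ e ∈ eIn T (ct c), kw * lam0 / (n + 1) * c.1.sz :=
          Finset.sum_le_sum fun e he => hg2 c hc e he
      _ = (eIn T (ct c)).card * (kw * lam0 / (n + 1) * c.1.sz) := by
          rw [Finset.sum_const, nsmul_eq_mul]
      _ ≤ (n + 1) * (kw * lam0 / (n + 1) * c.1.sz) := by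
          refine mul_le_mul_of_nonneg_right ?_ (mul_nonneg (by positivity) (hsz c).le)
          have : ((eIn T (ct c)).card : ℝ) ≤ n := by exact_mod_cast hcard c hc
          linarith
      _ ≤ kw * (lam c * c.1.sz) := hle1 c hc
  obtain ⟨Bad, hB1, hB2, hB3⟩ := H La Om hLa c0 Φ ι T f X ct A lam M g hX
    (fun c hc => (hlam c hc).2) (fun c hc => (hM c hc).trans (Nat.le_succ _)) hcard hsum
  refine ⟨Bad, hB1, hB2, fun L hL => ?_⟩
  have hsign : ∀ c ∈ X, ∀ x ∈ P (T.H (ct c)), T.dim x = 0 → ∀ c' : Φ.F, ∀ t ∈ L c',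
      (Φ.lev c' (f x) < t ↔ sb Φ (th (A c) (lam c) (zz c.1 (lam c)) x) c' < t) :=
    fun c hc x hx hd c' t ht => (hB3 c hc c' t (hL c' t ht).1 (hL c' t ht).2).2 x hx hd
  refine ⟨hgrid, ?_, hsign⟩
  intro c hc x hx hd c' t ht a b hab
  have hw := (hB3 c hc c' t (hL c' t ht).1 (hL c' t ht).2).1 x hx hd a b hab
  have hxO : x ∈ Om := T.sub _ hx
  have hde := dim_ends hxO hd hab
  have haP : a ∈ P (T.H (ct c)) := T.cc_sub_tile hx (by rw [hab]; exact left_mem_segment _ _ _)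
  have hbP : b ∈ P (T.H (ct c)) := T.cc_sub_tile hx (by rw [hab]; exact right_mem_segment _ _ _)
  exact ⟨hw.1, hw.2.1, (hsign c hc a haP hde.1 c' t ht).symm,
    (hsign c hc b hbP hde.2 c' t ht).symm, hw.2.2.1, hw.2.2.2⟩

end all

end Crest.Agent.R096.Wd_120
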