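import Crest.Agent.R096.Wd10_120
import Crest.Agent.R096.Exa2_365

/-!
Row 96, exact cores (helper120), part 11: the words of the exact cores of a mesh from `Cores` and the
increments of `f` along the edges of the core tiles (`words_cores`), in particular from `GoodW`
(`words_good`).
-/

set_option autoImplicit false
set_option linter.unusedSectionVars false

open Set Filter Topology Metric MeasureTheory
open scoped ENNReal

namespace Crest.Agent.R096.Wd_120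

open Crest.Agent.R096.Bsp_628 Crest.Agent.R096.Bxs_627 Crest.Agent.R096.Brk1_582
open Crest.Agent.R096.Brk3_582 Crest.Agent.R096.Brk5_582 Crest.Agent.R096.Core_124
open Crest.Agent.R096.Msh_715 Crest.Agent.R096.Ls_222 Crest.Agent.R96.Sg1_199
open Crest.Agent.R096.SkC1_961 (FoamD th E3)
open Crest.Agent.R096.Mbf_337 (sb Cores Exact Words)
open Crest.Agent.R096.EaX_766 (lin)
open Crest.Agent.R096.Exa_365 (GoodW)

section seg

variable {F : Type*} [NormedAddCommGroup F] [NormedSpace ℝ F]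

/-- the segment run backwards -/
theorem nearSeg_rev {c : ℝ → F} {g : ℝ → ℝ} {y0 u : F} {ε : ℝ} (h : NearSeg c g y0 u ε) :
    NearSeg (fun t => c (1 - t)) (fun t => g (1 - t)) (y0 + u) (-u) ε := by
  have hI : ∀ t ∈ Icc (0:ℝ) 1, 1 - t ∈ Icc (0:ℝ) 1 := fun t ht => ⟨by linarith [ht.2], by
    linarith [ht.1]⟩
  refine ⟨?_, ?_, fun t ht => h.nonneg _ (hI t ht), ?_, ?_⟩
  · exact h.cont.comp (by fun_prop) hI
  · have h1 := h.int.comp_sub_left 1
    simp only [sub_zero, sub_self] at h1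
    exact h1.symm
  · intro s hs t ht hst
    have h1 := h.inc (1 - t) (hI t ht) (1 - s) (hI s hs) (by linarith)
    have e : c (1 - t) - c (1 - s) - (t - s) • -u = -(c (1 - s) - c (1 - t) -
        ((1 - s) - (1 - t)) • u) := by
      rw [show (1 - s) - (1 - t) = t - s by ring]
      simp only [smul_neg, sub_neg_eq_add, neg_sub]
      abel
    rw [e, norm_neg]
    refine h1.trans (le_of_eq ?_)
    rw [intervalIntegral.integral_comp_sub_left (fun τ => g τ) 1]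
  · intro t ht
    have h1 := h.close (1 - t) (hI t ht)
    have e : y0 + u + t • -u = y0 + (1 - t) • u := by
      rw [sub_smul, one_smul, smul_neg]; abel
    rw [e]
    exact h1

theorem integral_rev (g : ℝ → ℝ) : ∫ t in (0:ℝ)..1, g (1 - t) = ∫ t in (0:ℝ)..1, g t := by
  rw [intervalIntegral.integral_comp_sub_left (fun τ => g τ) 1]
  simp

/-- another affine map near the curve -/
theorem nearSeg_close {c : ℝ → F} {g : ℝ → ℝ} {y0 y0' u : F} {ε ε' : ℝ} (h : NearSeg c g y0 u ε)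
    (hc : ∀ t ∈ Icc (0:ℝ) 1, ‖c t - (y0' + t • u)‖ ≤ ε') : NearSeg c g y0' u ε' :=
  ⟨h.cont, h.int, h.nonneg, h.inc, hc⟩

end seg

section edges

variable {Om : Set (Fin 3 → ℝ)} {ι : Type} {T : Tiling Om ι}

/-- a closed 1-cell which is the segment `sgm a v`: its parametrisation is `a, v` or backwards -/
theorem edg_sgm {e : Edg T} {a v : Fin 3 → ℝ} (h : e.1 = sgm a v) :
    (ea e = a ∧ ev e = v) ∨ (ea e = a + v ∧ ev e = -v) := by
  obtain ⟨x, hxO, hd, hex⟩ := e.2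
  have hab : T.cc x = segment ℝ a (a + v) := by rw [← hex, h, sgm_eq_segment]
  have hp : ea e ∈ T.cc x := by
    rw [← hex, ← sgm_edg e, sgm_eq_segment]; exact left_mem_segment _ _ _
  have hq : ea e + ev e ∈ T.cc x := by
    rw [← hex, ← sgm_edg e, sgm_eq_segment]; exact right_mem_segment _ _ _
  have h1 := T.vertex_of_edge hxO hd hab hp (dim_ea e)
  have h2 := T.vertex_of_edge hxO hd hab hq (dim_eb e)
  have hne : ea e ≠ ea e + ev e := fun h' => ev_ne e (by simpa using h'.symm)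
  rcases h1 with h1 | h1 <;> rcases h2 with h2 | h2
  · exact absurd (h1.trans h2.symm) hne
  · left
    refine ⟨h1, ?_⟩
    rw [h1] at h2
    exact add_left_cancel h2
  · right
    refine ⟨h1, ?_⟩
    rw [h1] at h2
    have : a + v + ev e = a + v + -v := by rw [h2]; abel
    exact add_left_cancel this
  · exact absurd (h1.trans h2.symm) hne

end edges

section mesh

/-- **the words of the exact cores of a mesh**: `Cores`, the grid, the increments of `f` along the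
edges of the core tiles. -/
theorem words_cores {δ κ0 R : ℝ} (hδ : 0 < δ) (hκ : 1 ≤ κ0) (hR : 1 ≤ R) {κb lam0 lam1 : ℝ}
    (hκb : 0 < κb) (hl0 : 0 < lam0) (hl1 : lam1 < 1) (Mx : ℕ) :
    ∃ κw : ℝ, 0 < κw ∧ ∀ (La Om : Set (Fin 3 → ℝ)), IsOpen La → ∀ (c0 : ℝ)
      (Φ : FoamD δ κ0 R c0 La) (ι : Type) (T : Tiling Om ι) (f : (Fin 3 → ℝ) → Fin 3 → ℝ)
      (κ1 κ2 : ℝ), κ1 ≤ κw → 0 ≤ κ2 → ∀ (X : Set Φ.F) (J0 J V : Φ.F → Set ι) (ct : Φ.F → ι)
      (A : Φ.F → (Fin 3 → ℝ) ≃ᵃ[ℝ] (Fin 3 → ℝ)) (lam : Φ.F → ℝ) (z : Φ.F → Fin 3 → ℝ)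
      (θ : Φ.F → (Fin 3 → ℝ) → Fin 3 → ℝ) (φ : Φ.F → (Fin 3 → ℝ) → ℝ) (M : Φ.F → ℕ),
      Cores Φ T f κ1 κ2 X J0 J V ct A lam z θ φ →
      (∀ c ∈ X, z c = zz c.1 (lam c)) →
      (∀ c ∈ X, 0 < M c ∧ ∀ x ∈ P (T.H (ct c)), x ∉ I (T.H (ct c)) →
        T.cc x = {y | y ∈ P (T.H (ct c)) ∧ ∀ a : Φ.F,
          (⌊M c * sb Φ (th (A c) (lam c) (z c) x) a⌋₊ : ℝ) ≤ M c * sb Φ (th (A c) (lam c) (z c) y) a ∧
          M c * sb Φ (th (A c) (lam c) (z c) y) a ≤ ⌈M c * sb Φ (th (A c) (lam c) (z c) x) a⌉₊} ∧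
        T.dim x = {a : Φ.F | ⌊M c * sb Φ (th (A c) (lam c) (z c) x) a⌋₊ <
          ⌈M c * sb Φ (th (A c) (lam c) (z c) x) a⌉₊}.ncard) →
      (∀ c ∈ X, M c ≤ Mx) → (∀ c ∈ X, lam0 ≤ lam c ∧ lam c ≤ lam1) →
      (∀ c ∈ X, ∀ y ∈ Pc Φ.F c, 3 / 4 * lam c ≤ mu c.1 y → Φ.pu c y = rp c.1 y) →
      (∀ c ∈ X, ∀ e ∈ eIn T (ct c), ∃ (a v : Fin 3 → ℝ) (g : ℝ → ℝ) (y0 : Fin 3 → ℝ) (ε : ℝ),
        e.1 = sgm a v ∧ NearSeg (fun τ => f (a + τ • v)) g y0 ((A c).linear v) ε ∧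
        ∫ τ in (0:ℝ)..1, g τ ≤ κw * c.1.sz) →
      ∃ Bad : Φ.F → Set ℝ, (∀ c', MeasurableSet (Bad c')) ∧
        (∀ c', volume (Bad c') ≤ ENNReal.ofReal κb) ∧
        ∀ L : Φ.F → Finset ℝ, (∀ c', ∀ t ∈ L c', t ∈ Ioo (0 : ℝ) 1 ∧ t ∉ Bad c') →
          Words Φ T f X ct A lam z M L := by
  obtain ⟨κw, hκw, H⟩ := words_all hδ hκ hR hκb hl0 hl1 Mx
  refine ⟨κw, hκw, ?_⟩
  intro La Om hLa c0 Φ ι T f κ1 κ2 hκ1 hκ2 X J0 J V ct A lam z θ φ M hC hz hgrid hM hlam hpush hed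
  have hsz : ∀ c : Φ.F, 0 < c.1.sz := fun c => Bx.sz_pos (Φ.bf.pos _ c.2)
  have hEx : ∀ c ∈ X, Exact Φ T f κ1 κ2 c (ct c) (A c) (lam c) (z c) := hC.exact_
  -- closeness on the 1-skeleton of the core tiles
  have hcl : ∀ c ∈ X, ∀ x ∈ P (T.H (ct c)), T.dim x ≤ 2 → ‖f x - A c x‖ ≤ κw * c.1.sz := by
    intro c hc x hx hd
    have hE := hEx c hc
    have hl := hE.lam0
    have hl' := hE.lam1
    have hxt := hx
    rw [hE.tile] at hxt
    have hside : ∀ k, 0 ≤ κ2 * (lam c * c.1.side k) := fun k =>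
      mul_nonneg hκ2 (mul_nonneg hl.le (Bx.side_pos (Φ.bf.pos _ c.2) k).le)
    have h1 := (hE.nbd x fun k => ⟨by linarith [(hxt k).1, hside k], by
      linarith [(hxt k).2, hside k]⟩).2 (fun hi => not_mem_I_of_dim (T.sub _ hx) hd
        (mem_I_of_interior (T.ne _) hi))
    refine h1.trans ?_
    have h2 : κ1 * (lam c * c.1.sz) ≤ κw * (lam c * c.1.sz) :=
      mul_le_mul_of_nonneg_right hκ1 (mul_pos hl (hsz c)).le
    refine h2.trans (mul_le_mul_of_nonneg_left ?_ hκw.le)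
    have := hsz c
    nlinarith
  have hzX : ∀ c ∈ X, ∀ y : Fin 3 → ℝ, th (A c) (lam c) (zz c.1 (lam c)) y =
      th (A c) (lam c) (z c) y := fun c hc y => by rw [hz c hc]
  have hed' : ∀ c ∈ X, ∀ e ∈ eIn T (ct c), ∃ g : ℝ → ℝ,
      NearSeg (fun τ => f (ea e + τ • ev e)) g (A c (ea e)) (A c (ea e + ev e) - A c (ea e))
        (κw * c.1.sz) ∧ ∫ τ in (0:ℝ)..1, g τ ≤ κw * c.1.sz := by
    intro c hc e he
    obtain ⟨a, v, g, y0, ε, hav, hseg, hg⟩ := hed c hc e he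
    have heP : e.1 ⊆ P (T.H (ct c)) := mem_eIn.1 he
    obtain ⟨x, hxO, hd, hex⟩ := e.2
    -- closeness along the edge
    have hce : ∀ t ∈ Icc (0:ℝ) 1, ‖f (a + t • v) - A c (a + t • v)‖ ≤ κw * c.1.sz := by
      intro t ht
      have hm : a + t • v ∈ e.1 := by rw [hav]; exact ⟨t, ht, rfl⟩
      refine hcl c hc _ (heP hm) ?_
      have : a + t • v ∈ T.cc x := by rw [← hex]; exact hm
      have h1 := T.dim_le this
      omega
    have hA : ∀ t : ℝ, A c (a + t • v) = A c a + t • (A c).linear v := by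
      intro t
      have h1 := (A c).map_vadd a (t • v)
      rw [vadd_eq_add, vadd_eq_add, map_smul] at h1
      rw [add_comm a, h1]
      abel
    have hN : NearSeg (fun τ => f (a + τ • v)) g (A c a) ((A c).linear v) (κw * c.1.sz) :=
      nearSeg_close hseg fun t ht => by
        have := hce t ht
        rw [hA t] at this
        exact this
    rcases edg_sgm hav with ⟨h1, h2⟩ | ⟨h1, h2⟩
    · refine ⟨g, ?_, hg⟩
      have e1 : A c (ea e + ev e) - A c (ea e) = (A c).linear v := by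
        rw [h1, h2]
        have := hA 1
        rw [one_smul, one_smul] at this
        rw [this]; abel
      rw [e1, h1, h2]
      exact hN
    · refine ⟨fun t => g (1 - t), ?_, ?_⟩
      · have hR := nearSeg_rev hN
        have e0 : ea e = a + v := h1
        have e1 : A c (ea e + ev e) - A c (ea e) = -(A c).linear v := by
          rw [h1, h2]
          have := hA 1
          rw [one_smul, one_smul] at this
          rw [this, show a + v + -v = a by abel]; abel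
        have e2 : A c (ea e) = A c a + (A c).linear v := by
          rw [h1]
          have := hA 1
          rw [one_smul, one_smul] at this
          exact this
        have e3 : (fun τ : ℝ => f (ea e + τ • ev e)) = fun t => f (a + (1 - t) • v) := by
          funext t
          congr 1
          rw [h1, h2, sub_smul, one_smul, smul_neg]
          abel
        rw [e1, e2, e3]
        exact hR
      · rw [integral_rev]
        exact hg
  obtain ⟨Bad, hB1, hB2, hB3⟩ := H La Om hLa c0 Φ ι T f X ct A lam M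
    (fun c hc => by simp only [← hz c hc]; exact hgrid c hc) hM hlam hpush
    (fun c hc => by rw [← hz c hc]; exact (hEx c hc).tile)
    (fun c hc x hx hd => hcl c hc x hx (by omega)) hed'
  refine ⟨Bad, hB1, hB2, fun L hL => ?_⟩
  have hW := hB3 L hL
  refine ⟨fun c hc => hgrid c hc, ?_, ?_⟩
  · intro c hc
    have := hW.word c hc
    simp only [← hz c hc] at this
    exact this
  · intro c hc
    have := hW.sign c hc
    simp only [← hz c hc] at this
    exact this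

end mesh

section good

/-- **the words of the exact cores from `GoodW`** (365): the edges of the core tile are translates of a
family of segments, good for the total shift `w`. -/
theorem words_good {δ κ0 R : ℝ} (hδ : 0 < δ) (hκ : 1 ≤ κ0) (hR : 1 ≤ R) {κb lam0 lam1 : ℝ}
    (hκb : 0 < κb) (hl0 : 0 < lam0) (hl1 : lam1 < 1) (Mx : ℕ) :
    ∃ κw : ℝ, 0 < κw ∧ ∀ (La Om : Set (Fin 3 → ℝ)), IsOpen La → ∀ (c0 : ℝ)
      (Φ : FoamD δ κ0 R c0 La) (ι : Type) (T : Tiling Om ι) (f : (Fin 3 → ℝ) → Fin 3 → ℝ)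
      (p : ℝ), 1 ≤ p → ContinuousOn f Om → ∀ (D : (Fin 3 → ℝ) → (Fin 3 → ℝ) →L[ℝ] (Fin 3 → ℝ))
      (κ1 κ2 : ℝ), κ1 ≤ κw → 0 ≤ κ2 → ∀ (X : Set Φ.F) (J0 J V : Φ.F → Set ι) (ct : Φ.F → ι)
      (A : Φ.F → (Fin 3 → ℝ) ≃ᵃ[ℝ] (Fin 3 → ℝ)) (lam : Φ.F → ℝ) (z : Φ.F → Fin 3 → ℝ)
      (θ : Φ.F → (Fin 3 → ℝ) → Fin 3 → ℝ) (φ : Φ.F → (Fin 3 → ℝ) → ℝ) (M : Φ.F → ℕ),
      Cores Φ T f κ1 κ2 X J0 J V ct A lam z θ φ →
      (∀ c ∈ X, z c = zz c.1 (lam c)) →
      (∀ c ∈ X, 0 < M c ∧ ∀ x ∈ P (T.H (ct c)), x ∉ I (T.H (ct c)) →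
        T.cc x = {y | y ∈ P (T.H (ct c)) ∧ ∀ a : Φ.F,
          (⌊M c * sb Φ (th (A c) (lam c) (z c) x) a⌋₊ : ℝ) ≤ M c * sb Φ (th (A c) (lam c) (z c) y) a ∧
          M c * sb Φ (th (A c) (lam c) (z c) y) a ≤ ⌈M c * sb Φ (th (A c) (lam c) (z c) x) a⌉₊} ∧
        T.dim x = {a : Φ.F | ⌊M c * sb Φ (th (A c) (lam c) (z c) x) a⌋₊ <
          ⌈M c * sb Φ (th (A c) (lam c) (z c) x) a⌉₊}.ncard) →
      (∀ c ∈ X, M c ≤ Mx) → (∀ c ∈ X, lam0 ≤ lam c ∧ lam c ≤ lam1) →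
      (∀ c ∈ X, ∀ y ∈ Pc Φ.F c, 3 / 4 * lam c ≤ mu c.1 y → Φ.pu c y = rp c.1 y) →
      (∀ c ∈ X, ∃ (K : Type) (A' : (Fin 3 → ℝ) ≃ᵃ[ℝ] (Fin 3 → ℝ)) (x v : K → Fin 3 → ℝ)
        (η : ℝ≥0∞) (w : Fin 3 → ℝ), GoodW p Om f D A' x v η w ∧ η ≠ ∞ ∧
        (η ^ (1 / p)).toReal ≤ κw ∧ (∀ y, (A c).linear y = A'.linear y) ∧
        ∀ e ∈ eIn T (ct c), ∃ j, e.1 = sgm (x j + w) (v j)) →
      ∃ Bad : Φ.F → Set ℝ, (∀ c', MeasurableSet (Bad c')) ∧
        (∀ c', volume (Bad c') ≤ ENNReal.ofReal κb) ∧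
        ∀ L : Φ.F → Finset ℝ, (∀ c', ∀ t ∈ L c', t ∈ Ioo (0 : ℝ) 1 ∧ t ∉ Bad c') →
          Words Φ T f X ct A lam z M L := by
  obtain ⟨κw, hκw, H⟩ := words_cores hδ hκ hR hκb hl0 hl1 Mx
  refine ⟨κw, hκw, ?_⟩
  intro La Om hLa c0 Φ ι T f p hp hf D κ1 κ2 hκ1 hκ2 X J0 J V ct A lam z θ φ M hC hz hgrid hM hlam
    hpush hgood
  refine H La Om hLa c0 Φ ι T f κ1 κ2 hκ1 hκ2 X J0 J V ct A lam z θ φ M hC hz hgrid hM hlam hpush ?_
  intro c hc e he
  obtain ⟨K, A', x, v, η, w, hG, hη, hηw, hlin, hed⟩ := hgood c hc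
  obtain ⟨j, hj⟩ := hed e he
  have hE := hC.exact_ c hc
  have hsz : 0 < c.1.sz := Bx.sz_pos (Φ.bf.pos _ c.2)
  have heP : e.1 ⊆ P (T.H (ct c)) := mem_eIn.1 he
  have hsub : sgm (x j + w) (v j) ⊆ Om := by
    rw [← hj]; exact heP.trans (T.sub _)
  -- some bound for the closeness
  have hcpt : IsCompact (sgm (x j + w) (v j)) := by
    rw [sgm_eq_segment, segment_eq_image_lineMap]
    exact isCompact_Icc.image (by fun_prop)
  have hcont : ContinuousOn (fun y => f y - A' y) (sgm (x j + w) (v j)) :=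
    (hf.mono hsub).sub (A'.toAffineMap.continuous_of_finiteDimensional.continuousOn)
  obtain ⟨ε, hε⟩ := hcpt.exists_bound_of_continuousOn hcont
  obtain ⟨h1, h2⟩ := hG.nearSeg hp hη hf j hsub hε
  have hl : lin A' (v j) = (A c).linear (v j) := by
    rw [hlin]; rfl
  refine ⟨x j + w, v j, fun τ => ‖D (x j + w + τ • v j) (v j) - lin A' (v j)‖, A' (x j + w), ε, hj,
    ?_, ?_⟩
  · rw [← hl]; exact h1
  · refine h2.trans ?_
    -- the image of the edge lies in the box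
    have hm0 : x j + w ∈ e.1 := by rw [hj]; exact ⟨0, by simp, by simp⟩
    have hm1 : x j + w + v j ∈ e.1 := by rw [hj]; exact ⟨1, by simp, by simp⟩
    have p0 := heP hm0
    have p1 := heP hm1
    rw [hE.tile] at p0 p1
    have hd : lin A' (v j) = A c (x j + w + v j) - A c (x j + w) := by
      rw [hl]
      have h3 := (A c).map_vadd (x j + w) (v j)
      rw [vadd_eq_add, vadd_eq_add, add_comm (v j)] at h3
      rw [h3]; abel
    have hb : ‖lin A' (v j)‖ ≤ lam c * c.1.sz := by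
      rw [hd, pi_norm_le_iff_of_nonneg (mul_pos hE.lam0 hsz).le]
      intro k
      have q0 := p0 k
      have q1 := p1 k
      have hs : lam c * c.1.side k ≤ lam c * c.1.sz :=
        mul_le_mul_of_nonneg_left (Bx.side_le_sz _ k) hE.lam0.le
      have hs' : lam c * c.1.side k = lam c * c.1.hi k - lam c * c.1.lo k := by
        unfold Bx.side; ring
      rw [Pi.sub_apply, Real.norm_eq_abs, abs_le]
      constructor <;> linarith [q0.1, q0.2, q1.1, q1.2]
    calc (η ^ (1 / p)).toReal * ‖lin A' (v j)‖ ≤ κw * (lam c * c.1.sz) :=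
          mul_le_mul hηw hb (norm_nonneg _) hκw.le
      _ ≤ κw * c.1.sz := by
          refine mul_le_mul_of_nonneg_left ?_ hκw.le
          have := hE.lam1
          nlinarith

end good

end Crest.Agent.R096.Wd_120
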