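import Crest.Agent.R096.Wd12_120

/-!
Row 96, exact cores (helper120), part 13: general form of `words_cores` (closeness on the edges of the
core tiles as a hypothesis of its own: EA0).
-/

set_option autoImplicit false
set_option linter.unusedSectionVars false

open Set Filter Topology Metric MeasureTheory
open scoped ENNReal

namespace Crest.Agent.R096.Wd_120

open Crest.Agent.R096.Bsp_628 Crest.Agent.R096.Bxs_627 Crest.Agent.R096.Brk1_582
open Crest.Agent.R096.Brk3_582 Crest.Agent.R096.Brk5_582 Crest.Agent.R096.Core_124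
open Crest.Agent.R096.Msh_715 Crest.Agent.R096.Ls_222 Crest.Agent.R96.Sg1_199
open Crest.Agent.R096.SkC1_961 (FoamD th)
open Crest.Agent.R096.Mbf_337 (sb Cores Exact Words)

/-- **the words of the exact cores of a mesh**, general form: `Cores` with any `κ1`; `f` is close to `A c`
on the edges of the core tiles (`hcl`), the increments of `f` along the edges. -/
theorem words_edge {δ κ0 R : ℝ} (hδ : 0 < δ) (hκ : 1 ≤ κ0) (hR : 1 ≤ R) {κb lam0 lam1 : ℝ}
    (hκb : 0 < κb) (hl0 : 0 < lam0) (hl1 : lam1 < 1) (Mx : ℕ) :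
    ∃ κw : ℝ, 0 < κw ∧ ∀ (La Om : Set (Fin 3 → ℝ)), IsOpen La → ∀ (c0 : ℝ)
      (Φ : FoamD δ κ0 R c0 La) (ι : Type) (T : Tiling Om ι) (f : (Fin 3 → ℝ) → Fin 3 → ℝ)
      (κ1 κ2 : ℝ) (X : Set Φ.F) (J0 J V : Φ.F → Set ι) (ct : Φ.F → ι)
      (A : Φ.F → (Fin 3 → ℝ) ≃ᵃ[ℝ] (Fin 3 → ℝ)) (lam : Φ.F → ℝ) (z : Φ.F → Fin 3 → ℝ)
      (θ : Φ.F → (Fin 3 → ℝ) → Fin 3 → ℝ) (φ : Φ.F → (Fin 3 → ℝ) → ℝ) (M : Φ.F → ℕ),
      Cores Φ T f κ1 κ2 X J0 J V ct A lam z θ φ →
      (∀ c ∈ X, z c = zz c.1 (lam c)) →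
      (∀ c ∈ X, 0 < M c ∧ ∀ x ∈ P (T.H (ct c)), x ∉ I (T.H (ct c)) →
        T.cc x = {y | y ∈ P (T.H (ct c)) ∧ ∀ a : Φ.F,
          (⌊M c * sb Φ (th (A c) (lam c) (z c) x) a⌋₊ : ℝ) ≤ M c * sb Φ (th (A c) (lam c) (z c) y) a ∧
          M c * sb Φ (th (A c) (lam c) (z c) y) a ≤ ⌈M c * sb Φ (th (A c) (lam c) (z c) x) a⌉₊} ∧
        T.dim x = {a : Φ.F | ⌊M c * sb Φ (th (A c) (lam c) (z c) x) a⌋₊ <
          ⌈M c * sb Φ (th (A c) (lam c) (z c) x) a⌉₊}.ncard) →
      (∀ c ∈ X, M c ≤ Mx) → (∀ c ∈ X, lam0 ≤ lam c ∧ lam c ≤ lam1) →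
      (∀ c ∈ X, ∀ y ∈ Pc Φ.F c, 3 / 4 * lam c ≤ mu c.1 y → Φ.pu c y = rp c.1 y) →
      (∀ c ∈ X, ∀ x ∈ P (T.H (ct c)), T.dim x ≤ 1 → ‖f x - A c x‖ ≤ κw * c.1.sz) →
      (∀ c ∈ X, ∀ e ∈ eIn T (ct c), ∃ (a v : Fin 3 → ℝ) (g : ℝ → ℝ) (y0 : Fin 3 → ℝ) (ε : ℝ),
        e.1 = sgm a v ∧ NearSeg (fun τ => f (a + τ • v)) g y0 ((A c).linear v) ε ∧
        ∫ τ in (0:ℝ)..1, g τ ≤ κw * c.1.sz) →
      ∃ Bad : Φ.F → Set ℝ, (∀ c', MeasurableSet (Bad c')) ∧
        (∀ c', volume (Bad c') ≤ ENNReal.ofReal κb) ∧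
        ∀ L : Φ.F → Finset ℝ, (∀ c', ∀ t ∈ L c', t ∈ Ioo (0 : ℝ) 1 ∧ t ∉ Bad c') →
          Words Φ T f X ct A lam z M L := by
  obtain ⟨κw, hκw, H⟩ := words_all hδ hκ hR hκb hl0 hl1 Mx
  refine ⟨κw, hκw, ?_⟩
  intro La Om hLa c0 Φ ι T f κ1 κ2 X J0 J V ct A lam z θ φ M hC hz hgrid hM hlam hpush hcl hed
  have hsz : ∀ c : Φ.F, 0 < c.1.sz := fun c => Bx.sz_pos (Φ.bf.pos _ c.2)
  have hEx : ∀ c ∈ X, Exact Φ T f κ1 κ2 c (ct c) (A c) (lam c) (z c) := hC.exact_
  have hzX : ∀ c ∈ X, ∀ y : Fin 3 → ℝ, th (A c) (lam c) (zz c.1 (lam c)) y =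
      th (A c) (lam c) (z c) y := fun c hc y => by rw [hz c hc]
  have hed' : ∀ c ∈ X, ∀ e ∈ eIn T (ct c), ∃ g : ℝ → ℝ,
      NearSeg (fun τ => f (ea e + τ • ev e)) g (A c (ea e)) (A c (ea e + ev e) - A c (ea e))
        (κw * c.1.sz) ∧ ∫ τ in (0:ℝ)..1, g τ ≤ κw * c.1.sz := by
    intro c hc e he
    obtain ⟨a, v, g, y0, ε, hav, hseg, hg⟩ := hed c hc e he
    have heP : e.1 ⊆ P (T.H (ct c)) := mem_eIn.1 he
    obtain ⟨x, hxO, hd, hex⟩ := e.2
    -- closeness along the edge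
    have hce : ∀ t ∈ Icc (0:ℝ) 1, ‖f (a + t • v) - A c (a + t • v)‖ ≤ κw * c.1.sz := by
      intro t ht
      have hm : a + t • v ∈ e.1 := by rw [hav]; exact ⟨t, ht, rfl⟩
      refine hcl c hc _ (heP hm) ?_
      have : a + t • v ∈ T.cc x := by rw [← hex]; exact hm
      have h1 := T.dim_le this
      omega
    have hA : ∀ t : ℝ, A c (a + t • v) = A c a + t • (A c).linear v := by
      intro t
      have h1 := (A c).map_vadd a (t • v)
      rw [vadd_eq_add, vadd_eq_add, map_smul] at h1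
      rw [add_comm a, h1]
      abel
    have hN : NearSeg (fun τ => f (a + τ • v)) g (A c a) ((A c).linear v) (κw * c.1.sz) :=
      nearSeg_close hseg fun t ht => by
        have := hce t ht
        rw [hA t] at this
        exact this
    rcases edg_sgm hav with ⟨h1, h2⟩ | ⟨h1, h2⟩
    · refine ⟨g, ?_, hg⟩
      have e1 : A c (ea e + ev e) - A c (ea e) = (A c).linear v := by
        rw [h1, h2]
        have := hA 1
        rw [one_smul, one_smul] at this
        rw [this]; abel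
      rw [e1, h1, h2]
      exact hN
    · refine ⟨fun t => g (1 - t), ?_, ?_⟩
      · have hR := nearSeg_rev hN
        have e0 : ea e = a + v := h1
        have e1 : A c (ea e + ev e) - A c (ea e) = -(A c).linear v := by
          rw [h1, h2]
          have := hA 1
          rw [one_smul, one_smul] at this
          rw [this, show a + v + -v = a by abel]; abel
        have e2 : A c (ea e) = A c a + (A c).linear v := by
          rw [h1]
          have := hA 1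
          rw [one_smul, one_smul] at this
          exact this
        have e3 : (fun τ : ℝ => f (ea e + τ • ev e)) = fun t => f (a + (1 - t) • v) := by
          funext t
          congr 1
          rw [h1, h2, sub_smul, one_smul, smul_neg]
          abel
        rw [e1, e2, e3]
        exact hR
      · rw [integral_rev]
        exact hg
  obtain ⟨Bad, hB1, hB2, hB3⟩ := H La Om hLa c0 Φ ι T f X ct A lam M
    (fun c hc => by simp only [← hz c hc]; exact hgrid c hc) hM hlam hpush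
    (fun c hc => by rw [← hz c hc]; exact (hEx c hc).tile)
    (fun c hc x hx hd => hcl c hc x hx (by omega)) hed'
  refine ⟨Bad, hB1, hB2, fun L hL => ?_⟩
  have hW := hB3 L hL
  refine ⟨fun c hc => hgrid c hc, ?_, ?_⟩
  · intro c hc
    have := hW.word c hc
    simp only [← hz c hc] at this
    exact this
  · intro c hc
    have := hW.sign c hc
    simp only [← hz c hc] at this
    exact this

end Crest.Agent.R096.Wd_120
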