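import Crest.Agent.R096.Wd13_120
import Crest.Agent.R096.Mcc1_715

/-!
Row 96, exact cores (helper120), part 14: the core tile of a block `Q` (874's `CB`) in a tiling:
`CoreAt T i Q`.  The grid clause of `Mbf_337.Words` from the grid clause of the shell in integer
coordinates (`GridS`), the edges of the core are rigid.
-/

set_option autoImplicit false
set_option linter.unusedSectionVars false

open Set Filter Topology Metric MeasureTheory
open scoped ENNReal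

namespace Crest.Agent.R096.Wd_120

open Crest.Agent.R096.Bsp_628 Crest.Agent.R096.Brk1_582
open Crest.Agent.R096.Brk3_582 Crest.Agent.R096.Brk5_582
open Crest.Agent.R096.Msh_715 Crest.Agent.R096.Ls_222 Crest.Agent.R96.Sg1_199
open Crest.Agent.R096.SkC1_961 (th)
open Crest.Agent.R096.Msh_810 (ps)
open Crest.Agent.R096.Mal_874 Crest.Agent.R096.Mcc_715

section core

variable {E : Type*} [NormedAddCommGroup E] [NormedSpace ℝ E] {n : ℕ}

/-- the integer coordinates of the block -/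
noncomputable abbrev uc (Q : CB E n) (y : E) : Fin n → ℝ := ps Q.a' Q.kc (Q.ψ y)

theorem uc_tr (Q : CB E n) (v y : E) : uc (Q.tr v) y = uc Q (y - v) := CB.ps_tr Q v y

theorem mem_Kc {Q : CB E n} {y : E} : y ∈ Q.Kc ↔ uc Q y ∈ Q.S.B0 := Iff.rfl

/-- the tile `i` of `T` is the core of the block `Q`, and the cells of `T` at the core are the cells of
the shell. -/
structure CoreAt {Om : Set E} {ι : Type*} (T : Tiling Om ι) (i : ι) (Q : CB E n) : Prop where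
  tile : P (T.H i) = Q.Kc
  cc : ∀ x ∈ Q.Kc, T.cc x = {y | uc Q y ∈ cell Q.S (uc Q x)}
  dim : ∀ x ∈ Q.Kc, T.dim x = Module.finrank ℝ (dirS Q.S (uc Q x))

variable {Om Om' : Set E} {ι ι' : Type*} {T : Tiling Om ι} {T' : Tiling Om' ι'} {i : ι} {i' : ι'}
  {Q : CB E n}

theorem strict_of_mem {Q : CB E n} {x : E} (hx : x ∈ Q.Kc) :
    ∀ l, (Q.S.lo l : ℝ) - Q.S.t < uc Q x l ∧ uc Q x l < Q.S.hi l + Q.S.t := by
  intro l
  have h := (mem_Kc.1 hx) l
  have ht := Q.S.t_pos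
  exact ⟨by linarith [h.1], by linarith [h.2]⟩

/-- another tiling with the same tile and the same cells at it -/
theorem CoreAt.congr (h : CoreAt T i Q) (hP : P (T'.H i') = P (T.H i))
    (hcc : ∀ x ∈ P (T.H i), T'.cc x = T.cc x) (hd : ∀ x ∈ P (T.H i), T'.dim x = T.dim x) :
    CoreAt T' i' Q where
  tile := hP.trans h.tile
  cc x hx := (hcc x (h.tile ▸ hx)).trans (h.cc x hx)
  dim x hx := (hd x (h.tile ▸ hx)).trans (h.dim x hx)

/-- the tiling of the block itself -/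
theorem coreAt_T (Q : CB E n) (k : ℕ) (hk : Q.kc ≤ k) : CoreAt (Q.T k hk) (Q.cix k hk) Q := by
  have key : ∀ x ∈ Q.Kc, x ∈ interior (Q.S.bp Q.ψ Q.a' Q.kc) := fun x hx =>
    mem_interior_bp Q.S Q.ψ Q.a' Q.kc (strict_of_mem hx)
  refine ⟨Q.P_core k hk, fun x hx => (T_in Q k hk (key x hx)).1, fun x hx => ?_⟩
  have h1 := (T_in Q k hk (key x hx)).2.2
  have h2 : (Q.T k hk).V x = (dirS Q.S (uc Q x)).comap
      (Q.ψ.toLinearEquiv : E →ₗ[ℝ] (Fin n → ℝ)) := by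
    apply SetLike.coe_injective
    exact h1
  unfold Tiling.dim
  rw [h2]
  exact (Q.ψ.toLinearEquiv.ofSubmodule' _).finrank_eq

/-- the aligned mesh -/
theorem coreAt_mesh {J : Type*} (M : MD E n J) [NeZero n] {k : J → ℕ} (hk : M.Sc k)
    (a : Fin n → ℝ) {v : J → E} (hv : M.Adm v) (j : J) :
    CoreAt (M.mesh hk a hv) (Sum.inr ⟨j, M.core hk a hv j⟩) (M.Bk v j) :=
  ⟨M.P_core hk a hv j, fun x hx => cc_mesh M hk a hv j (strict_of_mem hx),
    fun x hx => dim_mesh M hk a hv j (strict_of_mem hx)⟩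

/-- a boundary point of the core has a coordinate on a wall -/
theorem CoreAt.wall [FiniteDimensional ℝ E] (h : CoreAt T i Q) {x : E} (hx : x ∈ P (T.H i))
    (hn : x ∉ I (T.H i)) : ∃ l, uc Q x l = Q.S.lo l ∨ uc Q x l = Q.S.hi l := by
  by_contra hcon
  push Not at hcon
  apply hn
  refine mem_I_of_interior (T.ne i) ?_
  rw [h.tile] at hx ⊢
  have hop : IsOpen {y : E | ∀ l, (Q.S.lo l : ℝ) < uc Q y l ∧ uc Q y l < Q.S.hi l} := by
    have e : {y : E | ∀ l, (Q.S.lo l : ℝ) < uc Q y l ∧ uc Q y l < Q.S.hi l} =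
        ⋂ l, {y | (Q.S.lo l : ℝ) < uc Q y l ∧ uc Q y l < Q.S.hi l} := by
      ext y; simp
    rw [e]
    refine isOpen_iInter_of_finite fun l => ?_
    have hc : Continuous fun y : E => uc Q y l := (continuous_ps Q.a' Q.kc l).comp Q.ψ.continuous
    exact (isOpen_lt continuous_const hc).inter (isOpen_lt hc continuous_const)
  refine interior_maximal (fun y hy => mem_Kc.2 fun l => ⟨(hy l).1.le, (hy l).2.le⟩) hop ?_
  intro l
  have h1 := (mem_Kc.1 hx) l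
  exact ⟨lt_of_le_of_ne h1.1 (Ne.symm (hcon l).1), lt_of_le_of_ne h1.2 (hcon l).2⟩

end core

section edge

variable {E : Type*} [NormedAddCommGroup E] [NormedSpace ℝ E] [FiniteDimensional ℝ E] {n : ℕ}
  {Om Om' : Set E} {ι ι' : Type} {T : Tiling Om ι} {T' : Tiling Om' ι'} {i : ι} {i' : ι'}
  {Q : CB E n}

/-- **the edges of the core are rigid**: they are the translates of the edges of the core of any other
tiling with the same block (e.g. `Q.T k hk`). -/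
theorem CoreAt.edge {v : E} (h : CoreAt T i (Q.tr v)) (h' : CoreAt T' i' Q) {e : Edg T}
    (he : e ∈ eIn T i) : ∃ e' ∈ eIn T' i', e.1 = sgm (ea e' + v) (ev e') := by
  obtain ⟨x, hxO, hd, hex⟩ := e.2
  have heP := mem_eIn.1 he
  have hxP : x ∈ P (T.H i) := heP (by rw [hex]; exact T.self_mem_cc x)
  have hxK : x ∈ (Q.tr v).Kc := h.tile ▸ hxP
  have hxK' : x - v ∈ Q.Kc := (Q.mem_Kc_tr v x).1 hxK
  have hxP' : x - v ∈ P (T'.H i') := h'.tile.symm ▸ hxK'
  have hd' : T'.dim (x - v) = 1 := by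
    rw [h'.dim _ hxK', ← hd, h.dim _ hxK, uc_tr]
    rfl
  let e' : Edg T' := ⟨T'.cc (x - v), x - v, T'.sub _ hxP', hd', rfl⟩
  refine ⟨e', mem_eIn.2 (T'.cc_sub_tile hxP'), ?_⟩
  have h1 : e.1 = {y | y - v ∈ e'.1} := by
    rw [hex, h.cc _ hxK]
    ext y
    show uc (Q.tr v) y ∈ cell (Q.tr v).S (uc (Q.tr v) x) ↔ y - v ∈ T'.cc (x - v)
    rw [h'.cc _ hxK', uc_tr, uc_tr]
    exact Iff.rfl
  rw [h1, ← sgm_edg e']
  ext y
  constructor
  · rintro ⟨τ, hτ, hy⟩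
    refine ⟨τ, hτ, ?_⟩
    have hy' : ea e' + τ • ev e' = y - v := hy
    show ea e' + v + τ • ev e' = y
    rw [add_right_comm, hy']
    abel
  · rintro ⟨τ, hτ, rfl⟩
    refine ⟨τ, hτ, ?_⟩
    show ea e' + τ • ev e' = ea e' + v + τ • ev e' - v
    abel

end edge

section grid

/-- the grid clause of the shell in integer coordinates: `pt` = the affine map onto the brick -/
def GridS (F : Set (Bx (Fin 3))) (S : PS 3) (pt : (Fin 3 → ℝ) → Fin 3 → ℝ) (M : ℕ) : Prop :=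
  ∀ u ∈ S.B0, (∃ l, u l = S.lo l ∨ u l = S.hi l) →
    cell S u = {v | v ∈ S.B0 ∧ ∀ a : F,
      (⌊M * sc (Pc F) (bc (F := F)) (pt u) a⌋₊ : ℝ) ≤ M * sc (Pc F) (bc (F := F)) (pt v) a ∧
      M * sc (Pc F) (bc (F := F)) (pt v) a ≤ ⌈M * sc (Pc F) (bc (F := F)) (pt u) a⌉₊} ∧
    Module.finrank ℝ (dirS S u) = {a : F | ⌊M * sc (Pc F) (bc (F := F)) (pt u) a⌋₊ <
      ⌈M * sc (Pc F) (bc (F := F)) (pt u) a⌉₊}.ncard

variable {Om : Set (Fin 3 → ℝ)} {ι : Type} {T : Tiling Om ι} {i : ι} {Q : CB (Fin 3 → ℝ) 3}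

/-- **the clause `grid` at a core tile** -/
theorem CoreAt.grid (h : CoreAt T i Q) {F : Set (Bx (Fin 3))} {pt : (Fin 3 → ℝ) → Fin 3 → ℝ}
    {M : ℕ} (hS : GridS F Q.S pt M) {A : (Fin 3 → ℝ) ≃ᵃ[ℝ] (Fin 3 → ℝ)} {lam : ℝ}
    {z : Fin 3 → ℝ} (hth : ∀ y, th A lam z y = pt (uc Q y)) :
    ∀ x ∈ P (T.H i), x ∉ I (T.H i) →
      T.cc x = {y | y ∈ P (T.H i) ∧ ∀ a : F,
        (⌊M * sc (Pc F) (bc (F := F)) (th A lam z x) a⌋₊ : ℝ) ≤
          M * sc (Pc F) (bc (F := F)) (th A lam z y) a ∧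
        M * sc (Pc F) (bc (F := F)) (th A lam z y) a ≤
          ⌈M * sc (Pc F) (bc (F := F)) (th A lam z x) a⌉₊} ∧
      T.dim x = {a : F | ⌊M * sc (Pc F) (bc (F := F)) (th A lam z x) a⌋₊ <
        ⌈M * sc (Pc F) (bc (F := F)) (th A lam z x) a⌉₊}.ncard := by
  intro x hx hn
  have hw := h.wall hx hn
  have hxK : x ∈ Q.Kc := h.tile ▸ hx
  obtain ⟨h1, h2⟩ := hS (uc Q x) (mem_Kc.1 hxK) hw
  refine ⟨?_, ?_⟩
  · rw [h.cc x hxK, h1]
    ext y
    simp only [mem_ofPred_eq, h.tile, hth]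
    exact Iff.rfl
  · rw [h.dim x hxK, h2]
    simp only [hth]

end grid

end Crest.Agent.R096.Wd_120
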