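import Crest.Agent.R096.Wd14_120
import Crest.Agent.R096.Mf2_113
import Crest.Agent.R096.Mfa2_880

/-!
Row 96, exact cores (helper120), part 15: transfer of the grid clause between a tiling and the tiling of
the block (`CoreAt.grid_tr`), `CoreAt` from the configuration of the tile, edges at the points of the
1-skeleton of a tile.
-/

set_option autoImplicit false
set_option linter.unusedSectionVars false

open Set Filter Topology Metric MeasureTheory
open scoped ENNReal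

namespace Crest.Agent.R096.Wd_120

open Crest.Agent.R096.Bsp_628 Crest.Agent.R096.Brk1_582
open Crest.Agent.R096.Brk3_582 Crest.Agent.R096.Brk5_582
open Crest.Agent.R096.Msh_715 Crest.Agent.R096.Ls_222 Crest.Agent.R96.Sg1_199
open Crest.Agent.R096.SkC1_961 (th Cfg)
open Crest.Agent.R096.Msh_810 (ps)
open Crest.Agent.R096.Mal_874 Crest.Agent.R096.Mcc_715

section gen

variable {E : Type*} [NormedAddCommGroup E] [NormedSpace ℝ E] [FiniteDimensional ℝ E]
  {Om : Set E} {ι : Type*} {T : Tiling Om ι} {i : ι}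

theorem dim_of_mem_I {x : E} (hx : x ∈ I (T.H i)) : T.dim x = Module.finrank ℝ E := by
  have hV := (T.V_eq_top_iff (T.sub i (I_sub_P _ hx))).2 ⟨i, hx⟩
  unfold Tiling.dim
  rw [hV, finrank_top]

theorem dim_ne_of_not_mem {x : E} (hx : x ∈ P (T.H i)) (hn : x ∉ I (T.H i)) :
    T.dim x ≠ Module.finrank ℝ E := by
  intro h
  have hO := T.sub i hx
  have hV : T.V x = ⊤ := Submodule.eq_top_of_finrank_eq h
  obtain ⟨j, hj⟩ := (T.V_eq_top_iff hO).1 hV
  have h1 : i ∈ T.at_ x := hx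
  rw [T.at_eq_singleton hj, mem_singleton_iff] at h1
  exact hn (h1 ▸ hj)

end gen

section vertex

variable {E : Type*} [NormedAddCommGroup E] [NormedSpace ℝ E] [FiniteDimensional ℝ E]
  {Om : Set E} {ι : Type} {T : Tiling Om ι} {i : ι}

/-- every point of the 1-skeleton of a tile lies on an edge of the tile -/
theorem edge_of_sk1 (h1 : 1 ≤ Module.finrank ℝ E) {x : E} (hx : x ∈ P (T.H i))
    (hd : T.dim x ≤ 1) : ∃ e ∈ eIn T i, x ∈ e.1 := by
  rcases Nat.eq_zero_or_pos (T.dim x) with h0 | h0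
  · obtain ⟨y, hy⟩ := T.ne i
    have hyO := T.sub i (I_sub_P _ hy)
    have hcc := T.cc_eq_tile hy
    have hdy : 1 ≤ T.dim y := by rw [dim_of_mem_I hy]; exact h1
    obtain ⟨e, he, hde, hxe⟩ := Mf_113.exists_edge_of_vertex h0 hyO (by rw [hcc]; exact hx) hdy
    rw [hcc] at he
    exact ⟨⟨T.cc e, e, T.sub i he, hde, rfl⟩, mem_eIn.2 (T.cc_sub_tile he), hxe⟩
  · exact ⟨⟨T.cc x, x, T.sub i hx, by omega, rfl⟩, mem_eIn.2 (T.cc_sub_tile hx), T.self_mem_cc x⟩

end vertex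

section core

variable {E : Type*} [NormedAddCommGroup E] [NormedSpace ℝ E] [FiniteDimensional ℝ E] {n : ℕ}
  {Om : Set E} {ι : Type*} {T : Tiling Om ι} {i : ι} {Q : CB E n}

/-- a point with a coordinate on a wall is a boundary point of the core -/
theorem CoreAt.not_mem (h : CoreAt T i Q) {x : E} (hx : x ∈ Q.Kc)
    (hw : ∃ l, uc Q x l = Q.S.lo l ∨ uc Q x l = Q.S.hi l) : x ∉ I (T.H i) := by
  intro hI
  have hd := dim_of_mem_I hI
  rw [h.dim x hx, LinearEquiv.finrank_eq Q.ψ.toLinearEquiv] at hd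
  have htop : dirS Q.S (uc Q x) = ⊤ := Submodule.eq_top_of_finrank_eq hd
  obtain ⟨l, hl⟩ := hw
  have hm : (Pi.single l 1 : Fin n → ℝ) ∈ dirS Q.S (uc Q x) := by rw [htop]; trivial
  have h1 := ((mem_dirS_box (mem_Kc.1 hx)).1 hm).1 l
  rcases hl with hl | hl
  · have := h1.2 hl
    simp at this
  · have := h1.1 hl
    simp at this

end core

section tr

variable {Om Om' : Set (Fin 3 → ℝ)} {ι ι' : Type} {T : Tiling Om ι} {T' : Tiling Om' ι'} {i : ι}
  {i' : ι'} {Q : CB (Fin 3 → ℝ) 3}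

/-- `CoreAt` depends only on the tile and its configuration -/
theorem CoreAt.congr_cfg (h : CoreAt T i Q) (hP : P (T'.H i') = P (T.H i))
    (hC : Cfg T' i' = Cfg T i) : CoreAt T' i' Q := by
  have hcc : ∀ x ∈ P (T.H i), T'.cc x = T.cc x := by
    intro x hx
    have hx' : x ∈ P (T'.H i') := hP ▸ hx
    have h1 : T'.cc x ∈ Cfg T i := hC ▸ ⟨x, hx', rfl⟩
    have h2 : T.cc x ∈ Cfg T' i' := hC.symm ▸ ⟨x, hx, rfl⟩
    obtain ⟨y, hy, e1⟩ := h1
    obtain ⟨z, hz, e2⟩ := h2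
    apply Subset.antisymm
    · have : x ∈ T'.cc z := by rw [← e2]; exact T.self_mem_cc x
      rw [e2]
      exact T'.cc_sub_of_mem this
    · have : x ∈ T.cc y := by rw [← e1]; exact T'.self_mem_cc x
      rw [e1]
      exact T.cc_sub_of_mem this
  exact h.congr hP hcc fun x hx =>
    Mfa_880.dim_eq_of_cc (T.sub i hx) (T'.sub i' (hP ▸ hx)) (hcc x hx)

/-- **transfer of the grid clause** from the tiling of the block to the translated core of the mesh -/
theorem CoreAt.grid_tr {v : Fin 3 → ℝ} (h : CoreAt T i (Q.tr v)) (h' : CoreAt T' i' Q)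
    {F : Set (Bx (Fin 3))} {A A0 : (Fin 3 → ℝ) ≃ᵃ[ℝ] (Fin 3 → ℝ)} {lam : ℝ} {z : Fin 3 → ℝ} {M : ℕ}
    (hA : ∀ y, A y = A0 (y - v))
    (hg : ∀ x ∈ Q.Kc, x ∉ I (T'.H i') →
      T'.cc x = {y | y ∈ Q.Kc ∧ ∀ a : F,
        (⌊M * sc (Pc F) (bc (F := F)) (th A0 lam z x) a⌋₊ : ℝ) ≤
          M * sc (Pc F) (bc (F := F)) (th A0 lam z y) a ∧
        M * sc (Pc F) (bc (F := F)) (th A0 lam z y) a ≤
          ⌈M * sc (Pc F) (bc (F := F)) (th A0 lam z x) a⌉₊} ∧
      T'.dim x = {a : F | ⌊M * sc (Pc F) (bc (F := F)) (th A0 lam z x) a⌋₊ <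
        ⌈M * sc (Pc F) (bc (F := F)) (th A0 lam z x) a⌉₊}.ncard) :
    ∀ x ∈ P (T.H i), x ∉ I (T.H i) →
      T.cc x = {y | y ∈ P (T.H i) ∧ ∀ a : F,
        (⌊M * sc (Pc F) (bc (F := F)) (th A lam z x) a⌋₊ : ℝ) ≤
          M * sc (Pc F) (bc (F := F)) (th A lam z y) a ∧
        M * sc (Pc F) (bc (F := F)) (th A lam z y) a ≤
          ⌈M * sc (Pc F) (bc (F := F)) (th A lam z x) a⌉₊} ∧
      T.dim x = {a : F | ⌊M * sc (Pc F) (bc (F := F)) (th A lam z x) a⌋₊ <
        ⌈M * sc (Pc F) (bc (F := F)) (th A lam z x) a⌉₊}.ncard := by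
  intro x hx hn
  have hth : ∀ y, th A lam z y = th A0 lam z (y - v) := fun y => by
    unfold th
    rw [hA]
  have hxK : x ∈ (Q.tr v).Kc := h.tile ▸ hx
  have hxK' : x - v ∈ Q.Kc := (Q.mem_Kc_tr v x).1 hxK
  have hw : ∃ l, uc Q (x - v) l = Q.S.lo l ∨ uc Q (x - v) l = Q.S.hi l := by
    obtain ⟨l, hl⟩ := h.wall hx hn
    rw [uc_tr] at hl
    exact ⟨l, hl⟩
  obtain ⟨g1, g2⟩ := hg (x - v) hxK' (h'.not_mem hxK' hw)
  refine ⟨?_, ?_⟩
  · have e1 : T.cc x = {y | y - v ∈ T'.cc (x - v)} := by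
      rw [h.cc _ hxK, h'.cc _ hxK']
      ext y
      show uc (Q.tr v) y ∈ cell (Q.tr v).S (uc (Q.tr v) x) ↔
        uc Q (y - v) ∈ cell Q.S (uc Q (x - v))
      rw [uc_tr, uc_tr]
      exact Iff.rfl
    rw [e1, g1]
    ext y
    simp only [mem_ofPred_eq, h.tile, hth]
    rw [Q.mem_Kc_tr v y]
  · have e2 : T.dim x = T'.dim (x - v) := by
      rw [h.dim _ hxK, h'.dim _ hxK', uc_tr]
      rfl
    rw [e2, g2]
    simp only [hth]

end tr

end Crest.Agent.R096.Wd_120
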