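import Crest.Agent.R096.Rel2_628

/-!
Row 96, exact cores (helper120), part 1: `T` is additive on comonotone vectors; the coordinates `sc`
along a direction parallel to an edge of the M-mesh.
-/

set_option autoImplicit false
set_option linter.unusedSectionVars false

open Set Filter Topology

namespace Crest.Agent.R096.Wd_120

open Crest.Agent.R096.Brk1_582 Crest.Agent.R096.Rel_628

variable {I : Type*}

/-- comonotone vectors -/
def Com (u v : I → ℝ) : Prop := ∀ a b, u a < u b → v a ≤ v b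

theorem Com.symm {u v : I → ℝ} (h : Com u v) : Com v u := by
  intro a b hab
  by_contra hcon
  push Not at hcon
  exact absurd (h b a hcon) (not_le.2 hab)

theorem Com.exists_max {u v : I → ℝ} (h : Com u v) {A : Finset I} (hA : A.Nonempty) :
    ∃ c ∈ A, ∀ a ∈ A, u a ≤ u c ∧ v a ≤ v c := by
  obtain ⟨c, hc, hmax⟩ := Finset.exists_max_image A (fun a => u a + v a) hA
  refine ⟨c, hc, fun a ha => ?_⟩
  have h1 := hmax a ha
  constructor
  · by_contra hcon
    push Not at hcon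
    have := h c a hcon
    linarith
  · by_contra hcon
    push Not at hcon
    have := h.symm c a hcon
    linarith

theorem Com.exists_min {u v : I → ℝ} (h : Com u v) {A : Finset I} (hA : A.Nonempty) :
    ∃ c ∈ A, ∀ a ∈ A, u c ≤ u a ∧ v c ≤ v a := by
  obtain ⟨c, hc, hmax⟩ := Finset.exists_min_image A (fun a => u a + v a) hA
  refine ⟨c, hc, fun a ha => ?_⟩
  have h1 := hmax a ha
  constructor
  · by_contra hcon
    push Not at hcon
    have := h a c hcon
    linarith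
  · by_contra hcon
    push Not at hcon
    have := h.symm a c hcon
    linarith

theorem fold_max_eq {u : I → ℝ} {A : Finset I} {c : I} (hc : c ∈ A) (hm : ∀ a ∈ A, u a ≤ u c)
    (h0 : 0 ≤ u c) : A.fold max 0 u = u c := by
  classical
  apply le_antisymm
  · rw [Finset.fold_max_le]
    exact ⟨h0, hm⟩
  · rw [Finset.le_fold_max]
    exact Or.inr ⟨c, hc, le_rfl⟩

theorem fold_min_eq {u : I → ℝ} {A : Finset I} {c : I} (hc : c ∈ A) (hm : ∀ a ∈ A, u c ≤ u a)
    (h1 : u c ≤ 1) : A.fold min 1 u = u c := by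
  classical
  apply le_antisymm
  · rw [Finset.fold_min_le]
    exact Or.inr ⟨c, hc, le_rfl⟩
  · rw [Finset.le_fold_min]
    exact ⟨h1, hm⟩

/-- `fold max` on a comonotone convex combination -/
theorem Com.fold_max {u v : I → ℝ} (h : Com u v) (hu : ∀ c, 0 ≤ u c) (hv : ∀ c, 0 ≤ v c)
    (A : Finset I) : ∃ p q : ℝ, A.fold max 0 u = p ∧ A.fold max 0 v = q ∧
      (∀ l ∈ Icc (0 : ℝ) 1, A.fold max 0 (fun c => (1 - l) * u c + l * v c) = (1 - l) * p + l * q) ∧
      ((p = 0 ∧ q = 0) ∨ ∃ c ∈ A, u c = p ∧ v c = q) := by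
  rcases A.eq_empty_or_nonempty with rfl | hA
  · exact ⟨0, 0, by simp, by simp, fun l _ => by simp, Or.inl ⟨rfl, rfl⟩⟩
  · obtain ⟨c, hc, hm⟩ := h.exists_max hA
    refine ⟨u c, v c, fold_max_eq hc (fun a ha => (hm a ha).1) (hu c),
      fold_max_eq hc (fun a ha => (hm a ha).2) (hv c), fun l hl => ?_, Or.inr ⟨c, hc, rfl, rfl⟩⟩
    have h1 := hl.1
    have h2 : 0 ≤ 1 - l := by linarith [hl.2]
    refine fold_max_eq (u := fun c => (1 - l) * u c + l * v c) hc (fun a ha => ?_) ?_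
    · exact add_le_add (mul_le_mul_of_nonneg_left (hm a ha).1 h2)
        (mul_le_mul_of_nonneg_left (hm a ha).2 h1)
    · exact add_nonneg (mul_nonneg h2 (hu c)) (mul_nonneg h1 (hv c))

theorem Com.fold_min {u v : I → ℝ} (h : Com u v) (hu : ∀ c, u c ≤ 1) (hv : ∀ c, v c ≤ 1)
    (A : Finset I) : ∃ p q : ℝ, A.fold min 1 u = p ∧ A.fold min 1 v = q ∧
      (∀ l ∈ Icc (0 : ℝ) 1, A.fold min 1 (fun c => (1 - l) * u c + l * v c) = (1 - l) * p + l * q) ∧
      ((p = 1 ∧ q = 1) ∨ ∃ c ∈ A, u c = p ∧ v c = q) := by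
  rcases A.eq_empty_or_nonempty with rfl | hA
  · exact ⟨1, 1, by simp, by simp, fun l _ => by simp, Or.inl ⟨rfl, rfl⟩⟩
  · obtain ⟨c, hc, hm⟩ := h.exists_min hA
    refine ⟨u c, v c, fold_min_eq hc (fun a ha => (hm a ha).1) (hu c),
      fold_min_eq hc (fun a ha => (hm a ha).2) (hv c), fun l hl => ?_, Or.inr ⟨c, hc, rfl, rfl⟩⟩
    have h1 := hl.1
    have h2 : 0 ≤ 1 - l := by linarith [hl.2]
    refine fold_min_eq (u := fun c => (1 - l) * u c + l * v c) hc (fun a ha => ?_) ?_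
    · exact add_le_add (mul_le_mul_of_nonneg_left (hm a ha).1 h2)
        (mul_le_mul_of_nonneg_left (hm a ha).2 h1)
    · have := mul_le_mul_of_nonneg_left (hu c) h2
      have := mul_le_mul_of_nonneg_left (hv c) h1
      linarith

section T

variable {E : Type*} [NormedAddCommGroup E] [NormedSpace ℝ E] [CompleteSpace E]

/-- **`T` is affine on segments between comonotone vectors** -/
theorem T_comb (b : Set I → E) {u v : I → ℝ} (h : Com u v) (hu : ∀ c, u c ∈ Icc (0 : ℝ) 1)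
    (hv : ∀ c, v c ∈ Icc (0 : ℝ) 1) (C : Finset I) (hC : ∀ c, c ∉ C → u c = 1 ∧ v c = 1) {l : ℝ}
    (hl : l ∈ Icc (0 : ℝ) 1) :
    T b (fun c => (1 - l) * u c + l * v c) = (1 - l) • T b u + l • T b v := by
  classical
  have h1 := hl.1
  have h2 : 0 ≤ 1 - l := by linarith [hl.2]
  have hw : ∀ c, (fun c => (1 - l) * u c + l * v c) c ∈ Icc (0 : ℝ) 1 := by
    intro c
    refine ⟨add_nonneg (mul_nonneg h2 (hu c).1) (mul_nonneg h1 (hv c).1), ?_⟩
    have := mul_le_mul_of_nonneg_left (hu c).2 h2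
    have := mul_le_mul_of_nonneg_left (hv c).2 h1
    simp only
    linarith
  rw [T_eq_sum b hw C (fun c hc => by
      have := hC c hc
      simp only [this.1, this.2]; ring), T_eq_sum b hu C (fun c hc => (hC c hc).1),
    T_eq_sum b hv C (fun c hc => (hC c hc).2), Finset.smul_sum, Finset.smul_sum,
    ← Finset.sum_add_distrib]
  refine Finset.sum_congr rfl fun A _ => ?_
  rw [smul_smul, smul_smul, ← add_smul]
  congr 1
  obtain ⟨p, q, e1, e2, e3, e4⟩ := h.fold_max (fun c => (hu c).1) (fun c => (hv c).1) A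
  obtain ⟨p', q', e1', e2', e3', e4'⟩ := h.fold_min (fun c => (hu c).2) (fun c => (hv c).2) (C \ A)
  rw [e3 l hl, e3' l hl, e1, e2, e1', e2']
  have hp : 0 ≤ p ∧ p ≤ 1 ∧ 0 ≤ q ∧ q ≤ 1 := by
    rcases e4 with ⟨rfl, rfl⟩ | ⟨c, -, rfl, rfl⟩
    · norm_num
    · exact ⟨(hu c).1, (hu c).2, (hv c).1, (hv c).2⟩
  have hp' : 0 ≤ p' ∧ p' ≤ 1 ∧ 0 ≤ q' ∧ q' ≤ 1 := by
    rcases e4' with ⟨rfl, rfl⟩ | ⟨c, -, rfl, rfl⟩
    · norm_num
    · exact ⟨(hu c).1, (hu c).2, (hv c).1, (hv c).2⟩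
  have hs : (p ≤ p' ∧ q ≤ q') ∨ (p' ≤ p ∧ q' ≤ q) := by
    rcases e4 with ⟨rfl, rfl⟩ | ⟨c, -, rfl, rfl⟩
    · exact Or.inl ⟨hp'.1, hp'.2.2.1⟩
    · rcases e4' with ⟨rfl, rfl⟩ | ⟨c', -, rfl, rfl⟩
      · exact Or.inl ⟨hp.2.1, hp.2.2.2⟩
      · rcases lt_trichotomy (u c) (u c') with h3 | h3 | h3
        · exact Or.inl ⟨h3.le, h _ _ h3⟩
        · rcases le_total (v c) (v c') with h4 | h4
          · exact Or.inl ⟨h3.le, h4⟩
          · exact Or.inr ⟨h3.ge, h4⟩
        · exact Or.inr ⟨h3.le, h _ _ h3⟩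
  rcases hs with ⟨a1, a2⟩ | ⟨a1, a2⟩
  · have b1 := mul_le_mul_of_nonneg_left a1 h2
    have b2 := mul_le_mul_of_nonneg_left a2 h1
    have c1 : (0 : ℝ) ≤ p' - p := by linarith
    have c2 : (0 : ℝ) ≤ q' - q := by linarith
    have c3 : (0 : ℝ) ≤ (1 - l) * p' + l * q' - ((1 - l) * p + l * q) := by linarith
    rw [max_eq_left c1, max_eq_left c2, max_eq_left c3]
    ring
  · have b1 := mul_le_mul_of_nonneg_left a1 h2
    have b2 := mul_le_mul_of_nonneg_left a2 h1
    have c1 : p' - p ≤ 0 := by linarith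
    have c2 : q' - q ≤ 0 := by linarith
    have c3 : (1 - l) * p' + l * q' - ((1 - l) * p + l * q) ≤ 0 := by linarith
    rw [max_eq_right c1, max_eq_right c2, max_eq_right c3]
    ring

/-- **increments of `T`** -/
theorem T_incr (b : Set I → E) {u0 u1 v v' : I → ℝ} {τ : ℝ} (hτ : 0 ≤ τ)
    (he : ∀ c, v' c + τ * u0 c = v c + τ * u1 c) (h0 : Com v' u0) (h1 : Com v u1)
    (hu0 : ∀ c, u0 c ∈ Icc (0 : ℝ) 1) (hu1 : ∀ c, u1 c ∈ Icc (0 : ℝ) 1)
    (hv : ∀ c, v c ∈ Icc (0 : ℝ) 1) (hv' : ∀ c, v' c ∈ Icc (0 : ℝ) 1)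
    (C : Finset I) (hC : ∀ c, c ∉ C → u0 c = 1 ∧ u1 c = 1 ∧ v c = 1 ∧ v' c = 1) :
    T b v' - T b v = τ • (T b u1 - T b u0) := by
  have hpos : 0 < 1 + τ := by linarith
  set l : ℝ := τ / (1 + τ) with hl
  have hl0 : 0 ≤ l := by positivity
  have hl1 : l ≤ 1 := by rw [hl, div_le_one hpos]; linarith
  have e1 : 1 - l = 1 / (1 + τ) := by rw [hl]; field_simp; ring
  have E0 := T_comb b h0 hv' hu0 C (fun c hc => ⟨(hC c hc).2.2.2, (hC c hc).1⟩) ⟨hl0, hl1⟩
  have E1 := T_comb b h1 hv hu1 C (fun c hc => ⟨(hC c hc).2.2.1, (hC c hc).2.1⟩) ⟨hl0, hl1⟩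
  have e2 : (fun c => (1 - l) * v' c + l * u0 c) = fun c => (1 - l) * v c + l * u1 c := by
    funext c
    have := he c
    rw [e1, hl]
    field_simp
    linarith
  rw [e2, E1] at E0
  have e3 : (1 - l) • (T b v' - T b v) = l • (T b u1 - T b u0) := by
    rw [smul_sub, smul_sub]
    have e4 : (1 - l) • T b v' = (1 - l) • T b v + l • T b u1 - l • T b u0 := by
      rw [E0]; abel
    rw [e4]; abel
  rw [e1, hl] at e3
  have e5 : (1 + τ) • ((1 / (1 + τ)) • (T b v' - T b v)) =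
      (1 + τ) • ((τ / (1 + τ)) • (T b u1 - T b u0)) := by rw [e3]
  rw [smul_smul, smul_smul, mul_one_div_cancel hpos.ne', one_smul, mul_div_cancel₀ _ hpos.ne'] at e5
  exact e5

end T

/-! ### the coordinates in a direction parallel to an edge -/

section shift

variable {E : Type*} [NormedAddCommGroup E] [NormedSpace ℝ E] {La : Set E} {P : I → Set E}
  {b : Set I → E} {N : ℕ}

/-- **the ends of an edge of the mesh of the boundary of the cell `c0`, in coordinates**: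
comonotone, and different values differ at least by `m`. -/
structure EdgeK (P : I → Set E) (c0 : I) (m : ℝ) (u0 u1 : I → ℝ) : Prop where
  m0 : 0 < m
  K0 : u0 ∈ K P
  K1 : u1 ∈ K P
  z0 : u0 c0 = 0
  z1 : u1 c0 = 0
  com : Com u0 u1
  gap0 : ∀ a b, u0 a < u0 b → u0 a + m ≤ u0 b
  gap1 : ∀ a b, u1 a < u1 b → u1 a + m ≤ u1 b
  one0 : ∀ a, u0 a < 1 → u0 a + m ≤ 1
  one1 : ∀ a, u1 a < 1 → u1 a + m ≤ 1

namespace EdgeK

variable {c0 : I} {m : ℝ} {u0 u1 : I → ℝ} (h : EdgeK P c0 m u0 u1)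
include h

/-- strict inequalities of the ends persist near the middle of the edge -/
theorem lt_of {θ η s : ℝ} (hs0 : θ ≤ s) (hs1 : s ≤ 1 - θ) (hθ : 0 < θ) (hη : 2 * η < θ * m)
    {v : I → ℝ} (hv : ∀ a, |v a - ((1 - s) * u0 a + s * u1 a)| ≤ η) {a b : I}
    (hab : u0 a < u0 b ∨ u1 a < u1 b) : v a < v b := by
  have h1 := abs_le.1 (hv a)
  have h2 := abs_le.1 (hv b)
  have hs : 0 < s := by linarith
  have hs' : 0 < 1 - s := by linarith
  have hm := h.m0
  have key : θ * m ≤ (1 - s) * (u0 b - u0 a) + s * (u1 b - u1 a) := by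
    rcases hab with hab | hab
    · have e1 := h.gap0 a b hab
      have e2 := h.com a b hab
      have e3 : (1 - s) * m ≤ (1 - s) * (u0 b - u0 a) := mul_le_mul_of_nonneg_left (by linarith) hs'.le
      have e4 : 0 ≤ s * (u1 b - u1 a) := mul_nonneg hs.le (by linarith)
      have e5 : θ * m ≤ (1 - s) * m := mul_le_mul_of_nonneg_right (by linarith) hm.le
      linarith
    · have e1 := h.gap1 a b hab
      have e2 := h.com.symm a b hab
      have e3 : s * m ≤ s * (u1 b - u1 a) := mul_le_mul_of_nonneg_left (by linarith) hs.le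
      have e4 : 0 ≤ (1 - s) * (u0 b - u0 a) := mul_nonneg hs'.le (by linarith)
      have e5 : θ * m ≤ s * m := mul_le_mul_of_nonneg_right hs0 hm.le
      linarith
  nlinarith [h1.1, h1.2, h2.1, h2.2]

theorem lt_one_of {θ η s : ℝ} (hs0 : θ ≤ s) (hs1 : s ≤ 1 - θ) (hθ : 0 < θ) (hη : 2 * η < θ * m)
    {v : I → ℝ} (hv : ∀ a, |v a - ((1 - s) * u0 a + s * u1 a)| ≤ η) {a : I}
    (hab : u0 a < 1 ∨ u1 a < 1) : v a < 1 := by
  have h1 := abs_le.1 (hv a)
  have hη0 : 0 ≤ η := (abs_nonneg _).trans (hv a)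
  have hs : 0 < s := by linarith
  have hs' : 0 < 1 - s := by linarith
  have hm := h.m0
  have b0 := (h.K0.1 a).2
  have b1 := (h.K1.1 a).2
  have key : θ * m ≤ (1 - s) * (1 - u0 a) + s * (1 - u1 a) := by
    rcases hab with hab | hab
    · have e1 := h.one0 a hab
      have e3 : (1 - s) * m ≤ (1 - s) * (1 - u0 a) := mul_le_mul_of_nonneg_left (by linarith) hs'.le
      have e4 : 0 ≤ s * (1 - u1 a) := mul_nonneg hs.le (by linarith)
      have e5 : θ * m ≤ (1 - s) * m := mul_le_mul_of_nonneg_right (by linarith) hm.le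
      linarith
    · have e1 := h.one1 a hab
      have e3 : s * m ≤ s * (1 - u1 a) := mul_le_mul_of_nonneg_left (by linarith) hs.le
      have e4 : 0 ≤ (1 - s) * (1 - u0 a) := mul_nonneg hs'.le (by linarith)
      have e5 : θ * m ≤ s * m := mul_le_mul_of_nonneg_right hs0 hm.le
      linarith
  nlinarith [h1.1, h1.2]

/-- **shift parallel to the edge** -/
theorem shift [CompleteSpace E] (F : Foam La P b N) {θ η t τ : ℝ} (ht0 : θ ≤ t) (hθ : 0 < θ)
    (hη : 2 * η < θ * m) (hτ : 0 ≤ τ) (htτ : t + τ ≤ 1 - θ) {v : I → ℝ} (hvK : v ∈ K P)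
    (hv0 : v c0 = 0) (hv : ∀ a, |v a - ((1 - t) * u0 a + t * u1 a)| ≤ η) :
    (fun a => v a + τ * (u1 a - u0 a)) ∈ K P ∧
      T b (fun a => v a + τ * (u1 a - u0 a)) = T b v + τ • (T b u1 - T b u0) := by
  set v' : I → ℝ := fun a => v a + τ * (u1 a - u0 a) with hv'def
  have ht1 : t ≤ 1 - θ := by linarith
  have hv' : ∀ a, |v' a - ((1 - (t + τ)) * u0 a + (t + τ) * u1 a)| ≤ η := by
    intro a
    have e : v' a - ((1 - (t + τ)) * u0 a + (t + τ) * u1 a) = v a - ((1 - t) * u0 a + t * u1 a) := by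
      simp only [hv'def]; ring
    rw [e]; exact hv a
  have L1 : ∀ {a b : I}, (u0 a < u0 b ∨ u1 a < u1 b) → v a < v b := fun hab =>
    h.lt_of ht0 ht1 hθ hη hv hab
  have L2 : ∀ {a b : I}, (u0 a < u0 b ∨ u1 a < u1 b) → v' a < v' b := fun hab =>
    h.lt_of (by linarith) htτ hθ hη hv' hab
  have M1 : ∀ {a : I}, (u0 a < 1 ∨ u1 a < 1) → v a < 1 := fun hab =>
    h.lt_one_of ht0 ht1 hθ hη hv hab
  have M2 : ∀ {a : I}, (u0 a < 1 ∨ u1 a < 1) → v' a < 1 := fun hab =>
    h.lt_one_of (by linarith) htτ hθ hη hv' hab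
  have hv'0 : v' c0 = 0 := by simp [hv'def, hv0, h.z0, h.z1]
  have hb : ∀ a, v' a ∈ Icc (0 : ℝ) 1 := by
    intro a
    constructor
    · by_cases h1 : u0 c0 < u0 a ∨ u1 c0 < u1 a
      · have := L2 h1
        rw [hv'0] at this
        exact this.le
      · push Not at h1
        rw [h.z0, h.z1] at h1
        have e0 := le_antisymm h1.1 (h.K0.1 a).1
        have e1 := le_antisymm h1.2 (h.K1.1 a).1
        simp only [hv'def, e0, e1]
        have := (hvK.1 a).1
        linarith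
    · by_cases h1 : u0 a < 1 ∨ u1 a < 1
      · exact (M2 h1).le
      · push Not at h1
        have e0 := le_antisymm (h.K0.1 a).2 h1.1
        have e1 := le_antisymm (h.K1.1 a).2 h1.2
        simp only [hv'def, e0, e1]
        have := (hvK.1 a).2
        linarith
  have hsub : {c | v' c < 1} ⊆ {c | v c < 1} := by
    intro a ha
    by_cases h1 : u0 a < 1 ∨ u1 a < 1
    · exact M1 h1
    · push Not at h1
      have e0 := le_antisymm (h.K0.1 a).2 h1.1
      have e1 := le_antisymm (h.K1.1 a).2 h1.2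
      have ha' : v' a < 1 := ha
      simp only [hv'def, e0, e1] at ha'
      have : v a < 1 := by linarith
      exact this
  have hK' : v' ∈ K P := ⟨fun a => hb a, ⟨c0, hv'0⟩, hvK.2.2.mono (fc_anti hsub)⟩
  refine ⟨hK', ?_⟩
  have hfin : ({c | v c < 1} ∪ ({c | u0 c < 1} ∪ {c | u1 c < 1})).Finite :=
    (F.K_finite hvK).union ((F.K_finite h.K0).union (F.K_finite h.K1))
  have hz : ∀ {w : I → ℝ}, w ∈ K P → ∀ a, ¬ w a < 1 → w a = 1 := fun hw a ha =>
    le_antisymm (hw.1 a).2 (not_lt.1 ha)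
  have key := T_incr b (u0 := u0) (u1 := u1) (v := v) (v' := v') hτ
    (fun a => by simp only [hv'def]; ring)
    (fun a b' hab => by
      by_contra hcon
      push Not at hcon
      exact absurd (L2 (Or.inl hcon)) (not_lt.2 hab.le))
    (fun a b' hab => by
      by_contra hcon
      push Not at hcon
      exact absurd (L1 (Or.inr hcon)) (not_lt.2 hab.le))
    (fun a => h.K0.1 a) (fun a => h.K1.1 a) (fun a => hvK.1 a) hb hfin.toFinset
    (fun a ha => by
      rw [Set.Finite.mem_toFinset] at ha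
      simp only [mem_union, mem_ofPred_eq, not_or] at ha
      exact ⟨hz h.K0 a ha.2.1, hz h.K1 a ha.2.2, hz hvK a ha.1,
        hz hK' a fun hh => ha.1 (hsub hh)⟩)
  rw [← key]; abel

/-- **the coordinates along a direction parallel to the edge** -/
theorem sc_shift [CompleteSpace E] (F : Foam La P b N) {θ η t τ : ℝ} (ht0 : θ ≤ t) (hθ : 0 < θ)
    (hη : 2 * η < θ * m) (hτ : 0 ≤ τ) (htτ : t + τ ≤ 1 - θ) {y : E} (hy : y ∈ P c0)
    (hv : ∀ a, |sc P b y a - ((1 - t) * u0 a + t * u1 a)| ≤ η) :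
    y + τ • (T b u1 - T b u0) ∈ P c0 ∧
      ∀ a, sc P b (y + τ • (T b u1 - T b u0)) a = sc P b y a + τ * (u1 a - u0 a) := by
  have hyL := F.sub c0 hy
  obtain ⟨h1, h2⟩ := h.shift F ht0 hθ hη hτ htτ (F.sc_mem_K hyL) ((F.sc_eq_zero hyL).2 hy) hv
  rw [F.T_sc hyL] at h2
  have h3 := F.sc_T h1
  rw [h2] at h3
  refine ⟨?_, fun a => by rw [h3]⟩
  have h4 : y + τ • (T b u1 - T b u0) ∈ La := by rw [← h2]; exact F.T_mem_La h1
  rw [← F.sc_eq_zero h4, h3]
  simp only
  rw [(F.sc_eq_zero hyL).2 hy, h.z0, h.z1]; ring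

end EdgeK

end shift

end Crest.Agent.R096.Wd_120
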