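import Crest.Agent.R096.Wd1_120
import Crest.Agent.R096.Brk5_582
import Crest.Agent.R096.Bxs1_627

/-!
Row 96, exact cores (helper120), part 2: radial projection of a brick from its centre; increments
parallel to an edge of a homothetic box.
-/

set_option autoImplicit false
set_option linter.unusedSectionVars false

open Set Filter Topology Metric

namespace Crest.Agent.R096.Wd_120

open Crest.Agent.R096.Bsp_628 Crest.Agent.R096.Bxs_627

variable {κ : Type*} [Fintype κ] [Nonempty κ]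

/-- normalised coordinates of a box, in `[-1,1]` -/
noncomputable def nc (Q : Bx κ) (y : κ → ℝ) : κ → ℝ := fun k => 2 * (y k - ctr Q k) / Q.side k

/-- the gauge of the box with respect to its centre -/
noncomputable def mu (Q : Bx κ) (y : κ → ℝ) : ℝ := ‖nc Q y‖

/-- radial projection to the boundary -/
noncomputable def rp (Q : Bx κ) (y : κ → ℝ) : κ → ℝ := fun k => ctr Q k + (y k - ctr Q k) / mu Q y

variable {Q : Bx κ} (hQ : Q.Pos)

theorem mu_nonneg (Q : Bx κ) (y : κ → ℝ) : 0 ≤ mu Q y := norm_nonneg _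

include hQ

theorem mu_le_iff {y : κ → ℝ} {r : ℝ} (hr : 0 ≤ r) :
    mu Q y ≤ r ↔ ∀ k, |y k - ctr Q k| ≤ r * Q.side k / 2 := by
  unfold mu
  rw [pi_norm_le_iff_of_nonneg hr]
  refine forall_congr' fun k => ?_
  have hs := Bx.side_pos hQ k
  rw [Real.norm_eq_abs, nc, abs_div, abs_mul, abs_of_pos hs, abs_of_pos (by norm_num : (0:ℝ) < 2),
    div_le_iff₀ hs]
  constructor <;> intro h <;> linarith

theorem abs_sub_ctr_le (y : κ → ℝ) (k : κ) : |y k - ctr Q k| ≤ mu Q y * Q.side k / 2 :=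
  (mu_le_iff hQ (mu_nonneg Q y)).1 le_rfl k

theorem norm_sub_ctr_le (y : κ → ℝ) : ‖y - ctr Q‖ ≤ mu Q y * Q.sz / 2 := by
  have h0 := mu_nonneg Q y
  have hs := Bx.sz_pos hQ
  rw [pi_norm_le_iff_of_nonneg (by positivity)]
  intro k
  rw [Pi.sub_apply, Real.norm_eq_abs]
  refine (abs_sub_ctr_le hQ y k).trans ?_
  have := mul_le_mul_of_nonneg_left (Q.side_le_sz k) h0
  linarith

omit hQ in
theorem nc_sub (y y' : κ → ℝ) (k : κ) : nc Q y k - nc Q y' k = 2 * (y k - y' k) / Q.side k := by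
  unfold nc; ring

theorem abs_nc_sub_le {κ0 : ℝ} (hasp : ∀ i, Q.sz ≤ κ0 * Q.side i) (y y' : κ → ℝ) (k : κ) :
    |nc Q y k - nc Q y' k| ≤ 2 * κ0 / Q.sz * ‖y - y'‖ := by
  have hs := Bx.side_pos hQ k
  have hsz := Bx.sz_pos hQ
  rw [nc_sub, abs_div, abs_mul, abs_of_pos hs, abs_of_pos (by norm_num : (0:ℝ) < 2),
    div_le_iff₀ hs]
  have h1 := norm_le_pi_norm (y - y') k
  rw [Pi.sub_apply, Real.norm_eq_abs] at h1
  have h2 := hasp k
  have h3 : 1 ≤ κ0 * Q.side k / Q.sz := by rw [le_div_iff₀ hsz]; linarith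
  have h4 : 2 * κ0 / Q.sz * ‖y - y'‖ * Q.side k = 2 * ‖y - y'‖ * (κ0 * Q.side k / Q.sz) := by ring
  rw [h4]
  have h5 : 2 * |y k - y' k| ≤ 2 * ‖y - y'‖ := by linarith
  refine h5.trans ?_
  have h6 : 0 ≤ 2 * ‖y - y'‖ := by positivity
  nlinarith

theorem mu_lip {κ0 : ℝ} (hasp : ∀ i, Q.sz ≤ κ0 * Q.side i) (y y' : κ → ℝ) :
    |mu Q y - mu Q y'| ≤ 2 * κ0 / Q.sz * ‖y - y'‖ := by
  unfold mu
  refine (abs_norm_sub_norm_le _ _).trans ?_
  have hsz := Bx.sz_pos hQ
  have hκ : 0 ≤ κ0 := by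
    obtain ⟨i⟩ := ‹Nonempty κ›
    have h1 := hasp i
    have h2 := Bx.side_pos hQ i
    by_contra hc
    push Not at hc
    nlinarith
  rw [pi_norm_le_iff_of_nonneg (by positivity)]
  intro k
  rw [Pi.sub_apply, Real.norm_eq_abs]
  exact abs_nc_sub_le hQ hasp y y' k

omit hQ in
theorem κ0_nonneg {κ0 : ℝ} (hQ : Q.Pos) (hasp : ∀ i, Q.sz ≤ κ0 * Q.side i) : 0 ≤ κ0 := by
  obtain ⟨i⟩ := ‹Nonempty κ›
  have h1 := hasp i
  have h2 := Bx.side_pos hQ i
  have hsz := Bx.sz_pos hQ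
  by_contra hc
  push Not at hc
  nlinarith

omit hQ in
theorem ctr_sub_lo (Q : Bx κ) (k : κ) : ctr Q k - Q.side k / 2 = Q.lo k := by
  unfold ctr Bx.side; ring

omit hQ in
theorem ctr_add_hi (Q : Bx κ) (k : κ) : ctr Q k + Q.side k / 2 = Q.hi k := by
  unfold ctr Bx.side; ring

theorem mem_set_iff {y : κ → ℝ} : y ∈ Q.set ↔ mu Q y ≤ 1 := by
  rw [Bx.mem_set, mu_le_iff hQ zero_le_one]
  refine forall_congr' fun k => ?_
  rw [abs_le]
  have h1 := ctr_sub_lo Q k
  have h2 := ctr_add_hi Q k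
  constructor <;> rintro ⟨a, b⟩ <;> constructor <;> linarith

theorem mu_rp {y : κ → ℝ} (hy : 0 < mu Q y) : mu Q (rp Q y) = 1 := by
  have e : nc Q (rp Q y) = (mu Q y)⁻¹ • nc Q y := by
    funext k
    have hs := (Bx.side_pos hQ k).ne'
    simp only [nc, rp, Pi.smul_apply, smul_eq_mul]
    field_simp
    ring
  unfold mu at hy ⊢
  rw [show nc Q (rp Q y) = (‖nc Q y‖)⁻¹ • nc Q y from e, norm_smul, norm_inv, norm_norm,
    inv_mul_cancel₀ hy.ne']

theorem rp_mem {y : κ → ℝ} (hy : 0 < mu Q y) : rp Q y ∈ Q.set :=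
  (mem_set_iff hQ).2 (mu_rp hQ hy).le

/-- Lipschitz constant of the radial projection -/
theorem rp_lip {κ0 : ℝ} (hasp : ∀ i, Q.sz ≤ κ0 * Q.side i) {r : ℝ} (hr : 0 < r) {y y' : κ → ℝ}
    (hy : r ≤ mu Q y) (hy' : r ≤ mu Q y') :
    ‖rp Q y - rp Q y'‖ ≤ (1 + κ0) / r * ‖y - y'‖ := by
  have hsz := Bx.sz_pos hQ
  have hκ := κ0_nonneg hQ hasp
  have hm : 0 < mu Q y := hr.trans_le hy
  have hm' : 0 < mu Q y' := hr.trans_le hy'
  have e : rp Q y - rp Q y' = (1 / mu Q y) • (y - y') +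
      ((mu Q y' - mu Q y) / (mu Q y * mu Q y')) • (y' - ctr Q) := by
    funext k
    simp only [rp, Pi.sub_apply, Pi.add_apply, Pi.smul_apply, smul_eq_mul]
    field_simp
    ring
  rw [e]
  refine (norm_add_le _ _).trans ?_
  rw [norm_smul, norm_smul, Real.norm_eq_abs, Real.norm_eq_abs, abs_div, abs_div, abs_one,
    abs_of_pos hm, abs_of_pos (mul_pos hm hm')]
  have h1 := mu_lip hQ hasp y y'
  rw [abs_sub_comm] at h1
  have h2 := norm_sub_ctr_le hQ y'
  have h3 : 1 / mu Q y * ‖y - y'‖ ≤ 1 / r * ‖y - y'‖ :=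
    mul_le_mul_of_nonneg_right (one_div_le_one_div_of_le hr hy) (norm_nonneg _)
  have h4 : |mu Q y' - mu Q y| / (mu Q y * mu Q y') * ‖y' - ctr Q‖ ≤
      (2 * κ0 / Q.sz * ‖y - y'‖) / (mu Q y * mu Q y') * (mu Q y' * Q.sz / 2) := by
    refine mul_le_mul ?_ h2 (norm_nonneg _) (by positivity)
    exact div_le_div_of_nonneg_right h1 (by positivity)
  have h5 : (2 * κ0 / Q.sz * ‖y - y'‖) / (mu Q y * mu Q y') * (mu Q y' * Q.sz / 2) =
      κ0 * ‖y - y'‖ * (1 / mu Q y) := by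
    field_simp
  have h6 : κ0 * ‖y - y'‖ * (1 / mu Q y) ≤ κ0 * ‖y - y'‖ * (1 / r) :=
    mul_le_mul_of_nonneg_left (one_div_le_one_div_of_le hr hy) (by positivity)
  calc 1 / mu Q y * ‖y - y'‖ + |mu Q y' - mu Q y| / (mu Q y * mu Q y') * ‖y' - ctr Q‖
      ≤ 1 / r * ‖y - y'‖ + κ0 * ‖y - y'‖ * (1 / r) := by
        rw [h5] at h4; linarith
    _ = (1 + κ0) / r * ‖y - y'‖ := by ring

/-- increments of the radial projection on a level set of the gauge -/
theorem rp_sub {y y' : κ → ℝ} (h : mu Q y' = mu Q y) :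
    rp Q y' = rp Q y + (1 / mu Q y) • (y' - y) := by
  funext k
  simp only [rp, Pi.sub_apply, Pi.add_apply, Pi.smul_apply, smul_eq_mul, h]
  ring

/-- **an edge `[y0, y1]` of the boundary of the homothetic box `mu = lam`**; `mg` = margin of the
normalised coordinates of the ends. -/
structure EdgeB (Q : Bx κ) (lam mg : ℝ) (y0 y1 : κ → ℝ) : Prop where
  lam0 : 0 < lam
  mg0 : 0 < mg
  mgl : mg ≤ lam
  on : ∀ t ∈ Icc (0 : ℝ) 1, mu Q (fun k => (1 - t) * y0 k + t * y1 k) = lam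
  g0 : ∀ k, |nc Q y0 k| < lam → |nc Q y0 k| + mg ≤ lam
  g1 : ∀ k, |nc Q y1 k| < lam → |nc Q y1 k| + mg ≤ lam

omit hQ in
theorem nc_comb (Q : Bx κ) (y0 y1 : κ → ℝ) (t : ℝ) (k : κ) :
    nc Q (fun k => (1 - t) * y0 k + t * y1 k) k = (1 - t) * nc Q y0 k + t * nc Q y1 k := by
  unfold nc; ring

omit hQ in
theorem EdgeB.le0 {lam mg : ℝ} {y0 y1 : κ → ℝ} (h : EdgeB Q lam mg y0 y1) (k : κ) :
    |nc Q y0 k| ≤ lam := by
  have h1 := h.on 0 ⟨le_rfl, zero_le_one⟩
  have e : (fun k => (1 - (0:ℝ)) * y0 k + 0 * y1 k) = y0 := by funext k; ring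
  rw [e] at h1
  rw [← h1]
  exact norm_le_pi_norm (nc Q y0) k

omit hQ in
theorem EdgeB.le1 {lam mg : ℝ} {y0 y1 : κ → ℝ} (h : EdgeB Q lam mg y0 y1) (k : κ) :
    |nc Q y1 k| ≤ lam := by
  have h1 := h.on 1 ⟨zero_le_one, le_rfl⟩
  have e : (fun k => (1 - (1:ℝ)) * y0 k + 1 * y1 k) = y1 := by funext k; ring
  rw [e] at h1
  rw [← h1]
  exact norm_le_pi_norm (nc Q y1) k

omit hQ in
/-- a coordinate which is not a contact coordinate -/
theorem EdgeB.far {lam mg : ℝ} {y0 y1 : κ → ℝ} (h : EdgeB Q lam mg y0 y1) {k : κ}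
    (hk : ¬ (nc Q y0 k = nc Q y1 k ∧ |nc Q y0 k| = lam)) {θ t : ℝ} (hθ : 0 ≤ θ) (ht0 : θ ≤ t)
    (ht1 : t ≤ 1 - θ) : |nc Q (fun k => (1 - t) * y0 k + t * y1 k) k| ≤ lam - θ * mg := by
  rw [nc_comb]
  have a0 := h.le0 k
  have a1 := h.le1 k
  have hm := h.mg0
  have hml := h.mgl
  have ht : 0 ≤ t := hθ.trans ht0
  have ht' : 0 ≤ 1 - t := by linarith
  have key : |(1 - t) * nc Q y0 k + t * nc Q y1 k| ≤ (1 - t) * |nc Q y0 k| + t * |nc Q y1 k| := by
    refine (abs_add_le _ _).trans ?_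
    rw [abs_mul, abs_mul, abs_of_nonneg ht, abs_of_nonneg ht']
  rcases lt_or_eq_of_le a0 with b0 | b0
  · have := h.g0 k b0
    refine key.trans ?_
    nlinarith
  rcases lt_or_eq_of_le a1 with b1 | b1
  · have := h.g1 k b1
    refine key.trans ?_
    nlinarith
  · have hne : nc Q y0 k ≠ nc Q y1 k := fun e => hk ⟨e, b0⟩
    have e1 : nc Q y1 k = - nc Q y0 k := by
      rcases abs_choice (nc Q y0 k) with c0 | c0 <;> rcases abs_choice (nc Q y1 k) with c1 | c1
      · exfalso; apply hne; rw [← c0, ← c1, b0, b1]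
      · linarith
      · linarith
      · exfalso; apply hne; linarith
    rw [e1, show (1 - t) * nc Q y0 k + t * -nc Q y0 k = (1 - 2 * t) * nc Q y0 k by ring, abs_mul, b0]
    have h2 : |1 - 2 * t| ≤ 1 - 2 * θ := by rw [abs_le]; constructor <;> linarith
    have h3 := mul_le_mul_of_nonneg_right h2 h.lam0.le
    nlinarith

/-- **the gauge is constant along the edge direction near the middle of the edge** -/
theorem EdgeB.mu_eq {lam mg κ0 : ℝ} {y0 y1 : κ → ℝ} (h : EdgeB Q lam mg y0 y1)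
    (hasp : ∀ i, Q.sz ≤ κ0 * Q.side i) {θ ε t s : ℝ} (hθ : 0 < θ)
    (ht0 : θ ≤ t) (ht1 : t ≤ 1 - θ) (hs0 : θ ≤ s) (hs1 : s ≤ 1 - θ)
    (hε : 2 * (2 * κ0 / Q.sz * ε) < θ * mg) {z : κ → ℝ} (hz : ‖z‖ ≤ ε) :
    mu Q (fun k => (1 - s) * y0 k + s * y1 k + z k) =
      mu Q (fun k => (1 - t) * y0 k + t * y1 k + z k) := by
  have hsz := Bx.sz_pos hQ
  have hκ := κ0_nonneg hQ hasp
  set η : ℝ := 2 * κ0 / Q.sz * ε with hη
  -- perturbation of the normalised coordinates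
  have pert : ∀ (r : ℝ) (k : κ), |nc Q (fun k => (1 - r) * y0 k + r * y1 k + z k) k -
      nc Q (fun k => (1 - r) * y0 k + r * y1 k) k| ≤ η := by
    intro r k
    refine (abs_nc_sub_le hQ hasp _ _ k).trans ?_
    have e : (fun k => (1 - r) * y0 k + r * y1 k + z k) - (fun k => (1 - r) * y0 k + r * y1 k) = z := by
      funext k; simp
    rw [e]
    exact mul_le_mul_of_nonneg_left hz (by positivity)
  -- contact coordinate
  obtain ⟨j, hj1, hj2⟩ : ∃ j, nc Q y0 j = nc Q y1 j ∧ |nc Q y0 j| = lam := by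
    by_contra hcon
    push Not at hcon
    have h1 := h.on (1 / 2) ⟨by norm_num, by norm_num⟩
    have h2 : mu Q (fun k => (1 - (1 / 2 : ℝ)) * y0 k + 1 / 2 * y1 k) ≤ lam - 1 / 2 * mg := by
      have hml := h.mgl
      have hm := h.mg0
      unfold mu
      rw [pi_norm_le_iff_of_nonneg (by linarith)]
      intro k
      rw [Real.norm_eq_abs]
      exact h.far (fun hh => hcon k hh.1 hh.2) (by norm_num) le_rfl (by norm_num)
    rw [h1] at h2
    have := h.mg0
    linarith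
  -- the upper bound for the gauge through contact coordinates
  have key : ∀ {r r' : ℝ}, θ ≤ r → r ≤ 1 - θ → θ ≤ r' → r' ≤ 1 - θ →
      mu Q (fun k => (1 - r) * y0 k + r * y1 k + z k) ≤
        mu Q (fun k => (1 - r') * y0 k + r' * y1 k + z k) := by
    intro r r' hr0 hr1 hr0' hr1'
    -- value of the contact coordinate j at r'
    have hj' : lam - η ≤ mu Q (fun k => (1 - r') * y0 k + r' * y1 k + z k) := by
      have h1 := pert r' j
      rw [nc_comb, ← hj1] at h1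
      have h2 : (1 - r') * nc Q y0 j + r' * nc Q y0 j = nc Q y0 j := by ring
      rw [h2] at h1
      have h3 := norm_le_pi_norm (nc Q (fun k => (1 - r') * y0 k + r' * y1 k + z k)) j
      rw [Real.norm_eq_abs] at h3
      have h4 : |nc Q y0 j| ≤ |nc Q (fun k => (1 - r') * y0 k + r' * y1 k + z k) j| + η := by
        have := abs_sub_abs_le_abs_sub (nc Q y0 j)
          (nc Q (fun k => (1 - r') * y0 k + r' * y1 k + z k) j)
        rw [abs_sub_comm] at this
        linarith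
      rw [hj2] at h4
      unfold mu
      linarith
    conv_lhs => unfold mu
    rw [pi_norm_le_iff_of_nonneg (mu_nonneg Q _)]
    intro k
    rw [Real.norm_eq_abs]
    by_cases hk : nc Q y0 k = nc Q y1 k ∧ |nc Q y0 k| = lam
    · have e : nc Q (fun k => (1 - r) * y0 k + r * y1 k + z k) k =
          nc Q (fun k => (1 - r') * y0 k + r' * y1 k + z k) k := by
        have h1 : y0 k = y1 k := by
          have h2 := hk.1
          unfold nc at h2
          have hs := Bx.side_pos hQ k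
          rw [div_left_inj' hs.ne'] at h2
          linarith
        unfold nc
        simp only [h1]
        ring
      rw [e]
      exact norm_le_pi_norm (nc Q (fun k => (1 - r') * y0 k + r' * y1 k + z k)) k
    · have h1 := h.far hk hθ.le hr0 hr1
      have h2 := pert r k
      have h3 : |nc Q (fun k => (1 - r) * y0 k + r * y1 k + z k) k| ≤
          |nc Q (fun k => (1 - r) * y0 k + r * y1 k) k| + η := by
        have := abs_sub_abs_le_abs_sub (nc Q (fun k => (1 - r) * y0 k + r * y1 k + z k) k)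
          (nc Q (fun k => (1 - r) * y0 k + r * y1 k) k)
        linarith
      linarith
  exact le_antisymm (key hs0 hs1 ht0 ht1) (key ht0 ht1 hs0 hs1)

end Crest.Agent.R096.Wd_120
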