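import Crest.Agent.R096.Wd2_120
import Crest.Agent.R096.Core3_124

/-!
Row 96, exact cores (helper120), part 3: RADIAL.  The level functions of the pushed map along the
edges of the M-mesh of the boundary of a homothetic core box satisfy `NearAffW` (124), with explicit
scale invariant constants.
-/

set_option autoImplicit false
set_option linter.unusedSectionVars false

open Set Filter Topology Metric

namespace Crest.Agent.R096.Wd_120

open Crest.Agent.R096.Bsp_628 Crest.Agent.R096.Bxs_627 Crest.Agent.R096.Brk1_582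
open Crest.Agent.R096.Brk3_582 Crest.Agent.R096.Brk5_582 Crest.Agent.R096.Core_124

variable {κ : Type*} [Fintype κ] [Nonempty κ] {La : Set (κ → ℝ)} {F : Set (Bx κ)} {δ κ0 R : ℝ}

section margin

variable [DecidableEq κ]

/-- a brick on the other side of the lower wall `k` -/
theorem exists_below (BF : BoxFoam La F δ κ0) (hLa : IsOpen La) (c0 : F) {y : κ → ℝ}
    (hy : y ∈ Pc F c0) (k : κ) (hk : y k = c0.1.lo k) :
    ∃ a : F, y ∈ Pc F a ∧ a.1.hi k = c0.1.lo k := by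
  have hQ := BF.pos _ c0.2
  have hyL : y ∈ La := BF.sub _ c0.2 hy
  have hy' := Bx.mem_set.1 hy
  obtain ⟨a, ha, ε, hε, hw⟩ := cover_dir BF hLa hyL
    (fun j => if j = k then -1 else ctr c0.1 j - y j)
  have hw' := Bx.mem_set.1 hw
  have ha' := Bx.mem_set.1 ha
  have hne : c0 ≠ a := by
    rintro rfl
    have h1 := (hw' k).1
    simp only [Pi.add_apply, Pi.smul_apply, smul_eq_mul, if_true, hk] at h1
    linarith
  obtain ⟨j, hj | hj⟩ := opp_of_pair BF hne hy ha
  · -- `a.lo j = y j = c0.hi j`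
    exfalso
    by_cases hjk : j = k
    · subst hjk
      have := hQ j
      rw [hj.2, ← hk] at this
      exact lt_irrefl _ this
    · have h1 := (hw' j).1
      simp only [Pi.add_apply, Pi.smul_apply, smul_eq_mul, if_neg hjk] at h1
      have h2 : ctr c0.1 j < y j := by
        rw [← hj.2]; unfold ctr; have := hQ j; linarith
      rw [hj.1] at h1
      nlinarith
  · by_cases hjk : j = k
    · subst hjk
      exact ⟨a, ha, by rw [hj.2, hk]⟩
    · exfalso
      have h1 := (hw' j).2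
      simp only [Pi.add_apply, Pi.smul_apply, smul_eq_mul, if_neg hjk] at h1
      have h2 : y j < ctr c0.1 j := by
        rw [← hj.1]; unfold ctr; have := hQ j; linarith
      rw [hj.2] at h1
      nlinarith

/-- a brick on the other side of the upper wall `k` -/
theorem exists_above (BF : BoxFoam La F δ κ0) (hLa : IsOpen La) (c0 : F) {y : κ → ℝ}
    (hy : y ∈ Pc F c0) (k : κ) (hk : y k = c0.1.hi k) :
    ∃ a : F, y ∈ Pc F a ∧ a.1.lo k = c0.1.hi k := by
  have hQ := BF.pos _ c0.2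
  have hyL : y ∈ La := BF.sub _ c0.2 hy
  obtain ⟨a, ha, ε, hε, hw⟩ := cover_dir BF hLa hyL
    (fun j => if j = k then 1 else ctr c0.1 j - y j)
  have hw' := Bx.mem_set.1 hw
  have hne : c0 ≠ a := by
    rintro rfl
    have h1 := (hw' k).2
    simp only [Pi.add_apply, Pi.smul_apply, smul_eq_mul, if_true, hk] at h1
    linarith
  obtain ⟨j, hj | hj⟩ := opp_of_pair BF hne hy ha
  · by_cases hjk : j = k
    · subst hjk
      exact ⟨a, ha, by rw [hj.1, hk]⟩
    · exfalso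
      have h1 := (hw' j).1
      simp only [Pi.add_apply, Pi.smul_apply, smul_eq_mul, if_neg hjk] at h1
      have h2 : ctr c0.1 j < y j := by
        rw [← hj.2]; unfold ctr; have := hQ j; linarith
      rw [hj.1] at h1
      nlinarith
  · exfalso
    by_cases hjk : j = k
    · subst hjk
      have := hQ j
      rw [hj.1, ← hk] at this
      exact lt_irrefl _ this
    · have h1 := (hw' j).2
      simp only [Pi.add_apply, Pi.smul_apply, smul_eq_mul, if_neg hjk] at h1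
      have h2 : y j < ctr c0.1 j := by
        rw [← hj.1]; unfold ctr; have := hQ j; linarith
      rw [hj.2] at h1
      nlinarith

/-- **the gap of the coordinates gives a margin of the position** -/
theorem margin_lo (BF : BoxFoam La F δ κ0) (hLa : IsOpen La) (hδ : 0 < δ) (hR : 0 < R)
    (hcmp : Cmp F R) (c0 : F) {m : ℝ} {e : κ → ℝ} (he : e ∈ Pc F c0)
    (hg : ∀ a : F, 0 < sc (Pc F) (bc (F := F)) e a → m ≤ sc (Pc F) (bc (F := F)) e a) (k : κ)
    (hk : c0.1.lo k < e k) : m * c0.1.sz ≤ Cs (Fintype.card κ) δ R * (e k - c0.1.lo k) := by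
  have FF := foam BF hLa
  have hQ := BF.pos _ c0.2
  have hsz := Bx.sz_pos hQ
  have he' := Bx.mem_set.1 he
  set y : κ → ℝ := Function.update e k (c0.1.lo k) with hy
  have hyk : y k = c0.1.lo k := by simp [hy]
  have hyj : ∀ j, j ≠ k → y j = e j := fun j hj => by simp [hy, hj]
  have hyP : y ∈ Pc F c0 := by
    refine Bx.mem_set.2 fun j => ?_
    by_cases hj : j = k
    · subst hj; rw [hyk]; exact ⟨le_rfl, (hQ j).le⟩
    · rw [hyj j hj]; exact he' j
  obtain ⟨a, ha, hak⟩ := exists_below BF hLa c0 hyP k hyk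
  have hyL : y ∈ La := BF.sub _ c0.2 hyP
  have heL : e ∈ La := BF.sub _ c0.2 he
  have hea : e ∉ Pc F a := by
    intro h
    have := (Bx.mem_set.1 h k).2
    rw [hak] at this
    linarith
  have h0 : sc (Pc F) (bc (F := F)) y a = 0 := (FF.sc_eq_zero hyL).2 ha
  have h1 : 0 < sc (Pc F) (bc (F := F)) e a :=
    lt_of_le_of_ne (FF.sc_nonneg heL a) fun h => hea ((FF.sc_eq_zero heL).1 h.symm)
  have h2 := hg a h1
  have h3 := lip_cell BF hLa hδ hR hcmp c0 e he y hyP a
  rw [h0, sub_zero, abs_of_pos h1] at h3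
  have h4 : ‖e - y‖ ≤ e k - c0.1.lo k := by
    rw [pi_norm_le_iff_of_nonneg (by linarith)]
    intro j
    rw [Pi.sub_apply, Real.norm_eq_abs]
    by_cases hj : j = k
    · subst hj; rw [hyk, abs_of_pos (by linarith)]
    · rw [hyj j hj, sub_self, abs_zero]; linarith
  have hC := Cs_nonneg (n := Fintype.card κ) hδ hR
  have h5 : Cs (Fintype.card κ) δ R / c0.1.sz * ‖e - y‖ ≤
      Cs (Fintype.card κ) δ R / c0.1.sz * (e k - c0.1.lo k) :=
    mul_le_mul_of_nonneg_left h4 (by positivity)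
  have h6 : m ≤ Cs (Fintype.card κ) δ R / c0.1.sz * (e k - c0.1.lo k) := by linarith
  calc m * c0.1.sz ≤ (Cs (Fintype.card κ) δ R / c0.1.sz * (e k - c0.1.lo k)) * c0.1.sz :=
        mul_le_mul_of_nonneg_right h6 hsz.le
    _ = Cs (Fintype.card κ) δ R * (e k - c0.1.lo k) := by field_simp

theorem margin_hi (BF : BoxFoam La F δ κ0) (hLa : IsOpen La) (hδ : 0 < δ) (hR : 0 < R)
    (hcmp : Cmp F R) (c0 : F) {m : ℝ} {e : κ → ℝ} (he : e ∈ Pc F c0)
    (hg : ∀ a : F, 0 < sc (Pc F) (bc (F := F)) e a → m ≤ sc (Pc F) (bc (F := F)) e a) (k : κ)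
    (hk : e k < c0.1.hi k) : m * c0.1.sz ≤ Cs (Fintype.card κ) δ R * (c0.1.hi k - e k) := by
  have FF := foam BF hLa
  have hQ := BF.pos _ c0.2
  have hsz := Bx.sz_pos hQ
  have he' := Bx.mem_set.1 he
  set y : κ → ℝ := Function.update e k (c0.1.hi k) with hy
  have hyk : y k = c0.1.hi k := by simp [hy]
  have hyj : ∀ j, j ≠ k → y j = e j := fun j hj => by simp [hy, hj]
  have hyP : y ∈ Pc F c0 := by
    refine Bx.mem_set.2 fun j => ?_
    by_cases hj : j = k
    · subst hj; rw [hyk]; exact ⟨(hQ j).le, le_rfl⟩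
    · rw [hyj j hj]; exact he' j
  obtain ⟨a, ha, hak⟩ := exists_above BF hLa c0 hyP k hyk
  have hyL : y ∈ La := BF.sub _ c0.2 hyP
  have heL : e ∈ La := BF.sub _ c0.2 he
  have hea : e ∉ Pc F a := by
    intro h
    have := (Bx.mem_set.1 h k).1
    rw [hak] at this
    linarith
  have h0 : sc (Pc F) (bc (F := F)) y a = 0 := (FF.sc_eq_zero hyL).2 ha
  have h1 : 0 < sc (Pc F) (bc (F := F)) e a :=
    lt_of_le_of_ne (FF.sc_nonneg heL a) fun h => hea ((FF.sc_eq_zero heL).1 h.symm)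
  have h2 := hg a h1
  have h3 := lip_cell BF hLa hδ hR hcmp c0 e he y hyP a
  rw [h0, sub_zero, abs_of_pos h1] at h3
  have h4 : ‖e - y‖ ≤ c0.1.hi k - e k := by
    rw [pi_norm_le_iff_of_nonneg (by linarith)]
    intro j
    rw [Pi.sub_apply, Real.norm_eq_abs]
    by_cases hj : j = k
    · subst hj; rw [hyk, abs_sub_comm, abs_of_pos (by linarith)]
    · rw [hyj j hj, sub_self, abs_zero]; linarith
  have hC := Cs_nonneg (n := Fintype.card κ) hδ hR
  have h5 : Cs (Fintype.card κ) δ R / c0.1.sz * ‖e - y‖ ≤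
      Cs (Fintype.card κ) δ R / c0.1.sz * (c0.1.hi k - e k) :=
    mul_le_mul_of_nonneg_left h4 (by positivity)
  have h6 : m ≤ Cs (Fintype.card κ) δ R / c0.1.sz * (c0.1.hi k - e k) := by linarith
  calc m * c0.1.sz ≤ (Cs (Fintype.card κ) δ R / c0.1.sz * (c0.1.hi k - e k)) * c0.1.sz :=
        mul_le_mul_of_nonneg_right h6 hsz.le
    _ = Cs (Fintype.card κ) δ R * (c0.1.hi k - e k) := by field_simp

/-- the margin in normalised coordinates -/
theorem margin_nc (BF : BoxFoam La F δ κ0) (hLa : IsOpen La) (hδ : 0 < δ) (hR : 0 < R)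
    (hcmp : Cmp F R) (c0 : F) {m : ℝ} {e : κ → ℝ} (he : e ∈ Pc F c0) (hm : 0 < m)
    (hg : ∀ a : F, 0 < sc (Pc F) (bc (F := F)) e a → m ≤ sc (Pc F) (bc (F := F)) e a) (k : κ)
    (hk : |nc c0.1 e k| < 1) :
    |nc c0.1 e k| + min 1 (2 * m / Cs (Fintype.card κ) δ R) ≤ 1 := by
  have hQ := BF.pos _ c0.2
  have hsz := Bx.sz_pos hQ
  have hs := Bx.side_pos hQ k
  have hC := Cs_nonneg (n := Fintype.card κ) hδ hR
  set C := Cs (Fintype.card κ) δ R with hCdef
  have hlo := ctr_sub_lo c0.1 k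
  have hhi := ctr_add_hi c0.1 k
  have e1 : nc c0.1 e k = 2 * (e k - ctr c0.1 k) / c0.1.side k := rfl
  have habs : |nc c0.1 e k| = 2 * |e k - ctr c0.1 k| / c0.1.side k := by
    rw [e1, abs_div, abs_mul, abs_of_pos hs, abs_of_pos (by norm_num : (0:ℝ) < 2)]
  have hk' : |e k - ctr c0.1 k| < c0.1.side k / 2 := by
    rw [habs, div_lt_one hs] at hk; linarith
  have h1 := abs_lt.1 hk'
  have M1 := margin_lo BF hLa hδ hR hcmp c0 he hg k (by linarith)
  have M2 := margin_hi BF hLa hδ hR hcmp c0 he hg k (by linarith)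
  have hCpos : 0 < C := by
    rcases hC.eq_or_lt with h2 | h2
    · rw [← hCdef, ← h2, zero_mul] at M1
      have := mul_pos hm hsz
      linarith
    · exact h2
  have key : m * c0.1.sz ≤ C * (c0.1.side k / 2 - |e k - ctr c0.1 k|) := by
    rcases abs_cases (e k - ctr c0.1 k) with h3 | h3
    · rw [h3.1]
      refine M2.trans (le_of_eq ?_)
      rw [← hhi]; ring
    · rw [h3.1]
      refine M1.trans (le_of_eq ?_)
      rw [← hlo]; ring
  have h4 := c0.1.side_le_sz k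
  have h5 : 2 * m / C ≤ 1 - |nc c0.1 e k| := by
    rw [habs, div_le_iff₀ hCpos]
    have h6 : m * c0.1.side k ≤ C * (c0.1.side k / 2 - |e k - ctr c0.1 k|) :=
      (mul_le_mul_of_nonneg_left h4 hm.le).trans key
    have h7 : (1 - 2 * |e k - ctr c0.1 k| / c0.1.side k) * C =
        2 * (C * (c0.1.side k / 2 - |e k - ctr c0.1 k|)) / c0.1.side k := by
      field_simp
    rw [h7, le_div_iff₀ hs]
    linarith
  have := min_le_right 1 (2 * m / C)
  linarith

end margin

/-! ### the radial push along an edge -/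

/-- the point of parameter `t` of the segment -/
def sg (y0 y1 : κ → ℝ) (t : ℝ) : κ → ℝ := fun k => (1 - t) * y0 k + t * y1 k

omit [Fintype κ] [Nonempty κ] in
theorem sg_eq (y0 y1 : κ → ℝ) (t : ℝ) : y0 + t • (y1 - y0) = sg y0 y1 t := by
  funext k
  simp only [sg, Pi.add_apply, Pi.smul_apply, Pi.sub_apply, smul_eq_mul]; ring

/-- **data of an edge of the mesh on the boundary of the core box of the brick `c0`** -/
structure EdgeC (F : Set (Bx κ)) (c0 : F) (lam mg m : ℝ) (y0 y1 : κ → ℝ) : Prop where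
  B : EdgeB c0.1 lam mg y0 y1
  K : EdgeK (Pc F) c0 m (sc (Pc F) (bc (F := F)) (rp c0.1 y0)) (sc (Pc F) (bc (F := F)) (rp c0.1 y1))
  line : ∀ t ∈ Icc (0 : ℝ) 1, ∀ a : F, sc (Pc F) (bc (F := F)) (rp c0.1 (sg y0 y1 t)) a =
    (1 - t) * sc (Pc F) (bc (F := F)) (rp c0.1 y0) a + t * sc (Pc F) (bc (F := F)) (rp c0.1 y1) a

/-- **RADIAL.** -/
theorem radial (BF : BoxFoam La F δ κ0) (hLa : IsOpen La) (hδ : 0 < δ) (hR : 0 < R)
    (hcmp : Cmp F R) (c0 : F) {lam mg m : ℝ} {y0 y1 : κ → ℝ} (h : EdgeC F c0 lam mg m y0 y1)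
    {Psi : (κ → ℝ) → κ → ℝ}
    (hPsi : ∀ y ∈ Pc F c0, 3 / 4 * lam ≤ mu c0.1 y → Psi y = rp c0.1 y) {θ ε : ℝ} (hθ : 0 < θ)
    (hθ1 : θ < 1 / 2) (hε0 : 0 ≤ ε) (e1 : 2 * (2 * κ0 / c0.1.sz * ε) < θ * mg)
    (e2 : 2 * κ0 / c0.1.sz * ε ≤ 1 - lam)
    (e3 : 2 * (Cs (Fintype.card κ) δ R / c0.1.sz * ((1 + κ0) / (3 / 4 * lam) * ε)) < θ * m)
    (a : F) :
    NearAffW (fun y => sc (Pc F) (bc (F := F)) (Psi y) a) y0 (y1 - y0) ε
      (Cs (Fintype.card κ) δ R / c0.1.sz * ((1 + κ0) / (3 / 4 * lam)))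
      (Cs (Fintype.card κ) δ R / c0.1.sz * (2 * κ0 * ε / (3 / 4 * lam)))
      (sc (Pc F) (bc (F := F)) (rp c0.1 y1) a - sc (Pc F) (bc (F := F)) (rp c0.1 y0) a) θ
      {y | y ∈ Pc F c0 ∧ 3 / 4 * lam ≤ mu c0.1 y} := by
  have FF := foam BF hLa
  have hQ := BF.pos _ c0.2
  have hsz := Bx.sz_pos hQ
  have hasp := BF.asp _ c0.2
  have hκ := κ0_nonneg hQ hasp
  have hC := Cs_nonneg (n := Fintype.card κ) hδ hR
  set C := Cs (Fintype.card κ) δ R with hCdef
  have hlam := h.B.lam0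
  have hr : 0 < 3 / 4 * lam := by linarith
  have hmg := h.B.mg0
  have hmgl := h.B.mgl
  have hη : 0 ≤ 2 * κ0 / c0.1.sz * ε := by positivity
  have hη4 : 2 * κ0 / c0.1.sz * ε ≤ lam / 4 := by nlinarith
  -- points near the edge
  have near : ∀ t ∈ Icc (0 : ℝ) 1, ∀ z : κ → ℝ, ‖z‖ ≤ ε →
      |mu c0.1 (sg y0 y1 t + z) - lam| ≤ 2 * κ0 / c0.1.sz * ε ∧
      sg y0 y1 t + z ∈ Pc F c0 ∧ 3 / 4 * lam ≤ mu c0.1 (sg y0 y1 t + z) := by
    intro t ht z hz
    have h1 : mu c0.1 (sg y0 y1 t) = lam := h.B.on t ht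
    have h2 := mu_lip hQ hasp (sg y0 y1 t + z) (sg y0 y1 t)
    rw [h1, add_sub_cancel_left] at h2
    have h3 : |mu c0.1 (sg y0 y1 t + z) - lam| ≤ 2 * κ0 / c0.1.sz * ε :=
      h2.trans (mul_le_mul_of_nonneg_left hz (by positivity))
    have h4 := abs_le.1 h3
    exact ⟨h3, (mem_set_iff hQ).2 (by linarith), by linarith⟩
  have hrp : ∀ y, 3 / 4 * lam ≤ mu c0.1 y → rp c0.1 y ∈ Pc F c0 := fun y hy =>
    rp_mem hQ (hr.trans_le hy)
  refine ⟨by positivity, by positivity, hε0, hθ.le, hθ1, ?_, ?_, ?_, ?_⟩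
  · -- sub
    intro t ht y hy
    rw [sg_eq] at hy
    rw [mem_closedBall, dist_eq_norm] at hy
    have h1 := near t ht (y - sg y0 y1 t) hy
    rw [add_sub_cancel] at h1
    exact h1.2
  · -- lip
    rintro y ⟨hy1, hy2⟩ y' ⟨hy1', hy2'⟩
    rw [hPsi y hy1 hy2, hPsi y' hy1' hy2']
    have h1 := lip_cell BF hLa hδ hR hcmp c0 _ (hrp y hy2) _ (hrp y' hy2') a
    have h2 := rp_lip hQ hasp hr hy2 hy2'
    refine h1.trans ?_
    rw [mul_assoc]
    exact mul_le_mul_of_nonneg_left h2 (by positivity)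
  · -- line
    intro t ht
    have h1 := near t ht 0 (by simpa using hε0)
    rw [add_zero] at h1
    have h0 := near 0 ⟨le_rfl, zero_le_one⟩ 0 (by simpa using hε0)
    rw [add_zero] at h0
    have e0 : sg y0 y1 0 = y0 := by funext k; simp [sg]
    rw [e0] at h0
    rw [sg_eq, hPsi _ h1.2.1 h1.2.2, hPsi _ h0.2.1 h0.2.2, h.line t ht a]
    ring
  · -- aff
    intro t ht z hz τ hτ0 hτ1
    have ht01 : t ∈ Icc (0 : ℝ) 1 := ⟨by linarith [ht.1], by linarith [ht.2]⟩
    have hτ01 : t + τ ∈ Icc (0 : ℝ) 1 := ⟨by linarith [ht.1], by linarith⟩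
    have ep : y0 + t • (y1 - y0) + z = sg y0 y1 t + z := by rw [sg_eq]
    have ep' : y0 + t • (y1 - y0) + z + τ • (y1 - y0) = sg y0 y1 (t + τ) + z := by
      rw [← sg_eq, add_smul]; abel
    set p : κ → ℝ := sg y0 y1 t + z with hp
    set p' : κ → ℝ := sg y0 y1 (t + τ) + z with hp'
    obtain ⟨n1, n2, n3⟩ := near t ht01 z hz
    obtain ⟨n1', n2', n3'⟩ := near (t + τ) hτ01 z hz
    rw [← hp] at n1 n2 n3
    rw [← hp'] at n1' n2' n3'
    rw [ep', ep, hPsi p n2 n3, hPsi p' n2' n3']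
    have hmu : mu c0.1 p' = mu c0.1 p :=
      h.B.mu_eq hQ hasp hθ ht.1 ht.2 (by linarith [ht.1]) hτ1 e1 hz
    have hmup : 0 < mu c0.1 p := hr.trans_le n3
    have hpp : p' - p = τ • (y1 - y0) := by
      rw [hp, hp', ← sg_eq, ← sg_eq, add_smul]; abel
    have hq' := rp_sub hQ hmu
    rw [hpp] at hq'
    -- the coordinates of the ends
    have hmu0 : mu c0.1 y0 = lam := by
      have := h.B.on 0 ⟨le_rfl, zero_le_one⟩
      have e : (fun k => (1 - (0:ℝ)) * y0 k + 0 * y1 k) = y0 := by funext k; ring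
      rwa [e] at this
    have hmu1 : mu c0.1 y1 = lam := by
      have := h.B.on 1 ⟨zero_le_one, le_rfl⟩
      have e : (fun k => (1 - (1:ℝ)) * y0 k + 1 * y1 k) = y1 := by funext k; ring
      rwa [e] at this
    have m0 : rp c0.1 y0 ∈ Pc F c0 := hrp y0 (by rw [hmu0]; linarith)
    have m1 : rp c0.1 y1 ∈ Pc F c0 := hrp y1 (by rw [hmu1]; linarith)
    have hdir : T (bc (F := F)) (sc (Pc F) (bc (F := F)) (rp c0.1 y1)) -
        T (bc (F := F)) (sc (Pc F) (bc (F := F)) (rp c0.1 y0)) = (1 / lam) • (y1 - y0) := by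
      rw [FF.T_sc (FF.sub c0 m1), FF.T_sc (FF.sub c0 m0), rp_sub hQ (y := y0) (y' := y1)
        (by rw [hmu0, hmu1]), hmu0, add_sub_cancel_left]
    -- closeness of the coordinates
    have hmut : mu c0.1 (sg y0 y1 t) = lam := h.B.on t ht01
    have hclose : ∀ a : F, |sc (Pc F) (bc (F := F)) (rp c0.1 p) a -
        ((1 - t) * sc (Pc F) (bc (F := F)) (rp c0.1 y0) a +
          t * sc (Pc F) (bc (F := F)) (rp c0.1 y1) a)| ≤
        C / c0.1.sz * ((1 + κ0) / (3 / 4 * lam) * ε) := by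
      intro a
      rw [← h.line t ht01 a]
      have h1 := lip_cell BF hLa hδ hR hcmp c0 _ (hrp p n3) _
        (hrp (sg y0 y1 t) (by rw [hmut]; linarith)) a
      have h2 := rp_lip hQ hasp hr n3 (y' := sg y0 y1 t) (by rw [hmut]; linarith)
      have h3 : p - sg y0 y1 t = z := by rw [hp, add_sub_cancel_left]
      rw [h3] at h2
      refine h1.trans (mul_le_mul_of_nonneg_left (h2.trans ?_) (by positivity))
      exact mul_le_mul_of_nonneg_left hz (by positivity)
    obtain ⟨s1, s2⟩ := h.K.sc_shift FF ht.1 hθ e3 hτ0 hτ1 (hrp p n3) hclose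
    rw [hdir] at s1 s2
    have key := lip_cell BF hLa hδ hR hcmp c0 _ (hrp p' n3') _ s1 a
    rw [s2 a] at key
    have hd : rp c0.1 p' - (rp c0.1 p + τ • (1 / lam) • (y1 - y0)) =
        (τ * (1 / mu c0.1 p - 1 / lam)) • (y1 - y0) := by
      rw [hq', smul_smul, smul_smul, mul_sub, sub_smul, mul_comm (1 / mu c0.1 p) τ]
      abel
    rw [hd, norm_smul, Real.norm_eq_abs, abs_mul, abs_of_nonneg hτ0] at key
    have hn : ‖y1 - y0‖ ≤ lam * c0.1.sz := by
      have h1 := norm_sub_ctr_le hQ y0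
      have h2 := norm_sub_ctr_le hQ y1
      rw [hmu0] at h1
      rw [hmu1] at h2
      have h3 : y1 - y0 = (y1 - ctr c0.1) - (y0 - ctr c0.1) := by abel
      rw [h3]
      refine (norm_sub_le _ _).trans ?_
      linarith
    have hdiff : |1 / mu c0.1 p - 1 / lam| ≤ 2 * κ0 / c0.1.sz * ε / (3 / 4 * lam * lam) := by
      have h1 : 1 / mu c0.1 p - 1 / lam = (lam - mu c0.1 p) / (mu c0.1 p * lam) := by
        field_simp
      rw [h1, abs_div, abs_of_pos (mul_pos hmup hlam), abs_sub_comm]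
      refine div_le_div₀ hη n1 (by positivity) ?_
      exact mul_le_mul_of_nonneg_right n3 hlam.le
    have hfin : C / c0.1.sz * (τ * |1 / mu c0.1 p - 1 / lam| * ‖y1 - y0‖) ≤
        C / c0.1.sz * (2 * κ0 * ε / (3 / 4 * lam)) * τ := by
      have h1 : τ * |1 / mu c0.1 p - 1 / lam| * ‖y1 - y0‖ ≤
          τ * (2 * κ0 / c0.1.sz * ε / (3 / 4 * lam * lam)) * (lam * c0.1.sz) :=
        mul_le_mul (mul_le_mul_of_nonneg_left hdiff hτ0) hn (norm_nonneg _) (by positivity)
      have h2 : τ * (2 * κ0 / c0.1.sz * ε / (3 / 4 * lam * lam)) * (lam * c0.1.sz) =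
          2 * κ0 * ε / (3 / 4 * lam) * τ := by
        field_simp
      rw [h2] at h1
      have h3 := mul_le_mul_of_nonneg_left h1 (show 0 ≤ C / c0.1.sz by positivity)
      linarith
    have hexp : sc (Pc F) (bc (F := F)) (rp c0.1 p') a - (sc (Pc F) (bc (F := F)) (rp c0.1 p) a +
        τ * (sc (Pc F) (bc (F := F)) (rp c0.1 y1) a - sc (Pc F) (bc (F := F)) (rp c0.1 y0) a)) =
        sc (Pc F) (bc (F := F)) (rp c0.1 p') a - sc (Pc F) (bc (F := F)) (rp c0.1 p) a -
        (sc (Pc F) (bc (F := F)) (rp c0.1 y1) a - sc (Pc F) (bc (F := F)) (rp c0.1 y0) a) * τ := by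
      ring
    rw [hexp] at key
    exact key.trans hfin

end Crest.Agent.R096.Wd_120
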