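import Crest.Agent.R096.Wd3_120
import Crest.Agent.R096.Bxs2_627
import Crest.Agent.R096.Vb8_965
import Crest.Agent.R096.Ls4_222

/-!
Row 96, exact cores (helper120), part 4: words on the edges of an exact core, from `ec_words` (124)
and RADIAL.
-/

set_option autoImplicit false
set_option linter.unusedSectionVars false

open Set Filter Topology Metric MeasureTheory

namespace Crest.Agent.R096.Wd_120

open Crest.Agent.R096.Bsp_628 Crest.Agent.R096.Bxs_627 Crest.Agent.R096.Brk1_582
open Crest.Agent.R096.Brk3_582 Crest.Agent.R096.Brk5_582 Crest.Agent.R096.Core_124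
open Crest.Agent.R96.Push_899 Crest.Agent.R096.Msh_715 Crest.Agent.R096.Ls_222
open Crest.Agent.R96.Sg1_199

/-! ### sides of exact levels at the ends of the edge -/

section side

variable {v : ℝ → ℝ} {a b y : ℝ}

theorem side0 (h : ExactZ v a b y) (hy : y ≠ a) : a < y ↔ v 0 < y := by
  have m0 : (0:ℝ) ∈ Icc (0:ℝ) 1 := ⟨le_rfl, zero_le_one⟩
  rcases le_total 0 b with hb | hb
  · obtain ⟨g0, g1, g2⟩ := h.1 hb
    constructor
    · intro ha
      rcases lt_or_ge y (a + b) with h1 | h1
      · obtain ⟨t, ht, -, hlo, -⟩ := g0 ha h1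
        exact hlo 0 m0 ht.1
      · exact g2 h1 0 m0
    · intro hv
      by_contra hcon
      push Not at hcon
      exact absurd (g1 hcon 0 m0) (not_lt.2 hv.le)
  · obtain ⟨g0, g1, g2⟩ := h.2 hb
    constructor
    · intro ha
      have := g2
      by_contra hcon
      push Not at hcon
      have h1 := g1
      -- `-y < -a`
      have h2 : ¬ (-y ≤ -a) → False := by
        intro h3
        apply h3
        linarith
      have h4 := g1 (by linarith) 0 m0
      linarith
    · intro hv
      by_contra hcon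
      push Not at hcon
      have hlt : y < a := lt_of_le_of_ne hcon hy
      rcases lt_or_ge (-y) (-a + -b) with h1 | h1
      · obtain ⟨t, ht, -, hlo, -⟩ := g0 (by linarith) h1
        have := hlo 0 m0 ht.1
        linarith
      · have := g2 h1 0 m0
        linarith

theorem side1 (h : ExactZ v a b y) (hy : y ≠ a + b) : a + b < y ↔ v 1 < y := by
  have m1 : (1:ℝ) ∈ Icc (0:ℝ) 1 := ⟨zero_le_one, le_rfl⟩
  rcases le_total 0 b with hb | hb
  · obtain ⟨g0, g1, g2⟩ := h.1 hb
    constructor
    · intro ha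
      exact g2 ha.le 1 m1
    · intro hv
      by_contra hcon
      push Not at hcon
      have hlt : y < a + b := lt_of_le_of_ne hcon hy
      rcases lt_or_ge a y with h1 | h1
      · obtain ⟨t, ht, -, -, hup⟩ := g0 h1 hlt
        have := hup 1 m1 ht.2
        linarith
      · have := g1 h1 1 m1
        linarith
  · obtain ⟨g0, g1, g2⟩ := h.2 hb
    constructor
    · intro ha
      rcases lt_or_ge (-a) (-y) with h1 | h1
      · obtain ⟨t, ht, -, -, hup⟩ := g0 h1 (by linarith)
        have := hup 1 m1 ht.2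
        linarith
      · have := g1 h1 1 m1
        linarith
    · intro hv
      by_contra hcon
      push Not at hcon
      have := g2 (by linarith) 1 m1
      linarith

end side

/-! ### the concentric two-stage push is the radial projection -/

section push

variable {Q : Bx (Fin 3)} (hQ : Q.Pos)
include hQ

theorem gg_cb {l1 l2 : ℝ} (h1 : 0 ≤ l1) (h2 : 0 ≤ l2) (h12 : l1 < l2) (y : Fin 3 → ℝ) (i : Fin 3) :
    gg (cb Q hQ l2 h2) (cb Q hQ l1 h1) y i = (|nc Q y i| - l1) / (l2 - l1) := by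
  have hs := Bx.side_pos hQ i
  have hd : 0 < l2 - l1 := by linarith
  unfold gg
  rw [cb_hi, cb_hi, cb_lo, cb_lo]
  have e0 : nc Q y i = 2 * (y i - ctr Q i) / Q.side i := rfl
  have a1 : (y i - (ctr Q i + l1 * Q.side i / 2)) / (ctr Q i + l2 * Q.side i / 2 -
      (ctr Q i + l1 * Q.side i / 2)) = (nc Q y i - l1) / (l2 - l1) := by
    rw [e0, show ctr Q i + l2 * Q.side i / 2 - (ctr Q i + l1 * Q.side i / 2) =
      (l2 - l1) * Q.side i / 2 by ring]
    field_simp
    ring
  have a2 : (ctr Q i - l1 * Q.side i / 2 - y i) / (ctr Q i - l1 * Q.side i / 2 -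
      (ctr Q i - l2 * Q.side i / 2)) = (-nc Q y i - l1) / (l2 - l1) := by
    rw [e0, show ctr Q i - l1 * Q.side i / 2 - (ctr Q i - l2 * Q.side i / 2) =
      (l2 - l1) * Q.side i / 2 by ring]
    field_simp
    ring
  rw [a1, a2]
  rcases le_total 0 (nc Q y i) with h | h
  · rw [abs_of_nonneg h, max_eq_left]
    exact div_le_div_of_nonneg_right (by linarith) hd.le
  · rw [abs_of_nonpos h, max_eq_right]
    exact div_le_div_of_nonneg_right (by linarith) hd.le

theorem tt_cb {l1 l2 : ℝ} (h1 : 0 ≤ l1) (h2 : 0 ≤ l2) (h12 : l1 < l2) (y : Fin 3 → ℝ) :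
    tt (cb Q hQ l2 h2) (cb Q hQ l1 h1) y = (mu Q y - l1) / (l2 - l1) := by
  have hd : 0 < l2 - l1 := by linarith
  apply le_antisymm
  · rw [tt_le_iff]
    intro i
    rw [gg_cb hQ h1 h2 h12]
    refine div_le_div_of_nonneg_right ?_ hd.le
    have := norm_le_pi_norm (nc Q y) i
    rw [Real.norm_eq_abs] at this
    unfold mu
    linarith
  · obtain ⟨i, hi⟩ : ∃ i, mu Q y = |nc Q y i| := by
      obtain ⟨i, -, hi⟩ := Finset.exists_max_image (Finset.univ : Finset (Fin 3))
        (fun i => |nc Q y i|) Finset.univ_nonempty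
      refine ⟨i, le_antisymm ?_ ?_⟩
      · unfold mu
        rw [pi_norm_le_iff_of_nonneg (abs_nonneg _)]
        intro j
        rw [Real.norm_eq_abs]
        exact hi j (Finset.mem_univ j)
      · have := norm_le_pi_norm (nc Q y) i
        rwa [Real.norm_eq_abs] at this
    rw [hi, ← gg_cb hQ h1 h2 h12]
    exact gg_le_tt _ _ _ _

theorem psh_cb {l1 l2 : ℝ} (h1 : 0 ≤ l1) (h2 : 0 ≤ l2) (h12 : l1 < l2) {y : Fin 3 → ℝ}
    (hy : 0 < mu Q y) :
    psh (cb Q hQ l2 h2) (cb Q hQ l1 h1) y =
      fun k => ctr Q k + l2 / mu Q y * (y k - ctr Q k) := by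
  have hd : 0 < l2 - l1 := by linarith
  funext i
  have hs := (Bx.side_pos hQ i).ne'
  unfold psh
  rw [tt_cb hQ h1 h2 h12, ww_eq]
  unfold cl
  have w1 : (cb Q hQ l1 h1).W i = l1 * Q.side i := by rw [cb, hb_W, qb_W]
  have w2 : (cb Q hQ l2 h2).W i = l2 * Q.side i := by rw [cb, hb_W, qb_W]
  rw [w1, w2, cb_lo, cb_lo]
  have e1 : l1 * Q.side i + (mu Q y - l1) / (l2 - l1) * (l2 * Q.side i - l1 * Q.side i) =
      mu Q y * Q.side i := by field_simp; ring
  have e2 : ctr Q i - l1 * Q.side i / 2 - (mu Q y - l1) / (l2 - l1) *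
      (ctr Q i - l1 * Q.side i / 2 - (ctr Q i - l2 * Q.side i / 2)) =
      ctr Q i - mu Q y * Q.side i / 2 := by field_simp; ring
  rw [e1, e2]
  field_simp
  ring

theorem cb_one (h : (0:ℝ) ≤ 1) : cb Q hQ 1 h = qb Q hQ := by
  have e1 : (cb Q hQ 1 h).lo = (qb Q hQ).lo := by
    funext k
    rw [cb_lo, one_mul]; exact Bxs_627.ctr_lo Q k
  have e2 : (cb Q hQ 1 h).hi = (qb Q hQ).hi := by
    funext k
    rw [cb_hi, one_mul]; exact Bxs_627.ctr_hi Q k
  revert e1 e2
  cases cb Q hQ 1 h
  cases qb Q hQ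
  rintro h1 h2
  simp only at h1 h2
  subst h1 h2
  rfl

/-- **`pus` is the radial projection outside the hole** -/
theorem pus_eq_rp {lam : ℝ} (hl : 0 < lam) (hl1 : lam < 1) {y : Fin 3 → ℝ} (hy : 0 < mu Q y) :
    pus Q hQ lam hl y = rp Q y := by
  have out : ∀ y : Fin 3 → ℝ, 0 < mu Q y → psh (qb Q hQ) (cb Q hQ lam hl.le) y = rp Q y := by
    intro y hy
    rw [← cb_one hQ zero_le_one, psh_cb hQ hl.le zero_le_one hl1 hy]
    funext k
    unfold rp
    ring
  unfold pus
  by_cases hC : y ∈ (cb Q hQ lam hl.le).S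
  · rw [psi_in hC, psh_cb hQ (half_pos hl).le hl.le (by linarith) hy]
    have hmu : mu Q (fun k => ctr Q k + lam / mu Q y * (y k - ctr Q k)) = lam := by
      have e : nc Q (fun k => ctr Q k + lam / mu Q y * (y k - ctr Q k)) =
          (lam / mu Q y) • nc Q y := by
        funext k
        simp only [nc, Pi.smul_apply, smul_eq_mul]
        ring
      unfold mu at hy ⊢
      rw [show nc Q (fun k => ctr Q k + lam / ‖nc Q y‖ * (y k - ctr Q k)) =
        (lam / ‖nc Q y‖) • nc Q y from e, norm_smul, Real.norm_eq_abs,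
        abs_of_pos (div_pos hl hy), div_mul_cancel₀ _ hy.ne']
    rw [out _ (by rw [hmu]; exact hl)]
    funext k
    unfold rp
    rw [hmu]
    field_simp
    ring
  · have hN := inner_cb hQ hl
    have h2 : y ∉ (cb Q hQ lam hl.le).I := fun h => hC fun i => ⟨(h i).1.le, (h i).2.le⟩
    rw [psi_out hN.nest h2]
    exact out y hy

end push

end Crest.Agent.R096.Wd_120
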