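import Crest.Agent.R096.Wd4_120

/-!
Row 96, exact cores (helper120), part 5: edges of the `M`-grid are `EdgeC`; bad levels of the edges
of one exact core.
-/

set_option autoImplicit false
set_option linter.unusedSectionVars false

open Set Filter Topology Metric MeasureTheory

namespace Crest.Agent.R096.Wd_120

open Crest.Agent.R096.Bsp_628 Crest.Agent.R096.Bxs_627 Crest.Agent.R096.Brk1_582
open Crest.Agent.R096.Brk3_582 Crest.Agent.R096.Brk5_582 Crest.Agent.R096.Core_124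

variable {κ : Type*} [Fintype κ] [Nonempty κ] {La : Set (κ → ℝ)} {F : Set (Bx κ)} {δ κ0 R : ℝ}

/-- a point of two bricks is on the boundary -/
theorem mu_eq_one (BF : BoxFoam La F δ κ0) {c d : F} (hcd : c ≠ d) {y : κ → ℝ} (hy : y ∈ Pc F c)
    (hy' : y ∈ Pc F d) : mu c.1 y = 1 := by
  have hQ := BF.pos _ c.2
  refine le_antisymm ((mem_set_iff hQ).1 hy) ?_
  obtain ⟨k, hk⟩ := opp_of_pair BF hcd hy hy'
  have hs := Bx.side_pos hQ k
  have h1 := norm_le_pi_norm (nc c.1 y) k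
  rw [Real.norm_eq_abs] at h1
  refine le_trans ?_ h1
  have hlo := ctr_sub_lo c.1 k
  have hhi := ctr_add_hi c.1 k
  have habs : |nc c.1 y k| = 2 * |y k - ctr c.1 k| / c.1.side k := by
    have e1 : nc c.1 y k = 2 * (y k - ctr c.1 k) / c.1.side k := rfl
    rw [e1, abs_div, abs_mul, abs_of_pos hs, abs_of_pos (by norm_num : (0:ℝ) < 2)]
  rw [habs, le_div_iff₀ hs]
  rcases hk with hk | hk
  · rw [show y k - ctr c.1 k = c.1.side k / 2 by rw [← hk.2]; linarith, abs_of_pos (by linarith)]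
    linarith
  · rw [show y k - ctr c.1 k = -(c.1.side k / 2) by rw [← hk.1]; linarith, abs_neg,
      abs_of_pos (by linarith)]
    linarith

/-- **an edge of the level-aligned `M`-grid of the boundary of the brick `c`** -/
structure MEdge (F : Set (Bx κ)) (M : ℕ) (c : F) (e0 e1 : κ → ℝ) : Prop where
  M0 : 0 < M
  m0 : e0 ∈ Pc F c
  m1 : e1 ∈ Pc F c
  d : ∃ d : F, d ≠ c ∧ e1 ∈ Pc F d
  ex : ∃ (a : F) (i : ℕ), sc (Pc F) (bc (F := F)) e0 a = i / M ∧
    sc (Pc F) (bc (F := F)) e1 a = (i + 1 : ℕ) / M ∧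
    ∀ b : F, b ≠ a → sc (Pc F) (bc (F := F)) e1 b = sc (Pc F) (bc (F := F)) e0 b ∧
      ∃ k : ℕ, sc (Pc F) (bc (F := F)) e0 b = k / M

theorem gap_int {M : ℕ} (hM : 0 < M) {i j : ℕ} (h : (i : ℝ) / M < j / M) :
    (i : ℝ) / M + 1 / M ≤ j / M := by
  have hM' : (0 : ℝ) < M := by exact_mod_cast hM
  rw [div_lt_div_iff_of_pos_right hM'] at h
  have h1 : i < j := by exact_mod_cast h
  have h2 : (i : ℝ) + 1 ≤ j := by exact_mod_cast h1
  rw [← add_div]
  exact div_le_div_of_nonneg_right h2 hM'.le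

namespace MEdge

variable {M : ℕ} {c : F} {e0 e1 : κ → ℝ} (h : MEdge F M c e0 e1)
include h

theorem nat0 (b : F) : ∃ k : ℕ, sc (Pc F) (bc (F := F)) e0 b = k / M := by
  obtain ⟨a, i, h1, h2, h3⟩ := h.ex
  by_cases hb : b = a
  · exact ⟨i, by rw [hb, h1]⟩
  · exact (h3 b hb).2

theorem nat1 (b : F) : ∃ k : ℕ, sc (Pc F) (bc (F := F)) e1 b = k / M := by
  obtain ⟨a, i, h1, h2, h3⟩ := h.ex
  by_cases hb : b = a
  · exact ⟨i + 1, by rw [hb, h2]⟩
  · obtain ⟨h4, k, h5⟩ := h3 b hb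
    exact ⟨k, by rw [h4, h5]⟩

theorem com : Com (sc (Pc F) (bc (F := F)) e0) (sc (Pc F) (bc (F := F)) e1) := by
  have hM' : (0 : ℝ) < M := by exact_mod_cast h.M0
  obtain ⟨a, i, h1, h2, h3⟩ := h.ex
  intro p q hpq
  by_cases hp : p = a
  · by_cases hq : q = a
    · subst hp; subst hq; exact absurd hpq (lt_irrefl _)
    · obtain ⟨h4, k, h5⟩ := h3 q hq
      rw [hp, h2, h4, h5]
      rw [hp, h1, h5] at hpq
      have := gap_int h.M0 hpq
      rw [← add_div] at this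
      push_cast
      exact this
  · by_cases hq : q = a
    · obtain ⟨h4, k, h5⟩ := h3 p hp
      rw [h4, hq, h2]
      rw [hq, h1] at hpq
      refine hpq.le.trans ?_
      exact div_le_div_of_nonneg_right (by push_cast; linarith) hM'.le
    · rw [(h3 p hp).1, (h3 q hq).1]
      exact hpq.le

theorem edgeK (BF : BoxFoam La F δ κ0) (hLa : IsOpen La) :
    EdgeK (Pc F) c (1 / M) (sc (Pc F) (bc (F := F)) e0) (sc (Pc F) (bc (F := F)) e1) := by
  have FF := foam BF hLa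
  have hM' : (0 : ℝ) < M := by exact_mod_cast h.M0
  have l0 := FF.sub c h.m0
  have l1 := FF.sub c h.m1
  have hM1 : (M : ℝ) / M = 1 := div_self hM'.ne'
  refine ⟨by positivity, FF.sc_mem_K l0, FF.sc_mem_K l1, (FF.sc_eq_zero l0).2 h.m0,
    (FF.sc_eq_zero l1).2 h.m1, h.com, ?_, ?_, ?_, ?_⟩
  · intro a b hab
    obtain ⟨i, hi⟩ := h.nat0 a
    obtain ⟨j, hj⟩ := h.nat0 b
    rw [hi, hj] at hab ⊢
    exact gap_int h.M0 hab
  · intro a b hab
    obtain ⟨i, hi⟩ := h.nat1 a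
    obtain ⟨j, hj⟩ := h.nat1 b
    rw [hi, hj] at hab ⊢
    exact gap_int h.M0 hab
  · intro a ha
    obtain ⟨i, hi⟩ := h.nat0 a
    rw [hi] at ha ⊢
    rw [← hM1] at ha ⊢
    rw [hM1]
    have := gap_int h.M0 ha
    rwa [hM1] at this
  · intro a ha
    obtain ⟨i, hi⟩ := h.nat1 a
    rw [hi] at ha ⊢
    rw [← hM1] at ha ⊢
    rw [hM1]
    have := gap_int h.M0 ha
    rwa [hM1] at this

/-- the coordinates are affine on an M-edge -/
theorem line (BF : BoxFoam La F δ κ0) (hLa : IsOpen La) {t : ℝ} (ht : t ∈ Icc (0 : ℝ) 1) :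
    (∀ a : F, sc (Pc F) (bc (F := F)) (sg e0 e1 t) a = (1 - t) * sc (Pc F) (bc (F := F)) e0 a +
      t * sc (Pc F) (bc (F := F)) e1 a) ∧ sg e0 e1 t ∈ Pc F c ∧ ∃ d : F, d ≠ c ∧ sg e0 e1 t ∈ Pc F d := by
  classical
  have FF := foam BF hLa
  have hM' : (0 : ℝ) < M := by exact_mod_cast h.M0
  have l0 := FF.sub c h.m0
  have l1 := FF.sub c h.m1
  have k0 := FF.sc_mem_K l0
  have k1 := FF.sc_mem_K l1
  set u0 := sc (Pc F) (bc (F := F)) e0 with hu0
  set u1 := sc (Pc F) (bc (F := F)) e1 with hu1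
  have z0 : u0 c = 0 := (FF.sc_eq_zero l0).2 h.m0
  have z1 : u1 c = 0 := (FF.sc_eq_zero l1).2 h.m1
  obtain ⟨a, i, h1, h2, h3⟩ := h.ex
  rw [← hu0, ← hu1] at h3
  rw [← hu0] at h1
  rw [← hu1] at h2
  have hle : ∀ b, u0 b ≤ u1 b := by
    intro b
    by_cases hb : b = a
    · rw [hb, h1, h2]
      exact div_le_div_of_nonneg_right (by push_cast; linarith) hM'.le
    · rw [(h3 b hb).1]
  have htt : 0 ≤ 1 - t := by linarith [ht.2]
  have hcomb : ∀ b, (1 - t) * u0 b + t * u1 b ∈ Icc (0 : ℝ) 1 := by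
    intro b
    refine ⟨add_nonneg (mul_nonneg htt (k0.1 b).1) (mul_nonneg ht.1 (k1.1 b).1), ?_⟩
    have := mul_le_mul_of_nonneg_left (k0.1 b).2 htt
    have := mul_le_mul_of_nonneg_left (k1.1 b).2 ht.1
    linarith
  have hK : (fun b => (1 - t) * u0 b + t * u1 b) ∈ K (Pc F) := by
    refine ⟨fun b => hcomb b, ⟨c, by simp only [z0, z1]; ring⟩, k0.2.2.mono (fc_anti fun b hb => ?_)⟩
    have hb' : (1 - t) * u0 b + t * u1 b < 1 := hb
    have h4 := hle b
    show u0 b < 1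
    by_contra hcon
    push Not at hcon
    have e0 := le_antisymm (k0.1 b).2 hcon
    have e1 := le_antisymm (k1.1 b).2 (hcon.trans h4)
    rw [e0, e1] at hb'
    linarith
  have hT : T (bc (F := F)) (fun b => (1 - t) * u0 b + t * u1 b) = sg e0 e1 t := by
    have hfin : ({b | u0 b < 1} ∪ {b | u1 b < 1}).Finite := (FF.K_finite k0).union (FF.K_finite k1)
    have key := T_comb (bc (F := F)) h.com (fun b => k0.1 b) (fun b => k1.1 b) hfin.toFinset
      (fun b hb => by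
        rw [Set.Finite.mem_toFinset] at hb
        simp only [mem_union, mem_ofPred_eq, not_or, not_lt] at hb
        exact ⟨le_antisymm (k0.1 b).2 hb.1, le_antisymm (k1.1 b).2 hb.2⟩) ht
    rw [← hu0, ← hu1] at key
    rw [key, FF.T_sc l0, FF.T_sc l1]
    funext k
    simp [sg]
  have hsc := FF.sc_T hK
  rw [hT] at hsc
  have hLa' : sg e0 e1 t ∈ La := by rw [← hT]; exact FF.T_mem_La hK
  obtain ⟨d, hd1, hd2⟩ := h.d
  have y1 : u1 d = 0 := (FF.sc_eq_zero l1).2 hd2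
  have y0 : u0 d = 0 := le_antisymm ((hle d).trans y1.le) (k0.1 d).1
  refine ⟨fun b => by rw [hsc], ?_, d, hd1, ?_⟩
  · rw [show Pc F c = {y | y ∈ Pc F c} from rfl]
    refine (FF.sc_eq_zero hLa').1 ?_
    rw [hsc]
    simp only [z0, z1]; ring
  · refine (FF.sc_eq_zero hLa').1 ?_
    rw [hsc]
    simp only [y0, y1]; ring

end MEdge

/-- the point of the core box over the point `e` of the brick -/
noncomputable def shr (Q : Bx κ) (lam : ℝ) (e : κ → ℝ) : κ → ℝ := fun k => ctr Q k + lam * (e k - ctr Q k)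

theorem nc_shr {Q : Bx κ} (lam : ℝ) (e : κ → ℝ) : nc Q (shr Q lam e) = lam • nc Q e := by
  funext k
  simp only [nc, shr, Pi.smul_apply, smul_eq_mul]; ring

theorem mu_shr {Q : Bx κ} {lam : ℝ} (hl : 0 ≤ lam) (e : κ → ℝ) :
    mu Q (shr Q lam e) = lam * mu Q e := by
  unfold mu
  rw [nc_shr, norm_smul, Real.norm_eq_abs, abs_of_nonneg hl]

theorem rp_shr {Q : Bx κ} {lam : ℝ} (hl : 0 < lam) {e : κ → ℝ} (he : mu Q e = 1) :
    rp Q (shr Q lam e) = e := by
  funext k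
  unfold rp
  rw [mu_shr hl.le, he, mul_one]
  unfold shr
  field_simp
  ring

theorem shr_sg {Q : Bx κ} (lam : ℝ) (e0 e1 : κ → ℝ) (t : ℝ) :
    sg (shr Q lam e0) (shr Q lam e1) t = shr Q lam (sg e0 e1 t) := by
  funext k
  simp only [sg, shr]; ring

/-- **M-edges satisfy all hypotheses of RADIAL** -/
theorem MEdge.edgeC [DecidableEq κ] (BF : BoxFoam La F δ κ0) (hLa : IsOpen La) (hδ : 0 < δ)
    (hR : 0 < R) (hcmp : Cmp F R) (hC : 0 < Cs (Fintype.card κ) δ R) {M : ℕ} {c : F}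
    {e0 e1 : κ → ℝ} (h : MEdge F M c e0 e1) {lam : ℝ} (hl : 0 < lam) :
    EdgeC F c lam (lam * min 1 (2 * (1 / M) / Cs (Fintype.card κ) δ R)) (1 / M)
      (shr c.1 lam e0) (shr c.1 lam e1) := by
  have FF := foam BF hLa
  have hM' : (0 : ℝ) < M := by exact_mod_cast h.M0
  have l0 := FF.sub c h.m0
  have l1 := FF.sub c h.m1
  have mm : ∀ t ∈ Icc (0 : ℝ) 1, mu c.1 (sg e0 e1 t) = 1 := by
    intro t ht
    obtain ⟨-, h2, d, h3, h4⟩ := h.line BF hLa ht
    exact mu_eq_one BF (Ne.symm h3) h2 h4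
  have s0 : sg e0 e1 0 = e0 := by funext k; simp [sg]
  have s1 : sg e0 e1 1 = e1 := by funext k; simp [sg]
  have mm0 : mu c.1 e0 = 1 := by have := mm 0 ⟨le_rfl, zero_le_one⟩; rwa [s0] at this
  have mm1 : mu c.1 e1 = 1 := by have := mm 1 ⟨zero_le_one, le_rfl⟩; rwa [s1] at this
  have hEK := h.edgeK BF hLa
  have g0 : ∀ a : F, 0 < sc (Pc F) (bc (F := F)) e0 a → 1 / (M : ℝ) ≤ sc (Pc F) (bc (F := F)) e0 a := by
    intro a ha
    have := hEK.gap0 c a (by rw [hEK.z0]; exact ha)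
    rw [hEK.z0] at this
    linarith
  have g1 : ∀ a : F, 0 < sc (Pc F) (bc (F := F)) e1 a → 1 / (M : ℝ) ≤ sc (Pc F) (bc (F := F)) e1 a := by
    intro a ha
    have := hEK.gap1 c a (by rw [hEK.z1]; exact ha)
    rw [hEK.z1] at this
    linarith
  have hm : 0 < 1 / (M : ℝ) := by positivity
  refine ⟨⟨hl, by positivity, ?_, ?_, ?_, ?_⟩, ?_, ?_⟩
  · have := min_le_left 1 (2 * (1 / (M : ℝ)) / Cs (Fintype.card κ) δ R)
    nlinarith
  · intro t ht
    have := shr_sg (Q := c.1) lam e0 e1 t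
    change mu c.1 (sg (shr c.1 lam e0) (shr c.1 lam e1) t) = lam
    rw [this, mu_shr hl.le, mm t ht, mul_one]
  · intro k hk
    rw [nc_shr, Pi.smul_apply, smul_eq_mul, abs_mul, abs_of_pos hl] at hk ⊢
    have h1 : |nc c.1 e0 k| < 1 := by
      by_contra hcon
      push Not at hcon
      nlinarith
    have := margin_nc BF hLa hδ hR hcmp c h.m0 hm g0 k h1
    nlinarith
  · intro k hk
    rw [nc_shr, Pi.smul_apply, smul_eq_mul, abs_mul, abs_of_pos hl] at hk ⊢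
    have h1 : |nc c.1 e1 k| < 1 := by
      by_contra hcon
      push Not at hcon
      nlinarith
    have := margin_nc BF hLa hδ hR hcmp c h.m1 hm g1 k h1
    nlinarith
  · rw [rp_shr hl mm0, rp_shr hl mm1]
    exact hEK
  · intro t ht a
    rw [shr_sg, rp_shr hl (mm t ht), rp_shr hl mm0, rp_shr hl mm1]
    exact (h.line BF hLa ht).1 a

/-- reversal of the edge -/
theorem EdgeC.symm {c : F} {lam mg m : ℝ} {y0 y1 : κ → ℝ} (h : EdgeC F c lam mg m y0 y1) :
    EdgeC F c lam mg m y1 y0 := by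
  refine ⟨⟨h.B.lam0, h.B.mg0, h.B.mgl, fun t ht => ?_, h.B.g1, h.B.g0⟩,
    ⟨h.K.m0, h.K.K1, h.K.K0, h.K.z1, h.K.z0, h.K.com.symm, h.K.gap1, h.K.gap0, h.K.one1, h.K.one0⟩,
    fun t ht a => ?_⟩
  · have := h.B.on (1 - t) ⟨by linarith [ht.2], by linarith [ht.1]⟩
    rw [← this]
    congr 1
    funext k
    ring
  · have := h.line (1 - t) ⟨by linarith [ht.2], by linarith [ht.1]⟩ a
    have e : sg y0 y1 (1 - t) = sg y1 y0 t := by funext k; simp only [sg]; ring
    rw [e] at this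
    rw [this]; ring

end Crest.Agent.R096.Wd_120
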