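import Crest.Agent.R096.Wd5_120
import Crest.Agent.R096.Mbf_337

/-!
Row 96, exact cores (helper120), part 6: the edges of an exact core with the `M`-grid on its boundary
(446's closed form of `grid`) are M-edges.
-/

set_option autoImplicit false
set_option linter.unusedSectionVars false

open Set Filter Topology Metric MeasureTheory

namespace Crest.Agent.R096.Wd_120

open Crest.Agent.R096.Bsp_628 Crest.Agent.R096.Bxs_627 Crest.Agent.R096.Brk1_582
open Crest.Agent.R096.Brk3_582 Crest.Agent.R096.Brk5_582 Crest.Agent.R096.Core_124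
open Crest.Agent.R096.Msh_715 Crest.Agent.R096.Ls_222 Crest.Agent.R96.Sg1_199
open Crest.Agent.R096.SkC1_961 (FoamD th)
open Crest.Agent.R096.Mbf_337 (sb)

theorem mem_I_of_interior {E : Type*} [NormedAddCommGroup E] [NormedSpace ℝ E]
    {H : Finset ((E →L[ℝ] ℝ) × ℝ)} (hne : (I H).Nonempty) {y : E} (hy : y ∈ interior (P H)) :
    y ∈ I H := by
  obtain ⟨z, hz⟩ := hne
  intro h hh
  refine lt_of_le_of_ne (interior_subset hy h hh) fun e => ?_
  have hc : Continuous (fun t : ℝ => y + t • (y - z)) := by fun_prop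
  have h1 : ∀ᶠ t in 𝓝 (0 : ℝ), y + t • (y - z) ∈ P H := by
    have := hc.tendsto 0
    simp only [zero_smul, add_zero] at this
    exact this.eventually (mem_interior_iff_mem_nhds.1 hy)
  have h2 : ∀ᶠ t in 𝓝[>] (0 : ℝ), y + t • (y - z) ∈ P H := nhdsWithin_le_nhds h1
  obtain ⟨t, ht, ht0⟩ := (h2.and self_mem_nhdsWithin).exists
  have h3 := ht h hh
  have h4 := hz h hh
  have ht0' : (0 : ℝ) < t := ht0
  simp only [map_add, map_smul, map_sub, smul_eq_mul] at h3
  nlinarith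

section grid

variable {δ κ0 R c0 : ℝ} {La Om : Set (Fin 3 → ℝ)} {ι : Type} {Φ : FoamD δ κ0 R c0 La}
  {T : Tiling Om ι}

/-- the `M`-grid on the boundary of the core tile `i` (446's closed form) -/
def GridC (Φ : FoamD δ κ0 R c0 La) (T : Tiling Om ι) (M : ℕ) (i : ι)
    (u : (Fin 3 → ℝ) → Φ.F → ℝ) : Prop :=
  ∀ x ∈ P (T.H i), x ∉ I (T.H i) →
    T.cc x = {y | y ∈ P (T.H i) ∧ ∀ a : Φ.F, (⌊M * u x a⌋₊ : ℝ) ≤ M * u y a ∧
      M * u y a ≤ ⌈M * u x a⌉₊} ∧ T.dim x = {a | ⌊M * u x a⌋₊ < ⌈M * u x a⌉₊}.ncard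

variable {c : Φ.F} {i : ι} {A : (Fin 3 → ℝ) ≃ᵃ[ℝ] (Fin 3 → ℝ)} {lam : ℝ} {z : Fin 3 → ℝ}

theorem th_mem (hl : 0 < lam)
    (ht : P (T.H i) = A ⁻¹' {y | ∀ k, z k + lam * c.1.lo k ≤ y k ∧ y k ≤ z k + lam * c.1.hi k})
    {y : Fin 3 → ℝ} (hy : y ∈ P (T.H i)) : th A lam z y ∈ Pc Φ.F c := by
  rw [ht] at hy
  refine Bx.mem_set.2 fun k => ?_
  obtain ⟨h1, h2⟩ := hy k
  unfold th
  constructor
  · rw [le_div_iff₀ hl]; linarith
  · rw [div_le_iff₀ hl]; linarith

theorem th_bd (hLa : IsOpen La) (hl : 0 < lam)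
    (ht : P (T.H i) = A ⁻¹' {y | ∀ k, z k + lam * c.1.lo k ≤ y k ∧ y k ≤ z k + lam * c.1.hi k})
    {y : Fin 3 → ℝ} (hy : y ∈ P (T.H i)) (hn : y ∉ I (T.H i)) :
    ∃ d : Φ.F, d ≠ c ∧ th A lam z y ∈ Pc Φ.F d := by
  have hm := th_mem (c := c) hl ht hy
  have hk : ∃ k, A y k = z k + lam * c.1.lo k ∨ A y k = z k + lam * c.1.hi k := by
    by_contra hcon
    push Not at hcon
    apply hn
    refine mem_I_of_interior (T.ne i) ?_
    rw [ht]
    have hA : Continuous A := A.toAffineMap.continuous_of_finiteDimensional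
    have hop : IsOpen {y : Fin 3 → ℝ | ∀ k, z k + lam * c.1.lo k < y k ∧
        y k < z k + lam * c.1.hi k} := by
      have e : {y : Fin 3 → ℝ | ∀ k, z k + lam * c.1.lo k < y k ∧ y k < z k + lam * c.1.hi k} =
          ⋂ k, {y | z k + lam * c.1.lo k < y k ∧ y k < z k + lam * c.1.hi k} := by
        ext y; simp
      rw [e]
      refine isOpen_iInter_of_finite fun k => ?_
      exact (isOpen_lt continuous_const (continuous_apply k)).inter
        (isOpen_lt (continuous_apply k) continuous_const)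
    have hsub : A ⁻¹' {y : Fin 3 → ℝ | ∀ k, z k + lam * c.1.lo k < y k ∧
        y k < z k + lam * c.1.hi k} ⊆
        A ⁻¹' {y | ∀ k, z k + lam * c.1.lo k ≤ y k ∧ y k ≤ z k + lam * c.1.hi k} :=
      fun w hw k => ⟨(hw k).1.le, (hw k).2.le⟩
    refine interior_maximal hsub (hop.preimage hA) ?_
    rw [ht] at hy
    intro k
    exact ⟨lt_of_le_of_ne (hy k).1 (Ne.symm (hcon k).1), lt_of_le_of_ne (hy k).2 (hcon k).2⟩
  obtain ⟨k, hk | hk⟩ := hk
  · have e : th A lam z y k = c.1.lo k := by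
      unfold th; rw [hk]; field_simp; ring
    obtain ⟨a, ha, hak⟩ := exists_below Φ.bf hLa c hm k e
    refine ⟨a, ?_, ha⟩
    rintro rfl
    have := Φ.bf.pos _ a.2 k
    rw [hak] at this
    exact lt_irrefl _ this
  · have e : th A lam z y k = c.1.hi k := by
      unfold th; rw [hk]; field_simp; ring
    obtain ⟨a, ha, hak⟩ := exists_above Φ.bf hLa c hm k e
    refine ⟨a, ?_, ha⟩
    rintro rfl
    have := Φ.bf.pos _ a.2 k
    rw [hak] at this
    exact lt_irrefl _ this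

theorem th_inj (hl : 0 < lam) {y y' : Fin 3 → ℝ} (h : th A lam z y = th A lam z y') : y = y' := by
  apply A.injective
  funext k
  have := congrFun h k
  unfold th at this
  rw [div_left_inj' hl.ne'] at this
  linarith

theorem not_mem_I_of_dim {x : Fin 3 → ℝ} (hx : x ∈ Om) (hd : T.dim x ≤ 2) : x ∉ I (T.H i) := by
  intro h
  have hV := (T.V_eq_top_iff hx).2 ⟨i, h⟩
  have : T.dim x = 3 := by
    unfold Tiling.dim
    rw [hV, finrank_top]
    simp
  omega

/-- at a vertex of the grid all coordinates are multiples of `1/M` -/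
theorem vertex_nat (hLa : IsOpen La) (hl : 0 < lam) {M : ℕ} (hM : 0 < M)
    (ht : P (T.H i) = A ⁻¹' {y | ∀ k, z k + lam * c.1.lo k ≤ y k ∧ y k ≤ z k + lam * c.1.hi k})
    (hg : GridC Φ T M i (fun y => sb Φ (th A lam z y))) {x : Fin 3 → ℝ} (hx : x ∈ P (T.H i))
    (hd : T.dim x = 0) (a : Φ.F) : ∃ k : ℕ, sb Φ (th A lam z x) a = k / M := by
  have hM' : (0 : ℝ) < M := by exact_mod_cast hM
  have FF := foam Φ.bf hLa
  have hm := th_mem (c := c) hl ht hx
  have hL := FF.sub c hm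
  have hxO : x ∈ Om := T.sub i hx
  obtain ⟨-, h2⟩ := hg x hx (not_mem_I_of_dim hxO (by omega))
  rw [hd] at h2
  have hK := FF.sc_mem_K hL
  have hfin : {a : Φ.F | ⌊M * sb Φ (th A lam z x) a⌋₊ < ⌈M * sb Φ (th A lam z x) a⌉₊}.Finite := by
    refine (FF.K_finite hK).subset fun b hb => ?_
    have hb' : ⌊M * sb Φ (th A lam z x) b⌋₊ < ⌈M * sb Φ (th A lam z x) b⌉₊ := hb
    show sc (Pc Φ.F) (bc (F := Φ.F)) (th A lam z x) b < 1
    by_contra hcon
    push Not at hcon
    have e1 : sb Φ (th A lam z x) b = 1 := le_antisymm (hK.1 b).2 hcon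
    rw [e1, mul_one, Nat.floor_natCast, Nat.ceil_natCast] at hb'
    exact lt_irrefl _ hb'
  have h3 := (Set.ncard_eq_zero hfin).1 h2.symm
  have h4 : ¬ ⌊M * sb Φ (th A lam z x) a⌋₊ < ⌈M * sb Φ (th A lam z x) a⌉₊ := by
    intro h
    have : a ∈ ({a : Φ.F | ⌊M * sb Φ (th A lam z x) a⌋₊ < ⌈M * sb Φ (th A lam z x) a⌉₊} : Set _) := h
    rw [h3] at this
    exact this
  push Not at h4
  refine ⟨⌊M * sb Φ (th A lam z x) a⌋₊, ?_⟩
  have h5 : 0 ≤ M * sb Φ (th A lam z x) a := mul_nonneg hM'.le (hK.1 a).1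
  have h6 := Nat.floor_le h5
  have h7 := Nat.le_ceil (M * sb Φ (th A lam z x) a)
  have h8 : (⌈M * sb Φ (th A lam z x) a⌉₊ : ℝ) ≤ ⌊M * sb Φ (th A lam z x) a⌋₊ := by exact_mod_cast h4
  rw [eq_div_iff hM'.ne']
  linarith

/-- **the edges of the core tile are M-edges** -/
theorem medge_of_grid (hLa : IsOpen La) (hl : 0 < lam) {M : ℕ} (hM : 0 < M)
    (ht : P (T.H i) = A ⁻¹' {y | ∀ k, z k + lam * c.1.lo k ≤ y k ∧ y k ≤ z k + lam * c.1.hi k})
    (hg : GridC Φ T M i (fun y => sb Φ (th A lam z y))) {e : Edg T} (he : e ∈ eIn T i) :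
    MEdge Φ.F M c (th A lam z (ea e)) (th A lam z (ea e + ev e)) ∨
      MEdge Φ.F M c (th A lam z (ea e + ev e)) (th A lam z (ea e)) := by
  have hM' : (0 : ℝ) < M := by exact_mod_cast hM
  have FF := foam Φ.bf hLa
  have heP : e.1 ⊆ P (T.H i) := mem_eIn.1 he
  obtain ⟨x, hxO, hd, hex⟩ := e.2
  have hxe : x ∈ e.1 := by rw [hex]; exact T.self_mem_cc x
  have hxP := heP hxe
  have hp : ea e ∈ e.1 := by
    rw [← sgm_edg e, sgm_eq_segment]; exact left_mem_segment _ _ _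
  have hq : ea e + ev e ∈ e.1 := by
    rw [← sgm_edg e, sgm_eq_segment]; exact right_mem_segment _ _ _
  have hpP := heP hp
  have hqP := heP hq
  have hne : th A lam z (ea e) ≠ th A lam z (ea e + ev e) := by
    intro h
    have := th_inj hl h
    exact ev_ne e (by simpa using this.symm)
  have mp := th_mem (c := c) hl ht hpP
  have mq := th_mem (c := c) hl ht hqP
  have lp := FF.sub c mp
  have lq := FF.sub c mq
  obtain ⟨g1, g2⟩ := hg x hxP (not_mem_I_of_dim hxO (by omega))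
  rw [hd] at g2
  obtain ⟨a, ha⟩ := Set.ncard_eq_one.1 g2.symm
  have hp' : ea e ∈ T.cc x := by rw [← hex]; exact hp
  have hq' : ea e + ev e ∈ T.cc x := by rw [← hex]; exact hq
  rw [g1] at hp' hq'
  have Np := vertex_nat (c := c) hLa hl hM ht hg hpP (dim_ea e)
  have Nq := vertex_nat (c := c) hLa hl hM ht hg hqP (dim_eb e)
  -- the other coordinates are constant
  have oth : ∀ b : Φ.F, b ≠ a → sb Φ (th A lam z (ea e + ev e)) b = sb Φ (th A lam z (ea e)) b := by
    intro b hb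
    have h1 : ¬ ⌊M * sb Φ (th A lam z x) b⌋₊ < ⌈M * sb Φ (th A lam z x) b⌉₊ := by
      intro h
      have h2 : b ∈ ({a} : Set Φ.F) := by rw [← ha]; exact h
      exact hb h2
    push Not at h1
    have h2 : (⌈M * sb Φ (th A lam z x) b⌉₊ : ℝ) ≤ ⌊M * sb Φ (th A lam z x) b⌋₊ := by
      exact_mod_cast h1
    have h3 := hp'.2 b
    have h4 := hq'.2 b
    have h5 : M * sb Φ (th A lam z (ea e + ev e)) b = M * sb Φ (th A lam z (ea e)) b := by
      simp only at h3 h4
      linarith [h3.1, h3.2, h4.1, h4.2]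
    exact mul_left_cancel₀ hM'.ne' h5
  -- the coordinate `a`
  have hfl : ⌊M * sb Φ (th A lam z x) a⌋₊ < ⌈M * sb Φ (th A lam z x) a⌉₊ := by
    have h2 : a ∈ ({a} : Set Φ.F) := rfl
    rw [← ha] at h2
    exact h2
  set n := ⌊M * sb Φ (th A lam z x) a⌋₊ with hn
  have hce : ⌈M * sb Φ (th A lam z x) a⌉₊ = n + 1 :=
    le_antisymm (Nat.ceil_le_floor_add_one _) hfl
  have key : ∀ w : Fin 3 → ℝ, (∃ k : ℕ, sb Φ (th A lam z w) a = k / M) →
      ((n : ℝ) ≤ M * sb Φ (th A lam z w) a ∧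
        M * sb Φ (th A lam z w) a ≤ (⌈M * sb Φ (th A lam z x) a⌉₊ : ℝ)) →
      sb Φ (th A lam z w) a = n / M ∨ sb Φ (th A lam z w) a = (n + 1 : ℕ) / M := by
    rintro w ⟨k, hk⟩ ⟨h1, h2⟩
    rw [hce] at h2
    have e : M * sb Φ (th A lam z w) a = k := by rw [hk]; field_simp
    rw [e] at h1 h2
    have h1' : n ≤ k := by exact_mod_cast h1
    have h2' : k ≤ n + 1 := by exact_mod_cast h2
    rcases Nat.lt_or_ge k (n + 1) with h3 | h3
    · left; rw [hk, show k = n by omega]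
    · right; rw [hk, show k = n + 1 by omega]
  have kp := key (ea e) (Np a) (hp'.2 a)
  have kq := key (ea e + ev e) (Nq a) (hq'.2 a)
  have hneq : sb Φ (th A lam z (ea e)) a ≠ sb Φ (th A lam z (ea e + ev e)) a := by
    intro h
    apply hne
    refine FF.sc_inj lp lq ?_
    funext b
    by_cases hb : b = a
    · rw [hb]; exact h
    · exact (oth b hb).symm
  have dp := th_bd (c := c) hLa hl ht hpP
    (not_mem_I_of_dim (T.sub i hpP) (by have := dim_ea e; omega))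
  have dq := th_bd (c := c) hLa hl ht hqP
    (not_mem_I_of_dim (T.sub i hqP) (by have := dim_eb e; omega))
  rcases kp with kp | kp <;> rcases kq with kq | kq
  · exact absurd (kp.trans kq.symm) hneq
  · exact Or.inl ⟨hM, mp, mq, dq, a, n, kp, kq, fun b hb => ⟨oth b hb, Np b⟩⟩
  · exact Or.inr ⟨hM, mq, mp, dp, a, n, kq, kp, fun b hb => ⟨(oth b hb).symm, Nq b⟩⟩
  · exact absurd (kp.trans kq.symm) hneq

end grid

end Crest.Agent.R096.Wd_120
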