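import Crest.Agent.R096.Wd6_120
import Crest.Agent.R096.Cel1_715

/-!
Row 96, exact cores (helper120), part 7: one exact core: bad levels and words.
-/

set_option autoImplicit false
set_option linter.unusedSectionVars false

open Set Filter Topology Metric MeasureTheory

namespace Crest.Agent.R096.Wd_120

open Crest.Agent.R096.Bsp_628 Crest.Agent.R096.Bxs_627 Crest.Agent.R096.Brk1_582
open Crest.Agent.R096.Brk3_582 Crest.Agent.R096.Brk5_582 Crest.Agent.R096.Core_124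
open Crest.Agent.R096.Msh_715 Crest.Agent.R096.Ls_222 Crest.Agent.R96.Sg1_199
open Crest.Agent.R096.SkC1_961 (FoamD th)
open Crest.Agent.R096.Mbf_337 (sb)

section word

variable {Om : Set (Fin 3 → ℝ)} {ι : Type} {T : Tiling Om ι}

/-- the conclusion of `word` for one edge with the ends `p, q` -/
def WE (K : Set (Fin 3 → ℝ)) (u s : (Fin 3 → ℝ) → ℝ) (t : ℝ) (p q : Fin 3 → ℝ) : Prop :=
  s p ≠ t ∧ s q ≠ t ∧
    ((s p < t ∧ t < s q) ∨ (s q < t ∧ t < s p) → ∃! y, y ∈ K ∧ u y = t) ∧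
    (¬ ((s p < t ∧ t < s q) ∨ (s q < t ∧ t < s p)) → ∀ y ∈ K, u y ≠ t)

theorem WE.symm {K : Set (Fin 3 → ℝ)} {u s : (Fin 3 → ℝ) → ℝ} {t : ℝ} {p q : Fin 3 → ℝ}
    (h : WE K u s t p q) : WE K u s t q p :=
  ⟨h.2.1, h.1, fun hh => h.2.2.1 hh.symm, fun hh => h.2.2.2 fun h' => hh h'.symm⟩

theorem we_of_exactZ {e : Edg T} {u s : (Fin 3 → ℝ) → ℝ} {t : ℝ}
    (h : ExactZ (fun τ => u (ea e + τ • ev e)) (s (ea e)) (s (ea e + ev e) - s (ea e)) t)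
    (h0 : s (ea e) ≠ t) (h1 : s (ea e + ev e) ≠ t) :
    WE e.1 u s t (ea e) (ea e + ev e) := by
  refine ⟨h0, h1, fun hh => ?_, fun hh y hy => ?_⟩
  · have h2 : (s (ea e) < t ∧ t < s (ea e) + (s (ea e + ev e) - s (ea e))) ∨
        (s (ea e) + (s (ea e + ev e) - s (ea e)) < t ∧ t < s (ea e)) := by
      rw [add_sub_cancel]; exact hh
    obtain ⟨τ, ⟨hτ, hv⟩, huniq⟩ := h.cross h2
    refine ⟨ea e + τ • ev e, ⟨?_, hv⟩, ?_⟩
    · rw [← sgm_edg e]; exact ⟨τ, hτ, rfl⟩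
    · rintro y ⟨hy, hyt⟩
      rw [← sgm_edg e] at hy
      obtain ⟨τ', hτ', rfl⟩ := hy
      have := huniq τ' ⟨hτ', hyt⟩
      rw [this]
  · have h2 : ¬ ((s (ea e) < t ∧ t < s (ea e) + (s (ea e + ev e) - s (ea e))) ∨
        (s (ea e) + (s (ea e + ev e) - s (ea e)) < t ∧ t < s (ea e))) := by
      rw [add_sub_cancel]; exact hh
    rw [← sgm_edg e] at hy
    obtain ⟨τ', hτ', rfl⟩ := hy
    exact h.no_cross h2 τ' hτ'

theorem we_ends {e : Edg T} {u s : (Fin 3 → ℝ) → ℝ} {t : ℝ}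
    (h : WE e.1 u s t (ea e) (ea e + ev e)) {a b : Fin 3 → ℝ} (hab : e.1 = segment ℝ a b) :
    WE e.1 u s t a b := by
  obtain ⟨x, hxO, hd, hex⟩ := e.2
  have hp : ea e ∈ T.cc x := by
    rw [← hex, ← sgm_edg e, sgm_eq_segment]; exact left_mem_segment _ _ _
  have hq : ea e + ev e ∈ T.cc x := by
    rw [← hex, ← sgm_edg e, sgm_eq_segment]; exact right_mem_segment _ _ _
  have hab' : T.cc x = segment ℝ a b := by rw [← hex]; exact hab
  have h1 := T.vertex_of_edge hxO hd hab' hp (dim_ea e)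
  have h2 := T.vertex_of_edge hxO hd hab' hq (dim_eb e)
  have hne : ea e ≠ ea e + ev e := fun h' => ev_ne e (by simpa using h'.symm)
  rcases h1 with h1 | h1 <;> rcases h2 with h2 | h2
  · exact absurd (h1.trans h2.symm) hne
  · rw [← h1, ← h2]; exact h
  · rw [← h1, ← h2]; exact h.symm
  · exact absurd (h1.trans h2.symm) hne

end word

section core

variable {δ κ0 R c0 : ℝ} {La Om : Set (Fin 3 → ℝ)} {ι : Type}

/-- **hypotheses for the words of one exact core**: concentric core of ratio `lam`, radial push,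
`M`-grid on the boundary, `f` close to `A` at the vertices and on the edges, integrable defect `g`
of the increments along the edges. -/
structure CoreW (Φ : FoamD δ κ0 R c0 La) (T : Tiling Om ι) (f : (Fin 3 → ℝ) → Fin 3 → ℝ) (c : Φ.F)
    (i : ι) (A : (Fin 3 → ℝ) ≃ᵃ[ℝ] (Fin 3 → ℝ)) (lam : ℝ) (M : ℕ) (ε : ℝ)
    (g : Edg T → ℝ → ℝ) : Prop where
  lam0 : 0 < lam
  lam1 : lam < 1
  M0 : 0 < M
  ε0 : 0 ≤ ε
  tile : P (T.H i) = A ⁻¹' {y | ∀ k, zz c.1 lam k + lam * c.1.lo k ≤ y k ∧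
    y k ≤ zz c.1 lam k + lam * c.1.hi k}
  push : ∀ y ∈ Pc Φ.F c, 3 / 4 * lam ≤ mu c.1 y → Φ.pu c y = rp c.1 y
  grid : GridC Φ T M i (fun y => sb Φ (th A lam (zz c.1 lam) y))
  close : ∀ x ∈ P (T.H i), T.dim x = 0 → ‖f x - A x‖ ≤ ε
  seg : ∀ e ∈ eIn T i, NearSeg (fun t => f (ea e + t • ev e)) (g e) (A (ea e))
    (A (ea e + ev e) - A (ea e)) ε

namespace CoreW

variable {Φ : FoamD δ κ0 R c0 La} {T : Tiling Om ι} {f : (Fin 3 → ℝ) → Fin 3 → ℝ} {c : Φ.F}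
  {i : ι} {A : (Fin 3 → ℝ) ≃ᵃ[ℝ] (Fin 3 → ℝ)} {lam : ℝ} {M : ℕ} {ε : ℝ} {g : Edg T → ℝ → ℝ}

theorem shr_th (hl : 0 < lam) (x : Fin 3 → ℝ) : shr c.1 lam (th A lam (zz c.1 lam) x) = A x := by
  funext k
  unfold shr th zz
  field_simp
  ring

variable (h : CoreW Φ T f c i A lam M ε g)
include h

theorem mu_A (hLa : IsOpen La) {x : Fin 3 → ℝ} (hx : x ∈ P (T.H i)) (hn : x ∉ I (T.H i)) :
    mu c.1 (A x) = lam ∧ mu c.1 (th A lam (zz c.1 lam) x) = 1 := by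
  obtain ⟨d, hd1, hd2⟩ := th_bd (c := c) hLa h.lam0 h.tile hx hn
  have h1 := mu_eq_one Φ.bf (Ne.symm hd1) (th_mem (c := c) h.lam0 h.tile hx) hd2
  refine ⟨?_, h1⟩
  rw [← shr_th (A := A) (c := c) h.lam0 x, mu_shr h.lam0.le, h1, mul_one]

theorem rp_A (hLa : IsOpen La) {x : Fin 3 → ℝ} (hx : x ∈ P (T.H i)) (hn : x ∉ I (T.H i)) :
    rp c.1 (A x) = th A lam (zz c.1 lam) x := by
  have h1 := (h.mu_A hLa hx hn).2
  conv_lhs => rw [← shr_th (A := A) (c := c) h.lam0 x]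
  exact rp_shr h.lam0 h1

theorem psi (hLa : IsOpen La) {y : Fin 3 → ℝ} (hy : y ∈ Pc Φ.F c) (hy' : 3 / 4 * lam ≤ mu c.1 y) :
    Φ.Psi y = rp c.1 y := by
  rw [Vb_965.Psi_eqD Φ hLa hy, h.push y hy hy']

/-- the data of RADIAL for an edge of the core -/
theorem edgeC (hLa : IsOpen La) (hδ : 0 < δ) (hR : 0 < R) (hC : 0 < Cs (Fintype.card (Fin 3)) δ R)
    {e : Edg T} (he : e ∈ eIn T i) :
    EdgeC Φ.F c lam (lam * min 1 (2 * (1 / M) / Cs (Fintype.card (Fin 3)) δ R)) (1 / M)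
      (A (ea e)) (A (ea e + ev e)) := by
  rcases medge_of_grid (c := c) hLa h.lam0 h.M0 h.tile h.grid he with h1 | h1
  · have h2 := h1.edgeC Φ.bf hLa hδ hR Φ.cmp hC h.lam0
    rwa [shr_th h.lam0, shr_th h.lam0] at h2
  · have h2 := (h1.edgeC Φ.bf hLa hδ hR Φ.cmp hC h.lam0).symm
    rwa [shr_th h.lam0, shr_th h.lam0] at h2

theorem mem_ea {e : Edg T} (he : e ∈ eIn T i) : ea e ∈ P (T.H i) ∧ ea e ∉ I (T.H i) := by
  have h1 : ea e ∈ P (T.H i) := mem_eIn.1 he (by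
    rw [← sgm_edg e, sgm_eq_segment]; exact left_mem_segment _ _ _)
  exact ⟨h1, not_mem_I_of_dim (T.sub i h1) (by have := dim_ea e; omega)⟩

theorem mem_eb {e : Edg T} (he : e ∈ eIn T i) :
    ea e + ev e ∈ P (T.H i) ∧ ea e + ev e ∉ I (T.H i) := by
  have h1 : ea e + ev e ∈ P (T.H i) := mem_eIn.1 he (by
    rw [← sgm_edg e, sgm_eq_segment]; exact right_mem_segment _ _ _)
  exact ⟨h1, not_mem_I_of_dim (T.sub i h1) (by have := dim_eb e; omega)⟩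

/-- **bad levels of one edge of the core** -/
theorem bad_edge (hLa : IsOpen La) (hδ : 0 < δ) (hR : 0 < R)
    (hC : 0 < Cs (Fintype.card (Fin 3)) δ R) {θ : ℝ} (hθ : 0 < θ) (hθ1 : θ < 1 / 2)
    (e1 : 2 * (2 * κ0 / c.1.sz * ε) <
      θ * (lam * min 1 (2 * (1 / M) / Cs (Fintype.card (Fin 3)) δ R)))
    (e2 : 2 * κ0 / c.1.sz * ε ≤ 1 - lam)
    (e3 : 2 * (Cs (Fintype.card (Fin 3)) δ R / c.1.sz * ((1 + κ0) / (3 / 4 * lam) * ε)) <
      θ * (1 / M)) {e : Edg T} (he : e ∈ eIn T i) (c' : Φ.F) :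
    ∃ Bad : Set ℝ, MeasurableSet Bad ∧ volume Bad ≤ ENNReal.ofReal
      (4 * (Cs (Fintype.card (Fin 3)) δ R / c.1.sz * ((1 + κ0) / (3 / 4 * lam)) *
        ∫ τ in (0:ℝ)..1, g e τ) +
      4 * (Cs (Fintype.card (Fin 3)) δ R / c.1.sz * (2 * κ0 * ε / (3 / 4 * lam))) +
      16 * (Cs (Fintype.card (Fin 3)) δ R / c.1.sz * ((1 + κ0) / (3 / 4 * lam)) * ε) + 4 * θ) ∧
      ∀ t ∉ Bad, ExactZ (fun τ => Φ.lev c' (f (ea e + τ • ev e)))
        (sb Φ (th A lam (zz c.1 lam) (ea e)) c')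
        (sb Φ (th A lam (zz c.1 lam) (ea e + ev e)) c' - sb Φ (th A lam (zz c.1 lam) (ea e)) c') t := by
  have FF := foam Φ.bf hLa
  have hrad := radial Φ.bf hLa hδ hR Φ.cmp c (h.edgeC hLa hδ hR hC he) (Psi := Φ.Psi)
    (fun y hy hy' => h.psi hLa hy hy') hθ hθ1 h.ε0 e1 e2 e3 c'
  obtain ⟨Bad, b1, b2, b3⟩ := (h.seg e he).bad_levelsW hrad
  have ma := h.mem_ea he
  have mb := h.mem_eb he
  rw [h.rp_A hLa ma.1 ma.2, h.rp_A hLa mb.1 mb.2] at b2 b3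
  have hS : sc (Pc Φ.F) (bc (F := Φ.F)) (Φ.Psi (A (ea e))) c' =
      sb Φ (th A lam (zz c.1 lam) (ea e)) c' := by
    have hmu := (h.mu_A hLa ma.1 ma.2).1
    have hQ := Φ.bf.pos _ c.2
    rw [h.psi hLa ((mem_set_iff hQ).2 (by rw [hmu]; exact h.lam1.le))
      (by rw [hmu]; linarith [h.lam0]), h.rp_A hLa ma.1 ma.2]
    rfl
  refine ⟨Bad, b1, b2.trans (ENNReal.ofReal_le_ofReal ?_), fun t ht => ?_⟩
  · have hb : |sc (Pc Φ.F) (bc (F := Φ.F)) (th A lam (zz c.1 lam) (ea e + ev e)) c' -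
        sc (Pc Φ.F) (bc (F := Φ.F)) (th A lam (zz c.1 lam) (ea e)) c'| ≤ 1 := by
      have la := FF.sub c (th_mem (c := c) h.lam0 h.tile ma.1)
      have lb := FF.sub c (th_mem (c := c) h.lam0 h.tile mb.1)
      rw [abs_le]
      constructor <;> linarith [FF.sc_nonneg la c', FF.sc_le_one la c', FF.sc_nonneg lb c',
        FF.sc_le_one lb c']
    have := mul_le_mul_of_nonneg_right hb hθ.le
    linarith
  · have := b3 t ht
    rw [hS] at this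
    exact this

/-- closeness of the levels at the vertices -/
theorem close_vertex (hLa : IsOpen La) (hδ : 0 < δ) (hR : 0 < R)
    (e1 : 2 * κ0 / c.1.sz * ε ≤ lam / 4) (e2 : 2 * κ0 / c.1.sz * ε ≤ 1 - lam)
    {x : Fin 3 → ℝ} (hx : x ∈ P (T.H i)) (hd : T.dim x = 0) (c' : Φ.F) :
    |Φ.lev c' (f x) - sb Φ (th A lam (zz c.1 lam) x) c'| ≤
      Cs (Fintype.card (Fin 3)) δ R / c.1.sz * ((1 + κ0) / (3 / 4 * lam)) * ε := by
  have hQ := Φ.bf.pos _ c.2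
  have hsz := Bx.sz_pos hQ
  have hasp := Φ.bf.asp _ c.2
  have hn := not_mem_I_of_dim (T := T) (i := i) (T.sub i hx) (by omega)
  have hmu := (h.mu_A hLa hx hn).1
  have hl := h.lam0
  have hC := Cs_nonneg (n := Fintype.card (Fin 3)) hδ hR
  have hκ := κ0_nonneg hQ hasp
  have h1 := mu_lip hQ hasp (f x) (A x)
  rw [hmu] at h1
  have h2 : |mu c.1 (f x) - lam| ≤ 2 * κ0 / c.1.sz * ε :=
    h1.trans (mul_le_mul_of_nonneg_left (h.close x hx hd) (by positivity))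
  have h3 := abs_le.1 h2
  have h4 : 3 / 4 * lam ≤ mu c.1 (f x) := by linarith
  have h5 : f x ∈ Pc Φ.F c := (mem_set_iff hQ).2 (by linarith)
  have h6 : Φ.lev c' (f x) = sc (Pc Φ.F) (bc (F := Φ.F)) (rp c.1 (f x)) c' := by
    show sc (Pc Φ.F) (bc (F := Φ.F)) (Φ.Psi (f x)) c' = _
    rw [h.psi hLa h5 h4]
  have hr : 0 < 3 / 4 * lam := by linarith
  have h7 : 3 / 4 * lam ≤ mu c.1 (A x) := by rw [hmu]; linarith
  have h8 := lip_cell Φ.bf hLa hδ hR Φ.cmp c _ (rp_mem hQ (hr.trans_le h4)) _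
    (rp_mem hQ (hr.trans_le h7)) c'
  have h9 := rp_lip hQ hasp hr h4 h7
  rw [h6, sb, ← h.rp_A hLa hx hn]
  refine h8.trans ?_
  rw [mul_assoc]
  refine mul_le_mul_of_nonneg_left (h9.trans ?_) (by positivity)
  exact mul_le_mul_of_nonneg_left (h.close x hx hd) (by positivity)

end CoreW

end core

end Crest.Agent.R096.Wd_120
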