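import Crest.Agent.R096.Wd7_120
import Crest.Agent.R096.Dic2_582

/-!
Row 96, exact cores (helper120), part 8: WORDS.  Bad levels of all cores, and the clauses `word` and
`sign` of `Mbf_337.Words`.
-/

set_option autoImplicit false
set_option linter.unusedSectionVars false

open Set Filter Topology Metric MeasureTheory
open scoped ENNReal

namespace Crest.Agent.R096.Wd_120

open Crest.Agent.R096.Bsp_628 Crest.Agent.R096.Bxs_627 Crest.Agent.R096.Brk1_582
open Crest.Agent.R096.Brk3_582 Crest.Agent.R096.Brk5_582 Crest.Agent.R096.Core_124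
open Crest.Agent.R096.Msh_715 Crest.Agent.R096.Ls_222 Crest.Agent.R96.Sg1_199
open Crest.Agent.R096.SkC1_961 (FoamD th)
open Crest.Agent.R096.Mbf_337 (sb)

/-! ### numbers -/

/-- **constants**: `C` = Lipschitz constant of the coordinates, `M` = mesh of the grid, `n` = number
of edges of a core, `η` = allowed measure of the bad levels of one core, `lam1` = upper bound of the
ratios of the cores. -/
theorem exists_kw {C κ0 η lam1 : ℝ} (hC : 0 < C) (hκ : 0 ≤ κ0) (hη : 0 < η) (hl1 : lam1 < 1)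
    {M : ℕ} (hM : 0 < M) (n : ℕ) :
    ∃ θ kw : ℝ, 0 < θ ∧ θ < 1 / 2 ∧ 0 < kw ∧
      4 * κ0 * kw < θ * min 1 (2 * (1 / M) / C) ∧ 2 * κ0 * kw ≤ 1 - lam1 ∧ 2 * κ0 * kw ≤ 1 / 4 ∧
      2 * (C * (1 + κ0) * (4 / 3) * kw) < θ * (1 / M) ∧
      (6 + 24 * n + 2 * M) * (C * (1 + κ0) * (4 / 3) * kw) + 4 * n * θ ≤ η := by
  have hM' : (0 : ℝ) < M := by exact_mod_cast hM
  have hn : (0 : ℝ) ≤ n := Nat.cast_nonneg n
  set θ : ℝ := min (1 / 4) (η / (8 * (n + 1))) with hθ
  have hθ0 : 0 < θ := lt_min (by norm_num) (by positivity)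
  have hθ1 : θ ≤ 1 / 4 := min_le_left _ _
  have hθ2 : θ ≤ η / (8 * (n + 1)) := min_le_right _ _
  have hm : 0 < θ * min 1 (2 * (1 / M) / C) := by positivity
  set D : ℝ := C * (1 + κ0) * (4 / 3) with hD
  have hD0 : 0 < D := by positivity
  set kw : ℝ := min (θ * min 1 (2 * (1 / M) / C) / (8 * (κ0 + 1)))
    (min ((1 - lam1) / (2 * (κ0 + 1))) (min (1 / (8 * (κ0 + 1))) (min (θ * (1 / M) / (4 * D))
      (η / 2 / ((6 + 24 * n + 2 * M) * D))))) with hkw
  have a1 : kw ≤ θ * min 1 (2 * (1 / M) / C) / (8 * (κ0 + 1)) := min_le_left _ _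
  have a2 : kw ≤ (1 - lam1) / (2 * (κ0 + 1)) := (min_le_right _ _).trans (min_le_left _ _)
  have a3 : kw ≤ 1 / (8 * (κ0 + 1)) :=
    (min_le_right _ _).trans ((min_le_right _ _).trans (min_le_left _ _))
  have a4 : kw ≤ θ * (1 / M) / (4 * D) :=
    (min_le_right _ _).trans ((min_le_right _ _).trans ((min_le_right _ _).trans (min_le_left _ _)))
  have a5 : kw ≤ η / 2 / ((6 + 24 * n + 2 * M) * D) :=
    (min_le_right _ _).trans ((min_le_right _ _).trans ((min_le_right _ _).trans (min_le_right _ _)))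
  have hkw0 : 0 < kw := by
    refine lt_min (by positivity) (lt_min ?_ (lt_min (by positivity) (lt_min (by positivity)
      (by positivity))))
    exact div_pos (by linarith) (by positivity)
  refine ⟨θ, kw, hθ0, by linarith, hkw0, ?_, ?_, ?_, ?_, ?_⟩
  · rw [le_div_iff₀ (by positivity)] at a1
    nlinarith
  · rw [le_div_iff₀ (by positivity)] at a2
    nlinarith
  · rw [le_div_iff₀ (by positivity)] at a3
    nlinarith
  · rw [le_div_iff₀ (by positivity)] at a4
    have : 0 < θ * (1 / M) := by positivity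
    nlinarith
  · rw [le_div_iff₀ (by positivity)] at a5
    rw [le_div_iff₀ (by positivity)] at hθ2
    have h1 : (6 + 24 * (n : ℝ) + 2 * M) * (D * kw) ≤ η / 2 := by
      calc (6 + 24 * (n : ℝ) + 2 * M) * (D * kw) = kw * ((6 + 24 * n + 2 * M) * D) := by ring
        _ ≤ η / 2 := a5
    have h2 : 4 * (n : ℝ) * θ ≤ η / 2 := by nlinarith
    linarith

/-! ### levels of bricks which do not touch the core -/

section far

variable {δ κ0 R c0 : ℝ} {La Om : Set (Fin 3 → ℝ)} {ι : Type} {Φ : FoamD δ κ0 R c0 La}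
  {T : Tiling Om ι} {f : (Fin 3 → ℝ) → Fin 3 → ℝ} {c : Φ.F}
  {i : ι} {A : (Fin 3 → ℝ) ≃ᵃ[ℝ] (Fin 3 → ℝ)} {lam : ℝ} {M : ℕ} {ε : ℝ} {g : Edg T → ℝ → ℝ}

/-- near the boundary of the core the pushed map is in the brick -/
theorem CoreW.lev_far (h : CoreW Φ T f c i A lam M ε g) (hLa : IsOpen La)
    (e1 : 2 * κ0 / c.1.sz * ε ≤ lam / 4) (e2 : 2 * κ0 / c.1.sz * ε ≤ 1 - lam) {y w : Fin 3 → ℝ}
    (hw : mu c.1 w = lam) (hy : ‖y - w‖ ≤ ε) {c' : Φ.F}
    (hc' : ¬ (Pc Φ.F c' ∩ Pc Φ.F c).Nonempty) : Φ.lev c' y = 1 := by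
  have FF := foam Φ.bf hLa
  have hQ := Φ.bf.pos _ c.2
  have hsz := Bx.sz_pos hQ
  have hasp := Φ.bf.asp _ c.2
  have hl := h.lam0
  have hκ := κ0_nonneg hQ hasp
  have h1 := mu_lip hQ hasp y w
  rw [hw] at h1
  have h2 : |mu c.1 y - lam| ≤ 2 * κ0 / c.1.sz * ε :=
    h1.trans (mul_le_mul_of_nonneg_left hy (by positivity))
  have h3 := abs_le.1 h2
  have h4 : 3 / 4 * lam ≤ mu c.1 y := by linarith
  have h5 : y ∈ Pc Φ.F c := (mem_set_iff hQ).2 (by linarith)
  show sc (Pc Φ.F) (bc (F := Φ.F)) (Φ.Psi y) c' = 1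
  rw [h.psi hLa h5 h4]
  exact Dic2_582.sc_eq_one_of_not_touch FF hc' (rp_mem hQ (by linarith))

theorem CoreW.sb_far (h : CoreW Φ T f c i A lam M ε g) (hLa : IsOpen La) {x : Fin 3 → ℝ}
    (hx : x ∈ P (T.H i)) {c' : Φ.F} (hc' : ¬ (Pc Φ.F c' ∩ Pc Φ.F c).Nonempty) :
    sb Φ (th A lam (zz c.1 lam) x) c' = 1 :=
  Dic2_582.sc_eq_one_of_not_touch (foam Φ.bf hLa) hc' (th_mem (c := c) h.lam0 h.tile hx)

end far

/-! ### one core -/

section one

variable {δ κ0 R c0 : ℝ} {La Om : Set (Fin 3 → ℝ)} {ι : Type} {Φ : FoamD δ κ0 R c0 La}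
  {T : Tiling Om ι} {f : (Fin 3 → ℝ) → Fin 3 → ℝ} {c : Φ.F}
  {i : ι} {A : (Fin 3 → ℝ) ≃ᵃ[ℝ] (Fin 3 → ℝ)} {lam : ℝ} {M : ℕ} {g : Edg T → ℝ → ℝ}

/-- **word and sign of the level `t` of the family `c'` on the core** -/
def WS (Φ : FoamD δ κ0 R c0 La) (T : Tiling Om ι) (f : (Fin 3 → ℝ) → Fin 3 → ℝ) (c : Φ.F) (i : ι)
    (A : (Fin 3 → ℝ) ≃ᵃ[ℝ] (Fin 3 → ℝ)) (lam : ℝ) (z : Fin 3 → ℝ) (c' : Φ.F) (t : ℝ) : Prop :=
  (∀ x ∈ P (T.H i), T.dim x = 1 → ∀ a b : Fin 3 → ℝ, T.cc x = segment ℝ a b →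
    WE (T.cc x) (fun y => Φ.lev c' (f y)) (fun y => sb Φ (th A lam z y) c') t a b) ∧
  ∀ x ∈ P (T.H i), T.dim x = 0 → (Φ.lev c' (f x) < t ↔ sb Φ (th A lam z x) c' < t)

/-- the two scale invariant conditions -/
theorem scale1 {a b lam sz : ℝ} (hs : 0 < sz) : 2 * a / sz * (b * (lam * sz)) = 2 * a * b * lam := by
  field_simp

theorem scale2 {C a b lam sz : ℝ} (hs : 0 < sz) (hl : 0 < lam) :
    C / sz * ((1 + a) / (3 / 4 * lam)) * (b * (lam * sz)) = C * (1 + a) * (4 / 3) * b := by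
  field_simp

theorem scale3 {C a b lam sz : ℝ} (hs : 0 < sz) (hl : 0 < lam) :
    C / sz * (2 * a * (b * (lam * sz)) / (3 / 4 * lam)) = C * (2 * a) * (4 / 3) * b := by
  field_simp

/-- levels of a brick which does not touch the core brick: no bad level at all -/
theorem CoreW.ws_far {ε : ℝ} (h : CoreW Φ T f c i A lam M ε g) (hLa : IsOpen La)
    (e1 : 2 * κ0 / c.1.sz * ε ≤ lam / 4) (e2 : 2 * κ0 / c.1.sz * ε ≤ 1 - lam) {c' : Φ.F}
    (hc' : ¬ (Pc Φ.F c' ∩ Pc Φ.F c).Nonempty) {t : ℝ} (ht : t ∈ Ioo (0 : ℝ) 1) :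
    WS Φ T f c i A lam (zz c.1 lam) c' t := by
  constructor
  · intro x hx hd a b hab
    have hxO : x ∈ Om := T.sub i hx
    set e : Edg T := ⟨T.cc x, x, hxO, hd, rfl⟩ with he
    have hcc : T.cc x ⊆ P (T.H i) := T.cc_sub_tile hx
    have heI : e ∈ eIn T i := mem_eIn.2 hcc
    have hsub : ∀ y ∈ T.cc x, y ∉ I (T.H i) := fun y hy =>
      not_mem_I_of_dim (T.sub i (hcc hy)) ((T.dim_le hy).trans (by omega))
    have ha : a ∈ T.cc x := by rw [hab]; exact left_mem_segment _ _ _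
    have hb : b ∈ T.cc x := by rw [hab]; exact right_mem_segment _ _ _
    have sa := h.sb_far hLa (hcc ha) hc'
    have sb' := h.sb_far hLa (hcc hb) hc'
    refine ⟨?_, ?_, fun hh => ?_, fun _ y hy => ?_⟩
    · show sb Φ (th A lam (zz c.1 lam) a) c' ≠ t
      rw [sa]; exact ht.2.ne'
    · show sb Φ (th A lam (zz c.1 lam) b) c' ≠ t
      rw [sb']; exact ht.2.ne'
    · simp only [sa, sb'] at hh
      rcases hh with hh | hh <;> exact absurd hh.1 (not_lt.2 ht.2.le)
    · have hy' : y ∈ sgm (ea e) (ev e) := by rw [sgm_edg]; exact hy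
      obtain ⟨τ, hτ, rfl⟩ := hy'
      have hcl := (h.seg e heI).close τ hτ
      have hA : A (ea e) + τ • (A (ea e + ev e) - A (ea e)) = A (ea e + τ • ev e) := by
        have h1 : A (ea e + ev e) = A.linear (ev e) + A (ea e) := by
          have := A.map_vadd (ea e) (ev e)
          simpa [add_comm] using this
        have h2 : A (ea e + τ • ev e) = A.linear (τ • ev e) + A (ea e) := by
          have := A.map_vadd (ea e) (τ • ev e)
          simpa [add_comm] using this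
        rw [h1, h2, add_sub_cancel_right, map_smul, add_comm]
      rw [hA] at hcl
      have hmu := (h.mu_A hLa (hcc hy) (hsub _ hy)).1
      show Φ.lev c' (f (ea e + τ • ev e)) ≠ t
      rw [h.lev_far hLa e1 e2 hmu hcl hc']
      exact ht.2.ne'
  · intro x hx hd
    have hn := not_mem_I_of_dim (T := T) (i := i) (T.sub i hx) (by omega)
    rw [h.sb_far hLa hx hc', h.lev_far hLa e1 e2 (h.mu_A hLa hx hn).1 (h.close x hx hd) hc']

/-- **bad levels of one core** -/
theorem CoreW.bad {kw θ η : ℝ} {n : ℕ}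
    (h : CoreW Φ T f c i A lam M (kw * (lam * c.1.sz)) g) (hLa : IsOpen La) (hδ : 0 < δ)
    (hR : 0 < R) (hC : 0 < Cs (Fintype.card (Fin 3)) δ R) (hθ : 0 < θ) (hθ1 : θ < 1 / 2)
    (k1 : 4 * κ0 * kw < θ * min 1 (2 * (1 / M) / Cs (Fintype.card (Fin 3)) δ R))
    (k2 : 2 * κ0 * kw ≤ 1 - lam) (k3 : 2 * κ0 * kw ≤ 1 / 4)
    (k4 : 2 * (Cs (Fintype.card (Fin 3)) δ R * (1 + κ0) * (4 / 3) * kw) < θ * (1 / M))
    (k5 : (6 + 24 * n + 2 * M) * (Cs (Fintype.card (Fin 3)) δ R * (1 + κ0) * (4 / 3) * kw) +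
      4 * n * θ ≤ η) (hkw : 0 ≤ kw) (hn : (eIn T i).card ≤ n)
    (hg : ∑ e ∈ eIn T i, ∫ τ in (0:ℝ)..1, g e τ ≤ kw * (lam * c.1.sz)) (c' : Φ.F) :
    ∃ Bad : Set ℝ, MeasurableSet Bad ∧ volume Bad ≤ ENNReal.ofReal η ∧
      ∀ t ∉ Bad, WS Φ T f c i A lam (zz c.1 lam) c' t := by
  classical
  have FF := foam Φ.bf hLa
  have hQ := Φ.bf.pos _ c.2
  have hsz := Bx.sz_pos hQ
  have hasp := Φ.bf.asp _ c.2
  have hκ := κ0_nonneg hQ hasp
  have hl := h.lam0
  have hM' : (0 : ℝ) < M := by exact_mod_cast h.M0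
  set C := Cs (Fintype.card (Fin 3)) δ R with hCdef
  set ε : ℝ := kw * (lam * c.1.sz) with hε
  set D : ℝ := C * (1 + κ0) * (4 / 3) with hD
  have hD0 : 0 < D := by positivity
  have s1 : 2 * κ0 / c.1.sz * ε = 2 * κ0 * kw * lam := scale1 hsz
  have s2 : C / c.1.sz * ((1 + κ0) / (3 / 4 * lam)) * ε = D * kw := scale2 hsz hl
  have s3 : C / c.1.sz * (2 * κ0 * ε / (3 / 4 * lam)) = C * (2 * κ0) * (4 / 3) * kw := scale3 hsz hl
  have l1 := h.lam1
  have c1 : 2 * (2 * κ0 / c.1.sz * ε) < θ * (lam * min 1 (2 * (1 / M) / C)) := by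
    rw [s1]
    have := mul_lt_mul_of_pos_right k1 hl
    linarith
  have c2 : 2 * κ0 / c.1.sz * ε ≤ 1 - lam := by
    rw [s1]
    have h0 : 0 ≤ 2 * κ0 * kw := by positivity
    nlinarith
  have c3 : 2 * (C / c.1.sz * ((1 + κ0) / (3 / 4 * lam) * ε)) < θ * (1 / M) := by
    rw [← mul_assoc (C / c.1.sz), s2]
    exact k4
  have c4 : 2 * κ0 / c.1.sz * ε ≤ lam / 4 := by
    rw [s1]
    nlinarith
  have hedge : ∀ e : eIn T i, ∃ Bad : Set ℝ, MeasurableSet Bad ∧ volume Bad ≤ ENNReal.ofReal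
      (4 * (C / c.1.sz * ((1 + κ0) / (3 / 4 * lam)) * ∫ τ in (0:ℝ)..1, g e τ) +
      4 * (C / c.1.sz * (2 * κ0 * ε / (3 / 4 * lam))) +
      16 * (C / c.1.sz * ((1 + κ0) / (3 / 4 * lam)) * ε) + 4 * θ) ∧
      ∀ t ∉ Bad, ExactZ (fun τ => Φ.lev c' (f (ea e.1 + τ • ev e.1)))
        (sb Φ (th A lam (zz c.1 lam) (ea e.1)) c')
        (sb Φ (th A lam (zz c.1 lam) (ea e.1 + ev e.1)) c' -
          sb Φ (th A lam (zz c.1 lam) (ea e.1)) c') t :=
    fun e => h.bad_edge hLa hδ hR hC hθ hθ1 c1 c2 c3 e.2 c'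
  choose Bad b1 b2 b3 using hedge
  set W : Set ℝ := ⋃ k ∈ Finset.range (M + 1), closedBall ((k : ℝ) / M) (D * kw) with hW
  refine ⟨(⋃ e, Bad e) ∪ W, (MeasurableSet.iUnion b1).union ?_, ?_, fun t ht => ?_⟩
  · exact Finset.measurableSet_biUnion _ fun k _ => isClosed_closedBall.measurableSet
  · -- measure
    have hgn : ∀ e ∈ eIn T i, 0 ≤ ∫ τ in (0:ℝ)..1, g e τ := fun e he =>
      intervalIntegral.integral_nonneg zero_le_one (h.seg e he).nonneg
    have m1 : volume (⋃ e, Bad e) ≤ ENNReal.ofReal (4 * (D * kw) + n * (24 * (D * kw) + 4 * θ)) := by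
      refine (measure_iUnion_fintype_le _ _).trans ((Finset.sum_le_sum fun e _ => b2 e).trans ?_)
      rw [← ENNReal.ofReal_sum_of_nonneg]
      · refine ENNReal.ofReal_le_ofReal ?_
        rw [Finset.sum_coe_sort (eIn T i) (fun e => 4 * (C / c.1.sz * ((1 + κ0) / (3 / 4 * lam)) *
          ∫ τ in (0:ℝ)..1, g e τ) + 4 * (C / c.1.sz * (2 * κ0 * ε / (3 / 4 * lam))) +
          16 * (C / c.1.sz * ((1 + κ0) / (3 / 4 * lam)) * ε) + 4 * θ), s3, s2]
        simp only [Finset.sum_add_distrib, Finset.sum_const, nsmul_eq_mul]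
        rw [← Finset.mul_sum, ← Finset.mul_sum]
        have t1 : C / c.1.sz * ((1 + κ0) / (3 / 4 * lam)) * ∑ e ∈ eIn T i, ∫ τ in (0:ℝ)..1, g e τ ≤
            D * kw := by
          rw [← s2]
          exact mul_le_mul_of_nonneg_left hg (by positivity)
        have t2 : C * (2 * κ0) * (4 / 3) * kw ≤ 2 * (D * kw) := by
          rw [hD]
          have : 0 ≤ C * (4 / 3) * kw := by positivity
          nlinarith
        have hn' : ((eIn T i).card : ℝ) ≤ n := by exact_mod_cast hn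
        have hD1 : 0 ≤ D * kw := by positivity
        have t3 : ((eIn T i).card : ℝ) * (24 * (D * kw) + 4 * θ) ≤ n * (24 * (D * kw) + 4 * θ) :=
          mul_le_mul_of_nonneg_right hn' (by positivity)
        have t4 : ((eIn T i).card : ℝ) * (4 * (C * (2 * κ0) * (4 / 3) * kw)) ≤
            ((eIn T i).card : ℝ) * (8 * (D * kw)) :=
          mul_le_mul_of_nonneg_left (by linarith) (Nat.cast_nonneg _)
        nlinarith
      · intro e _
        have := hgn e.1 e.2
        rw [s3, s2]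
        positivity
    have m2 : volume W ≤ ENNReal.ofReal ((M + 1) * (2 * (D * kw))) := by
      refine (measure_biUnion_finset_le _ _).trans ?_
      simp only [Real.volume_closedBall, Finset.sum_const, Finset.card_range, nsmul_eq_mul]
      rw [← ENNReal.ofReal_natCast, ← ENNReal.ofReal_mul (Nat.cast_nonneg _)]
      refine ENNReal.ofReal_le_ofReal ?_
      push_cast
      exact le_rfl
    refine (measure_union_le _ _).trans ((add_le_add m1 m2).trans ?_)
    rw [← ENNReal.ofReal_add (by positivity) (by positivity)]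
    refine ENNReal.ofReal_le_ofReal ?_
    nlinarith
  · -- words
    simp only [mem_union, not_or, mem_iUnion, not_exists] at ht
    obtain ⟨ht1, ht2⟩ := ht
    have hvert : ∀ x ∈ P (T.H i), T.dim x = 0 →
        D * kw < |t - sb Φ (th A lam (zz c.1 lam) x) c'| := by
      intro x hx hd
      obtain ⟨k, hk⟩ := vertex_nat (c := c) hLa hl h.M0 h.tile h.grid hx hd c'
      have hk1 : sb Φ (th A lam (zz c.1 lam) x) c' ≤ 1 :=
        FF.sc_le_one (FF.sub c (th_mem (c := c) hl h.tile hx)) c'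
      rw [hk, div_le_one hM'] at hk1
      have hkM : k ≤ M := by exact_mod_cast hk1
      by_contra hcon
      push Not at hcon
      apply ht2
      rw [hW]
      simp only [mem_iUnion]
      refine ⟨k, Finset.mem_range.2 (by omega), ?_⟩
      rw [mem_closedBall, Real.dist_eq, ← hk]
      exact hcon
    have hDk : 0 ≤ D * kw := by positivity
    constructor
    · intro x hx hd a b hab
      have hxO : x ∈ Om := T.sub i hx
      set e : Edg T := ⟨T.cc x, x, hxO, hd, rfl⟩ with he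
      have hcc : T.cc x ⊆ P (T.H i) := T.cc_sub_tile hx
      have heI : e ∈ eIn T i := mem_eIn.2 hcc
      have ma := h.mem_ea heI
      have mb := h.mem_eb heI
      have v0 := hvert _ ma.1 (dim_ea e)
      have v1 := hvert _ mb.1 (dim_eb e)
      have n0 : sb Φ (th A lam (zz c.1 lam) (ea e)) c' ≠ t := by
        intro h'
        rw [h', sub_self, abs_zero] at v0
        linarith
      have n1 : sb Φ (th A lam (zz c.1 lam) (ea e + ev e)) c' ≠ t := by
        intro h'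
        rw [h', sub_self, abs_zero] at v1
        linarith
      have hZ := b3 ⟨e, heI⟩ t (ht1 ⟨e, heI⟩)
      exact we_ends (we_of_exactZ (u := fun y => Φ.lev c' (f y))
        (s := fun y => sb Φ (th A lam (zz c.1 lam) y) c') hZ n0 n1) hab
    · intro x hx hd
      have v0 := hvert x hx hd
      have hcl := h.close_vertex hLa hδ hR c4 c2 hx hd c'
      rw [s2] at hcl
      have hcl' := abs_le.1 hcl
      rcases lt_abs.1 v0 with v | v
      · constructor <;> intro _ <;> linarith [hcl'.1, hcl'.2]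
      · constructor <;> intro _ <;> linarith [hcl'.1, hcl'.2]

end one

end Crest.Agent.R096.Wd_120
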