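import Mathlib

/-!
Row 96 (S0127), helper862: volume of a wedge of the standard simplex and of its linear images
(REL-3 of 628).
-/

set_option autoImplicit false

open MeasureTheory Set

namespace Crest.Agent.R096.Wdg_862

noncomputable section

/-- wedge in the unit cube -/
theorem vol_wedge {X : Set ℝ} (hX : MeasurableSet X) :
    volume {x : Fin 3 → ℝ | (∀ i, x i ∈ Set.Icc (0:ℝ) 1) ∧ ∃ t ∈ X, x 1 = t * x 0} ≤ volume X := by
  classical
  set W : Set (Fin 3 → ℝ) := {x | (∀ i, x i ∈ Set.Icc (0:ℝ) 1) ∧ (x 0 = 0 ∨ x 1 / x 0 ∈ X)} with hW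
  have hsub : {x : Fin 3 → ℝ | (∀ i, x i ∈ Set.Icc (0:ℝ) 1) ∧ ∃ t ∈ X, x 1 = t * x 0} ⊆ W := by
    rintro x ⟨h1, t, ht, h2⟩
    refine ⟨h1, ?_⟩
    by_cases h0 : x 0 = 0
    · exact Or.inl h0
    · right
      rw [h2, mul_div_assoc, div_self h0, mul_one]
      exact ht
  refine (measure_mono hsub).trans ?_
  have hWm : MeasurableSet W := by
    have e1 : W = (⋂ i, {x : Fin 3 → ℝ | x i ∈ Set.Icc (0:ℝ) 1}) ∩
        ({x | x 0 = 0} ∪ {x | x 1 / x 0 ∈ X}) := by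
      ext x
      simp [hW]
    rw [e1]
    refine (MeasurableSet.iInter fun i => measurableSet_Icc.preimage (measurable_pi_apply i)).inter
      (MeasurableSet.union ?_ ?_)
    · exact (measurableSet_singleton (0:ℝ)).preimage (measurable_pi_apply 0)
    · exact hX.preimage ((measurable_pi_apply 1).div (measurable_pi_apply 0))
  let e := MeasurableEquiv.piFinSuccAbove (fun _ : Fin 3 => ℝ) 1
  have he : MeasurePreserving e volume volume :=
    volume_preserving_piFinSuccAbove (fun _ : Fin 3 => ℝ) 1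
  have h1 : volume W = volume (e.symm ⁻¹' W) := by
    have := he.symm e |>.measure_preimage hWm.nullMeasurableSet
    exact this.symm
  rw [h1]
  have hm : MeasurableSet (e.symm ⁻¹' W) := e.symm.measurable hWm
  rw [show (volume : Measure (ℝ × (Fin 2 → ℝ))) = (volume : Measure ℝ).prod volume from rfl,
    Measure.prod_apply_symm hm]
  have hkey : ∀ᵐ y : Fin 2 → ℝ, volume ((fun s : ℝ => (s, y)) ⁻¹' (e.symm ⁻¹' W)) ≤
      (Set.Icc (0 : Fin 2 → ℝ) 1).indicator (fun _ => volume X) y := by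
    have hne : ∀ᵐ y : Fin 2 → ℝ, y 0 ≠ 0 := by
      have : volume {y : Fin 2 → ℝ | y 0 = 0} = 0 := by
        have h2 := (volume_preserving_piFinSuccAbove (fun _ : Fin 2 => ℝ) 0)
        have h3 : {y : Fin 2 → ℝ | y 0 = 0} =
            (MeasurableEquiv.piFinSuccAbove (fun _ : Fin 2 => ℝ) 0) ⁻¹' (({0} : Set ℝ) ×ˢ univ) := by
          ext y
          simp [MeasurableEquiv.piFinSuccAbove]
        rw [h3, h2.measure_preimage ((measurableSet_singleton _).prod MeasurableSet.univ).nullMeasurableSet]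
        rw [show (volume : Measure (ℝ × (Fin 1 → ℝ))) = (volume : Measure ℝ).prod volume from rfl,
          Measure.prod_prod]
        simp
      exact measure_eq_zero_iff_ae_notMem.mp this
    filter_upwards [hne] with y hy
    have hmem : ∀ s : ℝ, (s, y) ∈ e.symm ⁻¹' W ↔
        ((∀ i, (e.symm (s, y)) i ∈ Set.Icc (0:ℝ) 1) ∧
          ((e.symm (s, y)) 0 = 0 ∨ (e.symm (s, y)) 1 / (e.symm (s, y)) 0 ∈ X)) := fun s => Iff.rfl
    have he0 : ∀ s : ℝ, (e.symm (s, y)) 0 = y 0 := by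
      intro s
      simp [e, MeasurableEquiv.piFinSuccAbove]
      rfl
    have he1 : ∀ s : ℝ, (e.symm (s, y)) 1 = s := by
      intro s
      exact Fin.insertNth_apply_same (α := fun _ : Fin 3 => ℝ) 1 s y
    have he2 : ∀ s : ℝ, (e.symm (s, y)) 2 = y 1 := by
      intro s
      simp [e, MeasurableEquiv.piFinSuccAbove]
      rfl
    by_cases hy1 : y ∈ Set.Icc (0 : Fin 2 → ℝ) 1
    · rw [Set.indicator_of_mem hy1]
      have hy0 : 0 < y 0 := lt_of_le_of_ne (hy1.1 0) (Ne.symm hy)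
      have hy0' : y 0 ≤ 1 := hy1.2 0
      have hsub2 : (fun s : ℝ => (s, y)) ⁻¹' (e.symm ⁻¹' W) ⊆ (fun s : ℝ => (y 0)⁻¹ * s) ⁻¹' X := by
        intro s hs
        rcases (hmem s).1 hs with ⟨_, h | h⟩
        · exact absurd ((he0 s).symm.trans h) hy
        · rw [he0, he1] at h
          simpa [div_eq_inv_mul] using h
      refine (measure_mono hsub2).trans ?_
      rw [Real.volume_preimage_mul_left (inv_ne_zero hy) X]
      rw [inv_inv, abs_of_pos hy0]
      calc ENNReal.ofReal (y 0) * volume X ≤ 1 * volume X := by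
            gcongr
            exact ENNReal.ofReal_le_one.mpr hy0'
        _ = volume X := one_mul _
    · rw [Set.indicator_of_notMem hy1]
      have : (fun s : ℝ => (s, y)) ⁻¹' (e.symm ⁻¹' W) = ∅ := by
        rw [Set.eq_empty_iff_forall_notMem]
        intro s hs
        apply hy1
        rcases (hmem s).1 hs with ⟨h, _⟩
        have a0 := h 0
        have a2 := h 2
        rw [he0] at a0
        rw [he2] at a2
        constructor
        · intro i
          fin_cases i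
          · exact a0.1
          · exact a2.1
        · intro i
          fin_cases i
          · exact a0.2
          · exact a2.2
      rw [this, measure_empty]
  refine (lintegral_mono_ae hkey).trans ?_
  rw [lintegral_indicator measurableSet_Icc, setLIntegral_const, Real.volume_Icc_pi]
  simp

/-- a unimodular change of variables -/
theorem vol_pre (M : Matrix (Fin 3) (Fin 3) ℝ) (h : |M.det| = 1) (S : Set (Fin 3 → ℝ)) :
    volume {x : Fin 3 → ℝ | M.mulVec x ∈ S} = volume S := by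
  have hd : LinearMap.det (Matrix.toLin' M) = M.det := LinearMap.det_toLin' M
  have h0 : LinearMap.det (Matrix.toLin' M) ≠ 0 := by
    rw [hd]
    intro h0
    rw [h0] at h
    simp at h
  have := Measure.addHaar_preimage_linearMap (volume : Measure (Fin 3 → ℝ)) h0 S
  have e1 : {x : Fin 3 → ℝ | M.mulVec x ∈ S} = (Matrix.toLin' M) ⁻¹' S := by
    ext x
    simp [Matrix.toLin'_apply]
  rw [e1, this, hd, abs_inv, h]
  simp

/-- the solid simplex -/
def Sx : Set (Fin 3 → ℝ) := {α | (∀ i, 0 ≤ α i) ∧ α 0 + α 1 + α 2 ≤ 1}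

/-- the volume of the solid simplex is at least `1/6` -/
theorem simplex_ge : 1 ≤ 6 * volume Sx := by
  let M1 : Matrix (Fin 3) (Fin 3) ℝ := !![1, 0, 0; -1, 1, 0; 0, -1, 1]
  let M2 : Matrix (Fin 3) (Fin 3) ℝ := !![1, 0, 0; -1, 0, 1; 0, 1, -1]
  let M3 : Matrix (Fin 3) (Fin 3) ℝ := !![0, 1, 0; 1, -1, 0; -1, 0, 1]
  let M4 : Matrix (Fin 3) (Fin 3) ℝ := !![0, 1, 0; 0, -1, 1; 1, 0, -1]
  let M5 : Matrix (Fin 3) (Fin 3) ℝ := !![0, 0, 1; 1, 0, -1; -1, 1, 0]
  let M6 : Matrix (Fin 3) (Fin 3) ℝ := !![0, 0, 1; 0, 1, -1; 1, -1, 0]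
  have d1 : |M1.det| = 1 := by simp [M1, Matrix.det_fin_three]
  have d2 : |M2.det| = 1 := by simp [M2, Matrix.det_fin_three]
  have d3 : |M3.det| = 1 := by simp [M3, Matrix.det_fin_three]
  have d4 : |M4.det| = 1 := by simp [M4, Matrix.det_fin_three]
  have d5 : |M5.det| = 1 := by simp [M5, Matrix.det_fin_three]
  have d6 : |M6.det| = 1 := by simp [M6, Matrix.det_fin_three]
  have hc : volume (Set.Icc (0 : Fin 3 → ℝ) 1) = 1 := by
    rw [Real.volume_Icc_pi]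
    simp
  have hcov : Set.Icc (0 : Fin 3 → ℝ) 1 ⊆ {x | M1.mulVec x ∈ Sx} ∪ ({x | M2.mulVec x ∈ Sx} ∪
      ({x | M3.mulVec x ∈ Sx} ∪ ({x | M4.mulVec x ∈ Sx} ∪ ({x | M5.mulVec x ∈ Sx} ∪
      {x | M6.mulVec x ∈ Sx})))) := by
    intro x hx
    have a0 := hx.1 0
    have a1 := hx.1 1
    have a2 := hx.1 2
    have b0 := hx.2 0
    have b1 := hx.2 1
    have b2 := hx.2 2
    simp only [Pi.zero_apply, Pi.one_apply] at a0 a1 a2 b0 b1 b2
    simp only [Set.mem_union, Set.mem_ofPred_eq, Sx, M1, M2, M3, M4, M5, M6, Matrix.mulVec,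
      dotProduct, Fin.sum_univ_three, Fin.forall_fin_succ, Matrix.of_apply, Matrix.cons_val',
      Matrix.cons_val_zero, Matrix.cons_val_one, Matrix.cons_val, Fin.isValue,
      IsEmpty.forall_iff, and_true, Fin.succ_zero_eq_one, Fin.succ_one_eq_two]
    rcases le_total (x 0) (x 1) with h01 | h01 <;> rcases le_total (x 0) (x 2) with h02 | h02 <;>
      rcases le_total (x 1) (x 2) with h12 | h12
    · left; refine ⟨⟨?_, ?_, ?_⟩, ?_⟩ <;> linarith
    · right; left; refine ⟨⟨?_, ?_, ?_⟩, ?_⟩ <;> linarith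
    · right; right; right; right; left; refine ⟨⟨?_, ?_, ?_⟩, ?_⟩ <;> linarith
    · right; right; right; right; left; refine ⟨⟨?_, ?_, ?_⟩, ?_⟩ <;> linarith
    · right; right; left; refine ⟨⟨?_, ?_, ?_⟩, ?_⟩ <;> linarith
    · right; right; right; right; right; refine ⟨⟨?_, ?_, ?_⟩, ?_⟩ <;> linarith
    · right; right; right; left; refine ⟨⟨?_, ?_, ?_⟩, ?_⟩ <;> linarith
    · right; right; right; right; right; refine ⟨⟨?_, ?_, ?_⟩, ?_⟩ <;> linarith
  calc (1 : ENNReal) = volume (Set.Icc (0 : Fin 3 → ℝ) 1) := hc.symm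
    _ ≤ _ := measure_mono hcov
    _ ≤ volume Sx + (volume Sx + (volume Sx + (volume Sx + (volume Sx + volume Sx)))) := by
        refine (measure_union_le _ _).trans (add_le_add (vol_pre M1 d1 Sx).le ?_)
        refine (measure_union_le _ _).trans (add_le_add (vol_pre M2 d2 Sx).le ?_)
        refine (measure_union_le _ _).trans (add_le_add (vol_pre M3 d3 Sx).le ?_)
        refine (measure_union_le _ _).trans (add_le_add (vol_pre M4 d4 Sx).le ?_)
        exact (measure_union_le _ _).trans (add_le_add (vol_pre M5 d5 Sx).le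
          (vol_pre M6 d6 Sx).le)
    _ = 6 * volume Sx := by ring

/-- the bad part of the simplex -/
def Bad (X1 X2 : Set ℝ) (δ : ℝ) : Set (Fin 3 → ℝ) :=
  {α | (∀ i, 0 ≤ α i) ∧ α 0 + α 1 + α 2 ≤ 1 ∧
    ((∃ t ∈ X1, α 0 = t * (α 0 + α 1 + α 2)) ∨ (∃ t ∈ X2, α 0 + α 1 = t * (α 0 + α 1 + α 2)) ∨
      α 1 ≤ δ * (α 0 + α 1 + α 2))}

theorem bad_le {X1 X2 : Set ℝ} (h1 : MeasurableSet X1) (h2 : MeasurableSet X2) {δ : ℝ}
    (hδ : 0 ≤ δ) :
    volume (Bad X1 X2 δ) ≤ volume X1 + volume X2 + ENNReal.ofReal δ := by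
  let M1 : Matrix (Fin 3) (Fin 3) ℝ := !![1, 1, 1; 1, 0, 0; 0, 0, 1]
  let M2 : Matrix (Fin 3) (Fin 3) ℝ := !![1, 1, 1; 1, 1, 0; 1, 0, 0]
  let M3 : Matrix (Fin 3) (Fin 3) ℝ := !![1, 1, 1; 0, 1, 0; 1, 0, 0]
  have d1 : |M1.det| = 1 := by simp [M1, Matrix.det_fin_three]
  have d2 : |M2.det| = 1 := by simp [M2, Matrix.det_fin_three]
  have d3 : |M3.det| = 1 := by simp [M3, Matrix.det_fin_three]
  have hcov : Bad X1 X2 δ ⊆
      {x | M1.mulVec x ∈ {x : Fin 3 → ℝ | (∀ i, x i ∈ Set.Icc (0:ℝ) 1) ∧ ∃ t ∈ X1, x 1 = t * x 0}} ∪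
      ({x | M2.mulVec x ∈ {x : Fin 3 → ℝ | (∀ i, x i ∈ Set.Icc (0:ℝ) 1) ∧
        ∃ t ∈ X2, x 1 = t * x 0}} ∪
      {x | M3.mulVec x ∈ {x : Fin 3 → ℝ | (∀ i, x i ∈ Set.Icc (0:ℝ) 1) ∧
        ∃ t ∈ Set.Icc 0 δ, x 1 = t * x 0}}) := by
    rintro x ⟨h0, hs, h⟩
    have a0 := h0 0
    have a1 := h0 1
    have a2 := h0 2
    simp only [Set.mem_union, Set.mem_ofPred_eq, M1, M2, M3, Matrix.mulVec,
      dotProduct, Fin.sum_univ_three, Fin.forall_fin_succ, Matrix.of_apply, Matrix.cons_val',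
      Matrix.cons_val_zero, Matrix.cons_val_one, Matrix.cons_val, Fin.isValue, Set.mem_Icc,
      IsEmpty.forall_iff, and_true, Fin.succ_zero_eq_one, Fin.succ_one_eq_two]
    rcases h with ⟨t, ht, h⟩ | ⟨t, ht, h⟩ | h
    · left
      refine ⟨⟨⟨?_, ?_⟩, ⟨?_, ?_⟩, ?_, ?_⟩, t, ht, ?_⟩ <;> linarith
    · right; left
      refine ⟨⟨⟨?_, ?_⟩, ⟨?_, ?_⟩, ?_, ?_⟩, t, ht, ?_⟩ <;> linarith
    · right; right
      rcases eq_or_lt_of_le (show 0 ≤ x 0 + x 1 + x 2 by linarith) with hz | hz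
      · refine ⟨⟨⟨?_, ?_⟩, ⟨?_, ?_⟩, ?_, ?_⟩, 0, ⟨le_rfl, hδ⟩, ?_⟩ <;> linarith
      · refine ⟨⟨⟨?_, ?_⟩, ⟨?_, ?_⟩, ?_, ?_⟩, x 1 / (x 0 + x 1 + x 2), ⟨?_, ?_⟩, ?_⟩ <;>
          try linarith
        · positivity
        · rw [div_le_iff₀ hz]; exact h
        · field_simp
          ring
  calc volume (Bad X1 X2 δ) ≤ _ := measure_mono hcov
    _ ≤ volume X1 + (volume X2 + volume (Set.Icc 0 δ)) := by
        refine (measure_union_le _ _).trans (add_le_add ?_ ((measure_union_le _ _).trans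
          (add_le_add ?_ ?_)))
        · exact (vol_pre M1 d1 _).le.trans (vol_wedge h1)
        · exact (vol_pre M2 d2 _).le.trans (vol_wedge h2)
        · exact (vol_pre M3 d3 _).le.trans (vol_wedge measurableSet_Icc)
    _ = volume X1 + volume X2 + ENNReal.ofReal δ := by
        rw [Real.volume_Icc, sub_zero, add_assoc]

/-- linear images: the measure of an image is a constant multiple of the volume -/
theorem image_smul {E : Type*} [NormedAddCommGroup E] [NormedSpace ℝ E] [FiniteDimensional ℝ E]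
    [MeasurableSpace E] [BorelSpace E] (μ : Measure E) [μ.IsAddHaarMeasure]
    (Φ : (Fin 3 → ℝ) ≃L[ℝ] E) (o : E) :
    ∃ c : ENNReal, ∀ S : Set (Fin 3 → ℝ), μ ((fun α => o + Φ α) '' S) = c * volume S := by
  have : (μ.map Φ.symm).IsAddHaarMeasure := Φ.symm.isAddHaarMeasure_map μ
  refine ⟨(Measure.addHaarScalarFactor (μ.map Φ.symm) volume : ENNReal), fun S => ?_⟩
  have e1 : (fun α => o + Φ α) '' S = (fun y => -o + y) ⁻¹' (Φ '' S) := by
    rw [← Set.image_add_left, Set.image_image]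
  have e2 : (μ.map Φ.symm) S = μ (Φ '' S) := by
    have := (Φ.symm.toHomeomorph.toMeasurableEquiv).map_apply (μ := μ) S
    rw [Φ.image_eq_preimage_symm]
    exact this
  have e3 := Measure.isAddLeftInvariant_eq_smul (μ.map Φ.symm) (volume : Measure (Fin 3 → ℝ))
  rw [e1, measure_preimage_add, ← e2]
  conv_lhs => rw [e3]
  rw [Measure.smul_apply]
  rfl

/-- **REL-3** -/
theorem flag_wedge {E : Type*} [NormedAddCommGroup E] [NormedSpace ℝ E] [FiniteDimensional ℝ E]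
    [MeasurableSpace E] [BorelSpace E] (μ : Measure E) [μ.IsAddHaarMeasure]
    (Φ : (Fin 3 → ℝ) ≃L[ℝ] E) (o : E) {X1 X2 : Set ℝ} (h1 : MeasurableSet X1)
    (h2 : MeasurableSet X2) {δ : ℝ} (hδ : 0 ≤ δ) :
    μ ((fun α => o + Φ α) '' {α | (∀ i, 0 ≤ α i) ∧ α 0 + α 1 + α 2 ≤ 1 ∧
      ((∃ t ∈ X1, α 0 = t * (α 0 + α 1 + α 2)) ∨ (∃ t ∈ X2, α 0 + α 1 = t * (α 0 + α 1 + α 2)) ∨
        α 1 ≤ δ * (α 0 + α 1 + α 2))}) ≤
    6 * (volume X1 + volume X2 + ENNReal.ofReal δ) *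
      μ ((fun α => o + Φ α) '' {α | (∀ i, 0 ≤ α i) ∧ α 0 + α 1 + α 2 ≤ 1}) := by
  obtain ⟨c, hc⟩ := image_smul μ Φ o
  rw [hc, hc]
  have hb := bad_le h1 h2 hδ
  have hs := simplex_ge
  unfold Bad at hb
  unfold Sx at hs
  calc c * volume {α : Fin 3 → ℝ | (∀ i, 0 ≤ α i) ∧ α 0 + α 1 + α 2 ≤ 1 ∧
      ((∃ t ∈ X1, α 0 = t * (α 0 + α 1 + α 2)) ∨ (∃ t ∈ X2, α 0 + α 1 = t * (α 0 + α 1 + α 2)) ∨
        α 1 ≤ δ * (α 0 + α 1 + α 2))}
      ≤ c * (volume X1 + volume X2 + ENNReal.ofReal δ) * 1 := by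
        rw [mul_one]; gcongr
    _ ≤ c * (volume X1 + volume X2 + ENNReal.ofReal δ) *
        (6 * volume {α : Fin 3 → ℝ | (∀ i, 0 ≤ α i) ∧ α 0 + α 1 + α 2 ≤ 1}) := by gcongr
    _ = _ := by ring

end

end Crest.Agent.R096.Wdg_862
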