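import Crest.Agent.R096.St1_147
import Crest.Agent.R096.Fx5_689

/-!
# R096 / P3 / FACE (1): a face of a state is a chord diagram `Fx_689.Dg`
-/

set_option autoImplicit false

namespace Crest.Agent.R096.Wk_689
open St_147 Fx_689

variable {ι Φ W I : Type} {M : MeshC ι Φ W} {col : I → Bool} (s : St M col)

theorem Dbl.ext' {z z' : s.Dbl} (h : z.F = z'.F) (he : z.e = z'.e) : z = z' := by
  cases z; cases z'; simp only at h he; subst h; subst he; rfl

open Classical in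
/-- number of points of the state on `F` below the position `t` -/
noncomputable def rk (F : Φ) (t : ℝ) : ℕ :=
  (s.P.filter (fun u => u ∈ M.On F ∧ M.pos F u < t)).card

lemma rk_mono (F : Φ) {t t' : ℝ} (h : t ≤ t') : rk s F t ≤ rk s F t' := by
  classical
  unfold rk
  apply Finset.card_le_card
  intro u hu
  rw [Finset.mem_filter] at hu ⊢
  exact ⟨hu.1, hu.2.1, lt_of_lt_of_le hu.2.2 h⟩

lemma rk_lt {F : Φ} {t t' : ℝ} {u : W} (hu : s.At F u) (h1 : t ≤ M.pos F u)
    (h2 : M.pos F u < t') : rk s F t < rk s F t' := by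
  classical
  unfold rk
  apply Finset.card_lt_card
  rw [Finset.ssubset_iff_of_subset]
  · refine ⟨u, ?_, ?_⟩
    · rw [Finset.mem_filter]; exact ⟨hu.1, hu.2, h2⟩
    · rw [Finset.mem_filter]; rintro ⟨-, -, h3⟩; exact absurd h3 (not_lt.2 h1)
  · intro v hv
    rw [Finset.mem_filter] at hv ⊢
    exact ⟨hv.1, hv.2.1, hv.2.2.trans (lt_of_le_of_lt h1 h2)⟩

lemma rk_lt_iff {F : Φ} {u v : W} (hu : s.At F u) :
    rk s F (M.pos F u) < rk s F (M.pos F v) ↔ M.pos F u < M.pos F v := by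
  constructor
  · intro h
    by_contra hcon
    exact absurd h (not_lt.2 (rk_mono s F (not_lt.1 hcon)))
  · intro h
    exact rk_lt s hu le_rfl h

lemma rk_inj {F : Φ} {u v : W} (hu : s.At F u) (hv : s.At F v)
    (h : rk s F (M.pos F u) = rk s F (M.pos F v)) : u = v := by
  apply M.pos_inj F hu.2 hv.2
  rcases lt_trichotomy (M.pos F u) (M.pos F v) with h1 | h1 | h1
  · exact absurd h (ne_of_lt ((rk_lt_iff s hu).2 h1))
  · exact h1
  · exact absurd h.symm (ne_of_lt ((rk_lt_iff s hv).2 h1))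

lemma At.mu {F : Φ} {w : W} (h : s.At F w) : s.At F (s.mu F w) := s.mu_mem h.1 h.2

lemma pos_ne {F : Φ} {u v : W} (hu : s.At F u) (hv : s.At F v) (h : u ≠ v) :
    M.pos F u ≠ M.pos F v := fun h' => h (M.pos_inj F hu.2 hv.2 h')

/-- chords of the face `F`, given by their lower end point -/
def Ch (F : Φ) : Type := {a : W // s.At F a ∧ M.pos F a < M.pos F (s.mu F a)}

noncomputable instance (F : Φ) : Fintype (Ch s F) := by
  classical
  exact Fintype.ofInjective (β := {a // a ∈ s.P}) (fun a : Ch s F => ⟨a.1, a.2.1.1⟩)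
    (fun a b h => Subtype.ext (by simpa using h))

noncomputable instance (F : Φ) : DecidableEq (Ch s F) := Classical.decEq _

/-- the diagram of the face -/
noncomputable def dg (F : Φ) : Dg (Ch s F) where
  lo a := rk s F (M.pos F a.1)
  hi a := rk s F (M.pos F (s.mu F a.1))
  lt a := (rk_lt_iff s a.2.1).2 a.2.2
  lo_inj a b h := Subtype.ext (rk_inj s a.2.1 b.2.1 h)
  hi_inj a b h := by
    have h1 := rk_inj s (At.mu s a.2.1) (At.mu s b.2.1) h
    apply Subtype.ext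
    rw [← s.mu_mu a.2.1.1 a.2.1.2, h1, s.mu_mu b.2.1.1 b.2.1.2]
  ne a b h := by
    have h1 := rk_inj s a.2.1 (At.mu s b.2.1) h
    have h2 := a.2.2
    have h3 := b.2.2
    rw [h1, s.mu_mu b.2.1.1 b.2.1.2] at h2
    exact lt_asymm h2 h3
  fam a := col (s.lab a.1)
  nc a b hf h := by
    obtain ⟨h1, h2, h3⟩ := h
    have g1 := (rk_lt_iff s a.2.1).1 h1
    have g2 := (rk_lt_iff s b.2.1).1 h2
    have g3 := (rk_lt_iff s (At.mu s a.2.1)).1 h3
    have hne : b.1 ≠ a.1 := by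
      intro h; rw [h] at g1; exact lt_irrefl _ g1
    have hne' : b.1 ≠ s.mu F a.1 := by
      intro h; rw [h] at g2; exact lt_irrefl _ g2
    refine s.nc a.2.1.1 a.2.1.2 b.2.1.1 b.2.1.2 hf hne hne' ?_
    intro hl
    have hb : M.Btw F a.1 (s.mu F a.1) b.1 := Or.inl ⟨g1, g2⟩
    rcases hl.1 hb with h | h
    · exact absurd h.2 (not_lt.2 g3.le)
    · exact absurd (g1.trans (g2.trans g3)) (not_lt.2 h.2.le)

lemma X_iff {F : Φ} (a b : Ch s F) (h : a ≠ b) :
    (dg s F).X a b ↔ M.Lace F a.1 (s.mu F a.1) b.1 (s.mu F b.1) := by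
  have e0 : ∀ {u v : W}, s.At F u → s.At F v → u ≠ v → (M.pos F u < M.pos F v ∨
    M.pos F v < M.pos F u) := fun hu hv h => lt_or_gt_of_ne (pos_ne s hu hv h)
  have ha := a.2.1; have hb := b.2.1
  have ha' := At.mu s ha; have hb' := At.mu s hb
  have hab : a.1 ≠ b.1 := fun h' => h (Subtype.ext h')
  have h1 := (dg s F).ne a b
  have h2 := (dg s F).ne b a
  have n1 : a.1 ≠ s.mu F b.1 := fun h' => h1 (by
    show rk s F (M.pos F a.1) = rk s F (M.pos F (s.mu F b.1)); rw [h'])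
  have n2 : b.1 ≠ s.mu F a.1 := fun h' => h2 (by
    show rk s F (M.pos F b.1) = rk s F (M.pos F (s.mu F a.1)); rw [h'])
  have n3 : s.mu F a.1 ≠ s.mu F b.1 := fun h' => h ((dg s F).hi_inj a b (by
    show rk s F (M.pos F (s.mu F a.1)) = rk s F (M.pos F (s.mu F b.1)); rw [h']))
  have la := a.2.2; have lb := b.2.2
  have d1 := e0 ha hb hab
  have d2 := e0 ha hb' n1
  have d3 := e0 hb ha' n2
  have d4 := e0 ha' hb' n3
  have hX : (dg s F).X a b ↔ (M.pos F a.1 < M.pos F b.1 ∧ M.pos F b.1 < M.pos F (s.mu F a.1) ∧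
      M.pos F (s.mu F a.1) < M.pos F (s.mu F b.1)) ∨
      (M.pos F b.1 < M.pos F a.1 ∧ M.pos F a.1 < M.pos F (s.mu F b.1) ∧
      M.pos F (s.mu F b.1) < M.pos F (s.mu F a.1)) := by
    unfold Dg.X
    show (rk s F (M.pos F a.1) < rk s F (M.pos F b.1) ∧ rk s F (M.pos F b.1) <
      rk s F (M.pos F (s.mu F a.1)) ∧ rk s F (M.pos F (s.mu F a.1)) <
      rk s F (M.pos F (s.mu F b.1))) ∨ (rk s F (M.pos F b.1) < rk s F (M.pos F a.1) ∧
      rk s F (M.pos F a.1) < rk s F (M.pos F (s.mu F b.1)) ∧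
      rk s F (M.pos F (s.mu F b.1)) < rk s F (M.pos F (s.mu F a.1))) ↔ _
    rw [rk_lt_iff s ha, rk_lt_iff s hb, rk_lt_iff s ha', rk_lt_iff s hb, rk_lt_iff s ha,
      rk_lt_iff s hb']
  rw [hX]
  unfold MeshC.Lace MeshC.Btw
  generalize M.pos F a.1 = A at *
  generalize M.pos F b.1 = B at *
  generalize M.pos F (s.mu F a.1) = A' at *
  generalize M.pos F (s.mu F b.1) = B' at *
  rcases d1 with d1 | d1 <;> rcases d2 with d2 | d2 <;> rcases d3 with d3 | d3 <;>
    rcases d4 with d4 | d4 <;>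
    simp [d1, d2, d3, d4, la, lb, not_lt.2 d1.le, not_lt.2 d2.le, not_lt.2 d3.le, not_lt.2 d4.le,
      not_lt.2 la.le, not_lt.2 lb.le] <;> linarith

end Crest.Agent.R096.Wk_689
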