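import Crest.Agent.R096.Wk1_689

/-!
# R096 / P3 / FACE (2): double points along a chord, sub-chords
-/

set_option autoImplicit false

namespace Crest.Agent.R096.Wk_689
open St_147 Fx_689

variable {ι Φ W I : Type} {M : MeshC ι Φ W} {col : I → Bool} {s : St M col}

/-- the chord of colour `x` through `z` -/
def cz (z : s.Dbl) (x : Bool) : Ch s z.F := ⟨z.e x, z.at_ x, z.low x⟩

lemma cz_fam (z : s.Dbl) (x : Bool) : (dg s z.F).fam (cz z x) = x := z.colr x

lemma cz_ne (z : s.Dbl) {x y : Bool} (h : x ≠ y) : cz z x ≠ cz z y := by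
  intro h'
  have h1 := cz_fam z x
  have h2 := cz_fam z y
  rw [h', h2] at h1
  exact h h1.symm

lemma cz_X (z : s.Dbl) (x : Bool) : (dg s z.F).X (cz z x) (cz z (!x)) := by
  have h : (dg s z.F).X (cz z true) (cz z false) :=
    (X_iff s _ _ (cz_ne z (by decide))).2 z.lace
  cases x
  · exact (dg s z.F).X_symm h
  · exact h

open Classical in
/-- the end point of the other chord which lies between the ends of the chord of colour `x` -/
noncomputable def kp (z : s.Dbl) (x : Bool) : W :=
  if M.Btw z.F (z.e x) (s.mu z.F (z.e x)) (z.e (!x)) then z.e (!x) else s.mu z.F (z.e (!x))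

lemma key_eq (z : s.Dbl) (x : Bool) : z.key x = M.pos z.F (kp z x) := by
  unfold St.Dbl.key kp
  split_ifs <;> rfl

lemma kp_at (z : s.Dbl) (x : Bool) : s.At z.F (kp z x) := by
  unfold kp
  split_ifs
  · exact z.at_ _
  · exact At.mu s (z.at_ _)

lemma lo_eq_of_lt {F : Φ} {w : W} (h : M.pos F w < M.pos F (s.mu F w)) : s.lo F w = w := by
  unfold St.lo
  rw [if_pos h.le]

lemma lo_mu_of_lt {F : Φ} {w : W} (hw : s.At F w) (h : M.pos F w < M.pos F (s.mu F w)) :
    s.lo F (s.mu F w) = w := by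
  unfold St.lo
  rw [s.mu_mu hw.1 hw.2, if_neg (not_le.2 h)]

lemma lo_kp (z : s.Dbl) (x : Bool) : s.lo z.F (kp z x) = z.e (!x) := by
  unfold kp
  split_ifs
  · exact lo_eq_of_lt (z.low _)
  · exact lo_mu_of_lt (z.at_ _) (z.low _)

lemma rk_key (z : s.Dbl) (x : Bool) :
    rk s z.F (z.key x) = (dg s z.F).e (cz z x) (cz z (!x)) := by
  have hX := cz_X z x
  rw [key_eq]
  unfold kp Dg.e
  have e1 : (dg s z.F).lo (cz z x) = rk s z.F (M.pos z.F (z.e x)) := rfl
  have e2 : (dg s z.F).lo (cz z (!x)) = rk s z.F (M.pos z.F (z.e (!x))) := rfl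
  have e3 : (dg s z.F).hi (cz z x) = rk s z.F (M.pos z.F (s.mu z.F (z.e x))) := rfl
  have e4 : (dg s z.F).hi (cz z (!x)) = rk s z.F (M.pos z.F (s.mu z.F (z.e (!x)))) := rfl
  rcases hX with ⟨h1, h2, h3⟩ | ⟨h1, h2, h3⟩
  · rw [if_pos h1]
    rw [e1, e2, rk_lt_iff s (z.at_ _)] at h1
    rw [e2, e3, rk_lt_iff s (z.at_ _)] at h2
    have hb : M.Btw z.F (z.e x) (s.mu z.F (z.e x)) (z.e (!x)) := Or.inl ⟨h1, h2⟩
    rw [if_pos hb]
    rfl
  · rw [if_neg (not_lt.2 h1.le)]
    rw [e1, e2, rk_lt_iff s (z.at_ _)] at h1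
    rw [e1, e4, rk_lt_iff s (z.at_ _)] at h2
    rw [e3, e4, rk_lt_iff s (At.mu s (z.at_ _))] at h3
    have : ¬ M.Btw z.F (z.e x) (s.mu z.F (z.e x)) (z.e (!x)) := by
      rintro (h | h)
      · exact lt_asymm h1 h.1
      · exact absurd (h.1.trans h.2) (not_lt.2 (z.low x).le)
    rw [if_neg this]
    rfl

lemma key_mem (z : s.Dbl) (x : Bool) :
    M.pos z.F (z.e x) < z.key x ∧ z.key x < M.pos z.F (s.mu z.F (z.e x)) := by
  have h := (dg s z.F).e_mem (cz_X z x)
  rw [← rk_key, key_eq] at h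
  have e1 : (dg s z.F).lo (cz z x) = rk s z.F (M.pos z.F (z.e x)) := rfl
  have e3 : (dg s z.F).hi (cz z x) = rk s z.F (M.pos z.F (s.mu z.F (z.e x))) := rfl
  rw [e1, e3, rk_lt_iff s (z.at_ _), rk_lt_iff s (kp_at z x)] at h
  rw [key_eq]
  exact h

lemma key_inj {z z' : s.Dbl} {x : Bool} (hF : z.F = z'.F) (he : z.e x = z'.e x)
    (hk : z.key x = z'.key x) : z = z' := by
  apply Dbl.ext' s hF
  funext y
  by_cases hy : y = x
  · subst hy; exact he
  · have hy' : y = !x := by cases y <;> cases x <;> simp_all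
    subst hy'
    rw [← lo_kp z x, ← lo_kp z' x]
    rw [key_eq, key_eq] at hk
    have : kp z x = kp z' x := by
      apply M.pos_inj z.F (kp_at z x).2 (by rw [hF]; exact (kp_at z' x).2)
      rw [hk, hF]
    rw [this, hF]

instance : Finite s.Dbl := by
  have hfin : {F : Φ | ∃ w ∈ s.P, w ∈ M.On F}.Finite := by
    have : {F : Φ | ∃ w ∈ s.P, w ∈ M.On F} = ⋃ w ∈ s.P, {F | w ∈ M.On F} := by
      ext F; simp
    rw [this]
    exact s.P.finite_toSet.biUnion (fun w _ => M.fin w)
  have := hfin.to_subtype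
  apply Finite.of_injective
    (fun z : s.Dbl => ((⟨z.F, ⟨z.e true, (z.at_ true).1, (z.at_ true).2⟩⟩, ⟨z.e true, (z.at_ _).1⟩,
      ⟨z.e false, (z.at_ _).1⟩) :
      (↥{F : Φ | ∃ w ∈ s.P, w ∈ M.On F}) × {a // a ∈ s.P} × {a // a ∈ s.P}))
  intro z z' h
  simp only [Prod.mk.injEq, Subtype.mk.injEq] at h
  apply Dbl.ext' s h.1
  funext x
  cases x
  · exact h.2.2
  · exact h.2.1

/-! ### sub-chords -/

/-- the chord of a sub-chord -/
def chd {x : Bool} (p : s.Sub x) : Φ × W :=
  match p with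
  | .inl a => a.1
  | .inr z => (z.F, z.e x)

lemma chd_at {x : Bool} (p : s.Sub x) : s.At (chd p).1 (chd p).2 := by
  cases p with
  | inl a => exact a.2.1
  | inr z => exact z.at_ x

lemma chd_low {x : Bool} (p : s.Sub x) :
    M.pos (chd p).1 (chd p).2 < M.pos (chd p).1 (s.mu (chd p).1 (chd p).2) := by
  cases p with
  | inl a => exact a.2.2.1
  | inr z => exact z.low x

lemma chd_col {x : Bool} (p : s.Sub x) : col (s.lab (chd p).2) = x := by
  cases p with
  | inl a => exact a.2.2.2
  | inr z => exact z.colr x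

/-- the first piece of the chord of colour `x` through `z` -/
def fst (z : s.Dbl) (x : Bool) : s.Sub x := Sum.inl ⟨(z.F, z.e x), z.at_ x, z.low x, z.colr x⟩

lemma exists_below (z : s.Dbl) (x : Bool) : ∃ p : s.Sub x, p.Below z := by
  classical
  by_cases h : ∃ u : s.Dbl, u.F = z.F ∧ u.e x = z.e x ∧ u.key x < z.key x
  · obtain ⟨u, hu, hmax⟩ := Set.exists_max_image
      {u : s.Dbl | u.F = z.F ∧ u.e x = z.e x ∧ u.key x < z.key x} (fun u => u.key x)
      (Set.toFinite _) h
    refine ⟨Sum.inr u, ?_⟩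
    refine ⟨hu.1.symm, hu.2.1.symm, hu.2.2, ?_⟩
    rintro v hv1 hv2 ⟨hv3, hv4⟩
    exact absurd (hmax v ⟨hv1.trans hu.1, hv2.trans hu.2.1, hv4⟩) (not_le.2 hv3)
  · push Not at h
    exact ⟨fst z x, rfl, rfl, fun u h1 h2 => not_lt.2 (h u h1 h2)⟩

lemma below_chd {x : Bool} {p : s.Sub x} {z : s.Dbl} (h : p.Below z) :
    chd p = (z.F, z.e x) := by
  cases p with
  | inl a => exact Prod.ext h.1 h.2.1
  | inr y => exact Prod.ext h.1.symm h.2.1.symm

lemma below_unique {x : Bool} {p p' : s.Sub x} {z : s.Dbl} (h : p.Below z) (h' : p'.Below z) :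
    p = p' := by
  cases p with
  | inl a =>
    cases p' with
    | inl a' =>
      congr 1
      apply Subtype.ext
      exact Prod.ext (h.1.trans h'.1.symm) (h.2.1.trans h'.2.1.symm)
    | inr y =>
      exact absurd h'.2.2.1 (h.2.2 y h'.1.symm h'.2.1.symm)
  | inr y =>
    cases p' with
    | inl a => exact absurd h.2.2.1 (h'.2.2 y h.1.symm h.2.1.symm)
    | inr y' =>
      congr 1
      have h1 := h.2.2.2 y' (h'.1.symm.trans h.1) (h'.2.1.symm.trans h.2.1)
      have h2 := h'.2.2.2 y (h.1.symm.trans h'.1) (h.2.1.symm.trans h'.2.1)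
      apply key_inj (x := x) (h.1.symm.trans h'.1) (h.2.1.symm.trans h'.2.1)
      by_contra hne
      rcases lt_or_gt_of_ne hne with h3 | h3
      · exact h1 ⟨h3, h'.2.2.1⟩
      · exact h2 ⟨h3, h.2.2.1⟩

lemma below_inj {x : Bool} {p : s.Sub x} {z z' : s.Dbl} (h : p.Below z) (h' : p.Below z') :
    z = z' := by
  have e1 : z.F = z'.F := by
    have := (below_chd h).symm.trans (below_chd h')
    exact congrArg Prod.fst this
  have e2 : z.e x = z'.e x := by
    have := (below_chd h).symm.trans (below_chd h')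
    exact congrArg Prod.snd this
  apply key_inj (x := x) e1 e2
  by_contra hne
  cases p with
  | inl a =>
    rcases lt_or_gt_of_ne hne with h3 | h3
    · exact h'.2.2 z e1 e2 h3
    · exact h.2.2 z' e1.symm e2.symm h3
  | inr y =>
    rcases lt_or_gt_of_ne hne with h3 | h3
    · exact h'.2.2.2 z h.1 h.2.1 ⟨h.2.2.1, h3⟩
    · exact h.2.2.2 z' h'.1 h'.2.1 ⟨h'.2.2.1, h3⟩

/-- the sub-chord below `z` on the chord of colour `x` -/
noncomputable def bel (z : s.Dbl) (x : Bool) : s.Sub x := (exists_below z x).choose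

lemma bel_spec (z : s.Dbl) (x : Bool) : (bel z x).Below z := (exists_below z x).choose_spec

lemma below_iff {x : Bool} {p : s.Sub x} {z : s.Dbl} : p.Below z ↔ p = bel z x :=
  ⟨fun h => below_unique h (bel_spec z x), fun h => h ▸ bel_spec z x⟩

lemma bel_inj {x : Bool} {z z' : s.Dbl} (h : bel z x = bel z' x) : z = z' :=
  below_inj (bel_spec z x) (h ▸ bel_spec z' x)

/-- `p` is the last piece of its chord -/
def IsTop {x : Bool} (p : s.Sub x) : Prop := ∀ z : s.Dbl, ¬ p.Below z

/-- start of a piece along its chord -/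
noncomputable def start {x : Bool} (p : s.Sub x) : ℝ :=
  match p with
  | .inl a => M.pos a.1.1 a.1.2
  | .inr z => z.key x

lemma start_inj {x : Bool} {p p' : s.Sub x} (hc : chd p = chd p') (h : start p = start p') :
    p = p' := by
  cases p with
  | inl a =>
    cases p' with
    | inl a' => congr 1; exact Subtype.ext hc
    | inr z =>
      exfalso
      have h1 := (key_mem z x).1
      simp only [start] at h
      simp only [chd] at hc
      rw [← h, hc] at h1
      exact lt_irrefl _ h1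
  | inr z =>
    cases p' with
    | inl a =>
      exfalso
      have h1 := (key_mem z x).1
      simp only [start] at h
      simp only [chd] at hc
      rw [h, ← hc] at h1
      exact lt_irrefl _ h1
    | inr z' =>
      congr 1
      simp only [chd, Prod.mk.injEq] at hc
      exact key_inj hc.1 hc.2 h

lemma start_ge {x : Bool} (p : s.Sub x) : M.pos (chd p).1 (chd p).2 ≤ start p := by
  cases p with
  | inl a => exact le_rfl
  | inr z => exact (key_mem z x).1.le

lemma start_inl_le {x : Bool} {a} {p : s.Sub x} (h : chd (Sum.inl a : s.Sub x) = chd p) :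
    start (Sum.inl a : s.Sub x) ≤ start p := by
  have h3 := start_ge p
  rw [← h] at h3
  exact h3

lemma start_lt {x : Bool} (p : s.Sub x) : start p < M.pos (chd p).1 (s.mu (chd p).1 (chd p).2) := by
  cases p with
  | inl a => exact a.2.2.1
  | inr z => exact (key_mem z x).2

/-- `p` is below `z`: it starts before `z` and nothing starts in between -/
lemma below_start {x : Bool} {p : s.Sub x} {z : s.Dbl} (h : p.Below z) :
    start p < z.key x ∧ ∀ p' : s.Sub x, chd p' = chd p → ¬ (start p < start p' ∧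
      start p' < z.key x) := by
  have hc := below_chd h
  constructor
  · cases p with
    | inl a =>
      have := (key_mem z x).1
      simp only [chd] at hc
      simp only [start]
      rw [hc]; exact this
    | inr y => exact h.2.2.1
  · rintro p' hp' ⟨h1, h2⟩
    cases p' with
    | inl a => exact absurd h1 (not_lt.2 (start_inl_le hp'))
    | inr u =>
      rw [hc] at hp'
      simp only [chd, Prod.mk.injEq] at hp'
      cases p with
      | inl a => exact h.2.2 u hp'.1 hp'.2 h2
      | inr y => exact h.2.2.2 u (hp'.1.trans h.1) (hp'.2.trans h.2.1) ⟨h1, h2⟩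

lemma of_below_start {x : Bool} {p : s.Sub x} {z : s.Dbl} (hc : chd p = (z.F, z.e x))
    (h1 : start p < z.key x)
    (h2 : ∀ p' : s.Sub x, chd p' = chd p → ¬ (start p < start p' ∧ start p' < z.key x)) :
    p.Below z := by
  rw [below_iff]
  have hb := below_start (bel_spec z x)
  have hbc := below_chd (bel_spec z x)
  apply start_inj (hc.trans hbc.symm)
  by_contra hne
  rcases lt_or_gt_of_ne hne with h3 | h3
  · exact h2 (bel z x) (hbc.trans hc.symm) ⟨h3, hb.1⟩
  · exact hb.2 p (hc.trans hbc.symm) ⟨h3, h1⟩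

lemma exists_top {F : Φ} {a : W} (ha : s.At F a) (hl : M.pos F a < M.pos F (s.mu F a)) :
    ∃ p : s.Sub (col (s.lab a)), chd p = (F, a) ∧ IsTop p := by
  classical
  set x := col (s.lab a) with hx
  by_cases h : ∃ u : s.Dbl, u.F = F ∧ u.e x = a
  · obtain ⟨u, hu, hmax⟩ := Set.exists_max_image
      {u : s.Dbl | u.F = F ∧ u.e x = a} (fun u => u.key x) (Set.toFinite _) h
    refine ⟨Sum.inr u, Prod.ext hu.1 hu.2, ?_⟩
    intro z hz
    have := hmax z ⟨hz.1.trans hu.1, hz.2.1.trans hu.2⟩
    exact absurd hz.2.2.1 (not_lt.2 this)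
  · push Not at h
    refine ⟨Sum.inl ⟨(F, a), ha, hl, rfl⟩, rfl, ?_⟩
    intro z hz
    exact h z hz.1.symm hz.2.1.symm

lemma top_iff {x : Bool} {p : s.Sub x} : IsTop p ↔ ∀ p' : s.Sub x, chd p' = chd p →
    start p' ≤ start p := by
  constructor
  · intro h p' hp'
    by_contra hcon
    rw [not_le] at hcon
    -- the pieces above `p`; take the lowest
    obtain ⟨u, hu, hmin⟩ := Set.exists_min_image
      {u : s.Dbl | (u.F, u.e x) = chd p ∧ start p < u.key x} (fun u => u.key x) (Set.toFinite _)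
      (by
        cases p' with
        | inl a => exact absurd hcon (not_lt.2 (start_inl_le hp'))
        | inr u => exact ⟨u, hp', hcon⟩)
    apply h u
    apply of_below_start hu.1.symm hu.2
    rintro p'' hp'' ⟨h1, h2⟩
    cases p'' with
    | inl a => exact absurd h1 (not_lt.2 (start_inl_le hp''))
    | inr v => exact absurd (hmin v ⟨hp'', h1⟩) (not_le.2 h2)
  · intro h z hz
    have h1 := h (Sum.inr z) (below_chd hz).symm
    have h2 := (below_start hz).1
    exact absurd h2 (not_lt.2 h1)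

lemma top_unique {x : Bool} {p p' : s.Sub x} (h : IsTop p) (h' : IsTop p') (hc : chd p = chd p') :
    p = p' :=
  start_inj hc (le_antisymm (top_iff.1 h' p hc) (top_iff.1 h p' hc.symm))

end Crest.Agent.R096.Wk_689
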