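import Crest.Agent.R096.Wk4_689

/-!
# R096 / P3 / FACE (5): the labelling of a face by the orbits, parity law
-/

set_option autoImplicit false

namespace Crest.Agent.R096.Wk_689
open St_147 Fx_689

variable {ι Φ W I : Type} {M : MeshC ι Φ W} {col : I → Bool} {s : St M col}

/-- the double point of two crossing chords -/
def mkD {F : Φ} (a b : Ch s F) (ha : (dg s F).fam a = false) (h : (dg s F).X a b) : s.Dbl where
  F := F
  e x := match x with
    | true => b.1
    | false => a.1
  at_ x := by cases x; exacts [a.2.1, b.2.1]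
  low x := by cases x; exacts [a.2.2, b.2.2]
  colr x := by
    have hf := (dg s F).X_fam h
    cases x
    · exact ha
    · show (dg s F).fam b = true
      cases hb : (dg s F).fam b
      · exact absurd (ha.trans hb.symm) hf
      · rfl
  lace := (X_iff s b a (Ne.symm ((dg s F).X_ne h))).1 ((dg s F).X_symm h)

/-- rank of the start of a piece -/
lemma rk_start_inr {F : Φ} (a : Ch s F) (x : Bool) (z : s.Dbl) (hF : z.F = F) (hz : z.e x = a.1) :
    ∃ y : Ch s F, (dg s F).X a y ∧ (dg s F).e a y = rk s F (z.key x) ∧ y.1 = z.e (!x) := by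
  subst hF
  have ha : a = cz z x := Subtype.ext hz.symm
  subst ha
  exact ⟨cz z (!x), cz_X z x, (rk_key z x).symm, rfl⟩

lemma exists_pc {F : Φ} (a : Ch s F) (k : ℕ) (hk : (dg s F).lo a ≤ k) :
    ∃ p : s.Sub (col (s.lab a.1)), chd p = (F, a.1) ∧ rk s F (start p) ≤ k ∧
      ∀ p' : s.Sub (col (s.lab a.1)), chd p' = (F, a.1) → rk s F (start p') ≤ k →
        start p' ≤ start p := by
  obtain ⟨p, hp, hmax⟩ := Set.exists_max_image
    {p : s.Sub (col (s.lab a.1)) | chd p = (F, a.1) ∧ rk s F (start p) ≤ k} (fun p => start p)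
    (Set.toFinite _) ⟨Sum.inl ⟨(F, a.1), a.2.1, a.2.2, rfl⟩, rfl, hk⟩
  exact ⟨p, hp.1, hp.2, fun p' h1 h2 => hmax p' ⟨h1, h2⟩⟩

/-- the first piece of a chord -/
def ini {F : Φ} (a : Ch s F) : s.Sub (col (s.lab a.1)) :=
  (Sum.inl ⟨(F, a.1), a.2.1, a.2.2, rfl⟩ : s.Sub (col (s.lab a.1)))

open Classical in
/-- the piece of the chord `a` over `(k,k+1)` -/
noncomputable def pc {F : Φ} (a : Ch s F) (k : ℕ) : s.Sub (col (s.lab a.1)) :=
  if hk : (dg s F).lo a ≤ k then (exists_pc a k hk).choose else ini a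

lemma pc_eq {F : Φ} (a : Ch s F) {k : ℕ} (hk : (dg s F).lo a ≤ k) :
    pc a k = (exists_pc a k hk).choose := dif_pos hk

lemma pc_eq' {F : Φ} (a : Ch s F) {k : ℕ} (hk : ¬ (dg s F).lo a ≤ k) :
    pc a k = ini a := dif_neg hk

lemma pc_chd {F : Φ} (a : Ch s F) (k : ℕ) : chd (pc a k) = (F, a.1) := by
  by_cases hk : (dg s F).lo a ≤ k
  · rw [pc_eq a hk]
    exact (exists_pc a k hk).choose_spec.1
  · rw [pc_eq' a hk]
    rfl

lemma pc_rk {F : Φ} (a : Ch s F) {k : ℕ} (hk : (dg s F).lo a ≤ k) :
    rk s F (start (pc a k)) ≤ k := by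
  rw [pc_eq a hk]
  exact (exists_pc a k hk).choose_spec.2.1

lemma pc_max {F : Φ} (a : Ch s F) {k : ℕ} (hk : (dg s F).lo a ≤ k)
    (p' : s.Sub (col (s.lab a.1))) (h1 : chd p' = (F, a.1)) (h2 : rk s F (start p') ≤ k) :
    start p' ≤ start (pc a k) := by
  rw [pc_eq a hk]
  exact (exists_pc a k hk).choose_spec.2.2 p' h1 h2

/-- characterisation of the piece -/
lemma eq_pc {F : Φ} (a : Ch s F) {k : ℕ} (hk : (dg s F).lo a ≤ k)
    (p : s.Sub (col (s.lab a.1))) (h1 : chd p = (F, a.1)) (h2 : rk s F (start p) ≤ k)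
    (h3 : ∀ p' : s.Sub (col (s.lab a.1)), chd p' = (F, a.1) → rk s F (start p') ≤ k →
      start p' ≤ start p) : p = pc a k := by
  apply start_inj (h1.trans (pc_chd a k).symm)
  exact le_antisymm (pc_max a hk p h1 h2) (h3 _ (pc_chd a k) (pc_rk a hk))

lemma pc_lo {F : Φ} (a : Ch s F) :
    pc a ((dg s F).lo a) = ini a := by
  symm
  apply eq_pc a le_rfl _ rfl
  · exact le_rfl
  · intro p' h1 h2
    by_contra hcon
    rw [not_le] at hcon
    cases p' with
    | inl b =>
      have : start (Sum.inl b : s.Sub (col (s.lab a.1))) = M.pos F a.1 := by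
        have hb : b.1 = (F, a.1) := h1
        show M.pos b.1.1 b.1.2 = _
        rw [hb]
      rw [this] at hcon
      exact lt_irrefl _ hcon
    | inr z =>
      have hz : (z.F, z.e (col (s.lab a.1))) = (F, a.1) := h1
      simp only [Prod.mk.injEq] at hz
      obtain ⟨y, hX, he, -⟩ := rk_start_inr a _ z hz.1 hz.2
      have h3 := ((dg s F).e_mem hX).1
      have h4 : rk s F (start (Sum.inr z : s.Sub (col (s.lab a.1)))) =
        rk s F (z.key (col (s.lab a.1))) := rfl
      rw [h4, ← he] at h2
      omega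

lemma pc_step {F : Φ} (a : Ch s F) (j : ℕ) (h1 : (dg s F).lo a < j)
    (h3 : ∀ y, (dg s F).X a y → (dg s F).e a y ≠ j) : pc a (j - 1) = pc a j := by
  apply eq_pc a h1.le _ (pc_chd a _)
  · exact (pc_rk a (by omega)).trans (by omega)
  · intro p' hp' hr
    apply pc_max a (by omega) p' hp'
    by_contra hcon
    have hj : rk s F (start p') = j := by omega
    cases p' with
    | inl b =>
      have hb : b.1 = (F, a.1) := hp'
      have : start (Sum.inl b : s.Sub (col (s.lab a.1))) = M.pos F a.1 := by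
        show M.pos b.1.1 b.1.2 = _
        rw [hb]
      rw [this] at hj
      have : (dg s F).lo a = rk s F (M.pos F a.1) := rfl
      omega
    | inr z =>
      have hz : (z.F, z.e (col (s.lab a.1))) = (F, a.1) := hp'
      simp only [Prod.mk.injEq] at hz
      obtain ⟨y, hX, he, -⟩ := rk_start_inr a _ z hz.1 hz.2
      exact h3 y hX (he.trans hj)

lemma key_lt_of_rk {F : Φ} {t t' : ℝ} (h : rk s F t < rk s F t') : t < t' := by
  by_contra hcon
  exact absurd h (not_lt.2 (rk_mono s F (not_lt.1 hcon)))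

/-- at a double point, colour-wise: transport of colours -/
lemma pc_at {F : Φ} (a : Ch s F) (z : s.Dbl) (hF : z.F = F)
    (hz : z.e (col (s.lab a.1)) = a.1) :
    pc a (rk s F (z.key (col (s.lab a.1)))) = abv z (col (s.lab a.1)) := by
  subst hF
  have ha : a = cz z (col (s.lab a.1)) := Subtype.ext hz.symm
  have hk := (dg s z.F).e_mem (cz_X z (col (s.lab a.1)))
  rw [← rk_key, ← ha] at hk
  symm
  apply eq_pc a hk.1.le
  · exact Prod.ext rfl hz
  · exact le_rfl
  · intro p' hp' hr
    by_contra hcon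
    rw [not_le] at hcon
    cases p' with
    | inl b =>
      have h1 : start (Sum.inl b : s.Sub (col (s.lab a.1))) ≤ start (abv z (col (s.lab a.1))) :=
        start_inl_le (hp'.trans (Prod.ext rfl hz.symm))
      exact absurd hcon (not_lt.2 h1)
    | inr u =>
      have hu : (u.F, u.e (col (s.lab a.1))) = (z.F, a.1) := hp'
      simp only [Prod.mk.injEq] at hu
      have h5 : z.key (col (s.lab a.1)) < u.key (col (s.lab a.1)) := hcon
      have h6 : rk s z.F (z.key (col (s.lab a.1))) < rk s z.F (u.key (col (s.lab a.1))) := by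
        rw [key_eq z] at h5 ⊢
        exact rk_lt s (kp_at z _) le_rfl h5
      exact absurd hr (not_le.2 h6)

lemma pc_before {F : Φ} (a : Ch s F) (z : s.Dbl) (hF : z.F = F)
    (hz : z.e (col (s.lab a.1)) = a.1) :
    pc a (rk s F (z.key (col (s.lab a.1))) - 1) = bel z (col (s.lab a.1)) := by
  subst hF
  have ha : a = cz z (col (s.lab a.1)) := Subtype.ext hz.symm
  have hk := (dg s z.F).e_mem (cz_X z (col (s.lab a.1)))
  rw [← rk_key, ← ha] at hk
  have hb := bel_spec z (col (s.lab a.1))
  have hbs := below_start hb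
  have hbc := below_chd hb
  have hstart : ∀ p' : s.Sub (col (s.lab a.1)), chd p' = (z.F, a.1) →
      (rk s z.F (start p') ≤ rk s z.F (z.key (col (s.lab a.1))) - 1 ↔
        start p' < z.key (col (s.lab a.1))) := by
    intro p' hp'
    constructor
    · intro h
      apply key_lt_of_rk (s := s) (F := z.F)
      omega
    · intro h
      have : rk s z.F (start p') < rk s z.F (z.key (col (s.lab a.1))) := by
        cases p' with
        | inl b =>
          have hb : b.1 = (z.F, a.1) := hp'
          have h1 : start (Sum.inl b : s.Sub (col (s.lab a.1))) = M.pos z.F a.1 := by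
            show M.pos b.1.1 b.1.2 = _
            rw [hb]
          rw [h1]
          exact hk.1
        | inr u =>
          have hu : (u.F, u.e (col (s.lab a.1))) = (z.F, a.1) := hp'
          simp only [Prod.mk.injEq] at hu
          have h5 : u.key (col (s.lab a.1)) < z.key (col (s.lab a.1)) := h
          show rk s z.F (u.key (col (s.lab a.1))) < _
          rw [key_eq u] at h5 ⊢
          have hka := kp_at u (col (s.lab a.1))
          rw [hu.1] at hka h5 ⊢
          exact rk_lt s hka le_rfl h5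
      omega
  symm
  apply eq_pc a (by omega)
  · rw [hbc, hz]
  · rw [hstart _ (by rw [hbc, hz])]
    exact hbs.1
  · intro p' hp' hr
    rw [hstart p' hp'] at hr
    by_contra hcon
    rw [not_le] at hcon
    exact hbs.2 p' (by rw [hp', hbc, hz]) ⟨hcon, hr⟩

/-- the last piece -/
lemma pc_hi {F : Φ} (a : Ch s F) : IsTop (pc a ((dg s F).hi a - 1)) := by
  have hlt := (dg s F).lt a
  rw [top_iff]
  intro p' hp'
  apply pc_max a (by omega) p' (hp'.trans (pc_chd a _))
  rw [pc_chd] at hp'
  have : rk s F (start p') < (dg s F).hi a := by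
    have h1 := start_lt p'
    rw [hp'] at h1
    cases p' with
    | inl b =>
      have hb : b.1 = (F, a.1) := hp'
      have h2 : start (Sum.inl b : s.Sub (col (s.lab a.1))) = M.pos F a.1 := by
        show M.pos b.1.1 b.1.2 = _
        rw [hb]
      rw [h2]
      exact hlt
    | inr z =>
      have hz : (z.F, z.e (col (s.lab a.1))) = (F, a.1) := hp'
      simp only [Prod.mk.injEq] at hz
      obtain ⟨y, hX, he, -⟩ := rk_start_inr a _ z hz.1 hz.2
      show rk s F (z.key _) < _
      rw [← he]
      exact ((dg s F).e_mem hX).2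
  omega

variable (G : Set s.Dbl) (inn : s.Dbl → Bool → Bool)

lemma cast_lb {x y : Bool} (h : x = y) (z : s.Dbl) :
    lb G inn (abv z x) = lb G inn (abv z y) ∧ lb G inn (bel z x) = lb G inn (bel z y) := by
  subst h; exact ⟨rfl, rfl⟩

variable {G inn}

lemma lb_straight {z : s.Dbl} (hz : z ∉ G) (x : Bool) :
    lb G inn (bel z x) = lb G inn (abv z x) := by
  have h1 : orb G inn (dz z x true) = lb G inn (bel z x) := orb_eq_lb _
  have h2 : orb G inn (dz z x false) = lb G inn (abv z x) := orb_eq_lb _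
  rw [← h1, ← h2, ← orb_tt (dz z x true), tt_dz_out hz]
  rfl

lemma lb_turn {z : s.Dbl} (hz : z ∈ G) :
    (lb G inn (bel z false) = lb G inn (bel z true) ∧
      lb G inn (abv z false) = lb G inn (abv z true)) ∨
    (lb G inn (bel z false) = lb G inn (abv z true) ∧
      lb G inn (abv z false) = lb G inn (bel z true)) := by
  have h1 : ∀ x, orb G inn (dz z x true) = lb G inn (bel z x) := fun x => orb_eq_lb _
  have h2 : ∀ x, orb G inn (dz z x false) = lb G inn (abv z x) := fun x => orb_eq_lb _
  have e1 := orb_tt (G := G) (inn := inn) (dz z false true)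
  have e2 := orb_tt (G := G) (inn := inn) (dz z false false)
  rw [tt_dz_in hz] at e1 e2
  cases h3 : inn z false <;> cases h4 : inn z true <;>
    simp only [h3, h4, Bool.not_false, Bool.not_true, Bool.xor_false, Bool.xor_true] at e1 e2
  · right; rw [← h1, ← h1, ← h2, ← h2]; exact ⟨e1.symm, e2.symm⟩
  · left; rw [← h1, ← h1, ← h2, ← h2]; exact ⟨e1.symm, e2.symm⟩
  · left; rw [← h1, ← h1, ← h2, ← h2]; exact ⟨e1.symm, e2.symm⟩
  · right; rw [← h1, ← h1, ← h2, ← h2]; exact ⟨e1.symm, e2.symm⟩

end Crest.Agent.R096.Wk_689
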