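import Crest.Agent.R096.Wk5_689

/-!
# R096 / P3 / FACE (6): FACE in `St_147` language, the new state `newSt`
-/

set_option autoImplicit false

namespace Crest.Agent.R096.Wk_689
open St_147 Fx_689

variable {ι Φ W I : Type} {M : MeshC ι Φ W} {col : I → Bool} {s : St M col}

lemma lb_pc_at (G : Set s.Dbl) (inn : s.Dbl → Bool → Bool) {F : Φ} (a : Ch s F) {x : Bool}
    (hx : col (s.lab a.1) = x) (z : s.Dbl) (hF : z.F = F) (hz : z.e x = a.1) :
    lb G inn (pc a (rk s F (z.key x))) = lb G inn (abv z x) ∧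
      lb G inn (pc a (rk s F (z.key x) - 1)) = lb G inn (bel z x) := by
  subst hx
  rw [pc_at a z hF hz, pc_before a z hF hz]
  exact ⟨rfl, rfl⟩

lemma e_mkD {F : Φ} (a b : Ch s F) (ha : (dg s F).fam a = false) (h : (dg s F).X a b) :
    (dg s F).e a b = rk s F ((mkD a b ha h).key false) ∧
      (dg s F).e b a = rk s F ((mkD a b ha h).key true) :=
  ⟨(rk_key (mkD a b ha h) false).symm, (rk_key (mkD a b ha h) true).symm⟩

/-- the labelling of a face by the orbits of the walk -/
noncomputable def labF (G : Set s.Dbl) (inn : s.Dbl → Bool → Bool) (F : Φ) :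
    (dg s F).Lab (Orb G inn) where
  cl a k := lb G inn (pc a k)
  st a j h1 _ h3 := by rw [pc_step a j h1 h3]
  vx a b hX ha := by
    obtain ⟨e1, e2⟩ := e_mkD a b ha hX
    have hb : (dg s F).fam b = true := (mkD a b ha hX).colr true
    have k1 := lb_pc_at G inn a ha (mkD a b ha hX) rfl rfl
    have k2 := lb_pc_at G inn b hb (mkD a b ha hX) rfl rfl
    rw [e1, e2, k1.1, k1.2, k2.1, k2.2]
    by_cases hz : mkD a b ha hX ∈ G
    · rcases lb_turn (inn := inn) hz with h | h
      · right; left; exact h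
      · right; right; exact h
    · left
      exact ⟨lb_straight hz false, lb_straight hz true⟩

/-- the point of an end of a chord -/
def ptt {F : Φ} (t : Ch s F × Bool) : W := if t.2 then s.mu F t.1.1 else t.1.1

lemma ptt_at {F : Φ} (t : Ch s F × Bool) : s.At F (ptt t) := by
  unfold ptt
  split_ifs
  · exact At.mu s t.1.2.1
  · exact t.1.2.1

lemma pos_ptt {F : Φ} (t : Ch s F × Bool) : (dg s F).pos t = rk s F (M.pos F (ptt t)) := by
  unfold ptt Dg.pos
  split_ifs <;> rfl

lemma ptt_inj {F : Φ} {t t' : Ch s F × Bool} (h : ptt t = ptt t') : t = t' := by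
  apply Dg.Lab.pos_inj (D := dg s F)
  rw [pos_ptt, pos_ptt, h]

lemma exists_ptt {F : Φ} {w : W} (h : s.At F w) : ∃ t : Ch s F × Bool, ptt t = w := by
  rcases lt_or_gt_of_ne (pos_ne s h (At.mu s h) (fun h' => s.mu_ne h.1 h.2 h'.symm)) with hl | hl
  · exact ⟨(⟨w, h, hl⟩, false), rfl⟩
  · refine ⟨(⟨s.mu F w, At.mu s h, by rw [s.mu_mu h.1 h.2]; exact hl⟩, true), ?_⟩
    exact s.mu_mu h.1 h.2

lemma clp_ptt (G : Set s.Dbl) (inn : s.Dbl → Bool → Bool) {F : Φ} (t : Ch s F × Bool) :
    (labF G inn F).clp t = orb G inn (ed (ptt_at t)) := by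
  obtain ⟨a, b⟩ := t
  cases b
  · have h1 : (⟨col (s.lab a.1), ini a, false⟩ : Dart s) = ed (ptt_at (a, false)) :=
      eq_ed rfl rfl rfl _
    rw [← h1, orb_eq_lb]
    show lb G inn (pc a ((dg s F).lo a)) = _
    rw [pc_lo]
  · have hf : fc (⟨col (s.lab a.1), pc a ((dg s F).hi a - 1), true⟩ : Dart s) = F := by
      show (chd (pc a ((dg s F).hi a - 1))).1 = F
      rw [pc_chd]
    have hp : pt (⟨col (s.lab a.1), pc a ((dg s F).hi a - 1), true⟩ : Dart s) = ptt (a, true) := by
      show s.mu (chd (pc a ((dg s F).hi a - 1))).1 (chd (pc a ((dg s F).hi a - 1))).2 = _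
      rw [pc_chd]
      rfl
    have hn : node (⟨col (s.lab a.1), pc a ((dg s F).hi a - 1), true⟩ : Dart s) = none := by
      show nxt (pc a ((dg s F).hi a - 1)) = none
      exact nxt_none.2 (pc_hi a)
    have h1 : (⟨col (s.lab a.1), pc a ((dg s F).hi a - 1), true⟩ : Dart s)
        = ed (ptt_at (a, true)) := eq_ed hn hf hp _
    rw [← h1, orb_eq_lb]
    rfl

lemma lace_symm1 {F : Φ} {u v x y : W} : M.Lace F u v x y ↔ M.Lace F v u x y := by
  unfold MeshC.Lace MeshC.Btw; tauto

lemma lace_symm2 {F : Φ} {u v x y : W} : M.Lace F u v x y ↔ M.Lace F u v y x := by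
  unfold MeshC.Lace; tauto

variable {G : Set s.Dbl} {inn : s.Dbl → Bool → Bool}

/-- FACE, ordered form -/
lemma face_aux {F : Φ} {u u' v v' : W} (hu : s.At F u) (hu' : s.At F u') (hv : s.At F v)
    (hv' : s.At F v') (huu : M.pos F u < M.pos F u') (hvv : M.pos F v < M.pos F v')
    (κ κ' : Orb G inn) (hk : κ ≠ κ')
    (h1 : ∀ w (h : s.At F w), orb G inn (ed h) = κ ↔ w = u ∨ w = u')
    (h2 : ∀ w (h : s.At F w), orb G inn (ed h) = κ' ↔ w = v ∨ w = v')
    (hl : M.Lace F u u' v v') :
    ∃ z : s.Dbl, z ∉ G ∧ z.F = F ∧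
      ((lb G inn (abv z false) = κ ∧ lb G inn (abv z true) = κ') ∨
        (lb G inn (abv z false) = κ' ∧ lb G inn (abv z true) = κ)) := by
  classical
  obtain ⟨r1, hr1⟩ := exists_ptt hu
  obtain ⟨r2, hr2⟩ := exists_ptt hu'
  obtain ⟨t1, ht1⟩ := exists_ptt hv
  obtain ⟨t2, ht2⟩ := exists_ptt hv'
  have hr : ∀ t, (labF G inn F).clp t = κ ↔ t = r1 ∨ t = r2 := by
    intro t
    rw [clp_ptt, h1]
    constructor
    · rintro (h | h)
      · left; exact ptt_inj (h.trans hr1.symm)
      · right; exact ptt_inj (h.trans hr2.symm)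
    · rintro (rfl | rfl)
      · left; exact hr1
      · right; exact hr2
  have ht : ∀ t, (labF G inn F).clp t = κ' ↔ t = t1 ∨ t = t2 := by
    intro t
    rw [clp_ptt, h2]
    constructor
    · rintro (h | h)
      · left; exact ptt_inj (h.trans ht1.symm)
      · right; exact ptt_inj (h.trans ht2.symm)
    · rintro (rfl | rfl)
      · left; exact ht1
      · right; exact ht2
  have p1 : (dg s F).pos r1 = rk s F (M.pos F u) := by rw [pos_ptt, hr1]
  have p2 : (dg s F).pos r2 = rk s F (M.pos F u') := by rw [pos_ptt, hr2]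
  have p3 : (dg s F).pos t1 = rk s F (M.pos F v) := by rw [pos_ptt, ht1]
  have p4 : (dg s F).pos t2 = rk s F (M.pos F v') := by rw [pos_ptt, ht2]
  have l1 : (dg s F).pos r1 < (dg s F).pos r2 := by
    rw [p1, p2]; exact (rk_lt_iff s hu).2 huu
  have l2 : (dg s F).pos t1 < (dg s F).pos t2 := by
    rw [p3, p4]; exact (rk_lt_iff s hv).2 hvv
  have hpar := Dg.Lab.parity_two (labF G inn F) hk hr ht l1 l2
  rw [p1, p2, p3, p4, rk_lt_iff s hu, rk_lt_iff s hv, rk_lt_iff s hu', rk_lt_iff s hv,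
    rk_lt_iff s hu, rk_lt_iff s hv'] at hpar
  -- the ends are different
  have hne : ∀ {w w' : W}, s.At F w → s.At F w' → (w = u ∨ w = u') → (w' = v ∨ w' = v') →
      M.pos F w < M.pos F w' ∨ M.pos F w' < M.pos F w := by
    intro w w' hw hw' h3 h4
    apply lt_or_gt_of_ne
    apply pos_ne s hw hw'
    rintro rfl
    exact hk (((h1 w hw).2 h3).symm.trans ((h2 w hw').2 h4))
  have d1 := hne hu hv (Or.inl rfl) (Or.inl rfl)
  have d2 := hne hu hv' (Or.inl rfl) (Or.inr rfl)
  have d3 := hne hu' hv (Or.inr rfl) (Or.inl rfl)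
  have d4 := hne hu' hv' (Or.inr rfl) (Or.inr rfl)
  have hodd : Odd ((Finset.univ.filter fun z : Ch s F × Ch s F =>
        (labF G inn F).St κ κ' z.1 z.2).card
      + (Finset.univ.filter fun z : Ch s F × Ch s F => (labF G inn F).St κ' κ z.1 z.2).card) := by
    apply hpar.1
    unfold MeshC.Lace MeshC.Btw at hl
    generalize M.pos F u = A at *
    generalize M.pos F u' = A' at *
    generalize M.pos F v = B at *
    generalize M.pos F v' = B' at *
    rcases d1 with d1 | d1 <;> rcases d2 with d2 | d2 <;> rcases d3 with d3 | d3 <;>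
      rcases d4 with d4 | d4
    all_goals
      first
      | (exfalso; linarith)
      | (left; exact ⟨d1, d3, d4⟩)
      | (right; exact ⟨d1, d2, d4⟩)
      | (exfalso; apply hl; constructor
         · intro h; rcases h with h | h
           · first
             | (exfalso; linarith [h.1, h.2])
             | (left; exact ⟨by linarith, by linarith⟩)
           · exfalso; linarith [h.1, h.2]
         · intro h; rcases h with h | h
           · first
             | (exfalso; linarith [h.1, h.2])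
             | (left; exact ⟨by linarith, by linarith⟩)
           · exfalso; linarith [h.1, h.2])
  have hfin : ∀ (κ κ' : Orb G inn), κ ≠ κ' → ∀ a b : Ch s F, (labF G inn F).St κ κ' a b →
      ∃ z : s.Dbl, z ∉ G ∧ z.F = F ∧ lb G inn (abv z false) = κ ∧ lb G inn (abv z true) = κ' := by
    rintro κ κ' hk a b ⟨ha, hX, c1, c2, c3, c4⟩
    obtain ⟨e1, e2⟩ := e_mkD a b ha hX
    have hb : (dg s F).fam b = true := (mkD a b ha hX).colr true
    have k1 := lb_pc_at G inn a ha (mkD a b ha hX) rfl rfl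
    have k2 := lb_pc_at G inn b hb (mkD a b ha hX) rfl rfl
    rw [e1] at c1 c2
    rw [e2] at c3 c4
    have c1' : lb G inn (bel (mkD a b ha hX) false) = κ := k1.2.symm.trans c1
    have c2' : lb G inn (abv (mkD a b ha hX) false) = κ := k1.1.symm.trans c2
    have c3' : lb G inn (bel (mkD a b ha hX) true) = κ' := k2.2.symm.trans c3
    have c4' : lb G inn (abv (mkD a b ha hX) true) = κ' := k2.1.symm.trans c4
    refine ⟨mkD a b ha hX, ?_, rfl, c2', c4'⟩
    intro hz
    rcases lb_turn (inn := inn) hz with h | h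
    · exact hk (c1'.symm.trans (h.1.trans c3'))
    · exact hk (c1'.symm.trans (h.1.trans c4'))
  by_cases hc : (Finset.univ.filter fun z : Ch s F × Ch s F =>
      (labF G inn F).St κ κ' z.1 z.2) = ∅
  · by_cases hc' : (Finset.univ.filter fun z : Ch s F × Ch s F =>
        (labF G inn F).St κ' κ z.1 z.2) = ∅
    · rw [hc, hc'] at hodd
      simp at hodd
    · obtain ⟨z, hz⟩ := Finset.nonempty_iff_ne_empty.2 hc'
      rw [Finset.mem_filter] at hz
      obtain ⟨w, hw1, hw2, hw3, hw4⟩ := hfin κ' κ hk.symm _ _ hz.2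
      exact ⟨w, hw1, hw2, Or.inr ⟨hw3, hw4⟩⟩
  · obtain ⟨z, hz⟩ := Finset.nonempty_iff_ne_empty.2 hc
    rw [Finset.mem_filter] at hz
    obtain ⟨w, hw1, hw2, hw3, hw4⟩ := hfin κ κ' hk _ _ hz.2
    exact ⟨w, hw1, hw2, Or.inl ⟨hw3, hw4⟩⟩

/-- **FACE**: two re-glued chords which are interlaced meet in an unresolved double point -/
theorem face {F : Φ} {w x : W} (hw : s.At F w) (hx : s.At F x)
    (hne : orb G inn (ed hw) ≠ orb G inn (ed hx))
    (hl : M.Lace F w (mu' G inn F w) x (mu' G inn F x)) :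
    ∃ z : s.Dbl, z ∉ G ∧ z.F = F ∧
      ((lb G inn (abv z false) = orb G inn (ed hw) ∧ lb G inn (abv z true) = orb G inn (ed hx)) ∨
        (lb G inn (abv z false) = orb G inn (ed hx) ∧
          lb G inn (abv z true) = orb G inn (ed hw))) := by
  have hw' := mu'_at G inn hw
  have hx' := mu'_at G inn hx
  have h1 : ∀ u (h : s.At F u), orb G inn (ed h) = orb G inn (ed hw) ↔
      u = w ∨ u = mu' G inn F w := fun u h => by
    rw [orb_ed_iff hw h]; simp
  have h2 : ∀ u (h : s.At F u), orb G inn (ed h) = orb G inn (ed hx) ↔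
      u = x ∨ u = mu' G inn F x := fun u h => by
    rw [orb_ed_iff hx h]; simp
  have h1' : ∀ u (h : s.At F u), orb G inn (ed h) = orb G inn (ed hw) ↔
      u = mu' G inn F w ∨ u = w := fun u h => by rw [h1 u h]; tauto
  have h2' : ∀ u (h : s.At F u), orb G inn (ed h) = orb G inn (ed hx) ↔
      u = mu' G inn F x ∨ u = x := fun u h => by rw [h2 u h]; tauto
  rcases lt_or_gt_of_ne (pos_ne s hw hw' (mu'_ne hw).symm) with a | a <;>
    rcases lt_or_gt_of_ne (pos_ne s hx hx' (mu'_ne hx).symm) with b | b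
  · exact face_aux hw hw' hx hx' a b _ _ hne h1 h2 hl
  · exact face_aux hw hw' hx' hx a b _ _ hne h1 h2' (lace_symm2.1 hl)
  · exact face_aux hw' hw hx hx' a b _ _ hne h1' h2 (lace_symm1.1 hl)
  · exact face_aux hw' hw hx' hx a b _ _ hne h1' h2' (lace_symm1.1 (lace_symm2.1 hl))

end Crest.Agent.R096.Wk_689
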