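import Crest.Agent.R096.Wk6_689

/-!
# R096 / P3, P4 / FACE (8): the two sides of the pieces of a face (FACE-SIDE, 117 #8543 (A1))

`u` = a function on the sub-chords which is even at the double points of the face.  `sd u p i` = the
colour seen from the piece `p` on its outer (`i = false`, side of the base point of `∂F`) / inner
(`i = true`) side; `gF u F r` = the colour of the boundary point of `∂F` at position `r`.
-/

set_option autoImplicit false

namespace Crest.Agent.R096.Wk_689
open St_147 Fx_689

variable {ι Φ W I : Type} {M : MeshC ι Φ W} {col : I → Bool} {s : St M col}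

/-! ### ends -/

lemma exists_dart_of_end {F : Φ} {w : W} {x : Bool} {p : s.Sub x} (h : p.End F w) :
    ∃ b : Bool, (⟨x, p, b⟩ : Dart s) = ed h.1 ∧ (b = false ↔ M.pos F w < M.pos F (s.mu F w)) := by
  obtain ⟨hat, h1 | h1⟩ := h
  · obtain ⟨hl, a, hp, ha⟩ := h1
    refine ⟨false, ?_, ⟨fun _ => hl, fun _ => rfl⟩⟩
    subst hp
    apply eq_ed
    · rfl
    · show a.1.1 = F
      rw [ha]
    · show a.1.2 = w
      rw [ha]
  · obtain ⟨hl, h2⟩ := h1
    refine ⟨true, ?_, ⟨fun h => absurd h (by decide), fun h => absurd h (not_lt.2 hl.le)⟩⟩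
    have hc : chd p = (F, s.mu F w) ∧ IsTop p := by
      cases p with
      | inl a =>
        refine ⟨h2.1, ?_⟩
        intro z hz
        have e1 : (z.F, z.e x) = a.1 := (below_chd hz).symm
        rw [h2.1] at e1
        simp only [Prod.mk.injEq] at e1
        exact h2.2 z e1.1 e1.2
      | inr y =>
        obtain ⟨g1, g2, g3⟩ := h2
        refine ⟨Prod.ext g1 g2, ?_⟩
        intro z hz
        have e1 : (z.F, z.e x) = (y.F, y.e x) := (below_chd hz).symm
        simp only [Prod.mk.injEq] at e1
        exact g3 z (e1.1.trans g1) (e1.2.trans g2) hz.2.2.1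
    apply eq_ed
    · exact nxt_none.2 hc.2
    · show (chd p).1 = F
      rw [hc.1]
    · show s.mu (chd p).1 (chd p).2 = w
      rw [hc.1]
      exact s.mu_mu hat.1 hat.2

/-- the end piece of `w` on `F` -/
lemma end_ed {F : Φ} {w : W} (h : s.At F w) : (ed h).p.End F w := by
  refine ⟨h, ?_⟩
  have hn := node_ed h
  have hf := fc_ed h
  have hp := pt_ed h
  generalize ed h = d at hn hf hp
  obtain ⟨x, p, b⟩ := d
  have hf' : (chd p).1 = F := hf
  cases b
  · left
    have hp' : (chd p).2 = w := hp
    have hl := chd_low p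
    rw [hf', hp'] at hl
    refine ⟨hl, ?_⟩
    cases p with
    | inl a => exact ⟨a, rfl, Prod.ext hf' hp'⟩
    | inr z => exact absurd hn (by simp [node, prv])
  · right
    have hp' : s.mu (chd p).1 (chd p).2 = w := hp
    have hm : s.mu F w = (chd p).2 := by
      rw [← hp', ← hf', s.mu_mu (chd_at p).1 (chd_at p).2]
    have hl := chd_low p
    rw [hp', ← hm, hf'] at hl
    refine ⟨hl, ?_⟩
    have ht : IsTop p := nxt_none.1 hn
    cases p with
    | inl a =>
      refine ⟨Prod.ext hf' hm.symm, ?_⟩
      intro u h1 h2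
      obtain ⟨v, hv, hmin⟩ := Set.exists_min_image
        {v : s.Dbl | v.F = F ∧ v.e x = s.mu F w} (fun v => v.key x) (Set.toFinite _) ⟨u, h1, h2⟩
      apply ht v
      refine ⟨hf'.trans hv.1.symm, hm.symm.trans hv.2.symm, ?_⟩
      intro v' h3 h4
      exact not_lt.2 (hmin v' ⟨h3.trans hv.1, h4.trans hv.2⟩)
    | inr z =>
      refine ⟨hf', hm.symm, ?_⟩
      intro u h1 h2 h3
      have := top_iff.1 ht (Sum.inr u) (Prod.ext (h1.trans hf'.symm) (h2.trans hm))
      exact absurd h3 (not_lt.2 this)

/-! ### functions on pieces on one face -/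

/-- a function on the sub-chords as a function on the diagram of the face -/
noncomputable def uu (u : (c : Bool) → s.Sub c → ZMod 2) (F : Φ) : Ch s F → ℕ → ZMod 2 :=
  fun a k => u _ (pc a k)

/-- `u` is even at the double points of the face `F` -/
def EvD (u : (c : Bool) → s.Sub c → ZMod 2) (F : Φ) : Prop :=
  ∀ z : s.Dbl, z.F = F →
    (u true (bel z true) + u true (abv z true)) +
      (u false (bel z false) + u false (abv z false)) = 0

variable {u : (c : Bool) → s.Sub c → ZMod 2}

lemma uu_at {F : Φ} (a : Ch s F) {x : Bool}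
    (hx : col (s.lab a.1) = x) (z : s.Dbl) (hF : z.F = F) (hz : z.e x = a.1) :
    uu u F a (rk s F (z.key x)) = u x (abv z x) ∧
      uu u F a (rk s F (z.key x) - 1) = u x (bel z x) := by
  subst hx
  unfold uu
  rw [pc_at a z hF hz, pc_before a z hF hz]
  exact ⟨rfl, rfl⟩

lemma eq_of_add_zero {a b : ZMod 2} (h : a + b = 0) : a = b := by
  revert a b; decide

lemma EvD.rc {F : Φ} (hu : EvD u F) : (dg s F).RC (uu u F) where
  st a j h1 _ h3 := by
    unfold uu
    rw [pc_step a j h1 h3]
  ev a b hX := by
    have key : ∀ (a b : Ch s F) (ha : (dg s F).fam a = false) (hX : (dg s F).X a b),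
        uu u F a ((dg s F).e a b - 1) + uu u F a ((dg s F).e a b) =
          uu u F b ((dg s F).e b a - 1) + uu u F b ((dg s F).e b a) := by
      intro a b ha hX
      obtain ⟨e1, e2⟩ := e_mkD a b ha hX
      have hb : (dg s F).fam b = true := (mkD a b ha hX).colr true
      have k1 := uu_at (u := u) a ha (mkD a b ha hX) rfl rfl
      have k2 := uu_at (u := u) b hb (mkD a b ha hX) rfl rfl
      rw [e1, e2, k1.1, k1.2, k2.1, k2.2]
      exact (eq_of_add_zero (hu (mkD a b ha hX) rfl)).symm
    cases ha : (dg s F).fam a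
    · exact key a b ha hX
    · have hb : (dg s F).fam b = false := by
        have := (dg s F).X_fam hX
        cases hb : (dg s F).fam b
        · rfl
        · exact absurd (ha.trans hb.symm) this
      exact (key b a hb ((dg s F).X_symm hX)).symm

/-- the chord of a piece -/
def pch {c : Bool} (p : s.Sub c) : Ch s (chd p).1 := ⟨(chd p).2, chd_at p, chd_low p⟩

/-- **the colour on the outer (`false`) / inner (`true`) side of a piece** -/
noncomputable def sd (u : (c : Bool) → s.Sub c → ZMod 2) {c : Bool} (p : s.Sub c) (i : Bool) :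
    ZMod 2 :=
  (dg s (chd p).1).S (uu u (chd p).1) (fun y => if y = pch p then (if i then 1 else 0)
    else (dg s (chd p).1).ep y (pch p) (rk s (chd p).1 (start p)))

/-- **the colour of the boundary point of `∂F` at the position `r`** (left continuous) -/
noncomputable def gF (u : (c : Bool) → s.Sub c → ZMod 2) (F : Φ) (r : ℝ) : ZMod 2 :=
  (dg s F).G (uu u F) (rk s F r)

lemma sd_eq {F : Φ} (a : Ch s F) {c : Bool} (p : s.Sub c) (hp : chd p = (F, a.1)) (i : Bool) :
    sd u p i = (dg s F).S (uu u F) (fun y => if y = a then (if i then 1 else 0)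
      else (dg s F).ep y a (rk s F (start p))) := by
  have h1 : (chd p).1 = F := by rw [hp]
  subst h1
  have h2 : a = pch p := Subtype.ext (congrArg Prod.snd hp).symm
  subst h2
  rfl

lemma pc_start {F : Φ} (a : Ch s F) (p : s.Sub (col (s.lab a.1))) (hp : chd p = (F, a.1)) :
    pc a (rk s F (start p)) = p := by
  cases p with
  | inl b =>
    have hb : b.1 = (F, a.1) := hp
    have h1 : rk s F (start (Sum.inl b : s.Sub (col (s.lab a.1)))) = (dg s F).lo a := by
      show rk s F (M.pos b.1.1 b.1.2) = rk s F (M.pos F a.1)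
      rw [hb]
    rw [h1, pc_lo]
    unfold ini
    congr 1
    exact Subtype.ext hb.symm
  | inr z =>
    have hz : (z.F, z.e (col (s.lab a.1))) = (F, a.1) := hp
    simp only [Prod.mk.injEq] at hz
    exact pc_at a z hz.1 hz.2

/-- start of a piece, as a rank -/
lemma lo_le_start {F : Φ} (a : Ch s F) {c : Bool} (p : s.Sub c) (hp : chd p = (F, a.1)) :
    (dg s F).lo a ≤ rk s F (start p) := by
  have h := start_ge p
  rw [hp] at h
  exact rk_mono s F h

lemma e_le_of_pc {F : Φ} (a y : Ch s F) {k k' : ℕ} (h : (dg s F).lo a ≤ k)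
    (h' : (dg s F).lo a ≤ k') (hpc : pc a k = pc a k') (hX : (dg s F).X a y)
    (he : (dg s F).e a y ≤ k) : (dg s F).e a y ≤ k' := by
  -- the double point
  have hz : ∃ z : s.Dbl, z.F = F ∧ z.e (col (s.lab a.1)) = a.1 ∧
      rk s F (z.key (col (s.lab a.1))) = (dg s F).e a y := by
    cases ha : (dg s F).fam a
    · have ha' : col (s.lab a.1) = false := ha
      refine ⟨mkD a y ha hX, rfl, ?_, ?_⟩
      · rw [ha']; rfl
      · rw [ha']; exact (e_mkD a y ha hX).1.symm
    · have ha' : col (s.lab a.1) = true := ha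
      have hy : (dg s F).fam y = false := by
        have := (dg s F).X_fam hX
        cases hb : (dg s F).fam y
        · rfl
        · exact absurd (ha.trans hb.symm) this
      refine ⟨mkD y a hy ((dg s F).X_symm hX), rfl, ?_, ?_⟩
      · rw [ha']; rfl
      · rw [ha']; exact (e_mkD y a hy ((dg s F).X_symm hX)).2.symm
  obtain ⟨z, hF, hz, hk⟩ := hz
  have h1 : start (Sum.inr z : s.Sub (col (s.lab a.1))) ≤ start (pc a k) := by
    apply pc_max a h (Sum.inr z : s.Sub (col (s.lab a.1)))
      (show (z.F, z.e (col (s.lab a.1))) = (F, a.1) from Prod.ext hF hz)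
    show rk s F (z.key _) ≤ k
    rw [hk]; exact he
  rw [hpc] at h1
  have h2 := rk_mono s F h1
  have h3 := pc_rk a h'
  rw [← hk]
  exact h2.trans h3

lemma ep_pc {F : Φ} (a y : Ch s F) {k k' : ℕ} (h : (dg s F).lo a ≤ k)
    (h' : (dg s F).lo a ≤ k') (hpc : pc a k = pc a k') :
    (dg s F).ep y a k = (dg s F).ep y a k' := by
  have hiff : ((dg s F).X a y ∧ (dg s F).e a y ≤ k) ↔ ((dg s F).X a y ∧ (dg s F).e a y ≤ k') :=
    ⟨fun ⟨hX, he⟩ => ⟨hX, e_le_of_pc a y h h' hpc hX he⟩,
      fun ⟨hX, he⟩ => ⟨hX, e_le_of_pc a y h' h hpc.symm hX he⟩⟩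
  unfold Dg.ep
  by_cases h1 : (dg s F).X a y ∧ (dg s F).e a y ≤ k
  · rw [if_pos h1, if_pos (hiff.1 h1)]
  · rw [if_neg h1, if_neg (fun h2 => h1 (hiff.2 h2))]

lemma sd_pc {F : Φ} (a : Ch s F) {k : ℕ} (hk : (dg s F).lo a ≤ k) (i : Bool) :
    sd u (pc a k) i = (dg s F).S (uu u F) (fun y => if y = a then (if i then 1 else 0)
      else (dg s F).ep y a k) := by
  rw [sd_eq a (pc a k) (pc_chd a k)]
  congr 1
  funext y
  split_ifs
  · rfl
  · rfl
  · exact ep_pc a y (lo_le_start a _ (pc_chd a k)) hk (pc_start a _ (pc_chd a k))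

lemma sd_at {F : Φ} (a : Ch s F) {x : Bool}
    (hx : col (s.lab a.1) = x) (z : s.Dbl) (hF : z.F = F) (hz : z.e x = a.1) (i : Bool) :
    (sd u (abv z x) i = (dg s F).S (uu u F) (fun y => if y = a then (if i then 1 else 0)
      else (dg s F).ep y a (rk s F (z.key x)))) ∧
    (sd u (bel z x) i = (dg s F).S (uu u F) (fun y => if y = a then (if i then 1 else 0)
      else (dg s F).ep y a (rk s F (z.key x) - 1))) := by
  subst hx
  obtain ⟨y, hX, he, -⟩ := rk_start_inr a _ z hF hz
  have h1 := ((dg s F).e_mem hX).1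
  constructor
  · rw [← pc_at a z hF hz]
    exact sd_pc a (by omega) i
  · rw [← pc_before a z hF hz]
    exact sd_pc a (by omega) i

lemma u_pch {c : Bool} (p : s.Sub c) :
    uu u (chd p).1 (pch p) (rk s (chd p).1 (start p)) = u c p := by
  have key : ∀ {F : Φ} (a : Ch s F) {c : Bool} (hc : col (s.lab a.1) = c) (p : s.Sub c)
      (hp : chd p = (F, a.1)), uu u F a (rk s F (start p)) = u c p := by
    intro F a c hc p hp
    subst hc
    unfold uu
    rw [pc_start a p hp]
  exact key (pch p) (chd_col p) p rfl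

/-- (i) **the two sides of a piece differ by `u`** -/
theorem sd_add {c : Bool} (p : s.Sub c) (hu : EvD u (chd p).1) :
    sd u p false + sd u p true = u c p := by
  set F := (chd p).1 with hF
  have hk := lo_le_start (pch p) p rfl
  have hlt : rk s F (start p) < (dg s F).hi (pch p) := by
    have h1 := start_lt p
    show rk s F (start p) < rk s F (M.pos F (s.mu F (chd p).2))
    cases p with
    | inl a => exact (rk_lt_iff s a.2.1).2 h1
    | inr z =>
      have hat := kp_at z c
      show rk s z.F (z.key c) < _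
      have h2 : z.key c < M.pos z.F (s.mu z.F (z.e c)) := h1
      rw [key_eq] at h2 ⊢
      exact (rk_lt_iff s hat).2 h2
  have h1 := (dg s F).S_add hu.rc
    (fun y => if y = pch p then (if false then 1 else 0) else
      (dg s F).ep y (pch p) (rk s F (start p)))
    (fun y => if y = pch p then (if true then 1 else 0) else
      (dg s F).ep y (pch p) (rk s F (start p))) (pch p) (by
      intro y
      by_cases h : y = pch p <;> simp [h])
  have h2 := (dg s F).u_eq hu.rc (pch p) (rk s F (start p)) hk hlt
    (fun y => if y = pch p then (if false then 1 else 0) else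
      (dg s F).ep y (pch p) (rk s F (start p))) (by
      intro y hy
      have hne : y ≠ pch p := fun h => (dg s F).X_ne hy h.symm
      simp [hne])
  have h3 : sd u p true = sd u p false + u c p := by
    rw [← u_pch (u := u) p]
    show (dg s F).S _ _ = (dg s F).S _ _ + _
    rw [h2]
    exact h1
  rw [h3, ← add_assoc, Dg.add_self', zero_add]

/-- the piece above the double point is on the inner side of the other chord -/
noncomputable def abvIn (z : s.Dbl) (c : Bool) : Bool := by
  classical
  exact decide (M.pos z.F (z.e c) < M.pos z.F (z.e (!c)))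

/-- the half of the chord of colour `c` at `z` which lies on the side `j` (`true` = inner) of the
other chord -/
noncomputable def qd (z : s.Dbl) (c j : Bool) : s.Sub c :=
  if abvIn z c = j then abv z c else bel z c

lemma qd_chd (z : s.Dbl) (c j : Bool) : chd (qd z c j) = (z.F, z.e c) := by
  unfold qd
  split_ifs
  · rfl
  · exact below_chd (bel_spec z c)

/-- `qd z c false` and `qd z c true` are the two halves -/
lemma qd_cases (z : s.Dbl) (c : Bool) :
    (qd z c false = bel z c ∧ qd z c true = abv z c ∧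
      M.pos z.F (z.e c) < M.pos z.F (z.e (!c))) ∨
    (qd z c false = abv z c ∧ qd z c true = bel z c ∧
      M.pos z.F (z.e (!c)) < M.pos z.F (z.e c)) := by
  classical
  unfold qd abvIn
  have hne : z.e c ≠ z.e (!c) := by
    intro h
    have h1 := z.colr c
    have h2 := z.colr (!c)
    rw [h, h2] at h1
    cases c <;> simp at h1
  rcases lt_or_gt_of_ne (pos_ne s (z.at_ c) (z.at_ (!c)) hne) with h | h
  · left; simp [h]
  · right; simp [not_lt.2 h.le, h]

/-- side of the other chord on which the two halves lie -/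
lemma sd_qd (z : s.Dbl) (c i j : Bool) :
    ∃ k, (k = (dg s z.F).e (cz z c) (cz z (!c)) ∨ k = (dg s z.F).e (cz z c) (cz z (!c)) - 1) ∧
      (dg s z.F).ep (cz z (!c)) (cz z c) k = (if j then 1 else 0) ∧
      sd u (qd z c j) i = (dg s z.F).S (uu u z.F) (fun y => if y = cz z c then
        (if i then 1 else 0) else (dg s z.F).ep y (cz z c) k) := by
  have hX := cz_X z c
  have hk := rk_key z c
  obtain ⟨h1, h2⟩ := sd_at (u := u) (cz z c) (z.colr c) z rfl rfl i
  have e1 := (dg s z.F).ep_e hX
  have e2 := (dg s z.F).ep_e1 hX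
  have hfl := (dg s z.F).inn_flip hX
  have a1 : (dg s z.F).lo (cz z c) = rk s z.F (M.pos z.F (z.e c)) := rfl
  have a2 : (dg s z.F).lo (cz z (!c)) = rk s z.F (M.pos z.F (z.e (!c))) := rfl
  rcases qd_cases z c with ⟨q1, q2, q3⟩ | ⟨q1, q2, q3⟩
  · -- above is inner
    have hlt : (dg s z.F).lo (cz z c) < (dg s z.F).lo (cz z (!c)) := by
      rw [a1, a2]; exact (rk_lt_iff s (z.at_ _)).2 q3
    have hin : (dg s z.F).inn (cz z (!c)) ((dg s z.F).lo (cz z c)) = 0 := by
      unfold Dg.inn
      rw [if_neg (by omega)]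
    rw [hin, zero_add] at hfl
    cases j
    · refine ⟨_, Or.inr rfl, ?_, ?_⟩
      · rw [e2, hin]; rfl
      · rw [q1, h2, hk]
    · refine ⟨_, Or.inl rfl, ?_, ?_⟩
      · rw [e1, hfl]; rfl
      · rw [q2, h1, hk]
  · -- below is inner
    have hlt : (dg s z.F).lo (cz z (!c)) < (dg s z.F).lo (cz z c) := by
      rw [a1, a2]; exact (rk_lt_iff s (z.at_ _)).2 q3
    have hin : (dg s z.F).inn (cz z (!c)) ((dg s z.F).lo (cz z c)) = 1 := by
      unfold Dg.inn
      have hX' := hX
      unfold Dg.X at hX'
      rw [if_pos ⟨hlt, by omega⟩]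
    have hin2 : (dg s z.F).inn (cz z (!c)) ((dg s z.F).hi (cz z c)) = 0 := by
      rw [hfl, hin]; decide
    cases j
    · refine ⟨_, Or.inl rfl, ?_, ?_⟩
      · rw [e1, hin2]; rfl
      · rw [q1, h1, hk]
    · refine ⟨_, Or.inr rfl, ?_, ?_⟩
      · rw [e2, hin]; rfl
      · rw [q2, h2, hk]

/-- (ii) **the four quadrants of a double point see one colour each** -/
theorem sd_quad (z : s.Dbl) (i j : Bool) : sd u (qd z true j) i = sd u (qd z false i) j := by
  obtain ⟨k, hk, he, h1⟩ := sd_qd (u := u) z true i j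
  obtain ⟨k', hk', he', h2⟩ := sd_qd (u := u) z false j i
  rw [h1, h2]
  congr 1
  funext y
  have hX := cz_X z true
  have hne : cz z true ≠ cz z false := cz_ne z (by decide)
  by_cases y1 : y = cz z true
  · subst y1
    rw [if_pos rfl, if_neg hne]
    exact he'.symm
  · rw [if_neg y1]
    by_cases y2 : y = cz z false
    · subst y2
      rw [if_pos rfl]
      exact he
    · rw [if_neg y2]
      exact (dg s z.F).side_third hX y1 y2 k k' hk hk'

end Crest.Agent.R096.Wk_689
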