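import Crest.Agent.R096.Ebr6_95

/-!
# Row 96, DOORS (helper664): barrier points on the end wall of a box, outside the core

* `reach_wall` : a path in the frontier of the brick from the inside to the outside of the patch, at the
  gauge `t`, meets a tile which has a point of the barrier;
* `exists_wall` : for the path along the axis of the moat : the tile has a point with level
  `s ≤ mm - ra * (ε - ω)` and deviation `0`; position of the barrier point.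
-/

set_option autoImplicit false
set_option linter.unusedSectionVars false

open Set Topology Filter Metric Module
open scoped Classical

namespace Crest.Agent.R096.Wy_664

open Crest.Agent.R096.Msh_715 Crest.Agent.R096.Coh_184 Crest.Agent.R096.Bsp_628
  Crest.Agent.R096.Brk1_582 Crest.Agent.R096.Brk2_582 Crest.Agent.R096.Brk3_582
  Crest.Agent.R096.Brk5_582 Crest.Agent.R096.Init_543 Crest.Agent.R096.Mbf_337
  Crest.Agent.R96.Push_899 Crest.Agent.R096.Ess1_95 Crest.Agent.R096.Ess4_95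
  Crest.Agent.R096.Ess5_95 Crest.Agent.R096.Ess6_95 Crest.Agent.R096.Ess7_95
  Crest.Agent.R096.Lab_184 Crest.Agent.R096.Seq_213 Crest.Agent.R096.Seq_213.GSt
  Crest.Agent.R096.Main_4 Crest.Agent.R096.Exa_560 Crest.Agent.R096.Agl4_543
  Crest.Agent.R096.Agl5_543 Crest.Agent.R096.Agl6_543 Crest.Agent.R096.Agl8_543
  Crest.Agent.R096.Ebr1_95 Crest.Agent.R096.Ebr2_95
  Crest.Agent.R096.Ebr3_95 Crest.Agent.R096.Ebr4_95 Crest.Agent.R096.Ebr5_95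
  Crest.Agent.R096.Ebr6_95 Crest.Agent.R096.Bar_106
  Crest.Agent.R096.Bgf_4 Crest.Agent.R096.Dib_438 Crest.Agent.R096.Sphg_316

open Crest.Agent.R096.SkC1_961 (E3 Hom3 IsPush FoamD)
open Crest.Agent.R096.Ce_537 (PLEquiv IsBall)

variable {δ κ0 R c0 : ℝ} {La Om : Set E3} {ι : Type} {Φ : FoamD δ κ0 R c0 La}
  {T : Tiling Om ι} {f g : E3 → E3} {J0 J V : Φ.F → Set ι} {θ : Φ.F → E3 → E3}

variable {Mo' : Type} {co : Mo' → Φ.F} {ρ1 ρ2 ρ3 ρ4 d : Mo' → ℝ} {G : Mo' → E3 → ℝ}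
  {rm h lo hi ω : Mo' → ℝ} {q₀ : Mo' → E3} {g0 : Mo' → ℝ}
  {r₀ : Φ.F → ℝ} {L : Φ.F → Finset ℝ} [Nonempty (JJ Φ L)] {ε : Mo' → ℝ}
  {bp : JJ Φ L → E3} {bm : Mo' → E3}

/-- **a path from the inside of the patch to the outside at the gauge `t` meets a tile with a point
of the barrier** -/
theorem reach_wall (hLa : IsOpen La) (H : Hm f g Om La)
    (hB : BarF Φ T f J0 J V θ co ρ1 ρ2 ρ3 ρ4 d G rm h lo hi ω q₀ g0)
    (hGB : GFB Φ r₀ T f L (lM Φ co rm h hi G) ε) {m : Mo'} (hε : ε m ∈ Ioo (lo m) (hi m))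
    {lo' hi' : ℝ} (hGM : GM Φ (co m) (G m) lo' hi')
    {b0 b1 : ℝ} (n0 : lo' < b0) (n1 : g0 m ≤ b0) (n2 : b0 + ω m < ε m) (n3 : ε m + ω m < b1)
    (n4 : b1 < hi')
    {t : ℝ} (ht0 : rm m - h m * ε m + 3 * d m ≤ t) (ht1 : t ≤ rm m + h m * ε m - 3 * d m)
    {A : Set E3} (hA : A ⊆ frontier (co m).1.set) (hAc : IsPreconnected A) {qa qb : E3}
    (hqa : qa ∈ A) (hqb : qb ∈ A) (hGa : G m qa + ω m ≤ b0) (hGb : b1 + ω m ≤ G m qb)
    {lm : E3 → ZMod 2} (hlam : IsLab T (gPts (stB hGB bp bm) (Sum.inr m)) lm)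
    (LOW : ∀ b, b + ω m < ε m → IsPreconnected {q | q ∈ frontier (co m).1.set ∧ G m q ≤ b} →
      G m (q₀ m) ≤ b → ∀ v ∈ Om, T.dim v = 0 → rm m - h m * ε m + 2 * d m ≤ ga Φ (co m) (f v) →
        ga Φ (co m) (f v) ≤ rm m + h m * ε m - 2 * d m → G m (Φ.Psi (f v)) ≤ b → lm v = 1)
    (HIGH : ∀ b, ε m + ω m < b → IsPreconnected {q | q ∈ frontier (co m).1.set ∧ b ≤ G m q} →
      {q | q ∈ frontier (co m).1.set ∧ b ≤ G m q}.Nonempty → ∀ v ∈ Om, T.dim v = 0 →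
        (ga Φ (co m) (f v) ≤ rm m - h m * ε m - 2 * d m ∨
          rm m + h m * ε m + 2 * d m ≤ ga Φ (co m) (f v) ∨ b ≤ G m (Φ.Psi (f v))) → lm v = 0) :
    ∃ i, (∃ x ∈ P (T.H i), ga Φ (co m) (f x) = t ∧ Φ.Psi (f x) ∈ A) ∧
      ∃ u ∈ (stB hGB bp bm).P, (stB hGB bp bm).lab u = Sum.inr m ∧ u ∈ P (T.H i) := by
  have hr := hB.room m
  have hd := hr.d0
  have hh := hB.h0 m
  obtain ⟨p, hPol⟩ := hB.pol hLa m
  have m1 : h m * lo m ≤ h m * ε m := mul_le_mul_of_nonneg_left hε.1.le hh.le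
  have m2 : h m * ε m ≤ h m * hi m := mul_le_mul_of_nonneg_left hε.2.le hh.le
  have ht0' : ρ1 m ≤ t := by linarith [hB.a0 m]
  have htρ : t ≤ ρ4 m := by linarith [hB.a1' m]
  have htpos : 0 < t := by linarith [hr.r1]
  have hcL : (co m).1.set ⊆ La := Φ.bf.sub (co m).1 (co m).2
  have hgc : ∀ y, ga Φ (co m) y ≤ ρ4 m → y ∈ La := by
    intro y hy
    have hb : Bod (Φ.B (co m)).lo (Pc Φ.F (co m)) := Pse_316.bod_brick Φ (co m) (hB.pt m)
    have hgf : ga Φ (co m) = Ng (Φ.B (co m)).lo (Pc Φ.F (co m)) :=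
      funext (Etg_163.gg_eq Φ (co m))
    exact hcL (hb.le_sub hr.r4.le (show y ∈ {y | Ng _ _ y ≤ ρ4 m} by rw [← hgf]; exact hy))
  set Kr : Set E3 := {y | (t ≤ ga Φ (co m) y ∧ ga Φ (co m) y ≤ t) ∧ Φ.Psi y ∈ A} with hKr
  have hKc : IsPreconnected Kr := hPol.prod_conn hA hAc htpos htρ
  have hKL : Kr ⊆ La := fun y hy => hgc y (hy.1.2.trans htρ)
  have hK := H.preconn_pre hKL hKc
  -- the two ends
  have hend : ∀ q ∈ A, ∃ i x v, x ∈ P (T.H i) ∧ v ∈ P (T.H i) ∧ T.dim v = 0 ∧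
      x ∈ Om ∩ f ⁻¹' Kr ∧ ga Φ (co m) (f x) = t ∧ Φ.Psi (f x) = q := by
    intro q hq
    have h1 : ga Φ (co m) (p (t, q)) = t := hPol.gau t ⟨htpos, htρ⟩ q (hA hq)
    have h2 : Φ.Psi (p (t, q)) = q := hPol.psi t ⟨htpos, htρ⟩ q (hA hq)
    have h3 : p (t, q) ∈ Kr := ⟨⟨h1.ge, h1.le⟩, by rw [h2]; exact hq⟩
    have h4 := H.gm (hKL h3)
    have h5 : f (g (p (t, q))) = p (t, q) := H.fg _ (hKL h3)
    obtain ⟨i, hi'⟩ := T.cov _ h4
    obtain ⟨v, hv, hv0⟩ := exists_vertex_tile hi'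
    exact ⟨i, _, v, hi', hv, hv0, ⟨h4, by show f _ ∈ Kr; rw [h5]; exact h3⟩, by rw [h5]; exact h1,
      by rw [h5]; exact h2⟩
  obtain ⟨ia, xa, va, hxa, hva, hva0, hxaK, hga, hpa⟩ := hend qa hqa
  obtain ⟨ib, xb, vb, hxb, hvb, hvb0, hxbK, hgb, hpb⟩ := hend qb hqb
  have hoa := hr.tile_osc hxa (by rw [hga]; exact ht0') (by rw [hga]; exact htρ) hva
  have hGva := hB.osc m ia xa hxa (by rw [hga]; exact ht0') (by rw [hga]; exact htρ) va hva
  have hGvb := hB.osc m ib xb hxb (by rw [hgb]; exact ht0') (by rw [hgb]; exact htρ) vb hvb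
  rw [hga] at hoa
  rw [hpa] at hGva
  rw [hpb] at hGvb
  have o1 := abs_le.1 hoa.1
  have o2 := abs_le.1 hGva
  have o3 := abs_le.1 hGvb
  have hla : lm va = 1 := by
    refine LOW b0 n2 (hGM.le_conn hPol ⟨n0, by linarith⟩) ((hB.gq m).trans n1) va
      (T.sub ia hva) hva0 (by linarith [o1.2]) (by linarith [o1.1]) ?_
    linarith [o2.1]
  have hlb : lm vb = 0 := by
    refine HIGH b1 n3 (hGM.ge_conn hPol ⟨by linarith, n4⟩) ?_ vb (T.sub ib hvb) hvb0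
      (Or.inr (Or.inr (by linarith [o3.2])))
    obtain ⟨q1, h5, h6⟩ := hGM.high
    exact ⟨q1, h5, by linarith⟩
  obtain ⟨i, ⟨x, hxi, hxK⟩, u, hu, hui⟩ := hlam.reach_geom hK inter_subset_left
    (mem_VM hxa hxaK hva hva0) (mem_VM hxb hxbK hvb hvb0) (by rw [hla, hlb]; exact one_ne_zero)
  have hu' := mem_gPts.1 hu
  exact ⟨i, ⟨x, hxi, le_antisymm hxK.2.1.2 hxK.2.1.1, hxK.2.2⟩, u, hu'.1, hu'.2, hui⟩

/-- **barrier points on the end wall** of the box at the gauge `t` -/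
theorem exists_wall_gen (hLa : IsOpen La) (hδ : 0 < δ) (hR : 0 < R) (H : Hm f g Om La)
    (hB : BarF Φ T f J0 J V θ co ρ1 ρ2 ρ3 ρ4 d G rm h lo hi ω q₀ g0)
    (hGB : GFB Φ r₀ T f L (lM Φ co rm h hi G) ε) {m : Mo'} (hε : ε m ∈ Ioo (lo m) (hi m))
    {l0 mm ra hN' : ℝ} (hN : Nm l0 mm ra hN') {a p q : Φ.F} {Z : Set Φ.F}
    (hM : Mo (Pc Φ.F) (co m) a Z p q) (hGm : G m = gmf Φ l0 mm ra a Z)
    (hω : 0 < ω m) {b0 : ℝ} (n1 : g0 m ≤ b0) (n2 : ω m ≤ b0) (n3 : b0 + ω m < ε m)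
    (n4 : ε m + 2 * ω m < hN')
    {t : ℝ} (ht0 : rm m - h m * ε m + 3 * d m ≤ t) (ht1 : t ≤ rm m + h m * ε m - 3 * d m)
    {lm : E3 → ZMod 2} (hlam : IsLab T (gPts (stB hGB bp bm) (Sum.inr m)) lm)
    (LOW : ∀ b, b + ω m < ε m → IsPreconnected {q | q ∈ frontier (co m).1.set ∧ G m q ≤ b} →
      G m (q₀ m) ≤ b → ∀ v ∈ Om, T.dim v = 0 → rm m - h m * ε m + 2 * d m ≤ ga Φ (co m) (f v) →
        ga Φ (co m) (f v) ≤ rm m + h m * ε m - 2 * d m → G m (Φ.Psi (f v)) ≤ b → lm v = 1)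
    (HIGH : ∀ b, ε m + ω m < b → IsPreconnected {q | q ∈ frontier (co m).1.set ∧ b ≤ G m q} →
      {q | q ∈ frontier (co m).1.set ∧ b ≤ G m q}.Nonempty → ∀ v ∈ Om, T.dim v = 0 →
        (ga Φ (co m) (f v) ≤ rm m - h m * ε m - 2 * d m ∨
          rm m + h m * ε m + 2 * d m ≤ ga Φ (co m) (f v) ∨ b ≤ G m (Φ.Psi (f v))) → lm v = 0) :
    ∃ u ∈ (stB hGB bp bm).P, (stB hGB bp bm).lab u = Sum.inr m ∧
      u ∈ Om ∧ t - d m ≤ ga Φ (co m) (f u) ∧ ga Φ (co m) (f u) ≤ t + d m ∧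
      G m (Φ.Psi (f u)) = ε m ∧
      ∃ i ∈ V (co m), u ∈ P (T.H i) ∧ ∃ x ∈ P (T.H i), ga Φ (co m) (f x) = t ∧
        Φ.lev a (f x) ≤ mm - ra * (ε m - ω m) ∧ Φ.lev a (f u) ≤ mm - ra * (ε m - ω m) + d m ∧
        ∀ e, dv a Z (fun e => Φ.lev e (f x)) e = 0 := by
  have hr := hB.room m
  have hd := hr.d0
  have hh := hB.h0 m
  have FF := foam Φ.bf hLa
  have hGM : GM Φ (co m) (G m) 0 hN' := by
    rw [hGm]; exact gm_moat hLa hδ hR hM hN
  have hNp := hN.hhi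
  have hra := hN.hra
  have hN0 := hN.m0
  have hN1 := hN.m1
  have hrN : 0 < ra * hN' := mul_pos hra hNp
  have hRct : ∀ s ∈ Icc (mm - ra * hN') mm, ((s, 0) : ℝ × ℝ) ∈ Rct := fun s hs =>
    ⟨⟨by linarith [hs.1], by linarith [hs.2]⟩, ⟨by norm_num, by norm_num⟩⟩
  have hGs : ∀ s ∈ Icc (mm - ra * hN') mm, G m (gam (bc (F := Φ.F)) a Z p q (s, 0)) =
      (mm - s) / ra := by
    intro s hs
    rw [hGm, gmf_gam hLa hM (hRct s hs)]
    show max (|(0 : ℝ)| / l0) (|s - mm| / ra) = _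
    rw [abs_zero, zero_div, abs_of_nonpos (by linarith [hs.2]), neg_sub]
    exact max_eq_right (div_nonneg (by linarith [hs.2]) hra.le)
  set A : Set E3 := (fun s : ℝ => gam (bc (F := Φ.F)) a Z p q (s, 0)) ''
    Icc (mm - ra * hN') mm with hA
  have hAf : A ⊆ frontier (co m).1.set := by
    rintro _ ⟨s, hs, rfl⟩
    exact gam_fr hLa hM (hRct s hs)
  have hAc : IsPreconnected A := by
    refine isPreconnected_Icc.image _ ?_
    refine (hM.continuousOn_gam FF).comp (Continuous.continuousOn (by fun_prop)) ?_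
    intro s hs
    exact hRct s hs
  have hma : mm ∈ Icc (mm - ra * hN') mm := ⟨by linarith, le_rfl⟩
  have hmb : mm - ra * hN' ∈ Icc (mm - ra * hN') mm := ⟨le_rfl, by linarith⟩
  obtain ⟨i, ⟨x, hxi, hxt, hxA⟩, u, hu, hul, hui⟩ := reach_wall hLa H hB hGB hε hGM
    (b0 := b0) (b1 := hN' - ω m) (by linarith) n1 n3 (by linarith) (by linarith) ht0 ht1 hAf hAc
    (mem_image_of_mem _ hma) (mem_image_of_mem _ hmb)
    (by
      show G m (gam (bc (F := Φ.F)) a Z p q (mm, 0)) + ω m ≤ b0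
      rw [hGs mm hma, sub_self, zero_div, zero_add]; exact n2)
    (by
      show hN' - ω m + ω m ≤ G m (gam (bc (F := Φ.F)) a Z p q (mm - ra * hN', 0))
      rw [hGs _ hmb, sub_sub_cancel, mul_div_cancel_left₀ _ hra.ne', sub_add_cancel])
    hlam LOW HIGH
  have hSB := (hGB.mem_pts_iff (w := u) (i := Sum.inr m)).1 ⟨hu.1, hul⟩
  have hS : u ∈ Om ∧ lM Φ co rm h hi G m (f u) = ε m := hSB.1
  have m1 : h m * lo m ≤ h m * ε m := mul_le_mul_of_nonneg_left hε.1.le hh.le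
  have m2 : h m * ε m ≤ h m * hi m := mul_le_mul_of_nonneg_left hε.2.le hh.le
  have ht0' : ρ1 m ≤ ga Φ (co m) (f x) := by rw [hxt]; linarith [hB.a0 m]
  have htρ : ga Φ (co m) (f x) ≤ ρ4 m := by rw [hxt]; linarith [hB.a1' m]
  have hosc := hr.tile_osc hxi ht0' htρ hui
  have hGo := hB.osc m i x hxi ht0' htρ u hui
  have o1 := abs_le.1 hosc.1
  have o2 := abs_le.1 hGo
  have o3 := abs_le.1 (hosc.2.2 a)
  rw [hxt] at o1
  obtain ⟨-, -, -, h4⟩ := hB.pos hε.2 hS.2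
  have hGu : G m (Φ.Psi (f u)) = ε m := by
    rcases h4 with h4 | h4 | h4
    · exfalso; linarith [o1.2]
    · exfalso; linarith [o1.1]
    · exact h4
  obtain ⟨s, hs, hsx⟩ := hxA
  have hsx' : Φ.Psi (f x) = gam (bc (F := Φ.F)) a Z p q (s, 0) := hsx.symm
  have hsb : ∀ e, Φ.lev e (f x) = uu a Z p q s 0 e := by
    intro e
    show sc (Pc Φ.F) (bc (F := Φ.F)) (Φ.Psi (f x)) e = _
    rw [hsx', hM.sc_gam FF (hRct s hs)]
  rw [hsx', hGs s hs, hGu] at o2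
  have hsle : s ≤ mm - ra * (ε m - ω m) := by
    have h5 : ε m - ω m ≤ (mm - s) / ra := by linarith [o2.1]
    rw [le_div_iff₀ hra] at h5
    linarith
  have hla : Φ.lev a (f x) = s := by rw [hsb a, uu_a]
  refine ⟨u, hu, hul, hS.1, by linarith [o1.2], by linarith [o1.1], hGu, i,
    (hr.tile hxi ht0' htρ).1, hui, x, hxi, hxt, by rw [hla]; exact hsle,
    by rw [hla] at o3; linarith [o3.1], fun e => ?_⟩
  have h6 : (fun e => Φ.lev e (f x)) = uu a Z p q s 0 := funext hsb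
  rw [h6, dv_uu]
  simp

end Crest.Agent.R096.Wy_664
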