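import Crest.Agent.R096.Wy2_664
import Crest.Agent.R096.Dup2_534

/-!
# Row 96, DOORS (helper664): the wall point over 534's record `BarsO`
-/

set_option autoImplicit false
set_option linter.unusedSectionVars false

open Set Topology Filter Metric Module MeasureTheory
open scoped Classical

namespace Crest.Agent.R096.Dup_534.BarsO

open Crest.Agent.R096.Brk1_582 Crest.Agent.R096.Brk2_582 Crest.Agent.R096.Brk3_582
open Crest.Agent.R096.Brk5_582 Crest.Agent.R096.Bsp_628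
open Crest.Agent.R096.St_147 Crest.Agent.R096.Seq_213 Crest.Agent.R096.Seq_213.GSt
open Crest.Agent.R096.Ac_117 Crest.Agent.R096.Msh_715
open Crest.Agent.R096.Main_4 Crest.Agent.R096.Lab_184 Crest.Agent.R096.Ginv_543
open Crest.Agent.R096.Coh_184
open Crest.Agent.R096.Agl4_543 Crest.Agent.R096.Agl5_543 Crest.Agent.R096.Agl6_543
open Crest.Agent.R096.Init_543
open Crest.Agent.R96.Push_899
open Crest.Agent.R096.Ess5_95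
open Crest.Agent.R096.Ess8_95 Crest.Agent.R096.Ebr1_95 Crest.Agent.R096.Ebr4_95
  Crest.Agent.R096.Bar_106
open Crest.Agent.R096.Exa_560 Crest.Agent.R096.Sphg_316
open Crest.Agent.R096.Bgf_4 Crest.Agent.R096.Dup_534
open Crest.Agent.R096.SkC1_961 (E3 Hom3 FoamD IsPush)
open Crest.Agent.R096.Mbf_337 (Cores Fine KJ sb gau)
open Crest.Agent.R096.Frn_337 (Ti)

variable {δ κ0 R c0 : ℝ} {La Om : Set E3} {ι : Type} {Φ : FoamD δ κ0 R c0 La} {T : Tiling Om ι}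
  {f g : E3 → E3}
variable {X : Set Φ.F} {J0 J V : Φ.F → Set ι} {θ : Φ.F → E3 → E3} {κ1 : ℝ}
  {ρ1 ρ2 ρ3 ρ4 d : Φ.F → ℝ} {sg : ℝ} {r₀ : Φ.F → ℝ}
  {L : Φ.F → Finset ℝ} [Nonempty (JJ Φ L)] {hG : GF Φ r₀ T f L} {bp : JJ Φ L → E3}
  {q₀ : BM Φ X → E3} {ε : BM Φ X → ℝ} {bm : BM Φ X → E3} {μ : ℝ}
  {hGB : GFB Φ r₀ T f L (lBM Φ X ρ1 ρ3 d sg (μ / 8) (1 / 2) (1 / 2 - 5 * μ / 16)) ε}

/-- **THE WALL POINT of the moat `m`** -/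
theorem exists_wall (B : BarsO X J0 J V θ κ1 ρ1 ρ2 ρ3 ρ4 d sg (μ / 8) (1 / 2)
      (1 / 2 - 5 * μ / 16) hG bp q₀ ε bm hGB)
    (hLa : IsOpen La) (hδ : 0 < δ) (hR : 0 < R) (H : Hm f g Om La)
    (hμ : 0 < μ) (hμ1 : μ ≤ 1 / 2) (hsg : sg ≤ μ / 16) (hκ : κ1 ≤ μ ^ 2 / 512) (m : BM Φ X) :
    ∃ w ∈ (stB hGB bp bm).P, (stB hGB bp bm).lab w = Sum.inr m ∧ w ∈ Om ∧
      ρ3 m.co + 8 * d m.co ≤ ga Φ m.co (f w) ∧ ga Φ m.co (f w) ≤ ρ3 m.co + 10 * d m.co ∧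
      gmf Φ (μ / 8) (1 / 2) (1 / 2 - 5 * μ / 16) m.am m.Zm (Φ.Psi (f w)) = ε m ∧
      Φ.lev m.am (f w) ≤ 3 * μ / 8 ∧
      ∃ q ∈ V m.co, w ∈ P (T.H q) ∧ ∃ x ∈ P (T.H q), ga Φ m.co (f x) = ρ3 m.co + 9 * d m.co ∧
        Φ.lev m.am (f x) ≤ 3 * μ / 8 ∧
        ∀ e, dv m.am m.Zm (fun e => Φ.lev e (f x)) e = 0 := by
  obtain ⟨lm, h1, h2, h3⟩ := B.lab m
  exact Wy_664.exists_wall hLa hδ hR H hμ hμ1 hsg B.barF hGB B.eps m ((B.dm m).2.trans hκ) h1 h2 h3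

end Crest.Agent.R096.Dup_534.BarsO
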