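import Crest.Agent.R096.Nst1_780
import Crest.Agent.R096.No6_276

/-!
# Row 96, NO0 (helper780): [X10] of 962 #11402, the data of `NOPre` are data of the front
-/

set_option autoImplicit false
set_option linter.unusedSectionVars false
set_option linter.style.longLine false

open MeasureTheory Set Filter Topology Metric
open scoped ENNReal NNReal
open Crest.AnalysisR.VecCalc3 Crest.AnalysisR.Sobolev
open Crest.Agent.R096.Sk_962 (SH Q0 Qc0 dg)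
open Crest.Agent.R96.En10_199 (P3)
open Crest.Agent.R096.SkC1_961 (E3 Hom3)
open Crest.Agent.R096.Sk4_663 (Zd)
open Crest.Agent.R096.Er_594 (SH3)
open Crest.Agent.R096.No_276 (QL fL)
open Crest.Agent.R096.Sq_477 (e3)

namespace Crest.Agent.R096.Nst_780

/-- **[X10]** -/
theorem data_of {p : ℝ} (hp : 1 ≤ p) {s : Fin 3 → ℝ} (hs2 : s 2 = 0) (L : ℕ) (hL : (L : ℝ) ≠ 0)
    (hL1 : 1 ≤ L) {δ : ℝ≥0∞} (hδ : 0 < δ) : ∃ d₀ : ℝ, 0 < d₀ ∧ ∀ dd : ℝ, dd ≤ d₀ →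
    ∀ (U₀ W₀ : Set R3) (f : R3 → R3) (G : Fin 3 → R3 → R3),
      IsOpen U₀ → Bornology.IsBounded U₀ → IsConnected U₀ →
      IsOpen W₀ → Bornology.IsBounded W₀ → IsConnected W₀ → Qc0 ⊆ U₀ →
      SH p U₀ W₀ f G →
      ∫⁻ x in Q0, ∑ j : Fin 3, ‖G j x - dg s j‖ₑ ^ p ≤ ENNReal.ofReal dd →
      volume (Q0 \ Zd G) ≤ ENNReal.ofReal dd →
      IsOpen (QL L) ∧ (QL L).Nonempty ∧ Bornology.IsBounded (QL L) ∧ IsConnected (QL L) ∧
      volume (QL L) ≠ ⊤ ∧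
      IsOpen (e3 '' (f '' Q0)) ∧ Bornology.IsBounded (e3 '' (f '' Q0)) ∧
      IsConnected (e3 '' (f '' Q0)) ∧
      ∃ D : E3 → E3 →L[ℝ] E3, SH3 p (QL L) (e3 '' (f '' Q0)) (fL f L hL) D ∧
        ∫⁻ x in QL L, ∑ l, ‖P3 (D x (Pi.single l 1)) - EuclideanSpace.single l (s l)‖ₑ ^ p ≤
          δ * volume (QL L) ∧
        volume (QL L \ {x | (D x).det = 0}) ≤ δ * volume (QL L) := by
  have hLr : (1 : ℝ) ≤ L := by exact_mod_cast hL1
  have hLp : (0 : ℝ) < L := by linarith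
  obtain ⟨d, hd, H⟩ := stretch hp hs2 hLr hL hδ
  set V : ℝ≥0∞ := volume (ball (0 : E3) 1) with hV
  have hV0 : 0 < V := measure_ball_pos _ _ one_pos
  obtain ⟨d2, hd20, hd2⟩ : ∃ d : ℝ, 0 < d ∧ ENNReal.ofReal d ≤ δ * V := by
    have h1 : 0 < δ * V := ENNReal.mul_pos hδ.ne' hV0.ne'
    obtain ⟨r, hr0, hr⟩ := ENNReal.lt_iff_exists_nnreal_btwn.1 h1
    refine ⟨r, by exact_mod_cast hr0, ?_⟩
    rw [ENNReal.ofReal_coe_nnreal]
    exact hr.le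
  refine ⟨min d d2, lt_min hd hd20, fun dd hdd U₀ W₀ f G hU _ _ hW hWb _ hQ h hE hZ => ?_⟩
  obtain ⟨h1, h2, h3⟩ := H U₀ W₀ f G hU hW hWb hQ h
    (hE.trans (ENNReal.ofReal_le_ofReal (hdd.trans (min_le_left _ _))))
  have h4 := h3 d2 (hZ.trans (ENNReal.ofReal_le_ofReal (hdd.trans (min_le_right _ _))))
  refine ⟨h1.oO, h1.cO.nonempty, h1.bO, h1.cO, ?_, h1.oL, h1.bL, h1.cL, DS L hL G, h1.sh, h2, ?_⟩
  · exact h1.bO.measure_lt_top.ne
  · refine h4.trans ?_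
    rw [volume_QL hLp]
    calc ENNReal.ofReal (1 / L) * ENNReal.ofReal d2 ≤ ENNReal.ofReal (1 / L) * (δ * V) := by gcongr
      _ = δ * (ENNReal.ofReal (1 / L) * V) := by ring

end Crest.Agent.R096.Nst_780
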