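import Crest.Agent.R096.Pg4_691

/-!
Row 96 (S0127), helper205, node NO0-PRE3, leaf **[X4] ENDS** of 962 #11402: the field `ends` of `MeshN`.

* `vx_mem` : the vertices of the block are in `QL L`;
* `exists_endsK` : the two functions of the shift (for `bad_shift`), `r = (2 ^ K0)⁻¹`;
* `ends_meshN` : the field `ends` of `MeshN`, word for word;
* `exists_δ` : the smallness of `δ`.
-/

set_option autoImplicit false
set_option linter.unusedSectionVars false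
set_option linter.unusedVariables false

open MeasureTheory Set Filter Topology
open scoped ENNReal

noncomputable section

namespace Crest.Agent.R096.Xen_205

open Crest.Agent.R096.Msh_810 (box)
open Crest.Agent.R096.SkC1_961 (E3 Hom3)
open Crest.Agent.R096.Er_594 (SH3)
open Crest.Agent.R096.No0_477 (vx)
open Crest.Agent.R096.No_276 (QL)
open Crest.Agent.R096.Nend_458
open Crest.Agent.R096.Pg_691 (exists_ends volume_QL)
open Crest.Agent.R96.En10_199 (P3)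

/-- the vertices of the block are in `QL L` -/
theorem vx_mem {L : ℝ} {r : ℝ} (hr : 0 < r) {a : E3} {o : Fin 2 → ℤ} {M : ℕ} {Zs : Finset ℤ}
    (lo : ∀ j : Fin 2, -1 < a j.castSucc + r * o j)
    (hi : ∀ j : Fin 2, a j.castSucc + r * (o j + M) < 1)
    (zs : ∀ m ∈ Zs, |L * (a 2 + r * m)| < 1) {m : ℤ} (hm : m ∈ Zs) {v : Fin 2 → ℕ}
    (hv : ∀ i, v i ≤ M) : vx a r o m v ∈ QL L := by
  have h2 := zs m hm
  have key : ∀ j : Fin 2, |a j.castSucc + r * (o j + v j)| < 1 := by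
    intro j
    have h1 : (v j : ℝ) ≤ M := by exact_mod_cast hv j
    have h0 : (0 : ℝ) ≤ v j := Nat.cast_nonneg _
    have h3 := lo j
    have h4 := hi j
    rw [abs_lt]
    constructor <;> nlinarith
  have k0 := key 0
  have k1 := key 1
  refine ⟨?_, ?_, ?_⟩
  · simpa [vx] using k0
  · simpa [vx] using k1
  · simpa [vx] using h2

/-- **the functions of the shift**: averages over the box of shifts, `r = (2 ^ K0)⁻¹` -/
theorem exists_endsK {p : ℝ} (hp : 1 ≤ p) {Om La : Set E3} {f : E3 → E3} {D : E3 → E3 →L[ℝ] E3}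
    (hOm : IsOpen Om) (hOmf : volume Om ≠ ⊤) (hSH : SH3 p Om La f D) (s : Fin 3 → ℝ) {δ : ℝ≥0∞}
    (hE : ∫⁻ x in Om, ∑ l, ‖P3 (D x (Pi.single l 1)) - EuclideanSpace.single l (s l)‖ₑ ^ p ≤
      δ * volume Om) {K0 : ℕ} {r : ℝ} (hr : r = ((2 : ℝ) ^ K0)⁻¹) :
    ∃ S : Fin 2 → E3 → ℝ≥0∞, (∀ j, Measurable (S j)) ∧
      (∀ j, ∫⁻ a in box 3, S j a ≤ ((2 : ℝ≥0∞) ^ K0) ^ 2 * (δ ^ p⁻¹ * volume Om)) ∧
      ∀ᵐ a : E3, ∀ j, EndB Om f s j r (S j) a :=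
  exists_ends hp hOm hOmf hSH s hE (by rw [hr, one_div])

/-- **the field `ends` of `MeshN`** (word for word; `lo`, `hi`, `zs`, `N1` as in `MeshN`) -/
theorem ends_meshN {L : ℕ} (hL : 1 ≤ L) {f f1 : E3 → E3} {s : Fin 3 → ℝ} {r η e5 ρ0 : ℝ} {K0 : ℕ}
    (rK : r = ((2 : ℝ) ^ K0)⁻¹) {a : E3} {o : Fin 2 → ℤ} {M : ℕ} {Zs : Finset ℤ} (M0 : 0 < M)
    (lo : ∀ j : Fin 2, a j.castSucc + r * o j ≤ -(1 - η) ∧ -1 < a j.castSucc + r * o j)
    (hi : ∀ j : Fin 2, 1 - η ≤ a j.castSucc + r * (o j + M) ∧ a j.castSucc + r * (o j + M) < 1)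
    (zs : ∀ m ∈ Zs, |(L : ℝ) * (a 2 + r * m)| ≤ 1 / 2)
    (N1 : 2 / L ≤ ((Zs.card : ℝ) * M ^ 2) * r ^ 3)
    {S : Fin 2 → E3 → ℝ≥0∞} (hS : ∀ j, EndB (QL L) f s j r (S j) a) {m δ' : ℝ≥0∞}
    (hSa : ∀ j, S j a ≤ m * (((2 : ℝ≥0∞) ^ K0) ^ 2 * (δ' * volume (QL (L : ℝ)))))
    (hδ : 8 * (m * δ') ≤ ENNReal.ofReal (e5 / 2)) (he : 0 ≤ e5)
    (near : ∀ x ∈ QL (L : ℝ), ‖f1 x - f x‖ ≤ ρ0) (hρ0 : 0 ≤ ρ0) (hρ : 8 * ρ0 ≤ e5) :
    ∀ j : Fin 2, ∑ m ∈ Zs, ∑ t ∈ Finset.range (M + 1),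
      |(f1 (vx a r o m (fun i => if i = j then M else t)) -
        f1 (vx a r o m (fun i => if i = j then 0 else t))) j.castSucc - s j.castSucc * (M * r)| ≤
        e5 * ((Zs.card : ℝ) * M) := by
  have hr0 : 0 < r := by rw [rK]; positivity
  have hL0 : (0 : ℝ) < L := by exact_mod_cast hL
  have hMR : (1 : ℝ) ≤ M := by exact_mod_cast M0
  have zs' : ∀ m ∈ Zs, |(L : ℝ) * (a 2 + r * m)| < 1 := fun m hm =>
    (zs m hm).trans_lt (by norm_num)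
  have hMr : (M : ℝ) * r ≤ 2 := by
    have h1 := (lo 0).2
    have h2 := (hi 0).2
    rw [mul_add] at h2
    linarith
  refine ends_of (f1 := f1) (g := f1) (C0 := 0) (h := ρ0) hS
    (fun j => ins_of hr0 (fun j => (lo j).2) (fun j => (hi j).2) zs' j) he ?_
    (fun m hm v hv => near _ (vx_mem hr0 (fun j => (lo j).2) (fun j => (hi j).2) zs' hm hv))
    (fun m _ v _ => by simp [hρ0]) ?_
  · intro j
    refine (hSa j).trans ?_
    have h2k : ((2 : ℝ≥0∞) ^ K0) ^ 2 = ENNReal.ofReal (r⁻¹ ^ 2) := by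
      rw [rK, inv_inv, ENNReal.ofReal_pow (by positivity), ENNReal.ofReal_pow (by norm_num)]
      norm_num
    rw [volume_QL hL, h2k]
    have hZ : (0 : ℝ) ≤ (Zs.card : ℝ) := Nat.cast_nonneg _
    have h8 : r⁻¹ ^ 2 * (8 / L) ≤ 8 * ((Zs.card : ℝ) * M) := by
      have h3 : (8 : ℝ) / L ≤ 4 * (((Zs.card : ℝ) * M ^ 2) * r ^ 3) := by
        have : (8 : ℝ) / L = 4 * (2 / L) := by ring
        rw [this]
        linarith
      calc r⁻¹ ^ 2 * (8 / L) ≤ r⁻¹ ^ 2 * (4 * (((Zs.card : ℝ) * M ^ 2) * r ^ 3)) :=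
            mul_le_mul_of_nonneg_left h3 (by positivity)
        _ = 4 * ((Zs.card : ℝ) * M) * (M * r) := by field_simp
        _ ≤ 4 * ((Zs.card : ℝ) * M) * 2 :=
            mul_le_mul_of_nonneg_left hMr (by positivity)
        _ = 8 * ((Zs.card : ℝ) * M) := by ring
    calc m * (ENNReal.ofReal (r⁻¹ ^ 2) * (δ' * ENNReal.ofReal (8 / L)))
        = (m * δ') * ENNReal.ofReal (r⁻¹ ^ 2 * (8 / L)) := by
          rw [ENNReal.ofReal_mul (by positivity)]; ring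
      _ ≤ (m * δ') * ENNReal.ofReal (8 * ((Zs.card : ℝ) * M)) := by
          gcongr
      _ = (8 * (m * δ')) * ENNReal.ofReal ((Zs.card : ℝ) * M) := by
          rw [ENNReal.ofReal_mul (by norm_num)]
          have : ENNReal.ofReal 8 = 8 := by norm_num
          rw [this]; ring
      _ ≤ ENNReal.ofReal (e5 / 2) * ENNReal.ofReal ((Zs.card : ℝ) * M) := by gcongr
      _ = _ := (ENNReal.ofReal_mul (by positivity)).symm
  · have h1 : (M : ℝ) + 1 ≤ 2 * M := by linarith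
    have h2 : 2 * ((0 + 1) * ρ0) * ((M : ℝ) + 1) ≤ 2 * ((0 + 1) * ρ0) * (2 * M) := by gcongr
    nlinarith

/-- **smallness of `δ`** (chosen before the data) -/
theorem exists_δ {p : ℝ} (hp : 1 ≤ p) {m : ℝ≥0∞} (hm : m ≠ ⊤) {e5 : ℝ} (he : 0 < e5) :
    ∃ δ₀ : ℝ≥0∞, 0 < δ₀ ∧ δ₀ ≤ 1 ∧ ∀ δ ≤ δ₀, 8 * (m * δ ^ p⁻¹) ≤ ENNReal.ofReal (e5 / 2) := by
  have hp0 : 0 < p := by linarith
  set A : ℝ≥0∞ := ENNReal.ofReal (e5 / 2) / (8 * (m + 1)) with hA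
  have hm1 : 8 * (m + 1) ≠ ⊤ := ENNReal.mul_ne_top (by norm_num) (ENNReal.add_ne_top.2 ⟨hm, by simp⟩)
  have hm0 : 8 * (m + 1) ≠ 0 := by
    simp
  have hA0 : 0 < A := ENNReal.div_pos (by simpa using he) hm1
  refine ⟨min 1 (A ^ p), lt_min one_pos (ENNReal.rpow_pos hA0 ?_), min_le_left _ _, ?_⟩
  · exact ENNReal.div_ne_top ENNReal.ofReal_ne_top hm0
  intro δ hδ
  have h1 : δ ^ p⁻¹ ≤ A := by
    have h2 : δ ≤ A ^ p := hδ.trans (min_le_right _ _)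
    calc δ ^ p⁻¹ ≤ (A ^ p) ^ p⁻¹ := ENNReal.rpow_le_rpow h2 (by positivity)
      _ = A := by rw [← ENNReal.rpow_mul, mul_inv_cancel₀ hp0.ne', ENNReal.rpow_one]
  calc 8 * (m * δ ^ p⁻¹) ≤ 8 * ((m + 1) * A) := by
        gcongr
        exact le_self_add
    _ = 8 * (m + 1) * A := by ring
    _ = ENNReal.ofReal (e5 / 2) := ENNReal.mul_div_cancel hm0 hm1

end Crest.Agent.R096.Xen_205
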