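/-
helper733, row 96, NO0 p ≥ 3, mesh part, [X3] of 962 #11402: THE NUMBERS for a large set `A'` of
shifts (from 273's `bad_shift`).
-/
import Mathlib
import Crest.Agent.R096.Ps11_273

set_option autoImplicit false

open MeasureTheory Set Filter
open scoped Topology ENNReal

namespace Crest.Agent.R096.Xn_733

open Crest.Agent.R096.Ps_273
open Crest.Agent.R096.Msh_810 Crest.Agent.R096.Bas_731 Crest.Agent.R96.En3_199
  Crest.Agent.R96.En4_199 Crest.Agent.R96.En5_199 Crest.Agent.R96.En2_199 Crest.Agent.R96.En6_199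
  Crest.Agent.R96.En7_199 Crest.Agent.R96.En8_199 Crest.Agent.R96.En9_199
  Crest.Agent.R96.En11_199
  Crest.Agent.R96.Acl_392 Crest.Agent.R96.Sob2_199 Crest.Agent.R96.Sob3_199

noncomputable section

/-- **[X3]: THE NUMBERS.** `A' ⊆ box 3` with `volume (box 3 \ A') ≤ 1/4` contains a shift with all
numbers of the mesh: sharp energies of the edges of direction `i` above the constants `s i`
(exponents `p` and `1`), energy of the cubes on `R'`, countably many functions of the shift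
(`Σ (m k)⁻¹ ≤ 1/4`). -/
theorem exists_num (D : Dat 3) {Ω : Set (Fin 3 → ℝ)} (hΩ : IsOpen Ω)
    (hsub : Ω ⊆ D.Om) {𝒞 : Type*} [Countable 𝒞]
    {v : 𝒞 → (Fin 3 → ℝ) → ℝ}
    {g : 𝒞 → Fin 3 → (Fin 3 → ℝ) → ℝ} (hg : ∀ c i, Measurable (g c i))
    (hg0 : ∀ c i, ∀ x, x ∉ Ω → g c i x = 0)
    (hwd : ∀ c i, WD Ω volume (v c) (g c i) (Pi.single i (1:ℝ))) (hv : ∀ c, ContinuousOn (v c) Ω)
    (w : 𝒞 → ℝ≥0∞)
    (s : Fin 3 → ℝ≥0∞) {p : ℝ} (hp : 1 ≤ p)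
    {R' : Set (Fin 3 → ℝ)} (hR : MeasurableSet R')
    {η : Type*} [Countable η] {H : η → (Fin 3 → ℝ) → ℝ≥0∞} (hH : ∀ k, Measurable (H k))
    {θ : η → ℝ≥0∞} (hθ : ∀ k, ∫⁻ a in box 3, H k a ≤ θ k) {m : η → ℝ≥0∞} (hm : ∀ k, m k ≠ 0)
    (hms : ∑' k, (m k)⁻¹ ≤ 1 / 4) {Q : (Fin 3 → ℝ) → Prop} (hQ : ∀ᵐ a, Q a)
    {A' : Set (Fin 3 → ℝ)} (hA' : volume (box 3 \ A') ≤ 1 / 4) :
    ∃ a ∈ A', a ∈ box 3 ∧ Q a ∧ (∀ (k : ℕ) (z : Fin 3 → ℤ), Good Ω v g (vx a k z)) ∧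
      (∀ i, Ed (D.sh a) i p (Xs w g s i) ≤ 96 * ∫⁻ x in Ω, Xs w g s i x ^ p) ∧
      (∀ i, Ed (D.sh a) i 1 (Xs w g s i) ≤ 96 * ∫⁻ x in Ω, Xs w g s i x) ∧
      S (D.sh a) p (R'.indicator (GGw w g)) ≤ 24 * KE 3 p * ∫⁻ x in Ω ∩ R', GGw w g x ^ p ∧
      ∀ k, H k a ≤ m k * θ k := by
  have h0 := bad_shift D hΩ hsub hg hg0 hwd hv w s hp (ι := Unit) (R := fun _ => R')
    (fun _ => hR) (κ := fun _ => 24) (fun _ => by norm_num) hH hθ hm (c0 := 48) (by norm_num) hQ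
  have e1 : (∑' _j : Unit, (24 : ℝ≥0∞)⁻¹) = 24⁻¹ := by
    rw [tsum_fintype, Finset.sum_const, Finset.card_univ, Fintype.card_unit, one_smul]
  rw [e1] at h0
  have e2 : ((3:ℕ) : ℝ≥0∞) * (24 : ℝ≥0∞)⁻¹ + 2 * ((3:ℕ) : ℝ≥0∞) * (48 : ℝ≥0∞)⁻¹ = 1 / 4 := by
    rw [ENNReal.toReal_eq_toReal_iff' (by finiteness) (by finiteness) |>.symm]
    rw [ENNReal.toReal_add (by finiteness) (by finiteness)]
    simp only [ENNReal.toReal_mul, ENNReal.toReal_inv, ENNReal.toReal_div]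
    norm_num
  rw [e2] at h0
  set B : Set (Fin 3 → ℝ) := {a ∈ box 3 | ¬ (Q a ∧
      (∀ (k : ℕ) (z : Fin 3 → ℤ), Good Ω v g (vx a k z)) ∧
      (∀ i, Ed (D.sh a) i p (Xs w g s i) ≤ 48 * (2 * ∫⁻ x in Ω, Xs w g s i x ^ p)) ∧
      (∀ i, Ed (D.sh a) i 1 (Xs w g s i) ≤ 48 * (2 * ∫⁻ x in Ω, Xs w g s i x)) ∧
      (∀ j : Unit, S (D.sh a) p (R'.indicator (GGw w g)) ≤
        24 * (KE 3 p * ∫⁻ x in Ω ∩ R', GGw w g x ^ p)) ∧
      ∀ k, H k a ≤ m k * θ k)} with hB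
  have h1 : volume (B ∪ (box 3 \ A')) < volume (box 3) := by
    rw [volume_box]
    calc volume (B ∪ (box 3 \ A')) ≤ volume B + volume (box 3 \ A') := measure_union_le _ _
      _ ≤ (1 / 4 + 1 / 4) + 1 / 4 := add_le_add (h0.trans (add_le_add le_rfl hms)) hA'
      _ < 1 := by
        rw [← ENNReal.toReal_lt_toReal (by finiteness) (by finiteness)]
        rw [ENNReal.toReal_add (by finiteness) (by finiteness),
          ENNReal.toReal_add (by finiteness) (by finiteness)]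
        simp only [ENNReal.toReal_div]
        norm_num
  obtain ⟨a, ha, hna⟩ : ∃ a ∈ box 3, a ∉ B ∪ (box 3 \ A') := by
    by_contra hcon
    push Not at hcon
    exact absurd (measure_mono hcon) (not_le.2 h1)
  rw [mem_union, not_or] at hna
  have haA : a ∈ A' := by
    by_contra h
    exact hna.2 ⟨ha, h⟩
  have h2 : _ := not_not.1 fun h => hna.1 ⟨ha, h⟩
  obtain ⟨g1, g2, g3, g4, g5, g6⟩ := h2
  have e3 : (48 : ℝ≥0∞) * 2 = 96 := by norm_num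
  refine ⟨a, haA, ha, g1, g2, fun i => ?_, fun i => ?_, ?_, g6⟩
  · have := g3 i
    rwa [← mul_assoc, e3] at this
  · have := g4 i
    rwa [← mul_assoc, e3] at this
  · have := g5 ()
    rwa [← mul_assoc] at this

end

end Crest.Agent.R096.Xn_733
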