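import Mathlib

/-!
# R096 (row 96), EXPLODE, part 1 (helper537)

Convex cell complexes `CC Λ Q`, a "PL multiplication" `m : [0,1] × Λ → E` (structure `MM`), and the
bijection `(l, t) ↦ gg κ b m l t` from the exploded complex `E(Q)` onto `Λ`, for every
`κ : Q → (0,1)` (radial induction).
-/

set_option autoImplicit false
set_option linter.unusedSectionVars false
set_option linter.unusedVariables false
set_option linter.deprecated false

open Set

namespace Crest.Agent.R096.Xp_537

variable {E : Type*} [NormedAddCommGroup E] [NormedSpace ℝ E]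

/-- Locally finite convex cell complex with barycentres, in radial form. -/
structure CC (Λ : Set E) (Q : Type*) [PartialOrder Q] where
  cell : Q → Set E
  b : Q → E
  dim : Q → ℕ
  conv : ∀ q, Convex ℝ (cell q)
  cpt : ∀ q, IsCompact (cell q)
  bmem : ∀ q, b q ∈ cell q
  mono : ∀ {p q}, p < q → cell p ⊆ cell q
  dim_lt : ∀ {p q}, p < q → dim p < dim q
  b_notMem : ∀ {p q}, p < q → b q ∉ cell p
  rad : ∀ q, ∀ y ∈ cell q, y = b q ∨
    ∃ p < q, ∃ y' ∈ cell p, ∃ w ∈ Ico (0 : ℝ) 1, y = (1 - w) • y' + w • b q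
  rad_uniq : ∀ {q p p' : Q} {y y' : E} {w w' : ℝ}, p < q → p' < q → y ∈ cell p → y' ∈ cell p' →
    w ∈ Ico (0 : ℝ) 1 → w' ∈ Ico (0 : ℝ) 1 →
    (1 - w) • y + w • b q = (1 - w') • y' + w' • b q → y = y' ∧ w = w'
  disj : ∀ {p q : Q} {y : E}, y ∈ cell p → (∀ r < p, y ∉ cell r) → y ∈ cell q →
    (∀ r < q, y ∉ cell r) → p = q
  sub : ∀ q, cell q ⊆ Λ
  cover : ∀ y ∈ Λ, ∃ q, y ∈ cell q
  lf : ∀ y ∈ Λ, ∃ r > 0, {q | (cell q ∩ Metric.ball y r).Nonempty}.Finite

/-- attenuations of the top part -/
inductive Adm (m : ℝ → E → E) : ℝ → (E → E) → ℝ → Prop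
  | base : Adm m 1 (fun _ => 0) 0
  | step {S : ℝ} {A : E → E} {a lam c : ℝ} : Adm m S A a → 0 < lam → lam ≤ S → 0 < c →
      Adm m (S - lam) (fun t => c • (m S t - m (S - lam) t) + A t) (c * lam + a)

/-- the axioms for the multiplication `m` -/
structure MM {Λ : Set E} {Q : Type*} [PartialOrder Q] (C : CC Λ Q) (m : ℝ → E → E) : Prop where
  zero : ∀ t ∈ Λ, m 0 t = 0
  one : ∀ t ∈ Λ, m 1 t = t
  mem : ∀ q, ∀ t ∈ C.cell q, ∀ s s' : ℝ, 0 ≤ s → s < s' → s' ≤ 1 →
    (s' - s)⁻¹ • (m s' t - m s t) ∈ C.cell q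
  bij : ∀ A a, Adm m 0 A a → ∀ q, BijOn (fun t => a⁻¹ • A t) (C.cell q) (C.cell q)

section Sums

variable {Q : Type*} [PartialOrder Q]

open Classical in
/-- mass strictly below `ρ` -/
noncomputable def Lo (l : Q →₀ ℝ) (ρ : Q) : ℝ := ∑ σ ∈ l.support with σ < ρ, l σ

/-- the map `g` -/
noncomputable def gg (κ : Q → ℝ) (b : Q → E) (m : ℝ → E → E) (l : Q →₀ ℝ) (t : E) : E :=
  ∑ ρ ∈ l.support, ((κ ρ * l ρ) • b ρ + (1 - κ ρ) • (m (Lo l ρ + l ρ) t - m (Lo l ρ) t))

/-- states: chain weights of total mass `S` below `q`, and a point `t` in all the cells -/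
structure St {Λ : Set E} (C : CC Λ Q) (S : ℝ) (q : Q) (l : Q →₀ ℝ) (t : E) : Prop where
  nn : ∀ ρ, 0 ≤ l ρ
  sum : ∑ ρ ∈ l.support, l ρ = S
  chain : ∀ ρ ∈ l.support, ∀ σ ∈ l.support, ρ ≤ σ ∨ σ ≤ ρ
  le : ∀ ρ ∈ l.support, ρ ≤ q
  mem : ∀ ρ ∈ l.support, t ∈ C.cell ρ

variable {Λ : Set E} {C : CC Λ Q} {S : ℝ} {q : Q} {l : Q →₀ ℝ} {t : E}

lemma Lo_erase {ρ : Q} (hle : ∀ σ ∈ l.support, σ ≤ q) (hρ : ρ ∈ l.support) :
    Lo (l.erase q) ρ = Lo l ρ := by
  classical
  unfold Lo
  have h : ((l.erase q).support.filter (fun σ => σ < ρ)) = l.support.filter (fun σ => σ < ρ) := by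
    ext σ
    simp only [Finset.mem_filter, Finsupp.support_erase, Finset.mem_erase]
    constructor
    · rintro ⟨⟨_, h2⟩, h3⟩; exact ⟨h2, h3⟩
    · rintro ⟨h2, h3⟩
      refine ⟨⟨?_, h2⟩, h3⟩
      rintro rfl
      exact absurd (hle ρ hρ) (not_le_of_gt h3)
  rw [h]
  refine Finset.sum_congr rfl (fun σ hσ => ?_)
  have h3 := (Finset.mem_filter.1 hσ).2
  rw [Finsupp.erase_ne]
  rintro rfl
  exact absurd (hle ρ hρ) (not_le_of_gt h3)

lemma sum_erase' (hq : q ∈ l.support) :
    ∑ ρ ∈ (l.erase q).support, (l.erase q) ρ = ∑ ρ ∈ l.support, l ρ - l q := by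
  classical
  rw [Finsupp.support_erase, ← Finset.sum_erase_add _ _ hq, add_sub_cancel_right]
  exact Finset.sum_congr rfl (fun σ hσ => Finsupp.erase_ne (Finset.ne_of_mem_erase hσ))

lemma Lo_top (hq : q ∈ l.support) (hle : ∀ σ ∈ l.support, σ ≤ q) :
    Lo l q = ∑ ρ ∈ l.support, l ρ - l q := by
  classical
  unfold Lo
  have h : l.support.filter (fun σ => σ < q) = l.support.erase q := by
    ext σ
    simp only [Finset.mem_filter, Finset.mem_erase]
    constructor
    · rintro ⟨h2, h3⟩; exact ⟨h3.ne, h2⟩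
    · rintro ⟨h2, h3⟩; exact ⟨h3, lt_of_le_of_ne (hle σ h3) h2⟩
  rw [h, ← Finset.sum_erase_add _ _ hq, add_sub_cancel_right]

/-- splitting off the top term -/
lemma gg_top (κ : Q → ℝ) (b : Q → E) (m : ℝ → E → E) (hq : q ∈ l.support)
    (hle : ∀ σ ∈ l.support, σ ≤ q) (hS : ∑ ρ ∈ l.support, l ρ = S) :
    gg κ b m l t = gg κ b m (l.erase q) t +
      ((κ q * l q) • b q + (1 - κ q) • (m S t - m (S - l q) t)) := by
  classical
  unfold gg
  rw [← Finset.sum_erase_add _ _ hq, Finsupp.support_erase]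
  congr 1
  · refine Finset.sum_congr rfl (fun σ hσ => ?_)
    have h1 := Finset.ne_of_mem_erase hσ
    have h2 := Finset.mem_of_mem_erase hσ
    rw [Lo_erase hle h2, Finsupp.erase_ne h1]
  · rw [Lo_top hq hle, hS, sub_add_cancel]

lemma St.erase (h : St C S q l t) (hq : q ∈ l.support) :
    ∀ ρ ∈ (l.erase q).support, ρ < q := by
  classical
  intro ρ hρ
  rw [Finsupp.support_erase] at hρ
  exact lt_of_le_of_ne (h.le ρ (Finset.mem_of_mem_erase hρ)) (Finset.ne_of_mem_erase hρ)

/-- the top element of a state -/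
lemma St.exists_top (h : St C S q l t) (hS : 0 < S) :
    ∃ p ∈ l.support, p ≤ q ∧ St C S p l t := by
  classical
  have hne : l.support.Nonempty := by
    by_contra hne
    rw [Finset.not_nonempty_iff_eq_empty] at hne
    have := h.sum
    rw [hne, Finset.sum_empty] at this
    linarith
  obtain ⟨p, hp, hmax⟩ := l.support.exists_maximal hne
  refine ⟨p, hp, h.le p hp, h.nn, h.sum, h.chain, fun ρ hρ => ?_, h.mem⟩
  rcases h.chain ρ hρ p hp with h1 | h1
  · exact h1
  · exact hmax hρ h1

/-- removing the top element -/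
lemma St.rest (h : St C S q l t) (hq : q ∈ l.support) (hlt : l q < S) :
    ∃ p < q, p ∈ (l.erase q).support ∧ St C (S - l q) p (l.erase q) t := by
  classical
  have hsupp : ∀ ρ ∈ (l.erase q).support, ρ ∈ l.support := fun ρ hρ => by
    rw [Finsupp.support_erase] at hρ; exact Finset.mem_of_mem_erase hρ
  have h1 : St C (S - l q) q (l.erase q) t := by
    refine ⟨fun ρ => ?_, ?_, fun ρ hρ σ hσ => h.chain ρ (hsupp ρ hρ) σ (hsupp σ hσ),
      fun ρ hρ => h.le ρ (hsupp ρ hρ), fun ρ hρ => h.mem ρ (hsupp ρ hρ)⟩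
    · by_cases hρ : ρ = q
      · subst hρ; simp
      · rw [Finsupp.erase_ne hρ]; exact h.nn ρ
    · rw [sum_erase' hq, h.sum]
  obtain ⟨p, hp, _, hst⟩ := h1.exists_top (by linarith)
  exact ⟨p, h.erase hq p hp, hp, hst⟩

/-- adding a top element -/
lemma St.add {p : Q} {lam : ℝ} (h : St C (S - lam) p l t) (hp : p < q) (hlam : 0 < lam)
    (hpos : 0 < S - lam) :
    let l' := l + Finsupp.single q lam
    q ∈ l'.support ∧ St C S q l' t ∧ l'.erase q = l ∧ l' q = lam := by
  classical
  have hq0 : q ∉ l.support := fun hq => absurd (h.le q hq) (not_le_of_gt hp)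
  have hq00 : l q = 0 := by simpa using hq0
  have hv : (l + Finsupp.single q lam) q = lam := by simp [hq00]
  have hvne : ∀ ρ, ρ ≠ q → (l + Finsupp.single q lam) ρ = l ρ := fun ρ hρ => by
    simp [Finsupp.single_eq_of_ne hρ]
  have hqm : q ∈ (l + Finsupp.single q lam).support := by
    rw [Finsupp.mem_support_iff, hv]; exact hlam.ne'
  have hsupp : ∀ ρ, ρ ∈ (l + Finsupp.single q lam).support → ρ = q ∨ ρ ∈ l.support := by
    intro ρ hρ
    by_cases h1 : ρ = q
    · exact Or.inl h1
    · right
      rw [Finsupp.mem_support_iff, hvne ρ h1] at hρ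
      exact Finsupp.mem_support_iff.2 hρ
  have her : (l + Finsupp.single q lam).erase q = l := by
    ext ρ
    by_cases h1 : ρ = q
    · subst h1; simp [hq00]
    · rw [Finsupp.erase_ne h1, hvne ρ h1]
  refine ⟨hqm, ⟨fun ρ => ?_, ?_, ?_, ?_, ?_⟩, her, hv⟩
  · by_cases h1 : ρ = q
    · subst h1; rw [hv]; exact hlam.le
    · rw [hvne ρ h1]; exact h.nn ρ
  · have h1 := sum_erase' hqm
    rw [her, h.sum, hv] at h1
    linarith
  · intro ρ hρ σ hσ
    rcases hsupp ρ hρ with rfl | h1
    · rcases hsupp σ hσ with rfl | h2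
      · exact Or.inl le_rfl
      · exact Or.inr ((h.le σ h2).trans hp.le)
    · rcases hsupp σ hσ with rfl | h2
      · exact Or.inl ((h.le ρ h1).trans hp.le)
      · exact h.chain ρ h1 σ h2
  · intro ρ hρ
    rcases hsupp ρ hρ with rfl | h1
    · exact le_rfl
    · exact (h.le ρ h1).trans hp.le
  · intro ρ hρ
    rcases hsupp ρ hρ with rfl | h1
    · -- t lies in some cell below q
      by_cases hS : l.support.Nonempty
      · obtain ⟨σ, hσ⟩ := hS
        exact C.mono ((h.le σ hσ).trans_lt hp) (h.mem σ hσ)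
      · exfalso
        rw [Finset.not_nonempty_iff_eq_empty] at hS
        have h1 := h.sum
        rw [hS, Finset.sum_empty] at h1
        linarith
    · exact h.mem ρ h1

/-- the single state -/
lemma St.single (hS : 0 < S) (ht : t ∈ C.cell q) : St C S q (Finsupp.single q S) t := by
  classical
  have hs : (Finsupp.single q S).support = {q} := 
    Finsupp.support_single_ne_zero q hS.ne'
  refine ⟨fun ρ => ?_, ?_, ?_, ?_, ?_⟩
  · by_cases h1 : ρ = q
    · subst h1; simp [hS.le]
    · simp [Finsupp.single_eq_of_ne h1]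
  · rw [hs]; simp
  · rw [hs]; intro ρ hρ σ hσ
    rw [Finset.mem_singleton] at hρ hσ
    subst hρ hσ; exact Or.inl le_rfl
  · rw [hs]; intro ρ hρ
    rw [Finset.mem_singleton] at hρ
    exact hρ.le
  · rw [hs]; intro ρ hρ
    rw [Finset.mem_singleton] at hρ
    subst hρ; exact ht

end Sums

section Main

variable {Q : Type*} [PartialOrder Q] {Λ : Set E} {C : CC Λ Q} {m : ℝ → E → E}

lemma CC.mono_le (C : CC Λ Q) {p q : Q} (h : p ≤ q) : C.cell p ⊆ C.cell q := by
  rcases h.eq_or_lt with rfl | h
  · exact Subset.rfl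
  · exact C.mono h

/-- facts about attenuations -/
lemma adm_mem (M : MM C m) {S : ℝ} {A : E → E} {a : ℝ} (h : Adm m S A a) :
    0 ≤ S ∧ S ≤ 1 ∧ 0 ≤ a ∧ (S < 1 → 0 < a) ∧
      ∀ q, ∀ t ∈ C.cell q, ∃ u ∈ C.cell q, A t = a • u := by
  induction h with
  | base =>
    refine ⟨zero_le_one, le_rfl, le_rfl, fun h => absurd h (lt_irrefl _), fun q t ht => ?_⟩
    exact ⟨t, ht, by simp⟩
  | @step S A a lam c _ h1 h2 h3 ih =>
    obtain ⟨i1, i2, i3, i4, i5⟩ := ih
    have hcl : 0 < c * lam := mul_pos h3 h1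
    refine ⟨by linarith, by linarith, by linarith, fun _ => by linarith, fun q t ht => ?_⟩
    obtain ⟨u, hu, hAu⟩ := i5 q t ht
    have h4 := M.mem q t ht (S - lam) S (by linarith) (by linarith) i2
    rw [sub_sub_cancel] at h4
    set v := lam⁻¹ • (m S t - m (S - lam) t) with hv
    have h5 : m S t - m (S - lam) t = lam • v := by
      rw [hv, smul_smul, mul_inv_cancel₀ h1.ne', one_smul]
    have hpos : 0 < c * lam + a := by linarith
    clear_value v
    refine ⟨(c * lam / (c * lam + a)) • v + (a / (c * lam + a)) • u, ?_, ?_⟩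
    · refine C.conv q h4 hu (by positivity) (by positivity) ?_
      rw [← add_div, div_self hpos.ne']
    · have e1 : (c * lam + a) * (c * lam / (c * lam + a)) = c * lam := by field_simp
      have e2 : (c * lam + a) * (a / (c * lam + a)) = a := by field_simp
      have e3 : (c * lam + a) • ((c * lam / (c * lam + a)) • v + (a / (c * lam + a)) • u) =
          (c * lam) • v + a • u := by
        rw [smul_add, smul_smul, smul_smul, e1, e2]
      rw [e3]
      simp only
      rw [h5, hAu, smul_smul]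

/-- the image of a state with top element `q` is in the open cell `q` -/
theorem img (M : MM C m) {κ : Q → ℝ} (hκ : ∀ q, 0 < κ q ∧ κ q < 1) (q : Q) :
    ∀ {S : ℝ} {A : E → E} {a : ℝ} {l : Q →₀ ℝ} {t : E}, 0 < S → Adm m S A a →
      St C S q l t → q ∈ l.support →
      ∃ y ∈ C.cell q, (∀ p < q, y ∉ C.cell p) ∧ gg κ C.b m l t + A t = (S + a) • y := by
  classical
  induction hd : C.dim q using Nat.strong_induction_on generalizing q with
  | _ d ih =>
    intro S A a l t hS hA hst hq
    obtain ⟨k0, k1⟩ := hκ q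
    obtain ⟨a1, a2, a3, a4, a5⟩ := adm_mem M hA
    have hlq0 : 0 < l q := lt_of_le_of_ne (hst.nn q) (Ne.symm (Finsupp.mem_support_iff.1 hq))
    have hlqS : l q ≤ S := by
      rw [← hst.sum]
      exact Finset.single_le_sum (fun ρ _ => hst.nn ρ) hq
    have hA' : Adm m (S - l q) (fun t => (1 - κ q) • (m S t - m (S - l q) t) + A t)
        ((1 - κ q) * l q + a) := Adm.step hA hlq0 hlqS (by linarith)
    have htop := gg_top κ C.b m (t := t) hq hst.le hst.sum
    set w : ℝ := κ q * l q / (S + a) with hw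
    have hN : 0 < S + a := by linarith
    have hkl : 0 < κ q * l q := mul_pos k0 hlq0
    have hw0 : 0 < w := div_pos hkl hN
    have hkl2 : κ q * l q < S + a := by nlinarith
    have hw1 : w < 1 := by rw [hw, div_lt_one hN]; exact hkl2
    have hwN : (S + a) * w = κ q * l q := by rw [hw]; field_simp
    rcases hlqS.eq_or_lt with heq | hlt
    · -- single layer
      have her : l.erase q = 0 := by
        have h0 : ∑ ρ ∈ (l.erase q).support, (l.erase q) ρ = 0 := by
          rw [sum_erase' hq, hst.sum, heq, sub_self]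
        have hnn : ∀ ρ, 0 ≤ (l.erase q) ρ := fun ρ => by
          by_cases hρ : ρ = q
          · subst hρ; simp
          · rw [Finsupp.erase_ne hρ]; exact hst.nn ρ
        have h2 := (Finset.sum_eq_zero_iff_of_nonneg (fun ρ _ => hnn ρ)).1 h0
        ext ρ
        by_cases hρ : ρ ∈ (l.erase q).support
        · simpa using h2 ρ hρ
        · rw [Finsupp.notMem_support_iff.1 hρ]; rfl
      have hgg0 : gg κ C.b m (l.erase q) t = 0 := by rw [her]; simp [gg]
      obtain ⟨_, _, _, _, b5⟩ := adm_mem M hA'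
      obtain ⟨u, hu, hAu⟩ := b5 q t (hst.mem q hq)
      have hAu' : (1 - κ q) • (m S t - m (S - l q) t) + A t = ((1 - κ q) * l q + a) • u := hAu
      have hmass : (1 - κ q) * l q + a = (S + a) * (1 - w) := by
        rw [mul_sub, hwN, heq]; ring
      refine ⟨w • C.b q + (1 - w) • u, ?_, ?_, ?_⟩
      · exact C.conv q (C.bmem q) hu hw0.le (by linarith) (by ring)
      · intro p hp hy
        rcases C.rad q u hu with rfl | ⟨r, hr, y', hy', v, hv, rfl⟩
        · apply C.b_notMem hp
          have : w • C.b q + (1 - w) • C.b q = C.b q := by rw [← add_smul]; simp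
          rw [this] at hy; exact hy
        · have h1 : (1 - 0 : ℝ) • (w • C.b q + (1 - w) • ((1 - v) • y' + v • C.b q)) +
              (0 : ℝ) • C.b q = (1 - (1 - (1 - w) * (1 - v))) • y' +
                (1 - (1 - w) * (1 - v)) • C.b q := by
            module
          have hv1 : 0 < 1 - v := by linarith [hv.2]
          have hw1' : 0 < 1 - w := by linarith
          have h2 := C.rad_uniq hp hr hy hy' (by simp) ⟨by nlinarith [hv.1], by nlinarith⟩ h1
          have h3 := h2.2
          nlinarith [hv.1]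
      · rw [htop, hgg0, zero_add, add_assoc, hAu', hmass, smul_add, smul_smul, smul_smul, hwN]
    · -- more layers
      obtain ⟨p, hp, hps, hst'⟩ := hst.rest hq hlt
      obtain ⟨y', hy', hyo, hy⟩ := ih (C.dim p) (hd ▸ C.dim_lt hp) p rfl (by linarith) hA' hst' hps
      have hmass : (S - l q) + ((1 - κ q) * l q + a) = (S + a) * (1 - w) := by
        rw [mul_sub, hwN]; ring
      have hy2 : gg κ C.b m (l.erase q) t + ((1 - κ q) • (m S t - m (S - l q) t) + A t) =
          ((S + a) * (1 - w)) • y' := by rw [← hmass]; exact hy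
      refine ⟨(1 - w) • y' + w • C.b q, ?_, ?_, ?_⟩
      · exact C.conv q (C.mono hp hy') (C.bmem q) (by linarith) hw0.le (by ring)
      · intro r hr hyr
        have h1 : (1 - 0 : ℝ) • ((1 - w) • y' + w • C.b q) + (0 : ℝ) • C.b q =
            (1 - w) • y' + w • C.b q := by module
        have h2 := C.rad_uniq hr hp hyr hy' (by simp) ⟨hw0.le, hw1⟩ h1
        have h3 := h2.2
        linarith
      · have h3 : gg κ C.b m l t + A t = (gg κ C.b m (l.erase q) t +
            ((1 - κ q) • (m S t - m (S - l q) t) + A t)) + (κ q * l q) • C.b q := by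
          rw [htop]; abel
        rw [h3, hy2, smul_add, smul_smul, smul_smul, hwN]

/-- decomposition of a state with top element `q` -/
lemma dec (M : MM C m) {κ : Q → ℝ} (hκ : ∀ q, 0 < κ q ∧ κ q < 1) {q : Q} {S : ℝ} {A : E → E}
    {a : ℝ} {l : Q →₀ ℝ} {t : E} (hS : 0 < S) (hA : Adm m S A a) (hst : St C S q l t)
    (hq : q ∈ l.support) :
    0 < l q ∧ (l = Finsupp.single q S ∨ (l q < S ∧ ∃ r < q, r ∈ (l.erase q).support ∧
      St C (S - l q) r (l.erase q) t ∧ ∃ y1 ∈ C.cell r, (∀ p < r, y1 ∉ C.cell p) ∧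
        gg κ C.b m (l.erase q) t + ((1 - κ q) • (m S t - m (S - l q) t) + A t) =
          (S + a - κ q * l q) • y1 ∧
        gg κ C.b m l t + A t = (S + a - κ q * l q) • y1 + (κ q * l q) • C.b q)) := by
  classical
  obtain ⟨k0, k1⟩ := hκ q
  have hlq0 : 0 < l q := lt_of_le_of_ne (hst.nn q) (Ne.symm (Finsupp.mem_support_iff.1 hq))
  refine ⟨hlq0, ?_⟩
  have hlqS : l q ≤ S := by
    rw [← hst.sum]
    exact Finset.single_le_sum (fun ρ _ => hst.nn ρ) hq
  rcases hlqS.eq_or_lt with heq | hlt
  · left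
    have h0 : ∑ ρ ∈ (l.erase q).support, (l.erase q) ρ = 0 := by
      rw [sum_erase' hq, hst.sum, heq, sub_self]
    have hnn : ∀ ρ, 0 ≤ (l.erase q) ρ := fun ρ => by
      by_cases hρ : ρ = q
      · subst hρ; simp
      · rw [Finsupp.erase_ne hρ]; exact hst.nn ρ
    have h2 := (Finset.sum_eq_zero_iff_of_nonneg (fun ρ _ => hnn ρ)).1 h0
    ext ρ
    by_cases hρ : ρ = q
    · subst hρ; simp [heq]
    · rw [Finsupp.single_eq_of_ne hρ]
      by_cases hρ2 : ρ ∈ (l.erase q).support
      · have := h2 ρ hρ2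
        rwa [Finsupp.erase_ne hρ] at this
      · have := Finsupp.notMem_support_iff.1 hρ2
        rwa [Finsupp.erase_ne hρ] at this
  · right
    have hA' : Adm m (S - l q) (fun t => (1 - κ q) • (m S t - m (S - l q) t) + A t)
        ((1 - κ q) * l q + a) := Adm.step hA hlq0 hlqS (by linarith)
    obtain ⟨r, hr, hrs, hst'⟩ := hst.rest hq hlt
    obtain ⟨y1, hy1, hyo, hy⟩ := img M hκ r (sub_pos.2 hlt) hA' hst' hrs
    have hmass : (S - l q) + ((1 - κ q) * l q + a) = S + a - κ q * l q := by ring
    rw [hmass] at hy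
    refine ⟨hlt, r, hr, hrs, hst', y1, hy1, hyo, hy, ?_⟩
    have htop := gg_top κ C.b m (t := t) hq hst.le hst.sum
    rw [← hy, htop]
    abel

/-- **The radial theorem**: existence and uniqueness of the state with a given image. -/
theorem exists_unique_state (M : MM C m) {κ : Q → ℝ} (hκ : ∀ q, 0 < κ q ∧ κ q < 1) (q : Q) :
    ∀ {S : ℝ} {A : E → E} {a : ℝ}, 0 < S → Adm m S A a →
      (∀ y ∈ C.cell q, ∃ l t, St C S q l t ∧ gg κ C.b m l t + A t = (S + a) • y) ∧
      (∀ l t l' t', St C S q l t → St C S q l' t' →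
        gg κ C.b m l t + A t = gg κ C.b m l' t' + A t' → l = l' ∧ t = t') := by
  classical
  induction hd : C.dim q using Nat.strong_induction_on generalizing q with
  | _ d ih =>
    intro S A a hS hA
    obtain ⟨k0, k1⟩ := hκ q
    obtain ⟨a1, a2, a3, a4, a5⟩ := adm_mem M hA
    have hN : 0 < S + a := by linarith
    -- threshold
    set ws : ℝ := κ q * S / (S + a) with hws
    have hkS : 0 < κ q * S := mul_pos k0 hS
    have hws0 : 0 < ws := div_pos hkS hN
    have hkS2 : κ q * S < S + a := by nlinarith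
    have hws1 : ws < 1 := by rw [hws, div_lt_one hN]; exact hkS2
    have hwsN : (S + a) * ws = κ q * S := by rw [hws]; field_simp
    -- the last layer
    have hA0 : Adm m (S - S) (fun t => (1 - κ q) • (m S t - m (S - S) t) + A t)
        ((1 - κ q) * S + a) := Adm.step hA hS le_rfl (by linarith)
    rw [sub_self] at hA0
    have ha0 : (1 - κ q) * S + a = (S + a) * (1 - ws) := by rw [mul_sub, hwsN]; ring
    have ha0pos : 0 < (1 - κ q) * S + a := by
      rw [ha0]; exact mul_pos hN (by linarith)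
    have hbij := M.bij _ _ hA0 q
    have hggs : ∀ t, gg κ C.b m (Finsupp.single q S) t = (κ q * S) • C.b q +
        (1 - κ q) • (m S t - m 0 t) := by
      intro t
      have hs : (Finsupp.single q S).support = {q} :=
        Finsupp.support_single_ne_zero q hS.ne'
      unfold gg
      rw [hs, Finset.sum_singleton, Finsupp.single_eq_same]
      have hLo : Lo (Finsupp.single q S) q = 0 := by
        unfold Lo
        rw [hs]
        apply Finset.sum_eq_zero
        intro σ hσ
        rw [Finset.mem_filter, Finset.mem_singleton] at hσ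
        exact absurd hσ.2 (by rw [hσ.1]; exact lt_irrefl _)
      rw [hLo, zero_add]
    constructor
    · -- existence
      intro y hy
      by_cases hbd : ∃ p < q, y ∈ C.cell p
      · obtain ⟨p, hp, hyp⟩ := hbd
        obtain ⟨l, t, hst, he⟩ := (ih (C.dim p) (hd ▸ C.dim_lt hp) p rfl hS hA).1 y hyp
        exact ⟨l, t, ⟨hst.nn, hst.sum, hst.chain, fun ρ hρ => (hst.le ρ hρ).trans hp.le,
          hst.mem⟩, he⟩
      · push Not at hbd
        -- the shrunken copy
        have hcase : (∃ y'' ∈ C.cell q, y = ws • C.b q + (1 - ws) • y'') ∨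
            ∃ p < q, ∃ y' ∈ C.cell p, ∃ w, 0 < w ∧ w < ws ∧ y = (1 - w) • y' + w • C.b q := by
          rcases C.rad q y hy with rfl | ⟨p, hp, y', hy', w, hw, rfl⟩
          · left
            exact ⟨C.b q, C.bmem q, by rw [← add_smul]; simp⟩
          · rcases lt_or_ge w ws with hlt | hge
            · right
              have hw0 : 0 < w := by
                rcases hw.1.eq_or_lt with h0 | h0
                · exfalso
                  apply hbd p hp
                  rw [← h0]; simpa using hy'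
                · exact h0
              exact ⟨p, hp, y', hy', w, hw0, hlt, rfl⟩
            · left
              have h1 : 0 < 1 - ws := by linarith
              refine ⟨((1 - w) / (1 - ws)) • y' + ((w - ws) / (1 - ws)) • C.b q, ?_, ?_⟩
              · refine C.conv q (C.mono hp hy') (C.bmem q) (div_nonneg (by linarith [hw.2]) h1.le)
                  (div_nonneg (by linarith) h1.le) ?_
                rw [← add_div]
                rw [show 1 - w + (w - ws) = 1 - ws by ring, div_self h1.ne']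
              · rw [smul_add, smul_smul, smul_smul, mul_div_cancel₀ _ h1.ne',
                  mul_div_cancel₀ _ h1.ne']
                module
        rcases hcase with ⟨y'', hy'', rfl⟩ | ⟨p, hp, y', hy', w, hw0, hw1, rfl⟩
        · obtain ⟨t, ht, hte⟩ := hbij.surjOn hy''
          refine ⟨Finsupp.single q S, t, St.single hS ht, ?_⟩
          have hte' : (1 - κ q) • (m S t - m 0 t) + A t = ((1 - κ q) * S + a) • y'' := by
            rw [← hte]
            simp only
            rw [smul_smul, mul_inv_cancel₀ ha0pos.ne', one_smul]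
          rw [hggs, add_assoc, hte', ha0, smul_add, smul_smul, smul_smul, hwsN]
        · set lam : ℝ := w * (S + a) / κ q with hlam
          have hlam0 : 0 < lam := div_pos (mul_pos hw0 hN) k0
          have hlamS : lam < S := by
            rw [hlam, div_lt_iff₀ k0]
            have := mul_lt_mul_of_pos_right hw1 hN
            rw [mul_comm ws, hwsN] at this
            linarith
          have hkl : κ q * lam = w * (S + a) := by rw [hlam]; field_simp
          have hA' : Adm m (S - lam) (fun t => (1 - κ q) • (m S t - m (S - lam) t) + A t)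
              ((1 - κ q) * lam + a) := Adm.step hA hlam0 hlamS.le (by linarith)
          obtain ⟨l, t, hst, he⟩ := (ih (C.dim p) (hd ▸ C.dim_lt hp) p rfl
            (sub_pos.2 hlamS) hA').1 y' hy'
          obtain ⟨c1, c2, c3, c4⟩ := hst.add hp hlam0 (sub_pos.2 hlamS)
          refine ⟨_, t, c2, ?_⟩
          have hmass : (S - lam) + ((1 - κ q) * lam + a) = (S + a) * (1 - w) := by
            have : κ q * lam = w * (S + a) := hkl
            linear_combination (-1 : ℝ) * this
          rw [gg_top κ C.b m c1 c2.le c2.sum, c3, c4]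
          have he' : gg κ C.b m l t + ((1 - κ q) • (m S t - m (S - lam) t) + A t) =
              ((S + a) * (1 - w)) • y' := by rw [← hmass]; exact he
          have h3 : gg κ C.b m l t + ((κ q * lam) • C.b q +
              (1 - κ q) • (m S t - m (S - lam) t)) + A t = (gg κ C.b m l t +
              ((1 - κ q) • (m S t - m (S - lam) t) + A t)) + (κ q * lam) • C.b q := by abel
          rw [h3, he', hkl, smul_add, smul_smul, smul_smul, mul_comm w]
    · -- uniqueness
      intro l t l' t' hst hst' heq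
      -- tops
      obtain ⟨p, hp, hpq, hstp⟩ := hst.exists_top hS
      obtain ⟨p', hp', hpq', hstp'⟩ := hst'.exists_top hS
      obtain ⟨y, hy, hyo, hye⟩ := img M hκ p hS hA hstp hp
      obtain ⟨y', hy', hyo', hye'⟩ := img M hκ p' hS hA hstp' hp'
      have hyy : y = y' := by
        have h1 : (S + a) • y = (S + a) • y' := by rw [← hye, ← hye', heq]
        have h2 := congrArg (fun z => (S + a)⁻¹ • z) h1
        simpa [smul_smul, inv_mul_cancel₀ hN.ne'] using h2
      subst hyy
      have hpp : p = p' := C.disj hy hyo hy' hyo'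
      subst hpp
      rcases hpq.eq_or_lt with rfl | hlt
      swap
      · exact (ih (C.dim p) (hd ▸ C.dim_lt hlt) p rfl hS hA).2 l t l' t' hstp hstp' heq
      -- both have top p
      obtain ⟨d1, d2⟩ := dec M hκ hS hA hstp hp
      obtain ⟨d1', d2'⟩ := dec M hκ hS hA hstp' hp'
      -- a single state against a multiple state
      have key : ∀ (t₁ : E) (l₂ : Q →₀ ℝ) (t₂ y₂ : E) (r : Q), t₁ ∈ C.cell p →
          r < p → y₂ ∈ C.cell r → l₂ p < S → 0 < l₂ p →
          gg κ C.b m (Finsupp.single p S) t₁ + A t₁ =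
            (S + a - κ p * l₂ p) • y₂ + (κ p * l₂ p) • C.b p → False := by
        intro t₁ l₂ t₂ y₂ r ht₁ hr hy₂ hlt hpos he
        obtain ⟨u, hu, hue⟩ : ∃ u ∈ C.cell p, (1 - κ p) • (m S t₁ - m 0 t₁) + A t₁ =
            ((1 - κ p) * S + a) • u := (adm_mem M hA0).2.2.2.2 p t₁ ht₁
        rw [hggs, add_assoc, hue, ha0] at he
        set w : ℝ := κ p * l₂ p / (S + a) with hw
        have hw0 : 0 < w := div_pos (mul_pos k0 hpos) hN
        have hwws : w < ws := by
          rw [hw, hws]
          exact div_lt_div_of_pos_right (mul_lt_mul_of_pos_left hlt k0) hN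
        have hwN : (S + a) * w = κ p * l₂ p := by rw [hw]; field_simp
        have e1 : ws • C.b p + (1 - ws) • u = (1 - w) • y₂ + w • C.b p := by
          have h1 : (S + a) • (ws • C.b p + (1 - ws) • u) =
              (S + a) • ((1 - w) • y₂ + w • C.b p) := by
            rw [smul_add, smul_add, smul_smul, smul_smul, smul_smul, smul_smul, hwsN, hwN, he,
              mul_sub, mul_one, hwN]
          exact smul_right_injective E hN.ne' h1
        rcases C.rad p u hu with rfl | ⟨r', hr', u', hu', v, hv, rfl⟩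
        · have h3 : C.b p = y₂ := by
            have h4 : (1 - w) • (C.b p - y₂) = 0 := by
              have : ws • C.b p + (1 - ws) • C.b p = C.b p := by rw [← add_smul]; simp
              rw [this] at e1
              rw [smul_sub, sub_smul, one_smul]
              nth_rewrite 1 [e1]
              module
            have h5 : (1 - w) ≠ 0 := by
              have : w < 1 := hwws.trans hws1
              linarith
            exact sub_eq_zero.1 ((smul_eq_zero.1 h4).resolve_left h5)
          exact C.b_notMem hr (h3 ▸ hy₂)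
        · have h3 : (1 - (1 - (1 - ws) * (1 - v))) • u' + (1 - (1 - ws) * (1 - v)) • C.b p =
              (1 - w) • y₂ + w • C.b p := by
            rw [← e1]; module
          have hv1 : 0 < 1 - v := by linarith [hv.2]
          have hws1' : 0 < 1 - ws := by linarith
          have h4 := (C.rad_uniq hr' hr hu' hy₂ ⟨by nlinarith [hv.1], by nlinarith⟩
            ⟨hw0.le, hwws.trans hws1⟩ h3).2
          nlinarith [hv.1]
      rcases d2 with hs1 | ⟨e1, r, hr, hrs, hstr, y1, hy1, hyo1, hg1, hg1'⟩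
      · have ht1 : t ∈ C.cell p := hst.mem p hp
        rcases d2' with hs2 | ⟨e1', r', hr', hrs', hstr', y1', hy1', hyo1', hg2, hg2'⟩
        · have ht2 : t' ∈ C.cell p := hst'.mem p hp'
          refine ⟨hs1.trans hs2.symm, hbij.injOn ht1 ht2 ?_⟩
          rw [hs1, hs2, hggs, hggs, add_assoc, add_assoc] at heq
          have h3 := add_left_cancel heq
          exact congrArg (fun z => ((1 - κ p) * S + a)⁻¹ • z) h3
        · exfalso
          rw [hs1, hg2'] at heq
          exact key t l' t' y1' r' ht1 hr' hy1' e1' d1' heq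
      · rcases d2' with hs2 | ⟨e1', r', hr', hrs', hstr', y1', hy1', hyo1', hg2, hg2'⟩
        · exfalso
          have ht2 : t' ∈ C.cell p := hst'.mem p hp'
          rw [hs2, hg1'] at heq
          exact key t' l t y1 r ht2 hr hy1 e1 d1 heq.symm
        · -- both multiple
          set w : ℝ := κ p * l p / (S + a) with hw
          set w' : ℝ := κ p * l' p / (S + a) with hw'
          have hwN : (S + a) * w = κ p * l p := by rw [hw]; field_simp
          have hwN' : (S + a) * w' = κ p * l' p := by rw [hw']; field_simp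
          have hw0 : 0 < w := div_pos (mul_pos k0 d1) hN
          have hw0' : 0 < w' := div_pos (mul_pos k0 d1') hN
          have hw1 : w < 1 := by
            rw [hw, div_lt_one hN]; nlinarith
          have hw1' : w' < 1 := by
            rw [hw', div_lt_one hN]; nlinarith
          have e2 : (1 - w) • y1 + w • C.b p = (1 - w') • y1' + w' • C.b p := by
            have h1 : (S + a) • ((1 - w) • y1 + w • C.b p) =
                (S + a) • ((1 - w') • y1' + w' • C.b p) := by
              rw [smul_add, smul_add, smul_smul, smul_smul, smul_smul, smul_smul, hwN, hwN',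
                mul_sub, mul_sub, mul_one, hwN, hwN', ← hg1', ← hg2', heq]
            exact smul_right_injective E hN.ne' h1
          obtain ⟨f1, f2⟩ := C.rad_uniq hr hr' hy1 hy1' ⟨hw0.le, hw1⟩ ⟨hw0'.le, hw1'⟩ e2
          have f3 : l p = l' p := by
            have h1 : κ p * l p = κ p * l' p := by rw [← hwN, ← hwN', f2]
            exact mul_left_cancel₀ k0.ne' h1
          subst f1
          have hrr : r = r' := C.disj hy1 hyo1 hy1' hyo1'
          subst hrr
          have hA' : Adm m (S - l p) (fun t => (1 - κ p) • (m S t - m (S - l p) t) + A t)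
              ((1 - κ p) * l p + a) := Adm.step hA d1 e1.le (by linarith)
          rw [← f3] at hg2 hstr'
          obtain ⟨f4, f5⟩ := (ih (C.dim r) (hd ▸ C.dim_lt hr) r rfl (sub_pos.2 e1) hA').2
            (l.erase p) t (l'.erase p) t' hstr hstr' (hg1.trans hg2.symm)
          refine ⟨?_, f5⟩
          ext ρ
          by_cases hρ : ρ = p
          · subst hρ; exact f3
          · rw [← Finsupp.erase_ne hρ, f4, Finsupp.erase_ne hρ]

end Main

/-! ### telescoping and the final form -/

section Final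

variable {Q : Type*} [PartialOrder Q]

/-- telescoping over a chain support -/
lemma tele {G : Type*} [AddCommGroup G] (f : ℝ → G) : ∀ (n : ℕ) (l : Q →₀ ℝ),
    l.support.card = n → (∀ ρ ∈ l.support, ∀ σ ∈ l.support, ρ ≤ σ ∨ σ ≤ ρ) →
    ∑ ρ ∈ l.support, (f (Lo l ρ + l ρ) - f (Lo l ρ)) = f (∑ ρ ∈ l.support, l ρ) - f 0 := by
  classical
  intro n
  induction n with
  | zero =>
    intro l hl _
    rw [Finset.card_eq_zero] at hl
    rw [hl]; simp
  | succ n ih =>
    intro l hl hch
    have hne : l.support.Nonempty := by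
      rw [← Finset.card_pos]; omega
    obtain ⟨q, hq, hmax⟩ := l.support.exists_maximal hne
    have hle : ∀ ρ ∈ l.support, ρ ≤ q := fun ρ hρ => by
      rcases hch ρ hρ q hq with h1 | h1
      · exact h1
      · exact hmax hρ h1
    have hsub : ∀ ρ ∈ (l.erase q).support, ρ ∈ l.support := fun ρ hρ => by
      rw [Finsupp.support_erase] at hρ; exact Finset.mem_of_mem_erase hρ
    have h1 := ih (l.erase q) (by
      rw [Finsupp.support_erase, Finset.card_erase_of_mem hq, hl]; rfl)
      (fun ρ hρ σ hσ => hch ρ (hsub ρ hρ) σ (hsub σ hσ))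
    rw [← Finset.sum_erase_add _ _ hq, Lo_top hq hle, sub_add_cancel]
    have h2 : ∑ ρ ∈ l.support.erase q, (f (Lo l ρ + l ρ) - f (Lo l ρ)) =
        ∑ ρ ∈ (l.erase q).support, (f (Lo (l.erase q) ρ + (l.erase q) ρ) -
          f (Lo (l.erase q) ρ)) := by
      rw [Finsupp.support_erase]
      refine Finset.sum_congr rfl (fun σ hσ => ?_)
      rw [Lo_erase hle (Finset.mem_of_mem_erase hσ), Finsupp.erase_ne (Finset.ne_of_mem_erase hσ)]
    rw [h2, h1, sum_erase' hq]
    abel

variable {Λ : Set E} {C : CC Λ Q} {m : ℝ → E → E}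

/-- points of the exploded complex -/
structure State (C : CC Λ Q) (l : Q →₀ ℝ) (t : E) : Prop where
  nn : ∀ ρ, 0 ≤ l ρ
  sum : ∑ ρ ∈ l.support, l ρ = 1
  chain : ∀ ρ ∈ l.support, ∀ σ ∈ l.support, ρ ≤ σ ∨ σ ≤ ρ
  mem : ∀ ρ ∈ l.support, t ∈ C.cell ρ

lemma St.state {q : Q} {l : Q →₀ ℝ} {t : E} (h : St C 1 q l t) : State C l t :=
  ⟨h.nn, h.sum, h.chain, h.mem⟩

lemma State.exists_top {l : Q →₀ ℝ} {t : E} (h : State C l t) :
    ∃ p ∈ l.support, St C 1 p l t := by
  classical
  have hne : l.support.Nonempty := by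
    by_contra hne
    rw [Finset.not_nonempty_iff_eq_empty] at hne
    have := h.sum
    rw [hne, Finset.sum_empty] at this
    linarith
  obtain ⟨p, hp, hmax⟩ := l.support.exists_maximal hne
  refine ⟨p, hp, h.nn, h.sum, h.chain, fun ρ hρ => ?_, h.mem⟩
  rcases h.chain ρ hρ p hp with h1 | h1
  · exact h1
  · exact hmax hρ h1

/-- **surjectivity** -/
theorem gg_surj (M : MM C m) {κ : Q → ℝ} (hκ : ∀ q, 0 < κ q ∧ κ q < 1) {q : Q} {y : E}
    (hy : y ∈ C.cell q) : ∃ l t, St C 1 q l t ∧ gg κ C.b m l t = y := by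
  obtain ⟨l, t, hst, he⟩ := (exists_unique_state M hκ q one_pos Adm.base).1 y hy
  exact ⟨l, t, hst, by simpa using he⟩

/-- the image of a state lies in the open cell of the top element -/
theorem gg_mem (M : MM C m) {κ : Q → ℝ} (hκ : ∀ q, 0 < κ q ∧ κ q < 1) {q : Q} {l : Q →₀ ℝ}
    {t : E} (hst : St C 1 q l t) (hq : q ∈ l.support) :
    gg κ C.b m l t ∈ C.cell q ∧ ∀ p < q, gg κ C.b m l t ∉ C.cell p := by
  obtain ⟨y, hy, hyo, he⟩ := img M hκ q one_pos Adm.base hst hq
  have h1 : gg κ C.b m l t = y := by simpa using he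
  rw [h1]
  exact ⟨hy, hyo⟩

/-- **injectivity** -/
theorem gg_inj (M : MM C m) {κ : Q → ℝ} (hκ : ∀ q, 0 < κ q ∧ κ q < 1) {l l' : Q →₀ ℝ}
    {t t' : E} (h : State C l t) (h' : State C l' t')
    (he : gg κ C.b m l t = gg κ C.b m l' t') : l = l' ∧ t = t' := by
  obtain ⟨p, hp, hst⟩ := h.exists_top
  obtain ⟨p', hp', hst'⟩ := h'.exists_top
  obtain ⟨h1, h2⟩ := gg_mem M hκ hst hp
  obtain ⟨h1', h2'⟩ := gg_mem M hκ hst' hp'
  rw [← he] at h1' h2'
  have hpp := C.disj h1 h2 h1' h2'
  subst hpp
  exact (exists_unique_state M hκ p one_pos Adm.base).2 l t l' t' hst hst' (by rw [he])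

/-- the displacement fields -/
noncomputable def DD (b : Q → E) (m : ℝ → E → E) (l : Q →₀ ℝ) (t : E) (ρ : Q) : E :=
  l ρ • b ρ - (m (Lo l ρ + l ρ) t - m (Lo l ρ) t)

/-- `g = t + ∑ κ_ρ D_ρ` -/
theorem gg_eq (M : MM C m) (κ : Q → ℝ) {l : Q →₀ ℝ} {t : E} (h : State C l t)
    (ht : t ∈ Λ) : gg κ C.b m l t = t + ∑ ρ ∈ l.support, κ ρ • DD C.b m l t ρ := by
  have h1 := tele (fun s => m s t) _ l rfl h.chain
  rw [h.sum, M.one t ht, M.zero t ht, sub_zero] at h1
  have h2 : t + ∑ ρ ∈ l.support, κ ρ • DD C.b m l t ρ =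
      ∑ ρ ∈ l.support, ((m (Lo l ρ + l ρ) t - m (Lo l ρ) t) + κ ρ • DD C.b m l t ρ) := by
    rw [Finset.sum_add_distrib, h1]
  rw [h2]
  unfold gg DD
  refine Finset.sum_congr rfl (fun ρ _ => ?_)
  module

lemma DD_zero (b : Q → E) (m : ℝ → E → E) {l : Q →₀ ℝ} {t : E} {ρ : Q} (h : l ρ = 0) :
    DD b m l t ρ = 0 := by
  unfold DD
  rw [h]; simp

end Final

end Crest.Agent.R096.Xp_537
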