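import Crest.Agent.R096.Xp1_537
import Crest.Agent.R096.Cx3_609
import Crest.Agent.R096.Bd1_416

/-!
# R096 (row 96), EXPLODE, part 2 (helper537)

Barycentric coordinates `bc C` of a convex cell complex (barycentric subdivision) and their
piecewise linearity.
-/

set_option autoImplicit false
set_option linter.unusedSectionVars false
set_option linter.unusedVariables false
set_option linter.deprecated false

open Set

namespace Crest.Agent.R096.Xp_537

variable {E : Type*} [NormedAddCommGroup E] [NormedSpace ℝ E]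
variable {Q : Type*} [PartialOrder Q] {Λ : Set E} {C : CC Λ Q}

/-- weighted sum of barycentres -/
noncomputable def bs (b : Q → E) (l : Q →₀ ℝ) : E := ∑ ρ ∈ l.support, l ρ • b ρ

lemma bs_top (b : Q → E) {l : Q →₀ ℝ} {q : Q} (hq : q ∈ l.support) :
    bs b l = bs b (l.erase q) + l q • b q := by
  classical
  unfold bs
  rw [← Finset.sum_erase_add _ _ hq, Finsupp.support_erase]
  congr 1
  exact Finset.sum_congr rfl (fun σ hσ => by
    rw [Finsupp.erase_ne (Finset.ne_of_mem_erase hσ)])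

lemma bs_single (b : Q → E) {q : Q} {S : ℝ} (hS : 0 < S) :
    bs b (Finsupp.single q S) = S • b q := by
  unfold bs
  rw [Finsupp.support_single_ne_zero q hS.ne', Finset.sum_singleton, Finsupp.single_eq_same]

/-- decomposition of a state with top element `q` -/
lemma dec0 {q : Q} {S : ℝ} {l : Q →₀ ℝ} {t : E} (hst : St C S q l t) (hq : q ∈ l.support) :
    0 < l q ∧ (l = Finsupp.single q S ∨ (l q < S ∧ ∃ r < q, r ∈ (l.erase q).support ∧
      St C (S - l q) r (l.erase q) t)) := by
  classical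
  have hlq0 : 0 < l q := lt_of_le_of_ne (hst.nn q) (Ne.symm (Finsupp.mem_support_iff.1 hq))
  refine ⟨hlq0, ?_⟩
  have hlqS : l q ≤ S := by
    rw [← hst.sum]
    exact Finset.single_le_sum (fun ρ _ => hst.nn ρ) hq
  rcases hlqS.eq_or_lt with heq | hlt
  · left
    have h0 : ∑ ρ ∈ (l.erase q).support, (l.erase q) ρ = 0 := by
      rw [sum_erase' hq, hst.sum, heq, sub_self]
    have hnn : ∀ ρ, 0 ≤ (l.erase q) ρ := fun ρ => by
      by_cases hρ : ρ = q
      · subst hρ; simp
      · rw [Finsupp.erase_ne hρ]; exact hst.nn ρ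
    have h2 := (Finset.sum_eq_zero_iff_of_nonneg (fun ρ _ => hnn ρ)).1 h0
    ext ρ
    by_cases hρ : ρ = q
    · subst hρ; simp [heq]
    · rw [Finsupp.single_eq_of_ne hρ]
      by_cases hρ2 : ρ ∈ (l.erase q).support
      · have := h2 ρ hρ2
        rwa [Finsupp.erase_ne hρ] at this
      · have := Finsupp.notMem_support_iff.1 hρ2
        rwa [Finsupp.erase_ne hρ] at this
  · right
    obtain ⟨r, hr, hrs, hst'⟩ := hst.rest hq hlt
    exact ⟨hlt, r, hr, hrs, hst'⟩

/-- the weighted barycentre lies in the open cell of the top element -/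
theorem bs_img (C : CC Λ Q) (q : Q) : ∀ {S : ℝ} {l : Q →₀ ℝ} {t : E}, 0 < S → St C S q l t →
    q ∈ l.support → ∃ y ∈ C.cell q, (∀ p < q, y ∉ C.cell p) ∧ bs C.b l = S • y := by
  classical
  induction hd : C.dim q using Nat.strong_induction_on generalizing q with
  | _ d ih =>
    intro S l t hS hst hq
    obtain ⟨d1, d2⟩ := dec0 hst hq
    rcases d2 with rfl | ⟨e1, r, hr, hrs, hstr⟩
    · exact ⟨C.b q, C.bmem q, fun p hp => C.b_notMem hp, bs_single _ hS⟩
    · obtain ⟨y1, hy1, hyo, he⟩ := ih (C.dim r) (hd ▸ C.dim_lt hr) r rfl (sub_pos.2 e1) hstr hrs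
      set w : ℝ := l q / S with hw
      have hw0 : 0 < w := div_pos d1 hS
      have hw1 : w < 1 := by rw [hw, div_lt_one hS]; exact e1
      have hwS : S * w = l q := by rw [hw]; field_simp
      refine ⟨(1 - w) • y1 + w • C.b q, C.conv q (C.mono hr hy1) (C.bmem q) (by linarith) hw0.le
        (by ring), ?_, ?_⟩
      · intro p hp hyp
        have h1 : (1 - 0 : ℝ) • ((1 - w) • y1 + w • C.b q) + (0 : ℝ) • C.b q =
            (1 - w) • y1 + w • C.b q := by module
        have h2 := (C.rad_uniq hp hr hyp hy1 (by simp) ⟨hw0.le, hw1⟩ h1).2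
        linarith
      · rw [bs_top _ hq, he, smul_add, smul_smul, smul_smul, hwS, mul_sub, hwS, mul_one]

/-- existence and uniqueness of barycentric coordinates -/
theorem bary (C : CC Λ Q) (q : Q) : ∀ {S : ℝ}, 0 < S →
    (∀ y ∈ C.cell q, ∃ l t, St C S q l t ∧ bs C.b l = S • y) ∧
    (∀ l t l' t', St C S q l t → St C S q l' t' → bs C.b l = bs C.b l' → l = l') := by
  classical
  induction hd : C.dim q using Nat.strong_induction_on generalizing q with
  | _ d ih =>
    intro S hS
    constructor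
    · intro y hy
      rcases C.rad q y hy with rfl | ⟨p, hp, y', hy', w, hw, rfl⟩
      · exact ⟨Finsupp.single q S, C.b q, St.single hS (C.bmem q), bs_single _ hS⟩
      · rcases hw.1.eq_or_lt with h0 | h0
        · obtain ⟨l, t, hst, he⟩ := (ih (C.dim p) (hd ▸ C.dim_lt hp) p rfl hS).1 y' hy'
          refine ⟨l, t, ⟨hst.nn, hst.sum, hst.chain, fun ρ hρ => (hst.le ρ hρ).trans hp.le,
            hst.mem⟩, ?_⟩
          rw [he, ← h0]; simp
        · have hlt : S * w < S := by nlinarith [hw.2]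
          obtain ⟨l, t, hst, he⟩ := (ih (C.dim p) (hd ▸ C.dim_lt hp) p rfl
            (sub_pos.2 hlt)).1 y' hy'
          obtain ⟨c1, c2, c3, c4⟩ := hst.add hp (mul_pos hS h0) (sub_pos.2 hlt)
          refine ⟨_, t, c2, ?_⟩
          rw [bs_top _ c1, c3, c4, he]
          module
    · intro l t l' t' hst hst' heq
      obtain ⟨p, hp, hpq, hstp⟩ := hst.exists_top hS
      obtain ⟨p', hp', hpq', hstp'⟩ := hst'.exists_top hS
      obtain ⟨y, hy, hyo, hye⟩ := bs_img C p hS hstp hp
      obtain ⟨y', hy', hyo', hye'⟩ := bs_img C p' hS hstp' hp'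
      have hyy : y = y' := smul_right_injective E hS.ne' (show S • y = S • y' by
        rw [← hye, ← hye', heq])
      subst hyy
      have hpp : p = p' := C.disj hy hyo hy' hyo'
      subst hpp
      obtain ⟨d1, d2⟩ := dec0 hstp hp
      obtain ⟨d1', d2'⟩ := dec0 hstp' hp'
      -- single against multiple
      have key : ∀ (l₂ : Q →₀ ℝ) (r : Q) (y₂ : E), r < p → y₂ ∈ C.cell r → l₂ p < S →
          S • C.b p = (S - l₂ p) • y₂ + l₂ p • C.b p → False := by
        intro l₂ r y₂ hr hy₂ hlt he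
        have h1 : (S - l₂ p) • (C.b p - y₂) = 0 := by
          have : (S - l₂ p) • (C.b p - y₂) = S • C.b p - ((S - l₂ p) • y₂ + l₂ p • C.b p) := by
            module
          rw [this, he, sub_self]
        have h2 : C.b p = y₂ :=
          sub_eq_zero.1 ((smul_eq_zero.1 h1).resolve_left (by linarith))
        exact C.b_notMem hr (h2 ▸ hy₂)
      rcases d2 with hs1 | ⟨e1, r, hr, hrs, hstr⟩
      · rcases d2' with hs2 | ⟨e1', r', hr', hrs', hstr'⟩
        · rw [hs1, hs2]
        · exfalso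
          obtain ⟨y1', hy1', _, he'⟩ := bs_img C r' (sub_pos.2 e1') hstr' hrs'
          rw [hs1, bs_single _ hS, bs_top _ hp', he'] at heq
          exact key l' r' y1' hr' hy1' e1' heq
      · obtain ⟨y1, hy1, hyo1, he⟩ := bs_img C r (sub_pos.2 e1) hstr hrs
        rcases d2' with hs2 | ⟨e1', r', hr', hrs', hstr'⟩
        · exfalso
          rw [hs2, bs_single _ hS, bs_top _ hp, he] at heq
          exact key l r y1 hr hy1 e1 heq.symm
        · obtain ⟨y1', hy1', hyo1', he'⟩ := bs_img C r' (sub_pos.2 e1') hstr' hrs'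
          set w : ℝ := l p / S with hw
          set w' : ℝ := l' p / S with hw'
          have hwN : S * w = l p := by rw [hw]; field_simp
          have hwN' : S * w' = l' p := by rw [hw']; field_simp
          have hw0 : 0 < w := div_pos d1 hS
          have hw0' : 0 < w' := div_pos d1' hS
          have hw1 : w < 1 := by rw [hw, div_lt_one hS]; exact e1
          have hw1' : w' < 1 := by rw [hw', div_lt_one hS]; exact e1'
          have e2 : (1 - w) • y1 + w • C.b p = (1 - w') • y1' + w' • C.b p := by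
            apply smul_right_injective E hS.ne'
            show S • ((1 - w) • y1 + w • C.b p) = S • ((1 - w') • y1' + w' • C.b p)
            rw [smul_add, smul_add, smul_smul, smul_smul, smul_smul, smul_smul, hwN, hwN',
              mul_sub, mul_sub, mul_one, hwN, hwN', ← he, ← he', ← bs_top _ hp, ← bs_top _ hp',
              heq]
          obtain ⟨f1, f2⟩ := C.rad_uniq hr hr' hy1 hy1' ⟨hw0.le, hw1⟩ ⟨hw0'.le, hw1'⟩ e2
          have f3 : l p = l' p := by rw [← hwN, ← hwN', f2]
          subst f1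
          have hrr : r = r' := C.disj hy1 hyo1 hy1' hyo1'
          subst hrr
          rw [← f3] at he' hstr'
          have hrq : r < q := hr.trans_le hpq
          have f4 := (ih (C.dim r) (hd ▸ C.dim_lt hrq) r rfl (sub_pos.2 e1)).2
            (l.erase p) t (l'.erase p) t' hstr hstr' (he.trans he'.symm)
          ext ρ
          by_cases hρ : ρ = p
          · subst hρ; exact f3
          · rw [← Finsupp.erase_ne hρ, f4, Finsupp.erase_ne hρ]

open Classical in
/-- barycentric coordinates -/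
noncomputable def bc (C : CC Λ Q) (y : E) : Q →₀ ℝ :=
  if h : ∃ q l t, St C 1 q l t ∧ bs C.b l = y then h.choose_spec.choose else 0

/-- weights of total mass one on a chain -/
structure Wt (l : Q →₀ ℝ) : Prop where
  nn : ∀ ρ, 0 ≤ l ρ
  sum : ∑ ρ ∈ l.support, l ρ = 1
  chain : ∀ ρ ∈ l.support, ∀ σ ∈ l.support, ρ ≤ σ ∨ σ ≤ ρ

lemma Wt.nonempty {l : Q →₀ ℝ} (h : Wt l) : l.support.Nonempty := by
  by_contra hne
  rw [Finset.not_nonempty_iff_eq_empty] at hne
  have := h.sum
  rw [hne, Finset.sum_empty] at this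
  linarith

lemma Wt.exists_min {l : Q →₀ ℝ} (h : Wt l) : ∃ p ∈ l.support, ∀ ρ ∈ l.support, p ≤ ρ := by
  obtain ⟨p, hp, hmin⟩ := l.support.exists_minimal h.nonempty
  refine ⟨p, hp, fun ρ hρ => ?_⟩
  rcases h.chain p hp ρ hρ with h1 | h1
  · exact h1
  · exact hmin hρ h1

lemma Wt.exists_max {l : Q →₀ ℝ} (h : Wt l) : ∃ p ∈ l.support, ∀ ρ ∈ l.support, ρ ≤ p := by
  obtain ⟨p, hp, hmax⟩ := l.support.exists_maximal h.nonempty
  refine ⟨p, hp, fun ρ hρ => ?_⟩
  rcases h.chain ρ hρ p hp with h1 | h1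
  · exact h1
  · exact hmax hρ h1

lemma Wt.st {l : Q →₀ ℝ} (h : Wt l) (C : CC Λ Q) {q : Q} (hq : ∀ ρ ∈ l.support, ρ ≤ q) :
    ∃ t, St C 1 q l t := by
  obtain ⟨p, hp, hmin⟩ := h.exists_min
  exact ⟨C.b p, h.nn, h.sum, h.chain, hq, fun ρ hρ => C.mono_le (hmin ρ hρ) (C.bmem p)⟩

lemma St.wt {q : Q} {l : Q →₀ ℝ} {t : E} (h : St C 1 q l t) : Wt l := ⟨h.nn, h.sum, h.chain⟩

lemma State.wt {l : Q →₀ ℝ} {t : E} (h : State C l t) : Wt l := ⟨h.nn, h.sum, h.chain⟩

/-- uniqueness of barycentric coordinates -/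
theorem bs_inj (C : CC Λ Q) {l l' : Q →₀ ℝ} (h : Wt l) (h' : Wt l')
    (he : bs C.b l = bs C.b l') : l = l' := by
  obtain ⟨p, hp, hle⟩ := h.exists_max
  obtain ⟨p', hp', hle'⟩ := h'.exists_max
  obtain ⟨t, hst⟩ := h.st C hle
  obtain ⟨t', hst'⟩ := h'.st C hle'
  obtain ⟨y, hy, hyo, hye⟩ := bs_img C p one_pos hst hp
  obtain ⟨y', hy', hyo', hye'⟩ := bs_img C p' one_pos hst' hp'
  rw [one_smul] at hye hye'
  have hyy : y = y' := by rw [← hye, ← hye', he]
  subst hyy
  have hpp := C.disj hy hyo hy' hyo'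
  subst hpp
  exact (bary C p one_pos).2 l t l' t' hst hst' he

lemma bc_bs (C : CC Λ Q) {l : Q →₀ ℝ} (h : Wt l) : bc C (bs C.b l) = l := by
  classical
  obtain ⟨p, hp, hle⟩ := h.exists_max
  obtain ⟨t, hst⟩ := h.st C hle
  have hex : ∃ q l' t, St C 1 q l' t ∧ bs C.b l' = bs C.b l := ⟨p, l, t, hst, rfl⟩
  unfold bc
  rw [dif_pos hex]
  obtain ⟨t', ht', he⟩ := hex.choose_spec.choose_spec
  exact bs_inj C ht'.wt h he

/-- properties of `bc` on a cell -/
theorem bc_spec (C : CC Λ Q) {q : Q} {y : E} (hy : y ∈ C.cell q) :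
    Wt (bc C y) ∧ bs C.b (bc C y) = y ∧ ∀ ρ ∈ (bc C y).support, ρ ≤ q := by
  obtain ⟨l, t, hst, he⟩ := (bary C q one_pos).1 y hy
  rw [one_smul] at he
  have h1 : bc C y = l := by rw [← he]; exact bc_bs C hst.wt
  rw [h1]
  exact ⟨hst.wt, he, hst.le⟩

lemma bs_mem (C : CC Λ Q) {q : Q} {l : Q →₀ ℝ} (h : Wt l) (hle : ∀ ρ ∈ l.support, ρ ≤ q) :
    bs C.b l ∈ C.cell q := by
  obtain ⟨p, hp, hlep⟩ := h.exists_max
  obtain ⟨t, hst⟩ := h.st C hlep
  obtain ⟨y, hy, -, hye⟩ := bs_img C p one_pos hst hp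
  rw [one_smul] at hye
  rw [hye]
  exact C.mono_le (hle p hp) hy

end Crest.Agent.R096.Xp_537
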