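import Crest.Agent.R096.Xp2_537

/-!
# R096 (row 96), EXPLODE, part 3 (helper537)

Piecewise linearity of the barycentric coordinates; the PL multiplication `mm C` (quantile coupling
in barycentric coordinates) and the proof of its axioms `MM`.
-/

set_option autoImplicit false
set_option linter.unusedSectionVars false
set_option linter.unusedVariables false
set_option linter.deprecated false

open Set

namespace Crest.Agent.R096.Xp_537

open Crest.Agent.R096.Ce_537 (PLOn)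
open Crest.Agent.R096.Bd_416

variable {E : Type*} [NormedAddCommGroup E] [NormedSpace ℝ E]
variable {Q : Type*} [PartialOrder Q] {Λ : Set E} {C : CC Λ Q}

lemma CC.finite_meet (C : CC Λ Q) {T : Set E} (hT : IsCompact T) (hs : T ⊆ Λ) :
    {i | (C.cell i ∩ T).Nonempty}.Finite := by
  have h : ∀ x ∈ T, ∃ U ∈ nhdsWithin x T, {i | (C.cell i ∩ U).Nonempty}.Finite := by
    intro x hx
    obtain ⟨r, hr, hf⟩ := C.lf x (hs hx)
    exact ⟨Metric.ball x r, mem_nhdsWithin_of_mem_nhds (Metric.ball_mem_nhds x hr), hf⟩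
  choose! U hU hUf using h
  obtain ⟨t, ht, htc⟩ := hT.elim_nhdsWithin_subcover U hU
  refine (t.finite_toSet.biUnion (fun x hx => hUf x (ht x hx))).subset ?_
  rintro i ⟨y, hyK, hyT⟩
  obtain ⟨x, hx, hyU⟩ := mem_iUnion₂.1 (htc hyT)
  exact mem_biUnion (Finset.mem_coe.2 hx) ⟨y, hyK, hyU⟩

lemma CC.finite_le (C : CC Λ Q) (q : Q) : {p | p ≤ q}.Finite := by
  refine (C.finite_meet (C.cpt q) (C.sub q)).subset ?_
  intro p hp
  exact ⟨C.b p, C.bmem p, C.mono_le hp (C.bmem p)⟩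

/-- the finite set of cells below `q` -/
noncomputable def CC.dn (C : CC Λ Q) (q : Q) : Finset Q := (C.finite_le q).toFinset

lemma CC.mem_dn (C : CC Λ Q) {p q : Q} : p ∈ C.dn q ↔ p ≤ q := by
  simp [CC.dn]

/-- the polyhedron of chain weights -/
def XX (F : Finset Q) : Set (F → ℝ) :=
  {x | (∀ i, 0 ≤ x i) ∧ ∑ i, x i = 1 ∧ ∀ i j : F, x i ≠ 0 → x j ≠ 0 → (i : Q) ≤ j ∨ (j : Q) ≤ i}

lemma XX_eq (F : Finset Q) : XX F = ⋃ c ∈ {c : Set F | ∀ i ∈ c, ∀ j ∈ c, (i : Q) ≤ j ∨ (j : Q) ≤ i},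
    {x : F → ℝ | (∀ i, 0 ≤ x i) ∧ ∑ i, x i = 1 ∧ ∀ i ∉ c, x i = 0} := by
  ext x
  simp only [XX, mem_setOf_eq, mem_iUnion, exists_prop]
  constructor
  · rintro ⟨h1, h2, h3⟩
    exact ⟨{i | x i ≠ 0}, fun i hi j hj => h3 i j hi hj, h1, h2, fun i hi => by simpa using hi⟩
  · rintro ⟨c, hc, h1, h2, h3⟩
    refine ⟨h1, h2, fun i j hi hj => hc i ?_ j ?_⟩
    · by_contra h; exact hi (h3 i h)
    · by_contra h; exact hj (h3 j h)

lemma piece_convex {F : Finset Q} (c : Set F) :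
    Convex ℝ {x : F → ℝ | (∀ i, 0 ≤ x i) ∧ ∑ i, x i = 1 ∧ ∀ i ∉ c, x i = 0} := by
  intro x hx y hy a b ha hb hab
  refine ⟨fun i => ?_, ?_, fun i hi => ?_⟩
  · simp only [Pi.add_apply, Pi.smul_apply, smul_eq_mul]
    have := hx.1 i; have := hy.1 i; positivity
  · simp only [Pi.add_apply, Pi.smul_apply, smul_eq_mul]
    rw [Finset.sum_add_distrib, ← Finset.mul_sum, ← Finset.mul_sum, hx.2.1, hy.2.1]; linarith
  · simp [hx.2.2 i hi, hy.2.2 i hi]

lemma piece_closed {F : Finset Q} (c : Set F) :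
    IsClosed {x : F → ℝ | (∀ i, 0 ≤ x i) ∧ ∑ i, x i = 1 ∧ ∀ i ∉ c, x i = 0} := by
  refine IsClosed.inter ?_ (IsClosed.inter ?_ ?_)
  · have : {x : F → ℝ | ∀ i, 0 ≤ x i} = ⋂ i, {x | 0 ≤ x i} := by ext; simp
    show IsClosed {x : F → ℝ | ∀ i, 0 ≤ x i}
    rw [this]
    exact isClosed_iInter (fun i => isClosed_le continuous_const (continuous_apply i))
  · exact isClosed_eq (continuous_finset_sum _ (fun i _ => continuous_apply i)) continuous_const
  · have : {x : F → ℝ | ∀ i ∉ c, x i = 0} = ⋂ i ∈ cᶜ, {x | x i = 0} := by ext; simp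
    show IsClosed {x : F → ℝ | ∀ i ∉ c, x i = 0}
    rw [this]
    exact isClosed_biInter (fun i _ => isClosed_eq (continuous_apply i) continuous_const)

lemma XX_finConv (F : Finset Q) : Cx_609.FinConv (XX F) := by
  rw [XX_eq]
  exact Cx_609.FinConv.biUnion (Set.toFinite _) (fun c _ => (piece_convex c).finConv)

lemma XX_closed (F : Finset Q) : IsClosed (XX F) := by
  rw [XX_eq]
  exact (Set.toFinite _).isClosed_biUnion (fun c _ => piece_closed c)

open Classical in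
/-- chain weights as finitely supported functions -/
noncomputable def toF (F : Finset Q) (x : F → ℝ) : Q →₀ ℝ :=
  Finsupp.onFinset F (fun q => if h : q ∈ F then x ⟨q, h⟩ else 0) (fun q hq => by
    by_contra h; simp [h] at hq)

lemma toF_apply {F : Finset Q} (x : F → ℝ) (i : F) : toF F x i = x i := by
  simp [toF]

lemma toF_supp {F : Finset Q} (x : F → ℝ) : (toF F x).support ⊆ F :=
  Finsupp.support_onFinset_subset

lemma sum_support_eq {G : Type*} [AddCommMonoid G] {F : Finset Q} {l : Q →₀ ℝ}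
    (hl : l.support ⊆ F) (f : Q → G) (hf : ∀ q, l q = 0 → f q = 0) :
    ∑ ρ ∈ l.support, f ρ = ∑ ρ ∈ F, f ρ :=
  Finset.sum_subset hl (fun q _ hq => hf q (Finsupp.notMem_support_iff.1 hq))

lemma toF_wt {F : Finset Q} {x : F → ℝ} (hx : x ∈ XX F) : Wt (toF F x) := by
  classical
  have hm : ∀ ρ ∈ (toF F x).support, ∃ h : ρ ∈ F, toF F x ρ = x ⟨ρ, h⟩ := fun ρ hρ =>
    ⟨toF_supp x hρ, toF_apply x ⟨ρ, toF_supp x hρ⟩⟩
  refine ⟨fun ρ => ?_, ?_, ?_⟩
  · by_cases h : ρ ∈ F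
    · rw [toF_apply x ⟨ρ, h⟩]; exact hx.1 _
    · rw [Finsupp.notMem_support_iff.1 (fun h' => h (toF_supp x h'))]
  · rw [sum_support_eq (toF_supp x) (fun ρ => toF F x ρ) (fun q hq => hq), ← Finset.sum_coe_sort,
      ← hx.2.1]
    exact Finset.sum_congr rfl (fun i _ => toF_apply x i)
  · intro ρ hρ σ hσ
    obtain ⟨h1, e1⟩ := hm ρ hρ
    obtain ⟨h2, e2⟩ := hm σ hσ
    exact hx.2.2 ⟨ρ, h1⟩ ⟨σ, h2⟩ (by rw [← e1]; exact Finsupp.mem_support_iff.1 hρ)
      (by rw [← e2]; exact Finsupp.mem_support_iff.1 hσ)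

lemma bs_toF {F : Finset Q} (b : Q → E) (x : F → ℝ) :
    bs b (toF F x) = ∑ i : F, x i • b i := by
  unfold bs
  rw [sum_support_eq (toF_supp x) (fun ρ => toF F x ρ • b ρ) (fun q hq => by simp [hq]),
    ← Finset.sum_coe_sort]
  exact Finset.sum_congr rfl (fun i _ => by rw [toF_apply])

lemma restr_mem {F : Finset Q} {l : Q →₀ ℝ} (h : Wt l) (hl : l.support ⊆ F) :
    (fun i : F => l i) ∈ XX F := by
  refine ⟨fun i => h.nn i, ?_, fun i j hi hj => h.chain i (Finsupp.mem_support_iff.2 hi) j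
    (Finsupp.mem_support_iff.2 hj)⟩
  rw [Finset.sum_coe_sort F (fun ρ => l ρ), ← sum_support_eq hl (fun ρ => l ρ) (fun q hq => hq)]
  exact h.sum

lemma toF_restr {F : Finset Q} {l : Q →₀ ℝ} (hl : l.support ⊆ F) :
    toF F (fun i : F => l i) = l := by
  ext ρ
  by_cases h : ρ ∈ F
  · rw [toF_apply _ ⟨ρ, h⟩]
  · rw [Finsupp.notMem_support_iff.1 (fun h' => h (toF_supp _ h')),
      Finsupp.notMem_support_iff.1 (fun h' => h (hl h'))]

section PL

variable [FiniteDimensional ℝ E]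

/-- **the barycentric coordinates are PL on every cell** -/
theorem plOn_bc (C : CC Λ Q) (q ρ : Q) : PLOn (fun y => bc C y ρ) (C.cell q) := by
  classical
  by_cases hρ : ρ ≤ q
  · set F := C.dn q with hF
    let f : (F → ℝ) → E := fun x => ∑ i : F, x i • C.b i
    have hf : Cx_609.PLOn (XX F) f := by
      rw [Cx_609.plOn_iff]
      refine pl_sum _ (fun i _ => ?_)
      exact pl_clm (Ce_537.plOn_id _) ((ContinuousLinearMap.proj (R := ℝ)
        (φ := fun _ : F => ℝ) i).smulRight (C.b i))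
    have hr : LeftInvOn (fun y (i : F) => bc C y i) f (XX F) := by
      intro x hx
      funext i
      show bc C (f x) i = x i
      have h1 : f x = bs C.b (toF F x) := (bs_toF C.b x).symm
      rw [h1, bc_bs C (toF_wt hx), toF_apply]
    have himg : f '' XX F = C.cell q := by
      ext y
      constructor
      · rintro ⟨x, hx, rfl⟩
        have h1 : f x = bs C.b (toF F x) := (bs_toF C.b x).symm
        rw [h1]
        exact bs_mem C (toF_wt hx) (fun ρ hρ => C.mem_dn.1 (toF_supp x hρ))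
      · intro hy
        obtain ⟨h1, h2, h3⟩ := bc_spec C hy
        have hs : (bc C y).support ⊆ F := fun ρ hρ => C.mem_dn.2 (h3 ρ hρ)
        refine ⟨fun i => bc C y i, restr_mem h1 hs, ?_⟩
        show ∑ i : F, bc C y i • C.b i = y
        rw [← bs_toF, toF_restr hs, h2]
    have h1 := (hf.inv_closed (XX_finConv F) (XX_closed F) hr).2
    rw [himg, Cx_609.plOn_iff] at h1
    exact pl_apply h1 ⟨ρ, C.mem_dn.2 hρ⟩
  · refine (Ce_537.plOn_const (0 : ℝ) (C.cell q)).congr (fun y hy => ?_)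
    obtain ⟨h1, h2, h3⟩ := bc_spec C hy
    exact Finsupp.notMem_support_iff.1 (fun h => hρ (h3 ρ h))

end PL

/-! ### cumulative sums -/

open Classical in
lemma Lo_eq {F : Finset Q} {l : Q →₀ ℝ} (hl : l.support ⊆ F) (ρ : Q) :
    Lo l ρ = ∑ σ ∈ F with σ < ρ, l σ := by
  unfold Lo
  refine Finset.sum_subset (Finset.filter_subset_filter _ hl) (fun σ hσ hσ' => ?_)
  rw [Finset.mem_filter] at hσ hσ'
  exact Finsupp.notMem_support_iff.1 (fun h => hσ' ⟨h, hσ.2⟩)

lemma Lo_nonneg {l : Q →₀ ℝ} (h : ∀ ρ, 0 ≤ l ρ) (ρ : Q) : 0 ≤ Lo l ρ := by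
  classical
  unfold Lo
  exact Finset.sum_nonneg (fun σ _ => h σ)

lemma Lo_add_le {l : Q →₀ ℝ} (h : ∀ ρ, 0 ≤ l ρ) (hs : ∑ ρ ∈ l.support, l ρ = 1) (ρ : Q) :
    Lo l ρ + l ρ ≤ 1 := by
  classical
  rw [← hs]
  by_cases hρ : ρ ∈ l.support
  · unfold Lo
    have hn : ρ ∉ l.support.filter (fun σ => σ < ρ) := by simp
    rw [add_comm, ← Finset.sum_insert hn]
    refine Finset.sum_le_sum_of_subset_of_nonneg ?_ (fun σ _ _ => h σ)
    intro σ hσ
    rcases Finset.mem_insert.1 hσ with rfl | hσ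
    · exact hρ
    · exact (Finset.mem_filter.1 hσ).1
  · rw [Finsupp.notMem_support_iff.1 hρ, add_zero]
    unfold Lo
    exact Finset.sum_le_sum_of_subset_of_nonneg (Finset.filter_subset _ _) (fun σ _ _ => h σ)

/-! ### reparametrisation -/

/-- reparametrised weights -/
noncomputable def re (H : ℝ → ℝ) (l : Q →₀ ℝ) : Q →₀ ℝ :=
  Finsupp.onFinset l.support (fun ρ => H (Lo l ρ + l ρ) - H (Lo l ρ)) (fun ρ hρ => by
    rw [Finsupp.mem_support_iff]
    intro h; rw [h] at hρ; simp at hρ)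

lemma re_apply (H : ℝ → ℝ) (l : Q →₀ ℝ) (ρ : Q) :
    re H l ρ = H (Lo l ρ + l ρ) - H (Lo l ρ) := rfl

/-- a strictly increasing change of parameter of `[0,1]` -/
structure Rep (H : ℝ → ℝ) : Prop where
  mono : StrictMonoOn H (Icc 0 1)
  zero : H 0 = 0
  one : H 1 = 1

lemma Rep.pos {H : ℝ → ℝ} (h : Rep H) {l : Q →₀ ℝ} (hl : Wt l) {ρ : Q} (hρ : ρ ∈ l.support) :
    0 < re H l ρ := by
  have h1 := Lo_nonneg hl.nn ρ
  have h2 := Lo_add_le hl.nn hl.sum ρ
  have h3 : 0 < l ρ := lt_of_le_of_ne (hl.nn ρ) (Ne.symm (Finsupp.mem_support_iff.1 hρ))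
  rw [re_apply]
  have := h.mono ⟨h1, by linarith⟩ ⟨by linarith, h2⟩ (show Lo l ρ < Lo l ρ + l ρ by linarith)
  linarith

lemma Rep.supp {H : ℝ → ℝ} (h : Rep H) {l : Q →₀ ℝ} (hl : Wt l) :
    (re H l).support = l.support := by
  ext ρ
  constructor
  · intro hρ
    exact Finsupp.support_onFinset_subset hρ
  · intro hρ
    rw [Finsupp.mem_support_iff]
    exact (h.pos hl hρ).ne'

lemma tele_lt {G : Type*} [AddCommGroup G] (f : ℝ → G) {l : Q →₀ ℝ} (hl : Wt l) (ρ : Q) :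
    (by classical exact ∑ σ ∈ l.support with σ < ρ, (f (Lo l σ + l σ) - f (Lo l σ))) =
      f (Lo l ρ) - f 0 := by
  classical
  set l' : Q →₀ ℝ := l.filter (fun σ => σ < ρ) with hl'
  have hs : l'.support = l.support.filter (fun σ => σ < ρ) := by
    rw [hl', Finsupp.support_filter]
  have hv : ∀ σ, σ < ρ → l' σ = l σ := fun σ hσ => by
    exact Finsupp.filter_apply_pos (fun σ => σ < ρ) l hσ
  have hLo : ∀ σ, σ < ρ → Lo l' σ = Lo l σ := fun σ hσ => by
    unfold Lo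
    rw [hs, Finset.filter_filter]
    have he : l.support.filter (fun a => a < ρ ∧ a < σ) = l.support.filter (fun a => a < σ) := by
      ext a
      simp only [Finset.mem_filter]
      exact ⟨fun h => ⟨h.1, h.2.2⟩, fun h => ⟨h.1, h.2.trans hσ, h.2⟩⟩
    rw [he]
    exact Finset.sum_congr rfl (fun a ha => hv a ((Finset.mem_filter.1 ha).2.trans hσ))
  have h1 := tele f _ l' rfl (fun a ha b hb => by
    rw [hs] at ha hb
    exact hl.chain a (Finset.mem_filter.1 ha).1 b (Finset.mem_filter.1 hb).1)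
  have h2 : ∑ a ∈ l'.support, l' a = Lo l ρ := by
    unfold Lo
    rw [hs]
    exact Finset.sum_congr rfl (fun a ha => hv a (Finset.mem_filter.1 ha).2)
  rw [h2, hs] at h1
  rw [← h1]
  refine Finset.sum_congr (by congr) (fun a ha => ?_)
  rw [hv a (Finset.mem_filter.1 ha).2, hLo a (Finset.mem_filter.1 ha).2]

lemma Rep.Lo {H : ℝ → ℝ} (h : Rep H) {l : Q →₀ ℝ} (hl : Wt l) (ρ : Q) :
    Lo (re H l) ρ = H (Lo l ρ) := by
  classical
  have h1 := tele_lt H hl ρ
  rw [h.zero, sub_zero] at h1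
  rw [← h1]
  show (∑ σ ∈ (re H l).support with σ < ρ, re H l σ) = _
  rw [h.supp hl]
  exact Finset.sum_congr (by congr) (fun a _ => re_apply H l a)

lemma Rep.wt {H : ℝ → ℝ} (h : Rep H) {l : Q →₀ ℝ} (hl : Wt l) : Wt (re H l) := by
  refine ⟨fun ρ => ?_, ?_, fun a ha b hb => ?_⟩
  · by_cases hρ : ρ ∈ l.support
    · exact (h.pos hl hρ).le
    · rw [re_apply, Finsupp.notMem_support_iff.1 hρ]; simp
  · rw [h.supp hl]
    have h1 := tele H _ l rfl hl.chain
    rw [hl.sum, h.one, h.zero, sub_zero] at h1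
    exact h1
  · rw [h.supp hl] at ha hb
    exact hl.chain a ha b hb

lemma re_re {H H' : ℝ → ℝ} (h : Rep H) (hH : ∀ s ∈ Icc (0 : ℝ) 1, H' (H s) = s) {l : Q →₀ ℝ}
    (hl : Wt l) : re H' (re H l) = l := by
  ext ρ
  rw [re_apply, h.Lo hl, re_apply]
  have h1 := Lo_nonneg hl.nn ρ
  have h2 := Lo_add_le hl.nn hl.sum ρ
  have h3 := hl.nn ρ
  rw [add_sub_cancel, hH _ ⟨by linarith, h2⟩, hH _ ⟨h1, by linarith⟩]
  ring

/-- inverse change of parameter -/
lemma Rep.exists_inv {H : ℝ → ℝ} (h : Rep H) (hc : ContinuousOn H (Icc 0 1)) :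
    ∃ H', Rep H' ∧ (∀ s ∈ Icc (0 : ℝ) 1, H' (H s) = s) ∧ ∀ s ∈ Icc (0 : ℝ) 1, H (H' s) = s := by
  have hsurj : SurjOn H (Icc 0 1) (Icc 0 1) := by
    have := intermediate_value_Icc (zero_le_one (α := ℝ)) hc
    rw [h.zero, h.one] at this
    exact this
  have hmaps : MapsTo H (Icc 0 1) (Icc 0 1) := by
    intro s hs
    constructor
    · rw [← h.zero]; exact h.mono.monotoneOn ⟨le_rfl, zero_le_one⟩ hs hs.1
    · rw [← h.one]; exact h.mono.monotoneOn hs ⟨zero_le_one, le_rfl⟩ hs.2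
  set H' := Function.invFunOn H (Icc 0 1) with hH'
  have h1 : ∀ s ∈ Icc (0 : ℝ) 1, H' s ∈ Icc (0 : ℝ) 1 := fun s hs =>
    Function.invFunOn_mem (hsurj hs)
  have h2 : ∀ s ∈ Icc (0 : ℝ) 1, H (H' s) = s := fun s hs => Function.invFunOn_eq (hsurj hs)
  have h3 : ∀ s ∈ Icc (0 : ℝ) 1, H' (H s) = s := fun s hs =>
    h.mono.injOn (h1 _ (hmaps hs)) hs (h2 _ (hmaps hs))
  refine ⟨H', ⟨?_, ?_, ?_⟩, h3, h2⟩
  · intro s hs s' hs' hlt
    by_contra hcon
    push Not at hcon
    have := h.mono.monotoneOn (h1 s' hs') (h1 s hs) hcon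
    rw [h2 s hs, h2 s' hs'] at this
    linarith
  · have := h3 0 ⟨le_rfl, zero_le_one⟩
    rwa [h.zero] at this
  · have := h3 1 ⟨zero_le_one, le_rfl⟩
    rwa [h.one] at this

/-! ### the multiplication -/

/-- **the PL multiplication** -/
noncomputable def mm (C : CC Λ Q) (s : ℝ) (t : E) : E :=
  ∑ ρ ∈ (bc C t).support, (min (Lo (bc C t) ρ + bc C t ρ) s - min (Lo (bc C t) ρ) s) • C.b ρ

/-- every attenuation is a reparametrisation -/
lemma adm_rep (C : CC Λ Q) {S : ℝ} {A : E → E} {a : ℝ} (h : Adm (mm C) S A a) :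
    S ≤ 1 ∧ 0 ≤ S ∧ ∃ F : ℝ → ℝ, Continuous F ∧ StrictMonoOn F (Icc S 1) ∧
      (∀ s, s ≤ S → F s = 0) ∧ F 1 = a ∧
      ∀ t ∈ Λ, A t = ∑ ρ ∈ (bc C t).support,
        (F (Lo (bc C t) ρ + bc C t ρ) - F (Lo (bc C t) ρ)) • C.b ρ := by
  induction h with
  | base =>
    refine ⟨le_rfl, zero_le_one, fun s => max (s - 1) 0, by fun_prop, ?_, ?_, by simp, ?_⟩
    · intro x hx y hy hxy
      exact absurd hxy (by rw [le_antisymm hx.2 hx.1, le_antisymm hy.2 hy.1]; exact lt_irrefl _)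
    · intro s hs
      exact max_eq_right (by linarith)
    · intro t ht
      obtain ⟨q, hq⟩ := C.cover t ht
      obtain ⟨hw, -, -⟩ := bc_spec C hq
      symm
      apply Finset.sum_eq_zero
      intro ρ _
      have h1 := Lo_nonneg hw.nn ρ
      have h2 := Lo_add_le hw.nn hw.sum ρ
      have h3 := hw.nn ρ
      beta_reduce
      rw [max_eq_right (by linarith), max_eq_right (by linarith)]
      simp
  | @step S A a lam c _ h1 h2 h3 ih =>
    obtain ⟨i1, i2, F, f1, f2, f3, f4, f5⟩ := ih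
    refine ⟨by linarith, by linarith, fun s => c * (min s S - min s (S - lam)) + F s, by fun_prop,
      ?_, ?_, ?_, ?_⟩
    · intro x hx y hy hxy
      show c * (min x S - min x (S - lam)) + F x < c * (min y S - min y (S - lam)) + F y
      rw [min_eq_right hx.1, min_eq_right hy.1]
      rcases le_total y S with hyS | hyS
      · rw [min_eq_left (hxy.le.trans hyS), min_eq_left hyS, f3 x (hxy.le.trans hyS), f3 y hyS]
        nlinarith
      · rcases le_total x S with hxS | hxS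
        · rw [min_eq_left hxS, min_eq_right hyS, f3 x hxS]
          have h4 : 0 ≤ F y := by
            rw [← f3 S le_rfl]
            exact f2.monotoneOn ⟨le_rfl, i1⟩ ⟨hyS, hy.2⟩ hyS
          rcases hxS.eq_or_lt with h5 | h5
          · have h6 : 0 < F y := by
              rw [← f3 S le_rfl]
              exact f2 ⟨le_rfl, i1⟩ ⟨hyS, hy.2⟩ (h5 ▸ hxy)
            rw [h5]; linarith
          · nlinarith
        · rw [min_eq_right hxS, min_eq_right hyS]
          have := f2 ⟨hxS, hx.2⟩ ⟨hyS, hy.2⟩ hxy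
          linarith
    · intro s hs
      show c * (min s S - min s (S - lam)) + F s = 0
      rw [min_eq_left hs, min_eq_left (by linarith), f3 s (by linarith)]; ring
    · show c * (min 1 S - min 1 (S - lam)) + F 1 = _
      rw [min_eq_right i1, min_eq_right (by linarith), f4]; ring
    · intro t ht
      simp only
      rw [f5 t ht]
      unfold mm
      rw [← Finset.sum_sub_distrib, Finset.smul_sum, ← Finset.sum_add_distrib]
      refine Finset.sum_congr rfl (fun ρ _ => ?_)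
      module

lemma bs_eq_of {b : Q → E} {l : Q →₀ ℝ} {F : Finset Q} (hl : l.support ⊆ F) :
    bs b l = ∑ ρ ∈ F, l ρ • b ρ :=
  sum_support_eq hl (fun ρ => l ρ • b ρ) (fun q hq => by simp [hq])

/-- **`mm C` satisfies the axioms.** -/
theorem mm_MM (C : CC Λ Q) : MM C (mm C) := by
  classical
  refine ⟨fun t ht => ?_, fun t ht => ?_, fun q t ht s s' hs hss hs' => ?_, fun A a hA q => ?_⟩
  · obtain ⟨q, hq⟩ := C.cover t ht
    obtain ⟨hw, -, -⟩ := bc_spec C hq
    apply Finset.sum_eq_zero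
    intro ρ _
    have h1 := Lo_nonneg hw.nn ρ
    have h3 := hw.nn ρ
    rw [min_eq_right (by linarith), min_eq_right h1]; simp
  · obtain ⟨q, hq⟩ := C.cover t ht
    obtain ⟨hw, hb, -⟩ := bc_spec C hq
    conv_rhs => rw [← hb]
    unfold mm bs
    refine Finset.sum_congr rfl (fun ρ _ => ?_)
    have h2 := Lo_add_le hw.nn hw.sum ρ
    have h3 := hw.nn ρ
    rw [min_eq_left h2, min_eq_left (by linarith), add_sub_cancel_left]
  · obtain ⟨hw, hb, hle⟩ := bc_spec C ht
    have hpos : 0 < s' - s := by linarith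
    have e1 : (s' - s)⁻¹ • (mm C s' t - mm C s t) = ∑ ρ ∈ (bc C t).support,
        ((s' - s)⁻¹ * ((min (Lo (bc C t) ρ + bc C t ρ) s' - min (Lo (bc C t) ρ + bc C t ρ) s) -
          (min (Lo (bc C t) ρ) s' - min (Lo (bc C t) ρ) s))) • C.b ρ := by
      unfold mm
      rw [← Finset.sum_sub_distrib, Finset.smul_sum]
      refine Finset.sum_congr rfl (fun ρ _ => ?_)
      module
    rw [e1]
    refine (C.conv q).sum_mem (fun ρ _ => ?_) ?_ (fun ρ hρ => C.mono_le (hle ρ hρ) (C.bmem ρ))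
    · have h3 := hw.nn ρ
      refine mul_nonneg (inv_nonneg.2 hpos.le) ?_
      -- monotonicity of u ↦ min u s' - min u s
      have hmono : ∀ u v : ℝ, u ≤ v → min u s' - min u s ≤ min v s' - min v s := by
        intro u v huv
        rcases le_total u s with h | h
        · rw [min_eq_left h, min_eq_left (h.trans hss.le), sub_self]
          exact sub_nonneg.2 (min_le_min_left v hss.le)
        · rw [min_eq_right h, min_eq_right (h.trans huv)]
          exact sub_le_sub_right (min_le_min_right s' huv) s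
      have := hmono (Lo (bc C t) ρ) (Lo (bc C t) ρ + bc C t ρ) (by linarith)
      linarith
    · rw [← Finset.mul_sum]
      have h1 := tele (fun u => min u s' - min u s) _ (bc C t) rfl hw.chain
      rw [hw.sum] at h1
      rw [h1, min_eq_right hs', min_eq_right (by linarith), min_eq_left (by linarith),
        min_eq_left hs, sub_self, sub_zero]
      exact inv_mul_cancel₀ hpos.ne'
  · obtain ⟨-, -, F, f1, f2, f3, f4, f5⟩ := adm_rep C hA
    have ha : 0 < a := by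
      rw [← f4, ← f3 0 le_rfl]
      exact f2 ⟨le_rfl, zero_le_one⟩ ⟨zero_le_one, le_rfl⟩ one_pos
    set H : ℝ → ℝ := fun s => a⁻¹ * F s with hH
    have hR : Rep H := by
      refine ⟨fun x hx y hy hxy => mul_lt_mul_of_pos_left (f2 hx hy hxy) (inv_pos.2 ha), ?_, ?_⟩
      · show a⁻¹ * F 0 = 0
        rw [f3 0 le_rfl, mul_zero]
      · show a⁻¹ * F 1 = 1
        rw [f4, inv_mul_cancel₀ ha.ne']
    have hHc : ContinuousOn H (Icc 0 1) := (by fun_prop : Continuous H).continuousOn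
    obtain ⟨H', hR', g1, g2⟩ := hR.exists_inv hHc
    have key : ∀ t ∈ C.cell q, a⁻¹ • A t = bs C.b (re H (bc C t)) := by
      intro t ht
      obtain ⟨hw, hb, hle⟩ := bc_spec C ht
      rw [f5 t (C.sub q ht), Finset.smul_sum]
      unfold bs
      rw [hR.supp hw]
      refine Finset.sum_congr rfl (fun ρ _ => ?_)
      rw [re_apply, smul_smul, hH]
      congr 1
      ring
    refine ⟨fun t ht => ?_, fun t ht t' ht' he => ?_, fun y hy => ?_⟩
    · obtain ⟨hw, hb, hle⟩ := bc_spec C ht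
      show a⁻¹ • A t ∈ C.cell q
      rw [key t ht]
      exact bs_mem C (hR.wt hw) (fun ρ hρ => hle ρ (by rwa [hR.supp hw] at hρ))
    · obtain ⟨hw, hb, hle⟩ := bc_spec C ht
      obtain ⟨hw', hb', hle'⟩ := bc_spec C ht'
      have he1 : a⁻¹ • A t = a⁻¹ • A t' := he
      rw [key t ht, key t' ht'] at he1
      have h1 := bs_inj C (hR.wt hw) (hR.wt hw') he1
      have h2 : bc C t = bc C t' := by
        rw [← re_re hR g1 hw, h1, re_re hR g1 hw']
      rw [← hb, ← hb', h2]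
    · obtain ⟨hw, hb, hle⟩ := bc_spec C hy
      have hw2 := hR'.wt hw
      have hmem : bs C.b (re H' (bc C y)) ∈ C.cell q :=
        bs_mem C hw2 (fun ρ hρ => hle ρ (by rwa [hR'.supp hw] at hρ))
      refine ⟨_, hmem, ?_⟩
      show a⁻¹ • A _ = y
      rw [key _ hmem, bc_bs C hw2, re_re hR' g2 hw, hb]

/-- **`mm C` is jointly PL on `[0,1] × cell`** -/
theorem plOn_mm [FiniteDimensional ℝ E] (C : CC Λ Q) (q : Q) (K : Set ℝ) :
    PLOn (fun p : ℝ × E => mm C p.1 p.2) (K ×ˢ C.cell q) := by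
  classical
  set F := C.dn q with hF
  have hb : ∀ ρ, PLOn (fun p : ℝ × E => bc C p.2 ρ) (K ×ˢ C.cell q) := fun ρ =>
    (plOn_bc C q ρ).comp (pl_snd (Ce_537.plOn_id _)) (fun p hp => hp.2)
  have hL : ∀ ρ, PLOn (fun p : ℝ × E => ∑ σ ∈ F with σ < ρ, bc C p.2 σ) (K ×ˢ C.cell q) :=
    fun ρ => pl_sum _ (fun σ _ => hb σ)
  have hs : PLOn (fun p : ℝ × E => p.1) (K ×ˢ C.cell q) := pl_fst (Ce_537.plOn_id _)
  have h1 : PLOn (fun p : ℝ × E => ∑ ρ ∈ F, (min ((∑ σ ∈ F with σ < ρ, bc C p.2 σ) + bc C p.2 ρ)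
      p.1 - min (∑ σ ∈ F with σ < ρ, bc C p.2 σ) p.1) • C.b ρ) (K ×ˢ C.cell q) := by
    refine pl_sum _ (fun ρ _ => ?_)
    have h2 := pl_sub (pl_min (pl_add (hL ρ) (hb ρ)) hs) (pl_min (hL ρ) hs)
    exact pl_clm h2 ((ContinuousLinearMap.id ℝ ℝ).smulRight (C.b ρ))
  refine h1.congr (fun p hp => ?_)
  obtain ⟨hw, hbb, hle⟩ := bc_spec C hp.2
  have hsub : (bc C p.2).support ⊆ F := fun ρ hρ => C.mem_dn.2 (hle ρ hρ)
  show mm C p.1 p.2 = _
  unfold mm
  rw [sum_support_eq hsub (fun ρ => (min (Lo (bc C p.2) ρ + bc C p.2 ρ) p.1 -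
    min (Lo (bc C p.2) ρ) p.1) • C.b ρ) (fun q hq => by rw [hq]; simp)]
  refine Finset.sum_congr rfl (fun ρ _ => ?_)
  rw [Lo_eq hsub ρ]

end Crest.Agent.R096.Xp_537
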