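import Crest.Agent.R096.Xp3_537

/-!
# R096 (row 96), EXPLODE, part 4 (helper537)

The structure `Expl` (charts `e q : M q × cell q ≃ P q` over a convex cell complex, the fibre `M q`
a PL ball with boundary the union of the transported fibres of the larger cells) and the weights
`lam q : M q → chain weights` obtained by coning.
-/

set_option autoImplicit false
set_option linter.unusedSectionVars false
set_option linter.unusedVariables false
set_option linter.deprecated false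

open Set

namespace Crest.Agent.R096.Xp_537

open Crest.Agent.R096.Ce_537 (PLOn PLEquiv cube sph IsBall)
open Crest.Agent.R096.Bd_416

variable {E E' : Type*} [NormedAddCommGroup E] [NormedSpace ℝ E]
  [NormedAddCommGroup E'] [NormedSpace ℝ E']
variable {Q : Type*} [PartialOrder Q] {Λ : Set E}

/-- **exploded structure**: `G : Ω → Λ` is a product over every cell, with fibre `M q` = a PL ball
whose boundary is the union of the transported fibres of the larger cells. -/
structure Expl (Ω : Set E') (C : CC Λ Q) (G : E' → E) where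
  M : Q → Set E'
  P : Q → Set E'
  e : ∀ q, PLEquiv (M q ×ˢ C.cell q) (P q)
  d : Q → ℕ
  n : ℕ
  dim_le : ∀ q, C.dim q ≤ n
  e_G : ∀ q, ∀ m ∈ M q, ∀ t ∈ C.cell q, G ((e q).f (m, t)) = t
  e_b : ∀ q, ∀ m ∈ M q, (e q).f (m, C.b q) = m
  comp : ∀ {q ρ}, q < ρ → ∀ m ∈ M ρ, ∀ t ∈ C.cell q,
    (e ρ).f (m, t) = (e q).f ((e ρ).f (m, C.b q), t)
  ball : ∀ q, IsBall (d q) (M q) (⋃ ρ ∈ {ρ | q < ρ}, (fun m => (e ρ).f (m, C.b q)) '' M ρ)
  sub : ∀ q, P q ⊆ Ω
  cover : ∀ x ∈ Ω, ∃ q, x ∈ P q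
  lf : ∀ x ∈ Ω, ∃ r > 0, {q | (P q ∩ Metric.ball x r).Nonempty}.Finite
  up : ∀ {q q' x}, x ∈ P q → x ∈ P q' → ∃ ρ, q ≤ ρ ∧ q' ≤ ρ ∧ x ∈ P ρ

namespace Expl

variable {Ω : Set E'} {C : CC Λ Q} {G : E' → E} (X : Expl Ω C G)

/-- the boundary of the fibre -/
def bd (q : Q) : Set E' := ⋃ ρ ∈ {ρ | q < ρ}, (fun m => (X.e ρ).f (m, C.b q)) '' X.M ρ

/-- the fibre coordinate -/
def pt (q : Q) (x : E') : E' := ((X.e q).g x).1

lemma isCompact_M (q : Q) : IsCompact (X.M q) := (X.ball q).isCompact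

lemma isCompact_P (q : Q) : IsCompact (X.P q) := by
  rw [← (X.e q).image_eq]
  exact ((X.isCompact_M q).prod (C.cpt q)).image_of_continuousOn (X.e q).pf.1

lemma M_nonempty (q : Q) : (X.M q).Nonempty := (X.ball q).nonempty

lemma finite_meet {T : Set E'} (hT : IsCompact T) (hs : T ⊆ Ω) :
    {i | (X.P i ∩ T).Nonempty}.Finite := by
  have h : ∀ x ∈ T, ∃ U ∈ nhdsWithin x T, {i | (X.P i ∩ U).Nonempty}.Finite := by
    intro x hx
    obtain ⟨r, hr, hf⟩ := X.lf x (hs hx)
    exact ⟨Metric.ball x r, mem_nhdsWithin_of_mem_nhds (Metric.ball_mem_nhds x hr), hf⟩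
  choose! U hU hUf using h
  obtain ⟨t, ht, htc⟩ := hT.elim_nhdsWithin_subcover U hU
  refine (t.finite_toSet.biUnion (fun x hx => hUf x (ht x hx))).subset ?_
  rintro i ⟨y, hyK, hyT⟩
  obtain ⟨x, hx, hyU⟩ := mem_iUnion₂.1 (htc hyT)
  exact mem_biUnion (Finset.mem_coe.2 hx) ⟨y, hyK, hyU⟩

lemma pt_mem {q : Q} {x : E'} (hx : x ∈ X.P q) : X.pt q x ∈ X.M q := ((X.e q).mg hx).1

lemma g_snd {q : Q} {x : E'} (hx : x ∈ X.P q) : ((X.e q).g x).2 = G x := by
  have h := X.e_G q _ ((X.e q).mg hx).1 _ ((X.e q).mg hx).2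
  rw [Prod.mk.eta, (X.e q).ri x hx] at h
  exact h.symm

lemma G_mem {q : Q} {x : E'} (hx : x ∈ X.P q) : G x ∈ C.cell q := by
  rw [← X.g_snd hx]; exact ((X.e q).mg hx).2

/-- `x = e (pt x, G x)` -/
lemma e_pt {q : Q} {x : E'} (hx : x ∈ X.P q) : (X.e q).f (X.pt q x, G x) = x := by
  rw [← X.g_snd hx]
  exact (X.e q).ri x hx

lemma e_mem {q : Q} {m : E'} {t : E} (hm : m ∈ X.M q) (ht : t ∈ C.cell q) :
    (X.e q).f (m, t) ∈ X.P q := (X.e q).mf ⟨hm, ht⟩

lemma pt_e {q : Q} {m : E'} {t : E} (hm : m ∈ X.M q) (ht : t ∈ C.cell q) :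
    X.pt q ((X.e q).f (m, t)) = m := by
  unfold pt
  rw [(X.e q).li (m, t) ⟨hm, ht⟩]

lemma M_sub_P (q : Q) : X.M q ⊆ X.P q := by
  intro m hm
  have := X.e_mem hm (C.bmem q)
  rwa [X.e_b q m hm] at this

lemma G_M {q : Q} {m : E'} (hm : m ∈ X.M q) : G m = C.b q := by
  have := X.e_G q m hm _ (C.bmem q)
  rwa [X.e_b q m hm] at this

lemma pt_M {q : Q} {m : E'} (hm : m ∈ X.M q) : X.pt q m = m := by
  have := X.pt_e hm (C.bmem q)
  rwa [X.e_b q m hm] at this

lemma bd_sub (q : Q) : X.bd q ⊆ X.M q := (X.ball q).subset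

lemma tr_bd {q ρ : Q} (h : q < ρ) {m : E'} (hm : m ∈ X.M ρ) :
    (X.e ρ).f (m, C.b q) ∈ X.bd q :=
  mem_biUnion (show ρ ∈ {ρ | q < ρ} from h) ⟨m, hm, rfl⟩

lemma tr_mem {q ρ : Q} (h : q < ρ) {m : E'} (hm : m ∈ X.M ρ) :
    (X.e ρ).f (m, C.b q) ∈ X.M q := X.bd_sub q (X.tr_bd h hm)

/-- a point of `M q` lying in `P ρ`, `q < ρ`, is in the boundary -/
lemma mem_bd {q ρ : Q} (h : q < ρ) {x : E'} (hx : x ∈ X.M q) (hxρ : x ∈ X.P ρ) :
    x ∈ X.bd q := by
  have h1 := X.e_pt hxρ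
  rw [X.G_M hx] at h1
  rw [← h1]
  exact X.tr_bd h (X.pt_mem hxρ)

/-- compatibility of the fibre coordinates -/
lemma pt_tr {q ρ : Q} (h : q < ρ) {x : E'} (hq : x ∈ X.P q) (hρ : x ∈ X.P ρ) :
    X.pt q x = (X.e ρ).f (X.pt ρ x, C.b q) := by
  have h1 := X.comp h (X.pt ρ x) (X.pt_mem hρ) (G x) (X.G_mem hq)
  rw [X.e_pt hρ] at h1
  conv_lhs => rw [h1]
  exact X.pt_e (X.tr_mem h (X.pt_mem hρ)) (X.G_mem hq)

include X in
lemma finite_up (q : Q) : {ρ | q ≤ ρ}.Finite := by
  refine (X.finite_meet (X.isCompact_P q) (X.sub q)).subset ?_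
  intro ρ hρ
  rcases eq_or_lt_of_le (show q ≤ ρ from hρ) with rfl | h
  · obtain ⟨m, hm⟩ := X.M_nonempty q
    exact ⟨m, X.M_sub_P q hm, X.M_sub_P q hm⟩
  · obtain ⟨m, hm⟩ := X.M_nonempty ρ
    exact ⟨_, X.e_mem hm (C.mono h (C.bmem q)), X.M_sub_P q (X.tr_mem h hm)⟩

/-- the finite set of cells above `q` -/
noncomputable def ups (q : Q) : Finset Q := (X.finite_up q).toFinset

lemma mem_ups {p q : Q} : p ∈ X.ups q ↔ q ≤ p := by
  simp [ups]

/-- `σ` is the largest cell whose piece contains `x` -/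
def IsTop (x : E') (σ : Q) : Prop := x ∈ X.P σ ∧ ∀ q, x ∈ X.P q → q ≤ σ

lemma IsTop.uniq {x : E'} {σ σ' : Q} (h : X.IsTop x σ) (h' : X.IsTop x σ') : σ = σ' :=
  le_antisymm (h'.2 σ h.1) (h.2 σ' h'.1)

lemma exists_top {x : E'} (hx : x ∈ Ω) : ∃ σ, X.IsTop x σ := by
  obtain ⟨r, hr, hf⟩ := X.lf x hx
  obtain ⟨q, hq⟩ := X.cover x hx
  have hfin : {q | x ∈ X.P q}.Finite :=
    hf.subset (fun q hq => ⟨x, hq, Metric.mem_ball_self hr⟩)
  obtain ⟨σ, hσ, hmax⟩ := hfin.exists_maximal ⟨q, hq⟩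
  refine ⟨σ, hσ, fun q' hq' => ?_⟩
  obtain ⟨ρ, h1, h2, h3⟩ := X.up hσ hq'
  exact h2.trans (hmax h3 h1)

/-- the chart of the fibre -/
noncomputable def a (q : Q) : PLEquiv (cube (X.d q)) (X.M q) := (X.ball q).choose

lemma a_bd (q : Q) : (X.a q).f '' sph (X.d q) = X.bd q := (X.ball q).choose_spec

lemma a_mem {q : Q} {v : Fin (X.d q) → ℝ} (hv : v ∈ sph (X.d q)) : (X.a q).f v ∈ X.bd q := by
  rw [← X.a_bd]; exact ⟨v, hv, rfl⟩

lemma a_sph {q : Q} {x : E'} (hx : x ∈ X.bd q) : (X.a q).g x ∈ sph (X.d q) := by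
  rw [← X.a_bd] at hx
  obtain ⟨v, hv, rfl⟩ := hx
  rw [(X.a q).li v (Ce_537.sph_subset_cube hv)]
  exact hv

lemma P_sub_Ω {q : Q} {x : E'} (hx : x ∈ X.P q) : x ∈ Ω := X.sub q hx

/-- the top cell of a boundary point of `M q` -/
lemma top_bd {q : Q} {x : E'} (hx : x ∈ X.bd q) : ∃ σ, q < σ ∧ X.IsTop x σ := by
  obtain ⟨ρ, hρ, m, hm, rfl⟩ := mem_iUnion₂.1 hx
  have hP : (X.e ρ).f (m, C.b q) ∈ X.P ρ := X.e_mem hm (C.mono hρ (C.bmem q))
  obtain ⟨σ, hσ⟩ := X.exists_top (X.sub _ hP)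
  exact ⟨σ, lt_of_lt_of_le hρ (hσ.2 ρ hP), hσ⟩

/-- the point of the top cell: not in the boundary -/
lemma top_pt {x : E'} {σ : Q} (h : X.IsTop x σ) : X.pt σ x ∉ X.bd σ := by
  intro hb
  obtain ⟨ρ, hρ, m, hm, he⟩ := mem_iUnion₂.1 hb
  have he' : (X.e ρ).f (m, C.b σ) = X.pt σ x := he
  have h1 := X.comp hρ m hm (G x) (X.G_mem h.1)
  rw [he', X.e_pt h.1] at h1
  have h2 : x ∈ X.P ρ := by
    rw [← h1]; exact X.e_mem hm (C.mono hρ (X.G_mem h.1))
  exact absurd (h.2 ρ h2) (not_le_of_gt hρ)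

open Classical in
/-- **the weights**, by coning -/
noncomputable def lam (X : Expl Ω C G) (q : Q) (x : E') : Q →₀ ℝ :=
  (1 - ‖(X.a q).g x‖) • Finsupp.single q 1 + ‖(X.a q).g x‖ •
    (if h : ∃ σ, q < σ ∧ X.IsTop ((X.a q).f (‖(X.a q).g x‖⁻¹ • (X.a q).g x)) σ then
      lam X h.choose (X.pt h.choose ((X.a q).f (‖(X.a q).g x‖⁻¹ • (X.a q).g x))) else 0)
termination_by X.n - C.dim q
decreasing_by
  have h1 := C.dim_lt h.choose_spec.1
  have h2 := X.dim_le h.choose
  omega

lemma lam_center (q : Q) : X.lam q ((X.a q).f 0) = Finsupp.single q 1 := by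
  rw [lam, (X.a q).li 0 (by simp [cube])]
  simp

lemma lam_cone {q : Q} {v : Fin (X.d q) → ℝ} (hv : v ∈ sph (X.d q)) {r : ℝ} (h0 : 0 < r)
    (h1 : r ≤ 1) {σ : Q} (hσ : X.IsTop ((X.a q).f v) σ) :
    X.lam q ((X.a q).f (r • v)) = (1 - r) • Finsupp.single q 1 +
      r • X.lam σ (X.pt σ ((X.a q).f v)) := by
  have hnv : ‖v‖ = 1 := by simpa using hv
  have hn : ‖r • v‖ = r := by rw [norm_smul, hnv, mul_one, Real.norm_eq_abs, abs_of_pos h0]
  have hm : r • v ∈ cube (X.d q) := by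
    simp only [cube, mem_closedBall_zero_iff]; rw [hn]; exact h1
  have hg : (X.a q).g ((X.a q).f (r • v)) = r • v := (X.a q).li _ hm
  rw [lam, hg, hn, smul_smul, inv_mul_cancel₀ h0.ne', one_smul]
  congr 2
  have hex : ∃ σ, q < σ ∧ X.IsTop ((X.a q).f v) σ := X.top_bd (X.a_mem hv)
  rw [dif_pos hex]
  have he : hex.choose = σ := IsTop.uniq X hex.choose_spec.2 hσ
  rw [he]

lemma lam_cone' {q : Q} {v : Fin (X.d q) → ℝ} (hv : v ∈ sph (X.d q)) {r : ℝ} (h0 : 0 < r)
    (h1 : r ≤ 1) :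
    X.lam q ((X.a q).f (r • v)) = (1 - r) • Finsupp.single q 1 +
      r • X.lam q ((X.a q).f v) := by
  obtain ⟨σ, hσ, ht⟩ := X.top_bd (X.a_mem hv)
  have h2 := X.lam_cone hv one_pos le_rfl ht
  rw [one_smul, sub_self, zero_smul, zero_add, one_smul] at h2
  rw [X.lam_cone hv h0 h1 ht, h2]

/-- every point of `M q` in cone coordinates -/
lemma polar {q : Q} {x : E'} (hx : x ∈ X.M q) : x = (X.a q).f 0 ∨
    ∃ v ∈ sph (X.d q), ∃ r : ℝ, 0 < r ∧ r ≤ 1 ∧ x = (X.a q).f (r • v) := by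
  by_cases h : (X.a q).g x = 0
  · left
    rw [← h, (X.a q).ri x hx]
  · right
    refine ⟨‖(X.a q).g x‖⁻¹ • (X.a q).g x, Ce_537.smul_mem_sph h, ‖(X.a q).g x‖,
      norm_pos_iff.2 h, ?_, ?_⟩
    · have := (X.a q).mg hx
      simpa [cube] using this
    · rw [smul_smul, mul_inv_cancel₀ (norm_ne_zero_iff.2 h), one_smul, (X.a q).ri x hx]

/-- (a0) on the boundary -/
lemma lam_bd_top {q : Q} {x : E'} (hx : x ∈ X.bd q) {σ : Q} (hσ : X.IsTop x σ) :
    X.lam q x = X.lam σ (X.pt σ x) := by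
  have hv := X.a_sph hx
  have he : (X.a q).f ((X.a q).g x) = x := (X.a q).ri x (X.bd_sub q hx)
  have h2 := X.lam_cone hv one_pos le_rfl (by rw [he]; exact hσ)
  rw [one_smul, sub_self, zero_smul, zero_add, one_smul, he] at h2
  exact h2

/-- (a) transport -/
theorem lam_tr (ρ : Q) : ∀ q < ρ, ∀ m ∈ X.M ρ, X.lam q ((X.e ρ).f (m, C.b q)) = X.lam ρ m := by
  induction hd : X.n - C.dim ρ using Nat.strong_induction_on generalizing ρ with
  | _ d ih =>
    intro q hq m hm
    set x := (X.e ρ).f (m, C.b q) with hx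
    have hxb : x ∈ X.bd q := X.tr_bd hq hm
    have hbρ : C.b q ∈ C.cell ρ := C.mono hq (C.bmem q)
    have hxP : x ∈ X.P ρ := X.e_mem hm hbρ
    obtain ⟨σ, hσ⟩ := X.exists_top (X.sub _ hxP)
    rw [X.lam_bd_top hxb hσ]
    have hpt : X.pt ρ x = m := X.pt_e hm hbρ
    rcases (hσ.2 ρ hxP).eq_or_lt with rfl | hlt
    · rw [hpt]
    · have h1 := C.dim_lt hlt
      have h2 := X.dim_le σ
      have h3 := ih (X.n - C.dim σ) (by omega) σ rfl ρ hlt (X.pt σ x) (X.pt_mem hσ.1)
      rw [← h3, ← X.pt_tr hlt hxP hσ.1, hpt]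

/-- (a') the weights do not depend on the cell -/
theorem lam_pt {q ρ : Q} (h : q ≤ ρ) {x : E'} (hq : x ∈ X.P q) (hρ : x ∈ X.P ρ) :
    X.lam q (X.pt q x) = X.lam ρ (X.pt ρ x) := by
  rcases h.eq_or_lt with rfl | h
  · rfl
  · rw [X.pt_tr h hq hρ]
    exact X.lam_tr ρ q h _ (X.pt_mem hρ)

/-- support and value at `q` -/
theorem lam_le (q : Q) : ∀ x ∈ X.M q, (∀ ρ ∈ (X.lam q x).support, q ≤ ρ) ∧
    X.lam q x q = 1 - ‖(X.a q).g x‖ := by
  induction hd : X.n - C.dim q using Nat.strong_induction_on generalizing q with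
  | _ d ih =>
    intro x hx
    rcases X.polar hx with rfl | ⟨v, hv, r, h0, h1, rfl⟩
    · rw [X.lam_center, (X.a q).li 0 (by simp [cube])]
      refine ⟨fun ρ hρ => ?_, by simp⟩
      have := Finsupp.support_single_subset hρ
      rw [Finset.mem_singleton] at this
      exact this.ge
    · obtain ⟨σ, hσ, ht⟩ := X.top_bd (X.a_mem hv)
      rw [X.lam_cone hv h0 h1 ht]
      have hnv : ‖v‖ = 1 := by simpa using hv
      have hn : ‖r • v‖ = r := by rw [norm_smul, hnv, mul_one, Real.norm_eq_abs, abs_of_pos h0]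
      have hm : r • v ∈ cube (X.d q) := by
        simp only [cube, mem_closedBall_zero_iff]; rw [hn]; exact h1
      rw [(X.a q).li _ hm, hn]
      have d1 := C.dim_lt hσ
      have d2 := X.dim_le σ
      obtain ⟨i1, i2⟩ := ih (X.n - C.dim σ) (by omega) σ rfl _ (X.pt_mem ht.1)
      have hz : X.lam σ (X.pt σ ((X.a q).f v)) q = 0 := by
        by_contra hne
        exact absurd (i1 q (Finsupp.mem_support_iff.2 hne)) (not_le_of_gt hσ)
      constructor
      · intro ρ hρ
        by_contra hcon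
        have e1 : (Finsupp.single q (1 : ℝ)) ρ = 0 := by
          refine Finsupp.single_eq_of_ne ?_
          rintro rfl; exact hcon le_rfl
        have e2 : X.lam σ (X.pt σ ((X.a q).f v)) ρ = 0 := by
          by_contra hne
          exact hcon (hσ.le.trans (i1 ρ (Finsupp.mem_support_iff.2 hne)))
        rw [Finsupp.mem_support_iff] at hρ
        apply hρ
        rw [Finsupp.add_apply, Finsupp.smul_apply, Finsupp.smul_apply, e1, e2]
        simp
      · rw [Finsupp.add_apply, Finsupp.smul_apply, Finsupp.smul_apply, hz]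
        simp

lemma wt_single (q : Q) : Wt (Finsupp.single q (1 : ℝ)) := by
  classical
  have hs : (Finsupp.single q (1 : ℝ)).support = {q} :=
    Finsupp.support_single_ne_zero q one_ne_zero
  refine ⟨fun ρ => ?_, ?_, ?_⟩
  · by_cases h1 : ρ = q
    · subst h1; simp
    · simp [Finsupp.single_eq_of_ne h1]
  · rw [hs]; simp
  · rw [hs]; intro ρ hρ σ hσ
    rw [Finset.mem_singleton] at hρ hσ
    subst hρ hσ; exact Or.inl le_rfl

/-- adding mass at a smaller element -/
lemma wt_cone {q : Q} {l : Q →₀ ℝ} (hl : Wt l) (hq : ∀ ρ ∈ l.support, q < ρ) {r : ℝ}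
    (h0 : 0 ≤ r) (h1 : r ≤ 1) : Wt ((1 - r) • Finsupp.single q (1 : ℝ) + r • l) := by
  classical
  have hqn : q ∉ l.support := fun h => lt_irrefl _ (hq q h)
  have hl0 : l q = 0 := by simpa using hqn
  have hv : ∀ ρ, ((1 - r) • Finsupp.single q (1 : ℝ) + r • l) ρ =
      (if ρ = q then (1 - r) else 0) + r * l ρ := by
    intro ρ
    rw [Finsupp.add_apply, Finsupp.smul_apply, Finsupp.smul_apply, Finsupp.single_apply]
    by_cases h : ρ = q
    · subst h; simp
    · rw [if_neg h, if_neg (Ne.symm h)]; simp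
  have hsub : ((1 - r) • Finsupp.single q (1 : ℝ) + r • l).support ⊆ insert q l.support := by
    intro ρ hρ
    rw [Finsupp.mem_support_iff, hv] at hρ
    by_cases h : ρ = q
    · exact Finset.mem_insert.2 (Or.inl h)
    · refine Finset.mem_insert.2 (Or.inr (Finsupp.mem_support_iff.2 ?_))
      intro h2; rw [if_neg h, h2] at hρ; simp at hρ
  refine ⟨fun ρ => ?_, ?_, ?_⟩
  · rw [hv]
    have := hl.nn ρ
    split_ifs <;> nlinarith
  · rw [sum_support_eq hsub (fun ρ => ((1 - r) • Finsupp.single q (1 : ℝ) + r • l) ρ)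
      (fun q hq => hq)]
    have : ∑ ρ ∈ insert q l.support, ((1 - r) • Finsupp.single q (1 : ℝ) + r • l) ρ =
        ∑ ρ ∈ insert q l.support, ((if ρ = q then (1 - r) else 0) + r * l ρ) :=
      Finset.sum_congr rfl (fun ρ _ => hv ρ)
    rw [this, Finset.sum_add_distrib, ← Finset.mul_sum, Finset.sum_insert hqn, Finset.sum_insert hqn,
      hl.sum, hl0]
    have h3 : ∑ x ∈ l.support, (if x = q then (1 - r) else 0) = 0 := by
      apply Finset.sum_eq_zero
      intro x hx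
      rw [if_neg]
      rintro rfl; exact hqn hx
    rw [h3]; simp
  · intro ρ hρ σ hσ
    rcases Finset.mem_insert.1 (hsub hρ) with h1 | h1
    · rcases Finset.mem_insert.1 (hsub hσ) with h2 | h2
      · rw [h1, h2]; exact Or.inl le_rfl
      · rw [h1]; exact Or.inl (hq σ h2).le
    · rcases Finset.mem_insert.1 (hsub hσ) with h2 | h2
      · rw [h2]; exact Or.inr (hq ρ h1).le
      · exact hl.chain ρ h1 σ h2

/-- (b) the weights are weights -/
theorem lam_wt (q : Q) : ∀ x ∈ X.M q, Wt (X.lam q x) := by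
  induction hd : X.n - C.dim q using Nat.strong_induction_on generalizing q with
  | _ d ih =>
    intro x hx
    rcases X.polar hx with rfl | ⟨v, hv, r, h0, h1, rfl⟩
    · rw [X.lam_center]
      exact wt_single q
    · obtain ⟨σ, hσ, ht⟩ := X.top_bd (X.a_mem hv)
      rw [X.lam_cone hv h0 h1 ht]
      have d1 := C.dim_lt hσ
      have d2 := X.dim_le σ
      refine wt_cone (ih (X.n - C.dim σ) (by omega) σ rfl _ (X.pt_mem ht.1)) (fun ρ hρ => ?_)
        h0.le h1
      exact lt_of_lt_of_le hσ ((X.lam_le σ _ (X.pt_mem ht.1)).1 ρ hρ)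

/-- the coordinate at `q` is positive off the boundary -/
lemma lam_pos {q : Q} {x : E'} (hx : x ∈ X.M q) (hb : x ∉ X.bd q) : 0 < X.lam q x q := by
  rw [(X.lam_le q x hx).2]
  have h1 : ‖(X.a q).g x‖ ≤ 1 := by
    have := (X.a q).mg hx
    simpa [cube] using this
  rcases h1.eq_or_lt with h | h
  · exfalso
    apply hb
    have : (X.a q).g x ∈ sph (X.d q) := by simpa [sph] using h
    have h2 := X.a_mem this
    rwa [(X.a q).ri x hx] at h2
  · linarith

/-- the minimum of the support determines the top cell -/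
lemma top_min {x : E'} {σ : Q} (h : X.IsTop x σ) :
    σ ∈ (X.lam σ (X.pt σ x)).support ∧ ∀ ρ ∈ (X.lam σ (X.pt σ x)).support, σ ≤ ρ :=
  ⟨Finsupp.mem_support_iff.2 (X.lam_pos (X.pt_mem h.1) (X.top_pt h)).ne',
    (X.lam_le σ _ (X.pt_mem h.1)).1⟩

/-- (d) injectivity -/
theorem lam_inj (q : Q) : ∀ x ∈ X.M q, ∀ y ∈ X.M q, X.lam q x = X.lam q y → x = y := by
  induction hd : X.n - C.dim q using Nat.strong_induction_on generalizing q with
  | _ d ih =>
    intro x hx y hy he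
    have h1 := (X.lam_le q x hx).2
    have h2 := (X.lam_le q y hy).2
    have hn : ‖(X.a q).g x‖ = ‖(X.a q).g y‖ := by
      rw [he, h2] at h1; linarith
    rcases X.polar hx with hx0 | ⟨v, hv, r, h0, hr1, hxe⟩
    · have hx' : (X.a q).g x = 0 := by rw [hx0, (X.a q).li 0 (by simp [cube])]
      rw [hx', norm_zero] at hn
      have hy' : (X.a q).g y = 0 := norm_eq_zero.1 hn.symm
      rw [← (X.a q).ri x hx, ← (X.a q).ri y hy, hx', hy']
    · have hnv : ‖v‖ = 1 := by simpa using hv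
      have hm : r • v ∈ cube (X.d q) := by
        simp only [cube, mem_closedBall_zero_iff]
        rw [norm_smul, hnv, mul_one, Real.norm_eq_abs, abs_of_pos h0]; exact hr1
      have hgx : (X.a q).g x = r • v := by rw [hxe]; exact (X.a q).li _ hm
      have hnr : ‖(X.a q).g x‖ = r := by
        rw [hgx, norm_smul, hnv, mul_one, Real.norm_eq_abs, abs_of_pos h0]
      rcases X.polar hy with hy0 | ⟨w, hw, s, hs0, hs1, hye⟩
      · exfalso
        have hy' : (X.a q).g y = 0 := by rw [hy0, (X.a q).li 0 (by simp [cube])]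
        rw [hy', norm_zero, hnr] at hn
        linarith
      · have hnw : ‖w‖ = 1 := by simpa using hw
        have hm' : s • w ∈ cube (X.d q) := by
          simp only [cube, mem_closedBall_zero_iff]
          rw [norm_smul, hnw, mul_one, Real.norm_eq_abs, abs_of_pos hs0]; exact hs1
        have hgy : (X.a q).g y = s • w := by rw [hye]; exact (X.a q).li _ hm'
        have hns : ‖(X.a q).g y‖ = s := by
          rw [hgy, norm_smul, hnw, mul_one, Real.norm_eq_abs, abs_of_pos hs0]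
        have hrs : r = s := by rw [← hnr, ← hns, hn]
        subst hrs
        obtain ⟨σ, hσ, ht⟩ := X.top_bd (X.a_mem hv)
        obtain ⟨τ, hτ, ht'⟩ := X.top_bd (X.a_mem hw)
        rw [hxe, hye, X.lam_cone hv h0 hr1 ht, X.lam_cone hw h0 hr1 ht'] at he
        have he2 : X.lam σ (X.pt σ ((X.a q).f v)) = X.lam τ (X.pt τ ((X.a q).f w)) := by
          have h3 := add_left_cancel he
          have h4 := congrArg (fun z => r⁻¹ • z) h3
          simpa only [smul_smul, inv_mul_cancel₀ h0.ne', one_smul] using h4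
        obtain ⟨m1, m2⟩ := X.top_min ht
        obtain ⟨m3, m4⟩ := X.top_min ht'
        have hστ : σ = τ := by
          apply le_antisymm
          · exact m2 τ (by rw [he2]; exact m3)
          · exact m4 σ (by rw [← he2]; exact m1)
        subst hστ
        have d1 := C.dim_lt hσ
        have d2 := X.dim_le σ
        have h5 := ih (X.n - C.dim σ) (by omega) σ rfl _ (X.pt_mem ht.1) _ (X.pt_mem ht'.1) he2
        have h6 : (X.a q).f v = (X.a q).f w := by
          rw [← X.e_pt ht.1, ← X.e_pt ht'.1, h5,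
            X.G_M (X.bd_sub q (X.a_mem hv)), X.G_M (X.bd_sub q (X.a_mem hw))]
        have h7 : v = w := (X.a q).injOn (Ce_537.sph_subset_cube hv)
          (Ce_537.sph_subset_cube hw) h6
        rw [hxe, hye, h7]

/-- (e) surjectivity -/
theorem lam_surj (q : Q) : ∀ l : Q →₀ ℝ, Wt l → (∀ ρ ∈ l.support, q ≤ ρ) →
    ∃ x ∈ X.M q, X.lam q x = l := by
  classical
  induction hd : X.n - C.dim q using Nat.strong_induction_on generalizing q with
  | _ d ih =>
    intro l hl hq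
    have hlq : l q ≤ 1 := by
      by_cases h : q ∈ l.support
      · rw [← hl.sum]
        exact Finset.single_le_sum (fun ρ _ => hl.nn ρ) h
      · rw [Finsupp.notMem_support_iff.1 h]; exact zero_le_one
    set r : ℝ := 1 - l q with hr
    have hr1 : r ≤ 1 := by have := hl.nn q; linarith
    rcases (sub_nonneg.2 hlq : 0 ≤ 1 - l q).eq_or_lt with h0 | h0
    · -- all the mass at q
      have hq1 : l q = 1 := by linarith
      refine ⟨(X.a q).f 0, (X.a q).mf (by simp [cube]), ?_⟩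
      rw [X.lam_center]
      have hqm : q ∈ l.support := by rw [Finsupp.mem_support_iff, hq1]; exact one_ne_zero
      have h1 : ∑ ρ ∈ (l.erase q).support, (l.erase q) ρ = 0 := by
        rw [sum_erase' hqm, hl.sum, hq1, sub_self]
      have hnn : ∀ ρ, 0 ≤ (l.erase q) ρ := fun ρ => by
        by_cases hρ : ρ = q
        · subst hρ; simp
        · rw [Finsupp.erase_ne hρ]; exact hl.nn ρ
      have h2 := (Finset.sum_eq_zero_iff_of_nonneg (fun ρ _ => hnn ρ)).1 h1
      ext ρ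
      by_cases hρ : ρ = q
      · subst hρ; simp [hq1]
      · rw [Finsupp.single_eq_of_ne hρ]
        by_cases hρ2 : ρ ∈ (l.erase q).support
        · have := h2 ρ hρ2
          rw [Finsupp.erase_ne hρ] at this
          exact this.symm
        · have := Finsupp.notMem_support_iff.1 hρ2
          rw [Finsupp.erase_ne hρ] at this
          exact this.symm
    · have hr0 : 0 < r := h0
      set l' : Q →₀ ℝ := r⁻¹ • l.erase q with hl'
      have hv : ∀ ρ, ρ ≠ q → l' ρ = r⁻¹ * l ρ := fun ρ hρ => by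
        rw [hl', Finsupp.smul_apply, Finsupp.erase_ne hρ, smul_eq_mul]
      have hvq : l' q = 0 := by rw [hl', Finsupp.smul_apply, Finsupp.erase_same, smul_zero]
      have hs : l'.support = l.support.erase q := by
        rw [hl', Finsupp.support_smul_eq (inv_ne_zero hr0.ne'), Finsupp.support_erase]
      have hw' : Wt l' := by
        refine ⟨fun ρ => ?_, ?_, ?_⟩
        · by_cases hρ : ρ = q
          · subst hρ; rw [hvq]
          · rw [hv ρ hρ]; exact mul_nonneg (inv_nonneg.2 hr0.le) (hl.nn ρ)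
        · rw [hs]
          have e1 : ∑ ρ ∈ l.support.erase q, l' ρ = ∑ ρ ∈ l.support.erase q, r⁻¹ * l ρ :=
            Finset.sum_congr rfl (fun ρ hρ => hv ρ (Finset.ne_of_mem_erase hρ))
          rw [e1, ← Finset.mul_sum]
          have e2 : ∑ ρ ∈ l.support.erase q, l ρ = r := by
            by_cases hqm : q ∈ l.support
            · have := Finset.sum_erase_add l.support (fun ρ => l ρ) hqm
              rw [hl.sum] at this
              rw [hr]; linarith
            · rw [Finset.erase_eq_of_notMem hqm, hl.sum, hr, Finsupp.notMem_support_iff.1 hqm]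
              ring
          rw [e2, inv_mul_cancel₀ hr0.ne']
        · rw [hs]
          intro ρ hρ σ hσ
          exact hl.chain ρ (Finset.mem_of_mem_erase hρ) σ (Finset.mem_of_mem_erase hσ)
      obtain ⟨σ, hσ, hmin⟩ := hw'.exists_min
      have hσ2 : σ ∈ l.support.erase q := by rw [← hs]; exact hσ
      have hqσ : q < σ := lt_of_le_of_ne (hq σ (Finset.mem_of_mem_erase hσ2))
        (Ne.symm (Finset.ne_of_mem_erase hσ2))
      have d1 := C.dim_lt hqσ
      have d2 := X.dim_le σ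
      obtain ⟨m, hm, hml⟩ := ih (X.n - C.dim σ) (by omega) σ rfl l' hw' hmin
      have hω : (X.e σ).f (m, C.b q) ∈ X.bd q := X.tr_bd hqσ hm
      have hv' := X.a_sph hω
      have hav : (X.a q).f ((X.a q).g ((X.e σ).f (m, C.b q))) = (X.e σ).f (m, C.b q) :=
        (X.a q).ri _ (X.bd_sub q hω)
      have hmem : r • (X.a q).g ((X.e σ).f (m, C.b q)) ∈ cube (X.d q) := by
        have hn1 : ‖(X.a q).g ((X.e σ).f (m, C.b q))‖ = 1 := by simpa using hv'
        simp only [cube, mem_closedBall_zero_iff]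
        rw [norm_smul, hn1, mul_one, Real.norm_eq_abs, abs_of_pos hr0]; exact hr1
      refine ⟨(X.a q).f (r • (X.a q).g ((X.e σ).f (m, C.b q))), (X.a q).mf hmem, ?_⟩
      rw [X.lam_cone' hv' hr0 hr1, hav, X.lam_tr σ q hqσ m hm, hml]
      ext ρ
      rw [Finsupp.add_apply, Finsupp.smul_apply, Finsupp.smul_apply]
      by_cases hρ : ρ = q
      · subst hρ; rw [hvq]; simp [hr]
      · rw [hv ρ hρ, Finsupp.single_eq_of_ne hρ]
        simp only [smul_eq_mul, mul_zero, zero_add]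
        rw [← mul_assoc, mul_inv_cancel₀ hr0.ne', one_mul]

end Expl

end Crest.Agent.R096.Xp_537
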