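import Crest.Agent.R096.Xp4_537
import Crest.Agent.R096.Ce2_537

/-!
# R096 (row 96), EXPLODE, part 5 (helper537)

Piecewise linearity of the weights, the global weights `LAM`, the displacement fields `D ρ` and
the maps `g κ = G + ∑ κ ρ • D ρ`: for every `κ : Q → (0,1)` a PL homeomorphism `Ω → Λ`.
-/

set_option autoImplicit false
set_option linter.unusedSectionVars false
set_option linter.unusedVariables false
set_option linter.deprecated false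

open Set

namespace Crest.Agent.R096.Xp_537

open Crest.Agent.R096.Ce_537 (PLOn PLEquiv cube sph IsBall LocPL)
open Crest.Agent.R096.Bd_416

variable {E E' : Type*} [NormedAddCommGroup E] [NormedSpace ℝ E]
  [NormedAddCommGroup E'] [NormedSpace ℝ E']
variable {Q : Type*} [PartialOrder Q] {Λ : Set E}

namespace Expl

variable {Ω : Set E'} {C : CC Λ Q} {G : E' → E} (X : Expl Ω C G)

include X in
lemma finite_lt_up (q : Q) : {ρ | q < ρ}.Finite :=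
  (X.finite_up q).subset (fun ρ hρ => le_of_lt hρ)

lemma plOn_pt (q : Q) : PLOn (X.pt q) (X.P q) := pl_fst (X.e q).pg

lemma plOn_G (q : Q) : PLOn G (X.P q) :=
  (pl_snd (X.e q).pg).congr (fun x hx => (X.g_snd hx).symm)

lemma plOn_tr {q ρ : Q} (h : q < ρ) : PLOn (fun m => (X.e ρ).f (m, C.b q)) (X.M ρ) :=
  (X.e ρ).pf.comp (pl_pair (Ce_537.plOn_id _) (Ce_537.plOn_const _ _))
    (fun m hm => ⟨hm, C.mono h (C.bmem q)⟩)

/-- (c) **the weights are PL on every fibre** -/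
theorem plOn_lam (q : Q) : ∀ ρ, PLOn (fun x => X.lam q x ρ) (X.M q) := by
  induction hd : X.n - C.dim q using Nat.strong_induction_on generalizing q with
  | _ d ih =>
    intro ρ
    -- on the boundary
    have h1 : PLOn (fun x => X.lam q x ρ) (X.bd q) := by
      refine Ce_537.plOn_biUnion _ (X.finite_lt_up q) (fun σ hσ => ?_) (fun σ hσ => ?_)
      · have d1 := C.dim_lt (show q < σ from hσ)
        have d2 := X.dim_le σ
        have h2 := ih (X.n - C.dim σ) (by omega) σ rfl ρ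
        have hsub : (fun m => (X.e σ).f (m, C.b q)) '' X.M σ ⊆ X.P σ := by
          rintro _ ⟨m, hm, rfl⟩
          exact X.e_mem hm (C.mono hσ (C.bmem q))
        have h3 := h2.comp ((X.plOn_pt σ).mono hsub) (fun x hx => X.pt_mem (hsub hx))
        refine h3.congr ?_
        rintro _ ⟨m, hm, rfl⟩
        show X.lam q ((X.e σ).f (m, C.b q)) ρ = X.lam σ (X.pt σ ((X.e σ).f (m, C.b q))) ρ
        rw [X.lam_tr σ q hσ m hm, X.pt_e hm (C.mono hσ (C.bmem q))]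
      · exact ((X.isCompact_M σ).image_of_continuousOn (X.plOn_tr hσ).1).isClosed
    -- cone
    set h : (Fin (X.d q) → ℝ) → ℝ := fun v => X.lam q ((X.a q).f v) ρ with hh
    have h2 : PLOn h (sph (X.d q)) :=
      h1.comp ((X.a q).pf.mono Ce_537.sph_subset_cube) (fun v hv => X.a_mem hv)
    have h3 : PLOn (Cx_609.cone h) univ := Cx_609.plOn_iff.1 (Cx_609.plOn_iff.2 h2).cone
    have h4 : PLOn (fun v : Fin (X.d q) → ℝ => ‖v‖) univ := by
      have h5 : PLOn (Cx_609.cone (fun _ : Fin (X.d q) → ℝ => (1 : ℝ))) univ :=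
        Cx_609.plOn_iff.1 (Cx_609.plOn_iff.2 (Ce_537.plOn_const 1 (sph (X.d q)))).cone
      refine h5.congr (fun v _ => ?_)
      simp [Cx_609.cone]
    have h5 : PLOn (fun v : Fin (X.d q) → ℝ => (Finsupp.single q (1 : ℝ)) ρ * (1 - ‖v‖) +
        Cx_609.cone h v) univ := by
      have h6 : PLOn (fun v : Fin (X.d q) → ℝ => (1 : ℝ) - ‖v‖) univ :=
        pl_sub (Ce_537.plOn_const 1 _) h4
      exact pl_add (pl_mul _ h6) h3
    have h6 := h5.comp (X.a q).pg (fun x _ => mem_univ _)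
    refine h6.congr (fun x hx => ?_)
    show X.lam q x ρ = (Finsupp.single q (1 : ℝ)) ρ * (1 - ‖(X.a q).g x‖) +
      Cx_609.cone h ((X.a q).g x)
    rcases X.polar hx with rfl | ⟨v, hv, r, r0, r1, rfl⟩
    · rw [X.lam_center, (X.a q).li 0 (by simp [cube]), Cx_609.cone_zero]
      simp
    · have hnv : ‖v‖ = 1 := by simpa using hv
      have hn : ‖r • v‖ = r := by rw [norm_smul, hnv, mul_one, Real.norm_eq_abs, abs_of_pos r0]
      have hm : r • v ∈ cube (X.d q) := by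
        simp only [cube, mem_closedBall_zero_iff]; rw [hn]; exact r1
      rw [(X.a q).li _ hm, hn, X.lam_cone' hv r0 r1, Cx_609.cone_smul h r0.le,
        Cx_609.cone_of_sphere h hv, Finsupp.add_apply, Finsupp.smul_apply, Finsupp.smul_apply]
      simp only [smul_eq_mul, hh]
      ring

open Classical in
/-- **the global weights** -/
noncomputable def LAM (x : E') : Q →₀ ℝ :=
  if h : ∃ σ, X.IsTop x σ then X.lam h.choose (X.pt h.choose x) else 0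

lemma LAM_eq {q : Q} {x : E'} (hx : x ∈ X.P q) : X.LAM x = X.lam q (X.pt q x) := by
  have h : ∃ σ, X.IsTop x σ := X.exists_top (X.sub q hx)
  unfold LAM
  rw [dif_pos h]
  exact (X.lam_pt (h.choose_spec.2 q hx) hx h.choose_spec.1).symm

lemma LAM_le {q : Q} {x : E'} (hx : x ∈ X.P q) : ∀ ρ ∈ (X.LAM x).support, q ≤ ρ := by
  rw [X.LAM_eq hx]
  exact (X.lam_le q _ (X.pt_mem hx)).1

lemma LAM_wt {x : E'} (hx : x ∈ Ω) : Wt (X.LAM x) := by
  obtain ⟨q, hq⟩ := X.cover x hx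
  rw [X.LAM_eq hq]
  exact X.lam_wt q _ (X.pt_mem hq)

lemma LAM_state {x : E'} (hx : x ∈ Ω) : State C (X.LAM x) (G x) := by
  obtain ⟨σ, hσ⟩ := X.exists_top hx
  have h := X.LAM_wt hx
  exact ⟨h.nn, h.sum, h.chain, fun ρ hρ => C.mono_le (X.LAM_le hσ.1 ρ hρ) (X.G_mem hσ.1)⟩

lemma LAM_top {x : E'} {σ : Q} (h : X.IsTop x σ) :
    σ ∈ (X.LAM x).support ∧ ∀ ρ ∈ (X.LAM x).support, σ ≤ ρ := by
  rw [X.LAM_eq h.1]
  exact X.top_min h

/-- the pieces in terms of the weights -/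
lemma mem_P_iff {x : E'} (hx : x ∈ Ω) {q : Q} (hG : G x ∈ C.cell q) :
    x ∈ X.P q ↔ ∀ ρ ∈ (X.LAM x).support, q ≤ ρ := by
  refine ⟨fun h => X.LAM_le h, fun h => ?_⟩
  obtain ⟨σ, hσ⟩ := X.exists_top hx
  obtain ⟨h1, h2⟩ := X.LAM_top hσ
  rcases (h σ h1).eq_or_lt with rfl | hlt
  · exact hσ.1
  · have h3 := X.comp hlt _ (X.pt_mem hσ.1) (G x) hG
    rw [X.e_pt hσ.1] at h3
    rw [h3]
    exact X.e_mem (X.tr_mem hlt (X.pt_mem hσ.1)) hG

/-- **injectivity** -/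
theorem LAM_inj {x y : E'} (hx : x ∈ Ω) (hy : y ∈ Ω) (h : X.LAM x = X.LAM y) (hG : G x = G y) :
    x = y := by
  obtain ⟨σ, hσ⟩ := X.exists_top hx
  obtain ⟨τ, hτ⟩ := X.exists_top hy
  obtain ⟨h1, h2⟩ := X.LAM_top hσ
  obtain ⟨h3, h4⟩ := X.LAM_top hτ
  have hστ : σ = τ := le_antisymm (h2 τ (by rw [h]; exact h3)) (h4 σ (by rw [← h]; exact h1))
  subst hστ
  rw [X.LAM_eq hσ.1, X.LAM_eq hτ.1] at h
  have h5 := X.lam_inj σ _ (X.pt_mem hσ.1) _ (X.pt_mem hτ.1) h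
  rw [← X.e_pt hσ.1, ← X.e_pt hτ.1, h5, hG]

/-- **surjectivity** -/
theorem LAM_surj {l : Q →₀ ℝ} {t : E} (h : State C l t) :
    ∃ q, q ∈ l.support ∧ ∃ x ∈ X.P q, X.LAM x = l ∧ G x = t := by
  obtain ⟨q, hq, hmin⟩ := h.wt.exists_min
  obtain ⟨m, hm, hml⟩ := X.lam_surj q l h.wt hmin
  have ht : t ∈ C.cell q := h.mem q hq
  refine ⟨q, hq, (X.e q).f (m, t), X.e_mem hm ht, ?_, X.e_G q m hm t ht⟩
  rw [X.LAM_eq (X.e_mem hm ht), X.pt_e hm ht, hml]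

theorem plOn_LAM (q ρ : Q) : PLOn (fun x => X.LAM x ρ) (X.P q) := by
  refine ((X.plOn_lam q ρ).comp (X.plOn_pt q) (fun x hx => X.pt_mem hx)).congr (fun x hx => ?_)
  show X.LAM x ρ = X.lam q (X.pt q x) ρ
  rw [X.LAM_eq hx]

lemma LAM_supp {q : Q} {x : E'} (hx : x ∈ X.P q) : (X.LAM x).support ⊆ X.ups q :=
  fun ρ hρ => X.mem_ups.2 (X.LAM_le hx ρ hρ)

/-- the displacement fields -/
noncomputable def D (ρ : Q) (x : E') : E := DD C.b (mm C) (X.LAM x) (G x) ρ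

/-- the maps -/
noncomputable def g (κ : Q → ℝ) (x : E') : E := gg κ C.b (mm C) (X.LAM x) (G x)

lemma D_zero {ρ : Q} {x : E'} (h : X.LAM x ρ = 0) : X.D ρ x = 0 := DD_zero _ _ h

/-- `D ρ` lives on the pieces `P q`, `q ≤ ρ` -/
lemma D_ne {ρ : Q} {x : E'} (hx : x ∈ Ω) (h : X.D ρ x ≠ 0) : ∃ q ≤ ρ, x ∈ X.P q := by
  obtain ⟨σ, hσ⟩ := X.exists_top hx
  refine ⟨σ, ?_, hσ.1⟩
  by_contra hcon
  apply h
  apply X.D_zero
  by_contra hne
  exact hcon ((X.LAM_top hσ).2 ρ (Finsupp.mem_support_iff.2 hne))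

/-- `D ρ` vanishes on `P q` unless `q ≤ ρ` -/
lemma D_eq_zero {q ρ : Q} (h : ¬ q ≤ ρ) {x : E'} (hx : x ∈ X.P q) : X.D ρ x = 0 := by
  apply X.D_zero
  by_contra hne
  exact h (X.LAM_le hx ρ (Finsupp.mem_support_iff.2 hne))

theorem g_eq_sum (κ : Q → ℝ) {q : Q} {x : E'} (hx : x ∈ X.P q) :
    X.g κ x = G x + ∑ ρ ∈ X.ups q, κ ρ • X.D ρ x := by
  unfold g
  rw [gg_eq (mm_MM C) κ (X.LAM_state (X.sub q hx)) (C.sub q (X.G_mem hx)),
    sum_support_eq (X.LAM_supp hx) (fun ρ => κ ρ • DD C.b (mm C) (X.LAM x) (G x) ρ)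
      (fun ρ hρ => by rw [DD_zero _ _ hρ, smul_zero])]
  rfl

lemma plOn_mmG [FiniteDimensional ℝ E] (q : Q) {f : E' → ℝ} (hf : PLOn f (X.P q)) :
    PLOn (fun x => mm C (f x) (G x)) (X.P q) := by
  have h1 : PLOn (fun x => (f x, G x)) (X.P q) := pl_pair hf (X.plOn_G q)
  have h2 : MapsTo (fun x => (f x, G x)) (X.P q) (univ ×ˢ C.cell q) :=
    fun x hx => ⟨mem_univ _, X.G_mem hx⟩
  have h3 := plOn_mm C q univ
  have h4 := PLOn.comp h3 h1 h2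
  exact h4

open Classical in
theorem plOn_D [FiniteDimensional ℝ E] (q ρ : Q) : PLOn (X.D ρ) (X.P q) := by
  have hL : PLOn (fun x => ∑ σ ∈ X.ups q with σ < ρ, X.LAM x σ) (X.P q) :=
    pl_sum _ (fun σ _ => X.plOn_LAM q σ)
  have hl := X.plOn_LAM q ρ
  have h1 := X.plOn_mmG q (pl_add hL hl)
  have h2 := X.plOn_mmG q hL
  have h3 : PLOn (fun x => X.LAM x ρ • C.b ρ) (X.P q) :=
    pl_clm hl ((ContinuousLinearMap.id ℝ ℝ).smulRight (C.b ρ))
  refine (pl_sub h3 (pl_sub h1 h2)).congr (fun x hx => ?_)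
  have h4 := Lo_eq (X.LAM_supp hx) ρ
  unfold D DD
  rw [h4]

theorem plOn_g [FiniteDimensional ℝ E] (κ : Q → ℝ) (q : Q) : PLOn (X.g κ) (X.P q) := by
  refine (pl_add (X.plOn_G q) (pl_sum (X.ups q) (fun ρ _ => pl_smul (κ ρ) (X.plOn_D q ρ)))).congr
    (fun x hx => ?_)
  exact X.g_eq_sum κ hx

/-! ### the homeomorphism -/

lemma g_mem {κ : Q → ℝ} (hκ : ∀ q, 0 < κ q ∧ κ q < 1) {x : E'} (hx : x ∈ Ω) :
    ∃ ρ ∈ (X.LAM x).support, X.g κ x ∈ C.cell ρ ∧ ∀ p < ρ, X.g κ x ∉ C.cell p := by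
  obtain ⟨p, hp, hst⟩ := (X.LAM_state hx).exists_top
  exact ⟨p, hp, gg_mem (mm_MM C) hκ hst hp⟩

theorem g_bijOn {κ : Q → ℝ} (hκ : ∀ q, 0 < κ q ∧ κ q < 1) : BijOn (X.g κ) Ω Λ := by
  refine ⟨fun x hx => ?_, fun x hx y hy h => ?_, fun y hy => ?_⟩
  · obtain ⟨ρ, _, h, _⟩ := X.g_mem hκ hx
    exact C.sub ρ h
  · obtain ⟨h1, h2⟩ := gg_inj (mm_MM C) hκ (X.LAM_state hx) (X.LAM_state hy) h
    exact X.LAM_inj hx hy h1 h2
  · obtain ⟨q, hq⟩ := C.cover y hy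
    obtain ⟨l, t, hst, he⟩ := gg_surj (mm_MM C) hκ hq
    obtain ⟨q', hq', x, hx, h1, h2⟩ := X.LAM_surj hst.state
    refine ⟨x, X.sub q' hx, ?_⟩
    unfold g
    rw [h1, h2, he]

/-- a locally finite closed cover by pieces on which a map is PL gives `LocPL` -/
lemma locPL_of_pieces {V W : Type*} [NormedAddCommGroup V] [NormedSpace ℝ V]
    [NormedAddCommGroup W] [NormedSpace ℝ W] {ι : Type*} {O : Set V} (hO : IsOpen O)
    {K : ι → Set V} (hc : ∀ i, IsClosed (K i)) (hcov : ∀ x ∈ O, ∃ i, x ∈ K i)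
    (hlf : ∀ x ∈ O, ∃ r > 0, {i | (K i ∩ Metric.ball x r).Nonempty}.Finite) {f : V → W}
    (hf : ∀ i, PLOn f (K i)) : LocPL f O := by
  intro x hx
  obtain ⟨r, hr, hfin⟩ := hlf x hx
  obtain ⟨s, hs, hsub⟩ := Metric.isOpen_iff.1 hO x hx
  refine ⟨min r s, lt_min hr hs, ?_⟩
  have h1 : PLOn f (⋃ i ∈ {i | (K i ∩ Metric.ball x r).Nonempty}, K i) :=
    Ce_537.plOn_biUnion _ hfin (fun i _ => hf i) (fun i _ => hc i)
  refine h1.mono (fun y hy => ?_)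
  obtain ⟨i, hi⟩ := hcov y (hsub (Metric.ball_subset_ball (min_le_right _ _) hy))
  exact mem_biUnion (show i ∈ {i | (K i ∩ Metric.ball x r).Nonempty} from
    ⟨y, hi, Metric.ball_subset_ball (min_le_left _ _) hy⟩) hi

theorem locPL_g [FiniteDimensional ℝ E] (hΩ : IsOpen Ω) (κ : Q → ℝ) : LocPL (X.g κ) Ω :=
  locPL_of_pieces hΩ (fun q => (X.isCompact_P q).isClosed) X.cover X.lf (X.plOn_g κ)

theorem locPL_D [FiniteDimensional ℝ E] (hΩ : IsOpen Ω) (ρ : Q) : LocPL (X.D ρ) Ω :=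
  locPL_of_pieces hΩ (fun q => (X.isCompact_P q).isClosed) X.cover X.lf
    (fun q => X.plOn_D q ρ)

include X in
theorem locPL_G (hΩ : IsOpen Ω) : LocPL G Ω :=
  locPL_of_pieces hΩ (fun q => (X.isCompact_P q).isClosed) X.cover X.lf X.plOn_G

/-- the images of the pieces are locally finite -/
lemma image_lf {κ : Q → ℝ} (hκ : ∀ q, 0 < κ q ∧ κ q < 1) : ∀ y ∈ Λ, ∃ r > 0,
    {q | (X.g κ '' X.P q ∩ Metric.ball y r).Nonempty}.Finite := by
  intro y hy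
  obtain ⟨r, hr, hf⟩ := C.lf y hy
  refine ⟨r, hr, (hf.biUnion (fun ρ _ => C.finite_le ρ)).subset ?_⟩
  rintro q ⟨_, ⟨x, hx, rfl⟩, hb⟩
  obtain ⟨ρ, hρ, h1, _⟩ := X.g_mem hκ (X.sub q hx)
  exact mem_biUnion (show ρ ∈ {q | (C.cell q ∩ Metric.ball y r).Nonempty} from ⟨_, h1, hb⟩)
    (X.LAM_le hx ρ hρ)

lemma finConv_P [FiniteDimensional ℝ E] [FiniteDimensional ℝ E'] (q : Q) : Cx_609.FinConv (X.P q) := by
  obtain ⟨b, -⟩ := X.ball q
  have h1 : Cx_609.FinConv (cube (X.d q) ×ˢ C.cell q) :=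
    ((convex_closedBall (0 : Fin (X.d q) → ℝ) 1).prod (C.conv q)).finConv
  have h2 : PLOn (fun p : (Fin (X.d q) → ℝ) × E => (X.e q).f (b.f p.1, p.2))
      (cube (X.d q) ×ˢ C.cell q) := by
    refine (X.e q).pf.comp (pl_pair ?_ (pl_snd (Ce_537.plOn_id _)))
      (fun p hp => ⟨b.mf hp.1, hp.2⟩)
    exact b.pf.comp (pl_fst (Ce_537.plOn_id _)) (fun p hp => hp.1)
  have h3 := (Cx_609.plOn_iff.2 h2).finConv_image h1
  have h4 : (fun p : (Fin (X.d q) → ℝ) × E => (X.e q).f (b.f p.1, p.2)) ''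
      (cube (X.d q) ×ˢ C.cell q) = X.P q := by
    ext x
    constructor
    · rintro ⟨p, hp, rfl⟩
      exact X.e_mem (b.mf hp.1) hp.2
    · intro hx
      refine ⟨(b.g (X.pt q x), G x), ⟨b.mg (X.pt_mem hx), X.G_mem hx⟩, ?_⟩
      show (X.e q).f (b.f (b.g (X.pt q x)), G x) = x
      rw [b.ri _ (X.pt_mem hx), X.e_pt hx]
  rwa [h4] at h3

/-- **EXPLODE**: for every `κ : Q → (0,1)` the map `g κ` is a PL homeomorphism `Ω → Λ`, with PL
inverse. -/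
theorem explode [FiniteDimensional ℝ E] [FiniteDimensional ℝ E'] (hΩ : IsOpen Ω)
    (hΛ : IsOpen Λ) {κ : Q → ℝ} (hκ : ∀ q, 0 < κ q ∧ κ q < 1) :
    ∃ k : E → E', LocPL (X.g κ) Ω ∧ LocPL k Λ ∧ MapsTo (X.g κ) Ω Λ ∧ MapsTo k Λ Ω ∧
      (∀ x ∈ Ω, k (X.g κ x) = x) ∧ (∀ y ∈ Λ, X.g κ (k y) = y) := by
  classical
  have hb := X.g_bijOn hκ
  set k : E → E' := Function.invFunOn (X.g κ) Ω with hk
  have k1 : ∀ y ∈ Λ, k y ∈ Ω := fun y hy => Function.invFunOn_mem (hb.surjOn hy)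
  have k2 : ∀ y ∈ Λ, X.g κ (k y) = y := fun y hy => Function.invFunOn_eq (hb.surjOn hy)
  have k3 : ∀ x ∈ Ω, k (X.g κ x) = x := fun x hx =>
    hb.injOn (k1 _ (hb.mapsTo hx)) hx (k2 _ (hb.mapsTo hx))
  refine ⟨k, X.locPL_g hΩ κ, ?_, hb.mapsTo, k1, k3, k2⟩
  refine locPL_of_pieces hΛ (K := fun q => X.g κ '' X.P q) (fun q => ?_) (fun y hy => ?_)
    (X.image_lf hκ) (fun q => ?_)
  · exact ((X.isCompact_P q).image_of_continuousOn (X.plOn_g κ q).1).isClosed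
  · obtain ⟨q, hq⟩ := X.cover _ (k1 y hy)
    exact ⟨q, k y, hq, k2 y hy⟩
  · have h1 := (Cx_609.plOn_iff.2 (X.plOn_g κ q)).inv_closed (X.finConv_P q)
      (X.isCompact_P q).isClosed (r := k) (fun x hx => k3 x (X.sub q hx))
    exact Cx_609.plOn_iff.1 h1.2

end Expl

end Crest.Agent.R096.Xp_537
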