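import Crest.Agent.R096.Xp5_537
import Crest.Agent.R096.Sk2_962

/-!
# R096 (row 96), EXPLODE, part 6 (helper537)

Choice of `κ`: `g κ` is as close to `G` as one wants, in `C⁰` (with a continuous positive tolerance
on `Ω`) and in energy.
-/

set_option autoImplicit false
set_option linter.unusedSectionVars false
set_option linter.unusedVariables false
set_option linter.deprecated false

open Set MeasureTheory Filter Topology
open scoped ENNReal NNReal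

namespace Crest.Agent.R096.Xp_537

open Crest.Agent.R096.Ce_537 (PLOn PLEquiv cube sph IsBall LocPL)
open Crest.Agent.R096.Bd_416

/-- a continuous selection of finitely many affine maps on a convex set: explicit constant -/
theorem lip_sel {V W : Type*} [NormedAddCommGroup V] [NormedSpace ℝ V] [NormedAddCommGroup W]
    [NormedSpace ℝ W] [FiniteDimensional ℝ V] (S : Finset (V →ᵃ[ℝ] W)) :
    ∃ C : ℝ≥0, ∀ (h : V → W) (s : Set V), Convex ℝ s → ContinuousOn h s →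
      (∀ y ∈ s, ∃ g ∈ S, h y = g y) → LipschitzOnWith C h s := by
  classical
  set L : (V →ᵃ[ℝ] W) → (V →L[ℝ] W) := fun g => LinearMap.toContinuousLinearMap g.linear with hL
  set M : ℝ≥0 := ∑ g ∈ S, ‖L g‖₊ with hMdef
  have hM : ∀ g ∈ S, ‖L g‖ ≤ M := by
    intro g hg
    have h1 : ‖L g‖₊ ≤ M := Finset.single_le_sum (f := fun g => ‖L g‖₊) (fun _ _ => zero_le) hg
    exact_mod_cast h1
  refine ⟨M, fun h s hs hc hsel => LipschitzOnWith.of_dist_le_mul fun y hy z hz => ?_⟩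
  set φ : ℝ → W := fun t => h (z + t • (y - z)) with hφ
  have hmem : ∀ t ∈ Icc (0 : ℝ) 1, z + t • (y - z) ∈ s := by
    intro t ht
    exact hs.add_smul_sub_mem hz hy ht
  have h1 := Sk_962.sel_one (φ := φ) S (fun g => g z) (fun g => L g (y - z)) (M := M * ‖y - z‖)
    (fun g hg => ((L g).le_opNorm _).trans (mul_le_mul_of_nonneg_right (hM g hg) (norm_nonneg _)))
    (hc.comp (by fun_prop) hmem) (fun t ht => by
      obtain ⟨g, hg, hg'⟩ := hsel _ (hmem t ht)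
      refine ⟨g, hg, ?_⟩
      simp only [hφ, hg', hL, LinearMap.coe_toContinuousLinearMap']
      have h2 : g (z + t • (y - z)) = g z + g.linear (t • (y - z)) := by
        have := g.map_vadd z (t • (y - z))
        simp only [vadd_eq_add] at this
        rw [add_comm z, this, add_comm]
      rw [h2, map_smul])
  simp only [hφ, one_smul, zero_smul, add_zero, add_sub_cancel] at h1
  rw [dist_eq_norm, dist_eq_norm]
  exact h1

lemma locPL_iff {V W : Type*} [NormedAddCommGroup V] [NormedSpace ℝ V] [NormedAddCommGroup W]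
    [NormedSpace ℝ W] {h : V → W} {O : Set V} : LocPL h O ↔ Str_696.LocPL h O := by
  constructor
  · intro H x hx
    obtain ⟨r, hr, hc, S, hS⟩ := H x hx
    exact ⟨r, hr, S, hc, hS⟩
  · intro H x hx
    obtain ⟨r, hr, S, hc, hS⟩ := H x hx
    exact ⟨r, hr, hc, S, hS⟩

lemma locPL_ll {V W : Type*} [NormedAddCommGroup V] [NormedSpace ℝ V] [NormedAddCommGroup W]
    [NormedSpace ℝ W] [FiniteDimensional ℝ V] {h : V → W} {O : Set V} (H : LocPL h O) :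
    Sk_962.LL h O := by
  intro x hx
  obtain ⟨r, hr, hc, S, hS⟩ := H x hx
  exact ⟨r, hr, Sk_962.lipschitzOn_of_sel (convex_ball x r) hc hS⟩

lemma locPL_continuousOn {V W : Type*} [NormedAddCommGroup V] [NormedSpace ℝ V]
    [NormedAddCommGroup W] [NormedSpace ℝ W] {h : V → W} {O : Set V} (H : LocPL h O) :
    ContinuousOn h O := by
  intro x hx
  obtain ⟨r, hr, hc, S, hS⟩ := H x hx
  exact ((hc x (Metric.mem_ball_self hr)).continuousAt (Metric.ball_mem_nhds x hr)).continuousWithinAt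

variable {E E' : Type*} [NormedAddCommGroup E] [NormedSpace ℝ E]
  [NormedAddCommGroup E'] [NormedSpace ℝ E']
variable {Q : Type*} [PartialOrder Q] {Λ : Set E}

namespace Expl

variable {Ω : Set E'} {C : CC Λ Q} {G : E' → E} (X : Expl Ω C G)

/-- the support of `D ρ` -/
def K (ρ : Q) : Set E' := ⋃ q ∈ {q | q ≤ ρ}, X.P q

lemma isCompact_K (ρ : Q) : IsCompact (X.K ρ) :=
  (C.finite_le ρ).isCompact_biUnion (fun q _ => X.isCompact_P q)

lemma K_sub (ρ : Q) : X.K ρ ⊆ Ω := by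
  intro x hx
  obtain ⟨q, -, hq⟩ := mem_iUnion₂.1 hx
  exact X.sub q hq

lemma P_nonempty (q : Q) : (X.P q).Nonempty := by
  obtain ⟨m, hm⟩ := X.M_nonempty q
  exact ⟨m, X.M_sub_P q hm⟩

lemma K_nonempty (ρ : Q) : (X.K ρ).Nonempty := by
  obtain ⟨x, hx⟩ := X.P_nonempty ρ
  exact ⟨x, mem_biUnion (show ρ ∈ {q | q ≤ ρ} from le_rfl) hx⟩

lemma D_notMem {ρ : Q} {x : E'} (hx : x ∈ Ω) (h : x ∉ X.K ρ) : X.D ρ x = 0 := by
  by_contra hne
  obtain ⟨q, hq, hqx⟩ := X.D_ne hx hne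
  exact h (mem_biUnion (show q ∈ {q | q ≤ ρ} from hq) hqx)

include X in
lemma countable [FiniteDimensional ℝ E'] : Countable Q := by
  have h : ∀ x ∈ Ω, ∃ U ∈ nhdsWithin x Ω, {q | (X.P q ∩ U).Nonempty}.Finite := by
    intro x hx
    obtain ⟨r, hr, hf⟩ := X.lf x hx
    exact ⟨Metric.ball x r, mem_nhdsWithin_of_mem_nhds (Metric.ball_mem_nhds x hr), hf⟩
  choose! U hU hUf using h
  have : SecondCountableTopology E' := by
    have : ProperSpace E' := FiniteDimensional.proper ℝ E'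
    infer_instance
  obtain ⟨s, hs, hsc, hcov⟩ := TopologicalSpace.countable_cover_nhdsWithin hU
  have h1 : (univ : Set Q) ⊆ ⋃ x ∈ s, {q | (X.P q ∩ U x).Nonempty} := by
    intro q _
    obtain ⟨x, hx⟩ := X.P_nonempty q
    obtain ⟨y, hy, hxy⟩ := mem_iUnion₂.1 (hcov (X.sub q hx))
    exact mem_biUnion hy ⟨x, hx, hxy⟩
  exact countable_univ_iff.1
    ((hsc.biUnion (fun x hx => (hUf x (hs hx)).countable)).mono h1)

/-- `D ρ` is a selection of finitely many affine maps on all of `Ω` -/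
lemma D_sel [FiniteDimensional ℝ E] (ρ : Q) : ∃ S : Finset (E' →ᵃ[ℝ] E),
    ∀ x ∈ Ω, ∃ a ∈ S, X.D ρ x = a x := by
  classical
  choose T hT using fun q => (X.plOn_D q ρ).2
  refine ⟨insert 0 ((C.dn ρ).biUnion T), fun x hx => ?_⟩
  by_cases h : x ∈ X.K ρ
  · obtain ⟨q, hq, hqx⟩ := mem_iUnion₂.1 h
    obtain ⟨a, ha, e⟩ := hT q x hqx
    exact ⟨a, Finset.mem_insert_of_mem (Finset.mem_biUnion.2 ⟨q, C.mem_dn.2 hq, ha⟩), e⟩
  · exact ⟨0, Finset.mem_insert_self _ _, by rw [X.D_notMem hx h]; rfl⟩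

/-- uniform gradient bound for `D ρ` -/
lemma D_fderiv [FiniteDimensional ℝ E] [FiniteDimensional ℝ E'] (hΩ : IsOpen Ω) (ρ : Q) :
    ∃ L : ℝ≥0, ∀ x ∈ Ω, ‖fderiv ℝ (X.D ρ) x‖ ≤ L ∧ (x ∉ X.K ρ → fderiv ℝ (X.D ρ) x = 0) := by
  obtain ⟨S, hS⟩ := X.D_sel ρ
  obtain ⟨L, hL⟩ := lip_sel S
  refine ⟨L, fun x hx => ⟨?_, fun hK => ?_⟩⟩
  · obtain ⟨r, hr, hsub⟩ := Metric.isOpen_iff.1 hΩ x hx
    have h1 : LipschitzOnWith L (X.D ρ) (Metric.ball x r) :=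
      hL _ _ (convex_ball x r) ((locPL_continuousOn (X.locPL_D hΩ ρ)).mono hsub)
        (fun y hy => hS y (hsub hy))
    exact norm_fderiv_le_of_lipschitzOn ℝ (Metric.ball_mem_nhds x hr) h1
  · have hopen : IsOpen (Ω \ X.K ρ) := hΩ.sdiff (X.isCompact_K ρ).isClosed
    have h1 : X.D ρ =ᶠ[𝓝 x] fun _ => (0 : E) := by
      filter_upwards [hopen.mem_nhds ⟨hx, hK⟩] with y hy
      exact X.D_notMem hy.1 hy.2
    rw [h1.fderiv_eq]
    simp

lemma D_bound [FiniteDimensional ℝ E] (hΩ : IsOpen Ω) (ρ : Q) :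
    ∃ B : ℝ, 0 ≤ B ∧ ∀ x ∈ Ω, ‖X.D ρ x‖ ≤ B := by
  obtain ⟨B, hB⟩ := (X.isCompact_K ρ).exists_bound_of_continuousOn
    ((locPL_continuousOn (X.locPL_D hΩ ρ)).mono (X.K_sub ρ))
  refine ⟨max B 0, le_max_right _ _, fun x hx => ?_⟩
  by_cases h : x ∈ X.K ρ
  · exact (hB x h).trans (le_max_left _ _)
  · rw [X.D_notMem hx h, norm_zero]; exact le_max_right _ _

/-- near every point, `g κ` is a finite sum -/
lemma g_near (hΩ : IsOpen Ω) {x : E'} (hx : x ∈ Ω) : ∃ F : Finset Q,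
    ∀ κ : Q → ℝ, X.g κ =ᶠ[𝓝 x] fun y => G y + ∑ ρ ∈ F, κ ρ • X.D ρ y := by
  classical
  obtain ⟨r, hr, hf⟩ := X.lf x hx
  refine ⟨hf.toFinset.biUnion X.ups, fun κ => ?_⟩
  filter_upwards [hΩ.mem_nhds hx, Metric.ball_mem_nhds x hr] with y hy hyr
  obtain ⟨q, hq⟩ := X.cover y hy
  rw [X.g_eq_sum κ hq]
  congr 1
  refine Finset.sum_subset (fun ρ hρ => ?_) (fun ρ _ hρ => ?_)
  · exact Finset.mem_biUnion.2 ⟨q, hf.mem_toFinset.2 ⟨y, hq, hyr⟩, hρ⟩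
  · rw [X.D_eq_zero (fun h => hρ (X.mem_ups.2 h)) hq, smul_zero]


/-- **choice of `κ`**: for all sufficiently small `κ` the map `g κ` is close to `G`. -/
theorem small [FiniteDimensional ℝ E] [FiniteDimensional ℝ E'] [MeasurableSpace E']
    [BorelSpace E'] (μ : Measure E') [μ.IsAddHaarMeasure] (hΩ : IsOpen Ω) {η : E' → ℝ}
    (hη : ContinuousOn η Ω) (hη0 : ∀ x ∈ Ω, 0 < η x) {p : ℝ} (hp : 0 < p) {e : ℝ≥0∞}
    (he : e ≠ 0) :
    ∃ c : Q → ℝ, (∀ ρ, 0 < c ρ ∧ c ρ < 1) ∧ ∀ κ : Q → ℝ, (∀ ρ, 0 < κ ρ ∧ κ ρ ≤ c ρ) →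
      (∀ x ∈ Ω, ‖X.g κ x - G x‖ ≤ η x) ∧
      ∫⁻ x in Ω, ‖fderiv ℝ (X.g κ) x - fderiv ℝ G x‖ₑ ^ p ∂μ ≤ e := by
  classical
  have := X.countable
  obtain ⟨ω, hω, hω1⟩ := ENNReal.exists_pos_sum_of_countable (ε := 1) one_ne_zero Q
  obtain ⟨ε, hε, hε1⟩ := ENNReal.exists_pos_sum_of_countable he Q
  choose L hL using fun ρ => X.D_fderiv hΩ ρ
  choose B hB0 hB using fun ρ => X.D_bound hΩ ρ
  have hmin : ∀ ρ, ∃ h : ℝ, 0 < h ∧ ∀ x ∈ X.K ρ, h ≤ η x := by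
    intro ρ
    obtain ⟨x, hx, hmin⟩ := (X.isCompact_K ρ).exists_isMinOn (X.K_nonempty ρ)
      (hη.mono (X.K_sub ρ))
    exact ⟨η x, hη0 x (X.K_sub ρ hx), fun y hy => hmin hy⟩
  choose h hh0 hh using hmin
  -- measure of the supports
  have hmu : ∀ ρ, μ (X.K ρ) ≠ ⊤ := fun ρ => (X.isCompact_K ρ).measure_lt_top.ne
  set V : Q → ℝ := fun ρ => (μ (X.K ρ)).toReal with hV
  have hV0 : ∀ ρ, 0 ≤ V ρ := fun ρ => ENNReal.toReal_nonneg
  set a : Q → ℝ := fun ρ => ((ε ρ : ℝ) / (1 + V ρ)) ^ (1 / p) with ha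
  have ha0 : ∀ ρ, 0 < a ρ := fun ρ => by
    have := hε ρ
    have := hV0 ρ
    exact Real.rpow_pos_of_pos (div_pos (by exact_mod_cast hε ρ) (by linarith)) _
  have hap : ∀ ρ, (a ρ) ^ p * V ρ ≤ ε ρ := fun ρ => by
    have h1 : (0 : ℝ) ≤ (ε ρ : ℝ) := (ε ρ).2
    have h2 := hV0 ρ
    rw [ha]
    simp only
    rw [← Real.rpow_mul (div_nonneg h1 (by linarith)), one_div, inv_mul_cancel₀ hp.ne',
      Real.rpow_one, div_mul_eq_mul_div, div_le_iff₀ (by linarith)]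
    nlinarith
  set c : Q → ℝ := fun ρ => min (1 / 2) (min (ω ρ * h ρ / (1 + B ρ)) (ω ρ * a ρ / (1 + L ρ)))
    with hc
  have hω' : ∀ ρ, (0 : ℝ) < ω ρ := fun ρ => by exact_mod_cast hω ρ
  have hc0 : ∀ ρ, 0 < c ρ := fun ρ => by
    have h1 := hω' ρ
    have h2 := hh0 ρ
    have h3 := ha0 ρ
    have h4 := hB0 ρ
    have h5 : (0 : ℝ) ≤ L ρ := (L ρ).2
    exact lt_min (by norm_num) (lt_min (by positivity) (by positivity))
  refine ⟨c, fun ρ => ⟨hc0 ρ, (min_le_left _ _).trans_lt (by norm_num)⟩, fun κ hκ => ?_⟩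
  have hκB : ∀ ρ, κ ρ * B ρ ≤ ω ρ * h ρ := fun ρ => by
    have h4 := hB0 ρ
    have h1 : κ ρ ≤ ω ρ * h ρ / (1 + B ρ) :=
      (hκ ρ).2.trans ((min_le_right _ _).trans (min_le_left _ _))
    rw [le_div_iff₀ (by linarith)] at h1
    have := (hκ ρ).1
    nlinarith
  have hκL : ∀ ρ, κ ρ * L ρ ≤ ω ρ * a ρ := fun ρ => by
    have h5 : (0 : ℝ) ≤ L ρ := (L ρ).2
    have h1 : κ ρ ≤ ω ρ * a ρ / (1 + L ρ) :=
      (hκ ρ).2.trans ((min_le_right _ _).trans (min_le_right _ _))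
    rw [le_div_iff₀ (by linarith)] at h1
    have := (hκ ρ).1
    nlinarith
  have hωs : ∀ F : Finset Q, ∑ ρ ∈ F, (ω ρ : ℝ) ≤ 1 := by
    intro F
    have h1 : ∑ ρ ∈ F, (ω ρ : ℝ≥0∞) ≤ 1 := (ENNReal.sum_le_tsum F).trans hω1.le
    have h2 : ((∑ ρ ∈ F, ω ρ : ℝ≥0) : ℝ≥0∞) ≤ ((1 : ℝ≥0) : ℝ≥0∞) := by
      push_cast; exact h1
    have h3 : ∑ ρ ∈ F, ω ρ ≤ 1 := ENNReal.coe_le_coe.1 h2
    exact_mod_cast h3
  constructor
  · -- C⁰
    intro x hx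
    obtain ⟨q, hq⟩ := X.cover x hx
    rw [X.g_eq_sum κ hq, add_sub_cancel_left]
    have h1 : ∀ ρ ∈ X.ups q, ‖κ ρ • X.D ρ x‖ ≤ ω ρ * η x := by
      intro ρ _
      by_cases hK : x ∈ X.K ρ
      · rw [norm_smul, Real.norm_eq_abs, abs_of_pos (hκ ρ).1]
        calc κ ρ * ‖X.D ρ x‖ ≤ κ ρ * B ρ := mul_le_mul_of_nonneg_left (hB ρ x hx) (hκ ρ).1.le
          _ ≤ ω ρ * h ρ := hκB ρ
          _ ≤ ω ρ * η x := mul_le_mul_of_nonneg_left (hh ρ x hK) (hω' ρ).le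
      · rw [X.D_notMem hx hK, smul_zero, norm_zero]
        exact mul_nonneg (hω' ρ).le (hη0 x hx).le
    calc ‖∑ ρ ∈ X.ups q, κ ρ • X.D ρ x‖ ≤ ∑ ρ ∈ X.ups q, ‖κ ρ • X.D ρ x‖ := norm_sum_le _ _
      _ ≤ ∑ ρ ∈ X.ups q, (ω ρ : ℝ) * η x := Finset.sum_le_sum h1
      _ = (∑ ρ ∈ X.ups q, (ω ρ : ℝ)) * η x := by rw [Finset.sum_mul]
      _ ≤ 1 * η x := mul_le_mul_of_nonneg_right (hωs _) (hη0 x hx).le
      _ = η x := one_mul _
  · -- energy
    have hd : ∀ᵐ x ∂μ, x ∈ Ω → (DifferentiableAt ℝ G x ∧ ∀ ρ, DifferentiableAt ℝ (X.D ρ) x) := by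
      have h1 : ∀ᵐ x ∂μ, x ∈ Ω → DifferentiableAt ℝ G x := (locPL_ll (X.locPL_G hΩ)).ae_diff
      have h2 : ∀ᵐ x ∂μ, ∀ ρ, x ∈ Ω → DifferentiableAt ℝ (X.D ρ) x :=
        ae_all_iff.2 (fun ρ => (locPL_ll (X.locPL_D hΩ ρ)).ae_diff)
      filter_upwards [h1, h2] with x hx1 hx2 hx
      exact ⟨hx1 hx, fun ρ => hx2 ρ hx⟩
    have hpt : ∀ᵐ x ∂(μ.restrict Ω), ‖fderiv ℝ (X.g κ) x - fderiv ℝ G x‖ₑ ^ p ≤
        ∑' ρ, (X.K ρ).indicator (fun _ => ENNReal.ofReal ((a ρ) ^ p)) x := by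
      rw [ae_restrict_iff' hΩ.measurableSet]
      filter_upwards [hd] with x hx hxΩ
      obtain ⟨hG, hD⟩ := hx hxΩ
      obtain ⟨F, hF⟩ := X.g_near hΩ hxΩ
      have h1 : fderiv ℝ (X.g κ) x - fderiv ℝ G x = ∑ ρ ∈ F, κ ρ • fderiv ℝ (X.D ρ) x := by
        rw [(hF κ).fderiv_eq]
        have h2 : HasFDerivAt (fun y => G y + ∑ ρ ∈ F, κ ρ • X.D ρ y)
            (fderiv ℝ G x + ∑ ρ ∈ F, κ ρ • fderiv ℝ (X.D ρ) x) x := by
          refine hG.hasFDerivAt.add ?_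
          exact HasFDerivAt.fun_sum (fun ρ _ => (hD ρ).hasFDerivAt.const_smul (κ ρ))
        rw [h2.fderiv, add_sub_cancel_left]
      -- the largest coefficient
      set F' := F.filter (fun ρ => x ∈ X.K ρ) with hF'
      have h2 : ∑ ρ ∈ F, κ ρ • fderiv ℝ (X.D ρ) x = ∑ ρ ∈ F', κ ρ • fderiv ℝ (X.D ρ) x := by
        symm
        refine Finset.sum_subset (Finset.filter_subset _ _) (fun ρ hρ hρ' => ?_)
        have : x ∉ X.K ρ := fun hK => hρ' (Finset.mem_filter.2 ⟨hρ, hK⟩)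
        rw [(hL ρ x hxΩ).2 this, smul_zero]
      rw [h1, h2]
      rcases F'.eq_empty_or_nonempty with hem | hne
      · rw [hem, Finset.sum_empty, ← ofReal_norm, norm_zero, ENNReal.ofReal_zero,
          ENNReal.zero_rpow_of_pos hp]
        exact bot_le
      · obtain ⟨σ, hσ, hmax⟩ := F'.exists_max_image a hne
        have h3 : ‖∑ ρ ∈ F', κ ρ • fderiv ℝ (X.D ρ) x‖ ≤ a σ := by
          calc ‖∑ ρ ∈ F', κ ρ • fderiv ℝ (X.D ρ) x‖ ≤ ∑ ρ ∈ F', ‖κ ρ • fderiv ℝ (X.D ρ) x‖ :=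
                norm_sum_le _ _
            _ ≤ ∑ ρ ∈ F', (ω ρ : ℝ) * a σ := by
                refine Finset.sum_le_sum (fun ρ hρ => ?_)
                rw [norm_smul, Real.norm_eq_abs, abs_of_pos (hκ ρ).1]
                calc κ ρ * ‖fderiv ℝ (X.D ρ) x‖ ≤ κ ρ * L ρ :=
                      mul_le_mul_of_nonneg_left (hL ρ x hxΩ).1 (hκ ρ).1.le
                  _ ≤ ω ρ * a ρ := hκL ρ
                  _ ≤ ω ρ * a σ := mul_le_mul_of_nonneg_left (hmax ρ hρ) (hω' ρ).le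
            _ = (∑ ρ ∈ F', (ω ρ : ℝ)) * a σ := by rw [Finset.sum_mul]
            _ ≤ 1 * a σ := mul_le_mul_of_nonneg_right (hωs _) (ha0 σ).le
            _ = a σ := one_mul _
        have hσK : x ∈ X.K σ := (Finset.mem_filter.1 hσ).2
        calc ‖∑ ρ ∈ F', κ ρ • fderiv ℝ (X.D ρ) x‖ₑ ^ p ≤ (ENNReal.ofReal (a σ)) ^ p := by
              refine ENNReal.rpow_le_rpow ?_ hp.le
              rw [← ofReal_norm]
              exact ENNReal.ofReal_le_ofReal h3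
          _ = ENNReal.ofReal ((a σ) ^ p) := ENNReal.ofReal_rpow_of_nonneg (ha0 σ).le hp.le
          _ = (X.K σ).indicator (fun _ => ENNReal.ofReal ((a σ) ^ p)) x := by
              rw [indicator_of_mem hσK]
          _ ≤ ∑' ρ, (X.K ρ).indicator (fun _ => ENNReal.ofReal ((a ρ) ^ p)) x :=
              ENNReal.le_tsum σ
    calc ∫⁻ x in Ω, ‖fderiv ℝ (X.g κ) x - fderiv ℝ G x‖ₑ ^ p ∂μ
        ≤ ∫⁻ x in Ω, ∑' ρ, (X.K ρ).indicator (fun _ => ENNReal.ofReal ((a ρ) ^ p)) x ∂μ :=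
          lintegral_mono_ae hpt
      _ ≤ ∫⁻ x, ∑' ρ, (X.K ρ).indicator (fun _ => ENNReal.ofReal ((a ρ) ^ p)) x ∂μ :=
          setLIntegral_le_lintegral _ _
      _ = ∑' ρ, ∫⁻ x, (X.K ρ).indicator (fun _ => ENNReal.ofReal ((a ρ) ^ p)) x ∂μ := by
          refine lintegral_tsum (fun ρ => ?_)
          exact (measurable_const.indicator (X.isCompact_K ρ).isClosed.measurableSet).aemeasurable
      _ = ∑' ρ, ENNReal.ofReal ((a ρ) ^ p) * μ (X.K ρ) := by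
          congr 1
          funext ρ
          rw [lintegral_indicator (X.isCompact_K ρ).isClosed.measurableSet, setLIntegral_const]
      _ ≤ ∑' ρ, (ε ρ : ℝ≥0∞) := by
          refine ENNReal.tsum_le_tsum (fun ρ => ?_)
          have h1 : μ (X.K ρ) = ENNReal.ofReal (V ρ) := (ENNReal.ofReal_toReal (hmu ρ)).symm
          rw [h1, ← ENNReal.ofReal_mul (Real.rpow_nonneg (ha0 ρ).le _)]
          have h2 : (ε ρ : ℝ≥0∞) = ENNReal.ofReal (ε ρ : ℝ) := (ENNReal.ofReal_coe_nnreal).symm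
          rw [h2]
          exact ENNReal.ofReal_le_ofReal (hap ρ)
      _ ≤ e := hε1.le

end Expl

/-! ### the version in `R3` -/

section R3

open Crest.AnalysisR.VecCalc3 Crest.AnalysisR.Sobolev Crest.Agent.R096.Sk_962
open scoped Gradient

lemma enorm_Gr_sub_le {g F : R3 → R3} {x : R3} (hg : DifferentiableAt ℝ g x)
    (hF : DifferentiableAt ℝ F x) (j : Fin 3) :
    ‖Gr g j x - Gr F j x‖ₑ ≤ ‖fderiv ℝ g x - fderiv ℝ F x‖ₑ := by
  have hc : ∀ u : R3 → R3, DifferentiableAt ℝ u x → ∀ v,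
      fderiv ℝ (fun y => u y j) x v = fderiv ℝ u x v j := by
    intro u hu v
    have h1 : HasFDerivAt (fun y => u y j)
        ((EuclideanSpace.proj (𝕜 := ℝ) j : R3 →L[ℝ] ℝ).comp (fderiv ℝ u x)) x :=
      (EuclideanSpace.proj (𝕜 := ℝ) j : R3 →L[ℝ] ℝ).hasFDerivAt.comp x hu.hasFDerivAt
    rw [h1.fderiv]
    rfl
  have h1 : Gr g j x - Gr F j x = (InnerProductSpace.toDual ℝ R3).symm
      (fderiv ℝ (fun y => g y j) x - fderiv ℝ (fun y => F y j) x) := by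
    rw [map_sub]; rfl
  have h2 : ‖Gr g j x - Gr F j x‖ ≤ ‖fderiv ℝ g x - fderiv ℝ F x‖ := by
    rw [h1, LinearIsometryEquiv.norm_map]
    refine ContinuousLinearMap.opNorm_le_bound _ (norm_nonneg _) (fun v => ?_)
    have h3 : (fderiv ℝ (fun y => g y j) x - fderiv ℝ (fun y => F y j) x) v =
        ((fderiv ℝ g x - fderiv ℝ F x) v) j := by
      rw [ContinuousLinearMap.sub_apply, hc g hg, hc F hF]; rfl
    rw [h3]
    exact (PiLp.norm_apply_le _ j).trans (ContinuousLinearMap.le_opNorm _ _)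
  rw [← ofReal_norm, ← ofReal_norm]
  exact ENNReal.ofReal_le_ofReal h2

/-- **EXPLODE in `R3`**: a map `G : Ω → Λ` with an exploded structure is approximated, in `C⁰` with a
continuous tolerance and in energy, by PL homeomorphisms `Ω → Λ` with PL inverse. -/
theorem explode_R3 {Q : Type*} [PartialOrder Q] {Ω Λ : Set R3} {C : CC Λ Q} {F : R3 → R3}
    (X : Expl Ω C F) (hΩ : IsOpen Ω) (hΛ : IsOpen Λ) {η : R3 → ℝ} (hη : ContinuousOn η Ω)
    (hη0 : ∀ x ∈ Ω, 0 < η x) {p : ℝ} (hp : 0 < p) {e : ℝ≥0∞} (he : e ≠ 0) :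
    ∃ g : R3 → R3, IsHomeomorphOn g Ω Λ ∧ Str_696.LocPL g Ω ∧
      (∃ k : R3 → R3, Str_696.LocPL k Λ ∧ MapsTo k Λ Ω ∧ (∀ x ∈ Ω, k (g x) = x) ∧
        ∀ y ∈ Λ, g (k y) = y) ∧
      (∀ x ∈ Ω, ‖g x - F x‖ ≤ η x) ∧
      ∫⁻ x in Ω, ∑ j : Fin 3, ‖Gr g j x - Gr F j x‖ₑ ^ p ≤ e := by
  obtain ⟨c, hc, hsm⟩ := X.small (volume : Measure R3) hΩ hη hη0 hp (e := e / 3)
    (by simp [he])
  obtain ⟨h1, h2⟩ := hsm c (fun ρ => ⟨(hc ρ).1, le_rfl⟩)
  obtain ⟨k, k1, k2, k3, k4, k5, k6⟩ := X.explode hΩ hΛ hc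
  refine ⟨X.g c, ⟨k, k3, k4, k5, k6, locPL_continuousOn k1, locPL_continuousOn k2⟩,
    locPL_iff.1 k1, ⟨k, locPL_iff.1 k2, k4, k5, k6⟩, h1, ?_⟩
  have hd1 : ∀ᵐ x ∂(volume : Measure R3), x ∈ Ω → DifferentiableAt ℝ (X.g c) x :=
    (locPL_ll k1).ae_diff
  have hd2 : ∀ᵐ x ∂(volume : Measure R3), x ∈ Ω → DifferentiableAt ℝ F x :=
    (locPL_ll (X.locPL_G hΩ)).ae_diff
  calc ∫⁻ x in Ω, ∑ j : Fin 3, ‖Gr (X.g c) j x - Gr F j x‖ₑ ^ p
      ≤ ∫⁻ x in Ω, 3 * ‖fderiv ℝ (X.g c) x - fderiv ℝ F x‖ₑ ^ p := by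
        refine lintegral_mono_ae ?_
        refine (ae_restrict_iff' hΩ.measurableSet).2 ?_
        filter_upwards [hd1, hd2] with x hx1 hx2 hx
        have h3 : ∀ j ∈ (Finset.univ : Finset (Fin 3)), ‖Gr (X.g c) j x - Gr F j x‖ₑ ^ p ≤
            ‖fderiv ℝ (X.g c) x - fderiv ℝ F x‖ₑ ^ p := fun j _ =>
          ENNReal.rpow_le_rpow (enorm_Gr_sub_le (hx1 hx) (hx2 hx) j) hp.le
        refine (Finset.sum_le_sum h3).trans ?_
        simp
    _ = 3 * ∫⁻ x in Ω, ‖fderiv ℝ (X.g c) x - fderiv ℝ F x‖ₑ ^ p :=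
        lintegral_const_mul' _ _ (by norm_num)
    _ ≤ 3 * (e / 3) := by gcongr
    _ = e := ENNReal.mul_div_cancel (by norm_num) (by norm_num)

end R3

end Crest.Agent.R096.Xp_537
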