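import Crest.Agent.R096.Xp6_537

/-!
# R096 (row 96), EXPLODE, part 8 (helper537)

`Trn`: the transport form of the exploded structure.  `top x` = the cell of `x`, `tr x t` = the
point over `t ∈ cell (top x)` on the leaf of `x`.  `Trn.expl : Expl Ω C G`.
Here `M q = Ω ∩ G⁻¹{b q}` and its boundary is `{x ∈ M q | top x ≠ q}`.
-/

set_option autoImplicit false
set_option linter.unusedSectionVars false
set_option linter.unusedVariables false
set_option linter.deprecated false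

open Set

namespace Crest.Agent.R096.Xp_537

open Crest.Agent.R096.Ce_537 (PLOn PLEquiv cube sph IsBall LocPL)
open Crest.Agent.R096.Bd_416

variable {E E' : Type*} [NormedAddCommGroup E] [NormedSpace ℝ E]
  [NormedAddCommGroup E'] [NormedSpace ℝ E']
variable {Q : Type*} [PartialOrder Q] {Λ : Set E}

/-- every point of a cell lies in the open cell of a smaller one -/
lemma CC.exists_opn (C : CC Λ Q) {y : E} : ∀ {q : Q}, y ∈ C.cell q →
    ∃ p ≤ q, y ∈ C.cell p ∧ ∀ r < p, y ∉ C.cell r := by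
  intro q
  induction hd : C.dim q using Nat.strong_induction_on generalizing q with
  | _ d ih =>
    intro hy
    by_cases h : ∃ p < q, y ∈ C.cell p
    · obtain ⟨p, hp, hyp⟩ := h
      obtain ⟨r, hr, h1, h2⟩ := ih (C.dim p) (hd ▸ C.dim_lt hp) rfl hyp
      exact ⟨r, hr.trans hp.le, h1, h2⟩
    · push Not at h
      exact ⟨q, le_rfl, hy, h⟩

/-- a cell whose open cell meets `cell q` is below `q` -/
lemma CC.le_of_opn (C : CC Λ Q) {y : E} {p q : Q} (hp : y ∈ C.cell p)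
    (ho : ∀ r < p, y ∉ C.cell r) (hq : y ∈ C.cell q) : p ≤ q := by
  obtain ⟨p', hp', h1, h2⟩ := C.exists_opn hq
  have := C.disj hp ho h1 h2
  rwa [this]

lemma CC.le_of_b (C : CC Λ Q) {p q : Q} (h : C.b p ∈ C.cell q) : p ≤ q :=
  C.le_of_opn (C.bmem p) (fun _ hr => C.b_notMem hr) h

/-- **transport structure** -/
structure Trn (Ω : Set E') (C : CC Λ Q) (G : E' → E) where
  top : E' → Q
  tr : E' → E → E'
  d : Q → ℕ
  n : ℕ
  dim_le : ∀ q, C.dim q ≤ n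
  G_mem : ∀ x ∈ Ω, G x ∈ C.cell (top x)
  tr_mem : ∀ x ∈ Ω, ∀ t ∈ C.cell (top x), tr x t ∈ Ω
  tr_G : ∀ x ∈ Ω, ∀ t ∈ C.cell (top x), G (tr x t) = t
  tr_top : ∀ x ∈ Ω, ∀ t ∈ C.cell (top x), top x ≤ top (tr x t)
  tr_self : ∀ x ∈ Ω, tr x (G x) = x
  tr_tr : ∀ x ∈ Ω, ∀ t ∈ C.cell (top x), ∀ s ∈ C.cell (top x), tr (tr x t) s = tr x s
  plG : ∀ q, PLOn G {x | x ∈ Ω ∧ q ≤ top x ∧ G x ∈ C.cell q}
  plc : ∀ q, PLOn (fun x => tr x (C.b q)) {x | x ∈ Ω ∧ q ≤ top x ∧ G x ∈ C.cell q}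
  pltr : ∀ q, PLOn (fun p : E' × E => tr p.1 p.2) ({x | x ∈ Ω ∧ G x = C.b q} ×ˢ C.cell q)
  ball : ∀ q, IsBall (d q) {x | x ∈ Ω ∧ G x = C.b q} {x | x ∈ Ω ∧ G x = C.b q ∧ top x ≠ q}
  lf : ∀ x ∈ Ω, ∃ r > 0,
    {q | ({x | x ∈ Ω ∧ q ≤ top x ∧ G x ∈ C.cell q} ∩ Metric.ball x r).Nonempty}.Finite

namespace Trn

variable {Ω : Set E'} {C : CC Λ Q} {G : E' → E} (X : Trn Ω C G)

/-- the fibre -/
def M (_X : Trn Ω C G) (q : Q) : Set E' := {x | x ∈ Ω ∧ G x = C.b q}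

/-- the piece -/
def P (X : Trn Ω C G) (q : Q) : Set E' := {x | x ∈ Ω ∧ q ≤ X.top x ∧ G x ∈ C.cell q}

lemma M_top {q : Q} {x : E'} (hx : x ∈ X.M q) : q ≤ X.top x :=
  C.le_of_b (by rw [← hx.2]; exact X.G_mem x hx.1)

lemma M_cell {q : Q} {x : E'} (hx : x ∈ X.M q) {t : E} (ht : t ∈ C.cell q) :
    t ∈ C.cell (X.top x) := C.mono_le (X.M_top hx) ht

/-- the charts -/
def e (q : Q) : PLEquiv (X.M q ×ˢ C.cell q) (X.P q) where
  f := fun p => X.tr p.1 p.2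
  g := fun x => (X.tr x (C.b q), G x)
  pf := X.pltr q
  pg := pl_pair (X.plc q) (X.plG q)
  mf := by
    rintro ⟨m, t⟩ ⟨hm, ht⟩
    have h1 := X.M_cell hm ht
    refine ⟨X.tr_mem m hm.1 t h1, (X.M_top hm).trans (X.tr_top m hm.1 t h1), ?_⟩
    show G (X.tr m t) ∈ C.cell q
    rw [X.tr_G m hm.1 t h1]
    exact ht
  mg := by
    rintro x ⟨hx, hq, hG⟩
    have h1 : C.b q ∈ C.cell (X.top x) := C.mono_le hq (C.bmem q)
    exact ⟨⟨X.tr_mem x hx _ h1, X.tr_G x hx _ h1⟩, hG⟩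
  li := by
    rintro ⟨m, t⟩ ⟨hm, ht⟩
    have h1 := X.M_cell hm ht
    have h2 : C.b q ∈ C.cell (X.top m) := X.M_cell hm (C.bmem q)
    show (X.tr (X.tr m t) (C.b q), G (X.tr m t)) = (m, t)
    rw [X.tr_G m hm.1 t h1, X.tr_tr m hm.1 t h1 _ h2]
    have h3 : X.tr m (C.b q) = m := by
      have := X.tr_self m hm.1
      rwa [hm.2] at this
    rw [h3]
  ri := by
    rintro x ⟨hx, hq, hG⟩
    have h1 : C.b q ∈ C.cell (X.top x) := C.mono_le hq (C.bmem q)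
    show X.tr (X.tr x (C.b q)) (G x) = x
    rw [X.tr_tr x hx _ h1 _ (X.G_mem x hx), X.tr_self x hx]

lemma e_f (q : Q) (m : E') (t : E) : (X.e q).f (m, t) = X.tr m t := rfl

lemma bd_eq (q : Q) : {x | x ∈ Ω ∧ G x = C.b q ∧ X.top x ≠ q} =
    ⋃ ρ ∈ {ρ | q < ρ}, (fun m => (X.e ρ).f (m, C.b q)) '' X.M ρ := by
  ext x
  simp only [mem_iUnion, mem_setOf_eq, exists_prop, mem_image]
  constructor
  · rintro ⟨hx, hG, hne⟩
    have hq : q < X.top x := lt_of_le_of_ne (X.M_top ⟨hx, hG⟩) (Ne.symm hne)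
    have h1 : C.b (X.top x) ∈ C.cell (X.top x) := C.bmem _
    refine ⟨X.top x, hq, X.tr x (C.b (X.top x)), ⟨X.tr_mem x hx _ h1, X.tr_G x hx _ h1⟩, ?_⟩
    rw [X.e_f, ← hG, X.tr_tr x hx _ h1 _ (X.G_mem x hx), X.tr_self x hx]
  · rintro ⟨ρ, hρ, m, hm, rfl⟩
    rw [X.e_f]
    have h1 : C.b q ∈ C.cell (X.top m) := X.M_cell hm (C.mono hρ (C.bmem q))
    refine ⟨X.tr_mem m hm.1 _ h1, X.tr_G m hm.1 _ h1, ?_⟩
    have h2 := X.tr_top m hm.1 _ h1
    exact (hρ.trans_le ((X.M_top hm).trans h2)).ne'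

/-- **the exploded structure of a transport structure** -/
def expl : Expl Ω C G where
  M := X.M
  P := X.P
  e := X.e
  d := X.d
  n := X.n
  dim_le := X.dim_le
  e_G := fun q m hm t ht => X.tr_G m hm.1 t (X.M_cell hm ht)
  e_b := fun q m hm => by
    rw [X.e_f]
    have := X.tr_self m hm.1
    rwa [hm.2] at this
  comp := fun {q ρ} h m hm t ht => by
    rw [X.e_f, X.e_f, X.e_f]
    exact (X.tr_tr m hm.1 _ (X.M_cell hm (C.mono h (C.bmem q))) t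
      (X.M_cell hm (C.mono h ht))).symm
  ball := fun q => by
    rw [← X.bd_eq]
    exact X.ball q
  sub := fun q x hx => hx.1
  cover := fun x hx => ⟨X.top x, hx, le_rfl, X.G_mem x hx⟩
  lf := X.lf
  up := fun {q q' x} h h' => ⟨X.top x, h.2.1, h'.2.1, h.1, le_rfl, X.G_mem x h.1⟩

end Trn

/-- local finiteness of the pieces is automatic when `G` is continuous -/
lemma lf_of_cont {Ω : Set E'} {C : CC Λ Q} {G : E' → E} (hG : ContinuousOn G Ω)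
    (hm : MapsTo G Ω Λ) {P : Q → Set E'} (hP : ∀ q, ∀ x ∈ P q, x ∈ Ω ∧ G x ∈ C.cell q) :
    ∀ x ∈ Ω, ∃ r > 0, {q | (P q ∩ Metric.ball x r).Nonempty}.Finite := by
  intro x hx
  obtain ⟨s, hs, hf⟩ := C.lf (G x) (hm hx)
  obtain ⟨r, hr, hball⟩ := Metric.continuousOn_iff.1 hG x hx s hs
  refine ⟨r, hr, hf.subset ?_⟩
  rintro q ⟨y, hy, hyr⟩
  obtain ⟨h1, h2⟩ := hP q y hy
  exact ⟨G y, h2, hball y h1 hyr⟩

/-- `PLOn` on a compact set is local -/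
lemma plOn_of_local {K : Set E'} {f : E' → E} (hK : IsCompact K)
    (h : ∀ x ∈ K, ∃ U ∈ nhdsWithin x K, PLOn f U) : PLOn f K := by
  classical
  choose! U hU hf using h
  obtain ⟨t, ht, hcov⟩ := hK.elim_nhdsWithin_subcover U hU
  choose! S hS using fun x (hx : x ∈ K) => (hf x hx).2
  refine ⟨fun x hx => ?_, t.biUnion S, fun x hx => ?_⟩
  · have h1 := (hf x hx).1
    have hxU : x ∈ U x := mem_of_mem_nhdsWithin hx (hU x hx)
    have h2 : ContinuousWithinAt f (U x) x := h1 x hxU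
    exact h2.mono_of_mem_nhdsWithin (hU x hx)
  · obtain ⟨y, hy, hxy⟩ := mem_iUnion₂.1 (hcov hx)
    obtain ⟨a, ha, e⟩ := hS y (ht y hy) x hxy
    exact ⟨a, Finset.mem_biUnion.2 ⟨y, hy, ha⟩, e⟩

end Crest.Agent.R096.Xp_537
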