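import Crest.Agent.R096.Xp8_537

/-!
# R096 (row 96), EXPLODE, part q1 (helper537)

States for a CONSTANT parameter `κ`: `y = (1 - κ) t + κ ∑ l_ρ b_ρ`.  `sl C κ y`, `st C κ y` are the
weights and the base point of `y`; joint piecewise linearity in `(κ, y) ∈ [0,1] × cell q`
(`plOn_jr`), so all Lipschitz constants are uniform in `κ`.
-/

set_option autoImplicit false
set_option linter.unusedSectionVars false
set_option linter.unusedVariables false
set_option linter.deprecated false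

open Set
open scoped NNReal

namespace Crest.Agent.R096.Xp_537

open Crest.Agent.R096.Ce_537 (PLOn PLEquiv cube sph IsBall LocPL)
open Crest.Agent.R096.Bd_416

variable {E : Type*} [NormedAddCommGroup E] [NormedSpace ℝ E]
variable {Q : Type*} [PartialOrder Q] {Λ : Set E}

/-- the point of a state for the constant parameter `κ` -/
noncomputable def pk (C : CC Λ Q) (κ : ℝ) (l : Q →₀ ℝ) (t : E) : E :=
  (1 - κ) • t + κ • bs C.b l

lemma State.mem_Λ {C : CC Λ Q} {l : Q →₀ ℝ} {t : E} (h : State C l t) : t ∈ Λ := by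
  obtain ⟨p, hp, -⟩ := h.exists_top
  exact C.sub p (h.mem p hp)

lemma gg_const (C : CC Λ Q) (κ : ℝ) {l : Q →₀ ℝ} {t : E} (h : State C l t) :
    gg (fun _ => κ) C.b (mm C) l t = pk C κ l t := by
  have M := mm_MM C
  have h1 := tele (fun s => mm C s t) _ l rfl h.chain
  rw [h.sum, M.one t h.mem_Λ, M.zero t h.mem_Λ, sub_zero] at h1
  unfold gg pk bs
  rw [Finset.sum_add_distrib, ← Finset.smul_sum, h1, Finset.smul_sum, add_comm]
  congr 1
  exact Finset.sum_congr rfl (fun ρ _ => by rw [smul_smul])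

lemma st_toState {C : CC Λ Q} {q : Q} {l : Q →₀ ℝ} {t : E} (h : State C l t)
    (hq : ∀ ρ ∈ l.support, ρ ≤ q) : St C 1 q l t := ⟨h.nn, h.sum, h.chain, hq, h.mem⟩

/-- the image of a state below `q` is in the cell `q` -/
lemma pk_mem (C : CC Λ Q) {κ : ℝ} (hκ : 0 < κ ∧ κ < 1) {q : Q} {l : Q →₀ ℝ} {t : E}
    (h : State C l t) (hq : ∀ ρ ∈ l.support, ρ ≤ q) : pk C κ l t ∈ C.cell q := by
  obtain ⟨p, hp, hst⟩ := h.exists_top
  have h1 := (gg_mem (mm_MM C) (κ := fun _ => κ) (fun _ => hκ) hst hp).1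
  rw [gg_const C κ h] at h1
  exact C.mono_le (hq p hp) h1

lemma pk_inj (C : CC Λ Q) {κ : ℝ} (hκ : 0 < κ ∧ κ < 1) {l l' : Q →₀ ℝ} {t t' : E}
    (h : State C l t) (h' : State C l' t') (he : pk C κ l t = pk C κ l' t') :
    l = l' ∧ t = t' := by
  refine gg_inj (mm_MM C) (κ := fun _ => κ) (fun _ => hκ) h h' ?_
  rw [gg_const C κ h, gg_const C κ h', he]

lemma pk_surj (C : CC Λ Q) {κ : ℝ} (hκ : 0 < κ ∧ κ < 1) {q : Q} {y : E} (hy : y ∈ C.cell q) :
    ∃ l t, St C 1 q l t ∧ pk C κ l t = y := by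
  obtain ⟨l, t, hst, he⟩ := gg_surj (mm_MM C) (κ := fun _ => κ) (fun _ => hκ) hy
  exact ⟨l, t, hst, by rw [← gg_const C κ hst.state, he]⟩

open Classical in
/-- the weights of a point -/
noncomputable def sl (C : CC Λ Q) (κ : ℝ) (y : E) : Q →₀ ℝ :=
  if h : ∃ l t, State C l t ∧ pk C κ l t = y then h.choose else 0

open Classical in
/-- the base point of a point -/
noncomputable def st (C : CC Λ Q) (κ : ℝ) (y : E) : E :=
  if h : ∃ l t, State C l t ∧ pk C κ l t = y then h.choose_spec.choose else 0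

lemma sl_st_pk (C : CC Λ Q) {κ : ℝ} (hκ : 0 < κ ∧ κ < 1) {l : Q →₀ ℝ} {t : E}
    (h : State C l t) : sl C κ (pk C κ l t) = l ∧ st C κ (pk C κ l t) = t := by
  classical
  have hex : ∃ l' t', State C l' t' ∧ pk C κ l' t' = pk C κ l t := ⟨l, t, h, rfl⟩
  unfold sl st
  rw [dif_pos hex, dif_pos hex]
  obtain ⟨h1, h2⟩ := hex.choose_spec.choose_spec
  exact pk_inj C hκ h1 h h2

lemma sl_pk (C : CC Λ Q) {κ : ℝ} (hκ : 0 < κ ∧ κ < 1) {l : Q →₀ ℝ} {t : E}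
    (h : State C l t) : sl C κ (pk C κ l t) = l := (sl_st_pk C hκ h).1

lemma st_pk (C : CC Λ Q) {κ : ℝ} (hκ : 0 < κ ∧ κ < 1) {l : Q →₀ ℝ} {t : E}
    (h : State C l t) : st C κ (pk C κ l t) = t := (sl_st_pk C hκ h).2

/-- **the state of a point of a cell** -/
theorem st_spec (C : CC Λ Q) {κ : ℝ} (hκ : 0 < κ ∧ κ < 1) {q : Q} {y : E}
    (hy : y ∈ C.cell q) : State C (sl C κ y) (st C κ y) ∧ pk C κ (sl C κ y) (st C κ y) = y ∧
      ∀ ρ ∈ (sl C κ y).support, ρ ≤ q := by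
  obtain ⟨l, t, hst, he⟩ := pk_surj C hκ hy
  obtain ⟨h1, h2⟩ := sl_st_pk C hκ hst.state
  rw [he] at h1 h2
  rw [h1, h2]
  exact ⟨hst.state, he, hst.le⟩

lemma st_mem (C : CC Λ Q) {κ : ℝ} (hκ : 0 < κ ∧ κ < 1) {q : Q} {y : E}
    (hy : y ∈ C.cell q) : st C κ y ∈ C.cell q := by
  obtain ⟨h1, h2, h3⟩ := st_spec C hκ hy
  obtain ⟨p, hp, -⟩ := h1.exists_top
  exact C.mono_le (h3 p hp) (h1.mem p hp)

lemma sl_wt (C : CC Λ Q) {κ : ℝ} (hκ : 0 < κ ∧ κ < 1) {q : Q} {y : E}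
    (hy : y ∈ C.cell q) : Wt (sl C κ y) := (st_spec C hκ hy).1.wt

/-! ### joint piecewise linearity -/

section Joint

/-- the polyhedron of homogeneous states -/
def ZZ (C : CC Λ Q) (q : Q) : Set ((C.dn q → ℝ) × E) :=
  {p | (∀ i, 0 ≤ p.1 i) ∧ ∑ i, p.1 i ≤ 1 ∧
    (∀ i j : C.dn q, p.1 i ≠ 0 → p.1 j ≠ 0 → (i : Q) ≤ j ∨ (j : Q) ≤ i) ∧
    ∃ t ∈ C.cell q, (∀ i, p.1 i ≠ 0 → t ∈ C.cell i) ∧ p.2 = (1 - ∑ i, p.1 i) • t}

/-- the pieces -/
def ZP (C : CC Λ Q) (q : Q) (c : Set (C.dn q)) : Set ((C.dn q → ℝ) × E) :=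
  {p | (∀ i, 0 ≤ p.1 i) ∧ ∑ i, p.1 i ≤ 1 ∧ (∀ i ∉ c, p.1 i = 0) ∧
    ∃ t ∈ C.cell q, (∀ i ∈ c, t ∈ C.cell i) ∧ p.2 = (1 - ∑ i, p.1 i) • t}

lemma ZZ_eq (C : CC Λ Q) (q : Q) : ZZ C q =
    ⋃ c ∈ {c : Set (C.dn q) | ∀ i ∈ c, ∀ j ∈ c, (i : Q) ≤ j ∨ (j : Q) ≤ i}, ZP C q c := by
  ext p
  simp only [ZZ, ZP, mem_setOf_eq, mem_iUnion, exists_prop]
  constructor
  · rintro ⟨h1, h2, h3, t, h4, h5, h6⟩
    exact ⟨{i | p.1 i ≠ 0}, fun i hi j hj => h3 i j hi hj, h1, h2,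
      fun i hi => by simpa using hi, t, h4, h5, h6⟩
  · rintro ⟨c, hc, h1, h2, h3, t, h4, h5, h6⟩
    have hin : ∀ i, p.1 i ≠ 0 → i ∈ c := fun i hi => by
      by_contra h; exact hi (h3 i h)
    exact ⟨h1, h2, fun i j hi hj => hc i (hin i hi) j (hin j hj), t, h4,
      fun i hi => h5 i (hin i hi), h6⟩

lemma ZP_convex (C : CC Λ Q) (q : Q) (c : Set (C.dn q)) : Convex ℝ (ZP C q c) := by
  rintro p ⟨h1, h2, h3, t, h4, h5, h6⟩ p' ⟨h1', h2', h3', t', h4', h5', h6'⟩ a b ha hb hab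
  have hsum : ∑ i, (a • p + b • p').1 i = a * ∑ i, p.1 i + b * ∑ i, p'.1 i := by
    simp only [Prod.fst_add, Prod.smul_fst, Pi.add_apply, Pi.smul_apply, smul_eq_mul]
    rw [Finset.sum_add_distrib, ← Finset.mul_sum, ← Finset.mul_sum]
  set S := ∑ i, p.1 i with hS
  set S' := ∑ i, p'.1 i with hS'
  refine ⟨fun i => ?_, ?_, fun i hi => ?_, ?_⟩
  · simp only [Prod.fst_add, Prod.smul_fst, Pi.add_apply, Pi.smul_apply, smul_eq_mul]
    have := h1 i; have := h1' i; positivity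
  · rw [hsum]; nlinarith
  · simp [h3 i hi, h3' i hi]
  · rw [hsum]
    have h7 : (a • p + b • p').2 = (a * (1 - S)) • t + (b * (1 - S')) • t' := by
      rw [Prod.snd_add, Prod.smul_snd, Prod.smul_snd, h6, h6', smul_smul, smul_smul]
    have k1 : 0 ≤ a * (1 - S) := mul_nonneg ha (by linarith)
    have k2 : 0 ≤ b * (1 - S') := mul_nonneg hb (by linarith)
    obtain ⟨D, hD⟩ : ∃ D, D = a * (1 - S) + b * (1 - S') := ⟨_, rfl⟩
    have hDe : 1 - (a * S + b * S') = D := by rw [hD]; linear_combination -hab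
    have hD0 : 0 ≤ D := by rw [hD]; exact add_nonneg k1 k2
    rcases hD0.eq_or_lt with h0 | h0
    · have e1 : a * (1 - S) = 0 := by linarith
      have e2 : b * (1 - S') = 0 := by linarith
      exact ⟨t, h4, h5, by rw [h7, hDe, e1, e2, ← h0]; simp⟩
    · have e1 : D * (a * (1 - S) / D) = a * (1 - S) := by field_simp
      have e2 : D * (b * (1 - S') / D) = b * (1 - S') := by field_simp
      have e3 : a * (1 - S) / D + b * (1 - S') / D = 1 := by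
        rw [← add_div, ← hD, div_self h0.ne']
      refine ⟨(a * (1 - S) / D) • t + (b * (1 - S') / D) • t', ?_, ?_, ?_⟩
      · exact C.conv q h4 h4' (by positivity) (by positivity) e3
      · intro i hi
        exact C.conv i (h5 i hi) (h5' i hi) (by positivity) (by positivity) e3
      · rw [h7, hDe, smul_add, smul_smul, smul_smul, e1, e2]

lemma ZP_compact (C : CC Λ Q) (q : Q) (c : Set (C.dn q)) : IsCompact (ZP C q c) := by
  set U : Set (C.dn q → ℝ) := {u | (∀ i, 0 ≤ u i) ∧ ∑ i, u i ≤ 1 ∧ ∀ i ∉ c, u i = 0} with hU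
  set T : Set E := C.cell q ∩ ⋂ i ∈ c, C.cell (i : Q) with hT
  have hUc : IsCompact U := by
    have hcl : IsClosed U := by
      refine IsClosed.inter ?_ (IsClosed.inter ?_ ?_)
      · have : {u : C.dn q → ℝ | ∀ i, 0 ≤ u i} = ⋂ i, {u | 0 ≤ u i} := by ext; simp
        show IsClosed {u : C.dn q → ℝ | ∀ i, 0 ≤ u i}
        rw [this]
        exact isClosed_iInter (fun i => isClosed_le continuous_const (continuous_apply i))
      · exact isClosed_le (continuous_finset_sum _ (fun i _ => continuous_apply i))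
          continuous_const
      · have : {u : C.dn q → ℝ | ∀ i ∉ c, u i = 0} = ⋂ i ∈ cᶜ, {u | u i = 0} := by ext; simp
        show IsClosed {u : C.dn q → ℝ | ∀ i ∉ c, u i = 0}
        rw [this]
        exact isClosed_biInter (fun i _ => isClosed_eq (continuous_apply i) continuous_const)
    refine (isCompact_Icc (a := (0 : C.dn q → ℝ)) (b := 1)).of_isClosed_subset hcl ?_
    rintro u ⟨h1, h2, -⟩
    refine ⟨fun i => h1 i, fun i => ?_⟩
    exact (Finset.single_le_sum (fun j _ => h1 j) (Finset.mem_univ i)).trans h2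
  have hTc : IsCompact T := by
    refine (C.cpt q).inter_right ?_
    exact isClosed_biInter (fun i _ => (C.cpt i).isClosed)
  have h1 : ZP C q c = (fun p : (C.dn q → ℝ) × E => (p.1, (1 - ∑ i, p.1 i) • p.2)) '' (U ×ˢ T) := by
    ext p
    constructor
    · rintro ⟨h1, h2, h3, t, h4, h5, h6⟩
      exact ⟨(p.1, t), ⟨⟨h1, h2, h3⟩, h4, mem_iInter₂.2 h5⟩, by simp only [← h6]⟩
    · rintro ⟨⟨u, t⟩, ⟨⟨h1, h2, h3⟩, h4, h5⟩, rfl⟩
      exact ⟨h1, h2, h3, t, h4, mem_iInter₂.1 h5, rfl⟩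
  rw [h1]
  refine (hUc.prod hTc).image ?_
  fun_prop

lemma ZZ_finConv (C : CC Λ Q) (q : Q) : Cx_609.FinConv (ZZ C q) := by
  rw [ZZ_eq]
  exact Cx_609.FinConv.biUnion (Set.toFinite _) (fun c _ => (ZP_convex C q c).finConv)

lemma ZZ_closed (C : CC Λ Q) (q : Q) : IsClosed (ZZ C q) := by
  rw [ZZ_eq]
  exact (Set.toFinite _).isClosed_biUnion (fun c _ => (ZP_compact C q c).isClosed)

/-- the homogeneous states come from states -/
lemma mem_ZZ_iff (C : CC Λ Q) (q : Q) {p : (C.dn q → ℝ) × E} : p ∈ ZZ C q ↔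
    ∃ κ ∈ Icc (0 : ℝ) 1, ∃ l t, St C 1 q l t ∧ p = (fun i : C.dn q => κ * l i, (1 - κ) • t) := by
  classical
  constructor
  · rintro ⟨h1, h2, h3, t, h4, h5, h6⟩
    set S := ∑ i, p.1 i with hS
    have hS0 : 0 ≤ S := Finset.sum_nonneg (fun i _ => h1 i)
    refine ⟨S, ⟨hS0, h2⟩, ?_⟩
    rcases hS0.eq_or_lt with h0 | h0
    · refine ⟨Finsupp.single q 1, t, St.single one_pos h4, ?_⟩
      refine Prod.ext (funext fun i => ?_) (by rw [h6])
      have : p.1 i = 0 := (Finset.sum_eq_zero_iff_of_nonneg (fun j _ => h1 j)).1 h0.symm i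
        (Finset.mem_univ i)
      rw [this, ← h0]; simp
    · set x : C.dn q → ℝ := fun i => S⁻¹ * p.1 i with hx
      have hne : ∀ i, x i ≠ 0 → p.1 i ≠ 0 := fun i hi h => hi (by rw [hx]; simp [h])
      have hxX : x ∈ XX (C.dn q) := by
        refine ⟨fun i => mul_nonneg (inv_nonneg.2 hS0) (h1 i), ?_, fun i j hi hj =>
          h3 i j (hne i hi) (hne j hj)⟩
        rw [← Finset.mul_sum, ← hS, inv_mul_cancel₀ h0.ne']
      have hw := toF_wt hxX
      refine ⟨toF _ x, t, ⟨hw.nn, hw.sum, hw.chain, fun ρ hρ => C.mem_dn.1 (toF_supp x hρ),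
        fun ρ hρ => ?_⟩, ?_⟩
      · have h7 := toF_supp x hρ
        have h8 : toF _ x ρ = x ⟨ρ, h7⟩ := toF_apply x ⟨ρ, h7⟩
        exact h5 ⟨ρ, h7⟩ (hne _ (by rw [← h8]; exact Finsupp.mem_support_iff.1 hρ))
      · refine Prod.ext (funext fun i => ?_) (by rw [h6])
        show p.1 i = S * toF _ x i
        rw [toF_apply x i, hx]
        field_simp
  · rintro ⟨κ, ⟨hκ0, hκ1⟩, l, t, hst, rfl⟩
    have hsub : l.support ⊆ C.dn q := fun ρ hρ => C.mem_dn.2 (hst.le ρ hρ)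
    have hsum : ∑ i : C.dn q, κ * l i = κ := by
      rw [← Finset.mul_sum, Finset.sum_coe_sort (C.dn q) (fun ρ => l ρ),
        ← sum_support_eq hsub (fun ρ => l ρ) (fun q hq => hq), hst.sum, mul_one]
    have hin : ∀ i : C.dn q, κ * l i ≠ 0 → (i : Q) ∈ l.support := fun i hi =>
      Finsupp.mem_support_iff.2 (fun h => hi (by rw [h, mul_zero]))
    refine ⟨fun i => mul_nonneg hκ0 (hst.nn i), ?_, fun i j hi hj => hst.chain _ (hin i hi) _
      (hin j hj), t, ?_, fun i hi => hst.mem _ (hin i hi), ?_⟩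
    · show ∑ i : C.dn q, κ * l i ≤ 1
      rw [hsum]; exact hκ1
    · obtain ⟨p, hp, hpq, -⟩ := hst.exists_top one_pos
      exact C.mono_le hpq (hst.mem p hp)
    · show (1 - κ) • t = (1 - ∑ i : C.dn q, κ * l i) • t
      rw [hsum]

/-- the map -/
noncomputable def jf (C : CC Λ Q) (q : Q) (p : (C.dn q → ℝ) × E) : ℝ × E :=
  (∑ i, p.1 i, p.2 + ∑ i, p.1 i • C.b i)

open Classical in
/-- its inverse -/
noncomputable def jr (C : CC Λ Q) (q : Q) (p : ℝ × E) : (C.dn q → ℝ) × E :=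
  if p.1 = 0 then (0, p.2) else if p.1 = 1 then (fun i => bc C p.2 i, 0) else
    (fun i => p.1 * sl C p.1 p.2 i, (1 - p.1) • st C p.1 p.2)

lemma jf_st (C : CC Λ Q) {q : Q} {κ : ℝ} {l : Q →₀ ℝ} {t : E} (hst : St C 1 q l t) :
    jf C q (fun i : C.dn q => κ * l i, (1 - κ) • t) = (κ, pk C κ l t) := by
  have hsub : l.support ⊆ C.dn q := fun ρ hρ => C.mem_dn.2 (hst.le ρ hρ)
  refine Prod.ext ?_ ?_
  · show ∑ i : C.dn q, κ * l i = κ
    rw [← Finset.mul_sum, Finset.sum_coe_sort (C.dn q) (fun ρ => l ρ),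
      ← sum_support_eq hsub (fun ρ => l ρ) (fun q hq => hq), hst.sum, mul_one]
  · show (1 - κ) • t + ∑ i : C.dn q, (κ * l i) • C.b i = pk C κ l t
    unfold pk bs
    congr 1
    rw [sum_support_eq hsub (fun ρ => l ρ • C.b ρ) (fun q hq => by rw [hq, zero_smul]),
      ← Finset.sum_coe_sort (C.dn q) (fun ρ => l ρ • C.b ρ), Finset.smul_sum]
    exact Finset.sum_congr rfl (fun i _ => by rw [smul_smul])

lemma jr_st (C : CC Λ Q) {q : Q} {κ : ℝ} (hκ : κ ∈ Icc (0 : ℝ) 1) {l : Q →₀ ℝ} {t : E}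
    (hst : St C 1 q l t) :
    jr C q (κ, pk C κ l t) = (fun i : C.dn q => κ * l i, (1 - κ) • t) := by
  unfold jr
  by_cases h0 : κ = 0
  · subst h0
    simp only [if_true]
    refine Prod.ext (funext fun i => by simp) ?_
    simp [pk]
  · by_cases h1 : κ = 1
    · subst h1
      simp only [one_ne_zero, if_false, if_true]
      refine Prod.ext (funext fun i => ?_) (by simp)
      show bc C (pk C 1 l t) i = 1 * l i
      have : pk C 1 l t = bs C.b l := by simp [pk]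
      rw [this, bc_bs C hst.wt, one_mul]
    · simp only [h0, h1, if_false]
      have hκ' : 0 < κ ∧ κ < 1 := ⟨lt_of_le_of_ne hκ.1 (Ne.symm h0), lt_of_le_of_ne hκ.2 h1⟩
      obtain ⟨e1, e2⟩ := sl_st_pk C hκ' hst.state
      rw [e1, e2]

lemma jf_image (C : CC Λ Q) (q : Q) : jf C q '' ZZ C q = Icc (0 : ℝ) 1 ×ˢ C.cell q := by
  ext ⟨κ, y⟩
  constructor
  · rintro ⟨p, hp, he⟩
    obtain ⟨κ', hκ', l, t, hst, rfl⟩ := (mem_ZZ_iff C q).1 hp
    rw [jf_st C hst, Prod.mk.injEq] at he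
    obtain ⟨rfl, rfl⟩ := he
    refine ⟨hκ', ?_⟩
    show pk C κ' l t ∈ C.cell q
    obtain ⟨p, hp, hpq, -⟩ := hst.exists_top one_pos
    have ht : t ∈ C.cell q := C.mono_le hpq (hst.mem p hp)
    have hb : bs C.b l ∈ C.cell q := bs_mem C hst.wt hst.le
    unfold pk
    exact C.conv q ht hb (by linarith [hκ'.2]) hκ'.1 (by ring)
  · rintro ⟨hκ, hy⟩
    have hκ : κ ∈ Icc (0 : ℝ) 1 := hκ
    have hy : y ∈ C.cell q := hy
    have key : ∃ l t, St C 1 q l t ∧ pk C κ l t = y := by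
      by_cases h0 : κ = 0
      · exact ⟨Finsupp.single q 1, y, St.single one_pos hy, by simp [pk, h0]⟩
      · by_cases h1 : κ = 1
        · obtain ⟨l, t, hst, he⟩ := (bary C q one_pos).1 y hy
          exact ⟨l, t, hst, by simp [pk, h1, he]⟩
        · exact pk_surj C ⟨lt_of_le_of_ne hκ.1 (Ne.symm h0), lt_of_le_of_ne hκ.2 h1⟩ hy
    obtain ⟨l, t, hst, he⟩ := key
    exact ⟨_, (mem_ZZ_iff C q).2 ⟨κ, hκ, l, t, hst, rfl⟩, by rw [jf_st C hst, he]⟩

/-- **joint piecewise linearity of the states** -/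
theorem plOn_jr [FiniteDimensional ℝ E] (C : CC Λ Q) (q : Q) :
    PLOn (jr C q) (Icc (0 : ℝ) 1 ×ˢ C.cell q) := by
  have hf : Cx_609.PLOn (ZZ C q) (jf C q) := by
    rw [Cx_609.plOn_iff]
    have h1 : ∀ i : C.dn q, PLOn (fun p : (C.dn q → ℝ) × E => p.1 i) (ZZ C q) := fun i =>
      pl_apply (pl_fst (Ce_537.plOn_id _)) i
    refine pl_pair (pl_sum _ (fun i _ => h1 i)) (pl_add (pl_snd (Ce_537.plOn_id _))
      (pl_sum _ (fun i _ => ?_)))
    exact pl_clm (h1 i) ((ContinuousLinearMap.id ℝ ℝ).smulRight (C.b i))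
  have hr : LeftInvOn (jr C q) (jf C q) (ZZ C q) := by
    intro p hp
    obtain ⟨κ, hκ, l, t, hst, rfl⟩ := (mem_ZZ_iff C q).1 hp
    rw [jf_st C hst, jr_st C hκ hst]
  have h1 := (hf.inv_closed (ZZ_finConv C q) (ZZ_closed C q) hr).2
  rwa [jf_image, Cx_609.plOn_iff] at h1

lemma jr_eq (C : CC Λ Q) (q : Q) {κ : ℝ} (hκ : 0 < κ ∧ κ < 1) (y : E) :
    jr C q (κ, y) = (fun i : C.dn q => κ * sl C κ y i, (1 - κ) • st C κ y) := by
  unfold jr
  simp only [hκ.1.ne', hκ.2.ne, if_false]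

/-- PL for one parameter -/
lemma plOn_jr_fix [FiniteDimensional ℝ E] (C : CC Λ Q) (q : Q) {κ : ℝ} (hκ : 0 < κ ∧ κ < 1) :
    PLOn (fun y => jr C q (κ, y)) (C.cell q) :=
  (plOn_jr C q).comp (pl_pair (Ce_537.plOn_const κ _) (Ce_537.plOn_id _))
    (fun y hy => ⟨⟨hκ.1.le, hκ.2.le⟩, hy⟩)

/-- **`y ↦ l(ρ)` is PL** -/
theorem plOn_sl [FiniteDimensional ℝ E] (C : CC Λ Q) {κ : ℝ} (hκ : 0 < κ ∧ κ < 1) (q ρ : Q) :
    PLOn (fun y => sl C κ y ρ) (C.cell q) := by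
  by_cases hρ : ρ ≤ q
  · have h1 := pl_mul κ⁻¹ (pl_apply (pl_fst (plOn_jr_fix C q hκ)) ⟨ρ, C.mem_dn.2 hρ⟩)
    refine h1.congr (fun y hy => ?_)
    beta_reduce
    rw [jr_eq C q hκ y]
    show sl C κ y ρ = κ⁻¹ * (κ * sl C κ y ρ)
    rw [inv_mul_cancel_left₀ hκ.1.ne']
  · refine (Ce_537.plOn_const (0 : ℝ) (C.cell q)).congr (fun y hy => ?_)
    obtain ⟨h1, h2, h3⟩ := st_spec C hκ hy
    exact Finsupp.notMem_support_iff.1 (fun h => hρ (h3 ρ h))

/-- **`y ↦ t` is PL** -/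
theorem plOn_st [FiniteDimensional ℝ E] (C : CC Λ Q) {κ : ℝ} (hκ : 0 < κ ∧ κ < 1) (q : Q) :
    PLOn (st C κ) (C.cell q) := by
  have h1 := pl_smul (1 - κ)⁻¹ (pl_snd (plOn_jr_fix C q hκ))
  refine h1.congr (fun y hy => ?_)
  beta_reduce
  rw [jr_eq C q hκ y]
  show st C κ y = (1 - κ)⁻¹ • ((1 - κ) • st C κ y)
  rw [smul_smul, inv_mul_cancel₀ (by linarith [hκ.2]), one_smul]

/-- **uniform Lipschitz constant** for `κ ≤ 1/2` -/
theorem lip_st [FiniteDimensional ℝ E] (C : CC Λ Q) (q : Q) :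
    ∃ L : ℝ≥0, ∀ κ : ℝ, 0 < κ → κ ≤ 1 / 2 → LipschitzOnWith L (st C κ) (C.cell q) := by
  classical
  obtain ⟨hc, S, hS⟩ := plOn_jr C q
  obtain ⟨L, hL⟩ := lip_sel S
  have h1 : LipschitzOnWith L (jr C q) (Icc (0 : ℝ) 1 ×ˢ C.cell q) :=
    hL _ _ ((convex_Icc 0 1).prod (C.conv q)) hc hS
  refine ⟨2 * L, fun κ h0 h2 => LipschitzOnWith.of_dist_le_mul fun y hy z hz => ?_⟩
  have hκ : 0 < κ ∧ κ < 1 := ⟨h0, by linarith⟩
  have h3 := h1.dist_le_mul (κ, y) ⟨⟨h0.le, by linarith⟩, hy⟩ (κ, z) ⟨⟨h0.le, by linarith⟩, hz⟩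
  rw [jr_eq C q hκ, jr_eq C q hκ] at h3
  have h4 : dist (κ, y) (κ, z) = dist y z := by
    rw [Prod.dist_eq]; simp
  rw [h4] at h3
  have h5 : dist ((1 - κ) • st C κ y) ((1 - κ) • st C κ z) ≤ L * dist y z := by
    refine le_trans ?_ h3
    rw [Prod.dist_eq]
    exact le_max_right _ _
  rw [dist_smul₀, Real.norm_eq_abs, abs_of_pos (by linarith : (0 : ℝ) < 1 - κ)] at h5
  have h6 : 0 ≤ dist (st C κ y) (st C κ z) := dist_nonneg
  push_cast
  nlinarith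

/-- `t` is close to `y` -/
lemma dist_st (C : CC Λ Q) {κ : ℝ} (hκ : 0 < κ ∧ κ < 1) {q : Q} {y : E} (hy : y ∈ C.cell q) :
    ‖st C κ y - y‖ ≤ κ * Metric.diam (C.cell q) := by
  obtain ⟨h1, h2, h3⟩ := st_spec C hκ hy
  have h4 : st C κ y - y = κ • (st C κ y - bs C.b (sl C κ y)) := by
    have h6 : st C κ y - ((1 - κ) • st C κ y + κ • bs C.b (sl C κ y)) =
        κ • (st C κ y - bs C.b (sl C κ y)) := by module
    rw [← h6]
    exact congrArg (fun z => st C κ y - z) h2.symm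
  have h5 : bs C.b (sl C κ y) ∈ C.cell q := bs_mem C h1.wt h3
  rw [h4, norm_smul, Real.norm_eq_abs, abs_of_pos hκ.1, ← dist_eq_norm]
  exact mul_le_mul_of_nonneg_left (Metric.dist_le_diam_of_mem (C.cpt q).isBounded
    (st_mem C hκ hy) h5) hκ.1.le

end Joint

end Crest.Agent.R096.Xp_537
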