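import Crest.Agent.R096.Xq8_537
import Crest.Agent.R096.Bin3_181
import Crest.Agent.R096.Kb2_337
import Crest.Agent.R096.Bd18_416

/-!
# R096 (row 96), type R cores, part 1 (helper537)

Calculus of equal band structures (`EqAt`): merging, iterated squeezes, the collar `sqI` (helper337),
pull backs and splittings (helper181), the band structure `gdT` of the exact core.
-/

set_option autoImplicit false
set_option linter.unusedSectionVars false
set_option linter.unusedVariables false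
set_option linter.deprecated false

open Set Topology

namespace Crest.Agent.R096.Xr_537

open Crest.Agent.R096.Ce_537 (PLOn PLEquiv)
open Crest.Agent.R096.Bd_416
open Crest.Agent.R096.Grd_714
open Crest.Agent.R096.Kb_337
open Crest.Agent.R096.Bin_181
open Crest.Agent.R096.Xp_537

variable {E E' : Type*} [NormedAddCommGroup E] [NormedSpace ℝ E]
  [NormedAddCommGroup E'] [NormedSpace ℝ E'] {κ J : Type*}

lemma EqAt.refl (g : Gd E κ) (z : E) : EqAt g g z :=
  ⟨fun _ => rfl, fun _ => Iff.rfl, fun _ _ => rfl, fun _ _ _ _ => rfl⟩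

/-! ### merging -/

section merge

variable {φ : J → κ} {hf : ∀ a, {j | φ j = a}.Finite} {g g' : Gd E J} {z : E}

lemma choose_congr {p p' : J → Prop} (e : p = p') (h : ∃ j, p j) (h' : ∃ j, p' j) :
    h.choose = h'.choose := by subst e; rfl

open scoped Classical in
/-- merging respects equality -/
lemma EqAt.merge (h : EqAt g g' z) : EqAt (g.merge φ hf) (g'.merge φ hf) z := by
  have hp : ∀ a, (fun j => φ j = a ∧ z ∈ g'.B j) = (fun j => φ j = a ∧ z ∈ g.B j) := by
    intro a; funext j; rw [h.B j]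
  refine ⟨fun a => ?_, fun a => ?_, fun a hB => ?_, fun a hB s hs => ?_⟩
  · exact Finset.sum_congr rfl fun j _ => h.G j
  · constructor
    · rintro ⟨j, e, hj⟩; exact ⟨j, e, (h.B j).1 hj⟩
    · rintro ⟨j, e, hj⟩; exact ⟨j, e, (h.B j).2 hj⟩
  · have h1 : ∃ j, φ j = a ∧ z ∈ g.B j := hB
    have h2 : ∃ j, φ j = a ∧ z ∈ g'.B j := by rw [show (∃ j, φ j = a ∧ z ∈ g'.B j) =
      (∃ j, φ j = a ∧ z ∈ g.B j) from congrArg _ (hp a)]; exact h1
    show (if h : ∃ j, φ j = a ∧ z ∈ g'.B j then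
      (∑ j ∈ (hf a).toFinset, g'.G j z) - g'.G h.choose z + g'.lev h.choose z else 0) =
      (if h : ∃ j, φ j = a ∧ z ∈ g.B j then
      (∑ j ∈ (hf a).toFinset, g.G j z) - g.G h.choose z + g.lev h.choose z else 0)
    rw [dif_pos h1, dif_pos h2, choose_congr (hp a) h2 h1, h.G, h.lev _ h1.choose_spec.2]
    rw [Finset.sum_congr rfl fun j _ => h.G j]
  · have h1 : ∃ j, φ j = a ∧ z ∈ g.B j := hB
    have h2 : ∃ j, φ j = a ∧ z ∈ g'.B j := by rw [show (∃ j, φ j = a ∧ z ∈ g'.B j) =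
      (∃ j, φ j = a ∧ z ∈ g.B j) from congrArg _ (hp a)]; exact h1
    show (if h : ∃ j, φ j = a ∧ z ∈ g'.B j then g'.tr h.choose (z, s) else z) =
      (if h : ∃ j, φ j = a ∧ z ∈ g.B j then g.tr h.choose (z, s) else z)
    rw [dif_pos h1, dif_pos h2, choose_congr (hp a) h2 h1, h.tr _ h1.choose_spec.2 s hs]

/-- merging commutes with squeezing -/
theorem merge_sq_at (dj : ∀ j j', j ≠ j' → φ j = φ j' → z ∈ g.B j → z ∉ g.B j') (b : ℝ) :
    EqAt ((g.merge φ hf).sq b) ((g.sq b).merge φ hf) z := by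
  have dj' : ∀ j j', j ≠ j' → φ j = φ j' → z ∈ (g.sq b).B j → z ∉ (g.sq b).B j' :=
    fun j j' hne hj hB hB' => dj j j' hne hj hB.1 hB'.1
  have e0 : ∀ j : J, z ∈ g.B j →
      (g.merge φ hf).G (φ j) z - (g.merge φ hf).lev (φ j) z - 1/2
        = g.G j z - g.lev j z - 1/2 := by
    intro j hB
    rw [merge_lev dj hB]; ring
  have sumsq : ∀ j : J, z ∈ g.B j → ((g.sq b).merge φ hf).G (φ j) z
      = (g.merge φ hf).G (φ j) z - g.G j z + (g.sq b).G j z := by
    intro j hB
    have hj : j ∈ (hf (φ j)).toFinset := by rw [Set.Finite.mem_toFinset]; rfl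
    show ∑ i ∈ (hf (φ j)).toFinset, (g.sq b).G i z
      = ∑ i ∈ (hf (φ j)).toFinset, g.G i z - _ + _
    classical
    rw [← Finset.add_sum_erase _ _ hj, ← Finset.add_sum_erase _ _ hj]
    have : ∑ i ∈ (hf (φ j)).toFinset.erase j, (g.sq b).G i z
        = ∑ i ∈ (hf (φ j)).toFinset.erase j, g.G i z := by
      refine Finset.sum_congr rfl fun i hi => ?_
      have h2 := Finset.mem_of_mem_erase hi
      rw [Set.Finite.mem_toFinset] at h2
      have h3 : φ i = φ j := h2
      exact Gd.sq_G_notMem (dj j i (Ne.symm (Finset.ne_of_mem_erase hi)) h3.symm hB)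
    rw [this]; ring
  refine ⟨fun a => ?_, fun a => ?_, fun a hB => ?_, fun a hB s hs => ?_⟩
  · by_cases h : z ∈ (g.merge φ hf).B a
    · obtain ⟨j, rfl, hB⟩ := h
      rw [Gd.sq_G_mem (show z ∈ (g.merge φ hf).B (φ j) from ⟨j, rfl, hB⟩), sumsq j hB,
        Gd.sq_G_mem hB, e0 j hB, merge_lev dj hB]
      ring
    · rw [Gd.sq_G_notMem h]
      refine Finset.sum_congr rfl fun i hi => ?_
      rw [Set.Finite.mem_toFinset] at hi
      exact Gd.sq_G_notMem fun hB => h ⟨i, hi, hB⟩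
  · constructor
    · rintro ⟨j, rfl, hB⟩
      exact ⟨⟨j, rfl, hB.1⟩, by rw [e0 j hB.1]; exact hB.2⟩
    · rintro ⟨⟨j, rfl, hB⟩, hb⟩
      exact ⟨j, rfl, hB, by rw [← e0 j hB]; exact hb⟩
  · obtain ⟨⟨j, rfl, hB⟩, hb⟩ := hB
    have hB2 : z ∈ (g.sq b).B j := ⟨hB, by rw [← e0 j hB]; exact hb⟩
    rw [merge_lev dj' hB2]
    show _ = (g.merge φ hf).lev (φ j) z
    rw [merge_lev dj hB, sumsq j hB]
    show _ - (g.sq b).G j z + g.lev j z = _
    ring
  · obtain ⟨⟨j, rfl, hB⟩, hb⟩ := hB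
    have hB2 : z ∈ (g.sq b).B j := ⟨hB, by rw [← e0 j hB]; exact hb⟩
    rw [merge_tr dj' hB2]
    show g.tr j (z, 2 * b * s) = (g.merge φ hf).tr (φ j) (z, 2 * b * s)
    rw [merge_tr dj hB]

lemma sqs_B {g : Gd E κ} {b : ℕ → ℝ} {a : κ} {z : E} : ∀ n, z ∈ (sqs g b n).B a → z ∈ g.B a := by
  intro n
  induction n with
  | zero => exact id
  | succ n ih => exact fun h => ih h.1

/-- merging commutes with iterated squeezing -/
theorem merge_sqs (dj : ∀ j j', j ≠ j' → φ j = φ j' → z ∈ g.B j → z ∉ g.B j') {b : ℕ → ℝ}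
    (hb0 : ∀ n, 0 < b n) (hb2 : ∀ n, b n < 1/2) :
    ∀ n, EqAt (sqs (g.merge φ hf) b n) ((sqs g b n).merge φ hf) z := by
  intro n
  induction n with
  | zero => exact EqAt.refl _ _
  | succ n ih =>
    exact (ih.sq (hb0 n) (hb2 n)).trans (merge_sq_at (fun j j' hne hj h h' =>
      dj j j' hne hj (sqs_B n h) (sqs_B n h')) _)

end merge

/-! ### iterated squeeze = one squeeze -/

/-- two squeezes are one squeeze -/
theorem sq_sq (g : Gd E κ) {b b' : ℝ} (h0 : 0 < b) (h2 : b < 1/2) (h0' : 0 < b')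
    (h2' : b' < 1/2) (z : E) : EqAt (g.sq (2 * b * b')) ((g.sq b).sq b') z := by
  have hbb : 2 * b * b' < b := by nlinarith
  have key : ∀ t : ℝ, |cl (t / (2 * b))| ≤ b' ↔ |t| ≤ 2 * b * b' := by
    intro t
    rw [abs_cl_le_iff h0' h2', abs_div, abs_of_pos (by linarith : (0:ℝ) < 2 * b),
      div_le_iff₀ (by linarith), mul_comm b' (2 * b)]
  have hB : ∀ a, z ∈ ((g.sq b).sq b').B a ↔ z ∈ (g.sq (2 * b * b')).B a := by
    intro a
    constructor
    · rintro ⟨⟨h, h3⟩, h4⟩
      rw [Gd.sq_G_mem h] at h4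
      have e : g.lev a z + 1/2 + cl ((g.G a z - g.lev a z - 1/2) / (2 * b)) -
        (g.sq b).lev a z - 1/2 = cl ((g.G a z - g.lev a z - 1/2) / (2 * b)) := by
        show g.lev a z + 1/2 + cl ((g.G a z - g.lev a z - 1/2) / (2 * b)) - g.lev a z - 1/2 = _
        ring
      rw [e, key] at h4
      exact ⟨h, h4⟩
    · rintro ⟨h, h4⟩
      refine ⟨⟨h, h4.trans hbb.le⟩, ?_⟩
      rw [Gd.sq_G_mem h]
      have e : g.lev a z + 1/2 + cl ((g.G a z - g.lev a z - 1/2) / (2 * b)) -
        (g.sq b).lev a z - 1/2 = cl ((g.G a z - g.lev a z - 1/2) / (2 * b)) := by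
        show g.lev a z + 1/2 + cl ((g.G a z - g.lev a z - 1/2) / (2 * b)) - g.lev a z - 1/2 = _
        ring
      rw [e, key]; exact h4
  refine ⟨fun a => ?_, hB, fun a _ => rfl, fun a _ s hs => ?_⟩
  · by_cases h : z ∈ g.B a
    · rw [Gd.sq_G_mem h]
      have h4 : 2 * (2 * b * b') = 2 * b * (2 * b') := by ring
      by_cases h3 : z ∈ (g.sq b).B a
      · rw [Gd.sq_G_mem h3, Gd.sq_G_mem h]
        have e : g.lev a z + 1/2 + cl ((g.G a z - g.lev a z - 1/2) / (2 * b)) -
          (g.sq b).lev a z - 1/2 = cl ((g.G a z - g.lev a z - 1/2) / (2 * b)) := by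
          show g.lev a z + 1/2 + cl ((g.G a z - g.lev a z - 1/2) / (2 * b)) - g.lev a z - 1/2 = _
          ring
        rw [e, cl_cl h0' h2', div_div, h4]
        rfl
      · rw [Gd.sq_G_notMem h3, Gd.sq_G_mem h]
        have h5 : b < |g.G a z - g.lev a z - 1/2| := by
          by_contra hc
          exact h3 ⟨h, not_lt.1 hc⟩
        set t := g.G a z - g.lev a z - 1/2 with ht
        have h6 : cl (t / (2 * b)) = cl (t / (2 * (2 * b * b'))) := by
          have hp : 0 < 2 * (2 * b * b') := by positivity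
          rcases lt_abs.1 h5 with h7 | h7
          · rw [cl_of_ge, cl_of_ge]
            · rw [le_div_iff₀ hp]; nlinarith
            · rw [le_div_iff₀ (by linarith)]; linarith
          · rw [cl_of_le, cl_of_le]
            · rw [div_le_iff₀ hp]; nlinarith
            · rw [div_le_iff₀ (by linarith)]; linarith
        rw [h6]
    · rw [Gd.sq_G_notMem h, Gd.sq_G_notMem (fun h3 : z ∈ (g.sq b).B a => h h3.1),
        Gd.sq_G_notMem h]
  · show g.tr a (z, 2 * b * (2 * b' * s)) = g.tr a (z, 2 * (2 * b * b') * s)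
    congr 2; ring

/-- **iterated squeeze = one squeeze** with half the factor -/
theorem sqs_eq (g : Gd E κ) {b : ℕ → ℝ} (hb0 : ∀ n, 0 < b n) (hb2 : ∀ n, b n < 1/2) (z : E) :
    ∀ n, EqAt (g.sq (bet b (n + 1) / 2)) (sqs g b (n + 1)) z := by
  intro n
  induction n with
  | zero =>
    have : bet b (0 + 1) / 2 = b 0 := by rw [bet_succ, bet_zero]; ring
    rw [this]; exact EqAt.refl _ _
  | succ n ih =>
    have h1 := bet_pos hb0 (n + 1)
    have h2 : bet b (n + 1) / 2 < 1/2 := by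
      have h3 := bet_le hb0 hb2 n
      have h4 := hb2 n
      have h5 := hb0 n
      have h6 := bet_pos hb0 n
      rw [bet_succ]
      nlinarith
    have h3 : bet b (n + 1 + 1) / 2 = 2 * (bet b (n + 1) / 2) * b (n + 1) := by
      rw [bet_succ b (n + 1)]; ring
    rw [h3]
    exact (sq_sq g (by linarith) h2 (hb0 _) (hb2 _) z).trans (ih.sq (hb0 _) (hb2 _))

end Crest.Agent.R096.Xr_537
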