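import Crest.Agent.R096.Xr1_537

/-!
# R096 (row 96), type R cores, part 2 (helper537)

* `sum_cl`: `Σ_{k<m} (1/2 + cl (t - k - 1/2)) = min t m`.
* `merge_spl`: merging the sheets of a split family structure gives back the structure.
* `gdT_core`: the band structure of the exact core is 181's `ek`, pulled back.
* `pulg_congr`, `sqI_congr`, the ends of the collar.
* `sqI_G2`, `cols_sqI`: levels of the collar.
-/

set_option autoImplicit false
set_option linter.unusedSectionVars false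
set_option linter.unusedVariables false
set_option linter.deprecated false

open Set Topology

namespace Crest.Agent.R096.Xr_537

open Crest.Agent.R096.Ce_537 (PLOn PLEquiv)
open Crest.Agent.R096.Bd_416
open Crest.Agent.R096.Grd_714
open Crest.Agent.R096.Kb_337
open Crest.Agent.R096.Bin_181
open Crest.Agent.R096.Xp_537

variable {E E' : Type*} [NormedAddCommGroup E] [NormedSpace ℝ E]
  [NormedAddCommGroup E'] [NormedSpace ℝ E']

/-! ### splitting and merging -/

section split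

lemma sum_cl {t : ℝ} (ht : 0 ≤ t) : ∀ m : ℕ,
    ∑ k ∈ Finset.range m, (1/2 + cl (t - k - 1/2)) = min t m := by
  intro m
  induction m with
  | zero => simp [ht]
  | succ m ih =>
    rw [Finset.sum_range_succ, ih]
    push_cast
    rcases le_total t m with h | h
    · rw [min_eq_left h, min_eq_left (by linarith), cl_of_le (by linarith)]
      ring
    · rw [min_eq_right h]
      rcases le_total t (m + 1) with h' | h'
      · rw [min_eq_left h', cl_of_mem ⟨by linarith, by linarith⟩]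
        ring
      · rw [min_eq_right h', cl_of_ge (by linarith)]
        ring

variable {I J : Type*} {g : Gd E I} {fa : J → I} {lv : J → ℕ} {m : I → ℕ} {Z : Set E}

/-- **merging the sheets of a split structure gives the structure back** -/
theorem merge_spl (h : g.Is Z) (hf : ∀ a, {j | fa j = a}.Finite)
    (hinj : ∀ j j', fa j = fa j' → lv j = lv j' → j = j') (hlt : ∀ j, lv j < m (fa j))
    (hsurj : ∀ a, ∀ k < m a, ∃ j, fa j = a ∧ lv j = k)
    (hr : ∀ z ∈ Z, ∀ a, 0 ≤ g.G a z ∧ g.G a z ≤ m a) {z : E} (hz : z ∈ Z) :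
    EqAt g ((spl g fa (fun j => (lv j : ℤ))).merge fa hf) z := by
  classical
  -- the sum
  have hsum : ∀ a, ∑ j ∈ (hf a).toFinset, (spl g fa (fun j => (lv j : ℤ))).G j z = g.G a z := by
    intro a
    have e1 : ∑ j ∈ (hf a).toFinset, (spl g fa (fun j => (lv j : ℤ))).G j z =
        ∑ k ∈ Finset.range (m a), (1/2 + cl (g.G a z - k - 1/2)) := by
      refine Finset.sum_bij (fun j _ => lv j) (fun j hj => ?_) (fun j hj j' hj' e => ?_)
        (fun k hk => ?_) (fun j hj => ?_)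
      · rw [Set.Finite.mem_toFinset] at hj
        have h1 : fa j = a := hj
        rw [Finset.mem_range, ← h1]; exact hlt j
      · rw [Set.Finite.mem_toFinset] at hj hj'
        have h1 : fa j = a := hj
        have h2 : fa j' = a := hj'
        exact hinj j j' (h1.trans h2.symm) e
      · obtain ⟨j, h1, h2⟩ := hsurj a k (Finset.mem_range.1 hk)
        exact ⟨j, by rw [Set.Finite.mem_toFinset]; exact h1, h2⟩
      · rw [Set.Finite.mem_toFinset] at hj
        have h1 : fa j = a := hj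
        rw [spl_G, h1]
        push_cast
        rfl
    rw [e1, sum_cl (hr z hz a).1, min_eq_left (hr z hz a).2]
  -- the level on a band
  have hlev : ∀ a, z ∈ g.B a → ∃ j, fa j = a ∧ g.lev a z = lv j := by
    intro a ha
    obtain ⟨n, hn⟩ := h.li a z hz ha
    have hn' : (n : ℝ) = g.lev a z := hn
    have l0 : (-1/2 : ℝ) ∈ I2 := ⟨by norm_num, by norm_num⟩
    have l1 : (1/2 : ℝ) ∈ I2 := ⟨by norm_num, by norm_num⟩
    have h0 := (hr _ (h.tZ a z hz ha _ l0) a).1
    have h1 := (hr _ (h.tZ a z hz ha _ l1) a).2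
    rw [h.tG a z hz ha _ l0, ← hn'] at h0
    rw [h.tG a z hz ha _ l1, ← hn'] at h1
    have h0' : (0 : ℝ) ≤ n := by linarith
    have h1' : (n : ℝ) + 1 ≤ m a := by linarith
    have h0'' : (0 : ℤ) ≤ n := by exact_mod_cast h0'
    obtain ⟨k, hk⟩ := Int.eq_ofNat_of_zero_le h0''
    rw [hk] at h1'
    have h2 : k < m a := by
      have h3 : ((k : ℝ) + 1) ≤ m a := by exact_mod_cast h1'
      have h4 : k + 1 ≤ m a := by exact_mod_cast h3
      omega
    obtain ⟨j, e1, e2⟩ := hsurj a k h2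
    refine ⟨j, e1, ?_⟩
    rw [← hn', hk, e2]
    simp
  have dj : ∀ j j', j ≠ j' → fa j = fa j' → z ∈ (spl g fa (fun j => (lv j : ℤ))).B j →
      z ∉ (spl g fa (fun j => (lv j : ℤ))).B j' := by
    rintro j j' hne he ⟨h1, h2⟩ ⟨h3, h4⟩
    rw [← he] at h4
    rw [h2] at h4
    have h5 : ((lv j : ℤ) : ℝ) = ((lv j' : ℤ) : ℝ) := h4
    exact hne (hinj j j' he (by exact_mod_cast h5))
  refine ⟨fun a => hsum a, fun a => ?_, fun a hB => ?_, fun a hB s hs => ?_⟩
  · constructor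
    · rintro ⟨j, rfl, h1, h2⟩; exact h1
    · intro hB
      obtain ⟨j, e1, e2⟩ := hlev a hB
      subst e1
      exact ⟨j, rfl, hB, by rw [e2]; simp⟩
  · obtain ⟨j, e1, e2⟩ := hlev a hB
    subst e1
    have hBj : z ∈ (spl g fa (fun j => (lv j : ℤ))).B j := ⟨hB, by rw [e2]; simp⟩
    rw [merge_lev dj hBj]
    have e3 : ((spl g fa (fun j => (lv j : ℤ))).merge fa hf).G (fa j) z = g.G (fa j) z :=
      hsum (fa j)
    rw [e3, spl_G]
    have h1 := h.ab (fa j) z hz hB
    rw [e2] at h1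
    show g.G (fa j) z - (1/2 + cl (g.G (fa j) z - ((lv j : ℤ) : ℝ) - 1/2)) + 0 = g.lev (fa j) z
    push_cast
    rw [cl_of_mem h1, e2]
    ring
  · obtain ⟨j, e1, e2⟩ := hlev a hB
    subst e1
    have hBj : z ∈ (spl g fa (fun j => (lv j : ℤ))).B j := ⟨hB, by rw [e2]; simp⟩
    rw [merge_tr dj hBj]
    rfl

end split

/-! ### pull backs -/

section pull

variable {I : Type*} {V : Type*} [NormedAddCommGroup V] [NormedSpace ℝ V]

lemma pulg_congr {g g' : Gd E I} {f : V → E} {fi : E → V} {z : V} (h : EqAt g g' (f z)) :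
    EqAt (pulg g f fi) (pulg g' f fi) z where
  G a := h.G a
  B a := h.B a
  lev a hB := h.lev a hB
  tr a hB s hs := congrArg fi (h.tr a hB s hs)

lemma pulg_merge {J : Type*} {g : Gd E J} {f : V → E} {fi : E → V} {φ : J → I}
    {hf : ∀ a, {j | φ j = a}.Finite} {z : V} :
    EqAt (pulg (g.merge φ hf) f fi) ((pulg g f fi).merge φ hf) z := by
  classical
  refine ⟨fun a => rfl, fun a => Iff.rfl, fun a hB => rfl, fun a hB s hs => ?_⟩
  have h1 : ∃ j, φ j = a ∧ f z ∈ g.B j := hB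
  show (if h : ∃ j, φ j = a ∧ z ∈ (pulg g f fi).B j then (pulg g f fi).tr h.choose (z, s)
    else z) = fi (if h : ∃ j, φ j = a ∧ f z ∈ g.B j then g.tr h.choose (f z, s) else f z)
  rw [dif_pos h1]
  exact dif_pos h1

end pull

/-! ### the collar -/

section collar

variable {I : Type*} {g g' : Gd E I} {b : ℝ} {Z : Set E}

lemma sqI_congr {z : E × ℝ} (h : EqAt g g' z.1) (h0 : 0 < b) (h2 : b < 1/2)
    (hr : z.2 ∈ Icc (0:ℝ) 1) : EqAt (sqI g b) (sqI g' b) z := by
  refine ⟨fun a => ?_, fun a => ?_, fun a hB => ?_, fun a hB s hs => ?_⟩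
  · by_cases hB : z.1 ∈ g.B a
    · rw [sqI_G_mem hB, sqI_G_mem ((h.B a).2 hB), h.lev a hB, h.G a]
    · rw [sqI_G_notMem hB, sqI_G_notMem (fun hc => hB ((h.B a).1 hc)), h.G a]
  · rw [sqI_B, sqI_B]
    constructor
    · rintro ⟨h1, h3⟩
      have hB := (h.B a).1 h1
      rw [h.lev a hB, h.G a] at h3
      exact ⟨hB, h3⟩
    · rintro ⟨hB, h3⟩
      refine ⟨(h.B a).2 hB, ?_⟩
      rw [h.lev a hB, h.G a]; exact h3
  · exact h.lev a hB.1
  · show (g'.tr a (z.1, R1 b z.2 s), z.2) = (g.tr a (z.1, R1 b z.2 s), z.2)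
    rw [h.tr a hB.1 _ (R1_mem h0 h2 hr hs)]

/-- the outer end of the collar -/
theorem pulg_sqI_one {V : Type*} [NormedAddCommGroup V] [NormedSpace ℝ V] {g : Gd V I}
    {S : Set V} (hS : g.Is S) (h0 : 0 < b) (h2 : b < 1/2)
    {f : V → V × ℝ} {fi : V × ℝ → V} (hf : ∀ z ∈ S, f z = (z, 1)) (hfi : ∀ z ∈ S, fi (z, 1) = z)
    {z : V} (hz : z ∈ S) : EqAt (g.sq b) (pulg (sqI g b) f fi) z := by
  have e := fun a => sqI_one (g := g) h0 h2 a z
  refine ⟨fun a => ?_, fun a => ?_, fun a hB => ?_, fun a hB s hs => ?_⟩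
  · show (sqI g b).G a (f z) = _
    rw [hf z hz]; exact (e a).1
  · show f z ∈ (sqI g b).B a ↔ _
    rw [hf z hz]; exact (e a).2.1
  · show (sqI g b).lev a (f z) = _
    rw [hf z hz]; exact (e a).2.2.1
  · show fi ((sqI g b).tr a (f z, s)) = _
    rw [hf z hz, (e a).2.2.2 s hs]
    refine hfi _ ?_
    exact hS.tZ a z hz hB.1 _ (mem_scale h0 h2 hs)

/-- the inner end of the collar -/
theorem pulg_sqI_zero {V : Type*} [NormedAddCommGroup V] [NormedSpace ℝ V] {g : Gd V I}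
    {S S' : Set V} (hS : g.Is S) (h0 : 0 < b) (h2 : b < 1/2)
    {f : V → V × ℝ} {fi : V × ℝ → V} {ρ ρi : V → V} (hρ : ∀ z ∈ S', ρ z ∈ S)
    (hf : ∀ z ∈ S', f z = (ρ z, 0)) (hfi : ∀ z ∈ S, fi (z, 0) = ρi z)
    {z : V} (hz : z ∈ S') : EqAt (pulg g ρ ρi) (pulg (sqI g b) f fi) z := by
  have e := fun a => sqI_zero hS h0 h2 a (hρ z hz)
  refine ⟨fun a => ?_, fun a => ?_, fun a hB => ?_, fun a hB s hs => ?_⟩
  · show (sqI g b).G a (f z) = g.G a (ρ z)
    rw [hf z hz]; exact (e a).1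
  · show f z ∈ (sqI g b).B a ↔ ρ z ∈ g.B a
    rw [hf z hz]; exact (e a).2.1
  · show (sqI g b).lev a (f z) = g.lev a (ρ z)
    rw [hf z hz]; exact (e a).2.2.1
  · show fi ((sqI g b).tr a (f z, s)) = ρi (g.tr a (ρ z, s))
    rw [hf z hz, (e a).2.2.2 s hs]
    exact hfi _ (hS.tZ a _ (hρ z hz) hB _ hs)

variable {P : I → Set E'} {m : I → ℕ}

/-- the levels of the collar are in the same cells -/
theorem sqI_G2 (hm : ∀ c, 0 < m c) {Z : Set E} (h : g.Is Z)
    (hfin : ∀ x ∈ Z, {a | x ∈ g.B a}.Finite) (hK : ∀ x ∈ Z, (fun a => g.G a x) ∈ G2 P m)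
    (h0 : 0 < b) (h2 : b < 1/2) {z : E × ℝ} (hz : z.1 ∈ Z) (hr : z.2 ∈ Icc (0:ℝ) 1) :
    (fun a => (sqI g b).G a z) ∈ G2 P m := by
  have hne : Nonempty (Cel P m) := ⟨.gr (flb hm _ (hK z.1 hz))⟩
  obtain ⟨q0⟩ := hne
  obtain ⟨q, h1, h3, h4, h5⟩ := gtop_spec (hm := hm) (q0 := q0) h hfin hK hz
  refine Gx.bx_sub hm q ?_
  intro a
  by_cases ha : z.1 ∈ g.B a
  · show (q.lo a : ℝ) ≤ (sqI g b).G a z ∧ (sqI g b).G a z ≤ q.hi a
    rw [sqI_G_mem ha]
    have h6 : q.hi a = q.lo a + 1 := Gx.hi_eq (by rw [h3]; exact ha)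
    rw [h6]
    push_cast
    rw [h4 a ha]
    have h7 : S1 b z.2 (g.G a z.1 - g.lev a z.1 - 1/2) ∈ I2 := S1_mem h0 h2 hr
    have h8 := h7.1
    have h9 := h7.2
    constructor <;> linarith
  · show (q.lo a : ℝ) ≤ (sqI g b).G a z ∧ (sqI g b).G a z ≤ q.hi a
    rw [sqI_G_notMem ha]
    obtain ⟨h6, h7⟩ := h5 a ha
    rw [h6, h7]
    exact ⟨le_rfl, le_rfl⟩

/-- the colours of the collar -/
theorem cols_sqI {Z : Set E} (h : g.Is Z) (b : ℝ) (R : Set ℝ) :
    cols (sqI g b) m (Z ×ˢ R) ⊆ cols g m Z := by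
  rintro a ⟨z, ⟨hz, hr⟩, hne⟩
  by_cases ha : z.1 ∈ g.B a
  · exact mem_cols_of_B h hz ha
  · rw [sqI_G_notMem ha] at hne
    exact ⟨z.1, hz, hne⟩

/-- the colours of a pull back -/
theorem cols_pulg {V : Type*} [NormedAddCommGroup V] [NormedSpace ℝ V] {f : V → E} {fi : E → V}
    {Z : Set E} {A : Set V} (hA : MapsTo f A Z) : cols (pulg g f fi) m A ⊆ cols g m Z := by
  rintro a ⟨z, hz, hne⟩
  exact ⟨f z, hA hz, hne⟩

end collar

/-! ### the exact core -/

section core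

variable {I : Type*} {b : Set I → E} {P : I → Set E} {m : I → ℕ} {La : Set E}

lemma fre_eq (x : Cel P m) : Xp_537.fre x = Bin_181.fr x := by cases x <;> rfl
lemma lof_eq (x : Cel P m) (a : I) : Xp_537.lof x a = Bin_181.lo x a := by
  cases x with
  | top c => show (0 : ℝ) = ((0 : ℕ) : ℝ); simp
  | gr q => rfl

open Classical in
/-- **the band structure of the exact core is `ek`, pulled back** -/
theorem gdT_core (C : CC La (Cel P m)) (κ : ℝ) (c : Cel P m) (f : E' → E) (fi : E → E')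
    (z : E') : EqAt (pulg (ek C b κ c) f fi)
      (gdT (Tq b m) (co P b m) (cG C κ f) (ctop C κ c f) (ctr C κ f fi)) z := by
  refine ⟨fun a => rfl, fun a => ?_, fun a hB => ?_, fun a hB s hs => ?_⟩
  · show a ∈ Xp_537.fre (ctop C κ c f z) ↔ a ∈ Bin_181.fr (mn c (sl C κ (f z)))
    rw [fre_eq]; rfl
  · show Xp_537.lof (ctop C κ c f z) a = (Bin_181.lo (mn c (sl C κ (f z))) a : ℝ)
    rw [lof_eq]; rfl
  · show ctr C κ f fi z (Tq b m (Function.update (co P b m (cG C κ f z)) a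
      (Xp_537.lof (ctop C κ c f z) a + 1 / 2 + s))) = fi (pk C κ (sl C κ (f z)) (Tq b m
      (Function.update (co P b m (st C κ (f z))) a
        (Bin_181.lo (mn c (sl C κ (f z))) a + 1/2 + s))))
    rw [lof_eq]; rfl

end core

end Crest.Agent.R096.Xr_537
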