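/-
helper442, row 96, NO0 p >= 3, leaf [X3] of 962 #11402: the NUMBERS at a shift `a ∈ A'`, where
`A' ⊆ box 3` is any set with `volume (box 3 \ A') ≤ 1/4` (corollary of 273's `bad_shift`).
-/
import Mathlib
import Crest.Agent.R096.Ps11_273

set_option autoImplicit false

open MeasureTheory Set Filter
open scoped Topology ENNReal

namespace Crest.Agent.R096.Xs3_442

open Crest.Agent.R096.Msh_810 Crest.Agent.R096.Bas_731 Crest.Agent.R96.En3_199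
  Crest.Agent.R96.En4_199 Crest.Agent.R96.En5_199 Crest.Agent.R96.En2_199 Crest.Agent.R96.En6_199
  Crest.Agent.R96.En7_199 Crest.Agent.R96.En8_199 Crest.Agent.R96.En9_199
  Crest.Agent.R96.En11_199
  Crest.Agent.R96.Acl_392 Crest.Agent.R96.Sob2_199 Crest.Agent.R96.Sob3_199
  Crest.Agent.R096.Ps_273

noncomputable section

/-- **[X3]**: a good shift in `A'`. -/
theorem exists_shift_third (D : Dat 3) {Ω : Set (Fin 3 → ℝ)} (hΩ : IsOpen Ω)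
    (hsub : Ω ⊆ D.Om) {𝒞 : Type*} [Countable 𝒞]
    {v : 𝒞 → (Fin 3 → ℝ) → ℝ}
    {g : 𝒞 → Fin 3 → (Fin 3 → ℝ) → ℝ} (hg : ∀ c i, Measurable (g c i))
    (hg0 : ∀ c i, ∀ x, x ∉ Ω → g c i x = 0)
    (hwd : ∀ c i, WD Ω volume (v c) (g c i) (Pi.single i (1:ℝ))) (hv : ∀ c, ContinuousOn (v c) Ω)
    (w : 𝒞 → ℝ≥0∞)
    (s : Fin 3 → ℝ≥0∞) {p : ℝ} (hp : 1 ≤ p) {R' : Set (Fin 3 → ℝ)} (hR : MeasurableSet R')
    {η : Type*} [Countable η] {H : η → (Fin 3 → ℝ) → ℝ≥0∞} (hH : ∀ k, Measurable (H k))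
    {θ : η → ℝ≥0∞} (hθ : ∀ k, ∫⁻ a in box 3, H k a ≤ θ k) {m : η → ℝ≥0∞} (hm : ∀ k, m k ≠ 0)
    (hms : ∑' k, (m k)⁻¹ ≤ 1 / 4) {Q : (Fin 3 → ℝ) → Prop} (hQ : ∀ᵐ a, Q a)
    {A' : Set (Fin 3 → ℝ)} (hA : volume (box 3 \ A') ≤ 1 / 4) :
    ∃ a ∈ A', a ∈ box 3 ∧ Q a ∧ (∀ (k : ℕ) (z : Fin 3 → ℤ), Good Ω v g (vx a k z)) ∧
      (∀ i, Ed (D.sh a) i p (Xs w g s i) ≤ 96 * ∫⁻ x in Ω, Xs w g s i x ^ p) ∧
      (∀ i, Ed (D.sh a) i 1 (Xs w g s i) ≤ 96 * ∫⁻ x in Ω, Xs w g s i x) ∧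
      S (D.sh a) p (R'.indicator (GGw w g)) ≤
        24 * KE 3 p * ∫⁻ x in Ω ∩ R', GGw w g x ^ p ∧
      ∀ k, H k a ≤ m k * θ k := by
  have h1 := bad_shift D hΩ hsub hg hg0 hwd hv w s hp (ι := Unit) (R := fun _ => R') (fun _ => hR)
    (κ := fun _ => 24) (fun _ => by norm_num) hH hθ hm (c0 := 48) (by norm_num) hQ
  set B : Set (Fin 3 → ℝ) := {a ∈ box 3 | ¬ (Q a ∧ (∀ (k : ℕ) (z : Fin 3 → ℤ),
      Good Ω v g (vx a k z)) ∧
      (∀ i, Ed (D.sh a) i p (Xs w g s i) ≤ 48 * (2 * ∫⁻ x in Ω, Xs w g s i x ^ p)) ∧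
      (∀ i, Ed (D.sh a) i 1 (Xs w g s i) ≤ 48 * (2 * ∫⁻ x in Ω, Xs w g s i x)) ∧
      (∀ _j : Unit, S (D.sh a) p (R'.indicator (GGw w g)) ≤
        24 * (KE 3 p * ∫⁻ x in Ω ∩ R', GGw w g x ^ p)) ∧
      ∀ k, H k a ≤ m k * θ k)} with hB
  have h2 : volume B ≤ 1 / 2 := by
    refine h1.trans ?_
    have e1 : ((3 : ℕ) : ℝ≥0∞) * ∑' _j : Unit, (24 : ℝ≥0∞)⁻¹ + 2 * ((3 : ℕ) : ℝ≥0∞) * (48 : ℝ≥0∞)⁻¹
        = 1 / 4 := by
      rw [tsum_fintype, Finset.univ_unique, Finset.sum_singleton]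
      have a1 : ((3 : ℕ) : ℝ≥0∞) * (24 : ℝ≥0∞)⁻¹ = ENNReal.ofReal (1 / 8) := by
        rw [show ((3 : ℕ) : ℝ≥0∞) = ENNReal.ofReal 3 by norm_num,
          show (24 : ℝ≥0∞) = ENNReal.ofReal 24 by norm_num,
          ← ENNReal.ofReal_inv_of_pos (by norm_num), ← ENNReal.ofReal_mul (by norm_num)]
        congr 1; norm_num
      have a2 : 2 * ((3 : ℕ) : ℝ≥0∞) * (48 : ℝ≥0∞)⁻¹ = ENNReal.ofReal (1 / 8) := by
        rw [show 2 * ((3 : ℕ) : ℝ≥0∞) = ENNReal.ofReal 6 by norm_num,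
          show (48 : ℝ≥0∞) = ENNReal.ofReal 48 by norm_num,
          ← ENNReal.ofReal_inv_of_pos (by norm_num), ← ENNReal.ofReal_mul (by norm_num)]
        congr 1; norm_num
      rw [a1, a2, ← ENNReal.ofReal_add (by norm_num) (by norm_num),
        show (1 / 4 : ℝ≥0∞) = ENNReal.ofReal (1 / 4) by
          rw [ENNReal.ofReal_div_of_pos (by norm_num)]; norm_num]
      congr 1; norm_num
    have e2 : (1 / 4 : ℝ≥0∞) + 1 / 4 = 1 / 2 := by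
      rw [show (1 / 4 : ℝ≥0∞) = ENNReal.ofReal (1 / 4) by
          rw [ENNReal.ofReal_div_of_pos (by norm_num)]; norm_num,
        show (1 / 2 : ℝ≥0∞) = ENNReal.ofReal (1 / 2) by
          rw [ENNReal.ofReal_div_of_pos (by norm_num)]; norm_num,
        ← ENNReal.ofReal_add (by norm_num) (by norm_num)]
      congr 1; norm_num
    exact (add_le_add e1.le hms).trans e2.le
  have h3 : volume (B ∪ (box 3 \ A')) < volume (box 3) := by
    refine (measure_union_le _ _).trans_lt ?_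
    rw [volume_box]
    calc volume B + volume (box 3 \ A') ≤ 1 / 2 + 1 / 4 := add_le_add h2 hA
      _ < 1 := by
        rw [show (1 / 4 : ℝ≥0∞) = ENNReal.ofReal (1 / 4) by
            rw [ENNReal.ofReal_div_of_pos (by norm_num)]; norm_num,
          show (1 / 2 : ℝ≥0∞) = ENNReal.ofReal (1 / 2) by
            rw [ENNReal.ofReal_div_of_pos (by norm_num)]; norm_num,
          ← ENNReal.ofReal_add (by norm_num) (by norm_num), ← ENNReal.ofReal_one]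
        exact (ENNReal.ofReal_lt_ofReal_iff (by norm_num)).2 (by norm_num)
  obtain ⟨a, ha, hna⟩ : ∃ a ∈ box 3, a ∉ B ∪ (box 3 \ A') := by
    by_contra hcon
    push Not at hcon
    exact absurd (measure_mono (μ := volume) hcon) (not_le.2 h3)
  rw [mem_union, not_or] at hna
  have h4 : a ∈ A' := by
    by_contra hcon
    exact hna.2 ⟨ha, hcon⟩
  obtain ⟨q1, q2, q3, q4, q5, q6⟩ := not_not.1 fun hcon => hna.1 ⟨ha, hcon⟩
  refine ⟨a, h4, ha, q1, q2, fun i => (q3 i).trans (le_of_eq ?_),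
    fun i => (q4 i).trans (le_of_eq ?_), (q5 ()).trans (le_of_eq ?_), q6⟩
  · rw [← mul_assoc]; norm_num
  · rw [← mul_assoc]; norm_num
  · rw [← mul_assoc]

end

end Crest.Agent.R096.Xs3_442
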