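import Crest.Agent.R096.Xp6_537

/-!
# R096 (row 96), EXPLODE, pointwise tolerance (helper872; leaf (C3) of 147 #9871)

For all sufficiently small `κ` the map `g κ` of 537's explosion is close to `G` in `C⁰`, in energy
and in the POINTWISE Lipschitz sense
`‖(g κ y - G y) - (g κ x - G x)‖ ≤ η' x * ‖y - x‖` for `y` near `x`.
-/

set_option autoImplicit false
set_option linter.unusedSectionVars false
set_option linter.unusedVariables false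
set_option linter.deprecated false

open Set MeasureTheory Filter Topology
open scoped ENNReal NNReal

namespace Crest.Agent.R096.Xp_537

open Crest.Agent.R096.Ce_537 (PLOn PLEquiv cube sph IsBall LocPL)
open Crest.Agent.R096.Bd_416

variable {E E' : Type*} [NormedAddCommGroup E] [NormedSpace ℝ E]
  [NormedAddCommGroup E'] [NormedSpace ℝ E']
variable {Q : Type*} [PartialOrder Q] {Λ : Set E}

namespace Expl

variable {Ω : Set E'} {C : CC Λ Q} {G : E' → E} (X : Expl Ω C G)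

/-- uniform local Lipschitz bound for `D ρ`, zero off the support -/
lemma D_lip [FiniteDimensional ℝ E] [FiniteDimensional ℝ E'] (hΩ : IsOpen Ω) (ρ : Q) :
    ∃ L : ℝ≥0, ∀ x ∈ Ω, ∀ᶠ y in 𝓝 x, ‖X.D ρ y - X.D ρ x‖ ≤ L * ‖y - x‖ ∧
      (x ∉ X.K ρ → X.D ρ y - X.D ρ x = 0) := by
  obtain ⟨S, hS⟩ := X.D_sel ρ
  obtain ⟨L, hL⟩ := lip_sel S
  refine ⟨L, fun x hx => ?_⟩
  have hA : ∀ᶠ y in 𝓝 x, ‖X.D ρ y - X.D ρ x‖ ≤ L * ‖y - x‖ := by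
    obtain ⟨r, hr, hsub⟩ := Metric.isOpen_iff.1 hΩ x hx
    have h1 : LipschitzOnWith L (X.D ρ) (Metric.ball x r) :=
      hL _ _ (convex_ball x r) ((locPL_continuousOn (X.locPL_D hΩ ρ)).mono hsub)
        (fun y hy => hS y (hsub hy))
    filter_upwards [Metric.ball_mem_nhds x hr] with y hy
    have h2 := h1.dist_le_mul y hy x (Metric.mem_ball_self hr)
    rwa [dist_eq_norm, dist_eq_norm] at h2
  by_cases hK : x ∈ X.K ρ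
  · filter_upwards [hA] with y hy
    exact ⟨hy, fun h => absurd hK h⟩
  · have hopen : IsOpen (Ω \ X.K ρ) := hΩ.sdiff (X.isCompact_K ρ).isClosed
    filter_upwards [hA, hopen.mem_nhds ⟨hx, hK⟩] with y hy hy'
    exact ⟨hy, fun _ => by rw [X.D_notMem hy'.1 hy'.2, X.D_notMem hx hK, sub_zero]⟩

/-- **choice of `κ`, pointwise Lipschitz tolerance** -/
theorem lip_small [FiniteDimensional ℝ E] [FiniteDimensional ℝ E'] (hΩ : IsOpen Ω) {η' : E' → ℝ}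
    (hη' : ∀ K, IsCompact K → K ⊆ Ω → ∃ h > 0, ∀ x ∈ K, h ≤ η' x) (hη0' : ∀ x ∈ Ω, 0 ≤ η' x) :
    ∃ c : Q → ℝ, (∀ ρ, 0 < c ρ ∧ c ρ < 1) ∧ ∀ κ : Q → ℝ, (∀ ρ, 0 < κ ρ ∧ κ ρ ≤ c ρ) →
      ∀ x ∈ Ω, ∀ᶠ y in 𝓝 x, ‖(X.g κ y - G y) - (X.g κ x - G x)‖ ≤ η' x * ‖y - x‖ := by
  classical
  have := X.countable
  obtain ⟨ω, hω, hω1⟩ := ENNReal.exists_pos_sum_of_countable (ε := 1) one_ne_zero Q
  choose L hL using fun ρ => X.D_lip hΩ ρ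
  choose h hh0 hh using fun ρ => hη' (X.K ρ) (X.isCompact_K ρ) (X.K_sub ρ)
  set c : Q → ℝ := fun ρ => min (1 / 2) (ω ρ * h ρ / (1 + L ρ)) with hc
  have hω' : ∀ ρ, (0 : ℝ) < ω ρ := fun ρ => by exact_mod_cast hω ρ
  have hc0 : ∀ ρ, 0 < c ρ := fun ρ => by
    have h1 := hω' ρ
    have h2 := hh0 ρ
    have h5 : (0 : ℝ) ≤ L ρ := (L ρ).2
    exact lt_min (by norm_num) (by positivity)
  refine ⟨c, fun ρ => ⟨hc0 ρ, (min_le_left _ _).trans_lt (by norm_num)⟩, fun κ hκ => ?_⟩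
  have hκL : ∀ ρ, κ ρ * L ρ ≤ ω ρ * h ρ := fun ρ => by
    have h5 : (0 : ℝ) ≤ L ρ := (L ρ).2
    have h1 : κ ρ ≤ ω ρ * h ρ / (1 + L ρ) := (hκ ρ).2.trans (min_le_right _ _)
    rw [le_div_iff₀ (by linarith)] at h1
    have := (hκ ρ).1
    nlinarith
  have hωs : ∀ F : Finset Q, ∑ ρ ∈ F, (ω ρ : ℝ) ≤ 1 := by
    intro F
    have h1 : ∑ ρ ∈ F, (ω ρ : ℝ≥0∞) ≤ 1 := (ENNReal.sum_le_tsum F).trans hω1.le
    have h2 : ((∑ ρ ∈ F, ω ρ : ℝ≥0) : ℝ≥0∞) ≤ ((1 : ℝ≥0) : ℝ≥0∞) := by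
      push_cast; exact h1
    have h3 : ∑ ρ ∈ F, ω ρ ≤ 1 := ENNReal.coe_le_coe.1 h2
    exact_mod_cast h3
  intro x hx
  obtain ⟨F, hF⟩ := X.g_near hΩ hx
  have hall : ∀ᶠ y in 𝓝 x, ∀ ρ ∈ F, ‖X.D ρ y - X.D ρ x‖ ≤ L ρ * ‖y - x‖ ∧
      (x ∉ X.K ρ → X.D ρ y - X.D ρ x = 0) :=
    (Finset.eventually_all F).2 (fun ρ _ => hL ρ x hx)
  have hx0 := (hF κ).eq_of_nhds
  filter_upwards [hF κ, hall] with y hy hD
  have hdiff : (X.g κ y - G y) - (X.g κ x - G x) = ∑ ρ ∈ F, κ ρ • (X.D ρ y - X.D ρ x) := by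
    rw [hy, hx0]
    simp only [add_sub_cancel_left, smul_sub, Finset.sum_sub_distrib]
  rw [hdiff]
  have hn : (0 : ℝ) ≤ ‖y - x‖ := norm_nonneg _
  calc ‖∑ ρ ∈ F, κ ρ • (X.D ρ y - X.D ρ x)‖ ≤ ∑ ρ ∈ F, ‖κ ρ • (X.D ρ y - X.D ρ x)‖ :=
        norm_sum_le _ _
    _ ≤ ∑ ρ ∈ F, (ω ρ : ℝ) * (η' x * ‖y - x‖) := by
        refine Finset.sum_le_sum (fun ρ hρ => ?_)
        by_cases hK : x ∈ X.K ρ
        · rw [norm_smul, Real.norm_eq_abs, abs_of_pos (hκ ρ).1]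
          calc κ ρ * ‖X.D ρ y - X.D ρ x‖ ≤ κ ρ * (L ρ * ‖y - x‖) :=
                mul_le_mul_of_nonneg_left (hD ρ hρ).1 (hκ ρ).1.le
            _ = κ ρ * L ρ * ‖y - x‖ := by ring
            _ ≤ ω ρ * h ρ * ‖y - x‖ := mul_le_mul_of_nonneg_right (hκL ρ) hn
            _ ≤ ω ρ * η' x * ‖y - x‖ := by
                refine mul_le_mul_of_nonneg_right ?_ hn
                exact mul_le_mul_of_nonneg_left (hh ρ x hK) (hω' ρ).le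
            _ = ω ρ * (η' x * ‖y - x‖) := by ring
        · rw [(hD ρ hρ).2 hK, smul_zero, norm_zero]
          exact mul_nonneg (hω' ρ).le (mul_nonneg (hη0' x hx) hn)
    _ = (∑ ρ ∈ F, (ω ρ : ℝ)) * (η' x * ‖y - x‖) := by rw [Finset.sum_mul]
    _ ≤ 1 * (η' x * ‖y - x‖) :=
        mul_le_mul_of_nonneg_right (hωs _) (mul_nonneg (hη0' x hx) hn)
    _ = η' x * ‖y - x‖ := one_mul _

/-- **choice of `κ`**: `C⁰`, pointwise Lipschitz tolerance and energy at once. -/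
theorem small_lip [FiniteDimensional ℝ E] [FiniteDimensional ℝ E'] [MeasurableSpace E']
    [BorelSpace E'] (μ : Measure E') [μ.IsAddHaarMeasure] (hΩ : IsOpen Ω) {η η' : E' → ℝ}
    (hη : ContinuousOn η Ω) (hη0 : ∀ x ∈ Ω, 0 < η x)
    (hη' : ∀ K, IsCompact K → K ⊆ Ω → ∃ h > 0, ∀ x ∈ K, h ≤ η' x) {p : ℝ} (hp : 0 < p)
    {e : ℝ≥0∞} (he : e ≠ 0) :
    ∃ c : Q → ℝ, (∀ ρ, 0 < c ρ ∧ c ρ < 1) ∧ ∀ κ : Q → ℝ, (∀ ρ, 0 < κ ρ ∧ κ ρ ≤ c ρ) →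
      (∀ x ∈ Ω, ‖X.g κ x - G x‖ ≤ η x) ∧
      (∀ x ∈ Ω, ∀ᶠ y in 𝓝 x, ‖(X.g κ y - G y) - (X.g κ x - G x)‖ ≤ η' x * ‖y - x‖) ∧
      ∫⁻ x in Ω, ‖fderiv ℝ (X.g κ) x - fderiv ℝ G x‖ₑ ^ p ∂μ ≤ e := by
  have hη0' : ∀ x ∈ Ω, 0 ≤ η' x := by
    intro x hx
    obtain ⟨h, hh, hx'⟩ := hη' {x} isCompact_singleton (by simpa using hx)
    exact hh.le.trans (hx' x rfl)
  obtain ⟨c₁, hc₁, h1⟩ := X.small μ hΩ hη hη0 hp he
  obtain ⟨c₂, hc₂, h2⟩ := X.lip_small hΩ hη' hη0'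
  refine ⟨fun ρ => min (c₁ ρ) (c₂ ρ), fun ρ => ⟨lt_min (hc₁ ρ).1 (hc₂ ρ).1,
    (min_le_left _ _).trans_lt (hc₁ ρ).2⟩, fun κ hκ => ?_⟩
  obtain ⟨a, b⟩ := h1 κ (fun ρ => ⟨(hκ ρ).1, (hκ ρ).2.trans (min_le_left _ _)⟩)
  exact ⟨a, h2 κ (fun ρ => ⟨(hκ ρ).1, (hκ ρ).2.trans (min_le_right _ _)⟩), b⟩

end Expl

end Crest.Agent.R096.Xp_537
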