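import Crest.Agent.R096.Xsl1_872
import Crest.Agent.R096.Msh1_715

/-!
# R096 (row 96), EXPLODE tolerances of a tiling (helper872; leaf (C3) of 147 #9871, part 2)

* `exists_tol`: a `1`-Lipschitz function `η`, positive on `Om`, `η ≤ tol i` on the tile `i`.
* `Expl.small_tile`: the choice of `κ` with the tile tolerances `tol i` (both `C⁰` and pointwise
  Lipschitz) and the energy at once.
-/

set_option autoImplicit false
set_option linter.unusedSectionVars false
set_option linter.unusedVariables false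
set_option linter.deprecated false

open Set MeasureTheory Filter Topology Metric
open scoped ENNReal NNReal

namespace Crest.Agent.R096.Xsl_872

open Crest.Agent.R096.Msh_715 (P I Tiling)

variable {E : Type*} [NormedAddCommGroup E] [NormedSpace ℝ E]

/-- a continuous tolerance from the tolerances of the tiles -/
theorem exists_tol {Om : Set E} {ι : Type*} (T : Tiling Om ι) (tol : ι → ℝ)
    (htol : ∀ i, 0 < tol i) :
    ∃ η : E → ℝ, Continuous η ∧ (∀ x ∈ Om, 0 < η x) ∧ ∀ i, ∀ x ∈ P (T.H i), η x ≤ tol i := by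
  classical
  rcases isEmpty_or_nonempty ι with hι | hι
  · refine ⟨fun _ => 1, continuous_const, fun x hx => one_pos, fun i => (hι.false i).elim⟩
  have hne : ∀ i, (P (T.H i)).Nonempty := fun i => (T.ne i).mono (Msh_715.I_sub_P _)
  have hbdd : ∀ x : E, BddBelow (range fun i => tol i + infDist x (P (T.H i))) := by
    intro x
    refine ⟨0, ?_⟩
    rintro _ ⟨i, rfl⟩
    exact add_nonneg (htol i).le infDist_nonneg
  set η : E → ℝ := fun x => ⨅ i, (tol i + infDist x (P (T.H i))) with hη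
  have hle : ∀ x i, η x ≤ tol i + infDist x (P (T.H i)) := fun x i => ciInf_le (hbdd x) i
  have hlip : LipschitzWith 1 η := by
    refine LipschitzWith.of_le_add (fun x y => ?_)
    have h1 : η x - dist x y ≤ η y := by
      refine le_ciInf (fun i => ?_)
      have h2 := hle x i
      have h3 : infDist x (P (T.H i)) ≤ infDist y (P (T.H i)) + dist x y :=
        infDist_le_infDist_add_dist
      linarith
    linarith
  refine ⟨η, hlip.continuous, fun x hx => ?_, fun i x hx => ?_⟩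
  · obtain ⟨r, hr, hfin⟩ := T.lf x hx
    set F := hfin.toFinset with hF
    obtain ⟨m, hm0, hm⟩ : ∃ m > 0, ∀ i ∈ F, m ≤ tol i := by
      rcases F.eq_empty_or_nonempty with h0 | h0
      · exact ⟨1, one_pos, by simp [h0]⟩
      · obtain ⟨j, hj, hj'⟩ := F.exists_min_image tol h0
        exact ⟨tol j, htol j, hj'⟩
    have h1 : min m r ≤ η x := by
      refine le_ciInf (fun i => ?_)
      by_cases hi : i ∈ F
      · exact (min_le_left _ _).trans ((hm i hi).trans
          (le_add_of_nonneg_right infDist_nonneg))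
      · have h2 : r ≤ infDist x (P (T.H i)) := by
          by_contra hlt
          obtain ⟨y, hy, hxy⟩ := (infDist_lt_iff (hne i)).1 (not_le.1 hlt)
          exact hi (hfin.mem_toFinset.2 ⟨y, hy, by rwa [mem_ball, dist_comm]⟩)
        exact (min_le_right _ _).trans (h2.trans (le_add_of_nonneg_left (htol i).le))
    exact (lt_min hm0 hr).trans_le h1
  · have := hle x i
    rwa [infDist_zero_of_mem hx, add_zero] at this

/-- a continuous positive function is bounded below on compacts -/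
theorem bound_of_cont {Om : Set E} {η : E → ℝ} (hη : ContinuousOn η Om)
    (h0 : ∀ x ∈ Om, 0 < η x) :
    ∀ K, IsCompact K → K ⊆ Om → ∃ h > 0, ∀ x ∈ K, h ≤ η x := by
  intro K hK hsub
  rcases K.eq_empty_or_nonempty with h | h
  · exact ⟨1, one_pos, by simp [h]⟩
  · obtain ⟨x, hx, hx'⟩ := hK.exists_isMinOn h (hη.mono hsub)
    exact ⟨η x, h0 x (hsub hx), fun y hy => hx' hy⟩

end Crest.Agent.R096.Xsl_872

namespace Crest.Agent.R096.Xp_537

open Crest.Agent.R096.Ce_537 (PLOn PLEquiv cube sph IsBall LocPL)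
open Crest.Agent.R096.Bd_416
open Crest.Agent.R096.Msh_715 (P I Tiling)

variable {E E' : Type*} [NormedAddCommGroup E] [NormedSpace ℝ E]
  [NormedAddCommGroup E'] [NormedSpace ℝ E']
variable {Q : Type*} [PartialOrder Q] {Λ : Set E}

namespace Expl

variable {Ω : Set E'} {C : CC Λ Q} {G : E' → E} (X : Expl Ω C G)

/-- **choice of `κ`** with the tile tolerances of `Out.lip` (961, `SkC1`): `C⁰`, pointwise
Lipschitz and energy at once. -/
theorem small_tile [FiniteDimensional ℝ E] [FiniteDimensional ℝ E'] [MeasurableSpace E']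
    [BorelSpace E'] (μ : Measure E') [μ.IsAddHaarMeasure] {ι : Type*} (T : Tiling Ω ι)
    (tol : ι → ℝ) (htol : ∀ i, 0 < tol i) {η : E' → ℝ} (hη : ContinuousOn η Ω)
    (hη0 : ∀ x ∈ Ω, 0 < η x) {p : ℝ} (hp : 0 < p) {e : ℝ≥0∞} (he : e ≠ 0) :
    ∃ c : Q → ℝ, (∀ ρ, 0 < c ρ ∧ c ρ < 1) ∧ ∀ κ : Q → ℝ, (∀ ρ, 0 < κ ρ ∧ κ ρ ≤ c ρ) →
      (∀ x ∈ Ω, ‖X.g κ x - G x‖ ≤ η x) ∧
      (∀ i, ∀ x ∈ Msh_715.P (T.H i), ‖X.g κ x - G x‖ ≤ tol i) ∧
      (∀ i, ∀ x ∈ Msh_715.P (T.H i), ∀ᶠ y in 𝓝 x,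
        ‖(X.g κ y - G y) - (X.g κ x - G x)‖ ≤ tol i * ‖y - x‖) ∧
      ∫⁻ x in Ω, ‖fderiv ℝ (X.g κ) x - fderiv ℝ G x‖ₑ ^ p ∂μ ≤ e := by
  obtain ⟨τ, hτ, hτ0, hτle⟩ := Xsl_872.exists_tol T tol htol
  obtain ⟨c, hc, h⟩ := X.small_lip μ T.op (η := fun x => min (η x) (τ x)) (η' := τ)
    (continuous_min.comp_continuousOn (hη.prodMk hτ.continuousOn)) (fun x hx => lt_min (hη0 x hx) (hτ0 x hx))
    (Xsl_872.bound_of_cont hτ.continuousOn hτ0) hp he
  refine ⟨c, hc, fun κ hκ => ?_⟩
  obtain ⟨h1, h2, h3⟩ := h κ hκ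
  refine ⟨fun x hx => (h1 x hx).trans (min_le_left _ _), fun i x hx =>
    (h1 x (T.sub i hx)).trans ((min_le_right _ _).trans (hτle i x hx)), fun i x hx => ?_, h3⟩
  filter_upwards [h2 x (T.sub i hx)] with y hy
  exact hy.trans (mul_le_mul_of_nonneg_right (hτle i x hx) (norm_nonneg _))

/-- the triangle inequality for `Out.lip`: `g = G +` small. -/
theorem norm_le_of_tol {g G : E' → E} {x y : E'} {s t : ℝ}
    (h1 : ‖(g y - G y) - (g x - G x)‖ ≤ t) (h2 : ‖G y - G x‖ ≤ s) : ‖g y - g x‖ ≤ s + t := by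
  have h3 : g y - g x = (G y - G x) + ((g y - G y) - (g x - G x)) := by abel
  rw [h3]
  exact (norm_add_le _ _).trans (add_le_add h2 h1)

end Expl

end Crest.Agent.R096.Xp_537
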