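import Crest.Agent.R096.Zb1_874
import Crest.Agent.R096.Acc1_365

/-!
# Row 96 (S0127), helper874.  EA0, [COVER] of 348 #11568 (2e)

The old core outside the new one is covered by the inner tiles of the translated block.
-/

set_option autoImplicit false
set_option linter.style.longLine false
set_option linter.unusedSectionVars false

open MeasureTheory Set Filter Topology Metric

namespace Crest.Agent.R096.Zb_874

open Crest.Agent.R096.Msh_715 Crest.Agent.R096.Mal_874 Crest.Agent.R096.Msh_810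
open Crest.Agent.R096.Bsp_628 Crest.Agent.R096.Brk5_582
open Crest.Agent.R096.SkC1_961 (E3 Hom3)
open Crest.Agent.R096.EaX_766 (cbx Kor)
open Crest.Agent.R096.Acc_365 (K1 K2)
open Crest.Agent.R096.Ea0_961 (Tw Ly Blk)

noncomputable section

/-- the core lies in the translated block -/
theorem Kc_sub_tr_N (Q : CB E3 3) {v : E3} (hv : ‖Q.ψ v‖ ≤ 11 / 2 ^ Q.kc) : Q.Kc ⊆ (Q.tr v).N := by
  intro y hy
  rw [CB.mem_N_tr, CB.mem_N]
  intro l
  have h1 : (Q.S.lo l : ℝ) ≤ ps Q.a' Q.kc (Q.ψ y) l ∧ ps Q.a' Q.kc (Q.ψ y) l ≤ Q.S.hi l := hy l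
  have hp : (0 : ℝ) < 2 ^ Q.kc := by positivity
  have h2 : |Q.ψ v l| ≤ 11 / 2 ^ Q.kc := by
    have := norm_le_pi_norm (Q.ψ v) l
    rw [Real.norm_eq_abs] at this
    exact this.trans hv
  have h3 : |2 ^ Q.kc * Q.ψ v l| ≤ 11 := by
    rw [abs_mul, abs_of_pos hp]
    rw [le_div_iff₀ hp] at h2
    linarith
  have e : ps Q.a' Q.kc (Q.ψ (y - v)) l = ps Q.a' Q.kc (Q.ψ y) l - 2 ^ Q.kc * Q.ψ v l := by
    rw [map_sub]
    unfold ps
    rw [Pi.sub_apply]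
    ring
  rw [e]
  have h4 : (11 : ℝ) ≤ Q.w := by
    have h5 := Q.w_real
    have h6 : (1 : ℝ) ≤ Q.S.t := by exact_mod_cast Q.S.t0
    linarith
  rw [abs_le] at h3
  constructor <;> linarith [h1.1, h1.2, h3.1, h3.2]

/-- the translated core lies in the block -/
theorem tr_Kc_sub_N (Q : CB E3 3) {v : E3} (hv : ‖Q.ψ v‖ ≤ 11 / 2 ^ Q.kc) : (Q.tr v).Kc ⊆ Q.N := by
  intro y hy
  rw [CB.mem_Kc_tr] at hy
  have h1 := Kc_sub_tr_N Q (v := -v) (by rwa [map_neg, norm_neg]) hy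
  rw [CB.mem_N_tr] at h1
  rwa [sub_neg_eq_add, sub_add_cancel] at h1

theorem tw_kc {Q : CB E3 3} {k0 : ℕ} (hk : Q.kc ≤ k0) {v : E3} (hv : v ∈ Tw Q k0) :
    ‖Q.ψ v‖ ≤ 11 / 2 ^ Q.kc := by
  refine (tw_norm' hv le_rfl).trans ?_
  have h1 : (2 : ℝ) ^ Q.kc ≤ 2 ^ k0 := pow_le_pow_right₀ (by norm_num) hk
  refine (div_le_div_of_nonneg_left zero_le_one (by positivity) h1).trans ?_
  gcongr
  norm_num

/-- the translated core in 365's notation -/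
theorem K2_eq {Q : CB E3 3} {A : E3 ≃ᵃ[ℝ] E3} {B : Bx (Fin 3)} {lam : ℝ}
    (h : Q.Kc = A ⁻¹' cbx B lam) (v : E3) : (Q.tr v).Kc = K2 A B lam v := by
  ext y
  rw [CB.mem_Kc_tr, h]
  rfl

/-- **the old core off the new one lies in the translated block off its core** -/
theorem kor_diff {F : Set (Bx (Fin 3))} {A : F → E3 ≃ᵃ[ℝ] E3} {lam : F → ℝ} {c : F} {Q : CB E3 3}
    (h : Q.Kc = A c ⁻¹' cbx c.1 (lam c)) {v : E3} (hv : ‖Q.ψ v‖ ≤ 11 / 2 ^ Q.kc) :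
    Kor F A lam c \ K2 (A c) c.1 (lam c) v ⊆ (Q.tr v).N \ (Q.tr v).Kc := by
  rintro y ⟨hy, hy'⟩
  rw [← K2_eq h] at hy'
  refine ⟨Kc_sub_tr_N Q hv ?_, hy'⟩
  rw [h]
  exact hy

/-- **the new core off the old one lies in the block off its core** -/
theorem diff_kor {F : Set (Bx (Fin 3))} {A : F → E3 ≃ᵃ[ℝ] E3} {lam : F → ℝ} {c : F} {Q : CB E3 3}
    (h : Q.Kc = A c ⁻¹' cbx c.1 (lam c)) {v : E3} (hv : ‖Q.ψ v‖ ≤ 11 / 2 ^ Q.kc) :
    K2 (A c) c.1 (lam c) v \ Kor F A lam c ⊆ Q.N \ Q.Kc := by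
  rintro y ⟨hy, hy'⟩
  rw [← K2_eq h] at hy
  refine ⟨tr_Kc_sub_N Q hv hy, fun hh => hy' ?_⟩
  rw [h] at hh
  exact hh

section mesh

variable {J : Type*} (M : MD E3 3 J) {k : J → ℕ} (hk : M.Sc k) (a : Fin 3 → ℝ) {v : J → E3}
  (hv : M.Adm v)

/-- the names of the inner tiles of the block `j` which are not the core -/
def inn (j : J) : Set (M.OIx hk a hv ⊕ Σ j, M.IIx hk a hv j) :=
  {t | ∃ i : M.IIx hk a hv j, i ≠ M.core hk a hv j ∧ t = Sum.inr ⟨j, i⟩}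

theorem inner_mem {j : J} {x : E3} (hx : x ∈ (M.Bk v j).N) :
    ∃ i : M.IIx hk a hv j, x ∈ P ((M.S hk (v := v) j).H i.1) := by
  obtain ⟨i, hi, hs⟩ := (M.Bk v j).un_N (k j) (hk.kc j) x hx
  exact ⟨⟨i, hs⟩, hi⟩

/-- **the inner tiles cover the block off its core** -/
theorem cover_in (j : J) : (M.Bk v j).N \ (M.Bk v j).Kc ⊆
    ⋃ t ∈ inn M hk a hv j, P ((M.mesh hk a hv).H t) := by
  rintro x ⟨hx, hx'⟩
  obtain ⟨i, hi⟩ := inner_mem M hk a hv hx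
  have hne : i ≠ M.core hk a hv j := by
    intro e
    have h2 : x ∈ P ((M.mesh hk a hv).H (Sum.inr ⟨j, M.core hk a hv j⟩)) := by
      rw [e] at hi
      exact hi
    rw [M.P_core hk a hv j] at h2
    exact hx' h2
  have ht : (Sum.inr ⟨j, i⟩ : M.OIx hk a hv ⊕ Σ j, M.IIx hk a hv j) ∈ inn M hk a hv j := ⟨i, hne, rfl⟩
  exact mem_iUnion₂.2 ⟨_, ht, hi⟩

theorem inn_disj {j l : J} (h : j ≠ l) : Disjoint (inn M hk a hv j) (inn M hk a hv l) := by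
  rw [Set.disjoint_left]
  rintro t ⟨i, -, rfl⟩ ⟨i', -, e⟩
  have h1 := Sum.inr.inj e
  rw [Sigma.mk.injEq] at h1
  exact h h1.1

/-- an inner tile lies in the translated block -/
theorem inn_sub {j : J} {t} (ht : t ∈ inn M hk a hv j) : P ((M.mesh hk a hv).H t) ⊆ (M.Bk v j).N := by
  obtain ⟨i, -, rfl⟩ := ht
  exact i.2

theorem inn_ord {j : J} {t} (ht : t ∈ inn M hk a hv j) (l : J) :
    t ≠ Sum.inr ⟨l, M.core hk a hv l⟩ := by
  obtain ⟨i, hi, rfl⟩ := ht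
  intro e
  have h1 := Sum.inr.inj e
  rw [Sigma.mk.injEq] at h1
  obtain ⟨rfl, h2⟩ := h1
  exact hi (eq_of_heq h2)

/-- **[COVER]**: the inner tiles cover the old core off the new one -/
theorem kor_cover {F : Set (Bx (Fin 3))} {A : F → E3 ≃ᵃ[ℝ] E3} {lam : F → ℝ} {c : F} {j : J}
    (h : (M.Q j).Kc = A c ⁻¹' cbx c.1 (lam c)) (hj : ‖(M.Q j).ψ (v j)‖ ≤ 11 / 2 ^ (M.Q j).kc) :
    Kor F A lam c \ K2 (A c) c.1 (lam c) (v j) ⊆ ⋃ t ∈ inn M hk a hv j, P ((M.mesh hk a hv).H t) :=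
  (kor_diff h hj).trans (cover_in M hk a hv j)

end mesh

end

end Crest.Agent.R096.Zb_874
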