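import Crest.Agent.R096.Gau2_812

/-!
Row 96 (S0127), helper692.  **[ZETA] of 753 #11185 (4)**: the function `ζ` of (G1)(G2) (753 #11098) and the
final estimate `‖f₂ x - f x‖ ≤ η x` on all of `Om` with a *function* `η`.
-/

set_option autoImplicit false
set_option linter.style.longLine false
set_option linter.unusedSectionVars false

open Set Filter Topology Metric

namespace Crest.Agent.R096.Zet_692

open Crest.Agent.R096.Sk3_812 (HF)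

variable {E : Type} [NormedAddCommGroup E] [NormedSpace ℝ E]

/-- `1/2`-Lipschitz minorant of a nonnegative function -/
noncomputable def ic (θ : E → ℝ) (y : E) : ℝ := ⨅ z : E, (θ z + ‖y - z‖ / 2)

section ic

variable {θ : E → ℝ} (h0 : ∀ z, 0 ≤ θ z)

include h0

theorem ic_bdd (y : E) : BddBelow (range fun z : E => θ z + ‖y - z‖ / 2) := by
  refine ⟨0, ?_⟩
  rintro _ ⟨z, rfl⟩
  have := h0 z
  positivity

theorem ic_le_add (y z : E) : ic θ y ≤ θ z + ‖y - z‖ / 2 := ciInf_le (ic_bdd h0 y) z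

theorem ic_le (y : E) : ic θ y ≤ θ y := by
  have := ic_le_add h0 y y
  simpa using this

theorem ic_nonneg (y : E) : 0 ≤ ic θ y := by
  refine le_ciInf fun z => ?_
  have := h0 z
  positivity

theorem ic_sub (y y' : E) : ic θ y ≤ ic θ y' + ‖y - y'‖ / 2 := by
  have h : ic θ y - ‖y - y'‖ / 2 ≤ ic θ y' := by
    refine le_ciInf fun z => ?_
    have h1 := ic_le_add h0 y z
    have h2 : ‖y - z‖ ≤ ‖y - y'‖ + ‖y' - z‖ := by
      have := norm_add_le (y - y') (y' - z)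
      simpa using this
    linarith
  linarith

theorem ic_lip (y y' : E) : |ic θ y - ic θ y'| ≤ ‖y - y'‖ / 2 := by
  rw [abs_le]
  have h1 := ic_sub h0 y y'
  have h2 := ic_sub h0 y' y
  rw [norm_sub_rev y' y] at h2
  constructor <;> linarith

theorem ic_pos {y : E} {m r : ℝ} (hm : 0 < m) (hr : 0 < r) (h : ∀ z ∈ ball y r, m ≤ θ z) :
    0 < ic θ y := by
  have h1 : min m (r / 2) ≤ ic θ y := by
    refine le_ciInf fun z => ?_
    by_cases hz : z ∈ ball y r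
    · have := h z hz
      have := min_le_left m (r / 2)
      have : 0 ≤ ‖y - z‖ / 2 := by positivity
      linarith
    · rw [mem_ball, not_lt, dist_eq_norm, norm_sub_rev] at hz
      have := h0 z
      have := min_le_right m (r / 2)
      linarith
  exact lt_of_lt_of_le (lt_min hm (by linarith)) h1

end ic

/-- **what the target size function `ζ` and the constants `ρ`, `m` satisfy** (all chosen before `s`) -/
structure Zt (Om La : Set E) (f : E → E) (η : E → ℝ) (K' : Set E) (e : ℝ) (ζ : E → ℝ) (ρ m : ℝ) :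
    Prop where
  ρ0 : 0 < ρ
  ρe : ρ ≤ e
  m0 : 0 < m
  lip : ∀ y y', |ζ y - ζ y'| ≤ ‖y - y'‖ / 2
  nn : ∀ y, 0 ≤ ζ y
  leρ : ∀ y, ζ y ≤ ρ
  pos : ∀ y ∈ La, 0 < ζ y
  le_eta : ∀ x ∈ Om, ζ (f x) ≤ η x / 16
  sub : cthickening (6 * ρ) K' ⊆ La
  low : ∀ x ∈ Om, f x ∈ cthickening (6 * ρ) K' → 4 * m ≤ η x

variable {Om La : Set E} {f fi : E → E} {η : E → ℝ} {K' : Set E} {e ρ m : ℝ} {ζ : E → ℝ}

theorem exists_Zt [ProperSpace E] (hLa : IsOpen La) (F : HF Om La f fi) (hη : ContinuousOn η Om)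
    (hη0 : ∀ x ∈ Om, 0 < η x) (hK : IsCompact K') (hKL : K' ⊆ La) (he : 0 < e) :
    ∃ ζ ρ m, Zt Om La f η K' e ζ ρ m := by
  classical
  obtain ⟨δ, hδ, hδL⟩ := hK.exists_cthickening_subset_open hLa hKL
  set ρ : ℝ := min e (δ / 6) with hρ
  have hρ0 : 0 < ρ := lt_min he (by linarith)
  have hsub : cthickening (6 * ρ) K' ⊆ La := by
    refine (cthickening_mono ?_ K').trans hδL
    have := min_le_right e (δ / 6)
    linarith
  have hc : ContinuousOn (fun y => η (fi y)) La := hη.comp F.conti F.mti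
  have hcp : IsCompact (cthickening (6 * ρ) K') := hK.cthickening
  obtain ⟨m', hm0, hm⟩ := hcp.exists_forall_le' (hc.mono hsub) (a := 0)
    (fun b hb => hη0 _ (F.mti (hsub hb)))
  set θ : E → ℝ := fun y => if y ∈ La then min ρ (η (fi y) / 16) else 0 with hθ
  have hθ0 : ∀ z, 0 ≤ θ z := by
    intro z
    simp only [hθ]
    split_ifs with h
    · have := hη0 _ (F.mti h)
      exact le_min hρ0.le (by positivity)
    · exact le_rfl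
  refine ⟨ic θ, ρ, m' / 4, ⟨hρ0, min_le_left _ _, by positivity, ic_lip hθ0, ic_nonneg hθ0, ?_, ?_, ?_,
    hsub, ?_⟩⟩
  · intro y
    refine (ic_le hθ0 y).trans ?_
    simp only [hθ]
    split_ifs with h
    · exact min_le_left _ _
    · exact hρ0.le
  · intro y hy
    have h1 : 0 < η (fi y) := hη0 _ (F.mti hy)
    have h2 : ContinuousAt (fun y => η (fi y)) y := hc.continuousAt (hLa.mem_nhds hy)
    have h3 : ∀ᶠ z in 𝓝 y, η (fi y) / 2 < η (fi z) := h2.eventually_const_lt (by linarith)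
    have h4 : ∀ᶠ z in 𝓝 y, z ∈ La := hLa.mem_nhds hy
    obtain ⟨r, hr, h5⟩ := Metric.eventually_nhds_iff_ball.1 (h3.and h4)
    refine ic_pos hθ0 (m := min ρ (η (fi y) / 32)) (r := r) (lt_min hρ0 (by positivity)) hr ?_
    intro z hz
    obtain ⟨h6, h7⟩ := h5 z hz
    simp only [hθ, if_pos h7]
    refine min_le_min le_rfl ?_
    linarith
  · intro x hx
    refine (ic_le hθ0 _).trans ?_
    simp only [hθ]
    have := hη0 x hx
    split_ifs with h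
    · rw [F.li x hx]; exact min_le_right _ _
    · positivity
  · intro x hx hfx
    have := hm _ hfx
    rw [F.li x hx] at this
    linarith

namespace Zt

variable (Z : Zt Om La f η K' e ζ ρ m)

include Z

theorem le (y : E) : ζ y ≤ e := (Z.leρ y).trans Z.ρe

theorem cont : Continuous ζ := by
  refine (LipschitzWith.of_dist_le_mul (K := 1 / 2) ?_).continuous
  intro y y'
  rw [Real.dist_eq, dist_eq_norm]
  have := Z.lip y y'
  have h2 : ((1 / 2 : NNReal) : ℝ) = 1 / 2 := by norm_num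
  rw [h2]
  linarith

/-- a point whose image is at distance `≤ 6 ρ` of `K'` -/
theorem low' {x k : E} (hx : x ∈ Om) (hk : k ∈ K') {a : ℝ} (h : ‖f x - k‖ ≤ a) (ha : a ≤ 6 * ρ) :
    4 * m ≤ η x := by
  refine Z.low x hx ?_
  refine mem_cthickening_of_dist_le (f x) k _ K' hk ?_
  rw [dist_eq_norm]; exact h.trans ha

/-- **the final estimate at one point**: `p` is the tile of `x`, `x₁ = chi x` a point of the same tile,
`y = f (Φ x₁)`.  `ω` = oscillation of `f` on the tile. -/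
theorem step {p : Set E} {κ : Type*} {B : κ → Set E} {Φ : E → E} {c1 : ℝ}
    (hp : p ⊆ Om) (hB : ∀ k, B k ⊆ K') (hc1 : c1 ≤ m)
    (osc : ∀ x ∈ p, ∀ x' ∈ p, ‖f x' - f x‖ ≤ η x / 64 ∧ ‖f x' - f x‖ ≤ ρ / 64)
    (hU : ∀ x ∈ p, ∀ r, (∀ x' ∈ p, ‖f x' - f x‖ ≤ r) → ‖f (Φ x) - f x‖ ≤ r + c1)
    (hG : ∀ x ∈ p, ∀ r, (∀ x' ∈ p, ‖f x' - f x‖ ≤ r) →
      (∀ k, Disjoint (closedBall (f x) (2 * r + ζ (f x))) (B k)) →
      ‖f (Φ x) - f x‖ ≤ 4 * r + 4 * ζ (f x)) {x x₁ : E} (hx : x ∈ p) (hx₁ : x₁ ∈ p) :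
    ‖f (Φ x₁) - f x‖ ≤ η x / 2 ∧ (‖f (Φ x₁) - f x‖ ≤ 5 * ρ ∨ 4 * m ≤ η x) := by
  set ω : ℝ := min (η x / 64) (ρ / 64) with hω
  have hω1 : ω ≤ η x / 64 := min_le_left _ _
  have hω2 : ω ≤ ρ / 64 := min_le_right _ _
  have ho : ∀ x' ∈ p, ‖f x' - f x‖ ≤ ω := fun x' hx' =>
    le_min (osc x hx x' hx').1 (osc x hx x' hx').2
  have hω0 : 0 ≤ ω := (norm_nonneg _).trans (ho x hx)
  have ho1 : ∀ x' ∈ p, ‖f x' - f x₁‖ ≤ 2 * ω := by
    intro x' hx'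
    have h1 := ho x' hx'
    have h2 := ho x₁ hx₁
    have h3 : ‖f x' - f x₁‖ ≤ ‖f x' - f x‖ + ‖f x₁ - f x‖ := by
      have := norm_sub_le (f x' - f x) (f x₁ - f x)
      simpa using this
    linarith
  have hζ : ζ (f x₁) ≤ ζ (f x) + ω / 2 := by
    have h1 := (abs_le.1 (Z.lip (f x₁) (f x))).2
    have h2 := ho x₁ hx₁
    linarith
  have hζ1 := Z.le_eta x (hp hx)
  have hζ2 := Z.leρ (f x)
  have hζ3 := Z.nn (f x)
  have hρ0 := Z.ρ0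
  have hm0 := Z.m0
  have htri : ∀ y : E, ‖y - f x‖ ≤ ‖y - f x₁‖ + ω := by
    intro y
    have h1 := ho x₁ hx₁
    have h3 : ‖y - f x‖ ≤ ‖y - f x₁‖ + ‖f x₁ - f x‖ := by
      have := norm_add_le (y - f x₁) (f x₁ - f x)
      simpa using this
    linarith
  have h5 := htri (f (Φ x₁))
  by_cases hd : ∀ k, Disjoint (closedBall (f x₁) (2 * (2 * ω) + ζ (f x₁))) (B k)
  · have h4 := hG x₁ hx₁ (2 * ω) ho1 hd
    refine ⟨by linarith, Or.inl (by linarith)⟩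
  · push Not at hd
    obtain ⟨k, hk⟩ := hd
    rw [Set.not_disjoint_iff] at hk
    obtain ⟨y, hy1, hy2⟩ := hk
    rw [mem_closedBall, dist_eq_norm] at hy1
    have h6 : ‖f x - y‖ ≤ 6 * ρ := by
      rw [norm_sub_rev]
      have := htri y
      linarith
    have h7 := Z.low' (hp hx) (hB k hy2) h6 le_rfl
    have h4 := hU x₁ hx₁ (2 * ω) ho1
    refine ⟨by linarith, Or.inr h7⟩

/-- **the final estimate**, `1 ≤ p < 2`: `f₂ = f ∘ Ψ ∘ chi` (`chi = id` allowed) -/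
theorem final {ι κ : Type*} {P : ι → Set E} {B : κ → Set E} {Φ χ : E → E} {c1 : ℝ}
    (hP : ∀ i, P i ⊆ Om) (hcov : ∀ x ∈ Om, ∃ i, x ∈ P i) (hB : ∀ k, B k ⊆ K') (hc1 : c1 ≤ m)
    (osc : ∀ i, ∀ x ∈ P i, ∀ x' ∈ P i, ‖f x' - f x‖ ≤ η x / 64 ∧ ‖f x' - f x‖ ≤ ρ / 64)
    (hU : ∀ i, ∀ x ∈ P i, ∀ r, (∀ x' ∈ P i, ‖f x' - f x‖ ≤ r) → ‖f (Φ x) - f x‖ ≤ r + c1)
    (hG : ∀ i, ∀ x ∈ P i, ∀ r, (∀ x' ∈ P i, ‖f x' - f x‖ ≤ r) →
      (∀ k, Disjoint (closedBall (f x) (2 * r + ζ (f x))) (B k)) →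
      ‖f (Φ x) - f x‖ ≤ 4 * r + 4 * ζ (f x))
    (hχ : ∀ i, MapsTo χ (P i) (P i)) : ∀ x ∈ Om, ‖f (Φ (χ x)) - f x‖ ≤ η x / 2 := by
  intro x hx
  obtain ⟨i, hi⟩ := hcov x hx
  exact (Z.step (hP i) hB hc1 (osc i) (hU i) (hG i) hi (hχ i hi)).1

/-- **the final estimate**, `p = 2`: `f₂ = R ∘ f ∘ Φ ∘ chi`; `R = id` off the `ρ`-neighbourhood of `K'`,
`‖R y - y‖ ≤ m` -/
theorem finalR {ι κ : Type*} {P : ι → Set E} {B : κ → Set E} {Φ χ R : E → E} {c1 : ℝ}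
    (hP : ∀ i, P i ⊆ Om) (hcov : ∀ x ∈ Om, ∃ i, x ∈ P i) (hB : ∀ k, B k ⊆ K') (hc1 : c1 ≤ m)
    (osc : ∀ i, ∀ x ∈ P i, ∀ x' ∈ P i, ‖f x' - f x‖ ≤ η x / 64 ∧ ‖f x' - f x‖ ≤ ρ / 64)
    (hU : ∀ i, ∀ x ∈ P i, ∀ r, (∀ x' ∈ P i, ‖f x' - f x‖ ≤ r) → ‖f (Φ x) - f x‖ ≤ r + c1)
    (hG : ∀ i, ∀ x ∈ P i, ∀ r, (∀ x' ∈ P i, ‖f x' - f x‖ ≤ r) →
      (∀ k, Disjoint (closedBall (f x) (2 * r + ζ (f x))) (B k)) →
      ‖f (Φ x) - f x‖ ≤ 4 * r + 4 * ζ (f x))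
    (hχ : ∀ i, MapsTo χ (P i) (P i))
    (hR : ∀ y, R y = y ∨ (y ∈ thickening ρ K' ∧ ‖R y - y‖ ≤ m)) :
    ∀ x ∈ Om, ‖R (f (Φ (χ x))) - f x‖ ≤ η x := by
  intro x hx
  obtain ⟨i, hi⟩ := hcov x hx
  obtain ⟨h1, h2⟩ := Z.step (hP i) hB hc1 (osc i) (hU i) (hG i) hi (hχ i hi)
  have h0 : 0 ≤ η x := by
    have := (norm_nonneg _).trans h1
    linarith
  rcases hR (f (Φ (χ x))) with h | ⟨h3, h4⟩
  · rw [h]; linarith
  · have h5 : 4 * m ≤ η x := by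
      rcases h2 with h2 | h2
      · rw [mem_thickening_iff] at h3
        obtain ⟨k, hk, h6⟩ := h3
        refine Z.low' hx hk (a := 6 * ρ) ?_ le_rfl
        rw [dist_eq_norm] at h6
        have h7 : ‖f x - k‖ ≤ ‖f (Φ (χ x)) - f x‖ + ‖f (Φ (χ x)) - k‖ := by
          have := norm_add_le (f x - f (Φ (χ x))) (f (Φ (χ x)) - k)
          rw [norm_sub_rev (f x) (f (Φ (χ x)))] at this
          simpa using this
        linarith
      · exact h2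
    have h6 : ‖R (f (Φ (χ x))) - f x‖ ≤ ‖R (f (Φ (χ x))) - f (Φ (χ x))‖ + ‖f (Φ (χ x)) - f x‖ := by
      have := norm_add_le (R (f (Φ (χ x))) - f (Φ (χ x))) (f (Φ (χ x)) - f x)
      simpa using this
    linarith

open Crest.Agent.R096.Msh_715 in
/-- `final` over a tiling, in the literal form of 753 #11098 (G2) -/
theorem final_T {ι κ : Type*} {T : Tiling Om ι} {A : κ → E ≃ᵃ[ℝ] E} {V : κ → Set E} {Φ χ : E → E}
    {c1 : ℝ} (hB : ∀ k, A k '' V k ⊆ K') (hc1 : c1 ≤ m)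
    (osc : ∀ i, ∀ x ∈ P (T.H i), ∀ x' ∈ P (T.H i), ‖f x' - f x‖ ≤ min (η x / 64) (ρ / 64))
    (hU : ∀ i, ∀ x ∈ P (T.H i), ∀ r, (∀ x' ∈ P (T.H i), ‖f x' - f x‖ ≤ r) →
      ‖f (Φ x) - f x‖ ≤ r + c1)
    (hG : ∀ i, ∀ x ∈ P (T.H i), ∀ r, (∀ x' ∈ P (T.H i), ‖f x' - f x‖ ≤ r) →
      (∀ k, Disjoint (closedBall (f x) (2 * r + ζ (f x))) (A k '' V k)) →
      ‖f (Φ x) - f x‖ ≤ 4 * r + 4 * ζ (f x))
    (hχ : ∀ i, MapsTo χ (P (T.H i)) (P (T.H i))) : ∀ x ∈ Om, ‖f (Φ (χ x)) - f x‖ ≤ η x / 2 :=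
  Z.final (P := fun i => P (T.H i)) (fun i => T.sub i) T.cov hB hc1
    (fun i x hx x' hx' => ⟨(osc i x hx x' hx').trans (min_le_left _ _),
      (osc i x hx x' hx').trans (min_le_right _ _)⟩) hU hG hχ

open Crest.Agent.R096.Msh_715 in
/-- `finalR` over a tiling, in the literal form of 753 #11098 (G2) -/
theorem finalR_T {ι κ : Type*} {T : Tiling Om ι} {A : κ → E ≃ᵃ[ℝ] E} {V : κ → Set E}
    {Φ χ R : E → E} {c1 : ℝ} (hB : ∀ k, A k '' V k ⊆ K') (hc1 : c1 ≤ m)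
    (osc : ∀ i, ∀ x ∈ P (T.H i), ∀ x' ∈ P (T.H i), ‖f x' - f x‖ ≤ min (η x / 64) (ρ / 64))
    (hU : ∀ i, ∀ x ∈ P (T.H i), ∀ r, (∀ x' ∈ P (T.H i), ‖f x' - f x‖ ≤ r) →
      ‖f (Φ x) - f x‖ ≤ r + c1)
    (hG : ∀ i, ∀ x ∈ P (T.H i), ∀ r, (∀ x' ∈ P (T.H i), ‖f x' - f x‖ ≤ r) →
      (∀ k, Disjoint (closedBall (f x) (2 * r + ζ (f x))) (A k '' V k)) →
      ‖f (Φ x) - f x‖ ≤ 4 * r + 4 * ζ (f x))
    (hχ : ∀ i, MapsTo χ (P (T.H i)) (P (T.H i)))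
    (hR : ∀ y, R y = y ∨ (y ∈ thickening ρ K' ∧ ‖R y - y‖ ≤ m)) :
    ∀ x ∈ Om, ‖R (f (Φ (χ x))) - f x‖ ≤ η x :=
  Z.finalR (P := fun i => P (T.H i)) (fun i => T.sub i) T.cov hB hc1
    (fun i x hx x' hx' => ⟨(osc i x hx x' hx').trans (min_le_left _ _),
      (osc i x hx x' hx').trans (min_le_right _ _)⟩) hU hG hχ hR

open Crest.Agent.R096.Msh_715 in
/-- `final` over a tiling, bodies indexed by a `Finset` (812 `psi_of_regs_fine`) -/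
theorem final_Q {ι κ : Type*} {T : Tiling Om ι} {Q : Finset κ} {B : κ → Set E} {Φ χ : E → E}
    {c1 : ℝ} (hB : ∀ k ∈ Q, B k ⊆ K') (hc1 : c1 ≤ m)
    (osc : ∀ i, ∀ x ∈ P (T.H i), ∀ x' ∈ P (T.H i), ‖f x' - f x‖ ≤ min (η x / 64) (ρ / 64))
    (hU : ∀ i, ∀ x ∈ P (T.H i), ∀ r, (∀ x' ∈ P (T.H i), ‖f x' - f x‖ ≤ r) →
      ‖f (Φ x) - f x‖ ≤ r + c1)
    (hG : ∀ i, ∀ x ∈ P (T.H i), ∀ r, (∀ x' ∈ P (T.H i), ‖f x' - f x‖ ≤ r) →
      (∀ k ∈ Q, Disjoint (closedBall (f x) (2 * r + ζ (f x))) (B k)) →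
      ‖f (Φ x) - f x‖ ≤ 4 * r + 4 * ζ (f x))
    (hχ : ∀ i, MapsTo χ (P (T.H i)) (P (T.H i))) : ∀ x ∈ Om, ‖f (Φ (χ x)) - f x‖ ≤ η x / 2 :=
  Z.final (P := fun i => P (T.H i)) (B := fun k : Q => B k) (fun i => T.sub i) T.cov
    (fun k => hB k k.2) hc1
    (fun i x hx x' hx' => ⟨(osc i x hx x' hx').trans (min_le_left _ _),
      (osc i x hx x' hx').trans (min_le_right _ _)⟩) hU
    (fun i x hx r hr hd => hG i x hx r hr fun k hk => hd ⟨k, hk⟩) hχ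

open Crest.Agent.R096.Msh_715 in
/-- `finalR` over a tiling, bodies indexed by a `Finset` -/
theorem finalR_Q {ι κ : Type*} {T : Tiling Om ι} {Q : Finset κ} {B : κ → Set E} {Φ χ R : E → E}
    {c1 : ℝ} (hB : ∀ k ∈ Q, B k ⊆ K') (hc1 : c1 ≤ m)
    (osc : ∀ i, ∀ x ∈ P (T.H i), ∀ x' ∈ P (T.H i), ‖f x' - f x‖ ≤ min (η x / 64) (ρ / 64))
    (hU : ∀ i, ∀ x ∈ P (T.H i), ∀ r, (∀ x' ∈ P (T.H i), ‖f x' - f x‖ ≤ r) →
      ‖f (Φ x) - f x‖ ≤ r + c1)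
    (hG : ∀ i, ∀ x ∈ P (T.H i), ∀ r, (∀ x' ∈ P (T.H i), ‖f x' - f x‖ ≤ r) →
      (∀ k ∈ Q, Disjoint (closedBall (f x) (2 * r + ζ (f x))) (B k)) →
      ‖f (Φ x) - f x‖ ≤ 4 * r + 4 * ζ (f x))
    (hχ : ∀ i, MapsTo χ (P (T.H i)) (P (T.H i)))
    (hR : ∀ y, R y = y ∨ (y ∈ thickening ρ K' ∧ ‖R y - y‖ ≤ m)) :
    ∀ x ∈ Om, ‖R (f (Φ (χ x))) - f x‖ ≤ η x :=
  Z.finalR (P := fun i => P (T.H i)) (B := fun k : Q => B k) (fun i => T.sub i) T.cov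
    (fun k => hB k k.2) hc1
    (fun i x hx x' hx' => ⟨(osc i x hx x' hx').trans (min_le_left _ _),
      (osc i x hx x' hx').trans (min_le_right _ _)⟩) hU
    (fun i x hx r hr hd => hG i x hx r hr fun k hk => hd ⟨k, hk⟩) hχ hR

end Zt

/-- the size function for [OSC]: continuous and positive on `Om` -/
theorem osc_fun {Om : Set E} {η : E → ℝ} {ρ : ℝ} (hη : ContinuousOn η Om) (hη0 : ∀ x ∈ Om, 0 < η x)
    (hρ : 0 < ρ) : ContinuousOn (fun x => min (η x / 64) (ρ / 64)) Om ∧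
      ∀ x ∈ Om, 0 < min (η x / 64) (ρ / 64) :=
  ⟨(hη.div_const 64).inf continuousOn_const, fun x hx =>
    lt_min (by have := hη0 x hx; positivity) (by positivity)⟩

/-- the hypothesis `hR` from the clauses of `Tsq_753.exists_R` (465 `exists_phiR`) -/
theorem hR_of {κ : Type*} {A : κ → E ≃ᵃ[ℝ] E} {V : κ → Set E} {K' : Set E} {ρ m : ℝ} {R : E → E}
    {r σ : κ → ℝ} (hB : ∀ k, A k '' V k ⊆ K') (hr : ∀ k, r k ≤ ρ) (hσ : ∀ k, 3 * σ k ≤ m)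
    (h1 : ∀ y, (∀ k, y ∉ thickening (r k) (A k '' V k)) → R y = y)
    (h2 : ∀ k, ∀ y ∈ thickening (r k) (A k '' V k), ‖R y - y‖ ≤ 3 * σ k) :
    ∀ y, R y = y ∨ (y ∈ thickening ρ K' ∧ ‖R y - y‖ ≤ m) := by
  intro y
  by_cases h : ∀ k, y ∉ thickening (r k) (A k '' V k)
  · exact Or.inl (h1 y h)
  · push Not at h
    obtain ⟨k, hk⟩ := h
    exact Or.inr ⟨thickening_mono (hr k) _ (thickening_subset_of_subset _ (hB k) hk),
      (h2 k y hk).trans (hσ k)⟩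

end Crest.Agent.R096.Zet_692
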