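import Crest.Agent.R096.Gsc3_476
import Crest.Agent.R096.Rmt4_816

/-!
Row 96 (S0127), helper561.  [E1] of 538 #12014: the closed sets `Zj` between the cores and the blocks:
they contain the cores of all positions of the small cube and meet no tile outside the blocks.
-/

set_option autoImplicit false
set_option linter.unusedSectionVars false
set_option linter.style.longLine false

open MeasureTheory Set Filter Metric
open scoped ENNReal NNReal Topology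

namespace Crest.Agent.R096.Zj_561

open Crest.AnalysisR.VecCalc3 (R3)
open Crest.Agent.R96.Coarse_538 (Dt)
open Crest.Agent.R096.Msh_715 (P I Tiling)
open Crest.Agent.R096.Msh_810 (ps)
open Crest.Agent.R096.Mal_874 (CB MD)
open Crest.Agent.R096.Msb_432 (isCompact_Kc mem_Kc)
open Crest.Agent.R096.Ca_855 (MIn)
open Crest.Agent.R096.Rmt_816 (Bj norm_Dt norm_D0)
open Crest.Agent.R096.Gsc_476 (outer_orT Bk_eq)

noncomputable section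

/-- the neighbourhood of the core of block `j` -/
def Zj {J : Type} (Qb : J → CB R3 3) (κ : ℝ) (k0 : ℕ) (j : J) : Set R3 :=
  {y | ∃ z ∈ (Qb j).Kc, ‖(Qb j).ψ y - (Qb j).ψ z‖ ≤ 8 * κ⁻¹ / 2 ^ k0}

theorem Zj_eq {J : Type} (Qb : J → CB R3 3) {κ : ℝ} (hκ : 0 < κ) (k0 : ℕ) (j : J) :
    Zj Qb κ k0 j = (Qb j).ψ ⁻¹' cthickening (8 * κ⁻¹ / 2 ^ k0) ((Qb j).ψ '' (Qb j).Kc) := by
  rw [((isCompact_Kc (Qb j)).image (Qb j).ψ.continuous).cthickening_eq_biUnion_closedBall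
    (by positivity)]
  ext y
  simp only [mem_preimage, mem_iUnion, exists_prop]
  constructor
  · rintro ⟨z, hz, h⟩
    exact ⟨_, ⟨z, hz, rfl⟩, by rw [mem_closedBall, dist_eq_norm]; exact h⟩
  · rintro ⟨_, ⟨z, hz, rfl⟩, h⟩
    exact ⟨z, hz, by rwa [mem_closedBall, dist_eq_norm] at h⟩

theorem isClosed_Zj {J : Type} (Qb : J → CB R3 3) {κ : ℝ} (hκ : 0 < κ) (k0 : ℕ) (j : J) :
    IsClosed (Zj Qb κ k0 j) := by
  rw [Zj_eq Qb hκ]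
  exact isClosed_cthickening.preimage (Qb j).ψ.continuous

variable {Om W : Set R3} {ρ₀ : R3 → ℝ} {J : Type} [Finite J] {Qb : J → CB R3 3} {k0 : ℕ} {σ : ℝ}

/-- the frame at a small position -/
theorem norm_ψ_Dt {κ : ℝ} (hκ : 0 < κ) {Bs Nn : ℕ} {j : J} (hb : MIn.BQ κ Bs Nn (Qb j) k0)
    {a : R3} (ha : a ∈ Dt (1 / 2 ^ k0)) : ‖(Qb j).ψ a‖ ≤ 8 * κ⁻¹ / 2 ^ k0 := by
  have h1 := norm_Dt (s := 1 / 2 ^ k0) (by positivity) ha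
  have h2 := (hb.cnd a).2
  calc ‖(Qb j).ψ a‖ ≤ 4 * κ⁻¹ * ‖a‖ := h2
    _ ≤ 4 * κ⁻¹ * (2 * (1 / 2 ^ k0)) := mul_le_mul_of_nonneg_left h1 (by positivity)
    _ = 8 * κ⁻¹ / 2 ^ k0 := by ring

theorem Kc_sub_Zj {κ : ℝ} (hκ : 0 < κ) {Bs Nn : ℕ} {j : J} (hb : MIn.BQ κ Bs Nn (Qb j) k0)
    {a : R3} (ha : a ∈ Dt (1 / 2 ^ k0)) : ((Qb j).tr a).Kc ⊆ Zj Qb κ k0 j := by
  intro y hy
  refine ⟨y - a, (CB.mem_Kc_tr (Qb j) a y).1 hy, ?_⟩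
  rw [← map_sub, sub_sub_cancel]
  exact norm_ψ_Dt hκ hb ha

/-- points of `Zj` are interior points of the block at every position of the small cube -/
theorem Zj_int {κ : ℝ} (hκ : 0 < κ) {Bs Nn : ℕ} {j : J} (hb : MIn.BQ κ Bs Nn (Qb j) k0)
    (hsm : 16 * κ⁻¹ / 2 ^ k0 < 1 / 2 ^ (Qb j).kc) {a : R3} (ha : a ∈ Dt (1 / 2 ^ k0)) {y : R3}
    (hy : y ∈ Zj Qb κ k0 j) :
    y ∈ ((Qb j).tr a).N ∧ y ∉ frontier ((Qb j).tr a).N ∧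
      7 / 2 ^ (Qb j).kc ≤ infDist ((Qb j).ψ (y - a)) (Qb j).W := by
  obtain ⟨z, hz, hyz⟩ := hy
  have hp : (0:ℝ) < 2 ^ (Qb j).kc := by positivity
  have h1 : ‖(Qb j).ψ (y - a) - (Qb j).ψ z‖ < 1 / 2 ^ (Qb j).kc := by
    refine lt_of_le_of_lt ?_ hsm
    have h2 : (Qb j).ψ (y - a) - (Qb j).ψ z = ((Qb j).ψ y - (Qb j).ψ z) - (Qb j).ψ a := by
      rw [map_sub]; abel
    rw [h2]
    refine (norm_sub_le _ _).trans ((add_le_add hyz (norm_ψ_Dt hκ hb ha)).trans (le_of_eq ?_))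
    ring
  have h2 : ∀ l, |ps (Qb j).a' (Qb j).kc ((Qb j).ψ (y - a)) l -
      ps (Qb j).a' (Qb j).kc ((Qb j).ψ z) l| < 1 := by
    intro l
    have h3 := (norm_le_pi_norm ((Qb j).ψ (y - a) - (Qb j).ψ z) l).trans_lt h1
    rw [Pi.sub_apply, Real.norm_eq_abs, lt_div_iff₀ hp] at h3
    unfold ps
    have e : 2 ^ (Qb j).kc * ((Qb j).ψ (y - a) l - (Qb j).a' l) -
        2 ^ (Qb j).kc * ((Qb j).ψ z l - (Qb j).a' l) =
        ((Qb j).ψ (y - a) l - (Qb j).ψ z l) * 2 ^ (Qb j).kc := by ring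
    rw [e, abs_mul, abs_of_pos hp]
    exact h3
  have h3 := (mem_Kc (Qb j)).1 hz
  have ht : (0:ℝ) ≤ (Qb j).S.t := by
    have := (Qb j).S.t0
    exact_mod_cast this.le
  have hw := (Qb j).w_real
  have h4 : (7:ℝ) / 2 ^ (Qb j).kc ≤ infDist ((Qb j).ψ (y - a)) (Qb j).W := by
    have h5 := (Qb j).near_infDist (y := y - a) (fun l => by
      have h6 := abs_lt.1 (h2 l)
      have h7 := h3 l
      constructor <;> linarith [h6.1, h6.2, h7.1, h7.2])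
    rwa [show (6:ℝ) + 1 = 7 by norm_num] at h5
  refine ⟨?_, ?_, h4⟩
  · rw [CB.mem_N_tr, CB.mem_N]
    intro l
    have h6 := abs_lt.1 (h2 l)
    have h7 := h3 l
    constructor <;> linarith [h6.1, h6.2, h7.1, h7.2]
  · rw [CB.frontier_N_tr, CB.frontier_N, mem_preimage]
    intro h5
    rw [infDist_zero_of_mem h5] at h4
    have : (0:ℝ) < 7 / 2 ^ (Qb j).kc := by positivity
    linarith

/-- **[E1]** -/
theorem e1_leaf (h : MIn Om W ρ₀ Qb k0 σ) {κ : ℝ} (hκ : 0 < κ) {Bs Nn : ℕ}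
    (hb : ∀ j, MIn.BQ κ Bs Nn (Qb j) k0) (hsm : ∀ j, 16 * κ⁻¹ / 2 ^ k0 < 1 / 2 ^ (Qb j).kc)
    {a : R3} (ha : a ∈ Dt (1 / 2 ^ k0)) :
    (∀ j, IsClosed (Zj Qb κ k0 j)) ∧ (∀ j, ((Qb j).tr a).Kc ⊆ Zj Qb κ k0 j) ∧
      ∀ i : h.ιT a, (∀ j, ¬ P ((h.T a).H i) ⊆ (Bj h a j).N) →
        ∀ j, Disjoint (P ((h.T a).H i)) (Zj Qb κ k0 j) := by
  refine ⟨fun j => isClosed_Zj Qb hκ k0 j, fun j => Kc_sub_Zj hκ (hb j) ha, fun i hi j => ?_⟩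
  rw [Set.disjoint_left]
  intro y hyi hyZ
  obtain ⟨h1, h2, -⟩ := Zj_int hκ (hb j) (hsm j) ha hyZ
  have ha' : ‖a‖ ≤ σ / 8 := (norm_D0 h a ha).le
  rcases outer_orT h ha' i with ⟨p, hp, rfl⟩ | ⟨l, hl⟩
  · rw [← Bk_eq h ha' j] at h1 h2
    exact h2 (h.M.outer_touch h.sc (0 + h.M.φ (h.cl a)) (h.adm a) p hyi h1)
  · refine hi l ?_
    show _ ⊆ (h.M.Bk (fun _ => h.cl a) l).N
    rw [Bk_eq h ha' l]
    exact hl

/-- the tiles outside the blocks lie in `Om \ ⋃ j, Zj` -/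
theorem e1_sub (h : MIn Om W ρ₀ Qb k0 σ) {κ : ℝ} (hκ : 0 < κ) {Bs Nn : ℕ}
    (hb : ∀ j, MIn.BQ κ Bs Nn (Qb j) k0) (hsm : ∀ j, 16 * κ⁻¹ / 2 ^ k0 < 1 / 2 ^ (Qb j).kc)
    {a : R3} (ha : a ∈ Dt (1 / 2 ^ k0)) {i : h.ιT a}
    (hi : ∀ j, ¬ P ((h.T a).H i) ⊆ (Bj h a j).N) :
    P ((h.T a).H i) ⊆ Om \ ⋃ j, Zj Qb κ k0 j := by
  intro y hy
  refine ⟨(h.T a).sub i hy, fun hy' => ?_⟩
  obtain ⟨j, hj⟩ := mem_iUnion.1 hy'
  exact Set.disjoint_left.1 ((e1_leaf h hκ hb hsm ha).2.2 i hi j) hy hj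

theorem isClosed_iUnion_Zj {κ : ℝ} (hκ : 0 < κ) : IsClosed (⋃ j, Zj Qb κ k0 j) :=
  isClosed_iUnion_of_finite fun j => isClosed_Zj Qb hκ k0 j

theorem measurableSet_E1 (hOm : IsOpen Om) {κ : ℝ} (hκ : 0 < κ) :
    MeasurableSet (Om \ ⋃ j, Zj Qb κ k0 j) :=
  hOm.measurableSet.diff (isClosed_iUnion_Zj hκ).measurableSet

/-- `Om \ ⋃ j, Zj` is in the complement of the cores, for every set of blocks -/
theorem E1_sub_Kc {κ : ℝ} (hκ : 0 < κ) {Bs Nn : ℕ} (hb : ∀ j, MIn.BQ κ Bs Nn (Qb j) k0)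
    {a : R3} (ha : a ∈ Dt (1 / 2 ^ k0)) (JQ : Set J) :
    (Om \ ⋃ j, Zj Qb κ k0 j) ⊆ Om \ ⋃ j ∈ JQ, ((Qb j).tr a).Kc := by
  refine diff_subset_diff_right (iUnion₂_subset fun j _ => ?_)
  exact (Kc_sub_Zj hκ (hb j) ha).trans (subset_iUnion _ j)

end

end Crest.Agent.R096.Zj_561
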