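import Crest.Agent.R096.Gsc3_476
import Crest.Agent.R096.Rmt4_816
import Crest.Agent.R096.Eln2_812
import Crest.Agent.R96.Eld1_538

/-!
Row 96 (S0127), helper561.  [E1] of 538 #12048: the neighbours of the tiles of class (1) lie in
`Eln_812.E1 Om Qb` (off the unshifted blocks).
-/

set_option autoImplicit false
set_option linter.unusedSectionVars false
set_option linter.style.longLine false

open MeasureTheory Set Filter Metric
open scoped ENNReal NNReal Topology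

namespace Crest.Agent.R096.Zj_561

open Crest.AnalysisR.VecCalc3 (R3)
open Crest.Agent.R96.Coarse_538 (Dt)
open Crest.Agent.R096.Msh_715 (P I Tiling)
open Crest.Agent.R096.Mal_874 (CB MD AD dist_cube outD)
open Crest.Agent.R096.Ca_855
open Crest.Agent.R096.Rmt_816 (Bj norm_Dt norm_D0 adm_tile)
open Crest.Agent.R096.Gsc_476 (outer_orT Bk_eq near_wall_outT)
open Crest.Agent.R96.En10_199 (P3)
open Crest.Agent.R96.Eld_538 (Cl1)

noncomputable section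

variable {Om W : Set R3} {ρ₀ : R3 → ℝ} {J : Type} [Finite J] {Qb : J → CB R3 3} {k0 : ℕ} {σ : ℝ}

/-- **the outer tiles have diameter `≤ 1 / 2 ^ k0`** in outer coordinates -/
theorem diam_out0 (h : MIn Om W ρ₀ Qb k0 σ) {a : R3} {i : h.ιT a} (ha : ‖a‖ ≤ σ / 8)
    (hi : ∀ j, ¬ P ((h.T a).H i) ⊆ ((Qb j).tr a).N) {x y : R3}
    (hx : x ∈ P ((h.T a).H i)) (hy : y ∈ P ((h.T a).H i)) :
    dist (P3.symm x) (P3.symm y) ≤ 1 / 2 ^ k0 := by
  rcases outer_orT h ha i with ⟨p, hp, rfl⟩ | ⟨l, hl⟩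
  · have hsub : P ((h.M.mesh h.sc (0 + h.M.φ (h.cl a)) (h.adm a)).H (Sum.inl p)) ⊆
        P ((h.M.ad h.sc (0 + h.M.φ (h.cl a)) (h.adm a)).T0.H p.1.par) :=
      Crest.Agent.R096.Cut_874.cut_tile_sub (hA := Crest.Agent.R096.Mal_874.AF_ne) p.1
    have hx' := (AD.tile_T0 (M := h.M.ad h.sc (0 + h.M.φ (h.cl a)) (h.adm a)) _).1 (hsub hx)
    have hy' := (AD.tile_T0 (M := h.M.ad h.sc (0 + h.M.φ (h.cl a)) (h.adm a)) _).1 (hsub hy)
    have h1 := dist_cube hx' hy'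
    have h2 := adm_tile hx'
    have hp0 : (0:ℝ) < 2 ^ k0 := by positivity
    have hpk : (0:ℝ) < 2 ^ p.1.par.1.1.k := by positivity
    have h3 : ((h.M.ad h.sc (0 + h.M.φ (h.cl a)) (h.adm a)).D).ρ (h.M.φ x) ≤ 6 / 2 ^ k0 := by
      have e1 : ((h.M.ad h.sc (0 + h.M.φ (h.cl a)) (h.adm a)).D).ρ (h.M.φ x) ≤
          h.D0.ρ (h.M.φ x) :=
        ciInf_le ⟨0, by
          rintro _ ⟨o, rfl⟩
          exact Crest.Agent.R096.Mal_874.outF_nonneg h.D0.C_pos h.D0.nonneg _ o⟩ none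
      exact e1.trans (min_le_right _ _)
    have h4 : (6:ℝ) ≤ 2 ^ p.1.par.1.1.k * (6 / 2 ^ k0) :=
      (show (6:ℝ) ≤ _ from h2).trans (mul_le_mul_of_nonneg_left h3 hpk.le)
    have h5 : (1:ℝ) / 2 ^ p.1.par.1.1.k ≤ 1 / 2 ^ k0 := by
      rw [div_le_div_iff₀ hpk hp0]
      rw [mul_div_assoc', le_div_iff₀ hp0] at h4
      linarith
    exact h1.trans h5
  · exact absurd hl (hi l)

/-- **[E1]** : the neighbours of the tiles of class (1) lie off the (unshifted) blocks -/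
theorem e1_nbr (h : MIn Om W ρ₀ Qb k0 σ) {a : R3} (ha : a ∈ Dt (1 / 2 ^ k0)) {k i : h.ιT a}
    (hk : Cl1 h 4 a k) (hki : (P ((h.T a).H k) ∩ P ((h.T a).H i)).Nonempty) :
    P ((h.T a).H i) ⊆ Crest.Agent.R096.Eln_812.E1 Om Qb := by
  have ha' : ‖a‖ ≤ σ / 8 := (norm_D0 h a ha).le
  have hp0 : (0:ℝ) < 1 / 2 ^ k0 := by positivity
  have e4 : (4:ℝ) / 2 ^ k0 = 4 * (1 / 2 ^ k0) := by ring
  obtain ⟨hk1, hk2⟩ := hk
  have hk1' : ∀ j, ¬ P ((h.T a).H k) ⊆ ((Qb j).tr a).N := fun j => by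
    rw [← Bk_eq h ha' j]; exact hk1 j
  have hk2' : ∀ j, ∀ x ∈ P ((h.T a).H k), ∀ z ∈ frontier ((Qb j).tr a).N,
      4 * (1 / 2 ^ k0) < dist (P3.symm x) (P3.symm z) := fun j => by
    rw [← Bk_eq h ha' j, ← e4]; exact hk2 j
  obtain ⟨x₀, hx₀, hx₀'⟩ := hki
  -- the neighbour is in no block
  have hi : ∀ j, ¬ P ((h.T a).H i) ⊆ ((Qb j).tr a).N := by
    intro j hj
    obtain ⟨-, z, hz, hzk, -⟩ := near_wall_outT h ha' (hk1' j) ⟨x₀, hx₀, hj hx₀'⟩ hx₀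
    have h1 := hk2' j z hzk z hz
    rw [dist_self] at h1
    linarith
  intro y hy
  refine ⟨(h.T a).sub i hy, fun hy' => ?_⟩
  obtain ⟨j, hj⟩ := mem_iUnion.1 hy'
  revert hj
  refine Crest.Agent.R096.Eln_812.not_mem_N_of_far (v := a) (fun hyN => ?_) (fun z hz => ?_)
  · obtain ⟨-, z, hz, hzi, -⟩ := near_wall_outT h ha' (hi j) ⟨y, hy, hyN⟩ hy
    have h1 := hk2' j x₀ hx₀ z hz
    have h2 := diam_out0 h ha' hi hx₀' hzi
    linarith
  · have h1 := hk2' j x₀ hx₀ z hz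
    have h2 := diam_out0 h ha' hi hx₀' hy
    have h3 := dist_triangle (P3.symm x₀) (P3.symm y) (P3.symm z)
    have h4 := dist_P3s_le y z
    have h5 := norm_Dt (s := 1 / 2 ^ k0) (by positivity) ha
    linarith

/-- the tiles of class (1) themselves -/
theorem e1_self (h : MIn Om W ρ₀ Qb k0 σ) {a : R3} (ha : a ∈ Dt (1 / 2 ^ k0)) {k : h.ιT a}
    (hk : Cl1 h 4 a k) : P ((h.T a).H k) ⊆ Crest.Agent.R096.Eln_812.E1 Om Qb := by
  obtain ⟨x, hx⟩ := (h.T a).ne k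
  have hx' := Crest.Agent.R096.Msh_715.I_sub_P _ hx
  exact e1_nbr h ha hk ⟨x, hx', hx'⟩

end

end Crest.Agent.R096.Zj_561
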