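import Crest.Agent.R096.Mcg2_798

/-!
# Row 96, EA p < 3, helper798: [ZLAT] of 348 #11024, part 1 (any frame `φ`, any dimension)

Zones = compact sets `B c` (in the coordinates of the outer frame) off the blocks.  `MD.zn` = the same
mesh data with the outer size function made `C / 2 ^ kz c` at the zone `B c`: then every tile of the
mesh which meets the zone `B c` is a cube of the lattice `a + 2 ^ (-kz c) ℤⁿ`.
-/

set_option autoImplicit false

open Set Filter Topology Metric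

namespace Crest.Agent.R096.Zlt_798

open Msh_715 Cut_874 Msh_810 Mal_874

variable {n : ℕ} {E : Type*} [NormedAddCommGroup E] [NormedSpace ℝ E] {J : Type*} {𝒞 : Type*}

/-- zones off the blocks -/
structure Zn (M : MD E n J) (B : 𝒞 → Set (Fin n → ℝ)) : Prop where
  cpt : ∀ c, IsCompact (B c)
  ne : ∀ c, (B c).Nonempty
  sub : ∀ c, B c ⊆ M.D0.Om
  dis : ∀ c c', c ≠ c' → Disjoint (B c) (B c')
  disV : ∀ c j, Disjoint (B c) (M.V j)
  lf : ∀ y ∈ M.D0.Om, ∃ r > 0, {c | (B c ∩ ball y r).Nonempty}.Finite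

variable {M : MD E n J} {B : 𝒞 → Set (Fin n → ℝ)}

/-- **the mesh data with the scale `kz c` at the zone `B c`** -/
noncomputable def zn (Z : Zn M B) (kz : 𝒞 → ℕ) : MD E n J where
  φ := M.φ
  D0 := outD M.D0 kz B 0
  hC := M.hC
  Q := M.Q
  r := M.r
  r_pos := M.r_pos
  Vdis := M.Vdis
  Vsub := by
    intro j
    rw [outD_Om Z.ne Z.lf]
    exact M.Vsub j
  Vlf := by
    rw [outD_Om Z.ne Z.lf]
    exact M.Vlf

section basic

variable (Z : Zn M B) (kz : 𝒞 → ℕ)

theorem zn_φ : (zn Z kz).φ = M.φ := rfl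
theorem zn_Q : (zn Z kz).Q = M.Q := rfl
theorem zn_r : (zn Z kz).r = M.r := rfl
theorem zn_V : (zn Z kz).V = M.V := rfl
theorem zn_W : (zn Z kz).W = M.W := rfl
theorem zn_D0 : (zn Z kz).D0 = outD M.D0 kz B 0 := rfl
theorem zn_C : (zn Z kz).D0.C = M.D0.C := rfl

/-- the domain does not change -/
theorem zn_Om : (zn Z kz).D0.Om = M.D0.Om := outD_Om Z.ne Z.lf

/-- the mesh is at least as fine as before -/
theorem zn_ρ_le (x : Fin n → ℝ) : (zn Z kz).D0.ρ x ≤ M.D0.ρ x := outD_le_ρ0 x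

theorem zn_Adm {v : J → E} : (zn Z kz).Adm v ↔ M.Adm v := Iff.rfl

/-- the rational data of the blocks -/
def znRD (X : RD M) : RD (zn Z kz) where
  A := X.A
  d := X.d
  dpos := X.dpos
  rat := X.rat
  c := X.c
  c1 := X.c1
  cn := X.cn
  B := X.B
  B1 := X.B1
  hB := X.hB
  R := X.R
  R1 := X.R1
  hR := X.hR

end basic

/-! ### the distances -/

/-- the room around the zones -/
structure Room (M : MD E n J) (B : 𝒞 → Set (Fin n → ℝ)) (m : 𝒞 → ℝ) : Prop where
  pos : ∀ c, 0 < m c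
  rho : ∀ c, ∀ x ∈ B c, m c ≤ M.D0.ρ x
  zone : ∀ c, ∀ x ∈ B c, ∀ c', c' ≠ c → m c ≤ infDist x (B c')
  blk : ∀ c, ∀ x ∈ B c, ∀ j, Disjoint (ball x (m c)) (M.V j)

theorem exists_room (Z : Zn M B) : ∃ m : 𝒞 → ℝ, Room M B m := by
  have h1 : ∀ c, ∃ m > 0, ∀ x ∈ B c, m ≤ M.D0.ρ x := by
    intro c
    obtain ⟨x0, hx0, hmin⟩ := (Z.cpt c).exists_isMinOn (Z.ne c) M.D0.continuous_ρ.continuousOn
    exact ⟨M.D0.ρ x0, Z.sub c hx0, fun x hx => hmin hx⟩
  have h2 : ∀ c, ∃ m > 0, ∀ x ∈ B c, ∀ l : {l // l ≠ c}, Disjoint (ball x m) (B l) := by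
    intro c
    refine exists_sep (Z.cpt c) (fun l => (Z.cpt l).isClosed)
      (fun l => Z.dis c l (fun e => l.2 e.symm)) ?_
    intro x hx
    obtain ⟨s, hs, hf⟩ := Z.lf x (Z.sub c hx)
    refine ⟨s, hs, ?_⟩
    refine Set.Finite.of_finite_image (f := Subtype.val) (hf.subset ?_)
      Subtype.val_injective.injOn
    rintro _ ⟨l, hl, rfl⟩
    exact hl
  have h3 : ∀ c, ∃ m > 0, ∀ x ∈ B c, ∀ j, Disjoint (ball x m) (M.V j) := by
    intro c
    refine exists_sep (Z.cpt c) (fun j => (M.isCompact_V j).isClosed) (fun j => Z.disV c j) ?_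
    intro x hx
    exact M.Vlf x (Z.sub c hx)
  choose m1 hm1 h1 using h1
  choose m2 hm2 h2 using h2
  choose m3 hm3 h3 using h3
  refine ⟨fun c => min (m1 c) (min (m2 c) (m3 c)), fun c => ?_, fun c x hx => ?_,
    fun c x hx c' hc => ?_, fun c x hx j => ?_⟩
  · exact lt_min (hm1 c) (lt_min (hm2 c) (hm3 c))
  · exact (min_le_left _ _).trans (h1 c x hx)
  · rw [le_infDist (Z.ne c')]
    intro y hy
    refine ((min_le_right _ _).trans (min_le_left _ _)).trans ?_
    by_contra hcon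
    push Not at hcon
    refine Set.disjoint_left.1 (h2 c x hx ⟨c', hc⟩) ?_ hy
    rw [mem_ball, dist_comm]
    exact hcon
  · exact (h3 c x hx j).mono_left (ball_subset_ball ((min_le_right _ _).trans (min_le_right _ _)))

/-- the scale of the zone is fine enough -/
def Fin1 (M : MD E n J) (m : 𝒞 → ℝ) (kz : 𝒞 → ℕ) : Prop :=
  ∀ c, (2 * M.D0.C + 2) / 2 ^ kz c ≤ m c

theorem exists_fin1 {m : 𝒞 → ℝ} (hm : ∀ c, 0 < m c) :
    ∃ kz0 : 𝒞 → ℕ, ∀ kz : 𝒞 → ℕ, (∀ c, kz0 c ≤ kz c) → Fin1 M m kz := by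
  have hC : 0 < M.D0.C := M.D0.C_pos
  have h : ∀ c, ∃ k : ℕ, (2 * M.D0.C + 2) / 2 ^ k ≤ m c := by
    intro c
    obtain ⟨k, hk⟩ := exists_nat_gt ((2 * M.D0.C + 2) / m c)
    refine ⟨k, ?_⟩
    rw [div_le_iff₀ (by positivity)]
    rw [div_lt_iff₀ (hm c)] at hk
    have h5 : (k : ℝ) ≤ 2 ^ k := by exact_mod_cast Nat.lt_two_pow_self.le
    have := hm c
    nlinarith
  choose kz0 h using h
  refine ⟨kz0, fun kz hkz c => le_trans ?_ (h c)⟩
  exact div_le_div_of_nonneg_left (by linarith) (by positivity)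
    (pow_le_pow_right₀ (by norm_num) (hkz c))

/-! ### the scale at the zones -/

section scale

variable (Z : Zn M B) {kz : 𝒞 → ℕ} {m : 𝒞 → ℝ}

/-- **near the zone `B c` the scale is exactly `kz c`** -/
theorem K_zone [NeZero n] (hm : Room M B m) (hz : Fin1 M m kz) (k : J → ℕ) (a : Fin n → ℝ)
    {c : 𝒞} {x : Fin n → ℝ} (hx : infDist x (B c) < 1 / 2 ^ kz c) :
    K (outD (zn Z kz).D0 k M.W a) x = kz c := by
  have hC := M.hC
  have hp : (0 : ℝ) < 1 / 2 ^ kz c := by positivity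
  have hp' : (0 : ℝ) < 2 ^ kz c := by positivity
  have hpp : (2 : ℝ) ^ kz c * (1 / 2 ^ kz c) = 1 := by field_simp
  have hmc : (2 * M.D0.C + 2) * (1 / 2 ^ kz c) ≤ m c := by
    have := hz c
    rwa [div_eq_mul_one_div] at this
  have eC : M.D0.C / 2 ^ kz c = M.D0.C * (1 / 2 ^ kz c) := by rw [div_eq_mul_one_div]
  obtain ⟨b, hb, hxb⟩ := (Z.cpt c).exists_infDist_eq_dist (Z.ne c) x
  rw [hxb] at hx
  refine K_eq_of ?_ ?_
  · intro y hy
    rw [← one_div] at hy
    have hyb : dist y b ≤ 2 * (1 / 2 ^ kz c) := by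
      have := dist_triangle y x b
      rw [dist_comm y x] at this
      linarith
    have key : M.D0.C * (1 / 2 ^ kz c) ≤ (outD (zn Z kz).D0 k M.W a).ρ y := by
      refine le_outD ?_ ?_
      · change M.D0.C * (1 / 2 ^ kz c) ≤ (outD M.D0 kz B 0).ρ y
        refine le_outD ?_ ?_
        · have h1 := M.D0.lip b y
          have h2 := hm.rho c b hb
          rw [dist_comm] at h1
          nlinarith
        · intro c'
          by_cases hc : c' = c
          · subst hc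
            rw [eC]
            have := infDist_nonneg (s := B c') (x := y)
            linarith
          · have h1 := hm.zone c b hb c' hc
            have h2 := infDist_le_infDist_add_dist (s := B c') (x := b) (y := y)
            rw [dist_comm] at h2
            have h3 : 0 < M.D0.C / 2 ^ kz c' := by
              have := M.D0.C_pos
              positivity
            nlinarith
      · intro j
        have h3 : 0 < (zn Z kz).D0.C / 2 ^ k j := by
          have := (zn Z kz).D0.C_pos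
          positivity
        have h1 : m c ≤ infDist b (M.W j) := by
          rw [le_infDist (M.W_ne j)]
          intro w hw
          by_contra hcon
          push Not at hcon
          refine Set.disjoint_left.1 (hm.blk c b hb j) ?_ (M.W_sub_V j hw)
          rw [mem_ball, dist_comm]
          exact hcon
        have h2 := infDist_le_infDist_add_dist (s := M.W j) (x := b) (y := y)
        rw [dist_comm] at h2
        nlinarith
    calc (outD (zn Z kz).D0 k M.W a).C = M.D0.C * ((2 : ℝ) ^ kz c * (1 / 2 ^ kz c)) := by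
          rw [hpp, mul_one]; rfl
      _ = 2 ^ kz c * (M.D0.C * (1 / 2 ^ kz c)) := by ring
      _ ≤ _ := mul_le_mul_of_nonneg_left key hp'.le
  · have h1 : (outD (zn Z kz).D0 k M.W a).ρ x ≤ (outD M.D0 kz B 0).ρ x := outD_le_ρ0 x
    have h2 : (outD M.D0 kz B 0).ρ x ≤ M.D0.C / 2 ^ kz c + infDist x (B c) :=
      outD_le x (some c)
    rw [hxb, eC] at h2
    have h3 : (outD (zn Z kz).D0 k M.W a).ρ x < M.D0.C * (1 / 2 ^ kz c) + 1 / 2 ^ kz c := by
      linarith
    calc 2 ^ kz c * (outD (zn Z kz).D0 k M.W a).ρ x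
        < 2 ^ kz c * (M.D0.C * (1 / 2 ^ kz c) + 1 / 2 ^ kz c) := mul_lt_mul_of_pos_left h3 hp'
      _ = (M.D0.C + 1) * (2 ^ kz c * (1 / 2 ^ kz c)) := by ring
      _ = M.D0.C + 1 := by rw [hpp, mul_one]
      _ < 2 * M.D0.C := by linarith
      _ = 2 * (outD (zn Z kz).D0 k M.W a).C := rfl

/-- the outer cubes which meet the zone `B c` have the scale `kz c` -/
theorem tile_zone [NeZero n] (hm : Room M B m) (hz : Fin1 M m kz) (k : J → ℕ) (a : Fin n → ℝ)
    {c : 𝒞} {τ : Top (outD (zn Z kz).D0 k M.W a)} {y : E}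
    (hy : τ ∈ (tiling M.φ (outD (zn Z kz).D0 k M.W a)).at_ y) (hyB : M.φ y ∈ B c) :
    τ.1.1.k = kz c := by
  refine tile_k_eq hy ?_
  have h1 : IsOpen {x : Fin n → ℝ | infDist x (B c) < 1 / 2 ^ kz c} :=
    isOpen_lt (continuous_infDist_pt _) continuous_const
  have h2 : M.φ y ∈ {x : Fin n → ℝ | infDist x (B c) < 1 / 2 ^ kz c} := by
    show infDist (M.φ y) (B c) < 1 / 2 ^ kz c
    rw [infDist_zero_of_mem hyB]
    positivity
  filter_upwards [h1.mem_nhds h2] with x hx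
  exact K_zone Z hm hz k a hx

/-- **[ZLAT]** every tile of the mesh which meets the zone `B c` is a cube of the lattice
`a + 2 ^ (-kz c) ℤⁿ` -/
theorem lat [NeZero n] (hm : Room M B m) (hz : Fin1 M m kz) {k : J → ℕ} (hk : (zn Z kz).Sc k)
    (a : Fin n → ℝ) {v : J → E} (hv : (zn Z kz).Adm v) {c : 𝒞} (t)
    (ht : (P (((zn Z kz).mesh hk a hv).H t) ∩ M.φ ⁻¹' B c).Nonempty) :
    ∃ z, ((zn Z kz).mesh hk a hv).H t = Hc M.φ a (kz c) z := by
  obtain ⟨y, hy, hyB⟩ := ht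
  rcases t with p | ⟨j, i⟩
  · have hpar : y ∈ P (((zn Z kz).ad hk a hv).T0.H p.1.par) := cut_tile_sub (hA := AF_ne) p.1 hy
    have hkp : p.1.par.1.1.k = kz c := tile_zone Z hm hz k a (τ := p.1.par) hpar hyB
    -- the cube is not cut
    have hunc : ∀ j, Disjoint (P (((zn Z kz).ad hk a hv).T0.H p.1.par))
        (frontier ((zn Z kz).Bk v j).N) := by
      intro j
      rw [Set.disjoint_left]
      intro w hw hwf
      have h1 := dist_le_of_mem_Cu ((AD.tile_T0 (M := (zn Z kz).ad hk a hv) _).1 hw)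
        ((AD.tile_T0 (M := (zn Z kz).ad hk a hv) _).1 hpar)
      rw [hkp] at h1
      change 2 ^ kz c * dist (M.φ w) (M.φ y) ≤ 1 at h1
      have hp' : (0 : ℝ) < 2 ^ kz c := by positivity
      have h2 : dist (M.φ w) (M.φ y) ≤ 1 / 2 ^ kz c := by
        rw [le_div_iff₀' hp']; exact h1
      have h3 : (1 : ℝ) / 2 ^ kz c < m c := by
        refine lt_of_lt_of_le ?_ (hz c)
        have hC := M.hC
        exact div_lt_div_of_pos_right (by linarith) hp'
      have h4 : M.φ w ∈ M.V j := M.W_sub_V j (MD.wall_mem (M := zn Z kz) hv j hwf)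
      exact Set.disjoint_left.1 (hm.blk c (M.φ y) hyB j) (by rw [mem_ball]; linarith) h4
    have hA : AF ((zn Z kz).ad hk a hv).T0 ((zn Z kz).ad hk a hv).ψ ((zn Z kz).ad hk a hv).a'
        ((zn Z kz).ad hk a hv).κ ((zn Z kz).ad hk a hv).Z p.1.par = ∅ := AF_empty hunc
    have hsg : p.1.sg = ∅ := Finset.subset_empty.1 (hA ▸ p.1.2.1)
    refine ⟨p.1.par.1.1.z, ?_⟩
    have e1 : ((zn Z kz).mesh hk a hv).H (Sum.inl p) = cutH
        (((zn Z kz).ad hk a hv).T0.H p.1.par) (AF ((zn Z kz).ad hk a hv).T0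
          ((zn Z kz).ad hk a hv).ψ ((zn Z kz).ad hk a hv).a' ((zn Z kz).ad hk a hv).κ
          ((zn Z kz).ad hk a hv).Z p.1.par) p.1.sg := rfl
    have e2 : ∀ H : Finset ((E →L[ℝ] ℝ) × ℝ), cutH H ∅ ∅ = H := by
      intro H
      ext h
      rw [mem_cutH]
      simp
    rw [e1, hA, hsg, e2]
    show Hc M.φ a p.1.par.1.1.k p.1.par.1.1.z = Hc M.φ a (kz c) p.1.par.1.1.z
    rw [hkp]
  · exfalso
    have h1 : y ∈ ((zn Z kz).Bk v j).N := i.2 hy
    exact Set.disjoint_left.1 (Z.disV c j) hyB (MD.N_mem (M := zn Z kz) hv j h1)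

/-- **[ZLAT], with the choice of the scales** -/
theorem exists_lat [NeZero n] : ∃ kz0 : 𝒞 → ℕ, ∀ kz : 𝒞 → ℕ, (∀ c, kz0 c ≤ kz c) →
    ∃ k0 : J → ℕ, ∀ k : J → ℕ, (∀ j, k0 j ≤ k j) → ∃ hk : (zn Z kz).Sc k,
      ∀ (a : Fin n → ℝ) (v : J → E) (hv : (zn Z kz).Adm v) (c : 𝒞) (t),
        (P (((zn Z kz).mesh hk a hv).H t) ∩ M.φ ⁻¹' B c).Nonempty →
        ∃ z, ((zn Z kz).mesh hk a hv).H t = Hc M.φ a (kz c) z := by
  obtain ⟨m, hm⟩ := exists_room Z
  obtain ⟨kz0, hkz0⟩ := exists_fin1 (M := M) hm.pos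
  refine ⟨kz0, fun kz hkz => ?_⟩
  obtain ⟨k0, hk0⟩ := (zn Z kz).exists_thr
  refine ⟨k0, fun k hk => ⟨hk0 k hk, fun a v hv c t ht => ?_⟩⟩
  exact lat Z hm (hkz0 kz hkz) (hk0 k hk) a hv t ht

end scale

end Crest.Agent.R096.Zlt_798
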