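import Crest.Agent.R096.Ps8_273
import Crest.Agent.R096.Nsl1_552

/-!
# Row 96 (S0127), NO0-PRE (helper205), [ZSEL] of 552 #11087: choice of the slices

One finite set `Zs` of slices which avoids the balls round the tiny cores and for which the sums of the
ends (458), of the excesses of the edges and cubes (273 Ps8) and the number of the cubes inside `Rx`
are bounded by their averages over all slices (552's `exists_slices_block_e` with 7 functions).
-/

set_option autoImplicit false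
set_option linter.style.longLine false
set_option linter.unusedSectionVars false

open MeasureTheory Set Filter Metric
open scoped Topology ENNReal

namespace Crest.Agent.R096.Zsl_205

open Crest.Agent.R096.Msh_810 Crest.Agent.R96.En3_199
  Crest.Agent.R96.En4_199 Crest.Agent.R96.En5_199 Crest.Agent.R96.En6_199
  Crest.Agent.R96.En7_199 Crest.Agent.R96.En8_199 Crest.Agent.R96.En9_199
  Crest.Agent.R96.En11_199
open Crest.Agent.R096.No0_477 (vx cub Fc)
open Crest.Agent.R096.SkC1_961 (E3)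
open Crest.Agent.R096.Ps_273 Crest.Agent.R096.Nsl_552

noncomputable section

/-- the constant of the choice of the slices -/
def Kz (p : ℝ) : ℝ := 112 + 28 * (2 ^ (p - 1) * 2 ^ p) * (1 + 3 * (KC 3 p).toReal)

theorem Kz_pos (p : ℝ) : 0 < Kz p := by unfold Kz; positivity

theorem Ye_zero {n : ℕ} (D : Dat n) (l : Fin n) {p : ℝ} (hp : 0 < p) :
    Ye D l p (0 : Cel D → ℝ≥0∞) = 0 := by
  unfold Ye
  simp [ENNReal.zero_rpow_of_pos hp]

section aux

variable {L : ℕ} {r : ℝ} {k M : ℕ} {A : Finset ℤ}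

/-- `(2^k)³ / L ≤ #A M² / 2` -/
theorem pow_div_le (hL : 1 ≤ L) (hrk : r = ((2:ℝ) ^ k)⁻¹)
    (hN : 2 / L ≤ ((A.card : ℝ) * M ^ 2) * r ^ 3) {x : ℝ} (hx : 0 ≤ x) :
    ((2:ℝ≥0∞) ^ k) ^ 3 * ENNReal.ofReal (x / L) ≤ ENNReal.ofReal (x / 2 * M ^ 2) * A.card := by
  have hL0 : (0 : ℝ) < L := by exact_mod_cast hL
  have h2 : ((2:ℝ≥0∞) ^ k) ^ 3 = ENNReal.ofReal (((2:ℝ) ^ k) ^ 3) := by
    rw [ENNReal.ofReal_pow (by positivity), ENNReal.ofReal_pow (by norm_num)]; norm_num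
  rw [h2, ← ENNReal.ofReal_mul (by positivity), ← ENNReal.ofReal_natCast,
    ← ENNReal.ofReal_mul (by positivity)]
  refine ENNReal.ofReal_le_ofReal ?_
  have h3 : ((2:ℝ) ^ k) ^ 3 * (2 / L) ≤ (A.card : ℝ) * M ^ 2 := by
    calc ((2:ℝ) ^ k) ^ 3 * (2 / L) ≤ ((2:ℝ) ^ k) ^ 3 * (((A.card : ℝ) * M ^ 2) * r ^ 3) := by gcongr
      _ = _ := by rw [hrk]; field_simp
  have h4 := mul_le_mul_of_nonneg_left h3 (show 0 ≤ x / 2 by positivity)
  calc ((2:ℝ) ^ k) ^ 3 * (x / L) = x / 2 * (((2:ℝ) ^ k) ^ 3 * (2 / L)) := by field_simp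
    _ ≤ x / 2 * ((A.card : ℝ) * M ^ 2) := h4
    _ = _ := by ring

end aux

open Classical in
/-- **[ZSEL]** choice of the slices -/
theorem exists_Zs {p : ℝ} (hp : 1 ≤ p) {L : ℕ} (hL : 1 ≤ L) {D : Dat 3} {k : ℕ} {r : ℝ}
    (hrk : r = ((2:ℝ) ^ k)⁻¹) (hrL : 4 * L * r ≤ 1) {o : Fin 2 → ℤ} {M : ℕ} (hM : 0 < M)
    {A : Finset ℤ} (hA : ∀ m, m ∈ A ↔ |(L : ℝ) * (D.a 2 + r * m)| ≤ 1 / 2)
    (hN : 2 / L ≤ ((A.card : ℝ) * M ^ 2) * r ^ 3) {𝒞 : Type*} {w : 𝒞 → ℝ≥0∞}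
    {g : 𝒞 → Fin 3 → (Fin 3 → ℝ) → ℝ} {s : Fin 3 → ℝ≥0∞} {sm : ℝ} (hsm : 0 ≤ sm)
    (hs : ∀ l, s l ≤ ENNReal.ofReal sm) {κ' : ℝ} (hκ0 : 0 ≤ κ') (hκ1 : κ' ≤ 1) {e1 e2 e3 : ℝ}
    (he1 : 0 ≤ e1) (he2 : 0 ≤ e2) (he3 : 0 ≤ e3)
    (hE1 : ∀ j : Fin 2, Ed D j.castSucc 1 (Xs w g s j.castSucc) ≤ ENNReal.ofReal (e1 / L))
    (hEp : ∀ l, Ed D l p (Xs w g s l) ≤ ENNReal.ofReal (e1 / L)) {Rx : Set E3}
    (hS : S D p (Rx.indicator (GGw w g)) ≤ ENNReal.ofReal (e2 / L))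
    (hR : volume Rx ≤ ENNReal.ofReal (e3 / L)) {I : Type*} (Sc : Finset I) (x : I → E3) (ρ : I → ℝ)
    (hρ : ∀ c ∈ Sc, 0 ≤ ρ c) (hSb : ∑ c ∈ Sc, (ρ c + r) ≤ 1 / (32 * L)) (G : Fin 2 → ℤ → ℝ≥0∞)
    {e4 : ℝ} (he4 : 0 ≤ e4)
    (hG : ∀ j, ∑ m ∈ A, G j m ≤ ENNReal.ofReal (e4 * M) * A.card) :
    ∃ Zs : Finset ℤ, Zs ⊆ A ∧ Zs.Nonempty ∧ (A.card : ℝ) ≤ 2 * Zs.card ∧
      (∀ m ∈ Zs, |(L : ℝ) * (D.a 2 + r * m)| ≤ 1 / 2) ∧
      (∀ m ∈ Zs, ∀ c ∈ Sc, ρ c + r < |D.a 2 + r * m - x c 2|) ∧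
      (∀ m ∈ Zs, ∀ c ∈ Sc, ∀ (o : Fin 2 → ℤ) (v : Fin 2 → ℕ),
        Disjoint (cub (vx D.a r o m v) r) (closedBall (x c) (ρ c))) ∧
      (∀ j, ∑ m ∈ Zs, G j m ≤ ENNReal.ofReal (Kz p * e4 * (Zs.card * M))) ∧
      (∀ j, ∑ m ∈ Zs, ∑ v ∈ Fintype.piFinset fun _ : Fin 2 => Finset.range (M + 1),
        xE D k o w g s (ENNReal.ofReal κ') 0 j m v ≤
          ENNReal.ofReal (Kz p * (κ' * sm + e1) * (Zs.card * M ^ 2))) ∧
      ∑ m ∈ Zs, ∑ v ∈ Fintype.piFinset fun _ : Fin 2 => Finset.range M,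
        qE D k o w g s (1 + ENNReal.ofReal κ') 0 m v ^ p ≤
          ENNReal.ofReal (Kz p * e1 * (Zs.card * M ^ 2)) ∧
      ∑ m ∈ Zs, ∑ v ∈ Fintype.piFinset fun _ : Fin 2 => Finset.range M,
        (if cub (vx D.a r o m v) r ⊆ Rx then
          qH D k o w g (1 + ENNReal.ofReal κ') 0 m v ^ p else 0) ≤
          ENNReal.ofReal (Kz p * e2 * (Zs.card * M ^ 2)) ∧
      (((Fc M Zs).filter fun q => cub (vx D.a r o q.1 q.2) r ⊆ Rx).card : ℝ) ≤
        Kz p * e3 * (Zs.card * M ^ 2) := by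
  have hp0 : 0 < p := lt_of_lt_of_le one_pos hp
  have hr : 0 < r := by rw [hrk]; positivity
  have hL0 : (0 : ℝ) < L := by exact_mod_cast hL
  have hKC : KC 3 p ≠ ∞ := KC_ne_top hp
  set K0 : ℝ := (KC 3 p).toReal with hK0
  have hK00 : 0 ≤ K0 := ENNReal.toReal_nonneg
  have hKe : KC 3 p = ENNReal.ofReal K0 := (ENNReal.ofReal_toReal hKC).symm
  have hM1 : (1 : ℝ) ≤ M := by exact_mod_cast hM
  set Q : ℝ := 2 ^ (p - 1) * 2 ^ p with hQ
  have hQ0 : 0 < Q := by positivity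
  have hc2 : (1 + ENNReal.ofReal κ') ^ p ≤ ENNReal.ofReal (2 ^ p) := by
    rw [← ENNReal.ofReal_rpow_of_pos (by norm_num)]
    refine ENNReal.rpow_le_rpow ?_ hp0.le
    have : ENNReal.ofReal κ' ≤ 1 := by
      rw [← ENNReal.ofReal_one]; exact ENNReal.ofReal_le_ofReal hκ1
    calc 1 + ENNReal.ofReal κ' ≤ 1 + 1 := by gcongr
      _ = ENNReal.ofReal 2 := by norm_num
  have h2p : (2 : ℝ≥0∞) ^ (p - 1) = ENNReal.ofReal (2 ^ (p - 1)) := by
    rw [← ENNReal.ofReal_rpow_of_pos (by norm_num)]; norm_num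
  -- the seven functions
  set F : Fin 7 → ℤ → ℝ≥0∞ := ![G 0, G 1,
    fun m => ∑ v ∈ Fintype.piFinset fun _ : Fin 2 => Finset.range (M + 1),
      xE D k o w g s (ENNReal.ofReal κ') 0 0 m v,
    fun m => ∑ v ∈ Fintype.piFinset fun _ : Fin 2 => Finset.range (M + 1),
      xE D k o w g s (ENNReal.ofReal κ') 0 1 m v,
    fun m => ∑ v ∈ Fintype.piFinset fun _ : Fin 2 => Finset.range M,
      qE D k o w g s (1 + ENNReal.ofReal κ') 0 m v ^ p,
    fun m => ∑ v ∈ Fintype.piFinset fun _ : Fin 2 => Finset.range M,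
      (if cub (vx D.a r o m v) r ⊆ Rx then qH D k o w g (1 + ENNReal.ofReal κ') 0 m v ^ p else 0),
    fun m => ((((sqs M).filter fun v => cub (vx D.a r o m v) r ⊆ Rx).card : ℕ) : ℝ≥0∞)] with hF
  set ε : Fin 7 → ℝ≥0∞ := ![ENNReal.ofReal (e4 * M), ENNReal.ofReal (e4 * M),
    ENNReal.ofReal ((4 * (κ' * sm) + e1) * M ^ 2), ENNReal.ofReal ((4 * (κ' * sm) + e1) * M ^ 2),
    ENNReal.ofReal (3 * Q * K0 * e1 * M ^ 2), ENNReal.ofReal (Q * e2 * M ^ 2),
    ENNReal.ofReal (e3 * M ^ 2)] with hε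
  have hx : ∀ j : Fin 2, ∑ m ∈ A, ∑ v ∈ Fintype.piFinset fun _ : Fin 2 => Finset.range (M + 1),
      xE D k o w g s (ENNReal.ofReal κ') 0 j m v ≤
      ENNReal.ofReal ((4 * (κ' * sm) + e1) * M ^ 2) * A.card := by
    intro j
    refine (sum_xE (ENNReal.ofReal κ') 0 j A _).trans ?_
    rw [Ye_zero D _ one_pos, add_zero]
    have hcard : ((Fintype.piFinset fun _ : Fin 2 => Finset.range (M + 1)).card : ℝ≥0∞) ≤
        ENNReal.ofReal (4 * M ^ 2) := by
      rw [Fintype.card_piFinset, ← ENNReal.ofReal_natCast]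
      refine ENNReal.ofReal_le_ofReal ?_
      simp only [Finset.card_range, Fin.prod_univ_two]
      push_cast
      nlinarith
    have h1 : (1 + ENNReal.ofReal κ') ≤ ENNReal.ofReal 2 := by
      have : ENNReal.ofReal κ' ≤ 1 := by
        rw [← ENNReal.ofReal_one]; exact ENNReal.ofReal_le_ofReal hκ1
      calc 1 + ENNReal.ofReal κ' ≤ 1 + 1 := by gcongr
        _ = ENNReal.ofReal 2 := by norm_num
    calc ((A.card : ℝ≥0∞) * ((Fintype.piFinset fun _ : Fin 2 => Finset.range (M + 1)).card : ℝ≥0∞)) *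
        (ENNReal.ofReal κ' * s j.castSucc) + ((2:ℝ≥0∞) ^ k) ^ 3 *
          ((1 + ENNReal.ofReal κ') * Ed D j.castSucc 1 (Xs w g s j.castSucc))
        ≤ ((A.card : ℝ≥0∞) * ENNReal.ofReal (4 * M ^ 2)) *
          (ENNReal.ofReal κ' * ENNReal.ofReal sm) + ((2:ℝ≥0∞) ^ k) ^ 3 *
          (ENNReal.ofReal 2 * ENNReal.ofReal (e1 / L)) := by
          gcongr
          · exact hs _
          · exact hE1 j
      _ = ENNReal.ofReal (4 * (κ' * sm) * M ^ 2) * A.card +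
          ((2:ℝ≥0∞) ^ k) ^ 3 * ENNReal.ofReal ((2 * e1) / L) := by
          rw [← ENNReal.ofReal_mul hκ0, ← ENNReal.ofReal_mul (by norm_num), mul_comm (A.card : ℝ≥0∞),
            mul_right_comm, ← ENNReal.ofReal_mul (by positivity)]
          congr 2
          · congr 1; ring
          · congr 1; ring
      _ ≤ ENNReal.ofReal (4 * (κ' * sm) * M ^ 2) * A.card +
          ENNReal.ofReal ((2 * e1) / 2 * M ^ 2) * A.card := by
          exact add_le_add le_rfl (pow_div_le hL hrk hN (by positivity))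
      _ = _ := by
          rw [← add_mul, ← ENNReal.ofReal_add (by positivity) (by positivity)]
          congr 2; ring
  have hs7 : ∀ i, ∑ m ∈ A, F i m ≤ ε i * A.card := by
    intro i
    fin_cases i
    · exact hG 0
    · exact hG 1
    · exact hx 0
    · exact hx 1
    · -- cubes
      show ∑ m ∈ A, ∑ v ∈ Fintype.piFinset fun _ : Fin 2 => Finset.range M,
        qE D k o w g s (1 + ENNReal.ofReal κ') 0 m v ^ p ≤
          ENNReal.ofReal (3 * Q * K0 * e1 * M ^ 2) * A.card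
      refine (sum_qE hp (1 + ENNReal.ofReal κ') 0 A _).trans ?_
      have hz : ∑ l : Fin 3, Ye D l p (0 : Cel D → ℝ≥0∞) = 0 :=
        Finset.sum_eq_zero fun l _ => Ye_zero D l hp0
      rw [hz, add_zero]
      have hsum : ∑ l : Fin 3, Ed D l p (Xs w g s l) ≤ ENNReal.ofReal (3 * e1 / L) := by
        calc ∑ l : Fin 3, Ed D l p (Xs w g s l) ≤ ∑ _l : Fin 3, ENNReal.ofReal (e1 / L) :=
              Finset.sum_le_sum fun l _ => hEp l
          _ = ENNReal.ofReal (3 * e1 / L) := by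
              rw [Finset.sum_const, Finset.card_univ, Fintype.card_fin, nsmul_eq_mul,
                ← ENNReal.ofReal_natCast, ← ENNReal.ofReal_mul (by positivity)]
              congr 1; push_cast; ring
      calc ((2:ℝ≥0∞) ^ k) ^ 3 * (KC 3 p * (2 ^ (p - 1) *
          ((1 + ENNReal.ofReal κ') ^ p * ∑ l : Fin 3, Ed D l p (Xs w g s l))))
          ≤ ((2:ℝ≥0∞) ^ k) ^ 3 * (ENNReal.ofReal K0 * (ENNReal.ofReal (2 ^ (p - 1)) *
          (ENNReal.ofReal (2 ^ p) * ENNReal.ofReal (3 * e1 / L)))) := by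
            rw [hKe, h2p]
            gcongr
        _ = ((2:ℝ≥0∞) ^ k) ^ 3 * ENNReal.ofReal ((Q * K0 * (3 * e1)) / L) := by
            rw [← ENNReal.ofReal_mul (by positivity), ← ENNReal.ofReal_mul (by positivity),
              ← ENNReal.ofReal_mul (by positivity)]
            congr 2; rw [hQ]; ring
        _ ≤ ENNReal.ofReal ((Q * K0 * (3 * e1)) / 2 * M ^ 2) * A.card :=
            pow_div_le hL hrk hN (by positivity)
        _ ≤ _ := by
            gcongr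
            have : 0 ≤ Q * K0 * (3 * e1) := by positivity
            linarith
    · -- cubes inside `Rx`
      show ∑ m ∈ A, ∑ v ∈ Fintype.piFinset fun _ : Fin 2 => Finset.range M,
        (if cub (vx D.a r o m v) r ⊆ Rx then
          qH D k o w g (1 + ENNReal.ofReal κ') 0 m v ^ p else 0) ≤
          ENNReal.ofReal (Q * e2 * M ^ 2) * A.card
      have h1 := sum_qH (D := D) (k := k) (o := o) (w := w) (g := g) hp (1 + ENNReal.ofReal κ') 0 Rx A
        (Fintype.piFinset fun _ : Fin 2 => Finset.range M)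
      rw [← hrk] at h1
      refine h1.trans ?_
      have hz : ∑ l : Fin 3, Ye D l p (0 : Cel D → ℝ≥0∞) = 0 :=
        Finset.sum_eq_zero fun l _ => Ye_zero D l hp0
      rw [hz, mul_zero, add_zero]
      calc ((2:ℝ≥0∞) ^ k) ^ 3 * (2 ^ (p - 1) *
          ((1 + ENNReal.ofReal κ') ^ p * S D p (Rx.indicator (GGw w g))))
          ≤ ((2:ℝ≥0∞) ^ k) ^ 3 * (ENNReal.ofReal (2 ^ (p - 1)) *
          (ENNReal.ofReal (2 ^ p) * ENNReal.ofReal (e2 / L))) := by
            rw [h2p]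
            gcongr
        _ = ((2:ℝ≥0∞) ^ k) ^ 3 * ENNReal.ofReal ((Q * e2) / L) := by
            rw [← ENNReal.ofReal_mul (by positivity), ← ENNReal.ofReal_mul (by positivity)]
            congr 2; rw [hQ]; ring
        _ ≤ ENNReal.ofReal ((Q * e2) / 2 * M ^ 2) * A.card :=
            pow_div_le hL hrk hN (by positivity)
        _ ≤ _ := by
            gcongr
            have : 0 ≤ Q * e2 := by positivity
            linarith
    · -- number
      show ∑ m ∈ A, ((((sqs M).filter fun v => cub (vx D.a r o m v) r ⊆ Rx).card : ℕ) : ℝ≥0∞) ≤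
        ENNReal.ofReal (e3 * M ^ 2) * A.card
      have h1 := slice_card (a := D.a) hL hr o (M := M) (A := A) hN Rx he3 hR
        (fun m v => cub (vx D.a r o m v) r ⊆ Rx) (fun m _ v _ h => h)
      rw [← ENNReal.ofReal_natCast (A.card), ← ENNReal.ofReal_mul (by positivity)]
      refine le_trans (le_of_eq ?_) (ENNReal.ofReal_le_ofReal h1)
      rw [ENNReal.ofReal_sum_of_nonneg fun m _ => Nat.cast_nonneg _]
      refine Finset.sum_congr rfl fun m _ => ?_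
      rw [ENNReal.ofReal_natCast]
  obtain ⟨Zs, h1, h2, h3, h4, h5, h6, -, h7⟩ := exists_slices_block_e hL hr hrL hA Sc x ρ hρ hSb F ε
    (by intro i; fin_cases i <;> exact ENNReal.ofReal_ne_top) hs7
  have hK1 : 28 * (4 * (κ' * sm) + e1) ≤ Kz p * (κ' * sm + e1) := by
    have : 0 ≤ 28 * (2 ^ (p - 1) * 2 ^ p) * (1 + 3 * (KC 3 p).toReal) * (κ' * sm + e1) := by
      positivity
    unfold Kz
    nlinarith [mul_nonneg hκ0 hsm]
  have hK28 : 28 ≤ Kz p := by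
    have : 0 ≤ 28 * (2 ^ (p - 1) * 2 ^ p) * (1 + 3 * (KC 3 p).toReal) := by positivity
    unfold Kz; linarith
  have hKQ : 28 * Q ≤ Kz p := by
    have : 0 ≤ 28 * Q * (3 * K0) := by positivity
    unfold Kz
    rw [← hQ, ← hK0]; linarith
  have hKQ3 : 28 * (3 * Q * K0) ≤ Kz p := by
    unfold Kz
    rw [← hQ, ← hK0]
    nlinarith
  have conv : ∀ (i : Fin 7) (y : ℝ) (z : ℝ), 0 ≤ y → ε i = ENNReal.ofReal y → 28 * y ≤ z →
      4 * ((7 : ℕ) : ℝ≥0∞) * ε i * Zs.card ≤ ENNReal.ofReal (z * Zs.card) := by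
    intro i y z hy he hz
    rw [he]
    have e28 : 4 * ((7 : ℕ) : ℝ≥0∞) = ENNReal.ofReal 28 := by norm_num
    rw [e28, ← ENNReal.ofReal_mul (by norm_num), ← ENNReal.ofReal_natCast,
      ← ENNReal.ofReal_mul (by positivity)]
    exact ENNReal.ofReal_le_ofReal (mul_le_mul_of_nonneg_right hz (Nat.cast_nonneg _))
  refine ⟨Zs, h1, h2, h3, h4, h5, h6, ?_, ?_, ?_, ?_, ?_⟩
  · intro j
    have hz : 28 * (e4 * M) ≤ Kz p * e4 * M := by
      have := mul_le_mul_of_nonneg_right hK28 (show 0 ≤ e4 * M by positivity)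
      linarith
    have e : Kz p * e4 * (Zs.card * M) = (Kz p * e4 * M) * Zs.card := by ring
    rw [e]
    rcases Fin.exists_fin_two.1 ⟨j, rfl⟩ with rfl | rfl
    · exact (h7 0).trans (conv 0 _ _ (by positivity) rfl hz)
    · exact (h7 1).trans (conv 1 _ _ (by positivity) rfl hz)
  · intro j
    have hz : 28 * ((4 * (κ' * sm) + e1) * M ^ 2) ≤ Kz p * (κ' * sm + e1) * M ^ 2 := by
      have := mul_le_mul_of_nonneg_right hK1 (show (0:ℝ) ≤ (M:ℝ) ^ 2 by positivity)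
      linarith
    have e : Kz p * (κ' * sm + e1) * (Zs.card * M ^ 2) =
        (Kz p * (κ' * sm + e1) * M ^ 2) * Zs.card := by ring
    rw [e]
    rcases Fin.exists_fin_two.1 ⟨j, rfl⟩ with rfl | rfl
    · exact (h7 2).trans (conv 2 _ _ (by positivity) rfl hz)
    · exact (h7 3).trans (conv 3 _ _ (by positivity) rfl hz)
  · have hz : 28 * (3 * Q * K0 * e1 * M ^ 2) ≤ Kz p * e1 * M ^ 2 := by
      have := mul_le_mul_of_nonneg_right hKQ3 (show (0:ℝ) ≤ e1 * (M:ℝ) ^ 2 by positivity)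
      linarith
    have e : Kz p * e1 * (Zs.card * M ^ 2) = (Kz p * e1 * M ^ 2) * Zs.card := by ring
    rw [e]
    exact (h7 4).trans (conv 4 _ _ (by positivity) rfl hz)
  · have hz : 28 * (Q * e2 * M ^ 2) ≤ Kz p * e2 * M ^ 2 := by
      have := mul_le_mul_of_nonneg_right hKQ (show (0:ℝ) ≤ e2 * (M:ℝ) ^ 2 by positivity)
      linarith
    have e : Kz p * e2 * (Zs.card * M ^ 2) = (Kz p * e2 * M ^ 2) * Zs.card := by ring
    rw [e]
    exact (h7 5).trans (conv 5 _ _ (by positivity) rfl hz)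
  · have hz : 28 * (e3 * M ^ 2) ≤ Kz p * e3 * M ^ 2 := by
      have := mul_le_mul_of_nonneg_right hK28 (show (0:ℝ) ≤ e3 * (M:ℝ) ^ 2 by positivity)
      linarith
    have e : Kz p * e3 * (Zs.card * M ^ 2) = (Kz p * e3 * M ^ 2) * Zs.card := by ring
    rw [e]
    have h8 := (h7 6).trans (conv 6 _ _ (by positivity) rfl hz)
    have h9 : ∑ m ∈ Zs, F 6 m = ENNReal.ofReal
        (((Fc M Zs).filter fun q => cub (vx D.a r o q.1 q.2) r ⊆ Rx).card : ℝ) := by
      have e1 : ((Fc M Zs).filter fun q => cub (vx D.a r o q.1 q.2) r ⊆ Rx).card =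
          ∑ m ∈ Zs, ((sqs M).filter fun v => cub (vx D.a r o m v) r ⊆ Rx).card := by
        rw [Finset.card_filter, sum_Fc]
        refine Finset.sum_congr rfl fun m _ => ?_
        rw [Finset.card_filter]
      rw [ENNReal.ofReal_natCast, e1, Nat.cast_sum]
      rfl
    rw [h9] at h8
    have hz0 : 0 ≤ Kz p * e3 * M ^ 2 * Zs.card :=
      mul_nonneg (mul_nonneg (mul_nonneg (Kz_pos p).le he3) (sq_nonneg _)) (Nat.cast_nonneg _)
    exact (ENNReal.ofReal_le_ofReal_iff hz0).1 h8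

end

end Crest.Agent.R096.Zsl_205
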