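import Crest.Agent.R096.Nsl1_552
import Crest.Agent.R096.Ps8_273

/-!
Row 96 (S0127), helper207.  [ZSEL] of 552 #11087: choice of the slices `Zs` with the numbers of 273
(`xE`, `qE`, `qH`, errors `0`), 458's ends `G`, and the number of cubes inside `Rx`.
-/

set_option autoImplicit false
set_option linter.style.longLine false
set_option linter.unusedSectionVars false

open MeasureTheory Set Filter Topology Metric
open scoped ENNReal

namespace Crest.Agent.R096.Zsl_207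

open Crest.Agent.R096.Nsl_552 (exists_slices_block_e slice_card sum_Fc sqs)
open Crest.Agent.R096.Msh_810 Crest.Agent.R96.En3_199
  Crest.Agent.R96.En4_199 Crest.Agent.R96.En5_199 Crest.Agent.R96.En6_199
  Crest.Agent.R96.En7_199 Crest.Agent.R96.En8_199 Crest.Agent.R96.En9_199
  Crest.Agent.R96.En11_199 Crest.Agent.R96.Sg1_199
open Crest.Agent.R096.Ls_222
open Crest.Agent.R096.Ps_273
open Crest.Agent.R096.SkC1_961 (E3)
open Crest.Agent.R096.No0_477 (vx cub Fc)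

noncomputable section

/-- the constant of the choice of the slices -/
def Kz (p : ℝ) : ℝ := 84 * (4 ^ p * (1 + (KC 3 p).toReal))

theorem four_le {p : ℝ} (hp : 1 ≤ p) : (4:ℝ) ≤ 4 ^ p := by
  calc (4:ℝ) = 4 ^ (1:ℝ) := (Real.rpow_one 4).symm
    _ ≤ 4 ^ p := Real.rpow_le_rpow_of_exponent_le (by norm_num) hp

theorem Kz_ge {p : ℝ} (hp : 1 ≤ p) : 112 ≤ Kz p := by
  unfold Kz
  have h1 := four_le hp
  have h2 : 0 ≤ (KC 3 p).toReal := ENNReal.toReal_nonneg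
  nlinarith [mul_nonneg (by linarith : (0:ℝ) ≤ 4 ^ p) h2]

theorem Kz_nonneg {p : ℝ} (hp : 1 ≤ p) : 0 ≤ Kz p := by linarith [Kz_ge hp]

theorem Ye_zero (D : Dat 3) (l : Fin 3) {p : ℝ} (hp : 1 ≤ p) : Ye D l p 0 = 0 := by
  unfold Ye
  rw [ENNReal.tsum_eq_zero]
  intro σ
  rw [Pi.zero_apply, mul_zero, ENNReal.zero_rpow_of_pos (by linarith), mul_zero]

theorem rpow_bd {p κ' : ℝ} (hp : 1 ≤ p) (h1 : κ' ≤ 1) :
    (2:ℝ≥0∞) ^ (p - 1) * (1 + ENNReal.ofReal κ') ^ p ≤ ENNReal.ofReal (4 ^ p / 2) := by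
  have h2 : (1 + ENNReal.ofReal κ') ^ p ≤ (2:ℝ≥0∞) ^ p := by
    refine ENNReal.rpow_le_rpow ?_ (by linarith)
    calc 1 + ENNReal.ofReal κ' ≤ 1 + ENNReal.ofReal 1 := by gcongr
      _ = 2 := by rw [ENNReal.ofReal_one]; norm_num
  have e1 : (2:ℝ≥0∞) = ENNReal.ofReal 2 := by simp
  calc (2:ℝ≥0∞) ^ (p - 1) * (1 + ENNReal.ofReal κ') ^ p ≤ (2:ℝ≥0∞) ^ (p - 1) * (2:ℝ≥0∞) ^ p := by
        gcongr
    _ = ENNReal.ofReal (2 ^ (p - 1)) * ENNReal.ofReal (2 ^ p) := by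
        rw [e1, ENNReal.ofReal_rpow_of_nonneg (by norm_num) (by linarith),
          ENNReal.ofReal_rpow_of_nonneg (by norm_num) (by linarith)]
    _ = ENNReal.ofReal (2 ^ (p - 1) * 2 ^ p) := by rw [ENNReal.ofReal_mul (by positivity)]
    _ = ENNReal.ofReal (4 ^ p / 2) := by
        congr 1
        rw [Real.rpow_sub_one (by norm_num), show (4:ℝ) = 2 * 2 by norm_num,
          Real.mul_rpow (by norm_num) (by norm_num)]
        ring

section main

variable {L : ℕ} {r : ℝ} {k : ℕ}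

/-- `(2^k)³ x / L ≤ x / 2 · #A M²` -/
theorem pow_bd (hL : 1 ≤ L) (hrk : r = ((2:ℝ) ^ k)⁻¹) {M : ℕ} {A : Finset ℤ}
    (hN : 2 / L ≤ ((A.card : ℝ) * M ^ 2) * r ^ 3) {x : ℝ} (hx : 0 ≤ x) :
    ((2:ℝ≥0∞) ^ k) ^ 3 * ENNReal.ofReal (x / L) ≤ ENNReal.ofReal (x / 2 * M ^ 2) * A.card := by
  have hL0 : (0 : ℝ) < L := by exact_mod_cast hL
  have h2 : (0:ℝ) < 2 ^ k := by positivity
  have e1 : ((2:ℝ≥0∞) ^ k) ^ 3 = ENNReal.ofReal ((2 ^ k) ^ 3) := by
    rw [ENNReal.ofReal_pow (by positivity), ENNReal.ofReal_pow (by norm_num)]; simp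
  rw [e1, ← ENNReal.ofReal_mul (by positivity), ← ENNReal.ofReal_natCast,
    ← ENNReal.ofReal_mul (by positivity)]
  refine ENNReal.ofReal_le_ofReal ?_
  have h3 : (2 ^ k) ^ 3 * (2 / L) ≤ (A.card : ℝ) * M ^ 2 := by
    calc ((2:ℝ) ^ k) ^ 3 * (2 / L) ≤ (2 ^ k) ^ 3 * (((A.card : ℝ) * M ^ 2) * r ^ 3) := by gcongr
      _ = (A.card : ℝ) * M ^ 2 * (2 ^ k * r) ^ 3 := by ring
      _ = _ := by rw [hrk, mul_inv_cancel₀ h2.ne']; ring
  calc ((2:ℝ) ^ k) ^ 3 * (x / L) = x / 2 * ((2 ^ k) ^ 3 * (2 / L)) := by ring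
    _ ≤ x / 2 * ((A.card : ℝ) * M ^ 2) := by gcongr
    _ = _ := by ring

open Classical in
/-- **[ZSEL]: CHOICE OF THE SLICES** (552 #11087) -/
theorem exists_Zs {p : ℝ} (hp : 1 ≤ p) (hL : 1 ≤ L) {D : Dat 3} (hrk : r = ((2:ℝ) ^ k)⁻¹)
    (hrL : 4 * L * r ≤ 1) {o : Fin 2 → ℤ} {M : ℕ} (hM : 0 < M) {A : Finset ℤ}
    (hA : ∀ m, m ∈ A ↔ |(L:ℝ) * (D.a 2 + r * m)| ≤ 1 / 2)
    (hN : 2 / L ≤ ((A.card : ℝ) * M ^ 2) * r ^ 3)
    {𝒞 : Type*} {w : 𝒞 → ℝ≥0∞} {g : 𝒞 → Fin 3 → E3 → ℝ} {s : Fin 3 → ℝ≥0∞} {sm : ℝ}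
    (hsm : 0 ≤ sm) (hs : ∀ l, s l ≤ ENNReal.ofReal sm) {κ' : ℝ} (hκ0 : 0 ≤ κ') (hκ1 : κ' ≤ 1)
    {e1 e2 e3 : ℝ} (he1 : 0 ≤ e1) (he2 : 0 ≤ e2) (he3 : 0 ≤ e3)
    (hE1 : ∀ j : Fin 2, Ed D j.castSucc 1 (Xs w g s j.castSucc) ≤ ENNReal.ofReal (e1 / L))
    (hEp : ∀ l, Ed D l p (Xs w g s l) ≤ ENNReal.ofReal (e1 / L))
    {Rx : Set E3} (hS : S D p (Rx.indicator (GGw w g)) ≤ ENNReal.ofReal (e2 / L))
    (hR : volume Rx ≤ ENNReal.ofReal (e3 / L))
    {I : Type*} (S : Finset I) (x : I → E3) (ρ : I → ℝ) (hρ : ∀ c ∈ S, 0 ≤ ρ c)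
    (hSb : ∑ c ∈ S, (ρ c + r) ≤ 1 / (32 * L))
    (G : Fin 2 → ℤ → ℝ≥0∞) {e4 : ℝ} (he4 : 0 ≤ e4)
    (hG : ∀ j, ∑ m ∈ A, G j m ≤ ENNReal.ofReal (e4 * M) * A.card) :
    ∃ Zs : Finset ℤ, Zs ⊆ A ∧ Zs.Nonempty ∧ (A.card : ℝ) ≤ 2 * Zs.card ∧
      (∀ m ∈ Zs, |(L:ℝ) * (D.a 2 + r * m)| ≤ 1 / 2) ∧
      (∀ m ∈ Zs, ∀ c ∈ S, ρ c + r < |D.a 2 + r * m - x c 2|) ∧
      (∀ m ∈ Zs, ∀ c ∈ S, ∀ (o : Fin 2 → ℤ) (v : Fin 2 → ℕ),
        Disjoint (cub (vx D.a r o m v) r) (closedBall (x c) (ρ c))) ∧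
      (∀ j, ∑ m ∈ Zs, G j m ≤ ENNReal.ofReal (Kz p * e4 * (Zs.card * M))) ∧
      (∀ j, ∑ m ∈ Zs, ∑ v ∈ Fintype.piFinset fun _ : Fin 2 => Finset.range (M + 1),
        xE D k o w g s (ENNReal.ofReal κ') 0 j m v ≤
          ENNReal.ofReal (Kz p * (κ' * sm + e1) * (Zs.card * M ^ 2))) ∧
      ∑ m ∈ Zs, ∑ v ∈ Fintype.piFinset fun _ : Fin 2 => Finset.range M,
        qE D k o w g s (1 + ENNReal.ofReal κ') 0 m v ^ p ≤
          ENNReal.ofReal (Kz p * e1 * (Zs.card * M ^ 2)) ∧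
      ∑ m ∈ Zs, ∑ v ∈ Fintype.piFinset fun _ : Fin 2 => Finset.range M,
        (if cub (vx D.a r o m v) r ⊆ Rx then qH D k o w g (1 + ENNReal.ofReal κ') 0 m v ^ p
          else 0) ≤ ENNReal.ofReal (Kz p * e2 * (Zs.card * M ^ 2)) ∧
      (((Fc M Zs).filter fun q => cub (vx D.a r o q.1 q.2) r ⊆ Rx).card : ℝ) ≤
        Kz p * e3 * (Zs.card * M ^ 2) := by
  classical
  have hr : 0 < r := by rw [hrk]; positivity
  have hL0 : (0 : ℝ) < L := by exact_mod_cast hL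
  have hM1 : (1:ℝ) ≤ M := by exact_mod_cast hM
  have h4 := four_le hp
  set KT : ℝ := (KC 3 p).toReal with hKT
  have hKT0 : 0 ≤ KT := ENNReal.toReal_nonneg
  have hKC : KC 3 p = ENNReal.ofReal KT := (ENNReal.ofReal_toReal (KC_ne_top hp)).symm
  -- the functions
  set F : Fin 7 → ℤ → ℝ≥0∞ := ![G 0, G 1,
    fun m => ∑ v ∈ Fintype.piFinset fun _ : Fin 2 => Finset.range (M + 1),
      xE D k o w g s (ENNReal.ofReal κ') 0 0 m v,
    fun m => ∑ v ∈ Fintype.piFinset fun _ : Fin 2 => Finset.range (M + 1),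
      xE D k o w g s (ENNReal.ofReal κ') 0 1 m v,
    fun m => ∑ v ∈ Fintype.piFinset fun _ : Fin 2 => Finset.range M,
      qE D k o w g s (1 + ENNReal.ofReal κ') 0 m v ^ p,
    fun m => ∑ v ∈ Fintype.piFinset fun _ : Fin 2 => Finset.range M,
      (if cub (vx D.a r o m v) r ⊆ Rx then qH D k o w g (1 + ENNReal.ofReal κ') 0 m v ^ p else 0),
    fun m => (((sqs M).filter fun v => cub (vx D.a r o m v) r ⊆ Rx).card : ℝ≥0∞)] with hF
  set ε : Fin 7 → ℝ≥0∞ := ![ENNReal.ofReal (e4 * M), ENNReal.ofReal (e4 * M),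
    ENNReal.ofReal ((4 * κ' * sm + e1) * M ^ 2), ENNReal.ofReal ((4 * κ' * sm + e1) * M ^ 2),
    ENNReal.ofReal ((3 * (4 ^ p * KT)) * e1 * M ^ 2), ENNReal.ofReal (4 ^ p * e2 * M ^ 2),
    ENNReal.ofReal (e3 * M ^ 2)] with hε
  have hxE : ∀ j : Fin 2, ∑ m ∈ A, ∑ v ∈ Fintype.piFinset fun _ : Fin 2 => Finset.range (M + 1),
      xE D k o w g s (ENNReal.ofReal κ') 0 j m v ≤
      ENNReal.ofReal ((4 * κ' * sm + e1) * M ^ 2) * A.card := by
    intro j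
    refine (sum_xE (D := D) (k := k) (o := o) (w := w) (g := g) (s := s) (ENNReal.ofReal κ') 0 j A
      _).trans ?_
    rw [Ye_zero D _ le_rfl, add_zero]
    have c1 : ((Fintype.piFinset fun _ : Fin 2 => Finset.range (M + 1)).card : ℝ≥0∞) =
        ENNReal.ofReal ((M + 1) ^ 2) := by
      rw [Fintype.card_piFinset]
      simp only [Finset.card_range, Finset.prod_const, Finset.card_univ, Fintype.card_fin]
      rw [← ENNReal.ofReal_natCast]
      push_cast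
      rfl
    have c2 : (A.card : ℝ≥0∞) * ((Fintype.piFinset fun _ : Fin 2 => Finset.range (M + 1)).card) *
        (ENNReal.ofReal κ' * s j.castSucc) ≤
        ENNReal.ofReal (4 * κ' * sm * M ^ 2) * A.card := by
      rw [c1]
      calc (A.card : ℝ≥0∞) * ENNReal.ofReal ((M + 1) ^ 2) * (ENNReal.ofReal κ' * s j.castSucc) ≤
          (A.card : ℝ≥0∞) * ENNReal.ofReal (4 * M ^ 2) *
            (ENNReal.ofReal κ' * ENNReal.ofReal sm) := by
            gcongr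
            · nlinarith
            · exact hs _
        _ = _ := by
            rw [← ENNReal.ofReal_mul hκ0, mul_assoc, ← ENNReal.ofReal_mul (by positivity), mul_comm]
            congr 2; ring
    have c3 : ((2:ℝ≥0∞) ^ k) ^ 3 * ((1 + ENNReal.ofReal κ') * Ed D j.castSucc 1
        (Xs w g s j.castSucc)) ≤ ENNReal.ofReal (e1 * M ^ 2) * A.card := by
      have c4 : 1 + ENNReal.ofReal κ' ≤ 2 := by
        calc 1 + ENNReal.ofReal κ' ≤ 1 + ENNReal.ofReal 1 := by gcongr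
          _ = 2 := by rw [ENNReal.ofReal_one]; norm_num
      calc ((2:ℝ≥0∞) ^ k) ^ 3 * ((1 + ENNReal.ofReal κ') * Ed D j.castSucc 1
          (Xs w g s j.castSucc)) ≤ ((2:ℝ≥0∞) ^ k) ^ 3 * (2 * ENNReal.ofReal (e1 / L)) := by
            gcongr; exact hE1 j
        _ = ((2:ℝ≥0∞) ^ k) ^ 3 * ENNReal.ofReal (2 * e1 / L) := by
            congr 1
            rw [show (2:ℝ≥0∞) = ENNReal.ofReal 2 by simp, ← ENNReal.ofReal_mul (by norm_num)]
            congr 1; ring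
        _ ≤ ENNReal.ofReal (2 * e1 / 2 * M ^ 2) * A.card := pow_bd hL hrk hN (by positivity)
        _ = _ := by congr 2; ring
    refine (add_le_add c2 c3).trans ?_
    rw [← add_mul, ← ENNReal.ofReal_add (by positivity) (by positivity)]
    gcongr
    exact le_of_eq (by ring)
  have hqE : ∑ m ∈ A, ∑ v ∈ Fintype.piFinset fun _ : Fin 2 => Finset.range M,
      qE D k o w g s (1 + ENNReal.ofReal κ') 0 m v ^ p ≤
      ENNReal.ofReal ((3 * (4 ^ p * KT)) * e1 * M ^ 2) * A.card := by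
    refine (sum_qE (D := D) (k := k) (o := o) (w := w) (g := g) (s := s) hp
      (1 + ENNReal.ofReal κ') 0 A _).trans ?_
    have c1 : ∑ l : Fin 3, Ye D l p 0 = 0 := Finset.sum_eq_zero fun l _ => Ye_zero D l hp
    rw [c1, add_zero]
    have c2 : ∑ l : Fin 3, Ed D l p (Xs w g s l) ≤ ENNReal.ofReal (3 * e1 / L) := by
      calc ∑ l : Fin 3, Ed D l p (Xs w g s l) ≤ ∑ _l : Fin 3, ENNReal.ofReal (e1 / L) :=
            Finset.sum_le_sum fun l _ => hEp l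
        _ = 3 * ENNReal.ofReal (e1 / L) := by
            rw [Finset.sum_const, Finset.card_univ, Fintype.card_fin, nsmul_eq_mul]; norm_num
        _ = _ := by
            rw [show (3:ℝ≥0∞) = ENNReal.ofReal 3 by simp, ← ENNReal.ofReal_mul (by norm_num)]
            congr 1; ring
    calc ((2:ℝ≥0∞) ^ k) ^ 3 * (KC 3 p * (2 ^ (p - 1) *
          ((1 + ENNReal.ofReal κ') ^ p * ∑ l : Fin 3, Ed D l p (Xs w g s l)))) ≤
        ((2:ℝ≥0∞) ^ k) ^ 3 * (KC 3 p * (ENNReal.ofReal (4 ^ p / 2) *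
          ENNReal.ofReal (3 * e1 / L))) := by
          rw [← mul_assoc ((2:ℝ≥0∞) ^ (p - 1))]
          gcongr
          exact rpow_bd hp hκ1
      _ = ((2:ℝ≥0∞) ^ k) ^ 3 * ENNReal.ofReal ((KT * (4 ^ p / 2) * (3 * e1)) / L) := by
          congr 1
          rw [hKC, ← ENNReal.ofReal_mul (by positivity), ← ENNReal.ofReal_mul (by positivity)]
          congr 1; ring
      _ ≤ ENNReal.ofReal ((KT * (4 ^ p / 2) * (3 * e1)) / 2 * M ^ 2) * A.card :=
          pow_bd hL hrk hN (by positivity)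
      _ ≤ _ := by
          gcongr
          have c3 : 0 ≤ 4 ^ p * KT * e1 := by positivity
          linarith
  have hqH : ∑ m ∈ A, ∑ v ∈ Fintype.piFinset fun _ : Fin 2 => Finset.range M,
      (if cub (vx D.a r o m v) r ⊆ Rx then qH D k o w g (1 + ENNReal.ofReal κ') 0 m v ^ p
        else 0) ≤ ENNReal.ofReal (4 ^ p * e2 * M ^ 2) * A.card := by
    have c0 := sum_qH (D := D) (k := k) (o := o) (w := w) (g := g) hp
      (1 + ENNReal.ofReal κ') 0 Rx A (Fintype.piFinset fun _ : Fin 2 => Finset.range M)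
    rw [← hrk] at c0
    refine c0.trans ?_
    have c1 : ∑ l : Fin 3, Ye D l p 0 = 0 := Finset.sum_eq_zero fun l _ => Ye_zero D l hp
    rw [c1, mul_zero, add_zero]
    calc ((2:ℝ≥0∞) ^ k) ^ 3 * (2 ^ (p - 1) *
          ((1 + ENNReal.ofReal κ') ^ p * R96.En4_199.S D p (Rx.indicator (GGw w g)))) ≤
        ((2:ℝ≥0∞) ^ k) ^ 3 * (ENNReal.ofReal (4 ^ p / 2) * ENNReal.ofReal (e2 / L)) := by
          rw [← mul_assoc ((2:ℝ≥0∞) ^ (p - 1))]
          gcongr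
          exact rpow_bd hp hκ1
      _ = ((2:ℝ≥0∞) ^ k) ^ 3 * ENNReal.ofReal (((4 ^ p / 2) * e2) / L) := by
          congr 1
          rw [← ENNReal.ofReal_mul (by positivity)]
          congr 1; ring
      _ ≤ ENNReal.ofReal (((4 ^ p / 2) * e2) / 2 * M ^ 2) * A.card :=
          pow_bd hL hrk hN (by positivity)
      _ ≤ _ := by
          gcongr
          have c3 : 0 ≤ 4 ^ p * e2 := by positivity
          linarith
  have hcd : ∑ m ∈ A, (((sqs M).filter fun v => cub (vx D.a r o m v) r ⊆ Rx).card : ℝ≥0∞) ≤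
      ENNReal.ofReal (e3 * M ^ 2) * A.card := by
    have c1 := slice_card hL hr o hN Rx he3 hR (fun m v => cub (vx D.a r o m v) r ⊆ Rx)
      (fun m _ v _ h => h)
    have c2 := ENNReal.ofReal_le_ofReal c1
    rw [ENNReal.ofReal_sum_of_nonneg (fun _ _ => Nat.cast_nonneg _),
      ENNReal.ofReal_mul (by positivity), ENNReal.ofReal_natCast] at c2
    simpa only [ENNReal.ofReal_natCast] using c2
  obtain ⟨Zs, z1, z2, z3, z4, z5, z6, -, z8⟩ := exists_slices_block_e hL hr hrL hA S x ρ hρ hSb F ε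
    (by
      intro i
      fin_cases i <;> simp [hε, ENNReal.ofReal_ne_top]) (by
      intro i
      fin_cases i
      · exact hG 0
      · exact hG 1
      · exact hxE 0
      · exact hxE 1
      · exact hqE
      · exact hqH
      · exact hcd)
  refine ⟨Zs, z1, z2, z3, z4, z5, z6, ?_⟩
  clear hA z4
  obtain ⟨N, hNe, hN0⟩ : ∃ N : ℝ, (Zs.card : ℝ) = N ∧ 0 ≤ N := ⟨_, rfl, Nat.cast_nonneg _⟩
  have key : ∀ {a b : ℝ}, 28 * a * N ≤ b →
      4 * ((7:ℕ) : ℝ≥0∞) * ENNReal.ofReal a * Zs.card ≤ ENNReal.ofReal b := by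
    intro a b hab
    have c1 : 4 * ((7:ℕ) : ℝ≥0∞) = ENNReal.ofReal 28 := by
      rw [show (28:ℝ) = 4 * 7 by norm_num, ENNReal.ofReal_mul (by norm_num)]; simp
    rw [c1, ← ENNReal.ofReal_mul (by norm_num), ← ENNReal.ofReal_natCast, hNe,
      ← ENNReal.ofReal_mul' hN0]
    exact ENNReal.ofReal_le_ofReal hab
  have hKz := Kz_ge hp
  have hKz2 : 84 * (4 ^ p * KT) ≤ Kz p := by
    unfold Kz; rw [← hKT]; linarith
  have hKz3 : 84 * 4 ^ p ≤ Kz p := by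
    unfold Kz; rw [← hKT]
    have : 0 ≤ 4 ^ p * KT := by positivity
    linarith
  have c2 : (((Fc M Zs).filter fun q => cub (vx D.a r o q.1 q.2) r ⊆ Rx).card : ℝ≥0∞) =
      ∑ m ∈ Zs, (((sqs M).filter fun v => cub (vx D.a r o m v) r ⊆ Rx).card : ℝ≥0∞) := by
    rw [Finset.card_filter, sum_Fc, Nat.cast_sum]
    refine Finset.sum_congr rfl fun m _ => ?_
    rw [Finset.card_filter]
  clear z1 z2 z3 z5 z6 hρ hSb
  simp only [hNe]
  refine ⟨?_, ?_, ?_, ?_, ?_⟩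
  · have c : 28 * (e4 * M) * N ≤ Kz p * e4 * (N * M) := by
      calc 28 * (e4 * M) * N = 28 * (e4 * (N * M)) := by ring
        _ ≤ Kz p * (e4 * (N * M)) := by gcongr; linarith
        _ = _ := by ring
    intro j
    fin_cases j
    · exact (z8 0).trans (key c)
    · exact (z8 1).trans (key c)
  · have c : 28 * ((4 * κ' * sm + e1) * M ^ 2) * N ≤ Kz p * (κ' * sm + e1) * (N * M ^ 2) := by
      have c1 : 28 * (4 * κ' * sm + e1) ≤ Kz p * (κ' * sm + e1) := by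
        have c2 : 0 ≤ κ' * sm := by positivity
        nlinarith
      calc 28 * ((4 * κ' * sm + e1) * M ^ 2) * N =
            28 * (4 * κ' * sm + e1) * (N * M ^ 2) := by ring
        _ ≤ _ := by gcongr
    intro j
    fin_cases j
    · exact (z8 2).trans (key c)
    · exact (z8 3).trans (key c)
  · refine (z8 4).trans (key ?_)
    calc 28 * (3 * (4 ^ p * KT) * e1 * M ^ 2) * N =
          84 * (4 ^ p * KT) * e1 * (N * M ^ 2) := by ring
      _ ≤ _ := by gcongr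
  · refine (z8 5).trans (key ?_)
    calc 28 * (4 ^ p * e2 * M ^ 2) * N ≤ 84 * 4 ^ p * e2 * (N * M ^ 2) := by
          have : 0 ≤ 4 ^ p * e2 * (N * M ^ 2) := by positivity
          linarith
      _ ≤ _ := by gcongr
  · have c1 := (z8 6).trans (key (a := e3 * M ^ 2) (b := Kz p * e3 * (N * M ^ 2)) (by
        calc 28 * (e3 * M ^ 2) * N = 28 * e3 * (N * M ^ 2) := by ring
          _ ≤ _ := by gcongr; linarith))
    have c3 : (((Fc M Zs).filter fun q => cub (vx D.a r o q.1 q.2) r ⊆ Rx).card : ℝ≥0∞) ≤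
        ENNReal.ofReal (Kz p * e3 * (N * M ^ 2)) := by
      rw [c2]; exact c1
    rw [← ENNReal.ofReal_natCast] at c3
    exact (ENNReal.ofReal_le_ofReal_iff (by
      have := Kz_nonneg hp
      positivity)).1 c3

end main

end

end Crest.Agent.R096.Zsl_207
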