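import Crest.Agent.R096.Nsl1_552
import Crest.Agent.R096.Ps8_273

/-!
Row 96 (S0127), helper798.  NOPre, `p < 3`: [ZSEL] of 552 #11087.

* `Kz` : the constant (depends on `p` only)
* `exists_Zs` : **choice of the slices** on 324's block, with `er = 0`
-/

set_option autoImplicit false
set_option linter.style.longLine false
set_option linter.unusedSectionVars false

open MeasureTheory Set Filter Metric
open scoped Topology ENNReal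

namespace Crest.Agent.R096.Zsl_798

open Crest.Agent.R096.Msh_810 Crest.Agent.R96.En3_199
  Crest.Agent.R96.En4_199 Crest.Agent.R96.En5_199 Crest.Agent.R96.En6_199
  Crest.Agent.R96.En7_199 Crest.Agent.R96.En8_199 Crest.Agent.R96.En9_199
  Crest.Agent.R96.En11_199 Crest.Agent.R96.Sg1_199
open Crest.Agent.R096.Ls_222 Crest.Agent.R096.Ps_273
open Crest.Agent.R096.No0_477 (vx cub Fc)
open Crest.Agent.R096.SkC1_961 (E3)
open Crest.Agent.R096.Nsl_552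

noncomputable section

/-- the constant of the choice of the slices -/
def Kz (p : ℝ) : ℝ := 28 * (4 + (2:ℝ) ^ p * 2 ^ p * (1 + 3 * (KC 3 p).toReal))

theorem Kz_ge (p : ℝ) : 112 ≤ Kz p ∧ 28 * ((2:ℝ) ^ p * 2 ^ p) ≤ Kz p ∧
    28 * ((2:ℝ) ^ p * 2 ^ p * (3 * (KC 3 p).toReal)) ≤ Kz p := by
  have h1 : (0:ℝ) < 2 ^ p := Real.rpow_pos_of_pos (by norm_num) p
  have h2 : 0 ≤ (KC 3 p).toReal := ENNReal.toReal_nonneg
  have h3 : (0:ℝ) < 2 ^ p * 2 ^ p := mul_pos h1 h1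
  have h4 : 0 ≤ (2:ℝ) ^ p * 2 ^ p * (3 * (KC 3 p).toReal) := by positivity
  have e : Kz p = 112 + 28 * ((2:ℝ) ^ p * 2 ^ p) + 28 * ((2:ℝ) ^ p * 2 ^ p * (3 * (KC 3 p).toReal)) := by
    unfold Kz; ring
  rw [e]
  exact ⟨by linarith, by linarith, by linarith⟩

theorem Kz_nonneg (p : ℝ) : 0 ≤ Kz p := by
  have := (Kz_ge p).1
  linarith

theorem Ye_zero {D : Dat 3} (l : Fin 3) {p : ℝ} (hp : 0 < p) : Ye D l p (0 : Cel D → ℝ≥0∞) = 0 := by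
  unfold Ye
  refine ENNReal.tsum_eq_zero.2 fun σ => ?_
  rw [Pi.zero_apply, mul_zero, ENNReal.zero_rpow_of_pos hp, mul_zero]

/-- `2^{3k} x ≤ e M² #A` if `x ≤ e / L` -/
theorem scale {k L M : ℕ} {r : ℝ} (hrk : r = ((2:ℝ) ^ k)⁻¹) (hL : 1 ≤ L) {A : Finset ℤ}
    (hN : 2 / L ≤ ((A.card:ℝ) * M ^ 2) * r ^ 3) {x : ℝ≥0∞} {e : ℝ} (he : 0 ≤ e)
    (hx : x ≤ ENNReal.ofReal (e / L)) :
    2 * (((2:ℝ≥0∞) ^ k) ^ 3 * x) ≤ ENNReal.ofReal (e * M ^ 2) * A.card := by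
  have hL0 : (0:ℝ) < L := by exact_mod_cast hL
  have h2 : (0:ℝ) < 2 ^ k := by positivity
  have e2 : (2:ℝ≥0∞) * ((2:ℝ≥0∞) ^ k) ^ 3 = ENNReal.ofReal (2 * ((2:ℝ) ^ k) ^ 3) := by
    rw [ENNReal.ofReal_mul (by norm_num), ENNReal.ofReal_pow (by positivity),
      ENNReal.ofReal_pow (by norm_num)]
    norm_num
  have h3 : ((2:ℝ) ^ k) ^ 3 * r ^ 3 = 1 := by
    rw [hrk, ← mul_pow, mul_inv_cancel₀ h2.ne', one_pow]
  have h4 : 2 * ((2:ℝ) ^ k) ^ 3 * (e / L) ≤ e * M ^ 2 * A.card := by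
    have h5 : ((2:ℝ) ^ k) ^ 3 * (2 / L) ≤ (A.card:ℝ) * M ^ 2 := by
      calc ((2:ℝ) ^ k) ^ 3 * (2 / L) ≤ ((2:ℝ) ^ k) ^ 3 * (((A.card:ℝ) * M ^ 2) * r ^ 3) :=
            mul_le_mul_of_nonneg_left hN (by positivity)
        _ = ((A.card:ℝ) * M ^ 2) * (((2:ℝ) ^ k) ^ 3 * r ^ 3) := by ring
        _ = _ := by rw [h3, mul_one]
    calc 2 * ((2:ℝ) ^ k) ^ 3 * (e / L) = e * (((2:ℝ) ^ k) ^ 3 * (2 / L)) := by ring
      _ ≤ e * ((A.card:ℝ) * M ^ 2) := mul_le_mul_of_nonneg_left h5 he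
      _ = _ := by ring
  calc 2 * (((2:ℝ≥0∞) ^ k) ^ 3 * x) ≤ ENNReal.ofReal (2 * ((2:ℝ) ^ k) ^ 3) *
        ENNReal.ofReal (e / L) := by
        rw [← e2, mul_assoc]
        gcongr
    _ = ENNReal.ofReal (2 * ((2:ℝ) ^ k) ^ 3 * (e / L)) := by
        rw [← ENNReal.ofReal_mul (by positivity)]
    _ ≤ ENNReal.ofReal (e * M ^ 2 * A.card) := ENNReal.ofReal_le_ofReal h4
    _ = _ := by rw [ENNReal.ofReal_mul (by positivity), ENNReal.ofReal_natCast]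

theorem card_pi (M : ℕ) : (Fintype.piFinset fun _ : Fin 2 => Finset.range M).card = M ^ 2 := by
  rw [Fintype.card_piFinset]
  simp [sq]

theorem four_seven {x y : ℝ} (hy : 0 ≤ y) (n : ℕ) (hxy : 28 * x ≤ y) :
    4 * ((7 : ℕ) : ℝ≥0∞) * ENNReal.ofReal x * (n : ℝ≥0∞) ≤ ENNReal.ofReal (y * n) := by
  have h1 : 4 * ((7 : ℕ) : ℝ≥0∞) = ENNReal.ofReal 28 := by norm_num
  rw [h1, ← ENNReal.ofReal_mul (by norm_num), ENNReal.ofReal_mul hy, ENNReal.ofReal_natCast]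
  gcongr

section main

variable {p : ℝ} {L : ℕ} {D : Dat 3} {k : ℕ} {r : ℝ} {o : Fin 2 → ℤ} {M : ℕ} {A : Finset ℤ}
  {𝒞 : Type*} {w : 𝒞 → ℝ≥0∞} {g : 𝒞 → Fin 3 → (Fin 3 → ℝ) → ℝ} {s : Fin 3 → ℝ≥0∞} {sm κ' : ℝ}

theorem avg_xE (hL : 1 ≤ L) (hrk : r = ((2:ℝ) ^ k)⁻¹) (hM : 0 < M)
    (hN : 2 / L ≤ ((A.card:ℝ) * M ^ 2) * r ^ 3) (hsm : 0 ≤ sm)
    (hs : ∀ l, s l ≤ ENNReal.ofReal sm) (hκ : 0 ≤ κ') (hκ1 : κ' ≤ 1) {e1 : ℝ} (he1 : 0 ≤ e1)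
    (j : Fin 2) (hE : Ed D j.castSucc 1 (Xs w g s j.castSucc) ≤ ENNReal.ofReal (e1 / L)) :
    ∑ m ∈ A, ∑ v ∈ Fintype.piFinset fun _ : Fin 2 => Finset.range (M + 1),
      xE D k o w g s (ENNReal.ofReal κ') 0 j m v ≤
      ENNReal.ofReal (4 * (κ' * sm + e1) * M ^ 2) * A.card := by
  refine (sum_xE (D := D) (k := k) (o := o) (w := w) (g := g) (s := s) (ENNReal.ofReal κ') 0 j A
    (Fintype.piFinset fun _ : Fin 2 => Finset.range (M + 1))).trans ?_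
  rw [Ye_zero _ one_pos, add_zero, card_pi]
  have h1 : ((2:ℝ≥0∞) ^ k) ^ 3 * ((1 + ENNReal.ofReal κ') *
      Ed D j.castSucc 1 (Xs w g s j.castSucc)) ≤ ENNReal.ofReal (e1 * M ^ 2) * A.card := by
    refine le_trans ?_ (scale hrk hL hN he1 hE)
    have h2 : (1 + ENNReal.ofReal κ' : ℝ≥0∞) ≤ 2 := by
      have : ENNReal.ofReal κ' ≤ 1 := by
        rw [← ENNReal.ofReal_one]; exact ENNReal.ofReal_le_ofReal hκ1
      calc (1 + ENNReal.ofReal κ' : ℝ≥0∞) ≤ 1 + 1 := by gcongr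
        _ = 2 := by norm_num
    calc _ ≤ ((2:ℝ≥0∞) ^ k) ^ 3 * (2 * Ed D j.castSucc 1 (Xs w g s j.castSucc)) := by gcongr
      _ = _ := by ring
  have hM1 : ((M + 1 : ℕ) : ℝ) ^ 2 ≤ 4 * M ^ 2 := by
    have : (1:ℝ) ≤ M := by exact_mod_cast hM
    push_cast
    nlinarith
  have h3 : ((A.card : ℝ≥0∞) * (((M + 1) ^ 2 : ℕ) : ℝ≥0∞)) * (ENNReal.ofReal κ' * s j.castSucc) ≤
      ENNReal.ofReal (4 * (κ' * sm) * M ^ 2) * A.card := by
    have h4 : (((M + 1) ^ 2 : ℕ) : ℝ≥0∞) ≤ ENNReal.ofReal (4 * M ^ 2) := by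
      rw [← ENNReal.ofReal_natCast]
      refine ENNReal.ofReal_le_ofReal ?_
      push_cast
      push_cast at hM1
      exact hM1
    calc _ ≤ ((A.card : ℝ≥0∞) * ENNReal.ofReal (4 * M ^ 2)) *
          (ENNReal.ofReal κ' * ENNReal.ofReal sm) := by gcongr; exact hs _
      _ = (ENNReal.ofReal (4 * M ^ 2) * (ENNReal.ofReal κ' * ENNReal.ofReal sm)) * A.card := by ring
      _ = _ := by
          rw [← ENNReal.ofReal_mul hκ, ← ENNReal.ofReal_mul (by positivity)]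
          congr 2; ring
  refine (add_le_add h3 h1).trans ?_
  rw [← add_mul, ← ENNReal.ofReal_add (by positivity) (by positivity)]
  gcongr
  nlinarith [mul_nonneg he1 (sq_nonneg (M:ℝ))]

theorem c_rpow {p κ' : ℝ} (hp : 1 ≤ p) (hκ1 : κ' ≤ 1) :
    (2:ℝ≥0∞) ^ (p - 1) * (1 + ENNReal.ofReal κ') ^ p ≤ ENNReal.ofReal ((2:ℝ) ^ p * 2 ^ p) := by
  have h2 : (1 + ENNReal.ofReal κ' : ℝ≥0∞) ≤ 2 := by
    have : ENNReal.ofReal κ' ≤ 1 := by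
      rw [← ENNReal.ofReal_one]; exact ENNReal.ofReal_le_ofReal hκ1
    calc (1 + ENNReal.ofReal κ' : ℝ≥0∞) ≤ 1 + 1 := by gcongr
      _ = 2 := by norm_num
  have e : ENNReal.ofReal ((2:ℝ) ^ p * 2 ^ p) = (2:ℝ≥0∞) ^ p * 2 ^ p := by
    rw [ENNReal.ofReal_mul (by positivity), ← ENNReal.ofReal_rpow_of_nonneg (by norm_num)
      (by linarith)]
    norm_num
  rw [e]
  refine mul_le_mul' ?_ (ENNReal.rpow_le_rpow h2 (by linarith))
  exact ENNReal.rpow_le_rpow_of_exponent_le (by norm_num) (by linarith)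

theorem avg_qE (hp : 1 ≤ p) (hL : 1 ≤ L) (hrk : r = ((2:ℝ) ^ k)⁻¹)
    (hN : 2 / L ≤ ((A.card:ℝ) * M ^ 2) * r ^ 3) (hκ1 : κ' ≤ 1) {e1 : ℝ} (he1 : 0 ≤ e1)
    (hE : ∀ l, Ed D l p (Xs w g s l) ≤ ENNReal.ofReal (e1 / L)) :
    ∑ m ∈ A, ∑ v ∈ Fintype.piFinset fun _ : Fin 2 => Finset.range M,
      qE D k o w g s (1 + ENNReal.ofReal κ') 0 m v ^ p ≤
      ENNReal.ofReal ((2:ℝ) ^ p * 2 ^ p * (3 * (KC 3 p).toReal) * e1 * M ^ 2) * A.card := by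
  refine (sum_qE (D := D) (k := k) (o := o) (w := w) (g := g) (s := s) hp (1 + ENNReal.ofReal κ') 0 A
    (Fintype.piFinset fun _ : Fin 2 => Finset.range M)).trans ?_
  have h0 : ∑ l : Fin 3, Ye D l p (0 : Cel D → ℝ≥0∞) = 0 :=
    Finset.sum_eq_zero fun l _ => Ye_zero l (by linarith)
  rw [h0, add_zero]
  have hE' : ∑ l : Fin 3, Ed D l p (Xs w g s l) ≤ 3 * ENNReal.ofReal (e1 / L) := by
    refine (Finset.sum_le_sum fun l _ => hE l).trans (le_of_eq ?_)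
    rw [Finset.sum_const, Finset.card_univ, Fintype.card_fin, nsmul_eq_mul]; norm_num
  have hC : KC 3 p = ENNReal.ofReal (KC 3 p).toReal := (ENNReal.ofReal_toReal (KC_ne_top hp)).symm
  have h1 := scale (k := k) hrk hL hN he1 (le_refl (ENNReal.ofReal (e1 / L)))
  have h1' : ((2:ℝ≥0∞) ^ k) ^ 3 * ENNReal.ofReal (e1 / L) ≤
      ENNReal.ofReal (e1 * M ^ 2) * A.card := by
    refine le_trans ?_ h1
    exact le_mul_of_one_le_left (zero_le) (by norm_num)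
  have h2 : (0:ℝ) < 2 ^ p := Real.rpow_pos_of_pos (by norm_num) p
  calc _ ≤ ((2:ℝ≥0∞) ^ k) ^ 3 * (KC 3 p * ((2:ℝ≥0∞) ^ (p - 1) *
        ((1 + ENNReal.ofReal κ') ^ p * (3 * ENNReal.ofReal (e1 / L))))) := by gcongr
    _ = KC 3 p * (3 * ((2:ℝ≥0∞) ^ (p - 1) * (1 + ENNReal.ofReal κ') ^ p)) *
        (((2:ℝ≥0∞) ^ k) ^ 3 * ENNReal.ofReal (e1 / L)) := by ring
    _ ≤ KC 3 p * (3 * ENNReal.ofReal ((2:ℝ) ^ p * 2 ^ p)) *
        (ENNReal.ofReal (e1 * M ^ 2) * A.card) := by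
        gcongr
        exact c_rpow hp hκ1
    _ = (ENNReal.ofReal (KC 3 p).toReal * (ENNReal.ofReal 3 * ENNReal.ofReal ((2:ℝ) ^ p * 2 ^ p)) *
        ENNReal.ofReal (e1 * M ^ 2)) * A.card := by
        rw [← hC]
        norm_num
        ring
    _ = _ := by
        rw [← ENNReal.ofReal_mul (by norm_num), ← ENNReal.ofReal_mul ENNReal.toReal_nonneg,
          ← ENNReal.ofReal_mul (by positivity)]
        congr 2; ring

open Classical in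
theorem avg_qH (hp : 1 ≤ p) (hL : 1 ≤ L) (hrk : r = ((2:ℝ) ^ k)⁻¹)
    (hN : 2 / L ≤ ((A.card:ℝ) * M ^ 2) * r ^ 3) (hκ1 : κ' ≤ 1) {e2 : ℝ} (he2 : 0 ≤ e2)
    {Rx : Set E3} (hS : S D p (Rx.indicator (GGw w g)) ≤ ENNReal.ofReal (e2 / L)) :
    ∑ m ∈ A, ∑ v ∈ Fintype.piFinset fun _ : Fin 2 => Finset.range M,
      (if cub (vx D.a r o m v) r ⊆ Rx then qH D k o w g (1 + ENNReal.ofReal κ') 0 m v ^ p else 0) ≤
      ENNReal.ofReal ((2:ℝ) ^ p * 2 ^ p * e2 * M ^ 2) * A.card := by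
  have h9 := sum_qH (D := D) (k := k) (o := o) (w := w) (g := g) hp (1 + ENNReal.ofReal κ') 0 Rx A
    (Fintype.piFinset fun _ : Fin 2 => Finset.range M)
  rw [← hrk] at h9
  refine h9.trans ?_
  have h0 : ∑ l : Fin 3, Ye D l p (0 : Cel D → ℝ≥0∞) = 0 :=
    Finset.sum_eq_zero fun l _ => Ye_zero l (by linarith)
  rw [h0, mul_zero, add_zero]
  have h1 := scale (k := k) hrk hL hN he2 hS
  have h1' : ((2:ℝ≥0∞) ^ k) ^ 3 * S D p (Rx.indicator (GGw w g)) ≤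
      ENNReal.ofReal (e2 * M ^ 2) * A.card := by
    refine le_trans ?_ h1
    exact le_mul_of_one_le_left (zero_le) (by norm_num)
  have h2 : (0:ℝ) < 2 ^ p := Real.rpow_pos_of_pos (by norm_num) p
  calc _ = ((2:ℝ≥0∞) ^ (p - 1) * (1 + ENNReal.ofReal κ') ^ p) *
        (((2:ℝ≥0∞) ^ k) ^ 3 * S D p (Rx.indicator (GGw w g))) := by ring
    _ ≤ ENNReal.ofReal ((2:ℝ) ^ p * 2 ^ p) * (ENNReal.ofReal (e2 * M ^ 2) * A.card) := by
        gcongr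
        exact c_rpow hp hκ1
    _ = _ := by
        rw [← mul_assoc, ← ENNReal.ofReal_mul (by positivity)]
        congr 2; ring

open Classical in
/-- **[ZSEL]: choice of the slices, `er = 0`** -/
theorem exists_Zs (hp : 1 ≤ p) (hL : 1 ≤ L) (hrk : r = ((2:ℝ) ^ k)⁻¹) (hrL : 4 * L * r ≤ 1)
    (hM : 0 < M) (hA : ∀ m, m ∈ A ↔ |(L:ℝ) * (D.a 2 + r * m)| ≤ 1 / 2)
    (hN : 2 / L ≤ ((A.card:ℝ) * M ^ 2) * r ^ 3) (hsm : 0 ≤ sm)
    (hs : ∀ l, s l ≤ ENNReal.ofReal sm) (hκ : 0 ≤ κ') (hκ1 : κ' ≤ 1)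
    {e1 e2 e3 : ℝ} (he1 : 0 ≤ e1) (he2 : 0 ≤ e2) (he3 : 0 ≤ e3)
    (hE1 : ∀ j : Fin 2, Ed D j.castSucc 1 (Xs w g s j.castSucc) ≤ ENNReal.ofReal (e1 / L))
    (hEp : ∀ l, Ed D l p (Xs w g s l) ≤ ENNReal.ofReal (e1 / L))
    {Rx : Set E3} (hS : S D p (Rx.indicator (GGw w g)) ≤ ENNReal.ofReal (e2 / L))
    (hR : volume Rx ≤ ENNReal.ofReal (e3 / L))
    {I : Type*} (Sc : Finset I) (x : I → E3) (ρ : I → ℝ) (hρ : ∀ c ∈ Sc, 0 ≤ ρ c)
    (hSb : ∑ c ∈ Sc, (ρ c + r) ≤ 1 / (32 * L)) (G : Fin 2 → ℤ → ℝ≥0∞) {e4 : ℝ} (he4 : 0 ≤ e4)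
    (hG : ∀ j, ∑ m ∈ A, G j m ≤ ENNReal.ofReal (e4 * M) * A.card) :
    ∃ Zs : Finset ℤ, Zs ⊆ A ∧ Zs.Nonempty ∧ (A.card:ℝ) ≤ 2 * Zs.card ∧
      (∀ m ∈ Zs, |(L:ℝ) * (D.a 2 + r * m)| ≤ 1 / 2) ∧
      (∀ m ∈ Zs, ∀ c ∈ Sc, ρ c + r < |D.a 2 + r * m - x c 2|) ∧
      (∀ m ∈ Zs, ∀ c ∈ Sc, ∀ (o : Fin 2 → ℤ) (v : Fin 2 → ℕ),
        Disjoint (cub (vx D.a r o m v) r) (closedBall (x c) (ρ c))) ∧
      (∀ j, ∑ m ∈ Zs, G j m ≤ ENNReal.ofReal (Kz p * e4 * (Zs.card * M))) ∧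
      (∀ j, ∑ m ∈ Zs, ∑ v ∈ Fintype.piFinset fun _ : Fin 2 => Finset.range (M + 1),
        xE D k o w g s (ENNReal.ofReal κ') 0 j m v ≤
          ENNReal.ofReal (Kz p * (κ' * sm + e1) * (Zs.card * M ^ 2))) ∧
      ∑ m ∈ Zs, ∑ v ∈ Fintype.piFinset fun _ : Fin 2 => Finset.range M,
        qE D k o w g s (1 + ENNReal.ofReal κ') 0 m v ^ p ≤
          ENNReal.ofReal (Kz p * e1 * (Zs.card * M ^ 2)) ∧
      ∑ m ∈ Zs, ∑ v ∈ Fintype.piFinset fun _ : Fin 2 => Finset.range M,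
        (if cub (vx D.a r o m v) r ⊆ Rx then
          qH D k o w g (1 + ENNReal.ofReal κ') 0 m v ^ p else 0) ≤
          ENNReal.ofReal (Kz p * e2 * (Zs.card * M ^ 2)) ∧
      (((Fc M Zs).filter fun q => cub (vx D.a r o q.1 q.2) r ⊆ Rx).card:ℝ) ≤
        Kz p * e3 * (Zs.card * M ^ 2) := by
  have hr : 0 < r := by rw [hrk]; positivity
  have hp2 : (0:ℝ) < 2 ^ p := Real.rpow_pos_of_pos (by norm_num) p
  set X : Fin 2 → ℤ → ℝ≥0∞ := fun j m =>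
    ∑ v ∈ Fintype.piFinset fun _ : Fin 2 => Finset.range (M + 1),
      xE D k o w g s (ENNReal.ofReal κ') 0 j m v with hXd
  set Qe : ℤ → ℝ≥0∞ := fun m => ∑ v ∈ Fintype.piFinset fun _ : Fin 2 => Finset.range M,
    qE D k o w g s (1 + ENNReal.ofReal κ') 0 m v ^ p with hQe
  set Qh : ℤ → ℝ≥0∞ := fun m => ∑ v ∈ Fintype.piFinset fun _ : Fin 2 => Finset.range M,
    (if cub (vx D.a r o m v) r ⊆ Rx then
      qH D k o w g (1 + ENNReal.ofReal κ') 0 m v ^ p else 0) with hQh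
  set Cc : ℤ → ℝ≥0∞ := fun m =>
    (((sqs M).filter fun v => cub (vx D.a r o m v) r ⊆ Rx).card : ℝ≥0∞) with hCc
  have hX : ∀ j, ∑ m ∈ A, X j m ≤ ENNReal.ofReal (4 * (κ' * sm + e1) * M ^ 2) * A.card :=
    fun j => avg_xE hL hrk hM hN hsm hs hκ hκ1 he1 j (hE1 j)
  have hQ := avg_qE (o := o) hp hL hrk hN hκ1 he1 hEp
  have hH := avg_qH (o := o) hp hL hrk hN hκ1 he2 hS
  have hC : ∑ m ∈ A, Cc m ≤ ENNReal.ofReal (e3 * M ^ 2) * A.card := by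
    have h1 := slice_card (a := D.a) hL hr o hN Rx he3 hR
      (fun m v => cub (vx D.a r o m v) r ⊆ Rx) (fun m _ v _ h => h)
    have h2 : ∑ m ∈ A, Cc m = ENNReal.ofReal
        (∑ m ∈ A, (((sqs M).filter fun v => cub (vx D.a r o m v) r ⊆ Rx).card : ℝ)) := by
      rw [ENNReal.ofReal_sum_of_nonneg fun _ _ => Nat.cast_nonneg _]
      exact Finset.sum_congr rfl fun m _ => (ENNReal.ofReal_natCast _).symm
    rw [h2]
    refine (ENNReal.ofReal_le_ofReal h1).trans (le_of_eq ?_)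
    rw [ENNReal.ofReal_mul (by positivity), ENNReal.ofReal_natCast]
  obtain ⟨Zs, h1, h2, h3, h4, h5, h6, -, h8⟩ := exists_slices_block_e (a := D.a) hL hr hrL hA Sc x ρ
    hρ hSb (k := 7) ![G 0, G 1, X 0, X 1, Qe, Qh, Cc]
    ![ENNReal.ofReal (e4 * M), ENNReal.ofReal (e4 * M),
      ENNReal.ofReal (4 * (κ' * sm + e1) * M ^ 2), ENNReal.ofReal (4 * (κ' * sm + e1) * M ^ 2),
      ENNReal.ofReal ((2:ℝ) ^ p * 2 ^ p * (3 * (KC 3 p).toReal) * e1 * M ^ 2),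
      ENNReal.ofReal ((2:ℝ) ^ p * 2 ^ p * e2 * M ^ 2), ENNReal.ofReal (e3 * M ^ 2)]
    (by intro i; fin_cases i <;> exact ENNReal.ofReal_ne_top)
    (by
      intro i
      fin_cases i
      · exact hG 0
      · exact hG 1
      · exact hX 0
      · exact hX 1
      · exact hQ
      · exact hH
      · exact hC)
  obtain ⟨k1, k2, k3⟩ := Kz_ge p
  have hM2 : (0:ℝ) ≤ (M:ℝ) ^ 2 := sq_nonneg _
  have hKn : 0 ≤ (KC 3 p).toReal := ENNReal.toReal_nonneg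
  refine ⟨Zs, h1, h2, h3, h4, h5, h6, ?_, ?_, ?_, ?_, ?_⟩
  · have hG' : ∀ j : Fin 2, ∑ m ∈ Zs, G j m ≤ 4 * ((7:ℕ) : ℝ≥0∞) * ENNReal.ofReal (e4 * M) * Zs.card := by
      intro j
      fin_cases j
      · exact h8 0
      · exact h8 1
    intro j
    refine (hG' j).trans ((four_seven (y := Kz p * e4 * M) (by have := Kz_nonneg p; positivity)
      _ ?_).trans (le_of_eq ?_))
    · have h9 : 0 ≤ e4 * M := by positivity
      nlinarith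
    · congr 1; ring
  · have hX' : ∀ j : Fin 2, ∑ m ∈ Zs, X j m ≤
        4 * ((7:ℕ) : ℝ≥0∞) * ENNReal.ofReal (4 * (κ' * sm + e1) * M ^ 2) * Zs.card := by
      intro j
      fin_cases j
      · exact h8 2
      · exact h8 3
    intro j
    refine (hX' j).trans ((four_seven (y := Kz p * (κ' * sm + e1) * M ^ 2)
      (by have := Kz_nonneg p; positivity) _ ?_).trans (le_of_eq ?_))
    · have h9 : 0 ≤ (κ' * sm + e1) * M ^ 2 := by positivity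
      nlinarith
    · congr 1; ring
  · refine (h8 4).trans ((four_seven (y := Kz p * e1 * M ^ 2)
      (by have := Kz_nonneg p; positivity) _ ?_).trans (le_of_eq ?_))
    · have h9 : 0 ≤ e1 * (M:ℝ) ^ 2 := by positivity
      calc 28 * ((2:ℝ) ^ p * 2 ^ p * (3 * (KC 3 p).toReal) * e1 * M ^ 2) =
          28 * ((2:ℝ) ^ p * 2 ^ p * (3 * (KC 3 p).toReal)) * (e1 * M ^ 2) := by ring
        _ ≤ Kz p * (e1 * M ^ 2) := mul_le_mul_of_nonneg_right k3 h9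
        _ = _ := by ring
    · congr 1; ring
  · refine (h8 5).trans ((four_seven (y := Kz p * e2 * M ^ 2)
      (by have := Kz_nonneg p; positivity) _ ?_).trans (le_of_eq ?_))
    · have h9 : 0 ≤ e2 * (M:ℝ) ^ 2 := by positivity
      calc 28 * ((2:ℝ) ^ p * 2 ^ p * e2 * M ^ 2) = 28 * ((2:ℝ) ^ p * 2 ^ p) * (e2 * M ^ 2) := by ring
        _ ≤ Kz p * (e2 * M ^ 2) := mul_le_mul_of_nonneg_right k2 h9
        _ = _ := by ring
    · congr 1; ring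
  · have h9 := (h8 6).trans (four_seven (x := e3 * M ^ 2) (y := Kz p * e3 * M ^ 2)
      (by have := Kz_nonneg p; positivity) Zs.card (by
        have h9 : 0 ≤ e3 * (M:ℝ) ^ 2 := by positivity
        nlinarith))
    have e5 : (∑ m ∈ Zs, Cc m) = ENNReal.ofReal
        (((Fc M Zs).filter fun q => cub (vx D.a r o q.1 q.2) r ⊆ Rx).card:ℝ) := by
      rw [ENNReal.ofReal_natCast, Finset.card_filter, sum_Fc, Nat.cast_sum]
      refine Finset.sum_congr rfl fun m _ => ?_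
      rw [hCc]
      simp only [Finset.card_filter]
    have h10 : ENNReal.ofReal
        (((Fc M Zs).filter fun q => cub (vx D.a r o q.1 q.2) r ⊆ Rx).card:ℝ) ≤
        ENNReal.ofReal (Kz p * e3 * M ^ 2 * Zs.card) := by
      rw [← e5]; exact h9
    have h11 := (ENNReal.ofReal_le_ofReal_iff (by have := Kz_nonneg p; positivity)).1 h10
    calc _ ≤ Kz p * e3 * M ^ 2 * Zs.card := h11
      _ = _ := by ring

end main

end

end Crest.Agent.R096.Zsl_798
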